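import Mathlib

set_option autoImplicit false

/-!
Row 320: both schemes on blocks (walls on all words) from a scheme-1 gadget without small walls.
Hypotheses of helper163's `top`: `s1`, `s2`, `cc`.
-/

namespace Crest.Agent.R320.AU1_238

open List

variable {α : Type} {S V : Type}

structure Par (α : Type) where
  Wo : List α → Prop
  n : ℕ
  M : ℕ
  Z : ℕ → ℕ
  p0 : ℕ
  N : ℕ
  BadT : ℕ → Prop
  zmin : ℕ

def AdmO (p : Par α) (o : ℕ) (Q : List α) : Prop :=
  p.Wo Q ∧ p.Z ((Q.length + o) % p.M) ≤ Q.length + o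

def XO (p : Par α) (o : ℕ) (Q : List α) : Prop :=
  AdmO p o Q ∧ ∀ t < Q.length, ¬ AdmO p o (Q.take t)

def XX (p : Par α) : Set (List α) := {X | XO p 0 X}

def EB (p : Par α) (o : ℕ) (Q : List α) : Prop :=
  ∃ t ≤ Q.length, p.Wo (Q.take t) ∧ t + o ≤ p.Z ((t + o) % p.M) + p.N ∧
    p.Z ((t + o) % p.M) ≤ t + o + p.N

def BadO (p : Par α) (o : ℕ) (Q : List α) : Prop :=
  EB p o Q ∨ ∃ t ≤ Q.length, XO p o (Q.take t) ∧ p.BadT (t + o - p.p0)

structure Par.Ok (p : Par α) : Prop where
  n_pos : 0 < p.n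
  wo_len : ∀ Q, p.Wo Q → p.n ≤ Q.length
  wo_app : ∀ P Q, p.n ≤ Q.length → (p.Wo (P ++ Q) ↔ p.Wo Q)
  zmin_le : ∀ r, p.zmin ≤ p.Z r
  zmin_big : p.p0 + 2 * p.N + p.n < p.zmin
  zmax : ∀ r, p.Z r + p.p0 ≤ 2 * p.zmin

variable {p : Par α} (ok : p.Ok)

include ok

theorem adm_iff (P Q : List α) (h : P.length + p.n ≤ p.zmin) :
    AdmO p 0 (P ++ Q) ↔ AdmO p P.length Q := by
  unfold AdmO
  by_cases hn : p.n ≤ Q.length
  · rw [ok.wo_app P Q hn, List.length_append,
      show P.length + Q.length + 0 = Q.length + P.length by omega]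
  · constructor
    · rintro ⟨-, h2⟩
      have := ok.zmin_le (((P ++ Q).length + 0) % p.M)
      rw [List.length_append] at *
      omega
    · rintro ⟨h1, -⟩
      exact absurd (ok.wo_len _ h1) hn

theorem take_app (P Q : List α) (t : ℕ) : (P ++ Q).take (P.length + t) = P ++ Q.take t := by
  simp [List.take_append]

theorem xo_iff (P Q : List α) (h : P.length + p.n ≤ p.zmin) :
    XO p 0 (P ++ Q) ↔ XO p P.length Q := by
  unfold XO
  rw [adm_iff ok P Q h]
  refine and_congr_right fun _ => ⟨fun H t ht => ?_, fun H t ht => ?_⟩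
  · have := H (P.length + t) (by simp; omega)
    rwa [take_app ok, adm_iff ok _ _ h] at this
  · by_cases hp : P.length ≤ t
    · obtain ⟨t', rfl⟩ := Nat.exists_eq_add_of_le hp
      rw [take_app ok, adm_iff ok _ _ h]
      exact H t' (by simp at ht; omega)
    · rintro ⟨-, h2⟩
      have h3 := ok.zmin_le ((((P ++ Q).take t).length + 0) % p.M)
      have h4 : ((P ++ Q).take t).length ≤ t := by simp
      have := ok.n_pos
      omega

theorem exists_first (o : ℕ) (Q : List α) (h : AdmO p o Q) :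
    ∃ t ≤ Q.length, XO p o (Q.take t) := by
  classical
  have hex : ∃ t, t ≤ Q.length ∧ AdmO p o (Q.take t) := ⟨Q.length, le_rfl, by simpa using h⟩
  refine ⟨Nat.find hex, (Nat.find_spec hex).1, (Nat.find_spec hex).2, fun t ht => ?_⟩
  have h1 := (Nat.find_spec hex).1
  rw [List.length_take, min_eq_left h1] at ht
  rw [List.take_take, min_eq_left ht.le]
  intro h2
  exact Nat.find_min hex ht ⟨by omega, h2⟩

theorem xo_unique (o : ℕ) (Q : List α) (t t' : ℕ) (ht : t ≤ Q.length) (ht' : t' ≤ Q.length)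
    (h : XO p o (Q.take t)) (h' : XO p o (Q.take t')) : t = t' := by
  rcases lt_trichotomy t t' with hl | hl | hl
  · exfalso
    have := h'.2 t (by rw [List.length_take]; omega)
    rw [List.take_take, min_eq_left hl.le] at this
    exact this h.1
  · exact hl
  · exfalso
    have := h.2 t' (by rw [List.length_take]; omega)
    rw [List.take_take, min_eq_left hl.le] at this
    exact this h'.1

theorem xx_len (X : List α) (h : X ∈ XX p) : p.zmin ≤ X.length := by
  have := ok.zmin_le ((X.length + 0) % p.M)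
  have h2 := h.1.2
  omega

theorem hnil : ([] : List α) ∉ XX p := by
  intro h
  have := xx_len ok _ h
  have := ok.zmin_big
  simp at *
  omega

theorem hPC (X : List α) (h : X ∈ XX p) (Y : List α) (h' : X ++ Y ∈ XX p) : Y = [] := by
  by_contra hY
  have hY' : 0 < Y.length := List.length_pos_iff.2 hY
  have := h'.2 X.length (by simp; omega)
  rw [List.take_left] at this
  exact this h.1

/-! ### data -/

omit ok

structure Dat (α S V : Type) where
  p : Par α
  φ : List α → S
  act : V → S → V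
  lam1 : List α → Option V
  rho1 : List α → Option V
  nu1 : List α → V
  K : ℕ
  c : ℕ → ℕ
  lam2 : ℕ → List α → Option V
  rho2 : ℕ → List α → Option V
  nu2 : List α → V

variable [Monoid S] [AddCommGroup V]

structure Dat.Ok (D : Dat α S V) : Prop where
  ok : D.p.Ok
  phi_mul : ∀ u v, D.φ (u ++ v) = D.φ u * D.φ v
  act_mul : ∀ v s s', D.act (D.act v s) s' = D.act v (s * s')
  act_add : ∀ v w s, D.act (v + w) s = D.act v s + D.act w s
  lam_len : ∀ P v, D.lam1 P = some v → D.p.M ∣ P.length ∧ P.length ≤ D.p.N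
  sound1 : ∀ P Q v r, D.lam1 P = some v → D.rho1 Q = some r →
    r = D.act v (D.φ (P ++ Q)) + D.nu1 (P ++ Q)
  complete1 : ∀ u, 2 * D.p.N ≤ u.length → ¬ D.p.BadT u.length → ∀ v, ∃ P Q, P ++ Q = u ∧
    D.lam1 P = some v ∧ (D.rho1 Q).isSome
  c_le : ∀ k < D.K, D.c k ≤ D.p.p0
  c_inj : ∀ k < D.K, ∀ k' < D.K, D.c k = D.c k' → k = k'
  sound2 : ∀ k < D.K, ∀ P Q v b, P.length = D.c k → D.lam2 k P = some v → D.rho2 k Q = some b →
    b = D.act v (D.φ (P ++ Q)) + D.nu2 (P ++ Q)

variable {D : Dat α S V}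

def TT (D : Dat α S V) (v : V) (X : List α) : V :=
  D.act (D.act v (D.φ (X.take D.p.p0)) + D.nu2 (X.take D.p.p0)) (D.φ (X.drop D.p.p0)) +
    D.nu1 (X.drop D.p.p0)

def nuT (D : Dat α S V) (X : List α) : V :=
  D.act (D.nu2 (X.take D.p.p0)) (D.φ (X.drop D.p.p0)) + D.nu1 (X.drop D.p.p0)

def LP1 (D : Dat α S V) (P : List α) (v : V) : Prop :=
  D.p.p0 ≤ P.length ∧ D.lam1 (P.drop D.p.p0) =
    some (D.act v (D.φ (P.take D.p.p0)) + D.nu2 (P.take D.p.p0))

def Leg1 (p : Par α) (Q : List α) : Prop :=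
  AdmO p p.p0 Q ∧ ∀ t < Q.length, p.Wo (Q.take t) → t + p.p0 + p.N < p.Z ((t + p.p0) % p.M)

open Classical in
noncomputable def R1 (D : Dat α S V) (Q : List α) : Option V :=
  if Leg1 D.p Q then D.rho1 Q else none

def LP2 (D : Dat α S V) (P : List α) (v : V) : Prop :=
  ∃ k < D.K, P.length = D.c k ∧ D.lam2 k P = some v

def Only (D : Dat α S V) (k : ℕ) (Q : List α) : Prop :=
  k < D.K ∧ BadO D.p (D.c k) Q ∧ ∀ k' < D.K, BadO D.p (D.c k') Q → k' = k

def R2r (D : Dat α S V) (Q : List α) (b : V) : Prop :=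
  ∃ k t w, Only D k Q ∧ t ≤ Q.length ∧ XO D.p (D.c k) (Q.take t) ∧ Q.drop t ∈ XX D.p ∧
    D.rho2 k (Q.take (D.p.p0 - D.c k)) = some w ∧
    b = TT D (D.act w (D.φ ((Q.take t).drop (D.p.p0 - D.c k))) +
      D.nu1 ((Q.take t).drop (D.p.p0 - D.c k))) (Q.drop t)

open Classical in
noncomputable def R2 (D : Dat α S V) (Q : List α) : Option V :=
  if h : ∃ b, R2r D Q b then some h.choose else none

theorem R1_iff (Q : List α) (b : V) : R1 D Q = some b ↔ Leg1 D.p Q ∧ D.rho1 Q = some b := by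
  unfold R1
  split_ifs with h <;> simp [h]

variable (hD : D.Ok)

include hD

theorem R2r_unique (Q : List α) (b b' : V) (h : R2r D Q b) (h' : R2r D Q b') : b = b' := by
  obtain ⟨k, t, w, h1, h2, h3, h4, h5, rfl⟩ := h
  obtain ⟨k', t', w', h1', h2', h3', h4', h5', rfl⟩ := h'
  obtain rfl : k' = k := h1.2.2 k' h1'.1 h1'.2.1
  obtain rfl := xo_unique hD.ok _ _ _ _ h2 h2' h3 h3'
  rw [h5] at h5'
  obtain rfl := Option.some.inj h5'
  rfl

theorem R2_iff (Q : List α) (b : V) : R2 D Q = some b ↔ R2r D Q b := by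
  unfold R2
  split_ifs with h
  · constructor
    · intro e
      have := h.choose_spec
      rwa [Option.some.inj e] at this
    · intro e
      rw [R2r_unique hD Q _ _ h.choose_spec e]
  · constructor
    · intro e; cases e
    · intro e; exact absurd ⟨b, e⟩ h

theorem hT (v : V) (X : List α) : TT D v X = D.act v (D.φ X) + nuT D X := by
  unfold TT nuT
  rw [hD.act_add, hD.act_mul, ← hD.phi_mul, List.take_append_drop, add_assoc]

theorem R1_ne (Q : List α) (b : V) (h : R1 D Q = some b) : Q ≠ [] := by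
  rintro rfl
  have := hD.ok.wo_len _ (R1_iff _ _ |>.1 h).1.1.1
  have := hD.ok.n_pos
  simp at *
  omega

theorem s1 (P : List α) (v : V) (Q : List α) (b : V) (hP : LP1 D P v) (hQ : R1 D Q = some b) :
    P ++ Q ∈ XX D.p ∧ TT D v (P ++ Q) = b := by
  obtain ⟨⟨hA, hB⟩, hr⟩ := (R1_iff _ _).1 hQ
  obtain ⟨h0, hl⟩ := hP
  obtain ⟨hM, hN⟩ := hD.lam_len _ _ hl
  rw [List.length_drop] at hM hN
  have hbig := hD.ok.zmin_big
  obtain ⟨o, ho⟩ := Nat.exists_eq_add_of_le h0
  rw [ho, Nat.add_sub_cancel_left] at hM hN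
  obtain ⟨e, he⟩ := hM
  have hmod : ∀ t, (t + P.length) % D.p.M = (t + D.p.p0) % D.p.M := by
    intro t
    rw [ho, he, ← Nat.add_assoc, Nat.add_mul_mod_self_left]
  refine ⟨?_, ?_⟩
  · show XO D.p 0 (P ++ Q)
    rw [xo_iff hD.ok P Q (by omega)]
    refine ⟨⟨hA.1, ?_⟩, ?_⟩
    · rw [hmod]; have := hA.2; omega
    · rintro t ht ⟨h1, h2⟩
      have h3 := hB t ht h1
      rw [hmod, List.length_take, min_eq_left ht.le] at h2
      omega
  · have hs := hD.sound1 _ _ _ _ hl hr
    unfold TT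
    rw [List.take_append_of_le_length h0, List.drop_append_of_le_length h0]
    exact hs.symm

theorem comp1 (X : List α) (hX : X ∈ XX D.p) (hE : ¬ EB D.p 0 X)
    (hB : ¬ D.p.BadT (X.length - D.p.p0)) (v : V) :
    ∃ P Q, X = P ++ Q ∧ D.p.p0 ≤ P.length ∧ LP1 D P v ∧ (R1 D Q).isSome := by
  have hbig := hD.ok.zmin_big
  have hlen := xx_len hD.ok X hX
  obtain ⟨P, Q, h1, h2, h3⟩ := hD.complete1 (X.drop D.p.p0) (by rw [List.length_drop]; omega)
    (by rwa [List.length_drop]) (D.act v (D.φ (X.take D.p.p0)) + D.nu2 (X.take D.p.p0))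
  have hX' : X = (X.take D.p.p0 ++ P) ++ Q := by
    rw [List.append_assoc, h1, List.take_append_drop]
  have hl0 : (X.take D.p.p0).length = D.p.p0 := by rw [List.length_take]; omega
  set P' := X.take D.p.p0 ++ P with hP'
  have hPl : P'.length = D.p.p0 + P.length := by rw [hP', List.length_append, hl0]
  obtain ⟨hM, hN⟩ := hD.lam_len _ _ h2
  obtain ⟨e, he⟩ := hM
  have hmod : ∀ t, (t + P'.length) % D.p.M = (t + D.p.p0) % D.p.M := by
    intro t
    rw [hPl, he, ← Nat.add_assoc, Nat.add_mul_mod_self_left]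
  have hXO : XO D.p P'.length Q := by
    rw [← xo_iff hD.ok P' Q (by omega), ← hX']
    exact hX
  refine ⟨P', Q, hX', by omega, ⟨by omega, ?_⟩, ?_⟩
  · have e1 : P'.take D.p.p0 = X.take D.p.p0 := by
      rw [hP', List.take_append_of_le_length hl0.ge, List.take_of_length_le hl0.le]
    have e2 : P'.drop D.p.p0 = P := by
      rw [hP', List.drop_append_of_le_length hl0.ge, List.drop_of_length_le hl0.le,
        List.nil_append]
    rw [e1, e2]; exact h2
  · have hLeg : Leg1 D.p Q := by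
      -- walls of `Q` are walls of `X`
      have hw : ∀ t ≤ Q.length, D.p.Wo (Q.take t) → D.p.Wo (X.take (P'.length + t)) := by
        intro t ht h
        rw [hX', take_app hD.ok]
        refine (hD.ok.wo_app _ _ ?_).2 h
        exact hD.ok.wo_len _ h
      have hXl : X.length = P'.length + Q.length := by rw [hX', List.length_append]
      refine ⟨⟨hXO.1.1, ?_⟩, fun t ht hwt => ?_⟩
      · by_contra hc
        apply hE
        refine ⟨X.length, le_rfl, by simpa using hX.1.1, ?_, ?_⟩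
        · rw [Nat.add_zero, hXl, Nat.add_comm P'.length, hmod]
          omega
        · have := hX.1.2
          omega
      · by_contra hc
        have h5 := hXO.2 t ht
        have h6 : ¬ D.p.Z ((t + P'.length) % D.p.M) ≤ t + P'.length := by
          intro h7
          apply h5
          refine ⟨hwt, ?_⟩
          rw [List.length_take, min_eq_left ht.le]
          exact h7
        apply hE
        refine ⟨P'.length + t, by omega, hw t ht.le hwt, ?_, ?_⟩
        · rw [Nat.add_zero, Nat.add_comm P'.length]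
          omega
        · rw [Nat.add_zero, Nat.add_comm P'.length]
          rw [hmod] at h6 ⊢
          omega
    obtain ⟨r, hr⟩ := Option.isSome_iff_exists.1 h3
    rw [(R1_iff _ _).2 ⟨hLeg, hr⟩]
    rfl

end Crest.Agent.R320.AU1_238
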