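import Crest.Agent.R320.AU1_238

set_option autoImplicit false

/-!
Row 320: `s2` and `cc` of helper163's `top` from the data of `AU1_238`, a complete exact gadget and
a spoil bound.
-/

namespace Crest.Agent.R320.AU1_238

open List

variable {α : Type} {S V : Type} [Monoid S] [AddCommGroup V] {D : Dat α S V}

/-- a band wall of the block is a band wall of the text right of the place -/
theorem eb_of (p : Par α) (ok : p.Ok) (P Q : List α) (hP : P.length ≤ p.p0)
    (h : EB p 0 (P ++ Q)) : EB p P.length Q := by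
  have hbig := ok.zmin_big
  obtain ⟨s, hs, hw, h1, h2⟩ := h
  rw [Nat.add_zero] at h1 h2
  have hz := ok.zmin_le (s % p.M)
  have hPs : P.length + p.n ≤ s := by omega
  obtain ⟨s', rfl⟩ := Nat.exists_eq_add_of_le (show P.length ≤ s by omega)
  rw [List.length_append] at hs
  rw [take_app ok] at hw
  have hs' : s' ≤ Q.length := by omega
  refine ⟨s', hs', (ok.wo_app P _ ?_).1 hw, ?_, ?_⟩
  · rw [List.length_take, min_eq_left hs']; omega
  · rw [Nat.add_comm s']; exact h1
  · rw [Nat.add_comm s']; exact h2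

theorem eb_mono (p : Par α) (o : ℕ) (Q R : List α) (h : EB p o Q) : EB p o (Q ++ R) := by
  obtain ⟨s, hs, hw, h1, h2⟩ := h
  refine ⟨s, by rw [List.length_append]; omega, ?_, h1, h2⟩
  rwa [List.take_append_of_le_length hs]

theorem s2 (hD : D.Ok) (P : List α) (v : V) (Q : List α) (b : V) (hP : LP2 D P v)
    (hQ : R2 D Q = some b)
    (hun : ∀ X ∈ XX D.p, X <+: P ++ Q → ∀ P' Q', X = P' ++ Q' → P.length ≤ P'.length →
      LP1 D P' v → (R1 D Q').isSome → False) :
    ∃ Q1 X2, Q = Q1 ++ X2 ∧ Q1 ≠ [] ∧ P ++ Q1 ∈ XX D.p ∧ X2 ∈ XX D.p ∧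
      TT D (TT D v (P ++ Q1)) X2 = b := by
  have hbig := hD.ok.zmin_big
  obtain ⟨k₁, hk₁, hPl, hlam⟩ := hP
  obtain ⟨k, t, w, hO, ht, hX, hX2, hrho, rfl⟩ := (R2_iff hD _ _).1 hQ
  have hck := hD.c_le k hO.1
  have hck₁ := hD.c_le k₁ hk₁
  have htl : (Q.take t).length = t := by rw [List.length_take, min_eq_left ht]
  have hzt : D.p.zmin ≤ t + D.c k := by
    have h1 := hX.1.2
    have h2 := hD.ok.zmin_le (((Q.take t).length + D.c k) % D.p.M)
    rw [htl] at h1 h2
    omega
  by_cases hkk : k₁ = k
  · subst hkk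
    refine ⟨Q.take t, Q.drop t, (List.take_append_drop t Q).symm, ?_, ?_, hX2, ?_⟩
    · intro h
      rw [h] at htl
      simp at htl
      omega
    · show XO D.p 0 (P ++ Q.take t)
      rw [xo_iff hD.ok P _ (by omega), hPl]
      exact hX
    · congr 1
      have e1 : (P ++ Q.take t).take D.p.p0 = P ++ Q.take (D.p.p0 - D.c k₁) := by
        rw [List.take_append, List.take_of_length_le (by omega), hPl, List.take_take,
          min_eq_left (by omega)]
      have e2 : (P ++ Q.take t).drop D.p.p0 = (Q.take t).drop (D.p.p0 - D.c k₁) := by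
        rw [List.drop_append, List.drop_of_length_le (by omega), hPl, List.nil_append]
      have hs := hD.sound2 k₁ hk₁ P _ v w hPl hlam hrho
      unfold TT
      rw [e1, e2, ← hs]
  · exfalso
    have hnb : ¬ BadO D.p (D.c k₁) Q := fun h => hkk (hO.2.2 k₁ hk₁ h)
    have hX2l := xx_len hD.ok _ hX2
    rw [List.length_drop] at hX2l
    have hadm : AdmO D.p (D.c k₁) Q := by
      constructor
      · rw [← List.take_append_drop t Q]
        exact (hD.ok.wo_app _ _ (hD.ok.wo_len _ hX2.1.1)).2 hX2.1.1
      · have := hD.ok.zmax ((Q.length + D.c k₁) % D.p.M)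
        omega
    obtain ⟨t', ht', hX'⟩ := exists_first hD.ok _ _ hadm
    have hXX : P ++ Q.take t' ∈ XX D.p := by
      show XO D.p 0 (P ++ Q.take t')
      rw [xo_iff hD.ok P _ (by omega), hPl]
      exact hX'
    have htl' : (Q.take t').length = t' := by rw [List.length_take, min_eq_left ht']
    obtain ⟨P', Q', h1, h2, h3, h4⟩ := comp1 hD _ hXX (by
      intro h
      have h5 := eb_of D.p hD.ok P _ (by omega) h
      apply hnb
      left
      have h6 := eb_mono _ _ _ (Q.drop t') h5
      rwa [List.take_append_drop, hPl] at h6) (by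
      intro h
      apply hnb
      right
      refine ⟨t', ht', hX', ?_⟩
      rw [List.length_append, htl', hPl] at h
      rwa [Nat.add_comm t']) v
    refine hun _ hXX ?_ P' Q' h1 (by omega) h3 h4
    exact (List.prefix_append_right_inj P).2 (List.take_prefix t' Q)

theorem cc (hD : D.Ok) (R : ℕ)
    (complete2 : ∀ X0 : List α, X0.length = D.p.p0 → ∀ v, ∃ I : Finset ℕ, R ≤ I.card ∧
      ∀ k ∈ I, k < D.K ∧ D.lam2 k (X0.take (D.c k)) = some v ∧
        (D.rho2 k (X0.drop (D.c k))).isSome)
    (spoil : ∀ X ∈ XX D.p, ∀ X2 ∈ XX D.p, ∃ Sp : Finset ℕ, Sp.card < R ∧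
      ∀ k < D.K, k ∉ Sp → ∀ k' < D.K, k' ≠ k → ¬ BadO D.p (D.c k') (X.drop (D.c k) ++ X2))
    (X : List α) (hX : X ∈ XX D.p) (X2 : List α) (hX2 : X2 ∈ XX D.p) (v : V) :
    (∃ P Q, X = P ++ Q ∧ LP1 D P v ∧ (R1 D Q).isSome) ∨
      (∃ P Q, X ++ X2 = P ++ Q ∧ P.length < X.length ∧ LP2 D P v ∧ (R2 D Q).isSome) := by
  have hbig := hD.ok.zmin_big
  have hXl := xx_len hD.ok _ hX
  by_cases hB : EB D.p 0 X ∨ D.p.BadT (X.length - D.p.p0)
  · right
    obtain ⟨I, hI, hI2⟩ := complete2 (X.take D.p.p0) (by rw [List.length_take]; omega) v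
    obtain ⟨Sp, hSp, hSp2⟩ := spoil X hX X2 hX2
    obtain ⟨k, hkI, hkS⟩ := Finset.exists_mem_notMem_of_card_lt_card (lt_of_lt_of_le hSp hI)
    obtain ⟨hk, hlam, hrho⟩ := hI2 k hkI
    have hck := hD.c_le k hk
    have hPl : (X.take (D.c k)).length = D.c k := by rw [List.length_take]; omega
    have hXe : X.take (D.c k) ++ X.drop (D.c k) = X := List.take_append_drop _ _
    have hXO : XO D.p (D.c k) (X.drop (D.c k)) := by
      have h := (xo_iff hD.ok (X.take (D.c k)) (X.drop (D.c k)) (by omega)).1
        (by rw [hXe]; exact hX)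
      rwa [hPl] at h
    have hdl : (X.drop (D.c k)).length = X.length - D.c k := List.length_drop
    refine ⟨X.take (D.c k), X.drop (D.c k) ++ X2, ?_, by omega, ⟨k, hk, hPl, ?_⟩, ?_⟩
    · rw [← List.append_assoc, hXe]
    · rw [List.take_take, min_eq_left hck] at hlam
      exact hlam
    · obtain ⟨w, hw⟩ := Option.isSome_iff_exists.1 hrho
      have hbad : BadO D.p (D.c k) (X.drop (D.c k) ++ X2) := by
        rcases hB with hB | hB
        · left
          have h := eb_of D.p hD.ok (X.take (D.c k)) (X.drop (D.c k)) (by omega)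
            (by rw [hXe]; exact hB)
          rw [hPl] at h
          exact eb_mono _ _ _ _ h
        · right
          refine ⟨X.length - D.c k, by rw [List.length_append]; omega, ?_, ?_⟩
          · rw [List.take_append_of_le_length (by omega), List.take_of_length_le (by omega)]
            exact hXO
          · rw [Nat.sub_add_cancel (by omega)]
            exact hB
      have honly : Only D k (X.drop (D.c k) ++ X2) := by
        refine ⟨hk, hbad, fun k' hk' hb => ?_⟩
        by_contra hne
        exact hSp2 k hk hkS k' hk' hne hb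
      have hr : R2r D (X.drop (D.c k) ++ X2) _ :=
        ⟨k, X.length - D.c k, w, honly, by rw [List.length_append]; omega, by
          rw [List.take_append_of_le_length (by omega), List.take_of_length_le (by omega)]
          exact hXO, by
          rw [← hdl, List.drop_left]
          exact hX2, by
          rw [List.take_append_of_le_length (by omega)]
          rw [List.drop_take] at hw
          exact hw, rfl⟩
      rw [(R2_iff hD _ _).2 hr]
      rfl
  · left
    push_neg at hB
    obtain ⟨P, Q, h1, h2, h3, h4⟩ := comp1 hD X hX hB.1 hB.2 v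
    exact ⟨P, Q, h1, h3, h4⟩

end Crest.Agent.R320.AU1_238
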