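import Crest.Agent.R320.AU2_238

set_option autoImplicit false

/-!
Row 320: the spoil bound for the data of `AU1_238`.
-/

namespace Crest.Agent.R320.AU1_238

open List

variable {α : Type} {S V : Type} [Monoid S] [AddCommGroup V] {D : Dat α S V}

theorem drop_eq {X X2 : List α} {k : ℕ} (h : k ≤ X.length) :
    X.drop k ++ X2 = (X ++ X2).drop k := by
  rw [List.drop_append_of_le_length h]

theorem wo_drop (hD : D.Ok) (w : List α) (k s : ℕ) (h : k + s ≤ w.length)
    (hw : D.p.Wo ((w.drop k).take s)) : D.p.Wo (w.take (k + s)) := by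
  have : w.take (k + s) = w.take k ++ (w.drop k).take s := List.take_add
  rw [this]
  exact (hD.ok.wo_app _ _ (hD.ok.wo_len _ hw)).2 hw

theorem wo_drop' (hD : D.Ok) (w : List α) (k s : ℕ) (h : k + s ≤ w.length) (hs : D.p.n ≤ s)
    (hw : D.p.Wo (w.take (k + s))) : D.p.Wo ((w.drop k).take s) := by
  have : w.take (k + s) = w.take k ++ (w.drop k).take s := List.take_add
  rw [this] at hw
  refine (hD.ok.wo_app _ _ ?_).1 hw
  rw [List.length_take, List.length_drop]
  omega

theorem spoil (hD : D.Ok) (W zmax C0 T0 : ℕ)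
    (hsep : ∀ w : List α, ∀ i j, i < j → j ≤ w.length → D.p.Wo (w.take i) →
      D.p.Wo (w.take j) → i + W ≤ j)
    (hzmax : ∀ r, D.p.Z r ≤ zmax)
    (hW : zmax + 2 * D.p.N + 2 * D.p.p0 < W + D.p.zmin)
    (hZsep : ∀ a b : ℕ, D.p.Z (a % D.p.M) ≤ D.p.Z (b % D.p.M) + 2 * D.p.N + 2 * D.p.p0 →
      D.p.Z (b % D.p.M) ≤ D.p.Z (a % D.p.M) + 2 * D.p.N + 2 * D.p.p0 → a % D.p.M = b % D.p.M)
    (hrul : ∀ a b c d, a < D.K → b < D.K → c < D.K → d < D.K →
      ((D.p.M : ℕ) : ℤ) ∣ ((D.c a : ℤ) - D.c b) - (D.c c - D.c d) →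
      (a = c ∧ b = d) ∨ (a = b ∧ c = d))
    (hT0 : T0 + 3 * D.p.p0 ≤ D.p.zmin)
    (hthin : ∀ T, T0 ≤ T → ∀ F : Finset (ℕ × ℕ), (∀ ab ∈ F, ab.1 < D.K ∧ ab.2 < D.K ∧
      ab.1 ≠ ab.2 ∧ D.p.BadT (T + D.c ab.1 - D.c ab.2)) → F.card ≤ C0)
    (X : List α) (hX : X ∈ XX D.p) (X2 : List α) (hX2 : X2 ∈ XX D.p) :
    ∃ Sp : Finset ℕ, Sp.card < 2 * C0 + 2 ∧
      ∀ k < D.K, k ∉ Sp → ∀ k' < D.K, k' ≠ k → ¬ BadO D.p (D.c k') (X.drop (D.c k) ++ X2) := by
  classical
  have hbig := hD.ok.zmin_big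
  have hXl := xx_len hD.ok _ hX
  set w := X ++ X2 with hw
  have hwl : w.length = X.length + X2.length := by rw [hw, List.length_append]
  have hdrop : ∀ k < D.K, X.drop (D.c k) ++ X2 = w.drop (D.c k) := fun k hk =>
    drop_eq (by have := hD.c_le k hk; omega)
  let E : Finset ℕ := (Finset.range D.K).filter fun k => ∃ k' < D.K, k' ≠ k ∧
    EB D.p (D.c k') (w.drop (D.c k))
  let Bp : ℕ → ℕ → ℕ → Prop := fun k k' s => s ≤ (w.drop (D.c k)).length ∧
    XO D.p (D.c k') ((w.drop (D.c k)).take s) ∧ D.p.BadT (s + D.c k' - D.p.p0)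
  let B1 : Finset ℕ := (Finset.range D.K).filter fun k => ∃ k' < D.K, k' ≠ k ∧
    ∃ s, Bp k k' s ∧ D.c k + s ≤ zmax + D.p.p0
  let B2 : Finset ℕ := (Finset.range D.K).filter fun k => ∃ k' < D.K, k' ≠ k ∧
    ∃ s, Bp k k' s ∧ zmax + D.p.p0 < D.c k + s
  have hE : E.card ≤ 1 := by
    rw [Finset.card_le_one]
    intro k hk l hl
    obtain ⟨hk, k', hk', hne, s, hs, hws, hb1, hb2⟩ := Finset.mem_filter.1 hk
    obtain ⟨hl, l', hl', hne', s', hs', hws', hb1', hb2'⟩ := Finset.mem_filter.1 hl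
    rw [Finset.mem_range] at hk hl
    have c1 := hD.c_le k hk
    have c2 := hD.c_le k' hk'
    have c3 := hD.c_le l hl
    have c4 := hD.c_le l' hl'
    rw [List.length_drop] at hs hs'
    have hw1 := wo_drop hD w (D.c k) s (by omega) hws
    have hw2 := wo_drop hD w (D.c l) s' (by omega) hws'
    have z1 := hD.ok.zmin_le ((s + D.c k') % D.p.M)
    have z2 := hD.ok.zmin_le ((s' + D.c l') % D.p.M)
    have z3 := hzmax ((s + D.c k') % D.p.M)
    have z4 := hzmax ((s' + D.c l') % D.p.M)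
    have heq : D.c k + s = D.c l + s' := by
      rcases lt_trichotomy (D.c k + s) (D.c l + s') with h | h | h
      · have := hsep w _ _ h (by omega) hw1 hw2
        omega
      · exact h
      · have := hsep w _ _ h (by omega) hw2 hw1
        omega
    have hr := hZsep (s + D.c k') (s' + D.c l') (by omega) (by omega)
    have hdvd : ((D.p.M : ℕ) : ℤ) ∣ ((D.c k' : ℤ) - D.c k) - (D.c l' - D.c l) := by
      have h1 : (s + D.c k') ≡ (s' + D.c l') [MOD D.p.M] := hr
      have h2 := (Nat.modEq_iff_dvd.1 h1.symm)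
      have e : ((D.c k' : ℤ) - D.c k) - (D.c l' - D.c l) =
          ((s + D.c k' : ℕ) : ℤ) - ((s' + D.c l' : ℕ) : ℤ) := by
        push_cast
        have : (D.c k : ℤ) + s = D.c l + s' := by exact_mod_cast heq
        linarith
      rw [e]; exact h2
    rcases hrul k' k l' l hk' hk hl' hl hdvd with h | h
    · exact h.2
    · exact absurd h.1 hne
  -- end walls
  have hend : ∀ k < D.K, ∀ k' < D.K, ∀ s, Bp k k' s →
      D.c k + s ≤ w.length ∧ D.p.Wo (w.take (D.c k + s)) ∧ D.p.zmin ≤ s + D.c k' := by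
    rintro k hk k' hk' s ⟨hs, hx, -⟩
    have c1 := hD.c_le k hk
    have hs' := hs
    rw [List.length_drop] at hs'
    refine ⟨by omega, wo_drop hD w (D.c k) s (by omega) hx.1.1, ?_⟩
    have h1 := hx.1.2
    have h2 := hD.ok.zmin_le ((((w.drop (D.c k)).take s).length + D.c k') % D.p.M)
    rw [List.length_take, min_eq_left hs] at h1 h2
    omega
  have hcount : ∀ (B : Finset ℕ) (e : ℕ), (∀ k ∈ B, k < D.K ∧ ∃ k' < D.K, k' ≠ k ∧
      ∃ s, Bp k k' s ∧ D.c k + s = e) → B.card ≤ C0 := by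
    intro B e hB
    rcases B.eq_empty_or_nonempty with rfl | ⟨k0, hk0⟩
    · simp
    obtain ⟨hk0', k0', hk0'', -, s0, hs0, he0⟩ := hB k0 hk0
    have hze := (hend k0 hk0' k0' hk0'' s0 hs0).2.2
    have c0 := hD.c_le k0' hk0''
    have he : D.p.zmin ≤ e + D.p.p0 := by omega
    choose! g hg using fun k hk => (hB k hk).2
    have hinj : Set.InjOn (fun k => ((g k, k) : ℕ × ℕ)) (B : Set ℕ) := by
      intro a _ b _ h
      exact (Prod.mk.inj h).2
    rw [← Finset.card_image_of_injOn hinj]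
    refine hthin (e - D.p.p0) (by omega) _ ?_
    intro ab hab
    obtain ⟨k, hk, rfl⟩ := Finset.mem_image.1 hab
    obtain ⟨h1, h2, s, h3, h4⟩ := hg k hk
    refine ⟨h1, (hB k hk).1, h2, ?_⟩
    have h5 := h3.2.2
    have c1 := hD.c_le k (hB k hk).1
    have c2 := hD.c_le (g k) h1
    show D.p.BadT (e - D.p.p0 + D.c (g k) - D.c k)
    have e1 : e - D.p.p0 + D.c (g k) - D.c k = s + D.c (g k) - D.p.p0 := by omega
    rw [e1]; exact h5
  have hB1 : B1.card ≤ C0 := by
    by_cases hne : B1.Nonempty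
    · obtain ⟨k0, hk0⟩ := hne
      obtain ⟨hk0, k0', hk0', -, s0, hs0, he0⟩ := Finset.mem_filter.1 hk0
      rw [Finset.mem_range] at hk0
      obtain ⟨a1, a2, a3⟩ := hend _ hk0 _ hk0' _ hs0
      have c1 := hD.c_le k0' hk0'
      refine hcount B1 (D.c k0 + s0) ?_
      intro k hk
      obtain ⟨hk, k', hk', hne, s, hs, he⟩ := Finset.mem_filter.1 hk
      rw [Finset.mem_range] at hk
      obtain ⟨b1, b2, b3⟩ := hend _ hk _ hk' _ hs
      have c2 := hD.c_le k' hk'
      refine ⟨hk, k', hk', hne, s, hs, ?_⟩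
      rcases lt_trichotomy (D.c k + s) (D.c k0 + s0) with h | h | h
      · have := hsep w _ _ h a1 b2 a2
        omega
      · exact h
      · have := hsep w _ _ h b1 a2 b2
        omega
    · rw [Finset.not_nonempty_iff_eq_empty] at hne
      rw [hne]; simp
  have hB2 : B2.card ≤ C0 := by
    by_cases hne : B2.Nonempty
    · obtain ⟨k0, hk0⟩ := hne
      obtain ⟨hk0, k0', hk0', -, s0, hs0, he0⟩ := Finset.mem_filter.1 hk0
      rw [Finset.mem_range] at hk0
      obtain ⟨a1, a2, a3⟩ := hend _ hk0 _ hk0' _ hs0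
      have c1 := hD.c_le k0' hk0'
      -- an earlier wall behind `zmax + p0` is impossible
      have hearly : ∀ k < D.K, ∀ k' < D.K, ∀ s, Bp k k' s → ∀ e, zmax + D.p.p0 < e →
          e < D.c k + s → D.p.Wo (w.take e) → False := by
        rintro k hk k' hk' s ⟨hs, hx, -⟩ e he1 he2 hwe
        have d1 := hD.c_le k hk
        have z0 := hD.ok.zmin_le 0
        have z0' := hzmax 0
        obtain ⟨s', rfl⟩ := Nat.exists_eq_add_of_le (show D.c k ≤ e by omega)
        have hs2 := hs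
        rw [List.length_drop] at hs2
        have h1 := wo_drop' hD w (D.c k) s' (by omega) (by omega) hwe
        have h2 := hx.2 s' (by rw [List.length_take, min_eq_left hs]; omega)
        rw [List.take_take, min_eq_left (by omega)] at h2
        apply h2
        refine ⟨h1, ?_⟩
        have := hzmax ((((w.drop (D.c k)).take s').length + D.c k') % D.p.M)
        have hl : ((w.drop (D.c k)).take s').length = s' := by
          rw [List.length_take, min_eq_left (by omega)]
        rw [hl] at this ⊢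
        omega
      refine hcount B2 (D.c k0 + s0) ?_
      intro k hk
      obtain ⟨hk, k', hk', hne, s, hs, he⟩ := Finset.mem_filter.1 hk
      rw [Finset.mem_range] at hk
      obtain ⟨b1, b2, b3⟩ := hend _ hk _ hk' _ hs
      refine ⟨hk, k', hk', hne, s, hs, ?_⟩
      rcases lt_trichotomy (D.c k + s) (D.c k0 + s0) with h | h | h
      · exact (hearly _ hk0 _ hk0' _ hs0 _ he h b2).elim
      · exact h
      · exact (hearly _ hk _ hk' _ hs _ he0 h a2).elim
    · rw [Finset.not_nonempty_iff_eq_empty] at hne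
      rw [hne]; simp
  refine ⟨E ∪ (B1 ∪ B2), ?_, ?_⟩
  · have h1 := Finset.card_union_le E (B1 ∪ B2)
    have h2 := Finset.card_union_le B1 B2
    omega
  · intro k hk hnot k' hk' hne hbad
    apply hnot
    rw [hdrop k hk] at hbad
    rcases hbad with h | ⟨s, hs, hx, hb⟩
    · exact Finset.mem_union_left _ (Finset.mem_filter.2 ⟨Finset.mem_range.2 hk, k', hk', hne, h⟩)
    · refine Finset.mem_union_right _ ?_
      by_cases hc : D.c k + s ≤ zmax + D.p.p0
      · exact Finset.mem_union_left _ (Finset.mem_filter.2 ⟨Finset.mem_range.2 hk, k', hk', hne,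
          s, ⟨hs, hx, hb⟩, hc⟩)
      · exact Finset.mem_union_right _ (Finset.mem_filter.2 ⟨Finset.mem_range.2 hk, k', hk', hne,
          s, ⟨hs, hx, hb⟩, by omega⟩)

end Crest.Agent.R320.AU1_238
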