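import Mathlib

/-!
Regularity toolkit (Buechi style) for row 320: predicates on words with finitely many positions.
`RegP P` is closed under the Boolean connectives, under quantifiers over positions and under
reindexing; the atoms are `w[x i .. x j) ∈ L` for regular `L`.
-/

set_option autoImplicit false

namespace Crest.R320.Reg_143

open Language

variable {α : Type*}

/-- marked word: letter number `j` carries the set of the variables with value `j` -/
def mk {k : ℕ} : ℕ → List α → (Fin k → ℕ) → List (α × (Fin k → Bool))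
  | _, [], _ => []
  | j, a :: w, x => (a, fun i => decide (x i = j)) :: mk (j + 1) w x

@[simp] theorem mk_nil {k : ℕ} (j : ℕ) (x : Fin k → ℕ) : mk j ([] : List α) x = [] := rfl
@[simp] theorem mk_cons {k : ℕ} (j : ℕ) (a : α) (w : List α) (x : Fin k → ℕ) :
    mk j (a :: w) x = (a, fun i => decide (x i = j)) :: mk (j + 1) w x := rfl

/-- regular relation between a word and `k` positions of it -/
def RegP {k : ℕ} (P : List α → (Fin k → ℕ) → Prop) : Prop :=
  ∃ L : Language (α × (Fin k → Bool)), L.IsRegular ∧
    ∀ w x, (∀ i, x i ≤ w.length) → (mk 0 w x ∈ L ↔ P w x)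

theorem RegP.congr {k : ℕ} {P Q : List α → (Fin k → ℕ) → Prop} (h : RegP P)
    (hPQ : ∀ w x, (∀ i, x i ≤ w.length) → (Q w x ↔ P w x)) : RegP Q := by
  obtain ⟨L, hL, hP⟩ := h
  exact ⟨L, hL, fun w x hx => (hP w x hx).trans (hPQ w x hx).symm⟩

theorem RegP.not {k : ℕ} {P : List α → (Fin k → ℕ) → Prop} (h : RegP P) :
    RegP (fun w x => ¬ P w x) := by
  obtain ⟨L, hL, hP⟩ := h
  exact ⟨Lᶜ, hL.compl, fun w x hx => not_congr (hP w x hx)⟩

theorem RegP.or {k : ℕ} {P Q : List α → (Fin k → ℕ) → Prop} (h : RegP P) (h' : RegP Q) :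
    RegP (fun w x => P w x ∨ Q w x) := by
  obtain ⟨L, hL, hP⟩ := h
  obtain ⟨M, hM, hQ⟩ := h'
  exact ⟨L + M, hL.add hM, fun w x hx => or_congr (hP w x hx) (hQ w x hx)⟩

theorem RegP.and {k : ℕ} {P Q : List α → (Fin k → ℕ) → Prop} (h : RegP P) (h' : RegP Q) :
    RegP (fun w x => P w x ∧ Q w x) :=
  ((h.not.or h'.not).not).congr fun w x _ => by tauto

theorem RegP.imp {k : ℕ} {P Q : List α → (Fin k → ℕ) → Prop} (h : RegP P) (h' : RegP Q) :
    RegP (fun w x => P w x → Q w x) :=
  (h.not.or h').congr fun w x _ => by tauto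

theorem RegP.iff {k : ℕ} {P Q : List α → (Fin k → ℕ) → Prop} (h : RegP P) (h' : RegP Q) :
    RegP (fun w x => P w x ↔ Q w x) :=
  ((h.imp h').and (h'.imp h)).congr fun w x _ => by tauto

/-- the language of a predicate -/
def lg {β : Type*} (P : List β → Prop) : Language β := {w | P w}

@[simp] theorem mem_lg {β : Type*} {P : List β → Prop} {w : List β} : w ∈ lg P ↔ P w := Iff.rfl

theorem isRegular_true {β : Type*} : (lg (fun _ : List β => True)).IsRegular := by
  refine ⟨Unit, inferInstance, ⟨fun _ _ => (), (), Set.univ⟩, ?_⟩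
  ext w
  rw [DFA.mem_accepts]
  simp

theorem RegP.tru {k : ℕ} : RegP (α := α) (k := k) (fun _ _ => True) :=
  ⟨_, isRegular_true, fun _ _ _ => by simp⟩

theorem RegP.const {k : ℕ} (p : Prop) : RegP (α := α) (k := k) (fun _ _ => p) := by
  by_cases hp : p
  · exact RegP.tru.congr fun _ _ _ => by simp [hp]
  · exact RegP.tru.not.congr fun _ _ _ => by simp [hp]

theorem RegP.exists_finite {k : ℕ} {ι : Type*} [Finite ι] {P : ι → List α → (Fin k → ℕ) → Prop}
    (h : ∀ c, RegP (P c)) : RegP (fun w x => ∃ c, P c w x) := by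
  classical
  have := Fintype.ofFinite ι
  have key : ∀ s : Finset ι, RegP (fun w x => ∃ c ∈ s, P c w x) := by
    intro s
    induction s using Finset.induction_on with
    | empty => exact (RegP.const False).congr fun _ _ _ => by simp
    | insert a s _ ih => exact ((h a).or ih).congr fun _ _ _ => by simp
  exact (key Finset.univ).congr fun _ _ _ => by simp

theorem RegP.forall_finite {k : ℕ} {ι : Type*} [Finite ι] {P : ι → List α → (Fin k → ℕ) → Prop}
    (h : ∀ c, RegP (P c)) : RegP (fun w x => ∀ c, P c w x) :=
  ((RegP.exists_finite fun c => (h c).not).not).congr fun _ _ _ => by simp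

/-! ### inverse images under letter maps -/

theorem isRegular_comap {β γ : Type*} (f : β → γ) {L : Language γ} (hL : L.IsRegular) :
    (lg fun w : List β => w.map f ∈ L).IsRegular := by
  obtain ⟨σ, hσ, D, rfl⟩ := hL
  refine ⟨σ, hσ, D.comap f, ?_⟩
  ext w
  rw [DFA.accepts_comap]
  rfl

theorem mk_map {k l : ℕ} (s : Fin k → Fin l) (j : ℕ) (w : List α) (x : Fin l → ℕ) :
    (mk j w x).map (fun p : α × (Fin l → Bool) => (p.1, p.2 ∘ s)) = mk j w (x ∘ s) := by
  induction w generalizing j with
  | nil => rfl
  | cons a w ih =>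
    have := ih (j + 1)
    simp only [mk_cons, List.map_cons, this]
    rfl

/-- reindexing of the variables -/
theorem RegP.reindex {k l : ℕ} {P : List α → (Fin k → ℕ) → Prop} (h : RegP P)
    (s : Fin k → Fin l) : RegP (fun w x => P w (x ∘ s)) := by
  obtain ⟨L, hL, hP⟩ := h
  refine ⟨_, isRegular_comap (fun p : α × (Fin l → Bool) => (p.1, p.2 ∘ s)) hL, fun w x hx => ?_⟩
  show _ ↔ P w (x ∘ s)
  rw [← hP w (x ∘ s) fun i => hx _, ← mk_map, mem_lg]

/-! ### projection -/

/-- guess the position of the variable `0` -/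
def proj {σ : Type} {k : ℕ} (D : DFA (α × (Fin (k + 1) → Bool)) σ) :
    NFA (α × (Fin k → Bool)) (σ × Bool) where
  step q p := {r | r = (D.step q.1 (p.1, Fin.cons false p.2), q.2) ∨
    (q.2 = false ∧ r = (D.step q.1 (p.1, Fin.cons true p.2), true))}
  start := {(D.start, false)}
  accept := {q | q.1 ∈ D.accept}

theorem cons_mark {k : ℕ} (y j : ℕ) (x : Fin k → ℕ) :
    (fun i => decide ((Fin.cons y x : Fin (k + 1) → ℕ) i = j)) =
      (Fin.cons (decide (y = j)) (fun i => decide (x i = j)) : Fin (k + 1) → Bool) := by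
  funext i
  refine Fin.cases ?_ (fun i => ?_) i <;> simp

theorem proj_true {σ : Type} {k : ℕ} (D : DFA (α × (Fin (k + 1) → Bool)) σ) (w : List α) :
    ∀ (j : ℕ) (x : Fin k → ℕ) (q : σ) (y : ℕ), y < j →
      (proj D).evalFrom {(q, true)} (mk j w x) = {(D.evalFrom q (mk j w (Fin.cons y x)), true)} := by
  induction w with
  | nil => intro j x q y _; simp
  | cons a w ih =>
    intro j x q y hy
    have h1 : (proj D).stepSet {(q, true)} (a, fun i => decide (x i = j)) =
        {(D.step q (a, Fin.cons false (fun i => decide (x i = j))), true)} := by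
      ext r
      simp [NFA.stepSet, proj]
    simp only [mk_cons, NFA.evalFrom_cons, DFA.evalFrom_cons, h1, cons_mark]
    rw [ih (j + 1) x _ y (by omega)]
    have : decide (y = j) = false := by simp; omega
    rw [this]

theorem proj_false {σ : Type} {k : ℕ} (D : DFA (α × (Fin (k + 1) → Bool)) σ) (w : List α) :
    ∀ (j : ℕ) (x : Fin k → ℕ) (q : σ),
      (proj D).evalFrom {(q, false)} (mk j w x) =
        {r | (∃ y, j ≤ y ∧ y < j + w.length ∧
            r = (D.evalFrom q (mk j w (Fin.cons y x)), true)) ∨
          r = (D.evalFrom q (mk j w (Fin.cons (j + w.length) x)), false)} := by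
  induction w with
  | nil =>
    intro j x q
    ext r
    simp
    intro y h1 h2
    omega
  | cons a w ih =>
    intro j x q
    have h1 : (proj D).stepSet {(q, false)} (a, fun i => decide (x i = j)) =
        {(D.step q (a, Fin.cons false (fun i => decide (x i = j))), false)} ∪
        {(D.step q (a, Fin.cons true (fun i => decide (x i = j))), true)} := by
      ext r
      simp [NFA.stepSet, proj]
      exact or_comm
    simp only [mk_cons, NFA.evalFrom_cons, DFA.evalFrom_cons, h1, cons_mark]
    have hun : ∀ (A B : Set (σ × Bool)) (l : List (α × (Fin k → Bool))),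
        (proj D).evalFrom (A ∪ B) l = (proj D).evalFrom A l ∪ (proj D).evalFrom B l := by
      intro A B l
      induction l generalizing A B with
      | nil => simp
      | cons b l ihl =>
        have : (proj D).stepSet (A ∪ B) b = (proj D).stepSet A b ∪ (proj D).stepSet B b := by
          ext r
          simp only [NFA.stepSet, Set.mem_iUnion, Set.mem_union]
          constructor
          · rintro ⟨s, hs, hr⟩
            rcases hs with hs | hs
            · exact Or.inl ⟨s, hs, hr⟩
            · exact Or.inr ⟨s, hs, hr⟩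
          · rintro (⟨s, hs, hr⟩ | ⟨s, hs, hr⟩)
            · exact ⟨s, Or.inl hs, hr⟩
            · exact ⟨s, Or.inr hs, hr⟩
        simp only [NFA.evalFrom_cons, this, ihl]
    rw [hun, ih (j + 1) x, proj_true D w (j + 1) x _ j (by omega)]
    ext r
    simp only [Set.mem_union, Set.mem_ofPred_eq, Set.mem_singleton_iff, List.length_cons]
    constructor
    · rintro ((⟨y, h2, h3, rfl⟩ | rfl) | rfl)
      · refine Or.inl ⟨y, by omega, by omega, ?_⟩
        have : decide (y = j) = false := by simp; omega
        rw [this]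
      · refine Or.inr ?_
        have : decide (j + (w.length + 1) = j) = false := by simp
        rw [this, show j + 1 + w.length = j + (w.length + 1) by omega]
      · refine Or.inl ⟨j, le_refl _, by omega, ?_⟩
        simp
    · rintro (⟨y, h2, h3, rfl⟩ | rfl)
      · by_cases hy : y = j
        · subst hy
          refine Or.inr ?_
          simp
        · refine Or.inl (Or.inl ⟨y, by omega, by omega, ?_⟩)
          have : decide (y = j) = false := by simpa using hy
          rw [this]
      · refine Or.inl (Or.inr ?_)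
        have : decide (j + (w.length + 1) = j) = false := by simp
        rw [this, show j + 1 + w.length = j + (w.length + 1) by omega]

/-- existential quantifier over the positions `0 .. |w|` (the bound variable is number `0`) -/
theorem RegP.ex {k : ℕ} {P : List α → (Fin (k + 1) → ℕ) → Prop} (h : RegP P) :
    RegP (fun w x => ∃ y ≤ w.length, P w (Fin.cons y x)) := by
  classical
  obtain ⟨L, ⟨σ, hσ, D, rfl⟩, hP⟩ := h
  refine ⟨(proj D).accepts, ?_, fun w x hx => ?_⟩
  · rw [← NFA.toDFA_correct]
    exact ⟨_, inferInstance, _, rfl⟩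
  · have hb : ∀ y ≤ w.length, ∀ i, (Fin.cons y x : Fin (k + 1) → ℕ) i ≤ w.length := by
      intro y hy i
      refine Fin.cases ?_ (fun i => ?_) i
      · simpa using hy
      · simpa using hx i
    rw [NFA.mem_accepts]
    have hst : (proj D).start = {(D.start, false)} := rfl
    rw [hst, proj_false]
    constructor
    · rintro ⟨S, hS, h1 | h1⟩
      · obtain ⟨y, -, hy, rfl⟩ := h1
        refine ⟨y, by omega, ?_⟩
        rw [← hP w _ (hb y (by omega))]
        exact hS
      · subst h1
        refine ⟨w.length, le_refl _, ?_⟩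
        rw [← hP w _ (hb _ le_rfl)]
        simpa [DFA.mem_accepts, DFA.eval, proj] using hS
    · rintro ⟨y, hy, hPy⟩
      rw [← hP w _ (hb y hy)] at hPy
      rcases Nat.lt_or_ge y w.length with h1 | h1
      · exact ⟨(D.evalFrom D.start (mk 0 w (Fin.cons y x)), true), hPy,
          Or.inl ⟨y, by omega, by omega, rfl⟩⟩
      · have : y = w.length := le_antisymm hy h1
        subst this
        refine ⟨(D.evalFrom D.start (mk 0 w (Fin.cons (0 + w.length) x)), false), ?_, Or.inr rfl⟩
        simpa [DFA.mem_accepts, DFA.eval, proj] using hPy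

/-- universal quantifier over the positions `0 .. |w|` -/
theorem RegP.all {k : ℕ} {P : List α → (Fin (k + 1) → ℕ) → Prop} (h : RegP P) :
    RegP (fun w x => ∀ y ≤ w.length, P w (Fin.cons y x)) :=
  (h.not.ex.not).congr fun w x _ => by simp

/-! ### regular languages from finite folds -/

theorem isRegular_fold {β : Type*} {σ : Type*} [Finite σ] (step : σ → β → σ) (s0 : σ)
    (acc : σ → Prop) : (lg fun w : List β => acc (w.foldl step s0)).IsRegular := by
  classical
  have := Fintype.ofFinite σ
  refine Language.isRegular_iff.mpr ⟨σ, inferInstance, ⟨step, s0, {q | acc q}⟩, ?_⟩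
  ext w
  rw [DFA.mem_accepts]
  rfl

theorem isRegular_congr {β : Type*} {L : Language β} {P : List β → Prop} (h : L.IsRegular)
    (hP : ∀ w, w ∈ L ↔ P w) : (lg P).IsRegular := by
  have : L = lg P := by ext w; exact hP w
  exact this ▸ h

theorem isRegular_monoid {β : Type*} {M : Type*} [Monoid M] [Finite M] (f : β → M)
    (P : M → Prop) : (lg fun w : List β => P (w.map f).prod).IsRegular := by
  refine isRegular_congr (isRegular_fold (fun (m : M) b => m * f b) 1 P) fun w => ?_
  have : ∀ (m : M), w.foldl (fun (m : M) b => m * f b) m = m * (w.map f).prod := by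
    induction w with
    | nil => intro m; simp
    | cons a w ih => intro m; simp [ih, mul_assoc]
  rw [mem_lg, this, one_mul]

/-- ultimately periodic conditions on the length -/
theorem isRegular_length {β : Type*} (P : ℕ → Prop) (N m : ℕ) (hm : 0 < m)
    (hP : ∀ n, N ≤ n → (P (n + m) ↔ P n)) : (lg fun w : List β => P w.length).IsRegular := by
  classical
  let step : Fin (N + m) → β → Fin (N + m) := fun n _ =>
    if h : n.1 + 1 < N + m then ⟨n.1 + 1, h⟩ else ⟨N, by omega⟩
  refine isRegular_congr (isRegular_fold step ⟨0, by omega⟩ fun q => P q.1) fun w => ?_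
  rw [mem_lg]
  have key : ∀ (w : List β) (q : Fin (N + m)), P (w.foldl step q).1 ↔ P (q.1 + w.length) := by
    intro w
    induction w with
    | nil => intro q; simp
    | cons a w ih =>
      intro q
      rw [List.foldl_cons, ih]
      by_cases h : q.1 + 1 < N + m
      · have : (step q a).1 = q.1 + 1 := by simp [step, h]
        rw [this, List.length_cons]
        exact iff_of_eq (congrArg P (by omega))
      · have : (step q a).1 = N := by simp [step, h]
        rw [this, List.length_cons, ← hP (N + w.length) (by omega)]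
        have hq := q.2
        exact iff_of_eq (congrArg P (by omega))
  simpa using key w ⟨0, by omega⟩

theorem take_take_append {β : Type*} (n : ℕ) (l w : List β) :
    (l.take n ++ w).take n = (l ++ w).take n := by
  rcases Nat.le_total l.length n with h | h
  · rw [List.take_of_length_le h]
  · rw [List.take_append_of_le_length h, List.take_append_of_le_length (by simp [h]),
      List.take_take, min_self]

/-- a window test at the beginning of the word -/
theorem isRegular_take {β : Type*} [Finite β] (n : ℕ) (R : List β → Prop) :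
    (lg fun w : List β => R (w.take n)).IsRegular := by
  classical
  have hfin : Finite {l : List β // l.length ≤ n} := (List.finite_length_le β n).to_subtype
  let step : {l : List β // l.length ≤ n} → β → {l : List β // l.length ≤ n} := fun l b =>
    ⟨(l.1 ++ [b]).take n, by simp⟩
  refine isRegular_congr (isRegular_fold step ⟨[], by simp⟩ fun q => R q.1) fun w => ?_
  rw [mem_lg]
  have key : ∀ (w : List β) (q : {l : List β // l.length ≤ n}),
      (w.foldl step q).1 = (q.1 ++ w).take n := by
    intro w
    induction w with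
    | nil => intro q; simp [List.take_of_length_le q.2]
    | cons a w ih =>
      intro q
      rw [List.foldl_cons, ih]
      show ((q.1 ++ [a]).take n ++ w).take n = _
      rw [take_take_append]
      simp
  rw [key w ⟨[], by simp⟩]
  simp

/-! ### the factor atom -/

/-- process the marks -/
def mst {σ : Type} (D : DFA α σ) [DecidablePred (· ∈ D.accept)] (m : Fin 2 → Bool) :
    Unit ⊕ σ ⊕ Bool → Unit ⊕ σ ⊕ Bool
  | .inl () => if m 1 = true then .inr (.inr (decide (D.start ∈ D.accept)))
      else if m 0 = true then .inr (.inl D.start) else .inl ()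
  | .inr (.inl q) => if m 1 = true then .inr (.inr (decide (q ∈ D.accept))) else .inr (.inl q)
  | .inr (.inr b) => .inr (.inr b)

/-- process the letter -/
def lst {σ : Type} (D : DFA α σ) (a : α) : Unit ⊕ σ ⊕ Bool → Unit ⊕ σ ⊕ Bool
  | .inl () => .inl ()
  | .inr (.inl q) => .inr (.inl (D.step q a))
  | .inr (.inr b) => .inr (.inr b)

/-- acceptance -/
def lacc {σ : Type} (D : DFA α σ) : Unit ⊕ σ ⊕ Bool → Prop
  | .inl () => D.start ∈ D.accept
  | .inr (.inl q) => q ∈ D.accept
  | .inr (.inr b) => b = true

theorem lst_a {σ : Type} (D : DFA α σ) (a : α) : lst D a (.inl ()) = .inl () := rfl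
theorem lst_b {σ : Type} (D : DFA α σ) (a : α) (q : σ) :
    lst D a (.inr (.inl q)) = .inr (.inl (D.step q a)) := rfl
theorem lst_c {σ : Type} (D : DFA α σ) (a : α) (b : Bool) :
    lst D a (.inr (.inr b)) = .inr (.inr b) := rfl

theorem fac_aux {σ : Type} (D : DFA α σ) [DecidablePred (· ∈ D.accept)] (w : List α) :
    ∀ (j : ℕ) (x : Fin 2 → ℕ),
      (∀ b, (mk j w x).foldl (fun s p => lst D p.1 (mst D p.2 s)) (.inr (.inr b)) =
        .inr (.inr b)) ∧
      (j ≤ x 1 → x 1 ≤ j + w.length → ∀ q,
        (lacc D ((mk j w x).foldl (fun s p => lst D p.1 (mst D p.2 s)) (.inr (.inl q))) ↔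
          D.evalFrom q (w.take (x 1 - j)) ∈ D.accept)) ∧
      (j ≤ x 0 → j ≤ x 1 → x 0 ≤ j + w.length → x 1 ≤ j + w.length →
        (lacc D ((mk j w x).foldl (fun s p => lst D p.1 (mst D p.2 s)) (.inl ())) ↔
          D.evalFrom D.start ((w.drop (x 0 - j)).take (x 1 - x 0)) ∈ D.accept)) := by
  induction w with
  | nil =>
    intro j x
    refine ⟨fun b => rfl, fun _ _ q => ?_, fun _ _ _ _ => ?_⟩ <;> simp [lacc]
  | cons a w ih =>
    intro j x
    obtain ⟨ih1, ih2, ih3⟩ := ih (j + 1) x
    refine ⟨fun b => ?_, fun h1 h2 q => ?_, fun h0 h1 h2 h3 => ?_⟩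
    · simp only [mk_cons, List.foldl_cons]
      exact ih1 b
    · simp only [mk_cons, List.foldl_cons]
      by_cases h : x 1 = j
      · have e : mst D (fun i => decide (x i = j)) (.inr (.inl q)) =
            .inr (.inr (decide (q ∈ D.accept))) := by simp [mst, h]
        rw [e, lst_c, ih1]
        simp [lacc, h]
      · have e : mst D (fun i => decide (x i = j)) (.inr (.inl q)) = .inr (.inl q) := by
          simp [mst, h]
        rw [e, lst_b]
        simp only [List.length_cons] at h2
        rw [ih2 (by omega) (by omega), show x 1 - j = (x 1 - (j + 1)) + 1 by omega,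
          List.take_succ_cons, DFA.evalFrom_cons]
    · simp only [mk_cons, List.foldl_cons]
      simp only [List.length_cons] at h2 h3
      by_cases h : x 1 = j
      · have e : mst D (fun i => decide (x i = j)) (.inl ()) =
            .inr (.inr (decide (D.start ∈ D.accept))) := by simp [mst, h]
        rw [e, lst_c, ih1]
        have : x 1 - x 0 = 0 := by omega
        simp [lacc, this]
      · by_cases h' : x 0 = j
        · have e : mst D (fun i => decide (x i = j)) (.inl ()) = .inr (.inl D.start) := by
            simp [mst, h, h']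
          rw [e, lst_b, ih2 (by omega) (by omega), h', Nat.sub_self, List.drop_zero,
            show x 1 - j = (x 1 - (j + 1)) + 1 by omega, List.take_succ_cons, DFA.evalFrom_cons]
        · have e : mst D (fun i => decide (x i = j)) (.inl ()) = .inl () := by
            simp [mst, h, h']
          rw [e, lst_a, ih3 (by omega) (by omega) (by omega) (by omega),
            show x 0 - j = (x 0 - (j + 1)) + 1 by omega, List.drop_succ_cons]

theorem RegP.fac2 {P : List α → Prop} (hP : (lg P).IsRegular) :
    RegP (fun w (x : Fin 2 → ℕ) => P ((w.drop (x 0)).take (x 1 - x 0))) := by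
  classical
  obtain ⟨σ, hσ, D, hD⟩ := hP
  refine ⟨lg fun W => lacc D (W.foldl (fun s p => lst D p.1 (mst D p.2 s)) (.inl ())),
    isRegular_fold _ _ _, fun w x hx => ?_⟩
  rw [mem_lg, (fac_aux D w 0 x).2.2 (Nat.zero_le _) (Nat.zero_le _) (by simpa using hx 0)
    (by simpa using hx 1)]
  have : ∀ v, P v ↔ D.evalFrom D.start v ∈ D.accept := fun v => by
    rw [← mem_lg (P := P), ← hD, DFA.mem_accepts]; rfl
  show _ ↔ P ((w.drop (x 0)).take (x 1 - x 0))
  rw [this, Nat.sub_zero]

/-- **factor atom**: `w[x i .. x j) ∈ P`, `P` regular -/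
theorem RegP.fac {k : ℕ} {P : List α → Prop} (hP : (lg P).IsRegular) (i j : Fin k) :
    RegP (fun w (x : Fin k → ℕ) => P ((w.drop (x i)).take (x j - x i))) :=
  ((RegP.fac2 hP).reindex ![i, j]).congr fun w x _ => by simp

/-! ### derived atoms -/

/-- distance conditions `x i ≤ x j` and `P (x j - x i)`, `P` ultimately periodic -/
theorem RegP.lt {k : ℕ} (i j : Fin k) : RegP (α := α) (fun _ x => x i < x j) := by
  have h : (lg fun w : List α => 0 < w.length).IsRegular :=
    isRegular_length (fun n => 0 < n) 1 1 one_pos fun n hn => by omega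
  refine (RegP.fac h i j).congr fun w x hx => ?_
  have h1 := hx i
  have h2 := hx j
  rw [List.length_take, List.length_drop]
  omega

theorem RegP.le {k : ℕ} (i j : Fin k) : RegP (α := α) (fun _ x => x i ≤ x j) :=
  (RegP.lt j i).not.congr fun w x _ => by simp

theorem RegP.eq {k : ℕ} (i j : Fin k) : RegP (α := α) (fun _ x => x i = x j) :=
  ((RegP.le i j).and (RegP.le j i)).congr fun w x _ => by
    constructor
    · intro h; omega
    · intro h; omega

theorem RegP.dist {k : ℕ} (P : ℕ → Prop) (N m : ℕ) (hm : 0 < m)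
    (hP : ∀ n, N ≤ n → (P (n + m) ↔ P n)) (i j : Fin k) :
    RegP (α := α) (fun _ x => P (x j - x i)) := by
  refine (RegP.fac (isRegular_length P N m hm hP) i j).congr fun w x hx => ?_
  have h1 := hx i
  have h2 := hx j
  rw [List.length_take, List.length_drop, min_eq_left (by omega)]

/-- `x j = x i + c` -/
theorem RegP.addc {k : ℕ} (c : ℕ) (i j : Fin k) :
    RegP (α := α) (fun _ x => x j = x i + c) := by
  refine ((RegP.le i j).and (RegP.dist (fun n => n = c) (c + 1) 1 one_pos
    (fun n hn => by omega) i j)).congr fun w x _ => ?_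
  omega

/-- `x i + c ≤ x j` -/
theorem RegP.addc_le {k : ℕ} (c : ℕ) (i j : Fin k) :
    RegP (α := α) (fun _ x => x i + c ≤ x j) := by
  refine ((RegP.le i j).and (RegP.dist (fun n => c ≤ n) c 1 one_pos
    (fun n hn => by omega) i j)).congr fun w x _ => ?_
  omega

theorem RegP.modc {k : ℕ} (c m : ℕ) (hm : 0 < m) (i j : Fin k) :
    RegP (α := α) (fun _ x => (x j - x i) % m = c) :=
  RegP.dist (fun n => n % m = c) 0 m hm (fun n _ => by simp) i j

/-- products in a finite monoid -/
theorem RegP.prod {k : ℕ} {M : Type*} [Monoid M] [Finite M] (f : α → M) (P : M → Prop)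
    (i j : Fin k) :
    RegP (fun w (x : Fin k → ℕ) => P ((((w.drop (x i)).take (x j - x i)).map f).prod)) :=
  RegP.fac (isRegular_monoid f P) i j

/-- bounded existential with an explicit form -/
theorem RegP.ex' {k : ℕ} {P : List α → (Fin k → ℕ) → ℕ → Prop}
    (h : RegP (fun w (x : Fin (k + 1) → ℕ) => P w (fun i => x i.succ) (x 0))) :
    RegP (fun w x => ∃ y ≤ w.length, P w x y) :=
  h.ex.congr fun w x _ => by simp

theorem RegP.all' {k : ℕ} {P : List α → (Fin k → ℕ) → ℕ → Prop}
    (h : RegP (fun w (x : Fin (k + 1) → ℕ) => P w (fun i => x i.succ) (x 0))) :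
    RegP (fun w x => ∀ y ≤ w.length, P w x y) :=
  h.all.congr fun w x _ => by simp

/-- `w.drop (x i) ∈ P` -/
theorem RegP.drop {k : ℕ} {P : List α → Prop} (hP : (lg P).IsRegular) (i : Fin k) :
    RegP (fun w (x : Fin k → ℕ) => P (w.drop (x i))) := by
  have h1 : RegP (fun w (x : Fin k → ℕ) => ∃ y ≤ w.length,
      (∀ z ≤ w.length, z ≤ y) ∧ P ((w.drop (x i)).take (y - x i))) := by
    refine RegP.ex' (RegP.and (RegP.all' ?_) (RegP.fac hP i.succ 0))
    exact RegP.le (α := α) (0 : Fin (k + 2)) (1 : Fin (k + 2))
  refine h1.congr fun w x hx => ?_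
  constructor
  · intro h
    refine ⟨w.length, le_rfl, fun z hz => hz, ?_⟩
    rwa [List.take_of_length_le (by simp)]
  · rintro ⟨y, hy, h2, h3⟩
    have : y = w.length := le_antisymm hy (h2 _ le_rfl)
    subst this
    rwa [List.take_of_length_le (by simp)] at h3

/-- `w.take (x i) ∈ P` -/
theorem RegP.take {k : ℕ} {P : List α → Prop} (hP : (lg P).IsRegular) (i : Fin k) :
    RegP (fun w (x : Fin k → ℕ) => P (w.take (x i))) := by
  have h1 : RegP (fun w (x : Fin k → ℕ) => ∃ y ≤ w.length,
      (∀ z ≤ w.length, y ≤ z) ∧ P ((w.drop y).take (x i - y))) := by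
    refine RegP.ex' (RegP.and (RegP.all' ?_) (RegP.fac hP 0 i.succ))
    exact RegP.le (α := α) (1 : Fin (k + 2)) (0 : Fin (k + 2))
  refine h1.congr fun w x hx => ?_
  constructor
  · intro h
    exact ⟨0, Nat.zero_le _, fun z _ => Nat.zero_le _, by simpa using h⟩
  · rintro ⟨y, hy, h2, h3⟩
    have : y = 0 := Nat.le_zero.mp (h2 0 (Nat.zero_le _))
    subst this
    simpa using h3

/-- closing: a relation without free positions is a regular language -/
theorem RegP.close {P : List α → (Fin 0 → ℕ) → Prop} (h : RegP P) :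
    (lg fun w => P w Fin.elim0).IsRegular := by
  obtain ⟨L, hL, hP⟩ := h
  refine isRegular_congr (isRegular_comap (fun a : α => (a, (Fin.elim0 : Fin 0 → Bool))) hL)
    fun w => ?_
  rw [← hP w Fin.elim0 fun i => i.elim0, mem_lg]
  have : ∀ j, w.map (fun a : α => (a, (Fin.elim0 : Fin 0 → Bool))) = mk j w Fin.elim0 := by
    induction w with
    | nil => intro j; rfl
    | cons a w ih =>
      intro j
      rw [List.map_cons, mk_cons, ih (j + 1)]
      congr 2
      funext i
      exact i.elim0
  rw [this 0]

/-- a regular language as a relation -/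
theorem RegP.mem {k : ℕ} {P : List α → Prop} (hP : (lg P).IsRegular) :
    RegP (fun w (_ : Fin k → ℕ) => P w) := by
  have h1 : RegP (fun w (_ : Fin k → ℕ) => ∃ y ≤ w.length, (∀ z ≤ w.length, y ≤ z) ∧
      P (w.drop y)) := by
    refine RegP.ex' (P := fun w _ y => (∀ z ≤ w.length, y ≤ z) ∧ P (w.drop y))
      (RegP.and (RegP.all' ?_) (RegP.drop hP 0))
    exact RegP.le (α := α) (1 : Fin (k + 2)) (0 : Fin (k + 2))
  refine h1.congr fun w x _ => ?_
  constructor
  · intro h
    exact ⟨0, Nat.zero_le _, fun z _ => Nat.zero_le _, by simpa using h⟩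
  · rintro ⟨y, -, h2, h3⟩
    have : y = 0 := Nat.le_zero.mp (h2 0 (Nat.zero_le _))
    subst this
    simpa using h3

/-- concatenation of regular languages -/
theorem isRegular_cat {P Q : List α → Prop} (hP : (lg P).IsRegular) (hQ : (lg Q).IsRegular) :
    (lg fun w => ∃ u v, u ++ v = w ∧ P u ∧ Q v).IsRegular := by
  have h : RegP (fun w (_ : Fin 0 → ℕ) => ∃ y ≤ w.length, P (w.take y) ∧ Q (w.drop y)) :=
    RegP.ex' (P := fun w _ y => P (w.take y) ∧ Q (w.drop y))
      ((RegP.take hP 0).and (RegP.drop hQ 0))
  refine isRegular_congr h.close fun w => ?_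
  rw [mem_lg]
  constructor
  · rintro ⟨y, -, h1, h2⟩
    exact ⟨_, _, List.take_append_drop y w, h1, h2⟩
  · rintro ⟨u, v, rfl, h1, h2⟩
    exact ⟨u.length, by simp, by simpa using h1, by simpa using h2⟩

theorem isRegular_mul {L M : Language α} (hL : L.IsRegular) (hM : M.IsRegular) :
    (L * M).IsRegular := by
  have h := isRegular_cat (P := (· ∈ L)) (Q := (· ∈ M)) hL hM
  have e : L * M = lg fun w => ∃ u v, u ++ v = w ∧ u ∈ L ∧ v ∈ M := by
    ext w
    rw [Language.mem_mul, mem_lg]
    constructor
    · rintro ⟨u, hu, v, hv, h⟩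
      exact ⟨u, v, h, hu, hv⟩
    · rintro ⟨u, v, h, hu, hv⟩
      exact ⟨u, hu, v, hv, h⟩
  exact e ▸ h

end Crest.R320.Reg_143
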