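import Crest.Agent.R320.Hk1_851

/-!
# Row 320: regularity closure and pump invariance (helper852)

* `IsRegular.mul`, `IsRegular.kstar` (via finitely many left quotients),
* every language of a generalized regular expression is regular,
* `IsRegular.pump`: a regular language is invariant under `x ^ k → x ^ (k + M)` for `k ≥ E`,
  uniformly in the word `x` and in the contexts.
-/

set_option autoImplicit false

namespace Crest.Agent.R320.Reg_852

open Crest.RegLang Crest.Agent.R320.Hk_851

universe u

variable {α : Type u}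

/-- `k`-th power of a word -/
def wpow (x : List α) (k : ℕ) : List α := (List.replicate k x).flatten

@[simp] theorem wpow_zero (x : List α) : wpow x 0 = [] := rfl

theorem wpow_succ (x : List α) (k : ℕ) : wpow x (k + 1) = x ++ wpow x k := by
  simp [wpow, List.replicate_succ]

theorem wpow_add (x : List α) (k l : ℕ) : wpow x (k + l) = wpow x k ++ wpow x l := by
  induction k with
  | zero => simp
  | succ k ih => rw [Nat.add_right_comm, wpow_succ, wpow_succ, ih, List.append_assoc]

theorem isRegular_of_forall_mem {L : Language α} {T : Set (Language α)} (hT : T.Finite)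
    (h : ∀ w, L.leftQuotient w ∈ T) : L.IsRegular :=
  Language.IsRegular.of_finite_range_leftQuotient (hT.subset (by
    rintro _ ⟨w, rfl⟩
    exact h w))

theorem isRegular_zero : (0 : Language α).IsRegular :=
  isRegular_of_forall_mem (T := {0}) (Set.finite_singleton _) (by
    intro w
    ext x
    simp [Language.mem_leftQuotient, Language.notMem_zero])

theorem isRegular_one : (1 : Language α).IsRegular :=
  isRegular_of_forall_mem (T := {0, 1}) (Set.toFinite _) (by
    intro w
    rcases w with _ | ⟨a, w⟩
    · right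
      rfl
    · left
      ext x
      simp [Language.mem_leftQuotient, Language.notMem_zero, Language.mem_one])

theorem isRegular_char (a : α) : ({[a]} : Language α).IsRegular :=
  isRegular_of_forall_mem (T := {0, 1, {[a]}}) (Set.toFinite _) (by
    intro w
    rcases w with _ | ⟨b, w⟩
    · right; right
      rfl
    · by_cases h : b = a ∧ w = []
      · right; left
        obtain ⟨rfl, rfl⟩ := h
        ext x
        show [b] ++ x ∈ ({[b]} : Set (List α)) ↔ x ∈ ({[]} : Set (List α))
        simp
      · left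
        ext x
        show (b :: w) ++ x ∈ ({[a]} : Set (List α)) ↔ x ∈ (∅ : Set (List α))
        simp only [List.cons_append, Set.mem_singleton_iff, List.cons.injEq,
          List.append_eq_nil_iff, Set.mem_empty_iff_false, iff_false]
        rintro ⟨h1, h2, -⟩
        exact h ⟨h1, h2⟩)

/-- product of two regular languages -/
theorem IsRegular.mul {L M : Language α} (hL : L.IsRegular) (hM : M.IsRegular) :
    (L * M).IsRegular := by
  have h1 := hL.finite_range_leftQuotient
  have h2 := hM.finite_range_leftQuotient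
  let F : Language α × Set (Language α) → Language α :=
    fun p => {x | x ∈ p.1 * M ∨ ∃ N ∈ p.2, x ∈ N}
  refine isRegular_of_forall_mem (T := F '' ((Set.range L.leftQuotient) ×ˢ
    {T | T ⊆ Set.range M.leftQuotient})) ((h1.prod h2.finite_subsets).image F) ?_
  intro w
  refine ⟨(L.leftQuotient w, {N | ∃ w1 w2, w = w1 ++ w2 ∧ w1 ∈ L ∧ N = M.leftQuotient w2}),
    ⟨⟨w, rfl⟩, ?_⟩, ?_⟩
  · rintro N ⟨w1, w2, -, -, rfl⟩
    exact ⟨w2, rfl⟩
  · ext x
    constructor
    · rintro (h | ⟨N, ⟨w1, w2, rfl, hw1, rfl⟩, hx⟩)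
      · obtain ⟨a, ha, b, hb, rfl⟩ := Language.mem_mul.1 h
        refine Language.mem_mul.2 ⟨w ++ a, ha, b, hb, ?_⟩
        simp
      · refine Language.mem_mul.2 ⟨w1, hw1, w2 ++ x, hx, ?_⟩
        simp
    · intro h
      obtain ⟨a, ha, b, hb, hab⟩ := Language.mem_mul.1 (show w ++ x ∈ L * M from h)
      rcases List.append_eq_append_iff.1 hab with ⟨c, hc1, hc2⟩ | ⟨c, hc1, hc2⟩
      · right
        refine ⟨M.leftQuotient c, ⟨a, c, hc1, ha, rfl⟩, ?_⟩
        show c ++ x ∈ M
        rw [← hc2]
        exact hb
      · left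
        refine Language.mem_mul.2 ⟨c, ?_, b, hb, hc2.symm⟩
        show w ++ c ∈ L
        rw [← hc1]
        exact ha

theorem kstar_split {L : Language α} (ys : List (List α)) :
    (∀ y ∈ ys, y ∈ L) → ∀ w x : List α, ys.flatten = w ++ x →
      (w ∈ KStar.kstar L ∧ x ∈ KStar.kstar L) ∨
        ∃ w1 w2, w = w1 ++ w2 ∧ w1 ∈ KStar.kstar L ∧
          x ∈ (L.leftQuotient w2) * KStar.kstar L := by
  induction ys with
  | nil =>
    intro _ w x h
    have h' : w ++ x = [] := h.symm
    obtain ⟨rfl, rfl⟩ := List.append_eq_nil_iff.1 h'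
    exact Or.inl ⟨Language.nil_mem_kstar L, Language.nil_mem_kstar L⟩
  | cons y ys ih =>
    intro hy w x h
    have hyL : y ∈ L := hy y (by simp)
    have hys : ∀ z ∈ ys, z ∈ L := fun z hz => hy z (by simp [hz])
    have hstar : ys.flatten ∈ KStar.kstar L := Language.join_mem_kstar hys
    rw [List.flatten_cons] at h
    rcases List.append_eq_append_iff.1 h with ⟨c, hc1, hc2⟩ | ⟨c, hc1, hc2⟩
    · have hcons : ∀ v, v ∈ KStar.kstar L → y ++ v ∈ KStar.kstar L := by
        intro v hv
        obtain ⟨zs, rfl, hzs⟩ := Language.mem_kstar.1 hv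
        refine Language.mem_kstar.2 ⟨y :: zs, by simp, ?_⟩
        intro z hz
        rcases List.mem_cons.1 hz with rfl | hz
        · exact hyL
        · exact hzs z hz
      rcases ih hys c x hc2 with ⟨h1, h2⟩ | ⟨w1, w2, rfl, h1, h2⟩
      · left
        exact ⟨hc1 ▸ hcons c h1, h2⟩
      · right
        exact ⟨y ++ w1, w2, by rw [hc1, List.append_assoc], hcons w1 h1, h2⟩
    · right
      refine ⟨[], w, rfl, Language.nil_mem_kstar L, ?_⟩
      refine Language.mem_mul.2 ⟨c, ?_, ys.flatten, hstar, hc2.symm⟩
      show w ++ c ∈ L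
      rw [← hc1]
      exact hyL

/-- Kleene star of a regular language -/
theorem IsRegular.kstar {L : Language α} (hL : L.IsRegular) : (KStar.kstar L).IsRegular := by
  have h1 := hL.finite_range_leftQuotient
  let F : Prop × Set (Language α) → Language α :=
    fun p => {x | (p.1 ∧ x ∈ KStar.kstar L) ∨ ∃ N ∈ p.2, x ∈ N * KStar.kstar L}
  refine isRegular_of_forall_mem (T := F '' ((Set.univ : Set Prop) ×ˢ
    {T | T ⊆ Set.range L.leftQuotient})) ((Set.finite_univ.prod h1.finite_subsets).image F) ?_
  intro w
  refine ⟨(w ∈ KStar.kstar L,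
    {N | ∃ w1 w2, w = w1 ++ w2 ∧ w1 ∈ KStar.kstar L ∧ N = L.leftQuotient w2}),
    ⟨Set.mem_univ _, ?_⟩, ?_⟩
  · rintro N ⟨w1, w2, -, -, rfl⟩
    exact ⟨w2, rfl⟩
  · have happ : ∀ u v, u ∈ KStar.kstar L → v ∈ KStar.kstar L → u ++ v ∈ KStar.kstar L := by
      intro u v hu hv
      obtain ⟨us, rfl, hus⟩ := Language.mem_kstar.1 hu
      obtain ⟨vs, rfl, hvs⟩ := Language.mem_kstar.1 hv
      refine Language.mem_kstar.2 ⟨us ++ vs, by simp, ?_⟩
      intro z hz
      rcases List.mem_append.1 hz with hz | hz
      · exact hus z hz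
      · exact hvs z hz
    have hone : ∀ u, u ∈ L → u ∈ KStar.kstar L := by
      intro u hu
      exact Language.mem_kstar.2 ⟨[u], by simp, by simpa using hu⟩
    ext x
    constructor
    · rintro (⟨h, hx⟩ | ⟨N, ⟨w1, w2, rfl, hw1, rfl⟩, hx⟩)
      · exact happ _ _ h hx
      · obtain ⟨a, ha, b, hb, rfl⟩ := Language.mem_mul.1 hx
        show (w1 ++ w2) ++ (a ++ b) ∈ KStar.kstar L
        have h3 : (w1 ++ w2) ++ (a ++ b) = w1 ++ ((w2 ++ a) ++ b) := by simp
        rw [h3]
        exact happ _ _ hw1 (happ _ _ (hone _ ha) hb)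
    · intro h
      obtain ⟨ys, hys, hmem⟩ := Language.mem_kstar.1 (show w ++ x ∈ KStar.kstar L from h)
      rcases kstar_split ys hmem w x hys.symm with ⟨h1, h2⟩ | ⟨w1, w2, hw, h1, h2⟩
      · exact Or.inl ⟨h1, h2⟩
      · exact Or.inr ⟨_, ⟨w1, w2, hw, h1, rfl⟩, h2⟩

/-- every language of a generalized regular expression is regular -/
theorem isRegular_lang (e : GRegExp α) : e.lang.IsRegular := by
  induction e with
  | zero => exact isRegular_zero
  | eps => exact isRegular_one
  | char a => exact isRegular_char a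
  | union P Q hP hQ => exact hP.add hQ
  | cat P Q hP hQ => exact IsRegular.mul hP hQ
  | not P hP => exact hP.compl
  | star P hP => exact IsRegular.kstar hP

theorem HL.isRegular {k : ℕ} {L : Language α} (h : HL k L) : L.IsRegular := by
  obtain ⟨e, -, rfl⟩ := h
  exact isRegular_lang e

/-- languages recognized by a finite monoid are regular -/
theorem isRegular_prod {S : Type*} [Monoid S] [Finite S] (φ : α → S) (s : S) :
    Language.IsRegular ({w | (w.map φ).prod = s} : Language α) := by
  refine isRegular_of_forall_mem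
    (T := Set.range (fun m : S => ({x | m * (x.map φ).prod = s} : Language α)))
    (Set.finite_range _) ?_
  intro w
  refine ⟨(w.map φ).prod, ?_⟩
  ext x
  show (w.map φ).prod * (x.map φ).prod = s ↔ ((w ++ x).map φ).prod = s
  rw [List.map_append, List.prod_append]

/-- a finite family of iterates: uniform index and period -/
theorem exists_index_period (T : Type*) [Monoid T] [Finite T] :
    ∃ E M : ℕ, 0 < M ∧ ∀ (t : T) (k : ℕ), E ≤ k → t ^ (k + M) = t ^ k := by
  classical
  have _ := Fintype.ofFinite T
  have h : ∀ t : T, ∃ i p : ℕ, 0 < p ∧ t ^ (i + p) = t ^ i := by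
    intro t
    have hn := not_injective_infinite_finite (fun n : ℕ => t ^ n)
    rw [Function.Injective] at hn
    push Not at hn
    obtain ⟨a, b, hab, hne⟩ := hn
    rcases lt_or_gt_of_ne hne with hlt | hlt
    · exact ⟨a, b - a, by omega, by
        have : a + (b - a) = b := by omega
        rw [this]; exact hab.symm⟩
    · exact ⟨b, a - b, by omega, by
        have : b + (a - b) = a := by omega
        rw [this]; exact hab⟩
  choose i p hp hip using h
  refine ⟨∑ t, i t, ∏ t, p t, Finset.prod_pos (fun t _ => hp t), ?_⟩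
  intro t k hk
  have hi : i t ≤ k := le_trans (Finset.single_le_sum (fun s _ => Nat.zero_le (i s))
    (Finset.mem_univ t)) hk
  obtain ⟨c, hc⟩ : p t ∣ ∏ t, p t := Finset.dvd_prod_of_mem p (Finset.mem_univ t)
  rw [hc]
  have hstep : ∀ k, i t ≤ k → t ^ (k + p t) = t ^ k := by
    intro k hk
    have h1 : k + p t = (i t + p t) + (k - i t) := by omega
    have h2 : k = i t + (k - i t) := by omega
    rw [h1, pow_add, hip t, ← pow_add, ← h2]
  clear hc
  induction c with
  | zero => simp
  | succ c ih =>
    have h1 : k + p t * (c + 1) = (k + p t * c) + p t := by ring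
    rw [h1, hstep (k + p t * c) (by omega), ih]

/-- **pump invariance of regular languages**, uniform in the pumped word and the contexts -/
theorem IsRegular.pump {L : Language α} (hL : L.IsRegular) :
    ∃ E M : ℕ, 0 < M ∧ ∀ (x u v : List α) (k : ℕ), E ≤ k →
      (u ++ wpow x k ++ v ∈ L ↔ u ++ wpow x (k + M) ++ v ∈ L) := by
  classical
  obtain ⟨σ, _, D, rfl⟩ := hL
  have _ : Finite (Function.End σ) := inferInstanceAs (Finite (σ → σ))
  obtain ⟨E, M, hM, h⟩ := exists_index_period (Function.End σ)
  refine ⟨E, M, hM, ?_⟩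
  intro x u v k hk
  let t : Function.End σ := fun q => D.evalFrom q x
  have hpow : ∀ (n : ℕ) (q : σ), D.evalFrom q (wpow x n) = (t ^ n) q := by
    intro n
    induction n with
    | zero => intro q; rfl
    | succ n ih =>
      intro q
      rw [wpow_succ, DFA.evalFrom_of_append, ih, pow_succ]
      rfl
  have key : D.eval (u ++ wpow x k ++ v) = D.eval (u ++ wpow x (k + M) ++ v) := by
    simp only [DFA.eval, DFA.evalFrom_of_append]
    rw [hpow, hpow, h t k hk]
  rw [DFA.mem_accepts, DFA.mem_accepts, key]

/-- same, in the raw form with `List.replicate` -/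
theorem IsRegular.pump' {L : Language α} (hL : L.IsRegular) :
    ∃ E M : ℕ, 0 < M ∧ ∀ (x u v : List α) (k : ℕ), E ≤ k →
      (u ++ (List.replicate k x).flatten ++ v ∈ L ↔
        u ++ (List.replicate (k + M) x).flatten ++ v ∈ L) :=
  IsRegular.pump hL

theorem HL.pump {k : ℕ} {L : Language α} (hL : HL k L) :
    ∃ E M : ℕ, 0 < M ∧ ∀ (x u v : List α) (k : ℕ), E ≤ k →
      (u ++ (List.replicate k x).flatten ++ v ∈ L ↔
        u ++ (List.replicate (k + M) x).flatten ++ v ∈ L) :=
  IsRegular.pump' (HL.isRegular hL)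

end Crest.Agent.R320.Reg_852
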