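import Crest.Agent.R320.Hk2_851

/-!
# Row 320: a regular language of bounded "run complexity" has height `≤ 1` (helper746)

`pw x k = x^k`, `Pc B = {f ++ x^k : |f|, |x| ≤ B}`, `PN B R` = products of `R` words of `Pc B`
(the empty word is in `Pc B`, so "at most `R`" = "exactly `R`").
`HL_one_of_regular` : `L` regular and `L ⊆ PN B R` imply `HL 1 L`.
-/

set_option autoImplicit false

namespace Crest.Agent.R320.BddReg_746

open Crest.RegLang Crest.Agent.R320.Hk_851

universe u

variable {α : Type u}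

/-- the power `x^k` of a word -/
def pw (x : List α) (k : ℕ) : List α := (List.replicate k x).flatten

@[simp] theorem pw_zero (x : List α) : pw x 0 = [] := rfl

theorem pw_add (x : List α) (i j : ℕ) : pw x (i + j) = pw x i ++ pw x j := by
  unfold pw
  rw [List.replicate_add, List.flatten_append]

theorem pw_succ (x : List α) (k : ℕ) : pw x (k + 1) = pw x k ++ x := by
  rw [pw_add]; simp [pw]

theorem pw_pw (x : List α) (m q : ℕ) : pw (pw x m) q = pw x (m * q) := by
  induction q with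
  | zero => simp
  | succ q ih => rw [pw_succ, ih, Nat.mul_succ, pw_add]

theorem prod_pw {S : Type*} [Monoid S] (φ : α → S) (x : List α) (k : ℕ) :
    ((pw x k).map φ).prod = ((x.map φ).prod) ^ k := by
  induction k with
  | zero => simp
  | succ k ih => rw [pw_succ, List.map_append, List.prod_append, ih, pow_succ]

theorem pow_periodic {S : Type*} [Monoid S] [Finite S] (p : S) :
    ∃ i m : ℕ, 0 < m ∧ ∀ k, i ≤ k → p ^ (k + m) = p ^ k := by
  obtain ⟨a, b, hab, h⟩ := Finite.exists_ne_map_eq_of_infinite (fun k : ℕ => p ^ k)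
  wlog hlt : a < b generalizing a b with H
  · exact H b a hab.symm h.symm (lt_of_le_of_ne (not_lt.1 hlt) hab.symm)
  refine ⟨a, b - a, by omega, fun k hk => ?_⟩
  have h' : p ^ a = p ^ b := h
  have e1 : k + (b - a) = b + (k - a) := by omega
  have e2 : k = a + (k - a) := by omega
  rw [e1, pow_add, ← h', ← pow_add, ← e2]

theorem pow_periodic' {S : Type*} [Monoid S] {p : S} {i m : ℕ}
    (h : ∀ k, i ≤ k → p ^ (k + m) = p ^ k) (q : ℕ) : ∀ k, i ≤ k → p ^ (k + m * q) = p ^ k := by
  induction q with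
  | zero => intro k _; simp
  | succ q ih =>
    intro k hk
    have : k + m * (q + 1) = (k + m * q) + m := by rw [Nat.mul_succ]; omega
    rw [this, h _ (by omega), ih k hk]

/-- auxiliary language -/
def LP (x : List α) (i m r : ℕ) : Language α :=
  {w | w = pw x r ∨ (i ≤ r ∧
    w ∈ ({pw x r} : Language α) * KStar.kstar ({pw x m} : Language α))}

/-- powers of one word with a prescribed value -/
def LPow {S : Type*} [Monoid S] (φ : α → S) (x : List α) (t : S) : Language α :=
  {w | ∃ k, w = pw x k ∧ ((x.map φ).prod) ^ k = t}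

/-- words of a language with a prescribed value -/
def LV {S : Type*} [Monoid S] (φ : α → S) (L : Language α) (s : S) : Language α :=
  {w | w ∈ L ∧ (w.map φ).prod = s}

theorem mem_LPow {S : Type*} [Monoid S] (φ : α → S) (x : List α) (t : S) (w : List α) :
    w ∈ LPow φ x t ↔ ∃ k, w = pw x k ∧ ((x.map φ).prod) ^ k = t := Iff.rfl

theorem mem_LV {S : Type*} [Monoid S] (φ : α → S) (L : Language α) (s : S) (w : List α) :
    w ∈ LV φ L s ↔ w ∈ L ∧ (w.map φ).prod = s := Iff.rfl

/-- powers of one word with a prescribed value -/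
theorem HL_pow {S : Type*} [Monoid S] [Finite S] (φ : α → S) (x : List α) (t : S) :
    HL 1 (LPow φ x t) := by
  obtain ⟨i, m, hm, hper⟩ := pow_periodic ((x.map φ).prod)
  have hstar : HL 1 (KStar.kstar ({pw x m} : Language α)) := (HL.word (k := 0) (pw x m)).star
  have h := HL.biUnion (k := 1) (s := {r : ℕ | r < i + m ∧ ((x.map φ).prod) ^ r = t})
    ((Set.finite_lt_nat (i + m)).subset fun r hr => hr.1)
    (L := fun r => LP x i m r)
    (fun r _ => HL.setOf_or (HL.word (pw x r))
      ((HL.const (i ≤ r)).setOf_and ((HL.word (pw x r)).mul hstar)))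
  refine h.congr fun w => Iff.symm ?_
  constructor
  · rintro ⟨r, ⟨hr1, hr2⟩, hw0⟩
    have hw1 : w = pw x r ∨ (i ≤ r ∧
      w ∈ ({pw x r} : Language α) * KStar.kstar ({pw x m} : Language α)) := hw0
    rcases hw1 with hw | ⟨hir, hw⟩
    · exact ⟨r, hw, hr2⟩
    · obtain ⟨y, hy, z, hz, rfl⟩ := Language.mem_mul.1 hw
      obtain ⟨T, rfl, hT⟩ := Language.mem_kstar.1 hz
      have hT' : T = List.replicate T.length (pw x m) :=
        List.eq_replicate_of_mem fun b hb => hT b hb
      have hy' : y = pw x r := hy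
      refine ⟨r + m * T.length, ?_, ?_⟩
      · rw [hy', pw_add, ← pw_pw]
        conv_lhs => rw [hT']
        rfl
      · rw [pow_periodic' hper _ _ hir, hr2]
  · intro hw0
    have hw1 : ∃ k, w = pw x k ∧ ((x.map φ).prod) ^ k = t := hw0
    obtain ⟨k, rfl, hk⟩ := hw1
    by_cases hki : k < i
    · exact ⟨k, ⟨by omega, hk⟩, Or.inl rfl⟩
    · have hik : i ≤ k := not_lt.1 hki
      have hdm : i + (k - i) % m + m * ((k - i) / m) = k := by
        have := Nat.mod_add_div (k - i) m
        omega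
      refine ⟨i + (k - i) % m, ⟨by have := Nat.mod_lt (k - i) hm; omega, ?_⟩, Or.inr ⟨by omega, ?_⟩⟩
      · rw [← pow_periodic' hper ((k - i) / m) _ (by omega), hdm, hk]
      · refine Language.mem_mul.2 ⟨pw x (i + (k - i) % m), rfl, pw (pw x m) ((k - i) / m), ?_, ?_⟩
        · exact Language.mem_kstar.2 ⟨List.replicate ((k - i) / m) (pw x m), rfl,
            fun y hy => by rw [List.eq_of_mem_replicate hy]; exact rfl⟩
        · rw [pw_pw, ← pw_add, hdm]

/-- pieces: a short word followed by a power of a short word -/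
def Pc (B : ℕ) : Language α :=
  {w | ∃ f x : List α, ∃ k : ℕ, f.length ≤ B ∧ x.length ≤ B ∧ w = f ++ pw x k}

/-- products of `R` pieces -/
def PN (B : ℕ) : ℕ → Language α
  | 0 => 1
  | R + 1 => Pc B * PN B R

theorem mem_Pc (B : ℕ) (w : List α) : w ∈ (Pc B : Language α) ↔
    ∃ f x : List α, ∃ k : ℕ, f.length ≤ B ∧ x.length ≤ B ∧ w = f ++ pw x k := Iff.rfl

theorem nil_mem_Pc (B : ℕ) : ([] : List α) ∈ (Pc B : Language α) :=
  ⟨[], [], 0, by simp, by simp, by simp⟩

theorem HL_Pc [Finite α] {S : Type*} [Monoid S] [Finite S] (φ : α → S) (B : ℕ) (s : S) :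
    HL 1 (LV φ (Pc B) s) := by
  have hfin : ({q : List α × List α × S | (q.1.length ≤ B ∧ q.2.1.length ≤ B) ∧
      (q.1.map φ).prod * q.2.2 = s}).Finite := by
    refine (((List.finite_length_le α B).prod
      ((List.finite_length_le α B).prod (Set.finite_univ (α := S)))).subset ?_)
    rintro ⟨f, x, t⟩ ⟨⟨h1, h2⟩, -⟩
    exact ⟨h1, h2, trivial⟩
  have h := HL.biUnion (k := 1) hfin
    (L := fun q => ({q.1} : Language α) * LPow φ q.2.1 q.2.2)
    (fun q _ => (HL.word q.1).mul (HL_pow φ q.2.1 q.2.2))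
  refine h.congr fun w => Iff.symm ?_
  constructor
  · rintro ⟨⟨f, x, t⟩, ⟨⟨h1, h2⟩, h3⟩, hw⟩
    obtain ⟨y, hy, z, hz, rfl⟩ := Language.mem_mul.1 hw
    obtain ⟨k, rfl, hk⟩ := (mem_LPow φ x t z).1 hz
    have hy' : y = f := hy
    refine (mem_LV φ _ s _).2 ⟨(mem_Pc B _).2 ⟨f, x, k, h1, h2, by rw [hy']⟩, ?_⟩
    rw [hy', List.map_append, List.prod_append, prod_pw, hk]
    exact h3
  · intro hw0
    obtain ⟨hw1, hs⟩ := (mem_LV φ _ s w).1 hw0
    obtain ⟨f, x, k, h1, h2, rfl⟩ := (mem_Pc B w).1 hw1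
    rw [List.map_append, List.prod_append, prod_pw] at hs
    exact ⟨(f, x, ((x.map φ).prod) ^ k), ⟨⟨h1, h2⟩, hs⟩,
      Language.mem_mul.2 ⟨f, rfl, pw x k, ⟨k, rfl, rfl⟩, rfl⟩⟩

theorem HL_PN [Finite α] {S : Type*} [Monoid S] [Finite S] (φ : α → S) (B : ℕ) :
    ∀ (R : ℕ) (s : S), HL 1 (LV φ (PN B R) s)
  | 0, s => by
    refine ((HL.word (k := 1) ([] : List α)).setOf_and (HL.const ((1 : S) = s))).congr fun w => Iff.symm ?_
    constructor
    · intro h0
      have h1 : w = [] ∧ (1 : S) = s := h0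
      obtain ⟨hw', hs⟩ := h1
      subst hw'
      exact (mem_LV φ _ s _).2 ⟨rfl, by simpa using hs⟩
    · intro h0
      obtain ⟨hw, hs⟩ := (mem_LV φ _ s w).1 h0
      have hw' : w = [] := hw
      subst hw'
      exact (⟨rfl, by simpa using hs⟩ : ([] : List α) = [] ∧ (1 : S) = s)
  | R + 1, s => by
    have h := HL.biUnion (k := 1) (s := {q : S × S | q.1 * q.2 = s}) (Set.toFinite _)
      (L := fun q => LV φ (Pc B) q.1 * LV φ (PN B R) q.2)
      (fun q _ => (HL_Pc φ B q.1).mul (HL_PN φ B R q.2))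
    refine h.congr fun w => Iff.symm ?_
    constructor
    · rintro ⟨⟨a, b⟩, hab, hw⟩
      obtain ⟨y, hy, z, hz, rfl⟩ := Language.mem_mul.1 hw
      obtain ⟨hy1, hy2⟩ := (mem_LV φ _ _ y).1 hy
      obtain ⟨hz1, hz2⟩ := (mem_LV φ _ _ z).1 hz
      refine (mem_LV φ _ _ _).2 ⟨Language.mem_mul.2 ⟨y, hy1, z, hz1, rfl⟩, ?_⟩
      rw [List.map_append, List.prod_append, hy2, hz2]
      exact hab
    · intro hw0
      obtain ⟨hw, hs⟩ := (mem_LV φ _ s w).1 hw0
      obtain ⟨y, hy, z, hz, rfl⟩ := Language.mem_mul.1 hw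
      rw [List.map_append, List.prod_append] at hs
      exact ⟨((y.map φ).prod, (z.map φ).prod), hs,
        Language.mem_mul.2 ⟨y, ⟨hy, rfl⟩, z, ⟨hz, rfl⟩, rfl⟩⟩

/-- a regular language is recognised by a map into a finite monoid -/
theorem exists_monoid {L : Language α} (hL : L.IsRegular) :
    ∃ (S : Type u) (_ : Monoid S) (_ : Finite S) (φ : α → S) (F : Set S),
      ∀ w, w ∈ L ↔ (w.map φ).prod ∈ F := by
  obtain ⟨σ, hσ, M, rfl⟩ := Language.isRegular_iff.{u, u}.1 hL
  classical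
  let φ : α → (Function.End σ)ᵐᵒᵖ := fun a => MulOpposite.op (fun s => M.step s a)
  have key : ∀ (w : List α) (s : σ), M.evalFrom s w = ((w.map φ).prod).unop s := by
    intro w
    induction w with
    | nil => intro s; rfl
    | cons a w ih =>
      intro s
      rw [List.map_cons, List.prod_cons, MulOpposite.unop_mul]
      change M.evalFrom (M.step s a) w = ((w.map φ).prod).unop (M.step s a)
      exact ih _
  haveI : Finite (Function.End σ)ᵐᵒᵖ := by
    haveI : Finite (Function.End σ) := inferInstanceAs (Finite (σ → σ))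
    exact Finite.of_injective MulOpposite.unop MulOpposite.unop_injective
  refine ⟨(Function.End σ)ᵐᵒᵖ, inferInstance, this, φ, {g | g.unop M.start ∈ M.accept}, fun w => ?_⟩
  rw [Set.mem_setOf_eq, ← key]
  exact Iff.rfl

/-- auxiliary language -/
def LF {S : Type*} [Monoid S] (φ : α → S) (F : Set S) (B R : ℕ) (s : S) : Language α :=
  {w | s ∈ F ∧ w ∈ LV φ (PN B R) s}

theorem mem_LF {S : Type*} [Monoid S] (φ : α → S) (F : Set S) (B R : ℕ) (s : S) (w : List α) :
    w ∈ LF φ F B R s ↔ s ∈ F ∧ w ∈ (PN B R : Language α) ∧ (w.map φ).prod = s := Iff.rfl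

/-- **Bounded regular languages have height at most one.** -/
theorem HL_one_of_regular [Finite α] {L : Language α} (hL : L.IsRegular) (B R : ℕ)
    (hb : ∀ w ∈ L, w ∈ (PN B R : Language α)) : HL 1 L := by
  obtain ⟨S, hS, hf, φ, F, hF⟩ := exists_monoid hL
  have h := HL.iUnion (k := 1) (ι := S)
    (L := fun s => LF φ F B R s)
    (fun s => (HL.const (s ∈ F)).setOf_and (HL_PN φ B R s))
  refine h.congr fun w => Iff.symm ?_
  constructor
  · rintro ⟨s, h0⟩
    obtain ⟨hs, -, hw⟩ := (mem_LF φ F B R s w).1 h0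
    rw [hF, hw]; exact hs
  · intro hw
    exact ⟨(w.map φ).prod, (mem_LF φ F B R _ w).2 ⟨(hF w).1 hw, hb w hw, rfl⟩⟩

/-- intersection form: `L` regular gives `HL 1 (L ∩ PN B R)` -/
theorem HL_one_inter [Finite α] {L : Language α} (hL : L.IsRegular) (B R : ℕ) :
    HL 1 ({w | w ∈ L ∧ w ∈ (PN B R : Language α)} : Language α) := by
  obtain ⟨S, hS, hf, φ, F, hF⟩ := exists_monoid hL
  have h := HL.iUnion (k := 1) (ι := S)
    (L := fun s => LF φ F B R s)
    (fun s => (HL.const (s ∈ F)).setOf_and (HL_PN φ B R s))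
  refine h.congr fun w => Iff.symm ?_
  constructor
  · rintro ⟨s, h0⟩
    obtain ⟨hs, hw1, hw⟩ := (mem_LF φ F B R s w).1 h0
    exact (⟨by rw [hF, hw]; exact hs, hw1⟩ : w ∈ L ∧ w ∈ (PN B R : Language α))
  · intro h0
    have h1 : w ∈ L ∧ w ∈ (PN B R : Language α) := h0
    exact ⟨(w.map φ).prod, (mem_LF φ F B R _ w).2 ⟨(hF w).1 h1.1, h1.2, rfl⟩⟩

end Crest.Agent.R320.BddReg_746
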