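import Crest.Agent.R320.FewWalls_228
import Crest.Agent.R320.BddReg_746

/-!
# Row 320: regular languages of words with few walls have height one (helper228)

Walls in the format of `Mk263.marker` (`Wl n S w x`, `nw n S w` = number of walls).
`HL_few` : `L` regular → `HL 1 {w | w ∈ L ∧ nw n S w ≤ r}`.
-/

set_option autoImplicit false

namespace Crest.Agent.R320.FewVal_228

open Crest.RegLang Crest.Agent.R320.Hk_851 Crest.Agent.R320.FewWalls_228

universe u

variable {α : Type u}

/-- the last `n` letters -/
def lastn (n : ℕ) (w : List α) : List α := w.drop (w.length - n)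

theorem lastn_length (n : ℕ) (w : List α) : (lastn n w).length ≤ n := by
  unfold lastn; rw [List.length_drop]; omega

theorem lastn_snoc (n : ℕ) (w : List α) (a : α) :
    lastn n (w ++ [a]) = lastn n (lastn n w ++ [a]) := by
  unfold lastn
  simp only [List.length_append, List.length_drop, List.length_singleton]
  by_cases h : w.length < n
  · have e : w.length - n = 0 := by omega
    rw [e, List.drop_zero]
    congr 1
  · have e1 : w.length + 1 - n ≤ w.length ∨ n = 0 := by omega
    rcases Nat.eq_zero_or_pos n with rfl | hn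
    · rw [Nat.sub_zero, Nat.sub_zero]
      rw [List.drop_eq_nil_of_le (by simp), List.drop_eq_nil_of_le (by simp)]
    · rw [List.drop_append_of_le_length (by omega), List.drop_append_of_le_length
        (by rw [List.length_drop]; omega), List.drop_drop]
      congr 2
      omega

open Classical in
theorem nw_snoc {n : ℕ} (hn : 0 < n) (S : Set (List α)) (w : List α) (a : α) :
    nw n S (w ++ [a]) = nw n S w +
      (if n ≤ w.length + 1 ∧ lastn n (w ++ [a]) ∈ S then 1 else 0) := by
  have hold : ∀ x, x + n ≤ w.length → (Wl n S (w ++ [a]) x ↔ Wl n S w x) := by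
    intro x hx
    unfold Wl
    rw [List.drop_append_of_le_length (by omega),
      List.take_append_of_le_length (by rw [List.length_drop]; omega)]
    constructor
    · rintro ⟨_, h⟩; exact ⟨hx, h⟩
    · rintro ⟨_, h⟩; exact ⟨by rw [List.length_append]; simp only [List.length_singleton]; omega, h⟩
  have hnew : n ≤ w.length + 1 → (Wl n S (w ++ [a]) (w.length + 1 - n) ↔
      lastn n (w ++ [a]) ∈ S) := by
    intro h
    unfold Wl lastn
    rw [List.length_append, List.length_singleton, List.take_of_length_le
      (by rw [List.length_drop, List.length_append, List.length_singleton]; omega)]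
    constructor
    · rintro ⟨_, h⟩; exact h
    · intro h'; exact ⟨by omega, h'⟩
  have hset : (Finset.range ((w ++ [a]).length + 1)).filter (fun x => Wl n S (w ++ [a]) x) =
      (Finset.range (w.length + 1)).filter (fun x => Wl n S w x) ∪
        (if n ≤ w.length + 1 ∧ lastn n (w ++ [a]) ∈ S then {w.length + 1 - n} else ∅) := by
    ext x
    rw [Finset.mem_union, Finset.mem_filter, Finset.mem_filter, Finset.mem_range, Finset.mem_range]
    constructor
    · rintro ⟨h1, h2⟩
      have h3 : x + n ≤ w.length + 1 := by
        have := h2.1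
        rwa [List.length_append, List.length_singleton] at this
      by_cases h4 : x + n ≤ w.length
      · exact Or.inl ⟨by omega, (hold x h4).1 h2⟩
      · right
        have hx : x = w.length + 1 - n := by omega
        subst hx
        rw [if_pos ⟨by omega, (hnew (by omega)).1 h2⟩]
        exact Finset.mem_singleton_self _
    · rintro (⟨h1, h2⟩ | h)
      · have := h2.1
        refine ⟨?_, (hold x this).2 h2⟩
        rw [List.length_append, List.length_singleton]; omega
      · by_cases hc : n ≤ w.length + 1 ∧ lastn n (w ++ [a]) ∈ S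
        · rw [if_pos hc, Finset.mem_singleton] at h
          subst h
          refine ⟨?_, (hnew hc.1).2 hc.2⟩
          rw [List.length_append, List.length_singleton]; omega
        · rw [if_neg hc] at h
          exact absurd h (Finset.notMem_empty x)
  unfold nw
  rw [hset, Finset.card_union_of_disjoint]
  · congr 1
    by_cases hc : n ≤ w.length + 1 ∧ lastn n (w ++ [a]) ∈ S
    · rw [if_pos hc, if_pos hc, Finset.card_singleton]
    · rw [if_neg hc, if_neg hc, Finset.card_empty]
  · by_cases hc : n ≤ w.length + 1 ∧ lastn n (w ++ [a]) ∈ S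
    · rw [if_pos hc, Finset.disjoint_singleton_right, Finset.mem_filter]
      rintro ⟨_, h⟩
      have := h.1
      omega
    · rw [if_neg hc]
      exact Finset.disjoint_empty_right _

/-- words with at most `r` walls form a regular language -/
theorem isRegular_few [Finite α] {n : ℕ} (hn : 0 < n) (S : Set (List α)) (r : ℕ) :
    Language.IsRegular ({w | nw n S w ≤ r} : Language α) := by
  classical
  let B := {b : List α // b.length ≤ n}
  haveI : Finite B := (List.finite_length_le α n).to_subtype
  haveI : Fintype B := Fintype.ofFinite B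
  let step : B × Fin (r + 2) → α → B × Fin (r + 2) := fun q a =>
    (⟨lastn n (q.1.1 ++ [a]), lastn_length _ _⟩,
      ⟨min (q.2.1 + (if n ≤ (q.1.1 ++ [a]).length ∧ lastn n (q.1.1 ++ [a]) ∈ S then 1 else 0))
        (r + 1), by omega⟩)
  let D : DFA α (B × Fin (r + 2)) :=
    ⟨step, (⟨[], by simp⟩, ⟨0, by omega⟩), {q | q.2.1 ≤ r}⟩
  have key : ∀ w : List α, (D.eval w).1.1 = lastn n w ∧ (D.eval w).2.1 = min (nw n S w) (r + 1) := by
    intro w
    induction w using List.reverseRecOn with
    | nil =>
      refine ⟨by simp [D, DFA.eval, DFA.evalFrom, lastn], ?_⟩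
      have h0 : nw n S ([] : List α) = 0 := by
        unfold nw
        rw [Finset.card_eq_zero, Finset.filter_eq_empty_iff]
        intro x _ hx
        have := hx.1
        simp only [List.length_nil] at this
        omega
      rw [h0]
      simp [D, DFA.eval, DFA.evalFrom]
    | append_singleton w a ih =>
      obtain ⟨h1, h2⟩ := ih
      have e : D.eval (w ++ [a]) = step (D.eval w) a := by
        rw [DFA.eval_append_singleton]
      rw [e]
      have hlen : n ≤ ((D.eval w).1.1 ++ [a]).length ↔ n ≤ w.length + 1 := by
        rw [h1, List.length_append, List.length_singleton]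
        unfold lastn
        rw [List.length_drop]
        omega
      refine ⟨?_, ?_⟩
      · show lastn n ((D.eval w).1.1 ++ [a]) = lastn n (w ++ [a])
        rw [h1, ← lastn_snoc]
      · show min ((D.eval w).2.1 + (if n ≤ ((D.eval w).1.1 ++ [a]).length ∧
            lastn n ((D.eval w).1.1 ++ [a]) ∈ S then 1 else 0)) (r + 1) = _
        have e3 : (if n ≤ ((D.eval w).1.1 ++ [a]).length ∧
            lastn n ((D.eval w).1.1 ++ [a]) ∈ S then 1 else 0) =
            (if n ≤ w.length + 1 ∧ lastn n (w ++ [a]) ∈ S then 1 else 0) := by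
          apply if_congr _ rfl rfl
          rw [hlen, h1, ← lastn_snoc]
        rw [e3, h2, nw_snoc hn]
        split_ifs <;> omega
  refine Language.isRegular_iff.mpr ⟨B × Fin (r + 2), inferInstance, D, ?_⟩
  ext w
  rw [DFA.mem_accepts]
  show (D.eval w).2.1 ≤ r ↔ nw n S w ≤ r
  rw [(key w).2]
  omega

theorem val_mem_PN (B : ℕ) (l : List (List α × List α × ℕ))
    (hl : ∀ t ∈ l, t.1.length ≤ B ∧ t.2.1.length ≤ B) (R : ℕ) (hR : l.length ≤ R) :
    Crest.Agent.R320.Pump_360.val l ∈ (Crest.Agent.R320.BddReg_746.PN B R : Language α) := by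
  induction R generalizing l with
  | zero =>
    have : l = [] := List.length_eq_zero_iff.1 (Nat.le_zero.1 hR)
    subst this
    exact rfl
  | succ R ih =>
    cases l with
    | nil =>
      exact Language.mem_mul.2 ⟨[], Crest.Agent.R320.BddReg_746.nil_mem_Pc B, [],
        ih [] (by simp) (by simp), rfl⟩
    | cons t l =>
      rw [Crest.Agent.R320.Pump_360.val_cons]
      refine Language.mem_mul.2 ⟨_, ⟨t.1, t.2.1, t.2.2, (hl t List.mem_cons_self).1,
        (hl t List.mem_cons_self).2, rfl⟩, _, ih l (fun s hs => hl s (List.mem_cons_of_mem _ hs))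
        (by simpa using hR), rfl⟩

/-- **regular languages of words with few walls have height one** -/
theorem HL_few [Finite α] {n c P : ℕ} {S : Set (List α)} (hn : 0 < n) (hP : 0 < P)
    (hper : PerOff n c P S) (r : ℕ) {L : Language α} (hL : L.IsRegular) :
    HL 1 ({w | w ∈ L ∧ nw n S w ≤ r} : Language α) := by
  have hreg : Language.IsRegular (L ⊓ ({w | nw n S w ≤ r} : Language α)) :=
    hL.inf (isRegular_few hn S r)
  refine (Crest.Agent.R320.BddReg_746.HL_one_of_regular (B := 2 * c + P) (R := 3 * r + 2)
    hreg ?_).congr fun w => Iff.rfl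
  intro w hw
  obtain ⟨l, h1, h2, h3⟩ := pieces hn hP hper r w hw.2
  rw [h3]
  exact val_mem_PN _ l h2 _ h1

/-- the same, with a bound on all words of `L` -/
theorem HL_of_few [Finite α] {n c P : ℕ} {S : Set (List α)} (hn : 0 < n) (hP : 0 < P)
    (hper : PerOff n c P S) (r : ℕ) {L : Language α} (hL : L.IsRegular)
    (hr : ∀ w ∈ L, nw n S w ≤ r) : HL 1 L :=
  (HL_few hn hP hper r hL).congr fun w => by
    constructor
    · intro h
      exact (show w ∈ L ∧ nw n S w ≤ r from ⟨h, hr w h⟩)
    · intro h
      have h' : w ∈ L ∧ nw n S w ≤ r := h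
      exact h'.1

/-- values in a finite monoid -/
theorem HL_few_value [Finite α] {n c P : ℕ} {S : Set (List α)} (hn : 0 < n) (hP : 0 < P)
    (hper : PerOff n c P S) (r : ℕ) {M : Type*} [Monoid M] [Finite M] (φ : α → M) (s : M) :
    HL 1 ({w | nw n S w ≤ r ∧ (w.map φ).prod = s} : Language α) := by
  classical
  haveI := Fintype.ofFinite M
  have hreg : Language.IsRegular ({w | (w.map φ).prod = s} : Language α) := by
    have key : ∀ (w : List α) (m : M), w.foldl (fun (m : M) b => m * φ b) m =
        m * (w.map φ).prod := by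
      intro w
      induction w with
      | nil => intro m; simp
      | cons a w ih => intro m; simp [ih, mul_assoc]
    let D : DFA α M := ⟨fun m b => m * φ b, 1, {s}⟩
    have hD : D.accepts = ({w | (w.map φ).prod = s} : Language α) := by
      ext w
      rw [DFA.mem_accepts]
      show w.foldl (fun (m : M) b => m * φ b) 1 = s ↔ (w.map φ).prod = s
      rw [key, one_mul]
    obtain ⟨σ, hσ, D', hD'⟩ : ∃ σ : Type, ∃ _ : Fintype σ, ∃ D' : DFA α σ,
        D'.accepts = D.accepts := by
      let e := Fintype.equivFin M
      refine ⟨Fin (Fintype.card M), inferInstance, D.reindex e, ?_⟩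
      exact DFA.accepts_reindex D e
    exact ⟨σ, hσ, D', hD'.trans hD⟩
  exact (HL_few hn hP hper r hreg).congr fun w => ⟨fun h => ⟨h.2, h.1⟩, fun h => ⟨h.2, h.1⟩⟩

/-- the marker theorem of helper263 in this form -/
theorem exists_walls (α : Type u) [Finite α] (W : ℕ) (hW : 1 ≤ W) :
    ∃ (n c P : ℕ) (S : Set (List α)), 0 < n ∧ 0 < P ∧ (∀ s ∈ S, s.length = n) ∧
      (∀ (w : List α) (x y : ℕ), x < y → Wl n S w x → Wl n S w y → x + W ≤ y) ∧
      PerOff n c P S ∧
      (∀ (L : Language α), L.IsRegular → ∀ r, HL 1 ({w | w ∈ L ∧ nw n S w ≤ r} : Language α)) := by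
  obtain ⟨n, c, P, S, hn, hP, hS, hsep, hper⟩ := Crest.Agent.R320.Mk263.marker (α := α) W hW
  refine ⟨n, c, P, S, hn, hP, hS, ?_, hper, fun L hL r => HL_few hn hP hper r hL⟩
  intro w x y hxy hx hy
  exact hsep w x y hxy hy.1 hx.2 hy.2

end Crest.Agent.R320.FewVal_228
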