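import Crest.Agent.R320.CompR_11
import Crest.Agent.R320.FewVal_228

/-!
# Row 320: left-looking walls, wall-free words are `Pieces` (helper228)

845's WALL LEAF, over `Mk263.marker` and `FewWalls_228.pieces`.
-/

set_option autoImplicit false

namespace Crest.Agent.R320.WallU_228

open Crest.RegLang Crest.Agent.R320.Hk_851 Crest.Agent.R320.FewWalls_228
  Crest.Agent.R320.CompR_11

universe u

variable {α : Type u}

/-- left-looking form of a wall set -/
def Wo (n : ℕ) (S : Set (List α)) (P : List α) : Prop :=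
  n ≤ P.length ∧ P.drop (P.length - n) ∈ S

theorem wo_append {n : ℕ} {S : Set (List α)} (P Q : List α) (h : n ≤ Q.length) :
    Wo n S (P ++ Q) ↔ Wo n S Q := by
  unfold Wo
  have e : (P ++ Q).length - n = P.length + (Q.length - n) := by
    rw [List.length_append]; omega
  rw [e, ← List.drop_drop, List.drop_left]
  constructor
  · rintro ⟨_, h2⟩; exact ⟨h, h2⟩
  · rintro ⟨_, h2⟩; exact ⟨by rw [List.length_append]; omega, h2⟩

theorem wo_take {n : ℕ} {S : Set (List α)} {u : List α} {x : ℕ} :
    Wl n S u x ↔ (x + n ≤ u.length ∧ Wo n S (u.take (x + n))) := by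
  unfold Wl Wo
  constructor
  · rintro ⟨h1, h2⟩
    have hl : (u.take (x + n)).length = x + n := by rw [List.length_take]; omega
    refine ⟨h1, by omega, ?_⟩
    rw [hl, List.drop_take]
    have e1 : x + n - n = x := by omega
    have e2 : x + n - x = n := by omega
    rw [e1, e2]
    exact h2
  · rintro ⟨h1, _, h2⟩
    have hl : (u.take (x + n)).length = x + n := by rw [List.length_take]; omega
    rw [hl, List.drop_take] at h2
    have e1 : x + n - n = x := by omega
    have e2 : x + n - x = n := by omega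
    rw [e1, e2] at h2
    exact ⟨h1, h2⟩

/-- at most `r` walls in the left-looking sense -/
theorem pieces_of_few {n c P : ℕ} {S : Set (List α)} (hn : 0 < n) (hP : 0 < P)
    (hper : PerOff n c P S) (r : ℕ) (u : List α) (hu : nw n S u ≤ r) :
    Pieces (3 * r + 2) (2 * c + P) u := by
  obtain ⟨l, h1, h2, h3⟩ := pieces hn hP hper r u hu
  exact ⟨l, h1, h2, h3⟩

/-- at most one wall, at the end -/
theorem nw_le_one {n : ℕ} {S : Set (List α)} (u : List α)
    (hu : ∀ t < u.length, ¬ Wo n S (u.take t)) : nw n S u ≤ 1 := by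
  classical
  unfold nw
  rw [Finset.card_le_one]
  have key : ∀ x, Wl n S u x → x + n = u.length := by
    intro x hx
    obtain ⟨h1, h2⟩ := wo_take.1 hx
    by_contra hne
    exact hu (x + n) (by omega) h2
  intro x hx y hy
  rw [Finset.mem_filter] at hx hy
  have := key x hx.2
  have := key y hy.2
  omega

/-- **845's wall leaf** -/
theorem walls [Finite α] (W : ℕ) :
    ∃ (n : ℕ) (Wo : List α → Prop),
      (∀ P Q : List α, n ≤ Q.length → (Wo (P ++ Q) ↔ Wo Q)) ∧
      (∀ P : List α, Wo P → n ≤ P.length) ∧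
      (∀ (P : List α) (d : ℕ), Wo P → 0 < d → d ≤ W → ¬ Wo (P.take (P.length - d))) ∧
      ∃ R B : ℕ, ∀ u : List α, (∀ t < u.length, ¬ Wo (u.take t)) → Pieces R B u := by
  obtain ⟨n, c, P, S, hn, hP, hS, hsep, hper⟩ :=
    Crest.Agent.R320.Mk263.marker (α := α) (W + 1) (by omega)
  refine ⟨n, Wo n S, fun P Q h => wo_append P Q h, fun P h => h.1, ?_, 3 * 1 + 2, 2 * c + P, ?_⟩
  · intro Q d hQ hd hdW hT
    obtain ⟨h1, h2⟩ := hQ
    obtain ⟨h3, h4⟩ := hT
    have hl : (Q.take (Q.length - d)).length = Q.length - d := by rw [List.length_take]; omega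
    rw [hl] at h3 h4
    rw [List.drop_take] at h4
    have e2 : Q.length - d - (Q.length - d - n) = n := by omega
    rw [e2] at h4
    have h5 : (Q.drop (Q.length - n)).take n ∈ S := by
      rw [List.take_of_length_le (by rw [List.length_drop]; omega)]
      exact h2
    have := hsep Q (Q.length - d - n) (Q.length - n) (by omega) (by omega) h4 h5
    omega
  · intro u hu
    exact pieces_of_few hn hP hper 1 u (nw_le_one u hu)

/-- the same with `0 < n`, words with at most `r` walls, and all data -/
theorem walls_full [Finite α] (W : ℕ) :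
    ∃ (n c P : ℕ) (S : Set (List α)), 0 < n ∧ 0 < P ∧
      (∀ P Q : List α, n ≤ Q.length → (Wo n S (P ++ Q) ↔ Wo n S Q)) ∧
      (∀ (P : List α) (d : ℕ), Wo n S P → 0 < d → d ≤ W → ¬ Wo n S (P.take (P.length - d))) ∧
      (∀ u : List α, (∀ t < u.length, ¬ Wo n S (u.take t)) → Pieces 5 (2 * c + P) u) ∧
      (∀ (r : ℕ) (u : List α), nw n S u ≤ r → Pieces (3 * r + 2) (2 * c + P) u) ∧
      (∀ (L : Language α), L.IsRegular → ∀ r, HL 1 ({w | w ∈ L ∧ nw n S w ≤ r} : Language α)) := by
  obtain ⟨n, c, P, S, hn, hP, hS, hsep, hper⟩ :=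
    Crest.Agent.R320.Mk263.marker (α := α) (W + 1) (by omega)
  refine ⟨n, c, P, S, hn, hP, fun P Q h => wo_append P Q h, ?_, ?_,
    fun r u h => pieces_of_few hn hP hper r u h,
    fun L hL r => Crest.Agent.R320.FewVal_228.HL_few hn hP hper r hL⟩
  · intro Q d hQ hd hdW hT
    obtain ⟨h1, h2⟩ := hQ
    obtain ⟨h3, h4⟩ := hT
    have hl : (Q.take (Q.length - d)).length = Q.length - d := by rw [List.length_take]; omega
    rw [hl] at h3 h4
    rw [List.drop_take] at h4
    have e2 : Q.length - d - (Q.length - d - n) = n := by omega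
    rw [e2] at h4
    have h5 : (Q.drop (Q.length - n)).take n ∈ S := by
      rw [List.take_of_length_le (by rw [List.length_drop]; omega)]
      exact h2
    have := hsep Q (Q.length - d - n) (Q.length - n) (by omega) (by omega) h4 h5
    omega
  · intro u hu
    exact pieces_of_few hn hP hper 1 u (nw_le_one u hu)

end Crest.Agent.R320.WallU_228
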