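import Crest.Agent.R320.Main_621
import Crest.Agent.R320.WallU_228
import Crest.Agent.R320.RegBd_11
import Crest.Agent.R320.Reg_143
import Crest.Agent.R320.Reg_852

/-!
# Row 320: all-words data of two schemes, part 1 (helper733): walls, first-wall codes, heights
-/

set_option autoImplicit false

namespace Crest.Agent.R320.AW_733

open Crest.Agent.R320.Hk_851 Crest.Agent.R320.CompR_11 Crest.RegLang

universe u

variable {α : Type u}

/-- left-looking walls -/
structure HW (Wo : List α → Prop) (n W R B : ℕ) : Prop where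
  hn : 0 < n
  loc : ∀ P Q : List α, n ≤ Q.length → (Wo (P ++ Q) ↔ Wo Q)
  len : ∀ P : List α, Wo P → n ≤ P.length
  gap : ∀ (P : List α) (d : ℕ), Wo P → 0 < d → d ≤ W → ¬ Wo (P.take (P.length - d))
  pcs : ∀ u : List α, (∀ t < u.length, ¬ Wo (u.take t)) → Pieces R B u

variable {Wo : List α → Prop} {n W R B : ℕ}

/-- words which end in their first wall at a place `≥ z` -/
def FY (Wo : List α → Prop) (z : ℕ) : Language α :=
  {Y | z ≤ Y.length ∧ Wo Y ∧ ∀ t, z ≤ t → t < Y.length → ¬ Wo (Y.take t)}

theorem FY_code {z : ℕ} {Y Y' x x' : List α} (h : Y ∈ FY Wo z) (h' : Y' ∈ FY Wo z)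
    (e : Y ++ x = Y' ++ x') : Y = Y' ∧ x = x' := by
  obtain ⟨h1, h2, h3⟩ := h
  obtain ⟨g1, g2, g3⟩ := h'
  have key : Y.length = Y'.length := by
    rcases Nat.lt_trichotomy Y.length Y'.length with hl | hl | hl
    · exfalso
      apply g3 Y.length h1 hl
      have e1 : Y'.take Y.length = Y := by
        have := congrArg (List.take Y.length) e
        rw [List.take_left, List.take_append_of_le_length hl.le] at this
        exact this.symm
      rw [e1]; exact h2
    · exact hl
    · exfalso
      apply h3 Y'.length g1 hl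
      have e1 : Y.take Y'.length = Y' := by
        have := congrArg (List.take Y'.length) e
        rw [List.take_append_of_le_length hl.le, List.take_left] at this
        exact this
      rw [e1]; exact g2
  exact List.append_inj e key

theorem HL_Wo [Finite α] (H : HW Wo n W R B) {k : ℕ} : HL k ({P | Wo P} : Language α) := by
  have h1 : HL k ({v | v.length = n ∧ Wo v} : Language α) :=
    HL.finite ((List.finite_length_eq α n).subset fun v hv => hv.1)
  refine h1.suffix.congr fun w => ?_
  constructor
  · intro hw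
    have hw : Wo w := hw
    have hl := H.len w hw
    refine ⟨w.drop (w.length - n), ⟨by rw [List.length_drop]; omega, ?_⟩, List.drop_suffix _ _⟩
    have := H.loc (w.take (w.length - n)) (w.drop (w.length - n))
      (by rw [List.length_drop]; omega)
    rw [List.take_append_drop] at this
    exact this.1 hw
  · rintro ⟨v, ⟨hv, hv'⟩, x, rfl⟩
    exact (H.loc x v hv.ge).2 hv'

theorem HL_proper {k : ℕ} {L : Language α} [Finite α] (hL : HL k L) :
    HL k ({w | ∃ t < w.length, w.take t ∈ L} : Language α) := by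
  have h := hL.mul (HL.length_ge (α := α) (k := k) 1)
  refine h.congr fun w => ?_
  constructor
  · rintro ⟨t, ht, hw⟩
    exact Language.mem_mul.2 ⟨w.take t, hw, w.drop t, by
      show 1 ≤ (w.drop t).length
      rw [List.length_drop]; omega, List.take_append_drop t w⟩
  · intro hw
    obtain ⟨a, ha, b, hb, rfl⟩ := Language.mem_mul.1 hw
    have hb : 1 ≤ b.length := hb
    exact ⟨a.length, by rw [List.length_append]; omega, by rw [List.take_left]; exact ha⟩

theorem HL_FY [Finite α] (H : HW Wo n W R B) (z : ℕ) {k : ℕ} : HL k (FY Wo z) := by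
  have h1 : HL k ({w | z ≤ w.length ∧ Wo w} : Language α) :=
    (HL.length_ge (α := α) z).setOf_and (HL_Wo H)
  have h2 := HL.setOf_and h1 (HL_proper h1).setOf_not
  refine h2.congr fun w => ?_
  constructor
  · rintro ⟨g1, g2, g3⟩
    refine ⟨⟨g1, g2⟩, ?_⟩
    rintro ⟨t, ht, h4, h5⟩
    rw [List.length_take] at h4
    exact g3 t (by omega) ht h5
  · rintro ⟨⟨g1, g2⟩, g3⟩
    refine ⟨g1, g2, fun t h4 h5 h6 => g3 ⟨t, h5, ?_, h6⟩⟩
    rw [List.length_take]; omega

theorem Pieces.cons_word {R B C : ℕ} {u x : List α} (h : Pieces R B u) (hx : x.length ≤ C) :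
    Pieces (1 + R) (max B C) (x ++ u) := by
  obtain ⟨l, h1, h2, h3⟩ := h
  refine ⟨(x, [], 0) :: l, ?_, ?_, ?_⟩
  · rw [List.length_cons]; omega
  · intro t ht
    rcases List.mem_cons.1 ht with rfl | ht
    · exact ⟨le_trans hx (le_max_right _ _), by simp⟩
    · exact ⟨(h2 t ht).1.trans (le_max_left _ _), (h2 t ht).2.trans (le_max_left _ _)⟩
  · rw [h3, Crest.Agent.R320.Pump_360.val_cons, Crest.Agent.R320.Pump_360.pw_zero]
    simp

theorem pieces_FY (H : HW Wo n W R B) {z : ℕ} {Y : List α} (h : Y ∈ FY Wo z) :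
    Pieces (1 + R) (max B z) Y := by
  obtain ⟨h1, h2, h3⟩ := h
  have hp : Pieces R B (Y.drop z) := by
    refine H.pcs _ fun t ht hw => ?_
    rw [List.length_drop] at ht
    have hn := H.len _ hw
    refine h3 (z + t) (by omega) (by omega) ?_
    have e : Y.take (z + t) = Y.take z ++ (Y.drop z).take t := by
      rw [List.take_add]
    rw [e]
    exact (H.loc _ _ hn).2 hw
  have := Pieces.cons_word hp (x := Y.take z) (C := z) (by rw [List.length_take]; omega)
  rw [List.take_append_drop] at this
  exact this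

/-- regular subsets of `FY` have height one -/
theorem HL_reg_FY [Finite α] (H : HW Wo n W R B) {z : ℕ} {L : Language α} (hL : L.IsRegular) :
    HL 1 ({Y | Y ∈ FY Wo z ∧ Y ∈ L} : Language α) := by
  have hF : (FY Wo z).IsRegular :=
    Crest.Agent.R320.Reg_852.HL.isRegular (HL_FY H z (k := 0))
  refine Crest.Agent.R320.RegBd_11.reg_pieces (L := {Y | Y ∈ FY Wo z ∧ Y ∈ L}) ?_ (1 + R)
    (max B z) fun w hw => pieces_FY H hw.1
  exact hF.inf hL

end Crest.Agent.R320.AW_733
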