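import Crest.Agent.R320.AW1_733

/-!
# Row 320: all-words data of two schemes, part 2 (helper733): outer scheme
-/

set_option autoImplicit false

namespace Crest.Agent.R320.AW_733

open Crest.Agent.R320.Hk_851 Crest.Agent.R320.CompR_11 Crest.RegLang
  Crest.Agent.R320.Two_621 Crest.Agent.R320.Star_621
open Crest.R320.Reg_143 (lg mem_lg RegP isRegular_mul isRegular_monoid isRegular_length
  isRegular_congr)

universe u

/-- all data of the outer scheme -/
structure DD (α S : Type u) [Monoid S] where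
  Wo : List α → Prop
  n : ℕ
  W : ℕ
  R : ℕ
  B : ℕ
  H : HW Wo n W R B
  f : α → S
  lam : List α → Option (Tok S)
  rho : List α → Option (Tok S)
  nu : List α → Tok S
  N1 : ℕ
  La : ℕ
  Pm : ℕ
  Bad : ℕ → Prop
  zz : ℕ
  p0 : ℕ
  p0pos : 0 < p0
  Pmpos : 0 < Pm
  hlam : ∀ p v, lam p = some v → p.length ≤ N1
  sound : ∀ p q v r, lam p = some v → rho q = some r → La ≤ q.length →
    r = act v ((p ++ q).map f).prod + nu (p ++ q)
  compl : ∀ u, La ≤ u.length → ¬ Bad u.length → ∀ v, ∃ p q, p ++ q = u ∧ lam p = some v ∧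
    (rho q).isSome
  locnu : ∀ q q2, La ≤ q.length → La ≤ q2.length → q.take La = q2.take La →
    q.length % Pm = q2.length % Pm → ((q.drop La).map f).prod = ((q2.drop La).map f).prod →
    nu q = nu q2
  per : ∀ T, Bad (T + Pm) ↔ Bad T
  zzb : N1 + n + La ≤ zz

namespace DD

variable {α S : Type u} [Monoid S] (D : DD α S)

def ph (w : List α) : S := (w.map D.f).prod

theorem ph_append (a b : List α) : D.ph (a ++ b) = D.ph a * D.ph b := by simp [ph]

def E (Y : List α) : Prop :=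
  Y.length < D.zz + D.N1 ∨ (∃ t, D.zz ≤ t + D.N1 ∧ t < D.zz ∧ D.Wo (Y.take t)) ∨ D.Bad Y.length

def F : Language α := FY D.Wo D.zz
def Fb : Language α := {Y | Y ∈ D.F ∧ D.E Y}
def Fg : Language α := {Y | Y ∈ D.F ∧ ¬ D.E Y}
def G : Language α := FY D.Wo 0
def Z : Language α :=
  {z | ∃ X Y Q : List α, X.length = D.p0 ∧ Y ∈ D.F ∧ Q ∈ D.G ∧ X ++ (Y ++ Q) = z}
def Zc : Language α :=
  {z | ∃ X Y Q : List α, X.length = D.p0 ∧ Y ∈ D.Fb ∧ Q ∈ D.G ∧ X ++ (Y ++ Q) = z}
def V1 : Language α :=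
  {z | ∃ X Y Q : List α, X.length = D.p0 ∧ Y ∈ D.Fg ∧ X ++ (Y ++ Q) = z}

variable {D}

theorem uniq {X Y Q X' Y' Q' : List α} (h1 : X.length = D.p0) (h2 : X'.length = D.p0)
    (h3 : Y ∈ D.F) (h4 : Y' ∈ D.F) (e : X ++ (Y ++ Q) = X' ++ (Y' ++ Q')) :
    X = X' ∧ Y = Y' ∧ Q = Q' := by
  obtain ⟨e1, e2⟩ := List.append_inj e (h1.trans h2.symm)
  obtain ⟨e3, e4⟩ := FY_code h3 h4 e2
  exact ⟨e1, e3, e4⟩

theorem Z_code : Code D.Z := by
  constructor
  · rintro ⟨X, Y, Q, h1, -, -, e⟩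
    have := congrArg List.length e
    simp only [List.length_append, List.length_nil] at this
    have := D.p0pos
    omega
  · rintro z z' x x' ⟨X, Y, Q, h1, h2, h3, rfl⟩ ⟨X', Y', Q', g1, g2, g3, rfl⟩ e
    have e' : X ++ (Y ++ (Q ++ x)) = X' ++ (Y' ++ (Q' ++ x')) := by
      simpa [List.append_assoc] using e
    obtain ⟨e1, e2, e3⟩ := uniq h1 g1 h2 g2 e'
    obtain ⟨e4, -⟩ := FY_code h3 g3 e3
    rw [e1, e2, e4]

theorem Zc_sub : ∀ z ∈ D.Zc, z ∈ D.Z := by
  rintro z ⟨X, Y, Q, h1, h2, h3, rfl⟩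
  exact ⟨X, Y, Q, h1, h2.1, h3, rfl⟩

open Classical in
noncomputable def dY (D : DD α S) (w : List α) : Tok S :=
  if h : ∃ Y Q, Y ∈ D.F ∧ w = Y ++ Q then act (D.nu h.choose) (D.ph h.choose_spec.choose) else 0

theorem dY_eq {Y Q : List α} (hY : Y ∈ D.F) : D.dY (Y ++ Q) = act (D.nu Y) (D.ph Q) := by
  have h : ∃ Y' Q', Y' ∈ D.F ∧ Y ++ Q = Y' ++ Q' := ⟨Y, Q, hY, rfl⟩
  unfold dY
  rw [dif_pos h]
  have h1 := h.choose_spec.choose_spec
  obtain ⟨e1, e2⟩ := FY_code hY h1.1 h1.2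
  exact (congrArg₂ act (congrArg D.nu e1) (congrArg D.ph e2)).symm

noncomputable def dA (D : DD α S) (z : List α) : Tok S := D.dY (z.drop D.p0)

noncomputable def psi (D : DD α S) (z : List α) (v : Tok S) : Tok S := aff D.ph D.dA z v

theorem psi_eq {X Y Q : List α} (hX : X.length = D.p0) (hY : Y ∈ D.F) (v : Tok S) :
    D.psi (X ++ (Y ++ Q)) v =
      act (act (act v (D.ph X)) (D.ph Y) + D.nu Y) (D.ph Q) := by
  have e : (X ++ (Y ++ Q)).drop D.p0 = Y ++ Q := by rw [← hX, List.drop_left]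
  unfold psi aff dA
  rw [e, dY_eq hY, D.ph_append, D.ph_append, act_add, act_mul, act_mul]

def LA (D : DD α S) (v : Tok S) : Language α :=
  {P | ∃ X p : List α, X.length = D.p0 ∧ P = X ++ p ∧ D.lam p = some (act v (D.ph X))}

def RA (D : DD α S) (τ : Tok S) : Language α :=
  {Q | ∀ v P, P ∈ D.LA v → P ++ Q ∈ D.Z ∧ τ = D.psi (P ++ Q) v}

theorem LA_fin [Finite α] (v : Tok S) : (D.LA v : Set (List α)).Finite := by
  refine (List.finite_length_le α (D.p0 + D.N1)).subset ?_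
  rintro P ⟨X, p, h1, rfl, h2⟩
  have := D.hlam _ _ h2
  show (X ++ p).length ≤ _
  rw [List.length_append]; omega

theorem soundA : Sound D.Z D.psi D.LA D.RA := by
  constructor
  · rintro v ⟨X, p, h1, h2, -⟩
    have h2 : [] = X ++ p := h2
    have := congrArg List.length h2
    simp only [List.length_append, List.length_nil] at this
    have := D.p0pos
    omega
  · intro v τ P Q z x y hP hQ hz e
    obtain ⟨h1, h2⟩ := hQ v P hP
    have e1 : P ++ Q = z := Z_code.2 _ _ x y h1 hz e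
    rw [← e1]
    exact ⟨rfl, h2⟩

/-! ### heights -/

theorem HL3 {k : ℕ} {A B C : Language α} (hA : HL k A) (hB : HL k B) (hC : HL k C) :
    HL k ({z | ∃ X Y Q : List α, X ∈ A ∧ Y ∈ B ∧ Q ∈ C ∧ X ++ (Y ++ Q) = z} : Language α) := by
  refine (hA.mul (hB.mul hC)).congr fun w => ?_
  constructor
  · rintro ⟨X, Y, Q, h1, h2, h3, rfl⟩
    exact Language.mem_mul.2 ⟨X, h1, Y ++ Q, Language.mem_mul.2 ⟨Y, h2, Q, h3, rfl⟩, rfl⟩
  · intro h
    obtain ⟨X, h1, b, hb, rfl⟩ := Language.mem_mul.1 h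
    obtain ⟨Y, h2, Q, h3, rfl⟩ := Language.mem_mul.1 hb
    exact ⟨X, Y, Q, h1, h2, h3, rfl⟩

theorem HL_Z [Finite α] : HL 1 D.Z :=
  HL3 (HL.length_eq D.p0) (HL_FY D.H D.zz) (HL_FY D.H 0)

theorem reg_iUnion {ι : Type*} [Finite ι] {P : ι → List α → Prop}
    (h : ∀ i, (lg (P i)).IsRegular) : (lg fun w => ∃ i, P i w).IsRegular :=
  (RegP.exists_finite (k := 0) (P := fun i w _ => P i w) fun i => RegP.mem (h i)).close

theorem reg_ph [Finite S] (s : S) : (lg fun w => D.ph w = s).IsRegular :=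
  isRegular_monoid D.f (fun m => m = s)

theorem reg_bad : (lg fun w : List α => D.Bad w.length).IsRegular :=
  isRegular_length D.Bad 0 D.Pm D.Pmpos fun t _ => D.per t

theorem reg_nu [Finite α] [Finite S] (e : Tok S) :
    (lg fun w => D.La ≤ w.length ∧ D.nu w = e).IsRegular := by
  let I := {u : List α // u.length = D.La}
  haveI : Finite I := (List.finite_length_eq α D.La).to_subtype
  let J := {j : I × Fin D.Pm × S // ∃ q : List α, q.length % D.Pm = j.2.1 ∧ D.ph q = j.2.2 ∧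
    D.nu (j.1.1 ++ q) = e}
  have h : ∀ j : J, (lg fun w => ∃ u v : List α, u ++ v = w ∧ u = j.1.1.1 ∧
      (v.length % D.Pm = j.1.2.1 ∧ D.ph v = j.1.2.2)).IsRegular := by
    intro j
    refine Crest.R320.Reg_143.isRegular_cat (P := fun u => u = j.1.1.1)
      (Q := fun v => v.length % D.Pm = j.1.2.1 ∧ D.ph v = j.1.2.2) ?_ ?_
    · exact Crest.Agent.R320.Reg_852.HL.isRegular (HL.word (k := 0) j.1.1.1)
    · exact Language.IsRegular.inf (isRegular_length (fun t => t % D.Pm = j.1.2.1) 0 D.Pm D.Pmpos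
        (fun t _ => by rw [Nat.add_mod_right])) (reg_ph _)
  refine isRegular_congr (reg_iUnion h) fun w => ?_
  rw [mem_lg]
  constructor
  · rintro ⟨⟨⟨⟨u0, hu0⟩, r, s⟩, q, hq1, hq2, hq3⟩, u, v, rfl, hu, hv1, hv2⟩
    have hu : u = u0 := hu
    subst hu
    refine ⟨by rw [List.length_append]; omega, ?_⟩
    rw [← hq3]
    have hv1 : v.length % D.Pm = r := hv1
    have hv2 : D.ph v = s := hv2
    have hq1 : q.length % D.Pm = r := hq1
    have hq2 : D.ph q = s := hq2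
    refine D.locnu _ _ (by rw [List.length_append]; omega) (by
      show D.La ≤ (u ++ q).length
      rw [List.length_append]; omega) ?_ ?_ ?_
    · show (u ++ v).take D.La = (u ++ q).take D.La
      rw [← hu0, List.take_left, List.take_left]
    · show (u ++ v).length % D.Pm = (u ++ q).length % D.Pm
      rw [List.length_append, List.length_append, Nat.add_mod, hv1, Nat.add_mod _ q.length, hq1]
    · show (((u ++ v).drop D.La).map D.f).prod = (((u ++ q).drop D.La).map D.f).prod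
      rw [← hu0, List.drop_left, List.drop_left]
      exact hv2.trans hq2.symm
  · rintro ⟨h1, h2⟩
    refine ⟨⟨⟨⟨w.take D.La, by rw [List.length_take]; omega⟩,
      ⟨(w.drop D.La).length % D.Pm, Nat.mod_lt _ D.Pmpos⟩, D.ph (w.drop D.La)⟩,
      w.drop D.La, rfl, rfl, by rw [List.take_append_drop]; exact h2⟩,
      w.take D.La, w.drop D.La, List.take_append_drop _ _, rfl, rfl, rfl⟩

/-- level sets of the outer zone map -/
theorem HL_LS [Finite α] [Finite S] (v τ : Tok S) :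
    HL 1 ({z | z ∈ D.Z ∧ τ = D.psi z v} : Language α) := by
  let I := {i : S × S × S × Tok S // τ = act (act (act v i.1) i.2.1 + i.2.2.2) i.2.2.1}
  haveI : Finite (Tok S) := inferInstance
  have h : ∀ i : I, HL 1 ({z | ∃ X Y Q : List α, X ∈ ({X | X.length = D.p0 ∧ D.ph X = i.1.1} :
      Language α) ∧ Y ∈ ({Y | Y ∈ FY D.Wo D.zz ∧ Y ∈ (lg fun w => D.ph w = i.1.2.1) ⊓
        (lg fun w => D.La ≤ w.length ∧ D.nu w = i.1.2.2.2)} : Language α) ∧
      Q ∈ ({Q | Q ∈ FY D.Wo 0 ∧ Q ∈ (lg fun w => D.ph w = i.1.2.2.1)} : Language α) ∧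
      X ++ (Y ++ Q) = z} : Language α) := by
    intro i
    refine HL3 (HL.finite ((List.finite_length_eq α D.p0).subset fun v hv => hv.1)) ?_ ?_
    · exact HL_reg_FY D.H (Language.IsRegular.inf (reg_ph _) (reg_nu _))
    · exact HL_reg_FY D.H (reg_ph _)
  refine (HL.iUnion h).congr fun z => ?_
  constructor
  · rintro ⟨⟨X, Y, Q, h1, h2, h3, rfl⟩, h4⟩
    rw [psi_eq h1 h2] at h4
    refine ⟨⟨(D.ph X, D.ph Y, D.ph Q, D.nu Y), h4⟩, X, Y, Q, ⟨h1, rfl⟩, ⟨h2, rfl, ?_, rfl⟩,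
      ⟨h3, rfl⟩, rfl⟩
    have := h2.1
    have := D.zzb
    show D.La ≤ Y.length
    omega
  · rintro ⟨⟨⟨s1, s2, s3, e⟩, hi⟩, X, Y, Q, ⟨h1, h1'⟩, ⟨h2, h2', h2a, h2b⟩, ⟨h3, h3'⟩, rfl⟩
    refine ⟨⟨X, Y, Q, h1, h2, h3, rfl⟩, ?_⟩
    have h1' : D.ph X = s1 := h1'
    have h2' : D.ph Y = s2 := h2'
    have h2b : D.nu Y = e := h2b
    have h3' : D.ph Q = s3 := h3'
    rw [psi_eq h1 h2, h1', h2', h2b, h3']
    exact hi

theorem HL_LA [Finite α] (v : Tok S) {k : ℕ} : HL k (D.LA v) := HL.finite (LA_fin v)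

theorem HL_RA [Finite α] [Finite S] (τ : Tok S) : HL 1 (D.RA τ) := by
  have h : ∀ v : Tok S, HL 1 ({Q | ∀ P ∈ (D.LA v : Set (List α)),
      Q ∈ ({Q | P ++ Q ∈ ({z | z ∈ D.Z ∧ τ = D.psi z v} : Language α)} : Language α)} :
      Language α) := fun v =>
    HL.biInter (LA_fin v) fun P _ => HL.lquot P (HL_LS v τ)
  refine (HL.iInter h).congr fun w => ?_
  constructor
  · intro hw v P hP; exact hw v P hP
  · intro hw v P hP; exact hw v P hP

theorem HL_Fsub [Finite α] {L : Language α} (hL : L.IsRegular) :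
    HL 1 ({Y | Y ∈ D.F ∧ Y ∈ L} : Language α) := HL_reg_FY D.H hL

theorem reg_E [Finite α] : (lg fun Y => D.E Y).IsRegular := by
  have h1 : (lg fun Y : List α => Y.length < D.zz + D.N1).IsRegular :=
    Crest.Agent.R320.Reg_852.HL.isRegular (HL.length_lt (k := 0) (D.zz + D.N1))
  have h2 : (lg fun Y : List α => ∃ t : Fin D.zz, D.zz ≤ t.1 + D.N1 ∧
      D.Wo (Y.take t.1)).IsRegular := by
    refine reg_iUnion fun t => ?_
    by_cases ht : D.zz ≤ t.1 + D.N1
    · refine isRegular_congr (Crest.R320.Reg_143.isRegular_take t.1 (fun w => D.Wo w))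
        fun w => ?_
      rw [mem_lg]
      exact ⟨fun h => ⟨ht, h⟩, fun h => h.2⟩
    · refine isRegular_congr (Crest.Agent.R320.Reg_852.isRegular_zero (α := α)) fun w => ?_
      exact ⟨fun h => (Language.notMem_zero w h).elim, fun h => (ht h.1).elim⟩
  refine isRegular_congr (Language.IsRegular.add h1 (Language.IsRegular.add h2 (reg_bad (D := D))))
    fun w => ?_
  rw [Language.mem_add, Language.mem_add, mem_lg, mem_lg, mem_lg]
  unfold E
  constructor
  · rintro (h | ⟨t, h1, h2⟩ | h)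
    · exact Or.inl h
    · exact Or.inr (Or.inl ⟨t.1, h1, t.2, h2⟩)
    · exact Or.inr (Or.inr h)
  · rintro (h | ⟨t, h1, h3, h2⟩ | h)
    · exact Or.inl h
    · exact Or.inr (Or.inl ⟨⟨t, h3⟩, h1, h2⟩)
    · exact Or.inr (Or.inr h)

theorem HL_Fb [Finite α] : HL 1 D.Fb := HL_Fsub reg_E

theorem HL_Fg [Finite α] : HL 1 D.Fg := HL_Fsub (L := (lg fun Y => D.E Y)ᶜ) reg_E.compl

theorem HL_Zc [Finite α] : HL 1 D.Zc :=
  HL3 (HL.length_eq D.p0) HL_Fb (HL_FY D.H 0)

theorem HL_V1 [Finite α] : HL 1 D.V1 :=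
  (HL3 (HL.length_eq D.p0) HL_Fg HL.top).congr fun w => by
    constructor
    · rintro ⟨X, Y, Q, h1, h2, rfl⟩
      exact ⟨X, Y, Q, h1, h2, trivial, rfl⟩
    · rintro ⟨X, Y, Q, h1, h2, -, rfl⟩
      exact ⟨X, Y, Q, h1, h2, rfl⟩

/-! ### completeness off `Zc` -/

theorem move {Y p q p' : List α} (hY : Y ∈ D.F) (hE : ¬ D.E Y) (e : p ++ q = Y)
    (hp : p.length ≤ D.N1) (hp' : p'.length ≤ D.N1) : p' ++ q ∈ D.F := by
  obtain ⟨h1, h2, h3⟩ := hY
  have g1 : ¬ Y.length < D.zz + D.N1 := fun h => hE (Or.inl h)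
  have g2 : ∀ t, D.zz ≤ t + D.N1 → t < D.zz → ¬ D.Wo (Y.take t) := fun t a b c =>
    hE (Or.inr (Or.inl ⟨t, a, b, c⟩))
  have hb := D.zzb
  have hl : p.length + q.length = Y.length := by rw [← e, List.length_append]
  refine ⟨by rw [List.length_append]; omega, ?_, ?_⟩
  · rw [D.H.loc p' q (by omega)]
    rw [← e, D.H.loc p q (by omega)] at h2
    exact h2
  · intro t ht1 ht2 ht3
    rw [List.length_append] at ht2
    rw [List.take_append, List.take_of_length_le (by omega : p'.length ≤ t)] at ht3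
    have hlq : (q.take (t - p'.length)).length = t - p'.length := by
      rw [List.length_take]; omega
    rw [D.H.loc _ _ (by rw [hlq]; omega)] at ht3
    have key : D.Wo (Y.take (p.length + (t - p'.length))) := by
      rw [← e, List.take_append, List.take_of_length_le (by omega : p.length ≤ _)]
      have e3 : p.length + (t - p'.length) - p.length = t - p'.length := by omega
      rw [e3, D.H.loc _ _ (by rw [hlq]; omega)]
      exact ht3
    rcases Nat.lt_or_ge (p.length + (t - p'.length)) D.zz with h | h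
    · exact g2 _ (by omega) h key
    · exact h3 _ h (by omega) key

theorem complA : ∀ z ∈ D.Z, z ∉ D.Zc → ∀ v, Cut D.LA D.RA v z := by
  rintro z ⟨X, Y, Q, h1, h2, h3, rfl⟩ hz v
  have hE : ¬ D.E Y := fun h => hz ⟨X, Y, Q, h1, ⟨h2, h⟩, h3, rfl⟩
  have g1 : ¬ Y.length < D.zz + D.N1 := fun h => hE (Or.inl h)
  have g3 : ¬ D.Bad Y.length := fun h => hE (Or.inr (Or.inr h))
  have hb := D.zzb
  obtain ⟨p, q, e, hp, hq⟩ := D.compl Y (by omega) g3 (act v (D.ph X))
  obtain ⟨r, hr⟩ := Option.isSome_iff_exists.1 hq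
  have hpl := D.hlam _ _ hp
  have hl : p.length + q.length = Y.length := by rw [← e, List.length_append]
  refine ⟨X ++ p, q ++ Q, D.psi (X ++ (Y ++ Q)) v, ?_, ⟨X, p, h1, rfl, hp⟩, ?_⟩
  · rw [← e]; simp [List.append_assoc]
  · rintro v' P' ⟨X', p', h1', rfl, hp'⟩
    have hpl' := D.hlam _ _ hp'
    have hm := move h2 hE e hpl hpl'
    have e1 : X' ++ p' ++ (q ++ Q) = X' ++ ((p' ++ q) ++ Q) := by simp [List.append_assoc]
    rw [e1]
    refine ⟨⟨X', p' ++ q, Q, h1', hm, h3, rfl⟩, ?_⟩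
    rw [psi_eq h1 h2, psi_eq h1' hm]
    have s1 := D.sound p q _ r hp hr (by omega)
    have s2 := D.sound p' q _ r hp' hr (by omega)
    rw [e] at s1
    have s1' : r = act (act v (D.ph X)) (D.ph Y) + D.nu Y := s1
    have s2' : r = act (act v' (D.ph X')) (D.ph (p' ++ q)) + D.nu (p' ++ q) := s2
    rw [← s1', ← s2']

end DD

end Crest.Agent.R320.AW_733
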