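import Mathlib

/-!
Row 320, finite union bound ("random noise") lemma, used by the exact gadget (237 #12538),
by 811 #12631 / 755 #12640 and by 823 #12619.
-/

set_option autoImplicit false

namespace Crest.Agent.R320.GoodF_137

open Finset

section
variable {X V E : Type*} [Fintype X] [DecidableEq X] [Fintype V] [DecidableEq V]

/-- overwrite `F` on `P` by `g` -/
def ow (P : Finset X) (F g : X → V) : X → V := fun x => if x ∈ P then g x else F x

/-- success of a demand -/
def Suc (x0 : X) (P : Finset X) (dem : V → X → V) (F : X → V) : Prop :=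
  ∀ x ∈ P, F x = dem (F x0) x

instance (x0 : X) (P : Finset X) (dem : V → X → V) : DecidablePred (Suc x0 P dem) := by
  intro F; unfold Suc; infer_instance

theorem step (x0 : X) (P : Finset X) (hx0 : x0 ∉ P) (dem : V → X → V)
    (B : Finset (X → V)) (hB : ∀ F ∈ B, ow P F (dem (F x0)) ∈ B) :
    B.card ≤ (Fintype.card V) ^ P.card * (B.filter (Suc x0 P dem)).card := by
  classical
  set T := B.filter (Suc x0 P dem) with hT
  have hmap : ∀ F ∈ B, ow P F (dem (F x0)) ∈ T := by
    intro F hF
    rw [hT, mem_filter]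
    refine ⟨hB F hF, ?_⟩
    intro x hx
    simp [ow, hx, hx0]
  have key : B.card ≤ (T ×ˢ (univ : Finset (P → V))).card := by
    refine Finset.card_le_card_of_injOn
      (fun F => (ow P F (dem (F x0)), fun x : P => F x.1)) ?_ ?_
    · intro F hF
      have := hmap F hF
      exact Finset.mem_coe.2 (Finset.mem_product.2 ⟨this, mem_univ _⟩)
    · intro F _ F' _ h
      simp only [Prod.mk.injEq] at h
      obtain ⟨h1, h2⟩ := h
      funext x
      by_cases hx : x ∈ P
      · exact congrFun h2 ⟨x, hx⟩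
      · have := congrFun h1 x
        simpa [ow, hx] using this
  refine key.trans (le_of_eq ?_)
  rw [Finset.card_product, Finset.card_univ, Fintype.card_fun,
    Fintype.card_coe, mul_comm]

/-- the functions which fail for every phase `i < m`. -/
def fail (x0 : X) (P : ℕ → Finset X) (dem : ℕ → V → X → V) (m : ℕ) : Finset (X → V) :=
  univ.filter (fun F => ∀ i < m, ¬ Suc x0 (P i) (dem i) F)

theorem fail_card [Nonempty V] (x0 : X) (C : ℕ) (P : ℕ → Finset X) (dem : ℕ → V → X → V) (m : ℕ)
    (hx0 : ∀ i < m, x0 ∉ P i) (hC : ∀ i < m, (P i).card ≤ C)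
    (hd : ∀ i < m, ∀ j < m, i ≠ j → Disjoint (P i) (P j)) :
    (fail x0 P dem m).card * ((Fintype.card V) ^ C) ^ m
      ≤ (Fintype.card (X → V)) * ((Fintype.card V) ^ C - 1) ^ m := by
  classical
  induction m with
  | zero =>
    simp only [pow_zero, mul_one]
    exact Finset.card_le_univ (fail x0 P dem 0)
  | succ m ih =>
    have ih' := ih (fun i hi => hx0 i (by omega)) (fun i hi => hC i (by omega))
      (fun i hi j hj => hd i (by omega) j (by omega))
    set q := (Fintype.card V) ^ C with hq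
    set B := fail x0 P dem m with hBdef
    have hV : 0 < Fintype.card V := Fintype.card_pos
    have hq1 : 1 ≤ q := Nat.one_le_pow _ _ hV
    have hstep : B.card ≤ (Fintype.card V) ^ (P m).card * (B.filter (Suc x0 (P m) (dem m))).card := by
      refine step x0 (P m) (hx0 m (by omega)) (dem m) B ?_
      intro F hF
      rw [hBdef, fail, mem_filter] at hF ⊢
      refine ⟨mem_univ _, ?_⟩
      intro i hi hs
      refine hF.2 i hi ?_
      intro x hx
      have h0 : x0 ∉ P m := hx0 m (by omega)
      have hxm : x ∉ P m := by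
        have := hd i (by omega) m (by omega) (by omega)
        exact Finset.disjoint_left.1 this hx
      have := hs x hx
      simpa [ow, h0, hxm] using this
    have hle : (Fintype.card V) ^ (P m).card ≤ q := Nat.pow_le_pow_right hV (hC m (by omega))
    have h1 : B.card ≤ q * (B.filter (Suc x0 (P m) (dem m))).card :=
      hstep.trans (Nat.mul_le_mul_right _ hle)
    have hsplit : (B.filter (Suc x0 (P m) (dem m))).card
        + (B.filter (fun F => ¬ Suc x0 (P m) (dem m) F)).card = B.card :=
      Finset.card_filter_add_card_filter_not _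
    have hnew : fail x0 P dem (m + 1) = B.filter (fun F => ¬ Suc x0 (P m) (dem m) F) := by
      ext F
      simp only [fail, hBdef, mem_filter, mem_univ, true_and]
      constructor
      · intro h
        exact ⟨fun i hi => h i (by omega), h m (by omega)⟩
      · rintro ⟨h, h'⟩ i hi
        rcases Nat.lt_succ_iff_lt_or_eq.1 hi with h2 | h2
        · exact h i h2
        · subst h2; exact h'
    rw [hnew]
    set a := (B.filter (Suc x0 (P m) (dem m))).card
    set b := (B.filter (fun F => ¬ Suc x0 (P m) (dem m) F)).card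
    have hb : b * q ≤ B.card * (q - 1) := by
      obtain ⟨r, hr⟩ : ∃ r, q = r + 1 := ⟨q - 1, by omega⟩
      rw [hr] at h1 ⊢
      simp only [Nat.add_sub_cancel]
      nlinarith [hsplit, h1]
    calc b * q ^ (m + 1) = (b * q) * q ^ m := by ring
      _ ≤ (B.card * (q - 1)) * q ^ m := Nat.mul_le_mul_right _ hb
      _ = (B.card * q ^ m) * (q - 1) := by ring
      _ ≤ (Fintype.card (X → V) * (q - 1) ^ m) * (q - 1) := Nat.mul_le_mul_right _ ih'
      _ = Fintype.card (X → V) * (q - 1) ^ (m + 1) := by ring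

/-- **Union bound.**  Index set `E`; for each `e` a base point `x0 e` and `m` phases with pairwise
disjoint point sets `P e i` (of size `≤ C`, not containing the base point) and demanded values
`dem e i (F (x0 e)) x`.  If `|E| (|V|^C - 1)^m < (|V|^C)^m` some `F` satisfies for every `e` all
demands of some phase. -/
theorem exists_good [Nonempty V] [Fintype E] (x0 : E → X) (C m : ℕ) (P : E → ℕ → Finset X)
    (dem : E → ℕ → V → X → V)
    (hx0 : ∀ e, ∀ i < m, x0 e ∉ P e i) (hC : ∀ e, ∀ i < m, (P e i).card ≤ C)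
    (hd : ∀ e, ∀ i < m, ∀ j < m, i ≠ j → Disjoint (P e i) (P e j))
    (hm : Fintype.card E * ((Fintype.card V) ^ C - 1) ^ m < ((Fintype.card V) ^ C) ^ m) :
    ∃ F : X → V, ∀ e, ∃ i < m, ∀ x ∈ P e i, F x = dem e i (F (x0 e)) x := by
  classical
  by_contra hcon
  push Not at hcon
  have hcov : (univ : Finset (X → V)) ⊆ (univ : Finset E).biUnion
      (fun e => fail (x0 e) (P e) (dem e) m) := by
    intro F _
    obtain ⟨e, he⟩ := hcon F
    rw [mem_biUnion]
    refine ⟨e, mem_univ _, ?_⟩
    rw [fail, mem_filter]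
    refine ⟨mem_univ _, ?_⟩
    intro i hi hs
    obtain ⟨x, hx, hne⟩ := he i hi
    exact hne (hs x hx)
  have h1 : Fintype.card (X → V) ≤ ∑ e : E, (fail (x0 e) (P e) (dem e) m).card := by
    rw [← Finset.card_univ]
    exact (Finset.card_le_card hcov).trans Finset.card_biUnion_le
  set q := (Fintype.card V) ^ C with hq
  have h2 : Fintype.card (X → V) * q ^ m ≤ Fintype.card E * (Fintype.card (X → V) * (q - 1) ^ m) := by
    calc Fintype.card (X → V) * q ^ m ≤ (∑ e : E, (fail (x0 e) (P e) (dem e) m).card) * q ^ m :=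
          Nat.mul_le_mul_right _ h1
      _ = ∑ e : E, (fail (x0 e) (P e) (dem e) m).card * q ^ m := by rw [Finset.sum_mul]
      _ ≤ ∑ _e : E, Fintype.card (X → V) * (q - 1) ^ m := by
          refine Finset.sum_le_sum (fun e _ => ?_)
          exact fail_card (x0 e) C (P e) (dem e) m (hx0 e) (hC e) (hd e)
      _ = Fintype.card E * (Fintype.card (X → V) * (q - 1) ^ m) := by
          rw [Finset.sum_const, Finset.card_univ, smul_eq_mul]
  have hpos : 0 < Fintype.card (X → V) := by
    rw [Fintype.card_fun]; exact pow_pos Fintype.card_pos _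
  have h3 : Fintype.card (X → V) * q ^ m ≤ Fintype.card (X → V) * (Fintype.card E * (q - 1) ^ m) := by
    calc _ ≤ _ := h2
      _ = _ := by ring
  have h4 := Nat.le_of_mul_le_mul_left h3 hpos
  omega

/-- enough phases: for every polynomial bound on `|E|` some `m` works (here: `|E| ≤ A (m+1)^k`). -/
theorem exists_m (q : ℕ) (hq : 1 ≤ q) (A k : ℕ) :
    ∃ m0 : ℕ, ∀ m ≥ m0, A * (m + 1) ^ k * (q - 1) ^ m < q ^ m := by
  rcases Nat.eq_or_lt_of_le hq with h | h
  · subst h
    refine ⟨1, fun m hm => ?_⟩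
    have : (1 - 1 : ℕ) ^ m = 0 := by
      simp only [Nat.sub_self]; exact zero_pow (by omega)
    rw [this]; simp
  · -- ratio r = (q-1)/q < 1
    have hq0 : (0:ℝ) < q := by exact_mod_cast (by omega : 0 < q)
    set r : ℝ := ((q:ℝ) - 1) / q with hr
    have hr0 : 0 ≤ r := by
      apply div_nonneg _ hq0.le
      have : (1:ℝ) ≤ q := by exact_mod_cast hq
      linarith
    have hr1 : r < 1 := by
      rw [hr, div_lt_one hq0]; linarith
    have hlim : Filter.Tendsto (fun n : ℕ => (n:ℝ) ^ k * r ^ n) Filter.atTop (nhds 0) := by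
      exact tendsto_pow_const_mul_const_pow_of_abs_lt_one k (by rw [abs_of_nonneg hr0]; exact hr1)
    have hlim2 : Filter.Tendsto (fun n : ℕ => ((n + 1 : ℕ):ℝ) ^ k * r ^ (n + 1)) Filter.atTop (nhds 0) :=
      hlim.comp (Filter.tendsto_add_atTop_nat 1)
    have hlt : ∀ᶠ n : ℕ in Filter.atTop, ((n + 1 : ℕ):ℝ) ^ k * r ^ (n + 1) < r / (A + 1) := by
      have hpos : 0 < r / ((A:ℝ) + 1) := by
        apply div_pos _ (by positivity)
        rw [hr]; apply div_pos _ hq0
        have : (1:ℝ) < q := by exact_mod_cast h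
        linarith
      exact hlim2.eventually_lt_const hpos
    obtain ⟨m0, hm0⟩ := Filter.eventually_atTop.1 hlt
    refine ⟨m0, fun m hm => ?_⟩
    have h1 := hm0 m hm
    have hrpos : 0 < r := by
      rw [hr]; apply div_pos _ hq0
      have : (1:ℝ) < q := by exact_mod_cast h
      linarith
    have h2 : (A:ℝ) * ((m + 1 : ℕ):ℝ) ^ k * r ^ m < 1 := by
      have hA : (0:ℝ) < (A:ℝ) + 1 := by positivity
      rw [lt_div_iff₀ hA] at h1
      have h3 : ((m + 1 : ℕ):ℝ) ^ k * r ^ m * (A + 1) < 1 := by
        have : ((m + 1 : ℕ):ℝ) ^ k * r ^ (m + 1) * (A + 1) = (((m + 1 : ℕ):ℝ) ^ k * r ^ m * (A + 1)) * r := by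
          ring
        rw [this] at h1
        nlinarith [mul_pos hrpos hrpos]
      have h4 : 0 ≤ ((m + 1 : ℕ):ℝ) ^ k * r ^ m := by positivity
      nlinarith
    have h5 : (A:ℝ) * ((m + 1 : ℕ):ℝ) ^ k * ((q:ℝ) - 1) ^ m < (q:ℝ) ^ m := by
      have hqm : (0:ℝ) < (q:ℝ) ^ m := by positivity
      have : r ^ m = ((q:ℝ) - 1) ^ m / (q:ℝ) ^ m := by rw [hr, div_pow]
      rw [this] at h2
      have h6 : (A:ℝ) * ((m + 1 : ℕ):ℝ) ^ k * (((q:ℝ) - 1) ^ m / (q:ℝ) ^ m)
          = ((A:ℝ) * ((m + 1 : ℕ):ℝ) ^ k * ((q:ℝ) - 1) ^ m) / (q:ℝ) ^ m := by ring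
      rw [h6, div_lt_one hqm] at h2
      exact h2
    have h7 : ((A * (m + 1) ^ k * (q - 1) ^ m : ℕ) : ℝ) < ((q ^ m : ℕ) : ℝ) := by
      push_cast [Nat.cast_sub hq]
      push_cast at h5
      exact h5
    exact_mod_cast h7

end

end Crest.Agent.R320.GoodF_137
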