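import Mathlib
import Crest.Agent.R320.GoodF_137

/-!
Row 320, item (6) in the form needed by 132 #12664 (5) / 811 #12631 (3):
the exact gadget (237 #12538) with arbitrary increasing places, redundancy `R` and a tail letter.
-/

set_option autoImplicit false

namespace Crest.Agent.R320.ExactR_237

open Finset

/-! ### weights -/

/-- the weight of content `z` in hole `i` -/
def ew {S : Type} (N : ℕ) (nuS : S → ZMod N) (i : ℕ) (z : S) : ZMod N × ZMod N :=
  (nuS z, (i : ZMod N) * nuS z)

/-- core: random noise with a super-good direction for every point and token. -/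
theorem core (S V : Type) [Fintype S] [DecidableEq S] [Nonempty S] [Fintype V] [DecidableEq V]
    [AddCommGroup V] (act : V → S → V) :
    ∃ (m N : ℕ) (nuS : S → ZMod N) (F : S × (ZMod N × ZMod N) → V),
      0 < m ∧ N ≠ 0 ∧
      ∀ (s : S) (w : ZMod N × ZMod N) (v : V), ∃ i < m,
        ∀ (s' : S) (x z : S), (z = x → s' = s) →
          F (s', w - ew N nuS i x + ew N nuS i z) + act v s' = F (s, w) + act v s := by
  classical
  -- parameters
  set c0 : ℕ := Fintype.card S with hc0
  set q : ℕ := (Fintype.card V) ^ (c0 * (c0 * c0)) with hq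
  have hV : 0 < Fintype.card V := Fintype.card_pos
  have hq1 : 1 ≤ q := Nat.one_le_iff_ne_zero.2 (pow_ne_zero _ hV.ne')
  obtain ⟨m0, hm0⟩ := GoodF_137.exists_m q hq1
    (c0 * ((2 * (c0 + 1)) * (2 * (c0 + 1))) * Fintype.card V) 2
  set m : ℕ := max m0 1 with hm
  have hmpos : 0 < m := lt_of_lt_of_le one_pos (le_max_right _ _)
  -- prime N
  obtain ⟨N, hNp, hN1, hN2⟩ := Nat.exists_prime_lt_and_le_two_mul (max m c0)
    (by have := le_max_left m c0; omega)
  haveI : Fact N.Prime := ⟨hNp⟩
  haveI : NeZero N := ⟨hNp.ne_zero⟩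
  have hmN : m < N := lt_of_le_of_lt (le_max_left _ _) hN1
  have hcN : c0 < N := lt_of_le_of_lt (le_max_right _ _) hN1
  -- injection
  let eqv : S ≃ Fin c0 := Fintype.equivFin S
  let nuS : S → ZMod N := fun s => ((eqv s : ℕ) : ZMod N)
  have hinj : ∀ x z : S, nuS x = nuS z → x = z := by
    intro x z h
    have h1 : ((eqv x : ℕ) : ZMod N) = ((eqv z : ℕ) : ZMod N) := h
    rw [ZMod.natCast_eq_natCast_iff'] at h1
    have hx : (eqv x : ℕ) < N := lt_trans (eqv x).2 hcN
    have hz : (eqv z : ℕ) < N := lt_trans (eqv z).2 hcN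
    rw [Nat.mod_eq_of_lt hx, Nat.mod_eq_of_lt hz] at h1
    exact eqv.injective (Fin.ext h1)
  -- demand sets
  let P : (S × (ZMod N × ZMod N)) × V → ℕ → Finset (S × (ZMod N × ZMod N)) := fun e i =>
    (univ : Finset (S × (S × S))).image
      (fun t => (t.1, e.1.2 - ew N nuS i t.2.1 + ew N nuS i t.2.2)) \
      (univ : Finset S).image (fun s' => (s', e.1.2))
  let dem : (S × (ZMod N × ZMod N)) × V → ℕ → V → S × (ZMod N × ZMod N) → V := fun e _ b p =>
    b + act e.2 e.1.1 - act e.2 p.1
  have key := GoodF_137.exists_good (X := S × (ZMod N × ZMod N)) (V := V)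
    (E := (S × (ZMod N × ZMod N)) × V) (fun e => e.1) (c0 * (c0 * c0)) m P dem ?_ ?_ ?_ ?_
  · obtain ⟨F, hF⟩ := key
    refine ⟨m, N, nuS, F, hmpos, hNp.ne_zero, ?_⟩
    intro s w v
    obtain ⟨i, him, hi⟩ := hF ((s, w), v)
    refine ⟨i, him, ?_⟩
    intro s' x z hxz
    by_cases hzx : z = x
    · have hs := hxz hzx
      subst hzx
      subst hs
      simp
    · have hmem : ((s', w - ew N nuS i x + ew N nuS i z) : S × (ZMod N × ZMod N)) ∈
          P ((s, w), v) i := by
        simp only [P, mem_sdiff, mem_image, mem_univ, true_and]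
        refine ⟨⟨(s', (x, z)), rfl⟩, ?_⟩
        rintro ⟨s'', h⟩
        have h2 := (Prod.mk.inj h).2
        have h3 := congrArg Prod.fst h2
        simp only [ew, Prod.fst_add, Prod.fst_sub] at h3
        apply hzx
        apply hinj
        have h4 : nuS z - nuS x = 0 := by
          have h5 : w.1 = w.1 - nuS x + nuS z := h3
          have h6 : w.1 - nuS x + nuS z - w.1 = 0 := by rw [← h5]; ring
          rw [← h6]; ring
        exact sub_eq_zero.1 h4
      have := hi _ hmem
      rw [this]
      simp only [dem]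
      abel
  · intro e i _ h
    simp only [P, mem_sdiff, mem_image, mem_univ, true_and] at h
    exact h.2 ⟨e.1.1, rfl⟩
  · intro e i _
    refine (card_le_card sdiff_subset).trans ?_
    refine card_image_le.trans ?_
    simp [hc0]
  · intro e i hi j hj hij
    rw [Finset.disjoint_left]
    intro p hp hp'
    simp only [P, mem_sdiff, mem_image, mem_univ, true_and] at hp hp'
    obtain ⟨⟨⟨s1, x1, z1⟩, h1⟩, hn⟩ := hp
    obtain ⟨⟨⟨s2, x2, z2⟩, h2⟩, _⟩ := hp'
    apply hn
    have hw1 : e.1.2 - ew N nuS i x1 + ew N nuS i z1 = p.2 := by rw [← h1]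
    have hw2 : e.1.2 - ew N nuS j x2 + ew N nuS j z2 = p.2 := by rw [← h2]
    have ha1 := congrArg Prod.fst hw1
    have ha2 := congrArg Prod.fst hw2
    have hb1 := congrArg Prod.snd hw1
    have hb2 := congrArg Prod.snd hw2
    simp only [ew, Prod.fst_add, Prod.fst_sub, Prod.snd_add, Prod.snd_sub] at ha1 ha2 hb1 hb2
    have hd : nuS z1 - nuS x1 = nuS z2 - nuS x2 := by
      have : e.1.2.1 - nuS x1 + nuS z1 = e.1.2.1 - nuS x2 + nuS z2 := by rw [ha1, ha2]
      linear_combination this
    have hd2 : ((i : ZMod N) - (j : ZMod N)) * (nuS z1 - nuS x1) = 0 := by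
      have h3 : e.1.2.2 - (i : ZMod N) * nuS x1 + (i : ZMod N) * nuS z1
          = e.1.2.2 - (j : ZMod N) * nuS x2 + (j : ZMod N) * nuS z2 := by rw [hb1, hb2]
      have h4 : (i : ZMod N) * (nuS z1 - nuS x1) = (j : ZMod N) * (nuS z2 - nuS x2) := by
        linear_combination h3
      rw [← hd] at h4
      linear_combination h4
    have hij' : ((i : ZMod N) - (j : ZMod N)) ≠ 0 := by
      intro h
      have h5 : (i : ZMod N) = (j : ZMod N) := sub_eq_zero.1 h
      rw [ZMod.natCast_eq_natCast_iff', Nat.mod_eq_of_lt (hi.trans hmN),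
        Nat.mod_eq_of_lt (hj.trans hmN)] at h5
      exact hij h5
    have hz : nuS z1 - nuS x1 = 0 := (mul_eq_zero.1 hd2).resolve_left hij'
    have hzz : nuS z1 = nuS x1 := sub_eq_zero.1 hz
    refine ⟨p.1, ?_⟩
    have hp2 : p.2 = e.1.2 := by
      rw [← hw1]
      simp only [ew, hzz]
      abel
    rw [← hp2]
  · have hcard : Fintype.card ((S × (ZMod N × ZMod N)) × V) = c0 * (N * N) * Fintype.card V := by
      simp [Fintype.card_prod, ZMod.card, hc0]
    rw [hcard]
    have hNle : N ≤ (2 * (c0 + 1)) * (m + 1) := by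
      have : max m c0 ≤ (c0 + 1) * (m + 1) := by
        apply max_le
        · nlinarith
        · nlinarith
      calc N ≤ 2 * max m c0 := hN2
        _ ≤ 2 * ((c0 + 1) * (m + 1)) := Nat.mul_le_mul_left _ this
        _ = _ := by ring
    refine lt_of_le_of_lt ?_ (hm0 m (le_max_left _ _))
    refine Nat.mul_le_mul_right _ ?_
    calc c0 * (N * N) * Fintype.card V
        ≤ c0 * (((2 * (c0 + 1)) * (m + 1)) * ((2 * (c0 + 1)) * (m + 1))) * Fintype.card V := by
          gcongr
      _ = _ := by ring


/-! ### words -/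

/-- product of a word -/
def pr {A S : Type} [Monoid S] (f : A → S) (u : List A) : S := (u.map f).prod

/-- the factor `[a, b)` of a word -/
def seg {A : Type} (u : List A) (a b : ℕ) : List A := (u.drop a).take (b - a)

theorem pr_append {A S : Type} [Monoid S] (f : A → S) (u v : List A) :
    pr f (u ++ v) = pr f u * pr f v := by
  simp [pr]

theorem cut3 {A : Type} (u : List A) (a b : ℕ) (h : a ≤ b) :
    u.take a ++ (seg u a b ++ u.drop b) = u := by
  have h1 : (u.drop a).drop (b - a) = u.drop b := by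
    rw [List.drop_drop]; congr 1; omega
  unfold seg
  rw [← h1, List.take_append_drop, List.take_append_drop]

theorem seg_left {A : Type} (P Q : List A) (a b : ℕ) (hab : a ≤ b) (hb : b ≤ P.length) :
    seg (P ++ Q) a b = seg P a b := by
  unfold seg
  rw [List.drop_append_of_le_length (by omega)]
  rw [List.take_append_of_le_length (by rw [List.length_drop]; omega)]

theorem drop_right {A : Type} (P Q : List A) (a : ℕ) (ha : P.length ≤ a) :
    (P ++ Q).drop a = Q.drop (a - P.length) := by
  rw [List.drop_append, List.drop_of_length_le ha, List.nil_append]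

theorem seg_right {A : Type} (P Q : List A) (a b : ℕ) (hab : a ≤ b) (ha : P.length ≤ a) :
    seg (P ++ Q) a b = seg Q (a - P.length) (b - P.length) := by
  unfold seg
  rw [drop_right P Q a ha]
  congr 1
  omega

section gadget
variable {A S V : Type} [Monoid S] [AddCommGroup V] (f : A → S) (act : V → S → V)
  (m N : ℕ) (nuS : S → ZMod N) (F : S × (ZMod N × ZMod N) → V) (q : ℕ) (c : ℕ → ℕ)

/-- names: (g, wl, v, h, wr) -/
abbrev Nm (S V : Type) (N : ℕ) : Type := S × (ZMod N × ZMod N) × V × S × (ZMod N × ZMod N)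

/-- start of hole `i` -/
def st (i : ℕ) : ℕ := c (i * q)
/-- end of hole `i` -/
def en (i : ℕ) : ℕ := c (i * q + (q - 1))

def WL (i : ℕ) (u : List A) : ZMod N × ZMod N :=
  ∑ j ∈ range i, ew N nuS j (pr f (seg u (st q c j) (en q c j)))

def WR (i d : ℕ) (u : List A) : ZMod N × ZMod N :=
  ∑ j ∈ Ico (i + 1) m, ew N nuS j (pr f (seg u (st q c j - d) (en q c j - d)))

def bval (i : ℕ) (a : Nm S V N) : V :=
  act a.2.2.1 (a.1 * 1 * a.2.2.2.1) +
    F (a.1 * 1 * a.2.2.2.1, a.2.1 + ew N nuS i 1 + a.2.2.2.2)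

def Exact (i : ℕ) (a : Nm S V N) : Prop := ∀ z : S,
  act a.2.2.1 (a.1 * z * a.2.2.2.1) +
    F (a.1 * z * a.2.2.2.1, a.2.1 + ew N nuS i z + a.2.2.2.2) = bval act N nuS F i a

open Classical in
/-- left label at place number `k` with name `a` -/
noncomputable def lam (a : Nm S V N) (k : ℕ) (P : List A) : Option V :=
  if pr f (P.take (st q c (k / q))) = a.1 ∧ WL f N nuS q c (k / q) P = a.2.1 ∧
      Exact act N nuS F (k / q) a then some a.2.2.1 else none

open Classical in
/-- right label at place number `k` with name `a` -/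
noncomputable def rho (a : Nm S V N) (k : ℕ) (Q : List A) (y : S) : Option V :=
  if pr f (Q.drop (en q c (k / q) - c k)) * y = a.2.2.2.1 ∧
      WR f m N nuS q c (k / q) (c k) Q = a.2.2.2.2 ∧
      Exact act N nuS F (k / q) a then some (bval act N nuS F (k / q) a) else none

/-- noise -/
def nz (u : List A) (y : S) : V :=
  F (pr f u * y, ∑ j ∈ range m, ew N nuS j (pr f (seg u (st q c j) (en q c j))))

theorem sum_split (i : ℕ) (hi : i < m) (g : ℕ → ZMod N × ZMod N) :
    ∑ j ∈ range m, g j = ∑ j ∈ range i, g j + g i + ∑ j ∈ Ico (i + 1) m, g j := by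
  rw [← Finset.sum_range_succ, Finset.sum_range_add_sum_Ico _ hi]

variable (hq : 0 < q) (hc : ∀ i j, i < j → j < m * q → c i < c j)

include hq hc

theorem c_le {i j : ℕ} (hij : i ≤ j) (hj : j < m * q) : c i ≤ c j := by
  rcases Nat.lt_or_ge i j with h | h
  · exact (hc i j h hj).le
  · have : i = j := le_antisymm hij h
    rw [this]

theorem idx {k : ℕ} (hk : k < m * q) :
    k / q < m ∧ k / q * q ≤ k ∧ k ≤ k / q * q + (q - 1) := by
  refine ⟨Nat.div_lt_of_lt_mul (by rwa [Nat.mul_comm] at hk), Nat.div_mul_le_self k q, ?_⟩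
  have h1 := Nat.div_add_mod k q
  have h2 := Nat.mod_lt k hq
  rw [Nat.mul_comm] at h1
  omega

theorem st_le {k : ℕ} (hk : k < m * q) : st q c (k / q) ≤ c k := by
  obtain ⟨_, h2, _⟩ := idx m q c hq hc hk
  exact c_le m q c hq hc h2 hk

theorem hole_lt {i : ℕ} (hi : i < m) : i * q + (q - 1) < m * q := by
  have h1 : (i + 1) * q ≤ m * q := Nat.mul_le_mul_right q hi
  have h2 : (i + 1) * q = i * q + q := by ring
  omega

theorem le_en {k : ℕ} (hk : k < m * q) : c k ≤ en q c (k / q) := by
  obtain ⟨h1, _, h3⟩ := idx m q c hq hc hk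
  exact c_le m q c hq hc h3 (hole_lt m q c hq hc h1)

theorem st_le_en {i : ℕ} (hi : i < m) : st q c i ≤ en q c i :=
  c_le m q c hq hc (Nat.le_add_right _ _) (hole_lt m q c hq hc hi)

theorem en_le_st {i j : ℕ} (hij : i < j) (hj : j < m) : en q c i ≤ st q c j := by
  have h1 : (i + 1) * q ≤ j * q := Nat.mul_le_mul_right q hij
  have h2 : (i + 1) * q = i * q + q := by ring
  refine c_le m q c hq hc (by omega) ?_
  have := hole_lt m q c hq hc hj
  omega

/-- the data read by both sides are data of the whole word -/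
theorem data (P Q : List A) (k : ℕ) (hk : k < m * q) (hP : P.length = c k) :
    pr f (P.take (st q c (k / q))) = pr f ((P ++ Q).take (st q c (k / q))) ∧
    WL f N nuS q c (k / q) P = WL f N nuS q c (k / q) (P ++ Q) ∧
    pr f (Q.drop (en q c (k / q) - c k)) = pr f ((P ++ Q).drop (en q c (k / q))) ∧
    WR f m N nuS q c (k / q) (c k) Q = WR f m N nuS q c (k / q) 0 (P ++ Q) := by
  have hst := st_le m q c hq hc hk
  have hen := le_en m q c hq hc hk
  obtain ⟨him, _, _⟩ := idx m q c hq hc hk
  refine ⟨?_, ?_, ?_, ?_⟩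
  · rw [List.take_append_of_le_length (by omega)]
  · unfold WL
    refine Finset.sum_congr rfl ?_
    intro j hj
    rw [mem_range] at hj
    have h1 := en_le_st m q c hq hc hj him
    rw [seg_left P Q _ _ (st_le_en m q c hq hc (hj.trans him)) (by omega)]
  · rw [drop_right P Q _ (by omega), hP]
  · unfold WR
    refine Finset.sum_congr rfl ?_
    intro j hj
    rw [mem_Ico] at hj
    have h1 := en_le_st m q c hq hc (show k / q < j by omega) hj.2
    have h2 := st_le_en m q c hq hc hj.2
    rw [Nat.sub_zero, Nat.sub_zero, seg_right P Q _ _ h2 (by omega), hP]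

/-- the total type of a word, cut at hole `i` -/
theorem total (u : List A) (y : S) (i : ℕ) (hi : i < m) :
    nz f m N nuS F q c u y =
      F (pr f (u.take (st q c i)) * pr f (seg u (st q c i) (en q c i)) *
          (pr f (u.drop (en q c i)) * y),
        WL f N nuS q c i u + ew N nuS i (pr f (seg u (st q c i) (en q c i))) +
          WR f m N nuS q c i 0 u) ∧
    pr f u * y = pr f (u.take (st q c i)) * pr f (seg u (st q c i) (en q c i)) *
          (pr f (u.drop (en q c i)) * y) := by
  have h1 : pr f u * y = pr f (u.take (st q c i)) * pr f (seg u (st q c i) (en q c i)) *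
          (pr f (u.drop (en q c i)) * y) := by
    conv_lhs => rw [← cut3 u (st q c i) (en q c i) (st_le_en m q c hq hc hi)]
    rw [pr_append, pr_append]
    simp only [mul_assoc]
  refine ⟨?_, h1⟩
  unfold nz
  rw [h1, sum_split m N i hi]
  simp only [WL, WR, Nat.sub_zero]

theorem sound (a : Nm S V N) (P Q : List A) (k : ℕ) (hk : k < m * q) (hP : P.length = c k)
    (y : S) (v b : V) (h1 : lam f act N nuS F q c a k P = some v)
    (h2 : rho f act m N nuS F q c a k Q y = some b) :
    b = act v (pr f (P ++ Q) * y) + nz f m N nuS F q c (P ++ Q) y := by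
  obtain ⟨him, _, _⟩ := idx m q c hq hc hk
  obtain ⟨d1, d2, d3, d4⟩ := data f m N nuS q c hq hc P Q k hk hP
  obtain ⟨t1, t2⟩ := total f m N nuS F q c hq hc (P ++ Q) y (k / q) him
  unfold lam at h1
  unfold rho at h2
  split_ifs at h1 with ha
  split_ifs at h2 with hb
  obtain ⟨a1, a2, a3⟩ := ha
  obtain ⟨b1, b2, _⟩ := hb
  have e1 : a.2.2.1 = v := Option.some.inj h1
  have e2 : bval act N nuS F (k / q) a = b := Option.some.inj h2
  rw [t1, t2, ← d1, ← d2, ← d3, ← d4, a1, a2, b1, b2, ← e1, ← e2]
  exact (a3 _).symm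

theorem complete (hgood : ∀ (s : S) (w : ZMod N × ZMod N) (v : V), ∃ i < m,
        ∀ (s' : S) (x z : S), (z = x → s' = s) →
          F (s', w - ew N nuS i x + ew N nuS i z) + act v s' = F (s, w) + act v s)
    (u : List A) (y : S) (v : V) :
    ∃ i < m, ∃ a : Nm S V N, ∀ k, k / q = i → k < m * q → c k ≤ u.length →
      lam f act N nuS F q c a k (u.take (c k)) = some v ∧
      (rho f act m N nuS F q c a k (u.drop (c k)) y).isSome := by
  obtain ⟨i, him, hi⟩ := hgood (pr f u * y)
    (∑ j ∈ range m, ew N nuS j (pr f (seg u (st q c j) (en q c j)))) v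
  obtain ⟨t1, t2⟩ := total f m N nuS F q c hq hc u y i him
  refine ⟨i, him, (pr f (u.take (st q c i)), WL f N nuS q c i u, v,
    pr f (u.drop (en q c i)) * y, WR f m N nuS q c i 0 u), ?_⟩
  have hex : Exact act N nuS F i ((pr f (u.take (st q c i)), WL f N nuS q c i u, v,
    pr f (u.drop (en q c i)) * y, WR f m N nuS q c i 0 u) : Nm S V N) := by
    have main : ∀ z : S, act v (pr f (u.take (st q c i)) * z * (pr f (u.drop (en q c i)) * y)) +
        F (pr f (u.take (st q c i)) * z * (pr f (u.drop (en q c i)) * y),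
          WL f N nuS q c i u + ew N nuS i z + WR f m N nuS q c i 0 u) =
        F (pr f u * y, ∑ j ∈ range m, ew N nuS j (pr f (seg u (st q c j) (en q c j)))) +
          act v (pr f u * y) := by
      intro z
      have h := hi (pr f (u.take (st q c i)) * z * (pr f (u.drop (en q c i)) * y))
        (pr f (seg u (st q c i) (en q c i))) z (by intro hz; rw [hz, t2])
      rw [← h, add_comm]
      congr 3
      rw [sum_split m N i him]
      simp only [WL, WR, Nat.sub_zero]
      abel
    intro z
    unfold bval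
    rw [main z, main 1]
  intro k hki hk hlen
  have hP : (u.take (c k)).length = c k := by
    rw [List.length_take]; omega
  obtain ⟨d1, d2, d3, d4⟩ := data f m N nuS q c hq hc (u.take (c k)) (u.drop (c k)) k hk hP
  rw [List.take_append_drop] at d1 d2 d3 d4
  subst hki
  constructor
  · unfold lam
    rw [if_pos ⟨d1, d2, hex⟩]
  · unfold rho
    rw [if_pos ⟨by rw [d3], d4, hex⟩]
    rfl

end gadget

/-- **Exact gadget** with arbitrary increasing places, redundancy `R` and a tail letter. -/
theorem exact_gadget (A S V : Type) [Monoid S] [Fintype S] [Fintype V] [AddCommGroup V]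
    (f : A → S) (act : V → S → V) (R : ℕ) :
    ∃ K : ℕ, ∀ c : ℕ → ℕ, (∀ i j, i < j → j < K → c i < c j) →
      ∃ (lam : ℕ → List A → Option V) (rho : ℕ → List A → S → Option V) (nu : List A → S → V),
        (∀ k < K, ∀ (P Q : List A) (y : S) (v b : V), P.length = c k →
          lam k P = some v → rho k Q y = some b → b = act v (pr f (P ++ Q) * y) + nu (P ++ Q) y) ∧
        (∀ (u : List A) (y : S) (v : V), (∀ k < K, c k ≤ u.length) →
          ∃ I : Finset ℕ, R ≤ I.card ∧ ∀ k ∈ I, k < K ∧ lam k (u.take (c k)) = some v ∧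
            (rho k (u.drop (c k)) y).isSome) := by
  classical
  obtain ⟨m, N, nuS, F, hm, hN, hgood⟩ := core S V act
  haveI : NeZero N := ⟨hN⟩
  let κ : Type := Nm S V N × Fin (R + 1)
  set q : ℕ := Fintype.card κ with hqdef
  have hq : 0 < q := Fintype.card_pos
  let E : κ ≃ Fin q := Fintype.equivFin κ
  -- name of place number k
  let nm : ℕ → Nm S V N := fun k => (E.symm ⟨k % q, Nat.mod_lt k hq⟩).1
  refine ⟨m * q, fun c hc => ⟨fun k P => lam f act N nuS F q c (nm k) k P,
    fun k Q y => rho f act m N nuS F q c (nm k) k Q y,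
    fun u y => nz f m N nuS F q c u y, ?_, ?_⟩⟩
  · intro k hk P Q y v b hP h1 h2
    exact sound f act m N nuS F q c hq hc (nm k) P Q k hk hP y v b h1 h2
  · intro u y v hlen
    obtain ⟨i, him, a, ha⟩ := complete f act m N nuS F q c hq hc hgood u y v
    let g : Fin (R + 1) → ℕ := fun r => i * q + (E (a, r) : ℕ)
    have hdiv : ∀ r, g r / q = i := by
      intro r
      have h := (E (a, r)).2
      show (i * q + (E (a, r) : ℕ)) / q = i
      rw [Nat.mul_comm, Nat.mul_add_div hq, Nat.div_eq_of_lt h, Nat.add_zero]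
    have hmod : ∀ r, g r % q = (E (a, r) : ℕ) := by
      intro r
      have h := (E (a, r)).2
      show (i * q + (E (a, r) : ℕ)) % q = _
      rw [Nat.mul_comm, Nat.mul_add_mod, Nat.mod_eq_of_lt h]
    have hlt : ∀ r, g r < m * q := by
      intro r
      have h := (E (a, r)).2
      have h1 : (i + 1) * q ≤ m * q := Nat.mul_le_mul_right q him
      have h2 : (i + 1) * q = i * q + q := by ring
      show i * q + (E (a, r) : ℕ) < m * q
      omega
    have hnm : ∀ r, nm (g r) = a := by
      intro r
      show (E.symm ⟨g r % q, Nat.mod_lt (g r) hq⟩).1 = a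
      have h1 : (⟨g r % q, Nat.mod_lt (g r) hq⟩ : Fin q) = E (a, r) := Fin.ext (hmod r)
      rw [h1, Equiv.symm_apply_apply]
    refine ⟨univ.image g, ?_, ?_⟩
    · rw [Finset.card_image_of_injective]
      · simp
      · intro r r' h
        have h1 : (E (a, r) : ℕ) = (E (a, r') : ℕ) := by
          rw [← hmod r, ← hmod r', h]
        have h2 := E.injective (Fin.ext h1)
        exact (Prod.mk.inj h2).2
    · intro k hk
      obtain ⟨r, _, rfl⟩ := Finset.mem_image.1 hk
      refine ⟨hlt r, ?_⟩
      have h := ha (g r) (hdiv r) (hlt r) (hlen _ (hlt r))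
      show lam f act N nuS F q c (nm (g r)) (g r) _ = some v ∧
        (rho f act m N nuS F q c (nm (g r)) (g r) _ y).isSome
      rw [hnm r]
      exact h

end Crest.Agent.R320.ExactR_237
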