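import Crest.Agent.R320.AW2_733
import Crest.Agent.R320.ExactR_237

/-!
# Row 320: all-words data of two schemes, part 3 (helper733): inner scheme
-/

set_option autoImplicit false

namespace Crest.Agent.R320.AW_733

open Crest.Agent.R320.Hk_851 Crest.Agent.R320.CompR_11 Crest.RegLang
  Crest.Agent.R320.Two_621 Crest.Agent.R320.Star_621

universe u

abbrev TT (S : Type u) : Type u := (Function.End (Option (Tok S)))ᵐᵒᵖ

instance (S : Type u) [Finite S] : Finite (TT S) := by
  have : Finite (Tok S) := inferInstance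
  have : Finite (Function.End (Option (Tok S))) :=
    inferInstanceAs (Finite (Option (Tok S) → Option (Tok S)))
  exact Finite.of_equiv _ MulOpposite.opEquiv

namespace DD

variable {α S : Type u} [Monoid S] {D : DD α S}

noncomputable def th (D : DD α S) : List α → TT S := stepA D.psi D.LA D.RA

theorem th_none (z : List α) : (D.th z).unop (none : Option (Tok S)) = none := rfl

theorem th_cut {z : List α} {v : Tok S} (h : Cut D.LA D.RA v z) :
    (D.th z).unop (some v : Option (Tok S)) = none := stepA_cut h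

theorem th_uncut {z : List α} {v : Tok S} (h : ¬ Cut D.LA D.RA v z) :
    (D.th z).unop (some v : Option (Tok S)) = some (D.psi z v) := stepA_uncut h

theorem HL_Cut [Finite α] [Finite S] (v : Tok S) :
    HL 1 ({z | Cut D.LA D.RA v z} : Language α) := by
  refine (HL.iUnion fun τ : Tok S => (HL_LA (D := D) v (k := 1)).mul (HL_RA (D := D) τ)).congr fun z => ?_
  constructor
  · rintro ⟨P, Q, τ, rfl, h1, h2⟩
    exact ⟨τ, Language.mem_mul.2 ⟨P, h1, Q, h2, rfl⟩⟩
  · rintro ⟨τ, h⟩
    obtain ⟨P, h1, Q, h2, rfl⟩ := Language.mem_mul.1 h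
    exact ⟨P, Q, τ, rfl, h1, h2⟩

theorem HL_th1 [Finite α] [Finite S] (o r : Option (Tok S)) :
    HL 1 ({z | z ∈ D.Zc ∧ (D.th z).unop o = r} : Language α) := by
  cases o with
  | none =>
    refine (HL.setOf_and (HL_Zc (D := D)) (HL.const (none = r))).congr fun z => ?_
    exact ⟨fun h => ⟨h.1, h.2⟩, fun h => ⟨h.1, h.2⟩⟩
  | some v =>
    cases r with
    | none =>
      refine (HL.setOf_and (HL_Zc (D := D)) (HL_Cut (D := D) v)).congr fun z => ?_
      constructor
      · rintro ⟨h1, h2⟩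
        refine ⟨h1, ?_⟩
        by_contra hc
        have h2 : (D.th z).unop (some v) = none := h2
        rw [th_uncut hc] at h2
        cases h2
      · rintro ⟨h1, h2⟩
        exact ⟨h1, th_cut h2⟩
    | some τ =>
      refine (HL.setOf_and (HL_Zc (D := D)) (HL.setOf_and (HL_Cut (D := D) v).setOf_not
        (HL_LS (D := D) v τ))).congr fun z => ?_
      constructor
      · rintro ⟨h1, h2⟩
        have h2 : (D.th z).unop (some v) = some τ := h2
        by_cases hc : Cut D.LA D.RA v z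
        · rw [th_cut hc] at h2
          cases h2
        · rw [th_uncut hc] at h2
          exact ⟨h1, hc, Zc_sub _ h1, (Option.some.inj h2).symm⟩
      · rintro ⟨h1, hc, -, h3⟩
        refine ⟨h1, ?_⟩
        show (D.th z).unop (some v) = some τ
        rw [th_uncut hc, h3]

theorem TT_ext {a b : TT S} (h : ∀ o : Option (Tok S), a.unop o = b.unop o) : a = b :=
  MulOpposite.unop_injective (funext h)

theorem HL_th [Finite α] [Finite S] (m : TT S) :
    HL 1 ({z | z ∈ D.Zc ∧ D.th z = m} : Language α) := by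
  refine (HL.iInter fun o : Option (Tok S) => HL_th1 (D := D) o (m.unop o)).congr fun z => ?_
  constructor
  · rintro ⟨h1, h2⟩ o
    have h2 : D.th z = m := h2
    exact ⟨h1, by rw [h2]⟩
  · intro h
    exact ⟨(h none).1, TT_ext fun o => (h o).2⟩

/-- the letters as maps -/
def fB (D : DD α S) (a : α) : TT S :=
  MulOpposite.op fun o : Option (Tok S) => o.map fun v => act v (D.f a)

theorem fB_some (X : List α) (v : Tok S) :
    ((X.map D.fB).prod).unop (some v : Option (Tok S)) = some (act v (D.ph X)) := by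
  induction X generalizing v with
  | nil =>
    show (some v : Option (Tok S)) = some (act v (D.ph []))
    simp [ph, act_one]
  | cons a X ih =>
    have e : (((a :: X).map D.fB).prod).unop (some v : Option (Tok S)) =
        ((X.map D.fB).prod).unop (some (act v (D.f a))) := by
      rw [List.map_cons, List.prod_cons]; rfl
    rw [e, ih, act_mul]
    simp [ph]

theorem fB_none (X : List α) :
    ((X.map D.fB).prod).unop (none : Option (Tok S)) = none := by
  induction X with
  | nil => rfl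
  | cons a X ih =>
    have e : (((a :: X).map D.fB).prod).unop (none : Option (Tok S)) =
        ((X.map D.fB).prod).unop none := by
      rw [List.map_cons, List.prod_cons]; rfl
    rw [e, ih]

theorem exy (D : DD α S) (Y : List α) : ∃ y : TT S, ∀ X : List α, X.length = D.p0 →
    D.th (X ++ Y) = (X.map D.fB).prod * y := by
  classical
  refine ⟨MulOpposite.op fun o : Option (Tok S) => o.bind fun v =>
    if (∃ p Q τ, Y = p ++ Q ∧ D.lam p = some v ∧ Q ∈ D.RA τ) then none
    else some (act v (D.ph Y) + D.dY Y), fun X hX => ?_⟩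
  refine TT_ext fun o => ?_
  cases o with
  | none =>
    rw [th_none]
    show _ = ((fun o : Option (Tok S) => o.bind fun v =>
      if (∃ p Q τ, Y = p ++ Q ∧ D.lam p = some v ∧ Q ∈ D.RA τ) then none
      else some (act v (D.ph Y) + D.dY Y)) (((X.map D.fB).prod).unop none))
    rw [fB_none]
    rfl
  | some v =>
    show _ = ((fun o : Option (Tok S) => o.bind fun v =>
      if (∃ p Q τ, Y = p ++ Q ∧ D.lam p = some v ∧ Q ∈ D.RA τ) then none
      else some (act v (D.ph Y) + D.dY Y)) (((X.map D.fB).prod).unop (some v)))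
    rw [fB_some]
    show _ = if (∃ p Q τ, Y = p ++ Q ∧ D.lam p = some (act v (D.ph X)) ∧ Q ∈ D.RA τ) then none
      else some (act (act v (D.ph X)) (D.ph Y) + D.dY Y)
    have key : Cut D.LA D.RA v (X ++ Y) ↔
        ∃ p Q τ, Y = p ++ Q ∧ D.lam p = some (act v (D.ph X)) ∧ Q ∈ D.RA τ := by
      constructor
      · rintro ⟨P, Q, τ, e, ⟨X', p, h1, h2, h3⟩, h4⟩
        have h2 : P = X' ++ p := h2
        subst h2
        rw [List.append_assoc] at e
        obtain ⟨e1, e2⟩ := List.append_inj e (hX.trans h1.symm)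
        subst e1
        exact ⟨p, Q, τ, e2, h3, h4⟩
      · rintro ⟨p, Q, τ, e, h3, h4⟩
        exact ⟨X ++ p, Q, τ, by rw [e, List.append_assoc], ⟨X, p, hX, rfl, h3⟩, h4⟩
    by_cases hc : Cut D.LA D.RA v (X ++ Y)
    · rw [th_cut hc, if_pos (key.1 hc)]
    · rw [th_uncut hc, if_neg (fun h => hc (key.2 h))]
      unfold psi aff dA
      rw [D.ph_append, act_mul, ← hX, List.drop_left]

/-- contexts of length `p0` -/
abbrev XX (D : DD α S) : Type u := {X : List α // X.length = D.p0}

instance [Finite α] : Finite D.XX := (List.finite_length_eq α D.p0).to_subtype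

open Classical in
noncomputable def HH (D : DD α S) (F : D.XX → TT S) : TT S :=
  if h : ∃ y : TT S, ∀ X : D.XX, F X = (X.1.map D.fB).prod * y then h.choose else 1

noncomputable def FF (D : DD α S) (Y : List α) : D.XX → TT S := fun X => D.th (X.1 ++ Y)

noncomputable def hh (D : DD α S) (Y : List α) : TT S := D.HH (D.FF Y)

theorem hh_spec {X Y : List α} (hX : X.length = D.p0) :
    D.th (X ++ Y) = (X.map D.fB).prod * D.hh Y := by
  obtain ⟨y, hy⟩ := D.exy Y
  have h : ∃ y : TT S, ∀ X : D.XX, D.FF Y X = (X.1.map D.fB).prod * y :=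
    ⟨y, fun X => hy X.1 X.2⟩
  have e : D.hh Y = h.choose := by unfold hh HH; rw [dif_pos h]
  rw [e]
  exact h.choose_spec ⟨X, hX⟩

end DD

/-- data of the inner scheme -/
structure EE {α S : Type u} [Monoid S] (D : DD α S) where
  K : ℕ
  cc : ℕ → ℕ
  lamB : ℕ → List α → Option (Tok (TT S))
  rhoB : ℕ → List α → TT S → Option (Tok (TT S))
  nuB : List α → TT S → Tok (TT S)
  ccpos : ∀ k < K, 0 < cc k
  ccle : ∀ k < K, cc k ≤ D.p0
  ccinj : ∀ k < K, ∀ k' < K, cc k = cc k' → k = k'
  sB : ∀ k < K, ∀ (P Q : List α) (y : TT S) (v b : Tok (TT S)), P.length = cc k →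
    lamB k P = some v → rhoB k Q y = some b →
    b = act v (((P ++ Q).map D.fB).prod * y) + nuB (P ++ Q) y
  Rd : ℕ
  cB : ∀ (u : List α) (y : TT S) (v : Tok (TT S)), (∀ k < K, cc k ≤ u.length) →
    ∃ I : Finset ℕ, Rd ≤ I.card ∧ ∀ k ∈ I, k < K ∧ lamB k (u.take (cc k)) = some v ∧
      (rhoB k (u.drop (cc k)) y).isSome
  spoil : ∀ z ∈ D.Zc, ∀ I : Finset ℕ, Rd ≤ I.card → (∀ k ∈ I, k < K) → ∃ k ∈ I, ∀ k' < K,
    k' ≠ k → ∃ Y Q, Y ∈ D.Fg ∧ z.drop (D.p0 + cc k - cc k') = Y ++ Q

namespace EE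

variable {α S : Type u} [Monoid S] {D : DD α S} (A : EE D)

noncomputable def dB (z : List α) : Tok (TT S) := A.nuB (z.take D.p0) (D.hh (z.drop D.p0))

noncomputable def psiB (z : List α) (v : Tok (TT S)) : Tok (TT S) := aff D.th A.dB z v

def LB (v : Tok (TT S)) : Language α := {P | ∃ k < A.K, P.length = A.cc k ∧ A.lamB k P = some v}

def RB (τ : Tok (TT S)) : Language α :=
  {Q | ∀ v P, P ∈ A.LB v → (P ++ Q ∈ D.Zc ∧ τ = A.psiB (P ++ Q) v) ∨ P ++ Q ∈ D.V1}

theorem LB_fin [Finite α] (v : Tok (TT S)) : (A.LB v : Set (List α)).Finite := by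
  refine (List.finite_length_le α D.p0).subset ?_
  rintro P ⟨k, hk, h1, h2⟩
  have := A.ccle k hk
  show P.length ≤ _
  omega

theorem soundB : Sound D.Zc A.psiB A.LB A.RB := by
  constructor
  · rintro v ⟨k, hk, h1, -⟩
    have := A.ccpos k hk
    simp only [List.length_nil] at h1
    omega
  · intro v τ P Q z x y hP hQ hz e
    rcases hQ v P hP with ⟨h1, h2⟩ | ⟨X, Y, Q', h1, h2, h3⟩
    · have e1 : P ++ Q = z :=
        DD.Z_code.2 _ _ x y (DD.Zc_sub _ h1) (DD.Zc_sub _ hz) e
      rw [← e1]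
      exact ⟨rfl, h2⟩
    · exfalso
      obtain ⟨X2, Y2, Q2, g1, g2, g3, rfl⟩ := hz
      rw [← h3] at e
      have e' : X ++ (Y ++ (Q' ++ x)) = X2 ++ (Y2 ++ (Q2 ++ y)) := by
        simpa [List.append_assoc] using e
      obtain ⟨-, e2, -⟩ := DD.uniq h1 g1 h2.1 g2.1 e'
      exact h2.2 (e2 ▸ g2.2)

def MM (D : DD α S) (F : D.XX → TT S) : Language α :=
  {Y | ∀ X : D.XX, X.1 ++ Y ∈ D.Zc ∧ D.th (X.1 ++ Y) = F X}

theorem HL_MM [Finite α] [Finite S] (F : D.XX → TT S) : HL 1 (MM D F) := by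
  refine (HL.iInter fun X : D.XX => HL.lquot X.1 (DD.HL_th (D := D) (F X))).congr fun w => ?_
  exact ⟨fun h X => h X, fun h X => h X⟩

theorem HL_LSB [Finite α] [Finite S] (v τ : Tok (TT S)) :
    HL 1 ({z | z ∈ D.Zc ∧ τ = A.psiB z v} : Language α) := by
  let I := {i : D.XX × (D.XX → TT S) // τ = act v (i.2 i.1) + A.nuB i.1.1 (D.HH i.2)}
  have h : ∀ i : I, HL 1 (({i.1.1.1} : Language α) * MM D i.1.2) := fun i =>
    (HL.word _).mul (HL_MM i.1.2)
  refine (HL.iUnion h).congr fun z => ?_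
  constructor
  · rintro ⟨⟨X, Y, Q, h1, h2, h3, rfl⟩, h4⟩
    have e1 : (X ++ (Y ++ Q)).take D.p0 = X := by rw [← h1, List.take_left]
    have e2 : (X ++ (Y ++ Q)).drop D.p0 = Y ++ Q := by rw [← h1, List.drop_left]
    refine ⟨⟨(⟨X, h1⟩, D.FF (Y ++ Q)), ?_⟩, Language.mem_mul.2 ⟨X, rfl, Y ++ Q, ?_, rfl⟩⟩
    · have h4 : τ = act v (D.th (X ++ (Y ++ Q))) +
        A.nuB ((X ++ (Y ++ Q)).take D.p0) (D.hh ((X ++ (Y ++ Q)).drop D.p0)) := h4
      rw [e1, e2] at h4
      exact h4
    · intro X'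
      exact ⟨⟨X'.1, Y, Q, X'.2, h2, h3, rfl⟩, rfl⟩
  · rintro ⟨⟨⟨X, F⟩, hi⟩, hz⟩
    obtain ⟨X', hX', Y, hY, rfl⟩ := Language.mem_mul.1 hz
    have hX' : X' = X.1 := hX'
    subst hX'
    have hF : D.FF Y = F := funext fun X => (hY X).2
    have e1 : (X.1 ++ Y).take D.p0 = X.1 := List.take_left' X.2
    have e2 : (X.1 ++ Y).drop D.p0 = Y := List.drop_left' X.2
    refine ⟨(hY X).1, ?_⟩
    show τ = act v (D.th (X.1 ++ Y)) + A.nuB ((X.1 ++ Y).take D.p0) (D.hh ((X.1 ++ Y).drop D.p0))
    rw [e1, e2]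
    have e3 : D.th (X.1 ++ Y) = F X := (hY X).2
    rw [e3]
    unfold DD.hh
    rw [hF]
    exact hi

theorem HL_RB [Finite α] [Finite S] (τ : Tok (TT S)) : HL 1 (A.RB τ) := by
  have h : ∀ v : Tok (TT S), HL 1 ({Q | ∀ P ∈ (A.LB v : Set (List α)),
      Q ∈ ({Q | P ++ Q ∈ ({z | z ∈ D.Zc ∧ τ = A.psiB z v} : Language α) ∨
        P ++ Q ∈ D.V1} : Language α)} : Language α) := fun v =>
    HL.biInter (A.LB_fin v) fun P _ =>
      HL.setOf_or (HL.lquot P (A.HL_LSB v τ)) (HL.lquot P DD.HL_V1)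
  refine (HL.iInter h).congr fun w => ?_
  constructor
  · intro hw v P hP; exact hw v P hP
  · intro hw v P hP; exact hw v P hP

theorem complB : ∀ z ∈ D.Zc, ∀ v, Cut A.LB A.RB v z := by
  intro z hz v
  obtain ⟨X, Y, Q, h1, h2, h3, hzz⟩ := id hz
  obtain ⟨I, hI, hI2⟩ := A.cB X (D.hh (Y ++ Q)) v (fun k hk => by rw [h1]; exact A.ccle k hk)
  obtain ⟨k, hkI, hk⟩ := A.spoil z hz I hI (fun k hk => (hI2 k hk).1)
  obtain ⟨hkK, hl, hr⟩ := hI2 k hkI
  obtain ⟨b, hb⟩ := Option.isSome_iff_exists.1 hr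
  have hle := A.ccle k hkK
  have hlen : (X.take (A.cc k)).length = A.cc k := by rw [List.length_take]; omega
  -- value of a word with the same right part
  have val : ∀ (P : List α) (v' : Tok (TT S)), P.length = A.cc k → A.lamB k P = some v' →
      P ++ (X.drop (A.cc k) ++ (Y ++ Q)) ∈ D.Zc ∧
      A.psiB (P ++ (X.drop (A.cc k) ++ (Y ++ Q))) v' = b := by
    intro P v' hP hv'
    have hX' : (P ++ X.drop (A.cc k)).length = D.p0 := by
      rw [List.length_append, List.length_drop]; omega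
    have e : P ++ (X.drop (A.cc k) ++ (Y ++ Q)) = (P ++ X.drop (A.cc k)) ++ (Y ++ Q) := by
      simp [List.append_assoc]
    rw [e]
    refine ⟨⟨_, Y, Q, hX', h2, h3, rfl⟩, ?_⟩
    have s := A.sB k hkK P (X.drop (A.cc k)) (D.hh (Y ++ Q)) v' b hP hv' hb
    rw [s, ← DD.hh_spec hX']
    show act v' (D.th _) + A.nuB _ (D.hh _) = _
    have e1 : ((P ++ X.drop (A.cc k)) ++ (Y ++ Q)).take D.p0 = P ++ X.drop (A.cc k) := by
      rw [← hX', List.take_left]
    have e2 : ((P ++ X.drop (A.cc k)) ++ (Y ++ Q)).drop D.p0 = Y ++ Q := by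
      rw [← hX', List.drop_left]
    rw [e1, e2]
  refine ⟨X.take (A.cc k), X.drop (A.cc k) ++ (Y ++ Q), b, ?_, ⟨k, hkK, hlen, hl⟩, ?_⟩
  · rw [← List.append_assoc, List.take_append_drop, hzz]
  · rintro v' P' ⟨k', hk', hl', hv'⟩
    by_cases hkk : k' = k
    · subst hkk
      left
      obtain ⟨g1, g2⟩ := val P' v' hl' hv'
      exact ⟨g1, g2.symm⟩
    · right
      obtain ⟨Y', Q', hY', he⟩ := hk k' hk' hkk
      have hle' := A.ccle k' hk'
      refine ⟨(P' ++ (X.drop (A.cc k) ++ (Y ++ Q))).take D.p0, Y', Q', ?_, hY', ?_⟩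
      · have hz' : z.length = X.length + (Y ++ Q).length := by rw [← hzz, List.length_append]
        have hd := congrArg List.length he
        rw [List.length_drop, List.length_append] at hd
        have hYl : 0 < Y'.length := by
          have := hY'.1.1
          have := D.zzb
          have := D.H.hn
          omega
        rw [List.length_take, List.length_append, List.length_append, List.length_drop]
        omega
      · rw [← he]
        have e3 : z.drop (D.p0 + A.cc k - A.cc k') =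
            (P' ++ (X.drop (A.cc k) ++ (Y ++ Q))).drop D.p0 := by
          have e4 : X.drop (A.cc k) ++ (Y ++ Q) = z.drop (A.cc k) := by
            rw [← hzz, List.drop_append_of_le_length (by omega)]
          rw [e4, List.drop_append, List.drop_of_length_le (by omega : P'.length ≤ D.p0),
            List.nil_append, List.drop_drop, hl']
          congr 1
          omega
        rw [e3, List.take_append_drop]

end EE

end Crest.Agent.R320.AW_733
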