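import Crest.Agent.R320.AW2_733

/-!
# Row 320: all-words data of two schemes, part 4 (helper733): spoiled places
-/

set_option autoImplicit false

namespace Crest.Agent.R320.AW_733

open Crest.Agent.R320.Hk_851 Crest.Agent.R320.CompR_11 Crest.RegLang
  Crest.Agent.R320.Two_621 Crest.Agent.R320.Star_621 Finset

universe u

namespace DD

variable {α S : Type u} [Monoid S] {D : DD α S}

/-- global wall -/
def gw (D : DD α S) (w : List α) (e : ℕ) : Prop := e ≤ w.length ∧ D.Wo (w.take e)

theorem gw_drop {w : List α} {i e : ℕ} (h : i + D.n ≤ e) (he : e ≤ w.length) :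
    D.Wo ((w.drop i).take (e - i)) ↔ D.gw w e := by
  have e1 : w.take e = w.take i ++ (w.drop i).take (e - i) := by
    have : e = i + (e - i) := by omega
    conv_lhs => rw [this, List.take_add]
  unfold gw
  rw [e1, D.H.loc _ _ (by rw [List.length_take, List.length_drop]; omega)]
  exact ⟨fun h => ⟨he, h⟩, fun h => h.2⟩

theorem gw_gap {w : List α} {e e' : ℕ} (h : D.gw w e) (h' : D.gw w e') (hlt : e < e') :
    e + D.W < e' := by
  by_contra hc
  have hl : (w.take e').length = e' := by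
    rw [List.length_take]; exact min_eq_left h'.1
  have := D.H.gap (w.take e') (e' - e) h'.2 (by omega) (by omega)
  rw [hl, List.take_take] at this
  have e1 : min (e' - (e' - e)) e' = e := by omega
  rw [e1] at this
  exact this h.2

/-- first zone of a shifted text -/
theorem first_zone {w : List α} {i e : ℕ} (he : D.gw w e) (hie : i + D.zz ≤ e)
    (hmin : ∀ e', D.gw w e' → i + D.zz ≤ e' → e ≤ e') :
    (w.drop i).take (e - i) ∈ D.F ∧ ((w.drop i).take (e - i)).length = e - i := by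
  have hb := D.zzb
  have hl : ((w.drop i).take (e - i)).length = e - i := by
    rw [List.length_take, List.length_drop]
    have := he.1
    omega
  refine ⟨⟨by rw [hl]; omega, (gw_drop (by omega) he.1).2 he, ?_⟩, hl⟩
  intro t ht1 ht2 ht3
  rw [hl] at ht2
  rw [List.take_take, min_eq_left ht2.le] at ht3
  have he' := he.1
  have e1 : t = i + t - i := by omega
  rw [e1, gw_drop (by omega) (by omega)] at ht3
  have := hmin (i + t) ht3 (by omega)
  omega

theorem spoil_lemma (K : ℕ) (cc : ℕ → ℕ) (Cm C0 : ℕ) (hcm : ∀ k < K, cc k ≤ Cm)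
    (hCp : Cm ≤ D.p0) (hW : 2 * Cm + 2 * D.N1 ≤ D.W) (hzz : Cm + D.La + D.n + D.N1 ≤ D.zz)
    (hrul : ∀ i < K, ∀ j < K, ∀ k < K, ∀ l < K, i ≠ j → k ≠ l → (i, j) ≠ (k, l) →
      cc i + cc l + 4 * D.N1 < cc k + cc j ∨ cc k + cc j + 4 * D.N1 < cc i + cc l)
    (hcount : ∀ T, D.La ≤ T → ∀ s : Finset (ℕ × ℕ), (∀ p ∈ s, p.1 < K ∧ p.2 < K ∧ p.1 ≠ p.2 ∧
      D.Bad (T + cc p.2 - cc p.1)) → s.card ≤ C0) :
    ∀ z ∈ D.Zc, ∀ I : Finset ℕ, 2 + 3 * C0 ≤ I.card → (∀ k ∈ I, k < K) → ∃ k ∈ I, ∀ k' < K,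
      k' ≠ k → ∃ Y Q, Y ∈ D.Fg ∧ z.drop (D.p0 + cc k - cc k') = Y ++ Q := by
  classical
  rintro w ⟨X, Y, Q, h1, h2, h3, hw⟩ I hI hIK
  have hb := D.zzb
  have hn := D.H.hn
  have hF : Y ∈ D.F := h2.1
  have hYl := hF.1
  have hwl : w.length = D.p0 + (Y.length + Q.length) := by
    rw [← hw, List.length_append, List.length_append, h1]
  have hwd : w.drop D.p0 = Y ++ Q := by rw [← hw]; exact List.drop_left' h1
  have hQn : D.n ≤ Q.length := D.H.len _ h3.2.1
  -- t1
  have g1 : D.gw w (D.p0 + Y.length) := by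
    rw [← gw_drop (i := D.p0) (by omega) (by omega), hwd]
    have : D.p0 + Y.length - D.p0 = Y.length := by omega
    rw [this, List.take_left]
    exact hF.2.1
  have gfree : ∀ e, D.gw w e → D.p0 + D.zz ≤ e → D.p0 + Y.length ≤ e := by
    intro e he h
    by_contra hc
    have he' := he.1
    rw [← gw_drop (i := D.p0) (by omega) (by omega), hwd,
      List.take_append_of_le_length (by omega)] at he
    exact hF.2.2 (e - D.p0) (by omega) (by omega) he
  -- end
  have gL : D.gw w w.length := by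
    refine ⟨le_rfl, ?_⟩
    rw [List.take_length, ← hw, ← List.append_assoc, D.H.loc _ _ hQn]
    exact h3.2.1
  -- t2
  have hex2 : ∃ e, D.gw w e ∧ D.p0 + Y.length < e := ⟨w.length, gL, by omega⟩
  obtain ⟨hg2, hlt2⟩ := Nat.find_spec hex2
  set t2 := Nat.find hex2 with ht2
  have hmin2 : ∀ e, D.gw w e → D.p0 + Y.length < e → t2 ≤ e := fun e h h' =>
    Nat.find_min' hex2 ⟨h, h'⟩
  have hgap2 := gw_gap g1 hg2 hlt2
  -- t0
  obtain ⟨t0, ht0, ht0'⟩ : ∃ t0, D.p0 + D.La ≤ t0 ∧ ∀ e, D.gw w e → D.p0 + D.zz ≤ e + Cm →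
      e < D.p0 + D.zz → e = t0 := by
    by_cases hex : ∃ e, D.gw w e ∧ D.p0 + D.zz ≤ e + Cm ∧ e < D.p0 + D.zz
    · obtain ⟨t0, a, b, c⟩ := hex
      refine ⟨t0, by omega, fun e he h h' => ?_⟩
      rcases Nat.lt_trichotomy e t0 with hl | hl | hl
      · have := gw_gap he a hl; omega
      · exact hl
      · have := gw_gap a he hl; omega
    · exact ⟨D.p0 + D.La, le_rfl, fun e he h h' => (hex ⟨e, he, h, h'⟩).elim⟩
  by_contra hcon
  push Not at hcon
  choose! g hg1 hg2' hg3 using hcon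
  -- the pair of k
  let pr : ℕ → ℕ × ℕ := fun k => (k, g k)
  let S1 : Finset (ℕ × ℕ) := (I.image pr).filter fun p => ∃ e, D.gw w e ∧
    D.p0 + cc p.1 + D.zz ≤ e + D.N1 + cc p.2 ∧ e + cc p.2 < D.p0 + cc p.1 + D.zz + D.N1
  let ST : ℕ → Finset (ℕ × ℕ) := fun T => (I.image pr).filter fun p =>
    D.Bad (T + cc p.2 - cc p.1)
  have hmem : ∀ p ∈ I.image pr, p.1 < K ∧ p.2 < K ∧ p.1 ≠ p.2 := by
    intro p hp
    obtain ⟨k, hk, rfl⟩ := Finset.mem_image.1 hp
    exact ⟨hIK k hk, hg1 k hk, (hg2' k hk).symm⟩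
  have c1 : S1.card ≤ 1 := by
    rw [Finset.card_le_one]
    rintro ⟨a, b⟩ hp ⟨a', b'⟩ hp'
    rw [Finset.mem_filter] at hp hp'
    obtain ⟨m1, e, he, he1, he2⟩ := hp
    obtain ⟨m2, e', he', he1', he2'⟩ := hp'
    obtain ⟨ka, kb, kn⟩ := hmem _ m1
    obtain ⟨ka', kb', kn'⟩ := hmem _ m2
    simp only at ka kb kn ka' kb' kn' he1 he2 he1' he2'
    by_contra hne
    have q1 := hcm a ka
    have q2 := hcm b kb
    have q3 := hcm a' ka'
    have q4 := hcm b' kb'
    have hee : e = e' := by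
      rcases Nat.lt_trichotomy e e' with hl | hl | hl
      · have := gw_gap he he' hl; omega
      · exact hl
      · have := gw_gap he' he hl; omega
    subst hee
    rcases hrul a ka b kb a' ka' b' kb' kn kn' hne with h | h <;> omega
  have cT : ∀ T, D.La ≤ T → (ST T).card ≤ C0 := by
    intro T hT
    refine hcount T hT _ fun p hp => ?_
    rw [Finset.mem_filter] at hp
    obtain ⟨a, b, c⟩ := hmem p hp.1
    exact ⟨a, b, c, hp.2⟩
  have hcover : I.image pr ⊆ S1 ∪ (ST (t0 - D.p0) ∪ (ST (Y.length) ∪ ST (t2 - D.p0))) := by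
    intro p hp
    obtain ⟨ka, kb, kn⟩ := hmem p hp
    obtain ⟨k, hk, hpk⟩ := Finset.mem_image.1 hp
    have hp1 : p.1 = k := by rw [← hpk]
    have hp2 : p.2 = g k := by rw [← hpk]
    have q1 := hcm _ ka
    have q2 := hcm _ kb
    have hi : ∃ i, i = D.p0 + cc p.1 - cc p.2 := ⟨_, rfl⟩
    obtain ⟨i, hi⟩ := hi
    have hex : ∃ e, D.gw w e ∧ i + D.zz ≤ e := ⟨t2, hg2, by omega⟩
    obtain ⟨he, hie⟩ := Nat.find_spec hex
    set e := Nat.find hex with hedef
    have hmin : ∀ e', D.gw w e' → i + D.zz ≤ e' → e ≤ e' := fun e' h h' =>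
      Nat.find_min' hex ⟨h, h'⟩
    obtain ⟨hz1, hz2⟩ := first_zone he hie hmin
    have hbad : D.E ((w.drop i).take (e - i)) := by
      by_contra hE
      refine hg3 k hk ((w.drop i).take (e - i)) ((w.drop i).drop (e - i)) ⟨hz1, hE⟩ ?_
      rw [List.take_append_drop, hi, hp1, hp2]
    rw [Finset.mem_union, Finset.mem_union, Finset.mem_union]
    rcases hbad with hE | ⟨s, hs1, hs2, hs3⟩ | hB
    · left
      rw [Finset.mem_filter]
      rw [hz2] at hE
      exact ⟨hp, e, he, by omega, by omega⟩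
    · left
      rw [Finset.mem_filter]
      have he1 := he.1
      rw [List.take_take, min_eq_left (by omega)] at hs3
      have e1 : s = i + s - i := by omega
      rw [e1, gw_drop (by omega) (by omega)] at hs3
      exact ⟨hp, i + s, hs3, by omega, by omega⟩
    · right
      rw [hz2] at hB
      have key : ∀ t, e = t → D.Bad (t - D.p0 + cc p.2 - cc p.1) := by
        intro t ht
        subst ht
        have : e - i = e - D.p0 + cc p.2 - cc p.1 := by omega
        rw [← this]; exact hB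
      rcases Nat.lt_or_ge e (D.p0 + D.zz) with hlt | hge
      · left
        rw [Finset.mem_filter]
        exact ⟨hp, key t0 (ht0' e he (by omega) hlt)⟩
      · right
        have h4 := gfree e he hge
        rcases Nat.eq_or_lt_of_le h4 with h5 | h5
        · left
          rw [Finset.mem_filter]
          have := key _ h5.symm
          have e6 : D.p0 + Y.length - D.p0 = Y.length := by omega
          rw [e6] at this
          exact ⟨hp, this⟩
        · right
          rw [Finset.mem_filter]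
          have h6 := hmin2 e he h5
          have h7 := hmin t2 hg2 (by omega)
          exact ⟨hp, key t2 (by omega)⟩
  have hinj : (I.image pr).card = I.card := by
    apply Finset.card_image_of_injective
    intro a b hab
    exact (Prod.mk.inj hab).1
  have hle := Finset.card_le_card hcover
  have l1 := Finset.card_union_le S1 (ST (t0 - D.p0) ∪ (ST (Y.length) ∪ ST (t2 - D.p0)))
  have l2 := Finset.card_union_le (ST (t0 - D.p0)) (ST (Y.length) ∪ ST (t2 - D.p0))
  have l3 := Finset.card_union_le (ST (Y.length)) (ST (t2 - D.p0))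
  have k0 := cT (t0 - D.p0) (by omega)
  have k1 := cT Y.length (by omega)
  have k2 := cT (t2 - D.p0) (by omega)
  omega

end DD

end Crest.Agent.R320.AW_733
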