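import Mathlib

/-!
Row 320: Straubing's criterion (1979) relative form, by local divisors.
`ev f w` is the product of the letters `f a` of the word `w`.
-/

set_option autoImplicit false
set_option linter.all false

namespace Crest.Agent.R320.Straub_932

open scoped Classical

universe u

/-- evaluation of a word under a letter map into a monoid -/
def ev {A M : Type u} [Monoid M] (f : A → M) (w : List A) : M := (w.map f).prod

section ev
variable {A M : Type u} [Monoid M] (f : A → M)

@[simp] theorem ev_nil : ev f [] = 1 := by simp [ev]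
@[simp] theorem ev_cons (a : A) (w : List A) : ev f (a :: w) = f a * ev f w := by simp [ev]
@[simp] theorem ev_append (u w : List A) : ev f (u ++ w) = ev f u * ev f w := by simp [ev]
theorem ev_rep (n : ℕ) (w : List A) : ev f ((List.replicate n w).flatten) = ev f w ^ n := by
  induction n with
  | zero => simp
  | succ n ih => rw [List.replicate_succ, List.flatten_cons, ev_append, ih, pow_succ']
end ev

/-- a class of languages closed under the Boolean operations and concatenation -/
structure Good {A : Type u} (C : Language A → Prop) : Prop where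
  zero : C (0 : Language A)
  one : C (1 : Language A)
  char : ∀ a, C ({[a]} : Language A)
  add : ∀ {L M : Language A}, C L → C M → C (L + M)
  mul : ∀ {L M : Language A}, C L → C M → C (L * M)
  compl : ∀ {L : Language A}, C L → C (Lᶜ : Language A)

namespace Good
variable {A : Type u} {C : Language A → Prop} (hC : Good C)
include hC

theorem congr {L M : Language A} (h : C L) (e : ∀ w, w ∈ L ↔ w ∈ M) : C M := by
  have : L = M := by ext w; exact e w
  rwa [← this]

theorem top : C (⊤ : Language A) := by
  refine hC.congr (hC.compl hC.zero) ?_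
  intro w
  constructor
  · intro _; exact Set.mem_univ w
  · intro _ h0; exact absurd h0 (Language.notMem_zero w)

theorem union {p q : List A → Prop} (hp : C {w | p w}) (hq : C {w | q w}) :
    C {w | p w ∨ q w} :=
  hC.congr (hC.add hp hq) (by
    intro w
    exact Iff.rfl)

theorem not {p : List A → Prop} (hp : C {w | p w}) : C {w | ¬ p w} :=
  hC.congr (hC.compl hp) (by intro w; exact Iff.rfl)

theorem inter {p q : List A → Prop} (hp : C {w | p w}) (hq : C {w | q w}) :
    C {w | p w ∧ q w} :=
  hC.congr (hC.not (hC.union (hC.not hp) (hC.not hq))) (by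
    intro w
    show ¬ (¬ p w ∨ ¬ q w) ↔ p w ∧ q w
    tauto)

theorem cat {p q : List A → Prop} (hp : C {w | p w}) (hq : C {w | q w}) :
    C {w | ∃ u v, w = u ++ v ∧ p u ∧ q v} :=
  hC.congr (hC.mul hp hq) (by
    intro w
    constructor
    · intro h
      obtain ⟨a, ha, b, hb, rfl⟩ := (Language.mem_mul).1 h
      exact ⟨a, b, rfl, ha, hb⟩
    · rintro ⟨a, b, rfl, ha, hb⟩
      exact (Language.mem_mul).2 ⟨a, ha, b, hb, rfl⟩)

theorem exists_finset {ι : Type*} (s : Finset ι) (p : ι → List A → Prop)
    (h : ∀ i ∈ s, C {w | p i w}) : C {w | ∃ i ∈ s, p i w} := by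
  induction s using Finset.induction_on with
  | empty =>
    refine hC.congr hC.zero ?_
    intro w
    constructor
    · intro h0; exact absurd h0 (Language.notMem_zero w)
    · rintro ⟨i, hi, _⟩; simp at hi
  | insert a s ha ih =>
    have h1 := hC.union (h a (Finset.mem_insert_self a s))
      (ih (fun i hi => h i (Finset.mem_insert_of_mem hi)))
    refine hC.congr h1 ?_
    intro w
    show (p a w ∨ ∃ i ∈ s, p i w) ↔ ∃ i ∈ insert a s, p i w
    simp [Finset.mem_insert]

theorem exists_fin {ι : Type*} [Finite ι] (p : ι → List A → Prop)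
    (h : ∀ i, C {w | p i w}) : C {w | ∃ i, p i w} := by
  haveI := Fintype.ofFinite ι
  refine hC.congr (hC.exists_finset Finset.univ p (fun i _ => h i)) ?_
  intro w
  show (∃ i ∈ Finset.univ, p i w) ↔ ∃ i, p i w
  simp

theorem const (P : Prop) : C {_w : List A | P} := by
  by_cases hP : P
  · refine hC.congr hC.top ?_
    intro w
    constructor
    · intro _; exact hP
    · intro _; exact Set.mem_univ w
  · refine hC.congr hC.zero ?_
    intro w
    constructor
    · intro h0; exact absurd h0 (Language.notMem_zero w)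
    · intro h0; exact absurd h0 hP

theorem overB [Finite A] (B : Finset A) : C {w | ∀ a ∈ w, a ∈ B} := by
  have h1 : ∀ a : A, C {w : List A | a ∈ w} := by
    intro a
    have h2 := hC.mul (hC.mul hC.top (hC.char a)) hC.top
    refine hC.congr h2 ?_
    intro w
    constructor
    · intro hw
      rw [Language.mem_mul] at hw
      obtain ⟨x, hx, y, _, rfl⟩ := hw
      rw [Language.mem_mul] at hx
      obtain ⟨x1, _, x2, hx2, rfl⟩ := hx
      have : x2 = [a] := hx2
      subst this
      show a ∈ (x1 ++ [a]) ++ y
      simp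
    · intro hw
      have hw' : a ∈ w := hw
      obtain ⟨s, t, rfl⟩ := List.append_of_mem hw'
      rw [Language.mem_mul]
      refine ⟨s ++ [a], ?_, t, Set.mem_univ _, by simp⟩
      rw [Language.mem_mul]
      exact ⟨s, Set.mem_univ _, [a], rfl, rfl⟩
  have h3 := hC.exists_fin (fun (a : A) (w : List A) => a ∉ B ∧ a ∈ w)
    (fun a => hC.inter (hC.const _) (h1 a))
  refine hC.congr (hC.not h3) ?_
  intro w
  show (¬ ∃ a, a ∉ B ∧ a ∈ w) ↔ ∀ a ∈ w, a ∈ B
  constructor
  · intro h a ha
    by_contra hb
    exact h ⟨a, hb, ha⟩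
  · rintro h ⟨a, hb, ha⟩
    exact hb (h a ha)

end Good

/-! ### local divisors -/

/-- the local divisor `c M ∩ M c` -/
def LD {M : Type u} [Monoid M] (c : M) : Type u :=
  {x : M // (∃ y, x = c * y) ∧ (∃ z, x = z * c)}

namespace LD
variable {M : Type u} [Monoid M] {c : M}

theorem ext' {x y : LD c} (h : x.1 = y.1) : x = y := Subtype.ext h

noncomputable instance : Mul (LD c) :=
  ⟨fun x y => ⟨x.2.2.choose * y.1, by
    obtain ⟨y', hy'⟩ := y.2.1
    obtain ⟨x', hx'⟩ := x.2.1
    have hz := x.2.2.choose_spec
    refine ⟨x' * y', ?_⟩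
    rw [hy', ← mul_assoc, ← hz, hx', mul_assoc], by
    obtain ⟨z, hz⟩ := y.2.2
    exact ⟨x.2.2.choose * z, by rw [hz, mul_assoc]⟩⟩⟩

instance : One (LD c) := ⟨⟨c, ⟨1, by simp⟩, ⟨1, by simp⟩⟩⟩

@[simp] theorem one_val : (1 : LD c).1 = c := rfl

theorem mul_val (x y : LD c) (z : M) (hz : x.1 = z * c) : (x * y).1 = z * y.1 := by
  show x.2.2.choose * y.1 = z * y.1
  have h0 := x.2.2.choose_spec
  obtain ⟨y', hy'⟩ := y.2.1
  rw [hy', ← mul_assoc, ← mul_assoc, ← h0, hz]

theorem mul_val' (x y : LD c) (y' : M) (hy : y.1 = c * y') : (x * y).1 = x.1 * y' := by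
  obtain ⟨z, hz⟩ := x.2.2
  rw [mul_val x y z hz, hy, hz, mul_assoc]

noncomputable instance : Monoid (LD c) where
  mul_assoc x y w := by
    apply ext'
    obtain ⟨z, hz⟩ := x.2.2
    obtain ⟨z2, hz2⟩ := y.2.2
    have h1 : (x * y).1 = (z * z2) * c := by rw [mul_val x y z hz, hz2, mul_assoc]
    rw [mul_val (x * y) w (z * z2) h1, mul_val x (y * w) z hz, mul_val y w z2 hz2, mul_assoc]
  one_mul x := by
    apply ext'
    rw [mul_val 1 x 1 (by simp)]
    simp
  mul_one x := by
    apply ext'
    rw [mul_val' x 1 1 (by simp)]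
    simp

instance [Finite M] : Finite (LD c) := inferInstanceAs (Finite {x : M // _})

theorem card_lt [Finite M] (hc : ¬ IsUnit c) : Nat.card (LD c) < Nat.card M := by
  have : ¬ ((∃ y, (1 : M) = c * y) ∧ (∃ z, (1 : M) = z * c)) := by
    rintro ⟨⟨y, hy⟩, ⟨z, hz⟩⟩
    apply hc
    have hzy : z = y := by
      calc z = z * 1 := by simp
        _ = z * (c * y) := by rw [← hy]
        _ = (z * c) * y := by rw [mul_assoc]
        _ = y := by rw [← hz]; simp
    refine ⟨⟨c, y, hy.symm, ?_⟩, rfl⟩
    rw [← hzy]; exact hz.symm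
  exact Finite.card_subtype_lt (x := (1 : M)) this

theorem pow_val (x : LD c) (y : M) (hx : x.1 = c * y) (k : ℕ) : (x ^ k).1 = c * y ^ k := by
  induction k with
  | zero => simp
  | succ k ih =>
    rw [pow_succ, mul_val' (x ^ k) x y hx, ih, pow_succ, mul_assoc]

end LD

/-! ### the factorization at a letter `c` -/

/-- classes of words over `B'` -/
abbrev TT {A M T : Type u} [Monoid M] [Monoid T] (f : A → M) (g : A → T) (B' : Finset A) : Type u :=
  {p : M × T // ∃ v : List A, (∀ a ∈ v, a ∈ B') ∧ ev f v = p.1 ∧ ev g v = p.2}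

/-- `w = v₁ c v₂ c ... vₙ c`, the `vᵢ` over `B'` with classes `s` -/
def Par {A M T : Type u} [Monoid M] [Monoid T] (f : A → M) (g : A → T) (B' : Finset A) (c : A) :
    List (TT f g B') → List A → Prop
  | [], w => w = []
  | t :: s, w => ∃ v w', w = v ++ c :: w' ∧ (∀ a ∈ v, a ∈ B') ∧ ev f v = t.1.1 ∧
      ev g v = t.1.2 ∧ Par f g B' c s w'

section par
variable {A M T : Type u} [Monoid M] [Monoid T] {f : A → M} {g : A → T} {B' : Finset A} {c : A}

theorem Par.overB {s : List (TT f g B')} : ∀ {w : List A}, Par f g B' c s w →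
    (∀ a ∈ w, a ∈ B' ∨ a = c) ∧ (w = [] ∨ ∃ u, w = u ++ [c]) := by
  induction s with
  | nil =>
    intro w h
    have h : w = [] := h
    subst h
    simp
  | cons t s ih =>
    rintro w ⟨v, w', rfl, hv, _, _, hw'⟩
    obtain ⟨h1, h2⟩ := ih hw'
    constructor
    · intro a ha
      rw [List.mem_append, List.mem_cons] at ha
      rcases ha with ha | ha | ha
      · exact Or.inl (hv a ha)
      · exact Or.inr ha
      · exact h1 a ha
    · right
      rcases h2 with rfl | ⟨u, rfl⟩
      · exact ⟨v, rfl⟩
      · exact ⟨v ++ c :: u, by simp⟩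

theorem Par.exists_pre : ∀ (w : List A), (∀ a ∈ w, a ∈ B' ∨ a = c) →
    ∃ (w1 v1 : List A) (s : List (TT f g B')), w = w1 ++ v1 ∧ Par f g B' c s w1 ∧
      ∀ a ∈ v1, a ∈ B' := by
  intro w
  induction w with
  | nil =>
    intro _
    exact ⟨[], [], [], rfl, rfl, by simp⟩
  | cons a w ih =>
    intro h
    obtain ⟨w1, v1, s, rfl, hs, hv1⟩ := ih (fun b hb => h b (List.mem_cons_of_mem a hb))
    by_cases hac : a = c
    · subst hac
      refine ⟨a :: w1, v1, ⟨(1, 1), [], by simp, by simp, by simp⟩ :: s, rfl, ?_, hv1⟩
      exact ⟨[], w1, rfl, by simp, by simp, by simp, hs⟩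
    · have haB : a ∈ B' := by
        rcases h a List.mem_cons_self with h | h
        · exact h
        · exact absurd h hac
      cases s with
      | nil =>
        have hs : w1 = [] := hs
        subst hs
        refine ⟨[], a :: v1, [], rfl, rfl, ?_⟩
        intro b hb
        rcases List.mem_cons.1 hb with rfl | hb
        · exact haB
        · exact hv1 b hb
      | cons t s =>
        obtain ⟨v, w', rfl, hv, h1, h2, hw'⟩ := hs
        have hav : ∀ b ∈ a :: v, b ∈ B' := by
          intro b hb
          rcases List.mem_cons.1 hb with rfl | hb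
          · exact haB
          · exact hv b hb
        refine ⟨a :: (v ++ c :: w'), v1,
          ⟨(ev f (a :: v), ev g (a :: v)), a :: v, hav, rfl, rfl⟩ :: s, rfl, ?_, hv1⟩
        exact ⟨a :: v, w', rfl, hav, rfl, rfl, hw'⟩

theorem Par.exists_of (hc : c ∉ B') (w : List A) (h : ∀ a ∈ w, a ∈ B' ∨ a = c)
    (h2 : w = [] ∨ ∃ u, w = u ++ [c]) : ∃ s : List (TT f g B'), Par f g B' c s w := by
  rcases h2 with rfl | ⟨u, hu⟩
  · exact ⟨[], rfl⟩
  · obtain ⟨w1, v1, s, hw, hs, hv1⟩ := Par.exists_pre (f := f) (g := g) w h
    rcases List.eq_nil_or_concat v1 with rfl | ⟨v2, b, rfl⟩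
    · rw [List.append_nil] at hw
      subst hw
      exact ⟨s, hs⟩
    · exfalso
      have hb : b ∈ B' := hv1 b (by simp)
      rw [hu, List.concat_eq_append, ← List.append_assoc] at hw
      have := List.append_inj_right' hw rfl
      have hcb : c = b := by simpa using this
      exact hc (hcb ▸ hb)

theorem app_cons_inj : ∀ {v v2 w w2 : List A}, c ∉ v → c ∉ v2 →
    v ++ c :: w = v2 ++ c :: w2 → v = v2 ∧ w = w2 := by
  intro v
  induction v with
  | nil =>
    intro v2 w w2 _ h2 h
    cases v2 with
    | nil => simpa using h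
    | cons b v2 =>
      exfalso
      have h3 : c = b := by
        simp only [List.nil_append, List.cons_append, List.cons.injEq] at h
        exact h.1
      exact h2 (h3 ▸ List.mem_cons_self)
  | cons a v ih =>
    intro v2 w w2 h1 h2 h
    cases v2 with
    | nil =>
      exfalso
      have h3 : a = c := by
        simp only [List.nil_append, List.cons_append, List.cons.injEq] at h
        exact h.1
      exact h1 (h3 ▸ List.mem_cons_self)
    | cons b v2 =>
      simp only [List.cons_append, List.cons.injEq] at h
      obtain ⟨hab, h⟩ := h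
      obtain ⟨h4, h5⟩ := ih (fun hh => h1 (List.mem_cons_of_mem _ hh))
        (fun hh => h2 (List.mem_cons_of_mem _ hh)) h
      exact ⟨by rw [hab, h4], h5⟩

theorem Par.unique (hc : c ∉ B') : ∀ {s s' : List (TT f g B')} {w : List A},
    Par f g B' c s w → Par f g B' c s' w → s = s' := by
  intro s
  induction s with
  | nil =>
    intro s' w h h'
    have h : w = [] := h
    subst h
    cases s' with
    | nil => rfl
    | cons t s' =>
      obtain ⟨v, w', he, _⟩ := h'
      simp at he
  | cons t s ih =>
    intro s' w h h'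
    obtain ⟨v, w', rfl, hv, h1, h2, hw'⟩ := h
    cases s' with
    | nil =>
      have h' : v ++ c :: w' = [] := h'
      simp at h'
    | cons t' s' =>
      obtain ⟨v', w'', he, hv', h1', h2', hw''⟩ := h'
      obtain ⟨e1, e2⟩ := app_cons_inj (fun hh => hc (hv c hh)) (fun hh => hc (hv' c hh)) he
      subst e1
      subst e2
      have ht : t = t' := by
        apply Subtype.ext
        apply Prod.ext
        · rw [← h1, ← h1']
        · rw [← h2, ← h2']
      rw [ht, ih hw' hw'']

theorem Par.append : ∀ {s1 s2 : List (TT f g B')} {w1 w2 : List A},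
    Par f g B' c s1 w1 → Par f g B' c s2 w2 → Par f g B' c (s1 ++ s2) (w1 ++ w2) := by
  intro s1
  induction s1 with
  | nil =>
    intro s2 w1 w2 h1 h2
    have h1 : w1 = [] := h1
    subst h1
    exact h2
  | cons t s1 ih =>
    intro s2 w1 w2 h1 h2
    obtain ⟨v, w', rfl, hv, e1, e2, hw'⟩ := h1
    exact ⟨v, w' ++ w2, by simp, hv, e1, e2, ih hw' h2⟩

theorem Par.split : ∀ {s1 s2 : List (TT f g B')} {w : List A},
    Par f g B' c (s1 ++ s2) w → ∃ w1 w2, w = w1 ++ w2 ∧ Par f g B' c s1 w1 ∧
      Par f g B' c s2 w2 := by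
  intro s1
  induction s1 with
  | nil =>
    intro s2 w h
    exact ⟨[], w, rfl, rfl, h⟩
  | cons t s1 ih =>
    intro s2 w h
    obtain ⟨v, w', rfl, hv, e1, e2, hw'⟩ := h
    obtain ⟨w1, w2, rfl, h1, h2⟩ := ih hw'
    exact ⟨v ++ c :: w1, w2, by simp, ⟨v, w1, rfl, hv, e1, e2, h1⟩, h2⟩

theorem Par.exists_word : ∀ s : List (TT f g B'), ∃ w : List A, Par f g B' c s w := by
  intro s
  induction s with
  | nil => exact ⟨[], rfl⟩
  | cons t s ih =>
    obtain ⟨w, hw⟩ := ih
    obtain ⟨v, hv, h1, h2⟩ := t.2
    exact ⟨v ++ c :: w, v, w, rfl, hv, h1, h2, hw⟩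

/-- the letters of the local divisor -/
def fD (f : A → M) (g : A → T) (B' : Finset A) (c : A) : TT f g B' → LD (f c) := fun t =>
  ⟨f c * t.1.1 * f c, ⟨t.1.1 * f c, by rw [mul_assoc]⟩, ⟨f c * t.1.1, rfl⟩⟩

/-- the letters of the clock -/
def gD (f : A → M) (g : A → T) (B' : Finset A) (c : A) : TT f g B' → T := fun t =>
  t.1.2 * g c

theorem Par.ev_f : ∀ {s : List (TT f g B')} {w : List A}, Par f g B' c s w →
    (ev (fD f g B' c) s).1 = f c * ev f w := by
  intro s
  induction s with
  | nil =>
    intro w h
    have h : w = [] := h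
    subst h
    simp
  | cons t s ih =>
    intro w h
    obtain ⟨v, w', rfl, hv, e1, e2, hw'⟩ := h
    rw [ev_cons, LD.mul_val (fD f g B' c t) _ (f c * t.1.1) rfl, ih hw', ev_append, ev_cons,
      e1]
    simp only [mul_assoc]

theorem Par.ev_g : ∀ {s : List (TT f g B')} {w : List A}, Par f g B' c s w →
    ev (gD f g B' c) s = ev g w := by
  intro s
  induction s with
  | nil =>
    intro w h
    have h : w = [] := h
    subst h
    simp
  | cons t s ih =>
    intro w h
    obtain ⟨v, w', rfl, hv, e1, e2, hw'⟩ := h
    rw [ev_cons, ih hw', ev_append, ev_cons, e2]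
    show t.1.2 * g c * ev g w' = _
    rw [mul_assoc]

/-- the class transported to words of classes is good -/
theorem Par.good [Finite A] {C : Language A → Prop} (hC : Good C) (hc : c ∉ B')
    (h1 : ∀ t : TT f g B', C {v | (∀ a ∈ v, a ∈ B') ∧ ev f v = t.1.1 ∧ ev g v = t.1.2}) :
    Good (fun K : Language (TT f g B') => C {w | ∃ s ∈ K, Par f g B' c s w}) where
  zero := by
    refine hC.congr hC.zero ?_
    intro w
    constructor
    · intro h0; exact absurd h0 (Language.notMem_zero w)
    · rintro ⟨s, hs, _⟩
      exact absurd hs (Language.notMem_zero s)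
  one := by
    refine hC.congr hC.one ?_
    intro w
    constructor
    · intro h0
      have h0 : w = [] := (Language.mem_one w).1 h0
      exact ⟨[], (Language.mem_one _).2 rfl, h0⟩
    · rintro ⟨s, hs, hw⟩
      have hs : s = [] := (Language.mem_one s).1 hs
      subst hs
      exact (Language.mem_one w).2 hw
  char := by
    intro t
    refine hC.congr (hC.mul (h1 t) (hC.char c)) ?_
    intro w
    constructor
    · intro h0
      obtain ⟨v, ⟨hv, e1, e2⟩, x, hx, rfl⟩ := (Language.mem_mul).1 h0
      have hx : x = [c] := hx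
      subst hx
      exact ⟨[t], rfl, v, [], rfl, hv, e1, e2, rfl⟩
    · rintro ⟨s, hs, hw⟩
      have hs : s = [t] := hs
      subst hs
      obtain ⟨v, w', rfl, hv, e1, e2, hw'⟩ := hw
      have hw' : w' = [] := hw'
      subst hw'
      exact (Language.mem_mul).2 ⟨v, ⟨hv, e1, e2⟩, [c], rfl, rfl⟩
  add := by
    intro K L hK hL
    refine hC.congr (hC.add hK hL) ?_
    intro w
    constructor
    · rintro (⟨s, hs, hw⟩ | ⟨s, hs, hw⟩)
      · exact ⟨s, Or.inl hs, hw⟩
      · exact ⟨s, Or.inr hs, hw⟩
    · rintro ⟨s, hs | hs, hw⟩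
      · exact Or.inl ⟨s, hs, hw⟩
      · exact Or.inr ⟨s, hs, hw⟩
  mul := by
    intro K L hK hL
    refine hC.congr (hC.mul hK hL) ?_
    intro w
    constructor
    · intro h0
      obtain ⟨w1, ⟨s1, hs1, hw1⟩, w2, ⟨s2, hs2, hw2⟩, rfl⟩ := (Language.mem_mul).1 h0
      exact ⟨s1 ++ s2, (Language.mem_mul).2 ⟨s1, hs1, s2, hs2, rfl⟩, hw1.append hw2⟩
    · rintro ⟨s, hs, hw⟩
      obtain ⟨s1, hs1, s2, hs2, rfl⟩ := (Language.mem_mul).1 hs
      obtain ⟨w1, w2, rfl, h1, h2⟩ := hw.split
      exact (Language.mem_mul).2 ⟨w1, ⟨s1, hs1, h1⟩, w2, ⟨s2, hs2, h2⟩, rfl⟩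
  compl := by
    intro K hK
    have hall : C {w | ∃ s : List (TT f g B'), Par f g B' c s w} := by
      have ho := hC.overB (insert c B')
      have he : C {w : List A | w = [] ∨ ∃ u, w = u ++ [c]} := by
        refine hC.congr (hC.add hC.one (hC.mul hC.top (hC.char c))) ?_
        intro w
        constructor
        · rintro (h0 | h0)
          · exact Or.inl ((Language.mem_one w).1 h0)
          · obtain ⟨u, _, x, hx, rfl⟩ := (Language.mem_mul).1 h0
            have hx : x = [c] := hx
            subst hx
            exact Or.inr ⟨u, rfl⟩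
        · rintro (h0 | ⟨u, rfl⟩)
          · exact Or.inl ((Language.mem_one w).2 h0)
          · exact Or.inr ((Language.mem_mul).2 ⟨u, Set.mem_univ _, [c], rfl, rfl⟩)
      refine hC.congr (hC.inter ho he) ?_
      intro w
      constructor
      · rintro ⟨h1, h2⟩
        refine Par.exists_of hc w ?_ h2
        intro a ha
        rcases Finset.mem_insert.1 (h1 a ha) with h | h
        · exact Or.inr h
        · exact Or.inl h
      · rintro ⟨s, hs⟩
        obtain ⟨h1, h2⟩ := hs.overB
        refine ⟨?_, h2⟩
        intro a ha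
        rcases h1 a ha with h | h
        · exact Finset.mem_insert_of_mem h
        · exact h ▸ Finset.mem_insert_self _ _
    refine hC.congr (hC.inter hall (hC.not hK)) ?_
    intro w
    constructor
    · rintro ⟨⟨s, hs⟩, hn⟩
      exact ⟨s, fun hK' => hn ⟨s, hK', hs⟩, hs⟩
    · rintro ⟨s, hsK, hs⟩
      refine ⟨⟨s, hs⟩, ?_⟩
      rintro ⟨s', hs'K, hs'⟩
      rw [Par.unique hc hs hs'] at hsK
      exact hsK hs'K

end par

/-! ### the case of unit letters -/

theorem ev_units {A M : Type u} [Monoid M] (f : A → M) (w : List A) (h : ∀ a ∈ w, IsUnit (f a)) :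
    IsUnit (ev f w) := by
  induction w with
  | nil => simp
  | cons a w ih =>
    rw [ev_cons]
    exact (h a List.mem_cons_self).mul (ih (fun b hb => h b (List.mem_cons_of_mem a hb)))

theorem exists_unit_pow {M : Type u} [Monoid M] [Finite M] {u : M} (hu : IsUnit u) :
    ∃ r, 0 < r ∧ u ^ r = 1 := by
  obtain ⟨U, rfl⟩ := hu
  haveI : Finite Mˣ := Finite.of_injective (fun x : Mˣ => (x : M)) Units.val_injective
  obtain ⟨r, hr, h⟩ := isOfFinOrder_iff_pow_eq_one.1 (isOfFinOrder_of_finite U)
  refine ⟨r, hr, ?_⟩
  rw [← Units.val_pow_eq_pow_val, h, Units.val_one]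

theorem exists_idem_pow {T : Type u} [Monoid T] [Finite T] (x : T) :
    ∃ i d, 0 < d ∧ ∀ n k, i ≤ n → x ^ (n + d * k) = x ^ n := by
  obtain ⟨i, j, hij, h⟩ := Finite.exists_ne_map_eq_of_infinite (fun n : ℕ => x ^ n)
  wlog hlt : i < j generalizing i j with H
  · exact H j i (Ne.symm hij) h.symm (by omega)
  refine ⟨i, j - i, by omega, ?_⟩
  have h0 : x ^ i = x ^ j := h
  have h1 : ∀ n, i ≤ n → x ^ (n + (j - i)) = x ^ n := by
    intro n hn
    have e1 : n + (j - i) = (n - i) + j := by omega
    have e2 : n = (n - i) + i := by omega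
    rw [e1, pow_add, ← h0, ← pow_add, ← e2]
  intro n k hn
  induction k with
  | zero => simp
  | succ k ih =>
    have e3 : n + (j - i) * (k + 1) = (n + (j - i) * k) + (j - i) := by ring
    rw [e3, h1 _ (by omega), ih]

theorem unit_case {A M T : Type u} [Monoid M] [Finite M] [Monoid T] [Finite T] (f : A → M)
    (g : A → T)
    (hcond : ∀ w : List A, ev g w * ev g w = ev g w → ∃ k, ev f w ^ k = ev f w ^ (k + 1))
    (w w' : List A) (hw : IsUnit (ev f w)) (hw' : IsUnit (ev f w')) (e : ev g w = ev g w') :
    ev f w = ev f w' := by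
  obtain ⟨r, hr, hur⟩ := exists_unit_pow hw'
  obtain ⟨i, d, hd, hx⟩ := exists_idem_pow (ev g w')
  set N := (i + 1) * d * r with hN
  have hNpos : 0 < N := by positivity
  have hNi : i ≤ N := by
    have : i + 1 ≤ (i + 1) * d := Nat.le_mul_of_pos_right _ hd
    have h2 : (i + 1) * d ≤ (i + 1) * d * r := Nat.le_mul_of_pos_right _ hr
    omega
  have hNN : ev g w' ^ N * ev g w' ^ N = ev g w' ^ N := by
    rw [← pow_add]
    have e1 : N + N = N + d * ((i + 1) * r) := by rw [hN]; ring
    rw [e1, hx N _ hNi]
  have huN : ev f w' ^ N = 1 := by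
    have e1 : N = r * ((i + 1) * d) := by rw [hN]; ring
    rw [e1, pow_mul, hur, one_pow]
  obtain ⟨n, hn⟩ : ∃ n, N = n + 1 := ⟨N - 1, by omega⟩
  obtain ⟨k, hk⟩ := hcond (w ++ (List.replicate n w').flatten) (by
    rw [ev_append, ev_rep, e, ← pow_succ', ← hn, hNN])
  rw [ev_append, ev_rep] at hk
  have hz : IsUnit (ev f w * ev f w' ^ n) := hw.mul (hw'.pow n)
  have hz1 : ev f w * ev f w' ^ n = 1 := by
    have h2 := hz.pow k
    rw [pow_succ] at hk
    have h3 : (ev f w * ev f w' ^ n) ^ k * 1 = (ev f w * ev f w' ^ n) ^ k *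
        (ev f w * ev f w' ^ n) := by rw [mul_one]; exact hk
    exact (h2.mul_left_cancel h3).symm
  calc ev f w = ev f w * ev f w' ^ N := by rw [huN, mul_one]
    _ = (ev f w * ev f w' ^ n) * ev f w' := by rw [hn, pow_succ, mul_assoc]
    _ = ev f w' := by rw [hz1, one_mul]

/-! ### the main induction -/

theorem main_aux (n : ℕ) : ∀ (A M T : Type u) [Finite A] [Monoid M] [Finite M] [Monoid T]
    [Finite T] (f : A → M) (g : A → T) (C : Language A → Prop), Good C → Nat.card M ≤ n →
    (∀ w : List A, ev g w * ev g w = ev g w → ∃ k, ev f w ^ k = ev f w ^ (k + 1)) →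
    (∀ t, C {w | ev g w = t}) → ∀ m, C {w | ev f w = m} := by
  induction n with
  | zero =>
    intro A M T _ _ _ _ _ f g C hC hn
    exfalso
    have : 0 < Nat.card M := Nat.card_pos
    omega
  | succ n ihn =>
    intro A M T _ _ _ _ _ f g C hC hn hcond htau
    have key : ∀ (q : ℕ) (B : Finset A), B.card ≤ q → ∀ m,
        C {w | (∀ a ∈ w, a ∈ B) ∧ ev f w = m} := by
      intro q
      induction q with
      | zero =>
        intro B hB m
        have hB0 : B = ∅ := Finset.card_eq_zero.1 (by omega)
        subst hB0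
        refine hC.congr (hC.inter hC.one (hC.const ((1 : M) = m))) ?_
        intro w
        constructor
        · rintro ⟨h1, h2⟩
          have h1 : w = [] := (Language.mem_one w).1 h1
          subst h1
          exact ⟨by simp, by simpa using h2⟩
        · rintro ⟨h1, h2⟩
          have h3 : w = [] := by
            cases w with
            | nil => rfl
            | cons a w => exact absurd (h1 a List.mem_cons_self) (by simp)
          subst h3
          exact ⟨(Language.mem_one _).2 rfl, by simpa using h2⟩
      | succ q ihq =>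
        intro B hB m
        by_cases hall : ∀ a ∈ B, IsUnit (f a)
        · -- all letters are units
          have h1 := hC.exists_fin (fun (t : T) (w : List A) =>
            (∃ w0 : List A, (∀ a ∈ w0, a ∈ B) ∧ ev g w0 = t ∧ ev f w0 = m) ∧
              ((∀ a ∈ w, a ∈ B) ∧ ev g w = t))
            (fun t => hC.inter (hC.const _) (hC.inter (hC.overB B) (htau t)))
          refine hC.congr h1 ?_
          intro w
          constructor
          · rintro ⟨t, ⟨w0, h2, h3, h4⟩, h5, h6⟩
            refine ⟨h5, ?_⟩
            rw [← h4]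
            exact unit_case f g hcond w w0 (ev_units f w (fun a ha => hall a (h5 a ha)))
              (ev_units f w0 (fun a ha => hall a (h2 a ha))) (by rw [h6, h3])
          · rintro ⟨h5, h6⟩
            exact ⟨ev g w, ⟨w, h5, rfl, h6⟩, h5, rfl⟩
        · push Not at hall
          obtain ⟨c, hcB, hcu⟩ := hall
          set B' := B.erase c with hB'
          have hc : c ∉ B' := Finset.notMem_erase c B
          have hcard : B'.card ≤ q := by
            have := Finset.card_erase_of_mem hcB
            rw [← hB'] at this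
            omega
          have hB'C : ∀ m, C {w | (∀ a ∈ w, a ∈ B') ∧ ev f w = m} := ihq B' hcard
          have hmemB : ∀ a, a ∈ B ↔ (a ∈ B' ∨ a = c) := by
            intro a
            rw [hB', Finset.mem_erase]
            constructor
            · intro ha
              by_cases hac : a = c
              · exact Or.inr hac
              · exact Or.inl ⟨hac, ha⟩
            · rintro (⟨_, ha⟩ | rfl)
              · exact ha
              · exact hcB
          have hgood := Par.good (f := f) (g := g) (B' := B') (c := c) hC hc (by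
            intro t
            refine hC.congr (hC.inter (hB'C t.1.1) (htau t.1.2)) ?_
            intro w
            constructor
            · rintro ⟨⟨h1, h2⟩, h3⟩
              exact ⟨h1, h2, h3⟩
            · rintro ⟨h1, h2, h3⟩
              exact ⟨⟨h1, h2⟩, h3⟩)
          have hcard2 : Nat.card (LD (f c)) ≤ n := by
            have := LD.card_lt hcu
            omega
          have hLD := ihn (TT f g B') (LD (f c)) T (fD f g B' c) (gD f g B' c) _ hgood hcard2
            (by
              intro s hs
              obtain ⟨w, hw⟩ := Par.exists_word (f := f) (g := g) (B' := B') (c := c) s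
              rw [hw.ev_g] at hs
              obtain ⟨k, hk⟩ := hcond w hs
              refine ⟨k, ?_⟩
              apply LD.ext'
              rw [LD.pow_val _ _ hw.ev_f, LD.pow_val _ _ hw.ev_f, hk])
            (by
              intro t
              have hcompl := hgood.top
              have hall' : C {w | ∃ s : List (TT f g B'), Par f g B' c s w} := by
                refine hC.congr hcompl ?_
                intro w
                constructor
                · rintro ⟨s, _, hs⟩; exact ⟨s, hs⟩
                · rintro ⟨s, hs⟩; exact ⟨s, Set.mem_univ s, hs⟩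
              refine hC.congr (hC.inter hall' (htau t)) ?_
              intro w
              constructor
              · rintro ⟨⟨s, hs⟩, ht⟩
                have ht : ev g w = t := ht
                exact ⟨s, by show ev (gD f g B' c) s = t; rw [hs.ev_g, ht], hs⟩
              · rintro ⟨s, hst, hs⟩
                have hst : ev (gD f g B' c) s = t := hst
                exact ⟨⟨s, hs⟩, by show ev g w = t; rw [← hs.ev_g, hst]⟩)
          -- the final formula
          have hfin := hC.union (hB'C m) (hC.exists_fin
            (fun (x : M × LD (f c) × M) (w : List A) =>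
              (x.1 * x.2.1.1 * x.2.2 = m) ∧
              (∃ u v, w = u ++ v ∧
                (∃ v0 r, u = v0 ++ r ∧ ((∀ a ∈ v0, a ∈ B') ∧ ev f v0 = x.1) ∧
                  (∃ r1 r2, r = r1 ++ r2 ∧ r1 = [c] ∧
                    (∃ s, s ∈ ({s | ev (fD f g B' c) s = x.2.1} : Language (TT f g B')) ∧
                      Par f g B' c s r2))) ∧
                ((∀ a ∈ v, a ∈ B') ∧ ev f v = x.2.2)))
            (fun x => hC.inter (hC.const _)
              (hC.cat (hC.cat (hB'C x.1) (hC.cat (p := fun r1 => r1 = [c]) (hC.char c)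
                (hLD x.2.1))) (hB'C x.2.2))))
          refine hC.congr hfin ?_
          intro w
          constructor
          · rintro (⟨h1, h2⟩ | ⟨⟨m0, l, m1⟩, hm, u, v, rfl, ⟨v0, r, rfl, ⟨hv0, e0⟩, r1, r2,
              rfl, rfl, s, hs, hp⟩, hv, e1⟩)
            · exact ⟨fun a ha => (hmemB a).2 (Or.inl (h1 a ha)), h2⟩
            · have hm : m0 * l.1 * m1 = m := hm
              have e0 : ev f v0 = m0 := e0
              have e1 : ev f v = m1 := e1
              have hs : ev (fD f g B' c) s = l := hs
              constructor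
              · intro a ha
                rw [hmemB]
                simp only [List.mem_append, List.mem_singleton] at ha
                rcases ha with (ha | ha | ha) | ha
                · exact Or.inl (hv0 a ha)
                · exact Or.inr ha
                · exact hp.overB.1 a ha
                · exact Or.inl (hv a ha)
              · rw [← hm, ← hs, hp.ev_f]
                simp only [ev_append, ev_cons, ev_nil, e0, e1, mul_assoc, mul_one]
          · rintro ⟨h1, h2⟩
            obtain ⟨w1, v1, s, rfl, hs, hv1⟩ := Par.exists_pre (f := f) (g := g)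
              (B' := B') (c := c) w (fun a ha => (hmemB a).1 (h1 a ha))
            cases s with
            | nil =>
              have hs : w1 = [] := hs
              subst hs
              exact Or.inl ⟨hv1, h2⟩
            | cons t s =>
              right
              obtain ⟨v, w', rfl, hv, e1, e2, hw'⟩ := hs
              refine ⟨(ev f v, ev (fD f g B' c) s, ev f v1), ?_, v ++ ([c] ++ w'), v1, by simp,
                ⟨v, [c] ++ w', rfl, ⟨hv, rfl⟩, [c], w', rfl, rfl, s, rfl, hw'⟩, hv1, rfl⟩
              show ev f v * (ev (fD f g B' c) s).1 * ev f v1 = m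
              rw [hw'.ev_f, ← h2]
              simp only [ev_append, ev_cons, mul_assoc]
    intro m
    haveI := Fintype.ofFinite A
    refine hC.congr (key _ Finset.univ le_rfl m) ?_
    intro w
    constructor
    · rintro ⟨_, h⟩; exact h
    · intro h; exact ⟨fun a _ => Finset.mem_univ a, h⟩

/-- **Straubing's criterion, relative form**: if `f` is aperiodic on the words with idempotent
`g`-value and the fibres of `g` are in `C`, then the fibres of `f` are in `C`. -/
theorem straubing {A M T : Type u} [Finite A] [Monoid M] [Finite M] [Monoid T] [Finite T]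
    (f : A → M) (g : A → T) {C : Language A → Prop} (hC : Good C)
    (hcond : ∀ w : List A, ev g w * ev g w = ev g w → ∃ k, ev f w ^ k = ev f w ^ (k + 1))
    (htau : ∀ t, C {w | ev g w = t}) (m : M) : C {w | ev f w = m} :=
  main_aux (Nat.card M) A M T f g C hC le_rfl hcond htau m

end Crest.Agent.R320.Straub_932
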