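import Crest.Agent.R320.Hk2_851
import Crest.Agent.R320.Straub1_932

/-!
# Row 320, team 3: abstract level calculus (helper925)

`Forced h P`: a finite monoid whose classes have height `≤ h` forces `P` on its idempotent words.
-/

set_option autoImplicit false
set_option linter.all false

namespace Crest.Agent.R320.Abs_925

open Crest.Agent.R320.Hk_851 Crest.Agent.R320.Straub_932

universe u

variable {α : Type u}

/-- powers of a word -/
def pw (k : ℕ) (w : List α) : List α := (List.replicate k w).flatten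

@[simp] theorem pw_zero (w : List α) : pw 0 w = [] := by simp [pw]
theorem pw_succ (k : ℕ) (w : List α) : pw (k + 1) w = w ++ pw k w := by
  simp [pw, List.replicate_succ]
theorem pw_add (k l : ℕ) (w : List α) : pw (k + l) w = pw k w ++ pw l w := by
  unfold pw
  rw [← List.replicate_append_replicate, List.flatten_append]
theorem pw_one (w : List α) : pw 1 w = w := by simp [pw]
theorem pw_succ' (k : ℕ) (w : List α) : pw (k + 1) w = pw k w ++ w := by
  rw [pw_add, pw_one]
theorem pw_mul (k l : ℕ) (w : List α) : pw (k * l) w = pw k (pw l w) := by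
  induction k with
  | zero => simp
  | succ k ih => rw [Nat.succ_mul, pw_add, ih, pw_succ']

theorem good_HL (h : ℕ) : Good (fun L : Language α => HL h L) :=
  ⟨HL.zero, HL.one, HL.char, fun a b => a.add b, fun a b => a.mul b, fun a => a.compl⟩

/-- a finite monoid with classes of height `≤ h` forces `P` on idempotent words -/
def Forced (h : ℕ) (P : List α → Prop) : Prop :=
  ∃ (T : Type u) (_ : Monoid T) (_ : Finite T) (g : α → T),
    (∀ t, HL h ({w | ev g w = t} : Language α)) ∧ ∀ w, ev g w * ev g w = ev g w → P w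

theorem Forced.imp {h : ℕ} {P Q : List α → Prop} (hP : Forced h P) (hPQ : ∀ w, P w → Q w) :
    Forced h Q := by
  obtain ⟨T, i1, i2, g, h1, h2⟩ := hP
  exact ⟨T, i1, i2, g, h1, fun w hw => hPQ w (h2 w hw)⟩

theorem Forced.mono {h h' : ℕ} (hh : h ≤ h') {P : List α → Prop} (hP : Forced h P) :
    Forced h' P := by
  obtain ⟨T, i1, i2, g, h1, h2⟩ := hP
  exact ⟨T, i1, i2, g, fun t => (h1 t).mono hh, h2⟩

theorem Forced.triv {h : ℕ} {P : List α → Prop} (hP : ∀ w, P w) : Forced h P := by
  refine ⟨PUnit, inferInstance, inferInstance, fun _ => 1, fun t => ?_, fun w _ => hP w⟩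
  refine HL.top.congr fun w => ?_
  exact ⟨fun _ => trivial, fun _ => Subsingleton.elim _ _⟩

theorem ev_prod {T T' : Type u} [Monoid T] [Monoid T'] (g : α → T) (g' : α → T') (w : List α) :
    ev (fun a => (g a, g' a)) w = (ev g w, ev g' w) := by
  induction w with
  | nil => rfl
  | cons a w ih => rw [ev_cons, ev_cons, ev_cons, ih]; rfl

theorem Forced.and {h : ℕ} {P Q : List α → Prop} (hP : Forced h P) (hQ : Forced h Q) :
    Forced h (fun w => P w ∧ Q w) := by
  obtain ⟨T, i1, i2, g, h1, h2⟩ := hP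
  obtain ⟨T', i1', i2', g', h1', h2'⟩ := hQ
  refine ⟨T × T', inferInstance, inferInstance, fun a => (g a, g' a), ?_, ?_⟩
  · rintro ⟨t, t'⟩
    refine ((h1 t).inf (h1' t')).congr fun w => ?_
    change ev (fun a => (g a, g' a)) w = (t, t') ↔ ev g w = t ∧ ev g' w = t'
    rw [ev_prod, Prod.mk.injEq]
  · intro w hw
    rw [ev_prod] at hw
    have := Prod.mk.inj hw
    exact ⟨h2 w this.1, h2' w this.2⟩

theorem Forced.biAll {h : ℕ} {ι : Type*} {s : Set ι} (hs : s.Finite) {P : ι → List α → Prop}
    (hP : ∀ i ∈ s, Forced h (P i)) : Forced h (fun w => ∀ i ∈ s, P i w) := by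
  induction s, hs using Set.Finite.induction_on with
  | empty => exact Forced.triv fun w i hi => hi.elim
  | insert _ _ ih =>
    have h1 := (hP _ (Set.mem_insert _ _)).and (ih fun i hi => hP i (Set.mem_insert_of_mem _ hi))
    refine h1.imp fun w hw i hi => ?_
    rcases hi with rfl | hi
    · exact hw.1
    · exact hw.2 i hi

/-- the syntactic congruence of `X` cannot see the exponent of `w` -/
def Idem (X : Language α) (w : List α) : Prop :=
  ∀ (x y : List α) (k l : ℕ), 1 ≤ k → 1 ≤ l → (x ++ pw k w ++ y ∈ X ↔ x ++ pw l w ++ y ∈ X)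

/-- syntactic congruence as a `Con` on the free monoid -/
def syn (X : Language α) : Con (FreeMonoid α) where
  r u v := ∀ x y : List α, x ++ FreeMonoid.toList u ++ y ∈ X ↔ x ++ FreeMonoid.toList v ++ y ∈ X
  iseqv := ⟨fun _ _ _ => Iff.rfl, fun h x y => (h x y).symm, fun h1 h2 x y => (h1 x y).trans (h2 x y)⟩
  mul' := by
    intro a b c d h1 h2 x y
    have e1 := h1 x (FreeMonoid.toList c ++ y)
    have e2 := h2 (x ++ FreeMonoid.toList b) y
    simp only [FreeMonoid.toList_mul, ← List.append_assoc] at e1 e2 ⊢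
    exact e1.trans e2

abbrev Syn (X : Language α) := (syn X).Quotient

def syng (X : Language α) (a : α) : Syn X := ((FreeMonoid.of a : FreeMonoid α) : (syn X).Quotient)

theorem ev_syng (X : Language α) (w : List α) :
    ev (syng X) w = ((FreeMonoid.ofList w : FreeMonoid α) : (syn X).Quotient) := by
  induction w with
  | nil => simp
  | cons a w ih => rw [ev_cons, ih]; rfl

theorem ev_syng_eq {X : Language α} {u v : List α} :
    ev (syng X) u = ev (syng X) v ↔ ∀ x y : List α, x ++ u ++ y ∈ X ↔ x ++ v ++ y ∈ X := by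
  rw [ev_syng, ev_syng, Con.eq]
  exact Iff.rfl

theorem finite_Syn {X : Language α} (hX : X.IsRegular) : Finite (Syn X) := by
  obtain ⟨σ, hσ, M, rfl⟩ := Language.isRegular_iff.{u, u}.1 hX
  haveI : Finite σ := hσ.finite
  haveI : Finite (σ → σ) := Pi.finite
  refine Finite.of_injective (β := σ → σ)
    (fun t => fun q => M.evalFrom q (FreeMonoid.toList (Quotient.out t))) ?_
  intro t t' h
  rw [← Quotient.out_eq t, ← Quotient.out_eq t']
  refine Quotient.sound ?_
  intro x y
  have h' := fun q => congrFun h q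
  simp only at h'
  change M.evalFrom M.start _ ∈ M.accept ↔ M.evalFrom M.start _ ∈ M.accept
  rw [DFA.evalFrom_of_append, DFA.evalFrom_of_append, DFA.evalFrom_of_append,
    DFA.evalFrom_of_append, h']

theorem HL_ctx {h : ℕ} {X : Language α} (hX : HL h X) (x y : List α) :
    HL h ({w | x ++ w ++ y ∈ X} : Language α) := by
  exact ((hX.rquot y).lquot x).congr fun w => Iff.rfl

theorem HL_synclass {h : ℕ} {X : Language α} (hX : HL h X) (hr : X.IsRegular) (u : List α) :
    HL h ({w | ∀ x y : List α, x ++ w ++ y ∈ X ↔ x ++ u ++ y ∈ X} : Language α) := by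
  obtain ⟨σ, hσ, M, rfl⟩ := Language.isRegular_iff.{u, u}.1 hr
  haveI : Finite σ := hσ.finite
  let c : List α × List α → σ × Set σ := fun p =>
    (M.evalFrom M.start p.1, {q | M.evalFrom q p.2 ∈ M.accept})
  haveI : Finite (Set.range c) := Set.toFinite _
  have hfin := HL.iInter (ι := Set.range c) (k := h)
    (L := fun i => ({w | i.2.choose.1 ++ w ++ i.2.choose.2 ∈ M.accepts ↔
      i.2.choose.1 ++ u ++ i.2.choose.2 ∈ M.accepts} : Language α))
    (fun i => HL.setOf_iff (HL_ctx hX _ _) (HL.const _))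
  refine hfin.congr fun w => ?_
  have key : ∀ p p' : List α × List α, c p = c p' → ∀ v : List α,
      (p.1 ++ v ++ p.2 ∈ M.accepts ↔ p'.1 ++ v ++ p'.2 ∈ M.accepts) := by
    intro p p' hp v
    have h1 : M.evalFrom M.start p.1 = M.evalFrom M.start p'.1 := congrArg Prod.fst hp
    have h2 : ({q | M.evalFrom q p.2 ∈ M.accept} : Set σ) = {q | M.evalFrom q p'.2 ∈ M.accept} :=
      congrArg Prod.snd hp
    change M.evalFrom M.start _ ∈ M.accept ↔ M.evalFrom M.start _ ∈ M.accept
    rw [DFA.evalFrom_of_append, DFA.evalFrom_of_append, DFA.evalFrom_of_append,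
      DFA.evalFrom_of_append, h1]
    exact Set.ext_iff.1 h2 _
  constructor
  · intro hw i
    exact hw _ _
  · intro hw x y
    have h1 := hw ⟨c (x, y), (x, y), rfl⟩
    have h2 := (⟨(x, y), rfl⟩ : ∃ p, c p = c (x, y)).choose_spec
    have h3 := key _ _ h2
    exact (h3 w).symm.trans (h1.trans (h3 u))

theorem HL_synfib {h : ℕ} {X : Language α} (hX : HL h X) (hr : X.IsRegular) (t : Syn X) :
    HL h ({w | ev (syng X) w = t} : Language α) := by
  obtain ⟨u, rfl⟩ : ∃ u : List α, ev (syng X) u = t := by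
    refine ⟨FreeMonoid.toList (Quotient.out t), ?_⟩
    rw [ev_syng]
    exact Quotient.out_eq t
  exact (HL_synclass hX hr u).congr fun w => ev_syng_eq

/-- a regular language of height `≤ h` forces its own `Idem` -/
theorem Forced.idem {h : ℕ} {X : Language α} (hX : HL h X) (hr : X.IsRegular) :
    Forced h (Idem X) := by
  haveI := finite_Syn hr
  refine ⟨Syn X, inferInstance, inferInstance, syng X, HL_synfib hX hr, ?_⟩
  intro w hw x y k l hk hl
  have hp : ∀ k, 1 ≤ k → ev (syng X) (pw k w) = ev (syng X) w := by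
    intro k hk
    have : ev (syng X) (pw k w) = ev (syng X) w ^ k := ev_rep _ _ _
    rw [this]
    have hid : IsIdempotentElem (ev (syng X) w) := hw
    exact hid.pow_eq (by omega)
  exact ev_syng_eq.1 ((hp k hk).trans (hp l hl).symm) x y

/-- membership in `L` of `x w^k y` is eventually constant -/
def EvConst (L : Language α) (w : List α) : Prop :=
  ∀ x y : List α, ∃ n, ∀ k, n ≤ k → (x ++ pw k w ++ y ∈ L ↔ x ++ pw (k + 1) w ++ y ∈ L)

theorem aper_of_evConst {L : Language α} (hr : L.IsRegular) {w : List α} (hw : EvConst L w) :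
    ∃ k, ev (syng L) w ^ k = ev (syng L) w ^ (k + 1) := by
  haveI := finite_Syn hr
  set a := ev (syng L) w with ha
  obtain ⟨i, j, hij, he⟩ : ∃ i j : ℕ, i < j ∧ a ^ i = a ^ j := by
    obtain ⟨i, j, hne, he⟩ := Finite.exists_ne_map_eq_of_infinite (fun n : ℕ => a ^ n)
    rcases lt_or_gt_of_ne hne with h | h
    · exact ⟨i, j, h, he⟩
    · exact ⟨j, i, h, he.symm⟩
  refine ⟨i, ?_⟩
  have hper : ∀ m k, i ≤ k → a ^ (k + m * (j - i)) = a ^ k := by
    intro m
    induction m with
    | zero => intro k _; simp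
    | succ m ih =>
      intro k hk
      have e1 : k + (m + 1) * (j - i) = (k + (j - i)) + m * (j - i) := by ring
      rw [e1, ih _ (by omega)]
      have e2 : k + (j - i) = (k - i) + j := by omega
      rw [e2, pow_add, ← he, ← pow_add]
      congr 1
      omega
  have hp : ∀ k, ev (syng L) (pw k w) = a ^ k := fun k => ev_rep _ _ _
  rw [← hp, ← hp, ev_syng_eq]
  intro x y
  obtain ⟨n, hn⟩ := hw x y
  have h1 : ∀ k, i ≤ k → (x ++ pw k w ++ y ∈ L ↔ x ++ pw (k + n * (j - i)) w ++ y ∈ L) := by
    intro k hk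
    refine (ev_syng_eq (X := L)).1 ?_ x y
    rw [hp, hp, hper n k hk]
  have hge : n ≤ n * (j - i) := Nat.le_mul_of_pos_right _ (by omega)
  rw [h1 i le_rfl, h1 (i + 1) (by omega)]
  have := hn (i + n * (j - i)) (by omega)
  rw [this]
  have e : i + n * (j - i) + 1 = i + 1 + n * (j - i) := by ring
  rw [e]

/-- **height of a regular language from forced eventual constancy** -/
theorem HL_of_forced [Finite α] {h : ℕ} {L : Language α} (hr : L.IsRegular)
    (hF : Forced h (EvConst L)) : HL h L := by
  haveI := finite_Syn hr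
  obtain ⟨T, i1, i2, g, h1, h2⟩ := hF
  have hfib : ∀ m : Syn L, HL h ({w | ev (syng L) w = m} : Language α) := fun m =>
    straubing (syng L) g (good_HL h) (fun w hw => aper_of_evConst hr (h2 w hw)) h1 m
  have := HL.biUnion (k := h) (Set.toFinite {m : Syn L | ∃ w ∈ L, ev (syng L) w = m})
    (L := fun m => ({w | ev (syng L) w = m} : Language α)) (fun m _ => hfib m)
  refine this.congr fun w => ?_
  constructor
  · intro hw; exact ⟨_, ⟨w, hw, rfl⟩, rfl⟩
  · rintro ⟨m, ⟨v, hv, hvm⟩, hwm⟩
    have hwm' : ev (syng L) w = m := hwm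
    have := (ev_syng_eq.1 (hwm'.trans hvm.symm)) [] []
    simpa using this.2 (by simpa using hv)

/-- the final form: fibres of a monoid map -/
theorem HL_fib [Finite α] {h : ℕ} {S : Type u} [Monoid S] [Finite S] (f : α → S)
    (hF : Forced h (fun w => ∃ k, ev f w ^ k = ev f w ^ (k + 1))) (s : S) :
    HL h ({w | ev f w = s} : Language α) := by
  obtain ⟨T, i1, i2, g, h1, h2⟩ := hF
  exact straubing f g (good_HL h) h2 h1 s

end Crest.Agent.R320.Abs_925
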