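import Mathlib

/-!
Row 320, helper420: GADGET1 = zone gadget of scheme 1 of the chain 811 / 755 / 132:
names + fixed levels read off small walls + the function `F` of 237.
Pure statement on lists.
-/

set_option autoImplicit false
set_option linter.unusedSectionVars false

namespace Crest.Agent.R320.Gad1_420

open Finset

variable {α : Type*}

/-- A right-looking rule with window `n`. -/
structure Rule (R : List α → Prop) (n : ℕ) : Prop where
  pos : 0 < n
  loc : ∀ Q, R Q ↔ R (Q.take n)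
  len : ∀ Q, R Q → n ≤ Q.length

theorem Rule.app {R : List α → Prop} {n : ℕ} (hR : Rule R n) {Q X : List α}
    (h : n ≤ Q.length) : R (Q ++ X) ↔ R Q := by
  rw [hR.loc (Q ++ X), hR.loc Q, List.take_append_of_le_length h]

/-- first wall at or after `t` (junk if there is none). -/
noncomputable def fw (R : List α → Prop) (Q : List α) (t : ℕ) : ℕ :=
  sInf {s | t ≤ s ∧ R (Q.drop s)}

theorem fw_spec {R : List α → Prop} {Q : List α} {t : ℕ} (h : ∃ s, t ≤ s ∧ R (Q.drop s)) :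
    t ≤ fw R Q t ∧ R (Q.drop (fw R Q t)) :=
  Nat.sInf_mem (s := {s | t ≤ s ∧ R (Q.drop s)}) h

theorem fw_le {R : List α → Prop} {Q : List α} {t s : ℕ} (h1 : t ≤ s) (h2 : R (Q.drop s)) :
    fw R Q t ≤ s := Nat.sInf_le ⟨h1, h2⟩

theorem drop_app_left {P Q : List α} {s : ℕ} (h : s ≤ P.length) :
    (P ++ Q).drop s = P.drop s ++ Q := List.drop_append_of_le_length h

theorem drop_app_right {P Q : List α} {s : ℕ} :
    (P ++ Q).drop (P.length + s) = Q.drop s := by
  simp [List.drop_append]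

theorem Rule.wall_left {R : List α → Prop} {n : ℕ} (hR : Rule R n) {P Q : List α} {s : ℕ}
    (h : s + n ≤ P.length) : R ((P ++ Q).drop s) ↔ R (P.drop s) := by
  rw [drop_app_left (by omega)]
  exact hR.app (by rw [List.length_drop]; omega)

theorem Rule.wall_fit {R : List α → Prop} {n : ℕ} (hR : Rule R n) {P : List α} {s : ℕ}
    (h : R (P.drop s)) : s + n ≤ P.length := by
  have h1 := hR.len _ h
  have h2 := hR.pos
  rw [List.length_drop] at h1
  omega

theorem fw_left {R : List α → Prop} {n : ℕ} (hR : Rule R n) {P Q : List α} {t : ℕ}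
    (h : ∃ s, t ≤ s ∧ R (P.drop s)) : fw R (P ++ Q) t = fw R P t := by
  obtain ⟨h1, h2⟩ := fw_spec h
  have h3 := hR.wall_fit h2
  have h4 : R ((P ++ Q).drop (fw R P t)) := (hR.wall_left h3).2 h2
  apply le_antisymm (fw_le h1 h4)
  obtain ⟨h5, h6⟩ := fw_spec ⟨_, h1, h4⟩
  by_contra hlt
  push Not at hlt
  have h7 : fw R (P ++ Q) t + n ≤ P.length := by omega
  have := fw_le h5 ((hR.wall_left h7).1 h6)
  omega

theorem fw_right {R : List α → Prop} {P Q : List α} {t : ℕ}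
    (h : ∃ s, t ≤ s ∧ R (Q.drop s)) : fw R (P ++ Q) (P.length + t) = P.length + fw R Q t := by
  obtain ⟨h1, h2⟩ := fw_spec h
  have h4 : R ((P ++ Q).drop (P.length + fw R Q t)) := by rwa [drop_app_right]
  apply le_antisymm (fw_le (by omega) h4)
  obtain ⟨h5, h6⟩ := fw_spec (R := R) (Q := P ++ Q) (t := P.length + t) ⟨_, by omega, h4⟩
  obtain ⟨u, hu⟩ := Nat.exists_eq_add_of_le (le_trans (Nat.le_add_right _ _) h5)
  rw [hu, drop_app_right] at h6
  have := fw_le (t := t) (by omega) h6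
  omega

theorem fw_doubt {R : List α → Prop} {Q : List α} {t u : ℕ} (htu : t ≤ u)
    (h : ∃ s, u ≤ s ∧ R (Q.drop s)) (hn : ∀ s, t ≤ s → s < u → ¬ R (Q.drop s)) :
    fw R Q t = fw R Q u := by
  obtain ⟨h1, h2⟩ := fw_spec h
  apply le_antisymm (fw_le (by omega) h2)
  obtain ⟨h5, h6⟩ := fw_spec (R := R) (Q := Q) (t := t) ⟨_, by omega, h2⟩
  rcases lt_or_ge (fw R Q t) u with h7 | h7
  · exact absurd h6 (hn _ h5 h7)
  · exact fw_le h7 h6

/-- the factor `[a, b)`. -/
def seg (Y : List α) (a b : ℕ) : List α := (Y.drop a).take (b - a)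

theorem seg_left {P Q : List α} {a b : ℕ} (hab : a ≤ b) (hb : b ≤ P.length) :
    seg (P ++ Q) a b = seg P a b := by
  unfold seg
  rw [drop_app_left (by omega), List.take_append_of_le_length (by rw [List.length_drop]; omega)]

theorem seg_right {P Q : List α} {a b : ℕ} :
    seg (P ++ Q) (P.length + a) (P.length + b) = seg Q a b := by
  unfold seg
  rw [drop_app_right, Nat.add_sub_add_left]

theorem seg_split {Y : List α} {a b : ℕ} (hab : a ≤ b) :
    Y.take a ++ seg Y a b ++ Y.drop b = Y := by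
  have : Y.drop b = (Y.drop a).drop (b - a) := by
    rw [List.drop_drop]; congr 1; omega
  unfold seg
  rw [this, List.append_assoc, List.take_append_drop, List.take_append_drop]

/-- The data of the gadget. -/
structure Dat (α S V W : Type*) where
  φ : List α → S
  act : V → S → V
  m : ℕ
  e : ℕ → S → W
  F : S → W → V
  R : List α → Prop
  n : ℕ
  G : ℕ
  M : ℕ
  M' : ℕ
  A : ℕ → ℕ
  A' : ℕ → ℕ
  LN : ℕ → Fin m × S × W × S × W × V → Prop
  RN : ℕ → Fin m × S × W × S × W × V → Prop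

variable {S V W : Type*} [Monoid S] [AddCommGroup V] [AddCommGroup W] (D : Dat α S V W)

/-- position of level `k`. -/
noncomputable def Dat.H (Y : List α) (k : ℕ) : ℕ := fw D.R Y (D.A k)

/-- product of the hole `k`. -/
noncomputable def Dat.zz (Y : List α) (k : ℕ) : S := D.φ (seg Y (D.H Y k) (D.H Y (k + 1)))

/-- weight of a zone. -/
noncomputable def Dat.ww (Y : List α) : W := ∑ k ∈ range D.m, D.e k (D.zz Y k)

/-- end value of a name. -/
def Dat.bb (i : ℕ) (g : S) (wl : W) (h : S) (wr : W) (v : V) : V :=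
  D.F (g * 1 * h) (wl + D.e i 1 + wr) + D.act v (g * 1 * h)

/-- good names. -/
def Dat.ok (i : ℕ) (g : S) (wl : W) (h : S) (wr : W) (v : V) : Prop :=
  ∀ z, D.F (g * z * h) (wl + D.e i z + wr) + D.act v (g * z * h) = D.bb i g wl h wr v

/-- left legality for a name. -/
def Dat.LL (i : Fin D.m) (g : S) (wl : W) (h : S) (wr : W) (v : V) (P : List α) : Prop :=
  D.ok i g wl h wr v ∧ D.M' ∣ P.length ∧ D.A' i ≤ P.length ∧ P.length < D.A' i + D.M' * D.M ∧
  D.LN (P.length / D.M') (i, g, wl, h, wr, v) ∧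
  (∀ k, k ≤ (i : ℕ) → ∃ s, D.A k ≤ s ∧ D.R (P.drop s)) ∧
  g = D.φ (P.take (D.H P i)) ∧ wl = ∑ k ∈ range i, D.e k (D.zz P k)

/-- level `k` as seen from the right, for a name of level `i`. -/
noncomputable def Dat.HQ (i : ℕ) (Q : List α) (k : ℕ) : ℕ := fw D.R Q (D.A k - D.A' i)

/-- visibility from the right at level `i`. -/
def Dat.Vis (i : ℕ) (Q : List α) : Prop :=
  ∀ k, i < k → k ≤ D.m → (∃ s, D.A k - D.A' i ≤ s ∧ D.R (Q.drop s)) ∧
    (∀ s, D.A k ≤ s + D.A' i + D.M' * D.M → s + D.A' i < D.A k → ¬ D.R (Q.drop s))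

/-- right legality for a name. -/
def Dat.RR (i : Fin D.m) (g : S) (wl : W) (h : S) (wr : W) (v : V) (Q : List α) : Prop :=
  D.ok i g wl h wr v ∧ D.RN (Q.length / D.M') (i, g, wl, h, wr, v) ∧ D.Vis i Q ∧
  h = D.φ (Q.drop (D.HQ i Q (i + 1))) ∧
  wr = ∑ k ∈ Ico ((i : ℕ) + 1) D.m, D.e k (D.φ (seg Q (D.HQ i Q k) (D.HQ i Q (k + 1))))

/-- The geometric hypotheses. -/
structure Geo (D : Dat α S V W) : Prop where
  hφ : ∀ u v, D.φ (u ++ v) = D.φ u * D.φ v
  rule : Rule D.R D.n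
  mono : ∀ k, D.A k ≤ D.A (k + 1)
  next : ∀ i k, i < k → D.A' i + D.M' * D.M ≤ D.A k
  cell : ∀ k, D.A k + D.G + D.n ≤ D.A' k
  dvd : ∀ k, D.M' ∣ D.A' k
  M'pos : 0 < D.M'

variable {D}

theorem Geo.monoA (hD : Geo D) {i k : ℕ} (h : i ≤ k) : D.A i ≤ D.A k :=
  monotone_nat_of_le_succ hD.mono h

theorem H_left (hD : Geo D) {P Q : List α} {k : ℕ} (h : ∃ s, D.A k ≤ s ∧ D.R (P.drop s)) :
    D.H (P ++ Q) k = D.H P k := fw_left hD.rule h

theorem H_fit (hD : Geo D) {P : List α} {k : ℕ} (h : ∃ s, D.A k ≤ s ∧ D.R (P.drop s)) :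
    D.H P k + D.n ≤ P.length := hD.rule.wall_fit (fw_spec h).2

theorem H_mono (hD : Geo D) {Y : List α} {k : ℕ} (h : ∃ s, D.A (k + 1) ≤ s ∧ D.R (Y.drop s)) :
    D.H Y k ≤ D.H Y (k + 1) := by
  obtain ⟨h1, h2⟩ := fw_spec h
  exact fw_le ((hD.mono k).trans h1) h2

theorem H_right (hD : Geo D) {P Q : List α} {i k : ℕ} (hik : i < k) (hkm : k ≤ D.m)
    (h1 : D.A' i ≤ P.length) (h2 : P.length < D.A' i + D.M' * D.M) (hv : D.Vis i Q) :
    D.H (P ++ Q) k = P.length + D.HQ i Q k := by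
  have h3 := hD.next i k hik
  obtain ⟨⟨s, hs1, hs2⟩, h5⟩ := hv k hik hkm
  have h6 : D.A k = P.length + (D.A k - P.length) := by omega
  unfold Dat.H Dat.HQ
  rw [h6, fw_right ⟨s, by omega, hs2⟩]
  congr 1
  have h7 : P.length + (D.A k - P.length) - D.A' i = D.A k - D.A' i := by omega
  rw [h7]
  refine fw_doubt (by omega) ⟨s, hs1, hs2⟩ ?_
  intro s h8 h9
  exact h5 s (by omega) (by omega)

/-- reading a junction whose two sides see the level structure at level `i`. -/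
theorem read (hD : Geo D) {P Q : List α} {i : ℕ} (him : i < D.m)
    (h1 : D.A' i ≤ P.length) (h2 : P.length < D.A' i + D.M' * D.M)
    (hl : ∀ k, k ≤ i → ∃ s, D.A k ≤ s ∧ D.R (P.drop s)) (hv : D.Vis i Q) :
    D.φ ((P ++ Q).take (D.H (P ++ Q) i)) = D.φ (P.take (D.H P i)) ∧
    (∑ k ∈ range i, D.e k (D.zz (P ++ Q) k)) = (∑ k ∈ range i, D.e k (D.zz P k)) ∧
    D.φ ((P ++ Q).drop (D.H (P ++ Q) (i + 1))) = D.φ (Q.drop (D.HQ i Q (i + 1))) ∧
    (∑ k ∈ Ico (i + 1) D.m, D.e k (D.zz (P ++ Q) k)) =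
      ∑ k ∈ Ico (i + 1) D.m, D.e k (D.φ (seg Q (D.HQ i Q k) (D.HQ i Q (k + 1)))) ∧
    D.φ (P ++ Q) = D.φ ((P ++ Q).take (D.H (P ++ Q) i)) * D.zz (P ++ Q) i *
      D.φ ((P ++ Q).drop (D.H (P ++ Q) (i + 1))) ∧
    D.ww (P ++ Q) = (∑ k ∈ range i, D.e k (D.zz (P ++ Q) k)) + D.e i (D.zz (P ++ Q) i) +
      ∑ k ∈ Ico (i + 1) D.m, D.e k (D.zz (P ++ Q) k) := by
  have hH : ∀ k, k ≤ i → D.H (P ++ Q) k = D.H P k := fun k hk => H_left hD (hl k hk)
  have hHf : ∀ k, k ≤ i → D.H P k ≤ P.length := fun k hk => by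
    have := H_fit hD (hl k hk)
    omega
  have hHr : ∀ k, i < k → k ≤ D.m → D.H (P ++ Q) k = P.length + D.HQ i Q k :=
    fun k hk hkm => H_right hD hk hkm h1 h2 hv
  refine ⟨?_, ?_, ?_, ?_, ?_, ?_⟩
  · rw [hH i le_rfl, List.take_append_of_le_length (hHf i le_rfl)]
  · refine Finset.sum_congr rfl fun k hk => ?_
    have hk' := Finset.mem_range.1 hk
    have h3 := hH k hk'.le
    have h4 := hH (k + 1) hk'
    unfold Dat.zz
    rw [h3, h4, seg_left (H_mono hD (hl (k + 1) hk')) (hHf (k + 1) hk')]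
  · rw [hHr (i + 1) (Nat.lt_succ_self i) him, drop_app_right]
  · refine Finset.sum_congr rfl fun k hk => ?_
    obtain ⟨hk1, hk2⟩ := Finset.mem_Ico.1 hk
    have h3 := hHr k (by omega) (by omega)
    have h4 := hHr (k + 1) (by omega) (by omega)
    unfold Dat.zz
    rw [h3, h4, seg_right]
  · have h5 : D.H (P ++ Q) i ≤ D.H (P ++ Q) (i + 1) := by
      rw [hH i le_rfl, hHr (i + 1) (Nat.lt_succ_self i) him]
      exact (hHf i le_rfl).trans (Nat.le_add_right _ _)
    have h6 := seg_split (Y := P ++ Q) h5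
    conv_lhs => rw [← h6]
    rw [hD.hφ, hD.hφ]
    rfl
  · unfold Dat.ww
    rw [← Finset.sum_range_add_sum_Ico _ (show i + 1 ≤ D.m from him), Finset.sum_range_succ]

open Classical in
/-- left label. -/
noncomputable def Dat.Lf (D : Dat α S V W) (P : List α) : Option V :=
  if h : ∃ c : Fin D.m × S × W × S × W × V,
      D.LL c.1 c.2.1 c.2.2.1 c.2.2.2.1 c.2.2.2.2.1 c.2.2.2.2.2 P then
    some h.choose.2.2.2.2.2 else none

open Classical in
/-- right label. -/
noncomputable def Dat.Rf (D : Dat α S V W) (Q : List α) : Option V :=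
  if h : ∃ c : Fin D.m × S × W × S × W × V,
      D.RR c.1 c.2.1 c.2.2.1 c.2.2.2.1 c.2.2.2.2.1 c.2.2.2.2.2 Q then
    some (D.bb h.choose.1 h.choose.2.1 h.choose.2.2.1 h.choose.2.2.2.1 h.choose.2.2.2.2.1
      h.choose.2.2.2.2.2) else none

theorem Lf_some {P : List α} {v : V} (h : D.Lf P = some v) :
    ∃ (i : Fin D.m) (g : S) (wl : W) (h : S) (wr : W), D.LL i g wl h wr v P := by
  classical
  unfold Dat.Lf at h
  split_ifs at h with h1
  · have := h1.choose_spec
    rw [Option.some.injEq] at h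
    rw [h] at this
    exact ⟨_, _, _, _, _, this⟩

theorem Rf_some {Q : List α} {r : V} (h : D.Rf Q = some r) :
    ∃ (i : Fin D.m) (g : S) (wl : W) (h : S) (wr : W) (v : V),
      D.RR i g wl h wr v Q ∧ r = D.bb i g wl h wr v := by
  classical
  unfold Dat.Rf at h
  split_ifs at h with h1
  · have := h1.choose_spec
    rw [Option.some.injEq] at h
    exact ⟨_, _, _, _, _, _, this, h.symm⟩

theorem Lf_isSome {P : List α} {i : Fin D.m} {g : S} {wl : W} {h : S} {wr : W} {v : V}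
    (hc : D.LL i g wl h wr v P) : ∃ v', D.Lf P = some v' := by
  classical
  unfold Dat.Lf
  rw [dif_pos ⟨(i, g, wl, h, wr, v), hc⟩]
  exact ⟨_, rfl⟩

theorem Rf_isSome {Q : List α} {i : Fin D.m} {g : S} {wl : W} {h : S} {wr : W} {v : V}
    (hc : D.RR i g wl h wr v Q) : (D.Rf Q).isSome := by
  classical
  unfold Dat.Rf
  rw [dif_pos ⟨(i, g, wl, h, wr, v), hc⟩]
  rfl

/-- The name system. -/
structure Names (D : Dat α S V W) (good : ℕ → Prop) : Prop where
  n1 : ∀ T, good T → ∀ o o' c c', o + o' = T → D.LN o c → D.RN o' c' → c = c'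
  n2 : ∀ T, good T → ∀ c s, s + D.M ≤ T → ∃ o, s ≤ o ∧ o < s + D.M ∧ D.LN o c ∧ D.RN (T - o) c
  n3 : ∀ T, ¬ good T → ∃ v0 r0 : V, ∀ o o' c c', o + o' = T → D.LN o c → D.RN o' c' →
    c.2.2.2.2.2 = v0 ∧ D.bb c'.1 c'.2.1 c'.2.2.1 c'.2.2.2.1 c'.2.2.2.2.1 c'.2.2.2.2.2 = r0

theorem clock_add (hD : Geo D) {P Q : List α} (h : D.M' ∣ P.length) :
    P.length / D.M' + Q.length / D.M' = (P ++ Q).length / D.M' := by
  obtain ⟨o, ho⟩ := h
  rw [List.length_append, ho, Nat.mul_div_cancel_left _ hD.M'pos, Nat.mul_add_div hD.M'pos]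

/-- GADGET1: existence of exact labels and noise for ALL pairs, completeness outside the
thin bad events. -/
theorem gadget1 (D : Dat α S V W) (good : ℕ → Prop) (hD : Geo D) (hN : Names D good)
    (hF : ∀ s w v, ∃ i < D.m, ∀ g x h, g * x * h = s → ∀ z,
      D.F (g * z * h) (w - D.e i x + D.e i z) + D.act v (g * z * h) = D.F s w + D.act v s) :
    ∃ nu : List α → V,
      (∀ P Q v r, D.Lf P = some v → D.Rf Q = some r →
        r = D.act v (D.φ (P ++ Q)) + nu (P ++ Q)) ∧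
      (∀ P v, D.Lf P = some v → ∃ i < D.m, D.M' ∣ P.length ∧ D.A' i ≤ P.length ∧
        P.length < D.A' i + D.M' * D.M) ∧
      (∀ Y : List α, good (Y.length / D.M') →
        (∀ i < D.m, D.A' i + D.M' * D.M ≤ Y.length) →
        (∀ t, t ≤ D.A D.m + D.M' * D.M → ∃ s, t ≤ s ∧ s < t + D.G ∧ D.R (Y.drop s)) →
        (∀ k, k ≤ D.m → ∀ s, D.A k ≤ s + D.M' * D.M → s < D.A k + D.M' * D.M →
          ¬ D.R (Y.drop s)) →
        ∀ v, ∃ P Q, P ++ Q = Y ∧ D.Lf P = some v ∧ (D.Rf Q).isSome) := by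
  classical
  have hn3 : ∀ T, ∃ v0 r0 : V, ¬ good T → ∀ o o' c c', o + o' = T → D.LN o c → D.RN o' c' →
    c.2.2.2.2.2 = v0 ∧ D.bb c'.1 c'.2.1 c'.2.2.1 c'.2.2.2.1 c'.2.2.2.2.1 c'.2.2.2.2.2 = r0 := by
    intro T
    by_cases h : good T
    · exact ⟨0, 0, fun h' => absurd h h'⟩
    · obtain ⟨v0, r0, h0⟩ := hN.n3 T h
      exact ⟨v0, r0, fun _ => h0⟩
  choose v0 r0 h0 using hn3
  refine ⟨fun Y => if good (Y.length / D.M') then D.F (D.φ Y) (D.ww Y) else
    r0 (Y.length / D.M') - D.act (v0 (Y.length / D.M')) (D.φ Y), ?_, ?_, ?_⟩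
  · intro P Q v r hP hQ
    obtain ⟨i, g, wl, h, wr, hL⟩ := Lf_some hP
    obtain ⟨i', g', wl', h', wr', v', hR, hr⟩ := Rf_some hQ
    have hcl := clock_add (Q := Q) hD hL.2.1
    beta_reduce
    by_cases hg : good ((P ++ Q).length / D.M')
    · rw [if_pos hg]
      have hcc := hN.n1 _ hg _ _ _ _ hcl hL.2.2.2.2.1 hR.2.1
      simp only [Prod.mk.injEq] at hcc
      obtain ⟨rfl, rfl, rfl, rfl, rfl, rfl⟩ := hcc
      obtain ⟨hok, -, ha1, ha2, -, hwl, hg1, hwl1⟩ := hL
      obtain ⟨-, -, hvis, hh1, hwr1⟩ := hR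
      obtain ⟨e1, e2, e3, e4, e5, e6⟩ := read hD i.2 ha1 ha2 hwl hvis
      have := hok (D.zz (P ++ Q) i)
      rw [e5, e6, e1, e2, e3, e4, ← hg1, ← hh1, ← hwl1, ← hwr1, hr, ← this, add_comm]
    · rw [if_neg hg]
      obtain ⟨q1, q2⟩ := h0 _ hg _ _ _ _ hcl hL.2.2.2.2.1 hR.2.1
      simp only at q1 q2
      rw [hr, q2, ← q1]
      abel
  · intro P v hP
    obtain ⟨i, g, wl, h, wr, hL⟩ := Lf_some hP
    exact ⟨i, i.2, hL.2.1, hL.2.2.1, hL.2.2.2.1⟩
  · intro Y hg hlen hw hnd v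
    obtain ⟨i, him, hi⟩ := hF (D.φ Y) (D.ww Y) v
    -- the data of the level `i`
    set g := D.φ (Y.take (D.H Y i)) with hgdef
    set wl := ∑ k ∈ range i, D.e k (D.zz Y k) with hwldef
    set h := D.φ (Y.drop (D.H Y (i + 1))) with hhdef
    set wr := ∑ k ∈ Ico (i + 1) D.m, D.e k (D.zz Y k) with hwrdef
    obtain ⟨q, hq⟩ := hD.dvd i
    have hT : q + D.M ≤ Y.length / D.M' := by
      rw [Nat.le_div_iff_mul_le hD.M'pos]
      have := hlen i him
      rw [hq] at this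
      nlinarith
    obtain ⟨o, ho1, ho2, ho3, ho4⟩ := hN.n2 _ hg (⟨i, him⟩, g, wl, h, wr, v) q hT
    have hoY : o * D.M' ≤ Y.length := by
      have : o ≤ Y.length / D.M' := by omega
      exact (Nat.le_div_iff_mul_le hD.M'pos).1 this
    set P := Y.take (o * D.M') with hP
    set Q := Y.drop (o * D.M') with hQ
    have hPQ : P ++ Q = Y := List.take_append_drop _ _
    have hPl : P.length = o * D.M' := by
      rw [hP, List.length_take]; omega
    have hPd : D.M' ∣ P.length := ⟨o, by rw [hPl, mul_comm]⟩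
    have hP1 : D.A' i ≤ P.length := by
      rw [hPl, hq, mul_comm]; exact Nat.mul_le_mul_right _ ho1
    have hP2 : P.length < D.A' i + D.M' * D.M := by
      rw [hPl, hq, ← mul_add, mul_comm]; exact (Nat.mul_lt_mul_left hD.M'pos).2 ho2
    have hPo : P.length / D.M' = o := by rw [hPl]; exact Nat.mul_div_cancel _ hD.M'pos
    have hQo : Q.length / D.M' = Y.length / D.M' - o := by
      have := clock_add (Q := Q) hD hPd
      rw [hPQ, hPo] at this
      omega
    -- walls seen from the left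
    have hl : ∀ k, k ≤ i → ∃ s, D.A k ≤ s ∧ D.R (P.drop s) := by
      intro k hk
      have h3 : D.A k ≤ D.A D.m := hD.monoA (by omega)
      obtain ⟨s, hs1, hs2, hs3⟩ := hw (D.A k) (by omega)
      have h4 := hD.cell i
      have h5 := hD.monoA hk
      refine ⟨s, hs1, ?_⟩
      rw [← hPQ] at hs3
      exact (hD.rule.wall_left (by omega)).1 hs3
    -- walls seen from the right
    have hv : D.Vis i Q := by
      intro k hk hkm
      have h3 := hD.next i k hk
      have h4 : D.A k ≤ D.A D.m := hD.monoA hkm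
      constructor
      · obtain ⟨s, hs1, hs2, hs3⟩ := hw (D.A k - D.A' i + P.length) (by omega)
        obtain ⟨u, hu⟩ := Nat.exists_eq_add_of_le (show P.length ≤ s by omega)
        refine ⟨u, by omega, ?_⟩
        rwa [← hPQ, hu, drop_app_right] at hs3
      · intro s hs1 hs2 hs3
        apply hnd k hkm (P.length + s) (by omega) (by omega)
        rwa [← hPQ, drop_app_right]
    obtain ⟨e1, e2, e3, e4, e5, e6⟩ := read hD him hP1 hP2 hl hv
    rw [hPQ] at e1 e2 e3 e4 e5 e6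
    rw [← hgdef, ← hhdef] at e5
    rw [← hwldef, ← hwrdef] at e6
    have hall : ∀ z, D.F (g * z * h) (wl + D.e i z + wr) + D.act v (g * z * h) =
        D.F (D.φ Y) (D.ww Y) + D.act v (D.φ Y) := by
      intro z
      have := hi g (D.zz Y i) h e5.symm z
      rw [← this, e6]
      congr 2
      abel
    have hok : D.ok i g wl h wr v := by
      intro z
      rw [hall z]
      exact (hall 1).symm
    have hLL : D.LL ⟨i, him⟩ g wl h wr v P :=
      ⟨hok, hPd, hP1, hP2, by rw [hPo]; exact ho3, hl, e1, e2⟩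
    have hRR : D.RR ⟨i, him⟩ g wl h wr v Q :=
      ⟨hok, by rw [hQo]; exact ho4, hv, e3, e4⟩
    refine ⟨P, Q, hPQ, ?_, Rf_isSome hRR⟩
    obtain ⟨v', hv'⟩ := Lf_isSome hLL
    obtain ⟨i2, g2, wl2, h2, wr2, hL2⟩ := Lf_some hv'
    have hcl := clock_add (Q := Q) hD hPd
    have hcc := hN.n1 _ (by rw [hPQ]; exact hg) _ _ _ _ hcl hL2.2.2.2.2.1 hRR.2.1
    simp only [Prod.mk.injEq] at hcc
    rw [hv', hcc.2.2.2.2.2]

end Crest.Agent.R320.Gad1_420
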