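import Mathlib
import Crest.Agent.R320.Gad1_420

/-!
Row 320, helper420: SCHEME 1 of the chain 811 / 755 / 132 in block form (467 / 517):
blocks = zones from anchor to anchor, cut out by the threshold rule of 132 from LEFT-LOOKING outer
walls; labels from `gadget1`.  Abstract block calculus: `K1` is closed under concatenation and
words of `K1` with a complete inner block split.
-/

set_option autoImplicit false
set_option linter.unusedSectionVars false

namespace Crest.Agent.R320.Sch1_420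

open Crest.Agent.R320.Gad1_420

variable {α : Type*} {S V W : Type*} [Monoid S] [AddCommGroup V] [AddCommGroup W]

/-! ### Abstract block calculus -/

section Block

/-- run of a token along a list of blocks -/
def runB (T : V → List α → V) (v : V) (l : List (List α)) : V := l.foldl T v

theorem runB_nil (T : V → List α → V) (v : V) : runB T v [] = v := rfl

theorem runB_append (T : V → List α → V) (v : V) (l m : List (List α)) :
    runB T v (l ++ m) = runB T (runB T v l) m := List.foldl_append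

theorem runB_cons (T : V → List α → V) (v : V) (X : List α) (l : List (List α)) :
    runB T v (X :: l) = runB T (T v X) l := rfl

/-- a sound scheme on the block code `XX` -/
structure SoundB (XX : Set (List α)) (T : V → List α → V) (LP RQ : V → Set (List α)) : Prop where
  block : ∀ v v' P Q, P ∈ LP v → Q ∈ RQ v' → P ++ Q ∈ XX
  value : ∀ v v' P Q, P ∈ LP v → Q ∈ RQ v' → T v (P ++ Q) = v'

/-- words from a right-legal place to a left-legal place whose value fits -/
def K1 (XX : Set (List α)) (T : V → List α → V) (LP RQ : V → Set (List α)) : Set (List α) :=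
  {u | ∃ (v : V) (Q : List α) (l : List (List α)) (P : List α), Q ∈ RQ v ∧ (∀ X ∈ l, X ∈ XX) ∧
    P ∈ LP (runB T v l) ∧ u = Q ++ l.flatten ++ P}

theorem K1_mul {XX : Set (List α)} {T : V → List α → V} {LP RQ : V → Set (List α)}
    (h : SoundB XX T LP RQ) {u w : List α} (hu : u ∈ K1 XX T LP RQ) (hw : w ∈ K1 XX T LP RQ) :
    u ++ w ∈ K1 XX T LP RQ := by
  obtain ⟨v, Q, l, P, hQ, hl, hP, rfl⟩ := hu
  obtain ⟨v', Q', l', P', hQ', hl', hP', rfl⟩ := hw
  refine ⟨v, Q, l ++ (P ++ Q') :: l', P', hQ, ?_, ?_, ?_⟩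
  · intro X hX
    rcases List.mem_append.1 hX with h1 | h1
    · exact hl X h1
    · rcases List.mem_cons.1 h1 with h2 | h2
      · rw [h2]; exact h.block _ _ _ _ hP hQ'
      · exact hl' X h2
  · rw [runB_append, runB_cons, h.value _ _ _ _ hP hQ']
    exact hP'
  · simp [List.append_assoc]

/-- a block which is cut for the value `v` -/
def CutB (LP RQ : V → Set (List α)) (v : V) (X : List α) : Prop :=
  ∃ P Q, X = P ++ Q ∧ P ∈ LP v ∧ ∃ v', Q ∈ RQ v'

/-- splitting lemma: a word of `K1` with a cut inner block is a product of two words of `K1`. -/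
theorem K1_split {XX : Set (List α)} {T : V → List α → V} {LP RQ : V → Set (List α)}
    (h : SoundB XX T LP RQ) {v : V} {Q P : List α} {l1 l2 : List (List α)} {X : List α}
    (hQ : Q ∈ RQ v) (hl1 : ∀ X ∈ l1, X ∈ XX) (hl2 : ∀ X ∈ l2, X ∈ XX)
    (hP : P ∈ LP (runB T v (l1 ++ X :: l2))) (hX : CutB LP RQ (runB T v l1) X) :
    ∃ u w, u ∈ K1 XX T LP RQ ∧ w ∈ K1 XX T LP RQ ∧ Q ++ (l1 ++ X :: l2).flatten ++ P = u ++ w := by
  obtain ⟨P1, Q1, rfl, hP1, v1, hQ1⟩ := hX
  have hv := h.value _ _ _ _ hP1 hQ1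
  rw [runB_append, runB_cons, hv] at hP
  refine ⟨Q ++ l1.flatten ++ P1, Q1 ++ l2.flatten ++ P, ⟨v, Q, l1, P1, hQ, hl1, hP1, rfl⟩,
    ⟨v1, Q1, l2, P, hQ1, hl2, hP, rfl⟩, ?_⟩
  simp [List.append_assoc]

/-- the words of `K1` all of whose inner blocks are uncut -/
def X1 (XX : Set (List α)) (T : V → List α → V) (LP RQ : V → Set (List α)) : Set (List α) :=
  {u | ∃ (v : V) (Q : List α) (l : List (List α)) (P : List α), Q ∈ RQ v ∧ (∀ X ∈ l, X ∈ XX) ∧
    P ∈ LP (runB T v l) ∧ u = Q ++ l.flatten ++ P ∧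
    ∀ l1 X l2, l = l1 ++ X :: l2 → ¬ CutB LP RQ (runB T v l1) X}

theorem X1_subset {XX : Set (List α)} {T : V → List α → V} {LP RQ : V → Set (List α)} :
    X1 XX T LP RQ ⊆ K1 XX T LP RQ := by
  rintro u ⟨v, Q, l, P, hQ, hl, hP, rfl, -⟩
  exact ⟨v, Q, l, P, hQ, hl, hP, rfl⟩

/-- irreducible words of `K1` lie in `X1` (right-legal or left-legal words are non-empty). -/
theorem irr_X1 {XX : Set (List α)} {T : V → List α → V} {LP RQ : V → Set (List α)}
    (h : SoundB XX T LP RQ) {u : List α} (hu : u ∈ K1 XX T LP RQ)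
    (hirr : ∀ p ∈ K1 XX T LP RQ, ∀ q ∈ K1 XX T LP RQ, p ++ q ≠ u) : u ∈ X1 XX T LP RQ := by
  obtain ⟨v, Q, l, P, hQ, hl, hP, rfl⟩ := hu
  refine ⟨v, Q, l, P, hQ, hl, hP, rfl, ?_⟩
  rintro l1 X l2 rfl hX
  obtain ⟨p, q, hp, hq, e⟩ := K1_split h hQ (fun Y hY => hl Y (by simp [hY]))
    (fun Y hY => hl Y (by simp [hY])) hP hX
  exact hirr p hp q hq e.symm

end Block

/-! ### The outer walls and the threshold rule -/

/-- the outer data -/
structure Outer (α : Type*) where
  Wo : List α → Prop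
  no : ℕ
  q : ℕ
  thr : ℕ → ℕ
  p0 : ℕ
  N1 : ℕ
  loc : ∀ P Q : List α, no ≤ Q.length → (Wo (P ++ Q) ↔ Wo Q)
  thr_lb : ∀ r, p0 + N1 + no ≤ thr r

variable (O : Outer α)

/-- a stop at `t` in `X` -/
def Outer.Stop (X : List α) (t : ℕ) : Prop := O.Wo (X.take t) ∧ O.thr (t % O.q) ≤ t

/-- the blocks -/
def Outer.XX : Set (List α) :=
  {X | O.Wo X ∧ O.thr (X.length % O.q) ≤ X.length ∧ ∀ t < X.length, ¬ O.Stop X t}

/-- right parts which end at the same stop for every place of the window -/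
def Outer.RB : Set (List α) :=
  {Q | O.Wo Q ∧ O.no ≤ Q.length ∧ O.thr ((O.p0 + Q.length) % O.q) ≤ O.p0 + Q.length ∧
    ∀ y < Q.length, O.no ≤ y → O.Wo (Q.take y) →
      O.p0 + y + O.N1 < O.thr ((O.p0 + y) % O.q)}

variable {O}

theorem mod_shift {p x y q : ℕ} (h : q ∣ x) : (p + x + y) % q = (p + y) % q := by
  obtain ⟨k, rfl⟩ := h
  rw [show p + q * k + y = p + y + q * k by ring, Nat.add_mul_mod_self_left]

theorem XX_of_RB {P Q : List α} (h1 : O.p0 ≤ P.length) (h2 : P.length ≤ O.p0 + O.N1)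
    (h3 : O.q ∣ P.length - O.p0) (hQ : Q ∈ O.RB) : P ++ Q ∈ O.XX := by
  obtain ⟨a1, a2, a3, a4⟩ := hQ
  have hP : P.length = O.p0 + (P.length - O.p0) := by omega
  refine ⟨(O.loc P Q a2).2 a1, ?_, ?_⟩
  · rw [List.length_append]
    have : (P.length + Q.length) % O.q = (O.p0 + Q.length) % O.q := by
      rw [hP, mod_shift h3]
    rw [this]
    omega
  · rintro t ht ⟨b1, b2⟩
    have b3 := O.thr_lb (t % O.q)
    obtain ⟨y, rfl⟩ := Nat.exists_eq_add_of_le (show P.length ≤ t by omega)
    have hy : O.no ≤ y := by omega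
    rw [List.length_append] at ht
    have hy2 : y < Q.length := by omega
    rw [List.take_append, Nat.add_sub_cancel_left, List.take_of_length_le (by omega)] at b1
    have b4 := (O.loc P (Q.take y) (by rw [List.length_take]; omega)).1 b1
    have b5 := a4 y hy2 hy b4
    have : (P.length + y) % O.q = (O.p0 + y) % O.q := by
      rw [hP, mod_shift h3]
    rw [this] at b2
    omega

/-- the wall band (E) -/
def Outer.E (O : Outer α) (X : List α) : Prop :=
  X.length < O.thr (X.length % O.q) + O.N1 ∨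
    ∃ t < X.length, O.Wo (X.take t) ∧ O.p0 + O.no ≤ t ∧ O.thr (t % O.q) ≤ t + O.N1

theorem RB_of_XX {P Q : List α} (h1 : O.p0 ≤ P.length) (h2 : P.length ≤ O.p0 + O.N1)
    (h3 : O.q ∣ P.length - O.p0) (hX : P ++ Q ∈ O.XX) (hE : ¬ O.E (P ++ Q)) : Q ∈ O.RB := by
  obtain ⟨a1, a2, a3⟩ := hX
  have hP : P.length = O.p0 + (P.length - O.p0) := by omega
  unfold Outer.E at hE
  push Not at hE
  obtain ⟨e1, e2⟩ := hE
  have b3 := O.thr_lb ((P ++ Q).length % O.q)
  have hl : (P ++ Q).length = P.length + Q.length := List.length_append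
  have hno : O.no ≤ Q.length := by omega
  have hm : (P ++ Q).length % O.q = (O.p0 + Q.length) % O.q := by
    rw [hl, hP, mod_shift h3]
  refine ⟨(O.loc P Q hno).1 a1, hno, ?_, ?_⟩
  · rw [hm] at e1
    omega
  · intro y hy hy1 hy2
    have hw : O.Wo ((P ++ Q).take (P.length + y)) := by
      rw [List.take_append, Nat.add_sub_cancel_left, List.take_of_length_le (by omega)]
      exact (O.loc P (Q.take y) (by rw [List.length_take]; omega)).2 hy2
    have := e2 (P.length + y) (by omega) hw (by omega)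
    have hm2 : (P.length + y) % O.q = (O.p0 + y) % O.q := by
      rw [hP, mod_shift h3]
    rw [hm2] at this
    omega

/-! ### Scheme 1 -/

variable {D : Dat α S V W}

/-- zone map -/
def Tm (D : Dat α S V W) (O : Outer α) (pre : List α → V → V) (nu : List α → V) (v : V)
    (X : List α) : V :=
  D.act (pre (X.take O.p0) v) (D.φ (X.drop O.p0)) + nu (X.drop O.p0)

/-- left-legal words for the token `v` -/
def LP (D : Dat α S V W) (O : Outer α) (pre : List α → V → V) (v : V) : Set (List α) :=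
  {P | O.p0 ≤ P.length ∧ D.Lf (P.drop O.p0) = some (pre (P.take O.p0) v)}

/-- right-legal words -/
def RQ (D : Dat α S V W) (O : Outer α) (v' : V) : Set (List α) :=
  {Q | Q ∈ O.RB ∧ D.Rf Q = some v'}

/-- **SCHEME 1**: soundness on all texts and completeness outside the thin bad events. -/
theorem scheme1 (D : Dat α S V W) (O : Outer α) (good : ℕ → Prop) (hD : Geo D)
    (hN : Names D good) (hq : O.q = D.M') (hN1 : ∀ i < D.m, D.A' i + D.M' * D.M ≤ O.N1)
    (hF : ∀ s w v, ∃ i < D.m, ∀ g x h, g * x * h = s → ∀ z,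
      D.F (g * z * h) (w - D.e i x + D.e i z) + D.act v (g * z * h) = D.F s w + D.act v s) :
    ∃ nu : List α → V, ∀ pre : List α → V → V,
      SoundB O.XX (Tm D O pre nu) (LP D O pre) (RQ D O) ∧
      (∀ X ∈ O.XX, ¬ O.E X → good ((X.length - O.p0) / D.M') →
        (∀ t, t ≤ D.A D.m + D.M' * D.M →
          ∃ s, t ≤ s ∧ s < t + D.G ∧ D.R (X.drop (O.p0 + s))) →
        (∀ k, k ≤ D.m → ∀ s, D.A k ≤ s + D.M' * D.M → s < D.A k + D.M' * D.M →
          ¬ D.R (X.drop (O.p0 + s))) →
        ∀ v, CutB (LP D O pre) (RQ D O) v X) := by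
  obtain ⟨nu, hs, hl, hc⟩ := gadget1 D good hD hN hF
  refine ⟨nu, fun pre => ⟨⟨?_, ?_⟩, ?_⟩⟩
  · rintro v v' P Q ⟨hP0, hP⟩ ⟨hQ, -⟩
    obtain ⟨i, hi, h1, h2, h3⟩ := hl _ _ hP
    have h4 := hN1 i hi
    rw [List.length_drop] at h1 h2 h3
    exact XX_of_RB hP0 (by omega) (by rw [hq]; exact h1) hQ
  · rintro v v' P Q ⟨hP0, hP⟩ ⟨hQ, hR⟩
    have := hs _ _ _ _ hP hR
    unfold Tm
    rw [List.take_append_of_le_length hP0, List.drop_append_of_le_length hP0, ← this]
  · intro X hX hE hg hw hnd v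
    obtain ⟨a1, a2, a3⟩ := hX
    have a4 := O.thr_lb (X.length % O.q)
    have hE' := hE
    unfold Outer.E at hE'
    push Not at hE'
    have hXl : O.p0 + O.N1 + O.no + O.N1 ≤ X.length := by
      have := hE'.1
      omega
    obtain ⟨P', Q, hPQ, hP', hQ⟩ := hc (X.drop O.p0) (by rwa [List.length_drop])
      (fun i hi => by
        have := hN1 i hi
        rw [List.length_drop]
        omega)
      (fun t ht => by
        obtain ⟨s, h1, h2, h3⟩ := hw t ht
        exact ⟨s, h1, h2, by rw [List.drop_drop]; exact h3⟩)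
      (fun k hk s h1 h2 => by
        rw [List.drop_drop]
        exact hnd k hk s h1 h2)
      (pre (X.take O.p0) v)
    obtain ⟨i, hi, h1, h2, h3⟩ := hl _ _ hP'
    have h4 := hN1 i hi
    obtain ⟨r, hr⟩ := Option.isSome_iff_exists.1 hQ
    have hX0 : (X.take O.p0).length = O.p0 := by rw [List.length_take]; omega
    have hXe : X = (X.take O.p0 ++ P') ++ Q := by
      rw [List.append_assoc, hPQ, List.take_append_drop]
    have hPl : (X.take O.p0 ++ P').length = O.p0 + P'.length := by
      rw [List.length_append, hX0]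
    refine ⟨X.take O.p0 ++ P', Q, hXe, ⟨by omega, ?_⟩, r, ?_, hr⟩
    · have t1 : (X.take O.p0 ++ P').drop O.p0 = P' := by
        rw [List.drop_append_of_le_length hX0.ge, List.drop_of_length_le hX0.le, List.nil_append]
      have t2 : (X.take O.p0 ++ P').take O.p0 = X.take O.p0 := by
        rw [List.take_append_of_le_length hX0.ge, List.take_of_length_le hX0.le]
      rw [t1, t2]
      exact hP'
    · refine RB_of_XX (P := X.take O.p0 ++ P') (by omega) (by omega) ?_ ?_ ?_
      · rw [hPl, hq, Nat.add_sub_cancel_left]; exact h1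
      · rw [← hXe]; exact ⟨a1, a2, a3⟩
      · rw [← hXe]; exact hE

end Crest.Agent.R320.Sch1_420
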