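import Mathlib
import Crest.Agent.R320.Sch1_420

/-!
Row 320, helper304: adapter from the block form of a scheme (420's `SoundB` / `CutB`) to the
buffer statements SC1, CP1 of 131 #13123.
-/

set_option autoImplicit false
set_option linter.unusedSectionVars false

namespace Crest.Agent.R320.Adap_304

open Crest.Agent.R320.Sch1_420

variable {α V : Type*}

/-- length of the first block -/
noncomputable def Nx (XX : Set (List α)) (y : List α) : ℕ := by
  classical
  exact if h : ∃ X, X ∈ XX ∧ X <+: y then h.choose.length else 1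

/-- a prefix code -/
def PrefixFree (XX : Set (List α)) : Prop := ∀ X ∈ XX, ∀ Y ∈ XX, X <+: Y → X = Y

theorem Nx_eq {XX : Set (List α)} (hpf : PrefixFree XX) {X y : List α} (hX : X ∈ XX)
    (h : X <+: y) : Nx XX y = X.length := by
  classical
  have hex : ∃ X, X ∈ XX ∧ X <+: y := ⟨X, hX, h⟩
  unfold Nx
  rw [dif_pos hex]
  obtain ⟨h1, h2⟩ := hex.choose_spec
  rcases List.prefix_or_prefix_of_prefix h2 h with h3 | h3
  · rw [hpf _ h1 _ hX h3]
  · rw [← hpf _ hX _ h1 h3]

theorem Nx_none {XX : Set (List α)} {y : List α} (h : ¬ ∃ X, X ∈ XX ∧ X <+: y) : Nx XX y = 1 := by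
  classical
  unfold Nx
  rw [dif_neg h]

theorem Outer.prefixFree (O : Outer α) : PrefixFree O.XX := by
  intro X hX Y hY h
  obtain ⟨a1, a2, a3⟩ := hX
  obtain ⟨b1, b2, b3⟩ := hY
  by_contra hne
  have hlt : X.length < Y.length := by
    rcases Nat.lt_or_ge X.length Y.length with h1 | h1
    · exact h1
    · exact absurd (h.eq_of_length_le h1) hne
  refine b3 X.length hlt ⟨?_, a2⟩
  rw [← List.prefix_iff_eq_take.1 h]
  exact a1

/-- the right reading -/
noncomputable def R1 (RQ : V → Set (List α)) (r : List α) : Option (ℕ × V) := by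
  classical
  exact if h : ∃ x : ℕ × V, x.1 ≤ r.length ∧ r.take x.1 ∈ RQ x.2 then some h.choose else none

theorem R1_some {RQ : V → Set (List α)} {r : List α} {d : ℕ} {b : V}
    (h : R1 RQ r = some (d, b)) : d ≤ r.length ∧ r.take d ∈ RQ b := by
  classical
  unfold R1 at h
  split_ifs at h with hh
  have := hh.choose_spec
  rw [Option.some.inj h] at this
  exact this

theorem R1_isSome {RQ : V → Set (List α)} {r Q : List α} {b : V} (hp : Q <+: r)
    (hQ : Q ∈ RQ b) : (R1 RQ r).isSome := by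
  classical
  have hh : ∃ x : ℕ × V, x.1 ≤ r.length ∧ r.take x.1 ∈ RQ x.2 :=
    ⟨(Q.length, b), hp.length_le, by rw [← List.prefix_iff_eq_take.1 hp]; exact hQ⟩
  unfold R1
  rw [dif_pos hh]
  rfl

section

variable {XX : Set (List α)} {T : V → List α → V} {LP RQ : V → Set (List α)}

/-- SC1 of 131 #13123 -/
theorem sc1 (hs : SoundB XX T LP RQ) (hpf : PrefixFree XX) {Cl : List α → Prop}
    (hCl : ∀ x y, Cl (x ++ y) → Cl x) {Bm : ℕ} (hB : ∀ X ∈ XX, Cl X → X.length ≤ Bm)
    {u r : List α} {v b : V} {d : ℕ} (h : Cl (u ++ r)) (hL : u ∈ LP v)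
    (hR : R1 RQ r = some (d, b)) :
    Nx XX ((u ++ r).take Bm) = u.length + d ∧
      T v (((u ++ r).take Bm).take (Nx XX ((u ++ r).take Bm))) = b := by
  obtain ⟨hd, hQ⟩ := R1_some hR
  have hX : u ++ r.take d ∈ XX := hs.block _ _ _ _ hL hQ
  have hv := hs.value _ _ _ _ hL hQ
  have hcl : Cl (u ++ r.take d) := by
    apply hCl _ (r.drop d)
    rw [List.append_assoc, List.take_append_drop]
    exact h
  have hlen := hB _ hX hcl
  have hl : (u ++ r.take d).length = u.length + d := by
    rw [List.length_append, List.length_take, min_eq_left hd]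
  have hpre : u ++ r.take d <+: (u ++ r).take Bm := by
    rw [List.prefix_take_iff]
    exact ⟨List.prefix_append_right_inj u |>.2 (List.take_prefix d r), hlen⟩
  have hN := Nx_eq hpf hX hpre
  rw [hN]
  refine ⟨hl, ?_⟩
  rw [← List.prefix_iff_eq_take.1 hpre]
  exact hv

/-- CP1 of 131 #13123 -/
theorem cp1 {Cl : List α → Prop} (hCl : ∀ x y, Cl (x ++ y) → Cl x) {Bm p0 D1 : ℕ}
    (hex : ∀ y, Cl y → y.length = Bm → ∃ X ∈ XX, X <+: y)
    {BadX : List α → Prop} (hpf : PrefixFree XX)
    (hc : ∀ X ∈ XX, Cl X → ¬ BadX X → ∀ v, CutB LP RQ v X)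
    (hp0 : ∀ v P, P ∈ LP v → p0 ≤ P.length) (hne : ∀ v, ([] : List α) ∉ RQ v) (hD : Bm ≤ D1)
    {t : List α} (ht : Cl t) (hlen : Bm + D1 ≤ t.length)
    (hb : ¬ BadX ((t.take Bm).take (Nx XX (t.take Bm)))) (v : V) :
    ∃ x, p0 ≤ x ∧ x < Bm ∧ t.take x ∈ LP v ∧ (R1 RQ ((t.drop x).take D1)).isSome := by
  have hclB : Cl (t.take Bm) := by
    apply hCl _ (t.drop Bm)
    rw [List.take_append_drop]
    exact ht
  obtain ⟨X, hX, hXp⟩ := hex _ hclB (by rw [List.length_take]; omega)
  have hN := Nx_eq hpf hX hXp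
  rw [hN, ← List.prefix_iff_eq_take.1 hXp] at hb
  have hclX : Cl X := by
    obtain ⟨z, hz⟩ := hXp
    apply hCl _ z
    rw [hz]
    exact hclB
  have hXB : X.length ≤ Bm := by
    have := hXp.length_le
    rw [List.length_take] at this
    omega
  have hXt : X <+: t := hXp.trans (List.take_prefix _ _)
  obtain ⟨P, Q, hPQ, hP, v', hQ⟩ := hc X hX hclX hb v
  have hQne : Q ≠ [] := fun h0 => hne v' (h0 ▸ hQ)
  have hQl : 0 < Q.length := List.length_pos_of_ne_nil hQne
  obtain ⟨z, hz⟩ := hXt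
  have hl : P.length + Q.length = X.length := by rw [hPQ, List.length_append]
  refine ⟨P.length, hp0 _ _ hP, by omega, ?_, ?_⟩
  · rw [← hz, hPQ, List.append_assoc, List.take_left' rfl]
    exact hP
  · refine R1_isSome (Q := Q) ?_ hQ
    rw [← hz, hPQ, List.append_assoc, List.drop_left' rfl, List.prefix_take_iff]
    exact ⟨List.prefix_append _ _, by omega⟩

end

end Crest.Agent.R320.Adap_304
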