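import Crest.Agent.R320.Hk1_851

/-!
# Row 320: regular languages: closure under product and star, pump invariance,
bounded regular languages have height at most 1 (helper236)
-/

set_option autoImplicit false

namespace Crest.Agent.R320.Reg_236

open Crest.RegLang Crest.Agent.R320.Hk_851 Language

universe u

variable {α : Type u}

theorem isRegular_mul {L K : Language α} (hL : L.IsRegular) (hK : K.IsRegular) :
    (L * K).IsRegular := by
  apply Language.IsRegular.of_finite_range_leftQuotient
  let f : Language α × Set (Language α) → Language α :=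
    fun p => {y | y ∈ p.1 * K ∨ ∃ M ∈ p.2, y ∈ M}
  have hfin : ((Set.range L.leftQuotient) ×ˢ (𝒫 (Set.range K.leftQuotient))).Finite :=
    hL.finite_range_leftQuotient.prod hK.finite_range_leftQuotient.finite_subsets
  refine (hfin.image f).subset ?_
  rintro _ ⟨x, rfl⟩
  refine ⟨(L.leftQuotient x, {M | ∃ u v, x = u ++ v ∧ u ∈ L ∧ M = K.leftQuotient v}),
    ⟨⟨x, rfl⟩, ?_⟩, ?_⟩
  · rintro M ⟨u, v, -, -, rfl⟩
    exact ⟨v, rfl⟩
  · ext y
    constructor
    · rintro (h | ⟨M, ⟨u, v, hx, hu, rfl⟩, hy⟩)
      · obtain ⟨y1, h1, y2, h2, rfl⟩ := Language.mem_mul.1 h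
        rw [mem_leftQuotient] at h1 ⊢
        exact Language.mem_mul.2 ⟨x ++ y1, h1, y2, h2, by simp⟩
      · rw [mem_leftQuotient] at hy ⊢
        exact Language.mem_mul.2 ⟨u, hu, v ++ y, hy, by simp [hx]⟩
    · intro h
      rw [mem_leftQuotient] at h
      obtain ⟨a, ha, b, hb, hab⟩ := Language.mem_mul.1 h
      rcases List.append_eq_append_iff.1 hab with ⟨c, hc1, hc2⟩ | ⟨c, hc1, hc2⟩
      · -- x = a ++ c, b = c ++ y
        refine Or.inr ?_
        refine ⟨K.leftQuotient c, ⟨a, c, hc1, ha, rfl⟩, ?_⟩
        rw [mem_leftQuotient, ← hc2]; exact hb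
      · -- a = x ++ c, y = c ++ b
        refine Or.inl ?_
        refine Language.mem_mul.2 ⟨c, ?_, b, hb, hc2.symm⟩
        rw [mem_leftQuotient, ← hc1]; exact ha

theorem star_split {L : Language α} :
    ∀ (S : List (List α)) (x y : List α), (∀ w ∈ S, w ∈ L) → x ≠ [] → x ++ y = S.flatten →
      ∃ u v y1 y2 : List α, u ∈ (KStar.kstar L : Language α) ∧ x = u ++ v ∧ y = y1 ++ y2 ∧
        v ++ y1 ∈ L ∧ y2 ∈ (KStar.kstar L : Language α) := by
  intro S
  induction S with
  | nil =>
    intro x y _ hx h
    simp at h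
    exact (hx h.1).elim
  | cons w S ih =>
    intro x y hS hx h
    rw [List.flatten_cons] at h
    rcases List.append_eq_append_iff.1 h with ⟨c, hc1, hc2⟩ | ⟨c, hc1, hc2⟩
    · -- w = x ++ c, y = c ++ S.flatten
      refine ⟨[], x, c, S.flatten, Language.nil_mem_kstar L, rfl, hc2, ?_, ?_⟩
      · rw [← hc1]; exact hS w (by simp)
      · exact Language.mem_kstar.2 ⟨S, rfl, fun z hz => hS z (by simp [hz])⟩
    · -- x = w ++ c, S.flatten = c ++ y
      by_cases hc : c = []
      · subst hc
        refine ⟨[], x, [], y, Language.nil_mem_kstar L, rfl, rfl, ?_, ?_⟩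
        · rw [List.append_nil] at hc1 ⊢; rw [hc1]; exact hS w (by simp)
        · refine Language.mem_kstar.2 ⟨S, ?_, fun z hz => hS z (by simp [hz])⟩
          simpa using hc2.symm
      · obtain ⟨u, v, y1, y2, hu, hv, hy, h1, h2⟩ :=
          ih c y (fun z hz => hS z (by simp [hz])) hc hc2.symm
        refine ⟨w ++ u, v, y1, y2, ?_, by rw [hc1, hv]; simp, hy, h1, h2⟩
        obtain ⟨T, hT, hT'⟩ := Language.mem_kstar.1 hu
        refine Language.mem_kstar.2 ⟨w :: T, by simp [hT], ?_⟩
        intro z hz
        rcases List.mem_cons.1 hz with rfl | hz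
        · exact hS _ (by simp)
        · exact hT' z hz

theorem kstar_append {L : Language α} {u v : List α} (hu : u ∈ (KStar.kstar L : Language α))
    (hv : v ∈ (KStar.kstar L : Language α)) : u ++ v ∈ (KStar.kstar L : Language α) := by
  obtain ⟨S, rfl, hS⟩ := Language.mem_kstar.1 hu
  obtain ⟨T, rfl, hT⟩ := Language.mem_kstar.1 hv
  refine Language.mem_kstar.2 ⟨S ++ T, by simp, ?_⟩
  intro z hz
  rcases List.mem_append.1 hz with h | h
  · exact hS z h
  · exact hT z h

theorem mem_kstar_self {L : Language α} {u : List α} (hu : u ∈ L) :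
    u ∈ (KStar.kstar L : Language α) :=
  Language.mem_kstar.2 ⟨[u], by simp, by simpa using hu⟩

theorem isRegular_kstar {L : Language α} (hL : L.IsRegular) :
    (KStar.kstar L : Language α).IsRegular := by
  apply Language.IsRegular.of_finite_range_leftQuotient
  let f : Set (Language α) → Language α :=
    fun p => ({y | ∃ M ∈ p, y ∈ M * (KStar.kstar L : Language α)} : Language α)
  have hfin : (𝒫 (Set.range L.leftQuotient)).Finite :=
    hL.finite_range_leftQuotient.finite_subsets
  refine ((hfin.image f).insert (KStar.kstar L : Language α)).subset ?_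
  rintro _ ⟨x, rfl⟩
  by_cases hx : x = []
  · left; subst hx; rfl
  right
  refine ⟨{M | ∃ u v, x = u ++ v ∧ u ∈ (KStar.kstar L : Language α) ∧ M = L.leftQuotient v},
    ?_, ?_⟩
  · rintro M ⟨u, v, -, -, rfl⟩
    exact ⟨v, rfl⟩
  · ext y
    constructor
    · rintro ⟨M, ⟨u, v, hxe, hu, rfl⟩, hy⟩
      obtain ⟨y1, h1, y2, h2, rfl⟩ := Language.mem_mul.1 hy
      rw [mem_leftQuotient] at h1 ⊢
      have := kstar_append hu (kstar_append (mem_kstar_self h1) h2)
      simpa [hxe] using this
    · intro h
      rw [mem_leftQuotient] at h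
      obtain ⟨S, hS, hS'⟩ := Language.mem_kstar.1 h
      obtain ⟨u, v, y1, y2, hu, hxe, hy, h1, h2⟩ := star_split S x y hS' hx hS
      exact ⟨L.leftQuotient v, ⟨u, v, hxe, hu, rfl⟩, Language.mem_mul.2 ⟨y1, h1, y2, h2, hy.symm⟩⟩

theorem isRegular_of_finite_values {L : Language α} {s : Set (Language α)} (hs : s.Finite)
    (h : ∀ x, L.leftQuotient x ∈ s) : L.IsRegular :=
  Language.IsRegular.of_finite_range_leftQuotient (hs.subset (by rintro _ ⟨x, rfl⟩; exact h x))

theorem isRegular_zero : (0 : Language α).IsRegular := by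
  refine isRegular_of_finite_values (Set.finite_singleton 0) fun x => ?_
  ext y; constructor
  · intro h; exact h.elim
  · intro h; exact h.elim

theorem isRegular_one : (1 : Language α).IsRegular := by
  refine isRegular_of_finite_values (s := {1, 0}) (Set.toFinite _) fun x => ?_
  cases x with
  | nil => left; rfl
  | cons a x =>
    right
    ext y
    rw [mem_leftQuotient, Language.mem_one]
    constructor
    · intro h; simp at h
    · intro h; exact h.elim

theorem isRegular_char (a : α) : ({[a]} : Language α).IsRegular := by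
  refine isRegular_of_finite_values (s := {{[a]}, 1, 0}) (Set.toFinite _) fun x => ?_
  match x with
  | [] => left; rfl
  | [b] =>
    by_cases h : b = a
    · subst h
      right; left
      ext y
      rw [mem_leftQuotient, Language.mem_one]
      constructor
      · intro h
        have := Set.mem_singleton_iff.1 h
        simpa using this
      · intro h; subst h; exact Set.mem_singleton _
    · right; right
      ext y
      rw [mem_leftQuotient]
      constructor
      · intro h'
        have := Set.mem_singleton_iff.1 h'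
        simp [h] at this
      · intro h; exact h.elim
  | b :: c :: x =>
    right; right
    ext y
    rw [mem_leftQuotient]
    constructor
    · intro h'
      have := Set.mem_singleton_iff.1 h'
      simp at this
    · intro h; exact h.elim

/-- every language of a generalized regular expression is regular -/
theorem isRegular_lang (e : GRegExp α) : e.lang.IsRegular := by
  induction e with
  | zero => exact isRegular_zero
  | eps => exact isRegular_one
  | char a => exact isRegular_char a
  | union P Q hP hQ => exact hP.add hQ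
  | cat P Q hP hQ => exact isRegular_mul hP hQ
  | not P hP => exact hP.compl
  | star P hP => exact isRegular_kstar hP

theorem HL.isRegular {k : ℕ} {L : Language α} (h : HL k L) : L.IsRegular := by
  obtain ⟨e, -, rfl⟩ := h
  exact isRegular_lang e

/-- uniform period of a finite monoid -/
theorem exists_period (N : Type*) [Monoid N] [Finite N] :
    ∃ m : ℕ, 0 < m ∧ ∀ f : N, ∀ k, m ≤ k → f ^ (k + m) = f ^ k := by
  classical
  cases nonempty_fintype N
  have h1 : ∀ f : N, ∃ i d : ℕ, 0 < d ∧ f ^ (i + d) = f ^ i := by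
    intro f
    obtain ⟨a, b, hab, h⟩ := Finite.exists_ne_map_eq_of_infinite (fun n : ℕ => f ^ n)
    rcases lt_or_gt_of_ne hab with h' | h'
    · exact ⟨a, b - a, by omega, by simpa [Nat.add_sub_cancel' h'.le] using h.symm⟩
    · exact ⟨b, a - b, by omega, by simpa [Nat.add_sub_cancel' h'.le] using h⟩
  choose i d hd hf using h1
  refine ⟨(∏ f, d f) * (1 + ∑ f, i f), ?_, ?_⟩
  · exact Nat.mul_pos (Finset.prod_pos fun f _ => hd f) (by omega)
  intro f k hk
  have hge : ∀ j, i f ≤ j → f ^ (j + d f) = f ^ j := by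
    intro j hj
    obtain ⟨r, rfl⟩ := Nat.exists_eq_add_of_le hj
    rw [show i f + r + d f = i f + d f + r by ring, pow_add, hf, ← pow_add]
  have hmul : ∀ (c j : ℕ), i f ≤ j → f ^ (j + d f * c) = f ^ j := by
    intro c
    induction c with
    | zero => intro j _; simp
    | succ c ih =>
      intro j hj
      rw [Nat.mul_succ, ← Nat.add_assoc, hge _ (by omega), ih j hj]
  have hdvd : d f ∣ (∏ f, d f) * (1 + ∑ f, i f) :=
    (Finset.dvd_prod_of_mem d (Finset.mem_univ f)).mul_right _
  obtain ⟨c, hc⟩ := hdvd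
  have hi : i f ≤ k := by
    have h2 : i f ≤ ∑ f, i f := Finset.single_le_sum (fun _ _ => Nat.zero_le _) (Finset.mem_univ f)
    have h3 : 1 ≤ ∏ f, d f := Finset.prod_pos fun f _ => hd f
    have h4 : 1 * (1 + ∑ f, i f) ≤ (∏ f, d f) * (1 + ∑ f, i f) := Nat.mul_le_mul_right _ h3
    omega
  rw [hc]
  exact hmul c k hi

/-- `x` repeated `k` times -/
def rep (x : List α) (k : ℕ) : List α := (List.replicate k x).flatten

theorem rep_zero (x : List α) : rep x 0 = [] := rfl

theorem rep_add (x : List α) (k l : ℕ) : rep x (k + l) = rep x k ++ rep x l := by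
  unfold rep
  rw [List.replicate_add, List.flatten_append]

theorem evalFrom_rep {σ : Type*} (M : DFA α σ) (x : List α) (k : ℕ) (s : σ) :
    M.evalFrom s (rep x k) = ((fun s => M.evalFrom s x)^[k]) s := by
  induction k generalizing s with
  | zero => rfl
  | succ k ih =>
    rw [Nat.add_comm, rep_add, DFA.evalFrom_of_append, ih, Nat.add_comm, Function.iterate_succ_apply]
    simp [rep]

/-- ONE `m` for all words: pumping does not change membership -/
theorem pump {L : Language α} (hL : L.IsRegular) :
    ∃ m : ℕ, 0 < m ∧ ∀ (u x v : List α) (k : ℕ), m ≤ k →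
      (u ++ rep x (k + m) ++ v ∈ L ↔ u ++ rep x k ++ v ∈ L) := by
  obtain ⟨σ, _, M, rfl⟩ := hL
  have : Finite (Function.End σ) := inferInstanceAs (Finite (σ → σ))
  obtain ⟨m, hm, h⟩ := exists_period (Function.End σ)
  refine ⟨m, hm, fun u x v k hk => ?_⟩
  have e : (fun s => M.evalFrom s x)^[k + m] = (fun s => M.evalFrom s x)^[k] := by
    have := h (fun s => M.evalFrom s x : Function.End σ) k hk
    exact this
  rw [DFA.mem_accepts, DFA.mem_accepts]
  unfold DFA.eval
  rw [DFA.evalFrom_of_append, DFA.evalFrom_of_append, DFA.evalFrom_of_append,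
    DFA.evalFrom_of_append, evalFrom_rep, evalFrom_rep, e]

theorem pump_mul {L : Language α} {m : ℕ} (h : ∀ (u x v : List α) (k : ℕ), m ≤ k →
      (u ++ rep x (k + m) ++ v ∈ L ↔ u ++ rep x k ++ v ∈ L)) (c : ℕ) :
    ∀ (u x v : List α) (k : ℕ), m ≤ k →
      (u ++ rep x (k + m * c) ++ v ∈ L ↔ u ++ rep x k ++ v ∈ L) := by
  induction c with
  | zero => intro u x v k _; simp
  | succ c ih =>
    intro u x v k hk
    rw [Nat.mul_succ, ← Nat.add_assoc, h u x v _ (by omega), ih u x v k hk]

/-- the word of a template -/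
def wd (l : List (List α × List α × ℕ)) : List α :=
  (l.map fun t => t.1 ++ rep t.2.1 t.2.2).flatten

/-- the language of a template: exponents `≥ m` may be increased by multiples of `m` -/
def tl (m : ℕ) : List (List α × List α × ℕ) → Language α
  | [] => 1
  | t :: l => (({t.1 ++ rep t.2.1 t.2.2} : Language α) *
      (if m ≤ t.2.2 then (KStar.kstar ({rep t.2.1 m} : Language α)) else 1)) * tl m l

theorem HL_tl (m : ℕ) (l : List (List α × List α × ℕ)) : HL 1 (tl m l) := by
  induction l with
  | nil => exact HL.one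
  | cons t l ih =>
    refine ((HL.word _).mul ?_).mul ih
    split_ifs
    · exact HL.star (HL.word _)
    · exact HL.one

theorem mem_kstar_rep {x : List α} {m : ℕ} {w : List α} :
    w ∈ (KStar.kstar ({rep x m} : Language α) : Language α) ↔ ∃ c : ℕ, w = rep x (m * c) := by
  rw [Language.mem_kstar]
  constructor
  · rintro ⟨S, rfl, hS⟩
    refine ⟨S.length, ?_⟩
    induction S with
    | nil => rfl
    | cons y S ih =>
      have hy : y = rep x m := hS y (by simp)
      rw [List.flatten_cons, ih (fun z hz => hS z (by simp [hz])), hy, ← rep_add]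
      congr 1
      rw [List.length_cons]; ring
  · rintro ⟨c, rfl⟩
    refine ⟨List.replicate c (rep x m), ?_, ?_⟩
    · induction c with
      | zero => rfl
      | succ c ih =>
        rw [List.replicate_succ, List.flatten_cons, ← ih, ← rep_add]
        congr 1; ring
    · intro y hy
      exact (List.eq_of_mem_replicate hy)

theorem tl_sound {L : Language α} {m : ℕ} (h : ∀ (u x v : List α) (k : ℕ), m ≤ k →
      (u ++ rep x (k + m) ++ v ∈ L ↔ u ++ rep x k ++ v ∈ L)) :
    ∀ (l : List (List α × List α × ℕ)) (u w : List α), w ∈ tl m l →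
      (u ++ w ∈ L ↔ u ++ wd l ∈ L) := by
  intro l
  induction l with
  | nil =>
    intro u w hw
    have : w = [] := hw
    rw [this]; rfl
  | cons t l ih =>
    intro u w hw
    obtain ⟨a, ha, b, hb, rfl⟩ := Language.mem_mul.1 hw
    obtain ⟨a1, ha1, a2, ha2, rfl⟩ := Language.mem_mul.1 ha
    have ha1' : a1 = t.1 ++ rep t.2.1 t.2.2 := ha1
    have e1 := ih (u ++ (a1 ++ a2)) b hb
    have e2 : u ++ (a1 ++ a2) ++ wd l ∈ L ↔ u ++ wd (t :: l) ∈ L := by
      have hw2 : wd (t :: l) = t.1 ++ rep t.2.1 t.2.2 ++ wd l := by simp [wd]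
      rw [hw2]
      by_cases hm : m ≤ t.2.2
      · rw [if_pos hm] at ha2
        obtain ⟨c, rfl⟩ := mem_kstar_rep.1 ha2
        have := pump_mul h c (u ++ t.1) t.2.1 (wd l) t.2.2 hm
        rw [rep_add] at this
        rw [ha1']
        simpa [List.append_assoc] using this
      · rw [if_neg hm] at ha2
        have : a2 = [] := ha2
        rw [this, ha1']
        simp [List.append_assoc]
    rw [← e2, ← e1]
    simp [List.append_assoc]

/-- reduce an exponent into `[0, 2m)` -/
def red (m k : ℕ) : ℕ := if k < m then k else m + (k - m) % m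

theorem red_lt {m : ℕ} (hm : 0 < m) (k : ℕ) : red m k < 2 * m := by
  unfold red
  split_ifs
  · omega
  · have := Nat.mod_lt (k - m) hm; omega

theorem mem_tl_red {m : ℕ} (l : List (List α × List α × ℕ)) :
    wd l ∈ tl m (l.map fun t => (t.1, t.2.1, red m t.2.2)) := by
  induction l with
  | nil => exact rfl
  | cons t l ih =>
    have hw2 : wd (t :: l) = (t.1 ++ rep t.2.1 t.2.2) ++ wd l := by simp [wd]
    rw [hw2]
    refine Language.mem_mul.2 ⟨_, ?_, _, ih, rfl⟩
    show _ ∈ (({t.1 ++ rep t.2.1 (red m t.2.2)} : Language α) *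
      (if m ≤ red m t.2.2 then (KStar.kstar ({rep t.2.1 m} : Language α)) else 1))
    by_cases hk : t.2.2 < m
    · have hr : red m t.2.2 = t.2.2 := if_pos hk
      rw [hr, if_neg (by omega)]
      exact Language.mem_mul.2 ⟨_, rfl, [], rfl, by simp⟩
    · have hr : red m t.2.2 = m + (t.2.2 - m) % m := if_neg hk
      rw [hr, if_pos (by omega)]
      refine Language.mem_mul.2 ⟨_, rfl, rep t.2.1 (m * ((t.2.2 - m) / m)),
        mem_kstar_rep.2 ⟨_, rfl⟩, ?_⟩
      rw [List.append_assoc, ← rep_add]
      congr 2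
      have := Nat.mod_add_div (t.2.2 - m) m
      omega

/-- **Bounded regular languages have height at most one.** -/
theorem HL_one_of_bounded [Finite α] {L : Language α} (hL : L.IsRegular) (r B : ℕ)
    (hb : ∀ w ∈ L, ∃ l : List (List α × List α × ℕ), l.length ≤ r ∧
      (∀ t ∈ l, t.1.length ≤ B ∧ t.2.1.length ≤ B) ∧ w = wd l) : HL 1 L := by
  obtain ⟨m, hm, h⟩ := pump hL
  let T : Set (List (List α × List α × ℕ)) :=
    {l | l.length ≤ r ∧ ∀ t ∈ l, t ∈ ({t | t.1.length ≤ B ∧ t.2.1.length ≤ B ∧ t.2.2 < 2 * m} :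
      Set (List α × List α × ℕ))}
  have hfin0 : ({t | t.1.length ≤ B ∧ t.2.1.length ≤ B ∧ t.2.2 < 2 * m} :
      Set (List α × List α × ℕ)).Finite := by
    refine (((List.finite_length_le α B).prod
      ((List.finite_length_le α B).prod (Set.finite_lt_nat (2 * m))))).subset ?_
    rintro t ⟨h1, h2, h3⟩
    exact ⟨h1, h2, h3⟩
  have hT : T.Finite := by
    have := hfin0.to_subtype
    have h0 := List.finite_length_le (↥({t | t.1.length ≤ B ∧ t.2.1.length ≤ B ∧ t.2.2 < 2 * m} :
      Set (List α × List α × ℕ))) r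
    refine (h0.image (List.map Subtype.val)).subset ?_
    rintro l ⟨hl1, hl2⟩
    refine ⟨l.pmap (fun t ht => ⟨t, ht⟩) hl2, ?_, ?_⟩
    · show (l.pmap _ hl2).length ≤ r
      rw [List.length_pmap]; exact hl1
    · rw [List.map_pmap]
      exact (List.pmap_eq_map (f := fun a => a) (l := l) hl2).trans (List.map_id l)
  have hT2 : ({l | l ∈ T ∧ wd l ∈ L} : Set (List (List α × List α × ℕ))).Finite :=
    hT.subset fun l hl => hl.1
  have h1 := HL.biUnion (k := 1) hT2 (L := tl m) (fun l _ => HL_tl m l)
  refine h1.congr fun w => ?_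
  constructor
  · intro hw
    obtain ⟨l, hl1, hl2, rfl⟩ := hb w hw
    refine ⟨l.map fun t => (t.1, t.2.1, red m t.2.2), ⟨⟨by simpa using hl1, ?_⟩, ?_⟩,
      mem_tl_red l⟩
    · intro t ht
      obtain ⟨s, hs, rfl⟩ := List.mem_map.1 ht
      exact ⟨(hl2 s hs).1, (hl2 s hs).2, red_lt hm _⟩
    · have := tl_sound h _ [] _ (mem_tl_red (m := m) l)
      simpa using this.1 (by simpa using hw)
  · rintro ⟨l, ⟨-, hl⟩, hw⟩
    have := tl_sound h l [] w hw
    simpa using this.2 (by simpa using hl)

end Crest.Agent.R320.Reg_236
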