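import Crest.Agent.R320.Main_621
import Crest.Agent.R320.WallU_228
import Crest.Agent.R320.ExactR_237
import Crest.Agent.R320.Reg_236

/-!
# Row 320: assembly of `Main_621.Data`, part 1: regularity tools (helper478)
-/

set_option autoImplicit false

namespace Crest.Agent.R320.All_478

universe u

variable {α : Type u}

/-- the language of a predicate -/
def Lg (p : List α → Prop) : Language α := {w | p w}

theorem mem_Lg {p : List α → Prop} {w : List α} : w ∈ Lg p ↔ p w := Iff.rfl

/-- regular predicate -/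
def Rg (p : List α → Prop) : Prop := (Lg p).IsRegular

theorem mem_lq {L : Language α} {x y : List α} : y ∈ L.leftQuotient x ↔ x ++ y ∈ L := Iff.rfl

theorem lq_app (L : Language α) (x y : List α) :
    (L.leftQuotient x).leftQuotient y = L.leftQuotient (x ++ y) := by
  ext w
  rw [mem_lq, mem_lq, mem_lq, List.append_assoc]

theorem rg_of {L : Language α} (h : L.IsRegular) {p : List α → Prop} (e : ∀ w, w ∈ L ↔ p w) :
    Rg p := by
  have : L = Lg p := by
    ext w; exact e w
  unfold Rg; rw [← this]; exact h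

theorem rg_congr {p q : List α → Prop} (h : Rg q) (e : ∀ w, p w ↔ q w) : Rg p :=
  rg_of h fun w => (e w).symm

theorem rg_bool {ι : Type*} [Finite ι] (P : ι → List α → Prop) (h : ∀ i, Rg (P i))
    (p : List α → Prop) (hL : ∀ w w', (∀ i, P i w ↔ P i w') → p w → p w') : Rg p := by
  classical
  unfold Rg
  rw [Language.isRegular_iff_finite_range_leftQuotient]
  have key : ∀ x x', (∀ i, (Lg (P i)).leftQuotient x = (Lg (P i)).leftQuotient x') →
      (Lg p).leftQuotient x = (Lg p).leftQuotient x' := by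
    intro x x' hx
    ext y
    rw [mem_lq, mem_lq]
    have hi : ∀ i, P i (x ++ y) ↔ P i (x' ++ y) := by
      intro i
      have h1 : y ∈ (Lg (P i)).leftQuotient x ↔ y ∈ (Lg (P i)).leftQuotient x' := by rw [hx i]
      exact h1
    exact ⟨hL _ _ hi, hL _ _ fun i => (hi i).symm⟩
  have hfin : (Set.range fun x => fun i => (Lg (P i)).leftQuotient x).Finite := by
    refine (Set.Finite.pi' (t := fun i => Set.range (Lg (P i)).leftQuotient)
      (fun i => Language.isRegular_iff_finite_range_leftQuotient.1 (h i))).subset ?_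
    rintro _ ⟨x, rfl⟩ i
    exact ⟨x, rfl⟩
  let g : (ι → Language α) → Language α := fun F =>
    if h : ∃ x, F = (fun i => (Lg (P i)).leftQuotient x) then (Lg p).leftQuotient h.choose else 0
  refine (hfin.image g).subset ?_
  rintro _ ⟨x, rfl⟩
  refine ⟨_, ⟨x, rfl⟩, ?_⟩
  have hex : ∃ x', (fun i => (Lg (P i)).leftQuotient x) =
    (fun i => (Lg (P i)).leftQuotient x') := ⟨x, rfl⟩
  show g _ = _
  simp only [g]
  rw [dif_pos hex]
  exact key _ _ fun i => (congrFun hex.choose_spec i).symm

theorem rg_quot {p : List α → Prop} (hL : Rg p) (x : List α) : Rg (fun y => p (x ++ y)) := by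
  unfold Rg at hL ⊢
  rw [Language.isRegular_iff_finite_range_leftQuotient] at hL ⊢
  refine hL.subset ?_
  rintro _ ⟨y, rfl⟩
  refine ⟨x ++ y, ?_⟩
  ext w
  rw [mem_lq, mem_lq]
  show p (x ++ y ++ w) ↔ p (x ++ (y ++ w))
  rw [List.append_assoc]

theorem rg_HL {k : ℕ} {p : List α → Prop} (h : Crest.Agent.R320.Hk_851.HL k (Lg p)) : Rg p :=
  Crest.Agent.R320.Reg_236.HL.isRegular h

theorem rg_fin {p : List α → Prop} (hs : {w | p w}.Finite) : Rg p :=
  rg_HL (Crest.Agent.R320.Hk_851.HL.finite (k := 0) hs)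

theorem rg_all {ι : Type*} [Finite ι] (P : ι → List α → Prop) (h : ∀ i, Rg (P i)) :
    Rg (fun w => ∀ i, P i w) :=
  rg_bool P h _ fun w w' e hw i => (e i).1 (hw i)

theorem rg_ex {ι : Type*} [Finite ι] (P : ι → List α → Prop) (h : ∀ i, Rg (P i)) :
    Rg (fun w => ∃ i, P i w) :=
  rg_bool P h _ fun w w' e hw => by
    obtain ⟨i, hi⟩ := hw
    exact ⟨i, (e i).1 hi⟩

theorem rg_and {p q : List α → Prop} (hp : Rg p) (hq : Rg q) : Rg (fun w => p w ∧ q w) :=
  rg_bool (fun b : Bool => if b then p else q) (fun b => by cases b <;> simp <;> assumption) _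
    fun w w' e hw => ⟨(e true).1 hw.1, (e false).1 hw.2⟩

theorem rg_not {p : List α → Prop} (hp : Rg p) : Rg (fun w => ¬ p w) :=
  rg_bool (fun _ : Unit => p) (fun _ => hp) _ fun w w' e hw h => hw ((e ()).2 h)

theorem rg_or {p q : List α → Prop} (hp : Rg p) (hq : Rg q) : Rg (fun w => p w ∨ q w) :=
  rg_bool (fun b : Bool => if b then p else q) (fun b => by cases b <;> simp <;> assumption) _
    fun w w' e hw => hw.imp (e true).1 (e false).1

theorem rg_const (p : Prop) : Rg (fun _ : List α => p) :=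
  rg_HL (k := 0) (Crest.Agent.R320.Hk_851.HL.const p)

/-- product in set form -/
theorem rg_mul {p q : List α → Prop} (hp : Rg p) (hq : Rg q) :
    Rg (fun w => ∃ a b, w = a ++ b ∧ p a ∧ q b) := by
  refine rg_of (Crest.Agent.R320.Reg_236.isRegular_mul hp hq) fun w => ?_
  rw [Language.mem_mul]
  constructor
  · rintro ⟨a, ha, b, hb, rfl⟩
    exact ⟨a, b, rfl, ha, hb⟩
  · rintro ⟨a, b, rfl, ha, hb⟩
    exact ⟨a, ha, b, hb, rfl⟩

theorem rg_ge [Finite α] (m : ℕ) : Rg (fun w : List α => m ≤ w.length) :=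
  rg_HL (k := 0) (Crest.Agent.R320.Hk_851.HL.length_ge m)

theorem rg_eq [Finite α] (m : ℕ) : Rg (fun w : List α => w.length = m) :=
  rg_HL (k := 0) (Crest.Agent.R320.Hk_851.HL.length_eq m)

/-- drop a fixed number of letters -/
theorem rg_drop [Finite α] (m : ℕ) {q : List α → Prop} (hq : Rg q) :
    Rg (fun w => m ≤ w.length ∧ q (w.drop m)) := by
  refine rg_congr (rg_mul (rg_eq (α := α) m) hq) fun w => ?_
  constructor
  · rintro ⟨h1, h2⟩
    exact ⟨w.take m, w.drop m, (List.take_append_drop m w).symm, by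
      rw [List.length_take]; omega, h2⟩
  · rintro ⟨a, b, rfl, ha, hb⟩
    refine ⟨by rw [List.length_append]; omega, ?_⟩
    rw [← ha, List.drop_left]; exact hb

theorem rg_prod {S : Type*} [Monoid S] [Finite S] (f : α → S) (s : S) :
    Rg (fun w : List α => (w.map f).prod = s) := by
  unfold Rg
  rw [Language.isRegular_iff_finite_range_leftQuotient]
  refine (Set.finite_range fun t : S => Lg (fun w : List α => t * (w.map f).prod = s)).subset ?_
  rintro _ ⟨x, rfl⟩
  refine ⟨(x.map f).prod, ?_⟩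
  ext y
  rw [mem_lq]
  show _ ↔ ((x ++ y).map f).prod = s
  rw [List.map_append, List.prod_append]; exact Iff.rfl

end Crest.Agent.R320.All_478
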