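import Crest.Agent.R320.All_105

/-!
# Row 320: the row from a zone gadget, an exact gadget, a ruler and walls (helper105)
-/

set_option autoImplicit false
set_option linter.all false

namespace Crest.Agent.R320.All_105

open Crest.Agent.R320.Hk_851 Crest.Agent.R320.Code110 Crest.Agent.R320.Nat_105

variable {α S V : Type} [Monoid S] [AddCommGroup V]

section main
variable {Wo : List α → Prop} {n W R B z p0 N N' K C0 R2 : ℕ} {φ : List α → S}
  {act : V → S → V} {BadT : ℕ → Prop} {lam rho : List α → Option V} {nu1 nu2 : List α → V}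
  {c : ℕ → ℕ} {lam2 rho2 : ℕ → List α → Option V}

theorem compl2 (hW : Walls Wo n W R B) (g1 : G1 φ act N N' BadT lam rho nu1)
    (g2 : G2 φ act K R2 c lam2 rho2 nu2) (hz : p0 + N + n + N ≤ z) (hz' : p0 + N' ≤ z)
    (hWp : 2 * p0 + 2 * N ≤ W) (hc : ∀ k < K, c k ≤ p0) (hR2 : 1 + 2 * C0 < R2)
    (hres : ∀ a b a' b', a < K → b < K → a' < K → b' < K → a ≠ b →
      |((c a : ℤ) - c b) - ((c a' : ℤ) - c b')| ≤ 2 * N → a = a' ∧ b = b')
    (hsp : ∀ t : ℤ, ∀ s : Finset (ℕ × ℕ), (∀ ab ∈ s, ab.1 < K ∧ ab.2 < K ∧ ab.1 ≠ ab.2 ∧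
      ∃ m : ℕ, (m : ℤ) = t + c ab.1 - c ab.2 ∧ BadT m) → s.card ≤ C0)
    {u t : List α} (hu : u ∈ Bad Wo z φ act p0 lam nu1 nu2)
    (ht : t ∈ Bad Wo z φ act p0 lam nu1 nu2) (x : V) :
    ∃ p q y, u ++ t = p ++ q ∧ p ∈ L2 K c lam2 x ∧
      q ∈ Rsem (XX Wo z) (Bad Wo z φ act p0 lam nu1 nu2) (T φ act p0 nu1 nu2) 1
        (L2 K c lam2) y := by
  classical
  obtain ⟨J, hJ, hJs⟩ := spoil hW hz hWp hc hres hsp hu.1 ht.1
  have hul := hu.1.1
  have htl : (u.take p0).length = p0 := by rw [List.length_take]; omega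
  obtain ⟨I, hI, hIs⟩ := g2.compl (u.take p0) x (fun k hk => by rw [htl]; exact hc k hk)
  have hne : (I \ J).Nonempty := by
    rw [← Finset.card_pos]
    have := Finset.le_card_sdiff J I
    omega
  obtain ⟨k, hk⟩ := hne
  rw [Finset.mem_sdiff] at hk
  obtain ⟨hkK, hlam, hrho⟩ := hIs k hk.1
  obtain ⟨b, hb⟩ := Option.isSome_iff_exists.1 hrho
  have hck := hc k hkK
  have e1 : (u.take p0).take (c k) = u.take (c k) := by
    rw [List.take_take, Nat.min_eq_left hck]
  rw [e1] at hlam
  have hpl : (u.take (c k)).length = c k := by rw [List.length_take]; omega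
  have e2 : u ++ t = u.take (c k) ++ (u.drop (c k) ++ t) := by
    rw [← List.append_assoc, List.take_append_drop]
  have e3 : (u ++ t).drop (c k) = u.drop (c k) ++ t := by
    rw [List.drop_append_of_le_length (by omega)]
  have e4 : (u.drop (c k)).take (p0 - c k) = (u.take p0).drop (c k) := by
    rw [List.drop_take]
  have htrue : b = act x (φ (u.take p0)) + nu2 (u.take p0) := by
    have h := g2.sound k hkK (u.take (c k)) ((u.take p0).drop (c k)) x b hpl hlam hb
    rw [← e1, List.take_append_drop] at h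
    exact h
  refine ⟨u.take (c k), u.drop (c k) ++ t, T φ act p0 nu1 nu2 t (T φ act p0 nu1 nu2 u x), e2,
    ⟨k, hkK, hpl, hlam⟩, ?_⟩
  intro x' p' hp'
  obtain ⟨k', hk', hpl', hlam'⟩ := hp'
  by_cases hkk : k' = k
  · subst hkk
    have hmem : p' ++ u.drop (c k') ∈ XX Wo z := by
      refine shift hW (A := u.take (c k')) (C := p') (Q := u.drop (c k')) (D := 0) (M := p0)
        (by rw [List.take_append_drop]; exact hu.1) (by omega) (by omega) (by omega) (by omega)
        (by omega) ?_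
      intro t' h1 h2 h3
      omega
    have hTe : T φ act p0 nu1 nu2 (p' ++ u.drop (c k')) x' = T φ act p0 nu1 nu2 u x := by
      have f1 : (p' ++ u.drop (c k')).take p0 = p' ++ (u.take p0).drop (c k') := by
        rw [List.take_append, List.take_of_length_le (by omega), hpl', e4]
      have f2 : (p' ++ u.drop (c k')).drop p0 = u.drop p0 := by
        rw [List.drop_append, List.drop_of_length_le (by omega), hpl', List.drop_drop,
          List.nil_append]
        congr 1; omega
      unfold T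
      rw [f1, f2, ← g2.sound k' hkK p' ((u.take p0).drop (c k')) x' b hpl' hlam' hb, ← htrue]
    by_cases hB : (p' ++ u.drop (c k')) ∈ Bad Wo z φ act p0 lam nu1 nu2
    · left
      rw [← List.append_assoc]
      exact mem_exact2 hB ht (by rw [hTe])
    · right
      exact Or.inl ⟨_, hmem, hB, ⟨t, by rw [List.append_assoc]⟩⟩
  · right
    obtain ⟨X', h1, h2, h3, h4⟩ := hJs k hkK hk.2 k' hk' hkk p' hpl'
    rw [e3] at h2
    refine Or.inl ⟨X', h1, ?_, h2⟩
    intro h5
    exact h5.2 (cut1 hW g1 hz hz' h1 h3 h4)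

variable [Finite α] [Finite V]

theorem finite_L1 (g1 : G1 φ act N N' BadT lam rho nu1) (x : V) :
    {p | p ∈ L1 φ act p0 lam nu2 x}.Finite := by
  refine (List.finite_length_le α (p0 + N)).subset ?_
  rintro p ⟨h1, h2⟩
  have := g1.len _ _ h2
  rw [List.length_drop] at this
  change p.length ≤ p0 + N
  omega

omit [Finite V] in
theorem finite_L2 (hc : ∀ k < K, c k ≤ p0) (x : V) : {p | p ∈ L2 K c lam2 x}.Finite := by
  refine (List.finite_length_le α p0).subset ?_
  rintro p ⟨k, h1, h2, h3⟩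
  have := hc k h1
  change p.length ≤ p0
  omega

omit [Finite V] in
theorem reg_T [Finite S] [Finite V] (g1 : G1 φ act N N' BadT lam rho nu1) (hφ0 : φ [] = 1)
    (hφ : ∀ u v, φ (u ++ v) = φ u * φ v) (x y : V) :
    Language.IsRegular ({X | T φ act p0 nu1 nu2 X x = y} : Language α) := by
  -- words of length ≥ p0 and < p0
  let ι := {U : List α // U.length ≤ p0} × S × V
  haveI : Finite {U : List α // U.length ≤ p0} := (List.finite_length_le α p0).to_subtype
  let Lι : ι → Language α := fun i =>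
    ({w | (i.1.1.length = p0 ∨ w = []) ∧ act (act x (φ i.1.1) + nu2 i.1.1) i.2.1 + i.2.2 = y ∧
      φ w = i.2.1 ∧ nu1 w = i.2.2} : Language α)
  have hreg : ∀ i, (Lι i).IsRegular := by
    intro i
    have h1 : Language.IsRegular ({w | (i.1.1.length = p0 ∨ w = [])} : Language α) :=
      FO_461.HL.isRegular (k := 0) (HL.setOf_or (HL.const _)
        ((HL.finite (Set.finite_singleton ([] : List α))).congr fun w => Iff.rfl))
    have h2 : Language.IsRegular
        ({w | act (act x (φ i.1.1) + nu2 i.1.1) i.2.1 + i.2.2 = y} : Language α) :=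
      FO_461.HL.isRegular (k := 0) (HL.const _)
    have h3 := reg_phi φ hφ0 hφ i.2.1
    have h4 := g1.reg i.2.2
    exact h1.inf (h2.inf (h3.inf h4))
  have h5 := reg_iUnion (L := fun i : ι => ({i.1.1} : Language α) * Lι i) fun i =>
    FO_461.regular_mul (FO_461.HL.isRegular (HL.word (k := 0) i.1.1)) (hreg i)
  have h6 : ({X | T φ act p0 nu1 nu2 X x = y} : Language α) =
      ({w | ∃ i : ι, w ∈ ({i.1.1} : Language α) * Lι i} : Language α) := by
    ext w
    constructor
    · intro hw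
      change T φ act p0 nu1 nu2 w x = y at hw
      refine ⟨(⟨w.take p0, by rw [List.length_take]; omega⟩, φ (w.drop p0), nu1 (w.drop p0)), ?_⟩
      refine Language.mem_mul.2 ⟨w.take p0, rfl, w.drop p0, ⟨?_, hw, rfl, rfl⟩,
        List.take_append_drop _ _⟩
      by_cases h : p0 ≤ w.length
      · left
        change (w.take p0).length = p0
        rw [List.length_take]; omega
      · right
        exact List.drop_of_length_le (by omega)
    · rintro ⟨⟨⟨U, hU⟩, s, d⟩, hw⟩
      obtain ⟨P, hP, Q, ⟨h7, h8, h9, h10⟩, rfl⟩ := Language.mem_mul.1 hw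
      have hP' : P = U := hP
      subst hP'
      change act (act x (φ ((P ++ Q).take p0)) + nu2 ((P ++ Q).take p0)) (φ ((P ++ Q).drop p0)) +
        nu1 ((P ++ Q).drop p0) = y
      have e1 : (P ++ Q).take p0 = P := by
        rcases h7 with h7 | h7
        · rw [← h7]; simp
        · subst h7; rw [List.append_nil, List.take_of_length_le hU]
      have e2 : (P ++ Q).drop p0 = Q := by
        rcases h7 with h7 | h7
        · rw [← h7]; simp
        · subst h7; rw [List.append_nil, List.drop_of_length_le hU]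
      rw [e1, e2]
      change φ Q = s at h9
      change nu1 Q = d at h10
      rw [h9, h10]
      exact h8
  rw [h6]
  exact h5

omit [Finite V] in
/-- **the row from the data** -/
theorem main [Finite S] [Finite V] (hW : Walls Wo n W R B)
    (g1 : G1 φ act N N' BadT lam rho nu1) (g2 : G2 φ act K R2 c lam2 rho2 nu2)
    (hz : p0 + N + n + N ≤ z) (hz' : p0 + N' ≤ z) (hz0 : 0 < z)
    (hWp : 2 * p0 + 2 * N ≤ W) (hc : ∀ k < K, c k ≤ p0) (hR2 : 1 + 2 * C0 < R2)
    (hres : ∀ a b a' b', a < K → b < K → a' < K → b' < K → a ≠ b →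
      |((c a : ℤ) - c b) - ((c a' : ℤ) - c b')| ≤ 2 * N → a = a' ∧ b = b')
    (hsp : ∀ t : ℤ, ∀ s : Finset (ℕ × ℕ), (∀ ab ∈ s, ab.1 < K ∧ ab.2 < K ∧ ab.1 ≠ ab.2 ∧
      ∃ m : ℕ, (m : ℤ) = t + c ab.1 - c ab.2 ∧ BadT m) → s.card ≤ C0)
    (hφ0 : φ [] = 1) (hφ : ∀ u v, φ (u ++ v) = φ u * φ v)
    (hadd : ∀ a b s, act (a + b) s = act a s + act b s)
    (hact1 : ∀ v, act v 1 = v) (hactm : ∀ v s t, act v (s * t) = act (act v s) t)
    (hfaith : ∀ s t : S, (∀ v, act v s = act v t) → s = t) (s : S) :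
    HL 3 ({w | φ w = s} : Language α) := by
  have hXX1 : HL 1 (XX Wo z) := (hl_XX hW z).mono (by omega)
  have H3 : ∀ x y, HL 1 (ZT (XX Wo z) (T φ act p0 nu1 nu2) x y) := fun x y =>
    (hl_block hW (reg_T (p0 := p0) (nu2 := nu2) g1 hφ0 hφ x y)).congr fun w => Iff.rfl
  have F1 := fun x => finite_L1 (p0 := p0) (nu2 := nu2) g1 x
  have F2 := fun x => finite_L2 (lam2 := lam2) hc x
  have hR1 := fun y => Rsem.hl (N := 0) F1 hXX1 hXX1 H3 y
  have hactz : ∀ s, act 0 s = 0 := by
    intro s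
    have := hadd 0 0 s
    simpa using this
  have hsub : ∀ a b s, act (a - b) s = act a s - act b s := by
    intro a b s
    have h := hadd (a - b) b s
    rw [sub_add_cancel] at h
    rw [h]; abel
  have H2 : HL 1 (Bad Wo z φ act p0 lam nu1 nu2) := by
    have h1 : HL 1 ({X | ∀ x, X ∈ ({X | ∃ y, X ∈ L1 φ act p0 lam nu2 x *
        Rsem (XX Wo z) (XX Wo z) (T φ act p0 nu1 nu2) 0 (L1 φ act p0 lam nu2) y} : Language α)} :
        Language α) :=
      HL.iInter fun x => HL.iUnion fun y => (HL.finite (F1 x)).mul (hR1 y)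
    refine (hXX1.sdiff h1).congr fun w => ?_
    constructor
    · rintro ⟨h2, h3⟩
      refine ⟨h2, fun h4 => h3 fun x => ?_⟩
      obtain ⟨y, hy⟩ := h4 x
      obtain ⟨p, hp, q, hq, rfl⟩ := Language.mem_mul.1 hy
      exact ⟨p, q, y, rfl, hp, hq⟩
    · rintro ⟨h2, h3⟩
      refine ⟨h2, fun h4 => h3 fun x => ?_⟩
      obtain ⟨p, q, y, rfl, hp, hq⟩ := h4 x
      exact ⟨y, Language.mem_mul.2 ⟨p, hp, q, hq, rfl⟩⟩
  refine Top5_110.top_sem (XX := XX Wo z) (Bad := Bad Wo z φ act p0 lam nu1 nu2)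
    (T := T φ act p0 nu1 nu2) (N1 := 0) (N2 := 1) (L1 := L1 φ act p0 lam nu2)
    (L2 := L2 K c lam2) hφ0 hφ hact1 hactm hfaith ⟨?_, ?_⟩ (fun u hu => hu.1) ?_ hXX1 H2 H3 ?_ F1
    F2 ?_ ?_ s
  · intro h
    have := h.1
    simp at this
    omega
  · intro u hu v hv h
    exact prefix_eq hu hv h
  · intro u hu v v'
    unfold T
    have e : φ u = φ (u.take p0) * φ (u.drop p0) := by rw [← hφ, List.take_append_drop]
    rw [e, hactm, hsub, hsub, hadd, hadd]
    abel
  · intro s
    refine ((hl_tail hW (z := z) (reg_phi φ hφ0 hφ s)).mono (by omega)).congr fun w => Iff.rfl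
  · intro u hu hnb x t ht
    have hcut : Cut1 Wo z φ act p0 lam nu1 nu2 u := by
      by_contra h
      exact hnb ⟨hu, h⟩
    have ht' : t = [] := by
      rw [pow_zero] at ht
      exact ht
    subst ht'
    obtain ⟨p, q, y, h1, h2, h3⟩ := hcut x
    exact ⟨p, q, y, by rw [List.append_nil]; exact h1, h2, h3⟩
  · intro u hu x t ht
    rw [pow_one] at ht
    exact compl2 hW g1 g2 hz hz' hWp hc hR2 hres hsp hu ht x

end main

end Crest.Agent.R320.All_105
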