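import Crest.Agent.R320.All1_478

/-!
# Row 320: assembly of `Main_621.Data`, part 2: zones (helper478)
-/

set_option autoImplicit false

namespace Crest.Agent.R320.All_478

universe u

variable {α : Type u}

section zones

variable (Wo : List α → Prop) (z1 N1 : ℕ) (BadT : ℕ → Prop)

/-- `t` is the first wall of `y` at a place `≥ z1` -/
def Fst (y : List α) (t : ℕ) : Prop :=
  z1 ≤ t ∧ t ≤ y.length ∧ Wo (y.take t) ∧ ∀ s, z1 ≤ s → s < t → ¬ Wo (y.take s)

/-- `y` ends at the next wall after its first wall `≥ z1` -/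
def Zy (y : List α) : Prop :=
  ∃ t, Fst Wo z1 y t ∧ t < y.length ∧ Wo y ∧ ∀ s, t < s → s < y.length → ¬ Wo (y.take s)

/-- visibly bad -/
def By (y : List α) : Prop :=
  ∃ t, Fst Wo z1 y t ∧
    ((∃ s, z1 ≤ s + N1 ∧ s ≤ z1 + N1 ∧ s ≤ t ∧ Wo (y.take s)) ∨ BadT t)

variable {Wo z1 N1 BadT}

theorem fst_unique {y : List α} {t t' : ℕ} (h : Fst Wo z1 y t) (h' : Fst Wo z1 y t') : t = t' := by
  rcases Nat.lt_trichotomy t t' with h1 | h1 | h1
  · exact absurd h.2.2.1 (h'.2.2.2 t h.1 h1)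
  · exact h1
  · exact absurd h'.2.2.1 (h.2.2.2 t' h'.1 h1)

theorem take_app {y x : List α} {s : ℕ} (h : s ≤ y.length) : (y ++ x).take s = y.take s := by
  rw [List.take_append_of_le_length h]

theorem fst_app {y x : List α} {t : ℕ} (ht : t ≤ y.length) :
    Fst Wo z1 (y ++ x) t ↔ Fst Wo z1 y t := by
  unfold Fst
  rw [take_app ht, List.length_append]
  constructor
  · rintro ⟨h1, _, h3, h4⟩
    refine ⟨h1, ht, h3, fun s hs1 hs2 => ?_⟩
    have := h4 s hs1 hs2
    rwa [take_app (by omega)] at this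
  · rintro ⟨h1, _, h3, h4⟩
    refine ⟨h1, by omega, h3, fun s hs1 hs2 => ?_⟩
    rw [take_app (by omega)]
    exact h4 s hs1 hs2

theorem exists_fst {y : List α} {s : ℕ} (h1 : z1 ≤ s) (h2 : s ≤ y.length) (h3 : Wo (y.take s)) :
    ∃ t, t ≤ s ∧ Fst Wo z1 y t := by
  classical
  have hex : ∃ t, z1 ≤ t ∧ Wo (y.take t) := ⟨s, h1, h3⟩
  have hsp := Nat.find_spec hex
  have hle : Nat.find hex ≤ s := Nat.find_min' hex ⟨h1, h3⟩
  refine ⟨Nat.find hex, hle, hsp.1, by omega, hsp.2, fun s' hs1 hs2 hW => ?_⟩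
  exact Nat.find_min hex hs2 ⟨hs1, hW⟩

theorem zy_code' {y y' x x' : List α} (h : Zy Wo z1 y) (h' : Zy Wo z1 y')
    (e : y ++ x = y' ++ x') (hl : y.length ≤ y'.length) : y = y' := by
  obtain ⟨t, ht, hty, hW, hno⟩ := h
  obtain ⟨t', ht', hty', hW', hno'⟩ := h'
  have e1 : y'.take y.length = y := by
    have := congrArg (List.take y.length) e
    rw [take_app (le_refl _), List.take_length, take_app hl] at this
    exact this.symm
  have hF : Fst Wo z1 y' t := by
    have h1 : Fst Wo z1 (y'.take y.length ++ y'.drop y.length) t := by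
      rw [e1]
      exact (fst_app ht.2.1).2 ht
    rwa [List.take_append_drop] at h1
  have htt := fst_unique ht' hF
  subst htt
  by_contra hne
  have hlt : y.length < y'.length := by
    rcases Nat.lt_or_ge y.length y'.length with h1 | h1
    · exact h1
    · exfalso; apply hne
      rw [← e1]
      exact List.take_of_length_le h1
  apply hno' y.length hty hlt
  rw [e1]; exact hW

theorem zy_code {y y' x x' : List α} (h : Zy Wo z1 y) (h' : Zy Wo z1 y')
    (e : y ++ x = y' ++ x') : y = y' := by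
  rcases Nat.le_total y.length y'.length with hl | hl
  · exact zy_code' h h' e hl
  · exact (zy_code' h' h e.symm hl).symm

theorem by_app {y x : List α} (h : By Wo z1 N1 BadT y) : By Wo z1 N1 BadT (y ++ x) := by
  obtain ⟨t, ht, h2⟩ := h
  refine ⟨t, (fst_app ht.2.1).2 ht, ?_⟩
  rcases h2 with ⟨s, h1, h2, h3, h4⟩ | h2
  · left
    refine ⟨s, h1, h2, h3, ?_⟩
    rw [take_app (by have := ht.2.1; omega)]; exact h4
  · right; exact h2

theorem by_of_app {y x : List α} {t : ℕ} (ht : Fst Wo z1 (y ++ x) t) (htl : t ≤ y.length)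
    (h : By Wo z1 N1 BadT (y ++ x)) : By Wo z1 N1 BadT y := by
  obtain ⟨t', ht', h2⟩ := h
  have e := fst_unique ht ht'
  subst e
  refine ⟨t, (fst_app htl).1 ht, ?_⟩
  rcases h2 with ⟨s, h1, h2, h3, h4⟩ | h2
  · left
    refine ⟨s, h1, h2, h3, ?_⟩
    rwa [take_app (by omega)] at h4
  · right; exact h2

open Classical in
/-- the first wall -/
noncomputable def tf (Wo : List α → Prop) (z1 : ℕ) (y : List α) : ℕ :=
  if h : ∃ t, Fst Wo z1 y t then h.choose else 0

theorem tf_eq {y : List α} {t : ℕ} (h : Fst Wo z1 y t) : tf Wo z1 y = t := by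
  classical
  have hex : ∃ t, Fst Wo z1 y t := ⟨t, h⟩
  unfold tf
  rw [dif_pos hex]
  exact fst_unique hex.choose_spec h

/-! regularity -/

/-- a wall `≥ z1` properly inside -/
def P1 (Wo : List α → Prop) (z1 : ℕ) (y : List α) : Prop :=
  ∃ a b, y = a ++ b ∧ (z1 ≤ a.length ∧ Wo a) ∧ 1 ≤ b.length

theorem p1_iff {y : List α} : P1 Wo z1 y ↔ ∃ s, z1 ≤ s ∧ s < y.length ∧ Wo (y.take s) := by
  constructor
  · rintro ⟨a, b, rfl, ⟨h1, h2⟩, h3⟩
    refine ⟨a.length, h1, by rw [List.length_append]; omega, ?_⟩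
    rw [List.take_left]; exact h2
  · rintro ⟨s, h1, h2, h3⟩
    exact ⟨y.take s, y.drop s, (List.take_append_drop _ _).symm,
      ⟨by rw [List.length_take]; omega, h3⟩, by rw [List.length_drop]; omega⟩

/-- `y` ends at its first wall -/
def F1 (Wo : List α → Prop) (z1 : ℕ) (y : List α) : Prop :=
  (z1 ≤ y.length ∧ Wo y) ∧ ¬ P1 Wo z1 y

theorem f1_iff {y : List α} : F1 Wo z1 y ↔ Fst Wo z1 y y.length := by
  unfold F1 Fst
  rw [p1_iff, List.take_length]
  constructor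
  · rintro ⟨⟨h1, h2⟩, h3⟩
    exact ⟨h1, le_refl _, h2, fun s hs1 hs2 hs3 => h3 ⟨s, hs1, hs2, hs3⟩⟩
  · rintro ⟨h1, _, h2, h3⟩
    exact ⟨⟨h1, h2⟩, fun ⟨s, hs1, hs2, hs3⟩ => h3 s hs1 hs2 hs3⟩

theorem zy_iff {y : List α} : Zy Wo z1 y ↔ (Wo y ∧ P1 Wo z1 y) ∧
    ¬ ∃ a b, y = a ++ b ∧ (Wo a ∧ P1 Wo z1 a) ∧ 1 ≤ b.length := by
  constructor
  · rintro ⟨t, ht, hty, hW, hno⟩
    refine ⟨⟨hW, p1_iff.2 ⟨t, ht.1, hty, ht.2.2.1⟩⟩, ?_⟩
    rintro ⟨a, b, rfl, ⟨ha, hp⟩, hb⟩
    obtain ⟨s, hs1, hs2, hs3⟩ := p1_iff.1 hp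
    have hts : t ≤ s := by
      by_contra hlt
      apply ht.2.2.2 s hs1 (by omega)
      rw [take_app (by omega)]; exact hs3
    apply hno a.length (by omega) (by rw [List.length_append]; omega)
    rw [List.take_left]; exact ha
  · rintro ⟨⟨hW, hp⟩, hno⟩
    obtain ⟨s, hs1, hs2, hs3⟩ := p1_iff.1 hp
    obtain ⟨t, hts, ht⟩ := exists_fst hs1 (by omega) hs3
    refine ⟨t, ht, by omega, hW, fun s' h1 h2 h3 => hno ?_⟩
    refine ⟨y.take s', y.drop s', (List.take_append_drop _ _).symm, ⟨h3, p1_iff.2 ?_⟩,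
      by rw [List.length_drop]; omega⟩
    refine ⟨t, ht.1, by rw [List.length_take]; omega, ?_⟩
    rw [List.take_take, Nat.min_eq_left (by omega)]
    exact ht.2.2.1

theorem rg_P1 [Finite α] (hW : Rg Wo) : Rg (P1 Wo z1) :=
  rg_mul (rg_and (rg_ge z1) hW) (rg_ge 1)

theorem rg_F1 [Finite α] (hW : Rg Wo) : Rg (F1 Wo z1) :=
  rg_and (rg_and (rg_ge z1) hW) (rg_not (rg_P1 hW))

theorem rg_Zy [Finite α] (hW : Rg Wo) : Rg (Zy Wo z1) :=
  rg_congr (rg_and (rg_and hW (rg_P1 (z1 := z1) hW)) (rg_not (rg_mul (rg_and hW (rg_P1 (z1 := z1) hW))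
    (rg_ge 1)))) fun _ => zy_iff

theorem by_iff {y : List α} : By Wo z1 N1 BadT y ↔ ∃ a b, y = a ++ b ∧ (F1 Wo z1 a ∧
    ((∃ c d, a = c ++ d ∧ ((z1 - N1 ≤ c.length ∧ ¬ (z1 + N1 + 1 ≤ c.length)) ∧ Wo c) ∧ True) ∨
      BadT a.length)) ∧ True := by
  constructor
  · rintro ⟨t, ht, h2⟩
    have hlt : (y.take t).length = t := by rw [List.length_take]; have := ht.2.1; omega
    refine ⟨y.take t, y.drop t, (List.take_append_drop _ _).symm, ⟨?_, ?_⟩, trivial⟩
    · rw [f1_iff, hlt]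
      have h1 : Fst Wo z1 (y.take t ++ y.drop t) t := by rw [List.take_append_drop]; exact ht
      exact (fst_app (by omega)).1 h1
    · rcases h2 with ⟨s, h1, h2, h3, h4⟩ | h2
      · left
        refine ⟨(y.take t).take s, (y.take t).drop s, (List.take_append_drop _ _).symm, ?_, trivial⟩
        have hls : ((y.take t).take s).length = s := by rw [List.length_take, hlt]; omega
        rw [hls, List.take_take, Nat.min_eq_left h3]
        exact ⟨⟨by omega, by omega⟩, h4⟩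
      · right; rw [hlt]; exact h2
  · rintro ⟨a, b, rfl, ⟨ha, h2⟩, -⟩
    rw [f1_iff] at ha
    refine ⟨a.length, (fst_app (le_refl _)).2 ha, ?_⟩
    rcases h2 with ⟨c, d, rfl, ⟨⟨h1, h2⟩, h3⟩, -⟩ | h2
    · left
      refine ⟨c.length, by omega, by omega, by rw [List.length_append]; omega, ?_⟩
      rw [List.append_assoc, List.take_left]; exact h3
    · right; exact h2

theorem rg_By [Finite α] (hW : Rg Wo) (hB : Rg (fun w : List α => BadT w.length)) :
    Rg (By Wo z1 N1 BadT) := by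
  refine rg_congr ?_ fun _ => by_iff
  exact rg_mul (rg_and (rg_F1 hW) (rg_or (rg_mul (rg_and (rg_and (rg_ge _) (rg_not (rg_ge _))) hW)
    (rg_const True)) hB)) (rg_const True)

end zones

end Crest.Agent.R320.All_478
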