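import Crest.Agent.R320.All2_478

/-!
# Row 320: assembly of `Main_621.Data`, part 3: both schemes (helper478)
-/

set_option autoImplicit false

namespace Crest.Agent.R320.All_478

open Crest.Agent.R320.Hk_851 Crest.Agent.R320.Star_621 Crest.Agent.R320.Two_621
  Crest.Agent.R320.Main_621

structure Ctx (α S : Type) [Monoid S] where
  f : α → S
  Wo : List α → Prop
  n : ℕ
  z1 : ℕ
  N1 : ℕ
  p0 : ℕ
  BadT : ℕ → Prop
  lam : List α → Option (Tok S)
  rho : List α → Option (Tok S)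
  nu : List α → Tok S
  NW : List α → Prop

variable {α S : Type} [Monoid S]

namespace Ctx

variable (C : Ctx α S)

def ph (w : List α) : S := (w.map C.f).prod

theorem ph_app (u v : List α) : C.ph (u ++ v) = C.ph u * C.ph v := by
  unfold ph; rw [List.map_append, List.prod_append]

noncomputable def dy (y : List α) : Tok S :=
  act (C.nu (y.take (tf C.Wo C.z1 y))) (C.ph (y.drop (tf C.Wo C.z1 y)))

def ZP (X : List α) : Prop := C.p0 ≤ X.length ∧ Zy C.Wo C.z1 (X.drop C.p0)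

def ZcP (X : List α) : Prop := C.ZP X ∧ By C.Wo C.z1 C.N1 C.BadT (X.drop C.p0)

noncomputable def dA (X : List α) : Tok S := C.dy (X.drop C.p0)

noncomputable def psiA : List α → Tok S → Tok S := aff C.ph C.dA

def LAp (v : Tok S) (P : List α) : Prop :=
  ∃ X1 P1, P = X1 ++ P1 ∧ X1.length = C.p0 ∧ C.lam P1 = some (act v (C.ph X1))

def RAp (t : Tok S) (Q : List α) : Prop :=
  (∀ P v, C.LAp v P → (C.ZP (P ++ Q) ∧ C.psiA (P ++ Q) v = t)) ∧ C.NW Q

def LA (v : Tok S) : Language α := Lg (C.LAp v)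
def RA (t : Tok S) : Language α := Lg (C.RAp t)
def Z : Language α := Lg C.ZP
def Zc : Language α := Lg C.ZcP

structure Ok : Prop where
  hloc : ∀ P Q : List α, C.n ≤ Q.length → (C.Wo (P ++ Q) ↔ C.Wo Q)
  gap : ∀ (P : List α) (d : ℕ), C.Wo P → 0 < d → d ≤ 2 * C.p0 + 2 * C.N1 + 1 →
    ¬ C.Wo (P.take (P.length - d))
  hz1 : C.n + 2 * C.N1 + 1 ≤ C.z1
  hp0 : 0 < C.p0
  sound : ∀ P Q v b, C.lam P = some v → C.rho Q = some b →
    b = act v (C.ph (P ++ Q)) + C.nu (P ++ Q)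
  len : ∀ P v, C.lam P = some v → P.length ≤ C.N1
  compl : ∀ Y : List α, 2 * C.N1 ≤ Y.length → ¬ C.BadT Y.length → ∀ v, ∃ P Q, Y = P ++ Q ∧
    C.lam P = some v ∧ (C.rho Q).isSome
  hNW : ∀ P Q : List α, C.ZP (P ++ Q) → C.NW Q
  hNW2 : ∀ w : List α, (∀ z, C.ZP z → ¬ z <+: w) → C.NW w

variable {C}

theorem zp_code {X X' x x' : List α} (h : C.ZP X) (h' : C.ZP X') (e : X ++ x = X' ++ x') :
    X = X' := by
  have e1 := congrArg (List.drop C.p0) e
  rw [List.drop_append_of_le_length h.1, List.drop_append_of_le_length h'.1] at e1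
  have e2 := zy_code h.2 h'.2 e1
  have e3 := congrArg (List.take C.p0) e
  rw [take_app h.1, take_app h'.1] at e3
  rw [← List.take_append_drop C.p0 X, e2, e3, List.take_append_drop]

theorem zp_ne (h : C.Ok) : ¬ C.ZP [] := by
  rintro ⟨h1, -⟩
  have := h.hp0
  simp at h1
  omega

theorem code (h : C.Ok) : Code C.Z :=
  ⟨zp_ne h, fun _ _ _ _ hz hz' e => zp_code hz hz' e⟩

theorem take_add (P Q : List α) (q : ℕ) : (P ++ Q).take (P.length + q) = P ++ Q.take q := by
  rw [List.take_append]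
  simp

theorem drop_add (P Q : List α) (q : ℕ) : (P ++ Q).drop (P.length + q) = Q.drop q := by
  rw [List.drop_append]
  simp

theorem wo_shift (h : C.Ok) {P Q : List α} {q : ℕ} (h1 : C.n ≤ q) (h2 : q ≤ Q.length) :
    C.Wo ((P ++ Q).take (P.length + q)) ↔ C.Wo (Q.take q) := by
  rw [take_add]
  exact h.hloc _ _ (by rw [List.length_take]; omega)

theorem wo_shift2 (h : C.Ok) {P P' Q : List α} {q : ℕ} (h1 : C.n ≤ q) (h2 : q ≤ Q.length) :
    C.Wo ((P ++ Q).take (P.length + q)) ↔ C.Wo ((P' ++ Q).take (P'.length + q)) :=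
  (wo_shift h h1 h2).trans (wo_shift h h1 h2).symm

theorem psiA_app (P Q : List α) (v : Tok S) :
    C.psiA (P ++ Q) v = act v (C.ph (P ++ Q)) + C.dA (P ++ Q) := rfl

theorem transfer (h : C.Ok) {A B Q : List α} {q : ℕ} (hA : A.length ≤ C.N1)
    (hB : B.length ≤ C.N1) (hF : Fst C.Wo C.z1 (A ++ Q) (A.length + q)) (hZ : Zy C.Wo C.z1 (A ++ Q))
    (hb : ¬ By C.Wo C.z1 C.N1 C.BadT (A ++ Q)) :
    Fst C.Wo C.z1 (B ++ Q) (B.length + q) ∧ Zy C.Wo C.z1 (B ++ Q) ∧ q ≤ Q.length := by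
  have hz := h.hz1
  have hnb : ∀ s, C.z1 ≤ s + C.N1 → s ≤ C.z1 + C.N1 → s ≤ A.length + q →
      ¬ C.Wo ((A ++ Q).take s) := fun s h1 h2 h3 h4 => hb ⟨_, hF, Or.inl ⟨s, h1, h2, h3, h4⟩⟩
  obtain ⟨f1, f2, f3, f4⟩ := hF
  have hF' : Fst C.Wo C.z1 (A ++ Q) (A.length + q) := ⟨f1, f2, f3, f4⟩
  rw [List.length_append] at f2
  have hq : C.z1 + C.N1 < A.length + q := by
    by_contra hlt
    exact hnb _ (by omega) (by omega) (le_refl _) f3
  have hFB : Fst C.Wo C.z1 (B ++ Q) (B.length + q) := by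
    refine ⟨by omega, by rw [List.length_append]; omega, ?_, ?_⟩
    · exact (wo_shift2 h (by omega) (by omega)).1 f3
    · intro s hs1 hs2 hs3
      obtain ⟨r, rfl⟩ : ∃ r, s = B.length + r := ⟨s - B.length, by omega⟩
      have h1 := (wo_shift2 (P' := A) h (by omega) (by omega)).1 hs3
      by_cases h2 : C.z1 ≤ A.length + r
      · exact f4 _ h2 (by omega) h1
      · exact hnb _ (by omega) (by omega) (by omega) h1
  refine ⟨hFB, ?_, by omega⟩
  obtain ⟨t, ht, hty, hW, hno⟩ := hZ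
  have e := fst_unique ht hF'
  subst e
  rw [List.length_append] at hty
  refine ⟨B.length + q, hFB, by rw [List.length_append]; omega, ?_, ?_⟩
  · exact (h.hloc _ _ (by omega)).2 ((h.hloc _ _ (by omega)).1 hW)
  · intro s hs1 hs2 hs3
    rw [List.length_append] at hs2
    obtain ⟨r, rfl⟩ : ∃ r, s = B.length + r := ⟨s - B.length, by omega⟩
    have h1 := (wo_shift2 (P' := A) h (by omega) (by omega)).1 hs3
    exact hno _ (by omega) (by rw [List.length_append]; omega) h1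

theorem dy_eq {A Q : List α} {q : ℕ} (hF : Fst C.Wo C.z1 (A ++ Q) (A.length + q)) :
    C.dy (A ++ Q) = act (C.nu (A ++ Q.take q)) (C.ph (Q.drop q)) := by
  unfold dy
  rw [tf_eq hF, take_add, drop_add]

theorem psi_val (h : C.Ok) {X1 A Q : List α} {q : ℕ} {v b : Tok S} (hX : X1.length = C.p0)
    (hF : Fst C.Wo C.z1 (A ++ Q) (A.length + q)) (hl : C.lam A = some (act v (C.ph X1)))
    (hr : C.rho (Q.take q) = some b) :
    C.psiA (X1 ++ A ++ Q) v = act b (C.ph (Q.drop q)) := by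
  rw [psiA_app, h.sound _ _ _ _ hl hr]
  unfold dA
  have e : (X1 ++ A ++ Q).drop C.p0 = A ++ Q := by
    rw [List.append_assoc, ← hX, List.drop_left]
  rw [e, dy_eq hF, act_add, act_mul, act_mul]
  congr 2
  rw [← ph_app, ← ph_app]
  congr 1
  simp

theorem cutA (h : C.Ok) {z : List α} (hz : C.ZP z) (hc : ¬ C.ZcP z) (v : Tok S) :
    Cut C.LA C.RA v z := by
  have hz1 := h.hz1
  have hb : ¬ By C.Wo C.z1 C.N1 C.BadT (z.drop C.p0) := fun hb => hc ⟨hz, hb⟩
  obtain ⟨t, ht, hty, hW, hno⟩ := hz.2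
  have hlt : ((z.drop C.p0).take t).length = t := by
    rw [List.length_take]; have := ht.2.1; omega
  obtain ⟨A, Q1, e, hl, hr⟩ := h.compl ((z.drop C.p0).take t)
    (by rw [hlt]; have := ht.1; omega)
    (by rw [hlt]; exact fun hB => hb ⟨t, ht, Or.inr hB⟩) (act v (C.ph (z.take C.p0)))
  obtain ⟨b, hb'⟩ := Option.isSome_iff_exists.1 hr
  set Q := Q1 ++ (z.drop C.p0).drop t with hQ
  have hy : z.drop C.p0 = A ++ Q := by
    rw [hQ, ← List.append_assoc, ← e, List.take_append_drop]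
  have htl : A.length + Q1.length = t := by rw [← List.length_append, ← e, hlt]
  have hX : (z.take C.p0).length = C.p0 := by rw [List.length_take]; have := hz.1; omega
  have hQt : Q.take Q1.length = Q1 := by rw [hQ, List.take_left]
  have hF : Fst C.Wo C.z1 (A ++ Q) (A.length + Q1.length) := by rw [← hy, htl]; exact ht
  have hzz : z = z.take C.p0 ++ A ++ Q := by
    rw [List.append_assoc, ← hy, List.take_append_drop]
  refine ⟨z.take C.p0 ++ A, Q, act b (C.ph (Q.drop Q1.length)), hzz, ⟨_, _, rfl, hX, hl⟩, ?_, ?_⟩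
  · rintro P' v' ⟨X', B, rfl, hX', hl'⟩
    obtain ⟨g1, g2, -⟩ := transfer h (h.len _ _ hl) (h.len _ _ hl') hF
      (by rw [← hy]; exact hz.2) (by rw [← hy]; exact hb)
    refine ⟨⟨by simp; omega, ?_⟩, psi_val h hX' g1 hl' (by rw [hQt]; exact hb')⟩
    rw [List.append_assoc, ← hX', List.drop_left]; exact g2
  · apply h.hNW (z.take C.p0 ++ A) Q
    rw [← hzz]; exact hz

theorem soundA (h : C.Ok) : Sound C.Z C.psiA C.LA C.RA := by
  refine ⟨?_, ?_⟩
  · rintro ω ⟨X1, P1, e, hX, -⟩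
    have := congrArg List.length e
    simp at this
    have := h.hp0
    omega
  · intro ω τ P Q z x y hP hQ hz e
    obtain ⟨h1, h2⟩ := hQ.1 P ω hP
    have e1 := zp_code h1 hz e
    exact ⟨e1, by rw [← e1]; exact h2.symm⟩

end Ctx

end Crest.Agent.R320.All_478
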