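import Crest.Agent.R320.All3_478

/-!
# Row 320: assembly of `Main_621.Data`, part 4: scheme B (helper478)
-/

set_option autoImplicit false

namespace Crest.Agent.R320.All_478

open Crest.Agent.R320.Hk_851 Crest.Agent.R320.Star_621 Crest.Agent.R320.Two_621
  Crest.Agent.R320.Main_621

variable {α S : Type} [Monoid S]

abbrev T2 (S : Type) : Type := (Function.End (Option (Tok S)))ᵐᵒᵖ

namespace Ctx

variable (C : Ctx α S)

def gg (a : α) : T2 S := MulOpposite.op fun o => o.map fun v => act v (C.f a)

theorem pr_gg (X : List α) : (X.map C.gg).prod =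
    MulOpposite.op fun o => o.map fun v => act v (C.ph X) := by
  induction X with
  | nil =>
    apply MulOpposite.unop_injective
    funext o
    cases o with
    | none => rfl
    | some v =>
      show some v = some (act v (C.ph []))
      have : C.ph [] = 1 := rfl
      rw [this, act_one]
  | cons a X ih =>
    rw [List.map_cons, List.prod_cons, ih]
    apply MulOpposite.unop_injective
    funext o
    cases o with
    | none => rfl
    | some v =>
      show some (act (act v (C.f a)) (C.ph X)) = some (act v (C.ph (a :: X)))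
      rw [act_mul]
      have : C.ph (a :: X) = C.f a * C.ph X := by
        unfold ph; rw [List.map_cons, List.prod_cons]
      rw [this]

def CutY (u : Tok S) (y : List α) : Prop :=
  ∃ A Q, y = A ++ Q ∧ C.lam A = some u ∧ ∃ t, C.RAp t Q

open Classical in
noncomputable def hh (y : List α) : T2 S :=
  MulOpposite.op fun o => o.bind fun u => if C.CutY u y then none else
    some (act u (C.ph y) + C.dy y)

noncomputable def sA : List α → T2 S := stepA C.psiA C.LA C.RA

variable {C}

theorem cut_iff {X y : List α} (hX : X.length = C.p0) (v : Tok S) :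
    Cut C.LA C.RA v (X ++ y) ↔ C.CutY (act v (C.ph X)) y := by
  constructor
  · rintro ⟨P, Q, τ, e, ⟨X1, A, rfl, hX1, hl⟩, hQ⟩
    rw [List.append_assoc] at e
    obtain ⟨rfl, e2⟩ := List.append_inj e (by omega)
    exact ⟨A, Q, e2, hl, τ, hQ⟩
  · rintro ⟨A, Q, rfl, hl, t, hQ⟩
    exact ⟨X ++ A, Q, t, by rw [List.append_assoc], ⟨X, A, rfl, hX, hl⟩, hQ⟩

theorem sA_app {X y : List α} (hX : X.length = C.p0) :
    C.sA (X ++ y) = (X.map C.gg).prod * C.hh y := by
  classical
  rw [pr_gg]
  apply MulOpposite.unop_injective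
  funext o
  cases o with
  | none => rfl
  | some v =>
    have h1 : (C.sA (X ++ y)).unop (some v) =
        if Cut C.LA C.RA v (X ++ y) then none else some (C.psiA (X ++ y) v) := by
      by_cases hc : Cut C.LA C.RA v (X ++ y)
      · rw [if_pos hc]; exact stepA_cut hc
      · rw [if_neg hc]; exact stepA_uncut hc
    have h2 : ((MulOpposite.op (fun o : Option (Tok S) => o.map fun v => act v (C.ph X)) : T2 S) *
        C.hh y).unop (some v) =
        if C.CutY (act v (C.ph X)) y then none else
          some (act (act v (C.ph X)) (C.ph y) + C.dy y) := rfl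
    rw [h1, h2]
    have e : C.psiA (X ++ y) v = act (act v (C.ph X)) (C.ph y) + C.dy y := by
      rw [psiA_app, act_mul, ph_app]
      unfold dA
      rw [← hX, List.drop_left]
    rw [e]
    by_cases hc : Cut C.LA C.RA v (X ++ y)
    · rw [if_pos hc, if_pos ((cut_iff hX v).1 hc)]
    · rw [if_neg hc, if_neg fun h => hc ((cut_iff hX v).2 h)]

/-! scheme B -/

structure CB (α S : Type) where
  K : ℕ
  c : ℕ → ℕ
  lamB : ℕ → List α → Option (Tok (T2 S))
  rhoB : ℕ → List α → T2 S → Option (Tok (T2 S))
  nuB : List α → T2 S → Tok (T2 S)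

variable (C) (B : CB α S)

noncomputable def dB (X : List α) : Tok (T2 S) := B.nuB (X.take C.p0) (C.hh (X.drop C.p0))

noncomputable def psiB : List α → Tok (T2 S) → Tok (T2 S) := aff C.sA (C.dB B)

def LBp (v : Tok (T2 S)) (P : List α) : Prop := ∃ k < B.K, P.length = B.c k ∧ B.lamB k P = some v

def RBk (k : ℕ) (t : Tok (T2 S)) (Q : List α) : Prop :=
  (Zy C.Wo C.z1 (Q.drop (C.p0 - B.c k)) ∧ C.p0 - B.c k ≤ Q.length) ∧
  By C.Wo C.z1 C.N1 C.BadT (Q.drop (C.p0 - B.c k)) ∧
  (∀ k' < B.K, By C.Wo C.z1 C.N1 C.BadT (Q.drop (C.p0 - B.c k')) → k' = k) ∧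
  (∀ P v, P.length = B.c k → B.lamB k P = some v → C.psiB B (P ++ Q) v = t)

def RBp (t : Tok (T2 S)) (Q : List α) : Prop :=
  (∃ k < B.K, C.RBk B k t Q) ∧ C.NW Q

structure OkB : Prop where
  hc : ∀ k < B.K, 0 < B.c k ∧ B.c k ≤ C.p0
  soundB : ∀ k < B.K, ∀ (P Q : List α) (y : T2 S) (v b : Tok (T2 S)), P.length = B.c k →
    B.lamB k P = some v → B.rhoB k Q y = some b →
      b = act v (((P ++ Q).map C.gg).prod * y) + B.nuB (P ++ Q) y
  complB : ∀ z, C.ZcP z → ∀ v, ∃ k < B.K, B.lamB k ((z.take C.p0).take (B.c k)) = some v ∧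
    (B.rhoB k ((z.take C.p0).drop (B.c k)) (C.hh (z.drop C.p0))).isSome ∧
    ∀ k' < B.K, By C.Wo C.z1 C.N1 C.BadT (z.drop (B.c k + (C.p0 - B.c k'))) → k' = k

variable {C B}

theorem drop_c {z : List α} (k k' : ℕ) (hk : B.c k ≤ z.length) :
    (z.drop (B.c k)).drop (C.p0 - B.c k') = z.drop (B.c k + (C.p0 - B.c k')) := by
  rw [List.drop_drop]

theorem cutB (h : C.Ok) (hB : C.OkB B) {z : List α} (hz : C.ZcP z) (v : Tok (T2 S)) :
    Cut (fun v => Lg (LBp B v)) (fun t => Lg (C.RBp B t)) v z := by
  obtain ⟨k, hk, hl, hr, huniq⟩ := hB.complB z hz v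
  obtain ⟨b, hb⟩ := Option.isSome_iff_exists.1 hr
  have hck := (hB.hc k hk).2
  have hpz := hz.1.1
  have e0 : (z.take C.p0).take (B.c k) = z.take (B.c k) := by
    rw [List.take_take, Nat.min_eq_left hck]
  have hPl : (z.take (B.c k)).length = B.c k := by rw [List.length_take]; omega
  have hkey : (z.drop (B.c k)).drop (C.p0 - B.c k) = z.drop C.p0 := by
    rw [List.drop_drop]; congr 1; omega
  refine ⟨z.take (B.c k), z.drop (B.c k), b, (List.take_append_drop _ _).symm,
    ⟨k, hk, hPl, by rw [← e0]; exact hl⟩, ⟨k, hk, ⟨?_, ?_⟩, ?_, ?_, ?_⟩, ?_⟩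
  · rw [hkey]; exact hz.1.2
  · rw [List.length_drop]; omega
  · rw [hkey]; exact hz.2
  · intro k' hk' hB'
    apply huniq k' hk'
    rwa [List.drop_drop] at hB'
  · intro P v' hP hl'
    have e1 : z.drop (B.c k) = (z.take C.p0).drop (B.c k) ++ z.drop C.p0 := by
      conv_lhs => rw [← List.take_append_drop C.p0 z]
      rw [List.drop_append_of_le_length (by rw [List.length_take]; omega)]
    set M := (z.take C.p0).drop (B.c k) with hM
    have hMl : M.length = C.p0 - B.c k := by rw [hM, List.length_drop, List.length_take]; omega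
    have hPM : (P ++ M).length = C.p0 := by rw [List.length_append]; omega
    rw [e1, ← List.append_assoc]
    show act v' (C.sA (P ++ M ++ z.drop C.p0)) + C.dB B (P ++ M ++ z.drop C.p0) = b
    rw [sA_app hPM, hB.soundB k hk P M _ v' b hP hl' hb]
    unfold dB
    rw [← hPM, List.take_left, List.drop_left, hPM]
  · apply h.hNW (z.take (B.c k)) (z.drop (B.c k))
    rw [List.take_append_drop]; exact hz.1

theorem wo_drop (h : C.Ok) {X : List α} {o s : ℕ} (h1 : C.n ≤ s) (h2 : o + s ≤ X.length) :
    C.Wo ((X.drop o).take s) ↔ C.Wo (X.take (o + s)) := by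
  have hl : (X.take o).length = o := by rw [List.length_take]; omega
  have := wo_shift (P := X.take o) (Q := X.drop o) h h1 (by rw [List.length_drop]; omega)
  rw [List.take_append_drop, hl] at this
  exact this.symm

theorem gap2 (h : C.Ok) {V : List α} {s t : ℕ} (hst : s < t) (ht : t ≤ V.length)
    (h1 : C.Wo (V.take s)) (h2 : C.Wo (V.take t)) : 2 * C.p0 + 2 * C.N1 + 1 < t - s := by
  by_contra hlt
  have hl : (V.take t).length = t := by rw [List.length_take]; omega
  apply h.gap (V.take t) (t - s) h2 (by omega) (by omega)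
  rw [hl, List.take_take, Nat.min_eq_left (by omega)]
  have : t - (t - s) = s := by omega
  rw [this]; exact h1

theorem soundB' (h : C.Ok) (hB : C.OkB B) : Sound C.Zc (C.psiB B) (fun v => Lg (LBp B v))
    (fun t => Lg (C.RBp B t)) := by
  have hz1 := h.hz1
  refine ⟨?_, ?_⟩
  · rintro ω ⟨k, hk, hP, -⟩
    have := (hB.hc k hk).1
    simp at hP
    omega
  · rintro ω τ P Q z x y ⟨k0, hk0, hP, hl⟩ hQ hz e
    obtain ⟨⟨k, hk, ⟨hZQ, hQl⟩, hBQ, huniq, hval⟩, -⟩ := hQ
    have hc0 := (hB.hc k0 hk0).2
    have hck := (hB.hc k hk).2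
    have hpz := hz.1.1
    -- z = P ++ Q0
    have e1 : z.take P.length = P := by
      have := congrArg (List.take P.length) e
      rw [List.append_assoc, List.take_left, take_app (by omega)] at this
      exact this.symm
    obtain ⟨Q0, rfl⟩ : ∃ Q0, z = P ++ Q0 := ⟨z.drop P.length, by
      conv_lhs => rw [← List.take_append_drop P.length z, e1]⟩
    have e2 : Q ++ x = Q0 ++ y := by
      rw [List.append_assoc, List.append_assoc] at e
      exact List.append_cancel_left e
    rw [List.length_append] at hpz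
    have hd0 : (P ++ Q0).drop C.p0 = Q0.drop (C.p0 - B.c k0) := by
      have : C.p0 = P.length + (C.p0 - B.c k0) := by omega
      conv_lhs => rw [this]
      rw [drop_add]
    have hZ0 : Zy C.Wo C.z1 (Q0.drop (C.p0 - B.c k0)) := by rw [← hd0]; exact hz.1.2
    have hB0 : By C.Wo C.z1 C.N1 C.BadT (Q0.drop (C.p0 - B.c k0)) := by rw [← hd0]; exact hz.2
    set o0 := C.p0 - B.c k0 with ho0
    set o := C.p0 - B.c k with ho
    have hQ0l : o0 ≤ Q0.length := by omega
    -- first walls
    obtain ⟨t0, ht0, hty0, hW0, hno0⟩ := hZ0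
    obtain ⟨t, ht, hty, hW, hno⟩ := hZQ
    rw [List.length_drop] at hty hty0
    have hvis : o0 + t0 ≤ Q.length := by
      by_contra hlt
      -- walls of Q0 at o + t and |Q|
      have hQQ : Q.length < Q0.length := by omega
      have hpre : Q0.take Q.length = Q := by
        have := congrArg (List.take Q.length) e2
        rw [List.take_left, take_app (by omega)] at this
        exact this.symm
      have w1 : C.Wo (Q.take (o + t)) :=
        (wo_drop h (by have := ht.1; omega) (by omega)).1 ht.2.2.1
      have w2 : C.Wo Q := by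
        have h3 := (h.hloc (Q.take o) (Q.drop o) (by rw [List.length_drop]; have := ht.1; omega)).2 hW
        rwa [List.take_append_drop] at h3
      have hg := gap2 h (V := Q) (s := o + t) (t := Q.length) (by omega) (le_refl _) w1
        (by rw [List.take_length]; exact w2)
      -- |Q| < o0 + z1
      have hlt2 : Q.length < o0 + C.z1 := by
        by_contra hge
        obtain ⟨s, hs⟩ : ∃ s, Q.length = o0 + s := ⟨Q.length - o0, by omega⟩
        apply ht0.2.2.2 s (by omega) (by omega)
        rw [wo_drop h (by omega) (by omega), ← hs, hpre]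
        exact w2
      have := ht.1
      omega
    have hBQ0 : By C.Wo C.z1 C.N1 C.BadT (Q.drop o0) := by
      have e3 : Q.drop o0 ++ x = Q0.drop o0 ++ y := by
        have := congrArg (List.drop o0) e2
        rwa [List.drop_append_of_le_length (by omega), List.drop_append_of_le_length hQ0l] at this
      have hF : Fst C.Wo C.z1 (Q.drop o0 ++ x) t0 := by
        rw [e3]; exact (fst_app ht0.2.1).2 ht0
      refine by_of_app hF (by rw [List.length_drop]; omega) ?_
      rw [e3]; exact by_app hB0
    have hkk : k0 = k := huniq k0 hk0 hBQ0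
    subst hkk
    have e3 : Q.drop o0 ++ x = Q0.drop o0 ++ y := by
      have := congrArg (List.drop o0) e2
      rwa [List.drop_append_of_le_length (by omega), List.drop_append_of_le_length hQ0l] at this
    have e4 := zy_code ⟨t, ht, by rw [List.length_drop]; exact hty, hW, hno⟩
      ⟨t0, ht0, by rw [List.length_drop]; exact hty0, hW0, hno0⟩ e3
    have e5 := congrArg (List.take o0) e2
    rw [take_app (by omega), take_app hQ0l] at e5
    have e6 : Q = Q0 := by
      rw [← List.take_append_drop o0 Q, e4, e5, List.take_append_drop]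
    subst e6
    exact ⟨rfl, (hval P ω hP hl).symm⟩

end Ctx

end Crest.Agent.R320.All_478
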