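import Mathlib
import Crest.Agent.R320.ExactR_237

/-!
# Row 320, P3 = scheme 2 in the frozen form of 163 #13363 (left looking block code `XX`)

Scheme 2 cuts at the places `c k ≤ p0` of a block; the left label is 237's exact gadget on the
first `p0` letters (`ExactR_237.exact_gadget`, tail letter `1`).  The right word `Q` must contain
the rest of the block and one more full block; it lists all ruler marks `k'` for which the
hypothetical block starting `c k'` letters left of `Q` is bad, and is legal iff exactly one mark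
is left.  Everything about walls is a hypothesis: `hXX`, `hBad` (membership in `XX` and badness do
not depend on the letters left of the place), `hnext` (every hypothetical block ends inside `Q`)
and `hspoil` (fewer than `R` marks are spoiled).
-/

set_option autoImplicit false

namespace Crest.Agent.R320.P3_623

open Crest.Agent.R320.ExactR_237

theorem phi_eq_pr {A S : Type} [Monoid S] (φ : List A → S) (h1 : φ [] = 1)
    (h2 : ∀ u v, φ (u ++ v) = φ u * φ v) (u : List A) : φ u = pr (fun a => φ [a]) u := by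
  induction u with
  | nil => simp [pr, h1]
  | cons a u ih =>
    have h3 : a :: u = [a] ++ u := rfl
    rw [h3, h2, ih, pr_append]
    simp [pr]

section defs

variable {A S V : Type} [Monoid S] [AddCommGroup V]

/-- mark `k` is a candidate: the hypothetical block is bad -/
def Cand (c : ℕ → ℕ) (XX : Set (List A)) (Bad : List A → Prop) (k : ℕ) (Q : List A) : Prop :=
  ∃ P Q' : List A, P.length = c k ∧ Q' <+: Q ∧ P ++ Q' ∈ XX ∧ Bad (P ++ Q')

/-- the hypothetical block of mark `k` ends inside `Q` -/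
def Ends (c : ℕ → ℕ) (XX : Set (List A)) (k : ℕ) (Q : List A) : Prop :=
  ∃ P Q' : List A, P.length = c k ∧ Q' <+: Q ∧ P ++ Q' ∈ XX

/-- right labels of scheme 2 as a relation -/
def RR2 (φ : List A → S) (act : V → S → V) (K : ℕ) (c : ℕ → ℕ) (p0 : ℕ) (XX : Set (List A))
    (Bad : List A → Prop) (nu1 : List A → V) (T : V → List A → V)
    (rho : ℕ → List A → S → Option V) (Q : List A) (b : V) : Prop :=
  (∀ k < K, Ends c XX k Q) ∧ ∃ k < K, Cand c XX Bad k Q ∧
    (∀ k' < K, Cand c XX Bad k' Q → k' = k) ∧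
    ∃ (P0 Q1 X2 : List A) (b' : V), Q = Q1 ++ X2 ∧ P0.length = c k ∧ P0 ++ Q1 ∈ XX ∧ X2 ∈ XX ∧
      rho k (Q1.take (p0 - c k)) 1 = some b' ∧
      b = T (act b' (φ (Q1.drop (p0 - c k))) + nu1 (Q1.drop (p0 - c k))) X2

open Classical in
/-- right labels of scheme 2 -/
noncomputable def R2 (φ : List A → S) (act : V → S → V) (K : ℕ) (c : ℕ → ℕ) (p0 : ℕ)
    (XX : Set (List A)) (Bad : List A → Prop) (nu1 : List A → V) (T : V → List A → V)
    (rho : ℕ → List A → S → Option V) (Q : List A) : Option V :=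
  if h : ∃ b, RR2 φ act K c p0 XX Bad nu1 T rho Q b then some h.choose else none

/-- left labels of scheme 2 -/
def L2 (K : ℕ) (c : ℕ → ℕ) (lam : ℕ → List A → Option V) (u : List A) (v : V) : Prop :=
  ∃ k < K, u.length = c k ∧ lam k u = some v

theorem prefix_unique {XX : Set (List A)} (hPC : ∀ X ∈ XX, ∀ Y, X ++ Y ∈ XX → Y = [])
    {p0 : ℕ} (hXX : ∀ P P' Q : List A, P.length = P'.length → P.length ≤ p0 →
      P ++ Q ∈ XX → P' ++ Q ∈ XX)
    {P P' Q Q1 Q2 : List A} (hl : P.length = P'.length) (hp : P.length ≤ p0)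
    (h1 : Q1 <+: Q) (h2 : Q2 <+: Q) (m1 : P ++ Q1 ∈ XX) (m2 : P' ++ Q2 ∈ XX) : Q1 = Q2 := by
  have m3 : P ++ Q2 ∈ XX := hXX P' P Q2 hl.symm (hl ▸ hp) m2
  rcases List.prefix_or_prefix_of_prefix h1 h2 with h | h
  · obtain ⟨Y, rfl⟩ := h
    have := hPC _ m1 Y (by rwa [List.append_assoc])
    rw [this, List.append_nil]
  · obtain ⟨Y, rfl⟩ := h
    have := hPC _ m3 Y (by rwa [List.append_assoc])
    rw [this, List.append_nil]

theorem RR2_fun {φ : List A → S} {act : V → S → V} {K : ℕ} {c : ℕ → ℕ} {p0 : ℕ}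
    {XX : Set (List A)} {Bad : List A → Prop} {nu1 : List A → V} {T : V → List A → V}
    {rho : ℕ → List A → S → Option V} (hcp : ∀ k < K, c k ≤ p0)
    (hPC : ∀ X ∈ XX, ∀ Y, X ++ Y ∈ XX → Y = [])
    (hXX : ∀ P P' Q : List A, P.length = P'.length → P.length ≤ p0 → P ++ Q ∈ XX → P' ++ Q ∈ XX)
    {Q : List A} {b b2 : V}
    (h : RR2 φ act K c p0 XX Bad nu1 T rho Q b) (h2 : RR2 φ act K c p0 XX Bad nu1 T rho Q b2) :
    b = b2 := by
  obtain ⟨_, k, hk, hc, _, P0, Q1, X2, b', hQ, hP0, hm, hX2, hr, hb⟩ := h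
  obtain ⟨_, k2, hk2, hc2, hu2, P0', Q1', X2', b'', hQ', hP0', hm', hX2', hr', hb'⟩ := h2
  have hkk : k = k2 := hu2 k hk hc
  subst hkk
  have hQ1 : Q1 = Q1' := prefix_unique hPC hXX (Q := Q) (hP0.trans hP0'.symm)
    (hP0 ▸ hcp k hk) ⟨X2, hQ.symm⟩ ⟨X2', hQ'.symm⟩ hm hm'
  subst hQ1
  have hX : X2 = X2' := by
    rw [hQ] at hQ'
    exact List.append_cancel_left hQ'
  subst hX
  rw [hr] at hr'
  have := Option.some.inj hr'
  subst this
  rw [hb, hb']

theorem R2_iff {φ : List A → S} {act : V → S → V} {K : ℕ} {c : ℕ → ℕ} {p0 : ℕ}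
    {XX : Set (List A)} {Bad : List A → Prop} {nu1 : List A → V} {T : V → List A → V}
    {rho : ℕ → List A → S → Option V} (hcp : ∀ k < K, c k ≤ p0)
    (hPC : ∀ X ∈ XX, ∀ Y, X ++ Y ∈ XX → Y = [])
    (hXX : ∀ P P' Q : List A, P.length = P'.length → P.length ≤ p0 → P ++ Q ∈ XX → P' ++ Q ∈ XX)
    (Q : List A) (b : V) :
    R2 φ act K c p0 XX Bad nu1 T rho Q = some b ↔ RR2 φ act K c p0 XX Bad nu1 T rho Q b := by
  unfold R2
  constructor
  · intro h
    split_ifs at h with hex
    have h1 := hex.choose_spec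
    rw [Option.some.inj h] at h1
    exact h1
  · intro h
    have hex : ∃ b, RR2 φ act K c p0 XX Bad nu1 T rho Q b := ⟨b, h⟩
    rw [dif_pos hex]
    rw [RR2_fun hcp hPC hXX hex.choose_spec h]

end defs

/-- **P3**: scheme 2 in the form of 163's `top` -/
theorem scheme2 {A S V : Type} [Monoid S] [Fintype S] [Fintype V] [AddCommGroup V]
    (φ : List A → S) (hφ1 : φ [] = 1) (hφ : ∀ u v, φ (u ++ v) = φ u * φ v)
    (act : V → S → V) (R : ℕ) :
    ∃ K : ℕ, ∀ c : ℕ → ℕ, (∀ i j, i < j → j < K → c i < c j) →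
      ∀ p0 : ℕ, (∀ k < K, c k ≤ p0) →
      ∃ (nu2 : List A → V) (lam : ℕ → List A → Option V) (rho : ℕ → List A → S → Option V),
      ∀ (XX : Set (List A)) (Bad : List A → Prop) (nu1 : List A → V) (T : V → List A → V),
        (∀ X ∈ XX, ∀ v, T v X =
          act (act v (φ (X.take p0)) + nu2 (X.take p0)) (φ (X.drop p0)) + nu1 (X.drop p0)) →
        (∀ X ∈ XX, p0 < X.length) →
        (∀ X ∈ XX, ∀ Y, X ++ Y ∈ XX → Y = []) →
        (∀ P P' Q : List A, P.length = P'.length → P.length ≤ p0 → P ++ Q ∈ XX → P' ++ Q ∈ XX) →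
        (∀ P P' Q : List A, P.length = P'.length → P.length ≤ p0 → P ++ Q ∈ XX →
          Bad (P ++ Q) → Bad (P' ++ Q)) →
        (∀ X ∈ XX, ∀ X2 ∈ XX, Bad X → ∀ k < K, ∀ k' < K, Ends c XX k' ((X ++ X2).drop (c k))) →
        (∀ X ∈ XX, ∀ X2 ∈ XX, Bad X → ∀ I : Finset ℕ,
          (∀ k ∈ I, k < K ∧ ∃ k' < K, k' ≠ k ∧ Cand c XX Bad k' ((X ++ X2).drop (c k))) →
          I.card < R) →
        (∀ P v Q b, L2 K c lam P v → R2 φ act K c p0 XX Bad nu1 T rho Q = some b →
          (∀ X ∈ XX, X <+: P ++ Q → Bad X) →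
          ∃ Q1 X2, Q = Q1 ++ X2 ∧ Q1 ≠ [] ∧ P ++ Q1 ∈ XX ∧ X2 ∈ XX ∧
            T (T v (P ++ Q1)) X2 = b) ∧
        (∀ X ∈ XX, ∀ X2 ∈ XX, Bad X → ∀ v, ∃ P Q, X ++ X2 = P ++ Q ∧ P.length < X.length ∧
          P.length ≤ p0 ∧ L2 K c lam P v ∧
          (R2 φ act K c p0 XX Bad nu1 T rho Q).isSome) := by
  classical
  have hpr : φ = pr (fun a => φ [a]) := funext (phi_eq_pr φ hφ1 hφ)
  obtain ⟨K, hK⟩ := exact_gadget A S V (fun a => φ [a]) act R
  refine ⟨K, fun c hc p0 hcp => ?_⟩
  obtain ⟨lam, rho, nug, hsound, hcomp⟩ := hK c hc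
  rw [← hpr] at hsound
  refine ⟨fun X => nug X 1, lam, rho, ?_⟩
  intro XX Bad nu1 T hT hlen hPC hXX hBad hnext hspoil
  have hiff := fun Q b => R2_iff (φ := φ) (act := act) (Bad := Bad) (nu1 := nu1) (T := T)
    (rho := rho) hcp hPC hXX Q b
  constructor
  · intro P v Q b hL hR hprom
    rw [hiff] at hR
    obtain ⟨hends, k', hk', hck', huniq, P0, Q1, X2, b', hQ, hP0, hm, hX2, hrho, hb⟩ := hR
    obtain ⟨k, hk, hPk, hlam⟩ := hL
    have hPp : P.length ≤ p0 := hPk ▸ hcp k hk
    -- the true block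
    obtain ⟨Pd, Q', hPd, hQ', hmd⟩ := hends k hk
    have hmt : P ++ Q' ∈ XX := hXX Pd P Q' (hPd.trans hPk.symm) (hPd ▸ hcp k hk) hmd
    have hbt : Bad (P ++ Q') := by
      obtain ⟨Z, hZ⟩ := hQ'
      exact hprom _ hmt ⟨Z, by rw [List.append_assoc, hZ]⟩
    have hkk : k = k' := huniq k hk ⟨P, Q', hPk, hQ', hmt, hbt⟩
    subst hkk
    have hmP : P ++ Q1 ∈ XX := hXX P0 P Q1 (hP0.trans hPk.symm) (hP0 ▸ hcp k hk) hm
    have hlen1 := hlen _ hmP
    rw [List.length_append] at hlen1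
    refine ⟨Q1, X2, hQ, ?_, hmP, hX2, ?_⟩
    · rintro rfl
      simp only [List.length_nil] at hlen1
      omega
    · have hs := hsound k hk P (Q1.take (p0 - c k)) 1 v b' hPk hlam hrho
      have htake : (P ++ Q1).take p0 = P ++ Q1.take (p0 - c k) := by
        rw [List.take_append, List.take_of_length_le hPp, hPk]
      have hdrop : (P ++ Q1).drop p0 = Q1.drop (p0 - c k) := by
        rw [List.drop_append, List.drop_of_length_le hPp, hPk, List.nil_append]
      rw [hT _ hmP, htake, hdrop, hb, hs, mul_one]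
  · intro X hX X2 hX2 hbad v
    have hXl := hlen X hX
    obtain ⟨I, hIc, hI⟩ := hcomp (X.take p0) 1 v (by
      intro k hk
      rw [List.length_take]
      have := hcp k hk
      omega)
    have hns : ∃ k ∈ I, ¬ ∃ k' < K, k' ≠ k ∧ Cand c XX Bad k' ((X ++ X2).drop (c k)) := by
      by_contra hcon
      push Not at hcon
      have := hspoil X hX X2 hX2 hbad I (fun k hk => ⟨(hI k hk).1, hcon k hk⟩)
      omega
    obtain ⟨k, hkI, hk⟩ := hns
    obtain ⟨hkK, hlam, hrho⟩ := hI k hkI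
    have hckp := hcp k hkK
    have hckX : c k ≤ X.length := by omega
    refine ⟨X.take (c k), X.drop (c k) ++ X2, ?_, ?_, ?_, ?_, ?_⟩
    · rw [← List.append_assoc, List.take_append_drop]
    · rw [List.length_take]; omega
    · rw [List.length_take]; omega
    · refine ⟨k, hkK, ?_, ?_⟩
      · rw [List.length_take]; omega
      · rw [List.take_take, min_eq_left hckp] at hlam
        exact hlam
    · have hdr : (X ++ X2).drop (c k) = X.drop (c k) ++ X2 := by
        rw [List.drop_append_of_le_length hckX]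
      rw [hdr] at hk
      obtain ⟨b', hb'⟩ := Option.isSome_iff_exists.1 hrho
      have hPl : (X.take (c k)).length = c k := by rw [List.length_take]; omega
      have hXe : X.take (c k) ++ X.drop (c k) = X := List.take_append_drop _ _
      rw [Option.isSome_iff_exists]
      refine ⟨_, (hiff _ _).2 ⟨?_, k, hkK, ?_, ?_, X.take (c k), X.drop (c k), X2, b', rfl, hPl,
        by rw [hXe]; exact hX, hX2, ?_, rfl⟩⟩
      · intro k' hk'
        have := hnext X hX X2 hX2 hbad k hkK k' hk'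
        rwa [hdr] at this
      · exact ⟨X.take (c k), X.drop (c k), hPl, ⟨X2, rfl⟩, by rw [hXe]; exact hX,
          by rw [hXe]; exact hbad⟩
      · intro k' hk' hc'
        by_contra hne
        exact hk ⟨k', hk', hne, hc'⟩
      · have h2 : (X.drop (c k)).take (p0 - c k) = (X.take p0).drop (c k) := by
          rw [List.drop_take]
        rw [h2]
        exact hb'

end Crest.Agent.R320.P3_623
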