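import Mathlib
import Crest.Agent.R320.P3_623

/-!
# Row 320: all-words instance, combinatorial half (helper740)

Left-looking walls, the natural block code `XX`, gadget 1 as a black box, `P3_623.scheme2`:
`s1`, `cc1`, `hnext`, `hspoil`.
-/

set_option autoImplicit false

namespace Crest.Agent.R320.AllA_740

open Crest.Agent.R320.P3_623

section comb

variable {A : Type}

/-- left-looking walls -/
structure Wal (n W : ℕ) (Wo : List A → Prop) : Prop where
  loc : ∀ P Q : List A, n ≤ Q.length → (Wo (P ++ Q) ↔ Wo Q)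
  len : ∀ Q : List A, Wo Q → n ≤ Q.length
  gap : ∀ (X : List A) (s t : ℕ), s < t → t ≤ X.length → Wo (X.take s) → Wo (X.take t) → s + W ≤ t

/-- the natural block code -/
def XX (Wo : List A → Prop) (z : ℕ) : Set (List A) :=
  {X | z ≤ X.length ∧ Wo X ∧ ∀ t, z ≤ t → t < X.length → ¬ Wo (X.take t)}

variable {n W z : ℕ} {Wo : List A → Prop}

theorem Wal.take_app (h : Wal n W Wo) (P Q : List A) (t : ℕ) (h1 : P.length + n ≤ t)
    (h2 : t ≤ P.length + Q.length) :
    Wo ((P ++ Q).take t) ↔ Wo (Q.take (t - P.length)) := by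
  rw [List.take_append, List.take_of_length_le (by omega : P.length ≤ t)]
  exact h.loc P _ (by rw [List.length_take]; omega)

theorem XX_pc : ∀ X ∈ XX Wo z, ∀ Y, X ++ Y ∈ XX Wo z → Y = [] := by
  intro X hX Y hY
  by_contra hne
  have hpos : 0 < Y.length := List.length_pos_iff.2 hne
  refine hY.2.2 X.length hX.1 (by rw [List.length_append]; omega) ?_
  rw [List.take_left']
  · exact hX.2.1
  · rfl

theorem XX_nil (hz : 0 < z) : [] ∉ XX Wo z := by
  intro h
  have := h.1
  simp only [List.length_nil] at this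
  omega

theorem XX_swap (h : Wal n W Wo) (P P' Q : List A) (hl : P.length = P'.length)
    (hp : P.length + n ≤ z) (hX : P ++ Q ∈ XX Wo z) : P' ++ Q ∈ XX Wo z := by
  obtain ⟨h1, h2, h3⟩ := hX
  rw [List.length_append] at h1
  have hQ : n ≤ Q.length := by omega
  refine ⟨by rw [List.length_append]; omega, ?_, ?_⟩
  · rw [h.loc _ _ hQ] at h2 ⊢
    exact h2
  · intro t ht1 ht2 ht3
    rw [List.length_append] at ht2
    rw [h.take_app P' Q t (by omega) (by omega)] at ht3
    refine h3 t ht1 (by rw [List.length_append]; omega) ?_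
    rw [h.take_app P Q t (by omega) (by omega), hl]
    exact ht3

theorem first (Y : List A) (h1 : z ≤ Y.length) (h2 : Wo Y) :
    ∃ t, z ≤ t ∧ t ≤ Y.length ∧ Y.take t ∈ XX Wo z := by
  classical
  have hex : ∃ t, z ≤ t ∧ t ≤ Y.length ∧ Wo (Y.take t) :=
    ⟨Y.length, h1, le_rfl, by rwa [List.take_length]⟩
  obtain ⟨ha, hb, hc⟩ := Nat.find_spec hex
  refine ⟨Nat.find hex, ha, hb, by rw [List.length_take]; omega, hc, ?_⟩
  intro t ht1 ht2 ht3
  rw [List.length_take] at ht2
  rw [List.take_take, min_eq_left (by omega)] at ht3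
  exact Nat.find_min hex (by omega) ⟨ht1, by omega, ht3⟩

/-- bad blocks -/
def BadX (Wo : List A → Prop) (z N1 p0 : ℕ) (BT : ℕ → Prop) (X : List A) : Prop :=
  (∃ t, z ≤ t + N1 ∧ t < z ∧ Wo (X.take t)) ∨ X.length < z + N1 ∨ BT (X.length - p0)

theorem BadX_swap (h : Wal n W Wo) {N1 p0 : ℕ} {BT : ℕ → Prop} (P P' Q : List A)
    (hl : P.length = P'.length)
    (hp : P.length + N1 + n ≤ z) (hX : P ++ Q ∈ XX Wo z) (hB : BadX Wo z N1 p0 BT (P ++ Q)) :
    BadX Wo z N1 p0 BT (P' ++ Q) := by
  have hz := hX.1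
  rw [List.length_append] at hz
  rcases hB with ⟨t, h1, h2, h3⟩ | hB | hB
  · left
    refine ⟨t, h1, h2, ?_⟩
    rw [h.take_app P Q t (by omega) (by omega)] at h3
    rw [h.take_app P' Q t (by omega) (by omega), ← hl]
    exact h3
  · right; left
    rw [List.length_append] at hB ⊢
    omega
  · right; right
    rw [List.length_append] at hB ⊢
    rwa [← hl]

theorem hnext (h : Wal n W Wo) {N1 p0 K : ℕ} {BT : ℕ → Prop} {c : ℕ → ℕ}
    (hc : ∀ k < K, c k + n ≤ z) :
    ∀ X ∈ XX Wo z, ∀ X2 ∈ XX Wo z, BadX Wo z N1 p0 BT X → ∀ k < K, ∀ k' < K,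
      Ends c (XX Wo z) k' ((X ++ X2).drop (c k)) := by
  intro X hX X2 hX2 _ k hk k' hk'
  have h1 := hc k hk
  have h2 := hc k' hk'
  have hXl := hX.1
  have hX2l := hX2.1
  have hwo : Wo X2 := hX2.2.1
  set D := (X ++ X2).drop (c k) with hD
  have hDe : D = X.drop (c k) ++ X2 := by
    rw [hD, List.drop_append_of_le_length (by omega)]
  let P := X.take (c k')
  have hPl : P.length = c k' := by
    show (X.take (c k')).length = c k'
    rw [List.length_take]; omega
  have hwY : Wo (P ++ D) := by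
    rw [hDe, ← List.append_assoc, h.loc _ _ (by omega)]
    exact hwo
  obtain ⟨t, ht1, ht2, ht3⟩ := first (z := z) (P ++ D) (by
    rw [List.length_append, hDe, List.length_append, List.length_drop]; omega) hwY
  rw [List.take_append, List.take_of_length_le (by omega : P.length ≤ t)] at ht3
  exact ⟨P, D.take (t - P.length), hPl, List.take_prefix _ _, ht3⟩

end comb

section gad

variable {A V S : Type} [AddCommGroup V] [Monoid S]
variable {n W z : ℕ} {Wo : List A → Prop}

/-- thread of a block -/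
def TT (φ : List A → S) (act : V → S → V) (p0 : ℕ) (nu2 nu1 : List A → V) (v : V)
    (X : List A) : V :=
  act (act v (φ (X.take p0)) + nu2 (X.take p0)) (φ (X.drop p0)) + nu1 (X.drop p0)

/-- left words of scheme 1 -/
def LP1 (φ : List A → S) (act : V → S → V) (p0 N1 : ℕ) (nu2 : List A → V)
    (lam : List A → Option V) (P : List A) (v : V) : Prop :=
  p0 ≤ P.length ∧ P.length ≤ p0 + N1 ∧
    lam (P.drop p0) = some (act v (φ (P.take p0)) + nu2 (P.take p0))

/-- legality of a right word of scheme 1 -/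
def OK1 (Wo : List A → Prop) (z p0 N1 : ℕ) (Q : List A) : Prop :=
  z ≤ p0 + Q.length ∧ Wo Q ∧ ∀ t < Q.length, z ≤ p0 + N1 + t → ¬ Wo (Q.take t)

open Classical in
/-- right words of scheme 1 -/
noncomputable def R1 (Wo : List A → Prop) (z p0 N1 : ℕ) (rho : List A → Option V)
    (Q : List A) : Option V :=
  if OK1 Wo z p0 N1 Q then rho Q else none

theorem R1_iff {p0 N1 : ℕ} {rho : List A → Option V} {Q : List A} {b : V} :
    R1 Wo z p0 N1 rho Q = some b ↔ OK1 Wo z p0 N1 Q ∧ rho Q = some b := by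
  unfold R1
  split_ifs with h
  · exact ⟨fun h' => ⟨h, h'⟩, fun h' => h'.2⟩
  · constructor
    · intro h'; exact absurd h' (by simp)
    · intro h'; exact absurd h'.1 h

theorem s1 (h : Wal n W Wo) {p0 N1 La : ℕ} (hz : p0 + N1 + n ≤ z) (hLa : p0 + La ≤ z)
    {φ : List A → S} {act : V → S → V} {nu2 nu1 : List A → V} {lam rho : List A → Option V}
    (g2 : ∀ p q v r, lam p = some v → rho q = some r → La ≤ q.length →
      r = act v (φ (p ++ q)) + nu1 (p ++ q))
    (P : List A) (v : V) (Q : List A) (b : V) (h1 : LP1 φ act p0 N1 nu2 lam P v)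
    (h2 : R1 Wo z p0 N1 rho Q = some b) :
    P ++ Q ∈ XX Wo z ∧ TT φ act p0 nu2 nu1 v (P ++ Q) = b := by
  obtain ⟨hP1, hP2, hlam⟩ := h1
  obtain ⟨⟨hQ1, hQ2, hQ3⟩, hrho⟩ := R1_iff.1 h2
  have hQn := h.len Q hQ2
  constructor
  · refine ⟨by rw [List.length_append]; omega, (h.loc _ _ hQn).2 hQ2, ?_⟩
    intro t ht1 ht2 ht3
    rw [List.length_append] at ht2
    rw [h.take_app P Q t (by omega) (by omega)] at ht3
    exact hQ3 (t - P.length) (by omega) (by omega) ht3
  · unfold TT
    rw [List.take_append_of_le_length hP1, List.drop_append_of_le_length hP1]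
    exact (g2 _ _ _ _ hlam hrho (by omega)).symm

theorem cc1 (h : Wal n W Wo) {p0 N1 La : ℕ} (hz : p0 + N1 + n ≤ z) (hLa : p0 + La ≤ z)
    {φ : List A → S} {act : V → S → V} {nu2 : List A → V} {lam rho : List A → Option V}
    {BT : ℕ → Prop}
    (g1 : ∀ p v, lam p = some v → p.length ≤ N1)
    (g3 : ∀ u : List A, La ≤ u.length → ¬ BT u.length → ∀ v, ∃ p q, p ++ q = u ∧ lam p = some v ∧
      (rho q).isSome)
    (X : List A) (hX : X ∈ XX Wo z) (hB : ¬ BadX Wo z N1 p0 BT X) (v : V) :
    ∃ P Q, X = P ++ Q ∧ LP1 φ act p0 N1 nu2 lam P v ∧ (R1 Wo z p0 N1 rho Q).isSome := by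
  unfold BadX at hB
  push Not at hB
  obtain ⟨hB1, hB2, hB3⟩ := hB
  obtain ⟨hX1, hX2, hX3⟩ := hX
  obtain ⟨p, q, hpq, hl, hr⟩ := g3 (X.drop p0) (by rw [List.length_drop]; omega)
    (by rw [List.length_drop]; exact hB3) (act v (φ (X.take p0)) + nu2 (X.take p0))
  have hpl := g1 _ _ hl
  have htl : (X.take p0).length = p0 := by rw [List.length_take]; omega
  have hlen : p.length + q.length = X.length - p0 := by
    rw [← List.length_append, hpq, List.length_drop]
  have hXe : X = (X.take p0 ++ p) ++ q := by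
    rw [List.append_assoc, hpq, List.take_append_drop]
  have hPl : (X.take p0 ++ p).length = p0 + p.length := by rw [List.length_append, htl]
  refine ⟨X.take p0 ++ p, q, hXe, ⟨by omega, by omega, ?_⟩, ?_⟩
  · rw [List.drop_left' htl, List.take_left' htl]
    exact hl
  · obtain ⟨b, hb⟩ := Option.isSome_iff_exists.1 hr
    rw [Option.isSome_iff_exists]
    refine ⟨b, R1_iff.2 ⟨⟨by omega, ?_, ?_⟩, hb⟩⟩
    · rw [hXe, h.loc _ _ (by omega)] at hX2
      exact hX2
    · intro t ht1 ht2 ht3
      by_cases htn : n ≤ t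
      · have key := h.take_app (X.take p0 ++ p) q (p0 + p.length + t) (by omega) (by omega)
        rw [← hXe] at key
        have e1 : p0 + p.length + t - (X.take p0 ++ p).length = t := by omega
        rw [e1] at key
        have hw := key.2 ht3
        by_cases hge : z ≤ p0 + p.length + t
        · exact hX3 _ hge (by omega) hw
        · exact hB1 _ (by omega) (by omega) hw
      · have := h.len _ ht3
        rw [List.length_take] at this
        omega

end gad

section spoil

variable {A : Type} {n W z : ℕ} {Wo : List A → Prop}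

open Classical in
/-- spoiled pairs seen from the wall `t` -/
noncomputable def SP (K z N1 p0 : ℕ) (c : ℕ → ℕ) (BT : ℕ → Prop) (t : ℕ) : Finset (ℕ × ℕ) :=
  (Finset.range K ×ˢ Finset.range K).filter (fun ij => ij.1 ≠ ij.2 ∧
    (BT (t - p0 + c ij.2 - c ij.1) ∨ (t + c ij.2 ≤ z + c ij.1 + N1 ∧ z + c ij.1 ≤ t + c ij.2 + N1)))

open Classical in
theorem SP_card {K N1 p0 La C0 : ℕ} {c : ℕ → ℕ} {BT : ℕ → Prop}
    (hres : ∀ i j k l, i < K → j < K → k < K → l < K → i ≠ j → k ≠ l → (i, j) ≠ (k, l) →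
      c i + c l + 4 * N1 < c k + c j ∨ c k + c j + 4 * N1 < c i + c l)
    (hthin : ∀ T, La ≤ T → ((Finset.range K ×ˢ Finset.range K).filter
      (fun ij => ij.1 ≠ ij.2 ∧ BT (T + c ij.2 - c ij.1))).card ≤ C0)
    (t : ℕ) (ht : La + p0 ≤ t) : (SP K z N1 p0 c BT t).card ≤ C0 + 1 := by
  have hsub : SP K z N1 p0 c BT t ⊆ ((Finset.range K ×ˢ Finset.range K).filter
      (fun ij => ij.1 ≠ ij.2 ∧ BT (t - p0 + c ij.2 - c ij.1))) ∪
      ((Finset.range K ×ˢ Finset.range K).filter (fun ij => ij.1 ≠ ij.2 ∧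
        (t + c ij.2 ≤ z + c ij.1 + N1 ∧ z + c ij.1 ≤ t + c ij.2 + N1))) := by
    intro ij hij
    unfold SP at hij
    rw [Finset.mem_filter] at hij
    rw [Finset.mem_union, Finset.mem_filter, Finset.mem_filter]
    rcases hij.2.2 with h | h
    · exact Or.inl ⟨hij.1, hij.2.1, h⟩
    · exact Or.inr ⟨hij.1, hij.2.1, h⟩
  refine (Finset.card_le_card hsub).trans ((Finset.card_union_le _ _).trans ?_)
  refine Nat.add_le_add (hthin (t - p0) (by omega)) ?_
  rw [Finset.card_le_one]
  rintro ⟨i, j⟩ hij ⟨k, l⟩ hkl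
  rw [Finset.mem_filter, Finset.mem_product, Finset.mem_range, Finset.mem_range] at hij hkl
  by_contra hne
  obtain ⟨⟨hi, hj⟩, hij1, hij2, hij3⟩ := hij
  obtain ⟨⟨hk, hl⟩, hkl1, hkl2, hkl3⟩ := hkl
  simp only at hi hj hij1 hij2 hij3 hk hl hkl1 hkl2 hkl3
  rcases hres i j k l hi hj hk hl hij1 hkl1 hne with h | h <;> omega

open Classical in
theorem walls_card (h : Wal n W Wo) {N1 Cm : ℕ} (hzn : n ≤ z) (hWz : z ≤ W)
    (hWb : N1 + Cm < W) (X X2 : List A) (hX : X ∈ XX Wo z) (hX2 : X2 ∈ XX Wo z) :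
    ((Finset.range ((X ++ X2).length + 1)).filter
      (fun t => z ≤ t + N1 + Cm ∧ Wo ((X ++ X2).take t))).card ≤ 3 := by
  set Ws := (Finset.range ((X ++ X2).length + 1)).filter
      (fun t => z ≤ t + N1 + Cm ∧ Wo ((X ++ X2).take t)) with hWs
  have hsub : Ws ⊆ insert X.length (insert (X ++ X2).length (Ws.filter (fun t => t < z))) := by
    intro t ht
    have ht' := ht
    rw [hWs, Finset.mem_filter, Finset.mem_range] at ht'
    obtain ⟨h1, h2, h3⟩ := ht'
    rw [Finset.mem_insert, Finset.mem_insert, Finset.mem_filter]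
    by_cases htz : t < z
    · exact Or.inr (Or.inr ⟨ht, htz⟩)
    · push Not at htz
      rcases lt_trichotomy t X.length with hlt | heq | hgt
      · exfalso
        rw [List.take_append_of_le_length hlt.le] at h3
        exact hX.2.2 t htz hlt h3
      · exact Or.inl heq
      · right; left
        have hw1 : Wo ((X ++ X2).take X.length) := by
          rw [List.take_left' rfl]; exact hX.2.1
        have hg := h.gap (X ++ X2) X.length t hgt (by omega) hw1 h3
        rw [List.length_append] at h1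
        rw [h.take_app X X2 t (by omega) (by omega)] at h3
        by_contra hne
        rw [List.length_append] at hne
        exact hX2.2.2 (t - X.length) (by omega) (by omega) h3
  have hone : (Ws.filter (fun t => t < z)).card ≤ 1 := by
    rw [Finset.card_le_one]
    intro a ha b hb
    rw [Finset.mem_filter, hWs, Finset.mem_filter, Finset.mem_range] at ha hb
    obtain ⟨⟨a1, a2, a3⟩, a4⟩ := ha
    obtain ⟨⟨b1, b2, b3⟩, b4⟩ := hb
    by_contra hne
    rcases Nat.lt_or_gt_of_ne hne with hlt | hlt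
    · have := h.gap (X ++ X2) a b hlt (by omega) a3 b3
      omega
    · have := h.gap (X ++ X2) b a hlt (by omega) b3 a3
      omega
  refine (Finset.card_le_card hsub).trans ((Finset.card_insert_le _ _).trans ?_)
  have := Finset.card_insert_le (X ++ X2).length (Ws.filter (fun t => t < z))
  omega

open Classical in
theorem hspoil (h : Wal n W Wo) {K N1 p0 La C0 Cm : ℕ} {c : ℕ → ℕ} {BT : ℕ → Prop}
    (hcm : ∀ k < K, c k ≤ Cm) (hzn : N1 + Cm + Cm + n + p0 + La ≤ z) (hWz : z ≤ W)
    (hWb : N1 + Cm < W)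
    (hres : ∀ i j k l, i < K → j < K → k < K → l < K → i ≠ j → k ≠ l → (i, j) ≠ (k, l) →
      c i + c l + 4 * N1 < c k + c j ∨ c k + c j + 4 * N1 < c i + c l)
    (hthin : ∀ T, La ≤ T → ((Finset.range K ×ˢ Finset.range K).filter
      (fun ij => ij.1 ≠ ij.2 ∧ BT (T + c ij.2 - c ij.1))).card ≤ C0) :
    ∀ X ∈ XX Wo z, ∀ X2 ∈ XX Wo z, BadX Wo z N1 p0 BT X → ∀ I : Finset ℕ,
      (∀ k ∈ I, k < K ∧ ∃ k' < K, k' ≠ k ∧
        Cand c (XX Wo z) (BadX Wo z N1 p0 BT) k' ((X ++ X2).drop (c k))) →
      I.card < 3 * C0 + 4 := by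
  intro X hX X2 hX2 _ I hI
  set Y := X ++ X2 with hY
  have hYl : z ≤ Y.length := by
    have := hX.1
    rw [hY, List.length_append]; omega
  set Ws := (Finset.range (Y.length + 1)).filter
      (fun t => z ≤ t + N1 + Cm ∧ Wo (Y.take t)) with hWs
  have hWc : Ws.card ≤ 3 := walls_card h (by omega) hWz hWb X X2 hX hX2
  have hsub : I ⊆ (Ws.biUnion (SP K z N1 p0 c BT)).image Prod.fst := by
    intro k hk
    obtain ⟨hkK, k', hk'K, hne, P, Q', hPl, hpre, hmem, hbad⟩ := hI k hk
    have hck := hcm k hkK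
    have hck' := hcm k' hk'K
    have hQ'l : Q'.length ≤ Y.length - c k := by
      have := hpre.length_le
      rwa [List.length_drop] at this
    have hmz := hmem.1
    rw [List.length_append] at hmz
    -- translation of walls
    have tr : ∀ m, n ≤ m → m ≤ Q'.length → Wo ((P ++ Q').take (c k' + m)) →
        Wo (Y.take (c k + m)) := by
      intro m hm1 hm2 hw
      rw [h.take_app P Q' _ (by omega) (by omega)] at hw
      have e1 : c k' + m - P.length = m := by omega
      rw [e1] at hw
      have e2 : Q'.take m = (Y.drop (c k)).take m := by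
        obtain ⟨R, hR⟩ := hpre
        rw [← hR, List.take_append_of_le_length hm2]
      rw [List.take_add, h.loc _ _ (by rw [List.length_take, List.length_drop]; omega), ← e2]
      exact hw
    have fin : ∀ m, n ≤ m → m ≤ Q'.length → z ≤ c k' + m + N1 →
        Wo ((P ++ Q').take (c k' + m)) →
        (BT (c k + m - p0 + c k' - c k) ∨ (c k + m + c k' ≤ z + c k + N1 ∧
          z + c k ≤ c k + m + c k' + N1)) →
        k ∈ (Ws.biUnion (SP K z N1 p0 c BT)).image Prod.fst := by
      intro m hm1 hm2 hm3 hw hor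
      rw [Finset.mem_image]
      refine ⟨(k, k'), ?_, rfl⟩
      rw [Finset.mem_biUnion]
      refine ⟨c k + m, ?_, ?_⟩
      · rw [hWs, Finset.mem_filter, Finset.mem_range]
        exact ⟨by omega, by omega, tr m hm1 hm2 hw⟩
      · unfold SP
        rw [Finset.mem_filter, Finset.mem_product, Finset.mem_range, Finset.mem_range]
        exact ⟨⟨hkK, hk'K⟩, Ne.symm hne, hor⟩
    rcases hbad with ⟨t, ht1, ht2, ht3⟩ | hlt | hBT
    · refine fin (t - c k') (by omega) (by omega) (by omega) ?_ (Or.inr ⟨by omega, by omega⟩)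
      rwa [Nat.add_sub_cancel' (by omega)]
    · rw [List.length_append] at hlt
      refine fin Q'.length (by omega) le_rfl (by omega) ?_ (Or.inr ⟨by omega, by omega⟩)
      rw [List.take_of_length_le (by rw [List.length_append]; omega)]
      exact hmem.2.1
    · rw [List.length_append] at hBT
      refine fin Q'.length (by omega) le_rfl (by omega) ?_ (Or.inl ?_)
      · rw [List.take_of_length_le (by rw [List.length_append]; omega)]
        exact hmem.2.1
      · have e : c k + Q'.length - p0 + c k' - c k = P.length + Q'.length - p0 := by omega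
        rw [e]
        exact hBT
  have h1 : I.card ≤ (Ws.biUnion (SP K z N1 p0 c BT)).card :=
    (Finset.card_le_card hsub).trans Finset.card_image_le
  have h2 : (Ws.biUnion (SP K z N1 p0 c BT)).card ≤ Ws.card * (C0 + 1) := by
    refine Finset.card_biUnion_le_card_mul _ _ _ ?_
    intro t ht
    rw [hWs, Finset.mem_filter] at ht
    exact SP_card (La := La) hres hthin t (by omega)
  have h3 : Ws.card * (C0 + 1) ≤ 3 * (C0 + 1) := Nat.mul_le_mul_right _ hWc
  omega

end spoil

end Crest.Agent.R320.AllA_740
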