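import Crest.Agent.R320.AllW_379
import Crest.Agent.R320.ExactR_237

/-!
# Row 320: the two schemes on the natural chain, semantic right words (helper379)
-/

set_option autoImplicit false

namespace Crest.Agent.R320.AllJ_379

open Crest.Agent.R320.Hk_851 Crest.Agent.R320.Code110 Crest.Agent.R320.WallU_228
open Crest.Agent.R320.FewWalls_228 Crest.Agent.R320.AllW_379

universe u

variable {α : Type u} {S : Type} [Monoid S] {V : Type} [AddCommGroup V]

/-- zone map -/
def TT (f : α → S) (act : V → S → V) (p0 : ℕ) (nu1 nu2 : List α → V) (u : List α) (v : V) : V :=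
  act (act v ((u.take p0).map f).prod + nu2 (u.take p0)) ((u.drop p0).map f).prod +
    nu1 (u.drop p0)

/-- end wall band -/
def EB (n : ℕ) (S0 : Set (List α)) (z N1 : ℕ) (u : List α) : Prop :=
  ∃ t, t ≤ u.length ∧ z ≤ t + N1 ∧ t < z + N1 ∧ Wo n S0 (u.take t)

/-- bad blocks -/
def BadL (n : ℕ) (S0 : Set (List α)) (z N1 p0 : ℕ) (BT : ℕ → Prop) : Language α :=
  {u | u ∈ XX n S0 z ∧ (EB n S0 z N1 u ∨ BT (u.length - p0))}

def L1 (f : α → S) (act : V → S → V) (p0 N1 : ℕ) (nu2 : List α → V) (lam : List α → Option V)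
    (x : V) : Language α :=
  {P | p0 ≤ P.length ∧ P.length ≤ p0 + N1 ∧
    lam (P.drop p0) = some (act x ((P.take p0).map f).prod + nu2 (P.take p0))}

def L2 (f : α → S) (K : ℕ) (c : ℕ → ℕ) (lam2 : ℕ → List S → Option V) (x : V) : Language α :=
  {P | ∃ k < K, P.length = c k ∧ lam2 k (P.map f) = some x}

variable {n z N1 p0 : ℕ} {S0 : Set (List α)} {BT : ℕ → Prop} {f : α → S} {act : V → S → V}
  {nu1 nu2 : List α → V} {lam rho : List α → Option V}

theorem exactly_one {Ω : Type} {Z : Language α} {τ : List α → Ω → Ω} {x y : Ω} {w : List α}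
    (h : w ∈ Z) (h2 : τ w x = y) : w ∈ Exactly Z τ 1 x y :=
  ⟨y, Language.mem_mul.2 ⟨w, ⟨h, h2⟩, [], ⟨rfl, rfl⟩, List.append_nil w⟩⟩

theorem exactly_two {Ω : Type} {Z : Language α} {τ : List α → Ω → Ω} {x y : Ω} {w w' : List α}
    (h : w ∈ Z) (h' : w' ∈ Z) (h2 : τ w' (τ w x) = y) : w ++ w' ∈ Exactly Z τ 2 x y :=
  ⟨τ w x, Language.mem_mul.2 ⟨w, ⟨h, rfl⟩, w', exactly_one h' h2, rfl⟩⟩

theorem c1 {La : ℕ} (hz : p0 + N1 + n + La ≤ z)
    (hlen : ∀ p v, lam p = some v → p.length ≤ N1)
    (hs : ∀ p q v r, lam p = some v → rho q = some r → La ≤ q.length →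
      r = act v (((p ++ q).map f).prod) + nu1 (p ++ q))
    (hcomp : ∀ u : List α, La ≤ u.length → ¬ BT u.length → ∀ v, ∃ p q, p ++ q = u ∧
      lam p = some v ∧ (rho q).isSome) :
    ∀ u ∈ XX n S0 z, u ∉ BadL n S0 z N1 p0 BT → ∀ x, ∀ t ∈ XX n S0 z ^ 0,
      ∃ p q y, u ++ t = p ++ q ∧ p ∈ L1 f act p0 N1 nu2 lam x ∧
      q ∈ Rsem (XX n S0 z) (XX n S0 z) (TT f act p0 nu1 nu2) 0 (L1 f act p0 N1 nu2 lam) y := by
  intro u hu hnb x t ht
  have ht' : t = [] := by
    rw [pow_zero] at ht
    exact ht
  subst ht'
  have hnb' : ¬ (EB n S0 z N1 u ∨ BT (u.length - p0)) := fun h => hnb ⟨hu, h⟩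
  push Not at hnb'
  obtain ⟨hE, hB⟩ := hnb'
  have hul := hu.1
  have hYl : (u.drop p0).length = u.length - p0 := List.length_drop ..
  obtain ⟨p, q, hpq, hp, hq⟩ := hcomp (u.drop p0) (by omega) (by rw [hYl]; exact hB)
    (act x ((u.take p0).map f).prod + nu2 (u.take p0))
  obtain ⟨b, hb⟩ := Option.isSome_iff_exists.1 hq
  have hpl := hlen p _ hp
  have hql : p.length + q.length = u.length - p0 := by
    rw [← hYl, ← hpq, List.length_append]
  have htk : (u.take p0).length = p0 := by rw [List.length_take]; omega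
  have hu2 : u = u.take p0 ++ (p ++ q) := by rw [hpq, List.take_append_drop]
  refine ⟨u.take p0 ++ p, q, b, ?_, ⟨?_, ?_, ?_⟩, ?_⟩
  · rw [List.append_nil, List.append_assoc, ← hu2]
  · rw [List.length_append, htk]; omega
  · rw [List.length_append, htk]; omega
  · rw [List.drop_left' htk, List.take_left' htk]; exact hp
  · intro x' P' hP'
    left
    obtain ⟨h1, h2, h3⟩ := hP'
    have hqn : n ≤ q.length := by omega
    refine exactly_one ⟨?_, ?_, ?_⟩ ?_
    · -- length
      rw [List.length_append]
      by_contra hcon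
      apply hE
      refine ⟨u.length, le_rfl, by omega, by omega, ?_⟩
      rw [List.take_length]; exact hu.2.1
    · rw [wo_append P' q hqn]
      have := hu.2.1
      rw [hu2, ← List.append_assoc, wo_append _ q hqn] at this
      exact this
    · intro τ hτ hτl hw
      rw [List.length_append] at hτl
      have e1 : (P' ++ q).take τ = P' ++ q.take (τ - P'.length) := by
        rw [List.take_append, List.take_of_length_le (by omega)]
      have hyl : (q.take (τ - P'.length)).length = τ - P'.length := by
        rw [List.length_take]; omega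
      rw [e1, wo_append P' _ (by omega)] at hw
      have e2 : u.take (p0 + p.length + (τ - P'.length)) =
          (u.take p0 ++ p) ++ q.take (τ - P'.length) := by
        conv_lhs => rw [hu2, ← List.append_assoc]
        rw [List.take_append, List.take_of_length_le
          (by rw [List.length_append, htk]; omega)]
        congr 2
        rw [List.length_append, htk]; omega
      have hw2 : Wo n S0 (u.take (p0 + p.length + (τ - P'.length))) := by
        rw [e2, wo_append _ _ (by omega)]; exact hw
      have hlt : p0 + p.length + (τ - P'.length) < u.length := by omega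
      rcases Nat.lt_or_ge (p0 + p.length + (τ - P'.length)) z with hh | hh
      · exact hE ⟨_, hlt.le, by omega, by omega, hw2⟩
      · exact hu.2.2 _ hh hlt hw2
    · unfold TT
      have e1 : (P' ++ q).take p0 = P'.take p0 := List.take_append_of_le_length h1
      have e2 : (P' ++ q).drop p0 = P'.drop p0 ++ q := List.drop_append_of_le_length h1
      rw [e1, e2]
      exact (hs _ _ _ _ h3 hb (by omega)).symm

/-- spoiled places -/
def Spoil (n : ℕ) (S0 : Set (List α)) (z N1 p0 : ℕ) (BT : ℕ → Prop) (K : ℕ) (c : ℕ → ℕ)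
    (w : List α) (k : ℕ) : Prop :=
  ∃ k' < K, k' ≠ k ∧ ∃ p' r : List α, p'.length = c k' ∧ r ∈ BadL n S0 z N1 p0 BT ∧
    r <+: p' ++ w.drop (c k)

open Classical in
theorem c2 {K R : ℕ} {c : ℕ → ℕ} {lam2 : ℕ → List S → Option V}
    {rho2 : ℕ → List S → S → Option V} {nu' : List S → S → V}
    (hz : p0 + p0 + N1 + n ≤ z) (hc : ∀ k < K, c k ≤ p0)
    (h1 : ∀ k < K, ∀ (P Q : List S) (y : S) (v b : V), P.length = c k →
      lam2 k P = some v → rho2 k Q y = some b →
      b = act v (Crest.Agent.R320.ExactR_237.pr id (P ++ Q) * y) + nu' (P ++ Q) y)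
    (h2 : ∀ (u : List S) (y : S) (v : V), (∀ k < K, c k ≤ u.length) →
      ∃ I : Finset ℕ, R ≤ I.card ∧ ∀ k ∈ I, k < K ∧ lam2 k (u.take (c k)) = some v ∧
        (rho2 k (u.drop (c k)) y).isSome)
    (hsp : ∀ u ∈ XX n S0 z, ∀ t ∈ XX n S0 z,
      ((Finset.range K).filter (Spoil n S0 z N1 p0 BT K c (u ++ t))).card < R) :
    ∀ u ∈ BadL n S0 z N1 p0 BT, ∀ x, ∀ t ∈ BadL n S0 z N1 p0 BT ^ 1,
      ∃ p q y, u ++ t = p ++ q ∧ p ∈ L2 f K c lam2 x ∧
      q ∈ Rsem (XX n S0 z) (BadL n S0 z N1 p0 BT)
        (TT f act p0 nu1 (fun X => nu' (X.map f) 1)) 1 (L2 f K c lam2) y := by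
  intro u hu x t ht
  rw [pow_one] at ht
  have hux := hu.1
  have htx := ht.1
  have hul := hux.1
  have htl := htx.1
  have hU : ((u.take p0).map f).length = p0 := by
    rw [List.length_map, List.length_take]; omega
  obtain ⟨I, hI, hI2⟩ := h2 ((u.take p0).map f) 1 x (fun k hk => by rw [hU]; exact hc k hk)
  have hlt := lt_of_lt_of_le (hsp u hux t htx) hI
  obtain ⟨k, hkI, hkS⟩ := Finset.exists_mem_notMem_of_card_lt_card hlt
  obtain ⟨hkK, hkl, hkr⟩ := hI2 k hkI
  obtain ⟨b2, hb2⟩ := Option.isSome_iff_exists.1 hkr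
  have hck := hc k hkK
  have hns : ¬ Spoil n S0 z N1 p0 BT K c (u ++ t) k := fun h =>
    hkS (Finset.mem_filter.2 ⟨Finset.mem_range.2 hkK, h⟩)
  set T := TT f act p0 nu1 (fun X => nu' (X.map f) 1) with hT
  have hlam : lam2 k ((u.take (c k)).map f) = some x := by
    rw [← List.map_take, List.take_take, min_eq_left hck] at hkl
    exact hkl
  refine ⟨u.take (c k), (u ++ t).drop (c k), T t (T u x), ?_, ⟨k, hkK, ?_, hlam⟩, ?_⟩
  · rw [← List.take_append_of_le_length (l₂ := t) (by omega : c k ≤ u.length),
      List.take_append_drop]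
  · rw [List.length_take]; omega
  · intro x' p' hp'
    obtain ⟨k', hk'K, hp'l, hp'lam⟩ := hp'
    have hck' := hc k' hk'K
    by_cases hkk : k' = k
    · subst hkk
      left
      have e0 : p' ++ (u ++ t).drop (c k') = (p' ++ u.drop (c k')) ++ t := by
        rw [List.drop_append_of_le_length (by omega), List.append_assoc]
      rw [e0]
      have hlen : (p' ++ u.drop (c k')).length = u.length := by
        rw [List.length_append, List.length_drop]; omega
      have hwall : ∀ τ, c k' + n ≤ τ → τ ≤ u.length →
          (Wo n S0 ((p' ++ u.drop (c k')).take τ) ↔ Wo n S0 (u.take τ)) := by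
        intro τ hτ1 hτ2
        have e1 : (p' ++ u.drop (c k')).take τ = p' ++ (u.drop (c k')).take (τ - c k') := by
          rw [List.take_append, List.take_of_length_le (by omega), hp'l]
        have e2 : u.take τ = u.take (c k') ++ (u.drop (c k')).take (τ - c k') := by
          rw [← List.drop_take]
          conv_lhs => rw [← List.take_append_drop (c k') (u.take τ)]
          rw [List.take_take, min_eq_left (by omega)]
        have hl : n ≤ ((u.drop (c k')).take (τ - c k')).length := by
          rw [List.length_take, List.length_drop]; omega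
        rw [e1, e2, wo_append _ _ hl, wo_append _ _ hl]
      have hX : p' ++ u.drop (c k') ∈ XX n S0 z := by
        refine ⟨by omega, ?_, ?_⟩
        · have := (hwall u.length (by omega) le_rfl).2 (by rw [List.take_length]; exact hux.2.1)
          rw [← hlen, List.take_length] at this
          exact this
        · intro τ hτ hτl hw
          rw [hlen] at hτl
          exact hux.2.2 τ hτ hτl ((hwall τ (by omega) hτl.le).1 hw)
      have hBd : p' ++ u.drop (c k') ∈ BadL n S0 z N1 p0 BT := by
        refine ⟨hX, ?_⟩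
        rcases hu.2 with ⟨τ, h3, h4, h5, h6⟩ | h3
        · left
          refine ⟨τ, by omega, h4, h5, (hwall τ (by omega) h3).2 h6⟩
        · right
          rw [hlen]; exact h3
      refine exactly_two hBd ht ?_
      congr 1
      -- the label
      have ea : (p' ++ u.drop (c k')).take p0 = p' ++ (u.take p0).drop (c k') := by
        rw [List.take_append, List.take_of_length_le (by omega), hp'l, List.drop_take]
      have eb : (p' ++ u.drop (c k')).drop p0 = u.drop p0 := by
        rw [List.drop_append, List.drop_of_length_le (by omega), hp'l, List.nil_append,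
          List.drop_drop]
        congr 1
        omega
      have s1 := h1 k' hkK (p'.map f) (((u.take p0).map f).drop (c k')) 1 x' b2
        (by rw [List.length_map]; exact hp'l) hp'lam hb2
      have s2 := h1 k' hkK ((u.take (c k')).map f) (((u.take p0).map f).drop (c k')) 1 x b2
        (by rw [List.length_map, List.length_take]; omega) hlam hb2
      have ec : p'.map f ++ ((u.take p0).map f).drop (c k') =
          (p' ++ (u.take p0).drop (c k')).map f := by
        rw [List.map_append, List.map_drop]
      have ed : (u.take (c k')).map f ++ ((u.take p0).map f).drop (c k') = (u.take p0).map f := by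
        have : u.take (c k') = (u.take p0).take (c k') := by
          rw [List.take_take, min_eq_left hck']
        rw [this, List.map_take, List.take_append_drop]
      rw [ec] at s1
      rw [ed] at s2
      unfold Crest.Agent.R320.ExactR_237.pr at s1 s2
      rw [List.map_id, mul_one] at s1 s2
      simp only [hT, TT]
      rw [ea, eb, ← s1, ← s2]
    · right
      -- another hypothesis: its block is not bad
      show _ ∈ Off (XX n S0 z) (BadL n S0 z N1 p0 BT) 1
      left
      have hl1 : z ≤ (p' ++ (u ++ t).drop (c k)).length := by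
        rw [List.length_append, List.length_drop, List.length_append]; omega
      have hw1 : Wo n S0 (p' ++ (u ++ t).drop (c k)) := by
        rw [List.drop_append_of_le_length (by omega), ← List.append_assoc,
          wo_append _ t (by have := htx.2.1.1; omega)]
        exact htx.2.1
      obtain ⟨r, hr, hrp⟩ := exists_block hl1 hw1
      refine ⟨r, hr, ?_, hrp⟩
      intro hrb
      exact hns ⟨k', hk'K, hkk, p', r, hp'l, hrb, hrp⟩

end Crest.Agent.R320.AllJ_379
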