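import Crest.Agent.R320.Top5_110
import Crest.Agent.R320.WallU_228
import Crest.Agent.R320.Reg_143
import Crest.Agent.R320.Reg_852

/-!
# Row 320: zones of the natural chain on all words, heights (helper379)
-/

set_option autoImplicit false

namespace Crest.Agent.R320.AllW_379

open Crest.Agent.R320.Hk_851 Crest.Agent.R320.Code110 Crest.Agent.R320.WallU_228
open Crest.Agent.R320.FewWalls_228

universe u

variable {α : Type u}

/-- blocks: first wall at or after `z` -/
def XX (n : ℕ) (S0 : Set (List α)) (z : ℕ) : Language α :=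
  {u | z ≤ u.length ∧ Wo n S0 u ∧ ∀ t, z ≤ t → t < u.length → ¬ Wo n S0 (u.take t)}

variable {n z : ℕ} {S0 : Set (List α)}

theorem pc (hz : 0 < z) : PC (XX n S0 z) where
  ne := fun h => by
    have := h.1
    simp only [List.length_nil] at this
    omega
  pf := by
    intro u hu v hv huv
    by_contra hne
    have hlt : u.length < v.length := by
      rcases Nat.lt_or_ge u.length v.length with h | h
      · exact h
      · exact absurd (huv.eq_of_length_le h) hne
    have h1 := hv.2.2 u.length hu.1 hlt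
    apply h1
    rw [List.prefix_iff_eq_take.1 huv |>.symm]
    exact hu.2.1

theorem exists_block {s : List α} (h1 : z ≤ s.length) (h2 : Wo n S0 s) :
    ∃ r ∈ XX n S0 z, r <+: s := by
  classical
  have hex : ∃ t, z ≤ t ∧ t ≤ s.length ∧ Wo n S0 (s.take t) :=
    ⟨s.length, h1, le_rfl, by rw [List.take_length]; exact h2⟩
  obtain ⟨h3, h4, h5⟩ := Nat.find_spec hex
  refine ⟨s.take (Nat.find hex), ⟨?_, h5, ?_⟩, List.take_prefix _ _⟩
  · rw [List.length_take]; omega
  · intro t ht htl hw
    rw [List.length_take] at htl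
    have hlt : t < Nat.find hex := by omega
    refine Nat.find_min hex hlt ⟨ht, by omega, ?_⟩
    rw [List.take_take, min_eq_left (by omega)] at hw
    exact hw

theorem hl_wo [Finite α] (k : ℕ) : HL k ({u | Wo n S0 u} : Language α) := by
  have hfin : {s : List α | s.length = n ∧ s ∈ S0}.Finite :=
    (List.finite_length_eq α n).subset fun s hs => hs.1
  refine (HL.suffix (HL.finite (k := k) hfin)).congr fun w => Iff.symm ?_
  constructor
  · rintro ⟨v, ⟨hv1, hv2⟩, t, rfl⟩
    refine ⟨by rw [List.length_append]; omega, ?_⟩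
    rw [List.length_append, hv1, Nat.add_sub_cancel, List.drop_left]
    exact hv2
  · rintro ⟨h1, h2⟩
    exact ⟨w.drop (w.length - n), ⟨by rw [List.length_drop]; omega, h2⟩, List.drop_suffix _ _⟩

theorem hl_E [Finite α] (k : ℕ) : HL k ({u | z ≤ u.length ∧ Wo n S0 u} : Language α) :=
  HL.setOf_and (HL.length_ge z) (hl_wo k)

theorem hl_XX0 [Finite α] (k : ℕ) : HL k (XX n S0 z) := by
  have h1 : HL k ({u | z ≤ u.length ∧ Wo n S0 u} : Language α) := hl_E k
  have h2 : HL k ({u : List α | 1 ≤ u.length} : Language α) := HL.length_ge 1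
  refine (h1.sdiff (h1.mul h2)).congr fun w => Iff.symm ?_
  constructor
  · rintro ⟨⟨ha, hb⟩, hc⟩
    refine ⟨ha, hb, fun t ht htl hw => hc ?_⟩
    refine Language.mem_mul.2 ⟨w.take t, ⟨by rw [List.length_take]; omega, hw⟩, w.drop t, ?_,
      List.take_append_drop t w⟩
    show 1 ≤ (w.drop t).length
    rw [List.length_drop]; omega
  · rintro ⟨ha, hb, hc⟩
    refine ⟨⟨ha, hb⟩, ?_⟩
    intro hm
    obtain ⟨a, ⟨ha1, ha2⟩, b, hb1, rfl⟩ := Language.mem_mul.1 hm
    have hb1' : 1 ≤ b.length := hb1
    refine hc a.length ha1 (by rw [List.length_append]; omega) ?_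
    rw [List.take_left]; exact ha2

theorem nw_le {r : ℕ} (u : List α)
    (h : ∀ t, r ≤ t → t < u.length → ¬ Wo n S0 (u.take t)) : nw n S0 u ≤ r + 1 := by
  classical
  unfold nw
  have hsub : (Finset.range (u.length + 1)).filter (fun x => Wl n S0 u x) ⊆
      insert (u.length - n) (Finset.range r) := by
    intro x hx
    rw [Finset.mem_filter, Finset.mem_range] at hx
    obtain ⟨_, hx2, hx3⟩ := hx
    rw [Finset.mem_insert, Finset.mem_range]
    by_contra hcon
    push Not at hcon
    obtain ⟨hc1, hc2⟩ := hcon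
    refine h (x + n) (by omega) (by omega) ?_
    refine ⟨by rw [List.length_take]; omega, ?_⟩
    rw [List.length_take, min_eq_left (by omega), Nat.add_sub_cancel, List.drop_take,
      Nat.add_sub_cancel_left]
    exact hx3
  calc _ ≤ (insert (u.length - n) (Finset.range r)).card := Finset.card_le_card hsub
    _ ≤ (Finset.range r).card + 1 := Finset.card_insert_le _ _
    _ = r + 1 := by rw [Finset.card_range]

/-- few walls ⟹ height one -/
def FewHL (n : ℕ) (S0 : Set (List α)) : Prop :=
  ∀ (L : Language α), L.IsRegular → ∀ r, HL 1 ({w | w ∈ L ∧ nw n S0 w ≤ r} : Language α)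

theorem hl_of_reg [Finite α] (hF : FewHL n S0) {L : Language α} (hL : L.IsRegular) :
    HL 1 ({u | u ∈ XX n S0 z ∧ u ∈ L} : Language α) := by
  have h1 : (XX n S0 z ⊓ L).IsRegular :=
    (Crest.Agent.R320.Reg_852.HL.isRegular (hl_XX0 (k := 0))).inf hL
  refine (hF _ h1 (z + 1)).congr fun w => Iff.symm ?_
  constructor
  · rintro ⟨h, _⟩; exact h
  · intro h
    exact ⟨h, nw_le w h.1.2.2⟩

theorem hl_rest [Finite α] (hF : FewHL n S0) {S : Type} [Monoid S] [Finite S] (f : α → S) (s : S) :
    HL 1 ({w | (∀ u ∈ XX n S0 z, ¬ u <+: w) ∧ (w.map f).prod = s} : Language α) := by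
  have hreg : Language.IsRegular ({w | (w.map f).prod = s} : Language α) :=
    Crest.Agent.R320.Reg_852.isRegular_prod f s
  have h1 := hF _ hreg (z + 1)
  have h2 : HL 1 ({w | ∃ u ∈ XX n S0 z, u <+: w} : Language α) := (hl_XX0 (k := 1)).prefix
  refine (HL.setOf_and h1 h2.setOf_not).congr fun w => Iff.symm ?_
  constructor
  · rintro ⟨⟨ha, _⟩, hb⟩
    refine ⟨fun u hu hw => hb ⟨u, hu, hw⟩, ha⟩
  · rintro ⟨ha, hb⟩
    refine ⟨⟨hb, nw_le w ?_⟩, fun ⟨u, hu, hw⟩ => ha u hu hw⟩
    intro t ht htl hw
    have hl : z ≤ (w.take t).length := by rw [List.length_take]; omega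
    obtain ⟨r, hr, hrw⟩ := exists_block hl hw
    exact ha r hr (hrw.trans (List.take_prefix _ _))

/-- finite key of a word -/
def key {S : Type} [Monoid S] (f : α → S) (B Pm : ℕ) (u : List α) : List α × S × ℕ :=
  (u.take B, ((u.drop B).map f).prod, u.length % Pm)

theorem reg_key [Finite α] {S : Type} [Monoid S] [Finite S] (f : α → S) (B Pm : ℕ) (hPm : 0 < Pm)
    (A : Set (List α × S × ℕ)) : Language.IsRegular ({u | key f B Pm u ∈ A} : Language α) := by
  classical
  let B' := {l : List α // l.length ≤ B}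
  haveI : Finite B' := (List.finite_length_le α B).to_subtype
  let σ := B' × S × {j : ℕ // j < Pm}
  haveI : Finite {j : ℕ // j < Pm} := (Set.finite_lt_nat Pm).to_subtype
  let st : σ → α → σ := fun q a =>
    if h : q.1.1.length < B then
      (⟨q.1.1 ++ [a], by rw [List.length_append, List.length_singleton]; omega⟩, q.2.1,
        ⟨(q.2.2.1 + 1) % Pm, Nat.mod_lt _ hPm⟩)
    else (q.1, q.2.1 * f a, ⟨(q.2.2.1 + 1) % Pm, Nat.mod_lt _ hPm⟩)
  let s0 : σ := (⟨[], by simp⟩, 1, ⟨0, hPm⟩)
  have key1 : ∀ w : List α, (w.foldl st s0).1.1 = w.take B ∧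
      (w.foldl st s0).2.1 = ((w.drop B).map f).prod ∧ (w.foldl st s0).2.2.1 = w.length % Pm := by
    intro w
    induction w using List.reverseRecOn with
    | nil => simp [s0]
    | append_singleton w a ih =>
      obtain ⟨h1, h2, h3⟩ := ih
      rw [List.foldl_append, List.foldl_cons, List.foldl_nil]
      set q := w.foldl st s0 with hq
      have hlen : q.1.1.length = min B w.length := by rw [h1, List.length_take]
      by_cases h : q.1.1.length < B
      · have hw : w.length < B := by omega
        have e : st q a = (⟨q.1.1 ++ [a], by rw [List.length_append, List.length_singleton]; omega⟩,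
          q.2.1, ⟨(q.2.2.1 + 1) % Pm, Nat.mod_lt _ hPm⟩) := dif_pos h
        rw [e]
        refine ⟨?_, ?_, ?_⟩
        · show q.1.1 ++ [a] = _
          rw [h1, List.take_of_length_le hw.le, List.take_of_length_le (by simp; omega)]
        · show q.2.1 = _
          rw [h2, List.drop_of_length_le hw.le, List.drop_of_length_le (by simp; omega)]
        · show (q.2.2.1 + 1) % Pm = _
          rw [h3, List.length_append, List.length_singleton, Nat.mod_add_mod]
      · have hw : B ≤ w.length := by omega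
        have e : st q a = (q.1, q.2.1 * f a, ⟨(q.2.2.1 + 1) % Pm, Nat.mod_lt _ hPm⟩) := dif_neg h
        rw [e]
        refine ⟨?_, ?_, ?_⟩
        · show q.1.1 = _
          rw [h1, List.take_append_of_le_length hw]
        · show q.2.1 * f a = _
          rw [h2, List.drop_append_of_le_length hw, List.map_append, List.prod_append]
          simp
        · show (q.2.2.1 + 1) % Pm = _
          rw [h3, List.length_append, List.length_singleton, Nat.mod_add_mod]
  have h := Crest.R320.Reg_143.isRegular_fold st s0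
    (fun q => ((q.1.1, q.2.1, q.2.2.1) : List α × S × ℕ) ∈ A)
  have e : ({u | key f B Pm u ∈ A} : Language α) = Crest.R320.Reg_143.lg
      (fun w : List α => ((((w.foldl st s0).1.1, (w.foldl st s0).2.1, (w.foldl st s0).2.2.1) :
        List α × S × ℕ) ∈ A)) := by
    ext w
    obtain ⟨h1, h2, h3⟩ := key1 w
    show (w.take B, ((w.drop B).map f).prod, w.length % Pm) ∈ A ↔
      (((w.foldl st s0).1.1, (w.foldl st s0).2.1, (w.foldl st s0).2.2.1) : List α × S × ℕ) ∈ A
    rw [h1, h2, h3]
  rw [e]
  exact h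

theorem hl_key [Finite α] (hF : FewHL n S0) {S : Type} [Monoid S] [Finite S] (f : α → S)
    {B Pm : ℕ} (hPm : 0 < Pm) (Pd : List α → Prop)
    (hPd : ∀ u ∈ XX n S0 z, ∀ u' ∈ XX n S0 z, key f B Pm u = key f B Pm u' → Pd u → Pd u') :
    HL 1 ({u | u ∈ XX n S0 z ∧ Pd u} : Language α) := by
  refine (hl_of_reg (z := z) hF
    (reg_key f B Pm hPm {κ | ∃ u ∈ XX n S0 z, key f B Pm u = κ ∧ Pd u})).congr
    fun w => Iff.symm ?_
  constructor
  · rintro ⟨h1, u, hu, h2, h3⟩
    exact ⟨h1, hPd u hu w h1 h2 h3⟩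
  · rintro ⟨h1, h2⟩
    exact ⟨h1, w, h1, rfl, h2⟩

end Crest.Agent.R320.AllW_379
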