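import Crest.Agent.R320.Code_110

/-!
# Row 320, P1 (top): from a prefix code of blocks, ONE token system and two schemes to height 3
(helper110; over `Code_110.step`)

`top` : scheme 1 complete at the blocks outside `Bad`, scheme 2 (same tokens) sound and complete
inside `Bad*`; both soundness hypotheses are WEAK (only inside `XX*`, resp. `Bad*`).
`top_sem` : the same with right labels defined semantically from finite left languages.
-/

set_option autoImplicit false

namespace Crest.Agent.R320.Top5_110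

open Crest.Agent.R320.Hk_851 Crest.Agent.R320.Code110

universe u v

variable {α : Type u} {S : Type*} [Monoid S] {V : Type v} [AddCommGroup V]
  {φ : List α → S} {act : V → S → V} {XX Bad : Language α} {T : List α → V → V}

theorem run_sub (hφ0 : φ [] = 1) (hφ : ∀ u w, φ (u ++ w) = φ u * φ w)
    (hact1 : ∀ v, act v 1 = v) (hactm : ∀ v s t, act v (s * t) = act (act v s) t)
    (hX : PC XX) (hT : ∀ u ∈ XX, ∀ v v', T u v - T u v' = act (v - v') (φ u))
    {x y : V} {w : List α} (h : Run XX T x w y) :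
    ∀ {x' y' : V}, Run XX T x' w y' → y - y' = act (x - x') (φ w) := by
  induction h with
  | nil x =>
    intro x' y' h'
    have := (Run.nil (Z := XX) (τ := T) x').det hX h'
    subst this
    rw [hφ0, hact1]
  | @cons x y u w hu _ ih =>
    intro x' y' h'
    have h1 := (Run.single (Z := XX) (τ := T) (x := x') hu).cancel hX h'
    rw [ih h1, hT u hu, hφ, hactm]

variable [Finite V] {k : ℕ}

/-- read-out of the value from the threads -/
theorem readout (hφ0 : φ [] = 1) (hφ : ∀ u w, φ (u ++ w) = φ u * φ w)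
    (hact1 : ∀ v, act v 1 = v) (hactm : ∀ v s t, act v (s * t) = act (act v s) t)
    (hfaith : ∀ s t : S, (∀ v, act v s = act v t) → s = t)
    (hX : PC XX) (hT : ∀ u ∈ XX, ∀ v v', T u v - T u v' = act (v - v') (φ u))
    (hR : ∀ x y, HL k (RB XX T x y)) (s : S) :
    HL k ({w | w ∈ KStar.kstar XX ∧ φ w = s} : Language α) := by
  have h1 : HL k ({w | ∃ f : V → V, w ∈ ({w | (∀ v, f v - f 0 = act v s) ∧
      (∀ v, w ∈ RB XX T v (f v))} : Language α)} : Language α) :=
    HL.iUnion fun f => (HL.const _).setOf_and (HL.iInter fun v => hR v (f v))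
  refine h1.congr fun w => ?_
  constructor
  · rintro ⟨hw, hs⟩
    choose f hf using fun v : V => exists_run (τ := T) hw v
    refine ⟨f, ?_, hf⟩
    intro v
    have := run_sub hφ0 hφ hact1 hactm hX hT (hf v) (hf 0)
    rw [this, hs, sub_zero]
  · rintro ⟨f, h1, h2⟩
    refine ⟨Run.mem_star (h2 0), ?_⟩
    apply hfaith
    intro v
    have := run_sub hφ0 hφ hact1 hactm hX hT (h2 v) (h2 0)
    rw [sub_zero] at this
    rw [← this, h1]

theorem split_all (hX : PC XX) : ∀ (n : ℕ) (w : List α), w.length ≤ n →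
    ∃ a b, w = a ++ b ∧ a ∈ KStar.kstar XX ∧ ∀ u ∈ XX, ¬ u <+: b := by
  intro n
  induction n with
  | zero =>
    intro w hw
    have : w = [] := List.length_eq_zero_iff.1 (by omega)
    subst this
    refine ⟨[], [], rfl, Language.nil_mem_kstar _, ?_⟩
    intro u hu h
    exact hX.ne ((List.prefix_nil.1 h) ▸ hu)
  | succ n ih =>
    intro w hw
    by_cases h : ∃ u ∈ XX, u <+: w
    · obtain ⟨u, hu, w', rfl⟩ := h
      have hul : 0 < u.length := by
        rcases Nat.eq_zero_or_pos u.length with h0 | h0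
        · exact (hX.ne (List.length_eq_zero_iff.1 h0 ▸ hu)).elim
        · exact h0
      obtain ⟨a, b, rfl, ha, hb⟩ := ih w' (by simp at hw; omega)
      refine ⟨u ++ a, b, by simp, ?_, hb⟩
      rw [Language.mem_kstar] at ha ⊢
      obtain ⟨L, rfl, hL⟩ := ha
      refine ⟨u :: L, by simp, ?_⟩
      intro y hy
      rcases List.mem_cons.1 hy with rfl | hy
      · exact hu
      · exact hL y hy
    · push Not at h
      exact ⟨[], w, rfl, Language.nil_mem_kstar _, h⟩

theorem values [Finite S] (hφ : ∀ u w, φ (u ++ w) = φ u * φ w)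
    (hX : PC XX) (h1 : ∀ s, HL k ({w | w ∈ KStar.kstar XX ∧ φ w = s} : Language α))
    (h2 : ∀ s, HL k ({w | (∀ u ∈ XX, ¬ u <+: w) ∧ φ w = s} : Language α)) (s : S) :
    HL k ({w | φ w = s} : Language α) := by
  let A : S → Language α := fun s => {w | w ∈ KStar.kstar XX ∧ φ w = s}
  let B : S → Language α := fun s => {w | (∀ u ∈ XX, ¬ u <+: w) ∧ φ w = s}
  have hA : ∀ s, HL k (A s) := h1
  have hB : ∀ s, HL k (B s) := h2
  have h : HL k ({w | ∃ q : S × S, w ∈ ({w | q.1 * q.2 = s ∧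
      w ∈ (A q.1 * B q.2)} : Language α)} : Language α) :=
    HL.iUnion fun q => HL.setOf_and (HL.const _) ((hA q.1).mul (hB q.2))
  refine h.congr fun w => ?_
  constructor
  · intro hw
    obtain ⟨a, b, rfl, ha, hb⟩ := split_all hX w.length w le_rfl
    refine ⟨(φ a, φ b), ?_, Language.mem_mul.2 ⟨a, ⟨ha, rfl⟩, b, ⟨hb, rfl⟩, rfl⟩⟩
    rw [← hφ]
    exact hw
  · rintro ⟨⟨s1, s2⟩, hq, hw⟩
    obtain ⟨a, ⟨-, ha⟩, b, ⟨-, hb⟩, rfl⟩ := Language.mem_mul.1 hw
    change φ (a ++ b) = s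
    rw [hφ, ha, hb]
    exact hq

omit [AddCommGroup V] [Finite V] in
theorem HL_empty_run (x y : V) : HL k (RB (⊥ : Language α) T x y) := by
  refine (HLempty_eq (k := k) x y).congr fun w => ?_
  constructor
  · intro hw
    have hw' : Run (⊥ : Language α) T x w y := hw
    cases hw' with
    | nil => exact ⟨rfl, rfl⟩
    | cons hu _ => exact hu.elim
  · rintro ⟨rfl, rfl⟩
    exact Run.nil x

/-- **TOP: a prefix code of blocks, one token system, two schemes ⟹ height 3** -/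
theorem top [Finite S] (hφ0 : φ [] = 1) (hφ : ∀ u w, φ (u ++ w) = φ u * φ w)
    (hact1 : ∀ v, act v 1 = v) (hactm : ∀ v s t, act v (s * t) = act (act v s) t)
    (hfaith : ∀ s t : S, (∀ v, act v s = act v t) → s = t)
    (hX : PC XX) (hB : ∀ u ∈ Bad, u ∈ XX)
    (hT : ∀ u ∈ XX, ∀ v v', T u v - T u v' = act (v - v') (φ u))
    (H1 : HL 1 XX) (H2 : HL 1 Bad) (H3 : ∀ x y, HL 1 (ZT XX T x y))
    (H4 : ∀ s, HL 3 ({w | (∀ u ∈ XX, ¬ u <+: w) ∧ φ w = s} : Language α))
    {N1 N2 : ℕ} {L1 R1 L2 R2 : V → Language α}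
    (HL1 : ∀ v, HL 2 (L1 v)) (HR1 : ∀ v, HL 2 (R1 v)) (S1 : Sch XX Bad T N1 L1 R1)
    (HL2 : ∀ v, HL 1 (L2 v)) (HR2 : ∀ v, HL 1 (R2 v)) (S2 : Sch Bad ⊥ T N2 L2 R2) (s : S) :
    HL 3 ({w | φ w = s} : Language α) := by
  have hτ : ∀ x y, HL 1 (ZT Bad T x y) := fun x y =>
    (H2.inf (H3 x y)).congr fun w =>
      ⟨fun h => ⟨h.1, hB _ h.1, h.2⟩, fun h => ⟨h.1, h.2.2⟩⟩
  have hbad : ∀ x y, HL 2 (RB Bad T x y) := fun x y =>
    step (k := 1) (hX.sub hB) (fun u hu => hu.elim) H2.star hτ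
      (fun x y => HL_empty_run x y) HL2 HR2 S2 x y
  have hall : ∀ x y, HL 3 (RB XX T x y) := fun x y =>
    step (k := 2) hX hB ((H1.star).mono (by norm_num)) (fun x y => (H3 x y).mono (by norm_num))
      hbad HL1 HR1 S1 x y
  exact values hφ hX (fun s => readout hφ0 hφ hact1 hactm hfaith hX hT hall s) H4 s

/-- **TOP, semantic form**: left languages finite, right languages `Rsem` (no soundness left):
only the two completeness statements remain. -/
theorem top_sem [Finite S] (hφ0 : φ [] = 1) (hφ : ∀ u w, φ (u ++ w) = φ u * φ w)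
    (hact1 : ∀ v, act v 1 = v) (hactm : ∀ v s t, act v (s * t) = act (act v s) t)
    (hfaith : ∀ s t : S, (∀ v, act v s = act v t) → s = t)
    (hX : PC XX) (hB : ∀ u ∈ Bad, u ∈ XX)
    (hT : ∀ u ∈ XX, ∀ v v', T u v - T u v' = act (v - v') (φ u))
    (H1 : HL 1 XX) (H2 : HL 1 Bad) (H3 : ∀ x y, HL 1 (ZT XX T x y))
    (H4 : ∀ s, HL 3 ({w | (∀ u ∈ XX, ¬ u <+: w) ∧ φ w = s} : Language α))
    {N1 N2 : ℕ} {L1 L2 : V → Language α}
    (F1 : ∀ v, {p | p ∈ L1 v}.Finite) (F2 : ∀ v, {p | p ∈ L2 v}.Finite)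
    (C1 : ∀ u ∈ XX, u ∉ Bad → ∀ x, ∀ t ∈ XX ^ N1, ∃ p q y, u ++ t = p ++ q ∧ p ∈ L1 x ∧
      q ∈ Rsem XX XX T N1 L1 y)
    (C2 : ∀ u ∈ Bad, ∀ x, ∀ t ∈ Bad ^ N2, ∃ p q y, u ++ t = p ++ q ∧ p ∈ L2 x ∧
      q ∈ Rsem XX Bad T N2 L2 y) (s : S) :
    HL 3 ({w | φ w = s} : Language α) := by
  have hτ : ∀ x y, HL 1 (ZT Bad T x y) := fun x y =>
    (H2.inf (H3 x y)).congr fun w =>
      ⟨fun h => ⟨h.1, hB _ h.1, h.2⟩, fun h => ⟨h.1, h.2.2⟩⟩
  exact top hφ0 hφ hact1 hactm hfaith hX hB hT H1 H2 H3 H4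
    (fun v => HL.finite (F1 v))
    (Rsem.hl F1 (H1.mono (by norm_num)) (H1.mono (by norm_num))
      (fun x y => (H3 x y).mono (by norm_num)))
    (Rsem.sch hX (fun u hu => hu) C1)
    (fun v => HL.finite (F2 v)) (Rsem.hl F2 H1 H2 hτ)
    (Rsem.sch hX hB (fun u hu _ x t ht => C2 u hu x t ht)) s

end Crest.Agent.R320.Top5_110
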