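import Crest.Agent.R320.Nat_105
import Crest.Agent.R320.Top5_110

/-!
# Row 320: the two schemes on the natural block code (helper105)

From a zone gadget (`G1`), an exact gadget (`G2`), a ruler and left-looking walls on all words, over
`Top5_110.top_sem`.
-/

set_option autoImplicit false
set_option linter.all false

namespace Crest.Agent.R320.All_105

open Crest.Agent.R320.Hk_851 Crest.Agent.R320.Code110 Crest.Agent.R320.Nat_105

variable {α S V : Type} [Monoid S] [AddCommGroup V]

section shift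
variable {Wo : List α → Prop} {n W R B z : ℕ}

/-- shift of the left part -/
theorem shift (hW : Walls Wo n W R B) {A C Q : List α} {D M : ℕ} (hX : A ++ Q ∈ XX Wo z)
    (hAC : A.length ≤ C.length + D) (hCA : C.length ≤ A.length + D) (hA : A.length ≤ M)
    (hC : C.length ≤ M) (hz : M + n + D ≤ z)
    (hE : ∀ t, t ≤ (A ++ Q).length → z ≤ t + D → t < z + D → ¬ Wo ((A ++ Q).take t)) :
    C ++ Q ∈ XX Wo z := by
  obtain ⟨h1, h2, h3⟩ := hX
  rw [List.length_append] at h1
  have hQ : n ≤ Q.length := by omega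
  have hq : Wo Q := (hW.loc A Q hQ).1 h2
  refine ⟨?_, (hW.loc C Q hQ).2 hq, ?_⟩
  · rw [List.length_append]
    by_contra hlt
    refine hE (A ++ Q).length le_rfl ?_ ?_ ?_
    · rw [List.length_append]; omega
    · rw [List.length_append]; omega
    · rw [List.take_length]; exact h2
  · intro t ht1 ht2 ht3
    rw [List.length_append] at ht2
    have e1 : (C ++ Q).take t = C ++ Q.take (t - C.length) := by
      rw [List.take_append, List.take_of_length_le (by omega)]
    have hn : n ≤ (Q.take (t - C.length)).length := by rw [List.length_take]; omega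
    rw [e1] at ht3
    have hq' := (hW.loc _ _ hn).1 ht3
    have e2 : (A ++ Q).take (A.length + (t - C.length)) = A ++ Q.take (t - C.length) := by
      rw [List.take_append, List.take_of_length_le (by omega)]
      congr 2; omega
    have hw : Wo ((A ++ Q).take (A.length + (t - C.length))) := by
      rw [e2]; exact (hW.loc _ _ hn).2 hq'
    by_cases hc : z ≤ A.length + (t - C.length)
    · exact h3 _ hc (by rw [List.length_append]; omega) hw
    · exact hE _ (by rw [List.length_append]; omega) (by omega) (by omega) hw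

/-- walls of `P' ++ w.drop ck` are walls of `w` -/
theorem wall_iff (hW : Walls Wo n W R B) {w P' : List α} {ck t p0 : ℕ} (h1 : P'.length ≤ p0)
    (h2 : ck ≤ p0) (hck : ck ≤ w.length) (ht : p0 + n ≤ t)
    (ht' : t ≤ (P' ++ w.drop ck).length) :
    Wo ((P' ++ w.drop ck).take t) ↔ Wo (w.take (t - P'.length + ck)) := by
  rw [List.length_append, List.length_drop] at ht'
  have e1 : (P' ++ w.drop ck).take t = P' ++ (w.drop ck).take (t - P'.length) := by
    rw [List.take_append, List.take_of_length_le (by omega)]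
  have e2 : w.take (t - P'.length + ck) = w.take ck ++ (w.drop ck).take (t - P'.length) := by
    rw [Nat.add_comm]; exact List.take_add
  have hn : n ≤ ((w.drop ck).take (t - P'.length)).length := by
    rw [List.length_take, List.length_drop]; omega
  rw [e1, e2, hW.loc _ _ hn, hW.loc _ _ hn]

theorem gap' (hW : Walls Wo n W R B) {w : List α} {e e' : ℕ} (h : e < e') (h' : e' ≤ w.length)
    (h1 : Wo (w.take e)) (h2 : Wo (w.take e')) : e + W < e' := by
  by_contra hlt
  have hl : (w.take e').length = e' := by rw [List.length_take]; omega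
  refine hW.gap (w.take e') (e' - e) h2 (by omega) (by omega) ?_
  rw [hl, List.take_take]
  have : min (e' - (e' - e)) e' = e := by omega
  rw [this]; exact h1

end shift

/-- scheme 1: gadget -/
structure G1 (φ : List α → S) (act : V → S → V) (N N' : ℕ) (BadT : ℕ → Prop)
    (lam rho : List α → Option V) (nu1 : List α → V) : Prop where
  len : ∀ P v, lam P = some v → P.length ≤ N
  sound : ∀ P Q v b, lam P = some v → rho Q = some b → b = act v (φ (P ++ Q)) + nu1 (P ++ Q)
  compl : ∀ u : List α, N' ≤ u.length → ¬ BadT u.length → ∀ v, ∃ P Q, u = P ++ Q ∧ lam P = some v ∧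
    (rho Q).isSome
  reg : ∀ d, Language.IsRegular ({u | nu1 u = d} : Language α)

/-- scheme 2: exact gadget -/
structure G2 (φ : List α → S) (act : V → S → V) (K R2 : ℕ) (c : ℕ → ℕ)
    (lam2 rho2 : ℕ → List α → Option V) (nu2 : List α → V) : Prop where
  sound : ∀ k < K, ∀ (P Q : List α) (v b : V), P.length = c k → lam2 k P = some v → rho2 k Q = some b →
    b = act v (φ (P ++ Q)) + nu2 (P ++ Q)
  compl : ∀ (u : List α) (v : V), (∀ k < K, c k ≤ u.length) → ∃ I : Finset ℕ, R2 ≤ I.card ∧ ∀ k ∈ I, k < K ∧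
    lam2 k (u.take (c k)) = some v ∧ (rho2 k (u.drop (c k))).isSome

/-- zone map -/
def T (φ : List α → S) (act : V → S → V) (p0 : ℕ) (nu1 nu2 : List α → V) (X : List α) (x : V) :
    V :=
  act (act x (φ (X.take p0)) + nu2 (X.take p0)) (φ (X.drop p0)) + nu1 (X.drop p0)

/-- left words of scheme 1 -/
def L1 (φ : List α → S) (act : V → S → V) (p0 : ℕ) (lam : List α → Option V) (nu2 : List α → V)
    (x : V) : Language α :=
  {P | p0 ≤ P.length ∧ lam (P.drop p0) = some (act x (φ (P.take p0)) + nu2 (P.take p0))}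

/-- left words of scheme 2 -/
def L2 (K : ℕ) (c : ℕ → ℕ) (lam2 : ℕ → List α → Option V) (x : V) : Language α :=
  {P | ∃ k, k < K ∧ P.length = c k ∧ lam2 k P = some x}

theorem mem_exact1 {Z : Language α} {τ : List α → V → V} {w : List α} {x y : V} (h : w ∈ Z)
    (h' : τ w x = y) : w ∈ Exactly Z τ 1 x y :=
  ⟨y, Language.mem_mul.2 ⟨w, ⟨h, h'⟩, [], ⟨rfl, rfl⟩, by simp⟩⟩

theorem mem_exact2 {Z : Language α} {τ : List α → V → V} {w w' : List α} {x y : V} (h : w ∈ Z)
    (h' : w' ∈ Z) (e : τ w' (τ w x) = y) : w ++ w' ∈ Exactly Z τ 2 x y :=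
  ⟨τ w x, Language.mem_mul.2 ⟨w, ⟨h, rfl⟩, w', mem_exact1 h' e, rfl⟩⟩

section main
variable {Wo : List α → Prop} {n W R B z p0 N N' K C0 R2 : ℕ} {φ : List α → S}
  {act : V → S → V} {BadT : ℕ → Prop} {lam rho : List α → Option V} {nu1 nu2 : List α → V}
  {c : ℕ → ℕ} {lam2 rho2 : ℕ → List α → Option V}

/-- no wall near `z` -/
def NoE (Wo : List α → Prop) (z N : ℕ) (X : List α) : Prop :=
  ∀ t, t ≤ X.length → z ≤ t + N → t < z + N → ¬ Wo (X.take t)

/-- good blocks -/
def Cut1 (Wo : List α → Prop) (z : ℕ) (φ : List α → S) (act : V → S → V) (p0 : ℕ)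
    (lam : List α → Option V) (nu1 nu2 : List α → V) (X : List α) : Prop :=
  ∀ x, ∃ p q y, X = p ++ q ∧ p ∈ L1 φ act p0 lam nu2 x ∧
    q ∈ Rsem (XX Wo z) (XX Wo z) (T φ act p0 nu1 nu2) 0 (L1 φ act p0 lam nu2) y

theorem cut1 (hW : Walls Wo n W R B) (g1 : G1 φ act N N' BadT lam rho nu1)
    (hz : p0 + N + n + N ≤ z) (hz' : p0 + N' ≤ z) {X : List α} (hX : X ∈ XX Wo z)
    (hE : NoE Wo z N X) (hB : ¬ BadT (X.length - p0)) :
    Cut1 Wo z φ act p0 lam nu1 nu2 X := by
  intro x
  have hXl := hX.1
  have hd : (X.drop p0).length = X.length - p0 := by rw [List.length_drop]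
  obtain ⟨P, Q, hPQ, hP, hQ⟩ := g1.compl (X.drop p0) (by rw [hd]; omega) (by rw [hd]; exact hB)
    (act x (φ (X.take p0)) + nu2 (X.take p0))
  obtain ⟨b, hb⟩ := Option.isSome_iff_exists.1 hQ
  have htl : (X.take p0).length = p0 := by rw [List.length_take]; omega
  have hPN := g1.len P _ hP
  have hXe : X = (X.take p0 ++ P) ++ Q := by
    rw [List.append_assoc, ← hPQ, List.take_append_drop]
  refine ⟨X.take p0 ++ P, Q, b, hXe, ⟨?_, ?_⟩, ?_⟩
  · rw [List.length_append]; omega
  · have e1 : (X.take p0 ++ P).drop p0 = P := by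
      rw [List.drop_append, List.drop_of_length_le (by omega), htl]; simp
    have e2 : (X.take p0 ++ P).take p0 = X.take p0 := by
      rw [List.take_append, List.take_of_length_le (by omega), htl]; simp
    rw [e1, e2]; exact hP
  · intro x' p' hp'
    obtain ⟨hl', hlam'⟩ := hp'
    have hlen' := g1.len _ _ hlam'
    rw [List.length_drop] at hlen'
    left
    have hmem : p' ++ Q ∈ XX Wo z := by
      refine shift hW (A := X.take p0 ++ P) (C := p') (Q := Q) (D := N) (M := p0 + N)
        (by rw [← hXe]; exact hX) ?_ ?_ ?_ ?_ (by omega) (by rw [← hXe]; exact hE)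
      all_goals (first | rw [List.length_append] | skip); omega
    refine mem_exact1 hmem ?_
    have e1 : (p' ++ Q).take p0 = p'.take p0 := by
      rw [List.take_append_of_le_length hl']
    have e2 : (p' ++ Q).drop p0 = p'.drop p0 ++ Q := by
      rw [List.drop_append_of_le_length hl']
    unfold T
    rw [e1, e2]
    exact (g1.sound _ _ _ _ hlam' hb).symm

/-- bad blocks -/
def Bad (Wo : List α → Prop) (z : ℕ) (φ : List α → S) (act : V → S → V) (p0 : ℕ)
    (lam : List α → Option V) (nu1 nu2 : List α → V) : Language α :=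
  {X | X ∈ XX Wo z ∧ ¬ Cut1 Wo z φ act p0 lam nu1 nu2 X}

theorem spoil (hW : Walls Wo n W R B) (hz : p0 + N + n + N ≤ z) (hWp : 2 * p0 + 2 * N ≤ W)
    (hc : ∀ k < K, c k ≤ p0)
    (hres : ∀ a b a' b', a < K → b < K → a' < K → b' < K → a ≠ b →
      |((c a : ℤ) - c b) - ((c a' : ℤ) - c b')| ≤ 2 * N → a = a' ∧ b = b')
    (hsp : ∀ t : ℤ, ∀ s : Finset (ℕ × ℕ), (∀ ab ∈ s, ab.1 < K ∧ ab.2 < K ∧ ab.1 ≠ ab.2 ∧
      ∃ m : ℕ, (m : ℤ) = t + c ab.1 - c ab.2 ∧ BadT m) → s.card ≤ C0)
    {u t : List α} (hu : u ∈ XX Wo z) (ht : t ∈ XX Wo z) :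
    ∃ J : Finset ℕ, J.card ≤ 1 + 2 * C0 ∧ ∀ k < K, k ∉ J → ∀ k' < K, k' ≠ k →
      ∀ P' : List α, P'.length = c k' → ∃ X', X' ∈ XX Wo z ∧
        X' <+: P' ++ (u ++ t).drop (c k) ∧ NoE Wo z N X' ∧ ¬ BadT (X'.length - p0) := by
  classical
  set w := u ++ t with hw
  have hul := hu.1
  have htl := ht.1
  have hwl : w.length = u.length + t.length := by rw [hw, List.length_append]
  have hww : Wo (w.take w.length) := by
    rw [List.take_length, hw]
    exact (hW.loc _ _ (by omega)).2 ht.2.1
  have hexa : ∃ e, z ≤ e + p0 ∧ e ≤ w.length ∧ Wo (w.take e) := ⟨w.length, by omega, le_rfl, hww⟩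
  obtain ⟨ea, ha, hamin⟩ : ∃ ea, (z ≤ ea + p0 ∧ ea ≤ w.length ∧ Wo (w.take ea)) ∧
      ∀ e, (z ≤ e + p0 ∧ e ≤ w.length ∧ Wo (w.take e)) → ea ≤ e :=
    ⟨Nat.find hexa, Nat.find_spec hexa, fun e he => Nat.find_min' hexa he⟩
  obtain ⟨eb, hb⟩ : ∃ eb, ∀ e, (ea < e ∧ e ≤ w.length ∧ Wo (w.take e)) →
      (ea < eb ∧ eb ≤ w.length ∧ Wo (w.take eb)) ∧ eb ≤ e := by
    by_cases h : ∃ e, ea < e ∧ e ≤ w.length ∧ Wo (w.take e)
    · exact ⟨Nat.find h, fun e he => ⟨Nat.find_spec h, Nat.find_min' h he⟩⟩
    · exact ⟨0, fun e he => absurd ⟨e, he⟩ h⟩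
  let PP := (Finset.range K) ×ˢ (Finset.range K)
  let SE := PP.filter (fun ab => ab.1 ≠ ab.2 ∧ ∃ e, e ≤ w.length ∧ Wo (w.take e) ∧
    |(e : ℤ) - ((c ab.2 : ℤ) - c ab.1) - z| ≤ N)
  let SB := fun e : ℕ => PP.filter (fun ab => ab.1 ≠ ab.2 ∧
    ∃ m : ℕ, (m : ℤ) = ((e : ℤ) - p0) + c ab.1 - c ab.2 ∧ BadT m)
  have hSE : SE.card ≤ 1 := by
    rw [Finset.card_le_one]
    rintro ⟨a, b⟩ h1 ⟨a', b'⟩ h2
    simp only [SE, PP, Finset.mem_filter, Finset.mem_product, Finset.mem_range] at h1 h2
    obtain ⟨⟨ha1, hb1⟩, hab, e, he1, he2, he3⟩ := h1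
    obtain ⟨⟨ha2, hb2⟩, hab', e', he1', he2', he3'⟩ := h2
    have b1 := hc a ha1
    have b2 := hc b hb1
    have b3 := hc a' ha2
    have b4 := hc b' hb2
    rw [abs_le] at he3 he3'
    have hee : e = e' := by
      rcases lt_trichotomy e e' with h | h | h
      · have := gap' hW h he1' he2 he2'
        omega
      · exact h
      · have := gap' hW h he1 he2' he2
        omega
    subst hee
    have := hres a b a' b' ha1 hb1 ha2 hb2 hab (by rw [abs_le]; constructor <;> omega)
    rw [this.1, this.2]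
  have hSB : ∀ e, (SB e).card ≤ C0 := by
    intro e
    refine hsp ((e : ℤ) - p0) (SB e) ?_
    rintro ⟨a, b⟩ h1
    simp only [SB, PP, Finset.mem_filter, Finset.mem_product, Finset.mem_range] at h1
    exact ⟨h1.1.1, h1.1.2, h1.2.1, h1.2.2⟩
  refine ⟨(SE ∪ (SB ea ∪ SB eb)).image Prod.snd, ?_, ?_⟩
  · refine Finset.card_image_le.trans ((Finset.card_union_le _ _).trans ?_)
    have := Finset.card_union_le (SB ea) (SB eb)
    have h1 := hSB ea
    have h2 := hSB eb
    omega
  · intro k hk hkJ k' hk' hne P' hP'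
    have hck := hc k hk
    have hck' := hc k' hk'
    have hUl : (P' ++ w.drop (c k)).length = c k' + (w.length - c k) := by
      rw [List.length_append, List.length_drop, hP']
    have hUw : Wo ((P' ++ w.drop (c k)).take (P' ++ w.drop (c k)).length) := by
      rw [wall_iff hW (p0 := p0) (by omega) hck (by omega) (by omega) le_rfl]
      have : (P' ++ w.drop (c k)).length - P'.length + c k = w.length := by omega
      rw [this]; exact hww
    obtain ⟨t1, ht1, ht2, ht3⟩ := first_block (z := z) (Wo := Wo) (by omega) le_rfl hUw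
    have hX'l : ((P' ++ w.drop (c k)).take t1).length = t1 := by rw [List.length_take]; omega
    have hwall1 : Wo (w.take (t1 - P'.length + c k)) := by
      rw [← wall_iff hW (p0 := p0) (by omega) hck (by omega) (by omega) ht2]
      exact ht3.2.1
    have hnot : ∀ ab ∈ SE ∪ (SB ea ∪ SB eb), ab.2 ≠ k := by
      intro ab hab h
      exact hkJ (Finset.mem_image.2 ⟨ab, hab, h⟩)
    refine ⟨(P' ++ w.drop (c k)).take t1, ht3, List.take_prefix _ _, ?_, ?_⟩
    · intro t' h1 h2 h3 h4
      rw [hX'l] at h1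
      rw [List.take_take, Nat.min_eq_left h1] at h4
      rw [wall_iff hW (p0 := p0) (by omega) hck (by omega) (by omega) (by omega)] at h4
      refine hnot (k', k) (Finset.mem_union_left _ ?_) rfl
      simp only [SE, PP, Finset.mem_filter, Finset.mem_product, Finset.mem_range]
      refine ⟨⟨hk', hk⟩, hne, _, ?_, h4, ?_⟩
      · omega
      · rw [abs_le]
        constructor <;> omega
    · intro hbad
      rw [hX'l] at hbad
      have hcase : t1 - P'.length + c k = ea ∨ t1 - P'.length + c k = eb := by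
        by_cases h : t1 - P'.length + c k = ea
        · exact Or.inl h
        · right
          have h5 := hamin (t1 - P'.length + c k) ⟨by omega, by omega, hwall1⟩
          obtain ⟨⟨h6, h7, h8⟩, h9⟩ := hb (t1 - P'.length + c k) ⟨by omega, by omega, hwall1⟩
          by_contra h10
          have h11 := gap' hW h6 h7 ha.2.2 h8
          have h12 : Wo ((P' ++ w.drop (c k)).take (eb + c k' - c k)) := by
            rw [wall_iff hW (p0 := p0) (by omega) hck (by omega) (by omega) (by omega)]
            have : eb + c k' - c k - P'.length + c k = eb := by omega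
            rw [this]; exact h8
          refine ht3.2.2 (eb + c k' - c k) (by omega) (by rw [hX'l]; omega) ?_
          rw [List.take_take, Nat.min_eq_left (by omega)]
          exact h12
      have hm : ((t1 - p0 : ℕ) : ℤ) = ((t1 - P'.length + c k : ℕ) : ℤ) - p0 + c k' - c k := by
        omega
      rcases hcase with h | h
      · rw [h] at hm
        refine hnot (k', k) (Finset.mem_union_right _ (Finset.mem_union_left _ ?_)) rfl
        simp only [SB, PP, Finset.mem_filter, Finset.mem_product, Finset.mem_range]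
        exact ⟨⟨hk', hk⟩, hne, _, hm, hbad⟩
      · rw [h] at hm
        refine hnot (k', k) (Finset.mem_union_right _ (Finset.mem_union_right _ ?_)) rfl
        simp only [SB, PP, Finset.mem_filter, Finset.mem_product, Finset.mem_range]
        exact ⟨⟨hk', hk⟩, hne, _, hm, hbad⟩

end main

end Crest.Agent.R320.All_105
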