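import Crest.Agent.R320.Hk1_851


/-!
# Row 320: quotients, reversal, reduction to finite monoids (helper851)
-/

set_option autoImplicit false

namespace Crest.Agent.R320.Hk_851

open Crest.RegLang

universe u

variable {α : Type u} {k : ℕ}

theorem lquot_aux (a : α) : ∀ e : GRegExp α, HL e.height ({w | a :: w ∈ e.lang} : Language α)
  | .zero => HL.bot.congr fun w => ⟨fun h => h.elim, fun h => h.elim⟩
  | .eps => HL.bot.congr fun w => ⟨fun h => (by cases h), fun h => h.elim⟩
  | .char b => by
    by_cases h : a = b
    · refine HL.one.congr fun w => ?_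
      constructor
      · intro hw
        have : a :: w = [b] := hw
        simp only [List.cons.injEq] at this
        exact this.2
      · intro hw
        have : w = [] := hw
        rw [this, h]; exact rfl
    · refine HL.bot.congr fun w => ⟨fun hw => ?_, fun hw => hw.elim⟩
      have : a :: w = [b] := hw
      simp only [List.cons.injEq] at this
      exact (h this.1).elim
  | .union P Q => by
    have h1 := (lquot_aux a P).mono (le_max_left P.height Q.height)
    have h2 := (lquot_aux a Q).mono (le_max_right P.height Q.height)
    exact h1.add h2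
  | .cat P Q => by
    have h1 := (lquot_aux a P).mono (le_max_left P.height Q.height)
    have h2 := (lquot_aux a Q).mono (le_max_right P.height Q.height)
    have hQ : HL (max P.height Q.height) Q.lang := ⟨Q, le_max_right _ _, rfl⟩
    have h3 := (h1.mul hQ).setOf_or ((HL.const (([] : List α) ∈ P.lang)).setOf_and h2)
    refine h3.congr fun w => ?_
    constructor
    · intro hw
      obtain ⟨x, hx, y, hy, hxy⟩ := Language.mem_mul.1 hw
      cases x with
      | nil =>
        have e : y = a :: w := by simpa using hxy
        rw [e] at hy
        exact Or.inr ⟨hx, hy⟩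
      | cons b x =>
        simp only [List.cons_append, List.cons.injEq] at hxy
        obtain ⟨rfl, rfl⟩ := hxy
        exact Or.inl (Language.mem_mul.2 ⟨x, hx, y, hy, rfl⟩)
    · rintro (hw | ⟨h1, h2⟩)
      · obtain ⟨x, hx, y, hy, rfl⟩ := Language.mem_mul.1 hw
        exact Language.mem_mul.2 ⟨a :: x, hx, y, hy, rfl⟩
      · exact Language.mem_mul.2 ⟨[], h1, a :: w, h2, rfl⟩
  | .not P => (lquot_aux a P).compl
  | .star P => by
    have h1 := (lquot_aux a P).mono (Nat.le_succ P.height)
    have h2 : HL (P.height + 1) (KStar.kstar P.lang) := ⟨.star P, le_rfl, rfl⟩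
    refine (h1.mul h2).congr fun w => ?_
    constructor
    · intro hw
      obtain ⟨S, hS, hm⟩ := Language.mem_kstar_iff_exists_nonempty.1 (show a :: w ∈ KStar.kstar P.lang from hw)
      cases S with
      | nil => simp at hS
      | cons x S =>
        obtain ⟨hx, hx'⟩ := hm x (by simp)
        cases x with
        | nil => exact (hx' rfl).elim
        | cons b x =>
          simp only [List.flatten_cons, List.cons_append, List.cons.injEq] at hS
          obtain ⟨rfl, rfl⟩ := hS
          refine Language.mem_mul.2 ⟨x, hx, S.flatten, ?_, rfl⟩
          exact Language.mem_kstar.2 ⟨S, rfl, fun y hy => (hm y (by simp [hy])).1⟩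
    · intro hw
      obtain ⟨x, hx, y, hy, rfl⟩ := Language.mem_mul.1 hw
      obtain ⟨S, rfl, hS⟩ := Language.mem_kstar.1 hy
      refine (Language.mem_kstar.2 ⟨(a :: x) :: S, by simp, ?_⟩ : a :: (x ++ S.flatten) ∈ KStar.kstar P.lang)
      intro z hz
      rcases List.mem_cons.1 hz with rfl | hz
      · exact hx
      · exact hS z hz

/-- left quotient by a letter -/
theorem HL.lquot1 (a : α) {L : Language α} (hL : HL k L) : HL k {w | a :: w ∈ L} := by
  obtain ⟨e, h1, rfl⟩ := hL
  exact (lquot_aux a e).mono h1

/-- left quotient by a word -/
theorem HL.lquot (v : List α) {L : Language α} (hL : HL k L) : HL k {w | v ++ w ∈ L} := by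
  induction v generalizing L with
  | nil => exact hL
  | cons a v ih => exact ih (hL.lquot1 a)

theorem reverse_aux : ∀ e : GRegExp α, HL e.height e.lang.reverse
  | .zero => by
    have : (GRegExp.zero : GRegExp α).lang.reverse = 0 := by simp [GRegExp.lang]
    rw [this]; exact HL.zero
  | .eps => by
    have : (GRegExp.eps : GRegExp α).lang.reverse = 1 := by simp [GRegExp.lang]
    rw [this]; exact HL.one
  | .char a => by
    refine (HL.char a).congr fun w => ?_
    rw [Language.mem_reverse]
    change w.reverse = [a] ↔ w = [a]
    constructor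
    · intro h; rw [← w.reverse_reverse, h]; rfl
    · rintro rfl; rfl
  | .union P Q => by
    have : (GRegExp.union P Q).lang.reverse = P.lang.reverse + Q.lang.reverse :=
      Language.reverse_add _ _
    rw [this]
    exact ((reverse_aux P).mono (le_max_left _ _)).add ((reverse_aux Q).mono (le_max_right _ _))
  | .cat P Q => by
    have : (GRegExp.cat P Q).lang.reverse = Q.lang.reverse * P.lang.reverse :=
      Language.reverse_mul _ _
    rw [this]
    exact ((reverse_aux Q).mono (le_max_right _ _)).mul ((reverse_aux P).mono (le_max_left _ _))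
  | .not P => (reverse_aux P).compl.congr fun w => Iff.rfl
  | .star P => by
    have : (GRegExp.star P).lang.reverse = KStar.kstar P.lang.reverse :=
      Language.reverse_kstar _
    rw [this]; exact (reverse_aux P).star

theorem HL.reverse {L : Language α} (hL : HL k L) : HL k L.reverse := by
  obtain ⟨e, h1, rfl⟩ := hL
  exact (reverse_aux e).mono h1

/-- right quotient by a word -/
theorem HL.rquot (v : List α) {L : Language α} (hL : HL k L) : HL k {w | w ++ v ∈ L} := by
  refine ((hL.reverse.lquot v.reverse).reverse).congr fun w => ?_
  change w ++ v ∈ L ↔ (v.reverse ++ w.reverse).reverse ∈ L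
  simp

/-- **Reduction to finite monoids**: it is enough to treat the fibres of `w ↦ ∏ φ(w_i)`. -/
theorem of_monoid [Finite α]
    (h : ∀ (S : Type u) [Monoid S] [Finite S] (φ : α → S) (s : S),
      HL k ({w | (w.map φ).prod = s} : Language α))
    (L : Language α) (hL : L.IsRegular) : HL k L := by
  obtain ⟨σ, hσ, M, rfl⟩ := Language.isRegular_iff.{u, u}.1 hL
  classical
  let φ : α → (Function.End σ)ᵐᵒᵖ := fun a => MulOpposite.op (fun s => M.step s a)
  have key : ∀ (w : List α) (s : σ), M.evalFrom s w = ((w.map φ).prod).unop s := by
    intro w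
    induction w with
    | nil => intro s; rfl
    | cons a w ih =>
      intro s
      rw [List.map_cons, List.prod_cons, MulOpposite.unop_mul]
      change M.evalFrom (M.step s a) w = ((w.map φ).prod).unop (M.step s a)
      exact ih _
  haveI : Finite (Function.End σ)ᵐᵒᵖ := by
    haveI : Finite (Function.End σ) := inferInstanceAs (Finite (σ → σ))
    exact Finite.of_injective MulOpposite.unop MulOpposite.unop_injective
  have hfin := HL.biUnion (k := k) (Set.toFinite {s : (Function.End σ)ᵐᵒᵖ | s.unop M.start ∈ M.accept})
    (L := fun s => ({w | (w.map φ).prod = s} : Language α)) (fun s _ => h _ φ s)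
  refine hfin.congr fun w => ?_
  constructor
  · intro hw
    have hw' : M.evalFrom M.start w ∈ M.accept := hw
    rw [key] at hw'
    exact ⟨_, hw', rfl⟩
  · rintro ⟨s, hs, hw⟩
    have hw' : (w.map φ).prod = s := hw
    change M.evalFrom M.start w ∈ M.accept
    rw [key, hw']
    exact hs

end Crest.Agent.R320.Hk_851
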