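import Crest.Agent.R320.InstB_11
import Crest.Agent.R320.WallU_228
import Crest.Agent.R320.Reg_852
import Crest.Agent.R320.RegBd_11
import Crest.Agent.R320.Hk2_851

/-!
# Row 320: everything except the U-gadget (helper11)

`main` : from 772's `UGI` (the U-gadget: scheme 1 sound on all words, complete off a thin set of
lengths, with a Golomb ruler) every finite monoid fibre has star height at most three.
-/

set_option autoImplicit false

namespace Crest.Agent.R320.All_11

open Crest.RegLang Crest.Agent.R320.Hk_851 Crest.Agent.R320.Code110 Crest.Agent.R320.InstB_11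
  Crest.Agent.R320.CompR_11 Crest.Agent.R320.Pump_360 Crest.Agent.R320.Reg_852

universe u v

variable {α : Type u}

/-- set builder with the type `Language α` -/
def LS (p : List α → Prop) : Language α := {w | p w}

/-! ### regularity -/

theorem reg_biUnion {ι : Type*} {s : Set ι} (hs : s.Finite) {L : ι → Language α}
    (h : ∀ i ∈ s, (L i).IsRegular) : Language.IsRegular ({w | ∃ i ∈ s, w ∈ L i} : Language α) := by
  induction s, hs using Set.Finite.induction_on with
  | empty =>
    have e : ({w | ∃ i ∈ (∅ : Set ι), w ∈ L i} : Language α) = (0 : Language α) := by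
      ext w
      constructor
      · rintro ⟨i, hi, _⟩; exact hi.elim
      · intro hw; exact hw.elim
    rw [e]
    exact HL.isRegular (k := 0) HL.zero
  | @insert a s _ _ ih =>
    have h1 := (h a (Set.mem_insert _ _)).add (ih fun i hi => h i (Set.mem_insert_of_mem _ hi))
    have e : ({w | ∃ i ∈ insert a s, w ∈ L i} : Language α) =
        L a + LS (fun w => ∃ i ∈ s, w ∈ L i) := by
      ext w
      constructor
      · rintro ⟨i, hi | hi, hw⟩
        · left; rw [← hi]; exact hw
        · right; exact ⟨i, hi, hw⟩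
      · rintro (hw | ⟨i, hi, hw⟩)
        · exact ⟨_, Or.inl rfl, hw⟩
        · exact ⟨i, Or.inr hi, hw⟩
    rw [e]
    exact h1

/-- a language of long words read off from the first `m` letters and a finite monoid -/
theorem reg_key [Finite α] {M : Type*} [Monoid M] [Finite M] (g : α → M) (m : ℕ)
    (p : List α → Prop)
    (hdet : ∀ a b b' : List α, a.length = m → (b.map g).prod = (b'.map g).prod →
      p (a ++ b) → p (a ++ b')) :
    Language.IsRegular ({w | m ≤ w.length ∧ p w} : Language α) := by
  let s : Set (List α × M) :=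
    {i | i.1.length ≤ m ∧ i.1.length = m ∧ ∃ b : List α, (b.map g).prod = i.2 ∧ p (i.1 ++ b)}
  have hs : s.Finite := ((List.finite_length_le α m).prod (Set.finite_univ (α := M))).subset
    fun i hi => ⟨hi.1, trivial⟩
  have h := reg_biUnion hs (L := fun i => LS (fun w => w = i.1) *
    LS (fun w => (w.map g).prod = i.2)) fun i _ =>
    Crest.Agent.R320.Reg_852.IsRegular.mul (L := LS (fun w => w = i.1))
      (Crest.Agent.R320.Reg_852.HL.isRegular (k := 0) (HL.word i.1)) (isRegular_prod g i.2)
  have e : ({w | m ≤ w.length ∧ p w} : Language α) = ({w | ∃ i ∈ s, w ∈ LS (fun w => w = i.1) *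
    LS (fun w => (w.map g).prod = i.2)} : Language α) := by
    ext w
    constructor
    · rintro ⟨h1, h2⟩
      have hl : (w.take m).length = m := by rw [List.length_take]; omega
      refine ⟨(w.take m, ((w.drop m).map g).prod), ⟨hl.le, hl, w.drop m, rfl, ?_⟩, ?_⟩
      · rw [List.take_append_drop]; exact h2
      · exact Language.mem_mul.2 ⟨w.take m, rfl, w.drop m, rfl, List.take_append_drop m w⟩
    · rintro ⟨⟨a, x⟩, ⟨-, h1, b, h2, h3⟩, hw⟩
      obtain ⟨a', ha', b', hb', rfl⟩ := Language.mem_mul.1 hw
      have ha'' : a' = a := ha'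
      subst ha''
      have hb'' : (b'.map g).prod = x := hb'
      refine ⟨by rw [List.length_append, h1]; omega, hdet _ b b' h1 ?_ h3⟩
      rw [hb'']
      exact h2
  rw [e]
  exact h

/-! ### pieces -/

variable {Wo : List α → Prop} {n W : ℕ}

theorem pieces_cons {R B : ℕ} {w : List α} (h : Pieces R B w) {a : List α} {D : ℕ}
    (ha : a.length ≤ D) : Pieces (R + 1) (B + D) (a ++ w) := by
  obtain ⟨l, h1, h2, rfl⟩ := h
  refine ⟨(a, [], 0) :: l, by simp; omega, ?_, ?_⟩
  · intro t ht
    rcases List.mem_cons.1 ht with rfl | ht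
    · simp; omega
    · have := h2 t ht
      omega
  · rw [val_cons, pw_zero, List.append_nil]

theorem pieces_of (h : WL Wo n W) {R B : ℕ}
    (hp : ∀ u : List α, (∀ t < u.length, ¬ Wo (u.take t)) → Pieces R B u) {z : ℕ} (hz : n ≤ z)
    (w : List α) (hw : ∀ t, z ≤ t → t < w.length → ¬ Wo (w.take t)) :
    Pieces (R + 1) (B + z) w := by
  have e : w = w.take (z - n) ++ w.drop (z - n) := (List.take_append_drop _ _).symm
  rw [e]
  refine pieces_cons (hp _ ?_) (by rw [List.length_take]; omega)
  intro t ht ht2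
  rw [List.length_drop] at ht
  have hn := h.len _ ht2
  rw [List.length_take, List.length_drop] at hn
  have hl : (w.take (z - n)).length = z - n := by rw [List.length_take]; omega
  apply hw (z - n + t) (by omega) (by omega)
  rw [e, h.take (by rw [hl]; omega) (by rw [hl, List.length_drop]; omega), hl]
  have e2 : z - n + t - (z - n) = t := by omega
  rw [e2]
  exact ht2

theorem HL1_of [Finite α] {L : Language α} (hL : L.IsRegular) {R B : ℕ}
    (h : ∀ w ∈ L, Pieces R B w) : HL 1 L :=
  Crest.Agent.R320.RegBd_11.reg_pieces hL R B h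

/-! ### the languages of blocks -/

theorem HL_Wo [Finite α] {k : ℕ} (h : WL Wo n W) : HL k ({X | Wo X} : Language α) := by
  have h1 : HL k ((⊤ : Language α) * LS (fun s => s.length ≤ n ∧ s.length = n ∧ Wo s)) :=
    HL.mul HL.top (HL.finite (s := {s : List α | s.length ≤ n ∧ s.length = n ∧ Wo s})
      ((List.finite_length_le α n).subset fun s hs => hs.1))
  refine h1.congr fun w => ?_
  constructor
  · intro hw
    have hw' : Wo w := hw
    have hn := h.len _ hw'
    have hl : (w.drop (w.length - n)).length = n := by rw [List.length_drop]; omega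
    refine Language.mem_mul.2 ⟨w.take (w.length - n), trivial, w.drop (w.length - n),
      ⟨hl.le, hl, ?_⟩, List.take_append_drop _ _⟩
    rw [← h.loc (w.take (w.length - n)) _ hl.ge, List.take_append_drop]
    exact hw'
  · intro hw
    obtain ⟨a, -, b, ⟨-, hb1, hb2⟩, rfl⟩ := Language.mem_mul.1 hw
    exact (h.loc _ _ hb1.ge).2 hb2

theorem HL_XX [Finite α] {k : ℕ} (h : WL Wo n W) (z : ℕ) : HL k (XX Wo z) := by
  have h1 : HL k ({X : List α | z ≤ X.length} : Language α) := HL.length_ge z
  have h2 : HL k ((LS (fun X : List α => Wo X) ⊓ LS (fun X : List α => z ≤ X.length)) *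
      LS (fun X : List α => 1 ≤ X.length)) :=
    HL.mul (HL.inf (HL_Wo h) h1) (HL.length_ge 1)
  refine (h1.inf ((HL_Wo h).inf h2.compl)).congr fun w => ?_
  constructor
  · rintro ⟨w1, w2, w3⟩
    refine ⟨w1, w2, ?_⟩
    intro hw
    obtain ⟨a, ⟨ha1, ha2⟩, b, hb, rfl⟩ := Language.mem_mul.1 hw
    have hb' : 1 ≤ b.length := hb
    apply w3 a.length ha2 (by rw [List.length_append]; omega)
    rw [List.take_append_of_le_length le_rfl, List.take_length]
    exact ha1
  · rintro ⟨w1, w2, w3⟩
    refine ⟨w1, w2, ?_⟩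
    intro t ht1 ht2 ht3
    apply w3
    refine Language.mem_mul.2 ⟨w.take t, ⟨ht3, ?_⟩, w.drop t, ?_, List.take_append_drop _ _⟩
    · change z ≤ (w.take t).length
      rw [List.length_take]; omega
    · change 1 ≤ (w.drop t).length
      rw [List.length_drop]; omega

theorem H4 [Finite α] {S : Type*} [Monoid S] [Finite S] (f : α → S) (h : WL Wo n W) {R B : ℕ}
    (hp : ∀ u : List α, (∀ t < u.length, ¬ Wo (u.take t)) → Pieces R B u) {z : ℕ} (hz : n ≤ z)
    (s : S) :
    HL 3 ({w | (∀ u ∈ XX Wo z, ¬ u <+: w) ∧ (w.map f).prod = s} : Language α) := by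
  refine HL.mono (k := 1) (by norm_num) (HL1_of (R := R + 1) (B := B + z) ?_ ?_)
  · have h1 : HL 0 ({w | ∃ v ∈ XX Wo z, v <+: w} : Language α) := HL.prefix (HL_XX h z)
    have h2 := Language.IsRegular.inf (Crest.Agent.R320.Reg_852.HL.isRegular h1).compl (isRegular_prod f s)
    have e : ({w | (∀ u ∈ XX Wo z, ¬ u <+: w) ∧ (w.map f).prod = s} : Language α) =
        (({w | ∃ v ∈ XX Wo z, v <+: w} : Language α)ᶜ ⊓ {w | (w.map f).prod = s}) := by
      ext w
      constructor
      · rintro ⟨h1, h2⟩
        refine ⟨?_, h2⟩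
        rintro ⟨v, hv, hv2⟩
        exact h1 v hv hv2
      · rintro ⟨h1, h2⟩
        exact ⟨fun v hv hv2 => h1 ⟨v, hv, hv2⟩, h2⟩
    rw [e]
    exact h2
  · rintro w ⟨hw, -⟩
    refine pieces_of h hp hz w ?_
    intro t ht1 ht2 ht3
    obtain ⟨Z, hZ, hpre⟩ := exists_block (Wo := Wo) (z := z) (w := w.take t)
      (by rw [List.length_take]; omega) ht3
    exact hw Z hZ (hpre.trans (List.take_prefix _ _))

theorem len_prod (P : ℕ) (w : List α) :
    (w.map (fun _ => Multiplicative.ofAdd (1 : ZMod P))).prod =
      Multiplicative.ofAdd ((w.length : ℕ) : ZMod P) := by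
  induction w with
  | nil => simp
  | cons a w ih =>
    rw [List.map_cons, List.prod_cons, ih, ← ofAdd_add, List.length_cons, Nat.cast_succ, add_comm]

theorem len_mod {P : ℕ} {b b' : List α}
    (h : (b.map (fun _ => Multiplicative.ofAdd (1 : ZMod P))).prod =
      (b'.map (fun _ => Multiplicative.ofAdd (1 : ZMod P))).prod) : b.length % P = b'.length % P := by
  rw [len_prod, len_prod] at h
  exact (ZMod.natCast_eq_natCast_iff' _ _ _).1 (Multiplicative.ofAdd.injective h)

theorem per_mod {BadT : ℕ → Prop} {P : ℕ} (hper : ∀ T, BadT (T + P) ↔ BadT T) (T : ℕ) :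
    BadT T ↔ BadT (T % P) := by
  have key : ∀ q r, BadT (r + q * P) ↔ BadT r := by
    intro q
    induction q with
    | zero => intro r; simp
    | succ q ih =>
      intro r
      have e : r + (q + 1) * P = (r + q * P) + P := by ring
      rw [e, hper, ih]
  have e : T = T % P + T / P * P := by rw [Nat.mul_comm]; exact (Nat.mod_add_div T P).symm
  conv_lhs => rw [e]
  exact key _ _

theorem H2 [Finite α] (h : WL Wo n W) {R B : ℕ}
    (hp : ∀ u : List α, (∀ t < u.length, ¬ Wo (u.take t)) → Pieces R B u) {z N1 p0 Pm : ℕ}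
    (hz : n ≤ z) (hz2 : p0 ≤ z) {BadT : ℕ → Prop} (hPm : 0 < Pm)
    (hper : ∀ T, BadT (T + Pm) ↔ BadT T) : HL 1 (BadX Wo z N1 p0 BadT) := by
  have : NeZero Pm := ⟨hPm.ne'⟩
  refine HL1_of (R := R + 1) (B := B + z) ?_ ?_
  · have r1 : HL 0 ({w | ∃ v ∈ ({P | Wo P ∧ z ≤ P.length + N1 ∧ P.length < z + N1} : Language α),
        v <+: w} : Language α) :=
      HL.prefix (HL.finite ((List.finite_length_le α (z + N1)).subset fun P hP => hP.2.2.le))
    have r2 := reg_key (α := α) (fun _ => Multiplicative.ofAdd (1 : ZMod Pm)) p0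
      (fun X => BadT (X.length - p0)) (by
        intro a b b' ha hb hT
        have hm := len_mod hb
        rw [List.length_append, ha] at hT ⊢
        rw [Nat.add_sub_cancel_left] at hT ⊢
        rw [per_mod hper] at hT ⊢
        rw [← hm]
        exact hT)
    have r3 := Language.IsRegular.inf (HL.isRegular (HL_XX (k := 0) h z)) ((Crest.Agent.R320.Reg_852.HL.isRegular r1).add r2)
    have e : BadX Wo z N1 p0 BadT = (XX Wo z ⊓
        (LS (fun w => ∃ v ∈ ({P | Wo P ∧ z ≤ P.length + N1 ∧ P.length < z + N1} : Language α),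
        v <+: w) + LS (fun w => p0 ≤ w.length ∧ BadT (w.length - p0)))) := by
      ext w
      constructor
      · rintro ⟨h1, h2⟩
        refine ⟨h1, ?_⟩
        rcases h2 with ⟨t, t1, t2, t3, t4⟩ | h2
        · left
          have hl : (w.take t).length = t := by rw [List.length_take]; omega
          exact ⟨w.take t, ⟨t4, by rw [hl]; exact t2, by rw [hl]; exact t3⟩, List.take_prefix _ _⟩
        · right
          exact ⟨hz2.trans h1.1, h2⟩
      · rintro ⟨h1, h2⟩
        refine ⟨h1, ?_⟩
        rcases h2 with ⟨v, ⟨v1, v2, v3⟩, hv⟩ | h2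
        · left
          refine ⟨v.length, hv.length_le, v2, v3, ?_⟩
          rw [← List.prefix_iff_eq_take.1 hv]
          exact v1
        · right
          exact h2.2
    rw [e]
    exact r3
  · rintro w ⟨⟨-, -, hw⟩, -⟩
    exact pieces_of h hp hz w hw

theorem H3 [Finite α] {S V : Type*} [Monoid S] [Finite S] [AddCommGroup V] (f : α → S)
    (act : V → S → V) (h : WL Wo n W) {R B : ℕ}
    (hp : ∀ u : List α, (∀ t < u.length, ¬ Wo (u.take t)) → Pieces R B u) {z p0 Pm La : ℕ}
    (hz : n ≤ z) (hz2 : p0 + La ≤ z) (hPm : 0 < Pm) (nu2 nu1 : List α → V)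
    (hnu : ∀ q q' : List α, La ≤ q.length → La ≤ q'.length → q.take La = q'.take La →
      q.length % Pm = q'.length % Pm → (q.map f).prod = (q'.map f).prod → nu1 q = nu1 q')
    (x y : V) : HL 1 (ZT (XX Wo z) (InstB_11.TT f act p0 nu2 nu1) x y) := by
  have : NeZero Pm := ⟨hPm.ne'⟩
  refine HL1_of (R := R + 1) (B := B + z) ?_ ?_
  · have r2 := reg_key (α := α) (fun a => (f a, Multiplicative.ofAdd (1 : ZMod Pm))) (p0 + La)
      (fun X => InstB_11.TT f act p0 nu2 nu1 X x = y) (by
        intro a b b' ha hb hT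
        have fst_prod : ∀ w : List α,
            ((w.map (fun a => (f a, Multiplicative.ofAdd (1 : ZMod Pm)))).prod).1 =
              (w.map f).prod := by
          intro w
          induction w with
          | nil => rfl
          | cons c w ih => simp only [List.map_cons, List.prod_cons, Prod.fst_mul, ih]
        have snd_prod : ∀ w : List α,
            ((w.map (fun a => (f a, Multiplicative.ofAdd (1 : ZMod Pm)))).prod).2 =
              (w.map (fun _ => Multiplicative.ofAdd (1 : ZMod Pm))).prod := by
          intro w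
          induction w with
          | nil => rfl
          | cons c w ih => simp only [List.map_cons, List.prod_cons, Prod.snd_mul, ih]
        have h1 : (b.map f).prod = (b'.map f).prod := by rw [← fst_prod, ← fst_prod, hb]
        have h2 : b.length % Pm = b'.length % Pm := by
          apply len_mod
          rw [← snd_prod, ← snd_prod, hb]
        have t1 : ∀ w : List α, (a ++ w).take p0 = a.take p0 := fun w =>
          List.take_append_of_le_length (by omega)
        have t2 : ∀ w : List α, (a ++ w).drop p0 = a.drop p0 ++ w := fun w =>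
          List.drop_append_of_le_length (by omega)
        have hla : (a.drop p0).length = La := by rw [List.length_drop]; omega
        have h3 : ((a.drop p0 ++ b).map f).prod = ((a.drop p0 ++ b').map f).prod := by
          rw [List.map_append, List.prod_append, List.map_append, List.prod_append, h1]
        have h4 : nu1 (a.drop p0 ++ b) = nu1 (a.drop p0 ++ b') := by
          apply hnu
          · rw [List.length_append]; omega
          · rw [List.length_append]; omega
          · rw [List.take_append_of_le_length hla.ge, List.take_append_of_le_length hla.ge]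
          · rw [List.length_append, List.length_append, Nat.add_mod, h2, ← Nat.add_mod]
          · exact h3
        unfold InstB_11.TT at hT ⊢
        rw [t1, t2] at hT ⊢
        rw [← h3, ← h4]
        exact hT)
    have r3 := Language.IsRegular.inf (HL.isRegular (HL_XX (k := 0) h z)) r2
    have e : ZT (XX Wo z) (InstB_11.TT f act p0 nu2 nu1) x y =
        (XX Wo z ⊓ ({w | p0 + La ≤ w.length ∧ InstB_11.TT f act p0 nu2 nu1 w x = y} : Language α)) := by
      ext w
      constructor
      · rintro ⟨h1, h2⟩
        exact ⟨h1, hz2.trans h1.1, h2⟩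
      · rintro ⟨h1, h2⟩
        exact ⟨h1, h2.2⟩
    rw [e]
    exact r3
  · rintro w ⟨⟨-, -, hw⟩, -⟩
    exact pieces_of h hp hz w hw

/-! ### the U-gadget (772's literal) and the main theorem -/

/-- 772's `UGI`: the U-gadget with its ruler -/
def UGI (S V : Type) [Monoid S] [AddCommGroup V] (act : V → S → V) : Prop :=
  ∃ C0 : ℕ, ∀ K : ℕ, ∃ (N1 Pm La : ℕ) (c : ℕ → ℕ) (Bad : ℕ → Prop), 0 < Pm ∧
    (∀ i j, i < j → j < K → c i < c j) ∧
    (∀ i j k l, i < K → j < K → k < K → l < K → i ≠ j → k ≠ l → (i, j) ≠ (k, l) →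
      c i + c l + 4 * N1 < c k + c j ∨ c k + c j + 4 * N1 < c i + c l) ∧
    (∀ T, Bad (T + Pm) ↔ Bad T) ∧
    (∀ T, La ≤ T → ∀ F : Finset (ℕ × ℕ), (∀ ij ∈ F, ij.1 < K ∧ ij.2 < K ∧ ij.1 ≠ ij.2 ∧
      Bad (T + c ij.2 - c ij.1)) → F.card ≤ C0) ∧
    ∀ (A : Type) (phi : A → S), ∃ (lam rho : List A → Option V) (nu : List A → V),
      (∀ p v, lam p = some v → p.length ≤ N1) ∧
      (∀ p q v b, lam p = some v → rho q = some b → La ≤ q.length →
        b = act v ((p ++ q).map phi).prod + nu (p ++ q)) ∧
      (∀ u : List A, La ≤ u.length → ¬ Bad u.length → ∀ v, ∃ p q, p ++ q = u ∧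
        lam p = some v ∧ (rho q).isSome) ∧
      (∀ q q' : List A, La ≤ q.length → La ≤ q'.length → q.take La = q'.take La →
        q.length % Pm = q'.length % Pm → (q.map phi).prod = (q'.map phi).prod → nu q = nu q')

theorem main {α S V : Type} [Finite α] [Monoid S] [Finite S] [AddCommGroup V] [Finite V]
    (f : α → S) (act : V → S → V) (hone : ∀ v, act v 1 = v)
    (hmul : ∀ v s t, act v (s * t) = act (act v s) t)
    (hadd : ∀ v w s, act (v + w) s = act v s + act w s)
    (hfaith : ∀ s t : S, (∀ v, act v s = act v t) → s = t)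
    (hU : UGI S V act) (s : S) : HL 3 ({w | (w.map f).prod = s} : Language α) := by
  classical
  have : Fintype S := Fintype.ofFinite S
  have : Fintype V := Fintype.ofFinite V
  obtain ⟨C0, hU⟩ := hU
  obtain ⟨K, hK⟩ := Crest.Agent.R320.ExactR_237.exact_gadget α S V f act (2 + 2 * C0)
  obtain ⟨N1, Pm, La, c, BadT, hPm, hc, gol, hper, hcard, hg⟩ := hU K
  obtain ⟨lam2, rho2, nuE, e1, e2⟩ := hK c hc
  obtain ⟨lam, rho, nu1, g1, g2, g3, g4⟩ := hg α f
  obtain ⟨p0, hp0⟩ : ∃ p0, ∀ k < K, c k ≤ p0 :=
    ⟨(Finset.range K).sup c, fun k hk => Finset.le_sup (f := c) (Finset.mem_range.2 hk)⟩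
  obtain ⟨n, Wo, w1, w2, w3, R, B, hpc⟩ :=
    Crest.Agent.R320.WallU_228.walls (α := α) (2 * (N1 + p0))
  have hW : WL Wo n (2 * (N1 + p0)) := ⟨w1, w2, w3⟩
  have hsub : ∀ v w s, act (v - w) s = act v s - act w s := by
    intro v w s
    have := hadd (v - w) w s
    rw [sub_add_cancel] at this
    rw [this, add_sub_cancel_right]
  let z := p0 + p0 + N1 + n + La + 1
  have hz : p0 + p0 + N1 + n + La ≤ z := Nat.le_succ _
  have hz0 : 0 < z := Nat.succ_pos _
  refine Crest.Agent.R320.Top5_110.top_sem (XX := XX Wo z) (Bad := BadX Wo z N1 p0 BadT)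
    (T := InstB_11.TT f act p0 (fun w => nuE w 1) nu1) (φ := fun w => (w.map f).prod) (act := act)
    (N1 := 0) (N2 := 1) (L1 := InstB_11.L1 f act p0 (fun w => nuE w 1) lam)
    (L2 := InstB_11.L2 K c lam2) rfl (fun u w => by rw [List.map_append, List.prod_append])
    hone hmul hfaith (pc hz0) (fun u hu => hu.1) ?_ (HL_XX hW z)
    (H2 hW hpc (by omega) (by omega) hPm hper)
    (H3 f act hW hpc (by omega) (by omega) hPm _ nu1 g4) (H4 f hW hpc (by omega)) ?_ ?_ ?_ ?_ s
  · intro u _ v v'
    unfold InstB_11.TT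
    have e : (u.map f).prod = ((u.take p0).map f).prod * ((u.drop p0).map f).prod := by
      rw [← List.prod_append, ← List.map_append, List.take_append_drop]
    rw [e, hmul, hsub, hadd, hadd, hsub]
    abel
  · intro v
    refine (List.finite_length_le α (p0 + N1)).subset ?_
    rintro p ⟨hp1, hp2⟩
    have := g1 _ _ hp2
    rw [List.length_drop] at this
    change p.length ≤ p0 + N1
    omega
  · intro v
    refine (List.finite_length_le α p0).subset ?_
    rintro p ⟨k, hk, hp1, hp2⟩
    have := hp0 k hk
    change p.length ≤ p0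
    omega
  · intro u hu hb x t ht
    rw [pow_zero] at ht
    have ht' : t = [] := ht
    subst ht'
    rw [List.append_nil]
    exact C1 hW f act _ nu1 lam rho (by omega) g1 g2 g3 u hu hb x
  · intro u hu x t ht
    rw [pow_one] at ht
    exact C2 hW f act c nu1 lam2 rho2 nuE hz hz0 le_rfl hp0
      (fun k hk P Q y v b h1 h2 h3 => e1 k hk P Q y v b h1 h2 h3) e2 (by omega) gol hcard u t hu ht x

end Crest.Agent.R320.All_11
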