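import Crest.Agent.R320.Hk2_851

/-!
# Row 320, block calculus over a prefix code (helper467)

Walls are left-looking, so a chain of the text is the parse of the text into words of a prefix
code `C` (the blocks).  `Lg C T v v'` : products of blocks whose thread leads from `v` to `v'`.

* `star_step` : one star.  If every junction word `P ++ Q` (left label `v`, right label `v'`) is a
  product of blocks leading from `v` to `v'`, and every block of `C` which is not in `Bad` is cut
  for every token, then the thread languages of `C` are one star above those of `Bad`.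
* `fibre_of_threads` : affine tokens `T v X = v.X + nu X` give the fibres of `phi` on `C*`.
* `thread_of_solved` : the fibres of all finite monoids on `C*` give all thread languages.
* `step` : `Solved k Bad -> Solved (k+1) C`.
-/

set_option autoImplicit false

namespace Crest.Agent.R320.Blk467

open Crest.RegLang Crest.Agent.R320.Hk_851

universe u

variable {α : Type u} {k : ℕ}

/-- products of blocks of `C` -/
def Str (C : Set (List α)) : Language α :=
  {w | ∃ l : List (List α), (∀ X ∈ l, X ∈ C) ∧ l.flatten = w}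

/-- products of blocks of `C`, thread from `v` to `v'` -/
def Lg {V : Type*} (C : Set (List α)) (T : V → List α → V) (v v' : V) : Language α :=
  {w | ∃ l : List (List α), (∀ X ∈ l, X ∈ C) ∧ l.flatten = w ∧ l.foldl T v = v'}

theorem Lg.nil {V : Type*} (C : Set (List α)) (T : V → List α → V) (v : V) :
    ([] : List α) ∈ Lg C T v v := ⟨[], by simp, rfl, rfl⟩

theorem Lg.append {V : Type*} {C : Set (List α)} {T : V → List α → V} {a b c : V}
    {x y : List α} (hx : x ∈ Lg C T a b) (hy : y ∈ Lg C T b c) : x ++ y ∈ Lg C T a c := by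
  obtain ⟨l, h1, h2, h3⟩ := hx
  obtain ⟨m, g1, g2, g3⟩ := hy
  refine ⟨l ++ m, ?_, ?_, ?_⟩
  · intro X hX
    rcases List.mem_append.1 hX with h | h
    · exact h1 X h
    · exact g1 X h
  · rw [List.flatten_append, h2, g2]
  · rw [List.foldl_append, h3, g3]

theorem Lg.single {V : Type*} {C : Set (List α)} {T : V → List α → V} {X : List α}
    (hX : X ∈ C) (v : V) : X ∈ Lg C T v (T v X) :=
  ⟨[X], by simpa using hX, by simp, rfl⟩

theorem Lg.mono {V : Type*} {C D : Set (List α)} {T : V → List α → V} (h : C ⊆ D) {v v' : V}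
    {w : List α} (hw : w ∈ Lg C T v v') : w ∈ Lg D T v v' := by
  obtain ⟨l, h1, h2, h3⟩ := hw
  exact ⟨l, fun X hX => h (h1 X hX), h2, h3⟩

/-- the words of the star: right part, bad blocks, left part -/
def KK {V : Type*} (Bad : Set (List α)) (T : V → List α → V) (LP RQ : V → Language α) :
    Language α :=
  {x | ∃ p : V × V, ∃ Q ∈ RQ p.1, ∃ m ∈ Lg Bad T p.1 p.2, ∃ P ∈ LP p.2, Q ++ m ++ P = x}

theorem mem_mul3 {A B C : Language α} {x : List α} :
    x ∈ A * B * C ↔ ∃ a ∈ A, ∃ b ∈ B, ∃ c ∈ C, a ++ b ++ c = x := by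
  constructor
  · intro h
    obtain ⟨y, hy, c, hc, rfl⟩ := Language.mem_mul.1 h
    obtain ⟨a, ha, b, hb, rfl⟩ := Language.mem_mul.1 hy
    exact ⟨a, ha, b, hb, c, hc, rfl⟩
  · rintro ⟨a, ha, b, hb, c, hc, rfl⟩
    exact Language.mem_mul.2 ⟨_, Language.mem_mul.2 ⟨a, ha, b, hb, rfl⟩, c, hc, rfl⟩

theorem HL_KK {V : Type*} [Finite V] {Bad : Set (List α)} {T : V → List α → V}
    {LP RQ : V → Language α} (hB : ∀ v v', HL k (Lg Bad T v v')) (hP : ∀ v, HL k (LP v))
    (hQ : ∀ v, HL k (RQ v)) : HL k (KK Bad T LP RQ) := by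
  refine (HL.iUnion (k := k) (ι := V × V)
    (L := fun p => RQ p.1 * Lg Bad T p.1 p.2 * LP p.2)
    (fun p => ((hQ p.1).mul (hB p.1 p.2)).mul (hP p.2))).congr fun w => ?_
  constructor
  · rintro ⟨p, Q, hQ', m, hm, P, hP', rfl⟩
    exact ⟨p, mem_mul3.2 ⟨Q, hQ', m, hm, P, hP', rfl⟩⟩
  · intro h
    obtain ⟨p, hp⟩ := h
    obtain ⟨Q, hQ', m, hm, P, hP', rfl⟩ := mem_mul3.1 hp
    exact ⟨p, Q, hQ', m, hm, P, hP', rfl⟩

/-- **one star** -/
theorem star_step {V : Type*} [Finite V] (C Bad : Set (List α)) (T : V → List α → V)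
    (LP RQ : V → Language α) (hBC : Bad ⊆ C)
    (sound : ∀ v v' P Q, P ∈ LP v → Q ∈ RQ v' → P ++ Q ∈ Lg C T v v')
    (compl : ∀ X ∈ C, X ∉ Bad → ∀ v, ∃ P Q, P ++ Q = X ∧ P ∈ LP v ∧ Q ∈ RQ (T v X))
    (hB : ∀ v v', HL k (Lg Bad T v v')) (hP : ∀ v, HL k (LP v)) (hQ : ∀ v, HL k (RQ v))
    (v v' : V) : HL (k + 1) (Lg C T v v') := by
  classical
  have hK : HL (k + 1) (KStar.kstar (KK Bad T LP RQ)) := (HL_KK hB hP hQ).star
  have hS : HL (k + 1) ({x | ∃ u : V, ∃ m ∈ Lg Bad T v u, ∃ P ∈ LP u, m ++ P = x} :
      Language α) := by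
    refine (HL.mono (Nat.le_succ k) (HL.iUnion (k := k) (ι := V)
      (L := fun u => Lg Bad T v u * LP u) (fun u => (hB v u).mul (hP u)))).congr fun w => ?_
    constructor
    · rintro ⟨u, m, hm, P, hP', rfl⟩
      exact ⟨u, Language.mem_mul.2 ⟨m, hm, P, hP', rfl⟩⟩
    · intro h
      obtain ⟨u, hu⟩ := h
      obtain ⟨m, hm, P, hP', rfl⟩ := Language.mem_mul.1 hu
      exact ⟨u, m, hm, P, hP', rfl⟩
  have hE : HL (k + 1) ({x | ∃ u : V, ∃ Q ∈ RQ u, ∃ m ∈ Lg Bad T u v', Q ++ m = x} :
      Language α) := by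
    refine (HL.mono (Nat.le_succ k) (HL.iUnion (k := k) (ι := V)
      (L := fun u => RQ u * Lg Bad T u v') (fun u => (hQ u).mul (hB u v')))).congr fun w => ?_
    constructor
    · rintro ⟨u, m, hm, P, hP', rfl⟩
      exact ⟨u, Language.mem_mul.2 ⟨m, hm, P, hP', rfl⟩⟩
    · intro h
      obtain ⟨u, hu⟩ := h
      obtain ⟨m, hm, P, hP', rfl⟩ := Language.mem_mul.1 hu
      exact ⟨u, m, hm, P, hP', rfl⟩
  have key := (HL.mono (Nat.le_succ k) (hB v v')).add ((hS.mul hK).mul hE)
  refine key.congr fun w => ?_
  constructor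
  · -- completeness
    rintro ⟨l, hl, rfl, hf⟩
    have main : ∀ (l : List (List α)) (v : V), (∀ X ∈ l, X ∈ C) → l.foldl T v = v' →
        l.flatten ∈ Lg Bad T v v' ∨
        ∃ u : V, ∃ m ∈ Lg Bad T v u, ∃ P ∈ LP u, ∃ ks : List (List α),
          (∀ x ∈ ks, x ∈ KK Bad T LP RQ) ∧ ∃ a : V, ∃ Q ∈ RQ a, ∃ m' ∈ Lg Bad T a v',
            m ++ P ++ ks.flatten ++ (Q ++ m') = l.flatten := by
      intro l
      induction l with
      | nil =>
        intro v _ h
        left
        exact ⟨[], by simp, rfl, h⟩
      | cons X l ih =>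
        intro v hC hf
        have hX : X ∈ C := hC X (by simp)
        have hC' : ∀ Y ∈ l, Y ∈ C := fun Y hY => hC Y (by simp [hY])
        have hf' : l.foldl T (T v X) = v' := hf
        rcases ih (T v X) hC' hf' with h | ⟨u, m, hm, P, hP', ks, hks, a, Q, hQ', m', hm', e⟩
        · by_cases hb : X ∈ Bad
          · left
            rw [List.flatten_cons]
            exact Lg.append (Lg.single hb v) h
          · right
            obtain ⟨P, Q, e, hP', hQ'⟩ := compl X hX hb v
            refine ⟨v, [], Lg.nil _ _ _, P, hP', [], by simp, T v X, Q, hQ', l.flatten, h, ?_⟩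
            rw [List.flatten_cons, ← e]
            simp
        · right
          by_cases hb : X ∈ Bad
          · refine ⟨u, X ++ m, Lg.append (Lg.single hb v) hm, P, hP', ks, hks, a, Q, hQ', m',
              hm', ?_⟩
            rw [List.flatten_cons, ← e]
            simp [List.append_assoc]
          · obtain ⟨P1, Q1, e1, hP1, hQ1⟩ := compl X hX hb v
            refine ⟨v, [], Lg.nil _ _ _, P1, hP1, (Q1 ++ m ++ P) :: ks, ?_, a, Q, hQ', m',
              hm', ?_⟩
            · intro x hx
              rcases List.mem_cons.1 hx with rfl | hx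
              · exact ⟨(T v X, u), Q1, hQ1, m, hm, P, hP', rfl⟩
              · exact hks x hx
            · have e2 : (X :: l).flatten = (P1 ++ Q1) ++
                  (m ++ P ++ ks.flatten ++ (Q ++ m')) := by
                rw [List.flatten_cons, e, e1]
              rw [e2]
              simp [List.append_assoc]
    rcases main l v hl hf with h | ⟨u, m, hm, P, hP', ks, hks, a, Q, hQ', m', hm', e⟩
    · exact Or.inl h
    · right
      refine mem_mul3.2 ⟨m ++ P, ⟨u, m, hm, P, hP', rfl⟩, ks.flatten,
        Language.mem_kstar.2 ⟨ks, rfl, hks⟩, Q ++ m', ⟨a, Q, hQ', m', hm', rfl⟩, e⟩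
  · -- soundness
    intro hw
    rcases hw with h | h
    · exact Lg.mono hBC h
    · obtain ⟨x, hx, y, hy, z, hz, rfl⟩ := mem_mul3.1 h
      obtain ⟨ks, rfl, hks⟩ := Language.mem_kstar.1 hy
      have main : ∀ (ks : List (List α)) (x : List α), (∀ y ∈ ks, y ∈ KK Bad T LP RQ) →
          (∃ u : V, ∃ m ∈ Lg C T v u, ∃ P ∈ LP u, m ++ P = x) →
          (∃ u : V, ∃ m ∈ Lg C T v u, ∃ P ∈ LP u, m ++ P = x ++ ks.flatten) := by
        intro ks
        induction ks with
        | nil => intro x _ h; simpa using h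
        | cons y ks ih =>
          intro x hks hx
          have hy : y ∈ KK Bad T LP RQ := hks y (by simp)
          have hks' : ∀ z ∈ ks, z ∈ KK Bad T LP RQ := fun z hz => hks z (by simp [hz])
          obtain ⟨u, m, hm, P, hP', rfl⟩ := hx
          obtain ⟨⟨a, b⟩, Q, hQ', m', hm', P', hP'', rfl⟩ := hy
          have h1 : m ++ (P ++ Q) ++ m' ∈ Lg C T v b :=
            Lg.append (Lg.append hm (sound u a P Q hP' hQ')) (Lg.mono hBC hm')
          have := ih (m ++ (P ++ Q) ++ m' ++ P') hks' ⟨b, _, h1, P', hP'', rfl⟩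
          rw [List.flatten_cons]
          simpa [List.append_assoc] using this
      have hx' : ∃ u : V, ∃ m ∈ Lg C T v u, ∃ P ∈ LP u, m ++ P = x := by
        obtain ⟨u, m, hm, P, hP', e⟩ := hx
        exact ⟨u, m, Lg.mono hBC hm, P, hP', e⟩
      obtain ⟨u, m, hm, P, hP', e⟩ := main ks x hks hx'
      obtain ⟨a, Q, hQ', m', hm', rfl⟩ := hz
      have h1 : m ++ (P ++ Q) ++ m' ∈ Lg C T v v' :=
        Lg.append (Lg.append hm (sound u a P Q hP' hQ')) (Lg.mono hBC hm')
      have e2 : x ++ ks.flatten ++ (Q ++ m') = m ++ (P ++ Q) ++ m' := by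
        rw [← e]; simp [List.append_assoc]
      rw [e2]
      exact h1

/-- the fibres of every finite monoid on the products of blocks of `C` -/
def Solved (k : ℕ) (C : Set (List α)) : Prop :=
  ∀ (S : Type u) [Monoid S] [Finite S] (φ : α → S) (s : S),
    HL k ({w | w ∈ Str C ∧ (w.map φ).prod = s} : Language α)

/-- unique parse -/
def UParse (C : Set (List α)) : Prop :=
  ∀ l m : List (List α), (∀ X ∈ l, X ∈ C) → (∀ X ∈ m, X ∈ C) → l.flatten = m.flatten → l = m

/-- a prefix code: no block is a prefix of another one, no block is empty -/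
def PCode (C : Set (List α)) : Prop :=
  [] ∉ C ∧ ∀ X ∈ C, ∀ Y ∈ C, X <+: Y → X = Y

theorem PCode.mono {C D : Set (List α)} (h : C ⊆ D) (hD : PCode D) : PCode C :=
  ⟨fun h0 => hD.1 (h h0), fun X hX Y hY => hD.2 X (h hX) Y (h hY)⟩

theorem PCode.uparse {C : Set (List α)} (h : PCode C) : UParse C := by
  intro l
  induction l with
  | nil =>
    intro m _ hm e
    cases m with
    | nil => rfl
    | cons Y m =>
      exfalso
      rw [List.flatten_nil, List.flatten_cons] at e
      have : Y = [] := (List.append_eq_nil_iff.1 e.symm).1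
      exact h.1 (this ▸ hm Y (by simp))
  | cons X l ih =>
    intro m hl hm e
    cases m with
    | nil =>
      exfalso
      rw [List.flatten_nil, List.flatten_cons] at e
      have : X = [] := (List.append_eq_nil_iff.1 e).1
      exact h.1 (this ▸ hl X (by simp))
    | cons Y m =>
      rw [List.flatten_cons, List.flatten_cons] at e
      have hX := hl X (by simp)
      have hY := hm Y (by simp)
      have hXY : X = Y := by
        rcases List.prefix_or_prefix_of_prefix (l₁ := X) (l₂ := Y) (l₃ := X ++ l.flatten)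
          (List.prefix_append _ _) (e ▸ List.prefix_append _ _) with h1 | h1
        · exact h.2 X hX Y hY h1
        · exact (h.2 Y hY X hX h1).symm
      subst hXY
      have e' := List.append_cancel_left e
      rw [ih m (fun Z hZ => hl Z (by simp [hZ])) (fun Z hZ => hm Z (by simp [hZ])) e']

/-- affine tokens: thread value = linear part + thread of `0` -/
theorem foldl_affine {S V : Type*} [Monoid S] [AddCommGroup V] (act : V → S → V)
    (hadd : ∀ a b s, act (a + b) s = act a s + act b s)
    (hone : ∀ v, act v 1 = v) (hmul : ∀ v s t, act v (s * t) = act (act v s) t)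
    (φ : α → S) (nu : List α → V) (l : List (List α)) : ∀ (a b : V),
    l.foldl (fun v X => act v (X.map φ).prod + nu X) (a + b) =
      act a (l.flatten.map φ).prod + l.foldl (fun v X => act v (X.map φ).prod + nu X) b := by
  induction l with
  | nil => intro a b; simp [hone]
  | cons X l ih =>
    intro a b
    rw [List.foldl_cons, List.foldl_cons, hadd, add_assoc, ih, List.flatten_cons, List.map_append,
      List.prod_append, hmul]

/-- the fibres of `phi` from the threads of affine tokens -/
theorem fibre_of_threads {S V : Type*} [Monoid S] [AddCommGroup V] [Finite V] (act : V → S → V)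
    (hadd : ∀ a b s, act (a + b) s = act a s + act b s)
    (hone : ∀ v, act v 1 = v) (hmul : ∀ v s t, act v (s * t) = act (act v s) t)
    (hfaith : ∀ s t, (∀ v, act v s = act v t) → s = t)
    (φ : α → S) (nu : List α → V) (C : Set (List α)) (hC : UParse C)
    (h : ∀ v v', HL k (Lg C (fun v X => act v (X.map φ).prod + nu X) v v')) (s : S) :
    HL k ({w | w ∈ Str C ∧ (w.map φ).prod = s} : Language α) := by
  set T : V → List α → V := fun v X => act v (X.map φ).prod + nu X with hT
  have key := HL.iInter (k := k) (ι := V) (L := fun v =>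
    ({w | ∃ c : V, w ∈ (Lg C T 0 c ⊓ Lg C T v (act v s + c) : Language α)} : Language α))
    (fun v => HL.iUnion (k := k) (ι := V) (fun c => (h 0 c).inf (h v (act v s + c))))
  refine key.congr fun w => ?_
  constructor
  · rintro ⟨⟨l, hl, rfl⟩, hs⟩ v
    refine ⟨l.foldl T 0, ⟨l, hl, rfl, rfl⟩, ⟨l, hl, rfl, ?_⟩⟩
    have := foldl_affine act hadd hone hmul φ nu l v 0
    rw [add_zero] at this
    rw [hT, this, hs]
  · intro hw
    obtain ⟨c0, ⟨l0, hl0, e0, _⟩, _⟩ := hw 0
    refine ⟨⟨l0, hl0, e0⟩, hfaith _ _ fun v => ?_⟩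
    obtain ⟨c, ⟨l, hl, e, f⟩, ⟨m, hm, e', f'⟩⟩ := hw v
    have hlm : l = m := hC l m hl hm (e.trans e'.symm)
    subst hlm
    have := foldl_affine act hadd hone hmul φ nu l v 0
    rw [add_zero, e] at this
    rw [hT] at f f'
    rw [f, f'] at this
    exact (add_right_cancel this).symm

/-- a block recogniser: the state of the thread and the monoid value of the current block -/
theorem thread_of_solved {C : Set (List α)} (hs : Solved k C) (hC : PCode C)
    {S : Type u} [Monoid S] [Finite S] (φ : α → S) (F : Set S)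
    (hF : ∀ X : List α, X ≠ [] → (X ∈ C ↔ (X.map φ).prod ∈ F))
    {V : Type u} [Finite V] (τ : V → S → V) (T : V → List α → V)
    (hT : ∀ v, ∀ X ∈ C, T v X = τ v (X.map φ).prod) (v v' : V) : HL k (Lg C T v v') := by
  classical
  let M := (Function.End (V × S))ᵐᵒᵖ
  haveI : Finite M := by
    haveI : Finite (Function.End (V × S)) := inferInstanceAs (Finite (V × S → V × S))
    exact Finite.of_injective MulOpposite.unop MulOpposite.unop_injective
  let ψ : α → M := fun a => MulOpposite.op (fun x =>
    if x.2 * φ a ∈ F then (τ x.1 (x.2 * φ a), 1) else (x.1, x.2 * φ a))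
  have hψ : ∀ (a : α) (w : List α) (x : V × S), (((a :: w).map ψ).prod).unop x =
      ((w.map ψ).prod).unop (if x.2 * φ a ∈ F then (τ x.1 (x.2 * φ a), 1)
        else (x.1, x.2 * φ a)) := by
    intro a w x
    rw [List.map_cons, List.prod_cons, MulOpposite.unop_mul]
    rfl
  -- inside a block
  have hin : ∀ (Y Z : List α) (v : V), Z ≠ [] → Y ++ Z ∈ C →
      ((Z.map ψ).prod).unop (v, (Y.map φ).prod) = (τ v ((Y ++ Z).map φ).prod, 1) := by
    intro Y Z
    induction Z generalizing Y with
    | nil => intro v h; exact absurd rfl h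
    | cons a Z ih =>
      intro v _ hYZ
      rw [hψ]
      have e1 : (Y.map φ).prod * φ a = ((Y ++ [a]).map φ).prod := by simp
      have e2 : Y ++ a :: Z = (Y ++ [a]) ++ Z := by simp
      by_cases hZ : Z = []
      · subst hZ
        have : (Y.map φ).prod * φ a ∈ F := by
          rw [e1]
          exact (hF _ (by simp)).1 hYZ
        simp only [this, if_true, List.map_nil, List.prod_nil, MulOpposite.unop_one]
        rw [e1]
        rfl
      · have hn : ¬ ((Y.map φ).prod * φ a ∈ F) := by
          rw [e1]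
          intro h
          have h1 : Y ++ [a] ∈ C := (hF _ (by simp)).2 h
          have h2 : Y ++ [a] = Y ++ a :: Z := hC.2 _ h1 _ hYZ ⟨Z, by simp⟩
          have h3 : Z = [] := by simpa using h2
          exact hZ h3
        simp only [hn, if_false]
        rw [e1, e2]
        rw [e2] at hYZ
        exact ih (Y ++ [a]) v hZ hYZ
  have hrun : ∀ (l : List (List α)) (v : V), (∀ X ∈ l, X ∈ C) →
      ((l.flatten.map ψ).prod).unop (v, 1) = (l.foldl T v, 1) := by
    intro l
    induction l with
    | nil => intro v _; rfl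
    | cons X l ih =>
      intro v hl
      have hX := hl X (by simp)
      have hX0 : X ≠ [] := fun h => hC.1 (h ▸ hX)
      rw [List.flatten_cons, List.map_append, List.prod_append, MulOpposite.unop_mul]
      have h1 := hin [] X v hX0 (by simpa using hX)
      simp only [List.map_nil, List.prod_nil, List.nil_append] at h1
      change ((l.flatten.map ψ).prod).unop (((X.map ψ).prod).unop (v, 1)) = _
      rw [h1, ih _ (fun Y hY => hl Y (by simp [hY])), List.foldl_cons, hT v X hX]
  have key := HL.biUnion (k := k) (Set.toFinite {m : M | m.unop (v, 1) = (v', 1)})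
    (L := fun m => ({w | w ∈ Str C ∧ (w.map ψ).prod = m} : Language α))
    (fun m _ => hs M ψ m)
  refine key.congr fun w => ?_
  constructor
  · rintro ⟨l, hl, rfl, hf⟩
    refine ⟨(l.flatten.map ψ).prod, ?_, ⟨l, hl, rfl⟩, rfl⟩
    change ((l.flatten.map ψ).prod).unop (v, 1) = (v', 1)
    rw [hrun l v hl, hf]
  · rintro ⟨m, hm, ⟨l, hl, rfl⟩, hp⟩
    refine ⟨l, hl, rfl, ?_⟩
    have h1 : m.unop (v, 1) = (v', 1) := hm
    rw [← hp, hrun l v hl] at h1
    exact congrArg Prod.fst h1

/-- the faithful module `S → ZMod 2` of a finite monoid -/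
theorem exists_module (S : Type u) [Monoid S] [Finite S] :
    ∃ (act : (S → ZMod 2) → S → (S → ZMod 2)),
      (∀ a b s, act (a + b) s = act a s + act b s) ∧ (∀ v, act v 1 = v) ∧
      (∀ v s t, act v (s * t) = act (act v s) t) ∧
      (∀ s t, (∀ v, act v s = act v t) → s = t) := by
  classical
  haveI := Fintype.ofFinite S
  refine ⟨fun v s t => ∑ x : S, if x * s = t then v x else 0, ?_, ?_, ?_, ?_⟩
  · intro a b s
    funext t
    simp only [Pi.add_apply]
    rw [← Finset.sum_add_distrib]
    refine Finset.sum_congr rfl fun x _ => ?_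
    split_ifs <;> simp
  · intro v
    funext t
    simp
  · intro v s t
    funext r
    simp only
    have h1 : ∀ y : S, (if y * t = r then ∑ x : S, (if x * s = y then v x else 0) else 0) =
        ∑ x : S, (if x * s = y ∧ y * t = r then v x else 0) := by
      intro y
      by_cases h : y * t = r
      · simp [h]
      · simp [h]
    simp only [h1]
    rw [Finset.sum_comm]
    refine Finset.sum_congr rfl fun x _ => ?_
    rw [Finset.sum_eq_single (x * s)]
    · simp [mul_assoc]
    · intro y _ hy
      rw [if_neg]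
      rintro ⟨h, _⟩
      exact hy h.symm
    · simp
  · intro s t h
    have h1 := congrFun (h (fun x => if x = 1 then 1 else 0)) s
    simp only at h1
    rw [Finset.sum_eq_single (1 : S), Finset.sum_eq_single (1 : S)] at h1
    · by_contra hne
      simp only [one_mul, if_true] at h1
      rw [if_neg (fun e => hne e.symm)] at h1
      exact one_ne_zero h1
    · intro y _ hy
      simp [hy]
    · simp
    · intro y _ hy
      simp [hy]
    · simp

/-- `X ↦ f X` is computed by a finite monoid on `C` -/
def RecOn {β : Type*} (C : Set (List α)) (f : List α → β) : Prop :=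
  ∃ (S : Type u) (_ : Monoid S) (_ : Finite S) (φ : α → S) (g : S → β),
    ∀ X ∈ C, f X = g (X.map φ).prod

/-- the block set is recognised by a finite monoid (on nonempty words) -/
def Rec (C : Set (List α)) : Prop :=
  ∃ (S : Type u) (_ : Monoid S) (_ : Finite S) (φ : α → S) (F : Set S),
    ∀ X : List α, X ≠ [] → (X ∈ C ↔ (X.map φ).prod ∈ F)

/-- **one more star**: a scheme which is sound on `C*` and cuts every token in every block of `C`
which is not in `Bad`. -/
theorem step {C Bad : Set (List α)} (hBC : Bad ⊆ C) (hC : PCode C) (hBad : Solved k Bad)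
    (hR : Rec Bad)
    (scheme : ∀ (S V : Type u) [Monoid S] [Finite S] [AddCommGroup V] [Finite V]
      (act : V → S → V) (φ : α → S), ∃ (nu : List α → V) (LP RQ : V → Language α),
        RecOn Bad nu ∧
        (∀ v v' P Q, P ∈ LP v → Q ∈ RQ v' →
          P ++ Q ∈ Lg C (fun v X => act v (X.map φ).prod + nu X) v v') ∧
        (∀ X ∈ C, X ∉ Bad → ∀ v, ∃ P Q, P ++ Q = X ∧ P ∈ LP v ∧
          Q ∈ RQ (act v (X.map φ).prod + nu X)) ∧
        (∀ v, HL k (LP v)) ∧ (∀ v, HL k (RQ v))) : Solved (k + 1) C := by
  intro S _ _ φ s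
  obtain ⟨act, hadd, hone, hmul, hfaith⟩ := exists_module S
  obtain ⟨nu, LP, RQ, hnu, sound, compl, hP, hQ⟩ := scheme S (S → ZMod 2) act φ
  refine fibre_of_threads act hadd hone hmul hfaith φ nu C hC.uparse ?_ s
  refine fun v v' => star_step C Bad _ LP RQ hBC sound compl ?_ hP hQ v v'
  obtain ⟨S1, i1, j1, φ1, F1, h1⟩ := hR
  obtain ⟨S2, i2, j2, φ2, g2, h2⟩ := hnu
  intro a b
  have hprod : ∀ X : List α, (X.map (fun x => (φ x, φ1 x, φ2 x))).prod =
      ((X.map φ).prod, (X.map φ1).prod, (X.map φ2).prod) := by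
    intro X
    induction X with
    | nil => rfl
    | cons x X ih => simp only [List.map_cons, List.prod_cons, ih, Prod.mk_mul_mk]
  refine thread_of_solved hBad (hC.mono hBC) (S := S × S1 × S2) (fun x => (φ x, φ1 x, φ2 x))
    {t | t.2.1 ∈ F1} ?_ (fun v t => act v t.1 + g2 t.2.2) _ ?_ a b
  · intro X hX
    rw [h1 X hX, hprod]
    rfl
  · intro v X hX
    simp only [hprod, h2 X hX]

/-- no blocks at all -/
theorem solved_empty : Solved k (∅ : Set (List α)) := by
  intro S _ _ φ s
  by_cases hs : (1 : S) = s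
  · refine (HL.one (k := k)).congr fun w => ?_
    constructor
    · rintro ⟨⟨l, hl, rfl⟩, _⟩
      cases l with
      | nil => exact rfl
      | cons X l => exact absurd (hl X (by simp)) (by simp)
    · intro h
      have h' : w = [] := h
      subst h'
      exact ⟨⟨[], by simp, rfl⟩, by simpa using hs⟩
  · refine (HL.zero (k := k)).congr fun w => ?_
    constructor
    · rintro ⟨⟨l, hl, rfl⟩, hp⟩
      cases l with
      | nil => exact absurd hp (by simpa using hs)
      | cons X l => exact absurd (hl X (by simp)) (by simp)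
    · intro h
      exact absurd h (Language.notMem_zero w)

theorem exists_parse {C : Set (List α)} (h0 : [] ∉ C) (w : List α) :
    ∃ M E : List α, M ++ E = w ∧ M ∈ Str C ∧ ∀ X ∈ C, ¬ X <+: E := by
  induction hn : w.length using Nat.strong_induction_on generalizing w with
  | _ n ih =>
    by_cases h : ∃ X ∈ C, X <+: w
    · obtain ⟨X, hX, w', rfl⟩ := h
      have hX0 : X ≠ [] := fun e => h0 (e ▸ hX)
      have hlt : w'.length < n := by
        rw [← hn, List.length_append]
        have := List.length_pos_iff.2 hX0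
        omega
      obtain ⟨M, E, e, ⟨l, hl, hM⟩, hE⟩ := ih _ hlt w' rfl
      refine ⟨X ++ M, E, by rw [List.append_assoc, e], ⟨X :: l, ?_, ?_⟩, hE⟩
      · intro Y hY
        rcases List.mem_cons.1 hY with rfl | hY
        · exact hX
        · exact hl Y hY
      · rw [List.flatten_cons, hM]
    · exact ⟨[], w, rfl, ⟨[], by simp, rfl⟩, fun X hX hp => h ⟨X, hX, hp⟩⟩

/-- **top**: from the block code to all words; what is left is the tail without a block -/
theorem top {C : Set (List α)} (h0 : [] ∉ C) (hC : Solved k C)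
    (hT : ∀ (S : Type u) [Monoid S] [Finite S] (φ : α → S) (s : S),
      HL k ({w | (∀ X ∈ C, ¬ X <+: w) ∧ (w.map φ).prod = s} : Language α))
    (S : Type u) [Monoid S] [Finite S] (φ : α → S) (s : S) :
    HL k ({w | (w.map φ).prod = s} : Language α) := by
  let A : S → Language α := fun a => {w | w ∈ Str C ∧ (w.map φ).prod = a}
  let B : S → Language α := fun b => {w | (∀ X ∈ C, ¬ X <+: w) ∧ (w.map φ).prod = b}
  refine (HL.biUnion (k := k) (Set.toFinite {p : S × S | p.1 * p.2 = s})
    (L := fun p => A p.1 * B p.2)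
    (fun p _ => HL.mul (L := A p.1) (M := B p.2) (hC S φ p.1) (hT S φ p.2))).congr fun w => ?_
  constructor
  · intro hw
    obtain ⟨M, E, rfl, hM, hE⟩ := exists_parse h0 w
    refine ⟨((M.map φ).prod, (E.map φ).prod), ?_, ?_⟩
    · have hw' : ((M ++ E).map φ).prod = s := hw
      rw [List.map_append, List.prod_append] at hw'
      exact hw'
    · exact Language.mem_mul.2 ⟨M, ⟨hM, rfl⟩, E, ⟨hE, rfl⟩, rfl⟩
  · rintro ⟨p, hp, hw⟩
    obtain ⟨M, ⟨_, hM⟩, E, ⟨_, hE⟩, rfl⟩ := Language.mem_mul.1 hw
    change ((M ++ E).map φ).prod = s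
    rw [List.map_append, List.prod_append, hM, hE]
    exact hp

end Crest.Agent.R320.Blk467
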