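import Mathlib
import Crest.Agent.R320.Joint_47
import Crest.Agent.R320.Top5_110
import Crest.Agent.R320.FewVal_228
import Crest.Agent.R320.Reg_852

/-!
# Row 320: final instantiation (helper47): `Gad1` (gadget 1 of 693) ⟹ height 3 for every finite monoid
-/

set_option autoImplicit false

namespace Crest.Agent.R320.Fin_47

open Crest.RegLang Crest.Agent.R320.Hk_851 Crest.Agent.R320.Joint_47
open Crest.Agent.R320.ExactR_237 (pr pr_append)
open Crest.Agent.R320.FewWalls_228 (Wl nw PerOff)

variable {A S V : Type}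

/-- gadget 1 in the form needed by the joint (693) -/
def Gad1 [Monoid S] [AddCommGroup V] (f : A → S) (act : V → S → V) : Prop :=
  ∃ R1 : ℕ, ∀ K : ℕ, ∃ (lam rho : List A → Option V) (nu : List A → V) (N1 N0 : ℕ)
    (BadT : ℕ → Prop) (c : ℕ → ℕ),
    (∀ P Q v r, lam P = some v → rho Q = some r → r = act v (pr f (P ++ Q)) + nu (P ++ Q)) ∧
    (∀ P v, lam P = some v → P.length ≤ N1) ∧
    (∀ Y : List A, N0 ≤ Y.length → ¬ BadT Y.length →
      ∀ v, ∃ P Q, Y = P ++ Q ∧ lam P = some v ∧ (rho Q).isSome) ∧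
    (∀ i j, i < j → j < K → c i < c j) ∧
    (∀ i i' j j', i < K → i' < K → j < K → j' < K → i' ≠ i → j' ≠ j →
      c i + c j' < c j + c i' + 2 * N1 → c j + c i' < c i + c j' + 2 * N1 → i = j) ∧
    (∀ T : ℕ, N0 ≤ T → (∀ k, k < K → c k ≤ T) → ∀ I : Finset ℕ,
      (∀ k ∈ I, k < K ∧ ∃ k', k' < K ∧ k' ≠ k ∧ BadT (T + c k' - c k)) → I.card ≤ R1) ∧
    (∀ m, Language.IsRegular ({Y | nu Y = m} : Language A)) ∧
    Language.IsRegular ({Y | BadT Y.length} : Language A)

/-- language of a predicate -/
def lg (p : List A → Prop) : Language A := {w | p w}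

/-! ### walls -/

/-- left-looking wall from a set of words of length `n` -/
def Wo (n : ℕ) (W : Set (List A)) (X : List A) : Prop := n ≤ X.length ∧ X.drop (X.length - n) ∈ W

theorem Wo_take {n : ℕ} {W : Set (List A)} {X : List A} {x : ℕ} (h : x + n ≤ X.length) :
    Wo n W (X.take (x + n)) ↔ Wl n W X x := by
  have hl : (X.take (x + n)).length = x + n := by rw [List.length_take]; omega
  unfold Wo Wl
  rw [hl, Nat.add_sub_cancel, List.drop_take, Nat.add_sub_cancel_left]
  constructor
  · rintro ⟨_, h2⟩; exact ⟨h, h2⟩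
  · rintro ⟨_, h2⟩; exact ⟨by omega, h2⟩

theorem lw {n W0 : ℕ} {W : Set (List A)}
    (hsep : ∀ (w : List A) (x y : ℕ), x < y → Wl n W w x → Wl n W w y → x + W0 ≤ y) :
    LW n W0 (Wo n W) where
  len := fun X h => h.1
  app := by
    intro P Q hQ
    unfold Wo
    rw [List.length_append]
    have : (P ++ Q).drop (P.length + Q.length - n) = Q.drop (Q.length - n) := by
      rw [List.drop_append, List.drop_eq_nil_of_le (by omega), List.nil_append]
      congr 1
      omega
    rw [this]
    constructor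
    · rintro ⟨_, h⟩; exact ⟨hQ, h⟩
    · rintro ⟨_, h⟩; exact ⟨by omega, h⟩
  gap := by
    intro X s t hst ht hs ht'
    have h1 : n ≤ s := by have := hs.1; rw [List.length_take] at this; omega
    have h2 : n ≤ t := by omega
    obtain ⟨s', rfl⟩ : ∃ s', s = s' + n := ⟨s - n, by omega⟩
    obtain ⟨t', rfl⟩ : ∃ t', t = t' + n := ⟨t - n, by omega⟩
    rw [Wo_take (by omega)] at hs
    rw [Wo_take (by omega)] at ht'
    have := hsep X s' t' (by omega) hs ht'
    omega

section lang
variable [Finite A] {n z : ℕ} {W : Set (List A)}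

theorem HL_Wo (hWn : ∀ s ∈ W, s.length = n) : HL 0 ({X | Wo n W X} : Language A) := by
  have hfin : W.Finite := (List.finite_length_eq A n).subset fun s hs => hWn s hs
  refine (HL.suffix (HL.finite (k := 0) hfin)).congr fun X => ?_
  constructor
  · rintro ⟨h1, h2⟩
    exact ⟨_, h2, List.drop_suffix _ _⟩
  · rintro ⟨v, hv, hvX⟩
    have hl := hvX.length_le
    have hvn := hWn v hv
    refine ⟨by omega, ?_⟩
    have : v = X.drop (X.length - v.length) := List.suffix_iff_eq_drop.1 hvX
    rw [← hvn, ← this]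
    exact hv

theorem HL_Zn (hWn : ∀ s ∈ W, s.length = n) : HL 0 (Zn (Wo n W) z : Language A) := by
  have h1 : HL 0 ({X | z ≤ X.length ∧ Wo n W X} : Language A) :=
    HL.setOf_and (HL.length_ge z) (HL_Wo hWn)
  have h2 : HL 0 ({X : List A | 1 ≤ X.length} : Language A) := HL.length_ge 1
  refine (h1.sdiff (h1.mul h2)).congr fun X => ?_
  constructor
  · rintro ⟨a, b, c⟩
    refine ⟨⟨a, b⟩, ?_⟩
    rintro ⟨u, ⟨hu1, hu2⟩, v, hv, rfl⟩
    have hv' : 1 ≤ v.length := hv
    refine c u.length hu1 (by rw [List.length_append]; omega) ?_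
    rw [List.take_left']
    · exact hu2
    · rfl
  · rintro ⟨⟨a, b⟩, c⟩
    refine ⟨a, b, fun t h3 h4 h5 => c ?_⟩
    refine Language.mem_mul.2 ⟨X.take t, ⟨by rw [List.length_take]; omega, h5⟩, X.drop t, ?_,
      List.take_append_drop _ _⟩
    show 1 ≤ (X.drop t).length
    rw [List.length_drop]; omega

theorem nw_le_of {X : List A} {r : ℕ} (h : ∀ x, Wl n W X x → x + n < z ∨ x + n = X.length)
    (hr : z + 1 ≤ r) : nw n W X ≤ r := by
  classical
  unfold nw
  refine le_trans (Finset.card_le_card (t := insert (X.length - n) (Finset.range z)) ?_) ?_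
  · intro x hx
    rw [Finset.mem_filter] at hx
    rw [Finset.mem_insert, Finset.mem_range]
    rcases h x hx.2 with h1 | h1
    · right; omega
    · left; omega
  · refine le_trans (Finset.card_insert_le _ _) ?_
    rw [Finset.card_range]; exact hr

theorem nw_Zn {X : List A} (hX : X ∈ Zn (Wo n W) z) : nw n W X ≤ z + 1 := by
  refine nw_le_of (z := z) ?_ le_rfl
  intro x hx
  by_contra hcon
  push Not at hcon
  have h1 : x + n ≤ X.length := hx.1
  exact hX.2.2 (x + n) hcon.1 (by omega) ((Wo_take h1).2 hx)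

theorem nw_rest {X : List A} (hX : ∀ u ∈ (Zn (Wo n W) z), ¬ u <+: X) : nw n W X ≤ z + 1 := by
  refine nw_le_of (z := z) ?_ le_rfl
  intro x hx
  by_contra hcon
  push Not at hcon
  have h1 : x + n ≤ X.length := hx.1
  obtain ⟨a, ha, hap, _⟩ := Zn_exists (Wo := Wo n W) (z := z) (w := X) hcon.1 h1
    ((Wo_take h1).2 hx)
  exact hX a ha hap

theorem reg_biUnion {ι : Type*} {s : Set ι} (hs : s.Finite) {L : ι → Language A}
    (h : ∀ i ∈ s, (L i).IsRegular) : Language.IsRegular ({w | ∃ i ∈ s, w ∈ L i} : Language A) := by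
  classical
  induction s, hs using Set.Finite.induction_on with
  | empty =>
    have : lg (fun w => ∃ i ∈ (∅ : Set ι), w ∈ L i) = (0 : Language A) := by
      ext w; constructor
      · rintro ⟨i, hi, _⟩; exact hi.elim
      · intro h; exact h.elim
    have h0 : (lg (fun w => ∃ i ∈ (∅ : Set ι), w ∈ L i)).IsRegular := by
      rw [this]; exact Crest.Agent.R320.Reg_852.isRegular_zero
    exact h0
  | @insert a s _ _ ih =>
    have : lg (fun w => ∃ i ∈ insert a s, w ∈ L i) =
        L a + lg (fun w => ∃ i ∈ s, w ∈ L i) := by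
      ext w; constructor
      · rintro ⟨i, hi, hw⟩
        rcases hi with rfl | hi
        · exact Or.inl hw
        · exact Or.inr ⟨i, hi, hw⟩
      · rintro (hw | ⟨i, hi, hw⟩)
        · exact ⟨a, Or.inl rfl, hw⟩
        · exact ⟨i, Or.inr hi, hw⟩
    have h0 : (lg (fun w => ∃ i ∈ insert a s, w ∈ L i)).IsRegular := by
      rw [this]
      exact (h a (Or.inl rfl)).add (ih fun i hi => h i (Or.inr hi))
    exact h0

end lang

open Crest.Agent.R320.Code110 Crest.Agent.R320.Top5_110 in
/-- **the design 693 + 110: gadget 1 ⟹ height three** -/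
theorem height3 [Finite A] [Monoid S] [Finite S] [AddCommGroup V] [Finite V] (f : A → S)
    (act : V → S → V) (hadd : ∀ a b s, act (a + b) s = act a s + act b s)
    (h1 : ∀ v, act v 1 = v) (hm : ∀ v s t, act v (s * t) = act (act v s) t)
    (hf : ∀ s t, (∀ v, act v s = act v t) → s = t) (hG : Gad1 f act) (s : S) :
    HL 3 ({w | pr f w = s} : Language A) := by
  classical
  haveI := Fintype.ofFinite S
  haveI := Fintype.ofFinite V
  obtain ⟨R1, hG⟩ := hG
  obtain ⟨K, hK⟩ := Crest.Agent.R320.ExactR_237.exact_gadget A S V f act (2 * R1 + 2)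
  obtain ⟨lam, rho, nu, N1, N0, BadT, c, hS, hL, hC, hinc, hres, hT, hnu, hB⟩ := hG K
  obtain ⟨lam2, rho2, nu2, hS2, hC2⟩ := hK c hinc
  obtain ⟨p0, hp0⟩ : ∃ p0, ∀ k, k < K → c k ≤ p0 :=
    ⟨(Finset.range K).sup c, fun k hk => Finset.le_sup (f := c) (Finset.mem_range.2 hk)⟩
  obtain ⟨n, cc, P, W, hn, hP, hWn, hsep, hper, -⟩ :=
    Crest.Agent.R320.FewVal_228.exists_walls A (2 * (N1 + p0) + 1) (by omega)
  obtain ⟨z, hz⟩ : ∃ z, z = 3 * p0 + n + N1 + 1 + N0 := ⟨_, rfl⟩
  have hLW : LW n (2 * (N1 + p0) + 1) (Wo n W) := lw hsep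
  let XX : Language A := Zn (Wo n W) z
  let BB : Language A := {X | X ∈ Zn (Wo n W) z ∧ Bad (Wo n W) z N1 p0 BadT X}
  let TT : List A → V → V := fun X v => T f act p0 (fun X => nu2 X 1) nu v X
  let LL1 : V → Language A := fun v => {X | L1 f act p0 (fun X => nu2 X 1) lam v X}
  let LL2 : V → Language A := fun v => {X | L2 K c lam2 v X}
  have hsub : ∀ a b s, act (a - b) s = act a s - act b s := by
    intro a b s
    have := hadd (a - b) b s
    rw [sub_add_cancel] at this
    rw [this, add_sub_cancel_right]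
  have fewHL : ∀ {L : Language A}, L.IsRegular → (∀ w ∈ L, nw n W w ≤ z + 1) → HL 1 L :=
    fun hL hr => Crest.Agent.R320.FewVal_228.HL_of_few hn hP hper (z + 1) hL hr
  have hZ0 : HL 0 XX := HL_Zn hWn
  have hZr : XX.IsRegular := Crest.Agent.R320.Reg_852.HL.isRegular hZ0
  have hφr : ∀ s, Language.IsRegular ({w | pr f w = s} : Language A) := fun s =>
    Crest.Agent.R320.Reg_852.isRegular_prod f s
  have hlenr : Language.IsRegular ({w : List A | w.length = p0} : Language A) :=
    Crest.Agent.R320.Reg_852.HL.isRegular (HL.length_eq (k := 0) p0)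
  -- the bad zones
  have hBr : BB.IsRegular := by
    have hE : HL 0 (lg (fun X => ∃ v ∈ ({v | Wo n W v ∧ z - N1 ≤ v.length ∧ v.length < z + N1} : Set (List A)),
        v <+: X)) := by
      refine HL.prefix (L := ({v | Wo n W v ∧ z - N1 ≤ v.length ∧ v.length < z + N1} : Set (List A)))
        (HL.finite ?_)
      exact (List.finite_length_lt A (z + N1)).subset fun v hv => hv.2.2
    have hM : Language.IsRegular (lg (fun w : List A => w.length = p0) *
        lg (fun Y : List A => BadT Y.length)) :=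
      Crest.Agent.R320.Reg_852.IsRegular.mul hlenr hB
    have hall := hZr.inf ((Crest.Agent.R320.Reg_852.HL.isRegular hE).add hM)
    have e : BB = XX ⊓ (lg (fun X => ∃ v ∈ ({v | Wo n W v ∧ z - N1 ≤ v.length ∧ v.length < z + N1} : Set (List A)),
        v <+: X) + (lg (fun w : List A => w.length = p0) *
        lg (fun Y : List A => BadT Y.length))) := by
      ext X
      constructor
      · rintro ⟨hX, hb⟩
        refine ⟨hX, ?_⟩
        rcases hb with ⟨t, t1, t2, t3, t4⟩ | hb
        · left
          exact ⟨X.take t, ⟨t4, by rw [List.length_take]; omega, by rw [List.length_take]; omega⟩,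
            List.take_prefix _ _⟩
        · right
          have : z ≤ X.length := hX.1
          refine Language.mem_mul.2 ⟨X.take p0, ?_, X.drop p0, ?_, List.take_append_drop _ _⟩
          · show (X.take p0).length = p0
            rw [List.length_take]; omega
          · show BadT (X.drop p0).length
            rw [List.length_drop]; exact hb
      · rintro ⟨hX, hb⟩
        refine ⟨hX, ?_⟩
        rcases hb with ⟨v, ⟨v1, v2, v3⟩, v4⟩ | hb
        · left
          refine ⟨v.length, v2, v3, v4.length_le, ?_⟩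
          rw [← List.prefix_iff_eq_take.1 v4]
          exact v1
        · right
          obtain ⟨a, ha, b, hb2, rfl⟩ := Language.mem_mul.1 hb
          have ha' : a.length = p0 := ha
          have hb' : BadT b.length := hb2
          rw [List.length_append, ha', Nat.add_sub_cancel_left]
          exact hb'
    rw [e]; exact hall
  -- zones with a given transition
  have hTr : ∀ x y, (ZT XX TT x y).IsRegular := by
    intro x y
    have hY : ∀ a : V, Language.IsRegular ({Y | act a (pr f Y) + nu Y = y} : Language A) := by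
      intro a
      have h := reg_biUnion (A := A) (s := ({q | act a q.1 + q.2 = y} : Set (S × V)))
        (Set.toFinite _) (L := fun q => ({Y | pr f Y = q.1} : Language A) ⊓
          ({Y | nu Y = q.2} : Language A)) (fun q _ => (hφr q.1).inf (hnu q.2))
      have e : ({Y | act a (pr f Y) + nu Y = y} : Language A) =
          ({w | ∃ q ∈ ({q | act a q.1 + q.2 = y} : Set (S × V)),
            w ∈ (({Y | pr f Y = q.1} : Language A) ⊓ ({Y | nu Y = q.2} : Language A))} :
            Language A) := by
        ext Y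
        constructor
        · intro h
          exact ⟨(pr f Y, nu Y), h, rfl, rfl⟩
        · rintro ⟨⟨q1, q2⟩, h, h2, h3⟩
          have h2' : pr f Y = q1 := h2
          have h3' : nu Y = q2 := h3
          subst h2'
          subst h3'
          exact h
      rw [e]; exact h
    have hfinp : ({X0 : List A | X0.length = p0} : Set (List A)).Finite := List.finite_length_eq A p0
    have h := reg_biUnion (A := A) hfinp (L := fun X0 => lg (fun w => w = X0) *
      lg (fun Y => act (act x (pr f X0) + nu2 X0 1) (pr f Y) + nu Y = y))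
      (fun X0 _ => Crest.Agent.R320.Reg_852.IsRegular.mul
        (Crest.Agent.R320.Reg_852.HL.isRegular (HL.word (k := 0) X0)) (hY _))
    have h2 := hZr.inf h
    have e : ZT XX TT x y = XX ⊓ lg (fun w => ∃ X0 ∈ ({X0 : List A | X0.length = p0} : Set (List A)),
        w ∈ (lg (fun w => w = X0) *
      lg (fun Y => act (act x (pr f X0) + nu2 X0 1) (pr f Y) + nu Y = y))) := by
      ext X
      constructor
      · rintro ⟨hX, hb⟩
        have : z ≤ X.length := hX.1
        refine ⟨hX, X.take p0, ?_, ?_⟩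
        · show (X.take p0).length = p0
          rw [List.length_take]; omega
        · exact Language.mem_mul.2 ⟨X.take p0, rfl, X.drop p0, hb, List.take_append_drop _ _⟩
      · rintro ⟨hX, X0, hX0, hb⟩
        obtain ⟨a, ha, b, hb2, rfl⟩ := Language.mem_mul.1 hb
        have ha' : a = X0 := ha
        subst ha'
        have hX0' : a.length = p0 := hX0
        refine ⟨hX, ?_⟩
        show T f act p0 (fun X => nu2 X 1) nu x (a ++ b) = y
        unfold T
        rw [← hX0', List.take_left', List.drop_left']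
        · exact hb2
        · rfl
        · rfl
    rw [e]; exact h2
  have hPC : PC XX := by
    refine ⟨?_, ?_⟩
    · intro h
      have h' : z ≤ ([] : List A).length := h.1
      simp at h'
      omega
    · intro u hu v hv huv
      exact Zn_prefix hu hv huv (List.prefix_refl v)
  refine top_sem (φ := pr f) (act := act) (XX := XX) (Bad := BB) (T := TT) (N1 := 0) (N2 := 1)
    (L1 := LL1) (L2 := LL2) rfl (fun u w => pr_append f u w) h1 hm hf hPC (fun u hu => hu.1) ?_
    (hZ0.mono (by norm_num)) (fewHL hBr fun w hw => nw_Zn hw.1)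
    (fun x y => fewHL (hTr x y) fun w hw => nw_Zn hw.1) ?_ ?_ ?_ ?_ ?_ s
  · intro u _ v v'
    show T f act p0 (fun X => nu2 X 1) nu v u - T f act p0 (fun X => nu2 X 1) nu v' u =
      act (v - v') (pr f u)
    unfold T
    have e : pr f u = pr f (u.take p0) * pr f (u.drop p0) := by
      rw [← pr_append, List.take_append_drop]
    rw [e, hm, add_sub_add_right_eq_sub, ← hsub, add_sub_add_right_eq_sub, ← hsub]
  · intro s
    have hR : HL 0 ({w | ¬ ∃ u ∈ XX, u <+: w} : Language A) := HL.setOf_not (HL.prefix hZ0)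
    have h := (Crest.Agent.R320.Reg_852.HL.isRegular hR).inf (hφr s)
    have e : ({w | (∀ u ∈ XX, ¬ u <+: w) ∧ pr f w = s} : Language A) =
        ({w | ¬ ∃ u ∈ XX, u <+: w} : Language A) ⊓ ({w | pr f w = s} : Language A) := by
      ext w
      constructor
      · rintro ⟨a, b⟩
        exact ⟨fun ⟨u, hu, hp⟩ => a u hu hp, b⟩
      · rintro ⟨a, b⟩
        exact ⟨fun u hu hp => a ⟨u, hu, hp⟩, b⟩
    refine (fewHL (by rw [e]; exact h) ?_ : HL 1 _).mono (by norm_num)
    rintro w ⟨a, _⟩
    exact nw_rest a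
  · intro v
    refine (List.finite_length_le A (p0 + N1)).subset ?_
    rintro X ⟨hX1, hX2⟩
    have := hL _ _ hX2
    rw [List.length_drop] at this
    show X.length ≤ p0 + N1
    omega
  · intro v
    refine (List.finite_length_le A p0).subset ?_
    rintro X ⟨k, hk, hX1, _⟩
    show X.length ≤ p0
    rw [hX1]; exact hp0 k hk
  · intro u hu hub x t ht
    rw [pow_zero] at ht
    have ht' : t = [] := ht
    subst ht'
    obtain ⟨p, q, hpq, hp, _, hall⟩ := complete1 (f := f) (act := act) (p0 := p0)
      (nu2 := fun X => nu2 X 1) (nu1 := nu) hLW hS hL hC (z := z) (by omega) (by omega) hu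
      (fun hb => hub ⟨hu, hb⟩) x
    refine ⟨p, q, TT u x, by rw [List.append_nil]; exact hpq, hp, ?_⟩
    intro x' p' hp'
    left
    obtain ⟨h3, h4⟩ := hall x' p' hp'
    exact ⟨TT u x, Language.mem_mul.2 ⟨p' ++ q, ⟨h3, h4⟩, [], ⟨rfl, rfl⟩, by simp⟩⟩
  · intro u hu x t ht
    rw [pow_one] at ht
    obtain ⟨p, q, hpq, hp, _, hall⟩ := complete2 (f := f) (act := act) (p0 := p0)
      (nu1 := nu) (nu2' := nu2) (N0 := N0) hLW hS2 hC2 hinc hp0 hres hT (by omega) (z := z)
      (by omega) hu.1 ht.1 hu.2 x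
    refine ⟨p, q, TT t (TT u x), hpq, hp, ?_⟩
    intro x' p' hp'
    rcases hall x' p' hp' with ⟨a, ha, hab, hpa, hTa⟩ | ⟨a, ha, hab, hap⟩
    · left
      refine ⟨TT a x', Language.mem_mul.2 ⟨a, ⟨⟨ha, hab⟩, rfl⟩, t, ?_, hpa.symm⟩⟩
      refine ⟨TT t (TT u x), Language.mem_mul.2 ⟨t, ⟨ht, ?_⟩, [], ⟨rfl, rfl⟩, by simp⟩⟩
      show TT t (TT a x') = TT t (TT u x)
      have : TT a x' = TT u x := hTa
      rw [this]
    · right
      left
      exact ⟨a, ha, fun h => hab h.2, hap⟩

end Crest.Agent.R320.Fin_47
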