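import Mathlib

/-!
Row 320: the random noise lemma (237 #12538, 755 #12640 (C)).
Pure finite combinatorics.
-/

set_option autoImplicit false

namespace Crest.Agent.R320.RandF808

open Finset

section Count

variable {T V : Type*} [Fintype T] [DecidableEq T] [Fintype V] [DecidableEq V]

/-- functions which differ from `t` somewhere on `P i`, for every `i ∈ I`. -/
def bad (P : ℕ → Finset T) (t : T → V) (I : Finset ℕ) : Finset (T → V) :=
  univ.filter (fun F => ∀ i ∈ I, ∃ p ∈ P i, F p ≠ t p)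

theorem bad_step (P : ℕ → Finset T) (t : T → V) (I : Finset ℕ) (i : ℕ)
    (hd : ∀ j ∈ I, Disjoint (P j) (P i)) :
    (bad P t I).card ≤ (Fintype.card V) ^ (P i).card *
      ((bad P t I).filter (fun F => ∀ p ∈ P i, F p = t p)).card := by
  classical
  let B := (bad P t I).filter (fun F => ∀ p ∈ P i, F p = t p)
  let f : (T → V) → ((↥(P i) → V) × (T → V)) :=
    fun F => (fun p => F p.1, fun p => if p ∈ P i then t p else F p)
  have hmaps : ∀ F ∈ bad P t I, f F ∈ (univ : Finset (↥(P i) → V)) ×ˢ B := by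
    intro F hF
    rw [mem_product]
    refine ⟨mem_univ _, ?_⟩
    simp only [B, bad, mem_filter, mem_univ, true_and] at hF ⊢
    refine ⟨?_, ?_⟩
    · intro j hj
      obtain ⟨p, hp, hne⟩ := hF j hj
      refine ⟨p, hp, ?_⟩
      have : p ∉ P i := Finset.disjoint_left.mp (hd j hj) hp
      simp [f, this, hne]
    · intro p hp
      simp [f, hp]
  have hinj : Set.InjOn f (bad P t I : Set (T → V)) := by
    intro F _ G _ hFG
    have h1 := congrArg Prod.fst hFG
    have h2 := congrArg Prod.snd hFG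
    funext p
    by_cases hp : p ∈ P i
    · exact congrFun h1 ⟨p, hp⟩
    · have := congrFun h2 p
      simpa [f, hp] using this
  have hle := Finset.card_le_card_of_injOn f hmaps hinj
  rw [Finset.card_product] at hle
  simpa [B, Fintype.card_fun] using hle

theorem bad_insert (P : ℕ → Finset T) (t : T → V) (I : Finset ℕ) (i : ℕ)
    (hd : ∀ j ∈ I, Disjoint (P j) (P i)) (C : ℕ) (hC : (P i).card ≤ C) (hV : 0 < Fintype.card V) :
    ((bad P t (insert i I)).card : ℝ) ≤
      (1 - ((Fintype.card V : ℝ) ^ C)⁻¹) * (bad P t I).card := by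
  classical
  have hstep := bad_step P t I i hd
  set A := bad P t I with hA
  set B := A.filter (fun F => ∀ p ∈ P i, F p = t p) with hB
  have hsplit : (bad P t (insert i I)).card + B.card = A.card := by
    have h1 : bad P t (insert i I) = A.filter (fun F => ¬ ∀ p ∈ P i, F p = t p) := by
      ext F
      simp only [hA, bad, mem_filter, mem_univ, true_and, mem_insert, forall_eq_or_imp, not_forall]
      constructor
      · rintro ⟨⟨p, hp, hne⟩, h⟩
        exact ⟨h, p, hp, hne⟩
      · rintro ⟨h, p, hp, hne⟩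
        exact ⟨⟨p, hp, hne⟩, h⟩
    rw [h1, hB, add_comm]
    exact Finset.card_filter_add_card_filter_not (s := A) (fun F => ∀ p ∈ P i, F p = t p)
  have hq : (1 : ℝ) ≤ (Fintype.card V : ℝ) := by exact_mod_cast hV
  have hpow : (Fintype.card V : ℝ) ^ (P i).card ≤ (Fintype.card V : ℝ) ^ C :=
    pow_le_pow_right₀ hq hC
  have hpos : (0 : ℝ) < (Fintype.card V : ℝ) ^ C := by positivity
  have h2 : (A.card : ℝ) ≤ (Fintype.card V : ℝ) ^ C * B.card := by
    calc (A.card : ℝ) ≤ (Fintype.card V : ℝ) ^ (P i).card * B.card := by exact_mod_cast hstep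
      _ ≤ (Fintype.card V : ℝ) ^ C * B.card := by gcongr
  have h3 : ((Fintype.card V : ℝ) ^ C)⁻¹ * A.card ≤ B.card := by
    rw [inv_mul_le_iff₀ hpos]
    exact h2
  have h4 : ((bad P t (insert i I)).card : ℝ) = A.card - B.card := by
    have : ((bad P t (insert i I)).card : ℝ) + B.card = A.card := by exact_mod_cast hsplit
    linarith
  rw [h4]
  nlinarith

theorem bad_le (P : ℕ → Finset T) (t : T → V) (C : ℕ) (hV : 0 < Fintype.card V) (I : Finset ℕ)
    (hd : ∀ i ∈ I, ∀ j ∈ I, i ≠ j → Disjoint (P j) (P i)) (hC : ∀ i ∈ I, (P i).card ≤ C) :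
    ((bad P t I).card : ℝ) ≤
      (1 - ((Fintype.card V : ℝ) ^ C)⁻¹) ^ I.card * (Fintype.card (T → V) : ℝ) := by
  classical
  induction I using Finset.induction_on with
  | empty =>
    simp only [card_empty, pow_zero, one_mul]
    exact_mod_cast Finset.card_le_univ _
  | insert i I hi ih =>
    have hq : (1 : ℝ) ≤ (Fintype.card V : ℝ) := by exact_mod_cast hV
    have h1 : (0 : ℝ) ≤ 1 - ((Fintype.card V : ℝ) ^ C)⁻¹ := by
      have : ((Fintype.card V : ℝ) ^ C)⁻¹ ≤ 1 := inv_le_one_of_one_le₀ (one_le_pow₀ hq)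
      linarith
    have h2 := bad_insert P t I i (fun j hj => hd i (mem_insert_self _ _) j (mem_insert_of_mem hj)
      (fun h => hi (h ▸ hj))) C (hC i (mem_insert_self _ _)) hV
    have h3 := ih (fun a ha b hb hab => hd a (mem_insert_of_mem ha) b (mem_insert_of_mem hb) hab)
      (fun a ha => hC a (mem_insert_of_mem ha))
    rw [card_insert_of_notMem hi, pow_succ]
    calc ((bad P t (insert i I)).card : ℝ)
        ≤ (1 - ((Fintype.card V : ℝ) ^ C)⁻¹) * (bad P t I).card := h2
      _ ≤ (1 - ((Fintype.card V : ℝ) ^ C)⁻¹) *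
            ((1 - ((Fintype.card V : ℝ) ^ C)⁻¹) ^ I.card * (Fintype.card (T → V) : ℝ)) := by gcongr
      _ = _ := by ring

end Count

/-- numerical choice of the number of levels. -/
theorem exists_m (n q C : ℕ) (hq : 0 < q) :
    ∃ m : ℕ, (n : ℝ) * ((2 * m * n + 1 : ℕ) : ℝ) ^ 2 * q * q * (1 - ((q : ℝ) ^ C)⁻¹) ^ m < 1 := by
  have hq1 : (1 : ℝ) ≤ (q : ℝ) := by exact_mod_cast hq
  set r : ℝ := 1 - ((q : ℝ) ^ C)⁻¹ with hr
  have hr0 : 0 ≤ r := by
    have : ((q : ℝ) ^ C)⁻¹ ≤ 1 := inv_le_one_of_one_le₀ (one_le_pow₀ hq1)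
    linarith
  have hr1 : r < 1 := by
    have : 0 < ((q : ℝ) ^ C)⁻¹ := by positivity
    linarith
  have habs : |r| < 1 := by rw [abs_of_nonneg hr0]; exact hr1
  have t0 := tendsto_pow_const_mul_const_pow_of_abs_lt_one 0 habs
  have t1 := tendsto_pow_const_mul_const_pow_of_abs_lt_one 1 habs
  have t2 := tendsto_pow_const_mul_const_pow_of_abs_lt_one 2 habs
  have t : Filter.Tendsto (fun m : ℕ =>
      (4 * n ^ 3 * q * q : ℝ) * ((m : ℝ) ^ 2 * r ^ m) + (4 * n ^ 2 * q * q : ℝ) * ((m : ℝ) ^ 1 * r ^ m)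
        + (n * q * q : ℝ) * ((m : ℝ) ^ 0 * r ^ m)) Filter.atTop (nhds
          ((4 * n ^ 3 * q * q : ℝ) * 0 + (4 * n ^ 2 * q * q : ℝ) * 0 + (n * q * q : ℝ) * 0)) :=
    ((t2.const_mul _).add (t1.const_mul _)).add (t0.const_mul _)
  simp only [mul_zero, add_zero] at t
  have hev := t.eventually (gt_mem_nhds (show (0 : ℝ) < 1 by norm_num))
  obtain ⟨m, hm⟩ := hev.exists
  refine ⟨m, ?_⟩
  have : (n : ℝ) * ((2 * m * n + 1 : ℕ) : ℝ) ^ 2 * q * q * r ^ m =
      (4 * n ^ 3 * q * q : ℝ) * ((m : ℝ) ^ 2 * r ^ m) + (4 * n ^ 2 * q * q : ℝ) * ((m : ℝ) ^ 1 * r ^ m)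
        + (n * q * q : ℝ) * ((m : ℝ) ^ 0 * r ^ m) := by
    push_cast
    ring
  rw [this]
  exact hm

section Main

/-- the weight of an element `z` of `S` at level `i`: `(ν z, i * ν z)`. -/
noncomputable def wt (S : Type*) [Fintype S] (N : ℕ) (i : ℕ) (z : S) : ZMod N × ZMod N :=
  (((Fintype.equivFin S z : ℕ) : ZMod N), ((i * (Fintype.equivFin S z : ℕ) : ℕ) : ZMod N))

theorem int_of_zmod {N : ℕ} {a b c d : ℤ} (hN : |a - b - (c - d)| < (N : ℤ))
    (h : (a : ZMod N) - (b : ZMod N) = (c : ZMod N) - (d : ZMod N)) : a - b = c - d := by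
  have h1 : ((a - b - (c - d) : ℤ) : ZMod N) = 0 := by
    push_cast
    rw [h]
    ring
  have h2 : (N : ℤ) ∣ (a - b - (c - d)) := (ZMod.intCast_zmod_eq_zero_iff_dvd _ _).mp h1
  have := Int.eq_zero_of_abs_lt_dvd h2 hN
  linarith

theorem wt_sep (S : Type*) [Fintype S] (m : ℕ) {i j : ℕ} (hi : i < m) (hj : j < m)
    {x z x' z' : S} (hxz : x ≠ z)
    (h : wt S (2 * m * Fintype.card S + 1) i z - wt S (2 * m * Fintype.card S + 1) i x =
      wt S (2 * m * Fintype.card S + 1) j z' - wt S (2 * m * Fintype.card S + 1) j x') : i = j := by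
  classical
  set n := Fintype.card S with hn
  set N := 2 * m * n + 1 with hN
  have hm : 1 ≤ m := by omega
  obtain ⟨a, ha⟩ : ∃ a : ℕ, a = (Fintype.equivFin S z : ℕ) := ⟨_, rfl⟩
  obtain ⟨b, hb⟩ : ∃ a : ℕ, a = (Fintype.equivFin S x : ℕ) := ⟨_, rfl⟩
  obtain ⟨c, hc⟩ : ∃ a : ℕ, a = (Fintype.equivFin S z' : ℕ) := ⟨_, rfl⟩
  obtain ⟨d, hd⟩ : ∃ a : ℕ, a = (Fintype.equivFin S x' : ℕ) := ⟨_, rfl⟩
  have ha' : a < n := ha ▸ (Fintype.equivFin S z).isLt
  have hb' : b < n := hb ▸ (Fintype.equivFin S x).isLt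
  have hc' : c < n := hc ▸ (Fintype.equivFin S z').isLt
  have hd' : d < n := hd ▸ (Fintype.equivFin S x').isLt
  have hab : a ≠ b := by
    intro hab
    apply hxz
    have : (Fintype.equivFin S z) = (Fintype.equivFin S x) := by
      apply Fin.ext
      omega
    exact ((Fintype.equivFin S).injective this).symm
  have h1 : ((a : ℤ) : ZMod N) - ((b : ℤ) : ZMod N) = ((c : ℤ) : ZMod N) - ((d : ℤ) : ZMod N) := by
    have := congrArg Prod.fst h
    simpa [wt, ← ha, ← hb, ← hc, ← hd] using this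
  have h2 : (((i * a : ℕ) : ℤ) : ZMod N) - (((i * b : ℕ) : ℤ) : ZMod N) =
      (((j * c : ℕ) : ℤ) : ZMod N) - (((j * d : ℕ) : ℤ) : ZMod N) := by
    have := congrArg Prod.snd h
    simpa [wt, ← ha, ← hb, ← hc, ← hd] using this
  have hNn : (2 * n : ℤ) < N := by
    have : 2 * n < N := by
      rw [hN]
      nlinarith
    exact_mod_cast this
  have e1 : (a : ℤ) - b = c - d := by
    apply int_of_zmod _ h1
    rw [abs_lt]
    constructor <;> omega
  have e2 : ((i * a : ℕ) : ℤ) - ((i * b : ℕ) : ℤ) = ((j * c : ℕ) : ℤ) - ((j * d : ℕ) : ℤ) := by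
    apply int_of_zmod _ h2
    have k1 : i * a ≤ m * n := Nat.mul_le_mul hi.le ha'.le
    have k2 : i * b ≤ m * n := Nat.mul_le_mul hi.le hb'.le
    have k3 : j * c ≤ m * n := Nat.mul_le_mul hj.le hc'.le
    have k4 : j * d ≤ m * n := Nat.mul_le_mul hj.le hd'.le
    have k5 : N = 2 * (m * n) + 1 := by rw [hN]; ring
    rw [abs_lt]
    constructor <;> omega
  push_cast at e2
  have e3 : ((i : ℤ) - j) * ((a : ℤ) - b) = 0 := by
    have : (i : ℤ) * a - i * b = j * (c - d) := by linarith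
    rw [← e1] at this
    linarith
  rcases mul_eq_zero.mp e3 with h' | h'
  · omega
  · exfalso
    apply hab
    omega

/-- the demand points of level `i` around `w`. -/
noncomputable def pts (S : Type*) [Fintype S] [DecidableEq S] (N : ℕ) (w : ZMod N × ZMod N) (i : ℕ) :
    Finset (S × (ZMod N × ZMod N)) :=
  (univ.filter (fun a : S × S × S => a.2.1 ≠ a.2.2)).image
    (fun a => (a.1, w - wt S N i a.2.1 + wt S N i a.2.2))

theorem mem_pts {S : Type*} [Fintype S] [DecidableEq S] {N : ℕ} {w : ZMod N × ZMod N} {i : ℕ}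
    {p : S × (ZMod N × ZMod N)} :
    p ∈ pts S N w i ↔ ∃ x z : S, x ≠ z ∧ p.2 = w - wt S N i x + wt S N i z := by
  simp only [pts, mem_image, mem_filter, mem_univ, true_and, Prod.exists]
  constructor
  · rintro ⟨a, x, z, h, rfl⟩
    exact ⟨x, z, h, rfl⟩
  · rintro ⟨x, z, h, hp⟩
    exact ⟨p.1, x, z, h, by rw [← hp]⟩

theorem card_pts (S : Type*) [Fintype S] [DecidableEq S] (N : ℕ) (w : ZMod N × ZMod N) (i : ℕ) :
    (pts S N w i).card ≤ Fintype.card S * (Fintype.card S * Fintype.card S) := by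
  refine card_image_le.trans ((card_filter_le _ _).trans ?_)
  simp [Fintype.card_prod]

theorem disjoint_pts (S : Type*) [Fintype S] [DecidableEq S] (m : ℕ)
    (w : ZMod (2 * m * Fintype.card S + 1) × ZMod (2 * m * Fintype.card S + 1)) {i j : ℕ}
    (hi : i < m) (hj : j < m) (hij : i ≠ j) :
    Disjoint (pts S (2 * m * Fintype.card S + 1) w i) (pts S (2 * m * Fintype.card S + 1) w j) := by
  rw [Finset.disjoint_left]
  intro p hp hp'
  obtain ⟨x, z, h, e⟩ := mem_pts.mp hp
  obtain ⟨x', z', h', e'⟩ := mem_pts.mp hp'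
  apply hij
  apply wt_sep S m hi hj h (x' := x') (z' := z')
  rw [e] at e'
  have := congrArg (fun u => u - w) e'
  rw [show w - wt S (2 * m * Fintype.card S + 1) i x + wt S (2 * m * Fintype.card S + 1) i z - w =
    wt S (2 * m * Fintype.card S + 1) i z - wt S (2 * m * Fintype.card S + 1) i x by abel,
    show w - wt S (2 * m * Fintype.card S + 1) j x' + wt S (2 * m * Fintype.card S + 1) j z' - w =
    wt S (2 * m * Fintype.card S + 1) j z' - wt S (2 * m * Fintype.card S + 1) j x' by abel] at this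
  exact this

/-- **Random noise lemma.** -/
theorem exists_noise (S V : Type*) [Monoid S] [Fintype S] [AddCommGroup V] [Fintype V]
    (act : V → S → V) :
    ∃ (m N : ℕ) (e : ℕ → S → ZMod N × ZMod N) (F : S → ZMod N × ZMod N → V), 0 < N ∧
      ∀ (s : S) (w : ZMod N × ZMod N) (v : V), ∃ i < m, ∀ g x h : S, g * x * h = s → ∀ z : S,
        F (g * z * h) (w - e i x + e i z) + act v (g * z * h) = F s w + act v s := by
  classical
  set n := Fintype.card S with hn
  set q := Fintype.card V with hq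
  have hq0 : 0 < q := Fintype.card_pos
  obtain ⟨m, hm⟩ := exists_m n q (n * (n * n)) hq0
  set N := 2 * m * n + 1 with hN
  have : NeZero N := ⟨by omega⟩
  let tgt : S → V → V → (S × (ZMod N × ZMod N) → V) := fun s v c p => c + act v s - act v p.1
  let B : (S × (ZMod N × ZMod N) × V × V) → Finset ((S × (ZMod N × ZMod N)) → V) :=
    fun a => bad (fun i => pts S N a.2.1 i) (tgt a.1 a.2.2.1 a.2.2.2) (range m)
  have hB : ∀ a, ((B a).card : ℝ) ≤ (1 - ((q : ℝ) ^ (n * (n * n)))⁻¹) ^ m *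
      (Fintype.card ((S × (ZMod N × ZMod N)) → V) : ℝ) := by
    intro a
    have := bad_le (fun i => pts S N a.2.1 i) (tgt a.1 a.2.2.1 a.2.2.2) (n * (n * n)) hq0 (range m)
      (fun i hi j hj hij => disjoint_pts S m a.2.1 (mem_range.mp hj) (mem_range.mp hi) (Ne.symm hij))
      (fun i _ => card_pts S N a.2.1 i)
    simpa using this
  have hex : ∃ F : (S × (ZMod N × ZMod N)) → V, ∀ a, F ∉ B a := by
    by_contra hcon
    push Not at hcon
    have hsub : (univ : Finset ((S × (ZMod N × ZMod N)) → V)) ⊆ (univ : Finset (S × (ZMod N × ZMod N) × V × V)).biUnion B := by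
      intro F _
      obtain ⟨a, ha⟩ := hcon F
      exact mem_biUnion.mpr ⟨a, mem_univ _, ha⟩
    have hc1 := (card_le_card hsub).trans card_biUnion_le
    have hc2 : (Fintype.card ((S × (ZMod N × ZMod N)) → V) : ℝ) ≤
        ∑ a : (S × (ZMod N × ZMod N) × V × V), ((B a).card : ℝ) := by
      have : Fintype.card ((S × (ZMod N × ZMod N)) → V) ≤ ∑ a : (S × (ZMod N × ZMod N) × V × V), (B a).card := by
        simpa [Finset.card_univ] using hc1
      exact_mod_cast this
    have hc3 : ∑ a : (S × (ZMod N × ZMod N) × V × V), ((B a).card : ℝ) ≤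
        ∑ _a : (S × (ZMod N × ZMod N) × V × V), (1 - ((q : ℝ) ^ (n * (n * n)))⁻¹) ^ m *
      (Fintype.card ((S × (ZMod N × ZMod N)) → V) : ℝ) := Finset.sum_le_sum (fun a _ => hB a)
    rw [Finset.sum_const, nsmul_eq_mul] at hc3
    have hcard : ((univ : Finset (S × (ZMod N × ZMod N) × V × V)).card : ℝ) = (n : ℝ) * ((2 * m * n + 1 : ℕ) : ℝ) ^ 2 * q * q := by
      rw [Finset.card_univ, Fintype.card_prod, Fintype.card_prod, Fintype.card_prod, Fintype.card_prod,
        ZMod.card]
      push_cast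
      simp only [← hn, ← hq, hN]
      push_cast
      ring
    rw [hcard] at hc3
    have hpos : (0 : ℝ) < (Fintype.card ((S × (ZMod N × ZMod N)) → V) : ℝ) := by
      exact_mod_cast Fintype.card_pos
    have : (Fintype.card ((S × (ZMod N × ZMod N)) → V) : ℝ) < (Fintype.card ((S × (ZMod N × ZMod N)) → V) : ℝ) := by
      calc (Fintype.card ((S × (ZMod N × ZMod N)) → V) : ℝ)
          ≤ ((n : ℝ) * ((2 * m * n + 1 : ℕ) : ℝ) ^ 2 * q * q * (1 - ((q : ℝ) ^ (n * (n * n)))⁻¹) ^ m) *
              (Fintype.card ((S × (ZMod N × ZMod N)) → V) : ℝ) := by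
            refine hc2.trans (hc3.trans (le_of_eq ?_))
            ring
        _ < 1 * (Fintype.card ((S × (ZMod N × ZMod N)) → V) : ℝ) :=
            mul_lt_mul_of_pos_right hm hpos
        _ = _ := one_mul _
    exact lt_irrefl _ this
  obtain ⟨F, hF⟩ := hex
  refine ⟨m, N, wt S N, fun s w => F (s, w), by omega, ?_⟩
  intro s w v
  have h1 := hF (s, w, v, F (s, w))
  simp only [B, bad, mem_filter, mem_univ, true_and, mem_range, not_forall, not_exists, not_and,
    not_not] at h1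
  obtain ⟨i, hi, h2⟩ := h1
  refine ⟨i, hi, ?_⟩
  intro g x h hs z
  by_cases hxz : x = z
  · subst hxz
    rw [hs]
    simp
  · have h3 := h2 (g * z * h, w - wt S N i x + wt S N i z) (mem_pts.mpr ⟨x, z, hxz, rfl⟩)
    show F (g * z * h, w - wt S N i x + wt S N i z) + act v (g * z * h) = F (s, w) + act v s
    rw [h3]
    simp only [tgt]
    abel

end Main

end Crest.Agent.R320.RandF808
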