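import Mathlib
import Crest.Agent.R320.RandF_808

/-!
Row 320: the exact gadget (237 #12538) in ruler form: both clocks exact, arbitrary block
boundaries, arbitrary assignment `place ↦ (level, context)`.
-/

set_option autoImplicit false

namespace Crest.Agent.R320.Exact808

open Finset Crest.Agent.R320.RandF808

/-- uniform version of `exists_noise`: the parameters do not depend on the action. -/
theorem exists_noise_unif (S V : Type*) [Monoid S] [Fintype S] [AddCommGroup V] [Fintype V] :
    ∃ (m N : ℕ) (e : ℕ → S → ZMod N × ZMod N), 0 < N ∧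
      ∀ act : V → S → V, ∃ F : S → ZMod N × ZMod N → V,
      ∀ (s : S) (w : ZMod N × ZMod N) (v : V), ∃ i < m, ∀ g x h : S, g * x * h = s → ∀ z : S,
        F (g * z * h) (w - e i x + e i z) + act v (g * z * h) = F s w + act v s := by
  classical
  set n := Fintype.card S with hn
  set q := Fintype.card V with hq
  have hq0 : 0 < q := Fintype.card_pos
  obtain ⟨m, hm⟩ := exists_m n q (n * (n * n)) hq0
  set N := 2 * m * n + 1 with hN
  have : NeZero N := ⟨by omega⟩
  refine ⟨m, N, wt S N, by omega, ?_⟩
  intro act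
  let tgt : S → V → V → (S × (ZMod N × ZMod N) → V) := fun s v c p => c + act v s - act v p.1
  let B : (S × (ZMod N × ZMod N) × V × V) → Finset ((S × (ZMod N × ZMod N)) → V) :=
    fun a => bad (fun i => pts S N a.2.1 i) (tgt a.1 a.2.2.1 a.2.2.2) (range m)
  have hB : ∀ a, ((B a).card : ℝ) ≤ (1 - ((q : ℝ) ^ (n * (n * n)))⁻¹) ^ m *
      (Fintype.card ((S × (ZMod N × ZMod N)) → V) : ℝ) := by
    intro a
    have := bad_le (fun i => pts S N a.2.1 i) (tgt a.1 a.2.2.1 a.2.2.2) (n * (n * n)) hq0 (range m)
      (fun i hi j hj hij => disjoint_pts S m a.2.1 (mem_range.mp hj) (mem_range.mp hi) (Ne.symm hij))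
      (fun i _ => card_pts S N a.2.1 i)
    simpa using this
  have hex : ∃ F : (S × (ZMod N × ZMod N)) → V, ∀ a, F ∉ B a := by
    by_contra hcon
    push Not at hcon
    have hsub : (univ : Finset ((S × (ZMod N × ZMod N)) → V)) ⊆ (univ : Finset (S × (ZMod N × ZMod N) × V × V)).biUnion B := by
      intro F _
      obtain ⟨a, ha⟩ := hcon F
      exact mem_biUnion.mpr ⟨a, mem_univ _, ha⟩
    have hc1 := (card_le_card hsub).trans card_biUnion_le
    have hc2 : (Fintype.card ((S × (ZMod N × ZMod N)) → V) : ℝ) ≤
        ∑ a : (S × (ZMod N × ZMod N) × V × V), ((B a).card : ℝ) := by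
      have : Fintype.card ((S × (ZMod N × ZMod N)) → V) ≤ ∑ a : (S × (ZMod N × ZMod N) × V × V), (B a).card := by
        simpa [Finset.card_univ] using hc1
      exact_mod_cast this
    have hc3 : ∑ a : (S × (ZMod N × ZMod N) × V × V), ((B a).card : ℝ) ≤
        ∑ _a : (S × (ZMod N × ZMod N) × V × V), (1 - ((q : ℝ) ^ (n * (n * n)))⁻¹) ^ m *
      (Fintype.card ((S × (ZMod N × ZMod N)) → V) : ℝ) := Finset.sum_le_sum (fun a _ => hB a)
    rw [Finset.sum_const, nsmul_eq_mul] at hc3
    have hcard : ((univ : Finset (S × (ZMod N × ZMod N) × V × V)).card : ℝ) = (n : ℝ) * ((2 * m * n + 1 : ℕ) : ℝ) ^ 2 * q * q := by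
      rw [Finset.card_univ, Fintype.card_prod, Fintype.card_prod, Fintype.card_prod, Fintype.card_prod,
        ZMod.card]
      push_cast
      simp only [← hn, ← hq, hN]
      push_cast
      ring
    rw [hcard] at hc3
    have hpos : (0 : ℝ) < (Fintype.card ((S × (ZMod N × ZMod N)) → V) : ℝ) := by
      exact_mod_cast Fintype.card_pos
    have : (Fintype.card ((S × (ZMod N × ZMod N)) → V) : ℝ) < (Fintype.card ((S × (ZMod N × ZMod N)) → V) : ℝ) := by
      calc (Fintype.card ((S × (ZMod N × ZMod N)) → V) : ℝ)
          ≤ ((n : ℝ) * ((2 * m * n + 1 : ℕ) : ℝ) ^ 2 * q * q * (1 - ((q : ℝ) ^ (n * (n * n)))⁻¹) ^ m) *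
              (Fintype.card ((S × (ZMod N × ZMod N)) → V) : ℝ) := by
            refine hc2.trans (hc3.trans (le_of_eq ?_))
            ring
        _ < 1 * (Fintype.card ((S × (ZMod N × ZMod N)) → V) : ℝ) :=
            mul_lt_mul_of_pos_right hm hpos
        _ = _ := one_mul _
    exact lt_irrefl _ this
  obtain ⟨F, hF⟩ := hex
  refine ⟨fun s w => F (s, w), ?_⟩
  intro s w v
  have h1 := hF (s, w, v, F (s, w))
  simp only [B, bad, mem_filter, mem_univ, true_and, mem_range, not_forall, not_exists, not_and,
    not_not] at h1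
  obtain ⟨i, hi, h2⟩ := h1
  refine ⟨i, hi, ?_⟩
  intro g x h hs z
  by_cases hxz : x = z
  · subst hxz
    rw [hs]
    simp
  · have h3 := h2 (g * z * h, w - wt S N i x + wt S N i z) (mem_pts.mpr ⟨x, z, hxz, rfl⟩)
    show F (g * z * h, w - wt S N i x + wt S N i z) + act v (g * z * h) = F (s, w) + act v s
    rw [h3]
    simp only [tgt]
    abel

/-- block `j` of a text whose first letter sits at place `x`, boundaries `B`. -/
def blk {α : Type*} (B : ℕ → ℕ) (x : ℕ) (u : List α) (j : ℕ) : List α :=
  (u.drop (B j - x)).take (B (j + 1) - B j)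

theorem blk_take {α : Type*} (B : ℕ → ℕ) (hB : Monotone B) (u : List α) {x i j : ℕ}
    (hj : j < i) (hx : B i ≤ x) : blk B 0 (u.take x) j = blk B 0 u j := by
  have h1 : B (j + 1) ≤ B i := hB hj
  have h2 : B j ≤ B (j + 1) := hB (Nat.le_succ j)
  simp only [blk, Nat.sub_zero]
  rw [List.drop_take, List.take_take, Nat.min_eq_left (by omega)]

theorem blk_drop {α : Type*} (B : ℕ → ℕ) (hB : Monotone B) (u : List α) {x i j : ℕ}
    (hj : i < j) (hx : x ≤ B (i + 1)) : blk B x (u.drop x) j = blk B 0 u j := by
  have h1 : B (i + 1) ≤ B j := hB hj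
  simp only [blk, Nat.sub_zero]
  rw [List.drop_drop, show x + (B j - x) = B j by omega]

theorem split3 {α : Type*} (B : ℕ → ℕ) (hB : Monotone B) (u : List α) (i : ℕ) :
    u = u.take (B i) ++ (blk B 0 u i ++ u.drop (B (i + 1))) := by
  have h2 : B i ≤ B (i + 1) := hB (Nat.le_succ i)
  simp only [blk, Nat.sub_zero]
  conv_lhs => rw [← List.take_append_drop (B i) u]
  congr 1
  conv_lhs => rw [← List.take_append_drop (B (i + 1) - B i) (u.drop (B i))]
  rw [List.drop_drop, show B i + (B (i + 1) - B i) = B (i + 1) by omega]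

theorem sum_split {W : Type*} [AddCommGroup W] (f : ℕ → W) {i m : ℕ} (hi : i < m) :
    ∑ j ∈ range m, f j = ∑ j ∈ range i, f j + f i + ∑ j ∈ Ico (i + 1) m, f j := by
  rw [← Finset.sum_range_succ, Finset.sum_range_add_sum_Ico _ (by omega)]

/-- **The exact gadget in ruler form.** -/
theorem exact_gadget (S V : Type*) [Monoid S] [Finite S] [AddCommGroup V] [Finite V] :
    ∃ m k : ℕ, ∀ (α : Type*) (φ : List α → S), (∀ u v, φ (u ++ v) = φ u * φ v) →
      ∀ (B : ℕ → ℕ) (ctx : ℕ → Option (ℕ × Fin k)), Monotone B → B 0 = 0 →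
      (∀ x i c, ctx x = some (i, c) → i < m ∧ B i ≤ x ∧ x ≤ B (i + 1)) →
      ∃ lam : List α → Option V, ∀ act : V → S → V, ∃ (rho : List α → Option V) (nu : List α → V),
        (∀ (p q : List α) (v b : V), p.length + q.length = B m → lam p = some v → rho q = some b →
          b = act v (φ (p ++ q)) + nu (p ++ q)) ∧
        (∀ (u : List α) (v : V), u.length = B m → ∃ i < m, ∃ c : Fin k, ∀ x, ctx x = some (i, c) →
          lam (u.take x) = some v ∧ (rho (u.drop x)).isSome = true) := by
  classical
  have := Fintype.ofFinite S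
  have := Fintype.ofFinite V
  obtain ⟨m, N, e, hN, hF⟩ := exists_noise_unif S V
  have : NeZero N := ⟨by omega⟩
  let W := ZMod N × ZMod N
  let K := (S × W) × (S × W) × V
  let E : K ≃ Fin (Fintype.card K) := Fintype.equivFin K
  refine ⟨m, Fintype.card K, ?_⟩
  intro α φ hφ B ctx hB hB0 hctx
  -- weights
  let wl : List α → ℕ → W := fun p i => ∑ j ∈ range i, e j (φ (blk B 0 p j))
  let wr : ℕ → List α → ℕ → W := fun x q i => ∑ j ∈ Ico (i + 1) m, e j (φ (blk B x q j))
  let wt' : List α → W := fun u => ∑ j ∈ range m, e j (φ (blk B 0 u j))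
  let lam : List α → Option V := fun p =>
    match ctx p.length with
    | none => none
    | some ic => if (E.symm ic.2).1 = (φ (p.take (B ic.1)), wl p ic.1) then
        some (E.symm ic.2).2.2 else none
  refine ⟨lam, ?_⟩
  intro act
  obtain ⟨F, hF⟩ := hF act
  let val : ℕ → K → S → V := fun i c z =>
    F (c.1.1 * z * c.2.1.1) (c.1.2 + e i z + c.2.1.2) + act c.2.2 (c.1.1 * z * c.2.1.1)
  let rho : List α → Option V := fun q =>
    match ctx (B m - q.length) with
    | none => none
    | some ic => if (E.symm ic.2).2.1 =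
          (φ (q.drop (B (ic.1 + 1) - (B m - q.length))), wr (B m - q.length) q ic.1) ∧
          (∀ z z', val ic.1 (E.symm ic.2) z = val ic.1 (E.symm ic.2) z') then
        some (val ic.1 (E.symm ic.2) 1) else none
  refine ⟨rho, fun u : List α => F (φ u) (wt' u), ?_, ?_⟩
  · intro p q v b hlen hl hr
    have hx : B m - q.length = p.length := by omega
    cases hc : ctx p.length with
    | none => simp [lam, hc] at hl
    | some ic =>
      obtain ⟨i, c⟩ := ic
      obtain ⟨him, hi1, hi2⟩ := hctx _ _ _ hc
      simp only [lam, hc] at hl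
      simp only [rho, hx, hc] at hr
      split_ifs at hl with hl'
      split_ifs at hr with hr'
      obtain ⟨hr1, hr2⟩ := hr'
      have hv : (E.symm c).2.2 = v := by simpa using hl
      have hb : val i (E.symm c) 1 = b := by simpa using hr
      set u := p ++ q with hu
      have hpu : u.take p.length = p := by simp [hu]
      have hqu : u.drop p.length = q := by simp [hu]
      have hs : φ u = φ (u.take (B i)) * φ (blk B 0 u i) * φ (u.drop (B (i + 1))) := by
        conv_lhs => rw [split3 B hB u i]
        rw [hφ, hφ, mul_assoc]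
      have e1 : p.take (B i) = u.take (B i) := by
        rw [← hpu, List.take_take, Nat.min_eq_left hi1]
      have e2 : q.drop (B (i + 1) - p.length) = u.drop (B (i + 1)) := by
        rw [← hqu, List.drop_drop, show p.length + (B (i + 1) - p.length) = B (i + 1) by omega]
      have e3 : wl p i = wl u i := by
        simp only [wl]
        refine Finset.sum_congr rfl (fun j hj => ?_)
        rw [← hpu, blk_take B hB u (mem_range.mp hj) hi1]
      have e4 : wr p.length q i = wr 0 u i := by
        simp only [wr]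
        refine Finset.sum_congr rfl (fun j hj => ?_)
        rw [← hqu, blk_drop B hB u (Nat.lt_of_succ_le (mem_Ico.mp hj).1) hi2]
      have e5 : wt' u = wl u i + e i (φ (blk B 0 u i)) + wr 0 u i := sum_split _ him
      rw [e1, e3] at hl'
      rw [e2, e4] at hr1
      rw [← hb, hr2 1 (φ (blk B 0 u i))]
      simp only [val]
      rw [hl', hr1, hv]
      simp only
      rw [← hs, ← e5, add_comm]
  · intro u v hlen
    obtain ⟨i, him, hi⟩ := hF (φ u) (wt' u) v
    let c : K := ((φ (u.take (B i)), wl u i), (φ (u.drop (B (i + 1))), wr 0 u i), v)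
    refine ⟨i, him, E c, ?_⟩
    intro x hx
    obtain ⟨_, hi1, hi2⟩ := hctx _ _ _ hx
    have hle : B (i + 1) ≤ B m := hB him
    have hxl : (u.take x).length = x := by simp; omega
    have hxr : B m - (u.drop x).length = x := by simp; omega
    have hs : φ u = φ (u.take (B i)) * φ (blk B 0 u i) * φ (u.drop (B (i + 1))) := by
      conv_lhs => rw [split3 B hB u i]
      rw [hφ, hφ, mul_assoc]
    have e5 : wt' u = wl u i + e i (φ (blk B 0 u i)) + wr 0 u i := sum_split _ him
    have e1 : (u.take x).take (B i) = u.take (B i) := by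
      rw [List.take_take, Nat.min_eq_left hi1]
    have e2 : (u.drop x).drop (B (i + 1) - x) = u.drop (B (i + 1)) := by
      rw [List.drop_drop, show x + (B (i + 1) - x) = B (i + 1) by omega]
    have e3 : wl (u.take x) i = wl u i := by
      simp only [wl]
      refine Finset.sum_congr rfl (fun j hj => ?_)
      rw [blk_take B hB u (mem_range.mp hj) hi1]
    have e4 : wr x (u.drop x) i = wr 0 u i := by
      simp only [wr]
      refine Finset.sum_congr rfl (fun j hj => ?_)
      rw [blk_drop B hB u (Nat.lt_of_succ_le (mem_Ico.mp hj).1) hi2]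
    refine ⟨?_, ?_⟩
    · simp only [lam, hxl, hx, Equiv.symm_apply_apply]
      rw [e1, e3]
      simp [c]
    · simp only [rho, hxr, hx, Equiv.symm_apply_apply]
      rw [e2, e4, if_pos]
      · rfl
      · refine ⟨rfl, ?_⟩
        have key : ∀ z, val i c z = F (φ u) (wt' u) + act v (φ u) := by
          intro z
          have := hi (φ (u.take (B i))) (φ (blk B 0 u i)) (φ (u.drop (B (i + 1)))) hs.symm z
          simp only [val, c]
          rw [← this, e5]
          congr 2
          abel
        intro z z'
        rw [key, key]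

end Crest.Agent.R320.Exact808
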