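import Mathlib

set_option autoImplicit false

/-!
Row 320, names lemma (755 #12640 (A)(B), 811 #12631 (2), 942 #12598 (1)).
K names with colours in a finite type; pairwise coprime primes > B, product M; left and right name
functions of two clocks t, t' (M-periodic).  T = t + t'.
-/

namespace Crest.Agent.R320.Names755

open Classical

section
variable {N C : Type} (q q' : N → ℕ) (m : C → ℕ) (ty : N → C → Bool) (ep : N → C → Bool)

/-- half sets of residues -/
def Half (b : Bool) (m r : ℕ) : Prop := r % m ≠ 0 ∧ (b = true ↔ 2 * (r % m) < m)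

def LS (n : N) (t : ℕ) : Prop :=
  (q n ∣ t ∧ ¬ q' n ∣ t) ∧ (∀ l, l ≠ n → ¬ q l ∣ t ∧ q' l ∣ t) ∧
  ∀ j, (ty n j = false → m j ∣ t) ∧ (ty n j = true → Half (ep n j) (m j) t)

def RS (n : N) (t : ℕ) : Prop :=
  (¬ q n ∣ t ∧ q' n ∣ t) ∧ (∀ l, l ≠ n → q l ∣ t ∧ ¬ q' l ∣ t) ∧
  ∀ j, (ty n j = false → Half (ep n j) (m j) t) ∧ (ty n j = true → m j ∣ t)

variable {q q' m ty ep}

theorem LS.uniq {n n' : N} {t : ℕ} (h : LS q q' m ty ep n t) (h' : LS q q' m ty ep n' t) : n = n' := by
  by_contra hne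
  exact (h'.2.1 n hne).1 h.1.1

theorem RS.uniq {n n' : N} {t : ℕ} (h : RS q q' m ty ep n t) (h' : RS q q' m ty ep n' t) : n = n' := by
  by_contra hne
  exact h.1.1 (h'.2.1 n hne).1

theorem same_good {n : N} {t t' : ℕ} (h : LS q q' m ty ep n t) (h' : RS q q' m ty ep n t') :
    (∀ l, ¬ q l ∣ t + t' ∧ ¬ q' l ∣ t + t') ∧ ∀ j, ¬ m j ∣ t + t' := by
  refine ⟨fun l => ?_, fun j hj => ?_⟩
  · by_cases hl : l = n
    · subst hl
      exact ⟨fun hd => h'.1.1 ((Nat.dvd_add_right h.1.1).1 hd),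
        fun hd => h.1.2 ((Nat.dvd_add_left h'.1.2).1 hd)⟩
    · exact ⟨fun hd => (h.2.1 l hl).1 ((Nat.dvd_add_left (h'.2.1 l hl).1).1 hd),
        fun hd => (h'.2.1 l hl).2 ((Nat.dvd_add_right (h.2.1 l hl).2).1 hd)⟩
  · cases hty : ty n j with
    | false =>
      have h1 := (h.2.2 j).1 hty
      have h2 := (h'.2.2 j).1 hty
      exact h2.1 (Nat.mod_eq_zero_of_dvd ((Nat.dvd_add_right h1).1 hj))
    | true =>
      have h1 := (h.2.2 j).2 hty
      have h2 := (h'.2.2 j).2 hty
      exact h1.1 (Nat.mod_eq_zero_of_dvd ((Nat.dvd_add_left h2).1 hj))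

theorem diff_dvd {n n' : N} {t t' : ℕ} (h : LS q q' m ty ep n t) (h' : RS q q' m ty ep n' t')
    (hne : n ≠ n') : q n ∣ t + t' ∧ q' n' ∣ t + t' ∧
      ∀ l, l ≠ n → l ≠ n' → ¬ q l ∣ t + t' ∧ ¬ q' l ∣ t + t' := by
  refine ⟨Nat.dvd_add h.1.1 (h'.2.1 n hne).1, Nat.dvd_add (h.2.1 n' (Ne.symm hne)).2 h'.1.2, ?_⟩
  intro l h1 h2
  exact ⟨fun hd => (h.2.1 l h1).1 ((Nat.dvd_add_left (h'.2.1 l h2).1).1 hd),
    fun hd => (h'.2.1 l h2).2 ((Nat.dvd_add_right (h.2.1 l h1).2).1 hd)⟩

theorem half_add_left {b : Bool} {m r s : ℕ} (hr : m ∣ r) : Half b m (r + s) ↔ Half b m s := by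
  unfold Half
  have : (r + s) % m = s % m := by
    rw [Nat.add_mod, Nat.mod_eq_zero_of_dvd hr, zero_add, Nat.mod_mod]
  rw [this]

theorem half_add_right {b : Bool} {m r s : ℕ} (hs : m ∣ s) : Half b m (r + s) ↔ Half b m r := by
  rw [add_comm]; exact half_add_left hs

theorem half_unique {b b' : Bool} {m r : ℕ} (h : Half b m r) (h' : Half b' m r) : b = b' := by
  have := h.2.trans h'.2.symm
  cases b <;> cases b' <;> simp_all

theorem half_sum {b : Bool} {m r s : ℕ} (hodd : m % 2 = 1) (h : Half b m r) (h' : Half b m s) :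
    ¬ m ∣ r + s := by
  intro hd
  have hm : 0 < m := by omega
  have h1 := Nat.mod_lt r hm
  have h2 := Nat.mod_lt s hm
  have h3 : (r % m + s % m) % m = 0 := by
    rw [← Nat.add_mod]; exact Nat.mod_eq_zero_of_dvd hd
  obtain ⟨hr0, hr⟩ := h
  obtain ⟨hs0, hs⟩ := h'
  have h4 : r % m + s % m = m ∨ r % m + s % m = 0 := by
    by_cases hlt : r % m + s % m < m
    · rw [Nat.mod_eq_of_lt hlt] at h3; exact Or.inr h3
    · have h5 : (r % m + s % m) % m = (r % m + s % m - m) % m := by
        rw [Nat.mod_eq_sub_mod (not_lt.1 hlt)]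
      have h6 : r % m + s % m - m < m := by omega
      rw [h5, Nat.mod_eq_of_lt h6] at h3
      left; omega
  cases b with
  | true =>
    have a1 := hr.1 rfl
    have a2 := hs.1 rfl
    omega
  | false =>
    have a1 : ¬ 2 * (r % m) < m := fun hh => by have := hr.2 hh; simp at this
    have a2 : ¬ 2 * (s % m) < m := fun hh => by have := hs.2 hh; simp at this
    omega

/-- the swap `(n|n')`, `(n'|n)` at the same total forces equal types/eps coincidences to fail -/
theorem swap_imp {n n' : N} {t1 t1' t2 t2' : ℕ} (hodd : ∀ j, m j % 2 = 1)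
    (h1 : LS q q' m ty ep n t1) (h1' : RS q q' m ty ep n' t1')
    (h2 : LS q q' m ty ep n' t2) (h2' : RS q q' m ty ep n t2') (hT : t1 + t1' = t2 + t2') (j : C) :
    (ty n j = ty n' j ↔ ep n j = ep n' j) := by
  constructor
  · intro hty
    cases hc : ty n j with
    | false =>
      have hc' : ty n' j = false := by rw [← hty]; exact hc
      have a1 := (h1.2.2 j).1 hc
      have a2 := (h1'.2.2 j).1 hc'
      have b1 := (h2.2.2 j).1 hc'
      have b2 := (h2'.2.2 j).1 hc
      have A := (half_add_left (s := t1') a1).2 a2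
      have B := (half_add_left (s := t2') b1).2 b2
      rw [hT] at A
      exact (half_unique A B).symm
    | true =>
      have hc' : ty n' j = true := by rw [← hty]; exact hc
      have a1 := (h1.2.2 j).2 hc
      have a2 := (h1'.2.2 j).2 hc'
      have b1 := (h2.2.2 j).2 hc'
      have b2 := (h2'.2.2 j).2 hc
      have A := (half_add_right (r := t1) a2).2 a1
      have B := (half_add_right (r := t2) b2).2 b1
      rw [hT] at A
      exact half_unique A B
  · intro hep
    by_contra hty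
    cases hc : ty n j with
    | false =>
      have hc' : ty n' j = true := by
        cases h : ty n' j with
        | true => rfl
        | false => exact absurd (hc.trans h.symm) hty
      have a1 := (h1.2.2 j).1 hc
      have a2 := (h1'.2.2 j).2 hc'
      have b1 := (h2.2.2 j).2 hc'
      have b2 := (h2'.2.2 j).1 hc
      rw [← hep] at b1
      exact half_sum (hodd j) b1 b2 (hT ▸ Nat.dvd_add a1 a2)
    | true =>
      have hc' : ty n' j = false := by
        cases h : ty n' j with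
        | false => rfl
        | true => exact absurd (hc.trans h.symm) hty
      have a1 := (h1.2.2 j).2 hc
      have a2 := (h1'.2.2 j).1 hc'
      have b1 := (h2.2.2 j).1 hc'
      have b2 := (h2'.2.2 j).2 hc
      rw [← hep] at a2
      exact half_sum (hodd j) a1 a2 (hT ▸ Nat.dvd_add b1 b2)

end

/-- NAMES LEAF (row 320, chain 132 #12664 + 811 #12631 (2) + 755 #12640 (A)(B)). -/
theorem names (N C : Type) [Finite N] [Finite C] (col : N → C) :
    ∃ r : ℕ, ∀ B : ℕ, ∃ (Ms : Finset ℕ) (M : ℕ) (nmL nmR : ℕ → Option N),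
      Ms.card ≤ r ∧ (∀ k ∈ Ms, B < k ∧ Nat.Prime k ∧ k ∣ M) ∧ 0 < M ∧
      (∀ t, nmL (t + M) = nmL t) ∧ (∀ t, nmR (t + M) = nmR t) ∧
      (∀ t t' c c', nmL t = some c → nmR t' = some c' → (∀ k ∈ Ms, ¬ k ∣ t + t') → c = c') ∧
      (∀ T, (∀ k ∈ Ms, ¬ k ∣ T) → ∀ c, ∃ t < M, nmL t = some c ∧
        ∀ t', t + t' ≡ T [MOD M] → nmR t' = some c) ∧
      (∀ t₁ t₁' t₂ t₂' c₁ c₁' c₂ c₂', nmL t₁ = some c₁ → nmR t₁' = some c₁' →
        nmL t₂ = some c₂ → nmR t₂' = some c₂' → t₁ + t₁' = t₂ + t₂' →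
        (∃ k ∈ Ms, k ∣ t₁ + t₁') → col c₁ = col c₂ ∧ col c₁' = col c₂') := by
  classical
  haveI := Fintype.ofFinite N
  haveI := Fintype.ofFinite C
  let I := N × (C → Bool)
  let ι := (I ⊕ I) ⊕ C
  let e : ι ≃ Fin (Fintype.card ι) := Fintype.equivFin ι
  refine ⟨Fintype.card ι, fun B => ?_⟩
  let p : ι → ℕ := fun i => Nat.nth Nat.Prime (B + 3 + (e i : ℕ))
  have hpp : ∀ i, Nat.Prime (p i) := fun i => Nat.prime_nth_prime _
  have hsm : StrictMono (Nat.nth Nat.Prime) := Nat.nth_strictMono Nat.infinite_setOfPred_prime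
  have hpB : ∀ i, B + 3 ≤ p i := fun i =>
    le_trans (by omega : B + 3 ≤ B + 3 + (e i : ℕ)) (hsm.id_le _)
  have hpinj : Function.Injective p := by
    intro i j hij
    have h1 := hsm.injective hij
    have h2 : (e i : ℕ) = (e j : ℕ) := by omega
    exact e.injective (Fin.ext h2)
  let Ms : Finset ℕ := Finset.univ.image p
  let M : ℕ := ∏ i, p i
  have hdM : ∀ i, p i ∣ M := fun i => Finset.dvd_prod_of_mem p (Finset.mem_univ i)
  have hM : 0 < M := Finset.prod_pos fun i _ => (hpp i).pos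
  let q : I → ℕ := fun n => p (Sum.inl (Sum.inl n))
  let q' : I → ℕ := fun n => p (Sum.inl (Sum.inr n))
  let m : C → ℕ := fun j => p (Sum.inr j)
  let ep : I → C → Bool := fun n j => n.2 j
  let ty : I → C → Bool := fun n j => xor (decide (col n.1 = j)) (n.2 j)
  have hodd : ∀ j, m j % 2 = 1 := by
    intro j
    rcases (hpp (Sum.inr j)).eq_two_or_odd with h | h
    · have := hpB (Sum.inr j); omega
    · exact h
  -- periodicity of the relations
  have hper : ∀ (i : ι) (t : ℕ), p i ∣ t + M ↔ p i ∣ t := fun i t => (Nat.dvd_add_left (hdM i))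
  have hperH : ∀ (b : Bool) (i : ι) (t : ℕ), Half b (p i) (t + M) ↔ Half b (p i) t :=
    fun b i t => half_add_right (hdM i)
  have hLper : ∀ n t, LS q q' m ty ep n (t + M) ↔ LS q q' m ty ep n t := by
    intro n t
    simp only [LS, q, q', m, hper, hperH]
  have hRper : ∀ n t, RS q q' m ty ep n (t + M) ↔ RS q q' m ty ep n t := by
    intro n t
    simp only [RS, q, q', m, hper, hperH]
  let nmL : ℕ → Option N := fun t =>
    if h : ∃ n, LS q q' m ty ep n t then some (Classical.choose h).1 else none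
  let nmR : ℕ → Option N := fun t =>
    if h : ∃ n, RS q q' m ty ep n t then some (Classical.choose h).1 else none
  have hL1 : ∀ t c, nmL t = some c → ∃ n, LS q q' m ty ep n t ∧ n.1 = c := by
    intro t c h
    by_cases hh : ∃ n, LS q q' m ty ep n t
    · have : nmL t = some (Classical.choose hh).1 := dif_pos hh
      rw [this] at h
      exact ⟨_, Classical.choose_spec hh, Option.some.inj h⟩
    · have : nmL t = none := dif_neg hh
      rw [this] at h; cases h
  have hR1 : ∀ t c, nmR t = some c → ∃ n, RS q q' m ty ep n t ∧ n.1 = c := by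
    intro t c h
    by_cases hh : ∃ n, RS q q' m ty ep n t
    · have : nmR t = some (Classical.choose hh).1 := dif_pos hh
      rw [this] at h
      exact ⟨_, Classical.choose_spec hh, Option.some.inj h⟩
    · have : nmR t = none := dif_neg hh
      rw [this] at h; cases h
  have hL2 : ∀ t n, LS q q' m ty ep n t → nmL t = some n.1 := by
    intro t n h
    have hh : ∃ n, LS q q' m ty ep n t := ⟨n, h⟩
    have h1 : nmL t = some (Classical.choose hh).1 := dif_pos hh
    rw [h1, (Classical.choose_spec hh).uniq h]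
  have hR2 : ∀ t n, RS q q' m ty ep n t → nmR t = some n.1 := by
    intro t n h
    have hh : ∃ n, RS q q' m ty ep n t := ⟨n, h⟩
    have h1 : nmR t = some (Classical.choose hh).1 := dif_pos hh
    rw [h1, (Classical.choose_spec hh).uniq h]
  have hmem : ∀ i, p i ∈ Ms := fun i => Finset.mem_image_of_mem p (Finset.mem_univ i)
  refine ⟨Ms, M, nmL, nmR, ?_, ?_, hM, ?_, ?_, ?_, ?_, ?_⟩
  · exact le_trans Finset.card_image_le (le_of_eq (Finset.card_univ))
  · intro k hk
    obtain ⟨i, -, rfl⟩ := Finset.mem_image.1 hk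
    exact ⟨by have := hpB i; omega, hpp i, hdM i⟩
  · intro t
    by_cases hh : ∃ n, LS q q' m ty ep n t
    · obtain ⟨n, hn⟩ := hh
      rw [hL2 t n hn, hL2 (t + M) n ((hLper n t).2 hn)]
    · have hh' : ¬ ∃ n, LS q q' m ty ep n (t + M) := fun ⟨n, hn⟩ => hh ⟨n, (hLper n t).1 hn⟩
      have h1 : nmL t = none := dif_neg hh
      have h2 : nmL (t + M) = none := dif_neg hh'
      rw [h1, h2]
  · intro t
    by_cases hh : ∃ n, RS q q' m ty ep n t
    · obtain ⟨n, hn⟩ := hh
      rw [hR2 t n hn, hR2 (t + M) n ((hRper n t).2 hn)]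
    · have hh' : ¬ ∃ n, RS q q' m ty ep n (t + M) := fun ⟨n, hn⟩ => hh ⟨n, (hRper n t).1 hn⟩
      have h1 : nmR t = none := dif_neg hh
      have h2 : nmR (t + M) = none := dif_neg hh'
      rw [h1, h2]
  · intro t t' c c' hc hc' hgood
    obtain ⟨n, hn, rfl⟩ := hL1 t c hc
    obtain ⟨n', hn', rfl⟩ := hR1 t' c' hc'
    by_cases hne : n = n'
    · rw [hne]
    · exact absurd (diff_dvd hn hn' hne).1 (hgood _ (hmem _))
  · intro T hT c
    -- signs
    let ε : C → Bool := fun j => decide (2 * (T % m j) < m j)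
    let n : I := (c, ε)
    let a : ι → ℕ := fun i => match i with
      | Sum.inl (Sum.inl l) => if l = n then 0 else T
      | Sum.inl (Sum.inr l) => if l = n then T else 0
      | Sum.inr j => if ty n j = false then 0 else T
    have hco : Set.Pairwise (↑(Finset.univ : Finset ι)) (Function.onFun Nat.Coprime p) := by
      intro i _ j _ hij
      exact (Nat.coprime_primes (hpp i) (hpp j)).2 (fun h => hij (hpinj h))
    have hne0 : ∀ i ∈ (Finset.univ : Finset ι), p i ≠ 0 := fun i _ => (hpp i).ne_zero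
    let x := Nat.chineseRemainderOfFinset a p Finset.univ hne0 hco
    have hx : ∀ i, (x : ℕ) ≡ a i [MOD p i] := fun i => x.2 i (Finset.mem_univ i)
    have hxlt : (x : ℕ) < M := Nat.chineseRemainderOfFinset_lt_prod a p hne0 hco
    have hTg : ∀ i, ¬ p i ∣ T := fun i => hT _ (hmem i)
    -- dvd facts for t = x
    have z0 : ∀ i, a i = 0 → p i ∣ (x : ℕ) := fun i hi => by
      have := hx i; rw [hi] at this; exact (Nat.modEq_zero_iff_dvd).1 this
    have zT : ∀ i, a i = T → (x : ℕ) % p i = T % p i := fun i hi => by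
      have := hx i; rw [hi] at this; exact this
    have hhalfT : ∀ j, Half (ε j) (m j) T := by
      intro j
      refine ⟨fun h => hTg (Sum.inr j) (Nat.dvd_of_mod_eq_zero h), ?_⟩
      simp [ε]
    have hhalf_congr : ∀ (b : Bool) (k r s : ℕ), r % k = s % k → (Half b k r ↔ Half b k s) := by
      intro b k r s h
      unfold Half; rw [h]
    have hdvd_congr : ∀ (k r s : ℕ), r % k = s % k → (k ∣ r ↔ k ∣ s) := by
      intro k r s h
      rw [Nat.dvd_iff_mod_eq_zero, Nat.dvd_iff_mod_eq_zero, h]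
    have hLSx : LS q q' m ty ep n (x : ℕ) := by
      refine ⟨⟨?_, ?_⟩, ?_, ?_⟩
      · exact z0 (Sum.inl (Sum.inl n)) (by simp [a])
      · intro hd
        exact hTg (Sum.inl (Sum.inr n))
          ((hdvd_congr _ _ _ (zT (Sum.inl (Sum.inr n)) (by simp [a]))).1 hd)
      · intro l hl
        refine ⟨fun hd => hTg (Sum.inl (Sum.inl l))
          ((hdvd_congr _ _ _ (zT (Sum.inl (Sum.inl l)) (by simp [a, hl]))).1 hd), ?_⟩
        exact z0 (Sum.inl (Sum.inr l)) (by simp [a, hl])
      · intro j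
        refine ⟨fun h => z0 (Sum.inr j) (by simp [a, h]), fun h => ?_⟩
        have h2 := zT (Sum.inr j) (by simp [a, h])
        exact (hhalf_congr _ _ _ _ h2).2 (hhalfT j)
    refine ⟨x, hxlt, hL2 _ _ hLSx, ?_⟩
    intro t' ht'
    have hmodp : ∀ i, ((x : ℕ) + t') % p i = T % p i := fun i => Nat.ModEq.of_dvd (hdM i) ht'
    -- t' mod p i
    have y0 : ∀ i, a i = T → p i ∣ t' := by
      intro i hi
      have h1 : (x : ℕ) + t' ≡ T [MOD p i] := hmodp i
      have h2 : (x : ℕ) ≡ T [MOD p i] := zT i hi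
      have h3 : (x : ℕ) + t' ≡ (x : ℕ) + 0 [MOD p i] := by
        rw [add_zero]; exact h1.trans h2.symm
      exact (Nat.modEq_zero_iff_dvd).1 (Nat.ModEq.add_left_cancel' _ h3)
    have yT : ∀ i, a i = 0 → t' % p i = T % p i := by
      intro i hi
      have h2 : p i ∣ (x : ℕ) := z0 i hi
      have h1 := hmodp i
      rw [Nat.add_mod, Nat.mod_eq_zero_of_dvd h2, zero_add, Nat.mod_mod] at h1
      exact h1
    have hRSx : RS q q' m ty ep n t' := by
      refine ⟨⟨?_, ?_⟩, ?_, ?_⟩
      · intro hd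
        exact hTg (Sum.inl (Sum.inl n))
          ((hdvd_congr _ _ _ (yT (Sum.inl (Sum.inl n)) (by simp [a]))).1 hd)
      · exact y0 (Sum.inl (Sum.inr n)) (by simp [a])
      · intro l hl
        refine ⟨y0 (Sum.inl (Sum.inl l)) (by simp [a, hl]), fun hd => hTg (Sum.inl (Sum.inr l))
          ((hdvd_congr _ _ _ (yT (Sum.inl (Sum.inr l)) (by simp [a, hl]))).1 hd)⟩
      · intro j
        refine ⟨fun h => ?_, fun h => y0 (Sum.inr j) (by simp [a, h])⟩
        have h2 := yT (Sum.inr j) (by simp [a, h])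
        exact (hhalf_congr _ _ _ _ h2).2 (hhalfT j)
    exact hR2 _ _ hRSx
  · intro t₁ t₁' t₂ t₂' c₁ c₁' c₂ c₂' e1 e1' e2 e2' hT hbad
    obtain ⟨n₁, h1, rfl⟩ := hL1 _ _ e1
    obtain ⟨n₁', h1', rfl⟩ := hR1 _ _ e1'
    obtain ⟨n₂, h2, rfl⟩ := hL1 _ _ e2
    obtain ⟨n₂', h2', rfl⟩ := hR1 _ _ e2'
    obtain ⟨k, hk, hkd⟩ := hbad
    obtain ⟨i, -, rfl⟩ := Finset.mem_image.1 hk
    have key : ∀ (n : I) (t t' : ℕ), LS q q' m ty ep n t → RS q q' m ty ep n t' →
        t + t' = t₁ + t₁' → False := by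
      intro n t t' ha hb hab
      have hg := same_good ha hb
      rw [hab] at hg
      rcases i with (l | l) | j
      · exact (hg.1 l).1 hkd
      · exact (hg.1 l).2 hkd
      · exact hg.2 j hkd
    have hne1 : n₁ ≠ n₁' := fun h => key n₁ t₁ t₁' h1 (h ▸ h1') rfl
    have hne2 : n₂ ≠ n₂' := fun h => key n₂ t₂ t₂' h2 (h ▸ h2') hT.symm
    have d1 := diff_dvd h1 h1' hne1
    have d2 := diff_dvd h2 h2' hne2
    rw [← hT] at d2
    have i1 : n₂ = n₁ ∨ n₂ = n₁' := by
      by_contra hcon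
      push Not at hcon
      exact (d1.2.2 n₂ hcon.1 hcon.2).1 d2.1
    have i2 : n₂' = n₁ ∨ n₂' = n₁' := by
      by_contra hcon
      push Not at hcon
      exact (d1.2.2 n₂' hcon.1 hcon.2).2 d2.2.1
    rcases i1 with rfl | rfl
    · rcases i2 with h | rfl
      · exact absurd h.symm hne2
      · exact ⟨rfl, rfl⟩
    · rcases i2 with rfl | h
      · -- swap
        have hs := swap_imp hodd h1 h1' h2 h2' hT (col n₂'.1)
        have hcol : col n₂'.1 = col n₂.1 := by
          by_contra hcc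
          have hcc' : ¬ col n₂.1 = col n₂'.1 := fun h => hcc h.symm
          simp only [ty, ep, decide_true, Bool.true_xor, hcc', decide_false, Bool.false_xor] at hs
          cases ha : n₂'.2 (col n₂'.1) <;> cases hb : n₂.2 (col n₂'.1) <;> simp [ha, hb] at hs
        exact ⟨hcol, hcol.symm⟩
      · exact absurd h.symm hne2

end Crest.Agent.R320.Names755
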