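import Mathlib
import Crest.Agent.R320.Names_755
import Crest.Agent.R320.Exact_808

/-!
Row 320, gadget g1 (lead #13673, 852 #13483): levels = positional digits of the length in base `b`,
names = CRT (755).  No walls, no combs: sound for every content and every length.
-/

set_option autoImplicit false

namespace Crest.Agent.R320.G1_444

open Finset Crest.Agent.R320.Exact808

variable {A S V W : Type}

/-- digit block `j` of a word -/
def bk (b : ℕ) (X : List A) (j : ℕ) : List A :=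
  (X.drop (X.length % b ^ j)).take (X.length % b ^ (j + 1) - X.length % b ^ j)

theorem mod_mono (b n j : ℕ) : n % b ^ j ≤ n % b ^ (j + 1) := by
  have : n % b ^ (j+1) % b ^ j = n % b ^ j := Nat.mod_mod_of_dvd _ (pow_dvd_pow b (Nat.le_succ j))
  calc n % b ^ j = n % b ^ (j+1) % b ^ j := this.symm
    _ ≤ n % b ^ (j+1) := Nat.mod_le _ _

theorem junc {b o o' i : ℕ} (hb : 0 < b) (ho : o < b ^ (i+1)) (h2 : 2 * (o / b ^ i % b) < b)
    (hd : b ^ i ∣ o') (h2' : 2 * (o' / b ^ i % b) < b) :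
    (∀ j ≤ i, (o + o') % b ^ j = o % b ^ j) ∧
      (∀ j, i < j → (o + o') % b ^ j = o + o' % b ^ j) := by
  constructor
  · intro j hj
    have : b ^ j ∣ o' := (pow_dvd_pow b hj).trans hd
    rw [Nat.add_mod, Nat.mod_eq_zero_of_dvd this, add_zero, Nat.mod_mod]
  · intro j hj
    have hp : 0 < b ^ i := pow_pos hb i
    have hq : 0 < b ^ (j - i - 1) := pow_pos hb _
    have hbj : b ^ j = b ^ i * (b * b ^ (j - i - 1)) := by
      rw [← pow_succ', ← pow_add]; congr 1; omega
    obtain ⟨y', rfl⟩ := hd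
    have hy'' : b ^ i * y' / b ^ i = y' := Nat.mul_div_cancel_left y' hp
    rw [hy''] at h2'
    have hyb : o / b ^ i < b := by
      rw [Nat.div_lt_iff_lt_mul hp, mul_comm, ← pow_succ]; exact ho
    rw [Nat.mod_eq_of_lt hyb] at h2
    have hlt : o + (b ^ i * y') % b ^ j < b ^ j := by
      rw [hbj, Nat.mul_mod_mul_left, Nat.mod_mul]
      have h3 : y' / b % b ^ (j - i - 1) + 1 ≤ b ^ (j - i - 1) := Nat.mod_lt _ hq
      have h4 : b * (y' / b % b ^ (j - i - 1) + 1) ≤ b * b ^ (j - i - 1) :=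
        Nat.mul_le_mul_left b h3
      have h5 : o / b ^ i + (y' % b + b * (y' / b % b ^ (j - i - 1))) + 1 ≤ b * b ^ (j - i - 1) := by
        have h6 : b * (y' / b % b ^ (j - i - 1) + 1) = b * (y' / b % b ^ (j - i - 1)) + b := by ring
        omega
      have h7 : o < b ^ i * (o / b ^ i + 1) := Nat.lt_mul_div_succ o hp
      calc o + b ^ i * (y' % b + b * (y' / b % b ^ (j - i - 1)))
          < b ^ i * (o / b ^ i + 1) + b ^ i * (y' % b + b * (y' / b % b ^ (j - i - 1))) := by omega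
        _ = b ^ i * (o / b ^ i + (y' % b + b * (y' / b % b ^ (j - i - 1))) + 1) := by ring
        _ ≤ b ^ i * (b * b ^ (j - i - 1)) := Nat.mul_le_mul_left _ h5
    have ho2 : o < b ^ j := lt_of_le_of_lt (Nat.le_add_right _ _) hlt
    rw [Nat.add_mod, Nat.mod_eq_of_lt ho2, Nat.mod_eq_of_lt hlt]

theorem drop_add (P Q : List A) (a : ℕ) : (P ++ Q).drop (P.length + a) = Q.drop a := by
  rw [← List.drop_drop, List.drop_left]

theorem bk_left {b : ℕ} (P Q : List A) {i j : ℕ} (hj : j < i)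
    (h : ∀ j ≤ i, (P.length + Q.length) % b ^ j = P.length % b ^ j) :
    bk b (P ++ Q) j = bk b P j := by
  unfold bk
  rw [List.length_append, h j hj.le, h (j+1) hj]
  have h1 : P.length % b ^ (j+1) ≤ P.length := Nat.mod_le _ _
  have h0 := mod_mono b P.length j
  rw [List.drop_append_of_le_length (h0.trans h1), List.take_append_of_le_length]
  rw [List.length_drop]; omega

theorem bk_right {b : ℕ} (P Q : List A) {i j : ℕ} (hj : i < j)
    (h : ∀ j, i < j → (P.length + Q.length) % b ^ j = P.length + Q.length % b ^ j) :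
    bk b (P ++ Q) j = bk b Q j := by
  unfold bk
  rw [List.length_append, h j hj, h (j+1) (hj.trans (Nat.lt_succ_self j)), drop_add,
    Nat.add_sub_add_left]

theorem split_bk (b : ℕ) (X : List A) (i : ℕ) :
    X = X.take (X.length % b ^ i) ++ (bk b X i ++ X.drop (X.length % b ^ (i+1))) := by
  have h2 := mod_mono b X.length i
  unfold bk
  conv_lhs => rw [← List.take_append_drop (X.length % b ^ i) X]
  congr 1
  conv_lhs => rw [← List.take_append_drop (X.length % b ^ (i+1) - X.length % b ^ i)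
    (X.drop (X.length % b ^ i))]
  rw [List.drop_drop, show X.length % b ^ i + (X.length % b ^ (i+1) - X.length % b ^ i)
    = X.length % b ^ (i+1) by omega]

section
variable [Monoid S] [AddCommGroup V] [AddCommGroup W] {m : ℕ} (e : ℕ → S → W) (F : S → W → V)
  (act : V → S → V) (b : ℕ) (φ : List A → S)

abbrev Nm (m : ℕ) (S W V : Type) := Fin m × (S × W) × (S × W) × V

def lb (c : Nm m S W V) : V :=
  F (c.2.1.1 * 1 * c.2.2.1.1) (c.2.1.2 + e c.1 1 + c.2.2.1.2) +
    act c.2.2.2 (c.2.1.1 * 1 * c.2.2.1.1)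

def Good (c : Nm m S W V) : Prop :=
  ∀ z, F (c.2.1.1 * z * c.2.2.1.1) (c.2.1.2 + e c.1 z + c.2.2.1.2) +
    act c.2.2.2 (c.2.1.1 * z * c.2.2.1.1) = lb e F act c

def LC (c : Nm m S W V) (P : List A) : Prop :=
  Good e F act c ∧ P.length < b ^ ((c.1 : ℕ) + 1) ∧ 2 * (P.length / b ^ (c.1 : ℕ) % b) < b ∧
    φ (P.take (P.length % b ^ (c.1 : ℕ))) = c.2.1.1 ∧
    ∑ j ∈ range c.1, e j (φ (bk b P j)) = c.2.1.2

def RC (c : Nm m S W V) (Q : List A) : Prop :=
  Good e F act c ∧ b ^ (c.1 : ℕ) ∣ Q.length ∧ 2 * (Q.length / b ^ (c.1 : ℕ) % b) < b ∧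
    φ (Q.drop (Q.length % b ^ ((c.1 : ℕ) + 1))) = c.2.2.1.1 ∧
    ∑ j ∈ Ico ((c.1 : ℕ) + 1) m, e j (φ (bk b Q j)) = c.2.2.1.2

def wt (m : ℕ) (X : List A) : W := ∑ j ∈ range m, e j (φ (bk b X j))

theorem phi_split (hφ : ∀ u v, φ (u ++ v) = φ u * φ v) (X : List A) (i : ℕ) :
    φ X = φ (X.take (X.length % b ^ i)) * φ (bk b X i) * φ (X.drop (X.length % b ^ (i+1))) := by
  conv_lhs => rw [split_bk b X i]
  rw [hφ, hφ, mul_assoc]

theorem wt_split (X : List A) {i : ℕ} (hi : i < m) :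
    wt e b φ m X = ∑ j ∈ range i, e j (φ (bk b X j)) + e i (φ (bk b X i)) +
      ∑ j ∈ Ico (i+1) m, e j (φ (bk b X j)) :=
  sum_split (fun j => e j (φ (bk b X j))) hi

theorem sound_same (hφ : ∀ u v, φ (u ++ v) = φ u * φ v) (hb : 0 < b) {c : Nm m S W V}
    {P Q : List A} (hL : LC e F act b φ c P) (hR : RC e F act b φ c Q) :
    F (φ (P ++ Q)) (wt e b φ m (P ++ Q)) + act c.2.2.2 (φ (P ++ Q)) = lb e F act c := by
  obtain ⟨hg, hl1, hl2, hl3, hl4⟩ := hL
  obtain ⟨-, hr1, hr2, hr3, hr4⟩ := hR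
  obtain ⟨j1, j2⟩ := junc hb hl1 hl2 hr1 hr2
  have e1 : φ ((P ++ Q).take ((P ++ Q).length % b ^ (c.1 : ℕ))) = c.2.1.1 := by
    rw [List.length_append, j1 _ le_rfl, List.take_append_of_le_length (Nat.mod_le _ _)]
    exact hl3
  have e2 : φ ((P ++ Q).drop ((P ++ Q).length % b ^ ((c.1 : ℕ) + 1))) = c.2.2.1.1 := by
    rw [List.length_append, j2 _ (Nat.lt_succ_self _), drop_add]
    exact hr3
  have e3 : ∑ j ∈ range c.1, e j (φ (bk b (P ++ Q) j)) = c.2.1.2 := by
    rw [← hl4]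
    exact Finset.sum_congr rfl fun j hj => by rw [bk_left P Q (Finset.mem_range.1 hj) j1]
  have e4 : ∑ j ∈ Ico ((c.1 : ℕ) + 1) m, e j (φ (bk b (P ++ Q) j)) = c.2.2.1.2 := by
    rw [← hr4]
    exact Finset.sum_congr rfl fun j hj => by
      rw [bk_right P Q (i := c.1) (by have := (Finset.mem_Ico.1 hj).1; omega) j2]
  rw [phi_split b φ hφ (P ++ Q) c.1, wt_split e b φ (P ++ Q) c.1.2, e1, e2, e3, e4]
  exact hg _

theorem complete_cut (hφ : ∀ u v, φ (u ++ v) = φ u * φ v)
    (hF : ∀ (s : S) (w : W) (v : V), ∃ i < m, ∀ g x h : S, g * x * h = s → ∀ z : S,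
        F (g * z * h) (w - e i x + e i z) + act v (g * z * h) = F s w + act v s)
    {M : ℕ} (hM : 0 < M) (hbM : Nat.Coprime b M) (h4 : 4 * M + 4 < b)
    (nmL nmR : ℕ → Option (Nm m S W V))
    (hpL : ∀ t, nmL (t + M) = nmL t)
    (X : List A)
    (hav : ∀ c, ∃ t < M, nmL t = some c ∧
        ∀ t', t + t' ≡ X.length [MOD M] → nmR t' = some c)
    (hdig : ∀ j < m, M ≤ X.length / b ^ j % b ∧ X.length / b ^ j % b + M + 1 ≤ b) (v : V) :
    ∃ P Q c, P ++ Q = X ∧ nmL P.length = some c ∧ LC e F act b φ c P ∧ c.2.2.2 = v ∧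
      nmR Q.length = some c ∧ RC e F act b φ c Q := by
  have hb : 0 < b := by omega
  obtain ⟨i, him, hi⟩ := hF (φ X) (wt e b φ m X) v
  set n := X.length with hn
  set g := φ (X.take (n % b ^ i)) with hg
  set x := φ (bk b X i) with hx
  set h := φ (X.drop (n % b ^ (i+1))) with hh
  set wl := ∑ j ∈ range i, e j (φ (bk b X j)) with hwl
  set wr := ∑ j ∈ Ico (i+1) m, e j (φ (bk b X j)) with hwr
  have hs : g * x * h = φ X := (phi_split b φ hφ X i).symm
  have hw : wt e b φ m X = wl + e i x + wr := wt_split e b φ X him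
  have hi' : ∀ z, F (g * z * h) (wl + e i z + wr) + act v (g * z * h) =
      F (φ X) (wt e b φ m X) + act v (φ X) := by
    intro z
    have := hi g x h hs z
    rw [← this, hw]
    congr 2
    abel
  let c : Nm m S W V := (⟨i, him⟩, (g, wl), (h, wr), v)
  have hgood : Good e F act c := by
    intro z
    show F (g * z * h) (wl + e i z + wr) + act v (g * z * h) =
      F (g * 1 * h) (wl + e i 1 + wr) + act v (g * 1 * h)
    rw [hi' z, hi' 1]
  obtain ⟨t, htM, htL, htR⟩ := hav c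
  -- the digit
  set ni := n / b ^ i % b with hni
  obtain ⟨hd1, hd2⟩ := hdig i him
  have hp : 0 < b ^ i := pow_pos hb i
  have : NeZero M := ⟨hM.ne'⟩
  obtain ⟨u, hu⟩ : IsUnit ((b ^ i : ℕ) : ZMod M) :=
    (ZMod.isUnit_iff_coprime _ _).2 (Nat.Coprime.pow_left i hbM)
  let lo := ni - (b - 1) / 2
  let y0 : ℕ := ((↑u⁻¹ : ZMod M) * ((t : ZMod M) - (n % b ^ i : ℕ) - (b ^ i : ℕ) * (lo : ℕ))).val
  have hy0 : y0 < M := ZMod.val_lt _
  let y := lo + y0
  have hy : y = lo + y0 := rfl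
  have hlo : lo = ni - (b - 1) / 2 := rfl
  have hyn : y ≤ ni := by omega
  have hy2 : 2 * y < b := by omega
  have hy3 : 2 * (ni - y) < b := by omega
  let o := n % b ^ i + b ^ i * y
  have ho : o = n % b ^ i + b ^ i * y := rfl
  have hcast : (o : ZMod M) = (t : ZMod M) := by
    have h1 : ((y0 : ℕ) : ZMod M) = (↑u⁻¹ : ZMod M) *
        ((t : ZMod M) - (n % b ^ i : ℕ) - (b ^ i : ℕ) * (lo : ℕ)) := ZMod.natCast_zmod_val _
    rw [ho, hy, Nat.cast_add, Nat.cast_mul, Nat.cast_add, h1, ← hu]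
    have h2 : (u : ZMod M) * (↑u⁻¹ : ZMod M) = 1 := Units.mul_inv u
    linear_combination ((t : ZMod M) - ((n % b ^ i : ℕ) : ZMod M) - (u : ZMod M) * (lo : ZMod M)) * h2
  have hmod : o ≡ t [MOD M] := (ZMod.natCast_eq_natCast_iff o t M).1 hcast
  have hnmL : nmL o = some c := by
    have hper : Function.Periodic nmL M := hpL
    rw [← hper.map_mod_nat o, hmod, hper.map_mod_nat t, htL]
  -- n = n % b^i + b^i * (n / b^i)
  have hn1 : n % b ^ i + b ^ i * (n / b ^ i) = n := Nat.mod_add_div n (b ^ i)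
  have hyN : y ≤ n / b ^ i := hyn.trans (Nat.mod_le _ _)
  have hon : o ≤ n := by
    rw [ho]; conv_rhs => rw [← hn1]
    exact Nat.add_le_add_left (Nat.mul_le_mul_left _ hyN) _
  have ho' : n - o = b ^ i * (n / b ^ i - y) := by
    rw [Nat.mul_sub, ho]; omega
  have hodiv : o / b ^ i = y := by
    rw [ho, Nat.add_mul_div_left _ _ hp, Nat.div_eq_of_lt (Nat.mod_lt _ hp), zero_add]
  have homod : o % b ^ i = n % b ^ i := by
    rw [ho, Nat.add_mul_mod_self_left, Nat.mod_mod]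
  have hyb : y < b := by omega
  have holt : o < b ^ (i+1) := by
    have h1 : n % b ^ i < b ^ i := Nat.mod_lt _ hp
    calc o < b ^ i + b ^ i * y := by rw [ho]; omega
      _ = b ^ i * (y + 1) := by ring
      _ ≤ b ^ i * b := Nat.mul_le_mul_left _ hyb
      _ = b ^ (i+1) := (pow_succ _ _).symm
  have hdig' : (n / b ^ i - y) % b = ni - y := by
    have h1 : b * (n / b ^ i / b) + ni = n / b ^ i := Nat.div_add_mod _ _
    have h2 : n / b ^ i - y = (ni - y) + b * (n / b ^ i / b) := by omega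
    rw [h2, Nat.add_mul_mod_self_left, Nat.mod_eq_of_lt]
    have : ni < b := Nat.mod_lt _ hb
    omega
  have hlenP : (X.take o).length = o := by rw [List.length_take]; omega
  have hlenQ : (X.drop o).length = n - o := by rw [List.length_drop]
  have hPQ : X.take o ++ X.drop o = X := List.take_append_drop o X
  -- junction
  have hjj := junc (b := b) (o := o) (o' := n - o) (i := i) hb holt
    (by rw [hodiv, Nat.mod_eq_of_lt hyb]; exact hy2)
    (by rw [ho']; exact dvd_mul_right _ _)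
    (by rw [ho', Nat.mul_div_cancel_left _ hp, hdig']; exact hy3)
  obtain ⟨j1, j2⟩ := hjj
  have hlenPQ : (X.take o).length + (X.drop o).length = n := by rw [hlenP, hlenQ]; omega
  have j1' : ∀ j ≤ i, ((X.take o).length + (X.drop o).length) % b ^ j =
      (X.take o).length % b ^ j := by
    intro j hj; rw [hlenP, hlenQ]; exact j1 j hj
  have j2' : ∀ j, i < j → ((X.take o).length + (X.drop o).length) % b ^ j =
      (X.take o).length + (X.drop o).length % b ^ j := by
    intro j hj; rw [hlenP, hlenQ]; exact j2 j hj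
  refine ⟨X.take o, X.drop o, c, hPQ, ?_, ⟨hgood, ?_, ?_, ?_, ?_⟩, rfl, ?_, ⟨hgood, ?_, ?_, ?_, ?_⟩⟩
  · rw [hlenP]; exact hnmL
  · rw [hlenP]; exact holt
  · rw [hlenP]
    show 2 * (o / b ^ i % b) < b
    rw [hodiv, Nat.mod_eq_of_lt hyb]; exact hy2
  · rw [hlenP]
    show φ ((X.take o).take (o % b ^ i)) = g
    rw [List.take_take, homod, Nat.min_eq_left (by rw [ho]; omega)]
  · show ∑ j ∈ range i, e j (φ (bk b (X.take o) j)) = wl
    refine Finset.sum_congr rfl fun j hj => ?_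
    rw [← bk_left (X.take o) (X.drop o) (Finset.mem_range.1 hj) j1', hPQ]
  · rw [hlenQ]
    apply htR
    have h1 : t + (n - o) ≡ o + (n - o) [MOD M] := Nat.ModEq.add_right _ hmod.symm
    have h2 : o + (n - o) = n := by omega
    rw [h2] at h1; exact h1
  · rw [hlenQ, ho']
    show b ^ i ∣ b ^ i * (n / b ^ i - y)
    exact dvd_mul_right _ _
  · rw [hlenQ, ho']
    show 2 * (b ^ i * (n / b ^ i - y) / b ^ i % b) < b
    rw [Nat.mul_div_cancel_left _ hp, hdig']; exact hy3
  · rw [hlenQ]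
    show φ ((X.drop o).drop ((n - o) % b ^ (i+1))) = h
    rw [List.drop_drop, ← j2 (i+1) (Nat.lt_succ_self i)]
    have h2 : o + (n - o) = n := by omega
    rw [h2]
  · show ∑ j ∈ Ico (i+1) m, e j (φ (bk b (X.drop o) j)) = wr
    refine Finset.sum_congr rfl fun j hj => ?_
    rw [← bk_right (X.take o) (X.drop o) (i := i) (by have := (Finset.mem_Ico.1 hj).1; omega) j2',
      hPQ]

end

/-- periodic functions agree on congruent arguments -/
theorem per_congr {α : Type} {f : ℕ → α} {M : ℕ} (h : ∀ t, f (t + M) = f t) {t t' : ℕ}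
    (ht : t ≡ t' [MOD M]) : f t = f t' := by
  have hper : Function.Periodic f M := h
  rw [← hper.map_mod_nat t, ht, hper.map_mod_nat t']

/-- **The gadget g1** (lead #13673). -/
theorem g1 (S V : Type) [Monoid S] [Finite S] [AddCommGroup V] [Finite V] (act : V → S → V) :
    ∃ m r : ℕ, ∀ Bd : ℕ, ∃ (Ms : Finset ℕ) (M : ℕ), Ms.card ≤ r ∧
      (∀ k ∈ Ms, Bd < k ∧ k.Prime ∧ k ∣ M) ∧ 0 < M ∧
      ∀ b : ℕ, 4 * M + 4 < b → Nat.Coprime b M → ∀ (A : Type) (f : A → S),
      ∃ (lam rho : List A → Option V) (nu : List A → V),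
        (∀ P v, lam P = some v → P.length < b ^ m) ∧
        (∀ P Q v v', lam P = some v → rho Q = some v' →
          v' = act v ((P ++ Q).map f).prod + nu (P ++ Q)) ∧
        (∀ X, (∀ k ∈ Ms, ¬ k ∣ X.length) →
          (∀ j < m, M ≤ X.length / b ^ j % b ∧ X.length / b ^ j % b + M + 1 ≤ b) →
          ∀ v, ∃ P Q, P ++ Q = X ∧ lam P = some v ∧ (rho Q).isSome) ∧
        (∀ Q Q', b ^ m ≤ Q.length → b ^ m ≤ Q'.length → Q.take (b ^ m) = Q'.take (b ^ m) →
          Q.length % (M * b ^ m) = Q'.length % (M * b ^ m) →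
          ((Q.drop (b ^ m)).map f).prod = ((Q'.drop (b ^ m)).map f).prod →
          rho Q = rho Q' ∧ nu Q = nu Q') := by
  classical
  have := Fintype.ofFinite S
  have := Fintype.ofFinite V
  obtain ⟨m, N, e, hN, hF⟩ := exists_noise_unif S V
  have : NeZero N := ⟨by omega⟩
  obtain ⟨F, hF⟩ := hF act
  obtain ⟨r, hr⟩ := Names755.names (Nm m S (ZMod N × ZMod N) V) (V × V)
    (fun c => (c.2.2.2, lb e F act c))
  refine ⟨m, r, fun Bd => ?_⟩
  obtain ⟨Ms, M, nmL, nmR, hMs, hk, hM, hpL, hpR, hsame, hav, hdiff⟩ := hr Bd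
  refine ⟨Ms, M, hMs, hk, hM, ?_⟩
  intro b h4 hbM A f
  have hb : 0 < b := by omega
  let φ : List A → S := fun l => (l.map f).prod
  have hφ : ∀ u v, φ (u ++ v) = φ u * φ v := fun u v => by simp [φ]
  -- the value in the bad case
  let PairAt : ℕ → V × V → Prop := fun T p => ∃ t t' c c', t + t' ≡ T [MOD M] ∧
    nmL t = some c ∧ nmR t' = some c' ∧ c.2.2.2 = p.1 ∧ lb e F act c' = p.2
  have hPair : ∀ T T', T ≡ T' [MOD M] → PairAt T = PairAt T' := by
    intro T T' h
    funext p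
    apply propext
    constructor
    · rintro ⟨t, t', c, c', h1, h2⟩
      exact ⟨t, t', c, c', h1.trans h, h2⟩
    · rintro ⟨t, t', c, c', h1, h2⟩
      exact ⟨t, t', c, c', h1.trans h.symm, h2⟩
  -- uniqueness
  have hshift : ∀ (g : ℕ → Option (Nm m S (ZMod N × ZMod N) V)), (∀ t, g (t + M) = g t) →
      ∀ t x, g (t + M * x) = g t := by
    intro g hg t x
    induction x with
    | zero => simp
    | succ x ih => rw [Nat.mul_succ, ← Nat.add_assoc, hg, ih]
  have hle : ∀ t₁ t₁' t₂ t₂' c₁ c₁' c₂ c₂', nmL t₁ = some c₁ → nmR t₁' = some c₁' →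
      nmL t₂ = some c₂ → nmR t₂' = some c₂' → t₁ + t₁' ≡ t₂ + t₂' [MOD M] →
      t₁ + t₁' ≤ t₂ + t₂' → (∃ k ∈ Ms, k ∣ t₂ + t₂') →
      (c₁.2.2.2 = c₂.2.2.2 ∧ lb e F act c₁ = lb e F act c₂) ∧
      (c₁'.2.2.2 = c₂'.2.2.2 ∧ lb e F act c₁' = lb e F act c₂') := by
    intro t₁ t₁' t₂ t₂' c₁ c₁' c₂ c₂' h1 h1' h2 h2' hmod hle hk'
    obtain ⟨x, hx⟩ := (Nat.modEq_iff_dvd' hle).1 hmod
    have hT : t₁ + (t₁' + M * x) = t₂ + t₂' := by omega
    have := hdiff t₁ (t₁' + M * x) t₂ t₂' c₁ c₁' c₂ c₂' h1 (by rw [hshift nmR hpR]; exact h1')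
      h2 h2' hT (by rw [hT]; exact hk')
    simpa [Prod.ext_iff] using this
  have huniq : ∀ T, (∃ k ∈ Ms, k ∣ T) → ∀ p p', PairAt T p → PairAt T p' → p = p' := by
    rintro T ⟨k, hkm, hkT⟩ ⟨p1, p2⟩ ⟨p1', p2'⟩ ⟨t₁, t₁', c₁, c₁', a1, a2, a3, a4, a5⟩
      ⟨t₂, t₂', c₂, c₂', b1, b2, b3, b4, b5⟩
    have hkM : k ∣ M := (hk k hkm).2.2
    have hk1 : k ∣ t₁ + t₁' := (Nat.modEq_zero_iff_dvd.1
      ((a1.of_dvd hkM).trans (Nat.modEq_zero_iff_dvd.2 hkT)))
    have hk2 : k ∣ t₂ + t₂' := (Nat.modEq_zero_iff_dvd.1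
      ((b1.of_dvd hkM).trans (Nat.modEq_zero_iff_dvd.2 hkT)))
    have hmod := a1.trans b1.symm
    simp only at a4 a5 b4 b5
    rcases Nat.le_total (t₁ + t₁') (t₂ + t₂') with h | h
    · have := hle t₁ t₁' t₂ t₂' c₁ c₁' c₂ c₂' a2 a3 b2 b3 hmod h ⟨k, hkm, hk2⟩
      rw [← a4, ← a5, ← b4, ← b5, this.1.1, this.2.2]
    · have := hle t₂ t₂' t₁ t₁' c₂ c₂' c₁ c₁' b2 b3 a2 a3 hmod.symm h ⟨k, hkm, hk1⟩
      rw [← a4, ← a5, ← b4, ← b5, this.1.1, this.2.2]
  let nuB : (V × V → Prop) → S → V := fun PA s =>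
    if h : ∃ p, PA p then h.choose.2 - act h.choose.1 s else 0
  let lam : List A → Option V := fun P =>
    (nmL P.length).bind fun c => if LC e F act b φ c P then some c.2.2.2 else none
  let rho : List A → Option V := fun Q =>
    (nmR Q.length).bind fun c => if RC e F act b φ c Q then some (lb e F act c) else none
  let nu : List A → V := fun X =>
    if ∃ k ∈ Ms, k ∣ X.length then nuB (PairAt X.length) (φ X) else F (φ X) (wt e b φ m X)
  have hlam : ∀ P v, lam P = some v → ∃ c, nmL P.length = some c ∧ LC e F act b φ c P ∧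
      c.2.2.2 = v := by
    intro P v h
    obtain ⟨c, hc, h2⟩ := Option.bind_eq_some_iff.1 h
    split_ifs at h2 with h3
    exact ⟨c, hc, h3, by simpa using h2⟩
  have hrho : ∀ Q v, rho Q = some v → ∃ c, nmR Q.length = some c ∧ RC e F act b φ c Q ∧
      lb e F act c = v := by
    intro Q v h
    obtain ⟨c, hc, h2⟩ := Option.bind_eq_some_iff.1 h
    split_ifs at h2 with h3
    exact ⟨c, hc, h3, by simpa using h2⟩
  refine ⟨lam, rho, nu, ?_, ?_, ?_, ?_⟩
  · intro P v h
    obtain ⟨c, hc, h2, -⟩ := hlam P v h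
    exact lt_of_lt_of_le h2.2.1 (Nat.pow_le_pow_right hb c.1.2)
  · intro P Q v v' h h'
    obtain ⟨c, hc, hL, hv⟩ := hlam P v h
    obtain ⟨c', hc', hR, hv'⟩ := hrho Q v' h'
    show v' = act v (φ (P ++ Q)) + nu (P ++ Q)
    by_cases hd : ∃ k ∈ Ms, k ∣ (P ++ Q).length
    · have h1 : nu (P ++ Q) = nuB (PairAt (P ++ Q).length) (φ (P ++ Q)) := if_pos hd
      have hp : PairAt (P ++ Q).length (v, v') :=
        ⟨P.length, Q.length, c, c', by rw [List.length_append], hc, hc', hv, hv'⟩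
      have hex : ∃ p, PairAt (P ++ Q).length p := ⟨_, hp⟩
      have h2 : nuB (PairAt (P ++ Q).length) (φ (P ++ Q)) =
        hex.choose.2 - act hex.choose.1 (φ (P ++ Q)) := dif_pos hex
      have h3 := huniq _ hd _ _ hex.choose_spec hp
      rw [h1, h2, h3]
      simp
    · have h1 : nu (P ++ Q) = F (φ (P ++ Q)) (wt e b φ m (P ++ Q)) := if_neg hd
      have hcc : c = c' := by
        apply hsame P.length Q.length c c' hc hc'
        intro k hk1 hk2
        exact hd ⟨k, hk1, by rw [List.length_append]; exact hk2⟩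
      subst hcc
      have := sound_same e F act b φ hφ hb hL hR
      rw [h1, ← hv', ← this, hv]
      abel
  · intro X hX1 hX2 v
    obtain ⟨P, Q, c, hPQ, h1, h2, h3, h4', h5⟩ := complete_cut e F act b φ hφ hF hM hbM h4 nmL nmR
      hpL X (hav X.length hX1) hX2 v
    refine ⟨P, Q, hPQ, ?_, ?_⟩
    · show (nmL P.length).bind _ = some v
      rw [h1]
      show (if LC e F act b φ c P then some c.2.2.2 else none) = some v
      rw [if_pos h2, h3]
    · show ((nmR Q.length).bind _).isSome = true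
      rw [h4']
      show (if RC e F act b φ c Q then some (lb e F act c) else none).isSome = true
      rw [if_pos h5]; rfl
  · intro Q Q' hQ hQ' htake hlen hprod
    have hmodM : Q.length ≡ Q'.length [MOD M] :=
      Nat.ModEq.of_mul_right (b ^ m) hlen
    have hmodb : ∀ j ≤ m, Q.length % b ^ j = Q'.length % b ^ j := by
      intro j hj
      have h1 : Q.length ≡ Q'.length [MOD M * b ^ m] := hlen
      exact h1.of_dvd ((pow_dvd_pow b hj).trans (dvd_mul_left _ _))
    have hpow : ∀ j ≤ m, b ^ j ≤ b ^ m := fun j hj => Nat.pow_le_pow_right hb hj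
    have hmlt : ∀ (n j : ℕ), j ≤ m → n % b ^ j ≤ b ^ m := fun n j hj =>
      (Nat.mod_lt _ (pow_pos hb j)).le.trans (hpow j hj)
    -- bk
    have hbkgen : ∀ (Y : List A) (j : ℕ), j < m → bk b Y j =
        ((Y.take (b ^ m)).drop (Y.length % b ^ j)).take
          (Y.length % b ^ (j+1) - Y.length % b ^ j) := by
      intro Y j hj
      unfold bk
      rw [List.drop_take, List.take_take, Nat.min_eq_left]
      have := hmlt Y.length (j+1) hj
      omega
    have hbk : ∀ j < m, bk b Q j = bk b Q' j := by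
      intro j hj
      rw [hbkgen Q j hj, hbkgen Q' j hj, htake, hmodb j hj.le, hmodb (j+1) hj]
    have hφd : ∀ j ≤ m, φ (Q.drop (Q.length % b ^ j)) = φ (Q'.drop (Q'.length % b ^ j)) := by
      intro j hj
      have hgen : ∀ (Y : List A), b ^ m ≤ Y.length → φ (Y.drop (Y.length % b ^ j)) =
          φ ((Y.take (b ^ m)).drop (Y.length % b ^ j)) * φ (Y.drop (b ^ m)) := by
        intro Y hY
        rw [← hφ]
        congr 1
        conv_lhs => rw [← List.take_append_drop (b ^ m) Y]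
        rw [List.drop_append_of_le_length]
        · rw [List.take_append_drop (b ^ m) Y]
        · rw [List.take_append_drop (b ^ m) Y, List.length_take, Nat.min_eq_left hY]
          exact hmlt _ _ hj
      rw [hgen Q hQ, hgen Q' hQ', htake, hmodb j hj]
      exact congrArg _ hprod
    have hφQ : φ Q = φ Q' := by
      have := hφd 0 (Nat.zero_le m)
      simpa [Nat.mod_one] using this
    have hRC : ∀ c : Nm m S (ZMod N × ZMod N) V, RC e F act b φ c Q ↔ RC e F act b φ c Q' := by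
      intro c
      have hi : (c.1 : ℕ) < m := c.1.2
      unfold RC
      have a1 : b ^ (c.1 : ℕ) ∣ Q.length ↔ b ^ (c.1 : ℕ) ∣ Q'.length := by
        rw [Nat.dvd_iff_mod_eq_zero, Nat.dvd_iff_mod_eq_zero, hmodb _ hi.le]
      have a2 : Q.length / b ^ (c.1 : ℕ) % b = Q'.length / b ^ (c.1 : ℕ) % b := by
        rw [← Nat.mod_mul_right_div_self, ← Nat.mod_mul_right_div_self, ← pow_succ,
          hmodb _ hi]
      have a3 : ∑ j ∈ Ico ((c.1 : ℕ) + 1) m, e j (φ (bk b Q j)) =
          ∑ j ∈ Ico ((c.1 : ℕ) + 1) m, e j (φ (bk b Q' j)) :=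
        Finset.sum_congr rfl fun j hj => by rw [hbk j (Finset.mem_Ico.1 hj).2]
      rw [a1, a2, a3, hφd _ hi]
    have hnmR : nmR Q.length = nmR Q'.length := per_congr hpR hmodM
    refine ⟨?_, ?_⟩
    · show (nmR Q.length).bind _ = (nmR Q'.length).bind _
      rw [hnmR]
      congr 1
      funext c
      simp only [hRC c]
    · have hdv : (∃ k ∈ Ms, k ∣ Q.length) ↔ (∃ k ∈ Ms, k ∣ Q'.length) := by
        constructor
        · rintro ⟨k, hk1, hk2⟩
          exact ⟨k, hk1, (Nat.modEq_zero_iff_dvd.1 (((hmodM.symm).of_dvd (hk k hk1).2.2).trans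
            (Nat.modEq_zero_iff_dvd.2 hk2)))⟩
        · rintro ⟨k, hk1, hk2⟩
          exact ⟨k, hk1, (Nat.modEq_zero_iff_dvd.1 (((hmodM).of_dvd (hk k hk1).2.2).trans
            (Nat.modEq_zero_iff_dvd.2 hk2)))⟩
      have hwt : wt e b φ m Q = wt e b φ m Q' :=
        Finset.sum_congr rfl fun j hj => by rw [hbk j (Finset.mem_range.1 hj)]
      show (if ∃ k ∈ Ms, k ∣ Q.length then nuB (PairAt Q.length) (φ Q)
          else F (φ Q) (wt e b φ m Q)) =
        (if ∃ k ∈ Ms, k ∣ Q'.length then nuB (PairAt Q'.length) (φ Q')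
          else F (φ Q') (wt e b φ m Q'))
      rw [hPair _ _ hmodM, hφQ, hwt]
      exact if_congr hdv rfl rfl

end Crest.Agent.R320.G1_444
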