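import Mathlib

/-!
Row 320 (main chain 132, item (3)): the narrow promise ruler.

`C = {2^j * K : j < k}` with `K = 1 mod M'`, `K = 1 + M' mod (m * M')` for every modulus `m`,
and `K` larger than any prescribed bound.  Differences of two different elements are
 (E) pairwise different and nonzero modulo `M'`,
 (B) pairwise at distance at least `M'` modulo `m * M'`,
 (D) pairwise more than `Res` apart as integers.
In each case a prescribed (residue / window / interval) is hit by at most one ordered pair.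
-/

set_option autoImplicit false

namespace Crest.Agent.R320.Ruler265

/-- Powers of two are a Golomb ruler. -/
theorem pow_sidon {a b c d : ℕ} (hab : a ≠ b)
    (h : (2:ℤ)^a - 2^b = 2^c - 2^d) : a = c ∧ b = d := by
  -- move to `2^a + 2^d = 2^c + 2^b` in ℕ
  have h1 : (2:ℕ)^a + 2^d = 2^c + 2^b := by
    have : (2:ℤ)^a + 2^d = 2^c + 2^b := by linarith
    exact_mod_cast this
  have key : ∀ {x y z t : ℕ}, x ≤ y → z ≤ t → (2:ℕ)^x + 2^y = 2^z + 2^t → x = z ∧ y = t := by
    intro x y z t hxy hzt h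
    -- largest power
    have hyt : y = t := by
      by_contra hne
      rcases lt_or_gt_of_ne hne with hlt | hlt
      · -- y < t : 2^x+2^y ≤ 2^(y+1) ≤ 2^t < 2^z+2^t
        have h2 : (2:ℕ)^x ≤ 2^y := Nat.pow_le_pow_right (by norm_num) hxy
        have h3 : (2:ℕ)^(y+1) ≤ 2^t := Nat.pow_le_pow_right (by norm_num) hlt
        have h4 : (0:ℕ) < 2^z := by positivity
        have h5 : (2:ℕ)^(y+1) = 2^y + 2^y := by ring
        omega
      · have h2 : (2:ℕ)^z ≤ 2^t := Nat.pow_le_pow_right (by norm_num) hzt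
        have h3 : (2:ℕ)^(t+1) ≤ 2^y := Nat.pow_le_pow_right (by norm_num) hlt
        have h4 : (0:ℕ) < 2^x := by positivity
        have h5 : (2:ℕ)^(t+1) = 2^t + 2^t := by ring
        omega
    subst hyt
    have h6 : (2:ℕ)^x = 2^z := by omega
    exact ⟨Nat.pow_right_injective (le_refl 2) h6, rfl⟩
  -- cases on order of (a,d), (c,b)
  rcases le_total a d with had | had <;> rcases le_total c b with hcb | hcb
  · obtain ⟨h2, h3⟩ := key had hcb h1
    exact ⟨h2, h3.symm⟩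
  · obtain ⟨h2, h3⟩ := key had hcb (by rw [h1]; ring)
    exact absurd h2 hab
  · obtain ⟨h2, h3⟩ := key had hcb (by rw [← h1]; ring)
    exact absurd h3 hab
  · obtain ⟨h2, h3⟩ := key had hcb (by rw [add_comm, h1, add_comm])
    exact ⟨h3, h2.symm⟩

theorem diff_ne_zero {a b : ℕ} (hab : a ≠ b) : (2:ℤ)^a - 2^b ≠ 0 := by
  intro h
  have h1 : (2:ℤ)^a = 2^b := by linarith
  have h2 : (2:ℕ)^a = 2^b := by exact_mod_cast h1
  exact hab (Nat.pow_right_injective (le_refl 2) h2)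

theorem diff_lt {k a b : ℕ} (ha : a < k) (hb : b < k) : |(2:ℤ)^a - 2^b| < 2^k := by
  have h1 : (2:ℤ)^a < 2^k := pow_lt_pow_right₀ (by norm_num) ha
  have h2 : (2:ℤ)^b < 2^k := pow_lt_pow_right₀ (by norm_num) hb
  have h3 : (0:ℤ) < 2^a := by positivity
  have h4 : (0:ℤ) < 2^b := by positivity
  rw [abs_lt]; constructor <;> linarith

/-- the elements of the ruler -/
def mark (K : ℤ) (j : ℕ) : ℤ := 2^j * K

variable {k : ℕ} {K : ℤ} {M' : ℤ}

/-- (E): differences of marks modulo `M'` determine the pair. -/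
theorem modM' (hM' : (2:ℤ)^(k+1) ≤ M') (hK : (M':ℤ) ∣ K - 1)
    {a b c d : ℕ} (ha : a < k) (hb : b < k) (hc : c < k) (hd : d < k) (hab : a ≠ b)
    (h : M' ∣ (mark K a - mark K b) - (mark K c - mark K d)) : a = c ∧ b = d := by
  have h1 : M' ∣ ((2:ℤ)^a - 2^b) - (2^c - 2^d) := by
    have h2 : ((2:ℤ)^a - 2^b) - (2^c - 2^d)
        = ((mark K a - mark K b) - (mark K c - mark K d))
          - (((2:ℤ)^a - 2^b) - (2^c - 2^d)) * (K - 1) := by
      unfold mark; ring
    rw [h2]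
    exact dvd_sub h (Dvd.dvd.mul_left hK _)
  have h3 := diff_lt ha hb
  have h4 := diff_lt hc hd
  have h5 : |((2:ℤ)^a - 2^b) - (2^c - 2^d)| < M' := by
    have h6 : |((2:ℤ)^a - 2^b) - (2^c - 2^d)| ≤ |(2:ℤ)^a - 2^b| + |(2:ℤ)^c - 2^d| := abs_sub _ _
    have h7 : (2:ℤ)^(k+1) = 2^k + 2^k := by ring
    linarith
  have h8 := Int.eq_zero_of_abs_lt_dvd h1 h5
  exact pow_sidon hab (by linarith)

/-- (E'): differences of different marks are nonzero modulo `M'`. -/
theorem modM'_ne (hM' : (2:ℤ)^(k+1) ≤ M') (hK : (M':ℤ) ∣ K - 1)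
    {a b : ℕ} (ha : a < k) (hb : b < k) (hab : a ≠ b) :
    ¬ M' ∣ (mark K a - mark K b) := by
  intro h
  have h1 : M' ∣ ((2:ℤ)^a - 2^b) := by
    have h2 : ((2:ℤ)^a - 2^b) = (mark K a - mark K b) - ((2:ℤ)^a - 2^b) * (K - 1) := by
      unfold mark; ring
    rw [h2]
    exact dvd_sub h (Dvd.dvd.mul_left hK _)
  have h3 := diff_lt ha hb
  have h5 : |((2:ℤ)^a - 2^b)| < M' := by
    have h7 : (2:ℤ)^(k+1) = 2^k + 2^k := by ring
    have h8 : (0:ℤ) < 2^k := by positivity
    linarith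
  exact diff_ne_zero hab (Int.eq_zero_of_abs_lt_dvd h1 h5)

/-- (B): modulo `m * M'`, at most one ordered pair of different marks has its difference in a
given window of length `M'`. -/
theorem modm (hM' : (2:ℤ)^(k+1) ≤ M') {m : ℤ} (hm : (2:ℤ)^(k+2) + 1 ≤ m)
    (hK : m * M' ∣ K - (1 + M'))
    {a b c d : ℕ} (ha : a < k) (hb : b < k) (hc : c < k) (hd : d < k) (hab : a ≠ b)
    {y : ℤ} (h1 : (y - (mark K a - mark K b)) % (m * M') < M')
    (h2 : (y - (mark K c - mark K d)) % (m * M') < M') : a = c ∧ b = d := by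
  have hk : (0:ℤ) < 2^(k+1) := by positivity
  have hk2 : (2:ℤ)^(k+2) = 2^(k+1) + 2^(k+1) := by ring
  have hM0 : 0 < M' := lt_of_lt_of_le hk hM'
  have hm0 : 0 < m := by linarith
  have hN : 0 < m * M' := mul_pos hm0 hM0
  set N := m * M' with hNdef
  set E : ℤ := ((2:ℤ)^a - 2^b) - (2^c - 2^d) with hE
  -- the two residues
  set r1 := (y - (mark K a - mark K b)) % N with hr1
  set r2 := (y - (mark K c - mark K d)) % N with hr2
  have hr1n : 0 ≤ r1 := Int.emod_nonneg _ hN.ne'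
  have hr2n : 0 ≤ r2 := Int.emod_nonneg _ hN.ne'
  have hd1 : N ∣ (y - (mark K a - mark K b)) - r1 := by
    rw [hr1]; exact Int.dvd_self_sub_emod
  have hd2 : N ∣ (y - (mark K c - mark K d)) - r2 := by
    rw [hr2]; exact Int.dvd_self_sub_emod
  have hd3 : N ∣ E * (1 + M') - (r2 - r1) := by
    have h3 : E * (1 + M') - (r2 - r1)
        = ((y - (mark K c - mark K d)) - r2) - ((y - (mark K a - mark K b)) - r1)
          - E * (K - (1 + M')) := by
      rw [hE]; unfold mark; ring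
    rw [h3]
    exact dvd_sub (dvd_sub hd2 hd1) (Dvd.dvd.mul_left hK _)
  have h3 := diff_lt ha hb
  have h4 := diff_lt hc hd
  have hEabs : |E| < 2^(k+1) := by
    have h6 : |E| ≤ |(2:ℤ)^a - 2^b| + |(2:ℤ)^c - 2^d| := abs_sub _ _
    have h7 : (2:ℤ)^(k+1) = 2^k + 2^k := by ring
    linarith
  have hE0 : E = 0 := by
    by_contra hne
    have hr : |r2 - r1| < M' := by rw [abs_lt]; constructor <;> linarith
    -- bounds of `E * (1+M') - (r2 - r1)`
    have hupper : |E * (1 + M') - (r2 - r1)| < N := by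
      have h5 : |E * (1 + M') - (r2 - r1)| ≤ |E * (1 + M')| + |r2 - r1| := abs_sub _ _
      have h6 : |E * (1 + M')| = |E| * (1 + M') := by
        rw [abs_mul, abs_of_pos (by linarith : (0:ℤ) < 1 + M')]
      have h7 : |E| * (1 + M') ≤ 2^(k+1) * (1 + M') :=
        mul_le_mul_of_nonneg_right hEabs.le (by linarith)
      have h8 : (2:ℤ)^(k+1) * (1 + M') + M' ≤ N := by
        have h9 : ((2:ℤ)^(k+2) + 1) * M' ≤ m * M' := mul_le_mul_of_nonneg_right hm hM0.le
        nlinarith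
      linarith
    have h10 := Int.eq_zero_of_abs_lt_dvd hd3 hupper
    have h11 : |E * (1 + M')| = |r2 - r1| := by
      have : E * (1 + M') = r2 - r1 := by linarith
      rw [this]
    have h12 : |E * (1 + M')| = |E| * (1 + M') := by
      rw [abs_mul, abs_of_pos (by linarith : (0:ℤ) < 1 + M')]
    have h13 : 1 ≤ |E| := Int.one_le_abs hne
    have h14 : 1 * (1 + M') ≤ |E| * (1 + M') := mul_le_mul_of_nonneg_right h13 (by linarith)
    linarith
  exact pow_sidon hab (by rw [hE] at hE0; linarith)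

/-- (D): at most one ordered pair of different marks has its difference within `Res` of `y`. -/
theorem intervalRes {Res : ℤ} (hRes : 2 * Res < K) (hK0 : 0 < K)
    {a b c d : ℕ} (hab : a ≠ b) {y : ℤ}
    (h1 : |y - (mark K a - mark K b)| ≤ Res) (h2 : |y - (mark K c - mark K d)| ≤ Res) :
    a = c ∧ b = d := by
  set E : ℤ := ((2:ℤ)^a - 2^b) - (2^c - 2^d) with hE
  have hE0 : E = 0 := by
    by_contra hne
    have h3 : E * K = (y - (mark K c - mark K d)) - (y - (mark K a - mark K b)) := by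
      rw [hE]; unfold mark; ring
    have h4 : |E * K| ≤ 2 * Res := by
      rw [h3]
      have := abs_sub (y - (mark K c - mark K d)) (y - (mark K a - mark K b))
      linarith
    have h5 : |E * K| = |E| * K := by rw [abs_mul, abs_of_pos hK0]
    have h6 : 1 ≤ |E| := Int.one_le_abs hne
    have h7 : 1 * K ≤ |E| * K := mul_le_mul_of_nonneg_right h6 hK0.le
    linarith
  exact pow_sidon hab (by rw [hE] at hE0; linarith)

/-- (D'): different marks are more than `Res` apart. -/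
theorem mark_far {Res : ℤ} (hRes : Res < K) (hK0 : 0 < K) {a b : ℕ} (hab : a ≠ b) :
    Res < |mark K a - mark K b| := by
  have h1 : mark K a - mark K b = ((2:ℤ)^a - 2^b) * K := by unfold mark; ring
  rw [h1, abs_mul, abs_of_pos hK0]
  have h6 : 1 ≤ |(2:ℤ)^a - 2^b| := Int.one_le_abs (diff_ne_zero hab)
  have h7 : 1 * K ≤ |(2:ℤ)^a - 2^b| * K := mul_le_mul_of_nonneg_right h6 hK0.le
  linarith

/-- Existence of the scale `K`. -/
theorem exists_K (M' : ℤ) (hM' : 0 < M') (ms : Finset ℤ) (hms : ∀ m ∈ ms, 0 < m) (Res : ℤ) :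
    ∃ K : ℤ, 0 < K ∧ 2 * Res < K ∧ M' ∣ K - 1 ∧ ∀ m ∈ ms, m * M' ∣ K - (1 + M') := by
  set P : ℤ := ∏ m ∈ ms, m with hP
  have hP1 : 1 ≤ P := by
    have : 0 < P := Finset.prod_pos hms
    linarith
  set Q : ℤ := |Res| * 2 with hQ
  have hQ0 : 0 ≤ Q := by positivity
  refine ⟨1 + M' * (1 + P * Q), ?_, ?_, ?_, ?_⟩
  · have : 0 ≤ P * Q := mul_nonneg (by linarith) hQ0
    nlinarith
  · have h1 : Q ≤ P * Q := by nlinarith
    have h2 : 1 + P * Q ≤ M' * (1 + P * Q) := by
      have : 0 ≤ 1 + P * Q := by nlinarith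
      nlinarith
    have h3 : 2 * Res ≤ Q := by
      rw [hQ]; have := le_abs_self Res; linarith
    linarith
  · exact ⟨1 + P * Q, by ring⟩
  · intro m hm
    obtain ⟨q, hq⟩ := Finset.dvd_prod_of_mem (fun m => m) hm
    have hq' : P = m * q := hq
    exact ⟨q * Q, by rw [hq']; ring⟩

/-- **The promise ruler of 132 #12664 (3)** (`k` marks, moduli `ms`, comb modulus `M'`,
resolution `Res`): a strictly increasing family of positive integers `c 0 < .. < c (k-1)` with
(E), (E'), (B), (D), (D'), all above any given bound. -/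
theorem exists_ruler (k : ℕ) (M' Res : ℤ) (hM' : (2:ℤ)^(k+1) ≤ M') (_hRes : 0 ≤ Res)
    (ms : Finset ℤ) (hms : ∀ m ∈ ms, (2:ℤ)^(k+2) + 1 ≤ m) :
    ∃ c : Fin k → ℤ, StrictMono c ∧ (∀ j, Res < c j) ∧
      (∀ i j, i ≠ j → ¬ M' ∣ c i - c j) ∧
      (∀ i j i' j', i ≠ j → M' ∣ (c i - c j) - (c i' - c j') → i = i' ∧ j = j') ∧
      (∀ m ∈ ms, ∀ y i j i' j', i ≠ j → (y - (c i - c j)) % (m * M') < M' →
        (y - (c i' - c j')) % (m * M') < M' → i = i' ∧ j = j') ∧
      (∀ y i j i' j', i ≠ j → |y - (c i - c j)| ≤ Res → |y - (c i' - c j')| ≤ Res →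
        i = i' ∧ j = j') ∧
      (∀ i j, i ≠ j → Res < |c i - c j|) := by
  have hk : (0:ℤ) < 2^(k+1) := by positivity
  have hM0 : 0 < M' := lt_of_lt_of_le hk hM'
  have hk2 : (0:ℤ) < 2^(k+2) := by positivity
  obtain ⟨K, hK0, hK1, hK2, hK3⟩ := exists_K M' hM0 ms
    (fun m hm => by have := hms m hm; linarith) Res
  have hKR : Res < K := by linarith
  have hne : ∀ {i j : Fin k}, i ≠ j → (i : ℕ) ≠ j := fun h h' => h (Fin.ext h')
  have fin : ∀ {i j i' j' : Fin k}, (i : ℕ) = i' ∧ (j : ℕ) = j' → i = i' ∧ j = j' :=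
    fun h => ⟨Fin.ext h.1, Fin.ext h.2⟩
  refine ⟨fun j => mark K j, ?_, ?_, ?_, ?_, ?_, ?_, ?_⟩
  · intro i j hij
    have h1 : (2:ℤ)^(i:ℕ) < 2^(j:ℕ) := pow_lt_pow_right₀ (by norm_num) hij
    show (2:ℤ)^(i:ℕ) * K < 2^(j:ℕ) * K
    exact mul_lt_mul_of_pos_right h1 hK0
  · intro j
    have h1 : (1:ℤ) ≤ 2^(j:ℕ) := one_le_pow₀ (by norm_num)
    show Res < (2:ℤ)^(j:ℕ) * K
    nlinarith
  · intro i j hij
    exact modM'_ne hM' hK2 i.2 j.2 (hne hij)
  · intro i j i' j' hij h
    exact fin (modM' hM' hK2 i.2 j.2 i'.2 j'.2 (hne hij) h)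
  · intro m hm y i j i' j' hij h1 h2
    exact fin (modm hM' (hms m hm) (hK3 m hm) i.2 j.2 i'.2 j'.2 (hne hij) h1 h2)
  · intro y i j i' j' hij h1 h2
    exact fin (intervalRes hK1 hK0 (hne hij) h1 h2)
  · intro i j hij
    exact mark_far hKR hK0 (hne hij)

end Crest.Agent.R320.Ruler265
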