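import Mathlib
import Crest.Agent.R320.Ruler_265

/-!
Row 320, SPOIL LEAF of lead #13673: the promise ruler for the digit gadget `g1`
(`Bad n` := some `k ∈ Ms` divides `n`, or some digit `n / b^j % b`, `j < m`, lies within `M` of the
ends of `[0, b)`).  At most `Ms.card + m` ordered pairs of the ruler are spoiled, for every `T`.
-/

set_option autoImplicit false

namespace Crest.Agent.R320.Sp_485

open Finset

/-- bad lengths, natural numbers (literal of lead #13673) -/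
def Bad (Ms : Finset ℕ) (M m b n : ℕ) : Prop :=
  (∃ k ∈ Ms, k ∣ n) ∨ ∃ j < m, ¬ (M ≤ n / b ^ j % b ∧ n / b ^ j % b + M + 1 ≤ b)

/-- bad lengths, integers -/
def BadZ (Ms : Finset ℕ) (M m b : ℕ) (n : ℤ) : Prop :=
  (∃ k ∈ Ms, (k : ℤ) ∣ n) ∨
    ∃ j < m, ¬ ((M : ℤ) ≤ n / (b : ℤ) ^ j % b ∧ n / (b : ℤ) ^ j % b + M + 1 ≤ b)

theorem bad_iff (Ms : Finset ℕ) (M m b n : ℕ) : BadZ Ms M m b (n : ℤ) ↔ Bad Ms M m b n := by
  unfold Bad BadZ
  constructor
  · rintro (⟨k, hk, h⟩ | ⟨j, hj, h⟩)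
    · exact Or.inl ⟨k, hk, by exact_mod_cast h⟩
    · exact Or.inr ⟨j, hj, fun h' => h ⟨by exact_mod_cast h'.1, by exact_mod_cast h'.2⟩⟩
  · rintro (⟨k, hk, h⟩ | ⟨j, hj, h⟩)
    · exact Or.inl ⟨k, hk, by exact_mod_cast h⟩
    · exact Or.inr ⟨j, hj, fun h' => h ⟨by exact_mod_cast h'.1, by exact_mod_cast h'.2⟩⟩

/-- a bad digit `j`: `n` is within `M b^j` of a multiple of `b^(j+1)` -/
theorem near_of_digit {M b j : ℕ} (hb : 0 < b) {n : ℤ}
    (h : ¬ ((M : ℤ) ≤ n / (b : ℤ) ^ j % b ∧ n / (b : ℤ) ^ j % b + M + 1 ≤ b)) :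
    ∃ q : ℤ, |n - q * (b : ℤ) ^ (j + 1)| ≤ M * (b : ℤ) ^ j := by
  set B : ℤ := (b : ℤ) ^ j with hB
  have hB0 : 0 < B := by positivity
  have hb0 : (0 : ℤ) < b := by exact_mod_cast hb
  set d : ℤ := n / B % b with hd
  set q : ℤ := n / B / b with hq
  have h1 : n / B = b * q + d := (Int.mul_ediv_add_emod (n / B) b).symm
  have h2 : n = B * (n / B) + n % B := (Int.mul_ediv_add_emod n B).symm
  have h3 : 0 ≤ n % B := Int.emod_nonneg _ hB0.ne'
  have h4 : n % B < B := Int.emod_lt_of_pos _ hB0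
  have h5 : 0 ≤ d := Int.emod_nonneg _ hb0.ne'
  have h6 : d < b := Int.emod_lt_of_pos _ hb0
  have hpow : (b : ℤ) ^ (j + 1) = B * b := by rw [hB, pow_succ]
  have h7 : n = B * (b * q + d) + n % B := by rw [← h1]; exact h2
  by_cases hlt : d < M
  · refine ⟨q, ?_⟩
    rw [hpow]
    have h8 : n - q * (B * b) = B * d + n % B := by
      have : B * (b * q + d) = q * (B * b) + B * d := by ring
      linarith
    have h9 : B * d ≤ B * (M - 1) := by
      apply mul_le_mul_of_nonneg_left _ hB0.le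
      linarith [Int.add_one_le_iff.2 hlt]
    rw [h8, abs_le]
    constructor
    · have : 0 ≤ B * d := mul_nonneg hB0.le h5
      have : 0 ≤ (M : ℤ) * B := by positivity
      linarith
    · nlinarith
  · have hge : (b : ℤ) < d + M + 1 := by
      by_contra hcon
      exact h ⟨not_lt.1 hlt, not_lt.1 hcon⟩
    refine ⟨q + 1, ?_⟩
    rw [hpow]
    have h8 : n - (q + 1) * (B * b) = B * (d - b) + n % B := by
      have : B * (b * q + d) = (q + 1) * (B * b) + B * (d - b) := by ring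
      linarith
    have h9 : B * (-(M : ℤ)) ≤ B * (d - b) := by
      apply mul_le_mul_of_nonneg_left _ hB0.le
      linarith [Int.add_one_le_iff.2 hge]
    have h10 : B * (d - b) ≤ B * (-1) := by
      apply mul_le_mul_of_nonneg_left _ hB0.le
      linarith [Int.add_one_le_iff.2 h6]
    rw [h8, abs_le]
    constructor
    · nlinarith
    · have : 0 ≤ (M : ℤ) * B := by positivity
      linarith

theorem geom_bounds (b j : ℕ) (hb : 2 ≤ b) :
    (b : ℤ) ^ j ≤ ∑ l ∈ range (j + 1), (b : ℤ) ^ l ∧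
      ∑ l ∈ range (j + 1), (b : ℤ) ^ l ≤ 2 * (b : ℤ) ^ j := by
  have hb' : (2 : ℤ) ≤ b := by exact_mod_cast hb
  induction j with
  | zero => simp
  | succ j ih =>
    rw [Finset.sum_range_succ]
    have h0 : (0 : ℤ) < (b : ℤ) ^ j := by positivity
    have h1 : (b : ℤ) ^ (j + 1) = (b : ℤ) ^ j * b := pow_succ _ _
    have h2 : (b : ℤ) ^ j * 2 ≤ (b : ℤ) ^ j * b := mul_le_mul_of_nonneg_left hb' h0.le
    constructor
    · linarith [ih.1]
    · linarith [ih.2]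

theorem geom_split (b m j : ℕ) (hj : j < m) :
    (b : ℤ) ^ (j + 1) ∣ (∑ l ∈ range m, (b : ℤ) ^ l) - ∑ l ∈ range (j + 1), (b : ℤ) ^ l := by
  rw [← Finset.sum_range_add_sum_Ico (fun l => (b : ℤ) ^ l) (show j + 1 ≤ m by omega)]
  rw [add_sub_cancel_left]
  apply Finset.dvd_sum
  intro l hl
  rw [Finset.mem_Ico] at hl
  exact pow_dvd_pow _ hl.1

/-- the scale -/
theorem exists_scale (M m b N : ℕ) (hM : 0 < M) (hcop : Nat.Coprime b M) (hb : 0 < b) :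
    ∃ K0 : ℕ, N < K0 ∧ (M : ℤ) ∣ (K0 : ℤ) - 1 ∧
      (b : ℤ) ^ m ∣ (K0 : ℤ) - 4 * M * ∑ l ∈ range m, (b : ℤ) ^ l := by
  have hc : Nat.Coprime M (b ^ m) := (Nat.Coprime.pow_left m hcop).symm
  obtain ⟨k, h1, h2⟩ := Nat.chineseRemainder hc 1 (4 * M * ∑ l ∈ range m, b ^ l)
  refine ⟨k + M * b ^ m * (N + 1), ?_, ?_, ?_⟩
  · have : 1 ≤ M * b ^ m := Nat.mul_pos hM (by positivity)
    nlinarith
  · have h3 : (M : ℤ) ∣ (k : ℤ) - 1 := by
      have := (Nat.modEq_iff_dvd.1 h1.symm)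
      simpa using this
    have h4 : ((k + M * b ^ m * (N + 1) : ℕ) : ℤ) - 1
        = ((k : ℤ) - 1) + M * ((b : ℤ) ^ m * (N + 1)) := by push_cast; ring
    rw [h4]
    exact dvd_add h3 (dvd_mul_right _ _)
  · have h3 : ((b ^ m : ℕ) : ℤ) ∣ (k : ℤ) - ((4 * M * ∑ l ∈ range m, b ^ l : ℕ) : ℤ) :=
      Nat.modEq_iff_dvd.1 h2.symm
    push_cast at h3
    have h4 : ((k + M * b ^ m * (N + 1) : ℕ) : ℤ) - 4 * M * ∑ l ∈ range m, (b : ℤ) ^ l
        = ((k : ℤ) - 4 * M * ∑ l ∈ range m, (b : ℤ) ^ l) + (b : ℤ) ^ m * (M * (N + 1)) := by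
      push_cast; ring
    rw [h4]
    exact dvd_add h3 (dvd_mul_right _ _)

/-- two differences of powers of two are closer than `2^(K+1)` -/
theorem E_lt {K i j i' j' : ℕ} (hi : i < K) (hj : j < K) (hi' : i' < K) (hj' : j' < K) :
    |((2 : ℤ) ^ j - 2 ^ i) - (2 ^ j' - 2 ^ i')| < 2 ^ (K + 1) := by
  have h1 := abs_lt.1 (Crest.Agent.R320.Ruler265.diff_lt (k := K) hj hi)
  have h2 := abs_lt.1 (Crest.Agent.R320.Ruler265.diff_lt (k := K) hj' hi')
  have h3 : (2 : ℤ) ^ (K + 1) = 2 * 2 ^ K := by rw [pow_succ]; ring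
  rw [abs_lt, h3]
  constructor <;> linarith [h1.1, h1.2, h2.1, h2.2]

/-- **SPOIL LEAF, integer form.** -/
theorem spoilZ (Ms : Finset ℕ) (M m b K N1 : ℕ) (hM : 0 < M)
    (hMs : ∀ k ∈ Ms, 2 ^ (K + 1) ≤ k ∧ k ∣ M) (hcop : Nat.Coprime b M)
    (hb : 2 ^ (K + 4) * M + 2 * M ≤ b) :
    ∃ c : ℕ → ℕ, StrictMono c ∧ (∀ i, 4 * N1 < c i) ∧ (∀ i j, i < j → c i + 4 * N1 < c j) ∧
      (∀ i j i' j', i ≠ j → ¬ (i = i' ∧ j = j') →
        (4 * N1 : ℤ) < |((c j : ℤ) - c i) - ((c j' : ℤ) - c i')|) ∧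
      ∀ (T : ℤ) (S : Finset (ℕ × ℕ)),
        (∀ p ∈ S, p.1 < K ∧ p.2 < K ∧ p.1 ≠ p.2 ∧ BadZ Ms M m b (T + (c p.2 - c p.1))) →
        S.card ≤ Ms.card + m := by
  classical
  have h2M : 2 ≤ b := by
    have : 1 ≤ 2 ^ (K + 4) * M := Nat.mul_pos (by positivity) hM
    omega
  have hbpos : 0 < b := by omega
  obtain ⟨K0, hK0, hK1, hK2⟩ := exists_scale M m b (4 * N1) hM hcop hbpos
  have hK0Z : (4 * N1 : ℤ) < K0 := by exact_mod_cast hK0
  have hK0pos : (0 : ℤ) < K0 := by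
    have : (0 : ℤ) ≤ 4 * N1 := by positivity
    linarith
  have hEne : ∀ {i j i' j' : ℕ}, i ≠ j → ¬ (i = i' ∧ j = j') →
      ((2 : ℤ) ^ j - 2 ^ i) - (2 ^ j' - 2 ^ i') ≠ 0 := by
    intro i j i' j' hij hne h0
    have h1 : (2 : ℤ) ^ j - 2 ^ i = 2 ^ j' - 2 ^ i' := by linarith
    obtain ⟨h2, h3⟩ := Crest.Agent.R320.Ruler265.pow_sidon hij.symm h1
    exact hne ⟨h3, h2⟩
  have hdiff : ∀ i j i' j' : ℕ, (((2 ^ j * K0 : ℕ) : ℤ) - ((2 ^ i * K0 : ℕ) : ℤ))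
      - (((2 ^ j' * K0 : ℕ) : ℤ) - ((2 ^ i' * K0 : ℕ) : ℤ))
      = (((2 : ℤ) ^ j - 2 ^ i) - (2 ^ j' - 2 ^ i')) * K0 := by
    intro i j i' j'
    push_cast
    ring
  refine ⟨fun l => 2 ^ l * K0, ?_, ?_, ?_, ?_, ?_⟩
  · intro i j hij
    have h1 : 2 ^ i < 2 ^ j := Nat.pow_lt_pow_right (by norm_num) hij
    exact Nat.mul_lt_mul_of_pos_right h1 (by omega)
  · intro i
    have h1 : 1 ≤ 2 ^ i := Nat.one_le_two_pow
    nlinarith
  · intro i j hij
    have h1 : 2 ^ (i + 1) ≤ 2 ^ j := Nat.pow_le_pow_right (by norm_num) hij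
    have h2 : 1 ≤ 2 ^ i := Nat.one_le_two_pow
    have h3 : 2 ^ (i + 1) * K0 ≤ 2 ^ j * K0 := Nat.mul_le_mul_right _ h1
    have h4 : 2 ^ (i + 1) * K0 = 2 ^ i * K0 + 2 ^ i * K0 := by rw [pow_succ]; ring
    have h5 : 1 * K0 ≤ 2 ^ i * K0 := Nat.mul_le_mul_right _ h2
    show 2 ^ i * K0 + 4 * N1 < 2 ^ j * K0
    omega
  · intro i j i' j' hij hne
    show (4 * N1 : ℤ) < |(((2 ^ j * K0 : ℕ) : ℤ) - ((2 ^ i * K0 : ℕ) : ℤ))
      - (((2 ^ j' * K0 : ℕ) : ℤ) - ((2 ^ i' * K0 : ℕ) : ℤ))|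
    rw [hdiff, abs_mul, abs_of_pos hK0pos]
    have h1 : 1 ≤ |((2 : ℤ) ^ j - 2 ^ i) - (2 ^ j' - 2 ^ i')| := Int.one_le_abs (hEne hij hne)
    have h2 : 1 * (K0 : ℤ) ≤ |((2 : ℤ) ^ j - 2 ^ i) - (2 ^ j' - 2 ^ i')| * K0 :=
      mul_le_mul_of_nonneg_right h1 hK0pos.le
    linarith
  · intro T S hS
    -- two spoiled pairs with the same reason are equal
    have keyk : ∀ k ∈ Ms, ∀ p ∈ S, ∀ p' ∈ S,
        (k : ℤ) ∣ T + (((2 ^ p.2 * K0 : ℕ) : ℤ) - ((2 ^ p.1 * K0 : ℕ) : ℤ)) →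
        (k : ℤ) ∣ T + (((2 ^ p'.2 * K0 : ℕ) : ℤ) - ((2 ^ p'.1 * K0 : ℕ) : ℤ)) → p = p' := by
      intro k hk p hp p' hp' h h'
      by_contra hne
      obtain ⟨ha, hb', hab, -⟩ := hS p hp
      obtain ⟨ha', hb'', hab', -⟩ := hS p' hp'
      have hne' : ¬ (p.1 = p'.1 ∧ p.2 = p'.2) := fun h0 => hne (Prod.ext h0.1 h0.2)
      have h1 := dvd_sub h h'
      rw [add_sub_add_left_eq_sub, hdiff] at h1
      set E : ℤ := ((2 : ℤ) ^ p.2 - 2 ^ p.1) - (2 ^ p'.2 - 2 ^ p'.1) with hE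
      have h2 : (k : ℤ) ∣ (K0 : ℤ) - 1 :=
        dvd_trans (by exact_mod_cast (hMs k hk).2) hK1
      have h3 : (k : ℤ) ∣ E := by
        have h4 : E = E * K0 - E * (K0 - 1) := by ring
        rw [h4]
        exact dvd_sub h1 (dvd_mul_of_dvd_right h2 _)
      have h5 := Int.le_of_dvd (abs_pos.2 (hEne hab hne')) ((dvd_abs _ _).2 h3)
      have h6 := E_lt (K := K) ha hb' ha' hb''
      have h7 : ((2 : ℤ) ^ (K + 1)) ≤ k := by exact_mod_cast (hMs k hk).1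
      linarith
    have keyj : ∀ j < m, ∀ p ∈ S, ∀ p' ∈ S,
        (∃ q : ℤ, |T + (((2 ^ p.2 * K0 : ℕ) : ℤ) - ((2 ^ p.1 * K0 : ℕ) : ℤ))
          - q * (b : ℤ) ^ (j + 1)| ≤ M * (b : ℤ) ^ j) →
        (∃ q : ℤ, |T + (((2 ^ p'.2 * K0 : ℕ) : ℤ) - ((2 ^ p'.1 * K0 : ℕ) : ℤ))
          - q * (b : ℤ) ^ (j + 1)| ≤ M * (b : ℤ) ^ j) → p = p' := by
      rintro j hj p hp p' hp' ⟨q, hq⟩ ⟨q', hq'⟩
      by_contra hne
      obtain ⟨ha, hb', hab, -⟩ := hS p hp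
      obtain ⟨ha', hb'', hab', -⟩ := hS p' hp'
      have hne' : ¬ (p.1 = p'.1 ∧ p.2 = p'.2) := fun h0 => hne (Prod.ext h0.1 h0.2)
      set E : ℤ := ((2 : ℤ) ^ p.2 - 2 ^ p.1) - (2 ^ p'.2 - 2 ^ p'.1) with hE
      set B : ℤ := (b : ℤ) ^ j with hB
      have hB0 : 0 < B := by positivity
      have hpow : (b : ℤ) ^ (j + 1) = B * b := by rw [hB, pow_succ]
      set R : ℤ := ∑ l ∈ range (j + 1), (b : ℤ) ^ l with hR
      obtain ⟨hR1, hR2⟩ := geom_bounds b j h2M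
      rw [← hR, ← hB] at hR1 hR2
      -- K0 = 4 M R mod b^(j+1)
      obtain ⟨u, hu⟩ : (b : ℤ) ^ (j + 1) ∣ (K0 : ℤ) - 4 * M * R := by
        have h1 : (b : ℤ) ^ (j + 1) ∣ (K0 : ℤ) - 4 * M * ∑ l ∈ range m, (b : ℤ) ^ l :=
          dvd_trans (pow_dvd_pow _ (by omega)) hK2
        have h2 := geom_split b m j hj
        have h3 : (K0 : ℤ) - 4 * M * R = ((K0 : ℤ) - 4 * M * ∑ l ∈ range m, (b : ℤ) ^ l)
            + 4 * M * ((∑ l ∈ range m, (b : ℤ) ^ l) - R) := by ring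
        rw [h3]
        exact dvd_add h1 (dvd_mul_of_dvd_right h2 _)
      have hEK := hdiff p.1 p.2 p'.1 p'.2
      rw [← hE] at hEK
      -- Y = 4 M R E is close to a multiple of b^(j+1)
      obtain ⟨Q, hQ⟩ : ∃ Q : ℤ, |4 * M * R * E - Q * (B * b)| ≤ 2 * M * B := by
        refine ⟨(q - q') - E * u, ?_⟩
        have h1 : 4 * M * R * E - ((q - q') - E * u) * (B * b)
            = (T + (((2 ^ p.2 * K0 : ℕ) : ℤ) - ((2 ^ p.1 * K0 : ℕ) : ℤ)) - q * (b : ℤ) ^ (j + 1))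
              - (T + (((2 ^ p'.2 * K0 : ℕ) : ℤ) - ((2 ^ p'.1 * K0 : ℕ) : ℤ))
                - q' * (b : ℤ) ^ (j + 1)) := by
          have h2 : (K0 : ℤ) = 4 * M * R + (B * b) * u := by rw [← hpow, ← hu]; ring
          have h3 : E * (K0 : ℤ) = 4 * M * R * E + E * u * (B * b) := by rw [h2]; ring
          rw [hpow]
          have h4 : (T + (((2 ^ p.2 * K0 : ℕ) : ℤ) - ((2 ^ p.1 * K0 : ℕ) : ℤ)) - q * (B * b))
              - (T + (((2 ^ p'.2 * K0 : ℕ) : ℤ) - ((2 ^ p'.1 * K0 : ℕ) : ℤ)) - q' * (B * b))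
              = E * K0 - (q - q') * (B * b) := by rw [← hEK]; ring
          rw [h4, h3]; ring
        rw [h1]
        refine le_trans (abs_sub _ _) ?_
        linarith
      have hM' : (1 : ℤ) ≤ M := by exact_mod_cast hM
      have hE1 : 1 ≤ |E| := Int.one_le_abs (hEne hab hne')
      have hE2 : |E| + 1 ≤ 2 ^ (K + 1) := Int.add_one_le_iff.2 (E_lt (K := K) ha hb' ha' hb'')
      have hRpos : 0 < R := lt_of_lt_of_le hB0 hR1
      have hY : |4 * M * R * E| = 4 * M * R * |E| := by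
        rw [abs_mul, abs_of_nonneg (by positivity)]
      have hYlo : 4 * M * B ≤ |4 * M * R * E| := by
        rw [hY]
        calc 4 * (M : ℤ) * B = 4 * M * B * 1 := by ring
          _ ≤ 4 * M * R * |E| := by
              apply mul_le_mul _ hE1 (by norm_num) (by positivity)
              apply mul_le_mul_of_nonneg_left hR1 (by positivity)
      have hbZ : (2 : ℤ) ^ (K + 4) * M + 2 * M ≤ b := by exact_mod_cast hb
      have hYhi : |4 * M * R * E| < B * b - 2 * M * B := by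
        rw [hY]
        have h1 : 4 * (M : ℤ) * R * |E| ≤ 4 * M * (2 * B) * (2 ^ (K + 1) - 1) := by
          apply mul_le_mul _ (by linarith) (abs_nonneg _) (by positivity)
          apply mul_le_mul_of_nonneg_left hR2 (by positivity)
        have h2 : 4 * (M : ℤ) * (2 * B) * (2 ^ (K + 1) - 1)
            = (2 ^ (K + 4) * M) * B - 8 * M * B := by
          rw [pow_succ (2 : ℤ) K, show K + 4 = K + 1 + 1 + 1 + 1 by ring]
          rw [pow_succ, pow_succ, pow_succ, pow_succ]; ring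
        have h3 : ((2 : ℤ) ^ (K + 4) * M) * B ≤ (b - 2 * M) * B :=
          mul_le_mul_of_nonneg_right (by linarith) hB0.le
        have h4 : 0 < 8 * (M : ℤ) * B := by positivity
        have h5 : ((b : ℤ) - 2 * M) * B = B * b - 2 * M * B := by ring
        linarith
      rw [abs_le] at hQ
      rw [abs_lt] at hYhi
      rcases lt_trichotomy Q 0 with hQ0 | hQ0 | hQ0
      · have h1 : Q * (B * b) ≤ (-1) * (B * b) := by
          apply mul_le_mul_of_nonneg_right (by omega) (by positivity)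
        linarith [hQ.2, hYhi.1]
      · subst hQ0
        have h1 : |4 * M * R * E| ≤ 2 * M * B := by
          rw [abs_le]; constructor <;> linarith [hQ.1, hQ.2]
        have h2 : 0 < (M : ℤ) * B := by positivity
        linarith
      · have h1 : 1 * (B * b) ≤ Q * (B * b) := by
          apply mul_le_mul_of_nonneg_right (by omega) (by positivity)
        linarith [hQ.1, hYhi.2]
    -- counting
    let Sk : ℕ → Finset (ℕ × ℕ) := fun k => S.filter fun p =>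
      (k : ℤ) ∣ T + (((2 ^ p.2 * K0 : ℕ) : ℤ) - ((2 ^ p.1 * K0 : ℕ) : ℤ))
    let Sj : ℕ → Finset (ℕ × ℕ) := fun j => S.filter fun p =>
      ∃ q : ℤ, |T + (((2 ^ p.2 * K0 : ℕ) : ℤ) - ((2 ^ p.1 * K0 : ℕ) : ℤ))
          - q * (b : ℤ) ^ (j + 1)| ≤ M * (b : ℤ) ^ j
    have hsub : S ⊆ Ms.biUnion Sk ∪ (range m).biUnion Sj := by
      intro p hp
      obtain ⟨-, -, -, hbad⟩ := hS p hp
      rw [Finset.mem_union, Finset.mem_biUnion, Finset.mem_biUnion]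
      rcases hbad with ⟨k, hk, h⟩ | ⟨j, hj, h⟩
      · exact Or.inl ⟨k, hk, Finset.mem_filter.2 ⟨hp, h⟩⟩
      · exact Or.inr ⟨j, Finset.mem_range.2 hj, Finset.mem_filter.2 ⟨hp, near_of_digit hbpos h⟩⟩
    have hck : ∀ k ∈ Ms, (Sk k).card ≤ 1 := by
      intro k hk
      rw [Finset.card_le_one]
      intro p hp p' hp'
      rw [Finset.mem_filter] at hp hp'
      exact keyk k hk p hp.1 p' hp'.1 hp.2 hp'.2
    have hcj : ∀ j ∈ range m, (Sj j).card ≤ 1 := by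
      intro j hj
      rw [Finset.card_le_one]
      intro p hp p' hp'
      rw [Finset.mem_filter] at hp hp'
      exact keyj j (Finset.mem_range.1 hj) p hp.1 p' hp'.1 hp.2 hp'.2
    calc S.card ≤ (Ms.biUnion Sk ∪ (range m).biUnion Sj).card := Finset.card_le_card hsub
      _ ≤ (Ms.biUnion Sk).card + ((range m).biUnion Sj).card := Finset.card_union_le _ _
      _ ≤ Ms.card * 1 + (range m).card * 1 :=
          Nat.add_le_add (Finset.card_biUnion_le_card_mul _ _ _ hck)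
            (Finset.card_biUnion_le_card_mul _ _ _ hcj)
      _ = Ms.card + m := by simp

open Classical in
/-- **SPOIL LEAF, natural number form** (lead #13673): the number of spoiled ordered pairs is at
most `Ms.card + m`. -/
theorem spoil (Ms : Finset ℕ) (M m b K N1 : ℕ) (hM : 0 < M)
    (hMs : ∀ k ∈ Ms, 2 ^ (K + 1) ≤ k ∧ k ∣ M) (hcop : Nat.Coprime b M)
    (hb : 2 ^ (K + 4) * M + 2 * M ≤ b) :
    ∃ c : ℕ → ℕ, StrictMono c ∧ (∀ i, 4 * N1 < c i) ∧ (∀ i j, i < j → c i + 4 * N1 < c j) ∧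
      (∀ i j i' j', i ≠ j → ¬ (i = i' ∧ j = j') →
        (4 * N1 : ℤ) < |((c j : ℤ) - c i) - ((c j' : ℤ) - c i')|) ∧
      (∀ T : ℕ, (∀ i < K, c i ≤ T) →
        ((range K ×ˢ range K).filter
          (fun p => p.1 ≠ p.2 ∧ Bad Ms M m b (T + c p.2 - c p.1))).card ≤ Ms.card + m) ∧
      ∀ T : ℤ, ((range K ×ˢ range K).filter
          (fun p => p.1 ≠ p.2 ∧ BadZ Ms M m b (T + c p.2 - c p.1))).card ≤ Ms.card + m := by
  obtain ⟨c, h1, h2, h3, h4, h5⟩ := spoilZ Ms M m b K N1 hM hMs hcop hb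
  refine ⟨c, h1, h2, h3, h4, ?_, ?_⟩
  · intro T hT
    apply h5 (T : ℤ)
    intro p hp
    rw [Finset.mem_filter, Finset.mem_product, Finset.mem_range, Finset.mem_range] at hp
    refine ⟨hp.1.1, hp.1.2, hp.2.1, ?_⟩
    have h6 : ((T : ℤ) + ((c p.2 : ℤ) - c p.1)) = ((T + c p.2 - c p.1 : ℕ) : ℤ) := by
      rw [Nat.cast_sub (by have := hT p.1 hp.1.1; omega)]
      push_cast
      ring
    rw [h6, bad_iff]
    exact hp.2.2
  · intro T
    apply h5 T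
    intro p hp
    rw [Finset.mem_filter, Finset.mem_product, Finset.mem_range, Finset.mem_range] at hp
    refine ⟨hp.1.1, hp.1.2, hp.2.1, ?_⟩
    have h6 : T + ((c p.2 : ℤ) - c p.1) = T + c p.2 - c p.1 := by ring
    rw [h6]
    exact hp.2.2

end Crest.Agent.R320.Sp_485
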