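import Crest.Prelude.Def_GRegExp
import Mathlib

/-!
# Row 320: universe reduction (helper188)

If every regular language over every finite alphabet `α : Type` has an expression of height at most `k`,
then the same holds over every finite alphabet in every universe.
-/

set_option autoImplicit false

namespace Crest.Agent.R320.Univ_188

open Crest.RegLang

universe u v

/-- relabel the letters of an expression -/
def mapE {α : Type u} {β : Type v} (f : α → β) : GRegExp α → GRegExp β
  | .zero => .zero
  | .eps => .eps
  | .char a => .char (f a)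
  | .union P Q => .union (mapE f P) (mapE f Q)
  | .cat P Q => .cat (mapE f P) (mapE f Q)
  | .not P => .not (mapE f P)
  | .star P => .star (mapE f P)

theorem height_mapE {α : Type u} {β : Type v} (f : α → β) (e : GRegExp α) :
    (mapE f e).height = e.height := by
  induction e with
  | zero => rfl
  | eps => rfl
  | char a => rfl
  | union P Q hP hQ => simp only [mapE, GRegExp.height, hP, hQ]
  | cat P Q hP hQ => simp only [mapE, GRegExp.height, hP, hQ]
  | not P hP => simp only [mapE, GRegExp.height, hP]
  | star P hP => simp only [mapE, GRegExp.height, hP]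

theorem map_symm_map {α : Type u} {β : Type v} (f : α ≃ β) (w : List β) :
    (w.map f.symm).map f = w := by
  rw [List.map_map]
  simp

theorem mem_lang_mapE {α : Type u} {β : Type v} (f : α ≃ β) (e : GRegExp α) :
    ∀ w : List β, w ∈ (mapE f e).lang ↔ w.map f.symm ∈ e.lang := by
  induction e with
  | zero =>
    intro w
    exact Iff.rfl
  | eps =>
    intro w
    show w ∈ (1 : Language β) ↔ w.map f.symm ∈ (1 : Language α)
    rw [Language.mem_one, Language.mem_one, List.map_eq_nil_iff]
  | char a =>
    intro w
    show w ∈ ({[f a]} : Set (List β)) ↔ w.map f.symm ∈ ({[a]} : Set (List α))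
    rw [Set.mem_singleton_iff, Set.mem_singleton_iff]
    constructor
    · rintro rfl; simp
    · intro h
      rw [← map_symm_map f w, h]; simp
  | union P Q hP hQ =>
    intro w
    show (w ∈ (mapE f P).lang ∨ w ∈ (mapE f Q).lang) ↔ (w.map f.symm ∈ P.lang ∨ w.map f.symm ∈ Q.lang)
    rw [hP w, hQ w]
  | cat P Q hP hQ =>
    intro w
    show w ∈ (mapE f P).lang * (mapE f Q).lang ↔ w.map f.symm ∈ P.lang * Q.lang
    rw [Language.mem_mul, Language.mem_mul]
    constructor
    · rintro ⟨a, ha, b, hb, rfl⟩
      exact ⟨_, (hP a).1 ha, _, (hQ b).1 hb, by simp⟩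
    · rintro ⟨a, ha, b, hb, h⟩
      refine ⟨a.map f, ?_, b.map f, ?_, ?_⟩
      · rw [hP]; simpa using ha
      · rw [hQ]; simpa using hb
      · rw [← List.map_append, h, map_symm_map]
  | not P hP =>
    intro w
    show ¬ (w ∈ (mapE f P).lang) ↔ ¬ (w.map f.symm ∈ P.lang)
    rw [hP w]
  | star P hP =>
    intro w
    show w ∈ KStar.kstar (mapE f P).lang ↔ w.map f.symm ∈ KStar.kstar P.lang
    rw [Language.mem_kstar, Language.mem_kstar]
    constructor
    · rintro ⟨S, rfl, hS⟩
      refine ⟨S.map (List.map f.symm), by simp [List.map_flatten], ?_⟩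
      intro y hy
      obtain ⟨x, hx, rfl⟩ := List.mem_map.1 hy
      exact (hP x).1 (hS x hx)
    · rintro ⟨S, h, hS⟩
      refine ⟨S.map (List.map f), ?_, ?_⟩
      · rw [← map_symm_map f w, h, List.map_flatten]
      · intro y hy
        obtain ⟨x, hx, rfl⟩ := List.mem_map.1 hy
        rw [hP]
        simpa using hS x hx

theorem isRegular_map {α : Type u} {β : Type v} (f : α ≃ β) {L : Language α}
    (hL : L.IsRegular) : Language.IsRegular ({w | w.map f.symm ∈ L} : Language β) := by
  obtain ⟨σ, hσ, M, rfl⟩ := hL
  refine ⟨σ, hσ, ⟨fun s b => M.step s (f.symm b), M.start, M.accept⟩, ?_⟩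
  have key : ∀ (w : List β) (s : σ),
      (DFA.mk (fun s b => M.step s (f.symm b)) M.start M.accept).evalFrom s w =
        M.evalFrom s (w.map f.symm) := by
    intro w
    induction w with
    | nil => intro s; rfl
    | cons b w ih => intro s; exact ih _
  ext w
  show (DFA.mk (fun s b => M.step s (f.symm b)) M.start M.accept).evalFrom M.start w ∈ M.accept ↔
    M.evalFrom M.start (w.map f.symm) ∈ M.accept
  rw [key]

/-- The row in every universe from the row over `Type`. -/
theorem of_type0 (k : ℕ)
    (h : ∀ (α : Type) [Finite α] (L : Language α), L.IsRegular →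
      ∃ e : GRegExp α, e.height ≤ k ∧ e.lang = L)
    (α : Type u) [Finite α] (L : Language α) (hL : L.IsRegular) :
    ∃ e : GRegExp α, e.height ≤ k ∧ e.lang = L := by
  obtain ⟨n, ⟨f⟩⟩ := Finite.exists_equiv_fin α
  obtain ⟨e, h1, h2⟩ := h (Fin n) ({w | w.map f.symm ∈ L} : Language (Fin n)) (isRegular_map f hL)
  refine ⟨mapE f.symm e, by rw [height_mapE]; exact h1, ?_⟩
  ext w
  rw [mem_lang_mapE, h2]
  show (w.map f.symm.symm).map f.symm ∈ L ↔ w ∈ L
  rw [map_symm_map f.symm w]

end Crest.Agent.R320.Univ_188
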