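import Mathlib
import Crest.Agent.R320.Fin_47
import Crest.Agent.R320.G1_444
import Crest.Agent.R320.Sp_485
import Crest.Agent.R320.P4b_933
import Crest.Agent.R320.Reg_143
import Crest.Agent.R320.Block_467
import Crest.Agent.R320.Univ_188

/-!
# Row 320: closing the joint (helper47): gadget 1 = G1_444.g1, ruler = Sp_485.spoil
-/

set_option autoImplicit false

namespace Crest.Agent.R320.All_47

open Crest.RegLang Crest.Agent.R320.Hk_851 Crest.Agent.R320.Fin_47
open Crest.Agent.R320.ExactR_237 (pr)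

theorem bad_per (Ms : Finset ℕ) (M m b n : ℕ) (hMs : ∀ k ∈ Ms, k ∣ M) (hb : 0 < b) :
    Sp_485.Bad Ms M m b (n + M * b ^ m) ↔ Sp_485.Bad Ms M m b n := by
  unfold Sp_485.Bad
  have h1 : ∀ k ∈ Ms, (k ∣ n + M * b ^ m ↔ k ∣ n) := fun k hk =>
    (Nat.dvd_add_left ((hMs k hk).trans (dvd_mul_right _ _)))
  have h2 : ∀ j < m, (n + M * b ^ m) / b ^ j % b = n / b ^ j % b := by
    intro j hj
    obtain ⟨d, rfl⟩ : ∃ d, m = j + 1 + d := ⟨m - (j + 1), by omega⟩
    have e : n + M * b ^ (j + 1 + d) = n + b ^ j * (b * (M * b ^ d)) := by ring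
    rw [e, Nat.add_mul_div_left _ _ (pow_pos hb j), Nat.add_mul_mod_self_left]
  constructor
  · rintro (⟨k, hk, h⟩ | ⟨j, hj, h⟩)
    · exact Or.inl ⟨k, hk, (h1 k hk).1 h⟩
    · exact Or.inr ⟨j, hj, by rw [h2 j hj] at h; exact h⟩
  · rintro (⟨k, hk, h⟩ | ⟨j, hj, h⟩)
    · exact Or.inl ⟨k, hk, (h1 k hk).2 h⟩
    · exact Or.inr ⟨j, hj, by rw [h2 j hj]; exact h⟩

theorem gad {A S V : Type} [Finite A] [Monoid S] [Finite S] [AddCommGroup V] [Finite V] (f : A → S)
    (act : V → S → V) : Gad1 f act := by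
  classical
  obtain ⟨m, r, h⟩ := G1_444.g1 S V act
  refine ⟨r + m, fun K => ?_⟩
  obtain ⟨Ms, M, hcard, hMs, hM, h⟩ := h (2 ^ (K + 1))
  obtain ⟨b, hb⟩ : ∃ b, b = M * (2 ^ (K + 4) + 5) + 1 := ⟨_, rfl⟩
  have hexp : M * (2 ^ (K + 4) + 5) = 2 ^ (K + 4) * M + 5 * M := by ring
  have hpow : 1 ≤ 2 ^ (K + 4) := Nat.one_le_two_pow
  have hb1 : 4 * M + 4 < b := by
    have h16 : 16 ≤ 2 ^ (K + 4) := by
      have : 2 ^ 4 ≤ 2 ^ (K + 4) := Nat.pow_le_pow_right (by norm_num) (by omega)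
      simpa using this
    have : 16 * M ≤ 2 ^ (K + 4) * M := Nat.mul_le_mul_right M h16
    omega
  have hb2 : 2 ^ (K + 4) * M + 2 * M ≤ b := by omega
  have hcop : Nat.Coprime b M := by
    rw [hb]
    simp
  obtain ⟨lam, rho, nu, hL, hS, hC, hN⟩ := h b hb1 hcop A f
  obtain ⟨c, c1, c2, c3, c4, c5, _⟩ := Sp_485.spoil Ms M m b K (b ^ m) hM
    (fun k hk => ⟨(hMs k hk).1.le, (hMs k hk).2.2⟩) hcop hb2
  have hbpos : 0 < b := by omega
  refine ⟨lam, rho, nu, b ^ m, 0, Sp_485.Bad Ms M m b, c, ?_, fun P v hP => (hL P v hP).le, ?_,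
    fun i j hij _ => c1 hij, ?_, ?_, ?_, ?_⟩
  · intro P Q v r' h1 h2
    exact hS P Q v r' h1 h2
  · intro Y _ hY v
    unfold Sp_485.Bad at hY
    push Not at hY
    obtain ⟨P, Q, h1, h2, h3⟩ := hC Y hY.1 hY.2 v
    exact ⟨P, Q, h1.symm, h2, h3⟩
  · intro i i' j j' _ _ _ _ hi hj h1 h2
    by_contra hne
    have h3 := c4 i' i j' j hi (fun h => hne h.2)
    have h1' : (c i : ℤ) + c j' < c j + c i' + 2 * (b ^ m : ℕ) := by exact_mod_cast h1
    have h2' : (c j : ℤ) + c i' < c i + c j' + 2 * (b ^ m : ℕ) := by exact_mod_cast h2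
    rw [lt_abs] at h3
    rcases h3 with h3 | h3
    · have : (0 : ℤ) ≤ (b ^ m : ℕ) := Int.natCast_nonneg _
      linarith
    · have : (0 : ℤ) ≤ (b ^ m : ℕ) := Int.natCast_nonneg _
      linarith
  · intro T _ hT I hI
    choose g hg using fun k : {k // k ∈ I} => (hI k.1 k.2).2
    have hle : I.card ≤ ((Finset.range K ×ˢ Finset.range K).filter
          (fun p => p.1 ≠ p.2 ∧ Sp_485.Bad Ms M m b (T + c p.2 - c p.1))).card := by
      rw [← Finset.card_attach]
      refine Finset.card_le_card_of_injOn (fun k => (k.1, g k)) ?_ ?_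
      · intro k _
        obtain ⟨g1, g2, g3⟩ := hg k
        simp only [Finset.coe_filter, Finset.mem_product, Finset.mem_range, Set.mem_setOf_eq]
        exact ⟨⟨(hI k.1 k.2).1, g1⟩, fun h => g2 h.symm, g3⟩
      · intro k _ k' _ h
        exact Subtype.ext (Prod.ext_iff.1 h).1
    have := c5 T (fun i hi => hT i hi)
    omega
  · intro x
    refine Crest.Agent.R320.P4_933.regular_of_class' f (b ^ m) (M * b ^ m)
      (Nat.mul_pos hM (pow_pos hbpos m)) (fun Y => nu Y = x) ?_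
    intro u u' h1 h2 h3 h4 h5
    rw [(hN u u' h1 h2 h3 h4 h5).2]
  · exact Crest.R320.Reg_143.isRegular_length (fun n => Sp_485.Bad Ms M m b n) 0
      (M * b ^ m) (Nat.mul_pos hM (pow_pos hbpos m))
      (fun n _ => bad_per Ms M m b n (fun k hk => (hMs k hk).2.2) hbpos)

theorem main (A : Type) [Finite A] (L : Language A) (hL : L.IsRegular) : HL 3 L := by
  refine of_monoid ?_ L hL
  intro S _ _ φ s
  obtain ⟨act, h1, h2, h3, h4⟩ := Crest.Agent.R320.Blk467.exists_module S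
  exact height3 φ act h1 h2 h3 h4 (gad φ act) s

theorem final (α : Type*) [Finite α] (L : Language α) (hL : L.IsRegular) :
    ∃ e : GRegExp α, e.height ≤ 3 ∧ e.lang = L :=
  Crest.Agent.R320.Univ_188.of_type0 3 (fun A _ L hL => main A L hL) α L hL

end Crest.Agent.R320.All_47
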