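import Mathlib

/-!
Row 320, leaf G3-AMB (helper237, post 13356): at most `1 + 2 * #Ms + (m + 1)` places of the ruler
are ambiguous.
-/

set_option autoImplicit false

namespace Crest.Agent.R320.Amb_107

open Finset

theorem key_hr {K : ℕ} {g : ℕ → ℤ}
    (hr : ∀ a b c d, a < K → b < K → c < K → d < K → |(g a - g b) - (g c - g d)| ≤ 2 →
      (a = b ∧ c = d) ∨ (a = c ∧ b = d))
    {k k' l l' : ℕ} (hk : k < K) (hk' : k' < K) (hl : l < K) (hl' : l' < K) (hne : k' ≠ k)
    (h : |(g k' - g k) - (g l' - g l)| ≤ 2) : k = l := by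
  rcases hr k' k l' l hk' hk hl' hl h with ⟨h1, -⟩ | ⟨-, h2⟩
  · exact absurd h1 hne
  · exact h2

open Classical in
theorem amb (K m : ℕ) (Ms : Finset ℕ) (q N1 T0 T1 PM p0 Gam t0 t1 : ℤ) (th : ℤ → ℤ)
    (Wo Ws : ℤ → Prop) (A : ℕ → ℤ) (g : ℕ → ℤ) (hq : 2 * Gam + 2 < q) (hPM : 0 < PM)
    (hN1 : 0 ≤ N1) (hp : ∀ p ∈ Ms, (p : ℤ) ∣ PM ∧ 2 * Gam + 2 < (p : ℤ))
    (hg : ∀ k < K, 0 ≤ g k ∧ g k ≤ Gam)
    (hr : ∀ a b c d, a < K → b < K → c < K → d < K → |(g a - g b) - (g c - g d)| ≤ 2 →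
      (a = b ∧ c = d) ∨ (a = c ∧ b = d))
    (hth0 : ∀ r, T0 ≤ th r) (hth1 : ∀ r, th r ≤ T1)
    (hsep : ∀ s s' : ℤ, |th (s % q) - th (s' % q)| ≤ 2 * N1 + 2 * ((1 + q * (1 + 4 * PM)) * Gam) →
      s % q = s' % q)
    (hWo : ∀ w w', Wo w → Wo w' → w < w' →
      (T1 - T0) + 2 * N1 + 2 * ((1 + q * (1 + 4 * PM)) * Gam) < w' - w)
    (hWs : ∀ w w', Ws w → Ws w' → w < w' →
      2 * ((1 + q * (1 + 4 * PM)) * Gam) + 2 * (q * PM) < w' - w) :
    ((Finset.range K).filter (fun k => ∃ k' < K, k' ≠ k ∧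
      ((∃ w, Wo w ∧ |w + (1 + q * (1 + 4 * PM)) * (g k' - g k) -
          th ((w + (1 + q * (1 + 4 * PM)) * (g k' - g k)) % q)| ≤ N1) ∨
        (∃ p ∈ Ms, ∃ w, (w = t0 ∨ w = t1) ∧
          (p : ℤ) ∣ (w + (1 + q * (1 + 4 * PM)) * (g k' - g k) - p0) / q) ∨
        (∃ j ≤ m, ∃ w, Ws w ∧
          |w + (1 + q * (1 + 4 * PM)) * (g k' - g k) - (p0 + A j)| ≤ q * PM)))).card
      ≤ 1 + 2 * Ms.card + (m + 1) := by
  set U : ℤ := 1 + q * (1 + 4 * PM) with hU
  have dlt : ∀ k k', k < K → k' < K → |g k' - g k| ≤ Gam := by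
    intro k k' hk hk'
    have h1 := hg k hk
    have h2 := hg k' hk'
    rw [abs_le]; constructor <;> linarith
  rcases Nat.eq_zero_or_pos K with hK | hK
  · subst hK; simp
  have hGam : 0 ≤ Gam := le_trans (hg 0 hK).1 (hg 0 hK).2
  have hq0 : 0 < q := by linarith
  have hqPM : 0 < q * PM := mul_pos hq0 hPM
  have hU0 : 0 < U := by rw [hU]; nlinarith
  have hU2 : 2 * (q * PM) < U := by rw [hU]; nlinarith
  have hUd : ∀ d, |d| ≤ Gam → |U * d| ≤ U * Gam := by
    intro d hd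
    rw [abs_mul, abs_of_pos hU0]
    exact mul_le_mul_of_nonneg_left hd hU0.le
  let FE : Finset ℕ := (range K).filter (fun k => ∃ k' < K, k' ≠ k ∧
    ∃ w, Wo w ∧ |w + U * (g k' - g k) - th ((w + U * (g k' - g k)) % q)| ≤ N1)
  let FB : ℤ → ℕ → Finset ℕ := fun w p => (range K).filter (fun k => ∃ k' < K, k' ≠ k ∧
    (p : ℤ) ∣ (w + U * (g k' - g k) - p0) / q)
  let FD : ℕ → Finset ℕ := fun j => (range K).filter (fun k => ∃ k' < K, k' ≠ k ∧
    ∃ w, Ws w ∧ |w + U * (g k' - g k) - (p0 + A j)| ≤ q * PM)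
  have hFE : FE.card ≤ 1 := by
    rw [Finset.card_le_one]
    intro k hk l hl
    obtain ⟨hkK, k', hk'K, hne, w, hw, hw1⟩ := Finset.mem_filter.1 hk
    obtain ⟨hlK, l', hl'K, -, w', hw', hw1'⟩ := Finset.mem_filter.1 hl
    rw [Finset.mem_range] at hkK hlK
    have hd := dlt k k' hkK hk'K
    have hd' := dlt l l' hlK hl'K
    set d := g k' - g k with hdd
    set d' := g l' - g l with hdd'
    have hUd1 := abs_le.1 (hUd d hd)
    have hUd2 := abs_le.1 (hUd d' hd')
    have a1 := abs_le.1 hw1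
    have a2 := abs_le.1 hw1'
    have b1 := hth0 ((w + U * d) % q)
    have b2 := hth1 ((w + U * d) % q)
    have b3 := hth0 ((w' + U * d') % q)
    have b4 := hth1 ((w' + U * d') % q)
    have hww : w = w' := by
      rcases lt_trichotomy w w' with h | h | h
      · have := hWo w w' hw hw' h
        linarith [a1.1, a1.2, a2.1, a2.2, hUd1.1, hUd1.2, hUd2.1, hUd2.2]
      · exact h
      · have := hWo w' w hw' hw h
        linarith [a1.1, a1.2, a2.1, a2.2, hUd1.1, hUd1.2, hUd2.1, hUd2.2]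
    subst hww
    have hs := hsep (w + U * d) (w + U * d') (by
      rw [abs_le]
      constructor <;> linarith [a1.1, a1.2, a2.1, a2.2, hUd1.1, hUd1.2, hUd2.1, hUd2.2])
    have hdvd : q ∣ d - d' := by
      have h1 : q ∣ (w + U * d) - (w + U * d') := Int.ModEq.dvd hs.symm
      have h2 : (w + U * d) - (w + U * d') = (d - d') + q * ((1 + 4 * PM) * (d - d')) := by
        rw [hU]; ring
      rw [h2] at h1
      exact (dvd_add_left (dvd_mul_right _ _)).1 h1
    have hzero : d - d' = 0 := by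
      apply Int.eq_zero_of_abs_lt_dvd hdvd
      have h1 := abs_le.1 hd
      have h2 := abs_le.1 hd'
      rw [abs_lt]; constructor <;> linarith [h1.1, h1.2, h2.1, h2.2]
    exact key_hr hr hkK hk'K hlK hl'K hne (by rw [← hdd, ← hdd', hzero]; norm_num)
  have hFB : ∀ w, ∀ p ∈ Ms, (FB w p).card ≤ 1 := by
    intro w p hpM
    obtain ⟨hpd, hpG⟩ := hp p hpM
    rw [Finset.card_le_one]
    intro k hk l hl
    obtain ⟨hkK, k', hk'K, hne, h1⟩ := Finset.mem_filter.1 hk
    obtain ⟨hlK, l', hl'K, -, h2⟩ := Finset.mem_filter.1 hl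
    rw [Finset.mem_range] at hkK hlK
    have hd := abs_le.1 (dlt k k' hkK hk'K)
    have hd' := abs_le.1 (dlt l l' hlK hl'K)
    set d := g k' - g k with hdd
    set d' := g l' - g l with hdd'
    have e : ∀ x : ℤ, (w + U * x - p0) / q = (w + x - p0) / q + (1 + 4 * PM) * x := by
      intro x
      have : w + U * x - p0 = (w + x - p0) + q * ((1 + 4 * PM) * x) := by rw [hU]; ring
      rw [this, Int.add_mul_ediv_left _ _ hq0.ne']
    rw [e] at h1 h2
    have h3 : (p : ℤ) ∣ ((w + d - p0) / q - (w + d' - p0) / q) + (d - d') := by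
      have h4 := dvd_sub h1 h2
      have h5 : (w + d - p0) / q + (1 + 4 * PM) * d - ((w + d' - p0) / q + (1 + 4 * PM) * d')
          = ((w + d - p0) / q - (w + d' - p0) / q) + (d - d') + PM * (4 * (d - d')) := by ring
      rw [h5] at h4
      exact (dvd_add_left (Dvd.dvd.mul_right hpd _)).1 h4
    -- floor difference
    have hf1 : (w + d - p0) / q - (w + d' - p0) / q ≤ 1 := by
      have h6 : (w + d - p0) / q ≤ (w + d' - p0 + q) / q :=
        Int.ediv_le_ediv hq0 (by linarith [hd.1, hd.2, hd'.1, hd'.2])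
      rw [Int.add_ediv_of_dvd_right (dvd_refl q), Int.ediv_self hq0.ne'] at h6
      linarith
    have hf2 : -1 ≤ (w + d - p0) / q - (w + d' - p0) / q := by
      have h6 : (w + d' - p0) / q ≤ (w + d - p0 + q) / q :=
        Int.ediv_le_ediv hq0 (by linarith [hd.1, hd.2, hd'.1, hd'.2])
      rw [Int.add_ediv_of_dvd_right (dvd_refl q), Int.ediv_self hq0.ne'] at h6
      linarith
    have hz : ((w + d - p0) / q - (w + d' - p0) / q) + (d - d') = 0 := by
      apply Int.eq_zero_of_abs_lt_dvd h3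
      rw [abs_lt]; constructor <;> linarith [hd.1, hd.2, hd'.1, hd'.2]
    refine key_hr hr hkK hk'K hlK hl'K hne ?_
    rw [← hdd, ← hdd', abs_le]
    constructor <;> linarith
  have hFD : ∀ j, (FD j).card ≤ 1 := by
    intro j
    rw [Finset.card_le_one]
    intro k hk l hl
    obtain ⟨hkK, k', hk'K, hne, w, hw, hw1⟩ := Finset.mem_filter.1 hk
    obtain ⟨hlK, l', hl'K, -, w', hw', hw1'⟩ := Finset.mem_filter.1 hl
    rw [Finset.mem_range] at hkK hlK
    have hd := dlt k k' hkK hk'K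
    have hd' := dlt l l' hlK hl'K
    set d := g k' - g k with hdd
    set d' := g l' - g l with hdd'
    have hUd1 := abs_le.1 (hUd d hd)
    have hUd2 := abs_le.1 (hUd d' hd')
    have a1 := abs_le.1 hw1
    have a2 := abs_le.1 hw1'
    have hww : w = w' := by
      rcases lt_trichotomy w w' with h | h | h
      · have := hWs w w' hw hw' h
        linarith [a1.1, a1.2, a2.1, a2.2, hUd1.1, hUd1.2, hUd2.1, hUd2.2]
      · exact h
      · have := hWs w' w hw' hw h
        linarith [a1.1, a1.2, a2.1, a2.2, hUd1.1, hUd1.2, hUd2.1, hUd2.2]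
    subst hww
    have hz : d - d' = 0 := by
      by_contra hc
      have h1 : 1 ≤ |d - d'| := Int.one_le_abs hc
      have h2 : |U * (d - d')| ≤ 2 * (q * PM) := by
        rw [abs_le]
        constructor
        · have : U * (d - d') = (w + U * d - (p0 + A j)) - (w + U * d' - (p0 + A j)) := by ring
          rw [this]; linarith [a1.1, a2.2]
        · have : U * (d - d') = (w + U * d - (p0 + A j)) - (w + U * d' - (p0 + A j)) := by ring
          rw [this]; linarith [a1.2, a2.1]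
      rw [abs_mul, abs_of_pos hU0] at h2
      nlinarith
    exact key_hr hr hkK hk'K hlK hl'K hne (by rw [← hdd, ← hdd', hz]; norm_num)
  have hsub : ((Finset.range K).filter (fun k => ∃ k' < K, k' ≠ k ∧
      ((∃ w, Wo w ∧ |w + U * (g k' - g k) - th ((w + U * (g k' - g k)) % q)| ≤ N1) ∨
        (∃ p ∈ Ms, ∃ w, (w = t0 ∨ w = t1) ∧ (p : ℤ) ∣ (w + U * (g k' - g k) - p0) / q) ∨
        (∃ j ≤ m, ∃ w, Ws w ∧ |w + U * (g k' - g k) - (p0 + A j)| ≤ q * PM)))) ⊆
      (FE ∪ Ms.biUnion (fun p => FB t0 p ∪ FB t1 p)) ∪ (range (m + 1)).biUnion FD := by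
    intro k hk
    obtain ⟨hkK, k', hk'K, hne, h⟩ := Finset.mem_filter.1 hk
    rcases h with ⟨w, hw, hw1⟩ | ⟨p, hpM, w, hw, hw1⟩ | ⟨j, hj, w, hw, hw1⟩
    · exact Finset.mem_union_left _ (Finset.mem_union_left _
        (Finset.mem_filter.2 ⟨hkK, k', hk'K, hne, w, hw, hw1⟩))
    · refine Finset.mem_union_left _ (Finset.mem_union_right _ (Finset.mem_biUnion.2 ⟨p, hpM, ?_⟩))
      rcases hw with rfl | rfl
      · exact Finset.mem_union_left _ (Finset.mem_filter.2 ⟨hkK, k', hk'K, hne, hw1⟩)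
      · exact Finset.mem_union_right _ (Finset.mem_filter.2 ⟨hkK, k', hk'K, hne, hw1⟩)
    · exact Finset.mem_union_right _ (Finset.mem_biUnion.2
        ⟨j, Finset.mem_range.2 (by omega), Finset.mem_filter.2 ⟨hkK, k', hk'K, hne, w, hw, hw1⟩⟩)
  refine (Finset.card_le_card hsub).trans ((Finset.card_union_le _ _).trans ?_)
  have c1 : (FE ∪ Ms.biUnion (fun p => FB t0 p ∪ FB t1 p)).card ≤ 1 + 2 * Ms.card := by
    refine (Finset.card_union_le _ _).trans (add_le_add hFE ?_)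
    refine (Finset.card_biUnion_le_card_mul _ _ 2 fun p hpM => ?_).trans (by rw [Nat.mul_comm])
    exact (Finset.card_union_le _ _).trans (add_le_add (hFB t0 p hpM) (hFB t1 p hpM))
  have c2 : ((range (m + 1)).biUnion FD).card ≤ m + 1 := by
    refine (Finset.card_biUnion_le_card_mul _ _ 1 fun j _ => hFD j).trans ?_
    rw [Finset.card_range, Nat.mul_one]
  exact add_le_add c1 c2

end Crest.Agent.R320.Amb_107
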