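import Mathlib

/-!
Row 320, leaf G3-AMB of helper237 (post 13356): the spoiling count of the one ruler of scheme 2.
-/

set_option autoImplicit false

namespace Crest.Agent.R320.Amb_125

open Finset

/-- from equal differences to equal indices -/
theorem eq_of_hr {K : ℕ} {g : ℕ → ℤ}
    (hr : ∀ a b c d, a < K → b < K → c < K → d < K → |(g a - g b) - (g c - g d)| ≤ 2 →
      (a = b ∧ c = d) ∨ (a = c ∧ b = d))
    {k k' l l' : ℕ} (hk : k < K) (hk' : k' < K) (hl : l < K) (hl' : l' < K) (hne : k' ≠ k)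
    (h : |(g k' - g k) - (g l' - g l)| ≤ 2) : k = l := by
  rcases hr k' k l' l hk' hk hl' hl h with h1 | h1
  · exact (hne h1.1).elim
  · exact h1.2

theorem abs_le_Gam {K : ℕ} {g : ℕ → ℤ} {Gam : ℤ} (hg : ∀ k < K, 0 ≤ g k ∧ g k ≤ Gam)
    {k k' : ℕ} (hk : k < K) (hk' : k' < K) : |g k' - g k| ≤ Gam := by
  have h1 := hg k hk
  have h2 := hg k' hk'
  rw [abs_le]
  constructor <;> linarith [h1.1, h1.2, h2.1, h2.2]

theorem mul_abs_le {U Gam d : ℤ} (hU : 0 < U) (h : |d| ≤ Gam) : |U * d| ≤ U * Gam := by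
  rw [abs_mul, abs_of_pos hU]
  exact mul_le_mul_of_nonneg_left h hU.le

/-- the outer wall event -/
theorem evE {q N1 T0 T1 PM Gam : ℤ} {th : ℤ → ℤ} {Wo : ℤ → Prop} {U : ℤ}
    (hU : U = 1 + q*(1+4*PM)) (hU0 : 0 < U) (hq : 2*Gam + 2 < q) (hG : 0 ≤ Gam)
    (hth0 : ∀ r, T0 ≤ th r) (hth1 : ∀ r, th r ≤ T1)
    (hsep : ∀ s s' : ℤ, |th (s % q) - th (s' % q)| ≤ 2*N1 + 2*(U*Gam) → s % q = s' % q)
    (hWo : ∀ w w', Wo w → Wo w' → w < w' → (T1 - T0) + 2*N1 + 2*(U*Gam) < w' - w)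
    {d1 d2 w1 w2 : ℤ} (h1 : |d1| ≤ Gam) (h2 : |d2| ≤ Gam) (hw1 : Wo w1) (hw2 : Wo w2)
    (e1 : |w1 + U*d1 - th ((w1 + U*d1) % q)| ≤ N1)
    (e2 : |w2 + U*d2 - th ((w2 + U*d2) % q)| ≤ N1) : d1 = d2 := by
  have a1 := mul_abs_le hU0 h1
  have a2 := mul_abs_le hU0 h2
  rw [abs_le] at a1 a2 e1 e2
  have b1 := hth0 ((w1 + U*d1) % q)
  have b2 := hth1 ((w1 + U*d1) % q)
  have b3 := hth0 ((w2 + U*d2) % q)
  have b4 := hth1 ((w2 + U*d2) % q)
  have hw : w1 = w2 := by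
    rcases lt_trichotomy w1 w2 with h | h | h
    · have := hWo w1 w2 hw1 hw2 h
      linarith [a1.1, a1.2, a2.1, a2.2, e1.1, e1.2, e2.1, e2.2]
    · exact h
    · have := hWo w2 w1 hw2 hw1 h
      linarith [a1.1, a1.2, a2.1, a2.2, e1.1, e1.2, e2.1, e2.2]
  subst hw
  have hs : (w1 + U*d1) % q = (w1 + U*d2) % q := by
    apply hsep
    rw [abs_le]
    constructor <;> linarith [a1.1, a1.2, a2.1, a2.2, e1.1, e1.2, e2.1, e2.2]
  have hd : q ∣ (w1 + U*d1) - (w1 + U*d2) := by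
    have := Int.ModEq.dvd (show (w1 + U*d2) ≡ (w1 + U*d1) [ZMOD q] from hs.symm)
    exact this
  have hd2 : q ∣ d1 - d2 := by
    have e : (w1 + U*d1) - (w1 + U*d2) = (d1 - d2) + q * ((1+4*PM) * (d1 - d2)) := by
      rw [hU]; ring
    rw [e] at hd
    exact (dvd_add_left (dvd_mul_right q _)).1 hd
  rw [abs_le] at h1 h2
  have hz : d1 - d2 = 0 := by
    apply Int.eq_zero_of_abs_lt_dvd hd2
    rw [abs_lt]
    constructor <;> linarith [h1.1, h1.2, h2.1, h2.2]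
  linarith

/-- the clock event -/
theorem evB {q PM Gam : ℤ} {U : ℤ} {p X : ℤ}
    (hU : U = 1 + q*(1+4*PM)) (hq : 2*Gam + 2 < q) (hG : 0 ≤ Gam)
    (hp1 : p ∣ PM) (hp2 : 2*Gam + 2 < p)
    {d1 d2 : ℤ} (h1 : |d1| ≤ Gam) (h2 : |d2| ≤ Gam)
    (e1 : p ∣ (X + U*d1) / q) (e2 : p ∣ (X + U*d2) / q) : |d1 - d2| ≤ 1 := by
  have hq0 : 0 < q := by linarith
  have key : ∀ d : ℤ, (X + U*d) / q = (X + d) / q + (1+4*PM) * d := by
    intro d
    have : X + U*d = (X + d) + q * ((1+4*PM) * d) := by rw [hU]; ring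
    rw [this, Int.add_mul_ediv_left _ _ hq0.ne']
  rw [key] at e1 e2
  have hdiff : p ∣ ((X + d1) / q - (X + d2) / q) + (d1 - d2) := by
    have h3 := dvd_sub e1 e2
    have h4 : p ∣ 4 * PM * (d1 - d2) := by
      obtain ⟨c, hc⟩ := hp1
      exact ⟨4 * c * (d1 - d2), by rw [hc]; ring⟩
    have e : ((X + d1) / q - (X + d2) / q) + (d1 - d2)
        = ((X + d1) / q + (1+4*PM) * d1 - ((X + d2) / q + (1+4*PM) * d2)) - 4 * PM * (d1 - d2) := by
      ring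
    rw [e]
    exact dvd_sub h3 h4
  rw [abs_le] at h1 h2
  have f1 := Int.mul_ediv_self_le (x := X + d1) (k := q) hq0.ne'
  have f2 := Int.lt_mul_ediv_self_add (x := X + d1) (k := q) hq0
  have f3 := Int.mul_ediv_self_le (x := X + d2) (k := q) hq0.ne'
  have f4 := Int.lt_mul_ediv_self_add (x := X + d2) (k := q) hq0
  have g1 : (X + d1) / q - (X + d2) / q ≤ 1 := by
    by_contra hcon
    push Not at hcon
    have : q * 2 ≤ q * ((X + d1) / q - (X + d2) / q) :=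
      mul_le_mul_of_nonneg_left (by linarith) hq0.le
    nlinarith [h1.1, h1.2, h2.1, h2.2]
  have g2 : -1 ≤ (X + d1) / q - (X + d2) / q := by
    by_contra hcon
    push Not at hcon
    have : q * 2 ≤ q * ((X + d2) / q - (X + d1) / q) :=
      mul_le_mul_of_nonneg_left (by linarith) hq0.le
    nlinarith [h1.1, h1.2, h2.1, h2.2]
  have hz : ((X + d1) / q - (X + d2) / q) + (d1 - d2) = 0 := by
    apply Int.eq_zero_of_abs_lt_dvd hdiff
    rw [abs_lt]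
    constructor <;> linarith [h1.1, h1.2, h2.1, h2.2]
  rw [abs_le]
  constructor <;> linarith

/-- the small wall event -/
theorem evD {q PM Gam : ℤ} {U : ℤ} {Ws : ℤ → Prop} {Y : ℤ}
    (hU : U = 1 + q*(1+4*PM)) (hU0 : 0 < U) (hq0 : 0 < q) (hPM : 0 < PM)
    (hWs : ∀ w w', Ws w → Ws w' → w < w' → 2*(U*Gam) + 2*(q*PM) < w' - w)
    {d1 d2 w1 w2 : ℤ} (h1 : |d1| ≤ Gam) (h2 : |d2| ≤ Gam) (hw1 : Ws w1) (hw2 : Ws w2)
    (e1 : |w1 + U*d1 - Y| ≤ q*PM) (e2 : |w2 + U*d2 - Y| ≤ q*PM) : d1 = d2 := by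
  have a1 := mul_abs_le hU0 h1
  have a2 := mul_abs_le hU0 h2
  rw [abs_le] at a1 a2 e1 e2
  have hw : w1 = w2 := by
    rcases lt_trichotomy w1 w2 with h | h | h
    · have := hWs w1 w2 hw1 hw2 h
      linarith [a1.1, a1.2, a2.1, a2.2, e1.1, e1.2, e2.1, e2.2]
    · exact h
    · have := hWs w2 w1 hw2 hw1 h
      linarith [a1.1, a1.2, a2.1, a2.2, e1.1, e1.2, e2.1, e2.2]
  subst hw
  have hqp : 0 < q * PM := mul_pos hq0 hPM
  have hU2 : 2 * (q * PM) < U := by rw [hU]; nlinarith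
  rcases lt_trichotomy d1 d2 with h | h | h
  · have : U * 1 ≤ U * (d2 - d1) := mul_le_mul_of_nonneg_left (by linarith) hU0.le
    exfalso
    linarith [e1.1, e1.2, e2.1, e2.2, mul_sub U d2 d1]
  · exact h
  · have : U * 1 ≤ U * (d1 - d2) := mul_le_mul_of_nonneg_left (by linarith) hU0.le
    exfalso
    linarith [e1.1, e1.2, e2.1, e2.2, mul_sub U d1 d2]

open Classical in
/-- **leaf G3-AMB** -/
theorem amb (K m : ℕ) (Ms : Finset ℕ) (q N1 T0 T1 PM p0 Gam t0 t1 : ℤ) (th : ℤ → ℤ)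
    (Wo Ws : ℤ → Prop) (A : ℕ → ℤ) (g : ℕ → ℤ)
    (hq : 2*Gam + 2 < q) (hPM : 0 < PM) (hN1 : 0 ≤ N1)
    (hp : ∀ p ∈ Ms, (p:ℤ) ∣ PM ∧ 2*Gam + 2 < (p:ℤ))
    (hg : ∀ k < K, 0 ≤ g k ∧ g k ≤ Gam)
    (hr : ∀ a b c d, a < K → b < K → c < K → d < K → |(g a - g b) - (g c - g d)| ≤ 2 →
      (a = b ∧ c = d) ∨ (a = c ∧ b = d))
    (hth0 : ∀ r, T0 ≤ th r) (hth1 : ∀ r, th r ≤ T1)
    (hsep : ∀ s s' : ℤ, |th (s % q) - th (s' % q)| ≤ 2*N1 + 2*((1 + q*(1+4*PM))*Gam) →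
      s % q = s' % q)
    (hWo : ∀ w w', Wo w → Wo w' → w < w' →
      (T1 - T0) + 2*N1 + 2*((1 + q*(1+4*PM))*Gam) < w' - w)
    (hWs : ∀ w w', Ws w → Ws w' → w < w' →
      2*((1 + q*(1+4*PM))*Gam) + 2*(q*PM) < w' - w) :
    ((Finset.range K).filter (fun k => ∃ k' < K, k' ≠ k ∧
      ((∃ w, Wo w ∧ |w + (1+q*(1+4*PM))*(g k' - g k) -
          th ((w + (1+q*(1+4*PM))*(g k' - g k)) % q)| ≤ N1) ∨
        (∃ p ∈ Ms, ∃ w, (w = t0 ∨ w = t1) ∧
          (p:ℤ) ∣ (w + (1+q*(1+4*PM))*(g k' - g k) - p0) / q) ∨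
        (∃ j ≤ m, ∃ w, Ws w ∧
          |w + (1+q*(1+4*PM))*(g k' - g k) - (p0 + A j)| ≤ q*PM)))).card
      ≤ 1 + 2*Ms.card + (m+1) := by
  rcases Nat.eq_zero_or_pos K with hK | hK
  · subst hK; simp
  have hG : 0 ≤ Gam := (hg 0 hK).1.trans (hg 0 hK).2
  have hq0 : 0 < q := by linarith
  have hU0 : 0 < 1 + q*(1+4*PM) := by positivity
  obtain ⟨U, hU⟩ : ∃ U : ℤ, U = 1 + q*(1+4*PM) := ⟨_, rfl⟩
  rw [← hU] at hU0 hsep hWo hWs ⊢
  set FE := (Finset.range K).filter (fun k => ∃ k' < K, k' ≠ k ∧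
    ∃ w, Wo w ∧ |w + U*(g k' - g k) - th ((w + U*(g k' - g k)) % q)| ≤ N1) with hFE
  let FB : ℕ → ℤ → Finset ℕ := fun p w => (Finset.range K).filter (fun k => ∃ k' < K, k' ≠ k ∧
    (p:ℤ) ∣ (w + U*(g k' - g k) - p0) / q)
  let FD : ℕ → Finset ℕ := fun j => (Finset.range K).filter (fun k => ∃ k' < K, k' ≠ k ∧
    ∃ w, Ws w ∧ |w + U*(g k' - g k) - (p0 + A j)| ≤ q*PM)
  have cE : FE.card ≤ 1 := by
    rw [Finset.card_le_one]
    intro k hk l hl
    rw [hFE, Finset.mem_filter, Finset.mem_range] at hk hl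
    obtain ⟨hk0, k', hk', hkne, w1, hw1, e1⟩ := hk
    obtain ⟨hl0, l', hl', hlne, w2, hw2, e2⟩ := hl
    have := evE hU hU0 hq hG hth0 hth1 hsep hWo (abs_le_Gam hg hk0 hk') (abs_le_Gam hg hl0 hl')
      hw1 hw2 e1 e2
    exact eq_of_hr hr hk0 hk' hl0 hl' hkne (by rw [this]; simp)
  have cB : ∀ p ∈ Ms, ∀ w, (FB p w).card ≤ 1 := by
    intro p hpm w
    rw [Finset.card_le_one]
    intro k hk l hl
    simp only [FB, Finset.mem_filter, Finset.mem_range] at hk hl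
    obtain ⟨hk0, k', hk', hkne, e1⟩ := hk
    obtain ⟨hl0, l', hl', hlne, e2⟩ := hl
    rw [show w + U*(g k' - g k) - p0 = (w - p0) + U*(g k' - g k) by ring] at e1
    rw [show w + U*(g l' - g l) - p0 = (w - p0) + U*(g l' - g l) by ring] at e2
    have := evB hU hq hG (hp p hpm).1 (hp p hpm).2 (abs_le_Gam hg hk0 hk')
      (abs_le_Gam hg hl0 hl') e1 e2
    exact eq_of_hr hr hk0 hk' hl0 hl' hkne (this.trans (by norm_num))
  have cD : ∀ j, (FD j).card ≤ 1 := by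
    intro j
    rw [Finset.card_le_one]
    intro k hk l hl
    simp only [FD, Finset.mem_filter, Finset.mem_range] at hk hl
    obtain ⟨hk0, k', hk', hkne, w1, hw1, e1⟩ := hk
    obtain ⟨hl0, l', hl', hlne, w2, hw2, e2⟩ := hl
    have := evD hU hU0 hq0 hPM hWs (abs_le_Gam hg hk0 hk') (abs_le_Gam hg hl0 hl')
      hw1 hw2 e1 e2
    exact eq_of_hr hr hk0 hk' hl0 hl' hkne (by rw [this]; simp)
  have hsub : ((Finset.range K).filter (fun k => ∃ k' < K, k' ≠ k ∧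
      ((∃ w, Wo w ∧ |w + U*(g k' - g k) - th ((w + U*(g k' - g k)) % q)| ≤ N1) ∨
        (∃ p ∈ Ms, ∃ w, (w = t0 ∨ w = t1) ∧ (p:ℤ) ∣ (w + U*(g k' - g k) - p0) / q) ∨
        (∃ j ≤ m, ∃ w, Ws w ∧ |w + U*(g k' - g k) - (p0 + A j)| ≤ q*PM)))) ⊆
      FE ∪ (Ms.biUnion (fun p => FB p t0 ∪ FB p t1) ∪ (Finset.range (m+1)).biUnion FD) := by
    intro k hk
    rw [Finset.mem_filter, Finset.mem_range] at hk
    obtain ⟨hk0, k', hk', hkne, h | h | h⟩ := hk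
    · apply Finset.mem_union_left
      rw [hFE, Finset.mem_filter, Finset.mem_range]
      exact ⟨hk0, k', hk', hkne, h⟩
    · apply Finset.mem_union_right
      apply Finset.mem_union_left
      obtain ⟨p, hpm, w, hw, e⟩ := h
      rw [Finset.mem_biUnion]
      refine ⟨p, hpm, ?_⟩
      rcases hw with rfl | rfl
      · apply Finset.mem_union_left
        simp only [FB, Finset.mem_filter, Finset.mem_range]
        exact ⟨hk0, k', hk', hkne, e⟩
      · apply Finset.mem_union_right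
        simp only [FB, Finset.mem_filter, Finset.mem_range]
        exact ⟨hk0, k', hk', hkne, e⟩
    · apply Finset.mem_union_right
      apply Finset.mem_union_right
      obtain ⟨j, hj, h⟩ := h
      rw [Finset.mem_biUnion]
      refine ⟨j, Finset.mem_range.2 (by omega), ?_⟩
      simp only [FD, Finset.mem_filter, Finset.mem_range]
      exact ⟨hk0, k', hk', hkne, h⟩
  refine (Finset.card_le_card hsub).trans ?_
  refine (Finset.card_union_le _ _).trans ?_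
  have h2 : (Ms.biUnion (fun p => FB p t0 ∪ FB p t1)).card ≤ 2 * Ms.card := by
    refine Finset.card_biUnion_le.trans ?_
    calc ∑ p ∈ Ms, (FB p t0 ∪ FB p t1).card ≤ ∑ _p ∈ Ms, 2 := by
          refine Finset.sum_le_sum fun p hpm => (Finset.card_union_le _ _).trans ?_
          have := cB p hpm t0
          have := cB p hpm t1
          omega
      _ = 2 * Ms.card := by simp [mul_comm]
  have h3 : ((Finset.range (m+1)).biUnion FD).card ≤ m + 1 := by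
    refine Finset.card_biUnion_le.trans ?_
    calc ∑ j ∈ Finset.range (m+1), (FD j).card ≤ ∑ _j ∈ Finset.range (m+1), 1 :=
          Finset.sum_le_sum fun j _ => cD j
      _ = m + 1 := by simp
  have h4 := Finset.card_union_le (Ms.biUnion (fun p => FB p t0 ∪ FB p t1))
    ((Finset.range (m+1)).biUnion FD)
  omega

end Crest.Agent.R320.Amb_125
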