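import Mathlib

/-!
Leaf G3-AMB of helper237 (#13356): the ambiguity bound of scheme 2 of row 320.
For a ruler `g` with resolution 3 only `1 + 2 |Ms| + (m+1)` marks can be spoiled by the
outer walls near their thresholds (E), by the moduli (B) and by the small walls (D).
-/

namespace Crest.Agent.R320.Amb_161

open Classical

/-- one event spoils at most one mark -/
theorem card_le_one_of_pairs (K : ℕ) (g : ℕ → ℤ) (E : ℤ → Prop)
    (hr : ∀ a b c d, a < K → b < K → c < K → d < K → |(g a - g b) - (g c - g d)| ≤ 2 →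
      (a = b ∧ c = d) ∨ (a = c ∧ b = d))
    (hE : ∀ x y, (∃ a b, a < K ∧ b < K ∧ x = g a - g b) → (∃ a b, a < K ∧ b < K ∧ y = g a - g b) →
      E x → E y → |x - y| ≤ 2)
    [DecidablePred (fun k => ∃ k' < K, k' ≠ k ∧ E (g k' - g k))] :
    ((Finset.range K).filter (fun k => ∃ k' < K, k' ≠ k ∧ E (g k' - g k))).card ≤ 1 := by
  rw [Finset.card_le_one]
  intro a ha b hb
  simp only [Finset.mem_filter, Finset.mem_range] at ha hb
  obtain ⟨haK, a', ha', haa, hEa⟩ := ha
  obtain ⟨hbK, b', hb', hbb, hEb⟩ := hb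
  have h := hE _ _ ⟨a', a, ha', haK, rfl⟩ ⟨b', b, hb', hbK, rfl⟩ hEa hEb
  rcases hr a' a b' b ha' haK hb' hbK h with h1 | h1
  · exact absurd h1.1 haa
  · exact h1.2

theorem amb (K m : ℕ) (Ms : Finset ℕ) (q N1 T0 T1 PM p0 Gam t0 t1 : ℤ) (th : ℤ → ℤ)
    (Wo Ws : ℤ → Prop) (A : ℕ → ℤ) (g : ℕ → ℤ) (hq : 2 * Gam + 2 < q) (hPM : 0 < PM)
    (hN1 : 0 ≤ N1) (hp : ∀ p ∈ Ms, (p : ℤ) ∣ PM ∧ 2 * Gam + 2 < (p : ℤ))
    (hg : ∀ k < K, 0 ≤ g k ∧ g k ≤ Gam)
    (hr : ∀ a b c d, a < K → b < K → c < K → d < K → |(g a - g b) - (g c - g d)| ≤ 2 →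
      (a = b ∧ c = d) ∨ (a = c ∧ b = d))
    (hth0 : ∀ r, T0 ≤ th r) (hth1 : ∀ r, th r ≤ T1)
    (hsep : ∀ s s' : ℤ, |th (s % q) - th (s' % q)| ≤ 2 * N1 + 2 * ((1 + q * (1 + 4 * PM)) * Gam) →
      s % q = s' % q)
    (hWo : ∀ w w', Wo w → Wo w' → w < w' →
      (T1 - T0) + 2 * N1 + 2 * ((1 + q * (1 + 4 * PM)) * Gam) < w' - w)
    (hWs : ∀ w w', Ws w → Ws w' → w < w' →
      2 * ((1 + q * (1 + 4 * PM)) * Gam) + 2 * (q * PM) < w' - w) :
    ((Finset.range K).filter (fun k => ∃ k' < K, k' ≠ k ∧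
      ((∃ w, Wo w ∧ |w + (1 + q * (1 + 4 * PM)) * (g k' - g k) -
          th ((w + (1 + q * (1 + 4 * PM)) * (g k' - g k)) % q)| ≤ N1) ∨
       (∃ p ∈ Ms, ∃ w, (w = t0 ∨ w = t1) ∧
          (p : ℤ) ∣ (w + (1 + q * (1 + 4 * PM)) * (g k' - g k) - p0) / q) ∨
       (∃ j ≤ m, ∃ w, Ws w ∧
          |w + (1 + q * (1 + 4 * PM)) * (g k' - g k) - (p0 + A j)| ≤ q * PM)))).card
      ≤ 1 + 2 * Ms.card + (m + 1) := by
  classical
  rcases Nat.eq_zero_or_pos K with hK | hK
  · subst hK; simp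
  have hGam : 0 ≤ Gam := le_trans (hg 0 hK).1 (hg 0 hK).2
  have hq0 : 0 < q := by linarith
  obtain ⟨U, hU⟩ : ∃ U, U = 1 + q * (1 + 4 * PM) := ⟨_, rfl⟩
  rw [← hU] at hsep hWo hWs
  simp only [← hU]
  have hqPM : 0 < q * PM := mul_pos hq0 hPM
  have hU0 : 2 * (q * PM) < U := by rw [hU]; nlinarith
  have hUpos : 0 < U := by linarith
  have hd : ∀ x, (∃ a b, a < K ∧ b < K ∧ x = g a - g b) → -Gam ≤ x ∧ x ≤ Gam := by
    rintro x ⟨a, b, ha, hb, rfl⟩
    have h1 := hg a ha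
    have h2 := hg b hb
    constructor <;> linarith
  have hUd : ∀ x, -Gam ≤ x ∧ x ≤ Gam → -(U * Gam) ≤ U * x ∧ U * x ≤ U * Gam := by
    rintro x ⟨h1, h2⟩
    constructor <;> nlinarith
  -- the three kinds of events
  set E0 : ℤ → Prop := fun d => ∃ w, Wo w ∧ |w + U * d - th ((w + U * d) % q)| ≤ N1 with hE0
  set E1 : ℕ → ℤ → ℤ → Prop := fun p w d => (p : ℤ) ∣ (w + U * d - p0) / q with hE1
  set E2 : ℕ → ℤ → Prop := fun j d => ∃ w, Ws w ∧ |w + U * d - (p0 + A j)| ≤ q * PM with hE2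
  have c0 : ((Finset.range K).filter (fun k => ∃ k' < K, k' ≠ k ∧ E0 (g k' - g k))).card ≤ 1 := by
    apply card_le_one_of_pairs K g E0 hr
    rintro x y hx hy ⟨w, hw, hwx⟩ ⟨w', hw', hwy⟩
    have hx1 := hUd x (hd x hx)
    have hy1 := hUd y (hd y hy)
    have hx2 := hd x hx
    have hy2 := hd y hy
    rw [abs_le] at hwx hwy
    have a1 := hth0 ((w + U * x) % q)
    have a2 := hth1 ((w + U * x) % q)
    have a3 := hth0 ((w' + U * y) % q)
    have a4 := hth1 ((w' + U * y) % q)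
    have hww : w = w' := by
      rcases lt_trichotomy w w' with h | h | h
      · have := hWo _ _ hw hw' h
        exfalso; linarith [hwx.1, hwx.2, hwy.1, hwy.2]
      · exact h
      · have := hWo _ _ hw' hw h
        exfalso; linarith [hwx.1, hwx.2, hwy.1, hwy.2]
    subst hww
    have hs : (w + U * x) % q = (w + U * y) % q := by
      apply hsep
      rw [abs_le]
      constructor <;> linarith [hwx.1, hwx.2, hwy.1, hwy.2]
    have hdvd : q ∣ (w + U * y) - (w + U * x) :=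
      Int.dvd_of_emod_eq_zero (Int.emod_eq_emod_iff_emod_sub_eq_zero.mp hs.symm)
    have hdvd2 : q ∣ y - x := by
      have e : (w + U * y) - (w + U * x) = (y - x) + q * ((1 + 4 * PM) * (y - x)) := by
        rw [hU]; ring
      rw [e] at hdvd
      exact (Int.dvd_add_left (Dvd.intro _ rfl)).mp hdvd
    have hyx : y - x = 0 := by
      apply Int.eq_zero_of_abs_lt_dvd hdvd2
      rw [abs_lt]
      constructor <;> linarith [hx2.1, hx2.2, hy2.1, hy2.2]
    have : x - y = 0 := by linarith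
    rw [this]; simp
  have c1 : ∀ p ∈ Ms, ∀ w, ((Finset.range K).filter
      (fun k => ∃ k' < K, k' ≠ k ∧ E1 p w (g k' - g k))).card ≤ 1 := by
    intro p hpM w
    apply card_le_one_of_pairs K g (E1 p w) hr
    intro x y hx hy hEx hEy
    have hx2 := hd x hx
    have hy2 := hd y hy
    have key : ∀ x, (p : ℤ) ∣ (w + U * x - p0) / q → (p : ℤ) ∣ (w + x - p0) / q + x := by
      intro x h
      have e : w + U * x - p0 = (w + x - p0) + q * ((1 + 4 * PM) * x) := by rw [hU]; ring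
      rw [e, Int.add_mul_ediv_left _ _ hq0.ne'] at h
      have e2 : (w + x - p0) / q + (1 + 4 * PM) * x = ((w + x - p0) / q + x) + PM * (4 * x) := by
        ring
      rw [e2] at h
      exact (Int.dvd_add_left (dvd_mul_of_dvd_left (hp p hpM).1 _)).mp h
    have h1 := key x hEx
    have h2 := key y hEy
    have h3 := dvd_sub h1 h2
    -- division differences
    have d1 := Int.mul_ediv_add_emod (w + x - p0) q
    have d2 := Int.mul_ediv_add_emod (w + y - p0) q
    have m1 := Int.emod_nonneg (w + x - p0) hq0.ne'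
    have m2 := Int.emod_nonneg (w + y - p0) hq0.ne'
    have m3 := Int.emod_lt_of_pos (w + x - p0) hq0
    have m4 := Int.emod_lt_of_pos (w + y - p0) hq0
    obtain ⟨u, hu⟩ : ∃ u, u = (w + x - p0) / q := ⟨_, rfl⟩
    obtain ⟨v, hv⟩ : ∃ v, v = (w + y - p0) / q := ⟨_, rfl⟩
    rw [← hu] at d1 h3
    rw [← hv] at d2 h3
    have huv : u - v ≤ 1 := by
      by_contra hc
      have : 2 ≤ u - v := by linarith [Int.not_le.mp hc]
      nlinarith [hx2.1, hx2.2, hy2.1, hy2.2]
    have hvu : v - u ≤ 1 := by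
      by_contra hc
      have : 2 ≤ v - u := by linarith [Int.not_le.mp hc]
      nlinarith [hx2.1, hx2.2, hy2.1, hy2.2]
    have hz : u + x - (v + y) = 0 := by
      apply Int.eq_zero_of_abs_lt_dvd h3
      have := (hp p hpM).2
      rw [abs_lt]
      constructor <;> linarith [hx2.1, hx2.2, hy2.1, hy2.2]
    rw [abs_le]
    constructor <;> linarith
  have c2 : ∀ j, ((Finset.range K).filter
      (fun k => ∃ k' < K, k' ≠ k ∧ E2 j (g k' - g k))).card ≤ 1 := by
    intro j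
    apply card_le_one_of_pairs K g (E2 j) hr
    rintro x y hx hy ⟨w, hw, hwx⟩ ⟨w', hw', hwy⟩
    have hx1 := hUd x (hd x hx)
    have hy1 := hUd y (hd y hy)
    rw [abs_le] at hwx hwy
    have hww : w = w' := by
      rcases lt_trichotomy w w' with h | h | h
      · have := hWs _ _ hw hw' h
        exfalso; linarith [hwx.1, hwx.2, hwy.1, hwy.2]
      · exact h
      · have := hWs _ _ hw' hw h
        exfalso; linarith [hwx.1, hwx.2, hwy.1, hwy.2]
    subst hww
    have hxy : x = y := by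
      rcases lt_trichotomy x y with h | h | h
      · exfalso
        have : x + 1 ≤ y := h
        nlinarith [hwx.1, hwx.2, hwy.1, hwy.2]
      · exact h
      · exfalso
        have : y + 1 ≤ x := h
        nlinarith [hwx.1, hwx.2, hwy.1, hwy.2]
    rw [hxy]; simp
  -- union bound
  let F0 := (Finset.range K).filter (fun k => ∃ k' < K, k' ≠ k ∧ E0 (g k' - g k))
  let F1 : ℤ → Finset ℕ := fun w => Ms.biUnion (fun p => (Finset.range K).filter
      (fun k => ∃ k' < K, k' ≠ k ∧ E1 p w (g k' - g k)))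
  let F2 := (Finset.range (m + 1)).biUnion (fun j => (Finset.range K).filter
      (fun k => ∃ k' < K, k' ≠ k ∧ E2 j (g k' - g k)))
  have hsub : ((Finset.range K).filter (fun k => ∃ k' < K, k' ≠ k ∧
      (E0 (g k' - g k) ∨
       (∃ p ∈ Ms, ∃ w, (w = t0 ∨ w = t1) ∧ E1 p w (g k' - g k)) ∨
       (∃ j ≤ m, E2 j (g k' - g k))))) ⊆ F0 ∪ (F1 t0 ∪ F1 t1) ∪ F2 := by
    intro k hk
    simp only [Finset.mem_filter, Finset.mem_range] at hk
    obtain ⟨hkK, k', hk', hne, h⟩ := hk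
    simp only [F0, F1, F2, Finset.mem_union, Finset.mem_biUnion, Finset.mem_filter,
      Finset.mem_range]
    rcases h with h | ⟨p, hpM, w, hw, h⟩ | ⟨j, hj, h⟩
    · left; left; exact ⟨hkK, k', hk', hne, h⟩
    · left; right
      rcases hw with rfl | rfl
      · left; exact ⟨p, hpM, hkK, k', hk', hne, h⟩
      · right; exact ⟨p, hpM, hkK, k', hk', hne, h⟩
    · right; exact ⟨j, Nat.lt_succ_of_le hj, hkK, k', hk', hne, h⟩
  have hF1 : ∀ w, (F1 w).card ≤ Ms.card := by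
    intro w
    calc (F1 w).card ≤ Ms.card * 1 := Finset.card_biUnion_le_card_mul _ _ _ (fun p hpM => c1 p hpM w)
      _ = Ms.card := mul_one _
  have hF2 : F2.card ≤ m + 1 := by
    calc F2.card ≤ (Finset.range (m + 1)).card * 1 :=
          Finset.card_biUnion_le_card_mul _ _ _ (fun j _ => c2 j)
      _ = m + 1 := by simp
  calc _ ≤ (F0 ∪ (F1 t0 ∪ F1 t1) ∪ F2).card := Finset.card_le_card hsub
    _ ≤ (F0 ∪ (F1 t0 ∪ F1 t1)).card + F2.card := Finset.card_union_le _ _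
    _ ≤ F0.card + (F1 t0 ∪ F1 t1).card + F2.card := by
        have := Finset.card_union_le F0 (F1 t0 ∪ F1 t1); omega
    _ ≤ 1 + 2 * Ms.card + (m + 1) := by
        have h1 := Finset.card_union_le (F1 t0) (F1 t1)
        have h2 := hF1 t0
        have h3 := hF1 t1
        have h4 : F0.card ≤ 1 := c0
        omega

end Crest.Agent.R320.Amb_161
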