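import Mathlib

/-!
Row 320, leaf G3-AMB of helper237 (promise ruler: at most `1 + 2 |Ms| + (m + 1)` marks see a
second plausible candidate).
-/

set_option autoImplicit false

namespace Crest.Agent.R320.Amb_182

open scoped Classical in
theorem amb (K m : ℕ) (Ms : Finset ℕ) (q N1 T0 T1 PM p0 Gam t0 t1 : ℤ) (th : ℤ → ℤ)
    (Wo Ws : ℤ → Prop) (A : ℕ → ℤ) (g : ℕ → ℤ) (hq : 2 * Gam + 2 < q) (hPM : 0 < PM)
    (hN1 : 0 ≤ N1) (hp : ∀ p ∈ Ms, (p : ℤ) ∣ PM ∧ 2 * Gam + 2 < (p : ℤ))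
    (hg : ∀ k < K, 0 ≤ g k ∧ g k ≤ Gam)
    (hr : ∀ a b c d, a < K → b < K → c < K → d < K → |(g a - g b) - (g c - g d)| ≤ 2 →
      (a = b ∧ c = d) ∨ (a = c ∧ b = d))
    (hth0 : ∀ r, T0 ≤ th r) (hth1 : ∀ r, th r ≤ T1)
    (hsep : ∀ s s' : ℤ, |th (s % q) - th (s' % q)| ≤ 2 * N1 + 2 * ((1 + q * (1 + 4 * PM)) * Gam) →
      s % q = s' % q)
    (hWo : ∀ w w', Wo w → Wo w' → w < w' →
      (T1 - T0) + 2 * N1 + 2 * ((1 + q * (1 + 4 * PM)) * Gam) < w' - w)
    (hWs : ∀ w w', Ws w → Ws w' → w < w' →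
      2 * ((1 + q * (1 + 4 * PM)) * Gam) + 2 * (q * PM) < w' - w) :
    ((Finset.range K).filter (fun k => ∃ k' < K, k' ≠ k ∧
      ((∃ w, Wo w ∧ |w + (1 + q * (1 + 4 * PM)) * (g k' - g k)
          - th ((w + (1 + q * (1 + 4 * PM)) * (g k' - g k)) % q)| ≤ N1) ∨
       (∃ p ∈ Ms, ∃ w, (w = t0 ∨ w = t1) ∧
          (p : ℤ) ∣ (w + (1 + q * (1 + 4 * PM)) * (g k' - g k) - p0) / q) ∨
       (∃ j ≤ m, ∃ w, Ws w ∧
          |w + (1 + q * (1 + 4 * PM)) * (g k' - g k) - (p0 + A j)| ≤ q * PM)))).card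
      ≤ 1 + 2 * Ms.card + (m + 1) := by
  set U : ℤ := 1 + q * (1 + 4 * PM) with hU
  -- basic sizes
  rcases Nat.eq_zero_or_pos K with hK0 | hKpos
  · subst hK0; simp
  have hGam : 0 ≤ Gam := le_trans (hg 0 hKpos).1 (hg 0 hKpos).2
  have hq0 : 0 < q := by linarith
  have hUpos : 0 < U := by rw [hU]; positivity
  -- differences of the ruler
  have hdb : ∀ a b, a < K → b < K → |g a - g b| ≤ Gam := by
    intro a b ha hb
    have h1 := hg a ha
    have h2 := hg b hb
    rw [abs_le]; constructor <;> linarith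
  have hUd : ∀ a b, a < K → b < K → |U * (g a - g b)| ≤ U * Gam := by
    intro a b ha hb
    rw [abs_mul, abs_of_pos hUpos]
    exact mul_le_mul_of_nonneg_left (hdb a b ha hb) hUpos.le
  -- the key: same event => same pair
  have key : ∀ a b c d, a < K → b < K → c < K → d < K → a ≠ b → c ≠ d →
      |(g a - g b) - (g c - g d)| ≤ 1 → b = d := by
    intro a b c d ha hb hc hd hab _ h
    rcases hr a b c d ha hb hc hd (by linarith) with h1 | h1
    · exact absurd h1.1 hab
    · exact h1.2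
  -- (E)
  have hE : ∀ a b c d, a < K → b < K → c < K → d < K → a ≠ b → c ≠ d →
      (∃ w, Wo w ∧ |w + U * (g a - g b) - th ((w + U * (g a - g b)) % q)| ≤ N1) →
      (∃ w, Wo w ∧ |w + U * (g c - g d) - th ((w + U * (g c - g d)) % q)| ≤ N1) → b = d := by
    rintro a b c d ha hb hc hd hab hcd ⟨w, hw, h1⟩ ⟨w', hw', h2⟩
    have e1 := abs_le.1 (hUd a b ha hb)
    have e2 := abs_le.1 (hUd c d hc hd)
    have e3 := abs_le.1 h1
    have e4 := abs_le.1 h2
    have l1 := hth0 ((w + U * (g a - g b)) % q)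
    have l2 := hth1 ((w + U * (g a - g b)) % q)
    have l3 := hth0 ((w' + U * (g c - g d)) % q)
    have l4 := hth1 ((w' + U * (g c - g d)) % q)
    have hww : w = w' := by
      rcases lt_trichotomy w w' with h | h | h
      · have := hWo w w' hw hw' h
        linarith [e1.1, e1.2, e2.1, e2.2, e3.1, e3.2, e4.1, e4.2]
      · exact h
      · have := hWo w' w hw' hw h
        linarith [e1.1, e1.2, e2.1, e2.2, e3.1, e3.2, e4.1, e4.2]
    subst hww
    have hmod := hsep (w + U * (g a - g b)) (w + U * (g c - g d)) (by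
      rw [abs_le]
      constructor <;> linarith [e1.1, e1.2, e2.1, e2.2, e3.1, e3.2, e4.1, e4.2])
    have h5 : q ∣ (w + U * (g a - g b)) - (w + U * (g c - g d)) :=
      Int.dvd_of_emod_eq_zero (Int.emod_eq_emod_iff_emod_sub_eq_zero.1 hmod)
    have h6 : (w + U * (g a - g b)) - (w + U * (g c - g d))
        = q * ((1 + 4 * PM) * ((g a - g b) - (g c - g d))) + ((g a - g b) - (g c - g d)) := by
      rw [hU]; ring
    rw [h6] at h5
    have h7 : q ∣ (g a - g b) - (g c - g d) := (dvd_add_right (dvd_mul_right _ _)).1 h5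
    have h8 : |(g a - g b) - (g c - g d)| < q := by
      have f1 := abs_le.1 (hdb a b ha hb)
      have f2 := abs_le.1 (hdb c d hc hd)
      rw [abs_lt]; constructor <;> linarith [f1.1, f1.2, f2.1, f2.2]
    have h9 := Int.eq_zero_of_abs_lt_dvd h7 h8
    exact key a b c d ha hb hc hd hab hcd (by rw [h9]; norm_num)
  -- (B)
  have hB : ∀ a b c d, a < K → b < K → c < K → d < K → a ≠ b → c ≠ d → ∀ p ∈ Ms, ∀ w : ℤ,
      (p : ℤ) ∣ (w + U * (g a - g b) - p0) / q →
      (p : ℤ) ∣ (w + U * (g c - g d) - p0) / q → b = d := by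
    intro a b c d ha hb hc hd hab hcd p hpM w h1 h2
    obtain ⟨hpd, hpl⟩ := hp p hpM
    have split : ∀ x : ℤ, (w + U * x - p0) / q = (w - p0 + x) / q + (1 + 4 * PM) * x := by
      intro x
      have : w + U * x - p0 = (w - p0 + x) + q * ((1 + 4 * PM) * x) := by rw [hU]; ring
      rw [this, Int.add_mul_ediv_left _ _ hq0.ne']
    rw [split] at h1 h2
    set x := g a - g b with hx
    set y := g c - g d with hy
    have hxb := abs_le.1 (hdb a b ha hb)
    have hyb := abs_le.1 (hdb c d hc hd)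
    rw [← hx] at hxb
    rw [← hy] at hyb
    -- floor difference is in {-1,0,1}
    set F1 := (w - p0 + x) / q with hF1
    set F2 := (w - p0 + y) / q with hF2
    have m1 := Int.mul_ediv_add_emod (w - p0 + x) q
    have m2 := Int.mul_ediv_add_emod (w - p0 + y) q
    have n1 := Int.emod_nonneg (w - p0 + x) hq0.ne'
    have n2 := Int.emod_lt_of_pos (w - p0 + x) hq0
    have n3 := Int.emod_nonneg (w - p0 + y) hq0.ne'
    have n4 := Int.emod_lt_of_pos (w - p0 + y) hq0
    rw [← hF1] at m1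
    rw [← hF2] at m2
    have hFd : |F1 - F2| ≤ 1 := by
      rw [abs_le]
      constructor
      · by_contra hcon
        push Not at hcon
        have : F1 - F2 ≤ -2 := by omega
        have : q * (F1 - F2) ≤ q * (-2) := mul_le_mul_of_nonneg_left this hq0.le
        nlinarith [hxb.1, hxb.2, hyb.1, hyb.2]
      · by_contra hcon
        push Not at hcon
        have : 2 ≤ F1 - F2 := by omega
        have : q * 2 ≤ q * (F1 - F2) := mul_le_mul_of_nonneg_left this hq0.le
        nlinarith [hxb.1, hxb.2, hyb.1, hyb.2]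
    have hsub : (p : ℤ) ∣ (F1 + (1 + 4 * PM) * x) - (F2 + (1 + 4 * PM) * y) := dvd_sub h1 h2
    have heq : (F1 + (1 + 4 * PM) * x) - (F2 + (1 + 4 * PM) * y)
        = PM * (4 * (x - y)) + ((F1 - F2) + (x - y)) := by ring
    rw [heq] at hsub
    have hd3 : (p : ℤ) ∣ (F1 - F2) + (x - y) :=
      (dvd_add_right (Dvd.dvd.mul_right hpd _)).1 hsub
    have hFd' := abs_le.1 hFd
    have hlt : |(F1 - F2) + (x - y)| < (p : ℤ) := by
      rw [abs_lt]
      constructor <;> linarith [hxb.1, hxb.2, hyb.1, hyb.2, hFd'.1, hFd'.2]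
    have h0 := Int.eq_zero_of_abs_lt_dvd hd3 hlt
    refine key a b c d ha hb hc hd hab hcd ?_
    rw [← hx, ← hy, abs_le]
    constructor <;> linarith [hFd'.1, hFd'.2]
  -- (D)
  have hD : ∀ a b c d, a < K → b < K → c < K → d < K → a ≠ b → c ≠ d → ∀ j : ℕ,
      (∃ w, Ws w ∧ |w + U * (g a - g b) - (p0 + A j)| ≤ q * PM) →
      (∃ w, Ws w ∧ |w + U * (g c - g d) - (p0 + A j)| ≤ q * PM) → b = d := by
    rintro a b c d ha hb hc hd hab hcd j ⟨w, hw, h1⟩ ⟨w', hw', h2⟩
    have e1 := abs_le.1 (hUd a b ha hb)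
    have e2 := abs_le.1 (hUd c d hc hd)
    have e3 := abs_le.1 h1
    have e4 := abs_le.1 h2
    have hww : w = w' := by
      rcases lt_trichotomy w w' with h | h | h
      · have := hWs w w' hw hw' h
        linarith [e1.1, e1.2, e2.1, e2.2, e3.1, e3.2, e4.1, e4.2]
      · exact h
      · have := hWs w' w hw' hw h
        linarith [e1.1, e1.2, e2.1, e2.2, e3.1, e3.2, e4.1, e4.2]
    subst hww
    have h5 : |U * ((g a - g b) - (g c - g d))| ≤ 2 * (q * PM) := by
      have : U * ((g a - g b) - (g c - g d))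
          = (w + U * (g a - g b) - (p0 + A j)) - (w + U * (g c - g d) - (p0 + A j)) := by ring
      rw [this, abs_le]
      constructor <;> linarith [e3.1, e3.2, e4.1, e4.2]
    have h6 : |(g a - g b) - (g c - g d)| < 1 := by
      by_contra hcon
      push Not at hcon
      rw [abs_mul, abs_of_pos hUpos] at h5
      have h7 : U * 1 ≤ U * |(g a - g b) - (g c - g d)| :=
        mul_le_mul_of_nonneg_left hcon hUpos.le
      have h8 : 0 < q * PM := mul_pos hq0 hPM
      have h9 : U = 1 + q + 4 * (q * PM) := by rw [hU]; ring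
      linarith
    exact key a b c d ha hb hc hd hab hcd h6.le
  -- pigeonhole
  set Sx := (Finset.range K).filter (fun k => ∃ k' < K, k' ≠ k ∧
      ((∃ w, Wo w ∧ |w + U * (g k' - g k) - th ((w + U * (g k' - g k)) % q)| ≤ N1) ∨
       (∃ p ∈ Ms, ∃ w, (w = t0 ∨ w = t1) ∧ (p : ℤ) ∣ (w + U * (g k' - g k) - p0) / q) ∨
       (∃ j ≤ m, ∃ w, Ws w ∧ |w + U * (g k' - g k) - (p0 + A j)| ≤ q * PM))) with hSx
  let I := Unit ⊕ (Ms × Bool) ⊕ Fin (m + 1)
  let Ev : I → ℕ → ℕ → Prop := fun i k' k => match i with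
    | Sum.inl _ => ∃ w, Wo w ∧ |w + U * (g k' - g k) - th ((w + U * (g k' - g k)) % q)| ≤ N1
    | Sum.inr (Sum.inl (p, b)) =>
        ((p : ℕ) : ℤ) ∣ ((if b then t1 else t0) + U * (g k' - g k) - p0) / q
    | Sum.inr (Sum.inr j) =>
        ∃ w, Ws w ∧ |w + U * (g k' - g k) - (p0 + A j)| ≤ q * PM
  have hex : ∀ k ∈ Sx, ∃ i : I, ∃ k' < K, k' ≠ k ∧ Ev i k' k := by
    intro k hk
    rw [hSx, Finset.mem_filter] at hk
    obtain ⟨_, k', hk', hne, h⟩ := hk
    rcases h with h | ⟨p, hpM, w, hw, h⟩ | ⟨j, hj, h⟩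
    · exact ⟨Sum.inl (), k', hk', hne, h⟩
    · rcases hw with rfl | rfl
      · exact ⟨Sum.inr (Sum.inl (⟨p, hpM⟩, false)), k', hk', hne, h⟩
      · exact ⟨Sum.inr (Sum.inl (⟨p, hpM⟩, true)), k', hk', hne, h⟩
    · exact ⟨Sum.inr (Sum.inr ⟨j, Nat.lt_succ_of_le hj⟩), k', hk', hne, h⟩
  have huniq : ∀ (i : I) (a b c d : ℕ), a < K → b < K → c < K → d < K → a ≠ b → c ≠ d →
      Ev i a b → Ev i c d → b = d := by
    intro i a b c d ha hb hc hd hab hcd h1 h2
    rcases i with u | ⟨p, s⟩ | j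
    · exact hE a b c d ha hb hc hd hab hcd h1 h2
    · exact hB a b c d ha hb hc hd hab hcd p p.2 _ h1 h2
    · exact hD a b c d ha hb hc hd hab hcd j h1 h2
  choose! ι hι using hex
  have hinj : Set.InjOn ι (Sx : Set ℕ) := by
    intro b hb d hd hbd
    obtain ⟨a, ha, hab, h1⟩ := hι b hb
    obtain ⟨c, hc, hcd, h2⟩ := hι d hd
    have hbK : b < K := Finset.mem_range.1 (Finset.mem_filter.1 hb).1
    have hdK : d < K := Finset.mem_range.1 (Finset.mem_filter.1 hd).1
    rw [← hbd] at h2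
    exact huniq (ι b) a b c d ha hbK hc hdK hab hcd h1 h2
  have hcard : Sx.card ≤ Fintype.card I := by
    have := Finset.card_le_card_of_injOn (s := Sx) (t := (Finset.univ : Finset I)) ι
      (fun _ _ => Finset.mem_univ _) hinj
    simpa using this
  have hI : Fintype.card I = 1 + 2 * Ms.card + (m + 1) := by
    simp only [I, Fintype.card_sum, Fintype.card_prod, Fintype.card_coe, Fintype.card_fin,
      Fintype.card_unit, Fintype.card_bool]
    ring
  rw [hI] at hcard
  exact hcard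

end Crest.Agent.R320.Amb_182
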