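import Mathlib

/-!
# Row 320, leaf G3-AMB of helper237 (#13356) (helper256)
-/

set_option autoImplicit false

namespace Crest.Agent.R320.Amb_256

open Classical in
theorem amb (K m : ℕ) (Ms : Finset ℕ) (q N1 T0 T1 PM p0 Gam t0 t1 : ℤ) (th : ℤ → ℤ)
    (Wo Ws : ℤ → Prop) (A : ℕ → ℤ) (g : ℕ → ℤ) (hq : 2*Gam + 2 < q) (hPM : 0 < PM)
    (hN1 : 0 ≤ N1) (hp : ∀ p ∈ Ms, (p:ℤ) ∣ PM ∧ 2*Gam + 2 < (p:ℤ))
    (hg : ∀ k < K, 0 ≤ g k ∧ g k ≤ Gam)
    (hr : ∀ a b c d, a < K → b < K → c < K → d < K → |(g a - g b) - (g c - g d)| ≤ 2 →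
      (a = b ∧ c = d) ∨ (a = c ∧ b = d))
    (hth0 : ∀ r, T0 ≤ th r) (hth1 : ∀ r, th r ≤ T1)
    (hsep : ∀ s s' : ℤ, |th (s % q) - th (s' % q)| ≤ 2*N1 + 2*((1 + q*(1+4*PM))*Gam) →
      s % q = s' % q)
    (hWo : ∀ w w', Wo w → Wo w' → w < w' →
      (T1 - T0) + 2*N1 + 2*((1 + q*(1+4*PM))*Gam) < w' - w)
    (hWs : ∀ w w', Ws w → Ws w' → w < w' →
      2*((1 + q*(1+4*PM))*Gam) + 2*(q*PM) < w' - w) :
    ((Finset.range K).filter (fun k => ∃ k' < K, k' ≠ k ∧
      ( (∃ w, Wo w ∧ |w + (1+q*(1+4*PM))*(g k' - g k)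
          - th ((w + (1+q*(1+4*PM))*(g k' - g k)) % q)| ≤ N1) ∨
        (∃ p ∈ Ms, ∃ w, (w = t0 ∨ w = t1) ∧
          (p:ℤ) ∣ (w + (1+q*(1+4*PM))*(g k' - g k) - p0) / q) ∨
        (∃ j ≤ m, ∃ w, Ws w ∧ |w + (1+q*(1+4*PM))*(g k' - g k) - (p0 + A j)| ≤ q*PM) ))).card
      ≤ 1 + 2*Ms.card + (m+1) := by
  set U : ℤ := 1 + q*(1+4*PM) with hU
  -- the three kinds of events
  let EE : ℕ → ℕ → Prop := fun k k' => ∃ w, Wo w ∧ |w + U*(g k' - g k)
      - th ((w + U*(g k' - g k)) % q)| ≤ N1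
  let EB : ℕ → ℤ → ℕ → ℕ → Prop := fun p w k k' => (p:ℤ) ∣ (w + U*(g k' - g k) - p0) / q
  let ED : ℕ → ℕ → ℕ → Prop := fun j k k' =>
    ∃ w, Ws w ∧ |w + U*(g k' - g k) - (p0 + A j)| ≤ q*PM
  let SS : (ℕ → ℕ → Prop) → Finset ℕ := fun E =>
    (Finset.range K).filter (fun k => ∃ k' < K, k' ≠ k ∧ E k k')
  -- an event which pins the difference up to 2 spoils at most one element
  have one : ∀ E : ℕ → ℕ → Prop,
      (∀ k1 k1' k2 k2', k1 < K → k1' < K → k2 < K → k2' < K → E k1 k1' → E k2 k2' →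
        |(g k1' - g k1) - (g k2' - g k2)| ≤ 2) → (SS E).card ≤ 1 := by
    intro E hE
    refine Finset.card_le_one.2 ?_
    intro a ha b hb
    simp only [SS, Finset.mem_filter, Finset.mem_range] at ha hb
    obtain ⟨ha, a', ha', hne, hEa⟩ := ha
    obtain ⟨hb, b', hb', hne', hEb⟩ := hb
    rcases hr a' a b' b ha' ha hb' hb (hE a a' b b' ha ha' hb hb' hEa hEb) with h | h
    · exact absurd h.1 hne
    · exact h.2
  have bnd : ∀ k k', k < K → k' < K → -Gam ≤ g k' - g k ∧ g k' - g k ≤ Gam := by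
    intro k k' hk hk'
    have h1 := hg k hk
    have h2 := hg k' hk'
    constructor <;> linarith [h1.1, h1.2, h2.1, h2.2]
  have hE : (SS EE).card ≤ 1 := by
    refine one _ ?_
    rintro k1 k1' k2 k2' h1 h1' h2 h2' ⟨w1, hw1, he1⟩ ⟨w2, hw2, he2⟩
    obtain ⟨b1, b1'⟩ := bnd k1 k1' h1 h1'
    obtain ⟨b2, b2'⟩ := bnd k2 k2' h2 h2'
    set d1 := g k1' - g k1
    set d2 := g k2' - g k2
    have hG : 0 ≤ Gam := by linarith
    have hq0 : 0 < q := by linarith
    have hU0 : 0 < U := by rw [hU]; positivity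
    have u1 : U * (d1 - d2) ≤ 2 * (U * Gam) := by nlinarith
    have u2 : -(2 * (U * Gam)) ≤ U * (d1 - d2) := by nlinarith
    have e1 := abs_le.1 he1
    have e2 := abs_le.1 he2
    have a1 := hth0 ((w1 + U * d1) % q)
    have a2 := hth1 ((w1 + U * d1) % q)
    have a3 := hth0 ((w2 + U * d2) % q)
    have a4 := hth1 ((w2 + U * d2) % q)
    have hdist : U * (d1 - d2) = U * d1 - U * d2 := by ring
    have hw : w1 = w2 := by
      rcases lt_trichotomy w1 w2 with h | h | h
      · exfalso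
        have := hWo w1 w2 hw1 hw2 h
        linarith [e1.1, e1.2, e2.1, e2.2]
      · exact h
      · exfalso
        have := hWo w2 w1 hw2 hw1 h
        linarith [e1.1, e1.2, e2.1, e2.2]
    subst hw
    have hmod : (w1 + U * d1) % q = (w1 + U * d2) % q := by
      refine hsep _ _ ?_
      rw [abs_le]
      constructor <;> linarith [e1.1, e1.2, e2.1, e2.2]
    have hdvd : q ∣ (d1 - d2) := by
      have h3 : q ∣ (w1 + U * d1) - (w1 + U * d2) :=
        Int.ModEq.dvd (show (w1 + U * d2) ≡ (w1 + U * d1) [ZMOD q] from hmod.symm)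
      have h4 : (w1 + U * d1) - (w1 + U * d2) = (d1 - d2) + q * ((1+4*PM) * (d1 - d2)) := by
        rw [hU]; ring
      rw [h4] at h3
      exact (Int.dvd_add_left (Dvd.intro _ rfl)).1 h3
    have hz : d1 - d2 = 0 := by
      refine Int.eq_zero_of_abs_lt_dvd hdvd ?_
      rw [abs_lt]
      constructor <;> linarith
    rw [hz]; norm_num
  have hB : ∀ p ∈ Ms, ∀ w : ℤ, (SS (EB p w)).card ≤ 1 := by
    intro p hpM w
    refine one _ ?_
    intro k1 k1' k2 k2' h1 h1' h2 h2' he1 he2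
    obtain ⟨b1, b1'⟩ := bnd k1 k1' h1 h1'
    obtain ⟨b2, b2'⟩ := bnd k2 k2' h2 h2'
    simp only [EB] at he1 he2
    set d1 := g k1' - g k1
    set d2 := g k2' - g k2
    have hG : 0 ≤ Gam := by linarith
    have hq0 : 0 < q := by linarith
    obtain ⟨hpp, hpG⟩ := hp p hpM
    have f : ∀ d : ℤ, (w + U * d - p0) / q = (w + d - p0) / q + (1+4*PM) * d := by
      intro d
      have : w + U * d - p0 = (w + d - p0) + q * ((1+4*PM) * d) := by rw [hU]; ring
      rw [this, Int.add_mul_ediv_left _ _ (ne_of_gt hq0)]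
    rw [f] at he1 he2
    have h5 := dvd_sub he1 he2
    obtain ⟨c, hc⟩ := hpp
    have h6 : (w + d1 - p0) / q + (1+4*PM) * d1 - ((w + d2 - p0) / q + (1+4*PM) * d2)
        = ((w + d1 - p0) / q - (w + d2 - p0) / q + (d1 - d2)) + (p:ℤ) * (4 * c * (d1 - d2)) := by
      rw [hc]; ring
    rw [h6] at h5
    have h7 : (p:ℤ) ∣ ((w + d1 - p0) / q - (w + d2 - p0) / q + (d1 - d2)) :=
      (Int.dvd_add_left (Dvd.intro _ rfl)).1 h5
    -- the quotients differ by at most one
    have k1e := Int.emod_add_mul_ediv (w + d1 - p0) q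
    have k2e := Int.emod_add_mul_ediv (w + d2 - p0) q
    have k3 := Int.emod_nonneg (w + d1 - p0) (ne_of_gt hq0)
    have k4 := Int.emod_lt_of_pos (w + d1 - p0) hq0
    have k5 := Int.emod_nonneg (w + d2 - p0) (ne_of_gt hq0)
    have k6 := Int.emod_lt_of_pos (w + d2 - p0) hq0
    set x1 := (w + d1 - p0) / q
    set x2 := (w + d2 - p0) / q
    have h8 : x1 - x2 ≤ 1 := by
      by_contra hcon
      push Not at hcon
      have : q * 2 ≤ q * (x1 - x2) := mul_le_mul_of_nonneg_left (by omega) hq0.le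
      have h9 : q * (x1 - x2) = q * x1 - q * x2 := by ring
      linarith
    have h8' : -1 ≤ x1 - x2 := by
      by_contra hcon
      push Not at hcon
      have : q * 2 ≤ q * (x2 - x1) := mul_le_mul_of_nonneg_left (by omega) hq0.le
      have h9 : q * (x2 - x1) = q * x2 - q * x1 := by ring
      linarith
    have h10 : x1 - x2 + (d1 - d2) = 0 := by
      refine Int.eq_zero_of_abs_lt_dvd h7 ?_
      rw [abs_lt]
      constructor <;> linarith
    rw [abs_le]
    constructor <;> linarith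
  have hD : ∀ j, (SS (ED j)).card ≤ 1 := by
    intro j
    refine one _ ?_
    rintro k1 k1' k2 k2' h1 h1' h2 h2' ⟨w1, hw1, he1⟩ ⟨w2, hw2, he2⟩
    obtain ⟨b1, b1'⟩ := bnd k1 k1' h1 h1'
    obtain ⟨b2, b2'⟩ := bnd k2 k2' h2 h2'
    set d1 := g k1' - g k1
    set d2 := g k2' - g k2
    have hG : 0 ≤ Gam := by linarith
    have hq0 : 0 < q := by linarith
    have hU0 : 0 < U := by rw [hU]; positivity
    have u1 : U * (d1 - d2) ≤ 2 * (U * Gam) := by nlinarith
    have u2 : -(2 * (U * Gam)) ≤ U * (d1 - d2) := by nlinarith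
    have e1 := abs_le.1 he1
    have e2 := abs_le.1 he2
    have hdist : U * (d1 - d2) = U * d1 - U * d2 := by ring
    have hw : w1 = w2 := by
      rcases lt_trichotomy w1 w2 with h | h | h
      · exfalso
        have := hWs w1 w2 hw1 hw2 h
        linarith [e1.1, e1.2, e2.1, e2.2]
      · exact h
      · exfalso
        have := hWs w2 w1 hw2 hw1 h
        linarith [e1.1, e1.2, e2.1, e2.2]
    subst hw
    have hqPM : 0 < q * PM := mul_pos hq0 hPM
    have hUbig : 2 * (q * PM) < U := by rw [hU]; nlinarith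
    have hlt : d1 - d2 < 1 := by
      by_contra hcon
      push Not at hcon
      have : U * 1 ≤ U * (d1 - d2) := mul_le_mul_of_nonneg_left hcon hU0.le
      linarith [e1.1, e1.2, e2.1, e2.2]
    have hgt : -1 < d1 - d2 := by
      by_contra hcon
      push Not at hcon
      have : U * 1 ≤ U * (d2 - d1) := mul_le_mul_of_nonneg_left (by linarith) hU0.le
      have h9 : U * (d2 - d1) = U * d2 - U * d1 := by ring
      linarith [e1.1, e1.2, e2.1, e2.2]
    have : d1 - d2 = 0 := by omega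
    rw [this]; norm_num
  -- covering
  have hsub : (Finset.range K).filter (fun k => ∃ k' < K, k' ≠ k ∧
      ( (∃ w, Wo w ∧ |w + U*(g k' - g k) - th ((w + U*(g k' - g k)) % q)| ≤ N1) ∨
        (∃ p ∈ Ms, ∃ w, (w = t0 ∨ w = t1) ∧ (p:ℤ) ∣ (w + U*(g k' - g k) - p0) / q) ∨
        (∃ j ≤ m, ∃ w, Ws w ∧ |w + U*(g k' - g k) - (p0 + A j)| ≤ q*PM) ))
      ⊆ (SS EE ∪ Ms.biUnion (fun p => SS (EB p t0) ∪ SS (EB p t1))) ∪
        (Finset.range (m+1)).biUnion (fun j => SS (ED j)) := by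
    intro k hk
    simp only [Finset.mem_filter, Finset.mem_range] at hk
    obtain ⟨hk, k', hk', hne, h | ⟨p, hpM, w, hw, hdv⟩ | ⟨j, hj, h⟩⟩ := hk
    · refine Finset.mem_union_left _ (Finset.mem_union_left _ ?_)
      simp only [SS, Finset.mem_filter, Finset.mem_range]
      exact ⟨hk, k', hk', hne, h⟩
    · refine Finset.mem_union_left _ (Finset.mem_union_right _ ?_)
      refine Finset.mem_biUnion.2 ⟨p, hpM, ?_⟩
      rcases hw with rfl | rfl
      · refine Finset.mem_union_left _ ?_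
        simp only [SS, Finset.mem_filter, Finset.mem_range]
        exact ⟨hk, k', hk', hne, hdv⟩
      · refine Finset.mem_union_right _ ?_
        simp only [SS, Finset.mem_filter, Finset.mem_range]
        exact ⟨hk, k', hk', hne, hdv⟩
    · refine Finset.mem_union_right _ ?_
      refine Finset.mem_biUnion.2 ⟨j, Finset.mem_range.2 (by omega), ?_⟩
      simp only [SS, Finset.mem_filter, Finset.mem_range]
      exact ⟨hk, k', hk', hne, h⟩
  refine (Finset.card_le_card hsub).trans ?_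
  refine (Finset.card_union_le _ _).trans ?_
  refine Nat.add_le_add ?_ ?_
  · refine (Finset.card_union_le _ _).trans (Nat.add_le_add hE ?_)
    refine (Finset.card_biUnion_le).trans ?_
    have : ∀ p ∈ Ms, (SS (EB p t0) ∪ SS (EB p t1)).card ≤ 2 := fun p hpM =>
      (Finset.card_union_le _ _).trans (Nat.add_le_add (hB p hpM t0) (hB p hpM t1))
    refine (Finset.sum_le_sum this).trans ?_
    rw [Finset.sum_const, smul_eq_mul, mul_comm]
  · refine (Finset.card_biUnion_le).trans ?_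
    refine (Finset.sum_le_sum (fun j _ => hD j)).trans ?_
    rw [Finset.sum_const, smul_eq_mul, Finset.card_range, mul_one]

end Crest.Agent.R320.Amb_256
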