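import Mathlib

/-!
Row 320, leaf G3-AMB (helper237 #13356): at most `1 + 2 |Ms| + (m + 1)` elements of the ruler are
spoiled.
-/

set_option autoImplicit false

namespace Crest.Agent.R320.Amb_288

open Finset

/-- the events -/
def Ev (q N1 PM p0 t0 t1 : ℤ) (th : ℤ → ℤ) (Wo Ws : ℤ → Prop) (A : ℕ → ℤ) (δ : ℤ) :
    Unit ⊕ (ℕ × Bool) ⊕ ℕ → Prop
  | Sum.inl _ => ∃ w, Wo w ∧ |w + (1+q*(1+4*PM))*δ - th ((w + (1+q*(1+4*PM))*δ) % q)| ≤ N1
  | Sum.inr (Sum.inl (p, b)) => (p:ℤ) ∣ ((if b then t1 else t0) + (1+q*(1+4*PM))*δ - p0) / q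
  | Sum.inr (Sum.inr j) => ∃ w, Ws w ∧ |w + (1+q*(1+4*PM))*δ - (p0 + A j)| ≤ q*PM

theorem ev_near {q N1 T0 T1 PM p0 Gam t0 t1 : ℤ} {th : ℤ → ℤ} {Wo Ws : ℤ → Prop} {A : ℕ → ℤ}
    (hGam : 0 ≤ Gam) (hq : 2*Gam + 2 < q) (hPM : 0 < PM) (hN1 : 0 ≤ N1)
    (hth0 : ∀ r, T0 ≤ th r) (hth1 : ∀ r, th r ≤ T1)
    (hsep : ∀ s s' : ℤ, |th (s % q) - th (s' % q)| ≤ 2*N1 + 2*((1 + q*(1+4*PM))*Gam) →
      s % q = s' % q)
    (hWo : ∀ w w', Wo w → Wo w' → w < w' →
      (T1 - T0) + 2*N1 + 2*((1 + q*(1+4*PM))*Gam) < w' - w)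
    (hWs : ∀ w w', Ws w → Ws w' → w < w' →
      2*((1 + q*(1+4*PM))*Gam) + 2*(q*PM) < w' - w)
    {δ δ' : ℤ} (h1 : |δ| ≤ Gam) (h2 : |δ'| ≤ Gam) (e : Unit ⊕ (ℕ × Bool) ⊕ ℕ)
    (hp : ∀ p b, e = Sum.inr (Sum.inl (p, b)) → (p:ℤ) ∣ PM ∧ 2*Gam + 2 < (p:ℤ))
    (he : Ev q N1 PM p0 t0 t1 th Wo Ws A δ e) (he' : Ev q N1 PM p0 t0 t1 th Wo Ws A δ' e) :
    |δ - δ'| ≤ 1 := by
  have hq0 : 0 < q := by linarith
  have hqPM : 0 < q * PM := mul_pos hq0 hPM
  obtain ⟨U, hU⟩ : ∃ U, U = 1+q*(1+4*PM) := ⟨_, rfl⟩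
  have hU0 : 0 < U := by rw [hU]; nlinarith
  have hUG : ∀ x : ℤ, |x| ≤ Gam → |U * x| ≤ U * Gam := by
    intro x hx
    rw [abs_mul, abs_of_pos hU0]
    exact mul_le_mul_of_nonneg_left hx hU0.le
  have hd1 := abs_le.1 (hUG δ h1)
  have hd2 := abs_le.1 (hUG δ' h2)
  have h1' := abs_le.1 h1
  have h2' := abs_le.1 h2
  rcases e with _ | ⟨⟨p, b⟩ | j⟩
  · -- (E)
    obtain ⟨w, hw, hwN⟩ := he
    obtain ⟨w', hw', hwN'⟩ := he'
    rw [← hU] at hwN hwN'
    have a1 := abs_le.1 hwN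
    have a2 := abs_le.1 hwN'
    have b1 := hth0 ((w + U*δ) % q)
    have b2 := hth1 ((w + U*δ) % q)
    have b3 := hth0 ((w' + U*δ') % q)
    have b4 := hth1 ((w' + U*δ') % q)
    have hww : w = w' := by
      rcases lt_trichotomy w w' with h | h | h
      · have := hWo w w' hw hw' h
        rw [← hU] at this
        nlinarith
      · exact h
      · have := hWo w' w hw' hw h
        rw [← hU] at this
        nlinarith
    subst hww
    have h3 := hsep (w + U*δ) (w + U*δ') (by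
      rw [← hU, abs_le]; constructor <;> nlinarith)
    have h4 : q ∣ (w + U*δ) - (w + U*δ') := Int.ModEq.dvd (Int.ModEq.symm h3)
    have h5 : q ∣ δ - δ' := by
      have h6 : (w + U*δ) - (w + U*δ') = (δ - δ') + q * ((1+4*PM) * (δ - δ')) := by
        rw [hU]; ring
      rw [h6] at h4
      exact (Int.dvd_add_left (dvd_mul_right q _)).1 h4
    have h7 : δ - δ' = 0 := by
      apply Int.eq_zero_of_abs_lt_dvd h5
      rw [abs_lt]; constructor <;> linarith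
    rw [h7]; simp
  · -- (B)
    obtain ⟨hp1, hp2⟩ := hp p b rfl
    simp only [Ev] at he he'
    rw [← hU] at he he'
    generalize (if b = true then t1 else t0) = w at he he'
    have key : ∀ x : ℤ, (w + U * x - p0) / q = ((w - p0 + x) / q + x) + 4 * PM * x := by
      intro x
      have : w + U * x - p0 = (w - p0 + x) + q * ((1+4*PM) * x) := by rw [hU]; ring
      rw [this, Int.add_mul_ediv_left _ _ hq0.ne']
      ring
    rw [key] at he he'
    have hpd : ∀ x : ℤ, (p:ℤ) ∣ 4 * PM * x := fun x => (hp1.mul_left 4).mul_right x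
    have e1 : (p:ℤ) ∣ (w - p0 + δ) / q + δ := (Int.dvd_add_left (hpd δ)).1 he
    have e2 : (p:ℤ) ∣ (w - p0 + δ') / q + δ' := (Int.dvd_add_left (hpd δ')).1 he'
    have e3 : (p:ℤ) ∣ ((w - p0 + δ) / q + δ) - ((w - p0 + δ') / q + δ') := dvd_sub e1 e2
    have f1 := Int.emod_add_mul_ediv (w - p0 + δ) q
    have f2 := Int.emod_add_mul_ediv (w - p0 + δ') q
    have g1 := Int.emod_nonneg (w - p0 + δ) hq0.ne'
    have g2 := Int.emod_lt_of_pos (w - p0 + δ) hq0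
    have g3 := Int.emod_nonneg (w - p0 + δ') hq0.ne'
    have g4 := Int.emod_lt_of_pos (w - p0 + δ') hq0
    generalize (w - p0 + δ) / q = X at *
    generalize (w - p0 + δ') / q = X' at *
    generalize (w - p0 + δ) % q = Y at *
    generalize (w - p0 + δ') % q = Y' at *
    have hX1 : X - X' ≤ 1 := by
      by_contra hc
      have : 2 ≤ X - X' := by omega
      have h5 : q * 2 ≤ q * (X - X') := mul_le_mul_of_nonneg_left this hq0.le
      nlinarith
    have hX2 : X' - X ≤ 1 := by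
      by_contra hc
      have : 2 ≤ X' - X := by omega
      have h5 : q * 2 ≤ q * (X' - X) := mul_le_mul_of_nonneg_left this hq0.le
      nlinarith
    have h7 : (X + δ) - (X' + δ') = 0 := by
      apply Int.eq_zero_of_abs_lt_dvd e3
      rw [abs_lt]; constructor <;> linarith
    rw [abs_le]; constructor <;> linarith
  · -- (D)
    obtain ⟨w, hw, hwN⟩ := he
    obtain ⟨w', hw', hwN'⟩ := he'
    rw [← hU] at hwN hwN'
    have a1 := abs_le.1 hwN
    have a2 := abs_le.1 hwN'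
    have hww : w = w' := by
      rcases lt_trichotomy w w' with h | h | h
      · have := hWs w w' hw hw' h
        rw [← hU] at this
        nlinarith
      · exact h
      · have := hWs w' w hw' hw h
        rw [← hU] at this
        nlinarith
    subst hww
    have h3 : U * (δ - δ') ≤ 2 * (q * PM) := by nlinarith
    have h4 : U * (δ' - δ) ≤ 2 * (q * PM) := by nlinarith
    rw [abs_le]
    constructor
    · by_contra hc
      have : 2 ≤ δ' - δ := by omega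
      have h5 : U * 2 ≤ U * (δ' - δ) := mul_le_mul_of_nonneg_left this hU0.le
      have : U = 1 + q + 4 * (q * PM) := by rw [hU]; ring
      linarith
    · by_contra hc
      have : 2 ≤ δ - δ' := by omega
      have h5 : U * 2 ≤ U * (δ - δ') := mul_le_mul_of_nonneg_left this hU0.le
      have : U = 1 + q + 4 * (q * PM) := by rw [hU]; ring
      linarith

open Classical in
theorem amb (K m : ℕ) (Ms : Finset ℕ) (q N1 T0 T1 PM p0 Gam t0 t1 : ℤ) (th : ℤ → ℤ)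
    (Wo Ws : ℤ → Prop) (A : ℕ → ℤ) (g : ℕ → ℤ)
    (hq : 2*Gam + 2 < q) (hPM : 0 < PM) (hN1 : 0 ≤ N1)
    (hp : ∀ p ∈ Ms, (p:ℤ) ∣ PM ∧ 2*Gam + 2 < (p:ℤ))
    (hg : ∀ k < K, 0 ≤ g k ∧ g k ≤ Gam)
    (hr : ∀ a b c d, a < K → b < K → c < K → d < K → |(g a - g b) - (g c - g d)| ≤ 2 →
      (a = b ∧ c = d) ∨ (a = c ∧ b = d))
    (hth0 : ∀ r, T0 ≤ th r) (hth1 : ∀ r, th r ≤ T1)
    (hsep : ∀ s s' : ℤ, |th (s % q) - th (s' % q)| ≤ 2*N1 + 2*((1 + q*(1+4*PM))*Gam) →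
      s % q = s' % q)
    (hWo : ∀ w w', Wo w → Wo w' → w < w' →
      (T1 - T0) + 2*N1 + 2*((1 + q*(1+4*PM))*Gam) < w' - w)
    (hWs : ∀ w w', Ws w → Ws w' → w < w' →
      2*((1 + q*(1+4*PM))*Gam) + 2*(q*PM) < w' - w) :
    ((Finset.range K).filter (fun k => ∃ k' < K, k' ≠ k ∧
      ( (∃ w, Wo w ∧ |w + (1+q*(1+4*PM))*(g k' - g k)
            - th ((w + (1+q*(1+4*PM))*(g k' - g k)) % q)| ≤ N1)
        ∨ (∃ p ∈ Ms, ∃ w, (w = t0 ∨ w = t1) ∧
            (p:ℤ) ∣ (w + (1+q*(1+4*PM))*(g k' - g k) - p0) / q)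
        ∨ (∃ j ≤ m, ∃ w, Ws w ∧
            |w + (1+q*(1+4*PM))*(g k' - g k) - (p0 + A j)| ≤ q*PM) ))).card
      ≤ 1 + 2*Ms.card + (m+1) := by
  set F := (Finset.range K).filter (fun k => ∃ k' < K, k' ≠ k ∧
      ( (∃ w, Wo w ∧ |w + (1+q*(1+4*PM))*(g k' - g k)
            - th ((w + (1+q*(1+4*PM))*(g k' - g k)) % q)| ≤ N1)
        ∨ (∃ p ∈ Ms, ∃ w, (w = t0 ∨ w = t1) ∧
            (p:ℤ) ∣ (w + (1+q*(1+4*PM))*(g k' - g k) - p0) / q)
        ∨ (∃ j ≤ m, ∃ w, Ws w ∧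
            |w + (1+q*(1+4*PM))*(g k' - g k) - (p0 + A j)| ≤ q*PM) )) with hF
  let Tg : Finset (Unit ⊕ (ℕ × Bool) ⊕ ℕ) :=
    (Finset.univ : Finset Unit).disjSum
      ((Ms ×ˢ (Finset.univ : Finset Bool)).disjSum (Finset.range (m+1)))
  have hT : Tg.card = 1 + 2*Ms.card + (m+1) := by
    simp only [Tg, Finset.card_disjSum, Finset.card_product, Finset.card_range]
    simp
    ring
  have hch : ∀ k ∈ F, ∃ e ∈ Tg, ∃ k' < K, k' ≠ k ∧
      Ev q N1 PM p0 t0 t1 th Wo Ws A (g k' - g k) e := by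
    intro k hk
    rw [hF, Finset.mem_filter] at hk
    obtain ⟨_, k', hk', hne, h | ⟨p, hpM, w, hw, hd⟩ | ⟨j, hj, h⟩⟩ := hk
    · exact ⟨Sum.inl (), by simp [Tg], k', hk', hne, h⟩
    · rcases hw with rfl | rfl
      · exact ⟨Sum.inr (Sum.inl (p, false)), by simp [Tg, hpM], k', hk', hne, by simpa [Ev] using hd⟩
      · exact ⟨Sum.inr (Sum.inl (p, true)), by simp [Tg, hpM], k', hk', hne, by simpa [Ev] using hd⟩
    · exact ⟨Sum.inr (Sum.inr j), by simp [Tg]; omega, k', hk', hne, h⟩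
  choose! f hf using hch
  rw [← hT]
  refine Finset.card_le_card_of_injOn f (fun k hk => (hf k hk).1) ?_
  intro a ha b hb hab
  obtain ⟨haT, a', ha'K, ha'a, hEa⟩ := hf a ha
  obtain ⟨_, b', hb'K, hb'b, hEb⟩ := hf b hb
  have haK : a < K := by
    have := (Finset.mem_filter.1 (hF ▸ ha : a ∈ _)).1
    simpa using this
  have hbK : b < K := by
    have := (Finset.mem_filter.1 (hF ▸ hb : b ∈ _)).1
    simpa using this
  rw [← hab] at hEb
  have hGam : 0 ≤ Gam := le_trans (hg a haK).1 (hg a haK).2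
  have hb1 : ∀ x y, x < K → y < K → |g x - g y| ≤ Gam := by
    intro x y hx hy
    have h1 := hg x hx
    have h2 := hg y hy
    rw [abs_le]; constructor <;> linarith
  have h1 := ev_near hGam hq hPM hN1 hth0 hth1 hsep hWo hWs (hb1 a' a ha'K haK)
    (hb1 b' b hb'K hbK) (f a) (by
      intro p bb hpe
      rw [hpe] at haT
      have : p ∈ Ms := by
        simpa [Tg] using haT
      exact hp p this) hEa hEb
  rcases hr a' a b' b ha'K haK hb'K hbK (by linarith) with ⟨h, _⟩ | ⟨_, h⟩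
  · exact absurd h ha'a
  · exact h

end Crest.Agent.R320.Amb_288
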