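import Mathlib

/-! Row 320, leaf G3-AMB of 237 #13356: number of ambiguous ruler elements. -/

namespace Crest.Agent.R320.Amb_324

open Classical in
theorem amb (K m : ℕ) (Ms : Finset ℕ) (q N1 T0 T1 PM p0 Gam t0 t1 : ℤ) (th : ℤ → ℤ)
    (Wo Ws : ℤ → Prop) (A : ℕ → ℤ) (g : ℕ → ℤ)
    (hq : 2*Gam + 2 < q) (hPM : 0 < PM) (hN1 : 0 ≤ N1)
    (hp : ∀ p ∈ Ms, (p:ℤ) ∣ PM ∧ 2*Gam + 2 < (p:ℤ))
    (hg : ∀ k < K, 0 ≤ g k ∧ g k ≤ Gam)
    (hr : ∀ a b c d, a < K → b < K → c < K → d < K → |(g a - g b) - (g c - g d)| ≤ 2 →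
      (a = b ∧ c = d) ∨ (a = c ∧ b = d))
    (hth0 : ∀ r, T0 ≤ th r) (hth1 : ∀ r, th r ≤ T1)
    (hsep : ∀ s s' : ℤ, |th (s % q) - th (s' % q)| ≤ 2*N1 + 2*((1 + q*(1+4*PM))*Gam) →
      s % q = s' % q)
    (hWo : ∀ w w', Wo w → Wo w' → w < w' →
      (T1 - T0) + 2*N1 + 2*((1 + q*(1+4*PM))*Gam) < w' - w)
    (hWs : ∀ w w', Ws w → Ws w' → w < w' →
      2*((1 + q*(1+4*PM))*Gam) + 2*(q*PM) < w' - w) :
    ((Finset.range K).filter (fun k => ∃ k' < K, k' ≠ k ∧
      ( (∃ w, Wo w ∧ |w + (1+q*(1+4*PM))*(g k' - g k) -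
            th ((w + (1+q*(1+4*PM))*(g k' - g k)) % q)| ≤ N1)
      ∨ (∃ p ∈ Ms, ∃ w, (w = t0 ∨ w = t1) ∧
            (p:ℤ) ∣ (w + (1+q*(1+4*PM))*(g k' - g k) - p0) / q)
      ∨ (∃ j ≤ m, ∃ w, Ws w ∧
            |w + (1+q*(1+4*PM))*(g k' - g k) - (p0 + A j)| ≤ q*PM) ))).card
      ≤ 1 + 2*Ms.card + (m+1) := by
  by_cases hK : K = 0
  · subst hK; simp
  have hG0 : 0 ≤ Gam := by
    have := hg 0 (Nat.pos_of_ne_zero hK)
    omega
  have hq0 : 0 < q := by omega
  set U : ℤ := 1 + q*(1+4*PM) with hU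
  have hqPM : 0 < q * PM := mul_pos hq0 hPM
  have hUval : U = 1 + q + 4 * (q * PM) := by rw [hU]; ring
  have hU0 : 0 < U := by rw [hUval]; omega
  -- bound on products
  have hUG : ∀ x : ℤ, |x| ≤ Gam → |U * x| ≤ U * Gam := by
    intro x hx
    rw [abs_mul, abs_of_pos hU0]
    exact mul_le_mul_of_nonneg_left hx hU0.le
  let Ev := Unit ⊕ (↥Ms × Bool) ⊕ Fin (m+1)
  let P : Ev → ℤ → Prop := fun e x => match e with
    | Sum.inl _ => ∃ w, Wo w ∧ |w + U*x - th ((w + U*x) % q)| ≤ N1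
    | Sum.inr (Sum.inl (p, b)) => ((p : ℕ) : ℤ) ∣ ((if b then t1 else t0) + U*x - p0) / q
    | Sum.inr (Sum.inr j) => ∃ w, Ws w ∧ |w + U*x - (p0 + A j)| ≤ q*PM
  have key0 : ∀ (p : ℤ) (w x y : ℤ), p ∣ PM → 2*Gam + 2 < p → x ≤ y → y - x ≤ 2*Gam →
      p ∣ (w + U*x - p0) / q → p ∣ (w + U*y - p0) / q → x = y := by
    intro p w x y hpd hpb hxy hd h1 h2
    have e : ∀ z : ℤ, (w + U*z - p0) / q = (w - p0 + z)/q + (1+4*PM)*z := by
      intro z
      have : w + U*z - p0 = (w - p0 + z) + q * ((1+4*PM)*z) := by rw [hU]; ring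
      rw [this, Int.add_mul_ediv_left _ _ hq0.ne']
    rw [e] at h1 h2
    have h3 := dvd_sub h2 h1
    obtain ⟨c, hc⟩ := hpd
    have h4 : p ∣ ((w - p0 + y)/q - (w - p0 + x)/q) + (y - x) := by
      have : ((w - p0 + y)/q - (w - p0 + x)/q) + (y - x)
        = ((w - p0 + y)/q + (1+4*PM)*y - ((w - p0 + x)/q + (1+4*PM)*x)) - p * (4 * c * (y - x)) := by
        rw [hc]; ring
      rw [this]
      exact dvd_sub h3 (dvd_mul_right _ _)
    have h5 : (w - p0 + x)/q ≤ (w - p0 + y)/q := Int.ediv_le_ediv hq0 (by omega)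
    have h6 : (w - p0 + y)/q ≤ (w - p0 + x)/q + 1 := by
      have : (w - p0 + x + q * 1)/q = (w - p0 + x)/q + 1 := Int.add_mul_ediv_left _ _ hq0.ne'
      rw [← this]
      exact Int.ediv_le_ediv hq0 (by omega)
    have h7 : ((w - p0 + y)/q - (w - p0 + x)/q) + (y - x) = 0 :=
      Int.eq_zero_of_abs_lt_dvd h4 (by rw [abs_lt]; constructor <;> omega)
    omega
  have key : ∀ (e : Ev) (x y : ℤ), |x| ≤ Gam → |y| ≤ Gam → P e x → P e y → x = y := by
    intro e x y hx hy h1 h2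
    have hx' := abs_le.mp hx
    have hy' := abs_le.mp hy
    have ux := abs_le.mp (hUG x hx)
    have uy := abs_le.mp (hUG y hy)
    match e, h1, h2 with
    | Sum.inl _, h1, h2 =>
      obtain ⟨w, hw, h1⟩ := h1
      obtain ⟨w', hw', h2⟩ := h2
      have a1 := abs_le.mp h1
      have a2 := abs_le.mp h2
      have b1 := hth0 ((w + U*x) % q)
      have b2 := hth1 ((w + U*x) % q)
      have b3 := hth0 ((w' + U*y) % q)
      have b4 := hth1 ((w' + U*y) % q)
      have hww : w = w' := by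
        rcases lt_trichotomy w w' with h | h | h
        · have := hWo w w' hw hw' h
          omega
        · exact h
        · have := hWo w' w hw' hw h
          omega
      subst hww
      have hs := hsep (w + U*x) (w + U*y) (by
        rw [abs_le]; constructor <;> omega)
      have hd : q ∣ (w + U*x) - (w + U*y) := by
        exact Int.ModEq.dvd (by rw [Int.ModEq]; exact hs.symm)
      have hd2 : q ∣ x - y := by
        have : x - y = ((w + U*x) - (w + U*y)) - q * ((1+4*PM)*(x-y)) := by rw [hU]; ring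
        rw [this]
        exact dvd_sub hd (dvd_mul_right _ _)
      have := Int.eq_zero_of_abs_lt_dvd hd2 (by rw [abs_lt]; constructor <;> omega)
      omega
    | Sum.inr (Sum.inl (p, b)), h1, h2 =>
      have hpp := hp p.1 p.2
      rcases le_total x y with h | h
      · exact key0 _ _ x y hpp.1 hpp.2 h (by omega) h1 h2
      · exact (key0 _ _ y x hpp.1 hpp.2 h (by omega) h2 h1).symm
    | Sum.inr (Sum.inr j), h1, h2 =>
      obtain ⟨w, hw, h1⟩ := h1
      obtain ⟨w', hw', h2⟩ := h2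
      have a1 := abs_le.mp h1
      have a2 := abs_le.mp h2
      have hww : w = w' := by
        rcases lt_trichotomy w w' with h | h | h
        · have := hWs w w' hw hw' h
          omega
        · exact h
        · have := hWs w' w hw' hw h
          omega
      subst hww
      by_contra hne
      have h3 : |U * (x - y)| ≤ 2 * (q * PM) := by
        rw [mul_sub, abs_le]; constructor <;> omega
      have h4 : 1 ≤ |x - y| := Int.one_le_abs (sub_ne_zero.mpr hne)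
      rw [abs_mul, abs_of_pos hU0] at h3
      have h5 : U * 1 ≤ U * |x - y| := mul_le_mul_of_nonneg_left h4 hU0.le
      omega
  -- choose events
  have hex : ∀ k ∈ (Finset.range K).filter (fun k => ∃ k' < K, k' ≠ k ∧
      ( (∃ w, Wo w ∧ |w + U*(g k' - g k) - th ((w + U*(g k' - g k)) % q)| ≤ N1)
      ∨ (∃ p ∈ Ms, ∃ w, (w = t0 ∨ w = t1) ∧ (p:ℤ) ∣ (w + U*(g k' - g k) - p0) / q)
      ∨ (∃ j ≤ m, ∃ w, Ws w ∧ |w + U*(g k' - g k) - (p0 + A j)| ≤ q*PM) )),
      ∃ e : Ev, ∃ k' < K, k' ≠ k ∧ P e (g k' - g k) := by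
    intro k hk
    obtain ⟨-, k', hk', hne, h⟩ := Finset.mem_filter.mp hk
    rcases h with h | ⟨p, hpm, w, hw, h⟩ | ⟨j, hj, h⟩
    · exact ⟨Sum.inl (), k', hk', hne, h⟩
    · rcases hw with rfl | rfl
      · exact ⟨Sum.inr (Sum.inl (⟨p, hpm⟩, false)), k', hk', hne, by simpa [P] using h⟩
      · exact ⟨Sum.inr (Sum.inl (⟨p, hpm⟩, true)), k', hk', hne, by simpa [P] using h⟩
    · exact ⟨Sum.inr (Sum.inr ⟨j, by omega⟩), k', hk', hne, h⟩
  let f : ℕ → Ev := fun k => if h : ∃ e : Ev, ∃ k' < K, k' ≠ k ∧ P e (g k' - g k) then h.choose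
    else Sum.inl ()
  have hf : ∀ k, (∃ e : Ev, ∃ k' < K, k' ≠ k ∧ P e (g k' - g k)) →
      ∃ k' < K, k' ≠ k ∧ P (f k) (g k' - g k) := by
    intro k h
    have : f k = h.choose := dif_pos h
    rw [this]
    exact h.choose_spec
  have hcard : (Finset.univ : Finset Ev).card = 1 + 2*Ms.card + (m+1) := by
    simp only [Ev, Finset.card_univ, Fintype.card_sum, Fintype.card_prod, Fintype.card_unit,
      Fintype.card_bool, Fintype.card_coe, Fintype.card_fin]
    ring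
  rw [← hcard]
  refine Finset.card_le_card_of_injOn f (fun _ _ => Finset.mem_univ _) ?_
  intro k hk l hl hkl
  have hk0 := Finset.mem_coe.mp hk
  have hl0 := Finset.mem_coe.mp hl
  obtain ⟨k', hk', hnek, hPk⟩ := hf k (hex k hk0)
  obtain ⟨l', hl', hnel, hPl⟩ := hf l (hex l hl0)
  have hkK : k < K := Finset.mem_range.mp (Finset.mem_filter.mp hk0).1
  have hlK : l < K := Finset.mem_range.mp (Finset.mem_filter.mp hl0).1
  have g1 := hg k hkK
  have g2 := hg k' hk'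
  have g3 := hg l hlK
  have g4 := hg l' hl'
  rw [← hkl] at hPl
  have heq := key (f k) _ _ (by rw [abs_le]; constructor <;> omega)
    (by rw [abs_le]; constructor <;> omega) hPk hPl
  have h0 : |(g k' - g k) - (g l' - g l)| ≤ 2 := by
    rw [heq, sub_self, abs_zero]; norm_num
  rcases hr k' k l' l hk' hkK hl' hlK h0 with ⟨h, -⟩ | ⟨-, h⟩
  · exact absurd h hnek
  · exact h

end Crest.Agent.R320.Amb_324
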