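import Mathlib

/-!
Row 320, leaf G3-AMB of #13356 (helper326): at most `1 + 2 |Ms| + (m + 1)` places of the ruler of
scheme 2 are ambiguous.  Pure integers.
-/

set_option autoImplicit false

namespace Crest.Agent.R320.Amb_326

open Classical in
theorem amb (K m : ℕ) (Ms : Finset ℕ) (q N1 T0 T1 PM p0 Gam t0 t1 : ℤ) (th : ℤ → ℤ)
    (Wo Ws : ℤ → Prop) (A : ℕ → ℤ) (g : ℕ → ℤ)
    (hq : 2 * Gam + 2 < q) (hPM : 0 < PM) (hN1 : 0 ≤ N1)
    (hp : ∀ p ∈ Ms, (p : ℤ) ∣ PM ∧ 2 * Gam + 2 < (p : ℤ))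
    (hg : ∀ k < K, 0 ≤ g k ∧ g k ≤ Gam)
    (hr : ∀ a b c d, a < K → b < K → c < K → d < K →
      |(g a - g b) - (g c - g d)| ≤ 2 → (a = b ∧ c = d) ∨ (a = c ∧ b = d))
    (hth0 : ∀ r, T0 ≤ th r) (hth1 : ∀ r, th r ≤ T1)
    (hsep : ∀ s s' : ℤ, |th (s % q) - th (s' % q)| ≤ 2 * N1 + 2 * ((1 + q * (1 + 4 * PM)) * Gam) →
      s % q = s' % q)
    (hWo : ∀ w w', Wo w → Wo w' → w < w' →
      (T1 - T0) + 2 * N1 + 2 * ((1 + q * (1 + 4 * PM)) * Gam) < w' - w)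
    (hWs : ∀ w w', Ws w → Ws w' → w < w' →
      2 * ((1 + q * (1 + 4 * PM)) * Gam) + 2 * (q * PM) < w' - w) :
    ((Finset.range K).filter (fun k => ∃ k' < K, k' ≠ k ∧
      ((∃ w, Wo w ∧ |w + (1 + q * (1 + 4 * PM)) * (g k' - g k) -
          th ((w + (1 + q * (1 + 4 * PM)) * (g k' - g k)) % q)| ≤ N1) ∨
       (∃ p ∈ Ms, ∃ w, (w = t0 ∨ w = t1) ∧
          (p : ℤ) ∣ (w + (1 + q * (1 + 4 * PM)) * (g k' - g k) - p0) / q) ∨
       (∃ j ≤ m, ∃ w, Ws w ∧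
          |w + (1 + q * (1 + 4 * PM)) * (g k' - g k) - (p0 + A j)| ≤ q * PM)))).card
      ≤ 1 + 2 * Ms.card + (m + 1) := by
  set U : ℤ := 1 + q * (1 + 4 * PM) with hU
  -- codes of events
  let Rel : ℕ → (Unit ⊕ (↥Ms × Bool)) ⊕ Fin (m + 1) → Prop := fun k c =>
    ∃ k' < K, k' ≠ k ∧
      match c with
      | .inl (.inl _) => ∃ w, Wo w ∧ |w + U * (g k' - g k) - th ((w + U * (g k' - g k)) % q)| ≤ N1
      | .inl (.inr (p, b)) => ((p : ℕ) : ℤ) ∣ ((if b then t0 else t1) + U * (g k' - g k) - p0) / q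
      | .inr j => ∃ w, Ws w ∧ |w + U * (g k' - g k) - (p0 + A j)| ≤ q * PM
  have hex : ∀ k ∈ (Finset.range K).filter (fun k => ∃ k' < K, k' ≠ k ∧
      ((∃ w, Wo w ∧ |w + U * (g k' - g k) - th ((w + U * (g k' - g k)) % q)| ≤ N1) ∨
       (∃ p ∈ Ms, ∃ w, (w = t0 ∨ w = t1) ∧ (p : ℤ) ∣ (w + U * (g k' - g k) - p0) / q) ∨
       (∃ j ≤ m, ∃ w, Ws w ∧ |w + U * (g k' - g k) - (p0 + A j)| ≤ q * PM))), ∃ c, Rel k c := by
    intro k hk
    obtain ⟨-, k', hk', hne, h | ⟨p, hpM, w, hw, h⟩ | ⟨j, hj, h⟩⟩ := Finset.mem_filter.1 hk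
    · exact ⟨.inl (.inl ()), k', hk', hne, h⟩
    · rcases hw with rfl | rfl
      · exact ⟨.inl (.inr (⟨p, hpM⟩, true)), k', hk', hne, by simpa using h⟩
      · exact ⟨.inl (.inr (⟨p, hpM⟩, false)), k', hk', hne, by simpa using h⟩
    · exact ⟨.inr ⟨j, by omega⟩, k', hk', hne, h⟩
  have huniq : ∀ k₁ k₂ c, k₁ < K → k₂ < K → Rel k₁ c → Rel k₂ c → k₁ = k₂ := by
    rintro k₁ k₂ c h₁ h₂ ⟨k₁', h₁', n₁, r₁⟩ ⟨k₂', h₂', n₂, r₂⟩
    obtain ⟨a1, a2⟩ := hg k₁ h₁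
    obtain ⟨b1, b2⟩ := hg k₂ h₂
    obtain ⟨c1, c2⟩ := hg k₁' h₁'
    obtain ⟨d1, d2⟩ := hg k₂' h₂'
    have hGam : 0 ≤ Gam := le_trans a1 a2
    have hq0 : 0 < q := by linarith
    have hU0 : 0 < U := by rw [hU]; nlinarith [mul_pos hq0 hPM]
    set δ₁ := g k₁' - g k₁ with hδ₁
    set δ₂ := g k₂' - g k₂ with hδ₂
    have hδ : |δ₁ - δ₂| ≤ 2 * Gam := by
      rw [abs_le]; constructor <;> linarith
    have hUδ : |U * (δ₁ - δ₂)| ≤ 2 * (U * Gam) := by
      rw [abs_mul, abs_of_pos hU0]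
      nlinarith
    have key : |δ₁ - δ₂| ≤ 2 := by
      match c, r₁, r₂ with
      | .inl (.inl _), ⟨w₁, hw₁, e₁⟩, ⟨w₂, hw₂, e₂⟩ =>
        have f₁ := abs_le.1 e₁
        have f₂ := abs_le.1 e₂
        have g₁ := hth0 ((w₁ + U * δ₁) % q)
        have g₁' := hth1 ((w₁ + U * δ₁) % q)
        have g₂ := hth0 ((w₂ + U * δ₂) % q)
        have g₂' := hth1 ((w₂ + U * δ₂) % q)
        have hUδ' := abs_le.1 hUδ
        have hexp : U * (δ₁ - δ₂) = U * δ₁ - U * δ₂ := by ring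
        have hw : w₁ = w₂ := by
          rcases lt_trichotomy w₁ w₂ with h | h | h
          · have := hWo _ _ hw₁ hw₂ h
            linarith [f₁.1, f₁.2, f₂.1, f₂.2, hUδ'.1, hUδ'.2]
          · exact h
          · have := hWo _ _ hw₂ hw₁ h
            linarith [f₁.1, f₁.2, f₂.1, f₂.2, hUδ'.1, hUδ'.2]
        subst hw
        have hs := hsep (w₁ + U * δ₁) (w₁ + U * δ₂) (by
          rw [abs_le]
          constructor
          · linarith [f₁.1, f₁.2, f₂.1, f₂.2, hUδ'.1, hUδ'.2]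
          · linarith [f₁.1, f₁.2, f₂.1, f₂.2, hUδ'.1, hUδ'.2])
        have hdvd : q ∣ (w₁ + U * δ₁) - (w₁ + U * δ₂) := Int.ModEq.dvd (show (w₁ + U * δ₂) ≡ (w₁ + U * δ₁) [ZMOD q] from hs.symm)
        have hdvd2 : q ∣ δ₁ - δ₂ := by
          have e : (w₁ + U * δ₁) - (w₁ + U * δ₂) = (δ₁ - δ₂) + q * ((1 + 4 * PM) * (δ₁ - δ₂)) := by
            rw [hU]; ring
          rw [e] at hdvd
          exact (Int.dvd_add_left (dvd_mul_right _ _)).1 hdvd
        have h0 : δ₁ - δ₂ = 0 := Int.eq_zero_of_abs_lt_dvd hdvd2 (by linarith)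
        rw [h0]; norm_num
      | .inl (.inr (p, b)), e₁, e₂ =>
        obtain ⟨hpd, hp2⟩ := hp p.1 p.2
        have e₁' : ((p : ℕ) : ℤ) ∣ ((if b then t0 else t1) + U * δ₁ - p0) / q := e₁
        have e₂' : ((p : ℕ) : ℤ) ∣ ((if b then t0 else t1) + U * δ₂ - p0) / q := e₂
        generalize (if b then t0 else t1) = w at e₁' e₂'
        have hdiv : ∀ δ : ℤ, (w + U * δ - p0) / q = (w - p0 + δ) / q + (1 + 4 * PM) * δ := by
          intro δ
          have : w + U * δ - p0 = (w - p0 + δ) + q * ((1 + 4 * PM) * δ) := by rw [hU]; ring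
          rw [this, Int.add_mul_ediv_left _ _ (ne_of_gt hq0)]
        rw [hdiv] at e₁' e₂'
        have hd := dvd_sub e₁' e₂'
        have hd2 : ((p : ℕ) : ℤ) ∣ ((w - p0 + δ₁) / q - (w - p0 + δ₂) / q) + (δ₁ - δ₂) := by
          have e : (w - p0 + δ₁) / q + (1 + 4 * PM) * δ₁ - ((w - p0 + δ₂) / q + (1 + 4 * PM) * δ₂)
              = (((w - p0 + δ₁) / q - (w - p0 + δ₂) / q) + (δ₁ - δ₂)) + PM * (4 * (δ₁ - δ₂)) := by
            ring
          rw [e] at hd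
          exact (Int.dvd_add_left (dvd_mul_of_dvd_left hpd _)).1 hd
        have hf : |(w - p0 + δ₁) / q - (w - p0 + δ₂) / q| ≤ 1 := by
          have m1 := Int.emod_nonneg (w - p0 + δ₁) (ne_of_gt hq0)
          have m2 := Int.emod_lt_of_pos (w - p0 + δ₁) hq0
          have m3 := Int.emod_nonneg (w - p0 + δ₂) (ne_of_gt hq0)
          have m4 := Int.emod_lt_of_pos (w - p0 + δ₂) hq0
          have m5 := Int.emod_add_mul_ediv (w - p0 + δ₁) q
          have m6 := Int.emod_add_mul_ediv (w - p0 + δ₂) q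
          have hδ' := abs_le.1 hδ
          rw [abs_le]
          constructor
          · by_contra hc
            push Not at hc
            have : (w - p0 + δ₁) / q - (w - p0 + δ₂) / q ≤ -2 := by omega
            nlinarith
          · by_contra hc
            push Not at hc
            have : 2 ≤ (w - p0 + δ₁) / q - (w - p0 + δ₂) / q := by omega
            nlinarith
        have h0 := Int.eq_zero_of_abs_lt_dvd hd2 (by
          calc |((w - p0 + δ₁) / q - (w - p0 + δ₂) / q) + (δ₁ - δ₂)|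
              ≤ |(w - p0 + δ₁) / q - (w - p0 + δ₂) / q| + |δ₁ - δ₂| := abs_add_le _ _
            _ < (p : ℕ) := by linarith)
        have hf' := abs_le.1 hf
        rw [abs_le]
        constructor <;> linarith [hf'.1, hf'.2]
      | .inr j, ⟨w₁, hw₁, e₁⟩, ⟨w₂, hw₂, e₂⟩ =>
        have f₁ := abs_le.1 e₁
        have f₂ := abs_le.1 e₂
        have hUδ' := abs_le.1 hUδ
        have hexp : U * (δ₁ - δ₂) = U * δ₁ - U * δ₂ := by ring
        have hw : w₁ = w₂ := by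
          rcases lt_trichotomy w₁ w₂ with h | h | h
          · have := hWs _ _ hw₁ hw₂ h
            linarith [f₁.1, f₁.2, f₂.1, f₂.2, hUδ'.1, hUδ'.2]
          · exact h
          · have := hWs _ _ hw₂ hw₁ h
            linarith [f₁.1, f₁.2, f₂.1, f₂.2, hUδ'.1, hUδ'.2]
        subst hw
        have h3 : |U * (δ₁ - δ₂)| < U := by
          rw [abs_lt]
          have : 2 * (q * PM) < U := by rw [hU]; nlinarith [mul_pos hq0 hPM]
          constructor <;> linarith [f₁.1, f₁.2, f₂.1, f₂.2]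
        have h0 : |δ₁ - δ₂| < 1 := by
          rw [abs_mul, abs_of_pos hU0] at h3
          by_contra hc
          push Not at hc
          nlinarith
        linarith
    rcases hr k₁' k₁ k₂' k₂ h₁' h₁ h₂' h₂ key with ⟨h, -⟩ | ⟨-, h⟩
    · exact absurd h n₁
    · exact h
  choose! f hf using hex
  have hcard := Finset.card_le_card_of_injOn
    (s := (Finset.range K).filter (fun k => ∃ k' < K, k' ≠ k ∧
      ((∃ w, Wo w ∧ |w + U * (g k' - g k) - th ((w + U * (g k' - g k)) % q)| ≤ N1) ∨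
       (∃ p ∈ Ms, ∃ w, (w = t0 ∨ w = t1) ∧ (p : ℤ) ∣ (w + U * (g k' - g k) - p0) / q) ∨
       (∃ j ≤ m, ∃ w, Ws w ∧ |w + U * (g k' - g k) - (p0 + A j)| ≤ q * PM))))
    (t := (Finset.univ : Finset ((Unit ⊕ (↥Ms × Bool)) ⊕ Fin (m + 1)))) f
    (fun _ _ => Finset.mem_univ _)
    (fun k₁ hk₁ k₂ hk₂ e => huniq k₁ k₂ (f k₁)
      (Finset.mem_range.1 (Finset.mem_filter.1 hk₁).1)
      (Finset.mem_range.1 (Finset.mem_filter.1 hk₂).1) (hf k₁ hk₁) (by rw [e]; exact hf k₂ hk₂))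
  refine le_trans hcard ?_
  simp only [Finset.card_univ, Fintype.card_sum, Fintype.card_prod, Fintype.card_unit,
    Fintype.card_coe, Fintype.card_bool, Fintype.card_fin]
  omega

end Crest.Agent.R320.Amb_326
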