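import Mathlib

/-!
# Row 320, leaf G3-AMB (helper360): the number of ambiguous ruler places is bounded
-/

set_option autoImplicit false

namespace Crest.Agent.R320.Amb_360

theorem card_le_events {E : Type*} [Fintype E] (S : Finset ℕ) (Q : E → ℕ → Prop)
    (h1 : ∀ k ∈ S, ∃ e, Q e k)
    (h2 : ∀ e, ∀ k ∈ S, ∀ l ∈ S, Q e k → Q e l → k = l) : S.card ≤ Fintype.card E := by
  classical
  have hf : ∃ f : ℕ → Option E, ∀ k ∈ S, ∃ e, f k = some e ∧ Q e k := by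
    refine ⟨fun k => if h : k ∈ S then some (h1 k h).choose else none, fun k hk => ?_⟩
    exact ⟨(h1 k hk).choose, by simp [hk], (h1 k hk).choose_spec⟩
  obtain ⟨f, hf⟩ := hf
  have hc : S.card ≤ (Finset.univ.image (some : E → Option E)).card := by
    refine Finset.card_le_card_of_injOn f ?_ ?_
    · intro k hk
      obtain ⟨e, he, -⟩ := hf k hk
      rw [he]
      exact Finset.mem_coe.2 (Finset.mem_image_of_mem _ (Finset.mem_univ e))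
    · intro k hk l hl hkl
      obtain ⟨e, he, hQ⟩ := hf k hk
      obtain ⟨e', he', hQ'⟩ := hf l hl
      have hee : e = e' := by
        have h := he.symm.trans (hkl.trans he')
        exact Option.some.inj h
      subst hee
      exact h2 e k hk l hl hQ hQ'
  refine hc.trans (Finset.card_image_le.trans ?_)
  exact le_of_eq Finset.card_univ

section num

variable {q N1 T0 T1 PM p0 Gam : ℤ}

theorem ev_wall {th : ℤ → ℤ} {Wo : ℤ → Prop} (hq : 2 * Gam + 2 < q) (hG : 0 ≤ Gam)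
    (hPM : 0 < PM)
    (hth0 : ∀ r, T0 ≤ th r) (hth1 : ∀ r, th r ≤ T1)
    (hsep : ∀ s s' : ℤ, |th (s % q) - th (s' % q)| ≤ 2*N1 + 2*((1 + q*(1+4*PM))*Gam) →
      s % q = s' % q)
    (hWo : ∀ w w', Wo w → Wo w' → w < w' →
      (T1 - T0) + 2*N1 + 2*((1 + q*(1+4*PM))*Gam) < w' - w)
    {d1 d2 w1 w2 : ℤ} (h1 : |d1| ≤ Gam) (h2 : |d2| ≤ Gam) (hw1 : Wo w1) (hw2 : Wo w2)
    (e1 : |w1 + (1 + q*(1+4*PM))*d1 - th ((w1 + (1 + q*(1+4*PM))*d1) % q)| ≤ N1)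
    (e2 : |w2 + (1 + q*(1+4*PM))*d2 - th ((w2 + (1 + q*(1+4*PM))*d2) % q)| ≤ N1) :
    d1 = d2 := by
  have hq0 : 0 < q := by linarith
  have hU : 0 < 1 + q*(1+4*PM) := by positivity
  generalize hUd : 1 + q*(1+4*PM) = U at *
  have b1 : |U * d1| ≤ U * Gam := by
    rw [abs_mul, abs_of_pos hU]; exact mul_le_mul_of_nonneg_left h1 hU.le
  have b2 : |U * d2| ≤ U * Gam := by
    rw [abs_mul, abs_of_pos hU]; exact mul_le_mul_of_nonneg_left h2 hU.le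
  rw [abs_le] at b1 b2 e1 e2
  have t1 := hth0 ((w1 + U*d1) % q)
  have t2 := hth1 ((w1 + U*d1) % q)
  have t3 := hth0 ((w2 + U*d2) % q)
  have t4 := hth1 ((w2 + U*d2) % q)
  have hw : w1 = w2 := by
    rcases lt_trichotomy w1 w2 with h | h | h
    · have := hWo w1 w2 hw1 hw2 h
      linarith [b1.1, b1.2, b2.1, b2.2, e1.1, e1.2, e2.1, e2.2]
    · exact h
    · have := hWo w2 w1 hw2 hw1 h
      linarith [b1.1, b1.2, b2.1, b2.2, e1.1, e1.2, e2.1, e2.2]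
  subst hw
  have hs : (w1 + U*d1) % q = (w1 + U*d2) % q := by
    apply hsep
    rw [abs_le]
    constructor <;> linarith [b1.1, b1.2, b2.1, b2.2, e1.1, e1.2, e2.1, e2.2]
  have hd : q ∣ (w1 + U*d1) - (w1 + U*d2) := Int.ModEq.dvd (n := q) (by
    show (w1 + U*d2) % q = (w1 + U*d1) % q
    exact hs.symm)
  have hd2 : q ∣ d1 - d2 := by
    have : (w1 + U*d1) - (w1 + U*d2) = (d1 - d2) + q * ((1+4*PM) * (d1 - d2)) := by
      rw [← hUd]; ring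
    rw [this] at hd
    exact (Int.dvd_add_left (Dvd.intro _ rfl)).1 hd
  rw [abs_le] at h1 h2
  have hz : d1 - d2 = 0 := Int.eq_zero_of_abs_lt_dvd hd2 (by
    rw [abs_lt]; constructor <;> linarith [h1.1, h1.2, h2.1, h2.2])
  linarith

theorem ev_mod {p : ℤ} (hq : 2 * Gam + 2 < q) (hG : 0 ≤ Gam) (hp : p ∣ PM)
    (hp2 : 2 * Gam + 2 < p)
    {d1 d2 w : ℤ} (h1 : |d1| ≤ Gam) (h2 : |d2| ≤ Gam)
    (e1 : p ∣ (w + (1 + q*(1+4*PM))*d1 - p0) / q)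
    (e2 : p ∣ (w + (1 + q*(1+4*PM))*d2 - p0) / q) :
    |d1 - d2| ≤ 1 := by
  have hq0 : 0 < q := by linarith
  have r : ∀ d : ℤ, (w + (1 + q*(1+4*PM))*d - p0) / q = (w - p0 + d) / q + (1+4*PM)*d := by
    intro d
    have : w + (1 + q*(1+4*PM))*d - p0 = (w - p0 + d) + q * ((1+4*PM)*d) := by ring
    rw [this, Int.add_mul_ediv_left _ _ hq0.ne']
  rw [r] at e1 e2
  rw [abs_le] at h1 h2
  obtain ⟨c, hc⟩ := hp
  have m1 := Int.emod_add_mul_ediv (w - p0 + d1) q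
  have m2 := Int.emod_add_mul_ediv (w - p0 + d2) q
  have n1 := Int.emod_nonneg (w - p0 + d1) hq0.ne'
  have n2 := Int.emod_lt_of_pos (w - p0 + d1) hq0
  have n3 := Int.emod_nonneg (w - p0 + d2) hq0.ne'
  have n4 := Int.emod_lt_of_pos (w - p0 + d2) hq0
  generalize (w - p0 + d1) / q = y1 at *
  generalize (w - p0 + d2) / q = y2 at *
  have hy1 : y1 - y2 ≤ 1 := by
    by_contra hcon
    have h3 : 2 ≤ y1 - y2 := by omega
    have : q * 2 ≤ q * (y1 - y2) := mul_le_mul_of_nonneg_left h3 hq0.le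
    nlinarith [h1.1, h1.2, h2.1, h2.2]
  have hy2 : y2 - y1 ≤ 1 := by
    by_contra hcon
    have h3 : 2 ≤ y2 - y1 := by omega
    have : q * 2 ≤ q * (y2 - y1) := mul_le_mul_of_nonneg_left h3 hq0.le
    nlinarith [h1.1, h1.2, h2.1, h2.2]
  have hd : p ∣ (y1 - y2) + (d1 - d2) := by
    have h3 := dvd_sub e1 e2
    have h4 : y1 + (1+4*PM)*d1 - (y2 + (1+4*PM)*d2) =
        ((y1 - y2) + (d1 - d2)) + p * (4 * c * (d1 - d2)) := by rw [hc]; ring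
    rw [h4] at h3
    exact (Int.dvd_add_left (Dvd.intro _ rfl)).1 h3
  have hz : (y1 - y2) + (d1 - d2) = 0 := Int.eq_zero_of_abs_lt_dvd hd (by
    rw [abs_lt]; constructor <;> linarith [h1.1, h1.2, h2.1, h2.2])
  rw [abs_le]
  constructor <;> linarith

theorem ev_small {Ws : ℤ → Prop} {c : ℤ} (hq : 2 * Gam + 2 < q) (hG : 0 ≤ Gam) (hPM : 0 < PM)
    (hWs : ∀ w w', Ws w → Ws w' → w < w' →
      2*((1 + q*(1+4*PM))*Gam) + 2*(q*PM) < w' - w)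
    {d1 d2 w1 w2 : ℤ} (h1 : |d1| ≤ Gam) (h2 : |d2| ≤ Gam) (hw1 : Ws w1) (hw2 : Ws w2)
    (e1 : |w1 + (1 + q*(1+4*PM))*d1 - c| ≤ q*PM)
    (e2 : |w2 + (1 + q*(1+4*PM))*d2 - c| ≤ q*PM) :
    d1 = d2 := by
  have hq0 : 0 < q := by linarith
  have hqPM : 0 < q * PM := mul_pos hq0 hPM
  have hU : 0 < 1 + q*(1+4*PM) := by positivity
  have hU2 : 2 * (q * PM) < 1 + q*(1+4*PM) := by nlinarith
  generalize hUd : 1 + q*(1+4*PM) = U at *
  have b1 : |U * d1| ≤ U * Gam := by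
    rw [abs_mul, abs_of_pos hU]; exact mul_le_mul_of_nonneg_left h1 hU.le
  have b2 : |U * d2| ≤ U * Gam := by
    rw [abs_mul, abs_of_pos hU]; exact mul_le_mul_of_nonneg_left h2 hU.le
  rw [abs_le] at b1 b2 e1 e2
  have hw : w1 = w2 := by
    rcases lt_trichotomy w1 w2 with h | h | h
    · have := hWs w1 w2 hw1 hw2 h
      linarith [b1.1, b1.2, b2.1, b2.2, e1.1, e1.2, e2.1, e2.2]
    · exact h
    · have := hWs w2 w1 hw2 hw1 h
      linarith [b1.1, b1.2, b2.1, b2.2, e1.1, e1.2, e2.1, e2.2]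
  subst hw
  by_contra hne
  rcases lt_or_gt_of_ne hne with h | h
  · have h3 : U * 1 ≤ U * (d2 - d1) := mul_le_mul_of_nonneg_left (by omega) hU.le
    linarith [e1.1, e1.2, e2.1, e2.2, mul_sub U d2 d1]
  · have h3 : U * 1 ≤ U * (d1 - d2) := mul_le_mul_of_nonneg_left (by omega) hU.le
    linarith [e1.1, e1.2, e2.1, e2.2, mul_sub U d1 d2]

end num

open Classical in
theorem amb (K m : ℕ) (Ms : Finset ℕ) (q N1 T0 T1 PM p0 Gam t0 t1 : ℤ) (th : ℤ → ℤ)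
    (Wo Ws : ℤ → Prop) (A : ℕ → ℤ) (g : ℕ → ℤ) (hq : 2*Gam + 2 < q) (hPM : 0 < PM)
    (hN1 : 0 ≤ N1)
    (hp : ∀ p ∈ Ms, (p:ℤ) ∣ PM ∧ 2*Gam + 2 < (p:ℤ))
    (hg : ∀ k < K, 0 ≤ g k ∧ g k ≤ Gam)
    (hr : ∀ a b c d, a < K → b < K → c < K → d < K → |(g a - g b) - (g c - g d)| ≤ 2 →
      (a = b ∧ c = d) ∨ (a = c ∧ b = d))
    (hth0 : ∀ r, T0 ≤ th r) (hth1 : ∀ r, th r ≤ T1)
    (hsep : ∀ s s' : ℤ, |th (s % q) - th (s' % q)| ≤ 2*N1 + 2*((1 + q*(1+4*PM))*Gam) →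
      s % q = s' % q)
    (hWo : ∀ w w', Wo w → Wo w' → w < w' →
      (T1 - T0) + 2*N1 + 2*((1 + q*(1+4*PM))*Gam) < w' - w)
    (hWs : ∀ w w', Ws w → Ws w' → w < w' →
      2*((1 + q*(1+4*PM))*Gam) + 2*(q*PM) < w' - w) :
    ((Finset.range K).filter (fun k => ∃ k' < K, k' ≠ k ∧
      ((∃ w, Wo w ∧ |w + (1+q*(1+4*PM))*(g k' - g k) -
          th ((w + (1+q*(1+4*PM))*(g k' - g k)) % q)| ≤ N1) ∨
       (∃ p ∈ Ms, ∃ w, (w = t0 ∨ w = t1) ∧ (p:ℤ) ∣ (w + (1+q*(1+4*PM))*(g k' - g k) - p0) / q) ∨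
       (∃ j ≤ m, ∃ w, Ws w ∧ |w + (1+q*(1+4*PM))*(g k' - g k) - (p0 + A j)| ≤ q*PM)))).card
      ≤ 1 + 2*Ms.card + (m+1) := by
  let Ev : (Unit ⊕ ((Ms × Bool) ⊕ Fin (m+1))) → ℤ → Prop := fun e d =>
    match e with
    | Sum.inl _ => ∃ w, Wo w ∧ |w + (1+q*(1+4*PM))*d - th ((w + (1+q*(1+4*PM))*d) % q)| ≤ N1
    | Sum.inr (Sum.inl (p, b)) => ((p : ℕ):ℤ) ∣ ((if b then t1 else t0) + (1+q*(1+4*PM))*d - p0) / q
    | Sum.inr (Sum.inr j) => ∃ w, Ws w ∧ |w + (1+q*(1+4*PM))*d - (p0 + A j)| ≤ q*PM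
  have hcard : Fintype.card (Unit ⊕ ((Ms × Bool) ⊕ Fin (m+1))) = 1 + 2*Ms.card + (m+1) := by
    simp only [Fintype.card_sum, Fintype.card_unit, Fintype.card_prod, Fintype.card_coe,
      Fintype.card_bool, Fintype.card_fin]
    ring
  have hGam : ∀ k < K, 0 ≤ Gam := fun k hk => (hg k hk).1.trans (hg k hk).2
  have habs : ∀ k < K, ∀ k' < K, |g k' - g k| ≤ Gam := by
    intro k hk k' hk'
    rw [abs_le]
    constructor <;> linarith [(hg k hk).1, (hg k hk).2, (hg k' hk').1, (hg k' hk').2]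
  have key : ∀ e (d1 d2 : ℤ), 0 ≤ Gam → |d1| ≤ Gam → |d2| ≤ Gam → Ev e d1 → Ev e d2 →
      |d1 - d2| ≤ 1 := by
    intro e d1 d2 hG h1 h2 he1 he2
    rcases e with _ | ⟨p, b⟩ | j
    · obtain ⟨w1, hw1, e1⟩ := he1
      obtain ⟨w2, hw2, e2⟩ := he2
      rw [ev_wall hq hG hPM hth0 hth1 hsep hWo h1 h2 hw1 hw2 e1 e2]
      simp
    · exact ev_mod hq hG (hp p p.2).1 (hp p p.2).2 h1 h2 he1 he2
    · obtain ⟨w1, hw1, e1⟩ := he1
      obtain ⟨w2, hw2, e2⟩ := he2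
      rw [ev_small hq hG hPM hWs h1 h2 hw1 hw2 e1 e2]
      simp
  rw [← hcard]
  refine card_le_events _ (fun e k => ∃ k' < K, k' ≠ k ∧ Ev e (g k' - g k)) ?_ ?_
  · intro k hk
    obtain ⟨-, k', hk', hne, h⟩ := Finset.mem_filter.1 hk
    rcases h with h | ⟨p, hpM, w, hw, h⟩ | ⟨j, hj, h⟩
    · exact ⟨Sum.inl (), k', hk', hne, h⟩
    · rcases hw with rfl | rfl
      · exact ⟨Sum.inr (Sum.inl (⟨p, hpM⟩, false)), k', hk', hne, by simpa [Ev] using h⟩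
      · exact ⟨Sum.inr (Sum.inl (⟨p, hpM⟩, true)), k', hk', hne, by simpa [Ev] using h⟩
    · exact ⟨Sum.inr (Sum.inr ⟨j, by omega⟩), k', hk', hne, h⟩
  · rintro e k hk l hl ⟨k', hk', hne, h⟩ ⟨l', hl', hne', h'⟩
    have hkK : k < K := Finset.mem_range.1 (Finset.mem_filter.1 hk).1
    have hlK : l < K := Finset.mem_range.1 (Finset.mem_filter.1 hl).1
    have h3 := key e _ _ (hGam k hkK) (habs k hkK k' hk') (habs l hlK l' hl') h h'
    rcases hr k' k l' l hk' hkK hl' hlK (h3.trans (by norm_num)) with ⟨h4, -⟩ | ⟨-, h4⟩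
    · exact absurd h4 hne
    · exact h4

end Crest.Agent.R320.Amb_360
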