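import Mathlib

set_option autoImplicit false

namespace Crest.Agent.R320.Amb_363

open Classical in
theorem amb (K m : ℕ) (Ms : Finset ℕ) (q N1 T0 T1 PM p0 Gam t0 t1 : ℤ) (th : ℤ → ℤ)
    (Wo Ws : ℤ → Prop) (A : ℕ → ℤ) (g : ℕ → ℤ) (hq : 2*Gam + 2 < q) (hPM : 0 < PM)
    (hN1 : 0 ≤ N1) (hp : ∀ p ∈ Ms, (p:ℤ) ∣ PM ∧ 2*Gam + 2 < (p:ℤ))
    (hg : ∀ k < K, 0 ≤ g k ∧ g k ≤ Gam)
    (hr : ∀ a b c d, a < K → b < K → c < K → d < K → |(g a - g b) - (g c - g d)| ≤ 2 →
      (a = b ∧ c = d) ∨ (a = c ∧ b = d))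
    (hth0 : ∀ r, T0 ≤ th r) (hth1 : ∀ r, th r ≤ T1)
    (hsep : ∀ s s' : ℤ, |th (s % q) - th (s' % q)| ≤ 2*N1 + 2*((1 + q*(1+4*PM))*Gam) →
      s % q = s' % q)
    (hWo : ∀ w w', Wo w → Wo w' → w < w' →
      (T1 - T0) + 2*N1 + 2*((1 + q*(1+4*PM))*Gam) < w' - w)
    (hWs : ∀ w w', Ws w → Ws w' → w < w' → 2*((1 + q*(1+4*PM))*Gam) + 2*(q*PM) < w' - w) :
    ((Finset.range K).filter (fun k => ∃ k' < K, k' ≠ k ∧
      ( (∃ w, Wo w ∧ |w + (1+q*(1+4*PM))*(g k' - g k) -
            th ((w + (1+q*(1+4*PM))*(g k' - g k)) % q)| ≤ N1) ∨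
        (∃ p ∈ Ms, ∃ w, (w = t0 ∨ w = t1) ∧
            (p:ℤ) ∣ (w + (1+q*(1+4*PM))*(g k' - g k) - p0) / q) ∨
        (∃ j ≤ m, ∃ w, Ws w ∧ |w + (1+q*(1+4*PM))*(g k' - g k) - (p0 + A j)| ≤ q*PM) ))).card
      ≤ 1 + 2*Ms.card + (m+1) := by
  -- constants
  set U : ℤ := 1 + q*(1+4*PM) with hU
  by_cases hK : K = 0
  · subst hK
    simp
  have hGam : 0 ≤ Gam := by
    obtain ⟨h1, h2⟩ := hg 0 (Nat.pos_of_ne_zero hK)
    omega
  have hq0 : 0 < q := by omega
  have hU0 : 0 < U := by
    have : 0 < q*(1+4*PM) := by positivity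
    omega
  have hU1 : 2*(q*PM) < U := by
    have : 0 < q*PM := by positivity
    rw [hU]; nlinarith
  have hdel : ∀ a b, a < K → b < K → |g a - g b| ≤ Gam := by
    intro a b ha hb
    obtain ⟨h1, h2⟩ := hg a ha
    obtain ⟨h3, h4⟩ := hg b hb
    rw [abs_le]; constructor <;> omega
  have hUdel : ∀ a b, a < K → b < K → |U*(g a - g b)| ≤ U*Gam := by
    intro a b ha hb
    rw [abs_mul, abs_of_pos hU0]
    exact mul_le_mul_of_nonneg_left (hdel a b ha hb) hU0.le
  -- events
  let P : ℕ → ℕ → (Unit ⊕ (ℕ × Bool) ⊕ ℕ) → Prop := fun k k' e => match e with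
    | Sum.inl _ => ∃ w, Wo w ∧ |w + U*(g k' - g k) - th ((w + U*(g k' - g k)) % q)| ≤ N1
    | Sum.inr (Sum.inl (p, b)) => (p:ℤ) ∣ ((if b then t0 else t1) + U*(g k' - g k) - p0) / q
    | Sum.inr (Sum.inr j) => ∃ w, Ws w ∧ |w + U*(g k' - g k) - (p0 + A j)| ≤ q*PM
  let EVs : Finset (Unit ⊕ (ℕ × Bool) ⊕ ℕ) := (Finset.univ : Finset Unit).disjSum
    ((Ms ×ˢ (Finset.univ : Finset Bool)).disjSum (Finset.range (m+1)))
  have hcard : EVs.card = 1 + 2*Ms.card + (m+1) := by
    simp only [EVs, Finset.card_disjSum, Finset.card_product, Finset.card_range,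
      Finset.card_univ, Fintype.card_unit, Fintype.card_bool]
    omega
  -- key : uniqueness
  have key : ∀ e ∈ EVs, ∀ a a' b b', a < K → a' < K → b < K → b' < K → a' ≠ a → b' ≠ b →
      P a a' e → P b b' e → a = b := by
    intro e he a a' b b' ha ha' hb hb' hne hne' h1 h2
    have hfin : |(g a' - g a) - (g b' - g b)| ≤ 2 → a = b := by
      intro h
      rcases hr a' a b' b ha' ha hb' hb h with ⟨h3, _⟩ | ⟨_, h4⟩
      · exact absurd h3 hne
      · exact h4
    apply hfin
    have hA1 := hUdel a' a ha' ha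
    have hB1 := hUdel b' b hb' hb
    have hA0 := hdel a' a ha' ha
    have hB0 := hdel b' b hb' hb
    rcases e with _ | ⟨p, bb⟩ | j
    · -- outer walls
      obtain ⟨w, hw, hw1⟩ := h1
      obtain ⟨w', hw', hw1'⟩ := h2
      have hx1 := hth0 ((w + U*(g a' - g a)) % q)
      have hx2 := hth1 ((w + U*(g a' - g a)) % q)
      have hx3 := hth0 ((w' + U*(g b' - g b)) % q)
      have hx4 := hth1 ((w' + U*(g b' - g b)) % q)
      rw [abs_le] at hw1 hw1' hA1 hB1
      have hww : w = w' := by
        rcases lt_trichotomy w w' with h | h | h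
        · have := hWo w w' hw hw' h
          omega
        · exact h
        · have := hWo w' w hw' hw h
          omega
      subst hww
      have h5 : (w + U*(g a' - g a)) % q = (w + U*(g b' - g b)) % q := by
        apply hsep
        rw [abs_le]
        constructor <;> omega
      have h6 : q ∣ U*((g a' - g a) - (g b' - g b)) := by
        have h7 := Int.emod_emod_of_dvd
        have h8 : q ∣ (w + U*(g a' - g a)) - (w + U*(g b' - g b)) :=
          Int.ModEq.dvd (Int.ModEq.symm h5)
        have h9 : (w + U*(g a' - g a)) - (w + U*(g b' - g b)) =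
          U*((g a' - g a) - (g b' - g b)) := by ring
        rwa [h9] at h8
      have h10 : q ∣ (g a' - g a) - (g b' - g b) := by
        have h11 : (g a' - g a) - (g b' - g b) = U*((g a' - g a) - (g b' - g b)) -
          q*((1+4*PM)*((g a' - g a) - (g b' - g b))) := by rw [hU]; ring
        rw [h11]
        exact dvd_sub h6 (dvd_mul_right _ _)
      have h12 : (g a' - g a) - (g b' - g b) = 0 := by
        apply Int.eq_zero_of_abs_lt_dvd h10
        rw [abs_le] at hA0 hB0
        rw [abs_lt]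
        constructor <;> omega
      rw [h12]; simp
    · -- divisibility
      change (p:ℤ) ∣ ((if bb then t0 else t1) + U*(g a' - g a) - p0) / q at h1
      change (p:ℤ) ∣ ((if bb then t0 else t1) + U*(g b' - g b) - p0) / q at h2
      have hpm : p ∈ Ms := by
        simp [EVs] at he
        exact he
      obtain ⟨hp1, hp2⟩ := hp p hpm
      set w : ℤ := (if bb then t0 else t1) with hw
      have e1 : ∀ d : ℤ, (w + U*d - p0) / q = (w + d - p0) / q + (1+4*PM)*d := by
        intro d
        have : w + U*d - p0 = (w + d - p0) + ((1+4*PM)*d)*q := by rw [hU]; ring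
        rw [this, Int.add_mul_ediv_right _ _ hq0.ne']
      rw [e1] at h1 h2
      have h3 := dvd_sub h1 h2
      have h4 : (p:ℤ) ∣ ((w + (g a' - g a) - p0) / q - (w + (g b' - g b) - p0) / q) +
          ((g a' - g a) - (g b' - g b)) := by
        have h5 : ((w + (g a' - g a) - p0) / q - (w + (g b' - g b) - p0) / q) +
          ((g a' - g a) - (g b' - g b)) = ((w + (g a' - g a) - p0) / q + (1+4*PM)*(g a' - g a) -
            ((w + (g b' - g b) - p0) / q + (1+4*PM)*(g b' - g b))) -
            PM*(4*((g a' - g a) - (g b' - g b))) := by ring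
        rw [h5]
        exact dvd_sub h3 (Dvd.dvd.mul_right hp1 _)
      -- floors differ by at most one
      rw [abs_le] at hA0 hB0
      have h6 : |(w + (g a' - g a) - p0) / q - (w + (g b' - g b) - p0) / q| ≤ 1 := by
        have hd1 := Int.emod_add_mul_ediv (w + (g a' - g a) - p0) q
        have hd2 := Int.emod_add_mul_ediv (w + (g b' - g b) - p0) q
        have hd3 := Int.emod_nonneg (w + (g a' - g a) - p0) hq0.ne'
        have hd4 := Int.emod_lt_of_pos (w + (g a' - g a) - p0) hq0
        have hd5 := Int.emod_nonneg (w + (g b' - g b) - p0) hq0.ne'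
        have hd6 := Int.emod_lt_of_pos (w + (g b' - g b) - p0) hq0
        set f1 := (w + (g a' - g a) - p0) / q
        set f2 := (w + (g b' - g b) - p0) / q
        rw [abs_le]
        constructor
        · by_contra hc
          push Not at hc
          have : f1 + 2 ≤ f2 := by omega
          have : q*(f1 + 2) ≤ q*f2 := mul_le_mul_of_nonneg_left this hq0.le
          rw [mul_add] at this
          omega
        · by_contra hc
          push Not at hc
          have : f2 + 2 ≤ f1 := by omega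
          have : q*(f2 + 2) ≤ q*f1 := mul_le_mul_of_nonneg_left this hq0.le
          rw [mul_add] at this
          omega
      rw [abs_le] at h6
      have h7 : ((w + (g a' - g a) - p0) / q - (w + (g b' - g b) - p0) / q) +
          ((g a' - g a) - (g b' - g b)) = 0 := by
        apply Int.eq_zero_of_abs_lt_dvd h4
        rw [abs_lt]
        constructor <;> omega
      rw [abs_le]
      constructor <;> omega
    · -- small walls
      obtain ⟨w, hw, hw1⟩ := h1
      obtain ⟨w', hw', hw1'⟩ := h2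
      rw [abs_le] at hw1 hw1' hA1 hB1
      have hww : w = w' := by
        rcases lt_trichotomy w w' with h | h | h
        · have := hWs w w' hw hw' h
          omega
        · exact h
        · have := hWs w' w hw' hw h
          omega
      subst hww
      have h5 : |U*((g a' - g a) - (g b' - g b))| ≤ 2*(q*PM) := by
        rw [mul_sub, abs_le]
        constructor <;> omega
      have h6 : |(g a' - g a) - (g b' - g b)| < 1 := by
        by_contra hc
        push Not at hc
        rw [abs_mul, abs_of_pos hU0] at h5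
        have : U*1 ≤ U*|(g a' - g a) - (g b' - g b)| := mul_le_mul_of_nonneg_left hc hU0.le
        omega
      omega
  -- conclude
  rw [← hcard]
  set F := (Finset.range K).filter (fun k => ∃ k' < K, k' ≠ k ∧
      ( (∃ w, Wo w ∧ |w + U*(g k' - g k) - th ((w + U*(g k' - g k)) % q)| ≤ N1) ∨
        (∃ p ∈ Ms, ∃ w, (w = t0 ∨ w = t1) ∧ (p:ℤ) ∣ (w + U*(g k' - g k) - p0) / q) ∨
        (∃ j ≤ m, ∃ w, Ws w ∧ |w + U*(g k' - g k) - (p0 + A j)| ≤ q*PM) )) with hF
  have hex : ∀ k ∈ F, ∃ e ∈ EVs, ∃ k' < K, k' ≠ k ∧ P k k' e := by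
    intro k hk
    rw [hF, Finset.mem_filter] at hk
    obtain ⟨-, k', hk', hne, h | ⟨p, hpm, w, hw, h⟩ | ⟨j, hj, w, hw, h⟩⟩ := hk
    · exact ⟨Sum.inl (), by simp [EVs], k', hk', hne, h⟩
    · rcases hw with rfl | rfl
      · exact ⟨Sum.inr (Sum.inl (p, true)), by simp [EVs, hpm], k', hk', hne, by simpa [P] using h⟩
      · exact ⟨Sum.inr (Sum.inl (p, false)), by simp [EVs, hpm], k', hk', hne, by simpa [P] using h⟩
    · exact ⟨Sum.inr (Sum.inr j), by simp [EVs]; omega, k', hk', hne, w, hw, h⟩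
  choose! ev hev using hex
  apply Finset.card_le_card_of_injOn ev (fun k hk => (hev k hk).1)
  intro a ha b hb hab
  obtain ⟨h1, a', ha', hne, h2⟩ := hev a ha
  obtain ⟨h3, b', hb', hne', h4⟩ := hev b hb
  have haK : a < K := by
    have := ha
    rw [Finset.mem_coe, hF, Finset.mem_filter, Finset.mem_range] at this
    exact this.1
  have hbK : b < K := by
    have := hb
    rw [Finset.mem_coe, hF, Finset.mem_filter, Finset.mem_range] at this
    exact this.1
  rw [← hab] at h4
  exact key (ev a) h1 a a' b b' haK ha' hbK hb' hne hne' h2 h4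

end Crest.Agent.R320.Amb_363
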