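import Mathlib

namespace Crest.Agent.R320.Amb_444

private lemma evO (q N1 T0 T1 PM Gam : ℤ) (th : ℤ → ℤ) (Wo : ℤ → Prop)
    (hq : 2*Gam + 2 < q) (hPM : 0 < PM) (hG : 0 ≤ Gam)
    (hth0 : ∀ r, T0 ≤ th r) (hth1 : ∀ r, th r ≤ T1)
    (hsep : ∀ s s' : ℤ, |th (s % q) - th (s' % q)| ≤ 2*N1 + 2*((1 + q*(1+4*PM))*Gam) →
      s % q = s' % q)
    (hWo : ∀ w w', Wo w → Wo w' → w < w' →
      (T1 - T0) + 2*N1 + 2*((1 + q*(1+4*PM))*Gam) < w' - w)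
    (d1 d2 : ℤ) (h1 : |d1| ≤ Gam) (h2 : |d2| ≤ Gam)
    (e1 : ∃ w, Wo w ∧ |w + (1+q*(1+4*PM))*d1 - th ((w + (1+q*(1+4*PM))*d1) % q)| ≤ N1)
    (e2 : ∃ w, Wo w ∧ |w + (1+q*(1+4*PM))*d2 - th ((w + (1+q*(1+4*PM))*d2) % q)| ≤ N1) :
    |d1 - d2| ≤ 2 := by
  obtain ⟨w1, hw1, b1⟩ := e1
  obtain ⟨w2, hw2, b2⟩ := e2
  have hUpos : 0 < 1+q*(1+4*PM) := by
    have : 0 < q * (1+4*PM) := mul_pos (by linarith) (by linarith)
    linarith
  generalize hU : 1+q*(1+4*PM) = U at *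
  have k1 : |U * d1| ≤ U * Gam := by
    rw [abs_mul, abs_of_pos hUpos]; exact mul_le_mul_of_nonneg_left h1 hUpos.le
  have k2 : |U * d2| ≤ U * Gam := by
    rw [abs_mul, abs_of_pos hUpos]; exact mul_le_mul_of_nonneg_left h2 hUpos.le
  rw [abs_le] at k1 k2 b1 b2
  have a1 := hth0 ((w1 + U*d1) % q)
  have a2 := hth1 ((w1 + U*d1) % q)
  have a3 := hth0 ((w2 + U*d2) % q)
  have a4 := hth1 ((w2 + U*d2) % q)
  have hw : w1 = w2 := by
    rcases lt_trichotomy w1 w2 with h | h | h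
    · have := hWo w1 w2 hw1 hw2 h
      linarith [k1.1, k1.2, k2.1, k2.2, b1.1, b1.2, b2.1, b2.2]
    · exact h
    · have := hWo w2 w1 hw2 hw1 h
      linarith [k1.1, k1.2, k2.1, k2.2, b1.1, b1.2, b2.1, b2.2]
  subst hw
  have hmod := hsep (w1 + U*d1) (w1 + U*d2) (by
    rw [abs_le]
    constructor <;> linarith [k1.1, k1.2, k2.1, k2.2, b1.1, b1.2, b2.1, b2.2])
  have hdvd : q ∣ (w1 + U*d2) - (w1 + U*d1) := Int.ModEq.dvd hmod
  have hdvd2 : q ∣ d2 - d1 := by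
    have e : d2 - d1 = ((w1 + U*d2) - (w1 + U*d1)) - q * ((1+4*PM) * (d2 - d1)) := by
      rw [← hU]; ring
    rw [e]
    exact dvd_sub hdvd (dvd_mul_right _ _)
  rw [abs_le] at h1 h2
  have hz : d2 - d1 = 0 := by
    apply Int.eq_zero_of_abs_lt_dvd hdvd2
    rw [abs_lt]
    constructor <;> linarith [h1.1, h1.2, h2.1, h2.2]
  have : d1 - d2 = 0 := by linarith
  rw [this]; norm_num

private lemma evP (q PM p0 Gam w : ℤ) (p : ℕ)
    (hq : 2*Gam + 2 < q) (hG : 0 ≤ Gam)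
    (hp : (p:ℤ) ∣ PM ∧ 2*Gam + 2 < (p:ℤ))
    (d1 d2 : ℤ) (h1 : |d1| ≤ Gam) (h2 : |d2| ≤ Gam)
    (e1 : (p:ℤ) ∣ (w + (1+q*(1+4*PM))*d1 - p0) / q)
    (e2 : (p:ℤ) ∣ (w + (1+q*(1+4*PM))*d2 - p0) / q) :
    |d1 - d2| ≤ 2 := by
  have hqpos : 0 < q := by linarith
  have r1 : (w + (1+q*(1+4*PM))*d1 - p0) / q = (w - p0 + d1) / q + (1+4*PM)*d1 := by
    have : w + (1+q*(1+4*PM))*d1 - p0 = (w - p0 + d1) + q * ((1+4*PM)*d1) := by ring
    rw [this, Int.add_mul_ediv_left _ _ hqpos.ne']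
  have r2 : (w + (1+q*(1+4*PM))*d2 - p0) / q = (w - p0 + d2) / q + (1+4*PM)*d2 := by
    have : w + (1+q*(1+4*PM))*d2 - p0 = (w - p0 + d2) + q * ((1+4*PM)*d2) := by ring
    rw [this, Int.add_mul_ediv_left _ _ hqpos.ne']
  rw [r1] at e1
  rw [r2] at e2
  rw [abs_le] at h1 h2
  set x1 := (w - p0 + d1) / q with hx1
  set x2 := (w - p0 + d2) / q with hx2
  have m1 := Int.emod_add_mul_ediv (w - p0 + d1) q
  have m2 := Int.emod_add_mul_ediv (w - p0 + d2) q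
  rw [← hx1] at m1
  rw [← hx2] at m2
  have n1 := Int.emod_nonneg (w - p0 + d1) hqpos.ne'
  have n2 := Int.emod_lt_of_pos (w - p0 + d1) hqpos
  have n3 := Int.emod_nonneg (w - p0 + d2) hqpos.ne'
  have n4 := Int.emod_lt_of_pos (w - p0 + d2) hqpos
  have hx : x1 - x2 < 2 ∧ -2 < x1 - x2 := by
    constructor
    · by_contra hcon
      have : q * 2 ≤ q * (x1 - x2) := mul_le_mul_of_nonneg_left (by linarith) hqpos.le
      nlinarith [h1.1, h1.2, h2.1, h2.2]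
    · by_contra hcon
      have : q * (x1 - x2) ≤ q * (-2) := mul_le_mul_of_nonneg_left (by linarith) hqpos.le
      nlinarith [h1.1, h1.2, h2.1, h2.2]
  have hdvd : (p:ℤ) ∣ (x1 - x2) + (d1 - d2) := by
    have e : (x1 - x2) + (d1 - d2) = (x1 + (1+4*PM)*d1) - (x2 + (1+4*PM)*d2)
        - PM * (4 * (d1 - d2)) := by ring
    rw [e]
    exact dvd_sub (dvd_sub e1 e2) (Dvd.dvd.mul_right hp.1 _)
  have hz : (x1 - x2) + (d1 - d2) = 0 := by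
    apply Int.eq_zero_of_abs_lt_dvd hdvd
    rw [abs_lt]
    constructor <;> linarith [h1.1, h1.2, h2.1, h2.2, hx.1, hx.2, hp.2]
  rw [abs_le]
  constructor <;> linarith [hx.1, hx.2]

private lemma evS (q PM Gam c : ℤ) (Ws : ℤ → Prop)
    (hq : 2*Gam + 2 < q) (hPM : 0 < PM) (hG : 0 ≤ Gam)
    (hWs : ∀ w w', Ws w → Ws w' → w < w' →
      2*((1 + q*(1+4*PM))*Gam) + 2*(q*PM) < w' - w)
    (d1 d2 : ℤ) (h1 : |d1| ≤ Gam) (h2 : |d2| ≤ Gam)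
    (e1 : ∃ w, Ws w ∧ |w + (1+q*(1+4*PM))*d1 - c| ≤ q*PM)
    (e2 : ∃ w, Ws w ∧ |w + (1+q*(1+4*PM))*d2 - c| ≤ q*PM) :
    |d1 - d2| ≤ 2 := by
  obtain ⟨w1, hw1, b1⟩ := e1
  obtain ⟨w2, hw2, b2⟩ := e2
  have hqpos : 0 < q := by linarith
  have hqPM : 0 < q * PM := mul_pos hqpos hPM
  have hUpos : 2 * (q*PM) < 1+q*(1+4*PM) := by
    have : 1+q*(1+4*PM) = 1 + q + 4 * (q*PM) := by ring
    rw [this]; linarith
  generalize hU : 1+q*(1+4*PM) = U at *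
  have hUp : 0 < U := by linarith
  have k1 : |U * d1| ≤ U * Gam := by
    rw [abs_mul, abs_of_pos hUp]; exact mul_le_mul_of_nonneg_left h1 hUp.le
  have k2 : |U * d2| ≤ U * Gam := by
    rw [abs_mul, abs_of_pos hUp]; exact mul_le_mul_of_nonneg_left h2 hUp.le
  rw [abs_le] at k1 k2 b1 b2
  have hw : w1 = w2 := by
    rcases lt_trichotomy w1 w2 with h | h | h
    · have := hWs w1 w2 hw1 hw2 h
      linarith [k1.1, k1.2, k2.1, k2.2, b1.1, b1.2, b2.1, b2.2]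
    · exact h
    · have := hWs w2 w1 hw2 hw1 h
      linarith [k1.1, k1.2, k2.1, k2.2, b1.1, b1.2, b2.1, b2.2]
  subst hw
  have hd : |U * (d1 - d2)| ≤ 2 * (q*PM) := by
    rw [abs_le, mul_sub]
    constructor <;> linarith [b1.1, b1.2, b2.1, b2.2]
  rw [abs_mul, abs_of_pos hUp] at hd
  by_contra hcon
  have : U * 1 ≤ U * |d1 - d2| := mul_le_mul_of_nonneg_left (by linarith) hUp.le
  linarith

open Classical in
theorem amb (K m : ℕ) (Ms : Finset ℕ) (q N1 T0 T1 PM p0 Gam t0 t1 : ℤ) (th : ℤ → ℤ)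
    (Wo Ws : ℤ → Prop) (A : ℕ → ℤ) (g : ℕ → ℤ)
    (hq : 2*Gam + 2 < q) (hPM : 0 < PM) (_hN1 : 0 ≤ N1)
    (hp : ∀ p ∈ Ms, (p:ℤ) ∣ PM ∧ 2*Gam + 2 < (p:ℤ))
    (hg : ∀ k < K, 0 ≤ g k ∧ g k ≤ Gam)
    (hr : ∀ a b c d, a < K → b < K → c < K → d < K → |(g a - g b) - (g c - g d)| ≤ 2 →
      (a = b ∧ c = d) ∨ (a = c ∧ b = d))
    (hth0 : ∀ r, T0 ≤ th r) (hth1 : ∀ r, th r ≤ T1)
    (hsep : ∀ s s' : ℤ, |th (s % q) - th (s' % q)| ≤ 2*N1 + 2*((1 + q*(1+4*PM))*Gam) →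
      s % q = s' % q)
    (hWo : ∀ w w', Wo w → Wo w' → w < w' →
      (T1 - T0) + 2*N1 + 2*((1 + q*(1+4*PM))*Gam) < w' - w)
    (hWs : ∀ w w', Ws w → Ws w' → w < w' →
      2*((1 + q*(1+4*PM))*Gam) + 2*(q*PM) < w' - w) :
    ((Finset.range K).filter (fun k => ∃ k' < K, k' ≠ k ∧
      ( (∃ w, Wo w ∧ |w + (1+q*(1+4*PM))*(g k' - g k)
            - th ((w + (1+q*(1+4*PM))*(g k' - g k)) % q)| ≤ N1)
        ∨ (∃ p ∈ Ms, ∃ w, (w = t0 ∨ w = t1) ∧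
            (p:ℤ) ∣ (w + (1+q*(1+4*PM))*(g k' - g k) - p0) / q)
        ∨ (∃ j ≤ m, ∃ w, Ws w ∧
            |w + (1+q*(1+4*PM))*(g k' - g k) - (p0 + A j)| ≤ q*PM) ))).card
      ≤ 1 + 2*Ms.card + (m+1) := by
  let Ev : ℤ → (Unit ⊕ (ℕ × Bool)) ⊕ ℕ → Prop := fun δ ev =>
    match ev with
    | Sum.inl (Sum.inl _) => ∃ w, Wo w ∧ |w + (1+q*(1+4*PM))*δ
            - th ((w + (1+q*(1+4*PM))*δ) % q)| ≤ N1
    | Sum.inl (Sum.inr pb) => (pb.1:ℤ) ∣ ((if pb.2 then t0 else t1) + (1+q*(1+4*PM))*δ - p0) / q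
    | Sum.inr j => ∃ w, Ws w ∧ |w + (1+q*(1+4*PM))*δ - (p0 + A j)| ≤ q*PM
  let T : Finset ((Unit ⊕ (ℕ × Bool)) ⊕ ℕ) :=
    ((Finset.univ : Finset Unit).disjSum (Ms ×ˢ (Finset.univ : Finset Bool))).disjSum
      (Finset.range (m+1))
  have hT : T.card = 1 + 2*Ms.card + (m+1) := by
    simp [T, Finset.card_disjSum, Finset.card_product]; ring
  rw [← hT]
  refine Finset.card_le_card_of_forall_subsingleton
    (fun k ev => ∃ k' < K, k' ≠ k ∧ Ev (g k' - g k) ev) ?_ ?_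
  · intro k hk
    obtain ⟨-, k', hk', hne, h⟩ := Finset.mem_filter.1 hk
    rcases h with h | ⟨p, hpm, w, hw, h⟩ | ⟨j, hj, h⟩
    · exact ⟨Sum.inl (Sum.inl ()), by simp [T], k', hk', hne, h⟩
    · rcases hw with rfl | rfl
      · exact ⟨Sum.inl (Sum.inr (p, true)), by simp [T, hpm], k', hk', hne, by simpa [Ev] using h⟩
      · exact ⟨Sum.inl (Sum.inr (p, false)), by simp [T, hpm], k', hk', hne, by simpa [Ev] using h⟩
    · exact ⟨Sum.inr j, by simp [T]; omega, k', hk', hne, h⟩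
  · intro ev hev a ha b hb
    obtain ⟨haK, a', ha', hane, hA⟩ := ha
    obtain ⟨hbK, b', hb', hbne, hB⟩ := hb
    have haK : a < K := Finset.mem_range.1 (Finset.mem_filter.1 haK).1
    have hbK : b < K := Finset.mem_range.1 (Finset.mem_filter.1 hbK).1
    have ga := hg a haK
    have ga' := hg a' ha'
    have gb := hg b hbK
    have gb' := hg b' hb'
    have hG : 0 ≤ Gam := le_trans ga.1 ga.2
    have h1 : |g a' - g a| ≤ Gam := by rw [abs_le]; constructor <;> linarith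
    have h2 : |g b' - g b| ≤ Gam := by rw [abs_le]; constructor <;> linarith
    have key : |(g a' - g a) - (g b' - g b)| ≤ 2 := by
      rcases ev with (_ | ⟨p, bb⟩) | j
      · exact evO q N1 T0 T1 PM Gam th Wo hq hPM hG hth0 hth1 hsep hWo _ _ h1 h2 hA hB
      · have hpm : p ∈ Ms := by simpa [T] using hev
        exact evP q PM p0 Gam _ p hq hG (hp p hpm) _ _ h1 h2 hA hB
      · exact evS q PM Gam _ Ws hq hPM hG hWs _ _ h1 h2 hA hB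
    rcases hr a' a b' b ha' haK hb' hbK key with ⟨h, -⟩ | ⟨-, h⟩
    · exact absurd h hane
    · exact h

end Crest.Agent.R320.Amb_444
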