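import Mathlib

/-!
Row 320, leaf G3-AMB of helper237 (#13356): the ambiguity bound of the promise ruler.
-/

set_option autoImplicit false

namespace Crest.Agent.R320.Amb_469

theorem div_shift {q X d c : ℤ} (hq : 0 < q) : (X + (1 + q * c) * d) / q = (X + d) / q + c * d := by
  have : X + (1 + q * c) * d = (X + d) + q * (c * d) := by ring
  rw [this, Int.add_mul_ediv_left _ _ hq.ne']

theorem div_close {q x y : ℤ} (hq : 0 < q) (h : |x - y| < q) : |x / q - y / q| ≤ 1 := by
  have e1 := Int.mul_ediv_add_emod x q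
  have e2 := Int.mul_ediv_add_emod y q
  have a1 := Int.emod_nonneg x hq.ne'
  have a2 := Int.emod_lt_of_pos x hq
  have b1 := Int.emod_nonneg y hq.ne'
  have b2 := Int.emod_lt_of_pos y hq
  rw [abs_lt] at h
  have h1 : q * (x / q - y / q) < q * 2 := by nlinarith [h.2]
  have h2 : q * (-2) < q * (x / q - y / q) := by nlinarith [h.1]
  have h3 := lt_of_mul_lt_mul_left h1 hq.le
  have h4 := lt_of_mul_lt_mul_left h2 hq.le
  rw [abs_le]
  constructor <;> omega

open Classical in
theorem amb (K m : ℕ) (Ms : Finset ℕ) (q N1 T0 T1 PM p0 Gam t0 t1 : ℤ) (th : ℤ → ℤ)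
    (Wo Ws : ℤ → Prop) (A : ℕ → ℤ) (g : ℕ → ℤ) (hq : 2 * Gam + 2 < q) (hPM : 0 < PM)
    (hN1 : 0 ≤ N1) (hp : ∀ p ∈ Ms, (p : ℤ) ∣ PM ∧ 2 * Gam + 2 < (p : ℤ))
    (hg : ∀ k < K, 0 ≤ g k ∧ g k ≤ Gam)
    (hr : ∀ a b c d, a < K → b < K → c < K → d < K → |(g a - g b) - (g c - g d)| ≤ 2 →
      (a = b ∧ c = d) ∨ (a = c ∧ b = d))
    (hth0 : ∀ r, T0 ≤ th r) (hth1 : ∀ r, th r ≤ T1)
    (hsep : ∀ s s' : ℤ, |th (s % q) - th (s' % q)| ≤ 2 * N1 + 2 * ((1 + q * (1 + 4 * PM)) * Gam) →
      s % q = s' % q)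
    (hWo : ∀ w w', Wo w → Wo w' → w < w' →
      (T1 - T0) + 2 * N1 + 2 * ((1 + q * (1 + 4 * PM)) * Gam) < w' - w)
    (hWs : ∀ w w', Ws w → Ws w' → w < w' →
      2 * ((1 + q * (1 + 4 * PM)) * Gam) + 2 * (q * PM) < w' - w) :
    ((Finset.range K).filter (fun k => ∃ k' < K, k' ≠ k ∧
      ((∃ w, Wo w ∧ |w + (1 + q * (1 + 4 * PM)) * (g k' - g k)
          - th ((w + (1 + q * (1 + 4 * PM)) * (g k' - g k)) % q)| ≤ N1) ∨
        (∃ p ∈ Ms, ∃ w, (w = t0 ∨ w = t1) ∧
          (p : ℤ) ∣ (w + (1 + q * (1 + 4 * PM)) * (g k' - g k) - p0) / q) ∨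
        (∃ j ≤ m, ∃ w, Ws w ∧
          |w + (1 + q * (1 + 4 * PM)) * (g k' - g k) - (p0 + A j)| ≤ q * PM)))).card
      ≤ 1 + 2 * Ms.card + (m + 1) := by
  rcases Nat.eq_zero_or_pos K with hK0 | hK
  · subst hK0
    simp
  have hGam : 0 ≤ Gam := le_trans (hg 0 hK).1 (hg 0 hK).2
  have hq0 : 0 < q := by linarith
  set U : ℤ := 1 + q * (1 + 4 * PM) with hU
  have hUpos : 0 < U := by positivity
  -- differences
  have hd : ∀ k k', k < K → k' < K → |g k' - g k| ≤ Gam := by
    intro k k' hk hk'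
    have := hg k hk
    have := hg k' hk'
    rw [abs_le]
    constructor <;> linarith
  have hUd : ∀ k k', k < K → k' < K → |U * (g k' - g k)| ≤ U * Gam := by
    intro k k' hk hk'
    rw [abs_mul, abs_of_pos hUpos]
    exact mul_le_mul_of_nonneg_left (hd k k' hk hk') hUpos.le
  have hsame : ∀ k k' l l', k < K → k' < K → l < K → l' < K → k' ≠ k → l' ≠ l →
      |(g k' - g k) - (g l' - g l)| ≤ 2 → k = l := by
    intro k k' l l' hk hk' hl hl' hne _ h
    rcases hr k' k l' l hk' hk hl' hl h with h1 | h1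
    · exact absurd h1.1 hne
    · exact h1.2
  -- event E
  have hE : ((Finset.range K).filter (fun k => ∃ k' < K, k' ≠ k ∧
      ∃ w, Wo w ∧ |w + U * (g k' - g k) - th ((w + U * (g k' - g k)) % q)| ≤ N1)).card ≤ 1 := by
    rw [Finset.card_le_one]
    intro k hk l hl
    simp only [Finset.mem_filter, Finset.mem_range] at hk hl
    obtain ⟨hkK, k', hk', hne, w, hw, h⟩ := hk
    obtain ⟨hlK, l', hl', hne', w', hw', h'⟩ := hl
    have u1 := abs_le.1 (hUd k k' hkK hk')
    have u2 := abs_le.1 (hUd l l' hlK hl')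
    have a1 := abs_le.1 h
    have a2 := abs_le.1 h'
    have b1 := hth0 ((w + U * (g k' - g k)) % q)
    have b2 := hth1 ((w + U * (g k' - g k)) % q)
    have b3 := hth0 ((w' + U * (g l' - g l)) % q)
    have b4 := hth1 ((w' + U * (g l' - g l)) % q)
    have hww : w = w' := by
      rcases lt_trichotomy w w' with hlt | heq | hgt
      · have := hWo w w' hw hw' hlt
        linarith [u1.1, u1.2, u2.1, u2.2, a1.1, a1.2, a2.1, a2.2]
      · exact heq
      · have := hWo w' w hw' hw hgt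
        linarith [u1.1, u1.2, u2.1, u2.2, a1.1, a1.2, a2.1, a2.2]
    subst hww
    have hmod : (w + U * (g k' - g k)) % q = (w + U * (g l' - g l)) % q := by
      apply hsep
      rw [abs_le]
      constructor <;> linarith [u1.1, u1.2, u2.1, u2.2, a1.1, a1.2, a2.1, a2.2]
    have hdvd : q ∣ (g k' - g k) - (g l' - g l) := by
      have h1 : q ∣ (w + U * (g k' - g k)) - (w + U * (g l' - g l)) :=
        (Int.emod_emod_of_dvd _ (dvd_refl q) ▸ Int.emod_eq_emod_iff_emod_sub_eq_zero.1 hmod |>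
          Int.dvd_of_emod_eq_zero)
      have h2 : (w + U * (g k' - g k)) - (w + U * (g l' - g l))
          = ((g k' - g k) - (g l' - g l))
            + q * ((1 + 4 * PM) * ((g k' - g k) - (g l' - g l))) := by
        rw [hU]; ring
      rw [h2] at h1
      exact (dvd_add_left (dvd_mul_right q _)).1 h1
    have c1 := abs_le.1 (hd k k' hkK hk')
    have c2 := abs_le.1 (hd l l' hlK hl')
    have hzero : (g k' - g k) - (g l' - g l) = 0 := by
      apply Int.eq_zero_of_abs_lt_dvd hdvd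
      rw [abs_lt]
      constructor <;> linarith [c1.1, c1.2, c2.1, c2.2]
    apply hsame k k' l l' hkK hk' hlK hl' hne hne'
    rw [hzero]; simp
  -- event B
  have hB : ∀ p ∈ Ms, ∀ t : ℤ, ((Finset.range K).filter (fun k => ∃ k' < K, k' ≠ k ∧
      (p : ℤ) ∣ (t + U * (g k' - g k) - p0) / q)).card ≤ 1 := by
    intro p hpM t
    obtain ⟨⟨c, hc⟩, hp2⟩ := hp p hpM
    rw [Finset.card_le_one]
    intro k hk l hl
    simp only [Finset.mem_filter, Finset.mem_range] at hk hl
    obtain ⟨hkK, k', hk', hne, h⟩ := hk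
    obtain ⟨hlK, l', hl', hne', h'⟩ := hl
    have c1 := abs_le.1 (hd k k' hkK hk')
    have c2 := abs_le.1 (hd l l' hlK hl')
    have e1 : t + U * (g k' - g k) - p0 = (t - p0) + (1 + q * (1 + 4 * PM)) * (g k' - g k) := by
      rw [hU]; ring
    have e2 : t + U * (g l' - g l) - p0 = (t - p0) + (1 + q * (1 + 4 * PM)) * (g l' - g l) := by
      rw [hU]; ring
    rw [e1, div_shift hq0] at h
    rw [e2, div_shift hq0] at h'
    have h1 : (p : ℤ) ∣ ((t - p0 + (g k' - g k)) / q - (t - p0 + (g l' - g l)) / q)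
        + ((g k' - g k) - (g l' - g l)) := by
      have h2 := dvd_sub h h'
      have h3 : (t - p0 + (g k' - g k)) / q + (1 + 4 * PM) * (g k' - g k)
          - ((t - p0 + (g l' - g l)) / q + (1 + 4 * PM) * (g l' - g l))
          = ((t - p0 + (g k' - g k)) / q - (t - p0 + (g l' - g l)) / q)
            + ((g k' - g k) - (g l' - g l))
            + (p : ℤ) * (4 * c * ((g k' - g k) - (g l' - g l))) := by
        rw [hc]; ring
      rw [h3] at h2
      exact (dvd_add_left (dvd_mul_right _ _)).1 h2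
    have h4 : |(t - p0 + (g k' - g k)) / q - (t - p0 + (g l' - g l)) / q| ≤ 1 := by
      apply div_close hq0
      rw [abs_lt]
      constructor <;> linarith [c1.1, c1.2, c2.1, c2.2]
    have a4 := abs_le.1 h4
    have h5 : ((t - p0 + (g k' - g k)) / q - (t - p0 + (g l' - g l)) / q)
        + ((g k' - g k) - (g l' - g l)) = 0 := by
      apply Int.eq_zero_of_abs_lt_dvd h1
      rw [abs_lt]
      constructor <;> linarith [c1.1, c1.2, c2.1, c2.2, a4.1, a4.2]
    apply hsame k k' l l' hkK hk' hlK hl' hne hne'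
    rw [abs_le]
    constructor <;> linarith [a4.1, a4.2]
  -- event D
  have hD : ∀ j : ℕ, ((Finset.range K).filter (fun k => ∃ k' < K, k' ≠ k ∧
      ∃ w, Ws w ∧ |w + U * (g k' - g k) - (p0 + A j)| ≤ q * PM)).card ≤ 1 := by
    intro j
    rw [Finset.card_le_one]
    intro k hk l hl
    simp only [Finset.mem_filter, Finset.mem_range] at hk hl
    obtain ⟨hkK, k', hk', hne, w, hw, h⟩ := hk
    obtain ⟨hlK, l', hl', hne', w', hw', h'⟩ := hl
    have u1 := abs_le.1 (hUd k k' hkK hk')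
    have u2 := abs_le.1 (hUd l l' hlK hl')
    have a1 := abs_le.1 h
    have a2 := abs_le.1 h'
    have hww : w = w' := by
      rcases lt_trichotomy w w' with hlt | heq | hgt
      · have := hWs w w' hw hw' hlt
        linarith [u1.1, u1.2, u2.1, u2.2, a1.1, a1.2, a2.1, a2.2]
      · exact heq
      · have := hWs w' w hw' hw hgt
        linarith [u1.1, u1.2, u2.1, u2.2, a1.1, a1.2, a2.1, a2.2]
    subst hww
    have h1 : |U * ((g k' - g k) - (g l' - g l))| ≤ 2 * (q * PM) := by
      rw [abs_le]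
      constructor <;> linarith [a1.1, a1.2, a2.1, a2.2]
    have h2 : 2 * (q * PM) < U := by
      rw [hU]
      nlinarith [mul_pos hq0 hPM]
    rw [abs_mul, abs_of_pos hUpos] at h1
    have h3 : |(g k' - g k) - (g l' - g l)| < 1 := by
      by_contra hcon
      push Not at hcon
      nlinarith
    have h4 := Int.abs_lt_one_iff.1 h3
    apply hsame k k' l l' hkK hk' hlK hl' hne hne'
    rw [h4]; simp
  -- union
  have hsub : (Finset.range K).filter (fun k => ∃ k' < K, k' ≠ k ∧
      ((∃ w, Wo w ∧ |w + U * (g k' - g k) - th ((w + U * (g k' - g k)) % q)| ≤ N1) ∨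
        (∃ p ∈ Ms, ∃ w, (w = t0 ∨ w = t1) ∧ (p : ℤ) ∣ (w + U * (g k' - g k) - p0) / q) ∨
        (∃ j ≤ m, ∃ w, Ws w ∧ |w + U * (g k' - g k) - (p0 + A j)| ≤ q * PM))) ⊆
      ((Finset.range K).filter (fun k => ∃ k' < K, k' ≠ k ∧
        ∃ w, Wo w ∧ |w + U * (g k' - g k) - th ((w + U * (g k' - g k)) % q)| ≤ N1)) ∪
      (Ms.biUnion (fun p => ((Finset.range K).filter (fun k => ∃ k' < K, k' ≠ k ∧
        (p : ℤ) ∣ (t0 + U * (g k' - g k) - p0) / q)) ∪
        ((Finset.range K).filter (fun k => ∃ k' < K, k' ≠ k ∧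
        (p : ℤ) ∣ (t1 + U * (g k' - g k) - p0) / q)))) ∪
      ((Finset.range (m + 1)).biUnion (fun j => (Finset.range K).filter (fun k => ∃ k' < K,
        k' ≠ k ∧ ∃ w, Ws w ∧ |w + U * (g k' - g k) - (p0 + A j)| ≤ q * PM))) := by
    intro k hk
    simp only [Finset.mem_filter, Finset.mem_range] at hk
    obtain ⟨hkK, k', hk', hne, h⟩ := hk
    rcases h with h | ⟨p, hpM, w, hw, h⟩ | ⟨j, hj, h⟩
    · apply Finset.mem_union_left
      apply Finset.mem_union_left
      simp only [Finset.mem_filter, Finset.mem_range]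
      exact ⟨hkK, k', hk', hne, h⟩
    · apply Finset.mem_union_left
      apply Finset.mem_union_right
      rw [Finset.mem_biUnion]
      refine ⟨p, hpM, ?_⟩
      rcases hw with rfl | rfl
      · apply Finset.mem_union_left
        simp only [Finset.mem_filter, Finset.mem_range]
        exact ⟨hkK, k', hk', hne, h⟩
      · apply Finset.mem_union_right
        simp only [Finset.mem_filter, Finset.mem_range]
        exact ⟨hkK, k', hk', hne, h⟩
    · apply Finset.mem_union_right
      rw [Finset.mem_biUnion]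
      refine ⟨j, Finset.mem_range.2 (by omega), ?_⟩
      simp only [Finset.mem_filter, Finset.mem_range]
      exact ⟨hkK, k', hk', hne, h⟩
  refine (Finset.card_le_card hsub).trans ?_
  refine (Finset.card_union_le _ _).trans ?_
  have c1 := Finset.card_union_le ((Finset.range K).filter (fun k => ∃ k' < K, k' ≠ k ∧
        ∃ w, Wo w ∧ |w + U * (g k' - g k) - th ((w + U * (g k' - g k)) % q)| ≤ N1))
      (Ms.biUnion (fun p => ((Finset.range K).filter (fun k => ∃ k' < K, k' ≠ k ∧
        (p : ℤ) ∣ (t0 + U * (g k' - g k) - p0) / q)) ∪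
        ((Finset.range K).filter (fun k => ∃ k' < K, k' ≠ k ∧
        (p : ℤ) ∣ (t1 + U * (g k' - g k) - p0) / q))))
  have c2 : (Ms.biUnion (fun p => ((Finset.range K).filter (fun k => ∃ k' < K, k' ≠ k ∧
        (p : ℤ) ∣ (t0 + U * (g k' - g k) - p0) / q)) ∪
        ((Finset.range K).filter (fun k => ∃ k' < K, k' ≠ k ∧
        (p : ℤ) ∣ (t1 + U * (g k' - g k) - p0) / q)))).card ≤ 2 * Ms.card := by
    refine (Finset.card_biUnion_le_card_mul _ _ 2 ?_).trans (by rw [mul_comm])
    intro p hpM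
    refine (Finset.card_union_le _ _).trans ?_
    have := hB p hpM t0
    have := hB p hpM t1
    omega
  have c3 : ((Finset.range (m + 1)).biUnion (fun j => (Finset.range K).filter (fun k => ∃ k' < K,
        k' ≠ k ∧ ∃ w, Ws w ∧ |w + U * (g k' - g k) - (p0 + A j)| ≤ q * PM))).card ≤ m + 1 := by
    refine (Finset.card_biUnion_le_card_mul _ _ 1 ?_).trans (by simp)
    intro j _
    exact hD j
  omega

end Crest.Agent.R320.Amb_469
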