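import Mathlib

/-! Row 320, leaf G3-AMB of 237: at most `1 + 2 |Ms| + (m + 1)` elements of the ruler are ambiguous. -/

set_option autoImplicit false

namespace Crest.Agent.R320.Amb471

open Classical in
theorem amb (K m : ℕ) (Ms : Finset ℕ) (q N1 T0 T1 PM p0 Gam t0 t1 : ℤ) (th : ℤ → ℤ)
    (Wo Ws : ℤ → Prop) (A : ℕ → ℤ) (g : ℕ → ℤ)
    (hq : 2 * Gam + 2 < q) (hPM : 0 < PM) (hN1 : 0 ≤ N1)
    (hp : ∀ p ∈ Ms, (p : ℤ) ∣ PM ∧ 2 * Gam + 2 < (p : ℤ))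
    (hg : ∀ k < K, 0 ≤ g k ∧ g k ≤ Gam)
    (hr : ∀ a b c d, a < K → b < K → c < K → d < K → |(g a - g b) - (g c - g d)| ≤ 2 →
      (a = b ∧ c = d) ∨ (a = c ∧ b = d))
    (hth0 : ∀ r, T0 ≤ th r) (hth1 : ∀ r, th r ≤ T1)
    (hsep : ∀ s s' : ℤ, |th (s % q) - th (s' % q)| ≤ 2 * N1 + 2 * ((1 + q * (1 + 4 * PM)) * Gam) →
      s % q = s' % q)
    (hWo : ∀ w w', Wo w → Wo w' → w < w' →
      (T1 - T0) + 2 * N1 + 2 * ((1 + q * (1 + 4 * PM)) * Gam) < w' - w)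
    (hWs : ∀ w w', Ws w → Ws w' → w < w' →
      2 * ((1 + q * (1 + 4 * PM)) * Gam) + 2 * (q * PM) < w' - w) :
    ((Finset.range K).filter (fun k => ∃ k' < K, k' ≠ k ∧
      ((∃ w, Wo w ∧ |w + (1 + q * (1 + 4 * PM)) * (g k' - g k) -
          th ((w + (1 + q * (1 + 4 * PM)) * (g k' - g k)) % q)| ≤ N1) ∨
       (∃ p ∈ Ms, ∃ w, (w = t0 ∨ w = t1) ∧
          (p : ℤ) ∣ (w + (1 + q * (1 + 4 * PM)) * (g k' - g k) - p0) / q) ∨
       (∃ j ≤ m, ∃ w, Ws w ∧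
          |w + (1 + q * (1 + 4 * PM)) * (g k' - g k) - (p0 + A j)| ≤ q * PM)))).card
      ≤ 1 + 2 * Ms.card + (m + 1) := by
  rcases Nat.eq_zero_or_pos K with rfl | hK
  · simp
  have hGam : 0 ≤ Gam := (hg 0 hK).1.trans (hg 0 hK).2
  have hq0 : 0 < q := by omega
  have hqPM : 0 < q * PM := mul_pos hq0 hPM
  generalize hU : (1 + q * (1 + 4 * PM)) = U at *
  have hU0 : 0 < U := by rw [← hU]; nlinarith
  have hUD : ∀ δ : ℤ, -Gam ≤ δ → δ ≤ Gam → -(U * Gam) ≤ U * δ ∧ U * δ ≤ U * Gam := by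
    intro δ h1 h2
    constructor <;> nlinarith
  -- uniqueness from closeness
  have huniq : ∀ k₁ k₁' k₂ k₂' : ℕ, k₁ < K → k₁' < K → k₂ < K → k₂' < K → k₁' ≠ k₁ →
      |(g k₁' - g k₁) - (g k₂' - g k₂)| ≤ 1 → k₁ = k₂ := by
    intro k₁ k₁' k₂ k₂' h1 h2 h3 h4 hne hcl
    rcases hr k₁' k₁ k₂' k₂ h2 h1 h4 h3 (hcl.trans (by norm_num)) with h | h
    · exact absurd h.1 hne
    · exact h.2
  have hdel : ∀ k k' : ℕ, k < K → k' < K → -Gam ≤ g k' - g k ∧ g k' - g k ≤ Gam := by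
    intro k k' h1 h2
    have := hg k h1
    have := hg k' h2
    constructor <;> omega
  -- E
  have hE : ∀ δ₁ δ₂ : ℤ, -Gam ≤ δ₁ → δ₁ ≤ Gam → -Gam ≤ δ₂ → δ₂ ≤ Gam →
      (∃ w, Wo w ∧ |w + U * δ₁ - th ((w + U * δ₁) % q)| ≤ N1) →
      (∃ w, Wo w ∧ |w + U * δ₂ - th ((w + U * δ₂) % q)| ≤ N1) → |δ₁ - δ₂| ≤ 1 := by
    rintro δ₁ δ₂ a1 a2 b1 b2 ⟨w, hw, h1⟩ ⟨w', hw', h2⟩
    have u1 := hUD δ₁ a1 a2
    have u2 := hUD δ₂ b1 b2
    rw [abs_le] at h1 h2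
    have p1 := hth0 ((w + U * δ₁) % q)
    have p2 := hth1 ((w + U * δ₁) % q)
    have p3 := hth0 ((w' + U * δ₂) % q)
    have p4 := hth1 ((w' + U * δ₂) % q)
    have hww : w = w' := by
      rcases lt_trichotomy w w' with h | h | h
      · have := hWo w w' hw hw' h; omega
      · exact h
      · have := hWo w' w hw' hw h; omega
    subst hww
    have hs : (w + U * δ₁) % q = (w + U * δ₂) % q := by
      apply hsep
      rw [abs_le]
      constructor <;> omega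
    have hd : q ∣ (w + U * δ₁) - (w + U * δ₂) := Int.ModEq.dvd hs.symm
    have hd2 : q ∣ δ₁ - δ₂ := by
      have e : (w + U * δ₁) - (w + U * δ₂) = (δ₁ - δ₂) + q * ((1 + 4 * PM) * (δ₁ - δ₂)) := by
        rw [← hU]; ring
      rw [e] at hd
      exact (Int.dvd_add_left (Dvd.intro _ rfl)).1 hd
    obtain ⟨c, hc⟩ := hd2
    have hc0 : c = 0 := by
      by_contra hne
      rcases lt_or_gt_of_ne hne with h | h
      · have : q * c ≤ q * (-1) := by nlinarith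
        omega
      · have : q * 1 ≤ q * c := by nlinarith
        omega
    rw [hc, hc0]; simp
  -- B
  have hB : ∀ (p : ℕ), p ∈ Ms → ∀ (w δ₁ δ₂ : ℤ), -Gam ≤ δ₁ → δ₁ ≤ Gam → -Gam ≤ δ₂ → δ₂ ≤ Gam →
      (p : ℤ) ∣ (w + U * δ₁ - p0) / q → (p : ℤ) ∣ (w + U * δ₂ - p0) / q → |δ₁ - δ₂| ≤ 1 := by
    intro p hpm w δ₁ δ₂ a1 a2 b1 b2 h1 h2
    obtain ⟨⟨c, hc⟩, hpl⟩ := hp p hpm
    have key : ∀ δ : ℤ, (w + U * δ - p0) / q = (w - p0 + δ) / q + (δ + (p : ℤ) * (4 * c * δ)) := by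
      intro δ
      have e : w + U * δ - p0 = (w - p0 + δ) + q * (δ + (p : ℤ) * (4 * c * δ)) := by
        rw [← hU, hc]; ring
      rw [e, Int.add_mul_ediv_left _ _ (by omega)]
    rw [key] at h1 h2
    have hx : (p : ℤ) ∣ ((w - p0 + δ₁) / q - (w - p0 + δ₂) / q) + (δ₁ - δ₂) := by
      have := dvd_sub h1 h2
      have e : ((w - p0 + δ₁) / q + (δ₁ + (p : ℤ) * (4 * c * δ₁))) -
          ((w - p0 + δ₂) / q + (δ₂ + (p : ℤ) * (4 * c * δ₂))) =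
          (((w - p0 + δ₁) / q - (w - p0 + δ₂) / q) + (δ₁ - δ₂)) +
            (p : ℤ) * (4 * c * (δ₁ - δ₂)) := by ring
      rw [e] at this
      exact (Int.dvd_add_left (Dvd.intro _ rfl)).1 this
    have e1 := Int.mul_ediv_add_emod (w - p0 + δ₁) q
    have e2 := Int.mul_ediv_add_emod (w - p0 + δ₂) q
    have m1 := Int.emod_nonneg (w - p0 + δ₁) (by omega : q ≠ 0)
    have m2 := Int.emod_nonneg (w - p0 + δ₂) (by omega : q ≠ 0)
    have m3 := Int.emod_lt_of_pos (w - p0 + δ₁) hq0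
    have m4 := Int.emod_lt_of_pos (w - p0 + δ₂) hq0
    generalize (w - p0 + δ₁) / q = x at *
    generalize (w - p0 + δ₂) / q = y at *
    have hxy1 : x - y ≤ 1 := by
      by_contra h
      have : q * 2 ≤ q * (x - y) := by nlinarith
      have : q * (x - y) = q * x - q * y := by ring
      omega
    have hxy2 : -1 ≤ x - y := by
      by_contra h
      have : q * (x - y) ≤ q * (-2) := by nlinarith
      have : q * (x - y) = q * x - q * y := by ring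
      omega
    obtain ⟨d, hd⟩ := hx
    have hd0 : d = 0 := by
      by_contra hne
      rcases lt_or_gt_of_ne hne with h | h
      · have : (p : ℤ) * d ≤ (p : ℤ) * (-1) := by nlinarith
        omega
      · have : (p : ℤ) * 1 ≤ (p : ℤ) * d := by nlinarith
        omega
    rw [hd0] at hd
    rw [abs_le]
    constructor <;> omega
  -- D
  have hD : ∀ (j : ℕ) (δ₁ δ₂ : ℤ), -Gam ≤ δ₁ → δ₁ ≤ Gam → -Gam ≤ δ₂ → δ₂ ≤ Gam →
      (∃ w, Ws w ∧ |w + U * δ₁ - (p0 + A j)| ≤ q * PM) →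
      (∃ w, Ws w ∧ |w + U * δ₂ - (p0 + A j)| ≤ q * PM) → |δ₁ - δ₂| ≤ 1 := by
    rintro j δ₁ δ₂ a1 a2 b1 b2 ⟨w, hw, h1⟩ ⟨w', hw', h2⟩
    have u1 := hUD δ₁ a1 a2
    have u2 := hUD δ₂ b1 b2
    rw [abs_le] at h1 h2
    have hww : w = w' := by
      rcases lt_trichotomy w w' with h | h | h
      · have := hWs w w' hw hw' h; omega
      · exact h
      · have := hWs w' w hw' hw h; omega
    subst hww
    have hle : -(2 * (q * PM)) ≤ U * (δ₁ - δ₂) ∧ U * (δ₁ - δ₂) ≤ 2 * (q * PM) := by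
      have : U * (δ₁ - δ₂) = U * δ₁ - U * δ₂ := by ring
      constructor <;> omega
    have hUbig : 2 * (q * PM) < U := by
      rw [← hU]; nlinarith
    have : δ₁ - δ₂ = 0 := by
      by_contra hne
      rcases lt_or_gt_of_ne hne with h | h
      · have : U * (δ₁ - δ₂) ≤ U * (-1) := by nlinarith
        omega
      · have : U * 1 ≤ U * (δ₁ - δ₂) := by nlinarith
        omega
    rw [this]; simp
  -- the code
  let Ev := Unit ⊕ ({p // p ∈ Ms} × Bool) ⊕ Fin (m + 1)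
  let hit : ℤ → Ev → Prop := fun δ e => match e with
    | Sum.inl _ => ∃ w, Wo w ∧ |w + U * δ - th ((w + U * δ) % q)| ≤ N1
    | Sum.inr (Sum.inl x) => ((x.1.1 : ℕ) : ℤ) ∣ ((if x.2 then t0 else t1) + U * δ - p0) / q
    | Sum.inr (Sum.inr j) => ∃ w, Ws w ∧ |w + U * δ - (p0 + A j.1)| ≤ q * PM
  have hcode : ∀ k : ℕ, (∃ k' < K, k' ≠ k ∧
      ((∃ w, Wo w ∧ |w + U * (g k' - g k) - th ((w + U * (g k' - g k)) % q)| ≤ N1) ∨
       (∃ p ∈ Ms, ∃ w, (w = t0 ∨ w = t1) ∧ (p : ℤ) ∣ (w + U * (g k' - g k) - p0) / q) ∨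
       (∃ j ≤ m, ∃ w, Ws w ∧ |w + U * (g k' - g k) - (p0 + A j)| ≤ q * PM))) →
      ∃ e : Ev, ∃ k' < K, k' ≠ k ∧ hit (g k' - g k) e := by
    rintro k ⟨k', hk', hne, h | ⟨p, hpm, w, hw, h⟩ | ⟨j, hj, h⟩⟩
    · exact ⟨Sum.inl (), k', hk', hne, h⟩
    · rcases hw with rfl | rfl
      · exact ⟨Sum.inr (Sum.inl (⟨p, hpm⟩, true)), k', hk', hne, by simpa [hit] using h⟩
      · exact ⟨Sum.inr (Sum.inl (⟨p, hpm⟩, false)), k', hk', hne, by simpa [hit] using h⟩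
    · exact ⟨Sum.inr (Sum.inr ⟨j, by omega⟩), k', hk', hne, h⟩
  have hinj : ∀ (e : Ev) (k₁ k₂ : ℕ), k₁ < K → k₂ < K →
      (∃ k' < K, k' ≠ k₁ ∧ hit (g k' - g k₁) e) → (∃ k' < K, k' ≠ k₂ ∧ hit (g k' - g k₂) e) →
      k₁ = k₂ := by
    rintro e k₁ k₂ h1 h2 ⟨k₁', h1', n1, c1⟩ ⟨k₂', h2', n2, c2⟩
    have d1 := hdel k₁ k₁' h1 h1'
    have d2 := hdel k₂ k₂' h2 h2'
    refine huniq k₁ k₁' k₂ k₂' h1 h1' h2 h2' n1 ?_
    match e, c1, c2 with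
    | Sum.inl _, c1, c2 => exact hE _ _ d1.1 d1.2 d2.1 d2.2 c1 c2
    | Sum.inr (Sum.inl x), c1, c2 => exact hB _ x.1.2 _ _ _ d1.1 d1.2 d2.1 d2.2 c1 c2
    | Sum.inr (Sum.inr j), c1, c2 => exact hD _ _ _ d1.1 d1.2 d2.1 d2.2 c1 c2
  let f : ℕ → Ev := fun k => if h : (∃ e : Ev, ∃ k' < K, k' ≠ k ∧ hit (g k' - g k) e) then h.choose
    else Sum.inl ()
  have hf : ∀ k, (∃ e : Ev, ∃ k' < K, k' ≠ k ∧ hit (g k' - g k) e) →
      ∃ k' < K, k' ≠ k ∧ hit (g k' - g k) (f k) := by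
    intro k h
    have : f k = h.choose := dif_pos h
    rw [this]
    exact h.choose_spec
  have hcard : Fintype.card Ev = 1 + 2 * Ms.card + (m + 1) := by
    simp only [Ev, Fintype.card_sum, Fintype.card_prod, Fintype.card_unit, Fintype.card_bool,
      Fintype.card_fin, Fintype.card_coe]
    ring
  rw [← hcard, ← Finset.card_univ]
  apply Finset.card_le_card_of_injOn f
  · intro k _; exact Finset.mem_coe.2 (Finset.mem_univ _)
  · intro k₁ h1 k₂ h2 he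
    have h1' := Finset.mem_filter.1 (Finset.mem_coe.1 h1)
    have h2' := Finset.mem_filter.1 (Finset.mem_coe.1 h2)
    have c1 := hf k₁ (hcode k₁ h1'.2)
    have c2 := hf k₂ (hcode k₂ h2'.2)
    rw [← he] at c2
    exact hinj (f k₁) k₁ k₂ (Finset.mem_range.1 h1'.1) (Finset.mem_range.1 h2'.1) c1 c2

end Crest.Agent.R320.Amb471
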