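import Mathlib

/-! Row 320, leaf G3-AMB of helper237 (#13356): the ambiguity bound of the promise ruler. -/

set_option autoImplicit false

namespace Crest.Agent.R320.Amb_580

/-- labels of the events: wall band, divisibility (prime, which end), small wall near a level. -/
abbrev Lab := (Unit ⊕ (ℕ × Bool)) ⊕ ℕ

/-- all labels. -/
def labs (Ms : Finset ℕ) (m : ℕ) : Finset Lab :=
  ((({()} : Finset Unit).disjSum (Ms ×ˢ (Finset.univ : Finset Bool))).disjSum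
    (Finset.range (m + 1)))

theorem card_labs (Ms : Finset ℕ) (m : ℕ) :
    (labs Ms m).card = 1 + 2 * Ms.card + (m + 1) := by
  unfold labs
  rw [Finset.card_disjSum, Finset.card_disjSum, Finset.card_singleton, Finset.card_product,
    Finset.card_univ, Fintype.card_bool, Finset.card_range]
  ring

theorem mem_a (Ms : Finset ℕ) (m : ℕ) : (Sum.inl (Sum.inl ()) : Lab) ∈ labs Ms m := by
  unfold labs
  rw [Finset.inl_mem_disjSum, Finset.inl_mem_disjSum]
  exact Finset.mem_singleton_self _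

theorem mem_b (Ms : Finset ℕ) (m : ℕ) {p : ℕ} (hp : p ∈ Ms) (b : Bool) :
    (Sum.inl (Sum.inr (p, b)) : Lab) ∈ labs Ms m := by
  unfold labs
  rw [Finset.inl_mem_disjSum, Finset.inr_mem_disjSum, Finset.mem_product]
  exact ⟨hp, Finset.mem_univ _⟩

theorem mem_c (Ms : Finset ℕ) (m : ℕ) {j : ℕ} (hj : j ≤ m) : (Sum.inr j : Lab) ∈ labs Ms m := by
  unfold labs
  rw [Finset.inr_mem_disjSum, Finset.mem_range]
  omega

open Classical in
/-- AMBIGUITY BOUND. -/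
theorem amb (K m : ℕ) (Ms : Finset ℕ) (q N1 T0 T1 PM p0 Gam t0 t1 : ℤ) (th : ℤ → ℤ)
    (Wo Ws : ℤ → Prop) (A : ℕ → ℤ) (g : ℕ → ℤ)
    (hq : 2 * Gam + 2 < q) (hPM : 0 < PM) (hN1 : 0 ≤ N1)
    (hp : ∀ p ∈ Ms, (p : ℤ) ∣ PM ∧ 2 * Gam + 2 < (p : ℤ))
    (hg : ∀ k < K, 0 ≤ g k ∧ g k ≤ Gam)
    (hr : ∀ a b c d, a < K → b < K → c < K → d < K → |(g a - g b) - (g c - g d)| ≤ 2 →
      (a = b ∧ c = d) ∨ (a = c ∧ b = d))
    (hth0 : ∀ r, T0 ≤ th r) (hth1 : ∀ r, th r ≤ T1)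
    (hsep : ∀ s s' : ℤ, |th (s % q) - th (s' % q)| ≤
      2 * N1 + 2 * ((1 + q * (1 + 4 * PM)) * Gam) → s % q = s' % q)
    (hWo : ∀ w w', Wo w → Wo w' → w < w' →
      (T1 - T0) + 2 * N1 + 2 * ((1 + q * (1 + 4 * PM)) * Gam) < w' - w)
    (hWs : ∀ w w', Ws w → Ws w' → w < w' →
      2 * ((1 + q * (1 + 4 * PM)) * Gam) + 2 * (q * PM) < w' - w) :
    ((Finset.range K).filter (fun k => ∃ k' < K, k' ≠ k ∧
      ( (∃ w, Wo w ∧ |w + (1 + q * (1 + 4 * PM)) * (g k' - g k) -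
            th ((w + (1 + q * (1 + 4 * PM)) * (g k' - g k)) % q)| ≤ N1) ∨
        (∃ p ∈ Ms, ∃ w, (w = t0 ∨ w = t1) ∧
            (p : ℤ) ∣ (w + (1 + q * (1 + 4 * PM)) * (g k' - g k) - p0) / q) ∨
        (∃ j ≤ m, ∃ w, Ws w ∧
            |w + (1 + q * (1 + 4 * PM)) * (g k' - g k) - (p0 + A j)| ≤ q * PM) ))).card
      ≤ 1 + 2 * Ms.card + (m + 1) := by
  set U : ℤ := 1 + q * (1 + 4 * PM) with hU
  by_cases hK : K = 0
  · subst hK; simp
  have hGam : 0 ≤ Gam := by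
    have := hg 0 (Nat.pos_of_ne_zero hK)
    omega
  have hq0 : 0 < q := by omega
  have hqPM : 0 < q * PM := mul_pos hq0 hPM
  have hU0 : 0 < U := by
    rw [hU]; have : 0 < q * (1 + 4 * PM) := mul_pos hq0 (by omega)
    omega
  have hU2 : 2 * (q * PM) < U := by
    rw [hU]; nlinarith
  -- labels
  let Ev : Lab → ℤ → Prop := fun l δ =>
    match l with
    | .inl (.inl _) => ∃ w, Wo w ∧ |w + U * δ - th ((w + U * δ) % q)| ≤ N1
    | .inl (.inr (p, b)) => p ∈ Ms ∧ (p : ℤ) ∣ ((if b then t0 else t1) + U * δ - p0) / q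
    | .inr j => ∃ w, Ws w ∧ |w + U * δ - (p0 + A j)| ≤ q * PM
  have habsU : ∀ δ : ℤ, |δ| ≤ 2 * Gam → |U * δ| ≤ 2 * (U * Gam) := by
    intro δ h
    rw [abs_mul, abs_of_pos hU0]
    calc U * |δ| ≤ U * (2 * Gam) := mul_le_mul_of_nonneg_left h hU0.le
      _ = 2 * (U * Gam) := by ring
  have key : ∀ (l : Lab) (δ₁ δ₂ : ℤ), |δ₁| ≤ Gam → |δ₂| ≤ Gam → Ev l δ₁ → Ev l δ₂ →
      |δ₁ - δ₂| ≤ 1 := by
    intro l δ₁ δ₂ h1 h2 he1 he2
    have h12 : |δ₁ - δ₂| ≤ 2 * Gam := by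
      rw [abs_le] at h1 h2 ⊢; omega
    have hUd := habsU _ h12
    rw [mul_sub] at hUd
    match l, he1, he2 with
    | .inl (.inl _), he1, he2 =>
      obtain ⟨w1, hw1, e1⟩ := he1
      obtain ⟨w2, hw2, e2⟩ := he2
      have a1 := hth0 ((w1 + U * δ₁) % q)
      have a2 := hth1 ((w1 + U * δ₁) % q)
      have b1 := hth0 ((w2 + U * δ₂) % q)
      have b2 := hth1 ((w2 + U * δ₂) % q)
      have hww : w1 = w2 := by
        rw [abs_le] at e1 e2 hUd
        rcases lt_trichotomy w1 w2 with h | h | h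
        · have := hWo w1 w2 hw1 hw2 h; omega
        · exact h
        · have := hWo w2 w1 hw2 hw1 h; omega
      subst hww
      have hmod : (w1 + U * δ₁) % q = (w1 + U * δ₂) % q := by
        apply hsep
        rw [abs_le] at e1 e2 hUd ⊢
        constructor <;> omega
      have hdvd : q ∣ δ₁ - δ₂ := by
        have h3 : q ∣ (w1 + U * δ₂) - (w1 + U * δ₁) := Int.ModEq.dvd hmod
        have h4 : δ₁ - δ₂ = -((w1 + U * δ₂) - (w1 + U * δ₁)) -
            q * ((1 + 4 * PM) * (δ₁ - δ₂)) := by rw [hU]; ring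
        rw [h4]
        exact dvd_sub (dvd_neg.2 h3) (Dvd.intro _ rfl)
      have hz : δ₁ - δ₂ = 0 := Int.eq_zero_of_abs_lt_dvd hdvd (by omega)
      rw [hz]; simp
    | .inl (.inr (p, b)), he1, he2 =>
      obtain ⟨hpm, d1⟩ := he1
      obtain ⟨-, d2⟩ := he2
      obtain ⟨hpd, hpg⟩ := hp p hpm
      set w : ℤ := if b then t0 else t1 with hw
      have r1 : (w + U * δ₁ - p0) / q = (w - p0 + δ₁) / q + δ₁ * (1 + 4 * PM) := by
        have : w + U * δ₁ - p0 = (w - p0 + δ₁) + (δ₁ * (1 + 4 * PM)) * q := by rw [hU]; ring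
        rw [this, Int.add_mul_ediv_right _ _ hq0.ne']
      have r2 : (w + U * δ₂ - p0) / q = (w - p0 + δ₂) / q + δ₂ * (1 + 4 * PM) := by
        have : w + U * δ₂ - p0 = (w - p0 + δ₂) + (δ₂ * (1 + 4 * PM)) * q := by rw [hU]; ring
        rw [this, Int.add_mul_ediv_right _ _ hq0.ne']
      rw [r1] at d1
      rw [r2] at d2
      set f1 := (w - p0 + δ₁) / q with hf1
      set f2 := (w - p0 + δ₂) / q with hf2
      have m1 := Int.mul_ediv_add_emod (w - p0 + δ₁) q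
      have m2 := Int.mul_ediv_add_emod (w - p0 + δ₂) q
      have n1 := Int.emod_nonneg (w - p0 + δ₁) hq0.ne'
      have n2 := Int.emod_nonneg (w - p0 + δ₂) hq0.ne'
      have l1 := Int.emod_lt_of_pos (w - p0 + δ₁) hq0
      have l2 := Int.emod_lt_of_pos (w - p0 + δ₂) hq0
      rw [← hf1] at m1
      rw [← hf2] at m2
      have hfd : |f1 - f2| ≤ 1 := by
        have e1 : q * (f1 - f2) = (δ₁ - δ₂) - (w - p0 + δ₁) % q + (w - p0 + δ₂) % q := by
          linarith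
        rw [abs_le] at h12 ⊢
        constructor
        · by_contra hc
          have hc' : f1 - f2 ≤ -2 := by omega
          have := mul_le_mul_of_nonneg_left hc' hq0.le
          omega
        · by_contra hc
          have hc' : 2 ≤ f1 - f2 := by omega
          have := mul_le_mul_of_nonneg_left hc' hq0.le
          omega
      have hdd : (p : ℤ) ∣ (f1 - f2) + (δ₁ - δ₂) := by
        have h3 := dvd_sub d1 d2
        have h4 : (f1 - f2) + (δ₁ - δ₂) = (f1 + δ₁ * (1 + 4 * PM) - (f2 + δ₂ * (1 + 4 * PM))) -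
            PM * (4 * (δ₁ - δ₂)) := by ring
        rw [h4]
        exact dvd_sub h3 (Dvd.dvd.mul_right hpd _)
      have hz : (f1 - f2) + (δ₁ - δ₂) = 0 := by
        apply Int.eq_zero_of_abs_lt_dvd hdd
        rw [abs_le] at h12 hfd
        rw [abs_lt]
        constructor <;> omega
      rw [abs_le] at hfd ⊢
      constructor <;> omega
    | .inr j, he1, he2 =>
      obtain ⟨w1, hw1, e1⟩ := he1
      obtain ⟨w2, hw2, e2⟩ := he2
      have hww : w1 = w2 := by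
        rw [abs_le] at e1 e2 hUd
        rcases lt_trichotomy w1 w2 with h | h | h
        · have := hWs w1 w2 hw1 hw2 h; omega
        · exact h
        · have := hWs w2 w1 hw2 hw1 h; omega
      subst hww
      have h5 : |U * (δ₁ - δ₂)| ≤ 2 * (q * PM) := by
        rw [mul_sub]
        rw [abs_le] at e1 e2 ⊢
        constructor <;> omega
      rw [abs_mul, abs_of_pos hU0] at h5
      by_contra hc
      have hc' : 1 ≤ |δ₁ - δ₂| := by omega
      have := mul_le_mul_of_nonneg_left hc' hU0.le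
      omega
  rw [← card_labs]
  -- choice of the labels
  have hch : ∀ k ∈ ((Finset.range K).filter (fun k => ∃ k' < K, k' ≠ k ∧
      ( (∃ w, Wo w ∧ |w + U * (g k' - g k) - th ((w + U * (g k' - g k)) % q)| ≤ N1) ∨
        (∃ p ∈ Ms, ∃ w, (w = t0 ∨ w = t1) ∧ (p : ℤ) ∣ (w + U * (g k' - g k) - p0) / q) ∨
        (∃ j ≤ m, ∃ w, Ws w ∧ |w + U * (g k' - g k) - (p0 + A j)| ≤ q * PM) ))),
      ∃ l ∈ labs Ms m, ∃ k' < K, k' ≠ k ∧ k < K ∧ Ev l (g k' - g k) := by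
    intro k hk
    obtain ⟨hkK, k', hk', hne, h⟩ := Finset.mem_filter.1 hk
    have hkK' := Finset.mem_range.1 hkK
    rcases h with h | ⟨p, hpm, w, hw, hd⟩ | ⟨j, hj, h⟩
    · exact ⟨.inl (.inl ()), mem_a Ms m, k', hk', hne, hkK', h⟩
    · rcases hw with rfl | rfl
      · exact ⟨.inl (.inr (p, true)), mem_b Ms m hpm true, k', hk', hne, hkK', hpm, by simpa using hd⟩
      · exact ⟨.inl (.inr (p, false)), mem_b Ms m hpm false, k', hk', hne, hkK', hpm, by simpa using hd⟩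
    · exact ⟨.inr j, mem_c Ms m hj, k', hk', hne, hkK', h⟩
  have hch' : ∀ k, ∃ l : Lab, k ∈ ((Finset.range K).filter (fun k => ∃ k' < K, k' ≠ k ∧
      ( (∃ w, Wo w ∧ |w + U * (g k' - g k) - th ((w + U * (g k' - g k)) % q)| ≤ N1) ∨
        (∃ p ∈ Ms, ∃ w, (w = t0 ∨ w = t1) ∧ (p : ℤ) ∣ (w + U * (g k' - g k) - p0) / q) ∨
        (∃ j ≤ m, ∃ w, Ws w ∧ |w + U * (g k' - g k) - (p0 + A j)| ≤ q * PM) ))) →
      l ∈ labs Ms m ∧ ∃ k' < K, k' ≠ k ∧ k < K ∧ Ev l (g k' - g k) := by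
    intro k
    by_cases hk : k ∈ ((Finset.range K).filter (fun k => ∃ k' < K, k' ≠ k ∧
      ( (∃ w, Wo w ∧ |w + U * (g k' - g k) - th ((w + U * (g k' - g k)) % q)| ≤ N1) ∨
        (∃ p ∈ Ms, ∃ w, (w = t0 ∨ w = t1) ∧ (p : ℤ) ∣ (w + U * (g k' - g k) - p0) / q) ∨
        (∃ j ≤ m, ∃ w, Ws w ∧ |w + U * (g k' - g k) - (p0 + A j)| ≤ q * PM) )))
    · obtain ⟨l, hl, h⟩ := hch k hk
      exact ⟨l, fun _ => ⟨hl, h⟩⟩
    · exact ⟨.inl (.inl ()), fun h => absurd h hk⟩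
  choose lab hlab using hch'
  refine Finset.card_le_card_of_injOn lab (fun k hk => (hlab k hk).1) ?_
  intro k1 hk1 k2 hk2 heq
  obtain ⟨-, k1', h1', hne1, hlt1, ev1⟩ := hlab k1 hk1
  obtain ⟨-, k2', h2', hne2, hlt2, ev2⟩ := hlab k2 hk2
  rw [← heq] at ev2
  have g1 := hg k1 hlt1
  have g2 := hg k2 hlt2
  have g1' := hg k1' h1'
  have g2' := hg k2' h2'
  have hb := key (lab k1) (g k1' - g k1) (g k2' - g k2) (by rw [abs_le]; constructor <;> omega)
    (by rw [abs_le]; constructor <;> omega) ev1 ev2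
  rcases hr k1' k1 k2' k2 h1' hlt1 h2' hlt2 (by omega) with ⟨h, -⟩ | ⟨-, h⟩
  · exact absurd h hne1
  · exact h

end Crest.Agent.R320.Amb_580
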