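import Mathlib

/-!
Row 320, helper586: leaf G3-AMB of helper237 (post 13356): the ambiguity bound of the promise
ruler `c k = q0 + U * g k`, `U = 1 + q * (1 + 4 * PM)`, pure integers.
-/

set_option autoImplicit false

namespace Crest.Agent.R320.Amb_586

open Finset

/-- mode (E): the wall band -/
theorem same_E {q N1 T0 T1 Gam U : ℤ} {th : ℤ → ℤ} {Wo : ℤ → Prop}
    (hU : q ∣ U - 1) (hU0 : 0 ≤ U)
    (hq : 2 * Gam < q) (hth0 : ∀ r, T0 ≤ th r) (hth1 : ∀ r, th r ≤ T1)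
    (hsep : ∀ s s' : ℤ, |th (s % q) - th (s' % q)| ≤ 2 * N1 + 2 * (U * Gam) → s % q = s' % q)
    (hWo : ∀ w w', Wo w → Wo w' → w < w' → (T1 - T0) + 2 * N1 + 2 * (U * Gam) < w' - w)
    {w w' δ δ' : ℤ} (hw : Wo w) (hw' : Wo w') (hδ : |δ| ≤ Gam) (hδ' : |δ'| ≤ Gam)
    (h : |w + U * δ - th ((w + U * δ) % q)| ≤ N1)
    (h' : |w' + U * δ' - th ((w' + U * δ') % q)| ≤ N1) : δ = δ' := by
  have a1 : |U * δ| ≤ U * Gam := by
    rw [abs_mul, abs_of_nonneg hU0]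
    exact mul_le_mul_of_nonneg_left hδ hU0
  have a2 : |U * δ'| ≤ U * Gam := by
    rw [abs_mul, abs_of_nonneg hU0]
    exact mul_le_mul_of_nonneg_left hδ' hU0
  have b1 := hth0 ((w + U * δ) % q)
  have b2 := hth1 ((w + U * δ) % q)
  have b3 := hth0 ((w' + U * δ') % q)
  have b4 := hth1 ((w' + U * δ') % q)
  rw [abs_le] at h h' a1 a2
  have hww : w = w' := by
    rcases lt_trichotomy w w' with hlt | heq | hgt
    · have := hWo w w' hw hw' hlt
      linarith [h.1, h.2, h'.1, h'.2, a1.1, a1.2, a2.1, a2.2]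
    · exact heq
    · have := hWo w' w hw' hw hgt
      linarith [h.1, h.2, h'.1, h'.2, a1.1, a1.2, a2.1, a2.2]
  subst hww
  have hs := hsep (w + U * δ) (w + U * δ') (by
    rw [abs_le]
    constructor <;> linarith [h.1, h.2, h'.1, h'.2, a1.1, a1.2, a2.1, a2.2])
  have hd : q ∣ (w + U * δ) - (w + U * δ') := Int.ModEq.dvd (Eq.symm hs)
  have hd2 : q ∣ δ - δ' := by
    have e : (w + U * δ) - (w + U * δ') = (U - 1) * (δ - δ') + (δ - δ') := by ring
    rw [e] at hd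
    exact (dvd_add_right (Dvd.dvd.mul_right hU _)).1 hd
  rw [abs_le] at hδ hδ'
  have h3 : |δ - δ'| < q := by
    rw [abs_lt]
    constructor <;> linarith [hδ.1, hδ.2, hδ'.1, hδ'.2]
  have := Int.eq_zero_of_abs_lt_dvd hd2 h3
  linarith

/-- mode (D): the small walls -/
theorem same_D {q PM Gam U c : ℤ} {Ws : ℤ → Prop} (hU0 : 0 ≤ U) (hUq : 2 * (q * PM) < U)
    (hWs : ∀ w w', Ws w → Ws w' → w < w' → 2 * (U * Gam) + 2 * (q * PM) < w' - w)
    {w w' δ δ' : ℤ} (hw : Ws w) (hw' : Ws w') (hδ : |δ| ≤ Gam) (hδ' : |δ'| ≤ Gam)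
    (h : |w + U * δ - c| ≤ q * PM) (h' : |w' + U * δ' - c| ≤ q * PM) : δ = δ' := by
  have a1 : |U * δ| ≤ U * Gam := by
    rw [abs_mul, abs_of_nonneg hU0]
    exact mul_le_mul_of_nonneg_left hδ hU0
  have a2 : |U * δ'| ≤ U * Gam := by
    rw [abs_mul, abs_of_nonneg hU0]
    exact mul_le_mul_of_nonneg_left hδ' hU0
  rw [abs_le] at h h' a1 a2
  have hww : w = w' := by
    rcases lt_trichotomy w w' with hlt | heq | hgt
    · have := hWs w w' hw hw' hlt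
      linarith [h.1, h.2, h'.1, h'.2, a1.1, a1.2, a2.1, a2.2]
    · exact heq
    · have := hWs w' w hw' hw hgt
      linarith [h.1, h.2, h'.1, h'.2, a1.1, a1.2, a2.1, a2.2]
  subst hww
  have h3 : |U * (δ - δ')| ≤ 2 * (q * PM) := by
    rw [abs_le]
    constructor <;> nlinarith [h.1, h.2, h'.1, h'.2]
  by_contra hne
  have h4 : 1 ≤ |δ - δ'| := Int.one_le_abs (sub_ne_zero.2 hne)
  rw [abs_mul, abs_of_nonneg hU0] at h3
  nlinarith

/-- mode (B): the moduli -/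
theorem same_B {q PM Gam p x δ δ' : ℤ} (hq : 2 * Gam + 2 < q) (hp1 : p ∣ PM)
    (hp2 : 2 * Gam + 2 < p) (hδ : |δ| ≤ Gam) (hδ' : |δ'| ≤ Gam)
    (h : p ∣ (x + (1 + q * (1 + 4 * PM)) * δ) / q)
    (h' : p ∣ (x + (1 + q * (1 + 4 * PM)) * δ') / q) : δ = δ' := by
  rw [abs_le] at hδ hδ'
  have hq0 : 0 < q := by linarith [hδ.1, hδ.2]
  have key : ∀ d : ℤ, (x + (1 + q * (1 + 4 * PM)) * d) / q = (x + d) / q + (1 + 4 * PM) * d := by
    intro d
    have e : x + (1 + q * (1 + 4 * PM)) * d = (x + d) + q * ((1 + 4 * PM) * d) := by ring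
    rw [e, Int.add_mul_ediv_left _ _ hq0.ne']
  rw [key] at h h'
  have hd : p ∣ ((x + δ) / q - (x + δ') / q) + (δ - δ') := by
    have h1 := dvd_sub h h'
    have h2 : p ∣ 4 * PM * (δ - δ') := Dvd.dvd.mul_right (Dvd.dvd.mul_left hp1 4) _
    have h3 := dvd_sub h1 h2
    have e : (x + δ) / q + (1 + 4 * PM) * δ - ((x + δ') / q + (1 + 4 * PM) * δ') -
        4 * PM * (δ - δ') = ((x + δ) / q - (x + δ') / q) + (δ - δ') := by ring
    rwa [e] at h3
  have d1 := Int.mul_ediv_add_emod (x + δ) q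
  have d2 := Int.mul_ediv_add_emod (x + δ') q
  have e1 := Int.emod_nonneg (x + δ) hq0.ne'
  have e2 := Int.emod_lt_of_pos (x + δ) hq0
  have e3 := Int.emod_nonneg (x + δ') hq0.ne'
  have e4 := Int.emod_lt_of_pos (x + δ') hq0
  set a := (x + δ) / q with ha
  set b := (x + δ') / q with hb
  have hab1 : a - b ≤ 1 := by
    by_contra hc
    have : 2 ≤ a - b := by omega
    nlinarith
  have hab2 : -1 ≤ a - b := by
    by_contra hc
    have : a - b ≤ -2 := by omega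
    nlinarith
  have hz : (a - b) + (δ - δ') = 0 := by
    apply Int.eq_zero_of_abs_lt_dvd hd
    rw [abs_lt]
    constructor <;> linarith [hδ.1, hδ.2, hδ'.1, hδ'.2]
  by_contra hne
  rcases lt_or_gt_of_ne hne with hlt | hgt
  · have : a ≤ b := by
      rw [ha, hb]
      exact Int.ediv_le_ediv hq0 (by linarith)
    linarith
  · have : b ≤ a := by
      rw [ha, hb]
      exact Int.ediv_le_ediv hq0 (by linarith)
    linarith

open Classical in
/-- **LEAF G3-AMB** (helper237, post 13356). -/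
theorem amb (K m : ℕ) (Ms : Finset ℕ) (q N1 T0 T1 PM p0 Gam t0 t1 : ℤ) (th : ℤ → ℤ)
    (Wo Ws : ℤ → Prop) (A : ℕ → ℤ) (g : ℕ → ℤ) (hq : 2 * Gam + 2 < q) (hPM : 0 < PM)
    (_hN1 : 0 ≤ N1) (hp : ∀ p ∈ Ms, (p : ℤ) ∣ PM ∧ 2 * Gam + 2 < (p : ℤ))
    (hg : ∀ k < K, 0 ≤ g k ∧ g k ≤ Gam)
    (hr : ∀ a b c d, a < K → b < K → c < K → d < K → |(g a - g b) - (g c - g d)| ≤ 2 →
      (a = b ∧ c = d) ∨ (a = c ∧ b = d))
    (hth0 : ∀ r, T0 ≤ th r) (hth1 : ∀ r, th r ≤ T1)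
    (hsep : ∀ s s' : ℤ, |th (s % q) - th (s' % q)| ≤
      2 * N1 + 2 * ((1 + q * (1 + 4 * PM)) * Gam) → s % q = s' % q)
    (hWo : ∀ w w', Wo w → Wo w' → w < w' →
      (T1 - T0) + 2 * N1 + 2 * ((1 + q * (1 + 4 * PM)) * Gam) < w' - w)
    (hWs : ∀ w w', Ws w → Ws w' → w < w' →
      2 * ((1 + q * (1 + 4 * PM)) * Gam) + 2 * (q * PM) < w' - w) :
    ((Finset.range K).filter (fun k => ∃ k' < K, k' ≠ k ∧
      ((∃ w, Wo w ∧ |w + (1 + q * (1 + 4 * PM)) * (g k' - g k) -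
          th ((w + (1 + q * (1 + 4 * PM)) * (g k' - g k)) % q)| ≤ N1) ∨
       (∃ p ∈ Ms, ∃ w, (w = t0 ∨ w = t1) ∧
          (p : ℤ) ∣ (w + (1 + q * (1 + 4 * PM)) * (g k' - g k) - p0) / q) ∨
       (∃ j ≤ m, ∃ w, Ws w ∧
          |w + (1 + q * (1 + 4 * PM)) * (g k' - g k) - (p0 + A j)| ≤ q * PM)))).card
      ≤ 1 + 2 * Ms.card + (m + 1) := by
  set U : ℤ := 1 + q * (1 + 4 * PM) with hU
  -- the events
  let Ev : Option (ℕ × Bool ⊕ ℕ) → ℤ → Prop := fun i δ =>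
    match i with
    | none => ∃ w, Wo w ∧ |w + U * δ - th ((w + U * δ) % q)| ≤ N1
    | some (Sum.inl (p, s)) => (p : ℤ) ∣ ((if s then t0 else t1) + U * δ - p0) / q
    | some (Sum.inr j) => ∃ w, Ws w ∧ |w + U * δ - (p0 + A j)| ≤ q * PM
  let I : Finset (Option (ℕ × Bool ⊕ ℕ)) :=
    insertNone ((Ms ×ˢ (Finset.univ : Finset Bool)).disjSum (Finset.range (m + 1)))
  have hI : I.card = 1 + 2 * Ms.card + (m + 1) := by
    simp only [I, card_insertNone, card_disjSum, card_product, card_univ, Fintype.card_bool,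
      card_range]
    ring
  rw [← hI]
  -- a choice of the event
  have hch : ∀ k ∈ (Finset.range K).filter (fun k => ∃ k' < K, k' ≠ k ∧
      ((∃ w, Wo w ∧ |w + U * (g k' - g k) - th ((w + U * (g k' - g k)) % q)| ≤ N1) ∨
       (∃ p ∈ Ms, ∃ w, (w = t0 ∨ w = t1) ∧ (p : ℤ) ∣ (w + U * (g k' - g k) - p0) / q) ∨
       (∃ j ≤ m, ∃ w, Ws w ∧ |w + U * (g k' - g k) - (p0 + A j)| ≤ q * PM))),
      ∃ i ∈ I, ∃ k' < K, k' ≠ k ∧ Ev i (g k' - g k) := by
    intro k hk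
    obtain ⟨-, k', hk', hne, h⟩ := Finset.mem_filter.1 hk
    rcases h with h | ⟨p, hpM, w, hw, h⟩ | ⟨j, hj, h⟩
    · exact ⟨none, by simp [I], k', hk', hne, h⟩
    · rcases hw with rfl | rfl
      · exact ⟨some (Sum.inl (p, true)), by simp [I, hpM], k', hk', hne, by simpa [Ev] using h⟩
      · exact ⟨some (Sum.inl (p, false)), by simp [I, hpM], k', hk', hne, by simpa [Ev] using h⟩
    · exact ⟨some (Sum.inr j), by simp [I]; omega, k', hk', hne, h⟩
  choose! f hf1 hf2 using hch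
  refine Finset.card_le_card_of_injOn f (fun k hk => hf1 k hk) ?_
  intro k1 hk1 k2 hk2 he
  obtain ⟨k1', h1', hne1, hE1⟩ := hf2 k1 hk1
  obtain ⟨k2', h2', hne2, hE2⟩ := hf2 k2 hk2
  have hk1K : k1 < K := Finset.mem_range.1 (Finset.mem_filter.1 (Finset.mem_coe.1 hk1)).1
  have hk2K : k2 < K := Finset.mem_range.1 (Finset.mem_filter.1 (Finset.mem_coe.1 hk2)).1
  rw [he] at hE1
  have g1 := hg k1 hk1K
  have g2 := hg k2 hk2K
  have g1' := hg k1' h1'
  have g2' := hg k2' h2'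
  have hGam : 0 ≤ Gam := by linarith [g1.1, g1.2]
  have hq0 : 0 < q := by linarith
  have hqPM : 0 < q * PM := by positivity
  have hU0 : 0 ≤ U := by rw [hU]; nlinarith
  have hb1 : |g k1' - g k1| ≤ Gam := by
    rw [abs_le]; constructor <;> linarith [g1.1, g1.2, g1'.1, g1'.2]
  have hb2 : |g k2' - g k2| ≤ Gam := by
    rw [abs_le]; constructor <;> linarith [g2.1, g2.2, g2'.1, g2'.2]
  have hδ : g k1' - g k1 = g k2' - g k2 := by
    have hfI := hf1 k2 hk2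
    rcases hfk : f k2 with _ | (⟨p, s⟩ | j)
    · rw [hfk] at hE1 hE2
      obtain ⟨w, hw, h⟩ := hE1
      obtain ⟨w', hw', h'⟩ := hE2
      exact same_E (U := U) ⟨1 + 4 * PM, by rw [hU]; ring⟩ hU0 (by linarith) hth0 hth1 hsep hWo
        hw hw' hb1 hb2 h h'
    · rw [hfk] at hE1 hE2 hfI
      have hpM : p ∈ Ms := by
        simpa [I] using hfI
      obtain ⟨hp1, hp2⟩ := hp p hpM
      simp only [Ev] at hE1 hE2
      refine same_B (x := (if s then t0 else t1) - p0) hq hp1 hp2 hb1 hb2 ?_ ?_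
      · rw [← hU]
        convert hE1 using 2
        ring
      · rw [← hU]
        convert hE2 using 2
        ring
    · rw [hfk] at hE1 hE2
      obtain ⟨w, hw, h⟩ := hE1
      obtain ⟨w', hw', h'⟩ := hE2
      exact same_D (U := U) hU0 (by rw [hU]; nlinarith) hWs hw hw' hb1 hb2 h h'
  rcases hr k1' k1 k2' k2 h1' hk1K h2' hk2K (by rw [hδ]; simp) with ⟨h3, -⟩ | ⟨-, h3⟩
  · exact absurd h3 hne1
  · exact h3

end Crest.Agent.R320.Amb_586
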