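import Mathlib

/-! Row 320, leaf G3-AMB (helper237 #13356): ambiguity bound for the promise ruler. -/

namespace Crest.Agent.R320.Amb_597

set_option maxHeartbeats 2000000 in
open Classical in
theorem amb (K m : ℕ) (Ms : Finset ℕ) (q N1 T0 T1 PM p0 Gam t0 t1 : ℤ) (th : ℤ → ℤ)
    (Wo Ws : ℤ → Prop) (A : ℕ → ℤ) (g : ℕ → ℤ)
    (hq : 2*Gam + 2 < q) (hPM : 0 < PM) (hN1 : 0 ≤ N1)
    (hp : ∀ p ∈ Ms, (p:ℤ) ∣ PM ∧ 2*Gam + 2 < (p:ℤ))
    (hg : ∀ k < K, 0 ≤ g k ∧ g k ≤ Gam)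
    (hr : ∀ a b c d, a < K → b < K → c < K → d < K →
      |(g a - g b) - (g c - g d)| ≤ 2 → (a = b ∧ c = d) ∨ (a = c ∧ b = d))
    (hth0 : ∀ r, T0 ≤ th r) (hth1 : ∀ r, th r ≤ T1)
    (hsep : ∀ s s' : ℤ, |th (s % q) - th (s' % q)| ≤ 2*N1 + 2*((1 + q*(1+4*PM))*Gam) →
      s % q = s' % q)
    (hWo : ∀ w w', Wo w → Wo w' → w < w' →
      (T1 - T0) + 2*N1 + 2*((1 + q*(1+4*PM))*Gam) < w' - w)
    (hWs : ∀ w w', Ws w → Ws w' → w < w' →
      2*((1 + q*(1+4*PM))*Gam) + 2*(q*PM) < w' - w) :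
    ((Finset.range K).filter (fun k => ∃ k' < K, k' ≠ k ∧
      ( (∃ w, Wo w ∧ |w + (1+q*(1+4*PM))*(g k' - g k)
            - th ((w + (1+q*(1+4*PM))*(g k' - g k)) % q)| ≤ N1) ∨
        (∃ p ∈ Ms, ∃ w, (w = t0 ∨ w = t1) ∧
            (p:ℤ) ∣ (w + (1+q*(1+4*PM))*(g k' - g k) - p0) / q) ∨
        (∃ j ≤ m, ∃ w, Ws w ∧ |w + (1+q*(1+4*PM))*(g k' - g k) - (p0 + A j)| ≤ q*PM) ))).card
      ≤ 1 + 2*Ms.card + (m+1) := by
  obtain ⟨U, hU⟩ : ∃ U : ℤ, U = 1 + q*(1+4*PM) := ⟨_, rfl⟩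
  simp only [← hU] at hsep hWo hWs ⊢
  -- the key: two bad pairs with the same event have close differences
  have fin : ∀ k₁ k₁' k₂ k₂', k₁ < K → k₁' < K → k₂ < K → k₂' < K → k₁' ≠ k₁ →
      |(g k₁' - g k₁) - (g k₂' - g k₂)| ≤ 2 → k₁ = k₂ := by
    intro k₁ k₁' k₂ k₂' a b c d hne h
    rcases hr k₁' k₁ k₂' k₂ b a d c h with h | h
    · exact absurd h.1 hne
    · exact h.2
  have hG : ∀ k₁ k₁', k₁ < K → k₁' < K → |g k₁' - g k₁| ≤ Gam := by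
    intro k₁ k₁' a b
    have h1 := hg k₁ a
    have h2 := hg k₁' b
    rw [abs_le]; constructor <;> linarith
  have hGam : ∀ k, k < K → 0 ≤ Gam := fun k hk => le_trans (hg k hk).1 (hg k hk).2
  have hUpos : ∀ k, k < K → 0 < U := by
    intro k hk
    have := hGam k hk
    have hq0 : 0 < q := by linarith
    rw [hU]; positivity
  let S1 : Finset ℕ := (Finset.range K).filter (fun k => ∃ k' < K, k' ≠ k ∧
      ∃ w, Wo w ∧ |w + U*(g k' - g k) - th ((w + U*(g k' - g k)) % q)| ≤ N1)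
  let S2 : ℕ → ℤ → Finset ℕ := fun p w => (Finset.range K).filter (fun k => ∃ k' < K, k' ≠ k ∧
      (p:ℤ) ∣ (w + U*(g k' - g k) - p0) / q)
  let S3 : ℕ → Finset ℕ := fun j => (Finset.range K).filter (fun k => ∃ k' < K, k' ≠ k ∧
      ∃ w, Ws w ∧ |w + U*(g k' - g k) - (p0 + A j)| ≤ q*PM)
  have h1 : S1.card ≤ 1 := by
    rw [Finset.card_le_one]
    intro k₁ hk₁ k₂ hk₂
    simp only [S1, Finset.mem_filter, Finset.mem_range] at hk₁ hk₂
    obtain ⟨a₁, k₁', b₁, n₁, w₁, hw₁, e₁⟩ := hk₁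
    obtain ⟨a₂, k₂', b₂, n₂, w₂, hw₂, e₂⟩ := hk₂
    have d₁ := hG k₁ k₁' a₁ b₁
    have d₂ := hG k₂ k₂' a₂ b₂
    have u0 := hUpos k₁ a₁
    have g0 := hGam k₁ a₁
    refine fin k₁ k₁' k₂ k₂' a₁ b₁ a₂ b₂ n₁ ?_
    set δ₁ := g k₁' - g k₁ with hδ₁
    set δ₂ := g k₂' - g k₂ with hδ₂
    rw [abs_le] at d₁ d₂ e₁ e₂
    have m1 : U * δ₁ ≤ U * Gam := by nlinarith
    have m2 : -(U * Gam) ≤ U * δ₁ := by nlinarith
    have m3 : U * δ₂ ≤ U * Gam := by nlinarith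
    have m4 : -(U * Gam) ≤ U * δ₂ := by nlinarith
    have t1a := hth0 ((w₁ + U * δ₁) % q)
    have t1b := hth1 ((w₁ + U * δ₁) % q)
    have t2a := hth0 ((w₂ + U * δ₂) % q)
    have t2b := hth1 ((w₂ + U * δ₂) % q)
    have hww : w₁ = w₂ := by
      rcases lt_trichotomy w₁ w₂ with h | h | h
      · have := hWo _ _ hw₁ hw₂ h
        linarith [e₁.1, e₁.2, e₂.1, e₂.2]
      · exact h
      · have := hWo _ _ hw₂ hw₁ h
        linarith [e₁.1, e₁.2, e₂.1, e₂.2]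
    subst hww
    have hs := hsep (w₁ + U * δ₁) (w₁ + U * δ₂) (by
      rw [abs_le]; constructor <;> linarith [e₁.1, e₁.2, e₂.1, e₂.2])
    have hdvd : q ∣ (w₁ + U * δ₁) - (w₁ + U * δ₂) :=
      Int.dvd_of_emod_eq_zero (Int.emod_eq_emod_iff_emod_sub_eq_zero.mp hs)
    have hdvd2 : q ∣ δ₁ - δ₂ := by
      have e : δ₁ - δ₂ = ((w₁ + U * δ₁) - (w₁ + U * δ₂)) - q * ((1+4*PM) * (δ₁ - δ₂)) := by
        rw [hU]; ring
      rw [e]
      exact dvd_sub hdvd (Dvd.intro _ rfl)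
    have hz : δ₁ - δ₂ = 0 := by
      apply Int.eq_zero_of_abs_lt_dvd hdvd2
      rw [abs_lt]; constructor <;> linarith
    rw [hz]; norm_num
  have h2 : ∀ p ∈ Ms, ∀ w, (S2 p w).card ≤ 1 := by
    intro p hpM w
    rw [Finset.card_le_one]
    intro k₁ hk₁ k₂ hk₂
    simp only [S2, Finset.mem_filter, Finset.mem_range] at hk₁ hk₂
    obtain ⟨a₁, k₁', b₁, n₁, e₁⟩ := hk₁
    obtain ⟨a₂, k₂', b₂, n₂, e₂⟩ := hk₂
    have d₁ := hG k₁ k₁' a₁ b₁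
    have d₂ := hG k₂ k₂' a₂ b₂
    have g0 := hGam k₁ a₁
    refine fin k₁ k₁' k₂ k₂' a₁ b₁ a₂ b₂ n₁ ?_
    set δ₁ := g k₁' - g k₁ with hδ₁
    set δ₂ := g k₂' - g k₂ with hδ₂
    rw [abs_le] at d₁ d₂
    have hq0 : 0 < q := by linarith
    have key : ∀ δ : ℤ, (w + U * δ - p0) / q = (w - p0 + δ) / q + (1+4*PM) * δ := by
      intro δ
      have : w + U * δ - p0 = (w - p0 + δ) + q * ((1+4*PM) * δ) := by rw [hU]; ring
      rw [this, Int.add_mul_ediv_left _ _ (by linarith : q ≠ 0)]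
    rw [key] at e₁ e₂
    obtain ⟨hpd, hpg⟩ := hp p hpM
    have hx : (p:ℤ) ∣ ((w - p0 + δ₁) / q + δ₁) - ((w - p0 + δ₂) / q + δ₂) := by
      have e : ((w - p0 + δ₁) / q + δ₁) - ((w - p0 + δ₂) / q + δ₂)
          = (((w - p0 + δ₁) / q + (1+4*PM) * δ₁) - ((w - p0 + δ₂) / q + (1+4*PM) * δ₂))
            - PM * (4 * (δ₁ - δ₂)) := by ring
      rw [e]
      exact dvd_sub (dvd_sub e₁ e₂) (Dvd.dvd.mul_right hpd _)
    have f1 : (w - p0 + δ₁) / q - (w - p0 + δ₂) / q ≤ 1 := by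
      have := Int.ediv_le_ediv hq0 (show w - p0 + δ₁ ≤ (w - p0 + δ₂) + q * 1 by linarith)
      rw [Int.add_mul_ediv_left _ _ (by linarith : q ≠ 0)] at this
      linarith
    have f2 : (w - p0 + δ₂) / q - (w - p0 + δ₁) / q ≤ 1 := by
      have := Int.ediv_le_ediv hq0 (show w - p0 + δ₂ ≤ (w - p0 + δ₁) + q * 1 by linarith)
      rw [Int.add_mul_ediv_left _ _ (by linarith : q ≠ 0)] at this
      linarith
    have hz : ((w - p0 + δ₁) / q + δ₁) - ((w - p0 + δ₂) / q + δ₂) = 0 := by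
      apply Int.eq_zero_of_abs_lt_dvd hx
      rw [abs_lt]; constructor <;> linarith
    rw [abs_le]; constructor <;> linarith
  have h3 : ∀ j, (S3 j).card ≤ 1 := by
    intro j
    rw [Finset.card_le_one]
    intro k₁ hk₁ k₂ hk₂
    simp only [S3, Finset.mem_filter, Finset.mem_range] at hk₁ hk₂
    obtain ⟨a₁, k₁', b₁, n₁, w₁, hw₁, e₁⟩ := hk₁
    obtain ⟨a₂, k₂', b₂, n₂, w₂, hw₂, e₂⟩ := hk₂
    have d₁ := hG k₁ k₁' a₁ b₁
    have d₂ := hG k₂ k₂' a₂ b₂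
    have u0 := hUpos k₁ a₁
    have g0 := hGam k₁ a₁
    refine fin k₁ k₁' k₂ k₂' a₁ b₁ a₂ b₂ n₁ ?_
    set δ₁ := g k₁' - g k₁ with hδ₁
    set δ₂ := g k₂' - g k₂ with hδ₂
    rw [abs_le] at d₁ d₂ e₁ e₂
    have m1 : U * δ₁ ≤ U * Gam := by nlinarith
    have m2 : -(U * Gam) ≤ U * δ₁ := by nlinarith
    have m3 : U * δ₂ ≤ U * Gam := by nlinarith
    have m4 : -(U * Gam) ≤ U * δ₂ := by nlinarith
    have hww : w₁ = w₂ := by
      rcases lt_trichotomy w₁ w₂ with h | h | h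
      · have := hWs _ _ hw₁ hw₂ h
        linarith [e₁.1, e₁.2, e₂.1, e₂.2]
      · exact h
      · have := hWs _ _ hw₂ hw₁ h
        linarith [e₁.1, e₁.2, e₂.1, e₂.2]
    subst hww
    have hq0 : 0 < q := by linarith
    have hqP : 0 < q * PM := mul_pos hq0 hPM
    have hUb : 2 * (q * PM) < U := by rw [hU]; nlinarith
    have hz1 : U * (δ₁ - δ₂) ≤ 2 * (q * PM) := by
      have := e₁.2; have := e₂.1
      rw [mul_sub]; linarith
    have hz2 : U * (δ₂ - δ₁) ≤ 2 * (q * PM) := by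
      have := e₁.1; have := e₂.2
      rw [mul_sub]; linarith
    have c1 : δ₁ - δ₂ < 1 := by
      by_contra hcon
      push Not at hcon
      nlinarith
    have c2 : δ₂ - δ₁ < 1 := by
      by_contra hcon
      push Not at hcon
      nlinarith
    rw [abs_le]; constructor <;> linarith
  have hsub : ((Finset.range K).filter (fun k => ∃ k' < K, k' ≠ k ∧
      ( (∃ w, Wo w ∧ |w + U*(g k' - g k) - th ((w + U*(g k' - g k)) % q)| ≤ N1) ∨
        (∃ p ∈ Ms, ∃ w, (w = t0 ∨ w = t1) ∧ (p:ℤ) ∣ (w + U*(g k' - g k) - p0) / q) ∨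
        (∃ j ≤ m, ∃ w, Ws w ∧ |w + U*(g k' - g k) - (p0 + A j)| ≤ q*PM) )))
      ⊆ S1 ∪ ((Ms.biUnion (fun p => S2 p t0)) ∪ (Ms.biUnion (fun p => S2 p t1)))
        ∪ ((Finset.range (m+1)).biUnion S3) := by
    intro k hk
    simp only [Finset.mem_filter, Finset.mem_range] at hk
    obtain ⟨a, k', b, n, h⟩ := hk
    simp only [Finset.mem_union, Finset.mem_biUnion, S1, S2, S3, Finset.mem_filter,
      Finset.mem_range]
    rcases h with ⟨w, hw, e⟩ | ⟨p, hpM, w, hw, e⟩ | ⟨j, hj, w, hw, e⟩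
    · exact Or.inl (Or.inl ⟨a, k', b, n, w, hw, e⟩)
    · rcases hw with rfl | rfl
      · exact Or.inl (Or.inr (Or.inl ⟨p, hpM, a, k', b, n, e⟩))
      · exact Or.inl (Or.inr (Or.inr ⟨p, hpM, a, k', b, n, e⟩))
    · exact Or.inr ⟨j, by omega, a, k', b, n, w, hw, e⟩
  refine (Finset.card_le_card hsub).trans ?_
  have b1 := Finset.card_union_le (S1 ∪ ((Ms.biUnion (fun p => S2 p t0)) ∪ (Ms.biUnion (fun p => S2 p t1)))) ((Finset.range (m+1)).biUnion S3)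
  have b2 := Finset.card_union_le S1 ((Ms.biUnion (fun p => S2 p t0)) ∪ (Ms.biUnion (fun p => S2 p t1)))
  have b3 := Finset.card_union_le (Ms.biUnion (fun p => S2 p t0)) (Ms.biUnion (fun p => S2 p t1))
  have c0 : (Ms.biUnion (fun p => S2 p t0)).card ≤ Ms.card * 1 :=
    Finset.card_biUnion_le_card_mul _ _ _ (fun p hp' => h2 p hp' t0)
  have c1 : (Ms.biUnion (fun p => S2 p t1)).card ≤ Ms.card * 1 :=
    Finset.card_biUnion_le_card_mul _ _ _ (fun p hp' => h2 p hp' t1)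
  have c2 : ((Finset.range (m+1)).biUnion S3).card ≤ (Finset.range (m+1)).card * 1 :=
    Finset.card_biUnion_le_card_mul _ _ _ (fun j _ => h3 j)
  rw [Finset.card_range] at c2
  omega

end Crest.Agent.R320.Amb_597
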