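import Mathlib

/-!
# Row 320, LEAF G3-AMB (helper237's statement): the promise ruler, at most
`1 + 2 * Ms.card + (m + 1)` places are ambiguous (helper710)
-/

set_option autoImplicit false

namespace Crest.Agent.R320.Amb_710

open Classical in
theorem amb (K m : ℕ) (Ms : Finset ℕ) (q N1 T0 T1 PM p0 Gam t0 t1 : ℤ) (th : ℤ → ℤ)
    (Wo Ws : ℤ → Prop) (A : ℕ → ℤ) (g : ℕ → ℤ) (hq : 2 * Gam + 2 < q) (hPM : 0 < PM)
    (hN1 : 0 ≤ N1) (hp : ∀ p ∈ Ms, (p : ℤ) ∣ PM ∧ 2 * Gam + 2 < (p : ℤ))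
    (hg : ∀ k < K, 0 ≤ g k ∧ g k ≤ Gam)
    (hr : ∀ a b c d, a < K → b < K → c < K → d < K → |(g a - g b) - (g c - g d)| ≤ 2 →
      (a = b ∧ c = d) ∨ (a = c ∧ b = d))
    (hth0 : ∀ r, T0 ≤ th r) (hth1 : ∀ r, th r ≤ T1)
    (hsep : ∀ s s' : ℤ, |th (s % q) - th (s' % q)| ≤ 2 * N1 + 2 * ((1 + q * (1 + 4 * PM)) * Gam) →
      s % q = s' % q)
    (hWo : ∀ w w', Wo w → Wo w' → w < w' →
      (T1 - T0) + 2 * N1 + 2 * ((1 + q * (1 + 4 * PM)) * Gam) < w' - w)
    (hWs : ∀ w w', Ws w → Ws w' → w < w' →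
      2 * ((1 + q * (1 + 4 * PM)) * Gam) + 2 * (q * PM) < w' - w) :
    ((Finset.range K).filter (fun k => ∃ k' < K, k' ≠ k ∧
      ((∃ w, Wo w ∧ |w + (1 + q * (1 + 4 * PM)) * (g k' - g k) -
          th ((w + (1 + q * (1 + 4 * PM)) * (g k' - g k)) % q)| ≤ N1) ∨
        (∃ p ∈ Ms, ∃ w, (w = t0 ∨ w = t1) ∧
          (p : ℤ) ∣ (w + (1 + q * (1 + 4 * PM)) * (g k' - g k) - p0) / q) ∨
        (∃ j ≤ m, ∃ w, Ws w ∧
          |w + (1 + q * (1 + 4 * PM)) * (g k' - g k) - (p0 + A j)| ≤ q * PM)))).card ≤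
      1 + 2 * Ms.card + (m + 1) := by
  set U : ℤ := 1 + q * (1 + 4 * PM) with hU
  -- the events
  let Ev : Unit ⊕ ((ℕ × Bool) ⊕ ℕ) → ℤ → Prop := fun e δ => match e with
    | Sum.inl _ => ∃ w, Wo w ∧ |w + U * δ - th ((w + U * δ) % q)| ≤ N1
    | Sum.inr (Sum.inl (p, b)) => (p : ℤ) ∣ ((if b then t0 else t1) + U * δ - p0) / q
    | Sum.inr (Sum.inr j) => ∃ w, Ws w ∧ |w + U * δ - (p0 + A j)| ≤ q * PM
  let Tg : Finset (Unit ⊕ ((ℕ × Bool) ⊕ ℕ)) :=
    (Finset.univ : Finset Unit).disjSum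
      ((Ms ×ˢ (Finset.univ : Finset Bool)).disjSum (Finset.range (m + 1)))
  have hcard : Tg.card = 1 + 2 * Ms.card + (m + 1) := by
    simp only [Tg, Finset.card_disjSum, Finset.card_product, Finset.card_univ, Fintype.card_bool,
      Finset.card_range, Fintype.card_unit]
    ring
  have key : ∀ e ∈ Tg, ∀ δ δ' : ℤ, 0 ≤ Gam → |δ| ≤ Gam → |δ'| ≤ Gam → Ev e δ → Ev e δ' →
      |δ - δ'| ≤ 2 := by
    intro e he δ δ' hG hd hd' h h'
    rw [abs_le] at hd hd'
    have hq0 : 0 < q := by linarith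
    have hqP : 0 < q * PM := mul_pos hq0 hPM
    have hUe : U = 1 + q + 4 * (q * PM) := by rw [hU]; ring
    have hU0 : 0 < U := by rw [hUe]; linarith
    have hb1 : U * δ ≤ U * Gam := mul_le_mul_of_nonneg_left hd.2 hU0.le
    have hb2 : -(U * Gam) ≤ U * δ := by
      have := mul_le_mul_of_nonneg_left hd.1 hU0.le
      linarith
    have hb3 : U * δ' ≤ U * Gam := mul_le_mul_of_nonneg_left hd'.2 hU0.le
    have hb4 : -(U * Gam) ≤ U * δ' := by
      have := mul_le_mul_of_nonneg_left hd'.1 hU0.le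
      linarith
    rcases e with u | (⟨p, b⟩ | j)
    · -- wall band
      obtain ⟨w, hw, hwt⟩ := h
      obtain ⟨w', hw', hwt'⟩ := h'
      rw [abs_le] at hwt hwt'
      have a1 := hth0 ((w + U * δ) % q)
      have a2 := hth1 ((w + U * δ) % q)
      have a3 := hth0 ((w' + U * δ') % q)
      have a4 := hth1 ((w' + U * δ') % q)
      have heq : w = w' := by
        rcases lt_trichotomy w w' with hlt | heq | hgt
        · have := hWo w w' hw hw' hlt
          linarith [hwt.1, hwt.2, hwt'.1, hwt'.2]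
        · exact heq
        · have := hWo w' w hw' hw hgt
          linarith [hwt.1, hwt.2, hwt'.1, hwt'.2]
      subst heq
      have hres := hsep (w + U * δ) (w + U * δ') (by
        rw [abs_le]
        constructor <;> linarith [hwt.1, hwt.2, hwt'.1, hwt'.2])
      have hdv : q ∣ (w + U * δ) - (w + U * δ') := Int.ModEq.dvd (Eq.symm hres)
      have hdv2 : q ∣ δ - δ' := by
        have e1 : (w + U * δ) - (w + U * δ') = (δ - δ') + q * ((1 + 4 * PM) * (δ - δ')) := by
          rw [hU]; ring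
        rw [e1] at hdv
        exact (Int.dvd_add_left (dvd_mul_right _ _)).1 hdv
      obtain ⟨c, hc⟩ := hdv2
      have hc0 : c = 0 := by
        by_contra hne
        rcases lt_or_gt_of_ne hne with h1 | h1
        · have : q * c ≤ q * (-1) := mul_le_mul_of_nonneg_left (by omega) hq0.le
          linarith
        · have : q * 1 ≤ q * c := mul_le_mul_of_nonneg_left (by omega) hq0.le
          linarith
      rw [hc, hc0, mul_zero, abs_zero]; norm_num
    · -- bad total
      have hpM : p ∈ Ms := by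
        simp only [Tg, Finset.inr_mem_disjSum, Finset.inl_mem_disjSum, Finset.mem_product] at he
        exact he.1
      obtain ⟨hp1, hp2⟩ := hp p hpM
      set t : ℤ := (if b then t0 else t1) with ht
      have g1 : (p : ℤ) ∣ (t + U * δ - p0) / q := h
      have g2 : (p : ℤ) ∣ (t + U * δ' - p0) / q := h'
      have e1 : (t + U * δ - p0) / q = (t - p0 + δ) / q + (1 + 4 * PM) * δ := by
        rw [show t + U * δ - p0 = (t - p0 + δ) + q * ((1 + 4 * PM) * δ) by rw [hU]; ring,
          Int.add_mul_ediv_left _ _ hq0.ne']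
      have e2 : (t + U * δ' - p0) / q = (t - p0 + δ') / q + (1 + 4 * PM) * δ' := by
        rw [show t + U * δ' - p0 = (t - p0 + δ') + q * ((1 + 4 * PM) * δ') by rw [hU]; ring,
          Int.add_mul_ediv_left _ _ hq0.ne']
      rw [e1] at g1
      rw [e2] at g2
      have g3 := dvd_sub g1 g2
      have g4 : (p : ℤ) ∣ ((t - p0 + δ) / q - (t - p0 + δ') / q) + (δ - δ') := by
        have e3 : ((t - p0 + δ) / q + (1 + 4 * PM) * δ) - ((t - p0 + δ') / q + (1 + 4 * PM) * δ') =
            (((t - p0 + δ) / q - (t - p0 + δ') / q) + (δ - δ')) + PM * (4 * (δ - δ')) := by ring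
        rw [e3] at g3
        exact (Int.dvd_add_left (dvd_mul_of_dvd_left hp1 _)).1 g3
      have f1 := Int.mul_ediv_add_emod (t - p0 + δ) q
      have f2 := Int.mul_ediv_add_emod (t - p0 + δ') q
      have f3 := Int.emod_nonneg (t - p0 + δ) hq0.ne'
      have f4 := Int.emod_lt_of_pos (t - p0 + δ) hq0
      have f5 := Int.emod_nonneg (t - p0 + δ') hq0.ne'
      have f6 := Int.emod_lt_of_pos (t - p0 + δ') hq0
      set x := (t - p0 + δ) / q with hx
      set y := (t - p0 + δ') / q with hy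
      have hxy1 : x - y ≤ 1 := by
        by_contra hcon
        push Not at hcon
        have : q * 2 ≤ q * (x - y) := mul_le_mul_of_nonneg_left (by omega) hq0.le
        linarith
      have hxy2 : -1 ≤ x - y := by
        by_contra hcon
        push Not at hcon
        have : q * (x - y) ≤ q * (-2) := mul_le_mul_of_nonneg_left (by omega) hq0.le
        linarith
      have hz : (x - y) + (δ - δ') = 0 := by
        refine Int.eq_zero_of_abs_lt_dvd g4 ?_
        rw [abs_lt]
        constructor <;> linarith [hd.1, hd.2, hd'.1, hd'.2]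
      rw [abs_le]
      constructor <;> linarith
    · -- small wall near a level
      obtain ⟨w, hw, hwt⟩ := h
      obtain ⟨w', hw', hwt'⟩ := h'
      rw [abs_le] at hwt hwt'
      have heq : w = w' := by
        rcases lt_trichotomy w w' with hlt | heq | hgt
        · have := hWs w w' hw hw' hlt
          linarith [hwt.1, hwt.2, hwt'.1, hwt'.2]
        · exact heq
        · have := hWs w' w hw' hw hgt
          linarith [hwt.1, hwt.2, hwt'.1, hwt'.2]
      subst heq
      have h1 : U * (δ - δ') ≤ 2 * (q * PM) := by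
        have : U * (δ - δ') = U * δ - U * δ' := by ring
        linarith [hwt.1, hwt.2, hwt'.1, hwt'.2]
      have h2 : -(2 * (q * PM)) ≤ U * (δ - δ') := by
        have : U * (δ - δ') = U * δ - U * δ' := by ring
        linarith [hwt.1, hwt.2, hwt'.1, hwt'.2]
      have h3 : δ - δ' ≤ 0 := by
        by_contra hcon
        push Not at hcon
        have : U * 1 ≤ U * (δ - δ') := mul_le_mul_of_nonneg_left (by omega) hU0.le
        linarith
      have h4 : 0 ≤ δ - δ' := by
        by_contra hcon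
        push Not at hcon
        have : U * (δ - δ') ≤ U * (-1) := mul_le_mul_of_nonneg_left (by omega) hU0.le
        linarith
      rw [abs_le]
      constructor <;> linarith
  -- the choice of the event
  set Fl := (Finset.range K).filter (fun k => ∃ k' < K, k' ≠ k ∧
      ((∃ w, Wo w ∧ |w + U * (g k' - g k) - th ((w + U * (g k' - g k)) % q)| ≤ N1) ∨
        (∃ p ∈ Ms, ∃ w, (w = t0 ∨ w = t1) ∧ (p : ℤ) ∣ (w + U * (g k' - g k) - p0) / q) ∨
        (∃ j ≤ m, ∃ w, Ws w ∧ |w + U * (g k' - g k) - (p0 + A j)| ≤ q * PM))) with hFl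
  have hex : ∀ k ∈ Fl, ∃ e ∈ Tg, ∃ k' < K, k' ≠ k ∧ Ev e (g k' - g k) := by
    intro k hk
    rw [hFl, Finset.mem_filter] at hk
    obtain ⟨hk1, k', hk', hne, hE | ⟨p, hpM, w, hw, hdv⟩ | ⟨j, hj, hD⟩⟩ := hk
    · refine ⟨Sum.inl (), ?_, k', hk', hne, hE⟩
      simp [Tg]
    · rcases hw with rfl | rfl
      · refine ⟨Sum.inr (Sum.inl (p, true)), ?_, k', hk', hne, ?_⟩
        · simp [Tg, hpM]
        · simpa [Ev] using hdv
      · refine ⟨Sum.inr (Sum.inl (p, false)), ?_, k', hk', hne, ?_⟩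
        · simp [Tg, hpM]
        · simpa [Ev] using hdv
    · refine ⟨Sum.inr (Sum.inr j), ?_, k', hk', hne, hD⟩
      simp only [Tg, Finset.inr_mem_disjSum, Finset.mem_range]
      omega
  have hrel : ∀ k : ℕ, ∃ e : Unit ⊕ ((ℕ × Bool) ⊕ ℕ), k ∈ Fl →
      e ∈ Tg ∧ ∃ k' < K, k' ≠ k ∧ Ev e (g k' - g k) := by
    intro k
    by_cases hk : k ∈ Fl
    · obtain ⟨e, he, h⟩ := hex k hk
      exact ⟨e, fun _ => ⟨he, h⟩⟩
    · exact ⟨Sum.inl (), fun h => (hk h).elim⟩
  choose f hf using hrel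
  rw [← hcard]
  refine Finset.card_le_card_of_injOn f (fun k hk => (hf k hk).1) ?_
  intro k hk l hl hkl
  have hkK : k < K := by
    have := hk
    rw [Finset.mem_coe, hFl, Finset.mem_filter, Finset.mem_range] at this
    exact this.1
  have hlK : l < K := by
    have := hl
    rw [Finset.mem_coe, hFl, Finset.mem_filter, Finset.mem_range] at this
    exact this.1
  obtain ⟨h1, k', hk', hkne, hke⟩ := hf k hk
  obtain ⟨h2, l', hl', hlne, hle⟩ := hf l hl
  have b1 := hg k hkK
  have b2 := hg l hlK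
  have b3 := hg k' hk'
  have b4 := hg l' hl'
  have hG : 0 ≤ Gam := b1.1.trans b1.2
  rw [← hkl] at hle
  have := key (f k) h1 (g k' - g k) (g l' - g l) hG (by rw [abs_le]; constructor <;> linarith)
    (by rw [abs_le]; constructor <;> linarith) hke hle
  rcases hr k' k l' l hk' hkK hl' hlK this with ⟨h3, -⟩ | ⟨-, h4⟩
  · exact (hkne h3).elim
  · exact h4

end Crest.Agent.R320.Amb_710
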