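import Mathlib

/-!
Row 320, leaf G3-AMB (helper237 #13356): at most `1 + 2 |Ms| + (m + 1)` ruler marks are ambiguous.
-/

set_option autoImplicit false

namespace Crest.Agent.R320.Amb_714

theorem abs_sub_le_of {Gam a b : ℤ} (ha : 0 ≤ a) (ha' : a ≤ Gam) (hb : 0 ≤ b) (hb' : b ≤ Gam) :
    -Gam ≤ a - b ∧ a - b ≤ Gam := ⟨by omega, by omega⟩

/-- multiplication by `U ≥ 0` of a small number -/
theorem mul_small {U Gam d : ℤ} (hU : 0 ≤ U) (h1 : -Gam ≤ d) (h2 : d ≤ Gam) :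
    -(U * Gam) ≤ U * d ∧ U * d ≤ U * Gam :=
  ⟨by nlinarith [mul_le_mul_of_nonneg_left h1 hU], mul_le_mul_of_nonneg_left h2 hU⟩

theorem caseE {q N1 T0 T1 Gam U d1 d2 : ℤ} {th : ℤ → ℤ} {Wo : ℤ → Prop} (hU : 0 ≤ U)
    (hUq : q ∣ U - 1) (hq : 2 * Gam + 2 < q) (hth0 : ∀ r, T0 ≤ th r) (hth1 : ∀ r, th r ≤ T1)
    (hsep : ∀ s s' : ℤ, |th (s % q) - th (s' % q)| ≤ 2 * N1 + 2 * (U * Gam) → s % q = s' % q)
    (hWo : ∀ w w', Wo w → Wo w' → w < w' → (T1 - T0) + 2 * N1 + 2 * (U * Gam) < w' - w)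
    (h1 : -Gam ≤ d1) (h1' : d1 ≤ Gam) (h2 : -Gam ≤ d2) (h2' : d2 ≤ Gam)
    (e1 : ∃ w, Wo w ∧ |w + U * d1 - th ((w + U * d1) % q)| ≤ N1)
    (e2 : ∃ w, Wo w ∧ |w + U * d2 - th ((w + U * d2) % q)| ≤ N1) : d1 = d2 := by
  obtain ⟨w1, hw1, a1⟩ := e1
  obtain ⟨w2, hw2, a2⟩ := e2
  rw [abs_le] at a1 a2
  have m1 := mul_small hU h1 h1'
  have m2 := mul_small hU h2 h2'
  have b1 := hth0 ((w1 + U * d1) % q)
  have b2 := hth1 ((w1 + U * d1) % q)
  have b3 := hth0 ((w2 + U * d2) % q)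
  have b4 := hth1 ((w2 + U * d2) % q)
  have hw : w1 = w2 := by
    rcases lt_trichotomy w1 w2 with h | h | h
    · have := hWo _ _ hw1 hw2 h; omega
    · exact h
    · have := hWo _ _ hw2 hw1 h; omega
  subst hw
  have hs := hsep (w1 + U * d1) (w1 + U * d2) (by rw [abs_le]; constructor <;> omega)
  have hd : q ∣ U * d1 - U * d2 := by
    have := Int.emod_emod_of_dvd (w1 + U * d1) (dvd_refl q)
    have h3 : (w1 + U * d1 - (w1 + U * d2)) % q = 0 := Int.emod_eq_emod_iff_emod_sub_eq_zero.1 hs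
    have h4 : q ∣ w1 + U * d1 - (w1 + U * d2) := Int.dvd_of_emod_eq_zero h3
    have h5 : w1 + U * d1 - (w1 + U * d2) = U * d1 - U * d2 := by ring
    rwa [h5] at h4
  have hd' : q ∣ d1 - d2 := by
    have h3 : d1 - d2 = (U * d1 - U * d2) - (U - 1) * (d1 - d2) := by ring
    rw [h3]
    exact dvd_sub hd (Dvd.dvd.mul_right hUq _)
  obtain ⟨c, hc⟩ := hd'
  have : c = 0 := by
    by_contra hne
    rcases lt_or_gt_of_ne hne with h | h
    · nlinarith
    · nlinarith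
  rw [this] at hc
  omega

theorem caseB {q PM Gam U x d1 d2 p : ℤ} (hUe : U = 1 + q * (1 + 4 * PM)) (hq : 2 * Gam + 2 < q)
    (hp : p ∣ PM) (hp' : 2 * Gam + 2 < p)
    (h1 : -Gam ≤ d1) (h1' : d1 ≤ Gam) (h2 : -Gam ≤ d2) (h2' : d2 ≤ Gam)
    (e1 : p ∣ (x + U * d1) / q) (e2 : p ∣ (x + U * d2) / q) : |d1 - d2| ≤ 1 := by
  have hq0 : 0 < q := by omega
  have f : ∀ d, (x + U * d) / q = (x + d) / q + (1 + 4 * PM) * d := by
    intro d
    have : x + U * d = (x + d) + q * ((1 + 4 * PM) * d) := by rw [hUe]; ring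
    rw [this, Int.add_mul_ediv_left _ _ (by omega)]
  rw [f] at e1 e2
  have h3 := dvd_sub e1 e2
  have h4 : p ∣ 4 * PM * (d1 - d2) := Dvd.dvd.mul_right (Dvd.dvd.mul_left hp 4) _
  have h5 := dvd_sub h3 h4
  have h6 : (x + d1) / q + (1 + 4 * PM) * d1 - ((x + d2) / q + (1 + 4 * PM) * d2) -
      4 * PM * (d1 - d2) = ((x + d1) / q - (x + d2) / q) + (d1 - d2) := by ring
  rw [h6] at h5
  have k1 := Int.mul_ediv_add_emod (x + d1) q
  have k2 := Int.mul_ediv_add_emod (x + d2) q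
  have k3 := Int.emod_nonneg (x + d1) (by omega : q ≠ 0)
  have k4 := Int.emod_lt_of_pos (x + d1) hq0
  have k5 := Int.emod_nonneg (x + d2) (by omega : q ≠ 0)
  have k6 := Int.emod_lt_of_pos (x + d2) hq0
  set A := (x + d1) / q with hA
  set B := (x + d2) / q with hB
  have hAB : -1 ≤ A - B ∧ A - B ≤ 1 := by
    constructor
    · by_contra hcon
      have : A - B ≤ -2 := by omega
      nlinarith
    · by_contra hcon
      have : 2 ≤ A - B := by omega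
      nlinarith
  obtain ⟨c, hc⟩ := h5
  have : c = 0 := by
    by_contra hne
    rcases lt_or_gt_of_ne hne with h | h
    · nlinarith
    · nlinarith
  rw [this] at hc
  rw [abs_le]
  constructor <;> omega

theorem caseD {Gam U a R d1 d2 : ℤ} {Ws : ℤ → Prop} (hU : 0 ≤ U) (hR : 2 * R < U)
    (hWs : ∀ w w', Ws w → Ws w' → w < w' → 2 * (U * Gam) + 2 * R < w' - w)
    (h1 : -Gam ≤ d1) (h1' : d1 ≤ Gam) (h2 : -Gam ≤ d2) (h2' : d2 ≤ Gam)
    (e1 : ∃ w, Ws w ∧ |w + U * d1 - a| ≤ R)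
    (e2 : ∃ w, Ws w ∧ |w + U * d2 - a| ≤ R) : d1 = d2 := by
  obtain ⟨w1, hw1, a1⟩ := e1
  obtain ⟨w2, hw2, a2⟩ := e2
  rw [abs_le] at a1 a2
  have m1 := mul_small hU h1 h1'
  have m2 := mul_small hU h2 h2'
  have hw : w1 = w2 := by
    rcases lt_trichotomy w1 w2 with h | h | h
    · have := hWs _ _ hw1 hw2 h; omega
    · exact h
    · have := hWs _ _ hw2 hw1 h; omega
  subst hw
  by_contra hne
  rcases lt_or_gt_of_ne hne with h | h
  · have h3 : U * 1 ≤ U * (d2 - d1) := mul_le_mul_of_nonneg_left (by omega) hU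
    have h4 : U * (d2 - d1) = U * d2 - U * d1 := by ring
    omega
  · have h3 : U * 1 ≤ U * (d1 - d2) := mul_le_mul_of_nonneg_left (by omega) hU
    have h4 : U * (d1 - d2) = U * d1 - U * d2 := by ring
    omega

open Classical in
theorem amb (K m : ℕ) (Ms : Finset ℕ) (q N1 T0 T1 PM p0 Gam t0 t1 : ℤ) (th : ℤ → ℤ)
    (Wo Ws : ℤ → Prop) (A : ℕ → ℤ) (g : ℕ → ℤ) (hq : 2*Gam + 2 < q) (hPM : 0 < PM)
    (hN1 : 0 ≤ N1) (hp : ∀ p ∈ Ms, (p:ℤ) ∣ PM ∧ 2*Gam + 2 < (p:ℤ))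
    (hg : ∀ k < K, 0 ≤ g k ∧ g k ≤ Gam)
    (hr : ∀ a b c d, a < K → b < K → c < K → d < K → |(g a - g b) - (g c - g d)| ≤ 2 →
      (a = b ∧ c = d) ∨ (a = c ∧ b = d))
    (hth0 : ∀ r, T0 ≤ th r) (hth1 : ∀ r, th r ≤ T1)
    (hsep : ∀ s s' : ℤ, |th (s % q) - th (s' % q)| ≤ 2*N1 + 2*((1 + q*(1+4*PM))*Gam) →
      s % q = s' % q)
    (hWo : ∀ w w', Wo w → Wo w' → w < w' →
      (T1 - T0) + 2*N1 + 2*((1 + q*(1+4*PM))*Gam) < w' - w)
    (hWs : ∀ w w', Ws w → Ws w' → w < w' →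
      2*((1 + q*(1+4*PM))*Gam) + 2*(q*PM) < w' - w) :
    ((Finset.range K).filter (fun k => ∃ k' < K, k' ≠ k ∧
      ((∃ w, Wo w ∧ |w + (1+q*(1+4*PM))*(g k' - g k) -
          th ((w + (1+q*(1+4*PM))*(g k' - g k)) % q)| ≤ N1) ∨
       (∃ p ∈ Ms, ∃ w, (w = t0 ∨ w = t1) ∧ (p:ℤ) ∣ (w + (1+q*(1+4*PM))*(g k' - g k) - p0) / q) ∨
       (∃ j ≤ m, ∃ w, Ws w ∧ |w + (1+q*(1+4*PM))*(g k' - g k) - (p0 + A j)| ≤ q*PM)))).card
      ≤ 1 + 2*Ms.card + (m+1) := by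
  obtain ⟨U, hU⟩ : ∃ U : ℤ, U = 1 + q * (1 + 4 * PM) := ⟨_, rfl⟩
  rw [← hU] at hsep hWo hWs ⊢
  let EV : ℕ → (Unit ⊕ ({p // p ∈ Ms} × Bool)) ⊕ Fin (m + 1) → ℤ → Prop := fun k e d =>
    match e with
    | .inl (.inl _) => ∃ w, Wo w ∧ |w + U * d - th ((w + U * d) % q)| ≤ N1
    | .inl (.inr (p, b)) => ((p : ℕ) : ℤ) ∣ ((if b then t0 else t1) + U * d - p0) / q
    | .inr j => ∃ w, Ws w ∧ |w + U * d - (p0 + A j)| ≤ q * PM
  set F := (Finset.range K).filter (fun k => ∃ k' < K, k' ≠ k ∧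
      ((∃ w, Wo w ∧ |w + U*(g k' - g k) - th ((w + U*(g k' - g k)) % q)| ≤ N1) ∨
       (∃ p ∈ Ms, ∃ w, (w = t0 ∨ w = t1) ∧ (p:ℤ) ∣ (w + U*(g k' - g k) - p0) / q) ∨
       (∃ j ≤ m, ∃ w, Ws w ∧ |w + U*(g k' - g k) - (p0 + A j)| ≤ q*PM))) with hF
  have ex : ∀ k ∈ F, ∃ e, ∃ k' < K, k' ≠ k ∧ EV k e (g k' - g k) := by
    intro k hk
    obtain ⟨-, k', h1, h2, h3⟩ := Finset.mem_filter.1 hk
    rcases h3 with h | ⟨p, hpm, w, hw, h⟩ | ⟨j, hj, h⟩
    · exact ⟨.inl (.inl ()), k', h1, h2, h⟩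
    · rcases hw with rfl | rfl
      · exact ⟨.inl (.inr (⟨p, hpm⟩, true)), k', h1, h2, by simpa [EV] using h⟩
      · exact ⟨.inl (.inr (⟨p, hpm⟩, false)), k', h1, h2, by simpa [EV] using h⟩
    · exact ⟨.inr ⟨j, by omega⟩, k', h1, h2, h⟩
  choose! f hf using ex
  have inj : Set.InjOn f F := by
    intro k1 hk1 k2 hk2 he
    obtain ⟨k1', a1, a2, a3⟩ := hf k1 hk1
    obtain ⟨k2', b1, b2, b3⟩ := hf k2 hk2
    have c1 : k1 < K := Finset.mem_range.1 (Finset.mem_filter.1 hk1).1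
    have c2 : k2 < K := Finset.mem_range.1 (Finset.mem_filter.1 hk2).1
    have g1 := hg _ c1
    have g2 := hg _ c2
    have g1' := hg _ a1
    have g2' := hg _ b1
    have hGam : 0 ≤ Gam := by omega
    have hq0 : 0 < q := by omega
    have hqP : 0 < q * PM := mul_pos hq0 hPM
    have hU' : U = 1 + q + 4 * (q * PM) := by rw [hU]; ring
    have hU0 : 0 ≤ U := by omega
    have key : |(g k1' - g k1) - (g k2' - g k2)| ≤ 2 := by
      rw [he] at a3
      rcases hcase : f k2 with (u | ⟨p, b⟩) | j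
      · rw [hcase] at a3 b3
        have := caseE (d1 := g k1' - g k1) (d2 := g k2' - g k2) hU0 ⟨1 + 4 * PM, by rw [hU]; ring⟩
          hq hth0 hth1 hsep hWo (by omega) (by omega) (by omega) (by omega) a3 b3
        rw [this]; simp
      · rw [hcase] at a3 b3
        have hpp := hp p.1 p.2
        have := caseB (x := (if b then t0 else t1) - p0) (d1 := g k1' - g k1)
          (d2 := g k2' - g k2) hU hq hpp.1 hpp.2 (by omega) (by omega) (by omega) (by omega)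
          (by
            have a3' : ((p : ℕ) : ℤ) ∣ ((if b then t0 else t1) + U * (g k1' - g k1) - p0) / q := a3
            have e : (if b then t0 else t1) - p0 + U * (g k1' - g k1) =
              (if b then t0 else t1) + U * (g k1' - g k1) - p0 := by ring
            rw [e]; exact a3')
          (by
            have b3' : ((p : ℕ) : ℤ) ∣ ((if b then t0 else t1) + U * (g k2' - g k2) - p0) / q := b3
            have e : (if b then t0 else t1) - p0 + U * (g k2' - g k2) =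
              (if b then t0 else t1) + U * (g k2' - g k2) - p0 := by ring
            rw [e]; exact b3')
        omega
      · rw [hcase] at a3 b3
        have := caseD (a := p0 + A j) (R := q * PM) (d1 := g k1' - g k1) (d2 := g k2' - g k2) hU0
          (by omega) hWs (by omega) (by omega) (by omega) (by omega) a3 b3
        rw [this]; simp
    rcases hr k1' k1 k2' k2 a1 c1 b1 c2 key with ⟨h, -⟩ | ⟨-, h⟩
    · exact (a2 h).elim
    · exact h
  have hcard := Finset.card_le_card_of_injOn (t := Finset.univ) f (fun _ _ => Finset.mem_univ _) inj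
  refine hcard.trans (le_of_eq ?_)
  rw [Finset.card_univ]
  simp only [Fintype.card_sum, Fintype.card_prod, Fintype.card_unit, Fintype.card_bool,
    Fintype.card_fin, Fintype.card_coe]
  ring

end Crest.Agent.R320.Amb_714
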