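import Mathlib

/-! Row 320, leaf G3-AMB (237 #13356), helper759. -/

namespace Crest.Agent.R320.Amb759

open Finset

/-- close quotients: `|x - y| < q` gives `|x / q - y / q| ≤ 1` -/
lemma div_close (x y q : ℤ) (hq : 0 < q) (h1 : x - y < q) (h2 : y - x < q) :
    x / q - y / q ≤ 1 ∧ y / q - x / q ≤ 1 := by
  have a1 := Int.mul_ediv_add_emod x q
  have a2 := Int.mul_ediv_add_emod y q
  have b1 := Int.emod_nonneg x hq.ne'
  have b2 := Int.emod_nonneg y hq.ne'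
  have c1 := Int.emod_lt_of_pos x hq
  have c2 := Int.emod_lt_of_pos y hq
  constructor
  · by_contra hc
    have h3 : 2 ≤ x / q - y / q := by omega
    have h4 : q * 2 ≤ q * (x / q - y / q) := by
      exact mul_le_mul_of_nonneg_left h3 hq.le
    have h5 : q * (x / q - y / q) = q * (x / q) - q * (y / q) := by ring
    linarith
  · by_contra hc
    have h3 : 2 ≤ y / q - x / q := by omega
    have h4 : q * 2 ≤ q * (y / q - x / q) := by
      exact mul_le_mul_of_nonneg_left h3 hq.le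
    have h5 : q * (y / q - x / q) = q * (y / q) - q * (x / q) := by ring
    linarith

lemma abs_le_of (x b : ℤ) (h1 : x ≤ b) (h2 : -x ≤ b) : |x| ≤ b := abs_le.mpr ⟨by linarith, h1⟩

lemma eq_of_dvd_small (q d B : ℤ) (h : q ∣ d) (h1 : |d| ≤ B) (h2 : B < q) : d = 0 := by
  by_contra hne
  have h3 : |d| > 0 := abs_pos.mpr hne
  have h4 : q ∣ |d| := (dvd_abs _ _).mpr h
  have h5 := Int.le_of_dvd h3 h4
  linarith

/-- set form -/
theorem amb_set (K m : ℕ) (Ms : Finset ℕ) (q N1 T0 T1 PM p0 Gam t0 t1 : ℤ) (th : ℤ → ℤ)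
    (Wo Ws : ℤ → Prop) (A : ℕ → ℤ) (g : ℕ → ℤ) (hq : 2*Gam + 2 < q) (hPM : 0 < PM) (hN1 : 0 ≤ N1)
    (hp : ∀ p ∈ Ms, (p:ℤ) ∣ PM ∧ 2*Gam + 2 < (p:ℤ)) (hg : ∀ k < K, 0 ≤ g k ∧ g k ≤ Gam)
    (hr : ∀ a b c d, a < K → b < K → c < K → d < K → |(g a - g b) - (g c - g d)| ≤ 2 →
      (a = b ∧ c = d) ∨ (a = c ∧ b = d))
    (hth0 : ∀ r, T0 ≤ th r) (hth1 : ∀ r, th r ≤ T1)
    (hsep : ∀ s s' : ℤ, |th (s % q) - th (s' % q)| ≤ 2*N1 + 2*((1 + q*(1+4*PM))*Gam) → s % q = s' % q)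
    (hWo : ∀ w w', Wo w → Wo w' → w < w' → (T1 - T0) + 2*N1 + 2*((1 + q*(1+4*PM))*Gam) < w' - w)
    (hWs : ∀ w w', Ws w → Ws w' → w < w' → 2*((1 + q*(1+4*PM))*Gam) + 2*(q*PM) < w' - w)
    (F : Finset ℕ) (hF : ∀ k ∈ F, k < K ∧ ∃ k' < K, k' ≠ k ∧ (
      (∃ w, Wo w ∧ |w + (1+q*(1+4*PM))*(g k' - g k) - th ((w + (1+q*(1+4*PM))*(g k' - g k)) % q)| ≤ N1)
      ∨ (∃ p ∈ Ms, ∃ w, (w = t0 ∨ w = t1) ∧ (p:ℤ) ∣ (w + (1+q*(1+4*PM))*(g k' - g k) - p0) / q)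
      ∨ (∃ j ≤ m, ∃ w, Ws w ∧ |w + (1+q*(1+4*PM))*(g k' - g k) - (p0 + A j)| ≤ q*PM) )) :
    F.card ≤ 1 + 2*Ms.card + (m+1) := by
  classical
  set U : ℤ := 1 + q*(1+4*PM) with hU
  let Ev : ℤ → Unit ⊕ ((ℕ × Bool) ⊕ ℕ) → Prop := fun δ e =>
    match e with
    | Sum.inl _ => ∃ w, Wo w ∧ |w + U*δ - th ((w + U*δ) % q)| ≤ N1
    | Sum.inr (Sum.inl (p, i)) => (p:ℤ) ∣ ((if i then t1 else t0) + U*δ - p0) / q
    | Sum.inr (Sum.inr j) => ∃ w, Ws w ∧ |w + U*δ - (p0 + A j)| ≤ q*PM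
  let Cod : Finset (Unit ⊕ ((ℕ × Bool) ⊕ ℕ)) :=
    (univ : Finset Unit).disjSum ((Ms ×ˢ (univ : Finset Bool)).disjSum (range (m+1)))
  have hCod : Cod.card = 1 + 2*Ms.card + (m+1) := by
    simp only [Cod, Finset.card_disjSum, Finset.card_product, Finset.card_range, Finset.card_univ,
      Fintype.card_unit, Fintype.card_bool]
    ring
  -- key
  have key : ∀ e ∈ Cod, ∀ δ₁ δ₂ : ℤ, 0 ≤ Gam → |δ₁ - δ₂| ≤ 2*Gam → Ev δ₁ e → Ev δ₂ e → |δ₁ - δ₂| ≤ 1 := by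
    intro e he δ₁ δ₂ hGam hδ h1 h2
    have hq0 : 0 < q := by linarith
    have hqPM : 0 < q * PM := mul_pos hq0 hPM
    have hUpos : 0 < U := by
      have : U = 1 + q + 4 * (q * PM) := by rw [hU]; ring
      linarith
    have hUbig : 2*(q*PM) < U := by
      have : U = 1 + q + 4 * (q * PM) := by rw [hU]; ring
      linarith
    have hd1 := (abs_le.mp hδ).1
    have hd2 := (abs_le.mp hδ).2
    have hUd1 : U * (δ₁ - δ₂) ≤ 2*(U*Gam) := by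
      have := mul_le_mul_of_nonneg_left hd2 hUpos.le
      linarith
    have hUd2 : -(2*(U*Gam)) ≤ U * (δ₁ - δ₂) := by
      have := mul_le_mul_of_nonneg_left hd1 hUpos.le
      linarith
    have hUd : U * (δ₁ - δ₂) = U*δ₁ - U*δ₂ := by ring
    rcases e with u | ⟨p, i⟩ | j
    · obtain ⟨w₁, hw1, ha1⟩ := h1
      obtain ⟨w₂, hw2, ha2⟩ := h2
      have a1 := (abs_le.mp ha1).1
      have a2 := (abs_le.mp ha1).2
      have b1 := (abs_le.mp ha2).1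
      have b2 := (abs_le.mp ha2).2
      have c1 := hth0 ((w₁ + U*δ₁) % q)
      have c2 := hth1 ((w₁ + U*δ₁) % q)
      have d1 := hth0 ((w₂ + U*δ₂) % q)
      have d2 := hth1 ((w₂ + U*δ₂) % q)
      have hww : w₁ = w₂ := by
        rcases lt_trichotomy w₁ w₂ with h | h | h
        · have := hWo _ _ hw1 hw2 h
          exfalso
          linarith
        · exact h
        · have := hWo _ _ hw2 hw1 h
          exfalso
          linarith
      subst hww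
      have hs := hsep (w₁ + U*δ₁) (w₁ + U*δ₂) (abs_le_of _ _ (by linarith) (by linarith))
      have hdv : q ∣ (w₁ + U*δ₁) - (w₁ + U*δ₂) := Int.ModEq.dvd (Eq.symm hs)
      have hdv2 : q ∣ δ₁ - δ₂ := by
        have e1 : δ₁ - δ₂ = ((w₁ + U*δ₁) - (w₁ + U*δ₂)) - q * ((1+4*PM)*(δ₁ - δ₂)) := by
          rw [hU]; ring
        rw [e1]
        exact dvd_sub hdv (dvd_mul_right _ _)
      have h0 := eq_of_dvd_small q (δ₁ - δ₂) (2*Gam) hdv2 hδ (by linarith)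
      rw [h0]
      norm_num
    · have hpM : p ∈ Ms := by
        simpa [Cod] using he
      obtain ⟨hp1, hp2⟩ := hp p hpM
      have e1 : (p:ℤ) ∣ ((if i then t1 else t0) + U*δ₁ - p0) / q := h1
      have e2 : (p:ℤ) ∣ ((if i then t1 else t0) + U*δ₂ - p0) / q := h2
      generalize (if i then t1 else t0) = w at e1 e2
      have hdiv : ∀ δ : ℤ, (w + U*δ - p0) / q = (w - p0 + δ) / q + (1+4*PM)*δ := by
        intro δ
        have : w + U*δ - p0 = (w - p0 + δ) + ((1+4*PM)*δ) * q := by rw [hU]; ring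
        rw [this, Int.add_mul_ediv_right _ _ hq0.ne']
      rw [hdiv] at e1 e2
      obtain ⟨c1, c2⟩ := div_close (w - p0 + δ₁) (w - p0 + δ₂) q hq0 (by linarith) (by linarith)
      have hdv : (p:ℤ) ∣ ((w - p0 + δ₁) / q - (w - p0 + δ₂) / q) + (δ₁ - δ₂) := by
        have e3 : ((w - p0 + δ₁) / q - (w - p0 + δ₂) / q) + (δ₁ - δ₂)
            = (((w - p0 + δ₁) / q + (1+4*PM)*δ₁) - ((w - p0 + δ₂) / q + (1+4*PM)*δ₂))
              - PM * (4 * (δ₁ - δ₂)) := by ring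
        rw [e3]
        exact dvd_sub (dvd_sub e1 e2) (hp1.mul_right _)
      have h0 := eq_of_dvd_small p _ (2*Gam + 1) hdv (abs_le_of _ _ (by linarith) (by linarith))
        (by linarith)
      exact abs_le_of _ _ (by linarith) (by linarith)
    · obtain ⟨w₁, hw1, ha1⟩ := h1
      obtain ⟨w₂, hw2, ha2⟩ := h2
      have a1 := (abs_le.mp ha1).1
      have a2 := (abs_le.mp ha1).2
      have b1 := (abs_le.mp ha2).1
      have b2 := (abs_le.mp ha2).2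
      have hww : w₁ = w₂ := by
        rcases lt_trichotomy w₁ w₂ with h | h | h
        · have := hWs _ _ hw1 hw2 h
          exfalso
          linarith
        · exact h
        · have := hWs _ _ hw2 hw1 h
          exfalso
          linarith
      subst hww
      have f1 : U * (δ₁ - δ₂) ≤ 2*(q*PM) := by linarith
      have f2 : -(2*(q*PM)) ≤ U * (δ₁ - δ₂) := by linarith
      have g1 : δ₁ - δ₂ < 1 := by
        by_contra hc
        have h3 : 1 ≤ δ₁ - δ₂ := by omega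
        have := mul_le_mul_of_nonneg_left h3 hUpos.le
        linarith
      have g2 : -1 < δ₁ - δ₂ := by
        by_contra hc
        have h3 : δ₁ - δ₂ ≤ -1 := by omega
        have := mul_le_mul_of_nonneg_left h3 hUpos.le
        linarith
      exact abs_le_of _ _ (by linarith) (by linarith)
  -- the map
  have hex : ∀ k, k ∈ F → ∃ e, e ∈ Cod ∧ ∃ k' < K, k' ≠ k ∧ Ev (g k' - g k) e := by
    intro k hk
    obtain ⟨hkK, k', hk', hne, h | h | h⟩ := hF k hk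
    · exact ⟨Sum.inl (), by simp [Cod], k', hk', hne, h⟩
    · obtain ⟨p, hpM, w, hw, hd⟩ := h
      rcases hw with rfl | rfl
      · refine ⟨Sum.inr (Sum.inl (p, false)), by simp [Cod, hpM], k', hk', hne, ?_⟩
        simpa [Ev] using hd
      · refine ⟨Sum.inr (Sum.inl (p, true)), by simp [Cod, hpM], k', hk', hne, ?_⟩
        simpa [Ev] using hd
    · obtain ⟨j, hj, h⟩ := h
      exact ⟨Sum.inr (Sum.inr j), by simp [Cod]; omega, k', hk', hne, h⟩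
  choose! f hf1 hf2 using hex
  rw [← hCod]
  refine Finset.card_le_card_of_injOn f (fun k hk => hf1 k hk) ?_
  intro k₁ hk1 k₂ hk2 hff
  rw [Finset.mem_coe] at hk1 hk2
  have hk1K : k₁ < K := (hF k₁ hk1).1
  have hk2K : k₂ < K := (hF k₂ hk2).1
  obtain ⟨a, ha, hna, hEa⟩ := hf2 k₁ hk1
  obtain ⟨b, hb, hnb, hEb⟩ := hf2 k₂ hk2
  rw [← hff] at hEb
  have g1 := hg a ha
  have g2 := hg b hb
  have g3 := hg k₁ hk1K
  have g4 := hg k₂ hk2K
  have hδ : |(g a - g k₁) - (g b - g k₂)| ≤ 2*Gam := abs_le_of _ _ (by linarith) (by linarith)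
  have h1 := key (f k₁) (hf1 k₁ hk1) _ _ (by linarith) hδ hEa hEb
  rcases hr a k₁ b k₂ ha hk1K hb hk2K (by linarith) with h | h
  · exact absurd h.1 hna
  · exact h.2

/-- **G3-AMB**, literal form of 237 #13356 (any decidability instance). -/
theorem amb (K m : ℕ) (Ms : Finset ℕ) (q N1 T0 T1 PM p0 Gam t0 t1 : ℤ) (th : ℤ → ℤ)
    (Wo Ws : ℤ → Prop) (A : ℕ → ℤ) (g : ℕ → ℤ) (hq : 2*Gam + 2 < q) (hPM : 0 < PM) (hN1 : 0 ≤ N1)
    (hp : ∀ p ∈ Ms, (p:ℤ) ∣ PM ∧ 2*Gam + 2 < (p:ℤ)) (hg : ∀ k < K, 0 ≤ g k ∧ g k ≤ Gam)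
    (hr : ∀ a b c d, a < K → b < K → c < K → d < K → |(g a - g b) - (g c - g d)| ≤ 2 →
      (a = b ∧ c = d) ∨ (a = c ∧ b = d))
    (hth0 : ∀ r, T0 ≤ th r) (hth1 : ∀ r, th r ≤ T1)
    (hsep : ∀ s s' : ℤ, |th (s % q) - th (s' % q)| ≤ 2*N1 + 2*((1 + q*(1+4*PM))*Gam) → s % q = s' % q)
    (hWo : ∀ w w', Wo w → Wo w' → w < w' → (T1 - T0) + 2*N1 + 2*((1 + q*(1+4*PM))*Gam) < w' - w)
    (hWs : ∀ w w', Ws w → Ws w' → w < w' → 2*((1 + q*(1+4*PM))*Gam) + 2*(q*PM) < w' - w)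
    [DecidablePred (fun k : ℕ => ∃ k' < K, k' ≠ k ∧ (
      (∃ w, Wo w ∧ |w + (1+q*(1+4*PM))*(g k' - g k) - th ((w + (1+q*(1+4*PM))*(g k' - g k)) % q)| ≤ N1)
      ∨ (∃ p ∈ Ms, ∃ w, (w = t0 ∨ w = t1) ∧ (p:ℤ) ∣ (w + (1+q*(1+4*PM))*(g k' - g k) - p0) / q)
      ∨ (∃ j ≤ m, ∃ w, Ws w ∧ |w + (1+q*(1+4*PM))*(g k' - g k) - (p0 + A j)| ≤ q*PM) ))] :
    ((Finset.range K).filter (fun k => ∃ k' < K, k' ≠ k ∧ (
      (∃ w, Wo w ∧ |w + (1+q*(1+4*PM))*(g k' - g k) - th ((w + (1+q*(1+4*PM))*(g k' - g k)) % q)| ≤ N1)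
      ∨ (∃ p ∈ Ms, ∃ w, (w = t0 ∨ w = t1) ∧ (p:ℤ) ∣ (w + (1+q*(1+4*PM))*(g k' - g k) - p0) / q)
      ∨ (∃ j ≤ m, ∃ w, Ws w ∧ |w + (1+q*(1+4*PM))*(g k' - g k) - (p0 + A j)| ≤ q*PM) ))).card
      ≤ 1 + 2*Ms.card + (m+1) := by
  refine amb_set K m Ms q N1 T0 T1 PM p0 Gam t0 t1 th Wo Ws A g hq hPM hN1 hp hg hr hth0 hth1
    hsep hWo hWs _ (fun k hk => ?_)
  have hk := mem_filter.mp hk
  exact ⟨by simpa using hk.1, hk.2⟩

end Crest.Agent.R320.Amb759
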