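import Mathlib

/-!
Row 320, leaf G3-AMB of helper237 (#13356): the ambiguity bound of the promise ruler of 132 #12664,
with the ruler trick `c k = q0 + U * gamma k`, `U = 1 + q * (1 + 4 * PM)`.
-/

set_option autoImplicit false

namespace Crest.Agent.R320.Amb_793

theorem mod_case {q U x a b Gam : ℤ} {y : ℤ} (hU : U = 1 + q * y) (hGq : 2 * Gam + 2 < q)
    (ha : |a| ≤ Gam) (hb : |b| ≤ Gam) (h : (x + U * a) % q = (x + U * b) % q) : a = b := by
  have h1 : q ∣ (x + U * a) - (x + U * b) := Int.ModEq.dvd (Int.ModEq.symm h)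
  have h2 : (x + U * a) - (x + U * b) = (a - b) + q * (y * (a - b)) := by rw [hU]; ring
  rw [h2] at h1
  have h3 : q ∣ a - b := (Int.dvd_add_left (Dvd.intro _ rfl)).1 h1
  rw [abs_le] at ha hb
  have h4 : |a - b| < q := by rw [abs_lt]; constructor <;> linarith
  have h5 := Int.eq_zero_of_abs_lt_dvd h3 h4
  linarith

theorem floor_case {p q PM c a b Gam : ℤ} (hGq : 2 * Gam + 2 < q) (hp : p ∣ PM)
    (hGp : 2 * Gam + 2 < p) (ha : |a| ≤ Gam) (hb : |b| ≤ Gam)
    (h1 : p ∣ (c + (1 + q * (1 + 4 * PM)) * a) / q) (h2 : p ∣ (c + (1 + q * (1 + 4 * PM)) * b) / q) :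
    |a - b| ≤ 1 := by
  have hG : 0 ≤ Gam := le_trans (abs_nonneg _) ha
  have hq : 0 < q := by linarith
  rw [abs_le] at ha hb
  have e : ∀ x : ℤ, (c + (1 + q * (1 + 4 * PM)) * x) / q = (c + x) / q + (1 + 4 * PM) * x := by
    intro x
    rw [show c + (1 + q * (1 + 4 * PM)) * x = (c + x) + ((1 + 4 * PM) * x) * q by ring,
      Int.add_mul_ediv_right _ _ (ne_of_gt hq)]
  rw [e] at h1 h2
  obtain ⟨P', rfl⟩ := hp
  have h3 := Int.dvd_sub h1 h2
  have h4 : ((c + a) / q + (1 + 4 * (p * P')) * a) - ((c + b) / q + (1 + 4 * (p * P')) * b)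
      = (((c + a) / q - (c + b) / q) + (a - b)) + p * (4 * P' * (a - b)) := by ring
  rw [h4] at h3
  have h5 : p ∣ ((c + a) / q - (c + b) / q) + (a - b) :=
    (Int.dvd_add_left (Dvd.intro _ rfl)).1 h3
  have d1 : (c + a) / q * q ≤ c + a := Int.ediv_mul_le _ (ne_of_gt hq)
  have d2 : c + a < ((c + a) / q + 1) * q := Int.lt_ediv_add_one_mul_self _ hq
  have d3 : (c + b) / q * q ≤ c + b := Int.ediv_mul_le _ (ne_of_gt hq)
  have d4 : c + b < ((c + b) / q + 1) * q := Int.lt_ediv_add_one_mul_self _ hq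
  set u := (c + a) / q
  set v := (c + b) / q
  have e1 : u - v < 2 := by
    by_contra hcon
    push Not at hcon
    have : (u - v) * q < 2 * q := by nlinarith
    nlinarith
  have e2 : v - u < 2 := by
    by_contra hcon
    push Not at hcon
    have : (v - u) * q < 2 * q := by nlinarith
    nlinarith
  have h6 : |(u - v) + (a - b)| < p := by
    rw [abs_lt]; constructor <;> linarith
  have h7 := Int.eq_zero_of_abs_lt_dvd h5 h6
  rw [abs_le]
  constructor <;> linarith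

theorem unique_of_gap {W : ℤ → Prop} {L w w' : ℤ} (h : ∀ w w', W w → W w' → w < w' → L < w' - w)
    (h1 : W w) (h2 : W w') (h3 : |w - w'| ≤ L) : w = w' := by
  rw [abs_le] at h3
  rcases lt_trichotomy w w' with h4 | h4 | h4
  · have := h _ _ h1 h2 h4; linarith
  · exact h4
  · have := h _ _ h2 h1 h4; linarith

open Classical in
theorem amb (K m : ℕ) (Ms : Finset ℕ) (q N1 T0 T1 PM p0 Gam t0 t1 : ℤ) (th : ℤ → ℤ)
    (Wo Ws : ℤ → Prop) (A : ℕ → ℤ) (g : ℕ → ℤ)
    (hq : 2 * Gam + 2 < q) (hPM : 0 < PM) (hN1 : 0 ≤ N1)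
    (hp : ∀ p ∈ Ms, (p : ℤ) ∣ PM ∧ 2 * Gam + 2 < (p : ℤ))
    (hg : ∀ k < K, 0 ≤ g k ∧ g k ≤ Gam)
    (hr : ∀ a b c d, a < K → b < K → c < K → d < K → |(g a - g b) - (g c - g d)| ≤ 2 →
      (a = b ∧ c = d) ∨ (a = c ∧ b = d))
    (hth0 : ∀ r, T0 ≤ th r) (hth1 : ∀ r, th r ≤ T1)
    (hsep : ∀ s s' : ℤ, |th (s % q) - th (s' % q)| ≤ 2 * N1 + 2 * ((1 + q * (1 + 4 * PM)) * Gam) →
      s % q = s' % q)
    (hWo : ∀ w w', Wo w → Wo w' → w < w' →
      (T1 - T0) + 2 * N1 + 2 * ((1 + q * (1 + 4 * PM)) * Gam) < w' - w)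
    (hWs : ∀ w w', Ws w → Ws w' → w < w' →
      2 * ((1 + q * (1 + 4 * PM)) * Gam) + 2 * (q * PM) < w' - w) :
    ((Finset.range K).filter (fun k => ∃ k' < K, k' ≠ k ∧ (
      (∃ w, Wo w ∧ |w + (1 + q * (1 + 4 * PM)) * (g k' - g k)
        - th ((w + (1 + q * (1 + 4 * PM)) * (g k' - g k)) % q)| ≤ N1) ∨
      (∃ p ∈ Ms, ∃ w, (w = t0 ∨ w = t1) ∧
        (p : ℤ) ∣ (w + (1 + q * (1 + 4 * PM)) * (g k' - g k) - p0) / q) ∨
      (∃ j ≤ m, ∃ w, Ws w ∧
        |w + (1 + q * (1 + 4 * PM)) * (g k' - g k) - (p0 + A j)| ≤ q * PM)))).card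
      ≤ 1 + 2 * Ms.card + (m + 1) := by
  set U : ℤ := 1 + q * (1 + 4 * PM) with hU
  let Ev : (Unit ⊕ ((Ms × Bool) ⊕ Fin (m + 1))) → ℤ → Prop := fun e δ =>
    match e with
    | Sum.inl _ => ∃ w, Wo w ∧ |w + U * δ - th ((w + U * δ) % q)| ≤ N1
    | Sum.inr (Sum.inl (p, b)) => ((p : ℕ) : ℤ) ∣ ((if b then t1 else t0) + U * δ - p0) / q
    | Sum.inr (Sum.inr j) => ∃ w, Ws w ∧ |w + U * δ - (p0 + A j)| ≤ q * PM
  have key : ∀ e δ δ', |δ| ≤ Gam → |δ'| ≤ Gam → Ev e δ → Ev e δ' → |δ - δ'| ≤ 2 := by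
    intro e δ δ' h1 h2 h3 h4
    have hG : 0 ≤ Gam := le_trans (abs_nonneg _) h1
    have hq0 : 0 < q := by linarith
    have hU0 : 0 < U := by rw [hU]; positivity
    have hUd : |U * δ| ≤ U * Gam := by
      rw [abs_mul, abs_of_pos hU0]; exact mul_le_mul_of_nonneg_left h1 hU0.le
    have hUd' : |U * δ'| ≤ U * Gam := by
      rw [abs_mul, abs_of_pos hU0]; exact mul_le_mul_of_nonneg_left h2 hU0.le
    rw [abs_le] at hUd hUd'
    rcases e with _ | (⟨p, b⟩ | j)
    · obtain ⟨w, hw, hw2⟩ := h3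
      obtain ⟨w', hw', hw2'⟩ := h4
      have a1 := hth0 ((w + U * δ) % q)
      have a2 := hth1 ((w + U * δ) % q)
      have a3 := hth0 ((w' + U * δ') % q)
      have a4 := hth1 ((w' + U * δ') % q)
      rw [abs_le] at hw2 hw2'
      have hww : w = w' := by
        apply unique_of_gap hWo hw hw'
        rw [abs_le]; constructor <;> linarith
      subst hww
      have h5 := hsep (w + U * δ) (w + U * δ') (by rw [abs_le]; constructor <;> linarith)
      have h6 : δ = δ' := mod_case (y := 1 + 4 * PM) hU hq h1 h2 h5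
      rw [h6]; simp
    · obtain ⟨hp1, hp2⟩ := hp p p.2
      have h5 : ((p : ℕ) : ℤ) ∣ (((if b then t1 else t0) - p0) + U * δ) / q := by
        have := h3
        simp only [Ev] at this
        rwa [show (if b then t1 else t0) + U * δ - p0 = ((if b then t1 else t0) - p0) + U * δ by
          ring] at this
      have h6 : ((p : ℕ) : ℤ) ∣ (((if b then t1 else t0) - p0) + U * δ') / q := by
        have := h4
        simp only [Ev] at this
        rwa [show (if b then t1 else t0) + U * δ' - p0 = ((if b then t1 else t0) - p0) + U * δ' by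
          ring] at this
      have := floor_case hq hp1 hp2 h1 h2 h5 h6
      linarith
    · obtain ⟨w, hw, hw2⟩ := h3
      obtain ⟨w', hw', hw2'⟩ := h4
      rw [abs_le] at hw2 hw2'
      have hww : w = w' := by
        apply unique_of_gap hWs hw hw'
        rw [abs_le]; constructor <;> linarith
      subst hww
      have h5 : |U * (δ - δ')| ≤ 2 * (q * PM) := by
        rw [show U * (δ - δ') = U * δ - U * δ' by ring, abs_le]; constructor <;> linarith
      rw [abs_mul, abs_of_pos hU0] at h5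
      by_contra hcon
      push Not at hcon
      have h6 : U * 2 ≤ U * |δ - δ'| := mul_le_mul_of_nonneg_left hcon.le hU0.le
      have h7 : 0 < q * PM := mul_pos hq0 hPM
      rw [hU] at h6 h5
      nlinarith
  have hex : ∀ k ∈ (Finset.range K).filter (fun k => ∃ k' < K, k' ≠ k ∧ (
      (∃ w, Wo w ∧ |w + U * (g k' - g k) - th ((w + U * (g k' - g k)) % q)| ≤ N1) ∨
      (∃ p ∈ Ms, ∃ w, (w = t0 ∨ w = t1) ∧ (p : ℤ) ∣ (w + U * (g k' - g k) - p0) / q) ∨
      (∃ j ≤ m, ∃ w, Ws w ∧ |w + U * (g k' - g k) - (p0 + A j)| ≤ q * PM))),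
      ∃ e, k < K ∧ ∃ k' < K, k' ≠ k ∧ Ev e (g k' - g k) := by
    intro k hk
    rw [Finset.mem_filter, Finset.mem_range] at hk
    obtain ⟨hk1, k', hk', hne, h | ⟨p, hpM, w, hw, h⟩ | ⟨j, hj, h⟩⟩ := hk
    · exact ⟨Sum.inl (), hk1, k', hk', hne, h⟩
    · rcases hw with rfl | rfl
      · exact ⟨Sum.inr (Sum.inl (⟨p, hpM⟩, false)), hk1, k', hk', hne, by simpa [Ev] using h⟩
      · exact ⟨Sum.inr (Sum.inl (⟨p, hpM⟩, true)), hk1, k', hk', hne, by simpa [Ev] using h⟩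
    · exact ⟨Sum.inr (Sum.inr ⟨j, by omega⟩), hk1, k', hk', hne, h⟩
  choose! f hf using hex
  have hcard : Fintype.card (Unit ⊕ ((Ms × Bool) ⊕ Fin (m + 1))) = 1 + 2 * Ms.card + (m + 1) := by
    simp only [Fintype.card_sum, Fintype.card_prod, Fintype.card_bool, Fintype.card_fin,
      Fintype.card_unit, Fintype.card_coe]
    ring
  rw [← hcard, ← Finset.card_univ]
  apply Finset.card_le_card_of_injOn f (fun _ _ => Finset.mem_coe.2 (Finset.mem_univ _))
  intro k hk l hl hkl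
  obtain ⟨hk1, k', hk', hne, h1⟩ := hf k hk
  obtain ⟨hl1, l', hl', hne', h2⟩ := hf l hl
  rw [← hkl] at h2
  have b1 := hg k hk1
  have b2 := hg k' hk'
  have b3 := hg l hl1
  have b4 := hg l' hl'
  have h3 := key (f k) _ _ (by rw [abs_le]; constructor <;> linarith)
    (by rw [abs_le]; constructor <;> linarith) h1 h2
  rcases hr k' k l' l hk' hk1 hl' hl1 h3 with ⟨h4, -⟩ | ⟨-, h4⟩
  · exact absurd h4 hne
  · exact h4

end Crest.Agent.R320.Amb_793
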