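import Mathlib

/-!
# Row 320, leaf G3-AMB of helper237 (post 13356): the ambiguity bound of the ruler (helper864)

At most `1 + 2 * Ms.card + (m + 1)` elements `k` of the ruler have a wrong candidate `k'` which is
bad for one of the three reasons: outer wall band, total divisible by a name modulus, small wall
near a level.  Pure integer arithmetic.
-/

set_option autoImplicit false

namespace Crest.Agent.R320.Amb_864

/-- the multiplier `U = 1 + q (1 + 4 PM)`, residues: `w + U d` and `w + U d'` congruent mod `q`. -/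
theorem ev1 {q N1 T0 T1 PM Gam : ℤ} {th : ℤ → ℤ} {Wo : ℤ → Prop}
    (hq : 2*Gam + 2 < q) (hPM : 0 < PM)
    (hth0 : ∀ r, T0 ≤ th r) (hth1 : ∀ r, th r ≤ T1)
    (hsep : ∀ s s' : ℤ, |th (s % q) - th (s' % q)| ≤ 2*N1 + 2*((1 + q*(1+4*PM))*Gam) →
      s % q = s' % q)
    (hWo : ∀ w w', Wo w → Wo w' → w < w' →
      (T1 - T0) + 2*N1 + 2*((1 + q*(1+4*PM))*Gam) < w' - w)
    {d d' w w' : ℤ} (hd : |d| ≤ Gam) (hd' : |d'| ≤ Gam) (hw : Wo w) (hw' : Wo w')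
    (h : |w + (1+q*(1+4*PM))*d - th ((w + (1+q*(1+4*PM))*d) % q)| ≤ N1)
    (h' : |w' + (1+q*(1+4*PM))*d' - th ((w' + (1+q*(1+4*PM))*d') % q)| ≤ N1) :
    |d - d'| ≤ 2 := by
  have hG : 0 ≤ Gam := (abs_nonneg d).trans hd
  have hq0 : 0 < q := by linarith
  set U : ℤ := 1 + q*(1+4*PM) with hU
  have hU0 : 0 < U := by positivity
  have hUd : |U * d| ≤ U * Gam := by
    rw [abs_mul, abs_of_pos hU0]; exact mul_le_mul_of_nonneg_left hd hU0.le
  have hUd' : |U * d'| ≤ U * Gam := by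
    rw [abs_mul, abs_of_pos hU0]; exact mul_le_mul_of_nonneg_left hd' hU0.le
  have a1 := abs_le.1 h
  have a2 := abs_le.1 h'
  have b1 := abs_le.1 hUd
  have b2 := abs_le.1 hUd'
  have c1 := hth0 ((w + U*d) % q)
  have c2 := hth1 ((w + U*d) % q)
  have c3 := hth0 ((w' + U*d') % q)
  have c4 := hth1 ((w' + U*d') % q)
  have hww : w = w' := by
    rcases lt_trichotomy w w' with hlt | he | hlt
    · have := hWo w w' hw hw' hlt
      linarith [a1.1, a1.2, a2.1, a2.2, b1.1, b1.2, b2.1, b2.2]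
    · exact he
    · have := hWo w' w hw' hw hlt
      linarith [a1.1, a1.2, a2.1, a2.2, b1.1, b1.2, b2.1, b2.2]
  subst hww
  have hs := hsep (w + U*d) (w + U*d') (by
    rw [abs_le]
    constructor <;> linarith [a1.1, a1.2, a2.1, a2.2, b1.1, b1.2, b2.1, b2.2])
  have hdvd : q ∣ (w + U*d) - (w + U*d') := Int.ModEq.dvd (Int.ModEq.symm hs)
  have hdvd2 : q ∣ d - d' := by
    have e : (w + U*d) - (w + U*d') = (d - d') + q * ((1+4*PM)*(d-d')) := by rw [hU]; ring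
    rw [e] at hdvd
    exact (Int.dvd_add_left (Dvd.intro _ rfl)).1 hdvd
  have e1 := abs_le.1 hd
  have e2 := abs_le.1 hd'
  have hz : d - d' = 0 := by
    apply Int.eq_zero_of_abs_lt_dvd hdvd2
    rw [abs_lt]
    constructor <;> linarith [e1.1, e1.2, e2.1, e2.2]
  rw [hz]; norm_num

theorem ev2 {q PM p0 Gam w p : ℤ} (hq : 2*Gam + 2 < q)
    (hp : p ∣ PM ∧ 2*Gam + 2 < p)
    {d d' : ℤ} (hd : |d| ≤ Gam) (hd' : |d'| ≤ Gam)
    (h : p ∣ (w + (1+q*(1+4*PM))*d - p0) / q)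
    (h' : p ∣ (w + (1+q*(1+4*PM))*d' - p0) / q) :
    |d - d'| ≤ 2 := by
  have hG : 0 ≤ Gam := (abs_nonneg d).trans hd
  have hq0 : 0 < q := by linarith
  have e1 := abs_le.1 hd
  have e2 := abs_le.1 hd'
  have f : ∀ x : ℤ, (w + (1+q*(1+4*PM))*x - p0) / q = (w + x - p0) / q + (1+4*PM)*x := by
    intro x
    have : w + (1+q*(1+4*PM))*x - p0 = (w + x - p0) + q * ((1+4*PM)*x) := by ring
    rw [this, Int.add_mul_ediv_left _ _ hq0.ne']
  rw [f] at h h'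
  set F := (w + d - p0) / q with hF
  set F' := (w + d' - p0) / q with hF'
  have g1 : q * F ≤ w + d - p0 := Int.mul_ediv_self_le hq0.ne'
  have g2 : w + d - p0 < q * F + q := Int.lt_mul_ediv_self_add hq0
  have g3 : q * F' ≤ w + d' - p0 := Int.mul_ediv_self_le hq0.ne'
  have g4 : w + d' - p0 < q * F' + q := Int.lt_mul_ediv_self_add hq0
  have k1 : F - F' < 2 := by
    by_contra hc
    push Not at hc
    nlinarith [e1.1, e1.2, e2.1, e2.2]
  have k2 : F' - F < 2 := by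
    by_contra hc
    push Not at hc
    nlinarith [e1.1, e1.2, e2.1, e2.2]
  have hdiv : p ∣ (F + (1+4*PM)*d) - (F' + (1+4*PM)*d') := dvd_sub h h'
  have hdiv2 : p ∣ (F - F') + (d - d') := by
    have e : (F + (1+4*PM)*d) - (F' + (1+4*PM)*d') = ((F - F') + (d - d')) + PM * (4*(d-d')) := by
      ring
    rw [e] at hdiv
    exact (Int.dvd_add_left (Dvd.dvd.mul_right hp.1 _)).1 hdiv
  have hz : (F - F') + (d - d') = 0 := by
    apply Int.eq_zero_of_abs_lt_dvd hdiv2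
    rw [abs_lt]
    constructor <;> linarith [e1.1, e1.2, e2.1, e2.2, hp.2]
  rw [abs_le]
  constructor <;> linarith

theorem ev3 {q PM c Gam : ℤ} {Ws : ℤ → Prop}
    (hq : 2*Gam + 2 < q) (hPM : 0 < PM)
    (hWs : ∀ w w', Ws w → Ws w' → w < w' →
      2*((1 + q*(1+4*PM))*Gam) + 2*(q*PM) < w' - w)
    {d d' w w' : ℤ} (hd : |d| ≤ Gam) (hd' : |d'| ≤ Gam) (hw : Ws w) (hw' : Ws w')
    (h : |w + (1+q*(1+4*PM))*d - c| ≤ q*PM)
    (h' : |w' + (1+q*(1+4*PM))*d' - c| ≤ q*PM) :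
    |d - d'| ≤ 2 := by
  have hG : 0 ≤ Gam := (abs_nonneg d).trans hd
  have hq0 : 0 < q := by linarith
  set U : ℤ := 1 + q*(1+4*PM) with hU
  have hU0 : 0 < U := by positivity
  have hUd : |U * d| ≤ U * Gam := by
    rw [abs_mul, abs_of_pos hU0]; exact mul_le_mul_of_nonneg_left hd hU0.le
  have hUd' : |U * d'| ≤ U * Gam := by
    rw [abs_mul, abs_of_pos hU0]; exact mul_le_mul_of_nonneg_left hd' hU0.le
  have a1 := abs_le.1 h
  have a2 := abs_le.1 h'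
  have b1 := abs_le.1 hUd
  have b2 := abs_le.1 hUd'
  have hww : w = w' := by
    rcases lt_trichotomy w w' with hlt | he | hlt
    · have := hWs w w' hw hw' hlt
      linarith [a1.1, a1.2, a2.1, a2.2, b1.1, b1.2, b2.1, b2.2]
    · exact he
    · have := hWs w' w hw' hw hlt
      linarith [a1.1, a1.2, a2.1, a2.2, b1.1, b1.2, b2.1, b2.2]
  subst hww
  have hqPM : 0 < q*PM := mul_pos hq0 hPM
  have hUe : U = 1 + q + 4*(q*PM) := by rw [hU]; ring
  have hbd : |U * (d - d')| ≤ 2*(q*PM) := by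
    rw [abs_le]
    constructor <;> nlinarith [a1.1, a1.2, a2.1, a2.2]
  have hz : d - d' = 0 := by
    by_contra hne
    have h1 : 1 ≤ |d - d'| := Int.one_le_abs hne
    rw [abs_mul, abs_of_pos hU0] at hbd
    have : U * 1 ≤ U * |d - d'| := mul_le_mul_of_nonneg_left h1 hU0.le
    linarith
  rw [hz]; norm_num

open Classical in
/-- **LEAF G3-AMB** (237 #13356) -/
theorem amb (K m : ℕ) (Ms : Finset ℕ) (q N1 T0 T1 PM p0 Gam t0 t1 : ℤ) (th : ℤ → ℤ)
    (Wo Ws : ℤ → Prop) (A : ℕ → ℤ) (g : ℕ → ℤ)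
    (hq : 2*Gam + 2 < q) (hPM : 0 < PM) (_hN1 : 0 ≤ N1)
    (hp : ∀ p ∈ Ms, (p:ℤ) ∣ PM ∧ 2*Gam + 2 < (p:ℤ))
    (hg : ∀ k < K, 0 ≤ g k ∧ g k ≤ Gam)
    (hr : ∀ a b c d, a < K → b < K → c < K → d < K →
      |(g a - g b) - (g c - g d)| ≤ 2 → (a = b ∧ c = d) ∨ (a = c ∧ b = d))
    (hth0 : ∀ r, T0 ≤ th r) (hth1 : ∀ r, th r ≤ T1)
    (hsep : ∀ s s' : ℤ, |th (s % q) - th (s' % q)| ≤ 2*N1 + 2*((1 + q*(1+4*PM))*Gam) →
      s % q = s' % q)
    (hWo : ∀ w w', Wo w → Wo w' → w < w' →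
      (T1 - T0) + 2*N1 + 2*((1 + q*(1+4*PM))*Gam) < w' - w)
    (hWs : ∀ w w', Ws w → Ws w' → w < w' →
      2*((1 + q*(1+4*PM))*Gam) + 2*(q*PM) < w' - w) :
    ((Finset.range K).filter (fun k => ∃ k' < K, k' ≠ k ∧
      ((∃ w, Wo w ∧ |w + (1+q*(1+4*PM))*(g k' - g k)
          - th ((w + (1+q*(1+4*PM))*(g k' - g k)) % q)| ≤ N1) ∨
       (∃ p ∈ Ms, ∃ w, (w = t0 ∨ w = t1) ∧ (p:ℤ) ∣ (w + (1+q*(1+4*PM))*(g k' - g k) - p0) / q) ∨
       (∃ j ≤ m, ∃ w, Ws w ∧ |w + (1+q*(1+4*PM))*(g k' - g k) - (p0 + A j)| ≤ q*PM)))).card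
      ≤ 1 + 2*Ms.card + (m+1) := by
  -- events
  let E : Type := Unit ⊕ ((Ms × Bool) ⊕ Fin (m+1))
  -- `ev e d` : the event `e` happens with shift `d`
  let ev : E → ℤ → Prop := fun e d =>
    match e with
    | Sum.inl _ => ∃ w, Wo w ∧ |w + (1+q*(1+4*PM))*d - th ((w + (1+q*(1+4*PM))*d) % q)| ≤ N1
    | Sum.inr (Sum.inl pb) =>
        ((pb.1 : ℕ):ℤ) ∣ ((if pb.2 then t0 else t1) + (1+q*(1+4*PM))*d - p0) / q
    | Sum.inr (Sum.inr j) => ∃ w, Ws w ∧ |w + (1+q*(1+4*PM))*d - (p0 + A j)| ≤ q*PM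
  have hev : ∀ (e : E) (d d' : ℤ), |d| ≤ Gam → |d'| ≤ Gam → ev e d → ev e d' → |d - d'| ≤ 2 := by
    intro e d d' hd hd' h h'
    rcases e with _ | ⟨p, b⟩ | j
    · obtain ⟨w, hw, h1⟩ := h
      obtain ⟨w', hw', h1'⟩ := h'
      exact ev1 hq hPM hth0 hth1 hsep hWo hd hd' hw hw' h1 h1'
    · exact ev2 hq (hp p p.2) hd hd' h h'
    · obtain ⟨w, hw, h1⟩ := h
      obtain ⟨w', hw', h1'⟩ := h'
      exact ev3 hq hPM hWs hd hd' hw hw' h1 h1'
  set B := (Finset.range K).filter (fun k => ∃ k' < K, k' ≠ k ∧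
      ((∃ w, Wo w ∧ |w + (1+q*(1+4*PM))*(g k' - g k)
          - th ((w + (1+q*(1+4*PM))*(g k' - g k)) % q)| ≤ N1) ∨
       (∃ p ∈ Ms, ∃ w, (w = t0 ∨ w = t1) ∧ (p:ℤ) ∣ (w + (1+q*(1+4*PM))*(g k' - g k) - p0) / q) ∨
       (∃ j ≤ m, ∃ w, Ws w ∧ |w + (1+q*(1+4*PM))*(g k' - g k) - (p0 + A j)| ≤ q*PM))) with hB
  have hsel : ∀ k ∈ B, ∃ (k' : ℕ) (e : E), k' < K ∧ k' ≠ k ∧ ev e (g k' - g k) := by
    intro k hk
    rw [hB, Finset.mem_filter] at hk
    obtain ⟨-, k', hk', hne, h1 | ⟨p, hpM, w, hw, h2⟩ | ⟨j, hj, h3⟩⟩ := hk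
    · exact ⟨k', Sum.inl (), hk', hne, h1⟩
    · rcases hw with rfl | rfl
      · exact ⟨k', Sum.inr (Sum.inl (⟨p, hpM⟩, true)), hk', hne, by simpa [ev] using h2⟩
      · exact ⟨k', Sum.inr (Sum.inl (⟨p, hpM⟩, false)), hk', hne, by simpa [ev] using h2⟩
    · exact ⟨k', Sum.inr (Sum.inr ⟨j, by omega⟩), hk', hne, h3⟩
  have hlt : ∀ k ∈ B, k < K := fun k hk => Finset.mem_range.1 (Finset.mem_filter.1 hk).1
  choose! k' e hk' hne hE using hsel
  have hcard : B.card ≤ Fintype.card E := by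
    rw [← Finset.card_univ]
    refine Finset.card_le_card_of_injOn e (fun _ _ => Finset.mem_coe.2 (Finset.mem_univ _)) ?_
    intro a ha b hb hab
    have ha' : a ∈ B := ha
    have hb' : b ∈ B := hb
    have gA := hg a (hlt a ha')
    have gB := hg b (hlt b hb')
    have gA' := hg (k' a) (hk' a ha')
    have gB' := hg (k' b) (hk' b hb')
    have h2 := hE b hb'
    rw [← hab] at h2
    have := hev (e a) _ _ (by rw [abs_le]; constructor <;> linarith [gA.1, gA.2, gA'.1, gA'.2])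
      (by rw [abs_le]; constructor <;> linarith [gB.1, gB.2, gB'.1, gB'.2]) (hE a ha') h2
    rcases hr (k' a) a (k' b) b (hk' a ha') (hlt a ha') (hk' b hb') (hlt b hb') this with h | h
    · exact absurd h.1 (hne a ha')
    · exact h.2
  have hE' : Fintype.card E = 1 + 2*Ms.card + (m+1) := by
    simp only [E, Fintype.card_sum, Fintype.card_unit, Fintype.card_prod, Fintype.card_coe,
      Fintype.card_bool, Fintype.card_fin]
    ring
  rw [hE'] at hcard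
  exact hcard

end Crest.Agent.R320.Amb_864
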