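import Mathlib

/-!
Ambiguity bound for the ruler of the second scheme (leaf G3-AMB of #13356).
At most `1 + 2 * Ms.card + (m + 1)` places `k` of the ruler are spoiled by another place `k'`.
-/

namespace Crest.Agent.R320.Amb_865

/-- the ruler: two pairs with nearly equal differences agree -/
private theorem ruler_eq {K : ℕ} {g : ℕ → ℤ}
    (hr : ∀ a b c d, a < K → b < K → c < K → d < K →
      |(g a - g b) - (g c - g d)| ≤ 2 → (a = b ∧ c = d) ∨ (a = c ∧ b = d))
    {a a' b b' : ℕ} (ha : a < K) (ha' : a' < K) (hb : b < K) (hb' : b' < K)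
    (hne : a' ≠ a) (h : |(g a' - g a) - (g b' - g b)| ≤ 2) : a = b := by
  rcases hr a' a b' b ha' ha hb' hb h with h | h
  · exact absurd h.1 hne
  · exact h.2

theorem amb (K m : ℕ) (Ms : Finset ℕ) (q N1 T0 T1 PM p0 Gam t0 t1 : ℤ) (th : ℤ → ℤ)
    (Wo Ws : ℤ → Prop) (A : ℕ → ℤ) (g : ℕ → ℤ)
    (hq : 2 * Gam + 2 < q) (hPM : 0 < PM) (hN1 : 0 ≤ N1)
    (hp : ∀ p ∈ Ms, (p : ℤ) ∣ PM ∧ 2 * Gam + 2 < (p : ℤ))
    (hg : ∀ k < K, 0 ≤ g k ∧ g k ≤ Gam)
    (hr : ∀ a b c d, a < K → b < K → c < K → d < K →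
      |(g a - g b) - (g c - g d)| ≤ 2 → (a = b ∧ c = d) ∨ (a = c ∧ b = d))
    (hth0 : ∀ r, T0 ≤ th r) (hth1 : ∀ r, th r ≤ T1)
    (hsep : ∀ s s' : ℤ, |th (s % q) - th (s' % q)| ≤ 2 * N1 + 2 * ((1 + q * (1 + 4 * PM)) * Gam) →
      s % q = s' % q)
    (hWo : ∀ w w', Wo w → Wo w' → w < w' →
      (T1 - T0) + 2 * N1 + 2 * ((1 + q * (1 + 4 * PM)) * Gam) < w' - w)
    (hWs : ∀ w w', Ws w → Ws w' → w < w' →
      2 * ((1 + q * (1 + 4 * PM)) * Gam) + 2 * (q * PM) < w' - w) :
    open Classical in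
    ((Finset.range K).filter (fun k => ∃ k' < K, k' ≠ k ∧
      ((∃ w, Wo w ∧ |w + (1 + q * (1 + 4 * PM)) * (g k' - g k)
          - th ((w + (1 + q * (1 + 4 * PM)) * (g k' - g k)) % q)| ≤ N1) ∨
       (∃ p ∈ Ms, ∃ w, (w = t0 ∨ w = t1) ∧
          (p : ℤ) ∣ (w + (1 + q * (1 + 4 * PM)) * (g k' - g k) - p0) / q) ∨
       (∃ j ≤ m, ∃ w, Ws w ∧
          |w + (1 + q * (1 + 4 * PM)) * (g k' - g k) - (p0 + A j)| ≤ q * PM)))).card
      ≤ 1 + 2 * Ms.card + (m + 1) := by
  classical
  rcases Nat.eq_zero_or_pos K with hK0 | hKpos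
  · subst hK0; simp
  have hGam : 0 ≤ Gam := le_trans (hg 0 hKpos).1 (hg 0 hKpos).2
  have hqpos : 0 < q := by linarith
  set U : ℤ := 1 + q * (1 + 4 * PM) with hU
  have hqPM : 0 < q * PM := mul_pos hqpos hPM
  have hUpos : 0 < U := by rw [hU]; nlinarith
  have hUbig : 2 * (q * PM) < U := by rw [hU]; nlinarith
  -- size of differences
  have hdel : ∀ a b, a < K → b < K → |g a - g b| ≤ Gam := by
    intro a b ha hb
    have h1 := hg a ha
    have h2 := hg b hb
    rw [abs_le]; constructor <;> linarith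
  have hUdel : ∀ a b, a < K → b < K → -(U * Gam) ≤ U * (g a - g b) ∧ U * (g a - g b) ≤ U * Gam := by
    intro a b ha hb
    have h := abs_le.1 (hdel a b ha hb)
    constructor
    · have := mul_le_mul_of_nonneg_left h.1 hUpos.le
      linarith [mul_neg U Gam]
    · exact mul_le_mul_of_nonneg_left h.2 hUpos.le
  let r : ℕ → (Unit ⊕ ((ℕ × Bool) ⊕ ℕ)) → Prop := fun k e => ∃ k' < K, k' ≠ k ∧
    (match e with
      | Sum.inl _ => ∃ w, Wo w ∧ |w + U * (g k' - g k) - th ((w + U * (g k' - g k)) % q)| ≤ N1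
      | Sum.inr (Sum.inl pb) =>
          (pb.1 : ℤ) ∣ ((if pb.2 then t1 else t0) + U * (g k' - g k) - p0) / q
      | Sum.inr (Sum.inr j) => ∃ w, Ws w ∧ |w + U * (g k' - g k) - (p0 + A j)| ≤ q * PM)
  let t : Finset (Unit ⊕ ((ℕ × Bool) ⊕ ℕ)) :=
    (Finset.univ : Finset Unit).disjSum
      ((Ms ×ˢ (Finset.univ : Finset Bool)).disjSum (Finset.range (m + 1)))
  have hcard : t.card = 1 + 2 * Ms.card + (m + 1) := by
    simp only [t, Finset.card_disjSum, Finset.card_product, Finset.card_univ, Finset.card_range,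
      Fintype.card_unit, Fintype.card_bool]
    ring
  rw [← hcard]
  refine Finset.card_le_card_of_forall_subsingleton r ?_ ?_
  · intro k hk
    rw [Finset.mem_filter, Finset.mem_range] at hk
    obtain ⟨hkK, k', hk'K, hne, h⟩ := hk
    rcases h with h | ⟨p, hpM, w, hw, hd⟩ | ⟨j, hj, h⟩
    · exact ⟨Sum.inl (), by simp [t], k', hk'K, hne, h⟩
    · rcases hw with rfl | rfl
      · exact ⟨Sum.inr (Sum.inl (p, false)), by simp [t, hpM], k', hk'K, hne, by simpa using hd⟩
      · exact ⟨Sum.inr (Sum.inl (p, true)), by simp [t, hpM], k', hk'K, hne, by simpa using hd⟩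
    · exact ⟨Sum.inr (Sum.inr j), by simp [t]; omega, k', hk'K, hne, h⟩
  · rintro e he a ⟨ha, a', ha'K, hane, hae⟩ b ⟨hb, b', hb'K, hbne, hbe⟩
    have haK : a < K := by
      have := (Finset.mem_filter.1 ha).1
      exact Finset.mem_range.1 this
    have hbK : b < K := by
      have := (Finset.mem_filter.1 hb).1
      exact Finset.mem_range.1 this
    have hD := abs_le.1 (hdel a' a ha'K haK)
    have hD' := abs_le.1 (hdel b' b hb'K hbK)
    have hUa := hUdel a' a ha'K haK
    have hUb := hUdel b' b hb'K hbK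
    refine ruler_eq hr haK ha'K hbK hb'K hane ?_
    match e, he, hae, hbe with
    | Sum.inl _, _, ⟨w, hw, hwn⟩, ⟨w', hw', hwn'⟩ =>
      rw [abs_le] at hwn hwn'
      have e1 := hth0 ((w + U * (g a' - g a)) % q)
      have e2 := hth1 ((w + U * (g a' - g a)) % q)
      have e3 := hth0 ((w' + U * (g b' - g b)) % q)
      have e4 := hth1 ((w' + U * (g b' - g b)) % q)
      have hww : w = w' := by
        rcases lt_trichotomy w w' with h | h | h
        · have := hWo w w' hw hw' h
          linarith [hwn.1, hwn.2, hwn'.1, hwn'.2, hUa.1, hUa.2, hUb.1, hUb.2]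
        · exact h
        · have := hWo w' w hw' hw h
          linarith [hwn.1, hwn.2, hwn'.1, hwn'.2, hUa.1, hUa.2, hUb.1, hUb.2]
      subst hww
      have hs : (w + U * (g a' - g a)) % q = (w + U * (g b' - g b)) % q := by
        refine hsep _ _ ?_
        rw [abs_le]
        constructor <;> linarith [hwn.1, hwn.2, hwn'.1, hwn'.2, hUa.1, hUa.2, hUb.1, hUb.2]
      have hdvd : q ∣ (w + U * (g a' - g a)) - (w + U * (g b' - g b)) :=
        Int.ModEq.dvd (Int.ModEq.symm hs)
      have hdvd2 : q ∣ (g a' - g a) - (g b' - g b) := by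
        have : (g a' - g a) - (g b' - g b) = ((w + U * (g a' - g a)) - (w + U * (g b' - g b)))
            - q * ((1 + 4 * PM) * ((g a' - g a) - (g b' - g b))) := by
          rw [hU]; ring
        rw [this]
        exact dvd_sub hdvd (dvd_mul_right _ _)
      have hz : (g a' - g a) - (g b' - g b) = 0 := by
        refine Int.eq_zero_of_abs_lt_dvd hdvd2 ?_
        rw [abs_lt]; constructor <;> linarith [hD.1, hD.2, hD'.1, hD'.2]
      rw [hz]; norm_num
    | Sum.inr (Sum.inl pb), he, hae, hbe =>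
      have hpm : pb.1 ∈ Ms := by
        simp only [t, Finset.inr_mem_disjSum, Finset.inl_mem_disjSum,
          Finset.mem_product] at he
        exact he.1
      obtain ⟨hpd, hpbig⟩ := hp _ hpm
      set w : ℤ := (if pb.2 then t1 else t0) with hw
      have key : ∀ x : ℤ, (w + U * x - p0) / q = (w + x - p0) / q + (1 + 4 * PM) * x := by
        intro x
        have : w + U * x - p0 = (w + x - p0) + q * ((1 + 4 * PM) * x) := by rw [hU]; ring
        rw [this, Int.add_mul_ediv_left _ _ (ne_of_gt hqpos)]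
      have ha2 : (pb.1 : ℤ) ∣ (w + (g a' - g a) - p0) / q + (g a' - g a) := by
        have h1 : (pb.1 : ℤ) ∣ (w + U * (g a' - g a) - p0) / q := hae
        rw [key] at h1
        have h2 : (w + (g a' - g a) - p0) / q + (g a' - g a)
            = ((w + (g a' - g a) - p0) / q + (1 + 4 * PM) * (g a' - g a))
              - PM * (4 * (g a' - g a)) := by ring
        rw [h2]; exact dvd_sub h1 (Dvd.dvd.mul_right hpd _)
      have hb2 : (pb.1 : ℤ) ∣ (w + (g b' - g b) - p0) / q + (g b' - g b) := by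
        have h1 : (pb.1 : ℤ) ∣ (w + U * (g b' - g b) - p0) / q := hbe
        rw [key] at h1
        have h2 : (w + (g b' - g b) - p0) / q + (g b' - g b)
            = ((w + (g b' - g b) - p0) / q + (1 + 4 * PM) * (g b' - g b))
              - PM * (4 * (g b' - g b)) := by ring
        rw [h2]; exact dvd_sub h1 (Dvd.dvd.mul_right hpd _)
      have hf : ∀ x y : ℤ, x - y ≤ 2 * Gam → (x / q) - (y / q) ≤ 1 := by
        intro x y hxy
        have h1 : q * (x / q) + x % q = x := Int.mul_ediv_add_emod x q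
        have h2 : q * (y / q) + y % q = y := Int.mul_ediv_add_emod y q
        have h3 := Int.emod_nonneg x (ne_of_gt hqpos)
        have h4 := Int.emod_lt_of_pos y hqpos
        by_contra hcon
        push Not at hcon
        have h5 : q * 2 ≤ q * (x / q - y / q) :=
          mul_le_mul_of_nonneg_left (by linarith) hqpos.le
        have h6 : q * (x / q - y / q) = q * (x / q) - q * (y / q) := by ring
        linarith
      have hf1 := hf (w + (g a' - g a) - p0) (w + (g b' - g b) - p0)
        (by linarith [hD.1, hD.2, hD'.1, hD'.2])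
      have hf2 := hf (w + (g b' - g b) - p0) (w + (g a' - g a) - p0)
        (by linarith [hD.1, hD.2, hD'.1, hD'.2])
      have hz := Int.eq_zero_of_abs_lt_dvd (dvd_sub ha2 hb2) (by
        rw [abs_lt]; constructor <;> linarith [hD.1, hD.2, hD'.1, hD'.2])
      rw [abs_le]; constructor <;> linarith
    | Sum.inr (Sum.inr j), _, ⟨w, hw, hwn⟩, ⟨w', hw', hwn'⟩ =>
      rw [abs_le] at hwn hwn'
      have hww : w = w' := by
        rcases lt_trichotomy w w' with h | h | h
        · have := hWs w w' hw hw' h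
          linarith [hwn.1, hwn.2, hwn'.1, hwn'.2, hUa.1, hUa.2, hUb.1, hUb.2]
        · exact h
        · have := hWs w' w hw' hw h
          linarith [hwn.1, hwn.2, hwn'.1, hwn'.2, hUa.1, hUa.2, hUb.1, hUb.2]
      subst hww
      have hu : |U * ((g a' - g a) - (g b' - g b))| ≤ 2 * (q * PM) := by
        rw [abs_le]; constructor <;> nlinarith [hwn.1, hwn.2, hwn'.1, hwn'.2]
      rw [abs_mul, abs_of_pos hUpos] at hu
      by_contra hcon
      push Not at hcon
      have : U * 1 ≤ U * |(g a' - g a) - (g b' - g b)| :=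
        mul_le_mul_of_nonneg_left (by linarith) hUpos.le
      linarith

end Crest.Agent.R320.Amb_865
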