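import Mathlib

/-!
# Row 320, leaf G3-AMB (helper940): at most `1 + 2 |Ms| + (m + 1)` elements of the ruler are ambiguous

Literal statement `amb` of post #13356 (helper237).
-/

set_option autoImplicit false

namespace Crest.Agent.R320.Amb_940

open Classical

/-- a multiple of `U > 0` -/
theorem abs_mul_le {U d G : ℤ} (hU : 0 ≤ U) (hd : |d| ≤ G) : |U * d| ≤ U * G := by
  rw [abs_mul, abs_of_nonneg hU]
  exact mul_le_mul_of_nonneg_left hd hU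

/-- two floors -/
theorem floor_diff {q x a b : ℤ} (hq : 0 < q) (h : |a - b| < q) :
    |(x + a) / q - (x + b) / q| ≤ 1 := by
  obtain ⟨h1, h2⟩ := abs_lt.1 h
  have e1 := Int.emod_add_mul_ediv (x + a) q
  have e2 := Int.emod_add_mul_ediv (x + b) q
  have p1 := Int.emod_nonneg (x + a) hq.ne'
  have p2 := Int.emod_nonneg (x + b) hq.ne'
  have q1 := Int.emod_lt_of_pos (x + a) hq
  have q2 := Int.emod_lt_of_pos (x + b) hq
  rw [abs_le]
  constructor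
  · by_contra hc
    push Not at hc
    have : (x + a) / q + 2 ≤ (x + b) / q := by omega
    have := mul_le_mul_of_nonneg_left this hq.le
    nlinarith
  · by_contra hc
    push Not at hc
    have : (x + b) / q + 2 ≤ (x + a) / q := by omega
    have := mul_le_mul_of_nonneg_left this hq.le
    nlinarith

theorem amb (K m : ℕ) (Ms : Finset ℕ) (q N1 T0 T1 PM p0 Gam t0 t1 : ℤ) (th : ℤ → ℤ)
    (Wo Ws : ℤ → Prop) (A : ℕ → ℤ) (g : ℕ → ℤ) (hq : 2*Gam + 2 < q) (hPM : 0 < PM)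
    (hN1 : 0 ≤ N1) (hp : ∀ p ∈ Ms, (p:ℤ) ∣ PM ∧ 2*Gam + 2 < (p:ℤ))
    (hg : ∀ k < K, 0 ≤ g k ∧ g k ≤ Gam)
    (hr : ∀ a b c d, a < K → b < K → c < K → d < K → |(g a - g b) - (g c - g d)| ≤ 2 →
      (a = b ∧ c = d) ∨ (a = c ∧ b = d))
    (hth0 : ∀ r, T0 ≤ th r) (hth1 : ∀ r, th r ≤ T1)
    (hsep : ∀ s s' : ℤ, |th (s % q) - th (s' % q)| ≤ 2*N1 + 2*((1 + q*(1+4*PM))*Gam) →
      s % q = s' % q)
    (hWo : ∀ w w', Wo w → Wo w' → w < w' →
      (T1 - T0) + 2*N1 + 2*((1 + q*(1+4*PM))*Gam) < w' - w)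
    (hWs : ∀ w w', Ws w → Ws w' → w < w' → 2*((1 + q*(1+4*PM))*Gam) + 2*(q*PM) < w' - w) :
    ((Finset.range K).filter (fun k => ∃ k' < K, k' ≠ k ∧
      ((∃ w, Wo w ∧ |w + (1+q*(1+4*PM))*(g k' - g k) -
          th ((w + (1+q*(1+4*PM))*(g k' - g k)) % q)| ≤ N1) ∨
       (∃ p ∈ Ms, ∃ w, (w = t0 ∨ w = t1) ∧ (p:ℤ) ∣ (w + (1+q*(1+4*PM))*(g k' - g k) - p0) / q) ∨
       (∃ j ≤ m, ∃ w, Ws w ∧ |w + (1+q*(1+4*PM))*(g k' - g k) - (p0 + A j)| ≤ q*PM)))).card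
      ≤ 1 + 2*Ms.card + (m+1) := by
  by_cases hK : K = 0
  · subst hK; simp
  have hG : 0 ≤ Gam := (hg 0 (Nat.pos_of_ne_zero hK)).1.trans (hg 0 (Nat.pos_of_ne_zero hK)).2
  have hq0 : 0 < q := by omega
  obtain ⟨U, hU⟩ : ∃ U, U = 1 + q*(1+4*PM) := ⟨_, rfl⟩
  rw [← hU] at hsep hWo hWs ⊢
  have hqPM : 0 < q * PM := mul_pos hq0 hPM
  have hU1 : 2 * (q * PM) < U := by rw [hU]; nlinarith
  have hU0 : 0 < U := by linarith
  have hd : ∀ k < K, ∀ k' < K, |g k' - g k| ≤ Gam := by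
    intro k hk k' hk'
    have h1 := hg k hk
    have h2 := hg k' hk'
    rw [abs_le]; constructor <;> linarith
  -- events
  let Ev := Unit ⊕ ((Ms × Bool) ⊕ Fin (m + 1))
  -- relation: `k` has the event `e` through the difference `δ`
  let R : ℤ → Ev → Prop := fun δ e => match e with
    | .inl _ => ∃ w, Wo w ∧ |w + U * δ - th ((w + U * δ) % q)| ≤ N1
    | .inr (.inl (p, b)) => ((p : ℕ) : ℤ) ∣ ((if b then t1 else t0) + U * δ - p0) / q
    | .inr (.inr j) => ∃ w, Ws w ∧ |w + U * δ - (p0 + A j)| ≤ q*PM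
  -- the main point: the same event gives nearly the same difference
  have key : ∀ e : Ev, ∀ δ₁ δ₂ : ℤ, |δ₁| ≤ Gam → |δ₂| ≤ Gam → R δ₁ e → R δ₂ e → |δ₁ - δ₂| ≤ 2 := by
    intro e δ₁ δ₂ h₁ h₂ r₁ r₂
    have hdd : |δ₁ - δ₂| ≤ 2 * Gam := by
      rw [abs_le] at *; constructor <;> linarith [h₁.1, h₁.2, h₂.1, h₂.2]
    have hUd : |U * (δ₁ - δ₂)| ≤ U * (2 * Gam) := abs_mul_le hU0.le hdd
    have hU₁ : |U * δ₁| ≤ U * Gam := abs_mul_le hU0.le h₁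
    have hU₂ : |U * δ₂| ≤ U * Gam := abs_mul_le hU0.le h₂
    rcases e with ⟨⟩ | (⟨p, b⟩ | j)
    · obtain ⟨w₁, hw₁, a₁⟩ := r₁
      obtain ⟨w₂, hw₂, a₂⟩ := r₂
      have l1 := hth0 ((w₁ + U * δ₁) % q)
      have l2 := hth1 ((w₁ + U * δ₁) % q)
      have l3 := hth0 ((w₂ + U * δ₂) % q)
      have l4 := hth1 ((w₂ + U * δ₂) % q)
      have hw : w₁ = w₂ := by
        rw [abs_le] at a₁ a₂ hU₁ hU₂
        rcases lt_trichotomy w₁ w₂ with h | h | h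
        · have := hWo w₁ w₂ hw₁ hw₂ h
          exfalso; linarith [a₁.1, a₁.2, a₂.1, a₂.2, hU₁.1, hU₁.2, hU₂.1, hU₂.2]
        · exact h
        · have := hWo w₂ w₁ hw₂ hw₁ h
          exfalso; linarith [a₁.1, a₁.2, a₂.1, a₂.2, hU₁.1, hU₁.2, hU₂.1, hU₂.2]
      subst hw
      have hs := hsep (w₁ + U * δ₁) (w₁ + U * δ₂) (by
        rw [abs_le] at a₁ a₂ hU₁ hU₂ ⊢
        constructor <;> linarith [a₁.1, a₁.2, a₂.1, a₂.2, hU₁.1, hU₁.2, hU₂.1, hU₂.2])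
      have hdv : q ∣ (w₁ + U * δ₁) - (w₁ + U * δ₂) := Int.dvd_of_emod_eq_zero (by
        rw [Int.sub_emod, hs, sub_self, Int.zero_emod])
      have hdv2 : q ∣ δ₁ - δ₂ := by
        have e1 : (w₁ + U * δ₁) - (w₁ + U * δ₂) = (δ₁ - δ₂) + q * ((1 + 4 * PM) * (δ₁ - δ₂)) := by
          rw [hU]; ring
        rw [e1] at hdv
        exact (Int.dvd_add_left (Dvd.intro _ rfl)).1 hdv
      have h0 : δ₁ - δ₂ = 0 := Int.eq_zero_of_abs_lt_dvd hdv2 (by linarith)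
      rw [h0]; norm_num
    · have hpm := hp p p.2
      simp only [R] at r₁ r₂
      obtain ⟨t, ht⟩ : ∃ t, t = (if b then t1 else t0) - p0 := ⟨_, rfl⟩
      have f : ∀ δ : ℤ, ((if b then t1 else t0) + U * δ - p0) / q =
          (t + δ) / q + (1 + 4 * PM) * δ := by
        intro δ
        have e1 : (if b then t1 else t0) + U * δ - p0 = (t + δ) + q * ((1 + 4 * PM) * δ) := by
          rw [hU, ht]; ring
        rw [e1, Int.add_mul_ediv_left _ _ hq0.ne']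
      rw [f] at r₁ r₂
      have hsub := Int.dvd_sub r₁ r₂
      obtain ⟨c, hc⟩ := hpm.1
      have hD : ((p : ℕ) : ℤ) ∣ ((t + δ₁) / q - (t + δ₂) / q) + (δ₁ - δ₂) := by
        have e2 : ((t + δ₁) / q - (t + δ₂) / q) + (δ₁ - δ₂) =
            (((t + δ₁) / q + (1 + 4 * PM) * δ₁) - ((t + δ₂) / q + (1 + 4 * PM) * δ₂)) -
              ((p : ℕ) : ℤ) * (4 * c * (δ₁ - δ₂)) := by
          rw [hc]; ring
        rw [e2]
        exact Int.dvd_sub hsub (Dvd.intro _ rfl)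
      have hfl := floor_diff (q := q) (x := t) (a := δ₁) (b := δ₂) hq0 (by linarith)
      have h0 : ((t + δ₁) / q - (t + δ₂) / q) + (δ₁ - δ₂) = 0 :=
        Int.eq_zero_of_abs_lt_dvd hD (by
          rw [abs_le] at hfl hdd
          rw [abs_lt]
          constructor <;> linarith [hfl.1, hfl.2, hdd.1, hdd.2, hpm.2])
      rw [abs_le] at hfl ⊢
      constructor <;> linarith [hfl.1, hfl.2]
    · obtain ⟨w₁, hw₁, a₁⟩ := r₁
      obtain ⟨w₂, hw₂, a₂⟩ := r₂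
      have hw : w₁ = w₂ := by
        rw [abs_le] at a₁ a₂ hU₁ hU₂
        rcases lt_trichotomy w₁ w₂ with h | h | h
        · have := hWs w₁ w₂ hw₁ hw₂ h
          exfalso; linarith [a₁.1, a₁.2, a₂.1, a₂.2, hU₁.1, hU₁.2, hU₂.1, hU₂.2]
        · exact h
        · have := hWs w₂ w₁ hw₂ hw₁ h
          exfalso; linarith [a₁.1, a₁.2, a₂.1, a₂.2, hU₁.1, hU₁.2, hU₂.1, hU₂.2]
      subst hw
      have h3 : |U * (δ₁ - δ₂)| ≤ 2 * (q * PM) := by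
        have e3 : U * (δ₁ - δ₂) = (w₁ + U * δ₁ - (p0 + A j)) - (w₁ + U * δ₂ - (p0 + A j)) := by ring
        rw [e3]
        rw [abs_le] at a₁ a₂ ⊢
        constructor <;> linarith [a₁.1, a₁.2, a₂.1, a₂.2]
      have h0 : δ₁ - δ₂ = 0 := Int.eq_zero_of_abs_lt_dvd (m := U) (Dvd.intro _ rfl)
        (x := U * (δ₁ - δ₂)) (by linarith) |> fun h => by
          rcases mul_eq_zero.1 h with h | h
          · exact absurd h hU0.ne'
          · exact h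
      rw [h0]; norm_num
  -- choose
  have hch : ∀ k : ℕ, ∃ (k' : ℕ) (e : Ev), (k ∈ (Finset.range K).filter (fun k => ∃ k' < K, k' ≠ k ∧
      ((∃ w, Wo w ∧ |w + U*(g k' - g k) - th ((w + U*(g k' - g k)) % q)| ≤ N1) ∨
       (∃ p ∈ Ms, ∃ w, (w = t0 ∨ w = t1) ∧ (p:ℤ) ∣ (w + U*(g k' - g k) - p0) / q) ∨
       (∃ j ≤ m, ∃ w, Ws w ∧ |w + U*(g k' - g k) - (p0 + A j)| ≤ q*PM)))) →
      k < K ∧ k' < K ∧ k' ≠ k ∧ R (g k' - g k) e := by
    intro k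
    by_cases hk : (k ∈ (Finset.range K).filter (fun k => ∃ k' < K, k' ≠ k ∧
      ((∃ w, Wo w ∧ |w + U*(g k' - g k) - th ((w + U*(g k' - g k)) % q)| ≤ N1) ∨
       (∃ p ∈ Ms, ∃ w, (w = t0 ∨ w = t1) ∧ (p:ℤ) ∣ (w + U*(g k' - g k) - p0) / q) ∨
       (∃ j ≤ m, ∃ w, Ws w ∧ |w + U*(g k' - g k) - (p0 + A j)| ≤ q*PM))))
    · obtain ⟨hkK, k', hk', hne, h⟩ := Finset.mem_filter.1 hk
      have hkK' : k < K := Finset.mem_range.1 hkK
      rcases h with h | ⟨p, hpM, w, hw, hdv⟩ | ⟨j, hj, w, hw, ha⟩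
      · exact ⟨k', .inl (), fun _ => ⟨hkK', hk', hne, h⟩⟩
      · rcases hw with rfl | rfl
        · exact ⟨k', .inr (.inl (⟨p, hpM⟩, false)), fun _ => ⟨hkK', hk', hne, by simpa [R] using hdv⟩⟩
        · exact ⟨k', .inr (.inl (⟨p, hpM⟩, true)), fun _ => ⟨hkK', hk', hne, by simpa [R] using hdv⟩⟩
      · exact ⟨k', .inr (.inr ⟨j, by omega⟩), fun _ => ⟨hkK', hk', hne, ⟨w, hw, by simpa using ha⟩⟩⟩
    · exact ⟨0, .inl (), fun h => absurd h hk⟩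
  choose f e hfe using hch
  have hcard : Fintype.card Ev = 1 + 2*Ms.card + (m+1) := by
    simp only [Ev, Fintype.card_sum, Fintype.card_prod, Fintype.card_unit, Fintype.card_bool,
      Fintype.card_fin, Fintype.card_coe]
    ring
  rw [← hcard, ← Finset.card_univ]
  refine Finset.card_le_card_of_injOn e (fun _ _ => Finset.mem_coe.2 (Finset.mem_univ _)) ?_
  intro k₁ h₁ k₂ h₂ he
  obtain ⟨a1, a2, a3, a4⟩ := hfe k₁ (Finset.mem_coe.1 h₁)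
  obtain ⟨b1, b2, b3, b4⟩ := hfe k₂ (Finset.mem_coe.1 h₂)
  rw [← he] at b4
  have := key _ _ _ (hd k₁ a1 _ a2) (hd k₂ b1 _ b2) a4 b4
  rcases hr _ _ _ _ a2 a1 b2 b1 this with h | h
  · exact absurd h.1 a3
  · exact h.2

end Crest.Agent.R320.Amb_940
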