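import Mathlib

/-!
Row 320, leaf G3-AMB of helper237 #13356: one ruler `c k = q0 + U * g k`, `U = 1 + q*(1+4*PM)`,
serves all thin modes; at most `1 + 2 * |Ms| + (m+1)` places are spoiled.
-/

set_option autoImplicit false

namespace Crest.Agent.R320.Amb96

theorem card_le_one_of {P : ℕ → Prop} [DecidablePred P] (s : Finset ℕ)
    (h : ∀ a ∈ s, ∀ b ∈ s, P a → P b → a = b) : (s.filter P).card ≤ 1 := by
  rw [Finset.card_le_one]
  intro a ha b hb
  rw [Finset.mem_filter] at ha hb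
  exact h a ha.1 b hb.1 ha.2 hb.2

/-- `|x| < n`, `n ∣ x` gives `x = 0`. -/
theorem eq_zero_of_dvd_small {n x : ℤ} (h : n ∣ x) (h1 : |x| < n) : x = 0 := by
  exact Int.eq_zero_of_abs_lt_dvd h h1

theorem mul_small {U x y : ℤ} (hU : 0 < U) (h : |U * x| ≤ y) (hy : y < U) : x = 0 := by
  by_contra hx
  have h1 : 1 ≤ |x| := Int.one_le_abs hx
  rw [abs_mul, abs_of_pos hU] at h
  nlinarith

open Classical in
theorem amb (K m : ℕ) (Ms : Finset ℕ) (q N1 T0 T1 PM p0 Gam t0 t1 : ℤ) (th : ℤ → ℤ)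
    (Wo Ws : ℤ → Prop) (A : ℕ → ℤ) (g : ℕ → ℤ)
    (hq : 2*Gam + 2 < q) (hPM : 0 < PM) (hN1 : 0 ≤ N1)
    (hp : ∀ p ∈ Ms, (p:ℤ) ∣ PM ∧ 2*Gam + 2 < (p:ℤ))
    (hg : ∀ k < K, 0 ≤ g k ∧ g k ≤ Gam)
    (hr : ∀ a b c d, a < K → b < K → c < K → d < K → |(g a - g b) - (g c - g d)| ≤ 2 →
      (a = b ∧ c = d) ∨ (a = c ∧ b = d))
    (hth0 : ∀ r, T0 ≤ th r) (hth1 : ∀ r, th r ≤ T1)
    (hsep : ∀ s s' : ℤ, |th (s % q) - th (s' % q)| ≤ 2*N1 + 2*((1 + q*(1+4*PM))*Gam) →
      s % q = s' % q)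
    (hWo : ∀ w w', Wo w → Wo w' → w < w' →
      (T1 - T0) + 2*N1 + 2*((1 + q*(1+4*PM))*Gam) < w' - w)
    (hWs : ∀ w w', Ws w → Ws w' → w < w' →
      2*((1 + q*(1+4*PM))*Gam) + 2*(q*PM) < w' - w) :
    ((Finset.range K).filter (fun k => ∃ k' < K, k' ≠ k ∧ (
      (∃ w, Wo w ∧ |w + (1+q*(1+4*PM))*(g k' - g k)
          - th ((w + (1+q*(1+4*PM))*(g k' - g k)) % q)| ≤ N1) ∨
      (∃ p ∈ Ms, ∃ w, (w = t0 ∨ w = t1) ∧
          (p:ℤ) ∣ (w + (1+q*(1+4*PM))*(g k' - g k) - p0) / q) ∨
      (∃ j ≤ m, ∃ w, Ws w ∧ |w + (1+q*(1+4*PM))*(g k' - g k) - (p0 + A j)| ≤ q*PM)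
      ))).card ≤ 1 + 2*Ms.card + (m+1) := by
  rcases Nat.eq_zero_or_pos K with hK | hK
  · subst hK
    simp
  have hGam : 0 ≤ Gam := le_trans (hg 0 hK).1 (hg 0 hK).2
  have hq0 : 0 < q := by linarith
  set U : ℤ := 1 + q*(1+4*PM) with hU
  have hqPM : 0 < q * PM := mul_pos hq0 hPM
  have hUpos : 0 < U := by rw [hU]; nlinarith
  have hUbig : 2 * (q * PM) < U := by rw [hU]; nlinarith
  have hUG : 0 ≤ U * Gam := mul_nonneg hUpos.le hGam
  -- two differences
  have hdd : ∀ a b c d, a < K → b < K → c < K → d < K →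
      |(g a - g b) - (g c - g d)| ≤ 2 * Gam := by
    intro a b c d ha hb hc hd
    have h1 := hg a ha; have h2 := hg b hb; have h3 := hg c hc; have h4 := hg d hd
    rw [abs_le]; constructor <;> linarith
  have hUdd : ∀ a b c d, a < K → b < K → c < K → d < K →
      |U * (g a - g b) - U * (g c - g d)| ≤ 2 * (U * Gam) := by
    intro a b c d ha hb hc hd
    have h1 := hdd a b c d ha hb hc hd
    rw [← mul_sub, abs_mul, abs_of_pos hUpos]
    nlinarith
  have key : ∀ a a' b b', a < K → a' < K → b < K → b' < K → a' ≠ a →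
      |(g a' - g a) - (g b' - g b)| ≤ 2 → a = b := by
    intro a a' b b' ha ha' hb hb' hne h
    rcases hr a' a b' b ha' ha hb' hb h with ⟨h1, _⟩ | ⟨_, h2⟩
    · exact absurd h1 hne
    · exact h2
  -- the three families
  let PE : ℕ → Prop := fun k => ∃ k' < K, k' ≠ k ∧ ∃ w, Wo w ∧
    |w + U*(g k' - g k) - th ((w + U*(g k' - g k)) % q)| ≤ N1
  let PB : ℕ × ℤ → ℕ → Prop := fun x k => ∃ k' < K, k' ≠ k ∧
    (x.1:ℤ) ∣ (x.2 + U*(g k' - g k) - p0) / q
  let PD : ℕ → ℕ → Prop := fun j k => ∃ k' < K, k' ≠ k ∧ ∃ w, Ws w ∧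
    |w + U*(g k' - g k) - (p0 + A j)| ≤ q*PM
  have hsub : ((Finset.range K).filter (fun k => ∃ k' < K, k' ≠ k ∧ (
      (∃ w, Wo w ∧ |w + U*(g k' - g k) - th ((w + U*(g k' - g k)) % q)| ≤ N1) ∨
      (∃ p ∈ Ms, ∃ w, (w = t0 ∨ w = t1) ∧ (p:ℤ) ∣ (w + U*(g k' - g k) - p0) / q) ∨
      (∃ j ≤ m, ∃ w, Ws w ∧ |w + U*(g k' - g k) - (p0 + A j)| ≤ q*PM)))) ⊆
      ((Finset.range K).filter PE ∪
        (Ms ×ˢ ({t0, t1} : Finset ℤ)).biUnion (fun x => (Finset.range K).filter (PB x))) ∪
        (Finset.range (m+1)).biUnion (fun j => (Finset.range K).filter (PD j)) := by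
    intro k hk
    rw [Finset.mem_filter] at hk
    obtain ⟨hk, k', hk', hne, h | h | h⟩ := hk
    · obtain ⟨w, hw, h⟩ := h
      refine Finset.mem_union_left _ (Finset.mem_union_left _ ?_)
      rw [Finset.mem_filter]
      exact ⟨hk, k', hk', hne, w, hw, h⟩
    · obtain ⟨p, hpM, w, hw, h⟩ := h
      refine Finset.mem_union_left _ (Finset.mem_union_right _ ?_)
      rw [Finset.mem_biUnion]
      refine ⟨(p, w), ?_, ?_⟩
      · rw [Finset.mem_product]
        exact ⟨hpM, by simpa using hw⟩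
      · rw [Finset.mem_filter]
        exact ⟨hk, k', hk', hne, h⟩
    · obtain ⟨j, hj, w, hw, h⟩ := h
      refine Finset.mem_union_right _ ?_
      rw [Finset.mem_biUnion]
      refine ⟨j, by rw [Finset.mem_range]; omega, ?_⟩
      rw [Finset.mem_filter]
      exact ⟨hk, k', hk', hne, w, hw, h⟩
  have hE : ((Finset.range K).filter PE).card ≤ 1 := by
    apply card_le_one_of
    rintro a ha b hb ⟨a', ha', hna, w, hw, h1⟩ ⟨b', hb', hnb, w', hw', h2⟩
    rw [Finset.mem_range] at ha hb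
    have hd := hUdd a' a b' b ha' ha hb' hb
    rw [abs_le] at h1 h2 hd
    have hww : w = w' := by
      have e1 := hth0 ((w + U*(g a' - g a)) % q)
      have e2 := hth1 ((w + U*(g a' - g a)) % q)
      have e3 := hth0 ((w' + U*(g b' - g b)) % q)
      have e4 := hth1 ((w' + U*(g b' - g b)) % q)
      rcases lt_trichotomy w w' with hlt | heq | hgt
      · have := hWo w w' hw hw' hlt
        linarith
      · exact heq
      · have := hWo w' w hw' hw hgt
        linarith
    subst hww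
    have hm := hsep (w + U*(g a' - g a)) (w + U*(g b' - g b)) (by
      rw [abs_le]; constructor <;> linarith)
    have hdv : q ∣ (w + U*(g a' - g a)) - (w + U*(g b' - g b)) :=
      Int.ModEq.dvd (show (w + U*(g b' - g b)) ≡ (w + U*(g a' - g a)) [ZMOD q] from hm.symm)
    have hdv2 : q ∣ (g a' - g a) - (g b' - g b) := by
      have e : (w + U*(g a' - g a)) - (w + U*(g b' - g b))
          = ((g a' - g a) - (g b' - g b)) + q * ((1+4*PM) * ((g a' - g a) - (g b' - g b))) := by
        rw [hU]; ring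
      rw [e] at hdv
      exact (dvd_add_left (Dvd.intro _ rfl)).mp hdv
    have h0 := eq_zero_of_dvd_small hdv2
      (lt_of_le_of_lt (hdd a' a b' b ha' ha hb' hb) (by linarith))
    exact key a a' b b' ha ha' hb hb' hna (by rw [h0]; norm_num)
  have hB : ∀ x ∈ (Ms ×ˢ ({t0, t1} : Finset ℤ)),
      ((Finset.range K).filter (PB x)).card ≤ 1 := by
    rintro ⟨p, w⟩ hx
    rw [Finset.mem_product] at hx
    obtain ⟨hpPM, hpG⟩ := hp p hx.1
    apply card_le_one_of
    rintro a ha b hb ⟨a', ha', hna, h1⟩ ⟨b', hb', hnb, h2⟩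
    rw [Finset.mem_range] at ha hb
    simp only at h1 h2
    have hd := hdd a' a b' b ha' ha hb' hb
    have e : ∀ x : ℤ, (w + U * x - p0) / q = (w - p0 + x) / q + (1 + 4*PM) * x := by
      intro x
      have : w + U * x - p0 = (w - p0 + x) + q * ((1+4*PM) * x) := by rw [hU]; ring
      rw [this, Int.add_mul_ediv_left _ _ hq0.ne']
    rw [e] at h1 h2
    set x := g a' - g a with hx'
    set y := g b' - g b with hy'
    have h3 : (p:ℤ) ∣ ((w - p0 + x) / q - (w - p0 + y) / q + (x - y)) := by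
      have h4 := dvd_sub h1 h2
      have h5 : (w - p0 + x) / q + (1 + 4*PM) * x - ((w - p0 + y) / q + (1 + 4*PM) * y)
          = ((w - p0 + x) / q - (w - p0 + y) / q + (x - y)) + PM * (4 * (x - y)) := by ring
      rw [h5] at h4
      exact (dvd_add_left (Dvd.dvd.mul_right hpPM _)).mp h4
    have hxy := abs_le.mp hd
    have hdiv : |(w - p0 + x) / q - (w - p0 + y) / q| ≤ 1 := by
      have a1 := Int.emod_add_mul_ediv (w - p0 + x) q
      have a2 := Int.emod_add_mul_ediv (w - p0 + y) q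
      have b1 := Int.emod_nonneg (w - p0 + x) hq0.ne'
      have b2 := Int.emod_lt_of_pos (w - p0 + x) hq0
      have b3 := Int.emod_nonneg (w - p0 + y) hq0.ne'
      have b4 := Int.emod_lt_of_pos (w - p0 + y) hq0
      set X := (w - p0 + x) / q
      set Y := (w - p0 + y) / q
      rw [abs_le]
      constructor
      · by_contra hc
        have : X - Y ≤ -2 := by omega
        nlinarith
      · by_contra hc
        have : 2 ≤ X - Y := by omega
        nlinarith
    rw [abs_le] at hdiv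
    have h0 := eq_zero_of_dvd_small h3 (by
      rw [abs_lt]; constructor <;> linarith)
    refine key a a' b b' ha ha' hb hb' hna ?_
    rw [abs_le]; constructor <;> linarith
  have hD : ∀ j ∈ Finset.range (m+1), ((Finset.range K).filter (PD j)).card ≤ 1 := by
    intro j _
    apply card_le_one_of
    rintro a ha b hb ⟨a', ha', hna, w, hw, h1⟩ ⟨b', hb', hnb, w', hw', h2⟩
    rw [Finset.mem_range] at ha hb
    have hd := hUdd a' a b' b ha' ha hb' hb
    rw [abs_le] at h1 h2 hd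
    have hww : w = w' := by
      rcases lt_trichotomy w w' with hlt | heq | hgt
      · have := hWs w w' hw hw' hlt
        linarith
      · exact heq
      · have := hWs w' w hw' hw hgt
        linarith
    subst hww
    have h0 : (g a' - g a) - (g b' - g b) = 0 := by
      apply mul_small (y := 2 * (q*PM)) hUpos _ hUbig
      rw [abs_le]
      constructor
      · have : U * ((g a' - g a) - (g b' - g b)) = U * (g a' - g a) - U * (g b' - g b) := by ring
        rw [this]; linarith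
      · have : U * ((g a' - g a) - (g b' - g b)) = U * (g a' - g a) - U * (g b' - g b) := by ring
        rw [this]; linarith
    exact key a a' b b' ha ha' hb hb' hna (by rw [h0]; norm_num)
  refine le_trans (Finset.card_le_card hsub) ?_
  refine le_trans (Finset.card_union_le _ _) ?_
  refine Nat.add_le_add (le_trans (Finset.card_union_le _ _) (Nat.add_le_add hE ?_)) ?_
  · refine le_trans (Finset.card_biUnion_le_card_mul _ _ 1 hB) ?_
    rw [mul_one, Finset.card_product, mul_comm]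
    exact Nat.mul_le_mul_right _ Finset.card_le_two
  · refine le_trans (Finset.card_biUnion_le_card_mul _ _ 1 hD) ?_
    rw [mul_one, Finset.card_range]

end Crest.Agent.R320.Amb96
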