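import Crest.Agent.R320.GridG_19
import Crest.Agent.R320.Thin_963

/-!
# Row 320: arithmetic of the constants (helper436): 19's grids, 963's ruler
-/

set_option autoImplicit false

namespace Crest.Agent.R320.Ar_436

open Finset Crest.Agent.R320.GridG_19

/-- bad totals in `ℕ` -/
def BT (Ms : Finset ℕ) (G : ℕ → ℕ) (m T : ℕ) : Prop :=
  (∃ q ∈ Ms, q ∣ T) ∨ BadG G (∏ q ∈ Ms, q) 0 m T

theorem am_le {G : ℕ → ℕ} {M : ℕ} {i m : ℕ} (h : i ≤ m) : Am G M 0 i ≤ Am G M 0 m :=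
  Am_mono G M 0 h

theorem bt_cast {Ms : Finset ℕ} {G : ℕ → ℕ} {m T : ℕ} (hG : ∀ k, 0 < G k)
    (hT : Am G (∏ q ∈ Ms, q) 0 m ≤ T) (h : BT Ms G m T) :
    Thin963.BadT Ms m (fun j => (G j : ℤ)) (fun j => (((∏ q ∈ Ms, q) * G j : ℕ) : ℤ))
      (fun j => (Am G (∏ q ∈ Ms, q) 0 j : ℤ)) (T : ℤ) := by
  set M := ∏ q ∈ Ms, q with hM
  rcases h with ⟨q, hq, hd⟩ | ⟨k, hk, h⟩
  · exact Or.inl ⟨q, hq, by exact_mod_cast hd⟩
  · refine Or.inr ⟨k, hk, ?_⟩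
    have hA : Am G M 0 (k + 1) ≤ T := (am_le (Nat.succ_le_of_lt hk)).trans hT
    obtain ⟨R, hR⟩ : ∃ R, T = Am G M 0 (k + 1) + R := ⟨T - Am G M 0 (k + 1), by omega⟩
    have e : T - Am G M 0 (k + 1) = R := by omega
    rw [e] at h
    have hlt := Nat.mod_lt R (hG (k + 1))
    have hdm := Nat.div_add_mod R (G (k + 1))
    rcases h with h | h
    · refine ⟨-((R % G (k + 1) : ℕ) : ℤ), ?_, ?_⟩
      · rw [abs_neg, abs_of_nonneg (by positivity)]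
        show ((R % G (k + 1) : ℕ) : ℤ) ≤ ((M * G k : ℕ) : ℤ)
        exact_mod_cast h.le
      · refine ⟨((R / G (k + 1) : ℕ) : ℤ), ?_⟩
        have h2 : ((T : ℕ) : ℤ) = (Am G M 0 (k + 1) : ℤ) + (R : ℤ) := by exact_mod_cast hR
        have h3 : (R : ℤ) = (G (k + 1) : ℤ) * ((R / G (k + 1) : ℕ) : ℤ) + ((R % G (k + 1) : ℕ) : ℤ) := by
          exact_mod_cast hdm.symm
        rw [h2]
        linarith
    · refine ⟨((G (k + 1) : ℕ) : ℤ) - ((R % G (k + 1) : ℕ) : ℤ), ?_, ?_⟩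
      · have h1 : ((R % G (k + 1) : ℕ) : ℤ) < ((G (k + 1) : ℕ) : ℤ) := by exact_mod_cast hlt
        have h4 : ((G (k + 1) : ℕ) : ℤ) ≤ ((R % G (k + 1) : ℕ) : ℤ) + ((M * G k : ℕ) : ℤ) := by
          exact_mod_cast h
        rw [abs_of_nonneg (by linarith)]
        linarith
      · refine ⟨((R / G (k + 1) : ℕ) : ℤ) + 1, ?_⟩
        have h2 : ((T : ℕ) : ℤ) = (Am G M 0 (k + 1) : ℤ) + (R : ℤ) := by exact_mod_cast hR
        have h3 : (R : ℤ) = (G (k + 1) : ℤ) * ((R / G (k + 1) : ℕ) : ℤ) + ((R % G (k + 1) : ℕ) : ℤ) := by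
          exact_mod_cast hdm.symm
        rw [h2]
        linarith

/-- the grids -/
theorem sum_le {κ : ℕ} (hκ : 1 ≤ κ) (i : ℕ) :
    ∑ j ∈ range (i + 1), 2 ^ (κ * j) ≤ 2 * 2 ^ (κ * i) := by
  induction i with
  | zero => simp
  | succ i ih =>
    rw [sum_range_succ]
    have h1 : 2 * 2 ^ (κ * i) ≤ 2 ^ (κ * (i + 1)) := by
      rw [Nat.mul_succ, pow_add, mul_comm]
      exact Nat.mul_le_mul_left _ (by
        calc 2 = 2 ^ 1 := by norm_num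
          _ ≤ 2 ^ κ := Nat.pow_le_pow_right (by norm_num) hκ)
    omega

theorem grow (K M : ℕ) (i : ℕ) :
    2 ^ (K + 4) * ∑ j ∈ range (i + 1), M * 2 ^ ((K + 5 + M) * j) ≤
      2 ^ ((K + 5 + M) * (i + 1)) := by
  have h1 := sum_le (κ := K + 5 + M) (by omega) i
  have h2 : M ≤ 2 ^ M := Nat.lt_two_pow_self.le
  rw [← mul_sum]
  calc 2 ^ (K + 4) * (M * ∑ j ∈ range (i + 1), 2 ^ ((K + 5 + M) * j))
      ≤ 2 ^ (K + 4) * (2 ^ M * (2 * 2 ^ ((K + 5 + M) * i))) :=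
        Nat.mul_le_mul_left _ (Nat.mul_le_mul h2 h1)
    _ = 2 ^ ((K + 5 + M) * (i + 1)) := by
        rw [Nat.mul_succ, pow_add, pow_add, pow_add, pow_add]; ring

/-- **the constants**: ruler, bad totals. -/
theorem consts (K m : ℕ) (Ms : Finset ℕ) (hMs : ∀ q ∈ Ms, q.Prime ∧ 2 ^ (K + 1) < q) :
    ∃ (G : ℕ → ℕ) (N Lam : ℕ) (c : ℕ → ℕ),
      (∀ k, 0 < G k) ∧ (∀ a b, a ≤ b → G a ∣ G b) ∧ (∀ k, Nat.Coprime (∏ q ∈ Ms, q) (G k)) ∧
      N = Am G (∏ q ∈ Ms, q) 0 m + (∏ q ∈ Ms, q) ∧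
      (∀ i j, i < j → j < K → c i < c j) ∧ (∀ k < K, c k ≤ Lam) ∧
      (∀ i < K, ∀ j < K, ∀ i' < K, ∀ j' < K, i ≠ j → i' ≠ j' →
        c i + c j' ≤ c i' + c j + 2 * N → c i' + c j ≤ c i + c j' + 2 * N → i = i' ∧ j = j') ∧
      (open Classical in ∀ T, N ≤ T → Lam ≤ T →
        (((range K) ×ˢ (range K)).filter
          (fun ab : ℕ × ℕ => ab.1 ≠ ab.2 ∧ BT Ms G m (T + c ab.1 - c ab.2))).card ≤
            Ms.card + m) := by
  classical
  set M := ∏ q ∈ Ms, q with hM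
  have hM0 : 0 < M := Finset.prod_pos fun q hq => (hMs q hq).1.pos
  let G : ℕ → ℕ := fun j => 2 ^ ((K + 5 + M) * j)
  have hG : ∀ k, 0 < G k := fun k => by positivity
  have hdiv : ∀ a b, a ≤ b → G a ∣ G b := fun a b h =>
    pow_dvd_pow 2 (Nat.mul_le_mul_left _ h)
  have hq2 : ∀ q ∈ Ms, Nat.Coprime q 2 := fun q hq => by
    have h1 := hMs q hq
    have h2 : 2 < q := by
      have : 2 ^ 1 ≤ 2 ^ (K + 1) := Nat.pow_le_pow_right (by norm_num) (by omega)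
      omega
    exact (Nat.coprime_primes h1.1 Nat.prime_two).2 (by omega)
  have hcop : ∀ k, Nat.Coprime M (G k) := fun k =>
    Nat.Coprime.pow_right _ (Nat.Coprime.prod_left fun q hq => hq2 q hq)
  set N := Am G M 0 m + M with hN
  obtain ⟨X, hX1, hX0, hX⟩ := Thin963.thin K m Ms (fun j => (G j : ℤ))
    (fun j => ((M * G j : ℕ) : ℤ)) (fun j => (Am G M 0 j : ℤ))
    (fun q hq => ⟨(hMs q hq).1, (hMs q hq).2.le⟩)
    (fun q hq => by
      exact Nat.isCoprime_iff_coprime.2 (Nat.Coprime.pow_right _ (hq2 q hq)))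
    (by exact_mod_cast hG m) (fun i j h => by exact_mod_cast hdiv i j h)
    (fun i => by exact_mod_cast Nat.mul_pos hM0 (hG i))
    (fun i => ⟨(M : ℤ), by push_cast; ring⟩)
    (fun i _ => by exact_mod_cast grow K M i) (2 * (N : ℤ) + 1)
  obtain ⟨x, rfl⟩ : ∃ x : ℕ, X = (x : ℤ) := ⟨X.toNat, (Int.toNat_of_nonneg hX0.le).symm⟩
  have hx0 : 0 < x := by exact_mod_cast hX0
  have hx1 : 2 * N + 1 ≤ x := by exact_mod_cast hX1
  refine ⟨G, N, x * 2 ^ K + Am G M 0 m + M + 1, fun j => x * 2 ^ j, hG, hdiv, hcop, rfl,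
    ?_, ?_, ?_, ?_⟩
  · intro i j hij _
    exact Nat.mul_lt_mul_of_pos_left (Nat.pow_lt_pow_right (by norm_num) hij) hx0
  · intro k hk
    have : x * 2 ^ k ≤ x * 2 ^ K := Nat.mul_le_mul_left _ (Nat.pow_le_pow_right (by norm_num) hk.le)
    show x * 2 ^ k ≤ _
    omega
  · intro i hi j hj i' hi' j' hj' hij hij' h1 h2
    apply Crest.Agent.R320.G369.pow_diff hij hij'
    by_contra hne
    have h1' : (x : ℤ) * 2 ^ i + x * 2 ^ j' ≤ x * 2 ^ i' + x * 2 ^ j + 2 * N := by exact_mod_cast h1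
    have h2' : (x : ℤ) * 2 ^ i' + x * 2 ^ j ≤ x * 2 ^ i + x * 2 ^ j' + 2 * N := by exact_mod_cast h2
    have hx1' : 2 * (N : ℤ) + 1 ≤ x := by exact_mod_cast hx1
    have hx0' : (0 : ℤ) < x := hX0
    set d : ℤ := (2 ^ i - 2 ^ j) - (2 ^ i' - 2 ^ j') with hd
    have hd0 : d ≠ 0 := fun h => hne (by linarith [sub_eq_zero.1 (hd ▸ h)])
    have e1 : (x : ℤ) * d ≤ 2 * N := by rw [hd]; linarith
    have e2 : -(2 * (N : ℤ)) ≤ (x : ℤ) * d := by rw [hd]; linarith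
    rcases lt_or_gt_of_ne hd0 with h | h
    · have : d ≤ -1 := by omega
      nlinarith
    · have : 1 ≤ d := by omega
      nlinarith
  · intro T hT1 hT2
    refine le_trans (Finset.card_le_card ?_) (hX (T : ℤ))
    intro p hp
    rw [Finset.mem_filter] at hp ⊢
    refine ⟨hp.1, hp.2.1, ?_⟩
    have hp1 := Finset.mem_product.1 hp.1
    have h2 : p.2 < K := Finset.mem_range.1 hp1.2
    have hc2 : x * 2 ^ p.2 ≤ x * 2 ^ K :=
      Nat.mul_le_mul_left _ (Nat.pow_le_pow_right (by norm_num) h2.le)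
    have hb := hp.2.2
    have hge : Am G M 0 m ≤ T + x * 2 ^ p.1 - x * 2 ^ p.2 := by omega
    have hc := bt_cast hG hge hb
    have e : ((T + x * 2 ^ p.1 - x * 2 ^ p.2 : ℕ) : ℤ) = (T : ℤ) + x * 2 ^ p.1 - x * 2 ^ p.2 := by
      rw [Nat.cast_sub (by omega)]; push_cast; ring
    rw [e] at hc
    exact hc

end Crest.Agent.R320.Ar_436
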