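import Mathlib

/-! Row 320, block form of the two wall schemes with the NATURAL chain rule
(next node = first wall at distance at least `z`), left-looking walls. -/

set_option autoImplicit false

namespace Crest.Agent.R320.Sc2n_937

open List

variable {A V : Type*}

/-- Geometry of the outer walls. -/
structure Geo (A : Type*) where
  Wo : List A → Prop
  n : ℕ
  z : ℕ
  p0 : ℕ
  q0 : ℕ
  N1 : ℕ
  loc : ∀ P Q : List A, n ≤ Q.length → (Wo (P ++ Q) ↔ Wo Q)
  hz : z = p0 + N1 + q0
  hq : n ≤ q0
  hN : 0 < N1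
  hqp : p0 ≤ q0 + N1

namespace Geo

variable (g : Geo A)

/-- the block code -/
def XX (X : List A) : Prop :=
  g.z ≤ X.length ∧ g.Wo X ∧ ∀ t, g.z ≤ t → t < X.length → ¬ g.Wo (X.take t)

/-- outer band -/
def E (X : List A) : Prop :=
  ∃ t, t ≤ X.length ∧ g.Wo (X.take t) ∧ g.z ≤ t + g.N1 ∧ t < g.z + g.N1

theorem prefix_code {X Y R R' : List A} (hX : g.XX X) (hY : g.XX Y) (h : X ++ R = Y ++ R') :
    X = Y := by
  have key : ∀ {X Y R R' : List A}, g.XX X → g.XX Y → X ++ R = Y ++ R' →
      X.length ≤ Y.length → X = Y := by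
    intro X Y R R' hX hY h hle
    have hpre : X = Y.take X.length := by
      have h1 := congrArg (fun l => l.take X.length) h
      simp only [List.take_append] at h1
      simpa [Nat.sub_eq_zero_of_le hle] using h1
    by_contra hne
    have hlt : X.length < Y.length := by
      rcases Nat.lt_or_ge X.length Y.length with h2 | h2
      · exact h2
      · exfalso
        apply hne
        rw [hpre, List.take_of_length_le h2]
    have := hY.2.2 X.length hX.1 hlt
    rw [← hpre] at this
    exact this hX.2.1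
  rcases Nat.le_total X.length Y.length with hle | hle
  · exact key hX hY h hle
  · exact (key hY hX h.symm hle).symm

theorem take_eq (w : List A) (c t : ℕ) : w.take (c + t) = w.take c ++ (w.drop c).take t := by
  rw [List.take_add]

theorem wo_shift (w : List A) {c t : ℕ} (ht : g.n ≤ t) (hw : c + t ≤ w.length) :
    g.Wo ((w.drop c).take t) ↔ g.Wo (w.take (c + t)) := by
  rw [take_eq, g.loc]
  simp only [List.length_take, List.length_drop]
  omega

theorem wo_shift' (P Q : List A) {t : ℕ} (ht : g.n ≤ t) (hw : t ≤ Q.length) :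
    g.Wo (Q.take t) ↔ g.Wo ((P ++ Q).take (P.length + t)) := by
  rw [List.take_length_add_append, g.loc]
  simp only [List.length_take]
  omega

/-! ### scheme 1 -/

variable (pre : List A → V → V) (post : V → List A → V)

/-- zone map -/
def T (v : V) (X : List A) : V := post (pre (X.take g.p0) v) (X.drop g.p0)

def LP1 (lam : List A → Option V) (v : V) (P : List A) : Prop :=
  g.p0 ≤ P.length ∧ lam (P.drop g.p0) = some (pre (P.take g.p0) v)

def RQ1 (rho : List A → Option V) (b : V) (Q : List A) : Prop :=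
  g.Wo Q ∧ g.q0 + g.N1 ≤ Q.length ∧ (∀ t, g.q0 ≤ t → t < Q.length → ¬ g.Wo (Q.take t)) ∧
    rho Q = some b

theorem sound1 {lam rho : List A → Option V}
    (hlen : ∀ P v, lam P = some v → P.length ≤ g.N1)
    (hex : ∀ P Q u b, lam P = some u → rho Q = some b → b = post u (P ++ Q))
    {v b : V} {P Q : List A} (hP : g.LP1 pre lam v P) (hQ : g.RQ1 rho b Q) :
    g.XX (P ++ Q) ∧ g.T pre post v (P ++ Q) = b := by
  obtain ⟨hp, hl⟩ := hP
  obtain ⟨hw, hql, hno, hr⟩ := hQ
  have h1 := hlen _ _ hl
  simp only [List.length_drop] at h1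
  have hz := g.hz
  have hq := g.hq
  refine ⟨⟨?_, ?_, ?_⟩, ?_⟩
  · simp only [List.length_append]; omega
  · rw [g.loc _ _ (by omega)]; exact hw
  · intro t ht htl
    simp only [List.length_append] at htl
    have ht' : t = P.length + (t - P.length) := by omega
    rw [ht', ← g.wo_shift' P Q (by omega) (by omega)]
    exact hno _ (by omega) (by omega)
  · have e1 : (P ++ Q).take g.p0 = P.take g.p0 := by
      rw [List.take_append_of_le_length hp]
    have e2 : (P ++ Q).drop g.p0 = P.drop g.p0 ++ Q := by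
      rw [List.drop_append_of_le_length hp]
    unfold T
    rw [e1, e2]
    exact (hex _ _ _ _ hl hr).symm

theorem complete1 {lam rho : List A → Option V}
    (hlen : ∀ P v, lam P = some v → P.length ≤ g.N1)
    {X : List A} (hX : g.XX X) (hE : ¬ g.E X)
    (hc : ∀ u : V, ∃ P Q, X.drop g.p0 = P ++ Q ∧ lam P = some u ∧ (rho Q).isSome) (v : V) :
    ∃ P Q b, X = P ++ Q ∧ g.LP1 pre lam v P ∧ g.RQ1 rho b Q := by
  obtain ⟨P, Q, hPQ, hl, hr⟩ := hc (pre (X.take g.p0) v)
  obtain ⟨b, hb⟩ := Option.isSome_iff_exists.1 hr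
  have h1 := hlen _ _ hl
  have hz := g.hz
  have hq := g.hq
  have hXz := hX.1
  have hbig : g.z + g.N1 ≤ X.length := by
    by_contra hlt
    apply hE
    refine ⟨X.length, le_rfl, ?_, by omega, by omega⟩
    rw [List.take_length]; exact hX.2.1
  have hlenXP : X.length = g.p0 + P.length + Q.length := by
    have := congrArg List.length hPQ
    simp only [List.length_drop, List.length_append] at this
    omega
  have hXe : X = (X.take g.p0 ++ P) ++ Q := by
    rw [List.append_assoc, ← hPQ, List.take_append_drop]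
  have hl0 : (X.take g.p0).length = g.p0 := by
    rw [List.length_take]; omega
  have hPl : (X.take g.p0 ++ P).length = g.p0 + P.length := by
    rw [List.length_append, hl0]
  refine ⟨X.take g.p0 ++ P, Q, b, hXe, ⟨by omega, ?_⟩, ⟨?_, by omega, ?_, hb⟩⟩
  · have e1 : (X.take g.p0 ++ P).drop g.p0 = P := by
      rw [List.drop_append_of_le_length (by omega)]
      rw [List.drop_of_length_le (by omega)]; rfl
    have e2 : (X.take g.p0 ++ P).take g.p0 = X.take g.p0 := by
      rw [List.take_append_of_le_length (by omega)]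
      rw [List.take_of_length_le (by omega)]
    rw [e1, e2]; exact hl
  · have := hX.2.1
    rw [hXe, g.loc _ _ (by omega)] at this
    exact this
  · intro t ht htl hWo
    rw [g.wo_shift' (X.take g.p0 ++ P) Q (by omega) (by omega), ← hXe, hPl] at hWo
    rcases Nat.lt_or_ge (g.p0 + P.length + t) g.z with h2 | h2
    · exact hE ⟨g.p0 + P.length + t, by omega, hWo, by omega, by omega⟩
    · exact hX.2.2 _ h2 (by omega) hWo

/-! ### scheme 2 -/

/-- block mode -/
def BadX (BadT : ℕ → Prop) (X : List A) : Prop := g.E X ∨ BadT (X.length - g.p0)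

/-- end of the candidate block which starts `c` letters before `Q` -/
def CEnd (Q : List A) (c l : ℕ) : Prop :=
  l ≤ Q.length ∧ g.z ≤ c + l ∧ g.Wo (Q.take l) ∧
    ∀ t, g.z ≤ c + t → t < l → ¬ g.Wo (Q.take t)

def CBad (BadT : ℕ → Prop) (Q : List A) (c l : ℕ) : Prop :=
  (∃ t, t ≤ l ∧ g.Wo (Q.take t) ∧ g.z ≤ c + t + g.N1 ∧ c + t < g.z + g.N1) ∨ BadT (c + l - g.p0)

def CGood (BadT : ℕ → Prop) (Q : List A) (c : ℕ) : Prop :=
  ∃ l, g.CEnd Q c l ∧ ¬ g.CBad BadT Q c l

def LP2 (K : ℕ) (c : ℕ → ℕ) (lam2 : ℕ → List A → Option V) (v : V) (P : List A) : Prop :=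
  ∃ k, k < K ∧ P.length = c k ∧ lam2 k P = some v

def RQ2 (BadT : ℕ → Prop) (K : ℕ) (c : ℕ → ℕ) (rho2 : ℕ → List A → Option V)
    (b : V) (Q : List A) : Prop :=
  ∃ k, k < K ∧ ∃ l, g.CEnd Q (c k) l ∧ (∀ k', k' < K → k' ≠ k → g.CGood BadT Q (c k')) ∧
    g.XX (Q.drop l) ∧ ∃ u, rho2 k (Q.take (g.p0 - c k)) = some u ∧
      b = g.T pre post (post u ((Q.take l).drop (g.p0 - c k))) (Q.drop l)

/-- candidate end = block -/
theorem xx_of_cend {P Q : List A} {l : ℕ} (hc : P.length ≤ g.p0) (h : g.CEnd Q P.length l) :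
    g.XX (P ++ Q.take l) := by
  obtain ⟨h1, h2, h3, h4⟩ := h
  have hz := g.hz
  have hq := g.hq
  have hl : (Q.take l).length = l := by rw [List.length_take]; omega
  refine ⟨?_, ?_, ?_⟩
  · rw [List.length_append, hl]; exact h2
  · rw [g.loc _ _ (by omega)]; exact h3
  · intro t ht htl
    rw [List.length_append, hl] at htl
    have ht' : t = P.length + (t - P.length) := by omega
    rw [ht', ← g.wo_shift' P (Q.take l) (by omega) (by omega), List.take_take,
      Nat.min_eq_left (by omega)]
    exact h4 _ (by omega) (by omega)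

theorem cbad_of_bad {BadT : ℕ → Prop} {P Q : List A} {l : ℕ} (hc : P.length ≤ g.p0)
    (h : g.CEnd Q P.length l) (hb : g.BadX BadT (P ++ Q.take l)) :
    g.CBad BadT Q P.length l := by
  obtain ⟨h1, h2, h3, h4⟩ := h
  have hz := g.hz
  have hq := g.hq
  have hl : (Q.take l).length = l := by rw [List.length_take]; omega
  rcases hb with ⟨t, ht, hw, h5, h6⟩ | hb
  · left
    rw [List.length_append, hl] at ht
    have ht' : t = P.length + (t - P.length) := by omega
    refine ⟨t - P.length, by omega, ?_, by omega, by omega⟩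
    rw [ht', ← g.wo_shift' P (Q.take l) (by omega) (by omega), List.take_take,
      Nat.min_eq_left (by omega)] at hw
    exact hw
  · right
    rw [List.length_append, hl] at hb
    exact hb

theorem sound2 {BadT : ℕ → Prop} {K : ℕ} {c : ℕ → ℕ} {lam2 rho2 : ℕ → List A → Option V}
    (hc : ∀ k, k < K → c k ≤ g.p0)
    (hex : ∀ k, k < K → ∀ P Q v u, P.length = c k → Q.length = g.p0 - c k →
      lam2 k P = some v → rho2 k Q = some u → u = pre (P ++ Q) v)
    {v b : V} {X P Q R R' : List A} (hX : g.XX X) (hbad : g.BadX BadT X)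
    (hP : LP2 K c lam2 v P) (hQ : g.RQ2 pre post BadT K c rho2 b Q)
    (hcmp : P ++ Q ++ R = X ++ R') :
    ∃ X2, g.XX X2 ∧ P ++ Q = X ++ X2 ∧ g.T pre post (g.T pre post v X) X2 = b := by
  obtain ⟨k0, hk0, hPl, hl⟩ := hP
  obtain ⟨k, hk, l, hend, hgood, hX2, u, hr, hb⟩ := hQ
  have hz := g.hz
  -- generic: a candidate end for k0 is the true block
  have key : ∀ l, g.CEnd Q (c k0) l → P ++ Q.take l = X := by
    intro l hl
    have h1 : g.XX (P ++ Q.take l) := g.xx_of_cend (by rw [hPl]; exact hc k0 hk0) (by rw [hPl]; exact hl)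
    refine g.prefix_code (R := Q.drop l ++ R) (R' := R') h1 hX ?_
    rw [← hcmp, List.append_assoc, ← List.append_assoc (Q.take l), List.take_append_drop,
      List.append_assoc]
  have hkk : k0 = k := by
    by_contra hne
    obtain ⟨l', he', hg'⟩ := hgood k0 hk0 hne
    apply hg'
    have h2 := key l' he'
    have := g.cbad_of_bad (BadT := BadT) (P := P) (Q := Q) (l := l')
      (by rw [hPl]; exact hc k0 hk0) (by rw [hPl]; exact he') (by rw [h2]; exact hbad)
    rw [hPl] at this
    exact this
  subst hkk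
  have hXe := key l hend
  have hck := hc k0 hk0
  refine ⟨Q.drop l, hX2, ?_, ?_⟩
  · rw [← hXe, List.append_assoc, List.take_append_drop]
  · rw [hb]
    congr 1
    have h5 : g.p0 - c k0 ≤ l := by
      have := hend.2.1
      omega
    have h6 := hend.1
    have e1 : X.take g.p0 = P ++ Q.take (g.p0 - c k0) := by
      rw [← hXe, List.take_append, List.take_of_length_le (by omega), List.take_take, hPl,
        Nat.min_eq_left h5]
    have e2 : X.drop g.p0 = (Q.take l).drop (g.p0 - c k0) := by
      rw [← hXe, List.drop_append, List.drop_of_length_le (by omega), hPl]; rfl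
    unfold T
    rw [e1, e2]
    congr 1
    refine (hex k0 hk0 P _ v u hPl ?_ hl hr).symm
    rw [List.length_take]
    omega

theorem complete2 {BadT : ℕ → Prop} {K : ℕ} {c : ℕ → ℕ} {lam2 rho2 : ℕ → List A → Option V}
    {C0 : ℕ}
    (hc : ∀ k, k < K → c k ≤ g.p0)
    (hgap : ∀ P Q : List A, g.Wo P → g.Wo (P ++ Q) → Q ≠ [] → 2 * g.p0 + 2 * g.N1 < Q.length)
    (hsp : ∀ k k' l l', k < K → k' < K → l < K → l' < K → k' ≠ k → l' ≠ l →
      c k + c l' < c l + c k' + 2 * g.N1 → c l + c k' < c k + c l' + 2 * g.N1 → k = l)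
    (hthin : ∀ τ, g.z ≤ τ + g.p0 → ∀ J : Finset ℕ, (∀ k ∈ J, k < K ∧
      ∃ k', k' < K ∧ k' ≠ k ∧ BadT (τ + c k' - c k - g.p0)) → J.card ≤ C0)
    {X X2 : List A} (hX : g.XX X) (hX2 : g.XX X2) (v : V)
    (hI : ∃ I : Finset ℕ, 2 * C0 + 2 ≤ I.card ∧ ∀ k ∈ I, k < K ∧
      lam2 k (X.take (c k)) = some v ∧ (rho2 k ((X.take g.p0).drop (c k))).isSome) :
    ∃ P Q b, P ++ Q = X ++ X2 ∧ LP2 K c lam2 v P ∧ g.RQ2 pre post BadT K c rho2 b Q := by
  classical
  have hz := g.hz
  have hq := g.hq
  have hXz := hX.1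
  have hX2z := hX2.1
  set w := X ++ X2 with hw
  have hwl : w.length = X.length + X2.length := by rw [hw, List.length_append]
  have hwend : g.Wo (w.take w.length) := by
    rw [List.take_length, hw, g.loc _ _ (by omega)]; exact hX2.2.1
  -- two walls are far apart
  have far : ∀ τ1 τ2, τ1 < τ2 → τ2 ≤ w.length → g.Wo (w.take τ1) → g.Wo (w.take τ2) →
      2 * g.p0 + 2 * g.N1 < τ2 - τ1 := by
    intro τ1 τ2 h1 h2 h3 h4
    have e : w.take τ2 = w.take τ1 ++ (w.drop τ1).take (τ2 - τ1) := by
      rw [← take_eq]; congr 1; omega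
    rw [e] at h4
    have hl : ((w.drop τ1).take (τ2 - τ1)).length = τ2 - τ1 := by
      rw [List.length_take, List.length_drop]; omega
    have := hgap _ _ h3 h4 (by
      intro h0
      rw [h0] at hl
      simp at hl
      omega)
    rw [hl] at this
    exact this
  -- first wall behind z + p0
  have hex1 : ∃ τ, g.z + g.p0 ≤ τ ∧ τ ≤ w.length ∧ g.Wo (w.take τ) :=
    ⟨w.length, by have := g.hqp; omega, le_rfl, hwend⟩
  let τ1 := Nat.find hex1
  have hτ1 := Nat.find_spec hex1
  -- spoiled places
  let Sp : Finset ℕ := (Finset.range K).filter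
    (fun k => ∃ k', k' < K ∧ k' ≠ k ∧ ¬ g.CGood BadT (w.drop (c k)) (c k'))
  let B : ℕ → Finset ℕ := fun τ => (Finset.range K).filter
      (fun k => ∃ k', k' < K ∧ k' ≠ k ∧ BadT (τ + c k' - c k - g.p0))
  let A0 : ℕ → Finset ℕ := fun τ => (Finset.range K).filter
      (fun k => ∃ k', k' < K ∧ k' ≠ k ∧ g.z + c k ≤ τ + c k' + g.N1 ∧
        τ + c k' < g.z + g.N1 + c k)
  have hthin' : ∀ τ, g.z ≤ τ + g.p0 → (B τ).card ≤ C0 := by
    intro τ hτ
    refine hthin τ hτ _ ?_
    intro k hk
    simp only [B, Finset.mem_filter, Finset.mem_range] at hk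
    exact hk
  have hA0 : ∀ τ, (A0 τ).card ≤ 1 := by
    intro τ
    rw [Finset.card_le_one]
    intro k hk l hl
    simp only [A0, Finset.mem_filter, Finset.mem_range] at hk hl
    obtain ⟨hkK, k', hk'K, hne, h1, h2⟩ := hk
    obtain ⟨hlK, l', hl'K, hne', h3, h4⟩ := hl
    exact hsp k k' l l' hkK hk'K hlK hl'K hne hne' (by omega) (by omega)
  -- analysis of one spoiled place
  have main : ∀ k ∈ Sp, k ∈ B τ1 ∨ ∃ τ, g.z ≤ τ + g.p0 + g.N1 ∧ τ < g.z + g.p0 + g.N1 ∧
      τ ≤ w.length ∧ g.Wo (w.take τ) ∧ (k ∈ A0 τ ∨ (g.z ≤ τ + g.p0 ∧ k ∈ B τ)) := by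
    intro k hk
    simp only [Sp, Finset.mem_filter, Finset.mem_range] at hk
    obtain ⟨hkK, k', hk'K, hne, hng⟩ := hk
    have hck := hc k hkK
    have hck' := hc k' hk'K
    have hexe : ∃ τ, g.z + c k ≤ τ + c k' ∧ τ ≤ w.length ∧ g.Wo (w.take τ) :=
      ⟨w.length, by have := g.hqp; omega, le_rfl, hwend⟩
    let τe := Nat.find hexe
    have hτe : g.z + c k ≤ τe + c k' ∧ τe ≤ w.length ∧ g.Wo (w.take τe) := Nat.find_spec hexe
    have hmin : ∀ m, m < τe → ¬ (g.z + c k ≤ m + c k' ∧ m ≤ w.length ∧ g.Wo (w.take m)) :=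
      fun m hm => Nat.find_min hexe hm
    have hge : c k ≤ τe := by omega
    have hend : g.CEnd (w.drop (c k)) (c k') (τe - c k) := by
      refine ⟨?_, by omega, ?_, ?_⟩
      · rw [List.length_drop]; omega
      · rw [g.wo_shift w (by omega) (by omega)]
        have : c k + (τe - c k) = τe := by omega
        rw [this]; exact hτe.2.2
      · intro t ht htl hW
        rw [g.wo_shift w (by omega) (by omega)] at hW
        exact hmin (c k + t) (by omega) ⟨by omega, by omega, hW⟩
    have hcb : g.CBad BadT (w.drop (c k)) (c k') (τe - c k) := by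
      by_contra h
      exact hng ⟨_, hend, h⟩
    rcases hcb with ⟨t, htl, hW, h1, h2⟩ | hb
    · right
      rw [g.wo_shift w (by omega) (by omega)] at hW
      refine ⟨c k + t, by omega, by omega, by omega, hW, Or.inl ?_⟩
      simp only [A0, Finset.mem_filter, Finset.mem_range]
      exact ⟨hkK, k', hk'K, hne, by omega, by omega⟩
    · have hb' : BadT (τe + c k' - c k - g.p0) := by
        have : τe + c k' - c k - g.p0 = c k' + (τe - c k) - g.p0 := by omega
        rw [this]; exact hb
      rcases Nat.lt_or_ge τe (g.z + g.p0) with h3 | h3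
      · right
        refine ⟨τe, by omega, by omega, hτe.2.1, hτe.2.2, Or.inr ⟨by omega, ?_⟩⟩
        simp only [B, Finset.mem_filter, Finset.mem_range]
        exact ⟨hkK, k', hk'K, hne, hb'⟩
      · left
        have h4 : τ1 ≤ τe := Nat.find_min' hex1 ⟨h3, hτe.2.1, hτe.2.2⟩
        have h5 : τe ≤ τ1 := Nat.find_min' hexe ⟨by
          have := hτ1.1
          change g.z + g.p0 ≤ τ1 at this
          change g.z + c k ≤ τ1 + c k'
          omega, hτ1.2.1, hτ1.2.2⟩
        have h6 : τ1 = τe := le_antisymm h4 h5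
        simp only [B, Finset.mem_filter, Finset.mem_range]
        refine ⟨hkK, k', hk'K, hne, ?_⟩
        rw [h6]; exact hb'
  have hτ1z : g.z ≤ τ1 + g.p0 := by
    have := hτ1.1
    change g.z + g.p0 ≤ τ1 at this
    omega
  have hSp : Sp.card ≤ 1 + 2 * C0 := by
    by_cases hreg : ∃ τ, g.z ≤ τ + g.p0 + g.N1 ∧ τ < g.z + g.p0 + g.N1 ∧
      τ ≤ w.length ∧ g.Wo (w.take τ)
    · obtain ⟨τ0, r1, r2, r3, r4⟩ := hreg
      by_cases hz0 : g.z ≤ τ0 + g.p0
      · have hsub : Sp ⊆ A0 τ0 ∪ (B τ0 ∪ B τ1) := by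
          intro k hk
          simp only [Finset.mem_union]
          rcases main k hk with h | ⟨τ, s1, s2, s3, s4, h⟩
          · exact Or.inr (Or.inr h)
          · have : τ = τ0 := by
              rcases Nat.lt_trichotomy τ τ0 with h5 | h5 | h5
              · have := far τ τ0 h5 r3 s4 r4
                omega
              · exact h5
              · have := far τ0 τ h5 s3 r4 s4
                omega
            subst this
            rcases h with h | h
            · exact Or.inl h
            · exact Or.inr (Or.inl h.2)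
        have h1 := Finset.card_le_card hsub
        have h2 := Finset.card_union_le (A0 τ0) (B τ0 ∪ B τ1)
        have h3 := Finset.card_union_le (B τ0) (B τ1)
        have h4 := hA0 τ0
        have h5 : (B τ0).card ≤ C0 := hthin' τ0 hz0
        have h6 : (B τ1).card ≤ C0 := hthin' τ1 hτ1z
        omega
      · have hsub : Sp ⊆ A0 τ0 ∪ B τ1 := by
          intro k hk
          simp only [Finset.mem_union]
          rcases main k hk with h | ⟨τ, s1, s2, s3, s4, h⟩
          · exact Or.inr h
          · have : τ = τ0 := by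
              rcases Nat.lt_trichotomy τ τ0 with h5 | h5 | h5
              · have := far τ τ0 h5 r3 s4 r4
                omega
              · exact h5
              · have := far τ0 τ h5 s3 r4 s4
                omega
            subst this
            rcases h with h | h
            · exact Or.inl h
            · exact absurd h.1 hz0
        have h1 := Finset.card_le_card hsub
        have h2 := Finset.card_union_le (A0 τ0) (B τ1)
        have h4 := hA0 τ0
        have h6 : (B τ1).card ≤ C0 := hthin' τ1 hτ1z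
        omega
    · have hsub : Sp ⊆ B τ1 := by
        intro k hk
        rcases main k hk with h | ⟨τ, s1, s2, s3, s4, h⟩
        · exact h
        · exact absurd ⟨τ, s1, s2, s3, s4⟩ hreg
      have h1 := Finset.card_le_card hsub
      have h6 : (B τ1).card ≤ C0 := hthin' τ1 hτ1z
      omega
  obtain ⟨I, hIc, hI⟩ := hI
  obtain ⟨k, hkI, hkS⟩ : ∃ k ∈ I, k ∉ Sp := by
    by_contra hno
    have hno' : I ⊆ Sp := by
      intro k hk
      by_contra hkS
      exact hno ⟨k, hk, hkS⟩
    have := Finset.card_le_card hno'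
    omega
  obtain ⟨hkK, hl, hr⟩ := hI k hkI
  obtain ⟨u, hu⟩ := Option.isSome_iff_exists.1 hr
  have hck := hc k hkK
  have hgood : ∀ k', k' < K → k' ≠ k → g.CGood BadT (w.drop (c k)) (c k') := by
    intro k' hk' hne
    by_contra hng
    apply hkS
    simp only [Sp, Finset.mem_filter, Finset.mem_range]
    exact ⟨hkK, k', hk', hne, hng⟩
  have et : ∀ t, t ≤ X.length → w.take t = X.take t := by
    intro t ht
    rw [hw, List.take_append_of_le_length ht]
  have ed : w.drop X.length = X2 := by
    rw [hw, List.drop_left]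
  refine ⟨w.take (c k), w.drop (c k), _, List.take_append_drop _ _, ⟨k, hkK, ?_, ?_⟩,
    ⟨k, hkK, X.length - c k, ⟨?_, ?_, ?_, ?_⟩, hgood, ?_, u, ?_, rfl⟩⟩
  · rw [List.length_take]; omega
  · rw [et _ (by omega)]; exact hl
  · rw [List.length_drop]; omega
  · omega
  · rw [g.wo_shift w (by omega) (by omega)]
    have : c k + (X.length - c k) = X.length := by omega
    rw [this, et _ le_rfl, List.take_length]
    exact hX.2.1
  · intro t ht htl hW
    rw [g.wo_shift w (by omega) (by omega), et _ (by omega)] at hW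
    exact hX.2.2 _ ht (by omega) hW
  · rw [List.drop_drop]
    have : c k + (X.length - c k) = X.length := by omega
    rw [this, ed]
    exact hX2
  · have : (w.drop (c k)).take (g.p0 - c k) = (X.take g.p0).drop (c k) := by
      rw [← et g.p0 (by omega), List.drop_take]
    rw [this]; exact hu

end Geo

end Crest.Agent.R320.Sc2n_937
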