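import Crest.Agent.R320.Half1_180

/-!
# Row 320: top of the two-scheme chain, one token system, all words (helper180)

`XX` prefix code, `Good ∪ Bad = XX`, one token system `T : List α → V → V` (block map) for both
schemes (118), scheme 1 sound on every text and complete on `Good` blocks, scheme 2 (promise)
sound on products of `Bad` blocks, complete on every product of at least two `Bad` blocks
(the right word of scheme 2 may look over the next block).
-/

set_option autoImplicit false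

namespace Crest.Agent.R320.Half1_180

open Crest.RegLang Crest.Agent.R320.Hk_851

universe u

variable {α : Type u}

/-- the words which are empty (`v = v'`) or one `Bad` block with `T Y v = v'` -/
def Short {V : Type*} (T : List α → V → V) (Bad : Set (List α)) (v v' : V) : Language α :=
  Lg (fun w => (w = [] ∧ v = v') ∨ (w ∈ Bad ∧ T w v = v'))

/-- **promise scheme, general form**: sound inside products of `Bad` blocks, complete for every
product of at least two `Bad` blocks (`P ++ Q` = first two blocks or so). -/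
theorem promise2 {V : Type*} [Finite V] {k : ℕ} {XX Bad : Set (List α)} (h : PF XX)
    (hB : Bad ⊆ XX) (hBk : HL k (Lof Bad)) (T : List α → V → V) (LP RQ : V → Language α)
    (hLP : ∀ v, HL k (LP v)) (hRQ : ∀ v, HL k (RQ v))
    (hshort : ∀ v v', HL k (Lg (fun Y => Y ∈ Bad ∧ T Y v = v')))
    (sound : ∀ v v' P Q R, P ∈ LP v → Q ∈ RQ v' → Bs Bad (P ++ (Q ++ R)) →
      Tr XX T v (P ++ Q) v' ∧ Bs Bad R)
    (compl : ∀ Y1 ∈ Bad, ∀ Y2 ∈ Bad, ∀ v, ∃ P Q, Y1 ++ Y2 = P ++ Q ∧ P ∈ LP v ∧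
      Q ∈ RQ (T Y2 (T Y1 v))) :
    Cert (k + 1) XX T (Bs Bad) := by
  classical
  let K : Language α := {u | ∃ v, u ∈ RQ v * LP v}
  have hK : HL k K := HL.iUnion fun v => (hRQ v).mul (hLP v)
  have hSh : ∀ v v', HL k (Short T Bad v v') := by
    intro v v'
    have h1 : HL k (Lg (fun w : List α => w = [] ∧ v = v')) :=
      (HL.one.inf (HL.const (v = v'))).congr fun w => Iff.rfl
    exact (h1.sup (hshort v v')).congr fun w => Iff.rfl
  have hShTr : ∀ v v' w, w ∈ Short T Bad v v' → Tr XX T v w v' := by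
    rintro v v' w (⟨rfl, rfl⟩ | ⟨hw, rfl⟩)
    · exact Tr.nil _
    · exact Tr.single (hB hw)
  have hsound : ∀ s ∈ KStar.kstar K, ∀ v v' v'' P Q E, P ∈ LP v → Q ∈ RQ v' →
      E ∈ Short T Bad v' v'' →
      Bs Bad (P ++ (s ++ (Q ++ E))) → Tr XX T v (P ++ (s ++ (Q ++ E))) v'' := by
    intro s hs
    rw [Language.mem_kstar] at hs
    obtain ⟨L, rfl, hL⟩ := hs
    induction L with
    | nil =>
      intro v v' v'' P Q E hP hQ hE hw
      obtain ⟨h1, _⟩ := sound v v' P Q E hP hQ (by simpa using hw)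
      have h3 := h1.append (hShTr _ _ _ hE)
      simpa using h3
    | cons u L ih =>
      intro v v' v'' P Q E hP hQ hE hw
      obtain ⟨v1, hu⟩ := hL u (by simp)
      obtain ⟨Q1, hQ1, P1, hP1, rfl⟩ := Language.mem_mul.1 hu
      have e' : P ++ (((Q1 ++ P1) :: L).flatten ++ (Q ++ E)) =
          P ++ (Q1 ++ (P1 ++ (L.flatten ++ (Q ++ E)))) := by simp
      rw [e'] at hw ⊢
      obtain ⟨h1, h2⟩ := sound v v1 P Q1 _ hP hQ1 hw
      have h4 := ih (fun y hy => hL y (by simp [hy])) v1 v' v'' P1 Q E hP1 hQ hE h2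
      have h5 := h1.append h4
      simpa [List.append_assoc] using h5
  have hcomp : ∀ n : ℕ, ∀ w : List α, w.length ≤ n → Bs Bad w → ∀ v v', Tr XX T v w v' →
      w ∈ Short T Bad v v' ∨ ∃ P ∈ LP v, ∃ s ∈ KStar.kstar K, ∃ v1, ∃ Q ∈ RQ v1,
        ∃ E ∈ Short T Bad v1 v', w = P ++ (s ++ (Q ++ E)) := by
    intro n
    induction n with
    | zero =>
      intro w hn hw v v' hT
      have : w = [] := List.length_eq_zero_iff.1 (Nat.le_zero.1 hn)
      subst this
      exact Or.inl (Or.inl ⟨rfl, Tr.inv_nil h hT⟩)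
    | succ n ih =>
      intro w hn hw v v' hT
      rcases Bs.inv h hB hw with rfl | ⟨Y1, hY1, w1, rfl, hw1⟩
      · exact Or.inl (Or.inl ⟨rfl, Tr.inv_nil h hT⟩)
      · have hT1 := Tr.inv h (hB hY1) hT
        rcases Bs.inv h hB hw1 with rfl | ⟨Y2, hY2, w2, rfl, hw2⟩
        · refine Or.inl (Or.inr ⟨by simpa using hY1, ?_⟩)
          simpa using Tr.inv_nil h hT1
        · right
          have hT2 := Tr.inv h (hB hY2) hT1
          obtain ⟨P, Q, hPQ, hP, hQ⟩ := compl Y1 hY1 Y2 hY2 v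
          have hlen : w2.length ≤ n := by
            have h00 : 0 < Y1.length := List.length_pos_iff.2 (h.1 Y1 (hB hY1))
            simp only [List.length_append] at hn
            omega
          rcases ih w2 hlen hw2 _ _ hT2 with hE | ⟨P', hP', s, hs, v1, Q', hQ', E, hE, e⟩
          · refine ⟨P, hP, [], Language.nil_mem_kstar _, _, Q, hQ, w2, hE, ?_⟩
            rw [← List.append_assoc Y1 Y2 w2, hPQ]; simp
          · refine ⟨P, hP, (Q ++ P') ++ s, ?_, v1, Q', hQ', E, hE, ?_⟩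
            · rw [Language.mem_kstar] at hs ⊢
              obtain ⟨L, rfl, hL⟩ := hs
              refine ⟨(Q ++ P') :: L, by simp, ?_⟩
              intro y hy
              rcases List.mem_cons.1 hy with rfl | hy
              · exact ⟨_, Language.append_mem_mul hQ hP'⟩
              · exact hL y hy
            · rw [← List.append_assoc Y1 Y2 w2, hPQ, e]; simp
  intro v v'
  have hbad : HL (k + 1) (KStar.kstar (Lof Bad)) := hBk.star
  refine ⟨((KStar.kstar (Lof Bad)) ⊓ (LP v * (KStar.kstar K *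
    Lg (fun w => ∃ v1, w ∈ RQ v1 * Short T Bad v1 v')))) + Short T Bad v v', ?_, ?_, ?_⟩
  · refine HL.add (hbad.inf (((hLP v).mono (Nat.le_succ k)).mul
      (hK.star.mul (HL.mono (Nat.le_succ k) (HL.iUnion fun v1 => (hRQ v1).mul (hSh v1 v'))))))
      ((hSh v v').mono (Nat.le_succ k))
  · intro w hw
    rcases hw with ⟨hw1, hw2⟩ | hw
    · have hw1' := bs_iff_kstar.2 hw1
      obtain ⟨P, hP, c, hc, rfl⟩ := Language.mem_mul.1 hw2
      obtain ⟨s, hs, d, ⟨v1, hd⟩, rfl⟩ := Language.mem_mul.1 hc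
      obtain ⟨Q, hQ, E, hE, rfl⟩ := Language.mem_mul.1 hd
      exact hsound s hs v v1 v' P Q E hP hQ hE hw1'
    · exact hShTr _ _ _ hw
  · intro w hw hT
    rcases hcomp w.length w le_rfl hw v v' hT with hS | ⟨P, hP, s, hs, v1, Q, hQ, E, hE, rfl⟩
    · exact Or.inr hS
    · exact Or.inl ⟨bs_iff_kstar.1 hw, Language.append_mem_mul hP
        (Language.append_mem_mul hs ⟨v1, Language.append_mem_mul hQ hE⟩)⟩

/-- read-off for a faithful additive action -/
theorem readoff_act {S V : Type*} [Monoid S] [AddCommGroup V] [Finite V] {k : ℕ}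
    {XX : Set (List α)} (h : PF XX) (f : α → S) (act : V → S → V)
    (act_zero : ∀ s, act 0 s = 0) (act_one : ∀ v, act v 1 = v)
    (act_mul : ∀ v s s', act (act v s) s' = act v (s * s'))
    (faithful : ∀ s s', (∀ v, act v s = act v s') → s = s')
    (T : List α → V → V)
    (hT : ∀ X ∈ XX, ∀ v v', T X v - T X v' = act (v - v') (X.map f).prod)
    {C : List α → Prop} (hC : ∀ w, C w → Bs XX w) (hc : Cert k XX T C) (s : S) :
    ∃ L : Language α, HL k L ∧ (∀ w ∈ L, (w.map f).prod = s) ∧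
      ∀ w, C w → (w.map f).prod = s → w ∈ L := by
  classical
  choose Z hZ1 hZ2 hZ3 using hc
  have key : ∀ {w : List α} {v v' a b : V}, Tr XX T v w a → Tr XX T v' w b →
      a - b = act (v - v') (w.map f).prod := by
    intro w v v' a b h1
    induction h1 generalizing v' b with
    | nil x =>
      intro h2
      rw [Tr.inv_nil h h2]
      simp [act_one]
    | @cons X w x y hX _ ih =>
      intro h2
      rw [ih (Tr.inv h hX h2), hT X hX, act_mul]
      simp
  refine ⟨Lg (fun w => ∃ c : V, w ∈ Lg (fun w => ∀ v : V, w ∈ Z v (act v s + c))), ?_, ?_, ?_⟩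
  · exact HL.iUnion fun c => HL.iInter fun v => hZ1 _ _
  · rintro w ⟨c, hw⟩
    refine faithful _ _ fun v => ?_
    have h1 := hZ2 _ _ w (hw v)
    have h2 := hZ2 _ _ w (hw 0)
    have h3 := key h1 h2
    rw [act_zero, sub_zero, zero_add, add_sub_cancel_right] at h3
    exact h3.symm
  · intro w hw hs
    obtain ⟨c, hc⟩ := Tr.exists (t := T) (hC w hw) (0 : V)
    refine ⟨c, fun v => ?_⟩
    obtain ⟨a, ha⟩ := Tr.exists (t := T) (hC w hw) v
    have h3 := key ha hc
    rw [sub_zero, hs] at h3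
    have h4 : act v s + c = a := by rw [← h3]; abel
    rw [h4]
    exact hZ3 _ _ w hw ha

/-- words without a block as prefix -/
def Tail (XX : Set (List α)) : Set (List α) := {E | ∀ X ∈ XX, ¬ X <+: E}

theorem exists_tail {XX : Set (List α)} (h : PF XX) (w : List α) :
    ∃ M E, w = M ++ E ∧ Bs XX M ∧ E ∈ Tail XX := by
  have : ∀ n : ℕ, ∀ w : List α, w.length ≤ n → ∃ M E, w = M ++ E ∧ Bs XX M ∧ E ∈ Tail XX := by
    intro n
    induction n with
    | zero =>
      intro w hn
      have : w = [] := List.length_eq_zero_iff.1 (Nat.le_zero.1 hn)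
      subst this
      refine ⟨[], [], rfl, Bs.nil, fun X hX hp => ?_⟩
      exact h.1 X hX (List.prefix_nil.1 hp)
    | succ n ih =>
      intro w hn
      by_cases hw : w ∈ Tail XX
      · exact ⟨[], w, rfl, Bs.nil, hw⟩
      · simp only [Tail, Set.mem_setOf_eq, not_forall, not_not] at hw
        obtain ⟨X, hX, w', rfl⟩ := hw
        have h00 : 0 < X.length := List.length_pos_iff.2 (h.1 X hX)
        have hlen : w'.length ≤ n := by
          simp only [List.length_append] at hn
          omega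
        obtain ⟨M, E, rfl, hM, hE⟩ := ih w' hlen
        exact ⟨X ++ M, E, by simp, Bs.cons hX hM, hE⟩
  exact this w.length w le_rfl

/-- **TOP**: everything from a prefix code of blocks, one token system and two schemes. -/
theorem top2 {S V : Type*} [Monoid S] [Finite S] [AddCommGroup V] [Finite V] {k : ℕ}
    (f : α → S) (act : V → S → V)
    (act_zero : ∀ s, act 0 s = 0) (act_one : ∀ v, act v 1 = v)
    (act_mul : ∀ v s s', act (act v s) s' = act v (s * s'))
    (faithful : ∀ s s', (∀ v, act v s = act v s') → s = s')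
    (XX Good Bad : Set (List α)) (h : PF XX) (hXX : XX = Good ∪ Bad)
    (T : List α → V → V)
    (hT : ∀ X ∈ XX, ∀ v v', T X v - T X v' = act (v - v') (X.map f).prod)
    -- scheme 1
    (LP1 RQ1 : V → Language α)
    (hLP1 : ∀ v, HL (k + 1) (LP1 v)) (hRQ1 : ∀ v, HL (k + 1) (RQ1 v))
    (sound1 : ∀ v v' P Q, P ∈ LP1 v → Q ∈ RQ1 v' → P ++ Q ∈ XX ∧ T (P ++ Q) v = v')
    (compl1 : ∀ X ∈ Good, ∀ v, ∃ P Q, X = P ++ Q ∧ P ∈ LP1 v ∧ Q ∈ RQ1 (T X v))
    -- scheme 2
    (hBk : HL k (Lof Bad)) (LP2 RQ2 : V → Language α)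
    (hLP2 : ∀ v, HL k (LP2 v)) (hRQ2 : ∀ v, HL k (RQ2 v))
    (hshort : ∀ v v', HL k (Lg (fun Y => Y ∈ Bad ∧ T Y v = v')))
    (sound2 : ∀ v v' P Q R, P ∈ LP2 v → Q ∈ RQ2 v' → Bs Bad (P ++ (Q ++ R)) →
      Tr XX T v (P ++ Q) v' ∧ Bs Bad R)
    (compl2 : ∀ Y1 ∈ Bad, ∀ Y2 ∈ Bad, ∀ v, ∃ P Q, Y1 ++ Y2 = P ++ Q ∧ P ∈ LP2 v ∧
      Q ∈ RQ2 (T Y2 (T Y1 v)))
    -- tails
    (htail : ∀ s, HL (k + 2) (Lg (fun E => E ∈ Tail XX ∧ (E.map f).prod = s))) (s : S) :
    HL (k + 2) ({w | (w.map f).prod = s} : Language α) := by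
  classical
  have hG : Good ⊆ XX := hXX ▸ Set.subset_union_left
  have hB : Bad ⊆ XX := hXX ▸ Set.subset_union_right
  have c1 : Cert (k + 1) XX T (Bs Bad) :=
    promise2 h hB hBk T LP2 RQ2 hLP2 hRQ2 hshort sound2 compl2
  have c0 : Cert (k + 2) XX T (Bs (Good ∪ Bad)) :=
    step h hG hB T LP1 RQ1 hLP1 hRQ1 sound1 compl1 c1
  have c := readoff_act h f act act_zero act_one act_mul faithful T hT
    (fun w hw => hXX ▸ hw) c0
  choose L hL1 hL2 hL3 using c
  have hfin : HL (k + 2) (Lg (fun w => ∃ p : S × S, w ∈ (Lg (fun _ => p.1 * p.2 = s)) ⊓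
      (L p.1 * Lg (fun E => E ∈ Tail XX ∧ (E.map f).prod = p.2)))) :=
    HL.iUnion fun p => (HL.const _).inf ((hL1 p.1).mul (htail p.2))
  refine hfin.congr fun w => ?_
  constructor
  · intro hs
    have hs' : (w.map f).prod = s := hs
    obtain ⟨M, E, rfl, hM, hE⟩ := exists_tail h w
    refine ⟨((M.map f).prod, (E.map f).prod), ?_,
      Language.append_mem_mul (hL3 _ M (hXX ▸ hM) rfl) ⟨hE, rfl⟩⟩
    change (M.map f).prod * (E.map f).prod = s
    rw [← hs']; simp
  · rintro ⟨⟨p1, p2⟩, hp, hw'⟩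
    obtain ⟨M, hM, E, ⟨_, hE⟩, rfl⟩ := Language.mem_mul.1 hw'
    have e := hL2 _ M hM
    have hp' : p1 * p2 = s := hp
    change ((M ++ E).map f).prod = s
    rw [List.map_append, List.prod_append, e, hE, hp']

end Crest.Agent.R320.Half1_180
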