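import Mathlib

set_option autoImplicit false

/-! Name code by CRT (helper755 #12640 (A)+(B)). -/

namespace Crest.Agent.R320.Names_570

/-- sign of a residue modulo an odd number: `true` = lower half, `false` = upper half -/
def SP (m : ℕ) (e : Bool) (x : ℕ) : Prop :=
  if e then (0 < x % m ∧ 2 * (x % m) < m) else (m < 2 * (x % m))

lemma SP_exists {m : ℕ} (hm : m % 2 = 1) {x : ℕ} (hx : ¬ m ∣ x) : ∃ e, SP m e x := by
  have h0 : x % m ≠ 0 := fun h => hx (Nat.dvd_of_mod_eq_zero h)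
  rcases lt_or_ge (2 * (x % m)) m with h | h
  · exact ⟨true, by simp only [SP, if_true]; exact ⟨Nat.pos_of_ne_zero h0, h⟩⟩
  · refine ⟨false, ?_⟩
    simp only [SP, Bool.false_eq_true, if_false]
    omega

lemma SP_not_dvd {m : ℕ} (e : Bool) {x : ℕ} (hm : 0 < m) (h : SP m e x) : ¬ m ∣ x := by
  intro hd
  have h0 := Nat.mod_eq_zero_of_dvd hd
  cases e <;> simp only [SP, Bool.false_eq_true, if_false, if_true] at h <;> omega

lemma SP_unique {m : ℕ} {e e' : Bool} {x : ℕ} (h : SP m e x) (h' : SP m e' x) : e = e' := by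
  cases e <;> cases e' <;>
    simp only [SP, Bool.false_eq_true, if_false, if_true] at h h' <;> first | rfl | omega

/-- two residues of the same sign do not add up to zero -/
lemma SP_add {m : ℕ} (hm : m % 2 = 1) {e : Bool} {x y : ℕ} (h : SP m e x) (h' : SP m e y) :
    ¬ m ∣ x + y := by
  have hm0 : 0 < m := by omega
  intro hd
  have hxy : (x % m + y % m) % m = 0 := by
    rw [← Nat.add_mod]; exact Nat.mod_eq_zero_of_dvd hd
  have hx := Nat.mod_lt x hm0
  have hy := Nat.mod_lt y hm0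
  cases e
  · simp only [SP, Bool.false_eq_true, if_false] at h h'
    have h1 : (x % m + y % m) = m + (x % m + y % m - m) := by omega
    rw [h1, Nat.add_mod_left, Nat.mod_eq_of_lt (by omega)] at hxy
    omega
  · simp only [SP, if_true] at h h'
    rw [Nat.mod_eq_of_lt (by omega)] at hxy
    omega

lemma SP_congr {m : ℕ} {e : Bool} {x y : ℕ} (h : x % m = y % m) : SP m e x ↔ SP m e y := by
  unfold SP; rw [h]

section Core

variable {L J C : Type*} (q q' : L → ℕ) (mo : J → ℕ) (ty : L → J → Bool) (ep : L → J → Bool)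

/-- left side shows the pattern of the name `c` at clock value `t` -/
def LG (c : L) (t : ℕ) : Prop :=
  (∀ l, l ≠ c → ¬ q l ∣ t ∧ q' l ∣ t) ∧ (q c ∣ t ∧ ¬ q' c ∣ t) ∧
  (∀ j, if ty c j then SP (mo j) (ep c j) t else mo j ∣ t)

/-- right side shows the pattern of the name `c` at clock value `t` -/
def RG (c : L) (t : ℕ) : Prop :=
  (∀ l, l ≠ c → q l ∣ t ∧ ¬ q' l ∣ t) ∧ (¬ q c ∣ t ∧ q' c ∣ t) ∧
  (∀ j, if ty c j then mo j ∣ t else SP (mo j) (ep c j) t)

variable {q q' mo ty ep}

lemma LG_unique {c d : L} {t : ℕ} (h : LG q q' mo ty ep c t) (h' : LG q q' mo ty ep d t) :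
    c = d := by
  by_contra hne
  exact (h.1 d (fun e => hne e.symm)).1 h'.2.1.1

lemma RG_unique {c d : L} {t : ℕ} (h : RG q q' mo ty ep c t) (h' : RG q q' mo ty ep d t) :
    c = d := by
  by_contra hne
  exact h'.2.1.1 (h.1 d (fun e => hne e.symm)).1

/-- different names: moduli dividing the total -/
lemma ne_dvd {c c' : L} {t t' : ℕ} (h : LG q q' mo ty ep c t) (h' : RG q q' mo ty ep c' t')
    (hne : c ≠ c') : q c ∣ t + t' ∧ q' c' ∣ t + t' :=
  ⟨dvd_add h.2.1.1 (h'.1 c hne).1, dvd_add (h.1 c' (fun e => hne e.symm)).2 h'.2.1.2⟩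

lemma eq_bit {c c' : L} {t t' : ℕ} (h : LG q q' mo ty ep c t) (h' : RG q q' mo ty ep c' t')
    {l : L} (h1 : l ≠ c) (h2 : l ≠ c') : ¬ q l ∣ t + t' ∧ ¬ q' l ∣ t + t' := by
  refine ⟨fun hd => (h.1 l h1).1 ?_, fun hd => (h'.1 l h2).2 ?_⟩
  · exact (Nat.dvd_add_left (h'.1 l h2).1).1 hd
  · exact (Nat.dvd_add_right (h.1 l h1).2).1 hd

lemma same_not_dvd {c : L} {t t' : ℕ} (h : LG q q' mo ty ep c t) (h' : RG q q' mo ty ep c t')
    (hmo : ∀ j, 0 < mo j) :
    (∀ l, ¬ q l ∣ t + t' ∧ ¬ q' l ∣ t + t') ∧ ∀ j, ¬ mo j ∣ t + t' := by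
  refine ⟨fun l => ?_, fun j hd => ?_⟩
  · by_cases hl : l = c
    · subst hl
      exact ⟨fun hd => h'.2.1.1 ((Nat.dvd_add_right h.2.1.1).1 hd),
        fun hd => h.2.1.2 ((Nat.dvd_add_left h'.2.1.2).1 hd)⟩
    · exact eq_bit h h' hl hl
  · have a := h.2.2 j
    have b := h'.2.2 j
    cases hty : ty c j
    · rw [hty] at a b
      simp only [Bool.false_eq_true, if_false] at a b
      exact SP_not_dvd _ (hmo j) b ((Nat.dvd_add_right a).1 hd)
    · rw [hty] at a b
      simp only [if_true] at a b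
      exact SP_not_dvd _ (hmo j) a ((Nat.dvd_add_left b).1 hd)

/-- swapped pairs at the same total need equal types xor signs -/
lemma swap {c c' : L} {t t' s s' : ℕ} (hT : t + t' = s + s')
    (h1 : LG q q' mo ty ep c t) (h2 : RG q q' mo ty ep c' t')
    (h3 : LG q q' mo ty ep c' s) (h4 : RG q q' mo ty ep c s')
    (hodd : ∀ j, mo j % 2 = 1) (j : J) :
    (xor (ty c j) (ep c j)) = (xor (ty c' j) (ep c' j)) := by
  have a1 := h1.2.2 j
  have a2 := h2.2.2 j
  have a3 := h3.2.2 j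
  have a4 := h4.2.2 j
  have hm0 : 0 < mo j := by have := hodd j; omega
  -- helper: sign of a sum with a multiple
  have key : ∀ (e : Bool) (x y : ℕ), mo j ∣ x → SP (mo j) e y → SP (mo j) e (x + y) := by
    intro e x y hx hy
    refine (SP_congr ?_).2 hy
    rw [Nat.add_mod, Nat.mod_eq_zero_of_dvd hx, zero_add, Nat.mod_mod]
  cases hc : ty c j <;> cases hc' : ty c' j <;> rw [hc] at a1 a4 <;> rw [hc'] at a2 a3 <;>
    simp only [Bool.false_eq_true, if_false, if_true] at a1 a2 a3 a4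
  · -- types 0 0 : t ≡ 0, t' ∈ S_{ep c'}, s ≡ 0, s' ∈ S_{ep c}
    have b1 := key _ _ _ a1 a2
    have b2 := key _ _ _ a3 a4
    rw [hT] at b1
    rw [SP_unique b1 b2]
  · -- ty c = 0, ty c' = 1 : t ≡ 0, t' ≡ 0 ; s ∈ S_{ep c'}, s' ∈ S_{ep c}
    have b1 : mo j ∣ s + s' := hT ▸ dvd_add a1 a2
    by_contra hne
    have he : ep c j = ep c' j := by
      revert hne; cases ep c j <;> cases ep c' j <;> simp
    rw [he] at a4
    exact SP_add (hodd j) a3 a4 b1
  · -- ty c = 1, ty c' = 0 : t ∈ S_{ep c}, t' ∈ S_{ep c'} ; s ≡ 0, s' ≡ 0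
    have b1 : mo j ∣ t + t' := hT ▸ dvd_add a3 a4
    by_contra hne
    have he : ep c j = ep c' j := by
      revert hne; cases ep c j <;> cases ep c' j <;> simp
    rw [he] at a1
    exact SP_add (hodd j) a1 a2 b1
  · -- types 1 1
    have b1 := key _ _ _ a2 a1
    have b2 := key _ _ _ a4 a3
    rw [Nat.add_comm t' t, hT] at b1
    rw [Nat.add_comm s' s] at b2
    rw [SP_unique b1 b2]

end Core

lemma exists_shift (k s M : ℕ) (hM : 0 < M) : ∃ t, s ≤ t ∧ t < s + M ∧ t % M = k % M := by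
  refine ⟨s + (k + (M - s % M)) % M, Nat.le_add_right _ _, ?_, ?_⟩
  · have := Nat.mod_lt (k + (M - s % M)) hM
    omega
  · have h1 : s % M < M := Nat.mod_lt s hM
    have h2 : (s + (k + (M - s % M)) % M) % M = (s + (k + (M - s % M))) % M := by
      rw [Nat.add_mod, Nat.mod_mod, ← Nat.add_mod]
    rw [h2]
    have h3 : s + (k + (M - s % M)) = k + M * (s / M + 1) := by
      have := Nat.div_add_mod s M
      have h4 : M * (s / M + 1) = M * (s / M) + M := by ring
      omega
    rw [h3, Nat.add_mul_mod_self_left]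

lemma mod_of_dvd_mod {m M a b : ℕ} (h : m ∣ M) (hab : a % M = b % M) : a % m = b % m := by
  have := congrArg (· % m) hab
  simpa [Nat.mod_mod_of_dvd _ h] using this

/-- distinct odd primes above a bound, indexed by a finite type -/
lemma exists_primes (I : Type*) [Finite I] (B : ℕ) :
    ∃ p : I → ℕ, Function.Injective p ∧ (∀ i, (p i).Prime) ∧ (∀ i, B < p i) ∧ ∀ i, p i % 2 = 1 := by
  classical
  have hinf : Set.Infinite ({p : ℕ | p.Prime} \ Set.Iic (B + 2)) :=
    Set.Infinite.diff Nat.infinite_setOfPred_prime (Set.finite_Iic (B + 2))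
  obtain ⟨n, ⟨e⟩⟩ := Finite.exists_equiv_fin I
  let f := hinf.natEmbedding
  refine ⟨fun i => (f (e i : ℕ)).1, ?_, ?_, ?_, ?_⟩
  · intro a b hab
    have h1 : f (e a : ℕ) = f (e b : ℕ) := Subtype.ext hab
    have h2 := f.injective h1
    exact e.injective (Fin.ext h2)
  · intro i; exact (f (e i : ℕ)).2.1
  · intro i
    have h := (f (e i : ℕ)).2.2
    simp only [Set.mem_Iic, not_le] at h
    show B < (f (e i : ℕ)).1
    omega
  · intro i
    have hp : ((f (e i : ℕ)).1).Prime := (f (e i : ℕ)).2.1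
    have h := (f (e i : ℕ)).2.2
    simp only [Set.mem_Iic, not_le] at h
    rcases hp.eq_two_or_odd with h2 | h2
    · show ((f (e i : ℕ)).1) % 2 = 1
      omega
    · exact h2

/-- pick the base name of a predicate on names -/
noncomputable def pick {L N : Type*} (b : L → N) (P : L → Prop) : Option N := by
  classical exact if h : ∃ l, P l then some (b h.choose) else none

lemma pick_some {L N : Type*} (b : L → N) (P : L → Prop) (hP : ∀ l l', P l → P l' → l = l')
    {l : L} (h : P l) : pick b P = some (b l) := by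
  classical
  have hex : ∃ l, P l := ⟨l, h⟩
  unfold pick
  rw [dif_pos hex, hP _ _ hex.choose_spec h]

lemma of_pick {L N : Type*} (b : L → N) (P : L → Prop) {n : N} (h : pick b P = some n) :
    ∃ l, P l ∧ b l = n := by
  classical
  unfold pick at h
  split_ifs at h with hex
  exact ⟨hex.choose, hex.choose_spec, by simpa using h⟩

/-- **Name code.** `N` = names, `C` = colours.  `nmL`, `nmR` = name shown by the left / right
clock; `T = t + t'` is unknown to both sides. -/
theorem exists_names {N C : Type*} [Finite N] [Finite C] (col : N → C) :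
    ∃ r : ℕ, ∀ B : ℕ, ∃ (Ms : Finset ℕ) (nmL nmR : ℕ → Option N),
      Ms.card ≤ r ∧ (∀ m ∈ Ms, m.Prime ∧ B < m) ∧
      (∀ t, nmL (t + ∏ m ∈ Ms, m) = nmL t) ∧ (∀ t, nmR (t + ∏ m ∈ Ms, m) = nmR t) ∧
      (∀ t t' c c', (∀ m ∈ Ms, ¬ m ∣ t + t') → nmL t = some c → nmR t' = some c' → c = c') ∧
      (∀ T c s, (∀ m ∈ Ms, ¬ m ∣ T) → s + ∏ m ∈ Ms, m ≤ T + 1 →
        ∃ t, s ≤ t ∧ t < s + ∏ m ∈ Ms, m ∧ t ≤ T ∧ nmL t = some c ∧ nmR (T - t) = some c) ∧
      (∀ t1 t1' t2 t2' c1 c1' c2 c2', t1 + t1' = t2 + t2' → (∃ m ∈ Ms, m ∣ t1 + t1') →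
        nmL t1 = some c1 → nmR t1' = some c1' → nmL t2 = some c2 → nmR t2' = some c2' →
        (c1 = c2 ∧ c1' = c2') ∨ (c1 = c2' ∧ c1' = c2 ∧ col c1 = col c1')) := by
  classical
  haveI := Fintype.ofFinite N
  haveI := Fintype.ofFinite C
  let L := (C → Bool) × N
  let I := L ⊕ L ⊕ C
  refine ⟨Fintype.card I, fun B => ?_⟩
  obtain ⟨p, hpinj, hpp, hpB, hpodd⟩ := exists_primes I B
  let q : L → ℕ := fun l => p (Sum.inl l)
  let q' : L → ℕ := fun l => p (Sum.inr (Sum.inl l))
  let mo : C → ℕ := fun j => p (Sum.inr (Sum.inr j))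
  let code : C → C → Bool := fun c j => decide (c = j)
  let ep : L → C → Bool := fun l j => l.1 j
  let ty : L → C → Bool := fun l j => xor (code (col l.2) j) (l.1 j)
  let Ms : Finset ℕ := Finset.univ.image p
  let nmL : ℕ → Option N := fun t => pick (fun l : L => l.2) (fun l => LG q q' mo ty ep l t)
  let nmR : ℕ → Option N := fun t => pick (fun l : L => l.2) (fun l => RG q q' mo ty ep l t)
  have hMprod : ∏ m ∈ Ms, m = ∏ i, p i := by
    show ∏ m ∈ Finset.univ.image p, m = _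
    rw [Finset.prod_image (fun a _ b _ h => hpinj h)]
  have hpos : ∀ i, 0 < p i := fun i => (hpp i).pos
  have hMpos : 0 < ∏ m ∈ Ms, m := by
    rw [hMprod]; exact Finset.prod_pos (fun i _ => hpos i)
  have hdvdM : ∀ i, p i ∣ ∏ m ∈ Ms, m := by
    intro i; rw [hMprod]; exact Finset.dvd_prod_of_mem p (Finset.mem_univ i)
  have hmem : ∀ i, p i ∈ Ms := fun i => Finset.mem_image_of_mem p (Finset.mem_univ i)
  have hmo : ∀ j, 0 < mo j := fun j => hpos _
  have hodd : ∀ j, mo j % 2 = 1 := fun j => hpodd _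
  -- congruence invariance
  have hLGc : ∀ l t t', (∀ i, t % p i = t' % p i) →
      (LG q q' mo ty ep l t ↔ LG q q' mo ty ep l t') := by
    intro l t t' h
    have hd : ∀ i, (p i ∣ t ↔ p i ∣ t') := by
      intro i; rw [Nat.dvd_iff_mod_eq_zero, Nat.dvd_iff_mod_eq_zero, h i]
    have hs : ∀ j e, (SP (mo j) e t ↔ SP (mo j) e t') := fun j e => SP_congr (h _)
    have hdq : ∀ l, (q l ∣ t ↔ q l ∣ t') := fun l => hd _
    have hdq' : ∀ l, (q' l ∣ t ↔ q' l ∣ t') := fun l => hd _
    have hdm : ∀ j, (mo j ∣ t ↔ mo j ∣ t') := fun l => hd _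
    simp only [LG, hdq, hdq', hdm, hs]
  have hRGc : ∀ l t t', (∀ i, t % p i = t' % p i) →
      (RG q q' mo ty ep l t ↔ RG q q' mo ty ep l t') := by
    intro l t t' h
    have hd : ∀ i, (p i ∣ t ↔ p i ∣ t') := by
      intro i; rw [Nat.dvd_iff_mod_eq_zero, Nat.dvd_iff_mod_eq_zero, h i]
    have hs : ∀ j e, (SP (mo j) e t ↔ SP (mo j) e t') := fun j e => SP_congr (h _)
    have hdq : ∀ l, (q l ∣ t ↔ q l ∣ t') := fun l => hd _
    have hdq' : ∀ l, (q' l ∣ t ↔ q' l ∣ t') := fun l => hd _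
    have hdm : ∀ j, (mo j ∣ t ↔ mo j ∣ t') := fun l => hd _
    simp only [RG, hdq, hdq', hdm, hs]
  have hper : ∀ t i, (t + ∏ m ∈ Ms, m) % p i = t % p i := by
    intro t i
    obtain ⟨k, hk⟩ := hdvdM i
    rw [hk, Nat.add_mul_mod_self_left]
  have hLu : ∀ t, ∀ l l' : L, LG q q' mo ty ep l t → LG q q' mo ty ep l' t → l = l' :=
    fun t l l' h h' => LG_unique h h'
  have hRu : ∀ t, ∀ l l' : L, RG q q' mo ty ep l t → RG q q' mo ty ep l' t → l = l' :=
    fun t l l' h h' => RG_unique h h'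
  refine ⟨Ms, nmL, nmR, ?_, ?_, ?_, ?_, ?_, ?_, ?_⟩
  · exact Finset.card_image_le
  · intro m hm
    obtain ⟨i, -, rfl⟩ := Finset.mem_image.1 hm
    exact ⟨hpp i, hpB i⟩
  · intro t
    show pick _ _ = pick _ _
    congr 1
    funext l
    exact propext (hLGc l _ _ (hper t))
  · intro t
    show pick _ _ = pick _ _
    congr 1
    funext l
    exact propext (hRGc l _ _ (hper t))
  · intro t t' c c' hT h h'
    obtain ⟨l, hl, rfl⟩ := of_pick _ _ h
    obtain ⟨l', hl', rfl⟩ := of_pick _ _ h'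
    by_contra hne
    have hne' : l ≠ l' := fun e => hne (by rw [e])
    exact hT _ (hmem (Sum.inl l)) (ne_dvd hl hl' hne').1
  · intro T c s hT hs
    have hTi : ∀ i, ¬ p i ∣ T := fun i => hT _ (hmem i)
    choose eps heps using fun j => SP_exists (hodd j) (hTi (Sum.inr (Sum.inr j)))
    let l0 : L := (eps, c)
    let ρ : I → ℕ := fun i => match i with
      | Sum.inl l => if l = l0 then 0 else T
      | Sum.inr (Sum.inl l) => if l = l0 then T else 0
      | Sum.inr (Sum.inr j) => if ty l0 j then T else 0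
    obtain ⟨k, hk⟩ := Nat.chineseRemainderOfFinset ρ p Finset.univ
      (fun i _ => (hpos i).ne') (by
        intro a _ b _ hab
        exact (Nat.coprime_primes (hpp a) (hpp b)).2 (fun e => hab (hpinj e)))
    obtain ⟨t, ht1, ht2, ht3⟩ := exists_shift k s _ hMpos
    have htT : t ≤ T := by omega
    have htm : ∀ i, t % p i = ρ i % p i := by
      intro i
      rw [mod_of_dvd_mod (hdvdM i) ht3]
      exact hk i (Finset.mem_univ i)
    have hz : ∀ i, ρ i = 0 → p i ∣ t := by
      intro i hi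
      have := htm i
      rw [hi, Nat.zero_mod] at this
      exact Nat.dvd_of_mod_eq_zero this
    have hTT : ∀ i, ρ i = T → p i ∣ T - t := by
      intro i hi
      have := htm i
      rw [hi] at this
      exact (Nat.modEq_iff_dvd' htT).1 this
    have hsum : t + (T - t) = T := Nat.add_sub_cancel' htT
    have hnz : ∀ i, p i ∣ t → ¬ p i ∣ T - t := fun i h h' => hTi i (hsum ▸ dvd_add h h')
    have hnz' : ∀ i, p i ∣ T - t → ¬ p i ∣ t := fun i h h' => hnz i h' h
    have hmodT : ∀ i, p i ∣ T - t → t % p i = T % p i := by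
      intro i h
      exact (Nat.modEq_iff_dvd' htT).2 h
    have hmodT' : ∀ i, p i ∣ t → (T - t) % p i = T % p i := by
      intro i h
      conv_rhs => rw [← hsum]
      rw [Nat.add_mod, Nat.mod_eq_zero_of_dvd h, zero_add, Nat.mod_mod]
    have hq : ∀ l, l ≠ l0 → q l ∣ T - t := by
      intro l hl; exact hTT (Sum.inl l) (by simp [ρ, hl])
    have hq0 : q l0 ∣ t := hz (Sum.inl l0) (by simp [ρ])
    have hq' : ∀ l, l ≠ l0 → q' l ∣ t := by
      intro l hl; exact hz (Sum.inr (Sum.inl l)) (by simp [ρ, hl])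
    have hq'0 : q' l0 ∣ T - t := hTT (Sum.inr (Sum.inl l0)) (by simp [ρ])
    have hLG : LG q q' mo ty ep l0 t := by
      refine ⟨fun l hl => ⟨hnz' _ (hq l hl), hq' l hl⟩, ⟨hq0, hnz' _ hq'0⟩, fun j => ?_⟩
      cases hty : ty l0 j
      · simp only [Bool.false_eq_true, if_false]
        exact hz (Sum.inr (Sum.inr j)) (by simp [ρ, hty])
      · simp only [if_true]
        have h1 : mo j ∣ T - t := hTT (Sum.inr (Sum.inr j)) (by simp [ρ, hty])
        exact (SP_congr (hmodT (Sum.inr (Sum.inr j)) h1)).2 (heps j)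
    have hRG : RG q q' mo ty ep l0 (T - t) := by
      refine ⟨fun l hl => ⟨hq l hl, hnz _ (hq' l hl)⟩, ⟨hnz _ hq0, hq'0⟩, fun j => ?_⟩
      cases hty : ty l0 j
      · simp only [Bool.false_eq_true, if_false]
        have h1 : mo j ∣ t := hz (Sum.inr (Sum.inr j)) (by simp [ρ, hty])
        exact (SP_congr (hmodT' (Sum.inr (Sum.inr j)) h1)).2 (heps j)
      · simp only [if_true]
        exact hTT (Sum.inr (Sum.inr j)) (by simp [ρ, hty])
    exact ⟨t, ht1, ht2, htT, pick_some _ _ (hLu t) hLG, pick_some _ _ (hRu _) hRG⟩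
  · intro t1 t1' t2 t2' c1 c1' c2 c2' hT hbad h1 h1' h2 h2'
    obtain ⟨l1, hl1, rfl⟩ := of_pick _ _ h1
    obtain ⟨l1', hl1', rfl⟩ := of_pick _ _ h1'
    obtain ⟨l2, hl2, rfl⟩ := of_pick _ _ h2
    obtain ⟨l2', hl2', rfl⟩ := of_pick _ _ h2'
    have hbad' : ∀ (l : L) (t t' : ℕ), LG q q' mo ty ep l t → RG q q' mo ty ep l t' →
        (∃ m ∈ Ms, m ∣ t + t') → False := by
      intro l t t' h h' ⟨m, hm, hd⟩
      obtain ⟨i, -, rfl⟩ := Finset.mem_image.1 hm
      have hs := same_not_dvd h h' hmo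
      rcases i with l | l | j
      · exact (hs.1 l).1 hd
      · exact (hs.1 l).2 hd
      · exact hs.2 j hd
    have hne1 : l1 ≠ l1' := by
      rintro rfl; exact hbad' _ _ _ hl1 hl1' hbad
    have hne2 : l2 ≠ l2' := by
      rintro rfl; exact hbad' _ _ _ hl2 hl2' (hT ▸ hbad)
    have hd1 := ne_dvd hl1 hl1' hne1
    have hd2 := ne_dvd hl2 hl2' hne2
    -- l2 ∈ {l1, l1'}
    have hm2 : l2 = l1 ∨ l2 = l1' := by
      by_contra hcon
      push_neg at hcon
      exact (eq_bit hl1 hl1' hcon.1 hcon.2).1 (hT ▸ hd2.1)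
    have hm2' : l2' = l1 ∨ l2' = l1' := by
      by_contra hcon
      push_neg at hcon
      exact (eq_bit hl1 hl1' hcon.1 hcon.2).2 (hT ▸ hd2.2)
    rcases hm2 with e | e
    · have e' : l2' = l1' := by
        rcases hm2' with e' | e'
        · exact absurd (e.trans e'.symm) hne2
        · exact e'
      left; exact ⟨by rw [e], by rw [e']⟩
    · have e' : l2' = l1 := by
        rcases hm2' with e' | e'
        · exact e'
        · exact absurd (e.trans e'.symm) hne2
      right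
      refine ⟨by rw [e'], by rw [e], ?_⟩
      have hcode : code (col l1.2) = code (col l1'.2) := by
        funext j
        have := swap hT hl1 hl1' (e ▸ hl2) (e' ▸ hl2') hodd j
        simpa [ty, ep] using this
      have := congrFun hcode (col l1.2)
      simp only [code, decide_true] at this
      exact (of_decide_eq_true this.symm).symm

end Crest.Agent.R320.Names_570
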