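import Crest.Agent.R320.Zone132_898
import Crest.Agent.R320.Names_570
import Crest.Agent.R320.RandF_808

/-!
# Row 320, scheme 1 of the two scheme chain (132 #12664, 811 #12631): closed existence theorem

`Zone132_898` (the gadget with names and noise as hypotheses) together with `Names_570`
(755 #12640 (A) (B)) and `RandF_808` (237 #12538): no hypothesis left.  The left languages are
finite and the right languages are regular.
-/

namespace Crest.Agent.R320.Zone132b_898

open Finset Crest.Agent.R320.Zone132_898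

universe u

/-- a language which depends on a bounded prefix, the type of the rest and the length modulo `N`
is regular -/
theorem isRegular_of_inv {α : Type u} {S : Type*} [Finite α] [Finite S] [Monoid S]
    (phi : List α → S) (hphi : ∀ u v, phi (u ++ v) = phi u * phi v) (L0 N : ℕ) (hN : 0 < N)
    (Φ : List α → S → ℕ → Prop) :
    Language.IsRegular ({Q | Φ (Q.take L0) (phi (Q.drop L0)) (Q.length % N)} : Language α) := by
  apply Language.IsRegular.of_finite_range_leftQuotient
  let f : List α × S × ℕ → Language α := fun p =>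
    {y | Φ (p.1 ++ y.take (L0 - p.1.length)) (p.2.1 * phi (y.drop (L0 - p.1.length)))
      ((p.2.2 + y.length) % N)}
  have hfin : ((({l : List α | l.length ≤ L0}) ×ˢ
      ((Set.univ : Set S) ×ˢ Set.Iio N))).Finite :=
    (List.finite_length_le α L0).prod (Set.finite_univ.prod (Set.finite_Iio N))
  refine (hfin.image f).subset ?_
  rintro _ ⟨x, rfl⟩
  refine ⟨(x.take L0, phi (x.drop L0), x.length % N), ⟨?_, trivial, Nat.mod_lt _ hN⟩, ?_⟩
  · simp only [Set.mem_ofPred_eq, List.length_take]; omega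
  · ext y
    have h1 : L0 - (x.take L0).length = L0 - x.length := by
      rw [List.length_take]; omega
    have h2 : (x ++ y).take L0 = x.take L0 ++ y.take (L0 - (x.take L0).length) := by
      rw [h1, List.take_append]
    have h3 : phi ((x ++ y).drop L0)
        = phi (x.drop L0) * phi (y.drop (L0 - (x.take L0).length)) := by
      rw [h1, ← hphi, List.drop_append]
    have h4 : (x ++ y).length % N = (x.length % N + y.length) % N := by
      rw [List.length_append, Nat.mod_add_mod]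
    change Φ _ _ _ ↔ Φ ((x ++ y).take L0) (phi ((x ++ y).drop L0)) ((x ++ y).length % N)
    rw [h2, h3, h4]

section

variable {α : Type u} {S V W : Type*} [Monoid S] [AddCommGroup V] [AddCommGroup W]

theorem FW_take (r : Rule α) {Q : List α} {L0 y t : ℕ} (h : t + r.n ≤ L0) :
    FW r Q y t ↔ FW r (Q.take L0) y t := by
  constructor
  · intro h1
    have h2 := h1.len
    rw [← List.take_append_drop L0 Q] at h1
    refine h1.of_left ?_
    rw [List.length_take]
    omega
  · intro h1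
    have := h1.left (Q := Q.drop L0)
    rwa [List.take_append_drop] at this

omit [Monoid S] in
theorem zt_take (phi : List α → S) {Q : List α} {L0 a b : ℕ} (h : b ≤ L0) :
    zt phi Q a b = zt phi (Q.take L0) a b := by
  unfold zt
  rcases le_or_gt a b with h1 | h1
  · rw [List.drop_take, List.take_take, min_eq_left (by omega)]
  · rw [show b - a = 0 by omega]; simp

/-- the left languages are finite -/
theorem finite_LL (D : Data α S V W) [Finite α] (v : V) : {P | D.LL P v}.Finite := by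
  obtain ⟨N, hN⟩ : ∃ N, ∀ i, i < D.m → D.q * (D.lo i + D.M) ≤ N := by
    refine ⟨∑ i ∈ range D.m, D.q * (D.lo i + D.M), fun i hi => ?_⟩
    exact Finset.single_le_sum (f := fun i => D.q * (D.lo i + D.M))
      (fun _ _ => Nat.zero_le _) (Finset.mem_range.2 hi)
  refine (List.finite_length_le α N).subset ?_
  rintro P ⟨c, om, H, hP, hi, -, hhi, -⟩
  have h1 := hN c.i hi
  have h2 : D.q * om ≤ D.q * (D.lo c.i + D.M) := Nat.mul_le_mul_left _ (by omega)
  simp only [Set.mem_ofPred_eq]
  omega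

/-- the right languages are regular -/
theorem regular_RR (D : Data α S V W) [Finite α] [Finite S] (hM : 0 < D.M)
    (hper : ∀ t, D.RN (t + D.M) = D.RN t) (b : V) :
    Language.IsRegular ({Q | D.RR Q b} : Language α) := by
  have hper' : ∀ t, D.RN t = D.RN (t % D.M) := by
    intro t
    have h1 : ∀ k s, D.RN (s + D.M * k) = D.RN s := by
      intro k
      induction k with
      | zero => intro s; simp
      | succ k ih => intro s; rw [Nat.mul_succ, ← Nat.add_assoc, hper, ih]
    conv_lhs => rw [← Nat.mod_add_div t D.M]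
    exact h1 _ _
  set L0 : ℕ := D.A D.m + D.G + D.r.n with hL0
  let Φ : List α → S → ℕ → Prop := fun X s r =>
    ∃ (c : Ctx S V W) (t : ℕ → ℕ), c.i < D.m ∧ D.RN (r / D.q) = some c ∧ D.Good c ∧
    (∀ k, c.i < k → k ≤ D.m → FW D.r X (D.A k - D.q * (D.lo c.i + D.M - 1)) (t k) ∧
      D.A k - D.q * D.lo c.i ≤ t k ∧ t k ≤ D.A k + D.G) ∧
      c.h = D.phi (X.drop (t (c.i + 1))) * s ∧
    c.wr = ∑ k ∈ Ico (c.i + 1) D.m, D.e k (zt D.phi X (t k) (t (k + 1))) ∧ b = D.bval c
  have key : ({Q | D.RR Q b} : Set (List α)) =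
      {Q | Φ (Q.take L0) (D.phi (Q.drop L0)) (Q.length % (D.q * D.M))} := by
    ext Q
    have hRN : D.RN (Q.length % (D.q * D.M) / D.q) = D.RN (Q.length / D.q) := by
      rw [Nat.mod_mul_right_div_self, ← hper']
    have hA : ∀ k, k ≤ D.m → D.A k + D.G + D.r.n ≤ L0 := by
      intro k hk
      have := D.monoA hk
      omega
    have hdrop : ∀ t, t ≤ L0 → D.phi (Q.drop t) = D.phi ((Q.take L0).drop t) *
        D.phi (Q.drop L0) := by
      intro t ht
      rw [← D.hphi]
      congr 1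
      rw [List.drop_take]
      conv_lhs => rw [← List.take_append_drop (L0 - t) (Q.drop t)]
      rw [List.drop_drop, show t + (L0 - t) = L0 by omega]
    simp only [Set.mem_ofPred_eq, Φ, Data.RR]
    apply exists_congr
    intro c
    apply exists_congr
    intro t
    rw [hRN]
    constructor
    · rintro ⟨h1, h2, h3, h4, h5, h6, h7⟩
      refine ⟨h1, h2, h3, ?_, ?_, ?_, h7⟩
      · intro k hk hk'
        obtain ⟨g1, g2, g3⟩ := h4 k hk hk'
        exact ⟨(FW_take D.r (by have := hA k hk'; omega)).1 g1, g2, g3⟩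
      · obtain ⟨g1, g2, g3⟩ := h4 (c.i + 1) (by omega) (by omega)
        rw [h5, hdrop _ (by have := hA (c.i + 1) (by omega); omega)]
      · rw [h6]
        apply Finset.sum_congr rfl
        intro k hk
        rw [Finset.mem_Ico] at hk
        obtain ⟨g1, g2, g3⟩ := h4 (k + 1) (by omega) (by omega)
        rw [zt_take D.phi (L0 := L0) (by have := hA (k + 1) (by omega); omega)]
    · rintro ⟨h1, h2, h3, h4, h5, h6, h7⟩
      refine ⟨h1, h2, h3, ?_, ?_, ?_, h7⟩
      · intro k hk hk'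
        obtain ⟨g1, g2, g3⟩ := h4 k hk hk'
        exact ⟨(FW_take D.r (by have := hA k hk'; omega)).2 g1, g2, g3⟩
      · obtain ⟨g1, g2, g3⟩ := h4 (c.i + 1) (by omega) (by omega)
        rw [h5]
        exact (hdrop _ (by have := hA (c.i + 1) (by omega); omega)).symm
      · rw [h6]
        apply Finset.sum_congr rfl
        intro k hk
        rw [Finset.mem_Ico] at hk
        obtain ⟨g1, g2, g3⟩ := h4 (k + 1) (by omega) (by omega)
        rw [← zt_take D.phi (Q := Q) (L0 := L0) (by have := hA (k + 1) (by omega); omega)]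
  have hreg := isRegular_of_inv D.phi D.hphi L0 (D.q * D.M) (Nat.mul_pos D.hq hM) Φ
  have key' : ({Q | D.RR Q b} : Language α) =
      ({Q | Φ (Q.take L0) (D.phi (Q.drop L0)) (Q.length % (D.q * D.M))} : Language α) := key
  rw [key']
  exact hreg

end

section

variable {S V W : Type*} [Monoid S] [AddCommGroup V] [AddCommGroup W]

/-- the names of 755 / 570 as contexts -/
theorem exists_ctx_names [Finite S] [Finite V] [Finite W] (act : V → S → V) (e : ℕ → S → W)
    (F : S → W → V) (m : ℕ) :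
    ∃ r : ℕ, ∀ B0 : ℕ, ∃ (Ms : Finset ℕ) (LN RN : ℕ → Option (Ctx S V W)),
      Ms.card ≤ r ∧ (∀ p ∈ Ms, p.Prime ∧ B0 < p) ∧
      (∀ t, LN (t + ∏ p ∈ Ms, p) = LN t) ∧ (∀ t, RN (t + ∏ p ∈ Ms, p) = RN t) ∧
      ∀ (α : Type u) (D : Data α S V W), D.act = act → D.e = e → D.F = F → D.m = m →
        D.M = ∏ p ∈ Ms, p → D.LN = LN → D.RN = RN → D.B = (fun n => ∃ p ∈ Ms, p ∣ n) →
        D.N1 ∧ D.N2 ∧ D.N3 := by
  classical
  let N := Fin m × S × W × S × W × V
  let toCtx : N → Ctx S V W := fun n =>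
    { i := n.1, g := n.2.1, wl := n.2.2.1, h := n.2.2.2.1, wr := n.2.2.2.2.1, v := n.2.2.2.2.2 }
  let bv : Ctx S V W → V := fun c =>
    F (c.g * 1 * c.h) (c.wl + e c.i 1 + c.wr) + act c.v (c.g * 1 * c.h)
  let col : N → V × V := fun n => ((toCtx n).v, bv (toCtx n))
  obtain ⟨r, hr⟩ := Names_570.exists_names col
  refine ⟨r, fun B0 => ?_⟩
  obtain ⟨Ms, nmL, nmR, hcard, hprime, hpL, hpR, hN1, hN3, hN2⟩ := hr B0
  refine ⟨Ms, fun t => (nmL t).map toCtx, fun t => (nmR t).map toCtx, hcard, hprime,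
    fun t => by simp only [hpL], fun t => by simp only [hpR], ?_⟩
  intro α D hact he hF hm hM hLN hRN hB
  have hbv : ∀ c, D.bval c = bv c := by
    intro c
    simp only [Data.bval, Data.val, hact, he, hF, bv]
  refine ⟨?_, ?_, ?_⟩
  · intro om om' c c' h1 h2 h3
    rw [hLN] at h2
    rw [hRN] at h3
    rw [hB] at h1
    obtain ⟨n, hn, rfl⟩ := Option.map_eq_some_iff.1 h2
    obtain ⟨n', hn', rfl⟩ := Option.map_eq_some_iff.1 h3
    rw [hN1 om om' n n' (fun p hp hd => h1 ⟨p, hp, hd⟩) hn hn']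
  · rintro n ⟨p1, p2⟩ ⟨p1', p2'⟩ h1 ⟨o1, o1', ho, hL, -, hR, -⟩ ⟨o2, o2', ho', hL', -, hR', -⟩
    rw [hLN] at hL hL'
    rw [hRN] at hR hR'
    rw [hB] at h1
    obtain ⟨n1, hn1, rfl⟩ := Option.map_eq_some_iff.1 hL
    obtain ⟨n2, hn2, rfl⟩ := Option.map_eq_some_iff.1 hR
    obtain ⟨n3, hn3, rfl⟩ := Option.map_eq_some_iff.1 hL'
    obtain ⟨n4, hn4, rfl⟩ := Option.map_eq_some_iff.1 hR'
    have h5 := hN2 o1 o1' o2 o2' n1 n2 n3 n4 (by omega) (by rw [ho]; exact h1) hn1 hn2 hn3 hn4
    simp only [hbv]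
    rcases h5 with ⟨rfl, rfl⟩ | ⟨rfl, rfl, hc⟩
    · exact ⟨rfl, rfl⟩
    · have hc1 : (toCtx n1).v = (toCtx n2).v := congrArg Prod.fst hc
      have hc2 : bv (toCtx n1) = bv (toCtx n2) := congrArg Prod.snd hc
      exact ⟨hc1, hc2.symm⟩
  · intro n c s h1 h2 h3 h4
    rw [hB] at h1
    rw [hm] at h3
    rw [hM] at h4
    obtain ⟨t, ht1, ht2, ht3, ht4, ht5⟩ := hN3 n
      ((⟨c.i, h3⟩, c.g, c.wl, c.h, c.wr, c.v) : N) s (fun p hp hd => h1 ⟨p, hp, hd⟩) h4
    refine ⟨t, ht1, by rw [hM]; exact ht2, ht3, ?_, ?_⟩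
    · rw [hLN]
      exact Option.map_eq_some_iff.2 ⟨_, ht4, rfl⟩
    · rw [hRN]
      exact Option.map_eq_some_iff.2 ⟨_, ht5, rfl⟩

end

/-- **Scheme 1, closed form.**  `m`, `r` depend on the finite monoid `S` and the finite space `V`
with the action only.  For every bound `B0` there are at most `r` primes `> B0` (the comb moduli)
such that for every alphabet, type map, small wall rule, modulus `q`, levels `A`, cells `lo` and gap
bound `G` the zone gadget exists: sound on all words, complete on every zone word `Z` with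
no prime dividing `|Z| / q`, walls in every level window and none near a level. -/
theorem exists_scheme (S V : Type*) [Monoid S] [Fintype S] [AddCommGroup V] [Fintype V]
    (act : V → S → V) :
    ∃ m r : ℕ, ∀ B0 : ℕ, ∃ Ms : Finset ℕ, Ms.card ≤ r ∧ (∀ p ∈ Ms, p.Prime ∧ B0 < p) ∧
      ∀ (α : Type u) [Finite α] (phi : List α → S), (∀ u v, phi (u ++ v) = phi u * phi v) →
      ∀ (R : Rule α) (q : ℕ), 0 < q → ∀ A : ℕ → ℕ, Monotone A → ∀ (lo : ℕ → ℕ) (G : ℕ),
      (∀ i, i < m → A i + G + R.n ≤ q * lo i) →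
      (∀ i, i < m → q * (lo i + ∏ p ∈ Ms, p) ≤ A (i + 1)) →
      ∃ (L Rt : V → Language α) (nu : List α → V),
        (∀ v, (L v : Set (List α)).Finite) ∧ (∀ b, (Rt b).IsRegular) ∧
        (∀ P Q v b, P ∈ L v → Q ∈ Rt b → b = act v (phi (P ++ Q)) + nu (P ++ Q)) ∧
        ∀ Z : List α, (∀ p ∈ Ms, ¬ p ∣ Z.length / q) →
          (∃ H : ℕ → ℕ, ∀ k, k ≤ m → FW R Z (A k) (H k) ∧ H k ≤ A k + G) →
          (∀ k, k ≤ m → ∀ t, A k ≤ t + q * ∏ p ∈ Ms, p → t < A k + q * ∏ p ∈ Ms, p →
            ¬ R.R (Z.drop t)) →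
          (∀ i, i < m → q * (lo i + ∏ p ∈ Ms, p) ≤ Z.length) →
          ∀ v, ∃ (P Q : List α) (i om : ℕ), Z = P ++ Q ∧ i < m ∧ P.length = q * om ∧
            lo i ≤ om ∧ om < lo i + ∏ p ∈ Ms, p ∧ P ∈ L v ∧
            Q ∈ Rt (act v (phi Z) + nu Z) := by
  obtain ⟨m, N, e, F, hN, hF⟩ := RandF808.exists_noise S V act
  have : NeZero N := ⟨hN.ne'⟩
  obtain ⟨r, hr⟩ := exists_ctx_names.{u} act e F m
  refine ⟨m, r, fun B0 => ?_⟩
  obtain ⟨Ms, LN, RN, hcard, hprime, hpL, hpR, hD⟩ := hr B0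
  refine ⟨Ms, hcard, hprime, ?_⟩
  intro α _ phi hphi R q hq A hA lo G hlo hcell
  let D : Data α S V (ZMod N × ZMod N) :=
    { phi := phi, hphi := hphi, act := act, r := R, q := q, hq := hq, M := ∏ p ∈ Ms, p, m := m,
      A := A, monoA := hA, lo := lo, G := G, e := e, F := F, LN := LN, RN := RN,
      B := fun n => ∃ p ∈ Ms, p ∣ n, cell_le := hcell }
  obtain ⟨h1, h2, h3⟩ := hD α D rfl rfl rfl rfl rfl rfl rfl rfl
  have hides : D.Hides := hF
  have hM : 0 < ∏ p ∈ Ms, p := Finset.prod_pos fun p hp => (hprime p hp).1.pos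
  refine ⟨fun v => {P | D.LL P v}, fun b => {Q | D.RR Q b}, D.nu, fun v => finite_LL D v,
    fun b => regular_RR D hM hpR b, ?_, ?_⟩
  · intro P Q v b hP hQ
    exact D.sound h1 h2 hP hQ
  · rintro Z hB ⟨H, hH⟩ hnear hZ v
    exact D.complete' h1 h2 h3 hides (fun ⟨p, hp, hd⟩ => hB p hp hd) H (fun k hk => (hH k hk).1)
      (fun k hk => (hH k hk).2) hlo hnear hZ v

end Crest.Agent.R320.Zone132b_898
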