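import Crest.Agent.R320.P4_933
import Crest.Agent.R320.Zone132b_898
import Crest.Agent.R320.Sc2n_937
import Crest.Agent.R320.Top_180

/-!
# Row 320: the height-one families of 937's block form on all words (helper383)
-/

set_option autoImplicit false

namespace Crest.Agent.R320.Asm1_383

open Crest.RegLang Crest.Agent.R320.Hk_851 Crest.Agent.R320.BddReg_746
open Crest.Agent.R320.Sc2n_937 Crest.Agent.R320.Half1_180

universe u

variable {α : Type u} {S : Type*} [Monoid S]

/-- value of a word -/
def ph (f : α → S) (w : List α) : S := (w.map f).prod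

theorem ph_append (f : α → S) (u v : List α) : ph f (u ++ v) = ph f u * ph f v := by simp [ph]

/-- `F` sees only the first `L0` letters, the value of the rest and the length mod `N` -/
def DepF {β : Sort*} (f : α → S) (L0 N : ℕ) (F : List α → β) : Prop :=
  ∀ Q Q', L0 ≤ Q.length → L0 ≤ Q'.length → Q.take L0 = Q'.take L0 →
    Q.length % N = Q'.length % N → ph f (Q.drop L0) = ph f (Q'.drop L0) → F Q = F Q'

theorem DepF.mono {β : Sort*} {f : α → S} {L0 L1 N : ℕ} {F : List α → β} (h : DepF f L0 N F)
    (hL : L0 ≤ L1) : DepF f L1 N F := by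
  intro Q Q' h1 h2 h3 h4 h5
  refine h Q Q' (by omega) (by omega) ?_ h4 ?_
  · have := congrArg (fun l => l.take L0) h3
    simpa [List.take_take, Nat.min_eq_left hL] using this
  · have e : ∀ R : List α, R.drop L0 = (R.take L1).drop L0 ++ R.drop L1 := by
      intro R
      rw [List.drop_take]
      have : R.drop L1 = (R.drop L0).drop (L1 - L0) := by
        rw [List.drop_drop]; congr 1; omega
      rw [this, List.take_append_drop]
    rw [e Q, e Q', ph_append, ph_append, h3, h5]

theorem DepF.regular [Finite α] [Finite S] {f : α → S} {L0 N : ℕ} {p : List α → Prop}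
    (hN : 0 < N) (h : DepF f L0 N p) : Language.IsRegular ({Q | p Q} : Language α) := by
  have h1 := Crest.Agent.R320.Zone132b_898.isRegular_of_inv (ph f) (ph_append f) L0 N hN
    (fun t s r => (t.length < L0 ∧ p t) ∨ (L0 ≤ t.length ∧ ∃ Q, L0 ≤ Q.length ∧ Q.take L0 = t ∧
      ph f (Q.drop L0) = s ∧ Q.length % N = r ∧ p Q))
  have e : ({Q | p Q} : Language α) = ({Q | (fun t s r => (t.length < L0 ∧ p t) ∨
      (L0 ≤ t.length ∧ ∃ Q, L0 ≤ Q.length ∧ Q.take L0 = t ∧
      ph f (Q.drop L0) = s ∧ Q.length % N = r ∧ p Q)) (Q.take L0) (ph f (Q.drop L0))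
      (Q.length % N)} : Language α) := by
    apply Set.ext
    intro Q
    constructor
    · intro hp
      rcases lt_or_ge Q.length L0 with h2 | h2
      · left
        rw [List.take_of_length_le h2.le]
        exact ⟨h2, hp⟩
      · right
        exact ⟨by rw [List.length_take]; omega, Q, h2, rfl, rfl, rfl, hp⟩
    · rintro (⟨h2, h3⟩ | ⟨h2, Q', h3, h4, h5, h6, h7⟩)
      · rw [List.length_take] at h2
        have : Q.length < L0 := by omega
        rw [List.take_of_length_le this.le] at h3
        exact h3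
      · rw [List.length_take] at h2
        have := h Q' Q h3 (by omega) h4 h6 h5
        change p Q
        rw [← this]; exact h7
  rw [e]
  exact h1

theorem DepF.ph (f : α → S) (L0 N : ℕ) : DepF f L0 N (ph f) := by
  intro Q Q' _ _ h3 _ h5
  rw [← List.take_append_drop L0 Q, ← List.take_append_drop L0 Q', ph_append, ph_append, h3, h5]

theorem DepF.drop {β : Sort*} {f : α → S} {L0 N : ℕ} {F : List α → β} (h : DepF f L0 N F)
    (a : ℕ) : DepF f (a + L0) N (fun Q => F (Q.drop a)) := by
  intro Q Q' h1 h2 h3 h4 h5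
  refine h _ _ (by rw [List.length_drop]; omega) (by rw [List.length_drop]; omega) ?_ ?_ ?_
  · have := congrArg (fun l => l.drop a) h3
    simpa [List.drop_take] using this
  · rw [List.length_drop, List.length_drop]
    have e1 : Q.length = (Q.length - a) + a := by omega
    have e2 : Q'.length = (Q'.length - a) + a := by omega
    rw [e1, e2] at h4
    exact Nat.ModEq.add_right_cancel' a h4
  · rw [List.drop_drop, List.drop_drop]
    exact h5

theorem DepF.take {β : Sort*} (f : α → S) (N : ℕ) (F : List α → β) (a : ℕ) :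
    DepF f a N (fun Q => F (Q.take a)) := by
  intro Q Q' _ _ h3 _ _
  simp only [h3]

section

variable {g : Geo α} {B R : ℕ}

/-- no wall at a place `≥ a` before the end -/
def Fr (g : Geo α) (a : ℕ) (Q : List α) : Prop := ∀ t, a ≤ t → t < Q.length → ¬ g.Wo (Q.take t)

theorem reg_Fr [Finite α] (len : ∀ P, g.Wo P → g.n ≤ P.length) (a : ℕ) :
    Language.IsRegular ({Q | Fr g a Q} : Language α) := by
  have h1 : HL 0 ({P | g.Wo P ∧ a ≤ P.length} : Language α) :=
    (P4_933.hl_W g.loc len).setOf_and (HL.length_ge a)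
  have h2 : HL 0 ({w : List α | 1 ≤ w.length} : Language α) := HL.length_ge 1
  have h3 : HL 0 ({Q | Fr g a Q} : Language α) := by
    refine ((h1.mul h2).compl).congr fun w => Iff.symm ?_
    constructor
    · intro h4 t ht hl hw
      refine h4 (Language.mem_mul.2 ⟨w.take t, ⟨hw, ?_⟩, w.drop t, ?_, List.take_append_drop _ _⟩)
      · rw [List.length_take]; omega
      · change 1 ≤ (w.drop t).length
        rw [List.length_drop]; omega
    · intro h4 h5
      obtain ⟨x, ⟨hx1, hx2⟩, y, hy, rfl⟩ := Language.mem_mul.1 h5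
      have hy' : 1 ≤ y.length := hy
      have := h4 x.length hx2 (by rw [List.length_append]; omega)
      rw [List.take_left] at this
      exact this hx1
  exact Crest.Agent.R320.Reg_852.HL.isRegular h3

theorem reg_Wo [Finite α] (len : ∀ P, g.Wo P → g.n ≤ P.length) :
    Language.IsRegular ({Q | g.Wo Q} : Language α) :=
  Crest.Agent.R320.Reg_852.HL.isRegular (P4_933.hl_W (k := 0) g.loc len)

theorem reg_ge [Finite α] (a : ℕ) :
    Language.IsRegular ({Q | a ≤ Q.length} : Language α) :=
  Crest.Agent.R320.Reg_852.HL.isRegular (HL.length_ge (k := 0) a)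

theorem reg_and {p q : List α → Prop} (hp : Language.IsRegular ({w | p w} : Language α))
    (hq : Language.IsRegular ({w | q w} : Language α)) :
    Language.IsRegular ({w | p w ∧ q w} : Language α) := by
  have := hp.inf hq
  exact this

theorem hl_free [Finite α] (len : ∀ P, g.Wo P → g.n ≤ P.length)
    (free : ∀ u : List α, (∀ t < u.length, ¬ g.Wo (u.take t)) → u ∈ (PN B R : Language α))
    (a : ℕ) {p : List α → Prop} (hp : Language.IsRegular ({Q | p Q} : Language α)) :
    HL 1 ({Q | Fr g a Q ∧ p Q} : Language α) := by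
  refine HL_one_of_regular (L := ({Q | Fr g a Q ∧ p Q} : Language α))
    (reg_and (reg_Fr len a) hp) (max B a) (R + 1) ?_
  rintro w ⟨h1, -⟩
  exact P4_933.bdd_of_free g.loc len free fun t ht ha => h1 t ha ht

/-- blocks with a regular property -/
theorem hl_block [Finite α] (len : ∀ P, g.Wo P → g.n ≤ P.length)
    (free : ∀ u : List α, (∀ t < u.length, ¬ g.Wo (u.take t)) → u ∈ (PN B R : Language α))
    {p : List α → Prop} (hp : Language.IsRegular ({Q | p Q} : Language α)) :
    HL 1 ({X | g.XX X ∧ p X} : Language α) := by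
  refine (hl_free len free g.z (reg_and (reg_ge g.z) (reg_and (reg_Wo len) hp))).congr fun w => ?_
  constructor
  · rintro ⟨⟨h1, h2, h3⟩, h4⟩
    exact ⟨h3, h1, h2, h4⟩
  · rintro ⟨h3, h1, h2, h4⟩
    exact ⟨⟨h1, h2, h3⟩, h4⟩

/-- the tail language -/
theorem hl_tail [Finite α] [Finite S] (len : ∀ P, g.Wo P → g.n ≤ P.length)
    (free : ∀ u : List α, (∀ t < u.length, ¬ g.Wo (u.take t)) → u ∈ (PN B R : Language α))
    (f : α → S) (s : S) :
    HL 1 (Lg (fun E => E ∈ Tail {X | g.XX X} ∧ (E.map f).prod = s)) := by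
  have hX : HL 1 ({X | g.XX X ∧ True} : Language α) := by
    refine hl_block len free (p := fun _ => True) ?_
    exact Crest.Agent.R320.Reg_852.HL.isRegular (HL.top (k := 0))
  have h1 : HL 1 ({E | E ∈ Tail {X | g.XX X}} : Language α) := by
    refine ((hX.mul HL.top).compl).congr fun w => Iff.symm ?_
    constructor
    · intro h2 X hXX hpre
      obtain ⟨Y, rfl⟩ := hpre
      exact h2 (Language.mem_mul.2 ⟨X, ⟨hXX, trivial⟩, Y, trivial, rfl⟩)
    · intro h2 h3
      obtain ⟨x, ⟨hx, -⟩, y, -, rfl⟩ := Language.mem_mul.1 h3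
      exact h2 x hx ⟨y, rfl⟩
  refine HL_one_of_regular (L := Lg (fun E => E ∈ Tail {X | g.XX X} ∧ (E.map f).prod = s))
    (reg_and (Crest.Agent.R320.Reg_852.HL.isRegular h1)
      (Crest.Agent.R320.Reg_852.isRegular_prod f s)) (max B g.z) (R + 1) ?_
  rintro w ⟨h2, -⟩
  refine P4_933.bdd_of_free g.loc len free fun t ht hz hw => ?_
  classical
  have hex : ∃ t, g.z ≤ t ∧ t < w.length ∧ g.Wo (w.take t) := ⟨t, hz, ht, hw⟩
  have hs := Nat.find_spec hex
  refine h2 (w.take (Nat.find hex)) ⟨?_, hs.2.2, ?_⟩ (List.take_prefix _ _)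
  · rw [List.length_take]; omega
  · intro t' h3 h4 h5
    rw [List.length_take] at h4
    rw [List.take_take, Nat.min_eq_left (by omega)] at h5
    exact Nat.find_min hex (m := t') (by omega) ⟨h3, by omega, h5⟩

end

end Crest.Agent.R320.Asm1_383
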