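import Crest.Agent.R320.Marker_263
import Crest.Agent.R320.Pump_360

/-!
# Row 320: words with few walls are bounded products (helper228)

Walls in the format of `Mk263.marker`: a set `S` of words of length `n`; a wall of `u` at `x` is
`x + n ≤ u.length ∧ (u.drop x).take n ∈ S`.  If every wall-free word is `P`-periodic away from its
ends, then every word with at most `r` walls is a product of at most `3 r + 2` pieces `f ++ x ^ k`
with `f`, `x` of bounded length.  With `pump` of helper360 this gives height one.
-/

set_option autoImplicit false

namespace Crest.Agent.R320.FewWalls_228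

open Crest.RegLang Crest.Agent.R320.Hk_851 Crest.Agent.R320.Pump_360

universe u

variable {α : Type u}

/-- `u` has a wall at `x` -/
def Wl (n : ℕ) (S : Set (List α)) (w : List α) (x : ℕ) : Prop :=
  x + n ≤ w.length ∧ (w.drop x).take n ∈ S

open Classical in
/-- number of walls -/
noncomputable def nw (n : ℕ) (S : Set (List α)) (w : List α) : ℕ :=
  ((Finset.range (w.length + 1)).filter (fun x => Wl n S w x)).card

/-- wall-free words are periodic away from their ends (third clause of `Mk263.marker`) -/
def PerOff (n c P : ℕ) (S : Set (List α)) : Prop :=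
  ∀ w : List α, (∀ x, x + n ≤ w.length → (w.drop x).take n ∉ S) →
    ∀ x, c ≤ x → x + c ≤ w.length → w[x]? = w[x + P]?

theorem wl_take {n : ℕ} {S : Set (List α)} {w : List α} {x m : ℕ} (h : Wl n S (w.take m) x) :
    Wl n S w x ∧ x + n ≤ m := by
  obtain ⟨h1, h2⟩ := h
  rw [List.length_take] at h1
  refine ⟨⟨by omega, ?_⟩, by omega⟩
  rw [List.drop_take, List.take_take, Nat.min_eq_left (by omega)] at h2
  exact h2

theorem wl_drop {n : ℕ} {S : Set (List α)} {w : List α} {x m : ℕ} (hm : m ≤ w.length) :
    Wl n S (w.drop m) x ↔ Wl n S w (m + x) := by
  unfold Wl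
  rw [List.length_drop, List.drop_drop]
  constructor
  · rintro ⟨h1, h2⟩
    exact ⟨by omega, h2⟩
  · rintro ⟨h1, h2⟩
    exact ⟨by omega, h2⟩

/-- a wall-free word is a product of two pieces -/
theorem free_pieces {n c P : ℕ} {S : Set (List α)} (hP : 0 < P) (hper : PerOff n c P S)
    (w : List α) (hw : ∀ x, ¬ Wl n S w x) :
    ∃ l : List (List α × List α × ℕ), l.length ≤ 2 ∧
      (∀ t ∈ l, t.1.length ≤ 2 * c + P ∧ t.2.1.length ≤ 2 * c + P) ∧ w = val l := by
  by_cases hlen : w.length ≤ 2 * c + P
  · refine ⟨[(w, [], 0)], by simp, ?_, ?_⟩
    · intro t ht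
      rw [List.mem_singleton] at ht
      subst ht
      exact ⟨hlen, by simp⟩
    · rw [val_cons, val_nil, pw_zero]
      simp
  · have hf : ∀ x, x + n ≤ w.length → (w.drop x).take n ∉ S := fun x h1 h2 => hw x ⟨h1, h2⟩
    have hq := hper w hf
    set k := (w.length - 2 * c) / P with hk
    have hkP : k * P ≤ w.length - 2 * c := Nat.div_mul_le_self _ _
    have hkP2 : w.length - 2 * c < k * P + P := by
      have := Nat.lt_div_mul_add hP (a := w.length - 2 * c)
      exact this
    set mid := (w.drop c).take (k * P) with hmid
    have hml : mid.length = k * P := by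
      rw [hmid, List.length_take, List.length_drop]
      omega
    have hmper : ∀ x, x + P < mid.length → mid[x]? = mid[x + P]? := by
      intro x hx
      rw [hml] at hx
      rw [hmid, List.getElem?_take_of_lt (by omega), List.getElem?_take_of_lt (by omega),
        List.getElem?_drop, List.getElem?_drop]
      have := hq (c + x) (by omega) (by omega)
      rw [this, Nat.add_assoc]
    have hpow := Crest.Agent.R320.Mk263.power_of_period k P mid hml hmper
    refine ⟨[(w.take c, mid.take P, k), (w.drop (c + k * P), [], 0)], by simp, ?_, ?_⟩
    · intro t ht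
      simp only [List.mem_cons, List.not_mem_nil, or_false] at ht
      rcases ht with rfl | rfl
      · refine ⟨?_, ?_⟩
        · simp only [List.length_take]; omega
        · simp only [List.length_take]; omega
      · refine ⟨?_, by simp⟩
        simp only [List.length_drop]; omega
    · rw [val_cons, val_cons, val_nil]
      show w = w.take c ++ pw (mid.take P) k ++ (w.drop (c + k * P) ++ pw [] 0 ++ [])
      have e1 : pw (mid.take P) k = mid := hpow.symm
      rw [e1, pw_zero, List.append_nil, List.append_nil, hmid, ← List.drop_drop,
        List.append_assoc, List.take_append_drop, List.take_append_drop]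

/-- a word with at most `r` walls is a product of at most `3 r + 2` pieces -/
theorem pieces {n c P : ℕ} {S : Set (List α)} (hn : 0 < n) (hP : 0 < P)
    (hper : PerOff n c P S) (r : ℕ) (w : List α) (hw : nw n S w ≤ r) :
    ∃ l : List (List α × List α × ℕ), l.length ≤ 3 * r + 2 ∧
      (∀ t ∈ l, t.1.length ≤ 2 * c + P ∧ t.2.1.length ≤ 2 * c + P) ∧ w = val l := by
  classical
  induction r generalizing w with
  | zero =>
    have hw0 : ∀ x, ¬ Wl n S w x := by
      intro x hx
      have : x ∈ (Finset.range (w.length + 1)).filter (fun x => Wl n S w x) := by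
        rw [Finset.mem_filter, Finset.mem_range]
        exact ⟨by have := hx.1; omega, hx⟩
      have h0 : nw n S w = 0 := Nat.le_zero.1 hw
      unfold nw at h0
      rw [Finset.card_eq_zero] at h0
      have h0' : x ∈ (∅ : Finset ℕ) := by
        rw [← h0]; convert this
      exact absurd h0' (Finset.notMem_empty x)
    obtain ⟨l, h1, h2, h3⟩ := free_pieces hP hper w hw0
    exact ⟨l, by omega, h2, h3⟩
  | succ r ih =>
    by_cases hex : ∃ x, Wl n S w x
    · let x0 := Nat.find hex
      have hx0 : Wl n S w x0 := Nat.find_spec hex
      have hmin : ∀ x, x < x0 → ¬ Wl n S w x := fun x h => Nat.find_min hex h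
      have hlen := hx0.1
      -- first part
      have hfree : ∀ x, ¬ Wl n S (w.take (x0 + n - 1)) x := by
        intro x hx
        obtain ⟨h1, h2⟩ := wl_take hx
        exact hmin x (by omega) h1
      obtain ⟨l1, a1, a2, a3⟩ := free_pieces hP hper _ hfree
      -- last part
      have hcnt : nw n S (w.drop (x0 + n)) ≤ r := by
        unfold nw at hw ⊢
        have hinj : ((Finset.range ((w.drop (x0 + n)).length + 1)).filter
            (fun x => Wl n S (w.drop (x0 + n)) x)).card + 1 ≤
            ((Finset.range (w.length + 1)).filter (fun x => Wl n S w x)).card := by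
          have himg : (((Finset.range ((w.drop (x0 + n)).length + 1)).filter
              (fun x => Wl n S (w.drop (x0 + n)) x)).image (fun x => x0 + n + x)) ∪ {x0} ⊆
              (Finset.range (w.length + 1)).filter (fun x => Wl n S w x) := by
            intro y hy
            rw [Finset.mem_union, Finset.mem_image, Finset.mem_singleton] at hy
            rw [Finset.mem_filter, Finset.mem_range]
            rcases hy with ⟨x, hx, rfl⟩ | rfl
            · rw [Finset.mem_filter, Finset.mem_range] at hx
              have := (wl_drop (by omega)).1 hx.2
              exact ⟨by have := this.1; omega, this⟩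
            · exact ⟨by omega, hx0⟩
          have hc := Finset.card_le_card himg
          rw [Finset.card_union_of_disjoint, Finset.card_singleton,
            Finset.card_image_of_injective _ (fun a b h => by simpa using h)] at hc
          · exact hc
          · rw [Finset.disjoint_singleton_right, Finset.mem_image]
            rintro ⟨x, _, hx⟩
            omega
        have e1 : ∀ (s t : Finset ℕ), s.card + 1 ≤ t.card → t.card ≤ r + 1 → s.card ≤ r := by
          intro s t h1 h2; omega
        refine e1 _ _ ?_ hw
        convert hinj
      obtain ⟨l2, b1, b2, b3⟩ := ih _ hcnt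
      refine ⟨l1 ++ (((w.drop (x0 + n - 1)).take 1, [], 0) :: l2), ?_, ?_, ?_⟩
      · rw [List.length_append, List.length_cons]; omega
      · intro t ht
        rw [List.mem_append, List.mem_cons] at ht
        rcases ht with ht | rfl | ht
        · exact a2 t ht
        · refine ⟨?_, by simp⟩
          simp only [List.length_take]; omega
        · exact b2 t ht
      · have hval : ∀ (u v : List (List α × List α × ℕ)), val (u ++ v) = val u ++ val v := by
          intro u v
          unfold val
          rw [List.map_append, List.flatten_append]
        rw [hval, val_cons, ← a3, ← b3, pw_zero, List.append_nil]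
        have e2 : w.drop (x0 + n) = (w.drop (x0 + n - 1)).drop 1 := by
          rw [List.drop_drop]; congr 1; omega
        rw [e2, List.take_append_drop, List.take_append_drop]
    · have hfree : ∀ x, ¬ Wl n S w x := fun x hx => hex ⟨x, hx⟩
      obtain ⟨l, h1, h2, h3⟩ := free_pieces hP hper w hfree
      exact ⟨l, by omega, h2, h3⟩

/-- pump-invariant languages with few walls per word have height at most one -/
theorem HL_one_of_few_walls [Finite α] {n c P : ℕ} {S : Set (List α)} (hn : 0 < n) (hP : 0 < P)
    (hper : PerOff n c P S) (r : ℕ) {L : Language α} (hr : ∀ w ∈ L, nw n S w ≤ r)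
    (E M : ℕ) (hM : 0 < M)
    (hp : ∀ (u x v : List α) (k : ℕ), x.length ≤ 2 * c + P → E ≤ k →
      (u ++ pw x k ++ v ∈ L ↔ u ++ pw x (k + M) ++ v ∈ L)) :
    HL 1 L :=
  pump (3 * r + 2) (2 * c + P) E M hM
    (fun w hw => pieces hn hP hper r w (hr w hw)) hp

/-- walls at distance `≥ W` : a word of length `≤ r * W` has at most `r + 1` walls -/
theorem nw_le_of_sep {n W : ℕ} {S : Set (List α)} (hW : 0 < W)
    (hsep : ∀ (u : List α) (x y : ℕ), x < y → y + n ≤ u.length →
      (u.drop x).take n ∈ S → (u.drop y).take n ∈ S → x + W ≤ y)
    (w : List α) : nw n S w ≤ w.length / W + 1 := by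
  classical
  unfold nw
  have : ((Finset.range (w.length + 1)).filter (fun x => Wl n S w x)).card ≤
      (Finset.range (w.length / W + 1)).card := by
    apply Finset.card_le_card_of_injOn (fun x => x / W)
    · intro x hx
      rw [Finset.mem_coe, Finset.mem_filter, Finset.mem_range] at hx
      rw [Finset.mem_coe, Finset.mem_range]
      exact Nat.lt_succ_of_le (Nat.div_le_div_right (by omega))
    · intro x hx y hy hxy
      rw [Finset.mem_coe, Finset.mem_filter] at hx hy
      by_contra hne
      rcases Nat.lt_or_gt_of_ne hne with h | h
      · have := hsep w x y h hy.2.1 hx.2.2 hy.2.2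
        have h2 : x / W + 1 ≤ y / W := by
          rw [← Nat.add_div_right _ hW]
          exact Nat.div_le_div_right this
        simp only at hxy
        omega
      · have := hsep w y x h hx.2.1 hy.2.2 hx.2.2
        have h2 : y / W + 1 ≤ x / W := by
          rw [← Nat.add_div_right _ hW]
          exact Nat.div_le_div_right this
        simp only at hxy
        omega
  rw [Finset.card_range] at this
  convert this

end Crest.Agent.R320.FewWalls_228
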