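import Mathlib
import Crest.Agent.R320.FewWalls_228

/-!
# Row 320 (helper501): blocks = words up to the first wall (end place) at a place `≥ z`
-/

set_option autoImplicit false

namespace Crest.Agent.R320.Asm_501

open Crest.Agent.R320.FewWalls_228

variable {α : Type}

/-- block language: ends in a wall at a place `≥ z`, no earlier wall place `≥ z` -/
def XX (n z : ℕ) (S : Set (List α)) : Set (List α) :=
  {X | z ≤ X.length ∧ Wl n S X (X.length - n) ∧ ∀ y, z ≤ y → y < X.length → ¬ Wl n S X (y - n)}

/-- the same read from the right part `Q` of a block whose left part has length `d` -/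
def XQ (n z d : ℕ) (S : Set (List α)) (Q : List α) : Prop :=
  z ≤ d + Q.length ∧ Wl n S Q (Q.length - n) ∧
    ∀ y, z ≤ d + y → y < Q.length → ¬ Wl n S Q (y - n)

theorem wl_append {n : ℕ} {S : Set (List α)} (P Q : List α) (x : ℕ) :
    Wl n S (P ++ Q) (P.length + x) ↔ Wl n S Q x := by
  rw [← wl_drop (by simp : P.length ≤ (P ++ Q).length), List.drop_left]

theorem wl_append' {n : ℕ} {S : Set (List α)} (P Q : List α) (x : ℕ) (hx : P.length ≤ x) :
    Wl n S (P ++ Q) x ↔ Wl n S Q (x - P.length) := by
  have h := wl_append (n := n) (S := S) P Q (x - P.length)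
  rwa [Nat.add_sub_cancel' hx] at h

theorem wl_right {n : ℕ} {S : Set (List α)} {X : List α} (Y : List α) {x : ℕ}
    (h : Wl n S X x) : Wl n S (X ++ Y) x := by
  have h' : Wl n S ((X ++ Y).take X.length) x := by rw [List.take_left]; exact h
  exact (wl_take h').1

theorem wl_of_prefix {n : ℕ} {S : Set (List α)} {X w : List α} (hX : X <+: w) {x : ℕ}
    (h : Wl n S X x) : Wl n S w x := by
  obtain ⟨Y, rfl⟩ := hX
  exact wl_right Y h

theorem wl_take' {n : ℕ} {S : Set (List α)} {w : List α} {x m : ℕ} (h : Wl n S w x)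
    (hm : x + n ≤ m) : Wl n S (w.take m) x := by
  obtain ⟨h1, h2⟩ := h
  refine ⟨by rw [List.length_take]; omega, ?_⟩
  rw [List.drop_take, List.take_take, Nat.min_eq_left (by omega)]
  exact h2

theorem wl_prefix {n : ℕ} {S : Set (List α)} {X w : List α} (hX : X <+: w) {x : ℕ}
    (hx : x + n ≤ X.length) (h : Wl n S w x) : Wl n S X x := by
  obtain ⟨Y, rfl⟩ := hX
  have := wl_take' h hx
  rwa [List.take_left] at this

theorem mem_iff {n z : ℕ} {S : Set (List α)} (P Q : List α) (hd : P.length + n ≤ z) :
    P ++ Q ∈ XX n z S ↔ XQ n z P.length S Q := by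
  unfold XX XQ
  simp only [Set.mem_setOf_eq, List.length_append]
  constructor
  · rintro ⟨h1, h2, h3⟩
    refine ⟨h1, ?_, ?_⟩
    · have e : P.length + Q.length - n = P.length + (Q.length - n) := by omega
      rw [e, wl_append] at h2
      exact h2
    · intro y hy1 hy2 hw
      apply h3 (P.length + y) hy1 (by omega)
      have e : P.length + y - n = P.length + (y - n) := by omega
      rw [e, wl_append]
      exact hw
  · rintro ⟨h1, h2, h3⟩
    refine ⟨h1, ?_, ?_⟩
    · have e : P.length + Q.length - n = P.length + (Q.length - n) := by omega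
      rw [e, wl_append]
      exact h2
    · intro y hy1 hy2 hw
      apply h3 (y - P.length) (by omega) (by omega)
      have e : y - n = P.length + (y - P.length - n) := by omega
      rw [e, wl_append] at hw
      exact hw

theorem xx_nil {n z : ℕ} {S : Set (List α)} (hz : 0 < z) : ([] : List α) ∉ XX n z S := by
  rintro ⟨h, -, -⟩
  simp at h
  omega

theorem xx_prefix {n z : ℕ} {S : Set (List α)} {X Y w : List α} (hX : X ∈ XX n z S)
    (hY : Y ∈ XX n z S) (h1 : X <+: w) (h2 : Y <+: w) : X = Y := by
  have key : ∀ {A B : List α}, A ∈ XX n z S → B ∈ XX n z S → A <+: B → A = B := by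
    intro A B hA hB hAB
    by_contra hne
    have hlt : A.length < B.length := by
      rcases lt_or_eq_of_le hAB.length_le with h | h
      · exact h
      · exact absurd (hAB.eq_of_length h) hne
    exact hB.2.2 A.length hA.1 hlt (wl_of_prefix hAB hA.2.1)
  rcases List.prefix_or_prefix_of_prefix h1 h2 with h | h
  · exact key hX hY h
  · exact (key hY hX h).symm

theorem xx_pc {n z : ℕ} {S : Set (List α)} {X Y : List α} (hX : X ∈ XX n z S)
    (hXY : X ++ Y ∈ XX n z S) : Y = [] := by
  have h := xx_prefix hX hXY (List.prefix_append X Y) List.prefix_rfl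
  have := congrArg List.length h
  simp at this
  exact this

theorem exists_block {n z : ℕ} {S : Set (List α)} (hn : n ≤ z) {w : List α} {y : ℕ} (hy : z ≤ y)
    (h : Wl n S w (y - n)) : ∃ X ∈ XX n z S, X <+: w := by
  classical
  have hex : ∃ y, z ≤ y ∧ Wl n S w (y - n) := ⟨y, hy, h⟩
  obtain ⟨h1, h2⟩ := Nat.find_spec hex
  set y0 := Nat.find hex with hy0
  have hle : y0 ≤ w.length := by
    have := h2.1
    omega
  have hlen : (w.take y0).length = y0 := by rw [List.length_take]; omega
  refine ⟨w.take y0, ⟨by rw [hlen]; exact h1, ?_, ?_⟩, List.take_prefix _ _⟩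
  · rw [hlen]
    exact wl_take' h2 (by omega)
  · intro t ht1 ht2 hw
    rw [hlen] at ht2
    exact Nat.find_min hex ht2 ⟨ht1, (wl_take hw).1⟩

theorem xx_length_pos {n z : ℕ} {S : Set (List α)} {X : List α} (hX : X ∈ XX n z S) :
    z ≤ X.length := hX.1

end Crest.Agent.R320.Asm_501
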