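import Crest.Agent.R320.Wall_291

/-!
# Row 320, CORE-1 (helper922): left-looking outer walls, the prefix code of zones, junctions

* `walls_left` : left-looking form of 291's wall rule;
* `XX Wo Ok` : zones = shortest non-empty texts which end in a wall at an admissible distance;
* `RQ Wo Ok LL` : right-legal texts up to the next anchor;
* `prefix_code`, `parse_unique`, `junction`, `cover`, `length_le_of_RF`;
* `rq_of_notE` : thresholds by residue (132): off (E) every comb place is right-legal.
-/

set_option autoImplicit false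

namespace Crest.Agent.R320.Core1_922

open Crest.Agent.R320.Wall_291

variable {α : Type*}

/-- left-looking local rule with window `n` -/
structure LW (n : ℕ) (Wo : List α → Prop) : Prop where
  app : ∀ P Q : List α, n ≤ Q.length → (Wo (P ++ Q) ↔ Wo Q)
  len : ∀ Q, Wo Q → n ≤ Q.length

theorem RF_reverse {e p : ℕ} {Q : List α} (h : RF e p Q) : RF e p Q.reverse := by
  intro x hx hl hi
  refine h x.reverse (by simpa using hx) (by simpa using hl) ?_
  have h1 := List.reverse_infix.2 hi
  rw [List.reverse_reverse, List.reverse_flatten, List.map_replicate, List.reverse_replicate] at h1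
  exact h1

theorem walls_left (α : Type*) [Finite α] (e W : ℕ) :
    ∃ (n G : ℕ) (Wo : List α → Prop), LW n Wo ∧
      (∀ (X : List α) (s t : ℕ), s < t → t ≤ X.length → Wo (X.take s) → Wo (X.take t) → W < t - s) ∧
      (∀ (X : List α) (i : ℕ), RF e W X → i + n + G ≤ X.length →
        ∃ t, i + n < t ∧ t ≤ i + n + G ∧ Wo (X.take t)) := by
  obtain ⟨n, G, R, h1, h2, h3, h4⟩ := exists_walls α e W
  have happ : ∀ P Q : List α, n ≤ Q.length → (R (P ++ Q).reverse ↔ R Q.reverse) := by
    intro P Q hQ
    rw [List.reverse_append, h1, h1 Q.reverse, List.take_append_of_le_length (by simpa using hQ)]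
  refine ⟨n, G, fun X => R X.reverse, ⟨happ, fun Q hQ => by simpa using h2 _ hQ⟩, ?_, ?_⟩
  · intro X s t hst ht hs hR
    by_contra hW
    refine h3 (X.take t).reverse (t - s) hR (by omega) (by omega) ?_
    have e1 : X.take t = X.take s ++ (X.take t).drop s := by
      have := List.take_append_drop s (X.take t)
      rw [List.take_take, min_eq_left hst.le] at this
      exact this.symm
    have e2 : ((X.take t).drop s).reverse.length = t - s := by
      rw [List.length_reverse, List.length_drop, List.length_take, min_eq_left ht]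
    rw [e1, List.reverse_append, ← e2, List.drop_left]
    exact hs
  · intro X i hRF hlen
    set F := (X.drop i).take (n + G) with hF
    have hFl : F.length = n + G := by
      rw [hF, List.length_take, List.length_drop]; omega
    have hFR : RF e W F.reverse := RF_reverse ((hRF.drop i).take (n + G))
    obtain ⟨j, hj, hR⟩ := h4 F.reverse hFR (by rw [List.length_reverse, hFl]; omega)
    refine ⟨i + (n + G - j), by omega, by omega, ?_⟩
    have e1 : F.reverse.drop j = (F.take (n + G - j)).reverse := by
      rw [List.drop_reverse, hFl]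
    rw [e1] at hR
    have e2 : X.take (i + (n + G - j)) = X.take i ++ F.take (n + G - j) := by
      rw [List.take_add, hF, List.take_take, min_eq_left (by omega)]
    show R (X.take (i + (n + G - j))).reverse
    rw [e2, happ]
    · exact hR
    · rw [List.length_take, hFl]; omega

/-- the zones -/
def XX (Wo : List α → Prop) (Ok : ℕ → Prop) : Set (List α) :=
  {X | Wo X ∧ Ok X.length ∧ ∀ t < X.length, Wo (X.take t) → ¬ Ok t}

/-- right-legal texts up to the next anchor -/
def RQ (Wo : List α → Prop) (Ok LL : ℕ → Prop) : Set (List α) :=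
  {Q | Wo Q ∧ (∀ o, LL o → Ok (o + Q.length)) ∧
    ∀ t < Q.length, Wo (Q.take t) → ∀ o, LL o → ¬ Ok (o + t)}

theorem prefix_code {Wo : List α → Prop} {Ok : ℕ → Prop} {X Y : List α} (hX : X ∈ XX Wo Ok)
    (hY : Y ∈ XX Wo Ok) (h : X <+: Y) : X = Y := by
  obtain ⟨Z, rfl⟩ := h
  by_cases hZ : Z = []
  · rw [hZ, List.append_nil]
  · exfalso
    have hl : X.length < (X ++ Z).length := by
      rw [List.length_append]
      have := List.length_pos_iff.2 hZ
      omega
    refine hY.2.2 X.length hl ?_ hX.2.1
    rw [List.take_left]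
    exact hX.1

theorem ne_nil {Wo : List α → Prop} {Ok : ℕ → Prop} (h0 : ¬ Ok 0) {X : List α}
    (hX : X ∈ XX Wo Ok) : X ≠ [] := by
  rintro rfl
  exact h0 hX.2.1

/-- unique parse: two parses of texts one of which is a prefix of the other agree -/
theorem parse_unique {Wo : List α → Prop} {Ok : ℕ → Prop} (h0 : ¬ Ok 0) :
    ∀ l l' : List (List α), (∀ X ∈ l, X ∈ XX Wo Ok) → (∀ X ∈ l', X ∈ XX Wo Ok) →
      l.flatten <+: l'.flatten → l <+: l' := by
  intro l
  induction l with
  | nil => intro l' _ _ _; exact List.nil_prefix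
  | cons X l ih =>
    intro l' hl hl' h
    cases l' with
    | nil =>
      exfalso
      rw [List.flatten_nil, List.prefix_nil] at h
      have : X = [] := by
        rw [List.flatten_cons, List.append_eq_nil_iff] at h
        exact h.1
      exact ne_nil h0 (hl X (by simp)) this
    | cons Y l' =>
      rw [List.flatten_cons, List.flatten_cons] at h
      have hXY : X = Y := by
        have h1 : X <+: Y ++ l'.flatten := (List.prefix_append X l.flatten).trans h
        have h2 : Y <+: Y ++ l'.flatten := List.prefix_append _ _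
        rcases List.prefix_or_prefix_of_prefix h1 h2 with h3 | h3
        · exact prefix_code (hl X (by simp)) (hl' Y (by simp)) h3
        · exact (prefix_code (hl' Y (by simp)) (hl X (by simp)) h3).symm
      subst hXY
      have h3 : l.flatten <+: l'.flatten := (List.prefix_append_right_inj X).1 h
      have h4 := ih l' (fun Z hZ => hl Z (by simp [hZ])) (fun Z hZ => hl' Z (by simp [hZ])) h3
      exact (List.prefix_cons_inj X).2 h4

/-- the junction lemma (818): every text -/
theorem junction {n : ℕ} {Wo : List α → Prop} (hW : LW n Wo) {Ok LL : ℕ → Prop}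
    (hsep : ∀ s o, Ok s → LL o → o + n ≤ s) {P Q : List α} (hP : LL P.length)
    (hQ : Q ∈ RQ Wo Ok LL) : P ++ Q ∈ XX Wo Ok := by
  have hn := hW.len Q hQ.1
  refine ⟨(hW.app P Q hn).2 hQ.1, by rw [List.length_append]; exact hQ.2.1 _ hP, ?_⟩
  intro t ht hWt hOk
  rw [List.length_append] at ht
  have h1 := hsep t P.length hOk hP
  have h2 : (P ++ Q).take t = P ++ Q.take (t - P.length) := by
    rw [List.take_append, List.take_of_length_le (by omega)]
  rw [h2, hW.app P _ (by rw [List.length_take]; omega)] at hWt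
  refine hQ.2.2 (t - P.length) (by omega) hWt P.length hP ?_
  rwa [Nat.add_sub_cancel' (by omega)]

/-- a first zone exists -/
theorem exists_first {Wo : List α → Prop} {Ok : ℕ → Prop} {w : List α} {B : ℕ}
    (h : ∃ t, t ≤ B ∧ t ≤ w.length ∧ Wo (w.take t) ∧ Ok t) :
    ∃ X w', X ∈ XX Wo Ok ∧ X.length ≤ B ∧ w = X ++ w' := by
  classical
  have h' : ∃ t, t ≤ w.length ∧ Wo (w.take t) ∧ Ok t := by
    obtain ⟨t, -, h1, h2, h3⟩ := h
    exact ⟨t, h1, h2, h3⟩
  obtain ⟨t, ht⟩ := h
  have hf := Nat.find_spec h'
  have hle : Nat.find h' ≤ t := Nat.find_min' h' ht.2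
  have hlen : (w.take (Nat.find h')).length = Nat.find h' := by
    rw [List.length_take]; exact min_eq_left hf.1
  refine ⟨w.take (Nat.find h'), w.drop (Nat.find h'), ⟨hf.2.1, by rw [hlen]; exact hf.2.2, ?_⟩,
    by rw [hlen]; exact hle.trans ht.1, (List.take_append_drop _ _).symm⟩
  intro s hs hWs hOk
  rw [hlen] at hs
  rw [List.take_take, min_eq_left hs.le] at hWs
  exact Nat.find_min h' hs ⟨hs.le.trans hf.1, hWs, hOk⟩

/-- parse of run-free texts -/
theorem cover {n G e W z1 : ℕ} {Wo : List α → Prop} {Ok : ℕ → Prop} (h0 : ¬ Ok 0)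
    (hz : ∀ t, z1 ≤ t → Ok t)
    (hwall : ∀ (X : List α) (i : ℕ), RF e W X → i + n + G ≤ X.length →
        ∃ t, i + n < t ∧ t ≤ i + n + G ∧ Wo (X.take t)) :
    ∀ w : List α, RF e W w → ∃ (l : List (List α)) (E : List α), w = l.flatten ++ E ∧
      (∀ X ∈ l, X ∈ XX Wo Ok ∧ X.length ≤ z1 + n + G) ∧ E.length < z1 + n + G := by
  intro w
  induction hk : w.length using Nat.strong_induction_on generalizing w with
  | _ k ih =>
    intro hRF
    by_cases hlt : w.length < z1 + n + G
    · exact ⟨[], w, by simp, by simp, hlt⟩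
    · obtain ⟨t, ht1, ht2, ht3⟩ := hwall w z1 hRF (by omega)
      obtain ⟨X, w', hX, hXl, rfl⟩ := exists_first (Wo := Wo) (Ok := Ok) (w := w)
        (B := z1 + n + G) ⟨t, ht2, by omega, ht3, hz t (by omega)⟩
      have hX0 : 0 < X.length := List.length_pos_iff.2 (ne_nil h0 hX)
      obtain ⟨l, E, rfl, hl, hE⟩ := ih w'.length (by rw [← hk, List.length_append]; omega) w' rfl
        (hRF.infix (List.suffix_append X w').isInfix)
      refine ⟨X :: l, E, by simp, ?_, hE⟩
      intro Y hY
      rcases List.mem_cons.1 hY with rfl | hY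
      · exact ⟨hX, hXl⟩
      · exact hl Y hY

/-- run-free zones are bounded -/
theorem length_le_of_RF {n G e W z1 : ℕ} {Wo : List α → Prop} {Ok : ℕ → Prop}
    (hz : ∀ t, z1 ≤ t → Ok t)
    (hwall : ∀ (X : List α) (i : ℕ), RF e W X → i + n + G ≤ X.length →
        ∃ t, i + n < t ∧ t ≤ i + n + G ∧ Wo (X.take t))
    {X : List α} (hX : X ∈ XX Wo Ok) (hRF : RF e W X) : X.length ≤ z1 + n + G := by
  by_contra hlt
  obtain ⟨t, ht1, ht2, ht3⟩ := hwall X z1 hRF (by omega)
  exact hX.2.2 t (by omega) ht3 (hz t (by omega))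

/-! ### 132's thresholds by residue -/

/-- admissible distances -/
def Ok132 (thr : ℕ → ℕ) (M t : ℕ) : Prop := thr (t % M) ≤ t

/-- comb places -/
def LL132 (p N M o : ℕ) : Prop := ∃ j, o = p + M * j ∧ M * j ≤ N

theorem sep132 {thr : ℕ → ℕ} {n p N M : ℕ} (h : ∀ r, p + N + n ≤ thr r) :
    ∀ s o, Ok132 thr M s → LL132 p N M o → o + n ≤ s := by
  rintro s o hs ⟨j, rfl, hj⟩
  have h1 := h (s % M)
  have h2 : thr (s % M) ≤ s := hs
  omega

theorem ok_shift {M t j j' : ℕ} (h : M * j ≤ t) :
    (t - M * j + M * j') % M = t % M := by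
  rw [Nat.add_mul_mod_self_left]
  conv_rhs => rw [← Nat.sub_add_cancel h, Nat.add_mul_mod_self_left]

/-- no wall of the zone is near the threshold of its residue -/
def NotE (Wo : List α → Prop) (thr : ℕ → ℕ) (M N : ℕ) (X : List α) : Prop :=
  ∀ t ≤ X.length, Wo (X.take t) → thr (t % M) + N ≤ t ∨ t + N < thr (t % M)

/-- off (E) every comb place is right-legal -/
theorem rq_of_notE {n p N M : ℕ} {thr : ℕ → ℕ} {Wo : List α → Prop} (hW : LW n Wo)
    (hthr : ∀ r, p + N + n ≤ thr r) {P Q : List α}
    (hX : P ++ Q ∈ XX Wo (Ok132 thr M)) (hP : LL132 p N M P.length)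
    (hE : NotE Wo thr M N (P ++ Q)) : Q ∈ RQ Wo (Ok132 thr M) (LL132 p N M) := by
  have hlen : P.length + n ≤ (P ++ Q).length := sep132 hthr _ _ hX.2.1 hP
  rw [List.length_append] at hlen
  have hn : n ≤ Q.length := by omega
  obtain ⟨j, hj1, hj2⟩ := hP
  refine ⟨(hW.app P Q hn).1 hX.1, ?_, ?_⟩
  · rintro o ⟨j', rfl, hj'⟩
    have h1 := hE (P ++ Q).length le_rfl (by rw [List.take_length]; exact hX.1)
    have h2 : thr ((P ++ Q).length % M) ≤ (P ++ Q).length := hX.2.1
    have h3 : thr ((P ++ Q).length % M) + N ≤ (P ++ Q).length := by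
      rcases h1 with h1 | h1
      · exact h1
      · omega
    rw [List.length_append] at h3
    show thr ((p + M * j' + Q.length) % M) ≤ p + M * j' + Q.length
    have h4 : p + M * j' + Q.length = (P.length + Q.length) - M * j + M * j' := by omega
    rw [h4, ok_shift (by omega)]
    omega
  · intro t ht hWt o ho hOk
    obtain ⟨j', rfl, hj'⟩ := ho
    have hnt : n ≤ t := by
      have := hW.len _ hWt
      rw [List.length_take] at this
      omega
    have h2 : (P ++ Q).take (P.length + t) = P ++ Q.take t := List.take_length_add_append t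
    have hWX : Wo ((P ++ Q).take (P.length + t)) := by
      rw [h2, hW.app P _ (by rw [List.length_take]; omega)]
      exact hWt
    have h3 := hX.2.2 (P.length + t) (by rw [List.length_append]; omega) hWX
    have h4 : ¬ thr ((P.length + t) % M) ≤ P.length + t := h3
    have h5 : P.length + t + N < thr ((P.length + t) % M) := by
      rcases hE (P.length + t) (by rw [List.length_append]; omega) hWX with h | h
      · omega
      · exact h
    have h6 : thr ((p + M * j' + t) % M) ≤ p + M * j' + t := hOk
    have h7 : p + M * j' + t = (P.length + t) - M * j + M * j' := by omega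
    rw [h7, ok_shift (by omega)] at h6
    omega

/-- thresholds exist: pairwise distance `> D` on residues `< M`, all in `[b, b + (D+1) * M]` -/
theorem exists_thr (b D M : ℕ) : ∃ thr : ℕ → ℕ, (∀ r, b ≤ thr r) ∧
    (∀ r, thr (r % M) ≤ b + (D + 1) * M) ∧
    (∀ r < M, ∀ r' < M, r < r' → thr r + D < thr r') := by
  rcases Nat.eq_zero_or_pos M with rfl | hM
  · exact ⟨fun _ => b, by simp, by simp, by simp⟩
  refine ⟨fun r => b + (D + 1) * r, fun r => Nat.le_add_right _ _, fun r => ?_, ?_⟩
  · have : r % M ≤ M := (Nat.mod_lt r hM).le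
    have := Nat.mul_le_mul_left (D + 1) this
    show b + (D + 1) * (r % M) ≤ b + (D + 1) * M
    omega
  · intro r _ r' _ hr
    have := Nat.mul_le_mul_left (D + 1) (show r + 1 ≤ r' from hr)
    show b + (D + 1) * r + D < b + (D + 1) * r'
    rw [Nat.mul_add, Nat.mul_one] at this
    omega

end Crest.Agent.R320.Core1_922
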