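import Crest.Agent.R320.Top5_120
import Crest.Agent.R320.Core1_922

/-!
# Row 320: concrete instance of `top5` (helper120) from a zone gadget, the exact gadget and walls,
part 1: data, completeness of scheme 1 (helper618)
-/

set_option autoImplicit false

namespace Crest.Agent.R320.Asm618

open Crest.Agent.R320.Core1_922

/-- all data of the instance -/
structure Dat (α : Type) (S V : Type) [Monoid S] [AddCommGroup V] where
  f : α → S
  act : V → S → V
  hadd : ∀ a b s, act (a + b) s = act a s + act b s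
  hone : ∀ v, act v 1 = v
  hmul : ∀ v s t, act v (s * t) = act (act v s) t
  N1 : ℕ
  lam : List α → Option V
  rho : List α → Option V
  nu1 : List α → V
  BadT : ℕ → Prop
  B1 : ℕ
  hlen : ∀ P v, lam P = some v → P.length < N1
  hsound : ∀ P Q v r, lam P = some v → rho Q = some r →
    r = act v ((P ++ Q).map f).prod + nu1 (P ++ Q)
  hcompl : ∀ X : List α, B1 ≤ X.length → ¬ BadT X.length → ∀ v, ∃ P Q, P ++ Q = X ∧
    lam P = some v ∧ (rho Q).isSome
  K : ℕ
  R1 : ℕ
  c : ℕ → ℕ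
  lam2 : ℕ → List α → Option V
  rho2 : ℕ → List α → Option V
  nu2 : List α → V
  hs2 : ∀ k < K, ∀ P Q v b, P.length = c k → lam2 k P = some v → rho2 k Q = some b →
    b = act v ((P ++ Q).map f).prod + nu2 (P ++ Q)
  hc2 : ∀ (u : List α) (v : V), (∀ k < K, c k ≤ u.length) → ∃ I : Finset ℕ, 2 + 2 * R1 ≤ I.card ∧
    ∀ k ∈ I, k < K ∧ lam2 k (u.take (c k)) = some v ∧ (rho2 k (u.drop (c k))).isSome
  n : ℕ
  W : ℕ
  Wo : List α → Prop
  hW : LW n Wo
  hgap : ∀ (X : List α) (s t : ℕ), s < t → t ≤ X.length → Wo (X.take s) → Wo (X.take t) → W < t - s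
  p0 : ℕ
  z : ℕ
  hp0 : 0 < p0
  hc0 : ∀ k < K, c k ≤ p0
  hz : 3 * p0 + N1 + N1 + n + B1 + 1 ≤ z
  hWbig : 2 * p0 + 2 * N1 + 2 * N1 + 2 ≤ W
  wide : ∀ a b a' b', a < K → b < K → a' < K → b' < K → a ≠ b → a' ≠ b' →
    c a + c b' ≤ c a' + c b + 2 * N1 → c a' + c b ≤ c a + c b' + 2 * N1 → a = a'
  spoil : ∀ T : ℕ, p0 + B1 ≤ T → ∀ F : Finset (ℕ × ℕ), (∀ q ∈ F, q.1 < K ∧ q.2 < K ∧ q.1 ≠ q.2 ∧
    BadT (T + c q.2 - c q.1)) → F.card ≤ R1

variable {α S V : Type} [Monoid S] [AddCommGroup V] (D : Dat α S V)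

namespace Dat

/-- blocks: first wall at a place `≥ z` -/
def C : Set (List α) := {X | D.z ≤ X.length ∧ D.Wo X ∧ ∀ t, D.z ≤ t → t < X.length → ¬ D.Wo (X.take t)}

def E (X : List α) : Prop := ∃ t, D.z ≤ t + D.N1 ∧ t < D.z + D.N1 ∧ t ≤ X.length ∧ D.Wo (X.take t)

def Bad : Set (List α) := {X | X ∈ D.C ∧ (D.E X ∨ D.BadT (X.length - D.p0))}

def nu (X : List α) : V :=
  D.act (D.nu2 (X.take D.p0)) ((X.drop D.p0).map D.f).prod + D.nu1 (X.drop D.p0)

def T (v : V) (X : List α) : V := D.act v (X.map D.f).prod + D.nu X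

def L1 (v : V) : Set (List α) := {P | D.p0 ≤ P.length ∧
  D.lam (P.drop D.p0) = some (D.act v ((P.take D.p0).map D.f).prod + D.nu2 (P.take D.p0))}

def L2 (v : V) : Set (List α) := {P | ∃ k < D.K, P.length = D.c k ∧ D.lam2 k P = some v}

theorem T_eq (v : V) (X : List α) : D.T v X =
    D.act (D.act v ((X.take D.p0).map D.f).prod + D.nu2 (X.take D.p0))
      ((X.drop D.p0).map D.f).prod + D.nu1 (X.drop D.p0) := by
  unfold T nu
  rw [D.hadd, ← D.hmul, ← List.prod_append, ← List.map_append, List.take_append_drop, add_assoc]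

theorem bad_sub : D.Bad ⊆ D.C := fun _ h => h.1

theorem C_ne : [] ∉ D.C := by
  rintro ⟨h, -, -⟩
  have := D.hz
  simp at h
  omega

theorem C_pc : ∀ X ∈ D.C, ∀ Y ∈ D.C, X <+: Y → X = Y := by
  intro X hX Y hY h
  obtain ⟨R, rfl⟩ := h
  by_contra hne
  have hR : R ≠ [] := by
    rintro rfl
    exact hne (by simp)
  have hl : 0 < R.length := List.length_pos_iff.2 hR
  refine hY.2.2 X.length hX.1 (by rw [List.length_append]; omega) ?_
  rw [List.take_left]
  exact hX.2.1

/-- a wall seen through a changed beginning -/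
theorem wall_iff (P P' Q : List α) (t : ℕ) (h : D.n ≤ t) (hQ : t ≤ Q.length) :
    D.Wo ((P ++ Q).take (P.length + t)) ↔ D.Wo ((P' ++ Q).take (P'.length + t)) := by
  rw [List.take_length_add_append, List.take_length_add_append]
  have hl : D.n ≤ (Q.take t).length := by rw [List.length_take]; omega
  rw [D.hW.app P _ hl, D.hW.app P' _ hl]

theorem hcc1 : ∀ X ∈ D.C, X ∉ D.Bad → ∀ v, ∃ P Q, P ++ Q = X ∧ P ∈ D.L1 v ∧
    ∀ x, ∀ P' ∈ D.L1 x, P' ++ Q ∈ D.C ∧ D.T x (P' ++ Q) = D.T v X := by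
  intro X hX hXb v
  have hE : ¬ D.E X := fun h => hXb ⟨hX, Or.inl h⟩
  have hT : ¬ D.BadT (X.length - D.p0) := fun h => hXb ⟨hX, Or.inr h⟩
  have hz := D.hz
  have hXz := hX.1
  have hXlen : D.z + D.N1 ≤ X.length := by
    by_contra hlt
    exact hE ⟨X.length, by omega, by omega, le_rfl, by rw [List.take_length]; exact hX.2.1⟩
  set u := D.act v ((X.take D.p0).map D.f).prod + D.nu2 (X.take D.p0) with hu
  obtain ⟨P0, Q, hPQ, hP0, hQ⟩ := D.hcompl (X.drop D.p0) (by rw [List.length_drop]; omega)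
    (by rw [List.length_drop]; exact hT) u
  obtain ⟨r, hr⟩ := Option.isSome_iff_exists.1 hQ
  have hP0l := D.hlen _ _ hP0
  have htake : (X.take D.p0).length = D.p0 := by rw [List.length_take]; omega
  have hXe : X.take D.p0 ++ P0 ++ Q = X := by
    rw [List.append_assoc, hPQ, List.take_append_drop]
  have hPl : (X.take D.p0 ++ P0).length = D.p0 + P0.length := by
    rw [List.length_append, htake]
  have hlenX : X.length = D.p0 + P0.length + Q.length := by
    conv_lhs => rw [← hXe]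
    rw [List.length_append, hPl]
  have d1 : (X.take D.p0 ++ P0).take D.p0 = X.take D.p0 := by
    rw [List.take_append_of_le_length (by omega), List.take_of_length_le (by omega)]
  have d2 : (X.take D.p0 ++ P0).drop D.p0 = P0 := by
    rw [List.drop_append_of_le_length (by omega), List.drop_of_length_le (by omega), List.nil_append]
  refine ⟨X.take D.p0 ++ P0, Q, hXe, ⟨by omega, ?_⟩, ?_⟩
  · rw [d1, d2]; exact hP0
  · rintro x P' ⟨hP'1, hP'2⟩
    have hP'l := D.hlen _ _ hP'2
    rw [List.length_drop] at hP'l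
    have hiff : ∀ t, D.n ≤ t → t ≤ Q.length →
        (D.Wo (X.take (D.p0 + P0.length + t)) ↔ D.Wo ((P' ++ Q).take (P'.length + t))) := by
      intro t h1 h2
      have := D.wall_iff (X.take D.p0 ++ P0) P' Q t h1 h2
      rw [hXe, hPl] at this
      exact this
    refine ⟨⟨?_, ?_, ?_⟩, ?_⟩
    · rw [List.length_append]; omega
    · have := (hiff Q.length (by omega) le_rfl).1 (by
        rw [← hlenX, List.take_length]; exact hX.2.1)
      rwa [List.take_of_length_le (by rw [List.length_append])] at this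
    · intro t ht1 ht2 hw
      rw [List.length_append] at ht2
      obtain ⟨t', rfl⟩ := Nat.exists_eq_add_of_le (show P'.length ≤ t by omega)
      have h3 := (hiff t' (by omega) (by omega)).2 hw
      by_cases h4 : D.z ≤ D.p0 + P0.length + t'
      · exact hX.2.2 _ h4 (by omega) h3
      · exact hE ⟨D.p0 + P0.length + t', by omega, by omega, by omega, h3⟩
    · rw [D.T_eq x (P' ++ Q), D.T_eq v X]
      have e1 : (P' ++ Q).take D.p0 = P'.take D.p0 := List.take_append_of_le_length hP'1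
      have e2 : (P' ++ Q).drop D.p0 = P'.drop D.p0 ++ Q := List.drop_append_of_le_length hP'1
      rw [e1, e2, ← hPQ, ← hu]
      rw [← D.hsound _ _ _ _ hP'2 hr, ← D.hsound _ _ _ _ hP0 hr]

theorem finL1 [Finite α] (v : V) : (D.L1 v).Finite := by
  refine (List.finite_length_le α (D.p0 + D.N1)).subset ?_
  rintro P ⟨h1, h2⟩
  have := D.hlen _ _ h2
  rw [List.length_drop] at this
  show P.length ≤ _
  omega

theorem finL2 [Finite α] (v : V) : (D.L2 v).Finite := by
  refine (List.finite_length_le α D.p0).subset ?_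
  rintro P ⟨k, hk, h1, -⟩
  show P.length ≤ _
  rw [h1]; exact D.hc0 k hk

end Dat

end Crest.Agent.R320.Asm618
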