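import Crest.Agent.R320.Grid_745

/-!
# Row 320: assembly of the two schemes over `nested_infinite` (helper745)
-/

set_option autoImplicit false

namespace Crest.Agent.R320.Asm_745

open Crest.RegLang Crest.Agent.R320.Hgt1_903 Crest.Agent.R320.Three_427
open Crest.Agent.R320.Grid_745

/-- product -/
def ph {α S : Type} [Monoid S] (φ : α → S) (w : List α) : S := (w.map φ).prod

theorem ph_append {α S : Type} [Monoid S] (φ : α → S) (u v : List α) :
    ph φ (u ++ v) = ph φ u * ph φ v := by
  simp [ph]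

/-- the last letters are a wall -/
def Wo {α : Type} (Ws : Set (List α)) (w : List α) : Prop := ∃ s ∈ Ws, s <:+ w

/-- the parameters -/
structure Par (α S V : Type) [Monoid S] [AddCommGroup V] (φ : α → S) (act : V → S → V)
    (R0 K : ℕ) extends Grid α S V φ act R0 K where
  n : ℕ
  Ws : Set (List α)
  z : ℕ
  p0 : ℕ
  lam : ℕ → List α → Option V
  rh : ℕ → List α → S → Option V
  nu2 : List α → S → V
  hn : 0 < n
  hWs : ∀ s ∈ Ws, s.length = n
  sep : ∀ (w : List α) x y, x < y → y ≤ w.length → Wo Ws (w.take x) → Wo Ws (w.take y) →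
    x + 4 * (p0 + N1 + 1) ≤ y
  hp0 : ∀ i < K, c i ≤ p0
  hz : 4 * (p0 + N1 + n + Z + 1) ≤ z
  s2 : ∀ k < K, ∀ (P Q : List α) (v b : V), P.length = c k → lam k P = some v →
    rh k Q 1 = some b → b = act v (ph φ (P ++ Q)) + nu2 (P ++ Q) 1
  c2 : ∀ (u : List α) (v : V), u.length = p0 → ∃ I : Finset ℕ, 2 * R0 + 2 ≤ I.card ∧
    ∀ k ∈ I, k < K ∧ lam k (u.take (c k)) = some v ∧ (rh k (u.drop (c k)) 1).isSome
  aadd : ∀ v w s, act (v + w) s = act v s + act w s
  aone : ∀ v, act v 1 = v
  amul : ∀ v s t, act v (s * t) = act (act v s) t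

variable {α S V : Type} [Monoid S] [AddCommGroup V] {φ : α → S} {act : V → S → V} {R0 K : ℕ}

namespace Par

variable (D : Par α S V φ act R0 K)

/-- first wall after `z` -/
def XX (X : List α) : Prop :=
  Wo D.Ws X ∧ D.z ≤ X.length ∧ ∀ t < X.length, Wo D.Ws (X.take t) → t < D.z

/-- zone map -/
def T (X : List α) (v : V) : V :=
  act (act v (ph φ (X.take D.p0)) + D.nu2 (X.take D.p0) 1) (ph φ (X.drop D.p0)) +
    D.nu (X.drop D.p0)

open Classical in
/-- the deterministic system: text since the start of the block, token at the start -/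
noncomputable def step (p : List α × V) (a : α) : List α × V :=
  if D.XX (p.1 ++ [a]) then ([], D.T (p.1 ++ [a]) p.2) else (p.1 ++ [a], p.2)

theorem wo_len {w : List α} (h : Wo D.Ws w) : D.n ≤ w.length := by
  obtain ⟨s, hs, hsw⟩ := h
  rw [← D.hWs s hs]; exact hsw.length_le

/-- locality -/
theorem wo_append {P Q : List α} (h : D.n ≤ Q.length) : Wo D.Ws (P ++ Q) ↔ Wo D.Ws Q := by
  constructor
  · rintro ⟨s, hs, hsw⟩
    refine ⟨s, hs, ?_⟩
    exact List.suffix_of_suffix_length_le hsw (List.suffix_append P Q) (by rw [D.hWs s hs]; exact h)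
  · rintro ⟨s, hs, hsw⟩
    exact ⟨s, hs, hsw.trans (List.suffix_append P Q)⟩

theorem XX_len {X : List α} (h : D.XX X) : D.z ≤ X.length := h.2.1

theorem z_pos : 0 < D.z := by have := D.hz; omega

theorem XX_ne {X : List α} (h : D.XX X) : X ≠ [] := by
  rintro rfl
  have := h.2.1
  have := D.z_pos
  simp at *
  omega

theorem XX_prefix {X Y : List α} (hX : D.XX X) (hY : D.XX Y) (h : X <+: Y) : X = Y := by
  obtain ⟨r, rfl⟩ := h
  by_cases hr : r = []
  · simp [hr]
  · exfalso
    have hlt : X.length < (X ++ r).length := by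
      have := List.length_pos_iff.2 hr
      simp; omega
    have := hY.2.2 X.length hlt (by simpa using hX.1)
    have := hX.2.1
    omega

/-- no proper prefix is a block: the run appends -/
theorem run_noblock (w : List α) (u : List α) (v : V)
    (h : ∀ y, y <+: w → y ≠ [] → ¬ D.XX (u ++ y)) : run D.step w (u, v) = (u ++ w, v) := by
  induction w generalizing u with
  | nil => simp [run]
  | cons a w ih =>
    have h1 : ¬ D.XX (u ++ [a]) := h [a] (by simp) (by simp)
    have h2 : D.step (u, v) a = (u ++ [a], v) := by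
      unfold step; rw [if_neg h1]
    show run D.step w (D.step (u, v) a) = _
    rw [h2, ih (u ++ [a]) ?_]
    · simp
    · intro y hy _
      have := h (a :: y) (by simpa using hy) (by simp)
      simpa using this

theorem run_block (w : List α) (u : List α) (v : V) (hw : w ≠ []) (h : D.XX (u ++ w)) :
    run D.step w (u, v) = ([], D.T (u ++ w) v) := by
  obtain ⟨w', a, rfl⟩ : ∃ w' a, w = w' ++ [a] := ⟨w.dropLast, w.getLast hw, (List.dropLast_concat_getLast hw).symm⟩
  rw [run_append, D.run_noblock w' u v]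
  · show D.step (u ++ w', v) a = _
    unfold step
    rw [if_pos (by simpa using h)]
    simp
  · intro y hy _ hXy
    have h1 := D.XX_prefix hXy h (by
      obtain ⟨r, rfl⟩ := hy
      exact ⟨r ++ [a], by simp⟩)
    have h2 := List.append_cancel_left h1
    obtain ⟨r, rfl⟩ := hy
    have := congrArg List.length h2
    simp at this

/-- walls of a concatenation -/
theorem wo_take_append {P Q : List α} {t : ℕ} (h : D.n ≤ t) :
    Wo D.Ws ((P ++ Q).take (P.length + t)) ↔ Wo D.Ws (Q.take t) ∨
      (Q.length < t ∧ Wo D.Ws ((P ++ Q))) := by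
  by_cases hq : Q.length < t
  · rw [List.take_of_length_le (by simp; omega), List.take_of_length_le (by omega : Q.length ≤ t)]
    constructor
    · intro h1; exact Or.inr ⟨hq, h1⟩
    · rintro (h1 | ⟨_, h1⟩)
      · exact (D.wo_append (D.wo_len h1)).2 h1
      · exact h1
  · have : (P ++ Q).take (P.length + t) = P ++ Q.take t := by
      rw [List.take_append]; simp
    rw [this, D.wo_append (by rw [List.length_take]; omega)]
    constructor
    · intro h1; exact Or.inl h1
    · rintro (h1 | ⟨h2, _⟩)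
      · exact h1
      · exact absurd h2 hq

/-- the rest of a block seen from the place `x` -/
def CX (x : ℕ) (Q : List α) : Prop :=
  Wo D.Ws Q ∧ D.z ≤ x + Q.length ∧ ∀ t < Q.length, Wo D.Ws (Q.take t) → x + t < D.z

theorem CX_iff {P Q : List α} (hP : P.length + D.n ≤ D.z) :
    D.XX (P ++ Q) ↔ D.CX P.length Q := by
  constructor
  · rintro ⟨h1, h2, h3⟩
    rw [List.length_append] at h2
    refine ⟨(D.wo_append (by omega)).1 h1, h2, fun t ht hw => ?_⟩
    have hn := D.wo_len hw
    rw [List.length_take] at hn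
    refine h3 (P.length + t) (by simp; omega) ?_
    rw [D.wo_take_append (by omega)]
    exact Or.inl hw
  · rintro ⟨h1, h2, h3⟩
    have hn := D.wo_len h1
    refine ⟨(D.wo_append hn).2 h1, by simpa using h2, fun t ht hw => ?_⟩
    rw [List.length_append] at ht
    by_cases hlt : t < P.length + D.n
    · omega
    · obtain ⟨t', rfl⟩ : ∃ t', t = P.length + t' := ⟨t - P.length, by omega⟩
      rw [D.wo_take_append (by omega)] at hw
      rcases hw with hw | ⟨hw, _⟩
      · exact h3 t' (by omega) hw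
      · omega

theorem CX_prefix {x : ℕ} {X Y : List α} (hX : D.CX x X) (hY : D.CX x Y) (h : X <+: Y) : X = Y := by
  obtain ⟨r, rfl⟩ := h
  by_cases hr : r = []
  · simp [hr]
  · exfalso
    have hlt : X.length < (X ++ r).length := by
      have := List.length_pos_iff.2 hr
      simp; omega
    have := hY.2.2 X.length hlt (by simpa using hX.1)
    have := hX.2.1
    omega

/-- mode (E) seen from the place `x` -/
def CE (x : ℕ) (Q : List α) : Prop :=
  ∃ t ≤ Q.length, Wo D.Ws (Q.take t) ∧ D.z ≤ x + t + D.N1 ∧ x + t ≤ D.z + D.N1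

/-- bad block seen from the place `x` -/
def CB (x : ℕ) (Q : List α) : Prop :=
  D.CX x Q ∧ (D.CE x Q ∨ D.Bad (x + Q.length - D.p0))

/-- right words of level 0: wall side -/
def RW (Q : List α) : Prop :=
  Wo D.Ws Q ∧ D.z ≤ D.p0 + Q.length ∧ ∀ t < Q.length, Wo D.Ws (Q.take t) → t + D.p0 + D.N1 < D.z

/-- level 0 -/
def L0 : Lvl (List α × V) α where
  C p := D.p0 ≤ p.1.length ∧
    D.LL (p.1.drop D.p0) (act p.2 (ph φ (p.1.take D.p0)) + D.nu2 (p.1.take D.p0) 1)
  R Q := D.RW Q ∧ (D.rho Q).isSome
  c Q := ([], (D.rho Q).getD 0)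

/-- value of a right word of level 1 -/
def Val (W : List α) (x : V) : Prop :=
  ∃ j < K, ∃ Q X b, W = Q ++ X ∧ D.XX X ∧ D.CB (D.c j) Q ∧
    (∀ j' < K, j' ≠ j → ∀ Q', Q' <+: W → ¬ D.CB (D.c j') Q') ∧
    D.rh j (Q.take (D.p0 - D.c j)) 1 = some b ∧
    x = D.T X (act b (ph φ (Q.drop (D.p0 - D.c j))) + D.nu (Q.drop (D.p0 - D.c j)))

open Classical in
/-- level 1 -/
noncomputable def L1 : Lvl (List α × V) α where
  C p := ∃ k < K, p.1.length = D.c k ∧ D.lam k p.1 = some p.2
  R W := ∃ x, D.Val W x
  c W := ([], if h : ∃ x, D.Val W x then h.choose else 0)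

/-- the levels -/
noncomputable def L (i : ℕ) : Lvl (List α × V) α := if i = 0 then D.L0 else D.L1

/-- soundness of level 0 -/
theorem sound0 (p : List α × V) (Q : List α) (hC : D.L0.C p) (hR : D.L0.R Q) :
    run D.step Q p = D.L0.c Q := by
  obtain ⟨u, v⟩ := p
  obtain ⟨h1, h2⟩ := hC
  obtain ⟨⟨h3, h4, h5⟩, h6⟩ := hR
  simp only at h1 h2
  have hl := D.len _ _ h2
  rw [List.length_drop] at hl
  have hz := D.hz
  have hX : D.XX (u ++ Q) := by
    rw [D.CX_iff (by omega)]
    refine ⟨h3, by omega, fun t ht hw => ?_⟩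
    have := h5 t ht hw
    omega
  have hQ : Q ≠ [] := D.ne Q h6
  rw [D.run_block Q u v hQ hX]
  obtain ⟨b, hb⟩ := Option.isSome_iff_exists.1 h6
  show ([], _) = (([] : List α), (D.rho Q).getD 0)
  rw [hb, Option.getD_some]
  have := D.sound _ _ _ _ h2 hb
  rw [this]
  unfold T
  rw [List.take_append_of_le_length h1, List.drop_append_of_le_length h1]
  rfl

end Par

end Crest.Agent.R320.Asm_745
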