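import Crest.Agent.R320.Level2_297
import Crest.Agent.R320.FewVal_228
import Crest.Agent.R320.ExactR_237
import Crest.Agent.R320.Reg_143

/-!
# Row 320, all-words assembly over `Level2_297.two_schemes` (helper772), part 1:
the zone rule (end of a zone = next wall after the first wall `≥ z`), scheme 1 from a U-gadget on
all words, scheme 2 = promise ruler with the exact gadget.
-/

set_option autoImplicit false

namespace Crest.Agent.R320.Asm_772

open Crest.RegLang Crest.Agent.R320.Hk_851 Crest.Agent.R320.Level_297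
open Crest.Agent.R320.FewWalls_228

section walls

variable {α : Type} {n : ℕ} {S : Set (List α)}

theorem wl_app {Q s : List α} {t : ℕ} (h : t + n ≤ Q.length) :
    Wl n S (Q ++ s) t ↔ Wl n S Q t := by
  unfold Wl
  rw [List.drop_append_of_le_length (by omega),
    List.take_append_of_le_length (by rw [List.length_drop]; omega), List.length_append]
  constructor
  · rintro ⟨_, h2⟩; exact ⟨h, h2⟩
  · rintro ⟨_, h2⟩; exact ⟨by omega, h2⟩

theorem wl_shift {P Q : List α} {t : ℕ} :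
    Wl n S (P ++ Q) (P.length + t) ↔ Wl n S Q t := by
  have h := wl_drop (n := n) (S := S) (w := P ++ Q) (x := t) (m := P.length) (by simp)
  rw [← h, List.drop_left]

/-- first wall at or after `A` -/
def FW (n : ℕ) (S : Set (List α)) (Q : List α) (A t : ℕ) : Prop :=
  Wl n S Q t ∧ A ≤ t ∧ ∀ t', A ≤ t' → t' < t → ¬ Wl n S Q t'

theorem FW.uniq {Q : List α} {A t t' : ℕ} (h : FW n S Q A t) (h' : FW n S Q A t') : t = t' := by
  rcases Nat.lt_trichotomy t t' with h1 | h1 | h1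
  · exact absurd h.1 (h'.2.2 t h.2.1 h1)
  · exact h1
  · exact absurd h'.1 (h.2.2 t' h'.2.1 h1)

theorem FW.le {Q : List α} {A t : ℕ} (h : FW n S Q A t) : t + n ≤ Q.length := h.1.1

theorem FW.app {Q s : List α} {A t : ℕ} (h : FW n S Q A t) : FW n S (Q ++ s) A t := by
  have hl := h.le
  refine ⟨(wl_app hl).2 h.1, h.2.1, fun t' h1 h2 h3 => ?_⟩
  exact h.2.2 t' h1 h2 ((wl_app (by omega)).1 h3)

theorem FW.of_app {Q s : List α} {A t : ℕ} (h : FW n S (Q ++ s) A t) (hl : t + n ≤ Q.length) :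
    FW n S Q A t := by
  refine ⟨(wl_app hl).1 h.1, h.2.1, fun t' h1 h2 h3 => ?_⟩
  exact h.2.2 t' h1 h2 ((wl_app (by omega)).2 h3)

theorem FW.ex {Q : List α} {A t : ℕ} (h : Wl n S Q t) (hA : A ≤ t) : ∃ b ≤ t, FW n S Q A b := by
  classical
  have hex : ∃ b, Wl n S Q b ∧ A ≤ b := ⟨t, h, hA⟩
  refine ⟨Nat.find hex, Nat.find_min' hex ⟨h, hA⟩, (Nat.find_spec hex).1, (Nat.find_spec hex).2,
    fun t' h1 h2 h3 => Nat.find_min hex h2 ⟨h3, h1⟩⟩

theorem FW.shift {P Q : List α} {A t : ℕ} :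
    FW n S (P ++ Q) (P.length + A) (P.length + t) ↔ FW n S Q A t := by
  constructor
  · rintro ⟨h1, h2, h3⟩
    exact ⟨wl_shift.1 h1, by omega,
      fun t' a b c => h3 (P.length + t') (by omega) (by omega) (wl_shift.2 c)⟩
  · rintro ⟨h1, h2, h3⟩
    refine ⟨wl_shift.2 h1, by omega, fun t' a b c => ?_⟩
    obtain ⟨u, rfl⟩ : ∃ u, t' = P.length + u := ⟨t' - P.length, by omega⟩
    exact h3 u (by omega) (by omega) (wl_shift.1 c)

end walls

section rule

variable {α V : Type}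

open Classical in
noncomputable def nxZ (Z : List α → ℕ → (V → V) → Prop) (Q : List α) : Option (ℕ × (V → V)) :=
  if h : ∃ x : ℕ × (V → V), Z Q x.1 x.2 then some h.choose else none

theorem nxZ_iff {Z : List α → ℕ → (V → V) → Prop}
    (uniq : ∀ Q l f l' f', Z Q l f → Z Q l' f' → l = l' ∧ f = f') {Q : List α} {l : ℕ}
    {f : V → V} : nxZ Z Q = some (l, f) ↔ Z Q l f := by
  unfold nxZ
  split
  · rename_i h
    have hs := h.choose_spec
    constructor
    · intro e
      have e' : h.choose = (l, f) := by simpa using e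
      rw [e'] at hs; exact hs
    · intro hz
      have h1 := uniq _ _ _ _ _ hs hz
      have h2 : h.choose = (l, f) := Prod.ext h1.1 h1.2
      rw [h2]
  · rename_i h
    constructor
    · intro e; cases e
    · intro hz; exact absurd ⟨(l, f), hz⟩ h

/-- a rule from a functional relation -/
noncomputable def mkRule (n : ℕ) (Z : List α → ℕ → (V → V) → Prop)
    (uniq : ∀ Q l f l' f', Z Q l f → Z Q l' f' → l = l' ∧ f = f')
    (pos : ∀ Q l f, Z Q l f → 0 < l) (vis : ∀ Q l f, Z Q l f → l + n ≤ Q.length)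
    (ext : ∀ Q s l f, Z Q l f → Z (Q ++ s) l f)
    (cut : ∀ Q s l f, Z (Q ++ s) l f → l + n ≤ Q.length → Z Q l f) : Rule α V n where
  nx := nxZ Z
  pos := fun Q l f h => pos Q l f ((nxZ_iff uniq).1 h)
  vis := fun Q l f h => vis Q l f ((nxZ_iff uniq).1 h)
  ext := fun Q s l f h => (nxZ_iff uniq).2 (ext Q s l f ((nxZ_iff uniq).1 h))
  cut := fun Q s l f h hl => (nxZ_iff uniq).2 (cut Q s l f ((nxZ_iff uniq).1 h) hl)

end rule

/-- the data of the two schemes -/
structure Dat (α V S : Type) where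
  n : ℕ
  St : Set (List α)
  act : V → S → V
  φ : α → S
  K : ℕ
  N1 : ℕ
  La : ℕ
  p0 : ℕ
  z : ℕ
  W : ℕ
  cc : ℕ → ℕ
  Bad : ℕ → Prop
  lam : List α → Option V
  rho : List α → Option V
  nu1 : List α → V
  lam2 : ℕ → List α → Option V
  rho2 : ℕ → List α → S → Option V
  nu2 : List α → V

variable {α V S : Type} [Monoid S] [AddCommGroup V]

def seg (u : List α) (a b : ℕ) : List α := (u.drop a).take (b - a)

theorem seg_app {u s : List α} {a b : ℕ} (hb : b ≤ u.length) : seg (u ++ s) a b = seg u a b := by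
  unfold seg
  by_cases hab : a ≤ b
  · rw [List.drop_append_of_le_length (by omega),
      List.take_append_of_le_length (by rw [List.length_drop]; omega)]
  · rw [show b - a = 0 by omega, List.take_zero, List.take_zero]

theorem seg_shift (P Q : List α) (a b : ℕ) :
    seg (P ++ Q) (P.length + a) (P.length + b) = seg Q a b := by
  unfold seg
  rw [← List.drop_drop, List.drop_left, show P.length + b - (P.length + a) = b - a by omega]

theorem seg_left (P Q : List α) (a b : ℕ) (ha : a ≤ P.length) :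
    seg (P ++ Q) a (P.length + b) = P.drop a ++ Q.take b := by
  unfold seg
  rw [List.drop_append_of_le_length ha, show P.length + b - a = (P.drop a).length + b by
    rw [List.length_drop]; omega, List.take_length_add_append]

namespace Dat

variable (D : Dat α V S)

def pr (u : List α) : S := (u.map D.φ).prod

theorem pr_append (u v : List α) : D.pr (u ++ v) = D.pr u * D.pr v := by
  simp [pr]

def W' (Q : List α) (t : ℕ) : Prop := Wl D.n D.St Q t
def F' (Q : List α) (A t : ℕ) : Prop := FW D.n D.St Q A t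

/-- value at `a + p0` -/
def v1 (X : List α) (v : V) : V := D.act v (D.pr X) + D.nu2 X

def zmap (Q : List α) (b e : ℕ) : V → V := fun v =>
  D.act (D.act (D.v1 (Q.take D.p0) v) (D.pr (seg Q D.p0 b)) + D.nu1 (seg Q D.p0 b))
    (D.pr (seg Q b e))

def BadZ (Q : List α) (b : ℕ) : Prop :=
  D.Bad (b - D.p0) ∨ ∃ t ≤ b, D.W' Q t ∧ D.z ≤ t + D.N1 ∧ t ≤ D.z + D.N1

def ZR (Q : List α) (e : ℕ) (f : V → V) : Prop :=
  ∃ b, D.F' Q D.z b ∧ D.F' Q (b + 1) e ∧ f = D.zmap Q b e

def ZB (Q : List α) (e : ℕ) (f : V → V) : Prop :=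
  ∃ b, D.F' Q D.z b ∧ D.F' Q (b + 1) e ∧ f = D.zmap Q b e ∧ D.BadZ Q b

/-- badness of candidate number `j` seen from the right word -/
def BadC (j : ℕ) (Q : List α) : Prop :=
  ∃ b, D.F' Q (D.z - D.cc j) b ∧ (D.Bad (b + D.cc j - D.p0) ∨
    ∃ t ≤ b, D.W' Q t ∧ D.z ≤ t + D.cc j + D.N1 ∧ t + D.cc j ≤ D.z + D.N1)

def LL1 (P : List α) (v : V) : Prop :=
  D.p0 ≤ P.length ∧ D.lam (P.drop D.p0) = some (D.v1 (P.take D.p0) v)

def RL1 (Q : List α) (d : ℕ) (c : V) : Prop :=
  ∃ b, D.F' Q (D.z - D.p0) b ∧ D.F' Q (b + 1) d ∧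
    (∀ t, D.z ≤ t + D.p0 + D.N1 → t + D.p0 < D.z → ¬ D.W' Q t) ∧
    ∃ r, D.rho (Q.take b) = some r ∧ c = D.act r (D.pr (seg Q b d))

def LL2 (P : List α) (v : V) : Prop := ∃ k < D.K, P.length = D.cc k ∧ D.lam2 k P = some v

def RL2 (Q : List α) (d : ℕ) (c : V) : Prop :=
  ∃ k < D.K, D.BadC k Q ∧ (∀ j < D.K, j ≠ k → ¬ D.BadC j Q) ∧
    ∃ b, D.F' Q (D.z - D.cc k) b ∧ D.F' Q (b + 1) d ∧
      ∃ r, D.rho2 k (Q.take (D.p0 - D.cc k)) 1 = some r ∧
        c = D.act (D.act r (D.pr (seg Q (D.p0 - D.cc k) b)) + D.nu1 (seg Q (D.p0 - D.cc k) b))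
          (D.pr (seg Q b d))

def Dead2 : Language α := {Q | ∃ b, D.F' Q D.z b ∧ ¬ D.BadZ Q b}

/-- the properties of the data -/
structure Ok : Prop where
  hn : 0 < D.n
  hsep : ∀ (w : List α) (x y : ℕ), x < y → D.W' w x → D.W' w y → x + D.W ≤ y
  hp0 : D.n ≤ D.p0
  hz : D.p0 + D.N1 + D.La < D.z
  hcc : ∀ k < D.K, D.n ≤ D.cc k ∧ D.cc k ≤ D.p0
  hW : ∀ i < D.K, ∀ j < D.K, D.cc i ≤ D.cc j + D.W
  mul : ∀ v s t, D.act (D.act v s) t = D.act v (s * t)
  add : ∀ v w s, D.act (v + w) s = D.act v s + D.act w s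
  lamN : ∀ p v, D.lam p = some v → p.length ≤ D.N1
  sound : ∀ p q v r, D.lam p = some v → D.rho q = some r → D.La ≤ q.length →
    r = D.act v (D.pr (p ++ q)) + D.nu1 (p ++ q)
  compl : ∀ u v, D.La ≤ u.length → ¬ D.Bad u.length →
    ∃ p q, p ++ q = u ∧ D.lam p = some v ∧ ∃ r, D.rho q = some r
  sound2 : ∀ k < D.K, ∀ P Q v b, P.length = D.cc k → D.lam2 k P = some v →
    D.rho2 k Q 1 = some b → b = D.v1 (P ++ Q) v
  compl2 : ∀ (Q : List α) (v : V) (b l : ℕ), D.F' Q D.z b → D.F' Q (b + 1) l → ∃ k < D.K,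
    D.lam2 k (Q.take (D.cc k)) = some v ∧
    (∃ r, D.rho2 k ((Q.take D.p0).drop (D.cc k)) 1 = some r) ∧
    ∀ j < D.K, j ≠ k → ¬ D.BadC j (Q.drop (D.cc k))

variable {D}

theorem zmap_app {Q s : List α} {b e : ℕ} (hp : D.p0 ≤ b) (hb : b ≤ e) (he : e ≤ Q.length) :
    D.zmap (Q ++ s) b e = D.zmap Q b e := by
  unfold zmap
  rw [List.take_append_of_le_length (by omega), seg_app (by omega), seg_app he]

theorem BadZ_app {Q s : List α} {b : ℕ} (hb : b + D.n ≤ Q.length) :
    D.BadZ (Q ++ s) b ↔ D.BadZ Q b := by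
  unfold BadZ
  refine or_congr Iff.rfl ⟨?_, ?_⟩
  · rintro ⟨t, h1, h2, h3⟩
    exact ⟨t, h1, (wl_app (by omega)).1 h2, h3⟩
  · rintro ⟨t, h1, h2, h3⟩
    exact ⟨t, h1, (wl_app (by omega)).2 h2, h3⟩

theorem ZR_uniq (Q : List α) (l : ℕ) (f : V → V) (l' : ℕ) (f' : V → V) (h : D.ZR Q l f)
    (h' : D.ZR Q l' f') : l = l' ∧ f = f' := by
  obtain ⟨b, h1, h2, h3⟩ := h
  obtain ⟨b', h1', h2', h3'⟩ := h'
  obtain rfl := h1.uniq h1'
  obtain rfl := h2.uniq h2'
  exact ⟨rfl, by rw [h3, h3']⟩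

theorem ZB_ZR {Q : List α} {l : ℕ} {f : V → V} (h : D.ZB Q l f) : D.ZR Q l f := by
  obtain ⟨b, h1, h2, h3, _⟩ := h
  exact ⟨b, h1, h2, h3⟩

theorem ZB_uniq (Q : List α) (l : ℕ) (f : V → V) (l' : ℕ) (f' : V → V) (h : D.ZB Q l f)
    (h' : D.ZB Q l' f') : l = l' ∧ f = f' := ZR_uniq Q l f l' f' (ZB_ZR h) (ZB_ZR h')

variable (H : D.Ok)
include H

theorem ZR_pos (Q : List α) (l : ℕ) (f : V → V) (h : D.ZR Q l f) : 0 < l := by
  obtain ⟨b, h1, h2, h3⟩ := h
  have := h2.2.1
  omega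

theorem ZR_vis (Q : List α) (l : ℕ) (f : V → V) (h : D.ZR Q l f) : l + D.n ≤ Q.length := by
  obtain ⟨b, h1, h2, h3⟩ := h
  exact h2.le

theorem ZR_ext (Q s : List α) (l : ℕ) (f : V → V) (h : D.ZR Q l f) : D.ZR (Q ++ s) l f := by
  obtain ⟨b, h1, h2, h3⟩ := h
  have e1 := h1.2.1; have e2 := h2.2.1; have e3 := h2.le; have e4 := H.hz
  exact ⟨b, h1.app, h2.app, by rw [h3, zmap_app (by omega) (by omega) (by omega)]⟩

theorem ZR_cut (Q s : List α) (l : ℕ) (f : V → V) (h : D.ZR (Q ++ s) l f)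
    (hl : l + D.n ≤ Q.length) : D.ZR Q l f := by
  obtain ⟨b, h1, h2, h3⟩ := h
  have e1 := h1.2.1; have e2 := h2.2.1; have e4 := H.hz
  exact ⟨b, h1.of_app (by omega), h2.of_app hl,
    by rw [h3, zmap_app (by omega) (by omega) (by omega)]⟩

theorem ZB_ext (Q s : List α) (l : ℕ) (f : V → V) (h : D.ZB Q l f) : D.ZB (Q ++ s) l f := by
  obtain ⟨b, h1, h2, h3, h4⟩ := h
  have e1 := h1.2.1; have e2 := h2.2.1; have e3 := h2.le; have e4 := H.hz
  exact ⟨b, h1.app, h2.app, by rw [h3, zmap_app (by omega) (by omega) (by omega)],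
    (BadZ_app h1.le).2 h4⟩

theorem ZB_cut (Q s : List α) (l : ℕ) (f : V → V) (h : D.ZB (Q ++ s) l f)
    (hl : l + D.n ≤ Q.length) : D.ZB Q l f := by
  obtain ⟨b, h1, h2, h3, h4⟩ := h
  have e1 := h1.2.1; have e2 := h2.2.1; have e4 := H.hz
  exact ⟨b, h1.of_app (by omega), h2.of_app hl,
    by rw [h3, zmap_app (by omega) (by omega) (by omega)], (BadZ_app (by omega)).1 h4⟩

/-- the rule of all zones -/
noncomputable def rR : Rule α V D.n :=
  mkRule D.n D.ZR ZR_uniq (ZR_pos H) (ZR_vis H) (ZR_ext H) (ZR_cut H)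

/-- the rule of the bad zones -/
noncomputable def rB : Rule α V D.n :=
  mkRule D.n D.ZB ZB_uniq (fun Q l f h => ZR_pos H Q l f (ZB_ZR h))
    (fun Q l f h => ZR_vis H Q l f (ZB_ZR h)) (ZB_ext H) (ZB_cut H)

theorem rR_iff {Q : List α} {l : ℕ} {f : V → V} :
    (rR H).nx Q = some (l, f) ↔ D.ZR Q l f := nxZ_iff ZR_uniq

theorem rB_iff {Q : List α} {l : ℕ} {f : V → V} :
    (rB H).nx Q = some (l, f) ↔ D.ZB Q l f := nxZ_iff ZB_uniq

/-! ### scheme 1 -/

theorem exact1 (P : List α) (v : V) (Q : List α) (d : ℕ) (c : V) (hL : D.LL1 P v)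
    (hR : D.RL1 Q d c) : ∃ f, D.ZR (P ++ Q) (P.length + d) f ∧ f v = c := by
  obtain ⟨hP, hlam⟩ := hL
  obtain ⟨b, hb, hd, hleg, r, hr, hc⟩ := hR
  have hN := H.lamN _ _ hlam
  rw [List.length_drop] at hN
  have e4 := H.hz
  have e1 := hb.2.1
  have e2 := hd.2.1
  have e3 := hb.le
  have hFb : D.F' (P ++ Q) D.z (P.length + b) := by
    refine ⟨wl_shift.2 hb.1, by omega, fun t' h1 h2 h3 => ?_⟩
    obtain ⟨t, rfl⟩ : ∃ t, t' = P.length + t := ⟨t' - P.length, by omega⟩
    have h3' : Wl D.n D.St Q t := wl_shift.1 h3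
    by_cases h : D.z - D.p0 ≤ t
    · exact hb.2.2 t h (by omega) h3'
    · exact hleg t (by omega) (by omega) h3'
  have hFd : D.F' (P ++ Q) (P.length + b + 1) (P.length + d) := by
    have := (FW.shift (n := D.n) (S := D.St) (P := P) (Q := Q) (A := b + 1) (t := d)).2 hd
    exact this
  refine ⟨_, ⟨P.length + b, hFb, hFd, rfl⟩, ?_⟩
  unfold zmap
  have h1 : (P ++ Q).take D.p0 = P.take D.p0 := List.take_append_of_le_length hP
  rw [h1, seg_left P Q D.p0 b hP, seg_shift P Q b d, hc]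
  congr 1
  have := H.sound _ _ _ _ hlam hr (by rw [List.length_take]; omega)
  rw [this]

theorem complete1 (Q : List α) (l : ℕ) (f : V → V) (h : D.ZR Q l f) :
    D.ZB Q l f ∨ ∀ v, ∃ P Q' d c, Q = P ++ Q' ∧ D.LL1 P v ∧ D.RL1 Q' d c := by
  obtain ⟨b, hb, hl, hf⟩ := h
  by_cases hbad : D.BadZ Q b
  · exact Or.inl ⟨b, hb, hl, hf, hbad⟩
  right
  intro v
  have e4 := H.hz
  have e1 := hb.2.1
  have e2 := hl.2.1
  have e3 := hl.le
  have hlen : (seg Q D.p0 b).length = b - D.p0 := by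
    unfold seg
    rw [List.length_take, List.length_drop]
    omega
  have hnb : ¬ D.Bad (b - D.p0) := fun h => hbad (Or.inl h)
  have hnw : ∀ t ≤ b, D.z ≤ t + D.N1 → t ≤ D.z + D.N1 → ¬ D.W' Q t :=
    fun t h1 h2 h3 h4 => hbad (Or.inr ⟨t, h1, h4, h2, h3⟩)
  have hbN : D.z + D.N1 < b := by
    by_contra hcon
    exact hnw b le_rfl (by omega) (by omega) hb.1
  obtain ⟨p, q, hpq, hlam, r, hr⟩ := H.compl (seg Q D.p0 b) (D.v1 (Q.take D.p0) v)
    (by omega) (by rw [hlen]; exact hnb)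
  have hN := H.lamN _ _ hlam
  have hplen : p.length + q.length = b - D.p0 := by
    rw [← hlen, ← hpq, List.length_append]
  have hdrop : Q.drop D.p0 = p ++ (q ++ Q.drop b) := by
    rw [← List.append_assoc, hpq]
    unfold seg
    rw [show Q.drop b = (Q.drop D.p0).drop (b - D.p0) by
      rw [List.drop_drop]; congr 1; omega]
    exact (List.take_append_drop _ _).symm
  have hQ : Q = (Q.take D.p0 ++ p) ++ (q ++ Q.drop b) := by
    rw [List.append_assoc, ← hdrop, List.take_append_drop]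
  have hPlen : (Q.take D.p0 ++ p).length = D.p0 + p.length := by
    rw [List.length_append, List.length_take, min_eq_left (by omega)]
  obtain ⟨P, hPdef⟩ : ∃ P, P = Q.take D.p0 ++ p := ⟨_, rfl⟩
  obtain ⟨Q', hQ'def⟩ : ∃ Q', Q' = q ++ Q.drop b := ⟨_, rfl⟩
  rw [← hPdef, ← hQ'def] at hQ
  rw [← hPdef] at hPlen
  refine ⟨P, Q', l - P.length, D.act r (D.pr (seg Q' (b - P.length) (l - P.length))), hQ, ?_, ?_⟩
  · refine ⟨by omega, ?_⟩
    have h1 : P.drop D.p0 = p := by
      rw [hPdef, List.drop_append_of_le_length (by rw [List.length_take]; omega),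
        List.drop_eq_nil_of_le (by rw [List.length_take]; omega), List.nil_append]
    have h2 : P.take D.p0 = Q.take D.p0 := by
      rw [hPdef, List.take_append_of_le_length (by rw [List.length_take]; omega),
        List.take_take, min_self]
    rw [h1, h2]; exact hlam
  · refine ⟨b - P.length, ?_, ?_, ?_, r, ?_, rfl⟩
    · have : FW D.n D.St (P ++ Q') (P.length + (D.z - D.p0)) (P.length + (b - P.length)) := by
        rw [← hQ]
        refine ⟨?_, by omega, fun t' h1 h2 => hb.2.2 t' (by omega) (by omega)⟩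
        rw [show P.length + (b - P.length) = b by omega]
        exact hb.1
      exact FW.shift.1 this
    · have : FW D.n D.St (P ++ Q') (P.length + (b - P.length + 1)) (P.length + (l - P.length)) := by
        rw [← hQ, show P.length + (b - P.length + 1) = b + 1 by omega,
          show P.length + (l - P.length) = l by omega]
        exact hl
      exact FW.shift.1 this
    · intro t h1 h2 h3
      have h4 : Wl D.n D.St (P ++ Q') (P.length + t) := wl_shift.2 h3
      rw [← hQ] at h4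
      exact hnw (P.length + t) (by omega) (by omega) (by omega) h4
    · have : Q'.take (b - P.length) = q := by
        rw [hQ'def, List.take_append_of_le_length (by omega), List.take_of_length_le (by omega)]
      rw [this]; exact hr

/-- scheme 1 -/
noncomputable def S1 : Scheme (rR H) (rB H) where
  LL := D.LL1
  RL := D.RL1
  Dead := ⊥
  sub := fun Q x hx => by
    obtain ⟨l, f⟩ := x
    exact (rR_iff H).2 (ZB_ZR ((rB_iff H).1 hx))
  LLn := fun P v h => le_trans H.hp0 h.1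
  RLpos := fun Q d c h => by
    obtain ⟨b, h1, _⟩ := h
    have := h1.le
    have := H.hn
    omega
  RLext := fun Q s d c h => by
    obtain ⟨b, h1, h2, h3, r, h4, h5⟩ := h
    have e1 := h1.2.1; have e2 := h2.2.1; have e3 := h2.le
    refine ⟨b, h1.app, h2.app, fun t a1 a2 a3 => h3 t a1 a2 ((wl_app (by omega)).1 a3), r, ?_, ?_⟩
    · rw [List.take_append_of_le_length (by omega)]; exact h4
    · rw [seg_app (by omega)]; exact h5
  RLcut := fun Q s d c h hd => by
    obtain ⟨b, h1, h2, h3, r, h4, h5⟩ := h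
    have e1 := h1.2.1; have e2 := h2.2.1
    refine ⟨b, h1.of_app (by omega), h2.of_app hd,
      fun t a1 a2 a3 => h3 t a1 a2 ((wl_app (by omega)).2 a3), r, ?_, ?_⟩
    · rw [List.take_append_of_le_length (by omega)] at h4; exact h4
    · rw [seg_app (by omega)] at h5; exact h5
  Dext := fun Q s h => h.elim
  Dnone := fun Q h => h.elim
  exact := fun P v Q d c h1 h2 _ => by
    obtain ⟨f, h3, h4⟩ := exact1 H P v Q d c h1 h2
    exact ⟨f, (rR_iff H).2 h3, h4⟩
  complete := fun Q l f h => by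
    rcases complete1 H Q l f ((rR_iff H).1 h) with h1 | h1
    · exact Or.inl ((rB_iff H).2 h1)
    · exact Or.inr h1

/-! ### scheme 2 -/

omit H in
theorem badC_app {Q s : List α} {j t : ℕ} (ht : D.W' Q t) (hj : D.z - D.cc j ≤ t) :
    D.BadC j (Q ++ s) ↔ D.BadC j Q := by
  obtain ⟨b0, hb0, hF0⟩ := FW.ex ht hj
  constructor
  · rintro ⟨b, hb, h⟩
    obtain rfl := hb.uniq (hF0.app (s := s))
    refine ⟨b, hF0, ?_⟩
    have e := hF0.le
    rcases h with h | ⟨t', h1, h2, h3⟩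
    · exact Or.inl h
    · exact Or.inr ⟨t', h1, (wl_app (by omega)).1 h2, h3⟩
  · rintro ⟨b, hb, h⟩
    obtain rfl := hb.uniq hF0
    refine ⟨b, hF0.app, ?_⟩
    have e := hF0.le
    rcases h with h | ⟨t', h1, h2, h3⟩
    · exact Or.inl h
    · exact Or.inr ⟨t', h1, (wl_app (by omega)).2 h2, h3⟩

theorem badC_iff {P Q : List α} {j : ℕ} (hj : j < D.K) (hP : P.length = D.cc j) :
    D.BadC j Q ↔ ∃ b, D.F' (P ++ Q) D.z b ∧ D.BadZ (P ++ Q) b := by
  have e4 := H.hz
  have e5 := (H.hcc j hj).2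
  constructor
  · rintro ⟨b, hb, h⟩
    have e1 := hb.2.1
    refine ⟨P.length + b, ?_, ?_⟩
    · have := (FW.shift (n := D.n) (S := D.St) (P := P) (Q := Q)
        (A := D.z - D.cc j) (t := b)).2 hb
      rw [show P.length + (D.z - D.cc j) = D.z by omega] at this
      exact this
    · rcases h with h | ⟨t, h1, h2, h3, h4⟩
      · left
        rw [show P.length + b - D.p0 = b + D.cc j - D.p0 by omega]
        exact h
      · right
        exact ⟨P.length + t, by omega, wl_shift.2 h2, by omega, by omega⟩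
  · rintro ⟨b', hb, h⟩
    have e1 := hb.2.1
    obtain ⟨b, rfl⟩ : ∃ b, b' = P.length + b := ⟨b' - P.length, by omega⟩
    refine ⟨b, ?_, ?_⟩
    · refine (FW.shift (P := P)).1 ?_
      rw [show P.length + (D.z - D.cc j) = D.z by omega]
      exact hb
    · rcases h with h | ⟨t', h1, h2, h3, h4⟩
      · left
        rw [show b + D.cc j - D.p0 = P.length + b - D.p0 by omega]
        exact h
      · right
        obtain ⟨t, rfl⟩ : ∃ t, t' = P.length + t := ⟨t' - P.length, by omega⟩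
        exact ⟨t, by omega, wl_shift.1 h2, by omega, by omega⟩

theorem exact2 (P : List α) (v : V) (Q : List α) (d : ℕ) (c : V) (hL : D.LL2 P v)
    (hR : D.RL2 Q d c) (hD : P ++ Q ∉ D.Dead2) :
    ∃ f, D.ZB (P ++ Q) (P.length + d) f ∧ f v = c := by
  obtain ⟨i, hi, hPi, hlam⟩ := hL
  obtain ⟨k, hk, hbk, huniq, b, hb, hd, r, hr, hc⟩ := hR
  have e4 := H.hz
  have e5 := (H.hcc k hk).2
  have e6 := (H.hcc i hi).2
  have e1 := hb.2.1
  have e2 := hd.2.1
  have hsep := H.hsep Q b d (by omega) hb.1 hd.1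
  have hW := H.hW k hk i hi
  -- the true zone is visible
  have hwd : Wl D.n D.St (P ++ Q) (P.length + d) := wl_shift.2 hd.1
  obtain ⟨b0, hb0, hF0⟩ := FW.ex (A := D.z) hwd (by omega)
  have hbadZ : D.BadZ (P ++ Q) b0 := by
    by_contra hcon
    exact hD ⟨b0, hF0, hcon⟩
  have hbi : D.BadC i Q := (badC_iff H hi hPi).2 ⟨b0, hF0, hbadZ⟩
  have hik : i = k := by
    by_contra hcon
    exact huniq i hi hcon hbi
  subst hik
  have hFb : D.F' (P ++ Q) D.z (P.length + b) := by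
    have := (FW.shift (n := D.n) (S := D.St) (P := P) (Q := Q)
      (A := D.z - D.cc i) (t := b)).2 hb
    rw [show P.length + (D.z - D.cc i) = D.z by omega] at this
    exact this
  have hFd : D.F' (P ++ Q) (P.length + b + 1) (P.length + d) :=
    (FW.shift (n := D.n) (S := D.St) (P := P) (Q := Q) (A := b + 1) (t := d)).2 hd
  have hbb : b0 = P.length + b := FW.uniq hF0 hFb
  refine ⟨_, ⟨P.length + b, hFb, hFd, rfl, hbb ▸ hbadZ⟩, ?_⟩
  unfold zmap
  have e7 := hd.le
  have hXe : (P ++ Q).take D.p0 = P ++ Q.take (D.p0 - D.cc i) := by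
    have := List.take_length_add_append (l₁ := P) (l₂ := Q) (D.p0 - D.cc i)
    rw [← this]
    congr 1
    omega
  have hseg : seg (P ++ Q) D.p0 (P.length + b) = seg Q (D.p0 - D.cc i) b := by
    have := seg_shift P Q (D.p0 - D.cc i) b
    rw [← this]
    congr 1
    omega
  rw [hXe, hseg, seg_shift P Q b d, hc, ← H.sound2 i hi P _ v r hPi hlam hr]

theorem complete2 (Q : List α) (l : ℕ) (f : V → V) (h : D.ZB Q l f) (v : V) :
    ∃ P Q' d c, Q = P ++ Q' ∧ D.LL2 P v ∧ D.RL2 Q' d c := by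
  obtain ⟨b, hb, hl, hf, hbad⟩ := h
  obtain ⟨k, hk, hlam, ⟨r, hr⟩, huniq⟩ := H.compl2 Q v b l hb hl
  have e4 := H.hz
  have e5 := (H.hcc k hk).2
  have e1 := hb.2.1
  have e2 := hl.2.1
  have e3 := hl.le
  have hPlen : (Q.take (D.cc k)).length = D.cc k := by
    rw [List.length_take]; omega
  have hQ : Q = Q.take (D.cc k) ++ Q.drop (D.cc k) := (List.take_append_drop _ _).symm
  obtain ⟨P, hP⟩ : ∃ P, P = Q.take (D.cc k) := ⟨_, rfl⟩
  obtain ⟨Q', hQ'⟩ : ∃ Q', Q' = Q.drop (D.cc k) := ⟨_, rfl⟩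
  rw [← hP, ← hQ'] at hQ
  rw [← hP] at hPlen
  refine ⟨P, Q', l - D.cc k, _, hQ, ⟨k, hk, hPlen, by rw [hP]; exact hlam⟩, k, hk, ?_, ?_,
    b - D.cc k, ?_, ?_, r, ?_, rfl⟩
  · rw [badC_iff H hk hPlen, ← hQ]
    exact ⟨b, hb, hbad⟩
  · intro j hj hjk
    rw [hQ']
    exact huniq j hj hjk
  · refine (FW.shift (P := P)).1 ?_
    rw [← hQ, show P.length + (D.z - D.cc k) = D.z by omega,
      show P.length + (b - D.cc k) = b by omega]
    exact hb
  · refine (FW.shift (P := P)).1 ?_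
    rw [← hQ, show P.length + (b - D.cc k + 1) = b + 1 by omega,
      show P.length + (l - D.cc k) = l by omega]
    exact hl
  · rw [hQ', ← List.drop_take]
    exact hr

theorem badC_app' {Q s : List α} {k b d j : ℕ} (hk : k < D.K) (hj : j < D.K)
    (hb : D.F' Q (D.z - D.cc k) b) (hd : D.F' Q (b + 1) d) :
    D.BadC j (Q ++ s) ↔ D.BadC j Q := by
  have e1 := hb.2.1
  have e2 := hd.2.1
  have hsep := H.hsep Q b d (by omega) hb.1 hd.1
  have hW := H.hW k hk j hj
  exact badC_app hd.1 (by omega)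

/-- scheme 2 -/
noncomputable def S2 : Scheme (rB H) (emptyRule α V D.n) where
  LL := D.LL2
  RL := D.RL2
  Dead := D.Dead2
  sub := fun Q x hx => by
    exact absurd hx (by simp [emptyRule])
  LLn := fun P v h => by
    obtain ⟨k, hk, hP, _⟩ := h
    rw [hP]
    exact (H.hcc k hk).1
  RLpos := fun Q d c h => by
    obtain ⟨k, hk, _, _, b, h1, _⟩ := h
    have := h1.le
    have := H.hn
    omega
  RLext := fun Q s d c h => by
    obtain ⟨k, hk, h1, h2, b, hb, hd, r, hr, hc⟩ := h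
    have e1 := hb.2.1; have e2 := hd.2.1; have e3 := hd.le
    have e4 := H.hz
    refine ⟨k, hk, (badC_app' H hk hk hb hd).2 h1,
      fun j hj hjk hcon => h2 j hj hjk ((badC_app' H hk hj hb hd).1 hcon), b, hb.app, hd.app,
      r, ?_, ?_⟩
    · rw [List.take_append_of_le_length (by omega)]; exact hr
    · rw [seg_app (by omega), seg_app (by omega)]; exact hc
  RLcut := fun Q s d c h hl => by
    obtain ⟨k, hk, h1, h2, b, hb, hd, r, hr, hc⟩ := h
    have e1 := hb.2.1; have e2 := hd.2.1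
    have e4 := H.hz
    have hb' : D.F' Q (D.z - D.cc k) b := hb.of_app (by omega)
    have hd' : D.F' Q (b + 1) d := hd.of_app hl
    refine ⟨k, hk, (badC_app' H hk hk hb' hd').1 h1,
      fun j hj hjk hcon => h2 j hj hjk ((badC_app' H hk hj hb' hd').2 hcon), b, hb', hd',
      r, ?_, ?_⟩
    · rw [List.take_append_of_le_length (by omega)] at hr; exact hr
    · rw [seg_app (by omega), seg_app (by omega)] at hc; exact hc
  Dext := fun Q s h => by
    obtain ⟨b, h1, h2⟩ := h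
    exact ⟨b, h1.app, fun h3 => h2 ((BadZ_app h1.le).1 h3)⟩
  Dnone := fun Q h => by
    obtain ⟨b, h1, h2⟩ := h
    cases hx : (rB H).nx Q with
    | none => rfl
    | some x =>
      obtain ⟨l, f⟩ := x
      obtain ⟨b', h1', _, _, h4⟩ := (rB_iff H).1 hx
      obtain rfl := h1.uniq h1'
      exact absurd h4 h2
  exact := fun P v Q d c h1 h2 h3 => by
    obtain ⟨f, h4, h5⟩ := exact2 H P v Q d c h1 h2 h3
    exact ⟨f, (rB_iff H).2 h4, h5⟩
  complete := fun Q l f h => Or.inr fun v => complete2 H Q l f ((rB_iff H).1 h) v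

end Dat

end Crest.Agent.R320.Asm_772
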