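import Crest.Agent.R320.Asm_305

/-!
# Row 320: heights for the assembly `Asm_305` (helper305)
-/

set_option autoImplicit false

namespace Crest.Agent.R320.Asm2_305

open Crest.RegLang Crest.Agent.R320.Hk_851 Crest.Agent.R320.Blk467 Crest.Agent.R320.Asm_305
open Crest.Agent.R320.Asm_305.Dat

universe u

variable {α : Type u} {V S : Type*} [Monoid S] [AddCommGroup V]

/-- no wall at a place `≥ r` except at the end -/
def NWL (D : Dat α V S) (r : ℕ) : Language α := {w | ∀ t, t < w.length → r ≤ t → ¬ D.Wl (w.take t)}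

def WS (D : Dat α V S) (s : ℕ) : Language α := {w | s ≤ w.length ∧ D.Wl w}

def FWL (D : Dat α V S) (s : ℕ) : Language α := {w | D.FW s w w.length}

def TR (D : Dat α V S) (v v' : V) : Language α := {Y | D.act v (D.φ Y) + D.nu1 Y = v'}

def XT (D : Dat α V S) (y b : V) : Language α := {X | X ∈ D.XX ∧ D.T y X = b}

def AK (D : Dat α V S) (k : ℕ) (y : V) : Language α :=
  {P | P ∈ FWL D (D.z - D.c k) ∧ ∃ v1, D.rho2 k (P.take (D.p0 - D.c k)) = some v1 ∧
      D.act v1 (D.φ (P.drop (D.p0 - D.c k))) + D.nu1 (P.drop (D.p0 - D.c k)) = y}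

def RB (D : Dat α V S) (b : V) : Language α := {Q | D.rho Q = some b}

def BL (D : Dat α V S) (o : ℕ) : Language α := {w | D.BT (w.length + o - D.p0)}

def PH (D : Dat α V S) (s : S) : Language α := {w | D.φ w = s}

structure Hts (D : Dat α V S) : Prop where
  wl_len : ∀ P, D.Wl P → D.n ≤ P.length
  few : ∀ L : Language α, L.IsRegular → ∀ r, HL 1 (L ⊓ NWL D r)
  rhoreg : ∀ b, (RB D b).IsRegular
  treg : ∀ v v', (TR D v v').IsRegular
  btreg : ∀ o, (BL D o).IsRegular
  phireg : ∀ s, (PH D s).IsRegular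

variable {D : Dat α V S} {k : ℕ}

theorem hl_wl [Finite α] (hD : Hts D) : HL k ({w | D.Wl w} : Language α) := by
  have h1 : HL k ({w | w.length = D.n ∧ D.Wl w} : Language α) :=
    HL.finite ((List.finite_length_eq α D.n).subset fun w hw => hw.1)
  refine h1.suffix.congr fun w => ?_
  constructor
  · intro hw
    have hl := hD.wl_len w hw
    refine ⟨w.drop (w.length - D.n), ⟨by rw [List.length_drop]; omega, ?_⟩, List.drop_suffix _ _⟩
    have e : w.take (w.length - D.n) ++ w.drop (w.length - D.n) = w := List.take_append_drop _ _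
    have hw' : D.Wl w := hw
    rw [← e] at hw'
    exact (D.loc _ _ (by rw [List.length_drop]; omega)).1 hw'
  · rintro ⟨v, ⟨h1, h2⟩, p, rfl⟩
    exact (D.loc _ _ (by omega)).2 h2

theorem hl_ws [Finite α] (hD : Hts D) (s : ℕ) : HL k (WS D s) :=
  (HL.length_ge s).setOf_and (hl_wl hD)

theorem hl_nwl [Finite α] (hD : Hts D) (r : ℕ) : HL k (NWL D r) := by
  have h1 : HL k ({w : List α | w ≠ []} : Language α) := HL.one.compl.congr fun w => Iff.rfl
  refine ((hl_ws hD r).mul h1).compl.congr fun w => ?_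
  constructor
  · intro hw hm
    obtain ⟨x, hx, y, hy, rfl⟩ := Language.mem_mul.1 hm
    have hy' : y ≠ [] := hy
    have := List.length_pos_iff.2 hy'
    refine hw x.length (by rw [List.length_append]; omega) hx.1 ?_
    rw [List.take_left]; exact hx.2
  · intro hm t ht hr hw
    refine hm (Language.mem_mul.2 ⟨w.take t, ⟨by rw [List.length_take]; omega, hw⟩, w.drop t, ?_,
      List.take_append_drop _ _⟩)
    show w.drop t ≠ []
    intro h
    have := congrArg List.length h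
    rw [List.length_drop] at this
    simp at this
    omega

theorem fwl_iff {s : ℕ} {w : List α} : w ∈ FWL D s ↔ w ∈ WS D s ∧ w ∈ NWL D s := by
  constructor
  · rintro ⟨h1, h2, h3, h4⟩
    rw [List.take_length] at h3
    exact ⟨⟨h1, h3⟩, fun t a b => h4 t b a⟩
  · rintro ⟨⟨h1, h2⟩, h3⟩
    exact ⟨h1, le_rfl, by rwa [List.take_length], fun t a b => h3 t b a⟩

theorem hl_fwl [Finite α] (hD : Hts D) (s : ℕ) : HL k (FWL D s) :=
  ((hl_ws hD s).inf (hl_nwl hD s)).congr fun _ => fwl_iff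

theorem fw_take {s t : ℕ} {Q : List α} : D.FW s Q t ↔ t ≤ Q.length ∧ Q.take t ∈ FWL D s := by
  constructor
  · rintro ⟨h1, h2, h3, h4⟩
    have hl : (Q.take t).length = t := by rw [List.length_take]; omega
    refine ⟨h2, ?_⟩
    show D.FW s (Q.take t) (Q.take t).length
    rw [hl]
    refine ⟨h1, by omega, by rwa [List.take_take, Nat.min_self], fun t' a b => ?_⟩
    rw [List.take_take, Nat.min_eq_left (by omega)]
    exact h4 t' a b
  · rintro ⟨h2, h⟩
    have hl : (Q.take t).length = t := by rw [List.length_take]; omega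
    have h' : D.FW s (Q.take t) (Q.take t).length := h
    rw [hl] at h'
    obtain ⟨a1, a2, a3, a4⟩ := h'
    rw [List.take_take, Nat.min_self] at a3
    refine ⟨a1, h2, a3, fun t' a b => ?_⟩
    have := a4 t' a b
    rwa [List.take_take, Nat.min_eq_left (by omega)] at this

theorem hl_few_fwl [Finite α] (hD : Hts D) {L : Language α} (hL : L.IsRegular) (s : ℕ) :
    HL 1 ({w | w ∈ L ∧ w ∈ FWL D s} : Language α) := by
  refine ((hD.few L hL s).inf (hl_ws hD s)).congr fun w => ?_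
  constructor
  · rintro ⟨h1, h2⟩
    exact ⟨⟨h1, (fwl_iff.1 h2).2⟩, (fwl_iff.1 h2).1⟩
  · rintro ⟨⟨h1, h2⟩, h3⟩
    exact ⟨h1, fwl_iff.2 ⟨h3, h2⟩⟩

/-- the bad candidates -/
theorem hl_badAt [Finite α] (hD : Hts D) (o : ℕ) : HL 1 ({Q | D.BadAt o Q} : Language α) := by
  have h1 : HL 1 ({w | ∃ v ∈ FWL D (D.z - o), v <+: w} : Language α) := (hl_fwl hD _).prefix
  have h2 : HL 1 ({w | ∃ v ∈ ({v | D.Wl v ∧ D.z ≤ v.length + o + D.N1 ∧ v.length + o < D.z + D.N1} :
      Language α), v <+: w} : Language α) := by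
    refine HL.prefix (HL.finite ((List.finite_length_le α (D.z + D.N1)).subset ?_))
    rintro w ⟨-, -, h⟩
    show w.length ≤ D.z + D.N1
    omega
  have h3 : HL 1 ({w | ∃ v ∈ ({v | v ∈ BL D o ∧
      v ∈ FWL D (D.z - o)} : Language α), v <+: w} : Language α) :=
    (hl_few_fwl hD (hD.btreg o) _).prefix
  refine ((h1.inf h2).sup h3).congr fun Q => ?_
  constructor
  · rintro ⟨t, hf, ⟨w, a, b, c, d⟩ | hb⟩
    · left
      refine ⟨⟨Q.take t, (fw_take.1 hf).2, List.take_prefix _ _⟩, ⟨Q.take w, ⟨b, ?_, ?_⟩,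
        List.take_prefix _ _⟩⟩
      · rw [List.length_take]; omega
      · rw [List.length_take]; omega
    · right
      refine ⟨Q.take t, ⟨?_, (fw_take.1 hf).2⟩, List.take_prefix _ _⟩
      show D.BT ((Q.take t).length + o - D.p0)
      have hl : (Q.take t).length = t := by rw [List.length_take]; have := hf.2.1; omega
      rw [hl]; exact hb
  · rintro (⟨⟨v, hv, hp⟩, ⟨w, ⟨b, c, d⟩, hw⟩⟩ | ⟨v, ⟨hb, hv⟩, hp⟩)
    · have e1 := List.prefix_iff_eq_take.1 hp
      have e2 := List.prefix_iff_eq_take.1 hw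
      refine ⟨v.length, fw_take.2 ⟨hp.length_le, by rwa [← e1]⟩, Or.inl ⟨w.length, hw.length_le,
        by rwa [← e2], c, d⟩⟩
    · have e1 := List.prefix_iff_eq_take.1 hp
      exact ⟨v.length, fw_take.2 ⟨hp.length_le, by rwa [← e1]⟩, Or.inr hb⟩

/-- value of the part behind the first `m` letters -/
theorem hl_split [Finite α] [Finite V] (hD : Hts D) (s m : ℕ) (hms : m ≤ s) (hns : D.n ≤ s)
    (g : List α → Option V) (y : V) :
    HL 1 ({P | P ∈ FWL D s ∧ ∃ v1, g (P.take m) = some v1 ∧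
      D.act v1 (D.φ (P.drop m)) + D.nu1 (P.drop m) = y} : Language α) := by
  have h1 : ∀ (p : List α) (v1 : V), HL 1 ({w | w ∈ (({p} : Language α) *
      (TR D v1 y ⊓ NWL D s)) ∧ g p = some v1} :
      Language α) := fun p v1 => ((HL.word p).mul (hD.few _ (hD.treg v1 y) s)).setOf_and (HL.const _)
  have h2 : HL 1 ({w | ∃ p ∈ {p : List α | p.length = m}, w ∈ ({w | ∃ v1 : V, w ∈ ({w | w ∈
      (({p} : Language α) * (TR D v1 y ⊓ NWL D s)) ∧
      g p = some v1} : Language α)} : Language α)} : Language α) :=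
    HL.biUnion (List.finite_length_eq α m) fun p _ => HL.iUnion fun v1 => h1 p v1
  refine ((hl_fwl hD s).inf h2).congr fun P => ?_
  constructor
  · rintro ⟨hP, v1, hg, hv⟩
    have hl := hP.1
    refine ⟨hP, P.take m, ?_, v1, Language.mem_mul.2 ⟨P.take m, rfl, P.drop m, ⟨hv, ?_⟩,
      List.take_append_drop _ _⟩, hg⟩
    · show (P.take m).length = m
      rw [List.length_take]; omega
    · intro t ht hst hw
      rw [List.length_drop] at ht
      have := (wl_drop (D := D) (U := P) (o := m) (t := t) (by omega) (by omega)).1 hw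
      exact hP.2.2.2 _ (by omega) (by omega) this
  · rintro ⟨hP, p, hp, v1, hm, hg⟩
    obtain ⟨p', hp', Y, hY, rfl⟩ := Language.mem_mul.1 hm
    have hpp : p' = p := hp'
    subst hpp
    have hp2 : p'.length = m := hp
    refine ⟨hP, v1, ?_, ?_⟩
    · rw [← hp2, List.take_left]; exact hg
    · rw [← hp2, List.drop_left]; exact hY.1

theorem hl_T [Finite α] [Finite V] (hD : Hts D) (v v' : V) :
    HL 1 (XT D v v') := by
  have hz := D.hz1
  refine (hl_split hD D.z D.p0 (by omega) (by omega)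
    (fun P => some (D.act v (D.φ P) + D.nu2 P)) v').congr fun X => ?_
  constructor
  · rintro ⟨h1, h2⟩
    exact ⟨h1, _, rfl, h2⟩
  · rintro ⟨h1, v1, h2, h3⟩
    refine ⟨h1, ?_⟩
    rw [← h3, ← Option.some.inj h2]
    rfl

theorem hl_bad [Finite α] (hD : Hts D) : HL 1 (D.Bad : Language α) :=
  (hl_fwl hD D.z).inf (hl_badAt hD 0)

theorem hl_rq1 [Finite α] (hD : Hts D) (b : V) : HL 1 (D.RQ1 b) := by
  have hz := D.hz1
  refine ((hD.few _ (hD.rhoreg b) (D.z - D.p0 - D.N1)).inf (hl_ws hD (D.z - D.p0))).congr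
    fun Q => ?_
  constructor
  · rintro ⟨h1, h2, h3, h4⟩
    exact ⟨⟨h1, fun t a b => h4 t (by omega) a⟩, ⟨by omega, h3⟩⟩
  · rintro ⟨⟨h1, h2⟩, ⟨h3, h4⟩⟩
    exact ⟨h1, by omega, h4, fun t a b => h2 t b (by omega)⟩

theorem hl_lp2 [Finite α] (v : V) : HL k (D.LP2 v) := by
  refine HL.finite ((List.finite_length_le α D.p0).subset ?_)
  rintro P ⟨k, hk, hP, -⟩
  have := D.hc k hk
  show P.length ≤ D.p0
  omega

theorem hl_lp1 [Finite α] (v : V) : HL k (D.LP1 v) := by
  refine HL.finite ((List.finite_length_le α (D.p0 + D.N1)).subset ?_)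
  rintro P ⟨h1, h2⟩
  have := D.lam_len _ _ h2
  rw [List.length_drop] at this
  show P.length ≤ D.p0 + D.N1
  omega

theorem hl_rq2 [Finite α] [Finite V] (hD : Hts D) (b : V) : HL 1 (D.RQ2 b) := by
  have hz := D.hz1
  have hz2 := D.hz2
  have hA : ∀ k < D.K, ∀ y : V, HL 1 (AK D k y) := by
    intro k hk y
    have := D.hc k hk
    exact hl_split hD _ _ (by omega) (by omega) (D.rho2 k) y
  have hB : ∀ k < D.K, HL 1 ({Q | Q ∈ ({Q | D.BadAt (D.c k) Q} : Language α) ∧
      Q ∈ ({Q | ∀ k' ∈ {k' : ℕ | k' < D.K ∧ k' ≠ k}, Q ∈ ({Q | ¬ D.BadAt (D.c k') Q} : Language α)} :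
        Language α) ∧
      Q ∈ ({Q | ∃ y : V, Q ∈ AK D k y * XT D y b} : Language α)} : Language α) := by
    intro k hk
    refine (hl_badAt hD _).setOf_and (HL.setOf_and ?_ ?_)
    · exact HL.biInter ((Set.finite_lt_nat D.K).subset fun x hx => hx.1)
        fun k' _ => (hl_badAt hD _).setOf_not
    · exact HL.iUnion fun y => (hA k hk y).mul (hl_T hD y b)
  refine (HL.biUnion (s := {k : ℕ | k < D.K}) (Set.finite_lt_nat D.K) (L := fun k => _)
    (fun k hk => hB k hk)).congr fun Q => ?_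
  constructor
  · rintro ⟨k, hk, h1, h2, t, X2, v1, h3, h4, h5, h6, h7⟩
    have ht := h3.1
    have hck := D.hc k hk
    refine ⟨k, hk, h1, fun k' hk' => h2 k' hk'.1 hk'.2, _, Language.mem_mul.2 ⟨Q.take t,
      ⟨(fw_take.1 h3).2, v1, ?_, rfl⟩, X2, ⟨h5, h7.symm⟩, h4.symm⟩⟩
    rw [List.take_take, Nat.min_eq_left (by omega)]; exact h6
  · rintro ⟨k, hk, h1, h2, y, hm⟩
    have hk' : k < D.K := hk
    have hck := D.hc k hk'
    obtain ⟨P, ⟨hP, v1, h3, h4⟩, X2, ⟨h5, h6⟩, rfl⟩ := Language.mem_mul.1 hm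
    have hP' : D.FW (D.z - D.c k) P P.length := hP
    have hPl := hP'.1
    refine ⟨k, hk, h1, fun k' a b => h2 k' ⟨a, b⟩, P.length, X2, v1, hP'.app _, ?_, h5, ?_, ?_⟩
    · rw [List.take_left]
    · rw [take_app_le (by omega)]; exact h3
    · rw [List.take_left, h4]; exact h6.symm

theorem hl_tail [Finite α] (hD : Hts D) (s : S) :
    HL 1 ({w | (∀ X ∈ D.XX, ¬ X <+: w) ∧ D.φ w = s} : Language α) := by
  have h1 : HL 1 ({w | ¬ ∃ v ∈ FWL D D.z, v <+: w} : Language α) := (hl_fwl hD D.z).prefix.setOf_not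
  refine (h1.inf (hD.few _ (hD.phireg s) D.z)).congr fun w => ?_
  constructor
  · rintro ⟨h2, h3⟩
    refine ⟨?_, h3, ?_⟩
    · rintro ⟨v, hv, hp⟩
      exact h2 v hv hp
    · intro t ht hz hw
      obtain ⟨u, hu, -⟩ := FW.exists (D := D) (s := D.z) (t := t) (Q := w) hz (by omega) hw
      exact h2 _ (fw_take.1 hu).2 (List.take_prefix _ _)
  · rintro ⟨h2, h3, -⟩
    exact ⟨fun X hX hp => h2 ⟨X, hX, hp⟩, h3⟩

/-- **from the data to height three** -/
theorem main {α V S : Type u} [Finite α] [Finite V] [Finite S] [Monoid S] [AddCommGroup V]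
    (D : Dat α V S) (hD : Hts D) (f : α → S) (hf : ∀ w, D.φ w = (w.map f).prod)
    (hone : ∀ v, D.act v 1 = v) (hfaith : ∀ s t, (∀ v, D.act v s = D.act v t) → s = t) (s : S) :
    HL 3 ({w | (w.map f).prod = s} : Language α) := by
  have eT : ∀ v X, D.act v (X.map f).prod + D.nu X = D.T v X := by
    intro v X
    rw [← hf, D.T_eq]
  refine Crest.Agent.R320.Top5_467.top5 f D.act D.act_add hone D.act_mul hfaith D.nu D.XX D.Bad
    pcode (fun X hX => hX.1) D.LP1 D.RQ1 D.LP2 D.RQ2 ?_ ?_ ?_ ?_ (hl_bad hD) (fun v => hl_lp2 v)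
    (fun v => hl_rq2 hD v) (fun v => hl_lp1 v) (fun v => (hl_rq1 hD v).mono (by omega)) ?_ ?_ s
  · intro v b P Q hP hQ
    rw [eT]; exact s1 v b P Q hP hQ
  · intro X hX hB v
    rw [eT]; exact c1 X hX hB v
  · intro v b P Q r hP hQ hr
    have e : (fun v X => D.act v (X.map f).prod + D.nu X) = D.T := by
      funext v X; exact eT v X
    rw [e]; exact s2 v b P Q r hP hQ hr
  · intro X hX X' hX' v
    rw [eT, eT]; exact c2 X hX X' hX' v
  · intro v v'
    refine (((hl_bad hD).inf (hl_T hD v v')).mono (by omega : 1 ≤ 2)).congr fun X => ?_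
    constructor
    · rintro ⟨h1, h2⟩
      rw [eT] at h2
      exact ⟨h1, h1.1, h2⟩
    · rintro ⟨h1, h2, h3⟩
      refine ⟨h1, ?_⟩
      rw [eT]; exact h3
  · intro s
    refine ((hl_tail hD s).mono (by omega : 1 ≤ 3)).congr fun w => ?_
    constructor
    · rintro ⟨h1, h2⟩
      exact ⟨h1, by rw [hf]; exact h2⟩
    · rintro ⟨h1, h2⟩
      exact ⟨h1, by rw [← hf]; exact h2⟩

end Crest.Agent.R320.Asm2_305
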