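import Crest.Agent.R320.Asm1_383

/-!
# Row 320: assembly of the two schemes in block form on all words (helper383)
-/

set_option autoImplicit false

namespace Crest.Agent.R320.Asm1_383

open Crest.RegLang Crest.Agent.R320.Hk_851 Crest.Agent.R320.BddReg_746
open Crest.Agent.R320.Sc2n_937 Crest.Agent.R320.Half1_180

universe u

variable {α : Type u} {S : Type*} [Monoid S] {V : Type*} [AddCommGroup V]

/-- zone map of the first part -/
def pre (f : α → S) (act : V → S → V) (nu2 : List α → V) (X : List α) (v : V) : V :=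
  act v (ph f X) + nu2 X

/-- zone map of the second part -/
def post (f : α → S) (act : V → S → V) (nu1 : List α → V) (u : V) (Y : List α) : V :=
  act u (ph f Y) + nu1 Y

section

variable {g : Geo α} {f : α → S} {act : V → S → V} {nu1 nu2 : List α → V} {D N : ℕ}

theorem dep_post (hnu : DepF f D N nu1) (u : V) : DepF f D N (post f act nu1 u) := by
  intro Q Q' h1 h2 h3 h4 h5
  unfold post
  rw [hnu Q Q' h1 h2 h3 h4 h5, DepF.ph f D N Q Q' h1 h2 h3 h4 h5]

theorem dep_T (hnu : DepF f D N nu1) (v : V) :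
    DepF f (g.p0 + D) N (g.T (pre f act nu2) (post f act nu1) v) := by
  intro Q Q' h1 h2 h3 h4 h5
  unfold Geo.T
  have e1 : pre f act nu2 (Q.take g.p0) v = pre f act nu2 (Q'.take g.p0) v :=
    ((DepF.take f N (fun X => pre f act nu2 X v) g.p0).mono (Nat.le_add_right _ D)) Q Q'
      h1 h2 h3 h4 h5
  rw [e1]
  exact (dep_post hnu _).drop g.p0 Q Q' h1 h2 h3 h4 h5

theorem dep_walls (g : Geo α) (f : α → S) (N c L : ℕ) (w1 : ℕ) (hw : w1 ≤ L) :
    DepF f L N (fun Q : List α => ∃ t, t ≤ Q.length ∧ g.Wo (Q.take t) ∧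
      g.z ≤ c + t + g.N1 ∧ c + t < w1) := by
  have key : ∀ Q Q' : List α, L ≤ Q.length → L ≤ Q'.length → Q.take L = Q'.take L →
      (∃ t, t ≤ Q.length ∧ g.Wo (Q.take t) ∧ g.z ≤ c + t + g.N1 ∧ c + t < w1) →
      ∃ t, t ≤ Q'.length ∧ g.Wo (Q'.take t) ∧ g.z ≤ c + t + g.N1 ∧ c + t < w1 := by
    rintro Q Q' h1 h2 h3 ⟨t, h4, h5, h6, h7⟩
    refine ⟨t, by omega, ?_, h6, h7⟩
    have e : Q'.take t = Q.take t := by
      have := congrArg (fun l => l.take t) h3
      simp only [List.take_take] at this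
      rw [Nat.min_eq_left (by omega)] at this
      exact this.symm
    rw [e]; exact h5
  intro Q Q' h1 h2 h3 _ _
  exact propext ⟨key Q Q' h1 h2 h3, key Q' Q h2 h1 h3.symm⟩

theorem mod_sub {c a b p N : ℕ} (ha : p ≤ a) (hb : p ≤ b) (h : a % N = b % N) :
    (c + a - p) % N = (c + b - p) % N := by
  have h1 : (c + a - p) + p ≡ (c + b - p) + p [MOD N] := by
    have e1 : (c + a - p) + p = c + a := by omega
    have e2 : (c + b - p) + p = c + b := by omega
    rw [e1, e2]
    exact Nat.ModEq.add_left c h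
  exact Nat.ModEq.add_right_cancel' p h1

theorem dep_bad {BadT : ℕ → Prop} (hBT : ∀ a b, a % N = b % N → (BadT a ↔ BadT b)) (c L : ℕ)
    (hp : g.p0 ≤ L) : DepF f L N (fun Q : List α => BadT (c + Q.length - g.p0)) := by
  intro Q Q' h1 h2 _ h4 _
  exact propext (hBT _ _ (mod_sub (by omega) (by omega) h4))

theorem DepF.or {f : α → S} {L : ℕ} {p q : List α → Prop} (hp : DepF f L N p) (hq : DepF f L N q) :
    DepF f L N (fun Q => p Q ∨ q Q) := by
  intro Q Q' h1 h2 h3 h4 h5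
  simp only [hp Q Q' h1 h2 h3 h4 h5, hq Q Q' h1 h2 h3 h4 h5]

theorem DepF.and {f : α → S} {L : ℕ} {p q : List α → Prop} (hp : DepF f L N p)
    (hq : DepF f L N q) : DepF f L N (fun Q => p Q ∧ q Q) := by
  intro Q Q' h1 h2 h3 h4 h5
  simp only [hp Q Q' h1 h2 h3 h4 h5, hq Q Q' h1 h2 h3 h4 h5]

theorem DepF.not {f : α → S} {L : ℕ} {p : List α → Prop} (hp : DepF f L N p) :
    DepF f L N (fun Q => ¬ p Q) := by
  intro Q Q' h1 h2 h3 h4 h5
  simp only [hp Q Q' h1 h2 h3 h4 h5]

theorem DepF.eq {β : Sort*} {f : α → S} {L : ℕ} {F : List α → β} (hF : DepF f L N F) (b : β) :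
    DepF f L N (fun Q => F Q = b) := by
  intro Q Q' h1 h2 h3 h4 h5
  simp only [hF Q Q' h1 h2 h3 h4 h5]

theorem dep_BadX {BadT : ℕ → Prop} (hBT : ∀ a b, a % N = b % N → (BadT a ↔ BadT b)) :
    DepF f (g.z + g.N1) N (g.BadX BadT) := by
  have h := (dep_walls g f N 0 (g.z + g.N1) (g.z + g.N1) le_rfl).or
    (dep_bad (g := g) (f := f) hBT 0 (g.z + g.N1) (by have := g.hz; omega))
  intro Q Q' h1 h2 h3 h4 h5
  have := h Q Q' h1 h2 h3 h4 h5
  simp only [Nat.zero_add] at this
  exact this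

variable [Finite α] [Finite S] [Finite V] {B R : ℕ}

theorem hl_bad (hN : 0 < N) (len : ∀ P, g.Wo P → g.n ≤ P.length)
    (free : ∀ u : List α, (∀ t < u.length, ¬ g.Wo (u.take t)) → u ∈ (PN B R : Language α))
    {BadT : ℕ → Prop} (hBT : ∀ a b, a % N = b % N → (BadT a ↔ BadT b)) (f : α → S) :
    HL 1 (Lof {X | g.XX X ∧ g.BadX BadT X}) :=
  hl_block len free ((dep_BadX (f := f) hBT).regular hN)

theorem hl_short (hN : 0 < N) (hnu : DepF f D N nu1) (len : ∀ P, g.Wo P → g.n ≤ P.length)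
    (free : ∀ u : List α, (∀ t < u.length, ¬ g.Wo (u.take t)) → u ∈ (PN B R : Language α))
    {BadT : ℕ → Prop} (hBT : ∀ a b, a % N = b % N → (BadT a ↔ BadT b)) (v v' : V) :
    HL 1 (Lg (fun Y => Y ∈ {X | g.XX X ∧ g.BadX BadT X} ∧
      g.T (pre f act nu2) (post f act nu1) v Y = v')) := by
  have h1 := hl_block (g := g) len free (p := fun Y => g.BadX BadT Y ∧
    g.T (pre f act nu2) (post f act nu1) v Y = v')
    (reg_and ((dep_BadX (f := f) hBT).regular hN) (((dep_T hnu v).eq v').regular hN))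
  refine h1.congr fun w => ?_
  constructor
  · rintro ⟨⟨h2, h3⟩, h4⟩; exact ⟨h2, h3, h4⟩
  · rintro ⟨h2, h3, h4⟩; exact ⟨⟨h2, h3⟩, h4⟩

theorem hl_RQ1 (hN : 0 < N) {rho : List α → Option V} (hrho : DepF f D N rho)
    (len : ∀ P, g.Wo P → g.n ≤ P.length)
    (free : ∀ u : List α, (∀ t < u.length, ¬ g.Wo (u.take t)) → u ∈ (PN B R : Language α))
    (b : V) : HL 1 (Lg (fun Q => g.RQ1 rho b Q)) := by
  refine (hl_free len free g.q0 (reg_and (reg_Wo len) (reg_and (reg_ge (g.q0 + g.N1))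
    ((hrho.eq (some b)).regular hN)))).congr fun w => ?_
  constructor
  · rintro ⟨h1, h2, h3, h4⟩; exact ⟨h3, h1, h2, h4⟩
  · rintro ⟨h3, h1, h2, h4⟩; exact ⟨h1, h2, h3, h4⟩

/-- candidate ends with a regular property -/
theorem hl_cend (len : ∀ P, g.Wo P → g.n ≤ P.length)
    (free : ∀ u : List α, (∀ t < u.length, ¬ g.Wo (u.take t)) → u ∈ (PN B R : Language α))
    (c : ℕ) {p : List α → Prop} (hp : Language.IsRegular ({Q | p Q} : Language α)) :
    HL 1 ({Q | g.CEnd Q c Q.length ∧ p Q} : Language α) := by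
  refine (hl_free len free (g.z - c) (reg_and (reg_ge (g.z - c)) (reg_and (reg_Wo len)
    hp))).congr fun w => ?_
  constructor
  · rintro ⟨⟨-, h2, h3, h4⟩, h5⟩
    rw [List.take_length] at h3
    exact ⟨fun t ht hl => h4 t (by omega) hl, by omega, h3, h5⟩
  · rintro ⟨h4, h2, h3, h5⟩
    refine ⟨⟨le_rfl, by have : g.z - c ≤ w.length := h2; omega, by rw [List.take_length]; exact h3,
      fun t ht hl => h4 t (by omega) hl⟩, h5⟩

theorem cend_append {Q1 Y : List α} {c : ℕ} :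
    g.CEnd (Q1 ++ Y) c Q1.length ↔ g.CEnd Q1 c Q1.length := by
  unfold Geo.CEnd
  have e : ∀ t, t ≤ Q1.length → (Q1 ++ Y).take t = Q1.take t := by
    intro t ht
    rw [List.take_append_of_le_length ht]
  constructor
  · rintro ⟨-, h2, h3, h4⟩
    refine ⟨le_rfl, h2, by rw [← e _ le_rfl]; exact h3, fun t ht hl hw => h4 t ht hl ?_⟩
    rw [e t hl.le]; exact hw
  · rintro ⟨-, h2, h3, h4⟩
    refine ⟨by rw [List.length_append]; omega, h2, by rw [e _ le_rfl]; exact h3,
      fun t ht hl hw => h4 t ht hl ?_⟩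
    rw [← e t hl.le]; exact hw

theorem cbad_append {BadT : ℕ → Prop} {Q1 Y : List α} {c : ℕ} :
    g.CBad BadT (Q1 ++ Y) c Q1.length ↔ g.CBad BadT Q1 c Q1.length := by
  unfold Geo.CBad
  have e : ∀ t, t ≤ Q1.length → (Q1 ++ Y).take t = Q1.take t := by
    intro t ht
    rw [List.take_append_of_le_length ht]
  constructor
  · rintro (⟨t, h1, h2, h3⟩ | h)
    · left; exact ⟨t, h1, by rw [← e t h1]; exact h2, h3⟩
    · right; exact h
  · rintro (⟨t, h1, h2, h3⟩ | h)
    · left; exact ⟨t, h1, by rw [e t h1]; exact h2, h3⟩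
    · right; exact h

theorem dep_CBad {BadT : ℕ → Prop} (hBT : ∀ a b, a % N = b % N → (BadT a ↔ BadT b)) (c : ℕ) :
    DepF f (g.z + g.N1) N (fun Q => g.CBad BadT Q c Q.length) := by
  have h := (dep_walls g f N c (g.z + g.N1) (g.z + g.N1) le_rfl).or
    (dep_bad (g := g) (f := f) hBT c (g.z + g.N1) (by have := g.hz; omega))
  exact h

theorem hl_cgood (hN : 0 < N) (len : ∀ P, g.Wo P → g.n ≤ P.length)
    (free : ∀ u : List α, (∀ t < u.length, ¬ g.Wo (u.take t)) → u ∈ (PN B R : Language α))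
    {BadT : ℕ → Prop} (hBT : ∀ a b, a % N = b % N → (BadT a ↔ BadT b)) (f : α → S) (c : ℕ) :
    HL 1 ({Q | g.CGood BadT Q c} : Language α) := by
  have h1 := hl_cend (g := g) len free c (p := fun Q => ¬ g.CBad BadT Q c Q.length)
    ((dep_CBad (f := f) hBT c).not.regular hN)
  refine (h1.mul HL.top).congr fun w => ?_
  constructor
  · rintro ⟨l, h2, h3⟩
    have hl : l ≤ w.length := h2.1
    have e : w.take l ++ w.drop l = w := List.take_append_drop _ _
    have e2 : (w.take l).length = l := by rw [List.length_take]; omega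
    refine Language.mem_mul.2 ⟨w.take l, ?_, w.drop l, trivial, e⟩
    have h2' : g.CEnd (w.take l ++ w.drop l) c (w.take l).length := by rw [e, e2]; exact h2
    have h3' : ¬ g.CBad BadT (w.take l ++ w.drop l) c (w.take l).length := by rw [e, e2]; exact h3
    exact ⟨cend_append.1 h2', fun h => h3' (cbad_append.2 h)⟩
  · intro h2
    obtain ⟨x, ⟨hx1, hx2⟩, y, -, rfl⟩ := Language.mem_mul.1 h2
    exact ⟨x.length, cend_append.2 hx1, fun h => hx2 (cbad_append.1 h)⟩

/-- first parts -/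
def LgA (g : Geo α) (f : α → S) (act : V → S → V) (nu1 : List α → V) (c : ℕ → ℕ)
    (rho2 : ℕ → List α → Option V) (k : ℕ) (u w : V) : Language α :=
  {Q1 | g.CEnd Q1 (c k) Q1.length ∧ (rho2 k (Q1.take (g.p0 - c k)) = some u ∧
    post f act nu1 u (Q1.drop (g.p0 - c k)) = w)}

/-- second blocks -/
def LgB (g : Geo α) (f : α → S) (act : V → S → V) (nu1 nu2 : List α → V) (w b : V) :
    Language α :=
  {X2 | g.XX X2 ∧ g.T (pre f act nu2) (post f act nu1) w X2 = b}

/-- the other candidates are good -/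
def LgC (g : Geo α) (BadT : ℕ → Prop) (K : ℕ) (c : ℕ → ℕ) (k : ℕ) : Language α :=
  {Q | ∀ k' : Fin K, (k' : ℕ) ≠ k → g.CGood BadT Q (c k')}

theorem hl_RQ2 (hN : 0 < N) (hnu : DepF f D N nu1) (len : ∀ P, g.Wo P → g.n ≤ P.length)
    (free : ∀ u : List α, (∀ t < u.length, ¬ g.Wo (u.take t)) → u ∈ (PN B R : Language α))
    {BadT : ℕ → Prop} (hBT : ∀ a b, a % N = b % N → (BadT a ↔ BadT b))
    (K : ℕ) (c : ℕ → ℕ) (rho2 : ℕ → List α → Option V) (b : V) :
    HL 1 (Lg (fun Q => g.RQ2 (pre f act nu2) (post f act nu1) BadT K c rho2 b Q)) := by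
  have hz := g.hz
  have hA : ∀ (k : ℕ) (u w : V), HL 1 (LgA g f act nu1 c rho2 k u w) := by
    intro k u w
    refine hl_cend (g := g) len free (c k) (reg_and ?_ ?_)
    · exact ((DepF.take f N (fun X => rho2 k X = some u) (g.p0 - c k))).regular hN
    · exact (((dep_post (act := act) hnu u).drop (g.p0 - c k)).eq w).regular hN
  have hB : ∀ (w : V), HL 1 (LgB g f act nu1 nu2 w b) := fun w =>
    hl_block len free (((dep_T hnu w).eq b).regular hN)
  have hC : ∀ k : ℕ, HL 1 (LgC g BadT K c k) := by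
    intro k
    have h1 := HL.iInter (k := 1) (ι := Fin K)
      (L := fun k' => ({Q | (k' : ℕ) ≠ k → g.CGood BadT Q (c k')} : Language α)) (fun k' =>
        HL.setOf_imp (HL.const _) (hl_cgood hN len free hBT f (c k')))
    refine h1.congr fun w => ?_
    exact Iff.rfl
  have hmain := HL.iUnion (k := 1) (ι := Fin K × V × V)
    (L := fun i => (LgA g f act nu1 c rho2 i.1 i.2.1 i.2.2 * LgB g f act nu1 nu2 i.2.2 b) ⊓
      LgC g BadT K c i.1)
    (fun i => ((hA i.1 i.2.1 i.2.2).mul (hB i.2.2)).inf (hC i.1))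
  refine hmain.congr fun w => ?_
  constructor
  · rintro ⟨k, hk, l, h1, h2, h3, u, h4, h5⟩
    have hl : l ≤ w.length := h1.1
    have hzl := h1.2.1
    have e : w.take l ++ w.drop l = w := List.take_append_drop _ _
    have e2 : (w.take l).length = l := by rw [List.length_take]; omega
    refine ⟨(⟨k, hk⟩, u, post f act nu1 u ((w.take l).drop (g.p0 - c k))), ?_, ?_⟩
    · refine Language.mem_mul.2 ⟨w.take l, ⟨?_, ?_, rfl⟩, w.drop l, ⟨h3, h5.symm⟩, e⟩
      · refine cend_append (Y := w.drop l).1 ?_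
        rw [e, e2]; exact h1
      · have h0 : g.p0 - c k ≤ l := by omega
        have e3 : (w.take l).take (g.p0 - c k) = w.take (g.p0 - c k) := by
          rw [List.take_take, Nat.min_eq_left h0]
        have h4' : rho2 k ((w.take l).take (g.p0 - c k)) = some u := by rw [e3]; exact h4
        exact h4'
    · intro k' hk'
      exact h2 k' k'.2 hk'
  · rintro ⟨⟨k, u, y⟩, h1, h2⟩
    obtain ⟨Q1, ⟨h3, h4, h5⟩, X2, ⟨h6, h7⟩, rfl⟩ := Language.mem_mul.1 h1
    refine ⟨k, k.2, Q1.length, cend_append.2 h3, fun k' hk' hne => h2 ⟨k', hk'⟩ hne, ?_, u, ?_, ?_⟩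
    · rw [List.drop_left]; exact h6
    · have h8 : g.z ≤ c (k : ℕ) + Q1.length := h3.2.1
      have h0 : g.p0 - c (k : ℕ) ≤ Q1.length := by omega
      rw [List.take_append_of_le_length h0]
      exact h4
    · rw [List.take_left, List.drop_left, h5]
      exact h7.symm

end

end Crest.Agent.R320.Asm1_383
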