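import Mathlib
import Crest.Agent.R320.Asm1_501

/-!
# Row 320 (helper501): two schemes with semantic right labels; completeness (cc) from two gadgets
-/

set_option autoImplicit false

namespace Crest.Agent.R320.Asm_501

open Crest.Agent.R320.FewWalls_228

/-- all data of the two schemes -/
structure Dt (α M V : Type) where
  f : α → M
  act : V → M → V
  n : ℕ
  z : ℕ
  p0 : ℕ
  N : ℕ
  L0 : ℕ
  K : ℕ
  C0 : ℕ
  W : ℕ
  S : Set (List α)
  c : ℕ → ℕ
  Bad : ℕ → Prop
  lam1 : List α → Option V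
  rho1 : List α → Option V
  nu1 : List α → V
  lam2 : ℕ → List α → Option V
  rho2 : ℕ → List α → Option V
  nu2 : List α → V

namespace Dt

variable {α M V : Type} [Monoid M] [AddCommGroup V] (D : Dt α M V)

/-- product -/
def ph (u : List α) : M := (u.map D.f).prod

theorem ph_append (u v : List α) : D.ph (u ++ v) = D.ph u * D.ph v := by
  unfold ph; rw [List.map_append, List.prod_append]

/-- blocks -/
def B : Set (List α) := XX D.n D.z D.S

/-- zone map -/
def T (v : V) (X : List α) : V :=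
  D.act (D.act v (D.ph (X.take D.p0)) + D.nu2 (X.take D.p0)) (D.ph (X.drop D.p0)) +
    D.nu1 (X.drop D.p0)

def LP1 (P : List α) (v : V) : Prop :=
  D.p0 ≤ P.length ∧
    D.lam1 (P.drop D.p0) = some (D.act v (D.ph (P.take D.p0)) + D.nu2 (P.take D.p0))

def LP2 (P : List α) (v : V) : Prop := ∃ k < D.K, P.length = D.c k ∧ D.lam2 k P = some v

def good1 (Q : List α) (b : V) : Prop :=
  Q ≠ [] ∧ (∃ P v, D.LP1 P v) ∧ ∀ P v, D.LP1 P v → P ++ Q ∈ D.B ∧ D.T v (P ++ Q) = b

open Classical in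
noncomputable def R1 (Q : List α) : Option V :=
  if h : ∃ b, D.good1 Q b then some h.choose else none

theorem R1_iff (Q : List α) (b : V) : D.R1 Q = some b ↔ D.good1 Q b := by
  unfold R1
  constructor
  · intro h
    split_ifs at h with h1
    · rw [Option.some.injEq] at h
      rw [← h]
      exact h1.choose_spec
  · intro h
    have h1 : ∃ b, D.good1 Q b := ⟨b, h⟩
    rw [dif_pos h1]
    have h2 := h1.choose_spec
    obtain ⟨P, v, hP⟩ := h.2.1
    have e1 := (h.2.2 P v hP).2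
    have e2 := (h2.2.2 P v hP).2
    rw [← e1, ← e2]

theorem R1_isSome (Q : List α) : (D.R1 Q).isSome ↔ ∃ b, D.good1 Q b := by
  rw [Option.isSome_iff_exists]
  exact exists_congr fun b => D.R1_iff Q b

def Hyp (P : List α) (v : V) (Q : List α) : Prop :=
  ∀ X ∈ D.B, X <+: P ++ Q → ∀ P' Q', X = P' ++ Q' → P.length ≤ P'.length → D.LP1 P' v →
    (D.R1 Q').isSome → False

def Con (P : List α) (v : V) (Q : List α) (b : V) : Prop :=
  ∃ Q1 X2, Q = Q1 ++ X2 ∧ Q1 ≠ [] ∧ P ++ Q1 ∈ D.B ∧ X2 ∈ D.B ∧ D.T (D.T v (P ++ Q1)) X2 = b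

def good2 (Q : List α) (b : V) : Prop :=
  Q ≠ [] ∧ (∃ P v, D.LP2 P v ∧ D.Hyp P v Q) ∧ ∀ P v, D.LP2 P v → D.Hyp P v Q → D.Con P v Q b

open Classical in
noncomputable def R2 (Q : List α) : Option V :=
  if h : ∃ b, D.good2 Q b then some h.choose else none

theorem Con_unique {P : List α} {v : V} {Q : List α} {b b' : V} (h : D.Con P v Q b)
    (h' : D.Con P v Q b') : b = b' := by
  obtain ⟨Q1, X2, hQ, -, h1, -, h3⟩ := h
  obtain ⟨Q1', X2', hQ', -, h1', -, h3'⟩ := h'
  have e : P ++ Q1 = P ++ Q1' := by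
    refine xx_prefix h1 h1' (w := P ++ Q) ?_ ?_
    · rw [hQ, ← List.append_assoc]; exact List.prefix_append _ _
    · rw [hQ', ← List.append_assoc]; exact List.prefix_append _ _
  have e1 : Q1 = Q1' := List.append_cancel_left e
  subst e1
  have e2 : X2 = X2' := List.append_cancel_left (hQ.symm.trans hQ')
  subst e2
  rw [← h3, ← h3']

theorem R2_iff (Q : List α) (b : V) : D.R2 Q = some b ↔ D.good2 Q b := by
  unfold R2
  constructor
  · intro h
    split_ifs at h with h1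
    · rw [Option.some.injEq] at h
      rw [← h]
      exact h1.choose_spec
  · intro h
    have h1 : ∃ b, D.good2 Q b := ⟨b, h⟩
    rw [dif_pos h1]
    have h2 := h1.choose_spec
    obtain ⟨P, v, hP, hH⟩ := h.2.1
    rw [D.Con_unique (h.2.2 P v hP hH) (h2.2.2 P v hP hH)]

theorem R2_isSome (Q : List α) : (D.R2 Q).isSome ↔ ∃ b, D.good2 Q b := by
  rw [Option.isSome_iff_exists]
  exact exists_congr fun b => D.R2_iff Q b

theorem s1 (P : List α) (v : V) (Q : List α) (b : V) (h : D.LP1 P v) (hR : D.R1 Q = some b) :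
    P ++ Q ∈ D.B ∧ D.T v (P ++ Q) = b :=
  ((D.R1_iff Q b).1 hR).2.2 P v h

theorem s2 (P : List α) (v : V) (Q : List α) (b : V) (h : D.LP2 P v) (hR : D.R2 Q = some b)
    (hH : D.Hyp P v Q) : D.Con P v Q b :=
  ((D.R2_iff Q b).1 hR).2.2 P v h hH

theorem R1_ne (Q : List α) (b : V) (hR : D.R1 Q = some b) : Q ≠ [] := ((D.R1_iff Q b).1 hR).1

theorem R2_ne (Q : List α) (b : V) (hR : D.R2 Q = some b) : Q ≠ [] := ((D.R2_iff Q b).1 hR).1

/-- doubtful block -/
def BadX (X : List α) : Prop :=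
  (∃ x, D.z ≤ x + D.n + D.N ∧ x + D.n < D.z + D.N ∧ Wl D.n D.S X x) ∨ D.Bad (X.length - D.p0)

/-- conditions on the data -/
structure Ok : Prop where
  hz : 4 * D.p0 + 2 * D.N + D.n + D.L0 + 1 ≤ D.z
  hW : 4 * D.p0 + 4 * D.N + 1 ≤ D.W
  sep : ∀ (w : List α) (x y : ℕ), x < y → Wl D.n D.S w x → Wl D.n D.S w y → x + D.W ≤ y
  cm : ∀ i j, i < j → j < D.K → D.c i < D.c j
  cp : ∀ k < D.K, D.c k ≤ D.p0
  reso : ∀ i j i' j', i < D.K → j < D.K → i' < D.K → j' < D.K → i ≠ j → (i, j) ≠ (i', j') →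
    4 * (D.N : ℤ) < |((D.c i : ℤ) - D.c j) - ((D.c i' : ℤ) - D.c j')|
  thin : ∀ T, (∀ k < D.K, D.c k ≤ T) → ∀ F : Finset (ℕ × ℕ), (∀ ab ∈ F, ab.1 < D.K ∧ ab.2 < D.K ∧
    ab.1 ≠ ab.2 ∧ D.Bad (T + D.c ab.1 - D.c ab.2)) → F.card ≤ D.C0
  lamN : ∀ P v, D.lam1 P = some v → P.length ≤ D.N
  snd1 : ∀ P Q v b, D.lam1 P = some v → D.rho1 Q = some b →
    b = D.act v (D.ph (P ++ Q)) + D.nu1 (P ++ Q)
  cmp1 : ∀ u : List α, D.L0 ≤ u.length → ¬ D.Bad u.length → ∀ v, ∃ P Q, P ++ Q = u ∧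
    D.lam1 P = some v ∧ (D.rho1 Q).isSome
  snd2 : ∀ k < D.K, ∀ P Q v b, P.length = D.c k → D.lam2 k P = some v → D.rho2 k Q = some b →
    b = D.act v (D.ph (P ++ Q)) + D.nu2 (P ++ Q)
  cmp2 : ∀ (u : List α) (v : V), u.length = D.p0 → ∃ I : Finset ℕ, 2 * D.C0 + 2 ≤ I.card ∧
    ∀ k ∈ I, k < D.K ∧ D.lam2 k (u.take (D.c k)) = some v ∧ (D.rho2 k (u.drop (D.c k))).isSome

variable {D}

/-- scheme 1 cuts every non-doubtful block -/
theorem Ok.c1 (h : D.Ok) {X : List α} (hX : X ∈ D.B) (hb : ¬ D.BadX X) (v : V) :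
    ∃ P Q, X = P ++ Q ∧ D.LP1 P v ∧ (D.R1 Q).isSome := by
  have hz := h.hz
  have hXl : D.z ≤ X.length := hX.1
  have hbE : ∀ x, D.z ≤ x + D.n + D.N → x + D.n < D.z + D.N → ¬ Wl D.n D.S X x :=
    fun x h1 h2 h3 => hb (Or.inl ⟨x, h1, h2, h3⟩)
  have hbB : ¬ D.Bad (X.drop D.p0).length := by
    rw [List.length_drop]
    exact fun h3 => hb (Or.inr h3)
  have hYl : D.L0 ≤ (X.drop D.p0).length := by rw [List.length_drop]; omega
  obtain ⟨P', Q, hPQ, hl, hr⟩ := h.cmp1 _ hYl hbB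
    (D.act v (D.ph (X.take D.p0)) + D.nu2 (X.take D.p0))
  obtain ⟨b, hr⟩ := Option.isSome_iff_exists.1 hr
  have hP'N := h.lamN _ _ hl
  have htl : (X.take D.p0).length = D.p0 := by rw [List.length_take]; omega
  have hXe : X = (X.take D.p0 ++ P') ++ Q := by
    rw [List.append_assoc, hPQ, List.take_append_drop]
  have hlen : X.length = D.p0 + P'.length + Q.length := by
    have := congrArg List.length hXe
    rw [List.length_append, List.length_append, htl] at this
    exact this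
  have hXend : D.z + D.N ≤ X.length := by
    by_contra hc
    exact hbE (X.length - D.n) (by omega) (by omega) hX.2.1
  have hLP : D.LP1 (X.take D.p0 ++ P') v := by
    refine ⟨by rw [List.length_append, htl]; omega, ?_⟩
    rw [List.drop_append_of_le_length (by rw [htl]), List.take_append_of_le_length (by rw [htl])]
    have e1 : (X.take D.p0).drop D.p0 = [] := List.drop_eq_nil_of_le (by rw [htl])
    have e2 : (X.take D.p0).take D.p0 = X.take D.p0 := List.take_of_length_le (by rw [htl])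
    rw [e1, e2, List.nil_append]
    exact hl
  refine ⟨X.take D.p0 ++ P', Q, hXe, hLP, ?_⟩
  rw [R1_isSome]
  refine ⟨b, ?_, ⟨_, _, hLP⟩, ?_⟩
  · intro hQ
    rw [hQ] at hlen
    simp at hlen
    omega
  · intro P2 v2 h2
    obtain ⟨h2a, h2b⟩ := h2
    have hN2 := h.lamN _ _ h2b
    rw [List.length_drop] at hN2
    constructor
    · -- the block
      have hX' : (X.take D.p0 ++ P') ++ Q ∈ XX D.n D.z D.S := by rw [← hXe]; exact hX
      rw [mem_iff _ _ (by rw [List.length_append, htl]; omega)] at hX'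
      obtain ⟨-, q2, q3⟩ := hX'
      rw [List.length_append, htl] at q3
      show P2 ++ Q ∈ XX D.n D.z D.S
      rw [mem_iff _ _ (by omega)]
      refine ⟨by omega, q2, ?_⟩
      intro y hy1 hy2 hw
      by_cases hc : D.z ≤ D.p0 + P'.length + y
      · exact q3 y hc hy2 hw
      · -- the wall is in the doubtful band of X
        have hw' : Wl D.n D.S X (D.p0 + P'.length + (y - D.n)) := by
          rw [hXe]
          have := (wl_append (n := D.n) (S := D.S) (X.take D.p0 ++ P') Q (y - D.n)).2 hw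
          rwa [List.length_append, htl] at this
        exact hbE _ (by omega) (by omega) hw'
    · -- the value
      unfold T
      have e1 : (P2 ++ Q).take D.p0 = P2.take D.p0 := List.take_append_of_le_length h2a
      have e2 : (P2 ++ Q).drop D.p0 = P2.drop D.p0 ++ Q := List.drop_append_of_le_length h2a
      rw [e1, e2]
      exact (h.snd1 _ _ _ _ h2b hr).symm

end Dt

end Crest.Agent.R320.Asm_501
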