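import Crest.Agent.R320.Asm_505

/-!
# Row 320: prefix-code assembly, general form (helper505)

`Lvl V eps P R W`: soundness only on prefixes of `V*`-words, completeness for lists of zones
(so a right word may reach over the next zone).  `two_levels2`: scheme 1 on the prefix code `U`,
complete outside the bad zones `B`; scheme 2 on `B`, complete on pairs of bad zones.
-/

set_option autoImplicit false

namespace Crest.Agent.R320.Asm_505

open Crest.RegLang Crest.Agent.R320.Hk_851

universe u v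

variable {α : Type u} {Ω : Type v}

theorem Path.mem_kstar {V : Language α} {eps : List α → Ω → Ω} {x y : Ω} {w : List α}
    (h : Path V eps x w y) : w ∈ KStar.kstar V := by
  obtain ⟨l, h1, h2, _⟩ := h
  exact Asm_505.mem_kstar.2 ⟨l, h1, h2⟩

theorem Path.cancel {V : Language α} (hV : PC V) {eps : List α → Ω → Ω} {x y : Ω} {w r : List α}
    (h : Path V eps x w y) (hw : w ++ r ∈ KStar.kstar V) : r ∈ KStar.kstar V := by
  obtain ⟨l, h1, h2, _⟩ := h
  exact pc_cancel hV l r h1 (by rw [h2]; exact hw)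

/-- general level -/
structure Lvl (V : Language α) (eps : List α → Ω → Ω) (P R : Ω → Language α)
    (W : Ω → Ω → Language α) : Prop where
  sound : ∀ x y p q w, p ∈ P x → q ∈ R y → w ∈ KStar.kstar V → p ++ q <+: w →
    Path V eps x (p ++ q) y
  base : ∀ x y w, w ∈ W x y → Path V eps x w y
  compl : ∀ (l : List (List α)) (x : Ω), (∀ z ∈ l, z ∈ V) →
    l.flatten ∈ W x (Run eps x l) ∨ ∃ l0 l1 l2 : List (List α), l = l0 ++ l1 ++ l2 ∧ l1 ≠ [] ∧
      l0.flatten ∈ W x (Run eps x l0) ∧ ∃ p ∈ P (Run eps x l0), ∃ q ∈ R (Run eps x (l0 ++ l1)),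
        p ++ q = l1.flatten

theorem lvl_fwd {V : Language α} {eps : List α → Ω → Ω} {P R : Ω → Language α}
    {W : Ω → Ω → Language α} (L : Lvl V eps P R W) :
    ∀ (n : ℕ) (l : List (List α)) (x : Ω), l.length ≤ n → (∀ z ∈ l, z ∈ V) →
      l.flatten ∈ Rhs P R W x (Run eps x l) := by
  intro n
  induction n with
  | zero =>
    intro l x hn hl
    have hl0 : l = [] := List.length_eq_zero_iff.1 (Nat.le_zero.1 hn)
    subst hl0
    rcases L.compl [] x hl with h | ⟨l0, l1, l2, h, h1, _⟩
    · exact Or.inl h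
    · exfalso
      apply h1
      have h2 : l0 ++ l1 ++ l2 = [] := h.symm
      exact (List.append_eq_nil_iff.1 (List.append_eq_nil_iff.1 h2).1).2
  | succ n ih =>
    intro l x hn hl
    rcases L.compl l x hl with h | ⟨l0, l1, l2, h, h1, h0, p, hp, q, hq, hpq⟩
    · exact Or.inl h
    · subst h
      have hlen : l2.length ≤ n := by
        have : 0 < l1.length := List.length_pos_iff.2 h1
        simp only [List.length_append] at hn
        omega
      have hl2 : ∀ z ∈ l2, z ∈ V := fun z hz => hl z (by simp [hz])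
      have h3 := ih l2 (Run eps x (l0 ++ l1)) hlen hl2
      rw [← Run_append] at h3
      right
      rcases h3 with h3 | ⟨x1, y1, w1, hw1, p1, hp1, k, hk, q1, hq1, w2, hw2, he⟩
      · refine ⟨_, _, l0.flatten, h0, p, hp, [], ?_, q, hq, l2.flatten, h3, ?_⟩
        · exact Asm_505.mem_kstar.2 ⟨[], by simp, rfl⟩
        · simp only [List.flatten_append, List.append_nil, ← hpq, List.append_assoc]
      · refine ⟨_, _, l0.flatten, h0, p, hp, (q ++ w1 ++ p1) ++ k, ?_, q1, hq1, w2, hw2, ?_⟩
        · exact kstar_cons ⟨_, _, q, hq, w1, hw1, p1, hp1, rfl⟩ hk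
        · simp only [List.flatten_append, ← hpq, he, List.append_assoc]

theorem lvl_bwd {V : Language α} {eps : List α → Ω → Ω} {P R : Ω → Language α}
    {W : Ω → Ω → Language α} (hV : PC V) (L : Lvl V eps P R W) :
    ∀ (ks : List (List α)) (x y1 y : Ω) (p q w2 : List α), (∀ k ∈ ks, k ∈ KK P R W) →
      p ∈ P x → q ∈ R y1 → w2 ∈ W y1 y → p ++ ks.flatten ++ q ++ w2 ∈ KStar.kstar V →
      Path V eps x (p ++ ks.flatten ++ q ++ w2) y := by
  intro ks
  induction ks with
  | nil =>
    intro x y1 y p q w2 _ hp hq hw2 hw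
    simp only [List.flatten_nil, List.append_nil] at hw ⊢
    have h := L.sound x y1 p q _ hp hq hw ⟨w2, rfl⟩
    exact h.append (L.base _ _ _ hw2)
  | cons k ks ih =>
    intro x y1 y p q w2 hks hp hq hw2 hw
    obtain ⟨a, b, q1, hq1, w1, hw1, p1, hp1, hk⟩ := hks k (by simp)
    subst hk
    have h10 : p ++ ((q1 ++ w1 ++ p1) :: ks).flatten ++ q ++ w2
        = (p ++ q1) ++ (w1 ++ (p1 ++ ks.flatten ++ q ++ w2)) := by
      simp
    rw [h10] at hw ⊢
    have h1 := L.sound x a p q1 _ hp hq1 hw ⟨_, rfl⟩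
    have h2 := h1.cancel hV hw
    have h3 := L.base _ _ _ hw1
    have h4 := h3.cancel hV h2
    have h5 := ih b y1 y p1 q w2 (fun t ht => hks t (by simp [ht])) hp1 hq hw2 h4
    exact h1.append (h3.append h5)

theorem lvl_lemma {V : Language α} {eps : List α → Ω → Ω} {P R : Ω → Language α}
    {W : Ω → Ω → Language α} (hV : PC V) (L : Lvl V eps P R W) (x y : Ω) (w : List α) :
    Path V eps x w y ↔ w ∈ KStar.kstar V ∧ w ∈ Rhs P R W x y := by
  constructor
  · rintro ⟨l, h1, h2, h3⟩
    refine ⟨Asm_505.mem_kstar.2 ⟨l, h1, h2⟩, ?_⟩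
    have := lvl_fwd L l.length l x le_rfl h1
    rw [h3, h2] at this
    exact this
  · rintro ⟨hw, h | ⟨x1, y1, w1, hw1, p, hp, k, hk, q, hq, w2, hw2, rfl⟩⟩
    · exact L.base _ _ _ h
    · have h7 : Path V eps x w1 x1 := L.base _ _ _ hw1
      obtain ⟨ks, g1, g2⟩ := Asm_505.mem_kstar.1 hk
      subst g2
      have e : w1 ++ p ++ ks.flatten ++ q ++ w2 = w1 ++ (p ++ ks.flatten ++ q ++ w2) := by simp
      rw [e] at hw ⊢
      exact h7.append (lvl_bwd hV L ks x1 y1 y p q w2 g1 hp hq hw2 (h7.cancel hV hw))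

variable {k : ℕ}

theorem HL.path2 [Finite Ω] {V : Language α} {eps : List α → Ω → Ω} {P R : Ω → Language α}
    {W : Ω → Ω → Language α} (hV : PC V) (L : Lvl V eps P R W)
    (hV' : HL (k + 1) (KStar.kstar V)) (hP : ∀ x, HL k (P x)) (hR : ∀ x, HL k (R x))
    (hW : ∀ x y, HL k (W x y)) (x y : Ω) : HL (k + 1) ({w | Path V eps x w y} : Language α) := by
  refine (hV'.inf (HL.Rhs hP hR hW x y)).congr fun w => ?_
  exact lvl_lemma hV L x y w

/-- scheme 2: on the promise code `B`, right words may reach over the next zone -/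
structure Inner (B : Language α) (eps : List α → Ω → Ω) (P R : Ω → Language α) : Prop where
  sound : ∀ x y p q w, p ∈ P x → q ∈ R y → w ∈ KStar.kstar B → p ++ q <+: w →
    Path B eps x (p ++ q) y
  compl : ∀ z1 ∈ B, ∀ z2 ∈ B, ∀ x, ∃ p ∈ P x, ∃ q ∈ R (eps z2 (eps z1 x)), p ++ q = z1 ++ z2

/-- scheme 1: sound on all of `U*`, complete for zones outside `B` -/
structure Outer (U B : Language α) (eps : List α → Ω → Ω) (P R : Ω → Language α) : Prop where
  sound : ∀ x y p q w, p ∈ P x → q ∈ R y → w ∈ KStar.kstar U → p ++ q <+: w →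
    Path U eps x (p ++ q) y
  compl : ∀ z ∈ U, z ∉ B → ∀ x, ∃ p ∈ P x, ∃ q ∈ R (eps z x), p ++ q = z

/-- words of at most one zone -/
def W1 (B : Language α) (eps : List α → Ω → Ω) (x y : Ω) : Language α :=
  {w | (x = y ∧ w = []) ∨ (w ∈ B ∧ eps w x = y)}

theorem Inner.lvl {B : Language α} {eps : List α → Ω → Ω} {P R : Ω → Language α}
    (L : Inner B eps P R) : Lvl B eps P R (W1 B eps) where
  sound := L.sound
  base := by
    rintro x y w (⟨rfl, rfl⟩ | ⟨h1, h2⟩)
    · exact Path.nil _ _ _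
    · have := Path.cons (eps := eps) (x := x) h1 (Path.nil B eps (eps w x))
      rw [List.append_nil, h2] at this
      exact this
  compl := by
    intro l x hl
    match l, hl with
    | [], _ => exact Or.inl (Or.inl ⟨rfl, rfl⟩)
    | [z], hl =>
      left
      right
      refine ⟨?_, ?_⟩
      · simpa using hl z (by simp)
      · simp [Run]
    | z1 :: z2 :: l2, hl =>
      right
      obtain ⟨p, hp, q, hq, hpq⟩ := L.compl z1 (hl z1 (by simp)) z2 (hl z2 (by simp)) x
      refine ⟨[], [z1, z2], l2, by simp, by simp, Or.inl ⟨rfl, rfl⟩, p, hp, q, ?_, ?_⟩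
      · exact hq
      · simp [hpq]

theorem Outer.lvl {U B : Language α} (hBU : ∀ z ∈ B, z ∈ U) {eps : List α → Ω → Ω}
    {P R : Ω → Language α} (L : Outer U B eps P R) :
    Lvl U eps P R (fun x y => ({w | Path B eps x w y} : Language α)) where
  sound := L.sound
  base := fun x y w h => Path.mono hBU h
  compl := by
    intro l
    induction l with
    | nil => intro x _; exact Or.inl (Path.nil _ _ _)
    | cons z l ih =>
      intro x hl
      have hz : z ∈ U := hl z (by simp)
      by_cases hB : z ∈ B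
      · rcases ih (eps z x) (fun t ht => hl t (by simp [ht])) with h | ⟨l0, l1, l2, h, h1, h0, hh⟩
        · left
          exact Path.cons hB h
        · right
          refine ⟨z :: l0, l1, l2, by simp [h], h1, ?_, ?_⟩
          · exact Path.cons hB h0
          · exact hh
      · right
        obtain ⟨p, hp, q, hq, hpq⟩ := L.compl z hz hB x
        refine ⟨[], [z], l, by simp, by simp, Path.nil _ _ _, p, hp, q, hq, ?_⟩
        simp [hpq]

/-- **two nested levels, general form** -/
theorem two_levels2 {Ω₁ Ω₂ : Type*} [Finite Ω₁] [Finite Ω₂] {M : Type*} [Monoid M] [Finite M]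
    (φ : α → M) {U B : Language α} (hU : PC U) (hBU : ∀ z ∈ B, z ∈ U)
    {eps₁ : List α → Ω₁ → Ω₁} {P₁ R₁ : Ω₁ → Language α} (L1 : Outer U B eps₁ P₁ R₁)
    {eps₂ : List α → Ω₂ → Ω₂} {P₂ R₂ : Ω₂ → Language α} (L2 : Inner B eps₂ P₂ R₂)
    (dec₁ : ∀ l l', (∀ z ∈ l, z ∈ U) → (∀ z ∈ l', z ∈ U) →
      (∀ x, Run eps₁ x l = Run eps₁ x l') →
        (l.flatten.map φ).prod = (l'.flatten.map φ).prod)
    (dec₂ : ∀ l l', (∀ z ∈ l, z ∈ B) → (∀ z ∈ l', z ∈ B) →
      (∀ x, Run eps₂ x l = Run eps₂ x l') → ∀ x, Run eps₁ x l = Run eps₁ x l')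
    (hHU : HL k U) (hHB : HL k B) (hP₁ : ∀ x, HL k (P₁ x)) (hR₁ : ∀ x, HL k (R₁ x))
    (hP₂ : ∀ x, HL k (P₂ x)) (hR₂ : ∀ x, HL k (R₂ x))
    (hW₂ : ∀ x y, HL k ({w | w ∈ B ∧ eps₂ w x = y} : Language α))
    (hrest : ∀ m, HL k (Rest φ U m)) (m : M) :
    HL (k + 2) ({w | (w.map φ).prod = m} : Language α) := by
  classical
  have hB : PC B := ⟨fun h => hU.ne (hBU _ h), fun z hz z' hz' h => hU.pc z (hBU z hz) z' (hBU z' hz') h⟩
  have s1 : ∀ x y, HL (k + 1) ({w | Path B eps₂ x w y} : Language α) := by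
    intro x y
    refine HL.path2 hB L2.lvl hHB.star hP₂ hR₂ ?_ x y
    intro x y
    exact ((HL.const (k := k) (x = y)).setOf_and (HL.one (α := α) (k := k))).setOf_or (hW₂ x y)
  have s2 : ∀ x y, HL (k + 1) ({w | Path B eps₁ x w y} : Language α) := by
    intro x y
    refine (HL.decode hB (fun l => Run eps₁ x l)
      (fun l l' hl hl' h => dec₂ l l' hl hl' h x) hHB.star s1 y).congr fun w => ?_
    exact Iff.rfl
  have up : ∀ {L : Language α}, HL k L → HL (k + 1) L := fun h => h.mono (Nat.le_succ k)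
  have s3 : ∀ x y, HL (k + 1 + 1) ({w | Path U eps₁ x w y} : Language α) := by
    intro x y
    exact HL.path2 hU (L1.lvl hBU) (hHU.star.mono (Nat.le_succ _)) (fun x => up (hP₁ x))
      (fun x => up (hR₁ x)) s2 x y
  have s4 : ∀ c : M, HL (k + 2) (ZL φ U c) := fun c =>
    HL.decode hU (fun l : List (List α) => (l.flatten.map φ).prod) dec₁
      (hHU.star.mono (Nat.le_succ _)) s3 c
  have s5 : HL (k + 2) ({w | ∃ ab : {ab : M × M // ab.1 * ab.2 = m}, w ∈
      ZL φ U ab.1.1 * Rest φ U ab.1.2} : Language α) :=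
    HL.exists' fun ab => (s4 ab.1.1).mul ((hrest ab.1.2).mono (by omega))
  refine s5.congr fun w => ?_
  constructor
  · intro hw
    have key : ∀ n (w : List α), w.length ≤ n → ∃ (l : List (List α)) (r : List α), (∀ z ∈ l, z ∈ U) ∧ (∀ z ∈ U, ¬ z <+: r) ∧
        l.flatten ++ r = w := by
      intro n
      induction n with
      | zero =>
        intro w hn
        have : w = [] := List.length_eq_zero_iff.1 (Nat.le_zero.1 hn)
        subst this
        refine ⟨[], [], by simp, ?_, rfl⟩
        intro z hz h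
        have : z = [] := List.prefix_nil.1 h
        exact hU.ne (this ▸ hz)
      | succ n ih =>
        intro w hn
        by_cases h : ∃ z ∈ U, z <+: w
        · obtain ⟨z, hz, w', rfl⟩ := h
          have hz0 : z ≠ [] := fun h => hU.ne (h ▸ hz)
          have hzl : 0 < z.length := List.length_pos_iff.2 hz0
          obtain ⟨l, r, h1, h2, h3⟩ := ih w' (by rw [List.length_append] at hn; omega)
          refine ⟨z :: l, r, ?_, h2, by simp [h3]⟩
          intro t ht
          rcases List.mem_cons.1 ht with rfl | ht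
          · exact hz
          · exact h1 t ht
        · push Not at h
          exact ⟨[], w, by simp, h, by simp⟩
    obtain ⟨l, r, h1, h2, h3⟩ := key w.length w le_rfl
    refine ⟨⟨((l.flatten.map φ).prod, (r.map φ).prod), ?_⟩, ?_⟩
    · have : (w.map φ).prod = m := hw
      rw [← this, ← h3, List.map_append, List.prod_append]
    · exact Language.mem_mul.2 ⟨l.flatten, ⟨l, h1, rfl, rfl⟩, r, ⟨h2, rfl⟩, h3⟩
  · rintro ⟨⟨⟨a, b⟩, hab⟩, h⟩
    obtain ⟨x, ⟨l, h1, h2, h3⟩, r, ⟨h4, h5⟩, h6⟩ := Language.mem_mul.1 h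
    subst h2
    change (w.map φ).prod = m
    rw [← h6, List.map_append, List.prod_append, h3, h5]
    exact hab

end Crest.Agent.R320.Asm_505
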