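import Crest.Agent.R320.Asm_515

/-!
# Row 320: assembly on all words, the schemes (helper515)
-/

set_option autoImplicit false

namespace Crest.Agent.R320.Asm2_515

open Crest.RegLang Crest.Agent.R320.Hk_851 Crest.Agent.R320.FewWalls_228 Crest.Agent.R320.Wd_515
open Crest.Agent.R320.Blk467 Crest.Agent.R320.Asm_515

universe u

structure Par (α S V : Type u) where
  n : ℕ
  z : ℕ
  N1 : ℕ
  La : ℕ
  p0 : ℕ
  K : ℕ
  M0 : ℕ
  C0 : ℕ
  Wg : ℕ
  Lam : ℕ
  Sw : Set (List α)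
  φ : α → S
  act : V → S → V
  lam : List α → Option V
  rho : List α → Option V
  nu1 : List α → V
  Bd : ℕ → Prop
  c : ℕ → ℕ
  lam2 : ℕ → List α → Option V
  rho2 : ℕ → List α → Option V
  nu2 : List α → V

variable {α S V : Type u} [Monoid S] [AddCommGroup V]

namespace Par

variable (p : Par α S V)

def ph (w : List α) : S := (w.map p.φ).prod

theorem ph_append (u v : List α) : p.ph (u ++ v) = p.ph u * p.ph v := by simp [ph]

def nu (X : List α) : V := p.act (p.nu2 (X.take p.p0)) (p.ph (X.drop p.p0)) + p.nu1 (X.drop p.p0)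

def T (v : V) (X : List α) : V := p.act v (p.ph X) + p.nu X

/-- blocks seen from `o` letters behind the anchor -/
def X (o : ℕ) : Set (List α) := XO (Wo p.n p.Sw) p.z o

def B (o : ℕ) (Q : List α) : Prop := BO (Wo p.n p.Sw) p.z p.N1 p.p0 p.Bd o Q

def LP1 (v : V) : Language α :=
  {P | p.p0 ≤ P.length ∧ p.lam (P.drop p.p0) = some (p.act v (p.ph (P.take p.p0)) +
    p.nu2 (P.take p.p0))}

def RQ1 (b : V) : Language α :=
  {Q | Q ∈ p.X (p.p0 + p.N1) ∧ (p.z ≤ p.p0 + Q.length ∧ p.rho Q = some b)}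

def LP2 (v : V) : Language α := {P | ∃ k < p.K, P.length = p.c k ∧ p.lam2 k P = some v}

def VK (k : ℕ) (Q1 : List α) (b1 : V) : Prop :=
  ∃ b0, p.rho2 k (Q1.take (p.p0 - p.c k)) = some b0 ∧
    b1 = p.act b0 (p.ph (Q1.drop (p.p0 - p.c k))) + p.nu1 (Q1.drop (p.p0 - p.c k))

def RQ2 (b : V) : Language α :=
  {Q | ∃ k < p.K, (∃ b1, ∃ Q1 X2, Q1 ++ X2 = Q ∧ (Q1 ∈ p.X (p.c k) ∧ p.B (p.c k) Q1) ∧
      (Q1 ∈ p.X (p.c k) ∧ p.VK k Q1 b1) ∧ (X2 ∈ p.X 0 ∧ p.T b1 X2 = b)) ∧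
    ∀ k' < p.K, k' ≠ k → ∀ Q1, Q1 ∈ p.X (p.c k') ∧ p.B (p.c k') Q1 → ¬ Q1 <+: Q}

def Bad : Set (List α) := {X | X ∈ p.X 0 ∧ p.B 0 X}

end Par

structure Ok (p : Par α S V) : Prop where
  C : Ctx α p.n p.z p.M0 p.Sw p.φ
  hz : p.p0 + p.N1 + p.p0 + p.La + p.n + p.N1 + 1 ≤ p.z
  hadd : ∀ a b s, p.act (a + b) s = p.act a s + p.act b s
  hmul : ∀ v s t, p.act v (s * t) = p.act (p.act v s) t
  lam_len : ∀ P v, p.lam P = some v → P.length ≤ p.N1
  sound : ∀ P Q v b, p.lam P = some v → p.rho Q = some b →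
    b = p.act v (p.ph (P ++ Q)) + p.nu1 (P ++ Q)
  compl : ∀ u : List α, p.La ≤ u.length → ¬ p.Bd u.length → ∀ v, ∃ P Q, P ++ Q = u ∧
    p.lam P = some v ∧ (p.rho Q).isSome
  rho_cls : ∀ Q Q' : List α, p.La ≤ Q.length → p.La ≤ Q'.length → Q.take p.La = Q'.take p.La →
    Q.length % p.M0 = Q'.length % p.M0 → p.ph (Q.drop p.La) = p.ph (Q'.drop p.La) →
    p.rho Q = p.rho Q'
  nu_cls : ∀ Q Q' : List α, p.La ≤ Q.length → p.La ≤ Q'.length → Q.take p.La = Q'.take p.La →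
    Q.length % p.M0 = Q'.length % p.M0 → p.ph (Q.drop p.La) = p.ph (Q'.drop p.La) →
    p.nu1 Q = p.nu1 Q'
  Bd_per : ∀ T T', p.La ≤ T → p.La ≤ T' → T % p.M0 = T' % p.M0 → (p.Bd T ↔ p.Bd T')
  ex2 : ∀ k < p.K, ∀ P Q v b, P.length = p.c k → p.lam2 k P = some v → p.rho2 k Q = some b →
    b = p.act v (p.ph (P ++ Q)) + p.nu2 (P ++ Q)
  cp2 : ∀ (u : List α) (v : V), u.length = p.p0 → ∃ I : Finset ℕ, 2 * p.C0 + 2 ≤ I.card ∧
    ∀ k ∈ I, k < p.K ∧ p.lam2 k (u.take (p.c k)) = some v ∧ (p.rho2 k (u.drop (p.c k))).isSome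
  hsep : ∀ (X : List α) (t t' : ℕ), t < t' → t' ≤ X.length → Wo p.n p.Sw (X.take t) →
    Wo p.n p.Sw (X.take t') → t + p.Wg ≤ t'
  hcL : ∀ k < p.K, p.c k ≤ p.Lam
  hcp : p.Lam ≤ p.p0
  hWg : 2 * p.Lam + 2 * p.N1 < p.Wg
  hdiff : ∀ i j k l, i < p.K → j < p.K → k < p.K → l < p.K → i ≠ j → k ≠ l → (i, j) ≠ (k, l) →
      p.c i + p.c l + 2 * p.N1 < p.c k + p.c j ∨ p.c k + p.c j + 2 * p.N1 < p.c i + p.c l
  hthin : ∀ T, p.La ≤ T → ∀ F : Finset (ℕ × ℕ), (∀ q ∈ F, q.1 < p.K ∧ q.2 < p.K ∧ q.1 ≠ q.2 ∧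
    p.Bd (T + p.c q.2 - p.c q.1)) → F.card ≤ p.C0

variable {p : Par α S V}

theorem T_split (h : Ok p) (v : V) (X0 Y : List α) (hX : X0.length = p.p0) :
    p.T v (X0 ++ Y) = p.act (p.act v (p.ph X0) + p.nu2 X0) (p.ph Y) + p.nu1 Y := by
  unfold Par.T Par.nu
  rw [← hX, List.take_left, List.drop_left, p.ph_append, h.hmul, h.hadd, add_assoc]

theorem cle (h : Ok p) {k : ℕ} (hk : k < p.K) : p.c k ≤ p.p0 := (h.hcL k hk).trans h.hcp

theorem X_append (h : Ok p) {P Q : List α} (hP : P.length ≤ p.p0 + p.N1) :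
    P ++ Q ∈ p.X 0 ↔ Q ∈ p.X P.length := by
  have hz := h.hz
  have := XO_append (W := Wo p.n p.Sw) (z := p.z) (n := p.n) loc (o := 0) (P := P) (Q := Q)
    (by omega)
  rw [Nat.zero_add] at this
  exact this

theorem B_append (h : Ok p) {P Q : List α} (hP : P.length ≤ p.p0 + p.N1) :
    p.B 0 (P ++ Q) ↔ p.B P.length Q := by
  have hz := h.hz
  exact BO_append (W := Wo p.n p.Sw) (z := p.z) (n := p.n) loc (by omega)

theorem s1 (h : Ok p) (v v' : V) (P Q : List α) (hP : P ∈ p.LP1 v) (hQ : Q ∈ p.RQ1 v') :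
    P ++ Q ∈ p.X 0 ∧ p.T v (P ++ Q) = v' := by
  obtain ⟨hp, hl⟩ := hP
  obtain ⟨hQ1, hQz, hr⟩ := hQ
  have hz := h.hz
  have hll := h.lam_len _ _ hl
  rw [List.length_drop] at hll
  refine ⟨(X_append h (by omega)).2 ⟨hQ1.1, by omega, fun t ht hzt => hQ1.2.2 t ht (by omega)⟩, ?_⟩
  have e : P ++ Q = P.take p.p0 ++ (P.drop p.p0 ++ Q) := by
    rw [← List.append_assoc, List.take_append_drop]
  rw [e, T_split h v _ _ (by rw [List.length_take]; omega)]
  exact (h.sound _ _ _ _ hl hr).symm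

theorem c1 (h : Ok p) (X : List α) (hX : X ∈ p.X 0) (hB : X ∉ p.Bad) (v : V) :
    ∃ P Q, P ++ Q = X ∧ P ∈ p.LP1 v ∧ Q ∈ p.RQ1 (p.T v X) := by
  have hz := h.hz
  have hXl : p.z ≤ X.length := by have := hX.2.1; omega
  have hB' : ¬ p.B 0 X := fun hh => hB ⟨hX, hh⟩
  have hE : ¬ ∃ t ≤ X.length, Wo p.n p.Sw (X.take t) ∧ p.z ≤ 0 + t + p.N1 ∧ 0 + t < p.z + p.N1 :=
    fun hh => hB' (Or.inl hh)
  have hBd : ¬ p.Bd (X.drop p.p0).length := by
    rw [List.length_drop]
    intro hh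
    refine hB' (Or.inr ?_)
    rwa [Nat.zero_add]
  have hXge : p.z + p.N1 ≤ X.length := by
    by_contra hcon
    exact hE ⟨X.length, le_rfl, by rw [List.take_length]; exact hX.1, by omega, by omega⟩
  obtain ⟨P', Q, e, hl, hr⟩ := h.compl (X.drop p.p0) (by rw [List.length_drop]; omega) hBd
    (p.act v (p.ph (X.take p.p0)) + p.nu2 (X.take p.p0))
  have hll := h.lam_len _ _ hl
  have hX0 : (X.take p.p0).length = p.p0 := by rw [List.length_take]; omega
  have eX : (X.take p.p0 ++ P') ++ Q = X := by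
    rw [List.append_assoc, e, List.take_append_drop]
  have hPl : (X.take p.p0 ++ P').length = p.p0 + P'.length := by rw [List.length_append, hX0]
  have hQlen : p.p0 + P'.length + Q.length = X.length := by
    have := congrArg List.length eX
    rw [List.length_append, hPl] at this
    exact this
  have hQX : Q ∈ p.X (p.p0 + P'.length) := by
    have := (X_append h (P := X.take p.p0 ++ P') (Q := Q) (by omega)).1 (by rw [eX]; exact hX)
    rwa [hPl] at this
  obtain ⟨b, hb⟩ := Option.isSome_iff_exists.1 hr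
  have hLP : X.take p.p0 ++ P' ∈ p.LP1 v := by
    refine ⟨by omega, ?_⟩
    have e1 : (X.take p.p0 ++ P').drop p.p0 = P' := by
      rw [List.drop_append_of_le_length (by omega), List.drop_eq_nil_of_le (by omega),
        List.nil_append]
    have e2 : (X.take p.p0 ++ P').take p.p0 = X.take p.p0 := by
      rw [List.take_append_of_le_length (by omega), List.take_of_length_le (by omega)]
    rw [e1, e2]
    exact hl
  have hRQ : Q ∈ p.RQ1 b := by
    refine ⟨⟨hQX.1, by omega, ?_⟩, by omega, hb⟩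
    intro t ht hzt hW
    have hnt : p.n ≤ t := by
      have := hW.1
      rw [List.length_take] at this
      omega
    have hWX : Wo p.n p.Sw (X.take (p.p0 + P'.length + t)) := by
      rw [← eX, ← hPl, Wd_515.take_add]
      exact (loc _ _ (by rw [List.length_take]; omega)).2 hW
    have hlt : ¬ p.z ≤ p.p0 + P'.length + t := fun hh => hQX.2.2 t ht hh hW
    exact hE ⟨p.p0 + P'.length + t, by omega, hWX, by omega, by omega⟩
  have := s1 h v b _ _ hLP hRQ
  rw [eX] at this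
  exact ⟨_, Q, eX, hLP, by rw [this.2]; exact hRQ⟩

/-- exactness of the inner gadget on the block -/
theorem val2 (h : Ok p) {k : ℕ} (hk : k < p.K) {P Q1 : List α} {v b1 : V}
    (hP : P.length = p.c k) (hl : p.lam2 k P = some v) (hQ : Q1 ∈ p.X (p.c k))
    (hV : p.VK k Q1 b1) : p.T v (P ++ Q1) = b1 := by
  obtain ⟨b0, hr, rfl⟩ := hV
  have hc := cle h hk
  have hz := h.hz
  have hQl : p.z ≤ p.c k + Q1.length := hQ.2.1
  have e : P ++ Q1 = (P ++ Q1.take (p.p0 - p.c k)) ++ Q1.drop (p.p0 - p.c k) := by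
    rw [List.append_assoc, List.take_append_drop]
  rw [e, T_split h v _ _ (by rw [List.length_append, List.length_take]; omega)]
  rw [← h.ex2 k hk _ _ _ _ hP hl hr]

theorem X_pf {o : ℕ} {Q Q' R : List α} (hQ : Q ∈ p.X o) (hQ' : Q' ∈ p.X o) (h : Q <+: R)
    (h' : Q' <+: R) : Q = Q' := by
  rcases List.prefix_or_prefix_of_prefix h h' with h1 | h1
  · exact XO_pf hQ hQ' h1
  · exact (XO_pf hQ' hQ h1).symm

theorem pcode (h : Ok p) : PCode (p.X 0) := by
  have hz := h.hz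
  refine ⟨fun h0 => ?_, fun X hX Y hY hp => XO_pf hX hY hp⟩
  have := h0.2.1
  simp only [List.length_nil] at this
  omega

theorem s2 (h : Ok p) (v v' : V) (P Q R : List α) (hP : P ∈ p.LP2 v) (hQ : Q ∈ p.RQ2 v')
    (hS : P ++ Q ++ R ∈ Str p.Bad) : P ++ Q ∈ Lg p.Bad p.T v v' := by
  obtain ⟨k0, hk0, hPl, hl⟩ := hP
  obtain ⟨k, hk, ⟨b1, Q1, X2, rfl, ⟨hQ1, hQ1B⟩, ⟨_, hV⟩, hX2, hTX⟩, huniq⟩ := hQ
  have hz := h.hz
  have hc0 := cle h hk0
  obtain ⟨l, hl1, hl2⟩ := hS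
  have hX2l : p.z ≤ 0 + X2.length := hX2.2.1
  cases l with
  | nil =>
    exfalso
    have := congrArg List.length hl2
    simp only [List.flatten_nil, List.length_nil, List.length_append] at this
    omega
  | cons X1 l =>
    have hX1 : X1 ∈ p.Bad := hl1 X1 (by simp)
    rw [List.flatten_cons] at hl2
    have hX1l : p.z ≤ 0 + X1.length := hX1.1.2.1
    -- `X1 = P ++ Y1`
    have hpre : P <+: X1 := by
      refine List.prefix_of_prefix_length_le (l₃ := P ++ (Q1 ++ X2) ++ R) ?_ ?_ (by omega)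
      · rw [List.append_assoc]; exact List.prefix_append _ _
      · rw [← hl2]; exact List.prefix_append _ _
    obtain ⟨Y1, rfl⟩ := hpre
    have hY1 : Y1 ∈ p.X (p.c k0) := by
      have := (X_append h (P := P) (Q := Y1) (by omega)).1 hX1.1
      rwa [hPl] at this
    have hY1B : p.B (p.c k0) Y1 := by
      have := (B_append h (P := P) (Q := Y1) (by omega)).1 hX1.2
      rwa [hPl] at this
    have hrest : Y1 ++ l.flatten = (Q1 ++ X2) ++ R := by
      rw [List.append_assoc, List.append_assoc P (Q1 ++ X2) R] at hl2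
      exact List.append_cancel_left hl2
    -- `Y1` is a prefix of `Q1 ++ X2`
    have hWQ : Wo p.n p.Sw (Q1 ++ X2) := (loc _ _ (by omega)).2 hX2.1
    obtain ⟨t0, ht0, hY1'⟩ := exists_XO (W := Wo p.n p.Sw) (z := p.z) (o := p.c k0)
      (R := Q1 ++ X2) (t := (Q1 ++ X2).length) le_rfl (by rwa [List.take_length])
      (by rw [List.length_append]; omega)
    have hYeq : Y1 = (Q1 ++ X2).take t0 :=
      X_pf hY1 hY1' (R := (Q1 ++ X2) ++ R) (by rw [← hrest]; exact List.prefix_append _ _)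
        ((List.take_prefix _ _).trans (List.prefix_append _ _))
    have hYpre : Y1 <+: Q1 ++ X2 := by rw [hYeq]; exact List.take_prefix _ _
    have hkk : k0 = k := by
      by_contra hne
      exact huniq k0 hk0 hne Y1 ⟨hY1, hY1B⟩ hYpre
    subst hkk
    have hYQ : Y1 = Q1 := X_pf hY1 hQ1 hYpre (List.prefix_append _ _)
    subst hYQ
    have hT1 := val2 h hk hPl hl hQ1 hV
    have hrest2 : l.flatten = X2 ++ R := by
      rw [List.append_assoc] at hrest
      exact List.append_cancel_left hrest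
    cases l with
    | nil =>
      exfalso
      have := congrArg List.length hrest2
      simp only [List.flatten_nil, List.length_nil, List.length_append] at this
      omega
    | cons X3 l =>
      have hX3 : X3 ∈ p.Bad := hl1 X3 (by simp)
      rw [List.flatten_cons] at hrest2
      have h32 : X3 = X2 := X_pf hX3.1 hX2 (R := X2 ++ R)
        (by rw [← hrest2]; exact List.prefix_append _ _) (List.prefix_append _ _)
      subst h32
      refine ⟨[P ++ Y1, X3], ?_, by simp, ?_⟩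
      · intro X hX
        rcases List.mem_cons.1 hX with rfl | hX
        · exact hX1
        · rw [List.mem_singleton] at hX
          subst hX
          exact hX3
      · show p.T (p.T v (P ++ Y1)) X3 = v'
        rw [hT1, hTX]

theorem c2 (h : Ok p) (X : List α) (hX : X ∈ p.Bad) (X' : List α) (hX' : X' ∈ p.Bad) (v : V) :
    ∃ P Q, P ++ Q = X ++ X' ∧ P ∈ p.LP2 v ∧ Q ∈ p.RQ2 (p.T (p.T v X) X') := by
  classical
  have hz := h.hz
  have hXl : p.z ≤ 0 + X.length := hX.1.2.1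
  have hu : (X.take p.p0).length = p.p0 := by rw [List.length_take]; omega
  obtain ⟨I, hI, hIk⟩ := h.cp2 (X.take p.p0) v hu
  have hsp := spoil (W := Wo p.n p.Sw) (z := p.z) (n := p.n) loc (Wg := p.Wg) h.hsep
    (N1 := p.N1) (p0 := p.p0) (K := p.K) (C0 := p.C0) (La := p.La) (Lam := p.Lam) (Bd := p.Bd)
    (c := p.c) h.hcL h.hcp (by have := h.hcp; omega) h.hWg h.hdiff
    (fun T hT => h.hthin T hT _ (fun q hq => by
      rw [Finset.mem_filter, Finset.mem_product, Finset.mem_range, Finset.mem_range] at hq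
      exact ⟨hq.1.1, hq.1.2, hq.2.1, hq.2.2⟩)) (X ++ X')
  obtain ⟨k, hkI, hkn⟩ : ∃ k ∈ I, k ∉ ((Finset.range p.K).filter (fun k => ∃ k' < p.K, k' ≠ k ∧
      ∃ Q1 ∈ XO (Wo p.n p.Sw) p.z (p.c k'), Q1 <+: (X ++ X').drop (p.c k) ∧
        BO (Wo p.n p.Sw) p.z p.N1 p.p0 p.Bd (p.c k') Q1)) := by
    by_contra hcon
    push Not at hcon
    have := Finset.card_le_card hcon
    omega
  obtain ⟨hk, hlk, hrk⟩ := hIk k hkI
  have hc := cle h hk
  have hPl : (X.take (p.c k)).length = p.c k := by rw [List.length_take]; omega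
  have hdrop : (X ++ X').drop (p.c k) = X.drop (p.c k) ++ X' :=
    List.drop_append_of_le_length (by omega)
  have eX : X.take (p.c k) ++ X.drop (p.c k) = X := List.take_append_drop _ _
  have hQ1 : X.drop (p.c k) ∈ p.X (p.c k) := by
    have := (X_append h (P := X.take (p.c k)) (Q := X.drop (p.c k)) (by omega)).1
      (by rw [eX]; exact hX.1)
    rwa [hPl] at this
  have hQ1B : p.B (p.c k) (X.drop (p.c k)) := by
    have := (B_append h (P := X.take (p.c k)) (Q := X.drop (p.c k)) (by omega)).1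
      (by rw [eX]; exact hX.2)
    rwa [hPl] at this
  have hlP : p.lam2 k (X.take (p.c k)) = some v := by
    rw [List.take_take, Nat.min_eq_left hc] at hlk
    exact hlk
  obtain ⟨b0, hb0⟩ := Option.isSome_iff_exists.1 hrk
  have hV : p.VK k (X.drop (p.c k)) (p.act b0 (p.ph ((X.drop (p.c k)).drop (p.p0 - p.c k))) +
      p.nu1 ((X.drop (p.c k)).drop (p.p0 - p.c k))) := by
    refine ⟨b0, ?_, rfl⟩
    rw [List.drop_take] at hb0
    exact hb0
  have hT1 := val2 h hk hPl hlP hQ1 hV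
  rw [eX] at hT1
  refine ⟨X.take (p.c k), X.drop (p.c k) ++ X', ?_, ⟨k, hk, hPl, hlP⟩, k, hk, ⟨_, X.drop (p.c k), X',
    rfl, ⟨hQ1, hQ1B⟩, ⟨hQ1, hV⟩, hX'.1, by rw [hT1]⟩, ?_⟩
  · rw [← List.append_assoc, eX]
  · intro k' hk' hne Q1 ⟨hq, hqB⟩ hpre
    apply hkn
    rw [Finset.mem_filter, Finset.mem_range]
    exact ⟨hk, k', hk', hne, Q1, hq, by rw [hdrop]; exact hpre, hqB⟩

end Crest.Agent.R320.Asm2_515
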