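import Crest.Agent.R320.Asm_600

/-!
Row 320: all-words assembly, heights (helper600).
-/

set_option autoImplicit false

namespace Crest.Agent.R320.Asm_600

open Crest.RegLang Crest.Agent.R320.Hk_851 Crest.Agent.R320.Half1_180

universe u v w

section
variable {α : Type u} {S : Type v} {V : Type w} [Monoid S] [AddCommGroup V]

theorem reg_congr {L : Language α} {p : List α → Prop} (h : L.IsRegular)
    (e : ∀ w, w ∈ L ↔ p w) : (Lg p).IsRegular := by
  have : L = Lg p := by ext w; exact e w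
  rw [← this]; exact h

theorem reg_and {p q : List α → Prop} (h : (Lg p).IsRegular) (h' : (Lg q).IsRegular) :
    (Lg (fun w => p w ∧ q w)).IsRegular :=
  reg_congr (h.inf h') fun _ => Iff.rfl

theorem reg_or {p q : List α → Prop} (h : (Lg p).IsRegular) (h' : (Lg q).IsRegular) :
    (Lg (fun w => p w ∨ q w)).IsRegular :=
  reg_congr (h.add h') fun _ => Iff.rfl

theorem reg_not {p : List α → Prop} (h : (Lg p).IsRegular) : (Lg (fun w => ¬ p w)).IsRegular :=
  reg_congr h.compl fun _ => Iff.rfl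

theorem reg_cat {p q : List α → Prop} (h : (Lg p).IsRegular) (h' : (Lg q).IsRegular) :
    (Lg (fun w => ∃ a, p a ∧ ∃ b, q b ∧ a ++ b = w)).IsRegular :=
  reg_congr (Crest.Agent.R320.Reg_852.IsRegular.mul h h') fun _ => Language.mem_mul

theorem hl_cat {k : ℕ} {p q : List α → Prop} (h : HL k (Lg p)) (h' : HL k (Lg q)) :
    HL k (Lg (fun w => ∃ a, p a ∧ ∃ b, q b ∧ a ++ b = w)) :=
  (h.mul h').congr fun _ => Language.mem_mul.symm

theorem reg_len [Finite α] (x : ℕ) : (Lg (fun w : List α => x ≤ w.length)).IsRegular :=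
  Crest.Agent.R320.Reg_852.HL.isRegular (k := 0) (HL.length_ge x)

/-- structure of regularity hypotheses -/
structure Dt.Reg (D : Dt α S V) : Prop where
  wo : (Lg D.Wo).IsRegular
  rho : ∀ b, (Lg fun Q => D.La ≤ Q.length ∧ D.rho1 Q = some b).IsRegular
  nu : ∀ b, (Lg fun Q => D.La ≤ Q.length ∧ D.nu1 Q = b).IsRegular
  bt : (Lg fun Q : List α => D.BadT Q.length).IsRegular
  few : ∀ p : List α → Prop, (Lg p).IsRegular → ∀ r, (∀ w, p w → ∃ F : Finset ℕ, F.card ≤ r ∧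
    ∀ t ≤ w.length, D.Wo (w.take t) → t ∈ F) → HL 1 (Lg p)

theorem Dt.Reg.first [Finite α] {D : Dt α S V} (h : D.Reg) (x : ℕ) :
    (Lg (First D.Wo x)).IsRegular := by
  have h1 := reg_and h.wo (reg_len x)
  have h2 := reg_cat h1 (reg_len (α := α) 1)
  refine reg_congr (reg_and h1 (reg_not h2)) fun Y => ?_
  constructor
  · rintro ⟨⟨h3, h4⟩, h5⟩
    refine ⟨h3, h4, fun t ht1 ht2 hw => h5 ⟨Y.take t, ⟨hw, ?_⟩, Y.drop t, ?_, by simp⟩⟩
    · rw [List.length_take]; omega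
    · rw [List.length_drop]; omega
  · rintro ⟨h3, h4, h5⟩
    refine ⟨⟨h3, h4⟩, ?_⟩
    rintro ⟨a, ⟨ha1, ha2⟩, b, hb, rfl⟩
    refine h5 a.length ha2 (by rw [List.length_append]; omega) ?_
    rw [List.take_left]; exact ha1

theorem Dt.Reg.badY [Finite α] {D : Dt α S V} (h : D.Reg) : (Lg D.BadY).IsRegular := by
  have h1 := reg_and h.wo (reg_and (reg_len (D.z - D.N1))
    (reg_not (reg_len (α := α) (D.z + D.N1 + 1))))
  have h2 := reg_cat h1 (reg_len (α := α) 0)
  refine reg_congr (reg_or h2 h.bt) fun Y => ?_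
  constructor
  · rintro (⟨a, ⟨ha1, ha2, ha3⟩, b, -, rfl⟩ | h3)
    · have ha4 : ¬ (D.z + D.N1 + 1 ≤ a.length) := ha3
      have ha5 : D.z - D.N1 ≤ a.length := ha2
      exact Or.inl ⟨a.length, ha5, by omega, by rw [List.length_append]; omega, by
        rw [List.take_left]; exact ha1⟩
    · exact Or.inr h3
  · rintro (⟨t, h3, h4, h5, h6⟩ | h3)
    · have hl : (Y.take t).length = t := by rw [List.length_take]; omega
      refine Or.inl ⟨Y.take t, ⟨h6, ?_, ?_⟩, Y.drop t, Nat.zero_le _, by simp⟩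
      · show D.z - D.N1 ≤ (Y.take t).length
        omega
      · show ¬ (D.z + D.N1 + 1 ≤ (Y.take t).length)
        omega
    · exact Or.inr h3

theorem first_few {D : Dt α S V} {x : ℕ} {Y : List α} (h : First D.Wo x Y) :
    ∃ F : Finset ℕ, F.card ≤ x + 1 ∧ ∀ t ≤ Y.length, D.Wo (Y.take t) → t ∈ F := by
  refine ⟨insert Y.length (Finset.range x), (Finset.card_insert_le _ _).trans
    (by rw [Finset.card_range]), fun t ht hw => ?_⟩
  rw [Finset.mem_insert, Finset.mem_range]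
  by_contra hcon
  push Not at hcon
  exact h.2.2 t hcon.2 (by omega) hw

theorem Dt.Reg.ph [Finite S] {D : Dt α S V} (s : S) :
    (Lg (fun w => D.ph w = s)).IsRegular := Crest.Agent.R320.Reg_852.isRegular_prod D.f s

/-- zone languages of bad zones -/
theorem Dt.Reg.hlY [Finite α] [Finite S] {D : Dt α S V} (h : D.Reg) (hz : D.La ≤ D.z) (s : S)
    (c : V) : HL 1 (Lg (fun Y => First D.Wo D.z Y ∧ D.BadY Y ∧ D.ph Y = s ∧ D.nu1 Y = c)) := by
  refine h.few _ ?_ (D.z + 1) fun w hw => first_few hw.1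
  refine reg_congr (reg_and (h.first D.z) (reg_and h.badY (reg_and (Dt.Reg.ph (D := D) s)
    (h.nu c)))) fun Y => ?_
  constructor
  · rintro ⟨h1, h2, h3, h4, h5⟩
    exact ⟨h1, h2, h3, h5⟩
  · rintro ⟨h1, h2, h3, h5⟩
    exact ⟨h1, h2, h3, le_trans hz h1.2.1, h5⟩

theorem Dt.Reg.hlE [Finite α] [Finite S] {D : Dt α S V} (h : D.Reg) (s : S) :
    HL 1 (Lg (fun E => First D.Wo 0 E ∧ D.ph E = s)) :=
  h.few _ (reg_and (h.first 0) (Dt.Reg.ph (D := D) s)) 1 fun w hw => first_few hw.1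

theorem Dt.Reg.hlR [Finite α] [Finite S] {D : Dt α S V} (h : D.Reg) (hz : D.La ≤ D.z) (c : V) :
    HL 1 (Lg (fun Y => D.RZ Y ∧ D.rho1 Y = some c)) := by
  refine h.few _ ?_ (D.z - D.N1 + 1) fun w hw => first_few hw.1.1
  refine reg_congr (reg_and (h.first (D.z - D.N1)) (reg_and (reg_len D.z) (h.rho c))) fun Y => ?_
  constructor
  · rintro ⟨h1, h2, h3, h4⟩
    exact ⟨⟨h1, h2⟩, h4⟩
  · rintro ⟨⟨h1, h2⟩, h4⟩
    exact ⟨h1, h2, le_trans hz h2, h4⟩

theorem hl_fin [Finite α] {k : ℕ} (p : List α → Prop) (N : ℕ) (h : ∀ w, p w → w.length ≤ N) :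
    HL k (Lg p) :=
  HL.finite ((List.finite_length_le α N).subset fun w hw => h w hw)

theorem Dt.Reg.hRQ1 [Finite α] [Finite S] [Finite V] {D : Dt α S V} (h : D.Reg)
    (hz : D.La ≤ D.z) (b : V) : HL 1 (D.RQ1 b) := by
  have h1 : HL 1 (Lg fun w => ∃ q : V × S, w ∈ (Lg (fun _ : List α => D.act q.1 q.2 = b)) ⊓
      Lg (fun w => ∃ a, (D.RZ a ∧ D.rho1 a = some q.1) ∧ ∃ e, (First D.Wo 0 e ∧ D.ph e = q.2) ∧
        a ++ e = w)) :=
    HL.iUnion fun q => (HL.const _).inf (hl_cat (h.hlR hz q.1) (h.hlE q.2))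
  refine h1.congr fun w => ?_
  constructor
  · rintro ⟨Y, E, c, h2, h3, h4, h5, rfl⟩
    exact ⟨(c, D.ph E), h5, Y, ⟨h2, h4⟩, E, ⟨h3, rfl⟩, rfl⟩
  · rintro ⟨⟨c, s⟩, h5, Y, ⟨h2, h4⟩, E, ⟨h3, rfl⟩, rfl⟩
    exact ⟨Y, E, c, h2, h3, h4, h5, rfl⟩

/-- bad blocks with given value -/
theorem Dt.Reg.hShort [Finite α] [Finite S] [Finite V] {D : Dt α S V} (h : D.Reg)
    (hz : D.La ≤ D.z) (v v' : V) :
    HL 1 (Lg (fun X => X ∈ D.Bl D.BadY ∧ D.T X v = v')) := by
  have h1 : HL 1 (Lg fun w => ∃ q : (S × V) × (S × V) × S, w ∈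
      (Lg (fun _ : List α => D.act (D.act (D.act v q.1.1 + q.1.2) q.2.1.1 + q.2.1.2) q.2.2 = v')) ⊓
      Lg (fun w => ∃ a, (a.length = D.p0 ∧ D.ph a = q.1.1 ∧ D.nu2 a = q.1.2) ∧ ∃ c,
        (∃ y, (First D.Wo D.z y ∧ D.BadY y ∧ D.ph y = q.2.1.1 ∧ D.nu1 y = q.2.1.2) ∧ ∃ e,
          (First D.Wo 0 e ∧ D.ph e = q.2.2) ∧ y ++ e = c) ∧ a ++ c = w)) :=
    HL.iUnion fun q => (HL.const _).inf (hl_cat (hl_fin _ D.p0 fun w hw => hw.1.le)
      (hl_cat (h.hlY hz _ _) (h.hlE _)))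
  refine h1.congr fun w => ?_
  constructor
  · rintro ⟨⟨⟨X1, Y, E⟩, hD, hB, rfl⟩, hT⟩
    refine ⟨((D.ph X1, D.nu2 X1), (D.ph Y, D.nu1 Y), D.ph E), ?_, X1, ⟨hD.1, rfl, rfl⟩, Y ++ E,
      ⟨Y, ⟨hD.2.1, hB, rfl, rfl⟩, E, ⟨hD.2.2, rfl⟩, rfl⟩, rfl⟩
    rw [D.T_eq hD] at hT
    exact hT
  · rintro ⟨⟨⟨s1, c1⟩, ⟨s, c⟩, s'⟩, hv, X1, ⟨hX, rfl, rfl⟩, _, ⟨Y, ⟨hY, hB, rfl, rfl⟩, E,
      ⟨hE, rfl⟩, rfl⟩, rfl⟩
    have hD : D.Dec (X1, Y, E) := ⟨hX, hY, hE⟩
    refine ⟨⟨(X1, Y, E), hD, hB, rfl⟩, ?_⟩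
    rw [show D.T (X1 ++ (Y ++ E)) v = D.val (X1, Y, E) v from D.T_eq hD v]
    exact hv

theorem Dt.Reg.hBad [Finite α] [Finite S] [Finite V] {D : Dt α S V} (h : D.Reg)
    (hz : D.La ≤ D.z) : HL 1 (Lof (D.Bl D.BadY)) := by
  have h1 : HL 1 (Lg fun w => ∃ v' : V, w ∈ Lg (fun X => X ∈ D.Bl D.BadY ∧ D.T X 0 = v')) :=
    HL.iUnion fun v' => h.hShort hz 0 v'
  refine h1.congr fun w => ?_
  constructor
  · intro hw; exact ⟨_, hw, rfl⟩
  · rintro ⟨v', hw, _⟩; exact hw

theorem Dt.Reg.hBadAt [Finite α] [Finite S] [Finite V] {D : Dt α S V} (h : D.Reg)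
    (hz : D.La ≤ D.z) (hz0 : 0 < D.z) (x : ℕ) : HL 1 (Lg (fun Q => D.BadAt Q x)) := by
  have hY : HL 1 (Lg (fun Y => First D.Wo D.z Y ∧ D.BadY Y)) :=
    h.few _ (reg_and (h.first D.z) h.badY) (D.z + 1) fun w hw => first_few hw.1
  have h1 := hl_cat (hl_fin (k := 1) (fun w : List α => w.length = x) x fun w hw => le_of_eq hw)
    (hl_cat hY ((HL.length_ge 0 : HL 1 {w : List α | 0 ≤ w.length})))
  refine h1.congr fun Q => ?_
  constructor
  · rintro ⟨Y, R, e, hY1, hY2⟩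
    have hlen : x ≤ Q.length := by
      by_contra hcon
      rw [List.drop_eq_nil_of_le (by omega)] at e
      have := congrArg List.length e
      have := hY1.2.1
      simp only [List.length_nil, List.length_append] at *
      omega
    exact ⟨Q.take x, by rw [List.length_take]; omega, Q.drop x, ⟨Y, ⟨hY1, hY2⟩, R, Nat.zero_le _,
      e.symm⟩, List.take_append_drop _ _⟩
  · rintro ⟨a, ha, _, ⟨Y, ⟨hY1, hY2⟩, R, _, rfl⟩, rfl⟩
    exact ⟨Y, R, by rw [← ha, List.drop_left], hY1, hY2⟩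

theorem Dt.Reg.hRQ2 [Finite α] [Finite S] [Finite V] {D : Dt α S V} (h : D.Reg)
    (hz : D.La ≤ D.z) (hz0 : 0 < D.z) (b : V) : HL 1 (D.RQ2 b) := by
  have h1 : HL 1 (Lg fun w => ∃ l : Fin D.K, w ∈
      (Lg (fun w => ∀ l' : Fin D.K, w ∈ Lg (fun w : List α => l' ≠ l → w ∈
        Lg (fun w => ¬ D.BadAt w (D.p0 - D.c l'))))) ⊓
      (Lg fun w => ∃ q : V × (S × V) × S, w ∈
        (Lg (fun _ : List α => D.act (D.act q.1 q.2.1.1 + q.2.1.2) q.2.2 = b)) ⊓
        Lg (fun w => ∃ a, (a.length = D.p0 - D.c l ∧ D.rho2 l a = some q.1) ∧ ∃ c,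
          (∃ y, (First D.Wo D.z y ∧ D.BadY y ∧ D.ph y = q.2.1.1 ∧ D.nu1 y = q.2.1.2) ∧ ∃ e,
            (First D.Wo 0 e ∧ D.ph e = q.2.2) ∧ y ++ e = c) ∧ a ++ c = w))) := by
    refine HL.iUnion fun l => HL.inf (HL.iInter fun l' => ?_) (HL.iUnion fun q =>
      (HL.const _).inf (hl_cat (hl_fin _ (D.p0 - D.c l) fun w hw => hw.1.le)
      (hl_cat (h.hlY hz _ _) (h.hlE _))))
    exact HL.setOf_imp (HL.const _) (HL.setOf_not (h.hBadAt hz hz0 _))
  refine h1.congr fun w => ?_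
  constructor
  · rintro ⟨l, hl, hun, U, Y, E, d, hU, hY, hB, hE, hr, hb, rfl⟩
    refine ⟨⟨l, hl⟩, ?_, (d, (D.ph Y, D.nu1 Y), D.ph E), hb, U, ⟨hU, hr⟩, Y ++ E,
      ⟨Y, ⟨hY, hB, rfl, rfl⟩, E, ⟨hE, rfl⟩, rfl⟩, rfl⟩
    intro l' hne
    exact hun l'.1 l'.2 fun e => hne (Fin.ext e)
  · rintro ⟨l, hun, ⟨d, ⟨s, c⟩, s'⟩, hb, U, ⟨hU, hr⟩, _, ⟨Y, ⟨hY, hB, rfl, rfl⟩, E,
      ⟨hE, rfl⟩, rfl⟩, rfl⟩
    refine ⟨l.1, l.2, ?_, U, Y, E, d, hU, hY, hB, hE, hr, hb, rfl⟩
    intro l' hl' hne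
    exact hun ⟨l', hl'⟩ fun e => hne (congrArg Fin.val e)

theorem Dt.Reg.hTail [Finite α] [Finite S] [Finite V] {D : Dt α S V} (h : D.Reg) (ho : D.Ok)
    (s : S) : HL 1 (Lg (fun E => E ∈ Tail (D.Bl (fun _ => True)) ∧ (E.map D.f).prod = s)) := by
  have hX : (Lg (fun X => X ∈ D.Bl (fun _ => True))).IsRegular := by
    have h1 := reg_cat (Crest.Agent.R320.Reg_852.HL.isRegular (k := 0) (hl_fin (fun w : List α => w.length = D.p0) D.p0
      fun w hw => le_of_eq hw)) (reg_cat (h.first D.z) (h.first 0))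
    refine reg_congr h1 fun w => ?_
    constructor
    · rintro ⟨a, ha, _, ⟨y, hy, e, he, rfl⟩, rfl⟩
      exact ⟨(a, y, e), ⟨ha, hy, he⟩, trivial, rfl⟩
    · rintro ⟨⟨a, y, e⟩, ⟨ha, hy, he⟩, _, rfl⟩
      exact ⟨a, ha, y ++ e, ⟨y, hy, e, he, rfl⟩, rfl⟩
  have hTl : (Lg (fun E => E ∈ Tail (D.Bl (fun _ => True)))).IsRegular := by
    refine reg_congr (reg_not (reg_cat hX (reg_len (α := α) 0))) fun w => ?_
    constructor
    · rintro h1 X hX' ⟨R, rfl⟩
      exact h1 ⟨X, hX', R, Nat.zero_le _, rfl⟩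
    · rintro h1 ⟨X, hX', R, _, rfl⟩
      exact h1 X hX' ⟨R, rfl⟩
  refine h.few _ (reg_and hTl (Dt.Reg.ph (D := D) s)) (D.p0 + D.z + D.n) ?_
  rintro w ⟨hw, -⟩
  classical
  by_cases hex : ∃ t, D.p0 + D.z ≤ t ∧ t ≤ w.length ∧ D.Wo (w.take t)
  · obtain ⟨h1, h2, h3⟩ := Nat.find_spec hex
    have hmin : ∀ t, D.p0 + D.z ≤ t → t < Nat.find hex → ¬ D.Wo (w.take t) := by
      intro t ht1 ht2 ht3
      exact Nat.find_min hex ht2 ⟨ht1, by omega, ht3⟩
    set t0 := Nat.find hex with ht0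
    have hz := ho.hz
    -- no wall at distance `≥ n` behind `t0`
    have hno : ∀ t, t0 + D.n ≤ t → t ≤ w.length → ¬ D.Wo (w.take t) := by
      intro t ht1 ht2 ht3
      have hex2 : ∃ t, t0 + D.n ≤ t ∧ t ≤ w.length ∧ D.Wo (w.take t) := ⟨t, ht1, ht2, ht3⟩
      obtain ⟨g1, g2, g3⟩ := Nat.find_spec hex2
      have gmin : ∀ t, t0 + D.n ≤ t → t < Nat.find hex2 → ¬ D.Wo (w.take t) := by
        intro t ht1 ht2 ht3
        exact Nat.find_min hex2 ht2 ⟨ht1, by omega, ht3⟩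
      set t1 := Nat.find hex2 with ht1'
      have e0 : w.take t1 = w.take D.p0 ++ ((w.take t0).drop D.p0 ++ (w.take t1).drop t0) := by
        rw [← List.append_assoc]
        have e1 : w.take D.p0 ++ (w.take t0).drop D.p0 = w.take t0 := by
          have : (w.take t0).take D.p0 = w.take D.p0 := by
            rw [List.take_take, min_eq_left (by omega)]
          rw [← this, List.take_append_drop]
        rw [e1]
        have : (w.take t1).take t0 = w.take t0 := by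
          rw [List.take_take, min_eq_left (by omega)]
        rw [← this, List.take_append_drop]
      have key : ∀ a t, a ≤ t → t ≤ w.length → w.take t = w.take a ++ (w.take t).drop a := by
        intro a t h1 h2
        have : (w.take t).take a = w.take a := by
          rw [List.take_take, min_eq_left (by omega)]
        rw [← this, List.take_append_drop]
      have hD : D.Dec (w.take D.p0, (w.take t0).drop D.p0, (w.take t1).drop t0) := by
        refine ⟨by simp only [List.length_take]; omega, ⟨?_, ?_, ?_⟩, ⟨?_, Nat.zero_le _, ?_⟩⟩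
        · refine (ho.loc (w.take D.p0) _ ?_).1 ?_
          · rw [List.length_drop, List.length_take]; omega
          · rw [← key D.p0 t0 (by omega) h2]; exact h3
        · rw [List.length_drop, List.length_take]; omega
        · intro t ht1 ht2 ht3
          simp only [List.length_drop, List.length_take] at ht2
          refine hmin (D.p0 + t) (by omega) (by omega) ?_
          rw [key D.p0 (D.p0 + t) (by omega) (by omega)]
          refine (ho.loc _ _ ?_).2 ?_
          · rw [List.length_drop, List.length_take]; omega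
          · have e3 : (w.take (D.p0 + t)).drop D.p0 = ((w.take t0).drop D.p0).take t := by
              rw [List.drop_take, List.drop_take, List.take_take]
              congr 1; omega
            rw [e3]; exact ht3
        · refine (ho.loc (w.take t0) _ ?_).1 ?_
          · rw [List.length_drop, List.length_take]; omega
          · rw [← key t0 t1 (by omega) g2]; exact g3
        · intro t ht1 ht2 ht3
          simp only [List.length_drop, List.length_take] at ht2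
          have hn := ho.wlen _ ht3
          have hn2 : D.n ≤ t := by rw [List.length_take] at hn; omega
          refine gmin (t0 + t) (by omega) (by omega) ?_
          rw [key t0 (t0 + t) (by omega) (by omega)]
          refine (ho.loc _ _ ?_).2 ?_
          · rw [List.length_drop, List.length_take]; omega
          · have e3 : (w.take (t0 + t)).drop t0 = ((w.take t1).drop t0).take t := by
              rw [List.drop_take, List.drop_take, List.take_take]
              congr 1; omega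
            rw [e3]; exact ht3
      refine hw (w.take t1) ⟨_, hD, trivial, e0⟩ (List.take_prefix _ _)
    refine ⟨Finset.range (D.p0 + D.z) ∪ Finset.Ico t0 (t0 + D.n), ?_, ?_⟩
    · refine (Finset.card_union_le _ _).trans ?_
      rw [Finset.card_range, Nat.card_Ico]; omega
    · intro t ht1 ht2
      rw [Finset.mem_union, Finset.mem_range, Finset.mem_Ico]
      by_contra hcon
      push Not at hcon
      by_cases h4 : t < t0
      · exact hmin t hcon.1 h4 ht2
      · exact hno t (hcon.2 (by omega)) ht1 ht2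
  · refine ⟨Finset.range (D.p0 + D.z), by rw [Finset.card_range]; omega, fun t ht1 ht2 => ?_⟩
    rw [Finset.mem_range]
    by_contra hcon
    exact hex ⟨t, by omega, ht1, ht2⟩

/-- **ALL WORDS**: data and regularity give height three. -/
theorem asm [Finite α] [Finite S] [Finite V] (D : Dt α S V) (ho : D.Ok) (h : D.Reg) (s : S) :
    HL 3 ({w | (w.map D.f).prod = s} : Language α) := by
  classical
  have hz : D.La ≤ D.z := by have := ho.hz; omega
  have hz0 : 0 < D.z := by have := ho.hz; have := ho.hn; omega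
  have act_zero : ∀ s, D.act 0 s = 0 := by
    intro s
    have h := ho.act_add 0 0 s
    rw [add_zero] at h
    exact left_eq_add.1 h
  have hGB : D.Bl (fun _ => True) = D.Bl (fun Y => ¬ D.BadY Y) ∪ D.Bl D.BadY := by
    ext X
    constructor
    · rintro ⟨q, hq, _, rfl⟩
      by_cases hB : D.BadY q.2.1
      · exact Or.inr ⟨q, hq, hB, rfl⟩
      · exact Or.inl ⟨q, hq, hB, rfl⟩
    · rintro (⟨q, hq, _, rfl⟩ | ⟨q, hq, _, rfl⟩) <;> exact ⟨q, hq, trivial, rfl⟩
  have hsubB : D.Bl D.BadY ⊆ D.Bl (fun _ => True) := by rw [hGB]; exact Set.subset_union_right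
  refine top2 (k := 1) D.f D.act act_zero ho.act_one ho.act_mul ho.faithful
    (D.Bl (fun _ => True)) (D.Bl (fun Y => ¬ D.BadY Y)) (D.Bl D.BadY) (ho.pf _) hGB D.T ?_
    D.LP1 D.RQ1 ?_ ?_ ?_ ?_ (h.hBad hz) D.LP2
    (fun b => Lg (fun w => ∃ b' : V, w ∈ D.RQ2 b' * Lg (fun X => X ∈ D.Bl D.BadY ∧ D.T X b' = b)))
    ?_ ?_ (h.hShort hz) ?_ ?_ ?_ s
  · rintro X ⟨q, hq, _, rfl⟩ v v'
    rw [D.T_eq hq, D.T_eq hq]
    have hsub : ∀ a b s, D.act a s - D.act b s = D.act (a - b) s := by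
      intro a b s
      rw [sub_eq_iff_eq_add, ← ho.act_add, sub_add_cancel]
    unfold Dt.val
    rw [hsub, add_sub_add_right_eq_sub, hsub, add_sub_add_right_eq_sub, hsub, ho.act_mul,
      ho.act_mul, ← Dt.ph_app, ← Dt.ph_app]
    rfl
  · intro v
    refine hl_fin _ (D.p0 + D.N1) ?_
    rintro w ⟨X1, P', h1, h2, rfl⟩
    have := ho.g1l _ _ h2
    rw [List.length_append]; omega
  · intro v
    exact (h.hRQ1 hz v).mono (by omega)
  · intro v v' P Q hP hQ
    exact ho.sound1 hP hQ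
  · intro X hX v
    exact ho.compl1 hX v
  · intro v
    refine hl_fin _ D.p0 ?_
    rintro w ⟨l, hl, h1, _⟩
    have := ho.hc l hl
    omega
  · intro b
    exact HL.iUnion fun b' => (h.hRQ2 hz hz0 b').mul (h.hShort hz b' b)
  · rintro v v' P Q R hP ⟨b', hQ⟩ hBs
    obtain ⟨Q1, hQ1, X2, ⟨hX2, hT2⟩, rfl⟩ := Language.mem_mul.1 hQ
    generalize hG : P ++ ((Q1 ++ X2) ++ R) = G at hBs
    cases hBs with
    | nil =>
      exfalso
      obtain ⟨l, hl, hun, U, Y, E, d, hU, hY, -, -, -, -, rfl⟩ := hQ1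
      have h1 := congrArg List.length hG
      have h2 := hY.2.1
      simp only [List.length_append, List.length_nil] at h1
      omega
    | @cons X w' hX hw' =>
      obtain ⟨q, hq, hB, rfl⟩ := hX
      obtain ⟨h1, h2, h3⟩ := ho.sound2 (R := X2 ++ R) (w' := w') hq hB hP hQ1
        (by rw [← List.append_assoc Q1, hG]; simp)
      subst h2
      have hR : Bs (D.Bl D.BadY) R := by
        generalize hG2 : X2 ++ R = G2 at hw'
        cases hw' with
        | nil =>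
          exfalso
          exact (ho.pf D.BadY).1 X2 hX2 (List.append_eq_nil_iff.1 hG2).1
        | @cons X' w'' hX' hw'' =>
          obtain ⟨_, e2⟩ := (ho.pf D.BadY).eq hX2 hX' hG2
          rw [e2]; exact hw''
      refine ⟨?_, hR⟩
      have h4 : Tr (D.Bl (fun _ => True)) D.T v (q.1 ++ (q.2.1 ++ q.2.2)) b' := by
        have h5 := Tr.single (t := D.T) (x := v)
          (show q.1 ++ (q.2.1 ++ q.2.2) ∈ D.Bl (fun _ => True) from ⟨q, hq, trivial, rfl⟩)
        rw [D.T_eq hq, h3] at h5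
        exact h5
      have h6 : Tr (D.Bl (fun _ => True)) D.T b' X2 v' := by
        have h5 := Tr.single (t := D.T) (x := b') (hsubB hX2)
        rw [hT2] at h5
        exact h5
      have h7 := h4.append h6
      rw [← List.append_assoc, h1]
      exact h7
  · rintro Y1 ⟨q, hq, hB, rfl⟩ Y2 hY2 v
    obtain ⟨P, Q, h1, h2, h3⟩ := ho.compl2 hq hB v
    refine ⟨P, Q ++ Y2, by rw [h1]; simp, h2, D.val q v, ?_⟩
    refine Language.append_mem_mul h3 ⟨hY2, ?_⟩
    rw [D.T_eq hq]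
  · intro s
    exact (h.hTail ho s).mono (by omega)

end

end Crest.Agent.R320.Asm_600
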