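import Crest.Agent.R320.Asm1_618

/-!
# Row 320: concrete instance of `top5`, part 2: completeness of scheme 2 (helper618)
-/

set_option autoImplicit false

namespace Crest.Agent.R320.Asm618

open Crest.Agent.R320.Core1_922

variable {α S V : Type} [Monoid S] [AddCommGroup V] (D : Dat α S V)

namespace Dat

def SE (Z : List α) (k k' : ℕ) : Prop := ∃ w, w ≤ Z.length ∧ D.Wo (Z.take w) ∧
  D.z + D.c k ≤ w + D.c k' + D.N1 ∧ w + D.c k' < D.z + D.c k + D.N1

def ST (Z : List α) (k k' e : ℕ) : Prop := e ≤ Z.length ∧ D.Wo (Z.take e) ∧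
  D.z + D.c k ≤ e + D.c k' ∧ (∀ w, w < e → D.z + D.c k ≤ w + D.c k' → ¬ D.Wo (Z.take w)) ∧
  D.BadT (e + D.c k' - D.c k - D.p0)

theorem gap_eq {Z : List α} {s t : ℕ} (hs : s ≤ Z.length) (ht : t ≤ Z.length)
    (h1 : D.Wo (Z.take s)) (h2 : D.Wo (Z.take t)) (h3 : s ≤ t + D.W) (h4 : t ≤ s + D.W) :
    s = t := by
  rcases lt_trichotomy s t with h | h | h
  · have := D.hgap Z s t h ht h1 h2; omega
  · exact h
  · have := D.hgap Z t s h hs h2 h1; omega

theorem count (Z : List α) (I : Finset ℕ) (hI : ∀ k ∈ I, k < D.K)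
    (hsp : ∀ k ∈ I, ∃ k', k' < D.K ∧ k' ≠ k ∧ (D.SE Z k k' ∨ ∃ e, D.ST Z k k' e)) :
    I.card ≤ 1 + 2 * D.R1 := by
  classical
  have hz := D.hz
  have hWb := D.hWbig
  choose! g hg using hsp
  set A := I.filter (fun k => D.SE Z k (g k)) with hA
  set B := I.filter (fun k => ∃ e, e ≤ D.z + D.p0 ∧ D.ST Z k (g k) e) with hB
  set B' := I.filter (fun k => ∃ e, D.z + D.p0 < e ∧ D.ST Z k (g k) e) with hB'
  have hsub : I ⊆ A ∪ (B ∪ B') := by
    intro k hk
    rcases (hg k hk).2.2 with h | ⟨e, he⟩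
    · exact Finset.mem_union_left _ (Finset.mem_filter.2 ⟨hk, h⟩)
    · refine Finset.mem_union_right _ ?_
      by_cases h : e ≤ D.z + D.p0
      · exact Finset.mem_union_left _ (Finset.mem_filter.2 ⟨hk, e, h, he⟩)
      · exact Finset.mem_union_right _ (Finset.mem_filter.2 ⟨hk, e, by omega, he⟩)
  have cA : A.card ≤ 1 := by
    refine Finset.card_le_one.2 fun a ha b hb => ?_
    obtain ⟨haI, w, hw1, hw2, hw3, hw4⟩ := Finset.mem_filter.1 ha
    obtain ⟨hbI, w', hw1', hw2', hw3', hw4'⟩ := Finset.mem_filter.1 hb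
    have ka := hI a haI
    have kb := hI b hbI
    have ga := hg a haI
    have gb := hg b hbI
    have := D.hc0 a ka; have := D.hc0 b kb; have := D.hc0 _ ga.1; have := D.hc0 _ gb.1
    have e : w = w' := D.gap_eq hw1 hw1' hw2 hw2' (by omega) (by omega)
    subst e
    exact D.wide a (g a) b (g b) ka ga.1 kb gb.1 ga.2.1.symm gb.2.1.symm (by omega) (by omega)
  have cB : B.card ≤ D.R1 := by
    rcases B.eq_empty_or_nonempty with h0 | ⟨k0, hk0⟩
    · rw [h0]; simp
    · obtain ⟨hk0I, e0, he0, hst0⟩ := Finset.mem_filter.1 hk0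
      have k0K := hI k0 hk0I
      have g0 := hg k0 hk0I
      have := D.hc0 k0 k0K; have := D.hc0 _ g0.1
      have hst0' := hst0.2.2.1
      have hcard : (B.image fun k => (k, g k)).card = B.card :=
        Finset.card_image_of_injective _ fun a b h => (Prod.mk.inj h).1
      rw [← hcard]
      refine D.spoil (e0 - D.p0) (by omega) _ ?_
      intro q hq
      obtain ⟨k, hk, rfl⟩ := Finset.mem_image.1 hq
      obtain ⟨hkI, e, he, hst⟩ := Finset.mem_filter.1 hk
      have kK := hI k hkI
      have gk := hg k hkI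
      have := D.hc0 k kK; have := D.hc0 _ gk.1
      have hst' := hst.2.2.1
      have ee : e = e0 := D.gap_eq hst.1 hst0.1 hst.2.1 hst0.2.1 (by omega) (by omega)
      subst ee
      refine ⟨kK, gk.1, gk.2.1.symm, ?_⟩
      have hb := hst.2.2.2.2
      have e1 : e + D.c (g k) - D.c k - D.p0 = e - D.p0 + D.c (g k) - D.c k := by omega
      rw [e1] at hb
      exact hb
  have cB' : B'.card ≤ D.R1 := by
    rcases B'.eq_empty_or_nonempty with h0 | ⟨k0, hk0⟩
    · rw [h0]; simp
    · obtain ⟨hk0I, e0, he0, hst0⟩ := Finset.mem_filter.1 hk0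
      have k0K := hI k0 hk0I
      have g0 := hg k0 hk0I
      have := D.hc0 k0 k0K; have := D.hc0 _ g0.1
      have hst0' := hst0.2.2.1
      have hcard : (B'.image fun k => (k, g k)).card = B'.card :=
        Finset.card_image_of_injective _ fun a b h => (Prod.mk.inj h).1
      rw [← hcard]
      refine D.spoil (e0 - D.p0) (by omega) _ ?_
      intro q hq
      obtain ⟨k, hk, rfl⟩ := Finset.mem_image.1 hq
      obtain ⟨hkI, e, he, hst⟩ := Finset.mem_filter.1 hk
      have kK := hI k hkI
      have gk := hg k hkI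
      have := D.hc0 k kK; have := D.hc0 _ gk.1
      have hst' := hst.2.2.1
      have ee : e = e0 := by
        rcases lt_trichotomy e e0 with h | h | h
        · exact absurd hst.2.1 (hst0.2.2.2.1 e h (by omega))
        · exact h
        · exact absurd hst0.2.1 (hst.2.2.2.1 e0 h (by omega))
      subst ee
      refine ⟨kK, gk.1, gk.2.1.symm, ?_⟩
      have hb := hst.2.2.2.2
      have e1 : e + D.c (g k) - D.c k - D.p0 = e - D.p0 + D.c (g k) - D.c k := by omega
      rw [e1] at hb
      exact hb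
  calc I.card ≤ (A ∪ (B ∪ B')).card := Finset.card_le_card hsub
    _ ≤ A.card + (B ∪ B').card := Finset.card_union_le _ _
    _ ≤ A.card + (B.card + B'.card) := Nat.add_le_add_left (Finset.card_union_le _ _) _
    _ ≤ 1 + 2 * D.R1 := by omega

theorem same_C (P P' U : List α) (h : P.length = P'.length) (hp : P.length ≤ D.p0)
    (hX : P ++ U ∈ D.C) : P' ++ U ∈ D.C := by
  have hz := D.hz
  obtain ⟨h1, h2, h3⟩ := hX
  rw [List.length_append] at h1
  refine ⟨by rw [List.length_append]; omega, ?_, ?_⟩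
  · have := (D.wall_iff P P' U U.length (by omega) le_rfl).1 (by
      rw [List.take_of_length_le (by rw [List.length_append])]; exact h2)
    rwa [List.take_of_length_le (by rw [List.length_append])] at this
  · intro t ht1 ht2 hw
    rw [List.length_append] at ht2
    obtain ⟨t', rfl⟩ := Nat.exists_eq_add_of_le (show P'.length ≤ t by omega)
    have := (D.wall_iff P P' U t' (by omega) (by omega)).2 hw
    exact h3 (P.length + t') (by omega) (by rw [List.length_append]; omega) this

theorem same_Bad (P P' U : List α) (h : P.length = P'.length) (hp : P.length ≤ D.p0)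
    (hX : P ++ U ∈ D.Bad) : P' ++ U ∈ D.Bad := by
  have hz := D.hz
  refine ⟨D.same_C P P' U h hp hX.1, ?_⟩
  rcases hX.2 with ⟨t, h1, h2, h3, h4⟩ | h1
  · left
    rw [List.length_append] at h3
    obtain ⟨t', rfl⟩ := Nat.exists_eq_add_of_le (show P.length ≤ t by omega)
    refine ⟨P'.length + t', by omega, by omega, by rw [List.length_append]; omega, ?_⟩
    exact (D.wall_iff P P' U t' (by omega) (by omega)).1 h4
  · right
    rw [List.length_append] at h1 ⊢
    rwa [← h]

theorem exists_block (U : List α) (h1 : D.z ≤ U.length) (h2 : D.Wo U) :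
    ∃ X ∈ D.C, X <+: U := by
  classical
  have hex : ∃ t, D.z ≤ t ∧ t ≤ U.length ∧ D.Wo (U.take t) :=
    ⟨U.length, h1, le_rfl, by rw [List.take_length]; exact h2⟩
  obtain ⟨h3, h4, h5⟩ := Nat.find_spec hex
  refine ⟨U.take (Nat.find hex), ⟨?_, h5, ?_⟩, List.take_prefix _ _⟩
  · rw [List.length_take]; omega
  · intro t ht1 ht2 hw
    rw [List.length_take] at ht2
    rw [List.take_take, min_eq_left (by omega)] at hw
    exact Nat.find_min hex (by omega) ⟨ht1, by omega, hw⟩

theorem hcc2 : ∀ X ∈ D.Bad, ∀ Y ∈ D.Bad, ∀ v, ∃ P Q, P ++ Q = X ++ Y ∧ P ∈ D.L2 v ∧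
    ∀ x, ∀ P' ∈ D.L2 x,
      (∃ X' ∈ D.Bad, ∃ Y' ∈ D.C, X' ++ Y' = P' ++ Q ∧ D.T (D.T x X') Y' = D.T (D.T v X) Y) ∨
      (∃ X' ∈ D.C, X' ∉ D.Bad ∧ X' <+: P' ++ Q) := by
  classical
  intro X hX Y hY v
  have hz := D.hz
  have hXz := hX.1.1
  have hYz := hY.1.1
  obtain ⟨I, hIc, hI⟩ := D.hc2 (X.take D.p0) v (fun k hk => by
    rw [List.length_take]; have := D.hc0 k hk; omega)
  obtain ⟨k, hkI, hk⟩ : ∃ k ∈ I, ¬ ∃ k', k' < D.K ∧ k' ≠ k ∧
      (D.SE (X ++ Y) k k' ∨ ∃ e, D.ST (X ++ Y) k k' e) := by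
    by_contra hcon
    push Not at hcon
    have := D.count (X ++ Y) I (fun k hk => (hI k hk).1) (fun k hk => by
      obtain ⟨k', h1, h2, h3⟩ := hcon k hk
      exact ⟨k', h1, h2, h3⟩)
    omega
  obtain ⟨hkK, hlam, hrho⟩ := hI k hkI
  obtain ⟨b, hb⟩ := Option.isSome_iff_exists.1 hrho
  have hck := D.hc0 k hkK
  have hPl : (X.take (D.c k)).length = D.c k := by rw [List.length_take]; omega
  have htt : (X.take D.p0).take (D.c k) = X.take (D.c k) := by
    rw [List.take_take, min_eq_left hck]
  rw [htt] at hlam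
  refine ⟨X.take (D.c k), X.drop (D.c k) ++ Y, by rw [← List.append_assoc, List.take_append_drop],
    ⟨k, hkK, hPl, hlam⟩, ?_⟩
  rintro x P' ⟨k', hk'K, hP'l, hP'lam⟩
  have hck' := D.hc0 k' hk'K
  by_cases hkk : k' = k
  · left
    subst hkk
    refine ⟨P' ++ X.drop (D.c k'), ?_, Y, hY.1, by rw [List.append_assoc], ?_⟩
    · refine D.same_Bad (X.take (D.c k')) P' _ (by omega) (by omega) ?_
      rw [List.take_append_drop]; exact hX
    · congr 1
      rw [D.T_eq, D.T_eq]
      have e1 : (P' ++ X.drop (D.c k')).drop D.p0 = X.drop D.p0 := by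
        rw [List.drop_append, List.drop_of_length_le (by omega), List.nil_append, List.drop_drop]
        congr 1; omega
      have e2 : (P' ++ X.drop (D.c k')).take D.p0 = P' ++ (X.take D.p0).drop (D.c k') := by
        rw [List.take_append, List.take_of_length_le (by omega), List.drop_take, hP'l]
      rw [e1, e2]
      have h1 := D.hs2 k' hkK _ _ _ _ hP'l hP'lam hb
      have h2 := D.hs2 k' hkK _ _ _ _ hPl hlam hb
      rw [← h1]
      have e3 : X.take (D.c k') ++ (X.take D.p0).drop (D.c k') = X.take D.p0 := by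
        rw [← htt, List.take_append_drop]
      rw [e3] at h2
      rw [← h2]
  · right
    set Q := X.drop (D.c k) ++ Y with hQ
    have hQl : Q.length = X.length - D.c k + Y.length := by
      rw [hQ, List.length_append, List.length_drop]
    have hZ : X.take (D.c k) ++ Q = X ++ Y := by
      rw [hQ, ← List.append_assoc, List.take_append_drop]
    have hiff : ∀ t, D.n ≤ t → t ≤ Q.length →
        (D.Wo ((X ++ Y).take (D.c k + t)) ↔ D.Wo ((P' ++ Q).take (D.c k' + t))) := by
      intro t h1 h2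
      have := D.wall_iff (X.take (D.c k)) P' Q t h1 h2
      rwa [hZ, hPl, hP'l] at this
    have hWo : D.Wo (P' ++ Q) := by
      have h1 : D.Wo (P' ++ X.drop (D.c k) ++ Y) := (D.hW.app _ _ (by omega)).2 hY.1.2.1
      rwa [List.append_assoc] at h1
    obtain ⟨X', hX'C, hX'p⟩ := D.exists_block (P' ++ Q) (by rw [List.length_append]; omega) hWo
    refine ⟨X', hX'C, fun hX'B => hk ⟨k', hk'K, hkk, ?_⟩, hX'p⟩
    have hX'e : X' = (P' ++ Q).take X'.length := List.prefix_iff_eq_take.1 hX'p
    have hX'l : X'.length ≤ D.c k' + Q.length := by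
      have := hX'p.length_le
      rw [List.length_append, hP'l] at this; exact this
    have hX'z := hX'C.1
    rcases hX'B.2 with ⟨t, h1, h2, h3, h4⟩ | h1
    · left
      rw [hX'e, List.take_take, min_eq_left h3] at h4
      obtain ⟨t', rfl⟩ := Nat.exists_eq_add_of_le (show D.c k' ≤ t by omega)
      refine ⟨D.c k + t', by rw [List.length_append]; omega,
        (hiff t' (by omega) (by omega)).2 h4, by omega, by omega⟩
    · right
      obtain ⟨t', ht'⟩ := Nat.exists_eq_add_of_le (show D.c k' ≤ X'.length by omega)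
      refine ⟨D.c k + t', by rw [List.length_append]; omega, ?_, by omega, ?_, ?_⟩
      · refine (hiff t' (by omega) (by omega)).2 ?_
        rw [← ht', ← hX'e]; exact hX'C.2.1
      · intro w hw1 hw2 hw3
        obtain ⟨w', rfl⟩ := Nat.exists_eq_add_of_le (show D.c k ≤ w by omega)
        have h5 := (hiff w' (by omega) (by omega)).1 hw3
        refine hX'C.2.2 (D.c k' + w') (by omega) (by omega) ?_
        rw [hX'e, List.take_take, min_eq_left (by omega)]
        exact h5
      · have : D.c k + t' + D.c k' - D.c k - D.p0 = X'.length - D.p0 := by omega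
        rw [this]; exact h1

end Dat

end Crest.Agent.R320.Asm618
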