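import Crest.Agent.R320.Asm1_745

/-!
# Row 320: assembly, completeness of level 0 and soundness of level 1 (helper745)
-/

set_option autoImplicit false

namespace Crest.Agent.R320.Asm_745

open Crest.RegLang Crest.Agent.R320.Hgt1_903 Crest.Agent.R320.Three_427
open Crest.Agent.R320.Grid_745

variable {α S V : Type} [Monoid S] [AddCommGroup V] {φ : α → S} {act : V → S → V} {R0 K : ℕ}

namespace Par

variable (D : Par α S V φ act R0 K)

theorem CX_zero {X : List α} : D.CX 0 X ↔ D.XX X := by
  unfold CX XX
  simp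

theorem CE_iff {u Q : List α} (hu : u.length ≤ D.p0) : D.CE 0 (u ++ Q) ↔ D.CE u.length Q := by
  have hz := D.hz
  constructor
  · rintro ⟨t, ht, hw, h1, h2⟩
    rw [List.length_append] at ht
    obtain ⟨t', rfl⟩ : ∃ t', t = u.length + t' := ⟨t - u.length, by omega⟩
    rw [D.wo_take_append (by omega)] at hw
    rcases hw with hw | ⟨hw, _⟩
    · exact ⟨t', by omega, hw, by omega, by omega⟩
    · omega
  · rintro ⟨t, ht, hw, h1, h2⟩
    have hn := D.wo_len hw
    rw [List.length_take] at hn
    refine ⟨u.length + t, by simp; omega, ?_, by omega, by omega⟩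
    rw [D.wo_take_append (by omega)]
    exact Or.inl hw

theorem CB_iff {u Q : List α} (hu : u.length ≤ D.p0) : D.CB 0 (u ++ Q) ↔ D.CB u.length Q := by
  have hz := D.hz
  unfold CB
  rw [D.CX_zero, D.CX_iff (by omega), D.CE_iff hu, List.length_append, Nat.zero_add]

/-- completeness of level 0 -/
theorem complete0 {X : List α} (hX : D.XX X) (hB : ¬ D.CB 0 X) (v : V) :
    ∃ P Q, X = P ++ Q ∧ D.L0.C (P, v) ∧ D.L0.R Q := by
  have hz := D.hz
  have hXl := hX.2.1
  have hE : ¬ D.CE 0 X := fun h => hB ⟨D.CX_zero.2 hX, Or.inl h⟩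
  have hBd : ¬ D.Bad (X.drop D.p0).length := by
    rw [List.length_drop]
    intro h
    exact hB ⟨D.CX_zero.2 hX, Or.inr (by rwa [Nat.zero_add])⟩
  obtain ⟨P, Q, hPQ, hLL, hrho⟩ := D.complete (X.drop D.p0) (by rw [List.length_drop]; omega) hBd
    (act v (ph φ (X.take D.p0)) + D.nu2 (X.take D.p0) 1)
  have hl := D.len _ _ hLL
  have hXe : X = (X.take D.p0 ++ P) ++ Q := by
    rw [List.append_assoc, ← hPQ, List.take_append_drop]
  have htl : (X.take D.p0).length = D.p0 := by rw [List.length_take]; omega
  have hlen : X.length = D.p0 + P.length + Q.length := by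
    conv_lhs => rw [hXe]
    simp only [List.length_append, htl]
  refine ⟨X.take D.p0 ++ P, Q, hXe, ⟨?_, ?_⟩, ⟨?_, ?_, ?_⟩, hrho⟩
  · simp only [List.length_append, htl]; omega
  · show D.LL ((X.take D.p0 ++ P).drop D.p0) (act v (ph φ ((X.take D.p0 ++ P).take D.p0)) +
      D.nu2 ((X.take D.p0 ++ P).take D.p0) 1)
    rw [List.drop_append_of_le_length htl.ge, List.take_append_of_le_length htl.ge,
      List.drop_of_length_le htl.le, List.take_of_length_le htl.le]
    exact hLL
  · have := hX.1
    rw [hXe, D.wo_append (by omega)] at this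
    exact this
  · by_contra hc
    refine hE ⟨X.length, le_rfl, by simpa using hX.1, by omega, ?_⟩
    omega
  · intro t ht hw
    by_contra hc
    have hn := D.wo_len hw
    rw [List.length_take] at hn
    have hPl : (X.take D.p0 ++ P).length = D.p0 + P.length := by
      rw [List.length_append, htl]
    have hwX : Wo D.Ws (X.take (D.p0 + P.length + t)) := by
      rw [hXe, ← hPl, D.wo_take_append (by omega)]
      exact Or.inl hw
    have h1 := hX.2.2 (D.p0 + P.length + t) (by omega) hwX
    exact hE ⟨D.p0 + P.length + t, by omega, hwX, by omega, by omega⟩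

/-- functionality -/
theorem Val_unique {W : List α} {x y : V} (hx : D.Val W x) (hy : D.Val W y) : x = y := by
  obtain ⟨j, hj, Q, X, b, hW, hX, hCB, hu, hr, rfl⟩ := hx
  obtain ⟨j', hj', Q', X', b', hW', hX', hCB', hu', hr', rfl⟩ := hy
  have hjj : j' = j := by
    by_contra hc
    exact hu j' hj' hc Q' (by rw [hW']; exact List.prefix_append _ _) hCB'
  subst hjj
  have hQ : Q = Q' := by
    have h1 : Q <+: W := by rw [hW]; exact List.prefix_append _ _
    have h2 : Q' <+: W := by rw [hW']; exact List.prefix_append _ _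
    rcases List.prefix_or_prefix_of_prefix h1 h2 with h | h
    · exact D.CX_prefix hCB.1 hCB'.1 h
    · exact (D.CX_prefix hCB'.1 hCB.1 h).symm
  subst hQ
  have hXX : X = X' := by
    rw [hW] at hW'
    exact List.append_cancel_left hW'
  subst hXX
  rw [hr] at hr'
  cases hr'
  rfl

theorem c1_eq {W : List α} {x : V} (hx : D.Val W x) : D.L1.c W = ([], x) := by
  classical
  have h : ∃ x, D.Val W x := ⟨x, hx⟩
  show ([], if h : ∃ x, D.Val W x then h.choose else 0) = (([] : List α), x)
  rw [dif_pos h, D.Val_unique h.choose_spec hx]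

/-- soundness of level 1 -/
theorem sound1 (p : List α × V) (W : List α) (hC : D.L1.C p) (hR : D.L1.R W)
    (hlive : Live D.step D.L 1 p W) : run D.step W p = D.L1.c W := by
  classical
  obtain ⟨u, v⟩ := p
  obtain ⟨k, hk, hu, hlam⟩ := hC
  simp only at hu hlam
  obtain ⟨x, hx⟩ := hR
  rw [D.c1_eq hx]
  have hz := D.hz
  have hcp := D.hp0 k hk
  obtain ⟨j, hj, Q, X, b, hW, hX, hCB, huq, hr, hxe⟩ := hx
  have hXn := D.wo_len hX.1
  -- the true block
  have hex : ∃ t, t ≤ W.length ∧ Wo D.Ws (W.take t) ∧ D.z ≤ D.c k + t := by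
    refine ⟨W.length, le_rfl, ?_, ?_⟩
    · rw [List.take_length, hW, D.wo_append hXn]; exact hX.1
    · have := hX.2.1
      rw [hW, List.length_append]; omega
  set t := Nat.find hex with ht
  obtain ⟨h1, h2, h3⟩ := Nat.find_spec hex
  rw [← ht] at h1 h2 h3
  have hlt : (W.take t).length = t := by rw [List.length_take]; omega
  have hCX : D.CX (D.c k) (W.take t) := by
    refine ⟨h2, by rw [hlt]; exact h3, fun t' ht' hw => ?_⟩
    rw [hlt] at ht'
    by_contra hc
    refine Nat.find_min hex (ht ▸ ht') ⟨by omega, ?_, by omega⟩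
    rwa [List.take_take, min_eq_left (by omega)] at hw
  have hjk : j = k := by
    by_contra hc
    have hncb := huq k hk (Ne.symm hc) (W.take t) (List.take_prefix _ _)
    have hXX : D.XX (u ++ W.take t) := by
      rw [D.CX_iff (by omega), hu]; exact hCX
    have hnb : ¬ D.CB 0 (u ++ W.take t) := by
      rw [D.CB_iff (by omega), hu]; exact hncb
    obtain ⟨P, R, hPR, hPC, hRR⟩ := D.complete0 hXX hnb v
    have hPl : D.p0 ≤ P.length := hPC.1
    obtain ⟨R', rfl⟩ : ∃ R', P = u ++ R' := by
      have h4 : u <+: P ++ R := by rw [← hPR]; exact List.prefix_append _ _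
      obtain ⟨R', h5⟩ := List.prefix_of_prefix_length_le h4 (List.prefix_append P R) (by omega)
      exact ⟨R', h5.symm⟩
    rw [List.append_assoc] at hPR
    have h6 := List.append_cancel_left hPR
    have hRne : R ≠ [] := D.ne R hRR.2
    have hrun : run D.step R' (u, v) = (u ++ R', v) := by
      refine D.run_noblock R' u v ?_
      intro y hy _ hXy
      obtain ⟨r, rfl⟩ := hy
      have h7 := D.XX_prefix hXy hXX (by rw [h6]; exact ⟨r ++ R, by simp⟩)
      rw [h6] at h7
      have h8 := List.append_cancel_left h7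
      have := congrArg List.length h8
      simp only [List.length_append] at this
      have := List.length_pos_iff.2 hRne
      omega
    refine hlive 0 (by omega) R' (R ++ W.drop t) ?_ ?_
    · rw [← List.append_assoc, ← h6, List.take_append_drop]
    · rw [hrun]
      exact ⟨hPC, R, W.drop t, rfl, hRR⟩
  subst hjk
  have hXX : D.XX (u ++ Q) := by
    rw [D.CX_iff (by omega), hu]; exact hCB.1
  have hQne : Q ≠ [] := by
    rintro rfl
    have := D.wo_len hCB.1.1
    have := D.hn
    simp at *
    omega
  rw [hW, run_append, D.run_block Q u v hQne hXX, D.run_block X [] _ (D.XX_ne hX) (by simpa using hX)]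
  rw [hxe, List.nil_append]
  have htk : (u ++ Q).take D.p0 = u ++ Q.take (D.p0 - D.c j) := by
    rw [List.take_append, List.take_of_length_le (by omega), hu]
  have hdk : (u ++ Q).drop D.p0 = Q.drop (D.p0 - D.c j) := by
    rw [List.drop_append, List.drop_of_length_le (by omega), hu, List.nil_append]
  have hb := D.s2 j hj u _ v b hu hlam hr
  have : D.T (u ++ Q) v = act b (ph φ (Q.drop (D.p0 - D.c j))) +
      D.nu (Q.drop (D.p0 - D.c j)) := by
    unfold T
    rw [htk, hdk, hb]
  rw [this]

end Par

end Crest.Agent.R320.Asm_745
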