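import Crest.Agent.R320.Asm_750

/-!
# Row 320: two schemes with the SAME zone map on one chain (helper750)

No second module, no regularity, zones may be unbounded.
-/

set_option autoImplicit false

namespace Crest.Agent.R320.Asm_750

open Crest.RegLang Crest.Agent.R320.Hk_851

universe u v

variable {α : Type u} {C : Chain α} {V : Type v}

theorem Thr.congr {X Y : Sch C V} (hz : ∀ {Q b} (v : V), C.nxt Q = some b → X.zm Q v = Y.zm Q v)
    {w Q : List α} {v v' : V} (h : Thr X w v Q v') : Thr Y w v Q v' := by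
  induction h with
  | refl => exact Thr.refl _ _
  | step h _ ih => exact Thr.step h (by rw [← hz _ h]; exact ih)

/-- last pieces : from a cut of scheme 2 to the target -/
def Suf2 (X : Sch C V) (Tgt : List α → V → Prop) : Language α :=
  {Q | ∃ b R, X.RL Q b R ∧ C.nxt (Q.drop b) = none ∧ Tgt (Q.drop b) R}

theorem prom2_iff {X : Sch C V} {Bad : List α → Prop} (hX : PSound X Bad)
    {Tgt : List α → V → Prop} (hT : ∀ {Q v}, Tgt Q v → C.nxt Q = none)
    (w : List α) (hB : AllBad C Bad w) (v : V) :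
    RunT X Tgt w v ↔ (C.nxt w = none ∧ Tgt w v) ∨
      w ∈ (Pre X v * (KStar.kstar (KK X) * Suf2 X Tgt) : Language α) := by
  constructor
  · rintro ⟨Q, v', h1, h2⟩
    cases hb : C.nxt w with
    | none =>
      left
      obtain ⟨rfl, rfl⟩ := (Thr.refl w v : Thr X w v w v).term_unique hb h1 (hT h2)
      exact ⟨rfl, h2⟩
    | some b0 =>
      right
      obtain ⟨P, Q1, ks, b, R, e1, e2, e3, e4, e5, e6⟩ := complete hX w.length w le_rfl hB v b0 hb
      obtain ⟨rfl, rfl⟩ := e6.term_unique e5 h1 (hT h2)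
      exact mem3.2 ⟨P, _, Q1, e1, e3, Language.mem_kstar.2 ⟨ks, rfl, e2⟩, b, _, e4, e5, h2⟩
  · rintro (⟨h1, h2⟩ | h)
    · exact ⟨w, v, Thr.refl _ _, h2⟩
    · obtain ⟨P, k, Q, rfl, hP, hk, b, R, h1, h2, h3⟩ := mem3.1 h
      obtain ⟨ks, rfl, hks⟩ := Language.mem_kstar.1 hk
      exact ⟨Q.drop b, R, path hX ks hks P Q v R b hP h1 hB, h3⟩

/-- the data of the two-scheme assembly -/
structure Two (C : Chain α) (V : Type v) (Bad : List α → Prop) where
  X1 : Sch C V
  X2 : Sch C V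
  hz : ∀ {Q b} (v : V), C.nxt Q = some b → X2.zm Q v = X1.zm Q v
  t : TSound X1 Bad
  p : PSound X2 Bad

variable {Bad : List α → Prop}

/-- everything which has to be known about single zones, at level `j` -/
structure TwoHL (T : Two C V Bad) (Fin : List α → V → Prop) (j : ℕ) : Prop where
  kk : HL j (KK T.X2)
  pre : ∀ v, HL (j + 1) (Pre T.X2 v)
  nbs : HL (j + 1) (NBs (X := T.X2) (Bad := Bad))
  nb0 : HL (j + 1) ({w | ∃ b, C.nxt w = some b ∧ ¬ Bad w} : Language α)
  ul : ∀ y R, HL (j + 1) (UL T.X1 y R)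
  l0 : ∀ v, HL (j + 1) ({w | C.nxt w = none ∧ T.X1.LL w v} : Language α)
  f0 : ∀ v, HL (j + 1) ({w | C.nxt w = none ∧ Fin w v} : Language α)
  l2 : HL (j + 1) (Suf2 T.X2 T.X1.LL)
  f2 : HL (j + 1) (Suf2 T.X2 Fin)

variable {T : Two C V Bad} {Fin : List α → V → Prop} {j : ℕ}

theorem TwoHL.allBad [Finite V] [Nonempty V] (h : TwoHL T Fin j) :
    HL (j + 1) ({w | AllBad C Bad w} : Language α) := by
  have h1 : HL (j + 1) ({w | ∀ v, w ∈ (Pre T.X2 v * (KStar.kstar (KK T.X2) *
      NBs (X := T.X2) (Bad := Bad)) : Language α)} : Language α) :=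
    HL.iInter fun v => (h.pre v).mul (h.kk.star.mul h.nbs)
  exact (h.nb0.setOf_or h1).setOf_not.congr fun w => (allBad_iff T.p w)

theorem TwoHL.prom [Finite V] [Nonempty V] (h : TwoHL T Fin j) {Tgt : List α → V → Prop}
    (hT : ∀ {Q v}, Tgt Q v → C.nxt Q = none)
    (h0 : ∀ v, HL (j + 1) ({w | C.nxt w = none ∧ Tgt w v} : Language α))
    (h2 : HL (j + 1) (Suf2 T.X2 Tgt)) (v : V) :
    HL (j + 1) ({w | AllBad C Bad w ∧ RunT T.X1 Tgt w v} : Language α) := by
  have key : HL (j + 1) ({w | (C.nxt w = none ∧ Tgt w v) ∨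
      w ∈ (Pre T.X2 v * (KStar.kstar (KK T.X2) * Suf2 T.X2 Tgt) : Language α)} : Language α) :=
    (h0 v).setOf_or ((h.pre v).mul (h.kk.star.mul h2))
  refine (h.allBad.setOf_and key).congr fun w => ?_
  have e : RunT T.X1 Tgt w v ↔ RunT T.X2 Tgt w v := by
    constructor
    · rintro ⟨Q, v', h1, h3⟩
      exact ⟨Q, v', h1.congr (fun v h => (T.hz v h).symm), h3⟩
    · rintro ⟨Q, v', h1, h3⟩
      exact ⟨Q, v', h1.congr (fun v h => T.hz v h), h3⟩
  constructor
  · rintro ⟨hB, hr⟩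
    exact ⟨hB, (prom2_iff T.p hT w hB v).1 (e.1 hr)⟩
  · rintro ⟨hB, hr⟩
    exact ⟨hB, e.2 ((prom2_iff T.p hT w hB v).2 hr)⟩

theorem GG2_HL [Finite α] [Finite V] [Nonempty V] (h : TwoHL T Fin j) {Tgt : List α → V → Prop}
    (hT : ∀ {Q v}, Tgt Q v → C.nxt Q = none)
    (h0 : ∀ v, HL (j + 1) ({w | C.nxt w = none ∧ Tgt w v} : Language α))
    (h2 : HL (j + 1) (Suf2 T.X2 Tgt)) :
    HL (j + 1) (GG T.X1 Bad Tgt) := by
  have key : HL (j + 1) ({k | ∃ R : V, ∃ y ∈ {y : List α | y.length = C.la},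
      k ∈ (UL T.X1 y R * ((({y} : Language α) * (⊤ : Language α)) ⊓ YL T.X1 Bad Tgt R) :
            Language α)} : Language α) := by
    refine HL.iUnion fun R => HL.biUnion (finite_len C.la) fun y _ => ?_
    exact (h.ul y R).mul (((HL.word y).mul HL.top).inf (h.prom hT h0 h2 R))
  refine key.congr fun k => ?_
  constructor
  · rintro ⟨b, R, h1, h2, h3⟩
    have hl := T.X1.RL_len h1
    refine ⟨R, (k.drop b).take C.la, ?_, ?_⟩
    · change ((k.drop b).take C.la).length = C.la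
      rw [List.length_take, List.length_drop]; omega
    · refine Language.mem_mul.2 ⟨k.take b, ?_, k.drop b, ⟨?_, h2, h3⟩, List.take_append_drop b k⟩
      · change T.X1.RL (k.take b ++ (k.drop b).take C.la) (k.take b).length R
        have e : k.take b ++ (k.drop b).take C.la = k.take (b + C.la) := by
          rw [List.take_add]
        rw [e, List.length_take, Nat.min_eq_left (by omega)]
        exact T.X1.RL_loc _ h1 le_rfl
      · exact Language.mem_mul.2 ⟨_, rfl, (k.drop b).drop C.la, trivial,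
          List.take_append_drop _ _⟩
  · rintro ⟨R, y, hy, h⟩
    obtain ⟨u, hu, Q, ⟨hQ, h2, h3⟩, rfl⟩ := Language.mem_mul.1 h
    obtain ⟨y', hy', r, _, rfl⟩ := Language.mem_mul.1 hQ
    have hyy : y' = y := hy'
    subst hyy
    have hu' : T.X1.RL (u ++ y') u.length R := hu
    have h4 := T.X1.RL_ext r hu'
    have h5 : (u ++ (y' ++ r)).drop u.length = y' ++ r := by simp
    refine ⟨u.length, R, by rwa [List.append_assoc] at h4, ?_, ?_⟩
    · rw [h5]; exact h2
    · rw [h5]; exact h3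

theorem TwoHL.run [Finite α] [Finite V] [Nonempty V] (h : TwoHL T Fin j)
    (hF : ∀ {Q v}, Fin Q v → C.nxt Q = none) (v : V) :
    HL (j + 2) ({w | RunT T.X1 Fin w v} : Language α) := by
  have hL : ∀ {Q v}, T.X1.LL Q v → C.nxt Q = none := fun h => T.X1.LL_none h
  have h1 := GG2_HL h hL h.l0 h.l2
  have h2 := GG2_HL h hF h.f0 h.f2
  have h3 : HL (j + 1) (St T.X1 Bad v) := h.prom hL h.l0 h.l2 v
  have h4 := ((h.prom hF h.f0 h.f2 v).mono (by omega : j + 1 ≤ j + 2)).setOf_or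
    ((h3.mono (by omega : j + 1 ≤ j + 2)).mul (h1.star.mul (h2.mono (by omega : j + 1 ≤ j + 2))))
  exact h4.congr fun w => top_iff T.t hF w v

/-- **TOP, one-module form**: level `j` data about single zones gives level `j + 2`. -/
theorem top2 [Finite α] [Finite V] [AddCommGroup V] {S : Type u} [Monoid S] [Finite S]
    {φ : α → S} {act : V → S → V} {D : List α → V} (hR : Rd T.X1 φ act D)
    (h : ∀ (v' : V) (t : S), TwoHL T (fun Q x => x = v' ∧ C.nxt Q = none ∧ ph φ Q = t) j) (s : S) :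
    HL (j + 2) ({w | ph φ w = s} : Language α) := by
  have key : HL (j + 2) ({w | ∃ ft : {ft : (V → V) × S // Compat act ft.1 ft.2 s}, ∀ v,
      w ∈ ({w | RunT T.X1 (fun Q x => x = ft.1.1 v ∧ C.nxt Q = none ∧ ph φ Q = ft.1.2) w v} :
        Language α)} : Language α) := by
    refine HL.iUnion fun ft => HL.iInter fun v => ?_
    exact (h _ _).run (fun h => h.2.1) v
  refine key.congr fun w => ?_
  constructor
  · intro hs
    obtain ⟨ft, hc, h⟩ := (read_iff hR w s).1 hs
    refine ⟨⟨ft, hc⟩, fun v => ?_⟩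
    obtain ⟨Q, h1, h2, h3⟩ := h v
    exact ⟨Q, _, h1, rfl, h2, h3⟩
  · rintro ⟨⟨ft, hc⟩, h⟩
    refine (read_iff hR w s).2 ⟨ft, hc, fun v => ?_⟩
    obtain ⟨Q, x, h1, rfl, h2, h3⟩ := h v
    exact ⟨Q, h1, h2, h3⟩

end Crest.Agent.R320.Asm_750
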