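import Mathlib

/-!
Row 320: bridge from the U-gadget of the form 772 #13437 (corrected: 28, 212) to the forms of
709 #13559 and 839 #13515.
-/

set_option autoImplicit false

namespace Crest.Agent.R320.Bridge_975

open Finset

universe u

/-- a predicate which (for long words) depends only on the first `La` letters, the length modulo
`Pm` and the product of the rest, is regular -/
theorem reg_of_local {α S : Type*} [Finite α] [Monoid S] [Finite S] (f : α → S) (La Pm : ℕ)
    (hP : 0 < Pm) (p : List α → Prop)
    (hloc : ∀ q q2 : List α, La ≤ q.length → La ≤ q2.length → q.take La = q2.take La →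
      q.length ≡ q2.length [MOD Pm] → ((q.drop La).map f).prod = ((q2.drop La).map f).prod →
      (p q ↔ p q2)) :
    Language.IsRegular ({q | p q} : Language α) := by
  classical
  let L : Language α := {q | p q}
  suffices hfin : (Set.range L.leftQuotient).Finite from
    Language.IsRegular.of_finite_range_leftQuotient hfin
  let key : List α → List α × (S × ℕ) := fun q =>
    (q.take La, (((q.drop La).map f).prod, q.length % Pm))
  have hkey : (Set.range key).Finite := by
    refine Set.Finite.subset ((List.finite_length_le α La).prod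
      ((Set.toFinite (Set.univ : Set S)).prod (Set.finite_Iio Pm))) ?_
    rintro _ ⟨q, rfl⟩
    refine ⟨?_, ⟨Set.mem_univ _, ?_⟩⟩
    · change (q.take La).length ≤ La
      rw [List.length_take]; exact min_le_left _ _
    · exact Nat.mod_lt _ hP
  have hfac : Function.FactorsThrough L.leftQuotient key := by
    intro q q2 h
    have h1 : q.take La = q2.take La := congrArg Prod.fst h
    have h2 : ((q.drop La).map f).prod = ((q2.drop La).map f).prod :=
      congrArg (fun z => z.2.1) h
    have h3 : q.length % Pm = q2.length % Pm := congrArg (fun z => z.2.2) h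
    have hlen : (q.take La).length = (q2.take La).length := by rw [h1]
    rw [List.length_take, List.length_take] at hlen
    by_cases hq : q.length < La
    · have hq2 : q2.length < La := by omega
      rw [List.take_of_length_le (by omega), List.take_of_length_le (by omega)] at h1
      rw [h1]
    · have hq' : La ≤ q.length := by omega
      have hq2 : La ≤ q2.length := by omega
      apply Set.ext
      intro x
      change (p (q ++ x)) ↔ (p (q2 ++ x))
      apply hloc
      · rw [List.length_append]; omega
      · rw [List.length_append]; omega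
      · rw [List.take_append_of_le_length hq', List.take_append_of_le_length hq2, h1]
      · rw [List.length_append, List.length_append]
        exact Nat.ModEq.add_right _ h3
      · rw [List.drop_append_of_le_length hq', List.drop_append_of_le_length hq2]
        rw [List.map_append, List.map_append, List.prod_append, List.prod_append, h2]
  have hr : Set.range L.leftQuotient =
      (Function.extend key L.leftQuotient (fun _ => L)) '' Set.range key := by
    ext y
    constructor
    · rintro ⟨q, rfl⟩
      exact ⟨key q, ⟨q, rfl⟩, hfac.extend_apply _ q⟩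
    · rintro ⟨_, ⟨q, rfl⟩, rfl⟩
      exact ⟨q, (hfac.extend_apply _ q).symm⟩
  rw [hr]
  exact hkey.image _

/-- the word part of the gadget (772 #13437, corrected 28 / 212) -/
def Words {S V A : Type*} [Monoid S] [AddCommGroup V] (act : V → S → V) (N1 Pm La : ℕ)
    (Bad : ℕ → Prop) (phi : A → S) : Prop :=
  ∃ (lam rho : List A → Option V) (nu : List A → V),
    (∀ p v, lam p = some v → p.length ≤ N1) ∧
    (∀ p q v r, lam p = some v → rho q = some r → La ≤ q.length →
      r = act v ((p ++ q).map phi).prod + nu (p ++ q)) ∧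
    (∀ w : List A, La ≤ w.length → ¬ Bad w.length → ∀ v, ∃ p q, p ++ q = w ∧ lam p = some v ∧
      (rho q).isSome) ∧
    (∀ q q2 : List A, La ≤ q.length → La ≤ q2.length → q.take La = q2.take La →
      q.length ≡ q2.length [MOD Pm] → ((q.drop La).map phi).prod = ((q2.drop La).map phi).prod →
      rho q = rho q2 ∧ nu q = nu q2)

open Classical in
/-- the closed gadget (772 #13437, corrected 28 / 212) for one system -/
def UGI {S V : Type u} [Monoid S] [AddCommGroup V] (act : V → S → V) : Prop :=
  ∃ C0 : ℕ, ∀ K : ℕ, ∃ (N1 Pm La : ℕ) (c : ℕ → ℕ) (Bad : ℕ → Prop), 0 < Pm ∧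
    (∀ i j, i < j → j < K → c i < c j) ∧
    (∀ i j k l, i < K → j < K → k < K → l < K → i ≠ j → (i, j) ≠ (k, l) →
      c i + c l + 4 * N1 < c k + c j ∨ c k + c j + 4 * N1 < c i + c l) ∧
    (∀ T, Bad (T + Pm) ↔ Bad T) ∧
    (∀ T, La ≤ T → (((range K ×ˢ range K).filter
      fun ab => ab.1 ≠ ab.2 ∧ Bad (T + c ab.2 - c ab.1))).card ≤ C0) ∧
    ∀ (A : Type u) (phi : A → S), Words act N1 Pm La Bad phi

/-- regular word part: rho restricted to long words -/
theorem words_reg {S V A : Type*} [Monoid S] [Finite S] [AddCommGroup V] [Finite A]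
    {act : V → S → V} {N1 Pm La : ℕ} {Bad : ℕ → Prop} {phi : A → S} (hP : 0 < Pm)
    (h : Words act N1 Pm La Bad phi) :
    ∃ (lam rho : List A → Option V) (nu : List A → V),
      (∀ p v, lam p = some v → p.length ≤ N1) ∧
      (∀ r, Language.IsRegular ({q | rho q = some r} : Language A)) ∧
      (∀ p q v r, lam p = some v → rho q = some r →
        r = act v ((p ++ q).map phi).prod + nu (p ++ q)) ∧
      (∀ w : List A, N1 + La ≤ w.length → ¬ Bad w.length → ∀ v, ∃ p q, p ++ q = w ∧
        lam p = some v ∧ (rho q).isSome) ∧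
      (∀ q q2 : List A, La ≤ q.length → La ≤ q2.length → q.take La = q2.take La →
        q.length ≡ q2.length [MOD Pm] →
        ((q.drop La).map phi).prod = ((q2.drop La).map phi).prod →
        rho q = rho q2 ∧ nu q = nu q2) := by
  classical
  obtain ⟨lam, rho, nu, h1, h2, h3, h4⟩ := h
  have hloc : ∀ q q2 : List A, La ≤ q.length → La ≤ q2.length → q.take La = q2.take La →
      q.length ≡ q2.length [MOD Pm] →
      ((q.drop La).map phi).prod = ((q2.drop La).map phi).prod →
      ((if La ≤ q.length then rho q else none) = (if La ≤ q2.length then rho q2 else none)) ∧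
        nu q = nu q2 := by
    intro q q2 a b c d e
    obtain ⟨x, y⟩ := h4 q q2 a b c d e
    exact ⟨by rw [if_pos a, if_pos b, x], y⟩
  refine ⟨lam, fun q => if La ≤ q.length then rho q else none, nu, h1, ?_, ?_, ?_, hloc⟩
  · intro r
    apply reg_of_local phi La Pm hP
    intro q q2 a b c d e
    have := (hloc q q2 a b c d e).1
    dsimp only
    rw [this]
  · intro p q v r hl hr
    dsimp only at hr
    by_cases hq : La ≤ q.length
    · rw [if_pos hq] at hr
      exact h2 p q v r hl hr hq
    · rw [if_neg hq] at hr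
      exact absurd hr (by simp)
  · intro w hw hb v
    obtain ⟨p, q, rfl, hl, hr⟩ := h3 w (by omega) hb v
    have hp := h1 p v hl
    rw [List.length_append] at hw
    refine ⟨p, q, rfl, hl, ?_⟩
    dsimp only
    rw [if_pos (by omega)]
    exact hr

theorem bad_add {Bad : ℕ → Prop} {Pm : ℕ} (h : ∀ T, Bad (T + Pm) ↔ Bad T) (k T : ℕ) :
    Bad (T + k * Pm) ↔ Bad T := by
  induction k with
  | zero => simp
  | succ k ih => rw [Nat.succ_mul, ← Nat.add_assoc, h, ih]

open Classical in
/-- 709 #13559's `UG`, for one system -/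
theorem ug709 {S V : Type u} [Monoid S] [Finite S] [AddCommGroup V] (act : V → S → V)
    (h : UGI act) :
    ∃ C0 : ℕ, ∀ K : ℕ, ∃ (N D : ℕ) (x : ℕ → ℕ) (Bad : ℕ → Prop), 0 < D ∧
      (∀ T, Bad (T + D) ↔ Bad T) ∧
      (∀ T, (∀ k < K, x k ≤ T) → ((range K ×ˢ range K).filter
        (fun ab => ab.1 ≠ ab.2 ∧ Bad (T + x ab.1 - x ab.2))).card ≤ C0) ∧
      (∀ i j, i < j → j < K → x i < x j) ∧
      (∀ i j k l, i < K → j < K → k < K → l < K → i ≠ j → (i, j) ≠ (k, l) →
        x i + x l + 4 * N < x k + x j ∨ x k + x j + 4 * N < x i + x l) ∧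
      ∀ (A : Type u) [Finite A] (f : A → S), ∃ (lam rho : List A → Option V) (nu : List A → V),
        (∀ p v, lam p = some v → p.length ≤ N) ∧
        (∀ r, Language.IsRegular ({q | rho q = some r} : Language A)) ∧
        (∀ p q v r, lam p = some v → rho q = some r →
          r = act v ((p ++ q).map f).prod + nu (p ++ q)) ∧
        ∃ Tm, ∀ w : List A, Tm ≤ w.length → ¬ Bad w.length → ∀ v, ∃ p q, p ++ q = w ∧
          lam p = some v ∧ (rho q).isSome := by
  obtain ⟨C0, hC⟩ := h
  refine ⟨C0, fun K => ?_⟩
  obtain ⟨N1, Pm, La, c, Bad, hP, hinc, hgol, hper, hcnt, hW⟩ := hC K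
  refine ⟨N1, Pm, c, Bad, hP, hper, ?_, hinc, hgol, ?_⟩
  · intro T hT
    have hle : La ≤ T + La * Pm := by nlinarith [Nat.le_mul_of_pos_right La hP]
    have := hcnt (T + La * Pm) hle
    refine le_trans ?_ this
    refine Finset.card_le_card_of_injOn (fun ab => (ab.2, ab.1)) ?_ ?_
    · intro ab hab
      simp only [Finset.coe_filter, Finset.mem_product, Finset.mem_range, Set.mem_setOf_eq] at hab ⊢
      obtain ⟨⟨ha, hb⟩, hne, hbad⟩ := hab
      refine ⟨⟨hb, ha⟩, fun h => hne h.symm, ?_⟩
      have hx := hT ab.2 hb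
      have he : T + La * Pm + c ab.1 - c ab.2 = (T + c ab.1 - c ab.2) + La * Pm := by omega
      rw [he, bad_add hper]
      exact hbad
    · intro a _ b _ hab
      simp only [Prod.mk.injEq] at hab
      exact Prod.ext hab.2 hab.1
  · intro A _ f
    obtain ⟨lam, rho, nu, h1, h2, h3, h4, -⟩ := words_reg hP (hW A f)
    exact ⟨lam, rho, nu, h1, h2, h3, N1 + La, h4⟩

open Classical in
/-- 709 #13559's `UG` with its literal clauses (`N := N1 + La`), for one system -/
theorem ug709_lit {S V : Type u} [Monoid S] [Finite S] [AddCommGroup V] (act : V → S → V)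
    (h : UGI act) :
    ∃ C0 : ℕ, ∀ K : ℕ, ∃ (N D : ℕ) (x : ℕ → ℕ) (Bad : ℕ → Prop), 0 < D ∧
      (∀ T, Bad (T + D) ↔ Bad T) ∧
      (∀ T, (∀ k < K, x k ≤ T) → ((range K ×ˢ range K).filter
        (fun ab => ab.1 ≠ ab.2 ∧ Bad (T + x ab.1 - x ab.2))).card ≤ C0) ∧
      ∀ (A : Type u) [Finite A] (f : A → S), ∃ (lam rho : List A → Option V) (nu : List A → V),
        (∀ p v, lam p = some v → p.length ≤ N) ∧
        (∀ r, Language.IsRegular ({q | rho q = some r} : Language A)) ∧
        (∀ p q v r, lam p = some v → rho q = some r →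
          r = act v ((p ++ q).map f).prod + nu (p ++ q)) ∧
        (∀ w : List A, 2 * N ≤ w.length → ¬ Bad w.length → ∀ v, ∃ p q, p ++ q = w ∧
          lam p = some v ∧ (rho q).isSome) := by
  obtain ⟨C0, hC⟩ := h
  refine ⟨C0, fun K => ?_⟩
  obtain ⟨N1, Pm, La, c, Bad, hP, hinc, hgol, hper, hcnt, hW⟩ := hC K
  refine ⟨N1 + La, Pm, c, Bad, hP, hper, ?_, ?_⟩
  · intro T hT
    have hle : La ≤ T + La * Pm := by nlinarith [Nat.le_mul_of_pos_right La hP]
    have := hcnt (T + La * Pm) hle
    refine le_trans ?_ this
    refine Finset.card_le_card_of_injOn (fun ab => (ab.2, ab.1)) ?_ ?_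
    · intro ab hab
      simp only [Finset.coe_filter, Finset.mem_product, Finset.mem_range, Set.mem_setOf_eq] at hab ⊢
      obtain ⟨⟨ha, hb⟩, hne, hbad⟩ := hab
      refine ⟨⟨hb, ha⟩, fun h => hne h.symm, ?_⟩
      have hx := hT ab.2 hb
      have he : T + La * Pm + c ab.1 - c ab.2 = (T + c ab.1 - c ab.2) + La * Pm := by omega
      rw [he, bad_add hper]
      exact hbad
    · intro a _ b _ hab
      simp only [Prod.mk.injEq] at hab
      exact Prod.ext hab.2 hab.1
  · intro A _ f
    obtain ⟨lam, rho, nu, h1, h2, h3, h4, -⟩ := words_reg hP (hW A f)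
    exact ⟨lam, rho, nu, fun p v h => by have := h1 p v h; omega, h2, h3,
      fun w hw => h4 w (by omega)⟩

end Crest.Agent.R320.Bridge_975
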