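import Crest.Agent.R320.Asm1_772
import Crest.Agent.R320.Bridge_975

/-!
# Row 320, all-words assembly (helper772), part 2: the data exist, given the U-gadget `UGI`.
-/

set_option autoImplicit false

namespace Crest.Agent.R320.Asm_772

open Crest.RegLang Crest.Agent.R320.Hk_851 Crest.Agent.R320.Level_297
open Crest.Agent.R320.FewWalls_228 Finset

variable {α V S : Type} [Monoid S] [AddCommGroup V]

/-- finite-state properties of the data -/
structure Dat.Rg (D : Dat α V S) : Prop where
  per : ∃ m, 0 < m ∧ ∀ T, D.Bad (T + m) ↔ D.Bad T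
  rhoR : ∀ r, (Crest.R320.Reg_143.lg fun q => D.rho q = some r).IsRegular
  nuR : ∀ v, (Crest.R320.Reg_143.lg fun q => D.nu1 q = v).IsRegular
  few : ∀ (L : Language α), L.IsRegular → ∀ r,
    HL 1 ({w | w ∈ L ∧ nw D.n D.St w ≤ r} : Language α)

open Classical in
/-- the spoil count -/
theorem spoil {n : ℕ} {St : Set (List α)} {K N1 C0 z p0 W La : ℕ} {c : ℕ → ℕ} {Bad : ℕ → Prop}
    (hsep : ∀ (w : List α) (x y : ℕ), x < y → Wl n St w x → Wl n St w y → x + W ≤ y)
    {Lam : ℕ} (hLam : ∀ k < K, c k ≤ Lam) (hW : 2 * (Lam + N1) < W)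
    (hz : p0 + Lam + N1 + La < z)
    (hgol : ∀ i j k l, i < K → j < K → k < K → l < K → i ≠ j → (i, j) ≠ (k, l) →
      c i + c l + 4 * N1 < c k + c j ∨ c k + c j + 4 * N1 < c i + c l)
    (hthin : ∀ T, La ≤ T → (((range K ×ˢ range K).filter
      fun ab => ab.1 ≠ ab.2 ∧ Bad (T + c ab.2 - c ab.1))).card ≤ C0)
    (Q : List α) (b l : ℕ) (hb : FW n St Q z b) (hl : FW n St Q (b + 1) l) :
    ∃ J : Finset ℕ, J.card ≤ 1 + 2 * C0 ∧ ∀ k < K, ∀ j < K, j ≠ k → k ∉ J →
      ¬ ∃ β, FW n St Q (z + c k - c j) β ∧ (Bad (β - p0 + c j - c k) ∨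
        ∃ t ≤ β, Wl n St Q t ∧ z + c k ≤ t + c j + N1 ∧ t + c j ≤ z + c k + N1) := by
  obtain ⟨t1, ht1, hF1⟩ := FW.ex (A := z - Lam) hb.1 (by have := hb.2.1; omega)
  have hbz := hb.2.1
  have hlb := hl.2.1
  obtain ⟨t2, ht2, hF2⟩ := FW.ex (A := t1 + 1) hl.1 (by omega)
  have ht12 := hF2.2.1
  have hgap := hsep Q t1 t2 (by omega) hF1.1 hF2.1
  have hz1 := hF1.2.1
  let PE : Finset (ℕ × ℕ) := (range K ×ˢ range K).filter fun ab => ab.1 ≠ ab.2 ∧
    ∃ t, Wl n St Q t ∧ z + c ab.1 ≤ t + c ab.2 + N1 ∧ t + c ab.2 ≤ z + c ab.1 + N1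
  let B1 : Finset (ℕ × ℕ) := (range K ×ˢ range K).filter fun ab => ab.1 ≠ ab.2 ∧
    Bad ((t1 - p0) + c ab.2 - c ab.1)
  let B2 : Finset (ℕ × ℕ) := (range K ×ˢ range K).filter fun ab => ab.1 ≠ ab.2 ∧
    Bad ((t2 - p0) + c ab.2 - c ab.1)
  have hPE : PE.card ≤ 1 := by
    rw [Finset.card_le_one]
    rintro ⟨i, j⟩ h1 ⟨i', j'⟩ h2
    simp only [PE, Finset.mem_filter, Finset.mem_product, Finset.mem_range] at h1 h2
    obtain ⟨⟨hi, hj⟩, hij, t, ht, ha, hb'⟩ := h1
    obtain ⟨⟨hi', hj'⟩, hij', t', ht', ha', hb''⟩ := h2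
    by_contra hne
    have e1 := hLam i hi
    have e2 := hLam j hj
    have e3 := hLam i' hi'
    have e4 := hLam j' hj'
    have htt : t = t' := by
      rcases Nat.lt_trichotomy t t' with h | h | h
      · have := hsep Q t t' h ht ht'; omega
      · exact h
      · have := hsep Q t' t h ht' ht; omega
    subst htt
    rcases hgol i j i' j' hi hj hi' hj' hij hne with h | h <;> omega
  have hB1 : B1.card ≤ C0 := hthin (t1 - p0) (by omega)
  have hB2 : B2.card ≤ C0 := hthin (t2 - p0) (by omega)
  refine ⟨(PE ∪ (B1 ∪ B2)).image Prod.fst, ?_, ?_⟩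
  · have h1 := Finset.card_image_le (s := PE ∪ (B1 ∪ B2)) (f := Prod.fst)
    have h2 := Finset.card_union_le PE (B1 ∪ B2)
    have h3 := Finset.card_union_le B1 B2
    omega
  · rintro k hk j hj hjk hkJ ⟨β, hβ, h⟩
    apply hkJ
    rw [Finset.mem_image]
    have ek := hLam k hk
    have ej := hLam j hj
    refine ⟨(k, j), ?_, rfl⟩
    rw [Finset.mem_union, Finset.mem_union]
    rcases h with h | ⟨t, ht1', ht2', ht3', ht4'⟩
    · right
      have hβz := hβ.2.1
      have hor : β = t1 ∨ β = t2 := by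
        by_cases h1 : β = t1
        · exact Or.inl h1
        right
        have h2 : t1 ≤ β := by
          by_contra hcon
          exact hF1.2.2 β (by omega) (by omega) hβ.1
        have h3 : t2 ≤ β := by
          by_contra hcon
          exact hF2.2.2 β (by omega) (by omega) hβ.1
        have h4 : β ≤ t2 := by
          by_contra hcon
          exact hβ.2.2 t2 (by omega) (by omega) hF2.1
        omega
      rcases hor with h1 | h1
      · left
        simp only [B1, Finset.mem_filter, Finset.mem_product, Finset.mem_range]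
        exact ⟨⟨hk, hj⟩, fun h => hjk h.symm, h1 ▸ h⟩
      · right
        simp only [B2, Finset.mem_filter, Finset.mem_product, Finset.mem_range]
        exact ⟨⟨hk, hj⟩, fun h => hjk h.symm, h1 ▸ h⟩
    · left
      simp only [PE, Finset.mem_filter, Finset.mem_product, Finset.mem_range]
      exact ⟨⟨hk, hj⟩, fun h => hjk h.symm, t, ht2', ht3', ht4'⟩

/-- **the data exist** -/
theorem exists_ok [Finite α] [Fintype S] [Fintype V] (act : V → S → V)
    (hmul : ∀ v s t, act (act v s) t = act v (s * t))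
    (hadd : ∀ v w s, act (v + w) s = act v s + act w s) (f : α → S)
    (hU : Crest.Agent.R320.Bridge_975.UGI act) :
    ∃ D : Dat α V S, D.Ok ∧ D.Rg ∧ D.act = act ∧ D.φ = f := by
  classical
  obtain ⟨C0, hC⟩ := hU
  obtain ⟨K, hK⟩ := Crest.Agent.R320.ExactR_237.exact_gadget α S V f act (2 + 2 * C0)
  obtain ⟨N1, Pm, La, c, Bad, hPm, hmono, hgol, hper, hthin, hwords⟩ := hC K
  obtain ⟨lam, rho, nu, hlamN, hsound, hcompl, hloc⟩ := hwords α f
  let Lam : ℕ := ∑ k ∈ range K, c k
  have hLam : ∀ k < K, c k ≤ Lam := fun k hk =>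
    Finset.single_le_sum (f := c) (fun _ _ => Nat.zero_le _) (Finset.mem_range.2 hk)
  obtain ⟨n, cw, P, St, hn, hP, hSt, hsep, hpo, hfew⟩ :=
    FewVal_228.exists_walls α (2 * (Lam + N1) + 1) (by omega)
  obtain ⟨lam2, rho2, nu2, hs2, hc2⟩ := hK (fun k => c k + n)
    (fun i j h1 h2 => by have := hmono i j h1 h2; omega)
  let D : Dat α V S :=
    { n := n, St := St, act := act, φ := f, K := K, N1 := N1, La := La,
      p0 := Lam + n, z := Lam + n + Lam + N1 + La + 1, W := 2 * (Lam + N1) + 1,
      cc := fun k => c k + n, Bad := Bad, lam := lam, rho := rho, nu1 := nu,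
      lam2 := lam2, rho2 := rho2, nu2 := fun X => nu2 X 1 }
  refine ⟨D, ?_, ?_, rfl, rfl⟩
  · refine
      { hn := hn, hsep := hsep, hp0 := ?_, hz := ?_, hcc := ?_, hW := ?_, mul := hmul,
        add := hadd, lamN := hlamN, sound := ?_, compl := ?_, sound2 := ?_, compl2 := ?_ }
    · show n ≤ Lam + n; omega
    · show Lam + n + N1 + La < Lam + n + Lam + N1 + La + 1; omega
    · intro k hk
      have := hLam k hk
      show n ≤ c k + n ∧ c k + n ≤ Lam + n
      omega
    · intro i hi j hj
      have h1 := hLam i hi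
      show c i + n ≤ c j + n + (2 * (Lam + N1) + 1)
      omega
    · intro p q v r h1 h2 h3
      exact hsound p q v r h1 h2 h3
    · intro u v h1 h2
      obtain ⟨p, q, h3, h4, h5⟩ := hcompl u h1 h2 v
      exact ⟨p, q, h3, h4, Option.isSome_iff_exists.1 h5⟩
    · intro k hk P' Q' v b h1 h2 h3
      have := hs2 k hk P' Q' 1 v b h1 h2 h3
      rw [mul_one] at this
      exact this
    · intro Q v b l hb hl
      have hbl := hb.le
      have hbz := hb.2.1
      have hlen : D.p0 ≤ Q.length := by
        show Lam + n ≤ Q.length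
        have : Lam + n + Lam + N1 + La + 1 ≤ b := hbz
        omega
      obtain ⟨I, hI, hI2⟩ := hc2 (Q.take (Lam + n)) 1 v (fun k hk => by
        have := hLam k hk
        rw [List.length_take]
        have : Lam + n ≤ Q.length := hlen
        omega)
      obtain ⟨J, hJ, hJ2⟩ := spoil (z := D.z) (p0 := D.p0) hsep hLam (by omega)
        (by show Lam + n + Lam + N1 + La < Lam + n + Lam + N1 + La + 1; omega) hgol hthin Q b l
        hb hl
      have hex : ∃ k ∈ I, k ∉ J := by
        by_contra hcon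
        push Not at hcon
        have := Finset.card_le_card (s := I) (t := J) hcon
        omega
      obtain ⟨k, hkI, hkJ⟩ := hex
      obtain ⟨hk, hk1, hk2⟩ := hI2 k hkI
      have hck := hLam k hk
      refine ⟨k, hk, ?_, ?_, ?_⟩
      · have e : (Q.take (Lam + n)).take (c k + n) = Q.take (c k + n) := by
          rw [List.take_take, min_eq_left (by omega)]
        rw [e] at hk1
        exact hk1
      · exact Option.isSome_iff_exists.1 hk2
      · intro j hj hjk hbad
        have hcj := hLam j hj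
        apply hJ2 k hk j hj hjk hkJ
        obtain ⟨b', hb', h⟩ := hbad
        have hdl : D.cc k ≤ Q.length := by
          show c k + n ≤ Q.length
          have : Lam + n ≤ Q.length := hlen
          omega
        have hb1 := hb'.2.1
        have hzz : Lam + n + Lam + N1 + La + 1 - (c j + n) ≤ b' := hb1
        have hw : ∀ t, Wl n St (Q.drop (c k + n)) t ↔ Wl n St Q (c k + n + t) :=
          fun t => wl_drop hdl
        refine ⟨c k + n + b', ⟨(hw b').1 hb'.1, ?_, ?_⟩, ?_⟩
        · show Lam + n + Lam + N1 + La + 1 + c k - c j ≤ c k + n + b'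
          omega
        · intro t' h1 h2 h3
          have h1' : Lam + n + Lam + N1 + La + 1 + c k - c j ≤ t' := h1
          obtain ⟨t, rfl⟩ : ∃ t, t' = c k + n + t := ⟨t' - (c k + n), by omega⟩
          refine hb'.2.2 t ?_ (by omega) ((hw t).2 h3)
          show Lam + n + Lam + N1 + La + 1 - (c j + n) ≤ t
          omega
        · rcases h with h | ⟨t, h1, h2, h3, h4⟩
          · left
            have e : c k + n + b' - D.p0 + c j - c k = b' + D.cc j - D.p0 := by
              show c k + n + b' - (Lam + n) + c j - c k = b' + (c j + n) - (Lam + n)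
              omega
            rw [e]
            exact h
          · right
            refine ⟨c k + n + t, by omega, (hw t).1 h2, ?_, ?_⟩
            · have : D.z ≤ t + (c j + n) + N1 := h3
              omega
            · have : t + (c j + n) ≤ D.z + N1 := h4
              omega
  · refine { per := ⟨Pm, hPm, hper⟩, rhoR := ?_, nuR := ?_, few := hfew }
    · intro r
      refine Crest.Agent.R320.Bridge_975.reg_of_local f La Pm hPm (fun q => rho q = some r) ?_
      intro q q2 h1 h2 h3 h4 h5
      show rho q = some r ↔ rho q2 = some r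
      rw [(hloc q q2 h1 h2 h3 h4 h5).1]
    · intro v
      refine Crest.Agent.R320.Bridge_975.reg_of_local f La Pm hPm (fun q => nu q = v) ?_
      intro q q2 h1 h2 h3 h4 h5
      show nu q = v ↔ nu q2 = v
      rw [(hloc q q2 h1 h2 h3 h4 h5).2]

end Crest.Agent.R320.Asm_772
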