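import Crest.Agent.R320.Asm2_383

/-!
# Row 320: 180's top over 937's block form on all words (helper383)
-/

set_option autoImplicit false

namespace Crest.Agent.R320.Asm1_383

open Crest.RegLang Crest.Agent.R320.Hk_851 Crest.Agent.R320.BddReg_746
open Crest.Agent.R320.Sc2n_937 Crest.Agent.R320.Half1_180

universe u

variable {α : Type u} {S : Type*} [Monoid S] {V : Type*} [AddCommGroup V]

theorem asm [Finite α] [Finite S] [Finite V] (f : α → S) (act : V → S → V)
    (act_add : ∀ a b s, act (a + b) s = act a s + act b s) (act_one : ∀ v, act v 1 = v)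
    (act_mul : ∀ v s s', act (act v s) s' = act v (s * s'))
    (faithful : ∀ s s', (∀ v, act v s = act v s') → s = s')
    (g : Geo α) (len : ∀ P, g.Wo P → g.n ≤ P.length) {B R : ℕ}
    (free : ∀ u : List α, (∀ t < u.length, ¬ g.Wo (u.take t)) → u ∈ (PN B R : Language α))
    (hgap : ∀ P Q : List α, g.Wo P → g.Wo (P ++ Q) → Q ≠ [] → 2 * g.p0 + 2 * g.N1 < Q.length)
    {lam rho : List α → Option V} {nu1 nu2 : List α → V} {D N : ℕ} (hN : 0 < N)
    (hnu : DepF f D N nu1) (hrho : DepF f D N rho)
    (hlen : ∀ P v, lam P = some v → P.length ≤ g.N1)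
    (hsound : ∀ P Q u b, lam P = some u → rho Q = some b →
      b = act u (ph f (P ++ Q)) + nu1 (P ++ Q))
    {BadT : ℕ → Prop} (hBT : ∀ a b, a % N = b % N → (BadT a ↔ BadT b))
    (hcompl : ∀ X : List α, g.q0 ≤ X.length → ¬ BadT X.length → ∀ u, ∃ P Q, X = P ++ Q ∧
      lam P = some u ∧ (rho Q).isSome)
    {K : ℕ} {c : ℕ → ℕ} {lam2 rho2 : ℕ → List α → Option V} {C0 : ℕ}
    (hc : ∀ k, k < K → c k ≤ g.p0)
    (hex2 : ∀ k, k < K → ∀ P Q v u, P.length = c k → Q.length = g.p0 - c k →
      lam2 k P = some v → rho2 k Q = some u → u = pre f act nu2 (P ++ Q) v)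
    (hsp : ∀ k k' l l', k < K → k' < K → l < K → l' < K → k' ≠ k → l' ≠ l →
      c k + c l' < c l + c k' + 2 * g.N1 → c l + c k' < c k + c l' + 2 * g.N1 → k = l)
    (hthin : ∀ τ, g.z ≤ τ + g.p0 → ∀ J : Finset ℕ, (∀ k ∈ J, k < K ∧
      ∃ k', k' < K ∧ k' ≠ k ∧ BadT (τ + c k' - c k - g.p0)) → J.card ≤ C0)
    (hI : ∀ X0 : List α, X0.length = g.p0 → ∀ v : V, ∃ I : Finset ℕ, 2 * C0 + 2 ≤ I.card ∧
      ∀ k ∈ I, k < K ∧ lam2 k (X0.take (c k)) = some v ∧ (rho2 k (X0.drop (c k))).isSome)
    (s : S) : HL 3 ({w | (w.map f).prod = s} : Language α) := by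
  classical
  have hz := g.hz
  have hNg := g.hN
  have act_zero : ∀ s, act 0 s = 0 := by
    intro s
    have h := act_add 0 0 s
    rw [add_zero] at h
    exact (left_eq_add.1 h)
  have act_sub : ∀ a b s, act (a - b) s = act a s - act b s := by
    intro a b s
    have h := act_add (a - b) b s
    rw [sub_add_cancel] at h
    exact eq_sub_of_add_eq h.symm
  have hPF : PF {X : List α | g.XX X} := by
    refine ⟨fun X hX h => ?_, fun X hX Y hY hXY => ?_⟩
    · have h1 := hX.1
      rw [h] at h1
      simp only [List.length_nil] at h1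
      omega
    · obtain ⟨Z, rfl⟩ := hXY
      exact g.prefix_code (R := Z) (R' := []) hX hY (by rw [List.append_nil])
  have snd1 : ∀ v v' P Q, g.LP1 (pre f act nu2) lam v P → g.RQ1 rho v' Q →
      g.XX (P ++ Q) ∧ g.T (pre f act nu2) (post f act nu1) v (P ++ Q) = v' :=
    fun v v' P Q hP hQ => g.sound1 (pre f act nu2) (post f act nu1) hlen hsound hP hQ
  have snd2 : ∀ (v v' : V) (X P Q R R' : List α), g.XX X → g.BadX BadT X →
      Geo.LP2 K c lam2 v P → g.RQ2 (pre f act nu2) (post f act nu1) BadT K c rho2 v' Q →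
      P ++ Q ++ R = X ++ R' →
      ∃ X2, g.XX X2 ∧ P ++ Q = X ++ X2 ∧
        g.T (pre f act nu2) (post f act nu1) (g.T (pre f act nu2) (post f act nu1) v X) X2 = v' :=
    fun v v' X P Q R R' h1 h2 h3 h4 h5 =>
      g.sound2 (pre f act nu2) (post f act nu1) hc hex2 h1 h2 h3 h4 h5
  refine top2 (k := 1) f act act_zero act_one act_mul faithful {X | g.XX X}
    {X | g.XX X ∧ ¬ g.BadX BadT X} {X | g.XX X ∧ g.BadX BadT X} hPF ?_
    (fun X v => g.T (pre f act nu2) (post f act nu1) v X) ?_
    (fun v => Lg (fun P => g.LP1 (pre f act nu2) lam v P)) (fun b => Lg (fun Q => g.RQ1 rho b Q))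
    ?_ ?_ ?_ ?_ (hl_bad hN len free hBT f)
    (fun v => Lg (fun P => Geo.LP2 K c lam2 v P))
    (fun b => Lg (fun Q => g.RQ2 (pre f act nu2) (post f act nu1) BadT K c rho2 b Q))
    ?_ (fun b => hl_RQ2 hN hnu len free hBT K c rho2 b)
    (fun v v' => hl_short hN hnu len free hBT v v') ?_ ?_
    (fun s => (hl_tail len free f s).mono (by omega)) s
  · apply Set.ext
    intro X
    constructor
    · intro hX
      by_cases hb : g.BadX BadT X
      · exact Or.inr ⟨hX, hb⟩
      · exact Or.inl ⟨hX, hb⟩
    · rintro (h | h)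
      · exact h.1
      · exact h.1
  · intro X hX v v'
    have e : (X.map f).prod = ph f (X.take g.p0) * ph f (X.drop g.p0) := by
      rw [← ph_append, List.take_append_drop]; rfl
    rw [e, ← act_mul]
    simp only [Geo.T, pre, post]
    rw [add_sub_add_right_eq_sub, ← act_sub, add_sub_add_right_eq_sub, ← act_sub]
  · intro v
    refine HL.finite ((List.finite_length_le α (g.p0 + g.N1)).subset ?_)
    rintro P ⟨h1, h2⟩
    have := hlen _ _ h2
    rw [List.length_drop] at this
    change P.length ≤ _
    omega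
  · intro v
    exact (hl_RQ1 hN hrho len free v).mono (by omega)
  · intro v v' P Q hP hQ
    exact snd1 v v' P Q hP hQ
  · rintro X ⟨hX, hnb⟩ v
    have hE : ¬ g.E X := fun h => hnb (Or.inl h)
    have hXz := hX.1
    obtain ⟨P, Q, b, h1, h2, h3⟩ := g.complete1 (pre f act nu2) hlen hX hE (fun u => by
      obtain ⟨P, Q, h4, h5, h6⟩ := hcompl (X.drop g.p0) (by rw [List.length_drop]; omega)
        (by rw [List.length_drop]; exact fun h => hnb (Or.inr h)) u
      exact ⟨P, Q, h4, h5, h6⟩) v
    refine ⟨P, Q, h1, h2, ?_⟩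
    have h4 := (snd1 v b P Q h2 h3).2
    rw [← h1] at h4
    change g.RQ1 rho (g.T (pre f act nu2) (post f act nu1) v X) Q
    rw [h4]; exact h3
  · intro v
    refine HL.finite ((List.finite_length_le α g.p0).subset ?_)
    rintro P ⟨k, hk, h1, h2⟩
    change P.length ≤ _
    rw [h1]; exact hc k hk
  · intro v v' P Q R' hP hQ hBs
    have main : ∀ w, Bs {X | g.XX X ∧ g.BadX BadT X} w → w = P ++ (Q ++ R') →
        Tr {X | g.XX X} (fun X v => g.T (pre f act nu2) (post f act nu1) v X) v (P ++ Q) v' ∧
          Bs {X | g.XX X ∧ g.BadX BadT X} R' := by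
      intro w hw
      cases hw with
      | nil =>
        intro h
        exfalso
        have h1 := congrArg List.length h
        simp only [List.length_nil, List.length_append] at h1
        obtain ⟨k, hk, l, h2, h3, h4, -⟩ := hQ
        have h5 := h4.1
        rw [List.length_drop] at h5
        omega
      | @cons X w' hX hw' =>
        intro h
        obtain ⟨X2, h1, h2, h3⟩ := snd2 v v' X P Q R' w' hX.1 hX.2 hP hQ
          (by rw [List.append_assoc]; exact h.symm)
        have h4 : w' = X2 ++ R' := by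
          have h5 : X ++ w' = X ++ (X2 ++ R') := by
            rw [h, ← List.append_assoc, h2, List.append_assoc]
          exact List.append_cancel_left h5
        refine ⟨?_, ?_⟩
        · rw [h2]
          have t2 := Tr.cons (XX := {X | g.XX X})
            (t := fun X v => g.T (pre f act nu2) (post f act nu1) v X) h1
            (Tr.nil (g.T (pre f act nu2) (post f act nu1)
              (g.T (pre f act nu2) (post f act nu1) v X) X2))
          rw [List.append_nil] at t2
          have t1 := Tr.cons (XX := {X | g.XX X})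
            (t := fun X v => g.T (pre f act nu2) (post f act nu1) v X) (x := v) hX.1 t2
          rw [h3] at t1
          exact t1
        · cases hw' with
          | nil =>
            exfalso
            have h5 := congrArg List.length h4
            simp only [List.length_nil, List.length_append] at h5
            have h6 := h1.1
            omega
          | @cons Y w'' hY hw'' =>
            have h5 := hPF.eq h1 hY.1 h4.symm
            rw [h5.2]; exact hw''
    exact main _ hBs rfl
  · rintro Y1 ⟨hY1, hb1⟩ Y2 ⟨hY2, hb2⟩ v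
    have hXz := hY1.1
    obtain ⟨P, Q, b, h1, h2, h3⟩ := g.complete2 (pre f act nu2) (post f act nu1) hc hgap hsp hthin
      hY1 hY2 v (by
        obtain ⟨I, h4, h5⟩ := hI (Y1.take g.p0) (by rw [List.length_take]; omega) v
        refine ⟨I, h4, fun k hk => ?_⟩
        obtain ⟨h6, h7, h8⟩ := h5 k hk
        rw [List.take_take, Nat.min_eq_left (hc k h6)] at h7
        exact ⟨h6, h7, h8⟩)
    refine ⟨P, Q, h1.symm, h2, ?_⟩
    obtain ⟨X2, h4, h5, h6⟩ := snd2 v b Y1 P Q [] Y2 hY1 hb1 h2 h3 (by rw [List.append_nil, h1])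
    have h7 : Y2 = X2 := by
      rw [h1] at h5
      exact List.append_cancel_left h5
    change g.RQ2 (pre f act nu2) (post f act nu1) BadT K c rho2
      (g.T (pre f act nu2) (post f act nu1) (g.T (pre f act nu2) (post f act nu1) v Y1) Y2) Q
    rw [h7, h6]; exact h3

end Crest.Agent.R320.Asm1_383
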