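import Mathlib
import Crest.Agent.R320.Asm2_501

/-!
# Row 320 (helper501): completeness (cc) of the two schemes
-/

set_option autoImplicit false

namespace Crest.Agent.R320.Asm_501

open Crest.Agent.R320.FewWalls_228

namespace Dt

variable {α M V : Type} [Monoid M] [AddCommGroup V] {D : Dt α M V}

/-- wall transport from the block of a candidate to the text `w` -/
theorem wl_back {w P2 X' : List α} {k k' x : ℕ} (hk : D.c k ≤ w.length)
    (hl : P2.length = D.c k') (hX' : X' <+: P2 ++ w.drop (D.c k)) (hx : D.c k' ≤ x)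
    (h : Wl D.n D.S X' x) : Wl D.n D.S w (D.c k + (x - D.c k')) := by
  have h1 := wl_of_prefix hX' h
  rw [wl_append' _ _ _ (by rw [hl]; exact hx), hl, wl_drop hk] at h1
  exact h1

theorem wl_forth {w P2 X' : List α} {k k' x : ℕ} (hk : D.c k ≤ w.length)
    (hl : P2.length = D.c k') (hX' : X' <+: P2 ++ w.drop (D.c k)) (hx : D.c k' ≤ x)
    (hx2 : x + D.n ≤ X'.length)
    (h : Wl D.n D.S w (D.c k + (x - D.c k'))) : Wl D.n D.S X' x := by
  refine wl_prefix hX' hx2 ?_
  rw [wl_append' _ _ _ (by rw [hl]; exact hx), hl, wl_drop hk]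
  exact h

/-- `k'` is a wrong candidate at the place of `k` -/
def Amb (D : Dt α M V) (w : List α) (k k' : ℕ) : Prop :=
  ∃ P2 X', P2.length = D.c k' ∧ X' ∈ D.B ∧ X' <+: P2 ++ w.drop (D.c k) ∧ D.BadX X'

/-- a wall of `w` in the band of the candidate -/
def EE (D : Dt α M V) (w : List α) (k k' : ℕ) : Prop :=
  ∃ x, Wl D.n D.S w x ∧ (D.z : ℤ) + D.c k - D.c k' - D.N ≤ x + D.n ∧
    (x : ℤ) + D.n < (D.z : ℤ) + D.c k - D.c k' + D.N

theorem Ok.ee (h : D.Ok) {w : List α} {k k' i i' : ℕ} (hk : k < D.K) (hk' : k' < D.K)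
    (hi : i < D.K) (hi' : i' < D.K) (hne : k ≠ k') (h1 : D.EE w k k') (h2 : D.EE w i i') :
    (k, k') = (i, i') := by
  by_contra hc
  obtain ⟨x, hx, hx1, hx2⟩ := h1
  obtain ⟨y, hy, hy1, hy2⟩ := h2
  have hW := h.hW
  have a1 := h.cp k hk
  have a2 := h.cp k' hk'
  have a3 := h.cp i hi
  have a4 := h.cp i' hi'
  have hxy : x = y := by
    rcases lt_trichotomy x y with hl | hl | hl
    · have := h.sep w x y hl hx hy
      omega
    · exact hl
    · have := h.sep w y x hl hy hx
      omega
  subst hxy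
  have hr := h.reso k k' i i' hk hk' hi hi' hne hc
  rw [lt_abs] at hr
  omega

theorem Ok.cc2 (h : D.Ok) {X X2 : List α} (hX : X ∈ D.B) (hX2 : X2 ∈ D.B) (v : V)
    (hno : ¬ ∃ P Q, X = P ++ Q ∧ D.LP1 P v ∧ (D.R1 Q).isSome) :
    ∃ P Q, X ++ X2 = P ++ Q ∧ P.length < X.length ∧ D.LP2 P v ∧ (D.R2 Q).isSome := by
  classical
  have hz := h.hz
  have hW := h.hW
  have hXl : D.z ≤ X.length := hX.1
  have hX2l : D.z ≤ X2.length := hX2.1
  set w := X ++ X2 with hw
  have hwl : w.length = X.length + X2.length := by rw [hw, List.length_append]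
  have hXw : X <+: w := List.prefix_append _ _
  -- the first two wall places
  have hex : ∃ y, D.z ≤ y + D.p0 ∧ Wl D.n D.S w (y - D.n) :=
    ⟨X.length, by omega, wl_of_prefix hXw hX.2.1⟩
  obtain ⟨e1, he1, he1min⟩ : ∃ e1, (D.z ≤ e1 + D.p0 ∧ Wl D.n D.S w (e1 - D.n)) ∧
      ∀ y, (D.z ≤ y + D.p0 ∧ Wl D.n D.S w (y - D.n)) → e1 ≤ y :=
    ⟨Nat.find hex, Nat.find_spec hex, fun y hy => Nat.find_min' hex hy⟩
  obtain ⟨e2, he12, he2⟩ : ∃ e2, e1 ≤ e2 ∧ ∀ y, e1 < y → Wl D.n D.S w (y - D.n) →
      (e1 < e2 ∧ Wl D.n D.S w (e2 - D.n) ∧ e2 ≤ y) := by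
    by_cases hc : ∃ y, e1 < y ∧ Wl D.n D.S w (y - D.n)
    · refine ⟨Nat.find hc, (Nat.find_spec hc).1.le, fun y hy1 hy2 =>
        ⟨(Nat.find_spec hc).1, (Nat.find_spec hc).2, Nat.find_min' hc ⟨hy1, hy2⟩⟩⟩
    · exact ⟨e1, le_rfl, fun y hy1 hy2 => absurd ⟨y, hy1, hy2⟩ hc⟩
  -- block ends of candidates
  have hend : ∀ {k k' : ℕ} (_ : k < D.K) (_ : k' < D.K) {P2 X' : List α}
      (_ : P2.length = D.c k') (_ : X' ∈ D.B) (_ : X' <+: P2 ++ w.drop (D.c k)),
      D.c k + (X'.length - D.c k') = e1 ∨ D.c k + (X'.length - D.c k') = e2 := by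
    intro k k' hk hk' P2 X' hl hX' hp
    have a1 := h.cp k hk
    have a2 := h.cp k' hk'
    have hX'l : D.z ≤ X'.length := hX'.1
    set e := D.c k + (X'.length - D.c k') with he
    have hwe : Wl D.n D.S w (e - D.n) := by
      have := wl_back (by omega) hl hp (by omega : D.c k' ≤ X'.length - D.n) hX'.2.1
      have e3 : D.c k + (X'.length - D.n - D.c k') = e - D.n := by omega
      rwa [e3] at this
    have hmin : ∀ y, D.z + D.c k ≤ y + D.c k' → y < e → ¬ Wl D.n D.S w (y - D.n) := by
      intro y hy1 hy2 hy3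
      refine hX'.2.2 (y + D.c k' - D.c k) (by omega) (by omega) ?_
      refine wl_forth (by omega) hl hp (by omega) (by omega) ?_
      have e3 : D.c k + (y + D.c k' - D.c k - D.n - D.c k') = y - D.n := by omega
      rwa [e3]
    have hge : e1 ≤ e := he1min e ⟨by omega, hwe⟩
    rcases eq_or_lt_of_le hge with h1 | h1
    · exact Or.inl h1.symm
    · right
      have h2 : ¬ (D.z + D.c k ≤ e1 + D.c k') := fun hc => hmin e1 hc h1 he1.2
      obtain ⟨h3, h4, h5⟩ := he2 e h1 hwe
      rcases eq_or_lt_of_le h5 with h6 | h6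
      · exact h6.symm
      · exfalso
        have h7 : ¬ (D.z + D.c k ≤ e2 + D.c k') := fun hc => hmin e2 hc h6 h4
        have := h.sep w (e1 - D.n) (e2 - D.n) (by omega) he1.2 h4
        omega
  -- counting
  let PE : Finset (ℕ × ℕ) := (Finset.range D.K ×ˢ Finset.range D.K).filter
    (fun ab => ab.1 ≠ ab.2 ∧ D.EE w ab.1 ab.2)
  let FB : ℕ → Finset (ℕ × ℕ) := fun e => (Finset.range D.K ×ˢ Finset.range D.K).filter
    (fun ab => ab.1 ≠ ab.2 ∧ D.Bad (e - D.p0 + D.c ab.1 - D.c ab.2))
  have hPE : PE.card ≤ 1 := by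
    rw [Finset.card_le_one]
    rintro ⟨a, b⟩ hab ⟨a', b'⟩ hab'
    simp only [PE, Finset.mem_filter, Finset.mem_product, Finset.mem_range] at hab hab'
    exact h.ee hab.1.1 hab.1.2 hab'.1.1 hab'.1.2 hab.2.1 hab.2.2 hab'.2.2
  have hFB : ∀ e, D.z ≤ e + D.p0 → (FB e).card ≤ D.C0 := by
    intro e he
    refine h.thin (e - D.p0) (fun k hk => by have := h.cp k hk; omega) _ ?_
    rintro ⟨a, b⟩ hab
    simp only [FB, Finset.mem_filter, Finset.mem_product, Finset.mem_range] at hab
    exact ⟨hab.1.1, hab.1.2, hab.2.1, hab.2.2⟩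
  let Sp : Finset ℕ := (Finset.range D.K).filter (fun k => ∃ k' < D.K, k' ≠ k ∧ D.Amb w k k')
  have hSp : Sp ⊆ PE.image Prod.fst ∪ ((FB e1).image Prod.snd ∪ (FB e2).image Prod.snd) := by
    intro k hk
    simp only [Sp, Finset.mem_filter, Finset.mem_range] at hk
    obtain ⟨hk, k', hk', hne, P2, X', hl, hX', hp, hbad⟩ := hk
    have a1 := h.cp k hk
    have a2 := h.cp k' hk'
    have hX'l : D.z ≤ X'.length := hX'.1
    rw [Finset.mem_union, Finset.mem_union]
    rcases hbad with ⟨x, hx1, hx2, hx3⟩ | hB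
    · left
      rw [Finset.mem_image]
      refine ⟨(k, k'), ?_, rfl⟩
      simp only [PE, Finset.mem_filter, Finset.mem_product, Finset.mem_range]
      refine ⟨⟨hk, hk'⟩, hne.symm, D.c k + (x - D.c k'),
        wl_back (by omega) hl hp (by omega) hx3, ?_, ?_⟩
      · have : D.c k' ≤ x := by omega
        push_cast [Nat.cast_sub this]
        omega
      · have : D.c k' ≤ x := by omega
        push_cast [Nat.cast_sub this]
        omega
    · right
      rcases hend hk hk' hl hX' hp with he | he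
      · left
        rw [Finset.mem_image]
        refine ⟨(k', k), ?_, rfl⟩
        simp only [FB, Finset.mem_filter, Finset.mem_product, Finset.mem_range]
        refine ⟨⟨hk', hk⟩, hne, ?_⟩
        have e3 : e1 - D.p0 + D.c k' - D.c k = X'.length - D.p0 := by omega
        rw [e3]; exact hB
      · right
        rw [Finset.mem_image]
        refine ⟨(k', k), ?_, rfl⟩
        simp only [FB, Finset.mem_filter, Finset.mem_product, Finset.mem_range]
        refine ⟨⟨hk', hk⟩, hne, ?_⟩
        have e3 : e2 - D.p0 + D.c k' - D.c k = X'.length - D.p0 := by omega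
        rw [e3]; exact hB
  have hSpc : Sp.card ≤ 2 * D.C0 + 1 := by
    have i1 := Finset.card_le_card hSp
    have i2 := Finset.card_union_le (PE.image Prod.fst)
      ((FB e1).image Prod.snd ∪ (FB e2).image Prod.snd)
    have i3 := Finset.card_union_le ((FB e1).image Prod.snd) ((FB e2).image Prod.snd)
    have i4 : (PE.image Prod.fst).card ≤ PE.card := Finset.card_image_le
    have i5 : ((FB e1).image Prod.snd).card ≤ (FB e1).card := Finset.card_image_le
    have i6 : ((FB e2).image Prod.snd).card ≤ (FB e2).card := Finset.card_image_le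
    have i7 := hFB e1 he1.1
    have i8 := hFB e2 (by omega)
    omega
  -- choose the place
  have htl : (X.take D.p0).length = D.p0 := by rw [List.length_take]; omega
  obtain ⟨I, hI, hI2⟩ := h.cmp2 (X.take D.p0) v htl
  obtain ⟨k, hkI, hkS⟩ := Finset.exists_mem_notMem_of_card_lt_card (s := Sp) (t := I) (by omega)
  obtain ⟨hk, hlam, hrho⟩ := hI2 k hkI
  obtain ⟨u, hu⟩ := Option.isSome_iff_exists.1 hrho
  have a1 := h.cp k hk
  have htake : w.take (D.c k) = (X.take D.p0).take (D.c k) := by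
    rw [List.take_take, Nat.min_eq_left a1, hw, List.take_append_of_le_length (by omega)]
  have hdrop : w.drop (D.c k) = X.drop (D.c k) ++ X2 := by
    rw [hw, List.drop_append_of_le_length (by omega)]
  have hlenP : (w.take (D.c k)).length = D.c k := by rw [List.length_take]; omega
  have hLP2 : D.LP2 (w.take (D.c k)) v := ⟨k, hk, hlenP, by rw [htake]; exact hlam⟩
  refine ⟨w.take (D.c k), w.drop (D.c k), (List.take_append_drop _ _).symm, by omega, hLP2, ?_⟩
  rw [R2_isSome]
  refine ⟨D.T (D.act u (D.ph (X.drop D.p0)) + D.nu1 (X.drop D.p0)) X2, ?_,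
    ⟨_, _, hLP2, ?_⟩, ?_⟩
  · intro hc
    have := congrArg List.length hc
    rw [List.length_drop] at this
    simp at this
    omega
  · intro X'' hX'' hp P' Q' hPQ hle hL hR
    rw [List.take_append_drop] at hp
    have := xx_prefix hX'' hX hp hXw
    subst this
    exact hno ⟨P', Q', hPQ, hL, hR⟩
  · intro P2 v2 hLP hHyp
    obtain ⟨k2, hk2, hlen2, hlam2⟩ := hLP
    by_cases hkk : k2 = k
    · subst hkk
      refine ⟨X.drop (D.c k2), X2, hdrop, ?_, ?_, hX2, ?_⟩
      · intro hc
        have := congrArg List.length hc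
        rw [List.length_drop] at this
        simp at this
        omega
      · have hX' : X.take (D.c k2) ++ X.drop (D.c k2) ∈ XX D.n D.z D.S := by
          rw [List.take_append_drop]; exact hX
        have hl3 : (X.take (D.c k2)).length = D.c k2 := by rw [List.length_take]; omega
        rw [mem_iff _ _ (by omega), hl3] at hX'
        show P2 ++ X.drop (D.c k2) ∈ XX D.n D.z D.S
        rw [mem_iff _ _ (by omega), hlen2]
        exact hX'
      · congr 1
        unfold T
        have e1' : (P2 ++ X.drop (D.c k2)).take D.p0 = P2 ++ (X.take D.p0).drop (D.c k2) := by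
          rw [List.take_append, List.take_of_length_le (by omega), hlen2, List.drop_take]
        have e2' : (P2 ++ X.drop (D.c k2)).drop D.p0 = X.drop D.p0 := by
          rw [List.drop_append, List.drop_eq_nil_of_le (by omega), hlen2, List.drop_drop,
            List.nil_append]
          congr 1
          omega
        rw [e1', e2', ← h.snd2 k2 hk2 P2 _ v2 u hlen2 hlam2 hu]
    · exfalso
      -- the block of the candidate
      have a2 := h.cp k2 hk2
      have hwall : Wl D.n D.S w (w.length - D.n) := by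
        rw [hwl]
        have e3 : X.length + X2.length - D.n = X.length + (X2.length - D.n) := by omega
        rw [e3, hw, wl_append]
        exact hX2.2.1
      have hQl : (w.drop (D.c k)).length = w.length - D.c k := List.length_drop
      have hwall2 : Wl D.n D.S (P2 ++ w.drop (D.c k)) (D.c k2 + (w.length - D.c k) - D.n) := by
        rw [wl_append' _ _ _ (by omega), hlen2, wl_drop (by omega)]
        have e3 : D.c k + (D.c k2 + (w.length - D.c k) - D.n - D.c k2) = w.length - D.n := by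
          omega
        rw [e3]; exact hwall
      obtain ⟨X', hX', hp⟩ := exists_block (n := D.n) (z := D.z) (S := D.S) (by omega)
        (by omega : D.z ≤ D.c k2 + (w.length - D.c k)) hwall2
      have hnb : ¬ D.BadX X' := by
        intro hb
        apply hkS
        simp only [Sp, Finset.mem_filter, Finset.mem_range]
        exact ⟨hk, k2, hk2, hkk, P2, X', hlen2, hX', hp, hb⟩
      obtain ⟨P', Q', hPQ, hL, hR⟩ := h.c1 hX' hnb v2
      exact hHyp X' hX' hp P' Q' hPQ (by have := hL.1; omega) hL hR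

/-- (cc) -/
theorem Ok.cc (h : D.Ok) : ∀ X ∈ D.B, ∀ X2 ∈ D.B, ∀ v : V,
    (∃ P Q, X = P ++ Q ∧ D.LP1 P v ∧ (D.R1 Q).isSome) ∨
    (∃ P Q, X ++ X2 = P ++ Q ∧ P.length < X.length ∧ D.LP2 P v ∧ (D.R2 Q).isSome) := by
  intro X hX X2 hX2 v
  by_cases hc : ∃ P Q, X = P ++ Q ∧ D.LP1 P v ∧ (D.R1 Q).isSome
  · exact Or.inl hc
  · exact Or.inr (h.cc2 hX hX2 v hc)

end Dt

end Crest.Agent.R320.Asm_501
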