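import Crest.Agent.R320.Asm2_515

/-!
# Row 320: assembly on all words, the theorem (helper515)
-/

set_option autoImplicit false

namespace Crest.Agent.R320.Asm3_515

open Crest.RegLang Crest.Agent.R320.Hk_851 Crest.Agent.R320.FewWalls_228 Crest.Agent.R320.Wd_515
open Crest.Agent.R320.Blk467 Crest.Agent.R320.Asm_515 Crest.Agent.R320.Asm2_515

universe u

variable {α S V : Type u} [Monoid S] [AddCommGroup V] {p : Par α S V}

theorem cls_drop (M0 La m : ℕ) (X X' : List α) (hm : m ≤ X.length)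
    (hm' : m ≤ X'.length) (h1 : X.length % M0 = X'.length % M0)
    (h2 : X.take (m + La) = X'.take (m + La))
    (h3 : p.ph (X.drop (m + La)) = p.ph (X'.drop (m + La))) :
    X.take m = X'.take m ∧ (X.drop m).take La = (X'.drop m).take La ∧
    p.ph ((X.drop m).drop La) = p.ph ((X'.drop m).drop La) ∧
    (X.drop m).length % M0 = (X'.drop m).length % M0 ∧
    p.ph (X.drop m) = p.ph (X'.drop m) := by
  have a1 : X.take m = X'.take m := by
    have := congrArg (List.take m) h2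
    rwa [List.take_take, List.take_take, Nat.min_eq_left (by omega)] at this
  have a2 : (X.drop m).take La = (X'.drop m).take La := by
    have := congrArg (List.drop m) h2
    rw [List.drop_take, List.drop_take] at this
    rwa [Nat.add_sub_cancel_left] at this
  have a3 : p.ph ((X.drop m).drop La) = p.ph ((X'.drop m).drop La) := by
    rw [List.drop_drop, List.drop_drop]; exact h3
  refine ⟨a1, a2, a3, ?_, ?_⟩
  · rw [List.length_drop, List.length_drop]
    obtain ⟨a, ha⟩ : ∃ a, X.length = a + m := ⟨X.length - m, by omega⟩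
    obtain ⟨b, hb⟩ : ∃ b, X'.length = b + m := ⟨X'.length - m, by omega⟩
    rw [ha, hb] at h1 ⊢
    rw [Nat.add_sub_cancel, Nat.add_sub_cancel]
    exact Nat.ModEq.add_right_cancel' m h1
  · rw [← List.take_append_drop La (X.drop m), ← List.take_append_drop La (X'.drop m),
      p.ph_append, p.ph_append, a2, a3]

variable [Finite α] [Finite S] [Finite V]

theorem hl_T (h : Ok p) (v v' : V) : HL 1 (LG fun X => X ∈ p.X 0 ∧ p.T v X = v') := by
  have hz := h.hz
  refine hl_cls h.C (o := 0) (A := p.p0 + p.La) (by omega) (fun X => p.T v X = v') ?_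
  intro Y Y' h1 h2 h3 h4 h5
  obtain ⟨a1, a2, a3, a4, a5⟩ := cls_drop (p := p) p.M0 p.La p.p0 Y Y' (by omega) (by omega)
    h3 h4 h5
  have e : p.T v Y = p.T v Y' := by
    rw [← List.take_append_drop p.p0 Y, ← List.take_append_drop p.p0 Y',
      T_split h _ _ _ (by rw [List.length_take]; omega),
      T_split h _ _ _ (by rw [List.length_take]; omega), a1, a5,
      h.nu_cls (Y.drop p.p0) (Y'.drop p.p0) (by rw [List.length_drop]; omega)
        (by rw [List.length_drop]; omega) a2 a4 a3]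
  rw [e]

theorem hl_B (h : Ok p) {o : ℕ} (ho : o ≤ p.p0) :
    HL 1 (LG fun X => X ∈ p.X o ∧ p.B o X) := by
  have hz := h.hz
  exact hl_BO h.C ho (by omega) p.La (by omega) h.Bd_per

theorem hl_RQ1 (h : Ok p) (b : V) : HL 1 (p.RQ1 b) := by
  have hz := h.hz
  have h1 := (hl_cls h.C (o := p.p0 + p.N1) (A := p.La) (by omega)
    (fun Q => p.rho Q = some b) (by
      intro Y Y' h1 h2 h3 h4 h5
      have e : p.rho Y = p.rho Y' := h.rho_cls Y Y' (by omega) (by omega) h4 h3 h5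
      rw [e])).inf (HL.length_ge (α := α) (k := 1) (p.z - p.p0))
  refine h1.congr fun w => ?_
  constructor
  · rintro ⟨hw1, hw2, hw3⟩
    exact ⟨⟨hw1, hw3⟩, show p.z - p.p0 ≤ w.length by omega⟩
  · rintro ⟨⟨hw1, hw3⟩, hw2⟩
    have hw2' : p.z - p.p0 ≤ w.length := hw2
    exact ⟨hw1, by omega, hw3⟩

theorem hl_LP1 (h : Ok p) (v : V) : HL 1 (p.LP1 v) := by
  refine HL.finite ((List.finite_length_le α (p.p0 + p.N1)).subset fun P hP => ?_)
  have := h.lam_len _ _ hP.2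
  rw [List.length_drop] at this
  show P.length ≤ _
  omega

theorem hl_LP2 (h : Ok p) (v : V) : HL 1 (p.LP2 v) := by
  refine HL.finite ((List.finite_length_le α p.p0).subset fun P hP => ?_)
  obtain ⟨k, hk, hl, _⟩ := hP
  show P.length ≤ _
  rw [hl]
  exact cle h hk

theorem hl_VK (h : Ok p) {k : ℕ} (hk : k < p.K) (b1 : V) :
    HL 1 (LG fun Q => Q ∈ p.X (p.c k) ∧ p.VK k Q b1) := by
  have hz := h.hz
  have hc := cle h hk
  refine hl_cls h.C (o := p.c k) (A := (p.p0 - p.c k) + p.La) (by omega)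
    (fun Q => p.VK k Q b1) ?_
  intro Y Y' h1 h2 h3 h4 h5
  obtain ⟨a1, a2, a3, a4, a5⟩ := cls_drop (p := p) p.M0 p.La (p.p0 - p.c k) Y Y' (by omega)
    (by omega) h3 h4 h5
  unfold Par.VK
  rw [a1, a5, h.nu_cls (Y.drop (p.p0 - p.c k)) (Y'.drop (p.p0 - p.c k))
    (by rw [List.length_drop]; omega) (by rw [List.length_drop]; omega) a2 a4 a3]

theorem hl_RQ2 (h : Ok p) (b : V) : HL 1 (p.RQ2 b) := by
  have hone : ∀ (k : Fin p.K) (b1 : V), HL 1
      ((LG (fun Q => Q ∈ p.X (p.c k) ∧ p.B (p.c k) Q) ⊓ LG (fun Q => Q ∈ p.X (p.c k) ∧ p.VK k Q b1)) *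
        LG (fun X => X ∈ p.X 0 ∧ p.T b1 X = b)) := fun k b1 =>
    ((hl_B h (cle h k.2)).inf (hl_VK h k.2 b1)).mul (hl_T h b1 b)
  have huni : ∀ k : Fin p.K, HL 1 (LG fun Q => ∀ k' : Fin p.K, Q ∈ (if k' = k then ⊤ else
      (LG (fun Q => Q ∈ p.X (p.c k') ∧ p.B (p.c k') Q) * ⊤)ᶜ : Language α)) := fun k =>
    HL.iInter fun k' => by
      split_ifs with hkk
      · exact HL.top
      · exact ((hl_B h (cle h k'.2)).mul HL.top).compl
  have hall := HL.iUnion (k := 1) (ι := Fin p.K) (L := fun k =>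
    (LG fun Q => ∃ b1 : V, Q ∈ (LG (fun Q => Q ∈ p.X (p.c k) ∧ p.B (p.c k) Q) ⊓
      LG (fun Q => Q ∈ p.X (p.c k) ∧ p.VK k Q b1)) * LG (fun X => X ∈ p.X 0 ∧ p.T b1 X = b)) ⊓
    (LG fun Q => ∀ k' : Fin p.K, Q ∈ (if k' = k then ⊤ else
      (LG (fun Q => Q ∈ p.X (p.c k') ∧ p.B (p.c k') Q) * ⊤)ᶜ : Language α)))
    (fun k => (HL.iUnion fun b1 => hone k b1).inf (huni k))
  refine hall.congr fun w => ?_
  constructor
  · rintro ⟨k, hk, ⟨b1, Q1, X2, rfl, hA, hB, hX⟩, hu⟩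
    refine ⟨⟨k, hk⟩, ⟨b1, Language.mem_mul.2 ⟨Q1, ⟨hA, hB⟩, X2, hX, rfl⟩⟩, fun k' => ?_⟩
    split_ifs with hkk
    · trivial
    · intro hmem
      obtain ⟨Q', hQ', Y, _, e⟩ := Language.mem_mul.1 hmem
      refine hu k' k'.2 (fun hh => hkk (Fin.ext hh)) Q' hQ' ?_
      rw [← e]
      exact List.prefix_append _ _
  · rintro ⟨k, ⟨b1, hm⟩, hu⟩
    obtain ⟨Q1, ⟨hA, hB⟩, X2, hX, rfl⟩ := Language.mem_mul.1 hm
    refine ⟨k, k.2, ⟨b1, Q1, X2, rfl, hA, hB, hX⟩, ?_⟩
    intro k' hk' hne Q' hQ' hpre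
    have := hu ⟨k', hk'⟩
    rw [if_neg (fun hh => hne (congrArg Fin.val hh))] at this
    apply this
    obtain ⟨Y, hY⟩ := hpre
    exact Language.mem_mul.2 ⟨Q', hQ', Y, trivial, hY⟩

/-- **assembly** -/
theorem asm (h : Ok p) (hone : ∀ v, p.act v 1 = v)
    (hfaith : ∀ s t, (∀ v, p.act v s = p.act v t) → s = t) (s : S) :
    HL 3 ({w | (w.map p.φ).prod = s} : Language α) := by
  have hz := h.hz
  have hB : HL 1 (p.Bad : Language α) := hl_B h (o := 0) (Nat.zero_le _)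
  refine Top5_566.top5 p.act h.hadd hone h.hmul hfaith p.φ p.nu p.T (fun v X => rfl) (p.X 0)
    (pcode h) p.Bad (fun X hX => hX.1) p.LP1 p.RQ1 p.LP2 p.RQ2 (fun v v' P Q hP hQ => s1 h v v' P Q hP hQ)
    (fun X hX hXB v => c1 h X hX hXB v) (fun v v' P Q R hP hQ hS => s2 h v v' P Q R hP hQ hS)
    (fun X hX X' hX' v => c2 h X hX X' hX' v) hB ?_ (fun v => (hl_LP1 h v).mono (by omega))
    (fun v => (hl_RQ1 h v).mono (by omega)) (hl_LP2 h) (hl_RQ2 h) ?_ s
  · intro v v'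
    refine (hB.inf (hl_T h v v')).congr fun w => ?_
    constructor
    · rintro ⟨h1, h2⟩; exact ⟨h1, h1.1, h2⟩
    · rintro ⟨h1, _, h2⟩; exact ⟨h1, h2⟩
  · intro s
    exact (hl_rest h.C s).mono (by omega)

end Crest.Agent.R320.Asm3_515
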