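import Crest.Agent.R320.Hk1_851
import Crest.Agent.R320.Pump_360
import Mathlib.Computability.MyhillNerode

/-!
# Row 320: heights are free for languages of bounded pieces (helper819)

(a) `HL.regular`: every language of generalized star height `≤ k` is regular (closure of the
regular languages under product and star by Myhill-Nerode).
(b) `HL1_of_pieces`: a regular language all of whose words are products of at most `R` pieces
`f ++ x^k` (`|f|, |x| ≤ B`) has generalized star height at most one.
-/

set_option autoImplicit false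

namespace Crest.Agent.R320.Reg_819

open Crest.RegLang Crest.Agent.R320.Hk_851 Crest.Agent.R320.Pump_360

universe u

variable {α : Type u}

theorem reg_zero : (0 : Language α).IsRegular := by
  refine .of_finite_range_leftQuotient ((Set.finite_singleton (0 : Language α)).subset ?_)
  rintro _ ⟨w, rfl⟩
  exact Set.mem_singleton_iff.2 rfl

theorem reg_one : (1 : Language α).IsRegular := by
  refine .of_finite_range_leftQuotient
    (((Set.finite_singleton (0 : Language α)).insert (1 : Language α)).subset ?_)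
  rintro _ ⟨w, rfl⟩
  cases w with
  | nil => exact Set.mem_insert_iff.2 (Or.inl rfl)
  | cons a w =>
    refine Set.mem_insert_iff.2 (Or.inr (Set.mem_singleton_iff.2 ?_))
    refine Set.ext fun y => ⟨fun h => ?_, fun h => h.elim⟩
    cases h

theorem reg_char (a : α) : ({[a]} : Language α).IsRegular := by
  refine .of_finite_range_leftQuotient
    ((((Set.finite_singleton (0 : Language α)).insert (1 : Language α)).insert
      ({[a]} : Language α)).subset ?_)
  rintro _ ⟨w, rfl⟩
  cases w with
  | nil => exact Set.mem_insert_iff.2 (Or.inl rfl)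
  | cons b w =>
    refine Set.mem_insert_iff.2 (Or.inr ?_)
    by_cases h : b = a ∧ w = []
    · obtain ⟨rfl, rfl⟩ := h
      refine Set.mem_insert_iff.2 (Or.inl ?_)
      refine Set.ext fun y => ⟨fun h => ?_, fun h => ?_⟩
      · have h2 : [b] ++ y = [b] := h
        have : y = [] := by simpa using h2
        exact this
      · have : y = [] := h
        subst this
        exact (rfl : [b] ++ [] = [b])
    · refine Set.mem_insert_iff.2 (Or.inr (Set.mem_singleton_iff.2 ?_))
      refine Set.ext fun y => ⟨fun h' => ?_, fun h' => h'.elim⟩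
      have h2 : (b :: w) ++ y = [a] := h'
      rw [List.cons_append, List.cons.injEq, List.append_eq_nil_iff] at h2
      exact (h ⟨h2.1, h2.2.1⟩).elim

theorem reg_mul {L M : Language α} (hL : L.IsRegular) (hM : M.IsRegular) :
    (L * M).IsRegular := by
  refine .of_finite_range_leftQuotient ?_
  have h1 := hL.finite_range_leftQuotient
  have h2 := hM.finite_range_leftQuotient
  let f : Language α × Set (Language α) → Language α := fun p => {y | y ∈ p.1 * M ∨ ∃ Y ∈ p.2, y ∈ Y}
  refine ((h1.prod h2.finite_subsets).image f).subset ?_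
  rintro _ ⟨w, rfl⟩
  refine ⟨(L.leftQuotient w, {Y | ∃ a b, a ++ b = w ∧ a ∈ L ∧ Y = M.leftQuotient b}),
    ⟨⟨w, rfl⟩, ?_⟩, ?_⟩
  · rintro _ ⟨a, b, -, -, rfl⟩
    exact ⟨b, rfl⟩
  · refine Set.ext fun y => ⟨?_, ?_⟩
    · rintro (h | ⟨_, ⟨a, b, rfl, ha, rfl⟩, hy⟩)
      · obtain ⟨a, ha, b, hb, rfl⟩ := Language.mem_mul.1 h
        refine Language.mem_mul.2 ⟨w ++ a, ha, b, hb, ?_⟩
        simp
      · refine Language.mem_mul.2 ⟨a, ha, b ++ y, hy, ?_⟩
        simp
    · intro h
      obtain ⟨a, ha, b, hb, hab⟩ := Language.mem_mul.1 h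
      rcases List.append_eq_append_iff.1 hab with ⟨c, h3, h4⟩ | ⟨c, h3, h4⟩
      · refine Or.inr ⟨_, ⟨a, c, h3.symm, ha, rfl⟩, ?_⟩
        show c ++ y ∈ M
        rw [← h4]; exact hb
      · refine Or.inl (Language.mem_mul.2 ⟨c, ?_, b, hb, h4.symm⟩)
        show w ++ c ∈ L
        rw [← h3]; exact ha

theorem star_split {L : Language α} (S : List (List α)) : ∀ (w y : List α), w ≠ [] →
    S.flatten = w ++ y → (∀ s ∈ S, s ∈ L) →
    ∃ u v y1 y2, u ++ v = w ∧ u ∈ KStar.kstar L ∧ v ++ y1 ∈ L ∧ y2 ∈ KStar.kstar L ∧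
      y = y1 ++ y2 := by
  induction S with
  | nil =>
    intro w y hw h _
    exact (hw (List.append_eq_nil_iff.1 h.symm).1).elim
  | cons s S ih =>
    intro w y hw h hS
    have hs : s ∈ L := hS s List.mem_cons_self
    have hS' : ∀ t ∈ S, t ∈ L := fun t ht => hS t (List.mem_cons_of_mem _ ht)
    rw [List.flatten_cons] at h
    rcases List.append_eq_append_iff.1 h with ⟨c, h3, h4⟩ | ⟨c, h3, h4⟩
    · -- w = s ++ c, S.flatten = c ++ y
      by_cases hc : c = []
      · subst hc
        rw [List.append_nil] at h3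
        subst h3
        exact ⟨[], w, [], y, rfl, Language.nil_mem_kstar _, by rwa [List.append_nil],
          Language.mem_kstar.2 ⟨S, by rw [h4]; rfl, hS'⟩, rfl⟩
      · obtain ⟨u, v, y1, y2, h5, h6, h7, h8, h9⟩ := ih c y hc h4 hS'
        refine ⟨s ++ u, v, y1, y2, by rw [List.append_assoc, h5, h3], ?_, h7, h8, h9⟩
        obtain ⟨U, rfl, hU⟩ := Language.mem_kstar.1 h6
        exact Language.mem_kstar.2 ⟨s :: U, by rw [List.flatten_cons], fun t ht => by
          rcases List.mem_cons.1 ht with rfl | ht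
          · exact hs
          · exact hU t ht⟩
    · -- s = w ++ c, y = c ++ S.flatten
      exact ⟨[], w, c, S.flatten, rfl, Language.nil_mem_kstar _, by rw [← h3]; exact hs,
        Language.mem_kstar.2 ⟨S, rfl, hS'⟩, h4⟩

theorem reg_star {L : Language α} (hL : L.IsRegular) : (KStar.kstar L).IsRegular := by
  refine .of_finite_range_leftQuotient ?_
  have h1 := hL.finite_range_leftQuotient
  let f : Set (Language α) → Language α :=
    fun p => {y | ∃ y1 y2, y = y1 ++ y2 ∧ (∃ Y ∈ p, y1 ∈ Y) ∧ y2 ∈ KStar.kstar L}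
  refine (((h1.finite_subsets).image f).insert (KStar.kstar L)).subset ?_
  rintro _ ⟨w, rfl⟩
  by_cases hw : w = []
  · subst hw
    exact Set.mem_insert_iff.2 (Or.inl rfl)
  refine Set.mem_insert_iff.2 (Or.inr
    ⟨{Y | ∃ u v, u ++ v = w ∧ u ∈ KStar.kstar L ∧ Y = L.leftQuotient v}, ?_, ?_⟩)
  · rintro _ ⟨u, v, -, -, rfl⟩
    exact ⟨v, rfl⟩
  · refine Set.ext fun y => ⟨?_, ?_⟩
    · rintro ⟨y1, y2, rfl, ⟨_, ⟨u, v, rfl, hu, rfl⟩, hy1⟩, hy2⟩
      have hy1' : v ++ y1 ∈ L := hy1
      obtain ⟨U, rfl, hU⟩ := Language.mem_kstar.1 hu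
      obtain ⟨V, rfl, hV⟩ := Language.mem_kstar.1 hy2
      show (U.flatten ++ v) ++ (y1 ++ V.flatten) ∈ KStar.kstar L
      refine Language.mem_kstar.2 ⟨U ++ (v ++ y1) :: V, by simp, fun t ht => ?_⟩
      rcases List.mem_append.1 ht with ht | ht
      · exact hU t ht
      · rcases List.mem_cons.1 ht with rfl | ht
        · exact hy1'
        · exact hV t ht
    · intro h
      obtain ⟨S, hS, hS2⟩ := Language.mem_kstar.1 (show w ++ y ∈ KStar.kstar L from h)
      obtain ⟨u, v, y1, y2, h5, h6, h7, h8, h9⟩ := star_split S w y hw hS.symm hS2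
      exact ⟨y1, y2, h9, ⟨_, ⟨u, v, h5, h6, rfl⟩, h7⟩, h8⟩

theorem lang_regular : ∀ e : GRegExp α, e.lang.IsRegular
  | .zero => reg_zero
  | .eps => reg_one
  | .char a => reg_char a
  | .union P Q => (lang_regular P).add (lang_regular Q)
  | .cat P Q => reg_mul (lang_regular P) (lang_regular Q)
  | .not P => (lang_regular P).compl
  | .star P => reg_star (lang_regular P)

/-- every language of generalized star height `≤ k` is regular -/
theorem HL.regular {k : ℕ} {L : Language α} (h : HL k L) : L.IsRegular := by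
  obtain ⟨e, -, rfl⟩ := h
  exact lang_regular e

/-- uniform eventual periodicity of iterates on a finite type -/
theorem exists_period (σ : Type*) [Finite σ] : ∃ E M : ℕ, 0 < M ∧
    ∀ (f : σ → σ) (k : ℕ), E ≤ k → f^[k + M] = f^[k] := by
  classical
  haveI := Fintype.ofFinite (σ → σ)
  have h : ∀ f : σ → σ, ∃ e m : ℕ, 0 < m ∧ f^[e + m] = f^[e] := by
    intro f
    obtain ⟨a, b, hab, h⟩ := Finite.exists_ne_map_eq_of_infinite (fun k : ℕ => f^[k])
    rcases lt_or_gt_of_ne hab with h1 | h1
    · exact ⟨a, b - a, by omega, by rw [show a + (b - a) = b by omega]; exact h.symm⟩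
    · exact ⟨b, a - b, by omega, by rw [show b + (a - b) = a by omega]; exact h⟩
  choose e m hm he using h
  have step : ∀ (f : σ → σ) (k c : ℕ), e f ≤ k → f^[k + c * m f] = f^[k] := by
    intro f k c hk
    induction c with
    | zero => simp
    | succ c ih =>
      have h1 : ∀ j, e f ≤ j → f^[j + m f] = f^[j] := by
        intro j hj
        obtain ⟨t, rfl⟩ := Nat.exists_eq_add_of_le hj
        rw [show e f + t + m f = t + (e f + m f) by omega, Function.iterate_add, he f,
          ← Function.iterate_add, Nat.add_comm t]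
      rw [show k + (c + 1) * m f = (k + c * m f) + m f by ring, h1 _ (by omega), ih]
  refine ⟨∑ f, e f, ∏ f, m f, Finset.prod_pos fun f _ => hm f, fun f k hk => ?_⟩
  obtain ⟨c, hc⟩ := Finset.dvd_prod_of_mem m (Finset.mem_univ f)
  rw [hc, Nat.mul_comm]
  exact step f k c (le_trans (Finset.single_le_sum (fun _ _ => Nat.zero_le _)
    (Finset.mem_univ f)) hk)

theorem evalFrom_pw {σ : Type*} (D : DFA α σ) (x : List α) (k : ℕ) (s : σ) :
    D.evalFrom s (pw x k) = (fun t => D.evalFrom t x)^[k] s := by
  induction k generalizing s with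
  | zero => rfl
  | succ k ih =>
    rw [pw_succ, DFA.evalFrom_of_append, ih, Function.iterate_succ_apply]

/-- regular languages are pump-invariant, with uniform constants -/
theorem regular_pump {L : Language α} (hL : L.IsRegular) : ∃ E M : ℕ, 0 < M ∧
    ∀ (u x v : List α) (k : ℕ), E ≤ k →
      (u ++ pw x k ++ v ∈ L ↔ u ++ pw x (k + M) ++ v ∈ L) := by
  obtain ⟨σ, hσ, D, rfl⟩ := hL
  obtain ⟨E, M, hM, h⟩ := exists_period σ
  refine ⟨E, M, hM, fun u x v k hk => ?_⟩
  rw [DFA.mem_accepts, DFA.mem_accepts]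
  unfold DFA.eval
  rw [DFA.evalFrom_of_append, DFA.evalFrom_of_append, DFA.evalFrom_of_append,
    DFA.evalFrom_of_append, evalFrom_pw, evalFrom_pw, h _ k hk]

/-- **a regular language of bounded pieces has generalized star height at most one** -/
theorem HL1_of_pieces [Finite α] {L : Language α} (hL : L.IsRegular) (R B : ℕ)
    (hpieces : ∀ w ∈ L, ∃ l : List (List α × List α × ℕ), l.length ≤ R ∧
      (∀ t ∈ l, t.1.length ≤ B ∧ t.2.1.length ≤ B) ∧ w = val l) : HL 1 L := by
  obtain ⟨E, M, hM, h⟩ := regular_pump hL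
  exact pump R B E M hM hpieces fun u x v k _ hk => h u x v k hk

/-- the same with any height as input -/
theorem HL.down_of_pieces [Finite α] {k : ℕ} {L : Language α} (hL : HL k L) (R B : ℕ)
    (hpieces : ∀ w ∈ L, ∃ l : List (List α × List α × ℕ), l.length ≤ R ∧
      (∀ t ∈ l, t.1.length ≤ B ∧ t.2.1.length ≤ B) ∧ w = val l) : HL 1 L :=
  HL1_of_pieces (HL.regular hL) R B hpieces

end Crest.Agent.R320.Reg_819
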