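import Crest.Agent.R320.Asm2_618
import Crest.Agent.R320.RegBd_11
import Crest.Agent.R320.Reg_819

/-!
# Row 320: concrete instance of `top5`, part 3: the height 1 facts and the fibre theorem (helper618)
-/

set_option autoImplicit false

namespace Crest.Agent.R320.Asm618

open Crest.Agent.R320.Core1_922 Crest.Agent.R320.Hk_851

variable {α S V : Type}

theorem reg_of_step {F : Type} [Finite F] (κ : List α → F) (g : F → α → F)
    (h : ∀ u a, κ (u ++ [a]) = g (κ u) a) (A : Set F) :
    Language.IsRegular ({w | κ w ∈ A} : Language α) := by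
  classical
  haveI := Fintype.ofFinite F
  let M : DFA α F := ⟨g, κ [], A⟩
  have key : ∀ w, M.eval w = κ w := by
    intro w
    induction w using List.reverseRecOn with
    | nil => rfl
    | append_singleton u a ih => rw [DFA.eval_append_singleton, ih, h]
  refine ⟨F, inferInstance, M, ?_⟩
  ext w
  show M.eval w ∈ M.accept ↔ κ w ∈ A
  rw [key]

variable [Monoid S]

/-- the finite information about a word -/
def kap (f : α → S) (B0 Md : ℕ) (w : List α) : {l : List α // l.length ≤ B0} × ZMod Md × S :=
  (⟨w.take B0, by rw [List.length_take]; exact min_le_left _ _⟩, (w.length : ZMod Md),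
    ((w.drop B0).map f).prod)

theorem reg_of_kap [Finite α] [Finite S] (f : α → S) (B0 Md : ℕ) (hMd : 0 < Md)
    (Pd : List α → Prop) (h : ∀ w w', kap f B0 Md w = kap f B0 Md w' → Pd w → Pd w') :
    Language.IsRegular ({w | Pd w} : Language α) := by
  classical
  haveI : NeZero Md := ⟨hMd.ne'⟩
  haveI : Finite {l : List α // l.length ≤ B0} := (List.finite_length_le α B0).to_subtype
  have h1 := reg_of_step (kap f B0 Md)
    (fun x a => (⟨(x.1.1 ++ [a]).take B0, by rw [List.length_take]; exact min_le_left _ _⟩,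
      x.2.1 + 1, if x.1.1.length < B0 then x.2.2 else x.2.2 * f a))
    (by
      intro u a
      unfold kap
      refine Prod.ext (Subtype.ext ?_) (Prod.ext ?_ ?_)
      · show (u ++ [a]).take B0 = (u.take B0 ++ [a]).take B0
        by_cases hu : u.length < B0
        · rw [List.take_of_length_le (l := u) hu.le]
        · rw [List.take_append_of_le_length (by omega),
            List.take_append_of_le_length (by rw [List.length_take]; omega), List.take_take,
            min_self]
      · show ((u ++ [a]).length : ZMod Md) = (u.length : ZMod Md) + 1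
        simp
      · show (((u ++ [a]).drop B0).map f).prod = if (u.take B0).length < B0 then
          ((u.drop B0).map f).prod else ((u.drop B0).map f).prod * f a
        by_cases hu : u.length < B0
        · rw [if_pos (by rw [List.length_take]; omega), List.drop_of_length_le (by simp; omega),
            List.drop_of_length_le hu.le]
        · rw [if_neg (by rw [List.length_take]; omega), List.drop_append_of_le_length (by omega)]
          simp)
    {x | ∃ w, kap f B0 Md w = x ∧ Pd w}
  have h2 : ({w | Pd w} : Language α) = {w | kap f B0 Md w ∈ {x | ∃ w, kap f B0 Md w = x ∧ Pd w}} := by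
    ext w
    constructor
    · intro hw; exact ⟨w, rfl, hw⟩
    · rintro ⟨w', h3, h4⟩; exact h w' w h3 h4
  rw [h2]
  exact h1

theorem kap_short {f : α → S} {B0 Md : ℕ} {w w' : List α} (h : kap f B0 Md w = kap f B0 Md w')
    (hw : w.length < B0) : w = w' := by
  have h1 : w.take B0 = w'.take B0 := congrArg (fun x => x.1.1) h
  have h2 := congrArg List.length h1
  rw [List.length_take, List.length_take] at h2
  rwa [List.take_of_length_le (by omega), List.take_of_length_le (by omega)] at h1

theorem kap_long {f : α → S} {B0 Md : ℕ} {w w' : List α} (h : kap f B0 Md w = kap f B0 Md w')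
    (hw : B0 ≤ w.length) : B0 ≤ w'.length ∧ w.take B0 = w'.take B0 ∧
      w.length % Md = w'.length % Md ∧ ((w.drop B0).map f).prod = ((w'.drop B0).map f).prod := by
  have h1 : w.take B0 = w'.take B0 := congrArg (fun x => x.1.1) h
  have h2 := congrArg List.length h1
  rw [List.length_take, List.length_take] at h2
  have h3 : ((w.length : ℕ) : ZMod Md) = ((w'.length : ℕ) : ZMod Md) := congrArg (fun x => x.2.1) h
  rw [ZMod.natCast_eq_natCast_iff'] at h3
  exact ⟨by omega, h1, h3, congrArg (fun x => x.2.2) h⟩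

theorem drop_prod {f : α → S} {B0 i : ℕ} {w w' : List α} (hi : i ≤ B0)
    (h1 : w.take B0 = w'.take B0)
    (h2 : ((w.drop B0).map f).prod = ((w'.drop B0).map f).prod) :
    ((w.drop i).map f).prod = ((w'.drop i).map f).prod := by
  have key : ∀ u : List α, ((u.drop i).map f).prod
      = (((u.take B0).drop i).map f).prod * ((u.drop B0).map f).prod := by
    intro u
    have : u.drop i = (u.take B0).drop i ++ u.drop B0 := by
      rcases Nat.lt_or_ge u.length B0 with h | h
      · rw [List.take_of_length_le h.le, List.drop_of_length_le (i := B0) h.le, List.append_nil]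
      · conv_lhs => rw [← List.take_append_drop B0 u]
        rw [List.drop_append_of_le_length (by rw [List.length_take]; omega)]
    rw [this, List.map_append, List.prod_append]
  rw [key w, key w', h1, h2]

variable [AddCommGroup V]

/-- the finite state facts about the gadget and the pieces of wall-free words -/
structure Fs (D : Dat α S V) where
  Md : ℕ
  hMd : 0 < Md
  fs : ∀ Q Q' : List α, D.B1 ≤ Q.length → D.B1 ≤ Q'.length → Q.take D.B1 = Q'.take D.B1 →
    Q.length % Md = Q'.length % Md →
    ((Q.drop D.B1).map D.f).prod = ((Q'.drop D.B1).map D.f).prod → D.nu1 Q = D.nu1 Q'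
  per : ∀ T, D.B1 ≤ T → (D.BadT (T + Md) ↔ D.BadT T)
  B : ℕ
  pc : ∀ X : List α, (∀ t < X.length, ¬ D.Wo (X.take t)) →
    ∃ (u x v : List α) (k : ℕ), u.length ≤ B ∧ x.length ≤ D.W ∧ v.length ≤ B ∧
      X = u ++ (List.replicate k x).flatten ++ v

namespace Fs

variable {D : Dat α S V} (H : Fs D)

include H

theorem per' : ∀ T T', D.B1 ≤ T → T ≤ T' → T % H.Md = T' % H.Md → (D.BadT T ↔ D.BadT T') := by
  intro T T' h1 h2 h3
  obtain ⟨j, hj⟩ : ∃ j, T' = T + H.Md * j := by
    have := Nat.sub_mod_eq_zero_of_mod_eq h3.symm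
    obtain ⟨j, hj⟩ := Nat.dvd_of_mod_eq_zero this
    exact ⟨j, by omega⟩
  subst hj
  clear h2 h3
  induction j with
  | zero => simp
  | succ j ih =>
    rw [ih, Nat.mul_succ, ← Nat.add_assoc]
    exact (H.per _ (by omega)).symm

theorem per'' : ∀ T T', D.B1 ≤ T → D.B1 ≤ T' → T % H.Md = T' % H.Md → (D.BadT T ↔ D.BadT T') := by
  intro T T' h1 h2 h3
  rcases le_total T T' with h | h
  · exact H.per' T T' h1 h h3
  · exact (H.per' T' T h2 h h3.symm).symm

/-- window -/
def B0 (D : Dat α S V) : ℕ := D.z + D.N1 + D.B1 + D.p0 + 1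

omit H in
theorem mod_sub {a b m i : ℕ} (h : a % m = b % m) (ha : i ≤ a) (hb : i ≤ b) :
    (a - i) % m = (b - i) % m := by
  have h1 : a ≡ b [MOD m] := h
  have h2 : (a - i) + i ≡ (b - i) + i [MOD m] := by
    rw [Nat.sub_add_cancel ha, Nat.sub_add_cancel hb]; exact h1
  exact Nat.ModEq.add_right_cancel' i h2

theorem T_kap (x : V) : ∀ w w', kap D.f (B0 D) H.Md w = kap D.f (B0 D) H.Md w' → D.T x w = D.T x w' := by
  intro w w' h
  rcases Nat.lt_or_ge w.length (B0 D) with hw | hw
  · rw [kap_short h hw]
  · obtain ⟨h1, h2, h3, h4⟩ := kap_long h hw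
    have hB0 : (B0 D) = D.z + D.N1 + D.B1 + D.p0 + 1 := rfl
    unfold Dat.T Dat.nu
    have e0 := drop_prod (i := 0) (Nat.zero_le _) h2 h4
    rw [List.drop_zero, List.drop_zero] at e0
    have e1 := drop_prod (i := D.p0) (by omega) h2 h4
    have e2 : w.take D.p0 = w'.take D.p0 := by
      have := congrArg (List.take D.p0) h2
      rwa [List.take_take, List.take_take, min_eq_left (by omega)] at this
    have e3 : D.nu1 (w.drop D.p0) = D.nu1 (w'.drop D.p0) := by
      refine H.fs _ _ (by rw [List.length_drop]; omega) (by rw [List.length_drop]; omega) ?_ ?_ ?_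
      · have := congrArg (fun l => (List.take (D.p0 + D.B1) l).drop D.p0) h2
        simp only [List.take_take] at this
        rw [min_eq_left (by omega), List.drop_take, List.drop_take] at this
        rwa [Nat.add_sub_cancel_left] at this
      · rw [List.length_drop, List.length_drop]
        exact mod_sub h3 (by omega) (by omega)
      · rw [List.drop_drop, List.drop_drop]
        exact drop_prod (by omega) h2 h4
    rw [e0, e1, e2, e3]

theorem Bad_kap : ∀ w w', kap D.f (B0 D) H.Md w = kap D.f (B0 D) H.Md w' →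
    (D.E w ∨ D.BadT (w.length - D.p0)) → (D.E w' ∨ D.BadT (w'.length - D.p0)) := by
  intro w w' h hw
  rcases Nat.lt_or_ge w.length (B0 D) with hl | hl
  · rwa [← kap_short h hl]
  · obtain ⟨h1, h2, h3, h4⟩ := kap_long h hl
    have hB0 : (B0 D) = D.z + D.N1 + D.B1 + D.p0 + 1 := rfl
    rcases hw with ⟨t, t1, t2, t3, t4⟩ | hw
    · left
      refine ⟨t, t1, t2, by omega, ?_⟩
      have := congrArg (List.take t) h2
      rw [List.take_take, List.take_take, min_eq_left (by omega)] at this
      rwa [← this]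
    · right
      exact (H.per'' _ _ (by omega) (by omega) (mod_sub h3 (by omega) (by omega))).1 hw

omit H in
theorem HL_Wo [Finite α] (D : Dat α S V) : HL 1 ({X | D.Wo X} : Language α) := by
  have h1 : HL 1 ({v : List α | v.length = D.n ∧ D.Wo v} : Language α) :=
    HL.finite ((List.finite_length_eq α D.n).subset fun v hv => hv.1)
  refine h1.suffix.congr fun w => ?_
  constructor
  · intro hw
    have hw' : D.Wo w := hw
    have hl := D.hW.len w hw'
    refine ⟨w.drop (w.length - D.n), ⟨by rw [List.length_drop]; omega, ?_⟩, List.drop_suffix _ _⟩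
    rw [← D.hW.app (w.take (w.length - D.n)) _ (by rw [List.length_drop]; omega),
      List.take_append_drop]
    exact hw'
  · rintro ⟨v, ⟨h2, h3⟩, u, rfl⟩
    exact (D.hW.app u v h2.ge).2 h3

omit H in
theorem HL_C [Finite α] (D : Dat α S V) : HL 1 ({X | X ∈ D.C} : Language α) := by
  have h1 := (HL.length_ge (α := α) (k := 1) D.z).setOf_and (HL_Wo D)
  have h2 := (h1.mul (HL.length_ge (α := α) (k := 1) 1)).compl
  refine (h1.inf h2).congr fun w => ?_
  constructor
  · rintro ⟨a, b, c⟩
    refine ⟨⟨a, b⟩, fun hw => ?_⟩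
    obtain ⟨Y, ⟨hY1, hY2⟩, R, hR, rfl⟩ := Language.mem_mul.1 hw
    have hR' : 1 ≤ R.length := hR
    refine c Y.length hY1 (by rw [List.length_append]; omega) ?_
    rw [List.take_left]; exact hY2
  · rintro ⟨⟨a, b⟩, c⟩
    refine ⟨a, b, fun t ht1 ht2 hw => c (Language.mem_mul.2 ⟨w.take t, ⟨?_, hw⟩, w.drop t, ?_,
      List.take_append_drop t w⟩)⟩
    · show D.z ≤ _
      rw [List.length_take]; omega
    · show 1 ≤ _
      rw [List.length_drop]; omega

theorem pieces_of (w : List α) (hw : ∀ t, D.z ≤ t → t < w.length → ¬ D.Wo (w.take t)) :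
    ∃ l : List (List α × List α × ℕ), l.length ≤ 2 ∧
      (∀ t ∈ l, t.1.length ≤ D.z + H.B + D.W ∧ t.2.1.length ≤ D.z + H.B + D.W) ∧
        w = Crest.Agent.R320.Pump_360.val l := by
  obtain ⟨u, x, v, k, h1, h2, h3, h4⟩ := H.pc (w.drop D.z) (by
    intro t ht h
    rw [List.length_drop] at ht
    have hz := D.hz
    have hn := D.hW.len _ h
    refine hw (D.z + t) (by omega) (by omega) ?_
    have e : w.take (D.z + t) = w.take D.z ++ (w.drop D.z).take t := by
      rw [List.take_add]
    rw [e]
    exact (D.hW.app _ _ hn).2 h)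
  refine ⟨[(w.take D.z ++ u, x, k), (v, [], 0)], by simp, ?_, ?_⟩
  · intro t ht
    rcases List.mem_cons.1 ht with rfl | ht
    · refine ⟨?_, by show x.length ≤ _; omega⟩
      show (w.take D.z ++ u).length ≤ _
      rw [List.length_append, List.length_take]; omega
    · rcases List.mem_singleton.1 ht with rfl
      exact ⟨by show v.length ≤ _; omega, by simp⟩
  · have e := List.take_append_drop D.z w
    conv_lhs => rw [← e, h4]
    simp [Crest.Agent.R320.Pump_360.val, Crest.Agent.R320.Pump_360.pw]

theorem hCT [Finite α] [Finite S] (x y : V) :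
    HL 1 ({X | X ∈ D.C ∧ D.T x X = y} : Language α) := by
  have h1 : Language.IsRegular ({X | D.T x X = y} : Language α) :=
    reg_of_kap D.f (B0 D) H.Md H.hMd _ fun w w' h hw => by rw [← H.T_kap x w w' h]; exact hw
  have h2 := Crest.Agent.R320.Reg_819.HL.regular (HL_C D)
  have h3 := Crest.Agent.R320.RegBd_11.reg_pieces_rel h1 h2 2 (D.z + H.B + D.W)
    (fun w hw => H.pieces_of w hw.2.2)
  refine h3.congr fun w => ?_
  exact ⟨fun h => ⟨h.2, h.1⟩, fun h => ⟨h.2, h.1⟩⟩

theorem hBT [Finite α] [Finite S] (x y : V) :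
    HL 1 ({X | X ∈ D.Bad ∧ D.T x X = y} : Language α) := by
  have h1 : Language.IsRegular ({X | D.T x X = y ∧ (D.E X ∨ D.BadT (X.length - D.p0))} : Language α) :=
    reg_of_kap D.f (B0 D) H.Md H.hMd _ fun w w' h hw => by
      rw [← H.T_kap x w w' h]; exact ⟨hw.1, H.Bad_kap w w' h hw.2⟩
  have h2 := Crest.Agent.R320.Reg_819.HL.regular (HL_C D)
  have h3 := Crest.Agent.R320.RegBd_11.reg_pieces_rel h1 h2 2 (D.z + H.B + D.W)
    (fun w hw => H.pieces_of w hw.2.2)
  refine h3.congr fun w => ?_
  exact ⟨fun h => ⟨⟨h.2, h.1.2⟩, h.1.1⟩, fun h => ⟨⟨h.2, h.1.2⟩, h.1.1⟩⟩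

theorem htail [Finite α] [Finite S] (s : S) :
    HL 1 ({w | (∀ X ∈ D.C, ¬ X <+: w) ∧ (w.map D.f).prod = s} : Language α) := by
  have h1 : Language.IsRegular ({w | (w.map D.f).prod = s} : Language α) :=
    reg_of_kap D.f 0 1 one_pos _ fun w w' h hw => by
      have := congrArg (fun x => x.2.2) h
      have e : (w.map D.f).prod = (w'.map D.f).prod := by simpa [kap] using this
      rw [← e]; exact hw
  have h0 : HL 1 ({w | ∀ X ∈ D.C, ¬ X <+: w} : Language α) := by
    refine (HL_C D).prefix.compl.congr fun w => ?_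
    constructor
    · rintro h ⟨v, hv, hvw⟩; exact h v hv hvw
    · intro h X hX hXw; exact h ⟨X, hX, hXw⟩
  have h2 := Crest.Agent.R320.Reg_819.HL.regular h0
  have h3 := Crest.Agent.R320.RegBd_11.reg_pieces_rel h1 h2 2 (D.z + H.B + D.W)
    (fun w hw => H.pieces_of w fun t ht1 ht2 hwo => by
      obtain ⟨X, hX, hXp⟩ := D.exists_block (w.take t) (by rw [List.length_take]; omega) hwo
      exact hw X hX (hXp.trans (List.take_prefix _ _)))
  refine h3.congr fun w => ?_
  exact ⟨fun h => ⟨h.2, h.1⟩, fun h => ⟨h.2, h.1⟩⟩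

/-- **fibre theorem** -/
theorem fibre [Finite α] [Finite S] [Finite V]
    (hfaith : ∀ s t, (∀ v, D.act v s = D.act v t) → s = t) (s : S) :
    HL 3 ({w | (w.map D.f).prod = s} : Language α) :=
  Crest.Agent.R320.Top5_120.top5 D.act D.hadd D.hone D.hmul hfaith D.f D.nu D.C D.Bad
    ⟨D.C_ne, D.C_pc⟩ D.bad_sub D.L1 D.L2 D.finL1 D.finL2 (fun x y => H.hCT x y)
    (fun x y => H.hBT x y) (fun s => H.htail s) D.hcc1 D.hcc2 s

end Fs

end Crest.Agent.R320.Asm618
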