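import Crest.Agent.R320.Hk2_851

/-!
# Row 320: the level theorem (helper4)

`Comp n C` : on the class `C` of words every regular language agrees with a language of
generalized star height at most `n` (promise form).

* `H_of_between` : `K ++ K ⊆ K`, `Irr(K) ⊆ X ⊆ K`, `X` of height `n` give `K` of height `n + 1`
  (helper261's form: no threads).
* `level` : if `C` has height `n`, `Comp n C`, and `K` is a regular semigroup whose irreducible
  words lie in `C`, then `K` has height `n + 1`.
* `read` : if a language `R` is determined on a class `D` by the finite table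
  `{(p, q, i) | w = p ++ u ++ q, u ∈ K i}`, `|p|, |q| ≤ B`, then it agrees on `D` with a language
  of height `n`.
* `Comp.step` : the whole step `Comp n C → Comp (n + 1) D` for a family of such semigroups.
* `three` : three steps from words of bounded length up to all words give height at most `3` for
  every regular language.
-/

set_option autoImplicit false

namespace Crest.Agent.R320.Lev_4

open Crest.RegLang Crest.Agent.R320.Hk_851

universe u

variable {α : Type u} {n m : ℕ}

/-- on the class `C` every regular language agrees with one of height `≤ n` -/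
def Comp (n : ℕ) (C : Language α) : Prop :=
  ∀ R : Language α, R.IsRegular → ∃ R' : Language α, HL n R' ∧ ∀ w ∈ C, (w ∈ R' ↔ w ∈ R)

theorem Comp.top (h : Comp n (⊤ : Language α)) {L : Language α} (hL : L.IsRegular) : HL n L := by
  obtain ⟨R', h1, h2⟩ := h L hL
  exact h1.congr fun w => (h2 w trivial).symm

theorem Comp.mono {C D : Language α} (hnm : n ≤ m) (hDC : ∀ w ∈ D, w ∈ C) (h : Comp n C) :
    Comp m D := by
  intro R hR
  obtain ⟨R', h1, h2⟩ := h R hR
  exact ⟨R', h1.mono hnm, fun w hw => h2 w (hDC w hw)⟩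

/-- strict form on the class itself -/
theorem Comp.inf {C : Language α} (hC : HL n C) (h : Comp n C) {R : Language α}
    (hR : R.IsRegular) : HL n (R ⊓ C) := by
  obtain ⟨R', h1, h2⟩ := h R hR
  refine (h1.inf hC).congr fun w => ?_
  constructor
  · rintro ⟨hw, hc⟩; exact ⟨(h2 w hc).2 hw, hc⟩
  · rintro ⟨hw, hc⟩; exact ⟨(h2 w hc).1 hw, hc⟩

theorem Comp.of_inf {C : Language α} (h : ∀ R : Language α, R.IsRegular → HL n (R ⊓ C)) :
    Comp n C := by
  intro R hR
  exact ⟨R ⊓ C, h R hR, fun w hw => ⟨fun h => h.1, fun h => ⟨h, hw⟩⟩⟩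

/-- words of bounded length: height `0` -/
theorem comp_length [Finite α] (N : ℕ) : Comp 0 {w : List α | w.length ≤ N} := by
  intro R _
  refine ⟨{w : List α | w.length ≤ N ∧ w ∈ R},
    HL.finite ((List.finite_length_le α N).subset fun w hw => hw.1), fun w hw => ?_⟩
  exact ⟨fun h => h.2, fun h => ⟨hw, h⟩⟩

/-- union of two classes, one of them recognised -/
theorem Comp.sup {C D : Language α} (hC : HL n C) (h1 : Comp n C) (h2 : Comp n D) :
    Comp n (C ⊔ D) := by
  intro R hR
  obtain ⟨R1, a1, b1⟩ := h1 R hR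
  obtain ⟨R2, a2, b2⟩ := h2 R hR
  refine ⟨{w | (w ∈ C → w ∈ R1) ∧ (¬ w ∈ C → w ∈ R2)},
    (hC.setOf_imp a1).setOf_and (hC.setOf_not.setOf_imp a2), fun w hw => ?_⟩
  by_cases hc : w ∈ C
  · constructor
    · intro h; exact (b1 w hc).1 (h.1 hc)
    · intro h; exact ⟨fun _ => (b1 w hc).2 h, fun h' => (h' hc).elim⟩
  · have hd : w ∈ D := by
      rcases hw with h | h
      · exact (hc h).elim
      · exact h
    constructor
    · intro h; exact (b2 w hd).1 (h.2 hc)
    · intro h; exact ⟨fun h' => (hc h').elim, fun _ => (b2 w hd).2 h⟩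

/-- **between lemma** (261): a semigroup of words is the star of any language between its
irreducible words and itself -/
theorem H_of_between {K X : Language α} (hK : ∀ u ∈ K, ∀ v ∈ K, u ++ v ∈ K)
    (h0 : [] ∉ K) (h1 : ∀ u ∈ K, (∀ p ∈ K, ∀ q ∈ K, p ++ q ≠ u) → u ∈ X)
    (h2 : ∀ u ∈ X, u ∈ K) (hX : HL n X) : HL (n + 1) K := by
  have hs : ∀ w, w ∈ KStar.kstar X ↔ (w = [] ∨ w ∈ K) := by
    intro w
    constructor
    · intro hw
      rw [Language.mem_kstar] at hw
      obtain ⟨L, rfl, hL⟩ := hw
      induction L with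
      | nil => left; rfl
      | cons a L ih =>
        have ha : a ∈ K := h2 a (hL a (by simp))
        have ih' := ih fun y hy => hL y (by simp [hy])
        right
        rw [List.flatten_cons]
        rcases ih' with h | h
        · rw [h, List.append_nil]; exact ha
        · exact hK a ha _ h
    · have key : ∀ N (w : List α), w.length ≤ N → w ∈ K → w ∈ KStar.kstar X := by
        intro N
        induction N with
        | zero =>
          intro w hl hw
          have : w = [] := List.length_eq_zero_iff.1 (Nat.le_zero.1 hl)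
          rw [this] at hw
          exact (h0 hw).elim
        | succ N ih =>
          intro w hl hw
          by_cases hirr : ∀ p ∈ K, ∀ q ∈ K, p ++ q ≠ w
          · have hx := h1 w hw hirr
            rw [Language.mem_kstar]
            exact ⟨[w], by simp, by simpa using hx⟩
          · push Not at hirr
            obtain ⟨p, hp, q, hq, rfl⟩ := hirr
            have hp0 : p ≠ [] := fun h => h0 (h ▸ hp)
            have hq0 : q ≠ [] := fun h => h0 (h ▸ hq)
            have hpl : 0 < p.length := List.length_pos_iff.2 hp0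
            have hql : 0 < q.length := List.length_pos_iff.2 hq0
            rw [List.length_append] at hl
            have a1 := ih p (by omega) hp
            have a2 := ih q (by omega) hq
            rw [Language.mem_kstar] at a1 a2 ⊢
            obtain ⟨L1, e1, hL1⟩ := a1
            obtain ⟨L2, e2, hL2⟩ := a2
            refine ⟨L1 ++ L2, by rw [List.flatten_append, e1, e2], ?_⟩
            intro y hy
            rcases List.mem_append.1 hy with h | h
            · exact hL1 y h
            · exact hL2 y h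
      rintro (rfl | hw)
      · rw [Language.mem_kstar]
        exact ⟨[], rfl, by simp⟩
      · exact key _ w le_rfl hw
  have h := (hX.star).inf ((HL.one (α := α) (k := n + 1)).compl)
  refine h.congr fun w => ?_
  constructor
  · intro hw
    refine ⟨(hs w).2 (Or.inr hw), ?_⟩
    intro h1
    have : w = [] := h1
    rw [this] at hw
    exact h0 hw
  · rintro ⟨ha, hb⟩
    rcases (hs w).1 ha with h | h
    · exact (hb h).elim
    · exact h

/-- **level theorem**: a regular semigroup of words whose irreducible words lie in a class of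
height `n` which is computable at height `n` has height `n + 1` -/
theorem level {C K : Language α} (hC : HL n C) (hcomp : Comp n C) (hreg : K.IsRegular)
    (hK : ∀ u ∈ K, ∀ v ∈ K, u ++ v ∈ K) (h0 : [] ∉ K)
    (h1 : ∀ u ∈ K, (∀ p ∈ K, ∀ q ∈ K, p ++ q ≠ u) → u ∈ C) : HL (n + 1) K :=
  H_of_between (X := K ⊓ C) hK h0 (fun u hu hi => ⟨hu, h1 u hu hi⟩) (fun _ hu => hu.1)
    (hcomp.inf hC hreg)

/-- bounded irreducible words: height one -/
theorem level_one [Finite α] {K : Language α} (N : ℕ)
    (hK : ∀ u ∈ K, ∀ v ∈ K, u ++ v ∈ K) (h0 : [] ∉ K)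
    (h1 : ∀ u ∈ K, (∀ p ∈ K, ∀ q ∈ K, p ++ q ≠ u) → u.length ≤ N) : HL 1 K :=
  H_of_between (n := 0) (X := {w : List α | w.length ≤ N ∧ w ∈ K}) hK h0
    (fun u hu hi => ⟨h1 u hu hi, hu⟩) (fun _ hu => hu.2)
    (HL.finite ((List.finite_length_le α N).subset fun _ hw => hw.1))

/-- the table of a word: which `w = p ++ u ++ q` with `u ∈ K i` occur -/
def tab {ι : Type*} (B : ℕ) (K : ι → Language α) (w : List α) :
    Set ({p : List α // p.length ≤ B} × {q : List α // q.length ≤ B} × ι) :=
  {j | ∃ u ∈ K j.2.2, w = j.1.1 ++ u ++ j.2.1.1}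

/-- **reading lemma** -/
theorem read [Finite α] {ι : Type*} [Finite ι] (B : ℕ) {K : ι → Language α}
    (hK : ∀ i, HL n (K i)) {D R : Language α}
    (hdet : ∀ w ∈ D, ∀ w' ∈ D, tab B K w = tab B K w' → w ∈ R → w' ∈ R) :
    ∃ R' : Language α, HL n R' ∧ ∀ w ∈ D, (w ∈ R' ↔ w ∈ R) := by
  have : Finite {p : List α // p.length ≤ B} := (List.finite_length_le α B).to_subtype
  let J := {p : List α // p.length ≤ B} × {q : List α // q.length ≤ B} × ι
  have : Finite J := inferInstance
  have : Finite (Set J) := Set.instFinite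
  have hP : ∀ j : J, HL n {w : List α | j ∈ tab B K w} := by
    intro j
    refine (((HL.word j.1.1).mul (hK j.2.2)).mul (HL.word j.2.1.1)).congr fun w => ?_
    constructor
    · rintro ⟨u, hu, rfl⟩
      exact Language.mem_mul.2 ⟨j.1.1 ++ u, Language.mem_mul.2 ⟨j.1.1, rfl, u, hu, rfl⟩,
        j.2.1.1, rfl, rfl⟩
    · intro hw
      obtain ⟨pu, hpu, q, hq, rfl⟩ := Language.mem_mul.1 hw
      obtain ⟨p, hp, u, hu, rfl⟩ := Language.mem_mul.1 hpu
      rw [Set.mem_singleton_iff.1 hp, Set.mem_singleton_iff.1 hq]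
      exact ⟨u, hu, rfl⟩
  have hT : ∀ τ : Set J, HL n {w : List α | tab B K w = τ} := by
    intro τ
    have h := HL.iInter (k := n) (ι := J) (L := fun j => {w : List α | j ∈ tab B K w ↔ j ∈ τ})
      (fun j => (hP j).setOf_iff (HL.const (j ∈ τ)))
    refine h.congr fun w => ?_
    constructor
    · intro hw j
      have hw' : tab B K w = τ := hw
      change j ∈ tab B K w ↔ j ∈ τ
      rw [hw']
    · intro hw
      exact Set.ext hw
  refine ⟨{w | ∃ τ ∈ {τ : Set J | ∃ v ∈ D, v ∈ R ∧ tab B K v = τ}, tab B K w = τ},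
    HL.biUnion (Set.toFinite _) (L := fun τ => {w : List α | tab B K w = τ}) (fun τ _ => hT τ),
    fun w hw => ?_⟩
  constructor
  · rintro ⟨τ, ⟨v, hv, hvR, hvt⟩, hwt⟩
    exact hdet v hv w hw (hvt.trans (Eq.symm hwt)) hvR
  · intro hR
    exact ⟨tab B K w, ⟨w, hw, hR, rfl⟩, rfl⟩

/-- a family of regular semigroups of words with irreducible words in `C` which reads the
regular language `R` on the class `D` -/
def Reads [Finite α] (C D R : Language α) : Prop :=
  ∃ (N : ℕ) (K : Fin N → Language α) (B : ℕ),
    (∀ i, (K i).IsRegular) ∧ (∀ i, ∀ u ∈ K i, ∀ v ∈ K i, u ++ v ∈ K i) ∧ (∀ i, [] ∉ K i) ∧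
    (∀ i, ∀ u ∈ K i, (∀ p ∈ K i, ∀ q ∈ K i, p ++ q ≠ u) → u ∈ C) ∧
    (∀ w ∈ D, ∀ w' ∈ D, tab B K w = tab B K w' → w ∈ R → w' ∈ R)

/-- **one scheme = one star** -/
theorem Comp.step [Finite α] {C D : Language α} (hC : HL n C) (hcomp : Comp n C)
    (h : ∀ R : Language α, R.IsRegular → Reads C D R) : Comp (n + 1) D := by
  intro R hR
  obtain ⟨N, K, B, h1, h2, h3, h4, h5⟩ := h R hR
  exact read B (fun i => level hC hcomp (h1 i) (h2 i) (h3 i) (h4 i)) h5

/-- **three schemes**: words of length `≤ N0` ⊆ `C1` ⊆ `C2` ⊆ all words -/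
theorem three [Finite α] (N0 : ℕ) (C1 C2 : Language α) (hC1 : HL 1 C1) (hC2 : HL 2 C2)
    (s1 : ∀ R : Language α, R.IsRegular → Reads {w : List α | w.length ≤ N0} C1 R)
    (s2 : ∀ R : Language α, R.IsRegular → Reads C1 C2 R)
    (s3 : ∀ R : Language α, R.IsRegular → Reads C2 ⊤ R)
    {L : Language α} (hL : L.IsRegular) : HL 3 L :=
  (Comp.step hC2 (Comp.step hC1 (Comp.step (HL.length_le N0) (comp_length N0) s1) s2) s3).top hL

end Crest.Agent.R320.Lev_4
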