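import Crest.Agent.R320.Straub1_932
import Crest.Agent.R320.Hk2_851
import Crest.Agent.R320.Lev_4
import Crest.Agent.R320.Reg_819

/-!
# Row 320, team 3: the abstract assembly from the periodic separation criterion (helper720)

`crit` : a regular language `L` has height `≤ h` as soon as for every word `w` on whose powers
`L` oscillates (in some context) a member of a finite family of languages of height `≤ h`
separates two powers of `w` (in some context).
`run_sep`: powers of short words are separated by stars of single words.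
`three`: the whole two-scheme assembly (705 #12833 / helper8 #13049).
-/

set_option autoImplicit false

namespace Crest.Agent.R320.Asm3_720

open Crest.Agent.R320.Hk_851 Crest.Agent.R320.Straub_932

universe u
variable {A : Type u}

/-- `w^k` -/
abbrev rep (k : ℕ) (w : List A) : List A := (List.replicate k w).flatten

/-- `X` separates two powers of `w` -/
def Sep (X : Language A) (w : List A) : Prop :=
  ∃ (x y : List A) (k l : ℕ), 0 < k ∧ 0 < l ∧ x ++ (rep k w ++ y) ∈ X ∧ x ++ (rep l w ++ y) ∉ X

/-- `L` oscillates on the powers of `w` -/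
def Osc (L : Language A) (w : List A) : Prop :=
  ∃ x y : List A, (∀ n, ∃ k ≥ n, x ++ (rep k w ++ y) ∈ L) ∧ (∀ n, ∃ k ≥ n, x ++ (rep k w ++ y) ∉ L)

/-- the syntactic congruence of a family -/
def con {ι : Type u} (X : ι → Language A) : Con (FreeMonoid A) where
  r u v := ∀ (i : ι) (x y : List A), (x ++ (u.toList ++ y) ∈ X i ↔ x ++ (v.toList ++ y) ∈ X i)
  iseqv := ⟨fun _ _ _ _ => Iff.rfl, fun h i x y => (h i x y).symm,
    fun h h' i x y => (h i x y).trans (h' i x y)⟩
  mul' := by
    intro u u' v v' h h' i x y
    have e1 := h i x (v.toList ++ y)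
    have e2 := h' i (x ++ u'.toList) y
    simp only [FreeMonoid.toList_mul, List.append_assoc] at e1 e2 ⊢
    exact e1.trans e2

/-- the syntactic monoid of a family -/
abbrev Syn {ι : Type u} (X : ι → Language A) : Type u := (con X).Quotient

/-- the letters in the syntactic monoid -/
def syn {ι : Type u} (X : ι → Language A) (a : A) : Syn X :=
  ((FreeMonoid.of a : FreeMonoid A) : (con X).Quotient)

theorem ev_syn {ι : Type u} (X : ι → Language A) (w : List A) :
    ev (syn X) w = ((FreeMonoid.ofList w : FreeMonoid A) : (con X).Quotient) := by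
  induction w with
  | nil => rfl
  | cons a w ih =>
    have : ev (syn X) (a :: w) = syn X a * ev (syn X) w := by simp [ev]
    rw [this, ih]
    rfl

theorem ev_syn_eq {ι : Type u} (X : ι → Language A) (u v : List A) :
    ev (syn X) u = ev (syn X) v ↔
      ∀ (i : ι) (x y : List A), (x ++ (u ++ y) ∈ X i ↔ x ++ (v ++ y) ∈ X i) := by
  rw [ev_syn, ev_syn, Con.eq]
  rfl

theorem finite_syn {ι : Type u} [Finite ι] (X : ι → Language A) (hX : ∀ i, (X i).IsRegular) :
    Finite (Syn X) := by
  classical
  let R : ι → Type u := fun i => Set.range (X i).leftQuotient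
  have hR : ∀ i, Finite (R i) := fun i => (hX i).finite_range_leftQuotient.to_subtype
  let F : FreeMonoid A → (∀ i, R i → R i) := fun u i Y =>
    ⟨(Y.1).leftQuotient u.toList, by
      obtain ⟨_, x, rfl⟩ := Y
      refine ⟨x ++ u.toList, ?_⟩
      ext y
      change (x ++ u.toList) ++ y ∈ X i ↔ x ++ (u.toList ++ y) ∈ X i
      rw [List.append_assoc]⟩
  have hF : ∀ u v, F u = F v → (con X) u v := by
    intro u v h i x y
    have h1 := congrFun (congrFun h i) ⟨(X i).leftQuotient x, x, rfl⟩
    have h2 := congrArg Subtype.val h1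
    change ((X i).leftQuotient x).leftQuotient u.toList =
      ((X i).leftQuotient x).leftQuotient v.toList at h2
    have h3 : y ∈ ((X i).leftQuotient x).leftQuotient u.toList ↔
      y ∈ ((X i).leftQuotient x).leftQuotient v.toList := by rw [h2]
    exact h3
  have : Finite (Set.range F) := Subtype.finite
  let G : Set.range F → Syn X := fun r => ((Classical.choose r.2 : FreeMonoid A) : (con X).Quotient)
  refine Finite.of_surjective G ?_
  intro t
  induction t using Con.induction_on with
  | _ u =>
    refine ⟨⟨F u, u, rfl⟩, ?_⟩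
    exact (Con.eq _).2 (hF _ _ (Classical.choose_spec (⟨F u, u, rfl⟩ : Set.range F).2))

theorem good (h : ℕ) : Good (HL (α := A) h) where
  zero := HL.zero
  one := HL.one
  char := HL.char
  add := HL.add
  mul := HL.mul
  compl := HL.compl

theorem crit [Finite A] {h : ℕ} {ι : Type u} [Finite ι] (X : ι → Language A)
    (hX : ∀ i, HL h (X i)) {L : Language A} (hL : L.IsRegular)
    (hsep : ∀ w, Osc L w → ∃ i, Sep (X i) w) : HL h L := by
  classical
  have hXr : ∀ i, (X i).IsRegular := fun i => by
    obtain ⟨e, _, he⟩ := hX i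
    rw [← he]
    exact Reg_819.lang_regular e
  let XL : PUnit.{u+1} → Language A := fun _ => L
  have : Finite (Syn XL) := finite_syn XL (fun _ => hL)
  have : Finite (Syn X) := finite_syn X hXr
  have key : ∀ m, HL h ({w | ev (syn XL) w = m} : Language A) := by
    refine straubing (syn XL) (syn X) (good h) ?_ ?_
    · intro w hw
      by_contra hcon
      push Not at hcon
      have hidem : ∀ k, ev (syn X) w ^ (k + 1) = ev (syn X) w := by
        intro k
        induction k with
        | zero => simp
        | succ k ih => rw [pow_succ, ih, hw]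
      have hosc : Osc L w := by
        -- eventual periodicity of the powers
        obtain ⟨i, j, hij, he⟩ := Set.Finite.exists_lt_map_eq_of_forall_mem
          (t := (Set.univ : Set (Syn XL))) (f := fun n : ℕ => ev (syn XL) w ^ n)
          (fun _ => Set.mem_univ _) Set.finite_univ
        have hper : ∀ n, ev (syn XL) w ^ (i + n * (j - i)) = ev (syn XL) w ^ i := by
          intro n
          induction n with
          | zero => simp
          | succ n ih =>
            have e1 : i + (n + 1) * (j - i) = (i + n * (j - i)) + (j - i) := by ring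
            rw [e1, pow_add, ih, ← pow_add]
            have e2 : i + (j - i) = j := by omega
            rw [e2]
            exact he.symm
        have hper' : ∀ n, ev (syn XL) w ^ ((i + 1) + n * (j - i)) = ev (syn XL) w ^ (i + 1) := by
          intro n
          have e1 : (i + 1) + n * (j - i) = (i + n * (j - i)) + 1 := by ring
          rw [e1, pow_succ, hper, ← pow_succ]
        have hne := hcon i
        rw [← ev_rep, ← ev_rep, Ne, ev_syn_eq] at hne
        push Not at hne
        obtain ⟨_, x, y, hxy⟩ := hne
        have big : ∀ n, n ≤ n * (j - i) := fun n => Nat.le_mul_of_pos_right _ (by omega)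
        have m1 : ∀ n, (x ++ (rep (i + n * (j - i)) w ++ y) ∈ L ↔ x ++ (rep i w ++ y) ∈ L) := by
          intro n
          have := hper n
          rw [← ev_rep, ← ev_rep, ev_syn_eq] at this
          exact this PUnit.unit x y
        have m2 : ∀ n, (x ++ (rep ((i + 1) + n * (j - i)) w ++ y) ∈ L ↔
            x ++ (rep (i + 1) w ++ y) ∈ L) := by
          intro n
          have := hper' n
          rw [← ev_rep, ← ev_rep, ev_syn_eq] at this
          exact this PUnit.unit x y
        rcases hxy with ⟨h1, h2⟩ | ⟨h1, h2⟩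
        · refine ⟨x, y, fun n => ⟨i + n * (j - i), ?_, (m1 n).2 h1⟩,
            fun n => ⟨(i + 1) + n * (j - i), ?_, fun hh => h2 ((m2 n).1 hh)⟩⟩
          · have := big n; omega
          · have := big n; omega
        · refine ⟨x, y, fun n => ⟨(i + 1) + n * (j - i), ?_, (m2 n).2 h2⟩,
            fun n => ⟨i + n * (j - i), ?_, fun hh => h1 ((m1 n).1 hh)⟩⟩
          · have := big n; omega
          · have := big n; omega
      obtain ⟨i, x, y, k, l, hk, hl, h1, h2⟩ := hsep w hosc
      have e : ev (syn X) (rep k w) = ev (syn X) (rep l w) := by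
        obtain ⟨k, rfl⟩ := Nat.exists_eq_succ_of_ne_zero hk.ne'
        obtain ⟨l, rfl⟩ := Nat.exists_eq_succ_of_ne_zero hl.ne'
        rw [ev_rep, ev_rep, Nat.succ_eq_add_one, Nat.succ_eq_add_one, hidem, hidem]
      rw [ev_syn_eq] at e
      exact h2 ((e i x y).1 h1)
    · intro t
      -- representatives
      have hsurj : ∀ t : Syn X, ∃ w : List A, ev (syn X) w = t := by
        intro t
        induction t using Con.induction_on with
        | _ u => exact ⟨u.toList, by rw [ev_syn]; rfl⟩
      choose out hout using hsurj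
      have h1 : HL h ({w | ∀ i, ∀ t1 t2 : Syn X, (out t1 ++ (w ++ out t2) ∈ X i ↔
          out t1 ++ (out t ++ out t2) ∈ X i)} : Language A) := by
        refine HL.iInter fun i => HL.iInter fun t1 => HL.iInter fun t2 => ?_
        refine HL.setOf_iff (p := fun w => out t1 ++ (w ++ out t2) ∈ X i)
          (q := fun _ => out t1 ++ (out t ++ out t2) ∈ X i) ?_ (HL.const _)
        exact ((hX i).lquot (out t1)).rquot (out t2)
      refine h1.congr fun w => Iff.symm ?_
      constructor
      · intro hw
        change ev (syn X) w = t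
        rw [← hout t]
        refine (ev_syn_eq X _ _).2 fun i x y => ?_
        have ex : ev (syn X) x = ev (syn X) (out (ev (syn X) x)) := (hout _).symm
        have ey : ev (syn X) y = ev (syn X) (out (ev (syn X) y)) := (hout _).symm
        have hx := (ev_syn_eq X _ _).1 ex
        have hy := (ev_syn_eq X _ _).1 ey
        have a1 : ∀ v : List A, (x ++ (v ++ y) ∈ X i ↔
            out (ev (syn X) x) ++ (v ++ out (ev (syn X) y)) ∈ X i) := by
          intro v
          have b1 := hx i [] (v ++ y)
          have b2 := hy i (out (ev (syn X) x) ++ v) []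
          simp only [List.nil_append, List.append_nil, List.append_assoc] at b1 b2
          exact b1.trans b2
        rw [a1, a1]
        exact hw i _ _
      · intro hw
        have hw' : ev (syn X) w = ev (syn X) (out t) := by rw [hout]; exact hw
        change ∀ i, ∀ t1 t2 : Syn X, (out t1 ++ (w ++ out t2) ∈ X i ↔
          out t1 ++ (out t ++ out t2) ∈ X i)
        intro i t1 t2
        exact (ev_syn_eq X _ _).1 hw' i _ _
  have hfin := HL.iUnion (k := h) (ι := {m : Syn XL // ∃ w ∈ L, ev (syn XL) w = m})
    (L := fun m => {w | ev (syn XL) w = m.1}) (fun m => key m.1)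
  refine hfin.congr fun w => Iff.symm ?_
  constructor
  · rintro ⟨⟨m, v, hv, rfl⟩, hw⟩
    have := (ev_syn_eq XL _ _).1 hw PUnit.unit [] []
    simp only [List.nil_append, List.append_nil] at this
    exact this.2 hv
  · intro hw
    exact ⟨⟨ev (syn XL) w, w, hw, rfl⟩, rfl⟩

/-! ### runs -/

theorem rep_mul (j k : ℕ) (v : List A) : rep k (rep j v) = rep (j * k) v := by
  induction k with
  | zero => simp [rep]
  | succ k ih =>
    have e : j * (k + 1) = j + j * k := by ring
    rw [e]
    change (List.replicate (k + 1) (rep j v)).flatten = (List.replicate (j + j * k) v).flatten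
    rw [List.replicate_succ, List.flatten_cons, List.replicate_add, List.flatten_append]
    exact congrArg _ ih

theorem rep_length (k : ℕ) (v : List A) : (rep k v).length = k * v.length := by
  induction k with
  | zero => simp [rep]
  | succ k ih =>
    rw [rep, List.replicate_succ, List.flatten_cons, List.length_append, Nat.succ_mul]
    rw [rep] at ih
    omega

theorem mem_star_rep (N k : ℕ) (v : List A) (hv : v ≠ []) :
    rep k v ∈ (KStar.kstar ({rep N v} : Language A)) ↔ N ∣ k := by
  have hl : 0 < v.length := List.length_pos_iff.2 hv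
  rw [Language.mem_kstar]
  constructor
  · rintro ⟨L, hL, hm⟩
    have hLr : L = List.replicate L.length (rep N v) :=
      List.eq_replicate_iff.2 ⟨rfl, fun y hy => Set.mem_singleton_iff.1 (hm y hy)⟩
    have h1 : (rep k v).length = (L.flatten).length := by rw [hL]
    rw [hLr] at h1
    change _ = (rep L.length (rep N v)).length at h1
    rw [rep_mul, rep_length, rep_length] at h1
    have h2 := Nat.eq_of_mul_eq_mul_right hl h1
    exact ⟨_, h2⟩
  · rintro ⟨n, rfl⟩
    refine ⟨List.replicate n (rep N v), ?_, ?_⟩
    · exact (rep_mul N n v).symm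
    · intro y hy
      exact Set.mem_singleton_iff.2 (List.eq_of_mem_replicate hy)

/-- powers of a word `v` on which a regular language oscillates are separated by `(v^N)^*` -/
theorem run_sep {L : Language A} (hL : L.IsRegular) :
    ∃ N : ℕ, 0 < N ∧ ∀ (v : List A) (j : ℕ), Osc L (rep j v) →
      Sep (KStar.kstar ({rep N v} : Language A)) (rep j v) := by
  let XL : PUnit.{u+1} → Language A := fun _ => L
  have : Finite (Syn XL) := finite_syn XL (fun _ => hL)
  obtain ⟨i, j, hij, he⟩ : ∃ i j : ℕ, i < j ∧ ∀ g : Syn XL, g ^ i = g ^ j := by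
    obtain ⟨i, j, hij, he⟩ := Set.Finite.exists_lt_map_eq_of_forall_mem
      (t := (Set.univ : Set (Syn XL → Syn XL))) (f := fun n : ℕ => fun g : Syn XL => g ^ n)
      (fun _ => Set.mem_univ _) Set.finite_univ
    exact ⟨i, j, hij, fun g => congrFun he g⟩
  have hper : ∀ (g : Syn XL) (m n : ℕ), i ≤ m → g ^ (m + n * (j - i)) = g ^ m := by
    intro g m n hm
    induction n with
    | zero => simp
    | succ n ih =>
      have e1 : m + (n + 1) * (j - i) = (m + n * (j - i)) + (j - i) := by ring
      obtain ⟨c, hc⟩ := Nat.exists_eq_add_of_le (show i ≤ m + n * (j - i) by omega)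
      rw [← ih, e1, hc]
      have e2 : i + c + (j - i) = j + c := by omega
      rw [e2, pow_add, pow_add, he g]
  refine ⟨j - i, by omega, fun v t hosc => ?_⟩
  have hN : 0 < j - i := by omega
  obtain ⟨x, y, h1, h2⟩ := hosc
  have hv : v ≠ [] := by
    rintro rfl
    have e : ∀ k, rep k (rep t ([] : List A)) = [] := by
      intro k
      have : ∀ n, rep n ([] : List A) = [] := fun n => by
        induction n with
        | zero => rfl
        | succ n ih => simp [rep]
      rw [this, this]
    obtain ⟨k, _, hk⟩ := h1 0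
    obtain ⟨l, _, hl⟩ := h2 0
    rw [e] at hk hl
    exact hl hk
  have hnd : ¬ (j - i) ∣ t := by
    rintro ⟨c, hc⟩
    have hconst : ∀ k, i ≤ k → (x ++ (rep k (rep t v) ++ y) ∈ L ↔ x ++ (rep i (rep t v) ++ y) ∈ L) := by
      intro k hk
      obtain ⟨d, rfl⟩ := Nat.exists_eq_add_of_le hk
      have e : ev (syn XL) (rep (i + d) (rep t v)) = ev (syn XL) (rep i (rep t v)) := by
        rw [rep_mul, rep_mul, ev_rep, ev_rep]
        by_cases hc0 : t = 0
        · rw [hc0]; simp
        · have e1 : t * (i + d) = t * i + (c * d) * (j - i) := by rw [hc]; ring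
          rw [e1]
          exact hper _ _ _ (Nat.le_mul_of_pos_left _ (Nat.pos_of_ne_zero hc0))
      exact (ev_syn_eq XL _ _).1 e PUnit.unit x y
    obtain ⟨k, hk, hk'⟩ := h1 i
    obtain ⟨l, hl, hl'⟩ := h2 i
    exact hl' ((hconst l hl).2 ((hconst k hk).1 hk'))
  refine ⟨[], [], j - i, j - i + 1, hN, by omega, ?_, ?_⟩
  · rw [List.append_nil, List.nil_append, rep_mul, mem_star_rep _ _ _ hv]
    exact Dvd.intro_left t rfl
  · rw [List.append_nil, List.nil_append, rep_mul, mem_star_rep _ _ _ hv]
    intro hd
    rw [Nat.mul_succ] at hd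
    exact hnd ((Nat.dvd_add_right (Dvd.intro_left t rfl)).1 hd)

/-- `w` is not a power of a word of length `≤ b` -/
def Long (b : ℕ) (w : List A) : Prop := ∀ (v : List A) (j : ℕ), w = rep j v → b < v.length

/-- the criterion with the runs taken out -/
theorem crit_long [Finite A] {h : ℕ} (hh : 1 ≤ h) (b : ℕ) {ι : Type u} [Finite ι]
    (X : ι → Language A) (hX : ∀ i, HL h (X i)) {L : Language A} (hL : L.IsRegular)
    (hsep : ∀ w, Long b w → Osc L w → ∃ i, Sep (X i) w) : HL h L := by
  obtain ⟨N, hN, hrun⟩ := run_sep hL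
  have : Finite {v : List A // v.length ≤ b} := (List.finite_length_le A b).to_subtype
  refine crit (ι := ι ⊕ {v : List A // v.length ≤ b})
    (fun s => Sum.elim X (fun v => KStar.kstar ({rep N v.1} : Language A)) s) ?_ hL ?_
  · rintro (i | v)
    · exact hX i
    · exact ((HL.word (k := 0) (rep N v.1)).star).mono hh
  · intro w hw
    by_cases hl : Long b w
    · obtain ⟨i, hi⟩ := hsep w hl hw
      exact ⟨Sum.inl i, hi⟩
    · unfold Long at hl
      push Not at hl
      obtain ⟨v, j, rfl, hv⟩ := hl
      exact ⟨Sum.inr ⟨v, hv⟩, hrun v j hw⟩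

/-- **The assembly of the two-scheme chain on the periodic separation criterion.**
`K2` : words of the promise scheme (boundedly many walls); `X1` : words of the outer scheme all
of whose zones are bad; `K1` : words of the outer scheme. -/
theorem three [Finite A] {L : Language A} (hL : L.IsRegular) (b : ℕ)
    {I1 I2 : Type u} [Finite I1] [Finite I2] (K1 X1 : I1 → Language A) (K2 : I2 → Language A)
    (r2 : ∀ i, (K2 i).IsRegular) (s2 : ∀ i w, Long b w → ¬ Osc (K2 i) w)
    (r1 : ∀ i, (X1 i).IsRegular)
    (s1 : ∀ i w, Long b w → Osc (X1 i) w → ∃ j, Sep (KStar.kstar (K2 j)) w)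
    (nil1 : ∀ i, [] ∉ K1 i) (mul1 : ∀ i, ∀ u ∈ K1 i, ∀ v ∈ K1 i, u ++ v ∈ K1 i)
    (sub1 : ∀ i, ∀ u ∈ X1 i, u ∈ K1 i)
    (irr1 : ∀ i, ∀ u ∈ K1 i, (∀ p ∈ K1 i, ∀ q ∈ K1 i, p ++ q ≠ u) → u ∈ X1 i)
    (s0 : ∀ w, Long b w → Osc L w →
      (∃ j, Sep (KStar.kstar (K2 j)) w) ∨ ∃ i, Sep (K1 i) w) : HL 3 L := by
  have hK2 : ∀ i, HL 1 (K2 i) := fun i =>
    crit_long le_rfl b (ι := PEmpty.{u+1}) (fun e => e.elim) (fun e => e.elim) (r2 i)
      (fun w hw ho => absurd ho (s2 i w hw))
  have hX1 : ∀ i, HL 2 (X1 i) := fun i =>
    crit_long (by norm_num) b (fun j => KStar.kstar (K2 j)) (fun j => (hK2 j).star) (r1 i)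
      (fun w hw ho => s1 i w hw ho)
  have hK1 : ∀ i, HL 3 (K1 i) := fun i =>
    Lev_4.H_of_between (mul1 i) (nil1 i) (irr1 i) (sub1 i) (hX1 i)
  refine crit_long (by norm_num) b (ι := I2 ⊕ I1)
    (fun s => Sum.elim (fun j => KStar.kstar (K2 j)) K1 s) ?_ hL ?_
  · rintro (j | i)
    · exact ((hK2 j).star).mono (by norm_num)
    · exact hK1 i
  · intro w hw ho
    rcases s0 w hw ho with ⟨j, hj⟩ | ⟨i, hi⟩
    · exact ⟨Sum.inl j, hj⟩
    · exact ⟨Sum.inr i, hi⟩

end Crest.Agent.R320.Asm3_720
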