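import Crest.Agent.R320.Asm2_745

/-!
# Row 320: assembly, counting of the spoiled candidates, completeness of level 1 (helper745)
-/

set_option autoImplicit false

namespace Crest.Agent.R320.Asm_745

open Crest.RegLang Crest.Agent.R320.Hgt1_903 Crest.Agent.R320.Three_427
open Crest.Agent.R320.Grid_745

variable {α S V : Type} [Monoid S] [AddCommGroup V] {φ : α → S} {act : V → S → V} {R0 K : ℕ}

namespace Par

variable (D : Par α S V φ act R0 K)

theorem exists_sp : ∃ sp : ℕ → Finset (ℕ × ℕ), (∀ T, (sp T).card ≤ R0) ∧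
    ∀ T, (∀ i < K, D.c i ≤ T) → ∀ i < K, ∀ j < K, i ≠ j → D.Bad (T + D.c j - D.c i) →
      (i, j) ∈ sp T := by
  classical
  refine ⟨fun T => if h : ∀ i < K, D.c i ≤ T then (D.spoil T h).choose else ∅, ?_, ?_⟩
  · intro T
    show (if h : ∀ i < K, D.c i ≤ T then (D.spoil T h).choose else ∅).card ≤ R0
    split_ifs with h
    · exact (D.spoil T h).choose_spec.1
    · simp
  · intro T hT i hi j hj hij hB
    show (i, j) ∈ (if h : ∀ i < K, D.c i ≤ T then (D.spoil T h).choose else ∅)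
    rw [dif_pos hT]
    exact (D.spoil T hT).choose_spec.2 i hi j hj hij hB

/-- the pairs spoiled by mode (E) -/
theorem exists_sE (e : ℕ) : ∃ s : Finset (ℕ × ℕ), s.card ≤ 1 ∧ ∀ i < K, ∀ j < K, i ≠ j →
    D.z + D.c i ≤ e + D.c j + D.N1 → e + D.c j ≤ D.z + D.c i + D.N1 → (i, j) ∈ s := by
  classical
  refine ⟨(Finset.range K ×ˢ Finset.range K).filter (fun p => p.1 ≠ p.2 ∧
    D.z + D.c p.1 ≤ e + D.c p.2 + D.N1 ∧ e + D.c p.2 ≤ D.z + D.c p.1 + D.N1), ?_, ?_⟩
  · rw [Finset.card_le_one]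
    rintro ⟨i, j⟩ h ⟨k, l⟩ h'
    simp only [Finset.mem_filter, Finset.mem_product, Finset.mem_range] at h h'
    obtain ⟨⟨hi, hj⟩, hij, h1, h2⟩ := h
    obtain ⟨⟨hk, hl⟩, hkl, h3, h4⟩ := h'
    have := D.ruler i j k l hi hj hk hl hij hkl (by omega) (by omega)
    rw [this.1, this.2]
  · intro i hi j hj hij h1 h2
    simp only [Finset.mem_filter, Finset.mem_product, Finset.mem_range]
    exact ⟨⟨hi, hj⟩, hij, h1, h2⟩

theorem spoiled (w : List α) : ∃ s : Finset (ℕ × ℕ), s.card ≤ 2 * R0 + 1 ∧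
    ∀ k < K, ∀ j < K, k ≠ j → ∀ Q', Q' <+: w.drop (D.c k) → D.CB (D.c j) Q' → (k, j) ∈ s := by
  classical
  obtain ⟨sp, hsp, hsp'⟩ := D.exists_sp
  have hz := D.hz
  set e0 : ℕ := if h : ∃ t, t ≤ w.length ∧ Wo D.Ws (w.take t) ∧ D.z ≤ t + D.p0 + D.N1 ∧
    t ≤ D.z + D.p0 + D.N1 then h.choose else 0 with he0
  set e1 : ℕ := if h : ∃ t, t ≤ w.length ∧ Wo D.Ws (w.take t) ∧ D.z + D.p0 + D.N1 < t
    then Nat.find h else 0 with he1
  have hE0 : ∀ t, t ≤ w.length → Wo D.Ws (w.take t) → D.z ≤ t + D.p0 + D.N1 →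
      t ≤ D.z + D.p0 + D.N1 → t = e0 := by
    intro t h1 h2 h3 h4
    have hex : ∃ t, t ≤ w.length ∧ Wo D.Ws (w.take t) ∧ D.z ≤ t + D.p0 + D.N1 ∧
      t ≤ D.z + D.p0 + D.N1 := ⟨t, h1, h2, h3, h4⟩
    have he : e0 = hex.choose := by rw [he0, dif_pos hex]
    obtain ⟨g1, g2, g3, g4⟩ := hex.choose_spec
    rw [← he] at g1 g2 g3 g4
    rcases lt_trichotomy t e0 with h | h | h
    · have := D.sep w t e0 h g1 h2 g2
      omega
    · exact h
    · have := D.sep w e0 t h h1 g2 h2
      omega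
  obtain ⟨sE, hsE, hsE'⟩ := D.exists_sE e0
  refine ⟨sE ∪ sp (e0 - D.p0) ∪ sp (e1 - D.p0), ?_, ?_⟩
  · have h1 := Finset.card_union_le (sE ∪ sp (e0 - D.p0)) (sp (e1 - D.p0))
    have h2 := Finset.card_union_le sE (sp (e0 - D.p0))
    have h3 := hsp (e0 - D.p0)
    have h4 := hsp (e1 - D.p0)
    omega
  intro k hk j hj hkj Q' hQ' hCB
  obtain ⟨⟨h1, h2, h3⟩, h4⟩ := hCB
  have hck := D.hp0 k hk
  have hcj := D.hp0 j hj
  have hlen := hQ'.length_le
  rw [List.length_drop] at hlen
  -- walls of `w`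
  have hwall : ∀ t, t ≤ Q'.length → Wo D.Ws (Q'.take t) → Wo D.Ws (w.take (D.c k + t)) := by
    intro t ht hw
    have hn := D.wo_len hw
    have e1 : Q'.take t = (w.drop (D.c k)).take t := by
      obtain ⟨r, hr⟩ := hQ'
      rw [← hr, List.take_append_of_le_length ht]
    have e2 : w.take (D.c k + t) = w.take (D.c k) ++ (w.drop (D.c k)).take t := by
      rw [List.take_add]
    rw [e2, ← e1, D.wo_append hn]
    exact hw
  have hwall' : ∀ t, D.c k + D.n ≤ t → t ≤ D.c k + Q'.length → Wo D.Ws (w.take t) →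
      Wo D.Ws (Q'.take (t - D.c k)) := by
    intro t ht ht' hw
    obtain ⟨t', rfl⟩ : ∃ t', t = D.c k + t' := ⟨t - D.c k, by omega⟩
    have e1 : Q'.take t' = (w.drop (D.c k)).take t' := by
      obtain ⟨r, hr⟩ := hQ'
      rw [← hr, List.take_append_of_le_length (by omega)]
    have e2 : w.take (D.c k + t') = w.take (D.c k) ++ (w.drop (D.c k)).take t' := by
      rw [List.take_add]
    rw [e2, ← e1, D.wo_append] at hw
    · rwa [Nat.add_sub_cancel_left]
    · rw [List.length_take]; omega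
  rw [Finset.mem_union, Finset.mem_union]
  rcases h4 with h4 | h4
  · left; left
    obtain ⟨t, ht, hw, g1, g2⟩ := h4
    have hw' := hwall t ht hw
    have h5 := hE0 (D.c k + t) (by omega) hw' (by omega) (by omega)
    exact hsE' k hk j hj hkj (by omega) (by omega)
  · have hw := hwall Q'.length le_rfl (by simpa using h1)
    by_cases hc : D.c k + Q'.length ≤ D.z + D.p0 + D.N1
    · left; right
      have h5 := hE0 (D.c k + Q'.length) (by omega) hw (by omega) hc
      refine hsp' _ (fun i hi => ?_) k hk j hj hkj ?_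
      · have := D.hp0 i hi
        omega
      · have : e0 - D.p0 + D.c j - D.c k = D.c j + Q'.length - D.p0 := by omega
        rw [this]; exact h4
    · right
      have hex : ∃ t, t ≤ w.length ∧ Wo D.Ws (w.take t) ∧ D.z + D.p0 + D.N1 < t :=
        ⟨_, by omega, hw, by omega⟩
      have he : e1 = Nat.find hex := by rw [he1, dif_pos hex]
      obtain ⟨g1, g2, g3⟩ := Nat.find_spec hex
      rw [← he] at g1 g2 g3
      have hle : e1 ≤ D.c k + Q'.length := by
        rw [he]; exact Nat.find_min' hex ⟨by omega, hw, by omega⟩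
      have h5 : e1 = D.c k + Q'.length := by
        by_contra hne
        have h6 := hwall' e1 (by omega) hle g2
        have h7 := h3 (e1 - D.c k) (by omega) h6
        omega
      refine hsp' _ (fun i hi => ?_) k hk j hj hkj ?_
      · have := D.hp0 i hi
        omega
      · have : e1 - D.p0 + D.c j - D.c k = D.c j + Q'.length - D.p0 := by omega
        rw [this]; exact h4

/-- completeness of level 1 on bad blocks -/
theorem complete1 {X X2 : List α} (hX : D.XX X) (hX2 : D.XX X2) (hB : D.CB 0 X) (v : V) :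
    ∃ P W', X ++ X2 = P ++ W' ∧ P <+: X ∧ P.length < X.length ∧ D.L1.C (P, v) ∧ D.L1.R W' := by
  classical
  have hz := D.hz
  have hXl := hX.2.1
  obtain ⟨I, hI, hI'⟩ := D.c2 (X.take D.p0) v (by rw [List.length_take]; omega)
  obtain ⟨s, hs, hs'⟩ := D.spoiled (X ++ X2)
  obtain ⟨k, hkI, hks⟩ : ∃ k ∈ I, k ∉ s.image Prod.fst := by
    by_contra hc
    push Not at hc
    have h1 : I ⊆ s.image Prod.fst := fun k hk => hc k hk
    have h2 := Finset.card_le_card h1
    have h3 : (s.image Prod.fst).card ≤ s.card := Finset.card_image_le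
    omega
  obtain ⟨hk, hlam, hrh⟩ := hI' k hkI
  have hck := D.hp0 k hk
  obtain ⟨b, hb⟩ := Option.isSome_iff_exists.1 hrh
  have hPl : (X.take (D.c k)).length = D.c k := by rw [List.length_take]; omega
  refine ⟨X.take (D.c k), X.drop (D.c k) ++ X2, ?_, List.take_prefix _ _, by omega,
    ⟨k, hk, hPl, ?_⟩, ?_⟩
  · rw [← List.append_assoc, List.take_append_drop]
  · rw [List.take_take, min_eq_left hck] at hlam
    exact hlam
  · refine ⟨_, k, hk, X.drop (D.c k), X2, b, rfl, hX2, ?_, ?_, ?_, rfl⟩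
    · have h1 : D.CB 0 (X.take (D.c k) ++ X.drop (D.c k)) := by
        rw [List.take_append_drop]; exact hB
      rw [D.CB_iff (by omega), hPl] at h1
      exact h1
    · intro j' hj' hne Q' hQ' hCB
      refine hks (Finset.mem_image.2 ⟨(k, j'), hs' k hk j' hj' (Ne.symm hne) Q' ?_ hCB, rfl⟩)
      rw [List.drop_append_of_le_length (by omega)]
      exact hQ'
    · rw [← List.drop_take]
      exact hb

end Par

end Crest.Agent.R320.Asm_745
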