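import Crest.Agent.R320.Hk2_851
import Crest.Agent.R320.BddReg_746
import Crest.Agent.R320.Reg_852

/-!
# Row 320, piece P4 (helper933): the one-zone languages on ALL words have height `≤ 1`

Left-looking wall rule `Wo` (`n ≤ |Q| → (Wo (P ++ Q) ↔ Wo Q)`, `Wo P → n ≤ |P|`), wall-free words
are bounded products of pieces (`PN B R` of 746), blocks of the natural rule `first wall ≥ z`.
`regular_of_class` : a finite-state property (prefix of length `A`, length mod `M0`, value in a
finite monoid) is regular.
`hl_XX`, `hl_NB` : `{X | XX X ∧ f X}`, `{u | NB u ∧ f u}` are `HL 1` for every regular `f`.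
-/

set_option autoImplicit false

namespace Crest.Agent.R320.P4_933

open Crest.RegLang Crest.Agent.R320.Hk_851 Crest.Agent.R320.BddReg_746

universe u

variable {α : Type u}

/-- blocks: end at the first wall at a place `≥ z` -/
def XX (Wo : List α → Prop) (z : ℕ) (X : List α) : Prop :=
  Wo X ∧ z ≤ X.length ∧ ∀ t < X.length, z ≤ t → ¬ Wo (X.take t)

/-- no prefix is a block -/
def NB (Wo : List α → Prop) (z : ℕ) (u : List α) : Prop :=
  ∀ t ≤ u.length, z ≤ t → ¬ Wo (u.take t)

theorem NB_iff (Wo : List α → Prop) (z : ℕ) (u : List α) :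
    NB Wo z u ↔ ∀ P, P <+: u → ¬ XX Wo z P := by
  constructor
  · rintro h P ⟨Q, rfl⟩ ⟨h1, h2, -⟩
    have := h P.length (by simp) h2
    rw [List.take_left] at this
    exact this h1
  · intro h t ht hz hw
    classical
    have hex : ∃ t, t ≤ u.length ∧ z ≤ t ∧ Wo (u.take t) := ⟨t, ht, hz, hw⟩
    obtain ⟨h1, h2, h3⟩ := Nat.find_spec hex
    refine h _ (List.take_prefix (Nat.find hex) u) ⟨h3, ?_, fun s hs hzs hws => ?_⟩
    · rw [List.length_take]; omega
    · rw [List.length_take] at hs
      have hs' : s < Nat.find hex := by omega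
      rw [List.take_take, min_eq_left (by omega)] at hws
      exact Nat.find_min hex hs' ⟨by omega, hzs, hws⟩

theorem take_snoc (A : ℕ) (u : List α) (a : α) :
    (u ++ [a]).take A = if (u.take A).length < A then u.take A ++ [a] else u.take A := by
  by_cases h : u.length < A
  · rw [List.take_of_length_le (l := u) (by omega), if_pos h, List.take_of_length_le (by simp; omega)]
  · have h1 : (u.take A).length = A := by rw [List.length_take]; omega
    rw [if_neg (by omega), List.take_append_of_le_length (by omega)]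

/-- finite-state properties are regular -/
theorem regular_of_class [Finite α] {S : Type*} [Monoid S] [Finite S] (φ : α → S) (A M0 : ℕ)
    (hM : 0 < M0) (f : List α → Prop)
    (hf : ∀ u u' : List α, A ≤ u.length → A ≤ u'.length → u.take A = u'.take A →
      u.length % M0 = u'.length % M0 → (u.map φ).prod = (u'.map φ).prod → (f u ↔ f u')) :
    Language.IsRegular ({u | f u} : Language α) := by
  classical
  haveI : NeZero M0 := ⟨by omega⟩
  have hfin : Finite {l : List α // l.length ≤ A} := List.finite_length_le α A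
  let σ := {l : List α // l.length ≤ A} × ZMod M0 × S
  haveI : Fintype σ := Fintype.ofFinite σ
  let st : List α → σ := fun u =>
    (⟨u.take A, by rw [List.length_take]; omega⟩, (u.length : ZMod M0), (u.map φ).prod)
  let M : DFA α σ :=
    { step := fun q a =>
        (if h : q.1.1.length < A then ⟨q.1.1 ++ [a], by simp; omega⟩ else q.1,
          q.2.1 + 1, q.2.2 * φ a)
      start := st []
      accept := {q | ∃ u, f u ∧ st u = q} }
  have hev : ∀ u, M.eval u = st u := by
    intro u
    induction u using List.reverseRecOn with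
    | nil => rfl
    | append_singleton u a ih =>
      rw [DFA.eval_append_singleton, ih]
      refine Prod.ext ?_ (Prod.ext ?_ ?_)
      · apply Subtype.ext
        show (if h : (u.take A).length < A then (⟨u.take A ++ [a], by simp at h ⊢; omega⟩ :
          {l : List α // l.length ≤ A}) else ⟨u.take A, by rw [List.length_take]; omega⟩).1
          = (u ++ [a]).take A
        rw [take_snoc]
        split_ifs <;> rfl
      · show (u.length : ZMod M0) + 1 = (((u ++ [a]).length : ℕ) : ZMod M0)
        simp
      · show (u.map φ).prod * φ a = ((u ++ [a]).map φ).prod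
        simp
  refine Language.isRegular_iff.2 ⟨σ, inferInstance, M, ?_⟩
  ext u
  rw [DFA.mem_accepts, hev]
  constructor
  · rintro ⟨u', h1, h2⟩
    have e1 : u'.take A = u.take A := congrArg (fun q : σ => q.1.1) h2
    have e2 : (u'.length : ZMod M0) = (u.length : ZMod M0) := congrArg (fun q : σ => q.2.1) h2
    have e3 : (u'.map φ).prod = (u.map φ).prod := congrArg (fun q : σ => q.2.2) h2
    have e2' : u'.length % M0 = u.length % M0 := (ZMod.natCast_eq_natCast_iff' _ _ _).1 e2
    have e4 := congrArg List.length e1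
    rw [List.length_take, List.length_take] at e4
    by_cases h : u.length < A
    · rw [List.take_of_length_le (by omega), List.take_of_length_le (by omega)] at e1
      rw [← e1]; exact h1
    · exact (hf u' u (by omega) (by omega) e1 e2' e3).1 h1
  · intro h
    exact ⟨u, h, rfl⟩

section

variable {Wo : List α → Prop} {n z : ℕ}

/-- walls are star-free -/
theorem hl_W [Finite α] (loc : ∀ P Q : List α, n ≤ Q.length → (Wo (P ++ Q) ↔ Wo Q))
    (len : ∀ P, Wo P → n ≤ P.length) {k : ℕ} : HL k ({P | Wo P} : Language α) := by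
  have hfin : {Q : List α | Q.length = n ∧ Wo Q}.Finite :=
    (List.finite_length_eq α n).subset fun Q hQ => hQ.1
  refine (HL.top.mul (HL.finite (k := k) hfin)).congr fun w => Iff.symm ?_
  rw [Language.mem_mul]
  constructor
  · rintro ⟨P, -, Q, ⟨h1, h2⟩, rfl⟩
    exact (loc P Q h1.ge).2 h2
  · intro h
    have h1 := len w h
    refine ⟨w.take (w.length - n), trivial, w.drop (w.length - n), ⟨?_, ?_⟩,
      List.take_append_drop _ _⟩
    · rw [List.length_drop]; omega
    · have h' : Wo w := h
      rw [← List.take_append_drop (w.length - n) w] at h'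
      exact (loc _ _ (by rw [List.length_drop]; omega)).1 h'

theorem hl_XX0 [Finite α] (loc : ∀ P Q : List α, n ≤ Q.length → (Wo (P ++ Q) ↔ Wo Q))
    (len : ∀ P, Wo P → n ≤ P.length) {k : ℕ} : HL k ({X | XX Wo z X} : Language α) := by
  have h1 : HL k ({P | Wo P ∧ z ≤ P.length} : Language α) :=
    (hl_W loc len).setOf_and (HL.length_ge z)
  have h2 : HL k ({w : List α | 1 ≤ w.length} : Language α) := HL.length_ge 1
  refine (h1.inf (h1.mul h2).compl).congr fun w => Iff.symm ?_
  constructor
  · rintro ⟨⟨h3, h4⟩, h5⟩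
    refine ⟨h3, h4, fun t ht hz hw => h5 ?_⟩
    refine Language.mem_mul.2 ⟨w.take t, ⟨hw, ?_⟩, w.drop t, ?_, List.take_append_drop _ _⟩
    · rw [List.length_take]; omega
    · show 1 ≤ (w.drop t).length
      rw [List.length_drop]; omega
  · rintro ⟨h3, h4, h5⟩
    refine ⟨⟨h3, h4⟩, fun h => ?_⟩
    obtain ⟨P, ⟨h6, h7⟩, Q, h8, rfl⟩ := Language.mem_mul.1 h
    have h8' : 1 ≤ Q.length := h8
    refine h5 P.length (by simp; omega) h7 ?_
    rw [List.take_left]; exact h6

theorem hl_NB0 [Finite α] (loc : ∀ P Q : List α, n ≤ Q.length → (Wo (P ++ Q) ↔ Wo Q))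
    (len : ∀ P, Wo P → n ≤ P.length) {k : ℕ} : HL k ({u | NB Wo z u} : Language α) := by
  have h1 : HL k ({P | Wo P ∧ z ≤ P.length} : Language α) :=
    (hl_W loc len).setOf_and (HL.length_ge z)
  refine ((h1.mul HL.top).compl).congr fun w => Iff.symm ?_
  constructor
  · intro h t ht hz hw
    refine h (Language.mem_mul.2 ⟨w.take t, ⟨hw, ?_⟩, w.drop t, trivial,
      List.take_append_drop _ _⟩)
    rw [List.length_take]; omega
  · intro h h'
    obtain ⟨P, ⟨h6, h7⟩, Q, -, rfl⟩ := Language.mem_mul.1 h'
    refine h P.length (by simp) h7 ?_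
    rw [List.take_left]; exact h6

theorem nil_mem_PN (B R : ℕ) : ([] : List α) ∈ (PN B R : Language α) := by
  induction R with
  | zero => exact rfl
  | succ R ih => exact Language.mem_mul.2 ⟨[], nil_mem_Pc B, [], ih, rfl⟩

theorem Pc_mono {B B' : ℕ} (h : B ≤ B') {w : List α} (hw : w ∈ (Pc B : Language α)) :
    w ∈ (Pc B' : Language α) := by
  obtain ⟨f, x, k, h1, h2, h3⟩ := hw
  exact ⟨f, x, k, h1.trans h, h2.trans h, h3⟩

theorem PN_mono {B B' : ℕ} (h : B ≤ B') (R : ℕ) {w : List α} (hw : w ∈ (PN B R : Language α)) :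
    w ∈ (PN B' R : Language α) := by
  induction R generalizing w with
  | zero => exact hw
  | succ R ih =>
    obtain ⟨a, ha, b, hb, rfl⟩ := Language.mem_mul.1 hw
    exact Language.mem_mul.2 ⟨a, Pc_mono h ha, b, ih hb, rfl⟩

/-- words with no wall at an inner place `≥ z` are bounded -/
theorem bdd_of_free (loc : ∀ P Q : List α, n ≤ Q.length → (Wo (P ++ Q) ↔ Wo Q))
    (len : ∀ P, Wo P → n ≤ P.length) {B R : ℕ}
    (free : ∀ u : List α, (∀ t < u.length, ¬ Wo (u.take t)) → u ∈ (PN B R : Language α))
    {X : List α} (hX : ∀ t < X.length, z ≤ t → ¬ Wo (X.take t)) :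
    X ∈ (PN (max B z) (R + 1) : Language α) := by
  refine Language.mem_mul.2 ⟨X.take z, ⟨X.take z, [], 0, ?_, by simp, by simp⟩, X.drop z,
    PN_mono (le_max_left _ _) R (free _ fun t ht hw => ?_), List.take_append_drop _ _⟩
  · rw [List.length_take]; omega
  · rw [List.length_drop] at ht
    have hn := len _ hw
    have e : X.take (z + t) = X.take z ++ (X.drop z).take t := by rw [List.take_add]
    refine hX (z + t) (by omega) (by omega) ?_
    rw [e]
    exact (loc _ _ hn).2 hw

/-- **blocks with a regular property** -/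
theorem hl_XX [Finite α] (loc : ∀ P Q : List α, n ≤ Q.length → (Wo (P ++ Q) ↔ Wo Q))
    (len : ∀ P, Wo P → n ≤ P.length) {B R : ℕ}
    (free : ∀ u : List α, (∀ t < u.length, ¬ Wo (u.take t)) → u ∈ (PN B R : Language α))
    {f : List α → Prop} (hf : Language.IsRegular ({u | f u} : Language α)) :
    HL 1 ({X | XX Wo z X ∧ f X} : Language α) := by
  have h1 : Language.IsRegular ({X | XX Wo z X} : Language α) :=
    Crest.Agent.R320.Reg_852.HL.isRegular (hl_XX0 (k := 0) loc len)
  refine HL_one_of_regular (L := ({X | XX Wo z X ∧ f X} : Language α)) ?_ (max B z) (R + 1) ?_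
  · have h2 := h1.inf hf
    exact h2
  · rintro w ⟨⟨-, -, h3⟩, -⟩
    exact bdd_of_free loc len free h3

/-- **rests with a regular property** -/
theorem hl_NB [Finite α] (loc : ∀ P Q : List α, n ≤ Q.length → (Wo (P ++ Q) ↔ Wo Q))
    (len : ∀ P, Wo P → n ≤ P.length) {B R : ℕ}
    (free : ∀ u : List α, (∀ t < u.length, ¬ Wo (u.take t)) → u ∈ (PN B R : Language α))
    {f : List α → Prop} (hf : Language.IsRegular ({u | f u} : Language α)) :
    HL 1 ({u | NB Wo z u ∧ f u} : Language α) := by
  have h1 : Language.IsRegular ({u | NB Wo z u} : Language α) :=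
    Crest.Agent.R320.Reg_852.HL.isRegular (hl_NB0 (k := 0) loc len)
  refine HL_one_of_regular (L := ({u | NB Wo z u ∧ f u} : Language α)) ?_ (max B z) (R + 1) ?_
  · have h2 := h1.inf hf
    exact h2
  · rintro w ⟨h3, -⟩
    exact bdd_of_free loc len free fun t ht => h3 t ht.le

end

end Crest.Agent.R320.P4_933
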