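import Crest.Agent.R320.Asm3_745
import Crest.Agent.R320.Reg_852
import Crest.Agent.R320.P4_933

/-!
# Row 320: assembly, base languages (helper745)
-/

set_option autoImplicit false

namespace Crest.Agent.R320.Asm_745

open Crest.RegLang Crest.Agent.R320.Hgt1_903 Crest.Agent.R320.Three_427
open Crest.Agent.R320.Grid_745

/-- regular predicates -/
def Rg {α : Type} (p : List α → Prop) : Prop := Language.IsRegular ({w | p w} : Language α)

section Rg

variable {α : Type}

theorem Rg.congr {p q : List α → Prop} (h : Rg p) (e : ∀ w, p w ↔ q w) : Rg q := by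
  have : (fun w => p w) = fun w => q w := funext fun w => propext (e w)
  have h2 : p = q := this
  rw [← h2]; exact h

theorem Rg.and {p q : List α → Prop} (hp : Rg p) (hq : Rg q) : Rg fun w => p w ∧ q w := by
  have h : Language.IsRegular (({w | p w} : Language α) ⊓ ({w | q w} : Language α)) := hp.inf hq
  exact h

theorem Rg.not {p : List α → Prop} (hp : Rg p) : Rg fun w => ¬ p w := by
  have h : Language.IsRegular (({w | p w} : Language α)ᶜ) := hp.compl
  exact h

theorem Rg.or {p q : List α → Prop} (hp : Rg p) (hq : Rg q) : Rg fun w => p w ∨ q w := by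
  refine ((hp.not.and hq.not).not).congr fun w => ?_
  tauto

theorem Rg.hl {k : ℕ} {p : List α → Prop}
    (h : Crest.Agent.R320.Hk_851.HL k ({w | p w} : Language α)) : Rg p :=
  Crest.Agent.R320.Reg_852.HL.isRegular h

theorem Rg.const (c : Prop) : Rg fun _ : List α => c :=
  Rg.hl (k := 0) (Crest.Agent.R320.Hk_851.HL.const c)

theorem Rg.cat {p q : List α → Prop} (hp : Rg p) (hq : Rg q) :
    Rg fun w => ∃ u v, w = u ++ v ∧ p u ∧ q v := by
  let A : Language α := {w | p w}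
  let B : Language α := {w | q w}
  have h : Rg (fun w => w ∈ A * B) := Crest.Agent.R320.Reg_852.IsRegular.mul (L := A) (M := B) hp hq
  refine h.congr fun w => ?_
  rw [Language.mem_mul]
  constructor
  · rintro ⟨u, hu, v, hv, rfl⟩; exact ⟨u, v, rfl, hu, hv⟩
  · rintro ⟨u, v, rfl, hu, hv⟩; exact ⟨u, hu, v, hv, rfl⟩

theorem Rg.finset {ι : Type*} (s : Finset ι) (p : ι → List α → Prop) (h : ∀ i ∈ s, Rg (p i)) :
    Rg fun w => ∃ i ∈ s, p i w := by
  classical
  induction s using Finset.induction with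
  | empty => exact (Rg.const False).congr fun w => by simp
  | insert a s ha ih =>
    refine ((h a (Finset.mem_insert_self a s)).or
      (ih fun i hi => h i (Finset.mem_insert_of_mem hi))).congr fun w => ?_
    simp only [Finset.mem_insert, exists_eq_or_imp]

theorem Rg.ex {ι : Type*} [Finite ι] (p : ι → List α → Prop) (h : ∀ i, Rg (p i)) :
    Rg fun w => ∃ i, p i w := by
  haveI := Fintype.ofFinite ι
  refine (Rg.finset Finset.univ p fun i _ => h i).congr fun w => ?_
  simp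

theorem Rg.all {ι : Type*} [Finite ι] (p : ι → List α → Prop) (h : ∀ i, Rg (p i)) :
    Rg fun w => ∀ i, p i w := by
  refine ((Rg.ex (fun i w => ¬ p i w) fun i => (h i).not).not).congr fun w => ?_
  push Not
  exact Iff.rfl

theorem Rg.ltk (K : ℕ) (p : ℕ → List α → Prop) (h : ∀ i < K, Rg (p i)) :
    Rg fun w => ∃ i < K, p i w := by
  refine (Rg.finset (Finset.range K) p fun i hi => h i (Finset.mem_range.1 hi)).congr fun w => ?_
  simp only [Finset.mem_range]

theorem Rg.bdd [Finite α] (B : ℕ) (p : List α → Prop) (h : ∀ w, p w → w.length ≤ B) : Rg p :=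
  Rg.hl (k := 0) (Crest.Agent.R320.Hk_851.HL.finite
    ((List.finite_length_le α B).subset fun w hw => h w hw))

theorem Rg.ge [Finite α] (B : ℕ) : Rg fun w : List α => B ≤ w.length :=
  Rg.hl (k := 0) (Crest.Agent.R320.Hk_851.HL.length_ge B)

theorem Rg.prod {S : Type} [Monoid S] [Finite S] (φ : α → S) (p : S → Prop) :
    Rg fun w => p (ph φ w) := by
  refine (Rg.ex (fun (s : {s : S // p s}) w => (w.map φ).prod = s.1) fun s =>
    Crest.Agent.R320.Reg_852.isRegular_prod φ s.1).congr fun w => ?_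
  constructor
  · rintro ⟨s, hs⟩; show p ((w.map φ).prod); rw [hs]; exact s.2
  · intro h; exact ⟨⟨_, h⟩, rfl⟩

end Rg

variable {α S V : Type} [Monoid S] [AddCommGroup V] {φ : α → S} {act : V → S → V} {R0 K : ℕ}

namespace Par

variable (D : Par α S V φ act R0 K)

/-- no block at the start -/
def NB (w : List α) : Prop := ∀ u, u <+: w → ¬ D.XX u

/-- at most one block -/
def One (w : List α) : Prop := D.NB w ∨ ∃ X E, w = X ++ E ∧ D.XX X ∧ D.NB E

theorem NB_wall {w : List α} (h : D.NB w) {t : ℕ} (ht : t ≤ w.length) (hw : Wo D.Ws (w.take t)) :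
    t < D.z := by
  classical
  by_contra hc
  have hex : ∃ t, t ≤ w.length ∧ Wo D.Ws (w.take t) ∧ D.z ≤ t := ⟨t, ht, hw, by omega⟩
  obtain ⟨h1, h2, h3⟩ := Nat.find_spec hex
  refine h (w.take (Nat.find hex)) (List.take_prefix _ _) ⟨h2, ?_, fun s hs hws => ?_⟩
  · rw [List.length_take]; omega
  · rw [List.length_take] at hs
    rw [List.take_take, min_eq_left (by omega)] at hws
    by_contra hcs
    exact Nat.find_min hex (by omega : s < Nat.find hex) ⟨by omega, hws, by omega⟩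

theorem NB_prefix {w u : List α} (h : D.NB w) (hu : u <+: w) : D.NB u :=
  fun y hy => h y (hy.trans hu)

theorem One_prefix {w u : List α} (h : D.One w) (hu : u <+: w) : D.One u := by
  rcases h with h | ⟨X, E, rfl, hX, hE⟩
  · exact Or.inl (D.NB_prefix h hu)
  · by_cases hc : ∃ y, y <+: u ∧ D.XX y
    · obtain ⟨y, hy, hXy⟩ := hc
      right
      have h1 : y <+: X ++ E := hy.trans hu
      have h2 : y = X := by
        rcases List.prefix_or_prefix_of_prefix h1 (List.prefix_append X E) with h3 | h3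
        · exact D.XX_prefix hXy hX h3
        · exact (D.XX_prefix hX hXy h3).symm
      subst h2
      obtain ⟨e, rfl⟩ := hy
      refine ⟨y, e, rfl, hX, D.NB_prefix hE ?_⟩
      exact (List.prefix_append_right_inj y).1 hu
    · left
      intro y hy hXy
      exact hc ⟨y, hy, hXy⟩

theorem run_NB {w : List α} (h : D.NB w) (v : V) : run D.step w ([], v) = (w, v) :=
  D.run_noblock w [] v (fun y hy _ => by simpa using h y hy)

theorem run_X {X E : List α} (hX : D.XX X) (v : V) :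
    run D.step (X ++ E) ([], v) = run D.step E ([], D.T X v) := by
  rw [run_append, D.run_block X [] v (D.XX_ne hX) (by simpa using hX), List.nil_append]

/-- states after words with at most one block -/
def Fst (F : Set (List α × V)) (v : V) (w : List α) : Prop :=
  (D.NB w ∧ (w, v) ∈ F) ∨ ∃ v' : V, ∃ X E, w = X ++ E ∧ (D.XX X ∧ D.T X v = v') ∧
    (D.NB E ∧ (E, v') ∈ F)

theorem Fst_iff {F : Set (List α × V)} {v : V} {w : List α} (h : D.One w) :
    run D.step w ([], v) ∈ F ↔ D.Fst F v w := by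
  constructor
  · intro hF
    rcases h with h | ⟨X, E, rfl, hX, hE⟩
    · rw [D.run_NB h] at hF; exact Or.inl ⟨h, hF⟩
    · rw [D.run_X hX, D.run_NB hE] at hF
      exact Or.inr ⟨_, X, E, rfl, ⟨hX, rfl⟩, hE, hF⟩
  · rintro (⟨h1, h2⟩ | ⟨v', X, E, rfl, ⟨hX, rfl⟩, hE, h2⟩)
    · rw [D.run_NB h1]; exact h2
    · rw [D.run_X hX, D.run_NB hE]; exact h2

/-- live words have at most one block -/
theorem live_One {w : List α} {v : V} (h : Live D.step D.L 2 ([], v) w) : D.One w := by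
  by_contra hc
  have h1 : ¬ D.NB w := fun h1 => hc (Or.inl h1)
  unfold NB at h1
  push Not at h1
  obtain ⟨X, ⟨E, rfl⟩, hX⟩ := h1
  have h2 : ¬ D.NB E := fun h2 => hc (Or.inr ⟨X, E, rfl, hX, h2⟩)
  unfold NB at h2
  push Not at h2
  obtain ⟨X2, ⟨E2, rfl⟩, hX2⟩ := h2
  have hrun : ∀ P, P <+: X → P.length < X.length → run D.step P ([], v) = (P, v) := by
    intro P hP hl
    refine D.run_NB (fun y hy hXy => ?_) v
    have h3 := D.XX_prefix hXy hX (hy.trans hP)
    have := hy.length_le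
    rw [h3] at this
    omega
  by_cases hB : D.CB 0 X
  · obtain ⟨P, W', hPW, hPX, hPl, hC, hR⟩ := D.complete1 hX hX2 hB v
    refine h 1 (by omega) P (W' ++ E2) ?_ ?_
    · rw [← List.append_assoc, ← hPW, List.append_assoc]
    · rw [hrun P hPX hPl]
      exact ⟨hC, W', E2, rfl, hR⟩
  · obtain ⟨P, Q, hPQ, hC, hR⟩ := D.complete0 hX hB v
    have hQne : Q ≠ [] := D.ne Q hR.2
    have := List.length_pos_iff.2 hQne
    refine h 0 (by omega) P (Q ++ (X2 ++ E2)) ?_ ?_
    · rw [← List.append_assoc, ← hPQ]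
    · rw [hrun P (by rw [hPQ]; exact List.prefix_append _ _)
        (by rw [hPQ, List.length_append]; omega)]
      exact ⟨hC, Q, X2 ++ E2, rfl, hR⟩

theorem live_iff2 {w : List α} {v : V} (h : D.One w) : Live D.step D.L 2 ([], v) w ↔
    ∀ j : Fin 2, ¬ ∃ x y, w = x ++ y ∧ D.Fst {q | (D.L j).C q} v x ∧
      ∃ Q t, y = Q ++ t ∧ (D.L j).R Q ∧ True := by
  constructor
  · rintro hl j ⟨x, y, rfl, hF, Q, t, rfl, hR, -⟩
    rw [← D.Fst_iff (D.One_prefix h (List.prefix_append _ _))] at hF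
    exact hl j.1 j.2 x _ rfl ⟨hF, Q, t, rfl, hR⟩
  · rintro hl j hj x y rfl ⟨hC, Q, t, rfl, hR⟩
    refine hl ⟨j, hj⟩ ⟨x, _, rfl, ?_, Q, t, rfl, hR, trivial⟩
    rw [← D.Fst_iff (D.One_prefix h (List.prefix_append _ _))]
    exact hC

/-! ### regularity -/

theorem rg_Wo [Finite α] : Rg (Wo D.Ws) := by
  have hf : (D.Ws).Finite := (List.finite_length_eq α D.n).subset fun s hs => D.hWs s hs
  have h := Crest.Agent.R320.Hk_851.HL.suffix
    (Crest.Agent.R320.Hk_851.HL.finite (k := 0) hf)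
  exact Rg.hl h

theorem rg_len [Finite α] (p : ℕ → Prop) (B : ℕ) (hp : ∀ n, B ≤ n → (p n ↔ p B)) :
    Rg fun w : List α => p w.length := by
  refine (((Rg.bdd B (fun w : List α => w.length < B ∧ p w.length) fun w h => h.1.le).or
    ((Rg.ge B).and (Rg.const (p B))))).congr fun w => ?_
  constructor
  · rintro (h | ⟨h1, h2⟩)
    · exact h.2
    · exact (hp _ h1).2 h2
  · intro h
    by_cases hw : w.length < B
    · exact Or.inl ⟨hw, h⟩
    · exact Or.inr ⟨by show B ≤ w.length; omega, (hp _ (by omega)).1 h⟩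

theorem rg_first [Finite α] (x : ℕ) : Rg (D.CX x) := by
  have h1 : Rg fun u : List α => Wo D.Ws u ∧ D.z ≤ x + u.length :=
    D.rg_Wo.and (rg_len (fun n => D.z ≤ x + n) D.z (fun n hn => by
      constructor <;> intro _ <;> omega))
  refine (h1.and ((h1.cat (Rg.ge 1)).not)).congr fun w => ?_
  constructor
  · rintro ⟨⟨h2, h3⟩, h4⟩
    refine ⟨h2, h3, fun t ht hw => ?_⟩
    by_contra hc
    refine h4 ⟨w.take t, w.drop t, (List.take_append_drop _ _).symm, ⟨hw, ?_⟩, ?_⟩
    · rw [List.length_take]; omega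
    · show 1 ≤ (w.drop t).length
      rw [List.length_drop]; omega
  · rintro ⟨h2, h3, h4⟩
    refine ⟨⟨h2, h3⟩, ?_⟩
    rintro ⟨u, v, rfl, ⟨h5, h6⟩, h7⟩
    have h8 : 1 ≤ v.length := h7
    have := h4 u.length (by rw [List.length_append]; omega) (by simpa using h5)
    omega

theorem rg_XX [Finite α] : Rg D.XX := (D.rg_first 0).congr fun _ => D.CX_zero

theorem rg_NB [Finite α] : Rg D.NB := by
  refine ((D.rg_XX.cat (Rg.const True)).not).congr fun w => ?_
  constructor
  · rintro h u ⟨v, rfl⟩ hu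
    exact h ⟨u, v, rfl, hu, trivial⟩
  · rintro h ⟨u, v, rfl, hu, -⟩
    exact h u (List.prefix_append _ _) hu

theorem rg_CE [Finite α] (x : ℕ) : Rg (D.CE x) := by
  have h1 : Rg fun u : List α => Wo D.Ws u ∧ (D.z ≤ x + u.length + D.N1 ∧
      x + u.length ≤ D.z + D.N1) :=
    D.rg_Wo.and ((Rg.bdd (D.z + D.N1) (fun u : List α => D.z ≤ x + u.length + D.N1 ∧
      x + u.length ≤ D.z + D.N1) fun w h => by omega))
  refine (h1.cat (Rg.const True)).congr fun w => ?_
  constructor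
  · rintro ⟨u, v, rfl, ⟨h2, h3, h4⟩, -⟩
    exact ⟨u.length, by simp, by simpa using h2, h3, h4⟩
  · rintro ⟨t, ht, hw, h3, h4⟩
    refine ⟨w.take t, w.drop t, (List.take_append_drop _ _).symm, ⟨hw, ?_, ?_⟩, trivial⟩
    · rw [List.length_take]; omega
    · rw [List.length_take]; omega

theorem bad_mod (T T' : ℕ) (h : T % D.M = T' % D.M) : D.Bad T ↔ D.Bad T' := by
  have key : ∀ (n T : ℕ), D.Bad (T + n * D.M) ↔ D.Bad T := by
    intro n
    induction n with
    | zero => intro T; simp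
    | succ n ih =>
      intro T
      rw [Nat.succ_mul, ← Nat.add_assoc, D.per, ih]
  have h1 : ∀ T, D.Bad T ↔ D.Bad (T % D.M) := by
    intro T
    conv_lhs => rw [← Nat.mod_add_div T D.M, Nat.mul_comm]
    exact key _ _
  rw [h1 T, h, ← h1 T']

theorem rg_Bad [Finite α] (x : ℕ) : Rg fun Q : List α => D.Bad (x + Q.length - D.p0) := by
  refine Crest.Agent.R320.P4_933.regular_of_class (S := Unit) (fun _ => 1) D.p0 D.M D.hM _ ?_
  intro u u' h1 h2 _ h3 _
  refine D.bad_mod _ _ ?_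
  have e1 : x + u.length - D.p0 = x + (u.length - D.p0) := by omega
  have e2 : x + u'.length - D.p0 = x + (u'.length - D.p0) := by omega
  rw [e1, e2]
  have h4 : u.length ≡ u'.length [MOD D.M] := h3
  have h5 : (u.length - D.p0) ≡ (u'.length - D.p0) [MOD D.M] := by
    refine Nat.ModEq.add_right_cancel' D.p0 ?_
    rw [Nat.sub_add_cancel h1, Nat.sub_add_cancel h2]
    exact h4
  exact Nat.ModEq.add_left x h5

theorem rg_CB [Finite α] (x : ℕ) : Rg (D.CB x) :=
  (D.rg_first x).and ((D.rg_CE x).or (D.rg_Bad x))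

theorem rg_RW [Finite α] : Rg D.RW := by
  have h1 : Rg fun u : List α => Wo D.Ws u ∧ D.z ≤ D.p0 + u.length :=
    D.rg_Wo.and (rg_len (fun n => D.z ≤ D.p0 + n) D.z (fun n hn => by
      constructor <;> intro _ <;> omega))
  have h2 : Rg fun u : List α => Wo D.Ws u ∧ D.z ≤ u.length + D.p0 + D.N1 :=
    D.rg_Wo.and (rg_len (fun n => D.z ≤ n + D.p0 + D.N1) D.z (fun n hn => by
      constructor <;> intro _ <;> omega))
  refine (h1.and ((h2.cat (Rg.ge 1)).not)).congr fun w => ?_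
  constructor
  · rintro ⟨⟨h2, h3⟩, h4⟩
    refine ⟨h2, h3, fun t ht hw => ?_⟩
    by_contra hc
    refine h4 ⟨w.take t, w.drop t, (List.take_append_drop _ _).symm, ⟨hw, ?_⟩, ?_⟩
    · rw [List.length_take]; omega
    · show 1 ≤ (w.drop t).length
      rw [List.length_drop]; omega
  · rintro ⟨h2, h3, h4⟩
    refine ⟨⟨h2, h3⟩, ?_⟩
    rintro ⟨u, v, rfl, ⟨h5, h6⟩, h7⟩
    have h8 : 1 ≤ v.length := h7
    have := h4 u.length (by rw [List.length_append]; omega) (by simpa using h5)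
    omega

theorem rg_T [Finite α] [Finite S] [Finite V] (v v' : V) :
    Rg fun X => D.XX X ∧ D.T X v = v' := by
  have h : Rg fun X : List α => ∃ i : {i : V × S × V // act i.1 i.2.1 + i.2.2 = v'}, ∃ u Y,
      X = u ++ Y ∧ (u.length = D.p0 ∧ act v (ph φ u) + D.nu2 u 1 = i.1.1) ∧
        (ph φ Y = i.1.2.1 ∧ D.nu Y = i.1.2.2) := by
    refine Rg.ex _ fun i => Rg.cat ?_ ?_
    · exact Rg.bdd D.p0 _ fun w h => h.1.le
    · exact (Rg.prod φ (fun s => s = i.1.2.1)).and (D.regν i.1.2.2)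
  refine (D.rg_XX.and h).congr fun X => ?_
  constructor
  · rintro ⟨hX, ⟨⟨x, s, y⟩, hi⟩, u, Y, rfl, ⟨h1, h2⟩, h3, h4⟩
    refine ⟨hX, ?_⟩
    simp only at hi h2 h3 h4
    unfold T
    rw [List.take_append_of_le_length h1.ge, List.drop_append_of_le_length h1.ge,
      List.take_of_length_le h1.le, List.drop_of_length_le h1.le, List.nil_append, h2, h3, h4, hi]
  · rintro ⟨hX, h1⟩
    have hz := D.hz
    have := hX.2.1
    refine ⟨hX, ⟨⟨_, _, _⟩, h1⟩, X.take D.p0, X.drop D.p0, (List.take_append_drop _ _).symm,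
      ⟨?_, rfl⟩, rfl, rfl⟩
    rw [List.length_take]; omega

theorem rg_Fst [Finite α] [Finite S] [Finite V] (F : Set (List α × V)) (v : V)
    (hF : ∀ v, Rg fun u => (u, v) ∈ F) : Rg (D.Fst F v) := by
  refine (D.rg_NB.and (hF v)).or ?_
  refine Rg.ex _ fun v' => Rg.cat (D.rg_T v v') (D.rg_NB.and (hF v'))

theorem rg_C [Finite α] (j : Fin 2) (v : V) : Rg fun u => (u, v) ∈ {q | (D.L j).C q} := by
  match j with
  | 0 =>
    refine Rg.bdd (D.p0 + D.N1) _ fun w h => ?_
    have h1 : D.L0.C (w, v) := h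
    have := D.len _ _ h1.2
    rw [List.length_drop] at this
    simp only at this
    omega
  | 1 =>
    refine Rg.bdd (D.p0 + D.N1) _ fun w h => ?_
    have h1 : D.L1.C (w, v) := h
    obtain ⟨k, hk, h2, -⟩ := h1
    have := D.hp0 k hk
    simp only at h2
    omega

theorem rg_R0 [Finite α] (b : V) : Rg fun Q => D.RW Q ∧ D.rho Q = some b :=
  D.rg_RW.and (D.regρ b)

theorem rg_Val [Finite α] [Finite S] [Finite V] (x : V) : Rg fun W => D.Val W x := by
  have hv : ∀ j (y : V), Rg fun Q : List α => ∃ b : V, ∃ i : {i : S × V // y = act b i.1 + i.2},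
      ∃ u Y, Q = u ++ Y ∧ (u.length = D.p0 - D.c j ∧ D.rh j u 1 = some b) ∧
        (ph φ Y = i.1.1 ∧ D.nu Y = i.1.2) := by
    intro j y
    refine Rg.ex _ fun b => Rg.ex _ fun i => Rg.cat ?_ ?_
    · exact Rg.bdd (D.p0 - D.c j) _ fun w h => h.1.le
    · exact (Rg.prod φ (fun s => s = i.1.1)).and (D.regν i.1.2)
  have hu : ∀ j, Rg fun W : List α => ¬ ∃ j' < K, (j' ≠ j ∧ ∃ Q' E, W = Q' ++ E ∧
      D.CB (D.c j') Q' ∧ True) := by
    intro j
    refine (Rg.ltk K _ fun j' _ => (Rg.const _).and ((D.rg_CB _).cat (Rg.const True))).not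
  have hmain : Rg fun W : List α => ∃ j < K, ((¬ ∃ j' < K, (j' ≠ j ∧ ∃ Q' E, W = Q' ++ E ∧
      D.CB (D.c j') Q' ∧ True)) ∧ ∃ y : V, ∃ Q X, W = Q ++ X ∧ (D.CB (D.c j) Q ∧
      ∃ b : V, ∃ i : {i : S × V // y = act b i.1 + i.2},
      ∃ u Y, Q = u ++ Y ∧ (u.length = D.p0 - D.c j ∧ D.rh j u 1 = some b) ∧
        (ph φ Y = i.1.1 ∧ D.nu Y = i.1.2)) ∧ (D.XX X ∧ D.T X y = x)) := by
    refine Rg.ltk K _ fun j _ => (hu j).and (Rg.ex _ fun y => Rg.cat ((D.rg_CB _).and (hv j y))
      (D.rg_T y x))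
  refine hmain.congr fun W => ?_
  have hz := D.hz
  constructor
  · rintro ⟨j, hj, h1, y, Q, X, rfl, ⟨h2, b, ⟨⟨s, n⟩, hi⟩, u, Y, rfl, ⟨h3, h4⟩, h5, h6⟩, h7, h8⟩
    refine ⟨j, hj, u ++ Y, X, b, rfl, h7, h2, ?_, ?_, ?_⟩
    · rintro j' hj' hne Q' ⟨E, hE⟩ hCB
      exact h1 ⟨j', hj', hne, Q', E, hE.symm, hCB, trivial⟩
    · rw [List.take_append_of_le_length h3.ge, List.take_of_length_le h3.le]
      exact h4
    · simp only at hi h5 h6
      rw [List.drop_append_of_le_length h3.ge, List.drop_of_length_le h3.le, List.nil_append,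
        h5, h6, ← hi, h8]
  · rintro ⟨j, hj, Q, X, b, rfl, hX, hCB, hu', hr, rfl⟩
    have h0 := D.hp0 j hj
    have h1 := hCB.1.2.1
    refine ⟨j, hj, ?_, _, Q, X, rfl, ⟨hCB, b, ⟨⟨_, _⟩, rfl⟩, Q.take (D.p0 - D.c j),
      Q.drop (D.p0 - D.c j), (List.take_append_drop _ _).symm, ⟨?_, hr⟩, rfl, rfl⟩, hX, rfl⟩
    · rintro ⟨j', hj', hne, Q', E, hE, hCB', -⟩
      exact hu' j' hj' hne Q' ⟨E, hE.symm⟩ hCB'
    · rw [List.length_take]; omega

end Par

end Crest.Agent.R320.Asm_745
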