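import Crest.Agent.R320.Asm4_745

/-!
# Row 320: assembly, few walls and the conclusion for one token (helper745)
-/

set_option autoImplicit false

namespace Crest.Agent.R320.Asm_745

open Crest.RegLang Crest.Agent.R320.Hgt1_903 Crest.Agent.R320.Three_427
open Crest.Agent.R320.Grid_745 Crest.Agent.R320.FewWalls_228

variable {α S V : Type} [Monoid S] [AddCommGroup V] {φ : α → S} {act : V → S → V} {R0 K : ℕ}

namespace Par

variable (D : Par α S V φ act R0 K)

theorem nw_le {w : List α} (B a b : ℕ) (h : ∀ t ≤ w.length, Wo D.Ws (w.take t) →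
    t < B ∨ (a ≤ t ∧ t < a + B) ∨ (b ≤ t ∧ t < b + B)) : nw D.n D.Ws w ≤ 3 * B := by
  classical
  have h1 : (((Finset.range (w.length + 1)).filter (fun x => Wl D.n D.Ws w x)).image
      (fun x => x + D.n)) ⊆ Finset.range B ∪ Finset.Ico a (a + B) ∪ Finset.Ico b (b + B) := by
    intro t ht
    obtain ⟨x, hx, rfl⟩ := Finset.mem_image.1 ht
    obtain ⟨-, h2, h3⟩ := Finset.mem_filter.1 hx
    have h4 : Wo D.Ws (w.take (x + D.n)) := by
      rw [List.take_add]
      exact ⟨_, h3, List.suffix_append _ _⟩
    rcases h _ h2 h4 with h5 | h5 | h5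
    · simp only [Finset.mem_union, Finset.mem_range, Finset.mem_Ico]; omega
    · simp only [Finset.mem_union, Finset.mem_range, Finset.mem_Ico]; omega
    · simp only [Finset.mem_union, Finset.mem_range, Finset.mem_Ico]; omega
  have h2 := Finset.card_le_card h1
  rw [Finset.card_image_of_injective _ (fun x y h => by simpa using h)] at h2
  have h3 := Finset.card_union_le (Finset.range B ∪ Finset.Ico a (a + B)) (Finset.Ico b (b + B))
  have h4 := Finset.card_union_le (Finset.range B) (Finset.Ico a (a + B))
  simp only [Finset.card_range, Nat.card_Ico] at h3 h4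
  have h5 : nw D.n D.Ws w =
      ((Finset.range (w.length + 1)).filter (fun x => Wl D.n D.Ws w x)).card := by
    unfold nw
    congr
  rw [h5]
  omega

theorem nw_One {w : List α} (h : D.One w) : nw D.n D.Ws w ≤ 3 * (D.z + D.n + 1) := by
  rcases h with h | ⟨X, E, rfl, hX, hE⟩
  · refine D.nw_le _ 0 0 fun t ht hw => ?_
    have := D.NB_wall h ht hw
    omega
  · refine D.nw_le _ X.length X.length fun t ht hw => ?_
    by_cases h1 : t < X.length
    · rw [List.take_append_of_le_length h1.le] at hw
      have := hX.2.2 t h1 hw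
      omega
    · by_cases h2 : t < X.length + D.n
      · omega
      · obtain ⟨t', rfl⟩ : ∃ t', t = X.length + t' := ⟨t - X.length, by omega⟩
        rw [List.length_append] at ht
        rw [D.wo_take_append (by omega)] at hw
        rcases hw with hw | ⟨hw, _⟩
        · have := D.NB_wall hE (by omega) hw
          omega
        · omega

theorem nw_RW {w : List α} (h : D.RW w) : nw D.n D.Ws w ≤ 3 * (D.z + D.n + 1) := by
  refine D.nw_le _ w.length w.length fun t ht hw => ?_
  by_cases h1 : t < w.length
  · have := h.2.2 t h1 hw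
    omega
  · omega

theorem nw_Val {w : List α} {x : V} (h : D.Val w x) : nw D.n D.Ws w ≤ 3 * (D.z + D.n + 1) := by
  obtain ⟨j, hj, Q, X, b, rfl, hX, hCB, -⟩ := h
  refine D.nw_le _ Q.length (Q ++ X).length fun t ht hw => ?_
  by_cases h1 : t < Q.length
  · rw [List.take_append_of_le_length h1.le] at hw
    have := hCB.1.2.2 t h1 hw
    omega
  · by_cases h2 : t < Q.length + D.n
    · omega
    · obtain ⟨t', rfl⟩ : ∃ t', t = Q.length + t' := ⟨t - Q.length, by omega⟩
      rw [List.length_append] at ht
      rw [D.wo_take_append (by omega)] at hw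
      rcases hw with hw | ⟨hw, _⟩
      · by_cases h3 : t' < X.length
        · have := hX.2.2 t' h3 hw
          omega
        · rw [List.length_append]; omega
      · omega

/-- the conclusion for one token -/
theorem one_token [Finite α] [Finite S] [Finite V]
    (hHL : ∀ (p : List α → Prop), Rg p → ∀ r, (∀ w, p w → nw D.n D.Ws w ≤ r) →
      H 1 ({w | p w} : Language α))
    (v x : V) : H 3 ({w | act (run D.step w ([], v)).2 (ph φ (run D.step w ([], v)).1) = x} :
      Language α) := by
  have h := Crest.Agent.R320.NestInf_163.nested_infinite D.step D.L 2 1 ([], v)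
    {q | act q.2 (ph φ q.1) = x} ?_ ?_ ?_ ?_ ?_
  · exact h
  · intro j hj Q hQ
    match j, hj with
    | 0, _ => exact D.ne Q (show D.L0.R Q from hQ).2
    | 1, _ =>
      obtain ⟨y, k, hk, Q', X, b, rfl, hX, -⟩ := (show D.L1.R Q from hQ)
      intro h0
      exact D.XX_ne hX (List.append_eq_nil_iff.1 h0).2
  · intro j hj
    refine Set.Finite.subset (Set.finite_range (fun y : V => (([] : List α), y))) ?_
    rintro ω ⟨Q, hQ, rfl⟩
    match j, hj with
    | 0, _ => exact ⟨_, rfl⟩
    | 1, _ => exact ⟨_, rfl⟩
  · intro j hj ω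
    match j, hj with
    | 0, _ =>
      by_cases hω : ω.1 = []
      · have h1 := hHL _ (D.rg_R0 ω.2) _ fun w hw => D.nw_RW hw.1
        refine H.congr h1 fun w => ?_
        constructor
        · rintro ⟨h2, h3⟩
          refine ⟨(show D.L0.R w from ⟨h2, by rw [h3]; rfl⟩), ?_⟩
          show (([] : List α), (D.rho w).getD 0) = ω
          rw [h3, Option.getD_some, ← hω]
        · rintro ⟨h2, h3⟩
          obtain ⟨h4, h5⟩ := (show D.L0.R w from h2)
          obtain ⟨b, hb⟩ := Option.isSome_iff_exists.1 h5
          refine ⟨h4, ?_⟩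
          have h6 : (([] : List α), (D.rho w).getD 0) = ω := h3
          rw [← h6, hb]; rfl
      · refine H.congr (H.empty 1) fun w => ?_
        constructor
        · intro h; exact absurd h (Language.notMem_zero _)
        · rintro ⟨h2, h3⟩
          have h6 : (([] : List α), (D.rho w).getD 0) = ω := h3
          exact absurd (by rw [← h6]) hω
    | 1, _ =>
      by_cases hω : ω.1 = []
      · have h1 := hHL _ (D.rg_Val ω.2) _ fun w hw => D.nw_Val hw
        refine H.congr h1 fun w => ?_
        constructor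
        · intro h2
          refine ⟨(show D.L1.R w from ⟨_, h2⟩), ?_⟩
          show D.L1.c w = ω
          rw [D.c1_eq h2, ← hω]
        · rintro ⟨h2, h3⟩
          obtain ⟨y, hy⟩ := (show D.L1.R w from h2)
          have h4 : D.L1.c w = ω := h3
          rw [D.c1_eq hy] at h4
          rw [← h4]; exact hy
      · refine H.congr (H.empty 1) fun w => ?_
        constructor
        · intro h; exact absurd h (Language.notMem_zero _)
        · rintro ⟨h2, h3⟩
          obtain ⟨y, hy⟩ := (show D.L1.R w from h2)
          have h4 : D.L1.c w = ω := h3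
          rw [D.c1_eq hy] at h4
          exact absurd (by rw [← h4]) hω
  · intro i hi p Q hC hR hl
    match i, hi with
    | 0, _ => exact D.sound0 p Q hC hR
    | 1, _ => exact D.sound1 p Q hC hR hl
  · intro p hp F hF
    -- start states
    obtain ⟨v', rfl⟩ : ∃ v' : V, p = ([], v') := by
      rcases hp with rfl | ⟨j, hj, Q, hQ, rfl⟩
      · exact ⟨_, rfl⟩
      · match j, hj with
        | 0, _ => exact ⟨_, rfl⟩
        | 1, _ => exact ⟨_, rfl⟩
    have hFr : ∀ v, Rg fun u => (u, v) ∈ F := by
      intro v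
      rcases hF with rfl | ⟨j, hj, rfl⟩
      · exact Rg.prod φ (fun s => act v s = x)
      · exact D.rg_C ⟨j, hj⟩ v
    have hRr : ∀ j : Fin 2, Rg fun Q => (D.L j).R Q := by
      intro j
      match j with
      | 0 =>
        refine (D.rg_RW.and (Rg.ex _ fun b : V => D.regρ b)).congr fun Q => ?_
        show (D.RW Q ∧ ∃ b, D.rho Q = some b) ↔ (D.RW Q ∧ (D.rho Q).isSome)
        rw [Option.isSome_iff_exists]
      | 1 => exact Rg.ex _ fun y : V => D.rg_Val y
    have hOne : Rg D.One := D.rg_NB.or (D.rg_XX.cat D.rg_NB)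
    have hreg : Rg fun w => (D.One w ∧ ∀ j : Fin 2, ¬ ∃ x y, w = x ++ y ∧
        D.Fst {q | (D.L j).C q} v' x ∧ ∃ Q t, y = Q ++ t ∧ (D.L j).R Q ∧ True) ∧ D.Fst F v' w := by
      refine (hOne.and (Rg.all _ fun j => ?_)).and (D.rg_Fst F v' hFr)
      exact ((D.rg_Fst _ v' fun v => D.rg_C j v).cat ((hRr j).cat (Rg.const True))).not
    refine H.congr (hHL _ hreg _ fun w hw => D.nw_One hw.1.1) fun w => ?_
    constructor
    · rintro ⟨⟨h1, h2⟩, h3⟩
      exact ⟨(D.live_iff2 h1).2 h2, (D.Fst_iff h1).2 h3⟩
    · rintro ⟨h1, h2⟩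
      have h3 := D.live_One h1
      exact ⟨⟨h3, (D.live_iff2 h3).1 h1⟩, (D.Fst_iff h3).1 h2⟩

end Par

end Crest.Agent.R320.Asm_745
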