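import Crest.Agent.R320.SemTop_727
import Crest.Agent.R320.Sc2n_937

/-!
Row 320: 937's two block schemes plugged into 727's semantic top (helper143).
-/

set_option autoImplicit false

namespace Crest.Agent.R320.AsmA_143

open Crest.RegLang Crest.Agent.R320.Hk_851 Crest.Agent.R320.Blk467 Crest.Agent.R320.Sc2n_937
  Crest.Agent.R320.SemTop_727

universe u v

variable {α : Type u} {V : Type v}

section

variable (g : Geo α) (pre : List α → V → V) (post : V → List α → V)
  (lam rho : List α → Option V) (BadT : ℕ → Prop) (K : ℕ) (c : ℕ → ℕ)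
  (lam2 rho2 : ℕ → List α → Option V)

/-- the data of the semantic top -/
def D : Sch α V :=
  ⟨{X | g.XX X}, g.T pre post, fun v => {P | g.LP1 pre lam v P},
    fun v => {P | Geo.LP2 K c lam2 v P}⟩

variable {g pre post lam rho BadT K c lam2 rho2}

theorem good_of
    (hlen : ∀ P v, lam P = some v → P.length ≤ g.N1)
    (hex : ∀ P Q u b, lam P = some u → rho Q = some b → b = post u (P ++ Q))
    (hc1 : ∀ Y : List α, g.N1 + g.q0 ≤ Y.length → ¬ BadT Y.length → ∀ u : V, ∃ P Q,
      Y = P ++ Q ∧ lam P = some u ∧ (rho Q).isSome)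
    {X : List α} (hX : g.XX X) (hB : ¬ g.BadX BadT X) :
    X ∈ (D g pre post lam K c lam2).Good := by
  have hz := g.hz
  have hXz := hX.1
  refine ⟨hX, ?_⟩
  intro x
  have hE : ¬ g.E X := fun h => hB (Or.inl h)
  have hT : ¬ BadT (X.drop g.p0).length := by
    rw [List.length_drop]
    exact fun h => hB (Or.inr h)
  obtain ⟨P, Q, b, hPQ, hP, hQ⟩ := g.complete1 pre (rho := rho) hlen hX hE
    (hc1 (X.drop g.p0) (by rw [List.length_drop]; omega) hT) x
  have hs := g.sound1 pre post hlen hex hP hQ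
  rw [← hPQ] at hs
  refine ⟨P, hP, Q, ?_, hPQ.symm⟩
  intro x' P' hP'
  have hs' := g.sound1 pre post hlen hex hP' hQ
  refine ⟨hs'.1, ?_⟩
  show g.T pre post x' (P' ++ Q) = g.T pre post x X
  rw [hs'.2, hs.2]

theorem hC2 {C0 : ℕ}
    (hlen : ∀ P v, lam P = some v → P.length ≤ g.N1)
    (hex : ∀ P Q u b, lam P = some u → rho Q = some b → b = post u (P ++ Q))
    (hc1 : ∀ Y : List α, g.N1 + g.q0 ≤ Y.length → ¬ BadT Y.length → ∀ u : V, ∃ P Q,
      Y = P ++ Q ∧ lam P = some u ∧ (rho Q).isSome)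
    (hc : ∀ k, k < K → c k ≤ g.p0)
    (hex2 : ∀ k, k < K → ∀ P Q v u, P.length = c k → Q.length = g.p0 - c k →
      lam2 k P = some v → rho2 k Q = some u → u = pre (P ++ Q) v)
    (hgap : ∀ P Q : List α, g.Wo P → g.Wo (P ++ Q) → Q ≠ [] → 2 * g.p0 + 2 * g.N1 < Q.length)
    (hsp : ∀ k k' l l', k < K → k' < K → l < K → l' < K → k' ≠ k → l' ≠ l →
      c k + c l' < c l + c k' + 2 * g.N1 → c l + c k' < c k + c l' + 2 * g.N1 → k = l)
    (hthin : ∀ τ, g.z ≤ τ + g.p0 → ∀ J : Finset ℕ, (∀ k ∈ J, k < K ∧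
      ∃ k', k' < K ∧ k' ≠ k ∧ BadT (τ + c k' - c k - g.p0)) → J.card ≤ C0)
    (hI : ∀ X : List α, g.p0 ≤ X.length → ∀ v : V,
      ∃ I : Finset ℕ, 2 * C0 + 2 ≤ I.card ∧ ∀ k ∈ I, k < K ∧
        lam2 k (X.take (c k)) = some v ∧ (rho2 k ((X.take g.p0).drop (c k))).isSome) :
    ∀ X1 ∈ (D g pre post lam K c lam2).Bad, ∀ X2 ∈ (D g pre post lam K c lam2).Bad, ∀ x,
      ∃ P ∈ (D g pre post lam K c lam2).L2 x,
      ∃ Q ∈ (D g pre post lam K c lam2).R2 ((D g pre post lam K c lam2).T
        ((D g pre post lam K c lam2).T x X1) X2), P ++ Q = X1 ++ X2 := by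
  intro X1 hX1 X2 hX2 x
  have hz := g.hz
  have h1 : g.XX X1 := hX1.1
  have h2 : g.XX X2 := hX2.1
  have h1z := h1.1
  have hbad1 : g.BadX BadT X1 := by
    by_contra h
    exact hX1.2 (good_of hlen hex hc1 h1 h)
  obtain ⟨P, Q, b, hPQ, hP, hQ⟩ := g.complete2 pre post (BadT := BadT) (C0 := C0) hc hgap hsp
    hthin h1 h2 x (hI X1 (by omega) x)
  obtain ⟨X2', h2', he, hb⟩ := g.sound2 pre post (R := []) (R' := X2) hc hex2 h1 hbad1 hP hQ
    (by rw [List.append_nil]; exact hPQ)
  have hX22 : X2' = X2 := by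
    have : X1 ++ X2' = X1 ++ X2 := by rw [← he, hPQ]
    exact List.append_cancel_left this
  subst hX22
  refine ⟨P, hP, Q, ?_, hPQ⟩
  have hval : (D g pre post lam K c lam2).T ((D g pre post lam K c lam2).T x X1) X2' = b := hb
  rw [hval]
  intro x' P' hP'
  obtain ⟨k0, hk0, hPl, hl⟩ := hP'
  obtain ⟨k, hk, l, hend, hgood, hXd, u, hr, hb'⟩ := hQ
  by_cases hkk : k0 = k
  · subst hkk
    have hX' : g.XX (P' ++ Q.take l) :=
      g.xx_of_cend (by rw [hPl]; exact hc k0 hk0) (by rw [hPl]; exact hend)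
    have hpre : P' ++ Q = (P' ++ Q.take l) ++ Q.drop l := by
      rw [List.append_assoc, List.take_append_drop]
    by_cases hg1 : (P' ++ Q.take l) ∈ (D g pre post lam K c lam2).Good
    · right; left
      exact ⟨_, hg1, ⟨Q.drop l, hpre.symm⟩⟩
    · by_cases hg2 : (Q.drop l) ∈ (D g pre post lam K c lam2).Good
      · right; right
        exact ⟨_, ⟨hX', hg1⟩, _, hg2, ⟨[], by rw [List.append_nil, hpre]⟩⟩
      · left
        refine ⟨_, ⟨hX', hg1⟩, _, ⟨hXd, hg2⟩, hpre, ?_⟩
        show g.T pre post (g.T pre post x' (P' ++ Q.take l)) (Q.drop l) = b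
        rw [hb']
        congr 1
        have hck := hc k0 hk0
        have h5 : g.p0 - c k0 ≤ l := by
          have := hend.2.1
          omega
        have h6 := hend.1
        have e1 : (P' ++ Q.take l).take g.p0 = P' ++ Q.take (g.p0 - c k0) := by
          rw [List.take_append, List.take_of_length_le (by omega), List.take_take, hPl,
            Nat.min_eq_left h5]
        have e2 : (P' ++ Q.take l).drop g.p0 = (Q.take l).drop (g.p0 - c k0) := by
          rw [List.drop_append, List.drop_of_length_le (by omega), hPl]; rfl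
        unfold Geo.T
        rw [e1, e2]
        congr 1
        refine (hex2 k0 hk0 P' _ x' u hPl ?_ hl hr).symm
        rw [List.length_take]
        omega
  · obtain ⟨l', he', hg'⟩ := hgood k0 hk0 hkk
    have hX' : g.XX (P' ++ Q.take l') :=
      g.xx_of_cend (by rw [hPl]; exact hc k0 hk0) (by rw [hPl]; exact he')
    have hnb : ¬ g.BadX BadT (P' ++ Q.take l') := by
      intro hb
      apply hg'
      have := g.cbad_of_bad (BadT := BadT) (P := P') (Q := Q) (l := l')
        (by rw [hPl]; exact hc k0 hk0) (by rw [hPl]; exact he') hb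
      rw [hPl] at this
      exact this
    right; left
    refine ⟨_, good_of hlen hex hc1 hX' hnb, ⟨Q.drop l', ?_⟩⟩
    rw [List.append_assoc, List.take_append_drop]

end

end Crest.Agent.R320.AsmA_143
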