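import Crest.Agent.R320.Top_722
import Crest.Agent.R320.FewVal_228
import Crest.Agent.R320.Hk2_851

/-!
# Row 320: blocks over walls on all words, height facts (helper415)
-/

set_option autoImplicit false

namespace Crest.Agent.R320.Asm_415

open Crest.RegLang Crest.Agent.R320.Hk_851 Crest.Agent.R320.FewWalls_228
  Crest.Agent.R320.CoreHalf_722

universe u

variable {α : Type u}

/-- a wall ends at `e` -/
def WE (n : ℕ) (Ss : Set (List α)) (w : List α) (e : ℕ) : Prop := n ≤ e ∧ Wl n Ss w (e - n)

variable {n : ℕ} {Ss : Set (List α)}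

theorem WE.le {w : List α} {e : ℕ} (h : WE n Ss w e) : e ≤ w.length := by
  obtain ⟨h1, h2, -⟩ := h; omega

theorem WE_append_left {u v : List α} {e : ℕ} (he : e ≤ u.length) :
    WE n Ss (u ++ v) e ↔ WE n Ss u e := by
  unfold WE Wl
  constructor
  · rintro ⟨h1, h2, h3⟩
    refine ⟨h1, by omega, ?_⟩
    rwa [List.drop_append_of_le_length (by omega),
      List.take_append_of_le_length (by rw [List.length_drop]; omega)] at h3
  · rintro ⟨h1, h2, h3⟩
    refine ⟨h1, by rw [List.length_append]; omega, ?_⟩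
    rwa [List.drop_append_of_le_length (by omega),
      List.take_append_of_le_length (by rw [List.length_drop]; omega)]

theorem WE_append_right {u v : List α} {e : ℕ} (he : n ≤ e) :
    WE n Ss (u ++ v) (u.length + e) ↔ WE n Ss v e := by
  unfold WE Wl
  have e1 : u.length + e - n = u.length + (e - n) := by omega
  have e2 : (u ++ v).drop (u.length + (e - n)) = v.drop (e - n) := by
    rw [← List.drop_drop, List.drop_left]
  rw [e1, e2, List.length_append]
  constructor
  · rintro ⟨h1, h2, h3⟩; exact ⟨he, by omega, h3⟩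
  · rintro ⟨h1, h2, h3⟩; exact ⟨by omega, by omega, h3⟩

/-- a set of words as a language -/
def LG (s : Set (List α)) : Language α := s

/-- words which end in a wall at distance `≥ z` -/
def L1 (n : ℕ) (Ss : Set (List α)) (z : ℕ) : Language α := {w | z ≤ w.length ∧ WE n Ss w w.length}

/-- blocks -/
def XX (n : ℕ) (Ss : Set (List α)) (z : ℕ) : Set (List α) :=
  {w | z ≤ w.length ∧ WE n Ss w w.length ∧ ∀ e, z ≤ e → e < w.length → ¬ WE n Ss w e}

theorem exists_block {z : ℕ} {w : List α} {e : ℕ} (hz : z ≤ e) (he : WE n Ss w e) :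
    ∃ m, m ≤ e ∧ z ≤ m ∧ w.take m ∈ XX n Ss z ∧ (w.take m).length = m ∧ WE n Ss w m ∧
      ∀ e', z ≤ e' → e' < m → ¬ WE n Ss w e' := by
  classical
  have hex : ∃ m, z ≤ m ∧ WE n Ss w m := ⟨e, hz, he⟩
  obtain ⟨h1, h2⟩ := Nat.find_spec hex
  set m := Nat.find hex with hm
  have hml : m ≤ w.length := h2.le
  have hlen : (w.take m).length = m := by rw [List.length_take]; omega
  have hmin : ∀ e', z ≤ e' → e' < m → ¬ WE n Ss w e' := fun e' h3 h4 h5 =>
    Nat.find_min hex h4 ⟨h3, h5⟩
  have key : ∀ e', e' ≤ m → (WE n Ss w e' ↔ WE n Ss (w.take m) e') := by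
    intro e' he'
    conv_lhs => rw [← List.take_append_drop m w]
    exact WE_append_left (by omega)
  refine ⟨m, Nat.find_min' hex ⟨hz, he⟩, h1, ⟨by omega, ?_, ?_⟩, hlen, h2, hmin⟩
  · rw [hlen]; exact (key m le_rfl).1 h2
  · intro e' h3 h4 h5
    rw [hlen] at h4
    exact hmin e' h3 h4 ((key e' (by omega)).2 h5)

theorem PC_XX {z : ℕ} (hz : 0 < z) : PC (XX n Ss z) := by
  constructor
  · intro h
    have := h.1
    simp at this; omega
  · intro X hX Y hY hXY
    obtain ⟨t, rfl⟩ := hXY
    rcases Nat.eq_zero_or_pos t.length with h0 | h0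
    · rw [List.length_eq_zero_iff] at h0; simp [h0]
    · exfalso
      refine hY.2.2 X.length hX.1 (by rw [List.length_append]; omega) ?_
      rw [WE_append_left le_rfl]; exact hX.2.1

theorem HL_L1 [Finite α] {z : ℕ} (hS : ∀ s ∈ Ss, s.length = n) (hz : n ≤ z) :
    HL 0 (L1 n Ss z) := by
  have hfin : (Ss : Set (List α)).Finite :=
    (List.finite_length_eq α n).subset fun s hs => hS s hs
  have h1 : HL 0 (LG {w : List α | w.length = z - n} * (⊤ : Language α) * LG Ss) :=
    ((HL.length_eq (z - n)).mul HL.top).mul (HL.finite hfin)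
  refine h1.congr fun w => Iff.symm ?_
  constructor
  · rintro ⟨ab, ⟨a, ha, b, -, rfl⟩, s, hs, rfl⟩
    have ha' : a.length = z - n := ha
    have hs' : s.length = n := hS s hs
    have hl : ((fun x1 x2 => x1 ++ x2) ((fun x1 x2 => x1 ++ x2) a b) s).length =
        (a ++ b).length + n := by simp [hs']; omega
    show _ ∧ _
    rw [hl]
    refine ⟨by rw [List.length_append]; omega, ?_⟩
    show WE n Ss ((a ++ b) ++ s) _
    rw [WE_append_right le_rfl]
    refine ⟨le_rfl, by omega, ?_⟩
    rw [Nat.sub_self, List.drop_zero, List.take_of_length_le (by omega)]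
    exact hs
  · rintro ⟨h1, h2, h3, h4⟩
    refine ⟨w.take (w.length - n), ⟨w.take (z - n), ?_, (w.take (w.length - n)).drop (z - n),
      trivial, ?_⟩, w.drop (w.length - n), ?_, List.take_append_drop _ _⟩
    · show (w.take (z - n)).length = z - n
      rw [List.length_take]; omega
    · show w.take (z - n) ++ _ = _
      conv_rhs => rw [← List.take_append_drop (z - n) (w.take (w.length - n))]
      rw [List.take_take, min_eq_left (by omega)]
    · rwa [List.take_of_length_le (by rw [List.length_drop]; omega)] at h4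

theorem mem_XX_iff {z : ℕ} (w : List α) :
    w ∈ XX n Ss z ↔ w ∈ L1 n Ss z ∧ ¬ (w ∈ L1 n Ss z * LG {v : List α | 1 ≤ v.length}) := by
  constructor
  · rintro ⟨h1, h2, h3⟩
    refine ⟨⟨h1, h2⟩, ?_⟩
    rintro ⟨a, ⟨ha1, ha2⟩, b, hb, rfl⟩
    have hb' : 1 ≤ b.length := hb
    refine h3 a.length ha1 ?_ ?_
    · show a.length < (a ++ b).length
      rw [List.length_append]; omega
    · exact (WE_append_left le_rfl).2 ha2
  · rintro ⟨⟨h1, h2⟩, h3⟩
    refine ⟨h1, h2, fun e he1 he2 he3 => h3 ?_⟩
    have hlen : (w.take e).length = e := by rw [List.length_take]; omega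
    refine ⟨w.take e, ⟨by omega, ?_⟩, w.drop e, ?_, List.take_append_drop _ _⟩
    · rw [hlen]
      rw [← List.take_append_drop e w] at he3
      exact (WE_append_left (by omega)).1 he3
    · show 1 ≤ (w.drop e).length
      rw [List.length_drop]; omega

theorem HL_XX [Finite α] {z : ℕ} (hS : ∀ s ∈ Ss, s.length = n) (hz : n ≤ z) :
    HL 0 ({w | w ∈ XX n Ss z} : Language α) :=
  ((HL_L1 hS hz).inf ((HL_L1 hS hz).mul (HL.length_ge 1)).compl).congr
    fun w => mem_XX_iff w

/-- words without a block as a prefix -/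
def Tl (n : ℕ) (Ss : Set (List α)) (z : ℕ) : Language α := {w | ∀ p, p <+: w → p ∉ XX n Ss z}

theorem mem_Tl_iff {z : ℕ} (w : List α) :
    w ∈ Tl n Ss z ↔ ∀ e, z ≤ e → ¬ WE n Ss w e := by
  constructor
  · intro h e he hw
    obtain ⟨m, -, -, h3, -⟩ := exists_block he hw
    exact h _ (List.take_prefix _ _) h3
  · intro h p hp hX
    obtain ⟨t, rfl⟩ := hp
    exact h p.length hX.1 ((WE_append_left le_rfl).2 hX.2.1)

theorem HL_Tl [Finite α] {z : ℕ} (hS : ∀ s ∈ Ss, s.length = n) (hz : n ≤ z) :
    HL 0 (Tl n Ss z) := by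
  refine ((HL_L1 hS hz).mul HL.top).compl.congr fun w => Iff.symm ?_
  rw [mem_Tl_iff]
  constructor
  · intro h e he hw
    apply h
    have hlen : (w.take e).length = e := by rw [List.length_take]; have := hw.le; omega
    refine ⟨w.take e, ⟨by omega, ?_⟩, w.drop e, trivial, List.take_append_drop _ _⟩
    rw [hlen]
    rw [← List.take_append_drop e w] at hw
    exact (WE_append_left (by omega)).1 hw
  · rintro h ⟨a, ⟨ha1, ha2⟩, b, -, rfl⟩
    exact h a.length ha1 ((WE_append_left le_rfl).2 ha2)

theorem nw_XX {z : ℕ} {w : List α} (h : w ∈ XX n Ss z) : nw n Ss w ≤ z + 1 := by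
  classical
  unfold nw
  have : ((Finset.range (w.length + 1)).filter (fun x => Wl n Ss w x)) ⊆
      insert (w.length - n) (Finset.range z) := by
    intro x hx
    rw [Finset.mem_filter] at hx
    obtain ⟨-, hx⟩ := hx
    rw [Finset.mem_insert, Finset.mem_range]
    by_contra hcon
    push Not at hcon
    have h1 := hx.1
    refine h.2.2 (x + n) (by omega) (by omega) ⟨by omega, ?_⟩
    rwa [Nat.add_sub_cancel]
  refine (Finset.card_le_card this).trans ((Finset.card_insert_le _ _).trans ?_)
  rw [Finset.card_range]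

theorem nw_Tl {z : ℕ} {w : List α} (h : w ∈ Tl n Ss z) : nw n Ss w ≤ z + 1 := by
  classical
  unfold nw
  rw [mem_Tl_iff] at h
  have : ((Finset.range (w.length + 1)).filter (fun x => Wl n Ss w x)) ⊆
      (Finset.range z) := by
    intro x hx
    rw [Finset.mem_filter] at hx
    obtain ⟨-, hx⟩ := hx
    rw [Finset.mem_range]
    by_contra hcon
    push Not at hcon
    refine h (x + n) (by omega) ⟨by omega, ?_⟩
    rwa [Nat.add_sub_cancel]
  refine (Finset.card_le_card this).trans ?_
  rw [Finset.card_range]; omega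

theorem nw_drop_le (w : List α) (m : ℕ) : nw n Ss (w.drop m) ≤ nw n Ss w := by
  classical
  have hmm : w.drop m = w.drop (min m w.length) := by
    rcases Nat.le_total m w.length with h | h
    · rw [min_eq_left h]
    · rw [min_eq_right h, List.drop_eq_nil_of_le h, List.drop_length]
  rw [hmm]
  set m' := min m w.length with hm'
  have hm : m' ≤ w.length := min_le_right _ _
  unfold nw
  apply Finset.card_le_card_of_injOn (fun x => m' + x)
  · intro x hx
    rw [Finset.mem_coe, Finset.mem_filter] at hx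
    rw [Finset.mem_coe, Finset.mem_filter, Finset.mem_range]
    have h1 := (wl_drop hm).1 hx.2
    refine ⟨?_, h1⟩
    have h2 := h1.1
    show m' + x < _
    omega
  · intro x _ y _ hxy
    simp only at hxy
    omega

/-- **finite-state properties on a height-one language with few walls** -/
theorem HL_fs [Finite α] {c P : ℕ} (hn : 0 < n) (hP : 0 < P) (hper : PerOff n c P Ss)
    {M : Type*} [Monoid M] [Finite M] (φ : α → M) (r L0 Pm : ℕ) (hPm : 0 < Pm)
    {Λ : Language α} (hΛ : HL 1 Λ) (hr : ∀ w ∈ Λ, nw n Ss w ≤ r) (p : List α → Prop)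
    (hp : ∀ X ∈ Λ, ∀ X' ∈ Λ, L0 ≤ X.length → L0 ≤ X'.length → X.take L0 = X'.take L0 → X.length % Pm = X'.length % Pm →
      ((X.drop L0).map φ).prod = ((X'.drop L0).map φ).prod → p X → p X') :
    HL 1 ({X | X ∈ Λ ∧ p X} : Language α) := by
  classical
  haveI : NeZero Pm := ⟨hPm.ne'⟩
  let φ' : α → M × Multiplicative (ZMod Pm) := fun a => (φ a, Multiplicative.ofAdd 1)
  have hφ' : ∀ w : List α, (w.map φ').prod =
      ((w.map φ).prod, Multiplicative.ofAdd (w.length : ZMod Pm)) := by
    intro w
    induction w with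
    | nil => simp; rfl
    | cons a w ih =>
      rw [List.map_cons, List.prod_cons, ih, List.map_cons, List.prod_cons, List.length_cons]
      refine Prod.ext rfl ?_
      show Multiplicative.ofAdd (1 : ZMod Pm) * Multiplicative.ofAdd (w.length : ZMod Pm) = _
      rw [← ofAdd_add]
      congr 1
      push_cast
      ring
  haveI : Finite {w : List α // w.length = L0} := (List.finite_length_eq α L0).to_subtype
  haveI : Finite (Multiplicative (ZMod Pm)) := inferInstanceAs (Finite (ZMod Pm))
  let Gd : {w : List α // w.length = L0} → M × Multiplicative (ZMod Pm) → Prop := fun w m =>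
    ∃ X ∈ Λ, p X ∧ X.take L0 = w.1 ∧ ((X.drop L0).map φ').prod = m
  have hh : HL 1 ({X | ∃ w : {w : List α // w.length = L0},
      X ∈ ({X | ∃ m : M × Multiplicative (ZMod Pm), X ∈ (({_X | Gd w m} : Language α) ⊓
        (LG {w.1} * LG {Y : List α | nw n Ss Y ≤ r ∧ (Y.map φ').prod = m}))} : Language α)} :
      Language α) :=
    HL.iUnion fun w => HL.iUnion fun m => (HL.const _).inf
      ((HL.word w.1).mul (FewVal_228.HL_few_value hn hP hper r φ' m))
  have hs : HL 1 (LG {X : List α | X.length < L0 ∧ X ∈ Λ ∧ p X}) :=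
    HL.finite ((List.finite_length_lt α L0).subset fun X hX => hX.1)
  refine ((hΛ.inf hh).sup hs).congr fun X => ?_
  constructor
  · rintro ⟨h1, h2⟩
    by_cases hl : X.length < L0
    · exact Or.inr ⟨hl, h1, h2⟩
    · push Not at hl
      left
      refine ⟨h1, ⟨X.take L0, by rw [List.length_take]; omega⟩, ((X.drop L0).map φ').prod, ?_, ?_⟩
      · exact ⟨X, h1, h2, rfl, rfl⟩
      · exact ⟨X.take L0, rfl, X.drop L0, ⟨(nw_drop_le X L0).trans (hr X h1), rfl⟩,
          List.take_append_drop _ _⟩
  · rintro (⟨h1, ⟨w, hw⟩, m, ⟨X', h2, h3, h4, h5⟩, h6⟩ | ⟨-, h1, h2⟩)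
    · obtain ⟨w', hw', Y, ⟨hY1, hY2⟩, hXe⟩ := h6
      have hw'' : w' = w := hw'
      subst hw''
      have h4' : X'.take L0 = w' := h4
      have hXe' : w' ++ Y = X := hXe
      have e1 : X.take L0 = w' := by rw [← hXe', ← hw, List.take_left]
      have e2 : X.drop L0 = Y := by rw [← hXe', ← hw, List.drop_left]
      rw [hφ'] at h5 hY2
      rw [← h5] at hY2
      obtain ⟨q1, q2⟩ := Prod.mk.inj hY2
      have q3 : ((Y.length : ℕ) : ZMod Pm) = ((X'.drop L0).length : ℕ) := Multiplicative.ofAdd.injective q2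
      rw [ZMod.natCast_eq_natCast_iff'] at q3
      have l1 : X'.length = L0 + (X'.drop L0).length := by
        conv_lhs => rw [← List.take_append_drop L0 X', List.length_append, h4', hw]
      have l2 : X.length = L0 + Y.length := by rw [← hXe', List.length_append, hw]
      refine ⟨h1, hp X' h2 X h1 (by omega) (by omega) (by rw [h4', e1]) ?_ (by rw [e2, q1]) h3⟩
      rw [l1, l2, Nat.add_mod, ← q3, ← Nat.add_mod]
    · exact ⟨h1, h2⟩

end Crest.Agent.R320.Asm_415
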