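import Crest.Agent.R320.ExactR_237

/-! Row 320, scheme 2 of 132 #12664: the exact gadget of 237 (`ExactR_237.exact_gadget`) for zone maps which
are an ARBITRARY function `act2 v g ρ` of the product `g` of the part in which the cuts lie and of a datum
`ρ` (any finite type) which is known to the right side only.  No multiplicativity is used. -/

set_option autoImplicit false

namespace Crest.Agent.R320.ExactT_580

open Crest.Agent.R320.ExactR_237

/-- `S` together with elements `(s, ρ)` which absorb from the right. -/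
inductive Tl (S Rest : Type) : Type
  | hd : S → Tl S Rest
  | tl : S → Rest → Tl S Rest

namespace Tl

variable {S Rest : Type} [Monoid S]

protected def mul : Tl S Rest → Tl S Rest → Tl S Rest
  | .hd s, .hd t => .hd (s * t)
  | .hd s, .tl t r => .tl (s * t) r
  | .tl s r, _ => .tl s r

instance : Monoid (Tl S Rest) where
  mul := Tl.mul
  one := .hd 1
  mul_assoc a b c := by
    change Tl.mul (Tl.mul a b) c = Tl.mul a (Tl.mul b c)
    cases a <;> cases b <;> cases c <;> simp [Tl.mul, mul_assoc]
  one_mul a := by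
    change Tl.mul (.hd 1) a = a
    cases a <;> simp [Tl.mul]
  mul_one a := by
    change Tl.mul a (.hd 1) = a
    cases a <;> simp [Tl.mul]

theorem hd_mul_hd (s t : S) : (Tl.hd s * Tl.hd t : Tl S Rest) = .hd (s * t) := rfl
theorem hd_mul_tl (s t : S) (r : Rest) : (Tl.hd s * Tl.tl t r : Tl S Rest) = .tl (s * t) r := rfl
theorem one_def : (1 : Tl S Rest) = .hd 1 := rfl

/-- the sum type. -/
def eqv : Tl S Rest ≃ S ⊕ (S × Rest) where
  toFun
    | .hd s => .inl s
    | .tl s r => .inr (s, r)
  invFun
    | .inl s => .hd s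
    | .inr p => .tl p.1 p.2
  left_inv a := by cases a <;> rfl
  right_inv a := by rcases a with s | ⟨s, r⟩ <;> rfl

noncomputable instance [Fintype S] [Fintype Rest] : Fintype (Tl S Rest) :=
  Fintype.ofEquiv _ (eqv (S := S) (Rest := Rest)).symm

end Tl

theorem pr_hd {A S Rest : Type} [Monoid S] (f : A → S) (u : List A) :
    pr (fun a => (Tl.hd (f a) : Tl S Rest)) u = Tl.hd (pr f u) := by
  induction u with
  | nil => rfl
  | cons a u ih =>
    have h1 : pr (fun a => (Tl.hd (f a) : Tl S Rest)) (a :: u) =
        Tl.hd (f a) * pr (fun a => (Tl.hd (f a) : Tl S Rest)) u := by simp [pr]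
    have h2 : pr f (a :: u) = f a * pr f u := by simp [pr]
    rw [h1, ih, h2, Tl.hd_mul_hd]

/-- **Exact gadget with right-known data.** -/
theorem exact_gadget_tail (A S Rest V : Type) [Monoid S] [Fintype S] [Fintype Rest] [Fintype V]
    [AddCommGroup V] (f : A → S) (act2 : V → S → Rest → V) (R : ℕ) :
    ∃ K : ℕ, ∀ c : ℕ → ℕ, (∀ i j, i < j → j < K → c i < c j) →
      ∃ (lam : ℕ → List A → Option V) (rho : ℕ → List A → Rest → Option V)
        (nu : List A → Rest → V),
        (∀ k < K, ∀ (P Q : List A) (y : Rest) (v b : V), P.length = c k →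
          lam k P = some v → rho k Q y = some b →
            b = act2 v (pr f (P ++ Q)) y + nu (P ++ Q) y) ∧
        (∀ (u : List A) (y : Rest) (v : V), (∀ k < K, c k ≤ u.length) →
          ∃ I : Finset ℕ, R ≤ I.card ∧ ∀ k ∈ I, k < K ∧ lam k (u.take (c k)) = some v ∧
            (rho k (u.drop (c k)) y).isSome) := by
  classical
  let act : V → Tl S Rest → V := fun v t =>
    match t with
    | .hd _ => v
    | .tl g r => act2 v g r
  obtain ⟨K, hK⟩ := exact_gadget A (Tl S Rest) V (fun a => Tl.hd (f a)) act R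
  refine ⟨K, fun c hc => ?_⟩
  obtain ⟨lam, rho, nu, h1, h2⟩ := hK c hc
  refine ⟨lam, fun k Q y => rho k Q (Tl.tl 1 y), fun u y => nu u (Tl.tl 1 y), ?_, ?_⟩
  · intro k hk P Q y v b hP hl hr
    have h := h1 k hk P Q (Tl.tl 1 y) v b hP hl hr
    rw [pr_hd, Tl.hd_mul_tl, mul_one] at h
    exact h
  · intro u y v hlen
    exact h2 u (Tl.tl 1 y) v hlen

end Crest.Agent.R320.ExactT_580
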