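import Crest.Agent.R320.Main_621
import Crest.Agent.R320.ExactT_580
import Crest.Agent.R320.FewVal_228

/-!
# Row 320: all-words assembly for a wall-free zone gadget, part A: blocks (helper439)
-/

set_option autoImplicit false

namespace Crest.Agent.R320.AsmA_439

open Crest.RegLang Crest.Agent.R320.Hk_851 Crest.Agent.R320.FewWalls_228

universe u

variable {α : Type u}

/-- left-looking wall at the end of `X` -/
def Wo (n : ℕ) (S : Set (List α)) (X : List α) : Prop :=
  n ≤ X.length ∧ X.drop (X.length - n) ∈ S

theorem wo_take {n : ℕ} {S : Set (List α)} {w : List α} {t : ℕ}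
    (ht : t ≤ w.length) : Wo n S (w.take t) ↔ n ≤ t ∧ Wl n S w (t - n) := by
  unfold Wo Wl
  rw [List.length_take, Nat.min_eq_left ht]
  constructor
  · rintro ⟨h1, h2⟩
    refine ⟨h1, by omega, ?_⟩
    rw [List.drop_take] at h2
    rwa [show t - (t - n) = n by omega] at h2
  · rintro ⟨h1, _, h2⟩
    refine ⟨h1, ?_⟩
    rw [List.drop_take]
    rwa [show t - (t - n) = n by omega]

theorem wo_app {n : ℕ} {S : Set (List α)} {P Q : List α} (h : n ≤ Q.length) :
    Wo n S (P ++ Q) ↔ Wo n S Q := by
  unfold Wo
  rw [List.length_append, List.drop_append, List.drop_eq_nil_of_le (by omega), List.nil_append,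
    show P.length + Q.length - n - P.length = Q.length - n by omega]
  constructor
  · rintro ⟨_, h2⟩; exact ⟨h, h2⟩
  · rintro ⟨_, h2⟩; exact ⟨by omega, h2⟩

/-- separation of walls -/
def Sep (n W : ℕ) (S : Set (List α)) : Prop :=
  ∀ (w : List α) (x y : ℕ), x < y → Wl n S w x → Wl n S w y → x + W ≤ y

theorem wo_sep {n W : ℕ} {S : Set (List α)} (hsep : Sep n W S) {w : List α} {t t' : ℕ}
    (h : t < t') (ht : t' ≤ w.length) (h1 : Wo n S (w.take t)) (h2 : Wo n S (w.take t')) :
    t + W ≤ t' := by
  rw [wo_take (by omega)] at h1
  rw [wo_take ht] at h2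
  have := hsep w (t - n) (t' - n) (by omega) h1.2 h2.2
  omega

/-- blocks -/
def Z (n : ℕ) (S : Set (List α)) (z : ℕ) : Language α :=
  {X | z ≤ X.length ∧ Wo n S X ∧ ∀ t, z ≤ t → t < X.length → ¬ Wo n S (X.take t)}

variable {n : ℕ} {S : Set (List α)} {z : ℕ}

theorem code (hz : 0 < z) : Star_621.Code (Z n S z) := by
  refine ⟨fun h => ?_, ?_⟩
  · have := h.1; simp at this; omega
  · have key : ∀ z1 z2 x x' : List α, z1 ∈ Z n S z → z2 ∈ Z n S z → z1 ++ x = z2 ++ x' →
        z1.length ≤ z2.length → z1 = z2 := by
      intro z1 z2 x x' h1 h2 e hle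
      have e1 : z1 = z2.take z1.length := by
        have := congrArg (List.take z1.length) e
        rw [List.take_left' rfl, List.take_append_of_le_length hle] at this
        exact this
      rcases Nat.lt_or_ge z1.length z2.length with hlt | hge
      · exact absurd (e1 ▸ h1.2.1) (h2.2.2 _ h1.1 hlt)
      · rw [e1, List.take_of_length_le (by omega)]
    intro z1 z2 x x' h1 h2 e
    rcases Nat.le_total z1.length z2.length with hle | hle
    · exact key _ _ _ _ h1 h2 e hle
    · exact (key _ _ _ _ h2 h1 e.symm hle).symm

/-- the block predicate depends only on the text behind a place `≤ z - n` -/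
theorem Z_loc {P P' Y : List α} (hl : P.length = P'.length) (hz : P.length + n ≤ z) :
    P ++ Y ∈ Z n S z → P' ++ Y ∈ Z n S z := by
  rintro ⟨h1, h2, h3⟩
  have hY : n ≤ Y.length := by rw [List.length_append] at h1; omega
  refine ⟨by rw [List.length_append] at h1 ⊢; omega, ?_, ?_⟩
  · rw [wo_app hY] at h2 ⊢; exact h2
  · intro t h4 h5 h6
    refine h3 t h4 (by rw [List.length_append] at h5 ⊢; omega) ?_
    rw [List.take_append] at h6 ⊢
    rw [List.take_of_length_le (by omega)] at h6 ⊢
    rw [List.length_append] at h5
    have hn : n ≤ (Y.take (t - P.length)).length := by rw [List.length_take]; omega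
    have hn' : n ≤ (Y.take (t - P'.length)).length := by rw [List.length_take]; omega
    rw [wo_app hn'] at h6
    rw [wo_app hn, hl]
    exact h6

theorem HL_Wo [Finite α] (k : ℕ) (hS : ∀ s ∈ S, s.length = n) :
    HL k ({w | Wo n S w} : Language α) := by
  have hfin : S.Finite := (List.finite_length_le α n).subset fun s hs => (hS s hs).le
  refine (HL.top.mul (HL.finite (k := k) hfin)).congr fun w => ?_
  constructor
  · rintro ⟨h1, h2⟩
    exact Language.mem_mul.2
      ⟨w.take (w.length - n), trivial, _, h2, List.take_append_drop _ _⟩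
  · intro hw
    obtain ⟨a, _, b, hb, rfl⟩ := Language.mem_mul.1 hw
    have hbl := hS b hb
    show Wo n S (a ++ b)
    rw [wo_app (by omega)]
    refine ⟨by omega, ?_⟩
    rw [hbl, Nat.sub_self, List.drop_zero]; exact hb

theorem HL_Z [Finite α] (k : ℕ) (hS : ∀ s ∈ S, s.length = n) (z : ℕ) :
    HL k (Z n S z : Language α) := by
  have h1 : HL k ({w | z ≤ w.length ∧ Wo n S w} : Language α) :=
    HL.setOf_and (HL.length_ge z) (HL_Wo k hS)
  have h2 := h1.inf (h1.mul (HL.length_ge (α := α) (k := k) 1)).compl
  refine h2.congr fun w => ?_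
  constructor
  · rintro ⟨h3, h4, h5⟩
    refine ⟨⟨h3, h4⟩, fun hm => ?_⟩
    obtain ⟨a, ha, b, hb, rfl⟩ := Language.mem_mul.1 hm
    have hb' : 1 ≤ b.length := hb
    refine h5 a.length ha.1 (by rw [List.length_append]; omega) ?_
    rw [List.take_left' rfl]; exact ha.2
  · rintro ⟨⟨h3, h4⟩, h5⟩
    refine ⟨h3, h4, fun t ht1 ht2 ht3 => h5 ?_⟩
    refine Language.mem_mul.2 ⟨w.take t, ⟨by rw [List.length_take]; omega, ht3⟩, w.drop t, ?_,
      List.take_append_drop _ _⟩
    show 1 ≤ (w.drop t).length
    rw [List.length_drop]; omega

open Classical in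
/-- words whose walls beyond `z` are only at the end have few walls -/
theorem few {w : List α} (h : ∀ t, z ≤ t → t < w.length → ¬ Wo n S (w.take t)) :
    nw n S w ≤ z + 1 := by
  unfold nw
  have hsub : (Finset.range (w.length + 1)).filter (fun x => Wl n S w x) ⊆
      Finset.range z ∪ {w.length - n} := by
    intro x hx
    rw [Finset.mem_filter] at hx
    obtain ⟨-, hx⟩ := hx
    rw [Finset.mem_union, Finset.mem_range, Finset.mem_singleton]
    by_contra hc
    push Not at hc
    obtain ⟨h1, h2⟩ := hc
    have hxl := hx.1
    refine h (x + n) (by omega) (by omega) ?_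
    rw [wo_take (by omega)]
    exact ⟨by omega, by rw [Nat.add_sub_cancel]; exact hx⟩
  calc _ ≤ _ := Finset.card_le_card hsub
    _ ≤ _ := Finset.card_union_le _ _
    _ = z + 1 := by rw [Finset.card_range, Finset.card_singleton]


section reg

variable {T : Type} [Monoid T]

/-- the finite-state information of a word -/
def info (f : α → T) (B M0 : ℕ) (w : List α) : List α × T × ℕ :=
  (w.take B, ((w.drop B).map f).prod, w.length % M0)

theorem isRegular_info [Finite α] [Finite T] (f : α → T) (B M0 : ℕ) (hM : 0 < M0)
    (p : List α × T × ℕ → Prop) :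
    Language.IsRegular ({w | p (info f B M0 w)} : Language α) := by
  classical
  let U := {b : List α // b.length ≤ B}
  have : Finite U := (List.finite_length_le α B).to_subtype
  let _ : Fintype U := Fintype.ofFinite U
  let _ : Fintype T := Fintype.ofFinite T
  have : NeZero M0 := ⟨by omega⟩
  let step : U × T × Fin M0 → α → U × T × Fin M0 := fun q a =>
    if h : q.1.1.length < B then
      (⟨q.1.1 ++ [a], by rw [List.length_append, List.length_singleton]; omega⟩, q.2.1,
        ⟨(q.2.2.1 + 1) % M0, Nat.mod_lt _ hM⟩)
    else (q.1, q.2.1 * f a, ⟨(q.2.2.1 + 1) % M0, Nat.mod_lt _ hM⟩)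
  let start : U × T × Fin M0 := (⟨[], by simp⟩, 1, ⟨0, hM⟩)
  have key : ∀ w : List α, (w.foldl step start).1.1 = w.take B ∧
      (w.foldl step start).2.1 = ((w.drop B).map f).prod ∧
      (w.foldl step start).2.2.1 = w.length % M0 := by
    intro w
    induction w using List.reverseRecOn with
    | nil => simp [start]
    | append_singleton w a ih =>
      obtain ⟨h1, h2, h3⟩ := ih
      rw [List.foldl_append, List.foldl_cons, List.foldl_nil]
      by_cases h : (w.foldl step start).1.1.length < B
      · have e : step (w.foldl step start) a =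
            (⟨(w.foldl step start).1.1 ++ [a], by
              rw [List.length_append, List.length_singleton]; omega⟩,
              (w.foldl step start).2.1,
              ⟨((w.foldl step start).2.2.1 + 1) % M0, Nat.mod_lt _ hM⟩) := by
          simp only [step]; rw [dif_pos h]
        rw [e]
        rw [h1, List.length_take] at h
        have hl : w.length < B := by omega
        refine ⟨?_, ?_, ?_⟩
        · show (w.foldl step start).1.1 ++ [a] = _
          rw [h1, List.take_of_length_le hl.le, List.take_of_length_le (by
            rw [List.length_append, List.length_singleton]; omega)]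
        · show (w.foldl step start).2.1 = _
          rw [h2, List.drop_eq_nil_of_le hl.le, List.drop_eq_nil_of_le (by
            rw [List.length_append, List.length_singleton]; omega)]
        · show ((w.foldl step start).2.2.1 + 1) % M0 = _
          rw [h3, List.length_append, List.length_singleton, Nat.mod_add_mod]
      · have e : step (w.foldl step start) a =
            ((w.foldl step start).1, (w.foldl step start).2.1 * f a,
              ⟨((w.foldl step start).2.2.1 + 1) % M0, Nat.mod_lt _ hM⟩) := by
          simp only [step]; rw [dif_neg h]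
        rw [e]
        rw [h1, List.length_take] at h
        have hl : B ≤ w.length := by omega
        refine ⟨?_, ?_, ?_⟩
        · show (w.foldl step start).1.1 = _
          rw [h1, List.take_append_of_le_length hl]
        · show (w.foldl step start).2.1 * f a = _
          rw [h2, List.drop_append_of_le_length hl]
          simp
        · show ((w.foldl step start).2.2.1 + 1) % M0 = _
          rw [h3, List.length_append, List.length_singleton, Nat.mod_add_mod]
  let D : DFA α (U × T × Fin M0) :=
    { step := step, start := start, accept := {q | p (q.1.1, q.2.1, q.2.2.1)} }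
  refine Language.isRegular_iff.2 ⟨U × T × Fin M0, inferInstance, D, ?_⟩
  ext w
  show p _ ↔ p _
  obtain ⟨h1, h2, h3⟩ := key w
  have : ((w.foldl step start).1.1, (w.foldl step start).2.1, (w.foldl step start).2.2.1)
      = info f B M0 w := by
    rw [h1, h2, h3]; rfl
  show p ((w.foldl step start).1.1, (w.foldl step start).2.1, (w.foldl step start).2.2.1) ↔ _
  rw [this]

end reg

end Crest.Agent.R320.AsmA_439
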