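import Crest.Agent.R320.Hk2_851

/-!
# Row 320: languages in `HL k` are regular; two-sided quotients (helper461)
-/

set_option autoImplicit false

namespace Crest.Agent.R320.FO_461

open Crest.RegLang Crest.Agent.R320.Hk_851

universe u

variable {α : Type u} {k : ℕ}

theorem regular_mul {L M : Language α} (hL : L.IsRegular) (hM : M.IsRegular) :
    (L * M).IsRegular := by
  rw [Language.isRegular_iff_finite_range_leftQuotient] at *
  let f : Language α × Set (Language α) → Language α :=
    fun p => {v | v ∈ p.1 * M ∨ ∃ Y ∈ p.2, v ∈ Y}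
  refine ((hL.prod hM.powerset).image f).subset ?_
  rintro _ ⟨w, rfl⟩
  refine ⟨(L.leftQuotient w, {Y | ∃ x y, x ++ y = w ∧ x ∈ L ∧ Y = M.leftQuotient y}), ⟨⟨w, rfl⟩, ?_⟩, ?_⟩
  · rintro _ ⟨x, y, _, _, rfl⟩
    exact ⟨y, rfl⟩
  · ext v
    constructor
    · rintro (h | ⟨Y, ⟨x, y, rfl, hx, rfl⟩, hv⟩)
      · obtain ⟨a, ha, b, hb, rfl⟩ := Language.mem_mul.1 h
        have ha' : w ++ a ∈ L := ha
        exact Language.mem_mul.2 ⟨w ++ a, ha', b, hb, by simp⟩
      · have hv' : y ++ v ∈ M := hv
        exact Language.mem_mul.2 ⟨x, hx, y ++ v, hv', by simp⟩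
    · intro h
      obtain ⟨a, ha, b, hb, hab⟩ := Language.mem_mul.1 (h : w ++ v ∈ L * M)
      rcases List.append_eq_append_iff.1 hab with ⟨c, hc1, hc2⟩ | ⟨c, hc1, hc2⟩
      · right
        refine ⟨M.leftQuotient c, ⟨a, c, hc1.symm, ha, rfl⟩, ?_⟩
        change c ++ v ∈ M
        rw [← hc2]; exact hb
      · left
        refine Language.mem_mul.2 ⟨c, ?_, b, hb, hc2.symm⟩
        change w ++ c ∈ L
        rw [← hc1]; exact ha

theorem star_split {L : Language α} : ∀ (S : List (List α)), (∀ y ∈ S, y ∈ L) →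
    ∀ w v : List α, v ≠ [] → S.flatten = w ++ v →
      ∃ x y v1 v2, x ∈ KStar.kstar L ∧ x ++ y = w ∧ y ++ v1 ∈ L ∧ v2 ∈ KStar.kstar L ∧ v1 ++ v2 = v
  | [], _, w, v, hv, h => by
    exfalso
    have : w ++ v = [] := h.symm
    exact hv (List.append_eq_nil_iff.1 this).2
  | l :: S, hS, w, v, hv, h => by
    rw [List.flatten_cons] at h
    have hl : l ∈ L := hS l (by simp)
    have hS' : ∀ y ∈ S, y ∈ L := fun y hy => hS y (by simp [hy])
    rcases List.append_eq_append_iff.1 h with ⟨c, hc1, hc2⟩ | ⟨c, hc1, hc2⟩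
    · -- w = l ++ c, S.flatten = c ++ v
      obtain ⟨x, y, v1, v2, hx, hxy, hyv, hv2, hvv⟩ := star_split S hS' c v hv hc2
      refine ⟨l ++ x, y, v1, v2, ?_, ?_, hyv, hv2, hvv⟩
      · obtain ⟨Sx, hSx, hSx'⟩ := Language.mem_kstar.1 hx
        refine Language.mem_kstar.2 ⟨l :: Sx, by simp [hSx], ?_⟩
        intro z hz
        rcases List.mem_cons.1 hz with rfl | hz
        · exact hl
        · exact hSx' z hz
      · rw [List.append_assoc, hxy, hc1]
    · -- l = w ++ c, v = c ++ S.flatten
      refine ⟨[], w, c, S.flatten, Language.nil_mem_kstar L, by simp, ?_, ?_, hc2.symm⟩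
      · rw [← hc1]; exact hl
      · exact Language.mem_kstar.2 ⟨S, rfl, hS'⟩

theorem kstar_append {L : Language α} {u v : List α} (hu : u ∈ KStar.kstar L)
    (hv : v ∈ KStar.kstar L) : u ++ v ∈ KStar.kstar L := by
  obtain ⟨S, rfl, hS⟩ := Language.mem_kstar.1 hu
  obtain ⟨T, rfl, hT⟩ := Language.mem_kstar.1 hv
  refine Language.mem_kstar.2 ⟨S ++ T, by simp, ?_⟩
  intro z hz
  rcases List.mem_append.1 hz with hz | hz
  · exact hS z hz
  · exact hT z hz

theorem kstar_of_mem {L : Language α} {u : List α} (hu : u ∈ L) : u ∈ KStar.kstar L :=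
  Language.mem_kstar.2 ⟨[u], by simp, by simpa using hu⟩

theorem regular_star {L : Language α} (hL : L.IsRegular) : (KStar.kstar L).IsRegular := by
  rw [Language.isRegular_iff_finite_range_leftQuotient] at *
  let f : Set (Language α) × Prop → Language α :=
    fun p => {v | (∃ v1 v2, (∃ Y ∈ p.1, v1 ∈ Y) ∧ v2 ∈ KStar.kstar L ∧ v1 ++ v2 = v) ∨ (p.2 ∧ v = [])}
  refine ((hL.powerset.prod (Set.toFinite (Set.univ : Set Prop))).image f).subset ?_
  rintro _ ⟨w, rfl⟩
  refine ⟨({Y | ∃ x y, x ++ y = w ∧ x ∈ KStar.kstar L ∧ Y = L.leftQuotient y},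
    w ∈ KStar.kstar L), ⟨?_, trivial⟩, ?_⟩
  · rintro _ ⟨x, y, _, _, rfl⟩
    exact ⟨y, rfl⟩
  · ext v
    constructor
    · rintro (⟨v1, v2, ⟨Y, ⟨x, y, rfl, hx, rfl⟩, hv1⟩, hv2, rfl⟩ | ⟨h1, h2⟩)
      · have h1 : y ++ v1 ∈ L := hv1
        change (x ++ y) ++ (v1 ++ v2) ∈ KStar.kstar L
        have := kstar_append (kstar_append hx (kstar_of_mem h1)) hv2
        simpa [List.append_assoc] using this
      · change w ++ v ∈ KStar.kstar L
        rw [h2]; simpa using h1
    · intro h
      have h' : w ++ v ∈ KStar.kstar L := h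
      by_cases hv : v = []
      · right
        rw [hv, List.append_nil] at h'
        exact ⟨h', hv⟩
      · left
        obtain ⟨S, hS, hS'⟩ := Language.mem_kstar.1 h'
        obtain ⟨x, y, v1, v2, hx, hxy, hyv, hv2, hvv⟩ := star_split S hS' w v hv hS.symm
        exact ⟨v1, v2, ⟨L.leftQuotient y, ⟨x, y, hxy, hx, rfl⟩, hyv⟩, hv2, hvv⟩

theorem regular_lang : ∀ e : GRegExp α, e.lang.IsRegular
  | .zero => by
    rw [Language.isRegular_iff_finite_range_leftQuotient]
    refine (Set.finite_singleton (0 : Language α)).subset ?_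
    rintro _ ⟨w, rfl⟩
    rfl
  | .eps => by
    rw [Language.isRegular_iff_finite_range_leftQuotient]
    refine (Set.toFinite ({0, 1} : Set (Language α))).subset ?_
    rintro _ ⟨w, rfl⟩
    cases w with
    | nil => right; rfl
    | cons a w =>
      left
      ext v
      constructor
      · intro h
        have h' : (a :: w) ++ v = [] := h
        simp at h'
      · intro h; exact h.elim
  | .char a => by
    rw [Language.isRegular_iff_finite_range_leftQuotient]
    refine (Set.toFinite ({{[a]}, 1, 0} : Set (Language α))).subset ?_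
    rintro _ ⟨w, rfl⟩
    cases w with
    | nil => left; rfl
    | cons b w =>
      by_cases hb : b = a ∧ w = []
      · right; left
        obtain ⟨rfl, rfl⟩ := hb
        ext v
        constructor
        · intro h
          have h' : [b] ++ v = [b] := h
          have : v = [] := by simpa using h'
          rw [this]; exact rfl
        · intro h
          have : v = [] := h
          rw [this]; exact rfl
      · right; right
        ext v
        constructor
        · intro h
          have h' : (b :: w) ++ v = [a] := h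
          simp only [List.cons_append, List.cons.injEq, List.append_eq_nil_iff] at h'
          exact (hb ⟨h'.1, h'.2.1⟩).elim
        · intro h; exact h.elim
  | .union P Q => (regular_lang P).add (regular_lang Q)
  | .cat P Q => regular_mul (regular_lang P) (regular_lang Q)
  | .not P => (regular_lang P).compl
  | .star P => regular_star (regular_lang P)

theorem HL.isRegular {L : Language α} (hL : HL k L) : L.IsRegular := by
  obtain ⟨e, _, rfl⟩ := hL
  exact regular_lang e

/-- two-sided quotients -/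
def TQ (L : Language α) : Set (Language α) :=
  {Z | ∃ p q : List α, Z = {w | p ++ w ++ q ∈ L}}

theorem TQ_finite {L : Language α} (hL : L.IsRegular) : (TQ L).Finite := by
  obtain ⟨σ, hσ, M, rfl⟩ := Language.isRegular_iff.{u, u}.1 hL
  classical
  let f : σ × Set σ → Language α := fun p => {w | M.evalFrom p.1 w ∈ p.2}
  refine ((Set.toFinite (Set.univ : Set (σ × Set σ))).image f).subset ?_
  rintro _ ⟨p, q, rfl⟩
  refine ⟨(M.evalFrom M.start p, {s | M.evalFrom s q ∈ M.accept}), trivial, ?_⟩
  ext w
  change M.evalFrom (M.evalFrom (M.evalFrom M.start p) w) q ∈ M.accept ↔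
    M.evalFrom M.start (p ++ w ++ q) ∈ M.accept
  rw [DFA.evalFrom_of_append, DFA.evalFrom_of_append]

end Crest.Agent.R320.FO_461
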