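import Crest.Agent.R320.Top5_467
import Crest.Agent.R320.WallU_228
import Crest.Agent.R320.Reg_461

/-!
# Row 320, assembly, part A: blocks of a left-looking wall rule and their heights (helper467)
-/

set_option autoImplicit false

namespace Crest.Agent.R320.Asm467

open Crest.RegLang Crest.Agent.R320.Hk_851 Crest.Agent.R320.Blk467
  Crest.Agent.R320.Pump_360 Crest.Agent.R320.CompR_11

variable {α : Type}

/-- blocks: the first wall at a place `≥ z` -/
def XX (Wo : List α → Prop) (z : ℕ) : Set (List α) :=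
  {X | Wo X ∧ z ≤ X.length ∧ ∀ t < X.length, z ≤ t → ¬ Wo (X.take t)}

theorem pcode {Wo : List α → Prop} {z : ℕ} (hz : 0 < z) : PCode (XX Wo z) := by
  refine ⟨fun h => ?_, ?_⟩
  · have h2 := h.2.1
    simp only [List.length_nil] at h2
    omega
  · intro X hX Y hY hp
    by_contra hne
    have hlen : X.length < Y.length :=
      lt_of_le_of_ne hp.length_le (fun e => hne (hp.eq_of_length e))
    refine hY.2.2 X.length hlen hX.2.1 ?_
    rw [← List.prefix_iff_eq_take.1 hp]
    exact hX.1

theorem wt {Wo : List α → Prop} {n : ℕ}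
    (hloc : ∀ P Q : List α, n ≤ Q.length → (Wo (P ++ Q) ↔ Wo Q)) (P Q : List α) (s : ℕ)
    (h1 : n ≤ s) (h2 : s ≤ Q.length) : Wo ((P ++ Q).take (P.length + s)) ↔ Wo (Q.take s) := by
  have e : (P ++ Q).take (P.length + s) = P ++ Q.take s := by
    rw [List.take_append, List.take_of_length_le (by omega), Nat.add_sub_cancel_left]
  rw [e]
  exact hloc P (Q.take s) (by rw [List.length_take]; omega)

theorem wt2 {Wo : List α → Prop} {n : ℕ}
    (hloc : ∀ P Q : List α, n ≤ Q.length → (Wo (P ++ Q) ↔ Wo Q)) (P P' Q : List α) (t t' : ℕ)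
    (h : t + P'.length = t' + P.length) (h1 : P.length + n ≤ t) (h2 : t ≤ P.length + Q.length) :
    Wo ((P ++ Q).take t) ↔ Wo ((P' ++ Q).take t') := by
  obtain ⟨s, rfl⟩ : ∃ s, t = P.length + s := ⟨t - P.length, by omega⟩
  have e : t' = P'.length + s := by omega
  subst e
  rw [wt hloc P Q s (by omega) (by omega), wt hloc P' Q s (by omega) (by omega)]

/-- no wall within `N` of the threshold -/
def NotE (Wo : List α → Prop) (z N : ℕ) (X : List α) : Prop :=
  ∀ t ≤ X.length, Wo (X.take t) → t + N ≤ z ∨ z + N ≤ t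

theorem junction {Wo : List α → Prop} {n z N p : ℕ}
    (hloc : ∀ P Q : List α, n ≤ Q.length → (Wo (P ++ Q) ↔ Wo Q)) (hN : 0 < N)
    {P P' Q : List α} (hX : P ++ Q ∈ XX Wo z) (hE : NotE Wo z N (P ++ Q))
    (h1 : p ≤ P.length) (h2 : P.length < p + N) (h3 : p ≤ P'.length) (h4 : P'.length < p + N)
    (hz : p + N + n ≤ z) : P' ++ Q ∈ XX Wo z := by
  obtain ⟨hw, hl, hno⟩ := hX
  have hlen : (P ++ Q).length = P.length + Q.length := List.length_append
  have hlen' : (P' ++ Q).length = P'.length + Q.length := List.length_append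
  have hend := hE (P ++ Q).length le_rfl (by rw [List.take_length]; exact hw)
  rw [hlen] at hl hend
  refine ⟨?_, by omega, ?_⟩
  · rw [hloc P' Q (by omega)]
    rwa [hloc P Q (by omega)] at hw
  · intro t' ht' hzt hwt
    rw [hlen'] at ht'
    have hwt' := (wt2 hloc P' P Q t' (t' + P.length - P'.length) (by omega) (by omega)
      (by omega)).1 hwt
    by_cases hzt2 : z ≤ t' + P.length - P'.length
    · exact hno _ (by omega) hzt2 hwt'
    · rcases hE _ (by omega) hwt' with h | h <;> omega

def Fib {S : Type} [Monoid S] (f : α → S) (M0 : ℕ) (s : S) (r : ℕ) : Language α :=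
  {w | (w.map f).prod = s ∧ w.length % M0 = r}

def Un {S : Type} [Monoid S] (f : α → S) (M0 : ℕ) (J : Set (List α × S × ℕ)) : Language α :=
  {X | ∃ j ∈ J, X ∈ (({j.1} : Language α) * Fib f M0 j.2.1 j.2.2 : Language α)}

/-- fibres are regular -/
theorem fib_reg {S : Type} [Monoid S] [Finite S] (f : α → S) (M0 : ℕ) (hM : 0 < M0) (s : S)
    (r : ℕ) : (Fib f M0 s r).IsRegular := by
  classical
  haveI : NeZero M0 := ⟨by omega⟩
  haveI := Fintype.ofFinite S
  rw [Language.isRegular_iff.{0, 0}]
  let D : DFA α (S × ZMod M0) :=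
    ⟨fun q a => (q.1 * f a, q.2 + 1), (1, 0), {q | q.1 = s ∧ q.2.val = r}⟩
  refine ⟨S × ZMod M0, inferInstance, D, ?_⟩
  have key : ∀ (w : List α) (q : S × ZMod M0),
      List.foldl (fun (q : S × ZMod M0) a => (q.1 * f a, q.2 + 1)) q w =
        (q.1 * (w.map f).prod, q.2 + (w.length : ZMod M0)) := by
    intro w
    induction w with
    | nil => intro q; simp
    | cons a w ih =>
      intro q
      rw [List.foldl_cons, ih]
      simp only [List.map_cons, List.prod_cons, List.length_cons, Nat.cast_add, Nat.cast_one,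
        mul_assoc]
      congr 1
      ring
  ext w
  have hev : D.eval w = ((w.map f).prod, (w.length : ZMod M0)) := by
    change List.foldl (fun (q : S × ZMod M0) a => (q.1 * f a, q.2 + 1)) (1, 0) w = _
    rw [key w (1, 0), one_mul, zero_add]
  rw [DFA.mem_accepts, hev]
  change ((w.map f).prod = s ∧ (w.length : ZMod M0).val = r) ↔ _
  rw [ZMod.val_natCast]
  exact Iff.rfl

theorem HL_XX [Finite α] {Wo : List α → Prop} {n : ℕ}
    (hloc : ∀ P Q : List α, n ≤ Q.length → (Wo (P ++ Q) ↔ Wo Q))
    (hn : ∀ P : List α, Wo P → n ≤ P.length) (z : ℕ) : HL 0 (XX Wo z : Language α) := by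
  -- walls
  have hW : HL 0 ({X | Wo X} : Language α) := by
    refine (HL.suffix (k := 0) (L := ({Q | Q.length ≤ n ∧ (n ≤ Q.length ∧ Wo Q)} : Language α))
      (HL.finite ((List.finite_length_le α n).subset fun _ h => h.1))).congr fun w => ?_
    constructor
    · intro hw
      have hw' : Wo w := hw
      have hl := hn w hw'
      refine ⟨w.drop (w.length - n), ⟨?_, ?_, ?_⟩, List.drop_suffix _ _⟩
      · rw [List.length_drop]; omega
      · rw [List.length_drop]; omega
      · rw [← hloc (w.take (w.length - n)) _ (by rw [List.length_drop]; omega),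
          List.take_append_drop]
        exact hw'
    · rintro ⟨v, ⟨_, h2, h3⟩, u, rfl⟩
      exact (hloc u v h2).2 h3
  have hWz : HL 0 ({X | Wo X ∧ z ≤ X.length} : Language α) :=
    HL.setOf_and hW (HL.length_ge z)
  let A : Language α := {X | Wo X ∧ z ≤ X.length}
  let B1 : Language α := {w | 1 ≤ w.length}
  have h1 : HL 0 (A * B1) := HL.mul (L := A) (M := B1) hWz (HL.length_ge 1)
  refine (hWz.sdiff h1).congr fun X => ?_
  constructor
  · rintro ⟨h1, h2, h3⟩
    refine ⟨⟨h1, h2⟩, ?_⟩
    intro hm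
    obtain ⟨a, ha, b, hb, rfl⟩ := Language.mem_mul.1 hm
    have hb' : 1 ≤ b.length := hb
    refine h3 a.length (by rw [List.length_append]; omega) ha.2 ?_
    rw [List.take_left]
    exact ha.1
  · rintro ⟨⟨h1, h2⟩, h3⟩
    refine ⟨h1, h2, fun t ht hzt hw => h3 ?_⟩
    refine Language.mem_mul.2 ⟨X.take t, ⟨hw, ?_⟩, X.drop t, ?_, List.take_append_drop _ _⟩
    · rw [List.length_take]; omega
    · change 1 ≤ (X.drop t).length
      rw [List.length_drop]; omega

theorem pieces_XX {Wo : List α → Prop} {n R B : ℕ}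
    (hloc : ∀ P Q : List α, n ≤ Q.length → (Wo (P ++ Q) ↔ Wo Q))
    (hn : ∀ P : List α, Wo P → n ≤ P.length)
    (hp : ∀ u : List α, (∀ t < u.length, ¬ Wo (u.take t)) → Pieces R B u) (z : ℕ)
    {X : List α} (hX : X ∈ XX Wo z) : Pieces (R + 1) (max B z) X := by
  obtain ⟨h1, h2, h3⟩ := hX
  have hu : ∀ t < (X.drop z).length, ¬ Wo ((X.drop z).take t) := by
    intro t ht hw
    have hnt := hn _ hw
    rw [List.length_take] at hnt
    rw [List.length_drop] at ht
    have hlz : (X.take z).length = z := by rw [List.length_take]; omega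
    have := (wt hloc (X.take z) (X.drop z) t (by omega)
      (by rw [List.length_drop]; omega)).2 hw
    rw [List.take_append_drop, hlz] at this
    exact h3 _ (by omega) (by omega) this
  obtain ⟨l, hl, hb, e⟩ := hp _ hu
  refine ⟨(X.take z, [], 0) :: l, by simpa using hl, ?_, ?_⟩
  · intro t ht
    rcases List.mem_cons.1 ht with rfl | ht
    · refine ⟨?_, by simp⟩
      simp only [List.length_take]
      omega
    · exact ⟨(hb t ht).1.trans (le_max_left _ _), (hb t ht).2.trans (le_max_left _ _)⟩
  · rw [val_cons, pw_zero, List.append_nil, ← e, List.take_append_drop]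

/-- **heights of block languages** -/
theorem base [Finite α] {S : Type} [Monoid S] [Finite S] (f : α → S) {M0 : ℕ} (hM : 0 < M0)
    {Wo : List α → Prop} {n R B : ℕ}
    (hloc : ∀ P Q : List α, n ≤ Q.length → (Wo (P ++ Q) ↔ Wo Q))
    (hn : ∀ P : List α, Wo P → n ≤ P.length)
    (hp : ∀ u : List α, (∀ t < u.length, ¬ Wo (u.take t)) → Pieces R B u) (z Lb : ℕ)
    (G : List α → Prop)
    (hG : ∀ u Y Y' : List α, u.length = Lb → (Y.map f).prod = (Y'.map f).prod →
      Y.length % M0 = Y'.length % M0 → G (u ++ Y) → G (u ++ Y')) :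
    HL 1 ({X | X ∈ XX Wo z ∧ G X} : Language α) := by
  classical
  haveI := Fintype.ofFinite S
  let J : Set (List α × S × ℕ) := {j | j.1.length = Lb ∧ j.2.2 < M0 ∧
      ∃ Y, (Y.map f).prod = j.2.1 ∧ Y.length % M0 = j.2.2 ∧ G (j.1 ++ Y)}
  have hJfin : J.Finite :=
    (((List.finite_length_eq α Lb).prod (Set.finite_univ.prod (Set.finite_lt_nat M0)))).subset
      fun j hj => ⟨hj.1, Set.mem_univ _, hj.2.1⟩
  let U : Language α := Un f M0 J
  have hUreg : U.IsRegular := by
    -- finite unions of regular languages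
    have hfu : ∀ (J : Set (List α × S × ℕ)), J.Finite → (Un f M0 J).IsRegular := by
      intro J hJ
      induction J, hJ using Set.Finite.induction_on with
      | empty =>
        have e : Un f M0 (∅ : Set (List α × S × ℕ)) = 0 := by
          ext X
          constructor
          · rintro ⟨j, hj, _⟩; exact absurd hj (by simp)
          · intro h; exact absurd h (Language.notMem_zero _)
        rw [e]
        exact Crest.Agent.R320.FO_461.HL.isRegular (HL.zero (k := 0))
      | insert _ _ ih =>
        rename_i a s' _ _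
        have e : Un f M0 (insert a s') =
            (({a.1} : Language α) * Fib f M0 a.2.1 a.2.2 : Language α) + Un f M0 s' := by
          ext X
          constructor
          · rintro ⟨j, hj, hX⟩
            rcases Set.mem_insert_iff.1 hj with rfl | hj
            · exact Or.inl hX
            · exact Or.inr ⟨j, hj, hX⟩
          · rintro (hX | ⟨j, hj, hX⟩)
            · exact ⟨a, Set.mem_insert _ _, hX⟩
            · exact ⟨j, Set.mem_insert_of_mem _ hj, hX⟩
        rw [e]
        exact Language.IsRegular.add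
          (Crest.Agent.R320.FO_461.regular_mul
            (Crest.Agent.R320.FO_461.HL.isRegular (HL.word (k := 0) a.1))
            (fib_reg f M0 hM a.2.1 a.2.2)) ih
    exact hfu _ hJfin
  let XL : Language α := XX Wo z
  have hXreg : XL.IsRegular :=
    Crest.Agent.R320.FO_461.HL.isRegular (HL_XX hloc hn z)
  have h1 : HL 1 (U ⊓ XL) :=
    Crest.Agent.R320.RegBd_11.reg_pieces_rel hUreg hXreg (R + 1) (max B z)
      (fun w hw => pieces_XX hloc hn hp z hw)
  have h2 : HL 1 ({X | X.length ≤ Lb ∧ (X ∈ XX Wo z ∧ G X)} : Language α) :=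
    HL.finite ((List.finite_length_le α Lb).subset fun _ h => h.1)
  refine (h2.sup h1).congr fun X => ?_
  constructor
  · rintro ⟨hX, hg⟩
    by_cases hl : X.length ≤ Lb
    · exact Or.inl ⟨hl, hX, hg⟩
    · right
      refine ⟨⟨(X.take Lb, ((X.drop Lb).map f).prod, (X.drop Lb).length % M0), ⟨?_,
        Nat.mod_lt _ hM, X.drop Lb, rfl, rfl, ?_⟩, Language.mem_mul.2 ⟨X.take Lb, rfl, X.drop Lb,
        ⟨rfl, rfl⟩, List.take_append_drop _ _⟩⟩, hX⟩
      · rw [List.length_take]; omega
      · simp only [List.take_append_drop]; exact hg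
  · rintro (⟨_, h⟩ | ⟨⟨j, ⟨h1, _, Y, h2, h3, h4⟩, hX⟩, hXX⟩)
    · exact h
    · refine ⟨hXX, ?_⟩
      obtain ⟨a, ha, Y', ⟨hY1, hY2⟩, rfl⟩ := Language.mem_mul.1 hX
      have ha' : a = j.1 := ha
      subst ha'
      exact hG _ Y Y' h1 (h2.trans hY1.symm) (h3.trans hY2.symm) h4

end Crest.Agent.R320.Asm467
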