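import Mathlib

set_option autoImplicit false

/-!
Row 320: walls on words without high powers of short words.
-/

namespace Crest.Agent.R320.Wall_291

variable {α : Type*}

/-- no `e`-th power of a nonempty word of length at most `p` is a factor of `Q` -/
def RF (e p : ℕ) (Q : List α) : Prop :=
  ∀ x : List α, x ≠ [] → x.length ≤ p → ¬ (List.replicate e x).flatten <:+: Q

theorem RF.infix {e p : ℕ} {Q Q' : List α} (h : RF e p Q) (hQ : Q' <:+: Q) : RF e p Q' :=
  fun x hx hl hi => h x hx hl (hi.trans hQ)

theorem RF.drop {e p : ℕ} {Q : List α} (h : RF e p Q) (i : ℕ) : RF e p (Q.drop i) :=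
  h.infix (List.drop_suffix i Q).isInfix

theorem RF.take {e p : ℕ} {Q : List α} (h : RF e p Q) (i : ℕ) : RF e p (Q.take i) :=
  h.infix (List.take_prefix i Q).isInfix

theorem RF.mono {e p p' : ℕ} {Q : List α} (h : RF e p Q) (hp : p' ≤ p) : RF e p' Q :=
  fun x hx hl hi => h x hx (hl.trans hp) hi

/-- periodicity: equal names at distance `d` give a power -/
theorem take_pow {P : List α} {d L : ℕ} (h : P.take L = (P.drop d).take L) (j : ℕ)
    (hj : j * d ≤ d + L) : P.take (j * d) = (List.replicate j (P.take d)).flatten := by
  induction j with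
  | zero => simp
  | succ j ih =>
    have hjL : j * d ≤ L := by
      have : (j + 1) * d = j * d + d := by ring
      omega
    have h1 : P.take ((j + 1) * d) = P.take d ++ (P.drop d).take (j * d) := by
      have : (j + 1) * d = d + j * d := by ring
      rw [this, List.take_add]
    have h2 : (P.drop d).take (j * d) = P.take (j * d) := by
      have e1 : (P.drop d).take (j * d) = ((P.drop d).take L).take (j * d) := by
        rw [List.take_take, min_eq_left hjL]
      have e2 : P.take (j * d) = (P.take L).take (j * d) := by
        rw [List.take_take, min_eq_left hjL]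
      rw [e1, e2, h]
    rw [h1, h2, ih (by omega), List.replicate_succ, List.flatten_cons]

theorem not_RF_of_eq {e W d c : ℕ} {Q : List α} (hd : 0 < d) (hdW : d ≤ W)
    (hlen : c + d + e * W ≤ Q.length)
    (h : (Q.drop c).take (e * W) = (Q.drop (c + d)).take (e * W)) : ¬ RF e W Q := by
  intro hRF
  set P := Q.drop c with hP
  have h' : P.take (e * W) = (P.drop d).take (e * W) := by
    rw [h, hP, List.drop_drop]
  have hpow := take_pow h' e (by nlinarith)
  have hPl : P.length = Q.length - c := by rw [hP, List.length_drop]
  have hxl : (P.take d).length = d := by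
    rw [List.length_take, hPl]
    omega
  refine hRF (P.take d) ?_ (by omega) ?_
  · intro h0
    rw [h0] at hxl
    simp at hxl
    omega
  · rw [← hpow]
    exact ((List.take_prefix _ P).isInfix).trans (List.drop_suffix c Q).isInfix

/-- the wall rule: the name at offset `W` is the strict minimum of the names at offsets `0..2W` -/
def R (enc : List α → ℕ) (W L : ℕ) (Q : List α) : Prop :=
  2 * W + L ≤ Q.length ∧
    ∀ k, k ≤ 2 * W → k ≠ W → enc ((Q.drop W).take L) < enc ((Q.drop k).take L)

theorem R_take (enc : List α → ℕ) (W L : ℕ) (Q : List α) :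
    R enc W L Q ↔ R enc W L (Q.take (2 * W + L)) := by
  have key : ∀ k, k ≤ 2 * W →
      ((Q.take (2 * W + L)).drop k).take L = (Q.drop k).take L := by
    intro k hk
    rw [List.drop_take, List.take_take]
    congr 1
    omega
  unfold R
  rw [List.length_take]
  constructor
  · rintro ⟨h1, h2⟩
    refine ⟨by omega, fun k hk hkW => ?_⟩
    rw [key W (by omega), key k hk]
    exact h2 k hk hkW
  · rintro ⟨h1, h2⟩
    refine ⟨by omega, fun k hk hkW => ?_⟩
    have := h2 k hk hkW
    rwa [key W (by omega), key k hk] at this

theorem R_sep (enc : List α → ℕ) (W L : ℕ) (Q : List α) (h : R enc W L Q) (d : ℕ)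
    (hd : 0 < d) (hdW : d ≤ W) : ¬ R enc W L (Q.drop d) := by
  rintro ⟨-, h2⟩
  have a := h.2 (W + d) (by omega) (by omega)
  have b := h2 (W - d) (by omega) (by omega)
  rw [List.drop_drop, List.drop_drop] at b
  have e1 : d + W = W + d := by omega
  have e2 : d + (W - d) = W := by omega
  rw [e1, e2] at b
  omega

theorem exists_wall_aux (enc : List α → ℕ) (henc : Function.Injective enc) (e W : ℕ)
    {Q : List α} (hRF : RF e W Q) :
    ∀ v c : ℕ, enc ((Q.drop c).take (e * W)) = v → W + v * W ≤ c →
      c + v * W + W + e * W ≤ Q.length →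
      ∃ i, R enc W (e * W) (Q.drop i) ∧ c ≤ i + W + v * W ∧ i + W ≤ c + v * W := by
  intro v
  induction v using Nat.strong_induction_on with
  | _ v ih =>
    intro c hv hc hlen
    by_cases hmin : ∀ k, k ≤ 2 * W → k ≠ W →
        enc ((Q.drop c).take (e * W)) < enc ((Q.drop (c - W + k)).take (e * W))
    · refine ⟨c - W, ⟨?_, ?_⟩, by omega, by omega⟩
      · rw [List.length_drop]; omega
      · intro k hk hkW
        rw [List.drop_drop, List.drop_drop]
        have e1 : c - W + W = c := by omega
        rw [e1]
        exact hmin k hk hkW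
    · push Not at hmin
      obtain ⟨k, hk, hkW, hle⟩ := hmin
      set c' := c - W + k with hc'
      have hne : enc ((Q.drop c').take (e * W)) ≠ enc ((Q.drop c).take (e * W)) := by
        intro heq
        have heq' := henc heq
        rcases lt_or_gt_of_ne (show c' ≠ c by omega) with hlt | hgt
        · refine not_RF_of_eq (e := e) (W := W) (d := c - c') (c := c') (Q := Q) (by omega)
            (by omega) (by omega) ?_ hRF
          rw [heq']
          congr 2
          omega
        · refine not_RF_of_eq (e := e) (W := W) (d := c' - c) (c := c) (Q := Q) (by omega)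
            (by omega) (by omega) ?_ hRF
          rw [← heq']
          congr 2
          omega
      have hlt : enc ((Q.drop c').take (e * W)) < v := by omega
      set v' := enc ((Q.drop c').take (e * W)) with hv'
      have hmul : v' * W + W ≤ v * W := by
        have : (v' + 1) * W ≤ v * W := Nat.mul_le_mul_right W hlt
        nlinarith
      obtain ⟨i, hi, h1, h2⟩ := ih v' hlt c' rfl (by omega) (by omega)
      exact ⟨i, hi, by omega, by omega⟩

/-- WALLS. -/
theorem exists_walls (α : Type*) [Finite α] (e W : ℕ) :
    ∃ (n G : ℕ) (R : List α → Prop),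
      (∀ Q, R Q ↔ R (Q.take n)) ∧
      (∀ Q, R Q → n ≤ Q.length) ∧
      (∀ Q d, R Q → 0 < d → d ≤ W → ¬ R (Q.drop d)) ∧
      (∀ Q, RF e W Q → G + n ≤ Q.length → ∃ i < G, R (Q.drop i)) := by
  classical
  have _enc : Encodable α := Encodable.ofCountable α
  have _ft : Fintype α := Fintype.ofFinite α
  let enc : List α → ℕ := Encodable.encode
  have henc : Function.Injective enc := Encodable.encode_injective
  -- a bound for the codes of the words of length at most e * W
  obtain ⟨B, hB⟩ : ∃ B : ℕ, ∀ l : List α, l.length ≤ e * W → enc l < B := by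
    have hfin : {l : List α | l.length ≤ e * W}.Finite := List.finite_length_le α (e * W)
    obtain ⟨B, hB⟩ := (hfin.image enc).bddAbove
    exact ⟨B + 1, fun l hl => Nat.lt_succ_of_le (hB ⟨l, hl, rfl⟩)⟩
  refine ⟨2 * W + e * W, 2 * (B * W) + 1, R enc W (e * W), R_take enc W (e * W), fun Q h => h.1,
    fun Q d h hd hdW => R_sep enc W (e * W) Q h d hd hdW, ?_⟩
  intro Q hRF hlen
  have hv : enc ((Q.drop (W + B * W)).take (e * W)) < B := hB _ (by
    rw [List.length_take]; exact min_le_left _ _)
  set v := enc ((Q.drop (W + B * W)).take (e * W)) with hvdef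
  have hmul : v * W ≤ B * W := Nat.mul_le_mul_right W hv.le
  obtain ⟨i, hi, h1, h2⟩ := exists_wall_aux enc henc e W hRF v (W + B * W) rfl (by omega)
    (by omega)
  exact ⟨i, by omega, hi⟩

end Crest.Agent.R320.Wall_291
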