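import Mathlib
import Crest.Agent.R320.Zone132_898
import Crest.Agent.R320.Wall_291

/-! Row 320: chain with residue thresholds (132), shifted readings, and the text-side lemmas (helper472). -/

set_option autoImplicit false

namespace Crest.Agent.R320.AsmA_472

open Crest.Agent.R320.Zone132_898 Crest.Agent.R320.Wall_291

noncomputable def fst (P : ℕ → Prop) : Option ℕ := by
  classical exact if h : ∃ d, P d then some (Nat.find h) else none

theorem fst_some {P : ℕ → Prop} {d : ℕ} : fst P = some d ↔ P d ∧ ∀ d' < d, ¬ P d' := by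
  classical
  unfold fst
  constructor
  · intro h
    split_ifs at h with hex
    · simp only [Option.some.injEq] at h
      subst h
      exact ⟨Nat.find_spec hex, fun d' hd' => Nat.find_min hex hd'⟩
  · rintro ⟨h1, h2⟩
    have hex : ∃ d, P d := ⟨d, h1⟩
    rw [dif_pos hex]
    congr 1
    exact (Nat.find_eq_iff hex).2 ⟨h1, fun n hn => h2 n hn⟩

theorem fst_none {P : ℕ → Prop} : fst P = none ↔ ∀ d, ¬ P d := by
  classical
  unfold fst
  constructor
  · intro h
    split_ifs at h with hex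
    exact fun d hd => hex ⟨d, hd⟩
  · intro h
    rw [dif_neg]
    rintro ⟨d, hd⟩
    exact h d hd

theorem fst_ex {P : ℕ → Prop} (h : ∃ d, P d) : ∃ d, fst P = some d := by
  rcases h1 : fst P with _ | d
  · obtain ⟨d, hd⟩ := h
    exact absurd hd (fst_none.1 h1 d)
  · exact ⟨d, rfl⟩

theorem fst_congr {P P' : ℕ → Prop} (h : ∀ t, P t ↔ P' t) : fst P = fst P' := by
  have : P = P' := funext fun t => propext (h t)
  rw [this]

theorem fst_shift {P P' : ℕ → Prop} (a : ℕ) (h : ∀ t, P (a + t) ↔ P' t)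
    (h0 : ∀ d, d < a → ¬ P d) : fst P = (fst P').map (a + ·) := by
  rcases h1 : fst P' with _ | d
  · simp only [Option.map_none]
    rw [fst_none] at h1 ⊢
    intro d hd
    rcases lt_or_ge d a with h2 | h2
    · exact h0 d h2 hd
    · obtain ⟨t, rfl⟩ := Nat.exists_eq_add_of_le h2
      exact h1 t ((h t).1 hd)
  · simp only [Option.map_some]
    rw [fst_some] at h1 ⊢
    refine ⟨(h d).2 h1.1, fun d' hd' hP => ?_⟩
    rcases lt_or_ge d' a with h2 | h2
    · exact h0 d' h2 hP
    · obtain ⟨t, rfl⟩ := Nat.exists_eq_add_of_le h2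
      exact h1.2 t (by omega) ((h t).1 hP)

/-- walls as a `Rule` -/
theorem exists_rule (α : Type) [Finite α] (e W : ℕ) : ∃ (r : Rule α) (G : ℕ),
    (∀ Q d, r.R Q → 0 < d → d ≤ W → ¬ r.R (Q.drop d)) ∧
    (∀ Q, RF e W Q → G + r.n ≤ Q.length → ∃ i < G, r.R (Q.drop i)) := by
  obtain ⟨n, G, R, h1, h2, h3, h4⟩ := exists_walls α e W
  refine ⟨⟨fun Q => R Q ∧ n + 1 ≤ Q.length, n + 1, by omega, ?_, fun Q h => h.2⟩, G, ?_, ?_⟩
  · intro Q
    constructor
    · rintro ⟨h, hl⟩
      refine ⟨?_, by rw [List.length_take]; omega⟩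
      rw [h1, List.take_take, min_eq_left (by omega)]
      exact (h1 Q).1 h
    · rintro ⟨h, hl⟩
      rw [List.length_take] at hl
      refine ⟨?_, by omega⟩
      rw [h1, List.take_take, min_eq_left (by omega)] at h
      exact (h1 Q).2 h
  · rintro Q d ⟨h, -⟩ hd hW ⟨h', -⟩
    exact h3 Q d h hd hW h'
  · intro Q hQ hl
    change G + (n + 1) ≤ Q.length at hl
    obtain ⟨i, hi, hR⟩ := h4 Q hQ (by omega)
    exact ⟨i, hi, hR, by rw [List.length_drop]; omega⟩

/-- separation of walls of a rule -/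
def Sepd {α : Type} (r : Rule α) (W : ℕ) : Prop :=
  ∀ Q d, r.R Q → 0 < d → d ≤ W → ¬ r.R (Q.drop d)

theorem Sepd.eq {α : Type} {r : Rule α} {W : ℕ} (h : Sepd r W) {U : List α} {s t : ℕ}
    (hs : r.R (U.drop s)) (ht : r.R (U.drop t)) (h1 : s ≤ t + W) (h2 : t ≤ s + W) : s = t := by
  rcases lt_trichotomy s t with h3 | h3 | h3
  · exfalso
    refine h (U.drop s) (t - s) hs (by omega) (by omega) ?_
    rw [List.drop_drop, show s + (t - s) = t by omega]
    exact ht
  · exact h3
  · exfalso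
    refine h (U.drop t) (s - t) ht (by omega) (by omega) ?_
    rw [List.drop_drop, show t + (s - t) = s by omega]
    exact hs

/-- reading of a rule in a truncated text -/
theorem rule_take {α : Type} (r : Rule α) {W : List α} {t l : ℕ} (h : t + r.n ≤ l) :
    r.R ((W.take l).drop t) ↔ r.R (W.drop t) := by
  rw [r.take_iff ((W.take l).drop t), r.take_iff (W.drop t), List.drop_take, List.take_take,
    min_eq_left (by omega)]

theorem rule_len {α : Type} (r : Rule α) {W : List α} {t : ℕ} (h : r.R (W.drop t)) :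
    t + r.n ≤ W.length := by
  have h1 := r.len _ h
  have h2 := r.pos
  rw [List.length_drop] at h1
  omega

/-- the parameters of the chain -/
structure Par (α : Type) where
  ro : Rule α
  q : ℕ
  hq : 0 < q
  p0 : ℕ
  N1 : ℕ
  La : ℕ
  z0 : ℕ
  hz : p0 + 2 * N1 + La < z0
  Go : ℕ
  Wo : ℕ
  sep : Sepd ro Wo
  hWo : q * (2 * N1 + 2 * La + 1) + 2 * N1 + 2 * La ≤ Wo

namespace Par

variable {α : Type} (c : Par α)

def st : ℕ := 2 * c.N1 + 2 * c.La + 1

/-- threshold of the residue -/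
def tau (d : ℕ) : ℕ := c.z0 + (d % c.q) * c.st

def tmax : ℕ := c.z0 + c.q * c.st

def thr (d : ℕ) : Prop := c.tau d ≤ d

theorem tau_le (d : ℕ) : c.tau d ≤ c.tmax := by
  unfold tau tmax
  have := Nat.mul_le_mul_right c.st (Nat.mod_lt d c.hq).le
  omega

theorem le_tau (d : ℕ) : c.z0 ≤ c.tau d := by unfold tau; omega

theorem thr_ge {d : ℕ} (h : c.thr d) : c.z0 ≤ d := le_trans (c.le_tau d) h

theorem thr_of {d : ℕ} (h : c.tmax ≤ d) : c.thr d := le_trans (c.tau_le d) h

/-- anchors of the text `W` for an anchor `j` letters before -/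
def An (j : ℕ) (W : List α) (t : ℕ) : Prop := c.ro.R (W.drop t) ∧ c.thr (t + j)

noncomputable def nxAt (j : ℕ) (W : List α) : Option ℕ := fst (c.An j W)

noncomputable def nx (Q : List α) : Option ℕ := c.nxAt 0 Q

theorem nxAt_some {j : ℕ} {W : List α} {t : ℕ} :
    c.nxAt j W = some t ↔ c.An j W t ∧ ∀ t' < t, ¬ c.An j W t' := fst_some

theorem nx_append {P Q : List α} (h : P.length ≤ c.p0) :
    c.nx (P ++ Q) = (c.nxAt P.length Q).map (P.length + ·) := by
  unfold nx nxAt
  apply fst_shift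
  · intro t
    unfold An
    rw [Zone132_898.drop_add]
    simp only [Nat.add_zero, Nat.add_comm]
  · rintro d hd ⟨-, h2⟩
    have h3 := c.thr_ge h2
    have := c.hz
    omega

theorem nxAt_pos {j : ℕ} {W : List α} {t : ℕ} (h : c.nxAt j W = some t) :
    c.z0 ≤ t + j ∧ t + c.ro.n ≤ W.length :=
  ⟨c.thr_ge (c.nxAt_some.1 h).1.2, rule_len _ (c.nxAt_some.1 h).1.1⟩

/-- truncation -/
theorem nxAt_take {j : ℕ} {W : List α} {t l : ℕ} (h : c.nxAt j W = some t)
    (hl : t + c.ro.n ≤ l) : c.nxAt j (W.take l) = some t := by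
  rw [nxAt_some] at h ⊢
  obtain ⟨⟨h1, h2⟩, h3⟩ := h
  refine ⟨⟨(rule_take c.ro hl).2 h1, h2⟩, ?_⟩
  rintro t' ht' ⟨h4, h5⟩
  exact h3 t' ht' ⟨(rule_take c.ro (by omega)).1 h4, h5⟩

theorem nxAt_of_take {j : ℕ} {W : List α} {t l : ℕ} (h : c.nxAt j (W.take l) = some t) :
    c.nxAt j W = some t := by
  have hl := (c.nxAt_pos h).2
  rw [List.length_take] at hl
  rw [nxAt_some] at h ⊢
  obtain ⟨⟨h1, h2⟩, h3⟩ := h
  refine ⟨⟨(rule_take c.ro (by omega)).1 h1, h2⟩, ?_⟩
  rintro t' ht' ⟨h4, h5⟩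
  exact h3 t' ht' ⟨(rule_take c.ro (by omega)).2 h4, h5⟩

theorem nx_ext {Q Q' : List α} {d : ℕ} (h : c.nx Q = some d) : c.nx (Q ++ Q') = some d := by
  apply c.nxAt_of_take (l := Q.length)
  rw [List.take_append_of_le_length le_rfl, List.take_length]
  exact h

theorem nx_tight {Q Q' : List α} {d : ℕ} (h : c.nx (Q ++ Q') = some d)
    (hl : d + c.ro.n ≤ Q.length) : c.nx Q = some d := by
  have := c.nxAt_take (l := Q.length) h hl
  rwa [List.take_append_of_le_length le_rfl, List.take_length] at this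

theorem nx_short {P : List α} (h : P.length ≤ c.p0 + c.N1) : c.nx P = none := by
  rcases h1 : c.nx P with _ | d
  · rfl
  · have h2 := c.nxAt_pos h1
    have := c.hz
    omega

/-- existence of the next anchor on run-free text -/
theorem nxAt_ex {e w : ℕ} (hG : ∀ Q, RF e w Q → c.Go + c.ro.n ≤ Q.length → ∃ i < c.Go, c.ro.R (Q.drop i))
    {j : ℕ} {W : List α} (hW : RF e w W) (hl : c.tmax + c.Go + c.ro.n ≤ W.length) :
    ∃ t, c.nxAt j W = some t ∧ t ≤ c.tmax + c.Go := by
  obtain ⟨i, hi, hR⟩ := hG (W.drop c.tmax) (hW.drop _) (by rw [List.length_drop]; omega)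
  rw [List.drop_drop] at hR
  have hA : c.An j W (c.tmax + i) := ⟨hR, c.thr_of (by omega)⟩
  obtain ⟨t, ht⟩ := fst_ex ⟨_, hA⟩
  refine ⟨t, ht, ?_⟩
  by_contra hlt
  exact (fst_some.1 ht).2 (c.tmax + i) (by omega) hA

end Par

end Crest.Agent.R320.AsmA_472
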