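import Crest.Agent.R320.Top_180

/-!
# Row 320: instance of 180's `top2`, all words, natural chain rule (helper489)

Blocks: first wall at distance `≥ z0`; semantic right languages (helper50's trick).
-/

set_option autoImplicit false

namespace Crest.Agent.R320.Asm_489

open Crest.RegLang Crest.Agent.R320.Hk_851 Crest.Agent.R320.Half1_180

/-- data of the two schemes -/
structure Dat (α S V : Type) [Monoid S] [AddCommGroup V] where
  f : α → S
  act : V → S → V
  Wo : List α → Prop
  n : ℕ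
  W : ℕ
  z0 : ℕ
  N : ℕ
  p0 : ℕ
  K : ℕ
  R : ℕ
  C1 : ℕ
  c : ℕ → ℕ
  lam1 : List α → Option V
  rho1 : List α → Option V
  nu1 : List α → V
  Bad1 : ℕ → Prop
  lam2 : ℕ → List α → Option V
  rho2 : ℕ → List α → Option V
  nu2 : List α → V

namespace Dat

variable {α S V : Type} [Monoid S] [AddCommGroup V] (D : Dat α S V)

/-- value -/
def ph (w : List α) : S := (w.map D.f).prod

theorem ph_append (u v : List α) : D.ph (u ++ v) = D.ph u * D.ph v := by simp [ph]

open Classical in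
/-- everything which is needed -/
structure Ok : Prop where
  Wo_app : ∀ P Q : List α, D.n ≤ Q.length → (D.Wo (P ++ Q) ↔ D.Wo Q)
  gap : ∀ (w : List α) (s t : ℕ), s < t → t ≤ w.length → D.Wo (w.take s) → D.Wo (w.take t) →
    D.W < t - s
  act_add : ∀ a b s, D.act (a + b) s = D.act a s + D.act b s
  act_mul : ∀ v s s', D.act (D.act v s) s' = D.act v (s * s')
  act_one : ∀ v, D.act v 1 = v
  faith : ∀ s s', (∀ v, D.act v s = D.act v s') → s = s'
  lam1_len : ∀ P v, D.lam1 P = some v → P.length < D.N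
  sound1 : ∀ P Q v b, D.lam1 P = some v → D.rho1 Q = some b →
    b = D.act v (D.ph (P ++ Q)) + D.nu1 (P ++ Q)
  compl1 : ∀ X : List α, D.z0 ≤ X.length + D.p0 → ¬ D.Bad1 X.length → ∀ v,
    ∃ P Q, P ++ Q = X ∧ D.lam1 P = some v ∧ (D.rho1 Q).isSome
  sound2 : ∀ k < D.K, ∀ P Q v b, P.length = D.c k → D.lam2 k P = some v →
    D.rho2 k Q = some b → b = D.act v (D.ph (P ++ Q)) + D.nu2 (P ++ Q)
  compl2 : ∀ u : List α, u.length = D.p0 → ∀ v, ∃ I : Finset ℕ, D.R ≤ I.card ∧
    ∀ k ∈ I, k < D.K ∧ D.lam2 k (u.take (D.c k)) = some v ∧ (D.rho2 k (u.drop (D.c k))).isSome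
  c_le : ∀ k < D.K, D.c k ≤ D.p0
  c_inj : ∀ i < D.K, ∀ j < D.K, D.c i = D.c j → i = j
  spoilE : ∀ τ : ℤ, ((Finset.range D.K ×ˢ Finset.range D.K).filter
    (fun ij => ij.1 ≠ ij.2 ∧ |((D.c ij.2 : ℤ) - D.c ij.1) - τ| ≤ D.N)).card ≤ 1
  spoilB : ∀ T, D.z0 ≤ T + 2 * D.p0 + D.N → ((Finset.range D.K ×ˢ Finset.range D.K).filter
    (fun ij => ij.1 ≠ ij.2 ∧ D.Bad1 (T + D.c ij.2 - D.c ij.1))).card ≤ D.C1
  hR : 1 + 2 * D.C1 < D.R
  hz : 2 * D.p0 + 2 * D.N + D.n + 1 ≤ D.z0
  hW : 2 * D.z0 < D.W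

/-- blocks -/
def XX : Set (List α) :=
  {X | D.z0 ≤ X.length ∧ D.Wo X ∧ ∀ t, D.z0 ≤ t → t < X.length → ¬ D.Wo (X.take t)}

/-- zone map -/
def T (X : List α) (v : V) : V :=
  D.act (D.act v (D.ph (X.take D.p0)) + D.nu2 (X.take D.p0)) (D.ph (X.drop D.p0)) +
    D.nu1 (X.drop D.p0)

/-- left words of scheme 1 -/
def LP1 (v : V) : Set (List α) :=
  {P | D.p0 ≤ P.length ∧
    D.lam1 (P.drop D.p0) = some (D.act v (D.ph (P.take D.p0)) + D.nu2 (P.take D.p0))}

/-- right words of scheme 1 -/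
def RQ1 (r : V) : Set (List α) :=
  {Q | ∀ v, ∀ P ∈ D.LP1 v, P ++ Q ∈ D.XX ∧ D.T (P ++ Q) v = r}

/-- blocks cut by scheme 1 -/
def Good : Set (List α) :=
  {X | X ∈ D.XX ∧ ∀ v, ∃ P Q, X = P ++ Q ∧ P ∈ D.LP1 v ∧ Q ∈ D.RQ1 (D.T X v)}

/-- the other blocks -/
def Bad : Set (List α) := {X | X ∈ D.XX ∧ X ∉ D.Good}

/-- left words of scheme 2 -/
def LP2 (v : V) : Set (List α) := {P | ∃ k < D.K, P.length = D.c k ∧ D.lam2 k P = some v}

/-- two blocks -/
def Z2 (v r : V) : Set (List α) :=
  {w | ∃ X1 X2, w = X1 ++ X2 ∧ X1 ∈ D.XX ∧ X2 ∈ D.XX ∧ D.T X2 (D.T X1 v) = r}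

/-- a good block as prefix -/
def PG : Set (List α) := {w | ∃ X ∈ D.Good, X <+: w}

/-- right words of scheme 2 -/
def RQ2 (r : V) : Set (List α) :=
  {Q | ∃ k0 < D.K, (∀ v P, P.length = D.c k0 → D.lam2 k0 P = some v → P ++ Q ∈ D.Z2 v r) ∧
    ∀ k < D.K, k ≠ k0 → ∀ P, P.length = D.c k → P ++ Q ∈ D.PG}

variable {D}

theorem XX_pf (h : D.Ok) : PF D.XX := by
  refine ⟨?_, ?_⟩
  · rintro X ⟨h1, _, _⟩ rfl
    have := h.hz
    simp at h1
    omega
  · rintro X ⟨h1, h2, _⟩ Y ⟨_, _, h3⟩ ⟨Z, rfl⟩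
    by_contra hne
    have hZ : 0 < Z.length := by
      rcases Nat.eq_zero_or_pos Z.length with h0 | h0
      · exact absurd (by rw [List.length_eq_zero_iff.1 h0]; simp) hne
      · exact h0
    refine h3 X.length h1 (by rw [List.length_append]; omega) ?_
    rw [List.take_left]
    exact h2

theorem Good_sub : D.Good ⊆ D.XX := fun _ h => h.1

theorem XX_eq : D.XX = D.Good ∪ D.Bad := by
  ext X
  constructor
  · intro h
    by_cases hg : X ∈ D.Good
    · exact Or.inl hg
    · exact Or.inr ⟨h, hg⟩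
  · rintro (h | h)
    · exact h.1
    · exact h.1

theorem T_sub (h : D.Ok) (X : List α) (v v' : V) :
    D.T X v - D.T X v' = D.act (v - v') (X.map D.f).prod := by
  have sub : ∀ a b s, D.act (a - b) s = D.act a s - D.act b s := by
    intro a b s
    have := h.act_add (a - b) b s
    rw [sub_add_cancel] at this
    rw [this]; abel
  unfold T
  have e : (X.map D.f).prod = D.ph (X.take D.p0) * D.ph (X.drop D.p0) := by
    rw [← D.ph_append, List.take_append_drop]; rfl
  rw [e, ← h.act_mul, sub, h.act_add, h.act_add, sub]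
  abel

/-- walls right of the junction do not depend on the left word -/
theorem shift (h : D.Ok) (P P' Q : List α) (t : ℕ) (ht : P.length + D.n ≤ t)
    (ht' : t ≤ P.length + Q.length) :
    D.Wo ((P ++ Q).take t) ↔ D.Wo ((P' ++ Q).take (t - P.length + P'.length)) := by
  have e1 : (P ++ Q).take t = P ++ Q.take (t - P.length) := by
    rw [List.take_append, List.take_of_length_le (by omega)]
  have e2 : (P' ++ Q).take (t - P.length + P'.length) = P' ++ Q.take (t - P.length) := by
    rw [List.take_append, List.take_of_length_le (by omega)]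
    congr 2
    omega
  have hl : D.n ≤ (Q.take (t - P.length)).length := by
    rw [List.length_take]; omega
  rw [e1, e2, h.Wo_app _ _ hl, h.Wo_app _ _ hl]

/-- completeness of scheme 1 off the modes (E), (B) -/
theorem good_of (h : D.Ok) {X : List α} (hX : X ∈ D.XX) (hl : D.z0 + D.N ≤ X.length)
    (hE : ∀ t, D.z0 ≤ t + D.N → t < D.z0 → ¬ D.Wo (X.take t))
    (hB : ¬ D.Bad1 (X.length - D.p0)) : X ∈ D.Good := by
  refine ⟨hX, fun v => ?_⟩
  have hz := h.hz
  have hlt : (X.take D.p0).length = D.p0 := by rw [List.length_take]; omega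
  obtain ⟨p, q, hpq, h1, h2⟩ := h.compl1 (X.drop D.p0) (by rw [List.length_drop]; omega)
    (by rw [List.length_drop]; exact hB) (D.act v (D.ph (X.take D.p0)) + D.nu2 (X.take D.p0))
  obtain ⟨b, hb⟩ := Option.isSome_iff_exists.1 h2
  have hX' : X = (X.take D.p0 ++ p) ++ q := by
    rw [List.append_assoc, hpq, List.take_append_drop]
  have hTX : D.T X v = b := by
    unfold T
    rw [← hpq]
    exact (h.sound1 _ _ _ _ h1 hb).symm
  have hp : p.length < D.N := h.lam1_len _ _ h1
  have hXl : X.length = D.p0 + p.length + q.length := by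
    have := congrArg List.length hX'
    simp only [List.length_append, hlt] at this
    exact this
  refine ⟨X.take D.p0 ++ p, q, hX', ⟨by rw [List.length_append, hlt]; omega, ?_⟩, ?_⟩
  · rw [List.drop_append, List.take_append, hlt]
    simp only [Nat.sub_self, List.drop_zero, List.take_zero, List.append_nil]
    rw [List.drop_of_length_le (by omega), List.take_take, Nat.min_self]
    simpa using h1
  · rw [hTX]
    rintro v' P' ⟨hP1, hP2⟩
    have hP'N : P'.length < D.p0 + D.N := by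
      have := h.lam1_len _ _ hP2
      rw [List.length_drop] at this
      omega
    refine ⟨⟨?_, ?_, ?_⟩, ?_⟩
    · rw [List.length_append]; omega
    · rw [h.Wo_app _ _ (by omega)]
      have := hX.2.1
      rw [hX', h.Wo_app _ _ (by omega)] at this
      exact this
    · intro t ht1 ht2 hw
      rw [List.length_append] at ht2
      have hs := shift h P' (X.take D.p0 ++ p) q t (by omega) (by omega)
      rw [hs, ← hX'] at hw
      rw [List.length_append, hlt] at hw
      set t' := t - P'.length + (D.p0 + p.length) with ht'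
      rcases Nat.lt_or_ge t' D.z0 with h3 | h3
      · exact hE t' (by omega) h3 hw
      · exact hX.2.2 t' h3 (by omega) hw
    · have e1 : (P' ++ q).take D.p0 = P'.take D.p0 := by
        rw [List.take_append, Nat.sub_eq_zero_of_le hP1]; simp
      have e2 : (P' ++ q).drop D.p0 = P'.drop D.p0 ++ q := by
        rw [List.drop_append, Nat.sub_eq_zero_of_le hP1]; simp
      unfold T
      rw [e1, e2]
      exact (h.sound1 _ _ _ _ hP2 hb).symm

end Dat

end Crest.Agent.R320.Asm_489
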