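import Crest.Agent.R320.Top_517
import Crest.Agent.R320.WallU_228
import Crest.Agent.R320.Hk2_851

/-!
# Row 320: assembly on ALL words over `Top_517.top3` (helper570)

Natural chain rule with left-looking walls; scheme 1 = gadget on words (complete off `EB`, `BadT`);
scheme 2 = exact gadget on words of length `p0` with a ruler, right words read one more block.
Right labels are semantic, so soundness is free.
-/

set_option autoImplicit false

namespace Crest.Agent.R320.Asm_570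

open Crest.RegLang Crest.Agent.R320.Hk_851 Crest.Agent.R320.Blk_517 Crest.Agent.R320.Top_517
  Crest.Agent.R320.FewWalls_228 Crest.Agent.R320.WallU_228

universe u v

variable {α : Type u} {S V : Type v}

/-- all data -/
structure Dt (α : Type u) (S V : Type v) where
  ph : List α → S
  act : V → S → V
  W : List α → Prop
  n : ℕ
  N1 : ℕ
  Pm : ℕ
  La : ℕ
  BadT : ℕ → Prop
  lam : List α → Option V
  rho : List α → Option V
  nu1 : List α → V
  K : ℕ
  c : ℕ → ℕ
  lam2 : ℕ → List α → Option V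
  rho2 : ℕ → List α → Option V
  nu2 : List α → V
  p0 : ℕ
  z : ℕ

variable [AddCommGroup V] (D : Dt α S V)

/-- token at `p0` -/
def b1 (X : List α) (v : V) : V := D.act v (D.ph (X.take D.p0)) + D.nu2 (X.take D.p0)

/-- zone map -/
def T (v : V) (X : List α) : V := D.act (b1 D X v) (D.ph (X.drop D.p0)) + D.nu1 (X.drop D.p0)

/-- blocks -/
def XX (D : Dt α S V) : Set (List α) :=
  {X | D.z ≤ X.length ∧ D.W X ∧ ∀ t, D.z ≤ t → t < X.length → ¬ D.W (X.take t)}

/-- a wall in the doubtful band -/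
def EB (D : Dt α S V) (X : List α) : Prop :=
  ∃ y, y ≤ X.length ∧ D.z ≤ y + D.N1 ∧ y ≤ D.z + D.N1 ∧ D.W (X.take y)

/-- bad blocks -/
def Bd (D : Dt α S V) : Set (List α) := {X | X ∈ XX D ∧ (EB D X ∨ D.BadT (X.length - D.p0))}

/-- left words of scheme 1 -/
def L1 (v : V) : Language α :=
  {P | D.p0 ≤ P.length ∧ P.length ≤ D.p0 + D.N1 ∧ D.lam (P.drop D.p0) = some (b1 D P v)}

/-- left words of scheme 2 -/
def L2 (D : Dt α S V) (v : V) : Language α :=
  {P | ∃ k, k < D.K ∧ P.length = D.c k + 1 ∧ D.lam2 k P = some v}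

/-- right words of scheme 1 -/
def R1 (v' : V) : Language α := {Q | ∀ v, ∀ P ∈ L1 D v, P ++ Q ∈ XX D ∧ T D v (P ++ Q) = v'}

/-- goal language of scheme 2 -/
def G (v v' : V) : Language α :=
  {w | (∃ X1 ∈ XX D, ∃ X2 ∈ XX D, w = X1 ++ X2 ∧ T D (T D v X1) X2 = v') ∨
    ∃ X ∈ XX D, X ∉ Bd D ∧ X <+: w}

/-- right words of scheme 2 -/
def R2 (v' : V) : Language α := {Q | ∀ v, ∀ P ∈ L2 D v, P ++ Q ∈ G D v v'}

/-- hypotheses -/
structure Ok (D : Dt α S V) (Wg C0 : ℕ) : Prop where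
  n0 : 0 < D.n
  app : ∀ P Q : List α, D.n ≤ Q.length → (D.W (P ++ Q) ↔ D.W Q)
  gap : ∀ (P : List α) (d : ℕ), D.W P → 0 < d → d ≤ Wg → ¬ D.W (P.take (P.length - d))
  lamlen : ∀ p v, D.lam p = some v → p.length ≤ D.N1
  snd1 : ∀ p q v r, D.lam p = some v → D.rho q = some r → D.La ≤ q.length →
    r = D.act v (D.ph (p ++ q)) + D.nu1 (p ++ q)
  cpl1 : ∀ u : List α, D.La ≤ u.length → ¬ D.BadT u.length → ∀ v, ∃ p q, p ++ q = u ∧
    D.lam p = some v ∧ (D.rho q).isSome
  snd2 : ∀ k, k < D.K → ∀ P Q v b, P.length = D.c k + 1 → D.lam2 k P = some v →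
    D.rho2 k Q = some b → b = D.act v (D.ph (P ++ Q)) + D.nu2 (P ++ Q)
  cpl2 : ∀ (u : List α) (v : V), u.length = D.p0 → ∃ I : Finset ℕ, 2 + 2 * C0 ≤ I.card ∧
    ∀ k ∈ I, k < D.K ∧ D.lam2 k (u.take (D.c k + 1)) = some v ∧
      (D.rho2 k (u.drop (D.c k + 1))).isSome
  hc : ∀ k, k < D.K → D.c k + 1 ≤ D.p0
  sep : ∀ i j k l, i < D.K → j < D.K → k < D.K → l < D.K → i ≠ j → k ≠ l → (i, j) ≠ (k, l) →
    D.c i + D.c l + 4 * D.N1 < D.c k + D.c j ∨ D.c k + D.c j + 4 * D.N1 < D.c i + D.c l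
  cnt : ∀ T0, D.La ≤ T0 → ∀ s : Finset (ℕ × ℕ), (∀ x ∈ s, x.1 < D.K ∧ x.2 < D.K ∧ x.1 ≠ x.2 ∧
    D.BadT (T0 + D.c x.2 - D.c x.1)) → s.card ≤ C0
  hz : 4 * D.p0 + 2 * D.N1 + 2 * D.La + 2 * D.n + 4 ≤ D.z
  hW : 2 * D.p0 + 2 * D.N1 + 2 ≤ Wg

variable {D} {Wg C0 : ℕ}

theorem XX_code (h : Ok D Wg C0) : PCode (XX D) := by
  have hz := h.hz
  refine ⟨?_, ?_⟩
  · rintro ⟨h1, -⟩
    simp at h1
    omega
  · rintro X hX Y hY hXY
    obtain ⟨t, rfl⟩ := hXY
    by_contra hne
    have ht : t ≠ [] := fun h => hne (by simp [h])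
    have hl : X.length < (X ++ t).length := by
      rw [List.length_append]
      have := List.length_pos_iff.2 ht
      omega
    refine hY.2.2 X.length hX.1 hl ?_
    rw [List.take_left' rfl]
    exact hX.2.1

/-- shifting a text under the walls -/
theorem shift (h : Ok D Wg C0) (P P' Q : List α) (s : ℕ) (hs : D.n ≤ s) (hsQ : s ≤ Q.length) :
    D.W ((P ++ Q).take (P.length + s)) ↔ D.W ((P' ++ Q).take (P'.length + s)) := by
  have e : ∀ A : List α, (A ++ Q).take (A.length + s) = A ++ Q.take s := by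
    intro A
    rw [List.take_append]
    simp
  have hl : (Q.take s).length = s := by rw [List.length_take]; omega
  rw [e P, e P', h.app _ _ (by omega), h.app _ _ (by omega)]

/-- the first block of a long text which ends in a wall -/
theorem first_block {w : List α} (h1 : D.z ≤ w.length) (h2 : D.W w) :
    ∃ X ∈ XX D, X <+: w := by
  classical
  have hex : ∃ t, D.z ≤ t ∧ t ≤ w.length ∧ D.W (w.take t) :=
    ⟨w.length, h1, le_rfl, by rw [List.take_length]; exact h2⟩
  obtain ⟨a1, a2, a3⟩ := Nat.find_spec hex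
  set t := Nat.find hex with ht
  have hl : (w.take t).length = t := by rw [List.length_take]; omega
  refine ⟨w.take t, ⟨by omega, a3, ?_⟩, List.take_prefix _ _⟩
  intro s hs1 hs2 hs3
  rw [hl] at hs2
  have := Nat.find_min hex hs2
  apply this
  refine ⟨hs1, by omega, ?_⟩
  rw [List.take_take, min_eq_left hs2.le] at hs3
  exact hs3

theorem s1 : ∀ v v' P Q, P ∈ L1 D v → Q ∈ R1 D v' → P ++ Q ∈ XX D ∧ T D v (P ++ Q) = v' :=
  fun v _ P _ hP hQ => hQ v P hP

/-- completeness of scheme 1 -/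
theorem c1 (h : Ok D Wg C0) : ∀ X ∈ XX D, X ∉ Bd D → ∀ v, ∃ P Q, X = P ++ Q ∧ P ∈ L1 D v ∧
    Q ∈ R1 D (T D v X) := by
  intro X hX hB v
  have hz := h.hz
  obtain ⟨x1, x2, x3⟩ := hX
  have hE : ¬ EB D X := fun hE => hB ⟨⟨x1, x2, x3⟩, Or.inl hE⟩
  have hT : ¬ D.BadT (X.length - D.p0) := fun hT => hB ⟨⟨x1, x2, x3⟩, Or.inr hT⟩
  have hlast : D.z + D.N1 < X.length := by
    by_contra hlt
    exact hE ⟨X.length, le_rfl, by omega, by omega, by rw [List.take_length]; exact x2⟩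
  have hbefore : ∀ t, t < X.length → D.W (X.take t) → t + D.N1 < D.z := by
    intro t ht hw
    have h1 : t < D.z := by
      by_contra hlt
      exact x3 t (by omega) ht hw
    by_contra hlt
    exact hE ⟨t, ht.le, by omega, by omega, hw⟩
  have hYl : (X.drop D.p0).length = X.length - D.p0 := List.length_drop ..
  obtain ⟨p, q, hpq, hlam, hrho⟩ := h.cpl1 (X.drop D.p0) (by rw [hYl]; omega)
    (by rw [hYl]; exact hT) (b1 D X v)
  have hpl := h.lamlen _ _ hlam
  have hlpq : p.length + q.length = X.length - D.p0 := by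
    rw [← hYl, ← hpq, List.length_append]
  obtain ⟨r, hr⟩ := Option.isSome_iff_exists.1 hrho
  have htl : (X.take D.p0).length = D.p0 := by rw [List.length_take]; omega
  have hXe : X = X.take D.p0 ++ p ++ q := by
    rw [List.append_assoc, hpq, List.take_append_drop]
  have hPt : (X.take D.p0 ++ p).take D.p0 = X.take D.p0 := List.take_left' htl
  have hPd : (X.take D.p0 ++ p).drop D.p0 = p := List.drop_left' htl
  have hb1 : ∀ v, b1 D (X.take D.p0 ++ p) v = b1 D X v := by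
    intro v
    unfold b1
    rw [hPt]
  have hTX : T D v X = r := by
    unfold T
    rw [← hpq]
    exact (h.snd1 _ _ _ _ hlam hr (by omega)).symm
  refine ⟨X.take D.p0 ++ p, q, hXe, ⟨?_, ?_, ?_⟩, ?_⟩
  · rw [List.length_append, htl]; omega
  · rw [List.length_append, htl]; omega
  · rw [hPd, hb1]; exact hlam
  · rintro v' P ⟨k1, k2, k3⟩
    have hPl : (X.take D.p0 ++ p).length = D.p0 + p.length := by rw [List.length_append, htl]
    constructor
    · refine ⟨?_, ?_, ?_⟩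
      · rw [List.length_append]; omega
      · rw [h.app _ _ (by omega)]
        rw [hXe] at x2
        exact (h.app _ _ (by omega)).1 x2
      · intro t ht1 ht2 hw
        rw [List.length_append] at ht2
        obtain ⟨s, rfl⟩ : ∃ s, t = P.length + s := ⟨t - P.length, by omega⟩
        rw [shift h P (X.take D.p0 ++ p) q s (by omega) (by omega), ← hXe] at hw
        have := hbefore _ (by rw [hPl]; omega) hw
        rw [hPl] at this
        omega
    · rw [hTX]
      unfold T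
      have e1 : (P ++ q).take D.p0 = P.take D.p0 := List.take_append_of_le_length k1
      have e2 : (P ++ q).drop D.p0 = P.drop D.p0 ++ q := List.drop_append_of_le_length k1
      have e3 : b1 D (P ++ q) v' = b1 D P v' := by unfold b1; rw [e1]
      rw [e2, e3]
      exact (h.snd1 _ _ _ _ k3 hr (by omega)).symm

theorem pref_cmp {X Y A B : List α} (hXY : PCode (XX D)) (hX : X ∈ XX D) (hY : Y ∈ XX D)
    (h1 : X <+: A) (h2 : Y <+: B) (h : A <+: B ∨ B <+: A) : X = Y := by
  rcases h with h | h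
  · rcases List.prefix_or_prefix_of_prefix (h1.trans h) h2 with k | k
    · exact hXY.2 _ hX _ hY k
    · exact (hXY.2 _ hY _ hX k).symm
  · rcases List.prefix_or_prefix_of_prefix h1 (h2.trans h) with k | k
    · exact hXY.2 _ hX _ hY k
    · exact (hXY.2 _ hY _ hX k).symm

theorem Bd_sub : Bd D ⊆ XX D := fun _ h => h.1

theorem hlen (h : Ok D Wg C0) : ∀ v v' P Q X, P ∈ L2 D v → Q ∈ R2 D v' → X ∈ Bd D →
    ¬ P ++ Q <+: X := by
  intro v v' P Q X hP hQ hX hpre
  have hc := XX_code h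
  rcases hQ v P hP with ⟨X1, k1, X2, k2, k3, -⟩ | ⟨Y, k1, k2, k3⟩
  · have e : X1 = X := hc.2 _ k1 _ hX.1 ((k3 ▸ List.prefix_append X1 X2 : X1 <+: P ++ Q).trans hpre)
    have hl := hpre.length_le
    rw [k3, e, List.length_append] at hl
    have : X2 = [] := List.length_eq_zero_iff.1 (by omega)
    exact hc.1 (this ▸ k2)
  · have e : Y = X := hc.2 _ k1 _ hX.1 (k3.trans hpre)
    exact k2 (e ▸ hX)

theorem s2 (h : Ok D Wg C0) : ∀ v v' P Q X1 X2, P ∈ L2 D v → Q ∈ R2 D v' → X1 ∈ Bd D →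
    X2 ∈ Bd D → (X1 ++ X2 <+: P ++ Q ∨ P ++ Q <+: X1 ++ X2) →
    X1 ++ X2 = P ++ Q ∧ T D (T D v X1) X2 = v' := by
  intro v v' P Q X1 X2 hP hQ hX1 hX2 hor
  have hc := XX_code h
  rcases hQ v P hP with ⟨Y1, k1, Y2, k2, k3, k4⟩ | ⟨Y, k1, k2, k3⟩
  · have e : X1 = Y1 := pref_cmp hc hX1.1 k1 (List.prefix_append X1 X2)
      (k3 ▸ List.prefix_append Y1 Y2 : Y1 <+: P ++ Q) hor
    subst e
    rw [k3] at hor
    have e2 : X2 = Y2 := by
      rcases hor with k | k
      · exact hc.2 _ hX2.1 _ k2 ((List.prefix_append_right_inj _).1 k)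
      · exact (hc.2 _ k2 _ hX2.1 ((List.prefix_append_right_inj _).1 k)).symm
    subst e2
    exact ⟨k3.symm, k4⟩
  · have e : X1 = Y := pref_cmp hc hX1.1 k1 (List.prefix_append X1 X2) k3 hor
    exact (k2 (e ▸ hX1)).elim

end Crest.Agent.R320.Asm_570
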