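import Crest.Agent.R320.Top_180

/-!
# Row 320: the two schemes on all words, over helper180's `top2` (helper60)

Walls `Wo` on all words (left-looking), natural chain rule `XX` (first wall at distance at least
`z0`), zone gadget `lam rho nu` (complete unless `BT |Y|`), exact gadget `lamE rhoE nuE` at the
places `c k`, one token system.  Bad blocks: wall in the band around `z0`, or `BT`.
-/

set_option autoImplicit false

namespace Crest.Agent.R320.Asm_60

open Crest.RegLang Crest.Agent.R320.Hk_851 Crest.Agent.R320.Half1_180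

universe u

structure Dat (α : Type u) (S V : Type*) [Monoid S] [AddCommGroup V] where
  f : α → S
  act : V → S → V
  act_add : ∀ v w s, act (v + w) s = act v s + act w s
  act_mul : ∀ v s s', act (act v s) s' = act v (s * s')
  n : ℕ
  Wo : List α → Prop
  W : ℕ
  wloc : ∀ P Q : List α, n ≤ Q.length → (Wo (P ++ Q) ↔ Wo Q)
  wsep : ∀ (P : List α) (d : ℕ), Wo P → 0 < d → d ≤ W → ¬ Wo (P.take (P.length - d))
  N1 : ℕ
  La : ℕ
  BT : ℕ → Prop
  lam : List α → Option V
  rho : List α → Option V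
  nu : List α → V
  lam_le : ∀ p v, lam p = some v → p.length ≤ N1
  gs : ∀ p q v r, lam p = some v → rho q = some r → La ≤ q.length →
    r = act v ((p ++ q).map f).prod + nu (p ++ q)
  gc : ∀ u : List α, La ≤ u.length → ¬ BT u.length → ∀ v, ∃ p q, p ++ q = u ∧ lam p = some v ∧
    (rho q).isSome
  K : ℕ
  c : ℕ → ℕ
  p0 : ℕ
  cp0 : ∀ k < K, c k ≤ p0
  cinj : ∀ i < K, ∀ j < K, c i = c j → i = j
  lamE : ℕ → List α → Option V
  rhoE : ℕ → List α → Option V
  nuE : List α → V
  es : ∀ k < K, ∀ (P Q : List α) (v b : V), P.length = c k → lamE k P = some v →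
    rhoE k Q = some b → b = act v ((P ++ Q).map f).prod + nuE (P ++ Q)
  R : ℕ
  ec : ∀ (u : List α) (v : V), (∀ k < K, c k ≤ u.length) → ∃ I : Finset ℕ, R ≤ I.card ∧
    ∀ k ∈ I, k < K ∧ lamE k (u.take (c k)) = some v ∧ (rhoE k (u.drop (c k))).isSome
  gol : ∀ i j k l, i < K → j < K → k < K → l < K → i ≠ j → k ≠ l → ¬ (i = k ∧ j = l) →
    c i + c l + 4 * N1 < c k + c j ∨ c k + c j + 4 * N1 < c i + c l
  C0 : ℕ
  thin : ∀ T, La ≤ T → ∀ F : Finset (ℕ × ℕ), (∀ ij ∈ F, ij.1 < K ∧ ij.2 < K ∧ ij.1 ≠ ij.2 ∧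
    ∃ x, x + c ij.1 = T + c ij.2 ∧ BT x) → F.card ≤ C0
  hR : 2 * C0 + 1 < R
  z0 : ℕ
  hz : 4 * p0 + 4 * N1 + La + n + 1 ≤ z0
  hW : 2 * p0 + 2 * N1 + 1 ≤ W

namespace Dat

variable {α : Type u} {S V : Type*} [Monoid S] [AddCommGroup V] (D : Dat α S V)

/-- blocks -/
def XX : Set (List α) :=
  {X | D.z0 ≤ X.length ∧ D.Wo X ∧ ∀ t, D.z0 ≤ t → t < X.length → ¬ D.Wo (X.take t)}

/-- wall in the band -/
def Eb (X : List α) : Prop :=
  ∃ t ≤ X.length, D.z0 ≤ t + D.N1 ∧ t ≤ D.z0 + D.N1 ∧ D.Wo (X.take t)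

def Bad : Set (List α) := {X | X ∈ D.XX ∧ (D.Eb X ∨ D.BT (X.length - D.p0))}

def Good : Set (List α) := {X | X ∈ D.XX ∧ ¬ (D.Eb X ∨ D.BT (X.length - D.p0))}

def pr (w : List α) : S := (w.map D.f).prod

/-- block map -/
def T (X : List α) (v : V) : V :=
  D.act (D.act v (D.pr (X.take D.p0)) + D.nuE (X.take D.p0)) (D.pr (X.drop D.p0)) +
    D.nu (X.drop D.p0)

def LP1 (v : V) : Language α :=
  {P | D.p0 ≤ P.length ∧
    D.lam (P.drop D.p0) = some (D.act v (D.pr (P.take D.p0)) + D.nuE (P.take D.p0))}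

def RQ1 (v' : V) : Language α :=
  {Q | ∀ v, ∀ P ∈ D.LP1 v, P ++ Q ∈ D.XX ∧ D.T (P ++ Q) v = v'}

def LP2 (v : V) : Language α :=
  {P | ∃ k < D.K, P.length = D.c k ∧ D.lamE k P = some v}

def RQ2 (v' : V) : Language α :=
  {Q | ∀ v, ∀ P ∈ D.LP2 v, (∃ X E, X ∈ D.Good ∧ P ++ Q = X ++ E) ∨
    (∃ X X2, X ∈ D.Bad ∧ X2 ∈ D.Bad ∧ P ++ Q = X ++ X2 ∧ D.T X2 (D.T X v) = v')}

theorem pr_append (u w : List α) : D.pr (u ++ w) = D.pr u * D.pr w := by
  simp [pr]

theorem wo_take (P Q : List α) (t : ℕ) (h : P.length + D.n ≤ t) (ht : t ≤ P.length + Q.length) :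
    D.Wo ((P ++ Q).take t) ↔ D.Wo (Q.take (t - P.length)) := by
  rw [List.take_append, List.take_of_length_le (by omega)]
  exact D.wloc _ _ (by rw [List.length_take]; omega)

theorem union : D.XX = D.Good ∪ D.Bad := by
  ext X
  constructor
  · intro h
    by_cases hb : D.Eb X ∨ D.BT (X.length - D.p0)
    · exact Or.inr ⟨h, hb⟩
    · exact Or.inl ⟨h, hb⟩
  · rintro (h | h)
    · exact h.1
    · exact h.1

theorem pf : PF D.XX := by
  refine ⟨?_, ?_⟩
  · intro X hX e
    have h1 := hX.1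
    have h2 := D.hz
    rw [e] at h1
    simp only [List.length_nil] at h1
    omega
  · intro X hX Y hY h
    obtain ⟨E, rfl⟩ := h
    by_contra hne
    have hE : E ≠ [] := by
      rintro rfl; simp at hne
    have hE' := List.length_pos_iff.2 hE
    have h1 := hY.2.2 X.length hX.1 (by rw [List.length_append]; omega)
    rw [List.take_left] at h1
    exact h1 hX.2.1

theorem first {w : List α} (hw : D.Wo w) (hl : D.z0 ≤ w.length) :
    ∃ X E, X ∈ D.XX ∧ w = X ++ E := by
  classical
  have hex : ∃ t, D.z0 ≤ t ∧ t ≤ w.length ∧ D.Wo (w.take t) :=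
    ⟨w.length, hl, le_rfl, by rw [List.take_length]; exact hw⟩
  have hs := Nat.find_spec hex
  have hlen : (w.take (Nat.find hex)).length = Nat.find hex := by
    rw [List.length_take]; omega
  refine ⟨w.take (Nat.find hex), w.drop (Nat.find hex), ⟨by rw [hlen]; exact hs.1, hs.2.2, ?_⟩,
    (List.take_append_drop _ _).symm⟩
  intro t ht1 ht2 hW
  rw [hlen] at ht2
  refine Nat.find_min hex ht2 ⟨ht1, by omega, ?_⟩
  rwa [List.take_take, min_eq_left ht2.le] at hW

theorem act_sub (v w : V) (s : S) : D.act (v - w) s = D.act v s - D.act w s := by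
  have h := D.act_add (v - w) w s
  rw [sub_add_cancel] at h
  rw [h, add_sub_cancel_right]

theorem hT (X : List α) (v v' : V) : D.T X v - D.T X v' = D.act (v - v') (D.pr X) := by
  unfold T
  have e : D.pr X = D.pr (X.take D.p0) * D.pr (X.drop D.p0) := by
    rw [← D.pr_append, List.take_append_drop]
  rw [e, ← D.act_mul, D.act_sub v v', D.act_sub, D.act_add, D.act_add]
  abel

theorem sound1 (v v' : V) (P Q : List α) (hP : P ∈ D.LP1 v) (hQ : Q ∈ D.RQ1 v') :
    P ++ Q ∈ D.XX ∧ D.T (P ++ Q) v = v' := hQ v P hP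

theorem compl1 (X : List α) (hX : X ∈ D.Good) (v : V) :
    ∃ P Q, X = P ++ Q ∧ P ∈ D.LP1 v ∧ Q ∈ D.RQ1 (D.T X v) := by
  obtain ⟨⟨hl, hw, hno⟩, hb⟩ := hX
  have hE : ¬ D.Eb X := fun h => hb (Or.inl h)
  have hB : ¬ D.BT (X.length - D.p0) := fun h => hb (Or.inr h)
  have hz := D.hz
  have hlen2 : D.z0 + D.N1 < X.length := by
    by_contra hcon
    exact hE ⟨X.length, le_rfl, by omega, by omega, by rw [List.take_length]; exact hw⟩
  have hdl : (X.drop D.p0).length = X.length - D.p0 := List.length_drop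
  obtain ⟨p, q, hpq, hlam, hrho⟩ := D.gc (X.drop D.p0) (by omega) (by rw [hdl]; exact hB)
    (D.act v (D.pr (X.take D.p0)) + D.nuE (X.take D.p0))
  have hX1 : (X.take D.p0).length = D.p0 := by rw [List.length_take]; omega
  have hXe : X = (X.take D.p0 ++ p) ++ q := by
    rw [List.append_assoc, hpq, List.take_append_drop]
  have hpN := D.lam_le _ _ hlam
  have hql : p.length + q.length = X.length - D.p0 := by
    rw [← List.length_append, hpq, hdl]
  have hPin : X.take D.p0 ++ p ∈ D.LP1 v := by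
    refine ⟨by rw [List.length_append]; omega, ?_⟩
    have e1 : (X.take D.p0 ++ p).drop D.p0 = p := by
      conv_lhs => rw [← hX1]
      rw [hX1]
      rw [List.drop_append_of_le_length (by omega), List.drop_of_length_le (by omega)]
      rfl
    have e2 : (X.take D.p0 ++ p).take D.p0 = X.take D.p0 := by
      rw [List.take_append_of_le_length (by omega), List.take_of_length_le (by omega)]
    rw [e1, e2]
    exact hlam
  obtain ⟨r, hr⟩ := Option.isSome_iff_exists.1 hrho
  -- value of a block through `r`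
  have hval : ∀ v'' (P'' : List α), P'' ∈ D.LP1 v'' → D.T (P'' ++ q) v'' = r := by
    intro v'' P'' hP''
    obtain ⟨h1, h2⟩ := hP''
    have h3 := D.gs _ _ _ _ h2 hr (by omega)
    have e1 : (P'' ++ q).take D.p0 = P''.take D.p0 := List.take_append_of_le_length h1
    have e2 : (P'' ++ q).drop D.p0 = P''.drop D.p0 ++ q := List.drop_append_of_le_length h1
    unfold T
    rw [e1, e2, h3]
    rfl
  refine ⟨X.take D.p0 ++ p, q, hXe, hPin, ?_⟩
  intro v'' P'' hP''
  refine ⟨?_, ?_⟩
  · have hp2 : (P''.drop D.p0).length ≤ D.N1 := D.lam_le _ _ hP''.2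
    rw [List.length_drop] at hp2
    have hp3 : D.p0 ≤ P''.length := hP''.1
    refine ⟨by rw [List.length_append]; omega, ?_, ?_⟩
    · rw [D.wloc P'' q (by omega)]
      rw [hXe, D.wloc _ q (by omega)] at hw
      exact hw
    · intro t ht1 ht2 hWt
      rw [List.length_append] at ht2
      rw [D.wo_take P'' q t (by omega) (by omega)] at hWt
      have hPl : (X.take D.p0 ++ p).length = D.p0 + p.length := by
        rw [List.length_append, hX1]
      have hWt' : D.Wo (X.take (t - P''.length + (D.p0 + p.length))) := by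
        rw [hXe, D.wo_take (X.take D.p0 ++ p) q _ (by omega) (by omega)]
        have : t - P''.length + (D.p0 + p.length) - (X.take D.p0 ++ p).length =
            t - P''.length := by omega
        rw [this]
        exact hWt
      by_cases hc : t - P''.length + (D.p0 + p.length) ≤ D.z0 + D.N1
      · exact hE ⟨_, by omega, by omega, hc, hWt'⟩
      · exact hno _ (by omega) (by omega) hWt'
  · rw [hval v'' P'' hP'']
    rw [hXe]
    exact (hval v _ hPin).symm

end Dat

end Crest.Agent.R320.Asm_60
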