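import Crest.Agent.R320.Top5_110
import Crest.Agent.R320.FewVal_228

/-!
# Row 320: two schemes over the natural chain rule (block = up to the first wall at distance `≥ z`),
walls on ALL words, abstract gadget without small walls (693 / 638).  Concrete side of
`Top5_110.top_sem`: the two completeness statements (helper619).
-/

set_option autoImplicit false

namespace Crest.Agent.R320.AsmA_619

open Crest.Agent.R320.Hk_851 Crest.Agent.R320.Code110

universe u

variable {α : Type u}

/-- left-looking walls -/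
structure LW (Wo : List α → Prop) (n W : ℕ) : Prop where
  loc : ∀ P Q : List α, n ≤ Q.length → (Wo (P ++ Q) ↔ Wo Q)
  len : ∀ P, Wo P → n ≤ P.length
  gap : ∀ (X : List α) (s t : ℕ), s < t → t ≤ X.length → Wo (X.take s) → Wo (X.take t) → s + W < t

/-- blocks -/
def XX (Wo : List α → Prop) (z : ℕ) : Language α :=
  {X | Wo X ∧ z ≤ X.length ∧ ∀ t < X.length, z ≤ t → ¬ Wo (X.take t)}

/-- end wall band -/
def EB (Wo : List α → Prop) (z N : ℕ) (X : List α) : Prop :=
  X.length < z + N ∨ ∃ t, t < z ∧ z ≤ t + N ∧ Wo (X.take t)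

/-- bad blocks -/
def BAD (Wo : List α → Prop) (z N p0 : ℕ) (BT : ℕ → Prop) : Language α :=
  {X | X ∈ XX Wo z ∧ (EB Wo z N X ∨ BT (X.length - p0))}

section walls
variable {Wo : List α → Prop} {n W z : ℕ}

theorem LW.shift (h : LW Wo n W) (P Q : List α) {s : ℕ} (hs : n ≤ s) (hs' : s ≤ Q.length) :
    Wo ((P ++ Q).take (P.length + s)) ↔ Wo (Q.take s) := by
  have e : (P ++ Q).take (P.length + s) = P ++ Q.take s := by
    rw [List.take_append]; simp [List.take_of_length_le]
  rw [e]
  exact h.loc _ _ (by rw [List.length_take]; omega)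

theorem LW.tr (h : LW Wo n W) (P P' Q : List α) {t t' : ℕ} (e : t + P'.length = t' + P.length)
    (h1 : P.length + n ≤ t) (h2 : t ≤ P.length + Q.length) :
    Wo ((P ++ Q).take t) ↔ Wo ((P' ++ Q).take t') := by
  obtain ⟨s, rfl⟩ : ∃ s, t = P.length + s := ⟨t - P.length, by omega⟩
  obtain rfl : t' = P'.length + s := by omega
  rw [h.shift P Q (by omega) (by omega), h.shift P' Q (by omega) (by omega)]

theorem pc (hz : 0 < z) : PC (XX Wo z) where
  ne := by
    rintro ⟨_, h, _⟩
    simp at h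
    omega
  pf := by
    rintro u ⟨hu, hu1, hu2⟩ v ⟨hv, hv1, hv2⟩ ⟨t, rfl⟩
    rcases t with _ | ⟨a, t⟩
    · simp
    · exfalso
      refine hv2 u.length (by simp) hu1 ?_
      simpa using hu

end walls

variable {S V : Type*} [Monoid S] [AddCommGroup V]

/-- zone map -/
def TT (φ : List α → S) (act : V → S → V) (p0 : ℕ) (nu2 nu : List α → V) (u : List α) (x : V) : V :=
  act (act x (φ (u.take p0)) + nu2 (u.take p0)) (φ (u.drop p0)) + nu (u.drop p0)

/-- left words of scheme 1 -/
def L1 (φ : List α → S) (act : V → S → V) (p0 N : ℕ) (nu2 : List α → V)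
    (lam : List α → Option V) (x : V) : Language α :=
  {P | p0 ≤ P.length ∧ P.length ≤ p0 + N ∧
    lam (P.drop p0) = some (act x (φ (P.take p0)) + nu2 (P.take p0))}

/-- left words of scheme 2 -/
def L2 (K : ℕ) (c : ℕ → ℕ) (lam2 : ℕ → List α → Option V) (x : V) : Language α :=
  {P | ∃ k < K, P.length = c k ∧ lam2 k P = some x}

/-- all data -/
structure Dat (φ : List α → S) (act : V → S → V) (Wo : List α → Prop)
    (n W z p0 N K C0 T0 : ℕ) (BT : ℕ → Prop) (lam rho : List α → Option V)
    (nu nu2 : List α → V) (c : ℕ → ℕ) (lam2 rho2 : ℕ → List α → Option V) : Prop where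
  lw : LW Wo n W
  hφ : ∀ u v, φ (u ++ v) = φ u * φ v
  lamN : ∀ p v, lam p = some v → p.length ≤ N
  sound : ∀ p q v b, lam p = some v → rho q = some b → b = act v (φ (p ++ q)) + nu (p ++ q)
  compl : ∀ u : List α, 2 * N ≤ u.length → ¬ BT u.length → ∀ v, ∃ p q, p ++ q = u ∧
    lam p = some v ∧ (rho q).isSome
  e1 : ∀ k < K, ∀ (P Q : List α) (v b : V), P.length = c k → lam2 k P = some v →
    rho2 k Q = some b → b = act v (φ (P ++ Q)) + nu2 (P ++ Q)
  e2 : ∀ (u : List α) (v : V), (∀ k < K, c k ≤ u.length) → ∃ I : Finset ℕ, 2 + 2 * C0 ≤ I.card ∧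
    ∀ k ∈ I, k < K ∧ lam2 k (u.take (c k)) = some v ∧ (rho2 k (u.drop (c k))).isSome
  hc : ∀ k < K, c k ≤ p0
  r1 : ∀ a b a' b', a < K → b < K → a' < K → b' < K → a ≠ b → a' ≠ b' →
    c a + c b' ≤ c a' + c b + 2 * N → c a' + c b ≤ c a + c b' + 2 * N → a = a' ∧ b = b'
  r2 : ∀ T, T0 ≤ T → ∀ F : Finset (ℕ × ℕ), (∀ ab ∈ F, ab.1 < K ∧ ab.2 < K ∧ ab.1 ≠ ab.2 ∧
    BT (T + c ab.1 - c ab.2)) → F.card ≤ C0
  hW : 2 * (p0 + N) ≤ W
  hz : 2 * p0 + 2 * N + n + T0 < z


section main
variable {φ : List α → S} {act : V → S → V} {Wo : List α → Prop}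
  {n W z p0 N K C0 T0 : ℕ} {BT : ℕ → Prop} {lam rho : List α → Option V}
  {nu nu2 : List α → V} {c : ℕ → ℕ} {lam2 rho2 : ℕ → List α → Option V}

theorem C1 (D : Dat φ act Wo n W z p0 N K C0 T0 BT lam rho nu nu2 c lam2 rho2) :
    ∀ u ∈ XX Wo z, u ∉ BAD Wo z N p0 BT → ∀ x, ∀ t ∈ (XX Wo z) ^ 0, ∃ p q y, u ++ t = p ++ q ∧
      p ∈ L1 φ act p0 N nu2 lam x ∧
      q ∈ Rsem (XX Wo z) (XX Wo z) (TT φ act p0 nu2 nu) 0 (L1 φ act p0 N nu2 lam) y := by
  intro u hu hb x t ht
  have ht' : t = [] := by simpa using ht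
  subst ht'
  have hzz := D.hz
  have hnb : ¬ EB Wo z N u ∧ ¬ BT (u.length - p0) := by
    constructor
    · intro h; exact hb ⟨hu, Or.inl h⟩
    · intro h; exact hb ⟨hu, Or.inr h⟩
  obtain ⟨hE, hB⟩ := hnb
  obtain ⟨hu1, hu2, hu3⟩ := hu
  have hE1 : z + N ≤ u.length := by
    by_contra h
    exact hE (Or.inl (by omega))
  have hE2 : ∀ t, t < z → z ≤ t + N → ¬ Wo (u.take t) := fun t h1 h2 h3 => hE (Or.inr ⟨t, h1, h2, h3⟩)
  obtain ⟨p, q, e, hp, hq⟩ := D.compl (u.drop p0) (by rw [List.length_drop]; omega)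
    (by rw [List.length_drop]; exact hB) (act x (φ (u.take p0)) + nu2 (u.take p0))
  obtain ⟨b, hb'⟩ := Option.isSome_iff_exists.1 hq
  have hpN := D.lamN _ _ hp
  have hT : (u.take p0).length = p0 := by rw [List.length_take]; omega
  have hue : u = (u.take p0 ++ p) ++ q := by
    rw [List.append_assoc, e, List.take_append_drop]
  have hlen : u.length = p0 + p.length + q.length := by
    have := congrArg List.length hue
    simp only [List.length_append, hT] at this
    exact this
  have hTu : TT φ act p0 nu2 nu u x = b := by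
    unfold TT
    rw [← e]
    exact (D.sound _ _ _ _ hp hb').symm
  refine ⟨u.take p0 ++ p, q, b, ?_, ?_, ?_⟩
  · rw [List.append_nil]; exact hue
  · refine ⟨?_, ?_, ?_⟩
    · rw [List.length_append, hT]; omega
    · rw [List.length_append, hT]; omega
    · have e1 : (u.take p0 ++ p).drop p0 = p := by
        rw [List.drop_append, hT]; simp [List.drop_eq_nil_of_le]
      have e2 : (u.take p0 ++ p).take p0 = u.take p0 := by
        rw [List.take_append_of_le_length (by rw [hT])]
        rw [List.take_take, min_self]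
      rw [e1, e2]; exact hp
  · intro x' p' hp'
    obtain ⟨h1, h2, h3⟩ := hp'
    left
    have hXX : p' ++ q ∈ XX Wo z := by
      refine ⟨?_, ?_, ?_⟩
      · refine (D.lw.loc p' q (by omega)).2 ((D.lw.loc (u.take p0 ++ p) q (by omega)).1 ?_)
        rw [← hue]; exact hu1
      · rw [List.length_append]; omega
      · intro t' ht1 ht2 hw
        rw [List.length_append] at ht1
        have hPl : (u.take p0 ++ p).length = p0 + p.length := by rw [List.length_append, hT]
        have htr := D.lw.tr p' (u.take p0 ++ p) q (t := t') (t' := t' + (p0 + p.length) - p'.length)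
          (by rw [hPl]; omega) (by omega) (by omega)
        have hw2 := htr.1 hw
        rw [← hue] at hw2
        by_cases hz' : z ≤ t' + (p0 + p.length) - p'.length
        · exact hu3 _ (by omega) hz' hw2
        · exact hE2 _ (by omega) (by omega) hw2
    have hTp : TT φ act p0 nu2 nu (p' ++ q) x' = b := by
      unfold TT
      have e1 : (p' ++ q).drop p0 = p'.drop p0 ++ q := by
        rw [List.drop_append_of_le_length h1]
      have e2 : (p' ++ q).take p0 = p'.take p0 := List.take_append_of_le_length h1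
      rw [e1, e2]
      exact (D.sound _ _ _ _ h3 hb').symm
    exact ⟨b, Language.mem_mul.2 ⟨p' ++ q, ⟨hXX, hTp⟩, [], ⟨rfl, rfl⟩, by simp⟩⟩

/-- spoiled ruler places of a text -/
def Spoil (Wo : List α → Prop) (z N p0 K : ℕ) (BT : ℕ → Prop) (c : ℕ → ℕ) (U : List α) (k : ℕ) :
    Prop :=
  ∃ k' < K, k' ≠ k ∧
    ((∃ s ≤ U.length, Wo (U.take s) ∧ z + c k ≤ s + c k' + N ∧ s + c k' < z + N + c k) ∨
     (∃ t ≤ U.length, Wo (U.take t) ∧ z + c k ≤ t + c k' ∧
        (∀ s < t, z + c k ≤ s + c k' → ¬ Wo (U.take s)) ∧ BT (t + c k' - c k - p0)))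

theorem spoil_card (D : Dat φ act Wo n W z p0 N K C0 T0 BT lam rho nu nu2 c lam2 rho2)
    (U : List α) (F : Finset ℕ) (hF : ∀ k ∈ F, k < K ∧ Spoil Wo z N p0 K BT c U k) :
    F.card ≤ 1 + 2 * C0 := by
  classical
  have hzz := D.hz
  have hWW := D.hW
  -- (E)
  let PA : ℕ → Prop := fun k => ∃ k' < K, k' ≠ k ∧
    ∃ s ≤ U.length, Wo (U.take s) ∧ z + c k ≤ s + c k' + N ∧ s + c k' < z + N + c k
  let PB : ℕ → ℕ → Prop := fun t k => ∃ k' < K, k' ≠ k ∧ BT (t + c k' - c k - p0)
  have hA : (F.filter PA).card ≤ 1 := by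
    rw [Finset.card_le_one]
    intro a ha b hb
    obtain ⟨haF, a', ha', hne, s, hs, hw, h1, h2⟩ := Finset.mem_filter.1 ha
    obtain ⟨hbF, b', hb', hne', s', hs', hw', h1', h2'⟩ := Finset.mem_filter.1 hb
    have haK := (hF a haF).1
    have hbK := (hF b hbF).1
    have c1 := D.hc a haK
    have c2 := D.hc a' ha'
    have c3 := D.hc b hbK
    have c4 := D.hc b' hb'
    have hss : s = s' := by
      rcases lt_trichotomy s s' with h | h | h
      · have := D.lw.gap U s s' h hs' hw hw'; omega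
      · exact h
      · have := D.lw.gap U s' s h hs hw' hw; omega
    subst hss
    exact (D.r1 a a' b b' haK ha' hbK hb' (Ne.symm hne) (Ne.symm hne') (by omega) (by omega)).1
  have hB : ∀ t, T0 + p0 ≤ t → (F.filter (PB t)).card ≤ C0 := by
    intro t ht
    have hch : ∀ k ∈ F.filter (PB t), ∃ k', k' < K ∧ k' ≠ k ∧ BT (t + c k' - c k - p0) := by
      intro k hk
      obtain ⟨-, k', h1, h2, h3⟩ := Finset.mem_filter.1 hk
      exact ⟨k', h1, h2, h3⟩
    choose! g hg using hch
    have hle := D.r2 (t - p0) (by omega) ((F.filter (PB t)).image fun k => (g k, k)) (by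
      intro ab hab
      obtain ⟨k, hk, rfl⟩ := Finset.mem_image.1 hab
      obtain ⟨h1, h2, h3⟩ := hg k hk
      refine ⟨h1, (hF k (Finset.mem_filter.1 hk).1).1, h2, ?_⟩
      have e : t - p0 + c (g k) - c k = t + c (g k) - c k - p0 := by omega
      show BT (t - p0 + c (g k) - c k)
      rw [e]; exact h3)
    rwa [Finset.card_image_of_injective _ (fun a b h => (Prod.ext_iff.1 h).2)] at hle
  obtain ⟨τ0, hτ0, hτ0'⟩ : ∃ τ0, T0 + p0 ≤ τ0 ∧ ∀ t ≤ U.length, Wo (U.take t) → z ≤ t + p0 →
      t ≤ z + p0 → t = τ0 := by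
    by_cases h : ∃ t ≤ U.length, Wo (U.take t) ∧ z ≤ t + p0 ∧ t ≤ z + p0
    · obtain ⟨t, h1, h2, h3, h4⟩ := h
      refine ⟨t, by omega, fun t' h1' h2' h3' h4' => ?_⟩
      rcases lt_trichotomy t' t with h | h | h
      · have := D.lw.gap U t' t h h1 h2' h2; omega
      · exact h
      · have := D.lw.gap U t t' h h1' h2 h2'; omega
    · exact ⟨z, by omega, fun t h1 h2 h3 h4 => (h ⟨t, h1, h2, h3, h4⟩).elim⟩
  obtain ⟨τ1, hτ1, hτ1'⟩ : ∃ τ1, T0 + p0 ≤ τ1 ∧ ∀ t ≤ U.length, Wo (U.take t) → z + p0 < t →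
      (∀ s < t, z + p0 < s → ¬ Wo (U.take s)) → t = τ1 := by
    by_cases h : ∃ t, z + p0 < t ∧ t ≤ U.length ∧ Wo (U.take t)
    · refine ⟨Nat.find h, ?_, fun t h1 h2 h3 h4 => ?_⟩
      · have := (Nat.find_spec h).1; omega
      · obtain ⟨a1, a2, a3⟩ := Nat.find_spec h
        have := Nat.find_min' h ⟨h3, h1, h2⟩
        by_contra hne
        exact h4 _ (lt_of_le_of_ne this (Ne.symm hne)) a1 a3
    · exact ⟨z, by omega, fun t h1 h2 h3 h4 => (h ⟨t, h3, h1, h2⟩).elim⟩
  have hsub : F ⊆ F.filter PA ∪ (F.filter (PB τ0) ∪ F.filter (PB τ1)) := by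
    intro k hk
    obtain ⟨hkK, k', hk', hne, h | ⟨t, ht, hw, h1, h2, h3⟩⟩ := hF k hk
    · exact Finset.mem_union_left _ (Finset.mem_filter.2 ⟨hk, k', hk', hne, h⟩)
    · apply Finset.mem_union_right
      have c1 := D.hc k hkK
      have c2 := D.hc k' hk'
      by_cases hle : t ≤ z + p0
      · have := hτ0' t ht hw (by omega) hle
        subst this
        exact Finset.mem_union_left _ (Finset.mem_filter.2 ⟨hk, k', hk', hne, h3⟩)
      · have := hτ1' t ht hw (by omega) (fun s hs hs' => h2 s hs (by omega))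
        subst this
        exact Finset.mem_union_right _ (Finset.mem_filter.2 ⟨hk, k', hk', hne, h3⟩)
  have h1 := Finset.card_le_card hsub
  have h2 := Finset.card_union_le (F.filter PA) (F.filter (PB τ0) ∪ F.filter (PB τ1))
  have h3 := Finset.card_union_le (F.filter (PB τ0)) (F.filter (PB τ1))
  have h4 := hB τ0 hτ0
  have h5 := hB τ1 hτ1
  omega

theorem C2 (D : Dat φ act Wo n W z p0 N K C0 T0 BT lam rho nu nu2 c lam2 rho2) :
    ∀ u ∈ BAD Wo z N p0 BT, ∀ x, ∀ t ∈ (BAD Wo z N p0 BT) ^ 1, ∃ p q y, u ++ t = p ++ q ∧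
      p ∈ L2 K c lam2 x ∧
      q ∈ Rsem (XX Wo z) (BAD Wo z N p0 BT) (TT φ act p0 nu2 nu) 1 (L2 K c lam2) y := by
  classical
  intro u hu x t ht
  rw [pow_one] at ht
  have hzz := D.hz
  have hu1 : Wo u := hu.1.1
  have hu2 : z ≤ u.length := hu.1.2.1
  have hu3 : ∀ t < u.length, z ≤ t → ¬ Wo (u.take t) := hu.1.2.2
  have ht1 : Wo t := ht.1.1
  have ht2 : z ≤ t.length := ht.1.2.1
  obtain ⟨I, hI, hI2⟩ := D.e2 (u.take p0) x (fun k hk => by
    rw [List.length_take]; have := D.hc k hk; omega)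
  have hex : ∃ k ∈ I, ¬ Spoil Wo z N p0 K BT c (u ++ t) k := by
    by_contra hcon
    push Not at hcon
    have := spoil_card D (u ++ t) I (fun k hk => ⟨(hI2 k hk).1, hcon k hk⟩)
    omega
  obtain ⟨k, hkI, hns⟩ := hex
  obtain ⟨hkK, hlam, hrho⟩ := hI2 k hkI
  obtain ⟨b, hb⟩ := Option.isSome_iff_exists.1 hrho
  have hck := D.hc k hkK
  have hPl : (u.take (c k)).length = c k := by rw [List.length_take]; omega
  have hPe : (u.take p0).take (c k) = u.take (c k) := by
    rw [List.take_take, min_eq_left hck]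
  rw [hPe] at hlam
  have hQe : (u.take p0).drop (c k) = (u.drop (c k)).take (p0 - c k) := by
    rw [List.drop_take]
  have hvalu : act x (φ (u.take p0)) + nu2 (u.take p0) = b := by
    have := D.e1 k hkK _ _ _ _ hPl hlam hb
    have e : u.take (c k) ++ (u.take p0).drop (c k) = u.take p0 := by
      rw [← hPe, List.take_append_drop]
    rw [e] at this
    exact this.symm
  refine ⟨u.take (c k), u.drop (c k) ++ t, TT φ act p0 nu2 nu t (TT φ act p0 nu2 nu u x), ?_,
    ⟨k, hkK, hPl, hlam⟩, ?_⟩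
  · rw [← List.append_assoc, List.take_append_drop]
  intro x' p' hp'
  obtain ⟨k', hk', hl', hlam'⟩ := hp'
  have hck' := D.hc k' hk'
  show p' ++ (u.drop (c k) ++ t) ∈ Exactly _ _ 2 _ _ ∨ p' ++ (u.drop (c k) ++ t) ∈ Off _ _ 1
  have hdl : (u.drop (c k)).length = u.length - c k := by rw [List.length_drop]
  have hue : u = u.take (c k) ++ u.drop (c k) := (List.take_append_drop _ _).symm
  by_cases hkk : k' = k
  · subst hkk
    have hX : p' ++ u.drop (c k') ∈ XX Wo z := by
      refine ⟨?_, ?_, ?_⟩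
      · refine (D.lw.loc p' _ (by omega)).2 ((D.lw.loc (u.take (c k')) _ (by omega)).1 ?_)
        rw [← hue]; exact hu1
      · rw [List.length_append]; omega
      · intro s hs1 hs2 hw
        rw [List.length_append] at hs1
        have htr := D.lw.tr p' (u.take (c k')) (u.drop (c k')) (t := s) (t' := s)
          (by rw [hPl]; omega) (by omega) (by omega)
        have hw2 := htr.1 hw
        rw [← hue] at hw2
        exact hu3 s (by omega) hs2 hw2
    by_cases hbad : p' ++ u.drop (c k') ∈ BAD Wo z N p0 BT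
    · left
      have hT : TT φ act p0 nu2 nu (p' ++ u.drop (c k')) x' = TT φ act p0 nu2 nu u x := by
        unfold TT
        have e1 : (p' ++ u.drop (c k')).drop p0 = u.drop p0 := by
          rw [List.drop_append, List.drop_eq_nil_of_le (by omega), List.nil_append,
            List.drop_drop]
          congr 1
          omega
        have e2 : (p' ++ u.drop (c k')).take p0 = p' ++ (u.take p0).drop (c k') := by
          rw [List.take_append, List.take_of_length_le (by omega), hQe, hl']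
        rw [e1, e2, hvalu]
        have := D.e1 k' hkK _ _ _ _ hl' hlam' hb
        rw [← this]
      refine ⟨TT φ act p0 nu2 nu u x, Language.mem_mul.2 ⟨p' ++ u.drop (c k'), ⟨hbad, hT⟩, t, ?_,
        by rw [List.append_assoc]⟩⟩
      exact ⟨_, Language.mem_mul.2 ⟨t, ⟨ht, rfl⟩, [], ⟨rfl, rfl⟩, by simp⟩⟩
    · right
      left
      exact ⟨p' ++ u.drop (c k'), hX, hbad, by rw [← List.append_assoc]; exact List.prefix_append _ _⟩
  · right
    left
    -- the candidate text
    have hQ : u.drop (c k) ++ t = (u ++ t).drop (c k) := by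
      rw [List.drop_append_of_le_length (by omega)]
    have hUe : u.take (c k) ++ (u.drop (c k) ++ t) = u ++ t := by
      rw [← List.append_assoc, List.take_append_drop]
    have hQl : (u.drop (c k) ++ t).length = u.length - c k + t.length := by
      rw [List.length_append, hdl]
    have hwl : (p' ++ (u.drop (c k) ++ t)).length = c k' + (u.length - c k + t.length) := by
      rw [List.length_append, hQl, hl']
    have hUl : (u ++ t).length = u.length + t.length := List.length_append
    have hex : ∃ s, z ≤ s ∧ s ≤ (p' ++ (u.drop (c k) ++ t)).length ∧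
        Wo ((p' ++ (u.drop (c k) ++ t)).take s) := by
      refine ⟨(p' ++ (u.drop (c k) ++ t)).length, by omega, le_rfl, ?_⟩
      rw [List.take_length]
      refine (D.lw.loc p' _ (by omega)).2 ((D.lw.loc (u.drop (c k)) t (by omega)).2 ht1)
    obtain ⟨f1, f2, f3⟩ := Nat.find_spec hex
    have fmin := fun m (h : m < Nat.find hex) => Nat.find_min hex h
    generalize Nat.find hex = s at f1 f2 f3 fmin
    have hXl : ((p' ++ (u.drop (c k) ++ t)).take s).length = s := by
      rw [List.length_take]; omega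
    have hX : (p' ++ (u.drop (c k) ++ t)).take s ∈ XX Wo z := by
      refine ⟨f3, by omega, ?_⟩
      intro r hr1 hr2 hw
      rw [hXl] at hr1
      rw [List.take_take, min_eq_left hr1.le] at hw
      exact fmin r hr1 ⟨hr2, by omega, hw⟩
    refine ⟨_, hX, ?_, List.take_prefix _ _⟩
    intro hbad
    apply hns
    -- translation of walls
    have htr : ∀ r, r ≤ s → p0 + n ≤ r → Wo ((p' ++ (u.drop (c k) ++ t)).take r) →
        ∃ r', r' + c k' = r + c k ∧ r' ≤ (u ++ t).length ∧ Wo ((u ++ t).take r') := by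
      intro r hr hr' hw
      refine ⟨r + c k - c k', by omega, by omega, ?_⟩
      have h := D.lw.tr p' (u.take (c k)) (u.drop (c k) ++ t) (t := r) (t' := r + c k - c k')
        (by rw [hPl]; omega) (by omega) (by omega)
      have h2 := h.1 hw
      rwa [hUe] at h2
    refine ⟨k', hk', hkk, ?_⟩
    rcases hbad.2 with hE | hB
    · left
      rcases hE with hE | ⟨r, hr1, hr2, hr3⟩
      · rw [hXl] at hE
        obtain ⟨r', h1, h2, h3⟩ := htr s le_rfl (by omega) f3
        exact ⟨r', h2, h3, by omega, by omega⟩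
      · rw [List.take_take, min_eq_left (by omega)] at hr3
        obtain ⟨r', h1, h2, h3⟩ := htr r (by omega) (by omega) hr3
        exact ⟨r', h2, h3, by omega, by omega⟩
    · right
      rw [hXl] at hB
      obtain ⟨r', h1, h2, h3⟩ := htr s le_rfl (by omega) f3
      refine ⟨r', h2, h3, by omega, ?_, ?_⟩
      · intro a ha1 ha2 ha3
        have h := D.lw.tr (u.take (c k)) p' (u.drop (c k) ++ t) (t := a) (t' := a + c k' - c k)
          (by rw [hPl]; omega) (by rw [hPl]; omega) (by rw [hPl]; omega)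
        rw [hUe] at h
        exact fmin _ (by omega) ⟨by omega, by omega, h.1 ha3⟩
      · have e : r' + c k' - c k - p0 = s - p0 := by omega
        rw [e]; exact hB

end main

end Crest.Agent.R320.AsmA_619
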