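import Crest.Agent.R320.FewVal_228
import Crest.Agent.R320.Block_467

/-! # Row 320, blocks of the natural chain (helper700): walls by end position, code `XX`. -/

set_option autoImplicit false

namespace Crest.Agent.R320.Asm_700

open Crest.RegLang Crest.Agent.R320.Hk_851 Crest.Agent.R320.FewWalls_228

universe u
variable {α : Type u}

/-- a wall of `w` ends at `y` -/
def WE (n : ℕ) (S : Set (List α)) (w : List α) (y : ℕ) : Prop := n ≤ y ∧ Wl n S w (y - n)

variable {n : ℕ} {S : Set (List α)}

theorem WE.le {w : List α} {y : ℕ} (h : WE n S w y) : y ≤ w.length := by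
  have := h.1; have := h.2.1; omega

theorem WE.ge {w : List α} {y : ℕ} (h : WE n S w y) : n ≤ y := h.1

theorem WE_append {w : List α} (v : List α) {y : ℕ} (hy : y ≤ w.length) :
    WE n S (w ++ v) y ↔ WE n S w y := by
  unfold WE Wl
  constructor
  · rintro ⟨h1, h2, h3⟩
    refine ⟨h1, by omega, ?_⟩
    rwa [List.drop_append_of_le_length (by omega), List.take_append_of_le_length
      (by rw [List.length_drop]; omega)] at h3
  · rintro ⟨h1, h2, h3⟩
    refine ⟨h1, by rw [List.length_append]; omega, ?_⟩
    rwa [List.drop_append_of_le_length (by omega), List.take_append_of_le_length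
      (by rw [List.length_drop]; omega)]

theorem WE_shift (p : List α) {w : List α} {y : ℕ} (hy : n ≤ y) :
    WE n S (p ++ w) (p.length + y) ↔ WE n S w y := by
  unfold WE Wl
  have e : p.length + y - n = p.length + (y - n) := by omega
  rw [e, List.drop_append, List.length_append]
  have e2 : p.length + (y - n) - p.length = y - n := by omega
  rw [e2, List.drop_eq_nil_of_le (by omega), List.nil_append]
  constructor
  · rintro ⟨h1, h2, h3⟩; exact ⟨hy, by omega, h3⟩
  · rintro ⟨h1, h2, h3⟩; exact ⟨by omega, by omega, h3⟩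

/-- first wall at a place `≥ m` -/
def FW (n : ℕ) (S : Set (List α)) (w : List α) (m t : ℕ) : Prop :=
  WE n S w t ∧ m ≤ t ∧ ∀ y, m ≤ y → y < t → ¬ WE n S w y

theorem FW.uniq {w : List α} {m t t' : ℕ} (h : FW n S w m t) (h' : FW n S w m t') : t = t' := by
  rcases Nat.lt_trichotomy t t' with h1 | h1 | h1
  · exact absurd h.1 (h'.2.2 t h.2.1 h1)
  · exact h1
  · exact absurd h'.1 (h.2.2 t' h'.2.1 h1)

theorem FW_append {w : List α} (v : List α) {m t : ℕ} (ht : t ≤ w.length) :
    FW n S (w ++ v) m t ↔ FW n S w m t := by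
  unfold FW
  rw [WE_append v ht]
  constructor
  · rintro ⟨h1, h2, h3⟩
    exact ⟨h1, h2, fun y hy hyt h => h3 y hy hyt ((WE_append v (by omega)).2 h)⟩
  · rintro ⟨h1, h2, h3⟩
    exact ⟨h1, h2, fun y hy hyt h => h3 y hy hyt ((WE_append v (by omega)).1 h)⟩

theorem FW_shift (p : List α) {w : List α} {m t : ℕ} (hm : n ≤ m) :
    FW n S (p ++ w) (p.length + m) (p.length + t) ↔ FW n S w m t := by
  unfold FW
  constructor
  · rintro ⟨h1, h2, h3⟩
    have hmt : m ≤ t := by omega
    refine ⟨(WE_shift p (by omega)).1 h1, hmt, fun y hy hyt h => ?_⟩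
    exact h3 (p.length + y) (by omega) (by omega) ((WE_shift p (by omega)).2 h)
  · rintro ⟨h1, h2, h3⟩
    refine ⟨(WE_shift p (by omega)).2 h1, by omega, fun y hy hyt h => ?_⟩
    obtain ⟨y', rfl⟩ : ∃ y', y = p.length + y' := ⟨y - p.length, by omega⟩
    exact h3 y' (by omega) (by omega) ((WE_shift p (by omega)).1 h)

theorem exists_FW {w : List α} {m y : ℕ} (h : WE n S w y) (hm : m ≤ y) :
    ∃ t, t ≤ y ∧ FW n S w m t := by
  classical
  have hex : ∃ t, WE n S w t ∧ m ≤ t := ⟨y, h, hm⟩
  refine ⟨Nat.find hex, Nat.find_min' hex ⟨h, hm⟩, (Nat.find_spec hex).1,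
    (Nat.find_spec hex).2, fun y' h1 h2 h3 => Nat.find_min hex h2 ⟨h3, h1⟩⟩

/-- blocks seen from `z` : the word ends in the second wall at a place `≥ z` -/
def BX (n : ℕ) (S : Set (List α)) (z : ℕ) (X : List α) : Prop :=
  ∃ t, FW n S X z t ∧ FW n S X (t + 1) X.length

theorem BX.eq_of_append {z : ℕ} {X Y : List α} (h1 : BX n S z X) (h2 : BX n S z (X ++ Y)) :
    Y = [] := by
  obtain ⟨t, ht, hX⟩ := h1
  obtain ⟨t', ht', hXY⟩ := h2
  have e1 : t ≤ X.length := ht.1.le
  have e2 : t' = t := ht'.uniq ((FW_append Y e1).2 ht)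
  subst e2
  have e3 : X.length = (X ++ Y).length := ((FW_append Y le_rfl).2 hX).uniq hXY
  rw [List.length_append] at e3
  exact List.length_eq_zero_iff.1 (by omega)

theorem BX.lt {z : ℕ} {X : List α} {t : ℕ} (h : FW n S X (t + 1) X.length) : t < X.length := h.2.1

theorem BX_shift (p : List α) {w : List α} {z : ℕ} (hz : p.length + n ≤ z) :
    BX n S z (p ++ w) ↔ BX n S (z - p.length) w := by
  unfold BX
  have ez : z = p.length + (z - p.length) := by omega
  constructor
  · rintro ⟨t, h1, h2⟩
    obtain ⟨t', rfl⟩ : ∃ t', t = p.length + t' := ⟨t - p.length, by have := h1.2.1; omega⟩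
    refine ⟨t', ?_, ?_⟩
    · rw [ez] at h1
      exact (FW_shift p (by omega)).1 h1
    · rw [List.length_append, add_assoc] at h2
      have := h1.2.1
      exact (FW_shift p (by omega)).1 h2
  · rintro ⟨t', h1, h2⟩
    refine ⟨p.length + t', ?_, ?_⟩
    · rw [ez]
      exact (FW_shift p (by omega)).2 h1
    · rw [List.length_append, add_assoc]
      have := h1.2.1
      exact (FW_shift p (by omega)).2 h2

theorem BX_pcode (hn : 0 < n) (z : ℕ) : Blk467.PCode {X : List α | BX n S z X} := by
  constructor
  · rintro ⟨t, h1, h2⟩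
    have := h2.1.ge
    simp at this
    omega
  · rintro X hX Y hY ⟨s, rfl⟩
    have : s = [] := BX.eq_of_append hX hY
    simp [this]

/-- words without a proper prefix in the code have few walls -/
theorem few {z : ℕ} (w : List α)
    (h : ∀ X Y, w = X ++ Y → Y ≠ [] → ¬ BX n S z X) : nw n S w ≤ z + 2 := by
  classical
  by_cases hex : ∃ y, z ≤ y ∧ WE n S w y
  · obtain ⟨y0, hy0, hw0⟩ := hex
    obtain ⟨t, -, ht⟩ := exists_FW (m := z) hw0 hy0
    have key : ∃ t2, ∀ y, z ≤ y → WE n S w y → y = t ∨ y = t2 := by
      by_cases hex2 : ∃ y, t + 1 ≤ y ∧ WE n S w y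
      · obtain ⟨y1, hy1, hw1⟩ := hex2
        obtain ⟨t2, -, ht2⟩ := exists_FW (m := t + 1) hw1 hy1
        refine ⟨t2, fun y hy hwy => ?_⟩
        by_contra hne
        push Not at hne
        have h1 : t < y := by
          rcases Nat.lt_or_ge y t with h1 | h1
          · exact absurd hwy (ht.2.2 y hy h1)
          · exact lt_of_le_of_ne h1 (Ne.symm hne.1)
        have h2 : t2 < y := by
          rcases Nat.lt_or_ge y t2 with h2 | h2
          · exact absurd hwy (ht2.2.2 y h1 h2)
          · exact lt_of_le_of_ne h2 (Ne.symm hne.2)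
        have h3 : y ≤ w.length := hwy.le
        have e : w = w.take t2 ++ w.drop t2 := (List.take_append_drop t2 w).symm
        have hl : (w.take t2).length = t2 := by rw [List.length_take]; omega
        refine h _ _ e ?_ ⟨t, ?_, ?_⟩
        · intro h0
          have := congrArg List.length h0
          rw [List.length_drop, List.length_nil] at this
          omega
        · have : t ≤ (w.take t2).length := by have := ht2.2.1; omega
          refine (FW_append (w.drop t2) this).1 ?_
          rwa [List.take_append_drop]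
        · refine (FW_append (w.drop t2) le_rfl).1 ?_
          rwa [List.take_append_drop, hl]
      · push Not at hex2
        refine ⟨t, fun y hy hwy => Or.inl ?_⟩
        rcases Nat.lt_trichotomy y t with h1 | h1 | h1
        · exact absurd hwy (ht.2.2 y hy h1)
        · exact h1
        · exact absurd hwy (hex2 y h1)
    obtain ⟨t2, ht2⟩ := key
    unfold nw
    refine le_trans (Finset.card_le_card (t := (Finset.range z) ∪ {t - n, t2 - n}) ?_) ?_
    · intro x hx
      rw [Finset.mem_filter] at hx
      rw [Finset.mem_union, Finset.mem_range, Finset.mem_insert, Finset.mem_singleton]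
      by_cases hxz : x + n < z
      · left; omega
      · right
        have hwe : WE n S w (x + n) := ⟨by omega, by rw [Nat.add_sub_cancel]; exact hx.2⟩
        rcases ht2 (x + n) (by omega) hwe with e | e
        · left; omega
        · right; omega
    · refine le_trans (Finset.card_union_le _ _) ?_
      rw [Finset.card_range]
      have := Finset.card_le_two (a := t - n) (b := t2 - n)
      omega
  · push Not at hex
    unfold nw
    refine le_trans (Finset.card_le_card (t := Finset.range z) ?_) (by rw [Finset.card_range]; omega)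
    intro x hx
    rw [Finset.mem_filter] at hx
    rw [Finset.mem_range]
    by_contra hxz
    exact hex (x + n) (by omega) ⟨by omega, by rw [Nat.add_sub_cancel]; exact hx.2⟩

end Crest.Agent.R320.Asm_700
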