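import Crest.Agent.R320.Top_180
import Crest.Agent.R320.FewVal_228

/-!
# Row 320: left-looking walls on all words and the block code "second wall after z" (helper713)
-/

set_option autoImplicit false

namespace Crest.Agent.R320.AsmA_713

open Crest.RegLang Crest.Agent.R320.Hk_851 Crest.Agent.R320.Half1_180

/-- at most two walls `≥ z` -/
def AM {α : Type} (LW : List α → ℕ → Prop) (z : ℕ) (w : List α) : Prop :=
  ∀ t1 t2 t3, z ≤ t1 → t1 < t2 → t2 < t3 → LW w t1 → LW w t2 → LW w t3 → False

/-- left-looking walls on all words -/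
structure LWalls (α : Type) (W : ℕ) where
  n : ℕ
  LW : List α → ℕ → Prop
  ge : ∀ w t, LW w t → n ≤ t
  le : ∀ w t, LW w t → t ≤ w.length
  pre : ∀ w y t, t ≤ w.length → (LW (w ++ y) t ↔ LW w t)
  suf : ∀ p w t, n ≤ t → (LW (p ++ w) (p.length + t) ↔ LW w t)
  sep : ∀ w t t', t < t' → LW w t → LW w t' → t + W ≤ t'
  hend : HL 0 ({p | LW p p.length} : Language α)
  few : ∀ (L : Language α), L.IsRegular → ∀ z, HL 1 ({w | w ∈ L ∧ AM LW z w} : Language α)

section Basic

variable {α : Type} {W : ℕ} (G : LWalls α W)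

/-- blocks: the end is the second wall `≥ z` -/
def XX (z : ℕ) : Set (List α) :=
  {X | G.LW X X.length ∧ ∃ t1, z ≤ t1 ∧ t1 < X.length ∧ G.LW X t1 ∧
    ∀ t, z ≤ t → t < X.length → G.LW X t → t = t1}

theorem XX_len {z : ℕ} {X : List α} (h : X ∈ XX G z) : z < X.length := by
  obtain ⟨_, t1, h1, h2, _⟩ := h
  omega

theorem XX_AM {z : ℕ} {X : List α} (h : X ∈ XX G z) : AM G.LW z X := by
  obtain ⟨h0, t1, h1, h2, h3, h4⟩ := h
  intro a b c ha hab hbc la lb lc
  have hc := G.le _ _ lc
  have e1 := h4 a ha (by omega) la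
  have e2 := h4 b (by omega) (by omega) lb
  omega

theorem PF_XX (z : ℕ) : PF (XX G z) := by
  constructor
  · intro X hX h0
    have := XX_len G hX
    rw [h0] at this
    simp at this
  · intro X hX Y hY hp
    obtain ⟨r, rfl⟩ := hp
    by_contra hne
    have hr : r ≠ [] := by
      rintro rfl
      exact hne (by simp)
    have hrl : 0 < r.length := List.length_pos_iff.2 hr
    obtain ⟨h0, t1, h1, h2, h3, h4⟩ := hX
    obtain ⟨k0, s1, k1, k2, k3, k4⟩ := hY
    have hlen : (X ++ r).length = X.length + r.length := List.length_append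
    have a1 : t1 = s1 := k4 t1 h1 (by omega) ((G.pre X r t1 (by omega)).2 h3)
    have a2 : X.length = s1 := k4 X.length (by omega) (by omega) ((G.pre X r _ le_rfl).2 h0)
    omega

/-- two walls `≥ z` give a block -/
theorem exists_block {z : ℕ} {w : List α} {t1 t2 : ℕ} (h1 : z ≤ t1) (h12 : t1 < t2)
    (l1 : G.LW w t1) (l2 : G.LW w t2) : ∃ X ∈ XX G z, X <+: w ∧ X.length ≤ t2 := by
  classical
  have hex : ∃ b, ∃ a, z ≤ a ∧ a < b ∧ G.LW w a ∧ G.LW w b := ⟨t2, t1, h1, h12, l1, l2⟩
  set b := Nat.find hex with hb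
  obtain ⟨a, ha, hab, la, lb⟩ := Nat.find_spec hex
  rw [← hb] at hab lb
  have hble : b ≤ w.length := G.le _ _ lb
  have hmin : b ≤ t2 := Nat.find_min' hex ⟨t1, h1, h12, l1, l2⟩
  have hl : (w.take b).length = b := by rw [List.length_take]; omega
  have hpre : ∀ t, t ≤ b → (G.LW (w.take b) t ↔ G.LW w t) := by
    intro t ht
    have := G.pre (w.take b) (w.drop b) t (by omega)
    rw [List.take_append_drop] at this
    exact this.symm
  refine ⟨w.take b, ⟨?_, a, ha, by omega, (hpre a (by omega)).2 la, ?_⟩, List.take_prefix _ _,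
    by omega⟩
  · rw [hl]; exact (hpre b le_rfl).2 lb
  · intro t hz ht lt
    rw [hl] at ht
    have lt' := (hpre t (by omega)).1 lt
    by_contra hne
    rcases lt_or_gt_of_ne hne with h | h
    · exact Nat.find_min hex (m := a) (by omega) ⟨t, hz, h, lt', la⟩
    · exact Nat.find_min hex (m := t) (by omega) ⟨a, ha, h, la, lt'⟩

end Basic

section HLfacts

variable {α : Type} [Finite α] {W : ℕ} (G : LWalls α W)

/-- positions `≥ z` which are walls of their own prefix -/
def P1 (z : ℕ) : Language α := {p | G.LW p p.length ∧ z ≤ p.length}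

def P2 (z : ℕ) : Language α := {p | (G.LW p p.length ∧ z ≤ p.length) ∧
  p ∈ P1 G z * Lg (fun y : List α => 1 ≤ y.length)}

def P3 (z : ℕ) : Language α := {p | (G.LW p p.length ∧ z ≤ p.length) ∧
  p ∈ P2 G z * Lg (fun y : List α => 1 ≤ y.length)}

theorem HL_P1 (z : ℕ) : HL 0 (P1 G z) := G.hend.inf (HL.length_ge z)

theorem HL_P2 (z : ℕ) : HL 0 (P2 G z) :=
  (HL_P1 G z).inf ((HL_P1 G z).mul (HL.length_ge 1))

theorem HL_P3 (z : ℕ) : HL 0 (P3 G z) :=
  (HL_P1 G z).inf ((HL_P2 G z).mul (HL.length_ge 1))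

theorem mem_P2 {z : ℕ} {p : List α} : p ∈ P2 G z ↔ G.LW p p.length ∧
    ∃ t, z ≤ t ∧ t < p.length ∧ G.LW p t := by
  constructor
  · rintro ⟨⟨h1, h2⟩, h3⟩
    obtain ⟨a, ⟨ha, ha'⟩, b, hb, rfl⟩ := Language.mem_mul.1 h3
    have hb' : 1 ≤ b.length := hb
    exact ⟨h1, a.length, ha', by rw [List.length_append]; omega, (G.pre a b _ le_rfl).2 ha⟩
  · rintro ⟨h1, t, ht, htl, lt⟩
    refine ⟨⟨h1, by omega⟩, Language.mem_mul.2 ⟨p.take t, ⟨?_, ?_⟩, p.drop t, ?_, by simp⟩⟩
    · have hl : (p.take t).length = t := by rw [List.length_take]; omega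
      rw [hl]
      have := G.pre (p.take t) (p.drop t) t (by omega)
      rw [List.take_append_drop] at this
      exact this.1 lt
    · rw [List.length_take]; omega
    · show 1 ≤ (p.drop t).length
      rw [List.length_drop]; omega

theorem mem_P3 {z : ℕ} {p : List α} : p ∈ P3 G z ↔ G.LW p p.length ∧
    ∃ s t, z ≤ s ∧ s < t ∧ t < p.length ∧ G.LW p s ∧ G.LW p t := by
  constructor
  · rintro ⟨⟨h1, h2⟩, h3⟩
    obtain ⟨a, ha, b, hb, rfl⟩ := Language.mem_mul.1 h3
    have hb' : 1 ≤ b.length := hb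
    obtain ⟨ha1, s, hs, hs', ls⟩ := (mem_P2 G).1 ha
    exact ⟨h1, s, a.length, hs, hs', by rw [List.length_append]; omega,
      (G.pre a b _ (by omega)).2 ls, (G.pre a b _ le_rfl).2 ha1⟩
  · rintro ⟨h1, s, t, hs, hst, htl, ls, lt⟩
    refine ⟨⟨h1, by omega⟩, Language.mem_mul.2 ⟨p.take t, (mem_P2 G).2 ⟨?_, s, hs, ?_, ?_⟩,
      p.drop t, ?_, by simp⟩⟩
    · have hl : (p.take t).length = t := by rw [List.length_take]; omega
      rw [hl]
      have := G.pre (p.take t) (p.drop t) t (by omega)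
      rw [List.take_append_drop] at this
      exact this.1 lt
    · rw [List.length_take]; omega
    · have hl : (p.take t).length = t := by rw [List.length_take]; omega
      have := G.pre (p.take t) (p.drop t) s (by omega)
      rw [List.take_append_drop] at this
      exact this.1 ls
    · show 1 ≤ (p.drop t).length
      rw [List.length_drop]; omega

theorem HL_XX (z : ℕ) : HL 0 (Lof (XX G z)) := by
  refine ((HL_P2 G z).sdiff (HL_P3 G z)).congr fun w => Iff.symm ?_
  constructor
  · rintro ⟨h2, h3⟩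
    obtain ⟨h1, t, ht, htl, lt⟩ := (mem_P2 G).1 h2
    refine ⟨h1, t, ht, htl, lt, ?_⟩
    intro s hs hsl ls
    by_contra hne
    apply h3
    rcases lt_or_gt_of_ne hne with h | h
    · exact (mem_P3 G).2 ⟨h1, s, t, hs, h, htl, ls, lt⟩
    · exact (mem_P3 G).2 ⟨h1, t, s, ht, h, hsl, lt, ls⟩
  · rintro ⟨h0, t1, h1, h2, h3, h4⟩
    refine ⟨(mem_P2 G).2 ⟨h0, t1, h1, h2, h3⟩, ?_⟩
    intro h
    obtain ⟨_, s, t, hs, hst, htl, ls, lt⟩ := (mem_P3 G).1 h
    have e1 := h4 s hs (by omega) ls
    have e2 := h4 t (by omega) htl lt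
    omega

theorem HL_Tail (z : ℕ) : HL 0 (Lof (Tail (XX G z))) := by
  refine (HL_XX G z).prefix.compl.congr fun w => Iff.symm ?_
  constructor
  · intro h X hX hp
    exact h ⟨X, hX, hp⟩
  · rintro h ⟨X, hX, hp⟩
    exact h X hX hp

theorem Tail_AM {z : ℕ} {w : List α} (h : w ∈ Tail (XX G z)) : AM G.LW z w := by
  intro a b c ha hab hbc la lb lc
  obtain ⟨X, hX, hp, _⟩ := exists_block G ha hab la lb
  exact h X hX hp

end HLfacts

/-! ### Existence of walls -/

section Exist

open Crest.Agent.R320.FewWalls_228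

theorem nw_le {α : Type} {n : ℕ} {S : Set (List α)} {z : ℕ} {w : List α}
    (h : AM (fun (w : List α) t => n ≤ t ∧ Wl n S w (t - n)) z w) : nw n S w ≤ z + 2 := by
  classical
  unfold nw
  set F := (Finset.range (w.length + 1)).filter (fun x => Wl n S w x) with hF
  have h1 : F ⊆ Finset.range z ∪ F.filter (fun x => z ≤ x) := by
    intro x hx
    rw [Finset.mem_union, Finset.mem_range, Finset.mem_filter]
    by_cases h : x < z
    · exact Or.inl h
    · exact Or.inr ⟨hx, by omega⟩
  have h2 : (F.filter (fun x => z ≤ x)).card ≤ 2 := by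
    by_contra hc
    push Not at hc
    obtain ⟨a, b, c, ha, hb, hc', hab, hac, hbc⟩ := Finset.two_lt_card_iff.1 hc
    have key : ∀ x ∈ F.filter (fun x => z ≤ x), z ≤ x + n ∧ n ≤ x + n ∧ Wl n S w (x + n - n) := by
      intro x hx
      rw [Finset.mem_filter, hF, Finset.mem_filter] at hx
      refine ⟨by omega, by omega, ?_⟩
      rw [Nat.add_sub_cancel]
      exact hx.1.2
    obtain ⟨a1, a2, a3⟩ := key a ha
    obtain ⟨b1, b2, b3⟩ := key b hb
    obtain ⟨c1, c2, c3⟩ := key c hc'
    rcases lt_or_gt_of_ne hab with h1 | h1 <;> rcases lt_or_gt_of_ne hac with h2 | h2 <;>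
      rcases lt_or_gt_of_ne hbc with h3 | h3
    · exact h (a + n) (b + n) (c + n) a1 (by omega) (by omega) ⟨a2, a3⟩ ⟨b2, b3⟩ ⟨c2, c3⟩
    · exact h (a + n) (c + n) (b + n) a1 (by omega) (by omega) ⟨a2, a3⟩ ⟨c2, c3⟩ ⟨b2, b3⟩
    · omega
    · exact h (c + n) (a + n) (b + n) c1 (by omega) (by omega) ⟨c2, c3⟩ ⟨a2, a3⟩ ⟨b2, b3⟩
    · exact h (b + n) (a + n) (c + n) b1 (by omega) (by omega) ⟨b2, b3⟩ ⟨a2, a3⟩ ⟨c2, c3⟩
    · omega
    · exact h (b + n) (c + n) (a + n) b1 (by omega) (by omega) ⟨b2, b3⟩ ⟨c2, c3⟩ ⟨a2, a3⟩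
    · exact h (c + n) (b + n) (a + n) c1 (by omega) (by omega) ⟨c2, c3⟩ ⟨b2, b3⟩ ⟨a2, a3⟩
  calc F.card ≤ (Finset.range z ∪ F.filter (fun x => z ≤ x)).card := Finset.card_le_card h1
    _ ≤ (Finset.range z).card + (F.filter (fun x => z ≤ x)).card := Finset.card_union_le _ _
    _ ≤ z + 2 := by rw [Finset.card_range]; omega

theorem am_of_hl {α : Type} [Finite α] {LW : List α → ℕ → Prop}
    (le : ∀ w t, LW w t → t ≤ w.length)
    (pre : ∀ w y t, t ≤ w.length → (LW (w ++ y) t ↔ LW w t))
    (hend : HL 0 ({p | LW p p.length} : Language α)) (z : ℕ) :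
    HL 0 ({w | AM LW z w} : Language α) := by
  have h1 : HL 0 ({p | LW p p.length ∧ z ≤ p.length} : Language α) := hend.inf (HL.length_ge z)
  have h1 : HL 0 (Lg (fun p : List α => LW p p.length ∧ z ≤ p.length)) := h1
  have hg : HL 0 (Lg (fun y : List α => 1 ≤ y.length)) := HL.length_ge 1
  have h2 : HL 0 (Lg (fun p : List α => LW p p.length ∧ z ≤ p.length) ⊓
      (Lg (fun p : List α => LW p p.length ∧ z ≤ p.length) * Lg (fun y : List α => 1 ≤ y.length))) :=
    h1.inf (h1.mul hg)
  have h3 := h1.inf (h2.mul hg)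
  refine h3.prefix.compl.congr fun w => Iff.symm ?_
  have tk : ∀ (w : List α) (s t : ℕ), s ≤ t → t ≤ w.length → (LW (w.take t) s ↔ LW w s) := by
    intro w s t hs ht
    have := pre (w.take t) (w.drop t) s (by rw [List.length_take]; omega)
    rw [List.take_append_drop] at this
    exact this.symm
  constructor
  · intro h a b c ha hab hbc la lb lc
    have hc := le _ _ lc
    apply h
    refine ⟨w.take c, ⟨⟨?_, ?_⟩, ?_⟩, List.take_prefix _ _⟩
    · rw [List.length_take, min_eq_left hc]; exact (tk w c c le_rfl hc).2 lc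
    · rw [List.length_take]; omega
    · refine Language.mem_mul.2 ⟨w.take b, ⟨⟨?_, ?_⟩, ?_⟩, (w.take c).drop b, ?_, ?_⟩
      · rw [List.length_take, min_eq_left (by omega)]; exact (tk w b b le_rfl (by omega)).2 lb
      · rw [List.length_take]; omega
      · refine Language.mem_mul.2 ⟨w.take a, ⟨?_, ?_⟩, (w.take b).drop a, ?_, ?_⟩
        · rw [List.length_take, min_eq_left (by omega)]; exact (tk w a a le_rfl (by omega)).2 la
        · rw [List.length_take]; omega
        · show 1 ≤ ((w.take b).drop a).length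
          rw [List.length_drop, List.length_take]; omega
        · have : (w.take b).take a = w.take a := by rw [List.take_take, min_eq_left (by omega)]
          rw [← this, List.take_append_drop]
      · show 1 ≤ ((w.take c).drop b).length
        rw [List.length_drop, List.length_take]; omega
      · have : (w.take c).take b = w.take b := by rw [List.take_take, min_eq_left (by omega)]
        rw [← this, List.take_append_drop]
  · rintro h ⟨X, ⟨⟨x1, x2⟩, x3⟩, hp⟩
    obtain ⟨Y, ⟨⟨y1, y2⟩, y3⟩, Y', hY', rfl⟩ := Language.mem_mul.1 x3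
    obtain ⟨Z, ⟨z1, z2⟩, Z', hZ', rfl⟩ := Language.mem_mul.1 y3
    obtain ⟨r, rfl⟩ := hp
    have hY1 : 1 ≤ Y'.length := hY'
    have hZ1 : 1 ≤ Z'.length := hZ'
    refine h Z.length (Z ++ Z').length ((Z ++ Z') ++ Y').length z2
      (by rw [List.length_append]; omega) (by rw [List.length_append (as := Z ++ Z')]; omega) ?_ ?_ ?_
    · rw [pre _ _ _ (by simp only [List.length_append]; omega),
        pre _ _ _ (by simp only [List.length_append]; omega), pre _ _ _ le_rfl]; exact z1
    · rw [pre _ _ _ (by simp only [List.length_append]; omega), pre _ _ _ le_rfl]; exact y1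
    · rw [pre _ _ _ le_rfl]; exact x1

theorem exists_lwalls (α : Type) [Finite α] (W : ℕ) (hW : 1 ≤ W) : Nonempty (LWalls α W) := by
  obtain ⟨n, c, P, S, hn, hP, hS, hsep, hper, hfew⟩ :=
    Crest.Agent.R320.FewVal_228.exists_walls α W hW
  have hle : ∀ (w : List α) t, (n ≤ t ∧ Wl n S w (t - n)) → t ≤ w.length := by
    rintro w t ⟨h1, h2⟩
    have := h2.1
    omega
  have hpre : ∀ (w y : List α) t, t ≤ w.length →
      ((n ≤ t ∧ Wl n S (w ++ y) (t - n)) ↔ (n ≤ t ∧ Wl n S w (t - n))) := by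
    intro w y t ht
    refine and_congr_right fun h => ?_
    unfold Wl
    rw [List.drop_append_of_le_length (by omega), List.take_append_of_le_length
      (by rw [List.length_drop]; omega), List.length_append]
    refine and_congr_left fun _ => ⟨fun _ => by omega, fun _ => by omega⟩
  have hend : HL 0 ({p | n ≤ p.length ∧ Wl n S p (p.length - n)} : Language α) := by
    have hfin : S.Finite := (List.finite_length_eq α n).subset fun s hs => hS s hs
    refine (HL.finite (k := 0) hfin).suffix.congr fun w => Iff.symm ?_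
    constructor
    · rintro ⟨v, hv, ⟨r, rfl⟩⟩
      have hl := hS v hv
      have hlen : (r ++ v).length = r.length + n := by rw [List.length_append, hl]
      refine ⟨by omega, ?_⟩
      unfold Wl
      rw [hlen, Nat.add_sub_cancel, List.drop_left' rfl, List.take_of_length_le (by omega)]
      exact ⟨le_rfl, hv⟩
    · rintro ⟨h1, h2, h3⟩
      refine ⟨_, h3, ?_⟩
      rw [List.take_of_length_le (by rw [List.length_drop]; omega)]
      exact List.drop_suffix _ _
  refine ⟨{ n := n, LW := fun w t => n ≤ t ∧ Wl n S w (t - n), ge := fun w t h => h.1,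
            le := hle, pre := hpre, suf := ?_, sep := ?_, hend := hend, few := ?_ }⟩
  · intro p w t ht
    refine ⟨fun h => ⟨ht, ?_⟩, fun h => ⟨by omega, ?_⟩⟩
    · obtain ⟨h1, h2, h3⟩ := h
      rw [List.length_append] at h2
      have e : p.length + t - n = p.length + (t - n) := by omega
      rw [e, ← List.drop_drop, List.drop_left' rfl] at h3
      exact ⟨by omega, h3⟩
    · obtain ⟨h1, h2, h3⟩ := h
      have e : p.length + t - n = p.length + (t - n) := by omega
      refine ⟨by rw [List.length_append]; omega, ?_⟩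
      rw [e, ← List.drop_drop, List.drop_left' rfl]
      exact h3
  · rintro w t t' htt ⟨h1, h2⟩ ⟨h3, h4⟩
    have := hsep w (t - n) (t' - n) (by omega) h2 h4
    omega
  · intro L hL z
    have h1 := hfew L hL (z + 2)
    have h2 : HL 1 ({w | AM (fun (w : List α) t => n ≤ t ∧ Wl n S w (t - n)) z w} : Language α) :=
      (am_of_hl hle hpre hend z).mono (by omega)
    refine (h1.inf h2).congr fun w => Iff.symm ?_
    constructor
    · rintro ⟨⟨h3, _⟩, h4⟩
      exact ⟨h3, h4⟩
    · rintro ⟨h3, h4⟩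
      exact ⟨⟨h3, nw_le h4⟩, h4⟩

end Exist

end Crest.Agent.R320.AsmA_713
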