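import Crest.Agent.R320.Asm_803

/-!
# Row 320: scheme A inside the blocks (helper803)
-/

set_option autoImplicit false

namespace Crest.Agent.R320.Asm_803

open Crest.Agent.R320.Hk_851 Crest.Agent.R320.Star_621 Crest.Agent.R320.Two_621
open Crest.Agent.R320.FewWalls_228

variable {α S : Type} [Monoid S]

/-- product of the values of the letters -/
def ph (f : α → S) (w : List α) : S := (w.map f).prod

theorem ph_append (f : α → S) (u v : List α) : ph f (u ++ v) = ph f u * ph f v := by
  simp [ph]

theorem ph_nil (f : α → S) : ph f [] = 1 := rfl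

/-- parameters -/
structure Prm (α S : Type) [Monoid S] where
  n : ℕ
  Sw : Set (List α)
  p0 : ℕ
  z0 : ℕ
  N1 : ℕ
  La : ℕ
  W : ℕ
  Bad : ℕ → Prop
  f : α → S
  lam : List α → Option (Tok S)
  rho : List α → Option (Tok S)
  nu : List α → Tok S

structure Prm.Ok (p : Prm α S) : Prop where
  sep : ∀ (w : List α) (s t : ℕ), s < t → WL p.n p.Sw w s → WL p.n p.Sw w t → s + p.W ≤ t
  hp : 0 < p.p0
  hz : 2 * p.p0 + 2 * p.N1 + p.n + p.La + 1 ≤ p.z0
  hW : 2 * p.p0 + 2 * p.N1 + 2 ≤ p.W
  lamlen : ∀ q v, p.lam q = some v → q.length ≤ p.N1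
  snd : ∀ q q' v r, p.lam q = some v → p.rho q' = some r → p.La ≤ q'.length →
    r = act v (ph p.f (q ++ q')) + p.nu (q ++ q')
  cpl : ∀ u : List α, p.La ≤ u.length → ¬ p.Bad u.length → ∀ v, ∃ q q', q ++ q' = u ∧
    p.lam q = some v ∧ (p.rho q').isSome

namespace Prm

variable (p : Prm α S)

/-- badness, read from the text which begins `c` letters behind the anchor -/
def BadAt (c : ℕ) (Q : List α) (t : ℕ) : Prop :=
  (∃ s ≤ t, WL p.n p.Sw Q s ∧ p.z0 ≤ s + c + p.N1 ∧ s + c ≤ p.z0 + p.N1) ∨ p.Bad (t + c - p.p0)

def Z : Language α := ZZ p.n p.Sw p.z0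

def Zc : Language α := {z | ∃ t, E2 p.n p.Sw p.z0 z t ∧ p.BadAt 0 z t}

def LA (v : Tok S) : Language α :=
  {P | p.p0 ≤ P.length ∧ p.lam (P.drop p.p0) = some (act v (ph p.f (P.take p.p0)))}

def L' (v : Tok S) : Language α := {P | p.lam P = some v}

def RA (τ : Tok S) : Language α :=
  {Q | ∃ q, E2 p.n p.Sw (p.z0 - p.p0) Q q ∧
    (∀ s, s < q → WL p.n p.Sw Q s → s + p.p0 + p.N1 < p.z0) ∧
    ∃ r, p.rho (Q.take q) = some r ∧ τ = act r (ph p.f (Q.drop q))}

open Classical in
noncomputable def dA' (Y : List α) : Tok S :=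
  if h : ∃ t, First p.n p.Sw (p.z0 - p.p0) Y t then
    act (p.nu (Y.take h.choose)) (ph p.f (Y.drop h.choose)) else 0

theorem dA'_eq {Y : List α} {t : ℕ} (h : First p.n p.Sw (p.z0 - p.p0) Y t) :
    p.dA' Y = act (p.nu (Y.take t)) (ph p.f (Y.drop t)) := by
  classical
  have hex : ∃ t, First p.n p.Sw (p.z0 - p.p0) Y t := ⟨t, h⟩
  unfold dA'
  rw [dif_pos hex, hex.choose_spec.unique h]

noncomputable def dA (z : List α) : Tok S := p.dA' (z.drop p.p0)

theorem soundA (h : p.Ok) :
    Sound p.Z (aff (ph p.f) p.dA) p.LA p.RA := by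
  have hz := h.hz
  refine ⟨?_, ?_⟩
  · rintro v ⟨h1, -⟩
    have := h.hp
    simp at h1
    omega
  · rintro v τ P Q z x y ⟨hP1, hP2⟩ ⟨q, hE, hE', r, hr, hτ⟩ ⟨t, hzt⟩ e
    have hlen := h.lamlen _ _ hP2
    rw [List.length_drop] at hlen
    obtain ⟨⟨b1, b2, b3⟩, c1, c2, c3⟩ := hE
    have key : E2 p.n p.Sw p.z0 (P ++ Q) (P.length + q) := by
      refine ⟨⟨(WL_right (by omega)).2 b1, by omega, ?_⟩, by rw [List.length_append]; omega,
        ?_, ?_⟩
      · intro s hs hw
        by_contra hge
        push Not at hge
        obtain ⟨s', rfl⟩ : ∃ s', s = P.length + s' := ⟨s - P.length, by omega⟩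
        have hw' := (WL_right (by omega)).1 hw
        have := hE' s' (by omega) hw'
        omega
      · rw [List.length_append]
        exact (WL_right (by omega)).2 c2
      · intro s hs hw
        rw [List.length_append] at hs
        by_cases hs2 : P.length + p.n ≤ s
        · obtain ⟨s', rfl⟩ : ∃ s', s = P.length + s' := ⟨s - P.length, by omega⟩
          have hw' := (WL_right (by omega)).1 hw
          have := c3 s' (by omega) hw'
          omega
        · omega
    have hPQ : P ++ Q = z := key.eq hzt e
    refine ⟨hPQ, ?_⟩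
    subst hPQ
    have hla : p.La ≤ (Q.take q).length := by
      rw [List.length_take]; omega
    have hval := h.snd _ _ _ _ hP2 hr hla
    have hdrop : (P ++ Q).drop p.p0 = P.drop p.p0 ++ Q := by
      rw [List.drop_append_of_le_length hP1]
    have hF : First p.n p.Sw (p.z0 - p.p0) ((P ++ Q).drop p.p0) ((P.drop p.p0).length + q) := by
      rw [hdrop]
      refine ⟨(WL_right (by omega)).2 b1, by omega, ?_⟩
      intro s hs hw
      by_contra hge
      push Not at hge
      rw [List.length_drop] at hs
      obtain ⟨s', rfl⟩ : ∃ s', s = (P.drop p.p0).length + s' :=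
        ⟨s - (P.drop p.p0).length, by rw [List.length_drop]; omega⟩
      rw [List.length_drop] at hge hs
      have hw' := (WL_right (by omega)).1 hw
      have := hE' s' (by omega) hw'
      omega
    have e1 : p.dA (P ++ Q) = act (p.nu (P.drop p.p0 ++ Q.take q)) (ph p.f (Q.drop q)) := by
      unfold dA
      rw [p.dA'_eq hF, hdrop]
      congr 2
      · rw [List.take_append]
        simp
      · rw [List.drop_append]
        have e3 : List.drop ((P.drop p.p0).length + q) (P.drop p.p0) = [] :=
          List.drop_of_length_le (by omega)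
        rw [e3]
        simp
    rw [aff, e1, hτ, hval, act_add, act_mul, act_mul]
    congr 2
    rw [← mul_assoc, ← ph_append, ← ph_append]
    have e4 : List.take p.p0 P ++ (List.drop p.p0 P ++ List.take q Q) ++ List.drop q Q = P ++ Q := by
      rw [← List.append_assoc, List.take_append_drop, List.append_assoc, List.take_append_drop]
    rw [e4]

theorem complA (h : p.Ok) (z : List α) (hz : z ∈ p.Z) (hc : z ∉ p.Zc) (v : Tok S) :
    Cut p.LA p.RA v z := by
  have hz0 := h.hz
  obtain ⟨t, hE⟩ := hz
  have hnb : ¬ p.BadAt 0 z t := fun hb => hc ⟨t, hE, hb⟩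
  unfold BadAt at hnb
  push Not at hnb
  obtain ⟨hband, hbad⟩ := hnb
  obtain ⟨⟨b1, b2, b3⟩, c1, c2, c3⟩ := hE
  have hY : ((z.take t).drop p.p0).length = t - p.p0 := by
    rw [List.length_drop, List.length_take]; omega
  have htb : p.z0 + p.N1 < t := by
    have := hband t le_rfl b1 (by omega)
    omega
  obtain ⟨q, q', hq, hl, hr⟩ := h.cpl ((z.take t).drop p.p0) (by omega) (by
    rw [hY]; simpa using hbad) (act v (ph p.f (z.take p.p0)))
  have hlen := h.lamlen _ _ hl
  have hlq : q.length + q'.length = t - p.p0 := by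
    rw [← hY, ← hq, List.length_append]
  have hzz : z = (z.take p.p0 ++ q) ++ (q' ++ z.drop t) := by
    have e1 : z = z.take t ++ z.drop t := (List.take_append_drop t z).symm
    have e2 : z.take t = (z.take t).take p.p0 ++ (z.take t).drop p.p0 :=
      (List.take_append_drop _ _).symm
    rw [List.take_take, min_eq_left (by omega), ← hq] at e2
    rw [List.append_assoc, ← List.append_assoc q, ← List.append_assoc, ← e2]
    exact e1
  have hlp : (z.take p.p0).length = p.p0 := by rw [List.length_take]; omega
  refine ⟨z.take p.p0 ++ q, q' ++ z.drop t, act ((p.rho q').get hr) (ph p.f (z.drop t)), hzz,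
    ⟨by rw [List.length_append]; omega, ?_⟩, ?_⟩
  · rw [List.drop_append_of_le_length (by omega), List.drop_of_length_le (by omega),
      List.nil_append, List.take_append_of_le_length (by omega), List.take_of_length_le (by omega)]
    exact hl
  · have hPl : (z.take p.p0 ++ q).length = p.p0 + q.length := by
      rw [List.length_append]; omega
    have hQl : (q' ++ z.drop t).length = z.length - p.p0 - q.length := by
      rw [List.length_append, List.length_drop]; omega
    have tr : ∀ s, p.n ≤ s → (WL p.n p.Sw (q' ++ z.drop t) s ↔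
        WL p.n p.Sw z (p.p0 + q.length + s)) := by
      intro s hs
      have := WL_right (n := p.n) (Sw := p.Sw) (u := z.take p.p0 ++ q) (v := q' ++ z.drop t) hs
      rw [← hzz, hPl] at this
      exact this.symm
    refine ⟨q'.length, ⟨⟨?_, by omega, ?_⟩, by rw [hQl]; omega, ?_, ?_⟩, ?_,
      (p.rho q').get hr, ?_, ?_⟩
    · rw [tr _ (by omega)]
      have : p.p0 + q.length + q'.length = t := by omega
      rw [this]; exact b1
    · intro s hs hw
      have hn := hw.1
      have := b3 _ (by omega) ((tr s hn).1 hw)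
      omega
    · rw [tr _ (by rw [hQl]; omega), hQl]
      have : p.p0 + q.length + (z.length - p.p0 - q.length) = z.length := by omega
      rw [this]; exact c2
    · intro s hs hw
      have hn := hw.1
      rw [hQl] at hs
      have := c3 _ (by omega) ((tr s hn).1 hw)
      omega
    · intro s hs hw
      have hn := hw.1
      have hw' := (tr s hn).1 hw
      have h1 := b3 _ (by omega) hw'
      by_contra hge
      push Not at hge
      have := hband _ (by omega) hw' (by omega)
      omega
    · rw [List.take_append_of_le_length le_rfl, List.take_length]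
      exact (Option.some_get hr).symm
    · rw [List.drop_append_of_le_length le_rfl, List.drop_length, List.nil_append]

end Prm

end Crest.Agent.R320.Asm_803
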