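import Crest.Agent.R320.Top_180
import Crest.Agent.R320.FewVal_228
import Crest.Agent.R320.Reg_236
import Crest.Agent.R320.Reg_143

/-!
# Row 320: left-looking walls on all words, height one languages, one-block top (helper834)
-/

set_option autoImplicit false

namespace Crest.Agent.R320.Asm_834

open Crest.RegLang Crest.Agent.R320.Hk_851 Crest.Agent.R320.Half1_180

universe u

variable {α : Type u}

/-- left-looking walls on all words -/
structure Walls (α : Type u) where
  n : ℕ
  Wo : List α → Prop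
  hn : 0 < n
  loc : ∀ P Q : List α, n ≤ Q.length → (Wo (P ++ Q) ↔ Wo Q)
  len : ∀ P, Wo P → n ≤ P.length
  reg : HL 0 (Lg Wo)
  few : ∀ (L : Language α), L.IsRegular → ∀ r,
    (∀ w ∈ L, ∀ t, r ≤ t → t < w.length → ¬ Wo (w.take t)) → HL 1 L

open Crest.Agent.R320.FewWalls_228 in
theorem exists_walls (α : Type u) [Finite α] (W : ℕ) (hW : 1 ≤ W) : ∃ w : Walls α,
    ∀ (X : List α) (t t' : ℕ), t < t' → t' ≤ X.length → w.Wo (X.take t) → w.Wo (X.take t') →
      t + W ≤ t' := by
  classical
  obtain ⟨n, c, P, S, hn, hP, hS, hsep, hper, hfew⟩ :=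
    Crest.Agent.R320.FewVal_228.exists_walls α W hW
  have key : ∀ (X : List α) (t : ℕ), t ≤ X.length →
      ((n ≤ (X.take t).length ∧ (X.take t).drop ((X.take t).length - n) ∈ S) ↔
        n ≤ t ∧ Wl n S X (t - n)) := by
    intro X t ht
    have hl : (X.take t).length = t := by rw [List.length_take]; omega
    rw [hl]
    constructor
    · rintro ⟨h1, h2⟩
      refine ⟨h1, by omega, ?_⟩
      rw [List.drop_take] at h2
      have : t - (t - n) = n := by omega
      rwa [this] at h2
    · rintro ⟨h1, h2, h3⟩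
      refine ⟨h1, ?_⟩
      rw [List.drop_take]
      have : t - (t - n) = n := by omega
      rwa [this]
  refine ⟨⟨n, fun P => n ≤ P.length ∧ P.drop (P.length - n) ∈ S, hn, ?_, fun P h => h.1, ?_, ?_⟩,
    ?_⟩
  · intro P Q hQ
    have e : (P ++ Q).drop ((P ++ Q).length - n) = Q.drop (Q.length - n) := by
      have : (P ++ Q).length - n = P.length + (Q.length - n) := by
        rw [List.length_append]; omega
      rw [this, ← List.drop_drop, List.drop_left]
    show n ≤ (P ++ Q).length ∧ (P ++ Q).drop ((P ++ Q).length - n) ∈ S ↔ _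
    rw [e]
    constructor
    · rintro ⟨_, h⟩; exact ⟨hQ, h⟩
    · rintro ⟨_, h⟩; exact ⟨by rw [List.length_append]; omega, h⟩
  · have hfin : S.Finite := (List.finite_length_le α n).subset fun s hs => by
      show s.length ≤ n
      rw [hS s hs]
    refine (HL.suffix (k := 0) (HL.finite hfin)).congr fun w => ?_
    constructor
    · rintro ⟨_, h⟩
      exact ⟨_, h, List.drop_suffix _ _⟩
    · rintro ⟨v, hv, u, rfl⟩
      have hl := hS v hv
      refine ⟨by rw [List.length_append]; omega, ?_⟩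
      have : (u ++ v).length - n = u.length := by rw [List.length_append]; omega
      rw [this, List.drop_left]
      exact hv
  · intro L hL r hr
    refine (hfew L hL (r + 1)).congr fun w => ⟨fun hw => ⟨hw, ?_⟩, fun h => h.1⟩
    unfold nw
    have hsub : (Finset.range (w.length + 1)).filter (fun x => Wl n S w x) ⊆
        Finset.range r ∪ {w.length - n} := by
      intro x hx
      rw [Finset.mem_filter] at hx
      have h1 := hx.2.1
      rw [Finset.mem_union, Finset.mem_range, Finset.mem_singleton]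
      by_contra hc
      push Not at hc
      refine hr w hw (x + n) (by omega) (by omega) ((key w (x + n) h1).2 ⟨by omega, ?_⟩)
      have : x + n - n = x := by omega
      rw [this]; exact hx.2
    refine (Finset.card_le_card hsub).trans ((Finset.card_union_le _ _).trans ?_)
    rw [Finset.card_range, Finset.card_singleton]
  · intro X t t' htt ht' h1 h2
    obtain ⟨ha, hb⟩ := (key X t (by omega)).1 h1
    obtain ⟨hc, hd⟩ := (key X t' ht').1 h2
    have := hsep X (t - n) (t' - n) (by omega) hb hd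
    omega

/-- first wall at or after `r` is the end -/
def FW (w : Walls α) (r : ℕ) : Set (List α) :=
  {Y | w.Wo Y ∧ r ≤ Y.length ∧ ∀ t, r ≤ t → t < Y.length → ¬ w.Wo (Y.take t)}

theorem FW.eq {w : Walls α} {r : ℕ} {Y Y' Z Z' : List α} (h : Y ∈ FW w r) (h' : Y' ∈ FW w r)
    (e : Y ++ Z = Y' ++ Z') : Y = Y' ∧ Z = Z' := by
  have hl : Y.length = Y'.length := by
    rcases Nat.lt_trichotomy Y.length Y'.length with hc | hc | hc
    · exfalso
      refine h'.2.2 _ h.2.1 hc ?_
      have : Y'.take Y.length = Y := by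
        have h1 := congrArg (List.take Y.length) e
        rw [List.take_left, List.take_append_of_le_length (by omega)] at h1
        exact h1.symm
      rw [this]; exact h.1
    · exact hc
    · exfalso
      refine h.2.2 _ h'.2.1 hc ?_
      have : Y.take Y'.length = Y' := by
        have h1 := congrArg (List.take Y'.length) e
        rw [List.take_left, List.take_append_of_le_length (by omega)] at h1
        exact h1
      rw [this]; exact h'.1
  exact List.append_inj e hl

section HLs

variable [Finite α] (w : Walls α)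

theorem hl_nw (r : ℕ) : HL 0 (Lg fun x => ∀ t, r ≤ t → t < x.length → ¬ w.Wo (x.take t)) := by
  have h1 : HL 0 (Lg fun v => w.Wo v ∧ r ≤ v.length) :=
    (w.reg.inf (HL.length_ge r)).congr fun w => Iff.rfl
  refine ((h1.mul (HL.length_ge 1)).compl).congr fun x => ?_
  constructor
  · intro h h'
    obtain ⟨a, ⟨ha, hr⟩, b, hb, rfl⟩ := Language.mem_mul.1 h'
    have hb' : 1 ≤ b.length := hb
    refine h a.length hr (by rw [List.length_append]; omega) ?_
    rw [List.take_left]; exact ha
  · intro h t h1 h2 h3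
    refine h (Language.mem_mul.2 ⟨x.take t, ⟨h3, ?_⟩, x.drop t, ?_, List.take_append_drop _ _⟩)
    · rw [List.length_take]; omega
    · show 1 ≤ (x.drop t).length
      rw [List.length_drop]; omega

theorem fam0 (r : ℕ) {D : Language α} (hD : D.IsRegular) :
    HL 1 (Lg fun x => (∀ t, r ≤ t → t < x.length → ¬ w.Wo (x.take t)) ∧ x ∈ D) := by
  refine w.few _ (((Crest.Agent.R320.Reg_236.HL.isRegular (hl_nw w r)).inf hD)) r ?_
  intro x hx
  exact hx.1

theorem reg_F {S : Type*} [Monoid S] [Finite S] (f : α → S) (s0 Pm : ℕ) (hPm : 0 < Pm)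
    (F : List α → ℕ → S → Prop) :
    Language.IsRegular (Lg fun x => F (x.take s0) (x.length % Pm) ((x.drop s0).map f).prod) := by
  classical
  have _ : Finite {l : List α // l.length ≤ s0} := (List.finite_length_le α s0).to_subtype
  let step : {l : List α // l.length ≤ s0} × Fin Pm × S → α →
      {l : List α // l.length ≤ s0} × Fin Pm × S := fun q b =>
    (⟨(q.1.1 ++ [b]).take s0, by simp⟩, ⟨(q.2.1.1 + 1) % Pm, Nat.mod_lt _ hPm⟩,
      if q.1.1.length < s0 then q.2.2 else q.2.2 * f b)
  have key : ∀ x : List α, x.foldl step (⟨[], by simp⟩, ⟨0, hPm⟩, 1) =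
      (⟨x.take s0, by simp⟩, ⟨x.length % Pm, Nat.mod_lt _ hPm⟩, ((x.drop s0).map f).prod) := by
    intro x
    induction x using List.reverseRecOn with
    | nil => simp [Nat.zero_mod]
    | append_singleton x a ih =>
      rw [List.foldl_append, ih]
      simp only [List.foldl_cons, List.foldl_nil, step, Prod.mk.injEq, Subtype.mk.injEq,
        Fin.mk.injEq, List.length_append, List.length_singleton]
      refine ⟨Crest.R320.Reg_143.take_take_append _ _ _, ?_, ?_⟩
      · rw [Nat.mod_add_mod]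
      · by_cases hx : x.length < s0
        · rw [if_pos (by rw [List.length_take]; omega), List.drop_eq_nil_of_le (by omega),
            List.drop_eq_nil_of_le (by rw [List.length_append, List.length_singleton]; omega)]
        · rw [if_neg (by rw [List.length_take]; omega),
            List.drop_append_of_le_length (by omega)]
          simp
  have h := Crest.R320.Reg_143.isRegular_fold step (⟨[], by simp⟩, ⟨0, hPm⟩, 1)
    (fun q => F q.1.1 q.2.1.1 q.2.2)
  refine Crest.R320.Reg_143.isRegular_congr h fun x => ?_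
  show F _ _ _ ↔ _
  rw [key]

/-- words of `FW r` with a finite state condition -/
theorem fam {S : Type*} [Monoid S] [Finite S] (f : α → S) (r r' s0 Pm : ℕ) (hPm : 0 < Pm)
    (F : List α → ℕ → S → Prop) :
    HL 1 (Lg fun x => (w.Wo x ∧ r' ≤ x.length ∧ ∀ t, r ≤ t → t < x.length → ¬ w.Wo (x.take t)) ∧
      F (x.take s0) (x.length % Pm) ((x.drop s0).map f).prod) := by
  have h0 : HL 0 (Lg fun v => w.Wo v ∧ r' ≤ v.length) :=
    (w.reg.inf (HL.length_ge r')).congr fun w => Iff.rfl
  have hD := (Crest.Agent.R320.Reg_236.HL.isRegular h0).inf (reg_F f s0 Pm hPm F)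
  refine (fam0 w r hD).congr fun x => ?_
  constructor
  · rintro ⟨⟨h2, h3, h1⟩, h4⟩
    exact ⟨h1, ⟨h2, h3⟩, h4⟩
  · rintro ⟨h1, ⟨h2, h3⟩, h4⟩
    exact ⟨⟨h2, h3, h1⟩, h4⟩

end HLs

/-- **TOP, one block**: everything from a prefix code of blocks, one token system, two schemes. -/
theorem top1 {S V : Type*} [Monoid S] [Finite S] [AddCommGroup V] [Finite V] {k : ℕ}
    (f : α → S) (act : V → S → V)
    (act_zero : ∀ s, act 0 s = 0) (act_one : ∀ v, act v 1 = v)
    (act_mul : ∀ v s s', act (act v s) s' = act v (s * s'))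
    (faithful : ∀ s s', (∀ v, act v s = act v s') → s = s')
    (XX Good Bad : Set (List α)) (h : PF XX) (hXX : XX = Good ∪ Bad)
    (T : List α → V → V)
    (hT : ∀ X ∈ XX, ∀ v v', T X v - T X v' = act (v - v') (X.map f).prod)
    (LP1 RQ1 : V → Language α)
    (hLP1 : ∀ v, HL (k + 1) (LP1 v)) (hRQ1 : ∀ v, HL (k + 1) (RQ1 v))
    (sound1 : ∀ v v' P Q, P ∈ LP1 v → Q ∈ RQ1 v' → P ++ Q ∈ XX ∧ T (P ++ Q) v = v')
    (compl1 : ∀ X ∈ Good, ∀ v, ∃ P Q, X = P ++ Q ∧ P ∈ LP1 v ∧ Q ∈ RQ1 (T X v))
    (hBk : HL k (Lof Bad)) (LP2 RQ2 : V → Language α)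
    (hLP2 : ∀ v, HL k (LP2 v)) (hRQ2 : ∀ v, HL k (RQ2 v)) (hne : ∀ v, [] ∉ LP2 v)
    (sound2 : ∀ Y ∈ Bad, ∀ v v' P Q R R', P ∈ LP2 v → Q ∈ RQ2 v' → P ++ (Q ++ R) = Y ++ R' →
      P ++ Q = Y ∧ T Y v = v')
    (compl2 : ∀ X ∈ Bad, ∀ v, ∃ P Q, X = P ++ Q ∧ P ∈ LP2 v ∧ Q ∈ RQ2 (T X v))
    (htail : ∀ s, HL (k + 2) (Lg (fun E => E ∈ Tail XX ∧ (E.map f).prod = s))) (s : S) :
    HL (k + 2) ({w | (w.map f).prod = s} : Language α) := by
  classical
  have hG : Good ⊆ XX := hXX ▸ Set.subset_union_left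
  have hB : Bad ⊆ XX := hXX ▸ Set.subset_union_right
  have c1 : Cert (k + 1) XX T (Bs Bad) :=
    promise h hB hBk T LP2 RQ2 hLP2 hRQ2 hne sound2 compl2
  have c0 : Cert (k + 2) XX T (Bs (Good ∪ Bad)) :=
    step h hG hB T LP1 RQ1 hLP1 hRQ1 sound1 compl1 c1
  have c := readoff_act h f act act_zero act_one act_mul faithful T hT
    (fun w hw => hXX ▸ hw) c0
  choose L hL1 hL2 hL3 using c
  have hfin : HL (k + 2) (Lg (fun w => ∃ p : S × S, w ∈ (Lg (fun _ => p.1 * p.2 = s)) ⊓
      (L p.1 * Lg (fun E => E ∈ Tail XX ∧ (E.map f).prod = p.2)))) :=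
    HL.iUnion fun p => (HL.const _).inf ((hL1 p.1).mul (htail p.2))
  refine hfin.congr fun w => ?_
  constructor
  · intro hs
    have hs' : (w.map f).prod = s := hs
    obtain ⟨M, E, rfl, hM, hE⟩ := exists_tail h w
    refine ⟨((M.map f).prod, (E.map f).prod), ?_,
      Language.append_mem_mul (hL3 _ M (hXX ▸ hM) rfl) ⟨hE, rfl⟩⟩
    change (M.map f).prod * (E.map f).prod = s
    rw [← hs']; simp
  · rintro ⟨⟨p1, p2⟩, hp, hw'⟩
    obtain ⟨M, hM, E, ⟨_, hE⟩, rfl⟩ := Language.mem_mul.1 hw'
    have e := hL2 _ M hM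
    have hp' : p1 * p2 = s := hp
    change ((M ++ E).map f).prod = s
    rw [List.map_append, List.prod_append, e, hE, hp']

end Crest.Agent.R320.Asm_834
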