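import Crest.Agent.R320.Top5_467
import Crest.Agent.R320.WallU_228
import Crest.Agent.R320.RegBd_11
import Crest.Agent.R320.Exact_808
import Crest.Agent.R320.Reg_819
import Crest.Agent.R320.Zone132b_898

/-! Row 320: assembly over 467's `top5`: left-looking walls, natural chain rule (first wall at a
place `≥ z`), blocks, scheme 1 = gadget on the part right of `p0`, scheme 2 = exact gadget on the
first `p0` letters with a ruler.  Part A: word combinatorics of blocks. -/

set_option autoImplicit false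

namespace Crest.Agent.R320.Asm_85

open Crest.RegLang Crest.Agent.R320.Hk_851 Crest.Agent.R320.Blk467

universe u

variable {α : Type u}

/-- left-looking wall predicate with window `n` -/
structure WD (n : ℕ) (Wo : List α → Prop) : Prop where
  loc : ∀ P Q : List α, n ≤ Q.length → (Wo (P ++ Q) ↔ Wo Q)
  len : ∀ P : List α, Wo P → n ≤ P.length

/-- blocks: end at the first wall at a place `≥ z` -/
def XX (z : ℕ) (Wo : List α → Prop) : Set (List α) :=
  {X | z ≤ X.length ∧ Wo X ∧ ∀ t, z ≤ t → t < X.length → ¬ Wo (X.take t)}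

/-- a wall within `N1` of the threshold -/
def EE (z N1 : ℕ) (Wo : List α → Prop) (X : List α) : Prop :=
  ∃ t, t ≤ X.length ∧ z ≤ t + N1 ∧ t < z + N1 ∧ Wo (X.take t)

theorem pcode {z : ℕ} (hz : 0 < z) (Wo : List α → Prop) : PCode (XX z Wo) := by
  refine ⟨fun h => ?_, ?_⟩
  · have h1 := h.1
    simp at h1
    omega
  · rintro X hX Y hY ⟨R, rfl⟩
    by_contra hne
    have hR : R ≠ [] := by rintro rfl; simp at hne
    have hRl : 0 < R.length := List.length_pos_iff.2 hR
    refine hY.2.2 X.length hX.1 (by rw [List.length_append]; omega) ?_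
    rw [List.take_left]
    exact hX.2.1

theorem take_add (R Q : List α) (j : ℕ) : (R ++ Q).take (R.length + j) = R ++ Q.take j := by
  rw [List.take_append, List.take_of_length_le (by omega), Nat.add_sub_cancel_left]

theorem tr {n : ℕ} {Wo : List α → Prop} (h : WD n Wo) (P P' Q : List α) (j : ℕ) (hj : n ≤ j)
    (hjQ : j ≤ Q.length) :
    Wo ((P ++ Q).take (P.length + j)) ↔ Wo ((P' ++ Q).take (P'.length + j)) := by
  have hl : (Q.take j).length = j := by rw [List.length_take]; omega
  rw [take_add, take_add, h.loc P _ (by omega), h.loc P' _ (by omega)]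

theorem schemeA {n : ℕ} {Wo : List α → Prop} (h : WD n Wo) {z p0 N1 : ℕ} (hz : p0 + N1 + n ≤ z)
    {P P2 q : List α}
    (hP : p0 ≤ P.length) (hP' : P.length ≤ p0 + N1) (hP2 : p0 ≤ P2.length)
    (hP2' : P2.length ≤ p0 + N1)
    (hX : P ++ q ∈ XX z Wo) (hE : ¬ EE z N1 Wo (P ++ q)) :
    z ≤ q.length + p0 ∧ P2 ++ q ∈ XX z Wo := by
  obtain ⟨h1, h2, h3⟩ := hX
  have hlen : z + N1 ≤ (P ++ q).length := by
    by_contra hlt
    exact hE ⟨(P ++ q).length, le_rfl, by omega, by omega, by rwa [List.take_length]⟩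
  rw [List.length_append] at h1 hlen
  have hq : z ≤ q.length + p0 := by omega
  refine ⟨hq, ?_, ?_, ?_⟩
  · rw [List.length_append]; omega
  · have := (h.loc P q (by omega)).1 h2
    exact (h.loc P2 q (by omega)).2 this
  · intro t ht ht' hw
    rw [List.length_append] at ht'
    obtain ⟨j, rfl⟩ : ∃ j, t = P2.length + j := ⟨t - P2.length, by omega⟩
    have hj : n ≤ j := by omega
    have hjq : j < q.length := by omega
    rw [tr h P2 P q j hj hjq.le] at hw
    by_cases hzt : z ≤ P.length + j
    · exact h3 _ hzt (by rw [List.length_append]; omega) hw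
    · exact hE ⟨P.length + j, by rw [List.length_append]; omega, by omega, by omega, hw⟩

theorem sameB {n : ℕ} {Wo : List α → Prop} (h : WD n Wo) {z N1 : ℕ} {P P2 q : List α}
    (hl : P2.length = P.length) (hz : P.length + n + N1 ≤ z) {t : ℕ} (ht : z ≤ t + N1)
    (ht' : t ≤ P.length + q.length) :
    Wo ((P2 ++ q).take t) ↔ Wo ((P ++ q).take t) := by
  obtain ⟨j, rfl⟩ : ∃ j, t = P.length + j := ⟨t - P.length, by omega⟩
  have := tr h P2 P q j (by omega) (by omega)
  rwa [hl] at this

theorem sameXX {n : ℕ} {Wo : List α → Prop} (h : WD n Wo) {z N1 : ℕ} {P P2 q : List α}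
    (hl : P2.length = P.length) (hz : P.length + n + N1 ≤ z) (hX : P ++ q ∈ XX z Wo) :
    P2 ++ q ∈ XX z Wo := by
  obtain ⟨h1, h2, h3⟩ := hX
  rw [List.length_append] at h1
  refine ⟨by rw [List.length_append]; omega, ?_, ?_⟩
  · exact (h.loc P2 q (by omega)).2 ((h.loc P q (by omega)).1 h2)
  · intro t ht ht' hw
    rw [List.length_append] at ht'
    rw [sameB h hl hz (by omega) (by omega)] at hw
    exact h3 t ht (by rw [List.length_append]; omega) hw

theorem sameEE {n : ℕ} {Wo : List α → Prop} (h : WD n Wo) {z N1 : ℕ} {P P2 q : List α}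
    (hl : P2.length = P.length) (hz : P.length + n + N1 ≤ z) (hX : EE z N1 Wo (P ++ q)) :
    EE z N1 Wo (P2 ++ q) := by
  obtain ⟨t, h1, h2, h3, h4⟩ := hX
  rw [List.length_append] at h1
  refine ⟨t, by rw [List.length_append]; omega, h2, h3, ?_⟩
  rwa [sameB h hl hz h2 h1]

/-- the first block of the text seen from another candidate anchor -/
theorem firstBlock {n : ℕ} {Wo : List α → Prop} (h : WD n Wo) {z CM W a b : ℕ}
    (hgap : ∀ (P : List α) (d : ℕ), Wo P → 0 < d → d ≤ W → ¬ Wo (P.take (P.length - d)))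
    {X X' P2 : List α} (hX : X ∈ XX z Wo) (hX' : X' ∈ XX z Wo)
    (ha : a ≤ CM) (hP2 : P2.length = b) (hb : b ≤ CM) (hz : 2 * CM + n + 1 ≤ z) (hW : CM ≤ W) :
    ∃ w, w ≤ (X ++ X').length ∧ Wo ((X ++ X').take w) ∧ z + a ≤ w + b ∧
      a + n ≤ w ∧
      (P2 ++ (X ++ X').drop a).take (w + b - a) ∈ XX z Wo ∧
      (w < z ∨ w = X.length ∨
        (X.length < w ∧ ∀ t, X.length < t → t < w → ¬ Wo ((X ++ X').take t))) := by
  classical
  set Z := X ++ X' with hZ
  have hZl : Z.length = X.length + X'.length := by rw [hZ, List.length_append]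
  have hXl := hX.1
  have hX'l := hX'.1
  have hZs : Z.take a ++ Z.drop a = Z := List.take_append_drop a Z
  have hal : (Z.take a).length = a := by rw [List.length_take]; omega
  have hdl : (Z.drop a).length = Z.length - a := List.length_drop
  -- transfer
  have key : ∀ j, n ≤ j → j ≤ Z.length - a →
      (Wo ((P2 ++ Z.drop a).take (b + j)) ↔ Wo (Z.take (a + j))) := by
    intro j h1 h2
    have := tr h P2 (Z.take a) (Z.drop a) j h1 (by omega)
    rw [hZs, hal, hP2] at this
    exact this
  have hZ'l : (P2 ++ Z.drop a).length = b + (Z.length - a) := by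
    rw [List.length_append, hP2, hdl]
  have hWZ : Wo Z := (h.loc X X' (by omega)).2 hX'.2.1
  have hex : ∃ t, z ≤ t ∧ t ≤ (P2 ++ Z.drop a).length ∧ Wo ((P2 ++ Z.drop a).take t) := by
    refine ⟨b + (Z.length - a), by omega, by omega, ?_⟩
    rw [key _ (by omega) le_rfl]
    have : a + (Z.length - a) = Z.length := by omega
    rw [this, List.take_length]
    exact hWZ
  obtain ⟨h1, h2, h3⟩ := Nat.find_spec hex
  have hmin := fun t (ht : t < Nat.find hex) => Nat.find_min hex ht
  set t1 := Nat.find hex with ht1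
  rw [hZ'l] at h2
  obtain ⟨j, hj⟩ : ∃ j, t1 = b + j := ⟨t1 - b, by omega⟩
  have hjn : n ≤ j := by omega
  refine ⟨a + j, by omega, ?_, by omega, by omega, ?_, ?_⟩
  · rw [← key j hjn (by omega), ← hj]; exact h3
  · have e : a + j + b - a = t1 := by omega
    rw [e]
    have hlen1 : ((P2 ++ Z.drop a).take t1).length = t1 := by
      rw [List.length_take, hZ'l]; omega
    refine ⟨by omega, h3, ?_⟩
    intro t ht ht' hw
    rw [hlen1] at ht'
    rw [List.take_take, min_eq_left ht'.le] at hw
    exact hmin t ht' ⟨ht, by rw [hZ'l]; omega, hw⟩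
  · by_cases hwz : a + j < z
    · exact Or.inl hwz
    right
    have hwt : Wo (Z.take (a + j)) := by rw [← key j hjn (by omega), ← hj]; exact h3
    have hge : X.length ≤ a + j := by
      by_contra hlt
      have hlt' : a + j < X.length := by omega
      refine hX.2.2 (a + j) (by omega) hlt' ?_
      rw [hZ, List.take_append_of_le_length hlt'.le] at hwt
      exact hwt
    rcases hge.eq_or_lt with he | hlt
    · exact Or.inl he.symm
    right
    refine ⟨hlt, ?_⟩
    intro t ht ht' hw
    -- `t` is a wall after `|X|`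
    have hd : W < t - X.length := by
      by_contra hd
      have hl1 : (Z.take t).length = t := by rw [List.length_take]; omega
      refine hgap (Z.take t) (t - X.length) hw (by omega) (by omega) ?_
      have e : (Z.take t).length - (t - X.length) = X.length := by omega
      rw [e, List.take_take, min_eq_left (by omega), hZ, List.take_left]
      exact hX.2.1
    obtain ⟨i, hi⟩ : ∃ i, t = a + i := ⟨t - a, by omega⟩
    refine hmin (b + i) (by omega) ⟨by omega, by rw [hZ'l]; omega, ?_⟩
    rw [key i (by omega) (by omega), ← hi]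
    exact hw

/-- the three possible places of the end of the first block -/
theorem three {Wo : List α → Prop} {z CM W p0 B : ℕ}
    (hgap : ∀ (P : List α) (d : ℕ), Wo P → 0 < d → d ≤ W → ¬ Wo (P.take (P.length - d)))
    {X Z : List α} (hXl : z ≤ X.length) (hW : CM ≤ W) (hB : p0 + B + CM ≤ z) :
    ∃ T0 T2 : ℕ, B ≤ T0 ∧ B ≤ T2 ∧ ∀ w, Wo (Z.take w) → w ≤ Z.length → z ≤ w + CM →
      (w < z ∨ w = X.length ∨
        (X.length < w ∧ ∀ t, X.length < t → t < w → ¬ Wo (Z.take t))) →
      w = T0 + p0 ∨ w = X.length ∨ w = T2 + p0 := by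
  classical
  obtain ⟨w0, hw0, hw0'⟩ : ∃ w0, p0 + B ≤ w0 ∧ ∀ w, Wo (Z.take w) → w ≤ Z.length → z ≤ w + CM →
      w < z → w = w0 := by
    by_cases hex : ∃ w, Wo (Z.take w) ∧ w ≤ Z.length ∧ z ≤ w + CM ∧ w < z
    · obtain ⟨w0, a1, a2, a3, a4⟩ := hex
      refine ⟨w0, by omega, ?_⟩
      have key : ∀ x y, Wo (Z.take x) → x ≤ Z.length → Wo (Z.take y) → z ≤ y + CM → x < z →
          ¬ y < x := by
        intro x y hx hxl hy h1 h2 hlt
        have hl1 : (Z.take x).length = x := by rw [List.length_take]; omega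
        refine hgap (Z.take x) (x - y) hx (by omega) (by omega) ?_
        have e : (Z.take x).length - (x - y) = y := by omega
        rw [e, List.take_take, min_eq_left (by omega)]
        exact hy
      intro w b1 b2 b3 b4
      have c1 := key w w0 b1 b2 a1 a3 b4
      have c2 := key w0 w a1 a2 b1 b3 a4
      omega
    · exact ⟨p0 + B, le_rfl, fun w b1 b2 b3 b4 => absurd ⟨w, b1, b2, b3, b4⟩ hex⟩
  obtain ⟨w1, hw1, hw1'⟩ : ∃ w1, p0 + B ≤ w1 ∧ ∀ w, Wo (Z.take w) → X.length < w →
      (∀ t, X.length < t → t < w → ¬ Wo (Z.take t)) → w = w1 := by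
    by_cases hex : ∃ w, Wo (Z.take w) ∧ X.length < w ∧
        (∀ t, X.length < t → t < w → ¬ Wo (Z.take t))
    · obtain ⟨w1, a1, a2, a3⟩ := hex
      refine ⟨w1, by omega, ?_⟩
      intro w b1 b2 b3
      by_contra hne
      rcases lt_or_gt_of_ne hne with hlt | hlt
      · exact a3 w b2 hlt b1
      · exact b3 w1 a2 hlt a1
    · exact ⟨p0 + B, le_rfl, fun w b1 b2 b3 => absurd ⟨w, b1, b2, b3⟩ hex⟩
  refine ⟨w0 - p0, w1 - p0, by omega, by omega, ?_⟩
  rintro w h1 h2 h3 (h4 | h4 | ⟨h4, h5⟩)
  · left; have := hw0' w h1 h2 h3 h4; omega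
  · right; left; exact h4
  · right; right; have := hw1' w h1 h4 h5; omega

end Crest.Agent.R320.Asm_85
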