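import Crest.Agent.R320.Hk2_851
import Crest.Agent.R320.FewVal_228

/-!
# Row 320: height one of the block languages (helper860)
`E n S w t` : a wall (window in `S`, length `n`) ends at place `t` of `w`.
-/

set_option autoImplicit false

namespace Crest.Agent.R320.Asm_860

open Crest.Agent.R320.Hk_851 Crest.Agent.R320.FewWalls_228 Crest.Agent.R320.FewVal_228

universe u

variable {α : Type u}

/-- a wall ends at place `t` -/
def E (n : ℕ) (S : Set (List α)) (w : List α) (t : ℕ) : Prop :=
  n ≤ t ∧ t ≤ w.length ∧ (w.drop (t - n)).take n ∈ S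

variable {n : ℕ} {S : Set (List α)}

/-- a language from a predicate -/
def LL (p : List α → Prop) : Language α := {w | p w}

theorem E_left {X Y : List α} {t : ℕ} (h : t ≤ X.length) : E n S (X ++ Y) t ↔ E n S X t := by
  unfold E
  constructor
  · rintro ⟨h1, _, h3⟩
    refine ⟨h1, h, ?_⟩
    rwa [List.drop_append_of_le_length (by omega), List.take_append_of_le_length
      (by rw [List.length_drop]; omega)] at h3
  · rintro ⟨h1, _, h3⟩
    refine ⟨h1, by rw [List.length_append]; omega, ?_⟩
    rwa [List.drop_append_of_le_length (by omega), List.take_append_of_le_length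
      (by rw [List.length_drop]; omega)]

theorem E_right {P Q : List α} {s : ℕ} (h : n ≤ s) :
    E n S (P ++ Q) (P.length + s) ↔ E n S Q s := by
  unfold E
  have e : (P ++ Q).drop (P.length + s - n) = Q.drop (s - n) := by
    rw [show P.length + s - n = P.length + (s - n) by omega, List.drop_append]
    simp
  rw [e, List.length_append]
  constructor
  · rintro ⟨_, h2, h3⟩; exact ⟨h, by omega, h3⟩
  · rintro ⟨_, h2, h3⟩; exact ⟨by omega, by omega, h3⟩

theorem E_drop {w : List α} {d s : ℕ} (hd : d ≤ w.length) (h : n ≤ s) :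
    E n S (w.drop d) s ↔ E n S w (d + s) := by
  have := E_right (S := S) (P := w.take d) (Q := w.drop d) h
  rw [List.take_append_drop, List.length_take, Nat.min_eq_left hd] at this
  exact this.symm

theorem E_take {w : List α} {d s : ℕ} (h : s ≤ d) :
    E n S (w.take d) s ↔ E n S w s := by
  by_cases hd : d ≤ w.length
  · have := E_left (S := S) (n := n) (X := w.take d) (Y := w.drop d) (t := s)
      (by rw [List.length_take]; omega)
    rw [List.take_append_drop] at this
    exact this.symm
  · rw [List.take_of_length_le (by omega)]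

theorem E_iff_wl {w : List α} {x : ℕ} : E n S w (x + n) ↔ Wl n S w x := by
  unfold E Wl
  rw [Nat.add_sub_cancel]
  constructor
  · rintro ⟨_, h2, h3⟩; exact ⟨h2, h3⟩
  · rintro ⟨h2, h3⟩; exact ⟨by omega, h2, h3⟩

theorem E_gap {W : ℕ} (hsep : ∀ (w : List α) (x y : ℕ), x < y → Wl n S w x → Wl n S w y →
    x + W ≤ y) {w : List α} {s t : ℕ} (hs : E n S w s) (ht : E n S w t) (h : s < t) :
    s + W ≤ t := by
  have h1 : Wl n S w (s - n) := E_iff_wl.1 (by rwa [Nat.sub_add_cancel hs.1])
  have h2 : Wl n S w (t - n) := E_iff_wl.1 (by rwa [Nat.sub_add_cancel ht.1])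
  have := hsep w _ _ (by have := hs.1; omega) h1 h2
  have := hs.1
  have := ht.1
  omega

/-- no wall in `[b, |w|)` -/
def NoW (n : ℕ) (S : Set (List α)) (b : ℕ) (w : List α) : Prop :=
  ∀ s, b ≤ s → s < w.length → ¬ E n S w s

theorem HL_end [Finite α] (hS : ∀ s ∈ S, s.length = n) (k : ℕ) :
    HL k ({w | E n S w w.length} : Language α) := by
  have hfin : S.Finite := (List.finite_length_eq α n).subset (fun s hs => hS s hs)
  refine (HL.suffix (HL.finite hfin)).congr fun w => ?_
  constructor
  · rintro ⟨h1, _, h3⟩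
    exact ⟨w.drop (w.length - n), by
      rwa [List.take_of_length_le (by rw [List.length_drop]; omega)] at h3,
      List.drop_suffix _ _⟩
  · rintro ⟨v, hv, ⟨x, rfl⟩⟩
    have hl := hS v hv
    refine ⟨by rw [List.length_append]; omega, le_rfl, ?_⟩
    rw [List.length_append, hl, Nat.add_sub_cancel, List.drop_left' rfl,
      List.take_of_length_le hl.le]
    exact hv

theorem HL_noW [Finite α] (hS : ∀ s ∈ S, s.length = n) (b k : ℕ) :
    HL k ({w | NoW n S b w} : Language α) := by
  refine (((HL.setOf_and (HL.length_ge b) (HL_end hS k)).mul (HL.length_ge 1)).compl).congr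
    fun w => ?_
  constructor
  · intro h hm
    obtain ⟨w1, ⟨h1, h2⟩, w2, h3, rfl⟩ := Language.mem_mul.1 hm
    have h3' : 1 ≤ w2.length := h3
    exact h w1.length h1 (by rw [List.length_append]; omega) ((E_left le_rfl).2 h2)
  · intro h s hs hl he
    refine h (Language.mem_mul.2 ⟨w.take s, ⟨?_, ?_⟩, w.drop s, ?_, List.take_append_drop _ _⟩)
    · rw [List.length_take]; omega
    · show E n S (w.take s) (w.take s).length
      have hh : (w.take s).length = s := by rw [List.length_take]; omega
      rw [hh]
      exact (E_take le_rfl).2 he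
    · show 1 ≤ (w.drop s).length
      rw [List.length_drop]; omega

theorem nw_le {w : List α} (b : ℕ) (l : Finset ℕ)
    (h : ∀ s, b ≤ s → E n S w s → s ∈ l) : nw n S w ≤ b + l.card := by
  classical
  unfold nw
  have : ((Finset.range (w.length + 1)).filter (fun x => Wl n S w x)).card ≤
      (Finset.range b ∪ l).card := by
    apply Finset.card_le_card_of_injOn (fun x => x + n)
    · intro x hx
      rw [Finset.mem_coe, Finset.mem_filter] at hx
      rw [Finset.mem_coe, Finset.mem_union, Finset.mem_range]
      by_cases hb : x + n < b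
      · exact Or.inl hb
      · exact Or.inr (h _ (Nat.le_of_not_lt hb) (E_iff_wl.2 hx.2))
    · intro x _ y _ hxy
      simpa using hxy
  have h2 := Finset.card_union_le (Finset.range b) l
  rw [Finset.card_range] at h2
  exact this.trans h2

theorem nw_drop {w : List α} (d : ℕ) (hd : d ≤ w.length) : nw n S (w.drop d) ≤ nw n S w := by
  classical
  unfold nw
  apply Finset.card_le_card_of_injOn (fun x => d + x)
  · intro x hx
    rw [Finset.mem_coe, Finset.mem_filter, Finset.mem_range] at hx
    rw [Finset.mem_coe, Finset.mem_filter, Finset.mem_range]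
    refine ⟨?_, (wl_drop hd).1 hx.2⟩
    have := hx.1
    rw [List.length_drop] at this
    show d + x < w.length + 1
    omega
  · intro x _ y _ hxy
    simpa using hxy

theorem prod_one_len (Mp : ℕ) (x : List α) :
    (x.map (fun _ => Multiplicative.ofAdd (1 : ZMod Mp))).prod =
      Multiplicative.ofAdd (x.length : ZMod Mp) := by
  induction x with
  | nil => simp
  | cons a x ih =>
    rw [List.map_cons, List.prod_cons, ih, List.length_cons, ← ofAdd_add]
    congr 1
    push_cast
    ring

theorem prod_pair {M N : Type*} [Monoid M] [Monoid N] (f : α → M) (g : α → N) (x : List α) :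
    (x.map (fun a => (f a, g a))).prod = ((x.map f).prod, (x.map g).prod) := by
  induction x with
  | nil => rfl
  | cons a x ih => rw [List.map_cons, List.prod_cons, ih]; rfl

/-- local predicates on languages of few walls -/
theorem HL_fun [Finite α] {c P : ℕ} (hn : 0 < n) (hP : 0 < P) (hper : PerOff n c P S)
    {M : Type*} [Monoid M] [Finite M] (φ : α → M) (A Mp : ℕ) (hMp : 0 < Mp)
    {D : Language α} (hD : HL 1 D) (r : ℕ) (hr : ∀ w ∈ D, nw n S w ≤ r) (Pd : List α → Prop)
    (hPd : ∀ w w', A ≤ w.length → A ≤ w'.length → w.take A = w'.take A →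
      w.length % Mp = w'.length % Mp → ((w.drop A).map φ).prod = ((w'.drop A).map φ).prod →
      Pd w → Pd w') : HL 1 ({w | w ∈ D ∧ Pd w} : Language α) := by
  classical
  have : NeZero Mp := ⟨hMp.ne'⟩
  let M' := M × Multiplicative (ZMod Mp)
  let φ' : α → M' := fun a => (φ a, Multiplicative.ofAdd (1 : ZMod Mp))
  have : Finite (Multiplicative (ZMod Mp)) := inferInstanceAs (Finite (ZMod Mp))
  have : Finite M' := inferInstanceAs (Finite (M × Multiplicative (ZMod Mp)))
  have : Finite {U : List α // U.length = A} := (List.finite_length_eq α A).to_subtype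
  let good : {U : List α // U.length = A} × M' → Prop := fun q =>
    ∃ w0 : List α, A ≤ w0.length ∧ w0.take A = q.1.1 ∧ ((w0.drop A).map φ').prod = q.2 ∧ Pd w0
  have h1 : HL 1 ({w : List α | w.length < A ∧ w ∈ D ∧ Pd w} : Language α) :=
    HL.finite ((List.finite_length_lt α A).subset fun w hw => hw.1)
  have h2 : HL 1 ({w : List α | ∃ q : {q : {U : List α // U.length = A} × M' // good q},
      w ∈ ({q.1.1.1} : Language α) * LL (fun x => nw n S x ≤ r ∧ (x.map φ').prod = q.1.2)} :
        Language α) := by
    refine (HL.iUnion (L := fun q : {q : {U : List α // U.length = A} × M' // good q} =>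
      ({q.1.1.1} : Language α) * LL (fun x => nw n S x ≤ r ∧ (x.map φ').prod = q.1.2))
        fun q => (HL.word _).mul (HL_few_value hn hP hper r φ' _)).congr fun w => ?_
    exact Iff.rfl
  refine (h1.sup (hD.inf (h2.inf (HL.length_ge A)))).congr fun w => ?_
  constructor
  · rintro ⟨hw, hp⟩
    by_cases hA : w.length < A
    · exact Or.inl ⟨hA, hw, hp⟩
    · refine Or.inr ⟨hw, ⟨⟨⟨⟨w.take A, by rw [List.length_take]; omega⟩,
        ((w.drop A).map φ').prod⟩, w, by omega, rfl, rfl, hp⟩, ?_⟩, by
          show A ≤ w.length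
          omega⟩
      refine Language.mem_mul.2 ⟨w.take A, rfl, w.drop A, ⟨?_, rfl⟩, List.take_append_drop _ _⟩
      exact (nw_drop A (by omega)).trans (hr w hw)
  · rintro (⟨_, h⟩ | ⟨hw, ⟨⟨⟨⟨U, hU⟩, m⟩, w0, g1, g2, g3, g4⟩, hm⟩, hA⟩)
    · exact h
    · refine ⟨hw, ?_⟩
      obtain ⟨U', hU', x, ⟨_, hx⟩, rfl⟩ := Language.mem_mul.1 hm
      have hU'' : U' = U := hU'
      subst hU''
      have g2' : w0.take A = U' := g2
      have g3' : ((w0.drop A).map φ').prod = m := g3
      have hx' : (x.map φ').prod = m := hx
      have e : ((w0.drop A).map φ').prod = (x.map φ').prod := by rw [g3', hx']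
      rw [show φ' = fun a => (φ a, Multiplicative.ofAdd (1 : ZMod Mp)) from rfl, prod_pair,
        prod_pair, prod_one_len, prod_one_len] at e
      obtain ⟨e1, e2⟩ := Prod.mk.inj e
      have e3 : ((w0.drop A).length : ZMod Mp) = (x.length : ZMod Mp) :=
        Multiplicative.ofAdd.injective e2
      rw [ZMod.natCast_eq_natCast_iff'] at e3
      refine hPd w0 (U' ++ x) g1 (by rw [List.length_append]; omega) ?_ ?_ ?_ g4
      · rw [g2', List.take_left' hU]
      · rw [List.length_append, hU]
        rw [List.length_drop] at e3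
        have : w0.length = A + (w0.length - A) := by omega
        rw [this, Nat.add_mod, e3, ← Nat.add_mod]
      · rw [e1, List.drop_left' hU]

/-- two parts, the second one read with its context -/
theorem HL_two [Finite α] (hS : ∀ s ∈ S, s.length = n) {k : ℕ} {D1 D2 : Language α}
    (h1 : HL k D1) (hE : ∀ w ∈ D1, E n S w w.length) (h2 : HL k D2) :
    HL k ({w | ∃ t, t ≤ w.length ∧ w.take t ∈ D1 ∧ w.drop (t - n) ∈ D2} : Language α) := by
  have hfin : S.Finite := (List.finite_length_eq α n).subset (fun s hs => hS s hs)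
  refine (HL.biUnion hfin (L := fun s : List α => (D1 ⊓ ({w | ∃ v ∈ ({s} : Language α),
    v <:+ w} : Language α)) * LL (fun x => s ++ x ∈ D2)) fun s _ =>
      (h1.inf (HL.suffix (HL.word s))).mul (HL.lquot s h2)).congr fun w => ?_
  constructor
  · rintro ⟨t, ht, ha, hb⟩
    have he := hE _ ha
    have hl : (w.take t).length = t := by rw [List.length_take]; omega
    obtain ⟨e1, e2, e3⟩ := he
    rw [hl] at e1 e3
    have hs : (w.take t).drop (t - n) ∈ S := by
      rwa [List.take_of_length_le (by rw [List.length_drop, hl]; omega)] at e3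
    refine ⟨(w.take t).drop (t - n), hs, ?_⟩
    refine Language.mem_mul.2 ⟨w.take t, ⟨ha, _, rfl, List.drop_suffix _ _⟩, w.drop t, ?_,
      List.take_append_drop _ _⟩
    show (w.take t).drop (t - n) ++ w.drop t ∈ D2
    have : (w.take t).drop (t - n) ++ w.drop t = w.drop (t - n) := by
      conv_rhs => rw [← List.take_append_drop t w]
      rw [List.drop_append_of_le_length (by rw [hl]; omega)]
    rw [this]; exact hb
  · intro h
    obtain ⟨s, hs, h⟩ := h
    obtain ⟨w1, ⟨ha, v, hv, ⟨p, rfl⟩⟩, x, hx, rfl⟩ := Language.mem_mul.1 h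
    have hv' : v = s := hv
    subst hv'
    have hx' : v ++ x ∈ D2 := hx
    have hl := hS v hs
    refine ⟨(p ++ v).length, by rw [List.length_append (as := p ++ v)]; omega, ?_, ?_⟩
    · rw [List.take_left' rfl]; exact ha
    · rw [List.length_append, hl, Nat.add_sub_cancel, List.append_assoc, List.drop_left' rfl]
      exact hx'

/-- the general block language -/
def ZG (n : ℕ) (S : Set (List α)) {M : Type*} [Monoid M] (φ : α → M) (a b : ℕ)
    (Pd : List α → Prop) (h : M) : Language α :=
  {Q | ∃ t, a ≤ t ∧ t < Q.length ∧ E n S Q t ∧ E n S Q Q.length ∧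
    (∀ s, b ≤ s → s < Q.length → E n S Q s → s = t) ∧ Pd (Q.take t) ∧
    ((Q.drop t).map φ).prod = h}

theorem HL_ZG [Finite α] {c P : ℕ} (hn : 0 < n) (hP : 0 < P) (hS : ∀ s ∈ S, s.length = n)
    (hper : PerOff n c P S)
    {M : Type*} [Monoid M] [Finite M] (φ : α → M) (A Mp : ℕ) (hMp : 0 < Mp) (a b : ℕ)
    (hab : b ≤ a) (Pd : List α → Prop)
    (hPd : ∀ w w', A ≤ w.length → A ≤ w'.length → w.take A = w'.take A →
      w.length % Mp = w'.length % Mp → ((w.drop A).map φ).prod = ((w'.drop A).map φ).prod →
      Pd w → Pd w') (h : M) : HL 1 (ZG n S φ a b Pd h) := by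
  have d1 : HL 1 ({w | (a ≤ w.length ∧ E n S w w.length ∧ NoW n S b w) ∧ Pd w} :
      Language α) := by
    refine HL_fun hn hP hper φ A Mp hMp (HL.setOf_and (HL.length_ge a)
      (HL.setOf_and (HL_end hS 1) (HL_noW hS b 1))) (b + 1) ?_ Pd hPd
    rintro w ⟨_, _, hN⟩
    refine (nw_le b {w.length} fun s hs he => ?_).trans (by simp)
    rw [Finset.mem_singleton]
    by_contra hne
    exact hN s hs (lt_of_le_of_ne he.2.1 hne) he
  have d2 : HL 1 ({y | (n + 1 ≤ y.length ∧ E n S y y.length ∧ NoW n S (n + 1) y) ∧
      ((y.drop n).map φ).prod = h} : Language α) := by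
    refine HL_fun hn hP hper φ n 1 Nat.one_pos (HL.setOf_and (HL.length_ge (n + 1))
      (HL.setOf_and (HL_end hS 1) (HL_noW hS (n + 1) 1))) (n + 1 + 1) ?_ _ ?_
    · rintro w ⟨_, _, hN⟩
      refine (nw_le (n + 1) {w.length} fun s hs he => ?_).trans (by simp)
      rw [Finset.mem_singleton]
      by_contra hne
      exact hN s hs (lt_of_le_of_ne he.2.1 hne) he
    · intro w w' _ _ _ _ h5 h6
      rw [← h5]; exact h6
  refine (HL_two hS d1 (fun w hw => hw.1.2.1) d2).congr fun Q => ?_
  constructor
  · rintro ⟨t, h1, h2, h3, h4, h5, h6, h7⟩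
    have hl : (Q.take t).length = t := by rw [List.length_take]; omega
    have hnt := h3.1
    refine ⟨t, h2.le, ⟨⟨?_, ?_, ?_⟩, h6⟩, ⟨?_, ?_, ?_⟩, ?_⟩
    · rw [hl]; exact h1
    · rw [hl]; exact (E_take le_rfl).2 h3
    · intro s hs hs2 he
      rw [hl] at hs2
      have := h5 s hs (by omega) ((E_take (by omega)).1 he)
      omega
    · rw [List.length_drop]; omega
    · rw [E_drop (by omega) (by rw [List.length_drop]; omega), List.length_drop,
        show t - n + (Q.length - (t - n)) = Q.length by omega]
      exact h4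
    · intro s hs hs2 he
      rw [List.length_drop] at hs2
      rw [E_drop (by omega) (by omega)] at he
      have := h5 _ (by omega) (by omega) he
      omega
    · show (((Q.drop (t - n)).drop n).map φ).prod = h
      rw [List.drop_drop, show t - n + n = t by omega]; exact h7
  · rintro ⟨t, h2, ⟨⟨h1, h3, h5⟩, h6⟩, ⟨g1, g2, g3⟩, g4⟩
    have hl : (Q.take t).length = t := by rw [List.length_take]; omega
    rw [hl] at h1 h3
    have hnt := h3.1
    have h3' := (E_take le_rfl).1 h3
    rw [List.length_drop] at g1
    rw [E_drop (by omega) (by rw [List.length_drop]; omega), List.length_drop,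
        show t - n + (Q.length - (t - n)) = Q.length by omega] at g2
    refine ⟨t, h1, by omega, h3', g2, ?_, h6, ?_⟩
    · intro s hs hs2 he
      by_contra hne
      rcases Nat.lt_or_gt_of_ne hne with hlt | hgt
      · exact h5 s hs (by rw [hl]; exact hlt) ((E_take (by omega)).2 he)
      · refine g3 (s - (t - n)) (by omega) (by rw [List.length_drop]; omega) ?_
        rw [E_drop (by omega) (by omega), show t - n + (s - (t - n)) = s by omega]
        exact he
    · have g4' : (((Q.drop (t - n)).drop n).map φ).prod = h := g4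
      rw [List.drop_drop, show t - n + n = t by omega] at g4'
      exact g4'

end Crest.Agent.R320.Asm_860
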