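import Crest.Agent.R320.Main_621

/-!
# Row 320: from an abstract all-words gadget to `Main_621.Data`, part A: definitions (helper957)
-/

set_option autoImplicit false

namespace Crest.Agent.R320.Asm_957

open Crest.Agent.R320.Hk_851 Crest.Agent.R320.Star_621 Crest.Agent.R320.Two_621

/-- walls of a text, left-looking: `W w t` depends on the last `n` letters of `w.take t` -/
structure WR (α : Type) where
  n : ℕ
  G : ℕ
  W : List α → ℕ → Prop
  le : ∀ {w : List α} {t : ℕ}, W w t → n ≤ t ∧ t ≤ w.length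
  left : ∀ (p q : List α) (t : ℕ), t ≤ p.length → (W (p ++ q) t ↔ W p t)
  right : ∀ (p q : List α) (s : ℕ), n ≤ s → (W (p ++ q) (p.length + s) ↔ W q s)
  sep : ∀ {w : List α} {t t' : ℕ}, W w t → W w t' → t < t' → t + G ≤ t'

variable {α : Type} (R : WR α)

/-- first wall at or after `i` -/
def F (w : List α) (i t : ℕ) : Prop := i ≤ t ∧ R.W w t ∧ ∀ s, i ≤ s → s < t → ¬ R.W w s

variable {R}

theorem F.uniq {w : List α} {i t t' : ℕ} (h : F R w i t) (h' : F R w i t') : t = t' := by
  rcases Nat.lt_trichotomy t t' with h1 | h1 | h1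
  · exact absurd h.2.1 (h'.2.2 t h.1 h1)
  · exact h1
  · exact absurd h'.2.1 (h.2.2 t' h'.1 h1)

theorem F.ex {w : List α} {i t : ℕ} (h : R.W w t) (hi : i ≤ t) : ∃ t', t' ≤ t ∧ F R w i t' := by
  classical
  have hex : ∃ s, i ≤ s ∧ R.W w s := ⟨t, hi, h⟩
  refine ⟨Nat.find hex, Nat.find_min' hex ⟨hi, h⟩, (Nat.find_spec hex).1,
    (Nat.find_spec hex).2, ?_⟩
  intro s hs hlt hW
  exact Nat.find_min hex hlt ⟨hs, hW⟩

theorem F.app {p q : List α} {i t : ℕ} (ht : t ≤ p.length) : F R (p ++ q) i t ↔ F R p i t := by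
  constructor
  · rintro ⟨h1, h2, h3⟩
    exact ⟨h1, (R.left p q t ht).1 h2, fun s h4 h5 h6 =>
      h3 s h4 h5 ((R.left p q s (by omega)).2 h6)⟩
  · rintro ⟨h1, h2, h3⟩
    exact ⟨h1, (R.left p q t ht).2 h2, fun s h4 h5 h6 =>
      h3 s h4 h5 ((R.left p q s (by omega)).1 h6)⟩

theorem F.right {p q : List α} {i t : ℕ} (hi : R.n ≤ i) :
    F R (p ++ q) (p.length + i) (p.length + t) ↔ F R q i t := by
  constructor
  · rintro ⟨h1, h2, h3⟩
    exact ⟨by omega, (R.right p q t (by omega)).1 h2, fun s h4 h5 h6 =>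
      h3 (p.length + s) (by omega) (by omega) ((R.right p q s (by omega)).2 h6)⟩
  · rintro ⟨h1, h2, h3⟩
    refine ⟨by omega, (R.right p q t (by omega)).2 h2, fun s h4 h5 h6 => ?_⟩
    obtain ⟨s', rfl⟩ : ∃ s', s = p.length + s' := ⟨s - p.length, by omega⟩
    exact h3 s' (by omega) (by omega) ((R.right p q s' (by omega)).1 h6)

theorem F.drop {w : List α} {m i t : ℕ} (hm : m ≤ w.length) (hi : R.n ≤ i) (h : F R w (m + i) t) :
    m ≤ t ∧ F R (w.drop m) i (t - m) := by
  have h0 := h.1
  refine ⟨by omega, ?_⟩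
  have e : w = w.take m ++ w.drop m := (List.take_append_drop m w).symm
  have hl : (w.take m).length = m := by rw [List.length_take]; omega
  have h' : F R (w.take m ++ w.drop m) ((w.take m).length + i) ((w.take m).length + (t - m)) := by
    rw [← e, hl]
    have : m + (t - m) = t := by omega
    rw [this]; exact h
  exact (F.right hi).1 h'

theorem F.undrop {w : List α} {m i t : ℕ} (hm : m ≤ w.length) (hi : R.n ≤ i)
    (h : F R (w.drop m) i t) : F R w (m + i) (m + t) := by
  have e : w = w.take m ++ w.drop m := (List.take_append_drop m w).symm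
  have hl : (w.take m).length = m := by rw [List.length_take]; omega
  have h' := (F.right (p := w.take m) hi).2 h
  rw [← e, hl] at h'
  exact h'

theorem W.drop {w : List α} {m t : ℕ} (hm : m ≤ w.length) (ht : R.n ≤ t) :
    R.W (w.drop m) t ↔ R.W w (m + t) := by
  have e : w = w.take m ++ w.drop m := (List.take_append_drop m w).symm
  have hl : (w.take m).length = m := by rw [List.length_take]; omega
  have h' := R.right (w.take m) (w.drop m) t ht
  rw [← e, hl] at h'
  exact h'.symm

/-- blocks: two walls at or after `i`, minimal -/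
def ZZ (R : WR α) (i : ℕ) : Language α := {z | ∃ t, F R z i t ∧ t < z.length ∧ F R z (t + 1) z.length}

theorem ZZ.code (i : ℕ) : Code (ZZ R i) := by
  refine ⟨?_, ?_⟩
  · rintro ⟨t, -, h, -⟩
    simp at h
  · rintro z z' x x' ⟨t, h1, h2, h3⟩ ⟨t', h1', h2', h3'⟩ e
    have a1 := (F.app (q := x) (le_of_lt h2)).2 h1
    have a2 := (F.app (q := x') (le_of_lt h2')).2 h1'
    rw [e] at a1
    have e1 := a1.uniq a2
    subst e1
    have b1 := (F.app (q := x) le_rfl).2 h3
    have b2 := (F.app (q := x') le_rfl).2 h3'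
    rw [e] at b1
    have e2 := b1.uniq b2
    exact (List.append_inj e e2).1

open Classical in
/-- position of the first wall at or after `i` -/
noncomputable def acc (R : WR α) (i : ℕ) (Y : List α) : ℕ :=
  if h : ∃ t, F R Y i t then h.choose else 0

theorem acc_eq {i t : ℕ} {Y : List α} (h : F R Y i t) : acc R i Y = t := by
  have hex : ∃ t, F R Y i t := ⟨t, h⟩
  unfold acc
  rw [dif_pos hex]
  exact hex.choose_spec.uniq h

/-- parameters of the two schemes -/
structure Par (α S : Type) [Monoid S] where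
  R : WR α
  ph : List α → S
  hm : ∀ a b, ph (a ++ b) = ph a * ph b
  h1 : ph [] = 1
  p0 : ℕ
  i0 : ℕ
  N1 : ℕ
  K : ℕ
  Tm : ℕ
  c : ℕ → ℕ
  Bad : ℕ → Prop
  lam : List α → Option (Tok S)
  rho : List α → Option (Tok S)
  nu : List α → Tok S
  lamB : ℕ → List α → Option (Tok (Function.End (Option (Tok S)))ᵐᵒᵖ)
  rhoB : ℕ → List α → (Function.End (Option (Tok S)))ᵐᵒᵖ →
    Option (Tok (Function.End (Option (Tok S)))ᵐᵒᵖ)
  nuB : List α → (Function.End (Option (Tok S)))ᵐᵒᵖ → Tok (Function.End (Option (Tok S)))ᵐᵒᵖ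
  hp0 : 0 < p0
  hi0 : N1 + R.n + Tm ≤ i0
  hc0 : ∀ k < K, 0 < c k
  hc1 : ∀ k < K, c k ≤ p0
  hG : 2 * p0 + 2 * N1 + 2 < R.G
  lam_le : ∀ P v, lam P = some v → P.length ≤ N1
  snd : ∀ P Q v r, lam P = some v → rho Q = some r → r = act v (ph (P ++ Q)) + nu (P ++ Q)
  cpl : ∀ u, Tm ≤ u.length → ¬ Bad u.length → ∀ v, ∃ P Q, P ++ Q = u ∧ lam P = some v ∧
    ∃ r, rho Q = some r

variable {S : Type} [Monoid S] (D : Par α S)

/-- accepted wall of a tail -/
noncomputable def dT (Y : List α) : Tok S :=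
  act (D.nu (Y.take (acc D.R D.i0 Y))) (D.ph (Y.drop (acc D.R D.i0 Y)))

noncomputable def dA (z : List α) : Tok S := dT D (z.drop D.p0)

def LA (v : Tok S) : Language α :=
  {P | D.p0 ≤ P.length ∧ P.length ≤ D.p0 + D.N1 ∧
    D.lam (P.drop D.p0) = some (act v (D.ph (P.take D.p0)))}

def RA (τ : Tok S) : Language α :=
  {Q | ∃ t r, D.i0 ≤ t ∧ F D.R Q (D.i0 - D.N1) t ∧ t < Q.length ∧ F D.R Q (t + 1) Q.length ∧
    D.rho (Q.take t) = some r ∧ τ = act r (D.ph (Q.drop t))}

/-- criticality of the block whose anchor lies `c` letters before the text `Q` -/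
def Crit (c : ℕ) (Q : List α) : Prop :=
  ∃ t, F D.R Q (D.p0 + D.i0 - c) t ∧
    ((∃ s, s ≤ t ∧ D.R.W Q s ∧ D.p0 + D.i0 ≤ s + c + D.N1 ∧ s + c ≤ D.p0 + D.i0 + D.N1) ∨
      D.Bad (t + c - D.p0))

def Z : Language α := ZZ D.R (D.p0 + D.i0)

def Zc : Language α := {z | z ∈ Z D ∧ Crit D 0 z}

theorem ra_la {v τ : Tok S} {P Q : List α} (hP : P ∈ LA D v) (hQ : Q ∈ RA D τ) :
    P ++ Q ∈ Z D ∧ τ = act v (D.ph (P ++ Q)) + dA D (P ++ Q) := by
  obtain ⟨hp1, hp2, hp3⟩ := hP
  obtain ⟨t, r, h1, h2, h3, h4, h5, h6⟩ := hQ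
  have hn := D.hi0
  have hle := D.R.le h2.2.1
  -- F of the product
  have hF : F D.R (P ++ Q) (D.p0 + D.i0) (P.length + t) := by
    refine ⟨by omega, (D.R.right P Q t hle.1).2 h2.2.1, ?_⟩
    intro s hs1 hs2 hW
    obtain ⟨s', rfl⟩ : ∃ s', s = P.length + s' := ⟨s - P.length, by omega⟩
    have hs' : D.R.n ≤ s' := by omega
    have hW' := (D.R.right P Q s' hs').1 hW
    exact h2.2.2 s' (by omega) (by omega) hW'
  have hF2 : F D.R (P ++ Q) (P.length + t + 1) (P ++ Q).length := by
    have := (F.right (p := P) (q := Q) (i := t + 1) (t := Q.length) (by omega)).2 h4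
    rw [List.length_append]
    exact this
  refine ⟨⟨P.length + t, hF, by rw [List.length_append]; omega, hF2⟩, ?_⟩
  have hY : (P ++ Q).drop D.p0 = P.drop D.p0 ++ Q := List.drop_append_of_le_length hp1
  have hd := F.drop (w := P ++ Q) (m := D.p0) (i := D.i0) (t := P.length + t)
    (by rw [List.length_append]; omega) (by omega) hF
  have hacc : acc D.R D.i0 ((P ++ Q).drop D.p0) = P.length + t - D.p0 := acc_eq hd.2
  have hlen : P.length + t - D.p0 = (P.drop D.p0).length + t := by
    rw [List.length_drop]; omega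
  have ht : (P.drop D.p0 ++ Q).take ((P.drop D.p0).length + t) = P.drop D.p0 ++ Q.take t :=
    List.take_length_add_append t
  have hdr : (P.drop D.p0 ++ Q).drop ((P.drop D.p0).length + t) = Q.drop t :=
    List.drop_length_add_append t
  unfold dA dT
  rw [hacc, hY, hlen, ht, hdr, h6]
  have hs := D.snd _ _ _ _ hp3 h5
  rw [hs, act_add]
  congr 1
  rw [act_mul, act_mul]
  congr 1
  have e1 : D.ph P = D.ph (P.take D.p0) * D.ph (P.drop D.p0) := by
    rw [← D.hm, List.take_append_drop]
  have e2 : D.ph Q = D.ph (Q.take t) * D.ph (Q.drop t) := by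
    rw [← D.hm, List.take_append_drop]
  rw [D.hm P Q, e1, e2, D.hm]
  simp only [mul_assoc]

theorem soundA : Sound (Z D) (aff D.ph (dA D)) (LA D) (RA D) := by
  refine ⟨?_, ?_⟩
  · rintro ω ⟨h, -, -⟩
    have := D.hp0
    simp at h
    omega
  · intro ω τ P Q z x y hP hQ hz e
    obtain ⟨h1, h2⟩ := ra_la D hP hQ
    have e' := (ZZ.code (R := D.R) (D.p0 + D.i0)).2 _ _ _ _ h1 hz e
    subst e'
    exact ⟨rfl, h2⟩

theorem completeA : ∀ z ∈ Z D, z ∉ Zc D → ∀ v, Cut (LA D) (RA D) v z := by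
  intro z hz hzc v
  have hn := D.hi0
  have hc : ¬ Crit D 0 z := fun h => hzc ⟨hz, h⟩
  obtain ⟨t, h1, h2, h3⟩ := hz
  have h10 := h1.1
  have hE : ∀ s, s ≤ t → D.R.W z s → D.p0 + D.i0 ≤ s + D.N1 → D.p0 + D.i0 + D.N1 < s := by
    intro s hs hW h
    by_contra hcon
    exact hc ⟨t, by simpa using h1, Or.inl ⟨s, hs, hW, by omega, by omega⟩⟩
  have hB : ¬ D.Bad (t - D.p0) := fun h => hc ⟨t, by simpa using h1, Or.inr (by simpa using h)⟩
  have htbig := hE t le_rfl h1.2.1 (by omega)
  have hlu : ((z.take t).drop D.p0).length = t - D.p0 := by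
    rw [List.length_drop, List.length_take]; omega
  obtain ⟨P', Q', e, hl, r, hr⟩ := D.cpl ((z.take t).drop D.p0) (by rw [hlu]; omega)
    (by rw [hlu]; exact hB) (act v (D.ph (z.take D.p0)))
  have hP' := D.lam_le _ _ hl
  have hle : P'.length + Q'.length = t - D.p0 := by
    rw [← hlu, ← e, List.length_append]
  have hzt : z = z.take D.p0 ++ P' ++ (Q' ++ z.drop t) := by
    have e1 : z.take t = z.take D.p0 ++ (P' ++ Q') := by
      rw [e]
      have : z.take D.p0 = (z.take t).take D.p0 := by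
        rw [List.take_take, Nat.min_eq_left (by omega)]
      rw [this, List.take_append_drop]
    calc z = z.take t ++ z.drop t := (List.take_append_drop t z).symm
      _ = _ := by rw [e1]; simp only [List.append_assoc]
  have hlp : (z.take D.p0).length = D.p0 := by rw [List.length_take]; omega
  have hlP : (z.take D.p0 ++ P').length = D.p0 + P'.length := by
    rw [List.length_append, hlp]
  refine ⟨z.take D.p0 ++ P', Q' ++ z.drop t,
    act r (D.ph ((Q' ++ z.drop t).drop Q'.length)), hzt, ⟨by omega, by omega, ?_⟩, ?_⟩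
  · have a1 : (z.take D.p0 ++ P').drop D.p0 = P' := List.drop_left' hlp
    have a2 : (z.take D.p0 ++ P').take D.p0 = z.take D.p0 := List.take_left' hlp
    rw [a1, a2]; exact hl
  · have b1 : (Q' ++ z.drop t).take Q'.length = Q' := List.take_left' rfl
    refine ⟨Q'.length, r, by omega, ?_, ?_, ?_, by rw [b1]; exact hr, rfl⟩
    · have hz' : F D.R (z.take D.p0 ++ P' ++ (Q' ++ z.drop t)) (D.p0 + D.i0) t := by
        rw [← hzt]; exact h1
      refine ⟨by omega, ?_, ?_⟩
      · have := (D.R.right (z.take D.p0 ++ P') (Q' ++ z.drop t) Q'.length (by omega)).1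
        apply this
        rw [hlP]
        have e3 : D.p0 + P'.length + Q'.length = t := by omega
        rw [e3]; exact hz'.2.1
      · intro s hs1 hs2 hW
        have hsn := (D.R.le hW).1
        have hW' := (D.R.right (z.take D.p0 ++ P') (Q' ++ z.drop t) s hsn).2 hW
        rw [← hzt, hlP] at hW'
        have hb := hE _ (by omega) hW' (by omega)
        exact h1.2.2 _ (by omega) (by omega) hW'
    · rw [List.length_append, List.length_drop]; omega
    · have hz' : F D.R (z.take D.p0 ++ P' ++ (Q' ++ z.drop t))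
          ((z.take D.p0 ++ P').length + (Q'.length + 1))
          ((z.take D.p0 ++ P').length + (Q' ++ z.drop t).length) := by
        rw [← hzt, hlP, List.length_append, List.length_drop]
        have e3 : D.p0 + P'.length + (Q'.length + 1) = t + 1 := by omega
        have e4 : D.p0 + P'.length + (Q'.length + (z.length - t)) = z.length := by omega
        rw [e3, e4]; exact h3
      exact (F.right (by omega)).1 hz'

end Crest.Agent.R320.Asm_957
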