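import Crest.Agent.R320.AsmA_415

/-!
# Row 320: two schemes over the block code (helper415)
-/

set_option autoImplicit false

namespace Crest.Agent.R320.Asm_415

open Crest.RegLang Crest.Agent.R320.Hk_851 Crest.Agent.R320.FewWalls_228
  Crest.Agent.R320.CoreHalf_722

/-- pure count of the spoiled names -/
theorem spoil_count {E : ℕ → Prop} {W z p0 N1 La C0 K : ℕ} {c : ℕ → ℕ} {BadT : ℕ → Prop}
    (sep : ∀ e e', E e → E e' → e < e' → e + W ≤ e') (hW : 2 * p0 + 2 * N1 < W)
    (hz : 2 * p0 + N1 + La ≤ z) (hex : ∃ e, z + p0 + N1 ≤ e ∧ E e) (cK : ∀ k < K, c k ≤ p0)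
    (spaced : ∀ i j k l, i < K → j < K → k < K → l < K → i ≠ j → k ≠ l → (i, j) ≠ (k, l) →
      c i + c l + 2 * N1 < c k + c j ∨ c k + c j + 2 * N1 < c i + c l)
    (thin : ∀ T, La ≤ T → ∀ F : Finset (ℕ × ℕ), (∀ ij ∈ F, ij.1 < K ∧ ij.2 < K ∧ ij.1 ≠ ij.2 ∧
      BadT (T + c ij.2 - c ij.1)) → F.card ≤ C0) :
    ∃ Sp : Finset ℕ, Sp.card ≤ 2 * C0 + 1 ∧ ∀ k < K, k ∉ Sp → ∀ j < K, j ≠ k → ∀ m, E m →
      z + c k ≤ m + c j → (∀ e', e' < m → z + c k ≤ e' + c j → ¬ E e') →
      (∀ e, E e → ¬ (z + c k ≤ e + N1 + c j ∧ e + c j < z + N1 + c k)) ∧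
        ¬ BadT (m + c j - c k - p0) := by
  classical
  set y1 := Nat.find hex with hy1
  obtain ⟨y1a, y1b⟩ : z + p0 + N1 ≤ y1 ∧ E y1 := Nat.find_spec hex
  obtain ⟨e0, he0, hu⟩ : ∃ e0, z ≤ e0 + p0 + N1 ∧
      (∀ e, E e → z ≤ e + p0 + N1 → e < z + p0 + N1 → e = e0) := by
    by_cases h0 : ∃ e0, z ≤ e0 + p0 + N1 ∧ e0 < z + p0 + N1 ∧ E e0
    · obtain ⟨e0, h1, h2, h3⟩ := h0
      refine ⟨e0, h1, fun e g1 g2 g3 => ?_⟩
      rcases lt_trichotomy e e0 with h | h | h
      · have := sep e e0 g1 h3 h; omega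
      · exact h
      · have := sep e0 e h3 g1 h; omega
    · exact ⟨y1, by omega, fun e g1 g2 g3 => absurd ⟨e, g2, g3, g1⟩ h0⟩
  let F0 : Finset (ℕ × ℕ) := (Finset.range K ×ˢ Finset.range K).filter (fun ij => ij.1 ≠ ij.2 ∧
    (z + c ij.1 ≤ e0 + N1 + c ij.2 ∧ e0 + c ij.2 < z + N1 + c ij.1))
  let FB : ℕ → Finset (ℕ × ℕ) := fun e => (Finset.range K ×ˢ Finset.range K).filter
    (fun ij => ij.1 ≠ ij.2 ∧ BadT ((e - p0) + c ij.2 - c ij.1))
  have c0 : F0.card ≤ 1 := by
    rw [Finset.card_le_one]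
    rintro ⟨a, b⟩ hab ⟨a', b'⟩ hab'
    simp only [F0, Finset.mem_filter, Finset.mem_product, Finset.mem_range] at hab hab'
    by_contra hne
    obtain ⟨⟨a1, a2⟩, a3, a4, a5⟩ := hab
    obtain ⟨⟨b1, b2⟩, b3, b4, b5⟩ := hab'
    rcases spaced a b a' b' a1 a2 b1 b2 a3 b3 hne with h | h <;> omega
  have cB : ∀ e, p0 + La ≤ e → (FB e).card ≤ C0 := by
    intro e he
    refine thin (e - p0) (by omega) (FB e) fun ij hij => ?_
    simp only [FB, Finset.mem_filter, Finset.mem_product, Finset.mem_range] at hij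
    exact ⟨hij.1.1, hij.1.2, hij.2.1, hij.2.2⟩
  refine ⟨(F0 ∪ FB e0 ∪ FB y1).image Prod.fst, ?_, ?_⟩
  · refine Finset.card_image_le.trans ((Finset.card_union_le _ _).trans ?_)
    have h1 := Finset.card_union_le F0 (FB e0)
    have h2 := cB e0 (by omega)
    have h3 := cB y1 (by omega)
    omega
  · intro k hk hkS j hj hjk m hm1 hm2 hm3
    have ck := cK k hk
    have cj := cK j hj
    have hnot : ∀ e, (e = e0 ∨ e = y1) → ¬ BadT ((e - p0) + c j - c k) := by
      intro e he hb
      apply hkS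
      refine Finset.mem_image.2 ⟨(k, j), ?_, rfl⟩
      rcases he with rfl | rfl
      · refine Finset.mem_union_left _ (Finset.mem_union_right _ ?_)
        simp only [FB, Finset.mem_filter, Finset.mem_product, Finset.mem_range]
        exact ⟨⟨hk, hj⟩, fun h => hjk h.symm, hb⟩
      · refine Finset.mem_union_right _ ?_
        simp only [FB, Finset.mem_filter, Finset.mem_product, Finset.mem_range]
        exact ⟨⟨hk, hj⟩, fun h => hjk h.symm, hb⟩
    constructor
    · rintro e he ⟨h1, h2⟩
      have he0 : e = e0 := hu e he (by omega) (by omega)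
      subst he0
      apply hkS
      refine Finset.mem_image.2 ⟨(k, j), ?_, rfl⟩
      refine Finset.mem_union_left _ (Finset.mem_union_left _ ?_)
      simp only [F0, Finset.mem_filter, Finset.mem_product, Finset.mem_range]
      exact ⟨⟨hk, hj⟩, fun h => hjk h.symm, h1, h2⟩
    · have hmy : m ≤ y1 := by
        by_contra hcon
        push Not at hcon
        exact hm3 y1 hcon (by omega) y1b
      have hme : m = e0 ∨ m = y1 := by
        by_cases h : m < z + p0 + N1
        · exact Or.inl (hu m hm1 (by omega) h)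
        · push Not at h
          have := Nat.find_min' hex ⟨h, hm1⟩
          right; omega
      have := hnot m hme
      rwa [show m + c j - c k - p0 = (m - p0) + c j - c k by omega]

/-- all data -/
structure Ctx (A S V : Type) [Monoid S] [AddCommGroup V] where
  f : A → S
  act : V → S → V
  act_add : ∀ x y s, act (x + y) s = act x s + act y s
  act_mul : ∀ x s t, act x (s * t) = act (act x s) t
  n : ℕ
  z : ℕ
  N1 : ℕ
  p0 : ℕ
  La : ℕ
  Ss : Set (List A)
  BadT : ℕ → Prop
  lam : List A → Option V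
  rho : List A → Option V
  nu1 : List A → V
  nu2 : List A → V
  K : ℕ
  c : ℕ → ℕ
  lam2 : ℕ → List A → Option V
  rho2 : ℕ → List A → Option V
  C0 : ℕ
  W : ℕ
  sep : ∀ w e e', WE n Ss w e → WE n Ss w e' → e < e' → e + W ≤ e'
  hz : 2 * p0 + N1 + n + La + 1 ≤ z
  hW : 2 * p0 + 2 * N1 < W
  cK : ∀ k < K, c k ≤ p0
  spaced : ∀ i j k l, i < K → j < K → k < K → l < K → i ≠ j → k ≠ l → (i, j) ≠ (k, l) →
      c i + c l + 2 * N1 < c k + c j ∨ c k + c j + 2 * N1 < c i + c l
  thin : ∀ T, La ≤ T → ∀ F : Finset (ℕ × ℕ), (∀ ij ∈ F, ij.1 < K ∧ ij.2 < K ∧ ij.1 ≠ ij.2 ∧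
      BadT (T + c ij.2 - c ij.1)) → F.card ≤ C0
  lam_len : ∀ (p : List A) (v : V), lam p = some v → p.length ≤ N1
  sound1 : ∀ (p q : List A) (v r : V), lam p = some v → rho q = some r → La ≤ q.length →
    r = act v ((p ++ q).map f).prod + nu1 (p ++ q)
  compl1 : ∀ u : List A, La ≤ u.length → ¬ BadT u.length → ∀ v, ∃ p q, p ++ q = u ∧
    lam p = some v ∧ (rho q).isSome
  sound2 : ∀ k < K, ∀ (P Q : List A) (v b : V), P.length = c k → lam2 k P = some v → rho2 k Q = some b →
    b = act v ((P ++ Q).map f).prod + nu2 (P ++ Q)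
  compl2 : ∀ (u : List A) (v : V), (∀ k < K, c k ≤ u.length) → ∃ I : Finset ℕ, 2 * C0 + 2 ≤ I.card ∧
    ∀ k ∈ I, k < K ∧ lam2 k (u.take (c k)) = some v ∧ (rho2 k (u.drop (c k))).isSome

namespace Ctx

variable {A S V : Type} [Monoid S] [AddCommGroup V] (C : Ctx A S V)

def ph (w : List A) : S := (w.map C.f).prod

theorem ph_append (u v : List A) : C.ph (u ++ v) = C.ph u * C.ph v := by
  unfold ph; rw [List.map_append, List.prod_append]

def nu (X : List A) : V := C.act (C.nu2 (X.take C.p0)) (C.ph (X.drop C.p0)) + C.nu1 (X.drop C.p0)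

def T : List A → V → V := CoreHalf_722.aff C.act C.ph C.nu

def X : Set (List A) := XX C.n C.Ss C.z

def pB (w : List A) : Prop :=
  (∃ e, C.z ≤ e + C.N1 ∧ e < C.z + C.N1 ∧ WE C.n C.Ss w e) ∨ C.BadT (w.length - C.p0)

def Bd : Set (List A) := {w | w ∈ C.X ∧ C.pB w}

theorem T_eq (w : List A) (v : V) : C.T w v =
    C.act (C.act v (C.ph (w.take C.p0)) + C.nu2 (w.take C.p0)) (C.ph (w.drop C.p0)) +
      C.nu1 (w.drop C.p0) := by
  show C.act v (C.ph w) + C.nu w = _
  unfold nu
  rw [C.act_add, ← C.act_mul, ← C.ph_append, List.take_append_drop, add_assoc]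

def LP1 (v : V) : Language A :=
  {P | C.p0 ≤ P.length ∧ C.lam (P.drop C.p0) = some (C.act v (C.ph (P.take C.p0)) +
    C.nu2 (P.take C.p0))}

def RQ1 (b : V) : Language A := {Q | ∀ v, ∀ P ∈ C.LP1 v, P ++ Q ∈ C.X ∧ C.T (P ++ Q) v = b}

def LP2 (v : V) : Language A := {P | ∃ k < C.K, P.length = C.c k ∧ C.lam2 k P = some v}

def NB : Language A := {U | ∃ Z, (Z ∈ C.X ∧ ¬ C.pB Z) ∧ Z <+: U}

def TT (v b : V) : Language A :=
  {U | ∃ Z ∈ C.Bd, ∃ Z' ∈ C.Bd, U = Z ++ Z' ∧ C.T Z' (C.T Z v) = b}

def RQ2 (b : V) : Language A := {Q | ∀ v, ∀ P ∈ C.LP2 v, P ++ Q ∈ C.NB ∨ P ++ Q ∈ C.TT v b}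

theorem pc : PC C.X := PC_XX (by have := C.hz; omega)

theorem cutL : Top_722.CutL C.X C.Bd C.T C.LP1 C.RQ1 where
  code := C.pc
  bdm := fun X hX => hX.1
  sound := fun P Q x y hP hQ => hQ x P hP
  complete := by
    intro X hX hXB x
    have hz := C.hz
    have hnE : ∀ e, C.z ≤ e + C.N1 → e < C.z + C.N1 → ¬ WE C.n C.Ss X e := fun e h1 h2 h3 =>
      hXB ⟨hX, Or.inl ⟨e, h1, h2, h3⟩⟩
    have hnT : ¬ C.BadT (X.length - C.p0) := fun h => hXB ⟨hX, Or.inr h⟩
    have hl1 : C.z ≤ X.length := hX.1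
    have hl2 : C.z + C.N1 ≤ X.length := by
      by_contra hcon
      exact hnE X.length (by omega) (by omega) hX.2.1
    have hnW : ∀ e, C.z ≤ e + C.N1 → e < X.length → ¬ WE C.n C.Ss X e := by
      intro e h1 h2
      by_cases h3 : e < C.z + C.N1
      · exact hnE e h1 h3
      · exact hX.2.2 e (by omega) h2
    have hd : (X.drop C.p0).length = X.length - C.p0 := List.length_drop
    obtain ⟨p, q, hpq, hp, hq⟩ := C.compl1 (X.drop C.p0) (by omega) (by rw [hd]; exact hnT)
      (C.act x (C.ph (X.take C.p0)) + C.nu2 (X.take C.p0))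
    obtain ⟨r, hr⟩ := Option.isSome_iff_exists.1 hq
    have hpl := C.lam_len _ _ hp
    have hpql : p.length + q.length = X.length - C.p0 := by
      rw [← hd, ← hpq, List.length_append]
    have htl : (X.take C.p0).length = C.p0 := by rw [List.length_take]; omega
    have hXe : X = (X.take C.p0 ++ p) ++ q := by
      rw [List.append_assoc, hpq, List.take_append_drop]
    have hPl : (X.take C.p0 ++ p).length = C.p0 + p.length := by
      rw [List.length_append, htl]
    have hXq : ∀ e', C.n ≤ e' → (WE C.n C.Ss X (C.p0 + p.length + e') ↔ WE C.n C.Ss q e') := by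
      intro e' he'
      have h6 := WE_append_right (Ss := C.Ss) (u := X.take C.p0 ++ p) (v := q) he'
      rw [hPl, ← hXe] at h6
      exact h6
    refine ⟨X.take C.p0 ++ p, q, hXe, ⟨by omega, ?_⟩, ?_⟩
    · rw [List.take_left' htl, List.drop_left' htl]
      exact hp
    · have hTX : C.T X x = r := by
        rw [C.T_eq, ← hpq]
        exact (C.sound1 _ _ _ _ hp hr (by omega)).symm
      rintro v P ⟨hP1, hP2⟩
      have hpl' := C.lam_len _ _ hP2
      rw [List.length_drop] at hpl'
      refine ⟨⟨?_, ?_, ?_⟩, ?_⟩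
      · rw [List.length_append]; omega
      · rw [List.length_append, WE_append_right (by omega)]
        have h7 := hX.2.1
        rw [show X.length = C.p0 + p.length + q.length by omega] at h7
        exact (hXq _ (by omega)).1 h7
      · intro e he1 he2 he3
        rw [List.length_append] at he2
        obtain ⟨e', rfl⟩ : ∃ e', e = P.length + e' := ⟨e - P.length, by omega⟩
        rw [WE_append_right (by omega)] at he3
        exact hnW (C.p0 + p.length + e') (by omega) (by omega) ((hXq _ (by omega)).2 he3)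
      · rw [hTX, C.T_eq]
        have e1 : (P ++ q).take C.p0 = P.take C.p0 := List.take_append_of_le_length hP1
        have e2 : (P ++ q).drop C.p0 = P.drop C.p0 ++ q := List.drop_append_of_le_length hP1
        rw [e1, e2]
        exact (C.sound1 _ _ _ _ hP2 hr (by omega)).symm

theorem nb_not {U : List A} (hU : U ∈ C.NB) (D : List (List A)) (hD : ∀ X ∈ D, X ∈ C.Bd)
    (hp : U <+: D.flatten) : False := by
  obtain ⟨Z, ⟨hZ1, hZ2⟩, hZ3⟩ := hU
  cases D with
  | nil =>
    simp only [List.flatten_nil, List.prefix_nil] at hp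
    subst hp
    rw [List.prefix_nil] at hZ3
    subst hZ3
    exact C.pc.nil hZ1
  | cons Y D =>
    have hY := hD Y List.mem_cons_self
    have h1 : Z <+: Y ++ D.flatten := hZ3.trans (by simpa using hp)
    have h2 : Y <+: Y ++ D.flatten := List.prefix_append _ _
    have h3 : Z = Y := by
      rcases List.prefix_or_prefix_of_prefix h1 h2 with h | h
      · exact C.pc.pre Z hZ1 Y hY.1 h
      · exact (C.pc.pre Y hY.1 Z hZ1 h).symm
    subst h3
    exact hZ2 hY.2

theorem cutP : Top_722.CutP C.X C.Bd C.T C.LP2 C.RQ2 where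
  code := C.pc
  bdm := fun X hX => hX.1
  sound := by
    intro P Q x y hP hQ D hD hp
    rcases hQ x P hP with h | ⟨Z, hZ, Z', hZ', h1, h2⟩
    · exact (C.nb_not h D hD hp).elim
    · refine ⟨[Z, Z'], ?_, ?_, h2⟩
      · intro X hX
        rcases List.mem_cons.1 hX with rfl | hX
        · exact hZ
        · rw [List.mem_singleton] at hX
          subst hX
          exact hZ'
      · rw [h1]; simp
  complete := by
    intro X hX X' hX' x
    have hz := C.hz
    have hl : C.z ≤ X.length := hX.1.1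
    have hl' : C.z ≤ X'.length := hX'.1.1
    have htl : (X.take C.p0).length = C.p0 := by rw [List.length_take]; omega
    obtain ⟨I, hI, hI2⟩ := C.compl2 (X.take C.p0) x (fun k hk => by rw [htl]; exact C.cK k hk)
    have hwU : WE C.n C.Ss (X ++ X') (X.length + X'.length) := by
      rw [WE_append_right (by omega)]; exact hX'.1.2.1
    obtain ⟨Sp, hSp, hSp2⟩ := spoil_count (E := WE C.n C.Ss (X ++ X')) (C.sep _) C.hW
      (La := C.La) (z := C.z) (by omega) ⟨_, by omega, hwU⟩ C.cK C.spaced C.thin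
    obtain ⟨k, hkI, hkS⟩ : ∃ k ∈ I, k ∉ Sp := Finset.exists_mem_notMem_of_card_lt_card (by omega)
    obtain ⟨hkK, hk1, hk2⟩ := hI2 k hkI
    have hck := C.cK k hkK
    obtain ⟨b, hb⟩ := Option.isSome_iff_exists.1 hk2
    have hk1' : C.lam2 k (X.take (C.c k)) = some x := by
      rw [List.take_take, min_eq_left hck] at hk1
      exact hk1
    have hkl : (X.take (C.c k)).length = C.c k := by rw [List.length_take]; omega
    have hQl : (X.drop (C.c k)).length = X.length - C.c k := List.length_drop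
    refine ⟨X.take (C.c k), X.drop (C.c k) ++ X', ?_, ⟨k, hkK, hkl, hk1'⟩, ?_⟩
    · rw [← List.append_assoc, List.take_append_drop]
    rintro v P ⟨j, hjK, hj1, hj2⟩
    have hcj := C.cK j hjK
    by_cases hjk : j = k
    · right
      subst hjk
      have hWE : ∀ e, C.c j + C.n ≤ e → (WE C.n C.Ss (P ++ X.drop (C.c j)) e ↔
          WE C.n C.Ss X e) := by
        intro e he
        obtain ⟨e', rfl⟩ : ∃ e', e = P.length + e' := ⟨e - P.length, by omega⟩
        rw [WE_append_right (by omega)]
        conv_rhs => rw [← List.take_append_drop (C.c j) X]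
        rw [show P.length + e' = (X.take (C.c j)).length + e' by omega,
          WE_append_right (by omega)]
      have hlen : (P ++ X.drop (C.c j)).length = X.length := by
        rw [List.length_append]; omega
      have hmem : P ++ X.drop (C.c j) ∈ C.X := by
        refine ⟨by omega, ?_, ?_⟩
        · rw [hlen, hWE _ (by omega)]; exact hX.1.2.1
        · intro e h1 h2
          rw [hlen] at h2
          rw [hWE _ (by omega)]
          exact hX.1.2.2 e h1 h2
      have hbad : P ++ X.drop (C.c j) ∈ C.Bd := by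
        refine ⟨hmem, ?_⟩
        rcases hX.2 with ⟨e, h1, h2, h3⟩ | h
        · exact Or.inl ⟨e, h1, h2, (hWE _ (by omega)).2 h3⟩
        · right; rw [hlen]; exact h
      refine ⟨_, hbad, X', hX', (List.append_assoc _ _ _).symm, ?_⟩
      congr 1
      rw [C.T_eq, C.T_eq]
      have e1 : (P ++ X.drop (C.c j)).drop C.p0 = X.drop C.p0 := by
        rw [List.drop_append, List.drop_drop, hj1, List.drop_eq_nil_of_le (by omega),
          List.nil_append]
        congr 1; omega
      have e2 : (P ++ X.drop (C.c j)).take C.p0 = P ++ (X.take C.p0).drop (C.c j) := by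
        rw [List.take_append, List.take_of_length_le (by omega), List.drop_take, hj1]
      have e3 : X.take C.p0 = X.take (C.c j) ++ (X.take C.p0).drop (C.c j) := by
        conv_lhs => rw [← List.take_append_drop (C.c j) (X.take C.p0)]
        rw [List.take_take, min_eq_left hck]
      rw [e1, e2]
      have g1 := C.sound2 j hjK P _ v b hj1 hj2 hb
      have g2 := C.sound2 j hjK (X.take (C.c j)) _ x b hkl hk1' hb
      rw [← e3] at g2
      have g3 : C.act v (C.ph (P ++ (X.take C.p0).drop (C.c j))) +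
          C.nu2 (P ++ (X.take C.p0).drop (C.c j)) =
          C.act x (C.ph (X.take C.p0)) + C.nu2 (X.take C.p0) := g1.symm.trans g2
      rw [g3]
    · left
      set Q := X.drop (C.c k) ++ X' with hQ
      have hQlen : Q.length = X.length - C.c k + X'.length := by
        rw [hQ, List.length_append, hQl]
      have hWE : ∀ e', C.n ≤ e' → (WE C.n C.Ss (P ++ Q) (P.length + e') ↔
          WE C.n C.Ss (X ++ X') (C.c k + e')) := by
        intro e' he'
        rw [WE_append_right he']
        have : X ++ X' = X.take (C.c k) ++ Q := by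
          rw [hQ, ← List.append_assoc, List.take_append_drop]
        rw [this]
        have h6 := WE_append_right (Ss := C.Ss) (u := X.take (C.c k)) (v := Q) he'
        rw [hkl] at h6
        exact h6.symm
      have hwe : WE C.n C.Ss (P ++ Q) (P.length + Q.length) := by
        rw [hWE _ (by omega), show C.c k + Q.length = X.length + X'.length by omega]
        exact hwU
      obtain ⟨m, hm1, hm2, hm3, hm4, hm5, hm6⟩ := exists_block (z := C.z) (by omega) hwe
      obtain ⟨m', rfl⟩ : ∃ m', m = P.length + m' := ⟨m - P.length, by omega⟩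
      have key := hSp2 k hkK hkS j hjK hjk (C.c k + m') ((hWE m' (by omega)).1 hm5) (by omega)
        (fun e' h1 h2 h3 => by
          obtain ⟨x', rfl⟩ : ∃ x', e' = C.c k + x' := ⟨e' - C.c k, by omega⟩
          exact hm6 (P.length + x') (by omega) (by omega) ((hWE x' (by omega)).2 h3))
      refine ⟨_, ⟨hm3, ?_⟩, List.take_prefix _ _⟩
      rintro (⟨e, h1, h2, h3⟩ | h)
      · obtain ⟨x', rfl⟩ : ∃ x', e = P.length + x' := ⟨e - P.length, by omega⟩
        have h3l := h3.le
        have h4 : WE C.n C.Ss (P ++ Q) (P.length + x') := by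
          rw [← List.take_append_drop (P.length + m') (P ++ Q)]
          exact (WE_append_left h3l).2 h3
        exact key.1 (C.c k + x') ((hWE x' (by omega)).1 h4) ⟨by omega, by omega⟩
      · rw [hm4] at h
        apply key.2
        rwa [show C.c k + m' + C.c j - C.c k - C.p0 = P.length + m' - C.p0 by omega]

end Ctx

end Crest.Agent.R320.Asm_415
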