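import Crest.Agent.R320.AsmA_439

/-!
# Row 320: all-words assembly for a wall-free zone gadget, part B: scheme 1 (helper439)
-/

set_option autoImplicit false

namespace Crest.Agent.R320.AsmB_439

open Crest.RegLang Crest.Agent.R320.Hk_851 Crest.Agent.R320.FewWalls_228
open Crest.Agent.R320.AsmA_439 Crest.Agent.R320.Star_621 Crest.Agent.R320.Two_621

universe u

variable {α : Type u}

/-- the data -/
structure Dt (α : Type u) (M : Type) [Monoid M] where
  f : α → M
  n : ℕ
  S : Set (List α)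
  z : ℕ
  p0 : ℕ
  N : ℕ
  A : ℕ
  M0 : ℕ
  lam : List α → Option (Tok M)
  nu : List α → Tok M
  hM0 : 0 < M0
  hS : ∀ s ∈ S, s.length = n
  hp0 : 0 < p0
  hz : p0 + N + A + n + 1 ≤ z
  hlam : ∀ P v, lam P = some v → P.length ≤ N
  hfs : ∀ Y Y' : List α, A ≤ Y.length → A ≤ Y'.length → Y.take A = Y'.take A →
    (Y.map f).prod = (Y'.map f).prod → Y.length % M0 = Y'.length % M0 → nu Y = nu Y'
  few : ∀ L : Language α, L.IsRegular → ∀ r,
    HL 1 ({w | w ∈ L ∧ nw n S w ≤ r} : Language α)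

variable {M : Type} [Monoid M] (D : Dt α M)

namespace Dt

def ph (w : List α) : M := (w.map D.f).prod

theorem ph_append (u v : List α) : D.ph (u ++ v) = D.ph u * D.ph v := by
  simp [ph]

def Zs : Language α := Z D.n D.S D.z

def psi : List α → Tok M → Tok M := aff D.ph (fun w => D.nu (w.drop D.p0))

theorem psi_def (w : List α) (v : Tok M) :
    D.psi w v = act v (D.ph w) + D.nu (w.drop D.p0) := rfl

def LA (v : Tok M) : Language α :=
  {P | D.p0 ≤ P.length ∧ D.lam (P.drop D.p0) = some (act v (D.ph (P.take D.p0)))}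

def RA (b : Tok M) : Language α :=
  {Q | ∀ v, ∀ P ∈ D.LA v, P ++ Q ∈ D.Zs ∧ D.psi (P ++ Q) v = b}

theorem codeZ : Code D.Zs := code (by have := D.hz; omega)

theorem LA_len {v : Tok M} {P : List α} (h : P ∈ D.LA v) : P.length ≤ D.p0 + D.N := by
  have h1 := D.hlam _ _ h.2
  have h2 := h.1
  rw [List.length_drop] at h1
  omega

theorem LA_fin [Finite α] (v : Tok M) : (D.LA v : Set (List α)).Finite :=
  (List.finite_length_le α (D.p0 + D.N)).subset fun _ h => D.LA_len h

theorem sound1 : Sound D.Zs D.psi D.LA D.RA := by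
  refine ⟨fun ω h => ?_, ?_⟩
  · have h1 := h.1
    have := D.hp0
    rw [List.length_nil] at h1
    omega
  · intro ω τ P Q z x y hP hQ hz e
    obtain ⟨h1, h2⟩ := hQ ω P hP
    have e1 := D.codeZ.2 _ _ _ _ h1 hz e
    exact ⟨e1, by rw [← h2, e1]⟩

section
variable [Finite α] [Finite M]

theorem HLZ (p : List α → Prop)
    (hp : ∀ w w', w ∈ D.Zs → w' ∈ D.Zs →
      info D.f (D.p0 + D.A) D.M0 w = info D.f (D.p0 + D.A) D.M0 w' → p w → p w') :
    HL 1 ({w | w ∈ D.Zs ∧ p w} : Language α) := by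
  let q : List α × M × ℕ → Prop := fun i =>
    ∃ w0, w0 ∈ D.Zs ∧ info D.f (D.p0 + D.A) D.M0 w0 = i ∧ p w0
  have h1 := D.few ({w | q (info D.f (D.p0 + D.A) D.M0 w)} : Language α)
    (isRegular_info D.f _ _ D.hM0 q) (D.z + 1)
  refine ((HL_Z 1 D.hS D.z).inf h1).congr fun w => ?_
  constructor
  · rintro ⟨hw, hpw⟩
    exact ⟨hw, ⟨w, hw, rfl, hpw⟩, AsmA_439.few hw.2.2⟩
  · rintro ⟨hw, ⟨w0, hw0, e, hpw0⟩, _⟩
    exact ⟨hw, hp _ _ hw0 hw e hpw0⟩

theorem psi_info {w w' : List α} (hw : w ∈ D.Zs) (hw' : w' ∈ D.Zs)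
    (e : info D.f (D.p0 + D.A) D.M0 w = info D.f (D.p0 + D.A) D.M0 w') (v : Tok M) :
    D.psi w v = D.psi w' v := by
  have hl : D.z ≤ w.length := hw.1
  have hl' : D.z ≤ w'.length := hw'.1
  have hz := D.hz
  simp only [info, Prod.mk.injEq] at e
  obtain ⟨e1, e2, e3⟩ := e
  have split : ∀ x : List α, x.drop D.p0 = (x.take (D.p0 + D.A)).drop D.p0 ++
      x.drop (D.p0 + D.A) := by
    intro x
    conv_lhs => rw [← List.take_append_drop (D.p0 + D.A) x]
    rw [List.drop_append]
    congr 1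
    rw [List.length_take, List.drop_drop]
    by_cases h : D.p0 ≤ x.length
    · rw [show D.p0 + D.A + (D.p0 - min (D.p0 + D.A) x.length) = D.p0 + D.A by omega]
    · rw [List.drop_eq_nil_of_le (by omega), List.drop_eq_nil_of_le (by omega)]
  have e4 : ((w.drop D.p0).map D.f).prod = ((w'.drop D.p0).map D.f).prod := by
    rw [split w, split w', List.map_append, List.prod_append, List.map_append,
      List.prod_append, e1, e2]
  have e5 : (w.drop D.p0).take D.A = (w'.drop D.p0).take D.A := by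
    have h1 := congrArg (List.drop D.p0) e1
    rw [List.drop_take, List.drop_take, Nat.add_sub_cancel_left] at h1
    exact h1
  have e6 : (w.drop D.p0).length % D.M0 = (w'.drop D.p0).length % D.M0 := by
    rw [List.length_drop, List.length_drop]
    have h1 : w.length ≡ w'.length [MOD D.M0] := e3
    have h2 : D.p0 + (w.length - D.p0) ≡ D.p0 + (w'.length - D.p0) [MOD D.M0] := by
      rw [show D.p0 + (w.length - D.p0) = w.length by omega,
        show D.p0 + (w'.length - D.p0) = w'.length by omega]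
      exact h1
    exact Nat.ModEq.add_left_cancel' _ h2
  have e7 := D.hfs _ _ (by rw [List.length_drop]; omega) (by rw [List.length_drop]; omega) e5 e4 e6
  rw [psi_def, psi_def, e7]
  congr 2
  unfold ph
  rw [← List.take_append_drop (D.p0 + D.A) w, ← List.take_append_drop (D.p0 + D.A) w',
    List.map_append, List.prod_append, List.map_append, List.prod_append, e1, e2]

theorem HL_val (v b : Tok M) : HL 1 ({w | w ∈ D.Zs ∧ D.psi w v = b} : Language α) :=
  D.HLZ _ fun w w' h h' e hp => by rw [← D.psi_info h h' e v]; exact hp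

theorem HL_LA (v : Tok M) : HL 1 (D.LA v) := HL.finite (D.LA_fin v)

theorem HL_RA (b : Tok M) : HL 1 (D.RA b) := by
  have h := fun v : Tok M =>
    HL.biInter (D.LA_fin v) fun P _ => HL.lquot P (D.HL_val v b)
  refine (HL.iInter h).congr fun w => ?_
  constructor
  · intro hw v P hP
    exact hw v P hP
  · intro hw v P hP
    exact hw v P hP

theorem HL_Cut (v : Tok M) : HL 1 ({w | Cut D.LA D.RA v w} : Language α) := by
  refine (HL.iUnion fun b : Tok M => (D.HL_LA v).mul (D.HL_RA b)).congr fun w => ?_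
  constructor
  · rintro ⟨P, Q, τ, e, hP, hQ⟩
    exact ⟨τ, Language.mem_mul.2 ⟨P, hP, Q, hQ, e.symm⟩⟩
  · intro hw
    obtain ⟨τ, hw⟩ := hw
    obtain ⟨P, hP, Q, hQ, e⟩ := Language.mem_mul.1 hw
    exact ⟨P, Q, τ, e.symm, hP, hQ⟩

end

/-- critical zones -/
def Zc : Language α := {w | w ∈ D.Zs ∧ ∃ v, ¬ Cut D.LA D.RA v w}

theorem Zc_sub : ∀ w ∈ D.Zc, w ∈ D.Zs := fun _ h => h.1

theorem comp1 : ∀ w ∈ D.Zs, w ∉ D.Zc → ∀ v, Cut D.LA D.RA v w := by
  intro w hw hn v
  by_contra hc
  exact hn ⟨hw, v, hc⟩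

noncomputable abbrev st (w : List α) : (Function.End (Option (Tok M)))ᵐᵒᵖ :=
  stepA D.psi D.LA D.RA w

section
variable [Finite α] [Finite M]

theorem HL_Zs : HL 1 D.Zs := HL_Z 1 D.hS D.z

theorem HL_Zc : HL 1 D.Zc := by
  refine (D.HL_Zs.inf (HL.iUnion fun v : Tok M => (D.HL_Cut v).compl)).congr fun w => ?_
  constructor
  · rintro ⟨h, v, hv⟩
    exact ⟨h, v, hv⟩
  · rintro ⟨h, hv⟩
    obtain ⟨v, hv⟩ := hv
    exact ⟨h, v, hv⟩

theorem HL_st (m : (Function.End (Option (Tok M)))ᵐᵒᵖ) :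
    HL 1 ({w | w ∈ D.Zs ∧ D.st w = m} : Language α) := by
  have h1 : ∀ v : Tok M, HL 1 ({w | (Cut D.LA D.RA v w ∧ m.unop (some v : Option (Tok M)) = none) ∨
      (¬ Cut D.LA D.RA v w ∧ ∃ b, (w ∈ D.Zs ∧ D.psi w v = b) ∧
        m.unop (some v : Option (Tok M)) = some b)} : Language α) := by
    intro v
    refine HL.setOf_or (HL.setOf_and (D.HL_Cut v) (HL.const _))
      (HL.setOf_and (HL.setOf_not (D.HL_Cut v)) ?_)
    refine (HL.iUnion fun b : Tok M => HL.setOf_and (D.HL_val v b)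
      (HL.const (m.unop (some v : Option (Tok M)) = some b))).congr fun w => ?_
    constructor
    · rintro ⟨b, h⟩; exact ⟨b, h⟩
    · intro h; obtain ⟨b, h⟩ := h; exact ⟨b, h⟩
  refine ((D.HL_Zs.inf (HL.const (m.unop (none : Option (Tok M)) = none))).inf
    (HL.iInter h1)).congr fun w => ?_
  constructor
  · rintro ⟨hw, rfl⟩
    refine ⟨⟨hw, rfl⟩, fun v => ?_⟩
    by_cases hc : Cut D.LA D.RA v w
    · exact Or.inl ⟨hc, stepA_cut hc⟩
    · exact Or.inr ⟨hc, _, ⟨hw, rfl⟩, stepA_uncut hc⟩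
  · rintro ⟨⟨hw, hn⟩, h⟩
    refine ⟨hw, ?_⟩
    apply MulOpposite.unop_injective
    funext o
    cases o with
    | none => exact Eq.symm hn
    | some v =>
      rcases h v with ⟨hc, he⟩ | ⟨hc, b, ⟨_, rfl⟩, he⟩
      · exact (stepA_cut hc).trans he.symm
      · exact (stepA_uncut hc).trans he.symm

end

/-- the zone map depends on the head only through its value -/
theorem st_dep {X X' Y : List α} (h1 : X.length = D.p0) (h2 : X'.length = D.p0)
    (he : D.ph X = D.ph X') (hY : D.z ≤ D.p0 + Y.length) : D.st (X ++ Y) = D.st (X' ++ Y) := by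
  classical
  have hpsi : ∀ v, D.psi (X ++ Y) v = D.psi (X' ++ Y) v := by
    intro v
    rw [psi_def, psi_def, ph_append, ph_append, he, List.drop_left' h1, List.drop_left' h2]
  have hcut : ∀ X X' : List α, X.length = D.p0 → X'.length = D.p0 → D.ph X = D.ph X' →
      ∀ v, Cut D.LA D.RA v (X ++ Y) → Cut D.LA D.RA v (X' ++ Y) := by
    rintro X X' h1 h2 he v ⟨P, Q, τ, e, hP, hQ⟩
    have hpl : D.p0 ≤ P.length := hP.1
    have eX : P.take D.p0 = X := by
      have := congrArg (List.take D.p0) e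
      rw [List.take_left' h1, List.take_append_of_le_length hpl] at this
      exact this.symm
    have eP : P = X ++ P.drop D.p0 := by
      conv_lhs => rw [← List.take_append_drop D.p0 P, eX]
    have eY : Y = P.drop D.p0 ++ Q := by
      rw [eP, List.append_assoc] at e
      exact List.append_cancel_left e
    refine ⟨X' ++ P.drop D.p0, Q, τ, by rw [List.append_assoc, ← eY], ⟨?_, ?_⟩, hQ⟩
    · rw [List.length_append]; omega
    · rw [List.drop_left' h2, List.take_left' h2, ← he]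
      have := hP.2
      rw [eX] at this
      exact this
  apply MulOpposite.unop_injective
  funext o
  cases o with
  | none => rfl
  | some v =>
    by_cases hc : Cut D.LA D.RA v (X ++ Y)
    · exact (stepA_cut hc).trans (stepA_cut (hcut X X' h1 h2 he v hc)).symm
    · have hc' : ¬ Cut D.LA D.RA v (X' ++ Y) := fun h => hc (hcut X' X h2 h1 he.symm v h)
      refine (stepA_uncut hc).trans (Eq.trans ?_ (stepA_uncut hc').symm)
      rw [hpsi]

end Dt

end Crest.Agent.R320.AsmB_439
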