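import Crest.Agent.R320.AsmA_467
import Crest.Agent.R320.ExactR_237

/-!
# Row 320, assembly, part B: the two schemes on blocks (helper467)
-/

set_option autoImplicit false

namespace Crest.Agent.R320.Asm467

open Crest.RegLang Crest.Agent.R320.Hk_851 Crest.Agent.R320.Blk467
  Crest.Agent.R320.Pump_360 Crest.Agent.R320.CompR_11

variable {α S V : Type} [Monoid S] [AddCommGroup V]

/-- the noise of a block -/
def nuX (f : α → S) (act : V → S → V) (p : ℕ) (nu1 nu2 : List α → V) (X : List α) : V :=
  act (nu2 (X.take p)) ((X.drop p).map f).prod + nu1 (X.drop p)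

/-- the thread map of a block -/
def TT (f : α → S) (act : V → S → V) (p : ℕ) (nu1 nu2 : List α → V) (v : V) (X : List α) : V :=
  act v (X.map f).prod + nuX f act p nu1 nu2 X

theorem T_eq {f : α → S} {act : V → S → V} {p : ℕ} {nu1 nu2 : List α → V}
    (hadd : ∀ a b s, act (a + b) s = act a s + act b s)
    (hmul : ∀ v s t, act v (s * t) = act (act v s) t) (v : V) (X : List α) :
    TT f act p nu1 nu2 v X = act (act v ((X.take p).map f).prod + nu2 (X.take p))
      ((X.drop p).map f).prod + nu1 (X.drop p) := by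
  have e : (X.map f).prod = ((X.take p).map f).prod * ((X.drop p).map f).prod := by
    rw [← List.prod_append, ← List.map_append, List.take_append_drop]
  unfold TT nuX
  rw [e, hmul, hadd, add_assoc]

def LP1 (f : α → S) (act : V → S → V) (p N : ℕ) (nu2 : List α → V) (lam : List α → Option V)
    (v : V) : Language α :=
  {P | p ≤ P.length ∧ P.length < p + N ∧
    lam (P.drop p) = some (act v ((P.take p).map f).prod + nu2 (P.take p))}

def RQ1 (C : Set (List α)) (T : V → List α → V) (L : V → Language α) (b : V) : Language α :=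
  {Q | ∀ x, ∀ P ∈ L x, P ++ Q ∈ C ∧ T x (P ++ Q) = b}

def LP2 (K : ℕ) (c : ℕ → ℕ) (lam2 : ℕ → List α → Option V) (v : V) : Language α :=
  {P | ∃ k < K, P.length = c k ∧ lam2 k P = some v}

def RQ2 (C Bad : Set (List α)) (T : V → List α → V) (L : V → Language α) (b : V) : Language α :=
  {Q | ∀ x, ∀ P ∈ L x, (∃ X ∈ Bad, ∃ X' ∈ Bad, P ++ Q = X ++ X' ∧ T (T x X) X' = b) ∨
    (∃ X ∈ C, X ∉ Bad ∧ X <+: P ++ Q)}

/-- bad blocks -/
def BadS (Wo : List α → Prop) (z N p : ℕ) (BadT : ℕ → Prop) : Set (List α) :=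
  {X | X ∈ XX Wo z ∧ (¬ NotE Wo z N X ∨ BadT (X.length - p))}

theorem c1_aux {f : α → S} {act : V → S → V} {p N n z : ℕ} {nu1 nu2 : List α → V}
    {lam rho : List α → Option V} {BadT : ℕ → Prop} {Wo : List α → Prop}
    (hadd : ∀ a b s, act (a + b) s = act a s + act b s)
    (hmul : ∀ v s t, act v (s * t) = act (act v s) t)
    (hloc : ∀ P Q : List α, n ≤ Q.length → (Wo (P ++ Q) ↔ Wo Q)) (hN : 0 < N)
    (hz : p + N + n ≤ z)
    (hlam : ∀ P v, lam P = some v → P.length < N)
    (hs : ∀ P Q v b, lam P = some v → rho Q = some b →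
      act v ((P ++ Q).map f).prod + nu1 (P ++ Q) = b)
    (hc : ∀ X v, N ≤ X.length → ¬ BadT X.length →
      ∃ P Q b, P ++ Q = X ∧ lam P = some v ∧ rho Q = some b)
    {X : List α} (hX : X ∈ XX Wo z) (hB : X ∉ BadS Wo z N p BadT) (v : V) :
    ∃ P Q, P ++ Q = X ∧ P ∈ LP1 f act p N nu2 lam v ∧
      Q ∈ RQ1 (XX Wo z) (TT f act p nu1 nu2) (LP1 f act p N nu2 lam)
        (TT f act p nu1 nu2 v X) := by
  have hE : NotE Wo z N X := by
    by_contra h
    exact hB ⟨hX, Or.inl h⟩
  have hBT : ¬ BadT (X.length - p) := fun h => hB ⟨hX, Or.inr h⟩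
  have hl := hX.2.1
  have htl : (X.take p).length = p := by rw [List.length_take]; omega
  obtain ⟨P', Q, b, e, h1, h2⟩ := hc (X.drop p)
    (act v ((X.take p).map f).prod + nu2 (X.take p)) (by rw [List.length_drop]; omega)
    (by rw [List.length_drop]; exact hBT)
  have eX : X.take p ++ P' ++ Q = X := by rw [List.append_assoc, e, List.take_append_drop]
  have hlen : (X.take p ++ P').length = p + P'.length := by rw [List.length_append, htl]
  have hP'N := hlam P' _ h1
  have et : (X.take p ++ P').take p = X.take p := List.take_left' htl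
  have ed : (X.take p ++ P').drop p = P' := List.drop_left' htl
  have hval : ∀ x P, p ≤ P.length →
      lam (P.drop p) = some (act x ((P.take p).map f).prod + nu2 (P.take p)) →
      TT f act p nu1 nu2 x (P ++ Q) = b := by
    intro x P hp hl
    rw [T_eq hadd hmul, List.take_append_of_le_length hp, List.drop_append_of_le_length hp]
    exact hs _ _ _ _ hl h2
  have hv : TT f act p nu1 nu2 v X = b := by
    have h3 := hval v (X.take p ++ P') (by omega) (by rw [et, ed]; exact h1)
    rwa [eX] at h3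
  refine ⟨X.take p ++ P', Q, eX, ⟨by omega, by omega, by rw [et, ed]; exact h1⟩, ?_⟩
  rintro x P ⟨g1, g2, g3⟩
  refine ⟨?_, by rw [hval x P g1 g3, hv]⟩
  exact junction (P := X.take p ++ P') (p := p) hloc hN (by rw [eX]; exact hX)
    (by rw [eX]; exact hE) (by omega) (by omega) g1 g2 hz

theorem c2_aux {f : α → S} {act : V → S → V} {p N n z D Wg K C0 : ℕ} {nu1 nu2 : List α → V}
    {BadT : ℕ → Prop} {Wo : List α → Prop} {c : ℕ → ℕ}
    {lam2 rho2 : ℕ → List α → Option V}
    (hadd : ∀ a b s, act (a + b) s = act a s + act b s)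
    (hmul : ∀ v s t, act v (s * t) = act (act v s) t)
    (hloc : ∀ P Q : List α, n ≤ Q.length → (Wo (P ++ Q) ↔ Wo Q))
    (hgap : ∀ (P : List α) (d : ℕ), Wo P → 0 < d → d ≤ Wg → ¬ Wo (P.take (P.length - d)))
    (hcD : ∀ k < K, c k ≤ D) (hDp : D ≤ p) (hWg : 2 * D + 2 * N ≤ Wg)
    (hz : 3 * D + p + N + n ≤ z) (hN : 0 < N)
    (ruler : ∀ i j k l, i < K → j < K → k < K → l < K → i ≠ j → k ≠ l →
      (c i : ℤ) - c j ≤ c k - c l + 2 * N → (c k : ℤ) - c l ≤ c i - c j + 2 * N →
      i = k ∧ j = l)
    (spoil : ∀ T : ℕ, (∀ i < K, c i ≤ T) → ∀ F : Finset (ℕ × ℕ),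
      (∀ q ∈ F, q.1 < K ∧ q.2 < K ∧ q.1 ≠ q.2 ∧ BadT (T + c q.2 - c q.1)) → F.card ≤ C0)
    (hs2 : ∀ k < K, ∀ (P Q : List α) (v b : V), P.length = c k → lam2 k P = some v →
      rho2 k Q = some b → b = act v ((P ++ Q).map f).prod + nu2 (P ++ Q))
    (hc2 : ∀ (u : List α) (v : V), (∀ k < K, c k ≤ u.length) → ∃ I : Finset ℕ,
      2 * C0 + 2 ≤ I.card ∧ ∀ k ∈ I, k < K ∧ lam2 k (u.take (c k)) = some v ∧
        (rho2 k (u.drop (c k))).isSome)
    {X X' : List α} (hX : X ∈ BadS Wo z N p BadT) (hX' : X' ∈ BadS Wo z N p BadT) (v : V) :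
    ∃ P Q, P ++ Q = X ++ X' ∧ P ∈ LP2 K c lam2 v ∧
      Q ∈ RQ2 (XX Wo z) (BadS Wo z N p BadT) (TT f act p nu1 nu2) (LP2 K c lam2)
        (TT f act p nu1 nu2 (TT f act p nu1 nu2 v X) X') := by
  classical
  have hlX := hX.1.2.1
  have hlX' := hX'.1.2.1
  obtain ⟨W, hW⟩ : ∃ W, W = X ++ X' := ⟨_, rfl⟩
  have hWlen : W.length = X.length + X'.length := by rw [hW, List.length_append]
  have hWend : Wo W := by
    rw [hW]
    exact (hloc X X' (by omega)).2 hX'.1.1
  -- gaps of walls of `W`
  have hg : ∀ s t, s < t → t ≤ W.length → Wo (W.take s) → Wo (W.take t) → Wg < t - s := by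
    intro s t hst ht h1 h2
    by_contra hcon
    refine hgap (W.take t) (t - s) h2 (by omega) (by omega) ?_
    have e : (W.take t).take ((W.take t).length - (t - s)) = W.take s := by
      rw [List.take_take, List.length_take]
      congr 1
      omega
    rw [e]
    exact h1
  have hex1 : ∃ t, z - D ≤ t ∧ t ≤ W.length ∧ Wo (W.take t) :=
    ⟨W.length, by omega, le_rfl, by rw [List.take_length]; exact hWend⟩
  obtain ⟨t1, ⟨ht1a, ht1b, ht1c⟩, ht1min⟩ : ∃ t1, (z - D ≤ t1 ∧ t1 ≤ W.length ∧ Wo (W.take t1)) ∧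
      ∀ t, (z - D ≤ t ∧ t ≤ W.length ∧ Wo (W.take t)) → t1 ≤ t :=
    ⟨Nat.find hex1, Nat.find_spec hex1, fun t ht => Nat.find_min' hex1 ht⟩
  have ht1X : t1 ≤ X.length := by
    refine ht1min _ ⟨by omega, by omega, ?_⟩
    rw [hW, List.take_left]
    exact hX.1.1
  have hex2 : ∃ t, t1 < t ∧ t ≤ W.length ∧ Wo (W.take t) :=
    ⟨W.length, by omega, le_rfl, by rw [List.take_length]; exact hWend⟩
  obtain ⟨t2, ⟨ht2a, ht2b, ht2c⟩, ht2min⟩ : ∃ t2, (t1 < t2 ∧ t2 ≤ W.length ∧ Wo (W.take t2)) ∧
      ∀ t, (t1 < t ∧ t ≤ W.length ∧ Wo (W.take t)) → t2 ≤ t :=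
    ⟨Nat.find hex2, Nat.find_spec hex2, fun t ht => Nat.find_min' hex2 ht⟩
  have ht12 := hg t1 t2 ht2a ht2b ht1c ht2c
  -- spoiled pairs
  let FE : Finset (ℕ × ℕ) := (Finset.range K ×ˢ Finset.range K).filter (fun q => q.1 ≠ q.2 ∧
    ∃ s, s ≤ W.length ∧ Wo (W.take s) ∧ s + c q.2 < z + c q.1 + N ∧ z + c q.1 < s + c q.2 + N)
  let F1 : Finset (ℕ × ℕ) := (Finset.range K ×ˢ Finset.range K).filter (fun q => q.1 ≠ q.2 ∧
    BadT (t1 - p + c q.2 - c q.1))
  let F2 : Finset (ℕ × ℕ) := (Finset.range K ×ˢ Finset.range K).filter (fun q => q.1 ≠ q.2 ∧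
    BadT (t2 - p + c q.2 - c q.1))
  have hFE : FE.card ≤ 1 := by
    rw [Finset.card_le_one]
    intro a ha b hb
    obtain ⟨ha1, ha2, s, ha3, ha4, ha5, ha6⟩ := Finset.mem_filter.1 ha
    obtain ⟨hb1, hb2, s', hb3, hb4, hb5, hb6⟩ := Finset.mem_filter.1 hb
    rw [Finset.mem_product, Finset.mem_range, Finset.mem_range] at ha1 hb1
    have e1 := hcD _ ha1.1
    have e2 := hcD _ ha1.2
    have e3 := hcD _ hb1.1
    have e4 := hcD _ hb1.2
    have hss : s = s' := by
      rcases lt_trichotomy s s' with h | h | h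
      · have := hg s s' h hb3 ha4 hb4
        omega
      · exact h
      · have := hg s' s h ha3 hb4 ha4
        omega
    subst hss
    obtain ⟨h1, h2⟩ := ruler a.1 a.2 b.1 b.2 ha1.1 ha1.2 hb1.1 hb1.2 ha2 hb2
      (by omega) (by omega)
    exact Prod.ext h1 h2
  have hF1 : F1.card ≤ C0 := by
    refine spoil (t1 - p) (fun i hi => ?_) F1 fun q hq => ?_
    · have := hcD i hi; omega
    · obtain ⟨h1, h2, h3⟩ := Finset.mem_filter.1 hq
      rw [Finset.mem_product, Finset.mem_range, Finset.mem_range] at h1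
      exact ⟨h1.1, h1.2, h2, h3⟩
  have hF2 : F2.card ≤ C0 := by
    refine spoil (t2 - p) (fun i hi => ?_) F2 fun q hq => ?_
    · have := hcD i hi; omega
    · obtain ⟨h1, h2, h3⟩ := Finset.mem_filter.1 hq
      rw [Finset.mem_product, Finset.mem_range, Finset.mem_range] at h1
      exact ⟨h1.1, h1.2, h2, h3⟩
  obtain ⟨I, hI, hIk⟩ := hc2 (X.take p) v (fun k hk => by
    have := hcD k hk
    rw [List.length_take]; omega)
  obtain ⟨k, hkI, hkgood⟩ : ∃ k ∈ I, ∀ k' < K, k ≠ k' → (k, k') ∉ FE ∧ (k, k') ∉ F1 ∧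
      (k, k') ∉ F2 := by
    by_contra hcon
    have hsub : I ⊆ (FE ∪ F1 ∪ F2).image Prod.fst := by
      intro k hk
      by_contra hk2
      refine hcon ⟨k, hk, fun k' _ _ => ⟨fun h => hk2 ?_, fun h => hk2 ?_, fun h => hk2 ?_⟩⟩
      · exact Finset.mem_image.2 ⟨(k, k'), by simp [h], rfl⟩
      · exact Finset.mem_image.2 ⟨(k, k'), by simp [h], rfl⟩
      · exact Finset.mem_image.2 ⟨(k, k'), by simp [h], rfl⟩
    have h1 := Finset.card_le_card hsub
    have h2 := Finset.card_image_le (s := FE ∪ F1 ∪ F2) (f := Prod.fst)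
    have h3 := Finset.card_union_le (FE ∪ F1) F2
    have h4 := Finset.card_union_le FE F1
    omega
  obtain ⟨hkK, hlam, hrho⟩ := hIk k hkI
  obtain ⟨u, hu⟩ := Option.isSome_iff_exists.1 hrho
  have hck := hcD k hkK
  have ett : (X.take p).take (c k) = X.take (c k) := by
    rw [List.take_take]; congr 1; omega
  rw [ett] at hlam
  have hltk : (X.take (c k)).length = c k := by rw [List.length_take]; omega
  have eW : X.take (c k) ++ (X.drop (c k) ++ X') = W := by
    rw [← List.append_assoc, List.take_append_drop, hW]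
  refine ⟨X.take (c k), X.drop (c k) ++ X', by rw [eW, hW], ⟨k, hkK, hltk, hlam⟩, ?_⟩
  rintro x P2 ⟨k', hk'K, hl2, hlam2⟩
  by_cases hkk : k = k'
  · -- the right candidate
    subst hkk
    left
    have hlen2 : (P2 ++ X.drop (c k)).length = X.length := by
      rw [List.length_append, List.length_drop, hl2]; omega
    have htr : ∀ t, c k + n ≤ t → t ≤ X.length →
        (Wo ((P2 ++ X.drop (c k)).take t) ↔ Wo (X.take t)) := by
      intro t h1 h2
      have := wt2 hloc P2 (X.take (c k)) (X.drop (c k)) t t (by omega) (by omega)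
        (by rw [List.length_drop]; omega)
      rwa [List.take_append_drop] at this
    have hXX2 : P2 ++ X.drop (c k) ∈ XX Wo z := by
      refine ⟨?_, by omega, ?_⟩
      · have := (htr X.length (by omega) le_rfl).2 (by rw [List.take_length]; exact hX.1.1)
        rwa [← hlen2, List.take_length] at this
      · intro t ht hzt hw
        rw [hlen2] at ht
        exact hX.1.2.2 t ht hzt ((htr t (by omega) (by omega)).1 hw)
    refine ⟨P2 ++ X.drop (c k), ⟨hXX2, ?_⟩, X', hX', by rw [List.append_assoc], ?_⟩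
    · rcases hX.2 with h | h
      · left
        intro hne
        apply h
        intro t ht hw
        by_contra hcon
        rw [not_or] at hcon
        rcases hne t (by omega) ((htr t (by omega) ht).2 hw) with h1 | h1
        · exact hcon.1 h1
        · exact hcon.2 h1
      · right
        rw [hlen2]
        exact h
    · have hTX : TT f act p nu1 nu2 x (P2 ++ X.drop (c k)) = TT f act p nu1 nu2 v X := by
        rw [T_eq hadd hmul, T_eq hadd hmul]
        have e1 : (P2 ++ X.drop (c k)).take p = P2 ++ (X.take p).drop (c k) := by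
          rw [List.take_append, List.take_of_length_le (by omega), hl2, List.drop_take]
        have e2 : (P2 ++ X.drop (c k)).drop p = X.drop p := by
          rw [List.drop_append, List.drop_eq_nil_of_le (by omega), List.nil_append,
            List.drop_drop, hl2]
          congr 1
          omega
        have e3 : X.take (c k) ++ (X.take p).drop (c k) = X.take p := by
          rw [← ett, List.take_append_drop]
        have g1 := hs2 k hkK P2 ((X.take p).drop (c k)) x u hl2 hlam2 hu
        have g2 := hs2 k hkK (X.take (c k)) ((X.take p).drop (c k)) v u hltk hlam hu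
        rw [e1, e2, ← g1]
        rw [e3] at g2
        rw [← g2]
      rw [hTX]
  · -- a wrong candidate
    right
    obtain ⟨hkE, hk1, hk2⟩ := hkgood k' hk'K hkk
    have hck' := hcD k' hk'K
    obtain ⟨U, hU⟩ : ∃ U, U = P2 ++ (X.drop (c k) ++ X') := ⟨_, rfl⟩
    rw [← hU]
    have hUlen : U.length + c k = W.length + c k' := by
      rw [hU, List.length_append, List.length_append, List.length_drop, hl2, hWlen]; omega
    have htr : ∀ t t', t + c k = t' + c k' → c k' + n ≤ t → t ≤ U.length →
        (Wo (U.take t) ↔ Wo (W.take t')) := by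
      intro t t' h1 h2 h3
      have := wt2 hloc P2 (X.take (c k)) (X.drop (c k) ++ X') t t' (by omega) (by omega)
        (by rw [List.length_append, List.length_drop]; omega)
      rwa [eW, ← hU] at this
    have hexU : ∃ t, z ≤ t ∧ t ≤ U.length ∧ Wo (U.take t) := by
      refine ⟨U.length, by omega, le_rfl, ?_⟩
      exact (htr U.length W.length (by omega) (by omega) le_rfl).2
        (by rw [List.take_length]; exact hWend)
    obtain ⟨m, ⟨hm1, hm2, hm3⟩, hmmin⟩ : ∃ m, (z ≤ m ∧ m ≤ U.length ∧ Wo (U.take m)) ∧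
        ∀ t, (z ≤ t ∧ t ≤ U.length ∧ Wo (U.take t)) → m ≤ t :=
      ⟨Nat.find hexU, Nat.find_spec hexU, fun t ht => Nat.find_min' hexU ht⟩
    have hml : (U.take m).length = m := by rw [List.length_take]; omega
    have htk : ∀ t, t ≤ m → (U.take m).take t = U.take t := by
      intro t ht
      rw [List.take_take]; congr 1; omega
    refine ⟨U.take m, ⟨hm3, by omega, ?_⟩, ?_, List.take_prefix _ _⟩
    · intro t ht hzt hw
      rw [hml] at ht
      rw [htk t (by omega)] at hw
      have := hmmin t ⟨hzt, by omega, hw⟩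
      omega
    · rintro ⟨_, h | h⟩
      · apply h
        intro s hs hw
        by_contra hcon
        rw [not_or] at hcon
        rw [hml] at hs
        rw [htk s hs] at hw
        have hw' := (htr s (s + c k - c k') (by omega) (by omega) (by omega)).1 hw
        exact hkE (Finset.mem_filter.2 ⟨Finset.mem_product.2 ⟨Finset.mem_range.2 hkK,
          Finset.mem_range.2 hk'K⟩, hkk, s + c k - c k', by omega, hw', by simp only; omega,
          by simp only; omega⟩)
      · rw [hml] at h
        have hwm := (htr m (m + c k - c k') (by omega) (by omega) hm2).1 hm3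
        have hge : t1 ≤ m + c k - c k' := ht1min _ ⟨by omega, by omega, hwm⟩
        by_cases hcase : z + c k ≤ t1 + c k'
        · -- the first wall is `t1`
          have hw1 := (htr (t1 + c k' - c k) t1 (by omega) (by omega) (by omega)).2 ht1c
          have hle := hmmin (t1 + c k' - c k) ⟨by omega, by omega, hw1⟩
          refine hk1 (Finset.mem_filter.2 ⟨Finset.mem_product.2 ⟨Finset.mem_range.2 hkK,
            Finset.mem_range.2 hk'K⟩, hkk, ?_⟩)
          have e : t1 - p + c k' - c k = m - p := by omega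
          simp only
          rw [e]
          exact h
        · -- the first wall is `t2`
          have hlt : t1 < m + c k - c k' := by omega
          have h2le := ht2min _ ⟨hlt, by omega, hwm⟩
          have hw2 := (htr (t2 + c k' - c k) t2 (by omega) (by omega) (by omega)).2 ht2c
          have hle := hmmin (t2 + c k' - c k) ⟨by omega, by omega, hw2⟩
          refine hk2 (Finset.mem_filter.2 ⟨Finset.mem_product.2 ⟨Finset.mem_range.2 hkK,
            Finset.mem_range.2 hk'K⟩, hkk, ?_⟩)
          have e : t2 - p + c k' - c k = m - p := by omega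
          simp only
          rw [e]
          exact h

end Crest.Agent.R320.Asm467
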