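import Mathlib
import Crest.Agent.R320.ExactR_237

/-!
Row 320: SCHEME 2 (the promise scheme) of 132 #12664 / 811 #12631 / 755 #12640 in word form,
abstract in the badness of anchors.  Exact on bad zones, complete on bad zones; the monoid `S`
and the token action `act` are fixed before the ruler, the walls and the chain.
-/

set_option autoImplicit false

namespace Crest.Agent.R320.Zone2_594

open Finset ExactR_237

/-- `IsCand K c BadAt Q k`: the place `k` is the only one whose anchor is bad. -/
def IsCand {A : Type} (K : ℕ) (c : ℕ → ℕ) (BadAt : ℕ → List A → Prop) (Q : List A) (k : ℕ) : Prop :=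
  k < K ∧ BadAt (c k) Q ∧ ∀ k' < K, BadAt (c k') Q → k' = k

/-- the number of spoiled places -/
noncomputable def spoiled {A : Type} (K : ℕ) (c : ℕ → ℕ) (BadAt : ℕ → List A → Prop)
    (U : List A) : Finset ℕ := by
  classical
  exact (range K).filter (fun k => ∃ k' < K, k' ≠ k ∧ BadAt (c k') (U.drop (c k)))

theorem scheme2 (A S V : Type) [Monoid S] [Fintype S] [Fintype V] [AddCommGroup V]
    (f : A → S) (act : V → S → V) (C0 : ℕ) :
    ∃ K : ℕ, ∀ (c : ℕ → ℕ) (p0 : ℕ), (∀ i j, i < j → j < K → c i < c j) →
      (∀ k < K, c k ≤ p0) →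
      ∀ (Bad : List A → Prop) (BadAt : ℕ → List A → Prop) (nx : List A → Option ℕ)
        (nxAt : ℕ → List A → Option ℕ) (y : List A → S),
        (∀ P Q : List A, P.length ≤ p0 → (Bad (P ++ Q) ↔ BadAt P.length Q)) →
        (∀ P Q : List A, P.length ≤ p0 → nx (P ++ Q) = (nxAt P.length Q).map (P.length + ·)) →
        (∀ U : List A, p0 ≤ U.length → Bad U → (nx U).isSome →
          (spoiled K c BadAt U).card ≤ C0) →
        ∃ (LL : List A → Option V) (RR : List A → Option (ℕ × V)) (nu : List A → S → V),
          (∀ (P Q : List A) (v : V) (d : ℕ) (b : V), LL P = some v → RR Q = some (d, b) →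
            Bad (P ++ Q) →
              nx (P ++ Q) = some (P.length + d) ∧
              b = act v (pr f ((P ++ Q).take p0) * y ((P ++ Q).drop p0)) +
                nu ((P ++ Q).take p0) (y ((P ++ Q).drop p0))) ∧
          (∀ (P : List A) (v : V), LL P = some v → ∃ k < K, P.length = c k) ∧
          (∀ (U : List A) (v : V), p0 ≤ U.length → Bad U → (nx U).isSome →
            ∃ k < K, LL (U.take (c k)) = some v ∧ (RR (U.drop (c k))).isSome) ∧
          (∀ Q Q' : List A, (∀ k < K, (BadAt (c k) Q ↔ BadAt (c k) Q')) →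
            (∀ k < K, nxAt (c k) Q = nxAt (c k) Q') → Q.take p0 = Q'.take p0 →
            (∀ k < K, y (Q.drop (p0 - c k)) = y (Q'.drop (p0 - c k))) → RR Q = RR Q') := by
  classical
  obtain ⟨K, hK⟩ := exact_gadget A S V f act (C0 + 1)
  refine ⟨K, fun c p0 hc hcp Bad BadAt nx nxAt y hB hN hsp => ?_⟩
  obtain ⟨lam, rho, nu, hex, hco⟩ := hK c hc
  -- injectivity of the places
  have hinj : ∀ i j, i < K → j < K → c i = c j → i = j := by
    intro i j hi hj h
    rcases lt_trichotomy i j with h1 | h1 | h1
    · exact absurd h (ne_of_lt (hc i j h1 hj))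
    · exact h1
    · exact absurd h (ne_of_gt (hc j i h1 hi))
  let LL : List A → Option V := fun P =>
    if h : ∃ k, k < K ∧ P.length = c k then lam h.choose P else none
  have hLL : ∀ (P : List A) (v : V), LL P = some v ↔ ∃ k, k < K ∧ P.length = c k ∧
      lam k P = some v := by
    intro P v
    constructor
    · intro h
      by_cases hk : ∃ k, k < K ∧ P.length = c k
      · simp only [LL, dif_pos hk] at h
        exact ⟨hk.choose, hk.choose_spec.1, hk.choose_spec.2, h⟩
      · simp only [LL, dif_neg hk] at h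
        exact absurd h (by simp)
    · rintro ⟨k, hk, hPk, hl⟩
      have hk' : ∃ k, k < K ∧ P.length = c k := ⟨k, hk, hPk⟩
      have : hk'.choose = k :=
        hinj _ _ hk'.choose_spec.1 hk (hk'.choose_spec.2.symm.trans hPk)
      simp only [LL, dif_pos hk', this, hl]
  let RR : List A → Option (ℕ × V) := fun Q =>
    if h : ∃ k, IsCand K c BadAt Q k then
      (nxAt (c h.choose) Q).bind (fun d =>
        (rho h.choose (Q.take (p0 - c h.choose)) (y (Q.drop (p0 - c h.choose)))).map
          (fun b => (d, b)))
    else none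
  have hRR : ∀ (Q : List A) (k d : ℕ) (b : V), IsCand K c BadAt Q k →
      (RR Q = some (d, b) ↔ nxAt (c k) Q = some d ∧
        rho k (Q.take (p0 - c k)) (y (Q.drop (p0 - c k))) = some b) := by
    intro Q k d b hk
    have hk' : ∃ k, IsCand K c BadAt Q k := ⟨k, hk⟩
    have hkk : hk'.choose = k := hk.2.2 _ hk'.choose_spec.1 hk'.choose_spec.2.1
    simp only [RR, dif_pos hk', hkk]
    rcases nxAt (c k) Q with _ | d'
    · simp
    · rcases rho k (Q.take (p0 - c k)) (y (Q.drop (p0 - c k))) with _ | b'
      · simp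
      · simp
  have hRRnone : ∀ (Q : List A), (¬ ∃ k, IsCand K c BadAt Q k) → RR Q = none := by
    intro Q h
    simp only [RR, dif_neg h]
  refine ⟨LL, RR, nu, ?_, ?_, ?_, ?_⟩
  · -- exactness on bad zones
    intro P Q v d b hP hQ hbad
    obtain ⟨k, hk, hPk, hl⟩ := (hLL P v).1 hP
    have hPp : P.length ≤ p0 := hPk ▸ hcp k hk
    have hbk : BadAt (c k) Q := hPk ▸ (hB P Q hPp).1 hbad
    have hcand : ∃ k, IsCand K c BadAt Q k := by
      by_contra h
      rw [hRRnone Q h] at hQ
      exact absurd hQ (by simp)
    obtain ⟨k', hk'⟩ := hcand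
    have hkk : k = k' := hk'.2.2 k hk hbk
    subst hkk
    obtain ⟨h1, h2⟩ := (hRR Q k d b hk').1 hQ
    have htake : (P ++ Q).take p0 = P ++ Q.take (p0 - c k) := by
      rw [List.take_append, List.take_of_length_le hPp, hPk]
    have hdrop : (P ++ Q).drop p0 = Q.drop (p0 - c k) := by
      rw [List.drop_append, List.drop_eq_nil_of_le hPp, hPk, List.nil_append]
    refine ⟨?_, ?_⟩
    · rw [hN P Q hPp, hPk, h1]
      rfl
    · rw [htake, hdrop]
      exact hex k hk P (Q.take (p0 - c k)) _ v b hPk hl h2
  · intro P v hP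
    obtain ⟨k, hk, hPk, -⟩ := (hLL P v).1 hP
    exact ⟨k, hk, hPk⟩
  · -- completeness on bad zones
    intro U v hU hbad hnx
    have hlen : ∀ k < K, c k ≤ (U.take p0).length := by
      intro k hk
      rw [List.length_take, min_eq_left hU]
      exact hcp k hk
    obtain ⟨I, hI, hIk⟩ := hco (U.take p0) (y (U.drop p0)) v hlen
    have : ∃ k ∈ I, k ∉ spoiled K c BadAt U := by
      by_contra h
      push Not at h
      have h2 : I.card ≤ (spoiled K c BadAt U).card := Finset.card_le_card h
      have h3 := hsp U hU hbad hnx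
      omega
    obtain ⟨k, hkI, hks⟩ := this
    obtain ⟨hk, hl, hr⟩ := hIk k hkI
    have hkp := hcp k hk
    have hPlen : (U.take (c k)).length = c k := by
      rw [List.length_take]; omega
    have hUeq : U.take (c k) ++ U.drop (c k) = U := List.take_append_drop _ _
    have hbk : BadAt (c k) (U.drop (c k)) := by
      have := (hB (U.take (c k)) (U.drop (c k)) (by rw [hPlen]; exact hkp)).1 (by rwa [hUeq])
      rwa [hPlen] at this
    have hcand : IsCand K c BadAt (U.drop (c k)) k := by
      refine ⟨hk, hbk, ?_⟩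
      intro k' hk' hb'
      by_contra hne
      apply hks
      unfold spoiled
      rw [Finset.mem_filter]
      exact ⟨Finset.mem_range.2 hk, k', hk', hne, hb'⟩
    have hnx' : ∃ d, nxAt (c k) (U.drop (c k)) = some d := by
      have h1 := hN (U.take (c k)) (U.drop (c k)) (by rw [hPlen]; exact hkp)
      rw [hUeq, hPlen] at h1
      rw [h1] at hnx
      rcases h2 : nxAt (c k) (U.drop (c k)) with _ | d
      · rw [h2] at hnx; simp at hnx
      · exact ⟨d, rfl⟩
    obtain ⟨d, hd⟩ := hnx'
    obtain ⟨b, hb⟩ := Option.isSome_iff_exists.1 hr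
    refine ⟨k, hk, ?_, ?_⟩
    · rw [hLL]
      refine ⟨k, hk, hPlen, ?_⟩
      have : (U.take p0).take (c k) = U.take (c k) := by
        rw [List.take_take, min_eq_left hkp]
      rw [← this]
      exact hl
    · have h4 : RR (U.drop (c k)) = some (d, b) := by
        rw [hRR _ k d b hcand]
        refine ⟨hd, ?_⟩
        have e1 : (U.drop (c k)).take (p0 - c k) = (U.take p0).drop (c k) := by
          rw [List.drop_take]
        have e2 : (U.drop (c k)).drop (p0 - c k) = U.drop p0 := by
          rw [List.drop_drop]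
          congr 1
          omega
        rw [e1, e2]
        exact hb
      rw [h4]
      rfl
  · -- locality of the right reading
    intro Q Q' hb hn ht hy
    have hcand : ∀ k, IsCand K c BadAt Q k ↔ IsCand K c BadAt Q' k := by
      intro k
      unfold IsCand
      constructor
      · rintro ⟨h1, h2, h3⟩
        exact ⟨h1, (hb k h1).1 h2, fun k' hk' h => h3 k' hk' ((hb k' hk').2 h)⟩
      · rintro ⟨h1, h2, h3⟩
        exact ⟨h1, (hb k h1).2 h2, fun k' hk' h => h3 k' hk' ((hb k' hk').1 h)⟩
    by_cases h : ∃ k, IsCand K c BadAt Q k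
    · obtain ⟨k, hk⟩ := h
      have hk' := (hcand k).1 hk
      have htk : Q.take (p0 - c k) = Q'.take (p0 - c k) := by
        have := congrArg (List.take (p0 - c k)) ht
        rwa [List.take_take, List.take_take, min_eq_left (Nat.sub_le _ _)] at this
      have key : ∀ x, RR Q = some x ↔ RR Q' = some x := by
        rintro ⟨d, b⟩
        rw [hRR Q k d b hk, hRR Q' k d b hk', hn k hk.1, htk, hy k hk.1]
      rcases h1 : RR Q with _ | x
      · rcases h2 : RR Q' with _ | x'
        · rfl
        · have := (key x').2 h2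
          rw [h1] at this
          exact absurd this (by simp)
      · exact ((key x).1 h1).symm
    · have h' : ¬ ∃ k, IsCand K c BadAt Q' k := fun ⟨k, hk⟩ => h ⟨k, (hcand k).2 hk⟩
      rw [hRRnone Q h, hRRnone Q' h']

end Crest.Agent.R320.Zone2_594
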