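import Mathlib
import Crest.Agent.R320.AsmA_472
import Crest.Agent.R320.Zone2_594

/-! Row 320: badness of anchors (132: E, D, B), the promise ruler spoils few places (helper472). -/

set_option autoImplicit false

namespace Crest.Agent.R320.AsmB_472

open Crest.Agent.R320.Zone132_898 Crest.Agent.R320.Wall_291 Crest.Agent.R320.AsmA_472
open Crest.Agent.R320.Zone2_594

structure Par2 (α : Type) extends Par α where
  rs : Rule α
  Ws : ℕ
  sepS : Sepd rs Ws
  M : ℕ
  m : ℕ
  A : ℕ → ℕ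
  hA : ∀ i, q * M ≤ A i
  hWs : 2 * (q * M) + 2 * La ≤ Ws
  ms : Finset ℕ
  L : ℕ
  hL : p0 ≤ L
  K : ℕ
  cc : ℕ → ℕ
  ccLa : ∀ k < K, cc k ≤ La + ro.n
  ccn : ∀ k < K, ro.n ≤ cc k
  ccp : ∀ k < K, cc k ≤ p0
  hr1 : ∀ k < K, ∀ k' < K, ∀ l < K, ∀ l' < K, k ≠ k' →
    (q : ℤ) ∣ ((cc k : ℤ) - cc k') - ((cc l : ℤ) - cc l') → k = l ∧ k' = l'
  hr2 : ∀ μ ∈ ms, ∀ y : ℤ, ∀ k < K, ∀ k' < K, ∀ l < K, ∀ l' < K, k ≠ k' →
    (y - ((cc k : ℤ) - cc k')) % ((μ : ℤ) * q) < q →
    (y - ((cc l : ℤ) - cc l')) % ((μ : ℤ) * q) < q → k = l ∧ k' = l'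
  hr3 : ∀ y : ℤ, ∀ k < K, ∀ k' < K, ∀ l < K, ∀ l' < K, k ≠ k' →
    |y - ((cc k : ℤ) - cc k')| ≤ (q * M : ℕ) → |y - ((cc l : ℤ) - cc l')| ≤ (q * M : ℕ) →
    k = l ∧ k' = l'

namespace Par2

variable {α : Type} (c : Par2 α)

def nearE (d : ℕ) : Prop := c.tau d ≤ d + c.N1 ∧ d ≤ c.tau d + c.N1

def nearD (i d : ℕ) : Prop := c.p0 + c.A i ≤ d + c.q * c.M ∧ d ≤ c.p0 + c.A i + c.q * c.M

def BB (n : ℕ) : Prop := ∃ μ ∈ c.ms, μ ∣ n

def BadRaw (j : ℕ) (W : List α) : Prop :=
  (∃ t, c.ro.R (W.drop t) ∧ c.nearE (t + j)) ∨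
  (∃ i ≤ c.m, ∃ t, c.rs.R (W.drop t) ∧ c.nearD i (t + j)) ∨
  (∃ t, c.nxAt j W = some t ∧ c.BB ((t + j - c.p0) / c.q))

def Bad (U : List α) : Prop := c.BadRaw 0 (U.take c.L)

def BadAt (j : ℕ) (W : List α) : Prop := c.BadRaw j (W.take (c.L - j))

theorem badRaw_append {P W : List α} (h : P.length ≤ c.p0) :
    c.BadRaw 0 (P ++ W) ↔ c.BadRaw P.length W := by
  unfold BadRaw
  have hz := c.hz
  refine or_congr ?_ (or_congr ?_ ?_)
  · constructor
    · rintro ⟨t, h1, h2, h3⟩
      have h4 := c.le_tau (t + 0)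
      obtain ⟨s, rfl⟩ := Nat.exists_eq_add_of_le (show P.length ≤ t by omega)
      rw [Zone132_898.drop_add] at h1
      refine ⟨s, h1, ?_⟩
      rw [show s + P.length = P.length + s + 0 by omega]
      exact ⟨h2, h3⟩
    · rintro ⟨s, h1, h2⟩
      refine ⟨P.length + s, by rwa [Zone132_898.drop_add], ?_⟩
      rwa [show P.length + s + 0 = s + P.length by omega]
  · constructor
    · rintro ⟨i, hi, t, h1, h2, h3⟩
      have h4 := c.hA i
      obtain ⟨s, rfl⟩ := Nat.exists_eq_add_of_le (show P.length ≤ t by omega)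
      rw [Zone132_898.drop_add] at h1
      refine ⟨i, hi, s, h1, ?_⟩
      rw [show s + P.length = P.length + s + 0 by omega]
      exact ⟨h2, h3⟩
    · rintro ⟨i, hi, s, h1, h2⟩
      refine ⟨i, hi, P.length + s, by rwa [Zone132_898.drop_add], ?_⟩
      rwa [show P.length + s + 0 = s + P.length by omega]
  · have h1 := c.nx_append (Q := W) h
    unfold Par.nx at h1
    rw [h1]
    constructor
    · rintro ⟨t, h2, h3⟩
      rw [Option.map_eq_some_iff] at h2
      obtain ⟨s, h4, rfl⟩ := h2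
      refine ⟨s, h4, ?_⟩
      rwa [show P.length + s + 0 = s + P.length by omega] at h3
    · rintro ⟨s, h2, h3⟩
      refine ⟨P.length + s, by rw [h2]; rfl, ?_⟩
      rwa [show P.length + s + 0 = s + P.length by omega]

theorem bad_append {P Q : List α} (h : P.length ≤ c.p0) :
    c.Bad (P ++ Q) ↔ c.BadAt P.length Q := by
  unfold Bad BadAt
  have hL := c.hL
  rw [List.take_append, List.take_of_length_le (by omega)]
  exact c.badRaw_append h

theorem bad_take {Q Q' : List α} (h : c.L ≤ Q.length) : c.Bad (Q ++ Q') ↔ c.Bad Q := by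
  unfold Bad
  rw [List.take_append_of_le_length h]

/-- classes of spoiling events -/
def Ev (U : List α) (x : ℕ × ℕ × ℕ) (k k' : ℕ) : Prop :=
  (x.1 = 0 ∧ ∃ s, c.cc k ≤ s ∧ c.ro.R (U.drop s) ∧ c.nearE (s - c.cc k + c.cc k')) ∨
  (x.1 = 1 ∧ ∃ s, c.cc k ≤ s ∧ c.rs.R (U.drop s) ∧ c.nearD x.2.1 (s - c.cc k + c.cc k')) ∨
  (x.1 = 2 ∧ ∃ s, c.cc k ≤ s ∧
    c.nxAt (c.cc k') ((U.drop (c.cc k)).take (c.L - c.cc k')) = some (s - c.cc k) ∧
    x.2.1 ∈ c.ms ∧ x.2.1 ∣ (s - c.cc k + c.cc k' - c.p0) / c.q ∧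
    (x.2.2 = 0 ↔ s ≤ c.tmax + c.La))

theorem ruleD {r : Rule α} {U : List α} {a l t : ℕ} (h : r.R ((U.drop a).take l |>.drop t)) :
    r.R (U.drop (a + t)) := by
  have hl := rule_len r h
  rw [List.length_take] at hl
  rw [rule_take r (by omega), List.drop_drop] at h
  exact h

theorem ev_unique (U : List α) (x : ℕ × ℕ × ℕ) {k k' l l' : ℕ} (hk : k < c.K) (hk' : k' < c.K)
    (hl : l < c.K) (hl' : l' < c.K) (hne : k ≠ k') (hne' : l ≠ l') (h : c.Ev U x k k')
    (h' : c.Ev U x l l') : k = l := by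
  have hz := c.hz
  have hWo := c.hWo
  have hWs := c.hWs
  have b1 := c.ccLa k hk
  have b2 := c.ccLa k' hk'
  have b3 := c.ccLa l hl
  have b4 := c.ccLa l' hl'
  have b5 := c.ccn k hk
  have b6 := c.ccn k' hk'
  have b7 := c.ccn l hl
  have b8 := c.ccn l' hl'
  have b9 := c.ccp k hk
  have b10 := c.ccp l hl
  rcases h with ⟨hx, s, h1, h2, h3⟩ | ⟨hx, s, h1, h2, h3⟩ | ⟨hx, s, h1, h2, h3, h4, h5⟩
  · rcases h' with ⟨-, u, g1, g2, g3⟩ | ⟨hx', -⟩ | ⟨hx', -⟩
    · -- class E
      obtain ⟨h3, h4⟩ := h3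
      obtain ⟨g3, g4⟩ := g3
      have t1 := c.le_tau (s - c.cc k + c.cc k')
      have t2 := c.tau_le (s - c.cc k + c.cc k')
      have t3 := c.le_tau (u - c.cc l + c.cc l')
      have t4 := c.tau_le (u - c.cc l + c.cc l')
      have t5 : c.tmax = c.z0 + c.q * (2 * c.N1 + 2 * c.La + 1) := rfl
      have hsu : s = u := c.sep.eq h2 g2 (by omega) (by omega)
      subst hsu
      -- equal residues
      have hmod : (s - c.cc k + c.cc k') % c.q = (s - c.cc l + c.cc l') % c.q := by
        by_contra hne2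
        have e1 : c.tau (s - c.cc k + c.cc k') = c.z0 + (s - c.cc k + c.cc k') % c.q * c.st := rfl
        have e2 : c.tau (s - c.cc l + c.cc l') = c.z0 + (s - c.cc l + c.cc l') % c.q * c.st := rfl
        have e3 : c.st = 2 * c.N1 + 2 * c.La + 1 := rfl
        rcases lt_or_gt_of_ne hne2 with h5 | h5
        · have := Nat.mul_le_mul_right c.st (show _ + 1 ≤ _ from h5)
          rw [Nat.add_mul] at this
          omega
        · have := Nat.mul_le_mul_right c.st (show _ + 1 ≤ _ from h5)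
          rw [Nat.add_mul] at this
          omega
      have hdvd : (c.q : ℤ) ∣ ((c.cc k : ℤ) - c.cc k') - ((c.cc l : ℤ) - c.cc l') := by
        have h5 := (Nat.modEq_iff_dvd (n := c.q) (a := s - c.cc k + c.cc k')
          (b := s - c.cc l + c.cc l')).1 hmod
        have e1 : ((s - c.cc l + c.cc l' : ℕ) : ℤ) = s - c.cc l + c.cc l' := by
          rw [Nat.cast_add, Nat.cast_sub g1]
        have e2 : ((s - c.cc k + c.cc k' : ℕ) : ℤ) = s - c.cc k + c.cc k' := by
          rw [Nat.cast_add, Nat.cast_sub h1]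
        rw [e1, e2] at h5
        convert h5 using 1
        ring
      exact (c.hr1 k hk k' hk' l hl l' hl' hne hdvd).1
    · omega
    · omega
  · rcases h' with ⟨hx', -⟩ | ⟨-, u, g1, g2, g3⟩ | ⟨hx', -⟩
    · omega
    · obtain ⟨h3, h4⟩ := h3
      obtain ⟨g3, g4⟩ := g3
      have hsu : s = u := c.sepS.eq h2 g2 (by omega) (by omega)
      subst hsu
      refine (c.hr3 ((s : ℤ) - c.p0 - c.A x.2.1) k hk k' hk' l hl l' hl' hne ?_ ?_).1
      · rw [abs_le]; constructor <;> omega
      · rw [abs_le]; constructor <;> omega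
    · omega
  · rcases h' with ⟨hx', -⟩ | ⟨hx', -⟩ | ⟨-, u, g1, g2, g3, g4, g5⟩
    · omega
    · omega
    · have hq := c.hq
      have p1 := c.nxAt_pos h2
      have p2 := c.nxAt_pos g2
      rw [Par.nxAt_some] at h2 g2
      obtain ⟨⟨h6, h7⟩, h8⟩ := h2
      obtain ⟨⟨g6, g7⟩, g8⟩ := g2
      have r1 := ruleD h6
      have r2 := ruleD g6
      rw [show c.cc k + (s - c.cc k) = s by omega] at r1
      rw [show c.cc l + (u - c.cc l) = u by omega] at r2
      rw [List.length_take, List.length_drop] at p1 p2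
      have t5 : c.tmax = c.z0 + c.q * (2 * c.N1 + 2 * c.La + 1) := rfl
      have hsu : s = u := by
        by_cases hb : x.2.2 = 0
        · have q1 := h5.1 hb
          have q2 := g5.1 hb
          exact c.sep.eq r1 r2 (by omega) (by omega)
        · have q1 : ¬ s ≤ c.tmax + c.La := fun h => hb (h5.2 h)
          have q2 : ¬ u ≤ c.tmax + c.La := fun h => hb (g5.2 h)
          rcases lt_trichotomy s u with h9 | h9 | h9
          · exfalso
            refine g8 (s - c.cc l) (by omega) ⟨?_, c.thr_of (by omega)⟩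
            rw [rule_take c.ro (by omega), List.drop_drop,
              show c.cc l + (s - c.cc l) = s by omega]
            exact r1
          · exact h9
          · exfalso
            refine h8 (u - c.cc k) (by omega) ⟨?_, c.thr_of (by omega)⟩
            rw [rule_take c.ro (by omega), List.drop_drop,
              show c.cc k + (u - c.cc k) = u by omega]
            exact r2
      subst hsu
      have key : ∀ (n μ : ℕ), μ ∣ n / c.q → ((n : ℤ)) % ((μ : ℤ) * c.q) < c.q := by
        intro n μ hd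
        have h9 : n % (μ * c.q) < c.q := by
          obtain ⟨w, hw⟩ := hd
          have h10 := Nat.div_add_mod n c.q
          have h11 := Nat.mod_lt n hq
          have h12 : n = (μ * c.q) * w + n % c.q := by
            calc n = c.q * (n / c.q) + n % c.q := h10.symm
              _ = _ := by rw [hw]; ring
          calc n % (μ * c.q) = ((μ * c.q) * w + n % c.q) % (μ * c.q) := by rw [← h12]
            _ = (n % c.q) % (μ * c.q) := by rw [Nat.mul_add_mod]
            _ ≤ n % c.q := Nat.mod_le _ _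
            _ < c.q := h11
        exact_mod_cast h9
      have k1 := key _ _ h4
      have k2 := key _ _ g4
      refine (c.hr2 x.2.1 h3 ((s : ℤ) - c.p0) k hk k' hk' l hl l' hl' hne ?_ ?_).1
      · convert k1 using 2
        omega
      · convert k2 using 2
        omega

theorem card_spoiled (U : List α) :
    (spoiled c.K c.cc c.BadAt U).card ≤ 1 + (c.m + 1) + c.ms.card * 2 := by
  classical
  let I : Finset (ℕ × ℕ × ℕ) := {(0, 0, 0)} ∪ (Finset.range (c.m + 1)).image (fun i => (1, i, 0)) ∪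
    (c.ms ×ˢ Finset.range 2).image (fun p => (2, p.1, p.2))
  have hI : I.card ≤ 1 + (c.m + 1) + c.ms.card * 2 := by
    refine (Finset.card_union_le _ _).trans (Nat.add_le_add ((Finset.card_union_le _ _).trans
      (Nat.add_le_add (by simp) ?_)) ?_)
    · exact Finset.card_image_le.trans (by simp)
    · exact Finset.card_image_le.trans (by simp)
  have hex : ∀ k ∈ spoiled c.K c.cc c.BadAt U, ∃ x ∈ I, ∃ k' < c.K, k' ≠ k ∧ c.Ev U x k k' := by
    intro k hk
    unfold spoiled at hk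
    rw [Finset.mem_filter, Finset.mem_range] at hk
    obtain ⟨hkK, k', hk', hne, hb⟩ := hk
    rcases hb with ⟨t, h1, h2⟩ | ⟨i, hi, t, h1, h2⟩ | ⟨t, h1, μ, hμ, h2⟩
    · refine ⟨(0, 0, 0), by simp [I], k', hk', hne, Or.inl ⟨rfl, c.cc k + t, by omega, ruleD h1, ?_⟩⟩
      rwa [show c.cc k + t - c.cc k + c.cc k' = t + c.cc k' by omega]
    · refine ⟨(1, i, 0), ?_, k', hk', hne,
        Or.inr (Or.inl ⟨rfl, c.cc k + t, by omega, ruleD h1, ?_⟩)⟩
      · simp only [I, Finset.mem_union, Finset.mem_image, Finset.mem_range]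
        exact Or.inl (Or.inr ⟨i, by omega, rfl⟩)
      · change c.nearD i _
        rwa [show c.cc k + t - c.cc k + c.cc k' = t + c.cc k' by omega]
    · by_cases hs : c.cc k + t ≤ c.tmax + c.La
      · refine ⟨(2, μ, 0), ?_, k', hk', hne, Or.inr (Or.inr ⟨rfl, c.cc k + t, by omega, ?_, hμ, ?_, ?_⟩)⟩
        · simp only [I, Finset.mem_union, Finset.mem_image, Finset.mem_product, Finset.mem_range]
          exact Or.inr ⟨(μ, 0), ⟨hμ, by norm_num⟩, rfl⟩
        · rw [h1]; congr 1; omega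
        · change μ ∣ _
          rwa [show c.cc k + t - c.cc k + c.cc k' = t + c.cc k' by omega]
        · exact ⟨fun _ => hs, fun _ => rfl⟩
      · refine ⟨(2, μ, 1), ?_, k', hk', hne, Or.inr (Or.inr ⟨rfl, c.cc k + t, by omega, ?_, hμ, ?_, ?_⟩)⟩
        · simp only [I, Finset.mem_union, Finset.mem_image, Finset.mem_product, Finset.mem_range]
          exact Or.inr ⟨(μ, 1), ⟨hμ, by norm_num⟩, rfl⟩
        · rw [h1]; congr 1; omega
        · change μ ∣ _
          rwa [show c.cc k + t - c.cc k + c.cc k' = t + c.cc k' by omega]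
        · exact ⟨fun h => absurd h (by norm_num), fun h => absurd h hs⟩
  choose! f hf g hg1 hg2 hg3 using hex
  refine (Finset.card_le_card_of_injOn f (fun k hk => hf k hk) ?_).trans hI
  intro k hk l hl hkl
  have hk0 : k < c.K := by
    have := hk; unfold spoiled at this
    exact Finset.mem_range.1 (Finset.mem_filter.1 this).1
  have hl0 : l < c.K := by
    have := hl; unfold spoiled at this
    exact Finset.mem_range.1 (Finset.mem_filter.1 this).1
  have e1 := hg3 k hk
  have e2 := hg3 l hl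
  rw [hkl] at e1
  exact c.ev_unique U (f l) hk0 (hg1 k hk) hl0 (hg1 l hl) (hg2 k hk).symm (hg2 l hl).symm e1 e2

end Par2

end Crest.Agent.R320.AsmB_472
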