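import Crest.Agent.R320.AsmA_489

set_option autoImplicit false

namespace Crest.Agent.R320.Asm_489

open Crest.RegLang Crest.Agent.R320.Hk_851 Crest.Agent.R320.Half1_180

namespace Dat

variable {α S V : Type} [Monoid S] [AddCommGroup V] {D : Dat α S V}

theorem two_sound (h : D.Ok) (v v' : V) (P Q R : List α) (hP : P ∈ D.LP2 v) (hQ : Q ∈ D.RQ2 v')
    (hB : Bs D.Bad (P ++ (Q ++ R))) : Tr D.XX D.T v (P ++ Q) v' ∧ Bs D.Bad R := by
  have pf := XX_pf h
  obtain ⟨k, hk, hPl, hl⟩ := hP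
  obtain ⟨k0, hk0, h1, h2⟩ := hQ
  have inv : ∀ {X w : List α}, X ∈ D.XX → Bs D.Bad (X ++ w) → X ∈ D.Bad ∧ Bs D.Bad w := by
    intro X w hX hb
    generalize hy : X ++ w = y at hb
    cases hb with
    | nil =>
      exact absurd (List.append_eq_nil_iff.1 hy).1 (pf.1 X hX)
    | cons hY hw =>
      obtain ⟨rfl, rfl⟩ := pf.eq hX hY.1 hy
      exact ⟨hY, hw⟩
  by_cases hkk : k = k0
  · subst hkk
    obtain ⟨X1, X2, e, hX1, hX2, hT⟩ := h1 v P hPl hl
    constructor
    · rw [e]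
      refine Tr.cons hX1 ?_
      have := Tr.single (t := D.T) (x := D.T X1 v) hX2
      rw [hT] at this
      exact this
    · rw [← List.append_assoc, e, List.append_assoc] at hB
      exact (inv hX2 (inv hX1 hB).2).2
  · exfalso
    obtain ⟨X, hX, w, hw⟩ := h2 k hk hkk P hPl
    rw [← List.append_assoc, ← hw, List.append_assoc] at hB
    exact (inv hX.1 hB).1.2 hX

/-- the geometry: a claimant which is neither in mode (E) nor in mode (B) starts a good block -/
theorem claimant (h : D.Ok) {Y1 Y2 : List α} (hY1 : Y1 ∈ D.XX) (hY2 : Y2 ∈ D.XX) (e1 e2 : ℕ)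
    (he1 : D.z0 ≤ e1 + (D.p0 + D.N)) (hw1 : D.Wo ((Y1 ++ Y2).take e1))
    (hm1 : ∀ t, D.z0 ≤ t + (D.p0 + D.N) → t < e1 → ¬ D.Wo ((Y1 ++ Y2).take t))
    (he2 : e1 < e2) (hw2 : D.Wo ((Y1 ++ Y2).take e2)) (hle2 : e2 ≤ (Y1 ++ Y2).length)
    (hm2 : ∀ t, e1 < t → t < e2 → ¬ D.Wo ((Y1 ++ Y2).take t))
    {k0 k : ℕ} (hk0 : k0 < D.K) (hk : k < D.K)
    (hE : ¬ |((D.c k : ℤ) - D.c k0) - ((D.z0 : ℤ) - e1)| ≤ D.N)
    (hB1 : ¬ D.Bad1 (e1 - D.p0 + D.c k - D.c k0)) (hB2 : ¬ D.Bad1 (e2 - D.p0 + D.c k - D.c k0))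
    (P' : List α) (hP' : P'.length = D.c k) :
    P' ++ (Y1 ++ Y2).drop (D.c k0) ∈ D.PG := by
  have hz := h.hz
  have hW := h.hW
  have hc0 := h.c_le k0 hk0
  have hc := h.c_le k hk
  set w := Y1 ++ Y2 with hwdef
  have hgap := h.gap w e1 e2 he2 hle2 hw1 hw2
  have hwl : 2 * D.z0 ≤ w.length := by
    have h1 := hY1.1
    have h2 := hY2.1
    rw [hwdef, List.length_append]; omega
  -- key: a wall position s, first after z0 in the shifted text
  have key : ∀ s, D.z0 + D.c k0 ≤ s + D.c k → D.z0 + D.N + D.c k0 ≤ s + D.c k →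
      s ≤ w.length → D.Wo (w.take s) → D.p0 + D.n ≤ s →
      (∀ t, D.z0 + D.c k0 ≤ t + D.c k + D.N → t < s → D.p0 + D.n ≤ t → ¬ D.Wo (w.take t)) →
      ¬ D.Bad1 (s - D.p0 + D.c k - D.c k0) → P' ++ w.drop (D.c k0) ∈ D.PG := by
    intro s hs1 hs2 hs3 hs4 hs5 hs6 hs7
    have hP0 : (w.take (D.c k0)).length = D.c k0 := by rw [List.length_take]; omega
    have hQl : (w.drop (D.c k0)).length = w.length - D.c k0 := List.length_drop
    have sh : ∀ t, D.c k0 + D.n ≤ t → t ≤ w.length →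
        (D.Wo (w.take t) ↔ D.Wo ((P' ++ w.drop (D.c k0)).take (t - D.c k0 + D.c k))) := by
      intro t ht1 ht2
      have := shift h (w.take (D.c k0)) P' (w.drop (D.c k0)) t (by rw [hP0]; exact ht1)
        (by rw [hP0, hQl]; omega)
      rw [List.take_append_drop, hP0, hP'] at this
      exact this
    set y := P' ++ w.drop (D.c k0) with hy
    have hyl : y.length = D.c k + (w.length - D.c k0) := by
      rw [hy, List.length_append, hP', hQl]
    have hXl : (y.take (s - D.c k0 + D.c k)).length = s - D.c k0 + D.c k := by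
      rw [List.length_take]; omega
    have htt : ∀ t ≤ s - D.c k0 + D.c k, (y.take (s - D.c k0 + D.c k)).take t = y.take t := by
      intro t ht
      rw [List.take_take, Nat.min_eq_left ht]
    have hno : ∀ t, D.z0 ≤ t + D.N → t < s - D.c k0 + D.c k → ¬ D.Wo (y.take t) := by
      intro t ht1 ht2 hw
      have hsh := sh (t - D.c k + D.c k0) (by omega) (by omega)
      have e : t - D.c k + D.c k0 - D.c k0 + D.c k = t := by omega
      rw [e] at hsh
      exact hs6 (t - D.c k + D.c k0) (by omega) (by omega) (by omega) (hsh.2 hw)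
    refine ⟨y.take (s - D.c k0 + D.c k), good_of h ⟨by rw [hXl]; omega, ?_, ?_⟩
      (by rw [hXl]; omega) ?_ ?_, List.take_prefix _ _⟩
    · exact (sh s (by omega) hs3).1 hs4
    · intro t ht1 ht2
      rw [hXl] at ht2
      rw [htt t ht2.le]
      exact hno t (by omega) ht2
    · intro t ht1 ht2
      rw [htt t (by omega)]
      exact hno t ht1 (by omega)
    · rw [hXl]
      have e : s - D.c k0 + D.c k - D.p0 = s - D.p0 + D.c k - D.c k0 := by omega
      rw [e]; exact hs7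
  rw [abs_le, not_and_or, not_le, not_le] at hE
  by_cases hcase : D.z0 + D.c k0 ≤ e1 + D.c k
  · refine key e1 hcase (by omega) (by omega) hw1 (by omega) ?_ hB1
    intro t ht1 ht2 ht3
    exact hm1 t (by omega) ht2
  · refine key e2 (by omega) (by omega) hle2 hw2 (by omega) ?_ hB2
    intro t ht1 ht2 ht3
    exact hm2 t (by omega) ht2

open Classical in
theorem two_complete (h : D.Ok) (Y1 : List α) (hY1 : Y1 ∈ D.XX) (Y2 : List α) (hY2 : Y2 ∈ D.XX)
    (v : V) : ∃ P Q, Y1 ++ Y2 = P ++ Q ∧ P ∈ D.LP2 v ∧ Q ∈ D.RQ2 (D.T Y2 (D.T Y1 v)) := by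
  have hz := h.hz
  have hW := h.hW
  have l1 := hY1.1
  have l2 := hY2.1
  set w := Y1 ++ Y2 with hwdef
  have hwl : w.length = Y1.length + Y2.length := by rw [hwdef, List.length_append]
  have ex1 : ∃ t, D.z0 ≤ t + (D.p0 + D.N) ∧ D.Wo (w.take t) :=
    ⟨Y1.length, by omega, by rw [hwdef, List.take_left]; exact hY1.2.1⟩
  obtain ⟨he1, hw1⟩ := Nat.find_spec ex1
  have hm1 := fun t (ht : t < Nat.find ex1) => Nat.find_min ex1 ht
  have hle1 : Nat.find ex1 ≤ Y1.length :=
    Nat.find_min' ex1 ⟨by omega, by rw [hwdef, List.take_left]; exact hY1.2.1⟩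
  set e1 := Nat.find ex1 with he1def
  have hww : D.Wo w := by
    rw [hwdef, h.Wo_app _ _ (by omega)]; exact hY2.2.1
  have ex2 : ∃ t, e1 < t ∧ D.Wo (w.take t) :=
    ⟨w.length, by omega, by rw [List.take_of_length_le (le_refl _)]; exact hww⟩
  obtain ⟨he2, hw2⟩ := Nat.find_spec ex2
  have hm2 := fun t (ht : t < Nat.find ex2) => Nat.find_min ex2 ht
  have hle2 : Nat.find ex2 ≤ w.length :=
    Nat.find_min' ex2 ⟨by omega, by rw [List.take_of_length_le (le_refl _)]; exact hww⟩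
  set e2 := Nat.find ex2 with he2def
  -- the places
  have hul : (Y1.take D.p0).length = D.p0 := by rw [List.length_take]; omega
  obtain ⟨I, hI, hIk⟩ := h.compl2 (Y1.take D.p0) hul v
  let FE := (Finset.range D.K ×ˢ Finset.range D.K).filter
    (fun ij => ij.1 ≠ ij.2 ∧ |((D.c ij.2 : ℤ) - D.c ij.1) - ((D.z0 : ℤ) - e1)| ≤ D.N)
  let FB := fun T : ℕ => (Finset.range D.K ×ˢ Finset.range D.K).filter
    (fun ij => ij.1 ≠ ij.2 ∧ D.Bad1 (T + D.c ij.2 - D.c ij.1))
  let SP := (FE ∪ (FB (e1 - D.p0) ∪ FB (e2 - D.p0))).image Prod.fst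
  have hSP : SP.card ≤ 1 + 2 * D.C1 := by
    have a1 : FE.card ≤ 1 := h.spoilE _
    have a2 : (FB (e1 - D.p0)).card ≤ D.C1 := h.spoilB _ (by omega)
    have a3 : (FB (e2 - D.p0)).card ≤ D.C1 := h.spoilB _ (by omega)
    have a4 := Finset.card_union_le FE (FB (e1 - D.p0) ∪ FB (e2 - D.p0))
    have a5 := Finset.card_union_le (FB (e1 - D.p0)) (FB (e2 - D.p0))
    have a6 : SP.card ≤ (FE ∪ (FB (e1 - D.p0) ∪ FB (e2 - D.p0))).card := Finset.card_image_le
    omega
  have hR := h.hR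
  obtain ⟨k0, hk0I, hk0S⟩ : ∃ k0 ∈ I, k0 ∉ SP := by
    by_contra hcon
    push Not at hcon
    have := Finset.card_le_card (show I ⊆ SP from fun x hx => hcon x hx)
    omega
  obtain ⟨hk0, hl0, hr0⟩ := hIk k0 hk0I
  obtain ⟨b, hb⟩ := Option.isSome_iff_exists.1 hr0
  have hc0 := h.c_le k0 hk0
  have hd : ∀ k < D.K, k ≠ k0 → (¬ |((D.c k : ℤ) - D.c k0) - ((D.z0 : ℤ) - e1)| ≤ D.N) ∧
      ¬ D.Bad1 (e1 - D.p0 + D.c k - D.c k0) ∧ ¬ D.Bad1 (e2 - D.p0 + D.c k - D.c k0) := by
    intro k hk hne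
    have base : (k0, k) ∈ Finset.range D.K ×ˢ Finset.range D.K := by
      rw [Finset.mem_product]
      exact ⟨Finset.mem_range.2 hk0, Finset.mem_range.2 hk⟩
    refine ⟨fun hc => hk0S ?_, fun hc => hk0S ?_, fun hc => hk0S ?_⟩
    · exact Finset.mem_image.2 ⟨(k0, k), Finset.mem_union_left _
        (Finset.mem_filter.2 ⟨base, fun e => hne e.symm, hc⟩), rfl⟩
    · exact Finset.mem_image.2 ⟨(k0, k), Finset.mem_union_right _ (Finset.mem_union_left _
        (Finset.mem_filter.2 ⟨base, fun e => hne e.symm, hc⟩)), rfl⟩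
    · exact Finset.mem_image.2 ⟨(k0, k), Finset.mem_union_right _ (Finset.mem_union_right _
        (Finset.mem_filter.2 ⟨base, fun e => hne e.symm, hc⟩)), rfl⟩
  have hPeq : w.take (D.c k0) = (Y1.take D.p0).take (D.c k0) := by
    rw [hwdef, List.take_take, Nat.min_eq_left hc0,
      List.take_append_of_le_length (by omega)]
  have hQeq : w.drop (D.c k0) = Y1.drop (D.c k0) ++ Y2 := by
    rw [hwdef, List.drop_append_of_le_length (by omega)]
  refine ⟨w.take (D.c k0), w.drop (D.c k0), (List.take_append_drop _ _).symm,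
    ⟨k0, hk0, by rw [List.length_take]; omega, by rw [hPeq]; exact hl0⟩, k0, hk0, ?_, ?_⟩
  · intro v' P' hP'l hP'
    have hX1l : (P' ++ Y1.drop (D.c k0)).length = Y1.length := by
      rw [List.length_append, List.length_drop, hP'l]; omega
    refine ⟨P' ++ Y1.drop (D.c k0), Y2, by rw [hQeq, List.append_assoc], ?_, hY2, ?_⟩
    · have hP0 : (Y1.take (D.c k0)).length = D.c k0 := by rw [List.length_take]; omega
      have sh : ∀ t, D.c k0 + D.n ≤ t → t ≤ Y1.length →
          (D.Wo (Y1.take t) ↔ D.Wo ((P' ++ Y1.drop (D.c k0)).take t)) := by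
        intro t ht1 ht2
        have := shift h (Y1.take (D.c k0)) P' (Y1.drop (D.c k0)) t (by rw [hP0]; exact ht1)
          (by rw [hP0, List.length_drop]; omega)
        rw [List.take_append_drop, hP0, hP'l] at this
        rw [this]
        have e : t - D.c k0 + D.c k0 = t := by omega
        rw [e]
      refine ⟨by omega, ?_, ?_⟩
      · have := (sh Y1.length (by omega) le_rfl).1
        rw [List.take_of_length_le (le_refl _), List.take_of_length_le (by omega)] at this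
        exact this hY1.2.1
      · intro t ht1 ht2 hw
        rw [hX1l] at ht2
        exact hY1.2.2 t ht1 ht2 ((sh t (by omega) ht2.le).2 hw)
    · have e1' : (P' ++ Y1.drop (D.c k0)).take D.p0 = P' ++ (Y1.take D.p0).drop (D.c k0) := by
        rw [List.take_append, List.take_of_length_le (by omega), hP'l, List.drop_take]
      have e2' : (P' ++ Y1.drop (D.c k0)).drop D.p0 = Y1.drop D.p0 := by
        rw [List.drop_append, List.drop_of_length_le (by omega), List.nil_append, hP'l,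
          List.drop_drop]
        congr 1
        omega
      have s1 := h.sound2 k0 hk0 _ _ _ _ hP'l hP' hb
      have s2 := h.sound2 k0 hk0 ((Y1.take D.p0).take (D.c k0)) _ _ _
        (by rw [List.length_take, hul]; omega) hl0 hb
      rw [List.take_append_drop] at s2
      have : D.T (P' ++ Y1.drop (D.c k0)) v' = D.T Y1 v := by
        unfold T
        rw [e1', e2', ← s1, ← s2]
      rw [this]
  · intro k hk hne P' hP'
    obtain ⟨a1, a2, a3⟩ := hd k hk hne
    exact claimant h hY1 hY2 e1 e2 he1 hw1 (fun t ht1 ht2 hw => hm1 t ht2 ⟨ht1, hw⟩) he2 hw2 hle2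
      (fun t ht1 ht2 hw => hm2 t ht2 ⟨ht1, hw⟩) hk0 hk a1 a2 a3 P' hP'

end Dat

end Crest.Agent.R320.Asm_489
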