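import Crest.Agent.R320.AsmA_570

set_option autoImplicit false
set_option linter.unusedSectionVars false

namespace Crest.Agent.R320.Asm_570

open Crest.RegLang Crest.Agent.R320.Hk_851 Crest.Agent.R320.Blk_517 Crest.Agent.R320.Top_517
  Crest.Agent.R320.FewWalls_228 Crest.Agent.R320.WallU_228

universe u v

variable {α : Type u} {S V : Type v} [AddCommGroup V] {D : Dt α S V} {Wg C0 : ℕ}

/-- pair `(k, j)`: wall band of the false anchor -/
def EP (D : Dt α S V) (w : List α) (k j : ℕ) : Prop :=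
  ∃ y, y ≤ w.length ∧ D.W (w.take y) ∧ D.z + D.c k ≤ y + D.c j + D.N1 ∧
    y + D.c j ≤ D.z + D.c k + D.N1

/-- pair `(k, j)`: bad total of the false anchor -/
def BP (D : Dt α S V) (w : List α) (k j : ℕ) : Prop :=
  ∃ y, y ≤ w.length ∧ D.W (w.take y) ∧ D.z + D.c k ≤ y + D.c j ∧
    (∀ y2 < y, D.z + D.c k ≤ y2 + D.c j → ¬ D.W (w.take y2)) ∧
    D.BadT (y + D.c j - D.c k - D.p0)

theorem gap' (h : Ok D Wg C0) {w : List α} {y y' : ℕ} (h1 : y < y') (h2 : y' ≤ w.length)
    (w1 : D.W (w.take y)) (w2 : D.W (w.take y')) : Wg < y' - y := by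
  by_contra hlt
  have hl : (w.take y').length = y' := by rw [List.length_take]; omega
  have := h.gap (w.take y') (y' - y) w2 (by omega) (by omega)
  rw [hl, List.take_take] at this
  have e : min (y' - (y' - y)) y' = y := by omega
  rw [e] at this
  exact this w1

theorem ep_unique (h : Ok D Wg C0) {w : List α} {k j k' j' : ℕ} (hk : k < D.K) (hj : j < D.K)
    (hk' : k' < D.K) (hj' : j' < D.K) (h1 : k ≠ j) (h2 : k' ≠ j') (e1 : EP D w k j)
    (e2 : EP D w k' j') : (k, j) = (k', j') := by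
  by_contra hne
  obtain ⟨y, a1, a2, a3, a4⟩ := e1
  obtain ⟨y', b1, b2, b3, b4⟩ := e2
  have c1 := h.hc k hk
  have c2 := h.hc j hj
  have c3 := h.hc k' hk'
  have c4 := h.hc j' hj'
  have hW := h.hW
  have hz := h.hz
  have hyy : y = y' := by
    rcases lt_trichotomy y y' with hlt | heq | hlt
    · have := gap' h hlt b1 a2 b2
      omega
    · exact heq
    · have := gap' h hlt a1 b2 a2
      omega
  subst hyy
  rcases h.sep k j k' j' hk hj hk' hj' h1 h2 hne with hs | hs <;> omega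

/-- **the spoiling count** -/
theorem spoil (h : Ok D Wg C0) {w : List α} (hw1 : D.z ≤ w.length) (hw2 : D.W w)
    (s : Finset (ℕ × ℕ)) (hs : ∀ x ∈ s, x.1 < D.K ∧ x.2 < D.K ∧ x.1 ≠ x.2 ∧
      (EP D w x.1 x.2 ∨ BP D w x.1 x.2)) : s.card ≤ 1 + 2 * C0 := by
  classical
  have hz := h.hz
  have hW := h.hW
  have hex : ∃ y, y ≤ w.length ∧ D.W (w.take y) ∧ D.z ≤ y + D.p0 :=
    ⟨w.length, le_rfl, by rw [List.take_length]; exact hw2, by omega⟩
  obtain ⟨a1, a2, a3⟩ := Nat.find_spec hex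
  have amin := fun y (hy : y < Nat.find hex) => Nat.find_min hex hy
  set w1 := Nat.find hex with hw1d
  obtain ⟨w2, hw2a, hw2b⟩ : ∃ w2, w1 ≤ w2 ∧ ∀ y, w1 < y → y ≤ w.length → D.W (w.take y) →
      w1 < w2 ∧ w2 ≤ y ∧ w2 ≤ w.length ∧ D.W (w.take w2) := by
    by_cases hex2 : ∃ y, w1 < y ∧ y ≤ w.length ∧ D.W (w.take y)
    · obtain ⟨b1, b2, b3⟩ := Nat.find_spec hex2
      exact ⟨Nat.find hex2, b1.le, fun y hy1 hy2 hy3 =>
        ⟨b1, Nat.find_min' hex2 ⟨hy1, hy2, hy3⟩, b2, b3⟩⟩
    · exact ⟨w1, le_rfl, fun y hy1 hy2 hy3 => absurd ⟨y, hy1, hy2, hy3⟩ hex2⟩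
  have key : ∀ x ∈ s, EP D w x.1 x.2 ∨ D.BadT (w1 - D.p0 + D.c x.2 - D.c x.1) ∨
      D.BadT (w2 - D.p0 + D.c x.2 - D.c x.1) := by
    intro x hx
    obtain ⟨x1, x2, x3, x4⟩ := hs x hx
    rcases x4 with x4 | ⟨y, y1, y2, y3, y4, y5⟩
    · exact Or.inl x4
    · right
      have c1 := h.hc _ x1
      have c2 := h.hc _ x2
      have hy1 : w1 ≤ y := Nat.find_min' hex ⟨y1, y2, by omega⟩
      have eqb : y + D.c x.2 - D.c x.1 - D.p0 = y - D.p0 + D.c x.2 - D.c x.1 := by omega
      rw [eqb] at y5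
      rcases hy1.lt_or_eq with hlt | heq
      · right
        obtain ⟨g1, g2, g3, g4⟩ := hw2b y hlt y1 y2
        rcases g2.lt_or_eq with hlt2 | heq2
        · exfalso
          have hn : ¬ D.z + D.c x.1 ≤ w2 + D.c x.2 := fun hh => y4 w2 hlt2 hh g4
          have := gap' h g1 g3 a2 g4
          omega
        · rw [heq2]; exact y5
      · left; rw [heq]; exact y5
  have hLa1 : D.La ≤ w1 - D.p0 := by omega
  have hLa2 : D.La ≤ w2 - D.p0 := by omega
  set sE := s.filter (fun x => EP D w x.1 x.2) with hsE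
  set sA := s.filter (fun x => D.BadT (w1 - D.p0 + D.c x.2 - D.c x.1)) with hsA
  set sB := s.filter (fun x => D.BadT (w2 - D.p0 + D.c x.2 - D.c x.1)) with hsB
  have hcov : s ⊆ sE ∪ (sA ∪ sB) := by
    intro x hx
    rcases key x hx with k | k | k
    · exact Finset.mem_union_left _ (Finset.mem_filter.2 ⟨hx, k⟩)
    · exact Finset.mem_union_right _ (Finset.mem_union_left _ (Finset.mem_filter.2 ⟨hx, k⟩))
    · exact Finset.mem_union_right _ (Finset.mem_union_right _ (Finset.mem_filter.2 ⟨hx, k⟩))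
  have h1 : sE.card ≤ 1 := by
    rw [Finset.card_le_one]
    intro x hx y hy
    obtain ⟨hx1, hx2⟩ := Finset.mem_filter.1 hx
    obtain ⟨hy1, hy2⟩ := Finset.mem_filter.1 hy
    obtain ⟨p1, p2, p3, -⟩ := hs x hx1
    obtain ⟨q1, q2, q3, -⟩ := hs y hy1
    exact ep_unique h p1 p2 q1 q2 p3 q3 hx2 hy2
  have h2 : sA.card ≤ C0 := by
    refine h.cnt _ hLa1 _ fun x hx => ?_
    obtain ⟨hx1, hx2⟩ := Finset.mem_filter.1 hx
    obtain ⟨p1, p2, p3, -⟩ := hs x hx1
    exact ⟨p1, p2, p3, hx2⟩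
  have h3 : sB.card ≤ C0 := by
    refine h.cnt _ hLa2 _ fun x hx => ?_
    obtain ⟨hx1, hx2⟩ := Finset.mem_filter.1 hx
    obtain ⟨p1, p2, p3, -⟩ := hs x hx1
    exact ⟨p1, p2, p3, hx2⟩
  have h4 := Finset.card_le_card hcov
  have h5 := Finset.card_union_le sE (sA ∪ sB)
  have h6 := Finset.card_union_le sA sB
  omega

/-- **completeness of scheme 2** -/
theorem c2 (h : Ok D Wg C0) : ∀ X ∈ Bd D, ∀ Y ∈ Bd D, ∀ v, ∃ P Q, X ++ Y = P ++ Q ∧ P ∈ L2 D v ∧
    Q ∈ R2 D (T D (T D v X) Y) := by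
  classical
  intro X hX X2 hX2 v
  have hz := h.hz
  have hW := h.hW
  obtain ⟨x1, x2, x3⟩ := hX.1
  obtain ⟨y1, y2, y3⟩ := hX2.1
  have htl : (X.take D.p0).length = D.p0 := by rw [List.length_take]; omega
  obtain ⟨I, hI1, hI2⟩ := h.cpl2 (X.take D.p0) v htl
  have hw1 : D.z ≤ (X ++ X2).length := by rw [List.length_append]; omega
  have hw2 : D.W (X ++ X2) := (h.app _ _ (by omega)).2 y2
  -- the spoiled pairs
  let s : Finset (ℕ × ℕ) := (Finset.range D.K ×ˢ Finset.range D.K).filter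
    (fun x => x.1 ≠ x.2 ∧ (EP D (X ++ X2) x.1 x.2 ∨ BP D (X ++ X2) x.1 x.2))
  have hscard : s.card ≤ 1 + 2 * C0 := by
    refine spoil h hw1 hw2 s fun x hx => ?_
    obtain ⟨k1, k2, k3⟩ := Finset.mem_filter.1 hx
    obtain ⟨k4, k5⟩ := Finset.mem_product.1 k1
    exact ⟨Finset.mem_range.1 k4, Finset.mem_range.1 k5, k2, k3⟩
  obtain ⟨k, hkI, hks⟩ : ∃ k ∈ I, k ∉ s.image Prod.fst := by
    by_contra hcon
    simp only [not_exists, not_and, not_not] at hcon
    have h1 := Finset.card_le_card (show I ⊆ s.image Prod.fst from fun k hk => hcon k hk)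
    have h2 : (s.image Prod.fst).card ≤ s.card := Finset.card_image_le
    omega
  obtain ⟨hkK, hlam, hrho⟩ := hI2 k hkI
  have hck := h.hc k hkK
  obtain ⟨b, hb⟩ := Option.isSome_iff_exists.1 hrho
  have hPe : (X.take D.p0).take (D.c k + 1) = X.take (D.c k + 1) := by
    rw [List.take_take, min_eq_left hck]
  rw [hPe] at hlam
  have hPl : (X.take (D.c k + 1)).length = D.c k + 1 := by rw [List.length_take]; omega
  have hXe : X.take (D.c k + 1) ++ X.drop (D.c k + 1) = X := List.take_append_drop _ _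
  refine ⟨X.take (D.c k + 1), X.drop (D.c k + 1) ++ X2, ?_, ⟨k, hkK, hPl, hlam⟩, ?_⟩
  · rw [← List.append_assoc, hXe]
  rintro v' P ⟨j, hjK, hPj, hlj⟩
  have hcj := h.hc j hjK
  by_cases hjk : j = k
  · subst hjk
    left
    have hRl : (X.drop (D.c j + 1)).length = X.length - (D.c j + 1) := List.length_drop ..
    refine ⟨P ++ X.drop (D.c j + 1), ⟨?_, ?_, ?_⟩, X2, hX2.1, by rw [List.append_assoc], ?_⟩
    · rw [List.length_append, hRl]; omega
    · rw [h.app _ _ (by rw [hRl]; omega)]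
      rw [← hXe] at x2
      exact (h.app _ _ (by rw [hRl]; omega)).1 x2
    · intro t ht1 ht2 hw
      rw [List.length_append, hRl] at ht2
      obtain ⟨s', rfl⟩ : ∃ s', t = P.length + s' := ⟨t - P.length, by omega⟩
      rw [shift h P (X.take (D.c j + 1)) (X.drop (D.c j + 1)) s' (by omega) (by rw [hRl]; omega),
        hXe] at hw
      exact x3 _ (by omega) (by omega) hw
    · -- the values agree
      have hu : X.take D.p0 = X.take (D.c j + 1) ++ (X.take D.p0).drop (D.c j + 1) := by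
        conv_lhs => rw [← List.take_append_drop (D.c j + 1) (X.take D.p0)]
        rw [hPe]
      have ht : (P ++ X.drop (D.c j + 1)).take D.p0 = P ++ (X.take D.p0).drop (D.c j + 1) := by
        rw [List.take_append, List.take_of_length_le (by omega), List.drop_take, hPj]
      have hd : (P ++ X.drop (D.c j + 1)).drop D.p0 = X.drop D.p0 := by
        rw [List.drop_append, List.drop_of_length_le (by omega), List.nil_append, List.drop_drop,
          hPj]
        congr 1
        omega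
      have v1 := h.snd2 j hkK _ _ _ _ hPl hlam hb
      have v2 := h.snd2 j hkK _ _ _ _ hPj hlj hb
      have e1 : b1 D (P ++ X.drop (D.c j + 1)) v' = b1 D X v := by
        unfold b1
        rw [ht, ← v2, v1, ← hu]
      have e2 : T D v' (P ++ X.drop (D.c j + 1)) = T D v X := by
        unfold T
        rw [e1, hd]
      rw [e2]
  · -- a false anchor
    set w := X ++ X2 with hw
    have hwe : w = X.take (D.c k + 1) ++ (X.drop (D.c k + 1) ++ X2) := by
      rw [← List.append_assoc, hXe]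
    set Q := X.drop (D.c k + 1) ++ X2 with hQ
    have hQl : Q.length = X.length - (D.c k + 1) + X2.length := by
      rw [hQ, List.length_append, List.length_drop]
    have hwl : w.length = X.length + X2.length := by rw [hw, List.length_append]
    have hsh : ∀ s', D.n ≤ s' → s' ≤ Q.length →
        (D.W ((P ++ Q).take (D.c j + 1 + s')) ↔ D.W (w.take (D.c k + 1 + s'))) := by
      intro s' h1 h2
      have := shift h P (X.take (D.c k + 1)) Q s' h1 h2
      rw [hPj, hPl, ← hwe] at this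
      exact this
    have hWQ : D.W (P ++ Q) := by
      rw [h.app _ _ (by omega)]
      rw [hwe] at hw2
      exact (h.app _ _ (by omega)).1 hw2
    obtain ⟨Z, hZ, hZp⟩ := first_block (D := D) (w := P ++ Q)
      (by rw [List.length_append]; omega) hWQ
    by_cases hZB : Z ∈ Bd D
    · exfalso
      apply hks
      suffices hEB : EP D w k j ∨ BP D w k j from
        Finset.mem_image.2 ⟨(k, j), Finset.mem_filter.2 ⟨Finset.mem_product.2
          ⟨Finset.mem_range.2 hkK, Finset.mem_range.2 hjK⟩, Ne.symm hjk, hEB⟩, rfl⟩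
      obtain ⟨z1, z2, z3⟩ := hZ
      have hZl := hZp.length_le
      rw [List.length_append, hPj] at hZl
      have hZt : ∀ t, t ≤ Z.length → Z.take t = (P ++ Q).take t := by
        intro t ht
        obtain ⟨r, hr⟩ := hZp
        rw [← hr, List.take_append_of_le_length ht]
      rcases hZB.2 with ⟨y, e1, e2, e3, e4⟩ | hBT
      · left
        rw [hZt y e1] at e4
        obtain ⟨s', rfl⟩ : ∃ s', y = D.c j + 1 + s' := ⟨y - (D.c j + 1), by omega⟩
        rw [hsh s' (by omega) (by omega)] at e4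
        exact ⟨D.c k + 1 + s', by omega, e4, by omega, by omega⟩
      · right
        obtain ⟨s', hs'⟩ : ∃ s', Z.length = D.c j + 1 + s' := ⟨Z.length - (D.c j + 1), by omega⟩
        have hZW : D.W ((P ++ Q).take (D.c j + 1 + s')) := by
          rw [← hs', ← hZt _ le_rfl, List.take_length]
          exact z2
        rw [hsh s' (by omega) (by omega)] at hZW
        refine ⟨D.c k + 1 + s', by omega, hZW, by omega, ?_, ?_⟩
        · intro y2 hy2 hy3 hy4
          obtain ⟨s2, rfl⟩ : ∃ s2, y2 = D.c k + 1 + s2 := ⟨y2 - (D.c k + 1), by omega⟩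
          rw [← hsh s2 (by omega) (by omega)] at hy4
          refine z3 (D.c j + 1 + s2) (by omega) (by omega) ?_
          rw [hZt _ (by omega)]
          exact hy4
        · have : D.c k + 1 + s' + D.c j - D.c k - D.p0 = Z.length - D.p0 := by omega
          rw [this]
          exact hBT
    · right
      exact ⟨Z, hZ, hZB, hZp⟩

end Crest.Agent.R320.Asm_570
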