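import Crest.Agent.R320.AsmA_60

/-!
# Row 320: scheme 2 on all words over helper180's `top2` (helper60)
-/

set_option autoImplicit false

namespace Crest.Agent.R320.Asm_60

open Crest.RegLang Crest.Agent.R320.Hk_851 Crest.Agent.R320.Half1_180

universe u

namespace Dat

variable {α : Type u} {S V : Type*} [Monoid S] [AddCommGroup V] (D : Dat α S V)

/-- band clause -/
def SpE (Y : List α) (k k' : ℕ) : Prop :=
  ∃ t ≤ Y.length, D.Wo (Y.take t) ∧
    D.z0 + D.c k ≤ t + D.c k' + D.N1 ∧ t + D.c k' ≤ D.z0 + D.c k + D.N1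

/-- length clause -/
def SpB (Y : List α) (k k' : ℕ) : Prop :=
  ∃ t ≤ Y.length, D.Wo (Y.take t) ∧
    D.z0 + D.c k ≤ t + D.c k' ∧ (∀ t' < t, D.z0 + D.c k ≤ t' + D.c k' → ¬ D.Wo (Y.take t')) ∧
       D.BT (t + D.c k' - D.c k - D.p0)

theorem sep (Y : List α) {t t' : ℕ} (h : t < t') (ht' : t' ≤ Y.length) (h1 : D.Wo (Y.take t))
    (h2 : D.Wo (Y.take t')) : t + D.W < t' := by
  by_contra hcon
  have hl : (Y.take t').length = t' := by rw [List.length_take]; omega
  apply D.wsep (Y.take t') (t' - t) h2 (by omega) (by omega)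
  rw [hl, List.take_take, min_eq_left (by omega)]
  have : t' - (t' - t) = t := by omega
  rw [this]; exact h1

theorem cardE (Y : List α) (F : Finset (ℕ × ℕ))
    (hF : ∀ ij ∈ F, ij.1 < D.K ∧ ij.2 < D.K ∧ ij.1 ≠ ij.2 ∧ D.SpE Y ij.1 ij.2) : F.card ≤ 1 := by
  refine Finset.card_le_one.2 ?_
  rintro ⟨i, j⟩ hij ⟨k, l⟩ hkl
  obtain ⟨hi, hj, hne, t, ht, hw, h1, h2⟩ := hF _ hij
  obtain ⟨hk, hl, hne', t', ht', hw', h1', h2'⟩ := hF _ hkl
  simp only at hi hj hne h1 h2 hk hl hne' h1' h2'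
  have ci := D.cp0 i hi
  have cj := D.cp0 j hj
  have ck := D.cp0 k hk
  have cl := D.cp0 l hl
  have hW := D.hW
  have htt : t = t' := by
    rcases Nat.lt_trichotomy t t' with h | h | h
    · have := D.sep Y h ht' hw hw'
      omega
    · exact h
    · have := D.sep Y h ht hw' hw
      omega
  subst htt
  by_contra hcon
  have hcon' : ¬ (i = k ∧ j = l) := by
    rintro ⟨rfl, rfl⟩; exact hcon rfl
  rcases D.gol i j k l hi hj hk hl hne hne' hcon' with h | h
  · omega
  · omega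

theorem cardB (Y : List α) (F : Finset (ℕ × ℕ))
    (hF : ∀ ij ∈ F, ij.1 < D.K ∧ ij.2 < D.K ∧ ij.1 ≠ ij.2 ∧ D.SpB Y ij.1 ij.2) :
    F.card ≤ 2 * D.C0 := by
  classical
  have hz := D.hz
  have hW := D.hW
  -- two possible ends
  obtain ⟨e1, e2, he1, he2, hkey⟩ : ∃ e1 e2 : ℕ, D.La ≤ e1 - D.p0 ∧ D.La ≤ e2 - D.p0 ∧
      ∀ ij ∈ F, (∃ x, x + D.c ij.1 = (e1 - D.p0) + D.c ij.2 ∧ D.BT x) ∨
        (∃ x, x + D.c ij.1 = (e2 - D.p0) + D.c ij.2 ∧ D.BT x) := by
    by_cases hex1 : ∃ t, D.z0 ≤ t + D.p0 ∧ t ≤ Y.length ∧ D.Wo (Y.take t)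
    · have hs1 := Nat.find_spec hex1
      have hm1 := fun t => Nat.find_min' (m := t) hex1
      set e1 := Nat.find hex1 with he1
      obtain ⟨e2, hle2, he2⟩ : ∃ e2, D.La ≤ e2 - D.p0 ∧ ∀ t, e1 < t → t ≤ Y.length →
          D.Wo (Y.take t) → (∀ t', e1 < t' → t' < t → ¬ D.Wo (Y.take t')) → t = e2 := by
        by_cases hex2 : ∃ t, e1 < t ∧ t ≤ Y.length ∧ D.Wo (Y.take t)
        · have hs2 := Nat.find_spec hex2
          refine ⟨Nat.find hex2, by omega, ?_⟩
          intro t h1 h2 h3 h4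
          have h5 := Nat.find_min' hex2 ⟨h1, h2, h3⟩
          rcases Nat.lt_or_ge (Nat.find hex2) t with h | h
          · exact absurd hs2.2.2 (h4 _ hs2.1 h)
          · omega
        · refine ⟨D.z0, by omega, ?_⟩
          intro t h1 h2 h3 _
          exact absurd ⟨t, h1, h2, h3⟩ hex2
      refine ⟨e1, e2, by omega, hle2, ?_⟩
      rintro ⟨i, j⟩ hij
      obtain ⟨hi, hj, hne, t, ht, hw, h1, hmin, hB⟩ := hF _ hij
      simp only at hi hj hne h1 hmin hB ⊢
      have ci := D.cp0 i hi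
      have cj := D.cp0 j hj
      have h0 := hm1 t ⟨by omega, ht, hw⟩
      rcases Nat.lt_or_ge e1 t with h | h
      · right
        have hlt : e1 + D.c j < D.z0 + D.c i := by
          by_contra hcon
          exact hmin e1 h (by omega) hs1.2.2
        have : t = e2 := by
          refine he2 t h ht hw ?_
          intro t' h2 h3 hw'
          have hsep := D.sep Y h2 (by omega) hs1.2.2 hw'
          exact hmin t' h3 (by omega) hw'
        subst this
        exact ⟨_, by omega, hB⟩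
      · left
        have : t = e1 := by omega
        subst this
        exact ⟨_, by omega, hB⟩
    · refine ⟨D.z0, D.z0, by omega, by omega, ?_⟩
      rintro ⟨i, j⟩ hij
      obtain ⟨hi, hj, hne, t, ht, hw, h1, hmin, hB⟩ := hF _ hij
      simp only at hi hj h1
      have ci := D.cp0 i hi
      have cj := D.cp0 j hj
      exact absurd ⟨t, by omega, ht, hw⟩ hex1
  have h1 := D.thin (e1 - D.p0) he1
    (F.filter fun ij => ∃ x, x + D.c ij.1 = (e1 - D.p0) + D.c ij.2 ∧ D.BT x) (by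
      intro ij hij
      rw [Finset.mem_filter] at hij
      obtain ⟨a, b, c, _⟩ := hF _ hij.1
      exact ⟨a, b, c, hij.2⟩)
  have h2 := D.thin (e2 - D.p0) he2
    (F.filter fun ij => ∃ x, x + D.c ij.1 = (e2 - D.p0) + D.c ij.2 ∧ D.BT x) (by
      intro ij hij
      rw [Finset.mem_filter] at hij
      obtain ⟨a, b, c, _⟩ := hF _ hij.1
      exact ⟨a, b, c, hij.2⟩)
  have h3 : F ⊆ (F.filter fun ij => ∃ x, x + D.c ij.1 = (e1 - D.p0) + D.c ij.2 ∧ D.BT x) ∪
      (F.filter fun ij => ∃ x, x + D.c ij.1 = (e2 - D.p0) + D.c ij.2 ∧ D.BT x) := by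
    intro ij hij
    rw [Finset.mem_union, Finset.mem_filter, Finset.mem_filter]
    rcases hkey ij hij with h | h
    · exact Or.inl ⟨hij, h⟩
    · exact Or.inr ⟨hij, h⟩
  have h4 := (Finset.card_le_card h3).trans (Finset.card_union_le _ _)
  omega

theorem cardSp (Y : List α) (I : Finset ℕ) (hI : ∀ k ∈ I, k < D.K)
    (h : ∀ k ∈ I, ∃ k' < D.K, k ≠ k' ∧ (D.SpE Y k k' ∨ D.SpB Y k k')) :
    I.card ≤ 2 * D.C0 + 1 := by
  classical
  choose! g hg1 hg2 hg3 using h
  have e1 := D.cardE Y ((I.image fun k => (k, g k)).filter fun ij => D.SpE Y ij.1 ij.2) (by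
    intro ij hij
    rw [Finset.mem_filter, Finset.mem_image] at hij
    obtain ⟨⟨k, hk, rfl⟩, h2⟩ := hij
    exact ⟨hI k hk, hg1 k hk, hg2 k hk, h2⟩)
  have e2 := D.cardB Y ((I.image fun k => (k, g k)).filter fun ij => D.SpB Y ij.1 ij.2) (by
    intro ij hij
    rw [Finset.mem_filter, Finset.mem_image] at hij
    obtain ⟨⟨k, hk, rfl⟩, h2⟩ := hij
    exact ⟨hI k hk, hg1 k hk, hg2 k hk, h2⟩)
  have h3 : (I.image fun k => (k, g k)) ⊆
      ((I.image fun k => (k, g k)).filter fun ij => D.SpE Y ij.1 ij.2) ∪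
      ((I.image fun k => (k, g k)).filter fun ij => D.SpB Y ij.1 ij.2) := by
    intro ij hij
    rw [Finset.mem_union, Finset.mem_filter, Finset.mem_filter]
    obtain ⟨k, hk, rfl⟩ := Finset.mem_image.1 hij
    rcases hg3 k hk with h | h
    · exact Or.inl ⟨hij, h⟩
    · exact Or.inr ⟨hij, h⟩
  have h4 := (Finset.card_le_card h3).trans (Finset.card_union_le _ _)
  have h5 : (I.image fun k => (k, g k)).card = I.card :=
    Finset.card_image_of_injective _ (fun a b h => (Prod.mk.inj h).1)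
  omega

theorem sound2 (v v' : V) (P Q R : List α) (hP : P ∈ D.LP2 v) (hQ : Q ∈ D.RQ2 v')
    (hB : Bs D.Bad (P ++ (Q ++ R))) : Tr D.XX D.T v (P ++ Q) v' ∧ Bs D.Bad R := by
  have hsub : D.Bad ⊆ D.XX := fun X hX => hX.1
  rcases hQ v P hP with ⟨X, E, hX, e⟩ | ⟨X, X2, hX, hX2, e, hv⟩
  · exfalso
    have e' : P ++ (Q ++ R) = X ++ (E ++ R) := by
      rw [← List.append_assoc, e, List.append_assoc]
    rcases Bs.inv D.pf hsub hB with h0 | ⟨Y, hY, w, hw, _⟩
    · rw [e'] at h0
      exact D.pf.1 X hX.1 (List.append_eq_nil_iff.1 h0).1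
    · rw [e'] at hw
      have h1 := (D.pf.eq hX.1 (hsub hY) hw).1
      subst h1
      exact hX.2 hY.2
  · have e' : P ++ (Q ++ R) = X ++ (X2 ++ R) := by
      rw [← List.append_assoc, e, List.append_assoc]
    rw [e'] at hB
    refine ⟨?_, ?_⟩
    · rw [e]
      refine Tr.cons (hsub hX) ?_
      rw [← hv]
      exact Tr.single (hsub hX2)
    · rcases Bs.inv D.pf hsub hB with h0 | ⟨Y, hY, w, hw, hw'⟩
      · exact absurd (List.append_eq_nil_iff.1 h0).1 (D.pf.1 X hX.1)
      · have h1 := (D.pf.eq (hsub hX) (hsub hY) hw).2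
        subst h1
        rcases Bs.inv D.pf hsub hw' with h0 | ⟨Z, hZ, w, hw, hw'⟩
        · exact absurd (List.append_eq_nil_iff.1 h0).1 (D.pf.1 X2 hX2.1)
        · have h1 := (D.pf.eq (hsub hX2) (hsub hZ) hw).2
          subst h1
          exact hw'

theorem compl2 (Y1 : List α) (hY1 : Y1 ∈ D.Bad) (Y2 : List α) (hY2 : Y2 ∈ D.Bad) (v : V) :
    ∃ P Q, Y1 ++ Y2 = P ++ Q ∧ P ∈ D.LP2 v ∧ Q ∈ D.RQ2 (D.T Y2 (D.T Y1 v)) := by
  classical
  have hz := D.hz
  obtain ⟨⟨hl1, hw1, hno1⟩, hb1⟩ := hY1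
  have hl2 : D.z0 ≤ Y2.length := hY2.1.1
  have hw2 : D.Wo Y2 := hY2.1.2.1
  have hul : (Y1.take D.p0).length = D.p0 := by rw [List.length_take]; omega
  obtain ⟨I, hI, hIk⟩ := D.ec (Y1.take D.p0) v (fun k hk => by rw [hul]; exact D.cp0 k hk)
  obtain ⟨k, hkI, hk⟩ : ∃ k ∈ I, ¬ ∃ k' < D.K, k ≠ k' ∧
      (D.SpE (Y1 ++ Y2) k k' ∨ D.SpB (Y1 ++ Y2) k k') := by
    by_contra hcon
    push Not at hcon
    have h := D.cardSp (Y1 ++ Y2) I (fun k hk => (hIk k hk).1) (fun k hk => by
      by_contra hc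
      obtain ⟨k', h1, h2, h3⟩ := hcon k hk
      exact hc ⟨k', h1, h2, h3⟩)
    have := D.hR
    omega
  obtain ⟨hkK, hlam, hrho⟩ := hIk k hkI
  obtain ⟨b, hb⟩ := Option.isSome_iff_exists.1 hrho
  have hck := D.cp0 k hkK
  have htk : (Y1.take D.p0).take (D.c k) = Y1.take (D.c k) := by
    rw [List.take_take, min_eq_left hck]
  rw [htk] at hlam
  have hPl : (Y1.take (D.c k)).length = D.c k := by rw [List.length_take]; omega
  have hYe : Y1 = Y1.take (D.c k) ++ Y1.drop (D.c k) := (List.take_append_drop _ _).symm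
  have hYY : Y1 ++ Y2 = Y1.take (D.c k) ++ (Y1.drop (D.c k) ++ Y2) := by
    rw [← List.append_assoc, ← hYe]
  have hdl : (Y1.drop (D.c k)).length = Y1.length - D.c k := List.length_drop
  refine ⟨Y1.take (D.c k), Y1.drop (D.c k) ++ Y2, hYY, ⟨k, hkK, hPl, hlam⟩, ?_⟩
  rintro v'' P'' ⟨k'', hk'', hP''l, hlam''⟩
  have hck'' := D.cp0 k'' hk''
  by_cases hkk : k = k''
  · subst hkk
    right
    have hu0 : Y1.take D.p0 = Y1.take (D.c k) ++ (Y1.take D.p0).drop (D.c k) := by
      conv_lhs => rw [← List.take_append_drop (D.c k) (Y1.take D.p0)]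
      rw [htk]
    have hXt : (P'' ++ Y1.drop (D.c k)).take D.p0 = P'' ++ (Y1.take D.p0).drop (D.c k) := by
      rw [List.take_append, List.take_of_length_le (by omega), hP''l, List.drop_take]
    have hXd : (P'' ++ Y1.drop (D.c k)).drop D.p0 = Y1.drop D.p0 := by
      rw [List.drop_append, List.drop_of_length_le (by omega), hP''l, List.drop_drop,
        List.nil_append]
      congr 1
      omega
    have hsh : ∀ t, D.c k + D.n ≤ t → t ≤ Y1.length →
        (D.Wo ((P'' ++ Y1.drop (D.c k)).take t) ↔ D.Wo (Y1.take t)) := by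
      intro t h1 h2
      rw [D.wo_take P'' (Y1.drop (D.c k)) t (by omega) (by omega)]
      conv_rhs => rw [hYe]
      rw [D.wo_take (Y1.take (D.c k)) (Y1.drop (D.c k)) t (by omega) (by omega), hPl, hP''l]
    have hXl : (P'' ++ Y1.drop (D.c k)).length = Y1.length := by
      rw [List.length_append]; omega
    have hWX : D.Wo (P'' ++ Y1.drop (D.c k)) := by
      have := (hsh Y1.length (by omega) le_rfl).2 (by rw [List.take_length]; exact hw1)
      rwa [← hXl, List.take_length] at this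
    refine ⟨P'' ++ Y1.drop (D.c k), Y2, ⟨⟨by omega, hWX, ?_⟩, ?_⟩, hY2, by simp, ?_⟩
    · intro t h1 h2
      rw [hXl] at h2
      rw [hsh t (by omega) (by omega)]
      exact hno1 t h1 h2
    · rcases hb1 with ⟨t, h1, h2, h3, h4⟩ | h
      · left
        refine ⟨t, by omega, h2, h3, ?_⟩
        rw [hsh t (by omega) h1]
        exact h4
      · right
        rw [hXl]
        exact h
    · congr 1
      unfold T
      rw [hXt, hXd]
      have r1 := D.es k hkK P'' _ v'' b hP''l hlam'' hb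
      have r2 := D.es k hkK (Y1.take (D.c k)) _ v b hPl hlam hb
      rw [← hu0] at r2
      have r3 : D.act v'' (D.pr (P'' ++ (Y1.take D.p0).drop (D.c k))) +
          D.nuE (P'' ++ (Y1.take D.p0).drop (D.c k)) =
          D.act v (D.pr (Y1.take D.p0)) + D.nuE (Y1.take D.p0) := by
        rw [pr, pr, ← r1, ← r2]
      rw [r3]
  · left
    have hQl : (Y1.drop (D.c k) ++ Y2).length = Y1.length - D.c k + Y2.length := by
      rw [List.length_append, hdl]
    have hWw : D.Wo (P'' ++ (Y1.drop (D.c k) ++ Y2)) := by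
      rw [← List.append_assoc, D.wloc _ _ (by omega)]
      exact hw2
    obtain ⟨X, E, hX, hXE⟩ := D.first hWw (by rw [List.length_append]; omega)
    have hwl : X.length ≤ (P'' ++ (Y1.drop (D.c k) ++ Y2)).length := by
      rw [hXE, List.length_append]; omega
    rw [List.length_append, hP''l] at hwl
    have hXt : ∀ t ≤ X.length, X.take t = (P'' ++ (Y1.drop (D.c k) ++ Y2)).take t := by
      intro t ht
      rw [hXE, List.take_append_of_le_length ht]
    -- shift to the text `Y1 ++ Y2`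
    have hsh : ∀ t s, D.c k'' + D.n ≤ t → t ≤ X.length → s + D.c k'' = t + D.c k →
        (D.Wo (X.take t) ↔ D.Wo ((Y1 ++ Y2).take s)) := by
      intro t s h1 h2 h3
      rw [hXt t h2, D.wo_take P'' _ t (by omega) (by omega)]
      conv_rhs => rw [hYY]
      rw [D.wo_take (Y1.take (D.c k)) _ s (by omega) (by omega), hPl, hP''l]
      have : t - D.c k'' = s - D.c k := by omega
      rw [this]
    have hYl : (Y1 ++ Y2).length = Y1.length + Y2.length := List.length_append
    refine ⟨X, E, ⟨hX, ?_⟩, hXE⟩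
    have hXl := hX.1
    rintro (⟨t, h1, h2, h3, h4⟩ | h)
    · refine hk ⟨k'', hk'', hkk, Or.inl ⟨t + D.c k - D.c k'', by omega, ?_, by omega, by omega⟩⟩
      rw [← hsh t _ (by omega) h1 (by omega)]
      exact h4
    · refine hk ⟨k'', hk'', hkk, Or.inr ⟨X.length + D.c k - D.c k'', by omega, ?_, by omega, ?_, ?_⟩⟩
      · rw [← hsh X.length _ (by omega) le_rfl (by omega), List.take_length]
        exact hX.2.1
      · intro t' h1 h2 h3
        rw [← hsh (t' + D.c k'' - D.c k) t' (by omega) (by omega) (by omega)] at h3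
        exact hX.2.2 _ (by omega) (by omega) h3
      · have : X.length + D.c k - D.c k'' + D.c k'' - D.c k - D.p0 = X.length - D.p0 := by omega
        rw [this]
        exact h

end Dat

end Crest.Agent.R320.Asm_60
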