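import Crest.Agent.R320.AsmA_700

/-! # Row 320, scheme 1 in blocks of the natural chain (helper700). -/

set_option autoImplicit false

namespace Crest.Agent.R320.Asm_700

open Crest.RegLang Crest.Agent.R320.Hk_851 Crest.Agent.R320.FewWalls_228

universe u
variable {α : Type u} {S V : Type} [Monoid S] [AddCommGroup V]

/-- the data of the assembly -/
structure Dt (α : Type u) (S V : Type) [Monoid S] [AddCommGroup V] where
  φ : α → S
  act : V → S → V
  n : ℕ
  Sw : Set (List α)
  z : ℕ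
  p0 : ℕ
  N1 : ℕ
  lam : List S → Option V
  rho : List S → Option V
  nu : List S → V
  nu2 : List S → V

variable (D : Dt α S V)

namespace Dt

def pr (w : List α) : S := (w.map D.φ).prod

theorem pr_append (u v : List α) : D.pr (u ++ v) = D.pr u * D.pr v := by
  simp [pr]

noncomputable def tt (X : List α) : ℕ := sInf {t | FW D.n D.Sw X D.z t}

theorem tt_eq {X : List α} {t : ℕ} (h : FW D.n D.Sw X D.z t) : D.tt X = t := by
  have : {t | FW D.n D.Sw X D.z t} = {t} := by
    ext t'
    exact ⟨fun h' => FW.uniq h' h, fun h' => by rw [Set.mem_singleton_iff] at h'; subst h'; exact h⟩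
  unfold tt
  rw [this, csInf_singleton]

/-- value of the token at `a + p0` -/
def v0 (v : V) (X0 : List α) : V := D.act v (D.pr X0) + D.nu2 (X0.map D.φ)

noncomputable def nuT (X : List α) : V :=
  D.act (D.act (D.nu2 ((X.take D.p0).map D.φ)) (D.pr ((X.take (D.tt X)).drop D.p0)) +
    D.nu (((X.take (D.tt X)).drop D.p0).map D.φ)) (D.pr (X.drop (D.tt X)))

noncomputable def T (v : V) (X : List α) : V := D.act v (D.pr X) + D.nuT X

structure Good : Prop where
  hadd : ∀ a b s, D.act (a + b) s = D.act a s + D.act b s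
  hmul : ∀ v s t, D.act v (s * t) = D.act (D.act v s) t
  hz : D.p0 + 2 * D.N1 + D.n ≤ D.z
  hn : 0 < D.n
  lamlen : ∀ P v, D.lam P = some v → P.length ≤ D.N1
  sound : ∀ P Q v r, D.lam P = some v → D.rho Q = some r →
    r = D.act v (P ++ Q).prod + D.nu (P ++ Q)

variable {D}

theorem T_eq (hD : D.Good) (v : V) (X0 Y Z : List α) (h0 : X0.length = D.p0)
    (ht : FW D.n D.Sw (X0 ++ (Y ++ Z)) D.z (D.p0 + Y.length)) :
    D.T v (X0 ++ (Y ++ Z)) =
      D.act (D.act (D.v0 v X0) (D.pr Y) + D.nu (Y.map D.φ)) (D.pr Z) := by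
  have e := D.tt_eq ht
  unfold T nuT v0
  rw [e]
  have e1 : (X0 ++ (Y ++ Z)).take D.p0 = X0 := by
    rw [← h0]; simp
  have e2 : ((X0 ++ (Y ++ Z)).take (D.p0 + Y.length)).drop D.p0 = Y := by
    rw [← h0, ← List.append_assoc, ← List.length_append, List.take_left, List.drop_left]
  have e3 : (X0 ++ (Y ++ Z)).drop (D.p0 + Y.length) = Z := by
    rw [← h0, ← List.append_assoc, ← List.length_append, List.drop_left]
  rw [e1, e2, e3, pr_append, pr_append, hD.hmul, hD.hmul, ← hD.hadd, ← add_assoc, ← hD.hadd]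

variable (D) in
def LP1 (v : V) : Set (List α) :=
  {P | D.p0 ≤ P.length ∧ D.lam ((P.drop D.p0).map D.φ) = some (D.v0 v (P.take D.p0))}

variable (D) in
def RQ1 (u : V) : Set (List α) :=
  {Q | ∀ v, ∀ P ∈ D.LP1 v, BX D.n D.Sw D.z (P ++ Q) ∧ D.T v (P ++ Q) = u}

theorem LP1_len (hD : D.Good) {v : V} {P : List α} (h : P ∈ D.LP1 v) :
    D.p0 ≤ P.length ∧ P.length ≤ D.p0 + D.N1 := by
  refine ⟨h.1, ?_⟩
  have := hD.lamlen _ _ h.2
  rw [List.length_map, List.length_drop] at this
  omega

theorem value1 (hD : D.Good) {v r : V} {P Q Z : List α} (hP : P ∈ D.LP1 v)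
    (hr : D.rho (Q.map D.φ) = some r)
    (ht : FW D.n D.Sw (P ++ (Q ++ Z)) D.z (P.length + Q.length)) :
    D.T v (P ++ (Q ++ Z)) = D.act r (D.pr Z) := by
  obtain ⟨h1, h2⟩ := hP
  have e0 : (P.take D.p0).length = D.p0 := by rw [List.length_take]; omega
  have e : P ++ (Q ++ Z) = P.take D.p0 ++ ((P.drop D.p0 ++ Q) ++ Z) := by
    rw [List.append_assoc, ← List.append_assoc (P.take D.p0), List.take_append_drop]
  have hl : D.p0 + (P.drop D.p0 ++ Q).length = P.length + Q.length := by
    rw [List.length_append, List.length_drop]; omega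
  rw [e] at ht ⊢
  rw [← hl] at ht
  rw [T_eq hD v _ _ _ e0 ht]
  have := hD.sound _ _ _ _ h2 hr
  rw [this, ← List.map_append]
  rfl

theorem cut1 (hD : D.Good) {X : List α} {t N0 : ℕ} (BadT : ℕ → Prop)
    (comp : ∀ X : List S, N0 ≤ X.length → ¬ BadT X.length → ∀ v, ∃ P Q, X = P ++ Q ∧
      D.lam P = some v ∧ (D.rho Q).isSome)
    (ht : FW D.n D.Sw X D.z t) (hX : FW D.n D.Sw X (t + 1) X.length)
    (noE : ∀ y, D.z ≤ y + D.N1 → y < D.z + D.N1 → ¬ WE D.n D.Sw X y)
    (hN0 : N0 + D.p0 ≤ t) (hB : ¬ BadT (t - D.p0)) (v : V) :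
    ∃ P Q, P ++ Q = X ∧ P ∈ D.LP1 v ∧ Q ∈ D.RQ1 (D.T v X) := by
  have htX : t < X.length := hX.2.1
  have hz := hD.hz
  have htz : D.z ≤ t := ht.2.1
  have htN : D.z + D.N1 ≤ t := by
    by_contra hc
    exact noE t (by omega) (by omega) ht.1
  set X0 := X.take D.p0 with hX0
  set Y := (X.take t).drop D.p0 with hY
  set Z := X.drop t with hZ
  have l0 : X0.length = D.p0 := by rw [hX0, List.length_take]; omega
  have lY : Y.length = t - D.p0 := by
    rw [hY, List.length_drop, List.length_take]; omega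
  have eX : X = X0 ++ (Y ++ Z) := by
    have e1 : X0 ++ Y = X.take t := by
      have : X0 = (X.take t).take D.p0 := by
        rw [List.take_take, hX0]; congr 1; omega
      rw [this, hY, List.take_append_drop]
    rw [← List.append_assoc, e1, hZ, List.take_append_drop]
  obtain ⟨P1, Q1, e1, hlam, hrho⟩ := comp (Y.map D.φ) (by rw [List.length_map, lY]; omega)
    (by rw [List.length_map, lY]; exact hB) (D.v0 v X0)
  obtain ⟨P', Q', hPQ, hP', hQ'⟩ := List.map_eq_append_iff.1 e1
  subst hP' hQ'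
  obtain ⟨r, hr⟩ := Option.isSome_iff_exists.1 hrho
  set P := X0 ++ P' with hP
  set Q := Q' ++ Z with hQ
  have lP : P.length = D.p0 + P'.length := by rw [hP, List.length_append, l0]
  have eP : P ++ Q = X := by
    rw [hP, hQ, eX, hPQ]; simp
  have lP' : P'.length ≤ D.N1 := by
    have := hD.lamlen _ _ hlam
    rwa [List.length_map] at this
  have hPmem : P ∈ D.LP1 v := by
    refine ⟨by omega, ?_⟩
    have e2 : P.drop D.p0 = P' := by rw [hP, ← l0, List.drop_left]
    have e3 : P.take D.p0 = X0 := by rw [hP, ← l0, List.take_left]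
    rw [e2, e3]; exact hlam
  have lQ' : P.length + Q'.length = t := by
    have := congrArg List.length hPQ
    rw [lY, List.length_append] at this
    omega
  have lX : X.length = P.length + Q.length := by rw [← eP, List.length_append]
  have hval : D.T v X = D.act r (D.pr Z) := by
    rw [← eP, hQ]
    refine value1 hD hPmem hr ?_
    rw [lQ', ← hQ, eP]
    exact ht
  refine ⟨P, Q, eP, hPmem, ?_⟩
  intro v' P2 hP2
  obtain ⟨h1, h2⟩ := LP1_len hD hP2
  -- walls
  have hwall : ∀ y, D.z ≤ P2.length + y →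
      (WE D.n D.Sw (P2 ++ Q) (P2.length + y) ↔ WE D.n D.Sw X (P.length + y)) := by
    intro y hy
    rw [WE_shift P2 (by omega), ← eP, WE_shift P (by omega)]
  have ht2 : FW D.n D.Sw (P2 ++ Q) D.z (P2.length + Q'.length) := by
    refine ⟨(hwall _ (by omega)).2 (by rw [lQ']; exact ht.1), by omega, ?_⟩
    intro y hy1 hy2 hw
    obtain ⟨y', rfl⟩ : ∃ y', y = P2.length + y' := ⟨y - P2.length, by omega⟩
    have hw' := (hwall y' hy1).1 hw
    by_cases hc : D.z ≤ P.length + y'
    · exact ht.2.2 _ hc (by omega) hw'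
    · exact noE _ (by omega) (by omega) hw'
  have hX2 : FW D.n D.Sw (P2 ++ Q) (P2.length + Q'.length + 1) (P2 ++ Q).length := by
    rw [List.length_append]
    refine ⟨(hwall _ (by omega)).2 (by rw [← lX]; exact hX.1), by omega, ?_⟩
    intro y hy1 hy2 hw
    obtain ⟨y', rfl⟩ : ∃ y', y = P2.length + y' := ⟨y - P2.length, by omega⟩
    have hw' := (hwall y' (by omega)).1 hw
    exact hX.2.2 _ (by omega) (by omega) hw'
  refine ⟨⟨_, ht2, hX2⟩, ?_⟩
  rw [hval]
  exact value1 hD hP2 hr ht2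

end Dt

end Crest.Agent.R320.Asm_700
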