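import Crest.Agent.R320.AsmA_713

/-!
# Row 320: data of the all-words assembly, regularity and the first scheme (helper713)
-/

set_option autoImplicit false

namespace Crest.Agent.R320.AsmB_713

open Crest.RegLang Crest.Agent.R320.Hk_851 Crest.Agent.R320.Half1_180 Crest.Agent.R320.AsmA_713

section Reg

variable {α : Type} [Finite α] {S : Type} [Monoid S] [Finite S]

theorem reg2 (f : α → S) (N0 j Pm : ℕ) (hPm : 0 < Pm) (p : List α → ℕ → S → Prop) :
    Language.IsRegular ({w | p (w.take N0) (w.length % Pm) ((w.drop j).map f).prod} :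
      Language α) := by
  classical
  rw [Language.isRegular_iff_finite_range_leftQuotient]
  set L : Language α := {w | p (w.take N0) (w.length % Pm) ((w.drop j).map f).prod} with hL
  let M := max N0 j
  have : Finite {b : List α // b.length ≤ M} := (List.finite_length_le α M).to_subtype
  let g : List α → {b : List α // b.length ≤ M} × Fin Pm × S := fun w =>
    (⟨w.take M, by rw [List.length_take]; omega⟩, ⟨w.length % Pm, Nat.mod_lt _ hPm⟩,
      ((w.drop j).map f).prod)
  have key : ∀ x x', g x = g x' → L.leftQuotient x = L.leftQuotient x' := by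
    intro x x' h
    have h1 : x.take M = x'.take M := congrArg (fun q => (q.1 : List α)) h
    have h2 : x.length % Pm = x'.length % Pm := congrArg (fun q => (q.2.1 : ℕ)) h
    have h3 : ((x.drop j).map f).prod = ((x'.drop j).map f).prod := congrArg (fun q => q.2.2) h
    have hl : (x.take M).length = (x'.take M).length := by rw [h1]
    rw [List.length_take, List.length_take] at hl
    have hM1 : N0 ≤ M := le_max_left _ _
    have hM2 : j ≤ M := le_max_right _ _
    by_cases hx : x.length < M
    · have e1 : x.take M = x := List.take_of_length_le (by omega)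
      have e2 : x'.take M = x' := List.take_of_length_le (by omega)
      rw [e1, e2] at h1
      rw [h1]
    · have t1 : ∀ y : List α, (x ++ y).take N0 = (x' ++ y).take N0 := by
        intro y
        rw [List.take_append_of_le_length (by omega), List.take_append_of_le_length (by omega)]
        have := congrArg (List.take N0) h1
        rwa [List.take_take, List.take_take, min_eq_left hM1] at this
      have t2 : ∀ y : List α, (x ++ y).length % Pm = (x' ++ y).length % Pm := by
        intro y
        rw [List.length_append, List.length_append, Nat.add_mod, h2, ← Nat.add_mod]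
      have t3 : ∀ y : List α, (((x ++ y).drop j).map f).prod = (((x' ++ y).drop j).map f).prod := by
        intro y
        rw [List.drop_append_of_le_length (by omega), List.drop_append_of_le_length (by omega),
          List.map_append, List.map_append, List.prod_append, List.prod_append, h3]
      ext y
      show p ((x ++ y).take N0) ((x ++ y).length % Pm) (((x ++ y).drop j).map f).prod ↔
        p ((x' ++ y).take N0) ((x' ++ y).length % Pm) (((x' ++ y).drop j).map f).prod
      rw [t1, t2, t3]
  let F : {b : List α // b.length ≤ M} × Fin Pm × S → Language α := fun s =>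
    if h : ∃ x, g x = s then L.leftQuotient h.choose else 0
  refine (Set.finite_range F).subset ?_
  rintro _ ⟨x, rfl⟩
  refine ⟨g x, ?_⟩
  have hex : ∃ x', g x' = g x := ⟨x, rfl⟩
  show (if h : ∃ x', g x' = g x then L.leftQuotient h.choose else 0) = _
  rw [dif_pos hex]
  exact key _ _ hex.choose_spec

theorem blk_HL {W : ℕ} (G : LWalls α W) (f : α → S) (z N0 j Pm : ℕ) (hPm : 0 < Pm)
    (cond : List α → Prop)
    (hdet : ∀ X X', X ∈ XX G z → X' ∈ XX G z → X.take N0 = X'.take N0 →
      X.length % Pm = X'.length % Pm → ((X.drop j).map f).prod = ((X'.drop j).map f).prod →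
      cond X → cond X') : HL 1 (Lg fun X => X ∈ XX G z ∧ cond X) := by
  have h1 := G.few _ (reg2 f N0 j Pm hPm (fun u r m => ∃ X ∈ XX G z, X.take N0 = u ∧
    X.length % Pm = r ∧ ((X.drop j).map f).prod = m ∧ cond X)) z
  have h2 : HL 1 (Lof (XX G z)) := (HL_XX G z).mono (by omega)
  refine (h2.inf h1).congr fun w => Iff.symm ?_
  constructor
  · rintro ⟨hw, ⟨X, hX, e1, e2, e3, hc⟩, _⟩
    exact ⟨hw, hdet X w hX hw e1 e2 e3 hc⟩
  · rintro ⟨hw, hc⟩
    exact ⟨hw, ⟨w, hw, rfl, rfl, rfl, hc⟩, XX_AM G hw⟩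

end Reg

open Classical in
/-- all data of the assembly -/
structure Dat (α S V : Type) [Monoid S] [AddCommGroup V] where
  act : V → S → V
  f : α → S
  W : ℕ
  G : LWalls α W
  z : ℕ
  N1 : ℕ
  Pm : ℕ
  La : ℕ
  p0 : ℕ
  K : ℕ
  C0 : ℕ
  Bad : ℕ → Prop
  c : ℕ → ℕ
  lam : List α → Option V
  rho : List α → Option V
  nu1 : List α → V
  nu2 : List α → V
  lam2 : ℕ → List α → Option V
  rho2 : ℕ → List α → Option V
  hadd : ∀ v w s, act (v + w) s = act v s + act w s
  hmul : ∀ v s s', act (act v s) s' = act v (s * s')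
  hPm : 0 < Pm
  hrul : ∀ i j k l, i < K → j < K → k < K → l < K → i ≠ j → k ≠ l → (i, j) ≠ (k, l) →
      c i + c l + 4 * N1 < c k + c j ∨ c k + c j + 4 * N1 < c i + c l
  hper : ∀ T, Bad (T + Pm) ↔ Bad T
  hcard : ∀ T, La ≤ T → (((Finset.range K ×ˢ Finset.range K).filter
      (fun p => p.1 ≠ p.2 ∧ Bad (T + c p.2 - c p.1))).card ≤ C0)
  hlam : ∀ (p : List α) v, lam p = some v → p.length ≤ N1
  hsnd : ∀ (p q : List α) v r, lam p = some v → rho q = some r → La ≤ q.length →
        r = act v (((p ++ q).map f).prod) + nu1 (p ++ q)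
  hcmp : ∀ u : List α, La ≤ u.length → ¬ Bad u.length → ∀ v, ∃ p q, p ++ q = u ∧ lam p = some v ∧
        (rho q).isSome
  hdet : ∀ q q2 : List α, La ≤ q.length → La ≤ q2.length → q.take La = q2.take La →
        q.length % Pm = q2.length % Pm → (q.map f).prod = (q2.map f).prod →
        rho q = rho q2 ∧ nu1 q = nu1 q2
  hcp : ∀ k < K, c k ≤ p0
  hW : 2 * p0 + 2 * N1 < W
  hz : 3 * p0 + 3 * N1 + La + G.n < z
  snd2 : ∀ k < K, ∀ (P Q : List α) v b, P.length = c k → (P ++ Q).length = p0 → lam2 k P = some v →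
        rho2 k Q = some b → b = act v (((P ++ Q).map f).prod) + nu2 (P ++ Q)
  cmp2 : ∀ (u : List α) v, u.length = p0 → ∃ I : Finset ℕ, 2 * C0 + 2 ≤ I.card ∧ ∀ k ∈ I, k < K ∧
        lam2 k (u.take (c k)) = some v ∧ (rho2 k (u.drop (c k))).isSome

namespace Dat

variable {α S V : Type} [Monoid S] [AddCommGroup V] (D : Dat α S V)

def ph (w : List α) : S := (w.map D.f).prod

theorem ph_append (u w : List α) : D.ph (u ++ w) = D.ph u * D.ph w := by
  unfold ph; rw [List.map_append, List.prod_append]

def BC (X : List α) : Prop :=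
  (∃ t, D.z ≤ t + D.N1 ∧ t < D.z + D.N1 ∧ D.G.LW X t) ∨ D.Bad (X.length - D.p0)

def BX : Set (List α) := {X | X ∈ XX D.G D.z ∧ D.BC X}

def GX : Set (List α) := {X | X ∈ XX D.G D.z ∧ ¬ D.BC X}

theorem XX_eq : XX D.G D.z = D.GX ∪ D.BX := by
  ext X
  constructor
  · intro h
    by_cases hb : D.BC X
    · exact Or.inr ⟨h, hb⟩
    · exact Or.inl ⟨h, hb⟩
  · rintro (h | h)
    · exact h.1
    · exact h.1

def T (X : List α) (v : V) : V :=
  D.act (D.act v (D.ph (X.take D.p0)) + D.nu2 (X.take D.p0)) (D.ph (X.drop D.p0)) +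
    D.nu1 (X.drop D.p0)

theorem act_sub (v v' : V) (s : S) : D.act (v - v') s = D.act v s - D.act v' s := by
  have h := D.hadd (v - v') v' s
  rw [sub_add_cancel] at h
  rw [h, add_sub_cancel_right]

theorem hT (X : List α) (v v' : V) : D.T X v - D.T X v' = D.act (v - v') (X.map D.f).prod := by
  have e : (X.map D.f).prod = D.ph (X.take D.p0) * D.ph (X.drop D.p0) := by
    rw [← D.ph_append, List.take_append_drop]; rfl
  rw [e, ← D.hmul, D.act_sub, D.act_sub]
  unfold T
  rw [D.hadd, D.hadd]
  abel

theorem LW_take {w : List α} {M t : ℕ} (h : t ≤ M) (h' : t ≤ w.length) :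
    D.G.LW (w.take M) t ↔ D.G.LW w t := by
  have := D.G.pre (w.take M) (w.drop M) t (by rw [List.length_take]; omega)
  rw [List.take_append_drop] at this
  exact this.symm

theorem LW_suf {p w : List α} {t : ℕ} (h : p.length + D.G.n ≤ t) :
    D.G.LW (p ++ w) t ↔ D.G.LW w (t - p.length) := by
  have := D.G.suf p w (t - p.length) (by omega)
  rwa [show p.length + (t - p.length) = t by omega] at this

theorem bad_per {a b : ℕ} (h : a % D.Pm = b % D.Pm) : D.Bad a ↔ D.Bad b := by
  have key : ∀ (k r : ℕ), D.Bad (r + k * D.Pm) ↔ D.Bad r := by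
    intro k
    induction k with
    | zero => intro r; simp
    | succ k ih =>
      intro r
      rw [show r + (k + 1) * D.Pm = (r + k * D.Pm) + D.Pm by ring, D.hper, ih]
  have ea := key (a / D.Pm) (a % D.Pm)
  have eb := key (b / D.Pm) (b % D.Pm)
  have h1 : a % D.Pm + a / D.Pm * D.Pm = a := by
    have := Nat.div_add_mod a D.Pm; rw [mul_comm] at this; omega
  have h2 : b % D.Pm + b / D.Pm * D.Pm = b := by
    have := Nat.div_add_mod b D.Pm; rw [mul_comm] at this; omega
  rw [h1] at ea
  rw [h2] at eb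
  rw [ea, eb, h]

/-! ### scheme 1 -/

def LP1 (v : V) : Language α := Lg fun P => D.p0 ≤ P.length ∧
  D.lam (P.drop D.p0) = some (D.act v (D.ph (P.take D.p0)) + D.nu2 (P.take D.p0))

def RQ1 (v' : V) : Language α := Lg fun Q => Q ∈ XX D.G (D.z - D.p0) ∧ (D.rho Q = some v' ∧
  ∀ t, D.z - D.p0 - D.N1 ≤ t → t < D.z - D.p0 → ¬ D.G.LW Q t)

theorem HL_LP1 [Finite α] {k : ℕ} (v : V) : HL k (D.LP1 v) := by
  refine HL.finite ((List.finite_length_le α (D.p0 + D.N1)).subset ?_)
  rintro P ⟨h1, h2⟩
  have := D.hlam _ _ h2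
  rw [List.length_drop] at this
  show P.length ≤ D.p0 + D.N1
  omega

theorem HL_RQ1 [Finite α] [Finite S] (v' : V) : HL 1 (D.RQ1 v') := by
  have hz := D.hz
  refine blk_HL D.G D.f (D.z - D.p0) (D.z + D.La) 0 D.Pm D.hPm _ ?_
  rintro X X' hX hX' h1 h2 h3 ⟨h4, h5⟩
  have l1 := XX_len D.G hX
  have l2 := XX_len D.G hX'
  have hLa : X.take D.La = X'.take D.La := by
    have := congrArg (List.take D.La) h1
    rwa [List.take_take, List.take_take, min_eq_left (by omega)] at this
  rw [List.drop_zero, List.drop_zero] at h3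
  obtain ⟨e1, _⟩ := D.hdet X X' (by omega) (by omega) hLa h2 h3
  refine ⟨by rw [← e1]; exact h4, ?_⟩
  intro t ht1 ht2 hl
  apply h5 t ht1 ht2
  rw [← D.LW_take (M := D.z + D.La) (by omega) (by omega)] at hl ⊢
  rwa [h1]

theorem sound1 (v v' : V) (P Q : List α) (hP : P ∈ D.LP1 v) (hQ : Q ∈ D.RQ1 v') :
    P ++ Q ∈ XX D.G D.z ∧ D.T (P ++ Q) v = v' := by
  have hz := D.hz
  obtain ⟨p1, p2⟩ := hP
  obtain ⟨⟨q1, t1, q2, q3, q4, q5⟩, q6, q7⟩ := hQ
  have hl := D.hlam _ _ p2
  rw [List.length_drop] at hl
  have hlen : (P ++ Q).length = P.length + Q.length := List.length_append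
  constructor
  · refine ⟨?_, P.length + t1, by omega, by omega, ?_, ?_⟩
    · rw [hlen]; exact (D.G.suf P Q _ (by omega)).2 q1
    · exact (D.G.suf P Q _ (by omega)).2 q4
    · intro t h1 h2 h3
      rw [D.LW_suf (by omega)] at h3
      have h4 : D.z - D.p0 ≤ t - P.length := by
        by_contra hc
        exact q7 (t - P.length) (by omega) (by omega) h3
      have := q5 (t - P.length) h4 (by omega) h3
      omega
  · have e1 : (P ++ Q).take D.p0 = P.take D.p0 := List.take_append_of_le_length p1
    have e2 : (P ++ Q).drop D.p0 = P.drop D.p0 ++ Q := List.drop_append_of_le_length p1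
    unfold T
    rw [e1, e2]
    exact (D.hsnd _ _ _ _ p2 q6 (by omega)).symm

theorem compl1 (X : List α) (hX : X ∈ D.GX) (v : V) : ∃ P Q, X = P ++ Q ∧ P ∈ D.LP1 v ∧
    Q ∈ D.RQ1 (D.T X v) := by
  have hz := D.hz
  obtain ⟨hXX, hb⟩ := hX
  have hl := XX_len D.G hXX
  unfold BC at hb
  push Not at hb
  obtain ⟨hE, hB⟩ := hb
  have hY : (X.drop D.p0).length = X.length - D.p0 := List.length_drop
  obtain ⟨p, q, e, hp, hq⟩ := D.hcmp (X.drop D.p0) (by omega) (by rw [hY]; exact hB)
    (D.act v (D.ph (X.take D.p0)) + D.nu2 (X.take D.p0))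
  obtain ⟨r, hr⟩ := Option.isSome_iff_exists.1 hq
  have hpl := D.hlam _ _ hp
  have hpq : p.length + q.length = X.length - D.p0 := by
    rw [← List.length_append, e, hY]
  have htk : (X.take D.p0).length = D.p0 := by rw [List.length_take]; omega
  have eX : X = (X.take D.p0 ++ p) ++ q := by
    rw [List.append_assoc, e, List.take_append_drop]
  have hPl : (X.take D.p0 ++ p).length = D.p0 + p.length := by rw [List.length_append, htk]
  have eT : r = D.T X v := by
    have := D.hsnd p q _ r hp hr (by omega)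
    rw [e] at this
    exact this
  refine ⟨X.take D.p0 ++ p, q, eX, ⟨by omega, ?_⟩, ?_⟩
  · rw [List.drop_left' htk, List.take_left' htk]
    exact hp
  · obtain ⟨x1, t1, x2, x3, x4, x5⟩ := hXX
    have tr : ∀ t, D.G.n ≤ t → (D.G.LW q t ↔ D.G.LW X (D.p0 + p.length + t)) := by
      intro t ht
      have := D.G.suf (X.take D.p0 ++ p) q t ht
      rw [← eX, hPl] at this
      exact this.symm
    have ht1 : D.z + D.N1 ≤ t1 := by
      by_contra hc
      exact hE t1 (by omega) (by omega) x4
    refine ⟨⟨?_, t1 - D.p0 - p.length, by omega, by omega, ?_, ?_⟩, ?_, ?_⟩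
    · rw [tr _ (by omega)]
      rw [show D.p0 + p.length + q.length = X.length by omega]
      exact x1
    · rw [tr _ (by omega), show D.p0 + p.length + (t1 - D.p0 - p.length) = t1 by omega]
      exact x4
    · intro t h1 h2 h3
      rw [tr _ (by omega)] at h3
      have := x5 _ (by omega) (by omega) h3
      omega
    · rw [hr, eT]
    · intro t h1 h2 h3
      rw [tr _ (by omega)] at h3
      exact hE _ (by omega) (by omega) h3

end Dat

end Crest.Agent.R320.AsmB_713
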