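import Crest.Agent.R320.AsmA_803

/-!
# Row 320: scheme B inside the blocks (helper803)
-/

set_option autoImplicit false

namespace Crest.Agent.R320.Asm_803

open Crest.Agent.R320.Hk_851 Crest.Agent.R320.Star_621 Crest.Agent.R320.Two_621
open Crest.Agent.R320.FewWalls_228

variable {α S : Type} [Monoid S]

/-- the inner monoid -/
abbrev TT (S : Type) : Type := (Function.End (Option (Tok S)))ᵐᵒᵖ

/-- letters act on the outer tokens -/
def iota (s : S) : TT S := MulOpposite.op (fun o => o.map (fun v => act v s))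

theorem iota_one : iota (1 : S) = 1 := by
  apply MulOpposite.unop_injective
  funext o
  show o.map (fun v => act v (1 : S)) = o
  cases o with
  | none => rfl
  | some v => simp [act_one]

theorem iota_mul (s t : S) : iota (s * t) = iota s * iota t := by
  apply MulOpposite.unop_injective
  funext o
  show o.map (fun v => act v (s * t)) = (o.map (fun v => act v s)).map (fun v => act v t)
  cases o with
  | none => rfl
  | some v => simp [act_mul]

theorem pr_iota (f : α → S) (u : List α) :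
    Crest.Agent.R320.ExactR_237.pr (fun a => iota (f a)) u = iota (ph f u) := by
  unfold Crest.Agent.R320.ExactR_237.pr ph
  induction u with
  | nil => simp [iota_one]
  | cons a u ih => simp [ih, iota_mul]

structure PrmB (S α : Type) [Monoid S] extends Prm α S where
  K : ℕ
  R : ℕ
  C0 : ℕ
  cc : ℕ → ℕ
  lamB : ℕ → List α → Option (Tok (TT S))
  rhoB : ℕ → List α → TT S → Option (Tok (TT S))
  nuB : List α → TT S → Tok (TT S)

structure PrmB.Ok (p : PrmB S α) : Prop where
  ok : p.toPrm.Ok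
  ccp : ∀ k < p.K, p.cc k ≤ p.p0
  cc0 : ∀ k < p.K, 0 < p.cc k
  sndB : ∀ k < p.K, ∀ (P Q : List α) (y : TT S) (v b : Tok (TT S)), P.length = p.cc k →
    p.lamB k P = some v → p.rhoB k Q y = some b →
    b = act v (Crest.Agent.R320.ExactR_237.pr (fun a => iota (p.f a)) (P ++ Q) * y) +
      p.nuB (P ++ Q) y
  cplB : ∀ (u : List α) (y : TT S) (v : Tok (TT S)), (∀ k < p.K, p.cc k ≤ u.length) →
    ∃ I : Finset ℕ, p.R ≤ I.card ∧ ∀ k ∈ I, k < p.K ∧ p.lamB k (u.take (p.cc k)) = some v ∧
      (p.rhoB k (u.drop (p.cc k)) y).isSome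
  hR : 1 + 3 * p.C0 < p.R
  gap : ∀ i < p.K, ∀ j < p.K, ∀ k < p.K, ∀ l < p.K, i ≠ j → k ≠ l →
    p.cc i + p.cc l ≤ p.cc k + p.cc j + 2 * p.N1 →
    p.cc k + p.cc j ≤ p.cc i + p.cc l + 2 * p.N1 → i = k
  thin : ∀ T, p.p0 + p.La ≤ T → ∃ J : Finset ℕ, J.card ≤ p.C0 ∧
    ∀ i < p.K, ∀ j < p.K, i ≠ j → p.Bad (T + p.cc j - p.cc i - p.p0) → i ∈ J

namespace PrmB

variable (p : PrmB S α)

noncomputable def yy (Y : List α) : TT S := stepA (aff (ph p.f) p.dA') p.L' p.RA Y

theorem cut_iff (h : p.Ok) {z : List α} (hz : p.p0 ≤ z.length) (v : Tok S) :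
    Cut p.LA p.RA v z ↔ Cut p.L' p.RA (act v (ph p.f (z.take p.p0))) (z.drop p.p0) := by
  constructor
  · rintro ⟨P, Q, τ, rfl, ⟨h1, h2⟩, h3⟩
    refine ⟨P.drop p.p0, Q, τ, ?_, ?_, h3⟩
    · rw [List.drop_append_of_le_length h1]
    · rw [List.take_append_of_le_length h1]
      exact h2
  · rintro ⟨P, Q, τ, h1, h2, h3⟩
    have hl : (z.take p.p0).length = p.p0 := by rw [List.length_take]; omega
    refine ⟨z.take p.p0 ++ P, Q, τ, ?_, ⟨by rw [List.length_append]; omega, ?_⟩, h3⟩
    · rw [List.append_assoc, ← h1, List.take_append_drop]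
    · rw [List.drop_append_of_le_length (by omega), List.drop_of_length_le (by omega),
        List.nil_append, List.take_append_of_le_length (by omega),
        List.take_of_length_le (by omega)]
      exact h2

theorem step_split (h : p.Ok) {z : List α} (hz : p.p0 ≤ z.length) :
    stepA (aff (ph p.f) p.dA) p.LA p.RA z =
      iota (ph p.f (z.take p.p0)) * p.yy (z.drop p.p0) := by
  apply MulOpposite.unop_injective
  funext o
  show (stepA (aff (ph p.f) p.dA) p.LA p.RA z).unop o =
    (p.yy (z.drop p.p0)).unop ((iota (ph p.f (z.take p.p0))).unop o)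
  cases o with
  | none => rfl
  | some v =>
    have e1 : (iota (ph p.f (z.take p.p0))).unop (some v) =
      some (act v (ph p.f (z.take p.p0))) := rfl
    rw [e1]
    by_cases hc : Cut p.LA p.RA v z
    · rw [stepA_cut hc]
      have hc' := (p.cut_iff h hz v).1 hc
      exact (stepA_cut hc').symm
    · rw [stepA_uncut hc]
      have hc' : ¬ Cut p.L' p.RA (act v (ph p.f (z.take p.p0))) (z.drop p.p0) :=
        fun h' => hc ((p.cut_iff h hz v).2 h')
      have e2 : (p.yy (z.drop p.p0)).unop (some (act v (ph p.f (z.take p.p0)))) = _ :=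
        stepA_uncut hc'
      rw [e2, aff, aff, act_mul, ← ph_append, List.take_append_drop]
      rfl

/-- candidate `k` is bad, seen from the text behind the cut -/
def Cnd (k : ℕ) (Q : List α) (s : ℕ) : Prop :=
  First p.n p.Sw (p.z0 - p.cc k) Q s ∧ p.BadAt (p.cc k) Q s

def LB (v : Tok (TT S)) : Language α :=
  {P | ∃ k < p.K, P.length = p.cc k ∧ p.lamB k P = some v}

def RB (τ : Tok (TT S)) : Language α :=
  {Q | ∃ k < p.K, ∃ s, p.Cnd k Q s ∧ E2 p.n p.Sw (p.z0 - p.cc k) Q s ∧
    (∀ k' < p.K, ∀ s', p.Cnd k' Q s' → k' = k) ∧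
    p.rhoB k (Q.take (p.p0 - p.cc k)) (p.yy (Q.drop (p.p0 - p.cc k))) = some τ}

noncomputable def dB (z : List α) : Tok (TT S) := p.nuB (z.take p.p0) (p.yy (z.drop p.p0))

/-- transfer of walls, first walls and badness through a prefix of length `c` -/
theorem tr (h : p.Ok) {P Q : List α} (hP : P.length ≤ p.p0) {t : ℕ}
    (hF : First p.n p.Sw p.z0 (P ++ Q) t) :
    First p.n p.Sw (p.z0 - P.length) Q (t - P.length) := by
  have hz := h.ok.hz
  obtain ⟨a1, a2, a3⟩ := hF
  obtain ⟨s, rfl⟩ : ∃ s, t = P.length + s := ⟨t - P.length, by omega⟩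
  rw [Nat.add_sub_cancel_left]
  refine ⟨(WL_right (by omega)).1 a1, by omega, ?_⟩
  intro s' hs' hw
  have hn := hw.1
  have := a3 (P.length + s') (by omega) ((WL_right hn).2 hw)
  omega

theorem bad_tr (h : p.Ok) {P Q : List α} (hP : P.length ≤ p.p0) {t : ℕ}
    (ht : P.length ≤ t) :
    p.BadAt 0 (P ++ Q) t ↔ p.BadAt P.length Q (t - P.length) := by
  have hz := h.ok.hz
  unfold Prm.BadAt
  refine or_congr ⟨?_, ?_⟩ (iff_of_eq (congrArg p.Bad (by omega)))
  · rintro ⟨s, hs, hw, h1, h2⟩
    obtain ⟨s', rfl⟩ : ∃ s', s = P.length + s' := ⟨s - P.length, by omega⟩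
    exact ⟨s', by omega, (WL_right (by omega)).1 hw, by omega, by omega⟩
  · rintro ⟨s, hs, hw, h1, h2⟩
    exact ⟨P.length + s, by omega, (WL_right hw.1).2 hw, by omega, by omega⟩

theorem soundB (h : p.Ok) :
    Sound p.Zc (aff (stepA (aff (ph p.f) p.dA) p.LA p.RA) p.dB) p.LB p.RB := by
  have hz := h.ok.hz
  have hW := h.ok.hW
  refine ⟨?_, ?_⟩
  · rintro v ⟨k, hk, h1, -⟩
    have := h.cc0 k hk
    simp at h1
    omega
  · rintro v τ P Q z x y ⟨j, hj, hPl, hlam⟩ ⟨k, hk, s, hcnd, hE, huniq, hrho⟩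
      ⟨t, hzt, hbt⟩ e
    have hcj := h.ccp j hj
    have hck := h.ccp k hk
    -- first wall of the text
    have hF1 : First p.n p.Sw p.z0 (P ++ Q ++ x) t := by rw [e]; exact hzt.1.app
    obtain ⟨⟨b1, b2, b3⟩, c1, c2, c3⟩ := hE
    have hsep := h.ok.sep Q s Q.length c1 b1 c2
    -- the wall at the end of `Q` is far enough
    have hwQ : WL p.n p.Sw (P ++ Q) (P.length + Q.length) := (WL_right (by omega)).2 c2
    have hwQ' : WL p.n p.Sw (P ++ Q ++ x) (P.length + Q.length) :=
      (WL_left (by rw [List.length_append])).2 hwQ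
    have htle : t ≤ P.length + Q.length := by
      by_contra hlt
      push Not at hlt
      have := hF1.2.2 _ hlt hwQ'
      omega
    have hF2 : First p.n p.Sw p.z0 (P ++ Q) t := hF1.of_app (by rw [List.length_append]; omega)
    have ht0 : P.length ≤ t := by have := hF1.2.1; omega
    have hF3 := p.tr h (by omega) hF2
    -- badness
    have hb1 : p.BadAt 0 (P ++ Q) t := by
      have hlz : t ≤ z.length := hzt.1.1.2.1
      rcases hbt with ⟨s', hs', hw, q1, q2⟩ | hb
      · left
        refine ⟨s', hs', ?_, q1, q2⟩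
        have hw2 : WL p.n p.Sw (P ++ Q ++ x) s' := by
          rw [e]; exact (WL_left (by omega)).2 hw
        exact (WL_left (by rw [List.length_append]; omega)).1 hw2
      · right; exact hb
    have hb2 := (p.bad_tr h (by omega) ht0).1 hb1
    rw [hPl] at hb2 hF3
    have hjk : j = k := huniq j hj _ ⟨hF3, hb2⟩
    subst hjk
    have hst : t - p.cc j = s := hF3.unique ⟨b1, b2, b3⟩
    -- the whole zone
    have key : E2 p.n p.Sw p.z0 (P ++ Q) t := by
      refine ⟨hF2, by rw [List.length_append]; omega, by rw [List.length_append]; exact hwQ, ?_⟩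
      intro s' hs' hw
      rw [List.length_append] at hs'
      by_cases h2 : P.length + p.n ≤ s'
      · obtain ⟨s'', rfl⟩ : ∃ s'', s' = P.length + s'' := ⟨s' - P.length, by omega⟩
        have := c3 s'' (by omega) ((WL_right (by omega)).1 hw)
        omega
      · have := hF2.2.1
        omega
    have hPQ : P ++ Q = z := key.eq hzt e
    refine ⟨hPQ, ?_⟩
    subst hPQ
    have hlen : p.p0 ≤ (P ++ Q).length := by
      have := key.1.2.1
      have := key.1.1.2.1
      omega
    have hPp : P.length ≤ p.p0 := by omega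
    have eT : P ++ Q.take (p.p0 - p.cc j) = (P ++ Q).take p.p0 := by
      rw [List.take_append (l₁ := P), hPl, List.take_of_length_le (l := P) hPp]
    have eD : Q.drop (p.p0 - p.cc j) = (P ++ Q).drop p.p0 := by
      rw [List.drop_append (l₁ := P), hPl, List.drop_of_length_le (l := P) hPp, List.nil_append]
    have hval := h.sndB j hj P _ _ _ _ hPl hlam hrho
    rw [hval, eT, eD, pr_iota, aff, p.step_split h hlen]
    rfl

/-- at most `1 + 3 C0` places are spoiled -/
theorem spoil (h : p.Ok) {z : List α} {t : ℕ} (hE : E2 p.n p.Sw p.z0 z t) :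
    ∃ J : Finset ℕ, J.card < p.R ∧ ∀ k < p.K, ∀ k' < p.K, k' ≠ k → ∀ s,
      p.Cnd k' (z.drop (p.cc k)) s → k ∈ J := by
  classical
  have hz := h.ok.hz
  have hW := h.ok.hW
  obtain ⟨⟨b1, b2, b3⟩, c1, c2, c3⟩ := hE
  have htz : p.p0 + p.La ≤ t := by omega
  have hlz : p.p0 + p.La ≤ z.length := by omega
  obtain ⟨J1, hJ1, hJ1'⟩ := h.thin t htz
  obtain ⟨J2, hJ2, hJ2'⟩ := h.thin z.length hlz
  -- a wall shortly before `z0`
  obtain ⟨t0, ht0, ht0'⟩ : ∃ t0, p.p0 + p.La ≤ t0 ∧ ∀ s, p.z0 ≤ s + p.p0 → s < p.z0 →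
      WL p.n p.Sw z s → s = t0 := by
    by_cases hex : ∃ s, p.z0 ≤ s + p.p0 ∧ s < p.z0 ∧ WL p.n p.Sw z s
    · obtain ⟨s0, h1, h2, h3⟩ := hex
      refine ⟨s0, by omega, ?_⟩
      intro s h4 h5 h6
      rcases Nat.lt_trichotomy s s0 with h7 | h7 | h7
      · have := h.ok.sep z s s0 h7 h6 h3; omega
      · exact h7
      · have := h.ok.sep z s0 s h7 h3 h6; omega
    · exact ⟨p.p0 + p.La, le_rfl, fun s h1 h2 h3 => absurd ⟨s, h1, h2, h3⟩ hex⟩
  obtain ⟨J3, hJ3, hJ3'⟩ := h.thin t0 ht0
  -- the band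
  let PE : ℕ → Prop := fun k => k < p.K ∧ ∃ k' < p.K, k' ≠ k ∧ ∃ σ, WL p.n p.Sw z σ ∧
    p.z0 + p.cc k ≤ σ + p.cc k' + p.N1 ∧ σ + p.cc k' ≤ p.z0 + p.cc k + p.N1
  have hPE : ∀ i j, PE i → PE j → i = j := by
    rintro i j ⟨hi, i', hi', hni, σ, hσ, q1, q2⟩ ⟨hj, j', hj', hnj, σ', hσ', r1, r2⟩
    have ei : σ = σ' := by
      have g1 := h.ccp i hi
      have g2 := h.ccp i' hi'
      have g3 := h.ccp j hj
      have g4 := h.ccp j' hj'
      rcases Nat.lt_trichotomy σ σ' with h7 | h7 | h7
      · have := h.ok.sep z σ σ' h7 hσ hσ'; omega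
      · exact h7
      · have := h.ok.sep z σ' σ h7 hσ' hσ; omega
    subst ei
    exact h.gap i hi i' hi' j hj j' hj' (Ne.symm hni) (Ne.symm hnj) (by omega) (by omega)
  obtain ⟨JE, hJE, hJE'⟩ : ∃ JE : Finset ℕ, JE.card ≤ 1 ∧ ∀ i, PE i → i ∈ JE := by
    by_cases hex : ∃ i, PE i
    · obtain ⟨i, hi⟩ := hex
      exact ⟨{i}, by simp, fun j hj => by rw [Finset.mem_singleton]; exact hPE j i hj hi⟩
    · exact ⟨∅, by simp, fun j hj => absurd ⟨j, hj⟩ hex⟩
  refine ⟨JE ∪ (J1 ∪ (J2 ∪ J3)), ?_, ?_⟩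
  · have a1 := Finset.card_union_le JE (J1 ∪ (J2 ∪ J3))
    have a2 := Finset.card_union_le J1 (J2 ∪ J3)
    have a3 := Finset.card_union_le J2 J3
    have := h.hR
    omega
  · intro k hk k' hk' hne s hC
    have g1 := h.ccp k hk
    have g2 := h.ccp k' hk'
    have hdl : (z.take (p.cc k)).length = p.cc k := by rw [List.length_take]; omega
    have hzz : z = z.take (p.cc k) ++ z.drop (p.cc k) := (List.take_append_drop _ _).symm
    have tw : ∀ s', WL p.n p.Sw (z.drop (p.cc k)) s' → WL p.n p.Sw z (p.cc k + s') := by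
      intro s' hs'
      have := (WL_right (u := z.take (p.cc k)) hs'.1).2 hs'
      rw [← hzz, hdl] at this
      exact this
    obtain ⟨⟨a1, a2, a3⟩, hb⟩ := hC
    have hw := tw _ a1
    rcases hb with ⟨s', hs', hws, q1, q2⟩ | hb
    · refine Finset.mem_union_left _ (hJE' k ⟨hk, k', hk', hne, p.cc k + s', tw _ hws, ?_, ?_⟩)
      · omega
      · omega
    · refine Finset.mem_union_right _ ?_
      by_cases h1 : p.z0 ≤ p.cc k + s
      · rcases Nat.lt_or_ge (p.cc k + s) z.length with h2 | h2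
        · have h3 := c3 _ h2 hw
          have h4 : p.cc k + s = t := by
            rcases Nat.lt_or_ge (p.cc k + s) t with h5 | h5
            · have := b3 _ h5 hw; omega
            · omega
          refine Finset.mem_union_left _ (hJ1' k hk k' hk' (Ne.symm hne) ?_)
          have : t + p.cc k' - p.cc k - p.p0 = s + p.cc k' - p.p0 := by omega
          rw [this]; exact hb
        · have h4 : p.cc k + s = z.length := le_antisymm hw.2.1 h2
          refine Finset.mem_union_right _ (Finset.mem_union_left _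
            (hJ2' k hk k' hk' (Ne.symm hne) ?_))
          have : z.length + p.cc k' - p.cc k - p.p0 = s + p.cc k' - p.p0 := by omega
          rw [this]; exact hb
      · have h4 : p.cc k + s = t0 := ht0' _ (by omega) (by omega) hw
        refine Finset.mem_union_right _ (Finset.mem_union_right _
            (hJ3' k hk k' hk' (Ne.symm hne) ?_))
        have : t0 + p.cc k' - p.cc k - p.p0 = s + p.cc k' - p.p0 := by omega
        rw [this]; exact hb

theorem complB (h : p.Ok) (z : List α) (hzc : z ∈ p.Zc) (v : Tok (TT S)) :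
    Cut p.LB p.RB v z := by
  classical
  have hz := h.ok.hz
  obtain ⟨t, hE, hb⟩ := hzc
  have hE' := hE
  obtain ⟨J, hJ, hJ'⟩ := p.spoil h hE
  obtain ⟨⟨b1, b2, b3⟩, c1, c2, c3⟩ := hE
  have hlen : (z.take p.p0).length = p.p0 := by rw [List.length_take]; omega
  obtain ⟨I, hI, hI'⟩ := h.cplB (z.take p.p0) (p.yy (z.drop p.p0)) v
    (fun k hk => by rw [hlen]; exact h.ccp k hk)
  obtain ⟨k, hkI, hkJ⟩ : ∃ k ∈ I, k ∉ J := by
    by_contra hcon
    push Not at hcon
    have := Finset.card_le_card (show I ⊆ J from hcon)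
    omega
  obtain ⟨hk, hlam, hrho⟩ := hI' k hkI
  have g1 := h.ccp k hk
  have hlk : (z.take (p.cc k)).length = p.cc k := by rw [List.length_take]; omega
  have hzz : z.take (p.cc k) ++ z.drop (p.cc k) = z := List.take_append_drop _ _
  refine ⟨z.take (p.cc k), z.drop (p.cc k), (p.rhoB k ((z.take p.p0).drop (p.cc k))
    (p.yy (z.drop p.p0))).get hrho, hzz.symm, ⟨k, hk, hlk, ?_⟩, ?_⟩
  · rw [List.take_take, min_eq_left g1] at hlam
    exact hlam
  · have hF := p.tr h (P := z.take (p.cc k)) (Q := z.drop (p.cc k)) (by omega)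
      (by rw [hzz]; exact hE'.1)
    have hB := (p.bad_tr h (P := z.take (p.cc k)) (Q := z.drop (p.cc k)) (t := t) (by omega)
      (by omega)).1 (by rw [hzz]; exact hb)
    rw [hlk] at hF hB
    have hdl : (z.drop (p.cc k)).length = z.length - p.cc k := List.length_drop
    have tw : ∀ s', WL p.n p.Sw (z.drop (p.cc k)) s' → WL p.n p.Sw z (p.cc k + s') := by
      intro s' hs'
      have := (WL_right (u := z.take (p.cc k)) hs'.1).2 hs'
      rw [hzz, hlk] at this
      exact this
    refine ⟨k, hk, t - p.cc k, ⟨hF, hB⟩, ⟨hF, by rw [hdl]; omega, ?_, ?_⟩, ?_, ?_⟩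
    · have := (WL_right (n := p.n) (Sw := p.Sw) (u := z.take (p.cc k)) (v := z.drop (p.cc k))
        (s := (z.drop (p.cc k)).length) (by rw [hdl]; omega)).1 (by
          rw [hzz, hlk, hdl]
          have : p.cc k + (z.length - p.cc k) = z.length := by omega
          rw [this]; exact c2)
      exact this
    · intro s hs hw
      rw [hdl] at hs
      have := c3 _ (by omega) (tw s hw)
      omega
    · intro k' hk' s' hC
      by_contra hne
      exact hkJ (hJ' k hk k' hk' hne s' hC)
    · have e1 : (z.drop (p.cc k)).take (p.p0 - p.cc k) = (z.take p.p0).drop (p.cc k) := by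
        rw [List.drop_take]
      have e2 : (z.drop (p.cc k)).drop (p.p0 - p.cc k) = z.drop p.p0 := by
        rw [List.drop_drop]
        congr 1
        omega
      rw [e1, e2]
      exact (Option.some_get hrho).symm

end PrmB

end Crest.Agent.R320.Asm_803
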