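import Crest.Agent.R320.AsmA_834

/-!
# Row 320: two schemes on all words (helper834)
-/

set_option autoImplicit false

namespace Crest.Agent.R320.Asm_834

open Crest.RegLang Crest.Agent.R320.Hk_851 Crest.Agent.R320.Half1_180

variable {α S V : Type} [Monoid S] [AddCommGroup V]

def pr (f : α → S) (u : List α) : S := (u.map f).prod

theorem pr_app (f : α → S) (u v : List α) : pr f (u ++ v) = pr f u * pr f v := by
  simp [pr]

structure Dat (α S V : Type) [Monoid S] [AddCommGroup V] where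
  w : Walls α
  f : α → S
  act : V → S → V
  p0 : ℕ
  z : ℕ
  N1 : ℕ
  La : ℕ
  Pm : ℕ
  K : ℕ
  C0 : ℕ
  lam : List α → Option V
  rho : List α → Option V
  nu1 : List α → V
  Bd : ℕ → Prop
  c : ℕ → ℕ
  lam2 : ℕ → List α → Option V
  rho2 : ℕ → List α → Option V
  nu2 : List α → V

open Classical in
structure Dat.Ok (D : Dat α S V) : Prop where
  act_add : ∀ v v' s, D.act (v + v') s = D.act v s + D.act v' s
  act_mul : ∀ v s s', D.act (D.act v s) s' = D.act v (s * s')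
  lam_len : ∀ p v, D.lam p = some v → p.length ≤ D.N1
  snd1 : ∀ p q v b, D.lam p = some v → D.rho q = some b → D.La ≤ q.length →
    b = D.act v (pr D.f (p ++ q)) + D.nu1 (p ++ q)
  cmp1 : ∀ u : List α, D.La ≤ u.length → ¬ D.Bd u.length → ∀ v, ∃ p q b, p ++ q = u ∧
    D.lam p = some v ∧ D.rho q = some b
  reg1 : ∀ q q' : List α, D.La ≤ q.length → D.La ≤ q'.length → q.take D.La = q'.take D.La →
    q.length % D.Pm = q'.length % D.Pm → pr D.f (q.drop D.La) = pr D.f (q'.drop D.La) →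
    D.rho q = D.rho q' ∧ D.nu1 q = D.nu1 q'
  hPm : 0 < D.Pm
  hBd : ∀ T, D.Bd T ↔ D.Bd (T % D.Pm)
  cpos : ∀ k < D.K, 0 < D.c k
  cp0 : ∀ k < D.K, D.c k ≤ D.p0
  cinj : ∀ i < D.K, ∀ j < D.K, D.c i = D.c j → i = j
  gol : ∀ i < D.K, ∀ j < D.K, ∀ k < D.K, ∀ l < D.K, i ≠ j → k ≠ l → (i, j) ≠ (k, l) →
    D.c i + D.c l + 2 * D.N1 < D.c k + D.c j ∨ D.c k + D.c j + 2 * D.N1 < D.c i + D.c l
  spl : ∀ T, D.p0 ≤ T → ((Finset.range D.K ×ˢ Finset.range D.K).filter
    (fun ij => ij.1 ≠ ij.2 ∧ D.Bd (T + D.c ij.2 - D.c ij.1))).card ≤ D.C0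
  gap : ∀ (X : List α) (t t' : ℕ), t < t' → t' ≤ X.length → D.w.Wo (X.take t) →
    D.w.Wo (X.take t') → t + (2 * D.p0 + 2 * D.N1 + 1) ≤ t'
  hz : 3 * D.p0 + 2 * D.N1 + D.w.n + D.La ≤ D.z
  snd2 : ∀ k < D.K, ∀ P Q v b, P.length = D.c k → (P ++ Q).length = D.p0 →
    D.lam2 k P = some v → D.rho2 k Q = some b →
    b = D.act v (pr D.f (P ++ Q)) + D.nu2 (P ++ Q)
  cmp2 : ∀ (u : List α) (v : V), u.length = D.p0 → ∃ I : Finset ℕ, 2 * D.C0 + 2 ≤ I.card ∧
    ∀ k ∈ I, k < D.K ∧ D.lam2 k (u.take (D.c k)) = some v ∧ (D.rho2 k (u.drop (D.c k))).isSome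

namespace Dat

variable (D : Dat α S V)

/-- the length of the first `FW r`-prefix -/
noncomputable def cut (w : Walls α) (r : ℕ) (U : List α) : ℕ := by
  classical
  exact if h : ∃ t, r ≤ t ∧ t ≤ U.length ∧ w.Wo (U.take t) then Nat.find h else 0

theorem cut_eq {w : Walls α} {r : ℕ} {Y Z : List α} (hY : Y ∈ FW w r) :
    cut w r (Y ++ Z) = Y.length := by
  classical
  have hex : ∃ t, r ≤ t ∧ t ≤ (Y ++ Z).length ∧ w.Wo ((Y ++ Z).take t) :=
    ⟨Y.length, hY.2.1, by simp, by rw [List.take_left]; exact hY.1⟩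
  unfold cut
  rw [dif_pos hex, Nat.find_eq_iff]
  refine ⟨⟨hY.2.1, by simp, by rw [List.take_left]; exact hY.1⟩, ?_⟩
  rintro t ht ⟨h1, h2, h3⟩
  rw [List.take_append_of_le_length (by omega)] at h3
  exact hY.2.2 t h1 ht h3

/-- second part of the block map -/
noncomputable def T2 (U : List α) (r : V) : V :=
  D.act (D.act r (pr D.f (U.take (cut D.w D.z U))) + D.nu1 (U.take (cut D.w D.z U)))
    (pr D.f (U.drop (cut D.w D.z U)))

noncomputable def T (X : List α) (v : V) : V :=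
  D.T2 (X.drop D.p0) (D.act v (pr D.f (X.take D.p0)) + D.nu2 (X.take D.p0))

theorem T2_eq {Y Z : List α} (hY : Y ∈ FW D.w D.z) (r : V) :
    D.T2 (Y ++ Z) r = D.act (D.act r (pr D.f Y) + D.nu1 Y) (pr D.f Z) := by
  unfold T2
  rw [cut_eq hY, List.take_left, List.drop_left]

theorem T_eq {X1 Y Z : List α} (h1 : X1.length = D.p0) (hY : Y ∈ FW D.w D.z) (v : V) :
    D.T (X1 ++ (Y ++ Z)) v =
      D.act (D.act (D.act v (pr D.f X1) + D.nu2 X1) (pr D.f Y) + D.nu1 Y) (pr D.f Z) := by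
  unfold T
  rw [← h1, List.take_left, List.drop_left, T2_eq D hY]

def BadY (Y : List α) : Prop :=
  (∃ t, D.z - D.N1 ≤ t ∧ t < D.z + D.N1 ∧ t ≤ Y.length ∧ D.w.Wo (Y.take t)) ∨ D.Bd Y.length

def XX : Set (List α) :=
  {X | ∃ X1 Y Z, X = X1 ++ (Y ++ Z) ∧ X1.length = D.p0 ∧ Y ∈ FW D.w D.z ∧ Z ∈ FW D.w D.w.n}

def Bad : Set (List α) :=
  {X | ∃ X1 Y Z, X = X1 ++ (Y ++ Z) ∧ X1.length = D.p0 ∧ Y ∈ FW D.w D.z ∧ Z ∈ FW D.w D.w.n ∧
    D.BadY Y}

def Good : Set (List α) :=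
  {X | ∃ X1 Y Z, X = X1 ++ (Y ++ Z) ∧ X1.length = D.p0 ∧ Y ∈ FW D.w D.z ∧ Z ∈ FW D.w D.w.n ∧
    ¬ D.BadY Y}

theorem XX_eq : D.XX = D.Good ∪ D.Bad := by
  ext X
  constructor
  · rintro ⟨X1, Y, Z, h1, h2, h3, h4⟩
    by_cases h : D.BadY Y
    · exact Or.inr ⟨X1, Y, Z, h1, h2, h3, h4, h⟩
    · exact Or.inl ⟨X1, Y, Z, h1, h2, h3, h4, h⟩
  · rintro (⟨X1, Y, Z, h1, h2, h3, h4, _⟩ | ⟨X1, Y, Z, h1, h2, h3, h4, _⟩)
    · exact ⟨X1, Y, Z, h1, h2, h3, h4⟩
    · exact ⟨X1, Y, Z, h1, h2, h3, h4⟩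

theorem dec {X1 Y Z X1' Y' Z' R R' : List α} (h1 : X1.length = D.p0) (h1' : X1'.length = D.p0)
    (hY : Y ∈ FW D.w D.z) (hY' : Y' ∈ FW D.w D.z) (hZ : Z ∈ FW D.w D.w.n)
    (hZ' : Z' ∈ FW D.w D.w.n)
    (e : X1 ++ (Y ++ (Z ++ R)) = X1' ++ (Y' ++ (Z' ++ R'))) : X1 = X1' ∧ Y = Y' ∧ Z = Z' := by
  obtain ⟨e1, e2⟩ := List.append_inj e (h1.trans h1'.symm)
  obtain ⟨e3, e4⟩ := FW.eq hY hY' e2
  exact ⟨e1, e3, (FW.eq hZ hZ' e4).1⟩

theorem PF_XX : PF D.XX := by
  constructor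
  · rintro X ⟨X1, Y, Z, rfl, h2, h3, h4⟩ he
    have := D.w.len _ h3.1
    have h5 := congrArg List.length he
    simp only [List.length_append, List.length_nil] at h5
    have := D.w.hn
    omega
  · rintro X ⟨X1, Y, Z, rfl, h2, h3, h4⟩ X' ⟨X1', Y', Z', rfl, h2', h3', h4'⟩ ⟨R, hR⟩
    have e : X1 ++ (Y ++ (Z ++ R)) = X1' ++ (Y' ++ (Z' ++ [])) := by
      rw [List.append_nil, ← hR]; simp
    obtain ⟨rfl, rfl, rfl⟩ := D.dec h2 h2' h3 h3' h4 h4' e
    rfl

theorem act_sub (h : D.Ok) (v v' : V) (s : S) : D.act (v - v') s = D.act v s - D.act v' s := by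
  have h1 := h.act_add (v - v') v' s
  rw [sub_add_cancel] at h1
  rw [h1, add_sub_cancel_right]

theorem hT (h : D.Ok) : ∀ X ∈ D.XX, ∀ v v', D.T X v - D.T X v' = D.act (v - v') (X.map D.f).prod := by
  rintro X ⟨X1, Y, Z, rfl, h1, hY, hZ⟩ v v'
  rw [T_eq D h1 hY, T_eq D h1 hY, ← act_sub D h, add_sub_add_right_eq_sub, ← act_sub D h,
    add_sub_add_right_eq_sub, ← act_sub D h, h.act_mul, h.act_mul]
  congr 1
  simp [pr, mul_assoc]

/-! ### scheme 1 -/

def LP1 (v : V) : Language α :=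
  Lg fun P => ∃ X1 p, P = X1 ++ p ∧ X1.length = D.p0 ∧
    D.lam p = some (D.act v (pr D.f X1) + D.nu2 X1)

def QQ : Set (List α) :=
  {q | (D.w.Wo q ∧ D.z ≤ q.length ∧ ∀ t, D.z - D.N1 ≤ t → t < q.length → ¬ D.w.Wo (q.take t))}

def RQ1 (v' : V) : Language α :=
  Lg fun Q => ∃ q Z r, Q = q ++ Z ∧ q ∈ D.QQ ∧ Z ∈ FW D.w D.w.n ∧ D.rho q = some r ∧
    D.act r (pr D.f Z) = v'

theorem wo_app (w : Walls α) (p q : List α) (t : ℕ) (ht : w.n ≤ t) (hq : t ≤ q.length) :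
    w.Wo ((p ++ q).take (p.length + t)) ↔ w.Wo (q.take t) := by
  rw [List.take_length_add_append]
  exact w.loc p (q.take t) (by rw [List.length_take]; omega)

theorem sound1 (h : D.Ok) (v v' : V) (P Q : List α) (hP : P ∈ D.LP1 v) (hQ : Q ∈ D.RQ1 v') :
    P ++ Q ∈ D.XX ∧ D.T (P ++ Q) v = v' := by
  obtain ⟨X1, p, rfl, hX1, hp⟩ := hP
  obtain ⟨q, Z, r, rfl, hq, hZ, hr, rfl⟩ := hQ
  have hz := h.hz
  have hpl := h.lam_len _ _ hp
  have hqz := hq.2.1
  have hY : p ++ q ∈ FW D.w D.z := by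
    refine ⟨(D.w.loc p q (by omega)).2 hq.1, by rw [List.length_append]; omega, ?_⟩
    intro t h1 h2 h3
    rw [List.length_append] at h2
    obtain ⟨t', rfl⟩ : ∃ t', t = p.length + t' := ⟨t - p.length, by omega⟩
    rw [wo_app D.w p q t' (by omega) (by omega)] at h3
    exact hq.2.2 t' (by omega) (by omega) h3
  have e : (X1 ++ p) ++ (q ++ Z) = X1 ++ ((p ++ q) ++ Z) := by simp
  rw [e]
  refine ⟨⟨X1, p ++ q, Z, rfl, hX1, hY, hZ⟩, ?_⟩
  rw [T_eq D hX1 hY, ← h.snd1 p q _ r hp hr (by omega)]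

theorem compl1 (h : D.Ok) : ∀ X ∈ D.Good, ∀ v, ∃ P Q, X = P ++ Q ∧ P ∈ D.LP1 v ∧
    Q ∈ D.RQ1 (D.T X v) := by
  rintro X ⟨X1, Y, Z, rfl, hX1, hY, hZ, hB⟩ v
  have hz := h.hz
  have hYz := hY.2.1
  obtain ⟨hE, hT⟩ := not_or.1 hB
  push Not at hE
  obtain ⟨p, q, b, rfl, hp, hb⟩ := h.cmp1 Y (by omega) hT (D.act v (pr D.f X1) + D.nu2 X1)
  have hpl := h.lam_len _ _ hp
  rw [List.length_append] at hYz
  have hlen : D.z + D.N1 ≤ p.length + q.length := by
    by_contra hc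
    refine hE (p ++ q).length (by rw [List.length_append]; omega)
      (by rw [List.length_append]; omega) le_rfl ?_
    rw [List.take_length]; exact hY.1
  have hq : q ∈ D.QQ := by
    refine ⟨(D.w.loc p q (by omega)).1 hY.1, by omega, ?_⟩
    intro t h1 h2 h3
    rw [← wo_app D.w p q t (by omega) (by omega)] at h3
    by_cases hc : D.z ≤ p.length + t
    · exact hY.2.2 _ hc (by rw [List.length_append]; omega) h3
    · exact hE _ (by omega) (by omega) (by rw [List.length_append]; omega) h3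
  refine ⟨X1 ++ p, q ++ Z, by simp, ⟨X1, p, rfl, hX1, hp⟩, q, Z, b, rfl, hq, hZ, hb, ?_⟩
  rw [T_eq D hX1 hY, ← h.snd1 p q _ b hp hb (by omega)]

/-! ### scheme 2 -/

def CB (k : ℕ) (Q : List α) : Prop :=
  ∃ Y U, Q.drop (D.p0 - D.c k) = Y ++ U ∧ Y ∈ FW D.w D.z ∧ D.BadY Y

def LP2 (v : V) : Language α :=
  Lg fun P => ∃ k < D.K, P.length = D.c k ∧ D.lam2 k P = some v

def RQ2 (v' : V) : Language α :=
  Lg fun Q => ∃ k < D.K, ∃ Q1 Y Z r, Q = Q1 ++ (Y ++ Z) ∧ Q1.length = D.p0 - D.c k ∧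
    Y ∈ FW D.w D.z ∧ Z ∈ FW D.w D.w.n ∧ D.BadY Y ∧ (∀ k' < D.K, k' ≠ k → ¬ D.CB k' Q) ∧
    D.rho2 k Q1 = some r ∧ D.act (D.act r (pr D.f Y) + D.nu1 Y) (pr D.f Z) = v'

theorem take_of_eq {a b a' b' : List α} (e : a ++ b = a' ++ b') (h : a'.length ≤ a.length) :
    ∃ c, a = a' ++ c ∧ b' = c ++ b := by
  have := List.append_eq_append_iff.1 e
  rcases this with ⟨c, h1, h2⟩ | ⟨c, h1, h2⟩
  · have : c = [] := by
      have h3 := congrArg List.length h1
      rw [List.length_append] at h3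
      exact List.length_eq_zero_iff.1 (by omega)
    subst this
    exact ⟨[], by simpa using h1.symm, by simpa using h2.symm⟩
  · exact ⟨c, h1, h2⟩

theorem sound2 (h : D.Ok) : ∀ X ∈ D.Bad, ∀ v v' P Q R R', P ∈ D.LP2 v → Q ∈ D.RQ2 v' →
    P ++ (Q ++ R) = X ++ R' → P ++ Q = X ∧ D.T X v = v' := by
  rintro X ⟨X0, Y0, Z0, rfl, hX0, hY0, hZ0, hB0⟩ v v' P Q R R' ⟨k0, hk0, hP, hl⟩
    ⟨k, hk, Q1, Y, Z, r, rfl, hQ1, hY, hZ, hB, huniq, hr, rfl⟩ e
  have hz := h.hz
  have c0 := h.cp0 k0 hk0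
  have c1 := h.cp0 k hk
  have nZ := hZ.2.1
  have nY := hY.2.1
  have nY0 := hY0.2.1
  -- the first block's `Y0` ends inside `P ++ Q`
  have hvis : D.p0 + Y0.length ≤ (P ++ (Q1 ++ (Y ++ Z))).length := by
    by_contra hc
    push Not at hc
    simp only [List.length_append] at hc
    -- both ends of `Y` and `Z` are walls of `Y0`
    have e' : P ++ (Q1 ++ (Y ++ (Z ++ R))) = X0 ++ (Y0 ++ (Z0 ++ R')) := by
      simpa using e
    have hlen : (P ++ Q1).length + Y.length + Z.length < D.p0 + Y0.length := by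
      rw [List.length_append]; omega
    -- text
    set X := X0 ++ Y0 with hX
    have hXl : X.length = D.p0 + Y0.length := by rw [hX, List.length_append, hX0]
    have e2 : X ++ (Z0 ++ R') = (P ++ Q1 ++ (Y ++ Z)) ++ R := by
      rw [hX]; simpa using e'.symm
    obtain ⟨cc, h1, h2⟩ := take_of_eq e2 (by
      rw [hXl]; simp only [List.length_append] at hlen ⊢; omega)
    have l1 : X.length = (P ++ Q1).length + Y.length + Z.length + cc.length := by
      rw [h1]; simp only [List.length_append]; omega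
    -- walls of X
    have w1 : D.w.Wo (X.take ((P ++ Q1).length + Y.length)) := by
      have e3 : X = (P ++ Q1) ++ (Y ++ (Z ++ cc)) := by rw [h1]; simp
      rw [e3, List.take_length_add_append, List.take_left]
      exact (D.w.loc _ _ (by omega)).2 hY.1
    have w2 : D.w.Wo (X.take ((P ++ Q1).length + Y.length + Z.length)) := by
      have e3 : X = (P ++ Q1 ++ Y) ++ (Z ++ cc) := by rw [h1]; simp
      have e4 : (P ++ Q1).length + Y.length + Z.length = (P ++ Q1 ++ Y).length + Z.length := by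
        simp only [List.length_append]
      rw [e4, e3, List.take_length_add_append, List.take_left]
      exact (D.w.loc _ _ (by omega)).2 hZ.1
    have hnZ := D.w.hn
    have g := h.gap X _ _ (by omega) (by omega) w1 w2
    have l2 : (P ++ Q1).length = D.c k0 + (D.p0 - D.c k) := by
      rw [List.length_append, hP, hQ1]
    -- the second wall is at or after z in Y0
    have hge : D.p0 + D.z ≤ (P ++ Q1).length + Y.length + Z.length := by omega
    obtain ⟨t, ht⟩ : ∃ t, (P ++ Q1).length + Y.length + Z.length = X0.length + t :=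
      ⟨(P ++ Q1).length + Y.length + Z.length - X0.length, by omega⟩
    rw [ht, hX, wo_app D.w X0 Y0 t (by omega) (by omega)] at w2
    exact hY0.2.2 t (by omega) (by omega) w2
  -- hence candidate k0 is bad for Q
  have hCB : D.CB k0 (Q1 ++ (Y ++ Z)) := by
    have e2 : (P ++ (Q1 ++ (Y ++ Z))) ++ R = (X0 ++ Y0) ++ (Z0 ++ R') := by
      simpa using e
    obtain ⟨U, h1, h2⟩ := take_of_eq e2 (by rw [List.length_append, hX0]; exact hvis)
    refine ⟨Y0, U, ?_, hY0, hB0⟩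
    have h3 := congrArg (List.drop D.p0) h1
    rw [List.append_assoc, ← hX0, List.drop_left] at h3
    rw [← h3, hX0]
    have e5 : D.p0 = P.length + (D.p0 - D.c k0) := by omega
    conv_rhs => rw [e5, ← List.drop_drop, List.drop_left]
  have hkk : k0 = k := by
    by_contra hne
    exact huniq k0 hk0 hne hCB
  subst hkk
  have hPQ : (P ++ Q1).length = D.p0 := by rw [List.length_append, hP, hQ1]; omega
  have e3 : (P ++ Q1) ++ (Y ++ (Z ++ R)) = X0 ++ (Y0 ++ (Z0 ++ R')) := by simpa using e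
  obtain ⟨e4, e5, e6⟩ := D.dec hPQ hX0 hY hY0 hZ hZ0 e3
  subst e4 e5 e6
  refine ⟨by simp, ?_⟩
  rw [T_eq D hPQ hY, ← h.snd2 k0 hk P Q1 v r hP hPQ hl hr]

theorem drop_wall {X Y' U : List α} {o t : ℕ} (hU : X.drop o = Y' ++ U) (ho : o ≤ X.length)
    (ht : D.w.n ≤ t) (ht' : t ≤ Y'.length) :
    D.w.Wo (X.take (o + t)) ↔ D.w.Wo (Y'.take t) := by
  have e : X = X.take o ++ (Y' ++ U) := by rw [← hU, List.take_append_drop]
  have hl : (X.take o).length = o := by rw [List.length_take]; omega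
  have h1 := wo_app D.w (X.take o) (Y' ++ U) t ht (by rw [List.length_append]; omega)
  rw [hl, ← e, List.take_append_of_le_length ht'] at h1
  exact h1

def PE (X : List α) (i j : ℕ) : Prop :=
  ∃ x, D.w.Wo (X.take x) ∧ x ≤ X.length ∧ D.z + (D.c i + (D.p0 - D.c j)) ≤ x + D.N1 ∧
    x < D.z + D.N1 + (D.c i + (D.p0 - D.c j))

def PB (X : List α) (i j e : ℕ) : Prop :=
  e ≤ X.length ∧ D.w.Wo (X.take e) ∧ (D.c i + (D.p0 - D.c j)) + D.z ≤ e ∧
    (∀ t, (D.c i + (D.p0 - D.c j)) + D.z ≤ t → t < e → ¬ D.w.Wo (X.take t)) ∧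
    D.Bd (e - (D.c i + (D.p0 - D.c j)))

theorem CB_cases (h : D.Ok) {X : List α} {i j : ℕ} (hc : D.CB j (X.drop (D.c i))) :
    D.PE X i j ∨ ∃ e, D.PB X i j e := by
  obtain ⟨Y', U, h1, hY', hB⟩ := hc
  have hz := h.hz
  have hn := D.w.hn
  rw [List.drop_drop] at h1
  set o := D.c i + (D.p0 - D.c j) with ho
  have hzY := hY'.2.1
  have hl := congrArg List.length h1
  rw [List.length_drop, List.length_append] at hl
  have hoX : o ≤ X.length := by omega
  rcases hB with ⟨t, ht1, ht2, ht3, ht4⟩ | hB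
  · left
    refine ⟨o + t, (D.drop_wall h1 hoX (by omega) ht3).2 ht4, by omega, by omega, by omega⟩
  · right
    refine ⟨o + Y'.length, by omega, (D.drop_wall h1 hoX (by omega) le_rfl).2
      (by rw [List.take_length]; exact hY'.1), by omega, ?_, ?_⟩
    · intro t ht1 ht2 ht3
      obtain ⟨s, rfl⟩ : ∃ s, t = o + s := ⟨t - o, by omega⟩
      rw [D.drop_wall h1 hoX (by omega) (by omega)] at ht3
      exact hY'.2.2 s (by omega) (by omega) ht3
    · rw [← ho]
      have : o + Y'.length - o = Y'.length := by omega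
      rw [this]; exact hB

open Classical in
theorem spoil_card (h : D.Ok) (X : List α) :
    ((Finset.range D.K).filter (fun i => ∃ j < D.K, j ≠ i ∧ D.CB j (X.drop (D.c i)))).card ≤
      2 * D.C0 + 1 := by
  have hz := h.hz
  set R := Finset.range D.K ×ˢ Finset.range D.K with hR
  let A := R.filter (fun ij => ij.1 ≠ ij.2 ∧ D.PE X ij.1 ij.2)
  let B1 := R.filter (fun ij => ij.1 ≠ ij.2 ∧ ∃ e, e ≤ D.z + 2 * D.p0 ∧ D.PB X ij.1 ij.2 e)
  let B2 := R.filter (fun ij => ij.1 ≠ ij.2 ∧ ∃ e, D.z + 2 * D.p0 < e ∧ D.PB X ij.1 ij.2 e)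
  have hsub : (Finset.range D.K).filter
      (fun i => ∃ j < D.K, j ≠ i ∧ D.CB j (X.drop (D.c i))) ⊆
      (A ∪ (B1 ∪ B2)).image Prod.fst := by
    intro i hi
    rw [Finset.mem_filter, Finset.mem_range] at hi
    obtain ⟨hi, j, hj, hji, hcb⟩ := hi
    rw [Finset.mem_image]
    refine ⟨(i, j), ?_, rfl⟩
    have hm : (i, j) ∈ R := by simp [hR, hi, hj]
    rw [Finset.mem_union, Finset.mem_union]
    rcases D.CB_cases h hcb with h1 | ⟨e, h1⟩
    · exact Or.inl (Finset.mem_filter.2 ⟨hm, fun h => hji h.symm, h1⟩)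
    · by_cases he : e ≤ D.z + 2 * D.p0
      · exact Or.inr (Or.inl (Finset.mem_filter.2 ⟨hm, fun h => hji h.symm, e, he, h1⟩))
      · exact Or.inr (Or.inr (Finset.mem_filter.2 ⟨hm, fun h => hji h.symm, e, by omega, h1⟩))
  have hA : A.card ≤ 1 := by
    rw [Finset.card_le_one]
    rintro ⟨i, j⟩ h1 ⟨k, l⟩ h2
    simp only [A, hR, Finset.mem_filter, Finset.mem_product, Finset.mem_range] at h1 h2
    obtain ⟨⟨hi, hj⟩, hij, x, x1, x2, x3, x4⟩ := h1
    obtain ⟨⟨hk, hl⟩, hkl, y, y1, y2, y3, y4⟩ := h2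
    have ci := h.cp0 i hi
    have cj := h.cp0 j hj
    have ck := h.cp0 k hk
    have cl := h.cp0 l hl
    have hxy : x = y := by
      rcases Nat.lt_trichotomy x y with hc | hc | hc
      · have := h.gap X x y hc y2 x1 y1
        omega
      · exact hc
      · have := h.gap X y x hc x2 y1 x1
        omega
    subst hxy
    by_contra hne
    rcases h.gol i hi j hj k hk l hl hij hkl hne with hc | hc <;> omega
  have hB1 : B1.card ≤ D.C0 := by
    rcases B1.eq_empty_or_nonempty with he | ⟨⟨i, j⟩, hm⟩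
    · rw [he]; simp
    · simp only [B1, hR, Finset.mem_filter, Finset.mem_product, Finset.mem_range] at hm
      obtain ⟨⟨hi, hj⟩, hij, e, he, h1, h2, h3, h4, h5⟩ := hm
      have ci := h.cp0 i hi
      have cj := h.cp0 j hj
      refine (Finset.card_le_card ?_).trans (h.spl (e - D.p0) (by omega))
      rintro ⟨k, l⟩ hm'
      simp only [B1, hR, Finset.mem_filter, Finset.mem_product, Finset.mem_range] at hm' ⊢
      obtain ⟨⟨hk, hl⟩, hkl, e', he', h1', h2', h3', h4', h5'⟩ := hm'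
      have ck := h.cp0 k hk
      have cl := h.cp0 l hl
      have hee : e = e' := by
        rcases Nat.lt_trichotomy e e' with hc | hc | hc
        · have := h.gap X e e' hc h1' h2 h2'
          omega
        · exact hc
        · have := h.gap X e' e hc h1 h2' h2
          omega
      subst hee
      refine ⟨⟨hk, hl⟩, hkl, ?_⟩
      have : e - D.p0 + D.c l - D.c k = e - (D.c k + (D.p0 - D.c l)) := by omega
      rw [this]; exact h5'
  have hB2 : B2.card ≤ D.C0 := by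
    rcases B2.eq_empty_or_nonempty with he | ⟨⟨i, j⟩, hm⟩
    · rw [he]; simp
    · simp only [B2, hR, Finset.mem_filter, Finset.mem_product, Finset.mem_range] at hm
      obtain ⟨⟨hi, hj⟩, hij, e, he, h1, h2, h3, h4, h5⟩ := hm
      have ci := h.cp0 i hi
      have cj := h.cp0 j hj
      refine (Finset.card_le_card ?_).trans (h.spl (e - D.p0) (by omega))
      rintro ⟨k, l⟩ hm'
      simp only [B2, hR, Finset.mem_filter, Finset.mem_product, Finset.mem_range] at hm' ⊢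
      obtain ⟨⟨hk, hl⟩, hkl, e', he', h1', h2', h3', h4', h5'⟩ := hm'
      have ck := h.cp0 k hk
      have cl := h.cp0 l hl
      have hee : e = e' := by
        rcases Nat.lt_trichotomy e e' with hc | hc | hc
        · exact absurd h2 (h4' e (by omega) hc)
        · exact hc
        · exact absurd h2' (h4 e' (by omega) hc)
      subst hee
      refine ⟨⟨hk, hl⟩, hkl, ?_⟩
      have : e - D.p0 + D.c l - D.c k = e - (D.c k + (D.p0 - D.c l)) := by omega
      rw [this]; exact h5'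
  have h1 := Finset.card_le_card hsub
  have h2 := Finset.card_image_le (s := A ∪ (B1 ∪ B2)) (f := Prod.fst)
  have h3 := Finset.card_union_le A (B1 ∪ B2)
  have h4 := Finset.card_union_le B1 B2
  omega

theorem compl2 (h : D.Ok) : ∀ X ∈ D.Bad, ∀ v, ∃ P Q, X = P ++ Q ∧ P ∈ D.LP2 v ∧
    Q ∈ D.RQ2 (D.T X v) := by
  classical
  rintro X ⟨X1, Y, Z, rfl, hX1, hY, hZ, hB⟩ v
  obtain ⟨I, hI, hIk⟩ := h.cmp2 X1 v hX1
  have hsp := D.spoil_card h (X1 ++ (Y ++ Z))
  obtain ⟨k, hkI, hk⟩ : ∃ k ∈ I, k ∉ (Finset.range D.K).filter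
      (fun i => ∃ j < D.K, j ≠ i ∧ D.CB j ((X1 ++ (Y ++ Z)).drop (D.c i))) := by
    by_contra hc
    push Not at hc
    have := Finset.card_le_card (show I ⊆ _ from hc)
    omega
  obtain ⟨hkK, hlam, hrho⟩ := hIk k hkI
  obtain ⟨r, hr⟩ := Option.isSome_iff_exists.1 hrho
  have ck := h.cp0 k hkK
  rw [Finset.mem_filter, Finset.mem_range] at hk
  push Not at hk
  have hk' := hk hkK
  have hdrop : (X1 ++ (Y ++ Z)).drop (D.c k) = X1.drop (D.c k) ++ (Y ++ Z) := by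
    rw [List.drop_append_of_le_length (by omega)]
  rw [hdrop] at hk'
  have hlP : (X1.take (D.c k)).length = D.c k := by rw [List.length_take]; omega
  refine ⟨X1.take (D.c k), X1.drop (D.c k) ++ (Y ++ Z), ?_, ⟨k, hkK, hlP, hlam⟩,
    k, hkK, X1.drop (D.c k), Y, Z, r, rfl, ?_, hY, hZ, hB, fun j hj hjk => hk' j hj hjk, hr, ?_⟩
  · rw [← List.append_assoc (X1.take (D.c k)), List.take_append_drop]
  · rw [List.length_drop, hX1]
  · have e := h.snd2 k hkK (X1.take (D.c k)) (X1.drop (D.c k)) v r hlP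
      (by rw [List.take_append_drop]; exact hX1) hlam hr
    rw [List.take_append_drop] at e
    rw [T_eq D hX1 hY, ← e]

end Dat

end Crest.Agent.R320.Asm_834
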