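import Crest.Agent.R320.AsmA_85

/-! Row 320: assembly, part B: the languages of blocks have height one. -/

set_option autoImplicit false

namespace Crest.Agent.R320.Asm_85

open Crest.RegLang Crest.Agent.R320.Hk_851 Crest.Agent.R320.Blk467 Crest.Agent.R320.CompR_11
  Crest.Agent.R320.Pump_360 Crest.Agent.R320.RegBd_11

universe u

variable {α : Type u} {k : ℕ}

theorem HL_Wo [Finite α] {n : ℕ} {Wo : List α → Prop} (h : WD n Wo) :
    HL k ({X | Wo X} : Language α) := by
  have h1 : HL k ({Q | Q.length = n ∧ Wo Q} : Language α) :=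
    HL.finite ((List.finite_length_eq α n).subset fun v hv => hv.1)
  refine (HL.top.mul h1).congr fun w => ?_
  constructor
  · intro hw
    have hw' : Wo w := hw
    have hn := h.len w hw'
    refine Language.mem_mul.2 ⟨w.take (w.length - n), trivial, w.drop (w.length - n), ⟨?_, ?_⟩,
      List.take_append_drop _ _⟩
    · rw [List.length_drop]; omega
    · rw [← List.take_append_drop (w.length - n) w] at hw'
      exact (h.loc _ _ (by rw [List.length_drop]; omega)).1 hw'
  · intro hw
    obtain ⟨P, -, Q, ⟨h1, h2⟩, rfl⟩ := Language.mem_mul.1 hw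
    exact (h.loc P Q (by omega)).2 h2

theorem HL_XX [Finite α] {n z : ℕ} {Wo : List α → Prop} (h : WD n Wo) :
    HL k (XX z Wo : Language α) := by
  have hA : HL k ({X | z ≤ X.length ∧ Wo X} : Language α) :=
    (HL.length_ge z).setOf_and (HL_Wo h)
  have hB := hA.mul ((HL.one (α := α) (k := k)).compl)
  refine (hA.inf hB.compl).congr fun w => ?_
  constructor
  · rintro ⟨h1, h2, h3⟩
    refine ⟨⟨h1, h2⟩, fun hw => ?_⟩
    obtain ⟨P, ⟨g1, g2⟩, Q, hQ, rfl⟩ := Language.mem_mul.1 hw
    have hQ' : Q ≠ [] := fun e => hQ (by rw [e]; exact Language.nil_mem_one)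
    have := List.length_pos_iff.2 hQ'
    exact h3 P.length g1 (by rw [List.length_append]; omega) (by rw [List.take_left]; exact g2)
  · rintro ⟨⟨h1, h2⟩, h3⟩
    refine ⟨h1, h2, fun t ht ht' hw => h3 ?_⟩
    refine Language.mem_mul.2 ⟨w.take t, ⟨?_, hw⟩, w.drop t, ?_, List.take_append_drop _ _⟩
    · rw [List.length_take]; omega
    · intro e
      have e' : w.drop t = [] := e
      have := congrArg List.length e'
      rw [List.length_drop] at this
      simp at this
      omega

theorem piecesDrop {n z R B : ℕ} {Wo : List α → Prop} (h : WD n Wo)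
    (hper : ∀ u : List α, (∀ t < u.length, ¬ Wo (u.take t)) → Pieces R B u)
    (u : List α) (hu : ∀ t, z ≤ t → t < u.length → ¬ Wo (u.take t)) :
    Pieces (R + 1) (max B z) u := by
  obtain ⟨l, h1, h2, h3⟩ := hper (u.drop z) (by
    intro t ht hw
    rw [List.length_drop] at ht
    have hl : ((u.drop z).take t).length = t := by
      rw [List.length_take, List.length_drop]; omega
    have hn := h.len _ hw
    rw [hl] at hn
    have hz : (u.take z).length = z := by rw [List.length_take]; omega
    refine hu (z + t) (by omega) (by omega) ?_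
    have e : u.take (z + t) = u.take z ++ (u.drop z).take t := by
      have := take_add (u.take z) (u.drop z) t
      rwa [List.take_append_drop, hz] at this
    rw [e]
    exact (h.loc _ _ (by omega)).2 hw)
  refine ⟨(u.take z, [], 0) :: l, by rw [List.length_cons]; omega, ?_, ?_⟩
  · intro t ht
    rcases List.mem_cons.1 ht with rfl | ht
    · refine ⟨?_, by simp⟩
      rw [List.length_take]
      exact (min_le_left _ _).trans (le_max_right _ _)
    · exact ⟨(h2 t ht).1.trans (le_max_left _ _), (h2 t ht).2.trans (le_max_left _ _)⟩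
  · rw [val_cons, ← h3, pw_zero]
    simp

theorem regInv [Finite α] {S : Type u} [Monoid S] [Finite S] (φ : α → S) (L0 N : ℕ) (hN : 0 < N)
    (P : List α → Prop)
    (hP : ∀ q q2 : List α, L0 ≤ q.length → L0 ≤ q2.length → q.take L0 = q2.take L0 →
      q.length % N = q2.length % N → ((q.drop L0).map φ).prod = ((q2.drop L0).map φ).prod →
      P q → P q2) : Language.IsRegular ({X | P X} : Language α) := by
  have h := Crest.Agent.R320.Zone132b_898.isRegular_of_inv (fun w : List α => (w.map φ).prod)
    (fun u v => by rw [List.map_append, List.prod_append]) L0 N hN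
    (fun a s r => ∃ X, X.take L0 = a ∧ ((X.drop L0).map φ).prod = s ∧ X.length % N = r ∧ P X)
  refine Eq.mp (congrArg Language.IsRegular (?_ : _ = ({X | P X} : Language α))) h
  ext X
  refine Iff.symm ?_
  constructor
  · intro hX
    exact ⟨X, rfl, rfl, rfl, hX⟩
  · rintro ⟨Y, h1, h2, h3, h4⟩
    by_cases hX : L0 ≤ X.length
    · have hY : L0 ≤ Y.length := by
        have := congrArg List.length h1
        rw [List.length_take, List.length_take] at this
        omega
      exact hP Y X hY hX h1 h3 h2 h4
    · have hlt : X.length < L0 := by omega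
      have hY : Y.length < L0 := by
        have := congrArg List.length h1
        rw [List.length_take, List.length_take] at this
        omega
      rw [List.take_of_length_le hY.le, List.take_of_length_le hlt.le] at h1
      rw [← h1]
      exact h4

theorem HL_block [Finite α] {n z R B : ℕ} {Wo : List α → Prop} (h : WD n Wo)
    (hper : ∀ u : List α, (∀ t < u.length, ¬ Wo (u.take t)) → Pieces R B u)
    {S : Type u} [Monoid S] [Finite S] (φ : α → S) (L0 N : ℕ) (hN : 0 < N)
    (P : List α → Prop)
    (hP : ∀ q q2 : List α, L0 ≤ q.length → L0 ≤ q2.length → q.take L0 = q2.take L0 →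
      q.length % N = q2.length % N → ((q.drop L0).map φ).prod = ((q2.drop L0).map φ).prod →
      P q → P q2) : HL 1 ({X | X ∈ XX z Wo ∧ P X} : Language α) := by
  have h1 : Language.IsRegular (XX z Wo : Language α) :=
    Crest.Agent.R320.Reg_819.HL.regular (HL_XX (k := 0) h)
  have h2 := Language.IsRegular.inf h1 (regInv φ L0 N hN P hP)
  refine reg_pieces (L := ({X | X ∈ XX z Wo ∧ P X} : Language α)) h2 (R + 1) (max B z) ?_
  intro w hw
  exact piecesDrop h hper w hw.1.2.2

theorem HL_tail [Finite α] {n z R B : ℕ} {Wo : List α → Prop} (h : WD n Wo)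
    (hper : ∀ u : List α, (∀ t < u.length, ¬ Wo (u.take t)) → Pieces R B u)
    {S : Type u} [Monoid S] [Finite S] (φ : α → S) (s : S) :
    HL 1 ({w | (∀ X ∈ XX z Wo, ¬ X <+: w) ∧ (w.map φ).prod = s} : Language α) := by
  classical
  have h0 : HL 0 ({w | ∀ X ∈ XX z Wo, ¬ X <+: w} : Language α) := by
    refine ((HL_XX (k := 0) (z := z) h).prefix.compl).congr fun w => ?_
    constructor
    · rintro hw ⟨X, hX, hp⟩
      exact hw X hX hp
    · intro hw X hX hp
      exact hw ⟨X, hX, hp⟩
  have h1 : Language.IsRegular ({w | ∀ X ∈ XX z Wo, ¬ X <+: w} : Language α) :=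
    Crest.Agent.R320.Reg_819.HL.regular h0
  have h2 : Language.IsRegular ({w | (w.map φ).prod = s} : Language α) :=
    regInv φ 0 1 one_pos (fun w => (w.map φ).prod = s) (by
      intro q q2 _ _ _ _ h5 h6
      simp only [List.drop_zero] at h5
      rw [← h5]; exact h6)
  refine reg_pieces (L := ({w | (∀ X ∈ XX z Wo, ¬ X <+: w) ∧ (w.map φ).prod = s} : Language α))
    (Language.IsRegular.inf h1 h2) (R + 1) (max B z) ?_
  intro w hw
  refine piecesDrop h hper w ?_
  intro t ht ht' hwt
  have hex : ∃ t, z ≤ t ∧ t < w.length ∧ Wo (w.take t) := ⟨t, ht, ht', hwt⟩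
  obtain ⟨a1, a2, a3⟩ := Nat.find_spec hex
  have hmin := fun t (ht : t < Nat.find hex) => Nat.find_min hex ht
  set t1 := Nat.find hex with ht1
  have hl : (w.take t1).length = t1 := by rw [List.length_take]; omega
  refine hw.1 (w.take t1) ⟨by omega, a3, ?_⟩ (List.take_prefix _ _)
  intro i hi hi' hwi
  rw [hl] at hi'
  rw [List.take_take, min_eq_left hi'.le] at hwi
  exact hmin i hi' ⟨hi, by omega, hwi⟩

end Crest.Agent.R320.Asm_85
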