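import Crest.Agent.R320.AsmA_957

/-!
# Row 320: from an abstract all-words gadget to `Main_621.Data`, part B: inner scheme (helper957)
-/

set_option autoImplicit false

namespace Crest.Agent.R320.Asm_957

open Crest.Agent.R320.Hk_851 Crest.Agent.R320.Star_621 Crest.Agent.R320.Two_621

variable {α : Type} {S : Type} [Monoid S] (D : Par α S)

/-- the map of a fixed first part -/
def emb (s : S) : (Function.End (Option (Tok S)))ᵐᵒᵖ :=
  MulOpposite.op fun o => o.map fun v => act v s

def CutT (v : Tok S) (Y : List α) : Prop :=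
  ∃ P Q τ, Y = P ++ Q ∧ P.length ≤ D.N1 ∧ D.lam P = some v ∧ Q ∈ RA D τ

open Classical in
noncomputable def stepT (Y : List α) : (Function.End (Option (Tok S)))ᵐᵒᵖ :=
  MulOpposite.op fun o => o.bind fun v => if CutT D v Y then none else
    some (act v (D.ph Y) + dT D Y)

theorem cut_iff {z : List α} (hz : D.p0 ≤ z.length) (v : Tok S) :
    Cut (LA D) (RA D) v z ↔ CutT D (act v (D.ph (z.take D.p0))) (z.drop D.p0) := by
  have hl : (z.take D.p0).length = D.p0 := by rw [List.length_take]; omega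
  constructor
  · rintro ⟨P, Q, τ, rfl, ⟨h1, h2, h3⟩, hQ⟩
    refine ⟨P.drop D.p0, Q, τ, ?_, ?_, ?_, hQ⟩
    · exact List.drop_append_of_le_length h1
    · rw [List.length_drop]; omega
    · have : (P ++ Q).take D.p0 = P.take D.p0 := List.take_append_of_le_length h1
      rw [this]; exact h3
  · rintro ⟨P, Q, τ, h1, h2, h3, h4⟩
    refine ⟨z.take D.p0 ++ P, Q, τ, ?_, ⟨?_, ?_, ?_⟩, h4⟩
    · rw [List.append_assoc, ← h1, List.take_append_drop]
    · rw [List.length_append]; omega
    · rw [List.length_append]; omega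
    · rw [List.drop_left' hl, List.take_left' hl]; exact h3

theorem stepA_eq {z : List α} (hz : D.p0 ≤ z.length) :
    stepA (aff D.ph (dA D)) (LA D) (RA D) z = emb (D.ph (z.take D.p0)) * stepT D (z.drop D.p0) := by
  classical
  apply MulOpposite.unop_injective
  funext o
  cases o with
  | none => rfl
  | some v =>
    show (if Cut (LA D) (RA D) v z then none else some (aff D.ph (dA D) z v)) =
      (if CutT D (act v (D.ph (z.take D.p0))) (z.drop D.p0) then none else
        some (act (act v (D.ph (z.take D.p0))) (D.ph (z.drop D.p0)) + dT D (z.drop D.p0)))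
    by_cases h : Cut (LA D) (RA D) v z
    · rw [if_pos h, if_pos ((cut_iff D hz v).1 h)]
    · rw [if_neg h, if_neg (fun h' => h ((cut_iff D hz v).2 h'))]
      congr 1
      unfold aff dA
      rw [act_mul, ← D.hm, List.take_append_drop]

noncomputable def dB (z : List α) : Tok (Function.End (Option (Tok S)))ᵐᵒᵖ :=
  D.nuB (z.take D.p0) (stepT D (z.drop D.p0))

def LB (v : Tok (Function.End (Option (Tok S)))ᵐᵒᵖ) : Language α :=
  {P | ∃ k, k < D.K ∧ P.length = D.c k ∧ D.lamB k P = some v}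

def RB (τ : Tok (Function.End (Option (Tok S)))ᵐᵒᵖ) : Language α :=
  {Q | ∃ k, k < D.K ∧ Crit D (D.c k) Q ∧ (∀ k', k' < D.K → Crit D (D.c k') Q → k' = k) ∧
    (∃ t, F D.R Q (D.p0 + D.i0 - D.c k) t ∧ t < Q.length ∧ F D.R Q (t + 1) Q.length) ∧
    D.rhoB k (Q.take (D.p0 - D.c k)) (stepT D (Q.drop (D.p0 - D.c k))) = some τ}

theorem soundB
    (hsB : ∀ k < D.K, ∀ P Q y v b, P.length = D.c k → D.lamB k P = some v →
      D.rhoB k Q y = some b → b = act v (emb (D.ph (P ++ Q)) * y) + D.nuB (P ++ Q) y) :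
    Sound (Zc D) (aff (stepA (aff D.ph (dA D)) (LA D) (RA D)) (dB D)) (LB D) (RB D) := by
  refine ⟨?_, ?_⟩
  · rintro ω ⟨k, hk, h, -⟩
    have := D.hc0 k hk
    simp at h
    omega
  · rintro v τ P Q z x y ⟨k0, hk0, hP, hlam⟩ ⟨k1, hk1, hc1, huniq, ⟨tk, f1, f2, f3⟩, hrho⟩
      ⟨⟨t1, g1, g2, g3⟩, ⟨t', g1', hbad⟩⟩ e
    have hn := D.hi0
    have hG := D.hG
    have hk0' := D.hc1 k0 hk0
    have hk1' := D.hc1 k1 hk1
    rw [Nat.sub_zero] at g1'
    have et := g1'.uniq g1
    subst et
    have hg0 := g1'.1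
    have e2 : P ++ (Q ++ x) = z ++ y := by rw [← List.append_assoc]; exact e
    have fQ := f3.2.1
    have hsep := D.R.sep f1.2.1 fQ f2
    have hf10 := f1.1
    -- the end of Q is a wall of the text
    have hWe : D.R.W (z ++ y) (P.length + Q.length) := by
      rw [← e2]
      refine (D.R.right P (Q ++ x) Q.length (D.R.le fQ).1).2 ?_
      exact (D.R.left Q x Q.length le_rfl).2 fQ
    have hFw : F D.R (z ++ y) (D.p0 + D.i0) t' := (F.app (le_of_lt g2)).2 g1'
    have hle : t' ≤ P.length + Q.length := by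
      by_contra hcon
      exact hFw.2.2 _ (by omega) (by omega) hWe
    have hFQ : F D.R Q (D.p0 + D.i0 - D.c k0) (t' - D.c k0) := by
      have h' : F D.R (P ++ (Q ++ x)) (P.length + (D.p0 + D.i0 - D.c k0))
          (P.length + (t' - D.c k0)) := by
        rw [e2, hP]
        have a1 : D.c k0 + (D.p0 + D.i0 - D.c k0) = D.p0 + D.i0 := by omega
        have a2 : D.c k0 + (t' - D.c k0) = t' := by omega
        rw [a1, a2]; exact hFw
      have h'' := (F.right (by omega)).1 h'
      exact (F.app (by omega)).1 h''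
    have hcr : Crit D (D.c k0) Q := by
      refine ⟨t' - D.c k0, hFQ, ?_⟩
      rcases hbad with ⟨s, hs1, hs2, hs3, hs4⟩ | hb
      · left
        refine ⟨s - D.c k0, by omega, ?_, by omega, by omega⟩
        have hW : D.R.W (P ++ (Q ++ x)) (P.length + (s - D.c k0)) := by
          rw [e2, hP]
          have a2 : D.c k0 + (s - D.c k0) = s := by omega
          rw [a2]; exact (D.R.left z y s (by omega)).2 hs2
        have hW' := (D.R.right P (Q ++ x) (s - D.c k0) (by omega)).1 hW
        exact (D.R.left Q x _ (by omega)).1 hW'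
      · right
        have a1 : t' - D.c k0 + D.c k0 - D.p0 = t' + 0 - D.p0 := by omega
        rw [a1]; exact hb
    have hkk := huniq k0 hk0 hcr
    subst hkk
    have htk := f1.uniq hFQ
    have hend : z = P ++ Q := by
      have b1 : F D.R (z ++ y) (t' + 1) z.length := (F.app le_rfl).2 g3
      have b2 : F D.R (P ++ (Q ++ x)) (P.length + (tk + 1)) (P.length + Q.length) := by
        refine (F.right (by omega)).2 ?_
        exact (F.app le_rfl).2 f3
      rw [e2, hP] at b2
      have a1 : D.c k0 + (tk + 1) = t' + 1 := by omega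
      rw [a1] at b2
      have hl := b1.uniq b2
      refine (List.append_inj (s₁ := z) (t₁ := y) (s₂ := P ++ Q) (t₂ := x) e.symm ?_).1
      rw [List.length_append, hP]; exact hl
    subst hend
    refine ⟨rfl, ?_⟩
    have hlen : D.p0 ≤ (P ++ Q).length := by omega
    have ht : (P ++ Q).take D.p0 = P ++ Q.take (D.p0 - D.c k0) := by
      rw [List.take_append, hP, List.take_of_length_le (by omega)]
    have hd : (P ++ Q).drop D.p0 = Q.drop (D.p0 - D.c k0) := by
      rw [List.drop_append, hP, List.drop_eq_nil_of_le (by omega), List.nil_append]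
    have hfin := hsB k0 hk0 P _ _ v τ hP hlam hrho
    show τ = act v (stepA (aff D.ph (dA D)) (LA D) (RA D) (P ++ Q)) + dB D (P ++ Q)
    rw [stepA_eq D hlen]
    unfold dB
    rw [ht, hd]
    exact hfin

theorem completeB {C0 Rr : ℕ} (hRr : 3 * C0 + 1 < Rr)
    (hcB : ∀ (u : List α) y v, (∀ k < D.K, D.c k ≤ u.length) → ∃ I : Finset ℕ, Rr ≤ I.card ∧
      ∀ k ∈ I, k < D.K ∧ D.lamB k (u.take (D.c k)) = some v ∧
        (D.rhoB k (u.drop (D.c k)) y).isSome)
    (hsep : ∀ i j k l, i < D.K → j < D.K → k < D.K → l < D.K → i ≠ j → k ≠ l →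
      ((D.c i : ℤ) - D.c j) - (D.c k - D.c l) ≤ 2 * D.N1 →
      ((D.c k : ℤ) - D.c l) - (D.c i - D.c j) ≤ 2 * D.N1 → i = k ∧ j = l)
    (hcount : ∀ (T : ℤ) (s : Finset (ℕ × ℕ)), (∀ p ∈ s, p.1 < D.K ∧ p.2 < D.K ∧ p.1 ≠ p.2 ∧
      0 ≤ T + D.c p.1 - D.c p.2 ∧ D.Bad (T + D.c p.1 - D.c p.2).toNat) → s.card ≤ C0) :
    ∀ z ∈ Zc D, ∀ v, Cut (LB D) (RB D) v z := by
  classical
  rintro z ⟨⟨t1, g1, g2, g3⟩, ⟨t', g1', hbad⟩⟩ v
  have hn := D.hi0
  have hG := D.hG
  rw [Nat.sub_zero] at g1'
  have et := g1'.uniq g1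
  subst et
  have hg0 := g1'.1
  have hlp : (z.take D.p0).length = D.p0 := by rw [List.length_take]; omega
  obtain ⟨I, hI, hIk⟩ := hcB (z.take D.p0) (stepT D (z.drop D.p0)) v
    (fun k hk => by rw [hlp]; exact D.hc1 k hk)
  -- walls below the threshold
  obtain ⟨t0, ht0⟩ : ∃ t0 : ℕ, ∀ p, D.R.W z p → p < D.p0 + D.i0 → D.p0 + D.i0 ≤ p + D.p0 →
      p = t0 := by
    by_cases hex : ∃ p, D.R.W z p ∧ p < D.p0 + D.i0 ∧ D.p0 + D.i0 ≤ p + D.p0
    · obtain ⟨p, h1, h2, h3⟩ := hex
      refine ⟨p, fun q h4 h5 h6 => ?_⟩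
      rcases Nat.lt_trichotomy q p with h | h | h
      · have := D.R.sep h4 h1 h; omega
      · exact h
      · have := D.R.sep h1 h4 h; omega
    · exact ⟨0, fun p h1 h2 h3 => absurd ⟨p, h1, h2, h3⟩ hex⟩
  let SB : ℕ → Finset (ℕ × ℕ) := fun p =>
    (Finset.range D.K ×ˢ Finset.range D.K).filter fun q => q.1 ≠ q.2 ∧
      0 ≤ (p : ℤ) - D.p0 + D.c q.1 - D.c q.2 ∧
      D.Bad ((p : ℤ) - D.p0 + D.c q.1 - D.c q.2).toNat
  have hSB : ∀ p, (SB p).card ≤ C0 := by
    intro p
    refine hcount ((p : ℤ) - D.p0) (SB p) fun q hq => ?_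
    simp only [SB, Finset.mem_filter, Finset.mem_product, Finset.mem_range] at hq
    exact ⟨hq.1.1, hq.1.2, hq.2.1, hq.2.2.1, hq.2.2.2⟩
  let PE : ℕ → Prop := fun k => k < D.K ∧ ∃ k', k' < D.K ∧ k' ≠ k ∧ ∃ q, D.R.W z q ∧
    D.p0 + D.i0 + D.c k ≤ q + D.c k' + D.N1 ∧ q + D.c k' ≤ D.p0 + D.i0 + D.N1 + D.c k
  let SE : Finset ℕ := (Finset.range D.K).filter PE
  have hSE : SE.card ≤ 1 := by
    rw [Finset.card_le_one]
    intro a ha b hb
    obtain ⟨-, ha1, a', ha2, ha3, qa, ha4, ha5, ha6⟩ := (Finset.mem_filter.1 ha)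
    obtain ⟨-, hb1, b', hb2, hb3, qb, hb4, hb5, hb6⟩ := (Finset.mem_filter.1 hb)
    have q1 := D.hc1 a ha1
    have q2 := D.hc1 a' ha2
    have q3 := D.hc1 b hb1
    have q4 := D.hc1 b' hb2
    have hq : qa = qb := by
      rcases Nat.lt_trichotomy qa qb with h | h | h
      · have := D.R.sep ha4 hb4 h; omega
      · exact h
      · have := D.R.sep hb4 ha4 h; omega
    subst hq
    exact (hsep a a' b b' ha1 ha2 hb1 hb2 (Ne.symm ha3) (Ne.symm hb3) (by omega) (by omega)).1
  let Sp : Finset ℕ := SE ∪ ((SB t').image Prod.snd ∪ ((SB z.length).image Prod.snd ∪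
    (SB t0).image Prod.snd))
  have hSp : Sp.card < I.card := by
    have c1 := Finset.card_union_le SE ((SB t').image Prod.snd ∪ ((SB z.length).image Prod.snd ∪
      (SB t0).image Prod.snd))
    have c2 := Finset.card_union_le ((SB t').image Prod.snd) ((SB z.length).image Prod.snd ∪
      (SB t0).image Prod.snd)
    have c3 := Finset.card_union_le ((SB z.length).image Prod.snd) ((SB t0).image Prod.snd)
    have d1 := (Finset.card_image_le (s := SB t') (f := Prod.snd)).trans (hSB t')
    have d2 := (Finset.card_image_le (s := SB z.length) (f := Prod.snd)).trans (hSB z.length)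
    have d3 := (Finset.card_image_le (s := SB t0) (f := Prod.snd)).trans (hSB t0)
    change (SE ∪ ((SB t').image Prod.snd ∪ ((SB z.length).image Prod.snd ∪
      (SB t0).image Prod.snd))).card < _
    omega
  obtain ⟨k, hkI, hkS⟩ := Finset.exists_mem_notMem_of_card_lt_card hSp
  obtain ⟨hk, hlam, hrho⟩ := hIk k hkI
  have hck := D.hc1 k hk
  have hkz : D.c k ≤ z.length := by omega
  obtain ⟨τ, hτ⟩ := Option.isSome_iff_exists.1 hrho
  have tk : (z.take D.p0).take (D.c k) = z.take (D.c k) := by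
    rw [List.take_take, Nat.min_eq_left hck]
  have dk : (z.take D.p0).drop (D.c k) = (z.drop (D.c k)).take (D.p0 - D.c k) := by
    rw [List.drop_take]
  have ddk : z.drop D.p0 = (z.drop (D.c k)).drop (D.p0 - D.c k) := by
    rw [List.drop_drop]; congr 1; omega
  have hFk : F D.R (z.drop (D.c k)) (D.p0 + D.i0 - D.c k) (t' - D.c k) := by
    have h' : F D.R z (D.c k + (D.p0 + D.i0 - D.c k)) t' := by
      have a1 : D.c k + (D.p0 + D.i0 - D.c k) = D.p0 + D.i0 := by omega
      rw [a1]; exact g1'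
    exact (F.drop hkz (by omega) h').2
  refine ⟨z.take (D.c k), z.drop (D.c k), τ, (List.take_append_drop _ _).symm,
    ⟨k, hk, by rw [List.length_take]; omega, by rw [← tk]; exact hlam⟩,
    ⟨k, hk, ?_, ?_, ⟨t' - D.c k, hFk, by rw [List.length_drop]; omega, ?_⟩, ?_⟩⟩
  · refine ⟨t' - D.c k, hFk, ?_⟩
    rcases hbad with ⟨s, hs1, hs2, hs3, hs4⟩ | hb
    · left
      refine ⟨s - D.c k, by omega, ?_, by omega, by omega⟩
      refine (W.drop hkz (by omega)).2 ?_
      have a2 : D.c k + (s - D.c k) = s := by omega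
      rw [a2]; exact hs2
    · right
      have a1 : t' - D.c k + D.c k - D.p0 = t' + 0 - D.p0 := by omega
      rw [a1]; exact hb
  · intro k' hk' hcr
    by_contra hne
    apply hkS
    have hck' := D.hc1 k' hk'
    obtain ⟨t, hF, hb⟩ := hcr
    have hF0 := hF.1
    have hWz : D.R.W z (D.c k + t) := (W.drop hkz (D.R.le hF.2.1).1).1 hF.2.1
    rcases hb with ⟨s, hs1, hs2, hs3, hs4⟩ | hb
    · refine Finset.mem_union_left _ (Finset.mem_filter.2 ⟨Finset.mem_range.2 hk, hk, k', hk', hne,
        D.c k + s, (W.drop hkz (D.R.le hs2).1).1 hs2, by omega, by omega⟩)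
    · refine Finset.mem_union_right _ ?_
      have hmem : (k', k) ∈ SB (D.c k + t) := by
        simp only [SB, Finset.mem_filter, Finset.mem_product, Finset.mem_range]
        refine ⟨⟨hk', hk⟩, hne, by omega, ?_⟩
        have a1 : (((D.c k + t : ℕ) : ℤ) - D.p0 + D.c k' - D.c k).toNat = t + D.c k' - D.p0 := by
          omega
        rw [a1]; exact hb
      have hsnd : k ∈ (SB (D.c k + t)).image Prod.snd := Finset.mem_image.2 ⟨(k', k), hmem, rfl⟩
      have hpos : D.c k + t = t' ∨ D.c k + t = z.length ∨ D.c k + t = t0 := by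
        by_cases h1 : D.c k + t < D.p0 + D.i0
        · right; right
          exact ht0 _ hWz h1 (by omega)
        · by_cases h2 : D.c k + t < t'
          · exact absurd hWz (g1'.2.2 _ (by omega) h2)
          · by_cases h3 : D.c k + t = t'
            · exact Or.inl h3
            · right; left
              have h4 := (D.R.le hWz).2
              by_contra h5
              exact g3.2.2 _ (by omega) (by omega) hWz
      rcases hpos with h | h | h
      · rw [h] at hsnd
        exact Finset.mem_union_left _ hsnd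
      · rw [h] at hsnd
        exact Finset.mem_union_right _ (Finset.mem_union_left _ hsnd)
      · rw [h] at hsnd
        exact Finset.mem_union_right _ (Finset.mem_union_right _ hsnd)
  · have h' : F D.R z (D.c k + (t' - D.c k + 1)) z.length := by
      have a1 : D.c k + (t' - D.c k + 1) = t' + 1 := by omega
      rw [a1]; exact g3
    rw [List.length_drop]
    exact (F.drop hkz (by omega) h').2
  · rw [← dk, ← ddk]; exact hτ

end Crest.Agent.R320.Asm_957
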