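import Crest.Agent.R320.AsmC_201
import Crest.Agent.R320.Reg_819
import Crest.Agent.R320.Reg_236

/-! Row 320 (helper201): read-off and heights for the word-level instance AsmC_201. -/

set_option autoImplicit false

namespace Crest.Agent.R320.AsmC_201

open Crest.Agent.R320.Hk_851 Crest.Agent.R320.Code110 Crest.Agent.R320.ExactR_237

variable {α : Type}

theorem pr_append {S : Type} [Monoid S] (f : α → S) (u v : List α) :
    pr f (u ++ v) = pr f u * pr f v := by
  simp [pr]

theorem run_shift {S V : Type} [Monoid S] [AddCommGroup V] {f : α → S} {act : V → S → V}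
    (hact1 : ∀ x, act x 1 = x) (hactm : ∀ x s s', act (act x s) s' = act x (s * s'))
    {Z : Language α} {τ : List α → V → V}
    (hτ : ∀ X ∈ Z, ∀ x x', τ X x - τ X x' = act (x - x') (pr f X))
    {x y : V} {w : List α} (h : Run Z τ x w y) :
    ∀ x', ∃ y', Run Z τ x' w y' ∧ y - y' = act (x - x') (pr f w) := by
  induction h with
  | nil x => intro x'; exact ⟨x', Run.nil x', by simp [pr, hact1]⟩
  | @cons x y u w hu _ ih =>
    intro x'
    obtain ⟨y', h1, h2⟩ := ih (τ u x')
    refine ⟨y', Run.cons hu h1, ?_⟩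
    rw [h2, hτ u hu, hactm, pr_append]

theorem split_zones {Z : Language α} (h0 : [] ∉ Z) :
    ∀ w : List α, ∃ a b, w = a ++ b ∧ a ∈ KStar.kstar Z ∧ ∀ z ∈ Z, ¬ z <+: b := by
  intro w
  induction hn : w.length using Nat.strong_induction_on generalizing w with
  | _ n ih =>
    by_cases hz : ∃ z ∈ Z, z <+: w
    · obtain ⟨z, hz, y, rfl⟩ := hz
      have hne : z ≠ [] := fun e => h0 (e ▸ hz)
      have hl : 0 < z.length := List.length_pos_iff.2 hne
      obtain ⟨a, b, rfl, ha, hb⟩ := ih y.length (by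
        rw [← hn, List.length_append]; omega) y rfl
      refine ⟨z ++ a, b, by simp, ?_, hb⟩
      rw [Language.mem_kstar] at ha ⊢
      obtain ⟨L, rfl, hL⟩ := ha
      refine ⟨z :: L, by simp, ?_⟩
      intro y hy
      rcases List.mem_cons.1 hy with rfl | hy
      · exact hz
      · exact hL y hy
    · push Not at hz
      exact ⟨[], w, rfl, Language.nil_mem_kstar _, hz⟩

theorem top3 {S V : Type} [Monoid S] [Finite S] [AddCommGroup V] [Finite V] {f : α → S}
    {act : V → S → V}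
    (hact1 : ∀ x, act x 1 = x) (hactm : ∀ x s s', act (act x s) s' = act x (s * s'))
    (faith : ∀ s s', (∀ x, act x s = act x s') → s = s')
    {Z : Language α} (hZ : PC Z) {τ : List α → V → V}
    (hτ : ∀ X ∈ Z, ∀ x x', τ X x - τ X x' = act (x - x') (pr f X))
    (hrun : ∀ x y, HL 3 (RB Z τ x y))
    (hE : ∀ s, HL 3 ({w | (∀ z ∈ Z, ¬ z <+: w) ∧ pr f w = s} : Language α)) (s : S) :
    HL 3 ({w | pr f w = s} : Language α) := by
  have hM : ∀ s1 : S, HL 3 ({w | ∀ x : V, w ∈ ({w | ∃ q : {q : V × V // q.1 - q.2 = act x s1},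
      w ∈ (RB Z τ x q.1.1 ⊓ RB Z τ 0 q.1.2 : Language α)} : Language α)} : Language α) :=
    fun s1 => HL.iInter fun x => HL.iUnion fun q => (hrun _ _).inf (hrun _ _)
  refine (HL.iUnion fun p : {p : S × S // p.1 * p.2 = s} => (hM p.1.1).mul (hE p.1.2)).congr
    fun w => ?_
  constructor
  · intro hw
    have hw : pr f w = s := hw
    obtain ⟨a, b, rfl, ha, hb⟩ := split_zones hZ.ne w
    refine ⟨⟨(pr f a, pr f b), by rw [← pr_append]; exact hw⟩,
      Language.mem_mul.2 ⟨a, ?_, b, ⟨hb, rfl⟩, rfl⟩⟩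
    intro x
    obtain ⟨y, hy⟩ := exists_run ha x (τ := τ)
    obtain ⟨y', h1, h2⟩ := run_shift hact1 hactm hτ hy 0
    rw [sub_zero] at h2
    exact ⟨⟨(y, y'), h2⟩, hy, h1⟩
  · rintro ⟨⟨⟨s1, s2⟩, hs⟩, hw⟩
    obtain ⟨a, ha, b, hb, rfl⟩ := Language.mem_mul.1 hw
    show pr f (a ++ b) = s
    rw [pr_append, ← hs]
    have hb2 : pr f b = s2 := hb.2
    have ha2 : pr f a = s1 := by
      apply faith
      intro x
      obtain ⟨⟨⟨y, y0⟩, hq⟩, h1, h2⟩ := ha x
      obtain ⟨y', h3, h4⟩ := run_shift hact1 hactm hτ h1 0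
      have h5 : y' = y0 := Run.det hZ h3 h2
      rw [sub_zero, h5] at h4
      rw [← h4]; exact hq
    rw [ha2, hb2]

end Crest.Agent.R320.AsmC_201
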