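import Crest.Agent.R320.Code_110
import Crest.Agent.R320.ExactR_237
import Crest.Agent.R320.FewVal_228

/-! Row 320 (helper201): word-level instance of the two schemes, all words, natural chain rule. -/

set_option autoImplicit false

namespace Crest.Agent.R320.AsmC_201

open Crest.Agent.R320.Hk_851 Crest.Agent.R320.Code110 Crest.Agent.R320.ExactR_237

variable {α : Type}

/-- left-looking wall rule -/
structure WR (Wo : List α → Prop) (n W : ℕ) : Prop where
  pos : 0 < n
  loc : ∀ P Q : List α, n ≤ Q.length → (Wo (P ++ Q) ↔ Wo Q)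
  len : ∀ Q, Wo Q → n ≤ Q.length
  gap : ∀ (X : List α) (s t : ℕ), s < t → t ≤ X.length → Wo (X.take s) → Wo (X.take t) → s + W ≤ t

variable {Wo : List α → Prop} {n W z0 p0 N : ℕ}

theorem take_len_add {p q : List α} {s : ℕ} : (p ++ q).take (p.length + s) = p ++ q.take s := by
  rw [List.take_append, List.take_of_length_le (by omega)]
  congr 2
  omega

theorem WR.app (h : WR Wo n W) {p q : List α} {s : ℕ} (h1 : n ≤ s) (h2 : s ≤ q.length) :
    Wo ((p ++ q).take (p.length + s)) ↔ Wo (q.take s) := by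
  rw [take_len_add]
  exact h.loc p (q.take s) (by rw [List.length_take]; omega)

/-- zones -/
def Zb (Wo : List α → Prop) (z0 : ℕ) : Language α :=
  {X | z0 ≤ X.length ∧ Wo X ∧ ∀ t, z0 ≤ t → t < X.length → ¬ Wo (X.take t)}

theorem pc (hz : 0 < z0) : PC (Zb Wo z0) where
  ne h := by
    have h1 : z0 ≤ ([] : List α).length := h.1
    simp at h1
    omega
  pf := by
    intro u hu v hv huv
    obtain ⟨r, rfl⟩ := huv
    by_contra hne
    have hr : r ≠ [] := fun e => hne (by rw [e, List.append_nil])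
    have hrl : 0 < r.length := List.length_pos_iff.2 hr
    have h1 : z0 ≤ u.length := hu.1
    have h2 : u.length < (u ++ r).length := by rw [List.length_append]; omega
    refine hv.2.2 u.length h1 h2 ?_
    rw [List.take_left]
    exact hu.2.1

/-- bad zones -/
def Bd (Wo : List α → Prop) (z0 p0 N : ℕ) (BadT : ℕ → Prop) : Language α :=
  {X | X ∈ Zb Wo z0 ∧ (BadT (X.length - p0) ∨
    ∃ t, z0 ≤ t + N ∧ t < z0 + N ∧ t ≤ X.length ∧ Wo (X.take t))}

section
variable {S V : Type} [Monoid S] [AddCommGroup V] (f : α → S) (act : V → S → V)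

/-- zone map -/
def tau (p0 : ℕ) (nu1 nu2 : List α → V) (X : List α) (v : V) : V :=
  act (act v (pr f (X.take p0)) + nu2 (X.take p0)) (pr f (X.drop p0)) + nu1 (X.drop p0)

/-- left labels of scheme 1 -/
def L1 (p0 N : ℕ) (lam : List α → Option V) (nu2 : List α → V) (v : V) : Language α :=
  {P | p0 ≤ P.length ∧ P.length ≤ p0 + N ∧
    lam (P.drop p0) = some (act v (pr f (P.take p0)) + nu2 (P.take p0))}

/-- left labels of scheme 2 -/
def L2 (K : ℕ) (c : ℕ → ℕ) (lam2 : ℕ → List α → Option V) (v : V) : Language α :=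
  {P | ∃ k < K, P.length = c k ∧ lam2 k P = some v}

end

theorem exactly_one {Ω : Type} {Z : Language α} {τ : List α → Ω → Ω} {x y : Ω} {X : List α}
    (h : X ∈ Z) (e : τ X x = y) : X ∈ Exactly Z τ (0 + 1) x y :=
  ⟨y, Language.mem_mul.2 ⟨X, ⟨h, e⟩, [], ⟨rfl, rfl⟩, by simp⟩⟩

theorem exactly_two {Ω : Type} {Z : Language α} {τ : List α → Ω → Ω} {x : Ω} {X Y : List α}
    (h : X ∈ Z) (h' : Y ∈ Z) : X ++ Y ∈ Exactly Z τ (1 + 1) x (τ Y (τ X x)) :=
  ⟨τ X x, Language.mem_mul.2 ⟨X, ⟨h, rfl⟩, Y, exactly_one h' rfl, rfl⟩⟩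

section
variable {S V : Type} [Monoid S] [AddCommGroup V] {f : α → S} {act : V → S → V}

theorem compl1 (hW : WR Wo n W) (hz : p0 + N + n ≤ z0) (hz2 : p0 + 2 * N ≤ z0)
    {lam rho : List α → Option V} {nu1 nu2 : List α → V} {BadT : ℕ → Prop}
    (sound : ∀ p q v r, lam p = some v → rho q = some r →
      r = act v (pr f (p ++ q)) + nu1 (p ++ q))
    (llen : ∀ p v, lam p = some v → p.length ≤ N)
    (comp : ∀ u : List α, 2 * N ≤ u.length → ¬ BadT u.length → ∀ v, ∃ p q, p ++ q = u ∧
      lam p = some v ∧ (rho q).isSome)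
    {u : List α} (hu : u ∈ Zb Wo z0) (hb : u ∉ Bd Wo z0 p0 N BadT) (x : V) :
    ∃ p q y, u = p ++ q ∧ p ∈ L1 f act p0 N lam nu2 x ∧
      q ∈ Rsem (Zb Wo z0) (Zb Wo z0) (tau f act p0 nu1 nu2) 0 (L1 f act p0 N lam nu2) y := by
  have hul : z0 ≤ u.length := hu.1
  have hnb : ¬ BadT (u.length - p0) ∧ ∀ t, z0 ≤ t + N → t < z0 + N → t ≤ u.length →
      ¬ Wo (u.take t) := by
    constructor
    · intro h; exact hb ⟨hu, Or.inl h⟩
    · intro t h1 h2 h3 h4; exact hb ⟨hu, Or.inr ⟨t, h1, h2, h3, h4⟩⟩
  obtain ⟨hnb1, hnb2⟩ := hnb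
  obtain ⟨p1, q, hpq, hl, hr⟩ := comp (u.drop p0) (by rw [List.length_drop]; omega)
    (by rw [List.length_drop]; exact hnb1) (act x (pr f (u.take p0)) + nu2 (u.take p0))
  obtain ⟨r, hr⟩ := Option.isSome_iff_exists.1 hr
  have hp1 : p1.length ≤ N := llen _ _ hl
  have hA : (u.take p0).length = p0 := by rw [List.length_take]; omega
  have hue : u = (u.take p0 ++ p1) ++ q := by
    rw [List.append_assoc, hpq, List.take_append_drop]
  set p := u.take p0 ++ p1 with hp
  have hpl : p.length = p0 + p1.length := by rw [hp, List.length_append, hA]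
  have hql : u.length = p.length + q.length := by
    conv_lhs => rw [hue]
    rw [List.length_append]
  have htake : p.take p0 = u.take p0 := by
    rw [hp, List.take_append_of_le_length (by omega), List.take_of_length_le (by omega)]
  have hdrop : p.drop p0 = p1 := by
    rw [hp, List.drop_append_of_le_length (by omega), List.drop_of_length_le (by omega),
      List.nil_append]
  have hend : z0 + N ≤ u.length := by
    by_contra h
    push Not at h
    refine hnb2 u.length (by omega) h le_rfl ?_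
    rw [List.take_length]
    exact hu.2.1
  refine ⟨p, q, r, hue, ⟨by omega, by omega, ?_⟩, ?_⟩
  · rw [hdrop, htake]; exact hl
  · intro x' p' hp'
    have hp' : p' ∈ L1 f act p0 N lam nu2 x' := hp'
    obtain ⟨h1, h2, h3⟩ := hp'
    left
    apply exactly_one
    · have hX : (p' ++ q).length = p'.length + q.length := List.length_append
      refine ⟨by omega, ?_, ?_⟩
      · have e1 : Wo (p ++ q) := by rw [← hue]; exact hu.2.1
        exact (hW.loc p' q (by omega)).2 ((hW.loc p q (by omega)).1 e1)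
      · intro t ht1 ht2 hw
        obtain ⟨s, hs⟩ := Nat.exists_eq_add_of_le (show p'.length ≤ t by omega)
        subst hs
        rw [hW.app (by omega) (by omega), ← hW.app (p := p) (by omega) (by omega), ← hue] at hw
        by_cases h5 : z0 ≤ p.length + s
        · exact hu.2.2 _ h5 (by omega) hw
        · exact hnb2 _ (by omega) (by omega) (by omega) hw
    · unfold tau
      rw [List.take_append_of_le_length h1, List.drop_append_of_le_length h1]
      exact (sound _ _ _ _ h3 hr).symm

theorem compl2 (hW : WR Wo n W) (hWg : 2 * (p0 + N) < W) (hz : 3 * p0 + N + n ≤ z0)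
    {K R C0 : ℕ} {c : ℕ → ℕ} {lam2 rho2 : ℕ → List α → Option V} {nu1 nu2 : List α → V}
    {BadT : ℕ → Prop} (hc : ∀ k < K, c k ≤ p0)
    (sound : ∀ k < K, ∀ P Q v b, P.length = c k → lam2 k P = some v → rho2 k Q = some b →
      b = act v (pr f (P ++ Q)) + nu2 (P ++ Q))
    (comp : ∀ (u : List α) (v : V), (∀ k < K, c k ≤ u.length) → ∃ I : Finset ℕ, R ≤ I.card ∧
      ∀ k ∈ I, k < K ∧ lam2 k (u.take (c k)) = some v ∧ (rho2 k (u.drop (c k))).isSome)
    (thin : ∀ T, (∀ k < K, c k ≤ T) → ∀ F : Finset (ℕ × ℕ),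
      (∀ ab ∈ F, ab.1 < K ∧ ab.2 < K ∧ ab.1 ≠ ab.2 ∧ BadT (T + c ab.1 - c ab.2)) → F.card ≤ C0)
    (sep : ∀ a b a' b', a < K → b < K → a' < K → b' < K → a ≠ b → a' ≠ b' →
      c a + c b' < c a' + c b + 2 * N → c a' + c b < c a + c b' + 2 * N → a = a' ∧ b = b')
    (hR : 2 * C0 + 2 ≤ R)
    {u : List α} (hu : u ∈ Bd Wo z0 p0 N BadT) (x : V) {t : List α}
    (ht : t ∈ Bd Wo z0 p0 N BadT) :
    ∃ p q y, u ++ t = p ++ q ∧ p ∈ L2 K c lam2 x ∧
      q ∈ Rsem (Zb Wo z0) (Bd Wo z0 p0 N BadT) (tau f act p0 nu1 nu2) 1 (L2 K c lam2) y := by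
  classical
  have hul : z0 ≤ u.length := hu.1.1
  have htl : z0 ≤ t.length := ht.1.1
  have hwl : (u ++ t).length = u.length + t.length := List.length_append
  have hww : Wo (u ++ t) := (hW.loc u t (by omega)).2 ht.1.2.1
  have hA : (u.take p0).length = p0 := by rw [List.length_take]; omega
  obtain ⟨I, hI, hIk⟩ := comp (u.take p0) x (by intro k hk; rw [hA]; exact hc k hk)
  -- the wall behind
  have hbex : ∃ b, z0 + p0 ≤ b ∧ Wo ((u ++ t).take b) :=
    ⟨(u ++ t).length, by omega, by rw [List.take_length]; exact hww⟩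
  obtain ⟨β, ⟨hβ1, hβ2⟩, hβ3⟩ : ∃ β, (z0 + p0 ≤ β ∧ Wo ((u ++ t).take β)) ∧
      ∀ b < β, ¬ (z0 + p0 ≤ b ∧ Wo ((u ++ t).take b)) :=
    ⟨Nat.find hbex, Nat.find_spec hbex, fun b hb => Nat.find_min hbex hb⟩
  obtain ⟨γ, hγ0, hγ⟩ : ∃ γ, 2 * p0 ≤ γ ∧ ∀ g, z0 ≤ g + p0 + N → g < z0 + p0 + N →
      g ≤ (u ++ t).length → Wo ((u ++ t).take g) → γ = g := by
    by_cases h : ∃ g, z0 ≤ g + p0 + N ∧ g < z0 + p0 + N ∧ g ≤ (u ++ t).length ∧
        Wo ((u ++ t).take g)
    · obtain ⟨γ, h1, h2, h3, h4⟩ := h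
      refine ⟨γ, by omega, fun g g1 g2 g3 g4 => ?_⟩
      rcases lt_trichotomy γ g with h5 | h5 | h5
      · have := hW.gap _ _ _ h5 g3 h4 g4
        omega
      · exact h5
      · have := hW.gap _ _ _ h5 h3 g4 h4
        omega
    · refine ⟨2 * p0, le_rfl, fun g g1 g2 g3 g4 => absurd ⟨g, g1, g2, g3, g4⟩ h⟩
  let U : Finset (ℕ × ℕ) := Finset.range K ×ˢ Finset.range K
  let F1 := U.filter (fun ab => ab.1 ≠ ab.2 ∧ BadT ((γ - p0) + c ab.1 - c ab.2))
  let F2 := U.filter (fun ab => ab.1 ≠ ab.2 ∧ BadT ((β - p0) + c ab.1 - c ab.2))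
  let F3 := U.filter (fun ab => ab.1 ≠ ab.2 ∧ z0 ≤ γ + c ab.1 - c ab.2 + N ∧
    γ + c ab.1 - c ab.2 < z0 + N)
  have hU : ∀ ab ∈ U, ab.1 < K ∧ ab.2 < K := by
    intro ab hab
    have := Finset.mem_product.1 hab
    exact ⟨Finset.mem_range.1 this.1, Finset.mem_range.1 this.2⟩
  have c1 : F1.card ≤ C0 := by
    refine thin (γ - p0) (fun k hk => ?_) F1 ?_
    · have := hc k hk; omega
    · intro ab hab
      obtain ⟨h1, h2⟩ := Finset.mem_filter.1 hab
      exact ⟨(hU _ h1).1, (hU _ h1).2, h2.1, h2.2⟩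
  have c2 : F2.card ≤ C0 := by
    refine thin (β - p0) (fun k hk => ?_) F2 ?_
    · have := hc k hk; omega
    · intro ab hab
      obtain ⟨h1, h2⟩ := Finset.mem_filter.1 hab
      exact ⟨(hU _ h1).1, (hU _ h1).2, h2.1, h2.2⟩
  have c3 : F3.card ≤ 1 := by
    rw [Finset.card_le_one]
    intro a ha b hb
    obtain ⟨h1, h2, h3, h4⟩ := Finset.mem_filter.1 ha
    obtain ⟨g1, g2, g3, g4⟩ := Finset.mem_filter.1 hb
    have e1 := hc _ (hU _ h1).1
    have e2 := hc _ (hU _ h1).2
    have e3 := hc _ (hU _ g1).1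
    have e4 := hc _ (hU _ g1).2
    have := sep a.1 a.2 b.1 b.2 (hU _ h1).1 (hU _ h1).2 (hU _ g1).1 (hU _ g1).2 h2 g2
      (by omega) (by omega)
    exact Prod.ext this.1 this.2
  have hJ : ((F1 ∪ F2 ∪ F3).image Prod.snd).card < I.card := by
    calc ((F1 ∪ F2 ∪ F3).image Prod.snd).card ≤ (F1 ∪ F2 ∪ F3).card := Finset.card_image_le
      _ ≤ (F1 ∪ F2).card + F3.card := Finset.card_union_le _ _
      _ ≤ F1.card + F2.card + F3.card := by
        have := Finset.card_union_le F1 F2
        omega
      _ < I.card := by omega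
  obtain ⟨k, hkI, hkJ⟩ := Finset.exists_mem_notMem_of_card_lt_card hJ
  obtain ⟨hkK, hkl, hkr⟩ := hIk k hkI
  obtain ⟨b0, hkr⟩ := Option.isSome_iff_exists.1 hkr
  have hck := hc k hkK
  have hpl : (u.take (c k)).length = c k := by rw [List.length_take]; omega
  have htt : (u.take p0).take (c k) = u.take (c k) := by
    rw [List.take_take, Nat.min_eq_left hck]
  rw [htt] at hkl
  have hb0 := sound k hkK _ _ _ _ hpl hkl hkr
  have hAsplit : u.take (c k) ++ (u.take p0).drop (c k) = u.take p0 := by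
    rw [← htt, List.take_append_drop]
  rw [hAsplit] at hb0
  have hwe : u ++ t = u.take (c k) ++ (u.drop (c k) ++ t) := by
    rw [← List.append_assoc, List.take_append_drop]
  refine ⟨u.take (c k), u.drop (c k) ++ t,
    tau f act p0 nu1 nu2 t (tau f act p0 nu1 nu2 u x), hwe, ⟨k, hkK, hpl, hkl⟩, ?_⟩
  intro x' p' hp'
  have hp' : p' ∈ L2 K c lam2 x' := hp'
  obtain ⟨k', hk', hpl', hlam'⟩ := hp'
  have hck' := hc k' hk'
  by_cases hkk : k' = k
  · left
    subst hkk
    have hX : p' ++ (u.drop (c k') ++ t) = (p' ++ u.drop (c k')) ++ t := by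
      rw [List.append_assoc]
    have hXl : (p' ++ u.drop (c k')).length = u.length := by
      rw [List.length_append, List.length_drop, hpl']; omega
    have hcor : ∀ s, c k' + n ≤ s → s ≤ u.length →
        (Wo ((p' ++ u.drop (c k')).take s) ↔ Wo (u.take s)) := by
      intro s h1 h2
      obtain ⟨s', rfl⟩ := Nat.exists_eq_add_of_le (show c k' ≤ s by omega)
      have a1 := hW.app (p := p') (q := u.drop (c k')) (s := s') (by omega)
        (by rw [List.length_drop]; omega)
      have a2 := hW.app (p := u.take (c k')) (q := u.drop (c k')) (s := s') (by omega)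
        (by rw [List.length_drop]; omega)
      rw [hpl'] at a1
      rw [hpl, List.take_append_drop] at a2
      rw [a1, a2]
    have hXB : (p' ++ u.drop (c k')) ∈ Bd Wo z0 p0 N BadT := by
      refine ⟨⟨by omega, ?_, ?_⟩, ?_⟩
      · have := (hcor u.length (by omega) le_rfl)
        rw [List.take_length, ← hXl, List.take_length] at this
        exact this.2 hu.1.2.1
      · intro s h1 h2 h3
        rw [hXl] at h2
        exact hu.1.2.2 s h1 h2 ((hcor s (by omega) (by omega)).1 h3)
      · rw [hXl]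
        rcases hu.2 with h | ⟨s, h1, h2, h3, h4⟩
        · exact Or.inl h
        · exact Or.inr ⟨s, h1, h2, h3, (hcor s (by omega) h3).2 h4⟩
    have htau : tau f act p0 nu1 nu2 (p' ++ u.drop (c k')) x' = tau f act p0 nu1 nu2 u x := by
      have e1 : (p' ++ u.drop (c k')).take p0 = p' ++ (u.take p0).drop (c k') := by
        rw [List.take_append, List.take_of_length_le (by omega), hpl', List.drop_take]
      have e2 : (p' ++ u.drop (c k')).drop p0 = u.drop p0 := by
        rw [List.drop_append, List.drop_of_length_le (by omega), List.nil_append, hpl',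
          List.drop_drop]
        congr 1
        omega
      unfold tau
      rw [e1, e2, ← sound k' hkK _ _ _ _ hpl' hlam' hkr, hb0]
    rw [hX, ← htau]
    exact exactly_two hXB ht
  · right
    left
    -- first zone of the candidate
    have hXl : (p' ++ (u.drop (c k) ++ t)).length = c k' + (u.length - c k + t.length) := by
      rw [List.length_append, List.length_append, List.length_drop, hpl']
    have hcor : ∀ s, n ≤ s → s ≤ u.length - c k + t.length →
        (Wo ((p' ++ (u.drop (c k) ++ t)).take (c k' + s)) ↔ Wo ((u ++ t).take (c k + s))) := by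
      intro s h1 h2
      have hq : (u.drop (c k) ++ t).length = u.length - c k + t.length := by
        rw [List.length_append, List.length_drop]
      have a1 := hW.app (p := p') (q := u.drop (c k) ++ t) (s := s) h1 (by omega)
      have a2 := hW.app (p := u.take (c k)) (q := u.drop (c k) ++ t) (s := s) h1 (by omega)
      rw [hpl'] at a1
      rw [hpl, ← hwe] at a2
      rw [a1, a2]
    have hXW : Wo (p' ++ (u.drop (c k) ++ t)) := by
      rw [← List.append_assoc]
      exact (hW.loc _ t (by omega)).2 ht.1.2.1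
    have hex : ∃ e, z0 ≤ e ∧ Wo ((p' ++ (u.drop (c k) ++ t)).take e) :=
      ⟨(p' ++ (u.drop (c k) ++ t)).length, by omega, by rw [List.take_length]; exact hXW⟩
    obtain ⟨e, ⟨he1, he2⟩, he3⟩ : ∃ e, (z0 ≤ e ∧ Wo ((p' ++ (u.drop (c k) ++ t)).take e)) ∧
        ∀ b < e, ¬ (z0 ≤ b ∧ Wo ((p' ++ (u.drop (c k) ++ t)).take b)) :=
      ⟨Nat.find hex, Nat.find_spec hex, fun b hb => Nat.find_min hex hb⟩
    have hel : e ≤ (p' ++ (u.drop (c k) ++ t)).length := by
      by_contra h
      push Not at h
      exact he3 _ h ⟨by omega, by rw [List.take_length]; exact hXW⟩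
    have hul' : ((p' ++ (u.drop (c k) ++ t)).take e).length = e := by
      rw [List.length_take]; omega
    refine ⟨(p' ++ (u.drop (c k) ++ t)).take e, ⟨by omega, he2, ?_⟩, ?_, List.take_prefix _ _⟩
    · intro s h1 h2 h3
      rw [hul'] at h2
      rw [List.take_take, Nat.min_eq_left h2.le] at h3
      exact he3 s h2 ⟨h1, h3⟩
    · intro hbad
      apply hkJ
      rw [Finset.mem_image]
      refine ⟨(k', k), ?_, rfl⟩
      have hmU : (k', k) ∈ U := Finset.mem_product.2 ⟨Finset.mem_range.2 hk', Finset.mem_range.2 hkK⟩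
      obtain ⟨s, hs⟩ := Nat.exists_eq_add_of_le (show c k' ≤ e by omega)
      rcases hbad.2 with h | ⟨t1, h1, h2, h3, h4⟩
      · rw [hul'] at h
        -- the wall `c k + s` of the true text
        have hb1 : Wo ((u ++ t).take (c k + s)) := by
          rw [← hcor s (by omega) (by omega), ← hs]
          exact he2
        by_cases hlt : c k + s < z0 + p0
        · have hg := hγ (c k + s) (by omega) (by omega) (by omega) hb1
          refine Finset.mem_union_left _ (Finset.mem_union_left _ (Finset.mem_filter.2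
            ⟨hmU, hkk, ?_⟩))
          show BadT (γ - p0 + c k' - c k)
          have : γ - p0 + c k' - c k = e - p0 := by omega
          rw [this]; exact h
        · have hb2 : β = c k + s := by
            rcases lt_trichotomy β (c k + s) with h5 | h5 | h5
            · exfalso
              obtain ⟨s', hs'⟩ := Nat.exists_eq_add_of_le (show c k ≤ β by omega)
              refine he3 (c k' + s') (by omega) ⟨by omega, ?_⟩
              rw [hcor s' (by omega) (by omega), ← hs']
              exact hβ2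
            · exact h5
            · exact absurd ⟨by omega, hb1⟩ (hβ3 _ h5)
          refine Finset.mem_union_left _ (Finset.mem_union_right _ (Finset.mem_filter.2
            ⟨hmU, hkk, ?_⟩))
          show BadT (β - p0 + c k' - c k)
          have : β - p0 + c k' - c k = e - p0 := by omega
          rw [this]; exact h
      · rw [hul'] at h3
        rw [List.take_take, Nat.min_eq_left h3] at h4
        obtain ⟨s1, hs1⟩ := Nat.exists_eq_add_of_le (show c k' ≤ t1 by omega)
        rw [hs1, hcor s1 (by omega) (by omega)] at h4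
        have hg := hγ (c k + s1) (by omega) (by omega) (by omega) h4
        refine Finset.mem_union_right _ (Finset.mem_filter.2 ⟨hmU, hkk, ?_, ?_⟩)
        · show z0 ≤ γ + c k' - c k + N
          omega
        · show γ + c k' - c k < z0 + N
          omega

end

end Crest.Agent.R320.AsmC_201
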