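import Mathlib

/-!
# Row 320: the SPOIL leaf (lead #13673): digits in base `b` and primes `k`, wide Golomb ruler
`c l = 2 ^ l * K0` (helper273).

`spoil` : for every `T : ℤ` at most `r + m` pairs `i ≠ j` below `K` have `T + c j - c i` bad.
`wall_spoil` : the spoiled count `≤ 1 + 2 * R0` with one outer wall sequence (746 #13721).
-/

set_option autoImplicit false

namespace Crest.Agent.R320.Sp_273

open Finset

/-- Sums of two powers of two determine the exponents. -/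
theorem two_pow_add_two_pow {i l j k : ℕ} (h : 2 ^ i + 2 ^ l = 2 ^ j + 2 ^ k) :
    (i = j ∧ l = k) ∨ (i = k ∧ l = j) := by
  have key : ∀ i l j k : ℕ, i ≤ l → j ≤ k → 2 ^ i + 2 ^ l = 2 ^ j + 2 ^ k → i = j ∧ l = k := by
    intro i l j k hil hjk h
    have h1 : (2 : ℕ) ^ i ≤ 2 ^ l := Nat.pow_le_pow_right (by norm_num) hil
    have h2 : (2 : ℕ) ^ j ≤ 2 ^ k := Nat.pow_le_pow_right (by norm_num) hjk
    have p1 : 0 < (2 : ℕ) ^ i := by positivity
    have p2 : 0 < (2 : ℕ) ^ j := by positivity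
    rcases lt_trichotomy l k with hlt | heq | hgt
    · exfalso
      have h3 : (2 : ℕ) ^ (l + 1) ≤ 2 ^ k := Nat.pow_le_pow_right (by norm_num) hlt
      rw [pow_succ] at h3
      omega
    · subst heq
      have h3 : (2 : ℕ) ^ i = 2 ^ j := by omega
      exact ⟨Nat.pow_right_injective (le_refl 2) h3, rfl⟩
    · exfalso
      have h3 : (2 : ℕ) ^ (k + 1) ≤ 2 ^ l := Nat.pow_le_pow_right (by norm_num) hgt
      rw [pow_succ] at h3
      omega
  rcases le_total i l with a | a <;> rcases le_total j k with b | b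
  · exact Or.inl (key i l j k a b h)
  · have := key i l k j a b (by omega)
    exact Or.inr this
  · have := key l i j k a b (by omega)
    exact Or.inr ⟨this.2, this.1⟩
  · have := key l i k j a b (by omega)
    exact Or.inl ⟨this.2, this.1⟩

/-- differences of powers of two -/
theorem golomb {i j k l : ℕ} (hij : i ≠ j) (h : ((2:ℤ) ^ j - 2 ^ i) = 2 ^ l - 2 ^ k) :
    i = k ∧ j = l := by
  have h1 : 2 ^ j + 2 ^ k = 2 ^ i + 2 ^ l := by
    have : ((2 ^ j + 2 ^ k : ℕ) : ℤ) = ((2 ^ i + 2 ^ l : ℕ) : ℤ) := by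
      push_cast; linarith
    exact_mod_cast this
  rcases two_pow_add_two_pow h1 with ⟨a, _⟩ | ⟨a, b⟩
  · exact absurd a.symm hij
  · exact ⟨b.symm, a⟩

/-- bad integers -/
def BadZ (Ms : Finset ℕ) (M m b : ℕ) (n : ℤ) : Prop :=
  (∃ k ∈ Ms, (k : ℤ) ∣ n) ∨
    ∃ j < m, ¬ ((M : ℤ) ≤ n / (b : ℤ) ^ j % b ∧ n / (b : ℤ) ^ j % b + M + 1 ≤ b)

/-- bad naturals -/
def BadN (Ms : Finset ℕ) (M m b : ℕ) (n : ℕ) : Prop :=
  (∃ k ∈ Ms, k ∣ n) ∨ ∃ j < m, ¬ (M ≤ n / b ^ j % b ∧ n / b ^ j % b + M + 1 ≤ b)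

theorem badZ_cast (Ms : Finset ℕ) (M m b n : ℕ) :
    BadZ Ms M m b (n : ℤ) ↔ BadN Ms M m b n := by
  unfold BadZ BadN
  refine or_congr ?_ ?_
  · constructor
    · rintro ⟨k, hk, h⟩; exact ⟨k, hk, by exact_mod_cast h⟩
    · rintro ⟨k, hk, h⟩; exact ⟨k, hk, by exact_mod_cast h⟩
  · constructor
    · rintro ⟨j, hj, h⟩
      refine ⟨j, hj, fun h' => h ?_⟩
      constructor
      · have := h'.1; exact_mod_cast this
      · have := h'.2; exact_mod_cast this
    · rintro ⟨j, hj, h⟩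
      refine ⟨j, hj, fun h' => h ?_⟩
      constructor
      · have := h'.1; exact_mod_cast this
      · have := h'.2; exact_mod_cast this

/-- a bad digit means: close to a multiple of `B * b` -/
theorem digit_near {n B b M : ℤ} (hB : 0 < B) (hb : 0 < b)
    (h : ¬ (M ≤ n / B % b ∧ n / B % b + M + 1 ≤ b)) :
    ∃ q : ℤ, |n - q * (B * b)| ≤ M * B := by
  have e1 : n = B * (n / B) + n % B := (Int.mul_ediv_add_emod n B).symm
  have e2 : n / B = b * (n / B / b) + n / B % b := (Int.mul_ediv_add_emod (n / B) b).symm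
  have l1 : 0 ≤ n % B := Int.emod_nonneg _ hB.ne'
  have l2 : n % B < B := Int.emod_lt_of_pos _ hB
  have l3 : 0 ≤ n / B % b := Int.emod_nonneg _ hb.ne'
  have l4 : n / B % b < b := Int.emod_lt_of_pos _ hb
  set d := n / B % b with hd
  set e := n / B / b with he
  set f := n % B with hf
  have en : n = B * (b * e + d) + f := by rw [← e2]; exact e1
  by_cases hc : M ≤ d
  · have hc2 : b < d + M + 1 := by
      by_contra hcon
      exact h ⟨hc, by omega⟩
    refine ⟨e + 1, ?_⟩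
    have e3 : n - (e + 1) * (B * b) = B * (d - b) + f := by rw [en]; ring
    rw [e3, abs_le]
    have h5 : 0 ≤ d - b + M := by omega
    have h6 : d - b + 1 ≤ 0 := by omega
    constructor
    · nlinarith
    · have : 0 ≤ M := by omega
      nlinarith
  · refine ⟨e, ?_⟩
    have e3 : n - e * (B * b) = B * d + f := by rw [en]; ring
    rw [e3, abs_le]
    have h5 : d + 1 ≤ M := by omega
    constructor
    · nlinarith
    · nlinarith

/-- geometric sum, split at the `j`-th power -/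
theorem geom_split (b : ℤ) : ∀ m j : ℕ, j < m → ∃ R : ℤ,
    ∑ i ∈ range m, b ^ i = ∑ i ∈ range j, b ^ i + b ^ j + b ^ (j + 1) * R := by
  intro m
  induction m with
  | zero => intro j h; omega
  | succ m ih =>
    intro j h
    rcases Nat.lt_succ_iff_lt_or_eq.1 h with h1 | rfl
    · obtain ⟨R, hR⟩ := ih j h1
      obtain ⟨t, rfl⟩ : ∃ t, m = j + 1 + t := ⟨m - (j + 1), by omega⟩
      refine ⟨R + b ^ t, ?_⟩
      rw [sum_range_succ, hR, pow_add b (j + 1) t]; ring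
    · exact ⟨0, by rw [sum_range_succ]; ring⟩

theorem geom_le (b : ℤ) (hb : 1 ≤ b) : ∀ j : ℕ, (b - 1) * ∑ i ∈ range j, b ^ i ≤ b ^ j := by
  intro j
  induction j with
  | zero => simp
  | succ j ih =>
    rw [sum_range_succ, mul_add]
    have : b ^ (j + 1) = b * b ^ j := by ring
    rw [this]
    nlinarith [pow_pos (by omega : 0 < b) j]

theorem geom_nonneg (b : ℤ) (hb : 1 ≤ b) (j : ℕ) : 0 ≤ ∑ i ∈ range j, b ^ i :=
  sum_nonneg fun i _ => by positivity

/-- core of the digit count: the difference of two integers bad at digit `j` -/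
theorem digit_core {M b D t : ℤ} {m j : ℕ} (hj : j < m) (hM : 0 < M)
    (hbD : 4 * M * |D| + 3 * M < b) {n n' : ℤ}
    (hn : ¬ (M ≤ n / b ^ j % b ∧ n / b ^ j % b + M + 1 ≤ b))
    (hn' : ¬ (M ≤ n' / b ^ j % b ∧ n' / b ^ j % b + M + 1 ≤ b))
    (hd : n - n' = (4 * M * (∑ i ∈ range m, b ^ i) + b ^ m * t) * D) : D = 0 := by
  have hD0 : 0 ≤ |D| := abs_nonneg D
  have hb : 0 < b := by nlinarith
  have hB : 0 < b ^ j := pow_pos hb j
  obtain ⟨q, hq⟩ := digit_near hB hb hn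
  obtain ⟨q', hq'⟩ := digit_near hB hb hn'
  obtain ⟨R, hR⟩ := geom_split b m j hj
  obtain ⟨s, rfl⟩ : ∃ s, m = j + 1 + s := ⟨m - (j + 1), by omega⟩
  set G := ∑ i ∈ range j, b ^ i with hG
  have hG0 : 0 ≤ G := geom_nonneg b (by omega) j
  have hG1 : (b - 1) * G ≤ b ^ j := geom_le b (by omega) j
  -- the multiple of `b ^ (j+1)`
  set Q : ℤ := q - q' - (4 * M * R + b ^ s * t) * D with hQ
  have e1 : (n - q * (b ^ j * b)) - (n' - q' * (b ^ j * b)) =
      4 * M * D * G + 4 * M * D * b ^ j - Q * (b ^ j * b) := by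
    have e2 : b ^ (j + 1 + s) = b ^ j * b * b ^ s := by rw [pow_add, pow_succ]
    have e3 : b ^ (j + 1) = b ^ j * b := pow_succ b j
    rw [hR, e2, e3] at hd
    rw [hQ]
    linear_combination hd
  have h1 : |4 * M * D * G + 4 * M * D * b ^ j - Q * (b ^ j * b)| ≤ 2 * (M * b ^ j) := by
    rw [← e1]
    refine (abs_sub _ _).trans ?_
    linarith
  -- bound of the lower part
  have h2 : |4 * M * D * G| ≤ M * b ^ j := by
    rw [abs_mul, abs_of_nonneg hG0, abs_mul, abs_of_pos (by omega : 0 < 4 * M)]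
    have h3 : 4 * |D| ≤ b - 1 := by nlinarith
    calc 4 * M * |D| * G = M * (4 * |D| * G) := by ring
      _ ≤ M * ((b - 1) * G) := by
          refine mul_le_mul_of_nonneg_left ?_ hM.le
          exact mul_le_mul_of_nonneg_right h3 hG0
      _ ≤ M * b ^ j := mul_le_mul_of_nonneg_left hG1 hM.le
  have h4 : |4 * M * D * b ^ j - Q * (b ^ j * b)| ≤ 3 * (M * b ^ j) := by
    have e5 : 4 * M * D * b ^ j - Q * (b ^ j * b) =
      (4 * M * D * G + 4 * M * D * b ^ j - Q * (b ^ j * b)) - 4 * M * D * G := by ring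
    rw [e5]
    refine (abs_sub _ _).trans ?_
    linarith
  have h5 : |4 * M * D - Q * b| ≤ 3 * M := by
    have e6 : 4 * M * D * b ^ j - Q * (b ^ j * b) = (4 * M * D - Q * b) * b ^ j := by ring
    rw [e6, abs_mul, abs_of_pos hB] at h4
    have : |4 * M * D - Q * b| * b ^ j ≤ (3 * M) * b ^ j := by linarith
    exact le_of_mul_le_mul_right this hB
  have hQ0 : Q = 0 := by
    by_contra hne
    have h6 : 1 ≤ |Q| := Int.one_le_abs hne
    have h7 : |Q * b| ≤ 3 * M + 4 * M * |D| := by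
      have e7 : Q * b = 4 * M * D - (4 * M * D - Q * b) := by ring
      rw [e7]
      refine (abs_sub _ _).trans ?_
      have : |4 * M * D| = 4 * M * |D| := by
        rw [abs_mul, abs_of_pos (by omega : 0 < 4 * M)]
      rw [this]; linarith
    rw [abs_mul, abs_of_pos hb] at h7
    nlinarith
  rw [hQ0, zero_mul, sub_zero, abs_mul, abs_of_pos (by omega : 0 < 4 * M)] at h5
  have h8 : |D| < 1 := by
    by_contra hcon
    have : 1 ≤ |D| := by omega
    nlinarith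
  exact abs_eq_zero.1 (by omega)

theorem dist_lt {K i j k l : ℕ} (hi : i < K) (hj : j < K) (hk : k < K) (hl : l < K) :
    |((2:ℤ) ^ j - 2 ^ i) - (2 ^ l - 2 ^ k)| < 2 ^ (K + 1) := by
  have f : ∀ x : ℕ, x < K → (1:ℤ) ≤ 2 ^ x ∧ (2:ℤ) * 2 ^ x ≤ 2 ^ K := by
    intro x hx
    refine ⟨one_le_pow₀ (by norm_num), ?_⟩
    rw [← pow_succ']
    exact pow_le_pow_right₀ (by norm_num) hx
  have a := f i hi
  have b := f j hj
  have c := f k hk
  have d := f l hl
  rw [abs_lt, pow_succ]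
  constructor <;> linarith [a.1, a.2, b.1, b.2, c.1, c.2, d.1, d.2]

open Classical in
/-- **SPOIL** (lead #13673). -/
theorem spoil (K N1 m r M b : ℕ) (Ms : Finset ℕ) (hr : Ms.card ≤ r)
    (hMs : ∀ k ∈ Ms, 2 ^ (K + 1) ≤ k ∧ k ∣ M) (hM : 0 < M)
    (hb : 4 * M * 2 ^ (K + 1) + 3 * M < b) (hco : Nat.Coprime b M) :
    ∃ (K0 : ℕ) (c : ℕ → ℕ), 4 * N1 < K0 ∧ (∀ l, c l = 2 ^ l * K0) ∧ StrictMono c ∧
      (∀ i j, i < j → c i + 4 * N1 < c j) ∧
      (∀ i j k l, i ≠ j → ¬ (i = k ∧ j = l) →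
        4 * (N1 : ℤ) < |((c i : ℤ) - c j) - ((c k : ℤ) - c l)|) ∧
      ∀ T : ℤ, (((range K ×ˢ range K).filter
        (fun p : ℕ × ℕ => p.1 ≠ p.2 ∧ BadZ Ms M m b (T + c p.2 - c p.1))).card) ≤ r + m := by
  have hco' : Nat.Coprime M (b ^ m) := (Nat.Coprime.pow_left m hco).symm
  obtain ⟨k0, hk1, hk2⟩ := Nat.chineseRemainder hco' 1 (4 * M * ∑ i ∈ range m, b ^ i)
  have hbpos : 0 < b := by omega
  have hbm : 0 < b ^ m := pow_pos hbpos m
  set K0 : ℕ := k0 + (4 * N1 + 1) * (M * b ^ m) with hK0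
  have hbig : 4 * N1 < K0 := by
    have : 1 ≤ M * b ^ m := Nat.mul_pos hM hbm
    nlinarith
  have hK1 : ∃ t : ℤ, (K0 : ℤ) = 1 + M * t := by
    obtain ⟨t, ht⟩ := (Nat.modEq_iff_dvd.1 hk1.symm)
    refine ⟨t + (4 * N1 + 1) * b ^ m, ?_⟩
    rw [hK0]; push_cast; push_cast at ht
    linear_combination ht
  have hK2 : ∃ t : ℤ, (K0 : ℤ) = 4 * M * (∑ i ∈ range m, (b:ℤ) ^ i) + (b:ℤ) ^ m * t := by
    obtain ⟨t, ht⟩ := (Nat.modEq_iff_dvd.1 hk2.symm)
    refine ⟨t + (4 * N1 + 1) * M, ?_⟩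
    rw [hK0]; push_cast; push_cast at ht
    linear_combination ht
  obtain ⟨t1, ht1⟩ := hK1
  obtain ⟨t2, ht2⟩ := hK2
  have hK0pos : 0 < K0 := by omega
  have hstep : ∀ i j : ℕ, i < j → 2 ^ i * K0 + 4 * N1 < 2 ^ j * K0 := by
    intro i j hij
    have h1 : 2 ^ (i + 1) ≤ 2 ^ j := Nat.pow_le_pow_right (by norm_num) hij
    have h2 : 1 ≤ 2 ^ i := Nat.one_le_two_pow
    rw [pow_succ] at h1
    calc 2 ^ i * K0 + 4 * N1 < 2 ^ i * K0 + K0 := by omega
      _ ≤ 2 ^ i * K0 + 2 ^ i * K0 := by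
          have := Nat.mul_le_mul_right K0 h2
          omega
      _ = (2 ^ i * 2) * K0 := by ring
      _ ≤ 2 ^ j * K0 := Nat.mul_le_mul_right K0 h1
  refine ⟨K0, fun l => 2 ^ l * K0, hbig, fun _ => rfl, ?_, hstep, ?_, ?_⟩
  · intro i j hij
    have := hstep i j hij
    show 2 ^ i * K0 < 2 ^ j * K0
    omega
  · intro i j k l hij hne
    have e : (((2 ^ i * K0 : ℕ) : ℤ) - ((2 ^ j * K0 : ℕ) : ℤ)) -
        (((2 ^ k * K0 : ℕ) : ℤ) - ((2 ^ l * K0 : ℕ) : ℤ)) =
        K0 * ((2 ^ i - 2 ^ j) - (2 ^ k - 2 ^ l)) := by push_cast; ring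
    rw [e, abs_mul, abs_of_pos (by exact_mod_cast hK0pos)]
    have hD : ((2:ℤ) ^ i - 2 ^ j) - (2 ^ k - 2 ^ l) ≠ 0 := by
      intro h0
      have h1 : (2:ℤ) ^ j - 2 ^ i = 2 ^ l - 2 ^ k := by linarith
      exact hne (golomb hij h1)
    have h1 := Int.one_le_abs hD
    have h2 : (4 * N1 : ℤ) < K0 := by exact_mod_cast hbig
    nlinarith
  · intro T
    -- generic pair lemma
    have hdiff : ∀ p q : ℕ × ℕ, (T + ((2 ^ p.2 * K0 : ℕ) : ℤ) - ((2 ^ p.1 * K0 : ℕ) : ℤ)) -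
        (T + ((2 ^ q.2 * K0 : ℕ) : ℤ) - ((2 ^ q.1 * K0 : ℕ) : ℤ)) =
        K0 * ((2 ^ p.2 - 2 ^ p.1) - (2 ^ q.2 - 2 ^ q.1)) := by
      intro p q; push_cast; ring
    set A : ℕ → Finset (ℕ × ℕ) := fun k => (range K ×ˢ range K).filter
      (fun p : ℕ × ℕ => p.1 ≠ p.2 ∧ (k : ℤ) ∣ (T + ((2 ^ p.2 * K0 : ℕ) : ℤ) -
        ((2 ^ p.1 * K0 : ℕ) : ℤ))) with hA
    set C : ℕ → Finset (ℕ × ℕ) := fun j => (range K ×ˢ range K).filter
      (fun p : ℕ × ℕ => p.1 ≠ p.2 ∧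
        ¬ ((M : ℤ) ≤ (T + ((2 ^ p.2 * K0 : ℕ) : ℤ) - ((2 ^ p.1 * K0 : ℕ) : ℤ)) / (b : ℤ) ^ j % b ∧
          (T + ((2 ^ p.2 * K0 : ℕ) : ℤ) - ((2 ^ p.1 * K0 : ℕ) : ℤ)) / (b : ℤ) ^ j % b + M + 1 ≤ b))
        with hC
    have hA1 : ∀ k ∈ Ms, (A k).card ≤ 1 := by
      intro k hk
      rw [card_le_one]
      intro p hp q hq
      rw [hA] at hp hq
      simp only [mem_filter, mem_product, mem_range] at hp hq
      obtain ⟨⟨hp1, hp2⟩, hpn, hpd⟩ := hp
      obtain ⟨⟨hq1, hq2⟩, _, hqd⟩ := hq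
      have hd := dvd_sub hpd hqd
      rw [hdiff p q] at hd
      obtain ⟨hk2, hk3⟩ := hMs k hk
      have hd2 : (k : ℤ) ∣ ((2:ℤ) ^ p.2 - 2 ^ p.1) - (2 ^ q.2 - 2 ^ q.1) := by
        have hkM : (k : ℤ) ∣ (M : ℤ) := by exact_mod_cast hk3
        have e : ((2:ℤ) ^ p.2 - 2 ^ p.1) - (2 ^ q.2 - 2 ^ q.1) =
            (K0 : ℤ) * (((2:ℤ) ^ p.2 - 2 ^ p.1) - (2 ^ q.2 - 2 ^ q.1)) -
              M * (t1 * (((2:ℤ) ^ p.2 - 2 ^ p.1) - (2 ^ q.2 - 2 ^ q.1))) := by
          rw [ht1]; ring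
        rw [e]
        exact dvd_sub hd (Dvd.dvd.mul_right hkM _)
      have hlt := dist_lt hp1 hp2 hq1 hq2
      have hk4 : ((2:ℤ) ^ (K + 1)) ≤ k := by exact_mod_cast hk2
      have h0 := Int.eq_zero_of_abs_lt_dvd hd2 (lt_of_lt_of_le hlt hk4)
      have := golomb (k := q.1) (l := q.2) hpn (by linarith)
      exact Prod.ext this.1 this.2
    have hC1 : ∀ j ∈ range m, (C j).card ≤ 1 := by
      intro j hj
      rw [mem_range] at hj
      rw [card_le_one]
      intro p hp q hq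
      rw [hC] at hp hq
      simp only [mem_filter, mem_product, mem_range] at hp hq
      obtain ⟨⟨hp1, hp2⟩, hpn, hpd⟩ := hp
      obtain ⟨⟨hq1, hq2⟩, _, hqd⟩ := hq
      have hlt := dist_lt hp1 hp2 hq1 hq2
      have h0 := digit_core (D := ((2:ℤ) ^ p.2 - 2 ^ p.1) - (2 ^ q.2 - 2 ^ q.1)) (t := t2)
        (m := m) hj (by exact_mod_cast hM : (0:ℤ) < M) (by
          have h1 : (4 * M * 2 ^ (K + 1) + 3 * M : ℤ) < b := by exact_mod_cast hb
          have h2 : (0:ℤ) < M := by exact_mod_cast hM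
          nlinarith) hpd hqd (by rw [hdiff p q, ht2])
      have := golomb (k := q.1) (l := q.2) hpn (by linarith)
      exact Prod.ext this.1 this.2
    have hsub : ((range K ×ˢ range K).filter
        (fun p : ℕ × ℕ => p.1 ≠ p.2 ∧ BadZ Ms M m b (T + ((2 ^ p.2 * K0 : ℕ) : ℤ) -
          ((2 ^ p.1 * K0 : ℕ) : ℤ)))) ⊆ Ms.biUnion A ∪ (range m).biUnion C := by
      intro p hp
      rw [mem_filter] at hp
      obtain ⟨hp1, hpn, hp2⟩ := hp
      rw [mem_union, mem_biUnion, mem_biUnion]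
      rcases hp2 with ⟨k, hk, h⟩ | ⟨j, hj, h⟩
      · exact Or.inl ⟨k, hk, by rw [hA]; exact mem_filter.2 ⟨hp1, hpn, h⟩⟩
      · exact Or.inr ⟨j, mem_range.2 hj, by rw [hC]; exact mem_filter.2 ⟨hp1, hpn, h⟩⟩
    refine (card_le_card hsub).trans ((card_union_le _ _).trans ?_)
    have h1 : (Ms.biUnion A).card ≤ Ms.card * 1 := card_biUnion_le_card_mul _ _ _ hA1
    have h2 : ((range m).biUnion C).card ≤ (range m).card * 1 :=
      card_biUnion_le_card_mul _ _ _ hC1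
    rw [card_range] at h2
    omega

open Classical in
/-- **Spoiled count with an outer wall sequence** (746 #13721): `c` any ruler with wide Golomb
property and at most `R0` bad pairs for each `T`. -/
theorem wall_spoil (K N1 span R0 : ℕ) (c : ℕ → ℕ) (Bd : ℤ → Prop)
    (hspan : ∀ k, k < K → c k ≤ span)
    (hG : ∀ i j k l, i ≠ j → ¬ (i = k ∧ j = l) →
        4 * (N1 : ℤ) < |((c i : ℤ) - c j) - ((c k : ℤ) - c l)|)
    (hB : ∀ T : ℤ, (((range K ×ˢ range K).filter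
        (fun p : ℕ × ℕ => p.1 ≠ p.2 ∧ Bd (T + c p.2 - c p.1))).card) ≤ R0)
    (Wl : ℕ → Prop) (W : ℕ) (hW : 2 * span + 4 * N1 ≤ W)
    (hgap : ∀ s t, s < t → Wl s → Wl t → W < t - s) (z p : ℤ) :
    (((range K).filter (fun k => ∃ j < K, j ≠ k ∧
      ((∃ t, Wl t ∧ |(t : ℤ) - (c k - c j) - z| ≤ N1) ∨
        (∃ t, Wl t ∧ z + (c k - c j) ≤ t ∧ (∀ s, Wl s → z + (c k - c j) ≤ s → t ≤ s) ∧
          Bd (t - (c k - c j) - p))))).card) ≤ 1 + 2 * R0 := by
  set E : Finset (ℕ × ℕ) := (range K ×ˢ range K).filter (fun q : ℕ × ℕ => q.1 ≠ q.2 ∧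
    ∃ t, Wl t ∧ |(t : ℤ) - ((c q.1 : ℤ) - c q.2) - z| ≤ N1) with hE
  set F : ℤ → Finset (ℕ × ℕ) := fun T => (range K ×ˢ range K).filter
    (fun q : ℕ × ℕ => q.1 ≠ q.2 ∧ Bd (T + c q.2 - c q.1)) with hF
  have hE1 : E.card ≤ 1 := by
    rw [card_le_one]
    intro q hq q' hq'
    rw [hE] at hq hq'
    simp only [mem_filter, mem_product, mem_range] at hq hq'
    obtain ⟨⟨a1, a2⟩, an, t, ht, at1⟩ := hq
    obtain ⟨⟨b1, b2⟩, bn, s, hs, bt⟩ := hq'
    by_contra hne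
    have h1 := hG q.1 q.2 q'.1 q'.2 an (fun h => hne (Prod.ext h.1 h.2))
    have c1 := hspan _ a1
    have c2 := hspan _ a2
    have c3 := hspan _ b1
    have c4 := hspan _ b2
    rw [abs_le] at at1 bt
    rcases lt_trichotomy t s with h | h | h
    · have := hgap t s h ht hs
      omega
    · subst h
      have h2 : |((c q.1 : ℤ) - c q.2) - ((c q'.1 : ℤ) - c q'.2)| ≤ 2 * N1 := by
        rw [abs_le]; constructor <;> linarith [at1.1, at1.2, bt.1, bt.2]
      omega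
    · have := hgap s t h hs ht
      omega
  -- first wall after `z - span` and the next one
  have hcand : ∃ t0 t1 : ℤ, ∀ (k j : ℕ) (t : ℕ), k < K → j < K → Wl t →
      z + ((c k : ℤ) - c j) ≤ t → (∀ s, Wl s → z + ((c k : ℤ) - c j) ≤ s → t ≤ s) →
      (t : ℤ) = t0 ∨ (t : ℤ) = t1 := by
    by_cases h0 : ∃ t : ℕ, Wl t ∧ z - span ≤ t
    · set t0 := Nat.find h0 with ht0
      have h0s : Wl t0 ∧ z - span ≤ t0 := Nat.find_spec h0
      have h0m : ∀ s : ℕ, Wl s → z - span ≤ s → t0 ≤ s := fun s h1 h2 => Nat.find_min' h0 ⟨h1, h2⟩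
      by_cases h1 : ∃ t : ℕ, Wl t ∧ t0 < t
      · set t1 := Nat.find h1 with ht1
        have h1s : Wl t1 ∧ t0 < t1 := Nat.find_spec h1
        have h1m : ∀ s : ℕ, Wl s → t0 < s → t1 ≤ s := fun s h2 h3 => Nat.find_min' h1 ⟨h2, h3⟩
        refine ⟨t0, t1, ?_⟩
        intro k j t hk hj ht hz hmin
        have c1 := hspan _ hk
        have c2 := hspan _ hj
        have h2 := h0m t ht (by omega)
        rcases Nat.eq_or_lt_of_le h2 with h3 | h3
        · left; rw [← h3]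
        · right
          have h4 := h1m t ht h3
          have h5 := hgap t0 t1 h1s.2 h0s.1 h1s.1
          have h6 := hmin t1 h1s.1 (by omega)
          have : t = t1 := le_antisymm h6 h4
          rw [this]
      · refine ⟨t0, t0, ?_⟩
        intro k j t hk hj ht hz hmin
        have c1 := hspan _ hk
        have c2 := hspan _ hj
        have h2 := h0m t ht (by omega)
        rcases Nat.eq_or_lt_of_le h2 with h3 | h3
        · left; rw [← h3]
        · exact absurd ⟨t, ht, h3⟩ h1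
    · refine ⟨0, 0, ?_⟩
      intro k j t hk hj ht hz _
      have c1 := hspan _ hk
      have c2 := hspan _ hj
      exact absurd ⟨t, ht, by omega⟩ h0
  obtain ⟨t0, t1, hcand⟩ := hcand
  have hsub : ((range K).filter (fun k => ∃ j < K, j ≠ k ∧
      ((∃ t, Wl t ∧ |(t : ℤ) - (c k - c j) - z| ≤ N1) ∨
        (∃ t, Wl t ∧ z + (c k - c j) ≤ t ∧ (∀ s, Wl s → z + (c k - c j) ≤ s → t ≤ s) ∧
          Bd (t - (c k - c j) - p))))) ⊆
      (E ∪ (F (t0 - p) ∪ F (t1 - p))).image Prod.fst := by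
    intro k hk
    rw [mem_filter, mem_range] at hk
    obtain ⟨hk, j, hj, hjk, h⟩ := hk
    rw [mem_image]
    refine ⟨(k, j), ?_, rfl⟩
    have hmem : (k, j) ∈ range K ×ˢ range K := by
      rw [mem_product, mem_range, mem_range]; exact ⟨hk, hj⟩
    rcases h with h | ⟨t, ht, hz, hmin, hbd⟩
    · exact mem_union_left _ (by rw [hE]; exact mem_filter.2 ⟨hmem, hjk.symm, h⟩)
    · refine mem_union_right _ ?_
      rcases hcand k j t hk hj ht hz hmin with h1 | h1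
      · refine mem_union_left _ ?_
        rw [hF]
        refine mem_filter.2 ⟨hmem, hjk.symm, ?_⟩
        have e : (t0 - p + (c j : ℤ) - c k) = (t : ℤ) - (c k - c j) - p := by rw [h1]; ring
        show Bd (t0 - p + (c j : ℤ) - c k)
        rw [e]; exact hbd
      · refine mem_union_right _ ?_
        rw [hF]
        refine mem_filter.2 ⟨hmem, hjk.symm, ?_⟩
        have e : (t1 - p + (c j : ℤ) - c k) = (t : ℤ) - (c k - c j) - p := by rw [h1]; ring
        show Bd (t1 - p + (c j : ℤ) - c k)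
        rw [e]; exact hbd
  refine (card_le_card hsub).trans (card_image_le.trans ((card_union_le _ _).trans ?_))
  have h1 := card_union_le (F (t0 - p)) (F (t1 - p))
  have h2 := hB (t0 - p)
  have h3 := hB (t1 - p)
  have h4 : (F (t0 - p)).card ≤ R0 := h2
  have h5 : (F (t1 - p)).card ≤ R0 := h3
  omega

end Crest.Agent.R320.Sp_273
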