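import Crest.Agent.R320.Shared_621
import Crest.Agent.R320.Sp_273

/-!
Row 320 (helper202): combinatorics of the two schemes on all words, `Data2` form of 621.
Zones `z = U ++ R`, `U` up to the first wall `≥ z0`, `R` up to the next wall.
-/

set_option autoImplicit false

namespace Crest.Agent.R320.AsmC_202

open Crest.Agent.R320.Hk_851 Crest.Agent.R320.Star_621 Crest.Agent.R320.Two_621
open Crest.Agent.R320.Main_621 Crest.Agent.R320.Shared_621 Crest.RegLang

universe u

variable {α : Type u}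

/-- left-looking wall rule on all words -/
structure LW (n W : ℕ) (Wo : List α → Prop) : Prop where
  loc : ∀ P Q, n ≤ Q.length → (Wo (P ++ Q) ↔ Wo Q)
  len : ∀ P, Wo P → n ≤ P.length
  gap : ∀ P Q, Wo P → Wo (P ++ Q) → Q ≠ [] → W < Q.length

/-- up to the first wall at a place `≥ g` -/
def First (Wo : List α → Prop) (g : ℕ) : Language α :=
  {u | Wo u ∧ g ≤ u.length ∧ ∀ A B, A ++ B = u → B ≠ [] → g ≤ A.length → ¬ Wo A}

theorem First.unique {Wo : List α → Prop} {g : ℕ} {u u' x x' : List α} (h : u ∈ First Wo g)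
    (h' : u' ∈ First Wo g) (e : u ++ x = u' ++ x') : u = u' := by
  have key : ∀ a b y y' : List α, a ∈ First Wo g → b ∈ First Wo g → a ++ y = b ++ y' →
      a.length ≤ b.length → a = b := by
    intro a b y y' ha hb he hl
    obtain ⟨c, rfl⟩ : a <+: b := List.prefix_of_prefix_length_le ⟨y, he⟩ ⟨y', rfl⟩ hl
    by_cases hc : c = []
    · simp [hc]
    · exact absurd ha.1 (hb.2.2 a c rfl hc ha.2.1)
  rcases le_total u.length u'.length with hl | hl
  · exact key _ _ _ _ h h' e hl
  · exact (key _ _ _ _ h' h e.symm hl).symm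

variable {n W N2 : ℕ} {Wo : List α → Prop}

theorem First.one_pos (hw : LW n W Wo) (hn : 0 < n) {g : ℕ} {u : List α} (h : u ∈ First Wo g) :
    u ≠ [] := by
  intro e
  have := hw.len _ h.1
  rw [e] at this
  simp at this
  omega

/-- moving the origin of a `First` word to the left -/
theorem First.push (hw : LW n W Wo) {g : ℕ} {P U : List α} (hg : P.length + n ≤ g) :
    P ++ U ∈ First Wo g ↔ U ∈ First Wo (g - P.length) := by
  constructor
  · rintro ⟨h1, h2, h3⟩
    rw [List.length_append] at h2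
    refine ⟨(hw.loc P U (by omega)).1 h1, by omega, ?_⟩
    rintro A B rfl hB hA hWA
    exact h3 (P ++ A) B (by simp) hB (by rw [List.length_append]; omega)
      ((hw.loc P A (by omega)).2 hWA)
  · rintro ⟨h1, h2, h3⟩
    refine ⟨(hw.loc P U (by omega)).2 h1, by rw [List.length_append]; omega, ?_⟩
    intro A B he hB hA hWA
    have hPA : P <+: A := List.prefix_of_prefix_length_le ⟨U, he.symm⟩ ⟨B, rfl⟩ (by omega)
    obtain ⟨A', rfl⟩ := hPA
    rw [List.append_assoc] at he
    have he' := List.append_cancel_left he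
    rw [List.length_append] at hA
    exact h3 A' B he' hB (by omega) ((hw.loc P A' (by omega)).1 hWA)

section Schemes

variable {S : Type u} [Monoid S] (ph : List α → S)
variable (Wo) (z0 p0 N1 : ℕ) (BadT : ℕ → Prop)
variable (lam rho : List α → Option (Tok S)) (nu1 nu2 : List α → Tok S)

/-- zones -/
def Z : Language α := {z | ∃ U R, z = U ++ R ∧ U ∈ First Wo z0 ∧ R ∈ First Wo 1}

/-- failure modes, read on the visible part `U` of a zone whose anchor is `c` letters left of it -/
def cond (c : ℕ) (U : List α) : Prop :=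
  U.length + c < z0 + N1 ∨ (∃ A B, A ++ B = U ∧ z0 ≤ A.length + c + N1 ∧ A.length + c < z0 ∧ Wo A) ∨
    BadT (U.length + c - p0)

/-- critical zones -/
def Zc : Language α :=
  {z | ∃ U R, z = U ++ R ∧ U ∈ First Wo z0 ∧ R ∈ First Wo 1 ∧ cond Wo z0 p0 N1 BadT 0 U}

open Classical in
/-- noise of a zone -/
noncomputable def dd (z : List α) : Tok S :=
  if h : ∃ p : List α × List α, z = p.1 ++ p.2 ∧ p.1 ∈ First Wo z0 ∧ p.2 ∈ First Wo 1 then
    act (act (nu2 (h.choose.1.take p0)) (ph (h.choose.1.drop p0)) + nu1 (h.choose.1.drop p0))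
      (ph h.choose.2) else 0

/-- left words of scheme A -/
def LA (v : Tok S) : Language α :=
  {P | ∃ X P', P = X ++ P' ∧ X.length = p0 ∧ P ≠ [] ∧ lam P' = some (act v (ph X) + nu2 X)}

/-- right words of scheme A -/
def RA (τ : Tok S) : Language α :=
  {Q | ∃ Q1 R b, Q = Q1 ++ R ∧ Q1 ∈ First Wo (z0 - p0 - N1) ∧ z0 - p0 ≤ Q1.length ∧
    R ∈ First Wo 1 ∧ rho Q1 = some b ∧ τ = act b (ph R)}

variable {ph Wo z0 p0 N1 BadT lam rho nu1 nu2}

theorem dd_eq {U R : List α} (hU : U ∈ First Wo z0) (hR : R ∈ First Wo 1) :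
    dd Wo ph z0 p0 nu1 nu2 (U ++ R) =
      act (act (nu2 (U.take p0)) (ph (U.drop p0)) + nu1 (U.drop p0)) (ph R) := by
  classical
  have hex : ∃ p : List α × List α, U ++ R = p.1 ++ p.2 ∧ p.1 ∈ First Wo z0 ∧
      p.2 ∈ First Wo 1 := ⟨(U, R), rfl, hU, hR⟩
  unfold dd
  rw [dif_pos hex]
  obtain ⟨h1, h2, h3⟩ := hex.choose_spec
  have e1 : hex.choose.1 = U := First.unique h2 hU h1.symm
  have e2 : hex.choose.2 = R := by
    rw [e1] at h1
    exact (List.append_cancel_left h1).symm
  rw [e1, e2]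

theorem Z_unique {U R U' R' x x' : List α} (hU : U ∈ First Wo z0) (hR : R ∈ First Wo 1)
    (hU' : U' ∈ First Wo z0) (hR' : R' ∈ First Wo 1) (e : U ++ R ++ x = U' ++ R' ++ x') :
    U = U' ∧ R = R' := by
  rw [List.append_assoc, List.append_assoc] at e
  have h1 := First.unique hU hU' e
  subst h1
  exact ⟨rfl, First.unique hR hR' (List.append_cancel_left e)⟩

theorem code_Z (hw : LW n W Wo) (hn : 0 < n) : Code (Z Wo z0) := by
  refine ⟨?_, ?_⟩
  · rintro ⟨U, R, e, hU, -⟩
    exact First.one_pos hw hn hU (List.append_eq_nil_iff.1 e.symm).1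
  · rintro z z' x x' ⟨U, R, rfl, hU, hR⟩ ⟨U', R', rfl, hU', hR'⟩ e
    obtain ⟨rfl, rfl⟩ := Z_unique hU hR hU' hR' e
    rfl

theorem aff_dd (hm : ∀ a b, ph (a ++ b) = ph a * ph b) {U R : List α} (hU : U ∈ First Wo z0)
    (hR : R ∈ First Wo 1) (v : Tok S) :
    aff ph (dd Wo ph z0 p0 nu1 nu2) (U ++ R) v =
      act (act (act v (ph (U.take p0)) + nu2 (U.take p0)) (ph (U.drop p0)) + nu1 (U.drop p0))
        (ph R) := by
  have e : ph (U ++ R) = ph (U.take p0) * ph (U.drop p0) * ph R := by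
    rw [hm, ← hm (U.take p0), List.take_append_drop]
  unfold aff
  rw [dd_eq hU hR, e]
  simp only [act_add, act_mul, add_assoc, mul_assoc]

theorem soundA (hw : LW n W Wo) (hn : 0 < n) (hm : ∀ a b, ph (a ++ b) = ph a * ph b)
    (hz : p0 + N1 + n ≤ z0)
    (hlam : ∀ P v, lam P = some v → P.length < N1)
    (hs : ∀ P Q v b, lam P = some v → rho Q = some b →
      b = act v (ph (P ++ Q)) + nu1 (P ++ Q)) :
    Sound (Z Wo z0) (aff ph (dd Wo ph z0 p0 nu1 nu2)) (LA ph p0 lam nu2)
      (RA Wo ph z0 p0 N1 rho) := by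
  refine ⟨?_, ?_⟩
  · rintro ω ⟨X, P', -, -, h, -⟩
    exact h rfl
  · rintro ω τ P Q z x y ⟨X, P', rfl, hX, -, hl⟩ ⟨Q1, R, b, rfl, hQ1, hQl, hR, hr, rfl⟩ hz' e
    have hP' := hlam _ _ hl
    have hU : X ++ P' ++ Q1 ∈ First Wo z0 := by
      rw [First.push hw (by rw [List.length_append]; omega)]
      refine ⟨hQ1.1, by rw [List.length_append]; omega, ?_⟩
      intro A B he hB hA hWA
      rw [List.length_append] at hA
      exact hQ1.2.2 A B he hB (by omega) hWA
    obtain ⟨U', R', rfl, hU', hR'⟩ := hz'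
    have e' : X ++ P' ++ Q1 ++ R ++ x = U' ++ R' ++ y := by
      rw [← e]; simp [List.append_assoc]
    obtain ⟨h1, h2⟩ := Z_unique hU hR hU' hR' e'
    subst h2
    rw [← h1]
    refine ⟨by simp [List.append_assoc], ?_⟩
    rw [aff_dd hm hU hR]
    have e1 : (X ++ P' ++ Q1).take p0 = X := by
      rw [List.append_assoc, ← hX, List.take_left]
    have e2 : (X ++ P' ++ Q1).drop p0 = P' ++ Q1 := by
      rw [List.append_assoc, ← hX, List.drop_left]
    rw [e1, e2, ← hs _ _ _ _ hl hr]

theorem completeA (hw : LW n W Wo) (hz : p0 + N1 + n + N2 ≤ z0)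
    (hlam : ∀ P v, lam P = some v → P.length < N1)
    (hc : ∀ Y, N2 ≤ Y.length → ¬ BadT Y.length → ∀ v, ∃ P Q, P ++ Q = Y ∧ lam P = some v ∧
      (rho Q).isSome) (hp0 : 0 < p0)
    {z : List α} (hzZ : z ∈ Z Wo z0) (hzc : z ∉ Zc Wo z0 p0 N1 BadT) (v : Tok S) :
    Cut (LA ph p0 lam nu2) (RA Wo ph z0 p0 N1 rho) v z := by
  obtain ⟨U, R, rfl, hU, hR⟩ := hzZ
  have hnc : ¬ cond Wo z0 p0 N1 BadT 0 U := fun h => hzc ⟨U, R, rfl, hU, hR, h⟩
  unfold cond at hnc
  push Not at hnc
  obtain ⟨h1, h2, h3⟩ := hnc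
  have hUl := hU.2.1
  simp only [Nat.add_zero] at h1 h2 h3
  have hYl : (U.drop p0).length = U.length - p0 := List.length_drop ..
  obtain ⟨P, Q, hPQ, hl, hr⟩ := hc (U.drop p0) (by omega) (by rw [hYl]; exact h3)
    (act v (ph (U.take p0)) + nu2 (U.take p0))
  obtain ⟨b, hb⟩ := Option.isSome_iff_exists.1 hr
  have hP := hlam _ _ hl
  have hlen : P.length + Q.length = U.length - p0 := by rw [← hYl, ← hPQ, List.length_append]
  have hX : (U.take p0).length = p0 := by rw [List.length_take]; omega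
  have hUe : U.take p0 ++ P ++ Q = U := by
    rw [List.append_assoc, hPQ, List.take_append_drop]
  refine ⟨U.take p0 ++ P, Q ++ R, act b (ph R), ?_, ⟨U.take p0, P, rfl, hX, ?_, hl⟩,
    ⟨Q, R, b, rfl, ⟨?_, by omega, ?_⟩, by omega, hR, hb, rfl⟩⟩
  · rw [← List.append_assoc, hUe]
  · intro e0
    have := congrArg List.length e0
    rw [List.length_append, hX] at this
    simp at this
    omega
  · have := hU.1
    rw [← hUe] at this
    exact (hw.loc _ _ (by omega)).1 this
  · intro A B he hB hA hWA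
    have hWU : Wo (U.take p0 ++ P ++ A) := (hw.loc _ _ (by omega)).2 hWA
    have hUe' : (U.take p0 ++ P ++ A) ++ B = U := by
      rw [List.append_assoc, he, hUe]
    have hll : (U.take p0 ++ P ++ A).length = p0 + P.length + A.length := by
      rw [List.length_append, List.length_append, hX]
    rcases lt_or_ge (U.take p0 ++ P ++ A).length z0 with h4 | h4
    · exact h2 _ _ hUe' (by omega) h4 hWU
    · exact hU.2.2 _ _ hUe' hB h4 hWU

variable (Wo ph z0 p0 N1 BadT nu1) (K : ℕ) (c : ℕ → ℕ) (lam2 rho2 : ℕ → List α → Option (Tok S))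

/-- candidate `j` looks bad from the right word `Q` -/
def BadQ (j : ℕ) (Q : List α) : Prop :=
  ∃ U Q', U ++ Q' = Q ∧ U ∈ First Wo (z0 - c j) ∧ cond Wo z0 p0 N1 BadT (c j) U

/-- left words of scheme B -/
def LB (v : Tok S) : Language α := {P | ∃ k < K, P.length = c k ∧ lam2 k P = some v}

/-- right words of scheme B -/
def RB (τ : Tok S) : Language α :=
  {Q | ∃ j < K, (∀ i < K, BadQ Wo z0 p0 N1 BadT c i Q → i = j) ∧ ∃ U R b0, Q = U ++ R ∧
    U ∈ First Wo (z0 - c j) ∧ cond Wo z0 p0 N1 BadT (c j) U ∧ R ∈ First Wo 1 ∧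
    rho2 j (U.take (p0 - c j)) = some b0 ∧
    τ = act (act b0 (ph (U.drop (p0 - c j))) + nu1 (U.drop (p0 - c j))) (ph R)}

variable {Wo ph z0 p0 N1 BadT nu1 K c lam2 rho2}

/-- the condition seen from a place `c` letters right of the anchor -/
theorem cond_push (hw : LW n W Wo) {P U : List α} {d : ℕ} (hz : P.length + d + N1 + n ≤ z0) :
    cond Wo z0 p0 N1 BadT d (P ++ U) ↔ cond Wo z0 p0 N1 BadT (d + P.length) U := by
  unfold cond
  rw [List.length_append, show P.length + U.length + d = U.length + (d + P.length) by omega]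
  refine or_congr Iff.rfl (or_congr ?_ Iff.rfl)
  constructor
  · rintro ⟨A, B, he, h1, h2, hWA⟩
    obtain ⟨A', rfl⟩ : P <+: A :=
      List.prefix_of_prefix_length_le ⟨U, rfl⟩ ⟨B, he⟩ (by omega)
    rw [List.append_assoc] at he
    rw [List.length_append] at h1 h2
    exact ⟨A', B, List.append_cancel_left he, by omega, by omega,
      (hw.loc P A' (by omega)).1 hWA⟩
  · rintro ⟨A, B, rfl, h1, h2, hWA⟩
    refine ⟨P ++ A, B, by simp, ?_, ?_, (hw.loc P A (by omega)).2 hWA⟩
    · rw [List.length_append]; omega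
    · rw [List.length_append]; omega

theorem soundB (hw : LW n W Wo) (hn : 0 < n) (hm : ∀ a b, ph (a ++ b) = ph a * ph b)
    (hz : p0 + N1 + n ≤ z0) (hc0 : ∀ k < K, 0 < c k ∧ c k ≤ p0) (hW : p0 ≤ W)
    (hs : ∀ k < K, ∀ P Q v b, P.length = c k → lam2 k P = some v → rho2 k Q = some b →
      b = act v (ph (P ++ Q)) + nu2 (P ++ Q)) :
    Sound (Zc Wo z0 p0 N1 BadT) (aff ph (dd Wo ph z0 p0 nu1 nu2)) (LB K c lam2)
      (RB Wo ph z0 p0 N1 BadT nu1 K c rho2) := by
  refine ⟨?_, ?_⟩
  · rintro ω ⟨k, hk, h, -⟩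
    have := (hc0 k hk).1
    simp at h
    omega
  · rintro ω τ P Q z x y ⟨k, hk, hPl, hl⟩
      ⟨j, hj, huniq, V, R, b0, rfl, hV, hVc, hR, hr, rfl⟩ ⟨U, R0, rfl, hU, hR0, hUc⟩ e
    obtain ⟨hck0, hckp⟩ := hc0 k hk
    obtain ⟨hcj0, hcjp⟩ := hc0 j hj
    have hUl := hU.2.1
    obtain ⟨U2, rfl⟩ : P <+: U := List.prefix_of_prefix_length_le
      (l₃ := P ++ (V ++ R) ++ x) ⟨V ++ R ++ x, by simp [List.append_assoc]⟩
      ⟨R0 ++ y, by rw [e]; simp [List.append_assoc]⟩ (by omega)
    have e2 : (V ++ R) ++ x = U2 ++ (R0 ++ y) := by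
      have : P ++ ((V ++ R) ++ x) = P ++ (U2 ++ (R0 ++ y)) := by
        rw [← List.append_assoc, e]; simp [List.append_assoc]
      exact List.append_cancel_left this
    have hU2 : U2 ∈ First Wo (z0 - c k) := by
      rw [← hPl]; exact (First.push hw (by omega)).1 hU
    have hVl := hV.2.1
    have hVW := hV.1
    have hRW := hR.1
    have hRl := hw.len _ hRW
    have hWVR : Wo (V ++ R) := (hw.loc V R hRl).2 hRW
    have hgap := hw.gap V R hVW hWVR (by
      intro e0; rw [e0] at hRl; simp at hRl; omega)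
    have hle : U2.length ≤ (V ++ R).length := by
      by_contra hlt
      push Not at hlt
      obtain ⟨B, hB⟩ : V ++ R <+: U2 :=
        List.prefix_of_prefix_length_le ⟨x, e2⟩ ⟨R0 ++ y, rfl⟩ hlt.le
      refine hU2.2.2 (V ++ R) B hB ?_ ?_ hWVR
      · intro e0
        have := congrArg List.length hB
        rw [e0] at this
        simp at this hlt
        omega
      · rw [List.length_append]; omega
    obtain ⟨B, hB⟩ : U2 <+: V ++ R :=
      List.prefix_of_prefix_length_le ⟨R0 ++ y, rfl⟩ ⟨x, e2⟩ hle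
    have hkj : k = j := by
      refine huniq k hk ⟨U2, B, hB, hU2, ?_⟩
      have := (cond_push (P := P) (U := U2) (d := 0) hw (by omega)).1 hUc
      rwa [Nat.zero_add, hPl] at this
    subst hkj
    have hVU : V = U2 := First.unique hV hU2 (x := R) (x' := B) hB.symm
    subst hVU
    have hRR : R = R0 := by
      refine First.unique hR hR0 (x := x) (x' := y) ?_
      rw [List.append_assoc] at e2
      exact List.append_cancel_left e2
    subst hRR
    refine ⟨by simp [List.append_assoc], ?_⟩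
    rw [aff_dd hm hU hR]
    have e3 : (P ++ V).take p0 = P ++ V.take (p0 - c k) := by
      rw [List.take_append, hPl, List.take_of_length_le (by omega)]
    have e4 : (P ++ V).drop p0 = V.drop (p0 - c k) := by
      rw [List.drop_append, hPl, List.drop_eq_nil_of_le (by omega), List.nil_append]
    rw [e3, e4, hs k hk P _ _ _ hPl hl hr]

theorem completeB (hw : LW n W Wo) (hz : p0 + N1 + n ≤ z0) (hc0 : ∀ k < K, 0 < c k ∧ c k ≤ p0)
    {U R : List α} (hU : U ∈ First Wo z0) (hR : R ∈ First Wo 1)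
    (hUc : cond Wo z0 p0 N1 BadT 0 U) (v : Tok S) {k : ℕ} (hk : k < K)
    (hl : lam2 k ((U.take p0).take (c k)) = some v)
    (hr : (rho2 k ((U.take p0).drop (c k))).isSome)
    (huniq : ∀ i < K, BadQ Wo z0 p0 N1 BadT c i (U.drop (c k) ++ R) → i = k) :
    Cut (LB K c lam2) (RB Wo ph z0 p0 N1 BadT nu1 K c rho2) v (U ++ R) := by
  obtain ⟨h1, h2⟩ := hc0 k hk
  have hUl := hU.2.1
  have hPl : (U.take (c k)).length = c k := by rw [List.length_take]; omega
  have e0 : U.take (c k) ++ U.drop (c k) = U := List.take_append_drop _ _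
  have hUP : U.take (c k) ++ U.drop (c k) ∈ First Wo z0 := by rw [e0]; exact hU
  have hU2 : U.drop (c k) ∈ First Wo (z0 - c k) := by
    have := (First.push hw (by omega)).1 hUP
    rwa [hPl] at this
  have hc2 : cond Wo z0 p0 N1 BadT (c k) (U.drop (c k)) := by
    rw [← e0] at hUc
    have := (cond_push hw (by omega)).1 hUc
    rwa [Nat.zero_add, hPl] at this
  obtain ⟨b0, hb0⟩ := Option.isSome_iff_exists.1 hr
  refine ⟨U.take (c k), U.drop (c k) ++ R, _, ?_, ⟨k, hk, hPl, ?_⟩,
    ⟨k, hk, huniq, U.drop (c k), R, b0, rfl, hU2, hc2, hR, ?_, rfl⟩⟩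
  · rw [← List.append_assoc, e0]
  · rw [← hl, List.take_take, min_eq_left h2]
  · rw [← hb0, List.drop_take]

open Classical in
theorem spoiled (hw : LW n W Wo) (hz : p0 + N1 + n ≤ z0) (hc0 : ∀ k < K, 0 < c k ∧ c k ≤ p0)
    {R0 : ℕ} {Bd : ℤ → Prop} (hBd : ∀ T : ℕ, BadT T → Bd T)
    (hG : ∀ i j k l, i ≠ j → ¬ (i = k ∧ j = l) →
        4 * (N1 : ℤ) < |((c i : ℤ) - c j) - ((c k : ℤ) - c l)|)
    (hB : ∀ T : ℤ, (((Finset.range K ×ˢ Finset.range K).filter
        (fun p : ℕ × ℕ => p.1 ≠ p.2 ∧ Bd (T + c p.2 - c p.1))).card) ≤ R0)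
    (hWl : 2 * p0 + 4 * N1 ≤ W) (z : List α) (hzl : z0 ≤ z.length) :
    ((Finset.range K).filter (fun k => ∃ j < K, j ≠ k ∧
      BadQ Wo z0 p0 N1 BadT c j (z.drop (c k)))).card ≤ 1 + 2 * R0 := by
  refine le_trans (Finset.card_le_card ?_) (Crest.Agent.R320.Sp_273.wall_spoil K N1 p0 R0 c Bd
    (fun k hk => (hc0 k hk).2) hG hB (fun t => t ≤ z.length ∧ Wo (z.take t)) W hWl ?_ z0 p0)
  · intro k hk
    rw [Finset.mem_filter] at hk ⊢
    obtain ⟨hkK, j, hj, hjk, U, Q', hUQ, hU, hcond⟩ := hk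
    have hkK' := Finset.mem_range.1 hkK
    obtain ⟨hk1, hk2⟩ := hc0 k hkK'
    obtain ⟨hj1, hj2⟩ := hc0 j hj
    refine ⟨hkK, j, hj, hjk, ?_⟩
    have hUl := hU.2.1
    have e0 : z = z.take (c k) ++ (U ++ Q') := by rw [hUQ, List.take_append_drop]
    have hcl : (z.take (c k)).length = c k := by rw [List.length_take]; omega
    have hzl2 : z.length = c k + (U.length + Q'.length) := by
      conv_lhs => rw [e0]
      rw [List.length_append, List.length_append, hcl]
    have htake : ∀ A B : List α, A ++ B = U → z.take (c k + A.length) = z.take (c k) ++ A := by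
      rintro A B rfl
      conv_lhs => rw [e0]
      rw [List.take_append, hcl, List.take_of_length_le (by omega), Nat.add_sub_cancel_left,
        List.append_assoc, List.take_left]
    have hWt : ∀ A B : List α, A ++ B = U → n ≤ A.length →
        (Wo (z.take (c k + A.length)) ↔ Wo A) := by
      intro A B hAB hA
      rw [htake A B hAB, hw.loc _ _ hA]
    have hWU : Wo (z.take (c k + U.length)) := (hWt U [] (by simp) (by omega)).2 hU.1
    rcases hcond with h | ⟨A, B, hAB, h1, h2, hWA⟩ | h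
    · left
      refine ⟨c k + U.length, ⟨by omega, hWU⟩, ?_⟩
      rw [abs_le]; push_cast; constructor <;> omega
    · left
      refine ⟨c k + A.length, ⟨?_, (hWt A B hAB (by omega)).2 hWA⟩, ?_⟩
      · have := congrArg List.length hAB
        rw [List.length_append] at this
        omega
      · rw [abs_le]; push_cast; constructor <;> omega
    · right
      refine ⟨c k + U.length, ⟨by omega, hWU⟩, by push_cast; omega, ?_, ?_⟩
      · rintro s ⟨hs, hsW⟩ hs'
        by_contra hlt
        push Not at hlt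
        have hsk : c k + n ≤ s := by omega
        have h3 : (U.take (s - c k)) ++ (U.drop (s - c k)) = U := List.take_append_drop _ _
        have h4 : (U.take (s - c k)).length = s - c k := by rw [List.length_take]; omega
        have h5 := hWt _ _ h3 (by omega)
        rw [h4, show c k + (s - c k) = s by omega] at h5
        refine hU.2.2 _ _ h3 ?_ (by omega) (h5.1 hsW)
        intro h6
        have := congrArg List.length h6
        rw [List.length_drop] at this
        simp at this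
        omega
      · have := hBd _ h
        have e5 : ((U.length + c j - p0 : ℕ) : ℤ) =
            ((c k + U.length : ℕ) : ℤ) - ((c k : ℤ) - c j) - (p0 : ℤ) := by
          push_cast [show p0 ≤ U.length + c j by omega]; ring
        rwa [e5] at this
  · rintro s t hst ⟨hs, hsW⟩ ⟨ht, htW⟩
    have h1 : z.take t = z.take s ++ (z.drop s).take (t - s) := by
      rw [← List.take_add, show s + (t - s) = t by omega]
    rw [h1] at htW
    have h2 : ((z.drop s).take (t - s)).length = t - s := by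
      rw [List.length_take, List.length_drop]; omega
    have h3 := hw.gap _ _ hsW htW (by
      intro h4; rw [h4] at h2; simp at h2; omega)
    rwa [h2] at h3

end Schemes

end Crest.Agent.R320.AsmC_202
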