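import Crest.Agent.R320.AsmB_415
import Crest.Agent.R320.ExactR_237

/-!
# Row 320: height facts and the whole assembly (helper415)
-/

set_option autoImplicit false

namespace Crest.Agent.R320.Asm_415

open Crest.RegLang Crest.Agent.R320.Hk_851 Crest.Agent.R320.FewWalls_228
  Crest.Agent.R320.CoreHalf_722

namespace Ctx

variable {A S V : Type} [Finite A] [Monoid S] [Finite S] [AddCommGroup V] [Finite V]
  (C : Ctx A S V)

/-- wall data -/
structure Wd (c P Pm : ℕ) : Prop where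
  hn : 0 < C.n
  hP : 0 < P
  hS : ∀ s ∈ C.Ss, s.length = C.n
  per : PerOff C.n c P C.Ss
  hPm : 0 < Pm
  badper : ∀ T T', C.La ≤ T → C.La ≤ T' → T % Pm = T' % Pm → C.BadT T → C.BadT T'
  nuper : ∀ q q' : List A, C.La ≤ q.length → C.La ≤ q'.length → q.take C.La = q'.take C.La →
    q.length % Pm = q'.length % Pm →
    ((q.drop C.La).map C.f).prod = ((q'.drop C.La).map C.f).prod → C.nu1 q = C.nu1 q'

variable {C} {c P Pm : ℕ}

theorem HL_X (h : C.Wd c P Pm) : HL 1 (LG C.X) :=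
  (HL_XX h.hS (by have := C.hz; omega)).mono (by omega)

theorem fs (h : C.Wd c P Pm) (L0 : ℕ) (p : List A → Prop)
    (hp : ∀ X ∈ C.X, ∀ X' ∈ C.X, L0 ≤ X.length → L0 ≤ X'.length → X.take L0 = X'.take L0 →
      X.length % Pm = X'.length % Pm →
      ((X.drop L0).map C.f).prod = ((X'.drop L0).map C.f).prod → p X → p X') :
    HL 1 (LG {X | X ∈ C.X ∧ p X}) :=
  HL_fs h.hn h.hP h.per C.f (C.z + 1) L0 Pm h.hPm (HL_X h) (fun w hw => nw_XX hw) p hp

/-- depth of the finite-state data -/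
def L0 (C : Ctx A S V) : ℕ := C.z + C.N1 + C.p0 + C.La

theorem mod_sub {a b k m : ℕ} (ha : k ≤ a) (hb : k ≤ b) (h : a % m = b % m) :
    (a - k) % m = (b - k) % m := by
  have h1 : (a - k) + k ≡ (b - k) + k [MOD m] := by
    show ((a - k) + k) % m = ((b - k) + k) % m
    rw [Nat.sub_add_cancel ha, Nat.sub_add_cancel hb]; exact h
  exact Nat.ModEq.add_right_cancel' k h1

theorem pB_congr (h : C.Wd c P Pm) {X X' : List A} (h1 : C.L0 ≤ X.length)
    (h2 : C.L0 ≤ X'.length) (h3 : X.take C.L0 = X'.take C.L0)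
    (h4 : X.length % Pm = X'.length % Pm) (hX : C.pB X) : C.pB X' := by
  have hL : C.L0 = C.z + C.N1 + C.p0 + C.La := rfl
  rcases hX with ⟨e, e1, e2, e3⟩ | hX
  · left
    refine ⟨e, e1, e2, ?_⟩
    have hl : (X.take C.L0).length = C.L0 := by rw [List.length_take]; omega
    have hl' : (X'.take C.L0).length = C.L0 := by rw [List.length_take]; omega
    rw [← List.take_append_drop C.L0 X, WE_append_left (by omega), h3] at e3
    rw [← List.take_append_drop C.L0 X', WE_append_left (by omega)]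
    exact e3
  · right
    exact h.badper _ _ (by omega) (by omega) (mod_sub (by omega) (by omega) h4) hX

theorem T_congr (h : C.Wd c P Pm) {X X' : List A} (v : V) (h1 : C.L0 ≤ X.length)
    (h2 : C.L0 ≤ X'.length) (h3 : X.take C.L0 = X'.take C.L0)
    (h4 : X.length % Pm = X'.length % Pm)
    (h5 : ((X.drop C.L0).map C.f).prod = ((X'.drop C.L0).map C.f).prod) :
    C.T X v = C.T X' v := by
  have hL : C.L0 = C.z + C.N1 + C.p0 + C.La := rfl
  have tk : ∀ k, k ≤ C.L0 → X.take k = X'.take k := by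
    intro k hk
    have e1 : X.take k = (X.take C.L0).take k := by rw [List.take_take, min_eq_left hk]
    have e2 : X'.take k = (X'.take C.L0).take k := by rw [List.take_take, min_eq_left hk]
    rw [e1, e2, h3]
  have dr : ∀ k, k ≤ C.L0 → ((X.drop k).map C.f).prod = ((X'.drop k).map C.f).prod := by
    intro k hk
    have e1 : ∀ Y : List A, Y.drop k = (Y.take C.L0).drop k ++ Y.drop C.L0 := by
      intro Y
      rw [List.drop_take]
      have : Y.drop C.L0 = (Y.drop k).drop (C.L0 - k) := by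
        rw [List.drop_drop]; congr 1; omega
      rw [this, List.take_append_drop]
    rw [e1 X, e1 X', h3, List.map_append, List.map_append, List.prod_append, List.prod_append, h5]
  have hnu : C.nu1 (X.drop C.p0) = C.nu1 (X'.drop C.p0) := by
    apply h.nuper
    · rw [List.length_drop]; omega
    · rw [List.length_drop]; omega
    · rw [List.take_drop, List.take_drop, tk _ (by omega)]
    · rw [List.length_drop, List.length_drop]
      exact mod_sub (by omega) (by omega) h4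
    · rw [List.drop_drop, List.drop_drop]
      exact dr _ (by omega)
  rw [C.T_eq, C.T_eq, tk _ (by omega), hnu]
  have : C.ph (X.drop C.p0) = C.ph (X'.drop C.p0) := dr _ (by omega)
  rw [this]

theorem HL_XT (h : C.Wd c P Pm) (v b : V) : HL 1 (LG {X | X ∈ C.X ∧ C.T X v = b}) :=
  fs h C.L0 _ fun X _ X' _ h1 h2 h3 h4 h5 h6 => by rw [← T_congr h v h1 h2 h3 h4 h5]; exact h6

theorem HL_Bd (h : C.Wd c P Pm) : HL 1 (LG C.Bd) :=
  fs h C.L0 _ fun X _ X' _ h1 h2 h3 h4 _ h6 => pB_congr h h1 h2 h3 h4 h6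

theorem HL_nBd (h : C.Wd c P Pm) : HL 1 (LG {X | X ∈ C.X ∧ ¬ C.pB X}) :=
  fs h C.L0 _ fun X _ X' _ h1 h2 h3 h4 _ h6 h7 => h6 (pB_congr h h2 h1 h3.symm h4.symm h7)

theorem HL_BdT (h : C.Wd c P Pm) (v b : V) : HL 1 (LG {X | X ∈ C.Bd ∧ C.T X v = b}) :=
  ((HL_Bd h).inf (HL_XT h v b)).congr fun X => by
    constructor
    · rintro ⟨h1, h2⟩; exact ⟨h1, h1.1, h2⟩
    · rintro ⟨h1, h2⟩; exact ⟨h1, h2.2⟩

theorem HL_NB (h : C.Wd c P Pm) : HL 1 C.NB :=
  ((HL_nBd h).mul HL.top).congr fun U => by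
    constructor
    · rintro ⟨Z, hZ, t, rfl⟩
      exact ⟨Z, hZ, t, trivial, rfl⟩
    · rintro ⟨Z, hZ, t, -, rfl⟩
      exact ⟨Z, hZ, t, rfl⟩

theorem HL_TT (h : C.Wd c P Pm) (v b : V) : HL 1 (C.TT v b) := by
  have hh : HL 1 ({U | ∃ v', U ∈ LG {X | X ∈ C.Bd ∧ C.T X v = v'} *
      LG {X | X ∈ C.Bd ∧ C.T X v' = b}} : Language A) :=
    HL.iUnion fun v' => (HL_BdT h v v').mul (HL_BdT h v' b)
  refine hh.congr fun U => ?_
  constructor
  · rintro ⟨Z, hZ, Z', hZ', rfl, hT⟩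
    exact ⟨C.T Z v, Z, ⟨hZ, rfl⟩, Z', ⟨hZ', hT⟩, rfl⟩
  · rintro ⟨v', Z, ⟨hZ, h1⟩, Z', ⟨hZ', h2⟩, rfl⟩
    have h1' : C.T Z v = v' := h1
    subst h1'
    exact ⟨Z, hZ, Z', hZ', rfl, h2⟩

theorem LP1_fin (C : Ctx A S V) (v : V) : Set.Finite {w | w ∈ C.LP1 v} :=
  (List.finite_length_le A (C.p0 + C.N1)).subset fun w hw => by
    obtain ⟨h1, h2⟩ := hw
    have := C.lam_len _ _ h2
    rw [List.length_drop] at this
    show w.length ≤ _
    omega

theorem LP2_fin (C : Ctx A S V) (v : V) : Set.Finite {w | w ∈ C.LP2 v} :=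
  (List.finite_length_le A C.p0).subset fun w hw => by
    obtain ⟨k, h1, h2, h3⟩ := hw
    have := C.cK k h1
    show w.length ≤ _
    omega

theorem HL_RQ1 (h : C.Wd c P Pm) (b : V) : HL 1 (C.RQ1 b) := by
  have hh : HL 1 ({Q | ∀ v, Q ∈ ({Q | ∀ P' ∈ {w | w ∈ C.LP1 v},
      Q ∈ ({Q | P' ++ Q ∈ LG {X | X ∈ C.X ∧ C.T X v = b}} : Language A)} : Language A)} :
      Language A) :=
    HL.iInter fun v => HL.biInter (C.LP1_fin v) fun P' _ => HL.lquot P' (HL_XT h v b)
  exact hh.congr fun Q => Iff.rfl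

theorem HL_RQ2 (h : C.Wd c P Pm) (b : V) : HL 1 (C.RQ2 b) := by
  have hh : HL 1 ({Q | ∀ v, Q ∈ ({Q | ∀ P' ∈ {w | w ∈ C.LP2 v},
      Q ∈ ({Q | P' ++ Q ∈ C.NB ⊔ C.TT v b} : Language A)} : Language A)} :
      Language A) :=
    HL.iInter fun v => HL.biInter (C.LP2_fin v) fun P' _ =>
      HL.lquot P' ((HL_NB h).sup (HL_TT h v b))
  exact hh.congr fun Q => Iff.rfl

theorem HL_tail (h : C.Wd c P Pm) (t : S) :
    HL 1 ({E | (∀ p, p <+: E → p ∉ C.X) ∧ C.ph E = t} : Language A) :=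
  HL_fs h.hn h.hP h.per C.f (C.z + 1) 0 Pm h.hPm
    ((HL_Tl h.hS (by have := C.hz; omega)).mono (by omega)) (fun w hw => nw_Tl hw)
    (fun E => C.ph E = t) (fun X _ X' _ _ _ _ _ h5 h6 => by
      rw [List.drop_zero, List.drop_zero] at h5
      rw [← h6]; exact h5.symm)

theorem main (h : C.Wd c P Pm) (act_one : ∀ x, C.act x 1 = x)
    (faith : ∀ s t, (∀ x, C.act x s = C.act x t) → s = t) (s : S) :
    HL 3 ({w | (w.map C.f).prod = s} : Language A) :=
  Top_722.top (ph := C.ph) act_one C.act_mul C.act_add faith rfl C.ph_append C.nu C.X C.Bd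
    C.LP1 C.RQ1 C.LP2 C.RQ2 C.cutL C.cutP (HL_Bd h) (fun x y => HL_BdT h x y)
    (fun x => HL.finite (C.LP2_fin x)) (fun x => HL_RQ2 h x)
    (fun x => HL.finite (C.LP1_fin x)) (fun x => (HL_RQ1 h x).mono (by omega))
    (fun t => (HL_tail h t).mono (by omega)) s

end Ctx

/-- **the gadget with its ruler** (interface of helper415) -/
def UG (A S V : Type) [Monoid S] [AddCommGroup V] (f : A → S) (act : V → S → V) : Prop :=
  ∃ C0 : ℕ, ∀ K : ℕ, ∃ (N1 Pm La : ℕ) (c : ℕ → ℕ) (BadT : ℕ → Prop)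
    (lam rho : List A → Option V) (nu : List A → V), 0 < Pm ∧
    (∀ i j, i < j → j < K → c i < c j) ∧
    (∀ i j k l, i < K → j < K → k < K → l < K → i ≠ j → k ≠ l → (i, j) ≠ (k, l) →
      c i + c l + 2 * N1 < c k + c j ∨ c k + c j + 2 * N1 < c i + c l) ∧
    (∀ T T', La ≤ T → La ≤ T' → T % Pm = T' % Pm → BadT T → BadT T') ∧
    (∀ T, La ≤ T → ∀ F : Finset (ℕ × ℕ), (∀ ij ∈ F, ij.1 < K ∧ ij.2 < K ∧ ij.1 ≠ ij.2 ∧
      BadT (T + c ij.2 - c ij.1)) → F.card ≤ C0) ∧
    (∀ (p : List A) (v : V), lam p = some v → p.length ≤ N1) ∧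
    (∀ (p q : List A) (v r : V), lam p = some v → rho q = some r → La ≤ q.length →
      r = act v ((p ++ q).map f).prod + nu (p ++ q)) ∧
    (∀ u : List A, La ≤ u.length → ¬ BadT u.length → ∀ v, ∃ p q, p ++ q = u ∧
      lam p = some v ∧ (rho q).isSome) ∧
    (∀ q q' : List A, La ≤ q.length → La ≤ q'.length → q.take La = q'.take La →
      q.length % Pm = q'.length % Pm →
      ((q.drop La).map f).prod = ((q'.drop La).map f).prod → nu q = nu q')

/-- **THE ASSEMBLY** -/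
theorem assembly (A S V : Type) [Finite A] [Monoid S] [Finite S] [AddCommGroup V] [Finite V]
    (f : A → S) (act : V → S → V) (act_one : ∀ x, act x 1 = x)
    (act_mul : ∀ x s t, act x (s * t) = act (act x s) t)
    (act_add : ∀ x y s, act (x + y) s = act x s + act y s)
    (faith : ∀ s t, (∀ x, act x s = act x t) → s = t) (hU : UG A S V f act) (s : S) :
    HL 3 ({w | (w.map f).prod = s} : Language A) := by
  classical
  haveI := Fintype.ofFinite S
  haveI := Fintype.ofFinite V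
  obtain ⟨C0, hC⟩ := hU
  obtain ⟨K, hK⟩ := Crest.Agent.R320.ExactR_237.exact_gadget A S V f act (2 * C0 + 2)
  obtain ⟨N1, Pm, La, c, BadT, lam, rho, nu, hPm, u1, u2, u3, u4, u5, u6, u7, u8⟩ := hC K
  obtain ⟨lam2, rho2, nu2, g1, g2⟩ := hK c u1
  obtain ⟨p0, hp0⟩ : ∃ p0, ∀ k < K, c k ≤ p0 :=
    ⟨∑ k ∈ Finset.range K, c k, fun k hk =>
      Finset.single_le_sum (f := c) (fun _ _ => Nat.zero_le _) (Finset.mem_range.2 hk)⟩
  obtain ⟨n, c', P, Ss, hn, hP, hS, hsep, hper, -⟩ :=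
    FewVal_228.exists_walls A (2 * p0 + 2 * N1 + 1) (by omega)
  let C : Ctx A S V :=
    { f := f, act := act, act_add := act_add, act_mul := act_mul, n := n
      z := 2 * p0 + N1 + n + La + 1, N1 := N1, p0 := p0, La := La, Ss := Ss, BadT := BadT
      lam := lam, rho := rho, nu1 := nu, nu2 := fun u => nu2 u 1, K := K, c := c
      lam2 := lam2, rho2 := fun k q => rho2 k q 1, C0 := C0, W := 2 * p0 + 2 * N1 + 1
      sep := fun w e e' h1 h2 h3 => by
        obtain ⟨a1, a2⟩ := h1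
        obtain ⟨b1, b2⟩ := h2
        have := hsep w (e - n) (e' - n) (by omega) a2 b2
        omega
      hz := le_rfl, hW := by omega, cK := hp0, spaced := u2, thin := u4, lam_len := u5
      sound1 := u6, compl1 := u7
      sound2 := fun k hk P Q v b h1 h2 h3 => by
        have := g1 k hk P Q 1 v b h1 h2 h3
        rw [mul_one] at this
        exact this
      compl2 := fun u v h => g2 u 1 v h }
  exact Ctx.main (C := C) (c := c') (P := P) (Pm := Pm)
    ⟨hn, hP, hS, hper, hPm, u3, u8⟩ act_one faith s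

end Crest.Agent.R320.Asm_415
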