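import Crest.Agent.R320.AsmB_439

/-!
# Row 320: all-words assembly for a wall-free zone gadget, part C: scheme 2 on pairs (helper439)
-/

set_option autoImplicit false

namespace Crest.Agent.R320.AsmC_439

open Crest.RegLang Crest.Agent.R320.Hk_851 Crest.Agent.R320.FewWalls_228
open Crest.Agent.R320.AsmA_439 Crest.Agent.R320.Star_621 Crest.Agent.R320.Two_621
open Crest.Agent.R320.AsmB_439

universe u

variable {α : Type u} {M : Type} [Monoid M] (D : Dt α M)

/-- monoid of zone maps -/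
abbrev Mm (M : Type) : Type := (Function.End (Option (Tok M)))ᵐᵒᵖ

namespace Dt2

open Classical in
/-- product of the two zone maps -/
noncomputable def th2 (w : List α) : Mm M :=
  if h : ∃ p : List α × List α, p.1 ∈ D.Zs ∧ p.2 ∈ D.Zs ∧ w = p.1 ++ p.2 then
    D.st h.choose.1 * D.st h.choose.2 else 1

theorem th2_eq {z1 z2 : List α} (h1 : z1 ∈ D.Zs) (h2 : z2 ∈ D.Zs) :
    th2 D (z1 ++ z2) = D.st z1 * D.st z2 := by
  have h : ∃ p : List α × List α, p.1 ∈ D.Zs ∧ p.2 ∈ D.Zs ∧ z1 ++ z2 = p.1 ++ p.2 :=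
    ⟨(z1, z2), h1, h2, rfl⟩
  unfold th2
  rw [dif_pos h]
  obtain ⟨e1, e2, e3⟩ := h.choose_spec
  have e4 : z1 = h.choose.1 := D.codeZ.2 _ _ _ _ h1 e1 e3
  have e5 : z2 = h.choose.2 := by
    have e3' := e3
    conv_lhs at e3' => rw [e4]
    exact List.append_cancel_left e3'
  rw [← e4, ← e5]

theorem Zs_len {w : List α} (h : w ∈ D.Zs) : D.z ≤ w.length := h.1

theorem Zs_loc {X X' Y : List α} (h1 : X.length = X'.length) (h2 : X.length ≤ D.p0)
    (h : X ++ Y ∈ D.Zs) : X' ++ Y ∈ D.Zs :=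
  Z_loc h1 (by have := D.hz; omega) h

theorem th2_dep {X X' Y : List α} (h1 : X.length = D.p0) (h2 : X'.length = D.p0)
    (he : D.ph X = D.ph X') : th2 D (X ++ Y) = th2 D (X' ++ Y) := by
  have hz := D.hz
  have dec : ∀ X : List α, X.length = D.p0 → ∀ p : List α × List α, p.1 ∈ D.Zs →
      X ++ Y = p.1 ++ p.2 → ∃ Y1, p.1 = X ++ Y1 ∧ Y = Y1 ++ p.2 := by
    intro X hX p hp e
    have hl := Zs_len D hp
    have e1 : p.1.take D.p0 = X := by
      have := congrArg (List.take D.p0) e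
      rw [List.take_left' hX, List.take_append_of_le_length (by omega)] at this
      exact this.symm
    have e2 : p.1 = X ++ p.1.drop D.p0 := by
      conv_lhs => rw [← List.take_append_drop D.p0 p.1, e1]
    refine ⟨p.1.drop D.p0, e2, ?_⟩
    rw [e2, List.append_assoc] at e
    exact List.append_cancel_left e
  by_cases h : ∃ p : List α × List α, p.1 ∈ D.Zs ∧ p.2 ∈ D.Zs ∧ X ++ Y = p.1 ++ p.2
  · obtain ⟨p, hp1, hp2, e⟩ := h
    obtain ⟨Y1, e1, e2⟩ := dec X h1 p hp1 e
    have h3 : X ++ Y1 ∈ D.Zs := e1 ▸ hp1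
    have h4 : X' ++ Y1 ∈ D.Zs := Zs_loc D (by omega) (by omega) h3
    have hl := Zs_len D h3
    rw [List.length_append] at hl
    rw [e2, ← List.append_assoc, ← List.append_assoc, th2_eq D h3 hp2, th2_eq D h4 hp2,
      D.st_dep h1 h2 he (by omega)]
  · have h' : ¬ ∃ p : List α × List α, p.1 ∈ D.Zs ∧ p.2 ∈ D.Zs ∧ X' ++ Y = p.1 ++ p.2 := by
      rintro ⟨p, hp1, hp2, e⟩
      obtain ⟨Y1, e1, e2⟩ := dec X' h2 p hp1 e
      have h3 : X' ++ Y1 ∈ D.Zs := e1 ▸ hp1
      have h4 : X ++ Y1 ∈ D.Zs := Zs_loc D (by omega) (by omega) h3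
      exact h ⟨(X ++ Y1, p.2), h4, hp2, by rw [e2, List.append_assoc]⟩
    unfold th2
    rw [dif_neg h, dif_neg h']

open Classical in
noncomputable def dat (Y : List α) : M → Mm M := fun g =>
  if h : ∃ X : List α, X.length = D.p0 ∧ D.ph X = g then th2 D (h.choose ++ Y) else 1

theorem dat_eq {X Y : List α} (h1 : X.length = D.p0) : dat D Y (D.ph X) = th2 D (X ++ Y) := by
  have h : ∃ X' : List α, X'.length = D.p0 ∧ D.ph X' = D.ph X := ⟨X, h1, rfl⟩
  unfold dat
  rw [dif_pos h]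
  exact th2_dep D h.choose_spec.1 h1 h.choose_spec.2

open Classical in
noncomputable def dat1 (Y : List α) : M → Mm M := fun g =>
  if h : ∃ X : List α, X.length = D.p0 ∧ D.ph X = g then D.st (h.choose ++ Y) else 1

theorem dat_dat1 {z1 z2 : List α} (h1 : z1 ∈ D.Zs) (h2 : z2 ∈ D.Zs) :
    dat D ((z1 ++ z2).drop D.p0) =
      fun g => open Classical in if ∃ X : List α, X.length = D.p0 ∧ D.ph X = g then
        dat1 D (z1.drop D.p0) g * D.st z2 else 1 := by
  funext g
  have hz := D.hz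
  have hl := Zs_len D h1
  by_cases h : ∃ X : List α, X.length = D.p0 ∧ D.ph X = g
  · unfold dat dat1
    rw [dif_pos h, if_pos h, dif_pos h, List.drop_append_of_le_length (by omega),
      ← List.append_assoc]
    have h3 : h.choose ++ z1.drop D.p0 ∈ D.Zs := by
      refine Zs_loc D (X := z1.take D.p0) ?_ ?_ ?_
      · rw [List.length_take, h.choose_spec.1]; omega
      · rw [List.length_take]; omega
      · rw [List.take_append_drop]; exact h1
    exact th2_eq D h3 h2
  · unfold dat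
    rw [dif_neg h, if_neg h]

theorem st_dat1 {z1 : List α} (h1 : z1 ∈ D.Zs) :
    D.st z1 = dat1 D (z1.drop D.p0) (D.ph (z1.take D.p0)) := by
  have hz := D.hz
  have hl := Zs_len D h1
  have h : ∃ X : List α, X.length = D.p0 ∧ D.ph X = D.ph (z1.take D.p0) :=
    ⟨z1.take D.p0, by rw [List.length_take]; omega, rfl⟩
  unfold dat1
  rw [dif_pos h]
  conv_lhs => rw [← List.take_append_drop D.p0 z1]
  refine D.st_dep (by rw [List.length_take]; omega) h.choose_spec.1 h.choose_spec.2.symm ?_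
  rw [List.length_drop]; omega

end Dt2

open Dt2

/-- scheme 2 -/
structure Sc (D : Dt α M) where
  K : ℕ
  c : ℕ → ℕ
  lamE : ℕ → List M → Option (Tok (Mm M))
  rhoE : ℕ → List M → (M → Mm M) → Option (Tok (Mm M))
  nuE : List M → (M → Mm M) → Tok (Mm M)
  hc0 : ∀ k < K, 0 < c k
  hc : ∀ k < K, c k ≤ D.p0
  sE : ∀ k < K, ∀ (P Q : List M) (y : M → Mm M) (v b : Tok (Mm M)), P.length = c k →
    lamE k P = some v → rhoE k Q y = some b → b = act v (y (P ++ Q).prod) + nuE (P ++ Q) y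

namespace Sc

variable {D} (E : Sc D)

def Zc2 (D : Dt α M) : Language α := D.Zc * D.Zc

noncomputable def psi2 (_E : Sc D) : List α → Tok (Mm M) → Tok (Mm M) :=
  aff (th2 D) (fun w => _E.nuE ((w.take D.p0).map D.f) (dat D (w.drop D.p0)))

theorem psi2_def (w : List α) (x : Tok (Mm M)) :
    E.psi2 w x = act x (th2 D w) + E.nuE ((w.take D.p0).map D.f) (dat D (w.drop D.p0)) := rfl

def L2 (x : Tok (Mm M)) : Language α :=
  {P | ∃ k < E.K, P.length = E.c k ∧ E.lamE k (P.map D.f) = some x}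

def R2 (y : Tok (Mm M)) : Language α :=
  {Q | ∀ x, ∀ P ∈ E.L2 x, (∃ z1 ∈ D.Zs, z1 <+: P ++ Q) ∧
    ((∀ z1 ∈ D.Zc, ¬ z1 <+: P ++ Q) ∨ (P ++ Q ∈ Zc2 D ∧ E.psi2 (P ++ Q) x = y))}

theorem pref_unique {z1 z2 w : List α} (h1 : z1 ∈ D.Zs) (h2 : z2 ∈ D.Zs)
    (p1 : z1 <+: w) (p2 : z2 <+: w) : z1 = z2 := by
  obtain ⟨x, rfl⟩ := p1
  obtain ⟨y, e⟩ := p2
  exact D.codeZ.2 _ _ _ _ h1 h2 e.symm

theorem code2 : Code (Zc2 D) := by
  refine ⟨fun h => ?_, ?_⟩
  · obtain ⟨a, ha, b, hb, e⟩ := Language.mem_mul.1 h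
    have : a = [] := (List.append_eq_nil_iff.1 e).1
    subst this
    exact D.codeZ.1 (D.Zc_sub _ ha)
  · intro w w' x x' h h' e
    obtain ⟨a, ha, b, hb, rfl⟩ := Language.mem_mul.1 h
    obtain ⟨a', ha', b', hb', rfl⟩ := Language.mem_mul.1 h'
    rw [List.append_assoc, List.append_assoc] at e
    have e1 := D.codeZ.2 _ _ _ _ (D.Zc_sub _ ha) (D.Zc_sub _ ha') e
    subst e1
    have e2 := D.codeZ.2 _ _ _ _ (D.Zc_sub _ hb) (D.Zc_sub _ hb') (List.append_cancel_left e)
    rw [e2]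

theorem sound2 : Sound (Zc2 D) E.psi2 E.L2 E.R2 := by
  refine ⟨fun ω h => ?_, ?_⟩
  · obtain ⟨k, hk, h1, _⟩ := h
    have := E.hc0 k hk
    rw [List.length_nil] at h1
    omega
  · intro ω τ P Q w x y hP hQ hw e
    obtain ⟨_, h2⟩ := hQ ω P hP
    rcases h2 with h2 | ⟨h2, h3⟩
    · exfalso
      obtain ⟨a, ha, b, hb, rfl⟩ := Language.mem_mul.1 hw
      -- the first block of `P ++ Q` is `a`
      obtain ⟨⟨z1, hz1, p1⟩, _⟩ := hQ ω P hP
      have e1 : z1 = a := by
        refine pref_unique (D := D) hz1 (D.Zc_sub _ ha) (w := P ++ Q ++ x) ?_ ?_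
        · exact p1.trans (List.prefix_append _ _)
        · rw [e, List.append_assoc]; exact List.prefix_append _ _
      exact h2 a ha (e1 ▸ p1)
    · have e1 := (code2 (D := D)).2 _ _ _ _ h2 hw e
      exact ⟨e1, by rw [← h3, e1]⟩

section
variable [Finite α] [Finite M]

theorem L2_fin (x : Tok (Mm M)) : (E.L2 x : Set (List α)).Finite := by
  refine (List.finite_length_le α D.p0).subset ?_
  rintro P ⟨k, hk, h1, _⟩
  show P.length ≤ D.p0
  rw [h1]; exact E.hc k hk

theorem HL_Zc2 : HL 1 (Zc2 D) := D.HL_Zc.mul D.HL_Zc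

theorem HL_A (u : List α) (hu : u.length = D.p0) (δ : M → Mm M) :
    HL 1 ({w | w ∈ D.Zs ∧ w.take D.p0 = u ∧ dat1 D (w.drop D.p0) = δ} : Language α) := by
  classical
  have hz := D.hz
  have key : ∀ g : M, HL 1 ({w | w ∈ D.Zs ∧ w.take D.p0 = u ∧
      dat1 D (w.drop D.p0) g = δ g} : Language α) := by
    intro g
    by_cases h : ∃ X : List α, X.length = D.p0 ∧ D.ph X = g
    · have h1 := HL.lquot h.choose (D.HL_st (δ g))
      refine ((HL.word (k := 1) u).mul h1).congr fun w => ?_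
      constructor
      · rintro ⟨hw, e1, e2⟩
        refine Language.mem_mul.2 ⟨u, rfl, w.drop D.p0, ?_, ?_⟩
        · refine ⟨?_, ?_⟩
          · refine Zs_loc D (X := w.take D.p0) ?_ ?_ ?_
            · rw [e1, hu, h.choose_spec.1]
            · rw [e1, hu]
            · rw [List.take_append_drop]; exact hw
          · unfold dat1 at e2
            rw [dif_pos h] at e2
            exact e2
        · rw [← e1, List.take_append_drop]
      · intro hw
        obtain ⟨a, ha, b, hb, rfl⟩ := Language.mem_mul.1 hw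
        have ha' : a = u := ha
        subst ha'
        refine ⟨Zs_loc D (X := h.choose) ?_ ?_ hb.1, List.take_left' hu, ?_⟩
        · rw [hu, h.choose_spec.1]
        · rw [h.choose_spec.1]
        · unfold dat1
          rw [dif_pos h, List.drop_left' hu]
          exact hb.2
    · have h1 : HL 1 ({w | w ∈ D.Zs ∧ w.take D.p0 = u} : Language α) := by
        refine (D.HL_Zs.inf ((HL.word (k := 1) u).mul HL.top)).congr fun w => ?_
        constructor
        · rintro ⟨hw, e1⟩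
          exact ⟨hw, Language.mem_mul.2 ⟨u, rfl, w.drop D.p0, trivial, by
            rw [← e1, List.take_append_drop]⟩⟩
        · rintro ⟨hw, h2⟩
          obtain ⟨a, ha, b, hb, rfl⟩ := Language.mem_mul.1 h2
          have ha' : a = u := ha
          subst ha'
          exact ⟨hw, List.take_left' hu⟩
      refine (h1.inf (HL.const ((1 : Mm M) = δ g))).congr fun w => ?_
      constructor
      · rintro ⟨hw, e1, e2⟩
        refine ⟨⟨hw, e1⟩, ?_⟩
        unfold dat1 at e2
        rw [dif_neg h] at e2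
        exact e2
      · rintro ⟨⟨hw, e1⟩, e2⟩
        refine ⟨hw, e1, ?_⟩
        unfold dat1
        rw [dif_neg h]
        exact e2
  refine ((D.HL_Zs.inf ((HL.word (k := 1) u).mul HL.top)).inf (HL.iInter key)).congr fun w => ?_
  constructor
  · rintro ⟨hw, e1, e2⟩
    refine ⟨⟨hw, Language.mem_mul.2 ⟨u, rfl, w.drop D.p0, trivial, by
      rw [← e1, List.take_append_drop]⟩⟩, fun g => ⟨hw, e1, by rw [e2]⟩⟩
  · rintro ⟨⟨hw, _⟩, h⟩
    exact ⟨hw, (h 1).2.1, funext fun g => (h g).2.2⟩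

theorem psi2_data {z1 z2 z1' z2' : List α} (h1 : z1 ∈ D.Zs) (h2 : z2 ∈ D.Zs) (h1' : z1' ∈ D.Zs)
    (h2' : z2' ∈ D.Zs) (e1 : z1.take D.p0 = z1'.take D.p0)
    (e2 : dat1 D (z1.drop D.p0) = dat1 D (z1'.drop D.p0)) (e3 : D.st z2 = D.st z2')
    (x : Tok (Mm M)) : E.psi2 (z1 ++ z2) x = E.psi2 (z1' ++ z2') x := by
  have hz := D.hz
  have hl := Zs_len D h1
  have hl' := Zs_len D h1'
  rw [psi2_def, psi2_def, th2_eq D h1 h2, th2_eq D h1' h2', dat_dat1 D h1 h2, dat_dat1 D h1' h2',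
    st_dat1 D h1, st_dat1 D h1', e2, e3, List.take_append_of_le_length (by omega),
    List.take_append_of_le_length (by omega), e1]

theorem HL_val2 (x y : Tok (Mm M)) :
    HL 1 ({w | w ∈ Zc2 D ∧ E.psi2 w x = y} : Language α) := by
  classical
  have hz := D.hz
  have : Finite (Function.End (Option (Tok M))) :=
    inferInstanceAs (Finite (Option (Tok M) → Option (Tok M)))
  have : Finite (Mm M) := Finite.of_equiv _ MulOpposite.opEquiv
  have : Finite {u : List α // u.length = D.p0} :=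
    ((List.finite_length_eq α D.p0)).to_subtype
  let ι := {u : List α // u.length = D.p0} × (M → Mm M) × Mm M
  let F : ι → Prop := fun i => ∃ z1 z2 : List α, z1 ∈ D.Zc ∧ z2 ∈ D.Zc ∧
    z1.take D.p0 = i.1.1 ∧ dat1 D (z1.drop D.p0) = i.2.1 ∧ D.st z2 = i.2.2 ∧
    E.psi2 (z1 ++ z2) x = y
  refine (HL.iUnion fun i : {i : ι // F i} =>
    (D.HL_Zc.inf (HL_A (D := D) i.1.1.1 i.1.1.2 i.1.2.1)).mul
      (D.HL_Zc.inf (D.HL_st i.1.2.2))).congr fun w => ?_
  constructor
  · rintro ⟨hw, he⟩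
    obtain ⟨a, ha, b, hb, rfl⟩ := Language.mem_mul.1 hw
    have hl := Zs_len D (D.Zc_sub _ ha)
    refine ⟨⟨(⟨a.take D.p0, by rw [List.length_take]; omega⟩, dat1 D (a.drop D.p0), D.st b),
      a, b, ha, hb, rfl, rfl, rfl, he⟩, ?_⟩
    exact Language.mem_mul.2 ⟨a, ⟨ha, D.Zc_sub _ ha, rfl, rfl⟩, b, ⟨hb, D.Zc_sub _ hb, rfl⟩, rfl⟩
  · rintro ⟨⟨i, z1, z2, h1, h2, e1, e2, e3, e4⟩, hw⟩
    obtain ⟨a, ⟨ha, ha1, ha2, ha3⟩, b, ⟨hb, hb1, hb2⟩, rfl⟩ := Language.mem_mul.1 hw
    refine ⟨Language.mem_mul.2 ⟨a, ha, b, hb, rfl⟩, ?_⟩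
    rw [← e4]
    exact E.psi2_data ha1 hb1 (D.Zc_sub _ h1) (D.Zc_sub _ h2) (ha2.trans e1.symm)
      (ha3.trans e2.symm) (hb2.trans e3.symm) x

theorem HL_R2 (y : Tok (Mm M)) : HL 1 (E.R2 y) := by
  have : Finite (Function.End (Option (Tok M))) :=
    inferInstanceAs (Finite (Option (Tok M) → Option (Tok M)))
  have : Finite (Mm M) := Finite.of_equiv _ MulOpposite.opEquiv
  have h := fun x : Tok (Mm M) => HL.biInter (E.L2_fin x) fun P _ =>
    HL.lquot P (HL.setOf_and (D.HL_Zs.prefix) (HL.setOf_or (D.HL_Zc.prefix).compl (E.HL_val2 x y)))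
  refine (HL.iInter h).congr fun w => ?_
  constructor
  · intro hw x P hP
    obtain ⟨h1, h2⟩ := hw x P hP
    refine ⟨h1, ?_⟩
    rcases h2 with h2 | h2
    · left
      rintro ⟨z1, hz1, hp⟩
      exact h2 z1 hz1 hp
    · exact Or.inr h2
  · intro hw x P hP
    obtain ⟨h1, h2⟩ := hw x P hP
    refine ⟨h1, ?_⟩
    rcases h2 with h2 | h2
    · left
      intro z1 hz1 hp
      exact h2 ⟨z1, hz1, hp⟩
    · exact Or.inr h2

end

/-- completeness of scheme 2 on pairs of critical zones -/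
theorem cut2 (Rr : ℕ)
    (cE : ∀ (u : List M) (y : M → Mm M) (v : Tok (Mm M)), (∀ k < E.K, E.c k ≤ u.length) →
      ∃ I : Finset ℕ, Rr ≤ I.card ∧ ∀ k ∈ I, k < E.K ∧ E.lamE k (u.take (E.c k)) = some v ∧
        (E.rhoE k (u.drop (E.c k)) y).isSome)
    (unsp : ∀ w ∈ Zc2 D, ∀ I : Finset ℕ, (∀ k ∈ I, k < E.K) → Rr ≤ I.card →
      ∃ k ∈ I, ∀ k' < E.K, k' ≠ k → ∀ P' : List α, P'.length = E.c k' →
        ∃ z1 ∈ D.Zs, z1 ∉ D.Zc ∧ z1 <+: P' ++ w.drop (E.c k))
    (w : List α) (hw : w ∈ Zc2 D) (x : Tok (Mm M)) : Cut E.L2 E.R2 x w := by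
  have hz := D.hz
  obtain ⟨z1, hz1, z2, hz2, ew⟩ := Language.mem_mul.1 hw
  have hl := Zs_len D (D.Zc_sub _ hz1)
  have hwl : D.p0 ≤ w.length := by rw [← ew, List.length_append]; omega
  have hul : ((w.take D.p0).map D.f).length = D.p0 := by
    rw [List.length_map, List.length_take]; omega
  obtain ⟨I, hI, hI2⟩ := cE ((w.take D.p0).map D.f) (dat D (w.drop D.p0)) x
    (fun k hk => by rw [hul]; exact E.hc k hk)
  obtain ⟨k, hk, hun⟩ := unsp w hw I (fun k hk => (hI2 k hk).1) hI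
  obtain ⟨hkK, hlam, hrho⟩ := hI2 k hk
  have hck := E.hc k hkK
  obtain ⟨b, hb⟩ := Option.isSome_iff_exists.1 hrho
  refine ⟨w.take (E.c k), w.drop (E.c k), E.psi2 w x, (List.take_append_drop _ _).symm, ?_, ?_⟩
  · refine ⟨k, hkK, by rw [List.length_take]; omega, ?_⟩
    rw [← List.map_take, List.take_take, Nat.min_eq_left hck] at hlam
    exact hlam
  · rintro x' P' ⟨k', hk', hP'1, hP'2⟩
    by_cases hkk : k' = k
    · subst hkk
      -- the first block behind the candidate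
      have hPl : P'.length ≤ D.p0 := by omega
      have e1 : P' ++ w.drop (E.c k') = (P' ++ z1.drop (E.c k')) ++ z2 := by
        rw [← ew, List.drop_append_of_le_length (by omega), List.append_assoc]
      have hz1' : P' ++ z1.drop (E.c k') ∈ D.Zs := by
        refine Zs_loc D (X := z1.take (E.c k')) ?_ ?_ ?_
        · rw [List.length_take, hP'1]; omega
        · rw [List.length_take]; omega
        · rw [List.take_append_drop]; exact D.Zc_sub _ hz1
      refine ⟨⟨_, hz1', by rw [e1]; exact List.prefix_append _ _⟩, ?_⟩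
      by_cases hc : P' ++ z1.drop (E.c k') ∈ D.Zc
      · right
        refine ⟨by rw [e1]; exact Language.mem_mul.2 ⟨_, hc, _, hz2, rfl⟩, ?_⟩
        -- values
        have hdrop : (P' ++ w.drop (E.c k')).drop D.p0 = w.drop D.p0 := by
          rw [List.drop_append, List.drop_eq_nil_of_le hPl, List.nil_append, List.drop_drop, hP'1]
          congr 1; omega
        have htake : (P' ++ w.drop (E.c k')).take D.p0 =
            P' ++ (w.take D.p0).drop (E.c k') := by
          rw [List.take_append, List.take_of_length_le hPl, List.drop_take, hP'1]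
        have v1 := E.sE k' hkK (P'.map D.f) (((w.take D.p0).map D.f).drop (E.c k'))
          (dat D (w.drop D.p0)) x' b (by rw [List.length_map, hP'1]) hP'2 hb
        have v2 := E.sE k' hkK (((w.take D.p0).map D.f).take (E.c k'))
          (((w.take D.p0).map D.f).drop (E.c k'))
          (dat D (w.drop D.p0)) x b (by rw [List.length_take, hul]; omega) hlam hb
        rw [List.take_append_drop] at v2
        have t2 : ((w.take D.p0).map D.f).prod = D.ph (w.take D.p0) := rfl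
        rw [t2, dat_eq D (by rw [List.length_take]; omega), List.take_append_drop] at v2
        have t1 : P'.map D.f ++ ((w.take D.p0).map D.f).drop (E.c k') =
            (P' ++ (w.take D.p0).drop (E.c k')).map D.f := by
          rw [List.map_append, List.map_drop]
        have t3 : ((P' ++ (w.take D.p0).drop (E.c k')).map D.f).prod =
          D.ph (P' ++ (w.take D.p0).drop (E.c k')) := rfl
        rw [t1, t3, ← htake, ← hdrop, dat_eq D, List.take_append_drop] at v1
        · rw [psi2_def, psi2_def, ← v1, ← v2]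
        · rw [htake, List.length_append, List.length_drop, List.length_take, hP'1]; omega
      · left
        intro z hz' hp
        have : z = P' ++ z1.drop (E.c k') :=
          pref_unique (D := D) (D.Zc_sub _ hz') hz1' hp (by rw [e1]; exact List.prefix_append _ _)
        exact hc (this ▸ hz')
    · obtain ⟨z', hz', hnc, hp⟩ := hun k' hk' hkk P' hP'1
      refine ⟨⟨z', hz', hp⟩, Or.inl ?_⟩
      intro z hz'' hp'
      have : z = z' := pref_unique (D := D) (D.Zc_sub _ hz'') hz' hp' hp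
      exact hnc (this ▸ hz'')

end Sc

end Crest.Agent.R320.AsmC_439
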