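import Crest.Agent.R320.AsmB_467

/-!
# Row 320, assembly, part C: heights and the final statement from one gadget (helper467)
-/

set_option autoImplicit false

namespace Crest.Agent.R320.Asm467

open Crest.RegLang Crest.Agent.R320.Hk_851 Crest.Agent.R320.Blk467
  Crest.Agent.R320.Pump_360 Crest.Agent.R320.CompR_11

/-- the zone gadget for all words (852 #13483 / 693 #13203) -/
def Gad (α S V : Type) [Monoid S] [AddCommGroup V] (f : α → S) (act : V → S → V) : Prop :=
  ∃ C0 : ℕ, ∀ K : ℕ, ∃ (N M0 : ℕ) (c : ℕ → ℕ) (BadT : ℕ → Prop)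
    (lam rho : List α → Option V) (nu : List α → V), 0 < N ∧ 0 < M0 ∧
    (∀ P v, lam P = some v → P.length < N) ∧
    (∀ P Q v b, lam P = some v → rho Q = some b →
      act v ((P ++ Q).map f).prod + nu (P ++ Q) = b) ∧
    (∀ X v, N ≤ X.length → ¬ BadT X.length →
      ∃ P Q b, P ++ Q = X ∧ lam P = some v ∧ rho Q = some b) ∧
    (∀ T, BadT (T + M0) ↔ BadT T) ∧
    (∀ u u' : List α, N ≤ u.length → N ≤ u'.length → u.take N = u'.take N →
      u.length % M0 = u'.length % M0 → (u.map f).prod = (u'.map f).prod → nu u = nu u') ∧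
    (∀ i j, i < j → j < K → c i < c j) ∧
    (∀ i j k l, i < K → j < K → k < K → l < K → i ≠ j → k ≠ l →
      (c i : ℤ) - c j ≤ c k - c l + 2 * N → (c k : ℤ) - c l ≤ c i - c j + 2 * N →
      i = k ∧ j = l) ∧
    (∀ T : ℕ, (∀ i < K, c i ≤ T) → ∀ F : Finset (ℕ × ℕ),
      (∀ q ∈ F, q.1 < K ∧ q.2 < K ∧ q.1 ≠ q.2 ∧ BadT (T + c q.2 - c q.1)) → F.card ≤ C0)

theorem per_mod {BadT : ℕ → Prop} {M0 : ℕ} (h : ∀ T, BadT (T + M0) ↔ BadT T) (a y y' : ℕ)
    (e : y % M0 = y' % M0) : BadT (a + y) ↔ BadT (a + y') := by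
  have hk : ∀ k T, BadT (T + M0 * k) ↔ BadT T := by
    intro k
    induction k with
    | zero => intro T; simp
    | succ k ih =>
      intro T
      rw [Nat.mul_succ, ← Nat.add_assoc, h, ih]
  have e1 : a + y = a + y % M0 + M0 * (y / M0) := by
    rw [Nat.add_assoc, Nat.mod_add_div]
  have e2 : a + y' = a + y' % M0 + M0 * (y' / M0) := by
    rw [Nat.add_assoc, Nat.mod_add_div]
  rw [e1, e2, hk, hk, e]

/-- **the row for one monoid, from the gadget** -/
theorem asm {α S V : Type} [Finite α] [Monoid S] [Finite S] [AddCommGroup V] [Finite V]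
    (f : α → S) (act : V → S → V)
    (hadd : ∀ a b s, act (a + b) s = act a s + act b s)
    (hone : ∀ v, act v 1 = v) (hmul : ∀ v s t, act v (s * t) = act (act v s) t)
    (hfaith : ∀ s t, (∀ v, act v s = act v t) → s = t)
    (hgad : Gad α S V f act) (s : S) :
    HL 3 ({w | (w.map f).prod = s} : Language α) := by
  classical
  haveI := Fintype.ofFinite S
  haveI := Fintype.ofFinite V
  obtain ⟨C0, hgad⟩ := hgad
  obtain ⟨K, hK⟩ := Crest.Agent.R320.ExactR_237.exact_gadget α S V f act (2 * C0 + 2)
  obtain ⟨N, M0, c, BadT, lam, rho, nu1, hN, hM0, hlam, hs, hc, hper, hnu, hcinc, hruler,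
    hspoil⟩ := hgad K
  obtain ⟨lam2, rho2', nu2', hs2', hc2'⟩ := hK c hcinc
  let D : ℕ := (Finset.range K).sup c
  have hcD : ∀ k < K, c k ≤ D := fun k hk => Finset.le_sup (f := c) (Finset.mem_range.2 hk)
  obtain ⟨n, Wo, hloc, hn, hgap, R, B, hp⟩ :=
    Crest.Agent.R320.WallU_228.walls (α := α) (2 * D + 2 * N)
  let p : ℕ := D
  let z : ℕ := 4 * D + 2 * N + n + 1
  let nu2 : List α → V := fun u => nu2' u 1
  let rho2 : ℕ → List α → Option V := fun k Q => rho2' k Q 1
  let T : V → List α → V := TT f act p nu1 nu2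
  let Bad : Set (List α) := BadS Wo z N p BadT
  have hC : PCode (XX Wo z) := pcode (by omega)
  -- dependence on the prefix, the product and the length
  have hTdep : ∀ (v : V) (u Y Y' : List α), u.length = z + N → (Y.map f).prod = (Y'.map f).prod →
      Y.length % M0 = Y'.length % M0 → T v (u ++ Y) = T v (u ++ Y') := by
    intro v u Y Y' hu h1 h2
    change TT f act p nu1 nu2 v (u ++ Y) = TT f act p nu1 nu2 v (u ++ Y')
    rw [T_eq hadd hmul, T_eq hadd hmul]
    have e1 : ∀ Y : List α, (u ++ Y).take p = u.take p := fun Y =>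
      List.take_append_of_le_length (by omega)
    have e2 : ∀ Y : List α, (u ++ Y).drop p = u.drop p ++ Y := fun Y =>
      List.drop_append_of_le_length (by omega)
    have hud : (u.drop p).length = z + N - p := by rw [List.length_drop, hu]
    have e3 : ((u.drop p ++ Y).map f).prod = ((u.drop p ++ Y').map f).prod := by
      rw [List.map_append, List.prod_append, List.map_append, List.prod_append, h1]
    have e4 : nu1 (u.drop p ++ Y) = nu1 (u.drop p ++ Y') := by
      refine hnu _ _ ?_ ?_ ?_ ?_ e3
      · rw [List.length_append]; omega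
      · rw [List.length_append]; omega
      · rw [List.take_append_of_le_length (by omega), List.take_append_of_le_length (by omega)]
      · rw [List.length_append, List.length_append, Nat.add_mod, h2, ← Nat.add_mod]
    rw [e1, e1, e2, e2, e3, e4]
  have hBdep : ∀ (u Y Y' : List α), u.length = z + N → Y.length % M0 = Y'.length % M0 →
      (¬ NotE Wo z N (u ++ Y) ∨ BadT ((u ++ Y).length - p)) →
      (¬ NotE Wo z N (u ++ Y') ∨ BadT ((u ++ Y').length - p)) := by
    intro u Y Y' hu h2 h
    rcases h with h | h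
    · left
      intro hne
      apply h
      intro t ht hw
      by_contra hcon
      rw [not_or] at hcon
      have ht2 : t ≤ u.length := by omega
      rw [List.take_append_of_le_length ht2] at hw
      have := hne t (by rw [List.length_append]; omega)
        (by rw [List.take_append_of_le_length ht2]; exact hw)
      rcases this with h1 | h1
      · exact hcon.1 h1
      · exact hcon.2 h1
    · right
      have e : ∀ Y : List α, (u ++ Y).length - p = (z + N - p) + Y.length := by
        intro Y
        rw [List.length_append, hu]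
        omega
      rw [e] at h ⊢
      exact (per_mod hper _ _ _ h2).1 h
  -- base languages
  have hb1 : ∀ x b, HL 1 ({X | X ∈ XX Wo z ∧ T x X = b} : Language α) := fun x b =>
    base f hM0 hloc hn hp z (z + N) (fun X => T x X = b) (fun u Y Y' hu h1 h2 hG => by
      rw [← hTdep x u Y Y' hu h1 h2]; exact hG)
  have hb2 : HL 1 (Bad : Language α) :=
    base f hM0 hloc hn hp z (z + N) (fun X => ¬ NotE Wo z N X ∨ BadT (X.length - p))
      (fun u Y Y' hu _ h2 hG => hBdep u Y Y' hu h2 hG)
  have hb3 : ∀ x b, HL 1 ({X | X ∈ Bad ∧ T x X = b} : Language α) := by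
    intro x b
    refine (hb2.inf (hb1 x b)).congr fun X => ?_
    constructor
    · rintro ⟨h1, h2⟩; exact ⟨h1, h1.1, h2⟩
    · rintro ⟨h1, _, h2⟩; exact ⟨h1, h2⟩
  have hb4 : HL 1 ({X | X ∈ XX Wo z ∧ X ∉ Bad} : Language α) := by
    refine ((HL.mono (Nat.zero_le 1) (HL_XX hloc hn z)).sdiff hb2).congr fun X => ?_
    exact Iff.rfl
  let L1 : V → Language α := LP1 f act p N nu2 lam
  let L2 : V → Language α := LP2 K c lam2
  have hfin1 : ∀ v, (L1 v : Set (List α)).Finite := fun v =>
    (List.finite_length_le α (p + N)).subset fun P hP => le_of_lt hP.2.1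
  have hfin2 : ∀ v, (L2 v : Set (List α)).Finite := fun v =>
    (List.finite_length_le α D).subset fun P hP => by
      obtain ⟨k, hk, hl, _⟩ := hP
      change P.length ≤ D
      rw [hl]; exact hcD k hk
  have hR1 : ∀ b, HL 1 (RQ1 (XX Wo z) T L1 b) := by
    intro b
    refine (HL.iInter (k := 1) (ι := V) (L := fun x => ({Q | ∀ P ∈ (L1 x : Set (List α)),
      Q ∈ ({Q | P ++ Q ∈ ({X | X ∈ XX Wo z ∧ T x X = b} : Language α)} : Language α)} :
        Language α)) (fun x => HL.biInter (hfin1 x) fun P _ => (hb1 x b).lquot P)).congr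
      fun w => ?_
    constructor
    · intro hw x P hP; exact hw x P hP
    · intro hw x P hP; exact hw x P hP
  have hR2 : ∀ b, HL 1 (RQ2 (XX Wo z) Bad T L2 b) := by
    intro b
    let F1 : V → V → Language α := fun x y => {X | X ∈ Bad ∧ T x X = y}
    let D2 : V → Language α := fun x => {w | ∃ y : V, w ∈ (F1 x y * F1 y b : Language α)}
    have hD2 : ∀ x, HL 1 (D2 x) := fun x => HL.iUnion (k := 1) (ι := V)
      (L := fun y => F1 x y * F1 y b) (fun y => (hb3 x y).mul (hb3 y b))
    let G4 : Language α := {X | X ∈ XX Wo z ∧ X ∉ Bad}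
    have hG4 : HL 1 ({w | ∃ v ∈ G4, v <+: w} : Language α) := HL.prefix (L := G4) hb4
    refine (HL.iInter (k := 1) (ι := V) (L := fun x => ({Q | ∀ P ∈ (L2 x : Set (List α)),
      Q ∈ ({Q | P ++ Q ∈ (D2 x ⊔ ({w | ∃ v ∈ G4, v <+: w} : Language α) : Language α)} :
        Language α)} : Language α))
      (fun x => HL.biInter (hfin2 x) fun P _ => ((hD2 x).sup hG4).lquot P)).congr fun w => ?_
    constructor
    · intro hw x P hP
      rcases hw x P hP with ⟨X, hX, X', hX', e, hT⟩ | ⟨X, hX, hXb, hp⟩
      · left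
        exact ⟨T x X, Language.mem_mul.2 ⟨X, ⟨hX, rfl⟩, X', ⟨hX', hT⟩, e.symm⟩⟩
      · right
        exact ⟨X, ⟨hX, hXb⟩, hp⟩
    · intro hw x P hP
      rcases hw x P hP with ⟨y, hy⟩ | ⟨X, ⟨hX, hXb⟩, hp⟩
      · left
        obtain ⟨X, ⟨hX, hT⟩, X', ⟨hX', hT'⟩, e⟩ := Language.mem_mul.1 hy
        refine ⟨X, hX, X', hX', e.symm, ?_⟩
        rw [hT]; exact hT'
      · right
        exact ⟨X, hX, hXb, hp⟩
  -- the tail
  have htail : ∀ s, HL 1 ({w | (∀ X ∈ XX Wo z, ¬ X <+: w) ∧ (w.map f).prod = s} :
      Language α) := by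
    intro s
    let A : Language α := {w | ∀ X ∈ XX Wo z, ¬ X <+: w}
    have hA : HL 0 A := by
      refine (HL.prefix (HL_XX hloc hn z)).compl.congr fun w => ?_
      constructor
      · rintro h ⟨X, hX, hp⟩; exact h X hX hp
      · intro h X hX hp; exact h ⟨X, hX, hp⟩
    let FS : Language α := Fib f 1 s 0
    have hreg : HL 1 (FS ⊓ A) := by
      refine Crest.Agent.R320.RegBd_11.reg_pieces_rel (fib_reg f 1 one_pos s 0)
        (Crest.Agent.R320.FO_461.HL.isRegular hA) (R + 1) (max B z) fun w hw => ?_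
      -- no wall at a place `≥ z`
      have hno : ∀ t, z ≤ t → t ≤ w.length → ¬ Wo (w.take t) := by
        intro t h1 h2 h3
        have hex : ∃ t, z ≤ t ∧ t ≤ w.length ∧ Wo (w.take t) := ⟨t, h1, h2, h3⟩
        obtain ⟨m1, m2, m3⟩ := Nat.find_spec hex
        refine hw (w.take (Nat.find hex)) ⟨m3, ?_, ?_⟩ (List.take_prefix _ _)
        · rw [List.length_take]; omega
        · intro t ht hzt hwt
          rw [List.length_take] at ht
          rw [List.take_take, min_eq_left (by omega)] at hwt
          exact Nat.find_min hex (m := t) (by omega) ⟨hzt, by omega, hwt⟩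
      by_cases hlz : w.length ≤ z
      · refine ⟨[(w, [], 0)], by simp, ?_, ?_⟩
        · intro t ht
          rw [List.mem_singleton] at ht
          subst ht
          exact ⟨hlz.trans (le_max_right _ _), by simp⟩
        · rw [val_cons, pw_zero, val_nil, List.append_nil, List.append_nil]
      · have hu : ∀ t < (w.drop z).length, ¬ Wo ((w.drop z).take t) := by
          intro t ht hwt
          have hnt := hn _ hwt
          rw [List.length_take] at hnt
          rw [List.length_drop] at ht
          have hlz2 : (w.take z).length = z := by rw [List.length_take]; omega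
          have := (wt hloc (w.take z) (w.drop z) t (by omega)
            (by rw [List.length_drop]; omega)).2 hwt
          rw [List.take_append_drop, hlz2] at this
          exact hno _ (by omega) (by omega) this
        obtain ⟨l, hl, hb, e⟩ := hp _ hu
        refine ⟨(w.take z, [], 0) :: l, by simpa using hl, ?_, ?_⟩
        · intro t ht
          rcases List.mem_cons.1 ht with rfl | ht
          · refine ⟨?_, by simp⟩
            simp only [List.length_take]
            omega
          · exact ⟨(hb t ht).1.trans (le_max_left _ _), (hb t ht).2.trans (le_max_left _ _)⟩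
        · rw [val_cons, pw_zero, List.append_nil, ← e, List.take_append_drop]
    refine hreg.congr fun w => ?_
    constructor
    · rintro ⟨h1, h2⟩; exact ⟨⟨h2, Nat.mod_one _⟩, h1⟩
    · rintro ⟨⟨h1, _⟩, h2⟩; exact ⟨h2, h1⟩
  refine Crest.Agent.R320.Top5_467.top5 (S := S) f act hadd hone hmul hfaith
    (nuX f act p nu1 nu2) (XX Wo z) Bad hC (fun X hX => hX.1) L1 (RQ1 (XX Wo z) T L1) L2
    (RQ2 (XX Wo z) Bad T L2) ?_ ?_ ?_ ?_ hb2 (fun v => HL.finite (hfin2 v)) hR2
    (fun v => HL.finite (hfin1 v)) (fun b => HL.mono (by omega) (hR1 b))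
    (fun v v' => HL.mono (by omega) (hb3 v v')) (fun s => HL.mono (by omega) (htail s)) s
  · -- s1
    intro v b P Q hP hQ
    exact hQ v P hP
  · -- c1
    intro X hX hXb v
    exact c1_aux hadd hmul hloc hN (by omega) hlam hs hc hX hXb v
  · -- s2
    intro v b P Q r hP hQ hr
    obtain ⟨l, hl, e⟩ := hr
    rcases hQ v P hP with ⟨X, hX, X', hX', e2, hT⟩ | ⟨X, hX, hXb, hp⟩
    · refine ⟨[X, X'], ?_, by simp [e2], hT⟩
      intro Y hY
      rcases List.mem_cons.1 hY with rfl | hY
      · exact hX
      · rw [List.mem_singleton] at hY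
        exact hY ▸ hX'
    · exfalso
      obtain ⟨y, hy⟩ := hp
      have e3 : X ++ (y ++ r) = l.flatten := by rw [e, ← hy, List.append_assoc]
      obtain ⟨l', rfl, _⟩ := Crest.Agent.R320.Top5_467.PCode.first hC hX l
        (fun Y hY => (hl Y hY).1) e3
      exact hXb (hl X (by simp))
  · -- c2
    intro X hX X' hX' v
    refine c2_aux (K := K) (C0 := C0) (D := D) (Wg := 2 * D + 2 * N) (rho2 := rho2) hadd hmul
      hloc hgap hcD le_rfl le_rfl (by omega) hN hruler hspoil ?_ ?_ hX hX' v
    · intro k hk P Q v b hP h1 h2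
      have := hs2' k hk P Q 1 v b hP h1 h2
      rw [mul_one] at this
      exact this
    · intro u v hu
      exact hc2' u 1 v hu

end Crest.Agent.R320.Asm467
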