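import Crest.Agent.R320.Star_903

/-!
HALF 1 interface (helper961): two zone schemes on ONE chain, run-free words => height 2.
-/

set_option autoImplicit false

namespace Crest.Agent.R320.Half1_961

open Crest.RegLang Crest.Agent.R320.Hgt1_903 Crest.Agent.R320.Star_903

/-- chain rule on the text from an anchor: `nx Q = some d` : the next anchor is `d` letters further, and this is
seen inside `Q` (right-looking window `n`). -/
structure Chain (α : Type*) where
  nx : List α → Option ℕ
  n : ℕ
  ext : ∀ Q Q' d, nx Q = some d → nx (Q ++ Q') = some d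
  vis : ∀ Q d, nx Q = some d → 0 < d ∧ d + n ≤ Q.length
  tight : ∀ Q Q' d, nx (Q ++ Q') = some d → d + n ≤ Q.length → nx Q = some d

/-- push forward of a token vector. -/
noncomputable def push {X Y : Type*} [Finite X] (f : X → Y) (h : X → ZMod 2) : Y → ZMod 2 := by
  classical
  haveI := Fintype.ofFinite X
  exact fun y => ∑ x with f x = y, h x

/-- `S`-tokens: zone map of scheme 1 (`V1 = S → ZMod 2`). -/
noncomputable def T1 {α S : Type*} [Monoid S] [Finite S] (φ : List α → S) (ν : List α → S → ZMod 2)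
    (Z : List α) (v : S → ZMod 2) : S → ZMod 2 := push (fun s => s * φ Z) v + ν Z

/-- zone map of scheme 2 (`V2 = V → ZMod 2`) for an arbitrary zone map `T` of a finite set `V`. -/
noncomputable def T2 {α V : Type*} [Finite V] (T : List α → V → V) (ν : List α → V → ZMod 2)
    (Z : List α) (v : V → ZMod 2) : V → ZMod 2 := push (T Z) v + ν Z

/-- EXACTNESS of a scheme (left label `al P = some v` : value at the anchor; right label `rl U = some (b, R)` :
the next anchor is `b` letters further and the value there is `R`), under the promise `G` on `P ++ U`. -/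
def Exact {α V : Type*} (c : Chain α) (T : List α → V → V) (al : List α → Option V) (D : ℕ)
    (rl : List α → Option (ℕ × V)) (G : List α → List α → Prop) : Prop :=
  ∀ P U v b R, U.length = D → c.nx P = none → G P U → al P = some v → rl U = some (b, R) →
    c.nx (P ++ U) = some (P.length + b) ∧ T (P ++ U.take b) v = R

/-- COMPLETENESS: every token is cut at a place `P` with `lo ≤ |P| ≤ hi` in every zone text `Q` with `G Q`. -/
def Complete {α V : Type*} (c : Chain α) (al : List α → Option V) (D : ℕ)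
    (rl : List α → Option (ℕ × V)) (lo hi : ℕ) (G : List α → Prop) : Prop :=
  ∀ Q, G Q → ∀ v, ∃ P U Q', Q = P ++ (U ++ Q') ∧ U.length = D ∧ lo ≤ P.length ∧ P.length ≤ hi ∧
    c.nx P = none ∧ al P = some v ∧ (rl U).isSome

/-- all data of the two schemes on run-free words. -/
def TwoSchemes {α S : Type*} [Monoid S] [Finite S] (φ : List α → S) (RF : List α → Prop) : Prop :=
  ∃ (c : Chain α) (B L n2 hi : ℕ) (Bad : List α → Prop),
    (∀ Q, RF Q → B ≤ Q.length → c.nx Q ≠ none) ∧
    c.n ≤ n2 ∧
    (∀ Q Q', L ≤ Q.length → (Bad (Q ++ Q') ↔ Bad Q)) ∧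
    ∃ (ν1 : List α → S → ZMod 2) (al1 : List α → Option (S → ZMod 2)) (D1 : ℕ)
      (rl1 : List α → Option (ℕ × (S → ZMod 2))),
      0 < D1 ∧
      Exact c (T1 φ ν1) al1 D1 rl1 (fun P U => RF (P ++ U)) ∧
      Complete c al1 D1 rl1 n2 hi (fun Q => RF Q ∧ L + D1 + hi ≤ Q.length ∧ ¬ Bad Q) ∧
      ∃ (ν2 : List α → (S → ZMod 2) → ZMod 2) (al2 : List α → Option ((S → ZMod 2) → ZMod 2)) (D2 : ℕ)
        (rl2 : List α → Option (ℕ × ((S → ZMod 2) → ZMod 2))),
        L + D1 + hi ≤ D2 ∧
        Exact c (T2 (T1 φ ν1) ν2) al2 D2 rl2 (fun P U => RF (P ++ U) ∧ P.length ≤ n2 ∧ Bad (P ++ U)) ∧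
        Complete c al2 D2 rl2 c.n n2 (fun Q => RF Q ∧ D2 + n2 ≤ Q.length ∧ Bad Q)

end Crest.Agent.R320.Half1_961
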