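import Mathlib
import Crest.Agent.R320.AsmB_472
import Crest.Agent.R320.Half1Def_961

/-! Row 320: the two schemes in 961's interface, for fixed constants (helper472). -/

set_option autoImplicit false

namespace Crest.Agent.R320.AsmC_472

open Crest.Agent.R320.Zone132_898 Crest.Agent.R320.Wall_291 Crest.Agent.R320.AsmA_472
open Crest.Agent.R320.Zone2_594 Crest.Agent.R320.AsmB_472 Crest.Agent.R320.Half1_961

section Push

variable {X Y Z : Type} [Finite X] [Finite Y]

theorem push_push (g : Y → Z) (f : X → Y) (h : X → ZMod 2) :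
    push g (push f h) = push (fun x => g (f x)) h := by
  classical
  funext z
  unfold push
  letI := Fintype.ofFinite X
  letI := Fintype.ofFinite Y
  rw [Finset.sum_filter]
  simp_rw [Finset.sum_filter]
  have : ∀ y : Y, (if g y = z then ∑ a : X, (if f a = y then h a else 0) else 0)
      = ∑ a : X, (if f a = y then (if g y = z then h a else 0) else 0) := by
    intro y
    split_ifs with h1
    · rfl
    · simp
  simp_rw [this]
  rw [Finset.sum_comm]
  apply Finset.sum_congr rfl
  intro a _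
  rw [Finset.sum_ite_eq]
  simp

end Push

/-- maps of `V` with composition from left to right -/
def Tm (V : Type) : Type := V → V

instance {V : Type} : Monoid (Tm V) where
  mul f g := fun v => g (f v)
  one := fun v => v
  mul_assoc _ _ _ := rfl
  one_mul _ := rfl
  mul_one _ := rfl

instance {V : Type} [Finite V] : Finite (Tm V) := inferInstanceAs (Finite (V → V))

theorem tm_mul {V : Type} (f g : Tm V) (v : V) : (f * g) v = g (f v) := rfl

section Alg

variable {S : Type} [Monoid S] [Finite S]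

noncomputable def ind (p : S) : S → ZMod 2 := by
  classical exact Pi.single p 1

theorem ind_inj {p p' : S} (h : ind p = ind p') : p = p' := by
  classical
  by_contra hne
  have h1 := congrFun h p
  unfold ind at h1
  simp [Pi.single_eq_same, Pi.single_eq_of_ne hne] at h1

noncomputable def dec (u : S → ZMod 2) : S := by
  classical exact if h : ∃ p, u = ind p then h.choose else 1

theorem dec_ind (p : S) : dec (ind p) = p := by
  classical
  have h : ∃ p', ind p = ind p' := ⟨p, rfl⟩
  unfold dec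
  rw [dif_pos h]
  exact (ind_inj h.choose_spec).symm

noncomputable def actD (x : (S → ZMod 2) × (S → ZMod 2)) (s : S) :
    (S → ZMod 2) × (S → ZMod 2) := (push (fun y => y * (dec x.2 * s)) x.1, 0)

end Alg

/-- all constants -/
structure Par3 (α : Type) extends Par2 α where
  lo : ℕ → ℕ
  Nom : ℕ
  monoA : Monotone A
  hN : N1 = q * Nom
  hNom : ∀ i < m, lo i + M ≤ Nom
  hNpos : 0 < Nom
  Gs : ℕ
  hlo : ∀ i < m, A i + Gs + rs.n ≤ q * lo i
  cell_le : ∀ i < m, q * (lo i + M) ≤ A (i + 1)
  hz2 : p0 + A m + Gs + rs.n ≤ z0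
  e : ℕ
  b : ℕ
  hGs : ∀ Q, RF e b Q → Gs + rs.n ≤ Q.length → ∃ i < Gs, rs.R (Q.drop i)
  hGo : ∀ Q, RF e b Q → Go + ro.n ≤ Q.length → ∃ i < Go, ro.R (Q.drop i)
  hL2 : z0 + q * (2 * N1 + 2 * La + 1) + Go + ro.n ≤ L

variable {α S W : Type} [Monoid S] [Finite S] [AddCommGroup W]

abbrev VV (S : Type) := (S → ZMod 2) × (S → ZMod 2)

/-- the data of scheme 1 -/
structure Sc1 (α S W : Type) [Monoid S] [Finite S] [AddCommGroup W] extends Par3 α where
  phi : List α → S
  hphi : ∀ u v, phi (u ++ v) = phi u * phi v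
  ew : ℕ → S → W
  F : S → W → VV S
  LN : ℕ → Option (Ctx S (VV S) W)
  RN : ℕ → Option (Ctx S (VV S) W)

namespace Sc1

variable (c : Sc1 α S W)

noncomputable def D : Data α S (VV S) W where
  phi := c.phi
  hphi := c.hphi
  act := actD
  r := c.rs
  q := c.q
  hq := c.hq
  M := c.M
  m := c.m
  A := c.A
  monoA := c.monoA
  lo := c.lo
  e := c.ew
  F := c.F
  LN := c.LN
  RN := c.RN
  B := c.BB
  cell_le := c.cell_le

theorem LL_unique {P : List α} {u u' : VV S} (h : c.D.LL P u) (h' : c.D.LL P u') : u = u' := by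
  obtain ⟨x, om, H, h1, -, -, -, h2, -, -, -, -, rfl⟩ := h
  obtain ⟨x', om', H', h1', -, -, -, h2', -, -, -, -, rfl⟩ := h'
  have hq : 0 < c.D.q := c.hq
  have : om = om' := Nat.eq_of_mul_eq_mul_left hq (h1.symm.trans h1')
  subst this
  rw [h2] at h2'
  cases h2'
  rfl

noncomputable def nu1 (Z : List α) : S → ZMod 2 := (c.D.nu (Z.drop c.p0)).1

/-- left label -/
noncomputable def al (P : List α) : Option (S → ZMod 2) := by
  classical exact if h : ∃ v, c.p0 ≤ P.length ∧ c.D.LL (P.drop c.p0) (v, ind (c.phi (P.take c.p0)))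
    then some h.choose else none

theorem al_some {P : List α} {v : S → ZMod 2} :
    c.al P = some v ↔ c.p0 ≤ P.length ∧ c.D.LL (P.drop c.p0) (v, ind (c.phi (P.take c.p0))) := by
  classical
  unfold al
  constructor
  · intro h
    split_ifs at h with hex
    simp only [Option.some.injEq] at h
    subst h
    exact hex.choose_spec
  · intro h
    have hex : ∃ v, c.p0 ≤ P.length ∧ c.D.LL (P.drop c.p0) (v, ind (c.phi (P.take c.p0))) := ⟨v, h⟩
    rw [dif_pos hex]
    have := c.LL_unique hex.choose_spec.2 h.2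
    rw [Prod.mk.injEq] at this
    rw [this.1]

def RL (U : List α) (b : ℕ) : Prop :=
  c.ro.R (U.drop b) ∧ (∀ om < c.Nom, c.thr (c.p0 + c.q * om + b)) ∧
    ∀ t < b, c.ro.R (U.drop t) → ∀ om < c.Nom, ¬ c.thr (c.p0 + c.q * om + t)

/-- right label -/
noncomputable def rl (U : List α) : Option (ℕ × (S → ZMod 2)) := by
  classical exact if h : ∃ x : ℕ × VV S, c.RL U x.1 ∧ c.D.RR (U.take x.1) x.2
    then some (h.choose.1, h.choose.2.1) else none

theorem rl_some {U : List α} {b : ℕ} {R : S → ZMod 2} (h : c.rl U = some (b, R)) :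
    c.RL U b ∧ ∃ r : VV S, c.D.RR (U.take b) r ∧ r.1 = R := by
  classical
  unfold rl at h
  split_ifs at h with hex
  simp only [Option.some.injEq, Prod.mk.injEq] at h
  obtain ⟨rfl, rfl⟩ := h
  exact ⟨hex.choose_spec.1, _, hex.choose_spec.2, rfl⟩

theorem rl_isSome {U : List α} {b : ℕ} {r : VV S} (h : c.RL U b) (h' : c.D.RR (U.take b) r) :
    (c.rl U).isSome := by
  classical
  unfold rl
  rw [dif_pos ⟨(b, r), h, h'⟩]
  rfl

/-- the chain in 961's form -/
noncomputable def ch : Chain α where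
  nx := c.nx
  n := c.ro.n
  ext := fun Q Q' d h => c.nx_ext h
  vis := fun Q d h => by
    have h1 := c.nxAt_pos h
    have := c.hz
    omega
  tight := fun Q Q' d h hl => c.nx_tight h hl

theorem exact1 (h1 : c.D.N1) (h2 : c.D.N2) (G : List α → List α → Prop) (D1 : ℕ) :
    Exact c.ch (T1 c.phi c.nu1) c.al D1 c.rl G := by
  intro P U v b R hU hP hG hal hrl
  rw [al_some] at hal
  obtain ⟨hp, hL⟩ := hal
  obtain ⟨⟨hR1, hR2, hR3⟩, r, hRR, rfl⟩ := c.rl_some hrl
  have hL' := hL
  obtain ⟨x, om, H, hlen, hi, -, hom, -⟩ := hL'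
  have hlen' : (P.drop c.p0).length = c.q * om := hlen
  have hom' : om < c.Nom := lt_of_lt_of_le hom (c.hNom x.i hi)
  rw [List.length_drop] at hlen'
  have hPl : P.length = c.p0 + c.q * om := by omega
  have hqo : c.q * om ≤ c.N1 := by rw [c.hN]; exact Nat.mul_le_mul_left _ hom'.le
  have hz := c.hz
  refine ⟨?_, ?_⟩
  · change c.nxAt 0 (P ++ U) = some (P.length + b)
    rw [Par.nxAt_some]
    refine ⟨⟨?_, ?_⟩, ?_⟩
    · rw [Zone132_898.drop_add]; exact hR1
    · have := hR2 om hom'
      rwa [hPl, Nat.add_zero]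
    · rintro d hd ⟨h3, h4⟩
      have h5 := c.thr_ge h4
      obtain ⟨t, rfl⟩ := Nat.exists_eq_add_of_le (show P.length ≤ d by omega)
      rw [Zone132_898.drop_add] at h3
      rw [hPl, Nat.add_zero] at h4
      exact hR3 t (by omega) h3 om hom' h4
  · have hs := c.D.sound h1 h2 hL hRR
    have e1 : (P ++ U.take b).drop c.p0 = P.drop c.p0 ++ U.take b :=
      List.drop_append_of_le_length hp
    have e2 : c.phi (P ++ U.take b)
        = c.phi (P.take c.p0) * c.phi (P.drop c.p0 ++ U.take b) := by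
      rw [← c.hphi, ← List.append_assoc, List.take_append_drop]
    have e3 := congrArg Prod.fst hs
    rw [e3]
    unfold T1 nu1
    rw [e1, e2]
    change _ = (actD (v, ind (c.phi (P.take c.p0))) (c.phi (P.drop c.p0 ++ U.take b))).1 + _
    unfold actD
    rw [dec_ind]

theorem near_thr {d d' : ℕ} (h : ¬ c.nearE d) (hmod : d % c.q = d' % c.q) (h1 : d ≤ d' + c.N1)
    (h2 : d' ≤ d + c.N1) : c.thr d ↔ c.thr d' := by
  have e : c.tau d = c.tau d' := by unfold Par.tau; rw [hmod]
  unfold Par2.nearE at h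
  unfold Par.thr
  omega

theorem complete1 (h3 : c.D.N3) (hF : c.D.Hides) :
    Complete c.ch c.al c.L c.rl c.p0 (c.p0 + c.q * c.Nom)
      (fun Q => RF c.e c.b Q ∧ c.L + c.L + (c.p0 + c.q * c.Nom) ≤ Q.length ∧ ¬ c.Bad Q) := by
  rintro Q ⟨hRF, hlen, hbad⟩ v
  have hz := c.hz
  have hz2 := c.hz2
  have hL2 := c.hL2
  have hL := c.hL
  have htm : c.tmax = c.z0 + c.q * (2 * c.N1 + 2 * c.La + 1) := rfl
  have hTL : (Q.take c.L).length = c.L := by rw [List.length_take]; omega
  obtain ⟨d, hd, hdle⟩ := c.nxAt_ex c.hGo (j := 0) (W := Q.take c.L)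
    (hRF.take _) (by rw [hTL, htm]; omega)
  have hdQ : c.nx Q = some d := c.nxAt_of_take hd
  have hdpos := c.nxAt_pos hd
  rw [hTL] at hdpos
  obtain ⟨hdz, hdL⟩ := hdpos
  unfold Par2.Bad Par2.BadRaw at hbad
  push Not at hbad
  obtain ⟨hE, hD, hB⟩ := hbad
  have hEw : ∀ t, t + c.ro.n ≤ c.L → c.ro.R (Q.drop t) → ¬ c.nearE t := by
    intro t ht hR
    have := hE t ((rule_take c.ro ht).2 hR)
    rwa [Nat.add_zero] at this
  have hDw : ∀ i ≤ c.m, ∀ t, t + c.rs.n ≤ c.L → c.rs.R (Q.drop t) → ¬ c.nearD i t := by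
    intro i hi t ht hR
    have := hD i hi t ((rule_take c.rs ht).2 hR)
    rwa [Nat.add_zero] at this
  have hBw : ¬ c.BB ((d - c.p0) / c.q) := by
    have := hB d hd
    rwa [Nat.add_zero] at this
  set Y : List α := (Q.take d).drop c.p0 with hY
  have hYl : Y.length = d - c.p0 := by
    rw [hY, List.length_drop, List.length_take]; omega
  have hYRF : RF c.e c.b Y := (hRF.take _).drop _
  -- small walls of Y
  have hH : ∀ k, ∃ t, k ≤ c.m → FW c.rs Y (c.A k) t ∧ t ≤ c.A k + c.Gs := by
    intro k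
    by_cases hk : k ≤ c.m
    · have hAk := c.monoA hk
      obtain ⟨i, hi, hR⟩ := c.hGs (Y.drop (c.A k)) (hYRF.drop _)
        (by rw [List.length_drop, hYl]; omega)
      rw [List.drop_drop] at hR
      obtain ⟨t, ht⟩ := fst_ex (P := fun t => c.A k ≤ t ∧ c.rs.R (Y.drop t))
        ⟨c.A k + i, by omega, hR⟩
      rw [fst_some] at ht
      refine ⟨t, fun _ => ⟨⟨ht.1.1, ht.1.2, fun t' h1 h2 h3 => ht.2 t' h2 ⟨h1, h3⟩⟩, ?_⟩⟩
      by_contra hlt
      exact ht.2 (c.A k + i) (by omega) ⟨by omega, hR⟩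
    · exact ⟨0, fun h => absurd h hk⟩
  choose H hH using hH
  have hYdrop : ∀ t, t + c.rs.n ≤ d - c.p0 → (c.rs.R (Y.drop t) ↔ c.rs.R (Q.drop (c.p0 + t))) := by
    intro t ht
    rw [hY, List.drop_drop, rule_take c.rs (by omega)]
  have hAm : ∀ i, i < c.m → c.q * (c.lo i + c.M) ≤ c.A c.m := fun i hi =>
    (c.cell_le i hi).trans (c.monoA (show i + 1 ≤ c.m by omega))
  obtain ⟨P', Q'', i, om, hYeq, hi, hP'l, hlo, hhi, hLL, b, hRR⟩ :=
    c.D.complete h3 hF (G := c.Gs) (Z := Y)
      (show ¬ c.BB (Y.length / c.q) by rw [hYl]; exact hBw) H (fun k hk => (hH k hk).1)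
      (fun k hk => (hH k hk).2) c.hlo
      (by
        intro k hk t ht1 ht2 hR
        have hrl := rule_len c.rs hR
        rw [hYl] at hrl
        have hR' : c.rs.R (Y.drop t) := hR
        rw [hYdrop t (by omega)] at hR'
        refine hDw k hk (c.p0 + t) (by omega) hR' ⟨?_, ?_⟩
        · change c.A k ≤ t + c.q * c.M at ht1
          omega
        · change t < c.A k + c.q * c.M at ht2
          omega)
      (fun i hi => by
        have := hAm i hi
        change c.q * (c.lo i + c.M) ≤ Y.length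
        rw [hYl]; omega)
      ((v, ind (c.phi (Q.take c.p0))))
  have hP'l' : P'.length = c.q * om := hP'l
  have hom : om < c.Nom := lt_of_lt_of_le hhi (c.hNom i hi)
  have hqo : c.q * om + c.q ≤ c.q * c.Nom := by
    have := Nat.mul_le_mul_left c.q (show om + 1 ≤ c.Nom from hom)
    rwa [Nat.mul_add, Nat.mul_one] at this
  have hN := c.hN
  have hq := c.hq
  have hPY : c.q * om ≤ d - c.p0 := by
    rw [← hYl, hYeq, List.length_append]; omega
  have hYQ : Y = (Q.drop c.p0).take (d - c.p0) := by rw [hY, List.drop_take]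
  have hP'eq : P' = (Q.drop c.p0).take (c.q * om) := by
    have : P' = Y.take (c.q * om) := by rw [hYeq, ← hP'l', List.take_left]
    rw [this, hYQ, List.take_take, min_eq_left hPY]
  have hQ''eq : Q'' = (Q.drop (c.p0 + c.q * om)).take (d - c.p0 - c.q * om) := by
    have : Q'' = Y.drop (c.q * om) := by rw [hYeq, ← hP'l', List.drop_left]
    rw [this, hYQ, List.drop_take, List.drop_drop]
  set a : ℕ := c.p0 + c.q * om with ha
  have hlenQ : a + c.L ≤ Q.length := by omega
  refine ⟨Q.take a, (Q.drop a).take c.L, (Q.drop a).drop c.L, ?_, ?_, ?_, ?_, ?_, ?_, ?_⟩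
  · rw [List.take_append_drop, List.take_append_drop]
  · rw [List.length_take, List.length_drop]; omega
  · rw [List.length_take]; omega
  · rw [List.length_take]; omega
  · exact c.nx_short (by rw [List.length_take]; omega)
  · rw [al_some]
    refine ⟨by rw [List.length_take]; omega, ?_⟩
    have e1 : (Q.take a).drop c.p0 = P' := by
      rw [List.drop_take, hP'eq]
      congr 1
      omega
    have e2 : (Q.take a).take c.p0 = Q.take c.p0 := by
      rw [List.take_take, min_eq_left (by omega)]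
    rw [e1, e2]
    exact hLL
  · refine c.rl_isSome (b := d - c.p0 - c.q * om) (r := b) ⟨?_, ?_, ?_⟩ ?_
    · rw [rule_take c.ro (by omega), List.drop_drop, show a + (d - c.p0 - c.q * om) = d by omega]
      exact (c.nxAt_some.1 hdQ).1.1
    · intro om' hom'
      have hqo' : c.q * om' + c.q ≤ c.q * c.Nom := by
        have := Nat.mul_le_mul_left c.q (show om' + 1 ≤ c.Nom from hom')
        rwa [Nat.mul_add, Nat.mul_one] at this
      have hne := hEw d hdL (c.nxAt_some.1 hdQ).1.1
      have ht := (c.nxAt_some.1 hdQ).1.2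
      rw [Nat.add_zero] at ht
      refine (c.near_thr hne ?_ (by omega) (by omega)).1 ht
      have e1 : d = (c.p0 + (d - c.p0 - c.q * om)) + c.q * om := by omega
      have e2 : c.p0 + c.q * om' + (d - c.p0 - c.q * om)
          = (c.p0 + (d - c.p0 - c.q * om)) + c.q * om' := by omega
      rw [e2]
      conv_lhs => rw [e1]
      rw [Nat.add_mul_mod_self_left, Nat.add_mul_mod_self_left]
    · intro t ht hR om' hom' hthr
      have hqo' : c.q * om' + c.q ≤ c.q * c.Nom := by
        have := Nat.mul_le_mul_left c.q (show om' + 1 ≤ c.Nom from hom')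
        rwa [Nat.mul_add, Nat.mul_one] at this
      have hRl := rule_len c.ro hR
      rw [rule_take c.ro (by omega), List.drop_drop] at hR
      have hne := hEw (a + t) (by omega) hR
      refine (c.nxAt_some.1 hdQ).2 (a + t) (by omega) ⟨hR, ?_⟩
      rw [Nat.add_zero]
      refine (c.near_thr hne ?_ (by omega) (by omega)).2 hthr
      rw [ha, show c.p0 + c.q * om + t = (c.p0 + t) + c.q * om by omega,
        show c.p0 + c.q * om' + t = (c.p0 + t) + c.q * om' by omega,
        Nat.add_mul_mod_self_left, Nat.add_mul_mod_self_left]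
    · rw [List.take_take, min_eq_left (by omega), ← hQ''eq]
      exact hRR

end Sc1

end Crest.Agent.R320.AsmC_472
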