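import Crest.Agent.R320.AsmB_489

set_option autoImplicit false

namespace Crest.Agent.R320.Asm_489

open Crest.RegLang Crest.Agent.R320.Hk_851 Crest.Agent.R320.Half1_180

theorem _root_.Crest.Agent.R320.Hk_851.HL.cg489 {β : Type} {k : ℕ} {L M : Language β} (h : HL k M)
    (e : ∀ w, w ∈ M ↔ w ∈ L) : HL k L := h.congr fun w => (e w).symm

namespace Dat

variable {α S V : Type} [Monoid S] [AddCommGroup V] {D : Dat α S V}

theorem LP1_finite [Finite α] (h : D.Ok) (v : V) : (D.LP1 v).Finite := by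
  refine (List.finite_length_lt α (D.p0 + D.N)).subset ?_
  rintro P ⟨h1, h2⟩
  have := h.lam1_len _ _ h2
  rw [List.length_drop] at this
  show P.length < D.p0 + D.N
  omega

theorem LP2_finite [Finite α] (h : D.Ok) (v : V) : (D.LP2 v).Finite := by
  refine (List.finite_length_le α D.p0).subset ?_
  rintro P ⟨k, hk, h1, -⟩
  have := h.c_le k hk
  show P.length ≤ D.p0
  omega

/-- **everything from two languages facts**: fibres of blocks, tails -/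
theorem main [Finite α] [Finite S] [Finite V] (h : D.Ok)
    (hXT : ∀ v r, HL 1 (Lg fun X => X ∈ D.XX ∧ D.T X v = r))
    (htail : ∀ s, HL 1 (Lg fun E => E ∈ Tail D.XX ∧ (E.map D.f).prod = s)) (s : S) :
    HL 3 ({w | (w.map D.f).prod = s} : Language α) := by
  have hXX : HL 1 (Lof D.XX) := by
    refine (HL.iUnion fun r : V => hXT 0 r).cg489 fun X => ⟨?_, ?_⟩
    · rintro ⟨r, hX, -⟩; exact hX
    · intro hX; exact ⟨_, hX, rfl⟩
  have hRQ1 : ∀ r, HL 1 (Lof (D.RQ1 r)) := by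
    intro r
    have h1 : ∀ v : V, HL 1 ({Q | ∀ P ∈ D.LP1 v, Q ∈
        ({w | P ++ w ∈ Lg fun X => X ∈ D.XX ∧ D.T X v = r} : Language α)} : Language α) :=
      fun v => HL.biInter (LP1_finite h v) fun P _ => HL.lquot P (hXT v r)
    refine (HL.iInter h1).cg489 fun Q => ⟨?_, ?_⟩
    · intro hQ v P hP; exact hQ v P hP
    · intro hQ v P hP; exact hQ v P hP
  have hGood : HL 1 (Lof D.Good) := by
    have h1 : ∀ v r : V, HL 1 ({X | ∃ P ∈ D.LP1 v, X ∈ ({P} : Language α) * Lof (D.RQ1 r)} :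
        Language α) := fun v r => HL.biUnion (LP1_finite h v) fun P _ =>
      (HL.word P).mul (hRQ1 r)
    have h2 : ∀ v r : V, HL 1 ((Lg fun X => X ∈ D.XX ∧ D.T X v = r) ⊓
        ({X | ∃ P ∈ D.LP1 v, X ∈ ({P} : Language α) * Lof (D.RQ1 r)} : Language α)) :=
      fun v r => (hXT v r).inf (h1 v r)
    refine (hXX.inf (HL.iInter fun v : V => HL.iUnion fun r : V => h2 v r)).cg489 fun X => ⟨?_, ?_⟩
    · rintro ⟨hX, hX'⟩
      refine ⟨hX, fun v => ?_⟩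
      obtain ⟨r, ⟨_, hr⟩, P, hP, hPX⟩ := hX' v
      obtain ⟨P', hP', Q, hQ, e⟩ := Language.mem_mul.1 hPX
      rw [Set.mem_singleton_iff.1 hP'] at e
      refine ⟨P, Q, e.symm, hP, ?_⟩
      rw [hr]; exact hQ
    · rintro ⟨hX, hX'⟩
      refine ⟨hX, fun v => ?_⟩
      obtain ⟨P, Q, e, hP, hQ⟩ := hX' v
      exact ⟨D.T X v, ⟨hX, rfl⟩, P, hP, Language.mem_mul.2 ⟨P, rfl, Q, hQ, e.symm⟩⟩
  have hBad : HL 1 (Lof D.Bad) := hXX.sdiff hGood
  have hPG : HL 1 (Lof D.PG) := (HL.prefix hGood).cg489 fun w => ⟨fun h => h, fun h => h⟩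
  have hZ2 : ∀ v r, HL 1 (Lof (D.Z2 v r)) := by
    intro v r
    refine (HL.iUnion fun v1 : V => (hXT v v1).mul (hXT v1 r)).cg489 fun w => ⟨?_, ?_⟩
    · rintro ⟨v1, hw⟩
      obtain ⟨X1, ⟨h1, h2⟩, X2, ⟨h3, h4⟩, rfl⟩ := Language.mem_mul.1 hw
      exact ⟨X1, X2, rfl, h1, h3, by rw [h2, h4]⟩
    · rintro ⟨X1, X2, rfl, h1, h2, h3⟩
      exact ⟨D.T X1 v, Language.mem_mul.2 ⟨X1, ⟨h1, rfl⟩, X2, ⟨h2, h3⟩, rfl⟩⟩
  have hRQ2 : ∀ r, HL 1 (Lof (D.RQ2 r)) := by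
    intro r
    have fin1 : ∀ (k : ℕ) (v : V), ({P : List α | P.length = D.c k ∧ D.lam2 k P = some v}).Finite :=
      fun k v => (List.finite_length_eq α (D.c k)).subset fun P hP => hP.1
    have h1 : ∀ (k : ℕ) (v : V), HL 1 ({Q | ∀ P ∈ {P : List α | P.length = D.c k ∧
        D.lam2 k P = some v}, Q ∈ ({w | P ++ w ∈ Lof (D.Z2 v r)} : Language α)} : Language α) :=
      fun k v => HL.biInter (fin1 k v) fun P _ => HL.lquot P (hZ2 v r)
    have h2 : ∀ k : ℕ, HL 1 ({Q | ∀ v : V, Q ∈ ({Q | ∀ P ∈ {P : List α | P.length = D.c k ∧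
        D.lam2 k P = some v}, Q ∈ ({w | P ++ w ∈ Lof (D.Z2 v r)} : Language α)} : Language α)} :
          Language α) := fun k => HL.iInter fun v => h1 k v
    have h3 : ∀ k : ℕ, HL 1 ({Q | ∀ P ∈ {P : List α | P.length = D.c k},
        Q ∈ ({w | P ++ w ∈ Lof D.PG} : Language α)} : Language α) :=
      fun k => HL.biInter (List.finite_length_eq α (D.c k)) fun P _ => HL.lquot P hPG
    have fin2 : ∀ k0 : ℕ, ({k : ℕ | k < D.K ∧ k ≠ k0}).Finite :=
      fun k0 => (Set.finite_lt_nat D.K).subset fun k hk => hk.1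
    have h4 : ∀ k0 : ℕ, HL 1 ({Q | ∀ k ∈ {k : ℕ | k < D.K ∧ k ≠ k0},
        Q ∈ ({Q | ∀ P ∈ {P : List α | P.length = D.c k},
          Q ∈ ({w | P ++ w ∈ Lof D.PG} : Language α)} : Language α)} : Language α) :=
      fun k0 => HL.biInter (fin2 k0) fun k _ => h3 k
    refine (HL.biUnion (Set.finite_lt_nat D.K) fun k0 _ => (h2 k0).inf (h4 k0)).cg489
      fun Q => ⟨?_, ?_⟩
    · rintro ⟨k0, hk0, hQ1, hQ2⟩
      exact ⟨k0, hk0, fun v P hP1 hP2 => hQ1 v P ⟨hP1, hP2⟩,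
        fun k hk hne P hP => hQ2 k ⟨hk, hne⟩ P hP⟩
    · rintro ⟨k0, hk0, hQ1, hQ2⟩
      exact ⟨k0, hk0, fun v P hP => hQ1 v P hP.1 hP.2, fun k hk P hP => hQ2 k hk.1 hk.2 P hP⟩
  have act_zero : ∀ s, D.act 0 s = 0 := by
    intro s
    have := h.act_add 0 0 s
    rw [add_zero] at this
    exact left_eq_add.1 this
  refine top2 (k := 1) D.f D.act act_zero h.act_one h.act_mul h.faith D.XX D.Good D.Bad (XX_pf h)
    XX_eq D.T (fun X _ v v' => T_sub h X v v') (fun v => Lof (D.LP1 v)) (fun v => Lof (D.RQ1 v))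
    (fun v => HL.finite (LP1_finite h v)) (fun v => (hRQ1 v).mono (by omega))
    (fun v v' P Q hP hQ => hQ v P hP) (fun X hX v => hX.2 v) hBad
    (fun v => Lof (D.LP2 v)) (fun v => Lof (D.RQ2 v)) (fun v => HL.finite (LP2_finite h v)) hRQ2
    ?_ (fun v v' P Q R hP hQ hB => two_sound h v v' P Q R hP hQ hB)
    (fun Y1 h1 Y2 h2 v => two_complete h Y1 h1.1 Y2 h2.1 v)
    (fun s => (htail s).mono (by omega)) s
  intro v v'
  refine (hBad.inf (hXT v v')).cg489 fun X => ⟨?_, ?_⟩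
  · rintro ⟨h1, _, h2⟩; exact ⟨h1, h2⟩
  · rintro ⟨h1, h2⟩; exact ⟨h1, h1.1, h2⟩

end Dat

end Crest.Agent.R320.Asm_489
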