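import Crest.Agent.R320.AsmB_700

/-! # Row 320, scheme 2 in blocks of the natural chain (helper700). -/

set_option autoImplicit false

namespace Crest.Agent.R320.Asm_700

open Crest.RegLang Crest.Agent.R320.Hk_851 Crest.Agent.R320.FewWalls_228

universe u
variable {α : Type u} {S V : Type} [Monoid S] [AddCommGroup V]

namespace Dt

variable {D : Dt α S V}

variable (D) in
/-- blocks which scheme 1 does not cut completely -/
def Bad : Set (List α) :=
  {X | BX D.n D.Sw D.z X ∧ ∃ v, ¬ ∃ P Q, P ++ Q = X ∧ P ∈ D.LP1 v ∧ Q ∈ D.RQ1 (D.T v X)}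

variable (D) in
def LP2 (K : ℕ) (c : ℕ → ℕ) (lam2 : ℕ → List S → Option V) (v : V) : Set (List α) :=
  {P | ∃ k < K, P.length = c k ∧ lam2 k (P.map D.φ) = some v}

variable (D) in
def RQ2 (K : ℕ) (c : ℕ → ℕ) (lam2 : ℕ → List S → Option V) (u : V) : Set (List α) :=
  {Q | Q ≠ [] ∧ ∀ v, ∀ P ∈ D.LP2 K c lam2 v, (¬ ∃ s, s ≠ [] ∧ (P ++ Q) ++ s ∈ D.Bad) ∧
    (¬ ∃ X ∈ D.Bad, ∃ s, s ≠ [] ∧ X ++ s = P ++ Q) ∧ (P ++ Q ∈ D.Bad → D.T v (P ++ Q) = u)}

/-- transfer to the true block -/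
theorem transfer {X P' R : List α} {ck cj N1 : ℕ} {W : ℕ} {t' : ℕ}
    (hX : BX D.n D.Sw D.z X)
    (hsep : ∀ x y, x < y → WE D.n D.Sw X x → WE D.n D.Sw X y → x + W ≤ y)
    (hW : 2 * N1 + 2 * D.p0 < W) (hck : ck ≤ D.p0) (hcj : cj ≤ D.p0)
    (hz : D.p0 + 2 * N1 + D.n ≤ D.z) (hP' : P'.length = cj)
    (ht' : FW D.n D.Sw (P' ++ R) D.z t')
    (hcomp : X.drop ck <+: R ∨ R <+: X.drop ck) :
    (∃ t'', t' = cj + t'' ∧ FW D.n D.Sw X (ck + (D.z - cj)) (ck + t'')) ∧
    (∀ y, D.z ≤ y + N1 → y < D.z + N1 → WE D.n D.Sw (P' ++ R) y →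
      ∃ y', y = cj + y' ∧ WE D.n D.Sw X (ck + y')) := by
  obtain ⟨t, h1, h2⟩ := hX
  have htz : D.z ≤ t := h1.2.1
  have htX : t < X.length := h2.2.1
  have hlen : t + W ≤ X.length := hsep t X.length htX h1.1 h2.1
  set Q := X.drop ck with hQ
  have lP : (X.take ck).length = ck := by rw [List.length_take]; omega
  have eX : X.take ck ++ Q = X := List.take_append_drop _ _
  have lQ : Q.length = X.length - ck := by rw [hQ, List.length_drop]
  have hwX : ∀ y, D.n ≤ y → (WE D.n D.Sw X (ck + y) ↔ WE D.n D.Sw Q y) := by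
    intro y hy
    conv_lhs => rw [← eX, ← lP]
    rw [lP]
    have := WE_shift (n := D.n) (S := D.Sw) (X.take ck) (w := Q) hy
    rw [lP] at this
    exact this
  have hQend : WE D.n D.Sw Q Q.length := by
    rw [← hwX _ (by omega), lQ]
    have : ck + (X.length - ck) = X.length := by omega
    rw [this]; exact h2.1
  have hrw : ∀ y, y ≤ R.length → y ≤ Q.length → (WE D.n D.Sw R y ↔ WE D.n D.Sw Q y) := by
    intro y hy1 hy2
    rcases hcomp with ⟨s, hs⟩ | ⟨s, hs⟩
    · rw [← hs]; exact WE_append s hy2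
    · rw [← hs]; exact (WE_append s hy1).symm
  have hshiftW : ∀ y, D.n ≤ y → (WE D.n D.Sw (P' ++ R) (cj + y) ↔ WE D.n D.Sw R y) := by
    intro y hy
    have := WE_shift (n := D.n) (S := D.Sw) P' (w := R) hy
    rw [hP'] at this
    exact this
  constructor
  · obtain ⟨t'', rfl⟩ : ∃ t'', t' = cj + t'' := ⟨t' - cj, by have := ht'.2.1; omega⟩
    have hzt : D.z ≤ cj + t'' := ht'.2.1
    have hRt : WE D.n D.Sw R t'' := (hshiftW _ (by omega)).1 ht'.1
    have ht1 : t'' ≤ R.length := hRt.le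
    have hmin : ∀ y, D.z ≤ cj + y → y < t'' → ¬ WE D.n D.Sw R y := by
      intro y hy1 hy2 hw
      exact ht'.2.2 _ hy1 (by omega) ((hshiftW _ (by omega)).2 hw)
    have ht2 : t'' ≤ Q.length := by
      rcases hcomp with hpre | hpre
      · by_contra hc
        have hle : Q.length ≤ R.length := hpre.length_le
        exact hmin Q.length (by omega) (by omega) ((hrw _ hle le_rfl).2 hQend)
      · exact le_trans ht1 hpre.length_le
    refine ⟨t'', rfl, (hwX _ (by omega)).2 ((hrw _ ht1 ht2).1 hRt), by omega, ?_⟩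
    intro y hy1 hy2 hw
    obtain ⟨y', rfl⟩ : ∃ y', y = ck + y' := ⟨y - ck, by omega⟩
    exact hmin y' (by omega) (by omega) ((hrw y' (by omega) (by omega)).2
      ((hwX _ (by omega)).1 hw))
  · intro y hy1 hy2 hw
    obtain ⟨y', rfl⟩ : ∃ y', y = cj + y' := ⟨y - cj, by omega⟩
    have hRy := (hshiftW y' (by omega)).1 hw
    exact ⟨y', rfl, (hwX _ (by omega)).2 ((hrw _ hRy.le (by omega)).1 hRy)⟩

/-- a first wall near `z` is one of two places -/
theorem two_places {X : List α} {W : ℕ}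
    (hsep : ∀ x y, x < y → WE D.n D.Sw X x → WE D.n D.Sw X y → x + W ≤ y)
    {z0 m ta tx : ℕ} (hta : FW D.n D.Sw X z0 ta) (hm0 : z0 ≤ m) (hm1 : m < z0 + W)
    (hx : FW D.n D.Sw X m tx) : tx = ta ∨ FW D.n D.Sw X (ta + 1) tx := by
  rcases Nat.lt_or_ge ta m with h | h
  · right
    refine ⟨hx.1, by have := hx.2.1; omega, fun y hy1 hy2 hw => ?_⟩
    have := hsep ta y (by omega) hta.1 hw
    have := hta.2.1
    exact hx.2.2 y (by omega) hy2 hw
  · left
    refine hx.uniq ⟨hta.1, h, fun y hy1 hy2 hw => hta.2.2 y (by omega) hy2 hw⟩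

open Classical in
theorem spoil {X : List α} {W K κ : ℕ} {c : ℕ → ℕ} (BadT : ℕ → Prop)
    (hX : BX D.n D.Sw D.z X)
    (hsep : ∀ x y, x < y → WE D.n D.Sw X x → WE D.n D.Sw X y → x + W ≤ y)
    (hW : 2 * D.N1 + 2 * D.p0 < W) (hcp : ∀ k < K, c k ≤ D.p0)
    (hz : D.p0 + 2 * D.N1 + D.n ≤ D.z)
    (hgol : ∀ a b a' b', a < K → b < K → a' < K → b' < K → a ≠ b → a' ≠ b' →
      |((c a : ℤ) - c b) - ((c a' : ℤ) - c b')| ≤ 2 * D.N1 → a = a' ∧ b = b')
    (hthin : ∀ T : ℤ, ((Finset.range K).filter (fun a => ∃ b < K, b ≠ a ∧ ∃ t : ℕ,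
      (t : ℤ) = T + c b - c a ∧ BadT t)).card ≤ κ)
    (hbad : ∀ X' ∈ D.Bad, ∃ t', FW D.n D.Sw X' D.z t' ∧
      ((∃ y, D.z ≤ y + D.N1 ∧ y < D.z + D.N1 ∧ WE D.n D.Sw X' y) ∨ BadT (t' - D.p0))) :
    ((Finset.range K).filter (fun k => ∃ j < K, j ≠ k ∧ ∃ P' R : List α, P'.length = c j ∧
      P' ++ R ∈ D.Bad ∧ (X.drop (c k) <+: R ∨ R <+: X.drop (c k)))).card ≤ 1 + (κ + κ) := by
  obtain ⟨t, h1, h2⟩ := id hX
  have htz : D.z ≤ t := h1.2.1
  obtain ⟨ta, -, hta⟩ := exists_FW (m := D.z - D.p0) h1.1 (by omega)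
  obtain ⟨tb, htb⟩ : ∃ tb, ∀ t, FW D.n D.Sw X (ta + 1) t → t = tb := by
    by_cases h : ∃ t, FW D.n D.Sw X (ta + 1) t
    · obtain ⟨t0, ht0⟩ := h
      exact ⟨t0, fun t' ht' => ht'.uniq ht0⟩
    · exact ⟨0, fun t' ht' => absurd ⟨t', ht'⟩ h⟩
  let E1 : Finset ℕ := (Finset.range K).filter (fun k => ∃ j < K, j ≠ k ∧ ∃ y', 
    WE D.n D.Sw X (c k + y') ∧ D.z ≤ c j + y' + D.N1 ∧ c j + y' < D.z + D.N1)
  let B1 : ℤ → Finset ℕ := fun T => (Finset.range K).filter (fun a => ∃ b < K, b ≠ a ∧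
    ∃ t : ℕ, (t : ℤ) = T + c b - c a ∧ BadT t)
  have hsub : (Finset.range K).filter (fun k => ∃ j < K, j ≠ k ∧ ∃ P' R : List α,
      P'.length = c j ∧ P' ++ R ∈ D.Bad ∧ (X.drop (c k) <+: R ∨ R <+: X.drop (c k))) ⊆
      E1 ∪ (B1 ((ta : ℤ) - D.p0) ∪ B1 ((tb : ℤ) - D.p0)) := by
    intro k hk
    rw [Finset.mem_filter, Finset.mem_range] at hk
    obtain ⟨hkK, j, hj, hjk, P', R, hP', hR, hcomp⟩ := hk
    obtain ⟨t', ht', hEB⟩ := hbad _ hR
    obtain ⟨⟨t'', e, hx⟩, hE⟩ := transfer (W := W) hX hsep hW (hcp k hkK) (hcp j hj) hz hP' ht'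
      hcomp
    rcases hEB with ⟨y, hy1, hy2, hy3⟩ | hB
    · obtain ⟨y', e', hw⟩ := hE y hy1 hy2 hy3
      refine Finset.mem_union_left _ ?_
      rw [Finset.mem_filter, Finset.mem_range]
      exact ⟨hkK, j, hj, hjk, y', hw, by omega, by omega⟩
    · refine Finset.mem_union_right _ ?_
      have hcj := hcp j hj
      have hck := hcp k hkK
      have ht'z := ht'.2.1
      have hcase := two_places hsep hta (m := c k + (D.z - c j)) (by omega) (by omega) hx
      have hnat : ((t' - D.p0 : ℕ) : ℤ) = (t' : ℤ) - D.p0 := by omega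
      rcases hcase with h | h
      · refine Finset.mem_union_left _ ?_
        rw [Finset.mem_filter, Finset.mem_range]
        exact ⟨hkK, j, hj, hjk, t' - D.p0, by omega, hB⟩
      · refine Finset.mem_union_right _ ?_
        have h' := htb _ h
        rw [Finset.mem_filter, Finset.mem_range]
        exact ⟨hkK, j, hj, hjk, t' - D.p0, by omega, hB⟩
  have hE1 : E1.card ≤ 1 := by
    rw [Finset.card_le_one]
    intro k hk k1 hk1
    rw [Finset.mem_filter, Finset.mem_range] at hk hk1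
    obtain ⟨hkK, j, hj, hjk, y, hw, hy1, hy2⟩ := hk
    obtain ⟨hkK1, j1, hj1, hjk1, y1, hw1, hy11, hy21⟩ := hk1
    have a1 := hcp k hkK
    have a2 := hcp j hj
    have a3 := hcp k1 hkK1
    have a4 := hcp j1 hj1
    have heq : c k + y = c k1 + y1 := by
      rcases Nat.lt_trichotomy (c k + y) (c k1 + y1) with h | h | h
      · have := hsep _ _ h hw hw1; omega
      · exact h
      · have := hsep _ _ h hw1 hw; omega
    refine (hgol k j k1 j1 hkK hj hkK1 hj1 hjk.symm hjk1.symm ?_).1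
    rw [abs_le]
    constructor <;> omega
  refine le_trans (Finset.card_le_card hsub) ?_
  refine le_trans (Finset.card_union_le _ _) ?_
  refine Nat.add_le_add hE1 ?_
  refine le_trans (Finset.card_union_le _ _) ?_
  exact Nat.add_le_add (hthin _) (hthin _)

theorem v2_eq {K : ℕ} {c : ℕ → ℕ} {lam2 rho2 : ℕ → List S → Option V} (hD : D.Good)
    (hcp : ∀ k < K, c k ≤ D.p0)
    (sound2 : ∀ k < K, ∀ (P Q : List S) (v b : V), P.length = c k → lam2 k P = some v →
      rho2 k Q = some b → b = D.act v (P ++ Q).prod + D.nu2 (P ++ Q))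
    {k : ℕ} (hk : k < K) {P Q Y Z : List α} {v b : V} (hP : P.length = c k)
    (h1 : lam2 k (P.map D.φ) = some v) (hQ : P.length + Q.length = D.p0)
    (h2 : rho2 k (Q.map D.φ) = some b)
    (ht : FW D.n D.Sw (P ++ (Q ++ (Y ++ Z))) D.z (D.p0 + Y.length)) :
    D.T v (P ++ (Q ++ (Y ++ Z))) = D.act (D.act b (D.pr Y) + D.nu (Y.map D.φ)) (D.pr Z) := by
  have e : P ++ (Q ++ (Y ++ Z)) = (P ++ Q) ++ (Y ++ Z) := by simp
  rw [e] at ht ⊢
  rw [T_eq hD v _ _ _ (by rw [List.length_append]; exact hQ) ht]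
  have : b = D.v0 v (P ++ Q) := by
    have := sound2 k hk _ _ v b (by rw [List.length_map]; exact hP) h1 h2
    rw [this, ← List.map_append]
    rfl
  rw [this]

open Classical in
theorem comp2 {W K κ R0 : ℕ} {c : ℕ → ℕ} {lam2 rho2 : ℕ → List S → Option V}
    (BadT : ℕ → Prop) (hD : D.Good)
    (hsep : ∀ (X : List α) x y, x < y → WE D.n D.Sw X x → WE D.n D.Sw X y → x + W ≤ y)
    (hW : 2 * D.N1 + 2 * D.p0 < W) (hcp : ∀ k < K, c k ≤ D.p0)
    (hgol : ∀ a b a' b', a < K → b < K → a' < K → b' < K → a ≠ b → a' ≠ b' →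
      |((c a : ℤ) - c b) - ((c a' : ℤ) - c b')| ≤ 2 * D.N1 → a = a' ∧ b = b')
    (hthin : ∀ T : ℤ, ((Finset.range K).filter (fun a => ∃ b < K, b ≠ a ∧ ∃ t : ℕ,
      (t : ℤ) = T + c b - c a ∧ BadT t)).card ≤ κ)
    (hbad : ∀ X' ∈ D.Bad, ∃ t', FW D.n D.Sw X' D.z t' ∧
      ((∃ y, D.z ≤ y + D.N1 ∧ y < D.z + D.N1 ∧ WE D.n D.Sw X' y) ∨ BadT (t' - D.p0)))
    (sound2 : ∀ k < K, ∀ (P Q : List S) (v b : V), P.length = c k → lam2 k P = some v →
      rho2 k Q = some b → b = D.act v (P ++ Q).prod + D.nu2 (P ++ Q))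
    (hcomp2 : ∀ (u : List S) (v : V), (∀ k < K, c k ≤ u.length) →
      ∃ I : Finset ℕ, R0 ≤ I.card ∧ ∀ k ∈ I, k < K ∧ lam2 k (u.take (c k)) = some v ∧
        (rho2 k (u.drop (c k))).isSome)
    (hR0 : 1 + (κ + κ) < R0) (hinj : ∀ i j, i < K → j < K → c i = c j → i = j)
    {X : List α} (hX : X ∈ D.Bad) (v : V) :
    ∃ P Q, X = P ++ Q ∧ P ∈ D.LP2 K c lam2 v ∧ Q ∈ D.RQ2 K c lam2 (D.T v X) := by
  have hz := hD.hz
  obtain ⟨hBX, -⟩ := id hX
  obtain ⟨t, h1, h2⟩ := id hBX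
  have htz : D.z ≤ t := h1.2.1
  have htX : t < X.length := h2.2.1
  have l0 : (X.take D.p0).length = D.p0 := by rw [List.length_take]; omega
  obtain ⟨I, hI, hI2⟩ := hcomp2 ((X.take D.p0).map D.φ) v (by
    intro k hk; rw [List.length_map, l0]; exact hcp k hk)
  have hsp := spoil (κ := κ) BadT hBX (hsep X) hW hcp hz hgol hthin hbad
  obtain ⟨k, hkI, hkS⟩ : ∃ k ∈ I, k ∉ (Finset.range K).filter (fun k => ∃ j < K, j ≠ k ∧
      ∃ P' R : List α, P'.length = c j ∧ P' ++ R ∈ D.Bad ∧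
        (X.drop (c k) <+: R ∨ R <+: X.drop (c k))) := by
    by_contra hc
    push Not at hc
    have := Finset.card_le_card (fun k hk => hc k hk)
    omega
  obtain ⟨hkK, hl, hr⟩ := hI2 k hkI
  obtain ⟨b, hb⟩ := Option.isSome_iff_exists.1 hr
  have hck := hcp k hkK
  have hsp2 : ∀ j < K, j ≠ k → ∀ P' R : List α, P'.length = c j → P' ++ R ∈ D.Bad →
      ¬ (X.drop (c k) <+: R ∨ R <+: X.drop (c k)) := by
    intro j hj hjk P' R hP' hR hcomp
    exact hkS (Finset.mem_filter.2 ⟨Finset.mem_range.2 hkK, j, hj, hjk, P', R, hP', hR, hcomp⟩)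
  set P := X.take (c k) with hP
  set Q := X.drop (c k) with hQ
  have lP : P.length = c k := by rw [hP, List.length_take]; omega
  have eX : P ++ Q = X := List.take_append_drop _ _
  have hPm : lam2 k (P.map D.φ) = some v := by
    have e : ((X.take D.p0).map D.φ).take (c k) = P.map D.φ := by
      rw [← List.map_take, List.take_take, min_eq_left hck]
    rw [e] at hl; exact hl
  set Q0 := Q.take (D.p0 - c k) with hQ0
  set Y := (X.take t).drop D.p0 with hY
  set Z := X.drop t with hZ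
  have hQ0' : rho2 k (Q0.map D.φ) = some b := by
    have e : ((X.take D.p0).map D.φ).drop (c k) = Q0.map D.φ := by
      rw [← List.map_drop, hQ0, hQ]
      congr 1
      rw [List.drop_take]
    rw [e] at hb; exact hb
  have lQ0 : P.length + Q0.length = D.p0 := by
    rw [lP, hQ0, List.length_take, hQ, List.length_drop]; omega
  have lY : Y.length = t - D.p0 := by rw [hY, List.length_drop, List.length_take]; omega
  have eQ : Q = Q0 ++ (Y ++ Z) := by
    have e1 : Y ++ Z = X.drop D.p0 := by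
      have : X.drop D.p0 = (X.take t ++ X.drop t).drop D.p0 := by rw [List.take_append_drop]
      rw [this, List.drop_append_of_le_length (by rw [List.length_take]; omega)]
    have e2 : X.drop D.p0 = Q.drop (D.p0 - c k) := by
      rw [hQ, List.drop_drop]; congr 1; omega
    rw [e1, e2, hQ0, List.take_append_drop]
  have hval : D.T v X = D.act (D.act b (D.pr Y) + D.nu (Y.map D.φ)) (D.pr Z) := by
    have := v2_eq (Y := Y) (Z := Z) hD hcp sound2 hkK lP hPm lQ0 hQ0' (by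
      rw [← eQ, eX, lY]
      have : D.p0 + (t - D.p0) = t := by omega
      rw [this]; exact h1)
    rw [← eQ, eX] at this
    exact this
  refine ⟨P, Q, eX.symm, ⟨k, hkK, lP, hPm⟩, ?_, ?_⟩
  · intro h0
    have := congrArg List.length h0
    rw [hQ, List.length_drop, List.length_nil] at this
    omega
  · rintro v' P' ⟨j, hj, hP', hlam'⟩
    -- comparable blocks of another place do not exist
    have hother : ∀ R : List α, P' ++ R ∈ D.Bad → (Q <+: R ∨ R <+: Q) → j = k := by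
      intro R hR hcomp
      by_contra hjk
      exact hsp2 j hj hjk P' R hP' hR hcomp
    have hsame : j = k → ∀ R : List α, P' ++ R ∈ D.Bad → (Q <+: R ∨ R <+: Q) → R = Q := by
      intro hjk R hR hcomp
      subst hjk
      have b1 : BX D.n D.Sw (D.z - c j) R := by
        have := (BX_shift P' (by omega)).1 hR.1
        rwa [hP'] at this
      have b2 : BX D.n D.Sw (D.z - c j) Q := by
        have h3 : BX D.n D.Sw D.z (P ++ Q) := by rw [eX]; exact hBX
        have := (BX_shift P (by omega)).1 h3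
        rwa [lP] at this
      rcases hcomp with ⟨s, rfl⟩ | ⟨s, hs⟩
      · have : s = [] := BX.eq_of_append b2 b1
        simp [this]
      · rw [← hs] at b2
        have : s = [] := BX.eq_of_append b1 b2
        rw [← hs, this]; simp
    refine ⟨?_, ?_, ?_⟩
    · rintro ⟨s, hs, hsB⟩
      rw [List.append_assoc] at hsB
      have hc1 : Q <+: Q ++ s ∨ Q ++ s <+: Q := Or.inl (List.prefix_append _ _)
      have hjk := hother _ hsB hc1
      have := hsame hjk _ hsB hc1
      exact hs (by simpa using this)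
    · rintro ⟨X', hX', s, hs, e⟩
      -- `X' = P' ++ R`
      have hlen : P'.length ≤ X'.length := by
        obtain ⟨t', h3, h4⟩ := hX'.1
        have := h3.2.1
        have := h4.2.1
        have := hcp j hj
        omega
      obtain ⟨R, hR⟩ : P' <+: X' := List.prefix_of_prefix_length_le
        ⟨Q, e.symm⟩ ⟨s, rfl⟩ hlen
      subst hR
      rw [List.append_assoc] at e
      have e2 : R ++ s = Q := List.append_cancel_left e
      have hc1 : Q <+: R ∨ R <+: Q := Or.inr ⟨s, e2⟩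
      have hjk := hother _ hX' hc1
      have := hsame hjk _ hX' hc1
      rw [this] at e2
      exact hs (by simpa using e2)
    · intro hB
      have hc1 : Q <+: Q ∨ Q <+: Q := Or.inl List.prefix_rfl
      have hjk := hother _ hB hc1
      subst hjk
      rw [hval, eQ]
      obtain ⟨t', h3, h4⟩ := hB.1
      have hQP : ∀ y, D.z ≤ y → (WE D.n D.Sw (P' ++ Q) y ↔ WE D.n D.Sw X y) := by
        intro y hy
        obtain ⟨y', rfl⟩ : ∃ y', y = c j + y' := ⟨y - c j, by omega⟩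
        have a1 := WE_shift (n := D.n) (S := D.Sw) P' (w := Q) (y := y') (by omega)
        have a2 := WE_shift (n := D.n) (S := D.Sw) P (w := Q) (y := y') (by omega)
        rw [hP'] at a1
        rw [lP, eX] at a2
        rw [a1, a2]
      refine v2_eq hD hcp sound2 hj hP' hlam' (by rw [hP', ← lP]; exact lQ0) hQ0' ?_
      rw [← eQ, lY]
      have e5 : D.p0 + (t - D.p0) = t := by omega
      rw [e5]
      exact ⟨(hQP t htz).2 h1.1, htz, fun y hy1 hy2 hw => h1.2.2 y hy1 hy2 ((hQP y hy1).1 hw)⟩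

end Dt

end Crest.Agent.R320.Asm_700
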