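import Crest.Agent.R320.AsmB_713

/-!
# Row 320: the second (promise) scheme of the all-words assembly (helper713)
-/

set_option autoImplicit false

namespace Crest.Agent.R320.AsmB_713.Dat

open Crest.RegLang Crest.Agent.R320.Hk_851 Crest.Agent.R320.Half1_180 Crest.Agent.R320.AsmA_713

variable {α S V : Type} [Monoid S] [AddCommGroup V] (D : Dat α S V)

theorem BX_len {X : List α} (h : X ∈ D.BX) : D.z < X.length := XX_len D.G h.1

theorem LW_swap {P P' Q : List α} {t : ℕ} (e : P.length = P'.length)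
    (h : P.length + D.G.n ≤ t) : D.G.LW (P ++ Q) t ↔ D.G.LW (P' ++ Q) t := by
  rw [D.LW_suf h, D.LW_suf (by omega), e]

theorem bad_swap {P P' Q : List α} (e : P.length = P'.length) (h : P.length ≤ D.p0)
    (hb : P ++ Q ∈ D.BX) : P' ++ Q ∈ D.BX := by
  have hz := D.hz
  have hl := D.BX_len hb
  have hlen : (P' ++ Q).length = (P ++ Q).length := by
    rw [List.length_append, List.length_append, e]
  obtain ⟨⟨h0, t1, h1, h2, h3, h4⟩, hc⟩ := hb
  refine ⟨⟨?_, t1, h1, by omega, ?_, ?_⟩, ?_⟩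
  · rw [hlen]; exact (D.LW_swap e (by omega)).1 h0
  · exact (D.LW_swap e (by omega)).1 h3
  · intro t ht1 ht2 ht3
    exact h4 t ht1 (by omega) ((D.LW_swap e (by omega)).2 ht3)
  · rcases hc with ⟨t, a, b, l⟩ | hc
    · exact Or.inl ⟨t, a, b, (D.LW_swap e (by omega)).1 l⟩
    · exact Or.inr (by rw [hlen]; exact hc)

def LP2 (v : V) : Language α := Lg fun P => ∃ k < D.K, P.length = D.c k ∧ D.lam2 k P = some v

def Cand (k : ℕ) : Language α := Lg fun Q => ∃ P' : List α, P'.length = D.c k ∧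
  ∃ X ∈ D.BX, X <+: P' ++ Q

def R2 (k : ℕ) (v' : V) : Language α := Lg fun Q => ∃ (q0 Y X2 : List α) (b1 : V),
  Q = q0 ++ (Y ++ X2) ∧ q0.length = D.p0 - D.c k ∧ D.rho2 k q0 = some b1 ∧
  (∃ P' : List α, P'.length = D.c k ∧ P' ++ (q0 ++ Y) ∈ D.BX) ∧ X2 ∈ D.BX ∧
  D.T X2 (D.act b1 (D.ph Y) + D.nu1 Y) = v'

def RQ2 (v' : V) : Language α := Lg fun Q => ∃ k < D.K, Q ∈ D.R2 k v' ∧
  ∀ k' < D.K, k' ≠ k → Q ∉ D.Cand k'

theorem sound2 (v v' : V) (P Q R : List α) (hP : P ∈ D.LP2 v) (hQ : Q ∈ D.RQ2 v')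
    (hB : Bs D.BX (P ++ (Q ++ R))) :
    Tr (XX D.G D.z) D.T v (P ++ Q) v' ∧ Bs D.BX R := by
  have hz := D.hz
  have hW := D.hW
  have hPF := PF_XX D.G D.z
  have hBX : D.BX ⊆ XX D.G D.z := fun X h => h.1
  obtain ⟨k0, hk0, hPl, hlam⟩ := hP
  obtain ⟨k, hk, ⟨q0, Y, X2, b1, rfl, hq0, hrho, ⟨P', hP', hB1⟩, hX2, hv'⟩, hun⟩ := hQ
  have hck := D.hcp k hk
  have hck0 := D.hcp k0 hk0
  have hX2l := D.BX_len hX2
  have hB1l := D.BX_len hB1
  simp only [List.length_append] at hB1l
  -- the first block of the text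
  rcases Bs.inv hPF hBX hB with h0 | ⟨X, hX, w', hw', hBw'⟩
  · exfalso
    have := congrArg List.length h0
    simp only [List.length_append, List.length_nil] at this
    omega
  have hXl := D.BX_len hX
  -- two walls in P ++ Q
  have hB1' := hB1
  obtain ⟨⟨b0, t1, b2, b3, b4, b5⟩, _⟩ := hB1
  have hsep := D.G.sep _ _ _ b3 b4 b0
  simp only [List.length_append] at b0 b3 hsep
  have w1 : D.G.LW (P ++ (q0 ++ (Y ++ X2))) (P.length + (q0.length + Y.length)) := by
    have h1 : D.G.LW (q0 ++ Y) (q0.length + Y.length) := by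
      have := (D.LW_suf (p := P') (w := q0 ++ Y) (by omega)).1 b0
      rwa [show P'.length + (q0.length + Y.length) - P'.length = q0.length + Y.length by omega]
        at this
    have h2 := (D.G.suf P (q0 ++ Y) _ (by omega)).2 h1
    have h3 := (D.G.pre (P ++ (q0 ++ Y)) X2 _ (by simp only [List.length_append]; omega)).2 h2
    have e : P ++ (q0 ++ Y) ++ X2 = P ++ (q0 ++ (Y ++ X2)) := by simp only [List.append_assoc]
    rwa [e] at h3
  have w2 : D.G.LW (P ++ (q0 ++ (Y ++ X2))) (P ++ (q0 ++ (Y ++ X2))).length := by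
    have h1 := hX2.1.1
    have h2 := (D.G.suf (P ++ (q0 ++ Y)) X2 _ (by omega)).2 h1
    have e : P ++ (q0 ++ Y) ++ X2 = P ++ (q0 ++ (Y ++ X2)) := by simp only [List.append_assoc]
    rw [e] at h2
    have e2 : (P ++ (q0 ++ Y)).length + X2.length = (P ++ (q0 ++ (Y ++ X2))).length := by
      simp only [List.length_append]; omega
    rwa [e2] at h2
  obtain ⟨X', hX', hp', _⟩ := exists_block D.G (z := D.z)
    (t1 := P.length + (q0.length + Y.length)) (t2 := (P ++ (q0 ++ (Y ++ X2))).length)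
    (by omega) (by simp only [List.length_append]; omega) w1 w2
  have hXX' : X = X' := by
    obtain ⟨r, hr⟩ := hp'
    refine (hPF.eq (hBX hX) hX' (w := w') (w' := r ++ R) ?_).1
    rw [← hw', ← List.append_assoc, ← List.append_assoc X' r R, hr]
  have hXp : X <+: P ++ (q0 ++ (Y ++ X2)) := hXX' ▸ hp'
  have hkk : k0 = k := by
    by_contra hne
    exact hun k0 hk0 hne ⟨P, hPl, X, hX, hXp⟩
  subst hkk
  have hPB : P ++ (q0 ++ Y) ∈ D.BX := D.bad_swap (by omega) (by omega)
    hB1'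
  have hXe : X = P ++ (q0 ++ Y) ∧ w' = X2 ++ R := by
    refine hPF.eq (hBX hX) (hBX hPB) ?_
    rw [← hw']; simp only [List.append_assoc]
  obtain ⟨rfl, rfl⟩ := hXe
  rcases Bs.inv hPF hBX hBw' with h0 | ⟨X3, hX3, w3, hw3, hBw3⟩
  · exfalso
    have := congrArg List.length h0
    simp only [List.length_append, List.length_nil] at this
    omega
  have he := hPF.eq (hBX hX2) (hBX hX3) hw3
  obtain ⟨rfl, rfl⟩ := he
  refine ⟨?_, hBw3⟩
  have e : P ++ (q0 ++ (Y ++ X2)) = (P ++ (q0 ++ Y)) ++ X2 := by simp only [List.append_assoc]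
  rw [e]
  have hlp : (P ++ q0).length = D.p0 := by rw [List.length_append]; omega
  have eb := D.snd2 k0 hk P q0 v b1 hPl hlp hlam hrho
  have eT : D.T (P ++ (q0 ++ Y)) v = D.act b1 (D.ph Y) + D.nu1 Y := by
    unfold T
    have e1 : (P ++ (q0 ++ Y)).take D.p0 = P ++ q0 := by
      rw [← List.append_assoc, List.take_left' hlp]
    have e2 : (P ++ (q0 ++ Y)).drop D.p0 = Y := by
      rw [← List.append_assoc, List.drop_left' hlp]
    rw [e1, e2, eb]
    rfl
  have h1 : Tr (XX D.G D.z) D.T v (P ++ (q0 ++ Y)) (D.T (P ++ (q0 ++ Y)) v) :=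
    Tr.single (hBX hPB)
  have h2 : Tr (XX D.G D.z) D.T (D.T (P ++ (q0 ++ Y)) v) X2
    (D.T X2 (D.T (P ++ (q0 ++ Y)) v)) := Tr.single (hBX hX2)
  have h3 := h1.append h2
  rw [eT, hv'] at h3
  exact h3

/-! ### spoiling -/

open Classical in
theorem spoil {Y1 Y2 : List α} (h1 : Y1 ∈ D.BX) (h2 : Y2 ∈ D.BX) :
    ((Finset.range D.K).filter fun k => ∃ k' < D.K, k' ≠ k ∧
      Y1.drop (D.c k) ++ Y2 ∈ D.Cand k').card ≤ 2 * D.C0 + 1 := by
  have hz := D.hz
  have hW := D.hW
  set w := Y1 ++ Y2 with hw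
  have l1 := D.BX_len h1
  have l2 := D.BX_len h2
  have hwl : w.length = Y1.length + Y2.length := List.length_append
  obtain ⟨⟨a0, a1, a2, a3, a4, a5⟩, _⟩ := h1
  obtain ⟨⟨c0, c1, c2, c3, c4, c5⟩, _⟩ := h2
  have W1 : D.G.LW w a1 := (D.G.pre Y1 Y2 _ (by omega)).2 a4
  have W2 : D.G.LW w Y1.length := (D.G.pre Y1 Y2 _ le_rfl).2 a0
  have W3 : D.G.LW w (Y1.length + c1) := (D.G.suf Y1 Y2 _ (by omega)).2 c4
  -- the walls b1 < b2 < b3 after z - p0
  have ex1 : ∃ b, D.z - D.p0 ≤ b ∧ D.G.LW w b := ⟨a1, by omega, W1⟩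
  obtain ⟨f1, f2⟩ := Nat.find_spec ex1
  set b1 := Nat.find ex1 with hb1
  have m1 : b1 ≤ a1 := Nat.find_min' ex1 ⟨by omega, W1⟩
  have ex2 : ∃ b, b1 < b ∧ D.G.LW w b := ⟨Y1.length, by omega, W2⟩
  obtain ⟨g1, g2⟩ := Nat.find_spec ex2
  set b2 := Nat.find ex2 with hb2
  have m2 : b2 ≤ Y1.length := Nat.find_min' ex2 ⟨by omega, W2⟩
  have ex3 : ∃ b, b2 < b ∧ D.G.LW w b := ⟨Y1.length + c1, by omega, W3⟩
  obtain ⟨k1, k2⟩ := Nat.find_spec ex3
  set b3 := Nat.find ex3 with hb3
  have s12 := D.G.sep _ _ _ g1 f2 g2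
  have s23 := D.G.sep _ _ _ k1 g2 k2
  -- pairs
  let PE := ((Finset.range D.K ×ˢ Finset.range D.K).filter fun p => p.1 ≠ p.2 ∧
    ∃ b, D.G.LW w b ∧ D.z + D.c p.1 ≤ b + D.c p.2 + D.N1 ∧ b + D.c p.2 ≤ D.z + D.c p.1 + D.N1)
  let PB := fun e => ((Finset.range D.K ×ˢ Finset.range D.K).filter
      (fun p => p.1 ≠ p.2 ∧ D.Bad (e + D.c p.2 - D.c p.1)))
  have cE : PE.card ≤ 1 := by
    rw [Finset.card_le_one]
    rintro ⟨i, j⟩ hi ⟨k, l⟩ hk
    simp only [PE, Finset.mem_filter, Finset.mem_product, Finset.mem_range] at hi hk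
    obtain ⟨⟨i1, j1⟩, ij, b, lb, ib1, ib2⟩ := hi
    obtain ⟨⟨i2, j2⟩, kl, b', lb', ib3, ib4⟩ := hk
    have e1 := D.hcp i i1
    have e2 := D.hcp j j1
    have e3 := D.hcp k i2
    have e4 := D.hcp l j2
    have hbb : b = b' := by
      by_contra hne
      rcases lt_or_gt_of_ne hne with h | h
      · have := D.G.sep _ _ _ h lb lb'; omega
      · have := D.G.sep _ _ _ h lb' lb; omega
    subst hbb
    by_contra hne
    rcases D.hrul i j k l i1 j1 i2 j2 ij kl hne with h | h <;> omega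
  have cB2 : (PB (b2 - D.p0)).card ≤ D.C0 := D.hcard _ (by omega)
  have cB3 : (PB (b3 - D.p0)).card ≤ D.C0 := D.hcard _ (by omega)
  have hsub : ((Finset.range D.K).filter fun k => ∃ k' < D.K, k' ≠ k ∧
      Y1.drop (D.c k) ++ Y2 ∈ D.Cand k') ⊆
      ((PE ∪ PB (b2 - D.p0)) ∪ PB (b3 - D.p0)).image Prod.fst := by
    intro k hk
    rw [Finset.mem_filter, Finset.mem_range] at hk
    obtain ⟨hk, k', hk', hne, P', hP', X, hX, hXp⟩ := hk
    have ck := D.hcp k hk
    have ck' := D.hcp k' hk'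
    have eq : Y1.drop (D.c k) ++ Y2 = w.drop (D.c k) := by
      rw [hw, List.drop_append_of_le_length (by omega)]
    rw [eq] at hXp
    have hXl := D.BX_len hX
    -- transfer of walls
    have tr : ∀ t, D.p0 + D.G.n ≤ t → t ≤ X.length →
        (D.G.LW X t ↔ D.G.LW w (t + D.c k - D.c k')) := by
      intro t ht htl
      obtain ⟨r, hr⟩ := hXp
      rw [← D.G.pre X r t htl, hr, D.LW_suf (by omega)]
      have := D.G.suf (w.take (D.c k)) (w.drop (D.c k)) (t - P'.length) (by omega)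
      rw [List.take_append_drop, List.length_take, min_eq_left (by omega)] at this
      rw [← this, hP', show D.c k + (t - D.c k') = t + D.c k - D.c k' by omega]
    rw [Finset.mem_image]
    obtain ⟨⟨x0, t1, x1, x2, x3, x4⟩, hc⟩ := hX
    rcases hc with ⟨t, ht1, ht2, hlt⟩ | hbad
    · -- mode (E)
      refine ⟨(k, k'), ?_, rfl⟩
      refine Finset.mem_union_left _ (Finset.mem_union_left _ ?_)
      simp only [PE, Finset.mem_filter, Finset.mem_product, Finset.mem_range]
      have htl := D.G.le _ _ hlt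
      exact ⟨⟨hk, hk'⟩, fun h => hne h.symm, t + D.c k - D.c k', (tr t (by omega) htl).1 hlt,
        by omega, by omega⟩
    · -- mode (B)
      refine ⟨(k, k'), ?_, rfl⟩
      have y0 : D.G.LW w (X.length + D.c k - D.c k') := (tr _ (by omega) le_rfl).1 x0
      have y1 : D.G.LW w (t1 + D.c k - D.c k') := (tr _ (by omega) (by omega)).1 x3
      have ub : ∀ b, D.G.LW w b → D.z + D.c k ≤ b + D.c k' → b + D.c k' < X.length + D.c k →
          b + D.c k' = t1 + D.c k := by
        intro b lb h1 h2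
        have h3 := (tr (b + D.c k' - D.c k) (by omega) (by omega)).2 (by
          rw [show b + D.c k' - D.c k + D.c k - D.c k' = b by omega]; exact lb)
        have := x4 _ (by omega) (by omega) h3
        omega
      have gb1 : b1 ≤ t1 + D.c k - D.c k' := Nat.find_min' ex1 ⟨by omega, y1⟩
      have key : X.length + D.c k - D.c k' = b2 ∨ X.length + D.c k - D.c k' = b3 := by
        rcases Nat.eq_or_lt_of_le gb1 with h | h
        · left
          have u1 : b2 ≤ X.length + D.c k - D.c k' := Nat.find_min' ex2 ⟨by omega, y0⟩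
          by_contra hne2
          have := ub b2 g2 (by omega) (by omega)
          omega
        · right
          have u1 : b2 ≤ t1 + D.c k - D.c k' := Nat.find_min' ex2 ⟨by omega, y1⟩
          have u2 : b2 = t1 + D.c k - D.c k' := by
            have := ub b2 g2 (by omega) (by omega)
            omega
          have u3 : b3 ≤ X.length + D.c k - D.c k' := Nat.find_min' ex3 ⟨by omega, y0⟩
          by_contra hne2
          have := ub b3 k2 (by omega) (by omega)
          omega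
      rcases key with h | h
      · refine Finset.mem_union_left _ (Finset.mem_union_right _ ?_)
        simp only [PB, Finset.mem_filter, Finset.mem_product, Finset.mem_range]
        refine ⟨⟨hk, hk'⟩, fun h => hne h.symm, ?_⟩
        rw [show b2 - D.p0 + D.c k' - D.c k = X.length - D.p0 by omega]
        exact hbad
      · refine Finset.mem_union_right _ ?_
        simp only [PB, Finset.mem_filter, Finset.mem_product, Finset.mem_range]
        refine ⟨⟨hk, hk'⟩, fun h => hne h.symm, ?_⟩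
        rw [show b3 - D.p0 + D.c k' - D.c k = X.length - D.p0 by omega]
        exact hbad
  calc _ ≤ _ := Finset.card_le_card hsub
    _ ≤ _ := Finset.card_image_le
    _ ≤ (PE ∪ PB (b2 - D.p0)).card + (PB (b3 - D.p0)).card := Finset.card_union_le _ _
    _ ≤ PE.card + (PB (b2 - D.p0)).card + (PB (b3 - D.p0)).card := by
        have := Finset.card_union_le PE (PB (b2 - D.p0))
        omega
    _ ≤ 2 * D.C0 + 1 := by omega

theorem compl2 {Y1 Y2 : List α} (h1 : Y1 ∈ D.BX) (h2 : Y2 ∈ D.BX) (v : V) :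
    ∃ P Q, Y1 ++ Y2 = P ++ Q ∧ P ∈ D.LP2 v ∧ Q ∈ D.RQ2 (D.T Y2 (D.T Y1 v)) := by
  classical
  have hz := D.hz
  have l1 := D.BX_len h1
  have hlu : (Y1.take D.p0).length = D.p0 := by rw [List.length_take]; omega
  obtain ⟨I, hI, hI2⟩ := D.cmp2 (Y1.take D.p0) v hlu
  have hsp := D.spoil h1 h2
  have hex : ∃ k ∈ I, k ∉ ((Finset.range D.K).filter fun k => ∃ k' < D.K, k' ≠ k ∧
      Y1.drop (D.c k) ++ Y2 ∈ D.Cand k') := by
    by_contra hc
    push Not at hc
    have := Finset.card_le_card (show I ⊆ _ from fun k hk => hc k hk)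
    omega
  obtain ⟨k, hkI, hk⟩ := hex
  obtain ⟨hkK, hl, hr⟩ := hI2 k hkI
  have ck := D.hcp k hkK
  obtain ⟨b1, hb1⟩ := Option.isSome_iff_exists.1 hr
  have et : (Y1.take D.p0).take (D.c k) = Y1.take (D.c k) := by
    rw [List.take_take, min_eq_left ck]
  have htl : (Y1.take (D.c k)).length = D.c k := by rw [List.length_take]; omega
  refine ⟨Y1.take (D.c k), Y1.drop (D.c k) ++ Y2, by
    rw [← List.append_assoc, List.take_append_drop], ⟨k, hkK, htl, by rw [← et]; exact hl⟩, ?_⟩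
  refine ⟨k, hkK, ?_, ?_⟩
  · refine ⟨(Y1.take D.p0).drop (D.c k), Y1.drop D.p0, Y2, b1, ?_, ?_, hb1,
      ⟨Y1.take (D.c k), htl, ?_⟩, h2, ?_⟩
    · rw [← List.append_assoc]
      congr 1
      have : Y1.drop (D.c k) = (Y1.take D.p0 ++ Y1.drop D.p0).drop (D.c k) := by
        rw [List.take_append_drop]
      rw [this, List.drop_append_of_le_length (by omega)]
    · rw [List.length_drop, hlu]
    · have : Y1.take (D.c k) ++ ((Y1.take D.p0).drop (D.c k) ++ Y1.drop D.p0) = Y1 := by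
        rw [← et, ← List.append_assoc, List.take_append_drop, List.take_append_drop]
      rw [this]; exact h1
    · have := D.snd2 k hkK ((Y1.take D.p0).take (D.c k)) ((Y1.take D.p0).drop (D.c k)) v b1
        (by rw [et]; exact htl) (by rw [List.take_append_drop]; exact hlu) hl hb1
      rw [List.take_append_drop] at this
      rw [this]
      rfl
  · intro k' hk' hne hc
    apply hk
    rw [Finset.mem_filter, Finset.mem_range]
    exact ⟨hkK, k', hk', hne, hc⟩

end Crest.Agent.R320.AsmB_713.Dat
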