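import Crest.Agent.R320.AsmB_834

/-!
# Row 320: two schemes on all words: height one facts and the join (helper834)
-/

set_option autoImplicit false

namespace Crest.Agent.R320.Asm_834

open Crest.RegLang Crest.Agent.R320.Hk_851 Crest.Agent.R320.Half1_180

variable {α S V : Type} [Monoid S] [AddCommGroup V]

namespace Dat

variable (D : Dat α S V) [Finite α] [Finite S] [Finite V]

theorem hl_Z (s : S) : HL 1 (Lg fun Z => Z ∈ FW D.w D.w.n ∧ pr D.f Z = s) := by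
  refine (fam D.w D.f D.w.n D.w.n 0 1 one_pos (fun _ _ m => m = s)).congr fun x => ?_
  show _ ↔ _ ∧ ((x.drop 0).map D.f).prod = s
  rw [List.drop_zero]
  exact Iff.rfl

theorem hl_Q (h : D.Ok) (r : V) : HL 1 (Lg fun q => q ∈ D.QQ ∧ D.rho q = some r) := by
  have hz := h.hz
  refine (fam D.w D.f (D.z - D.N1) D.z D.La D.Pm h.hPm (fun y k m => ∃ q' : List α,
    D.La ≤ q'.length ∧ q'.take D.La = y ∧ q'.length % D.Pm = k ∧ pr D.f (q'.drop D.La) = m ∧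
    D.rho q' = some r)).congr fun x => ?_
  constructor
  · rintro ⟨h1, h2⟩
    have := h1.2.1
    exact ⟨h1, x, by omega, rfl, rfl, rfl, h2⟩
  · rintro ⟨h1, q', h2, h3, h4, h5, h6⟩
    have := h1.2.1
    refine ⟨h1, ?_⟩
    rw [← h6]
    exact (h.reg1 x q' (by omega) h2 h3.symm h4.symm h5.symm).1

theorem hl_Y (h : D.Ok) (v r : V) : HL 1 (Lg fun Y => Y ∈ FW D.w D.z ∧ D.BadY Y ∧
    D.act v (pr D.f Y) + D.nu1 Y = r) := by
  have hz := h.hz
  refine (fam D.w D.f D.z D.z (D.z + D.N1) D.Pm h.hPm (fun y k m =>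
    ((∃ t, D.z - D.N1 ≤ t ∧ t < D.z + D.N1 ∧ t ≤ y.length ∧ D.w.Wo (y.take t)) ∨ D.Bd k) ∧
    ∃ q' : List α, D.z ≤ q'.length ∧ q'.take (D.z + D.N1) = y ∧ q'.length % D.Pm = k ∧
    pr D.f (q'.drop (D.z + D.N1)) = m ∧ D.act v (pr D.f q') + D.nu1 q' = r)).congr fun x => ?_
  have hE : (∃ t, D.z - D.N1 ≤ t ∧ t < D.z + D.N1 ∧ t ≤ (x.take (D.z + D.N1)).length ∧
      D.w.Wo ((x.take (D.z + D.N1)).take t)) ↔
      (∃ t, D.z - D.N1 ≤ t ∧ t < D.z + D.N1 ∧ t ≤ x.length ∧ D.w.Wo (x.take t)) := by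
    constructor
    · rintro ⟨t, h1, h2, h3, h4⟩
      rw [List.length_take] at h3
      rw [List.take_take, Nat.min_eq_left (by omega)] at h4
      exact ⟨t, h1, h2, by omega, h4⟩
    · rintro ⟨t, h1, h2, h3, h4⟩
      refine ⟨t, h1, h2, by rw [List.length_take]; omega, ?_⟩
      rw [List.take_take, Nat.min_eq_left (by omega)]; exact h4
  constructor
  · rintro ⟨h1, h2, h3⟩
    refine ⟨h1, ?_, x, h1.2.1, rfl, rfl, rfl, h3⟩
    rcases h2 with h2 | h2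
    · exact Or.inl (hE.2 h2)
    · exact Or.inr ((h.hBd _).1 h2)
  · rintro ⟨h1, h2, q', h3, h4, h5, h6, h7⟩
    have hx := h1.2.1
    refine ⟨h1, ?_, ?_⟩
    · rcases h2 with h2 | h2
      · exact Or.inl (hE.1 h2)
      · exact Or.inr ((h.hBd _).2 h2)
    · have e1 : pr D.f x = pr D.f q' := by
        rw [← List.take_append_drop (D.z + D.N1) x, ← List.take_append_drop (D.z + D.N1) q',
          pr_app, pr_app, h4, h6]
        rfl
      have hla : ∀ y : List α, D.z ≤ y.length →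
          y.drop D.La = (y.take (D.z + D.N1)).drop D.La ++ y.drop (D.z + D.N1) := by
        intro y hy
        conv_lhs => rw [← List.take_append_drop (D.z + D.N1) y]
        rw [List.drop_append_of_le_length (by rw [List.length_take]; omega)]
      have htk : ∀ y : List α, y.take D.La = (y.take (D.z + D.N1)).take D.La := by
        intro y
        rw [List.take_take, Nat.min_eq_left (by omega)]
      have e2 := (h.reg1 x q' (by omega) (by omega) (by rw [htk x, htk q', h4]) h5.symm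
        (by rw [hla x hx, hla q' h3, pr_app, pr_app, h4, h6]; rfl)).2
      rw [e1, e2]; exact h7

theorem hl_finite {L : Language α} (n : ℕ) (hL : ∀ w ∈ L, w.length ≤ n) (k : ℕ) : HL k L :=
  HL.finite ((List.finite_length_le α n).subset hL)

theorem hl_LP1 (h : D.Ok) (k : ℕ) (v : V) : HL k (D.LP1 v) := by
  refine hl_finite (D.p0 + D.N1) ?_ k
  rintro P ⟨X1, p, rfl, h1, h2⟩
  have := h.lam_len _ _ h2
  rw [List.length_append]; omega

theorem hl_LP2 (h : D.Ok) (k : ℕ) (v : V) : HL k (D.LP2 v) := by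
  refine hl_finite D.p0 ?_ k
  rintro P ⟨k, hk, h1, h2⟩
  have := h.cp0 k hk
  omega

theorem hl_RQ1 (h : D.Ok) (v' : V) : HL 1 (D.RQ1 v') := by
  refine (HL.iUnion fun p : {p : V × S // D.act p.1 p.2 = v'} =>
    (D.hl_Q h p.1.1).mul (D.hl_Z p.1.2)).congr fun x => ?_
  constructor
  · rintro ⟨q, Z, r, rfl, h1, h2, h3, h4⟩
    exact ⟨⟨(r, pr D.f Z), h4⟩, Language.mem_mul.2 ⟨q, ⟨h1, h3⟩, Z, ⟨h2, rfl⟩, rfl⟩⟩
  · rintro ⟨⟨p, hp⟩, hx⟩
    obtain ⟨q, ⟨h1, h3⟩, Z, ⟨h2, h4⟩, rfl⟩ := Language.mem_mul.1 hx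
    refine ⟨q, Z, p.1, rfl, h1, h2, h3, ?_⟩
    rw [h4]; exact hp

/-- bad `Y`-parts -/
theorem hl_YB (h : D.Ok) : HL 1 (Lg fun Y => Y ∈ FW D.w D.z ∧ D.BadY Y) := by
  refine (HL.iUnion fun r : V => D.hl_Y h 0 r).congr fun x => ?_
  constructor
  · rintro ⟨h1, h2⟩
    exact ⟨_, h1, h2, rfl⟩
  · rintro ⟨r, h1, h2, h3⟩
    exact ⟨h1, h2⟩

theorem hl_ZZ : HL 1 (Lg fun Z => Z ∈ FW D.w D.w.n) := by
  refine (HL.iUnion fun s : S => D.hl_Z s).congr fun x => ?_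
  constructor
  · intro h1
    exact ⟨_, h1, rfl⟩
  · rintro ⟨s, h1, h2⟩
    exact h1

theorem hl_Bad (h : D.Ok) : HL 1 (Lof D.Bad) := by
  refine ((HL.length_eq D.p0).mul ((D.hl_YB h).mul D.hl_ZZ)).congr fun x => ?_
  constructor
  · rintro ⟨X1, Y, Z, rfl, h1, h2, h3, h4⟩
    exact Language.mem_mul.2 ⟨X1, h1, Y ++ Z, Language.mem_mul.2 ⟨Y, ⟨h2, h4⟩, Z, h3, rfl⟩, rfl⟩
  · intro hx
    obtain ⟨X1, h1, U, hU, rfl⟩ := Language.mem_mul.1 hx
    obtain ⟨Y, ⟨h2, h4⟩, Z, h3, rfl⟩ := Language.mem_mul.1 hU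
    exact ⟨X1, Y, Z, rfl, h1, h2, h3, h4⟩

theorem hl_CB (h : D.Ok) (k : ℕ) : HL 1 (Lg fun Q => D.CB k Q) := by
  refine ((HL.length_eq (D.p0 - D.c k)).mul ((D.hl_YB h).mul HL.top)).congr fun x => ?_
  have hn := D.w.hn
  constructor
  · rintro ⟨Y, U, h1, h2, h3⟩
    have hY := D.w.len _ h2.1
    have hl := congrArg List.length h1
    rw [List.length_drop, List.length_append] at hl
    refine Language.mem_mul.2 ⟨x.take (D.p0 - D.c k), ?_, Y ++ U,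
      Language.mem_mul.2 ⟨Y, ⟨h2, h3⟩, U, trivial, rfl⟩, ?_⟩
    · show (x.take (D.p0 - D.c k)).length = _
      rw [List.length_take]; omega
    · rw [← h1, List.take_append_drop]
  · intro hx
    obtain ⟨X1, h1, U, hU, rfl⟩ := Language.mem_mul.1 hx
    obtain ⟨Y, ⟨h2, h4⟩, Z, h3, rfl⟩ := Language.mem_mul.1 hU
    have h1' : X1.length = D.p0 - D.c k := h1
    refine ⟨Y, Z, ?_, h2, h4⟩
    rw [← h1', List.drop_left]

theorem hl_RQ2 (h : D.Ok) (v' : V) : HL 1 (D.RQ2 v') := by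
  classical
  have h1 : ∀ k : Fin D.K, ∀ p : {p : V × V × S // D.act p.2.1 p.2.2 = v'},
      HL 1 (((Lg fun Q => Q.length = D.p0 - D.c k.1 ∧ D.rho2 k.1 Q = some p.1.1) *
        ((Lg fun Y => Y ∈ FW D.w D.z ∧ D.BadY Y ∧ D.act p.1.1 (pr D.f Y) + D.nu1 Y = p.1.2.1) *
          (Lg fun Z => Z ∈ FW D.w D.w.n ∧ pr D.f Z = p.1.2.2))) ⊓
        ({w | ∀ j : {j : Fin D.K // j ≠ k}, w ∈ (Lg fun Q => D.CB j.1.1 Q)ᶜ} : Language α)) := by
    intro k p
    refine HL.inf ((hl_finite (D.p0 - D.c k.1) ?_ 1).mul ((D.hl_Y h _ _).mul (D.hl_Z _))) ?_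
    · rintro w ⟨h1, _⟩
      exact h1.le
    · exact HL.iInter fun j => (D.hl_CB h _).compl
  refine (HL.iUnion fun k => HL.iUnion fun p => h1 k p).congr fun x => ?_
  constructor
  · rintro ⟨k, hk, Q1, Y, Z, r, rfl, h1, h2, h3, h4, h5, h6, h7⟩
    refine ⟨⟨k, hk⟩, ⟨(r, D.act r (pr D.f Y) + D.nu1 Y, pr D.f Z), h7⟩, ?_, ?_⟩
    · exact Language.mem_mul.2 ⟨Q1, ⟨h1, h6⟩, Y ++ Z,
        Language.mem_mul.2 ⟨Y, ⟨h2, h4, rfl⟩, Z, ⟨h3, rfl⟩, rfl⟩, rfl⟩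
    · rintro ⟨j, hj⟩ hcb
      exact h5 j.1 j.2 (fun e => hj (Fin.ext e)) hcb
  · rintro ⟨k, ⟨p, hp⟩, hx, hx2⟩
    obtain ⟨Q1, ⟨h1, h6⟩, U, hU, rfl⟩ := Language.mem_mul.1 hx
    obtain ⟨Y, ⟨h2, h4, h8⟩, Z, ⟨h3, h9⟩, rfl⟩ := Language.mem_mul.1 hU
    refine ⟨k.1, k.2, Q1, Y, Z, p.1, rfl, h1, h2, h3, h4, ?_, h6, ?_⟩
    · intro j hj hjk hcb
      exact hx2 ⟨⟨j, hj⟩, fun e => hjk (congrArg Fin.val e)⟩ hcb
    · rw [h8, h9]; exact hp

/-! ### tails -/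

def NN (r : ℕ) : Set (List α) := {x | ∀ t, r ≤ t → t ≤ x.length → ¬ D.w.Wo (x.take t)}

theorem hl_NN (r : ℕ) (s : S) : HL 1 (Lg fun x => x ∈ D.NN r ∧ pr D.f x = s) := by
  have h0 : HL 0 (Lg fun v => D.w.Wo v ∧ r ≤ v.length) :=
    (D.w.reg.inf (HL.length_ge r)).congr fun w => Iff.rfl
  have h1 : Language.IsRegular (Lg fun x : List α => pr D.f x = s) := by
    have := reg_F D.f 0 1 one_pos (fun (_ : List α) (_ : ℕ) m => m = s)
    refine Crest.R320.Reg_143.isRegular_congr this fun x => ?_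
    show ((x.drop 0).map D.f).prod = s ↔ _
    rw [List.drop_zero]
    exact Iff.rfl
  refine (fam0 D.w r ((Crest.Agent.R320.Reg_236.HL.isRegular h0.compl).inf h1)).congr fun x => ?_
  constructor
  · rintro ⟨h2, h3⟩
    refine ⟨fun t h4 h5 => h2 t h4 h5.le, ?_, h3⟩
    rintro ⟨h4, h5⟩
    exact h2 x.length h5 le_rfl (by rw [List.take_length]; exact h4)
  · rintro ⟨h2, h3, h4⟩
    refine ⟨fun t h5 h6 h7 => ?_, h4⟩
    rcases Nat.lt_or_ge t x.length with hc | hc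
    · exact h2 t h5 hc h7
    · have : t = x.length := by omega
      subst this
      rw [List.take_length] at h7
      exact h3 ⟨h7, h5⟩

theorem hl_FWs (r : ℕ) (s : S) : HL 1 (Lg fun Y => Y ∈ FW D.w r ∧ pr D.f Y = s) := by
  refine (fam D.w D.f r r 0 1 one_pos (fun _ _ m => m = s)).congr fun x => ?_
  show _ ↔ _ ∧ ((x.drop 0).map D.f).prod = s
  rw [List.drop_zero]
  exact Iff.rfl

/-- a word has a prefix in `FW r` or is in `NN r` -/
theorem fw_or (r : ℕ) (x : List α) : x ∈ D.NN r ∨ ∃ Y R, x = Y ++ R ∧ Y ∈ FW D.w r := by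
  classical
  by_cases hx : ∃ t, r ≤ t ∧ t ≤ x.length ∧ D.w.Wo (x.take t)
  · right
    refine ⟨x.take (Nat.find hx), x.drop (Nat.find hx), (List.take_append_drop _ _).symm, ?_⟩
    obtain ⟨h1, h2, h3⟩ := Nat.find_spec hx
    refine ⟨h3, by rw [List.length_take]; omega, ?_⟩
    intro t ht1 ht2 ht3
    rw [List.length_take] at ht2
    rw [List.take_take, Nat.min_eq_left (by omega)] at ht3
    exact Nat.find_min hx (by omega) ⟨ht1, by omega, ht3⟩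
  · left
    intro t h1 h2 h3
    exact hx ⟨t, h1, h2, h3⟩

theorem NN_not {r : ℕ} {x Y R : List α} (hx : x ∈ D.NN r) (hY : Y ∈ FW D.w r)
    (e : x = Y ++ R) : False := by
  subst e
  exact hx Y.length hY.2.1 (by simp) (by rw [List.take_left]; exact hY.1)

theorem hl_tail (s : S) : HL 1 (Lg fun E => E ∈ Tail D.XX ∧ (E.map D.f).prod = s) := by
  have h0 : HL 1 (Lg fun E : List α => E.length < D.p0 ∧ pr D.f E = s) :=
    hl_finite D.p0 (by rintro w ⟨h1, _⟩; exact Nat.le_of_lt h1) 1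
  have hX : ∀ s, HL 1 (Lg fun E : List α => E.length = D.p0 ∧ pr D.f E = s) := fun s =>
    hl_finite D.p0 (by rintro w ⟨h1, _⟩; exact h1.le) 1
  have h1 : HL 1 ({w | ∃ p : {p : S × S // p.1 * p.2 = s},
      w ∈ (Lg fun E : List α => E.length = D.p0 ∧ pr D.f E = p.1.1) *
        (Lg fun x => x ∈ D.NN D.z ∧ pr D.f x = p.1.2)} : Language α) :=
    HL.iUnion fun p => (hX _).mul (D.hl_NN _ _)
  have h2 : HL 1 ({w | ∃ p : {p : S × S × S // p.1 * (p.2.1 * p.2.2) = s},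
      w ∈ (Lg fun E : List α => E.length = D.p0 ∧ pr D.f E = p.1.1) *
        ((Lg fun Y => Y ∈ FW D.w D.z ∧ pr D.f Y = p.1.2.1) *
        (Lg fun x => x ∈ D.NN D.w.n ∧ pr D.f x = p.1.2.2))} : Language α) :=
    HL.iUnion fun p => (hX _).mul ((D.hl_FWs _ _).mul (D.hl_NN _ _))
  refine ((h0.sup h1).sup h2).congr fun E => ?_
  constructor
  · rintro ⟨hT, hs⟩
    by_cases hl : E.length < D.p0
    · exact Or.inl (Or.inl ⟨hl, hs⟩)
    · have hl1 : (E.take D.p0).length = D.p0 := by rw [List.length_take]; omega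
      rcases D.fw_or D.z (E.drop D.p0) with hn | ⟨Y, R, hYR, hY⟩
      · refine Or.inl (Or.inr ⟨⟨(pr D.f (E.take D.p0), pr D.f (E.drop D.p0)), ?_⟩,
          Language.mem_mul.2 ⟨_, ⟨hl1, rfl⟩, _, ⟨hn, rfl⟩, List.take_append_drop _ _⟩⟩)
        show pr D.f (E.take D.p0) * pr D.f (E.drop D.p0) = s
        rw [← pr_app, List.take_append_drop]; exact hs
      · rcases D.fw_or D.w.n R with hn | ⟨Z, R', hZR, hZ⟩
        · refine Or.inr ⟨⟨(pr D.f (E.take D.p0), pr D.f Y, pr D.f R), ?_⟩,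
            Language.mem_mul.2 ⟨_, ⟨hl1, rfl⟩, Y ++ R, Language.mem_mul.2 ⟨Y, ⟨hY, rfl⟩, R,
              ⟨hn, rfl⟩, rfl⟩, by rw [← hYR, List.take_append_drop]⟩⟩
          show pr D.f (E.take D.p0) * (pr D.f Y * pr D.f R) = s
          rw [← pr_app, ← pr_app, ← hYR, List.take_append_drop]; exact hs
        · exfalso
          refine hT (E.take D.p0 ++ (Y ++ Z)) ⟨_, Y, Z, rfl, hl1, hY, hZ⟩ ⟨R', ?_⟩
          rw [List.append_assoc, List.append_assoc, ← hZR, ← hYR, List.take_append_drop]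
  · rintro ((⟨hl, hs⟩ | ⟨⟨p, hp⟩, hE⟩) | ⟨⟨p, hp⟩, hE⟩)
    · refine ⟨?_, hs⟩
      rintro X ⟨X1, Y, Z, rfl, h1, h2, h3⟩ ⟨R, hR⟩
      have := congrArg List.length hR
      simp only [List.length_append] at this
      omega
    · obtain ⟨X0, ⟨hX0, e1⟩, U, ⟨hU, e2⟩, rfl⟩ := Language.mem_mul.1 hE
      refine ⟨?_, ?_⟩
      · rintro X ⟨X1, Y, Z, rfl, h1, h2, h3⟩ ⟨R, hR⟩
        have e : X0 ++ U = X1 ++ (Y ++ (Z ++ R)) := by rw [← hR]; simp
        obtain ⟨_, e4⟩ := List.append_inj e (hX0.trans h1.symm)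
        exact D.NN_not hU h2 e4
      · show pr D.f (X0 ++ U) = s
        rw [pr_app, e1, e2]; exact hp
    · obtain ⟨X0, ⟨hX0, e1⟩, U, hU', rfl⟩ := Language.mem_mul.1 hE
      obtain ⟨Y0, ⟨hY0, e2⟩, U, ⟨hU, e3⟩, rfl⟩ := Language.mem_mul.1 hU'
      refine ⟨?_, ?_⟩
      · rintro X ⟨X1, Y, Z, rfl, h1, h2, h3⟩ ⟨R, hR⟩
        have e : X0 ++ (Y0 ++ U) = X1 ++ (Y ++ (Z ++ R)) := by rw [← hR]; simp
        obtain ⟨_, e4⟩ := List.append_inj e (hX0.trans h1.symm)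
        obtain ⟨_, e5⟩ := FW.eq hY0 h2 e4
        exact D.NN_not hU h3 e5
      · show pr D.f (X0 ++ (Y0 ++ U)) = s
        rw [pr_app, pr_app, e1, e2, e3]; exact hp

/-- **join** -/
theorem main (h : D.Ok) (act_zero : ∀ s, D.act 0 s = 0) (act_one : ∀ v, D.act v 1 = v)
    (faithful : ∀ s s', (∀ v, D.act v s = D.act v s') → s = s') (s : S) :
    HL 3 ({w | (w.map D.f).prod = s} : Language α) :=
  top1 (k := 1) D.f D.act act_zero act_one h.act_mul faithful D.XX D.Good D.Bad D.PF_XX D.XX_eq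
    D.T (D.hT h) D.LP1 D.RQ1 (D.hl_LP1 h _) (fun v => (D.hl_RQ1 h v).mono (by norm_num))
    (D.sound1 h) (D.compl1 h) (D.hl_Bad h) D.LP2 D.RQ2 (D.hl_LP2 h _) (D.hl_RQ2 h)
    (by
      rintro v ⟨k, hk, h1, -⟩
      have := h.cpos k hk
      simp at h1
      omega)
    (D.sound2 h) (D.compl2 h) (fun s => (D.hl_tail s).mono (by norm_num)) s

end Dat

end Crest.Agent.R320.Asm_834
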