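import Crest.Agent.R320.AsmB_85

/-! Row 320: assembly, part C. -/

set_option autoImplicit false

namespace Crest.Agent.R320.Asm_85

open Crest.RegLang Crest.Agent.R320.Hk_851 Crest.Agent.R320.Blk467 Crest.Agent.R320.CompR_11
  Crest.Agent.R320.Pump_360 Crest.Agent.R320.RegBd_11

universe u

variable {α : Type u} {k : ℕ}

open Classical in
/-- the abstract all-words gadget (772's UGI with 440's correction) -/
def UGI (S V : Type u) [Monoid S] [AddCommGroup V] (act : V → S → V) : Prop :=
  ∃ C0 : ℕ, ∀ K : ℕ, ∃ (N1 Pm La : ℕ) (c : ℕ → ℕ) (Bad : ℕ → Prop), 0 < Pm ∧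
    (∀ i j, i < j → j < K → c i < c j) ∧
    (∀ i j k l, i < K → j < K → k < K → l < K → i ≠ j → k ≠ l → (i, j) ≠ (k, l) →
      c i + c l + 4 * N1 < c k + c j ∨ c k + c j + 4 * N1 < c i + c l) ∧
    (∀ T, Bad (T + Pm) ↔ Bad T) ∧
    (∀ T, La ≤ T → (∀ i < K, c i ≤ T) →
      ((Finset.range K ×ˢ Finset.range K).filter
        (fun p => p.1 ≠ p.2 ∧ Bad (T + c p.2 - c p.1))).card ≤ C0) ∧
    ∀ (A : Type u) (phi : A → S), ∃ (lam rho : List A → Option V) (nu : List A → V),
      (∀ p v, lam p = some v → p.length ≤ N1) ∧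
      (∀ p q v r, lam p = some v → rho q = some r → La ≤ q.length →
        r = act v ((p ++ q).map phi).prod + nu (p ++ q)) ∧
      (∀ u, La ≤ u.length → ¬ Bad u.length → ∀ v, ∃ p q, p ++ q = u ∧ lam p = some v ∧
        (rho q).isSome) ∧
      (∀ q q2, La ≤ q.length → La ≤ q2.length → q.take La = q2.take La →
        q.length % Pm = q2.length % Pm → ((q.drop La).map phi).prod = ((q2.drop La).map phi).prod →
        nu q = nu q2)

theorem bad_mod {Bad : ℕ → Prop} {Pm : ℕ} (h : ∀ T, Bad (T + Pm) ↔ Bad T) {a b : ℕ}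
    (hab : a % Pm = b % Pm) (ha : Bad a) : Bad b := by
  have key : ∀ r m, Bad (r + m * Pm) ↔ Bad r := by
    intro r m
    induction m with
    | zero => simp
    | succ m ih =>
      have e : r + (m + 1) * Pm = (r + m * Pm) + Pm := by ring
      rw [e, h, ih]
  have e1 : a = a % Pm + (a / Pm) * Pm := by rw [Nat.mul_comm]; exact (Nat.mod_add_div a Pm).symm
  have e2 : b = b % Pm + (b / Pm) * Pm := by rw [Nat.mul_comm]; exact (Nat.mod_add_div b Pm).symm
  rw [e1, key, hab] at ha
  rw [e2, key]
  exact ha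

theorem drop_split (q : List α) {a L : ℕ} (h : a ≤ L) (hq : L ≤ q.length) :
    q.drop a = (q.take L).drop a ++ q.drop L := by
  conv_lhs => rw [← List.take_append_drop L q]
  rw [List.drop_append_of_le_length (by rw [List.length_take]; omega)]

/-- pigeonhole over the copies -/
theorem pigeon {G : Finset (ℕ × ℕ)} {R : ℕ} (hG : G.card < R) (base : ℕ) :
    ∃ r < R, ∀ l', (base + r, l') ∉ G := by
  classical
  by_contra hcon
  push_neg at hcon
  choose f hf using hcon
  have : (Finset.range R).card ≤ G.card := by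
    refine Finset.card_le_card_of_injOn
      (fun r => if h : r < R then (base + r, f r h) else (0, 0)) ?_ ?_
    · intro r hr
      have hr' : r < R := Finset.mem_range.1 hr
      simp only [hr', dif_pos]
      exact hf r hr'
    · intro r hr r' hr' e
      have h1 : r < R := Finset.mem_range.1 hr
      have h2 : r' < R := Finset.mem_range.1 hr'
      simp only [h1, h2, dif_pos, Prod.mk.injEq] at e
      omega
  rw [Finset.card_range] at this
  omega

/-- the ruler positions as contexts of 808's gadget -/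
theorem ruler {m k R : ℕ} (hm : 0 < m) (hk : 0 < k) (hR : 0 < R) (c : ℕ → ℕ) (p0 : ℕ)
    (hc : ∀ i j, i < j → j < m * (k * R) → c i < c j) (hp : ∀ i < m * (k * R), c i ≤ p0) :
    ∃ (B : ℕ → ℕ) (ctx : ℕ → Option (ℕ × Fin k)), Monotone B ∧ B 0 = 0 ∧ B m = p0 ∧
      (∀ x i c', ctx x = some (i, c') → i < m ∧ B i ≤ x ∧ x ≤ B (i + 1)) ∧
      ∀ i < m, ∀ a : Fin k, ∀ r < R, i * (k * R) + a * R + r < m * (k * R) ∧
        ctx (c (i * (k * R) + a * R + r)) = some (i, a) := by
  classical
  set D := k * R with hD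
  have hDpos : 0 < D := Nat.mul_pos hk hR
  have hmono : ∀ i j, i ≤ j → j < m * D → c i ≤ c j := by
    intro i j hij hj
    rcases hij.eq_or_lt with rfl | h
    · exact le_rfl
    · exact (hc i j h hj).le
  have hinj : ∀ i j, i < m * D → j < m * D → c i = c j → i = j := by
    intro i j hi hj e
    rcases lt_trichotomy i j with h | h | h
    · have := hc i j h hj; omega
    · exact h
    · have := hc j i h hi; omega
  have hfin : ∀ l, (l % D) / R < k := by
    intro l
    rw [Nat.div_lt_iff_lt_mul hR]
    exact Nat.mod_lt l hDpos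
  let ctx : ℕ → Option (ℕ × Fin k) := fun x =>
    if h : ∃ l, l < m * D ∧ c l = x then
      some ((Classical.choose h) / D, ⟨(Classical.choose h % D) / R, hfin _⟩) else none
  let B : ℕ → ℕ := fun i => if i = 0 then 0 else if i < m then c (i * D) else p0
  have hctx : ∀ l, l < m * D → ctx (c l) = some (l / D, ⟨(l % D) / R, hfin l⟩) := by
    intro l hl
    have h : ∃ l', l' < m * D ∧ c l' = c l := ⟨l, hl, rfl⟩
    have hs := Classical.choose_spec h
    have e : Classical.choose h = l := hinj _ _ hs.1 hl hs.2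
    simp only [ctx, dif_pos h, e]
  have hBle : ∀ i, i < m → ∀ l, i * D ≤ l → l < m * D → B i ≤ c l := by
    intro i hi l h1 h2
    simp only [B]
    split_ifs
    · exact Nat.zero_le _
    · exact hmono _ _ h1 h2
  have hBge : ∀ i, ∀ l, l < (i + 1) * D → l < m * D → c l ≤ B (i + 1) := by
    intro i l h1 h2
    simp only [B]
    rw [if_neg (Nat.succ_ne_zero i)]
    split_ifs with h
    · exact hmono _ _ h1.le (Nat.mul_lt_mul_of_pos_right h hDpos)
    · exact hp l h2
  refine ⟨B, ctx, ?_, by simp [B], ?_, ?_, ?_⟩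
  · refine monotone_nat_of_le_succ fun i => ?_
    by_cases hi : i < m
    · have hlt : i * D < m * D := Nat.mul_lt_mul_of_pos_right hi hDpos
      have h1 := hBle i hi (i * D) le_rfl hlt
      have h2 := hBge i (i * D) (Nat.mul_lt_mul_of_pos_right (Nat.lt_succ_self i) hDpos) hlt
      exact h1.trans h2
    · have h1 : i ≠ 0 := by omega
      simp only [B]
      rw [if_neg h1, if_neg hi, if_neg (Nat.succ_ne_zero i), if_neg (by omega)]
  · simp only [B]
    rw [if_neg (by omega), if_neg (lt_irrefl m)]
  · intro x i c' hx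
    by_cases h : ∃ l, l < m * D ∧ c l = x
    · obtain ⟨l, hl, rfl⟩ := h
      rw [hctx l hl] at hx
      simp only [Option.some.injEq, Prod.mk.injEq] at hx
      obtain ⟨hi, -⟩ := hx
      subst hi
      have h1 : l / D < m := (Nat.div_lt_iff_lt_mul hDpos).2 hl
      refine ⟨h1, hBle _ h1 l (Nat.div_mul_le_self l D) hl, hBge _ l ?_ hl⟩
      have g1 := Nat.div_add_mod l D
      have g2 := Nat.mod_lt l hDpos
      calc l = D * (l / D) + l % D := g1.symm
        _ < D * (l / D) + D := by omega
        _ = (l / D + 1) * D := by ring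
    · simp only [ctx, dif_neg h] at hx
      exact absurd hx (by simp)
  · intro i hi a r hr
    have ha := a.2
    have h1 : (a : ℕ) * R + r < D := by
      have : ((a : ℕ) + 1) * R ≤ k * R := Nat.mul_le_mul_right R ha
      rw [hD]
      have e : ((a : ℕ) + 1) * R = (a : ℕ) * R + R := by ring
      omega
    have h2 : i * D + (a * R + r) < m * D := by
      have : (i + 1) * D ≤ m * D := Nat.mul_le_mul_right D hi
      have e : (i + 1) * D = i * D + D := by ring
      omega
    have e0 : i * D + a * R + r = i * D + (a * R + r) := by ring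
    rw [e0]
    refine ⟨h2, ?_⟩
    rw [hctx _ h2]
    have e1 : (i * D + (a * R + r)) / D = i := by
      rw [Nat.add_comm, Nat.add_mul_div_right _ _ hDpos, Nat.div_eq_of_lt h1, Nat.zero_add]
    have e2 : (i * D + (a * R + r)) % D = a * R + r := by
      rw [Nat.add_comm, Nat.add_mul_mod_self_right, Nat.mod_eq_of_lt h1]
    have e3 : ((a : ℕ) * R + r) / R = a := by
      rw [Nat.add_comm, Nat.add_mul_div_right _ _ hR, Nat.div_eq_of_lt hr, Nat.zero_add]
    simp only [e1, e2, e3]

end Crest.Agent.R320.Asm_85
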