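import Crest.Agent.R320.Top5_110
import Crest.Agent.R320.Exact_808

/-!
# Row 320, helper886: completeness of the two schemes for the natural chain rule (all words)

Blocks `XX Wo z`: end at the first wall at a place `>= z`.  `C1` and `C2` in the literal form of
`Top5_110.top_sem`, from a gadget on words (`G1`, 638 / 693), 808's exact gadget and a wall rule.
-/

set_option autoImplicit false

namespace Crest.Agent.R320.AsmC_886

open Crest.Agent.R320.Hk_851 Crest.Agent.R320.Code110

universe u v w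

variable {α : Type u}

/-- left-looking wall rule -/
structure WR (Wo : List α → Prop) (n W : ℕ) : Prop where
  loc : ∀ P Q : List α, n ≤ Q.length → (Wo (P ++ Q) ↔ Wo Q)
  len : ∀ P : List α, Wo P → n ≤ P.length
  gap : ∀ (P : List α) (d : ℕ), Wo P → 0 < d → d ≤ W → ¬ Wo (P.take (P.length - d))

/-- blocks: end at the first wall at a place `>= z` -/
def XX (Wo : List α → Prop) (z : ℕ) : Language α :=
  {X | z ≤ X.length ∧ Wo X ∧ ∀ t, z ≤ t → t < X.length → ¬ Wo (X.take t)}

/-- a wall within `D` of `z` -/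
def EB (Wo : List α → Prop) (z D : ℕ) (X : List α) : Prop :=
  ∃ t, t ≤ X.length ∧ Wo (X.take t) ∧ z ≤ t + D ∧ t ≤ z + D

/-- bad blocks -/
def BB (Wo : List α → Prop) (z D p0 : ℕ) (BadT : ℕ → Prop) : Language α :=
  {X | X ∈ XX Wo z ∧ (EB Wo z D X ∨ BadT (X.length - p0))}

theorem XX_pc {Wo : List α → Prop} {z : ℕ} (hz : 0 < z) : PC (XX Wo z) where
  ne := by
    intro h
    have := h.1
    simp at this
    omega
  pf := by
    intro X hX Y hY h
    obtain ⟨R, rfl⟩ := h
    by_cases hR : R = []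
    · subst hR; simp
    · exfalso
      have h1 : 0 < R.length := List.length_pos_of_ne_nil hR
      have h2 := hY.2.2 X.length hX.1 (by rw [List.length_append]; omega)
      rw [List.take_left] at h2
      exact h2 hX.2.1

theorem wall_shift {Wo : List α → Prop} {n W : ℕ} (h : WR Wo n W) (P P' Q : List α) {s : ℕ}
    (hs : n ≤ s) (hQ : s ≤ Q.length) :
    Wo ((P ++ Q).take (P.length + s)) ↔ Wo ((P' ++ Q).take (P'.length + s)) := by
  have e : ∀ P : List α, (P ++ Q).take (P.length + s) = P ++ Q.take s := by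
    intro P
    rw [List.take_append]
    simp [List.take_of_length_le]
  have hl : n ≤ (Q.take s).length := by rw [List.length_take]; omega
  rw [e, e, h.loc _ _ hl, h.loc _ _ hl]

/-- changing the left part of a block without a wall near `z` -/
theorem mem_shift {Wo : List α → Prop} {n W : ℕ} (h : WR Wo n W) {z D : ℕ} {P P' Q : List α}
    (hX : P ++ Q ∈ XX Wo z) (hE : ¬ EB Wo z D (P ++ Q)) (h1 : P.length + n ≤ z)
    (h2 : P'.length + n ≤ z) (h3 : P.length ≤ P'.length + D) (h4 : P'.length ≤ P.length + D) :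
    P' ++ Q ∈ XX Wo z := by
  obtain ⟨hz, hW, hn⟩ := hX
  rw [List.length_append] at hz
  have hb : z + D < P.length + Q.length := by
    by_contra hc
    push Not at hc
    refine hE ⟨(P ++ Q).length, le_rfl, by rw [List.take_length]; exact hW, ?_, ?_⟩ <;>
      rw [List.length_append] <;> omega
  refine ⟨by rw [List.length_append]; omega, ?_, ?_⟩
  · rw [h.loc _ _ (by omega)]
    exact (h.loc _ _ (by omega)).1 hW
  · intro t ht1 ht2 hw
    rw [List.length_append] at ht2
    obtain ⟨s, rfl⟩ : ∃ s, t = P'.length + s := ⟨t - P'.length, by omega⟩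
    have hw' := (wall_shift h P' P Q (s := s) (by omega) (by omega)).1 hw
    by_cases hc : z ≤ P.length + s
    · exact hn _ hc (by rw [List.length_append]; omega) hw'
    · exact hE ⟨P.length + s, by rw [List.length_append]; omega, hw', by omega, by omega⟩

/-- changing the left part by a word of the same length -/
theorem mem_same {Wo : List α → Prop} {n W : ℕ} (h : WR Wo n W) {z : ℕ} {P P' Q : List α}
    (hX : P ++ Q ∈ XX Wo z) (h1 : P.length + n ≤ z) (h2 : P'.length = P.length) :
    P' ++ Q ∈ XX Wo z := by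
  obtain ⟨hz, hW, hn⟩ := hX
  rw [List.length_append] at hz
  refine ⟨by rw [List.length_append]; omega, ?_, ?_⟩
  · rw [h.loc _ _ (by omega)]
    exact (h.loc _ _ (by omega)).1 hW
  · intro t ht1 ht2 hw
    rw [List.length_append] at ht2
    obtain ⟨s, rfl⟩ : ∃ s, t = P'.length + s := ⟨t - P'.length, by omega⟩
    have hw' := (wall_shift h P' P Q (s := s) (by omega) (by omega)).1 hw
    exact hn _ (by omega) (by rw [List.length_append]; omega) hw'

theorem EB_same {Wo : List α → Prop} {n W : ℕ} (h : WR Wo n W) {z D : ℕ} {P P' Q : List α}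
    (h1 : P.length + n + D ≤ z) (h2 : P'.length = P.length) (hE : EB Wo z D (P ++ Q)) :
    EB Wo z D (P' ++ Q) := by
  obtain ⟨t, ht, hw, ha, hb⟩ := hE
  rw [List.length_append] at ht
  obtain ⟨s, rfl⟩ : ∃ s, t = P.length + s := ⟨t - P.length, by omega⟩
  have hw' := (wall_shift h P P' Q (s := s) (by omega) (by omega)).1 hw
  exact ⟨P'.length + s, by rw [List.length_append]; omega, hw', by omega, by omega⟩

theorem BB_same {Wo : List α → Prop} {n W : ℕ} (h : WR Wo n W) {z D p0 : ℕ} {BadT : ℕ → Prop}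
    {P P' Q : List α} (hX : P ++ Q ∈ BB Wo z D p0 BadT)
    (h1 : P.length + n + D ≤ z) (h2 : P'.length = P.length) :
    P' ++ Q ∈ BB Wo z D p0 BadT := by
  obtain ⟨hX1, hX2⟩ := hX
  refine ⟨mem_same h hX1 (by omega) h2, ?_⟩
  rcases hX2 with hE | hB
  · exact Or.inl (EB_same h h1 h2 hE)
  · refine Or.inr ?_
    rw [List.length_append] at hB ⊢
    rwa [h2]

section exact
variable {Ω : Type*} {Z Zb : Language α} {T : List α → Ω → Ω}

theorem exactly_one {x y : Ω} {u : List α} (hu : u ∈ Z) (hy : T u x = y) :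
    u ∈ Exactly Z T 1 x y :=
  ⟨y, Language.mem_mul.2 ⟨u, ⟨hu, hy⟩, [], ⟨rfl, rfl⟩, by simp⟩⟩

theorem exactly_two {x y : Ω} {u t : List α} (hu : u ∈ Z) (ht : t ∈ Z) (hy : T t (T u x) = y) :
    u ++ t ∈ Exactly Z T 2 x y :=
  ⟨T u x, Language.mem_mul.2 ⟨u, ⟨hu, rfl⟩, t, exactly_one ht hy, rfl⟩⟩

theorem off_one {z' w : List α} (h1 : z' ∈ Zb) (h2 : z' ∉ Z) (h3 : z' <+: w) :
    w ∈ Off Zb Z 1 := Or.inl ⟨z', h1, h2, h3⟩

end exact

section scheme

variable {S : Type*} [Monoid S] {V : Type*} [AddCommGroup V]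

/-- the gadget of scheme 1 on words (all contents) -/
structure G1 (φ : List α → S) (act : V → S → V) (lam rho : List α → Option V) (nu : List α → V)
    (N La : ℕ) (BadT : ℕ → Prop) : Prop where
  lamN : ∀ p v, lam p = some v → p.length ≤ N
  sound : ∀ p q v r, lam p = some v → rho q = some r → La ≤ q.length →
    r = act v (φ (p ++ q)) + nu (p ++ q)
  compl : ∀ u : List α, La ≤ u.length → ¬ BadT u.length → ∀ v, ∃ p q, p ++ q = u ∧
    lam p = some v ∧ (rho q).isSome = true

/-- zone map -/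
def TT (φ : List α → S) (act : V → S → V) (nu2 nu1 : List α → V) (p0 : ℕ) (X : List α) (v : V) :
    V := act (act v (φ (X.take p0)) + nu2 (X.take p0)) (φ (X.drop p0)) + nu1 (X.drop p0)

theorem TT_append (φ : List α → S) (act : V → S → V) (nu2 nu1 : List α → V) {X Y : List α} {p0 : ℕ}
    (hX : X.length = p0) (v : V) : TT φ act nu2 nu1 p0 (X ++ Y) v =
      act (act v (φ X) + nu2 X) (φ Y) + nu1 Y := by
  subst hX
  unfold TT
  rw [List.take_left, List.drop_left]

/-- left language of scheme 1 -/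
def L1 (φ : List α → S) (act : V → S → V) (nu2 : List α → V) (lam : List α → Option V) (p0 : ℕ)
    (v : V) : Language α :=
  {P | ∃ X p, X.length = p0 ∧ P = X ++ p ∧ lam p = some (act v (φ X) + nu2 X)}

theorem L1_finite [Finite α] {φ : List α → S} {act : V → S → V} {nu2 : List α → V}
    {lam : List α → Option V} {p0 N : ℕ} (hN : ∀ p v, lam p = some v → p.length ≤ N) (v : V) :
    {P | P ∈ L1 φ act nu2 lam p0 v}.Finite := by
  refine (List.finite_length_le α (p0 + N)).subset ?_
  rintro P ⟨X, p, hX, rfl, hp⟩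
  have := hN _ _ hp
  change (X ++ p).length ≤ p0 + N
  rw [List.length_append]
  omega

/-- **completeness of scheme 1**, literal form of `Top5_110.top_sem` with `N1 = 0` -/
theorem C1 {Wo : List α → Prop} {n W : ℕ} (h : WR Wo n W) {φ : List α → S} {act : V → S → V}
    {lam rho : List α → Option V} {nu nu2 : List α → V} {N La : ℕ} {BadT : ℕ → Prop}
    (hg : G1 φ act lam rho nu N La BadT) {z p0 : ℕ} (hz : p0 + La + N + N + n ≤ z) :
    ∀ u ∈ XX Wo z, u ∉ BB Wo z N p0 BadT → ∀ x, ∀ t ∈ (XX Wo z) ^ 0, ∃ p q y,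
      u ++ t = p ++ q ∧ p ∈ L1 φ act nu2 lam p0 x ∧
      q ∈ Rsem (XX Wo z) (XX Wo z) (TT φ act nu2 nu p0) 0 (L1 φ act nu2 lam p0) y := by
  intro u hu hb x t ht
  have ht' : t = [] := by
    rw [pow_zero] at ht
    exact ht
  subst ht'
  have hul := hu.1
  have hE : ¬ EB Wo z N u := fun hE => hb ⟨hu, Or.inl hE⟩
  have hB : ¬ BadT (u.length - p0) := fun hB => hb ⟨hu, Or.inr hB⟩
  have hXl : (u.take p0).length = p0 := by rw [List.length_take]; omega
  have hYl : (u.drop p0).length = u.length - p0 := List.length_drop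
  obtain ⟨p, q, hpq, hlp, hrq⟩ := hg.compl (u.drop p0) (by omega) (by rw [hYl]; exact hB)
    (act x (φ (u.take p0)) + nu2 (u.take p0))
  obtain ⟨r, hr⟩ := Option.isSome_iff_exists.1 hrq
  have hpl := hg.lamN _ _ hlp
  have hql : p.length + q.length = u.length - p0 := by
    rw [← List.length_append, hpq, hYl]
  have hue : (u.take p0 ++ p) ++ q = u := by
    rw [List.append_assoc, hpq, List.take_append_drop]
  refine ⟨u.take p0 ++ p, q, r, by rw [List.append_nil, hue], ⟨_, _, hXl, rfl, hlp⟩, ?_⟩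
  intro x2 P2 hP2
  obtain ⟨X2, p2, hX2, rfl, hlp2⟩ := hP2
  left
  have hpl2 := hg.lamN _ _ hlp2
  refine exactly_one ?_ ?_
  · refine mem_shift h (P := u.take p0 ++ p) (D := N) (by rw [hue]; exact hu)
      (by rw [hue]; exact hE) ?_ ?_ ?_ ?_ <;> simp only [List.length_append, hXl, hX2] <;> omega
  · rw [List.append_assoc, TT_append φ act nu2 nu hX2]
    exact (hg.sound _ _ _ _ hlp2 hr (by omega)).symm

/-- left language of scheme 2 -/
def L2 (lam2 : List α → Option V) (K : ℕ) (c : ℕ → ℕ) (v : V) : Language α :=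
  {P | ∃ a < K, P.length = c a ∧ lam2 P = some v}

theorem L2_finite [Finite α] {lam2 : List α → Option V} {K : ℕ} {c : ℕ → ℕ} {p0 : ℕ}
    (hc : ∀ a < K, c a ≤ p0) (v : V) : {P | P ∈ L2 lam2 K c v}.Finite := by
  refine (List.finite_length_le α p0).subset ?_
  rintro P ⟨a, ha, hl, -⟩
  change P.length ≤ p0
  rw [hl]
  exact hc a ha

end scheme

end Crest.Agent.R320.AsmC_886
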