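import Crest.Agent.R320.AsmB_957

/-!
# Row 320: from an abstract all-words gadget to `Main_621.Data`, part C: heights (helper957)
-/

set_option autoImplicit false

namespace Crest.Agent.R320.Asm_957

open Crest.Agent.R320.Hk_851 Crest.Agent.R320.Star_621 Crest.Agent.R320.Two_621

variable {α : Type} {S : Type} [Monoid S] (D : Par α S)

/-- definability hypotheses -/
structure RegH : Prop where
  hn : 0 < D.R.n
  hend : HL 0 ({w | D.R.W w w.length} : Language α)
  few : ∀ (M : Language α), M.IsRegular → ∀ (B k : ℕ) (L : Language α), 1 ≤ k → HL k L →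
    (∀ w ∈ L, ∀ a b c, B ≤ a → a < b → b < c → D.R.W w a → D.R.W w b → D.R.W w c → False) →
    HL k (L ⊓ M)
  rho : ∀ r, Language.IsRegular ({Q | D.rho Q = some r} : Language α)
  nu : ∀ a, Language.IsRegular ({Q | D.nu Q = a} : Language α)
  ph : ∀ s, Language.IsRegular ({Q | D.ph Q = s} : Language α)
  bad : ∀ c, Language.IsRegular ({Q | D.p0 ≤ Q.length + c ∧ D.Bad (Q.length + c - D.p0)} :
    Language α)

theorem hcat {k : ℕ} {L M : Language α} (hL : HL k L) (hM : HL k M) :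
    HL k ({w | ∃ a ∈ L, ∃ b ∈ M, a ++ b = w} : Language α) :=
  (hL.mul hM).congr fun _ => Language.mem_mul

theorem wtake {R : WR α} {w : List α} {s t : ℕ} (hs : s ≤ w.length) (ht : t ≤ s) :
    R.W (w.take s) t ↔ R.W w t := by
  have h := R.left (w.take s) (w.drop s) t (by rw [List.length_take]; omega)
  rw [List.take_append_drop] at h
  exact h.symm

theorem ftake {R : WR α} {w : List α} {s i t : ℕ} (hs : s ≤ w.length) (ht : t ≤ s) :
    F R (w.take s) i t ↔ F R w i t := by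
  have h := F.app (R := R) (p := w.take s) (q := w.drop s) (i := i) (t := t)
    (by rw [List.length_take]; omega)
  rw [List.take_append_drop] at h
  exact h.symm

section
variable [Finite α] {R : WR α} (hend : HL 0 ({w | R.W w w.length} : Language α))
include hend

theorem HLQ (i : ℕ) : HL 0 ({u | i ≤ u.length ∧ R.W u u.length} : Language α) :=
  (HL.length_ge i).setOf_and hend

theorem HLF (i : ℕ) : HL 0 ({X | F R X i X.length} : Language α) := by
  have h1 := hcat (HLQ hend i) (HL.length_ge (α := α) (k := 0) 1)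
  refine ((HLQ hend i).setOf_and h1.setOf_not).congr fun X => Iff.symm ?_
  constructor
  · rintro ⟨⟨h2, h3⟩, h4⟩
    refine ⟨h2, h3, fun s hs1 hs2 hW => h4 ?_⟩
    have hl : (X.take s).length = s := by rw [List.length_take]; omega
    refine ⟨X.take s, ⟨by omega, ?_⟩, X.drop s, ?_, List.take_append_drop s X⟩
    · rw [hl]; exact (wtake (by omega) le_rfl).2 hW
    · show 1 ≤ (X.drop s).length
      rw [List.length_drop]; omega
  · rintro ⟨h2, h3, h4⟩
    refine ⟨⟨h2, h3⟩, ?_⟩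
    rintro ⟨a, ⟨ha1, ha2⟩, b, hb, rfl⟩
    have hb' : 1 ≤ b.length := hb
    exact h4 a.length ha1 (by rw [List.length_append]; omega) ((R.left a b _ le_rfl).2 ha2)

theorem HLZ (i : ℕ) : HL 0 (ZZ R i) := by
  have h1 := hcat (HLQ hend i) (HL.length_ge (α := α) (k := 0) 1)
  have h2 := hend.setOf_and h1
  have h3 := hcat h2 (HL.length_ge (α := α) (k := 0) 1)
  refine (h2.setOf_and h3.setOf_not).congr fun z => Iff.symm ?_
  constructor
  · rintro ⟨⟨hW, a, ⟨ha1, ha2⟩, b, hb, hab⟩, hmin⟩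
    have hb' : 1 ≤ b.length := hb
    have hlen : z.length = a.length + b.length := by rw [← hab, List.length_append]
    have hWa : R.W z a.length := by rw [← hab]; exact (R.left a b _ le_rfl).2 ha2
    obtain ⟨t, ht, hF⟩ := F.ex hWa ha1
    refine ⟨t, hF, by omega, by omega, hW, fun s hs1 hs2 hWs => hmin ?_⟩
    have hl : (z.take s).length = s := by rw [List.length_take]; omega
    have hlt : (z.take t).length = t := by rw [List.length_take]; omega
    refine ⟨z.take s, ⟨?_, z.take t, ⟨?_, ?_⟩, (z.take s).drop t, ?_, ?_⟩, z.drop s, ?_,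
      List.take_append_drop s z⟩
    · show R.W (z.take s) (z.take s).length
      rw [hl]; exact (wtake (by omega) le_rfl).2 hWs
    · rw [hlt]; exact hF.1
    · rw [hlt]; exact (wtake (by omega) le_rfl).2 hF.2.1
    · show 1 ≤ ((z.take s).drop t).length
      rw [List.length_drop, hl]; omega
    · have : z.take t = (z.take s).take t := by rw [List.take_take, Nat.min_eq_left (by omega)]
      rw [this, List.take_append_drop]
    · show 1 ≤ (z.drop s).length
      rw [List.length_drop]; omega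
  · rintro ⟨t, hF, ht, h5, h6, h7⟩
    have hlt : (z.take t).length = t := by rw [List.length_take]; omega
    refine ⟨⟨h6, z.take t, ⟨?_, ?_⟩, z.drop t, ?_, List.take_append_drop t z⟩, ?_⟩
    · rw [hlt]; exact hF.1
    · rw [hlt]; exact (wtake (by omega) le_rfl).2 hF.2.1
    · show 1 ≤ (z.drop t).length
      rw [List.length_drop]; omega
    · rintro ⟨a, ⟨ha, a', ⟨ha1, ha2⟩, b', hb', rfl⟩, b, hb, rfl⟩
      have hb1 : 1 ≤ b.length := hb
      have hb2 : 1 ≤ b'.length := hb'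
      have hW1 : R.W (a' ++ b' ++ b) (a' ++ b').length := (R.left _ b _ le_rfl).2 ha
      have hW2 : R.W (a' ++ b' ++ b) a'.length :=
        (R.left _ b _ (by rw [List.length_append]; omega)).2 ((R.left a' b' _ le_rfl).2 ha2)
      have ht' : t ≤ a'.length := by
        by_contra hc
        exact hF.2.2 _ ha1 (by omega) hW2
      refine h7 _ ?_ ?_ hW1
      · rw [List.length_append]; omega
      · rw [List.length_append (as := a' ++ b')]; omega

theorem HLN : HL 0 ({w | ∀ s, s < w.length → ¬ R.W w s} : Language α) := by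
  have h1 := hcat hend (HL.length_ge (α := α) (k := 0) 1)
  refine h1.setOf_not.congr fun w => Iff.symm ?_
  constructor
  · intro h s hs hW
    apply h
    have hl : (w.take s).length = s := by rw [List.length_take]; omega
    refine ⟨w.take s, ?_, w.drop s, ?_, List.take_append_drop s w⟩
    · show R.W (w.take s) (w.take s).length
      rw [hl]; exact (wtake (by omega) le_rfl).2 hW
    · show 1 ≤ (w.drop s).length
      rw [List.length_drop]; omega
  · rintro h ⟨a, ha, b, hb, rfl⟩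
    have hb1 : 1 ≤ b.length := hb
    exact h a.length (by rw [List.length_append]; omega) ((R.left a b _ le_rfl).2 ha)
end

theorem HLP [Finite α] (R : WR α) (s : ℕ) : HL 0 ({w | R.W w s} : Language α) := by
  have h1 : HL 0 ({v | v.length ≤ s ∧ R.W v s} : Language α) :=
    HL.finite ((List.finite_length_le α s).subset fun v hv => hv.1)
  refine h1.prefix.congr fun w => Iff.symm ?_
  constructor
  · rintro ⟨v, ⟨hv1, hv2⟩, r, rfl⟩
    exact (R.left v r s (R.le hv2).2).2 hv2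
  · intro h
    have hs := (R.le h).2
    exact ⟨w.take s, ⟨by rw [List.length_take]; omega, (wtake hs le_rfl).2 h⟩, List.take_prefix s w⟩

theorem ZZ.few {R : WR α} {i : ℕ} {z : List α} (hz : z ∈ ZZ R i) {a b c : ℕ} (ha : i ≤ a)
    (hab : a < b) (hbc : b < c) (h1 : R.W z a) (h2 : R.W z b) (h3 : R.W z c) : False := by
  obtain ⟨t, hF, ht, hF2⟩ := hz
  have hta : t ≤ a := by
    by_contra hc
    exact hF.2.2 a ha (by omega) h1
  have hc := (R.le h3).2
  exact hF2.2.2 b (by omega) (by omega) h2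

variable {D}

theorem HLcrit [Finite α] (H : RegH D) {c : ℕ} (hc : c ≤ D.p0) :
    HL 1 ({Q | Crit D c Q} : Language α) := by
  have hF := HLF H.hend (D.p0 + D.i0 - c)
  have hE : HL 1 ({X | ∃ s, s ≤ X.length ∧ D.R.W X s ∧ D.p0 + D.i0 ≤ s + c + D.N1 ∧
      s + c ≤ D.p0 + D.i0 + D.N1} : Language α) := by
    refine (HL.iUnion (k := 1) (fun s : Fin (D.p0 + D.i0 + D.N1 + 1) =>
      (HL.const (α := α) (k := 1) (D.p0 + D.i0 ≤ s.1 + c + D.N1 ∧
        s.1 + c ≤ D.p0 + D.i0 + D.N1)).setOf_and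
        ((HLP D.R s.1).mono (Nat.zero_le 1)))).congr fun X => Iff.symm ?_
    constructor
    · rintro ⟨s, ⟨h1, h2⟩, h3⟩
      exact ⟨s.1, (D.R.le h3).2, h3, h1, h2⟩
    · rintro ⟨s, h1, h2, h3, h4⟩
      exact ⟨⟨s, by omega⟩, ⟨h3, h4⟩, h2⟩
  have hB := H.few _ (H.bad c) (D.p0 + D.i0 - c) 1 _ le_rfl (hF.mono (Nat.zero_le 1)) (by
    intro w hw a b d ha hab hbd h1 h2 h3
    have hb := (D.R.le h2).2
    exact hw.2.2 a ha (by omega) h1)
  have hX := ((hF.mono (Nat.zero_le 1)).setOf_and hE).setOf_or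
    (q := fun w => w ∈ (({X | F D.R X (D.p0 + D.i0 - c) X.length} : Language α) ⊓
      {Q | D.p0 ≤ Q.length + c ∧ D.Bad (Q.length + c - D.p0)})) hB
  refine hX.prefix.congr fun Q => Iff.symm ?_
  constructor
  · rintro ⟨v, hv, r, rfl⟩
    rcases hv with ⟨h1, s, h2, h3, h4, h5⟩ | ⟨h1, h2, h3⟩
    · exact ⟨v.length, (F.app le_rfl).2 h1, Or.inl ⟨s, h2, (D.R.left v r s h2).2 h3, h4, h5⟩⟩
    · exact ⟨v.length, (F.app le_rfl).2 h1, Or.inr h3⟩
  · rintro ⟨t, h1, h2⟩
    have ht := (D.R.le h1.2.1).2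
    have h10 := h1.1
    have hl : (Q.take t).length = t := by rw [List.length_take]; omega
    refine ⟨Q.take t, ?_, List.take_prefix t Q⟩
    have hFt : F D.R (Q.take t) (D.p0 + D.i0 - c) (Q.take t).length := by
      rw [hl]; exact (ftake ht le_rfl).2 h1
    rcases h2 with ⟨s, hs1, hs2, hs3, hs4⟩ | hb
    · exact Or.inl ⟨hFt, s, by omega, (wtake ht hs1).2 hs2, hs3, hs4⟩
    · refine Or.inr ⟨hFt, ?_, ?_⟩
      · show D.p0 ≤ (Q.take t).length + c
        rw [hl]; omega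
      · show D.Bad ((Q.take t).length + c - D.p0)
        rw [hl]; exact hb

theorem HLB [Finite α] (H : RegH D) (s : S) :
    HL 1 ({w | (∀ s, s < w.length → ¬ D.R.W w s) ∧ D.ph w = s} : Language α) :=
  (H.few _ (H.ph s) 0 1 _ le_rfl ((HLN H.hend).mono (Nat.zero_le 1)) (by
    intro w hw a b c _ hab hbc h1 h2 h3
    have hc := (D.R.le h3).2
    exact hw a (by omega) h1)).congr fun w => Iff.rfl

theorem HLA' [Finite α] (H : RegH D) (i : ℕ) {M : Language α} (hM : M.IsRegular) :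
    HL 1 ({w | F D.R w i w.length ∧ w ∈ M} : Language α) :=
  (H.few _ hM i 1 _ le_rfl ((HLF H.hend i).mono (Nat.zero_le 1)) (by
    intro w hw a b d ha hab hbd h1 h2 h3
    have hb := (D.R.le h2).2
    exact hw.2.2 a ha (by omega) h1)).congr fun w => Iff.rfl

/-- tails after the accepted wall contain no wall before their end -/
theorem tail_nowall {w : List α} {t : ℕ} (H : 0 < D.R.n) (ht : t ≤ w.length)
    (hF : F D.R w (t + 1) w.length) : ∀ s, s < (w.drop t).length → ¬ D.R.W (w.drop t) s := by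
  intro s hs hW
  have hn := (D.R.le hW).1
  rw [List.length_drop] at hs
  exact hF.2.2 (t + s) (by omega) (by omega) ((W.drop ht hn).1 hW)

theorem HLRA [Finite α] [Finite S] (H : RegH D) (τ : Tok S) : HL 1 (RA D τ) := by
  have h1 : ∀ p : {p : Tok S × S // τ = act p.1 p.2}, HL 1 ({Q | Q ∈ ZZ D.R (D.i0 - D.N1) ∧
      ∃ a ∈ ({w | D.i0 ≤ w.length ∧ (F D.R w (D.i0 - D.N1) w.length ∧
        w ∈ ({Q | D.rho Q = some p.1.1} : Language α))} : Language α),
      ∃ b ∈ ({w | (∀ s, s < w.length → ¬ D.R.W w s) ∧ D.ph w = p.1.2} : Language α),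
        a ++ b = Q} : Language α) := fun p =>
    ((HLZ H.hend _).mono (Nat.zero_le 1)).setOf_and
      (hcat ((HL.length_ge D.i0).setOf_and (HLA' H _ (H.rho p.1.1))) (HLB H p.1.2))
  refine (HL.iUnion h1).congr fun Q => Iff.symm ?_
  constructor
  · rintro ⟨⟨⟨r, s⟩, hp⟩, ⟨t, g1, g2, g3⟩, a, ⟨ha1, ha2, ha3⟩, b, ⟨hb1, hb2⟩, rfl⟩
    have e := g1.uniq ((F.app le_rfl).2 ha2)
    subst e
    refine ⟨a.length, r, ha1, g1, g2, g3, ?_, ?_⟩
    · rw [List.take_left' rfl]; exact ha3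
    · rw [List.drop_left' rfl]; rw [hb2]; exact hp
  · rintro ⟨t, r, h2, h3, h4, h5, h6, h7⟩
    have hl : (Q.take t).length = t := by rw [List.length_take]; omega
    refine ⟨⟨(r, D.ph (Q.drop t)), h7⟩, ⟨t, h3, h4, h5⟩, Q.take t, ⟨?_, ?_, h6⟩, Q.drop t,
      ⟨tail_nowall H.hn (by omega) h5, rfl⟩, List.take_append_drop t Q⟩
    · rw [hl]; exact h2
    · rw [hl]; exact (ftake (by omega) le_rfl).2 h3

theorem HLCut [Finite α] [Finite S] (H : RegH D) (v : Tok S) :
    HL 1 ({Y | CutT D v Y} : Language α) := by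
  refine (HL.iUnion fun τ : Tok S => hcat (k := 1) (L := ({P | P.length ≤ D.N1 ∧ D.lam P = some v} :
    Language α)) (HL.finite ((List.finite_length_le α D.N1).subset fun v hv => hv.1))
    (HLRA H τ)).congr fun Y => Iff.symm ?_
  constructor
  · rintro ⟨τ, a, ⟨ha1, ha2⟩, b, hb, rfl⟩
    exact ⟨a, b, τ, rfl, ha1, ha2, hb⟩
  · rintro ⟨a, b, τ, rfl, ha1, ha2, hb⟩
    exact ⟨τ, a, ⟨ha1, ha2⟩, b, hb, rfl⟩

theorem HLdT [Finite α] [Finite S] (H : RegH D) (d : Tok S) :
    HL 1 ({Y | Y ∈ ZZ D.R D.i0 ∧ dT D Y = d} : Language α) := by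
  have h1 : ∀ p : {p : Tok S × S // act p.1 p.2 = d}, HL 1 ({Q | Q ∈ ZZ D.R D.i0 ∧
      ∃ a ∈ ({w | F D.R w D.i0 w.length ∧ w ∈ ({Q | D.nu Q = p.1.1} : Language α)} : Language α),
      ∃ b ∈ ({w | (∀ s, s < w.length → ¬ D.R.W w s) ∧ D.ph w = p.1.2} : Language α),
        a ++ b = Q} : Language α) := fun p =>
    ((HLZ H.hend _).mono (Nat.zero_le 1)).setOf_and
      (hcat (HLA' H _ (H.nu p.1.1)) (HLB H p.1.2))
  refine (HL.iUnion h1).congr fun Q => Iff.symm ?_
  constructor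
  · rintro ⟨⟨⟨r, s⟩, hp⟩, ⟨t, g1, g2, g3⟩, a, ⟨ha2, ha3⟩, b, ⟨hb1, hb2⟩, rfl⟩
    have e := g1.uniq ((F.app le_rfl).2 ha2)
    subst e
    refine ⟨⟨a.length, g1, g2, g3⟩, ?_⟩
    unfold dT
    rw [acc_eq g1, List.take_left' rfl, List.drop_left' rfl, hb2]
    have ha3' : D.nu a = r := ha3
    rw [ha3']; exact hp
  · rintro ⟨⟨t, g1, g2, g3⟩, hd⟩
    have hl : (Q.take t).length = t := by rw [List.length_take]; omega
    refine ⟨⟨(D.nu (Q.take t), D.ph (Q.drop t)), ?_⟩, ⟨t, g1, g2, g3⟩, Q.take t, ⟨?_, rfl⟩,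
      Q.drop t, ⟨tail_nowall H.hn (by omega) g3, rfl⟩, List.take_append_drop t Q⟩
    · unfold dT at hd
      rw [acc_eq g1] at hd
      exact hd
    · rw [hl]; exact (ftake (by omega) le_rfl).2 g1

theorem HLphZ [Finite α] (H : RegH D) (s : S) :
    HL 1 ({Y | Y ∈ ZZ D.R D.i0 ∧ D.ph Y = s} : Language α) :=
  (H.few _ (H.ph s) D.i0 1 _ le_rfl ((HLZ H.hend D.i0).mono (Nat.zero_le 1)) (by
    intro w hw a b d ha hab hbd h1 h2 h3
    exact ZZ.few hw ha hab hbd h1 h2 h3)).congr fun w => Iff.rfl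

open Classical in
noncomputable def st (C : Set (Tok S)) (s : S) (d : Tok S) : (Function.End (Option (Tok S)))ᵐᵒᵖ :=
  MulOpposite.op fun o => o.bind fun v => if v ∈ C then none else some (act v s + d)

theorem HLst [Finite α] [Finite S] (H : RegH D) (y : (Function.End (Option (Tok S)))ᵐᵒᵖ) :
    HL 1 ({Y | Y ∈ ZZ D.R D.i0 ∧ stepT D Y = y} : Language α) := by
  have h1 : ∀ p : {p : Set (Tok S) × S × Tok S // st p.1 p.2.1 p.2.2 = y},
      HL 1 ({Y | (∀ v, CutT D v Y ↔ v ∈ p.1.1) ∧ (Y ∈ ZZ D.R D.i0 ∧ D.ph Y = p.1.2.1) ∧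
        (Y ∈ ZZ D.R D.i0 ∧ dT D Y = p.1.2.2)} : Language α) := fun p =>
    HL.setOf_and ((HL.iInter fun v : Tok S => (HLCut H v).setOf_iff
      (HL.const (α := α) (v ∈ p.1.1))).congr fun Y => Iff.rfl)
      ((HLphZ H p.1.2.1).setOf_and (HLdT H p.1.2.2))
  refine (HL.iUnion h1).congr fun Q => Iff.symm ?_
  constructor
  · rintro ⟨⟨⟨C, s, d⟩, hp⟩, hC, ⟨hZ, hs⟩, -, hd⟩
    refine ⟨hZ, ?_⟩
    have hC' : {v | CutT D v Q} = C := Set.ext hC
    rw [← hp]
    show st {v | CutT D v Q} (D.ph Q) (dT D Q) = st C s d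
    rw [hC']
    have hs' : D.ph Q = s := hs
    have hd' : dT D Q = d := hd
    rw [hs', hd']
  · rintro ⟨hZ, hy⟩
    exact ⟨⟨({v | CutT D v Q}, D.ph Q, dT D Q), hy⟩, fun v => Iff.rfl, ⟨hZ, rfl⟩, hZ, rfl⟩

theorem HLRB [Finite α] [Finite S] (H : RegH D)
    (τ : Tok (Function.End (Option (Tok S)))ᵐᵒᵖ) : HL 1 (RB D τ) := by
  have : Finite (Function.End (Option (Tok S))) :=
    inferInstanceAs (Finite (Option (Tok S) → Option (Tok S)))
  have : Finite (Function.End (Option (Tok S)))ᵐᵒᵖ :=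
    Finite.of_equiv _ MulOpposite.opEquiv
  have hn := D.hi0
  have h0 : ∀ k : Fin D.K, HL 1 ({Q | ∀ k' : Fin D.K, Crit D (D.c k') Q → k'.1 = k.1} :
      Language α) := fun k =>
    (HL.iInter fun k' : Fin D.K => (HLcrit H (D.hc1 k' k'.2)).setOf_imp
      (HL.const (α := α) (k'.1 = k.1))).congr fun Y => Iff.rfl
  have hfx : ∀ k : Fin D.K, Finite {x : List α // x.length ≤ D.p0 - D.c k} := fun k =>
    (List.finite_length_le α (D.p0 - D.c k)).to_subtype
  have h1 : ∀ k : Fin D.K, ∀ x : {x : List α // x.length ≤ D.p0 - D.c k},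
      ∀ y : {y : (Function.End (Option (Tok S)))ᵐᵒᵖ // D.rhoB k x.1 y = some τ},
      HL 1 ({Q | (x.1.length = D.p0 - D.c k) ∧ (Crit D (D.c k) Q ∧
        ((∀ k' : Fin D.K, Crit D (D.c k') Q → k'.1 = k.1) ∧
        ∃ a ∈ ({x.1} : Language α), ∃ b ∈ ({Y | Y ∈ ZZ D.R D.i0 ∧ stepT D Y = y.1} : Language α),
          a ++ b = Q))} : Language α) := fun k x y =>
    (HL.const (α := α) (x.1.length = D.p0 - D.c k)).setOf_and
      ((HLcrit H (D.hc1 k k.2)).setOf_and ((h0 k).setOf_and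
      (hcat (HL.word x.1) (HLst H y.1))))
  have h2 := HL.iUnion fun k : Fin D.K => @HL.iUnion _ _ _ (hfx k) _ fun x =>
    HL.iUnion (h1 k x)
  refine h2.congr fun Q => Iff.symm ?_
  constructor
  · rintro ⟨k, x, y, hx, hc, hu, a, ha, b, ⟨⟨t, g1, g2, g3⟩, hb⟩, rfl⟩
    have ha' : a = x.1 := ha
    subst ha'
    have hlx : x.1.length = D.p0 - D.c k := hx
    have hck := D.hc1 k k.2
    have e1 : D.p0 + D.i0 - D.c k = x.1.length + D.i0 := by omega
    refine ⟨k.1, k.2, hc, fun k' hk' h => hu ⟨k', hk'⟩ h, ⟨x.1.length + t, ?_, ?_, ?_⟩, ?_⟩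
    · rw [e1]; exact (F.right (by omega)).2 g1
    · rw [List.length_append]; omega
    · rw [List.length_append]
      have := (F.right (R := D.R) (p := x.1) (q := b) (i := t + 1) (t := b.length)
        (by have := g1.1; omega)).2 g3
      exact this
    · rw [List.take_left' hlx, List.drop_left' hlx, hb]; exact y.2
  · rintro ⟨k, hk, hc, hu, ⟨t, g1, g2, g3⟩, hr⟩
    have hck := D.hc1 k hk
    have g10 := g1.1
    have hl : (Q.take (D.p0 - D.c k)).length = D.p0 - D.c k := by rw [List.length_take]; omega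
    have e1 : D.p0 + D.i0 - D.c k = (D.p0 - D.c k) + D.i0 := by omega
    rw [e1] at g1
    have d1 := F.drop (m := D.p0 - D.c k) (by omega) (by omega) g1
    have e2 : t + 1 = (D.p0 - D.c k) + (t - (D.p0 - D.c k) + 1) := by omega
    have g3' := g3
    rw [e2] at g3'
    have d2 := F.drop (m := D.p0 - D.c k) (by omega) (by omega) g3'
    refine ⟨⟨k, hk⟩, ⟨Q.take (D.p0 - D.c k), by rw [hl]⟩, ⟨stepT D (Q.drop (D.p0 - D.c k)), hr⟩, hl,
      hc, fun k' h => hu k'.1 k'.2 h, Q.take (D.p0 - D.c k), rfl, Q.drop (D.p0 - D.c k),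
      ⟨⟨t - (D.p0 - D.c k), d1.2, by rw [List.length_drop]; omega, ?_⟩, rfl⟩,
      List.take_append_drop _ _⟩
    rw [List.length_drop]; exact d2.2

theorem HLRest [Finite α] (H : RegH D) (s : S) :
    HL 3 ({w | (∀ z ∈ Z D, ¬ z <+: w) ∧ D.ph w = s} : Language α) := by
  have h0 := ((HLZ H.hend (D.p0 + D.i0)).prefix).setOf_not
  have h1 := H.few _ (H.ph s) (D.p0 + D.i0) 1 _ le_rfl (h0.mono (Nat.zero_le 1)) (by
    intro w hw a b c ha hab hbc k1 k2 k3
    have hw' : ¬ ∃ v ∈ ZZ D.R (D.p0 + D.i0), v <+: w := hw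
    obtain ⟨t, ht, hF⟩ := F.ex k1 ha
    obtain ⟨t', ht', hF'⟩ := F.ex (i := t + 1) k2 (by omega)
    have hle := (D.R.le hF'.2.1).2
    have h10 := hF'.1
    have hl : (w.take t').length = t' := by rw [List.length_take]; omega
    refine hw' ⟨w.take t', ⟨t, (ftake hle (by omega)).2 hF, by omega, ?_⟩, List.take_prefix _ _⟩
    rw [hl]; exact (ftake hle le_rfl).2 hF')
  refine (h1.mono (by omega)).congr fun w => Iff.symm ?_
  constructor
  · rintro ⟨h2, h3⟩
    exact ⟨fun z hz hp => h2 ⟨z, hz, hp⟩, h3⟩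
  · rintro ⟨h2, h3⟩
    exact ⟨fun ⟨z, hz, hp⟩ => h2 z hz hp, h3⟩

end Crest.Agent.R320.Asm_957
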