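import Mathlib
import Crest.Agent.R320.AsmC_472

/-! Row 320: scheme 2 in 961's interface, and `TwoSchemes` from the constants (helper472). -/

set_option autoImplicit false

namespace Crest.Agent.R320.AsmD_472

open Crest.Agent.R320.Zone132_898 Crest.Agent.R320.Wall_291 Crest.Agent.R320.AsmA_472
open Crest.Agent.R320.Zone2_594 Crest.Agent.R320.AsmB_472 Crest.Agent.R320.Half1_961
open Crest.Agent.R320.AsmC_472 Crest.Agent.R320.ExactR_237

variable {α S W : Type} [Monoid S] [Finite S] [AddCommGroup W]

/-- the letter maps of scheme 1's thread -/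
noncomputable def f2 (phi : List α → S) (a : α) : Tm (S → ZMod 2) :=
  fun v => push (fun s => s * phi [a]) v

/-- tokens of scheme 2 -/
noncomputable def act2 (v : (S → ZMod 2) → ZMod 2) (t : Tm (S → ZMod 2)) :
    (S → ZMod 2) → ZMod 2 := push t v

theorem push_id {X : Type} [Finite X] (h : X → ZMod 2) : push (fun x => x) h = h := by
  classical
  funext y
  unfold push
  letI := Fintype.ofFinite X
  rw [Finset.sum_filter]
  rw [Finset.sum_ite_eq']
  simp

theorem pr_f2 (phi : List α → S) (hphi : ∀ u v, phi (u ++ v) = phi u * phi v)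
    (hone : phi [] = 1) (X : List α) (v : S → ZMod 2) :
    pr (f2 phi) X v = push (fun s => s * phi X) v := by
  induction X generalizing v with
  | nil =>
    change v = _
    rw [hone]
    simp only [mul_one]
    exact (push_id v).symm
  | cons a X ih =>
    have h1 : pr (f2 phi) (a :: X) = f2 phi a * pr (f2 phi) X := by
      unfold pr; rw [List.map_cons, List.prod_cons]
    rw [h1, tm_mul, ih]
    unfold f2
    rw [push_push]
    congr 1
    funext s
    rw [mul_assoc, ← hphi]
    rfl

namespace Sc

variable (c : Sc1 α S W)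

/-- the zone map of the part right of `a + p0` -/
noncomputable def yz (Y : List α) : Tm (S → ZMod 2) :=
  fun v => push (fun s => s * c.phi Y) v + (c.D.nu Y).1

noncomputable def y (T : List α) : Tm (S → ZMod 2) :=
  match c.nxAt c.p0 T with
  | some t => yz c (T.take t)
  | none => 1

theorem y_some {T : List α} {t : ℕ} (h : c.nxAt c.p0 T = some t) : y c T = yz c (T.take t) := by
  unfold y
  rw [h]

theorem T1_eq (hone : c.phi [] = 1) {Z : List α} :
    T1 c.phi c.nu1 Z = (pr (f2 c.phi) (Z.take c.p0) * yz c (Z.drop c.p0) : Tm (S → ZMod 2)) := by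
  funext v
  rw [tm_mul, pr_f2 c.phi c.hphi hone]
  unfold yz T1 Sc1.nu1
  rw [push_push]
  congr 1
  congr 1
  funext s
  rw [mul_assoc, ← c.hphi, List.take_append_drop]

theorem twoSchemes (hone : c.phi [] = 1) (h1 : c.D.N1) (h2 : c.D.N2) (h3 : c.D.N3)
    (hF : c.D.Hides) (C0 : ℕ) (hC0 : 1 + (c.m + 1) + c.ms.card * 2 ≤ C0)
    (hS2 : ∀ (cc : ℕ → ℕ) (p0 : ℕ), (∀ i j, i < j → j < c.K → cc i < cc j) →
      (∀ k < c.K, cc k ≤ p0) →
      ∀ (Bad : List α → Prop) (BadAt : ℕ → List α → Prop) (nx : List α → Option ℕ)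
        (nxAt : ℕ → List α → Option ℕ) (y : List α → Tm (S → ZMod 2)),
        (∀ P Q : List α, P.length ≤ p0 → (Bad (P ++ Q) ↔ BadAt P.length Q)) →
        (∀ P Q : List α, P.length ≤ p0 → nx (P ++ Q) = (nxAt P.length Q).map (P.length + ·)) →
        (∀ U : List α, p0 ≤ U.length → Bad U → (nx U).isSome →
          (spoiled c.K cc BadAt U).card ≤ C0) →
        ∃ (LL : List α → Option ((S → ZMod 2) → ZMod 2))
          (RR : List α → Option (ℕ × ((S → ZMod 2) → ZMod 2)))
          (nu : List α → Tm (S → ZMod 2) → ((S → ZMod 2) → ZMod 2)),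
          (∀ (P Q : List α) (v : (S → ZMod 2) → ZMod 2) (d : ℕ) (b : (S → ZMod 2) → ZMod 2),
            LL P = some v → RR Q = some (d, b) → Bad (P ++ Q) →
              nx (P ++ Q) = some (P.length + d) ∧
              b = act2 v (pr (f2 c.phi) ((P ++ Q).take p0) * y ((P ++ Q).drop p0)) +
                nu ((P ++ Q).take p0) (y ((P ++ Q).drop p0))) ∧
          (∀ (P : List α) (v : (S → ZMod 2) → ZMod 2), LL P = some v →
            ∃ k < c.K, P.length = cc k) ∧
          (∀ (U : List α) (v : (S → ZMod 2) → ZMod 2), p0 ≤ U.length → Bad U → (nx U).isSome →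
            ∃ k < c.K, LL (U.take (cc k)) = some v ∧ (RR (U.drop (cc k))).isSome) ∧
          (∀ Q Q' : List α, (∀ k < c.K, (BadAt (cc k) Q ↔ BadAt (cc k) Q')) →
            (∀ k < c.K, nxAt (cc k) Q = nxAt (cc k) Q') → Q.take p0 = Q'.take p0 →
            (∀ k < c.K, y (Q.drop (p0 - cc k)) = y (Q'.drop (p0 - cc k))) → RR Q = RR Q'))
    (hcc : ∀ i j, i < j → j < c.K → c.cc i < c.cc j) (hnp : c.ro.n ≤ c.p0) :
    TwoSchemes c.phi (RF c.e c.b) := by
  obtain ⟨LL, RR, nu, hex, hlen, hco, hloc⟩ := hS2 c.cc c.p0 hcc c.ccp c.Bad c.BadAt c.nx c.nxAt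
    (y c) (fun P Q h => c.bad_append h) (fun P Q h => c.nx_append h)
    (fun U _ _ _ => (c.card_spoiled U).trans hC0)
  have hz := c.hz
  have hL2 := c.hL2
  have hL := c.hL
  have htm : c.tmax = c.z0 + c.q * (2 * c.N1 + 2 * c.La + 1) := rfl
  refine ⟨c.ch, c.L, c.L, c.p0, c.p0 + c.q * c.Nom, c.Bad, ?_, hnp, ?_, c.nu1, c.al, c.L, c.rl,
    ?_, c.exact1 h1 h2 _ _, c.complete1 h3 hF, ?_⟩
  · intro Q hQ hl hn
    obtain ⟨t, ht, -⟩ := c.nxAt_ex c.hGo (j := 0) hQ (by rw [htm]; omega)
    change c.nxAt 0 Q = none at hn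
    rw [ht] at hn
    cases hn
  · intro Q Q' hl
    exact c.bad_take hl
  · omega
  refine ⟨fun Z => nu (Z.take c.p0) (yz c (Z.drop c.p0)), LL,
    c.L + c.L + (c.p0 + c.q * c.Nom), RR, le_rfl, ?_, ?_⟩
  · -- exactness
    rintro P U v b R hU hP ⟨hRF, hPl, hbad⟩ hLL hRR
    obtain ⟨e1, e2⟩ := hex P U v b R hLL hRR hbad
    refine ⟨e1, ?_⟩
    have hpos := c.nxAt_pos e1
    have hnxA : c.nxAt c.p0 ((P ++ U).drop c.p0) = some (P.length + b - c.p0) := by
      have hl : c.p0 ≤ (P ++ U).length := by omega
      have h5 := c.nx_append (P := (P ++ U).take c.p0) (Q := (P ++ U).drop c.p0)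
        (by rw [List.length_take]; omega)
      rw [List.take_append_drop, e1, List.length_take, min_eq_left hl] at h5
      have h6 := h5.symm
      rw [Option.map_eq_some_iff] at h6
      obtain ⟨t, ht, hteq⟩ := h6
      rw [ht]
      congr 1
      omega
    have hZ : P ++ U.take b = (P ++ U).take (P.length + b) := by
      rw [List.take_append, List.take_of_length_le (show P.length ≤ P.length + b by omega), Nat.add_sub_cancel_left]
    have hzt : (P ++ U.take b).take c.p0 = (P ++ U).take c.p0 := by
      rw [hZ, List.take_take, min_eq_left (by omega)]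
    have hzd : (P ++ U.take b).drop c.p0
        = ((P ++ U).drop c.p0).take (P.length + b - c.p0) := by
      rw [hZ, List.drop_take]
    rw [y_some c hnxA] at e2
    rw [e2]
    unfold T2
    beta_reduce
    rw [T1_eq c hone, hzt, hzd]
    rfl
  · -- completeness
    rintro Q ⟨hRF, hl, hbad⟩ v
    obtain ⟨t0, ht0, ht0le⟩ := c.nxAt_ex c.hGo (j := 0) hRF (by rw [htm]; omega)
    obtain ⟨k, hk, hLLk, hRRk⟩ := hco Q v (by omega) hbad (by
      change (c.nxAt 0 Q).isSome
      rw [ht0]; rfl)
    set a := c.cc k with ha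
    have ha1 := c.ccp k hk
    have ha2 := c.ccn k hk
    set D2 := c.L + c.L + (c.p0 + c.q * c.Nom) with hD2
    refine ⟨Q.take a, (Q.drop a).take D2, (Q.drop a).drop D2, ?_, ?_, ?_, ?_, ?_, hLLk, ?_⟩
    · rw [List.take_append_drop, List.take_append_drop]
    · rw [List.length_take, List.length_drop]; omega
    · change c.ro.n ≤ _
      rw [List.length_take]; omega
    · rw [List.length_take]; omega
    · exact c.nx_short (by rw [List.length_take]; omega)
    · have hT : RF c.e c.b (Q.drop a) := hRF.drop _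
      have hTl : c.L ≤ (Q.drop a).length := by rw [List.length_drop]; omega
      have key : RR ((Q.drop a).take D2) = RR (Q.drop a) := by
        have hn : ∀ j T, RF c.e c.b T → c.L ≤ T.length → ∀ l, c.L ≤ l →
            c.nxAt j (T.take l) = c.nxAt j T := by
          intro j T hT hTl l hl'
          obtain ⟨t, ht, htle⟩ := c.nxAt_ex c.hGo (j := j) hT (by rw [htm]; omega)
          rw [ht]
          exact c.nxAt_take ht (by omega)
        apply hloc
        · intro k' hk'
          unfold Par2.BadAt
          rw [List.take_take, min_eq_left (by omega)]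
        · intro k' hk'
          exact hn _ _ hT hTl _ (by omega)
        · rw [List.take_take, min_eq_left (by omega)]
        · intro k' hk'
          have hb := c.ccp k' hk'
          rw [List.drop_take]
          have hT' : RF c.e c.b ((Q.drop a).drop (c.p0 - c.cc k')) := hT.drop _
          have hTl' : c.L ≤ ((Q.drop a).drop (c.p0 - c.cc k')).length := by
            rw [List.length_drop, List.length_drop]; omega
          obtain ⟨t, ht, htle⟩ := c.nxAt_ex c.hGo (j := c.p0) hT' (by rw [htm]; omega)
          have ht2 : c.nxAt c.p0 (((Q.drop a).drop (c.p0 - c.cc k')).take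
              (D2 - (c.p0 - c.cc k'))) = some t := c.nxAt_take ht (by omega)
          rw [y_some c ht, y_some c ht2, List.take_take, min_eq_left (by omega)]
      rw [key]
      exact hRRk

end Sc

end Crest.Agent.R320.AsmD_472
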