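import Crest.Agent.R320.AsmS_512

/-!
# Row 320: the two schemes, definitions and lemmas (helper512)
-/

set_option autoImplicit false
set_option linter.unusedSectionVars false

namespace Crest.Agent.R320.AsmD_512

open Crest.RegLang Crest.Agent.R320.Hk_851 Crest.Agent.R320.FewWalls_228
  Crest.Agent.R320.P3Top_416 Crest.Agent.R320.Half1_180 Crest.Agent.R320.AsmW_512
  Crest.Agent.R320.AsmS_512

section defs

variable {α G : Type} [Monoid G] [Fintype G] [DecidableEq G]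

/-- product -/
def ph (f : α → G) (w : List α) : G := (w.map f).prod

theorem ph_append (f : α → G) (u v : List α) : ph f (u ++ v) = ph f u * ph f v := by
  simp [ph]

/-- zone map -/
def TT (f : α → G) (p : ℕ) (nu2 nu1 : List α → G → ZMod 2) (X : List α) (v : G → ZMod 2) :
    G → ZMod 2 :=
  act (act v (ph f (X.take p)) + nu2 (X.take p)) (ph f (X.drop p)) + nu1 (X.drop p)

theorem TT_sub (f : α → G) (p : ℕ) (nu2 nu1 : List α → G → ZMod 2) (X : List α)
    (v v' : G → ZMod 2) : TT f p nu2 nu1 X v - TT f p nu2 nu1 X v' = act (v - v') (ph f X) := by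
  have h : ph f X = ph f (X.take p) * ph f (X.drop p) := by
    rw [← ph_append, List.take_append_drop]
  unfold TT
  rw [add_sub_add_right_eq_sub, ← act_sub, add_sub_add_right_eq_sub, ← act_sub, act_mul, h]

/-- bad blocks -/
def BadP (n : ℕ) (S : Set (List α)) (z N1 p : ℕ) (Bd : ℕ → Prop) (X : List α) : Prop :=
  X.length < z + N1 + 1 ∨ (∃ t, z ≤ t + N1 ∧ t < z ∧ WE n S X t) ∨ Bd (X.length - p)

/-- left words of scheme 1 -/
def LP1 (f : α → G) (p : ℕ) (nu2 : List α → G → ZMod 2) (lam1 : List α → Option (G → ZMod 2))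
    (v : G → ZMod 2) : Set (List α) :=
  {P | p ≤ P.length ∧ lam1 (P.drop p) = some (act v (ph f (P.take p)) + nu2 (P.take p))}

theorem LP1_finite [Finite α] (f : α → G) (p N1 : ℕ) (nu2 : List α → G → ZMod 2)
    (lam1 : List α → Option (G → ZMod 2)) (g1 : ∀ p v, lam1 p = some v → p.length ≤ N1)
    (v : G → ZMod 2) : (LP1 f p nu2 lam1 v).Finite := by
  refine (List.finite_length_le α (p + N1)).subset ?_
  rintro P ⟨h1, h2⟩
  have := g1 _ _ h2
  rw [List.length_drop] at this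
  show P.length ≤ p + N1
  omega

/-- left words of scheme 2 -/
def LP2 (K : ℕ) (x : ℕ → ℕ) (lam2 : ℕ → List α → Option (G → ZMod 2))
    (v : G → ZMod 2) : Set (List α) :=
  {P | ∃ k < K, P.length = x k ∧ lam2 k P = some v}

theorem LP2_finite [Finite α] (K Xm : ℕ) (x : ℕ → ℕ) (hX : ∀ k < K, x k ≤ Xm)
    (lam2 : ℕ → List α → Option (G → ZMod 2)) (v : G → ZMod 2) :
    (LP2 (α := α) K x lam2 v).Finite := by
  refine (List.finite_length_le α Xm).subset ?_
  rintro P ⟨k, hk, h1, -⟩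
  have := hX k hk
  show P.length ≤ Xm
  omega

theorem Bd_mod {Bd : ℕ → Prop} {D : ℕ} (hper : ∀ T, Bd (T + D) ↔ Bd T) {T T' : ℕ}
    (h : T % D = T' % D) : Bd T ↔ Bd T' := by
  have key : ∀ k T, Bd (T + k * D) ↔ Bd T := by
    intro k
    induction k with
    | zero => intro T; simp
    | succ k ih =>
      intro T
      rw [Nat.succ_mul, ← Nat.add_assoc, hper, ih]
  have h1 : ∀ T, Bd T ↔ Bd (T % D) := by
    intro T
    have := key (T / D) (T % D)
    rw [show T % D + T / D * D = T by rw [Nat.mul_comm]; exact Nat.mod_add_div T D] at this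
    exact this
  rw [h1 T, h1 T', h]

theorem rg_fibre [Finite α] (f : α → G) (s : G) : Rg (fun w : List α => ph f w = s) := by
  refine Crest.Agent.R320.RegCongr_253.regular_of_congr f 0 1 one_pos _ ?_
  intro q q' _ _ _ _ h1 h2
  rw [List.drop_zero, List.drop_zero] at h1
  have h2' : ph f q = s := h2
  show ph f q' = s
  rw [← h2']
  exact h1.symm

theorem sub_mod_eq {a b p D : ℕ} (ha : p ≤ a) (hb : p ≤ b) (h : a % D = b % D) :
    (a - p) % D = (b - p) % D := by
  have : (a - p + p) ≡ (b - p + p) [MOD D] := by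
    rw [Nat.sub_add_cancel ha, Nat.sub_add_cancel hb]; exact h
  exact Nat.ModEq.add_right_cancel' p this

theorem rg_TT [Finite α] (f : α → G) (p La Pm : ℕ) (hPm : 0 < Pm)
    (nu2 nu1 : List α → G → ZMod 2)
    (g5 : ∀ q q' : List α, La ≤ q.length → La ≤ q'.length → q.take La = q'.take La →
      ph f (q.drop La) = ph f (q'.drop La) → q.length % Pm = q'.length % Pm → nu1 q = nu1 q')
    (v b : G → ZMod 2) : Rg (fun X : List α => TT f p nu2 nu1 X v = b) := by
  refine Crest.Agent.R320.RegCongr_253.regular_of_congr f (p + La) Pm hPm _ ?_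
  intro q q' hq hq' ht hm hd hT
  have hT' : TT f p nu2 nu1 q v = b := hT
  show TT f p nu2 nu1 q' v = b
  rw [← hT']
  have e1 : q.take p = q'.take p := by
    have := congrArg (List.take p) ht
    rw [List.take_take, List.take_take, show min p (p + La) = p by omega] at this
    exact this
  have e2 : (q.drop p).take La = (q'.drop p).take La := by
    have := congrArg (List.drop p) ht
    rw [List.drop_take, List.drop_take, show p + La - p = La by omega] at this
    exact this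
  have e3 : ph f ((q.drop p).drop La) = ph f ((q'.drop p).drop La) := by
    rw [List.drop_drop, List.drop_drop]
    exact hd
  have e4 : ph f (q.drop p) = ph f (q'.drop p) := by
    rw [← List.take_append_drop La (q.drop p), ← List.take_append_drop La (q'.drop p),
      ph_append, ph_append, e2, e3]
  have e5 : nu1 (q.drop p) = nu1 (q'.drop p) := by
    refine g5 _ _ (by rw [List.length_drop]; omega) (by rw [List.length_drop]; omega) e2 e3 ?_
    rw [List.length_drop, List.length_drop]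
    exact sub_mod_eq (by omega) (by omega) hm
  unfold TT
  rw [e1, e4, e5]

theorem rg_BadP [Finite α] {n z N1 p D : ℕ} (S : Set (List α)) {Bd : ℕ → Prop} (hD : 0 < D)
    (hper : ∀ T, Bd (T + D) ↔ Bd T) : Rg (fun X : List α => BadP n S z N1 p Bd X) := by
  refine Crest.Agent.R320.RegCongr_253.regular_of_congr (S := Unit) (fun _ => 1) (z + N1 + 1 + p) D
    hD _ ?_
  intro q q' hq hq' ht hm _ h
  rcases h with h | ⟨t, h1, h2, h3⟩ | h
  · omega
  · refine Or.inr (Or.inl ⟨t, h1, h2, ?_⟩)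
    have e1 := WE.left (n := n) (S := S) (P := q.take (z + N1 + 1 + p))
      (Q := q.drop (z + N1 + 1 + p)) (t := t) (by rw [List.length_take]; omega)
    have e2 := WE.left (n := n) (S := S) (P := q'.take (z + N1 + 1 + p))
      (Q := q'.drop (z + N1 + 1 + p)) (t := t) (by rw [List.length_take]; omega)
    rw [List.take_append_drop] at e1 e2
    rw [e2, ← ht, ← e1]
    exact h3
  · refine Or.inr (Or.inr ?_)
    rw [← Bd_mod hper (sub_mod_eq (by omega) (by omega) hm)]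
    exact h

/-- right words of scheme 1 (semantic) -/
def RQ1 (f : α → G) (p : ℕ) (nu2 nu1 : List α → G → ZMod 2)
    (lam1 : List α → Option (G → ZMod 2)) (n : ℕ) (S : Set (List α)) (z r : ℕ)
    (b : G → ZMod 2) : Set (List α) :=
  {Q | (∀ v, ∀ P ∈ LP1 f p nu2 lam1 v, P ++ Q ∈ XX n S z ∧ TT f p nu2 nu1 (P ++ Q) v = b) ∧
    nw n S Q ≤ r}

theorem rg_RQ1 [Finite α] (f : α → G) (p N1 : ℕ) (nu2 nu1 : List α → G → ZMod 2)
    (lam1 : List α → Option (G → ZMod 2)) (g1 : ∀ p v, lam1 p = some v → p.length ≤ N1)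
    (n : ℕ) (S : Set (List α)) (z : ℕ) (b : G → ZMod 2)
    (hreg : ∀ v, Rg (fun X : List α => TT f p nu2 nu1 X v = b)) :
    Rg (fun Q : List α => ∀ v, ∀ P ∈ LP1 f p nu2 lam1 v,
      P ++ Q ∈ XX n S z ∧ TT f p nu2 nu1 (P ++ Q) v = b) := by
  have hfin : ({vP : (G → ZMod 2) × List α | vP.2 ∈ LP1 f p nu2 lam1 vP.1}).Finite := by
    have h : ({vP : (G → ZMod 2) × List α | vP.2 ∈ LP1 f p nu2 lam1 vP.1}) ⊆
        Set.univ ×ˢ {P : List α | P.length ≤ p + N1} := by
      rintro ⟨v, P⟩ ⟨h1, h2⟩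
      refine ⟨trivial, ?_⟩
      have := g1 _ _ h2
      rw [List.length_drop] at this
      have h1' : p ≤ P.length := h1
      have this' : P.length - p ≤ N1 := this
      show P.length ≤ p + N1
      omega
    exact (Set.finite_univ.prod (List.finite_length_le α (p + N1))).subset h
  have h := (Rg.ex hfin (fun vP Q => ¬ (vP.2 ++ Q ∈ XX n S z ∧ TT f p nu2 nu1 (vP.2 ++ Q) vP.1 = b))
    (fun vP _ => (((rg_XX (n := n) (z := z) S).and (hreg vP.1)).lquot vP.2).not)).not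
  refine h.congr fun Q => ?_
  constructor
  · rintro hQ ⟨⟨v, P⟩, hP, hc⟩
    exact hc (hQ v P hP)
  · intro hQ v P hP
    by_contra hc
    exact hQ ⟨(v, P), hP, hc⟩

/-- right words of scheme 2 (semantic) -/
def RQ2 (f : α → G) (p : ℕ) (nu2 nu1 : List α → G → ZMod 2) (K : ℕ) (x : ℕ → ℕ)
    (lam2 : ℕ → List α → Option (G → ZMod 2)) (n : ℕ) (S : Set (List α)) (z N1 : ℕ)
    (Bd : ℕ → Prop) (r : ℕ) (b : G → ZMod 2) : Set (List α) :=
  {Q | (∀ v, ∀ P ∈ LP2 K x lam2 v,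
      (∃ X1 X2 : List α, P ++ Q = X1 ++ X2 ∧ (X1 ∈ XX n S z ∧ BadP n S z N1 p Bd X1) ∧
        (X2 ∈ XX n S z ∧ BadP n S z N1 p Bd X2) ∧
        TT f p nu2 nu1 X2 (TT f p nu2 nu1 X1 v) = b) ∨
      (∃ X R : List α, P ++ Q = X ++ R ∧ (X ∈ XX n S z ∧ ¬ BadP n S z N1 p Bd X) ∧ True)) ∧
    nw n S Q ≤ r}

theorem rg_RQ2 [Finite α] (f : α → G) (p : ℕ) (nu2 nu1 : List α → G → ZMod 2) (K Xm : ℕ)
    (x : ℕ → ℕ) (hX : ∀ k < K, x k ≤ Xm)
    (lam2 : ℕ → List α → Option (G → ZMod 2)) (n : ℕ) (S : Set (List α)) (z N1 : ℕ)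
    (Bd : ℕ → Prop) (b : G → ZMod 2)
    (hreg : ∀ v b, Rg (fun X : List α => TT f p nu2 nu1 X v = b))
    (hBad : Rg (fun X : List α => BadP n S z N1 p Bd X)) :
    Rg (fun Q : List α => ∀ v, ∀ P ∈ LP2 K x lam2 v,
      (∃ X1 X2 : List α, P ++ Q = X1 ++ X2 ∧ (X1 ∈ XX n S z ∧ BadP n S z N1 p Bd X1) ∧
        (X2 ∈ XX n S z ∧ BadP n S z N1 p Bd X2) ∧
        TT f p nu2 nu1 X2 (TT f p nu2 nu1 X1 v) = b) ∨
      (∃ X R : List α, P ++ Q = X ++ R ∧ (X ∈ XX n S z ∧ ¬ BadP n S z N1 p Bd X) ∧ True)) := by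
  have hfin : ({vP : (G → ZMod 2) × List α | vP.2 ∈ LP2 K x lam2 vP.1}).Finite := by
    have h : ({vP : (G → ZMod 2) × List α | vP.2 ∈ LP2 K x lam2 vP.1}) ⊆
        Set.univ ×ˢ {P : List α | P.length ≤ Xm} := by
      rintro ⟨v, P⟩ ⟨k, hk, h1, -⟩
      refine ⟨trivial, ?_⟩
      have := hX k hk
      have h1' : P.length = x k := h1
      show P.length ≤ Xm
      omega
    exact (Set.finite_univ.prod (List.finite_length_le α Xm)).subset h
  have hXX := rg_XX (n := n) (z := z) S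
  have hA : ∀ v, Rg (fun w : List α => ∃ X1 X2 : List α, w = X1 ++ X2 ∧
      (X1 ∈ XX n S z ∧ BadP n S z N1 p Bd X1) ∧ (X2 ∈ XX n S z ∧ BadP n S z N1 p Bd X2) ∧
        TT f p nu2 nu1 X2 (TT f p nu2 nu1 X1 v) = b) := by
    intro v
    have h := Rg.ex (Set.finite_univ (α := G → ZMod 2)) (fun m w => ∃ X1 X2 : List α, w = X1 ++ X2 ∧
      ((X1 ∈ XX n S z ∧ BadP n S z N1 p Bd X1) ∧ TT f p nu2 nu1 X1 v = m) ∧
      ((X2 ∈ XX n S z ∧ BadP n S z N1 p Bd X2) ∧ TT f p nu2 nu1 X2 m = b))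
      (fun m _ => ((hXX.and hBad).and (hreg v m)).cat ((hXX.and hBad).and (hreg m b)))
    refine h.congr fun w => ?_
    constructor
    · rintro ⟨X1, X2, e, h1, h2, h3⟩
      exact ⟨_, trivial, X1, X2, e, ⟨h1, rfl⟩, h2, h3⟩
    · rintro ⟨m, -, X1, X2, e, ⟨h1, rfl⟩, h2, h3⟩
      exact ⟨X1, X2, e, h1, h2, h3⟩
  have hB : Rg (fun w : List α => ∃ X R : List α, w = X ++ R ∧
      (X ∈ XX n S z ∧ ¬ BadP n S z N1 p Bd X) ∧ True) :=
    (hXX.and hBad.not).cat Rg.top
  have h := (Rg.ex hfin (fun vP Q => ¬ ((∃ X1 X2 : List α, vP.2 ++ Q = X1 ++ X2 ∧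
      (X1 ∈ XX n S z ∧ BadP n S z N1 p Bd X1) ∧ (X2 ∈ XX n S z ∧ BadP n S z N1 p Bd X2) ∧
        TT f p nu2 nu1 X2 (TT f p nu2 nu1 X1 vP.1) = b) ∨
      (∃ X R : List α, vP.2 ++ Q = X ++ R ∧ (X ∈ XX n S z ∧ ¬ BadP n S z N1 p Bd X) ∧ True)))
    (fun vP _ => (((hA vP.1).or hB).lquot vP.2).not)).not
  refine h.congr fun Q => ?_
  constructor
  · rintro hQ ⟨⟨v, P⟩, hP, hc⟩
    exact hc (hQ v P hP)
  · intro hQ v P hP
    by_contra hc
    exact hQ ⟨(v, P), hP, hc⟩

end defs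

end Crest.Agent.R320.AsmD_512
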