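import Crest.Agent.R320.AsmC_713
import Crest.Agent.R320.ExactR_237

/-!
# Row 320: heights of the languages and the final assembly from the U-gadget (helper713)
-/

set_option autoImplicit false

namespace Crest.Agent.R320.AsmB_713.Dat

open Crest.RegLang Crest.Agent.R320.Hk_851 Crest.Agent.R320.Half1_180 Crest.Agent.R320.AsmA_713

variable {α S V : Type} [Finite α] [Monoid S] [Finite S] [AddCommGroup V] (D : Dat α S V)

theorem HL_LP2 {k : ℕ} (v : V) : HL k (D.LP2 v) := by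
  refine HL.finite ((List.finite_length_le α D.p0).subset ?_)
  rintro P ⟨j, hj, h1, h2⟩
  have := D.hcp j hj
  show P.length ≤ D.p0
  omega

/-- the condition `BC` is determined by finite data -/
theorem BC_det {X X' : List α} (hX : X ∈ XX D.G D.z) (hX' : X' ∈ XX D.G D.z)
    (h1 : X.take (2 * D.z) = X'.take (2 * D.z)) (h2 : X.length % D.Pm = X'.length % D.Pm)
    (h : D.BC X) : D.BC X' := by
  have hz := D.hz
  have l1 := XX_len D.G hX
  have l2 := XX_len D.G hX'
  have hle : (X.take (2 * D.z)).length = (X'.take (2 * D.z)).length := by rw [h1]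
  rw [List.length_take, List.length_take] at hle
  rcases h with ⟨t, ha, hb, hl⟩ | h
  · left
    have htl := D.G.le _ _ hl
    refine ⟨t, ha, hb, ?_⟩
    rw [← D.LW_take (M := 2 * D.z) (by omega) (by omega)] at hl ⊢
    rwa [← h1]
  · right
    refine (D.bad_per ?_).1 h
    have e1 : X.length = (X.length - D.p0) + D.p0 := by omega
    have e2 : X'.length = (X'.length - D.p0) + D.p0 := by omega
    rw [e1, e2] at h2
    exact Nat.ModEq.add_right_cancel' D.p0 h2

theorem nu_det {X X' : List α} (hX : X ∈ XX D.G D.z) (hX' : X' ∈ XX D.G D.z)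
    (h1 : X.take (2 * D.z) = X'.take (2 * D.z)) (h2 : X.length % D.Pm = X'.length % D.Pm)
    (h3 : ((X.drop D.p0).map D.f).prod = ((X'.drop D.p0).map D.f).prod) :
    D.nu1 (X.drop D.p0) = D.nu1 (X'.drop D.p0) := by
  have hz := D.hz
  have l1 := XX_len D.G hX
  have l2 := XX_len D.G hX'
  refine (D.hdet _ _ (by rw [List.length_drop]; omega) (by rw [List.length_drop]; omega) ?_ ?_
    h3).2
  · have := congrArg (List.take D.La) (congrArg (List.drop D.p0) h1)
    rw [List.drop_take, List.drop_take, List.take_take, List.take_take,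
      min_eq_left (by omega)] at this
    exact this
  · rw [List.length_drop, List.length_drop]
    have e1 : X.length = (X.length - D.p0) + D.p0 := by omega
    have e2 : X'.length = (X'.length - D.p0) + D.p0 := by omega
    rw [e1, e2] at h2
    exact Nat.ModEq.add_right_cancel' D.p0 h2

theorem take_det {X X' : List α} (h1 : X.take (2 * D.z) = X'.take (2 * D.z)) :
    X.take D.p0 = X'.take D.p0 := by
  have hz := D.hz
  have := congrArg (List.take D.p0) h1
  rwa [List.take_take, List.take_take, min_eq_left (by omega)] at this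

theorem HL_BX : HL 1 (Lof D.BX) :=
  blk_HL D.G D.f D.z (2 * D.z) D.p0 D.Pm D.hPm D.BC
    fun _ _ hX hX' h1 h2 _ h => D.BC_det hX hX' h1 h2 h

theorem T_det {X X' : List α} (hX : X ∈ XX D.G D.z) (hX' : X' ∈ XX D.G D.z)
    (h1 : X.take (2 * D.z) = X'.take (2 * D.z)) (h2 : X.length % D.Pm = X'.length % D.Pm)
    (h3 : ((X.drop D.p0).map D.f).prod = ((X'.drop D.p0).map D.f).prod) (v : V) :
    D.T X v = D.T X' v := by
  unfold T ph
  rw [D.take_det h1, D.nu_det hX hX' h1 h2 h3, h3]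

theorem HL_short (v v' : V) : HL 1 (Lg (fun Y => Y ∈ D.BX ∧ D.T Y v = v')) := by
  refine (blk_HL D.G D.f D.z (2 * D.z) D.p0 D.Pm D.hPm (fun Y => D.BC Y ∧ D.T Y v = v')
    ?_).congr fun w => ?_
  · rintro X X' hX hX' h1 h2 h3 ⟨h4, h5⟩
    exact ⟨D.BC_det hX hX' h1 h2 h4, by rw [← D.T_det hX hX' h1 h2 h3]; exact h5⟩
  · constructor
    · rintro ⟨⟨a, b⟩, c⟩; exact ⟨a, b, c⟩
    · rintro ⟨a, b, c⟩; exact ⟨⟨a, b⟩, c⟩

/-- the last part of block 1 -/
def A2 (k : ℕ) (q0 : List α) (b1 b2 : V) : Language α := Lg fun Y =>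
  (∃ P' : List α, P'.length = D.c k ∧ P' ++ (q0 ++ Y) ∈ D.BX) ∧
    D.act b1 (D.ph Y) + D.nu1 Y = b2

theorem HL_A2 {k : ℕ} (hk : k < D.K) {q0 : List α} (hq : q0.length = D.p0 - D.c k) (b1 b2 : V) :
    HL 1 (D.A2 k q0 b1 b2) := by
  have ck := D.hcp k hk
  by_cases hP : ∃ P0 : List α, P0.length = D.c k
  · obtain ⟨P0, hP0⟩ := hP
    have h := blk_HL D.G D.f D.z (2 * D.z) D.p0 D.Pm D.hPm
      (fun X => D.BC X ∧ D.act b1 (D.ph (X.drop D.p0)) + D.nu1 (X.drop D.p0) = b2) (by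
        rintro X X' hX hX' h1 h2 h3 ⟨h4, h5⟩
        refine ⟨D.BC_det hX hX' h1 h2 h4, ?_⟩
        rw [← D.nu_det hX hX' h1 h2 h3, ← h5]
        unfold ph
        rw [h3])
    have hl : (P0 ++ q0).length = D.p0 := by rw [List.length_append]; omega
    refine (h.lquot (P0 ++ q0)).congr fun Y => ?_
    constructor
    · rintro ⟨⟨P', hP', hB⟩, hb⟩
      have hB' := D.bad_swap (P' := P0) (by omega) (by omega) hB
      rw [← List.append_assoc] at hB'
      refine ⟨hB'.1, hB'.2, ?_⟩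
      rw [List.drop_left' hl]; exact hb
    · rintro ⟨hx, hb, he⟩
      rw [List.drop_left' hl] at he
      exact ⟨⟨P0, hP0, by rw [← List.append_assoc]; exact ⟨hx, hb⟩⟩, he⟩
  · refine HL.bot.congr fun Y => ?_
    constructor
    · rintro ⟨⟨P', hP', _⟩, _⟩
      exact (hP ⟨P', hP'⟩).elim
    · intro h
      exact h.elim

theorem HL_R2 [Finite V] {k : ℕ} (hk : k < D.K) (v' : V) : HL 1 (D.R2 k v') := by
  have hfin : {q0 : List α | q0.length = D.p0 - D.c k}.Finite := List.finite_length_eq α _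
  have h : HL 1 (Lg fun Q => ∃ q0 ∈ {q0 : List α | q0.length = D.p0 - D.c k},
      Q ∈ (Lg fun Q => ∃ p : V × V, Q ∈ (Lg fun _ => D.rho2 k q0 = some p.1) ⊓
        (({q0} : Language α) * (D.A2 k q0 p.1 p.2 *
          (Lg (fun Y => Y ∈ D.BX ∧ D.T Y p.2 = v')))))) := by
    refine HL.biUnion hfin fun q0 hq0 => ?_
    exact HL.iUnion fun p => (HL.const _).inf
      ((HL.word q0).mul ((D.HL_A2 hk hq0 p.1 p.2).mul (D.HL_short p.2 v')))
  refine h.congr fun Q => ?_
  constructor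
  · rintro ⟨q0, Y, X2, b1, rfl, h1, h2, h3, h4, h5⟩
    refine ⟨q0, h1, (b1, D.act b1 (D.ph Y) + D.nu1 Y), h2, ?_⟩
    exact Language.append_mem_mul rfl (Language.append_mem_mul ⟨h3, rfl⟩ ⟨h4, h5⟩)
  · rintro ⟨q0, h1, ⟨b1, b2⟩, h2, h3⟩
    obtain ⟨q0', hq0', w, hw, rfl⟩ := Language.mem_mul.1 h3
    obtain ⟨Y, ⟨hY1, hY2⟩, X2, ⟨hX1, hX2⟩, rfl⟩ := Language.mem_mul.1 hw
    have e : q0' = q0 := hq0'
    subst e
    refine ⟨q0', Y, X2, b1, rfl, h1, h2, hY1, hX1, ?_⟩
    rw [hY2]; exact hX2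

theorem HL_Cand {k : ℕ} (hk : k < D.K) : HL 1 (D.Cand k) := by
  have ck := D.hcp k hk
  have hz := D.hz
  by_cases hP : ∃ P0 : List α, P0.length = D.c k
  · obtain ⟨P0, hP0⟩ := hP
    refine (D.HL_BX.prefix.lquot P0).congr fun Q => ?_
    constructor
    · rintro ⟨P', hP', X, hX, hXp⟩
      have hl := D.BX_len hX
      have hPX : P' <+: X := List.prefix_of_prefix_length_le (List.prefix_append _ _) hXp (by omega)
      obtain ⟨Q1, rfl⟩ := hPX
      have hQ1 : Q1 <+: Q := (List.prefix_append_right_inj P').1 hXp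
      exact ⟨P0 ++ Q1, D.bad_swap (by omega) (by omega) hX,
        (List.prefix_append_right_inj P0).2 hQ1⟩
    · rintro ⟨X, hX, hXp⟩
      exact ⟨P0, hP0, X, hX, hXp⟩
  · refine HL.bot.congr fun Y => ?_
    constructor
    · rintro ⟨P', hP', _⟩
      exact (hP ⟨P', hP'⟩).elim
    · intro h
      exact h.elim

theorem HL_RQ2 [Finite V] (v' : V) : HL 1 (D.RQ2 v') := by
  have h1 : ∀ i : Fin D.K, HL 1 (Lg fun Q => ∀ j : Fin D.K, Q ∈ (Lg fun Q =>
      (j : ℕ) ≠ i → ¬ Q ∈ D.Cand j)) := by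
    intro i
    refine HL.iInter fun j => ?_
    exact HL.setOf_imp (HL.const _) (HL.setOf_not (D.HL_Cand j.2))
  have h2 : HL 1 (Lg fun Q => ∃ i : Fin D.K, Q ∈ (D.R2 i v' ⊓ (Lg fun Q => ∀ j : Fin D.K,
      Q ∈ (Lg fun Q => (j : ℕ) ≠ i → ¬ Q ∈ D.Cand j)))) :=
    HL.iUnion fun i => (D.HL_R2 i.2 v').inf (h1 i)
  refine h2.congr fun Q => ?_
  constructor
  · rintro ⟨k, hk, h3, h4⟩
    exact ⟨⟨k, hk⟩, h3, fun j hj => h4 j j.2 hj⟩
  · rintro ⟨i, h3, h4⟩
    exact ⟨i, i.2, h3, fun k' hk' hne => h4 ⟨k', hk'⟩ hne⟩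

theorem HL_tail (s : S) :
    HL 1 (Lg (fun E => E ∈ Tail (XX D.G D.z) ∧ (E.map D.f).prod = s)) := by
  have h1 := D.G.few _ (reg2 D.f 0 0 1 one_pos (fun _ _ m => m = s)) D.z
  have h2 : HL 1 (Lof (Tail (XX D.G D.z))) := (HL_Tail D.G D.z).mono (by omega)
  refine (h2.inf h1).congr fun w => Iff.symm ?_
  constructor
  · rintro ⟨a, b, c⟩
    exact ⟨a, b⟩
  · rintro ⟨a, b⟩
    exact ⟨a, b, Tail_AM D.G a⟩

theorem main [Finite V] (act_one : ∀ v, D.act v 1 = v)
    (faithful : ∀ s s', (∀ v, D.act v s = D.act v s') → s = s') (s : S) :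
    HL 3 ({w | (w.map D.f).prod = s} : Language α) := by
  refine top2 (k := 1) D.f D.act ?_ act_one D.hmul faithful (XX D.G D.z) D.GX D.BX
    (PF_XX D.G D.z) D.XX_eq D.T (fun X _ v v' => D.hT X v v') D.LP1 D.RQ1
    (fun v => D.HL_LP1 v) (fun v => (D.HL_RQ1 v).mono (by omega)) D.sound1 D.compl1
    D.HL_BX D.LP2 D.RQ2 (fun v => D.HL_LP2 v) D.HL_RQ2 D.HL_short D.sound2
    (fun Y1 h1 Y2 h2 v => D.compl2 h1 h2 v) (fun s => (D.HL_tail s).mono (by omega)) s
  intro s
  have h := D.hadd 0 0 s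
  rw [add_zero] at h
  exact left_eq_add.1 h

end Crest.Agent.R320.AsmB_713.Dat

namespace Crest.Agent.R320.AsmB_713

open Crest.RegLang Crest.Agent.R320.Hk_851 Crest.Agent.R320.Half1_180 Crest.Agent.R320.AsmA_713

open Classical in
/-- the U-gadget on all words (literal of 772, #13437) -/
def UGI (S V : Type) [Monoid S] [AddCommGroup V] (act : V → S → V) : Prop :=
  ∃ C0 : ℕ, ∀ K : ℕ, ∃ (N1 Pm La : ℕ) (c : ℕ → ℕ) (Bad : ℕ → Prop), 0 < Pm ∧
    (∀ i j, i < j → j < K → c i < c j) ∧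
    (∀ i j k l, i < K → j < K → k < K → l < K → i ≠ j → k ≠ l → (i, j) ≠ (k, l) →
      c i + c l + 4 * N1 < c k + c j ∨ c k + c j + 4 * N1 < c i + c l) ∧
    (∀ T, Bad (T + Pm) ↔ Bad T) ∧
    (∀ T, La ≤ T → (((Finset.range K ×ˢ Finset.range K).filter
      (fun p => p.1 ≠ p.2 ∧ Bad (T + c p.2 - c p.1))).card ≤ C0)) ∧
    ∀ (A : Type) (phi : A → S), ∃ (lam rho : List A → Option V) (nu : List A → V),
      (∀ (p : List A) v, lam p = some v → p.length ≤ N1) ∧
      (∀ (p q : List A) v r, lam p = some v → rho q = some r → La ≤ q.length →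
        r = act v (((p ++ q).map phi).prod) + nu (p ++ q)) ∧
      (∀ u : List A, La ≤ u.length → ¬ Bad u.length → ∀ v, ∃ p q, p ++ q = u ∧
        lam p = some v ∧ (rho q).isSome) ∧
      (∀ q q2 : List A, La ≤ q.length → La ≤ q2.length → q.take La = q2.take La →
        q.length % Pm = q2.length % Pm → (q.map phi).prod = (q2.map phi).prod →
        rho q = rho q2 ∧ nu q = nu q2)

/-- **the all-words assembly**: the U-gadget gives height 3 for every word language `φ = s`. -/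
theorem asm {α S V : Type} [Finite α] [Monoid S] [Finite S] [AddCommGroup V] [Finite V]
    (act : V → S → V) (hadd : ∀ v w s, act (v + w) s = act v s + act w s)
    (hone : ∀ v, act v 1 = v) (hmul : ∀ v s s', act (act v s) s' = act v (s * s'))
    (hfaith : ∀ s s', (∀ v, act v s = act v s') → s = s')
    (hU : UGI S V act) (f : α → S) (s : S) :
    HL 3 ({w | (w.map f).prod = s} : Language α) := by
  classical
  have := Fintype.ofFinite S
  have := Fintype.ofFinite V
  obtain ⟨C0, hU⟩ := hU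
  obtain ⟨K, hK⟩ := Crest.Agent.R320.ExactR_237.exact_gadget α S V f act (2 * C0 + 2)
  obtain ⟨N1, Pm, La, c, Bad, hPm, hc, hrul, hper, hcard, hgad⟩ := hU K
  obtain ⟨lam2, rho2, nu2, hs2, hc2⟩ := hK c hc
  obtain ⟨lam, rho, nu1, hlam, hsnd, hcmp, hdet⟩ := hgad α f
  let p0 := (Finset.range K).sup c
  have hcp : ∀ k < K, c k ≤ p0 := fun k hk => Finset.le_sup (Finset.mem_range.2 hk)
  obtain ⟨G⟩ := exists_lwalls α (2 * p0 + 2 * N1 + 1) (by omega)
  let D : Dat α S V :=
    { act := act, f := f, W := 2 * p0 + 2 * N1 + 1, G := G,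
      z := 3 * p0 + 3 * N1 + La + G.n + 1, N1 := N1, Pm := Pm, La := La, p0 := p0, K := K,
      C0 := C0, Bad := Bad, c := c, lam := lam, rho := rho, nu1 := nu1,
      nu2 := fun w => nu2 w 1, lam2 := lam2, rho2 := fun k Q => rho2 k Q 1,
      hadd := hadd, hmul := hmul, hPm := hPm, hrul := hrul, hper := hper,
      hcard := fun T hT => by convert hcard T hT, hlam := hlam, hsnd := hsnd, hcmp := hcmp,
      hdet := hdet, hcp := hcp, hW := by omega, hz := by omega,
      snd2 := fun k hk P Q v b h1 h2 h3 h4 => by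
        have := hs2 k hk P Q 1 v b h1 h3 h4
        rw [mul_one] at this
        exact this
      cmp2 := fun u v hu => hc2 u 1 v fun k hk => by rw [hu]; exact hcp k hk }
  exact D.main hone hfaith s

end Crest.Agent.R320.AsmB_713
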