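import Crest.Agent.R320.AsmC_85

/-! Row 320: assembly, part D: `UGI` for the faithful module gives height three. -/

set_option autoImplicit false

namespace Crest.Agent.R320.Asm_85

open Crest.RegLang Crest.Agent.R320.Hk_851 Crest.Agent.R320.Blk467 Crest.Agent.R320.CompR_11
  Crest.Agent.R320.Pump_360 Crest.Agent.R320.RegBd_11

universe u

variable {α : Type u}

/-- two (E)-pairs coincide -/
theorem epair {Wo : List α → Prop} {z N1 CM W : ℕ} {Z : List α}
    (hgap : ∀ (P : List α) (d : ℕ), Wo P → 0 < d → d ≤ W → ¬ Wo (P.take (P.length - d)))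
    (hW : 2 * CM + 2 * N1 ≤ W) {i j k l t t' : ℕ}
    (hi : i ≤ CM) (hj : j ≤ CM) (hk : k ≤ CM) (hl : l ≤ CM)
    (hd : i + l + 4 * N1 < k + j ∨ k + j + 4 * N1 < i + l)
    (ht : t ≤ Z.length) (hw : Wo (Z.take t)) (h1 : z + i ≤ t + j + N1) (h2 : t + j < z + N1 + i)
    (ht' : t' ≤ Z.length) (hw' : Wo (Z.take t')) (h1' : z + k ≤ t' + l + N1)
    (h2' : t' + l < z + N1 + k) : False := by
  have key : ∀ x y, x ≤ Z.length → Wo (Z.take x) → Wo (Z.take y) → y < x → x ≤ y + W → False := by
    intro x y hx hwx hwy h3 h4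
    have hl1 : (Z.take x).length = x := by rw [List.length_take]; omega
    refine hgap (Z.take x) (x - y) hwx (by omega) (by omega) ?_
    have e : (Z.take x).length - (x - y) = y := by omega
    rw [e, List.take_take, min_eq_left (by omega)]
    exact hwy
  rcases hd with hd | hd
  · exact key t' t ht' hw' hw (by omega) (by omega)
  · exact key t t' ht hw hw' (by omega) (by omega)

theorem main [Finite α] {S V : Type u} [Monoid S] [Finite S] [AddCommGroup V] [Finite V]
    (act : V → S → V)
    (hadd : ∀ a b s, act (a + b) s = act a s + act b s)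
    (hone : ∀ v, act v 1 = v) (hmul : ∀ v s t, act v (s * t) = act (act v s) t)
    (hfaith : ∀ s t, (∀ v, act v s = act v t) → s = t)
    (hU : UGI S V act) (φ : α → S) (s : S) : HL 3 ({w | (w.map φ).prod = s} : Language α) := by
  classical
  obtain ⟨C0, hU⟩ := hU
  obtain ⟨m8, k8, h8⟩ := Crest.Agent.R320.Exact808.exact_gadget S V
  obtain ⟨hm8, hk8⟩ : 0 < m8 ∧ 0 < k8 := by
    obtain ⟨lam, h⟩ := h8 PUnit (fun _ => (1 : S)) (by simp) (fun _ => 0) (fun _ => none)
      (fun _ _ _ => le_rfl) rfl (by simp)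
    obtain ⟨rho, nu, -, h2⟩ := h act
    obtain ⟨i, hi, c, -⟩ := h2 [] 0 rfl
    exact ⟨by omega, lt_of_le_of_lt (Nat.zero_le _) c.2⟩
  set R' := 3 * C0 + 2 with hR'
  set K := m8 * (k8 * R') with hK
  obtain ⟨N1, Pm, La, c, Bad, hPm, hc, hsp, hBp, hcard, hg⟩ := hU K
  obtain ⟨lam1, rho1, nu1, g1, g2, g3, g4⟩ := hg α φ
  set CM := ∑ i ∈ Finset.range K, c i with hCM
  have hcM : ∀ i < K, c i ≤ CM := fun i hi =>
    Finset.single_le_sum (f := c) (fun _ _ => Nat.zero_le _) (Finset.mem_range.2 hi)
  set W := 2 * CM + 2 * N1 + 1 with hWdef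
  obtain ⟨n, Wo, w1, w2, hgap, Rp, Bp, hper⟩ :=
    Crest.Agent.R320.WallU_228.walls (α := α) W
  have hWD : WD n Wo := ⟨w1, w2⟩
  set p0 := CM + 1 with hp0
  set z := p0 + N1 + 2 * CM + n + La + 1 with hz
  obtain ⟨B8, ctx, hB1, hB2, hB3, hctx1, hctx2⟩ :=
    ruler hm8 hk8 (by omega : 0 < R') c p0 hc (fun i hi => (hcM i hi).trans (by omega))
  obtain ⟨lam2, h8b⟩ := h8 α (fun w => (w.map φ).prod)
    (fun u v => by rw [List.map_append, List.prod_append]) B8 ctx hB1 hB2 hctx1
  obtain ⟨rho2, nu2, e1, e2⟩ := h8b act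
  rw [hB3] at e1 e2
  -- noise and tokens
  set NU : List α → V := fun X => act (nu2 (X.take p0)) ((X.drop p0).map φ).prod + nu1 (X.drop p0)
    with hNU
  let T : V → List α → V := fun v X => act v (X.map φ).prod + NU X
  have hT : ∀ v X, T v X = act (act v ((X.take p0).map φ).prod + nu2 (X.take p0))
      ((X.drop p0).map φ).prod + nu1 (X.drop p0) := by
    intro v X
    change act v (X.map φ).prod + (act (nu2 (X.take p0)) ((X.drop p0).map φ).prod +
      nu1 (X.drop p0)) = _
    have e : (X.map φ).prod = ((X.take p0).map φ).prod * ((X.drop p0).map φ).prod := by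
      rw [← List.prod_append, ← List.map_append, List.take_append_drop]
    rw [e, hmul, hadd, add_assoc]
  let LP1 : V → Language α := fun v =>
    {P | p0 ≤ P.length ∧ lam1 (P.drop p0) = some (act v ((P.take p0).map φ).prod + nu2 (P.take p0))}
  have hLP1 : ∀ v P, P ∈ LP1 v → p0 ≤ P.length ∧ P.length ≤ p0 + N1 := by
    intro v P hP
    have h1 := g1 _ _ hP.2
    rw [List.length_drop] at h1
    exact ⟨hP.1, by omega⟩
  have J1 : ∀ v P q r, P ∈ LP1 v → rho1 q = some r → La ≤ q.length → T v (P ++ q) = r := by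
    intro v P q r hP hr hq
    rw [hT, List.take_append_of_le_length hP.1, List.drop_append_of_le_length hP.1]
    exact (g2 _ _ _ _ hP.2 hr hq).symm
  set X0 : Set (List α) := XX z Wo with hX0
  let BB : Set (List α) := {X | X ∈ X0 ∧ (EE z N1 Wo X ∨ Bad (X.length - p0))}
  let DD : V → V → Language α := fun v b =>
    {Z | (∃ X1, X1 ∈ X0 ∧ X1 ∉ BB ∧ X1 <+: Z) ∨
      ∃ X1 X2, X1 ∈ BB ∧ X2 ∈ BB ∧ X1 ++ X2 = Z ∧ T (T v X1) X2 = b}
  let LP2 : V → Language α := fun v => {P | lam2 P = some v ∧ ∃ l < K, P.length = c l}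
  let RQ1 : V → Language α := fun b =>
    {Q | ∀ v P, P ∈ LP1 v → P ++ Q ∈ X0 ∧ T v (P ++ Q) = b}
  let RQ2 : V → Language α := fun b => {Q | ∀ v P, P ∈ LP2 v → P ++ Q ∈ DD v b}
  have hpc : PCode X0 := pcode (by omega) Wo
  -- invariance
  have inv : ∀ q q2 : List α, z + N1 ≤ q.length → z + N1 ≤ q2.length →
      q.take (z + N1) = q2.take (z + N1) → q.length % Pm = q2.length % Pm →
      ((q.drop (z + N1)).map φ).prod = ((q2.drop (z + N1)).map φ).prod →
      (EE z N1 Wo q → EE z N1 Wo q2) ∧ (Bad (q.length - p0) → Bad (q2.length - p0)) ∧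
      ∀ v, T v q = T v q2 := by
    intro q q2 h1 h2 h3 h4 h5
    have hpre : ∀ a, a ≤ z + N1 → q.take a = q2.take a := by
      intro a ha
      have := congrArg (List.take a) h3
      rwa [List.take_take, List.take_take, min_eq_left ha] at this
    have hdr : ∀ a, a ≤ z + N1 → ((q.drop a).map φ).prod = ((q2.drop a).map φ).prod := by
      intro a ha
      rw [drop_split q ha h1, drop_split q2 ha h2, List.map_append, List.map_append,
        List.prod_append, List.prod_append, h5, h3]
    have hmod : (q.length - p0) % Pm = (q2.length - p0) % Pm := by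
      have e1 : (q.length - p0) + p0 ≡ (q2.length - p0) + p0 [MOD Pm] := by
        rw [Nat.sub_add_cancel (by omega), Nat.sub_add_cancel (by omega)]
        exact h4
      exact Nat.ModEq.add_right_cancel' p0 e1
    refine ⟨?_, bad_mod hBp hmod, ?_⟩
    · rintro ⟨t, a1, a2, a3, a4⟩
      exact ⟨t, by omega, a2, a3, by rw [← hpre t (by omega)]; exact a4⟩
    · intro v
      rw [hT, hT, hpre p0 (by omega), hdr p0 (by omega)]
      congr 1
      refine g4 _ _ ?_ ?_ ?_ ?_ ?_
      · rw [List.length_drop]; omega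
      · rw [List.length_drop]; omega
      · have := congrArg (List.drop p0) (hpre (p0 + La) (by omega))
        rw [List.drop_take, List.drop_take] at this
        rwa [Nat.add_sub_cancel_left] at this
      · rw [List.length_drop, List.length_drop]; exact hmod
      · rw [List.drop_drop, List.drop_drop]
        exact hdr _ (by omega)
  have HB : ∀ (P : List α → Prop), (∀ q q2 : List α, z + N1 ≤ q.length → z + N1 ≤ q2.length →
      q.take (z + N1) = q2.take (z + N1) → q.length % Pm = q2.length % Pm →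
      ((q.drop (z + N1)).map φ).prod = ((q2.drop (z + N1)).map φ).prod → P q → P q2) →
      HL 1 ({X | X ∈ X0 ∧ P X} : Language α) := fun P hP =>
    HL_block hWD hper φ (z + N1) Pm hPm P hP
  have hBT : ∀ v v', HL 1 ({X | X ∈ BB ∧ T v X = v'} : Language α) := by
    intro v v'
    refine (HB (fun X => (EE z N1 Wo X ∨ Bad (X.length - p0)) ∧ T v X = v') ?_).congr ?_
    · intro q q2 h1 h2 h3 h4 h5 h6
      obtain ⟨i1, i2, i3⟩ := inv q q2 h1 h2 h3 h4 h5
      exact ⟨h6.1.imp i1 i2, by rw [← i3]; exact h6.2⟩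
    · intro w
      exact ⟨fun h => ⟨h.1.1, h.1.2, h.2⟩, fun h => ⟨⟨h.1, h.2.1⟩, h.2.2⟩⟩
  have hXT : ∀ v v', HL 1 ({X | X ∈ X0 ∧ T v X = v'} : Language α) := by
    intro v v'
    refine HB (fun X => T v X = v') ?_
    intro q q2 h1 h2 h3 h4 h5 h6
    obtain ⟨i1, i2, i3⟩ := inv q q2 h1 h2 h3 h4 h5
    rw [← i3]; exact h6
  have hBad1 : HL 1 (BB : Language α) := by
    refine HB (fun X => (EE z N1 Wo X ∨ Bad (X.length - p0))) ?_
    intro q q2 h1 h2 h3 h4 h5 h6
    obtain ⟨i1, i2, i3⟩ := inv q q2 h1 h2 h3 h4 h5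
    exact h6.imp i1 i2
  have hGood1 : HL 1 ({X | X ∈ X0 ∧ X ∉ BB} : Language α) := by
    refine (HB (fun X => ¬ (EE z N1 Wo X ∨ Bad (X.length - p0))) ?_).congr ?_
    · intro q q2 h1 h2 h3 h4 h5 h6 h7
      obtain ⟨i1, i2, i3⟩ := inv q2 q h2 h1 h3.symm h4.symm h5.symm
      exact h6 (h7.imp i1 i2)
    · intro w
      exact ⟨fun h => ⟨h.1, fun g => h.2 ⟨h.1, g⟩⟩, fun h => ⟨h.1, fun g => h.2 g.2⟩⟩
  have hDD : ∀ v b, HL 1 (DD v b) := by
    intro v b
    have a1 := hGood1.prefix
    let F : V → V → Language α := fun v v' => {X | X ∈ BB ∧ T v X = v'}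
    have a2 := HL.iUnion (k := 1) (ι := V) (L := fun v' => F v v' * F v' b)
      fun v' => HL.mul (hBT v v') (hBT v' b)
    refine (a1.sup a2).congr fun w => ?_
    constructor
    · rintro (⟨X1, h1, h2, h3⟩ | ⟨X1, X2, h1, h2, h3, h4⟩)
      · exact Or.inl ⟨X1, ⟨h1, h2⟩, h3⟩
      · exact Or.inr ⟨T v X1, Language.mem_mul.2 ⟨X1, ⟨h1, rfl⟩, X2, ⟨h2, h4⟩, h3⟩⟩
    · rintro (⟨X1, ⟨h1, h2⟩, h3⟩ | ⟨v', h⟩)
      · exact Or.inl ⟨X1, h1, h2, h3⟩
      · obtain ⟨X1, ⟨h1, h2⟩, X2, ⟨h3, h4⟩, h5⟩ := Language.mem_mul.1 h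
        exact Or.inr ⟨X1, X2, h1, h3, h5, by rw [h2]; exact h4⟩
  have hfinP : ∀ (N : ℕ) (LP : V → Language α), (∀ v P, P ∈ LP v → P.length ≤ N) →
      ({p : V × List α | p.2 ∈ LP p.1}).Finite := by
    intro N LP h
    refine ((Set.finite_univ (α := V)).prod (List.finite_length_le α N)).subset ?_
    rintro ⟨v, P⟩ hp
    exact ⟨trivial, h v P hp⟩
  have hRQ : ∀ (N : ℕ) (LP : V → Language α), (∀ v P, P ∈ LP v → P.length ≤ N) →
      ∀ (F : V → Language α), (∀ v, HL 1 (F v)) →
      HL 1 ({Q | ∀ v P, P ∈ LP v → P ++ Q ∈ F v} : Language α) := by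
    intro N LP h F hF
    refine (HL.biInter (k := 1) (hfinP N LP h) (L := fun p => {Q | p.2 ++ Q ∈ F p.1})
      (fun p _ => (hF p.1).lquot p.2)).congr fun w => ?_
    exact ⟨fun hw p hp => hw p.1 p.2 hp, fun hw v P hP => hw (v, P) hP⟩
  have hLfin : ∀ (N : ℕ) (LP : V → Language α), (∀ v P, P ∈ LP v → P.length ≤ N) →
      ∀ v, HL 1 (LP v) := fun N LP h v =>
    HL.finite ((List.finite_length_le α N).subset fun P hP => h v P hP)
  have hLP2 : ∀ v P, P ∈ LP2 v → P.length ≤ CM := by
    rintro v P ⟨-, l, hl, e⟩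
    rw [e]; exact hcM l hl
  -- scheme 1, completeness
  have c1 : ∀ X ∈ X0, X ∉ BB → ∀ v, ∃ P Q, P ++ Q = X ∧ P ∈ LP1 v ∧ Q ∈ RQ1 (T v X) := by
    intro X hX hXB v
    have hE : ¬ EE z N1 Wo X := fun h => hXB ⟨hX, Or.inl h⟩
    have hBd : ¬ Bad (X.length - p0) := fun h => hXB ⟨hX, Or.inr h⟩
    have hXl : z ≤ X.length := hX.1
    obtain ⟨p, q, h1, h2, h3⟩ := g3 (X.drop p0) (by rw [List.length_drop]; omega)
      (by rw [List.length_drop]; exact hBd) (act v ((X.take p0).map φ).prod + nu2 (X.take p0))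
    obtain ⟨r, hr⟩ := Option.isSome_iff_exists.1 h3
    have htl : (X.take p0).length = p0 := by rw [List.length_take]; omega
    have hXe : (X.take p0 ++ p) ++ q = X := by
      rw [List.append_assoc, h1, List.take_append_drop]
    have hP : (X.take p0 ++ p) ∈ LP1 v := by
      refine ⟨by rw [List.length_append]; omega, ?_⟩
      have a1 : (X.take p0 ++ p).drop p0 = p := by
        rw [List.drop_append_of_le_length htl.ge, List.drop_of_length_le htl.le, List.nil_append]
      have a2 : (X.take p0 ++ p).take p0 = X.take p0 := by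
        rw [List.take_append_of_le_length htl.ge, List.take_of_length_le htl.le]
      rw [a1, a2]
      exact h2
    refine ⟨X.take p0 ++ p, q, hXe, hP, ?_⟩
    intro v2 P2 hP2
    have b1 := hLP1 v _ hP
    have b2 := hLP1 v2 _ hP2
    obtain ⟨c3, c4⟩ := schemeA hWD (z := z) (p0 := p0) (N1 := N1) (by omega) b1.1 b1.2 b2.1 b2.2
      (q := q) (by rw [hXe]; exact hX) (by rw [hXe]; exact hE)
    refine ⟨c4, ?_⟩
    rw [J1 v2 P2 q r hP2 hr (by omega), ← J1 v _ q r hP hr (by omega), hXe]
  -- scheme 2, completeness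
  have c2 : ∀ X ∈ BB, ∀ X' ∈ BB, ∀ v, ∃ P Q, P ++ Q = X ++ X' ∧ P ∈ LP2 v ∧
      Q ∈ RQ2 (T (T v X) X') := by
    intro X hX X' hX' v
    have hXl : z ≤ X.length := hX.1.1
    have hX'l : z ≤ X'.length := hX'.1.1
    have hul : (X.take p0).length = p0 := by rw [List.length_take]; omega
    obtain ⟨i, hi, cc, hcc⟩ := e2 (X.take p0) v hul
    obtain ⟨T0, T2, hT0, hT2, hthree⟩ := three (Wo := Wo) (z := z) (CM := CM) (W := W) (p0 := p0)
      (B := La + CM) hgap (X := X) (Z := X ++ X') hXl (by omega) (by omega)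
    set Z := X ++ X' with hZ
    have hZl : Z.length = X.length + X'.length := by rw [hZ, List.length_append]
    let Ec : ℕ × ℕ → Prop := fun p => ∃ t, t ≤ Z.length ∧ Wo (Z.take t) ∧
      z + c p.1 ≤ t + c p.2 + N1 ∧ t + c p.2 < z + N1 + c p.1
    let GE := (Finset.range K ×ˢ Finset.range K).filter (fun p => p.1 ≠ p.2 ∧ Ec p)
    let GB : ℕ → Finset (ℕ × ℕ) := fun T =>
      (Finset.range K ×ˢ Finset.range K).filter (fun p => p.1 ≠ p.2 ∧ Bad (T + c p.2 - c p.1))
    have hGE : GE.card ≤ 1 := by
      rw [Finset.card_le_one]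
      intro p hp q hq
      simp only [GE, Finset.mem_filter, Finset.mem_product, Finset.mem_range] at hp hq
      obtain ⟨⟨p1, p2⟩, p3, t, p4, p5, p6, p7⟩ := hp
      obtain ⟨⟨q1, q2⟩, q3, t', q4, q5, q6, q7⟩ := hq
      by_contra hne
      exact epair hgap (by omega) (hcM _ p1) (hcM _ p2) (hcM _ q1) (hcM _ q2)
        (hsp p.1 p.2 q.1 q.2 p1 p2 q1 q2 p3 q3 (fun e => hne (by simpa using e)))
        p4 p5 p6 p7 q4 q5 q6 q7
    have hGB : ∀ T, La + CM ≤ T → (GB T).card ≤ C0 := by
      intro T hT'
      have := hcard T (by omega) (fun i hi => (hcM i hi).trans (by omega))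
      convert this
    let G := GE ∪ (GB T0 ∪ (GB (X.length - p0) ∪ GB T2))
    have hG : G.card < R' := by
      have a1 := Finset.card_union_le GE (GB T0 ∪ (GB (X.length - p0) ∪ GB T2))
      have a2 := Finset.card_union_le (GB T0) (GB (X.length - p0) ∪ GB T2)
      have a3 := Finset.card_union_le (GB (X.length - p0)) (GB T2)
      have b1 := hGB T0 hT0
      have b2 := hGB (X.length - p0) (by omega)
      have b3 := hGB T2 hT2
      have b4 : G.card = (GE ∪ (GB T0 ∪ (GB (X.length - p0) ∪ GB T2))).card := rfl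
      omega
    obtain ⟨r, hr, hrG⟩ := pigeon hG (i * (k8 * R') + cc * R')
    obtain ⟨hlK, hctxl⟩ := hctx2 i hi cc r hr
    set l := i * (k8 * R') + cc * R' + r with hl
    obtain ⟨hlam, hrho⟩ := hcc (c l) hctxl
    obtain ⟨y, hy⟩ := Option.isSome_iff_exists.1 hrho
    have hal : c l ≤ CM := hcM l hlK
    set a := c l with ha
    have htt : (X.take p0).take a = X.take a := by
      rw [List.take_take, min_eq_left (by omega)]
    rw [htt] at hlam
    have hXa : (X.take a).length = a := by rw [List.length_take]; omega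
    have hZa : Z.take a = X.take a := by
      rw [hZ, List.take_append_of_le_length (by omega)]
    have hZd : Z.drop a = X.drop a ++ X' := by
      rw [hZ, List.drop_append_of_le_length (by omega)]
    refine ⟨X.take a, Z.drop a, by rw [← hZa, List.take_append_drop], ⟨hlam, l, hlK, hXa⟩, ?_⟩
    rintro v2 P2 ⟨hlam2, l', hl'K, hP2⟩
    by_cases hll : l' = l
    · right
      subst hll
      have hP2a : P2.length = (X.take a).length := by rw [hP2, hXa]
      have hXs : X.take a ++ X.drop a = X := List.take_append_drop a X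
      have hdal : (X.drop a).length = X.length - a := List.length_drop
      refine ⟨P2 ++ X.drop a, X', ⟨?_, ?_⟩, hX', by rw [hZd, List.append_assoc], ?_⟩
      · refine sameXX hWD (N1 := N1) hP2a (by omega) ?_
        rw [hXs]; exact hX.1
      · rcases hX.2 with h | h
        · left
          refine sameEE hWD hP2a (by omega) ?_
          rw [hXs]; exact h
        · right
          have : (P2 ++ X.drop a).length = X.length := by
            rw [List.length_append, hdal]; omega
          rw [this]; exact h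
      · congr 1
        -- token after the first block
        have hd0 : ((X.take p0).drop a).length = p0 - a := by
          rw [List.length_drop, hul]
        have hXd : X.drop a = (X.take p0).drop a ++ X.drop p0 := drop_split X (by omega) (by omega)
        have u1 : (P2 ++ X.drop a).take p0 = P2 ++ (X.take p0).drop a := by
          rw [hXd, ← List.append_assoc, List.take_append_of_le_length
            (by rw [List.length_append]; omega), List.take_of_length_le
            (by rw [List.length_append]; omega)]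
        have u2 : (P2 ++ X.drop a).drop p0 = X.drop p0 := by
          rw [hXd, ← List.append_assoc, List.drop_append_of_le_length
            (by rw [List.length_append]; omega), List.drop_of_length_le
            (by rw [List.length_append]; omega), List.nil_append]
        have s1 := e1 P2 ((X.take p0).drop a) v2 y (by rw [hd0]; omega) hlam2 hy
        have s2 := e1 (X.take a) ((X.take p0).drop a) v y (by rw [hd0]; omega) hlam hy
        have u3 : X.take a ++ (X.take p0).drop a = X.take p0 := by
          rw [← htt, List.take_append_drop]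
        rw [u3] at s2
        rw [hT, hT, u1, u2, ← s1, ← s2]
    · left
      obtain ⟨w, f1, f2, f3, f4, f5, f6⟩ := firstBlock hWD (CM := CM) (W := W) (a := a)
        (b := c l') hgap hX.1 hX'.1 hal hP2 (hcM l' hl'K) (by omega) (by omega)
      rw [← hZ] at f1 f2 f5 f6
      have hb : c l' ≤ CM := hcM l' hl'K
      have hdl : (Z.drop a).length = Z.length - a := List.length_drop
      have hXlen : ((P2 ++ Z.drop a).take (w + c l' - a)).length = w + c l' - a := by
        rw [List.length_take, List.length_append, hP2, hdl]; omega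
      have hmem : ∀ (p : ℕ × ℕ → Prop), True := fun _ => trivial
      refine ⟨(P2 ++ Z.drop a).take (w + c l' - a), f5, ?_, List.take_prefix _ _⟩
      rintro ⟨-, hE | hBd⟩
      · obtain ⟨t, t1, t2, t3, t4⟩ := hE
        rw [hXlen] at t1
        rw [List.take_take, min_eq_left t1] at t4
        obtain ⟨j, hj⟩ : ∃ j, t = c l' + j := ⟨t - c l', by omega⟩
        have hZs : Z.take a ++ Z.drop a = Z := List.take_append_drop a Z
        have hZal : (Z.take a).length = a := by rw [hZa, hXa]
        have t5 := (tr hWD P2 (Z.take a) (Z.drop a) j (by omega) (by omega)).1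
          (by rw [hP2, ← hj]; exact t4)
        rw [hZs, hZal] at t5
        refine hrG l' (Finset.mem_union.2 (Or.inl ?_))
        simp only [GE, Finset.mem_filter, Finset.mem_product, Finset.mem_range]
        refine ⟨⟨hlK, hl'K⟩, fun e => hll e.symm, a + j, by omega, t5, ?_, ?_⟩
        · change z + a ≤ a + j + c l' + N1
          omega
        · change a + j + c l' < z + N1 + a
          omega
      · rw [hXlen] at hBd
        have hin : ∀ T, Bad (T + c l' - a) → (l, l') ∈ GB T := by
          intro T hTb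
          simp only [GB, Finset.mem_filter, Finset.mem_product, Finset.mem_range]
          exact ⟨⟨hlK, hl'K⟩, fun e => hll e.symm, hTb⟩
        have hthr := hthree w f2 f1 (by omega) f6
        refine hrG l' (Finset.mem_union.2 (Or.inr ?_))
        rcases hthr with e | e | e
        · refine Finset.mem_union.2 (Or.inl (hin T0 ?_))
          have : w + c l' - a - p0 = T0 + c l' - a := by omega
          rwa [← this]
        · refine Finset.mem_union.2 (Or.inr (Finset.mem_union.2 (Or.inl (hin _ ?_))))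
          have : w + c l' - a - p0 = X.length - p0 + c l' - a := by omega
          rwa [← this]
        · refine Finset.mem_union.2 (Or.inr (Finset.mem_union.2 (Or.inr (hin T2 ?_))))
          have : w + c l' - a - p0 = T2 + c l' - a := by omega
          rwa [← this]
  -- scheme 2, soundness
  have s2 : ∀ v b P Q r, P ∈ LP2 v → Q ∈ RQ2 b → P ++ Q ++ r ∈ Str BB →
      P ++ Q ∈ Lg BB T v b := by
    intro v b P Q r hP hQ hS
    rcases hQ v P hP with ⟨X1, h1, h2, h3⟩ | ⟨X1, X2, h1, h2, h3, h4⟩
    · exfalso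
      obtain ⟨L, hL, he⟩ := hS
      have h3' : X1 <+: P ++ Q ++ r := h3.trans (List.prefix_append _ _)
      cases L with
      | nil =>
        rw [List.flatten_nil] at he
        rw [← he] at h3'
        have : X1 = [] := List.prefix_nil.1 h3'
        exact hpc.1 (this ▸ h1)
      | cons Y L =>
        have hY := hL Y (by simp)
        have hYp : Y <+: P ++ Q ++ r := by
          rw [← he, List.flatten_cons]; exact List.prefix_append _ _
        rcases List.prefix_or_prefix_of_prefix h3' hYp with g | g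
        · have := hpc.2 X1 h1 Y hY.1 g
          exact h2 (this ▸ hY)
        · have := hpc.2 Y hY.1 X1 h1 g
          exact h2 (this ▸ hY)
    · refine ⟨[X1, X2], ?_, ?_, h4⟩
      · intro X hX
        simp only [List.mem_cons, List.not_mem_nil, or_false] at hX
        rcases hX with rfl | rfl
        · exact h1
        · exact h2
      · rw [← h3]; simp
  refine Crest.Agent.R320.Top5_467.top5 φ act hadd hone hmul hfaith NU X0 BB hpc (fun X h => h.1) LP1 RQ1 LP2 RQ2
    (fun v b P Q hP hQ => hQ v P hP) c1 s2 c2 hBad1 (hLfin CM LP2 hLP2)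
    (fun b => hRQ CM LP2 hLP2 (fun v => DD v b) (fun v => hDD v b))
    (fun v => (hLfin (p0 + N1) LP1 (fun v P hP => (hLP1 v P hP).2) v).mono (by omega))
    (fun b => (hRQ (p0 + N1) LP1 (fun v P hP => (hLP1 v P hP).2)
      (fun v => {X | X ∈ X0 ∧ T v X = b}) (fun v => hXT v b)).mono (by omega))
    (fun v v' => (hBT v v').mono (by omega))
    (fun s => (HL_tail hWD hper φ s).mono (by omega)) s

end Crest.Agent.R320.Asm_85
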