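import Crest.Agent.R320.AsmC_886

/-!
# Row 320, helper886: completeness of scheme 2 (natural chain rule), spoil count
-/

set_option autoImplicit false

namespace Crest.Agent.R320.AsmD_886

open Crest.Agent.R320.Hk_851 Crest.Agent.R320.Code110 Crest.Agent.R320.AsmC_886

universe u

variable {α : Type u}

/-- a wall of `w` near the zone of the shifted anchor -/
def SE (Wo : List α → Prop) (z D : ℕ) (c : ℕ → ℕ) (w : List α) (a b : ℕ) : Prop :=
  ∃ s, s ≤ w.length ∧ Wo (w.take s) ∧ z + c a ≤ s + c b + D ∧ s + c b ≤ z + D + c a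

/-- the shifted block has a bad length -/
def SB (Wo : List α → Prop) (z p0 : ℕ) (BadT : ℕ → Prop) (c : ℕ → ℕ) (w : List α) (a b : ℕ) :
    Prop :=
  ∃ s, s ≤ w.length ∧ Wo (w.take s) ∧ z + c a ≤ s + c b ∧
    (∀ s', s' < s → Wo (w.take s') → s' + c b < z + c a) ∧ BadT (s + c b - c a - p0)

theorem off_of_not {Wo : List α → Prop} {n W : ℕ} (h : WR Wo n W) {z D p0 : ℕ} {BadT : ℕ → Prop}
    {c : ℕ → ℕ} {w : List α} (hw : Wo w) {a b : ℕ} (hwl : z + c a + n ≤ w.length)
    (hb : c b + n + D ≤ z) {P2 : List α} (hP2 : P2.length = c b)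
    (hE : ¬ SE Wo z D c w a b) (hB : ¬ SB Wo z p0 BadT c w a b) :
    P2 ++ w.drop (c a) ∈ Off (XX Wo z) (BB Wo z D p0 BadT) 1 := by
  classical
  set Q := w.drop (c a) with hQ
  have hQl : Q.length = w.length - c a := by rw [hQ, List.length_drop]
  have hPl : (w.take (c a)).length = c a := by rw [List.length_take]; omega
  have hwe : w.take (c a) ++ Q = w := List.take_append_drop _ _
  have hQw : Wo Q := by
    rw [← hwe] at hw
    exact (h.loc _ _ (by omega)).1 hw
  have key : ∀ s, n ≤ s → s ≤ Q.length →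
      (Wo ((P2 ++ Q).take (c b + s)) ↔ Wo (w.take (c a + s))) := by
    intro s h1 h2
    have := wall_shift h P2 (w.take (c a)) Q h1 h2
    rw [hP2, hPl, hwe] at this
    exact this
  have hl : (P2 ++ Q).length = c b + Q.length := by rw [List.length_append, hP2]
  have hex : ∃ t, z ≤ t ∧ t ≤ (P2 ++ Q).length ∧ Wo ((P2 ++ Q).take t) := by
    refine ⟨(P2 ++ Q).length, by omega, le_rfl, ?_⟩
    rw [List.take_length]
    exact (h.loc _ _ (by omega)).2 hQw
  obtain ⟨ht1, ht2, ht3⟩ := Nat.find_spec hex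
  have hmin : ∀ t, t < Nat.find hex → ¬ (z ≤ t ∧ t ≤ (P2 ++ Q).length ∧ Wo ((P2 ++ Q).take t)) :=
    fun t ht => Nat.find_min hex ht
  set t' := Nat.find hex with ht'
  have hzl : ((P2 ++ Q).take t').length = t' := by rw [List.length_take]; omega
  have htake : ∀ t, t ≤ t' → ((P2 ++ Q).take t').take t = (P2 ++ Q).take t := by
    intro t ht
    rw [List.take_take, min_eq_left ht]
  refine off_one (z' := (P2 ++ Q).take t') ?_ ?_ (List.take_prefix _ _)
  · refine ⟨by omega, ht3, ?_⟩
    intro t h1 h2 h3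
    rw [hzl] at h2
    rw [htake t h2.le] at h3
    exact hmin t h2 ⟨h1, by omega, h3⟩
  · rintro ⟨-, hbad⟩
    rcases hbad with hbad | hbad
    · obtain ⟨t, h1, h2, h3, h4⟩ := hbad
      rw [hzl] at h1
      rw [htake t h1] at h2
      obtain ⟨s, rfl⟩ : ∃ s, t = c b + s := ⟨t - c b, by omega⟩
      refine hE ⟨c a + s, by omega, (key s (by omega) (by omega)).1 h2, by omega, by omega⟩
    · rw [hzl] at hbad
      obtain ⟨s, hs⟩ : ∃ s, t' = c b + s := ⟨t' - c b, by omega⟩
      refine hB ⟨c a + s, by omega, ?_, by omega, ?_, ?_⟩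
      · rw [hs] at ht3
        exact (key s (by omega) (by omega)).1 ht3
      · intro s' h1 h2
        by_contra hc
        push Not at hc
        obtain ⟨s'', hs''⟩ : ∃ s'', s' = c a + s'' := ⟨s' - c a, by omega⟩
        subst hs''
        refine hmin (c b + s'') (by omega) ⟨by omega, by omega, ?_⟩
        exact (key s'' (by omega) (by omega)).2 h2
      · have : c a + s + c b - c a - p0 = t' - p0 := by omega
        rw [this]
        exact hbad

theorem wall_eq {Wo : List α → Prop} {n W : ℕ} (h : WR Wo n W) {w : List α} {s s2 : ℕ}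
    (h1 : s ≤ w.length) (h2 : s2 ≤ w.length) (hs : Wo (w.take s)) (hs2 : Wo (w.take s2))
    (hd : s ≤ s2 + W) (hd2 : s2 ≤ s + W) : s = s2 := by
  rcases Nat.lt_trichotomy s s2 with hlt | heq | hlt
  · exfalso
    refine h.gap (w.take s2) (s2 - s) hs2 (by omega) (by omega) ?_
    have : (w.take s2).take ((w.take s2).length - (s2 - s)) = w.take s := by
      rw [List.length_take, List.take_take]
      congr 1
      omega
    rw [this]
    exact hs
  · exact heq
  · exfalso
    refine h.gap (w.take s) (s - s2) hs (by omega) (by omega) ?_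
    have : (w.take s).take ((w.take s).length - (s - s2)) = w.take s2 := by
      rw [List.length_take, List.take_take]
      congr 1
      omega
    rw [this]
    exact hs2

open Classical in
/-- **spoil count** -/
theorem spoil {Wo : List α → Prop} {n W : ℕ} (h : WR Wo n W) {z D p0 Lam K C0 La : ℕ}
    {BadT : ℕ → Prop} {c : ℕ → ℕ} (hc : ∀ a < K, c a ≤ Lam)
    (hres : ∀ i j k l, i < K → j < K → k < K → l < K → i ≠ j → k ≠ l → (i, j) ≠ (k, l) →
      c i + c l + 4 * D < c k + c j ∨ c k + c j + 4 * D < c i + c l)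
    (hthin : ∀ T, La ≤ T → ((Finset.range K ×ˢ Finset.range K).filter
      (fun ij : ℕ × ℕ => ij.1 ≠ ij.2 ∧ BadT (T + c ij.2 - c ij.1))).card ≤ C0)
    (hz : p0 + La + Lam + Lam ≤ z) (hW : 2 * Lam + 2 * D ≤ W) (w : List α) :
    ((Finset.range K ×ˢ Finset.range K).filter (fun ij : ℕ × ℕ => ij.1 ≠ ij.2 ∧
      (SE Wo z D c w ij.1 ij.2 ∨ SB Wo z p0 BadT c w ij.1 ij.2))).card ≤ 1 + (C0 + C0) := by
  set R := Finset.range K ×ˢ Finset.range K with hR
  have hmem : ∀ ij ∈ R, ij.1 < K ∧ ij.2 < K := by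
    intro ij hij
    rw [hR, Finset.mem_product, Finset.mem_range, Finset.mem_range] at hij
    exact hij
  have hsplit : R.filter (fun ij : ℕ × ℕ => ij.1 ≠ ij.2 ∧
      (SE Wo z D c w ij.1 ij.2 ∨ SB Wo z p0 BadT c w ij.1 ij.2)) ⊆
      R.filter (fun ij : ℕ × ℕ => ij.1 ≠ ij.2 ∧ SE Wo z D c w ij.1 ij.2) ∪
      R.filter (fun ij : ℕ × ℕ => ij.1 ≠ ij.2 ∧ SB Wo z p0 BadT c w ij.1 ij.2) := by
    intro ij hij
    rw [Finset.mem_filter] at hij
    rw [Finset.mem_union, Finset.mem_filter, Finset.mem_filter]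
    rcases hij.2.2 with h1 | h1
    · exact Or.inl ⟨hij.1, hij.2.1, h1⟩
    · exact Or.inr ⟨hij.1, hij.2.1, h1⟩
  refine (Finset.card_le_card hsplit).trans ((Finset.card_union_le _ _).trans
    (Nat.add_le_add ?_ ?_))
  · rw [Finset.card_le_one]
    rintro ⟨a, b⟩ h1 ⟨a2, b2⟩ h2
    rw [Finset.mem_filter] at h1 h2
    obtain ⟨hm1, hne1, s, hs1, hs2, hs3, hs4⟩ := h1
    obtain ⟨hm2, hne2, s', hs1', hs2', hs3', hs4'⟩ := h2
    simp only at hne1 hne2 hs3 hs4 hs3' hs4'
    obtain ⟨ha, hb⟩ := hmem _ hm1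
    obtain ⟨ha2, hb2⟩ := hmem _ hm2
    simp only at ha hb ha2 hb2
    have e1 := hc a ha
    have e2 := hc b hb
    have e3 := hc a2 ha2
    have e4 := hc b2 hb2
    have hss : s = s' := wall_eq h hs1 hs1' hs2 hs2' (by omega) (by omega)
    subst hss
    by_contra hne
    rcases hres a b a2 b2 ha hb ha2 hb2 hne1 hne2 hne with h3 | h3 <;> omega
  · by_cases hex : ∃ s, z ≤ s + Lam ∧ s ≤ w.length ∧ Wo (w.take s)
    · obtain ⟨f1, f2, f3⟩ := Nat.find_spec hex
      have fmin : ∀ t, z ≤ t + Lam → t ≤ w.length → Wo (w.take t) → Nat.find hex ≤ t :=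
        fun t h1 h2 h3 => Nat.find_min' hex ⟨h1, h2, h3⟩
      set s0 := Nat.find hex with hs0
      by_cases hex2 : ∃ s, s0 < s ∧ s ≤ w.length ∧ Wo (w.take s)
      · obtain ⟨g1, g2, g3⟩ := Nat.find_spec hex2
        have gmin : ∀ t, s0 < t → t ≤ w.length → Wo (w.take t) → Nat.find hex2 ≤ t :=
          fun t h1 h2 h3 => Nat.find_min' hex2 ⟨h1, h2, h3⟩
        set s1 := Nat.find hex2 with hs1
        have hsub : R.filter (fun ij : ℕ × ℕ => ij.1 ≠ ij.2 ∧ SB Wo z p0 BadT c w ij.1 ij.2) ⊆
            R.filter (fun ij : ℕ × ℕ => ij.1 ≠ ij.2 ∧ BadT ((s0 - p0) + c ij.2 - c ij.1)) ∪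
            R.filter (fun ij : ℕ × ℕ => ij.1 ≠ ij.2 ∧ BadT ((s1 - p0) + c ij.2 - c ij.1)) := by
          rintro ⟨a, b⟩ h1
          rw [Finset.mem_filter] at h1
          obtain ⟨hm, hne, s, k1, k2, k3, k4, k5⟩ := h1
          simp only at hne k3 k4 k5
          obtain ⟨ha, hb⟩ := hmem _ hm
          simp only at ha hb
          have e1 := hc a ha
          have e2 := hc b hb
          rw [Finset.mem_union, Finset.mem_filter, Finset.mem_filter]
          have h0 : s0 ≤ s := fmin s (by omega) k1 k2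
          rcases h0.eq_or_lt with h0 | h0
          · left
            refine ⟨hm, hne, ?_⟩
            simp only
            have : s0 - p0 + c b - c a = s + c b - c a - p0 := by omega
            rw [this]
            exact k5
          · right
            refine ⟨hm, hne, ?_⟩
            simp only
            have h2 : s1 ≤ s := gmin s h0 k1 k2
            have h3 : s1 = s := by
              by_contra hne'
              have h4 := k4 s1 (by omega) g3
              have h5 := wall_eq h f2 g2 f3 g3 (by omega) (by omega)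
              omega
            have : s1 - p0 + c b - c a = s + c b - c a - p0 := by omega
            rw [this]
            exact k5
        refine (Finset.card_le_card hsub).trans ((Finset.card_union_le _ _).trans
          (Nat.add_le_add (hthin _ (by omega)) (hthin _ (by omega))))
      · have hsub : R.filter (fun ij : ℕ × ℕ => ij.1 ≠ ij.2 ∧ SB Wo z p0 BadT c w ij.1 ij.2) ⊆
            R.filter (fun ij : ℕ × ℕ => ij.1 ≠ ij.2 ∧ BadT ((s0 - p0) + c ij.2 - c ij.1)) := by
          rintro ⟨a, b⟩ h1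
          rw [Finset.mem_filter] at h1
          obtain ⟨hm, hne, s, k1, k2, k3, k4, k5⟩ := h1
          simp only at hne k3 k4 k5
          obtain ⟨ha, hb⟩ := hmem _ hm
          simp only at ha hb
          have e1 := hc a ha
          have e2 := hc b hb
          rw [Finset.mem_filter]
          have h0 : s0 ≤ s := fmin s (by omega) k1 k2
          rcases h0.eq_or_lt with h0 | h0
          · refine ⟨hm, hne, ?_⟩
            simp only
            have : s0 - p0 + c b - c a = s + c b - c a - p0 := by omega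
            rw [this]
            exact k5
          · exact (hex2 ⟨s, h0, k1, k2⟩).elim
        exact (Finset.card_le_card hsub).trans ((hthin _ (by omega)).trans (Nat.le_add_left _ _))
    · have hsub : R.filter (fun ij : ℕ × ℕ => ij.1 ≠ ij.2 ∧ SB Wo z p0 BadT c w ij.1 ij.2) ⊆ ∅ := by
        rintro ⟨a, b⟩ h1
        exfalso
        rw [Finset.mem_filter] at h1
        obtain ⟨hm, hne, s, k1, k2, k3, k4, k5⟩ := h1
        simp only at hne k3 k4 k5
        obtain ⟨ha, hb⟩ := hmem _ hm
        simp only at ha hb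
        have e1 := hc a ha
        have e2 := hc b hb
        exact hex ⟨s, by omega, k1, k2⟩
      exact (Finset.card_le_card hsub).trans (by simp)

section scheme

variable {S : Type*} [Monoid S] {V : Type*} [AddCommGroup V]

/-- **completeness of scheme 2**, literal form of `Top5_110.top_sem` with `N2 = 1` -/
theorem C2 {Wo : List α → Prop} {n W : ℕ} (h : WR Wo n W) {φ : List α → S} {act : V → S → V}
    {lam2 rho2 : List α → Option V} {nu nu2 : List α → V} {D p0 K z : ℕ} {BadT : ℕ → Prop}
    {c : ℕ → ℕ} (hc : ∀ a < K, c a ≤ p0)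
    (hz : p0 + n + D ≤ z)
    (hex : ∀ (p q : List α) (v b : V), p.length + q.length = p0 → lam2 p = some v →
      rho2 q = some b → b = act v (φ (p ++ q)) + nu2 (p ++ q))
    (hav : ∀ u t : List α, p0 ≤ u.length → ∀ x, ∃ a < K,
      lam2 ((u.take p0).take (c a)) = some x ∧ (rho2 ((u.take p0).drop (c a))).isSome = true ∧
      ∀ b < K, b ≠ a → ¬ SE Wo z D c (u ++ t) a b ∧ ¬ SB Wo z p0 BadT c (u ++ t) a b) :
    ∀ u ∈ BB Wo z D p0 BadT, ∀ x, ∀ t ∈ (BB Wo z D p0 BadT) ^ 1, ∃ p q y,
      u ++ t = p ++ q ∧ p ∈ L2 lam2 K c x ∧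
      q ∈ Rsem (XX Wo z) (BB Wo z D p0 BadT) (TT φ act nu2 nu p0) 1 (L2 lam2 K c) y := by
  intro u hu x t ht
  rw [pow_one] at ht
  have hul := hu.1.1
  have htl := ht.1.1
  obtain ⟨a, ha, hl, hr, hsp⟩ := hav u t (by omega) x
  obtain ⟨b0, hb0⟩ := Option.isSome_iff_exists.1 hr
  have hca := hc a ha
  have htk : (u.take p0).take (c a) = u.take (c a) := by rw [List.take_take, min_eq_left hca]
  rw [htk] at hl
  set Xd := (u.take p0).drop (c a) with hXd
  have hXdl : Xd.length = p0 - c a := by rw [hXd, List.length_drop, List.length_take]; omega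
  have hQ1 : u.drop (c a) = Xd ++ u.drop p0 := by
    have h1 : u.drop p0 = (u.drop (c a)).drop (p0 - c a) := by
      rw [List.drop_drop]; congr 1; omega
    rw [h1, hXd, List.drop_take, List.take_append_drop]
  refine ⟨u.take (c a), u.drop (c a) ++ t, TT φ act nu2 nu p0 t
    (act b0 (φ (u.drop p0)) + nu (u.drop p0)), ?_, ?_, ?_⟩
  · rw [← List.append_assoc, List.take_append_drop]
  · exact ⟨a, ha, by rw [List.length_take]; omega, hl⟩
  · rintro x2 P2 ⟨b, hb, hP2, hlP2⟩
    by_cases hab : b = a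
    · left
      subst hab
      rw [← List.append_assoc]
      have hu' : u.take (c b) ++ u.drop (c b) ∈ BB Wo z D p0 BadT := by
        rw [List.take_append_drop]; exact hu
      refine exactly_two ?_ ht ?_
      · refine BB_same h hu' ?_ ?_
        · rw [List.length_take]; omega
        · rw [List.length_take, hP2]; omega
      · congr 1
        rw [hQ1, ← List.append_assoc, TT_append φ act nu2 nu (by
          rw [List.length_append, hP2, hXdl]; omega)]
        rw [← hex P2 Xd x2 b0 (by rw [hP2, hXdl]; omega) hlP2 hb0]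
    · right
      have hcb := hc b hb
      have e : u.drop (c a) ++ t = (u ++ t).drop (c a) := by
        rw [List.drop_append_of_le_length (by omega)]
      rw [e]
      obtain ⟨n1, n2⟩ := hsp b hb hab
      refine off_of_not h ?_ ?_ (by omega) hP2 n1 n2
      · exact (h.loc _ _ (h.len _ ht.1.2.1)).2 ht.1.2.1
      · rw [List.length_append]; omega

end scheme

end Crest.Agent.R320.AsmD_886
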