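import Mathlib

/-!
# Row 320: explicit noise for the exact gadget (no random function, no local lemma)

`K` a finite field.  On `W = Q → Kˣ → K` there is a colouring `ψ : W → Q` such that through every
point `x` and for every colour `p` there is a direction `r` for which the whole punctured line
`{x + δ • r : δ ≠ 0}` has the colour `p`.  With `Q = V × V` this gives the noise function
`F : S → W → V` of the exact gadget for every finite monoid `S` and an arbitrary action.
-/

set_option autoImplicit false

namespace Crest.Agent.R320.Noise513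

variable {K : Type*} [Field K]

/-- A vector is hot if it has a zero coordinate. -/
def Hot (y : Kˣ → K) : Prop := ∃ j, y j = 0

theorem exists_cold (x : Kˣ → K) : ∃ r : Kˣ → K, ∀ δ : K, δ ≠ 0 → ¬ Hot (x + δ • r) := by
  classical
  refine ⟨fun j => if x j = 0 then 1 else 0, ?_⟩
  rintro δ hδ ⟨j, hj⟩
  by_cases h : x j = 0
  · simp [h, hδ] at hj
  · simp [h] at hj

theorem exists_hot (x : Kˣ → K) : ∃ r : Kˣ → K, ∀ δ : K, δ ≠ 0 → Hot (x + δ • r) := by
  classical
  by_cases h : ∃ j, x j = 0
  · obtain ⟨j, hj⟩ := h
    exact ⟨0, fun δ _ => ⟨j, by simp [hj]⟩⟩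
  · refine ⟨fun j => - (x j) * (j⁻¹ : Kˣ), fun δ hδ => ⟨Units.mk0 δ hδ, ?_⟩⟩
    have : δ * δ⁻¹ = 1 := mul_inv_cancel₀ hδ
    simp only [Pi.add_apply, Pi.smul_apply, smul_eq_mul, Units.val_inv_eq_inv_val, Units.val_mk0]
    linear_combination (- x (Units.mk0 δ hδ)) * this

/-- The punctured line colouring. -/
theorem exists_colouring (K : Type*) [Field K] (Q : Type*) [Nonempty Q] :
    ∃ ψ : (Q → Kˣ → K) → Q, ∀ (x : Q → Kˣ → K) (p : Q), ∃ r : Q → Kˣ → K,
      ∀ δ : K, δ ≠ 0 → ψ (x + δ • r) = p := by
  classical
  refine ⟨fun y => if h : ∃ p, Hot (y p) ∧ ∀ p', Hot (y p') → p' = p then h.choose else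
    Classical.arbitrary Q, ?_⟩
  intro x p
  choose c hc using fun q => exists_cold (x q)
  choose d hd using fun q => exists_hot (x q)
  refine ⟨fun q => if q = p then d q else c q, fun δ hδ => ?_⟩
  have h1 : Hot ((x + δ • (fun q => if q = p then d q else c q)) p) := by
    have := hd p δ hδ
    simpa using this
  have h2 : ∀ p', Hot ((x + δ • (fun q => if q = p then d q else c q)) p') → p' = p := by
    intro p' hp'
    by_contra hne
    have := hc p' δ hδ
    apply this
    simpa [hne] using hp'
  have hex : ∃ p₀, Hot ((x + δ • (fun q => if q = p then d q else c q)) p₀) ∧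
      ∀ p', Hot ((x + δ • (fun q => if q = p then d q else c q)) p') → p' = p₀ := ⟨p, h1, h2⟩
  simp only
  rw [dif_pos hex]
  exact h2 _ hex.choose_spec.1

/-- **Explicit noise.**  For every finite monoid `S`, every finite additive commutative group `V`
and an arbitrary map `act : V → S → V` there are finitely many levels `i`, weights `e i : S → W` in
a finite additive commutative group and a noise `F : S → W → V` such that for every total `(s, w)`
and every token `v` some level `i` is good: changing the (unread) letter of level `i` does not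
change `F + act v`. -/
theorem explicit_noise (S V : Type) [Monoid S] [Finite S] [AddCommGroup V] [Finite V]
    (act : V → S → V) :
    ∃ (W : Type) (_ : AddCommGroup W) (_ : Fintype W) (m : ℕ) (e : Fin m → S → W)
      (F : S → W → V), ∀ (s : S) (w : W) (v : V), ∃ i : Fin m, ∀ g x h : S, g * x * h = s →
        ∀ z : S, F (g * z * h) (w - e i x + e i z) + act v (g * z * h) = F s w + act v s := by
  classical
  have := Fintype.ofFinite S
  have := Fintype.ofFinite V
  obtain ⟨q, hq1, hq⟩ := Nat.exists_infinite_primes (Fintype.card S)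
  have : Fact q.Prime := ⟨hq⟩
  have : NeZero q := ⟨hq.ne_zero⟩
  -- an injective code
  let c : S → ZMod q := fun z => ((Fintype.equivFin S z : ℕ) : ZMod q)
  have hc : Function.Injective c := by
    intro a b hab
    have h1 : ((Fintype.equivFin S a : ℕ) : ZMod q) = ((Fintype.equivFin S b : ℕ) : ZMod q) := hab
    have ha : (Fintype.equivFin S a : ℕ) < q := lt_of_lt_of_le (Fintype.equivFin S a).2 hq1
    have hb : (Fintype.equivFin S b : ℕ) < q := lt_of_lt_of_le (Fintype.equivFin S b).2 hq1
    have h2 := (ZMod.natCast_eq_natCast_iff' _ _ _).1 h1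
    rw [Nat.mod_eq_of_lt ha, Nat.mod_eq_of_lt hb] at h2
    exact (Fintype.equivFin S).injective (Fin.ext h2)
  obtain ⟨ψ, hψ⟩ := exists_colouring (ZMod q) (V × V)
  let W : Type := (V × V) → (ZMod q)ˣ → ZMod q
  let eq : W ≃ Fin (Fintype.card W) := Fintype.equivFin W
  refine ⟨W, inferInstance, inferInstance, Fintype.card W, fun i z => c z • (eq.symm i),
    fun s w => (ψ w).1 - act (ψ w).2 s, ?_⟩
  intro s w v
  obtain ⟨r, hr⟩ := hψ w (((ψ w).1 - act (ψ w).2 s) + act v s, v)
  refine ⟨eq r, ?_⟩
  intro g x h hs z
  by_cases hzx : z = x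
  · subst hzx
    simp [hs]
  · have hδ : c z - c x ≠ 0 := sub_ne_zero.2 (fun h => hzx (hc h))
    have hw : w - c x • (eq.symm (eq r)) + c z • (eq.symm (eq r)) = w + (c z - c x) • r := by
      rw [Equiv.symm_apply_apply, sub_smul]; abel
    have := hr _ hδ
    simp only [hw, this]
    abel

end Crest.Agent.R320.Noise513
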