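import Crest.Agent.R320.Names_570
import Crest.Agent.R320.Noise_513

/-!
# Row 320: the gadget without small walls (helper693's nested grids), black box on words

Scheme 1 of helper132's chain with the hole ends on grids anchored at the right end of the zone:
`β j T = G j + T % G j`, `G j = Γ ^ (j + 1)`.  Sound for every word and every length, complete
for every content off a thin set of lengths.  Uses `Names_570.exists_names` and
`Noise513.explicit_noise`.
-/

set_option autoImplicit false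

namespace Crest.Agent.R320.GridUG_875

open Finset

section slices
variable {α : Type*}

/-- the factor `u[a, b)` -/
def sl (u : List α) (a b : ℕ) : List α := (u.take b).drop a

theorem sl_left {p q : List α} {a b : ℕ} (h : b ≤ p.length) : sl (p ++ q) a b = sl p a b := by
  unfold sl
  rw [List.take_append_of_le_length h]

theorem sl_right {p q : List α} {a b : ℕ} :
    sl (p ++ q) (p.length + a) (p.length + b) = sl q a b := by
  unfold sl
  rw [List.take_append, List.take_of_length_le (by omega), Nat.add_sub_cancel_left,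
    List.drop_append, List.drop_eq_nil_of_le (by omega), List.nil_append, Nat.add_sub_cancel_left]

theorem phi_split {S : Type*} [Monoid S] {φ : List α → S} (hφ : ∀ u v, φ (u ++ v) = φ u * φ v)
    (u : List α) {a b : ℕ} (h : a ≤ b) : φ u = φ (u.take a) * φ (sl u a b) * φ (u.drop b) := by
  conv_lhs => rw [← List.take_append_drop b u, hφ, ← List.take_append_drop a (u.take b), hφ,
    List.take_take, min_eq_left h]
  rfl

end slices

theorem arith1 {o o' g d : ℕ} (h : g ∣ d) (hd : d ∣ o') : (o + o') % g = o % g := by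
  obtain ⟨k, rfl⟩ := h.trans hd
  exact Nat.add_mul_mod_self_left o g k

theorem arith2 {o o' Gi Gj M : ℕ} (h1 : 2 * Gi ≤ o) (h2 : o < (M + 2) * Gi) (h3 : 2 * Gi ≤ Gj)
    (hf : (o' + 2 * Gi) / Gj = (o' + (M + 2) * Gi) / Gj) :
    Gj + (o + o') % Gj = o + (Gj + (o' + 2 * Gi) % Gj - 2 * Gi) := by
  have a1 : (o' + 2 * Gi) / Gj ≤ (o + o') / Gj := Nat.div_le_div_right (by omega)
  have a2 : (o + o') / Gj ≤ (o' + (M + 2) * Gi) / Gj := Nat.div_le_div_right (by omega)
  have a3 : (o + o') / Gj = (o' + 2 * Gi) / Gj := by omega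
  have b1 := Nat.div_add_mod (o + o') Gj
  have b2 := Nat.div_add_mod (o' + 2 * Gi) Gj
  rw [a3] at b1
  generalize Gj * ((o' + 2 * Gi) / Gj) = x at b1 b2
  omega

theorem per_eq {A : Type*} {f : ℕ → A} {M : ℕ} (hf : ∀ t, f (t + M) = f t) {a b : ℕ}
    (h : a ≡ b [MOD M]) : f a = f b := by
  have hp : Function.Periodic f M := hf
  rw [← hp.map_mod_nat a, ← hp.map_mod_nat b, h]

/-- contexts -/
structure Ctx (m : ℕ) (S V W : Type) where
  i : Fin m
  g : S
  wl : W
  h : S
  wr : W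
  v : V

instance {m : ℕ} {S V W : Type} [Finite S] [Finite V] [Finite W] : Finite (Ctx m S V W) :=
  Finite.of_injective (fun c : Ctx m S V W => (c.i, c.g, c.wl, c.h, c.wr, c.v)) (by
    rintro ⟨a1, a2, a3, a4, a5, a6⟩ ⟨b1, b2, b3, b4, b5, b6⟩ h
    simp only [Prod.mk.injEq] at h
    obtain ⟨rfl, rfl, rfl, rfl, rfl, rfl⟩ := h
    rfl)

/-- all data of the gadget -/
structure Dat (S V W : Type) where
  m : ℕ
  M : ℕ
  Gam : ℕ
  e : Fin m → S → W
  F : S → W → V
  act : V → S → V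
  nmL : ℕ → Option (Ctx m S V W)
  nmR : ℕ → Option (Ctx m S V W)

namespace Dat

variable {S V W : Type} [Monoid S] [AddCommGroup V] [AddCommGroup W] (D : Dat S V W)

def G (j : ℕ) : ℕ := D.Gam ^ (j + 1)
def bt (T j : ℕ) : ℕ := D.G j + T % D.G j
def ps (i o' j : ℕ) : ℕ := D.G j + (o' + 2 * D.G i) % D.G j - 2 * D.G i

def bb (c : Ctx D.m S V W) : V :=
  D.F (c.g * 1 * c.h) (c.wl + D.e c.i 1 + c.wr) + D.act c.v (c.g * 1 * c.h)

def good (c : Ctx D.m S V W) : Prop :=
  ∀ z, D.F (c.g * z * c.h) (c.wl + D.e c.i z + c.wr) + D.act c.v (c.g * z * c.h) = D.bb c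

variable {α : Type*} (φ : List α → S)

/-- weight left of the hole -/
def wL (u : List α) (T : ℕ) (i : Fin D.m) : W :=
  ∑ j ∈ univ.filter (fun j : Fin D.m => j < i), D.e j (φ (sl u (D.bt T j) (D.bt T (j + 1))))

/-- weight right of the hole -/
def wR (u : List α) (T : ℕ) (i : Fin D.m) : W :=
  ∑ j ∈ univ.filter (fun j : Fin D.m => i < j), D.e j (φ (sl u (D.bt T j) (D.bt T (j + 1))))

def ww (u : List α) (T : ℕ) : W := ∑ j : Fin D.m, D.e j (φ (sl u (D.bt T j) (D.bt T (j + 1))))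

theorem ww_eq (u : List α) (T : ℕ) (i : Fin D.m) :
    D.ww φ u T = D.wL φ u T i + D.e i (φ (sl u (D.bt T i) (D.bt T (i + 1)))) + D.wR φ u T i := by
  classical
  unfold ww wL wR
  have h1 := Finset.sum_filter_add_sum_filter_not univ (fun j : Fin D.m => j < i)
    (fun j => D.e j (φ (sl u (D.bt T j) (D.bt T (j + 1)))))
  rw [← h1, add_assoc]
  congr 1
  have h2 : univ.filter (fun j : Fin D.m => ¬ j < i) =
      insert i (univ.filter (fun j : Fin D.m => i < j)) := by
    ext j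
    simp only [mem_filter, mem_univ, true_and, mem_insert, not_lt]
    constructor
    · intro h; exact (eq_or_lt_of_le h).imp Eq.symm id
    · rintro (rfl | h)
      · exact le_rfl
      · exact h.le
  rw [h2, Finset.sum_insert (by simp)]

def lamP (p : List α) (c : Ctx D.m S V W) : Prop :=
  D.nmL p.length = some c ∧ D.good c ∧ 2 * D.G c.i ≤ p.length ∧ p.length < (D.M + 2) * D.G c.i ∧
    φ (p.take (D.bt p.length c.i)) = c.g ∧ D.wL φ p p.length c.i = c.wl

def rhoP (q : List α) (c : Ctx D.m S V W) : Prop :=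
  D.nmR q.length = some c ∧ D.good c ∧ 2 * D.G D.m ≤ q.length ∧ D.G c.i ∣ q.length ∧
    (∀ j, (c.i : ℕ) < j → j ≤ D.m →
      (q.length + 2 * D.G c.i) / D.G j = (q.length + (D.M + 2) * D.G c.i) / D.G j) ∧
    φ (q.drop (D.ps c.i q.length (c.i + 1))) = c.h ∧
    ∑ j ∈ univ.filter (fun j : Fin D.m => c.i < j),
      D.e j (φ (sl q (D.ps c.i q.length j) (D.ps c.i q.length (j + 1)))) = c.wr

variable {D φ}

theorem G_pos (hG : 2 ≤ D.Gam) (j : ℕ) : 0 < D.G j := Nat.pow_pos (by omega)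

theorem G_dvd {i j : ℕ} (h : i ≤ j) : D.G i ∣ D.G j := pow_dvd_pow _ (by omega)

theorem G_lt (hG : D.M + 2 ≤ D.Gam) {i j : ℕ} (h : i < j) : (D.M + 2) * D.G i ≤ D.G j := by
  obtain ⟨k, rfl⟩ := Nat.exists_eq_add_of_lt h
  have h1 : D.G (i + k + 1) = D.Gam * (D.Gam ^ k * D.G i) := by
    unfold G; ring
  rw [h1]
  refine Nat.mul_le_mul hG ?_
  exact Nat.le_mul_of_pos_left _ (Nat.pow_pos (by omega))

theorem G_two (hG : D.M + 2 ≤ D.Gam) {i j : ℕ} (h : i < j) : 2 * D.G i ≤ D.G j :=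
  (Nat.mul_le_mul_right _ (by omega)).trans (G_lt hG h)

theorem bt_lt (hG : D.M + 2 ≤ D.Gam) (T j : ℕ) : D.bt T j < 2 * D.G j := by
  have h := Nat.mod_lt T (G_pos (D := D) (by omega) j)
  unfold bt; omega

theorem bt_mono (hG : D.M + 2 ≤ D.Gam) (T : ℕ) {i j : ℕ} (h : i ≤ j) : D.bt T i ≤ D.bt T j := by
  rcases eq_or_lt_of_le h with rfl | h
  · exact le_rfl
  · have h1 := bt_lt hG T i
    have h2 := G_two hG h
    have h3 : D.G j ≤ D.bt T j := Nat.le_add_right _ _
    omega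

/-- the junction: positions of the blocks -/
theorem bt_left (hG : D.M + 2 ≤ D.Gam) {o o' i j : ℕ} (hj : j ≤ i) (hd : D.G i ∣ o') :
    D.bt (o + o') j = D.bt o j := by
  unfold bt
  rw [arith1 (G_dvd hj) hd]

theorem bt_right (hG : D.M + 2 ≤ D.Gam) {o o' i j : ℕ} (hj : i < j)
    (h1 : 2 * D.G i ≤ o) (h2 : o < (D.M + 2) * D.G i)
    (hf : (o' + 2 * D.G i) / D.G j = (o' + (D.M + 2) * D.G i) / D.G j) :
    D.bt (o + o') j = o + D.ps i o' j :=
  arith2 h1 h2 (G_two hG hj) hf

/-- a legal pair with the same context: the data of the whole word -/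
theorem pair_data (hG : D.M + 2 ≤ D.Gam) {p q : List α}
    {c : Ctx D.m S V W} (hp : D.lamP φ p c) (hq : D.rhoP φ q c) :
    φ ((p ++ q).take (D.bt (p ++ q).length c.i)) = c.g ∧
    D.wL φ (p ++ q) (p ++ q).length c.i = c.wl ∧
    φ ((p ++ q).drop (D.bt (p ++ q).length (c.i + 1))) = c.h ∧
    D.wR φ (p ++ q) (p ++ q).length c.i = c.wr := by
  obtain ⟨-, -, hp1, hp2, hp3, hp4⟩ := hp
  obtain ⟨-, -, hq1, hq2, hq3, hq4, hq5⟩ := hq
  rw [List.length_append]
  have hL : ∀ j, j ≤ (c.i : ℕ) → D.bt (p.length + q.length) j = D.bt p.length j :=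
    fun j hj => bt_left hG hj hq2
  have hR : ∀ j, (c.i : ℕ) < j → j ≤ D.m →
      D.bt (p.length + q.length) j = p.length + D.ps c.i q.length j :=
    fun j hj hjm => bt_right hG hj hp1 hp2 (hq3 j hj hjm)
  have hb : D.bt p.length c.i ≤ p.length := by
    have := bt_lt hG p.length c.i; omega
  have him : (c.i : ℕ) + 1 ≤ D.m := c.i.2
  refine ⟨?_, ?_, ?_, ?_⟩
  · rw [hL _ le_rfl, List.take_append_of_le_length hb, hp3]
  · rw [← hp4]
    unfold wL
    refine Finset.sum_congr rfl fun j hj => ?_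
    simp only [mem_filter, mem_univ, true_and] at hj
    have hj' : (j : ℕ) < c.i := hj
    rw [hL j (by omega), hL (j + 1) (by omega), sl_left]
    exact (bt_mono hG _ (by omega)).trans hb
  · rw [hR _ (Nat.lt_succ_self _) him, List.drop_append, List.drop_eq_nil_of_le (by omega),
      List.nil_append, Nat.add_sub_cancel_left, hq4]
  · rw [← hq5]
    unfold wR
    refine Finset.sum_congr rfl fun j hj => ?_
    simp only [mem_filter, mem_univ, true_and] at hj
    have hj' : (c.i : ℕ) < j := hj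
    have hjm : (j : ℕ) + 1 ≤ D.m := j.2
    rw [hR j hj' (by omega), hR (j + 1) (by omega) hjm, sl_right]

/-- exactness for one context -/
theorem pair_exact (hφ : ∀ u v, φ (u ++ v) = φ u * φ v) (hG : D.M + 2 ≤ D.Gam) {p q : List α}
    {c : Ctx D.m S V W} (hp : D.lamP φ p c) (hq : D.rhoP φ q c) :
    D.bb c = D.F (φ (p ++ q)) (D.ww φ (p ++ q) (p ++ q).length) + D.act c.v (φ (p ++ q)) := by
  obtain ⟨h1, h2, h3, h4⟩ := pair_data hG hp hq
  have hs := phi_split hφ (p ++ q)
    (bt_mono hG (p ++ q).length (Nat.le_succ (c.i : ℕ)))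
  rw [ww_eq D φ (p ++ q) (p ++ q).length c.i, h2, h4]
  rw [h1] at hs
  have h3' : φ ((p ++ q).drop (D.bt (p ++ q).length (Nat.succ (c.i : ℕ)))) = c.h := h3
  rw [h3'] at hs
  rw [hs]
  exact (hp.2.1 _).symm

/-- the two halves of a good cut are legal -/
theorem cut_legal (hG : D.M + 2 ≤ D.Gam) {u : List α} {c : Ctx D.m S V W} {o : ℕ}
    (hT : 4 * D.G D.m ≤ u.length) (hc : D.good c)
    (hg : φ (u.take (D.bt u.length c.i)) = c.g) (hwl : D.wL φ u u.length c.i = c.wl)
    (hh : φ (u.drop (D.bt u.length (c.i + 1))) = c.h) (hwr : D.wR φ u u.length c.i = c.wr)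
    (ho1 : 2 * D.G c.i ≤ o) (ho2 : o < (D.M + 2) * D.G c.i) (hoT : o ≡ u.length [MOD D.G c.i])
    (hL : D.nmL o = some c) (hR : D.nmR (u.length - o) = some c)
    (hf : ∀ j, (c.i : ℕ) < j → j ≤ D.m →
      (u.length - D.M * D.G c.i) / D.G j = (u.length + D.M * D.G c.i) / D.G j) :
    D.lamP φ (u.take o) c ∧ D.rhoP φ (u.drop o) c := by
  have him : (c.i : ℕ) < D.m := c.i.2
  have hGm := G_lt hG him
  have hol : o ≤ u.length := by omega
  have hlen : (u.take o).length = o := by rw [List.length_take]; omega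
  have hlen' : (u.drop o).length = u.length - o := List.length_drop ..
  have hbt : ∀ j, j ≤ (c.i : ℕ) → D.bt o j = D.bt u.length j := by
    intro j hj
    have h1 : o ≡ u.length [MOD D.G j] := hoT.of_dvd (G_dvd hj)
    unfold bt
    rw [show o % D.G j = u.length % D.G j from h1]
  have hb : D.bt u.length c.i ≤ o := by
    have := bt_lt hG u.length c.i; omega
  have hdv : D.G c.i ∣ u.length - o := (Nat.modEq_iff_dvd' hol).1 hoT
  have hfl : ∀ j, (c.i : ℕ) < j → j ≤ D.m →
      ((u.length - o) + 2 * D.G c.i) / D.G j = ((u.length - o) + (D.M + 2) * D.G c.i) / D.G j := by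
    intro j hj hjm
    have h0 := hf j hj hjm
    have hexp : (D.M + 2) * D.G c.i = D.M * D.G c.i + 2 * D.G c.i := by ring
    have a1 : (u.length - D.M * D.G c.i) / D.G j ≤ ((u.length - o) + 2 * D.G c.i) / D.G j :=
      Nat.div_le_div_right (by omega)
    have a2 : ((u.length - o) + 2 * D.G c.i) / D.G j ≤
        ((u.length - o) + (D.M + 2) * D.G c.i) / D.G j := Nat.div_le_div_right (by omega)
    have a3 : ((u.length - o) + (D.M + 2) * D.G c.i) / D.G j ≤
        (u.length + D.M * D.G c.i) / D.G j := Nat.div_le_div_right (by omega)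
    omega
  have hps : ∀ j, (c.i : ℕ) < j → j ≤ D.m →
      D.bt u.length j = o + D.ps c.i (u.length - o) j := by
    intro j hj hjm
    have h1 := bt_right hG hj ho1 ho2 (hfl j hj hjm)
    rwa [Nat.add_sub_cancel' hol] at h1
  constructor
  · refine ⟨by rw [hlen]; exact hL, hc, by rw [hlen]; exact ho1, by rw [hlen]; exact ho2, ?_, ?_⟩
    · rw [hlen, hbt _ le_rfl, List.take_take, min_eq_left hb, hg]
    · rw [hlen, ← hwl]
      unfold wL
      refine Finset.sum_congr rfl fun j hj => ?_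
      simp only [mem_filter, mem_univ, true_and] at hj
      have hj' : (j : ℕ) < c.i := hj
      rw [hbt j (by omega), hbt (j + 1) (by omega)]
      have h3 : D.bt u.length (j + 1) ≤ (u.take o).length := by
        rw [hlen]; exact (bt_mono hG _ (by omega)).trans hb
      conv_rhs => rw [← List.take_append_drop o u]
      rw [sl_left (q := u.drop o) (by
        rw [List.take_append_drop]; exact h3), List.take_append_drop]
  · refine ⟨by rw [hlen']; exact hR, hc, by rw [hlen']; omega, by rw [hlen']; exact hdv, ?_, ?_, ?_⟩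
    · rw [hlen']; exact hfl
    · rw [hlen', List.drop_drop, ← hps _ (Nat.lt_succ_self _) him, hh]
    · rw [hlen', ← hwr]
      unfold wR
      refine Finset.sum_congr rfl fun j hj => ?_
      simp only [mem_filter, mem_univ, true_and] at hj
      have hj' : (c.i : ℕ) < j := hj
      have hjm : (j : ℕ) + 1 ≤ D.m := j.2
      rw [hps j hj' (by omega), hps (j + 1) (by omega) hjm]
      have h4 := sl_right (p := u.take o) (q := u.drop o) (a := D.ps c.i (u.length - o) j)
        (b := D.ps c.i (u.length - o) (j + 1))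
      rw [hlen, List.take_append_drop] at h4
      rw [h4]

variable (D φ)

open Classical in
/-- the left label -/
noncomputable def lam (p : List α) : Option V :=
  if h : ∃ c, D.lamP φ p c then some h.choose.v else none

open Classical in
/-- the right label -/
noncomputable def rho (q : List α) : Option V :=
  if h : ∃ c, D.rhoP φ q c then some (D.bb h.choose) else none

open Classical in
/-- the noise -/
noncomputable def nu (u : List α) : V :=
  if h : ∃ x : V × V, ∃ p q, p ++ q = u ∧ D.lam φ p = some x.1 ∧ D.rho φ q = some x.2 then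
    h.choose.2 - D.act h.choose.1 (φ u) else 0

variable {D φ}

theorem lam_iff {p : List α} {v : V} :
    D.lam φ p = some v ↔ ∃ c, D.lamP φ p c ∧ c.v = v := by
  unfold lam
  constructor
  · intro h
    split_ifs at h with h'
    exact ⟨h'.choose, h'.choose_spec, Option.some.inj h⟩
  · rintro ⟨c, hc, rfl⟩
    have h' : ∃ c, D.lamP φ p c := ⟨c, hc⟩
    rw [dif_pos h']
    have h1 := h'.choose_spec.1
    rw [hc.1] at h1
    rw [← Option.some.inj h1]

theorem rho_iff {q : List α} {r : V} :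
    D.rho φ q = some r ↔ ∃ c, D.rhoP φ q c ∧ D.bb c = r := by
  unfold rho
  constructor
  · intro h
    split_ifs at h with h'
    exact ⟨h'.choose, h'.choose_spec, Option.some.inj h⟩
  · rintro ⟨c, hc, rfl⟩
    have h' : ∃ c, D.rhoP φ q c := ⟨c, hc⟩
    rw [dif_pos h']
    have h1 := h'.choose_spec.1
    rw [hc.1] at h1
    rw [← Option.some.inj h1]

section sound

variable (hφ : ∀ u v, φ (u ++ v) = φ u * φ v) (hG : D.M + 2 ≤ D.Gam) (Ms : Finset ℕ)
  (hN1 : ∀ t t' c c', (∀ k ∈ Ms, ¬ k ∣ t + t') → D.nmL t = some c → D.nmR t' = some c' → c = c')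
  (hN3 : ∀ t1 t1' t2 t2' c1 c1' c2 c2', t1 + t1' = t2 + t2' → (∃ k ∈ Ms, k ∣ t1 + t1') →
    D.nmL t1 = some c1 → D.nmR t1' = some c1' → D.nmL t2 = some c2 → D.nmR t2' = some c2' →
    (c1 = c2 ∧ c1' = c2') ∨ (c1 = c2' ∧ c1' = c2 ∧ c1.v = c1'.v ∧ D.bb c1 = D.bb c1'))

include hφ hG hN1 hN3

theorem unique {p q p' q' : List α} {v r v' r' : V} (he : p ++ q = p' ++ q')
    (h1 : D.lam φ p = some v) (h2 : D.rho φ q = some r) (h3 : D.lam φ p' = some v')
    (h4 : D.rho φ q' = some r') :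
    r - D.act v (φ (p ++ q)) = r' - D.act v' (φ (p ++ q)) := by
  obtain ⟨c1, hc1, rfl⟩ := lam_iff.1 h1
  obtain ⟨c2, hc2, rfl⟩ := rho_iff.1 h2
  obtain ⟨c3, hc3, rfl⟩ := lam_iff.1 h3
  obtain ⟨c4, hc4, rfl⟩ := rho_iff.1 h4
  have hl : p.length + q.length = p'.length + q'.length := by
    have := congrArg List.length he
    simpa using this
  by_cases hg : ∀ k ∈ Ms, ¬ k ∣ p.length + q.length
  · have e1 := hN1 _ _ _ _ hg hc1.1 hc2.1
    have e2 := hN1 _ _ _ _ (by rw [← hl]; exact hg) hc3.1 hc4.1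
    subst e1
    subst e2
    have a1 := pair_exact hφ hG hc1 hc2
    have a2 := pair_exact hφ hG hc3 hc4
    rw [← he] at a2
    rw [a1, a2]
    abel
  · push Not at hg
    rcases hN3 _ _ _ _ _ _ _ _ hl hg hc1.1 hc2.1 hc3.1 hc4.1 with ⟨rfl, rfl⟩ | ⟨rfl, rfl, e1, e2⟩
    · rfl
    · rw [e1, e2]

theorem sound {p q : List α} {v r : V} (h1 : D.lam φ p = some v) (h2 : D.rho φ q = some r) :
    r = D.act v (φ (p ++ q)) + D.nu φ (p ++ q) := by
  have h : ∃ x : V × V, ∃ p' q', p' ++ q' = p ++ q ∧ D.lam φ p' = some x.1 ∧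
      D.rho φ q' = some x.2 := ⟨(v, r), p, q, rfl, h1, h2⟩
  unfold nu
  rw [dif_pos h]
  obtain ⟨p', q', he, h3, h4⟩ := h.choose_spec
  have := unique hφ hG Ms hN1 hN3 he.symm h1 h2 h3 h4
  rw [← this]
  abel

end sound

theorem lam_len (hG : D.M + 2 ≤ D.Gam) {p : List α} {v : V} (h : D.lam φ p = some v) :
    p.length < D.G D.m := by
  obtain ⟨c, hc, -⟩ := lam_iff.1 h
  exact hc.2.2.2.1.trans_le (G_lt hG c.i.2)

theorem rho_len {q : List α} {r : V} (h : D.rho φ q = some r) : 2 * D.G D.m ≤ q.length := by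
  obtain ⟨c, hc, -⟩ := rho_iff.1 h
  exact hc.2.2.1

theorem exists_window (M k s : ℕ) (hM : 0 < M) :
    ∃ o, s ≤ o ∧ o < s + M ∧ o ≡ k [MOD M] := by
  refine ⟨s + (k + M * s - s) % M, Nat.le_add_right _ _,
    Nat.add_lt_add_left (Nat.mod_lt _ hM) _, ?_⟩
  have h1 : s ≤ M * s := Nat.le_mul_of_pos_left s hM
  have h2 : s + (k + M * s - s) % M ≡ s + (k + M * s - s) [MOD M] :=
    Nat.ModEq.add_left _ (Nat.mod_modEq _ _)
  have h3 : s + (k + M * s - s) = k + M * s := by omega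
  rw [h3] at h2
  exact h2.trans (by simp [Nat.ModEq])

section complete

variable (hG : D.M + 2 ≤ D.Gam) (hM : 0 < D.M) (hco : Nat.Coprime D.M D.Gam) (Ms : Finset ℕ)
  (hPL : ∀ t, D.nmL (t + D.M) = D.nmL t) (hPR : ∀ t, D.nmR (t + D.M) = D.nmR t)
  (hN2 : ∀ T c, (∀ k ∈ Ms, ¬ k ∣ T) → D.M ≤ T + 1 →
    ∃ t, t ≤ T ∧ D.nmL t = some c ∧ D.nmR (T - t) = some c)
  (hφ : ∀ u v, φ (u ++ v) = φ u * φ v)
  (hF : ∀ (s : S) (w : W) (v : V), ∃ i : Fin D.m, ∀ g x h : S, g * x * h = s → ∀ z : S,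
    D.F (g * z * h) (w - D.e i x + D.e i z) + D.act v (g * z * h) = D.F s w + D.act v s)

include hG hM hco hPL hPR hN2 hφ hF

theorem complete {u : List α} (hT : 4 * D.G D.m ≤ u.length) (hgood : ∀ k ∈ Ms, ¬ k ∣ u.length)
    (hf : ∀ i j, i < j → j ≤ D.m →
      (u.length - D.M * D.G i) / D.G j = (u.length + D.M * D.G i) / D.G j) (v : V) :
    ∃ p q, p ++ q = u ∧ D.lam φ p = some v ∧ (D.rho φ q).isSome := by
  obtain ⟨i, hi⟩ := hF (φ u) (D.ww φ u u.length) v
  set T := u.length with hTdef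
  have hs := phi_split hφ u (bt_mono (D := D) hG T (Nat.le_succ (i : ℕ)))
  have hi' := hi _ _ _ hs.symm
  let c : Ctx D.m S V W := ⟨i, φ (u.take (D.bt T i)), D.wL φ u T i,
    φ (u.drop (D.bt T (Nat.succ (i : ℕ)))), D.wR φ u T i, v⟩
  have hw : ∀ z, D.ww φ u T - D.e i (φ (sl u (D.bt T i) (D.bt T (Nat.succ (i : ℕ))))) + D.e i z =
      D.wL φ u T i + D.e i z + D.wR φ u T i := by
    intro z
    rw [ww_eq D φ u T i]
    abel_nf
  have hc : D.good c := by
    intro z
    have h1 := hi' z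
    have h2 := hi' 1
    rw [hw] at h1 h2
    exact h1.trans h2.symm
  have him : (i : ℕ) < D.m := i.2
  have hGi := G_pos (D := D) (by omega) i
  have hGm := G_lt hG him
  have hMG : D.M ≤ (D.M + 2) * D.G i :=
    (Nat.le_add_right _ _).trans (Nat.le_mul_of_pos_right _ hGi)
  obtain ⟨t, htT, htL, htR⟩ := hN2 T c hgood (by omega)
  have hcop : Nat.Coprime D.M (D.G i) := Nat.Coprime.pow_right _ hco
  obtain ⟨k, hk1, hk2⟩ := Nat.chineseRemainder hcop t T
  obtain ⟨o, ho1, ho2, ho3⟩ := exists_window (D.M * D.G i) k (2 * D.G i)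
    (Nat.mul_pos hM hGi)
  have hexp : (D.M + 2) * D.G i = D.M * D.G i + 2 * D.G i := by ring
  have hoM : o ≡ t [MOD D.M] := (ho3.of_dvd (Dvd.intro _ rfl)).trans hk1
  have hoG : o ≡ T [MOD D.G i] := (ho3.of_dvd (Dvd.intro_left _ rfl)).trans hk2
  have hoT : o ≤ T := by omega
  have hL : D.nmL o = some c := by rw [per_eq hPL hoM, htL]
  have hR : D.nmR (T - o) = some c := by
    have h1 : T - o ≡ T - t [MOD D.M] := by
      have h2 : (T - o) + o ≡ (T - t) + t [MOD D.M] := by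
        rw [Nat.sub_add_cancel hoT, Nat.sub_add_cancel htT]
      exact Nat.ModEq.add_right_cancel hoM h2
    rw [per_eq hPR h1, htR]
  obtain ⟨h1, h2⟩ := cut_legal (φ := φ) (c := c) hG hT hc rfl rfl rfl rfl ho1
    (by have : o < (D.M + 2) * D.G i := by omega
        exact this) hoG hL hR (fun j hj hjm => hf i j hj hjm)
  refine ⟨u.take o, u.drop o, List.take_append_drop _ _, lam_iff.2 ⟨c, h1, rfl⟩, ?_⟩
  rw [(rho_iff.2 ⟨c, h2, rfl⟩ : D.rho φ (u.drop o) = some (D.bb c))]
  rfl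

end complete

theorem div_congr {a a' d x y : ℕ} (hd : 0 < d) (h : a ≡ a' [MOD d])
    (he : (a + x) / d = (a + y) / d) : (a' + x) / d = (a' + y) / d := by
  have key : ∀ b z, (b + z) / d = b / d + (b % d + z) / d := by
    intro b z
    conv_lhs => rw [← Nat.div_add_mod b d, add_assoc, Nat.mul_add_div hd]
  have h' : a % d = a' % d := h
  rw [key, key a y] at he
  rw [key, key a' y, ← h']
  omega

theorem phi_drop (hφ : ∀ u v, φ (u ++ v) = φ u * φ v) {q q' : List α} {A a : ℕ} (ha : a ≤ A)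
    (h1 : A ≤ q.length) (h1' : A ≤ q'.length) (h2 : q.take A = q'.take A)
    (h3 : φ (q.drop A) = φ (q'.drop A)) : φ (q.drop a) = φ (q'.drop a) := by
  have key : ∀ r : List α, A ≤ r.length → φ (r.drop a) = φ ((r.take A).drop a) * φ (r.drop A) := by
    intro r hr
    rw [← hφ]
    congr 1
    conv_lhs => rw [← List.take_append_drop A r]
    rw [List.drop_append_of_le_length (by rw [List.length_take]; omega)]
  rw [key q h1, key q' h1', h2, h3]

theorem sl_congr {q q' : List α} {A a b : ℕ} (hb : b ≤ A) (h2 : q.take A = q'.take A) :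
    sl q a b = sl q' a b := by
  have key : ∀ r : List α, r.take b = (r.take A).take b := by
    intro r; rw [List.take_take, min_eq_left hb]
  unfold sl
  rw [key q, key q', h2]

theorem ps_le (hG : D.M + 2 ≤ D.Gam) (i o' : ℕ) {j : ℕ} (hj : j ≤ D.m) :
    D.ps i o' j ≤ 2 * D.G D.m := by
  have h1 := Nat.mod_lt (o' + 2 * D.G i) (G_pos (D := D) (by omega) j)
  have h2 : D.G j ≤ D.G D.m := Nat.le_of_dvd (G_pos (by omega) _) (G_dvd hj)
  unfold ps
  omega

theorem rhoP_congr (hG : D.M + 2 ≤ D.Gam) (hφ : ∀ u v, φ (u ++ v) = φ u * φ v)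
    (hPR : ∀ t, D.nmR (t + D.M) = D.nmR t) {q q' : List α}
    (h1 : 2 * D.G D.m ≤ q.length) (h1' : 2 * D.G D.m ≤ q'.length)
    (h2 : q.take (2 * D.G D.m) = q'.take (2 * D.G D.m))
    (h3 : φ (q.drop (2 * D.G D.m)) = φ (q'.drop (2 * D.G D.m)))
    (h4 : q.length ≡ q'.length [MOD D.M * D.G D.m]) {c : Ctx D.m S V W} (hc : D.rhoP φ q c) :
    D.rhoP φ q' c := by
  obtain ⟨c1, c2, c3, c4, c5, c6, c7⟩ := hc
  have hM : q.length ≡ q'.length [MOD D.M] := h4.of_dvd (Dvd.intro _ rfl)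
  have hGj : ∀ j, j ≤ D.m → q.length ≡ q'.length [MOD D.G j] := fun j hj =>
    h4.of_dvd ((G_dvd hj).trans (Dvd.intro_left _ rfl))
  have hps : ∀ j, j ≤ D.m → D.ps c.i q'.length j = D.ps c.i q.length j := by
    intro j hj
    have := (hGj j hj).add_right (2 * D.G c.i)
    unfold ps
    rw [show (q'.length + 2 * D.G c.i) % D.G j = (q.length + 2 * D.G c.i) % D.G j from this.symm]
  have him : (c.i : ℕ) < D.m := c.i.2
  refine ⟨by rw [← per_eq hPR hM]; exact c1, c2, h1', ?_, ?_, ?_, ?_⟩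
  · exact (Nat.ModEq.dvd_iff (hGj c.i (by omega)) (dvd_refl _)).1 c4
  · intro j hj hjm
    exact div_congr (G_pos (by omega) j) (hGj j hjm) (c5 j hj hjm)
  · rw [hps _ (by omega), ← c6]
    exact (phi_drop hφ (ps_le hG _ _ (by omega)) h1 h1' h2 h3).symm
  · rw [← c7]
    refine Finset.sum_congr rfl fun j hj => ?_
    have hjm : (j : ℕ) < D.m := j.2
    rw [hps j (by omega), hps (j + 1) (by omega),
      sl_congr (ps_le hG _ _ (by omega)) h2.symm]

theorem rho_congr (hG : D.M + 2 ≤ D.Gam) (hφ : ∀ u v, φ (u ++ v) = φ u * φ v)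
    (hPR : ∀ t, D.nmR (t + D.M) = D.nmR t) {q q' : List α}
    (h1 : 2 * D.G D.m ≤ q.length) (h1' : 2 * D.G D.m ≤ q'.length)
    (h2 : q.take (2 * D.G D.m) = q'.take (2 * D.G D.m))
    (h3 : φ (q.drop (2 * D.G D.m)) = φ (q'.drop (2 * D.G D.m)))
    (h4 : q.length ≡ q'.length [MOD D.M * D.G D.m]) : D.rho φ q = D.rho φ q' := by
  have key : ∀ r, D.rho φ q = some r ↔ D.rho φ q' = some r := by
    intro r
    rw [rho_iff, rho_iff]
    constructor
    · rintro ⟨c, hc, rfl⟩
      exact ⟨c, rhoP_congr hG hφ hPR h1 h1' h2 h3 h4 hc, rfl⟩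
    · rintro ⟨c, hc, rfl⟩
      exact ⟨c, rhoP_congr hG hφ hPR h1' h1 h2.symm h3.symm h4.symm hc, rfl⟩
  exact Option.ext key

theorem nu_congr (hG : D.M + 2 ≤ D.Gam) (hφ : ∀ u v, φ (u ++ v) = φ u * φ v)
    (hPR : ∀ t, D.nmR (t + D.M) = D.nmR t)
    (hs : ∀ p q v r, D.lam φ p = some v → D.rho φ q = some r →
      r = D.act v (φ (p ++ q)) + D.nu φ (p ++ q)) {u u' : List α}
    (h1 : 3 * D.G D.m ≤ u.length) (h1' : 3 * D.G D.m ≤ u'.length)
    (h2 : u.take (3 * D.G D.m) = u'.take (3 * D.G D.m))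
    (h3 : φ (u.drop (3 * D.G D.m)) = φ (u'.drop (3 * D.G D.m)))
    (h4 : u.length ≡ u'.length [MOD D.M * D.G D.m]) : D.nu φ u = D.nu φ u' := by
  have hφu : φ u = φ u' := by
    have := phi_drop (φ := φ) hφ (Nat.zero_le _) h1 h1' h2 h3
    simpa using this
  have transfer : ∀ w w' : List α, 3 * D.G D.m ≤ w.length → 3 * D.G D.m ≤ w'.length →
      w.take (3 * D.G D.m) = w'.take (3 * D.G D.m) →
      φ (w.drop (3 * D.G D.m)) = φ (w'.drop (3 * D.G D.m)) →
      w.length ≡ w'.length [MOD D.M * D.G D.m] →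
      ∀ x : V × V, (∃ p q, p ++ q = w ∧ D.lam φ p = some x.1 ∧ D.rho φ q = some x.2) →
        ∃ p q, p ++ q = w' ∧ D.lam φ p = some x.1 ∧ D.rho φ q = some x.2 := by
    rintro w w' k1 k1' k2 k3 k4 x ⟨p, q, rfl, hp, hq⟩
    have hlp := lam_len hG hp
    have htk : (p ++ q).take p.length = w'.take p.length := by
      have e1 : (p ++ q).take p.length = ((p ++ q).take (3 * D.G D.m)).take p.length := by
        rw [List.take_take, min_eq_left (by omega)]
      rw [e1, k2, List.take_take, min_eq_left (by omega)]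
    rw [List.take_left'  rfl] at htk
    refine ⟨p, w'.drop p.length, ?_, hp, ?_⟩
    · conv_lhs => rw [htk]
      rw [← htk, ← List.take_append_drop p.length w', ← htk]
      simp
    · rw [← hq]
      have hq' : q = (p ++ q).drop p.length := by simp
      have hlw : (w'.drop p.length).length = w'.length - p.length := List.length_drop ..
      have hlq : q.length = (p ++ q).length - p.length := by simp
      have hd1 : q.drop (2 * D.G D.m) = (p ++ q).drop (p.length + 2 * D.G D.m) := by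
        rw [← List.drop_drop]; simp
      have hd2 : (w'.drop p.length).drop (2 * D.G D.m) = w'.drop (p.length + 2 * D.G D.m) := by
        rw [List.drop_drop]
      refine (rho_congr hG hφ hPR ?_ ?_ ?_ ?_ ?_).symm
      · omega
      · omega
      · have e1 : ∀ r : List α, (r.drop p.length).take (2 * D.G D.m) =
            ((r.take (3 * D.G D.m)).drop p.length).take (2 * D.G D.m) := by
          intro r
          rw [List.drop_take, List.take_take, min_eq_left (by omega)]
        conv_lhs => rw [hq']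
        rw [e1, k2, ← e1]
      · rw [hd1, hd2]
        exact phi_drop hφ (by omega) k1 k1' k2 k3
      · have : (q.length + p.length) ≡ ((w'.drop p.length).length + p.length)
            [MOD D.M * D.G D.m] := by
          rw [hlw, Nat.sub_add_cancel (by omega)]
          rw [List.length_append] at k4
          rwa [add_comm]
        exact Nat.ModEq.add_right_cancel' _ this
  by_cases h : ∃ x : V × V, ∃ p q, p ++ q = u ∧ D.lam φ p = some x.1 ∧ D.rho φ q = some x.2
  · obtain ⟨x, p, q, e, hp, hq⟩ := h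
    obtain ⟨p', q', e', hp', hq'⟩ := transfer u u' h1 h1' h2 h3 h4 x ⟨p, q, e, hp, hq⟩
    have a1 := hs _ _ _ _ hp hq
    have a2 := hs _ _ _ _ hp' hq'
    rw [e] at a1
    rw [e', ← hφu] at a2
    rw [a1] at a2
    exact add_left_cancel a2
  · have h' : ¬ ∃ x : V × V, ∃ p q, p ++ q = u' ∧ D.lam φ p = some x.1 ∧
        D.rho φ q = some x.2 := by
      rintro ⟨x, hx⟩
      exact h ⟨x, transfer u' u h1' h1 h2.symm h3.symm h4.symm x hx⟩
    unfold nu
    rw [dif_neg h, dif_neg h']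

end Dat

/-- **The grid gadget** (scheme 1 without small walls): sound for every word, complete off a thin
set of lengths; the right label and the noise read a bounded prefix, the value of the rest and the
length modulo `M * G`. -/
theorem gadget (S V : Type) [Monoid S] [Finite S] [AddCommGroup V] [Finite V]
    (act : V → S → V) :
    ∃ m r : ℕ, ∀ Bd : ℕ, ∃ (Ms : Finset ℕ), Ms.card ≤ r ∧ (∀ k ∈ Ms, Bd < k ∧ k.Prime) ∧
      ∀ M : ℕ, M = ∏ k ∈ Ms, k → ∀ Gam : ℕ, M + 2 ≤ Gam → Nat.Coprime M Gam →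
      ∀ {α : Type*} (φ : List α → S), (∀ u v, φ (u ++ v) = φ u * φ v) →
      ∃ (lam rho : List α → Option V) (nu : List α → V),
        (∀ p v, lam p = some v → p.length < Gam ^ (m + 1)) ∧
        (∀ q r, rho q = some r → 2 * Gam ^ (m + 1) ≤ q.length) ∧
        (∀ p q v r, lam p = some v → rho q = some r → r = act v (φ (p ++ q)) + nu (p ++ q)) ∧
        (∀ u, 4 * Gam ^ (m + 1) ≤ u.length → (∀ k ∈ Ms, ¬ k ∣ u.length) →
          (∀ i j, i < j → j ≤ m → (u.length - M * Gam ^ (i + 1)) / Gam ^ (j + 1) =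
            (u.length + M * Gam ^ (i + 1)) / Gam ^ (j + 1)) →
          ∀ v, ∃ p q, p ++ q = u ∧ lam p = some v ∧ (rho q).isSome) ∧
        (∀ q q', 3 * Gam ^ (m + 1) ≤ q.length → 3 * Gam ^ (m + 1) ≤ q'.length →
          q.take (3 * Gam ^ (m + 1)) = q'.take (3 * Gam ^ (m + 1)) →
          φ (q.drop (3 * Gam ^ (m + 1))) = φ (q'.drop (3 * Gam ^ (m + 1))) →
          q.length ≡ q'.length [MOD M * Gam ^ (m + 1)] → rho q = rho q' ∧ nu q = nu q') := by
  obtain ⟨W, _, _, m, e, F, hF⟩ := Noise513.explicit_noise S V act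
  obtain ⟨r, hr⟩ := Names_570.exists_names (N := Ctx m S V W) (C := V × V)
    (fun c => (c.v, F (c.g * 1 * c.h) (c.wl + e c.i 1 + c.wr) + act c.v (c.g * 1 * c.h)))
  refine ⟨m, r, fun Bd => ?_⟩
  obtain ⟨Ms, nmL, nmR, hcard, hprime, hPL, hPR, hN1, hN2, hN3⟩ := hr Bd
  refine ⟨Ms, hcard, fun k hk => ⟨(hprime k hk).2, (hprime k hk).1⟩, ?_⟩
  rintro M rfl Gam hG hco α φ hφ
  let D : Dat S V W := ⟨m, ∏ k ∈ Ms, k, Gam, e, F, act, nmL, nmR⟩
  have hM : 0 < D.M := Finset.prod_pos fun k hk => (hprime k hk).1.pos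
  have hN3' : ∀ t1 t1' t2 t2' c1 c1' c2 c2', t1 + t1' = t2 + t2' → (∃ k ∈ Ms, k ∣ t1 + t1') →
      D.nmL t1 = some c1 → D.nmR t1' = some c1' → D.nmL t2 = some c2 → D.nmR t2' = some c2' →
      (c1 = c2 ∧ c1' = c2') ∨ (c1 = c2' ∧ c1' = c2 ∧ c1.v = c1'.v ∧ D.bb c1 = D.bb c1') := by
    intro t1 t1' t2 t2' c1 c1' c2 c2' h1 h2 h3 h4 h5 h6
    rcases hN3 t1 t1' t2 t2' c1 c1' c2 c2' h1 h2 h3 h4 h5 h6 with h | ⟨ha, hb, hc⟩
    · exact Or.inl h
    · exact Or.inr ⟨ha, hb, congrArg Prod.fst hc, congrArg Prod.snd hc⟩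
  have hN2' : ∀ T c, (∀ k ∈ Ms, ¬ k ∣ T) → D.M ≤ T + 1 →
      ∃ t, t ≤ T ∧ D.nmL t = some c ∧ D.nmR (T - t) = some c := by
    intro T c hT hMT
    obtain ⟨t, -, -, h1, h2, h3⟩ := hN2 T c 0 hT (by rw [zero_add]; exact hMT)
    exact ⟨t, h1, h2, h3⟩
  have hs : ∀ p q v r, D.lam φ p = some v → D.rho φ q = some r →
      r = D.act v (φ (p ++ q)) + D.nu φ (p ++ q) :=
    fun p q v r h1 h2 => Dat.sound hφ hG Ms hN1 hN3' h1 h2
  have hGm : 0 < D.G D.m := Dat.G_pos (by have : D.M + 2 ≤ D.Gam := hG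
                                          omega) _
  refine ⟨D.lam φ, D.rho φ, D.nu φ, fun p v h => Dat.lam_len hG h, fun q r h => Dat.rho_len h,
    hs, ?_, ?_⟩
  · intro u h1 h2 h3 v
    exact Dat.complete hG hM hco Ms hPL hPR hN2' hφ hF h1 h2 h3 v
  · intro q q' h1 h1' h2 h3 h4
    have h1a : 3 * D.G D.m ≤ q.length := h1
    have h1b : 3 * D.G D.m ≤ q'.length := h1'
    refine ⟨?_, Dat.nu_congr hG hφ hPR hs h1 h1' h2 h3 h4⟩
    refine Dat.rho_congr hG hφ hPR (by omega) (by omega) ?_ ?_ h4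
    · have e1 : ∀ r : List α, r.take (2 * D.G D.m) = (r.take (3 * D.G D.m)).take (2 * D.G D.m) := by
        intro r
        rw [List.take_take, min_eq_left (by omega)]
      rw [e1, e1 q']
      exact congrArg _ h2
    · exact Dat.phi_drop (A := 3 * D.G D.m) hφ (by omega) h1 h1' h2 h3

end Crest.Agent.R320.GridUG_875
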