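import Crest.Agent.R320.Reg_143

/-!
Row 320 (helper10): a language whose membership depends only on `w.take A`, the value of
`w.drop A` in a finite monoid and the length modulo `P` is regular (adapter for the invariance
clauses of the grid gadgets).
-/

set_option autoImplicit false

namespace Crest.Agent.R320.RegDep_10

open Crest.R320.Reg_143

variable {α : Type*} {S : Type*} [Monoid S]

/-- the fold which reads `(w.take A, value of w.drop A, |w| mod P)` -/
noncomputable def step (f : α → S) (A P : ℕ) (q : {l : List α // l.length ≤ A} × S × ZMod P)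
    (b : α) : {l : List α // l.length ≤ A} × S × ZMod P :=
  if h : q.1.1.length < A then (⟨q.1.1 ++ [b], by simpa using h⟩, q.2.1, q.2.2 + 1)
  else (q.1, q.2.1 * f b, q.2.2 + 1)

theorem fold_eq (f : α → S) (A P : ℕ) : ∀ (w : List α)
    (q : {l : List α // l.length ≤ A} × S × ZMod P), (q.1.1.length < A → q.2.1 = 1) →
    (w.foldl (step f A P) q).1.1 = (q.1.1 ++ w).take A ∧
    (w.foldl (step f A P) q).2.1 = q.2.1 * ((w.drop (A - q.1.1.length)).map f).prod ∧
    (w.foldl (step f A P) q).2.2 = q.2.2 + (w.length : ZMod P) := by
  intro w
  induction w with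
  | nil =>
    intro q _
    refine ⟨?_, by simp, by simp⟩
    simp [List.take_of_length_le q.1.2]
  | cons b w ih =>
    intro q hq
    rw [List.foldl_cons]
    by_cases h : q.1.1.length < A
    · have e : step f A P q b = (⟨q.1.1 ++ [b], by simpa using h⟩, q.2.1, q.2.2 + 1) := by
        unfold step; rw [dif_pos h]
      obtain ⟨h1, h2, h3⟩ := ih (step f A P q b) (by
        rw [e]; intro _; exact hq h)
      refine ⟨?_, ?_, ?_⟩
      · rw [h1, e]; simp
      · rw [h2, e]
        have : A - q.1.1.length = (A - (q.1.1.length + 1)) + 1 := by omega
        simp [this]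
      · rw [h3, e]; push_cast [List.length_cons]; ring
    · have e : step f A P q b = (q.1, q.2.1 * f b, q.2.2 + 1) := by
        unfold step; rw [dif_neg h]
      obtain ⟨h1, h2, h3⟩ := ih (step f A P q b) (by
        rw [e]; intro h'; exact absurd h' h)
      have hA : q.1.1.length = A := le_antisymm q.1.2 (not_lt.1 h)
      refine ⟨?_, ?_, ?_⟩
      · rw [h1, e]
        simp only
        rw [List.take_append_of_le_length (by omega), List.take_append_of_le_length (by omega)]
      · rw [h2, e]
        simp [hA, mul_assoc]
      · rw [h3, e]; push_cast [List.length_cons]; ring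

/-- **dependence on prefix, value and length gives regularity** -/
theorem regular_of_dep [Finite α] [Finite S] (f : α → S) (A P : ℕ) (hP : 0 < P)
    (L : Language α)
    (h : ∀ u u' : List α, A ≤ u.length → A ≤ u'.length → u.take A = u'.take A →
      ((u.drop A).map f).prod = ((u'.drop A).map f).prod → u.length % P = u'.length % P →
      u ∈ L → u' ∈ L) : L.IsRegular := by
  classical
  have : NeZero P := ⟨hP.ne'⟩
  have : Finite {l : List α // l.length ≤ A} := (List.finite_length_le α A).to_subtype
  let q0 : {l : List α // l.length ≤ A} × S × ZMod P := (⟨[], by simp⟩, 1, 0)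
  have key := fun w : List α => fold_eq f A P w q0 (by intro _; rfl)
  have hreg := isRegular_fold (step f A P) q0 (fun q => ∃ w, w ∈ L ∧ w.foldl (step f A P) q0 = q)
  have e : (lg fun w : List α => (∃ w', w' ∈ L ∧ w'.foldl (step f A P) q0 =
      w.foldl (step f A P) q0)) = L := by
    ext w
    rw [mem_lg]
    constructor
    · rintro ⟨w', hw', he⟩
      obtain ⟨a1, a2, a3⟩ := key w'
      obtain ⟨b1, b2, b3⟩ := key w
      rw [he] at a1 a2 a3
      have c1 : w'.take A = w.take A := by
        have := a1.symm.trans b1
        simpa [q0] using this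
      have c2 : ((w'.drop A).map f).prod = ((w.drop A).map f).prod := by
        have := a2.symm.trans b2
        simpa [q0] using this
      have c3 : w'.length % P = w.length % P := by
        have := a3.symm.trans b3
        have h' : ((w'.length : ℕ) : ZMod P) = ((w.length : ℕ) : ZMod P) := by simpa [q0] using this
        exact (ZMod.natCast_eq_natCast_iff' _ _ _).1 h'
      have hl : min A w'.length = min A w.length := by
        have := congrArg List.length c1
        simpa [List.length_take] using this
      by_cases hA : A ≤ w.length
      · exact h w' w (by omega) hA c1 c2 c3 hw'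
      · have e1 : w'.take A = w' := List.take_of_length_le (by omega)
        have e2 : w.take A = w := List.take_of_length_le (by omega)
        rw [e1, e2] at c1
        rwa [← c1]
    · intro hw
      exact ⟨w, hw, rfl⟩
  rw [← e]
  exact hreg

/-- the same for a multiplicative map on words -/
theorem regular_of_dep' [Finite α] [Finite S] (φ : List α → S) (h1 : φ [] = 1)
    (hm : ∀ u v, φ (u ++ v) = φ u * φ v) (A P : ℕ) (hP : 0 < P) (L : Language α)
    (h : ∀ u u' : List α, A ≤ u.length → A ≤ u'.length → u.take A = u'.take A →
      φ (u.drop A) = φ (u'.drop A) → u.length % P = u'.length % P →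
      u ∈ L → u' ∈ L) : L.IsRegular := by
  have e : ∀ w : List α, (w.map fun a => φ [a]).prod = φ w := by
    intro w
    induction w with
    | nil => simp [h1]
    | cons a w ih =>
      rw [List.map_cons, List.prod_cons, ih, ← hm]
      rfl
  refine regular_of_dep (fun a => φ [a]) A P hP L ?_
  intro u u' a1 a2 a3 a4 a5 a6
  rw [e, e] at a4
  exact h u u' a1 a2 a3 a4 a5 a6

/-- fibres of an option-valued (or any) function which depends only on prefix, value, length -/
theorem regular_fibre [Finite α] [Finite S] {X : Type*} (φ : List α → S) (h1 : φ [] = 1)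
    (hm : ∀ u v, φ (u ++ v) = φ u * φ v) (A P : ℕ) (hP : 0 < P) (g : List α → X)
    (h : ∀ u u' : List α, A ≤ u.length → A ≤ u'.length → u.take A = u'.take A →
      φ (u.drop A) = φ (u'.drop A) → u.length % P = u'.length % P → g u = g u') (x : X) :
    Language.IsRegular ({u | g u = x} : Language α) :=
  regular_of_dep' φ h1 hm A P hP _ fun u u' a1 a2 a3 a4 a5 a6 =>
    (h u u' a1 a2 a3 a4 a5).symm.trans a6

end Crest.Agent.R320.RegDep_10
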