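import Mathlib

/-!
Row 320, wall scheme 1: the arithmetic "names" lemma (CRT unit-vector names, plus one odd modulus that
excludes a double meeting).  Pure arithmetic.
-/

set_option autoImplicit false

namespace Crest.Agent.R320.Names_567

/-- left pattern of the name `i` at clock `t` -/
def PL {I : Type*} (q : I → Bool → ℕ) (i : I) (t : ℕ) : Prop :=
  q i false ∣ t ∧ ¬ q i true ∣ t ∧ ∀ l, l ≠ i → ¬ q l false ∣ t ∧ q l true ∣ t

/-- right pattern of the name `i` at clock `t` -/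
def PR {I : Type*} (q : I → Bool → ℕ) (i : I) (t : ℕ) : Prop :=
  ¬ q i false ∣ t ∧ q i true ∣ t ∧ ∀ l, l ≠ i → q l false ∣ t ∧ ¬ q l true ∣ t

theorem PL_unique {I : Type*} {q : I → Bool → ℕ} {i j : I} {t : ℕ} (h : PL q i t) (h' : PL q j t) :
    i = j := by
  by_contra hij
  exact (h'.2.2 i hij).1 h.1

theorem PR_unique {I : Type*} {q : I → Bool → ℕ} {i j : I} {t : ℕ} (h : PR q i t) (h' : PR q j t) :
    i = j := by
  by_contra hij
  exact (h'.2.2 i hij).2 h.2.1

theorem not_dvd_left {m a b : ℕ} (ha : m ∣ a) (hb : ¬ m ∣ b) : ¬ m ∣ a + b := fun h =>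
  hb ((Nat.dvd_add_right ha).1 h)

theorem not_dvd_right {m a b : ℕ} (ha : ¬ m ∣ a) (hb : m ∣ b) : ¬ m ∣ a + b := fun h =>
  ha ((Nat.dvd_add_left hb).1 h)

/-- matched names: no modulus divides the total -/
theorem same {I : Type*} {q : I → Bool → ℕ} {i : I} {t t' : ℕ} (h : PL q i t) (h' : PR q i t')
    (l : I) (b : Bool) : ¬ q l b ∣ t + t' := by
  classical
  by_cases hl : l = i
  · subst hl
    cases b
    · exact not_dvd_left h.1 h'.1
    · exact not_dvd_right h.2.1 h'.2.1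
  · cases b
    · exact not_dvd_right (h.2.2 l hl).1 (h'.2.2 l hl).1
    · exact not_dvd_left (h.2.2 l hl).2 (h'.2.2 l hl).2

/-- different names: exactly the two names have a modulus dividing the total -/
theorem diff {I : Type*} {q : I → Bool → ℕ} {i j : I} {t t' : ℕ} (h : PL q i t) (h' : PR q j t')
    (hij : i ≠ j) (l : I) : (∃ b, q l b ∣ t + t') ↔ l = i ∨ l = j := by
  classical
  constructor
  · rintro ⟨b, hb⟩
    by_contra hc
    push Not at hc
    cases b
    · exact not_dvd_right (h.2.2 l hc.1).1 (h'.2.2 l hc.2).1 hb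
    · exact not_dvd_left (h.2.2 l hc.1).2 (h'.2.2 l hc.2).2 hb
  · rintro (rfl | rfl)
    · exact ⟨false, Nat.dvd_add h.1 (h'.2.2 _ hij).1⟩
    · exact ⟨true, Nat.dvd_add (h.2.2 _ (Ne.symm hij)).2 h'.2.1⟩

/-- enough distinct large primes -/
theorem exists_primes (I : Type*) [Finite I] (B0 : ℕ) :
    ∃ q : I → ℕ, Function.Injective q ∧ ∀ i, (q i).Prime ∧ B0 < q i := by
  classical
  cases nonempty_fintype I
  have hinf : {p : ℕ | p.Prime ∧ B0 < p}.Infinite := by
    have := Nat.infinite_setOf_prime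
    refine (this.diff (Set.finite_Iic B0)).mono ?_
    rintro p ⟨hp, hp'⟩
    exact ⟨hp, by simpa using hp'⟩
  have : Infinite {p : ℕ | p.Prime ∧ B0 < p} := hinf.to_subtype
  obtain ⟨f⟩ : Nonempty (I ↪ {p : ℕ | p.Prime ∧ B0 < p}) :=
    ⟨(Finite.equivFin I).toEmbedding.trans (Fin.valEmbedding.trans (Infinite.natEmbedding _))⟩
  exact ⟨fun i => (f i).1, fun a b h => f.injective (Subtype.ext h), fun i => (f i).2⟩

/-- CRT in an interval -/
theorem crt_interval {J : Type*} [Fintype J] [DecidableEq J] (q : J → ℕ)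
    (hpos : ∀ j, 0 < q j)
    (hq : ∀ i j, i ≠ j → (q i).Coprime (q j)) (r : J → ℕ) (o : ℕ) :
    ∃ t, o ≤ t ∧ t < o + ∏ j, q j ∧ ∀ j, t ≡ r j [MOD q j] := by
  classical
  have hP : 0 < ∏ j, q j := Finset.prod_pos fun j _ => hpos j
  obtain ⟨t0, ht0⟩ := Nat.chineseRemainderOfFinset r q Finset.univ
    (fun j _ => (hpos j).ne') (fun i _ j _ hij => hq i j hij)
  refine ⟨o + (t0 + (∏ j, q j) * o - o) % (∏ j, q j), Nat.le_add_right _ _,
    Nat.add_lt_add_left (Nat.mod_lt _ hP) _, fun j => ?_⟩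
  have hle : o ≤ t0 + (∏ j, q j) * o := by
    have : o ≤ (∏ j, q j) * o := Nat.le_mul_of_pos_left _ hP
    omega
  have hdvd : q j ∣ ∏ j, q j := Finset.dvd_prod_of_mem q (Finset.mem_univ j)
  have h1 : o + (t0 + (∏ j, q j) * o - o) % (∏ j, q j) ≡ o + (t0 + (∏ j, q j) * o - o) [MOD q j] :=
    Nat.ModEq.add_left _ ((Nat.mod_modEq _ _).of_dvd hdvd)
  have h2 : o + (t0 + (∏ j, q j) * o - o) = t0 + (∏ j, q j) * o := by omega
  rw [h2] at h1
  refine h1.trans ?_
  have h3 : t0 + (∏ j, q j) * o ≡ t0 + 0 [MOD q j] :=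
    Nat.ModEq.add_left _ ((Nat.modEq_zero_iff_dvd).2 (hdvd.mul_right _))
  refine h3.trans ?_
  simpa using ht0 j (Finset.mem_univ j)

theorem names (C0 : Type*) [Fintype C0] [DecidableEq C0] (col : C0 → ℕ) (B0 : ℕ) :
    ∃ (M : ℕ) (mods : Finset ℕ) (L R : C0 → ℕ → Prop),
      0 < M ∧ (∀ m ∈ mods, B0 < m ∧ m.Prime) ∧
      (∀ c c' t, L c t → L c' t → c = c') ∧ (∀ c c' t, R c t → R c' t → c = c') ∧
      (∀ c c' t t', L c t → R c' t' → (∀ m ∈ mods, ¬ m ∣ t + t') → c = c') ∧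
      (∀ c1 c1' c2 c2' t1 t1' t2 t2', t1 + t1' = t2 + t2' → L c1 t1 → R c1' t1' → L c2 t2 →
        R c2' t2' → (c1 = c1' ∧ c2 = c2' ∧ ∀ m ∈ mods, ¬ m ∣ t1 + t1') ∨
          (col c1 = col c2 ∧ col c1' = col c2')) ∧
      (∀ T, (∀ m ∈ mods, ¬ m ∣ T) → ∀ c o, o + M ≤ T → ∃ t, o ≤ t ∧ t < o + M ∧ L c t ∧
        R c (T - t)) := by
  classical
  -- the odd modulus
  obtain ⟨mu, hmu, hmup⟩ := Nat.exists_infinite_primes ((∑ c, col c) + 3)
  haveI : Fact mu.Prime := ⟨hmup⟩
  have hcol : ∀ c, col c < mu := fun c => by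
    have : col c ≤ ∑ c, col c := Finset.single_le_sum (f := col) (fun _ _ => Nat.zero_le _)
      (Finset.mem_univ c)
    omega
  have h2 : (2 : ZMod mu) ≠ 0 := by
    intro h
    have : (mu : ℕ) ∣ 2 := by
      have h' : ((2 : ℕ) : ZMod mu) = 0 := by exact_mod_cast h
      exact (ZMod.natCast_eq_zero_iff _ _).1 h'
    have := Nat.le_of_dvd (by norm_num) this
    omega
  let I := C0 × ZMod mu
  obtain ⟨q0, hq0, hq0p⟩ := exists_primes (I × Bool) (B0 + mu)
  let q : I → Bool → ℕ := fun i b => q0 (i, b)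
  let L : C0 → ℕ → Prop := fun c t => ∃ e : ZMod mu, PL q (c, e) t ∧ (t : ZMod mu) = e + (col c : ℕ)
  let R : C0 → ℕ → Prop := fun c t => ∃ e : ZMod mu, PR q (c, e) t ∧ (t : ZMod mu) = e - (col c : ℕ)
  have hmods : ∀ T : ℕ, (∀ m ∈ Finset.univ.image q0, ¬ m ∣ T) ↔ ∀ i b, ¬ q i b ∣ T := by
    intro T
    constructor
    · intro h i b
      exact h _ (Finset.mem_image_of_mem _ (Finset.mem_univ _))
    · intro h m hm
      obtain ⟨⟨i, b⟩, -, rfl⟩ := Finset.mem_image.1 hm
      exact h i b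
  refine ⟨mu * ∏ j, q0 j, Finset.univ.image q0, L, R, ?_, ?_, ?_, ?_, ?_, ?_, ?_⟩
  · exact Nat.mul_pos hmup.pos (Finset.prod_pos fun j _ => (hq0p j).1.pos)
  · intro m hm
    obtain ⟨j, -, rfl⟩ := Finset.mem_image.1 hm
    have := (hq0p j).2
    exact ⟨by omega, (hq0p j).1⟩
  · rintro c c' t ⟨e, h, -⟩ ⟨e', h', -⟩
    exact (Prod.mk.inj (PL_unique h h')).1
  · rintro c c' t ⟨e, h, -⟩ ⟨e', h', -⟩
    exact (Prod.mk.inj (PR_unique h h')).1
  · rintro c c' t t' ⟨e, h, -⟩ ⟨e', h', -⟩ hT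
    rw [hmods] at hT
    by_contra hcc
    have hne : ((c, e) : I) ≠ (c', e') := fun hh => hcc (Prod.mk.inj hh).1
    obtain ⟨b, hb⟩ := (diff h h' hne (c, e)).2 (Or.inl rfl)
    exact hT _ _ hb
  · rintro c1 c1' c2 c2' t1 t1' t2 t2' hT ⟨e1, h1, k1⟩ ⟨e1', h1', k1'⟩ ⟨e2, h2', k2⟩ ⟨e2', h2'', k2'⟩
    by_cases hij : ((c1, e1) : I) = (c1', e1')
    · left
      have hgood : ∀ l b, ¬ q l b ∣ t1 + t1' := by
        intro l b
        rw [← hij] at h1'
        exact same h1 h1' l b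
      have hij2 : ((c2, e2) : I) = (c2', e2') := by
        by_contra hne
        obtain ⟨b, hb⟩ := (diff h2' h2'' hne (c2, e2)).2 (Or.inl rfl)
        rw [← hT] at hb
        exact hgood _ _ hb
      exact ⟨(Prod.mk.inj hij).1, (Prod.mk.inj hij2).1, (hmods _).2 hgood⟩
    · right
      have hij2 : ((c2, e2) : I) ≠ (c2', e2') := by
        intro hh
        obtain ⟨b, hb⟩ := (diff h1 h1' hij (c1, e1)).2 (Or.inl rfl)
        rw [hT] at hb
        rw [← hh] at h2''
        exact same h2' h2'' _ b hb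
      have hset : ∀ l : I, (l = (c1, e1) ∨ l = (c1', e1')) ↔ (l = (c2, e2) ∨ l = (c2', e2')) := by
        intro l
        rw [← diff h1 h1' hij l, ← diff h2' h2'' hij2 l, hT]
      rcases (hset (c1, e1)).1 (Or.inl rfl) with ha | ha
      · rcases (hset (c1', e1')).1 (Or.inr rfl) with hb | hb
        · exact absurd (ha.trans hb.symm) hij
        · have ha' := (Prod.mk.inj ha).1
          have hb' := (Prod.mk.inj hb).1
          exact ⟨by rw [ha'], by rw [hb']⟩
      · rcases (hset (c1', e1')).1 (Or.inr rfl) with hb | hb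
        · obtain ⟨ha1, ha2⟩ := Prod.mk.inj ha
          obtain ⟨hb1, hb2⟩ := Prod.mk.inj hb
          subst ha1 ha2 hb1 hb2
          have hc : ((t1 + t1' : ℕ) : ZMod mu) = ((t2 + t2' : ℕ) : ZMod mu) := by rw [hT]
          push_cast at hc
          rw [k1, k1', k2, k2'] at hc
          have hc' : (2 : ZMod mu) * (((col c1 : ℕ) : ZMod mu) - ((col c1' : ℕ) : ZMod mu)) = 0 := by
            linear_combination hc
          rcases mul_eq_zero.1 hc' with h | h
          · exact absurd h h2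
          · have h3 : ((col c1 : ℕ) : ZMod mu) = ((col c1' : ℕ) : ZMod mu) := sub_eq_zero.1 h
            have h4 : col c1 = col c1' := by
              have := (ZMod.natCast_eq_natCast_iff' _ _ _).1 h3
              rwa [Nat.mod_eq_of_lt (hcol c1), Nat.mod_eq_of_lt (hcol c1')] at this
            exact ⟨h4, h4.symm⟩
        · exact absurd (ha.trans hb.symm) hij
  · intro T hT c o hoT
    rw [hmods] at hT
    -- eps with 2 eps = T
    obtain ⟨e, he⟩ : ∃ e : ZMod mu, e + e = (T : ZMod mu) := by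
      refine ⟨(T : ZMod mu) * (2 : ZMod mu)⁻¹, ?_⟩
      rw [← mul_two, mul_assoc, inv_mul_cancel₀ h2, mul_one]
    let i : I := (c, e)
    let Q : Option (I × Bool) → ℕ := fun j => j.elim mu q0
    let r : Option (I × Bool) → ℕ := fun j => j.elim (e + (col c : ℕ) : ZMod mu).val
      (fun jb => if jb.2 = decide (jb.1 = i) then T else 0)
    have hQpos : ∀ j, 0 < Q j := by
      rintro (_ | j)
      · exact hmup.pos
      · exact (hq0p j).1.pos
    have hQ : ∀ j j', j ≠ j' → (Q j).Coprime (Q j') := by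
      rintro (_ | j) (_ | j') hne
      · exact absurd rfl hne
      · refine (Nat.coprime_primes hmup (hq0p j').1).2 ?_
        have := (hq0p j').2
        show mu ≠ q0 j'
        omega
      · refine (Nat.coprime_primes (hq0p j).1 hmup).2 ?_
        have := (hq0p j).2
        show q0 j ≠ mu
        omega
      · refine (Nat.coprime_primes (hq0p j).1 (hq0p j').1).2 ?_
        exact fun hh => hne (by rw [hq0 hh])
    obtain ⟨t, ht1, ht2, ht3⟩ := crt_interval Q hQpos hQ r o
    have hprod : ∏ j, Q j = mu * ∏ j, q0 j := by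
      rw [Fintype.prod_option]
      rfl
    rw [hprod] at ht2
    have htT : t ≤ T := by omega
    have hmodT : ∀ jb : I × Bool, jb.2 = decide (jb.1 = i) →
        q0 jb ∣ T - t ∧ ¬ q0 jb ∣ t := by
      intro jb hjb
      have h := ht3 (some jb)
      have hr : r (some jb) = T := by
        show (if jb.2 = decide (jb.1 = i) then T else 0) = T
        rw [if_pos hjb]
      rw [hr] at h
      have hd : q0 jb ∣ T - t := (Nat.modEq_iff_dvd' htT).1 h
      refine ⟨hd, fun h' => hT jb.1 jb.2 ?_⟩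
      have := Nat.dvd_add hd h'
      rwa [Nat.sub_add_cancel htT] at this
    have hmod0 : ∀ jb : I × Bool, jb.2 ≠ decide (jb.1 = i) →
        q0 jb ∣ t ∧ ¬ q0 jb ∣ T - t := by
      intro jb hjb
      have h := ht3 (some jb)
      have hr : r (some jb) = 0 := by
        show (if jb.2 = decide (jb.1 = i) then T else 0) = 0
        rw [if_neg hjb]
      rw [hr] at h
      have hd : q0 jb ∣ t := (Nat.modEq_zero_iff_dvd).1 h
      refine ⟨hd, fun h' => hT jb.1 jb.2 ?_⟩
      have := Nat.dvd_add h' hd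
      rwa [Nat.sub_add_cancel htT] at this
    have hmu' : (t : ZMod mu) = e + (col c : ℕ) := by
      have h := ht3 none
      have h' : ((t : ℕ) : ZMod mu) = (((e + (col c : ℕ) : ZMod mu).val : ℕ) : ZMod mu) :=
        (ZMod.natCast_eq_natCast_iff _ _ _).2 h
      rw [h', ZMod.natCast_zmod_val]
    refine ⟨t, ht1, ht2, ⟨e, ⟨?_, ?_, ?_⟩, hmu'⟩, ⟨e, ⟨?_, ?_, ?_⟩, ?_⟩⟩
    · exact (hmod0 (i, false) (by simp)).1
    · exact (hmodT (i, true) (by simp)).2
    · intro l hl
      have hl' : l ≠ i := hl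
      exact ⟨(hmodT (l, false) (by simp [hl'])).2, (hmod0 (l, true) (by simp [hl'])).1⟩
    · exact (hmod0 (i, false) (by simp)).2
    · exact (hmodT (i, true) (by simp)).1
    · intro l hl
      have hl' : l ≠ i := hl
      exact ⟨(hmodT (l, false) (by simp [hl'])).1, (hmod0 (l, true) (by simp [hl'])).2⟩
    · rw [Nat.cast_sub htT, hmu', ← he]
      ring

end Crest.Agent.R320.Names_567
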