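import Mathlib
import Crest.Agent.R320.Names_567

/-!
Row 320: ruler and spoil count for the grid gadget (693): pure arithmetic.
-/

set_option autoImplicit false

namespace Crest.Agent.R320.SpoilGrid_567

open Finset

/-- bad totals of the grid gadget -/
def BadT (Ms : Finset ℕ) (M G m : ℕ) (Am : ℕ → ℤ) (T : ℤ) : Prop :=
  (∃ q ∈ Ms, (q : ℤ) ∣ T) ∨
    ∃ j, 1 ≤ j ∧ j ≤ m ∧ ∃ k : ℤ, |T - Am j - k * (G : ℤ) ^ j| ≤ (M : ℤ) * (G : ℤ) ^ (j - 1)

theorem pow4 (a b c d : ℕ) (h : 4 ^ a + 4 ^ d = 4 ^ c + 4 ^ b) :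
    (a = c ∧ d = b) ∨ (a = b ∧ d = c) := by
  have inj : ∀ {x y : ℕ}, 4 ^ x = 4 ^ y → x = y := fun h => Nat.pow_right_injective (le_refl 2 |>.trans (by norm_num)) h
  have pos : ∀ x : ℕ, 0 < 4 ^ x := fun x => by positivity
  induction a generalizing b c d with
  | zero =>
    rcases c with _ | c
    · left
      refine ⟨rfl, inj ?_⟩
      simp only [pow_zero] at h
      omega
    · rcases b with _ | b
      · right
        refine ⟨rfl, inj ?_⟩
        simp only [pow_zero] at h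
        omega
      · exfalso
        rcases d with _ | d
        · have := pos c; have := pos b
          simp only [pow_zero, pow_succ] at h
          omega
        · simp only [pow_zero, pow_succ] at h
          omega
  | succ a ih =>
    rcases d with _ | d
    · rcases c with _ | c
      · right
        refine ⟨inj ?_, rfl⟩
        simp only [pow_zero] at h
        omega
      · rcases b with _ | b
        · left
          refine ⟨inj ?_, rfl⟩
          simp only [pow_zero] at h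
          omega
        · exfalso
          simp only [pow_zero, pow_succ] at h
          omega
    · rcases c with _ | c
      · rcases b with _ | b
        · exfalso
          have := pos a; have := pos d
          simp only [pow_zero, pow_succ] at h
          omega
        · exfalso
          simp only [pow_zero, pow_succ] at h
          omega
      · rcases b with _ | b
        · exfalso
          simp only [pow_zero, pow_succ] at h
          omega
        · have h' : 4 ^ a + 4 ^ d = 4 ^ c + 4 ^ b := by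
            simp only [pow_succ] at h
            omega
          rcases ih b c d h' with ⟨h1, h2⟩ | ⟨h1, h2⟩
          · left; omega
          · right; omega

/-- Golomb property of the powers of 4 -/
theorem golomb {a b c d : ℕ} (h : (4 : ℤ) ^ a - 4 ^ b - 4 ^ c + 4 ^ d = 0) (hab : a ≠ b) :
    a = c ∧ b = d := by
  have h' : 4 ^ a + 4 ^ d = 4 ^ c + 4 ^ b := by
    have : (4 : ℤ) ^ a + 4 ^ d = 4 ^ c + 4 ^ b := by linarith
    exact_mod_cast this
  rcases pow4 a b c d h' with ⟨h1, h2⟩ | ⟨h1, h2⟩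
  · exact ⟨h1, h2.symm⟩
  · exact absurd h1 hab

theorem card_le_one_of {α : Type*} (s : Finset α) (h : ∀ x ∈ s, ∀ y ∈ s, x = y) : s.card ≤ 1 :=
  Finset.card_le_one.2 h

theorem delta_bound {K a b c d : ℕ} (ha : a < K) (hb : b < K) (hc : c < K) (hd : d < K) :
    |(4 : ℤ) ^ a - 4 ^ b - 4 ^ c + 4 ^ d| ≤ 4 ^ K := by
  obtain ⟨K, rfl⟩ : ∃ k, K = k + 1 := ⟨K - 1, by omega⟩
  have p : ∀ x, x < K + 1 → (1 : ℤ) ≤ 4 ^ x ∧ (4 : ℤ) ^ x ≤ 4 ^ K := fun x hx =>
    ⟨one_le_pow₀ (by norm_num), pow_le_pow_right₀ (by norm_num) (by omega)⟩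
  have h1 := p a ha; have h2 := p b hb; have h3 := p c hc; have h4 := p d hd
  have h5 : (4 : ℤ) ^ (K + 1) = 4 * 4 ^ K := by rw [pow_succ]; ring
  rw [h5, abs_le]
  constructor <;> nlinarith [h1.1, h1.2, h2.1, h2.2, h3.1, h3.2, h4.1, h4.2]

set_option maxHeartbeats 2000000 in
open Classical in
/-- ruler with few spoiled differences -/
theorem spoil_grid (K m : ℕ) (Ms : Finset ℕ) (M G N1 : ℕ)
    (hq : ∀ q ∈ Ms, 4 ^ K < q) (hcop : ∀ q ∈ Ms, Nat.Coprime q G)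
    (hpw : ∀ q ∈ Ms, ∀ q' ∈ Ms, q ≠ q' → Nat.Coprime q q') (hM : 0 < M)
    (hG : 16 * (m + 1) * M * 4 ^ K ≤ G) :
    ∃ x : ℕ → ℕ, (∀ a b, a < b → x a + N1 < x b) ∧
      (∀ a b c d, a < K → b < K → c < K → d < K → a ≠ b →
        |((x a : ℤ) - x b) - (x c - x d)| ≤ N1 → a = c ∧ b = d) ∧
      ∀ (Am : ℕ → ℤ) (T : ℤ),
        (((Finset.range K ×ˢ Finset.range K).filter
          (fun ab => ab.1 ≠ ab.2 ∧ BadT Ms M G m Am (T + x ab.1 - x ab.2))).card ≤ Ms.card + m) := by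
  have h4K : 0 < 4 ^ K := by positivity
  have hGpos : 0 < G := by
    have : 0 < 16 * (m + 1) * M * 4 ^ K := by positivity
    omega
  set w : ℕ := 4 * M * ∑ k ∈ Finset.range m, G ^ k with hw
  -- the residues
  let Q : Option Ms → ℕ := fun o => o.elim (G ^ m) (fun q => (q : ℕ))
  have hQpos : ∀ o, 0 < Q o := by
    rintro (_ | q)
    · exact pow_pos hGpos m
    · have := hq q.1 q.2
      show 0 < (q : ℕ)
      omega
  have hQcop : ∀ o o', o ≠ o' → (Q o).Coprime (Q o') := by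
    rintro (_ | q) (_ | q') hne
    · exact absurd rfl hne
    · exact (Nat.Coprime.pow_right m (hcop q'.1 q'.2)).symm
    · exact Nat.Coprime.pow_right m (hcop q.1 q.2)
    · exact hpw q.1 q.2 q'.1 q'.2 (fun hh => hne (by rw [Subtype.ext hh]))
  have hcrt : ∀ j : ℕ, ∃ t, t < ∏ o, Q o ∧
      ∀ o, t ≡ (o.elim (w * 4 ^ j) (fun _ => 4 ^ j) : ℕ) [MOD Q o] := by
    intro j
    obtain ⟨t, -, h2, h3⟩ := Names_567.crt_interval Q hQpos hQcop
      (fun o => (o.elim (w * 4 ^ j) (fun _ => 4 ^ j) : ℕ)) 0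
    exact ⟨t, by simpa using h2, h3⟩
  choose y hy1 hy2 using hcrt
  set P : ℕ := ∏ o, Q o with hP
  have hPpos : 0 < P := Finset.prod_pos fun o _ => hQpos o
  have hQP : ∀ o, Q o ∣ P := fun o => Finset.dvd_prod_of_mem Q (Finset.mem_univ o)
  let x : ℕ → ℕ := fun j => y j + P * (N1 + 3) * 4 ^ j
  have hxq : ∀ q ∈ Ms, ∀ j, (q : ℤ) ∣ (x j : ℤ) - 4 ^ j := by
    intro q hqm j
    have h1 := hy2 j (some ⟨q, hqm⟩)
    have h2 : (q : ℤ) ∣ ((4 ^ j : ℕ) : ℤ) - (y j : ℤ) := Nat.modEq_iff_dvd.1 h1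
    have h3 : (q : ℤ) ∣ (P : ℤ) := by exact_mod_cast (hQP (some ⟨q, hqm⟩))
    have h4 : (x j : ℤ) - 4 ^ j = -(((4 ^ j : ℕ) : ℤ) - (y j : ℤ)) + (P : ℤ) * ((N1 + 3) * 4 ^ j) := by
      show ((y j + P * (N1 + 3) * 4 ^ j : ℕ) : ℤ) - 4 ^ j = _
      push_cast
      ring
    rw [h4]
    exact (dvd_neg.2 h2).add (h3.mul_right _)
  have hxG : ∀ j, ((G : ℤ) ^ m) ∣ (x j : ℤ) - (w : ℤ) * 4 ^ j := by
    intro j
    have h1 := hy2 j none
    have h2 : ((G ^ m : ℕ) : ℤ) ∣ ((w * 4 ^ j : ℕ) : ℤ) - (y j : ℤ) := Nat.modEq_iff_dvd.1 h1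
    have h3 : ((G ^ m : ℕ) : ℤ) ∣ (P : ℤ) := by exact_mod_cast (hQP none)
    have h4 : (x j : ℤ) - (w : ℤ) * 4 ^ j =
        -(((w * 4 ^ j : ℕ) : ℤ) - (y j : ℤ)) + (P : ℤ) * ((N1 + 3) * 4 ^ j) := by
      show ((y j + P * (N1 + 3) * 4 ^ j : ℕ) : ℤ) - _ = _
      push_cast
      ring
    rw [h4]
    have : ((G : ℤ) ^ m) = ((G ^ m : ℕ) : ℤ) := by push_cast; rfl
    rw [this]
    exact (dvd_neg.2 h2).add (h3.mul_right _)
  refine ⟨x, ?_, ?_, ?_⟩
  · intro a b hab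
    show y a + P * (N1 + 3) * 4 ^ a + N1 < y b + P * (N1 + 3) * 4 ^ b
    have h1 : 4 ^ (a + 1) ≤ 4 ^ b := Nat.pow_le_pow_right (by norm_num) hab
    rw [pow_succ] at h1
    have h2 := hy1 a
    have h3 : 1 ≤ 4 ^ a := Nat.one_le_pow _ _ (by norm_num)
    have h4 : P * (N1 + 3) * (4 ^ a * 4) ≤ P * (N1 + 3) * 4 ^ b := Nat.mul_le_mul_left _ h1
    have h5 : P * (N1 + 3) * 1 ≤ P * (N1 + 3) * 4 ^ a := Nat.mul_le_mul_left _ h3
    have h6 : 1 * (N1 + 3) ≤ P * (N1 + 3) := Nat.mul_le_mul_right _ hPpos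
    have h7 : P * 3 ≤ P * (N1 + 3) := Nat.mul_le_mul_left _ (by omega)
    have h8 : P * (N1 + 3) * (4 ^ a * 4) = 4 * (P * (N1 + 3) * 4 ^ a) := by ring
    rw [h8] at h4
    omega
  · intro a b c d ha hb hc hd hab habs
    by_contra hcon
    have hD : (4 : ℤ) ^ a - 4 ^ b - 4 ^ c + 4 ^ d ≠ 0 := fun h0 => hcon (golomb h0 hab)
    have hD1 : 1 ≤ |(4 : ℤ) ^ a - 4 ^ b - 4 ^ c + 4 ^ d| := Int.one_le_abs hD
    have e : ((x a : ℤ) - x b) - (x c - x d) =
        ((y a : ℤ) - y b - y c + y d) + (P : ℤ) * (N1 + 3) * ((4 : ℤ) ^ a - 4 ^ b - 4 ^ c + 4 ^ d) := by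
      show (((y a + P * (N1 + 3) * 4 ^ a : ℕ) : ℤ) - ((y b + P * (N1 + 3) * 4 ^ b : ℕ) : ℤ)) -
        (((y c + P * (N1 + 3) * 4 ^ c : ℕ) : ℤ) - ((y d + P * (N1 + 3) * 4 ^ d : ℕ) : ℤ)) = _
      push_cast
      ring
    rw [e] at habs
    have hyb : |(y a : ℤ) - y b - y c + y d| ≤ 2 * P := by
      have h1 := hy1 a; have h2 := hy1 b; have h3 := hy1 c; have h4 := hy1 d
      rw [abs_le]
      constructor <;> omega
    have hbig : (P : ℤ) * (N1 + 3) ≤ |(P : ℤ) * (N1 + 3) * ((4 : ℤ) ^ a - 4 ^ b - 4 ^ c + 4 ^ d)| := by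
      rw [abs_mul, abs_of_nonneg (by positivity : (0 : ℤ) ≤ (P : ℤ) * (N1 + 3))]
      nlinarith [hD1, (by positivity : (0 : ℤ) ≤ (P : ℤ) * (N1 + 3))]
    have htri : |(P : ℤ) * (N1 + 3) * ((4 : ℤ) ^ a - 4 ^ b - 4 ^ c + 4 ^ d)| ≤
        |((y a : ℤ) - y b - y c + y d) + (P : ℤ) * (N1 + 3) * ((4 : ℤ) ^ a - 4 ^ b - 4 ^ c + 4 ^ d)| +
          |(y a : ℤ) - y b - y c + y d| := by
      have := abs_sub_abs_le_abs_sub
        ((P : ℤ) * (N1 + 3) * ((4 : ℤ) ^ a - 4 ^ b - 4 ^ c + 4 ^ d)) (-((y a : ℤ) - y b - y c + y d))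
      rw [abs_neg, sub_neg_eq_add, add_comm ((P : ℤ) * (N1 + 3) * _)] at this
      linarith
    have hP1 : (1 : ℤ) ≤ P := by exact_mod_cast hPpos
    nlinarith
  · intro Am T
    -- uniqueness for each modulus
    have huq : ∀ q ∈ Ms, ∀ a b c d, a < K → b < K → c < K → d < K → a ≠ b →
        (q : ℤ) ∣ T + x a - x b → (q : ℤ) ∣ T + x c - x d → a = c ∧ b = d := by
      intro q hqm a b c d ha hb hc hd hab h1 h2
      apply golomb _ hab
      have h3 : (q : ℤ) ∣ (4 : ℤ) ^ a - 4 ^ b - 4 ^ c + 4 ^ d := by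
        have e : (4 : ℤ) ^ a - 4 ^ b - 4 ^ c + 4 ^ d = (T + x a - x b) - (T + x c - x d)
            - ((x a : ℤ) - 4 ^ a) + ((x b : ℤ) - 4 ^ b) + ((x c : ℤ) - 4 ^ c) - ((x d : ℤ) - 4 ^ d) := by
          ring
        rw [e]
        exact (((((h1.sub h2).sub (hxq q hqm a)).add (hxq q hqm b)).add (hxq q hqm c)).sub
          (hxq q hqm d))
      apply Int.eq_zero_of_abs_lt_dvd h3
      refine lt_of_le_of_lt (delta_bound ha hb hc hd) ?_
      exact_mod_cast hq q hqm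
    -- uniqueness for each grid
    have hug : ∀ j, 1 ≤ j → j ≤ m → ∀ a b c d, a < K → b < K → c < K → d < K → a ≠ b →
        (∃ k : ℤ, |T + x a - x b - Am j - k * (G : ℤ) ^ j| ≤ (M : ℤ) * (G : ℤ) ^ (j - 1)) →
        (∃ k : ℤ, |T + x c - x d - Am j - k * (G : ℤ) ^ j| ≤ (M : ℤ) * (G : ℤ) ^ (j - 1)) →
        a = c ∧ b = d := by
      intro j hj1 hjm a b c d ha hb hc hd hab ⟨k, hk⟩ ⟨k', hk'⟩
      by_contra hcon
      have hD : (4 : ℤ) ^ a - 4 ^ b - 4 ^ c + 4 ^ d ≠ 0 := fun h0 => hcon (golomb h0 hab)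
      have hD1 : 1 ≤ |(4 : ℤ) ^ a - 4 ^ b - 4 ^ c + 4 ^ d| := Int.one_le_abs hD
      have hD2 := delta_bound ha hb hc hd
      -- reduce `w` modulo `G ^ j`
      obtain ⟨i, rfl⟩ : ∃ i, j = i + 1 := ⟨j - 1, by omega⟩
      simp only [Nat.add_sub_cancel] at hk hk'
      set wj : ℤ := 4 * M * ∑ k ∈ Finset.range (i + 1), (G : ℤ) ^ k with hwj
      have hwG : ((G : ℤ) ^ (i + 1)) ∣ (w : ℤ) - wj := by
        have hsum : ∑ k ∈ Finset.range m, (G : ℤ) ^ k =
            ∑ k ∈ Finset.range (i + 1), (G : ℤ) ^ k + ∑ k ∈ Finset.Ico (i + 1) m, (G : ℤ) ^ k :=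
          (Finset.sum_range_add_sum_Ico _ hjm).symm
        have e : (w : ℤ) - wj = 4 * M * ∑ k ∈ Finset.Ico (i + 1) m, (G : ℤ) ^ k := by
          rw [hw, hwj]
          push_cast
          rw [hsum]
          ring
        rw [e]
        refine Dvd.dvd.mul_left (Finset.dvd_sum fun k hk => pow_dvd_pow _ (Finset.mem_Ico.1 hk).1) _
      have hGj : ((G : ℤ) ^ (i + 1)) ∣ ((G : ℤ) ^ m) := pow_dvd_pow _ hjm
      have hdv : ∀ t, ((G : ℤ) ^ (i + 1)) ∣ (x t : ℤ) - wj * 4 ^ t := by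
        intro t
        have e : (x t : ℤ) - wj * 4 ^ t = ((x t : ℤ) - (w : ℤ) * 4 ^ t) + ((w : ℤ) - wj) * 4 ^ t := by
          ring
        rw [e]
        exact (hGj.trans (hxG t)).add (hwG.mul_right _)
      obtain ⟨l, hl⟩ : ((G : ℤ) ^ (i + 1)) ∣
          ((x a : ℤ) - x b - x c + x d) - wj * ((4 : ℤ) ^ a - 4 ^ b - 4 ^ c + 4 ^ d) := by
        have e : ((x a : ℤ) - x b - x c + x d) - wj * ((4 : ℤ) ^ a - 4 ^ b - 4 ^ c + 4 ^ d) =
            ((x a : ℤ) - wj * 4 ^ a) - ((x b : ℤ) - wj * 4 ^ b) - ((x c : ℤ) - wj * 4 ^ c) +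
              ((x d : ℤ) - wj * 4 ^ d) := by ring
        rw [e]
        exact (((hdv a).sub (hdv b)).sub (hdv c)).add (hdv d)
      set De : ℤ := (4 : ℤ) ^ a - 4 ^ b - 4 ^ c + 4 ^ d with hDe
      have hsm : |wj * De - (k - k' - l) * (G : ℤ) ^ (i + 1)| ≤ 2 * ((M : ℤ) * (G : ℤ) ^ i) := by
        have e : wj * De - (k - k' - l) * (G : ℤ) ^ (i + 1) =
            (T + x a - x b - Am (i + 1) - k * (G : ℤ) ^ (i + 1)) -
              (T + x c - x d - Am (i + 1) - k' * (G : ℤ) ^ (i + 1)) := by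
          linear_combination (-1 : ℤ) * hl
        rw [e]
        refine (abs_sub _ _).trans ?_
        linarith
      -- bounds for `wj`
      have hgi : (1 : ℤ) ≤ (G : ℤ) ^ i := one_le_pow₀ (by exact_mod_cast hGpos)
      have hM1 : (1 : ℤ) ≤ M := by exact_mod_cast hM
      have hlow : 4 * ((M : ℤ) * (G : ℤ) ^ i) ≤ wj := by
        have : (G : ℤ) ^ i ≤ ∑ k ∈ Finset.range (i + 1), (G : ℤ) ^ k :=
          Finset.single_le_sum (f := fun k => (G : ℤ) ^ k) (fun k _ => by positivity)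
            (Finset.mem_range.2 (Nat.lt_succ_self i))
        rw [hwj]
        nlinarith
      have hupp : wj ≤ 4 * M * ((m + 1 : ℕ) * (G : ℤ) ^ i) := by
        have : ∑ k ∈ Finset.range (i + 1), (G : ℤ) ^ k ≤ (m + 1 : ℕ) * (G : ℤ) ^ i := by
          calc ∑ k ∈ Finset.range (i + 1), (G : ℤ) ^ k
              ≤ ∑ _k ∈ Finset.range (i + 1), (G : ℤ) ^ i := by
                refine Finset.sum_le_sum fun k hk => ?_
                exact pow_le_pow_right₀ (by exact_mod_cast hGpos)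
                  (Nat.lt_succ_iff.1 (Finset.mem_range.1 hk))
            _ = ((i + 1 : ℕ) : ℤ) * (G : ℤ) ^ i := by
                rw [Finset.sum_const, Finset.card_range, nsmul_eq_mul]
            _ ≤ (m + 1 : ℕ) * (G : ℤ) ^ i := by
                have h1 : ((i + 1 : ℕ) : ℤ) ≤ ((m + 1 : ℕ) : ℤ) := by
                  have : i + 1 ≤ m + 1 := by omega
                  exact_mod_cast this
                exact mul_le_mul_of_nonneg_right h1 (by positivity)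
        rw [hwj]
        exact mul_le_mul_of_nonneg_left this (by positivity)
      have hG' : (16 * (m + 1 : ℕ) * M * 4 ^ K : ℤ) ≤ G := by exact_mod_cast hG
      have hw0 : 0 ≤ wj := le_trans (by positivity) hlow
      have habsw : |wj * De| ≤ wj * 4 ^ K := by
        rw [abs_mul, abs_of_nonneg hw0]
        exact mul_le_mul_of_nonneg_left hD2 hw0
      have hquart : 4 * |wj * De| ≤ (G : ℤ) ^ (i + 1) := by
        have h4k : (0 : ℤ) ≤ 4 ^ K := by positivity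
        calc 4 * |wj * De| ≤ 4 * (wj * 4 ^ K) := by linarith
          _ ≤ 4 * (4 * M * ((m + 1 : ℕ) * (G : ℤ) ^ i) * 4 ^ K) := by
              have := mul_le_mul_of_nonneg_right hupp h4k
              linarith
          _ = (16 * (m + 1 : ℕ) * M * 4 ^ K : ℤ) * (G : ℤ) ^ i := by ring
          _ ≤ (G : ℤ) * (G : ℤ) ^ i := mul_le_mul_of_nonneg_right hG' (by positivity)
          _ = (G : ℤ) ^ (i + 1) := by rw [pow_succ]; ring
      have hMG : 16 * ((M : ℤ) * (G : ℤ) ^ i) ≤ (G : ℤ) ^ (i + 1) := by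
        have h4k : (1 : ℤ) ≤ 4 ^ K := one_le_pow₀ (by norm_num)
        have hm1 : (1 : ℤ) ≤ (m + 1 : ℕ) := by push_cast; linarith [(Nat.cast_nonneg m : (0:ℤ) ≤ m)]
        have h16 : (16 * M : ℤ) ≤ G := by
          refine le_trans ?_ hG'
          have h1 : (M : ℤ) * 1 ≤ M * (((m + 1 : ℕ) : ℤ) * 4 ^ K) :=
            mul_le_mul_of_nonneg_left (by nlinarith) (by positivity)
          nlinarith
        calc 16 * ((M : ℤ) * (G : ℤ) ^ i) = (16 * M) * (G : ℤ) ^ i := by ring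
          _ ≤ (G : ℤ) * (G : ℤ) ^ i := mul_le_mul_of_nonneg_right h16 (by positivity)
          _ = (G : ℤ) ^ (i + 1) := by rw [pow_succ]; ring
      have hMGpos : (1 : ℤ) ≤ (M : ℤ) * (G : ℤ) ^ i := by nlinarith
      by_cases hk0 : k - k' - l = 0
      · rw [hk0, zero_mul, sub_zero, abs_mul, abs_of_nonneg hw0] at hsm
        nlinarith
      · have h1 : 1 ≤ |k - k' - l| := Int.one_le_abs hk0
        have h2 : (G : ℤ) ^ (i + 1) ≤ |(k - k' - l) * (G : ℤ) ^ (i + 1)| := by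
          rw [abs_mul, abs_of_nonneg (by positivity : (0 : ℤ) ≤ (G : ℤ) ^ (i + 1))]
          nlinarith [(by positivity : (0 : ℤ) ≤ (G : ℤ) ^ (i + 1))]
        have h3 : |(k - k' - l) * (G : ℤ) ^ (i + 1)| ≤
            |wj * De - (k - k' - l) * (G : ℤ) ^ (i + 1)| + |wj * De| := by
          have := abs_sub_abs_le_abs_sub ((k - k' - l) * (G : ℤ) ^ (i + 1)) (wj * De)
          rw [abs_sub_comm] at this
          linarith
        linarith
    -- counting
    let Pq : ℕ → Finset (ℕ × ℕ) := fun q => ((Finset.range K ×ˢ Finset.range K).filter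
      (fun ab => ab.1 ≠ ab.2 ∧ (q : ℤ) ∣ T + x ab.1 - x ab.2))
    let Pg : ℕ → Finset (ℕ × ℕ) := fun j => ((Finset.range K ×ˢ Finset.range K).filter
      (fun ab => ab.1 ≠ ab.2 ∧ ∃ k : ℤ,
        |T + x ab.1 - x ab.2 - Am j - k * (G : ℤ) ^ j| ≤ (M : ℤ) * (G : ℤ) ^ (j - 1)))
    have hsub : ((Finset.range K ×ˢ Finset.range K).filter
        (fun ab => ab.1 ≠ ab.2 ∧ BadT Ms M G m Am (T + x ab.1 - x ab.2))) ⊆
        (Ms.biUnion Pq) ∪ ((Finset.Icc 1 m).biUnion Pg) := by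
      intro ab hab
      obtain ⟨h1, h2, h3⟩ := Finset.mem_filter.1 hab
      rcases h3 with ⟨q, hqm, h3⟩ | ⟨j, hj1, hjm, h3⟩
      · exact Finset.mem_union_left _ (Finset.mem_biUnion.2 ⟨q, hqm, Finset.mem_filter.2 ⟨h1, h2, h3⟩⟩)
      · exact Finset.mem_union_right _ (Finset.mem_biUnion.2
          ⟨j, Finset.mem_Icc.2 ⟨hj1, hjm⟩, Finset.mem_filter.2 ⟨h1, h2, h3⟩⟩)
    have hPq : ∀ q ∈ Ms, (Pq q).card ≤ 1 := by
      intro q hqm
      refine card_le_one_of _ fun ab hab cd hcd => ?_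
      obtain ⟨h1, h2, h3⟩ := Finset.mem_filter.1 hab
      obtain ⟨h4, h5, h6⟩ := Finset.mem_filter.1 hcd
      obtain ⟨h1a, h1b⟩ := Finset.mem_product.1 h1
      obtain ⟨h4a, h4b⟩ := Finset.mem_product.1 h4
      obtain ⟨e1, e2⟩ := huq q hqm ab.1 ab.2 cd.1 cd.2 (Finset.mem_range.1 h1a)
        (Finset.mem_range.1 h1b) (Finset.mem_range.1 h4a) (Finset.mem_range.1 h4b) h2 h3 h6
      exact Prod.ext e1 e2
    have hPg : ∀ j ∈ Finset.Icc 1 m, (Pg j).card ≤ 1 := by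
      intro j hj
      obtain ⟨hj1, hjm⟩ := Finset.mem_Icc.1 hj
      refine card_le_one_of _ fun ab hab cd hcd => ?_
      obtain ⟨h1, h2, h3⟩ := Finset.mem_filter.1 hab
      obtain ⟨h4, h5, h6⟩ := Finset.mem_filter.1 hcd
      obtain ⟨h1a, h1b⟩ := Finset.mem_product.1 h1
      obtain ⟨h4a, h4b⟩ := Finset.mem_product.1 h4
      obtain ⟨e1, e2⟩ := hug j hj1 hjm ab.1 ab.2 cd.1 cd.2 (Finset.mem_range.1 h1a)
        (Finset.mem_range.1 h1b) (Finset.mem_range.1 h4a) (Finset.mem_range.1 h4b) h2 h3 h6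
      exact Prod.ext e1 e2
    calc _ ≤ ((Ms.biUnion Pq) ∪ ((Finset.Icc 1 m).biUnion Pg)).card := Finset.card_le_card hsub
      _ ≤ (Ms.biUnion Pq).card + ((Finset.Icc 1 m).biUnion Pg).card := Finset.card_union_le _ _
      _ ≤ Ms.card * 1 + (Finset.Icc 1 m).card * 1 :=
          Nat.add_le_add (Finset.card_biUnion_le_card_mul _ _ _ hPq)
            (Finset.card_biUnion_le_card_mul _ _ _ hPg)
      _ = Ms.card + m := by rw [Nat.card_Icc]; omega

end Crest.Agent.R320.SpoilGrid_567
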