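import Crest.Agent.R320.AsmC_957
import Crest.Agent.R320.FewVal_228
import Crest.Agent.R320.ExactT_580
import Crest.Agent.R320.GridUG_875
import Crest.Agent.R320.SpoilGrid_567
import Crest.Agent.R320.RegDep_10

/-!
# Row 320: the join (helper957)
-/

set_option autoImplicit false

namespace Crest.Agent.R320.Asm_957

open Crest.Agent.R320.Hk_851 Crest.Agent.R320.Star_621 Crest.Agent.R320.Two_621
open Crest.Agent.R320.FewWalls_228

variable {α : Type}

/-- the data from the parameters -/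
theorem data [Finite α] {S : Type} [Monoid S] [Finite S] (D : Par α S) (H : RegH D) {C0 Rr : ℕ}
    (hRr : 3 * C0 + 1 < Rr)
    (hsB : ∀ k < D.K, ∀ P Q y v b, P.length = D.c k → D.lamB k P = some v →
      D.rhoB k Q y = some b → b = act v (emb (D.ph (P ++ Q)) * y) + D.nuB (P ++ Q) y)
    (hcB : ∀ (u : List α) y v, (∀ k < D.K, D.c k ≤ u.length) → ∃ I : Finset ℕ, Rr ≤ I.card ∧
      ∀ k ∈ I, k < D.K ∧ D.lamB k (u.take (D.c k)) = some v ∧
        (D.rhoB k (u.drop (D.c k)) y).isSome)
    (hsep : ∀ i j k l, i < D.K → j < D.K → k < D.K → l < D.K → i ≠ j → k ≠ l →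
      ((D.c i : ℤ) - D.c j) - (D.c k - D.c l) ≤ 2 * D.N1 →
      ((D.c k : ℤ) - D.c l) - (D.c i - D.c j) ≤ 2 * D.N1 → i = k ∧ j = l)
    (hcount : ∀ (T : ℤ) (s : Finset (ℕ × ℕ)), (∀ p ∈ s, p.1 < D.K ∧ p.2 < D.K ∧ p.1 ≠ p.2 ∧
      0 ≤ T + D.c p.1 - D.c p.2 ∧ D.Bad (T + D.c p.1 - D.c p.2).toNat) → s.card ≤ C0) :
    Main_621.Data D.ph := by
  refine ⟨Z D, Zc D, dA D, LA D, RA D, dB D, LB D, RB D, ZZ.code _, fun z hz => hz.1,
    (HLZ H.hend _).mono (Nat.zero_le 1), ?_, soundA D, fun v => ?_, HLRA H, completeA D,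
    soundB D hsB, fun v => ?_, HLRB H, completeB D hRr hcB hsep hcount, HLRest H⟩
  · exact ((HLZ H.hend _).mono (Nat.zero_le 1)).setOf_and (HLcrit H (Nat.zero_le _))
  · exact HL.finite ((List.finite_length_le α (D.p0 + D.N1)).subset fun P hP => hP.2.1)
  · refine HL.finite ((List.finite_length_le α D.p0).subset ?_)
    rintro P ⟨k, hk, hP, -⟩
    show P.length ≤ D.p0
    rw [hP]; exact D.hc1 k hk

theorem badT_per {Ms : Finset ℕ} {M G m : ℕ} (hM : ∀ q ∈ Ms, q ∣ M) {T T' : ℤ} {e : ℤ}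
    (h : T' = T + e * (M * (G : ℤ) ^ m))
    (hT : SpoilGrid_567.BadT Ms M G m (fun _ => 0) T) :
    SpoilGrid_567.BadT Ms M G m (fun _ => 0) T' := by
  rcases hT with ⟨q, hq, hd⟩ | ⟨j, h1, h2, k, hk⟩
  · refine Or.inl ⟨q, hq, ?_⟩
    rw [h]
    refine dvd_add hd (Dvd.dvd.mul_left ?_ _)
    exact Dvd.dvd.mul_right (Int.natCast_dvd_natCast.2 (hM q hq)) _
  · refine Or.inr ⟨j, h1, h2, k + e * M * (G : ℤ) ^ (m - j), ?_⟩
    have e1 : (G : ℤ) ^ m = (G : ℤ) ^ (m - j) * (G : ℤ) ^ j := by
      rw [← pow_add]; congr 1; omega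
    have e2 : T' - 0 - (k + e * M * (G : ℤ) ^ (m - j)) * (G : ℤ) ^ j = T - 0 - k * (G : ℤ) ^ j := by
      rw [h, e1]; ring
    rw [e2]; exact hk

theorem reg_ph [Finite α] {S : Type} [Monoid S] [Finite S] (ph : List α → S) (h1 : ph [] = 1)
    (hm : ∀ a b, ph (a ++ b) = ph a * ph b) (s : S) :
    Language.IsRegular ({Q | ph Q = s} : Language α) :=
  RegDep_10.regular_fibre ph h1 hm 0 1 Nat.one_pos ph (fun u u' _ _ _ h _ => by simpa using h) s

theorem reg_bad [Finite α] {Ms : Finset ℕ} {M G m : ℕ} (hM : ∀ q ∈ Ms, q ∣ M)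
    (hpos : 0 < M * G ^ m) (p0 c : ℕ) :
    Language.IsRegular ({Q | p0 ≤ Q.length + c ∧
      SpoilGrid_567.BadT Ms M G m (fun _ => 0) ((Q.length + c - p0 : ℕ) : ℤ)} : Language α) := by
  refine RegDep_10.regular_of_dep' (S := Unit) (fun _ => ()) rfl (fun _ _ => rfl) p0
    (M * G ^ m) hpos _ ?_
  rintro u u' h1 h2 - - h3 ⟨h4, h5⟩
  refine ⟨by omega, ?_⟩
  obtain ⟨q1, e1⟩ : ∃ q, u.length = M * G ^ m * q + u'.length % (M * G ^ m) :=
    ⟨u.length / (M * G ^ m), by rw [← h3]; exact (Nat.div_add_mod _ _).symm⟩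
  obtain ⟨q2, e2⟩ : ∃ q, u'.length = M * G ^ m * q + u'.length % (M * G ^ m) :=
    ⟨u'.length / (M * G ^ m), (Nat.div_add_mod _ _).symm⟩
  have h6 : (u'.length : ℤ) = u.length + ((q2 : ℤ) - q1) * (M * (G : ℤ) ^ m) := by
    generalize u'.length % (M * G ^ m) = r at e1 e2
    have e1' : (u.length : ℤ) = M * (G : ℤ) ^ m * q1 + r := by rw [e1]; push_cast; ring
    have e2' : (u'.length : ℤ) = M * (G : ℤ) ^ m * q2 + r := by rw [e2]; push_cast; ring
    rw [e1', e2']; ring
  refine badT_per (e := ((q2 : ℤ) - q1)) hM ?_ h5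
  have c1 : ((u'.length + c - p0 : ℕ) : ℤ) = u'.length + c - p0 := by omega
  have c2 : ((u.length + c - p0 : ℕ) : ℤ) = u.length + c - p0 := by omega
  rw [c1, c2, h6]
  ring

/-- walls from 228 -/
def wr228 (n W : ℕ) (Sw : Set (List α))
    (hsep : ∀ (w : List α) (x y : ℕ), x < y → Wl n Sw w x → Wl n Sw w y → x + W ≤ y) : WR α where
  n := n
  G := W
  W := fun w t => n ≤ t ∧ Wl n Sw w (t - n)
  le := by
    rintro w t ⟨h1, h2, -⟩
    omega
  left := by
    intro p q t ht
    constructor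
    · rintro ⟨h1, h2, h3⟩
      refine ⟨h1, by omega, ?_⟩
      rw [List.drop_append_of_le_length (by omega),
        List.take_append_of_le_length (by rw [List.length_drop]; omega)] at h3
      exact h3
    · rintro ⟨h1, h2, h3⟩
      refine ⟨h1, by rw [List.length_append]; omega, ?_⟩
      rw [List.drop_append_of_le_length (by omega),
        List.take_append_of_le_length (by rw [List.length_drop]; omega)]
      exact h3
  right := by
    intro p q s hs
    have e : p.length + s - n = p.length + (s - n) := by omega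
    have e2 : (p ++ q).drop (p.length + (s - n)) = q.drop (s - n) :=
      List.drop_length_add_append (s - n)
    constructor
    · rintro ⟨h1, h2, h3⟩
      rw [e, e2] at h3
      rw [List.length_append] at h2
      exact ⟨hs, by omega, h3⟩
    · rintro ⟨h1, h2, h3⟩
      refine ⟨by omega, by rw [List.length_append]; omega, ?_⟩
      rw [e, e2]; exact h3
  sep := by
    rintro w t t' ⟨h1, h2⟩ ⟨h3, h4⟩ h
    have := hsep w (t - n) (t' - n) (by omega) h2 h4
    omega

theorem wr_end [Finite α] (n W : ℕ) (Sw : Set (List α)) (hsep) :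
    HL 0 ({w | (wr228 n W Sw hsep).W w w.length} : Language α) := by
  have h1 : HL 0 ({v | v.length ≤ n ∧ v.length = n ∧ v ∈ Sw} : Language α) :=
    HL.finite ((List.finite_length_le α n).subset fun v hv => hv.1)
  refine h1.suffix.congr fun w => ?_
  constructor
  · rintro ⟨h2, h3, h4⟩
    have hl : (w.drop (w.length - n)).length = n := by rw [List.length_drop]; omega
    rw [List.take_of_length_le (by omega)] at h4
    exact ⟨w.drop (w.length - n), ⟨by omega, hl, h4⟩, List.drop_suffix _ _⟩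
  · rintro ⟨v, ⟨-, hv, hS⟩, r, rfl⟩
    refine ⟨by rw [List.length_append]; omega, by rw [List.length_append]; omega, ?_⟩
    have e : (r ++ v).length - n = r.length := by rw [List.length_append]; omega
    rw [e, List.drop_left' rfl, List.take_of_length_le (by omega)]
    exact hS

theorem wr_few [Finite α] (n W : ℕ) (Sw : Set (List α)) (hsep)
    (hHL : ∀ (L : Language α), L.IsRegular → ∀ r, HL 1 ({w | w ∈ L ∧ nw n Sw w ≤ r} : Language α))
    (M : Language α) (hM : M.IsRegular) (B k : ℕ) (L : Language α) (hk : 1 ≤ k) (hL : HL k L)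
    (h3 : ∀ w ∈ L, ∀ a b c, B ≤ a → a < b → b < c → (wr228 n W Sw hsep).W w a →
      (wr228 n W Sw hsep).W w b → (wr228 n W Sw hsep).W w c → False) : HL k (L ⊓ M) := by
  classical
  have h1 : HL k ({w | w ∈ L ∧ (w ∈ M ∧ nw n Sw w ≤ B + 2)} : Language α) :=
    HL.setOf_and (p := fun w => w ∈ L) hL ((hHL M hM (B + 2)).mono hk)
  refine h1.congr fun w => ?_
  constructor
  · rintro ⟨hw, hwM⟩
    refine ⟨hw, hwM, ?_⟩
    set T : Finset ℕ := (Finset.range (w.length + 1)).filter (fun x => B ≤ x ∧ Wl n Sw w x) with hT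
    have key : ∀ a b c, a < b → b < c → a ∈ T → b ∈ T → c ∈ T → False := by
      intro a b c hab hbc ha hb hc
      have ha' := (Finset.mem_filter.1 ha).2
      have hb' := (Finset.mem_filter.1 hb).2
      have hc' := (Finset.mem_filter.1 hc).2
      refine h3 w hw (a + n) (b + n) (c + n) (by omega) (by omega) (by omega) ⟨by omega, ?_⟩
        ⟨by omega, ?_⟩ ⟨by omega, ?_⟩
      · rw [Nat.add_sub_cancel]; exact ha'.2
      · rw [Nat.add_sub_cancel]; exact hb'.2
      · rw [Nat.add_sub_cancel]; exact hc'.2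
    have hT2 : T.card ≤ 2 := by
      by_contra hc
      push Not at hc
      obtain ⟨a, ha, b, hb, c, hc, hab, hac, hbc⟩ := Finset.two_lt_card.1 hc
      rcases Nat.lt_or_gt_of_ne hab with h1 | h1 <;> rcases Nat.lt_or_gt_of_ne hac with h2 | h2 <;>
        rcases Nat.lt_or_gt_of_ne hbc with h4 | h4
      · exact key a b c h1 h4 ha hb hc
      · exact key a c b h2 h4 ha hc hb
      · omega
      · exact key c a b h2 h1 hc ha hb
      · exact key b a c h1 h2 hb ha hc
      · omega
      · exact key b c a h4 h2 hb hc ha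
      · exact key c b a h4 h1 hc hb ha
    have hsub : (Finset.range (w.length + 1)).filter (fun x => Wl n Sw w x) ⊆
        Finset.range B ∪ T := by
      intro x hx
      obtain ⟨hx1, hx2⟩ := Finset.mem_filter.1 hx
      by_cases hB : x < B
      · exact Finset.mem_union_left _ (Finset.mem_range.2 hB)
      · exact Finset.mem_union_right _ (Finset.mem_filter.2 ⟨hx1, by omega, hx2⟩)
    have hcard := (Finset.card_le_card hsub).trans (Finset.card_union_le _ _)
    rw [Finset.card_range] at hcard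
    have e : nw n Sw w = ((Finset.range (w.length + 1)).filter (fun x => Wl n Sw w x)).card := by
      unfold nw
      congr
    rw [e]; omega
  · rintro ⟨hw, hwM, -⟩
    exact ⟨hw, hwM⟩

end Crest.Agent.R320.Asm_957
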