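import Crest.Agent.R320.Gadget_355

set_option autoImplicit false

/-!
The exact gadget with names (row 320): a finite set of names; a name fixes the index of the hidden
block, what the left side has to see before it, what the right side has to see behind it, the left
label and the right label.  `beta` is an arbitrary function, so the monoid may act in any way.
-/

namespace Crest.Agent.R320.Exact_355

open Crest.Agent.R320.Gadget_355

/-- Names: index of the hidden block, left condition, right condition, left label, right label. -/
theorem exact_names (S V : Type*) [Monoid S] [AddCommGroup V] [Finite S] [Finite V]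
    (beta : V → S → V) :
    ∃ (m K : ℕ) (idx : Fin K → ℕ) (Lf Rt : Fin K → List S → Prop) (lab rlab : Fin K → V)
      (nu : List S → V),
      0 < m ∧ (∀ c, idx c < m) ∧
      (∀ (c : Fin K) (pre post : List S) (z : S), pre.length = idx c →
        (pre ++ z :: post).length = m → Lf c pre → Rt c post →
          rlab c = beta (lab c) (pre ++ z :: post).prod + nu (pre ++ z :: post)) ∧
      (∀ (u : List S) (v : V), u.length = m → ∃ (c : Fin K) (pre post : List S) (z : S),
        u = pre ++ z :: post ∧ pre.length = idx c ∧ Lf c pre ∧ Rt c post ∧ lab c = v) := by
  classical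
  obtain ⟨m, N, hN, L, R, nu, hs, hc⟩ := gadget (S := S) (V := V) beta
  haveI : NeZero N := ⟨hN.ne'⟩
  have hm : 0 < m := by
    rcases Nat.eq_zero_or_pos m with h | h
    · exfalso
      obtain ⟨pre, post, z, al, be, h1, h2, -⟩ := hc [] 0 (by simp [h])
      omega
    · exact h
  let Nm := Fin m × ZMod N × V × V
  haveI : Finite Nm := inferInstance
  let K := Nat.card Nm
  let E : Nm ≃ Fin K := Finite.equivFin Nm
  let lift : List S → List (S × ZMod N) := fun u => u.map (fun z => (z, (0 : ZMod N)))
  have hprd : ∀ u : List S, prd (lift u) = u.prod := by
    intro u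
    simp [prd, lift, Function.comp_def]
  refine ⟨m, K, fun c => ((E.symm c).1 : ℕ),
    fun c pre => L (lift pre) (E.symm c).2.1 = some (E.symm c).2.2.1,
    fun c post => R (-(E.symm c).2.1) (lift post) = some (E.symm c).2.2.2,
    fun c => (E.symm c).2.2.1, fun c => (E.symm c).2.2.2, fun u => nu (lift u), hm,
    fun c => (E.symm c).1.2, ?_, ?_⟩
  · intro c pre post z h1 h2 h3 h4
    have h5 := hs (lift pre) (lift post) z _ _ _ _ h3 h4
    rw [add_neg_cancel] at h5
    have h6 : lift pre ++ (z, (0 : ZMod N)) :: lift post = lift (pre ++ z :: post) := by
      simp [lift]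
    rw [h6, hprd] at h5
    exact h5
  · intro u v hu
    obtain ⟨pre, post, z, al, be, h1, h2, h3, h4⟩ := hc (lift u) v (by simp [lift, hu])
    obtain ⟨r, hr⟩ := Option.isSome_iff_exists.mp h4
    -- split `u`
    have hlen : pre.length < u.length := by omega
    have hpre : pre = lift (u.take pre.length) := by
      have := congrArg (List.take pre.length) h1
      rw [List.take_left'] at this
      · rw [this]; simp [lift, List.map_take]
      · rfl
    have hdrop : (z, al + be) :: post = lift (u.drop pre.length) := by
      have := congrArg (List.drop pre.length) h1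
      rw [List.drop_left'] at this
      · rw [this]; simp [lift, List.map_drop]
      · rfl
    have hud : u.drop pre.length = u[pre.length] :: u.drop (pre.length + 1) :=
      List.drop_eq_getElem_cons hlen
    rw [hud] at hdrop
    simp only [lift, List.map_cons, List.cons.injEq, Prod.mk.injEq] at hdrop
    obtain ⟨⟨hz, hab⟩, hpost⟩ := hdrop
    have hbe : be = -al := by
      rw [add_comm] at hab
      exact eq_neg_of_add_eq_zero_left hab
    refine ⟨E (⟨pre.length, h2⟩, al, v, r), u.take pre.length, u.drop (pre.length + 1),
      u[pre.length], ?_, ?_, ?_, ?_, ?_⟩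
    · rw [List.getElem_cons_drop, List.take_append_drop]
    · simp only [Equiv.symm_apply_apply]
      rw [List.length_take]; omega
    · simp only [Equiv.symm_apply_apply]
      rw [← hpre]; exact h3
    · simp only [Equiv.symm_apply_apply]
      rw [← hbe]
      show R be (List.map (fun z => (z, (0 : ZMod N))) (u.drop (pre.length + 1))) = some r
      rw [← hpost]; exact hr
    · simp

end Crest.Agent.R320.Exact_355
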