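import Crest.Agent.R320.Names_755
import Crest.Agent.R320.Exact_355

/-!
# Row 320: the zone gadget on all words (852's digits + CRT names), helper691
-/

set_option autoImplicit false

namespace Crest.Agent.R320.G1_691

/-- boundaries of the blocks -/
def bd (b m j n : ℕ) : ℕ := if j < m then n % b ^ j else n

/-- lengths at which the gadget is not complete -/
def Bad (b m M : ℕ) (Ms : Finset ℕ) (n : ℕ) : Prop :=
  (∃ k ∈ Ms, k ∣ n) ∨ ∃ j < m, (n / b ^ j) % b < M ∨ b ≤ (n / b ^ j) % b + M

theorem mod_left {b i j o o' : ℕ} (hj : j ≤ i) (h : b ^ i ∣ o') :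
    (o + o') % b ^ j = o % b ^ j := by
  obtain ⟨t, rfl⟩ := (pow_dvd_pow b hj).trans h
  exact Nat.add_mul_mod_self_left _ _ _

theorem nocarry {a c o y : ℕ} (hc : 0 < c) (h : o + y % a < a) : o + y % (a * c) < a * c := by
  rw [Nat.mod_mul]
  have h1 : y / a % c < c := Nat.mod_lt _ hc
  calc o + (y % a + a * (y / a % c)) = (o + y % a) + a * (y / a % c) := by ring
    _ < a + a * (y / a % c) := by omega
    _ = a * (y / a % c + 1) := by ring
    _ ≤ a * c := Nat.mul_le_mul_left _ h1

theorem first {b i M o o' : ℕ} (hb : 0 < b) (ho : o / b ^ i < M) (hd : b ^ i ∣ o')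
    (hr : o' / b ^ i % b + M < b) : o + o' % b ^ (i + 1) < b ^ (i + 1) := by
  have ha : 0 < b ^ i := pow_pos hb i
  rw [pow_succ, Nat.mod_mul, Nat.mod_eq_zero_of_dvd hd]
  have h1 : o < b ^ i * (o / b ^ i + 1) := Nat.lt_mul_div_succ o ha
  calc o + (0 + b ^ i * (o' / b ^ i % b)) < b ^ i * (o / b ^ i + 1) + b ^ i * (o' / b ^ i % b) := by
        omega
    _ = b ^ i * (o / b ^ i + 1 + o' / b ^ i % b) := by ring
    _ ≤ b ^ i * b := Nat.mul_le_mul_left _ (by omega)

theorem mod_right {b i j M o o' : ℕ} (hb : 0 < b) (ho : o / b ^ i < M) (hd : b ^ i ∣ o')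
    (hr : o' / b ^ i % b + M < b) (hj : i < j) : (o + o') % b ^ j = o + o' % b ^ j := by
  have h := nocarry (c := b ^ (j - i - 1)) (pow_pos hb _) (first hb ho hd hr)
  rw [← pow_add, show i + 1 + (j - i - 1) = j by omega] at h
  rw [← Nat.add_mod_mod, Nat.mod_eq_of_lt h]

section
variable {α S : Type*} [Monoid S] (f : α → S)

/-- value of a word -/
def ph (w : List α) : S := (w.map f).prod

theorem ph_append (u v : List α) : ph f (u ++ v) = ph f u * ph f v := by simp [ph]

theorem ph_nil : ph f [] = 1 := rfl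

/-- value of block `j` -/
def bt (b m j : ℕ) (u : List α) : S :=
  ph f ((u.take (bd b m (j + 1) u.length)).drop (bd b m j u.length))

/-- all block values -/
def tys (b m : ℕ) (u : List α) : List S := (List.range m).map fun j => bt f b m j u

/-- block values seen by the left side -/
def preL (b i : ℕ) (p : List α) : List S := (List.range i).map fun j =>
  ph f ((p.take (p.length % b ^ (j + 1))).drop (p.length % b ^ j))

/-- block values seen by the right side -/
def postR (b m i : ℕ) (q : List α) : List S := (List.range (m - 1 - i)).map fun j =>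
  bt f b m (i + 1 + j) q

theorem bd_mono (b m j n : ℕ) : bd b m j n ≤ bd b m (j + 1) n := by
  unfold bd
  split_ifs with h1 h2
  · rw [pow_succ, Nat.mod_mul]; omega
  · exact Nat.mod_le _ _
  · omega
  · exact le_rfl

theorem bd_le (b m j n : ℕ) : bd b m j n ≤ n := by
  unfold bd
  split_ifs
  · exact Nat.mod_le _ _
  · exact le_rfl

theorem tys_prod (b m : ℕ) (hm : 0 < m) (u : List α) : (tys f b m u).prod = ph f u := by
  have key : ∀ k, ((List.range k).map fun j => bt f b m j u).prod
      = ph f (u.take (bd b m k u.length)) := by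
    intro k
    induction k with
    | zero =>
      have : bd b m 0 u.length = 0 := by simp [bd, hm, Nat.mod_one]
      rw [this]
      simp [ph]
    | succ k ih =>
      rw [List.range_succ, List.map_append, List.prod_append, ih]
      simp only [List.map_cons, List.map_nil, List.prod_cons, List.prod_nil, mul_one]
      rw [bt, ← ph_append]
      congr 1
      have h1 := bd_mono b m k u.length
      conv_rhs => rw [← List.take_append_drop (bd b m k u.length)
        (u.take (bd b m (k + 1) u.length))]
      rw [List.take_take, min_eq_left h1]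
  rw [tys, key]
  have : bd b m m u.length = u.length := by simp [bd]
  rw [this, List.take_length]

theorem tys_split {b m i M : ℕ} {p q : List α} (hb : 0 < b) (him : i < m)
    (ho : p.length / b ^ i < M) (hd : b ^ i ∣ q.length)
    (hr : q.length / b ^ i % b + M < b) :
    tys f b m (p ++ q) = preL f b i p ++ bt f b m i (p ++ q) :: postR f b m i q := by
  have hsplit : List.range m = List.range i ++ i :: (List.range (m - 1 - i)).map (i + 1 + ·) := by
    conv_lhs => rw [show m = i + (1 + (m - 1 - i)) by omega]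
    rw [List.range_add, List.range_add]
    simp [List.map_map, Function.comp_def, Nat.add_assoc]
  unfold tys preL postR
  rw [hsplit, List.map_append, List.map_cons, List.map_map]
  congr 1
  · refine List.map_congr_left fun j hj => ?_
    rw [List.mem_range] at hj
    unfold bt bd
    rw [if_pos (by omega), if_pos (by omega), List.length_append,
      mod_left (show j + 1 ≤ i by omega) hd, mod_left (show j ≤ i by omega) hd]
    rw [List.take_append_of_le_length (Nat.mod_le _ _)]
  · congr 1
    refine List.map_congr_left fun j hj => ?_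
    rw [List.mem_range] at hj
    show bt f b m (i + 1 + j) (p ++ q) = bt f b m (i + 1 + j) q
    have hbd : ∀ k, i < k → bd b m k (p ++ q).length = p.length + bd b m k q.length := by
      intro k hk
      unfold bd
      rw [List.length_append]
      split_ifs
      · exact mod_right hb ho hd hr hk
      · rfl
    unfold bt
    rw [hbd _ (by omega), hbd _ (by omega), List.take_length_add_append,
      List.drop_length_add_append]

end

theorem exists_shift {M b i x t : ℕ} (hM : 0 < M) (hc : Nat.Coprime b M) :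
    ∃ y < M, x + b ^ i * y ≡ t [MOD M] := by
  have : NeZero M := ⟨hM.ne'⟩
  have hci : Nat.Coprime (b ^ i) M := Nat.Coprime.pow_left i hc
  refine ⟨(((t : ZMod M) - (x : ZMod M)) * ((ZMod.unitOfCoprime _ hci)⁻¹ : (ZMod M)ˣ)).val,
    ZMod.val_lt _, ?_⟩
  rw [← ZMod.natCast_eq_natCast_iff]
  push_cast
  rw [ZMod.natCast_zmod_val]
  have h1 : ((b : ZMod M) ^ i) * (((ZMod.unitOfCoprime _ hci)⁻¹ : (ZMod M)ˣ) : ZMod M) = 1 := by
    have := Units.mul_inv (ZMod.unitOfCoprime (b ^ i) hci)
    rw [ZMod.coe_unitOfCoprime] at this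
    push_cast at this
    exact this
  calc (x : ZMod M) + (b : ZMod M) ^ i *
      (((t : ZMod M) - (x : ZMod M)) * (((ZMod.unitOfCoprime _ hci)⁻¹ : (ZMod M)ˣ) : ZMod M))
      = x + (t - x) * ((b : ZMod M) ^ i *
        (((ZMod.unitOfCoprime _ hci)⁻¹ : (ZMod M)ˣ) : ZMod M)) := by ring
    _ = t := by rw [h1]; ring

theorem per_mod {β : Type*} {g : ℕ → β} {M : ℕ} (h : ∀ t, g (t + M) = g t) {s t : ℕ}
    (hst : s ≡ t [MOD M]) : g s = g t := by
  have hp : Function.Periodic g M := h
  rw [← hp.map_mod_nat s, ← hp.map_mod_nat t, show s % M = t % M from hst]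

section
variable {α S : Type*} [Monoid S] (f : α → S)

theorem bt_congr {b m j M : ℕ} (hb : 0 < b) (hj : j < m) {q q' : List α}
    (h1 : b ^ m ≤ q.length) (h2 : b ^ m ≤ q'.length) (h3 : q.take (b ^ m) = q'.take (b ^ m))
    (h4 : q.length ≡ q'.length [MOD M * b ^ m])
    (h5 : ph f (q.drop (b ^ m)) = ph f (q'.drop (b ^ m))) :
    bt f b m j q = bt f b m j q' := by
  have hmod : ∀ k, k ≤ m → q.length % b ^ k = q'.length % b ^ k := fun k hk =>
    (h4.of_dvd ((pow_dvd_pow b hk).trans (dvd_mul_left _ _)) : _)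
  have hle : ∀ k, k ≤ m → q'.length % b ^ k ≤ b ^ m := fun k hk =>
    ((Nat.mod_lt _ (pow_pos hb k)).le).trans (Nat.pow_le_pow_right hb hk)
  unfold bt bd
  rw [if_pos hj, if_pos hj, hmod j hj.le]
  by_cases hj' : j + 1 < m
  · rw [if_pos hj', if_pos hj', hmod (j + 1) hj'.le]
    have h6 : ∀ w : List α, w.take (q'.length % b ^ (j + 1))
        = (w.take (b ^ m)).take (q'.length % b ^ (j + 1)) := by
      intro w
      rw [List.take_take, min_eq_left (hle _ hj'.le)]
    rw [h6 q, h6 q', h3]
  · rw [if_neg hj', if_neg hj', List.take_length, List.take_length]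
    have h6 : ∀ w : List α, b ^ m ≤ w.length → ph f (w.drop (q'.length % b ^ j))
        = ph f ((w.take (b ^ m)).drop (q'.length % b ^ j)) * ph f (w.drop (b ^ m)) := by
      intro w hw
      rw [← ph_append]
      congr 1
      conv_lhs => rw [← List.take_append_drop (b ^ m) w]
      rw [List.drop_append_of_le_length]
      rw [List.length_take, min_eq_left hw]
      exact hle _ hj.le
    rw [h6 q h1, h6 q' h2, h3, h5]

end

universe u

/-- **the zone gadget on all words** -/
theorem gadget (S V : Type) [Monoid S] [Finite S] [AddCommGroup V] [Finite V]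
    (act : V → S → V) :
    ∃ (m r : ℕ), 0 < m ∧ ∀ B : ℕ, ∃ (Ms : Finset ℕ) (M : ℕ), Ms.card ≤ r ∧
      (∀ k ∈ Ms, B < k ∧ Nat.Prime k ∧ k ∣ M) ∧ 0 < M ∧
      ∀ b : ℕ, Nat.Coprime b M → M ≤ b → ∀ (α : Type u) (f : α → S),
        ∃ (lam rho : List α → Option V) (nu : List α → V),
          (∀ p v, lam p = some v → p.length < b ^ m) ∧
          (∀ p q v v', lam p = some v → rho q = some v' →
            v' = act v (ph f (p ++ q)) + nu (p ++ q)) ∧
          (∀ u, ¬ Bad b m M Ms u.length → ∀ v, ∃ p q, p ++ q = u ∧ lam p = some v ∧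
            (rho q).isSome) ∧
          (∀ q q', b ^ m ≤ q.length → b ^ m ≤ q'.length → q.take (b ^ m) = q'.take (b ^ m) →
            q.length ≡ q'.length [MOD M * b ^ m] →
            ph f (q.drop (b ^ m)) = ph f (q'.drop (b ^ m)) → rho q = rho q' ∧ nu q = nu q') := by
  classical
  obtain ⟨m, K, idx, Lf, Rt, lab, rlab, nu0, hm, hidx, hsound, hcomp⟩ :=
    Exact_355.exact_names S V act
  obtain ⟨r, hr⟩ := Crest.Agent.R320.Names755.names (Fin K) (V × V) (fun c => (lab c, rlab c))
  refine ⟨m, r, hm, fun B => ?_⟩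
  obtain ⟨Ms, M, nmL, nmR, hcard, hMs, hM, perL, perR, hsame, hex, hcol⟩ := hr B
  refine ⟨Ms, M, hcard, hMs, hM, fun b hcop hMb α f => ?_⟩
  have hb : 0 < b := lt_of_lt_of_le hM hMb
  -- colours are determined by the residue
  have colM : ∀ t₁ t₁' t₂ t₂' c₁ c₁' c₂ c₂', nmL t₁ = some c₁ → nmR t₁' = some c₁' →
      nmL t₂ = some c₂ → nmR t₂' = some c₂' → t₁ + t₁' ≡ t₂ + t₂' [MOD M] →
      (∃ k ∈ Ms, k ∣ t₁ + t₁') → lab c₁ = lab c₂ ∧ rlab c₁' = rlab c₂' := by
    intro t₁ t₁' t₂ t₂' c₁ c₁' c₂ c₂' a1 a2 a3 a4 h ⟨k, hk, hkd⟩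
    rcases le_total (t₁ + t₁') (t₂ + t₂') with hle | hle
    · obtain ⟨x, hx⟩ := (Nat.modEq_iff_dvd' hle).1 h
      have hsum : t₁ + (t₁' + M * x) = t₂ + t₂' := by omega
      have hnm : nmR (t₁' + M * x) = some c₁' := by
        rw [per_mod perR (show t₁' + M * x ≡ t₁' [MOD M] from Nat.add_mul_mod_self_left _ _ _)]
        exact a2
      have := hcol t₁ (t₁' + M * x) t₂ t₂' c₁ c₁' c₂ c₂' a1 hnm a3 a4 hsum
        ⟨k, hk, by
          rw [← add_assoc]
          exact dvd_add hkd ((hMs k hk).2.2.trans (dvd_mul_right _ _))⟩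
      simp only [Prod.mk.injEq] at this
      exact ⟨this.1.1, this.2.2⟩
    · obtain ⟨x, hx⟩ := (Nat.modEq_iff_dvd' hle).1 h.symm
      have hsum : t₁ + t₁' = t₂ + (t₂' + M * x) := by omega
      have hnm : nmR (t₂' + M * x) = some c₂' := by
        rw [per_mod perR (show t₂' + M * x ≡ t₂' [MOD M] from Nat.add_mul_mod_self_left _ _ _)]
        exact a4
      have := hcol t₁ t₁' t₂ (t₂' + M * x) c₁ c₁' c₂ c₂' a1 a2 a3 hnm hsum ⟨k, hk, hkd⟩
      simp only [Prod.mk.injEq] at this
      exact ⟨this.1.1, this.2.2⟩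
  let Pr : ℕ → V × V → Prop := fun x vb => ∃ c c' t t', (t + t' ≡ x [MOD M]) ∧ nmL t = some c ∧
    nmR t' = some c' ∧ vb = (lab c, rlab c')
  let pick : ℕ → V × V := fun x => if h : ∃ vb, Pr x vb then h.choose else 0
  have hpick : ∀ n t t' c c', t + t' = n → (∃ k ∈ Ms, k ∣ n) → nmL t = some c →
      nmR t' = some c' → pick (n % M) = (lab c, rlab c') := by
    intro n t t' c c' hn hk h1 h2
    have h : ∃ vb, Pr (n % M) vb := ⟨(lab c, rlab c'), c, c', t, t', by
      rw [hn]; exact (Nat.mod_modEq _ _).symm, h1, h2, rfl⟩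
    have hp : pick (n % M) = h.choose := dif_pos h
    obtain ⟨c0, c0', s, s', hs, e1, e2, e3⟩ := h.choose_spec
    rw [hp, e3]
    have := colM t t' s s' c c' c0 c0' h1 h2 e1 e2 (by
      rw [hn]; exact ((hs.trans (Nat.mod_modEq _ _)).symm)) (by rw [hn]; exact hk)
    rw [this.1, this.2]
  refine ⟨fun p => (nmL p.length).bind fun c =>
      if p.length / b ^ idx c < M ∧ Lf c (preL f b (idx c) p) then some (lab c) else none,
    fun q => (nmR q.length).bind fun c =>
      if b ^ idx c ∣ q.length ∧ q.length / b ^ idx c % b + M < b ∧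
        Rt c (postR f b m (idx c) q) then some (rlab c) else none,
    fun u => if ∃ k ∈ Ms, k ∣ u.length then
      (pick (u.length % M)).2 - act (pick (u.length % M)).1 (ph f u) else nu0 (tys f b m u),
    ?_, ?_, ?_, ?_⟩
  · intro p v hp
    obtain ⟨c, h1, h2⟩ := Option.bind_eq_some_iff.1 hp
    split_ifs at h2 with h3
    have h4 : p.length < b ^ idx c * (p.length / b ^ idx c + 1) :=
      Nat.lt_mul_div_succ _ (pow_pos hb _)
    calc p.length < b ^ idx c * (p.length / b ^ idx c + 1) := h4
      _ ≤ b ^ idx c * b := Nat.mul_le_mul_left _ (by omega)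
      _ = b ^ (idx c + 1) := (pow_succ _ _).symm
      _ ≤ b ^ m := Nat.pow_le_pow_right hb (hidx c)
  · intro p q v v' hp hq
    obtain ⟨c, h1, h2⟩ := Option.bind_eq_some_iff.1 hp
    obtain ⟨c', h1', h2'⟩ := Option.bind_eq_some_iff.1 hq
    split_ifs at h2 with h3
    split_ifs at h2' with h3'
    simp only [Option.some.injEq] at h2 h2'
    subst h2 h2'
    have hlen : (p ++ q).length = p.length + q.length := List.length_append
    by_cases hk : ∃ k ∈ Ms, k ∣ (p ++ q).length
    · simp only [if_pos hk]
      rw [hpick _ _ _ _ _ hlen.symm hk h1 h1']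
      simp
    · simp only [if_neg hk]
      have hcc : c = c' := hsame _ _ _ _ h1 h1' (by
        intro k hk1 hk2
        exact hk ⟨k, hk1, by rw [hlen]; exact hk2⟩)
      subst hcc
      have h5 := tys_split f hb (hidx c) h3.1 h3'.1 h3'.2.1
      have h6 := hsound c (preL f b (idx c) p) (postR f b m (idx c) q)
        (bt f b m (idx c) (p ++ q)) (by simp [preL]) (by rw [← h5]; simp [tys]) h3.2 h3'.2.2
      rw [← h5, tys_prod f b m hm] at h6
      exact h6
  · intro u hu v
    have hnk : ∀ k ∈ Ms, ¬ k ∣ u.length := fun k hk hd => hu (Or.inl ⟨k, hk, hd⟩)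
    obtain ⟨c, pre, post, z, e1, e2, e3, e4, e5⟩ := hcomp (tys f b m u) v (by simp [tys])
    set n := u.length with hn
    set i := idx c with hi
    have him : i < m := hidx c
    have hdig : M ≤ n / b ^ i % b ∧ n / b ^ i % b + M < b := by
      by_contra hcon
      exact hu (Or.inr ⟨i, him, by omega⟩)
    obtain ⟨t, ht, ht1, ht2⟩ := hex n hnk c
    obtain ⟨y, hy, hyt⟩ := exists_shift (b := b) (i := i) (x := n % b ^ i) (t := t) hM hcop
    have hbi : 0 < b ^ i := pow_pos hb i
    have hq1 : n / b ^ i % b ≤ n / b ^ i := Nat.mod_le _ _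
    have hdm := Nat.mod_add_div n (b ^ i)
    have hyle : y ≤ n / b ^ i := by omega
    have ho : n % b ^ i + b ^ i * y ≤ n := by
      have := Nat.mul_le_mul_left (b ^ i) hyle
      omega
    have ho' : n - (n % b ^ i + b ^ i * y) = b ^ i * (n / b ^ i - y) := by
      rw [Nat.mul_sub]; omega
    have hod : (n % b ^ i + b ^ i * y) / b ^ i = y := by
      rw [Nat.add_mul_div_left _ _ hbi, Nat.div_eq_of_lt (Nat.mod_lt _ hbi), zero_add]
    have hqd : (b ^ i * (n / b ^ i - y)) / b ^ i = n / b ^ i - y := Nat.mul_div_cancel_left _ hbi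
    have hqm : (n / b ^ i - y) % b = n / b ^ i % b - y := by
      have h7 := Nat.mod_add_div (n / b ^ i) b
      have h8 : n / b ^ i - y = (n / b ^ i % b - y) + b * (n / b ^ i / b) := by omega
      rw [h8, Nat.add_mul_mod_self_left, Nat.mod_eq_of_lt (by omega)]
    set o := n % b ^ i + b ^ i * y with hodef
    have hpl : (u.take o).length = o := by rw [List.length_take, min_eq_left ho]
    have hql : (u.drop o).length = b ^ i * (n / b ^ i - y) := by rw [List.length_drop, ← hn, ho']
    have hsp := tys_split f (M := M) (p := u.take o) (q := u.drop o) hb him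
      (by rw [hpl, hod]; exact hy) (by rw [hql]; exact dvd_mul_right _ _)
      (by rw [hql, hqd, hqm]; omega)
    rw [List.take_append_drop, e1] at hsp
    have hinj := List.append_inj hsp (by rw [e2]; simp [preL])
    have hpre : preL f b i (u.take o) = pre := hinj.1.symm
    have hpost : postR f b m i (u.drop o) = post := (List.cons.inj hinj.2).2.symm
    refine ⟨u.take o, u.drop o, List.take_append_drop _ _, ?_, ?_⟩
    · have hnm : nmL (u.take o).length = some c := by
        rw [hpl, per_mod perL hyt]; exact ht1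
      refine Option.bind_eq_some_iff.2 ⟨c, hnm, ?_⟩
      rw [if_pos ⟨by rw [hpl, hod]; exact hy, by rw [hpre]; exact e3⟩, e5]
    · have hnm : nmR (u.drop o).length = some c := by
        refine ht2 _ ?_
        have h9 : o + (u.drop o).length = n := by rw [hql, ← ho']; omega
        calc t + (u.drop o).length ≡ o + (u.drop o).length [MOD M] := Nat.ModEq.add_right _ hyt.symm
          _ = n := h9
      simp only [hnm, Option.bind_some]
      rw [if_pos ⟨by rw [hql]; exact dvd_mul_right _ _, by rw [hql, hqd, hqm]; omega,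
        by rw [hpost]; exact e4⟩]
      rfl
  · intro q q' h1 h2 h3 h4 h5
    have hbt : ∀ j, j < m → bt f b m j q = bt f b m j q' := fun j hj =>
      bt_congr f hb hj h1 h2 h3 h4 h5
    have hM4 : q.length ≡ q'.length [MOD M] := h4.of_dvd (dvd_mul_right _ _)
    have hmod : ∀ k, k ≤ m → q.length ≡ q'.length [MOD b ^ k] := fun k hk =>
      h4.of_dvd ((pow_dvd_pow b hk).trans (dvd_mul_left _ _))
    have hphi : ph f q = ph f q' := by
      rw [← List.take_append_drop (b ^ m) q, ← List.take_append_drop (b ^ m) q', ph_append,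
        ph_append, h3, h5]
    have htys : tys f b m q = tys f b m q' :=
      List.map_congr_left fun j hj => hbt j (List.mem_range.1 hj)
    have hpo : ∀ i, i < m → postR f b m i q = postR f b m i q' := by
      intro i hi
      refine List.map_congr_left fun j hj => hbt _ ?_
      rw [List.mem_range] at hj
      omega
    constructor
    · simp only
      rw [per_mod perR hM4]
      congr 1
      funext c
      have e1 : b ^ idx c ∣ q.length ↔ b ^ idx c ∣ q'.length :=
        (hmod _ (hidx c).le).dvd_iff dvd_rfl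
      have e2 : q.length / b ^ idx c % b = q'.length / b ^ idx c % b := by
        rw [← Nat.mod_mul_right_div_self, ← Nat.mod_mul_right_div_self, ← pow_succ,
          show q.length % b ^ (idx c + 1) = q'.length % b ^ (idx c + 1) from hmod _ (hidx c)]
      rw [e2, hpo _ (hidx c)]
      simp only [e1]
    · have e1 : (∃ k ∈ Ms, k ∣ q.length) ↔ ∃ k ∈ Ms, k ∣ q'.length := by
        refine exists_congr fun k => and_congr_right fun hk => ?_
        exact (hM4.of_dvd (hMs k hk).2.2).dvd_iff dvd_rfl
      simp only [e1, htys, hphi, show q.length % M = q'.length % M from hM4]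

end Crest.Agent.R320.G1_691
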