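import Mathlib

/-!
# Row 320: the ruler for the digit gadget `g1` (spoil leaf)

`Bad Ms M m b n`: some modulus of `Ms` divides `n`, or some digit `j < m` of `n` in base `b` is
within `M` of a carry.  The ruler `c l = 2 ^ l * K0`, `K0 = 1 mod M`,
`K0 = 4 M (1 + b + ... + b^(m-1)) mod b^m`, spoils at most one pair for each condition.
-/

set_option autoImplicit false

namespace Crest.Agent.R320.Sp_945

open Finset

/-- bad lengths -/
def Bad (Ms : Finset ℕ) (M m b n : ℕ) : Prop :=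
  (∃ k ∈ Ms, k ∣ n) ∨ ∃ j < m, ¬ (M ≤ n / b ^ j % b ∧ n / b ^ j % b + M + 1 ≤ b)

/-- the combination `2^j - 2^i - 2^j' + 2^i'` -/
def ee (i j i' j' : ℕ) : ℤ := (2 : ℤ) ^ j - 2 ^ i - 2 ^ j' + 2 ^ i'

lemma pow_aux {a b c d : ℕ} (h : 2 ^ a + 2 ^ b = 2 ^ c + 2 ^ d) (hab : a ≤ b) (hcd : c ≤ d) :
    a = c ∧ b = d := by
  -- wlog via cases on equality
  have key : ∀ a b c d : ℕ, a ≤ b → c ≤ d → a < c → 2 ^ a + 2 ^ b = 2 ^ c + 2 ^ d →
      a = b ∧ c = d ∧ False ∨ a = b ∧ False ∨ False := by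
    intro a b c d hab hcd hac h
    exfalso
    obtain ⟨x, rfl⟩ := Nat.exists_eq_add_of_le hab
    obtain ⟨y, rfl⟩ := Nat.exists_eq_add_of_lt hac
    obtain ⟨z, rfl⟩ := Nat.exists_eq_add_of_le hcd
    have h1 : 2 ^ a * (1 + 2 ^ x) = 2 ^ a * (2 ^ (y + 1) + 2 ^ (y + 1 + z)) := by
      have e1 : 2 ^ (a + x) = 2 ^ a * 2 ^ x := pow_add _ _ _
      have e2 : 2 ^ (a + y + 1) = 2 ^ a * 2 ^ (y + 1) := by rw [add_assoc, pow_add]
      have e3 : 2 ^ (a + y + 1 + z) = 2 ^ a * 2 ^ (y + 1 + z) := by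
        rw [show a + y + 1 + z = a + (y + 1 + z) by ring, pow_add]
      rw [e1, e2, e3] at h
      linarith
    have h2 : 1 + 2 ^ x = 2 ^ (y + 1) + 2 ^ (y + 1 + z) :=
      Nat.eq_of_mul_eq_mul_left (by positivity) h1
    have hp : 2 ^ (y + 1) = 2 * 2 ^ y := by ring
    have hq : 2 ^ (y + 1 + z) = 2 * 2 ^ (y + z) := by
      rw [show y + 1 + z = (y + z) + 1 by ring]; ring
    rcases Nat.eq_zero_or_pos x with rfl | hx
    · have : 0 < 2 ^ y := by positivity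
      have : 0 < 2 ^ (y + z) := by positivity
      rw [hp, hq] at h2
      omega
    · obtain ⟨w, rfl⟩ : ∃ w, x = w + 1 := ⟨x - 1, by omega⟩
      have hw : 2 ^ (w + 1) = 2 * 2 ^ w := by ring
      rw [hp, hq, hw] at h2
      omega
  rcases lt_trichotomy a c with h1 | h1 | h1
  · rcases key a b c d hab hcd h1 h with h | h | h <;> tauto
  · subst h1
    refine ⟨rfl, ?_⟩
    have : 2 ^ b = 2 ^ d := by omega
    exact Nat.pow_right_injective le_rfl this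
  · rcases key c d a b hcd hab h1 h.symm with h | h | h <;> tauto

lemma ee_eq_zero {i j i' j' : ℕ} (hij : i ≠ j) (hij' : i' ≠ j') (h : ee i j i' j' = 0) :
    i = i' ∧ j = j' := by
  have h1 : 2 ^ j + 2 ^ i' = 2 ^ j' + 2 ^ i := by
    unfold ee at h
    have : ((2 ^ j + 2 ^ i' : ℕ) : ℤ) = ((2 ^ j' + 2 ^ i : ℕ) : ℤ) := by push_cast; linarith
    exact_mod_cast this
  rcases le_total j i' with h2 | h2 <;> rcases le_total j' i with h3 | h3
  · obtain ⟨h4, h5⟩ := pow_aux h1 h2 h3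
    exact ⟨h5.symm, h4⟩
  · rw [add_comm (2 ^ j')] at h1
    obtain ⟨h4, h5⟩ := pow_aux h1 h2 h3
    exact absurd h4.symm hij
  · rw [add_comm (2 ^ j)] at h1
    obtain ⟨h4, h5⟩ := pow_aux h1 h2 h3
    exact absurd h4 hij'
  · rw [add_comm (2 ^ j), add_comm (2 ^ j')] at h1
    obtain ⟨h4, h5⟩ := pow_aux h1 h2 h3
    exact ⟨h4.symm, h5⟩

lemma ee_abs {K i j i' j' : ℕ} (hi : i < K) (hj : j < K) (hi' : i' < K) (hj' : j' < K) :
    |ee i j i' j'| < 2 ^ (K + 1) := by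
  have hp : ∀ x, x < K → (2 : ℤ) ^ x < 2 ^ K := fun x hx => by
    exact_mod_cast Nat.pow_lt_pow_right (by norm_num : 1 < 2) hx
  have hq : ∀ x, (0 : ℤ) < 2 ^ x := fun x => by positivity
  unfold ee
  rw [abs_lt, pow_succ]
  have := hp i hi; have := hp j hj; have := hp i' hi'; have := hp j' hj'
  have := hq i; have := hq j; have := hq i'; have := hq j'
  constructor <;> linarith

/-- bad digit as a congruence -/
lemma digit_bad {M b j n : ℕ} (hb : 2 * M < b) (h : ¬ (M ≤ n / b ^ j % b ∧ n / b ^ j % b + M + 1 ≤ b)) :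
    ∃ y : ℤ, -(M * b ^ j : ℤ) ≤ y ∧ y < M * b ^ j ∧ (b ^ (j + 1) : ℤ) ∣ n - y := by
  have hb0 : 0 < b := by omega
  have hbj : 0 < b ^ j := by positivity
  have e1 : n % b ^ (j + 1) = n % b ^ j + b ^ j * (n / b ^ j % b) := by
    rw [pow_succ, Nat.mod_mul]
  have h2 : n % b ^ j < b ^ j := Nat.mod_lt _ hbj
  have hd : n / b ^ j % b < b := Nat.mod_lt _ hb0
  set d := n / b ^ j % b with hdd
  have hdvd : (b ^ (j + 1) : ℤ) ∣ n - (n % b ^ (j + 1) : ℕ) := by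
    have : ((n : ℤ) - (n % b ^ (j + 1) : ℕ)) = ((b ^ (j + 1) : ℕ) : ℤ) * ((n / b ^ (j + 1) : ℕ) : ℤ) := by
      have := Nat.div_add_mod n (b ^ (j + 1))
      have h3 : ((b ^ (j + 1) * (n / b ^ (j + 1)) + n % b ^ (j + 1) : ℕ) : ℤ) = (n : ℤ) := by
        rw [this]
      push_cast at h3 ⊢
      linarith
    rw [this]
    push_cast
    exact Dvd.intro _ rfl
  rcases Nat.lt_or_ge d M with h3 | h3
  · refine ⟨((n % b ^ (j + 1) : ℕ) : ℤ), ?_, ?_, hdvd⟩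
    · have : (0 : ℤ) ≤ ((n % b ^ (j + 1) : ℕ) : ℤ) := by positivity
      have : (0 : ℤ) ≤ (M * b ^ j : ℤ) := by positivity
      linarith
    · have : n % b ^ (j + 1) < M * b ^ j := by
        rw [e1]
        calc n % b ^ j + b ^ j * d < b ^ j + b ^ j * d := by omega
          _ = b ^ j * (d + 1) := by ring
          _ ≤ b ^ j * M := Nat.mul_le_mul_left _ h3
          _ = M * b ^ j := by ring
      exact_mod_cast this
  · have h4 : b ≤ d + M := by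
      by_contra hc
      exact h ⟨h3, by omega⟩
    refine ⟨((n % b ^ (j + 1) : ℕ) : ℤ) - (b ^ (j + 1) : ℕ), ?_, ?_, ?_⟩
    · have : b ^ (j + 1) ≤ n % b ^ (j + 1) + M * b ^ j := by
        rw [e1, pow_succ]
        calc b ^ j * b ≤ b ^ j * (d + M) := Nat.mul_le_mul_left _ h4
          _ = b ^ j * d + M * b ^ j := by ring
          _ ≤ _ := Nat.add_le_add_right (Nat.le_add_left _ _) _
      have h5 : ((b ^ (j + 1) : ℕ) : ℤ) ≤ ((n % b ^ (j + 1) + M * b ^ j : ℕ) : ℤ) := by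
        exact_mod_cast this
      push_cast at h5 ⊢
      linarith
    · have h5 : n % b ^ (j + 1) < b ^ (j + 1) := Nat.mod_lt _ (by positivity)
      have h6 : ((n % b ^ (j + 1) : ℕ) : ℤ) < ((b ^ (j + 1) : ℕ) : ℤ) := by exact_mod_cast h5
      have h7 : (0 : ℤ) ≤ (M * b ^ j : ℤ) := by positivity
      linarith
    · have e : ((n : ℤ) - (((n % b ^ (j + 1) : ℕ) : ℤ) - (b ^ (j + 1) : ℕ)))
          = ((n : ℤ) - ((n % b ^ (j + 1) : ℕ) : ℤ)) + (b : ℤ) ^ (j + 1) := by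
        push_cast; ring
      rw [e]
      exact dvd_add hdvd dvd_rfl

/-- geometric sum -/
def gs (b : ℕ) : ℕ → ℕ
  | 0 => 0
  | j + 1 => gs b j + b ^ j

lemma gs_le {b : ℕ} (hb : 2 ≤ b) (j : ℕ) : gs b j ≤ b ^ j := by
  induction j with
  | zero => simp [gs]
  | succ j ih =>
    rw [gs, pow_succ]
    calc gs b j + b ^ j ≤ b ^ j + b ^ j := by omega
      _ = b ^ j * 2 := by ring
      _ ≤ b ^ j * b := Nat.mul_le_mul_left _ hb

lemma gs_mod {b : ℕ} (j i : ℕ) : gs b (j + i) ≡ gs b j [MOD b ^ j] := by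
  induction i with
  | zero => exact Nat.ModEq.refl _
  | succ i ih =>
    rw [← add_assoc, gs]
    have h : b ^ (j + i) ≡ 0 [MOD b ^ j] := by
      rw [pow_add]
      exact (Nat.modEq_zero_iff_dvd.2 (Dvd.intro _ rfl))
    simpa using ih.add h

lemma gs_mod' {b j m : ℕ} (h : j ≤ m) : gs b m ≡ gs b j [MOD b ^ j] := by
  obtain ⟨i, rfl⟩ := Nat.exists_eq_add_of_le h
  exact gs_mod j i

lemma mod_case {K k i j i' j' : ℕ} {K0 : ℤ} (hi : i < K) (hj : j < K) (hi' : i' < K)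
    (hj' : j' < K) (hij : i ≠ j) (hij' : i' ≠ j') (hk : 2 ^ (K + 1) ≤ k) (h1 : (k : ℤ) ∣ K0 - 1)
    (h2 : (k : ℤ) ∣ K0 * ee i j i' j') : i = i' ∧ j = j' := by
  have h3 : (k : ℤ) ∣ ee i j i' j' := by
    have e : ee i j i' j' = K0 * ee i j i' j' - (K0 - 1) * ee i j i' j' := by ring
    rw [e]
    exact dvd_sub h2 (Dvd.dvd.mul_right h1 _)
  refine ee_eq_zero hij hij' (Int.eq_zero_of_abs_lt_dvd h3 ?_)
  have h4 := ee_abs hi hj hi' hj'
  have h5 : ((2 : ℤ) ^ (K + 1)) ≤ k := by exact_mod_cast hk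
  linarith

lemma digit_case {K M b l i j i' j' : ℕ} {K0 y y' : ℤ} (hi : i < K) (hj : j < K) (hi' : i' < K)
    (hj' : j' < K) (hij : i ≠ j) (hij' : i' ≠ j') (hM : 0 < M) (hb : 2 ^ (K + 6) * M < b)
    (h1 : (b ^ (l + 1) : ℤ) ∣ K0 - 4 * M * gs b (l + 1))
    (h2 : (b ^ (l + 1) : ℤ) ∣ K0 * ee i j i' j' - (y - y'))
    (hy1 : -(M * b ^ l : ℤ) ≤ y) (hy2 : y < M * b ^ l)
    (hy1' : -(M * b ^ l : ℤ) ≤ y') (hy2' : y' < M * b ^ l) : i = i' ∧ j = j' := by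
  have hK : 2 ≤ 2 ^ (K + 6) * M := by
    have : 2 ^ 1 ≤ 2 ^ (K + 6) := Nat.pow_le_pow_right (by norm_num) (by omega)
    calc 2 = 2 ^ 1 * 1 := by norm_num
      _ ≤ 2 ^ (K + 6) * M := Nat.mul_le_mul this hM
  have hb2 : 2 ≤ b := by omega
  have hbl : (0 : ℤ) < (b : ℤ) ^ l := by
    have : 0 < b ^ l := by positivity
    exact_mod_cast this
  have hg1 : gs b (l + 1) ≤ 2 * b ^ l := by
    have := gs_le hb2 l
    rw [gs]; omega
  have hg2 : b ^ l ≤ gs b (l + 1) := by rw [gs]; omega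
  have hg1' : ((gs b (l + 1) : ℕ) : ℤ) ≤ 2 * (b : ℤ) ^ l := by exact_mod_cast hg1
  have hg2' : (b : ℤ) ^ l ≤ ((gs b (l + 1) : ℕ) : ℤ) := by exact_mod_cast hg2
  have hMZ : (1 : ℤ) ≤ M := by exact_mod_cast hM
  set e := ee i j i' j' with he
  set κ : ℤ := 4 * M * gs b (l + 1) with hκ
  have hκ1 : 4 * (M * (b : ℤ) ^ l) ≤ κ := by
    rw [hκ]
    calc 4 * ((M : ℤ) * (b : ℤ) ^ l) = 4 * M * (b : ℤ) ^ l := by ring
      _ ≤ 4 * M * (gs b (l + 1) : ℕ) := mul_le_mul_of_nonneg_left hg2' (by positivity)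
  have hκ2 : κ ≤ 8 * (M * (b : ℤ) ^ l) := by
    rw [hκ]
    calc (4 : ℤ) * M * (gs b (l + 1) : ℕ) ≤ 4 * M * (2 * (b : ℤ) ^ l) :=
          mul_le_mul_of_nonneg_left hg1' (by positivity)
      _ = _ := by ring
  have hX : (0 : ℤ) < M * (b : ℤ) ^ l := by positivity
  set X : ℤ := M * (b : ℤ) ^ l with hXdef
  have h3 : (b ^ (l + 1) : ℤ) ∣ κ * e - (y - y') := by
    have e1 : κ * e - (y - y') = (K0 * e - (y - y')) - (K0 - κ) * e := by ring
    rw [e1]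
    exact dvd_sub h2 (Dvd.dvd.mul_right h1 _)
  have he1 := ee_abs hi hj hi' hj'
  rw [← he] at he1
  have hbb : 2 ^ (K + 6) * X < (b : ℤ) ^ (l + 1) := by
    have h : ((2 ^ (K + 6) * M : ℕ) : ℤ) < (b : ℤ) := by exact_mod_cast hb
    push_cast at h
    calc 2 ^ (K + 6) * X = (2 ^ (K + 6) * M) * (b : ℤ) ^ l := by rw [hXdef]; ring
      _ < b * (b : ℤ) ^ l := mul_lt_mul_of_pos_right h hbl
      _ = _ := by ring
  have hκe : |κ * e| ≤ 8 * X * 2 ^ (K + 1) := by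
    rw [abs_mul, abs_of_nonneg (by linarith)]
    exact mul_le_mul hκ2 he1.le (abs_nonneg _) (by positivity)
  have hyy : |y - y'| < 2 * X := by
    rw [abs_lt]; constructor <;> linarith
  have hlt : |κ * e - (y - y')| < (b : ℤ) ^ (l + 1) := by
    calc |κ * e - (y - y')| ≤ |κ * e| + |y - y'| := abs_sub _ _
      _ < 8 * X * 2 ^ (K + 1) + 2 * X := by linarith
      _ ≤ 2 ^ (K + 6) * X := by
        have h6 : (2 : ℤ) ^ (K + 6) = 32 * 2 ^ (K + 1) := by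
          rw [show K + 6 = (K + 1) + 5 by ring, pow_add]; norm_num; ring
        have h7 : (1 : ℤ) ≤ 2 ^ (K + 1) := one_le_pow₀ (by norm_num)
        rw [h6]
        nlinarith
      _ < _ := hbb
  have hz : κ * e - (y - y') = 0 := Int.eq_zero_of_abs_lt_dvd h3 hlt
  refine ee_eq_zero hij hij' ?_
  rw [← he]
  by_contra hne
  have h8 : 1 ≤ |e| := Int.one_le_abs hne
  have h9 : κ ≤ |κ * e| := by
    rw [abs_mul, abs_of_nonneg (by linarith : (0 : ℤ) ≤ κ)]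
    nlinarith
  have h10 : κ * e = y - y' := by linarith
  rw [h10] at h9
  linarith

open Classical in
/-- the ruler -/
theorem ruler (K m M : ℕ) (Ms : Finset ℕ) (hM : 0 < M)
    (hMs : ∀ k ∈ Ms, 2 ^ (K + 1) ≤ k ∧ k ∣ M) (b : ℕ) (hb : 2 ^ (K + 6) * M < b)
    (hcop : Nat.Coprime b M) (N : ℕ) :
    ∃ c : ℕ → ℕ, (∀ i j, i < j → c i + N < c j) ∧ (∀ i, N < c i) ∧
      (∀ i j i' j', i ≠ j → i' ≠ j' → (i, j) ≠ (i', j') →
        (N : ℤ) < |((c j : ℤ) - c i) - ((c j' : ℤ) - c i')|) ∧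
      ∀ T : ℤ, ((range K ×ˢ range K).filter (fun q => q.1 ≠ q.2 ∧
        ∃ n : ℕ, (n : ℤ) = T + c q.2 - c q.1 ∧ Bad Ms M m b n)).card ≤ Ms.card + m := by
  classical
  have hcop' : Nat.Coprime (b ^ m) M := Nat.Coprime.pow_left m hcop
  obtain ⟨u, hu1, hu2⟩ := Nat.chineseRemainder hcop' (4 * M * gs b m) 1
  have hb0 : 0 < b := by omega
  have hbm : 0 < b ^ m := by positivity
  set K0 : ℕ := u + b ^ m * M * (N + 1) with hK0
  have hK1 : K0 ≡ 4 * M * gs b m [MOD b ^ m] := by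
    have : b ^ m * M * (N + 1) ≡ 0 [MOD b ^ m] :=
      Nat.modEq_zero_iff_dvd.2 ⟨M * (N + 1), by ring⟩
    simpa using hu1.add this
  have hK2 : K0 ≡ 1 [MOD M] := by
    have : b ^ m * M * (N + 1) ≡ 0 [MOD M] :=
      Nat.modEq_zero_iff_dvd.2 ⟨b ^ m * (N + 1), by ring⟩
    simpa using hu2.add this
  have hK3 : N < K0 := by
    have h1 : 1 ≤ b ^ m * M := Nat.mul_pos hbm hM
    have : 1 * (N + 1) ≤ b ^ m * M * (N + 1) := Nat.mul_le_mul_right _ h1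
    omega
  have hcz : ∀ i j i' j' : ℕ, (((2 ^ j * K0 : ℕ) : ℤ) - ((2 ^ i * K0 : ℕ) : ℤ))
      - (((2 ^ j' * K0 : ℕ) : ℤ) - ((2 ^ i' * K0 : ℕ) : ℤ)) = K0 * ee i j i' j' := by
    intro i j i' j'
    unfold ee
    push_cast
    ring
  refine ⟨fun l => 2 ^ l * K0, ?_, ?_, ?_, ?_⟩
  · intro i j hij
    have h1 : 2 ^ (i + 1) ≤ 2 ^ j := Nat.pow_le_pow_right (by norm_num) hij
    have h2 : 2 ^ (i + 1) * K0 ≤ 2 ^ j * K0 := Nat.mul_le_mul_right _ h1
    have h3 : 2 ^ (i + 1) * K0 = 2 ^ i * K0 + 2 ^ i * K0 := by ring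
    have h4 : 1 * K0 ≤ 2 ^ i * K0 := Nat.mul_le_mul_right _ Nat.one_le_two_pow
    show 2 ^ i * K0 + N < 2 ^ j * K0
    omega
  · intro i
    have h4 : 1 * K0 ≤ 2 ^ i * K0 := Nat.mul_le_mul_right _ Nat.one_le_two_pow
    show N < 2 ^ i * K0
    omega
  · intro i j i' j' hij hij' hne
    show (N : ℤ) < |(((2 ^ j * K0 : ℕ) : ℤ) - ((2 ^ i * K0 : ℕ) : ℤ))
      - (((2 ^ j' * K0 : ℕ) : ℤ) - ((2 ^ i' * K0 : ℕ) : ℤ))|
    rw [hcz, abs_mul]
    have h1 : ee i j i' j' ≠ 0 := fun h => hne (by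
      obtain ⟨h2, h3⟩ := ee_eq_zero hij hij' h
      rw [h2, h3])
    have h2 : 1 ≤ |ee i j i' j'| := Int.one_le_abs h1
    have h3 : |(K0 : ℤ)| = K0 := abs_of_nonneg (by positivity)
    have h4 : (N : ℤ) < K0 := by exact_mod_cast hK3
    rw [h3]
    nlinarith
  · intro T
    let F : ℕ → Finset (ℕ × ℕ) := fun k => (range K ×ˢ range K).filter (fun q => q.1 ≠ q.2 ∧
        ∃ n : ℕ, (n : ℤ) = T + ((2 ^ q.2 * K0 : ℕ) : ℤ) - ((2 ^ q.1 * K0 : ℕ) : ℤ) ∧ k ∣ n)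
    let G : ℕ → Finset (ℕ × ℕ) := fun l => (range K ×ˢ range K).filter (fun q => q.1 ≠ q.2 ∧
        ∃ n : ℕ, (n : ℤ) = T + ((2 ^ q.2 * K0 : ℕ) : ℤ) - ((2 ^ q.1 * K0 : ℕ) : ℤ) ∧
          ¬ (M ≤ n / b ^ l % b ∧ n / b ^ l % b + M + 1 ≤ b))
    have hsub : ((range K ×ˢ range K).filter (fun q => q.1 ≠ q.2 ∧
        ∃ n : ℕ, (n : ℤ) = T + ((2 ^ q.2 * K0 : ℕ) : ℤ) - ((2 ^ q.1 * K0 : ℕ) : ℤ) ∧
          Bad Ms M m b n)) ⊆ (Ms.biUnion F) ∪ ((range m).biUnion G) := by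
      intro q hq
      obtain ⟨hq1, hq2, n, hn, hB⟩ := Finset.mem_filter.1 hq
      rw [Finset.mem_union, Finset.mem_biUnion, Finset.mem_biUnion]
      rcases hB with ⟨k, hk, hkn⟩ | ⟨l, hl, hln⟩
      · exact Or.inl ⟨k, hk, Finset.mem_filter.2 ⟨hq1, hq2, n, hn, hkn⟩⟩
      · exact Or.inr ⟨l, Finset.mem_range.2 hl, Finset.mem_filter.2 ⟨hq1, hq2, n, hn, hln⟩⟩
    have hF : ∀ k ∈ Ms, (F k).card ≤ 1 := by
      intro k hk
      refine Finset.card_le_one.2 ?_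
      rintro ⟨i, j⟩ hq ⟨i', j'⟩ hq'
      obtain ⟨hq1, hq2, n, hn, hB⟩ := Finset.mem_filter.1 hq
      obtain ⟨hq1', hq2', n', hn', hB'⟩ := Finset.mem_filter.1 hq'
      rw [Finset.mem_product, Finset.mem_range, Finset.mem_range] at hq1 hq1'
      have hd : (k : ℤ) ∣ K0 * ee i j i' j' := by
        rw [← hcz]
        have e : (((2 ^ j * K0 : ℕ) : ℤ) - ((2 ^ i * K0 : ℕ) : ℤ))
            - (((2 ^ j' * K0 : ℕ) : ℤ) - ((2 ^ i' * K0 : ℕ) : ℤ)) = (n : ℤ) - n' := by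
          rw [hn, hn']; ring
        rw [e]
        exact dvd_sub (Int.natCast_dvd_natCast.2 hB) (Int.natCast_dvd_natCast.2 hB')
      have h1 : (k : ℤ) ∣ (K0 : ℤ) - 1 := by
        have h2 : K0 ≡ 1 [MOD k] := hK2.of_dvd (hMs k hk).2
        have := (Nat.modEq_iff_dvd.1 h2.symm)
        simpa using this
      obtain ⟨h2, h3⟩ := mod_case hq1.1 hq1.2 hq1'.1 hq1'.2 hq2 hq2' (hMs k hk).1 h1 hd
      exact Prod.ext h2 h3
    have hG : ∀ l ∈ range m, (G l).card ≤ 1 := by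
      intro l hl
      refine Finset.card_le_one.2 ?_
      rintro ⟨i, j⟩ hq ⟨i', j'⟩ hq'
      obtain ⟨hq1, hq2, n, hn, hB⟩ := Finset.mem_filter.1 hq
      obtain ⟨hq1', hq2', n', hn', hB'⟩ := Finset.mem_filter.1 hq'
      rw [Finset.mem_product, Finset.mem_range, Finset.mem_range] at hq1 hq1'
      have hlm : l + 1 ≤ m := Finset.mem_range.1 hl
      have h2M : 2 * M < b := by
        have : 2 ^ 1 ≤ 2 ^ (K + 6) := Nat.pow_le_pow_right (by norm_num) (by omega)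
        have h := Nat.mul_le_mul_right M this
        omega
      obtain ⟨y, hy1, hy2, hy3⟩ := digit_bad h2M hB
      obtain ⟨y', hy1', hy2', hy3'⟩ := digit_bad h2M hB'
      have hd : ((b : ℤ) ^ (l + 1)) ∣ K0 * ee i j i' j' - (y - y') := by
        rw [← hcz]
        have e : (((2 ^ j * K0 : ℕ) : ℤ) - ((2 ^ i * K0 : ℕ) : ℤ))
            - (((2 ^ j' * K0 : ℕ) : ℤ) - ((2 ^ i' * K0 : ℕ) : ℤ)) - (y - y')
            = ((n : ℤ) - y) - (n' - y') := by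
          rw [hn, hn']; ring
        rw [e]
        exact dvd_sub hy3 hy3'
      have h1 : ((b : ℤ) ^ (l + 1)) ∣ (K0 : ℤ) - 4 * M * gs b (l + 1) := by
        have h2 : K0 ≡ 4 * M * gs b (l + 1) [MOD b ^ (l + 1)] :=
          (hK1.of_dvd (pow_dvd_pow b hlm)).trans ((gs_mod' hlm).mul_left _)
        have := (Nat.modEq_iff_dvd.1 h2.symm)
        push_cast at this
        exact this
      obtain ⟨h2, h3⟩ := digit_case hq1.1 hq1.2 hq1'.1 hq1'.2 hq2 hq2' hM hb h1 hd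
        hy1 hy2 hy1' hy2'
      exact Prod.ext h2 h3
    calc _ ≤ ((Ms.biUnion F) ∪ ((range m).biUnion G)).card := Finset.card_le_card hsub
      _ ≤ (Ms.biUnion F).card + ((range m).biUnion G).card := Finset.card_union_le _ _
      _ ≤ Ms.card * 1 + (range m).card * 1 :=
        Nat.add_le_add (Finset.card_biUnion_le_card_mul _ _ _ hF)
          (Finset.card_biUnion_le_card_mul _ _ _ hG)
      _ = Ms.card + m := by simp

open Classical in
/-- natural number form -/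
theorem spoil (K m M : ℕ) (Ms : Finset ℕ) (hM : 0 < M)
    (hMs : ∀ k ∈ Ms, 2 ^ (K + 1) ≤ k ∧ k ∣ M) (b : ℕ) (hb : 2 ^ (K + 6) * M < b)
    (hcop : Nat.Coprime b M) (N : ℕ) :
    ∃ c : ℕ → ℕ, (∀ i j, i < j → c i < c j) ∧ (∀ i j, i < j → c i + N < c j) ∧ (∀ i, N < c i) ∧
      (∀ i j k l, i ≠ j → k ≠ l → (i, j) ≠ (k, l) →
        c i + c l + N < c k + c j ∨ c k + c j + N < c i + c l) ∧
      ∀ T : ℕ, (∀ a < K, c a ≤ T) → ((range K ×ˢ range K).filter (fun q => q.1 ≠ q.2 ∧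
        Bad Ms M m b (T + c q.2 - c q.1))).card ≤ Ms.card + m := by
  classical
  obtain ⟨c, h1, h2, h3, h4⟩ := ruler K m M Ms hM hMs b hb hcop N
  refine ⟨c, fun i j h => by have := h1 i j h; omega, h1, h2, ?_, ?_⟩
  · intro i j k l hij hkl hne
    have := h3 i j k l hij hkl hne
    rcases lt_abs.1 this with h | h
    · left; omega
    · right; omega
  · intro T hT
    refine le_trans (Finset.card_le_card ?_) (h4 T)
    intro q hq
    obtain ⟨hq1, hq2, hq3⟩ := Finset.mem_filter.1 hq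
    refine Finset.mem_filter.2 ⟨hq1, hq2, T + c q.2 - c q.1, ?_, hq3⟩
    rw [Finset.mem_product, Finset.mem_range, Finset.mem_range] at hq1
    have := hT q.1 hq1.1
    omega

end Crest.Agent.R320.Sp_945
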