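import Crest.Agent.R320.AsmD_886
import Crest.Agent.R320.G1_691
import Crest.Agent.R320.Sp_945
import Crest.Agent.R320.P4N_211
import Crest.Agent.R320.WallU_228
import Crest.Agent.R320.Block_467

/-!
# Row 320, helper886: constants and join (all words, natural chain rule)
-/

set_option autoImplicit false

namespace Crest.Agent.R320.AsmE_886

open Crest.Agent.R320.Hk_851 Crest.Agent.R320.Code110 Crest.Agent.R320.AsmC_886
  Crest.Agent.R320.AsmD_886

open Classical in
/-- contexts of the places -/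
noncomputable def ctx (c : ℕ → ℕ) (K k R : ℕ) (hk : 0 < k) (y : ℕ) : Option (ℕ × Fin k) :=
  if h : ∃ a, a < K ∧ c a = y then
    some (h.choose / (k * R), ⟨h.choose / R % k, Nat.mod_lt _ hk⟩) else none

/-- borders -/
def bor (c : ℕ → ℕ) (p0 m k R : ℕ) (i : ℕ) : ℕ :=
  if i = 0 then 0 else if m ≤ i then p0 else c (i * (k * R))

theorem ctx_c {c : ℕ → ℕ} (hc : ∀ i j, i < j → c i < c j) {K k R : ℕ} (hk : 0 < k) {a : ℕ}
    (ha : a < K) : ctx c K k R hk (c a) = some (a / (k * R), ⟨a / R % k, Nat.mod_lt _ hk⟩) := by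
  classical
  have h : ∃ a', a' < K ∧ c a' = c a := ⟨a, ha, rfl⟩
  have h2 : h.choose = a := by
    have h3 := h.choose_spec.2
    rcases Nat.lt_trichotomy h.choose a with h4 | h4 | h4
    · have := hc _ _ h4; omega
    · exact h4
    · have := hc _ _ h4; omega
  unfold ctx
  rw [dif_pos h]
  simp only [h2]

theorem c_mono {c : ℕ → ℕ} (hc : ∀ i j, i < j → c i < c j) {i j : ℕ} (h : i ≤ j) : c i ≤ c j := by
  rcases h.eq_or_lt with h | h
  · rw [h]
  · exact (hc _ _ h).le

theorem bor_mono {c : ℕ → ℕ} (hc : ∀ i j, i < j → c i < c j) {p0 m k R : ℕ}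
    (hp : ∀ a < m * (k * R), c a ≤ p0) (hkR : 0 < k * R) : Monotone (bor c p0 m k R) := by
  refine monotone_nat_of_le_succ fun i => ?_
  unfold bor
  by_cases h0 : i = 0
  · simp [h0]
  · rw [if_neg h0, if_neg (Nat.succ_ne_zero i)]
    by_cases h1 : m ≤ i
    · rw [if_pos h1, if_pos (by omega)]
    · rw [if_neg h1]
      by_cases h2 : m ≤ i + 1
      · rw [if_pos h2]
        exact hp _ (Nat.mul_lt_mul_of_pos_right (by omega) hkR)
      · rw [if_neg h2]
        exact c_mono hc (Nat.mul_le_mul_right _ (Nat.le_succ i))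

theorem ctx_bor {c : ℕ → ℕ} (hc : ∀ i j, i < j → c i < c j) {p0 m k R : ℕ} (hk : 0 < k)
    (hR : 0 < R) (hp : ∀ a < m * (k * R), c a ≤ p0) (x i : ℕ) (cc : Fin k)
    (h : ctx c (m * (k * R)) k R hk x = some (i, cc)) :
    i < m ∧ bor c p0 m k R i ≤ x ∧ x ≤ bor c p0 m k R (i + 1) := by
  classical
  have hkR : 0 < k * R := Nat.mul_pos hk hR
  have hex : ∃ a, a < m * (k * R) ∧ c a = x := by
    by_contra hno
    unfold ctx at h
    rw [dif_neg hno] at h
    exact absurd h (by simp)
  obtain ⟨a, ha, rfl⟩ := hex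
  rw [ctx_c hc hk ha, Option.some.injEq, Prod.mk.injEq] at h
  obtain ⟨hi, -⟩ := h
  have hi1 : i < m := by
    rw [← hi]
    exact Nat.div_lt_of_lt_mul (by rw [Nat.mul_comm]; exact ha)
  have hi2 : i * (k * R) ≤ a := by rw [← hi]; exact Nat.div_mul_le_self _ _
  have hi3 : a < (i + 1) * (k * R) := by
    rw [← hi]
    have h5 := Nat.div_add_mod a (k * R)
    have h6 := Nat.mod_lt a hkR
    have h7 : (a / (k * R) + 1) * (k * R) = k * R * (a / (k * R)) + k * R := by ring
    omega
  refine ⟨hi1, ?_, ?_⟩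
  · unfold bor
    by_cases h0 : i = 0
    · simp [h0]
    · rw [if_neg h0, if_neg (by omega)]
      exact c_mono hc hi2
  · unfold bor
    rw [if_neg (Nat.succ_ne_zero i)]
    by_cases h2 : m ≤ i + 1
    · rw [if_pos h2]
      exact hp a ha
    · rw [if_neg h2]
      exact c_mono hc hi3.le

open Classical in
/-- an unspoiled available place -/
theorem avail {c : ℕ → ℕ} (hc : ∀ i j, i < j → c i < c j) {m k R C1 : ℕ} (hk : 0 < k)
    (hR : C1 < R) (P : ℕ → ℕ → Prop)
    (hP : ((Finset.range (m * (k * R)) ×ˢ Finset.range (m * (k * R))).filter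
      (fun ij : ℕ × ℕ => ij.1 ≠ ij.2 ∧ P ij.1 ij.2)).card ≤ C1)
    (Av : ℕ → Prop) {i : ℕ} (hi : i < m) (cc : Fin k)
    (hAv : ∀ x, ctx c (m * (k * R)) k R hk x = some (i, cc) → Av x) :
    ∃ a < m * (k * R), Av (c a) ∧ ∀ b < m * (k * R), b ≠ a → ¬ P a b := by
  set K := m * (k * R) with hK
  let A : ℕ → ℕ := fun j => (i * k + cc.1) * R + j
  have hAlt : ∀ j < R, A j < K := by
    intro j hj
    have h1 : i * k + cc.1 + 1 ≤ m * k := by
      have h2 : (i + 1) * k ≤ m * k := Nat.mul_le_mul_right _ hi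
      have h3 := cc.2
      have h4 : (i + 1) * k = i * k + k := by ring
      omega
    have h5 : (i * k + cc.1 + 1) * R ≤ m * k * R := Nat.mul_le_mul_right _ h1
    have h6 : (i * k + cc.1 + 1) * R = (i * k + cc.1) * R + R := by ring
    have h7 : m * k * R = K := by rw [hK]; ring
    show (i * k + cc.1) * R + j < K
    omega
  have hR0 : 0 < R := by omega
  have hAc : ∀ j < R, ctx c K k R hk (c (A j)) = some (i, cc) := by
    intro j hj
    rw [ctx_c hc hk (hAlt j hj)]
    have e1 : A j / R = i * k + cc.1 := by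
      show ((i * k + cc.1) * R + j) / R = i * k + cc.1
      rw [Nat.add_comm, Nat.add_mul_div_right _ _ hR0, Nat.div_eq_of_lt hj, Nat.zero_add]
    have e2 : A j / (k * R) = i := by
      rw [Nat.mul_comm k R, ← Nat.div_div_eq_div_mul, e1, Nat.add_comm,
        Nat.add_mul_div_right _ _ hk, Nat.div_eq_of_lt cc.2, Nat.zero_add]
    have e3 : A j / R % k = cc.1 := by
      rw [e1, Nat.add_comm, Nat.add_mul_mod_self_right, Nat.mod_eq_of_lt cc.2]
    rw [Option.some.injEq, Prod.mk.injEq]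
    exact ⟨e2, Fin.ext e3⟩
  by_contra hno
  push Not at hno
  have hb : ∀ j, ∃ b, j < R → (b < K ∧ b ≠ A j ∧ P (A j) b) := by
    intro j
    by_cases hj : j < R
    · obtain ⟨b, h1, h2, h3⟩ := hno (A j) (hAlt j hj) (hAv _ (hAc j hj))
      exact ⟨b, fun _ => ⟨h1, h2, h3⟩⟩
    · exact ⟨0, fun h => (hj h).elim⟩
  choose g hg using hb
  have hcard : (Finset.range R).card ≤ ((Finset.range K ×ˢ Finset.range K).filter
      (fun ij : ℕ × ℕ => ij.1 ≠ ij.2 ∧ P ij.1 ij.2)).card := by
    refine Finset.card_le_card_of_injOn (fun j => (A j, g j)) ?_ ?_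
    · intro j hj
      have hj' : j < R := Finset.mem_range.1 hj
      obtain ⟨h1, h2, h3⟩ := hg j hj'
      rw [Finset.mem_coe, Finset.mem_filter, Finset.mem_product, Finset.mem_range,
        Finset.mem_range]
      exact ⟨⟨hAlt j hj', h1⟩, fun h => h2 h.symm, h3⟩
    · intro j hj j' hj' h
      simp only [Prod.mk.injEq] at h
      have h1 : (i * k + cc.1) * R + j = (i * k + cc.1) * R + j' := h.1
      omega
  rw [Finset.card_range] at hcard
  omega

/-- periodicity of the bad lengths -/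
theorem bad_per {b m M : ℕ} {Ms : Finset ℕ} (hMs : ∀ k ∈ Ms, k ∣ M) (hb : 0 < b) {n n' : ℕ}
    (h : n % (M * b ^ m) = n' % (M * b ^ m)) :
    G1_691.Bad b m M Ms n → G1_691.Bad b m M Ms n' := by
  have h0 : n ≡ n' [MOD M * b ^ m] := h
  rintro (⟨k, hk, hd⟩ | ⟨j, hj, hd⟩)
  · left
    refine ⟨k, hk, ?_⟩
    have h1 : n ≡ n' [MOD k] := h0.of_dvd ((hMs k hk).trans (Dvd.intro _ rfl))
    exact (h1.dvd_iff (dvd_refl k)).1 hd
  · right
    refine ⟨j, hj, ?_⟩
    have h1 : n ≡ n' [MOD b ^ (j + 1)] :=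
      h0.of_dvd ((pow_dvd_pow b hj).trans (Dvd.intro_left _ rfl))
    have h2 : n / b ^ j % b = n' / b ^ j % b := by
      have e : ∀ x : ℕ, x / b ^ j % b = x % b ^ (j + 1) / b ^ j := by
        intro x
        rw [pow_succ, Nat.mod_mul_right_div_self]
      rw [e, e]
      have h3 : n % b ^ (j + 1) = n' % b ^ (j + 1) := h1
      rw [h3]
    rw [← h2]
    exact hd

/-! ### The height one facts -/

section heights

variable {α : Type} [Finite α] {S V : Type} [Monoid S] [Finite S] {Wo : List α → Prop}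
  {z n R B : ℕ} {φ : List α → S}

theorem take_eq_of_le {K t : ℕ} {X X' : List α} (h : X.take K = X'.take K) (ht : t ≤ K) :
    X.take t = X'.take t := by
  have := congrArg (List.take t) h
  rwa [List.take_take, List.take_take, min_eq_left ht] at this

theorem len_iff {K t : ℕ} {X X' : List α} (h : X.take K = X'.take K) (ht : t ≤ K) :
    t ≤ X.length ↔ t ≤ X'.length := by
  have := congrArg List.length (take_eq_of_le h ht)
  rw [List.length_take, List.length_take] at this
  omega

theorem H1 (hφ : ∀ u v, φ (u ++ v) = φ u * φ v)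
    (loc : ∀ P Q : List α, n ≤ Q.length → (Wo (P ++ Q) ↔ Wo Q))
    (len : ∀ P : List α, Wo P → n ≤ P.length)
    (pcs : ∀ u : List α, (∀ t < u.length, ¬ Wo (u.take t)) → CompR_11.Pieces R B u) :
    HL 1 (XX Wo z) :=
  (P4N_211.hXT' hφ loc len pcs (fun _ => ()) 0 1 0 one_pos (fun _ _ _ _ _ => rfl) ()).congr
    fun _ => ⟨fun h => ⟨h, rfl⟩, fun h => h.1⟩

theorem H2 (hφ : ∀ u v, φ (u ++ v) = φ u * φ v)
    (loc : ∀ P Q : List α, n ≤ Q.length → (Wo (P ++ Q) ↔ Wo Q))
    (len : ∀ P : List α, Wo P → n ≤ P.length)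
    (pcs : ∀ u : List α, (∀ t < u.length, ¬ Wo (u.take t)) → CompR_11.Pieces R B u)
    {D p0 M : ℕ} (hM : 0 < M) (hp : p0 ≤ z) {BadT : ℕ → Prop}
    (hper : ∀ n n', n % M = n' % M → BadT n → BadT n') :
    HL 1 (BB Wo z D p0 BadT) := by
  have key : ∀ X X' : List α, X.take (z + D) = X'.take (z + D) → X.length % M = X'.length % M →
      (z ≤ X.length ∧ (EB Wo z D X ∨ BadT (X.length - p0))) →
      (z ≤ X'.length ∧ (EB Wo z D X' ∨ BadT (X'.length - p0))) := by
    rintro X X' h1 h2 ⟨h3, h4⟩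
    have h3' := (len_iff h1 (Nat.le_add_right z D)).1 h3
    refine ⟨h3', ?_⟩
    rcases h4 with ⟨t, ht, hw, ha, hb⟩ | h4
    · left
      refine ⟨t, (len_iff h1 hb).1 ht, ?_, ha, hb⟩
      rw [← take_eq_of_le h1 hb]
      exact hw
    · right
      refine hper _ _ ?_ h4
      have h5 : X.length ≡ X'.length [MOD M] := h2
      have h6 : (X.length - p0) + p0 ≡ (X'.length - p0) + p0 [MOD M] := by
        rw [Nat.sub_add_cancel (hp.trans h3), Nat.sub_add_cancel (hp.trans h3')]
        exact h5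
      exact Nat.ModEq.add_right_cancel' p0 h6
  refine (P4N_211.hXT' (R := R) (B := B) (z := z) (n := n) hφ loc len pcs
    (fun X => (z ≤ X.length ∧ (EB Wo z D X ∨ BadT (X.length - p0)) : Prop)) (z + D) M 0 hM
    (fun X X' h1 h2 _ => propext ⟨key X X' h1 h2, key X' X h1.symm h2.symm⟩) True).congr
    fun X => ?_
  constructor
  · rintro ⟨h1, h2⟩
    exact ⟨h1, eq_true ⟨h1.1, h2⟩⟩
  · rintro ⟨h1, h2⟩
    exact ⟨h1, (of_eq_true h2).2⟩

theorem H3 [AddCommGroup V] (hφ : ∀ u v, φ (u ++ v) = φ u * φ v)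
    (loc : ∀ P Q : List α, n ≤ Q.length → (Wo (P ++ Q) ↔ Wo Q))
    (len : ∀ P : List α, Wo P → n ≤ P.length)
    (pcs : ∀ u : List α, (∀ t < u.length, ¬ Wo (u.take t)) → CompR_11.Pieces R B u)
    (act : V → S → V) (nu2 nu : List α → V)
    {La p0 M : ℕ} (hM : 0 < M) (hp : p0 + La ≤ z)
    (hnu : ∀ q q' : List α, La ≤ q.length → La ≤ q'.length → q.take La = q'.take La →
      q.length % M = q'.length % M → φ (q.drop La) = φ (q'.drop La) → nu q = nu q') (x y : V) :
    HL 1 (ZT (XX Wo z) (AsmC_886.TT φ act nu2 nu p0) x y) := by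
  classical
  have key : ∀ X X' : List α, X.take z = X'.take z → X.length % M = X'.length % M →
      φ (X.drop (p0 + La)) = φ (X'.drop (p0 + La)) →
      (if z ≤ X.length then AsmC_886.TT φ act nu2 nu p0 X x else 0) =
      (if z ≤ X'.length then AsmC_886.TT φ act nu2 nu p0 X' x else 0) := by
    intro X X' h1 h2 h3
    by_cases hl : z ≤ X.length
    · have hl' := (len_iff h1 le_rfl).1 hl
      rw [if_pos hl, if_pos hl']
      have e1 : X.take p0 = X'.take p0 := take_eq_of_le h1 (by omega)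
      have e2 : (X.drop p0).take La = (X'.drop p0).take La := by
        have := congrArg (List.drop p0) (take_eq_of_le h1 hp)
        rw [List.drop_take, List.drop_take] at this
        have e : p0 + La - p0 = La := by omega
        rwa [e] at this
      have e3 : φ ((X.drop p0).drop La) = φ ((X'.drop p0).drop La) := by
        rw [List.drop_drop, List.drop_drop]
        exact h3
      have e4 : (X.drop p0).length % M = (X'.drop p0).length % M := by
        rw [List.length_drop, List.length_drop]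
        have h5 : X.length ≡ X'.length [MOD M] := h2
        have h6 : (X.length - p0) + p0 ≡ (X'.length - p0) + p0 [MOD M] := by
          rw [Nat.sub_add_cancel (by omega), Nat.sub_add_cancel (by omega)]
          exact h5
        exact Nat.ModEq.add_right_cancel' p0 h6
      have e5 : nu (X.drop p0) = nu (X'.drop p0) :=
        hnu _ _ (by rw [List.length_drop]; omega) (by rw [List.length_drop]; omega) e2 e4 e3
      have e6 : φ (X.drop p0) = φ (X'.drop p0) := by
        rw [← List.take_append_drop La (X.drop p0), ← List.take_append_drop La (X'.drop p0), hφ,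
          hφ, e2, e3]
      unfold AsmC_886.TT
      rw [e1, e5, e6]
    · have hl' : ¬ z ≤ X'.length := fun h => hl ((len_iff h1 le_rfl).2 h)
      rw [if_neg hl, if_neg hl']
  refine (P4N_211.hXT' (R := R) (B := B) (z := z) (n := n) hφ loc len pcs
    (fun X => if z ≤ X.length then AsmC_886.TT φ act nu2 nu p0 X x else 0) z M (p0 + La) hM key y).congr
    fun X => ?_
  constructor
  · rintro ⟨h1, h2⟩
    refine ⟨h1, ?_⟩
    rw [if_pos h1.1]
    exact h2
  · rintro ⟨h1, h2⟩
    refine ⟨h1, ?_⟩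
    rw [if_pos h1.1] at h2
    exact h2

end heights

/-- **the join** -/
theorem fin_aux (α : Type) [Finite α] (S : Type) [Monoid S] [Finite S] (f : α → S)
    (V : Type) [AddCommGroup V] [Finite V] (act : V → S → V)
    (hadd : ∀ a b s, act (a + b) s = act a s + act b s) (hone : ∀ v, act v 1 = v)
    (hmul : ∀ v s t, act v (s * t) = act (act v s) t)
    (hfaith : ∀ s t, (∀ v, act v s = act v t) → s = t) (s : S) :
    HL 3 ({w | (w.map f).prod = s} : Language α) := by
  classical
  obtain ⟨m1, r, hm1, hG⟩ := G1_691.gadget S V act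
  obtain ⟨m, k, hEx⟩ := Exact808.exact_gadget S V
  -- trivial instance : `0 < m`, `0 < k`
  have hmk : 0 < m ∧ 0 < k := by
    obtain ⟨lam, h⟩ := hEx α (fun _ => (1 : S)) (fun _ _ => by simp) (fun _ => 0) (fun _ => none)
      (fun _ _ _ => le_rfl) rfl (fun x i c h => by simp at h)
    obtain ⟨rho, nu, -, h2⟩ := h act
    obtain ⟨i, hi, cc, -⟩ := h2 [] 0 rfl
    exact ⟨by omega, lt_of_le_of_lt (Nat.zero_le _) cc.2⟩
  obtain ⟨hm, hk⟩ := hmk
  set C0 := r + m1 with hC0
  set R := 2 * C0 + 2 with hR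
  set K := m * (k * R) with hK
  obtain ⟨Ms, M, hcard, hMs, hM, hG⟩ := hG (2 ^ (K + 1))
  set b := 2 ^ (K + 6) * M + 1 with hb
  have hcop : Nat.Coprime b M := by
    rw [hb]
    simp
  have hMb : M ≤ b := by
    have : 1 * M ≤ 2 ^ (K + 6) * M := Nat.mul_le_mul_right _ Nat.one_le_two_pow
    omega
  obtain ⟨lam, rho, nu, hlam, hsound, hcompl, hfs⟩ := hG b hcop hMb α f
  obtain ⟨c, hc1, -, -, hc4, hc5⟩ := Sp_945.spoil K m1 M Ms hM
    (fun q hq => ⟨(hMs q hq).1.le, (hMs q hq).2.2⟩) b (by omega) hcop (4 * b ^ m1)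
  set φ : List α → S := fun w => (w.map f).prod with hφd
  have hφ : ∀ u v, φ (u ++ v) = φ u * φ v := fun u v => by simp [hφd]
  set N := b ^ m1 with hN
  set p0 := c K with hp0
  have hcp : ∀ a < K, c a ≤ p0 := fun a ha => (hc1 a K ha).le
  obtain ⟨n, Wo, loc, len, gap, Rp, Bp, pcs⟩ := WallU_228.walls (α := α) (2 * p0 + 2 * N)
  have hWR : WR Wo n (2 * p0 + 2 * N) := ⟨loc, len, gap⟩
  set La := N + p0 with hLa
  set z := p0 + La + p0 + p0 + N + N + n + 1 with hz
  set BadT : ℕ → Prop := G1_691.Bad b m1 M Ms with hBadT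
  -- gadget 1
  have hg : G1 φ act lam rho nu N La BadT :=
    ⟨fun p v h => (hlam p v h).le, fun p q v r h1 h2 _ => hsound p q v r h1 h2,
      fun u _ hu v => by
        obtain ⟨p, q, h1, h2, h3⟩ := hcompl u hu v
        exact ⟨p, q, h1, h2, h3⟩⟩
  -- gadget 2
  obtain ⟨lam2, h2⟩ := hEx α φ hφ (bor c p0 m k R) (ctx c K k R hk)
    (bor_mono hc1 hcp (Nat.mul_pos hk (by omega))) (by simp [bor])
    (fun x i cc h => ctx_bor hc1 hk (by omega) hcp x i cc h)
  obtain ⟨rho2, nu2, hex, hcomp2⟩ := h2 act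
  have hborm : bor c p0 m k R m = p0 := by
    unfold bor
    rw [if_neg (by omega), if_pos le_rfl]
  rw [hborm] at hex hcomp2
  -- spoil count
  have hthin : ∀ T, La ≤ T → ((Finset.range K ×ˢ Finset.range K).filter
      (fun ij : ℕ × ℕ => ij.1 ≠ ij.2 ∧ BadT (T + c ij.2 - c ij.1))).card ≤ C0 := by
    intro T hT
    have h1 := hc5 T (fun a ha => (hcp a ha).trans (by omega))
    refine le_trans (le_of_eq ?_) (h1.trans (by omega))
    congr 1
    refine Finset.filter_congr fun ij _ => ?_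
    have : ∀ x, BadT x ↔ Sp_945.Bad Ms M m1 b x := by
      intro x
      rw [hBadT]
      unfold G1_691.Bad Sp_945.Bad
      refine or_congr Iff.rfl (exists_congr fun j => and_congr Iff.rfl ?_)
      omega
    rw [this]
  have hsp := fun w : List α => spoil hWR (z := z) (D := N) (p0 := p0) (Lam := p0) (K := K)
    (C0 := C0) (La := La) (BadT := BadT) (c := c) hcp
    (fun i j k l _ _ _ _ h1 h2 h3 => hc4 i j k l h1 h2 h3) hthin (by omega) le_rfl w
  have hav : ∀ u t : List α, p0 ≤ u.length → ∀ x, ∃ a < K,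
      lam2 ((u.take p0).take (c a)) = some x ∧ (rho2 ((u.take p0).drop (c a))).isSome = true ∧
      ∀ b < K, b ≠ a → ¬ SE Wo z N c (u ++ t) a b ∧ ¬ SB Wo z p0 BadT c (u ++ t) a b := by
    intro u t hu x
    obtain ⟨i, hi, cc, hcc⟩ := hcomp2 (u.take p0) x (by rw [List.length_take]; omega)
    obtain ⟨a, ha, hA, hB⟩ := avail hc1 hk (by omega : 1 + (C0 + C0) < R)
      (fun a b => SE Wo z N c (u ++ t) a b ∨ SB Wo z p0 BadT c (u ++ t) a b) (by convert hsp (u ++ t))
      (fun y => lam2 ((u.take p0).take y) = some x ∧ (rho2 ((u.take p0).drop y)).isSome = true)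
      hi cc hcc
    exact ⟨a, ha, hA.1, hA.2, fun b hb hba => not_or.1 (hB b hb hba)⟩
  have hMpos : 0 < M * b ^ m1 := Nat.mul_pos hM (Nat.pow_pos (by omega))
  have hMs' : ∀ k ∈ Ms, k ∣ M := fun k hk => (hMs k hk).2.2
  refine Top5_110.top_sem (XX := XX Wo z) (Bad := BB Wo z N p0 BadT)
    (T := AsmC_886.TT φ act nu2 nu p0) (act := act) (φ := φ) (N1 := 0) (N2 := 1)
    (L1 := AsmC_886.L1 φ act nu2 lam p0) (L2 := AsmC_886.L2 lam2 K c)
    (by simp [hφd]) hφ hone hmul hfaith (XX_pc (by omega)) (fun u hu => hu.1) ?_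
    (H1 hφ loc len pcs)
    (H2 hφ loc len pcs hMpos (by omega) (fun n n' h => bad_per hMs' (by omega) h))
    (fun x y => H3 hφ loc len pcs act nu2 nu hMpos (La := N) (by omega) ?_ x y)
    (fun s => (P4N_211.hNP hφ loc len pcs s).mono (by norm_num))
    (fun v => L1_finite hg.lamN v) (fun v => L2_finite hcp v)
    (C1 hWR hg (by omega)) (C2 hWR hcp (by omega) ?_ hav) s
  · intro u _ v v'
    have hsub : ∀ a b s, act a s - act b s = act (a - b) s := by
      intro a b s
      have := hadd (a - b) b s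
      rw [sub_add_cancel] at this
      rw [this]
      abel
    unfold AsmC_886.TT
    have e1 : ∀ a b c : V, a + c - (b + c) = a - b := fun a b c => by abel
    rw [e1, hsub, e1, hsub, ← hmul, ← hφ, List.take_append_drop]
  · intro q q' h1 h2 h3 h4 h5
    exact (hfs q q' h1 h2 h3 h4 h5).2
  · intro p q v b hl h1 h2
    exact hex p q v b hl h1 h2

/-- **fin** -/
theorem fin (α : Type) [Finite α] (S : Type) [Monoid S] [Finite S] (f : α → S) (s : S) :
    HL 3 ({w | (w.map f).prod = s} : Language α) := by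
  obtain ⟨act, hadd, hone, hmul, hfaith⟩ := Blk467.exists_module S
  exact fin_aux α S f (S → ZMod 2) act hadd hone hmul hfaith s

end Crest.Agent.R320.AsmE_886
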