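import Crest.Agent.R320.AsmD_957

/-!
# Row 320: the join, constants (helper957)
-/

set_option autoImplicit false

namespace Crest.Agent.R320.Asm_957

open Crest.Agent.R320.Hk_851 Crest.Agent.R320.Star_621 Crest.Agent.R320.Two_621
open Crest.Agent.R320.FewWalls_228

set_option maxHeartbeats 1000000 in
theorem exists_data {α : Type} [Finite α] (S : Type) [Monoid S] [Finite S] (f : α → S) :
    Main_621.Data (fun w : List α => (w.map f).prod) := by
  classical
  have : Finite (Function.End (Option (Tok S))) :=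
    inferInstanceAs (Finite (Option (Tok S) → Option (Tok S)))
  have : Finite (Function.End (Option (Tok S)))ᵐᵒᵖ :=
    Finite.of_equiv _ MulOpposite.opEquiv
  let T2 : Type := (Function.End (Option (Tok S)))ᵐᵒᵖ
  have : Finite T2 := Finite.of_equiv _ MulOpposite.opEquiv
  letI : Fintype S := Fintype.ofFinite S
  letI : Fintype T2 := Fintype.ofFinite T2
  letI : Fintype (Tok T2) := Fintype.ofFinite (Tok T2)
  let ph : List α → S := fun w => (w.map f).prod
  have h1 : ph [] = 1 := by simp [ph]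
  have hm : ∀ a b, ph (a ++ b) = ph a * ph b := by intro a b; simp [ph]
  obtain ⟨m, r, hg⟩ := GridUG_875.gadget S (Tok S) (act (T := S))
  obtain ⟨K, hK⟩ := ExactT_580.exact_gadget_tail α S T2 (Tok T2) f
    (fun v g y => act v (emb g * y)) (3 * (r + (m + 1)) + 2)
  obtain ⟨Ms, hMs1, hMs2, hg⟩ := hg (4 ^ K)
  obtain ⟨M, hM⟩ : ∃ M, M = ∏ k ∈ Ms, k := ⟨_, rfl⟩
  have hMpos : 0 < M := by
    rw [hM]; exact Finset.prod_pos fun k hk => (hMs2 k hk).2.pos
  have hdvd : ∀ q ∈ Ms, q ∣ M := fun q hq => by rw [hM]; exact Finset.dvd_prod_of_mem _ hq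
  obtain ⟨Gam, hGam⟩ : ∃ G, G = M * (16 * (m + 1 + 1) * 4 ^ K + 2) + 1 := ⟨_, rfl⟩
  have hcop : Nat.Coprime M Gam := by
    rw [hGam, Nat.coprime_mul_left_add_right]
    exact Nat.coprime_one_right M
  have h4K : 0 < 4 ^ K := by positivity
  have hG1 : M + 2 ≤ Gam := by
    rw [hGam, Nat.mul_add]
    generalize M * (16 * (m + 1 + 1) * 4 ^ K) = X
    omega
  have hG2 : 16 * (m + 1 + 1) * M * 4 ^ K ≤ Gam := by
    rw [hGam]; nlinarith
  obtain ⟨lam, rho, nu, g1, g2, g3, g4, g5⟩ := hg M hM Gam hG1 hcop ph hm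
  have hGpos : 0 < Gam := by omega
  have hGp : 0 < Gam ^ (m + 1) := pow_pos hGpos _
  obtain ⟨x, x1, x2, x3⟩ := SpoilGrid_567.spoil_grid K (m + 1) Ms M Gam (2 * Gam ^ (m + 1))
    (fun q hq => (hMs2 q hq).1) (fun q hq => hcop.coprime_dvd_left (hdvd q hq))
    (fun q hq q' hq' hne => (Nat.coprime_primes (hMs2 q hq).2 (hMs2 q' hq').2).2 hne) hMpos hG2
  obtain ⟨lamB, rhoB, nuB, b1, b2⟩ := hK (fun k => x k + 1) (fun i j hij _ => by
    have := x1 i j hij; omega)
  obtain ⟨n, cc, P0, Sw, hn, hP0, hSw, hsepW, hper, hHL⟩ :=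
    FewVal_228.exists_walls α (2 * (x K + 1) + 2 * Gam ^ (m + 1) + 3) (by omega)
  let R : WR α := wr228 n (2 * (x K + 1) + 2 * Gam ^ (m + 1) + 3) Sw hsepW
  let D : Par α S :=
    { R := R
      ph := ph
      hm := hm
      h1 := h1
      p0 := x K + 1
      i0 := Gam ^ (m + 1) + n + 4 * Gam ^ (m + 1)
      N1 := Gam ^ (m + 1)
      K := K
      Tm := 4 * Gam ^ (m + 1)
      c := fun k => x k + 1
      Bad := fun T => SpoilGrid_567.BadT Ms M Gam (m + 1) (fun _ => 0) (T : ℤ)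
      lam := lam
      rho := rho
      nu := nu
      lamB := lamB
      rhoB := rhoB
      nuB := nuB
      hp0 := Nat.succ_pos _
      hi0 := le_refl (Gam ^ (m + 1) + n + 4 * Gam ^ (m + 1))
      hc0 := fun k _ => Nat.succ_pos _
      hc1 := fun k hk => by have := x1 k K hk; omega
      hG := by
        show 2 * (x K + 1) + 2 * Gam ^ (m + 1) + 2 < 2 * (x K + 1) + 2 * Gam ^ (m + 1) + 3
        omega
      lam_le := fun P v h => (g1 P v h).le
      snd := fun P Q v r h h' => g3 P Q v r h h'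
      cpl := by
        intro u hu hb v
        obtain ⟨P, Q, h2, h3, h4⟩ := g4 u hu (fun k hk hd => hb (Or.inl ⟨k, hk,
          Int.natCast_dvd_natCast.2 hd⟩)) (by
            intro i j hij hj
            by_contra hne
            apply hb
            have hgp : 0 < Gam ^ (j + 1) := pow_pos hGpos _
            have hle : (u.length - M * Gam ^ (i + 1)) / Gam ^ (j + 1) ≤
              (u.length + M * Gam ^ (i + 1)) / Gam ^ (j + 1) := Nat.div_le_div_right (by omega)
            have hlt : (u.length - M * Gam ^ (i + 1)) / Gam ^ (j + 1) <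
              (u.length + M * Gam ^ (i + 1)) / Gam ^ (j + 1) := lt_of_le_of_ne hle hne
            obtain ⟨k, hk⟩ : ∃ k, k = (u.length + M * Gam ^ (i + 1)) / Gam ^ (j + 1) := ⟨_, rfl⟩
            rw [← hk] at hlt
            have c1 : k * Gam ^ (j + 1) ≤ u.length + M * Gam ^ (i + 1) := by
              rw [hk]; exact Nat.div_mul_le_self _ _
            have c2 : u.length - M * Gam ^ (i + 1) < k * Gam ^ (j + 1) :=
              (Nat.div_lt_iff_lt_mul hgp).1 hlt
            have c3 : M * Gam ^ (i + 1) ≤ M * Gam ^ j :=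
              Nat.mul_le_mul_left _ (Nat.pow_le_pow_right hGpos hij)
            refine Or.inr ⟨j + 1, by omega, by omega, (k : ℤ), ?_⟩
            rw [Nat.add_sub_cancel, abs_le]
            have c4 : ((k * Gam ^ (j + 1) : ℕ) : ℤ) = (k : ℤ) * (Gam : ℤ) ^ (j + 1) := by push_cast; ring
            have c5 : ((M * Gam ^ j : ℕ) : ℤ) = (M : ℤ) * (Gam : ℤ) ^ j := by push_cast; ring
            rw [← c4, ← c5]
            have key : ∀ u A B C : ℕ, C ≤ u + A → u - A < C → A ≤ B →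
                -(B : ℤ) ≤ (u : ℤ) - 0 - (C : ℤ) ∧ (u : ℤ) - 0 - (C : ℤ) ≤ B := by
              intro u A B C h1 h2 h3
              constructor <;> omega
            exact key _ _ _ _ c1 c2 c3) v
        exact ⟨P, Q, h2, h3, Option.isSome_iff_exists.1 h4⟩ }
  have hMG : 0 < M * Gam ^ (m + 1) := Nat.mul_pos hMpos hGp
  have H : RegH D :=
    { hn := hn
      hend := wr_end n _ Sw hsepW
      few := fun M' hM' B k L hk hL h3 => wr_few n _ Sw hsepW hHL M' hM' B k L hk hL h3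
      rho := fun r0 => RegDep_10.regular_fibre ph h1 hm (3 * Gam ^ (m + 1)) (M * Gam ^ (m + 1)) hMG
        rho (fun u u' a1 a2 a3 a4 a5 => (g5 u u' a1 a2 a3 a4 a5).1) (some r0)
      nu := fun a => RegDep_10.regular_fibre ph h1 hm (3 * Gam ^ (m + 1)) (M * Gam ^ (m + 1)) hMG
        nu (fun u u' a1 a2 a3 a4 a5 => (g5 u u' a1 a2 a3 a4 a5).2) a
      ph := fun s => reg_ph ph h1 hm s
      bad := fun c => reg_bad hdvd hMG (x K + 1) c }
  refine data D H (C0 := r + (m + 1)) (Rr := 3 * (r + (m + 1)) + 2) (by omega) ?_ ?_ ?_ ?_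
  · intro k hk P Q y v b hP hl hr
    exact b1 k hk P Q y v b hP hl hr
  · intro u y v hu
    exact b2 u y v hu
  · intro i j k l hi hj hk hl hij hkl h2 h3
    refine x2 i j k l hi hj hk hl hij ?_
    have h2' : (((x i + 1 : ℕ) : ℤ) - ((x j + 1 : ℕ) : ℤ)) - (((x k + 1 : ℕ) : ℤ) -
      ((x l + 1 : ℕ) : ℤ)) ≤ 2 * ((Gam ^ (m + 1) : ℕ) : ℤ) := h2
    have h3' : (((x k + 1 : ℕ) : ℤ) - ((x l + 1 : ℕ) : ℤ)) - (((x i + 1 : ℕ) : ℤ) -
      ((x j + 1 : ℕ) : ℤ)) ≤ 2 * ((Gam ^ (m + 1) : ℕ) : ℤ) := h3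
    rw [abs_le]
    generalize Gam ^ (m + 1) = N at h2' h3' ⊢
    constructor <;> omega
  · intro T s hs
    have hsub : s ⊆ (Finset.range K ×ˢ Finset.range K).filter
        (fun ab => ab.1 ≠ ab.2 ∧ SpoilGrid_567.BadT Ms M Gam (m + 1) (fun _ => 0)
          (T + x ab.1 - x ab.2)) := by
      intro p hp
      obtain ⟨p1, p2, p3, p4, p5⟩ := hs p hp
      refine Finset.mem_filter.2 ⟨Finset.mem_product.2 ⟨Finset.mem_range.2 p1,
        Finset.mem_range.2 p2⟩, p3, ?_⟩
      have p4' : 0 ≤ T + ((x p.1 + 1 : ℕ) : ℤ) - ((x p.2 + 1 : ℕ) : ℤ) := p4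
      have p5' : SpoilGrid_567.BadT Ms M Gam (m + 1) (fun _ => 0)
        (((T + ((x p.1 + 1 : ℕ) : ℤ) - ((x p.2 + 1 : ℕ) : ℤ)).toNat : ℕ) : ℤ) := p5
      rw [Int.toNat_of_nonneg p4'] at p5'
      have e : T + ((x p.1 + 1 : ℕ) : ℤ) - ((x p.2 + 1 : ℕ) : ℤ) = T + x p.1 - x p.2 := by
        push_cast; ring
      rw [e] at p5'
      exact p5'
    have h2 := (Finset.card_le_card hsub).trans (x3 (fun _ => 0) T)
    omega

/-- **Row 320 for alphabets in `Type`.** -/
theorem row0 (α : Type) [Finite α] (L : Language α) (hL : L.IsRegular) :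
    ∃ e : Crest.RegLang.GRegExp α, e.height ≤ 3 ∧ e.lang = L :=
  Main_621.row (fun S _ _ f => exists_data S f) L hL

end Crest.Agent.R320.Asm_957
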