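import Crest.Agent.R320.AsmN_512

/-!
# Row 320: height three for all words from the gadget of scheme 1 (helper512)
-/

set_option autoImplicit false
set_option linter.unusedSectionVars false

namespace Crest.Agent.R320.AsmF_512

open Crest.RegLang Crest.Agent.R320.Hk_851 Crest.Agent.R320.FewWalls_228
  Crest.Agent.R320.P3Top_416 Crest.Agent.R320.Half1_180 Crest.Agent.R320.AsmW_512
  Crest.Agent.R320.AsmS_512 Crest.Agent.R320.AsmD_512 Crest.Agent.R320.AsmM_512
  Crest.Agent.R320.AsmN_512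

theorem nw_tail {α : Type} {n z : ℕ} {S : Set (List α)} {w : List α} (h : w ∈ Tail (XX n S z)) :
    nw n S w ≤ z + 1 := by
  classical
  refine nw_le fun t h1 h2 h3 => ?_
  have hex : ∃ t, z ≤ t ∧ WE n S w t := ⟨t, h1, h3⟩
  obtain ⟨a1, a2⟩ := Nat.find_spec hex
  have hmin : ∀ t', z ≤ t' → t' < Nat.find hex → ¬ WE n S w t' := fun t' h4 h5 h6 =>
    Nat.find_min hex h5 ⟨h4, h6⟩
  have hle : Nat.find hex ≤ w.length := a2.2.1
  exact h _ (take_mem_XX a1 hle a2 hmin) (List.take_prefix _ _)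

theorem main (hU : ∀ (G V : Type) [Monoid G] [Finite G] [AddCommGroup V] [Finite V]
      (act : V → G → V), UGS G V act)
    (α : Type) [Finite α] (G : Type) [Monoid G] [Finite G] (f : α → G) (s : G) :
    HL 3 ({w | (w.map f).prod = s} : Language α) := by
  classical
  haveI := Fintype.ofFinite G
  obtain ⟨C0, hC0⟩ := hU G (G → ZMod 2) act
  obtain ⟨K, hK⟩ := ExactR_237.exact_gadget α G (G → ZMod 2) f act (3 * C0 + 1)
  obtain ⟨N1, La, Pm, x, Bd, hPm, hx, hper, hE, hB, hgad⟩ := hC0 K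
  obtain ⟨lam1, rho1, nu1, g1, g2, g3, g4, g5⟩ := hgad α (ph f) (by simp [ph]) (ph_append f)
  obtain ⟨lam2, rho2, nu2', e1, e2⟩ := hK x hx
  obtain ⟨Xm, hXm⟩ : ∃ Xm : ℕ, ∀ k < K, x k ≤ Xm :=
    ⟨∑ k ∈ Finset.range K, x k, fun k hk =>
      Finset.single_le_sum (f := x) (fun _ _ => Nat.zero_le _) (Finset.mem_range.2 hk)⟩
  obtain ⟨n, c, P, S, hn, hP, hS, hsep0, hpero, hHL⟩ :=
    FewVal_228.exists_walls α (2 * Xm + 2 * N1 + 1) (by omega)
  have hsep : ∀ (w : List α) (t t' : ℕ), WE n S w t → WE n S w t' → t < t' →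
      t + (2 * Xm + 2 * N1 + 1) ≤ t' := by
    intro w t t' h1 h2 h3
    have a1 := h1.1
    have a2 := h2.1
    have := hsep0 w (t - n) (t' - n) (by omega) h1.wl h2.wl
    omega
  obtain ⟨z, hz⟩ : ∃ z, z = 4 * Xm + 4 * N1 + n + La + 1 := ⟨_, rfl⟩
  obtain ⟨r, hr⟩ : ∃ r, r = 2 * z + n + 3 := ⟨_, rfl⟩
  let nu2 : List α → G → ZMod 2 := fun u => nu2' u 1
  have h2a : ∀ k < K, ∀ (P Q : List α) (v b : G → ZMod 2), P.length = x k → lam2 k P = some v →
      (fun k Q => rho2 k Q 1) k Q = some b → b = act v (ph f (P ++ Q)) + nu2 (P ++ Q) := by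
    intro k hk P Q v b h1 h2 h3
    have := e1 k hk P Q 1 v b h1 h2 h3
    rw [mul_one] at this
    exact this
  have h2b : ∀ (u : List α) (v : G → ZMod 2), (∀ k < K, x k ≤ u.length) → ∃ I : Finset ℕ,
      3 * C0 + 1 ≤ I.card ∧ ∀ k ∈ I, k < K ∧ lam2 k (u.take (x k)) = some v ∧
        ((fun k Q => rho2 k Q 1) k (u.drop (x k))).isSome := fun u v h => e2 u 1 v h
  have hpf : PF (XX n S z) := pf_XX S (by omega)
  have hregT : ∀ v b, Rg (fun X : List α => TT f Xm nu2 nu1 X v = b) := fun v b =>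
    rg_TT f Xm La Pm hPm nu2 nu1 (fun q q' h1 h2 h3 h4 h5 => (g5 q q' h1 h2 h3 h4 h5).2) v b
  have hregB : Rg (fun X : List α => BadP n S z N1 Xm Bd X) := rg_BadP S hPm hper
  have hregX := rg_XX (n := n) (z := z) S
  let Bad : Set (List α) := {X | X ∈ XX n S z ∧ BadP n S z N1 Xm Bd X}
  let Good : Set (List α) := {X | X ∈ XX n S z ∧ ¬ BadP n S z N1 Xm Bd X}
  have hBX : Bad ⊆ XX n S z := fun X h => h.1
  refine top2 (k := 1) f act act_zero act_one act_mul act_faithful (XX n S z) Good Bad hpf ?_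
    (TT f Xm nu2 nu1) (fun X _ v v' => TT_sub f Xm nu2 nu1 X v v')
    (fun v => LP1 f Xm nu2 lam1 v) (fun b => RQ1 f Xm nu2 nu1 lam1 n S z r b)
    (fun v => HL.finite (LP1_finite f Xm N1 nu2 lam1 g1 v)) ?_ ?_ ?_ ?_
    (fun v => LP2 K x lam2 v) (fun b => RQ2 f Xm nu2 nu1 K x lam2 n S z N1 Bd r b)
    (fun v => HL.finite (LP2_finite K Xm x hXm lam2 v)) ?_ ?_ ?_ ?_ ?_ s
  · ext X
    constructor
    · intro h
      by_cases hb : BadP n S z N1 Xm Bd X
      · exact Or.inr ⟨h, hb⟩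
      · exact Or.inl ⟨h, hb⟩
    · rintro (h | h)
      · exact h.1
      · exact h.1
  · -- RQ1
    intro b
    exact (hHL _ (rg_RQ1 f Xm N1 nu2 nu1 lam1 g1 n S z b (fun v => hregT v b)) r).mono (by norm_num)
  · -- sound1
    intro v v' P Q hP hQ
    exact hQ.1 v P hP
  · -- compl1
    intro X hX v
    exact compl1 f Xm N1 La nu2 nu1 lam1 rho1 Bd g1 g3 g4 n S z r (by omega) (by omega) X hX.1
      hX.2 v
  · -- HL 1 Bad
    refine (hHL _ (hregX.and hregB) (z + 1)).congr fun X => ?_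
    constructor
    · intro h; exact ⟨h, nw_XX h.1⟩
    · intro h; exact h.1
  · -- RQ2
    intro b
    exact hHL _ (rg_RQ2 f Xm nu2 nu1 K Xm x hXm lam2 n S z N1 Bd b hregT hregB) r
  · -- short
    intro v v'
    refine (hHL _ ((hregX.and hregB).and (hregT v v')) (z + 1)).congr fun X => ?_
    constructor
    · intro h; exact ⟨h, nw_XX h.1.1⟩
    · intro h; exact h.1
  · -- sound2
    intro v v' P Q R hP hQ hBs
    rcases hQ.1 v P hP with ⟨X1, X2, e, hX1, hX2, hval⟩ | ⟨X, R', e, hX, -⟩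
    · rw [← List.append_assoc, e, List.append_assoc] at hBs
      obtain ⟨-, h1⟩ := bs_inv hpf hBX hX1.1 hBs
      obtain ⟨-, h2⟩ := bs_inv hpf hBX hX2.1 h1
      refine ⟨?_, h2⟩
      rw [e, ← hval]
      exact Tr.cons hX1.1 (Tr.single hX2.1)
    · exfalso
      rw [← List.append_assoc, e, List.append_assoc] at hBs
      exact hX.2 (bs_inv hpf hBX hX.1 hBs).1.2
  · -- compl2
    intro Y1 hY1 Y2 hY2 v
    exact compl2 f Xm N1 C0 K (2 * Xm + 2 * N1 + 1) x nu2 nu1 lam2 (fun k Q => rho2 k Q 1) Bd hXm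
      hE hB h2a h2b n S z r hsep (by omega) (by omega) (by omega) Y1 Y2 hY1.1 hY1.2 hY2.1 hY2.2 v
  · -- tail
    intro s'
    refine ((hHL _ ((rg_tail (n := n) (z := z) S).and (rg_fibre f s')) (z + 1)).mono
      (by norm_num)).congr fun X => ?_
    constructor
    · intro h; exact ⟨h, nw_tail h.1⟩
    · intro h; exact h.1

end Crest.Agent.R320.AsmF_512
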