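import Mathlib

set_option autoImplicit false

/-!
Row 320: walls on ALL words (no run-free hypothesis).

A position is a wall when the window (name) there is not periodic (no period `<= W`) and it is a
strict local minimum, among the non-periodic names within distance `W`, for an injective numbering
of the names.  Walls are more than `W` apart, there is no wall inside a run, and every stretch
without walls is periodic with one period `<= W`, except for `G` letters at both ends.
-/

namespace Crest.Agent.R320.MarkAll_813

open List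

variable {A : Type*}

/-- the name of position `c` -/
def nm (l : ℕ) (w : List A) (c : ℕ) : List A := (w.drop c).take l

/-- the name of `c` is periodic -/
def PerN (W l : ℕ) (w : List A) (c : ℕ) : Prop :=
  ∃ p, 0 < p ∧ p ≤ W ∧ (nm l w c).HasPeriod p

/-- the wall rule, right looking: position `0` is a wall (with centre `W`) -/
def R (enc : List A → ℕ) (W l : ℕ) (Q : List A) : Prop :=
  2 * W + l ≤ Q.length ∧ ¬ PerN W l Q W ∧
    ∀ d, d ≤ 2 * W → d ≠ W → ¬ PerN W l Q d → enc (nm l Q W) < enc (nm l Q d)

theorem nm_drop (l : ℕ) (w : List A) (c d : ℕ) : nm l (w.drop c) d = nm l w (c + d) := by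
  simp [nm, List.drop_drop]

theorem PerN_drop (W l : ℕ) (w : List A) (c d : ℕ) :
    PerN W l (w.drop c) d ↔ PerN W l w (c + d) := by
  simp [PerN, nm_drop]

theorem nm_take (l : ℕ) (w : List A) (n d : ℕ) (h : d + l ≤ n) :
    nm l (w.take n) d = nm l w d := by
  rw [nm, nm, List.drop_take, List.take_take, min_eq_left (by omega)]

theorem PerN_take (W l : ℕ) (w : List A) (n d : ℕ) (h : d + l ≤ n) :
    PerN W l (w.take n) d ↔ PerN W l w d := by
  simp [PerN, nm_take l w n d h]

theorem nm_getElem? (l : ℕ) (w : List A) (c i : ℕ) (h : i < l) :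
    (nm l w c)[i]? = w[c + i]? := by
  rw [nm, List.getElem?_take_of_lt h, List.getElem?_drop]

theorem nm_length (l : ℕ) (w : List A) (c : ℕ) (h : c + l ≤ w.length) :
    (nm l w c).length = l := by
  rw [nm, List.length_take, List.length_drop]
  omega

theorem R_take (enc : List A → ℕ) (W l : ℕ) (Q : List A) :
    R enc W l Q ↔ R enc W l (Q.take (2 * W + l)) := by
  unfold R
  rw [PerN_take W l Q _ W (by omega), nm_take l Q _ W (by omega)]
  constructor
  · rintro ⟨h1, h2, h3⟩
    refine ⟨by rw [List.length_take]; omega, h2, fun d hd hd' hp => ?_⟩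
    rw [PerN_take W l Q _ d (by omega)] at hp
    rw [nm_take l Q _ d (by omega)]
    exact h3 d hd hd' hp
  · rintro ⟨h1, h2, h3⟩
    refine ⟨by rw [List.length_take] at h1; omega, h2, fun d hd hd' hp => ?_⟩
    have := h3 d hd hd' (by rw [PerN_take W l Q _ d (by omega)]; exact hp)
    rwa [nm_take l Q _ d (by omega)] at this

theorem R_sep (enc : List A → ℕ) (W l : ℕ) (Q : List A) (d : ℕ) (hd : 0 < d) (hdW : d ≤ W)
    (h : R enc W l Q) (h' : R enc W l (Q.drop d)) : False := by
  obtain ⟨_, h2, h3⟩ := h
  obtain ⟨_, h2', h3'⟩ := h'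
  rw [PerN_drop] at h2'
  have a := h3 (d + W) (by omega) (by omega) h2'
  have b := h3' (W - d) (by omega) (by omega)
  rw [PerN_drop, nm_drop, nm_drop, show d + (W - d) = W by omega] at b
  have b' := b h2
  omega

theorem R_run (enc : List A → ℕ) (W l : ℕ) (Q : List A) (p : ℕ) (hp : 0 < p) (hpW : p ≤ W)
    (h : (Q.take (2 * W + l)).HasPeriod p) : ¬ R enc W l Q := by
  rintro ⟨_, h2, _⟩
  apply h2
  rw [← PerN_take W l Q (2 * W + l) W (by omega)]
  refine ⟨p, hp, hpW, h.infix ?_⟩
  exact ((List.take_prefix _ _).isInfix).trans (List.drop_suffix _ _).isInfix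

/-- equal names at small distance are periodic -/
theorem per_of_eq (l : ℕ) (w : List A) (c d : ℕ) (hl : c + d + l ≤ w.length)
    (h : nm l w c = nm l w (c + d)) : (nm l w c).HasPeriod d := by
  rw [List.hasPeriod_iff_getElem?, nm_length l w c (by omega)]
  intro i hi
  rw [nm_getElem? l w c (i + d) (by omega), h, nm_getElem? l w (c + d) i (by omega)]
  congr 1
  omega

theorem per_of_eq' (l : ℕ) (w : List A) (c d : ℕ) (hl : c + d + l ≤ w.length)
    (h : nm l w c = nm l w (c + d)) : (nm l w (c + d)).HasPeriod d := by
  rw [← h]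
  exact per_of_eq l w c d hl h

/-- descent: near every non-periodic position there is a wall -/
theorem descent (enc : List A → ℕ) (henc : Function.Injective enc) (W l : ℕ) (w : List A)
    (k : ℕ) : ∀ c : ℕ, enc (nm l w c) < k → W * k ≤ c → c + W * k + l ≤ w.length →
      ¬ PerN W l w c → ∃ j, c ≤ j + W * k ∧ j ≤ c + W * k ∧ R enc W l (w.drop j) := by
  induction k with
  | zero => intro c h; omega
  | succ k ih =>
    intro c hc h1 h2 hn
    have hk : W * (k + 1) = W * k + W := by ring
    by_cases hR : R enc W l (w.drop (c - W))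
    · exact ⟨c - W, by omega, by omega, hR⟩
    · have hlen : 2 * W + l ≤ (w.drop (c - W)).length := by
        rw [List.length_drop]; omega
      have hcen : ¬ PerN W l (w.drop (c - W)) W := by
        rw [PerN_drop, show c - W + W = c by omega]; exact hn
      have : ∃ d, d ≤ 2 * W ∧ d ≠ W ∧ ¬ PerN W l (w.drop (c - W)) d ∧
          enc (nm l (w.drop (c - W)) d) ≤ enc (nm l (w.drop (c - W)) W) := by
        by_contra hcon
        push Not at hcon
        exact hR ⟨hlen, hcen, hcon⟩
      obtain ⟨d, hd, hdW, hdn, hde⟩ := this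
      rw [PerN_drop] at hdn
      rw [nm_drop, nm_drop, show c - W + W = c by omega] at hde
      have hlt : enc (nm l w (c - W + d)) < enc (nm l w c) := by
        refine lt_of_le_of_ne hde fun he => ?_
        have he' := henc he
        rcases lt_or_gt_of_ne hdW with h | h
        · apply hn
          have e : c = (c - W + d) + (W - d) := by omega
          refine ⟨W - d, by omega, by omega, ?_⟩
          have := per_of_eq' l w (c - W + d) (W - d) (by omega) (by rw [← e]; exact he')
          rwa [← e] at this
        · apply hn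
          have e : c - W + d = c + (d - W) := by omega
          refine ⟨d - W, by omega, by omega, ?_⟩
          rw [e] at he'
          exact per_of_eq l w c (d - W) (by omega) he'.symm
      obtain ⟨j, hj1, hj2, hj3⟩ := ih (c - W + d) (by omega) (by omega) (by omega) hdn
      exact ⟨j, by omega, by omega, hj3⟩

/-- a stretch of periodic positions has one period -/
theorem stretch (W l : ℕ) (hl : 2 * W + 1 ≤ l) (w : List A) (s : ℕ) (k : ℕ)
    (hlen : s + k + l ≤ w.length) (h : ∀ i ≤ k, PerN W l w (s + i)) :
    ∃ p, 0 < p ∧ p ≤ W ∧ ∀ i, i + p < k + l → w[s + i]? = w[s + i + p]? := by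
  induction k with
  | zero =>
    obtain ⟨p, hp, hpW, hper⟩ := h 0 le_rfl
    refine ⟨p, hp, hpW, fun i hi => ?_⟩
    rw [List.hasPeriod_iff_getElem?, nm_length l w _ (by omega)] at hper
    have := hper i (by omega)
    rw [nm_getElem? l w _ i (by omega), nm_getElem? l w _ (i + p) (by omega)] at this
    simpa [add_assoc] using this
  | succ k ih =>
    obtain ⟨p, hp, hpW, hper⟩ := ih (by omega) (fun i hi => h i (by omega))
    obtain ⟨q, hq, hqW, hqer⟩ := h (k + 1) le_rfl
    rw [List.hasPeriod_iff_getElem?, nm_length l w _ (by omega)] at hqer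
    have hqer' : ∀ i, i + q < l → w[s + (k + 1) + i]? = w[s + (k + 1) + i + q]? := by
      intro i hi
      have := hqer i (by omega)
      rw [nm_getElem? l w _ i (by omega), nm_getElem? l w _ (i + q) (by omega)] at this
      simpa [add_assoc] using this
    refine ⟨p, hp, hpW, fun i hi => ?_⟩
    by_cases hi' : i + p < k + l
    · exact hper i hi'
    · -- the new letter
      have hie : i + p = k + l := by omega
      set o : List A := nm (l - 1) w (s + k + 1) with ho
      have hol : o.length = l - 1 := nm_length _ _ _ (by omega)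
      have hop : o.HasPeriod p := by
        rw [List.hasPeriod_iff_getElem?, hol]
        intro x hx
        rw [ho, nm_getElem? _ w _ x (by omega), nm_getElem? _ w _ (x + p) (by omega)]
        have := hper (k + 1 + x) (by omega)
        simpa [add_assoc] using this
      have hoq : o.HasPeriod q := by
        rw [List.hasPeriod_iff_getElem?, hol]
        intro x hx
        rw [ho, nm_getElem? _ w _ x (by omega), nm_getElem? _ w _ (x + q) (by omega)]
        have := hqer' x (by omega)
        simpa [add_assoc] using this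
      have hg := hop.gcd hoq (by omega)
      have gm := fun x (hx : x < o.length) => hg.getElem?_mod (p.gcd q) x o hx
      have e1 := gm (l - 1 - p) (by omega)
      have e2 := gm (l - 1 - q) (by omega)
      have hmod : (l - 1 - p) % p.gcd q = (l - 1 - q) % p.gcd q := by
        have a : (l - 1 - p) % p.gcd q = (l - 1) % p.gcd q := by
          conv_rhs => rw [show l - 1 = (l - 1 - p) + p by omega]
          obtain ⟨c, hc⟩ := Nat.gcd_dvd_left p q
          conv_rhs => rw [show (l - 1 - p + p) = (l - 1 - p) + p.gcd q * c by rw [← hc]]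
          rw [Nat.add_mul_mod_self_left]
        have b : (l - 1 - q) % p.gcd q = (l - 1) % p.gcd q := by
          conv_rhs => rw [show l - 1 = (l - 1 - q) + q by omega]
          obtain ⟨c, hc⟩ := Nat.gcd_dvd_right p q
          conv_rhs => rw [show (l - 1 - q + q) = (l - 1 - q) + p.gcd q * c by rw [← hc]]
          rw [Nat.add_mul_mod_self_left]
        rw [a, b]
      have e3 : o[l - 1 - p]? = o[l - 1 - q]? := by rw [← e1, ← e2, hmod]
      rw [ho, nm_getElem? _ w _ _ (by omega), nm_getElem? _ w _ _ (by omega)] at e3
      have e4 := hqer' (l - q - 1) (by omega)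
      have i1 : s + i = s + k + 1 + (l - 1 - p) := by omega
      have i2 : s + k + 1 + (l - 1 - q) = s + (k + 1) + (l - q - 1) := by omega
      have i3 : s + (k + 1) + (l - q - 1) + q = s + i + p := by omega
      rw [i1, e3, i2, e4, i3, ← i1]

/-- **Walls on all words.** -/
theorem exists_marks (A : Type*) [Finite A] (W : ℕ) (hW : 0 < W) :
    ∃ (n G : ℕ) (R : List A → Prop),
      (∀ Q : List A, R Q ↔ R (Q.take n)) ∧
      (∀ Q : List A, R Q → n ≤ Q.length) ∧
      (∀ (Q : List A) (d : ℕ), R Q → 0 < d → d ≤ W → ¬ R (Q.drop d)) ∧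
      (∀ (Q : List A) (p : ℕ), 0 < p → p ≤ W → (Q.take n).HasPeriod p → ¬ R Q) ∧
      (∀ (Q : List A) (N : ℕ), N + n ≤ Q.length → (∀ i < N, ¬ R (Q.drop i)) →
        ∃ p, 0 < p ∧ p ≤ W ∧ ((Q.drop G).take (N - 2 * G)).HasPeriod p) := by
  classical
  have : Countable A := Finite.to_countable
  obtain ⟨enc, henc⟩ := Countable.exists_injective_nat (List A)
  set l := 2 * W + 1 with hl
  obtain ⟨B, hB⟩ : ∃ B, ∀ x : List A, x.length = l → enc x < B := by
    have hf : {x : List A | x.length = l}.Finite := List.finite_length_eq A l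
    obtain ⟨b, hb⟩ := (hf.image enc).bddAbove
    exact ⟨b + 1, fun x hx => Nat.lt_succ_of_le (hb ⟨x, hx, rfl⟩)⟩
  refine ⟨2 * W + l, W * B, R enc W l, R_take enc W l, fun Q h => h.1,
    fun Q d h hd hdW h' => R_sep enc W l Q d hd hdW h h',
    fun Q p hp hpW h => R_run enc W l Q p hp hpW h, fun Q N hN hno => ?_⟩
  by_cases hNG : N ≤ 2 * (W * B)
  · refine ⟨1, one_pos, hW, ?_⟩
    rw [Nat.sub_eq_zero_of_le hNG]
    simp
  · push Not at hNG
    have hper : ∀ c, W * B ≤ c → c + W * B < N → PerN W l Q c := by
      intro c h1 h2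
      by_contra hn
      obtain ⟨j, hj1, hj2, hj3⟩ := descent enc henc W l Q B c
        (hB _ (nm_length l Q c (by omega))) h1 (by omega) hn
      exact hno j (by omega) hj3
    obtain ⟨p, hp, hpW, h⟩ := stretch W l le_rfl Q (W * B) (N - 2 * (W * B) - 1) (by omega)
      (fun i hi => hper _ (by omega) (by omega))
    refine ⟨p, hp, hpW, ?_⟩
    rw [List.hasPeriod_iff_getElem?, List.length_take, List.length_drop]
    intro i hi
    rw [List.getElem?_take_of_lt (by omega), List.getElem?_take_of_lt (by omega),
      List.getElem?_drop, List.getElem?_drop]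
    have := h i (by omega)
    rw [this, Nat.add_assoc]

/-- a word with period `p` is a power of its prefix of length `p` and a short rest -/
theorem per_pow (p : ℕ) (hp : 0 < p) (m : List A) (h : m.HasPeriod p) :
    ∃ k r, r.length < p ∧ m = (List.replicate k (m.take p)).flatten ++ r := by
  induction hm : m.length using Nat.strong_induction_on generalizing m with
  | _ N ih =>
    by_cases hlt : m.length < p
    · exact ⟨0, m, hlt, by simp⟩
    · push Not at hlt
      have hper' : (m.drop p).HasPeriod p := h.infix (List.drop_suffix _ _).isInfix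
      obtain ⟨k, r, hr, hk⟩ := ih (m.drop p).length (by rw [List.length_drop]; omega)
        (m.drop p) hper' rfl
      obtain ⟨z, hz⟩ := h.drop_prefix p
      by_cases h2 : p ≤ (m.drop p).length
      · have ht : (m.drop p).take p = m.take p := by
          conv_rhs => rw [← hz]
          rw [List.take_append_of_le_length h2]
        refine ⟨k + 1, r, hr, ?_⟩
        rw [List.replicate_succ, List.flatten_cons, List.append_assoc, ← ht, ← hk, ht,
          List.take_append_drop]
      · push Not at h2
        refine ⟨1, m.drop p, h2, ?_⟩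
        simp

/-- **Gap form**: the words without inner walls are `u ++ x^k ++ v` with bounded `u, x, v`. -/
theorem exists_marks' (A : Type*) [Finite A] (W : ℕ) (hW : 0 < W) :
    ∃ (n B : ℕ) (R : List A → Prop),
      (∀ Q : List A, R Q ↔ R (Q.take n)) ∧
      (∀ Q : List A, R Q → n ≤ Q.length) ∧
      (∀ (Q : List A) (d : ℕ), R Q → 0 < d → d ≤ W → ¬ R (Q.drop d)) ∧
      (∀ (Q : List A) (p : ℕ), 0 < p → p ≤ W → (Q.take n).HasPeriod p → ¬ R Q) ∧
      (∀ Q : List A, (∀ i, 0 < i → ¬ R (Q.drop i)) →
        ∃ (u x v : List A) (k : ℕ), u.length ≤ B ∧ x.length ≤ W ∧ v.length ≤ B ∧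
          Q = u ++ (List.replicate k x).flatten ++ v) := by
  obtain ⟨n, G, R, h1, h2, h3, h4, h5⟩ := exists_marks A W hW
  refine ⟨n, n + 2 * G + W + 1, R, h1, h2, h3, h4, fun Q hQ => ?_⟩
  by_cases hs : Q.length ≤ n
  · exact ⟨Q, [], [], 0, by omega, by simp, by simp, by simp⟩
  push Not at hs
  have hl : (Q.drop 1).length = Q.length - 1 := List.length_drop
  obtain ⟨p, hp, hpW, hper⟩ := h5 (Q.drop 1) (Q.length - 1 - n) (by omega) (fun i _ => by
    rw [List.drop_drop]
    exact hQ (1 + i) (by omega))
  set m := ((Q.drop 1).drop G).take (Q.length - 1 - n - 2 * G) with hm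
  obtain ⟨k, r, hr, hk⟩ := per_pow p hp m hper
  refine ⟨Q.take (1 + G), m.take p, r ++ (Q.drop (1 + G)).drop (Q.length - 1 - n - 2 * G), k,
    ?_, ?_, ?_, ?_⟩
  · rw [List.length_take]; omega
  · rw [List.length_take]; omega
  · rw [List.length_append, List.length_drop, List.length_drop]; omega
  · rw [List.append_assoc, ← List.append_assoc _ r, ← hk, hm, List.drop_drop,
      List.take_append_drop, List.take_append_drop]

end Crest.Agent.R320.MarkAll_813
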