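import Crest.Agent.R320.Asm_505
import Crest.Agent.R320.MarkAll_813
import Crest.Agent.R320.BddReg_746

/-!
# Row 320: assembly for 693's gadget, part 1: left-looking walls, two-wall blocks, heights (helper588)
-/

set_option autoImplicit false

namespace Crest.Agent.R320.AsmG588

open Crest.RegLang Crest.Agent.R320.Hk_851 Crest.Agent.R320.BddReg_746

universe u

variable {α : Type u}

/-- left-looking wall rule -/
structure LW (Wl : List α → Prop) (n W : ℕ) : Prop where
  loc : ∀ P Q : List α, n ≤ Q.length → (Wl (P ++ Q) ↔ Wl Q)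
  len : ∀ P, Wl P → n ≤ P.length
  ne : ¬ Wl []
  gap : ∀ P Q : List α, Wl P → Wl (P ++ Q) → Q ≠ [] → W < Q.length

theorem exists_LW (α : Type u) [Finite α] (W : ℕ) (hW : 0 < W) :
    ∃ (n B : ℕ) (Wl : List α → Prop), LW Wl n W ∧
      ∀ u : List α, (∀ t < u.length, ¬ Wl (u.take t)) → u ∈ (PN B 2 : Language α) := by
  obtain ⟨n, B, R, h1, h2, h3, -, h5⟩ := MarkAll_813.exists_marks' α W hW
  have hne : ¬ R [] := fun h => h3 [] 1 h one_pos hW (by simpa using h)
  refine ⟨n, B + W, fun P => R P.reverse, ⟨?_, ?_, ?_, ?_⟩, ?_⟩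
  · intro P Q hQ
    change R (P ++ Q).reverse ↔ R Q.reverse
    rw [h1 (P ++ Q).reverse, h1 Q.reverse, List.reverse_append,
      List.take_append_of_le_length (by simpa using hQ)]
  · intro P hP
    simpa using h2 _ hP
  · simpa using hne
  · intro P Q hP hPQ hQ
    by_contra hlt
    have h := h3 (P ++ Q).reverse Q.length hPQ (List.length_pos_iff.2 hQ) (by omega)
    apply h
    rw [List.reverse_append, List.drop_append_of_le_length (by simp)]
    rw [show Q.length = Q.reverse.length by simp, List.drop_length]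
    simpa using hP
  · intro u hu
    obtain ⟨u1, x, v1, k, hu1, hx, hv1, he⟩ := h5 u.reverse (by
      intro i hi
      rw [List.drop_reverse]
      by_cases h0 : u.length = 0
      · have : u = [] := List.length_eq_zero_iff.1 h0
        subst this
        simpa using hne
      · exact hu _ (by omega))
    have he' : u = (v1.reverse ++ (List.replicate k x.reverse).flatten) ++ (u1.reverse ++ pw x 0) := by
      have := congrArg List.reverse he
      rw [List.reverse_reverse] at this
      rw [this]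
      simp [List.reverse_append, List.reverse_flatten, pw]
    rw [he']
    refine Language.mem_mul.2 ⟨_, ⟨v1.reverse, x.reverse, k, ?_, ?_, rfl⟩, _,
      Language.mem_mul.2 ⟨_, ⟨u1.reverse, x, 0, ?_, ?_, rfl⟩, [], rfl, by simp⟩, rfl⟩
    all_goals (try rw [List.length_reverse])
    all_goals omega

/-- words which end at their first wall at a place `≥ z` -/
def FP (Wl : List α → Prop) (z : ℕ) : Language α :=
  {f | z ≤ f.length ∧ Wl f ∧ ∀ t, z ≤ t → t < f.length → ¬ Wl (f.take t)}

theorem mem_FP {Wl : List α → Prop} {z : ℕ} {f : List α} :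
    f ∈ FP Wl z ↔ z ≤ f.length ∧ Wl f ∧ ∀ t, z ≤ t → t < f.length → ¬ Wl (f.take t) := Iff.rfl

variable {Wl : List α → Prop} {n W z : ℕ}

theorem FP_code {f f' : List α} (hf : f ∈ FP Wl z) (hf' : f' ∈ FP Wl z) (h : f <+: f') : f = f' := by
  obtain ⟨d, rfl⟩ := h
  by_contra hne
  have hd : 0 < d.length := by
    rw [List.length_pos_iff]
    rintro rfl
    simp at hne
  have := hf'.2.2 f.length hf.1 (by simp; omega)
  simp at this
  exact this hf.2.1

theorem FP_cmp {f f' w : List α} (hf : f ∈ FP Wl z) (hf' : f' ∈ FP Wl z) (h : f <+: w)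
    (h' : f' <+: w) : f = f' := by
  rcases List.prefix_or_prefix_of_prefix h h' with h | h
  · exact FP_code hf hf' h
  · exact (FP_code hf' hf h).symm

theorem FP_ne (hw : LW Wl n W) {f : List α} (hf : f ∈ FP Wl z) : f ≠ [] := by
  rintro rfl
  exact hw.ne hf.2.1

/-- blocks -/
def UU (Wl : List α → Prop) (z : ℕ) : Language α := FP Wl z * FP Wl 0

theorem mem_UU {w : List α} : w ∈ UU Wl z ↔ ∃ f ∈ FP Wl z, ∃ g ∈ FP Wl 0, f ++ g = w :=
  Language.mem_mul

theorem UU_PC (hw : LW Wl n W) : Asm_505.PC (UU Wl z) where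
  ne := by
    intro h
    obtain ⟨f, hf, g, hg, h⟩ := mem_UU.1 h
    exact FP_ne hw hf (List.append_eq_nil_iff.1 h).1
  pc := by
    rintro _ hz _ hz' h
    obtain ⟨f, hf, g, hg, rfl⟩ := mem_UU.1 hz
    obtain ⟨f', hf', g', hg', rfl⟩ := mem_UU.1 hz'
    have h1 : f = f' := FP_cmp hf hf' ((List.prefix_append f g).trans h) (List.prefix_append f' g')
    subst h1
    rw [List.prefix_append_right_inj] at h
    rw [FP_code hg hg' h]

theorem HL_Wl [Finite α] (hw : LW Wl n W) (k : ℕ) : HL k ({w | Wl w} : Language α) := by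
  have hfin : ({r : List α | r.length = n ∧ Wl r}).Finite :=
    (List.finite_length_eq α n).subset fun r hr => hr.1
  refine (HL.suffix (HL.finite (k := k) hfin)).congr fun w => ?_
  constructor
  · intro h
    have hl := hw.len w h
    refine ⟨w.drop (w.length - n), ⟨by rw [List.length_drop]; omega, ?_⟩, List.drop_suffix _ _⟩
    have := hw.loc (w.take (w.length - n)) (w.drop (w.length - n)) (by rw [List.length_drop]; omega)
    rw [List.take_append_drop] at this
    exact this.1 h
  · rintro ⟨v, ⟨h1, h2⟩, ⟨p, rfl⟩⟩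
    exact (hw.loc p v (by omega)).2 h2

theorem HL_FP [Finite α] (hw : LW Wl n W) (z k : ℕ) : HL k (FP Wl z) := by
  have h1 : HL k ({w | z ≤ w.length ∧ Wl w} : Language α) :=
    (HL.length_ge z).setOf_and (HL_Wl hw k)
  have h2 := h1.sdiff (h1.mul (HL.length_ge (α := α) (k := k) 1))
  refine h2.congr fun w => ?_
  constructor
  · rintro ⟨h3, h4, h5⟩
    refine ⟨⟨h3, h4⟩, ?_⟩
    intro h6
    obtain ⟨a, ⟨ha, ha'⟩, b, hb, rfl⟩ := Language.mem_mul.1 h6
    have hb' : 1 ≤ b.length := hb
    have := h5 a.length ha (by simp; omega)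
    simp at this
    exact this ha'
  · rintro ⟨⟨h3, h4⟩, h5⟩
    refine ⟨h3, h4, fun t ht ht' h6 => h5 ?_⟩
    refine Language.mem_mul.2 ⟨w.take t, ⟨by rw [List.length_take]; omega, h6⟩, w.drop t, ?_,
      List.take_append_drop _ _⟩
    change 1 ≤ (w.drop t).length
    rw [List.length_drop]; omega

theorem drop_noWl (hw : LW Wl n W) {w : List α} {z c : ℕ} (hzc : z ≤ c)
    (h : ∀ t, z ≤ t → t < w.length → ¬ Wl (w.take t)) :
    ∀ t, t < (w.drop c).length → ¬ Wl ((w.drop c).take t) := by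
  intro t ht hWt
  rw [List.length_drop] at ht
  have h1 := hw.len _ hWt
  have h2 : w.take (c + t) = w.take c ++ (w.drop c).take t := by
    rw [← List.take_append_drop c (w.take (c + t)), List.take_take, Nat.min_eq_left (by omega),
      List.drop_take]
    congr 2
    omega
  exact h (c + t) (by omega) (by omega) (by rw [h2]; exact (hw.loc _ _ h1).2 hWt)

/-- valued first parts -/
theorem HL_val [Finite α] (hw : LW Wl n W) {B : ℕ}
    (hB : ∀ u : List α, (∀ t < u.length, ¬ Wl (u.take t)) → u ∈ (PN B 2 : Language α))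
    {S : Type*} [Monoid S] [Finite S] (φ : α → S) {z z1 : ℕ} (hz : z ≤ z1)
    (Q : List α → Prop) (Pr : List α → S → Prop)
    (hQ : ∀ f, z1 ≤ f.length → (Q f ↔ Pr (f.take z1) ((f.drop z1).map φ).prod)) :
    HL 1 ({f | f ∈ FP Wl z ∧ Q f} : Language α) := by
  have hs : HL 1 ({f | f.length < z1 ∧ f ∈ FP Wl z ∧ Q f} : Language α) :=
    HL.finite ((List.finite_length_lt α z1).subset fun f hf => hf.1)
  have hl : HL 1 ({f | ∃ w0 ∈ {w0 : List α | w0.length = z1}, f ∈ ({f | ∃ s : S, f ∈
      ({f | Pr w0 s ∧ f ∈ ({w0} : Language α) * LV φ (PN B 2) s} : Language α)} : Language α)} :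
        Language α) :=
    HL.biUnion (List.finite_length_eq α z1) fun w0 _ => HL.iUnion fun s =>
      (HL.const (Pr w0 s)).setOf_and ((HL.word w0).mul (HL_PN φ B 2 s))
  refine (hs.setOf_or ((HL_FP hw z 1).setOf_and hl)).congr fun f => ?_
  constructor
  · rintro ⟨h1, h2⟩
    by_cases hf : f.length < z1
    · exact Or.inl ⟨hf, h1, h2⟩
    · right
      refine ⟨h1, f.take z1, ?_, ((f.drop z1).map φ).prod, (hQ f (by omega)).1 h2, ?_⟩
      · change (f.take z1).length = z1
        rw [List.length_take]; omega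
      · refine Language.mem_mul.2 ⟨_, rfl, f.drop z1, ⟨hB _ ?_, rfl⟩, List.take_append_drop _ _⟩
        exact drop_noWl hw hz h1.2.2
  · rintro (⟨_, h1, h2⟩ | ⟨h1, w0, hw0, s, hs, h2⟩)
    · exact ⟨h1, h2⟩
    · obtain ⟨a, ha, k, ⟨_, hk⟩, rfl⟩ := Language.mem_mul.1 h2
      have ha' : a = w0 := ha
      subst ha'
      have hw0' : a.length = z1 := hw0
      refine ⟨h1, (hQ _ (by simp; omega)).2 ?_⟩
      rw [← hw0']
      simp only [List.take_left, List.drop_left]
      rw [hk]; exact hs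

theorem PN_mul {B : ℕ} : ∀ (R R' : ℕ) (u v : List α), u ∈ (PN B R : Language α) →
    v ∈ (PN B R' : Language α) → u ++ v ∈ (PN B (R + R') : Language α)
  | 0, R', u, v, hu, hv => by
    have : u = [] := hu
    subst this
    simpa using hv
  | R + 1, R', u, v, hu, hv => by
    obtain ⟨a, ha, b, hb, rfl⟩ := Language.mem_mul.1 hu
    rw [Nat.add_right_comm, List.append_assoc]
    exact Language.mem_mul.2 ⟨a, ha, _, PN_mul R R' b v hb hv, rfl⟩

theorem PN_mono {B B' : ℕ} (h : B ≤ B') : ∀ (R : ℕ) (u : List α), u ∈ (PN B R : Language α) →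
    u ∈ (PN B' R : Language α)
  | 0, u, hu => hu
  | R + 1, u, hu => by
    obtain ⟨a, ⟨f, x, k, hf, hx, rfl⟩, b, hb, rfl⟩ := Language.mem_mul.1 hu
    exact Language.mem_mul.2 ⟨_, ⟨f, x, k, by omega, by omega, rfl⟩, b, PN_mono h R b hb, rfl⟩

theorem PN_short {B : ℕ} {u : List α} (h : u.length ≤ B) : u ∈ (PN B 1 : Language α) :=
  Language.mem_mul.2 ⟨u, ⟨u, [], 0, h, by simp, by simp⟩, [], rfl, by simp⟩

theorem no_prefix {w : List α} (h : ∀ f ∈ FP Wl z, ¬ f <+: w) :
    ∀ t, z ≤ t → t ≤ w.length → ¬ Wl (w.take t) := by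
  intro t
  induction t using Nat.strong_induction_on with
  | _ t ih =>
    intro h1 h2 h3
    refine h (w.take t) ⟨by rw [List.length_take]; omega, h3, ?_⟩ (List.take_prefix _ _)
    intro s hs hs'
    rw [List.length_take] at hs'
    rw [List.take_take, Nat.min_eq_left (by omega)]
    exact ih s (by omega) hs (by omega)

/-- a word without a block as a prefix is a product of few pieces -/
theorem rest_PN (hw : LW Wl n W) {B : ℕ}
    (hB : ∀ u : List α, (∀ t < u.length, ¬ Wl (u.take t)) → u ∈ (PN B 2 : Language α))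
    {w : List α} (h : ∀ x ∈ UU Wl z, ¬ x <+: w) :
    w ∈ (PN (B + z) 3 : Language α) ∨ w ∈ (PN (B + z) 5 : Language α) := by
  have key : ∀ v : List α, (∀ t, z ≤ t → t < v.length → ¬ Wl (v.take t)) →
      v ∈ (PN (B + z) 3 : Language α) := by
    intro v hv
    rw [← List.take_append_drop z v]
    refine PN_mul 1 2 _ _ (PN_short (by rw [List.length_take]; omega)) ?_
    exact PN_mono (by omega) 2 _ (hB _ (drop_noWl hw le_rfl hv))
  by_cases h1 : ∃ f ∈ FP Wl z, f <+: w
  · obtain ⟨f, hf, g, rfl⟩ := h1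
    right
    refine PN_mul 3 2 _ _ (key f hf.2.2) (PN_mono (by omega) 2 _ (hB _ ?_))
    intro t ht
    refine no_prefix (z := 0) (w := g) (fun g' hg' hp => ?_) t (Nat.zero_le _) ht.le
    refine h (f ++ g') (mem_UU.2 ⟨f, hf, g', hg', rfl⟩) ?_
    rw [List.prefix_append_right_inj]
    exact hp
  · left
    push Not at h1
    exact key w fun t ht ht' => no_prefix h1 t ht ht'.le

theorem HL_rest [Finite α] (hw : LW Wl n W) {B : ℕ}
    (hB : ∀ u : List α, (∀ t < u.length, ¬ Wl (u.take t)) → u ∈ (PN B 2 : Language α))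
    {M : Type*} [Monoid M] [Finite M] (φ : α → M) (m : M) :
    HL 1 (Asm_505.Rest φ (UU Wl z) m) := by
  have hU : HL 1 (UU Wl z) := (HL_FP hw z 1).mul (HL_FP hw 0 1)
  refine (((HL_PN φ (B + z) 3 m).setOf_or (HL_PN φ (B + z) 5 m)).setOf_and
    hU.prefix.setOf_not).congr fun w => ?_
  constructor
  · rintro ⟨h1, h2⟩
    refine ⟨?_, ?_⟩
    · rcases rest_PN hw hB h1 with h | h
      · exact Or.inl ⟨h, h2⟩
      · exact Or.inr ⟨h, h2⟩
    · rintro ⟨v, hv, hp⟩
      exact h1 v hv hp
  · rintro ⟨h1, h2⟩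
    refine ⟨fun x hx hp => h2 ⟨x, hx, hp⟩, ?_⟩
    rcases h1 with h | h
    · exact h.2
    · exact h.2

end Crest.Agent.R320.AsmG588
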