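import Crest.Agent.R320.AsmG1_588
import Crest.Agent.R320.Exact_808

/-!
# Row 320: assembly for the grid gadget, part 2: tokens, levels 1 and 2, heights (helper588)
-/

set_option autoImplicit false

namespace Crest.Agent.R320.AsmG588

open Crest.RegLang Crest.Agent.R320.Hk_851 Crest.Agent.R320.BddReg_746

universe u

variable {α : Type u} {S V : Type*} [Monoid S] [AddCommGroup V]

section Defs

variable (Wl : List α → Prop) (act : V → S → V) (φ : List α → S) (z0 p0 N : ℕ)
  (Bad : ℕ → Prop) (nu1 nu2 : List α → V)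

/-- transport over a first part -/
def T1 (x : V) (f : List α) : V :=
  act (act x (φ (f.take p0)) + nu2 (f.take p0)) (φ (f.drop p0)) + nu1 (f.drop p0)

open Classical in
/-- transport over a block -/
noncomputable def eps (w : List α) (x : V) : V :=
  if h : ∃ fg : List α × List α, fg.1 ∈ FP Wl z0 ∧ fg.1 ++ fg.2 = w then
    act (T1 act φ p0 nu1 nu2 x h.choose.1) (φ h.choose.2) else x

def BadF (f : List α) : Prop :=
  f.length < z0 + N ∨ (∃ t, z0 - N ≤ t ∧ t < z0 ∧ Wl (f.take t)) ∨ Bad (f.length - p0)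

def BF : Language α := {f | f ∈ FP Wl z0 ∧ BadF Wl z0 p0 N Bad f}

def BB : Language α := BF Wl z0 p0 N Bad * FP Wl 0

def GF : Language α := {f | f ∈ FP Wl z0 ∧ ¬ BadF Wl z0 p0 N Bad f}

def C1 : Language α := {w | ∃ f ∈ GF Wl z0 p0 N Bad, f <+: w}

def P1 (lam1 : List α → Option V) (x : V) : Language α :=
  {p | p0 ≤ p.length ∧ lam1 (p.drop p0) = some (act x (φ (p.take p0)) + nu2 (p.take p0))}

def R1 (lam1 : List α → Option V) (y : V) : Language α :=
  {q | ∀ x, ∀ p ∈ P1 act φ p0 nu2 lam1 x, p ++ q ∈ UU Wl z0 ∧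
    eps Wl act φ z0 p0 nu1 nu2 (p ++ q) x = y}

def P2 (lam2 : List α → Option V) (xr : ℕ → ℕ) (K : ℕ) (x : V) : Language α :=
  {p | (∃ a < K, p.length = xr a) ∧ lam2 p = some x}

def R2 (lam2 : List α → Option V) (xr : ℕ → ℕ) (K : ℕ) (y : V) : Language α :=
  {q | ∀ x, ∀ p ∈ P2 lam2 xr K x, p ++ q ∈ C1 Wl z0 p0 N Bad ∨
    (p ++ q ∈ BB Wl z0 p0 N Bad ∧ eps Wl act φ z0 p0 nu1 nu2 (p ++ q) x = y)}

end Defs

variable {Wl : List α → Prop} {act : V → S → V} {φ : List α → S} {z0 p0 N n W : ℕ}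
  {Bad : ℕ → Prop} {nu1 nu2 : List α → V}

theorem eps_eq {f g : List α} (hf : f ∈ FP Wl z0) (x : V) :
    eps Wl act φ z0 p0 nu1 nu2 (f ++ g) x = act (T1 act φ p0 nu1 nu2 x f) (φ g) := by
  have h : ∃ fg : List α × List α, fg.1 ∈ FP Wl z0 ∧ fg.1 ++ fg.2 = f ++ g := ⟨(f, g), hf, rfl⟩
  rw [eps, dif_pos h]
  have h1 : h.choose.1 = f :=
    FP_cmp h.choose_spec.1 hf ⟨h.choose.2, h.choose_spec.2⟩ (List.prefix_append f g)
  have h2 : h.choose.2 = g := by
    have := h.choose_spec.2
    rw [h1] at this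
    exact List.append_cancel_left this
  rw [h1, h2]

theorem BB_sub {w : List α} (h : w ∈ BB Wl z0 p0 N Bad) : w ∈ UU Wl z0 := by
  obtain ⟨f, hf, g, hg, rfl⟩ := Language.mem_mul.1 h
  exact mem_UU.2 ⟨f, hf.1, g, hg, rfl⟩

/-- exchange of the left part -/
theorem FP_swap (hw : LW Wl n W) {p p' q : List α} {c c' : ℕ} (hc : p.length + n ≤ c)
    (hcc : c + p'.length = c' + p.length)
    (hl : z0 ≤ p'.length + q.length)
    (h1 : Wl (p ++ q)) (hq : n ≤ q.length)
    (h2 : ∀ t, c ≤ t → t < p.length + q.length → ¬ Wl ((p ++ q).take t)) (hz : c' ≤ z0) :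
    p' ++ q ∈ FP Wl z0 := by
  refine ⟨by simpa using hl, (hw.loc _ _ hq).2 ((hw.loc _ _ hq).1 h1), ?_⟩
  intro t ht ht' hWt
  rw [List.length_append] at ht'
  have e1 : (p' ++ q).take t = p' ++ q.take (t - p'.length) := by
    rw [List.take_append, List.take_of_length_le (by omega)]
  have hs : t - p'.length ≤ q.length := by omega
  have hn : n ≤ (q.take (t - p'.length)).length := by rw [List.length_take]; omega
  rw [e1] at hWt
  have h3 := (hw.loc _ _ hn).1 hWt
  apply h2 (t - p'.length + p.length) (by omega) (by omega)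
  have e2 : (p ++ q).take (t - p'.length + p.length) = p ++ q.take (t - p'.length) := by
    rw [List.take_append, List.take_of_length_le (by omega)]
    congr 2
    omega
  rw [e2]
  exact (hw.loc _ _ hn).2 h3

theorem take_wl (hw : LW Wl n W) {p p' q : List α} {t : ℕ} (ht : p'.length + n ≤ t)
    (ht' : t ≤ p'.length + q.length) :
    Wl ((p' ++ q).take t) ↔ Wl ((p ++ q).take (t - p'.length + p.length)) := by
  have hn : n ≤ (q.take (t - p'.length)).length := by rw [List.length_take]; omega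
  have e1 : (p' ++ q).take t = p' ++ q.take (t - p'.length) := by
    rw [List.take_append, List.take_of_length_le (by omega)]
  have e2 : (p ++ q).take (t - p'.length + p.length) = p ++ q.take (t - p'.length) := by
    rw [List.take_append, List.take_of_length_le (by omega)]
    congr 2
    omega
  rw [e1, e2, hw.loc _ _ hn, hw.loc _ _ hn]

/-- level 1 -/
theorem level1 (hw : LW Wl n W) (hφ : ∀ u v, φ (u ++ v) = φ u * φ v)
    (hact : ∀ x s t, act (act x s) t = act x (s * t))
    (hadd : ∀ x y s, act (x + y) s = act x s + act y s)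
    {lam1 rho1 : List α → Option V}
    (g1 : ∀ p v, lam1 p = some v → p.length ≤ N)
    (g2 : ∀ p q v r, lam1 p = some v → rho1 q = some r → r = act v (φ (p ++ q)) + nu1 (p ++ q))
    (g3 : ∀ u : List α, 2 * N ≤ u.length → ¬ Bad u.length → ∀ v, ∃ p q, p ++ q = u ∧
      lam1 p = some v ∧ (rho1 q).isSome)
    (hp0 : 0 < p0) (hz : p0 + 2 * N + n ≤ z0) :
    Asm_505.Level (UU Wl z0) (BB Wl z0 p0 N Bad) (eps Wl act φ z0 p0 nu1 nu2)
      (P1 act φ p0 nu2 lam1) (R1 Wl act φ z0 p0 nu1 nu2 lam1) where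
  pne := by
    intro x h
    have : p0 ≤ ([] : List α).length := h.1
    simp at this
    omega
  sound := by
    intro w hwU x y p hp q hq hc
    obtain ⟨h1, h2⟩ := hq x p hp
    have : w = p ++ q := by
      rcases hc with hc | hc
      · exact (UU_PC hw).pc w hwU _ h1 hc
      · exact ((UU_PC hw).pc _ h1 w hwU hc).symm
    subst this
    exact ⟨rfl, h2⟩
  compl := by
    intro w hwU hwB x
    obtain ⟨f, hf, g, hg, rfl⟩ := mem_UU.1 hwU
    have hb : ¬ BadF Wl z0 p0 N Bad f := fun h => hwB (Language.mem_mul.2 ⟨f, ⟨hf, h⟩, g, hg, rfl⟩)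
    unfold BadF at hb
    push Not at hb
    obtain ⟨b1, b2, b3⟩ := hb
    obtain ⟨p', q', hpq, hl, hr⟩ := g3 (f.drop p0) (by rw [List.length_drop]; omega)
      (by rw [List.length_drop]; exact b3) (act x (φ (f.take p0)) + nu2 (f.take p0))
    obtain ⟨r, hr⟩ := Option.isSome_iff_exists.1 hr
    have hp'N := g1 _ _ hl
    have hfl : (f.take p0).length = p0 := by rw [List.length_take]; omega
    have hfe : f = (f.take p0 ++ p') ++ q' := by
      rw [List.append_assoc, hpq, List.take_append_drop]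
    have hlen : f.length = p0 + p'.length + q'.length := by
      conv_lhs => rw [hfe]
      simp [hfl]
      omega
    -- common evaluation
    have key : ∀ x', ∀ p1 ∈ P1 act φ p0 nu2 lam1 x', (p1 ++ q') ∈ FP Wl z0 ∧
        T1 act φ p0 nu1 nu2 x' (p1 ++ q') = r := by
      rintro x' p1 ⟨k1, k2⟩
      have k3 := g1 _ _ k2
      rw [List.length_drop] at k3
      constructor
      · refine FP_swap hw (p := f.take p0 ++ p') (q := q') (c := z0 - p1.length + (p0 + p'.length))
          (c' := z0) ?_ ?_ ?_ ?_ ?_ ?_ le_rfl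
        · simp [hfl]; omega
        · simp [hfl]; omega
        · omega
        · rw [← hfe]; exact hf.2.1
        · omega
        · intro t ht ht'
          rw [← hfe]
          simp only [List.length_append, hfl] at ht'
          by_cases htz : t < z0
          · exact b2 t (by omega) htz
          · exact hf.2.2 t (by omega) (by omega)
      · have e1 : (p1 ++ q').take p0 = p1.take p0 := by
          rw [List.take_append_of_le_length k1]
        have e2 : (p1 ++ q').drop p0 = p1.drop p0 ++ q' := by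
          rw [List.drop_append_of_le_length k1]
        rw [T1, e1, e2]
        exact (g2 _ _ _ _ k2 hr).symm
    have hp : f.take p0 ++ p' ∈ P1 act φ p0 nu2 lam1 x := by
      refine ⟨by simp [hfl], ?_⟩
      rw [List.drop_append_of_le_length (by omega), List.take_append_of_le_length (by omega)]
      rw [List.drop_of_length_le (by omega), List.nil_append, List.take_take, Nat.min_self]
      exact hl
    refine ⟨f.take p0 ++ p', hp, q' ++ g, ?_, ?_⟩
    · intro x' p1 hp1
      obtain ⟨k1, k2⟩ := key x' p1 hp1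
      obtain ⟨k3, k4⟩ := key x _ hp
      rw [← List.append_assoc]
      refine ⟨mem_UU.2 ⟨_, k1, g, hg, rfl⟩, ?_⟩
      rw [eps_eq k1, k2, eps_eq hf]
      rw [← hfe] at k4
      rw [k4]
    · rw [← List.append_assoc, ← hfe]

theorem level2_sound (hw : LW Wl n W) {lam2 : List α → Option V} {xr : ℕ → ℕ} {K : ℕ}
    {w : List α} (hwB : w ∈ BB Wl z0 p0 N Bad) {x y : V} {p q : List α}
    (hp : p ∈ P2 lam2 xr K x) (hq : q ∈ R2 Wl act φ z0 p0 N Bad nu1 nu2 lam2 xr K y)
    (hc : w <+: p ++ q ∨ p ++ q <+: w) :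
    w = p ++ q ∧ eps Wl act φ z0 p0 nu1 nu2 w x = y := by
  rcases hq x p hp with ⟨f, ⟨hf, hf'⟩, hfp⟩ | ⟨h1, h2⟩
  · exfalso
    obtain ⟨f1, ⟨hf1, hb1⟩, g1, hg1, rfl⟩ := Language.mem_mul.1 hwB
    apply hf'
    have : f = f1 := by
      rcases hc with hc | hc
      · exact FP_cmp hf hf1 hfp ((List.prefix_append f1 g1).trans hc)
      · exact FP_cmp hf hf1 (hfp.trans hc) (List.prefix_append f1 g1)
    rw [this]
    exact hb1
  · have : w = p ++ q := by
      rcases hc with hc | hc
      · exact (UU_PC hw).pc w (BB_sub hwB) _ (BB_sub h1) hc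
      · exact ((UU_PC hw).pc _ (BB_sub h1) w (BB_sub hwB) hc).symm
    subst this
    exact ⟨rfl, h2⟩

end Crest.Agent.R320.AsmG588
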