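import Crest.Agent.R320.AsmG2_588

/-!
# Row 320: assembly for the grid gadget, part 3: heights of the languages (helper588)
-/

set_option autoImplicit false

namespace Crest.Agent.R320.AsmG588

open Crest.RegLang Crest.Agent.R320.Hk_851 Crest.Agent.R320.BddReg_746

universe u

variable {α : Type u} {S V : Type*} [Monoid S] [AddCommGroup V]

variable {Wl : List α → Prop} {act : V → S → V} {φ : List α → S} {z0 p0 N n W : ℕ}
  {Bad : ℕ → Prop} {nu1 nu2 : List α → V}

/-- value and length of a word in one finite monoid -/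
def vl (φ : α → S) (M0 : ℕ) (a : α) : S × Multiplicative (ZMod M0) := (φ a, Multiplicative.ofAdd 1)

theorem vl_prod (φ : α → S) (M0 : ℕ) (w : List α) :
    (w.map (vl φ M0)).prod = ((w.map φ).prod, Multiplicative.ofAdd ((w.length : ZMod M0))) := by
  induction w with
  | nil => simp; rfl
  | cons a w ih =>
    rw [List.map_cons, List.prod_cons, ih, vl, Prod.mk_mul_mk, List.map_cons, List.prod_cons,
      ← ofAdd_add]
    congr 2
    rw [List.length_cons]
    push_cast
    ring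

theorem vl_eq {φ : α → S} {M0 : ℕ} {w w' : List α}
    (h : (w.map (vl φ M0)).prod = (w'.map (vl φ M0)).prod) :
    (w.map φ).prod = (w'.map φ).prod ∧ w.length % M0 = w'.length % M0 := by
  rw [vl_prod, vl_prod, Prod.mk.injEq] at h
  refine ⟨h.1, ?_⟩
  have h2 := Multiplicative.ofAdd.injective h.2
  exact (ZMod.natCast_eq_natCast_iff' _ _ _).1 h2

theorem HL_val' [Finite α] [Finite S] (hw : LW Wl n W) {B : ℕ}
    (hB : ∀ u : List α, (∀ t < u.length, ¬ Wl (u.take t)) → u ∈ (PN B 2 : Language α))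
    (φ : α → S) {M0 : ℕ} (hM : 0 < M0) {z z1 : ℕ} (hz : z ≤ z1)
    (Q : List α → Prop)
    (hQ : ∀ w0 k k' : List α, w0.length = z1 → (k.map φ).prod = (k'.map φ).prod →
      k.length % M0 = k'.length % M0 → Q (w0 ++ k) → Q (w0 ++ k')) :
    HL 1 ({f | f ∈ FP Wl z ∧ Q f} : Language α) := by
  have : NeZero M0 := ⟨by omega⟩
  have : Finite (Multiplicative (ZMod M0)) := inferInstanceAs (Finite (ZMod M0))
  refine HL_val hw hB (vl φ M0) hz Q
    (fun w0 s => ∃ k', (k'.map (vl φ M0)).prod = s ∧ Q (w0 ++ k')) ?_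
  intro f hf
  constructor
  · intro h
    exact ⟨f.drop z1, rfl, by rw [List.take_append_drop]; exact h⟩
  · rintro ⟨k', h1, h2⟩
    obtain ⟨h3, h4⟩ := vl_eq h1
    have := hQ (f.take z1) k' (f.drop z1) (by rw [List.length_take]; omega) h3 h4 h2
    rwa [List.take_append_drop] at this

section Heights

variable [Finite α] [Finite S] [Finite V]

theorem Bad_mod {M0 : ℕ} (hper : ∀ T, Bad (T + M0) ↔ Bad T) {a b : ℕ} (h : a % M0 = b % M0) :
    Bad a ↔ Bad b := by
  have key : ∀ k T, Bad (T + M0 * k) ↔ Bad T := by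
    intro k
    induction k with
    | zero => intro T; simp
    | succ k ih => intro T; rw [Nat.mul_succ, ← Nat.add_assoc, hper, ih]
  have h1 : Bad a ↔ Bad (a % M0) := by
    conv_lhs => rw [← Nat.mod_add_div a M0]
    exact key _ _
  have h2 : Bad b ↔ Bad (b % M0) := by
    conv_lhs => rw [← Nat.mod_add_div b M0]
    exact key _ _
  rw [h1, h2, h]

theorem HL_BF (hw : LW Wl n W) {B : ℕ}
    (hB : ∀ u : List α, (∀ t < u.length, ¬ Wl (u.take t)) → u ∈ (PN B 2 : Language α))
    {M0 : ℕ} (hM : 0 < M0) (hper : ∀ T, Bad (T + M0) ↔ Bad T) (hp : p0 ≤ z0) :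
    HL 1 (BF Wl z0 p0 N Bad) := by
  refine HL_val' hw hB (S := Unit) (fun _ => ()) hM (z := z0) (z1 := z0 + N) (by omega)
    (BadF Wl z0 p0 N Bad) ?_
  rintro w0 k k' hw0 - hk h
  rcases h with h | ⟨t, h1, h2, h3⟩ | h
  · simp only [List.length_append] at h
    omega
  · right; left
    refine ⟨t, h1, h2, ?_⟩
    rw [List.take_append_of_le_length (by omega)] at h3 ⊢
    exact h3
  · right; right
    refine (Bad_mod hper ?_).1 h
    simp only [List.length_append]
    rw [show w0.length + k.length - p0 = (w0.length - p0) + k.length by omega,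
      show w0.length + k'.length - p0 = (w0.length - p0) + k'.length by omega,
      Nat.add_mod, hk, ← Nat.add_mod]

theorem HL_GF (hw : LW Wl n W) {B : ℕ}
    (hB : ∀ u : List α, (∀ t < u.length, ¬ Wl (u.take t)) → u ∈ (PN B 2 : Language α))
    {M0 : ℕ} (hM : 0 < M0) (hper : ∀ T, Bad (T + M0) ↔ Bad T) (hp : p0 ≤ z0) :
    HL 1 (GF Wl z0 p0 N Bad) := by
  refine ((HL_FP hw z0 1).sdiff (HL_BF (N := N) hw hB hM hper hp)).congr fun w => ?_
  constructor
  · rintro ⟨h1, h2⟩
    exact ⟨h1, fun h => h2 h.2⟩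
  · rintro ⟨h1, h2⟩
    exact ⟨h1, fun h => h2 ⟨h1, h⟩⟩

theorem HL_T1 (hw : LW Wl n W) {B : ℕ}
    (hB : ∀ u : List α, (∀ t < u.length, ¬ Wl (u.take t)) → u ∈ (PN B 2 : Language α))
    (ψ : α → S) {M0 N' : ℕ} (hM : 0 < M0)
    (hfs : ∀ u u' : List α, N' ≤ u.length → N' ≤ u'.length → u.take N' = u'.take N' →
      ((u.drop N').map ψ).prod = ((u'.drop N').map ψ).prod → u.length % M0 = u'.length % M0 →
      nu1 u = nu1 u') (hp : p0 + N' ≤ z0) (x v : V) :
    HL 1 ({f | f ∈ FP Wl z0 ∧ T1 act (fun w => (w.map ψ).prod) p0 nu1 nu2 x f = v} : Language α) := by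
  refine HL_val' hw hB ψ hM (z := z0) (z1 := z0) le_rfl _ ?_
  rintro w0 k k' hw0 hk hk' h
  rw [← h]
  unfold T1
  have e : ∀ k : List α, (w0 ++ k).take p0 = w0.take p0 := fun k =>
    List.take_append_of_le_length (by omega)
  have e' : ∀ k : List α, (w0 ++ k).drop p0 = w0.drop p0 ++ k := fun k =>
    List.drop_append_of_le_length (by omega)
  rw [e, e, e', e']
  have h1 : ((w0.drop p0 ++ k').map ψ).prod = ((w0.drop p0 ++ k).map ψ).prod := by
    rw [List.map_append, List.prod_append, List.map_append, List.prod_append, hk]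
  have hl : N' ≤ (w0.drop p0).length := by rw [List.length_drop]; omega
  have h2 : nu1 (w0.drop p0 ++ k') = nu1 (w0.drop p0 ++ k) := by
    refine hfs _ _ (by rw [List.length_append]; omega) (by rw [List.length_append]; omega) ?_ ?_ ?_
    · rw [List.take_append_of_le_length hl, List.take_append_of_le_length hl]
    · rw [List.drop_append_of_le_length hl, List.drop_append_of_le_length hl, List.map_append,
        List.prod_append, List.map_append, List.prod_append, hk]
    · rw [List.length_append, List.length_append, Nat.add_mod, ← hk', ← Nat.add_mod]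
  simp only [h1, h2]

theorem HL_G (hw : LW Wl n W) {B : ℕ}
    (hB : ∀ u : List α, (∀ t < u.length, ¬ Wl (u.take t)) → u ∈ (PN B 2 : Language α))
    (ψ : α → S) (v y : V) :
    HL 1 ({g | g ∈ FP Wl 0 ∧ act v (g.map ψ).prod = y} : Language α) := by
  refine HL_val' hw hB ψ (M0 := 1) one_pos (z := 0) (z1 := 0) le_rfl _ ?_
  rintro w0 k k' hw0 hk - h
  rw [← h, List.map_append, List.prod_append, List.map_append, List.prod_append, hk]

/-- blocks with a given transport -/
theorem HL_EU (hw : LW Wl n W) {B : ℕ}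
    (hB : ∀ u : List α, (∀ t < u.length, ¬ Wl (u.take t)) → u ∈ (PN B 2 : Language α))
    (ψ : α → S) {M0 N' : ℕ} (hM : 0 < M0)
    (hfs : ∀ u u' : List α, N' ≤ u.length → N' ≤ u'.length → u.take N' = u'.take N' →
      ((u.drop N').map ψ).prod = ((u'.drop N').map ψ).prod → u.length % M0 = u'.length % M0 →
      nu1 u = nu1 u') (hp : p0 + N' ≤ z0) (x y : V) :
    HL 1 ({w | w ∈ UU Wl z0 ∧ eps Wl act (fun w => (w.map ψ).prod) z0 p0 nu1 nu2 w x = y} :
      Language α) := by
  have h := HL.iUnion (k := 1) (ι := V) fun v =>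
    (HL_T1 (act := act) (nu2 := nu2) hw hB ψ hM hfs hp x v).mul (HL_G (act := act) hw hB ψ v y)
  refine h.congr fun w => ?_
  constructor
  · rintro ⟨h1, h2⟩
    obtain ⟨f, hf, g, hg, rfl⟩ := mem_UU.1 h1
    rw [eps_eq hf] at h2
    exact ⟨_, Language.mem_mul.2 ⟨f, ⟨hf, rfl⟩, g, ⟨hg, h2⟩, rfl⟩⟩
  · rintro ⟨v, hv⟩
    obtain ⟨f, ⟨hf, h1⟩, g, ⟨hg, h2⟩, rfl⟩ := Language.mem_mul.1 hv
    refine ⟨mem_UU.2 ⟨f, hf, g, hg, rfl⟩, ?_⟩
    rw [eps_eq hf, h1]
    exact h2

theorem HL_R1 {ψ : α → S}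
    (hEU : ∀ x y, HL 1 ({w | w ∈ UU Wl z0 ∧ eps Wl act (fun w => (w.map ψ).prod) z0 p0 nu1 nu2 w x = y} :
      Language α)) {lam1 : List α → Option V}
    (hfin : ∀ x, (P1 act (fun w => (w.map ψ).prod) p0 nu2 lam1 x : Set (List α)).Finite) (y : V) :
    HL 1 (R1 Wl act (fun w => (w.map ψ).prod) z0 p0 nu1 nu2 lam1 y) := by
  refine (HL.iInter (k := 1) (ι := V) fun x => HL.biInter (hfin x) fun p _ =>
    (hEU x y).lquot p).congr fun w => ?_
  exact Iff.rfl

theorem HL_R2 {ψ : α → S} (hBB : HL 1 (BB Wl z0 p0 N Bad)) (hGF : HL 1 (GF Wl z0 p0 N Bad))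
    (hEU : ∀ x y, HL 1 ({w | w ∈ UU Wl z0 ∧ eps Wl act (fun w => (w.map ψ).prod) z0 p0 nu1 nu2 w x = y} :
      Language α)) {lam2 : List α → Option V} {xr : ℕ → ℕ} {K : ℕ}
    (hfin : ∀ x, (P2 lam2 xr K x : Set (List α)).Finite) (y : V) :
    HL 1 (R2 Wl act (fun w => (w.map ψ).prod) z0 p0 N Bad nu1 nu2 lam2 xr K y) := by
  have h1 : HL 1 (C1 Wl z0 p0 N Bad) := hGF.prefix
  refine (HL.iInter (k := 1) (ι := V) fun x => HL.biInter (hfin x) fun p _ =>
    (h1.setOf_or (hBB.setOf_and (hEU x y))).lquot p).congr fun w => ?_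
  constructor
  · intro h x p hp
    rcases h x p hp with h | ⟨h2, h3⟩
    · exact Or.inl h
    · exact Or.inr ⟨h2, BB_sub h2, h3⟩
  · intro h x p hp
    rcases h x p hp with h | ⟨h2, _, h3⟩
    · exact Or.inl h
    · exact Or.inr ⟨h2, h3⟩

end Heights

end Crest.Agent.R320.AsmG588
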