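import Crest.Agent.R320.AsmG2_588

/-!
# Row 320: assembly for the grid gadget, part 4: the ruler of scheme 2 (helper588)
-/

set_option autoImplicit false

namespace Crest.Agent.R320.AsmG588

open Crest.RegLang Crest.Agent.R320.Hk_851 Crest.Agent.R320.BddReg_746

universe u

variable {α : Type u}

variable {Wl : List α → Prop} {z0 p0 N n W : ℕ} {Bad : ℕ → Prop}

theorem gap_places (hw : LW Wl n W) {z : List α} {s s' : ℕ} (hs : Wl (z.take s))
    (hs' : Wl (z.take s')) (hlt : s < s') (hl : s' ≤ z.length) : s + W < s' := by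
  have e : z.take s' = z.take s ++ (z.drop s).take (s' - s) := by
    rw [← List.take_append_drop s (z.take s'), List.take_take, Nat.min_eq_left hlt.le,
      List.drop_take]
  have hlen : ((z.drop s).take (s' - s)).length = s' - s := by
    rw [List.length_take, List.length_drop]; omega
  have := hw.gap (z.take s) ((z.drop s).take (s' - s)) hs (e ▸ hs') (by
    intro h0
    rw [h0] at hlen
    simp at hlen
    omega)
  omega

/-- what spoils a pair of ruler places -/
theorem spoil_pair (hw : LW Wl n W) {xr : ℕ → ℕ} {K : ℕ} (hmono : StrictMono xr)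
    (hz : p0 + 2 * xr K + 2 * N + n ≤ z0) (hW : 2 * xr K + 4 * N + 2 ≤ W)
    {f g : List α} (hf : f ∈ FP Wl z0) (hg : g ∈ FP Wl 0) {a b : ℕ} (ha : a < K) (hb : b < K)
    {p' : List α} (hp' : p'.length = xr b) (hC : p' ++ (f ++ g).drop (xr a) ∉ C1 Wl z0 p0 N Bad) :
    (∃ s ≤ (f ++ g).length, Wl ((f ++ g).take s) ∧ z0 + xr a ≤ s + xr b + N ∧
      s + xr b < z0 + N + xr a) ∨
    (∃ s ≤ (f ++ g).length, Wl ((f ++ g).take s) ∧ z0 + xr a ≤ s + xr b ∧
      (∀ t, z0 + xr a ≤ t + xr b → t < s → ¬ Wl ((f ++ g).take t)) ∧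
      Bad (s - p0 + xr b - xr a)) := by
  have hxa : xr a ≤ xr K := hmono.monotone ha.le
  have hxb : xr b ≤ xr K := hmono.monotone hb.le
  set z := f ++ g with hzdef
  have hgl := hw.len g hg.2.1
  have hWz : Wl z := (hw.loc f g hgl).2 hg.2.1
  have hgne : g ≠ [] := FP_ne hw hg
  have hgW := hw.gap f g hf.2.1 hWz hgne
  have hzl : z.length = f.length + g.length := by rw [hzdef, List.length_append]
  have hfz := hf.1
  have htl : (z.take (xr a)).length = xr a := by rw [List.length_take]; omega
  have hdl : (z.drop (xr a)).length = z.length - xr a := List.length_drop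
  set w' := p' ++ z.drop (xr a) with hw'
  have hw'l : w'.length = xr b + (z.length - xr a) := by rw [hw', List.length_append, hp', hdl]
  have tr : ∀ t, xr b + n ≤ t → t ≤ w'.length →
      (Wl (w'.take t) ↔ Wl (z.take (t - xr b + xr a))) := by
    intro t h1 h2
    have := take_wl hw (p := z.take (xr a)) (p' := p') (q := z.drop (xr a)) (t := t)
      (by omega) (by omega)
    rw [List.take_append_drop, htl, hp'] at this
    exact this
  have hWw : Wl (w'.take w'.length) := by
    rw [tr _ (by omega) le_rfl]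
    rw [List.take_of_length_le (by omega)]
    exact hWz
  have hex : ∃ f' ∈ FP Wl z0, f' <+: w' := by
    by_contra hno
    push Not at hno
    exact no_prefix (z := z0) hno w'.length (by omega) le_rfl hWw
  obtain ⟨f', hf', hpre⟩ := hex
  have hbad : BadF Wl z0 p0 N Bad f' := by
    by_contra h
    exact hC ⟨f', ⟨hf', h⟩, hpre⟩
  have hfl' : f'.length ≤ w'.length := hpre.length_le
  have hfe : f' = w'.take f'.length := List.prefix_iff_eq_take.1 hpre
  have hfe' : ∀ t ≤ f'.length, f'.take t = w'.take t := by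
    intro t ht
    conv_lhs => rw [hfe]
    rw [List.take_take, Nat.min_eq_left ht]
  have hf1 := hf'.1
  have hWf' : Wl (z.take (f'.length - xr b + xr a)) := by
    rw [← tr _ (by omega) hfl', ← hfe]
    exact hf'.2.1
  rcases hbad with h | ⟨t, h1, h2, h3⟩ | h
  · left
    exact ⟨f'.length - xr b + xr a, by omega, hWf', by omega, by omega⟩
  · left
    refine ⟨t - xr b + xr a, by omega, ?_, by omega, by omega⟩
    rw [← tr _ (by omega) (by omega), ← hfe' t (by omega)]
    exact h3
  · right
    refine ⟨f'.length - xr b + xr a, by omega, hWf', by omega, ?_, ?_⟩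
    · intro t h1 h2 h3
      have h4 : t = (t + xr b - xr a) - xr b + xr a := by omega
      rw [h4, ← tr _ (by omega) (by omega)] at h3
      rw [← hfe' _ (by omega)] at h3
      exact hf'.2.2 _ (by omega) (by omega) h3
    · have : f'.length - xr b + xr a - p0 + xr b - xr a = f'.length - p0 := by omega
      rw [this]
      exact h

open Classical in
/-- **spoil count** -/
theorem compl2 (hw : LW Wl n W) {xr : ℕ → ℕ} {K k0 : ℕ} (hmono : StrictMono xr)
    (hsp : ∀ a b c d, a < K → b < K → c < K → d < K → a ≠ b → c ≠ d → (a ≠ c ∨ b ≠ d) →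
      xr a + xr d + 2 * N ≤ xr c + xr b ∨ xr c + xr b + 2 * N ≤ xr a + xr d)
    (hthin : ∀ T, ((Finset.range K ×ˢ Finset.range K).filter (fun ab => ab.1 ≠ ab.2 ∧
      xr ab.1 ≤ T + xr ab.2 ∧ Bad (T + xr ab.2 - xr ab.1))).card ≤ k0)
    (hz : p0 + 2 * xr K + 2 * N + n ≤ z0) (hW : 2 * xr K + 4 * N + 2 ≤ W)
    {f g : List α} (hf : f ∈ FP Wl z0) (hg : g ∈ FP Wl 0) (As : Finset ℕ)
    (hA : ∀ a ∈ As, a < K) (hcard : 3 * k0 + 2 ≤ As.card) :
    ∃ a ∈ As, ∀ b < K, b ≠ a → ∀ p' : List α, p'.length = xr b →
      p' ++ (f ++ g).drop (xr a) ∈ C1 Wl z0 p0 N Bad := by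
  by_contra hcon
  push Not at hcon
  choose! bb hbK hba pp hpp hppC using hcon
  set z := f ++ g with hzdef
  have hgl := hw.len g hg.2.1
  have hWz : Wl z := (hw.loc f g hgl).2 hg.2.1
  have hzl : z.length = f.length + g.length := by rw [hzdef, List.length_append]
  have hgne : g ≠ [] := FP_ne hw hg
  have hgpos : 0 < g.length := List.length_pos_iff.2 hgne
  have hfz := hf.1
  have hff : ∀ t ≤ f.length, z.take t = f.take t := by
    intro t ht
    rw [hzdef, List.take_append_of_le_length ht]
  -- the unique wall just before `z0`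
  obtain ⟨s0, hs0⟩ : ∃ s0, ∀ s, Wl (z.take s) → z0 ≤ s + xr K → s < z0 → s = s0 := by
    by_cases h : ∃ s, Wl (z.take s) ∧ z0 ≤ s + xr K ∧ s < z0
    · obtain ⟨s1, h1, h2, h3⟩ := h
      refine ⟨s1, fun s k1 k2 k3 => ?_⟩
      rcases lt_trichotomy s s1 with hlt | h | hlt
      · have := gap_places hw k1 h1 hlt (by omega); omega
      · exact h
      · have := gap_places hw h1 k1 hlt (by omega); omega
    · push Not at h
      exact ⟨0, fun s k1 k2 k3 => absurd k3 (by have := h s k1 k2; omega)⟩
  -- the first wall behind `f`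
  have hex2 : ∃ s, f.length < s ∧ Wl (z.take s) :=
    ⟨z.length, by omega, by rw [List.take_length]; exact hWz⟩
  set s2 := Nat.find hex2 with hs2
  have hs2' := Nat.find_spec hex2
  have hs2le : s2 ≤ z.length := Nat.find_min' hex2 ⟨by omega, by rw [List.take_length]; exact hWz⟩
  have hs2gap : f.length + W < s2 := by
    refine gap_places hw (s := f.length) ?_ hs2'.2 hs2'.1 hs2le
    rw [hff _ le_rfl, List.take_length]
    exact hf.2.1
  let E : Finset (ℕ × ℕ) := (Finset.range K ×ˢ Finset.range K).filter (fun ab => ab.1 ≠ ab.2 ∧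
    ∃ s ≤ z.length, Wl (z.take s) ∧ z0 + xr ab.1 ≤ s + xr ab.2 + N ∧ s + xr ab.2 < z0 + N + xr ab.1)
  let Bp : ℕ → Finset (ℕ × ℕ) := fun s => (Finset.range K ×ˢ Finset.range K).filter
    (fun ab => ab.1 ≠ ab.2 ∧ xr ab.1 ≤ (s - p0) + xr ab.2 ∧ Bad ((s - p0) + xr ab.2 - xr ab.1))
  have hE : E.card ≤ 1 := by
    rw [Finset.card_le_one]
    rintro ⟨a, b⟩ hab ⟨c, d⟩ hcd
    simp only [E, Finset.mem_filter, Finset.mem_product, Finset.mem_range] at hab hcd
    obtain ⟨⟨haK, hbK⟩, hne, s, hs, hWs, h1, h2⟩ := hab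
    obtain ⟨⟨hcK, hdK⟩, hne', s', hs', hWs', h1', h2'⟩ := hcd
    have xa := hmono.monotone haK.le
    have xb := hmono.monotone hbK.le
    have xc := hmono.monotone hcK.le
    have xd := hmono.monotone hdK.le
    have hss : s = s' := by
      rcases lt_trichotomy s s' with hlt | h | hlt
      · have := gap_places hw hWs hWs' hlt hs'; omega
      · exact h
      · have := gap_places hw hWs' hWs hlt hs; omega
    subst hss
    by_contra hne2
    have hne3 : a ≠ c ∨ b ≠ d := by
      by_contra h
      push Not at h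
      exact hne2 (by rw [h.1, h.2])
    rcases hsp a b c d haK hbK hcK hdK hne hne' hne3 with h | h <;> omega
  have hsub : As.image (fun a => (a, bb a)) ⊆ E ∪ (Bp s0 ∪ (Bp f.length ∪ Bp s2)) := by
    intro ab hab
    rw [Finset.mem_image] at hab
    obtain ⟨a, haA, rfl⟩ := hab
    have haK := hA a haA
    have hbK' := hbK a haA
    have xa := hmono.monotone haK.le
    have xb := hmono.monotone hbK'.le
    have hne : a ≠ bb a := (hba a haA).symm
    simp only [Finset.mem_union]
    rcases spoil_pair (Bad := Bad) hw hmono hz hW hf hg haK hbK' (hpp a haA) (hppC a haA) with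
      h | ⟨s, h1, h2, h3, h4, h5⟩
    · left
      simp only [E, Finset.mem_filter, Finset.mem_product, Finset.mem_range]
      exact ⟨⟨haK, hbK'⟩, hne, h⟩
    · right
      have hmem : (a, bb a) ∈ Bp s := by
        simp only [Bp, Finset.mem_filter, Finset.mem_product, Finset.mem_range]
        exact ⟨⟨haK, hbK'⟩, hne, by omega, h5⟩
      by_cases hsz : s < z0
      · left
        rw [← hs0 s h2 (by omega) hsz]
        exact hmem
      · right
        rcases lt_trichotomy s f.length with hlt | h | hlt
        · exfalso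
          rw [hff s hlt.le] at h2
          exact hf.2.2 s (by omega) hlt h2
        · left
          rw [← h]; exact hmem
        · right
          have h6 : s = s2 := by
            have h7 : s2 ≤ s := Nat.find_min' hex2 ⟨hlt, h2⟩
            rcases lt_or_eq_of_le h7 with h8 | h8
            · exfalso
              exact h4 s2 (by omega) h8 hs2'.2
            · exact h8.symm
          rw [← h6]; exact hmem
  have hc1 : (As.image (fun a => (a, bb a))).card = As.card :=
    Finset.card_image_of_injective _ (fun x y h => (Prod.mk.inj h).1)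
  have hc2 := Finset.card_le_card hsub
  have hc3 : (E ∪ (Bp s0 ∪ (Bp f.length ∪ Bp s2))).card ≤ 1 + (k0 + (k0 + k0)) :=
    (Finset.card_union_le _ _).trans (Nat.add_le_add hE
      ((Finset.card_union_le _ _).trans (Nat.add_le_add (hthin _)
        ((Finset.card_union_le _ _).trans (Nat.add_le_add (hthin _) (hthin _))))))
  omega

end Crest.Agent.R320.AsmG588
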