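import Crest.Agent.R320.AsmD_512

/-!
# Row 320: the row from the gadget of scheme 1 (helper512)
-/

set_option autoImplicit false
set_option linter.unusedSectionVars false

namespace Crest.Agent.R320.AsmM_512

open Crest.RegLang Crest.Agent.R320.Hk_851 Crest.Agent.R320.FewWalls_228
  Crest.Agent.R320.P3Top_416 Crest.Agent.R320.Half1_180 Crest.Agent.R320.AsmW_512
  Crest.Agent.R320.AsmS_512 Crest.Agent.R320.AsmD_512

section lemmas

variable {α G : Type} [Monoid G] [Fintype G] [DecidableEq G]

theorem bs_inv {XXs Bad : Set (List α)} (h : PF XXs) (hB : Bad ⊆ XXs) {X w : List α}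
    (hX : X ∈ XXs) (hw : Bs Bad (X ++ w)) : X ∈ Bad ∧ Bs Bad w := by
  rcases Bs.inv h hB hw with h0 | ⟨Y, hY, w', e, hw'⟩
  · exact absurd (List.append_eq_nil_iff.1 h0).1 (h.1 X hX)
  · obtain ⟨rfl, rfl⟩ := h.eq hX (hB hY) e
    exact ⟨hY, hw'⟩

/-- completeness of scheme 1 -/
theorem compl1 (f : α → G) (p N1 A : ℕ) (nu2 nu1 : List α → G → ZMod 2)
    (lam1 rho1 : List α → Option (G → ZMod 2)) (Bd : ℕ → Prop)
    (g1 : ∀ p v, lam1 p = some v → p.length ≤ N1)
    (g3 : ∀ p q v r, lam1 p = some v → rho1 q = some r → r = act v (ph f (p ++ q)) + nu1 (p ++ q))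
    (g4 : ∀ u : List α, 2 * N1 + A ≤ u.length → ¬ Bd u.length → ∀ v, ∃ p q, p ++ q = u ∧
      lam1 p = some v ∧ (rho1 q).isSome)
    (n : ℕ) (S : Set (List α)) (z r : ℕ) (hz : p + 2 * N1 + n + A ≤ z) (hr : z + 1 ≤ r)
    (X : List α) (hX : X ∈ XX n S z) (hgood : ¬ BadP n S z N1 p Bd X) (v : G → ZMod 2) :
    ∃ P Q, X = P ++ Q ∧ P ∈ LP1 f p nu2 lam1 v ∧
      Q ∈ RQ1 f p nu2 nu1 lam1 n S z r (TT f p nu2 nu1 X v) := by
  unfold BadP at hgood
  push Not at hgood
  obtain ⟨b1, b2, b3⟩ := hgood
  have hl : (X.drop p).length = X.length - p := List.length_drop ..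
  obtain ⟨P', Q, e, hP', hQ⟩ := g4 (X.drop p) (by rw [hl]; omega) (by rw [hl]; exact b3)
    (act v (ph f (X.take p)) + nu2 (X.take p))
  obtain ⟨ro, hro⟩ := Option.isSome_iff_exists.1 hQ
  have hPl := g1 _ _ hP'
  have hXe : X = X.take p ++ P' ++ Q := by
    rw [List.append_assoc, e, List.take_append_drop]
  have htl : (X.take p).length = p := by rw [List.length_take]; omega
  have hPin : X.take p ++ P' ∈ LP1 f p nu2 lam1 v := by
    refine ⟨by rw [List.length_append]; omega, ?_⟩
    rw [List.drop_append, List.drop_eq_nil_of_le (by omega), List.nil_append, htl, Nat.sub_self,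
      List.drop_zero, List.take_append_of_le_length (by omega), List.take_take, Nat.min_self]
    exact hP'
  -- value of any left word
  have hval : ∀ v', ∀ P ∈ LP1 f p nu2 lam1 v', TT f p nu2 nu1 (P ++ Q) v' = ro := by
    rintro v' P ⟨h1, h2⟩
    have h3 := g3 _ _ _ _ h2 hro
    unfold TT
    rw [List.take_append_of_le_length h1, List.drop_append_of_le_length h1, ← h3]
  have hXv : TT f p nu2 nu1 X v = ro := by
    have := hval v _ hPin
    rwa [← hXe] at this
  have hlen : X.length = p + P'.length + Q.length := by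
    conv_lhs => rw [hXe]
    rw [List.length_append, List.length_append, htl]
  refine ⟨X.take p ++ P', Q, hXe, hPin, ?_, ?_⟩
  · rintro v' P hP
    refine ⟨?_, by rw [hval v' P hP, hXv]⟩
    have hP1 := hP.1
    have hP2 := g1 _ _ hP.2
    rw [List.length_drop] at hP2
    have hPlen : P.length ≤ p + N1 := by omega
    have hrel : ∀ t t', t + (p + P'.length) = t' + P.length → P.length + n ≤ t →
        (WE n S (P ++ Q) t ↔ WE n S X t') := by
      intro t t' h1 h2
      have e1 := WE.right (n := n) (S := S) (P := P) (Q := Q) (u := t - P.length) (by omega)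
      have e2 := WE.right (n := n) (S := S) (P := X.take p ++ P') (Q := Q) (u := t - P.length)
        (by omega)
      rw [← hXe, List.length_append, htl, show p + P'.length + (t - P.length) = t' by omega] at e2
      rw [show P.length + (t - P.length) = t by omega] at e1
      rw [e1, e2]
    obtain ⟨hX1, hX2, hX3⟩ := hX
    have hPQ : (P ++ Q).length = P.length + Q.length := List.length_append
    refine ⟨by omega, ?_, ?_⟩
    · rw [hPQ]
      exact (hrel _ X.length (by omega) (by omega)).2 hX2
    · intro t ht1 ht2 ht3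
      rw [hPQ] at ht2
      have h4 := (hrel t (t + (p + P'.length) - P.length) (by omega) (by omega)).1 ht3
      by_cases h5 : z ≤ t + (p + P'.length) - P.length
      · exact hX3 _ h5 (by omega) h4
      · exact b2 _ (by omega) (by omega) h4
  · have h1 := nw_drop (n := n) (S := S) (X.take p ++ P') Q
    rw [← hXe] at h1
    exact (h1.trans (nw_XX hX)).trans hr

end lemmas

end Crest.Agent.R320.AsmM_512
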