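import Crest.Agent.R320.Top5_467
import Crest.Agent.R320.WallU_228
import Crest.Agent.R320.RegBd_11

/-!
# Row 320, assembly (helper325), part 1: regularity and height one of the block families

Blocks of the natural chain rule: `X` ends at its first wall at a place `≥ z`.
-/

set_option autoImplicit false

namespace Crest.Agent.R320.AsmN_325

open Crest.RegLang Crest.Agent.R320.Hk_851 Crest.Agent.R320.Blk467

/-- finite-state functions of a word -/
def FS {α σ : Type} (f : List α → σ) : Prop :=
  (Set.range f).Finite ∧ ∀ X X' a, f X = f X' → f (X ++ [a]) = f (X' ++ [a])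

theorem FS.pair {α σ τ : Type} {f : List α → σ} {g : List α → τ} (hf : FS f)
    (hr : (Set.range g).Finite)
    (hg : ∀ X X' a, f X = f X' → g X = g X' → g (X ++ [a]) = g (X' ++ [a])) :
    FS (fun X => (f X, g X)) := by
  refine ⟨(hf.1.prod hr).subset ?_, ?_⟩
  · rintro _ ⟨X, rfl⟩
    exact ⟨⟨X, rfl⟩, ⟨X, rfl⟩⟩
  · intro X X' a h
    rw [Prod.mk.injEq] at h ⊢
    exact ⟨hf.2 _ _ _ h.1, hg _ _ _ h.1 h.2⟩

theorem FS.reg {α σ : Type} {f : List α → σ} (hf : FS f) (P : List α → Prop)
    (hP : ∀ X X', f X = f X' → P X → P X') : Language.IsRegular ({X | P X} : Language α) := by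
  classical
  haveI : Fintype (Set.range f) := hf.1.fintype
  let step : Set.range f → α → Set.range f := fun s a => ⟨f (s.2.choose ++ [a]), ⟨_, rfl⟩⟩
  let M : DFA α (Set.range f) := ⟨step, ⟨f [], ⟨[], rfl⟩⟩, {s | ∃ X, f X = s.1 ∧ P X}⟩
  have key : ∀ X : List α, M.eval X = ⟨f X, ⟨X, rfl⟩⟩ := by
    intro X
    induction X using List.reverseRecOn with
    | nil => rfl
    | append_singleton X a ih =>
      rw [DFA.eval_append_singleton, ih]
      apply Subtype.ext
      exact hf.2 _ _ _ (Exists.choose_spec (⟨X, rfl⟩ : ∃ y, f y = f X))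
  refine ⟨Set.range f, inferInstance, M, ?_⟩
  ext X
  rw [DFA.mem_accepts, key]
  constructor
  · rintro ⟨X', h1, h2⟩
    exact hP _ _ h1 h2
  · intro h
    exact ⟨X, rfl, h⟩

/-- the last `n` letters -/
def lastn {α : Type} (n : ℕ) (w : List α) : List α := w.drop (w.length - n)

theorem lastn_snoc {α : Type} (n : ℕ) (w : List α) (a : α) :
    lastn n (w ++ [a]) = lastn n (lastn n w ++ [a]) := by
  unfold lastn
  have e : w.drop (w.length - n) ++ [a] = (w ++ [a]).drop (w.length - n) := by
    rw [List.drop_append_of_le_length (by omega)]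
  rw [e, List.drop_drop]
  congr 1
  simp only [List.length_append, List.length_drop, List.length_singleton]
  omega

theorem range_len_finite {α : Type} [Finite α] (c : ℕ) : {l : List α | l.length ≤ c}.Finite :=
  List.finite_length_le α c

section

variable {α S : Type} [Finite α] [Monoid S] [Finite S] (φ : α → S)

/-- product of the values -/
def ph (w : List α) : S := (w.map φ).prod

theorem ph_append (u v : List α) : ph φ (u ++ v) = ph φ u * ph φ v := by
  simp [ph]

variable (Wo : List α → Prop) (n z c Pm : ℕ)

/-- a wall at a place in `[z, |X|)` -/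
def Fl (X : List α) : Prop := ∃ t, z ≤ t ∧ t < X.length ∧ Wo (X.take t)

/-- the blocks -/
def XX : Set (List α) := {X | Wo X ∧ z ≤ X.length ∧ ¬ Fl Wo z X}

/-- the state -/
def st (X : List α) : (((List α × List α) × ℕ) × S) × Prop :=
  ((((X.take c, lastn n X), X.length % Pm), ph φ (X.drop c)), Fl Wo z X)

theorem take_snoc {X X' : List α} {c : ℕ} (a : α) (h : X.take c = X'.take c) :
    (X ++ [a]).take c = (X' ++ [a]).take c := by
  have hl : min c X.length = min c X'.length := by
    have := congrArg List.length h
    simpa [List.length_take] using this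
  by_cases hc : X.length < c
  · have hc' : X'.length < c := by omega
    rw [List.take_of_length_le (by omega : X.length ≤ c),
      List.take_of_length_le (by omega : X'.length ≤ c)] at h
    rw [h]
  · have hc' : ¬ X'.length < c := by omega
    rw [List.take_append_of_le_length (by omega), List.take_append_of_le_length (by omega), h]

theorem len_lt {X X' : List α} {c : ℕ} (h : X.take c = X'.take c) {d : ℕ} (hd : d ≤ c) :
    d ≤ X.length → d ≤ X'.length := by
  intro h1
  have hl : min c X.length = min c X'.length := by
    have := congrArg List.length h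
    simpa [List.length_take] using this
  omega

theorem fs_st (hPm : 0 < Pm) (hc : z ≤ c)
    (hloc : ∀ P Q : List α, n ≤ Q.length → (Wo (P ++ Q) ↔ Wo Q))
    (hlen : ∀ P : List α, Wo P → n ≤ P.length) : FS (st φ Wo n z c Pm) := by
  have hWo : ∀ X : List α, Wo X ↔ Wo (lastn n X) := by
    intro X
    by_cases h : n ≤ X.length
    · have e : X = X.take (X.length - n) ++ lastn n X := by
        unfold lastn
        rw [List.take_append_drop]
      conv_lhs => rw [e]
      exact hloc _ _ (by unfold lastn; rw [List.length_drop]; omega)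
    · have e : lastn n X = X := by
        unfold lastn
        rw [show X.length - n = 0 by omega, List.drop_zero]
      rw [e]
  have h1 : FS (fun X : List α => X.take c) := by
    refine ⟨(range_len_finite c).subset ?_, fun X X' a h => take_snoc a h⟩
    rintro _ ⟨X, rfl⟩
    show (X.take c).length ≤ c
    rw [List.length_take]; omega
  have h2 : FS (fun X : List α => (X.take c, lastn n X)) := by
    refine h1.pair ((range_len_finite n).subset ?_) ?_
    · rintro _ ⟨X, rfl⟩
      show (lastn n X).length ≤ n
      unfold lastn
      rw [List.length_drop]; omega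
    · intro X X' a _ h
      rw [lastn_snoc, h, ← lastn_snoc]
  have h3 : FS (fun X : List α => ((X.take c, lastn n X), X.length % Pm)) := by
    refine h2.pair ((Set.finite_lt_nat Pm).subset ?_) ?_
    · rintro _ ⟨X, rfl⟩
      exact Nat.mod_lt _ hPm
    · intro X X' a _ h
      show (X ++ [a]).length % Pm = (X' ++ [a]).length % Pm
      rw [List.length_append, List.length_append, Nat.add_mod, h, ← Nat.add_mod]
  have h4 : FS (fun X : List α => (((X.take c, lastn n X), X.length % Pm), ph φ (X.drop c))) := by
    refine h3.pair (Set.toFinite _) ?_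
    intro X X' a h h'
    have ht : X.take c = X'.take c := congrArg (fun q => q.1.1) h
    by_cases hX : c ≤ X.length
    · have hX' := len_lt ht le_rfl hX
      rw [List.drop_append_of_le_length hX, List.drop_append_of_le_length hX', ph_append,
        ph_append, h']
    · have hX' : ¬ c ≤ X'.length := fun h => hX (len_lt ht.symm le_rfl h)
      rw [List.drop_eq_nil_of_le (by simp; omega), List.drop_eq_nil_of_le (by simp; omega)]
  have h5 : FS (st φ Wo n z c Pm) := by
    refine h4.pair (Set.toFinite _) ?_
    intro X X' a h h'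
    have ht : X.take c = X'.take c := congrArg (fun q => q.1.1.1) h
    have hl : lastn n X = lastn n X' := congrArg (fun q => q.1.1.2) h
    have key : ∀ X : List α, Fl Wo z (X ++ [a]) ↔ (Fl Wo z X ∨ (z ≤ X.length ∧ Wo X)) := by
      intro X
      constructor
      · rintro ⟨t, h1, h2, h3⟩
        rw [List.length_append, List.length_singleton] at h2
        by_cases ht : t < X.length
        · left
          rw [List.take_append_of_le_length (by omega)] at h3
          exact ⟨t, h1, ht, h3⟩
        · right
          have : t = X.length := by omega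
          subst this
          rw [List.take_left] at h3
          exact ⟨h1, h3⟩
      · rintro (⟨t, h1, h2, h3⟩ | ⟨h1, h2⟩)
        · exact ⟨t, h1, by rw [List.length_append]; omega, by
            rw [List.take_append_of_le_length (by omega)]; exact h3⟩
        · exact ⟨X.length, h1, by simp, by rw [List.take_left]; exact h2⟩
    rw [key, key, h', hWo X, hWo X', hl]
    apply propext
    constructor
    · rintro (h | ⟨h, h2⟩)
      · exact Or.inl h
      · exact Or.inr ⟨len_lt ht hc h, h2⟩
    · rintro (h | ⟨h, h2⟩)
      · exact Or.inl h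
      · exact Or.inr ⟨len_lt ht.symm hc h, h2⟩
  exact h5

/-- words whose walls are all before `z` (except possibly the end) are bounded products of
pieces -/
theorem pieces_of {R B : ℕ}
    (hloc : ∀ P Q : List α, n ≤ Q.length → (Wo (P ++ Q) ↔ Wo Q))
    (hlen : ∀ P : List α, Wo P → n ≤ P.length)
    (hfree : ∀ u : List α, (∀ t < u.length, ¬ Wo (u.take t)) → CompR_11.Pieces R B u)
    {X : List α} (hX : ¬ Fl Wo z X) : CompR_11.Pieces (R + 1) (max z B) X := by
  obtain ⟨l, h1, h2, h3⟩ := hfree (X.drop z) (by
    intro t ht hw
    rw [List.length_drop] at ht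
    have hn : n ≤ ((X.drop z).take t).length := hlen _ hw
    apply hX
    refine ⟨z + t, by omega, by omega, ?_⟩
    have e : X.take (z + t) = X.take z ++ (X.drop z).take t := by
      rw [List.take_add]
    rw [e]
    exact (hloc _ _ hn).2 hw)
  refine ⟨(X.take z, [], 0) :: l, ?_, ?_, ?_⟩
  · simp only [List.length_cons]; omega
  · intro t ht
    rcases List.mem_cons.1 ht with rfl | ht
    · refine ⟨?_, by simp⟩
      show (X.take z).length ≤ max z B
      rw [List.length_take]; omega
    · obtain ⟨a, b⟩ := h2 t ht
      exact ⟨le_trans a (le_max_right _ _), le_trans b (le_max_right _ _)⟩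
  · rw [Pump_360.val_cons, ← h3]
    show X = X.take z ++ Pump_360.pw [] 0 ++ X.drop z
    rw [Pump_360.pw_zero, List.append_nil, List.take_append_drop]

theorem pcode (h0 : 0 < z) : PCode (XX Wo z) := by
  constructor
  · rintro ⟨_, h, _⟩
    simp at h
    omega
  · rintro X ⟨h1, h2, h3⟩ Y ⟨g1, g2, g3⟩ ⟨r, rfl⟩
    by_contra hne
    have hr : r ≠ [] := by
      rintro rfl
      simp at hne
    have : 0 < r.length := List.length_pos_iff.2 hr
    exact g3 ⟨X.length, h2, by rw [List.length_append]; omega, by rw [List.take_left]; exact h1⟩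

/-- a word with a wall at a place `≥ z` has a block as a prefix -/
theorem exists_block {w : List α} {t : ℕ} (h1 : z ≤ t) (h2 : t ≤ w.length)
    (h3 : Wo (w.take t)) : ∃ s, z ≤ s ∧ s ≤ t ∧ w.take s ∈ XX Wo z := by
  classical
  have hex : ∃ s, z ≤ s ∧ Wo (w.take s) := ⟨t, h1, h3⟩
  obtain ⟨hs1, hs2⟩ := Nat.find_spec hex
  have hst : Nat.find hex ≤ t := Nat.find_min' hex ⟨h1, h3⟩
  have hl : (w.take (Nat.find hex)).length = Nat.find hex := by
    rw [List.length_take]; omega
  refine ⟨Nat.find hex, hs1, hst, hs2, by rw [hl]; exact hs1, ?_⟩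
  rintro ⟨r, hr1, hr2, hr3⟩
  rw [hl] at hr2
  rw [List.take_take, Nat.min_eq_left (by omega)] at hr3
  exact Nat.find_min hex hr2 ⟨hr1, hr3⟩

end

end Crest.Agent.R320.AsmN_325
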