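import Crest.Agent.R320.AsmN1_325

/-!
# Row 320, assembly (helper325), part 2: the two schemes of the natural chain rule
-/

set_option autoImplicit false

namespace Crest.Agent.R320.AsmN_325

open Crest.RegLang Crest.Agent.R320.Hk_851 Crest.Agent.R320.Blk467

/-- all data of the two schemes -/
structure D (α S V : Type) [Finite α] [Monoid S] [Finite S] [AddCommGroup V] [Finite V] where
  act : V → S → V
  hadd : ∀ a b s, act (a + b) s = act a s + act b s
  hone : ∀ v, act v 1 = v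
  hmul : ∀ v s t, act v (s * t) = act (act v s) t
  hfaith : ∀ s t, (∀ v, act v s = act v t) → s = t
  φ : α → S
  N1 : ℕ
  Pm : ℕ
  La : ℕ
  C0 : ℕ
  K : ℕ
  c : ℕ → ℕ
  Bad : ℕ → Prop
  lam : List α → Option V
  rho : List α → Option V
  nu1 : List α → V
  lam2 : ℕ → List α → Option V
  rho2 : ℕ → List α → Option V
  nu2 : List α → V
  Wo : List α → Prop
  n : ℕ
  W : ℕ
  Rw : ℕ
  Bw : ℕ
  p0 : ℕ
  z : ℕ
  hPm : 0 < Pm
  gol : ∀ i j k l, i < K → j < K → k < K → l < K → i ≠ j → k ≠ l → (i, j) ≠ (k, l) →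
      c i + c l + 4 * N1 < c k + c j ∨ c k + c j + 4 * N1 < c i + c l
  per : ∀ T, Bad (T + Pm) ↔ Bad T
  cnt : ∀ T, La ≤ T → ∀ s : Finset (ℕ × ℕ), (∀ p ∈ s, p.1 < K ∧ p.2 < K ∧ p.1 ≠ p.2 ∧
      Bad (T + c p.2 - c p.1)) → s.card ≤ C0
  lamN : ∀ p v, lam p = some v → p.length ≤ N1
  snd : ∀ p q v r, lam p = some v → rho q = some r → La ≤ q.length →
      r = act v (ph φ (p ++ q)) + nu1 (p ++ q)
  cmp : ∀ u, La ≤ u.length → ¬ Bad u.length → ∀ v, ∃ p q, p ++ q = u ∧ lam p = some v ∧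
      (rho q).isSome
  inv : ∀ q q', La ≤ q.length → La ≤ q'.length → q.take La = q'.take La →
      q.length % Pm = q'.length % Pm → ph φ (q.drop La) = ph φ (q'.drop La) → nu1 q = nu1 q'
  cp0 : ∀ k < K, c k ≤ p0
  snd2 : ∀ k < K, ∀ (P Q : List α) (v b : V), P.length = c k → P.length + Q.length = p0 →
      lam2 k P = some v → rho2 k Q = some b → b = act v (ph φ (P ++ Q)) + nu2 (P ++ Q)
  cmp2 : ∀ (u : List α) (v : V), u.length = p0 → ∃ I : Finset ℕ, 2 * C0 + 2 ≤ I.card ∧
      ∀ k ∈ I, k < K ∧ lam2 k (u.take (c k)) = some v ∧ (rho2 k (u.drop (c k))).isSome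
  loc : ∀ P Q : List α, n ≤ Q.length → (Wo (P ++ Q) ↔ Wo Q)
  len : ∀ P : List α, Wo P → n ≤ P.length
  sep : ∀ (P : List α) (d : ℕ), Wo P → 0 < d → d ≤ W → ¬ Wo (P.take (P.length - d))
  free : ∀ u : List α, (∀ t < u.length, ¬ Wo (u.take t)) → CompR_11.Pieces Rw Bw u
  hW : 2 * p0 + 2 * N1 + 2 ≤ W
  hz : 4 * p0 + 4 * N1 + n + La + 1 ≤ z

namespace D

variable {α S V : Type} [Finite α] [Monoid S] [Finite S] [AddCommGroup V] [Finite V]
  (d : D α S V)

/-- mode (E) -/
def E (X : List α) : Prop :=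
  ∃ t, t ≤ X.length ∧ d.Wo (X.take t) ∧ d.z ≤ t + d.N1 ∧ t ≤ d.z + d.N1

/-- bad blocks -/
def BS : Set (List α) := {X | X ∈ XX d.Wo d.z ∧ (d.E X ∨ d.Bad (X.length - d.p0))}

/-- common noise -/
def nu (X : List α) : V :=
  d.act (d.nu2 (X.take d.p0)) (ph d.φ (X.drop d.p0)) + d.nu1 (X.drop d.p0)

/-- zone map -/
def T (v : V) (X : List α) : V := d.act v (ph d.φ X) + d.nu X

/-- token at `p0` -/
def tk (v : V) (X : List α) : V := d.act v (ph d.φ (X.take d.p0)) + d.nu2 (X.take d.p0)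

theorem T_eq (v : V) (X : List α) :
    d.T v X = d.act (d.tk v X) (ph d.φ (X.drop d.p0)) + d.nu1 (X.drop d.p0) := by
  have e : ph d.φ X = ph d.φ (X.take d.p0) * ph d.φ (X.drop d.p0) := by
    rw [← ph_append, List.take_append_drop]
  unfold T tk nu
  rw [e, d.hmul, d.hadd, add_assoc]

def LP1 (v : V) : Language α := {P | d.p0 ≤ P.length ∧ d.lam (P.drop d.p0) = some (d.tk v P)}

def RQ1 (b : V) : Language α :=
  {Q | ∀ v, ∀ P : List α, P ∈ d.LP1 v → P ++ Q ∈ XX d.Wo d.z ∧ d.T v (P ++ Q) = b}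

def LP2 (v : V) : Language α := {P | ∃ k, k < d.K ∧ P.length = d.c k ∧ d.lam2 k P = some v}

def W2 (v b : V) : Language α :=
  {Z | ∃ X X', X ∈ d.BS ∧ X' ∈ d.BS ∧ Z = X ++ X' ∧ d.T (d.T v X) X' = b}

def Gd : Set (List α) := {X | X ∈ XX d.Wo d.z ∧ X ∉ d.BS}

def RQ2 (b : V) : Language α :=
  {Q | ∀ v, ∀ P : List α, P ∈ d.LP2 v → (P ++ Q ∈ d.W2 v b ∨ ∃ G ∈ d.Gd, G <+: P ++ Q)}

theorem wo_at (P Q : List α) {j : ℕ} (h1 : d.n ≤ j) (h2 : j ≤ Q.length) :
    d.Wo ((P ++ Q).take (P.length + j)) ↔ d.Wo (Q.take j) := by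
  have e : (P ++ Q).take (P.length + j) = P ++ Q.take j := by
    rw [List.take_append, List.take_of_length_le (by omega)]
    congr 2
    omega
  rw [e]
  exact d.loc _ _ (by rw [List.length_take]; omega)

/-- walls are far apart -/
theorem sep' {Z : List α} {s t : ℕ} (hst : s ≤ t + d.W) (hts : t ≤ s + d.W) (hs : s ≤ Z.length)
    (ht : t ≤ Z.length) (h1 : d.Wo (Z.take s)) (h2 : d.Wo (Z.take t)) : s = t := by
  by_contra hne
  have key : ∀ s t : ℕ, s < t → t ≤ s + d.W → t ≤ Z.length → d.Wo (Z.take s) →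
      d.Wo (Z.take t) → False := by
    intro s t h h' ht h1 h2
    have hl : (Z.take t).length = t := by rw [List.length_take]; omega
    refine d.sep (Z.take t) (t - s) h2 (by omega) (by omega) ?_
    rw [hl, List.take_take, show min (t - (t - s)) t = s by omega]
    exact h1
  rcases Nat.lt_or_gt_of_ne hne with h | h
  · exact key s t h hts ht h1 h2
  · exact key t s h hst hs h2 h1

/-- scheme 1: soundness -/
theorem s1 (v b : V) (P Q : List α) (hP : P ∈ d.LP1 v) (hQ : Q ∈ d.RQ1 b) :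
    P ++ Q ∈ XX d.Wo d.z ∧ d.T v (P ++ Q) = b := hQ v P hP

/-- scheme 1: completeness -/
theorem c1 (X : List α) (hX : X ∈ XX d.Wo d.z) (hB : X ∉ d.BS) (v : V) :
    ∃ P Q, P ++ Q = X ∧ P ∈ d.LP1 v ∧ Q ∈ d.RQ1 (d.T v X) := by
  obtain ⟨h1, h2, h3⟩ := hX
  have hz := d.hz
  have hE : ¬ d.E X := fun h => hB ⟨⟨h1, h2, h3⟩, Or.inl h⟩
  have hBd : ¬ d.Bad (X.length - d.p0) := fun h => hB ⟨⟨h1, h2, h3⟩, Or.inr h⟩
  have hXl : d.z + d.N1 < X.length := by
    by_contra hc
    exact hE ⟨X.length, le_rfl, by rw [List.take_length]; exact h1, by omega, by omega⟩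
  have hY : (X.drop d.p0).length = X.length - d.p0 := by rw [List.length_drop]
  obtain ⟨p, q, hpq, hl, hr⟩ := d.cmp (X.drop d.p0) (by rw [hY]; omega) (by rw [hY]; exact hBd)
    (d.tk v X)
  obtain ⟨r, hr⟩ := Option.isSome_iff_exists.1 hr
  have hpl := d.lamN _ _ hl
  have hX1 : (X.take d.p0).length = d.p0 := by rw [List.length_take]; omega
  have hXe : X.take d.p0 ++ p ++ q = X := by
    rw [List.append_assoc, hpq, List.take_append_drop]
  have hql : q.length = X.length - d.p0 - p.length := by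
    have := congrArg List.length hpq
    rw [List.length_append, hY] at this
    omega
  have hTr : ∀ (v' : V) (P' : List α), P' ∈ d.LP1 v' → d.T v' (P' ++ q) = r := by
    intro v' P' ⟨g1, g2⟩
    rw [T_eq]
    have e1 : (P' ++ q).take d.p0 = P'.take d.p0 := List.take_append_of_le_length g1
    have e2 : (P' ++ q).drop d.p0 = P'.drop d.p0 ++ q := List.drop_append_of_le_length g1
    have e3 : d.tk v' (P' ++ q) = d.tk v' P' := by unfold tk; rw [e1]
    rw [e2, e3]
    exact (d.snd _ _ _ _ g2 hr (by omega)).symm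
  have hPm : X.take d.p0 ++ p ∈ d.LP1 v := by
    refine ⟨by rw [List.length_append, hX1]; omega, ?_⟩
    have e1 : (X.take d.p0 ++ p).drop d.p0 = p := by
      rw [List.drop_append_of_le_length (by omega), List.drop_eq_nil_of_le (by omega),
        List.nil_append]
    have e2 : d.tk v (X.take d.p0 ++ p) = d.tk v X := by
      unfold tk
      rw [List.take_append_of_le_length (by omega), List.take_take, Nat.min_self]
    rw [e1, e2, hl]
  refine ⟨X.take d.p0 ++ p, q, hXe, hPm, ?_⟩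
  intro v' P' hP'
  have hT0 : d.T v X = r := by
    have := hTr v _ hPm
    rwa [hXe] at this
  refine ⟨?_, by rw [hTr v' P' hP', hT0]⟩
  obtain ⟨g1, g2⟩ := hP'
  have hp'l := d.lamN _ _ g2
  rw [List.length_drop] at hp'l
  have hwl : ∀ P : List α, (P ++ q).length = P.length + q.length := fun P => List.length_append
  refine ⟨?_, ?_, ?_⟩
  · rw [d.loc _ _ (by omega)]
    rw [← hXe] at h1
    exact (d.loc _ _ (by omega)).1 h1
  · rw [hwl]; omega
  · rintro ⟨s, hs1, hs2, hs3⟩
    rw [hwl] at hs2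
    obtain ⟨j, rfl⟩ : ∃ j, s = P'.length + j := ⟨s - P'.length, by omega⟩
    rw [d.wo_at P' q (by omega) (by omega)] at hs3
    have hPl : (X.take d.p0 ++ p).length = d.p0 + p.length := by
      rw [List.length_append, hX1]
    have hw : d.Wo (X.take (d.p0 + p.length + j)) := by
      have := (d.wo_at (X.take d.p0 ++ p) q (by omega) (by omega)).2 hs3
      rwa [hXe, hPl] at this
    by_cases hc : d.z ≤ d.p0 + p.length + j
    · exact h3 ⟨_, hc, by omega, hw⟩
    · exact hE ⟨_, by omega, hw, by omega, by omega⟩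

/-- scheme 2: soundness on bad texts -/
theorem s2 (v b : V) (P Q r : List α) (hP : P ∈ d.LP2 v) (hQ : Q ∈ d.RQ2 b)
    (h : P ++ Q ++ r ∈ Str d.BS) : P ++ Q ∈ Lg d.BS d.T v b := by
  have hz := d.hz
  rcases hQ v P hP with ⟨X, X', hX, hX', e, hT⟩ | ⟨G, hG, hpre⟩
  · refine ⟨[X, X'], ?_, ?_, hT⟩
    · intro Y hY
      rcases List.mem_cons.1 hY with rfl | hY
      · exact hX
      · rcases List.mem_cons.1 hY with rfl | hY
        · exact hX'
        · exact absurd hY (by simp)
    · rw [e]; simp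
  · exfalso
    have hPC := pcode (Wo := d.Wo) (z := d.z) (α := α) (by omega)
    obtain ⟨l, hl, hf⟩ := h
    have hG' : G <+: P ++ Q ++ r := hpre.trans (List.prefix_append _ _)
    cases l with
    | nil =>
      rw [List.flatten_nil] at hf
      rw [← hf] at hG'
      have : G = [] := List.prefix_nil.1 hG'
      exact hPC.1 (this ▸ hG.1)
    | cons Y l =>
      have hY := hl Y (by simp)
      have hYp : Y <+: P ++ Q ++ r := by
        rw [← hf, List.flatten_cons]
        exact List.prefix_append _ _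
      have : Y = G := by
        rcases List.prefix_or_prefix_of_prefix hYp hG' with h1 | h1
        · exact hPC.2 Y hY.1 G hG.1 h1
        · exact (hPC.2 G hG.1 Y hY.1 h1).symm
      exact hG.2 (this ▸ hY)

/-- candidate `k'` looks (E)-bad from the cut `k` -/
def EB (Z : List α) (k k' : ℕ) : Prop :=
  ∃ t, t ≤ Z.length ∧ d.Wo (Z.take t) ∧ d.z + d.c k ≤ t + d.c k' + d.N1 ∧
    t + d.c k' ≤ d.z + d.c k + d.N1

/-- candidate `k'` looks (B)-bad from the cut `k` (end at the wall `t`) -/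
def BB (Z : List α) (k k' t : ℕ) : Prop :=
  t ≤ Z.length ∧ d.Wo (Z.take t) ∧ d.z + d.c k ≤ t + d.c k' ∧
    (∀ t' < t, d.Wo (Z.take t') → t' + d.c k' < d.z + d.c k) ∧ d.Bad (t + d.c k' - d.c k - d.p0)

/-- a candidate which is not bad has a good block in front -/
theorem good_block {Z : List α} (hZ : d.Wo Z) (hZl : 2 * d.z ≤ Z.length) {k k' : ℕ}
    (hk : k < d.K) (hk' : k' < d.K) (h1 : ¬ d.EB Z k k') (h2 : ∀ t, ¬ d.BB Z k k' t)
    {P' : List α} (hP' : P'.length = d.c k') : ∃ G ∈ d.Gd, G <+: P' ++ Z.drop (d.c k) := by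
  have hz := d.hz
  have ck := d.cp0 k hk
  have ck' := d.cp0 k' hk'
  have hQl : (Z.drop (d.c k)).length = Z.length - d.c k := by rw [List.length_drop]
  have hZe : Z.take (d.c k) ++ Z.drop (d.c k) = Z := List.take_append_drop _ _
  have hZt : (Z.take (d.c k)).length = d.c k := by rw [List.length_take]; omega
  -- transfer of walls
  have tr : ∀ s, d.c k' + d.n ≤ s → s ≤ d.c k' + (Z.length - d.c k) →
      (d.Wo ((P' ++ Z.drop (d.c k)).take s) ↔ d.Wo (Z.take (s - d.c k' + d.c k))) := by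
    intro s hs1 hs2
    obtain ⟨j, rfl⟩ : ∃ j, s = P'.length + j := ⟨s - P'.length, by omega⟩
    rw [d.wo_at P' _ (by omega) (by omega)]
    have := d.wo_at (Z.take (d.c k)) (Z.drop (d.c k)) (j := j) (by omega) (by omega)
    rw [hZe, hZt] at this
    rw [← this, show P'.length + j - d.c k' + d.c k = d.c k + j by omega]
  have hend : d.Wo ((P' ++ Z.drop (d.c k)).take (d.c k' + (Z.length - d.c k))) := by
    rw [tr _ (by omega) le_rfl, show d.c k' + (Z.length - d.c k) - d.c k' + d.c k = Z.length by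
      omega, List.take_length]
    exact hZ
  obtain ⟨s, hs1, hs2, hs3⟩ := exists_block (α := α) (Wo := d.Wo) (z := d.z)
    (w := P' ++ Z.drop (d.c k)) (t := d.c k' + (Z.length - d.c k)) (by omega)
    (by rw [List.length_append]; omega) hend
  have hGl : ((P' ++ Z.drop (d.c k)).take s).length = s := by
    rw [List.length_take, List.length_append]; omega
  refine ⟨_, ⟨hs3, ?_⟩, List.take_prefix _ _⟩
  rintro ⟨⟨g1, g2, g3⟩, hE | hB⟩
  · obtain ⟨t, t1, t2, t3, t4⟩ := hE
    rw [hGl] at t1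
    rw [List.take_take, Nat.min_eq_left t1, tr t (by omega) (by omega)] at t2
    exact h1 ⟨t - d.c k' + d.c k, by omega, t2, by omega, by omega⟩
  · rw [hGl] at hB
    refine h2 (s - d.c k' + d.c k) ⟨by omega, (tr s (by omega) (by omega)).1 g1, by omega, ?_, ?_⟩
    · intro t' ht' hw
      by_contra hc
      have hw' : d.Wo ((P' ++ Z.drop (d.c k)).take (t' + d.c k' - d.c k)) := by
        rw [tr _ (by omega) (by omega), show t' + d.c k' - d.c k - d.c k' + d.c k = t' by omega]
        exact hw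
      refine g3 ⟨t' + d.c k' - d.c k, by omega, by rw [hGl]; omega, ?_⟩
      rw [List.take_take, Nat.min_eq_left (by omega)]
      exact hw'
    · rw [show s - d.c k' + d.c k + d.c k' - d.c k - d.p0 = s - d.p0 by omega]
      exact hB

open Classical in
/-- few bad pairs -/
theorem count (Z : List α) (hZ : d.Wo Z) (hZl : 2 * d.z ≤ Z.length) (s : Finset (ℕ × ℕ))
    (hs : ∀ p ∈ s, p.1 < d.K ∧ p.2 < d.K ∧ p.1 ≠ p.2 ∧
      (d.EB Z p.1 p.2 ∨ ∃ t, d.BB Z p.1 p.2 t)) : s.card ≤ 2 * d.C0 + 1 := by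
  have hz := d.hz
  have hW := d.hW
  -- (E) : one pair
  have h1 : (s.filter (fun p => d.EB Z p.1 p.2)).card ≤ 1 := by
    rw [Finset.card_le_one]
    intro p hp q hq
    rw [Finset.mem_filter] at hp hq
    obtain ⟨a1, a2, a3, -⟩ := hs p hp.1
    obtain ⟨b1, b2, b3, -⟩ := hs q hq.1
    obtain ⟨t, t1, t2, t3, t4⟩ := hp.2
    obtain ⟨u, u1, u2, u3, u4⟩ := hq.2
    have c1 := d.cp0 _ a1
    have c2 := d.cp0 _ a2
    have c3 := d.cp0 _ b1
    have c4 := d.cp0 _ b2
    have htu : t = u := d.sep' (Z := Z) (by omega) (by omega) t1 u1 t2 u2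
    subst htu
    by_contra hne
    have hne' : (p.2, p.1) ≠ (q.2, q.1) := by
      intro h
      rw [Prod.mk.injEq] at h
      exact hne (Prod.ext h.2 h.1)
    rcases d.gol p.2 p.1 q.2 q.1 a2 a1 b2 b1 (Ne.symm a3) (Ne.symm b3) hne' with h | h <;> omega
  -- (B) : the end is one of two walls
  obtain ⟨tf, f1, f2, f3, f4⟩ : ∃ tf, tf ≤ Z.length ∧ d.Wo (Z.take tf) ∧ d.z + d.p0 < tf ∧
      ∀ t, t < tf → d.z + d.p0 < t → ¬ d.Wo (Z.take t) := by
    have hex : ∃ t, d.z + d.p0 < t ∧ d.Wo (Z.take t) :=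
      ⟨Z.length, by omega, by rw [List.take_length]; exact hZ⟩
    obtain ⟨e1, e2⟩ := Nat.find_spec hex
    refine ⟨Nat.find hex, ?_, e2, e1, fun t h h' hw => Nat.find_min hex h ⟨h', hw⟩⟩
    exact Nat.find_min' hex ⟨by omega, by rw [List.take_length]; exact hZ⟩
  obtain ⟨tw, w1, w2⟩ : ∃ tw, d.z ≤ tw + d.p0 ∧ ∀ t, t ≤ Z.length → d.Wo (Z.take t) →
      d.z ≤ t + d.p0 → t ≤ d.z + d.p0 → t = tw := by
    by_cases hex : ∃ t, t ≤ Z.length ∧ d.Wo (Z.take t) ∧ d.z ≤ t + d.p0 ∧ t ≤ d.z + d.p0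
    · obtain ⟨t, t1, t2, t3, t4⟩ := hex
      exact ⟨t, t3, fun u u1 u2 u3 u4 => d.sep' (Z := Z) (by omega) (by omega) u1 t1 u2 t2⟩
    · exact ⟨d.z, by omega, fun t t1 t2 t3 t4 => absurd ⟨t, t1, t2, t3, t4⟩ hex⟩
  have hB : ∀ p ∈ s, ∀ t, d.BB Z p.1 p.2 t → t = tw ∨ t = tf := by
    intro p hp t hbb
    obtain ⟨t1, t2, t3, t4, -⟩ := hbb
    obtain ⟨a1, a2, -, -⟩ := hs p hp
    have c1 := d.cp0 _ a1
    have c2 := d.cp0 _ a2
    by_cases hc : t ≤ d.z + d.p0
    · exact Or.inl (w2 t t1 t2 (by omega) hc)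
    · right
      by_contra hne
      rcases Nat.lt_or_gt_of_ne hne with h | h
      · exact f4 t h (by omega) t2
      · have := t4 tf h f2
        omega
  have cnt' : ∀ t0, d.z ≤ t0 + d.p0 →
      (s.filter (fun p => d.BB Z p.1 p.2 t0)).card ≤ d.C0 := by
    intro t0 ht0
    refine d.cnt (t0 - d.p0) (by omega) _ ?_
    intro p hp
    rw [Finset.mem_filter] at hp
    obtain ⟨a1, a2, a3, -⟩ := hs p hp.1
    have c1 := d.cp0 _ a1
    have c2 := d.cp0 _ a2
    refine ⟨a1, a2, a3, ?_⟩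
    have := hp.2.2.2.2.2
    rwa [show t0 - d.p0 + d.c p.2 - d.c p.1 = t0 + d.c p.2 - d.c p.1 - d.p0 by omega]
  have hsub : s ⊆ s.filter (fun p => d.EB Z p.1 p.2) ∪
      (s.filter (fun p => d.BB Z p.1 p.2 tw) ∪ s.filter (fun p => d.BB Z p.1 p.2 tf)) := by
    intro p hp
    rw [Finset.mem_union, Finset.mem_union, Finset.mem_filter, Finset.mem_filter,
      Finset.mem_filter]
    rcases (hs p hp).2.2.2 with h | ⟨t, h⟩
    · exact Or.inl ⟨hp, h⟩
    · right
      rcases hB p hp t h with rfl | rfl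
      · exact Or.inl ⟨hp, h⟩
      · exact Or.inr ⟨hp, h⟩
  have := Finset.card_le_card hsub
  have h2 := Finset.card_union_le (s.filter (fun p => d.EB Z p.1 p.2))
    (s.filter (fun p => d.BB Z p.1 p.2 tw) ∪ s.filter (fun p => d.BB Z p.1 p.2 tf))
  have h3 := Finset.card_union_le (s.filter (fun p => d.BB Z p.1 p.2 tw))
    (s.filter (fun p => d.BB Z p.1 p.2 tf))
  have h4 := cnt' tw w1
  have h5 := cnt' tf (by omega)
  omega

open Classical in
/-- scheme 2: completeness on pairs of bad blocks -/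
theorem c2 (X : List α) (hX : X ∈ d.BS) (X' : List α) (hX' : X' ∈ d.BS) (v : V) :
    ∃ P Q, P ++ Q = X ++ X' ∧ P ∈ d.LP2 v ∧ Q ∈ d.RQ2 (d.T (d.T v X) X') := by
  have hz := d.hz
  obtain ⟨⟨x1, x2, x3⟩, xb⟩ := hX
  obtain ⟨⟨y1, y2, y3⟩, yb⟩ := hX'
  have hZ : d.Wo (X ++ X') := (d.loc _ _ (d.len _ y1)).2 y1
  have hZl : 2 * d.z ≤ (X ++ X').length := by rw [List.length_append]; omega
  have hul : (X.take d.p0).length = d.p0 := by rw [List.length_take]; omega
  obtain ⟨I, hI, hI'⟩ := d.cmp2 (X.take d.p0) v hul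
  let PB : Finset (ℕ × ℕ) := (Finset.range d.K ×ˢ Finset.range d.K).filter (fun p => p.1 ≠ p.2 ∧
    (d.EB (X ++ X') p.1 p.2 ∨ ∃ t, d.BB (X ++ X') p.1 p.2 t))
  have hPB : PB.card ≤ 2 * d.C0 + 1 := by
    refine d.count (X ++ X') hZ hZl PB ?_
    intro p hp
    rw [Finset.mem_filter, Finset.mem_product, Finset.mem_range, Finset.mem_range] at hp
    exact ⟨hp.1.1, hp.1.2, hp.2.1, hp.2.2⟩
  obtain ⟨k, hkI, hk⟩ : ∃ k ∈ I, k ∉ PB.image Prod.fst := by
    by_contra hc
    push Not at hc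
    have := Finset.card_le_card (fun k hk => hc k hk : I ⊆ PB.image Prod.fst)
    have h2 := Finset.card_image_le (s := PB) (f := Prod.fst)
    omega
  obtain ⟨hkK, hlam, hrho⟩ := hI' k hkI
  obtain ⟨b1, hrho⟩ := Option.isSome_iff_exists.1 hrho
  have ck := d.cp0 k hkK
  have hun : ∀ k', k' < d.K → k' ≠ k → ¬ d.EB (X ++ X') k k' ∧ ∀ t, ¬ d.BB (X ++ X') k k' t := by
    intro k' hk' hne
    constructor
    · intro h
      apply hk
      rw [Finset.mem_image]
      exact ⟨(k, k'), by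
        rw [Finset.mem_filter, Finset.mem_product, Finset.mem_range, Finset.mem_range]
        exact ⟨⟨hkK, hk'⟩, Ne.symm hne, Or.inl h⟩, rfl⟩
    · intro t h
      apply hk
      rw [Finset.mem_image]
      exact ⟨(k, k'), by
        rw [Finset.mem_filter, Finset.mem_product, Finset.mem_range, Finset.mem_range]
        exact ⟨⟨hkK, hk'⟩, Ne.symm hne, Or.inr ⟨t, h⟩⟩, rfl⟩
  have hkX : d.c k ≤ X.length := by omega
  have hdrop : (X ++ X').drop (d.c k) = X.drop (d.c k) ++ X' :=
    List.drop_append_of_le_length hkX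
  refine ⟨X.take (d.c k), (X ++ X').drop (d.c k), ?_, ?_, ?_⟩
  · rw [hdrop, ← List.append_assoc, List.take_append_drop]
  · refine ⟨k, hkK, by rw [List.length_take]; omega, ?_⟩
    rw [List.take_take, Nat.min_eq_left ck] at hlam
    exact hlam
  · intro v' P' hP'
    obtain ⟨k', hk', hPl, hlam'⟩ := hP'
    by_cases hne : k' = k
    · subst hne
      left
      have hXd : (X.drop (d.c k')).length = X.length - d.c k' := by rw [List.length_drop]
      -- the block with the other beginning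
      have hXs : X.take (d.c k') ++ X.drop (d.c k') = X := List.take_append_drop _ _
      have htl : (X.take (d.c k')).length = d.c k' := by rw [List.length_take]; omega
      have hl' : (P' ++ X.drop (d.c k')).length = X.length := by
        rw [List.length_append]; omega
      have tr : ∀ s, d.c k' + d.n ≤ s → s ≤ X.length →
          (d.Wo ((P' ++ X.drop (d.c k')).take s) ↔ d.Wo (X.take s)) := by
        intro s hs1 hs2
        obtain ⟨j, rfl⟩ : ∃ j, s = d.c k' + j := ⟨s - d.c k', by omega⟩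
        have e1 := d.wo_at P' (X.drop (d.c k')) (j := j) (by omega) (by omega)
        have e2 := d.wo_at (X.take (d.c k')) (X.drop (d.c k')) (j := j) (by omega) (by omega)
        rw [hPl] at e1
        rw [hXs, htl] at e2
        rw [e1, e2]
      have hX'' : P' ++ X.drop (d.c k') ∈ XX d.Wo d.z := by
        refine ⟨?_, by omega, ?_⟩
        · have := tr X.length (by omega) le_rfl
          rw [List.take_of_length_le (by omega), List.take_length] at this
          exact this.2 x1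
        · rintro ⟨s, hs1, hs2, hs3⟩
          rw [hl'] at hs2
          rw [tr s (by omega) (by omega)] at hs3
          exact x3 ⟨s, hs1, hs2, hs3⟩
      have hBS : P' ++ X.drop (d.c k') ∈ d.BS := by
        refine ⟨hX'', ?_⟩
        rw [hl']
        rcases xb with ⟨t, t1, t2, t3, t4⟩ | h
        · left
          exact ⟨t, by omega, (tr t (by omega) t1).2 t2, t3, t4⟩
        · exact Or.inr h
      have hT : d.T v' (P' ++ X.drop (d.c k')) = d.T v X := by
        rw [T_eq, T_eq]
        have e1 : (P' ++ X.drop (d.c k')).drop d.p0 = X.drop d.p0 := by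
          rw [List.drop_append, List.drop_eq_nil_of_le (by omega), List.nil_append,
            List.drop_drop]
          congr 1
          omega
        have e2 : (P' ++ X.drop (d.c k')).take d.p0 =
            P' ++ (X.take d.p0).drop (d.c k') := by
          rw [List.take_append, List.take_of_length_le (by omega), List.drop_take, hPl]
        have e3 : (X.take d.p0).take (d.c k') ++ (X.take d.p0).drop (d.c k') = X.take d.p0 :=
          List.take_append_drop _ _
        have hd' : ((X.take d.p0).drop (d.c k')).length = d.p0 - d.c k' := by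
          rw [List.length_drop, hul]
        have f1 := d.snd2 k' hk' P' ((X.take d.p0).drop (d.c k')) v' b1 hPl (by omega) hlam' hrho
        have f2 := d.snd2 k' hk' ((X.take d.p0).take (d.c k')) ((X.take d.p0).drop (d.c k')) v b1
          (by rw [List.length_take]; omega) (by rw [List.length_take]; omega) hlam hrho
        rw [e3] at f2
        have e4 : d.tk v' (P' ++ X.drop (d.c k')) = d.tk v X := by
          unfold tk
          rw [e2, ← f1, ← f2]
        rw [e1, e4]
      refine ⟨P' ++ X.drop (d.c k'), X', hBS, ⟨⟨y1, y2, y3⟩, yb⟩, ?_, by rw [hT]⟩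
      rw [hdrop, List.append_assoc]
    · right
      obtain ⟨h1, h2⟩ := hun k' hk' hne
      exact d.good_block hZ hZl hkK hk' h1 h2 hPl

end D

end Crest.Agent.R320.AsmN_325
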