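import Crest.Agent.R320.AsmN2_325

/-!
# Row 320, assembly (helper325), part 3: heights and the top
-/

set_option autoImplicit false

namespace Crest.Agent.R320.AsmN_325

open Crest.RegLang Crest.Agent.R320.Hk_851 Crest.Agent.R320.Blk467

namespace D

variable {α S V : Type} [Finite α] [Monoid S] [Finite S] [AddCommGroup V] [Finite V]
  (d : D α S V)

/-- window at the beginning -/
def cc : ℕ := d.z + d.N1 + d.p0 + d.La

/-- the state of a word -/
def sta (X : List α) : (((List α × List α) × ℕ) × S) × Prop := st d.φ d.Wo d.n d.z d.cc d.Pm X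

theorem wo_lastn (X : List α) : d.Wo X ↔ d.Wo (lastn d.n X) := by
  by_cases h : d.n ≤ X.length
  · have e : X = X.take (X.length - d.n) ++ lastn d.n X := by
      unfold lastn
      rw [List.take_append_drop]
    conv_lhs => rw [e]
    exact d.loc _ _ (by unfold lastn; rw [List.length_drop]; omega)
  · have e : lastn d.n X = X := by
      unfold lastn
      rw [show X.length - d.n = 0 by omega, List.drop_zero]
    rw [e]

theorem fs : FS d.sta := by
  refine fs_st d.φ d.Wo d.n d.z d.cc d.Pm d.hPm ?_ d.loc d.len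
  unfold cc; omega

section inv

variable {X X' : List α} (h : d.sta X = d.sta X')

include h

theorem st_take : X.take d.cc = X'.take d.cc := congrArg (fun q => q.1.1.1.1) h

theorem st_last : lastn d.n X = lastn d.n X' := congrArg (fun q => q.1.1.1.2) h

theorem st_mod : X.length % d.Pm = X'.length % d.Pm := congrArg (fun q => q.1.1.2) h

theorem st_ph : ph d.φ (X.drop d.cc) = ph d.φ (X'.drop d.cc) := congrArg (fun q => q.1.2) h

theorem st_fl : Fl d.Wo d.z X = Fl d.Wo d.z X' := congrArg (fun q => q.2) h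

theorem st_wo : d.Wo X → d.Wo X' := by
  rw [d.wo_lastn, d.wo_lastn X', d.st_last h]
  exact id

theorem st_len {m : ℕ} (hm : m ≤ d.cc) : m ≤ X.length → m ≤ X'.length :=
  len_lt (d.st_take h) hm

theorem st_XX : X ∈ XX d.Wo d.z → X' ∈ XX d.Wo d.z := by
  rintro ⟨h1, h2, h3⟩
  refine ⟨d.st_wo h h1, d.st_len h (by unfold cc; omega) h2, ?_⟩
  rw [← d.st_fl h]
  exact h3

theorem st_E : d.E X → d.E X' := by
  rintro ⟨t, t1, t2, t3, t4⟩
  have ht : t ≤ d.cc := by unfold cc; omega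
  refine ⟨t, d.st_len h ht t1, ?_, t3, t4⟩
  have e : X.take t = X'.take t := by
    have := congrArg (List.take t) (d.st_take h)
    rwa [List.take_take, List.take_take, Nat.min_eq_left ht] at this
  rwa [← e]

theorem st_Bad (h1 : d.p0 ≤ X.length) (h2 : d.p0 ≤ X'.length) :
    d.Bad (X.length - d.p0) → d.Bad (X'.length - d.p0) := by
  have per : ∀ k T, d.Bad (T + k * d.Pm) ↔ d.Bad T := by
    intro k
    induction k with
    | zero => intro T; simp
    | succ k ih => intro T; rw [Nat.succ_mul, ← Nat.add_assoc, d.per, ih]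
  have hm : (X.length - d.p0) ≡ (X'.length - d.p0) [MOD d.Pm] := by
    refine Nat.ModEq.add_right_cancel' d.p0 ?_
    rw [Nat.sub_add_cancel h1, Nat.sub_add_cancel h2]
    exact d.st_mod h
  have key : ∀ a b : ℕ, a % d.Pm = b % d.Pm → (d.Bad a ↔ d.Bad b) := by
    intro a b hab
    have ea := Nat.div_add_mod' a d.Pm
    have eb := Nat.div_add_mod' b d.Pm
    rw [← ea, ← eb, Nat.add_comm, per, Nat.add_comm (b / d.Pm * d.Pm), per, hab]
  exact (key _ _ hm).1

theorem st_T (h1 : X ∈ XX d.Wo d.z) (h2 : X' ∈ XX d.Wo d.z) (v : V) : d.T v X = d.T v X' := by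
  have hz := d.hz
  have l1 := h1.2.1
  have l2 := h2.2.1
  have tk' : ∀ m, m ≤ d.cc → X.take m = X'.take m := by
    intro m hm
    have := congrArg (List.take m) (d.st_take h)
    rwa [List.take_take, List.take_take, Nat.min_eq_left hm] at this
  have hcz : d.p0 + d.La ≤ d.cc := by unfold cc; omega
  have dr : ∀ m, m ≤ d.p0 + d.La → ph d.φ (X.drop m) = ph d.φ (X'.drop m) := by
    intro m hm
    have e : ∀ Y : List α, d.z ≤ Y.length → ph d.φ (Y.drop m) =
        ph d.φ ((Y.take d.cc).drop m) * ph d.φ (Y.drop d.cc) := by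
      intro Y hY
      rw [← ph_append]
      congr 1
      conv_lhs => rw [← List.take_append_drop d.cc Y]
      rw [List.drop_append_of_le_length]
      rw [List.length_take]
      omega
    rw [e X l1, e X' l2, d.st_take h, d.st_ph h]
  rw [T_eq, T_eq]
  have e1 : d.tk v X = d.tk v X' := by
    unfold tk
    rw [tk' d.p0 (by omega)]
  rw [e1, dr d.p0 (by omega)]
  congr 1
  refine d.inv _ _ (by rw [List.length_drop]; omega) (by rw [List.length_drop]; omega) ?_ ?_ ?_
  · rw [List.take_drop, List.take_drop, tk' _ (by omega)]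
  · rw [List.length_drop, List.length_drop]
    have hm : (X.length - d.p0) ≡ (X'.length - d.p0) [MOD d.Pm] := by
      refine Nat.ModEq.add_right_cancel' d.p0 ?_
      rw [Nat.sub_add_cancel (by omega), Nat.sub_add_cancel (by omega)]
      exact d.st_mod h
    exact hm
  · rw [List.drop_drop, List.drop_drop]
    exact dr _ (by omega)

end inv

/-- families of blocks have height one -/
theorem HLX (P : List α → Prop) (hP : ∀ X X', X ∈ XX d.Wo d.z → X' ∈ XX d.Wo d.z →
    d.sta X = d.sta X' → P X → P X') :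
    HL 1 ({X | X ∈ XX d.Wo d.z ∧ P X} : Language α) := by
  have hreg : Language.IsRegular ({X | X ∈ XX d.Wo d.z ∧ P X} : Language α) := by
    refine d.fs.reg (fun X => X ∈ XX d.Wo d.z ∧ P X) ?_
    rintro X X' h ⟨h1, h2⟩
    exact ⟨d.st_XX h h1, hP X X' h1 (d.st_XX h h1) h h2⟩
  exact RegBd_11.reg_pieces hreg (d.Rw + 1) (max d.z d.Bw)
    (fun w hw => pieces_of d.Wo d.n d.z d.loc d.len d.free hw.1.2.2)

theorem st_BS {X X' : List α} (h1 : X ∈ XX d.Wo d.z) (h2 : X' ∈ XX d.Wo d.z)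
    (h : d.sta X = d.sta X') : X ∈ d.BS → X' ∈ d.BS := by
  have hz := d.hz
  rintro ⟨-, hb⟩
  refine ⟨h2, ?_⟩
  rcases hb with hb | hb
  · exact Or.inl (d.st_E h hb)
  · exact Or.inr (d.st_Bad h (by have := h1.2.1; omega) (by have := h2.2.1; omega) hb)

theorem HL_BS : HL 1 (d.BS : Language α) := by
  refine (d.HLX (fun X => X ∈ d.BS) fun X X' h1 h2 h => d.st_BS h1 h2 h).congr fun w => ?_
  exact ⟨fun h => ⟨h.1, h⟩, fun h => h.2⟩

theorem HL_Gd : HL 1 (d.Gd : Language α) := by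
  exact d.HLX (fun X => X ∉ d.BS) fun X X' h1 h2 h hn hb => hn (d.st_BS h2 h1 h.symm hb)

theorem HL_XT (v b : V) : HL 1 ({X | X ∈ XX d.Wo d.z ∧ d.T v X = b} : Language α) :=
  d.HLX (fun X => d.T v X = b) fun X X' h1 h2 h he => by rw [← he]; exact (d.st_T h h1 h2 v).symm

def BT (v b : V) : Language α := {X | X ∈ d.BS ∧ d.T v X = b}

theorem HL_BT (v b : V) : HL 1 (d.BT v b) := by
  refine (d.HL_BS.inf (d.HL_XT v b)).congr fun w => ?_
  exact ⟨fun h => ⟨h.1, h.1.1, h.2⟩, fun h => ⟨h.1, h.2.2⟩⟩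

theorem HL_W2 (v b : V) : HL 1 (d.W2 v b) := by
  refine (HL.iUnion (k := 1) (ι := V) (L := fun v1 => d.BT v v1 * d.BT v1 b)
    (fun v1 => (d.HL_BT v v1).mul (d.HL_BT v1 b))).congr fun w => ?_
  constructor
  · rintro ⟨X, X', h1, h3, rfl, h4⟩
    exact ⟨d.T v X, Language.mem_mul.2 ⟨X, ⟨h1, rfl⟩, X', ⟨h3, h4⟩, rfl⟩⟩
  · rintro ⟨v1, h⟩
    obtain ⟨X, ⟨h1, h2⟩, X', ⟨h3, h4⟩, rfl⟩ := Language.mem_mul.1 h
    exact ⟨X, X', h1, h3, rfl, by rw [h2]; exact h4⟩

/-- semantic right languages -/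
theorem HL_sem {k B : ℕ} (LP M : V → Language α) (hB : ∀ v, ∀ P ∈ LP v, P.length ≤ B)
    (hM : ∀ v, HL k (M v)) :
    HL k ({Q | ∀ v, ∀ P : List α, P ∈ LP v → P ++ Q ∈ M v} : Language α) := by
  refine (HL.iInter (k := k) (ι := V) (L := fun v =>
    ({Q | ∀ P ∈ {l : List α | l.length ≤ B}, Q ∈ ({Q | P ∈ LP v → P ++ Q ∈ M v} : Language α)}
      : Language α)) (fun v => HL.biInter (range_len_finite B) (fun P _ =>
      HL.setOf_imp (HL.const _) ((hM v).lquot P)))).congr fun w => ?_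
  constructor
  · intro h v P _ hP
    exact h v P hP
  · intro h v P hP
    exact h v P (hB v P hP) hP

theorem LP1_len (v : V) (P : List α) (hP : P ∈ d.LP1 v) : P.length ≤ d.p0 + d.N1 := by
  obtain ⟨h1, h2⟩ := hP
  have := d.lamN _ _ h2
  rw [List.length_drop] at this
  omega

theorem LP2_len (v : V) (P : List α) (hP : P ∈ d.LP2 v) : P.length ≤ d.p0 := by
  obtain ⟨k, h1, h2, -⟩ := hP
  rw [h2]
  exact d.cp0 k h1

theorem HL_fin {k B : ℕ} {L : Language α} (h : ∀ P ∈ L, P.length ≤ B) : HL k L :=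
  HL.finite ((range_len_finite B).subset h)

theorem HL_RQ1 (b : V) : HL 1 (d.RQ1 b) :=
  HL_sem d.LP1 (fun v => {X | X ∈ XX d.Wo d.z ∧ d.T v X = b}) d.LP1_len (fun v => d.HL_XT v b)

theorem HL_RQ2 (b : V) : HL 1 (d.RQ2 b) :=
  HL_sem d.LP2 (fun v => {Z | Z ∈ d.W2 v b ∨ ∃ G ∈ d.Gd, G <+: Z}) d.LP2_len
    (fun v => HL.setOf_or (d.HL_W2 v b) d.HL_Gd.prefix)

theorem HL_tail (s : S) :
    HL 1 ({w | (∀ X ∈ XX d.Wo d.z, ¬ X <+: w) ∧ ph d.φ w = s} : Language α) := by
  have hz := d.hz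
  have key : ∀ w : List α, (∀ X ∈ XX d.Wo d.z, ¬ X <+: w) ↔
      ¬ Fl d.Wo d.z w ∧ ¬ (d.z ≤ w.length ∧ d.Wo w) := by
    intro w
    constructor
    · intro h
      refine ⟨?_, ?_⟩
      · rintro ⟨t, t1, t2, t3⟩
        obtain ⟨s, _, _, hs⟩ := exists_block (α := α) (Wo := d.Wo) (z := d.z) t1 t2.le t3
        exact h _ hs (List.take_prefix _ _)
      · rintro ⟨h1, h2⟩
        obtain ⟨s, _, _, hs⟩ := exists_block (α := α) (w := w) (z := d.z) (Wo := d.Wo) h1 le_rfl
          (by rw [List.take_length]; exact h2)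
        exact h _ hs (List.take_prefix _ _)
    · rintro ⟨h1, h2⟩ X ⟨x1, x2, x3⟩ ⟨r, rfl⟩
      by_cases hr : r = []
      · subst hr
        rw [List.append_nil] at h2
        exact h2 ⟨x2, x1⟩
      · have : 0 < r.length := List.length_pos_iff.2 hr
        exact h1 ⟨X.length, x2, by rw [List.length_append]; omega, by
          rw [List.take_left]; exact x1⟩
  have hreg : Language.IsRegular
      ({w | (∀ X ∈ XX d.Wo d.z, ¬ X <+: w) ∧ ph d.φ w = s} : Language α) := by
    refine d.fs.reg (fun w => (∀ X ∈ XX d.Wo d.z, ¬ X <+: w) ∧ ph d.φ w = s) ?_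
    rintro X X' h ⟨h1, h2⟩
    rw [key] at h1
    refine ⟨?_, ?_⟩
    · rw [key, ← d.st_fl h]
      exact ⟨h1.1, fun h' => h1.2 ⟨d.st_len h.symm (by unfold cc; omega) h'.1,
        d.st_wo h.symm h'.2⟩⟩
    · have e : ∀ Y : List α, ph d.φ Y = ph d.φ (Y.take d.cc) * ph d.φ (Y.drop d.cc) := by
        intro Y
        rw [← ph_append, List.take_append_drop]
      rw [e, ← d.st_take h, ← d.st_ph h, ← e]
      exact h2
  exact RegBd_11.reg_pieces hreg (d.Rw + 1) (max d.z d.Bw)
    (fun w hw => pieces_of d.Wo d.n d.z d.loc d.len d.free ((key w).1 hw.1).1)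

/-- **the top** -/
theorem main (s : S) : HL 3 ({w | (w.map d.φ).prod = s} : Language α) := by
  have hz := d.hz
  refine Crest.Agent.R320.Top5_467.top5 d.φ d.act d.hadd d.hone d.hmul d.hfaith d.nu (XX d.Wo d.z) d.BS
    (pcode (α := α) (Wo := d.Wo) (z := d.z) (by omega)) (fun X h => h.1)
    d.LP1 d.RQ1 d.LP2 d.RQ2 (fun v b P Q hP hQ => d.s1 v b P Q hP hQ)
    (fun X hX hB v => d.c1 X hX hB v) (fun v b P Q r hP hQ h => d.s2 v b P Q r hP hQ h)
    (fun X hX X' hX' v => d.c2 X hX X' hX' v) d.HL_BS (fun v => HL_fin (d.LP2_len v))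
    d.HL_RQ2 (fun v => HL_fin (d.LP1_len v)) (fun v => HL.mono (by omega) (d.HL_RQ1 v))
    (fun v v' => HL.mono (by omega) (d.HL_BT v v'))
    (fun s => HL.mono (by omega) (d.HL_tail s)) s

end D

end Crest.Agent.R320.AsmN_325
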