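import Crest.Agent.R320.AsmM_512

/-!
# Row 320: completeness of scheme 2 (helper512)
-/

set_option autoImplicit false
set_option linter.unusedSectionVars false

namespace Crest.Agent.R320.AsmN_512

open Crest.RegLang Crest.Agent.R320.Hk_851 Crest.Agent.R320.FewWalls_228
  Crest.Agent.R320.P3Top_416 Crest.Agent.R320.Half1_180 Crest.Agent.R320.AsmW_512
  Crest.Agent.R320.AsmS_512 Crest.Agent.R320.AsmD_512 Crest.Agent.R320.AsmM_512

section lemmas

variable {α G : Type} [Monoid G] [Fintype G] [DecidableEq G]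

theorem cand_rel {n : ℕ} {S : Set (List α)} (Y : List α) {a b t τ : ℕ} {P : List α}
    (ha : a ≤ Y.length) (hP : P.length = b) (h1 : t + a = τ + b) (h2 : b + n ≤ t) :
    WE n S (P ++ Y.drop a) t ↔ WE n S Y τ := by
  have hda : (Y.take a).length = a := by rw [List.length_take]; omega
  have e1 := WE.right (n := n) (S := S) (P := P) (Q := Y.drop a) (u := t - b) (by omega)
  have e2 := WE.right (n := n) (S := S) (P := Y.take a) (Q := Y.drop a) (u := t - b) (by omega)
  rw [List.take_append_drop, hda] at e2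
  rw [hP, show b + (t - b) = t by omega] at e1
  rw [show a + (t - b) = τ by omega] at e2
  rw [e1, e2]

theorem compl2 (f : α → G) (Xm N1 C0 K W : ℕ) (x : ℕ → ℕ) (nu2 nu1 : List α → G → ZMod 2)
    (lam2 rho2 : ℕ → List α → Option (G → ZMod 2)) (Bd : ℕ → Prop)
    (hX : ∀ k < K, x k ≤ Xm)
    (hE : ∀ τ : ℤ, ((Finset.range K ×ˢ Finset.range K).filter
      (fun ab => ab.1 ≠ ab.2 ∧ |τ - ((x ab.1 : ℤ) - x ab.2)| ≤ N1)).card ≤ C0)
    (hB : ∀ T : ℕ, (∀ k < K, x k ≤ T) → Set.ncard {ab : ℕ × ℕ | ab.1 < K ∧ ab.2 < K ∧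
      ab.1 ≠ ab.2 ∧ Bd (T + x ab.2 - x ab.1)} ≤ C0)
    (h2a : ∀ k < K, ∀ (P Q : List α) (v b : G → ZMod 2), P.length = x k → lam2 k P = some v →
      rho2 k Q = some b → b = act v (ph f (P ++ Q)) + nu2 (P ++ Q))
    (h2b : ∀ (u : List α) (v : G → ZMod 2), (∀ k < K, x k ≤ u.length) → ∃ I : Finset ℕ,
      3 * C0 + 1 ≤ I.card ∧ ∀ k ∈ I, k < K ∧ lam2 k (u.take (x k)) = some v ∧
        (rho2 k (u.drop (x k))).isSome)
    (n : ℕ) (S : Set (List α)) (z r : ℕ)
    (hsep : ∀ (w : List α) (t t' : ℕ), WE n S w t → WE n S w t' → t < t' → t + W ≤ t')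
    (hW : 2 * Xm + 2 * N1 < W) (hz : 4 * Xm + 2 * N1 + n < z) (hr : 2 * z + n + 3 ≤ r)
    (Y1 Y2 : List α) (hY1 : Y1 ∈ XX n S z) (hY1b : BadP n S z N1 Xm Bd Y1)
    (hY2 : Y2 ∈ XX n S z) (hY2b : BadP n S z N1 Xm Bd Y2) (v : G → ZMod 2) :
    ∃ P Q, Y1 ++ Y2 = P ++ Q ∧ P ∈ LP2 K x lam2 v ∧
      Q ∈ RQ2 f Xm nu2 nu1 K x lam2 n S z N1 Bd r
        (TT f Xm nu2 nu1 Y2 (TT f Xm nu2 nu1 Y1 v)) := by
  classical
  obtain ⟨a1, a2, a3⟩ := hY1
  obtain ⟨c1, c2, c3⟩ := hY2
  set Y := Y1 ++ Y2 with hYdef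
  have hYl : Y.length = Y1.length + Y2.length := by rw [hYdef, List.length_append]
  have hw1 : WE n S Y Y1.length := by
    rw [hYdef, WE.left le_rfl]; exact a2
  have hw2 : WE n S Y Y.length := by
    rw [hYl, hYdef, WE.right (by omega)]; exact c2
  obtain ⟨τ0, τ1, hτ0, hτ1, hfb⟩ := first_block (Xm := Xm) (z := z) hsep (by omega) (by omega) Y
    Y1.length a1 (by omega) hw1 hw2
  -- the wall near z
  obtain ⟨τE, hτE⟩ : ∃ τE : ℕ, ∀ τ, WE n S Y τ → z ≤ τ + Xm + N1 → τ ≤ z + Xm + N1 → τ = τE := by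
    by_cases hex : ∃ τ, WE n S Y τ ∧ z ≤ τ + Xm + N1 ∧ τ ≤ z + Xm + N1
    · obtain ⟨τE, hE1, hE2, hE3⟩ := hex
      refine ⟨τE, fun τ h1 h2 h3 => ?_⟩
      rcases lt_trichotomy τ τE with h | h | h
      · have := hsep Y τ τE h1 hE1 h; omega
      · exact h
      · have := hsep Y τE τ hE1 h1 h; omega
    · exact ⟨0, fun τ h1 h2 h3 => absurd ⟨τ, h1, h2, h3⟩ hex⟩
  let FE := (Finset.range K ×ˢ Finset.range K).filter
      (fun ab : ℕ × ℕ => ab.1 ≠ ab.2 ∧ |((τE : ℤ) - z) - ((x ab.1 : ℤ) - x ab.2)| ≤ N1)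
  have hFE : FE.card ≤ C0 := hE _
  let SB : ℕ → Set (ℕ × ℕ) := fun T => {ab : ℕ × ℕ | ab.1 < K ∧ ab.2 < K ∧
      ab.1 ≠ ab.2 ∧ Bd (T + x ab.2 - x ab.1)}
  have hSBf : ∀ T, (SB T).Finite := by
    intro T
    refine (Finset.finite_toSet (Finset.range K ×ˢ Finset.range K)).subset ?_
    rintro ⟨i, j⟩ ⟨h1, h2, -⟩
    simp only [Finset.coe_product, Finset.coe_range, Set.mem_prod, Set.mem_Iio]
    exact ⟨h1, h2⟩
  have hSBc : ∀ T, (∀ k < K, x k ≤ T) → (hSBf T).toFinset.card ≤ C0 := by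
    intro T hT
    have := hB T hT
    rwa [Set.ncard_eq_toFinset_card _ (hSBf T)] at this
  let sp := FE.image Prod.fst ∪ ((hSBf (τ0 - Xm)).toFinset.image Prod.fst ∪
    (hSBf (τ1 - Xm)).toFinset.image Prod.fst)
  have hsp : sp.card ≤ 3 * C0 := by
    have h1 : (FE.image Prod.fst).card ≤ C0 := Finset.card_image_le.trans hFE
    have h2 : ((hSBf (τ0 - Xm)).toFinset.image Prod.fst).card ≤ C0 :=
      Finset.card_image_le.trans (hSBc _ fun k hk => by have := hX k hk; omega)
    have h3 : ((hSBf (τ1 - Xm)).toFinset.image Prod.fst).card ≤ C0 :=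
      Finset.card_image_le.trans (hSBc _ fun k hk => by have := hX k hk; omega)
    have h4 := Finset.card_union_le (FE.image Prod.fst)
      ((hSBf (τ0 - Xm)).toFinset.image Prod.fst ∪ (hSBf (τ1 - Xm)).toFinset.image Prod.fst)
    have h5 := Finset.card_union_le ((hSBf (τ0 - Xm)).toFinset.image Prod.fst)
      ((hSBf (τ1 - Xm)).toFinset.image Prod.fst)
    show (FE.image Prod.fst ∪ ((hSBf (τ0 - Xm)).toFinset.image Prod.fst ∪
      (hSBf (τ1 - Xm)).toFinset.image Prod.fst)).card ≤ _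
    omega
  have htl : (Y1.take Xm).length = Xm := by rw [List.length_take]; omega
  obtain ⟨I, hI1, hI2⟩ := h2b (Y1.take Xm) v (fun k hk => by rw [htl]; exact hX k hk)
  obtain ⟨k, hkI, hksp⟩ := Finset.exists_mem_notMem_of_card_lt_card (s := sp) (t := I) (by omega)
  obtain ⟨hk, hlam, hrho⟩ := hI2 k hkI
  have hxk := hX k hk
  rw [List.take_take, show min (x k) Xm = x k by omega] at hlam
  obtain ⟨b0, hb0⟩ := Option.isSome_iff_exists.1 hrho
  have hkl : (Y1.take (x k)).length = x k := by rw [List.length_take]; omega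
  have hYdrop : Y.drop (x k) = Y1.drop (x k) ++ Y2 := by
    rw [hYdef, List.drop_append_of_le_length (by omega)]
  have hdl : (Y1.drop (x k)).length = Y1.length - x k := List.length_drop ..
  -- value of scheme 2
  have hv2 : ∀ P v', P.length = x k → lam2 k P = some v' →
      act v' (ph f (P ++ (Y1.take Xm).drop (x k))) + nu2 (P ++ (Y1.take Xm).drop (x k)) = b0 :=
    fun P v' h1 h2 => (h2a k hk P _ v' b0 h1 h2 hb0).symm
  have htake : ∀ P : List α, P.length = x k →
      (P ++ Y1.drop (x k)).take Xm = P ++ (Y1.take Xm).drop (x k) := by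
    intro P hP
    rw [List.take_append, List.take_of_length_le (by omega), hP, List.drop_take]
  have hdrop : ∀ P : List α, P.length = x k → (P ++ Y1.drop (x k)).drop Xm = Y1.drop Xm := by
    intro P hP
    rw [List.drop_append, List.drop_eq_nil_of_le (by omega), List.nil_append, List.drop_drop, hP]
    congr 1
    omega
  have hTT : ∀ P v', P.length = x k → lam2 k P = some v' →
      TT f Xm nu2 nu1 (P ++ Y1.drop (x k)) v' = act b0 (ph f (Y1.drop Xm)) + nu1 (Y1.drop Xm) := by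
    intro P v' h1 h2
    unfold TT
    rw [htake P h1, hdrop P h1, hv2 P v' h1 h2]
  have hTY1 : TT f Xm nu2 nu1 Y1 v = act b0 (ph f (Y1.drop Xm)) + nu1 (Y1.drop Xm) := by
    have := hTT (Y1.take (x k)) v hkl hlam
    rwa [List.take_append_drop] at this
  refine ⟨Y1.take (x k), Y1.drop (x k) ++ Y2, ?_, ⟨k, hk, hkl, hlam⟩, ?_, ?_⟩
  · rw [hYdef, ← List.append_assoc, List.take_append_drop]
  · rintro v' P ⟨k', hk', hPl, hPlam⟩
    have hxk' := hX k' hk'
    by_cases hkk : k' = k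
    · subst hkk
      left
      have hPl1 : (P ++ Y1.drop (x k')).length = Y1.length := by
        rw [List.length_append, hdl]; omega
      have hrel : ∀ t, x k' + n ≤ t → (WE n S (P ++ Y1.drop (x k')) t ↔ WE n S Y1 t) := fun t ht =>
        cand_rel Y1 (by omega) hPl rfl ht
      refine ⟨P ++ Y1.drop (x k'), Y2, (List.append_assoc _ _ _).symm, ⟨⟨?_, ?_, ?_⟩, ?_⟩,
        ⟨⟨c1, c2, c3⟩, hY2b⟩, ?_⟩
      · omega
      · rw [hPl1]; exact (hrel _ (by omega)).2 a2
      · intro t h1 h2 h3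
        rw [hPl1] at h2
        exact a3 t h1 h2 ((hrel t (by omega)).1 h3)
      · unfold BadP at hY1b ⊢
        rw [hPl1]
        rcases hY1b with h | ⟨t, h1, h2, h3⟩ | h
        · exact Or.inl h
        · exact Or.inr (Or.inl ⟨t, h1, h2, (hrel t (by omega)).2 h3⟩)
        · exact Or.inr (Or.inr h)
      · rw [hTT P v' hPl hPlam, ← hTY1]
    · right
      obtain ⟨τ, t, hτ, hrel, hzt, hwτ, htl', hXX⟩ := hfb (x k) (x k') P hxk hxk' hPl
      rw [hYdrop] at htl' hXX
      have hXl : ((P ++ (Y1.drop (x k) ++ Y2)).take t).length = t := by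
        rw [List.length_take]; omega
      refine ⟨(P ++ (Y1.drop (x k) ++ Y2)).take t, (P ++ (Y1.drop (x k) ++ Y2)).drop t,
        (List.take_append_drop _ _).symm, ⟨hXX, ?_⟩, trivial⟩
      -- the pair (k, k') is not spoiled
      have hnE : ∀ τ', WE n S Y τ' → ∀ t', t' + x k = τ' + x k' → z ≤ t' + N1 → t' ≤ z + N1 →
          False := by
        intro τ' h1 t' h2 h3 h4
        have h5 := hτE τ' h1 (by omega) (by omega)
        refine hksp (Finset.mem_union_left _ (Finset.mem_image.2 ⟨(k, k'), ?_, rfl⟩))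
        rw [Finset.mem_filter]
        refine ⟨by simp [hk, hk'], Ne.symm hkk, ?_⟩
        rw [abs_le]
        constructor <;> push_cast <;> omega
      unfold BadP
      rw [hXl]
      rintro (h | ⟨t', h1, h2, h3⟩ | h)
      · exact hnE τ hwτ t hrel (by omega) (by omega)
      · have h4 : WE n S (P ++ (Y1.drop (x k) ++ Y2)) t' := by
          have := WE.left (n := n) (S := S) (P := (P ++ (Y1.drop (x k) ++ Y2)).take t)
            (Q := (P ++ (Y1.drop (x k) ++ Y2)).drop t) (t := t') (by omega)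
          rw [List.take_append_drop] at this
          exact this.2 h3
        rw [← hYdrop] at h4
        have h5 := (cand_rel (n := n) (S := S) Y (a := x k) (b := x k') (t := t')
          (τ := t' + x k - x k') (P := P) (by omega) hPl (by omega) (by omega)).1 h4
        exact hnE _ h5 t' (by omega) h1 (by omega)
      · have h6 : t - Xm = (τ - Xm) + x k' - x k := by
          rcases hτ with rfl | rfl <;> omega
        rcases hτ with rfl | rfl
        · refine hksp (Finset.mem_union_right _ (Finset.mem_union_left _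
            (Finset.mem_image.2 ⟨(k, k'), ?_, rfl⟩)))
          rw [Set.Finite.mem_toFinset]
          refine ⟨hk, hk', Ne.symm hkk, ?_⟩
          show Bd (τ - Xm + x k' - x k)
          rw [← h6]; exact h
        · refine hksp (Finset.mem_union_right _ (Finset.mem_union_right _
            (Finset.mem_image.2 ⟨(k, k'), ?_, rfl⟩)))
          rw [Set.Finite.mem_toFinset]
          refine ⟨hk, hk', Ne.symm hkk, ?_⟩
          show Bd (τ - Xm + x k' - x k)
          rw [← h6]; exact h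
  · have h1 := nw_drop (n := n) (S := S) (Y1.take (x k)) (Y1.drop (x k) ++ Y2)
    rw [← List.append_assoc, List.take_append_drop] at h1
    have h2 := nw_append (n := n) (S := S) Y1 Y2
    have h3 := nw_XX (n := n) (S := S) (z := z) (w := Y1) ⟨a1, a2, a3⟩
    have h4 := nw_XX (n := n) (S := S) (z := z) (w := Y2) ⟨c1, c2, c3⟩
    omega

end lemmas

end Crest.Agent.R320.AsmN_512
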