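import Crest.Agent.R320.AsmW_512
import Crest.Agent.R320.ExactR_237

/-!
# Row 320: assembly of the two schemes on all words (helper512)
-/

set_option autoImplicit false

namespace Crest.Agent.R320.AsmS_512

open Crest.RegLang Crest.Agent.R320.Hk_851 Crest.Agent.R320.FewWalls_228
  Crest.Agent.R320.P3Top_416 Crest.Agent.R320.Half1_180 Crest.Agent.R320.AsmW_512

/-- the gadget of scheme 1 with its ruler (helper871's literal) -/
def UGS (S V : Type) [Monoid S] [AddCommGroup V] (act : V → S → V) : Prop :=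
  ∃ C0 : ℕ, ∀ K : ℕ, ∃ (N A D : ℕ) (x : ℕ → ℕ) (Bad : ℕ → Prop), 0 < D ∧
    (∀ i j, i < j → j < K → x i < x j) ∧ (∀ T, Bad (T + D) ↔ Bad T) ∧
    (∀ τ : ℤ, ((Finset.range K ×ˢ Finset.range K).filter
      (fun ab => ab.1 ≠ ab.2 ∧ |τ - ((x ab.1 : ℤ) - x ab.2)| ≤ N)).card ≤ C0) ∧
    (∀ T : ℕ, (∀ k < K, x k ≤ T) → Set.ncard {ab : ℕ × ℕ | ab.1 < K ∧ ab.2 < K ∧
      ab.1 ≠ ab.2 ∧ Bad (T + x ab.2 - x ab.1)} ≤ C0) ∧
    ∀ (α : Type) (φ : List α → S), φ [] = 1 → (∀ u v, φ (u ++ v) = φ u * φ v) →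
      ∃ (lam rho : List α → Option V) (nu : List α → V),
        (∀ p v, lam p = some v → p.length ≤ N) ∧ (∀ q r, rho q = some r → A ≤ q.length) ∧
        (∀ p q v r, lam p = some v → rho q = some r → r = act v (φ (p ++ q)) + nu (p ++ q)) ∧
        (∀ u, 2 * N + A ≤ u.length → ¬ Bad u.length → ∀ v, ∃ p q, p ++ q = u ∧
          lam p = some v ∧ (rho q).isSome) ∧
        (∀ q q', A ≤ q.length → A ≤ q'.length → q.take A = q'.take A →
          φ (q.drop A) = φ (q'.drop A) → q.length % D = q'.length % D →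
          rho q = rho q' ∧ nu q = nu q')

section act

variable {G : Type} [Monoid G] [Fintype G] [DecidableEq G]

/-- `G`-tokens -/
def act (v : G → ZMod 2) (s : G) : G → ZMod 2 := fun y => ∑ x, if x * s = y then v x else 0

theorem act_add (v w : G → ZMod 2) (s : G) : act (v + w) s = act v s + act w s := by
  funext y
  simp only [act, Pi.add_apply, ← Finset.sum_add_distrib]
  refine Finset.sum_congr rfl fun x _ => ?_
  split_ifs <;> simp

theorem act_zero (s : G) : act (0 : G → ZMod 2) s = 0 := by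
  funext y
  simp [act]

theorem act_sub (v w : G → ZMod 2) (s : G) : act (v - w) s = act v s - act w s := by
  have h := act_add (v - w) w s
  rw [sub_add_cancel] at h
  rw [h, add_sub_cancel_right]

theorem act_one (v : G → ZMod 2) : act v 1 = v := by
  funext y
  simp [act]

theorem act_mul (v : G → ZMod 2) (s s' : G) : act (act v s) s' = act v (s * s') := by
  funext y
  simp only [act]
  have h1 : ∀ x : G, (if x * s' = y then (∑ x', if x' * s = x then v x' else 0) else 0)
      = ∑ x', if x' * s = x ∧ x * s' = y then v x' else 0 := by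
    intro x
    by_cases h : x * s' = y
    · rw [if_pos h]
      refine Finset.sum_congr rfl fun x' _ => ?_
      by_cases h' : x' * s = x
      · rw [if_pos h', if_pos ⟨h', h⟩]
      · rw [if_neg h', if_neg (fun hc => h' hc.1)]
    · rw [if_neg h]
      symm
      refine Finset.sum_eq_zero fun x' _ => ?_
      rw [if_neg (fun hc => h hc.2)]
  rw [Finset.sum_congr rfl fun x _ => h1 x, Finset.sum_comm]
  refine Finset.sum_congr rfl fun x' _ => ?_
  by_cases h : x' * (s * s') = y
  · rw [if_pos h, Finset.sum_eq_single (x' * s)]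
    · rw [if_pos ⟨rfl, by rw [mul_assoc]; exact h⟩]
    · intro b _ hb
      rw [if_neg (fun hc => hb hc.1.symm)]
    · intro hc
      exact absurd (Finset.mem_univ _) hc
  · rw [if_neg h]
    refine Finset.sum_eq_zero fun x _ => ?_
    rw [if_neg]
    rintro ⟨rfl, h2⟩
    exact h (by rw [← mul_assoc]; exact h2)

theorem act_faithful (s s' : G) (h : ∀ v : G → ZMod 2, act v s = act v s') : s = s' := by
  have h1 := congrFun (h (Pi.single 1 1)) s
  simp only [act] at h1
  rw [Finset.sum_eq_single 1, Finset.sum_eq_single 1] at h1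
  · by_contra hne
    simp [Ne.symm hne] at h1
  · intro b _ hb
    simp [Pi.single_eq_of_ne hb]
  · intro hc
    exact absurd (Finset.mem_univ _) hc
  · intro b _ hb
    simp [Pi.single_eq_of_ne hb]
  · intro hc
    exact absurd (Finset.mem_univ _) hc

end act

/-! ### hypotheses about the first block of a candidate -/

section cand

variable {α : Type} {n z Xm N1 W : ℕ} {S : Set (List α)}

/-- the first block of a candidate: only two possible wall ends -/
theorem first_block (hsep : ∀ (w : List α) (t t' : ℕ), WE n S w t → WE n S w t' → t < t' → t + W ≤ t')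
    (hW : 2 * Xm < W) (hz : Xm + Xm + n < z) (Y : List α) (l1 : ℕ) (hl1 : z ≤ l1) (hl2 : l1 + z ≤ Y.length)
    (hY1 : WE n S Y l1) (hY2 : WE n S Y Y.length) :
    ∃ τ0 τ1 : ℕ, z ≤ τ0 + Xm ∧ z ≤ τ1 + Xm ∧ ∀ (a b : ℕ) (P : List α), a ≤ Xm → b ≤ Xm → P.length = b →
      ∃ τ t : ℕ, (τ = τ0 ∨ τ = τ1) ∧ t + a = τ + b ∧ z ≤ t ∧ WE n S Y τ ∧
        t ≤ (P ++ Y.drop a).length ∧ (P ++ Y.drop a).take t ∈ XX n S z := by
  classical
  have hex0 : ∃ t, z ≤ t + Xm ∧ WE n S Y t := ⟨l1, by omega, hY1⟩
  obtain ⟨h01, h02⟩ := Nat.find_spec hex0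
  have h0min : ∀ t, z ≤ t + Xm → WE n S Y t → Nat.find hex0 ≤ t := fun t h1 h2 =>
    Nat.find_min' hex0 ⟨h1, h2⟩
  generalize Nat.find hex0 = τ0 at h01 h02 h0min
  have h0l : τ0 ≤ l1 := h0min l1 (by omega) hY1
  have hex1 : ∃ t, τ0 < t ∧ WE n S Y t := ⟨Y.length, by omega, hY2⟩
  obtain ⟨h11, h12⟩ := Nat.find_spec hex1
  have h1min : ∀ t, τ0 < t → WE n S Y t → Nat.find hex1 ≤ t := fun t h1 h2 =>
    Nat.find_min' hex1 ⟨h1, h2⟩
  generalize Nat.find hex1 = τ1 at h11 h12 h1min
  have hs01 := hsep Y τ0 τ1 h02 h12 h11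
  refine ⟨τ0, τ1, h01, by omega, ?_⟩
  intro a b P ha hb hP
  have hda : (Y.take a).length = a := by rw [List.length_take]; omega
  -- walls of the candidate
  have hrel : ∀ t τ, t + a = τ + b → b + n ≤ t → (WE n S (P ++ Y.drop a) t ↔ WE n S Y τ) := by
    intro t τ h1 h2
    have e1 := WE.right (n := n) (S := S) (P := P) (Q := Y.drop a) (u := t - b) (by omega)
    have e2 := WE.right (n := n) (S := S) (P := Y.take a) (Q := Y.drop a) (u := t - b) (by omega)
    rw [List.take_append_drop, hda] at e2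
    rw [hP, show b + (t - b) = t by omega] at e1
    rw [show a + (t - b) = τ by omega] at e2
    rw [e1, e2]
  have hlen : (P ++ Y.drop a).length + a = Y.length + b := by
    rw [List.length_append, List.length_drop, hP]; omega
  by_cases hc : z + a ≤ τ0 + b
  · have hτl : τ0 ≤ Y.length := h02.2.1
    refine ⟨τ0, τ0 + b - a, Or.inl rfl, by omega, by omega, h02, by omega, ?_⟩
    refine take_mem_XX (by omega) (by omega) ((hrel _ τ0 (by omega) (by omega)).2 h02) ?_
    intro t' h1 h2 h3
    have h4 := (hrel t' (t' + a - b) (by omega) (by omega)).1 h3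
    have := h0min _ (by omega) h4
    omega
  · have hτl : τ1 ≤ Y.length := h12.2.1
    refine ⟨τ1, τ1 + b - a, Or.inr rfl, by omega, by omega, h12, by omega, ?_⟩
    refine take_mem_XX (by omega) (by omega) ((hrel _ τ1 (by omega) (by omega)).2 h12) ?_
    intro t' h1 h2 h3
    have h4 := (hrel t' (t' + a - b) (by omega) (by omega)).1 h3
    have := h1min _ (by omega) h4
    omega

end cand

end Crest.Agent.R320.AsmS_512
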