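import Crest.Agent.R320.Asm_621

/-!
# Row 320: soundness and completeness of the two concrete schemes (helper621)
-/

set_option autoImplicit false

namespace Crest.Agent.R320.AsmS_621

open Crest.Agent.R320.Hk_851 Crest.Agent.R320.Star_621 Crest.Agent.R320.Two_621
open Crest.Agent.R320.Shared_621 Crest.Agent.R320.Asm_621

variable {α S : Type} [Monoid S] {P : Par α S} {R : ℕ}

theorem ph_append (a b : List α) : P.ph (a ++ b) = P.ph a * P.ph b := by simp [Par.ph]

theorem take_add (A Q : List α) (t : ℕ) : (A ++ Q).take (A.length + t) = A ++ Q.take t :=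
  List.take_length_add_append t

theorem wo_shift (hO : P.Ok R) (A Q : List α) (t : ℕ) (ht : P.n ≤ t) (hq : t ≤ Q.length) :
    P.Wo ((A ++ Q).take (A.length + t)) ↔ P.Wo (Q.take t) := by
  rw [take_add]
  exact hO.loc A _ (by rw [List.length_take]; omega)

theorem isT_unique {z : List α} {t t' : ℕ} (h : P.IsT z t) (h' : P.IsT z t') : t = t' :=
  h'.2.2.2.2 t h.1 h.2.1 h.2.2.1

theorem d_eq {z : List α} {t : ℕ} (h : P.IsT z t) :
    P.d z = act (P.nu2 (z.take P.p0)) (P.ph (z.drop P.p0)) +
      act (P.nu ((z.take t).drop P.p0)) (P.ph (z.drop t)) := by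
  have hex : ∃ t, P.IsT z t := ⟨t, h⟩
  have e : hex.choose = t := isT_unique hex.choose_spec h
  unfold Par.d
  rw [dif_pos hex, e]

theorem psi_eq (X Y r : List α) (hX : X.length = P.p0) (h : P.IsT (X ++ (Y ++ r)) (X ++ Y).length)
    (v : Tok S) :
    aff P.ph P.d (X ++ (Y ++ r)) v =
      act (act (act v (P.ph X) + P.nu2 X) (P.ph Y) + P.nu Y) (P.ph r) := by
  rw [aff, d_eq h]
  have e1 : (X ++ (Y ++ r)).take P.p0 = X := by rw [← hX]; simp
  have e2 : (X ++ (Y ++ r)).drop P.p0 = Y ++ r := by rw [← hX]; simp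
  have e3 : (X ++ (Y ++ r)).take (X ++ Y).length = X ++ Y := by
    rw [← List.append_assoc]; exact List.take_left' rfl
  have e4 : (X ++ (Y ++ r)).drop (X ++ Y).length = r := by
    rw [← List.append_assoc]; exact List.drop_left' rfl
  have e5 : (X ++ Y).drop P.p0 = Y := by rw [← hX]; simp
  rw [e1, e2, e3, e4, e5]
  simp only [ph_append, act_add, act_mul, mul_assoc, add_assoc]

theorem nil_notMem_Z : [] ∉ P.Z := by
  rintro ⟨t, h⟩
  exact absurd h.2.1 (by simp)

theorem code : Code P.Z := by
  refine ⟨nil_notMem_Z, ?_⟩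
  have key : ∀ z z' x x' : List α, z ∈ P.Z → z' ∈ P.Z → z ++ x = z' ++ x' →
      ¬ z.length < z'.length := by
    rintro z z' x x' ⟨t, h⟩ ⟨t', h'⟩ e hl
    have hp : ∀ i, i ≤ z.length → z.take i = z'.take i := by
      intro i hi
      have := congrArg (List.take i) e
      rw [List.take_append_of_le_length hi, List.take_append_of_le_length (by omega)] at this
      exact this
    have a1 : t = t' := h'.2.2.2.2 t h.1 (lt_trans h.2.1 hl) (by
      rw [← hp t h.2.1.le]; exact h.2.2.1)
    have a2 : z.length = t' := h'.2.2.2.2 z.length (le_trans h.1 h.2.1.le) hl (by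
      rw [← hp _ le_rfl, List.take_length]; exact h.2.2.2.1)
    have := h.2.1
    omega
  intro z z' x x' hz hz' e
  have h1 := key z z' x x' hz hz' e
  have h2 := key z' z x' x hz' hz e.symm
  have hl : z.length = z'.length := by omega
  exact (List.append_inj e hl).1

theorem soundA (hO : P.Ok R) : Sound P.Z (aff P.ph P.d) P.LA P.RA := by
  refine ⟨fun v h => ?_, ?_⟩
  · have := h.1
    have := hO.hp0
    simp at *
    omega
  · rintro v τ L Q z x y ⟨hl, hlam⟩ ⟨s, b, hs, hrho, hτ⟩ hz e
    have hz0 := hO.hz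
    have hpl := hO.lam_len _ _ hlam
    rw [List.length_drop] at hpl
    obtain ⟨s1, s2, s3, s4, s5⟩ := hs
    have hT : P.IsT (L ++ Q) (L.length + s) := by
      refine ⟨by omega, by rw [List.length_append]; omega, ?_, ?_, ?_⟩
      · exact (wo_shift hO L Q s (by omega) (by omega)).2 s3
      · exact (hO.loc L Q (by omega)).2 s4
      · intro u hu1 hu2 hu3
        rw [List.length_append] at hu2
        obtain ⟨u', rfl⟩ : ∃ u', u = L.length + u' := ⟨u - L.length, by omega⟩
        have := s5 u' (by omega) (by omega) ((wo_shift hO L Q u' (by omega) (by omega)).1 hu3)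
        omega
    have hzz : L ++ Q = z := code.2 _ _ _ _ ⟨_, hT⟩ hz e
    refine ⟨hzz, ?_⟩
    rw [← hzz]
    have eL : L = L.take P.p0 ++ L.drop P.p0 := (List.take_append_drop _ _).symm
    have eQ : Q = Q.take s ++ Q.drop s := (List.take_append_drop _ _).symm
    have hX : (L.take P.p0).length = P.p0 := by rw [List.length_take]; omega
    have ez : L ++ Q = L.take P.p0 ++ ((L.drop P.p0 ++ Q.take s) ++ Q.drop s) := by
      rw [List.append_assoc, List.take_append_drop, ← List.append_assoc, List.take_append_drop]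
    have hT' : P.IsT (L.take P.p0 ++ ((L.drop P.p0 ++ Q.take s) ++ Q.drop s))
        (L.take P.p0 ++ (L.drop P.p0 ++ Q.take s)).length := by
      rw [← ez]
      have : (L.take P.p0 ++ (L.drop P.p0 ++ Q.take s)).length = L.length + s := by
        rw [← List.append_assoc, List.take_append_drop, List.length_append, List.length_take]
        omega
      rw [this]; exact hT
    rw [ez, psi_eq _ _ _ hX hT' v, hτ, hO.sound1 _ _ _ _ hlam hrho]

theorem compA (hO : P.Ok R) (z : List α) (hz : z ∈ P.Z) (hc : z ∉ P.Zc) (v : Tok S) :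
    Cut P.LA P.RA v z := by
  obtain ⟨t, hT⟩ := hz
  have hz0 := hO.hz
  obtain ⟨t1, t2, t3, t4, t5⟩ := id hT
  have hE : ¬ P.E z := fun h => hc ⟨t, hT, Or.inl h⟩
  have hB : ¬ P.BT (t - P.p0) := fun h => hc ⟨t, hT, Or.inr h⟩
  have htE : P.z0 + P.N1 ≤ t := by
    by_contra hn
    exact hE ⟨t, t2.le, by omega, by omega, t3⟩
  have hlen : ((z.take t).drop P.p0).length = t - P.p0 := by
    rw [List.length_drop, List.length_take]; omega
  obtain ⟨p, q, b, hu, hp, hq⟩ := hO.comp1 ((z.take t).drop P.p0) (by rw [hlen]; omega)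
    (by rw [hlen]; exact hB) (act v (P.ph (z.take P.p0)) + P.nu2 (z.take P.p0))
  have hpl := hO.lam_len _ _ hp
  have hpq : p.length + q.length = t - P.p0 := by
    rw [← hlen, hu, List.length_append]
  have hX : (z.take P.p0).length = P.p0 := by rw [List.length_take]; omega
  have e1 : z.take t = z.take P.p0 ++ (p ++ q) := by
    rw [← hu]
    have : z.take P.p0 = (z.take t).take P.p0 := by rw [List.take_take, min_eq_left (by omega)]
    rw [this, List.take_append_drop]
  have ez : z = (z.take P.p0 ++ p) ++ (q ++ z.drop t) := by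
    conv_lhs => rw [← List.take_append_drop t z, e1]
    simp
  have hLl : (z.take P.p0 ++ p).length = P.p0 + p.length := by rw [List.length_append, hX]
  refine ⟨z.take P.p0 ++ p, q ++ z.drop t, act b (P.ph ((q ++ z.drop t).drop q.length)), ez,
    ⟨by omega, ?_⟩, ⟨q.length, b, ⟨by omega, ?_, ?_, ?_, ?_⟩, ?_, rfl⟩⟩
  · have a1 : (z.take P.p0 ++ p).drop P.p0 = p := List.drop_left' hX
    have a2 : (z.take P.p0 ++ p).take P.p0 = z.take P.p0 := List.take_left' hX
    rw [a1, a2]; exact hp
  · rw [List.length_append, List.length_drop]; omega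
  · have a1 : (q ++ z.drop t).take q.length = q := by simp
    rw [a1]
    have := t3
    rw [e1, ← List.append_assoc] at this
    exact (hO.loc _ q (by omega)).1 this
  · have := t4
    rw [ez] at this
    exact (hO.loc _ _ (by rw [List.length_append]; omega)).1 this
  · intro u hu1 hu2 hu3
    rw [List.length_append, List.length_drop] at hu2
    have hw : P.Wo (z.take (P.p0 + p.length + u)) := by
      rw [ez, ← hLl]
      exact (wo_shift hO _ _ u (by omega) (by
        rw [List.length_append, List.length_drop]; omega)).2 hu3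
    by_cases h0 : P.z0 ≤ P.p0 + p.length + u
    · have := t5 _ h0 (by omega) hw
      omega
    · exact absurd ⟨P.p0 + p.length + u, by omega, by omega, by omega, hw⟩ hE
  · have a1 : (q ++ z.drop t).take q.length = q := by simp
    rw [a1]; exact hq

theorem soundB (hO : P.Ok R) : Sound P.Zc (aff P.ph P.d) P.LB P.RB := by
  refine ⟨?_, ?_⟩
  · rintro v ⟨k, hk, hl, -⟩
    have := (hO.hc k hk).1
    simp at hl
    omega
  · rintro v τ L Q z x y ⟨k0, hk0, hL, hlam⟩ ⟨k, hk, s, yv, hFT, hsQ, hWQ, hno, huniq, hrho, hτ⟩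
      ⟨t, hT, hbad⟩ e
    have hz0 := hO.hz
    have hc0 := hO.hc k0 hk0
    have hck := hO.hc k hk
    obtain ⟨t1, t2, t3, t4, t5⟩ := id hT
    obtain ⟨f1, f2, f3, f4⟩ := id hFT
    have hpre : ∀ i, i ≤ z.length → i ≤ (L ++ Q).length → z.take i = (L ++ Q).take i := by
      intro i h1 h2
      have := congrArg (List.take i) e
      rw [List.take_append_of_le_length h2, List.take_append_of_le_length h1] at this
      exact this.symm
    have hLQ : (L ++ Q).length = P.c k0 + Q.length := by rw [List.length_append, hL]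
    have hW1 : P.Wo (L ++ Q) := (hO.loc L Q (by omega)).2 hWQ
    have hW2 : P.Wo ((L ++ Q).take (P.c k0 + s)) := by
      rw [← hL]; exact (wo_shift hO L Q s (by omega) f2).2 f3
    have hvis : t ≤ P.c k0 + Q.length := by
      by_contra hn
      have hn' : P.c k0 + Q.length < t := by omega
      have g1 : P.Wo (z.take (P.c k0 + Q.length)) := by
        rw [hpre _ (by omega) (by omega), ← hLQ, List.take_length]; exact hW1
      have g2 : P.Wo (z.take (P.c k0 + s)) := by
        rw [hpre _ (by omega) (by omega)]; exact hW2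
      have g3 : P.c k0 + Q.length < P.z0 := by
        by_contra h
        have := t5 _ (by omega) (by omega) g1
        omega
      have := hO.gap z _ _ (by omega) (by omega) g2 g1
      omega
    have hk : k = k0 := by
      by_contra hne
      refine huniq k0 hk0 (Ne.symm hne) ?_
      rcases hbad with ⟨u, hu1, hu2, hu3, hu4⟩ | hB
      · left
        have hut : u ≤ t := by
          by_contra h
          have := hO.gap z t u (by omega) hu1 t3 hu4
          omega
        refine ⟨u - P.c k0, by omega, by omega, by omega, ?_⟩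
        rw [hpre u (by omega) (by omega)] at hu4
        have e1 : u = L.length + (u - P.c k0) := by omega
        rw [e1] at hu4
        exact (wo_shift hO L Q _ (by omega) (by omega)).1 hu4
      · right
        refine ⟨t - P.c k0, ⟨by omega, by omega, ?_, ?_⟩, ?_⟩
        · rw [hpre t (by omega) (by omega)] at t3
          have e1 : t = L.length + (t - P.c k0) := by omega
          rw [e1] at t3
          exact (wo_shift hO L Q _ (by omega) (by omega)).1 t3
        · intro u hu1 hu2 hu3
          have g : P.Wo (z.take (P.c k0 + u)) := by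
            rw [hpre _ (by omega) (by omega), ← hL]
            exact (wo_shift hO L Q u (by omega) (by omega)).2 hu3
          have := t5 _ (by omega) (by omega) g
          omega
        · have e1 : t - P.c k0 + P.c k0 - P.p0 = t - P.p0 := by omega
          rw [e1]; exact hB
    subst hk
    have hT2 : P.IsT (L ++ Q) (P.c k + s) := by
      refine ⟨by omega, by omega, hW2, hW1, ?_⟩
      intro u hu1 hu2 hu3
      obtain ⟨u', rfl⟩ : ∃ u', u = L.length + u' := ⟨u - L.length, by omega⟩
      have hw := (wo_shift hO L Q u' (by omega) (by omega)).1 hu3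
      have h1 : ¬ u' < s := fun h => f4 u' (by omega) h hw
      have h2 : ¬ s < u' := fun h => hno u' h (by omega) hw
      omega
    have hzz : L ++ Q = z := code.2 _ _ _ _ ⟨_, hT2⟩ ⟨t, hT⟩ e
    refine ⟨hzz, ?_⟩
    rw [← hzz]
    have hX : (L ++ Q.take (P.p0 - P.c k)).length = P.p0 := by
      rw [List.length_append, List.length_take]; omega
    have eQ : Q = Q.take (P.p0 - P.c k) ++ ((Q.take s).drop (P.p0 - P.c k) ++ Q.drop s) := by
      have h1 : Q.take (P.p0 - P.c k) = (Q.take s).take (P.p0 - P.c k) := by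
        rw [List.take_take, min_eq_left (by omega)]
      rw [h1, ← List.append_assoc, List.take_append_drop, List.take_append_drop]
    have ez : L ++ Q = (L ++ Q.take (P.p0 - P.c k)) ++
        ((Q.take s).drop (P.p0 - P.c k) ++ Q.drop s) := by
      conv_lhs => rw [eQ]
      rw [List.append_assoc]
    have eD : Q.drop (P.p0 - P.c k) = (Q.take s).drop (P.p0 - P.c k) ++ Q.drop s := by
      have hl : (Q.take (P.p0 - P.c k)).length = P.p0 - P.c k := by
        rw [List.length_take]; omega
      conv_lhs => rw [eQ]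
      exact List.drop_left' hl
    have hT' : P.IsT ((L ++ Q.take (P.p0 - P.c k)) ++
        ((Q.take s).drop (P.p0 - P.c k) ++ Q.drop s))
        ((L ++ Q.take (P.p0 - P.c k)) ++ (Q.take s).drop (P.p0 - P.c k)).length := by
      rw [← ez]
      have : ((L ++ Q.take (P.p0 - P.c k)) ++ (Q.take s).drop (P.p0 - P.c k)).length
          = P.c k + s := by
        rw [List.length_append, hX, List.length_drop, List.length_take]; omega
      rw [this]; exact hT2
    rw [ez, psi_eq _ _ _ hX hT' v, hτ, eD, hO.sound2 k hk0 _ _ _ _ hL hlam hrho]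
    simp only [ph_append, act_add, act_mul, mul_assoc, add_assoc]

theorem compB (hO : P.Ok R) (z : List α) (hz : z ∈ P.Zc) (v : Tok S) :
    Cut P.LB P.RB v z := by
  obtain ⟨t, hT, -⟩ := hz
  have hz0 := hO.hz
  obtain ⟨t1, t2, t3, t4, t5⟩ := id hT
  obtain ⟨I, hI, hIk⟩ := hO.comp2 (z.take P.p0) v (by rw [List.length_take]; omega)
  have hsp := hO.spoil z t hT
  obtain ⟨k, hkI, hks⟩ : ∃ k ∈ I, k ∉ P.spoiled z := by
    by_contra hn
    push Not at hn
    have := Finset.card_le_card (show I ⊆ P.spoiled z from hn)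
    omega
  obtain ⟨hk, hl, hr⟩ := hIk k hkI
  have hck := hO.hc k hk
  obtain ⟨y, hy⟩ := Option.isSome_iff_exists.1 hr
  have hLl : (z.take (P.c k)).length = P.c k := by rw [List.length_take]; omega
  have ez : z = z.take (P.c k) ++ z.drop (P.c k) := (List.take_append_drop _ _).symm
  have hQl : (z.drop (P.c k)).length = z.length - P.c k := List.length_drop
  have sh : ∀ u, P.n ≤ u → u ≤ z.length - P.c k →
      (P.Wo (z.take (P.c k + u)) ↔ P.Wo ((z.drop (P.c k)).take u)) := by
    intro u h1 h2
    have := wo_shift hO (z.take (P.c k)) (z.drop (P.c k)) u h1 (by omega)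
    rw [List.take_append_drop, hLl] at this
    exact this
  refine ⟨z.take (P.c k), z.drop (P.c k), _, ez, ⟨k, hk, hLl, ?_⟩,
    ⟨k, hk, t - P.c k, y, ⟨by omega, by omega, ?_, ?_⟩, by omega, ?_, ?_, ?_, ?_, rfl⟩⟩
  · have : (z.take P.p0).take (P.c k) = z.take (P.c k) := by
      rw [List.take_take, min_eq_left (by omega)]
    rw [← this]; exact hl
  · rw [← sh _ (by omega) (by omega)]
    have e1 : P.c k + (t - P.c k) = t := by omega
    rw [e1]; exact t3
  · intro u h1 h2 h3
    rw [← sh u (by omega) (by omega)] at h3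
    have := t5 _ (by omega) (by omega) h3
    omega
  · exact (hO.loc (z.take (P.c k)) (z.drop (P.c k)) (by omega)).1 (by
      rw [List.take_append_drop]; exact t4)
  · intro u h1 h2 h3
    rw [← sh u (by omega) (by omega)] at h3
    have := t5 _ (by omega) (by omega) h3
    omega
  · intro k' hk' hne hb
    apply hks
    classical
    unfold Par.spoiled
    rw [Finset.mem_filter, Finset.mem_range]
    exact ⟨hk, k', hk', hne, hb⟩
  · have e1 : (z.drop (P.c k)).take (P.p0 - P.c k) = (z.take P.p0).drop (P.c k) :=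
      (List.drop_take).symm
    rw [e1]; exact hy

theorem Zc_sub (z : List α) (hz : z ∈ P.Zc) : z ∈ P.Z := by
  obtain ⟨t, hT, -⟩ := hz
  exact ⟨t, hT⟩

/-- the data from the parameters -/
theorem data2 {R : ℕ} {α : Type} {S : Type} [Monoid S] (P : Par α S) (hO : P.Ok R)
    (hZ : HL 1 P.Z) (hZc : HL 1 P.Zc) (hLA : ∀ v, HL 1 (P.LA v)) (hRA : ∀ v, HL 1 (P.RA v))
    (hLB : ∀ v, HL 1 (P.LB v)) (hRB : ∀ v, HL 1 (P.RB v)) (hRest : ∀ s, HL 1 (P.Rest s)) :
    Data2 (fun w : List α => (w.map P.f).prod) :=
  ⟨P.Z, P.Zc, P.d, P.LA, P.RA, P.LB, P.RB, code, Zc_sub, hZ, hZc, soundA hO, hLA, hRA,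
    compA hO, soundB hO, hLB, hRB, compB hO, fun s => (hRest s).mono (by omega)⟩

end Crest.Agent.R320.AsmS_621
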