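import Crest.Agent.R320.AsmU_842

/-!
# Row 320: the spoiling count for `AsmU_842.Par.Ok.spoil` (helper842)
-/

set_option autoImplicit false

namespace Crest.Agent.R320.AsmU_842

universe u

variable {α : Type u} {S V : Type}

namespace Par

variable [Monoid S] [AddCommGroup V] (p : Par α S V)

/-- the wall which makes the pair `(k, k')` ambiguous -/
def EW (Q : List α) (k k' : ℕ) : Prop :=
  ∃ s : ℕ, p.W.At Q s ∧ p.z + p.c k ≤ s + p.c k' + p.N ∧ s + p.c k' < p.z + p.c k + p.N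

open Classical in
theorem spoil_of (C0 T0 : ℕ)
    (hgap : ∀ Q s t, s < t → p.W.At Q s → p.W.At Q t → s + (2 * p.p0 + 2 * p.N) < t)
    (hz : p.p0 + p.N ≤ p.z) (hT : T0 + 2 * p.p0 ≤ p.z)
    (hcp : ∀ k < p.K, p.c k ≤ p.p0)
    (hgol : ∀ a b a' b', a < p.K → b < p.K → a' < p.K → b' < p.K → a ≠ b →
      |((p.c a : ℤ) - p.c b) - ((p.c a' : ℤ) - p.c b')| ≤ 2 * p.N → a = a' ∧ b = b')
    (hcnt : ∀ T, T0 ≤ T → ∀ P : Finset (ℕ × ℕ), (∀ ab ∈ P, ab.1 < p.K ∧ ab.2 < p.K ∧
      ab.1 ≠ ab.2 ∧ p.Bad (T + p.c ab.1 - p.c ab.2)) → P.card ≤ C0)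
    (hR : 1 + 2 * C0 < p.Rr) :
    ∀ Q t1 t2, p.Zn Q t1 t2 → ∃ J : Finset ℕ, J.card < p.Rr ∧ ∀ k < p.K, k ∉ J →
      ∀ k' < p.K, k' ≠ k → ∀ t', p.W.Fst (p.z - p.c k') (Q.drop (p.c k)) t' →
        ¬ p.badc (p.c k') (Q.drop (p.c k)) t' := by
  intro Q t1 t2 hZ
  have hlt := hZ.lt
  have hA1 := hZ.1.2.1
  have hA2 := hZ.2.2.1
  obtain ⟨u0, hu0, hF0⟩ := Walls.exists_Fst (W := p.W) (k := p.z - p.p0) (t := t1)
    (by omega) hA1
  obtain ⟨u1, hu1, hF1⟩ := Walls.exists_Fst (W := p.W) (k := u0 + 1) (t := t2) (by omega) hA2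
  let Pr (τ : ℕ) : Finset (ℕ × ℕ) := (Finset.range p.K ×ˢ Finset.range p.K).filter
    (fun ab => ab.1 ≠ ab.2 ∧ p.Bad (τ - p.p0 + p.c ab.1 - p.c ab.2))
  have hPr : ∀ τ, T0 ≤ τ - p.p0 → (Pr τ).card ≤ C0 := by
    intro τ hτ
    refine hcnt _ hτ _ fun ab hab => ?_
    simp only [Pr, Finset.mem_filter, Finset.mem_product, Finset.mem_range] at hab
    exact ⟨hab.1.1, hab.1.2, hab.2.1, hab.2.2⟩
  let PE : Finset (ℕ × ℕ) := (Finset.range p.K ×ˢ Finset.range p.K).filter
    (fun ab => ab.1 ≠ ab.2 ∧ p.EW Q ab.1 ab.2)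
  have hPE : PE.card ≤ 1 := by
    refine Finset.card_le_one.2 fun x hx y hy => ?_
    simp only [PE, Finset.mem_filter, Finset.mem_product, Finset.mem_range] at hx hy
    obtain ⟨⟨hx1, hx2⟩, hx3, s, hs, hs1, hs2⟩ := hx
    obtain ⟨⟨hy1, hy2⟩, hy3, t, ht, ht1, ht2⟩ := hy
    have a1 := hcp _ hx1
    have a2 := hcp _ hx2
    have a3 := hcp _ hy1
    have a4 := hcp _ hy2
    have hst : s = t := by
      rcases lt_trichotomy s t with h | h | h
      · have := hgap _ _ _ h hs ht
        omega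
      · exact h
      · have := hgap _ _ _ h ht hs
        omega
    subst hst
    have h := hgol x.1 x.2 y.1 y.2 hx1 hx2 hy1 hy2 hx3 (by rw [abs_le]; constructor <;> omega)
    exact Prod.ext h.1 h.2
  refine ⟨((Pr u0).image Prod.snd ∪ (Pr u1).image Prod.snd) ∪ PE.image Prod.fst, ?_, ?_⟩
  · have c1 := Finset.card_union_le ((Pr u0).image Prod.snd ∪ (Pr u1).image Prod.snd)
      (PE.image Prod.fst)
    have c2 := Finset.card_union_le ((Pr u0).image Prod.snd) ((Pr u1).image Prod.snd)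
    have c3 := Finset.card_image_le (s := Pr u0) (f := Prod.snd)
    have c4 := Finset.card_image_le (s := Pr u1) (f := Prod.snd)
    have c5 := Finset.card_image_le (s := PE) (f := Prod.fst)
    have c6 := hPr u0 (by have := hF0.1; omega)
    have c7 := hPr u1 (by have := hF0.1; have := hF1.1; omega)
    omega
  · intro k hk hkJ k' hk' hne t' hF' hbad
    have a1 := hcp _ hk
    have a2 := hcp _ hk'
    have hAt' : p.W.At Q (p.c k + t') := Walls.At_drop.1 hF'.2.1
    have hmin : ∀ s, p.z + p.c k ≤ s + p.c k' → s < p.c k + t' → ¬ p.W.At Q s := by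
      intro s h1 h2 h3
      have e : s = p.c k + (s - p.c k) := by omega
      rw [e] at h3
      exact hF'.2.2 _ (by omega) (by omega) (Walls.At_drop.2 h3)
    have hge := hF'.1
    -- the wall is `u0` or `u1`
    have hcase : p.c k + t' = u0 ∨ p.c k + t' = u1 := by
      have h1 : u0 ≤ p.c k + t' := by
        by_contra hc
        exact hF0.2.2 _ (by omega) (by omega) hAt'
      rcases Nat.eq_or_lt_of_le h1 with h2 | h2
      · exact Or.inl h2.symm
      · right
        have h3 : u1 ≤ p.c k + t' := by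
          by_contra hc
          exact hF1.2.2 _ (by omega) (by omega) hAt'
        rcases Nat.eq_or_lt_of_le h3 with h4 | h4
        · exact h4.symm
        · exfalso
          have h5 := hgap _ _ _ (show u0 < u1 by have := hF1.1; omega) hF0.2.1 hF1.2.1
          have h6 := hF0.1
          exact hmin u1 (by omega) h4 hF1.2.1
    have hE : ¬ p.EW Q k k' := by
      intro hc
      refine hkJ (Finset.mem_union_right _ (Finset.mem_image.2 ⟨(k, k'), ?_, rfl⟩))
      simp only [PE, Finset.mem_filter, Finset.mem_product, Finset.mem_range]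
      exact ⟨⟨hk, hk'⟩, fun e => hne e.symm, hc⟩
    rcases hbad with ⟨s, h1, h2, h3⟩ | h1 | h1
    · refine hE ⟨p.c k + s, Walls.At_drop.1 h3, by omega, by omega⟩
    · refine hE ⟨p.c k + t', hAt', by omega, by omega⟩
    · have key : ∀ τ, p.c k + t' = τ → (k', k) ∈ Pr τ := by
        intro τ hτ
        simp only [Pr, Finset.mem_filter, Finset.mem_product, Finset.mem_range]
        refine ⟨⟨hk', hk⟩, hne, ?_⟩
        have e : τ - p.p0 + p.c k' - p.c k = t' + p.c k' - p.p0 := by omega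
        rw [e]; exact h1
      rcases hcase with h2 | h2
      · exact hkJ (Finset.mem_union_left _ (Finset.mem_union_left _
          (Finset.mem_image.2 ⟨(k', k), key _ h2, rfl⟩)))
      · exact hkJ (Finset.mem_union_left _ (Finset.mem_union_right _
          (Finset.mem_image.2 ⟨(k', k), key _ h2, rfl⟩)))

end Par

end Crest.Agent.R320.AsmU_842
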