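import Crest.Agent.R320.Top_180
import Crest.Agent.R320.WallU_228
import Crest.Agent.R320.ExactR_237

/-!
# Row 320: all-words assembly over 180's `top2` (helper726)

Left-looking walls, natural chain rule (block = text up to the first wall at distance `>= z`),
one token system, scheme 1 = abstract U-gadget, scheme 2 = 237's exact gadget on the first `p0`
letters.  Right languages are semantic, so soundness is definitional.
-/

set_option autoImplicit false

namespace Crest.Agent.R320.Asm_726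

open Crest.RegLang Crest.Agent.R320.Hk_851 Crest.Agent.R320.Half1_180
open Crest.Agent.R320.ExactR_237 (pr pr_append)

variable {α : Type}

section Walls

variable (Wo : List α → Prop) (n z : ℕ)

/-- blocks -/
def XX : Set (List α) := {X | z ≤ X.length ∧ Wo X ∧ ∀ t, z ≤ t → t < X.length → ¬ Wo (X.take t)}

variable {Wo n z}

theorem pf (hz : 0 < z) : PF (XX Wo z) := by
  refine ⟨fun X hX h0 => ?_, fun X hX Y hY h => ?_⟩
  · subst h0
    have := hX.1
    simp at this
    omega
  · have hle := h.length_le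
    rcases Nat.lt_or_ge X.length Y.length with hlt | hge
    · have h1 := hY.2.2 X.length hX.1 hlt
      have h2 := hX.2.1
      rw [← List.prefix_iff_eq_take.1 h] at h1
      exact absurd h2 h1
    · exact h.eq_of_length (le_antisymm hle hge)

theorem exists_block {w : List α} {t : ℕ} (h1 : z ≤ t) (h2 : t ≤ w.length) (h3 : Wo (w.take t)) :
    ∃ X ∈ XX Wo z, X <+: w ∧ X.length ≤ t := by
  classical
  have hex : ∃ t, z ≤ t ∧ t ≤ w.length ∧ Wo (w.take t) := ⟨t, h1, h2, h3⟩
  refine ⟨w.take (Nat.find hex), ⟨?_, (Nat.find_spec hex).2.2, ?_⟩, List.take_prefix _ _, ?_⟩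
  · rw [List.length_take, Nat.min_eq_left (Nat.find_spec hex).2.1]
    exact (Nat.find_spec hex).1
  · intro s hs1 hs2 hs3
    rw [List.length_take, Nat.min_eq_left (Nat.find_spec hex).2.1] at hs2
    rw [List.take_take, Nat.min_eq_left hs2.le] at hs3
    have := (Nat.find_spec hex).2.1
    exact Nat.find_min hex hs2 ⟨hs1, by omega, hs3⟩
  · rw [List.length_take]
    exact (Nat.min_le_left _ _).trans (Nat.find_min' hex ⟨h1, h2, h3⟩)

theorem wo_shift (loc : ∀ P Q : List α, n ≤ Q.length → (Wo (P ++ Q) ↔ Wo Q))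
    (P P' Q : List α) {m : ℕ} (hm : n ≤ m) (hm2 : m ≤ Q.length) :
    Wo ((P ++ Q).take (P.length + m)) ↔ Wo ((P' ++ Q).take (P'.length + m)) := by
  have h1 : (P ++ Q).take (P.length + m) = P ++ Q.take m := by
    rw [List.take_length_add_append]
  have h2 : (P' ++ Q).take (P'.length + m) = P' ++ Q.take m := by
    rw [List.take_length_add_append]
  rw [h1, h2, loc P _ (by rw [List.length_take]; omega), loc P' _ (by rw [List.length_take]; omega)]

end Walls

section Main

variable {S V : Type} [Monoid S] [AddCommGroup V]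

/-- all data -/
structure Dat (α S V : Type) [Monoid S] [AddCommGroup V] where
  f : α → S
  act : V → S → V
  act_add : ∀ a b s, act (a + b) s = act a s + act b s
  act_mul : ∀ v s s', act (act v s) s' = act v (s * s')
  Wo : List α → Prop
  n : ℕ
  z : ℕ
  loc : ∀ P Q : List α, n ≤ Q.length → (Wo (P ++ Q) ↔ Wo Q)
  W : ℕ
  gap : ∀ (P : List α) (d : ℕ), Wo P → 0 < d → d ≤ W → ¬ Wo (P.take (P.length - d))
  -- gadget 1
  N1 : ℕ
  La : ℕ
  C0 : ℕ
  Bd : ℕ → Prop
  lam : List α → Option V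
  rho : List α → Option V
  nu : List α → V
  lam_len : ∀ p v, lam p = some v → p.length ≤ N1
  sound : ∀ p q v r, lam p = some v → rho q = some r → La ≤ q.length →
    r = act v (pr f (p ++ q)) + nu (p ++ q)
  compl : ∀ u, La ≤ u.length → ¬ Bd u.length → ∀ v, ∃ p q, p ++ q = u ∧ lam p = some v ∧
    (rho q).isSome
  -- ruler
  K : ℕ
  c : ℕ → ℕ
  golomb : ∀ i j k l, i < K → j < K → k < K → l < K → i ≠ j → k ≠ l → (i, j) ≠ (k, l) →
    c i + c l + 4 * N1 < c k + c j ∨ c k + c j + 4 * N1 < c i + c l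
  spoil : ∀ T, La ≤ T → ∀ F : Finset (ℕ × ℕ), (∀ p ∈ F, p.1 < K ∧ p.2 < K ∧ p.1 ≠ p.2 ∧
    Bd (T + c p.2 - c p.1)) → F.card ≤ C0
  p0 : ℕ
  hp0 : ∀ k < K, c k ≤ p0
  -- gadget 2
  lam2 : ℕ → List α → Option V
  rho2 : ℕ → List α → S → Option V
  nu2 : List α → S → V
  sound2 : ∀ k < K, ∀ (P Q : List α) (y : S) (v b : V), P.length = c k →
    lam2 k P = some v → rho2 k Q y = some b → b = act v (pr f (P ++ Q) * y) + nu2 (P ++ Q) y
  compl2 : ∀ (u : List α) (y : S) (v : V), (∀ k < K, c k ≤ u.length) →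
    ∃ I : Finset ℕ, 2 * C0 + 2 ≤ I.card ∧ ∀ k ∈ I, k < K ∧ lam2 k (u.take (c k)) = some v ∧
      (rho2 k (u.drop (c k)) y).isSome
  -- inequalities
  hW : 2 * p0 + 2 * N1 + 2 ≤ W
  hz : n + 2 * p0 + 2 * N1 + La + 1 ≤ z

namespace Dat

variable (D : Dat α S V)

/-- blocks -/
def X : Set (List α) := XX D.Wo D.z

/-- token map of a block -/
def T (X : List α) (v : V) : V :=
  D.act (D.act v (pr D.f (X.take D.p0)) + D.nu2 (X.take D.p0) 1) (pr D.f (X.drop D.p0)) +
    D.nu (X.drop D.p0)

/-- bad blocks -/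
def BadX (X : List α) : Prop :=
  (∃ t, D.z ≤ t + D.N1 ∧ t < D.z + D.N1 ∧ t ≤ X.length ∧ D.Wo (X.take t)) ∨
    D.Bd (X.length - D.p0)

/-- left words of scheme 1 -/
def LP1 (v : V) : Language α :=
  {P | D.p0 ≤ P.length ∧ P.length ≤ D.p0 + D.N1 ∧
    D.lam (P.drop D.p0) = some (D.act v (pr D.f (P.take D.p0)) + D.nu2 (P.take D.p0) 1)}

/-- left words of scheme 2 -/
def LP2 (v : V) : Language α := {P | ∃ k < D.K, P.length = D.c k ∧ D.lam2 k P = some v}

/-- right words of scheme 1 -/
def RQ1 (v' : V) : Language α := {Q | ∀ v, ∀ P ∈ D.LP1 v, P ++ Q ∈ D.X ∧ D.T (P ++ Q) v = v'}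

/-- right words of scheme 2 -/
def RQ2 (v' : V) : Language α := {Q | ∀ v, ∀ P ∈ D.LP2 v,
  (∃ X1 ∈ D.X, ∃ X2 ∈ D.X, P ++ Q = X1 ++ X2 ∧ D.T X2 (D.T X1 v) = v') ∨
    ∃ X1 ∈ D.X, ¬ D.BadX X1 ∧ X1 <+: P ++ Q}

/-- good and bad blocks -/
def Good : Set (List α) := {X | X ∈ D.X ∧ ¬ D.BadX X}

def Bad : Set (List α) := {X | X ∈ D.X ∧ D.BadX X}

theorem hPF : PF D.X := pf (by have := D.hz; omega)

theorem act_sub (a b : V) (s : S) : D.act (a - b) s = D.act a s - D.act b s := by
  have h := D.act_add (a - b) b s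
  rw [sub_add_cancel] at h
  rw [h]; abel

theorem T_sub (X : List α) (v v' : V) : D.T X v - D.T X v' = D.act (v - v') (pr D.f X) := by
  unfold T
  have e : pr D.f X = pr D.f (X.take D.p0) * pr D.f (X.drop D.p0) := by
    rw [← pr_append, List.take_append_drop]
  rw [e, ← D.act_mul, D.act_sub, D.act_add, D.act_add, D.act_sub, D.act_mul, D.act_mul]
  abel

theorem compl1 : ∀ X ∈ D.Good, ∀ v, ∃ P Q, X = P ++ Q ∧ P ∈ D.LP1 v ∧ Q ∈ D.RQ1 (D.T X v) := by
  rintro X ⟨hX, hB⟩ v
  have hz := D.hz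
  simp only [BadX, not_or, not_exists, not_and] at hB
  obtain ⟨hE, hBd⟩ := hB
  have hX1 : D.z ≤ X.length := hX.1
  have hlen : D.z + D.N1 ≤ X.length := by
    by_contra hlt
    refine hE X.length (by omega) (by omega) le_rfl ?_
    rw [List.take_length]; exact hX.2.1
  have hYlen : (X.drop D.p0).length = X.length - D.p0 := by rw [List.length_drop]
  obtain ⟨p, q, hpq, hp, hq⟩ := D.compl (X.drop D.p0) (by rw [hYlen]; omega)
    (by rw [hYlen]; exact hBd) (D.act v (pr D.f (X.take D.p0)) + D.nu2 (X.take D.p0) 1)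
  obtain ⟨r, hr⟩ := Option.isSome_iff_exists.1 hq
  have hpl := D.lam_len _ _ hp
  have hX0 : (X.take D.p0).length = D.p0 := by rw [List.length_take]; omega
  have hql : q.length + p.length + D.p0 = X.length := by
    have := congrArg List.length hpq
    rw [List.length_append, hYlen] at this
    omega
  have hXe : X = (X.take D.p0 ++ p) ++ q := by
    rw [List.append_assoc, hpq, List.take_append_drop]
  have hPl : (X.take D.p0 ++ p).length = D.p0 + p.length := by
    rw [List.length_append, hX0]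
  refine ⟨X.take D.p0 ++ p, q, hXe, ⟨by omega, by omega, ?_⟩, ?_⟩
  · have h1 : (X.take D.p0 ++ p).drop D.p0 = p := by
      conv_lhs => rw [← hX0]
      rw [hX0, List.drop_append_of_le_length (by omega), List.drop_eq_nil_of_le (by omega),
        List.nil_append]
    have h2 : (X.take D.p0 ++ p).take D.p0 = X.take D.p0 := by
      rw [List.take_append_of_le_length (by omega), List.take_of_length_le (by omega)]
    rw [h1, h2]; exact hp
  · intro v' P' hP'
    obtain ⟨hP1, hP2, hP3⟩ := hP'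
    have key : ∀ (P' : List α) (v' : V), D.p0 ≤ P'.length →
        D.lam (P'.drop D.p0) =
          some (D.act v' (pr D.f (P'.take D.p0)) + D.nu2 (P'.take D.p0) 1) →
        D.T (P' ++ q) v' = r := by
      intro P' v' h1 h3
      unfold T
      have e1 : (P' ++ q).take D.p0 = P'.take D.p0 := List.take_append_of_le_length h1
      have e2 : (P' ++ q).drop D.p0 = P'.drop D.p0 ++ q := List.drop_append_of_le_length h1
      rw [e1, e2]
      exact (D.sound _ _ _ _ h3 hr (by omega)).symm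
    refine ⟨⟨?_, ?_, ?_⟩, ?_⟩
    · rw [List.length_append]; omega
    · have h1 : D.Wo X := hX.2.1
      rw [hXe, D.loc _ _ (by omega)] at h1
      rw [D.loc _ _ (by omega)]; exact h1
    · intro t ht1 ht2 ht3
      rw [List.length_append] at ht2
      have e : P'.length + (t - P'.length) = t := by omega
      have hs := wo_shift D.loc P' (X.take D.p0 ++ p) q (m := t - P'.length)
        (by omega) (by omega)
      rw [e, hPl, ← hXe] at hs
      have hw := hs.1 ht3
      rcases Nat.lt_or_ge (D.p0 + p.length + (t - P'.length)) D.z with hlt | hge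
      · exact hE _ (by omega) (by omega) (by omega) hw
      · exact hX.2.2 _ hge (by omega) hw
    · rw [key P' v' hP1 hP3]
      have h4 := key (X.take D.p0 ++ p) v (by omega) (by
        have h1 : (X.take D.p0 ++ p).drop D.p0 = p := by
          rw [List.drop_append_of_le_length (by omega), List.drop_eq_nil_of_le (by omega),
            List.nil_append]
        have h2 : (X.take D.p0 ++ p).take D.p0 = X.take D.p0 := by
          rw [List.take_append_of_le_length (by omega), List.take_of_length_le (by omega)]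
        rw [h1, h2]; exact hp)
      rw [← hXe] at h4
      exact h4.symm

theorem sound2' : ∀ v v' P Q R, P ∈ D.LP2 v → Q ∈ D.RQ2 v' → Bs D.Bad (P ++ (Q ++ R)) →
    Tr D.X D.T v (P ++ Q) v' ∧ Bs D.Bad R := by
  intro v v' P Q R hP hQ hB
  have inv : ∀ (X w : List α), X ∈ D.X → Bs D.Bad (X ++ w) → X ∈ D.Bad ∧ Bs D.Bad w := by
    intro X w hX h
    generalize hu : X ++ w = u at h
    cases h with
    | nil => exact absurd (List.append_eq_nil_iff.1 hu).1 (D.hPF.1 X hX)
    | cons hY hT' =>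
      obtain ⟨rfl, rfl⟩ := D.hPF.eq hX hY.1 hu
      exact ⟨hY, hT'⟩
  rcases hQ v P hP with ⟨X1, hX1, X2, hX2, he, hv⟩ | ⟨X1, hX1, hg, w, he⟩
  · rw [← List.append_assoc, he, List.append_assoc] at hB
    obtain ⟨h1, h2⟩ := inv _ _ hX1 hB
    obtain ⟨h3, h4⟩ := inv _ _ hX2 h2
    refine ⟨?_, h4⟩
    rw [he, ← hv]
    exact (Tr.single hX1).append (Tr.single hX2)
  · rw [← List.append_assoc, ← he, List.append_assoc] at hB
    exact absurd (inv _ _ hX1 hB).1.2 hg

/-- candidate `j` is a bad block in the text `w` cut at `c k` -/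
def Cand (w : List α) (k j : ℕ) : Prop :=
  ∃ P' : List α, P'.length = D.c j ∧ ∃ X' ∈ D.X, D.BadX X' ∧ X' <+: P' ++ w.drop (D.c k)

theorem wgap {w : List α} {s s' : ℕ} (h : D.Wo (w.take s)) (h' : D.Wo (w.take s'))
    (hss : s < s') (hs : s' ≤ w.length) : s + D.W < s' := by
  by_contra hlt
  have hl : (w.take s').length = s' := by rw [List.length_take]; omega
  have := D.gap (w.take s') (s' - s) h' (by omega) (by omega)
  rw [hl, List.take_take] at this
  have e : min (s' - (s' - s)) s' = s := by omega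
  rw [e] at this
  exact this h

/-- what a candidate tells about the text -/
theorem cand_spec {w : List α} {k j : ℕ} (hk : k < D.K) (hj : j < D.K)
    (hw : D.c k ≤ w.length) (h : D.Cand w k j) :
    ∃ L e, D.z ≤ L ∧ L + D.c k = e + D.c j ∧ e ≤ w.length ∧ D.Wo (w.take e) ∧
      (∀ t, D.z + D.c k ≤ t + D.c j → t < e → ¬ D.Wo (w.take t)) ∧
      ((∃ s, D.z + D.c k ≤ s + D.c j + D.N1 ∧ s + D.c j < D.z + D.c k + D.N1 ∧ s ≤ w.length ∧
        D.Wo (w.take s)) ∨ D.Bd (L - D.p0)) := by
  obtain ⟨P', hP', X', hX', hB, hpre⟩ := h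
  have hz := D.hz
  have hck := D.hp0 k hk
  have hcj := D.hp0 j hj
  have hle := hpre.length_le
  rw [List.length_append, List.length_drop, hP'] at hle
  have hXe := List.prefix_iff_eq_take.1 hpre
  have hz1 : D.z ≤ X'.length := hX'.1
  have hPl : (w.take (D.c k)).length = D.c k := by rw [List.length_take]; omega
  have hsh : ∀ t, D.n + D.c j ≤ t → t ≤ X'.length →
      (D.Wo (X'.take t) ↔ D.Wo (w.take (D.c k + (t - D.c j)))) := by
    intro t h1 h2
    have h3 := wo_shift D.loc P' (w.take (D.c k)) (w.drop (D.c k)) (m := t - D.c j)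
      (by omega) (by rw [List.length_drop]; omega)
    rw [hPl, List.take_append_drop, hP'] at h3
    have e1 : D.c j + (t - D.c j) = t := by omega
    rw [e1] at h3
    rw [← h3, hXe, List.take_take, Nat.min_eq_left h2]
  refine ⟨X'.length, D.c k + (X'.length - D.c j), hz1, by omega, by omega, ?_, ?_, ?_⟩
  · rw [← hsh _ (by omega) le_rfl, List.take_length]
    exact hX'.2.1
  · intro t h1 h2 h3
    have e : D.c k + (t + D.c j - D.c k - D.c j) = t := by omega
    have h4 := hsh (t + D.c j - D.c k) (by omega) (by omega)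
    rw [e] at h4
    exact hX'.2.2 (t + D.c j - D.c k) (by omega) (by omega) (h4.2 h3)
  · rcases hB with ⟨t, h1, h2, h3, h4⟩ | hB
    · left
      have h5 := (hsh t (by omega) h3).1 h4
      exact ⟨_, by omega, by omega, by omega, h5⟩
    · exact Or.inr hB

theorem spoiled {w : List α} (hw : 2 * D.z ≤ w.length) (hWo : D.Wo w) (F : Finset (ℕ × ℕ))
    (hF : ∀ p ∈ F, p.1 < D.K ∧ p.2 < D.K ∧ p.1 ≠ p.2 ∧ D.Cand w p.1 p.2) :
    F.card ≤ 2 * D.C0 + 1 := by
  classical
  have hz := D.hz
  have hWW := D.hW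
  have hex : ∀ x, x ≤ w.length → ∃ t, x ≤ t ∧ t ≤ w.length ∧ D.Wo (w.take t) := by
    intro x hx
    exact ⟨w.length, hx, le_rfl, by rw [List.take_length]; exact hWo⟩
  have hx1 := hex (D.z - D.p0) (by omega)
  have hx2 := hex (D.z + D.p0) (by omega)
  obtain ⟨e1, he1, hm1⟩ : ∃ e1, (D.z - D.p0 ≤ e1 ∧ e1 ≤ w.length ∧ D.Wo (w.take e1)) ∧
      ∀ t, D.z - D.p0 ≤ t → t ≤ w.length → D.Wo (w.take t) → e1 ≤ t :=
    ⟨Nat.find hx1, Nat.find_spec hx1, fun t h1 h2 h3 => Nat.find_min' hx1 ⟨h1, h2, h3⟩⟩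
  obtain ⟨e2, he2, hm2⟩ : ∃ e2, (D.z + D.p0 ≤ e2 ∧ e2 ≤ w.length ∧ D.Wo (w.take e2)) ∧
      ∀ t, D.z + D.p0 ≤ t → t ≤ w.length → D.Wo (w.take t) → e2 ≤ t :=
    ⟨Nat.find hx2, Nat.find_spec hx2, fun t h1 h2 h3 => Nat.find_min' hx2 ⟨h1, h2, h3⟩⟩
  let PE : ℕ × ℕ → Prop := fun p => ∃ s, D.z + D.c p.1 ≤ s + D.c p.2 + D.N1 ∧
    s + D.c p.2 < D.z + D.c p.1 + D.N1 ∧ s ≤ w.length ∧ D.Wo (w.take s)
  let PB : ℕ → ℕ × ℕ → Prop := fun e p => D.Bd ((e - D.p0) + D.c p.2 - D.c p.1)
  have hsplit : ∀ p ∈ F, PE p ∨ PB e1 p ∨ PB e2 p := by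
    intro p hp
    obtain ⟨h1, h2, h3, h4⟩ := hF p hp
    have hc1 := D.hp0 _ h1
    have hc2 := D.hp0 _ h2
    obtain ⟨L, e, hL, hLe, hew, hWe, hno, hor⟩ := D.cand_spec h1 h2 (by omega) h4
    rcases hor with hE | hB
    · exact Or.inl hE
    · right
      have hcase : e = e1 ∨ e = e2 := by
        rcases Nat.lt_or_ge (e1 + D.c p.2) (D.z + D.c p.1) with hlt | hge
        · right
          rcases Nat.lt_or_ge e (D.z + D.p0) with h5 | h5
          · exfalso
            have := D.wgap he1.2.2 hWe (by omega) hew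
            omega
          · refine le_antisymm ?_ (hm2 e h5 hew hWe)
            by_contra h6
            exact hno e2 (by omega) (by omega) he2.2.2
        · left
          refine le_antisymm ?_ (hm1 e (by omega) hew hWe)
          by_contra h6
          exact hno e1 (by omega) (by omega) he1.2.2
      have hPB : PB e p := by
        show D.Bd _
        have : e - D.p0 + D.c p.2 - D.c p.1 = L - D.p0 := by omega
        rw [this]; exact hB
      rcases hcase with rfl | rfl
      · exact Or.inl hPB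
      · exact Or.inr hPB
  have hsub : F ⊆ F.filter PE ∪ (F.filter (PB e1) ∪ F.filter (PB e2)) := by
    intro p hp
    rcases hsplit p hp with h | h | h
    · exact Finset.mem_union_left _ (Finset.mem_filter.2 ⟨hp, h⟩)
    · exact Finset.mem_union_right _ (Finset.mem_union_left _ (Finset.mem_filter.2 ⟨hp, h⟩))
    · exact Finset.mem_union_right _ (Finset.mem_union_right _ (Finset.mem_filter.2 ⟨hp, h⟩))
  have hcE : (F.filter PE).card ≤ 1 := by
    rw [Finset.card_le_one]
    intro p hp q hq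
    obtain ⟨hp1, s, hs1, hs2, hs3, hs4⟩ := Finset.mem_filter.1 hp
    obtain ⟨hq1, s', hs1', hs2', hs3', hs4'⟩ := Finset.mem_filter.1 hq
    obtain ⟨a1, a2, a3, _⟩ := hF p hp1
    obtain ⟨b1, b2, b3, _⟩ := hF q hq1
    have c1 := D.hp0 _ a1
    have c2 := D.hp0 _ a2
    have c3 := D.hp0 _ b1
    have c4 := D.hp0 _ b2
    have hss : s = s' := by
      rcases lt_trichotomy s s' with h | h | h
      · have := D.wgap hs4 hs4' h hs3'
        omega
      · exact h
      · have := D.wgap hs4' hs4 h hs3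
        omega
    subst hss
    by_contra hne
    have hg := D.golomb p.1 p.2 q.1 q.2 a1 a2 b1 b2 a3 b3 (fun h => hne (by
      have e1 := (Prod.mk.inj h).1
      have e2 := (Prod.mk.inj h).2
      exact Prod.ext e1 e2))
    omega
  have hc1 : (F.filter (PB e1)).card ≤ D.C0 := by
    refine D.spoil (e1 - D.p0) (by omega) _ fun p hp => ?_
    obtain ⟨h1, h2⟩ := Finset.mem_filter.1 hp
    obtain ⟨a1, a2, a3, _⟩ := hF p h1
    exact ⟨a1, a2, a3, h2⟩
  have hc2 : (F.filter (PB e2)).card ≤ D.C0 := by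
    refine D.spoil (e2 - D.p0) (by omega) _ fun p hp => ?_
    obtain ⟨h1, h2⟩ := Finset.mem_filter.1 hp
    obtain ⟨a1, a2, a3, _⟩ := hF p h1
    exact ⟨a1, a2, a3, h2⟩
  have := (Finset.card_le_card hsub).trans (Finset.card_union_le _ _)
  have := Finset.card_union_le (F.filter (PB e1)) (F.filter (PB e2))
  omega

theorem compl2' : ∀ Y1 ∈ D.Bad, ∀ Y2 ∈ D.Bad, ∀ v, ∃ P Q, Y1 ++ Y2 = P ++ Q ∧ P ∈ D.LP2 v ∧
    Q ∈ D.RQ2 (D.T Y2 (D.T Y1 v)) := by
  classical
  rintro Y1 ⟨hY1, -⟩ Y2 ⟨hY2, -⟩ v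
  have hz := D.hz
  have hl1 : D.z ≤ Y1.length := hY1.1
  have hl2 : D.z ≤ Y2.length := hY2.1
  have hwl : (Y1 ++ Y2).length = Y1.length + Y2.length := List.length_append
  have hWw : D.Wo (Y1 ++ Y2) := (D.loc _ _ (by omega)).2 hY2.2.1
  have hul : (Y1.take D.p0).length = D.p0 := by rw [List.length_take]; omega
  obtain ⟨I, hI, hIk⟩ := D.compl2 (Y1.take D.p0) 1 v (fun k hk => by rw [hul]; exact D.hp0 k hk)
  let F : Finset (ℕ × ℕ) := (Finset.range D.K ×ˢ Finset.range D.K).filter
    (fun p => p.1 ≠ p.2 ∧ D.Cand (Y1 ++ Y2) p.1 p.2)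
  have hF := D.spoiled (w := Y1 ++ Y2) (by omega) hWw F (fun p hp => by
    obtain ⟨h1, h2, h3⟩ := Finset.mem_filter.1 hp
    obtain ⟨h4, h5⟩ := Finset.mem_product.1 h1
    exact ⟨Finset.mem_range.1 h4, Finset.mem_range.1 h5, h2, h3⟩)
  have hJ : (F.image Prod.fst).card ≤ 2 * D.C0 + 1 := Finset.card_image_le.trans hF
  obtain ⟨k, hkI, hkJ⟩ : ∃ k ∈ I, k ∉ F.image Prod.fst := by
    by_contra hno
    push Not at hno
    have := Finset.card_le_card (show I ⊆ F.image Prod.fst from hno)
    omega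
  obtain ⟨hk, hlam, hrho⟩ := hIk k hkI
  have hck := D.hp0 k hk
  obtain ⟨b, hb⟩ := Option.isSome_iff_exists.1 hrho
  have hkk : ∀ j, j < D.K → j ≠ k → ¬ D.Cand (Y1 ++ Y2) k j := by
    intro j hj hjk hc
    exact hkJ (Finset.mem_image.2 ⟨(k, j), Finset.mem_filter.2
      ⟨Finset.mem_product.2 ⟨Finset.mem_range.2 hk, Finset.mem_range.2 hj⟩, hjk.symm, hc⟩, rfl⟩)
  have hdrop : (Y1 ++ Y2).drop (D.c k) = Y1.drop (D.c k) ++ Y2 :=
    List.drop_append_of_le_length (by omega)
  have htt : (Y1.take D.p0).take (D.c k) = Y1.take (D.c k) := by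
    rw [List.take_take, Nat.min_eq_left hck]
  rw [htt] at hlam
  have hPl : (Y1.take (D.c k)).length = D.c k := by rw [List.length_take]; omega
  refine ⟨Y1.take (D.c k), Y1.drop (D.c k) ++ Y2, ?_, ⟨k, hk, hPl, hlam⟩, ?_⟩
  · rw [← List.append_assoc, List.take_append_drop]
  · rintro v' P' ⟨j, hj, hP'l, hP'⟩
    by_cases hjk : j = k
    · subst hjk
      left
      have hXX : P' ++ Y1.drop (D.c j) ∈ D.X := by
        have hsh : ∀ t, D.c j + D.n ≤ t → t ≤ Y1.length →
            (D.Wo ((P' ++ Y1.drop (D.c j)).take t) ↔ D.Wo (Y1.take t)) := by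
          intro t h1 h2
          have h3 := wo_shift D.loc P' (Y1.take (D.c j)) (Y1.drop (D.c j)) (m := t - D.c j)
            (by omega) (by rw [List.length_drop]; omega)
          rw [hPl, List.take_append_drop, hP'l] at h3
          have e1 : D.c j + (t - D.c j) = t := by omega
          rw [e1] at h3
          exact h3
        have hll : (P' ++ Y1.drop (D.c j)).length = Y1.length := by
          rw [List.length_append, List.length_drop, hP'l]; omega
        refine ⟨by rw [hll]; exact hl1, ?_, ?_⟩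
        · have h1 := (hsh Y1.length (by omega) le_rfl)
          rw [List.take_length, ← hll, List.take_length] at h1
          exact h1.2 hY1.2.1
        · intro t h1 h2 h3
          rw [hll] at h2
          exact hY1.2.2 t h1 h2 ((hsh t (by omega) h2.le).1 h3)
      refine ⟨_, hXX, Y2, hY2, by rw [List.append_assoc], ?_⟩
      have hTT : D.T (P' ++ Y1.drop (D.c j)) v' = D.T Y1 v := by
        unfold T
        have e1 : (P' ++ Y1.drop (D.c j)).take D.p0 = P' ++ (Y1.take D.p0).drop (D.c j) := by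
          rw [List.take_append, hP'l, List.take_of_length_le (by omega), List.drop_take]
        have e2 : (P' ++ Y1.drop (D.c j)).drop D.p0 = Y1.drop D.p0 := by
          rw [List.drop_append, hP'l, List.drop_eq_nil_of_le (by omega), List.nil_append,
            List.drop_drop]
          congr 1; omega
        rw [e1, e2]
        have s1 := D.sound2 j hj P' ((Y1.take D.p0).drop (D.c j)) 1 v' b hP'l hP' hb
        have s2 := D.sound2 j hj (Y1.take (D.c j)) ((Y1.take D.p0).drop (D.c j)) 1 v b hPl hlam hb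
        have e3 : Y1.take (D.c j) ++ (Y1.take D.p0).drop (D.c j) = Y1.take D.p0 := by
          rw [← htt, List.take_append_drop]
        rw [e3, mul_one] at s2
        rw [mul_one] at s1
        rw [← s1, ← s2]
      rw [hTT]
    · right
      have hWo' : D.Wo (P' ++ (Y1.drop (D.c k) ++ Y2)) := by
        rw [← List.append_assoc]
        exact (D.loc _ _ (by omega)).2 hY2.2.1
      have hlen : D.z ≤ (P' ++ (Y1.drop (D.c k) ++ Y2)).length := by
        rw [List.length_append, List.length_append]; omega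
      obtain ⟨X', hX', hpre, -⟩ := exists_block (Wo := D.Wo) (z := D.z)
        (w := P' ++ (Y1.drop (D.c k) ++ Y2)) hlen le_rfl (by rw [List.take_length]; exact hWo')
      refine ⟨X', hX', fun hbad => ?_, hpre⟩
      refine hkk j hj hjk ⟨P', hP'l, X', hX', hbad, ?_⟩
      rw [hdrop]; exact hpre

end Dat

end Main

end Crest.Agent.R320.Asm_726
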