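import Mathlib
import Crest.Agent.R320.ExactR_237

/-!
CORE-4 of row 320 at list level: scheme 2 (promise ruler) over the redundant exact gadget.

`c k < p0` (`k < K`) are the cut places, measured from the block start `a`. `Bd Y` (bad anchor) and
`tl Y` (distance of the block end, tail zone map) are read on the text `Y` to the right of `a + p0`.
The right side at a place `x` considers the candidates `k` with `Bd` of the text right of
`x - c k + p0`; it is legal iff there is exactly one.
-/

set_option autoImplicit false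
set_option linter.unusedSectionVars false

namespace Crest.Agent.R320.Sch2_606

open Finset Crest.Agent.R320.ExactR_237

section

variable {A S V : Type} [Monoid S] [AddCommGroup V]

/-- The two properties of the redundant exact gadget. -/
structure Gad (f : A → S) (act : V → S → V) (K R : ℕ) (c : ℕ → ℕ)
    (lam : ℕ → List A → Option V) (rho : ℕ → List A → S → Option V)
    (nu : List A → S → V) : Prop where
  sound : ∀ k < K, ∀ (P Q : List A) (y : S) (v b : V), P.length = c k →
    lam k P = some v → rho k Q y = some b → b = act v (pr f (P ++ Q) * y) + nu (P ++ Q) y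
  complete : ∀ (u : List A) (y : S) (v : V), (∀ k < K, c k ≤ u.length) →
    ∃ I : Finset ℕ, R ≤ I.card ∧ ∀ k ∈ I, k < K ∧ lam k (u.take (c k)) = some v ∧
      (rho k (u.drop (c k)) y).isSome

variable {f : A → S} {act : V → S → V} {K R : ℕ} {c : ℕ → ℕ}
  {lam : ℕ → List A → Option V} {rho : ℕ → List A → S → Option V} {nu : List A → S → V}

open Classical in
/-- left label of scheme 2. -/
noncomputable def lam2 (K : ℕ) (c : ℕ → ℕ) (lam : ℕ → List A → Option V) (P : List A) : Option V :=
  if h : ∃ k, k < K ∧ P.length = c k then lam h.choose P else none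

theorem lam2_eq (hc : ∀ i j, i < j → j < K → c i < c j) {P : List A} {k : ℕ} (hk : k < K)
    (hP : P.length = c k) : lam2 K c lam P = lam k P := by
  have h : ∃ k, k < K ∧ P.length = c k := ⟨k, hk, hP⟩
  unfold lam2
  rw [dif_pos h]
  obtain ⟨h1, h2⟩ := h.choose_spec
  have : h.choose = k := by
    rcases lt_trichotomy h.choose k with h3 | h3 | h3
    · have := hc _ _ h3 hk; omega
    · exact h3
    · have := hc _ _ h3 h1; omega
  rw [this]

theorem lam2_some {P : List A} {v : V} (h : lam2 K c lam P = some v) :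
    ∃ k, k < K ∧ P.length = c k ∧ lam k P = some v := by
  unfold lam2 at h
  split_ifs at h with h1
  exact ⟨_, h1.choose_spec.1, h1.choose_spec.2, h⟩

/-- `k` is the only bad candidate seen from the right word `Q`. -/
def Only (K : ℕ) (c : ℕ → ℕ) (p0 : ℕ) (Bd : List A → Prop) (Q : List A) (k : ℕ) : Prop :=
  k < K ∧ Bd (Q.drop (p0 - c k)) ∧ ∀ j < K, Bd (Q.drop (p0 - c j)) → j = k

open Classical in
/-- right reading of scheme 2: distance of the block end and the label there. -/
noncomputable def rho2 (K : ℕ) (c : ℕ → ℕ) (p0 : ℕ) (Bd : List A → Prop)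
    (tl : List A → Option (ℕ × S)) (rho : ℕ → List A → S → Option V) (Q : List A) :
    Option (ℕ × V) :=
  if h : ∃ k, Only K c p0 Bd Q k then
    (tl (Q.drop (p0 - c h.choose))).bind fun ey =>
      (rho h.choose (Q.take (p0 - c h.choose)) ey.2).map fun b => (p0 - c h.choose + ey.1, b)
  else none

theorem rho2_eq {p0 : ℕ} {Bd : List A → Prop} {tl : List A → Option (ℕ × S)} {Q : List A} {k : ℕ}
    (hk : Only K c p0 Bd Q k) :
    rho2 K c p0 Bd tl rho Q = (tl (Q.drop (p0 - c k))).bind fun ey =>
      (rho k (Q.take (p0 - c k)) ey.2).map fun b => (p0 - c k + ey.1, b) := by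
  have h : ∃ k, Only K c p0 Bd Q k := ⟨k, hk⟩
  unfold rho2
  rw [dif_pos h]
  have : h.choose = k := hk.2.2 _ h.choose_spec.1 h.choose_spec.2.1
  rw [this]

theorem rho2_some {p0 : ℕ} {Bd : List A → Prop} {tl : List A → Option (ℕ × S)} {Q : List A}
    {d : ℕ} {b : V} (h : rho2 K c p0 Bd tl rho Q = some (d, b)) :
    ∃ k e y, Only K c p0 Bd Q k ∧ tl (Q.drop (p0 - c k)) = some (e, y) ∧
      rho k (Q.take (p0 - c k)) y = some b ∧ d = p0 - c k + e := by
  by_cases hk : ∃ k, Only K c p0 Bd Q k
  · obtain ⟨k, hk⟩ := hk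
    rw [rho2_eq hk] at h
    cases ht : tl (Q.drop (p0 - c k)) with
    | none => rw [ht] at h; simp at h
    | some ey =>
      rw [ht, Option.bind_some] at h
      cases hr : rho k (Q.take (p0 - c k)) ey.2 with
      | none => rw [hr] at h; simp at h
      | some b' =>
        rw [hr, Option.map_some, Option.some.injEq, Prod.mk.injEq] at h
        exact ⟨k, ey.1, ey.2, hk, ht, by rw [hr, h.2], h.1.symm⟩
  · unfold rho2 at h
    rw [dif_neg hk] at h
    simp at h

/-- **Soundness of scheme 2** at a junction `P | Q` whose true anchor (the start of `P`) is bad. -/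
theorem sound2 {p0 : ℕ} (hp0 : ∀ k < K, c k ≤ p0)
    (hG : Gad f act K R c lam rho nu) {Bd : List A → Prop} {tl : List A → Option (ℕ × S)}
    {P Q : List A} {v b : V} {d : ℕ}
    (hl : lam2 K c lam P = some v) (hr : rho2 K c p0 Bd tl rho Q = some (d, b))
    (hbad : Bd ((P ++ Q).drop p0)) :
    ∃ e y, tl ((P ++ Q).drop p0) = some (e, y) ∧ P.length + d = p0 + e ∧
      b = act v (pr f ((P ++ Q).take p0) * y) + nu ((P ++ Q).take p0) y := by
  obtain ⟨k, hk, hP, hlk⟩ := lam2_some hl
  obtain ⟨j, e, y, hj, ht, hrj, hd⟩ := rho2_some hr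
  have hpk := hp0 k hk
  have hdrop : (P ++ Q).drop p0 = Q.drop (p0 - c k) := by
    have h1 : p0 = P.length + (p0 - c k) := by omega
    conv_lhs => rw [h1]
    rw [List.drop_append]
    simp
  have htake : (P ++ Q).take p0 = P ++ Q.take (p0 - c k) := by
    have h1 : p0 = P.length + (p0 - c k) := by omega
    conv_lhs => rw [h1]
    rw [List.take_append]
    simp
  rw [hdrop] at hbad
  have hjk : k = j := hj.2.2 k hk hbad
  subst hjk
  refine ⟨e, y, by rw [hdrop]; exact ht, by omega, ?_⟩
  rw [htake]
  exact hG.sound k hk P (Q.take (p0 - c k)) y v b hP hlk hrj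

/-- **Completeness of scheme 2** at a bad anchor with fewer than `R` spoiled places. -/
theorem complete2 (hc : ∀ i j, i < j → j < K → c i < c j) {p0 : ℕ} (hp0 : ∀ k < K, c k ≤ p0)
    (hG : Gad f act K R c lam rho nu) {Bd : List A → Prop} {tl : List A → Option (ℕ × S)}
    {U : List A} (hU : p0 ≤ U.length) {e : ℕ} {y : S}
    (hbad : Bd (U.drop p0)) (ht : tl (U.drop p0) = some (e, y))
    {J : Finset ℕ} (hJ : J.card < R)
    (hspoil : ∀ k < K, (∃ j < K, j ≠ k ∧ Bd (U.drop (c k + (p0 - c j)))) → k ∈ J) (v : V) :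
    ∃ k < K, lam2 K c lam (U.take (c k)) = some v ∧
      ∃ b, rho2 K c p0 Bd tl rho (U.drop (c k)) = some (p0 - c k + e, b) := by
  have hlen : (U.take p0).length = p0 := by rw [List.length_take]; exact min_eq_left hU
  obtain ⟨I, hI, hIk⟩ := hG.complete (U.take p0) y v (fun k hk => by rw [hlen]; exact hp0 k hk)
  have : ∃ k ∈ I, k ∉ J := by
    by_contra hcon
    push Not at hcon
    have := Finset.card_le_card (fun k hk => hcon k hk : I ⊆ J)
    omega
  obtain ⟨k, hkI, hkJ⟩ := this
  obtain ⟨hk, hl, hr⟩ := hIk k hkI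
  have hpk := hp0 k hk
  have htt : (U.take p0).take (c k) = U.take (c k) := by
    rw [List.take_take, min_eq_left hpk]
  have htd : (U.take p0).drop (c k) = (U.drop (c k)).take (p0 - c k) := by
    rw [List.drop_take]
  have hdd : (U.drop (c k)).drop (p0 - c k) = U.drop p0 := by
    rw [List.drop_drop]; congr 1; omega
  have hlk : (U.take (c k)).length = c k := by
    rw [List.length_take]; exact min_eq_left (hpk.trans hU)
  rw [htt] at hl
  rw [htd] at hr
  have honly : Only K c p0 Bd (U.drop (c k)) k := by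
    refine ⟨hk, by rw [hdd]; exact hbad, fun j hj hbj => ?_⟩
    by_contra hne
    apply hkJ
    apply hspoil k hk
    refine ⟨j, hj, hne, ?_⟩
    rw [List.drop_drop] at hbj
    exact hbj
  obtain ⟨b, hb⟩ := Option.isSome_iff_exists.1 hr
  refine ⟨k, hk, by rw [lam2_eq hc hk hlk]; exact hl, b, ?_⟩
  rw [rho2_eq honly, hdd, ht, Option.bind_some, hb, Option.map_some]

end

/-- The gadget exists (237). -/
theorem exists_gad (A S V : Type) [Monoid S] [Fintype S] [Fintype V] [AddCommGroup V]
    (f : A → S) (act : V → S → V) (R : ℕ) :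
    ∃ K : ℕ, ∀ c : ℕ → ℕ, (∀ i j, i < j → j < K → c i < c j) →
      ∃ (lam : ℕ → List A → Option V) (rho : ℕ → List A → S → Option V) (nu : List A → S → V),
        Gad f act K R c lam rho nu := by
  obtain ⟨K, hK⟩ := exact_gadget A S V f act R
  refine ⟨K, fun c hc => ?_⟩
  obtain ⟨lam, rho, nu, h1, h2⟩ := hK c hc
  exact ⟨lam, rho, nu, ⟨h1, h2⟩⟩

end Crest.Agent.R320.Sch2_606
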