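import Crest.Agent.R320.Main_621
import Crest.Agent.R320.FewVal_228
import Crest.Agent.R320.Sch2_606

set_option autoImplicit false

/-!
Row 320: two nested wall schemes on ALL words from a U-gadget; definitions.
Texts are read to the right of `a + p0`; `s` = first wall at distance at least `zz`, the zone ends at
the next wall after `s`.
-/

namespace Crest.Agent.R320.AsmU_709

open Crest.Agent.R320.Hk_851 Crest.Agent.R320.Star_621 Crest.Agent.R320.Two_621
open Crest.Agent.R320.Main_621 Crest.Agent.R320.FewWalls_228 Crest.Agent.R320.Sch2_606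

variable {α : Type}

/-- wall ending at `t` -/
def Wt (n : ℕ) (W : Set (List α)) (w : List α) (t : ℕ) : Prop := n ≤ t ∧ Wl n W w (t - n)

def Fst (n : ℕ) (W : Set (List α)) (zz : ℕ) (w : List α) (t : ℕ) : Prop :=
  Wt n W w t ∧ zz ≤ t ∧ ∀ y, y < t → zz ≤ y → ¬ Wt n W w y

def Nxt (n : ℕ) (W : Set (List α)) (w : List α) (t b : ℕ) : Prop :=
  Wt n W w b ∧ t < b ∧ ∀ y, t < y → y < b → ¬ Wt n W w y

/-- data of the construction -/
structure Dt (α S : Type) [Monoid S] where
  f : α → S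
  n : ℕ
  W : Set (List α)
  zz : ℕ
  p0 : ℕ
  N : ℕ
  Bad : ℕ → Prop
  lam : List α → Option (Tok S)
  rho : List α → Option (Tok S)
  nu : List α → Tok S

variable {S : Type} [Monoid S] (D : Dt α S)

def Dt.ph (w : List α) : S := (w.map D.f).prod

/-- zone, read from `a + p0` -/
def Dt.ZY (Y : List α) : Prop := ∃ t, Fst D.n D.W D.zz Y t ∧ Nxt D.n D.W Y t Y.length

def Dt.Bd (Y : List α) : Prop :=
  ∃ t, Fst D.n D.W D.zz Y t ∧
    (D.Bad t ∨ ∃ y, D.zz ≤ y + D.N ∧ y < D.zz + D.N ∧ Wt D.n D.W Y y)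

def Dt.Z : Language α := {X | D.p0 ≤ X.length ∧ D.ZY (X.drop D.p0)}

def Dt.Zc : Language α := {X | X ∈ D.Z ∧ D.Bd (X.drop D.p0)}

def Dt.LA (v : Tok S) : Language α :=
  {P | D.p0 ≤ P.length ∧ D.lam (P.drop D.p0) = some (act v (D.ph (P.take D.p0)))}

def Dt.RA (τ : Tok S) : Language α :=
  {Q | ∃ q e r, Q = q ++ e ∧ D.rho q = some r ∧ Wt D.n D.W Q q.length ∧ D.zz ≤ q.length ∧
    (∀ y, y < q.length → Wt D.n D.W Q y → y + D.N < D.zz) ∧
    Nxt D.n D.W Q q.length Q.length ∧ τ = act r (D.ph e)}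

open Classical in
noncomputable def Dt.dY (Y : List α) : Tok S :=
  if h : ∃ t, Fst D.n D.W D.zz Y t then
    act (D.nu (Y.take h.choose)) (D.ph (Y.drop h.choose)) else 0

noncomputable def Dt.dA (X : List α) : Tok S := D.dY (X.drop D.p0)

def Dt.CutY (v : Tok S) (Y : List α) : Prop :=
  ∃ p Q τ, Y = p ++ Q ∧ D.lam p = some v ∧ Q ∈ D.RA τ

/-- letter action of the token maps -/
def Dt.f2 (a : α) : (Function.End (Option (Tok S)))ᵐᵒᵖ :=
  MulOpposite.op (fun o : Option (Tok S) => o.map fun v => act v (D.f a))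

open Classical in
/-- token map of the part of the zone to the right of `a + p0` -/
noncomputable def Dt.th2 (Y : List α) : (Function.End (Option (Tok S)))ᵐᵒᵖ :=
  MulOpposite.op (fun o : Option (Tok S) => o.bind fun v =>
    if D.CutY v Y then none else some (act v (D.ph Y) + D.dY Y))

open Classical in
noncomputable def Dt.tl (r : List α) : Option (ℕ × (Function.End (Option (Tok S)))ᵐᵒᵖ) :=
  if h : ∃ p : ℕ × ℕ, Fst D.n D.W D.zz r p.1 ∧ Nxt D.n D.W r p.1 p.2 then
    some (h.choose.2, D.th2 (r.take h.choose.2)) else none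

/-- hypotheses of the construction -/
structure Dt.Ok : Prop where
  n0 : 0 < D.n
  p00 : 0 < D.p0
  hz : D.n + 2 * D.N + 2 * D.p0 < D.zz
  sep : ∀ (w : List α) (x y : ℕ), x < y → Wt D.n D.W w x → Wt D.n D.W w y →
    x + (2 * D.N + 2 * D.p0 + 1) ≤ y
  lamN : ∀ p v, D.lam p = some v → p.length ≤ D.N
  snd : ∀ p q v r, D.lam p = some v → D.rho q = some r →
    r = act v (D.ph (p ++ q)) + D.nu (p ++ q)
  cpl : ∀ u, 2 * D.N ≤ u.length → ¬ D.Bad u.length → ∀ v, ∃ p q, p ++ q = u ∧ D.lam p = some v ∧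
    (D.rho q).isSome

theorem Wt.le {n : ℕ} {W : Set (List α)} {w : List α} {t : ℕ} (h : Wt n W w t) : t ≤ w.length := by
  have h1 := h.1
  have h2 := h.2.1
  omega

theorem Wt_left {n : ℕ} {W : Set (List α)} {P Q : List α} {t : ℕ} (ht : t ≤ P.length) :
    Wt n W (P ++ Q) t ↔ Wt n W P t := by
  unfold Wt Wl
  by_cases hn : n ≤ t
  · rw [List.drop_append_of_le_length (by omega),
      List.take_append_of_le_length (by rw [List.length_drop]; omega), List.length_append]
    constructor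
    · rintro ⟨h1, -, h3⟩; exact ⟨h1, by omega, h3⟩
    · rintro ⟨h1, -, h3⟩; exact ⟨h1, by omega, h3⟩
  · constructor
    · rintro ⟨h, -⟩; exact absurd h hn
    · rintro ⟨h, -⟩; exact absurd h hn

theorem Wt_right {n : ℕ} {W : Set (List α)} {P Q : List α} {t : ℕ} (hn : n ≤ t) :
    Wt n W (P ++ Q) (P.length + t) ↔ Wt n W Q t := by
  unfold Wt Wl
  have e : P.length + t - n = P.length + (t - n) := by omega
  rw [e, List.length_append]
  have e2 : (P ++ Q).drop (P.length + (t - n)) = Q.drop (t - n) := by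
    rw [List.drop_append]
    simp
  rw [e2]
  constructor
  · rintro ⟨-, h2, h3⟩; exact ⟨hn, by omega, h3⟩
  · rintro ⟨-, h2, h3⟩; exact ⟨by omega, by omega, h3⟩

theorem Fst.unique {n zz : ℕ} {W : Set (List α)} {w : List α} {t t' : ℕ}
    (h : Fst n W zz w t) (h' : Fst n W zz w t') : t = t' := by
  rcases lt_trichotomy t t' with h1 | h1 | h1
  · exact absurd h.1 (h'.2.2 t h1 h.2.1)
  · exact h1
  · exact absurd h'.1 (h.2.2 t' h1 h'.2.1)

theorem Nxt.unique {n : ℕ} {W : Set (List α)} {w : List α} {t b b' : ℕ}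
    (h : Nxt n W w t b) (h' : Nxt n W w t b') : b = b' := by
  rcases lt_trichotomy b b' with h1 | h1 | h1
  · exact absurd h.1 (h'.2.2 b h.2.1 h1)
  · exact h1
  · exact absurd h'.1 (h.2.2 b' h'.2.1 h1)

theorem Fst_left {n zz : ℕ} {W : Set (List α)} {P Q : List α} {t : ℕ} (ht : t ≤ P.length) :
    Fst n W zz (P ++ Q) t ↔ Fst n W zz P t := by
  unfold Fst
  rw [Wt_left ht]
  constructor
  · rintro ⟨h1, h2, h3⟩
    exact ⟨h1, h2, fun y hy hz hw => h3 y hy hz ((Wt_left (by omega)).2 hw)⟩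
  · rintro ⟨h1, h2, h3⟩
    exact ⟨h1, h2, fun y hy hz hw => h3 y hy hz ((Wt_left (by omega)).1 hw)⟩

theorem Nxt_left {n : ℕ} {W : Set (List α)} {P Q : List α} {t b : ℕ} (hb : b ≤ P.length) :
    Nxt n W (P ++ Q) t b ↔ Nxt n W P t b := by
  unfold Nxt
  rw [Wt_left hb]
  constructor
  · rintro ⟨h1, h2, h3⟩
    exact ⟨h1, h2, fun y hy hz hw => h3 y hy hz ((Wt_left (by omega)).2 hw)⟩
  · rintro ⟨h1, h2, h3⟩
    exact ⟨h1, h2, fun y hy hz hw => h3 y hy hz ((Wt_left (by omega)).1 hw)⟩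

/-- the zones form a prefix code -/
theorem code (h : D.Ok) : Code D.Z := by
  constructor
  · rintro ⟨h1, -⟩
    have := h.p00
    simp at h1
    omega
  · rintro z z' x x' ⟨hz, t, ht, hb⟩ ⟨hz', t', ht', hb'⟩ e
    have e1 : z.drop D.p0 ++ x = z'.drop D.p0 ++ x' := by
      rw [← List.drop_append_of_le_length hz, ← List.drop_append_of_le_length hz', e]
    have a1 := (Fst_left (Q := x) ht.1.le).2 ht
    have a2 := (Fst_left (Q := x') ht'.1.le).2 ht'
    rw [← e1] at a2
    have e2 := a1.unique a2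
    subst e2
    have b1 := (Nxt_left (Q := x) le_rfl).2 hb
    have b2 := (Nxt_left (Q := x') le_rfl).2 hb'
    rw [← e1] at b2
    have e3 := b1.unique b2
    rw [List.length_drop, List.length_drop] at e3
    have e4 := congrArg (List.take z.length) e
    rw [List.take_left, show z.length = z'.length by omega, List.take_left] at e4
    exact e4

end Crest.Agent.R320.AsmU_709
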