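import Crest.Agent.R320.AsmU_845

/-!
# Row 320: assembly of team U (helper845), schemes 1 and 2
-/

set_option autoImplicit false

namespace Crest.Agent.R320.AsmU_845

open Crest.RegLang Crest.Agent.R320.Hk_851 Crest.Agent.R320.Blk467

universe u

variable {α : Type u} {k : ℕ}

section Sch

variable {S V : Type*} [Monoid S] [AddCommGroup V]
variable (act : V → S → V) (pr : List α → S) (nu2 nu : List α → V) (p0 : ℕ)

/-- zone map: both noises -/
def TT (v : V) (z : List α) : V :=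
  act (act v (pr (z.take p0)) + nu2 (z.take p0)) (pr (z.drop p0)) + nu (z.drop p0)

variable (lam : List α → Option V)

def LP1 (v : V) : Language α :=
  {p | p0 ≤ p.length ∧ lam (p.drop p0) = some (act v (pr (p.take p0)) + nu2 (p.take p0))}

def RQ1 (L : V → Language α) (Z : Set (List α)) (T : V → List α → V) (y : V) : Language α :=
  {q | ∀ v, ∀ p ∈ L v, p ++ q ∈ Z ∧ T v (p ++ q) = y}

theorem sound1 {L : V → Language α} {Z : Set (List α)} {T : V → List α → V} {v y : V}
    {P Q : List α} (hP : P ∈ L v) (hQ : Q ∈ RQ1 L Z T y) : P ++ Q ∈ Lg Z T v y := by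
  obtain ⟨h1, h2⟩ := hQ v P hP
  exact h2 ▸ Lg.single h1 v

variable {act pr nu2 nu p0 lam}
variable {Wo : List α → Prop} {n Mp D T0 N : ℕ} {Bad : ℕ → Prop}

theorem TT_app {v : V} {p q : List α} (hp : p0 ≤ p.length) : TT act pr nu2 nu p0 v (p ++ q) =
    act (act v (pr (p.take p0)) + nu2 (p.take p0)) (pr (p.drop p0 ++ q)) +
      nu (p.drop p0 ++ q) := by
  unfold TT
  rw [List.take_append_of_le_length hp, List.drop_append_of_le_length hp]

theorem compl1 (hloc : ∀ P Q : List α, n ≤ Q.length → (Wo (P ++ Q) ↔ Wo Q))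
    (hT0 : p0 + 4 * N + n + Mp * D < T0) {rho : List α → Option V}
    (hlam : ∀ p v, lam p = some v → Mp ∣ p.length ∧ p.length ≤ N)
    (hex : ∀ p q v r, lam p = some v → rho q = some r →
      r = act v (pr (p ++ q)) + nu (p ++ q))
    (hco : ∀ u : List α, 2 * N ≤ u.length → ¬ Bad u.length → ∀ v, ∃ p q, p ++ q = u ∧
      lam p = some v ∧ (rho q).isSome)
    {z : List α} (hz : z ∈ ZZ Wo Mp D T0) (hb : z ∉ Bd Wo Mp D T0 N p0 Bad) (v : V) :
    ∃ P Q, P ++ Q = z ∧ P ∈ LP1 act pr nu2 p0 lam v ∧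
      Q ∈ RQ1 (LP1 act pr nu2 p0 lam) (ZZ Wo Mp D T0) (TT act pr nu2 nu p0)
        (TT act pr nu2 nu p0 v z) := by
  have hlz : T0 ≤ z.length := (T0_le_th _).trans hz.2.1
  have hXl : (z.take p0).length = p0 := by simp; omega
  have hYl : (z.drop p0).length = z.length - p0 := by simp
  have hnB : ¬ Bad (z.drop p0).length := by
    rw [hYl]
    exact fun h => hb ⟨hz, Or.inr h⟩
  obtain ⟨p, q, e, hp, hq⟩ := hco (z.drop p0) (by omega) hnB
    (act v (pr (z.take p0)) + nu2 (z.take p0))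
  obtain ⟨hpM, hpN⟩ := hlam _ _ hp
  obtain ⟨r, hr⟩ := Option.isSome_iff_exists.1 hq
  have ez : z.take p0 ++ p ++ q = z := by
    rw [List.append_assoc, e, List.take_append_drop]
  have hPl : (z.take p0 ++ p).length = p0 + p.length := by rw [List.length_append, hXl]
  have hrz : r = TT act pr nu2 nu p0 v z := by
    rw [hex _ _ _ _ hp hr, e]; rfl
  refine ⟨z.take p0 ++ p, q, ez, ⟨by omega, ?_⟩, ?_⟩
  · have e1 : (z.take p0 ++ p).drop p0 = p := by
      rw [List.drop_append_of_le_length hXl.ge, List.drop_of_length_le hXl.le]; rfl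
    have e2 : (z.take p0 ++ p).take p0 = z.take p0 := by
      rw [List.take_append_of_le_length hXl.ge, List.take_of_length_le hXl.le]
    rw [e1, e2]
    exact hp
  · intro v' p' ⟨hp'l, hp'⟩
    obtain ⟨hpM', hpN'⟩ := hlam _ _ hp'
    rw [List.length_drop] at hpM' hpN'
    have hzc : Zc Wo n Mp D T0 (z.take p0 ++ p).length q := by
      rw [← zc_iff hloc (by omega), ez]; exact hz
    have hnn : ¬ nearc Wo n Mp D T0 N (z.take p0 ++ p).length q := by
      intro h
      have h1 := (near_iff (P := z.take p0 ++ p) (Q := q) hloc (by omega)).2 h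
      rw [ez] at h1
      exact hb ⟨hz, Or.inl h1⟩
    refine ⟨?_, ?_⟩
    · refine (zc_iff hloc (by omega)).2 (zc_shift (N := N) ?_ (by omega) (by omega) hnn hzc)
      rw [hPl]
      have e3 : p'.length = p0 + (p'.length - p0) := by omega
      rw [e3]
      exact Nat.ModEq.add_left _ (((Nat.modEq_zero_iff_dvd.2 hpM)).trans
        (Nat.modEq_zero_iff_dvd.2 hpM').symm)
    · rw [TT_app hp'l, ← hex _ _ _ _ hp' hr, hrz]

/-! ### scheme 2 -/

variable (lam2 : List α → Option V) (x : ℕ → ℕ) (K : ℕ)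

def LP2 (v : V) : Language α := {p | (∃ a < K, p.length = x a) ∧ lam2 p = some v}

def RQ2 (L : V → Language α) (Z B : Set (List α)) (T : V → List α → V) (y : V) : Language α :=
  {q | ∀ v, ∀ p ∈ L v, (∃ X ∈ B, ∃ X' ∈ B, X ++ X' = p ++ q ∧ T (T v X) X' = y) ∨
    ∃ G ∈ Z, G ∉ B ∧ G <+: p ++ q}

variable {lam2 x K}

theorem sound2 {L : V → Language α} {Z B : Set (List α)} (hZ : PCode Z) (hBZ : B ⊆ Z)
    {T : V → List α → V} {v y : V} {P Q R : List α} (hP : P ∈ L v) (hQ : Q ∈ RQ2 L Z B T y)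
    (hs : P ++ Q ++ R ∈ Str B) : P ++ Q ∈ Lg B T v y := by
  rcases hQ v P hP with ⟨X, hX, X', hX', e, h⟩ | ⟨G, hG, hGB, hGp⟩
  · rw [← e, ← h]
    exact Lg.append (Lg.single hX v) (Lg.single hX' _)
  · exfalso
    obtain ⟨l, hl, e⟩ := hs
    have hGp' : G <+: l.flatten := by
      rw [e]; exact hGp.trans (List.prefix_append _ _)
    cases l with
    | nil =>
      have : G = [] := by simpa using hGp'
      exact hZ.1 (this ▸ hG)
    | cons X l =>
      have hX := hl X (by simp)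
      have h1 : X <+: (X :: l).flatten := by
        rw [List.flatten_cons]; exact List.prefix_append _ _
      rcases List.prefix_or_prefix_of_prefix hGp' h1 with h2 | h2
      · have := hZ.2 G hG X (hBZ hX) h2
        exact hGB (this ▸ hX)
      · have := hZ.2 X (hBZ hX) G hG h2
        exact hGB (this ▸ hX)

theorem compl2 (hloc : ∀ P Q : List α, n ≤ Q.length → (Wo (P ++ Q) ↔ Wo Q)) {W : ℕ}
    (hgap : ∀ P : List α, Wo P → ∀ d, 0 < d → d ≤ W → ¬ Wo (P.take (P.length - d)))
    (hMp : 0 < Mp) (hW : Mp * D + 4 * N ≤ W) (hD : 4 * N < D)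
    (hT0 : p0 + 4 * N + n + Mp * D < T0) (hx : ∀ a < K, x a ≤ N) (hxi : ∀ a b, a < b → b < K →
      x a < x b) (hp0 : ∀ a < K, x a ≤ p0)
    (hgol : ∀ a < K, ∀ b < K, ∀ c < K, ∀ d < K, a ≠ b → c ≠ d →
      (x a + x d) % Mp = (x c + x b) % Mp → a = c ∧ b = d) {C0 : ℕ}
    (hcount : ∀ T, N ≤ T → ∃ F : Finset (ℕ × ℕ), F.card ≤ C0 ∧
      ∀ a < K, ∀ b < K, a ≠ b → Bad (T + x b - x a) → (a, b) ∈ F)
    {rho2 : List α → Option V}
    (hex2 : ∀ (p q : List α) (v b : V), p.length + q.length = p0 → lam2 p = some v →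
      rho2 q = some b → b = act v (pr (p ++ q)) + nu2 (p ++ q))
    (hco2 : ∀ (w : List α) (v : V), w.length = p0 → ∃ A : Finset ℕ, 1 + 2 * C0 < A.card ∧
      ∀ a ∈ A, a < K ∧ lam2 (w.take (x a)) = some v ∧ (rho2 (w.drop (x a))).isSome)
    {z z₂ : List α} (hz : z ∈ Bd Wo Mp D T0 N p0 Bad) (hz₂ : z₂ ∈ Bd Wo Mp D T0 N p0 Bad)
    (v : V) :
    ∃ P Q, P ++ Q = z ∧ P ∈ LP2 lam2 x K v ∧
      Q ++ z₂ ∈ RQ2 (LP2 lam2 x K) (ZZ Wo Mp D T0) (Bd Wo Mp D T0 N p0 Bad)
        (TT act pr nu2 nu p0) (TT act pr nu2 nu p0 (TT act pr nu2 nu p0 v z) z₂) := by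
  classical
  have hlz : T0 ≤ z.length := (T0_le_th _).trans hz.1.2.1
  have hXl : (z.take p0).length = p0 := by simp; omega
  obtain ⟨A, hA, hAm⟩ := hco2 (z.take p0) v hXl
  obtain ⟨A', hA', hspoil⟩ := spoil hloc hgap hMp hW hD hT0 hx hgol hcount hz.1 hz₂.1
  obtain ⟨a, haA, haA'⟩ : ∃ a ∈ A, a ∉ A' := by
    by_contra hcon
    push Not at hcon
    have := Finset.card_le_card (show A ⊆ A' from hcon)
    omega
  obtain ⟨haK, hl, hr⟩ := hAm a haA
  have hxa := hp0 a haK
  have hxaN := hx a haK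
  have e1 : (z.take p0).take (x a) = z.take (x a) := by
    rw [List.take_take, Nat.min_eq_left hxa]
  rw [e1] at hl
  obtain ⟨r, hr⟩ := Option.isSome_iff_exists.1 hr
  have htl : (z.take (x a)).length = x a := by simp; omega
  refine ⟨z.take (x a), z.drop (x a), List.take_append_drop _ _, ⟨⟨a, haK, htl⟩, hl⟩, ?_⟩
  rintro v' p' ⟨⟨b, hbK, hp'l⟩, hp'⟩
  by_cases hba : b = a
  · subst hba
    left
    -- same place
    have e2 : (p' ++ z.drop (x b)).take p0 = p' ++ (z.take p0).drop (x b) := by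
      rw [List.take_append, List.take_of_length_le (by omega), hp'l, List.drop_take]
    have e3 : (p' ++ z.drop (x b)).drop p0 = z.drop p0 := by
      rw [List.drop_append, List.drop_of_length_le (by omega), List.nil_append, hp'l,
        List.drop_drop, show x b + (p0 - x b) = p0 by omega]
    have hbd : p' ++ z.drop (x b) ∈ Bd Wo Mp D T0 N p0 Bad := by
      have h1 := (bd_iff (P := z.take (x b)) (Q := z.drop (x b)) (p0 := p0) (Bad := Bad) hloc
        (by omega : (z.take (x b)).length + n + N ≤ T0)).1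
        (by rw [List.take_append_drop]; exact hz)
      rw [htl] at h1
      refine (bd_iff hloc (by omega)).2 ?_
      rw [hp'l]
      exact h1
    have hxlen : p'.length + ((z.take p0).drop (x b)).length = p0 := by
      rw [List.length_drop, hXl]; omega
    have h3 := hex2 _ _ _ _ hxlen hp' hr
    have h4 := hex2 (z.take (x b)) ((z.take p0).drop (x b)) v r
      (by rw [htl, List.length_drop, hXl]; omega) hl hr
    have e4 : z.take (x b) ++ (z.take p0).drop (x b) = z.take p0 := by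
      rw [← e1, List.take_append_drop]
    rw [e4] at h4
    have e5 : TT act pr nu2 nu p0 v' (p' ++ z.drop (x b)) = TT act pr nu2 nu p0 v z := by
      unfold TT
      rw [e2, e3, ← h3, ← h4]
    exact ⟨_, hbd, z₂, hz₂, by rw [List.append_assoc], by rw [e5]⟩
  · right
    obtain ⟨G, hG, hGB, hGp⟩ := hspoil a haK haA' b hbK hba p' hp'l
    refine ⟨G, hG, hGB, ?_⟩
    rw [List.drop_append_of_le_length (by omega)] at hGp
    exact hGp

end Sch

end Crest.Agent.R320.AsmU_845
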