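import Crest.Agent.R320.AsmU_92

set_option autoImplicit false

namespace Crest.Agent.R320.AsmU_92

open Crest.RegLang Crest.Agent.R320.Hk_851 Crest.Agent.R320.Code110 Crest.Agent.R320.ExactR_237

variable {α S V : Type} [Monoid S] [AddCommGroup V] {D : Dat α S V}

/-- everything interesting happens left of `M1` -/
def M1 (D : Dat α S V) : ℕ := D.z + D.Sm + 4 * D.N + D.n + D.p0 + 1

def Fl (D : Dat α S V) (v : List α) : Prop := ∃ t, M1 D ≤ t ∧ t < v.length ∧ D.Wo (v.take t)

/-- right congruence -/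
def RC (D : Dat α S V) (v v' : List α) : Prop :=
  v = v' ∨ (M1 D ≤ v.length ∧ M1 D ≤ v'.length ∧ v.take (M1 D) = v'.take (M1 D) ∧
    v.length % D.Mm = v'.length % D.Mm ∧
    pr D.f (v.drop D.p0) = pr D.f (v'.drop D.p0) ∧
    (∃ a a' b, v = a ++ b ∧ v' = a' ++ b ∧ b.length = D.n) ∧ (Fl D v ↔ Fl D v'))

theorem RC.symm {v v' : List α} (h : RC D v v') : RC D v' v := by
  rcases h with h | ⟨h1, h2, h3, h4, h5, ⟨a, a', b, h6, h7, h8⟩, h9⟩
  · exact Or.inl h.symm
  · exact Or.inr ⟨h2, h1, h3.symm, h4.symm, h5.symm, ⟨a', a, b, h7, h6, h8⟩, h9.symm⟩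

theorem Fl_append (h : D.Ok) {v v' r a a' b : List α} (h2 : M1 D ≤ v'.length)
    (e1 : v = a ++ b) (e2 : v' = a' ++ b) (hb : b.length = D.n) (h9 : Fl D v → Fl D v')
    (hf : Fl D (v ++ r)) : Fl D (v' ++ r) := by
  obtain ⟨t, ht1, ht2, ht3⟩ := hf
  by_cases hlt : t < v.length
  · rw [List.take_append_of_le_length hlt.le] at ht3
    obtain ⟨t', g1, g2, g3⟩ := h9 ⟨t, ht1, hlt, ht3⟩
    refine ⟨t', g1, by rw [List.length_append]; omega, ?_⟩
    rw [List.take_append_of_le_length g2.le]
    exact g3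
  · obtain ⟨e, rfl⟩ : ∃ e, t = v.length + e := ⟨t - v.length, by omega⟩
    rw [take_app] at ht3
    refine ⟨v'.length + e, by omega, ?_, ?_⟩
    · rw [List.length_append] at ht2 ⊢; omega
    · rw [take_app]
      rw [e1, List.append_assoc] at ht3
      rw [e2, List.append_assoc]
      have hl : D.n ≤ (b ++ r.take e).length := by rw [List.length_append]; omega
      exact (h.w1 a' _ hl).2 ((h.w1 a _ hl).1 ht3)

theorem RC.append (h : D.Ok) {v v' : List α} (hr : RC D v v') (r : List α) :
    RC D (v ++ r) (v' ++ r) := by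
  rcases hr with rfl | ⟨h1, h2, h3, h4, h5, ⟨a, a', b, h6, h7, h8⟩, h9⟩
  · exact Or.inl rfl
  · refine Or.inr ⟨?_, ?_, ?_, ?_, ?_, ?_, ?_⟩
    · rw [List.length_append]; omega
    · rw [List.length_append]; omega
    · rw [List.take_append_of_le_length h1, List.take_append_of_le_length h2, h3]
    · rw [List.length_append, List.length_append, Nat.add_mod, h4, ← Nat.add_mod]
    · have hp : D.p0 ≤ M1 D := by unfold M1; omega
      rw [List.drop_append_of_le_length (by omega), List.drop_append_of_le_length (by omega),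
        pr_append, pr_append, h5]
    · refine ⟨a ++ (b ++ r).take ((b ++ r).length - D.n), a' ++ (b ++ r).take ((b ++ r).length - D.n),
        (b ++ r).drop ((b ++ r).length - D.n), ?_, ?_, ?_⟩
      · rw [List.append_assoc, List.take_append_drop, h6, List.append_assoc]
      · rw [List.append_assoc, List.take_append_drop, h7, List.append_assoc]
      · rw [List.length_drop, List.length_append]; omega
    · exact ⟨Fl_append h h2 h6 h7 h8 h9.1, Fl_append h h1 h7 h6 h8 h9.2⟩

section reg
open Classical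

/-- the finite state of a word -/
noncomputable def st (D : Dat α S V) (v : List α) : List α × List α × ℕ × S × Prop :=
  if v.length < M1 D then (v, [], 0, 1, False)
  else (v.take (M1 D), v.drop (v.length - D.n), v.length % D.Mm + 1, pr D.f (v.drop D.p0), Fl D v)

theorem st_finite [Finite α] [Finite S] (h : D.Ok) : (Set.range (st D)).Finite := by
  have h1 : ({w : List α | w.length ≤ M1 D} : Set (List α)).Finite := List.finite_length_le α _
  have h2 : ({w : List α | w.length ≤ D.n} : Set (List α)).Finite := List.finite_length_le α _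
  have h3 : ({m : ℕ | m ≤ D.Mm}).Finite := Set.finite_le_nat _
  have h4 : (Set.univ : Set S).Finite := Set.finite_univ
  have h5 : (Set.univ : Set Prop).Finite := Set.finite_univ
  refine (h1.prod (h2.prod (h3.prod (h4.prod h5)))).subset ?_
  rintro _ ⟨v, rfl⟩
  unfold st
  have := h.Mm0
  split_ifs with hv
  · refine ⟨?_, ?_, ?_, trivial, trivial⟩
    · show v.length ≤ _; omega
    · show ([] : List α).length ≤ _; simp
    · show 0 ≤ _; omega
  · refine ⟨?_, ?_, ?_, trivial, trivial⟩
    · show (v.take _).length ≤ _; rw [List.length_take]; omega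
    · show (v.drop _).length ≤ _; rw [List.length_drop]; omega
    · show v.length % D.Mm + 1 ≤ D.Mm
      have := Nat.mod_lt v.length h.Mm0
      omega

theorem st_RC {v v' : List α} (e : st D v = st D v') : RC D v v' := by
  unfold st at e
  have hM : D.n ≤ M1 D := by unfold M1; omega
  split_ifs at e with h1 h2 h2
  · left; exact (Prod.mk.inj e).1
  · have := congrArg (fun x => x.2.2.1) e
    simp at this
  · have := congrArg (fun x => x.2.2.1) e
    simp at this
  · right
    have e1 := congrArg (fun x => x.1) e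
    have e2 := congrArg (fun x => x.2.1) e
    have e3 := congrArg (fun x => x.2.2.1) e
    have e4 := congrArg (fun x => x.2.2.2.1) e
    have e5 := congrArg (fun x => x.2.2.2.2) e
    simp only at e1 e2 e3 e4 e5
    refine ⟨by omega, by omega, e1, by omega, e4, ?_, by rw [e5]⟩
    refine ⟨v.take (v.length - D.n), v'.take (v'.length - D.n), v.drop (v.length - D.n), ?_, ?_, ?_⟩
    · rw [List.take_append_drop]
    · rw [e2, List.take_append_drop]
    · rw [List.length_drop]; omega

theorem reg_of_RC [Finite α] [Finite S] (h : D.Ok) {L : Language α}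
    (hL : ∀ u u', RC D u u' → u ∈ L → u' ∈ L) : L.IsRegular := by
  rw [Language.isRegular_iff_finite_range_leftQuotient]
  have hq : ∀ v v', st D v = st D v' → L.leftQuotient v = L.leftQuotient v' := by
    intro v v' e
    have hr := st_RC e
    ext r
    rw [Language.mem_leftQuotient, Language.mem_leftQuotient]
    exact ⟨hL _ _ (hr.append h r), hL _ _ (hr.symm.append h r)⟩
  let g : (List α × List α × ℕ × S × Prop) → Language α := fun s =>
    if hs : ∃ v, st D v = s then L.leftQuotient hs.choose else ⊥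
  refine ((st_finite (D := D) h).image g).subset ?_
  rintro _ ⟨v, rfl⟩
  refine ⟨st D v, ⟨v, rfl⟩, ?_⟩
  have hs : ∃ v', st D v' = st D v := ⟨v, rfl⟩
  simp only [g]
  rw [dif_pos hs]
  exact hq _ _ hs.choose_spec

end reg

/-- wall-free words are pieces -/
def WF (D : Dat α S V) (R B : ℕ) : Prop := ∀ u : List α, (∀ t < u.length, ¬ D.Wo (u.take t)) →
  ∃ l : List (List α × List α × ℕ), l.length ≤ R ∧
    (∀ t ∈ l, t.1.length ≤ B ∧ t.2.1.length ≤ B) ∧ u = Pump_360.val l

/-- no qualifying wall strictly inside -/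
def NoQ (D : Dat α S V) (w : List α) : Prop :=
  ∀ t < w.length, D.Wo (w.take t) → ¬ D.th (t % D.Mp) ≤ t

theorem hl1 [Finite α] [Finite S] (h : D.Ok) {R B : ℕ} (hwf : WF D R B) {L : Language α}
    (hL : ∀ u u', RC D u u' → u ∈ L → u' ∈ L) (hN : ∀ u ∈ L, NoQ D u) : HL 1 L := by
  refine RegBd_11.reg_pieces (reg_of_RC h hL) (R + 1) (B + (D.z + D.Sm + 1)) ?_
  intro w hw
  have hno := hN w hw
  obtain ⟨l, l1, l2, l3⟩ := hwf (w.drop (D.z + D.Sm + 1)) (by
    intro t ht hwall
    rw [List.length_drop] at ht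
    have hl := h.w2 _ hwall
    have e : w.take (D.z + D.Sm + 1 + t) =
        w.take (D.z + D.Sm + 1) ++ (w.drop (D.z + D.Sm + 1)).take t := by
      rw [List.take_add]
    have := (h.w1 (w.take (D.z + D.Sm + 1)) _ hl).2 hwall
    rw [← e] at this
    have h2 := hno (D.z + D.Sm + 1 + t) (by omega) this
    have h3 := h.thhi ((D.z + D.Sm + 1 + t) % D.Mp)
    omega)
  refine ⟨(w.take (D.z + D.Sm + 1), [], 0) :: l, by simpa using l1, ?_, ?_⟩
  · intro t ht
    rcases List.mem_cons.1 ht with rfl | ht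
    · refine ⟨?_, by simp⟩
      show (w.take _).length ≤ _
      rw [List.length_take]; omega
    · have := l2 t ht
      omega
  · rw [Pump_360.val_cons, ← l3]
    simp only [Pump_360.pw_zero, List.append_nil]
    rw [List.take_append_drop]

/-! ### invariance -/

theorem take_eq_of {u u' : List α} (h : u.take (M1 D) = u'.take (M1 D)) {t : ℕ} (ht : t ≤ M1 D) :
    u.take t = u'.take t := by
  have h1 := congrArg (List.take t) h
  rwa [List.take_take, List.take_take, min_eq_left ht] at h1

theorem UU_inv (h : D.Ok) {u u' : List α} (hr : RC D u u') (hu : u ∈ UU D) : u' ∈ UU D := by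
  rcases hr with rfl | ⟨h1, h2, h3, h4, h5, ⟨a, a', b, h6, h7, h8⟩, h9⟩
  · exact hu
  · obtain ⟨u1, u2, u3⟩ := hu
    refine ⟨?_, ?_, ?_⟩
    · rw [h6] at u1
      rw [h7]
      exact (h.w1 a' b h8.ge).2 ((h.w1 a b h8.ge).1 u1)
    · have := h.thhi (u'.length % D.Mp)
      unfold M1 at h2
      omega
    · intro t ht hw hth
      by_cases hlt : t < M1 D
      · rw [← take_eq_of h3 hlt.le] at hw
        exact u3 t (by omega) hw hth
      · obtain ⟨t1, g1, g2, g3⟩ := h9.2 ⟨t, by omega, ht, hw⟩
        refine u3 t1 g2 g3 ?_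
        have := h.thhi (t1 % D.Mp)
        unfold M1 at g1
        omega

theorem EE_inv (h : D.Ok) {u u' : List α} (hr : RC D u u') (hu : EE D u) : EE D u' := by
  rcases hr with rfl | ⟨h1, h2, h3, h4, h5, -, h9⟩
  · exact hu
  · obtain ⟨t, t1, t2, t3, t4⟩ := hu
    have := h.thhi (t % D.Mp)
    have ht : t ≤ M1 D := by unfold M1; omega
    refine ⟨t, by omega, ?_, t3, t4⟩
    rw [← take_eq_of h3 ht]
    exact t2

theorem BB_inv (h : D.Ok) {u u' : List α} (hr : RC D u u') (hu : u ∈ BB D) : u' ∈ BB D := by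
  obtain ⟨g1, g2⟩ := hu
  refine ⟨UU_inv h hr g1, ?_⟩
  rcases g2 with g2 | g2
  · exact Or.inl (EE_inv h hr g2)
  · right
    rcases hr with rfl | ⟨h1, h2, h3, h4, h5, -, h9⟩
    · exact g2
    · refine (h.per _ _ ?_).1 g2
      have hp : D.p0 ≤ M1 D := by unfold M1; omega
      have e1 : (u.length - D.p0 + D.p0) % D.Mm = (u'.length - D.p0 + D.p0) % D.Mm := by
        rw [Nat.sub_add_cancel (by omega), Nat.sub_add_cancel (by omega)]; exact h4
      exact Nat.ModEq.add_right_cancel' D.p0 e1

theorem tau_inv (h : D.Ok) {u u' : List α} (hr : RC D u u') (v : V) : tau D u v = tau D u' v := by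
  rcases hr with rfl | ⟨h1, h2, h3, h4, h5, -, h9⟩
  · rfl
  · have hp : D.p0 ≤ M1 D := by unfold M1; omega
    have hz := h.hz
    unfold tau
    rw [take_eq_of h3 hp, h5]
    congr 1
    apply h.fs
    · rw [List.length_drop]; unfold M1 at h1; omega
    · rw [List.length_drop]; unfold M1 at h2; omega
    · rw [List.take_drop, List.take_drop, take_eq_of h3 (by unfold M1; omega)]
    · have e1 : (u.length - D.p0 + D.p0) % D.Mm = (u'.length - D.p0 + D.p0) % D.Mm := by
        rw [Nat.sub_add_cancel (by omega), Nat.sub_add_cancel (by omega)]; exact h4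
      rw [List.length_drop, List.length_drop]
      exact Nat.ModEq.add_right_cancel' D.p0 e1
    · exact h5

theorem Rest_inv (h : D.Ok) {u u' : List α} (hr : RC D u u')
    (hu : ∀ X ∈ UU D, ¬ X <+: u) : ∀ X ∈ UU D, ¬ X <+: u' := by
  rcases hr with rfl | ⟨h1, h2, h3, h4, h5, ⟨a, a', b, h6, h7, h8⟩, h9⟩
  · exact hu
  · intro X hX hp
    have hnoq : ∀ t, t ≤ u.length → D.Wo (u.take t) → ¬ D.th (t % D.Mp) ≤ t := by
      intro t ht hw hth
      obtain ⟨t0, _, h0⟩ := exists_block u t ht hw hth
      exact hu _ h0 (List.take_prefix _ _)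
    have hXe : u'.take X.length = X := (List.prefix_iff_eq_take.1 hp).symm
    have hXl := hp.length_le
    by_cases hlt : X.length ≤ M1 D
    · refine hu X hX ?_
      rw [← hXe, ← take_eq_of h3 hlt]
      exact List.take_prefix _ _
    · have hwall : D.Wo (u'.take X.length) := by rw [hXe]; exact hX.1
      rcases Nat.lt_or_ge X.length u'.length with hl | hl
      · obtain ⟨t1, g1, g2, g3⟩ := h9.2 ⟨X.length, by omega, hl, hwall⟩
        refine hnoq t1 g2.le g3 ?_
        have := h.thhi (t1 % D.Mp)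
        unfold M1 at g1
        omega
      · rw [List.take_of_length_le hl] at hwall
        rw [h7] at hwall
        have hw2 : D.Wo u := by
          rw [h6]
          exact (h.w1 a b h8.ge).2 ((h.w1 a' b h8.ge).1 hwall)
        refine hnoq u.length le_rfl (by rw [List.take_length]; exact hw2) ?_
        have := h.thhi (u.length % D.Mp)
        unfold M1 at h1
        omega

theorem pr_inv (h : D.Ok) {u u' : List α} (hr : RC D u u') : pr D.f u = pr D.f u' := by
  rcases hr with rfl | ⟨h1, h2, h3, h4, h5, -, h9⟩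
  · rfl
  · have hp : D.p0 ≤ M1 D := by unfold M1; omega
    rw [← List.take_append_drop D.p0 u, ← List.take_append_drop D.p0 u', pr_append, pr_append,
      take_eq_of h3 hp, h5]

theorem UU_NoQ {u : List α} (hu : u ∈ UU D) : NoQ D u := hu.2.2

theorem Rest_NoQ {u : List α} (hu : ∀ X ∈ UU D, ¬ X <+: u) : NoQ D u := by
  intro t ht hw hth
  obtain ⟨t0, _, h0⟩ := exists_block u t ht.le hw hth
  exact hu _ h0 (List.take_prefix _ _)

section hl
variable [Finite α] [Finite S] (h : D.Ok) {R B : ℕ} (hwf : WF D R B)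
include h hwf

theorem UU_hl : HL 1 (UU D) := hl1 h hwf (fun _ _ hr hu => UU_inv h hr hu) fun _ hu => UU_NoQ hu

theorem BB_hl : HL 1 (BB D) :=
  hl1 h hwf (fun _ _ hr hu => BB_inv h hr hu) fun _ hu => UU_NoQ hu.1

theorem ZTU_hl (x y : V) : HL 1 (ZT (UU D) (tau D) x y) :=
  hl1 h hwf (fun u u' hr hu => ⟨UU_inv h hr hu.1, by rw [← tau_inv h hr]; exact hu.2⟩)
    fun _ hu => UU_NoQ hu.1

theorem ZTB_hl (x y : V) : HL 1 (ZT (BB D) (tau D) x y) :=
  hl1 h hwf (fun u u' hr hu => ⟨BB_inv h hr hu.1, by rw [← tau_inv h hr]; exact hu.2⟩)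
    fun _ hu => UU_NoQ hu.1.1

theorem Rest_hl (s : S) :
    HL 1 ({w | (∀ X ∈ UU D, ¬ X <+: w) ∧ pr D.f w = s} : Language α) :=
  hl1 h hwf (fun u u' hr hu => ⟨Rest_inv h hr hu.1, by rw [← pr_inv h hr]; exact hu.2⟩)
    fun _ hu => Rest_NoQ hu.1

end hl

end Crest.Agent.R320.AsmU_92
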