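import Crest.Agent.R320.AsmU2_92

set_option autoImplicit false

namespace Crest.Agent.R320.AsmU_92

open Crest.RegLang Crest.Agent.R320.Hk_851 Crest.Agent.R320.Code110 Crest.Agent.R320.ExactR_237

variable {α S V : Type} [Monoid S] [AddCommGroup V] {D : Dat α S V}

/-- scheme 1: the U-gadget on words -/
structure G1 (D : Dat α S V) (lam rho : List α → Option V) : Prop where
  lenL : ∀ p v, lam p = some v → D.Mp ∣ p.length ∧ p.length ≤ D.N
  sound : ∀ p q v r, lam p = some v → rho q = some r →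
    r = D.act v (pr D.f (p ++ q)) + D.nu (p ++ q)
  compl : ∀ u : List α, 2 * D.N ≤ u.length → ¬ D.BadT u.length → ∀ v,
    ∃ p q, p ++ q = u ∧ lam p = some v ∧ (rho q).isSome

/-- left words of scheme 1 -/
def L1 (D : Dat α S V) (lam : List α → Option V) (x : V) : Language α :=
  {p | D.p0 ≤ p.length ∧
    lam (p.drop D.p0) = some (D.act x (pr D.f (p.take D.p0)) + D.nu2 (p.take D.p0))}

theorem L1_fin [Finite α] {lam rho : List α → Option V} (g : G1 D lam rho) (x : V) :
    ({p | p ∈ L1 D lam x}).Finite := by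
  refine (List.finite_length_le α (D.p0 + D.N)).subset ?_
  rintro p ⟨h1, h2⟩
  have := (g.lenL _ _ h2).2
  rw [List.length_drop] at this
  show p.length ≤ _
  omega

theorem tau_app {p q : List α} (hp : D.p0 ≤ p.length) (v : V) :
    tau D (p ++ q) v = D.act (D.act v (pr D.f (p.take D.p0)) + D.nu2 (p.take D.p0))
      (pr D.f (p.drop D.p0 ++ q)) + D.nu (p.drop D.p0 ++ q) := by
  unfold tau
  rw [List.take_append_of_le_length hp, List.drop_append_of_le_length hp]

/-- completeness of scheme 1 -/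
theorem comp1 (h : D.Ok) {lam rho : List α → Option V} (g : G1 D lam rho) (u : List α)
    (hu : u ∈ UU D) (hB : u ∉ BB D) (x : V) (t : List α) (ht : t ∈ (UU D) ^ 0) :
    ∃ p q y, u ++ t = p ++ q ∧ p ∈ L1 D lam x ∧ q ∈ Rsem (UU D) (UU D) (tau D) 0 (L1 D lam) y := by
  have ht0 : t = [] := by
    rw [pow_zero] at ht
    exact ht
  subst ht0
  have hz := h.hz
  have hlen := UU_len h hu
  have hE : ¬ EE D u := fun he => hB ⟨hu, Or.inl he⟩
  have hT : ¬ D.BadT (u.length - D.p0) := fun he => hB ⟨hu, Or.inr he⟩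
  obtain ⟨p', q, e, hl, hr⟩ := g.compl (u.drop D.p0) (by rw [List.length_drop]; omega)
    (by rw [List.length_drop]; exact hT) (D.act x (pr D.f (u.take D.p0)) + D.nu2 (u.take D.p0))
  obtain ⟨r, hr⟩ := Option.isSome_iff_exists.1 hr
  have hX : (u.take D.p0).length = D.p0 := by rw [List.length_take]; omega
  have hue : u = (u.take D.p0 ++ p') ++ q := by
    rw [List.append_assoc, e, List.take_append_drop]
  have hpl : (u.take D.p0 ++ p').length = D.p0 + p'.length := by
    rw [List.length_append, hX]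
  obtain ⟨m1, m2⟩ := g.lenL _ _ hl
  have htk : (u.take D.p0 ++ p').take D.p0 = u.take D.p0 := by
    rw [List.take_append_of_le_length (by omega), List.take_take, min_self]
  have hdr : (u.take D.p0 ++ p').drop D.p0 = p' := by
    rw [List.drop_append, hX, Nat.sub_self, List.drop_zero, List.drop_of_length_le (by omega),
      List.nil_append]
  refine ⟨u.take D.p0 ++ p', q, r, by rw [List.append_nil]; exact hue, ⟨by omega, ?_⟩, ?_⟩
  · rw [hdr, htk]; exact hl
  · intro x1 p1 hp1
    left
    obtain ⟨g1, g2⟩ := hp1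
    obtain ⟨n1, n2⟩ := g.lenL _ _ g2
    rw [List.length_drop] at n1 n2
    have hmod : (u.take D.p0 ++ p').length % D.Mp = p1.length % D.Mp := by
      rw [hpl]
      obtain ⟨c1, hc1⟩ := m1
      obtain ⟨c2, hc2⟩ := n1
      have : p1.length = D.p0 + D.Mp * c2 := by omega
      rw [this, hc1, Nat.add_mul_mod_self_left, Nat.add_mul_mod_self_left]
    have hj := junction h (u.take D.p0 ++ p') p1 q (by rw [← hue]; exact hu)
      (by rw [← hue]; exact hE) (by omega) (by omega) (by omega) (by omega) hmod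
    have hs := g.sound _ _ _ _ g2 hr
    refine ⟨r, ?_⟩
    refine Language.mem_mul.2 ⟨p1 ++ q, ⟨hj, ?_⟩, [], ⟨rfl, rfl⟩, by simp⟩
    rw [tau_app g1, ← hs]

/-! ### scheme 2 -/

/-- scheme 2: the exact gadget -/
structure G2 (D : Dat α S V) (K R : ℕ) (c : ℕ → ℕ) (lam rho : ℕ → List α → Option V) : Prop where
  mono : ∀ i j, i < j → j < K → c i < c j
  cN : ∀ i < K, c i ≤ D.N
  cp : ∀ i < K, c i ≤ D.p0
  sound : ∀ k < K, ∀ (P Q : List α) (v b : V), P.length = c k → (P ++ Q).length = D.p0 →
    lam k P = some v → rho k Q = some b → b = D.act v (pr D.f (P ++ Q)) + D.nu2 (P ++ Q)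
  compl : ∀ (u : List α) (v : V), u.length = D.p0 →
    ∃ I : Finset ℕ, R ≤ I.card ∧ ∀ k ∈ I, k < K ∧ lam k (u.take (c k)) = some v ∧
      (rho k (u.drop (c k))).isSome

def L2 (K : ℕ) (c : ℕ → ℕ) (lam : ℕ → List α → Option V) (x : V) : Language α :=
  {p | ∃ k < K, p.length = c k ∧ lam k p = some x}

theorem L2_fin [Finite α] {K R : ℕ} {c : ℕ → ℕ} {lam rho : ℕ → List α → Option V}
    (g : G2 D K R c lam rho) (x : V) : ({p | p ∈ L2 K c lam x}).Finite := by
  refine (List.finite_length_le α D.N).subset ?_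
  rintro p ⟨k, hk, h1, h2⟩
  have := g.cN k hk
  show p.length ≤ _
  omega

/-- the counting hypothesis (Golomb, thin bad totals) -/
structure Cnt (D : Dat α S V) (K C0 : ℕ) (c : ℕ → ℕ) : Prop where
  gol : ∀ a b a' b', a < K → b < K → a' < K → b' < K → a ≠ b →
    (c a + c b') % D.Mp = (c a' + c b) % D.Mp → a = a' ∧ b = b'
  thin : ∀ T, D.N ≤ T → ∀ F : Finset (ℕ × ℕ),
    (∀ ab ∈ F, ab.1 < K ∧ ab.2 < K ∧ ab.1 ≠ ab.2 ∧ D.BadT (T + c ab.1 - c ab.2)) → F.card ≤ C0

/-- **the spoil count** -/
theorem spoil (h : D.Ok) {K R C0 : ℕ} {c : ℕ → ℕ} {lam rho : ℕ → List α → Option V}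
    (g : G2 D K R c lam rho) (hc : Cnt D K C0 c) (u t : List α) (hu : u ∈ UU D) (ht : t ∈ UU D) :
    ∃ A : Finset ℕ, A.card ≤ 2 * C0 + 1 ∧ ∀ k < K, k ∉ A → ∀ k' < K, k' ≠ k → ∀ p' : List α,
      p'.length = c k' → ∃ z1 ∈ UU D, z1 ∉ BB D ∧ z1 <+: p' ++ (u ++ t).drop (c k) := by
  classical
  have hz := h.hz
  have hW := h.hW
  have hul := UU_len h hu
  have htl := UU_len h ht
  set w := u ++ t with hw
  have hwl : w.length = u.length + t.length := by rw [hw, List.length_append]
  let T0 : ℕ := sInf {s | s ≤ w.length ∧ D.Wo (w.take s) ∧ D.z ≤ s + 2 * D.N ∧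
    s ≤ D.z + D.Sm + 2 * D.N}
  let T2 : ℕ := sInf {s | s ≤ w.length ∧ D.Wo (w.take s) ∧ D.z + D.Sm + D.N < s}
  -- uniqueness in the band
  have hT0 : ∀ s, s ≤ w.length → D.Wo (w.take s) → D.z ≤ s + 2 * D.N →
      s ≤ D.z + D.Sm + 2 * D.N → T0 = s := by
    intro s h1 h2 h3 h4
    have hne : ({s | s ≤ w.length ∧ D.Wo (w.take s) ∧ D.z ≤ s + 2 * D.N ∧
      s ≤ D.z + D.Sm + 2 * D.N} : Set ℕ).Nonempty := ⟨s, h1, h2, h3, h4⟩
    obtain ⟨m1, m2, m3, m4⟩ := Nat.sInf_mem hne
    have aux : ∀ a b, a ≤ w.length → b ≤ w.length → D.Wo (w.take a) → D.Wo (w.take b) →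
        D.z ≤ a + 2 * D.N → a < b → b ≤ D.z + D.Sm + 2 * D.N → False := by
      intro a b ha hb wa wb za hab zb
      have := h.w3 (w.take b) (b - a) wb (by omega) (by omega)
      apply this
      rw [List.length_take, min_eq_left hb, List.take_take]
      have e1 : min (b - (b - a)) b = a := by omega
      rw [e1]
      exact wa
    rcases lt_trichotomy T0 s with hlt | heq | hgt
    · exact (aux _ _ m1 h1 m2 h2 m3 hlt h4).elim
    · exact heq
    · exact (aux _ _ h1 m1 h2 m2 h3 hgt m4).elim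
  let EB : ℕ × ℕ → Prop := fun ab => D.z ≤ T0 + 2 * D.N ∧
    D.th ((T0 + c ab.1 - c ab.2) % D.Mp) ≤ T0 + c ab.1 - c ab.2 + D.N ∧
    T0 + c ab.1 - c ab.2 ≤ D.th ((T0 + c ab.1 - c ab.2) % D.Mp) + D.N
  let base : Finset (ℕ × ℕ) := (Finset.range K ×ˢ Finset.range K).filter (fun ab => ab.1 ≠ ab.2)
  let F0 := base.filter (fun ab => D.BadT (max D.N (T0 - D.p0) + c ab.1 - c ab.2))
  let F2 := base.filter (fun ab => D.BadT (max D.N (T2 - D.p0) + c ab.1 - c ab.2))
  let FE := base.filter EB
  have hbase : ∀ ab ∈ base, ab.1 < K ∧ ab.2 < K ∧ ab.1 ≠ ab.2 := by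
    intro ab hab
    have := Finset.mem_filter.1 hab
    have h2 := Finset.mem_product.1 this.1
    exact ⟨Finset.mem_range.1 h2.1, Finset.mem_range.1 h2.2, this.2⟩
  have hF0 : F0.card ≤ C0 := by
    refine hc.thin (max D.N (T0 - D.p0)) (le_max_left _ _) F0 ?_
    intro ab hab
    obtain ⟨m1, m2⟩ := Finset.mem_filter.1 hab
    obtain ⟨m3, m4, m5⟩ := hbase ab m1
    exact ⟨m3, m4, m5, m2⟩
  have hF2 : F2.card ≤ C0 := by
    refine hc.thin (max D.N (T2 - D.p0)) (le_max_left _ _) F2 ?_
    intro ab hab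
    obtain ⟨m1, m2⟩ := Finset.mem_filter.1 hab
    obtain ⟨m3, m4, m5⟩ := hbase ab m1
    exact ⟨m3, m4, m5, m2⟩
  have hFE : FE.card ≤ 1 := by
    rw [Finset.card_le_one]
    intro ab hab ab' hab'
    obtain ⟨m1, e1, e2, e3⟩ := Finset.mem_filter.1 hab
    obtain ⟨m1', e1', e2', e3'⟩ := Finset.mem_filter.1 hab'
    obtain ⟨k1, k2, k3⟩ := hbase ab m1
    obtain ⟨k1', k2', k3'⟩ := hbase ab' m1'
    have b1 := g.cN _ k1
    have b2 := g.cN _ k2
    have b3 := g.cN _ k1'
    have b4 := g.cN _ k2'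
    have hres : (T0 + c ab.1 - c ab.2) % D.Mp = (T0 + c ab'.1 - c ab'.2) % D.Mp := by
      by_contra hne
      rcases h.thsp _ _ (Nat.mod_lt _ h.Mp0) (Nat.mod_lt _ h.Mp0) hne with hs | hs
      · omega
      · omega
    have hg : (c ab.1 + c ab'.2) % D.Mp = (c ab'.1 + c ab.2) % D.Mp := by
      have i1 : (T0 + c ab.1 - c ab.2) + (c ab.2 + c ab'.2) ≡
          (T0 + c ab'.1 - c ab'.2) + (c ab.2 + c ab'.2) [MOD D.Mp] :=
        Nat.ModEq.add_right _ hres
      have i2 : (T0 + c ab.1 - c ab.2) + (c ab.2 + c ab'.2) = T0 + (c ab.1 + c ab'.2) := by omega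
      have i3 : (T0 + c ab'.1 - c ab'.2) + (c ab.2 + c ab'.2) = T0 + (c ab'.1 + c ab.2) := by
        omega
      rw [i2, i3] at i1
      exact Nat.ModEq.add_left_cancel' T0 i1
    obtain ⟨q1, q2⟩ := hc.gol ab.1 ab.2 ab'.1 ab'.2 k1 k2 k1' k2' k3 hg
    exact Prod.ext q1 q2
  refine ⟨(F0 ∪ F2 ∪ FE).image Prod.snd, ?_, ?_⟩
  · refine Finset.card_image_le.trans ?_
    have a1 := Finset.card_union_le (F0 ∪ F2) FE
    have a2 := Finset.card_union_le F0 F2
    omega
  · intro k hk hkA k' hk' hne p' hp'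
    have b1 := g.cN _ hk
    have b2 := g.cN _ hk'
    have hpair : (k', k) ∈ base := Finset.mem_filter.2
      ⟨Finset.mem_product.2 ⟨Finset.mem_range.2 hk', Finset.mem_range.2 hk⟩, hne⟩
    have hn0 : ¬ D.BadT (max D.N (T0 - D.p0) + c k' - c k) := by
      intro hb
      apply hkA
      refine Finset.mem_image.2 ⟨(k', k), ?_, rfl⟩
      exact Finset.mem_union.2 (Or.inl (Finset.mem_union.2 (Or.inl
        (Finset.mem_filter.2 ⟨hpair, hb⟩))))
    have hn2 : ¬ D.BadT (max D.N (T2 - D.p0) + c k' - c k) := by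
      intro hb
      apply hkA
      refine Finset.mem_image.2 ⟨(k', k), ?_, rfl⟩
      exact Finset.mem_union.2 (Or.inl (Finset.mem_union.2 (Or.inr
        (Finset.mem_filter.2 ⟨hpair, hb⟩))))
    have hnE : ¬ EB (k', k) := by
      intro hb
      apply hkA
      refine Finset.mem_image.2 ⟨(k', k), ?_, rfl⟩
      exact Finset.mem_union.2 (Or.inr (Finset.mem_filter.2 ⟨hpair, hb⟩))
    set q := w.drop (c k) with hq
    have hql : q.length = w.length - c k := by rw [hq, List.length_drop]
    have hwq : w.take (c k) ++ q = w := by rw [hq, List.take_append_drop]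
    have hPl : (w.take (c k)).length = c k := by rw [List.length_take]; omega
    -- transfer of walls
    have tr : ∀ s, c k' + D.n ≤ s → s ≤ c k' + q.length →
        (D.Wo ((p' ++ q).take s) ↔ D.Wo (w.take (s + c k - c k'))) := by
      intro s h1 h2
      have := shift h p' (w.take (c k)) q s (by omega) (by omega)
      rw [this, hwq, hp', hPl]
      have e1 : s - c k' + c k = s + c k - c k' := by omega
      rw [e1]
    -- the end of the second block qualifies
    have hend : D.Wo ((p' ++ q).take (p' ++ q).length) := by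
      rw [List.length_append, hp']
      rw [tr _ (by omega) le_rfl]
      have e1 : c k' + q.length + c k - c k' = w.length := by omega
      rw [e1, List.take_length, hw]
      exact (h.w1 u t (by have := h.w2 t ht.1; omega)).2 ht.1
    obtain ⟨t0, ht0, hz1⟩ := exists_block (D := D) (p' ++ q) (p' ++ q).length le_rfl hend (by
      have := h.thhi ((p' ++ q).length % D.Mp)
      rw [List.length_append] at *
      omega)
    refine ⟨(p' ++ q).take t0, hz1, ?_, List.take_prefix _ _⟩
    have hz1l : ((p' ++ q).take t0).length = t0 := by rw [List.length_take]; omega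
    have hpq : (p' ++ q).length = c k' + q.length := by rw [List.length_append, hp']
    rintro ⟨-, hEE | hBT⟩
    · -- (E)
      obtain ⟨s, s1, s2, s3, s4⟩ := hEE
      rw [hz1l] at s1
      rw [List.take_take, min_eq_left s1] at s2
      have hlo := h.thlo (s % D.Mp)
      have hhi := h.thhi (s % D.Mp)
      rw [tr s (by omega) (by omega)] at s2
      have hT := hT0 (s + c k - c k') (by omega) s2 (by omega) (by omega)
      apply hnE
      have e2 : T0 + c k' - c k = s := by omega
      refine ⟨by omega, ?_, ?_⟩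
      · show D.th ((T0 + c k' - c k) % D.Mp) ≤ T0 + c k' - c k + D.N
        rw [e2]; exact s3
      · show T0 + c k' - c k ≤ D.th ((T0 + c k' - c k) % D.Mp) + D.N
        rw [e2]; exact s4
    · rw [hz1l] at hBT
      have hwall : D.Wo ((p' ++ q).take t0) := hz1.1
      have hlo : D.z ≤ t0 := by
        have := UU_len h hz1
        omega
      rw [tr t0 (by omega) (by omega)] at hwall
      by_cases hband : t0 + c k - c k' ≤ D.z + D.Sm + D.N
      · have hT := hT0 (t0 + c k - c k') (by omega) hwall (by omega) (by omega)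
        apply hn0
        have e1 : max D.N (T0 - D.p0) = T0 - D.p0 := by apply max_eq_right; omega
        rw [e1]
        have e2 : T0 - D.p0 + c k' - c k = t0 - D.p0 := by omega
        rw [e2]
        exact hBT
      · have hT2 : T2 = t0 + c k - c k' := by
          have hmem : (t0 + c k - c k') ∈ ({s | s ≤ w.length ∧ D.Wo (w.take s) ∧
              D.z + D.Sm + D.N < s} : Set ℕ) := ⟨by omega, hwall, by omega⟩
          refine le_antisymm (Nat.sInf_le hmem) ?_
          obtain ⟨m1, m2, m3⟩ := Nat.sInf_mem ⟨_, hmem⟩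
          by_contra hlt
          have hlt' : T2 < t0 + c k - c k' := by omega
          have m3' : D.z + D.Sm + D.N < T2 := m3
          have m1' : T2 ≤ w.length := m1
          have hs1 : T2 + c k' - c k < t0 := by omega
          have hs2 : D.Wo ((p' ++ q).take (T2 + c k' - c k)) := by
            rw [tr _ (by omega) (by omega)]
            have e1 : T2 + c k' - c k + c k - c k' = T2 := by omega
            rw [e1]
            exact m2
          have hmin := hz1.2.2 (T2 + c k' - c k) (by rw [hz1l]; exact hs1) (by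
            rw [List.take_take, min_eq_left hs1.le]; exact hs2)
          have := h.thhi ((T2 + c k' - c k) % D.Mp)
          omega
        apply hn2
        have e1 : max D.N (T2 - D.p0) = T2 - D.p0 := by apply max_eq_right; omega
        rw [e1]
        have e2 : T2 - D.p0 + c k' - c k = t0 - D.p0 := by omega
        rw [e2]
        exact hBT

end Crest.Agent.R320.AsmU_92
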