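import Crest.Agent.R320.AsmU3_92

set_option autoImplicit false

namespace Crest.Agent.R320.AsmU_92

open Crest.RegLang Crest.Agent.R320.Hk_851 Crest.Agent.R320.Code110 Crest.Agent.R320.ExactR_237

variable {α S V : Type} [Monoid S] [AddCommGroup V] {D : Dat α S V}

theorem swap (h : D.Ok) {u p1 : List α} {k : ℕ} (hk : k ≤ D.N) (hp : p1.length = k)
    (hu : u ∈ BB D) : p1 ++ u.drop k ∈ BB D := by
  have hz := h.hz
  obtain ⟨hU, hbad⟩ := hu
  have hul := UU_len h hU
  have hPl : (u.take k).length = k := by rw [List.length_take]; omega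
  have hue : u.take k ++ u.drop k = u := List.take_append_drop _ _
  have hql : (u.drop k).length = u.length - k := List.length_drop
  have hlen : (p1 ++ u.drop k).length = u.length := by rw [List.length_append, hql]; omega
  have tr : ∀ s, k + D.n ≤ s → s ≤ u.length →
      (D.Wo ((p1 ++ u.drop k).take s) ↔ D.Wo (u.take s)) := by
    intro s h1 h2
    have := shift h p1 (u.take k) (u.drop k) s (by omega) (by omega)
    rw [this, hue, hp, hPl, Nat.sub_add_cancel (by omega)]
  refine ⟨⟨?_, ?_, ?_⟩, ?_⟩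
  · have := (tr u.length (by omega) le_rfl).2 (by rw [List.take_length]; exact hU.1)
    rwa [← hlen, List.take_length] at this
  · rw [hlen]; exact hU.2.1
  · intro s hs hw hth
    rw [hlen] at hs
    have := (h.thlo _).trans hth
    exact hU.2.2 s hs ((tr s (by omega) hs.le).1 hw) hth
  · rcases hbad with ⟨s, s1, s2, s3, s4⟩ | hb
    · left
      have := h.thlo (s % D.Mp)
      exact ⟨s, by rw [hlen]; exact s1, (tr s (by omega) s1).2 s2, s3, s4⟩
    · right; rw [hlen]; exact hb

theorem comp2 (h : D.Ok) {K R C0 : ℕ} {c : ℕ → ℕ} {lam rho : ℕ → List α → Option V}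
    (g : G2 D K R c lam rho) (hc : Cnt D K C0 c) (hR : 2 * C0 + 1 < R) (u : List α)
    (hu : u ∈ BB D) (x : V) (t : List α) (ht : t ∈ (BB D) ^ 1) :
    ∃ p q y, u ++ t = p ++ q ∧ p ∈ L2 K c lam x ∧
      q ∈ Rsem (UU D) (BB D) (tau D) 1 (L2 K c lam) y := by
  classical
  rw [pow_one] at ht
  have hz := h.hz
  have hul := UU_len h hu.1
  obtain ⟨I, hI, hIk⟩ := g.compl (u.take D.p0) x (by rw [List.length_take]; omega)
  obtain ⟨A, hA, hgood⟩ := spoil h g hc u t hu.1 ht.1
  obtain ⟨k, hkI, hkA⟩ := Finset.exists_mem_notMem_of_card_lt_card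
    (lt_of_le_of_lt hA (lt_of_lt_of_le hR hI))
  obtain ⟨hk, hlam, hrho⟩ := hIk k hkI
  obtain ⟨b, hb⟩ := Option.isSome_iff_exists.1 hrho
  have hcN := g.cN k hk
  have hcp := g.cp k hk
  have hdr : (u ++ t).drop (c k) = u.drop (c k) ++ t :=
    List.drop_append_of_le_length (by omega)
  refine ⟨u.take (c k), u.drop (c k) ++ t,
    tau D t (D.act b (pr D.f (u.drop D.p0)) + D.nu (u.drop D.p0)), ?_, ?_, ?_⟩
  · rw [← List.append_assoc, List.take_append_drop]
  · refine ⟨k, hk, by rw [List.length_take]; omega, ?_⟩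
    rw [List.take_take, min_eq_left hcp] at hlam
    exact hlam
  · rintro x1 p1 ⟨k1, hk1, hp1, hl1⟩
    by_cases hkk : k1 = k
    · subst hkk
      left
      refine ⟨tau D (p1 ++ u.drop (c k1)) x1, Language.mem_mul.2
        ⟨p1 ++ u.drop (c k1), ⟨swap h hcN hp1 hu, rfl⟩, t, ?_, by rw [List.append_assoc]⟩⟩
      refine ⟨_, Language.mem_mul.2 ⟨t, ⟨ht, rfl⟩, [], ⟨rfl, ?_⟩, by simp⟩⟩
      have e1 : (p1 ++ u.drop (c k1)).take D.p0 = p1 ++ (u.take D.p0).drop (c k1) := by
        rw [List.take_append, List.take_of_length_le (by omega), List.drop_take, hp1]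
      have e2 : (p1 ++ u.drop (c k1)).drop D.p0 = u.drop D.p0 := by
        rw [List.drop_append, List.drop_of_length_le (by omega), List.nil_append, List.drop_drop]
        congr 1
        omega
      have hs := g.sound k1 hk1 p1 ((u.take D.p0).drop (c k1)) x1 b hp1
        (by rw [List.length_append, List.length_drop, List.length_take]; omega) hl1 hb
      congr 1
      unfold tau
      rw [e1, e2, ← hs]
    · right
      obtain ⟨z1, hz1, hz2, hz3⟩ := hgood k hk hkA k1 hk1 hkk p1 hp1
      left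
      rw [hdr] at hz3
      exact ⟨z1, hz1, hz2, hz3⟩

theorem run_zero {x y : V} {w : List α} (hr : Run (0 : Language α) (tau D) x w y) :
    w = [] ∧ x = y := by
  cases hr with
  | nil => exact ⟨rfl, rfl⟩
  | cons hu _ => exact absurd hu (Language.notMem_zero _)

theorem threads [Finite α] [Finite S] [Finite V] (h : D.Ok) {R B : ℕ} (hwf : WF D R B)
    {lam1 rho1 : List α → Option V} (g1 : G1 D lam1 rho1) {K R' C0 : ℕ} {c : ℕ → ℕ}
    {lam2 rho2 : ℕ → List α → Option V} (g2 : G2 D K R' c lam2 rho2) (hc : Cnt D K C0 c)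
    (hR : 2 * C0 + 1 < R') (x y : V) : HL 3 (RB (UU D) (tau D) x y) := by
  have lvl2 : ∀ x y, HL 2 (RB (BB D) (tau D) x y) := by
    intro x y
    refine step_sem (k := 1) (N := 1) (Bad := 0) (L := L2 K c lam2) (UU_PC h) (fun u hu => hu.1)
      (fun u hu => absurd hu (Language.notMem_zero _)) (UU_hl h hwf) (BB_hl h hwf)
      (BB_hl h hwf).star (ZTB_hl h hwf) ?_ (L2_fin g2) ?_ x y
    · intro x y
      refine (HLempty_eq (k := 1) x y).congr fun w => ?_
      constructor
      · intro hw; exact run_zero hw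
      · rintro ⟨rfl, rfl⟩; exact Run.nil _
    · intro u hu _ x t ht
      exact comp2 h g2 hc hR u hu x t ht
  refine step_sem (k := 2) (N := 0) (Bad := BB D) (L := L1 D lam1) (UU_PC h) (fun u hu => hu)
    (fun u hu => hu.1) ((UU_hl h hwf).mono (by omega)) ((UU_hl h hwf).mono (by omega))
    ((UU_hl h hwf).mono (by omega)).star (fun x y => (ZTU_hl h hwf x y).mono (by omega)) lvl2
    (L1_fin g1) ?_ x y
  intro u hu hB x t ht
  exact comp1 h g1 u hu hB x t ht

theorem run_iff {x y : V} {w : List α} : Run (UU D) (tau D) x w y ↔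
    ∃ l : List (List α), (∀ X ∈ l, X ∈ UU D) ∧ l.flatten = w ∧
      l.foldl (fun v X => tau D X v) x = y := by
  constructor
  · intro hr
    induction hr with
    | nil x => exact ⟨[], by simp, rfl, rfl⟩
    | @cons x0 y0 u0 w0 hu _ ih =>
      obtain ⟨l, h1, h2, h3⟩ := ih
      refine ⟨u0 :: l, ?_, ?_, ?_⟩
      · intro X hX
        rcases List.mem_cons.1 hX with rfl | hX
        · exact hu
        · exact h1 X hX
      · rw [List.flatten_cons, h2]
      · rw [List.foldl_cons]; exact h3
  · rintro ⟨l, h1, rfl, h3⟩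
    induction l generalizing x with
    | nil => rw [List.foldl_nil] at h3; rw [h3]; exact Run.nil _
    | cons X l ih =>
      rw [List.flatten_cons]
      rw [List.foldl_cons] at h3
      exact Run.cons (h1 X (by simp)) (ih (fun Y hY => h1 Y (by simp [hY])) h3)

/-- **the fibres** -/
theorem fibres [Finite α] [Finite S] [Finite V] (h : D.Ok)
    (hadd : ∀ a b s, D.act (a + b) s = D.act a s + D.act b s)
    (hone : ∀ v, D.act v 1 = v) (hmul : ∀ v s t, D.act v (s * t) = D.act (D.act v s) t)
    (hfaith : ∀ s t, (∀ v, D.act v s = D.act v t) → s = t)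
    {R B : ℕ} (hwf : WF D R B)
    {lam1 rho1 : List α → Option V} (g1 : G1 D lam1 rho1) {K R' C0 : ℕ} {c : ℕ → ℕ}
    {lam2 rho2 : ℕ → List α → Option V} (g2 : G2 D K R' c lam2 rho2) (hc : Cnt D K C0 c)
    (hR : 2 * C0 + 1 < R') (s : S) : HL 3 ({w | (w.map D.f).prod = s} : Language α) := by
  have hPC : Blk467.PCode (UU D : Set (List α)) := ⟨(UU_PC h).ne, (UU_PC h).pf⟩
  have key : ∀ a : S, HL 3 ({w | w ∈ Blk467.Str (UU D : Set (List α)) ∧
      (w.map D.f).prod = a} : Language α) := by
    intro a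
    refine Blk467.fibre_of_threads D.act hadd hone hmul hfaith D.f
      (fun X => D.act (D.nu2 (X.take D.p0)) (pr D.f (X.drop D.p0)) + D.nu (X.drop D.p0))
      (UU D : Set (List α)) hPC.uparse ?_ a
    intro v v'
    refine (threads h hwf g1 g2 hc hR v v').congr fun w => ?_
    have hT : (fun (v : V) (X : List α) => D.act v (X.map D.f).prod +
        (D.act (D.nu2 (X.take D.p0)) (pr D.f (X.drop D.p0)) + D.nu (X.drop D.p0))) =
        fun v X => tau D X v := by
      funext v X
      unfold tau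
      rw [hadd, ← hmul, ← pr_append, List.take_append_drop, add_assoc]
      rfl
    rw [hT]
    exact run_iff.symm
  let A : S → Language α := fun a =>
    {w | w ∈ Blk467.Str (UU D : Set (List α)) ∧ (w.map D.f).prod = a}
  let C : S → Language α := fun b => {w | (∀ X ∈ UU D, ¬ X <+: w) ∧ pr D.f w = b}
  refine (HL.biUnion (k := 3) (Set.toFinite {p : S × S | p.1 * p.2 = s})
    (L := fun p => A p.1 * C p.2)
    (fun p _ => HL.mul (L := A p.1) (M := C p.2) (key p.1)
      ((Rest_hl h hwf p.2).mono (by omega)))).congr fun w => ?_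
  constructor
  · intro hw
    obtain ⟨M, E, rfl, hM, hE⟩ := Blk467.exists_parse (C := (UU D : Set (List α)))
      (UU_PC h).ne w
    refine ⟨((M.map D.f).prod, (E.map D.f).prod), ?_, ?_⟩
    · have hw' : ((M ++ E).map D.f).prod = s := hw
      rw [List.map_append, List.prod_append] at hw'
      exact hw'
    · exact Language.mem_mul.2 ⟨M, ⟨hM, rfl⟩, E, ⟨hE, rfl⟩, rfl⟩
  · rintro ⟨p, hp, hw⟩
    obtain ⟨M, ⟨_, hM⟩, E, ⟨_, hE⟩, rfl⟩ := Language.mem_mul.1 hw
    change ((M ++ E).map D.f).prod = s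
    have hE' : (E.map D.f).prod = p.2 := hE
    rw [List.map_append, List.prod_append, hM, hE']
    exact hp

end Crest.Agent.R320.AsmU_92
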