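import Crest.Agent.R320.Half1_180

/-!
# Row 320: two-block promise scheme and assembly for all words (helper98)

`promise2` : promise scheme whose right words read the cut block and one more full block.
`asm`      : scheme 1 (sound everywhere, complete off `Bad`), scheme 2 (two-block promise scheme on
             `Bad`), ONE token system, words without block prefix of height `≤ k + 2`
             give height `k + 2` for all words.
-/

set_option autoImplicit false

namespace Crest.Agent.R320.Prom2_98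

open Crest.RegLang Crest.Agent.R320.Hk_851 Crest.Agent.R320.Half1_180

universe u

variable {α : Type u}

/-- the tail: nothing, or one more bad block -/
def Tl {V : Type*} (Bad : Set (List α)) (T : List α → V → V) (u y : V) : Language α :=
  {m | (m = [] ∧ u = y) ∨ (m ∈ Bad ∧ T m u = y)}

theorem HL_Tl {V : Type*} {k : ℕ} {Bad : Set (List α)} {T : List α → V → V}
    (hBT : ∀ v v', HL k ({X | X ∈ Bad ∧ T X v = v'} : Language α)) (u y : V) :
    HL k (Tl Bad T u y) := by
  have h1 : HL k ({m : List α | m = [] ∧ u = y} : Language α) :=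
    (HL.one.inf (HL.const (u = y))).congr fun w => Iff.rfl
  exact (h1.add (hBT u y)).congr fun w => Iff.rfl

theorem Tl_tr {V : Type*} {XX Bad : Set (List α)} (hB : Bad ⊆ XX) {T : List α → V → V} {u y : V}
    {m : List α} (h : m ∈ Tl Bad T u y) : Tr XX T u m y := by
  rcases h with ⟨rfl, rfl⟩ | ⟨h, rfl⟩
  · exact Tr.nil _
  · exact Tr.single (hB h)

/-- **two-block promise scheme** -/
theorem promise2 {V : Type*} [Finite V] {k : ℕ} {XX Bad : Set (List α)} (h : PF XX)
    (hB : Bad ⊆ XX) (hBk : HL k (Lof Bad)) (T : List α → V → V) (LP RQ : V → Language α)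
    (hLP : ∀ v, HL k (LP v)) (hRQ : ∀ v, HL k (RQ v)) (hne : ∀ v, [] ∉ LP v)
    (hBT : ∀ v v', HL k ({X | X ∈ Bad ∧ T X v = v'} : Language α))
    (sound : ∀ Y ∈ Bad, ∀ v v' P Q R R', P ∈ LP v → Q ∈ RQ v' → P ++ (Q ++ R) = Y ++ R' →
      ∃ X2 ∈ XX, P ++ Q = Y ++ X2 ∧ T X2 (T Y v) = v')
    (compl : ∀ X ∈ Bad, ∀ X2 ∈ Bad, ∀ v, ∃ P Q, X ++ X2 = P ++ Q ∧ P ∈ LP v ∧
      Q ∈ RQ (T X2 (T X v))) :
    Cert (k + 1) XX T (Bs Bad) := by
  classical
  let K : Language α := {u | ∃ v, u ∈ RQ v * LP v}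
  have hK : HL k K := HL.iUnion fun v => (hRQ v).mul (hLP v)
  -- one junction
  have hone : ∀ v v' P Q R, P ∈ LP v → Q ∈ RQ v' → Bs Bad (P ++ (Q ++ R)) →
      Tr XX T v (P ++ Q) v' ∧ Bs Bad R := by
    intro v v' P Q R hP hQ hw
    rcases Bs.inv h hB hw with e | ⟨Y, hY, w', e, hw'⟩
    · have : P = [] := (List.append_eq_nil_iff.1 e).1
      subst this
      exact absurd hP (hne v)
    · obtain ⟨X2, hX2, h1, h2⟩ := sound Y hY v v' P Q R w' hP hQ e
      have e1 : X2 ++ R = w' := by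
        rw [← List.append_assoc, h1, List.append_assoc] at e
        exact List.append_cancel_left e
      rcases Bs.inv h hB hw' with e2 | ⟨Y2, hY2, w'', e2, hw''⟩
      · rw [← e1] at e2
        exact absurd (List.append_eq_nil_iff.1 e2).1 (h.1 X2 hX2)
      · have e3 : X2 ++ R = Y2 ++ w'' := by rw [e1, e2]
        obtain ⟨e4, e5⟩ := h.eq hX2 (hB hY2) e3
        subst e5
        refine ⟨?_, hw''⟩
        rw [h1, ← h2]
        exact (Tr.single (t := T) (x := v) (hB hY)).append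
          (Tr.single (t := T) (x := T Y v) hX2)
  have hsound : ∀ s ∈ KStar.kstar K, ∀ v v' P Q R, P ∈ LP v → Q ∈ RQ v' →
      Bs Bad (P ++ (s ++ (Q ++ R))) → Tr XX T v (P ++ (s ++ Q)) v' ∧ Bs Bad R := by
    intro s hs
    rw [Language.mem_kstar] at hs
    obtain ⟨L, rfl, hL⟩ := hs
    induction L with
    | nil =>
      intro v v' P Q R hP hQ hw
      simpa using hone v v' P Q R hP hQ (by simpa using hw)
    | cons u L ih =>
      intro v v' P Q R hP hQ hw
      obtain ⟨v1, hu⟩ := hL u (by simp)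
      obtain ⟨Q1, hQ1, P1, hP1, rfl⟩ := Language.mem_mul.1 hu
      have e : P ++ (((Q1 ++ P1) :: L).flatten ++ (Q ++ R)) =
          P ++ (Q1 ++ (P1 ++ (L.flatten ++ (Q ++ R)))) := by simp
      rw [e] at hw
      obtain ⟨h3, h4⟩ := hone v v1 P Q1 _ hP hQ1 hw
      obtain ⟨h5, h6⟩ := ih (fun y hy => hL y (by simp [hy])) v1 v' P1 Q R hP1 hQ h4
      refine ⟨?_, h6⟩
      have h7 := h3.append h5
      simpa [List.append_assoc] using h7
  have hcomp : ∀ n : ℕ, ∀ w : List α, w.length ≤ n → Bs Bad w → ∀ v v', Tr XX T v w v' →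
      (w = [] ∧ v = v') ∨ (w ∈ Bad ∧ T w v = v') ∨
      ∃ P ∈ LP v, ∃ s ∈ KStar.kstar K, ∃ u, ∃ Q ∈ RQ u, ∃ m ∈ Tl Bad T u v',
        w = P ++ (s ++ (Q ++ m)) := by
    intro n
    induction n with
    | zero =>
      intro w hn hw v v' hT
      have : w = [] := List.length_eq_zero_iff.1 (Nat.le_zero.1 hn)
      subst this
      exact Or.inl ⟨rfl, Tr.inv_nil h hT⟩
    | succ n ih =>
      intro w hn hw v v' hT
      rcases Bs.inv h hB hw with rfl | ⟨X, hX, w1, rfl, hw1⟩
      · exact Or.inl ⟨rfl, Tr.inv_nil h hT⟩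
      · have hT1 := Tr.inv h (hB hX) hT
        rcases Bs.inv h hB hw1 with rfl | ⟨X2, hX2, w2, rfl, hw2⟩
        · refine Or.inr (Or.inl ⟨by simpa using hX, ?_⟩)
          have := Tr.inv_nil h hT1
          simpa using this
        · have hT2 := Tr.inv h (hB hX2) hT1
          obtain ⟨P, Q, hPQ, hP, hQ⟩ := compl X hX X2 hX2 v
          have hlen : w2.length ≤ n := by
            have h0 : X ≠ [] := h.1 X (hB hX)
            have h00 : 0 < X.length := List.length_pos_iff.2 h0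
            simp only [List.length_append] at hn
            omega
          have ew : X ++ (X2 ++ w2) = P ++ (Q ++ w2) := by
            rw [← List.append_assoc, hPQ, List.append_assoc]
          refine Or.inr (Or.inr ⟨P, hP, ?_⟩)
          rcases ih w2 hlen hw2 _ _ hT2 with ⟨rfl, e⟩ | ⟨hb, e⟩ |
            ⟨P', hP', s, hs, u, Q', hQ', m, hm, e⟩
          · exact ⟨[], Language.nil_mem_kstar _, _, Q, hQ, [], Or.inl ⟨rfl, e⟩, by
              rw [ew]; simp⟩
          · exact ⟨[], Language.nil_mem_kstar _, _, Q, hQ, w2, Or.inr ⟨hb, e⟩, by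
              rw [ew]; simp⟩
          · refine ⟨(Q ++ P') ++ s, ?_, u, Q', hQ', m, hm, ?_⟩
            · rw [Language.mem_kstar] at hs ⊢
              obtain ⟨L, rfl, hL⟩ := hs
              refine ⟨(Q ++ P') :: L, by simp, ?_⟩
              intro y hy
              rcases List.mem_cons.1 hy with rfl | hy
              · exact ⟨_, Language.append_mem_mul hQ hP'⟩
              · exact hL y hy
            · rw [ew, e]; simp
  intro x y
  have hbad : HL (k + 1) (KStar.kstar (Lof Bad)) := hBk.star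
  refine ⟨((KStar.kstar (Lof Bad)) ⊓ (LP x * (KStar.kstar K *
    Lg (fun w => ∃ u, w ∈ RQ u * Tl Bad T u y)))) + Tl Bad T x y, ?_, ?_, ?_⟩
  · refine HL.add (hbad.inf (((hLP x).mono (Nat.le_succ k)).mul
      (hK.star.mul (HL.iUnion fun u => ?_)))) ((HL_Tl hBT x y).mono (Nat.le_succ k))
    exact ((hRQ u).mul (HL_Tl hBT u y)).mono (Nat.le_succ k)
  · intro w hw
    rcases hw with ⟨hw1, hw2⟩ | hw
    · have hw1' := bs_iff_kstar.2 hw1
      obtain ⟨P, hP, c, hc, rfl⟩ := Language.mem_mul.1 hw2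
      obtain ⟨s, hs, d, ⟨u, hd⟩, rfl⟩ := Language.mem_mul.1 hc
      obtain ⟨Q, hQ, m, hm, rfl⟩ := Language.mem_mul.1 hd
      have h1 := (hsound s hs x u P Q m hP hQ hw1').1
      have h2 := h1.append (Tl_tr hB hm)
      simpa [List.append_assoc] using h2
    · exact Tl_tr hB hw
  · intro w hw hT
    rcases hcomp _ w le_rfl hw x y hT with ⟨rfl, e⟩ | ⟨hb, e⟩ |
      ⟨P, hP, s, hs, u, Q, hQ, m, hm, rfl⟩
    · exact Or.inr (Or.inl ⟨rfl, e⟩)
    · exact Or.inr (Or.inr ⟨hb, e⟩)
    · exact Or.inl ⟨bs_iff_kstar.1 hw, Language.append_mem_mul hP (Language.append_mem_mul hs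
        ⟨u, Language.append_mem_mul hQ hm⟩)⟩

/-- **assembly**: one token system, two schemes, all words. -/
theorem asm [Finite α] {S : Type*} [Monoid S] [Fintype S] [DecidableEq S] {k : ℕ} (φ : α → S)
    (XX Bad : Set (List α)) (h : PF XX) (hB : Bad ⊆ XX) (hBk : HL k (Lof Bad))
    (nu : List α → S → ZMod 2)
    (hBT : ∀ v v' : S → ZMod 2, HL k ({X | X ∈ Bad ∧
      push (fun s => s * (X.map φ).prod) v + nu X = v'} : Language α))
    (LP1 RQ1 : (S → ZMod 2) → Language α)
    (hLP1 : ∀ v, HL (k + 1) (LP1 v)) (hRQ1 : ∀ v, HL (k + 1) (RQ1 v))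
    (sound1 : ∀ v v' P Q, P ∈ LP1 v → Q ∈ RQ1 v' → P ++ Q ∈ XX ∧
      push (fun s => s * ((P ++ Q).map φ).prod) v + nu (P ++ Q) = v')
    (compl1 : ∀ X ∈ XX, X ∉ Bad → ∀ v, ∃ P Q, X = P ++ Q ∧ P ∈ LP1 v ∧
      Q ∈ RQ1 (push (fun s => s * (X.map φ).prod) v + nu X))
    (LP2 RQ2 : (S → ZMod 2) → Language α)
    (hLP2 : ∀ v, HL k (LP2 v)) (hRQ2 : ∀ v, HL k (RQ2 v)) (hne : ∀ v, [] ∉ LP2 v)
    (sound2 : ∀ Y ∈ Bad, ∀ v v' P Q R R', P ∈ LP2 v → Q ∈ RQ2 v' → P ++ (Q ++ R) = Y ++ R' →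
      ∃ X2 ∈ XX, P ++ Q = Y ++ X2 ∧ push (fun s => s * (X2.map φ).prod)
        (push (fun s => s * (Y.map φ).prod) v + nu Y) + nu X2 = v')
    (compl2 : ∀ X ∈ Bad, ∀ X2 ∈ Bad, ∀ v, ∃ P Q, X ++ X2 = P ++ Q ∧ P ∈ LP2 v ∧
      Q ∈ RQ2 (push (fun s => s * (X2.map φ).prod)
        (push (fun s => s * (X.map φ).prod) v + nu X) + nu X2))
    (hE : ∀ s : S, HL (k + 2) ({E | (∀ X ∈ XX, ¬ X <+: E) ∧ (E.map φ).prod = s} : Language α))
    (s : S) : HL (k + 2) ({w | (w.map φ).prod = s} : Language α) := by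
  classical
  have c1 : Cert (k + 1) XX (fun X (u : S → ZMod 2) =>
      push (fun s => s * (X.map φ).prod) u + nu X) (Bs Bad) :=
    promise2 h hB hBk _ LP2 RQ2 hLP2 hRQ2 hne hBT sound2 compl2
  have c0 : Cert (k + 2) XX (fun X (u : S → ZMod 2) =>
      push (fun s => s * (X.map φ).prod) u + nu X) (Bs ((XX \ Bad) ∪ Bad)) :=
    step h Set.diff_subset hB _ LP1 RQ1 hLP1 hRQ1 sound1
      (fun X hX v => compl1 X hX.1 hX.2 v) c1
  have c : Cert (k + 2) XX (fun X (s : S) => s * (X.map φ).prod) (Bs ((XX \ Bad) ∪ Bad)) :=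
    readoff h (fun X (s : S) => s * (X.map φ).prod) nu
      (fun w hw => hw.mono (Set.union_subset Set.diff_subset hB)) c0
  have hval : ∀ {w : List α} {x y : S}, Tr XX (fun X (s : S) => s * (X.map φ).prod) x w y →
      y = x * (w.map φ).prod := by
    intro w x y hT
    induction hT with
    | nil x => simp
    | cons _ _ ih => rw [ih]; simp [mul_assoc]
  choose L hL1 hL2 hL3 using c
  have key := HL.iUnion2 (k := k + 2) (ι := S) (κ := S)
    (L := fun a b => (Lg (fun _ => a * b = s)) ⊓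
      (L 1 a * Lg (fun E => (∀ X ∈ XX, ¬ X <+: E) ∧ (E.map φ).prod = b)))
    (fun a b => (HL.const _).inf ((hL1 1 a).mul (hE b)))
  -- parse
  have hparse : ∀ n : ℕ, ∀ w : List α, w.length ≤ n →
      ∃ M E, w = M ++ E ∧ Bs XX M ∧ ∀ X ∈ XX, ¬ X <+: E := by
    intro n
    induction n with
    | zero =>
      intro w hn
      have : w = [] := List.length_eq_zero_iff.1 (Nat.le_zero.1 hn)
      subst this
      exact ⟨[], [], rfl, Bs.nil, fun X hX hp => h.1 X hX (List.prefix_nil.1 hp)⟩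
    | succ n ih =>
      intro w hn
      by_cases hx : ∃ X ∈ XX, X <+: w
      · obtain ⟨X, hX, w', rfl⟩ := hx
        have h00 : 0 < X.length := List.length_pos_iff.2 (h.1 X hX)
        obtain ⟨M, E, rfl, hM, hE⟩ := ih w' (by
          simp only [List.length_append] at hn
          omega)
        exact ⟨X ++ M, E, by simp, Bs.cons hX hM, hE⟩
      · push_neg at hx
        exact ⟨[], w, rfl, Bs.nil, hx⟩
  refine key.congr fun w => ?_
  constructor
  · intro hs
    obtain ⟨M, E, rfl, hM, hE'⟩ := hparse _ w le_rfl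
    have hM' : Bs ((XX \ Bad) ∪ Bad) M := by
      rw [Set.diff_union_of_subset hB]
      exact hM
    obtain ⟨y, hy⟩ := Tr.exists (t := fun X (s : S) => s * (X.map φ).prod) hM (1 : S)
    have e := hval hy
    refine ⟨y, (E.map φ).prod, ?_, Language.append_mem_mul (hL3 _ _ M hM' hy) ⟨hE', rfl⟩⟩
    change y * (E.map φ).prod = s
    have hs' : ((M ++ E).map φ).prod = s := hs
    rw [e, one_mul, ← hs']; simp
  · rintro ⟨a, b, hab, hw⟩
    obtain ⟨M, hM, E, ⟨_, hE'⟩, rfl⟩ := Language.mem_mul.1 hw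
    have e := hval (hL2 _ _ M hM)
    rw [one_mul] at e
    have hab' : a * b = s := hab
    change ((M ++ E).map φ).prod = s
    rw [← hab', e, ← hE']; simp

end Crest.Agent.R320.Prom2_98
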