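import Crest.Agent.R320.GeoU_511
import Crest.Agent.R320.Prom2_98

/-!
# Row 320: labels of the two schemes over the threshold block code (all words)
UG-gadget + exact gadget + `GeoU_511` + `Prom2_98.asm` give height 3, given the HL 1 families.
-/

set_option autoImplicit false

namespace Crest.Agent.R320.AsmU_511

open Crest.RegLang Crest.Agent.R320.Hk_851 Crest.Agent.R320.Half1_180
open Crest.Agent.R320.GeoU_511 Crest.Agent.R320.GeoU_511.Geo Crest.Agent.R320.Prom2_98

universe u v

theorem push_add {Γ : Type*} [Fintype Γ] (f : Γ → Γ) (a b : Γ → ZMod 2) :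
    push f (a + b) = push f a + push f b := by
  classical
  funext y
  simp only [push, Pi.add_apply]
  rw [← Finset.sum_add_distrib]
  refine Finset.sum_congr rfl fun x _ => ?_
  split_ifs <;> simp

theorem push_push {Γ : Type*} [Fintype Γ] (f g : Γ → Γ) (a : Γ → ZMod 2) :
    push g (push f a) = push (fun x => g (f x)) a := by
  classical
  funext y
  simp only [push]
  have h1 : ∀ x : Γ, (if g x = y then ∑ z, (if f z = x then a z else 0) else 0)
      = ∑ z, (if f z = x then (if g x = y then a z else 0) else 0) := by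
    intro x
    by_cases h : g x = y
    · simp [h]
    · simp [h]
  rw [Finset.sum_congr rfl fun x _ => h1 x, Finset.sum_comm]
  refine Finset.sum_congr rfl fun z _ => ?_
  rw [Finset.sum_ite_eq]
  simp

variable {α : Type u} {S : Type v} [Monoid S] [Fintype S]

/-- noise of a block -/
noncomputable def nuT (φ : α → S) (p0 : ℕ) (nuE : List α → (S → ZMod 2))
    (nuU : List α → (S → ZMod 2)) (z : List α) : S → ZMod 2 :=
  push (fun s => s * ((z.drop p0).map φ).prod) (nuE (z.take p0)) + nuU (z.drop p0)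

/-- zone map -/
noncomputable def Tm (φ : α → S) (p0 : ℕ) (nuE : List α → (S → ZMod 2))
    (nuU : List α → (S → ZMod 2)) (z : List α) (v : S → ZMod 2) : S → ZMod 2 :=
  push (fun s => s * (z.map φ).prod) v + nuT φ p0 nuE nuU z

theorem Tm_eq (φ : α → S) (p0 : ℕ) (nuE nuU : List α → (S → ZMod 2)) (z : List α)
    (v : S → ZMod 2) :
    Tm φ p0 nuE nuU z v = push (fun s => s * ((z.drop p0).map φ).prod)
      (push (fun s => s * ((z.take p0).map φ).prod) v + nuE (z.take p0)) + nuU (z.drop p0) := by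
  unfold Tm nuT
  rw [push_add, push_push]
  have h1 : (z.map φ).prod = ((z.take p0).map φ).prod * ((z.drop p0).map φ).prod := by
    conv_lhs => rw [← List.take_append_drop p0 z]
    rw [List.map_append, List.prod_append]
  have h2 : (fun s : S => s * (z.map φ).prod)
      = (fun x => x * ((z.take p0).map φ).prod * ((z.drop p0).map φ).prod) := by
    funext s; rw [h1, mul_assoc]
  rw [h2, add_assoc]

theorem main [Finite α] [DecidableEq S] (φ : α → S) (G : Geo α) (hMp : 0 < G.Mp)
    {BadT : ℕ → Prop} {K C0 T0 : ℕ} {c : ℕ → ℕ} (hc0 : ∀ k < K, 0 < c k)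
    (hc : ∀ k < K, c k ≤ G.p0)
    (hsep : ∀ r r', r < G.Mp → r' < G.Mp → r ≠ r' →
      G.thr r + 2 * (G.N + G.p0) < G.thr r' ∨ G.thr r' + 2 * (G.N + G.p0) < G.thr r)
    (hgol : ∀ a b e d, a < K → b < K → e < K → d < K → a ≠ b →
      (c a + c d) % G.Mp = (c e + c b) % G.Mp → a = e ∧ b = d)
    (hthin : ∀ T, T0 ≤ T → ∀ S : Finset (ℕ × ℕ), (∀ ab ∈ S, ab.1 < K ∧ ab.2 < K ∧ ab.1 ≠ ab.2 ∧
      BadT (T + c ab.1 - c ab.2)) → S.card ≤ C0)
    (hW : G.Zm + 2 * G.p0 + 2 * G.N ≤ G.W + G.z0) (hz0 : T0 + 2 * G.p0 + G.n + G.N < G.z0)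
    (hz1 : G.p0 + 2 * G.N ≤ G.z0)
    -- the U-gadget
    (lamU rhoU : List α → Option (S → ZMod 2)) (nuU : List α → (S → ZMod 2))
    (uLen : ∀ p v, lamU p = some v → G.Mp ∣ p.length ∧ p.length ≤ G.N)
    (uSound : ∀ p q v r, lamU p = some v → rhoU q = some r →
      r = push (fun s => s * ((p ++ q).map φ).prod) v + nuU (p ++ q))
    (uComp : ∀ u, 2 * G.N ≤ u.length → ¬ BadT u.length → ∀ v, ∃ p q, p ++ q = u ∧
      lamU p = some v ∧ (rhoU q).isSome)
    -- the exact gadget
    (lamE rhoE : ℕ → List α → Option (S → ZMod 2)) (nuE : List α → (S → ZMod 2))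
    (eSound : ∀ k < K, ∀ (P Q : List α) (v b : S → ZMod 2), P.length = c k →
      lamE k P = some v → rhoE k Q = some b →
      b = push (fun s => s * ((P ++ Q).map φ).prod) v + nuE (P ++ Q))
    (eComp : ∀ (u : List α) (v : S → ZMod 2), (∀ k < K, c k ≤ u.length) →
      ∃ I : Finset ℕ, 2 * C0 + 2 ≤ I.card ∧ ∀ k ∈ I, k < K ∧ lamE k (u.take (c k)) = some v ∧
        (rhoE k (u.drop (c k))).isSome)
    -- heights
    (hT : ∀ v v', HL 1 ({z | z ∈ G.Z ∧ Tm φ G.p0 nuE nuU z v = v'} : Language α))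
    (hBd : HL 1 (Lof (G.Bd BadT)))
    (hE : ∀ s : S, HL 1 ({E | (∀ X ∈ G.Z, ¬ X <+: E) ∧ (E.map φ).prod = s} : Language α))
    (s : S) : HL 3 ({w | (w.map φ).prod = s} : Language α) := by
  classical
  have hpos := G.pos
  set T := Tm φ G.p0 nuE nuU with hTdef
  -- labels
  let LP1 : (S → ZMod 2) → Language α := fun v => ({P | G.p0 ≤ P.length ∧
    lamU (P.drop G.p0) = some (push (fun s => s * ((P.take G.p0).map φ).prod) v +
      nuE (P.take G.p0))} : Language α)
  let RQ1 : (S → ZMod 2) → Language α := fun v' => ({Q | ∀ v, ∀ P ∈ LP1 v,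
    P ++ Q ∈ G.Z ∧ T (P ++ Q) v = v'} : Language α)
  let LP2 : (S → ZMod 2) → Language α := fun v => ({P | ∃ k < K, P.length = c k ∧
    lamE k P = some v} : Language α)
  let TT : (S → ZMod 2) → (S → ZMod 2) → Language α := fun v v' =>
    ({w | ∃ z1 ∈ G.Bd BadT, ∃ z2 ∈ G.Z, w = z1 ++ z2 ∧ T z2 (T z1 v) = v'} : Language α)
  let GG : Language α := ({w | ∃ z1 ∈ G.Z, z1 ∉ G.Bd BadT ∧ z1 <+: w} : Language α)
  let RQ2 : (S → ZMod 2) → Language α := fun v' => ({Q | ∀ v, ∀ P ∈ LP2 v,
    P ++ Q ∈ TT v v' ∨ P ++ Q ∈ GG} : Language α)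
  have hPF : PF G.Z := ⟨fun X hX h => nil_notMem (h ▸ hX), fun X hX Y hY h => prefix_code hX hY h⟩
  have hBZ : G.Bd BadT ⊆ G.Z := fun z hz => hz.1
  -- heights
  have fin1 : ∀ v, (LP1 v : Set (List α)).Finite := by
    intro v
    refine Set.Finite.subset (List.finite_length_le α (G.p0 + G.N)) ?_
    intro P hP
    have h1 := (uLen _ _ hP.2).2
    have h2 := hP.1
    simp only [List.length_drop] at h1
    show P.length ≤ _
    omega
  have fin2 : ∀ v, (LP2 v : Set (List α)).Finite := by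
    intro v
    refine Set.Finite.subset (List.finite_length_le α (G.p0)) ?_
    rintro P ⟨k, hk, h1, -⟩
    have := hc k hk
    show P.length ≤ _
    omega
  have hBT : ∀ v v', HL 1 ({X | X ∈ G.Bd BadT ∧ T X v = v'} : Language α) := by
    intro v v'
    refine (hBd.inf (hT v v')).congr fun w => ?_
    constructor
    · rintro ⟨a, b⟩; exact ⟨a, hBZ a, b⟩
    · rintro ⟨a, -, b⟩; exact ⟨a, b⟩
  have hZ : HL 1 (Lof G.Z) := by
    refine (HL.iUnion (ι := (S → ZMod 2)) fun v' => hT 0 v').congr fun w => ?_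
    constructor
    · intro hw
      exact ⟨T w 0, hw, rfl⟩
    · rintro ⟨v', hw, -⟩
      exact hw
  have hRQ1 : ∀ v', HL 1 (RQ1 v') := by
    intro v'
    have h1 : ∀ v, HL 1 ({Q | ∀ P ∈ LP1 v, P ++ Q ∈ G.Z ∧ T (P ++ Q) v = v'} : Language α) := by
      intro v
      refine (HL.biInter (fin1 v) (fun P _ => (hT v v').lquot P)).congr fun w => ?_
      rfl
    refine (HL.iInter h1).congr fun w => ?_
    rfl
  have hTT : ∀ v v', HL 1 (TT v v') := by
    intro v v'
    refine (HL.iUnion (ι := (S → ZMod 2)) fun v1 => (hBT v v1).mul (hT v1 v')).congr fun w => ?_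
    constructor
    · rintro ⟨z1, h1, z2, h2, rfl, h3⟩
      exact ⟨T z1 v, Language.append_mem_mul ⟨h1, rfl⟩ ⟨h2, h3⟩⟩
    · rintro ⟨v1, hw⟩
      obtain ⟨z1, ⟨h1, h1'⟩, z2, ⟨h2, h2'⟩, rfl⟩ := Language.mem_mul.1 hw
      exact ⟨z1, h1, z2, h2, rfl, by rw [h1']; exact h2'⟩
  have hGG : HL 1 GG := by
    refine ((hZ.sdiff hBd).prefix).congr fun w => ?_
    constructor
    · rintro ⟨z, h1, h2, h3⟩; exact ⟨z, ⟨h1, h2⟩, h3⟩
    · rintro ⟨z, ⟨h1, h2⟩, h3⟩; exact ⟨z, h1, h2, h3⟩
  have hRQ2 : ∀ v', HL 1 (RQ2 v') := by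
    intro v'
    have h1 : ∀ v, HL 1 ({Q | ∀ P ∈ LP2 v, P ++ Q ∈ TT v v' ∨ P ++ Q ∈ GG} : Language α) := by
      intro v
      refine (HL.biInter (fin2 v) (fun P _ => ((hTT v v').sup hGG).lquot P)).congr fun w => ?_
      rfl
    refine (HL.iInter h1).congr fun w => ?_
    rfl
  -- value of a zone through the U-gadget
  have val1 : ∀ (v : S → ZMod 2) (P Q : List α) (r : S → ZMod 2), P ∈ LP1 v → rhoU Q = some r →
      T (P ++ Q) v = r := by
    intro v P Q r hP hr
    have h0 : G.p0 ≤ P.length := hP.1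
    have h1 := uSound _ _ _ _ hP.2 hr
    rw [hTdef, Tm_eq]
    have e1 : (P ++ Q).take G.p0 = P.take G.p0 := List.take_append_of_le_length h0
    have e2 : (P ++ Q).drop G.p0 = P.drop G.p0 ++ Q := List.drop_append_of_le_length h0
    rw [e1, e2]
    exact h1.symm
  refine asm (k := 1) φ G.Z (G.Bd BadT) hPF hBZ hBd (nuT φ G.p0 nuE nuU) hBT LP1 RQ1
    (fun v => HL.finite (fin1 v)) (fun v => (hRQ1 v).mono (by norm_num)) ?_ ?_ LP2 RQ2
    (fun v => HL.finite (fin2 v)) hRQ2 ?_ ?_ ?_ (fun s => (hE s).mono (by norm_num)) s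
  · -- sound1
    intro v v' P Q hP hQ
    exact hQ v P hP
  · -- compl1
    intro X hX hXB v
    have hlen := mem_len hX
    have hnE : ¬ G.Eb X := fun h => hXB ⟨hX, Or.inl h⟩
    have hnB : ¬ BadT (X.drop G.p0).length := by
      intro h
      apply hXB
      refine ⟨hX, Or.inr ?_⟩
      simpa using h
    obtain ⟨P', Q, e, hl, hr⟩ := uComp (X.drop G.p0) (by simp; omega) hnB
      (push (fun s => s * ((X.take G.p0).map φ).prod) v + nuE (X.take G.p0))
    obtain ⟨r, hr⟩ := Option.isSome_iff_exists.1 hr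
    have htl : (X.take G.p0).length = G.p0 := by simp; omega
    have eX : X = (X.take G.p0 ++ P') ++ Q := by
      rw [List.append_assoc, e, List.take_append_drop]
    have hP : X.take G.p0 ++ P' ∈ LP1 v := by
      refine ⟨by simp; omega, ?_⟩
      rw [List.take_left' htl, List.drop_left' htl]
      exact hl
    refine ⟨X.take G.p0 ++ P', Q, eX, hP, ?_⟩
    have hTX : T X v = r := by
      have := val1 v _ Q r hP hr
      rwa [← eX] at this
    have hgoal : Q ∈ RQ1 (T X v) := by
      intro v2 P2 hP2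
      have hu2 := uLen _ _ hP2.2
      have hu1 := uLen _ _ hl
      obtain ⟨om, hom⟩ := hu1.1
      obtain ⟨om2, hom2⟩ := hu2.1
      have hl2 : G.p0 ≤ P2.length := hP2.1
      simp only [List.length_drop] at hom2 hu2
      refine ⟨junction (om := om) (om' := om2) (eX ▸ hX) (eX ▸ hnE) ?_ ?_ ?_ ?_, ?_⟩
      · simp only [List.length_append, htl]; omega
      · omega
      · simp only [List.length_append, htl]; omega
      · omega
      · rw [val1 v2 P2 Q r hP2 hr, hTX]
    exact hgoal
  · -- [] notin LP2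
    rintro v ⟨k, hk, h1, -⟩
    have := hc0 k hk
    simp at h1
    omega
  · -- sound2
    intro Y hY v v' P Q R R' hP hQ e
    have hpre : P ++ Q <+: Y ++ R' := by
      rw [← e, ← List.append_assoc]; exact List.prefix_append _ _
    rcases hQ v P hP with ⟨z1, hz1, z2, hz2, e2, hv⟩ | ⟨z1, hz1, hnb, hp⟩
    · have e3 : z1 ++ (z2 ++ R) = Y ++ R' := by
        rw [← e, ← List.append_assoc, ← e2, List.append_assoc]
      obtain ⟨rfl, -⟩ := hPF.eq hz1.1 hY.1 e3
      exact ⟨z2, hz2, e2, hv⟩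
    · exfalso
      obtain ⟨t, ht⟩ := hp.trans hpre
      obtain ⟨rfl, -⟩ := hPF.eq hz1 hY.1 ht
      exact hnb hY
  · -- compl2
    intro X hX X2 hX2 v
    have hlen := mem_len hX.1
    have htl : (X.take G.p0).length = G.p0 := by simp; omega
    obtain ⟨I, hIc, hI⟩ := eComp (X.take G.p0) v (fun k hk => by rw [htl]; exact hc k hk)
    obtain ⟨Sp, hSpc, hSp⟩ := spoil (T0 := T0) hc hsep hMp hgol hthin hW hz0 hX.1 hX2.1
    obtain ⟨k, hkI, hkn⟩ : ∃ k ∈ I, k ∉ Sp.image Prod.fst := by
      by_contra hcon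
      push Not at hcon
      have h1 := Finset.card_le_card (fun k hk => hcon k hk : I ⊆ Sp.image Prod.fst)
      have h2 : (Sp.image Prod.fst).card ≤ Sp.card := Finset.card_image_le
      omega
    obtain ⟨hkK, hlk, hrk⟩ := hI k hkI
    obtain ⟨b, hb⟩ := Option.isSome_iff_exists.1 hrk
    have hck := hc k hkK
    have ePk : (X.take G.p0).take (c k) = X.take (c k) := by
      rw [List.take_take, min_eq_left hck]
    have hPl : (X.take (c k)).length = c k := by simp; omega
    have eXk : X.take (c k) ++ X.drop (c k) = X := List.take_append_drop _ _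
    -- value
    have val2 : ∀ (v2 : S → ZMod 2) (P2 : List α), P2.length = c k → lamE k P2 = some v2 →
        T (P2 ++ X.drop (c k)) v2 = push (fun s => s * ((X.drop G.p0).map φ).prod) b +
          nuU (X.drop G.p0) := by
      intro v2 P2 hl2 hl
      rw [hTdef, Tm_eq]
      have e1 : (P2 ++ X.drop (c k)).take G.p0 = P2 ++ (X.take G.p0).drop (c k) := by
        rw [List.take_append, List.take_of_length_le (by omega), hl2, List.drop_take]
      have e2 : (P2 ++ X.drop (c k)).drop G.p0 = X.drop G.p0 := by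
        rw [List.drop_append, List.drop_of_length_le (by omega), List.nil_append, hl2,
          List.drop_drop]
        congr 1
        omega
      rw [e1, e2, ← eSound k hkK P2 _ v2 b hl2 hl hb]
    refine ⟨X.take (c k), X.drop (c k) ++ X2, ?_, ⟨k, hkK, hPl, by rw [← ePk]; exact hlk⟩, ?_⟩
    · rw [← List.append_assoc, eXk]
    · have hgoal : X.drop (c k) ++ X2 ∈ RQ2 (T X2 (T X v)) := by
        rintro v2 P2 ⟨k', hk', hl2, hlab⟩
        by_cases hkk : k' = k
        · subst hkk
          left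
          refine ⟨P2 ++ X.drop (c k'), ?_, X2, hX2.1, by simp, ?_⟩
          · rw [bd_same (G := G) (p := X.take (c k')) (p' := P2) (by rw [hl2, hPl])
              (by rw [hPl]; omega), eXk]
            exact hX
          · rw [val2 v2 P2 hl2 hlab]
            have h3 := val2 v (X.take (c k')) hPl (by rw [← ePk]; exact hlk)
            rw [eXk] at h3
            rw [h3]
        · right
          have hnot : (k, k') ∉ Sp := fun h => hkn (Finset.mem_image.2 ⟨(k, k'), h, rfl⟩)
          obtain ⟨z', hz', hp, hnb⟩ := hSp k k' hkK hk' (fun h => hkk h.symm) hnot P2 hl2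
          have e5 : (X ++ X2).drop (c k) = X.drop (c k) ++ X2 :=
            List.drop_append_of_le_length (by omega)
          rw [e5] at hp
          exact ⟨z', hz', hnb, hp⟩
      exact hgoal

end Crest.Agent.R320.AsmU_511
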