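import Crest.Agent.R320.Level2_297
import Crest.Agent.R320.ExactR_237

/-!
# Row 320: assembly of the two schemes on all words (helper842)

Right-looking walls, natural rule: the zone of an anchor is the text up to the wall which follows
the first wall at distance at least `z`.  One token system for both schemes.
-/

set_option autoImplicit false

namespace Crest.Agent.R320.AsmU_842

open Crest.RegLang Crest.Agent.R320.Hk_851 Crest.Agent.R320.Level_297

universe u

variable {α : Type u} {S V : Type}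

/-- right-looking wall rule with window `n` -/
structure Walls (α : Type u) where
  n : ℕ
  R : List α → Prop
  hn : 0 < n
  len : ∀ Q, R Q → n ≤ Q.length
  loc : ∀ Q, n ≤ Q.length → (R Q ↔ R (Q.take n))

namespace Walls

variable (W : Walls α)

/-- there is a wall at place `t` of `Q` -/
def At (Q : List α) (t : ℕ) : Prop := W.R (Q.drop t)

variable {W}

theorem At.le {Q : List α} {t : ℕ} (h : W.At Q t) : t + W.n ≤ Q.length := by
  have h1 := W.len _ h
  rw [List.length_drop] at h1
  have h2 := W.hn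
  omega

theorem At_append {Q s : List α} {t : ℕ} (h : t + W.n ≤ Q.length) :
    W.At (Q ++ s) t ↔ W.At Q t := by
  unfold At
  have e : (Q ++ s).drop t = Q.drop t ++ s := List.drop_append_of_le_length (by omega)
  rw [e, W.loc (Q.drop t ++ s) (by rw [List.length_append, List.length_drop]; omega),
    W.loc (Q.drop t) (by rw [List.length_drop]; omega),
    List.take_append_of_le_length (by rw [List.length_drop]; omega)]

theorem At_right {P Q : List α} {t : ℕ} : W.At (P ++ Q) (P.length + t) ↔ W.At Q t := by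
  unfold At
  have e : (P ++ Q).drop (P.length + t) = Q.drop t := by
    rw [← List.drop_drop, List.drop_left]
  rw [e]

theorem At_drop {Q : List α} {m t : ℕ} : W.At (Q.drop m) t ↔ W.At Q (m + t) := by
  unfold At
  rw [List.drop_drop]

variable (W)

/-- the first wall at a place at least `k` -/
def Fst (k : ℕ) (Q : List α) (t : ℕ) : Prop :=
  k ≤ t ∧ W.At Q t ∧ ∀ s, k ≤ s → s < t → ¬ W.At Q s

variable {W}

theorem Fst.uniq {k : ℕ} {Q : List α} {t t' : ℕ} (h : W.Fst k Q t) (h' : W.Fst k Q t') :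
    t = t' := by
  rcases lt_trichotomy t t' with h1 | h1 | h1
  · exact (h'.2.2 _ h.1 h1 h.2.1).elim
  · exact h1
  · exact (h.2.2 _ h'.1 h1 h'.2.1).elim

theorem Fst_append {k : ℕ} {Q s : List α} {t : ℕ} (h : t + W.n ≤ Q.length) :
    W.Fst k (Q ++ s) t ↔ W.Fst k Q t := by
  unfold Fst
  rw [At_append h]
  refine and_congr_right fun _ => and_congr_right fun _ => ?_
  refine forall_congr' fun s' => ?_
  refine imp_congr_right fun _ => imp_congr_right fun h2 => ?_
  rw [At_append (by omega)]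

theorem Fst_right {k : ℕ} {P Q : List α} {t : ℕ} (hk : P.length ≤ k) :
    W.Fst k (P ++ Q) (P.length + t) ↔ W.Fst (k - P.length) Q t := by
  unfold Fst
  rw [At_right]
  constructor
  · rintro ⟨h1, h2, h3⟩
    refine ⟨by omega, h2, fun s hs hst hA => h3 (P.length + s) (by omega) (by omega) ?_⟩
    rw [At_right]; exact hA
  · rintro ⟨h1, h2, h3⟩
    refine ⟨by omega, h2, fun s hs hst hA => ?_⟩
    obtain ⟨s', rfl⟩ : ∃ s', s = P.length + s' := ⟨s - P.length, by omega⟩
    rw [At_right] at hA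
    exact h3 s' (by omega) (by omega) hA

/-- the first wall exists -/
theorem exists_Fst {k : ℕ} {Q : List α} {t : ℕ} (h1 : k ≤ t) (h2 : W.At Q t) :
    ∃ t', t' ≤ t ∧ W.Fst k Q t' := by
  classical
  have hex : ∃ s, k ≤ s ∧ W.At Q s := ⟨t, h1, h2⟩
  refine ⟨Nat.find hex, Nat.find_min' hex ⟨h1, h2⟩, (Nat.find_spec hex).1, (Nat.find_spec hex).2,
    fun s hs hlt hA => Nat.find_min hex hlt ⟨hs, hA⟩⟩

end Walls

/-- all data -/
structure Par (α : Type u) (S V : Type) [Monoid S] [AddCommGroup V] where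
  W : Walls α
  f : α → S
  act : V → S → V
  z : ℕ
  p0 : ℕ
  N : ℕ
  K : ℕ
  Rr : ℕ
  c : ℕ → ℕ
  Bad : ℕ → Prop
  lam : List α → Option V
  rho : List α → Option V
  nu1 : List α → V
  lam2 : ℕ → List α → Option V
  rho2 : ℕ → List α → Option V
  nu2 : List α → V

namespace Par

variable [Monoid S] [AddCommGroup V] (p : Par α S V)

/-- product of a text -/
def pr (w : List α) : S := (w.map p.f).prod

theorem pr_append (a b : List α) : p.pr (a ++ b) = p.pr a * p.pr b := by simp [pr]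

/-- the zone at the start of `Q` -/
def Zn (Q : List α) (t1 t2 : ℕ) : Prop := p.W.Fst p.z Q t1 ∧ p.W.Fst (t1 + 1) Q t2

/-- zone map -/
def zm (Q : List α) (t1 t2 : ℕ) (v : V) : V :=
  p.act (p.act (p.act v (p.pr (Q.take p.p0)) + p.nu2 (Q.take p.p0))
    (p.pr ((Q.take t1).drop p.p0)) + p.nu1 ((Q.take t1).drop p.p0)) (p.pr ((Q.take t2).drop t1))

/-- bad zones -/
def bad (Q : List α) (t1 : ℕ) : Prop :=
  (∃ s, p.z ≤ s + p.N ∧ s < p.z ∧ p.W.At Q s) ∨ t1 < p.z + p.N ∨ p.Bad (t1 - p.p0)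

/-- bad zones, the anchor is `c` letters to the left -/
def badc (c : ℕ) (Q : List α) (t1 : ℕ) : Prop :=
  (∃ s, p.z ≤ s + c + p.N ∧ s + c < p.z ∧ p.W.At Q s) ∨ t1 + c < p.z + p.N ∨
    p.Bad (t1 + c - p.p0)

variable {p}

theorem bad_append {Q s : List α} {t1 : ℕ} (h : p.W.Fst p.z Q t1) :
    p.bad (Q ++ s) t1 ↔ p.bad Q t1 := by
  have hl := h.2.1.le
  have hz := h.1
  unfold bad
  refine or_congr ?_ Iff.rfl
  refine exists_congr fun s' => and_congr_right fun _ => and_congr_right fun h2 => ?_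
  rw [Walls.At_append (by omega)]

theorem bad_right {P Q : List α} {t1 : ℕ} (hP : P.length + p.N ≤ p.z) :
    p.bad (P ++ Q) (P.length + t1) ↔ p.badc P.length Q t1 := by
  unfold bad badc
  refine or_congr ?_ (or_congr ?_ ?_)
  · constructor
    · rintro ⟨s, h1, h2, h3⟩
      obtain ⟨s', rfl⟩ : ∃ s', s = P.length + s' := ⟨s - P.length, by omega⟩
      rw [Walls.At_right] at h3
      exact ⟨s', by omega, by omega, h3⟩
    · rintro ⟨s, h1, h2, h3⟩
      refine ⟨P.length + s, by omega, by omega, ?_⟩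
      rw [Walls.At_right]; exact h3
  · rw [Nat.add_comm]
  · rw [Nat.add_comm]

theorem badc_append {c : ℕ} {Q s : List α} {t1 : ℕ} (h : p.W.Fst (p.z - c) Q t1) :
    p.badc c (Q ++ s) t1 ↔ p.badc c Q t1 := by
  have hl := h.2.1.le
  have hz := h.1
  unfold badc
  refine or_congr ?_ Iff.rfl
  refine exists_congr fun s' => and_congr_right fun _ => and_congr_right fun h2 => ?_
  rw [Walls.At_append (by omega)]

theorem zm_append {Q s : List α} {t1 t2 : ℕ} (h1 : t1 ≤ Q.length) (h2 : t2 ≤ Q.length)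
    (h0 : p.p0 ≤ Q.length) : p.zm (Q ++ s) t1 t2 = p.zm Q t1 t2 := by
  funext v
  unfold zm
  rw [List.take_append_of_le_length h0, List.take_append_of_le_length h1,
    List.take_append_of_le_length h2]

variable (p)

open Classical in
/-- the next anchor and the zone map -/
noncomputable def nxf (Pd : List α → ℕ → Prop) (Q : List α) : Option (ℕ × (V → V)) :=
  if h : ∃ t : ℕ × ℕ, p.Zn Q t.1 t.2 ∧ Pd Q t.1 then
    some (h.choose.2, p.zm Q h.choose.1 h.choose.2) else none

variable {p}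

theorem Zn.uniq {Q : List α} {t1 t2 t1' t2' : ℕ} (h : p.Zn Q t1 t2) (h' : p.Zn Q t1' t2') :
    t1 = t1' ∧ t2 = t2' := by
  have e := h.1.uniq h'.1
  subst e
  exact ⟨rfl, h.2.uniq h'.2⟩

theorem nxf_iff {Pd : List α → ℕ → Prop} {Q : List α} {l : ℕ} {g : V → V} :
    p.nxf Pd Q = some (l, g) ↔ ∃ t1, p.Zn Q t1 l ∧ Pd Q t1 ∧ g = p.zm Q t1 l := by
  unfold nxf
  constructor
  · intro h
    by_cases hex : ∃ t : ℕ × ℕ, p.Zn Q t.1 t.2 ∧ Pd Q t.1
    · rw [dif_pos hex] at h
      simp only [Option.some.injEq, Prod.mk.injEq] at h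
      obtain ⟨h1, h2⟩ := h
      refine ⟨hex.choose.1, ?_, hex.choose_spec.2, ?_⟩
      · rw [← h1]; exact hex.choose_spec.1
      · rw [← h2, ← h1]
    · rw [dif_neg hex] at h
      cases h
  · rintro ⟨t1, h1, h2, rfl⟩
    have hex : ∃ t : ℕ × ℕ, p.Zn Q t.1 t.2 ∧ Pd Q t.1 := ⟨(t1, l), h1, h2⟩
    rw [dif_pos hex]
    obtain ⟨e1, e2⟩ := hex.choose_spec.1.uniq h1
    rw [e1, e2]

theorem nxf_none {Pd : List α → ℕ → Prop} {Q : List α} :
    p.nxf Pd Q = none ↔ ∀ t1 t2, p.Zn Q t1 t2 → ¬ Pd Q t1 := by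
  unfold nxf
  constructor
  · intro h t1 t2 h1 h2
    rw [dif_pos ⟨(t1, t2), h1, h2⟩] at h
    cases h
  · intro h
    rw [dif_neg]
    rintro ⟨t, h1, h2⟩
    exact h _ _ h1 h2

theorem Zn.lt {Q : List α} {t1 t2 : ℕ} (h : p.Zn Q t1 t2) :
    p.z ≤ t1 ∧ t1 < t2 ∧ t2 + p.W.n ≤ Q.length :=
  ⟨h.1.1, h.2.1, h.2.2.1.le⟩

theorem Zn_append {Q s : List α} {t1 t2 : ℕ} (h1 : t1 < t2) (h2 : t2 + p.W.n ≤ Q.length) :
    p.Zn (Q ++ s) t1 t2 ↔ p.Zn Q t1 t2 := by
  unfold Zn
  rw [Walls.Fst_append (by omega), Walls.Fst_append h2]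

/-- the rule of the chain restricted to zones with `Pd` -/
noncomputable def rule (p : Par α S V) (Pd : List α → ℕ → Prop)
    (hPd : ∀ Q s t1, p.W.Fst p.z Q t1 → (Pd (Q ++ s) t1 ↔ Pd Q t1)) (h0 : p.p0 ≤ p.z) :
    Rule α V p.W.n where
  nx := p.nxf Pd
  pos := by
    intro Q l g h
    obtain ⟨t1, h1, h2, rfl⟩ := nxf_iff.1 h
    have := h1.lt
    omega
  vis := by
    intro Q l g h
    obtain ⟨t1, h1, h2, rfl⟩ := nxf_iff.1 h
    exact h1.lt.2.2
  ext := by
    intro Q s l g h
    obtain ⟨t1, h1, h2, rfl⟩ := nxf_iff.1 h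
    have h3 := h1.lt
    have h4 := p.W.hn
    refine nxf_iff.2 ⟨t1, (Zn_append h3.2.1 h3.2.2).2 h1, (hPd _ _ _ h1.1).2 h2, ?_⟩
    rw [zm_append (by omega) (by omega) (by omega)]
  cut := by
    intro Q s l g h hl
    obtain ⟨t1, h1, h2, rfl⟩ := nxf_iff.1 h
    have h3 := h1.lt
    have h4 := p.W.hn
    have h5 := (Zn_append h3.2.1 hl).1 h1
    refine nxf_iff.2 ⟨t1, h5, (hPd _ _ _ h5.1).1 h2, ?_⟩
    rw [zm_append (by omega) (by omega) (by omega)]

/-- the hypotheses -/
structure Ok (p : Par α S V) : Prop where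
  lam_len : ∀ P v, p.lam P = some v → P.length ≤ p.N
  sound1 : ∀ P Q v r, p.lam P = some v → p.rho Q = some r →
    r = p.act v (p.pr (P ++ Q)) + p.nu1 (P ++ Q)
  compl1 : ∀ u, p.z ≤ u.length + p.p0 → ¬ p.Bad u.length → ∀ v, ∃ P Q, P ++ Q = u ∧
    p.lam P = some v ∧ (p.rho Q).isSome
  hz : p.p0 + p.N ≤ p.z
  hn : p.W.n ≤ p.p0
  hcn : ∀ k < p.K, p.W.n ≤ p.c k
  hcp : ∀ k < p.K, p.c k ≤ p.p0
  hsep : ∀ Q s t, s < t → p.W.At Q s → p.W.At Q t → s + p.p0 < t
  sound2 : ∀ k < p.K, ∀ P Q v b, P.length = p.c k → (P ++ Q).length = p.p0 →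
    p.lam2 k P = some v → p.rho2 k Q = some b → b = p.act v (p.pr (P ++ Q)) + p.nu2 (P ++ Q)
  compl2 : ∀ (X : List α) (v : V), X.length = p.p0 → ∃ I : Finset ℕ, p.Rr ≤ I.card ∧ ∀ k ∈ I, k < p.K ∧
    p.lam2 k (X.take (p.c k)) = some v ∧ (p.rho2 k (X.drop (p.c k))).isSome
  spoil : ∀ Q t1 t2, p.Zn Q t1 t2 → ∃ J : Finset ℕ, J.card < p.Rr ∧ ∀ k < p.K, k ∉ J →
    ∀ k' < p.K, k' ≠ k → ∀ t', p.W.Fst (p.z - p.c k') (Q.drop (p.c k)) t' →
      ¬ p.badc (p.c k') (Q.drop (p.c k)) t'

/-- the rule of the chain -/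
noncomputable def r (p : Par α S V) (h : p.Ok) : Rule α V p.W.n :=
  p.rule (fun _ _ => True) (fun _ _ _ _ => Iff.rfl) (by have := h.hz; omega)

/-- the rule of the bad zones -/
noncomputable def b1 (p : Par α S V) (h : p.Ok) : Rule α V p.W.n :=
  p.rule p.bad (fun _ _ _ h => bad_append h) (by have := h.hz; omega)

/-- **scheme 1** -/
noncomputable def S1 (p : Par α S V) (h : p.Ok) : Scheme (p.r h) (p.b1 h) where
  LL P v := ∃ X y, P = X ++ y ∧ X.length = p.p0 ∧ p.lam y = some (p.act v (p.pr X) + p.nu2 X)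
  RL Q d c := ∃ t1, p.W.Fst (p.z - p.p0 - p.N) Q t1 ∧ p.z ≤ p.p0 + t1 ∧ p.W.Fst (t1 + 1) Q d ∧
    ∃ c1, p.rho (Q.take t1) = some c1 ∧ c = p.act c1 (p.pr ((Q.take d).drop t1))
  Dead := ({_w | False} : Set (List α))
  sub := by
    rintro Q ⟨l, g⟩ hx
    obtain ⟨t1, h1, h2, h3⟩ := (nxf_iff (p := p) (Pd := p.bad)).1 hx
    exact (nxf_iff (p := p) (Pd := fun _ _ => True)).2 ⟨t1, h1, trivial, h3⟩
  LLn := by
    rintro P v ⟨X, y, rfl, hX, _⟩
    have := h.hn
    rw [List.length_append]
    omega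
  RLpos := by
    rintro Q d c ⟨t1, h1, _⟩
    have := h1.2.1.le
    have := p.W.hn
    omega
  RLext := by
    rintro Q s d c ⟨t1, h1, h2, h3, c1, h4, h5⟩
    have l1 := h1.2.1.le
    have l2 := h3.2.1.le
    have hn := p.W.hn
    refine ⟨t1, (Walls.Fst_append l1).2 h1, h2, (Walls.Fst_append l2).2 h3, c1, ?_, ?_⟩
    · rw [List.take_append_of_le_length (by omega)]; exact h4
    · rw [List.take_append_of_le_length (by omega)]; exact h5
  RLcut := by
    rintro Q s d c ⟨t1, h1, h2, h3, c1, h4, h5⟩ hd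
    have l2 := h3.1
    have hn := p.W.hn
    refine ⟨t1, (Walls.Fst_append (by omega)).1 h1, h2, (Walls.Fst_append hd).1 h3, c1, ?_, ?_⟩
    · rw [List.take_append_of_le_length (by omega)] at h4; exact h4
    · rw [List.take_append_of_le_length (by omega)] at h5; exact h5
  Dext := fun _ _ h => h
  Dnone := fun _ h => h.elim
  exact := by
    rintro P v Q d c ⟨X, y, rfl, hX, hy⟩ ⟨t1, h1, h2, h3, c1, h4, h5⟩ _
    have hz := h.hz
    have hyl := h.lam_len _ _ hy
    have l1 := h1.2.1.le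
    have l2 := h3.2.1.le
    have l3 := h3.1
    have hn := p.W.hn
    set P := X ++ y with hP
    have hPl : P.length = p.p0 + y.length := by rw [hP, List.length_append, hX]
    have F1 : p.W.Fst p.z (P ++ Q) (P.length + t1) := by
      refine (Walls.Fst_right (by omega)).2 ⟨by omega, h1.2.1, fun s hs => h1.2.2 s (by omega)⟩
    have F2 : p.W.Fst (P.length + t1 + 1) (P ++ Q) (P.length + d) := by
      refine (Walls.Fst_right (by omega)).2 ?_
      have e : P.length + t1 + 1 - P.length = t1 + 1 := by omega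
      rw [e]; exact h3
    refine ⟨p.zm (P ++ Q) (P.length + t1) (P.length + d), (nxf_iff (p := p) (Pd := fun _ _ => True)).2
      ⟨_, ⟨F1, F2⟩, trivial, rfl⟩, ?_⟩
    unfold zm
    have e1 : (P ++ Q).take p.p0 = X := by
      rw [hP, List.append_assoc, List.take_append_of_le_length (by omega), ← hX, List.take_length]
    have e2 : ((P ++ Q).take (P.length + t1)).drop p.p0 = y ++ Q.take t1 := by
      rw [List.take_length_add_append, hP, List.append_assoc, ← hX, List.drop_left]
    have e3 : ((P ++ Q).take (P.length + d)).drop (P.length + t1) = (Q.take d).drop t1 := by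
      rw [List.take_length_add_append, ← List.drop_drop, List.drop_left]
    rw [e1, e2, e3, h5, h.sound1 _ _ _ _ hy h4]
  complete := by
    intro Q l g hg
    obtain ⟨t1, hZ, _, rfl⟩ := (nxf_iff (p := p) (Pd := fun _ _ => True)).1 hg
    by_cases hb : p.bad Q t1
    · exact Or.inl ((nxf_iff (p := p) (Pd := p.bad)).2 ⟨t1, hZ, hb, rfl⟩)
    right
    intro v
    have hz := h.hz
    have hlt := hZ.lt
    have hn := p.W.hn
    have hb1 : ∀ s, p.z ≤ s + p.N → s < p.z → ¬ p.W.At Q s := fun s h1 h2 h3 =>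
      hb (Or.inl ⟨s, h1, h2, h3⟩)
    have hb2 : p.z + p.N ≤ t1 := by
      by_contra hc
      exact hb (Or.inr (Or.inl (by omega)))
    have hb3 : ¬ p.Bad (t1 - p.p0) := fun hc => hb (Or.inr (Or.inr hc))
    have hYl : ((Q.take t1).drop p.p0).length = t1 - p.p0 := by
      rw [List.length_drop, List.length_take]; omega
    obtain ⟨y, q, hyq, hy, hq⟩ := h.compl1 ((Q.take t1).drop p.p0) (by omega)
      (by rw [hYl]; exact hb3) (p.act v (p.pr (Q.take p.p0)) + p.nu2 (Q.take p.p0))
    have hyl := h.lam_len _ _ hy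
    obtain ⟨c1, hc1⟩ := Option.isSome_iff_exists.1 hq
    have hyql : y.length + q.length = t1 - p.p0 := by
      rw [← hYl, ← hyq, List.length_append]
    -- the cut
    have hQ : Q = (Q.take p.p0 ++ y) ++ (q ++ Q.drop t1) := by
      have e1 : Q.take t1 = Q.take p.p0 ++ (y ++ q) := by
        rw [hyq]
        conv_lhs => rw [← List.take_append_drop p.p0 (Q.take t1)]
        rw [List.take_take, Nat.min_eq_left (by omega)]
      conv_lhs => rw [← List.take_append_drop t1 Q, e1]
      simp [List.append_assoc]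
    have hPl : (Q.take p.p0 ++ y).length = p.p0 + y.length := by
      rw [List.length_append, List.length_take]; omega
    have hQd : q ++ Q.drop t1 = Q.drop (p.p0 + y.length) := by
      conv_rhs => rw [hQ, ← hPl, List.drop_left]
    refine ⟨Q.take p.p0 ++ y, q ++ Q.drop t1, l - (p.p0 + y.length), p.act c1 (p.pr
      (((q ++ Q.drop t1).take (l - (p.p0 + y.length))).drop q.length)), hQ,
      ⟨Q.take p.p0, y, rfl, by rw [List.length_take]; omega, hy⟩, q.length, ?_, by omega, ?_,
      c1, ?_, rfl⟩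
    · rw [hQd]
      have hA : p.W.At Q (p.p0 + y.length + q.length) := by
        have e : p.p0 + y.length + q.length = t1 := by omega
        rw [e]; exact hZ.1.2.1
      refine ⟨by omega, Walls.At_drop.2 hA, fun s hs hst hAs => ?_⟩
      have hAs' := Walls.At_drop.1 hAs
      by_cases hc : p.p0 + y.length + s < p.z
      · exact hb1 _ (by omega) hc hAs'
      · exact hZ.1.2.2 _ (by omega) (by omega) hAs'
    · rw [hQd]
      have hA : p.W.At Q (p.p0 + y.length + (l - (p.p0 + y.length))) := by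
        have e : p.p0 + y.length + (l - (p.p0 + y.length)) = l := by omega
        rw [e]; exact hZ.2.2.1
      refine ⟨by omega, Walls.At_drop.2 hA, fun s hs hst hAs => ?_⟩
      have hAs' := Walls.At_drop.1 hAs
      exact hZ.2.2.2 _ (by omega) (by omega) hAs'
    · rw [List.take_left']
      · exact hc1
      · rfl

/-- **scheme 2** -/
noncomputable def S2 (p : Par α S V) (h : p.Ok) : Scheme (p.b1 h) (emptyRule α V p.W.n) where
  LL P v := ∃ k < p.K, P.length = p.c k ∧ p.lam2 k P = some v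
  RL Q d c := ∃ k < p.K, ∃ t1, p.W.Fst (p.z - p.c k) Q t1 ∧ p.badc (p.c k) Q t1 ∧
    p.W.Fst (t1 + 1) Q d ∧ (∀ k' < p.K, k' ≠ k → ∃ t', t' ≤ d ∧ p.W.Fst (p.z - p.c k') Q t' ∧
      ¬ p.badc (p.c k') Q t') ∧
    ∃ b0, p.rho2 k (Q.take (p.p0 - p.c k)) = some b0 ∧
      c = p.act (p.act b0 (p.pr ((Q.take t1).drop (p.p0 - p.c k))) +
        p.nu1 ((Q.take t1).drop (p.p0 - p.c k))) (p.pr ((Q.take d).drop t1))
  Dead := {Q | ∃ t1, p.W.Fst p.z Q t1 ∧ ¬ p.bad Q t1}
  sub := by
    intro Q x hx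
    cases hx
  LLn := by
    rintro P v ⟨k, hk, hP, _⟩
    rw [hP]
    exact h.hcn k hk
  RLpos := by
    rintro Q d c ⟨k, hk, t1, h1, _⟩
    have := h1.2.1.le
    have := p.W.hn
    omega
  RLext := by
    rintro Q s d c ⟨k, hk, t1, h1, h2, h3, h4, b0, h5, h6⟩
    have l1 := h1.2.1.le
    have l0 := h1.1
    have l2 := h3.2.1.le
    have hn := p.W.hn
    have hz := h.hz
    refine ⟨k, hk, t1, (Walls.Fst_append l1).2 h1, (badc_append h1).2 h2,
      (Walls.Fst_append l2).2 h3, ?_, b0, ?_, ?_⟩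
    · intro k' hk' hne
      obtain ⟨t', h7, h8, h9⟩ := h4 k' hk' hne
      exact ⟨t', h7, (Walls.Fst_append h8.2.1.le).2 h8, fun hc => h9 ((badc_append h8).1 hc)⟩
    · rw [List.take_append_of_le_length (by omega)]; exact h5
    · rw [List.take_append_of_le_length (by omega), List.take_append_of_le_length (by omega)]
      exact h6
  RLcut := by
    rintro Q s d c ⟨k, hk, t1, h1, h2, h3, h4, b0, h5, h6⟩ hd
    have l0 := h1.1
    have l2 := h3.1
    have hn := p.W.hn
    have hz := h.hz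
    have h1' := (Walls.Fst_append (by omega)).1 h1
    refine ⟨k, hk, t1, h1', (badc_append h1').1 h2, (Walls.Fst_append hd).1 h3, ?_, b0, ?_, ?_⟩
    · intro k' hk' hne
      obtain ⟨t', h7, h8, h9⟩ := h4 k' hk' hne
      have h8' := (Walls.Fst_append (by omega)).1 h8
      exact ⟨t', h7, h8', fun hc => h9 ((badc_append h8').2 hc)⟩
    · rw [List.take_append_of_le_length (by omega)] at h5; exact h5
    · rw [List.take_append_of_le_length (by omega), List.take_append_of_le_length (by omega)] at h6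
      exact h6
  Dext := by
    rintro Q s ⟨t1, h1, h2⟩
    exact ⟨t1, (Walls.Fst_append h1.2.1.le).2 h1, fun hc => h2 ((bad_append h1).1 hc)⟩
  Dnone := by
    rintro Q ⟨t1, h1, h2⟩
    refine (nxf_none (p := p) (Pd := p.bad)).2 fun t1' t2 h3 h4 => ?_
    rw [← h1.uniq h3.1] at h4
    exact h2 h4
  exact := by
    rintro P v Q d c ⟨k', hk', hP, hlam⟩ ⟨k, hk, t1, h1, h2, h3, h4, b0, h5, h6⟩ hnd
    have hz := h.hz
    have hcp := h.hcp k' hk'
    by_cases hkk : k' = k
    · subst hkk
      have l1 := h1.2.1.le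
      have l0 := h1.1
      have l2 := h3.2.1.le
      have l3 := h3.1
      have hn := p.W.hn
      have F1 : p.W.Fst p.z (P ++ Q) (P.length + t1) := by
        refine (Walls.Fst_right (by omega)).2 ?_
        rw [hP]; exact h1
      have F2 : p.W.Fst (P.length + t1 + 1) (P ++ Q) (P.length + d) := by
        refine (Walls.Fst_right (by omega)).2 ?_
        have e : P.length + t1 + 1 - P.length = t1 + 1 := by omega
        rw [e]; exact h3
      have hb : p.bad (P ++ Q) (P.length + t1) := by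
        refine (bad_right (by omega)).2 ?_
        rw [hP]; exact h2
      refine ⟨p.zm (P ++ Q) (P.length + t1) (P.length + d), (nxf_iff (p := p) (Pd := p.bad)).2
        ⟨_, ⟨F1, F2⟩, hb, rfl⟩, ?_⟩
      unfold zm
      have e1 : (P ++ Q).take p.p0 = P ++ Q.take (p.p0 - p.c k') := by
        have e : p.p0 = P.length + (p.p0 - p.c k') := by omega
        conv_lhs => rw [e]
        rw [List.take_length_add_append]
      have e2 : ((P ++ Q).take (P.length + t1)).drop p.p0 = (Q.take t1).drop (p.p0 - p.c k') := by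
        rw [List.take_length_add_append]
        have e : p.p0 = P.length + (p.p0 - p.c k') := by omega
        conv_lhs => rw [e]
        rw [← List.drop_drop, List.drop_left]
      have e3 : ((P ++ Q).take (P.length + d)).drop (P.length + t1) = (Q.take d).drop t1 := by
        rw [List.take_length_add_append, ← List.drop_drop, List.drop_left]
      have hs := h.sound2 k' hk' P (Q.take (p.p0 - p.c k')) v b0 hP
        (by rw [List.length_append, List.length_take]; omega) hlam h5
      rw [e1, e2, e3, h6, hs]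
    · exfalso
      obtain ⟨t', _, h8, h9⟩ := h4 k' hk' hkk
      refine hnd ⟨P.length + t', ?_, ?_⟩
      · refine (Walls.Fst_right (by omega)).2 ?_
        rw [hP]; exact h8
      · intro hc
        refine h9 ?_
        have := (bad_right (p := p) (by omega)).1 hc
        rw [hP] at this
        exact this
  complete := by
    intro Q l g hg
    obtain ⟨t1, hZ, hb, rfl⟩ := (nxf_iff (p := p) (Pd := p.bad)).1 hg
    right
    intro v
    have hz := h.hz
    have hlt := hZ.lt
    have hn := p.W.hn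
    have hXl : (Q.take p.p0).length = p.p0 := by rw [List.length_take]; omega
    obtain ⟨I, hI, hI'⟩ := h.compl2 (Q.take p.p0) v hXl
    obtain ⟨J, hJ, hJ'⟩ := h.spoil Q t1 l hZ
    obtain ⟨k, hkI, hkJ⟩ : ∃ k ∈ I, k ∉ J := by
      by_contra hc
      push Not at hc
      have := Finset.card_le_card (show I ⊆ J from hc)
      omega
    obtain ⟨hk, hl1, hr1⟩ := hI' k hkI
    have hsp := hJ' k hk hkJ
    have hcp := h.hcp k hk
    obtain ⟨b0, hb0⟩ := Option.isSome_iff_exists.1 hr1
    have hP : (Q.take (p.c k)).length = p.c k := by rw [List.length_take]; omega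
    have hQe : Q = Q.take (p.c k) ++ Q.drop (p.c k) := (List.take_append_drop _ _).symm
    have hF1 : p.W.Fst (p.z - p.c k) (Q.drop (p.c k)) (t1 - p.c k) := by
      have h1 : p.W.Fst p.z (Q.take (p.c k) ++ Q.drop (p.c k))
          ((Q.take (p.c k)).length + (t1 - p.c k)) := by
        have e : (Q.take (p.c k)).length + (t1 - p.c k) = t1 := by omega
        rw [← hQe, e]; exact hZ.1
      have h2 := (Walls.Fst_right (by omega)).1 h1
      rw [hP] at h2
      exact h2
    have hF2 : p.W.Fst (t1 - p.c k + 1) (Q.drop (p.c k)) (l - p.c k) := by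
      have h1 : p.W.Fst (t1 + 1) (Q.take (p.c k) ++ Q.drop (p.c k))
          ((Q.take (p.c k)).length + (l - p.c k)) := by
        have e : (Q.take (p.c k)).length + (l - p.c k) = l := by omega
        rw [← hQe, e]; exact hZ.2
      have h2 := (Walls.Fst_right (by omega)).1 h1
      rw [hP] at h2
      have e : t1 + 1 - p.c k = t1 - p.c k + 1 := by omega
      rw [e] at h2
      exact h2
    have hbc : p.badc (p.c k) (Q.drop (p.c k)) (t1 - p.c k) := by
      have h1 : p.bad (Q.take (p.c k) ++ Q.drop (p.c k))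
          ((Q.take (p.c k)).length + (t1 - p.c k)) := by
        have e : (Q.take (p.c k)).length + (t1 - p.c k) = t1 := by omega
        rw [← hQe, e]; exact hb
      have h2 := (bad_right (by omega)).1 h1
      rw [hP] at h2
      exact h2
    have hl : p.c k + (l - p.c k) = l := by omega
    have hAl : p.W.At (Q.drop (p.c k)) (l - p.c k) := hF2.2.1
    have hAt : p.W.At (Q.drop (p.c k)) (t1 - p.c k) := hF1.2.1
    have hgap := h.hsep _ _ _ (by omega) hAt hAl
    refine ⟨Q.take (p.c k), Q.drop (p.c k), l - p.c k, _, hQe, ⟨k, hk, hP, ?_⟩,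
      ⟨k, hk, t1 - p.c k, hF1, hbc, hF2, ?_, b0, ?_, rfl⟩⟩
    · rw [List.take_take, Nat.min_eq_left hcp] at hl1
      exact hl1
    · intro k' hk' hne
      have hcp' := h.hcp k' hk'
      obtain ⟨t', ht', hF'⟩ := Walls.exists_Fst (W := p.W) (k := p.z - p.c k')
        (Q := Q.drop (p.c k)) (t := l - p.c k) (by omega) hAl
      exact ⟨t', ht', hF', hsp k' hk' hne t' hF'⟩
    · rw [← hb0]
      congr 1
      rw [List.drop_take]

end Par

end Crest.Agent.R320.AsmU_842
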