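import Crest.Agent.R320.Block_467
import Crest.Agent.R320.Exact_808

/-!
# Row 320: assembly of team U (helper845)

`promise_step` : the promise scheme in 467's block calculus, right words reach over one more block.
-/

set_option autoImplicit false

namespace Crest.Agent.R320.AsmU_845

open Crest.RegLang Crest.Agent.R320.Hk_851 Crest.Agent.R320.Blk467

universe u

variable {α : Type u} {k : ℕ}

theorem str_append {C : Set (List α)} {x y : List α} (hx : x ∈ Str C) (hy : y ∈ Str C) :
    x ++ y ∈ Str C := by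
  obtain ⟨l, h1, rfl⟩ := hx
  obtain ⟨m, g1, rfl⟩ := hy
  refine ⟨l ++ m, ?_, by simp⟩
  intro X hX
  rcases List.mem_append.1 hX with h | h
  · exact h1 X h
  · exact g1 X h

theorem str_of_lg {V : Type*} {C : Set (List α)} {T : V → List α → V} {v v' : V} {w : List α}
    (h : w ∈ Lg C T v v') : w ∈ Str C := by
  obtain ⟨l, h1, h2, _⟩ := h
  exact ⟨l, h1, h2⟩

theorem cancel_aux {C : Set (List α)} (hC : PCode C) : ∀ (l m : List (List α)) (y : List α),
    (∀ X ∈ l, X ∈ C) → (∀ X ∈ m, X ∈ C) → l.flatten ++ y = m.flatten → y ∈ Str C := by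
  intro l
  induction l with
  | nil =>
    intro m y _ hm e
    exact ⟨m, hm, by simpa using e.symm⟩
  | cons X l ih =>
    intro m y hl hm e
    have hX := hl X (by simp)
    cases m with
    | nil =>
      exfalso
      have h1 : X = [] := by
        have : X ++ (l.flatten ++ y) = [] := by simpa [List.append_assoc] using e
        exact (List.append_eq_nil_iff.1 this).1
      exact hC.1 (h1 ▸ hX)
    | cons Y m =>
      have hY := hm Y (by simp)
      have e1 : X ++ (l.flatten ++ y) = Y ++ m.flatten := by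
        simpa [List.append_assoc] using e
      have hXY : X = Y := by
        rcases List.prefix_or_prefix_of_prefix (l₁ := X) (l₂ := Y)
          (l₃ := X ++ (l.flatten ++ y))
          (List.prefix_append _ _) (e1 ▸ List.prefix_append _ _) with h1 | h1
        · exact hC.2 X hX Y hY h1
        · exact (hC.2 Y hY X hX h1).symm
      subst hXY
      exact ih m y (fun Z hZ => hl Z (by simp [hZ])) (fun Z hZ => hm Z (by simp [hZ]))
        (List.append_cancel_left e1)

theorem str_cancel {C : Set (List α)} (hC : PCode C) {x y : List α} (hx : x ∈ Str C)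
    (hxy : x ++ y ∈ Str C) : y ∈ Str C := by
  obtain ⟨l, hl, rfl⟩ := hx
  obtain ⟨m, hm, e⟩ := hxy
  exact cancel_aux hC l m y hl hm e.symm

/-- at most one block -/
def One {V : Type*} (B : Set (List α)) (T : V → List α → V) (v v' : V) : Language α :=
  {w | (w = [] ∧ v = v') ∨ (w ∈ B ∧ T v w = v')}

theorem One.lg {V : Type*} {B : Set (List α)} {T : V → List α → V} {v v' : V} {w : List α}
    (h : w ∈ One B T v v') : w ∈ Lg B T v v' := by
  rcases h with ⟨rfl, rfl⟩ | ⟨h1, h2⟩
  · exact Lg.nil _ _ _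
  · exact h2 ▸ Lg.single h1 v

/-- **promise step with one block of look-ahead** -/
theorem promise_step {V : Type*} [Finite V] (B : Set (List α)) (hB : PCode B)
    (T : V → List α → V) (LP RQ : V → Language α)
    (sound : ∀ v v' P Q R, P ∈ LP v → Q ∈ RQ v' → P ++ Q ++ R ∈ Str B → P ++ Q ∈ Lg B T v v')
    (compl : ∀ X ∈ B, ∀ X' ∈ B, ∀ v, ∃ P Q, P ++ Q = X ∧ P ∈ LP v ∧
      Q ++ X' ∈ RQ (T (T v X) X'))
    (hBk : HL k (B : Language α)) (hT : ∀ v v', HL k ({X | X ∈ B ∧ T v X = v'} : Language α))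
    (hP : ∀ v, HL k (LP v)) (hQ : ∀ v, HL k (RQ v)) (v v' : V) :
    HL (k + 1) (Lg B T v v') := by
  classical
  have hOne : ∀ v v', HL k (One B T v v') := by
    intro v v'
    by_cases h : v = v'
    · refine ((HL.one (k := k)).add (hT v v')).congr fun w => ?_
      constructor
      · rintro (⟨h1, _⟩ | ⟨h1, h2⟩)
        · exact Or.inl h1
        · exact Or.inr ⟨h1, h2⟩
      · rintro (h1 | ⟨h1, h2⟩)
        · exact Or.inl ⟨h1, h⟩
        · exact Or.inr ⟨h1, h2⟩
    · refine (hT v v').congr fun w => ?_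
      constructor
      · rintro (⟨_, h1⟩ | ⟨h1, h2⟩)
        · exact absurd h1 h
        · exact ⟨h1, h2⟩
      · rintro ⟨h1, h2⟩
        exact Or.inr ⟨h1, h2⟩
  let K : Language α := {x | ∃ u : V, x ∈ RQ u * LP u}
  have hK : HL (k + 1) (KStar.kstar K) :=
    (HL.iUnion (k := k) (ι := V) (L := fun u => RQ u * LP u) (fun u => (hQ u).mul (hP u))).star
  let E : Language α := {x | ∃ a : V, x ∈ RQ a * One B T a v'}
  have hE : HL k E :=
    HL.iUnion (k := k) (ι := V) (L := fun a => RQ a * One B T a v')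
      (fun a => (hQ a).mul (hOne a v'))
  have hS : HL (k + 1) (Str B : Language α) := by
    have h0 : HL (k + 1) (KStar.kstar (show Language α from B)) := hBk.star
    refine h0.congr fun w => ?_
    constructor
    · rintro ⟨l, hl, rfl⟩; exact Language.mem_kstar.2 ⟨l, rfl, hl⟩
    · intro h
      obtain ⟨l, rfl, hl⟩ := Language.mem_kstar.1 h
      exact ⟨l, hl, rfl⟩
  have key := hS.inf ((HL.mono (Nat.le_succ k) (hOne v v')).add
    (((HL.mono (Nat.le_succ k) (hP v)).mul hK).mul (HL.mono (Nat.le_succ k) hE)))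
  refine key.congr fun w => ?_
  constructor
  · intro hw
    refine ⟨str_of_lg hw, ?_⟩
    obtain ⟨l, hl, rfl, hf⟩ := hw
    have main : ∀ (n : ℕ) (l : List (List α)) (v : V), l.length ≤ n → (∀ X ∈ l, X ∈ B) →
        l.foldl T v = v' → l.flatten ∈ One B T v v' ∨
        ∃ P ∈ LP v, ∃ ks : List (List α), (∀ x ∈ ks, x ∈ K) ∧ ∃ e ∈ E,
          P ++ ks.flatten ++ e = l.flatten := by
      intro n
      induction n with
      | zero =>
        intro l v hn _ hf
        have : l = [] := List.length_eq_zero_iff.1 (Nat.le_zero.1 hn)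
        subst this
        exact Or.inl (Or.inl ⟨rfl, hf⟩)
      | succ n ih =>
        intro l v hn hC hf
        match l, hn, hC, hf with
        | [], _, _, hf => exact Or.inl (Or.inl ⟨rfl, hf⟩)
        | [X], _, hC, hf =>
          left; right
          exact ⟨by simpa using hC X (by simp), by simpa using hf⟩
        | X :: X' :: l, hn, hC, hf =>
          right
          obtain ⟨P, Q, e, hP', hQ'⟩ := compl X (hC X (by simp)) X' (hC X' (by simp)) v
          rcases ih l (T (T v X) X') (by simp at hn; omega)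
              (fun Y hY => hC Y (by simp [hY])) hf with h | ⟨P1, hP1, ks, hks, e1, he1, h⟩
          · refine ⟨P, hP', [], by simp, Q ++ X' ++ l.flatten, ⟨_, Language.mem_mul.2
              ⟨Q ++ X', hQ', l.flatten, h, rfl⟩⟩, ?_⟩
            simp [← e]
          · refine ⟨P, hP', (Q ++ X' ++ P1) :: ks, ?_, e1, he1, ?_⟩
            · intro x hx
              rcases List.mem_cons.1 hx with rfl | hx
              · exact ⟨_, Language.mem_mul.2 ⟨Q ++ X', hQ', P1, hP1, rfl⟩⟩
              · exact hks x hx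
            · have : (X :: X' :: l).flatten = P ++ Q ++ X' ++ (P1 ++ ks.flatten ++ e1) := by
                rw [h, e]; simp
              rw [this]
              simp [List.append_assoc]
    rcases main l.length l v le_rfl hl hf with h | ⟨P, hP', ks, hks, e, he, h⟩
    · exact Or.inl h
    · right
      exact mem_mul3.2 ⟨P, hP', ks.flatten, Language.mem_kstar.2 ⟨ks, rfl, hks⟩, e, he, h⟩
  · rintro ⟨hs, h | h⟩
    · exact One.lg h
    · obtain ⟨P, hP', y, hy, e, he, rfl⟩ := mem_mul3.1 h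
      obtain ⟨ks, rfl, hks⟩ := Language.mem_kstar.1 hy
      obtain ⟨a, he⟩ := he
      obtain ⟨Q, hQ', s, hs', rfl⟩ := Language.mem_mul.1 he
      have main : ∀ (ks : List (List α)) (u : V) (P : List α), (∀ y ∈ ks, y ∈ K) → P ∈ LP u →
          P ++ ks.flatten ++ (Q ++ s) ∈ Str B → P ++ ks.flatten ++ (Q ++ s) ∈ Lg B T u v' := by
        intro ks
        induction ks with
        | nil =>
          intro u P _ hP' hs
          have e1 : P ++ ([] : List (List α)).flatten ++ (Q ++ s) = P ++ Q ++ s := by simp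
          rw [e1] at hs ⊢
          exact Lg.append (sound u a P Q s hP' hQ' hs) (One.lg hs')
        | cons y ks ih =>
          intro u P hks hP' hs
          obtain ⟨u1, hy⟩ := hks y (by simp)
          obtain ⟨Q1, hQ1, P1, hP1, rfl⟩ := Language.mem_mul.1 hy
          have e1 : P ++ ((Q1 ++ P1) :: ks).flatten ++ (Q ++ s) =
              P ++ Q1 ++ (P1 ++ ks.flatten ++ (Q ++ s)) := by simp
          rw [e1] at hs ⊢
          have h1 := sound u u1 P Q1 _ hP' hQ1 hs
          have h2 := str_cancel hB (str_of_lg h1) hs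
          exact Lg.append h1 (ih u1 P1 (fun z hz => hks z (by simp [hz])) hP1 h2)
      exact main ks v P hks hP' hs

/-! ### Geometry of the block code -/

section Geo

variable (Wo : List α → Prop) (n Mp D T0 N p0 : ℕ) (Bad : ℕ → Prop)

/-- threshold of the place `t` -/
def th (t : ℕ) : ℕ := T0 + (t % Mp) * D

/-- blocks -/
def ZZ : Set (List α) :=
  {z | Wo z ∧ th Mp D T0 z.length ≤ z.length ∧
    ∀ t < z.length, Wo (z.take t) → ¬ th Mp D T0 t ≤ t}

def near (t : ℕ) : Prop := t ≤ th Mp D T0 t + N ∧ th Mp D T0 t ≤ t + N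

/-- bad blocks -/
def Bd : Set (List α) :=
  {z | z ∈ ZZ Wo Mp D T0 ∧ ((∃ t ≤ z.length, Wo (z.take t) ∧ near Mp D T0 N t) ∨
    Bad (z.length - p0))}

def Zc (c : ℕ) (Q : List α) : Prop :=
  n ≤ Q.length ∧ Wo Q ∧ th Mp D T0 (c + Q.length) ≤ c + Q.length ∧
    ∀ j, n ≤ j → j < Q.length → Wo (Q.take j) → ¬ th Mp D T0 (c + j) ≤ c + j

def nearc (c : ℕ) (Q : List α) : Prop :=
  ∃ j, n ≤ j ∧ j ≤ Q.length ∧ Wo (Q.take j) ∧ near Mp D T0 N (c + j)

variable {Wo n Mp D T0 N p0 Bad}

theorem T0_le_th (t : ℕ) : T0 ≤ th Mp D T0 t := Nat.le_add_right _ _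

theorem th_le (hMp : 0 < Mp) (t : ℕ) : th Mp D T0 t ≤ T0 + Mp * D := by
  unfold th
  have := Nat.mod_lt t hMp
  gcongr

theorem pcode_ZZ (hT0 : 0 < T0) : PCode (ZZ Wo Mp D T0) := by
  refine ⟨?_, ?_⟩
  · rintro ⟨_, h, _⟩
    have := T0_le_th (Mp := Mp) (D := D) (T0 := T0) ([] : List α).length
    simp at h
    have h2 := T0_le_th (Mp := Mp) (D := D) (T0 := T0) 0
    omega
  · rintro X ⟨h1, h2, h3⟩ Y ⟨g1, g2, g3⟩ ⟨R, rfl⟩
    by_contra hne
    have hR : R ≠ [] := by rintro rfl; simp at hne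
    have hl := List.length_pos_iff.2 hR
    refine g3 X.length (by simp; omega) ?_ h2
    simpa using h1

theorem wo_app (hloc : ∀ P Q : List α, n ≤ Q.length → (Wo (P ++ Q) ↔ Wo Q)) {P Q : List α}
    {j : ℕ} (hj : n ≤ j) (hjQ : j ≤ Q.length) :
    Wo ((P ++ Q).take (P.length + j)) ↔ Wo (Q.take j) := by
  rw [List.take_length_add_append]
  exact hloc P (Q.take j) (by simp; omega)

theorem zc_iff (hloc : ∀ P Q : List α, n ≤ Q.length → (Wo (P ++ Q) ↔ Wo Q)) {P Q : List α}
    (h : P.length + n ≤ T0) : P ++ Q ∈ ZZ Wo Mp D T0 ↔ Zc Wo n Mp D T0 P.length Q := by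
  constructor
  · rintro ⟨h1, h2, h3⟩
    have h4 := T0_le_th (Mp := Mp) (D := D) (T0 := T0) (P ++ Q).length
    rw [List.length_append] at h2 h4
    have hn : n ≤ Q.length := by omega
    refine ⟨hn, (hloc P Q hn).1 h1, h2, ?_⟩
    intro j hj hjQ hw
    refine h3 _ (by rw [List.length_append]; omega) ?_
    exact (wo_app hloc hj hjQ.le).2 hw
  · rintro ⟨hn, h1, h2, h3⟩
    refine ⟨(hloc P Q hn).2 h1, by rw [List.length_append]; exact h2, ?_⟩
    intro t ht hw hq
    have h4 := T0_le_th (Mp := Mp) (D := D) (T0 := T0) t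
    obtain ⟨j, rfl⟩ : ∃ j, t = P.length + j := ⟨t - P.length, by omega⟩
    rw [List.length_append] at ht
    exact h3 j (by omega) (by omega) ((wo_app hloc (by omega) (by omega)).1 hw) hq

theorem near_iff (hloc : ∀ P Q : List α, n ≤ Q.length → (Wo (P ++ Q) ↔ Wo Q)) {P Q : List α}
    (h : P.length + n + N ≤ T0) :
    (∃ t ≤ (P ++ Q).length, Wo ((P ++ Q).take t) ∧ near Mp D T0 N t) ↔
      nearc Wo n Mp D T0 N P.length Q := by
  constructor
  · rintro ⟨t, ht, hw, hn⟩
    have h4 := T0_le_th (Mp := Mp) (D := D) (T0 := T0) t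
    have h5 := hn.2
    obtain ⟨j, rfl⟩ : ∃ j, t = P.length + j := ⟨t - P.length, by omega⟩
    rw [List.length_append] at ht
    exact ⟨j, by omega, by omega, (wo_app hloc (by omega) (by omega)).1 hw, hn⟩
  · rintro ⟨j, h1, h2, h3, h4⟩
    exact ⟨P.length + j, by rw [List.length_append]; omega, (wo_app hloc h1 h2).2 h3, h4⟩

theorem bd_iff (hloc : ∀ P Q : List α, n ≤ Q.length → (Wo (P ++ Q) ↔ Wo Q)) {P Q : List α}
    (h : P.length + n + N ≤ T0) : P ++ Q ∈ Bd Wo Mp D T0 N p0 Bad ↔
      Zc Wo n Mp D T0 P.length Q ∧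
        (nearc Wo n Mp D T0 N P.length Q ∨ Bad (P.length + Q.length - p0)) := by
  unfold Bd
  rw [Set.mem_ofPred_eq, zc_iff hloc (by omega), near_iff hloc h, List.length_append]

theorem th_mod {s t : ℕ} (h : s % Mp = t % Mp) : th Mp D T0 s = th Mp D T0 t := by
  unfold th; rw [h]

theorem zc_shift {c c' : ℕ} {Q : List α} (hc : c % Mp = c' % Mp) (h1 : c ≤ c' + N)
    (h2 : c' ≤ c + N) (hnear : ¬ nearc Wo n Mp D T0 N c Q) (h : Zc Wo n Mp D T0 c Q) :
    Zc Wo n Mp D T0 c' Q := by
  have key : ∀ j, n ≤ j → j ≤ Q.length → Wo (Q.take j) →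
      (th Mp D T0 (c + j) ≤ c + j ↔ th Mp D T0 (c' + j) ≤ c' + j) := by
    intro j hj hjQ hw
    have e : th Mp D T0 (c + j) = th Mp D T0 (c' + j) :=
      th_mod (Nat.ModEq.add_right j hc)
    have hn : ¬ near Mp D T0 N (c + j) := fun hn => hnear ⟨j, hj, hjQ, hw, hn⟩
    unfold near at hn
    omega
  obtain ⟨g1, g2, g3, g4⟩ := h
  refine ⟨g1, g2, (key Q.length g1 le_rfl (by simpa using g2)).1 g3, ?_⟩
  intro j hj hjQ hw hq
  exact g4 j hj hjQ hw ((key j hj hjQ.le hw).2 hq)

theorem take_drop_wo (hloc : ∀ P Q : List α, n ≤ Q.length → (Wo (P ++ Q) ↔ Wo Q))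
    {ω : List α} {c j : ℕ} (hj : n ≤ j) (h : c + j ≤ ω.length) :
    Wo ((ω.drop c).take j) ↔ Wo (ω.take (c + j)) := by
  rw [List.take_add]
  exact (hloc _ _ (by simp; omega)).symm

open Finset in
/-- **few places of the ruler are spoiled** -/
theorem spoil (hloc : ∀ P Q : List α, n ≤ Q.length → (Wo (P ++ Q) ↔ Wo Q)) {W : ℕ}
    (hgap : ∀ P : List α, Wo P → ∀ d, 0 < d → d ≤ W → ¬ Wo (P.take (P.length - d)))
    (hMp : 0 < Mp) (hW : Mp * D + 4 * N ≤ W) (hD : 4 * N < D)
    (hT0 : p0 + 4 * N + n + Mp * D < T0) {K : ℕ} {x : ℕ → ℕ} (hx : ∀ a < K, x a ≤ N)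
    (hgol : ∀ a < K, ∀ b < K, ∀ c < K, ∀ d < K, a ≠ b → c ≠ d →
      (x a + x d) % Mp = (x c + x b) % Mp → a = c ∧ b = d) {C0 : ℕ}
    (hcount : ∀ T, N ≤ T → ∃ F : Finset (ℕ × ℕ), F.card ≤ C0 ∧
      ∀ a < K, ∀ b < K, a ≠ b → Bad (T + x b - x a) → (a, b) ∈ F)
    {z z₂ : List α} (hz : z ∈ ZZ Wo Mp D T0) (hz₂ : z₂ ∈ ZZ Wo Mp D T0) :
    ∃ A : Finset ℕ, A.card ≤ 1 + 2 * C0 ∧ ∀ a < K, a ∉ A → ∀ b < K, b ≠ a →
      ∀ p' : List α, p'.length = x b →
        ∃ G ∈ ZZ Wo Mp D T0, G ∉ Bd Wo Mp D T0 N p0 Bad ∧ G <+: p' ++ (z ++ z₂).drop (x a) := by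
  classical
  set ω := z ++ z₂ with hω
  have hlz : T0 ≤ z.length := (T0_le_th _).trans hz.2.1
  have hlz₂ : T0 ≤ z₂.length := (T0_le_th _).trans hz₂.2.1
  have hlω : ω.length = z.length + z₂.length := by simp [hω]
  let wall : ℕ → Prop := fun t => t ≤ ω.length ∧ Wo (ω.take t)
  have hL : wall ω.length := ⟨le_rfl, by
    rw [List.take_length]; exact (hloc z z₂ (by omega)).2 hz₂.1⟩
  have huniq : ∀ s t, wall s → wall t → s < t → W < t - s := by
    intro s t hs ht hst
    by_contra hcon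
    refine hgap (ω.take t) ht.2 (t - s) (by omega) (by omega) ?_
    have h1 : (ω.take t).length = t := by simp [ht.1]
    rw [h1, List.take_take, show min (t - (t - s)) t = s by omega]
    exact hs.2
  have hex2 : ∃ t, wall t ∧ T0 + Mp * D + N < t := ⟨ω.length, hL, by omega⟩
  let t₂ := Nat.find hex2
  have ht₂ : wall t₂ ∧ T0 + Mp * D + N < t₂ := Nat.find_spec hex2
  have ht₂min : ∀ t, wall t → T0 + Mp * D + N < t → t₂ ≤ t := fun t h1 h2 =>
    Nat.find_min' hex2 ⟨h1, h2⟩
  obtain ⟨t₁, ht₁, ht₁u⟩ : ∃ t₁, p0 + N ≤ t₁ ∧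
      ∀ t, wall t → T0 ≤ t + N → t ≤ T0 + Mp * D + N → t = t₁ := by
    by_cases h : ∃ t, wall t ∧ T0 ≤ t + N ∧ t ≤ T0 + Mp * D + N
    · obtain ⟨t₁, h1, h2, h3⟩ := h
      refine ⟨t₁, by omega, ?_⟩
      intro t g1 g2 g3
      rcases lt_trichotomy t t₁ with hlt | heq | hgt
      · have := huniq _ _ g1 h1 hlt; omega
      · exact heq
      · have := huniq _ _ h1 g1 hgt; omega
    · exact ⟨T0, by omega, fun t h1 h2 h3 => absurd ⟨t, h1, h2, h3⟩ h⟩
  let A1 : Finset (ℕ × ℕ) := (range K ×ˢ range K).filter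
    (fun ab => ab.1 ≠ ab.2 ∧ ∃ t, wall t ∧ near Mp D T0 N (t + x ab.2 - x ab.1))
  have hA1 : A1.card ≤ 1 := by
    rw [Finset.card_le_one]
    rintro ⟨a, b⟩ hab ⟨a', b'⟩ hab'
    simp only [A1, Finset.mem_filter, Finset.mem_product, Finset.mem_range] at hab hab'
    obtain ⟨⟨ha, hb⟩, hne, t, ht, hn1, hn2⟩ := hab
    obtain ⟨⟨ha', hb'⟩, hne', t', ht', hn1', hn2'⟩ := hab'
    have xa := hx a ha
    have xb := hx b hb
    have xa' := hx a' ha'
    have xb' := hx b' hb'
    have c1 := T0_le_th (Mp := Mp) (D := D) (T0 := T0) (t + x b - x a)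
    have c2 := th_le (D := D) (T0 := T0) hMp (t + x b - x a)
    have c1' := T0_le_th (Mp := Mp) (D := D) (T0 := T0) (t' + x b' - x a')
    have c2' := th_le (D := D) (T0 := T0) hMp (t' + x b' - x a')
    have htt : t = t' := by
      rcases lt_trichotomy t t' with hlt | heq | hgt
      · have := huniq _ _ ht ht' hlt; omega
      · exact heq
      · have := huniq _ _ ht' ht hgt; omega
    subst htt
    have hr : (t + x b - x a) % Mp = (t + x b' - x a') % Mp := by
      unfold th at hn1 hn2 hn1' hn2'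
      generalize hr1 : (t + x b - x a) % Mp = r at *
      generalize hr2 : (t + x b' - x a') % Mp = r' at *
      rcases lt_trichotomy r r' with hlt | heq | hgt
      · exfalso
        have : (r + 1) * D ≤ r' * D := Nat.mul_le_mul_right _ hlt
        rw [Nat.add_mul, Nat.one_mul] at this
        omega
      · exact heq
      · exfalso
        have : (r' + 1) * D ≤ r * D := Nat.mul_le_mul_right _ hgt
        rw [Nat.add_mul, Nat.one_mul] at this
        omega
    have h3 : (x b + x a') % Mp = (x b' + x a) % Mp := by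
      have h4 : (t + x b - x a) + (x a + x a') ≡ (t + x b' - x a') + (x a + x a') [MOD Mp] :=
        Nat.ModEq.add_right _ hr
      have h5 : t + (x b + x a') ≡ t + (x b' + x a) [MOD Mp] := by
        have e1 : (t + x b - x a) + (x a + x a') = t + (x b + x a') := by omega
        have e2 : (t + x b' - x a') + (x a + x a') = t + (x b' + x a) := by omega
        rw [e1, e2] at h4
        exact h4
      exact Nat.ModEq.add_left_cancel' _ h5
    obtain ⟨e1, e2⟩ := hgol b hb a ha b' hb' a' ha' (Ne.symm hne) (Ne.symm hne') h3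
    rw [e1, e2]
  obtain ⟨A2, hA2, hA2m⟩ := hcount (t₁ - p0) (by omega)
  obtain ⟨A3, hA3, hA3m⟩ := hcount (t₂ - p0) (by omega)
  refine ⟨(A1 ∪ A2 ∪ A3).image Prod.fst, ?_, ?_⟩
  · refine Finset.card_image_le.trans ?_
    have h1 := Finset.card_union_le (A1 ∪ A2) A3
    have h2 := Finset.card_union_le A1 A2
    omega
  · intro a ha haA b hb hba p' hp'
    have xa := hx a ha
    have xb := hx b hb
    have hnot : (a, b) ∉ A1 ∪ A2 ∪ A3 := fun h =>
      haA (Finset.mem_image.2 ⟨(a, b), h, rfl⟩)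
    simp only [Finset.mem_union, not_or] at hnot
    obtain ⟨⟨hn1, hn2⟩, hn3⟩ := hnot
    have hab : a ∈ range K ∧ b ∈ range K := ⟨Finset.mem_range.2 ha, Finset.mem_range.2 hb⟩
    have hex : ∃ t, wall t ∧ x a + n ≤ t ∧ th Mp D T0 (t + x b - x a) ≤ t + x b - x a := by
      refine ⟨ω.length, hL, by omega, ?_⟩
      have := th_le (D := D) (T0 := T0) hMp (ω.length + x b - x a)
      omega
    let t₀ := Nat.find hex
    obtain ⟨hw0, hn0, hq0⟩ : wall t₀ ∧ x a + n ≤ t₀ ∧
      th Mp D T0 (t₀ + x b - x a) ≤ t₀ + x b - x a := Nat.find_spec hex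
    have hmin : ∀ t, wall t → x a + n ≤ t → th Mp D T0 (t + x b - x a) ≤ t + x b - x a →
        t₀ ≤ t := fun t h1 h2 h3 => Nat.find_min' hex ⟨h1, h2, h3⟩
    have hcase : t₀ = t₁ ∨ t₀ = t₂ := by
      have c1 := T0_le_th (Mp := Mp) (D := D) (T0 := T0) (t₀ + x b - x a)
      by_cases hc : t₀ ≤ T0 + Mp * D + N
      · exact Or.inl (ht₁u t₀ hw0 (by omega) hc)
      · right
        have h1 := ht₂min t₀ hw0 (by omega)
        have c2 := th_le (D := D) (T0 := T0) hMp (t₂ + x b - x a)
        have h2 := hmin t₂ ht₂.1 (by omega) (by omega)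
        omega
    set Q := (ω.drop (x a)).take (t₀ - x a) with hQ
    have hQl : Q.length = t₀ - x a := by
      have := hw0.1
      simp [hQ]; omega
    have hQj : ∀ j, j ≤ Q.length → Q.take j = (ω.drop (x a)).take j := by
      intro j hj
      rw [hQ, List.take_take, Nat.min_eq_left (by omega)]
    have hz' : p' ++ Q ∈ ZZ Wo Mp D T0 := by
      refine (zc_iff hloc (by omega)).2 ⟨by omega, ?_, ?_, ?_⟩
      · have h1 := (take_drop_wo hloc (ω := ω) (c := x a) (j := t₀ - x a) (by omega)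
          (by have := hw0.1; omega)).2
        rw [show x a + (t₀ - x a) = t₀ by omega] at h1
        exact h1 hw0.2
      · rw [hp', hQl, show x b + (t₀ - x a) = t₀ + x b - x a by omega]
        exact hq0
      · intro j hj hjQ hw hq
        rw [hQj j hjQ.le] at hw
        have hle : x a + j ≤ ω.length := by have := hw0.1; omega
        have h1 := (take_drop_wo hloc hj hle).1 hw
        rw [hp', show x b + j = x a + j + x b - x a by omega] at hq
        have := hmin (x a + j) ⟨hle, h1⟩ (by omega) hq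
        omega
    refine ⟨p' ++ Q, hz', ?_, ?_⟩
    · intro hbd
      obtain ⟨_, h | h⟩ := (bd_iff hloc (by omega)).1 hbd
      · obtain ⟨j, hj, hjQ, hw, hnr⟩ := h
        rw [hQj j hjQ] at hw
        have hle : x a + j ≤ ω.length := by have := hw0.1; omega
        have h1 := (take_drop_wo hloc hj hle).1 hw
        refine hn1 ?_
        simp only [A1, Finset.mem_filter, Finset.mem_product]
        refine ⟨hab, Ne.symm hba, x a + j, ⟨hle, h1⟩, ?_⟩
        rw [hp'] at hnr
        rw [show x a + j + x b - x a = x b + j by omega]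
        exact hnr
      · rw [hp', hQl] at h
        rcases hcase with hc | hc
        · refine hn2 (hA2m a ha b hb (Ne.symm hba) ?_)
          rw [← hc, show t₀ - p0 + x b - x a = x b + (t₀ - x a) - p0 by omega]
          exact h
        · refine hn3 (hA3m a ha b hb (Ne.symm hba) ?_)
          rw [← hc, show t₀ - p0 + x b - x a = x b + (t₀ - x a) - p0 by omega]
          exact h
    · exact (List.prefix_append_right_inj p').2 (List.take_prefix _ _)

end Geo

end Crest.Agent.R320.AsmU_845
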