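import Crest.Agent.R320.Code_110
import Crest.Agent.R320.RegBd_11
import Crest.Agent.R320.Block_467
import Crest.Agent.R320.ExactR_237
import Mathlib.Computability.MyhillNerode

/-!
Row 320: assembly of TEAM U (second copy, helper92). Engine: 110's `step_sem` twice.
-/

set_option autoImplicit false

namespace Crest.Agent.R320.AsmU_92

open Crest.RegLang Crest.Agent.R320.Hk_851 Crest.Agent.R320.Code110 Crest.Agent.R320.ExactR_237

/-- all data of the block code -/
structure Dat (α S V : Type) where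
  Wo : List α → Prop
  n : ℕ
  W : ℕ
  Mp : ℕ
  Mm : ℕ
  z : ℕ
  Sm : ℕ
  N : ℕ
  p0 : ℕ
  th : ℕ → ℕ
  BadT : ℕ → Prop
  act : V → S → V
  f : α → S
  nu2 : List α → V
  nu : List α → V

variable {α S V : Type} [Monoid S] [AddCommGroup V]

structure Dat.Ok (D : Dat α S V) : Prop where
  w1 : ∀ P Q, D.n ≤ Q.length → (D.Wo (P ++ Q) ↔ D.Wo Q)
  w2 : ∀ P, D.Wo P → D.n ≤ P.length
  w3 : ∀ P d, D.Wo P → 0 < d → d ≤ D.W → ¬ D.Wo (P.take (P.length - d))
  thlo : ∀ r, D.z ≤ D.th r
  thhi : ∀ r, D.th r ≤ D.z + D.Sm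
  thsp : ∀ r r', r < D.Mp → r' < D.Mp → r ≠ r' →
    D.th r + 4 * D.N < D.th r' ∨ D.th r' + 4 * D.N < D.th r
  hz : 2 * D.p0 + 8 * D.N + D.n + D.Sm + 1 ≤ D.z
  hW : D.Sm + 4 * D.N < D.W
  Mp0 : 0 < D.Mp
  Mm0 : 0 < D.Mm
  MpMm : D.Mp ∣ D.Mm
  per : ∀ T T', T % D.Mm = T' % D.Mm → (D.BadT T ↔ D.BadT T')
  fs : ∀ u u' : List α, 2 * D.N ≤ u.length → 2 * D.N ≤ u'.length →
    u.take (2 * D.N) = u'.take (2 * D.N) → u.length % D.Mm = u'.length % D.Mm →
    pr D.f u = pr D.f u' → D.nu u = D.nu u'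

variable (D : Dat α S V)

/-- the block code -/
def UU : Language α := {X | D.Wo X ∧ D.th (X.length % D.Mp) ≤ X.length ∧
  ∀ t < X.length, D.Wo (X.take t) → ¬ D.th (t % D.Mp) ≤ t}

def EE (X : List α) : Prop := ∃ t ≤ X.length, D.Wo (X.take t) ∧
  D.th (t % D.Mp) ≤ t + D.N ∧ t ≤ D.th (t % D.Mp) + D.N

def BB : Language α := {X | X ∈ UU D ∧ (EE D X ∨ D.BadT (X.length - D.p0))}

def tau (X : List α) (v : V) : V :=
  D.act (D.act v (pr D.f (X.take D.p0)) + D.nu2 (X.take D.p0)) (pr D.f (X.drop D.p0)) +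
    D.nu (X.drop D.p0)

theorem take_app (p q : List α) (e : ℕ) : (p ++ q).take (p.length + e) = p ++ q.take e := by
  rw [List.take_append, List.take_of_length_le (by omega)]
  congr 2
  omega

variable {D}

theorem shift (h : D.Ok) (p p' q : List α) (t : ℕ) (h1 : p.length + D.n ≤ t)
    (h2 : t ≤ p.length + q.length) :
    D.Wo ((p ++ q).take t) ↔ D.Wo ((p' ++ q).take (t - p.length + p'.length)) := by
  obtain ⟨e, rfl⟩ : ∃ e, t = p.length + e := ⟨t - p.length, by omega⟩
  have e1 : p.length + e - p.length + p'.length = p'.length + e := by omega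
  rw [e1, take_app, take_app]
  have hl : D.n ≤ (q.take e).length := by rw [List.length_take]; omega
  rw [h.w1 p _ hl, h.w1 p' _ hl]

theorem UU_len (h : D.Ok) {X : List α} (hX : X ∈ UU D) : D.z ≤ X.length :=
  (h.thlo _).trans hX.2.1

theorem UU_PC (h : D.Ok) : PC (UU D) where
  ne := fun h0 => by
    have := UU_len h h0
    have hz := h.hz
    simp at this
    omega
  pf := by
    intro u hu v hv huv
    by_contra hne
    have hlt : u.length < v.length := by
      rcases Nat.lt_or_ge u.length v.length with h1 | h1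
      · exact h1
      · exact absurd (huv.eq_of_length_le h1) hne
    have e : v.take u.length = u := (List.prefix_iff_eq_take.1 huv).symm
    exact hv.2.2 u.length hlt (by rw [e]; exact hu.1) hu.2.1

theorem exists_block (w : List α) (t : ℕ) (ht : t ≤ w.length) (h1 : D.Wo (w.take t))
    (h2 : D.th (t % D.Mp) ≤ t) : ∃ t0, t0 ≤ t ∧ w.take t0 ∈ UU D := by
  classical
  have hex : ∃ t, t ≤ w.length ∧ D.Wo (w.take t) ∧ D.th (t % D.Mp) ≤ t := ⟨t, ht, h1, h2⟩
  obtain ⟨g1, g2, g3⟩ := Nat.find_spec hex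
  have hmin : Nat.find hex ≤ t := Nat.find_min' hex ⟨ht, h1, h2⟩
  refine ⟨Nat.find hex, hmin, g2, ?_, ?_⟩
  · rw [List.length_take, min_eq_left g1]; exact g3
  · intro s hs hw hth
    rw [List.length_take, min_eq_left g1] at hs
    rw [List.take_take, min_eq_left hs.le] at hw
    exact Nat.find_min hex hs ⟨by omega, hw, hth⟩

/-- junction lemma of scheme 1 -/
theorem junction (h : D.Ok) (p p' q : List α) (hu : p ++ q ∈ UU D) (hE : ¬ EE D (p ++ q))
    (h1 : D.p0 ≤ p.length) (h2 : p.length ≤ D.p0 + D.N) (h3 : D.p0 ≤ p'.length)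
    (h4 : p'.length ≤ D.p0 + D.N) (h5 : p.length % D.Mp = p'.length % D.Mp) :
    p' ++ q ∈ UU D := by
  have hz := h.hz
  have hlen := UU_len h hu
  rw [List.length_append] at hlen
  obtain ⟨u1, u2, u3⟩ := hu
  have hmod : ∀ e, (p.length + e) % D.Mp = (p'.length + e) % D.Mp := by
    intro e; rw [Nat.add_mod, h5, ← Nat.add_mod]
  refine ⟨?_, ?_, ?_⟩
  · have := (h.w1 p q (by omega)).1 u1
    exact (h.w1 p' q (by omega)).2 this
  · rw [List.length_append] at u2 ⊢
    rw [← hmod]
    by_contra hc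
    apply hE
    refine ⟨(p ++ q).length, le_rfl, by rw [List.take_length]; exact u1, ?_, ?_⟩
    · rw [List.length_append]; omega
    · rw [List.length_append]; omega
  · intro t ht hw hth
    rw [List.length_append] at ht
    have hzt : D.z ≤ t := (h.thlo _).trans hth
    have hw' := (shift h p' p q t (by omega) (by omega)).1 hw
    have hmt : (t - p'.length + p.length) % D.Mp = t % D.Mp := by
      have e1 : t - p'.length + p.length = p.length + (t - p'.length) := by omega
      have e2 : t = p'.length + (t - p'.length) := by omega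
      rw [e1, hmod, ← e2]
    have hn := u3 (t - p'.length + p.length) (by rw [List.length_append]; omega) hw'
    rw [hmt] at hn
    apply hE
    refine ⟨t - p'.length + p.length, by rw [List.length_append]; omega, hw', ?_, ?_⟩
    · rw [hmt]; omega
    · rw [hmt]; omega

end Crest.Agent.R320.AsmU_92
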