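import Crest.Agent.R320.P3_416
import Crest.Agent.R320.Reg_236

/-!
Row 320, P3 of #13253 in the literal form of 163 #13363 (`top`): (s2), (cc), finiteness of the left
words and regularity of the right words of scheme 2.
-/

set_option autoImplicit false

namespace Crest.Agent.R320.P3Top_416

open Finset ExactR_237 P3_416 Crest.Agent.R320.Reg_236

variable {A : Type}

/-! ### regular languages -/

/-- the words with property `p` form a regular language. -/
def Rg (p : List A → Prop) : Prop := Language.IsRegular ({w | p w} : Language A)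

theorem Rg.congr {p q : List A → Prop} (h : Rg p) (e : ∀ w, q w ↔ p w) : Rg q := by
  have : q = p := funext fun w => propext (e w)
  rwa [this]

theorem Rg.top : Rg (fun _ : List A => True) := by
  have h := Language.IsRegular.compl (isRegular_zero (α := A))
  have e : ({w | (fun _ : List A => True) w} : Language A) = (0 : Language A)ᶜ :=
    Set.ext fun w => ⟨fun _ h => h, fun _ => trivial⟩
  unfold Rg
  rwa [e]

theorem Rg.not {p : List A → Prop} (h : Rg p) : Rg (fun w => ¬ p w) :=
  Language.IsRegular.compl h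

theorem Rg.and {p q : List A → Prop} (hp : Rg p) (hq : Rg q) : Rg (fun w => p w ∧ q w) :=
  Language.IsRegular.inf hp hq

theorem Rg.or {p q : List A → Prop} (hp : Rg p) (hq : Rg q) : Rg (fun w => p w ∨ q w) :=
  Language.IsRegular.add hp hq

theorem Rg.const (p : Prop) : Rg (fun _ : List A => p) := by
  by_cases h : p
  · exact Rg.top.congr fun w => ⟨fun _ => trivial, fun _ => h⟩
  · exact Rg.top.not.congr fun w => ⟨fun hw => (h hw).elim, fun hw => (hw trivial).elim⟩

theorem reg_congr {L M : Language A} (h : L.IsRegular) (e : ∀ w, w ∈ M ↔ w ∈ L) :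
    M.IsRegular := by
  have : M = L := Set.ext e
  rwa [this]

theorem Rg.cat {p q : List A → Prop} (hp : Rg p) (hq : Rg q) :
    Rg (fun w => ∃ u v, w = u ++ v ∧ p u ∧ q v) := by
  let P : Language A := {w | p w}
  let Q : Language A := {w | q w}
  have h : (P * Q).IsRegular := isRegular_mul hp hq
  have e : ∀ w, (∃ u v, w = u ++ v ∧ p u ∧ q v) ↔ w ∈ P * Q := by
    intro w
    rw [Language.mem_mul]
    constructor
    · rintro ⟨u, v, rfl, hu, hv⟩
      exact ⟨u, hu, v, hv, rfl⟩
    · rintro ⟨u, hu, v, hv, rfl⟩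
      exact ⟨u, v, rfl, hu, hv⟩
  exact reg_congr h e

theorem Rg.nil : Rg (fun w : List A => w = []) :=
  reg_congr (isRegular_one (α := A)) fun w => Iff.rfl

theorem Rg.char (a : A) : Rg (fun w : List A => w = [a]) := by
  have h := isRegular_char a
  have e : ({w | w = [a]} : Language A) = {[a]} := Set.ext fun w => Iff.rfl
  unfold Rg
  rwa [e]

theorem Rg.word (u : List A) : Rg (fun w : List A => w = u) := by
  induction u with
  | nil => exact Rg.nil
  | cons a u ih =>
    refine ((Rg.char a).cat ih).congr fun w => ?_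
    constructor
    · rintro rfl
      exact ⟨[a], u, rfl, rfl, rfl⟩
    · rintro ⟨x, y, rfl, rfl, rfl⟩
      rfl

theorem Rg.ex_finset {ι : Type*} (s : Finset ι) (L : ι → List A → Prop)
    (h : ∀ i ∈ s, Rg (L i)) : Rg (fun w => ∃ i ∈ s, L i w) := by
  classical
  induction s using Finset.induction_on with
  | empty =>
    refine (Rg.const False).congr fun w => ⟨?_, fun hw => hw.elim⟩
    rintro ⟨i, hi, -⟩
    simp at hi
  | insert a s ha ih =>
    refine ((h a (Finset.mem_insert_self a s)).or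
      (ih fun i hi => h i (Finset.mem_insert_of_mem hi))).congr fun w => ?_
    simp

theorem Rg.ex {ι : Type*} {s : Set ι} (hs : s.Finite) (L : ι → List A → Prop)
    (h : ∀ i ∈ s, Rg (L i)) : Rg (fun w => ∃ i ∈ s, L i w) := by
  refine (Rg.ex_finset hs.toFinset L fun i hi => h i (hs.mem_toFinset.1 hi)).congr fun w => ?_
  simp

/-- left quotient by a word -/
theorem Rg.lquot {p : List A → Prop} (h : Rg p) (u : List A) : Rg (fun w => p (u ++ w)) := by
  refine Language.IsRegular.of_finite_range_leftQuotient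
    ((Language.IsRegular.finite_range_leftQuotient h).subset ?_)
  rintro _ ⟨x, rfl⟩
  refine ⟨u ++ x, ?_⟩
  ext y
  change p ((u ++ x) ++ y) ↔ p (u ++ (x ++ y))
  rw [List.append_assoc]

theorem fin_len [Finite A] (n : ℕ) : ({w : List A | w.length = n}).Finite :=
  (List.finite_length_eq A n)

/-! ### the right words are regular -/

theorem badAt_reg [Finite A] {XX Bad : Set (List A)}
    (hB : Rg (fun w => w ∈ XX ∧ w ∈ Bad)) (ck : ℕ) : Rg (BadAt XX Bad ck) := by
  have h := Rg.ex (fin_len (A := A) ck)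
    (fun P Q => ∃ Q1 R, Q = Q1 ++ R ∧ (P ++ Q1 ∈ XX ∧ P ++ Q1 ∈ Bad) ∧ True)
    (fun P _ => (hB.lquot P).cat Rg.top)
  refine h.congr fun Q => ?_
  constructor
  · rintro ⟨P, Q1, hP, ⟨R, rfl⟩, h1, h2⟩
    exact ⟨P, hP, Q1, R, rfl, ⟨h1, h2⟩, trivial⟩
  · rintro ⟨P, hP, Q1, R, rfl, ⟨h1, h2⟩, -⟩
    exact ⟨P, Q1, hP, List.prefix_append _ _, h1, h2⟩

theorem T_reg [Finite A] {S V : Type} [Monoid S] [AddCommGroup V] (f : A → S) (act : V → S → V)
    (p0 : ℕ) (nu2 nu1 : List A → V) (XX : Set (List A)) (hlen : ∀ X ∈ XX, p0 ≤ X.length)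
    (hν : ∀ (P : List A) (v v' : V), P.length = p0 →
      Rg (fun Y => P ++ Y ∈ XX ∧ act v (pr f Y) + nu1 Y = v')) (v b : V) :
    Rg (fun X => X ∈ XX ∧ T f act p0 nu2 nu1 v X = b) := by
  have h := Rg.ex (fin_len (A := A) p0)
    (fun P X => ∃ P' Y, X = P' ++ Y ∧ P' = P ∧ (P ++ Y ∈ XX ∧
      act (act v (pr f P) + nu2 P) (pr f Y) + nu1 Y = b))
    (fun P hP => (Rg.word P).cat (hν P (act v (pr f P) + nu2 P) b hP))
  refine h.congr fun X => ?_
  constructor
  · rintro ⟨hX, hT⟩
    have hl := hlen X hX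
    refine ⟨X.take p0, by simp [hl], X.take p0, X.drop p0, (List.take_append_drop _ _).symm, rfl,
      ?_, hT⟩
    rwa [List.take_append_drop]
  · rintro ⟨P, hP, P', Y, rfl, rfl, hX, hT⟩
    refine ⟨hX, ?_⟩
    have hP' : P'.length = p0 := hP
    unfold T
    rw [List.take_append_of_le_length (by omega), List.take_of_length_le (by omega),
      List.drop_append_of_le_length (by omega), List.drop_eq_nil_of_le (by omega),
      List.nil_append]
    exact hT

theorem RQ_reg [Finite A] {S V : Type} [Monoid S] [AddCommGroup V] [Finite V] (f : A → S)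
    (act : V → S → V) (K : ℕ) (c : ℕ → ℕ) (p0 : ℕ) (hcp : ∀ k < K, c k ≤ p0)
    (nu2 nu1 : List A → V) (rho : ℕ → List A → Option V)
    (XX Bad : Set (List A)) (hlen : ∀ X ∈ XX, p0 ≤ X.length)
    (hB : Rg (fun w => w ∈ XX ∧ w ∈ Bad))
    (hν : ∀ (P : List A) (v v' : V), P.length = p0 →
      Rg (fun Y => P ++ Y ∈ XX ∧ act v (pr f Y) + nu1 Y = v')) (b : V) :
    Rg (fun Q => Q ∈ RQ f act K c p0 nu2 nu1 rho XX Bad b) := by
  have h := Rg.ex_finset (range K)
    (fun k Q => (¬ ∃ k' ∈ range K, k' ≠ k ∧ BadAt XX Bad (c k') Q) ∧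
      BadAt XX Bad (c k) Q ∧
      ∃ P ∈ {w : List A | w.length = c k}, ∃ q ∈ {w : List A | w.length = p0 - c k},
        ∃ v1 ∈ (Set.univ : Set V), ∃ v2 ∈ (Set.univ : Set V), rho k q = some v1 ∧
        ∃ (qY X2 : List A), Q = qY ++ X2 ∧ (∃ (q' Y : List A), qY = q' ++ Y ∧ q' = q ∧
          ((P ++ q) ++ Y ∈ XX ∧ act v1 (pr f Y) + nu1 Y = v2)) ∧
          (X2 ∈ XX ∧ T f act p0 nu2 nu1 v2 X2 = b)) ?_
  · refine h.congr fun Q => ?_
    constructor
    · rintro ⟨k, hk, h0, h1, P, Q1, X2, v1, hP, rfl, h2, h3, h4, h5⟩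
      have hl := hlen _ h2
      rw [List.length_append] at hl
      refine ⟨k, Finset.mem_range.2 hk, ?_, h0, P, hP, Q1.take (p0 - c k), ?_, v1, trivial, _,
        trivial, h4, Q1, X2, rfl, ⟨_, Q1.drop (p0 - c k),
          (List.take_append_drop _ _).symm, rfl, ?_, rfl⟩, h3, h5⟩
      · rintro ⟨k', hk', hne, hb⟩
        exact hne (h1 k' (Finset.mem_range.1 hk') hb)
      · change (Q1.take (p0 - c k)).length = p0 - c k
        rw [List.length_take]
        omega
      · rw [List.append_assoc, List.take_append_drop]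
        exact h2
    · rintro ⟨k, hk, h1, h0, P, hP, q, hq, v1, -, v2, -, h3, qY, X2, rfl,
        ⟨q', Y, rfl, rfl, h2, h4⟩, h5, h6⟩
      have hq' : q'.length = p0 - c k := hq
      refine ⟨k, Finset.mem_range.1 hk, h0, ?_, P, q' ++ Y, X2, v1, hP, rfl,
        by rwa [← List.append_assoc], h5, ?_, ?_⟩
      · intro k' hk' hb
        by_contra hne
        exact h1 ⟨k', Finset.mem_range.2 hk', hne, hb⟩
      · rw [List.take_append_of_le_length (by omega), List.take_of_length_le (by omega)]
        exact h3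
      · rw [List.drop_append_of_le_length (by omega), List.drop_eq_nil_of_le (by omega),
          List.nil_append, h4]
        exact h6
  · intro k hk
    have hk' := hcp k (Finset.mem_range.1 hk)
    refine (Rg.not (Rg.ex_finset (range K)
      (fun k' Q => k' ≠ k ∧ BadAt XX Bad (c k') Q) fun k' _ =>
        (Rg.const _).and (badAt_reg hB (c k')))).and ((badAt_reg hB (c k)).and ?_)
    refine Rg.ex (fin_len (A := A) (c k)) _ fun P hP => ?_
    have hP' : P.length = c k := hP
    refine Rg.ex (fin_len (A := A) (p0 - c k)) _ fun q hq => ?_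
    have hq' : q.length = p0 - c k := hq
    refine Rg.ex (Set.toFinite _) _ fun v1 _ => ?_
    refine Rg.ex (Set.toFinite _) _ fun v2 _ => ?_
    exact (Rg.const _).and (((Rg.word q).cat
      (hν (P ++ q) v1 v2 (by rw [List.length_append]; omega))).cat
        (T_reg f act p0 nu2 nu1 XX hlen hν v2 b))

end Crest.Agent.R320.P3Top_416
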