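import Mathlib

/-!
# Row 320: a language saturated by (bounded prefix, product of the rest, length mod P) is regular

(helper253)  Used for the finite-state clause of the U-gadget (772 / 440 form):
`rho q` depends only on `q.take B`, `prod (q.drop B)` and `|q| mod P` for `B ≤ |q|`.
-/

set_option autoImplicit false

namespace Crest.Agent.R320.RegCongr_253

universe u v w

variable {α : Type u}

theorem regular_of_congr [Finite α] {S : Type v} [Monoid S] [Finite S] (f : α → S) (B P : ℕ)
    (hP : 0 < P) (L : Language α)
    (h : ∀ q q' : List α, B ≤ q.length → B ≤ q'.length → q.take B = q'.take B →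
      q.length % P = q'.length % P → ((q.drop B).map f).prod = ((q'.drop B).map f).prod →
      q ∈ L → q' ∈ L) : L.IsRegular := by
  classical
  have : Finite {b : List α // b.length ≤ B} := (List.finite_length_le α B).to_subtype
  have : NeZero P := ⟨hP.ne'⟩
  let Q := {b : List α // b.length ≤ B} × S × Fin P
  have : Finite Q := inferInstance
  have : Fintype Q := Fintype.ofFinite Q
  let step : Q → α → Q := fun q a =>
    if hq : q.1.1.length < B then (⟨q.1.1 ++ [a], by simp; omega⟩, q.2.1, q.2.2 + 1)
    else (q.1, q.2.1 * f a, q.2.2 + 1)
  let D : DFA α Q := ⟨step, (⟨[], by simp⟩, 1, 0), {q | ∃ w ∈ L, w.take B = q.1.1 ∧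
    ((w.drop B).map f).prod = q.2.1 ∧ w.length % P = q.2.2.1}⟩
  have key : ∀ w : List α, (D.eval w).1.1 = w.take B ∧ (D.eval w).2.1 = ((w.drop B).map f).prod ∧
      (D.eval w).2.2.1 = w.length % P := by
    intro w
    induction w using List.reverseRecOn with
    | nil =>
      refine ⟨by simp [D], by simp [D], ?_⟩
      simp [D]
    | append_singleton w a ih =>
      obtain ⟨h1, h2, h3⟩ := ih
      rw [DFA.eval_append_singleton]
      have hlen : (w.take B).length < B ↔ w.length < B := by
        rw [List.length_take]; omega
      have h4 : ((D.eval w).2.2 + 1 : Fin P).1 = (w.length + 1) % P := by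
        rw [Fin.val_add, h3, Fin.val_one']
        simp [Nat.add_mod]
      by_cases hc : (D.eval w).1.1.length < B
      · have hs : D.step (D.eval w) a = (⟨(D.eval w).1.1 ++ [a], by simp; omega⟩,
            (D.eval w).2.1, (D.eval w).2.2 + 1) := dif_pos hc
        have hw : w.length < B := by rw [h1] at hc; exact hlen.1 hc
        rw [hs]
        refine ⟨?_, ?_, ?_⟩
        · show (D.eval w).1.1 ++ [a] = _
          rw [h1, List.take_of_length_le (by omega), List.take_of_length_le (by simp; omega)]
        · show (D.eval w).2.1 = _
          rw [h2, List.drop_eq_nil_of_le (by omega), List.drop_eq_nil_of_le (by simp; omega)]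
        · show ((D.eval w).2.2 + 1 : Fin P).1 = _
          rw [h4]; simp
      · have hs : D.step (D.eval w) a = ((D.eval w).1, (D.eval w).2.1 * f a,
            (D.eval w).2.2 + 1) := dif_neg hc
        have hw : B ≤ w.length := by
          rw [h1] at hc
          by_contra hn
          exact hc (hlen.2 (by omega))
        rw [hs]
        refine ⟨?_, ?_, ?_⟩
        · show (D.eval w).1.1 = _
          rw [h1, List.take_append_of_le_length hw]
        · show (D.eval w).2.1 * f a = _
          rw [h2, List.drop_append_of_le_length hw]
          simp
        · show ((D.eval w).2.2 + 1 : Fin P).1 = _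
          rw [h4]; simp
  rw [Language.isRegular_iff.{u, max u v}]
  refine ⟨Q, inferInstance, D, ?_⟩
  ext w
  obtain ⟨h1, h2, h3⟩ := key w
  rw [DFA.mem_accepts]
  constructor
  · rintro ⟨w', hw', e1, e2, e3⟩
    rw [h1] at e1
    rw [h2] at e2
    rw [h3] at e3
    by_cases hB : B ≤ w'.length
    · have hB' : B ≤ w.length := by
        have := congrArg List.length e1
        rw [List.length_take, List.length_take] at this
        omega
      exact h w' w hB hB' e1 e3 e2 hw'
    · have : w = w' := by
        have hl := congrArg List.length e1
        rw [List.length_take, List.length_take] at hl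
        rw [List.take_of_length_le (by omega), List.take_of_length_le (by omega)] at e1
        exact e1.symm
      rw [this]; exact hw'
  · intro hw
    exact ⟨w, hw, h1.symm, h2.symm, h3.symm⟩

end Crest.Agent.R320.RegCongr_253
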