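import Crest.Agent.R320.FewVal_228
import Crest.Agent.R320.Top_180
import Crest.Agent.R320.P3Top_416
import Crest.Agent.R320.RegCongr_253

/-!
# Row 320: wall ends, block code of the natural chain rule (helper512)
-/

set_option autoImplicit false

namespace Crest.Agent.R320.AsmW_512

open Crest.RegLang Crest.Agent.R320.Hk_851 Crest.Agent.R320.FewWalls_228
  Crest.Agent.R320.P3Top_416 Crest.Agent.R320.Half1_180

variable {α : Type}

/-- a wall window ends at `t` -/
def WE (n : ℕ) (S : Set (List α)) (X : List α) (t : ℕ) : Prop :=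
  n ≤ t ∧ t ≤ X.length ∧ (X.drop (t - n)).take n ∈ S

theorem WE.wl {n : ℕ} {S : Set (List α)} {X : List α} {t : ℕ} (h : WE n S X t) :
    Wl n S X (t - n) := by
  obtain ⟨h1, h2, h3⟩ := h
  exact ⟨by omega, h3⟩

theorem WE.of_wl {n : ℕ} {S : Set (List α)} {X : List α} {x : ℕ} (h : Wl n S X x) :
    WE n S X (x + n) := by
  obtain ⟨h1, h2⟩ := h
  exact ⟨by omega, h1, by rw [Nat.add_sub_cancel]; exact h2⟩

theorem WE.left {n : ℕ} {S : Set (List α)} {P Q : List α} {t : ℕ} (ht : t ≤ P.length) :
    WE n S (P ++ Q) t ↔ WE n S P t := by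
  unfold WE
  constructor
  · rintro ⟨h1, _, h3⟩
    refine ⟨h1, ht, ?_⟩
    rw [List.drop_append_of_le_length (by omega), List.take_append_of_le_length
      (by rw [List.length_drop]; omega)] at h3
    exact h3
  · rintro ⟨h1, _, h3⟩
    refine ⟨h1, by rw [List.length_append]; omega, ?_⟩
    rw [List.drop_append_of_le_length (by omega), List.take_append_of_le_length
      (by rw [List.length_drop]; omega)]
    exact h3

theorem WE.right {n : ℕ} {S : Set (List α)} {P Q : List α} {u : ℕ} (hu : n ≤ u) :
    WE n S (P ++ Q) (P.length + u) ↔ WE n S Q u := by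
  unfold WE
  have e : (P ++ Q).drop (P.length + u - n) = Q.drop (u - n) := by
    rw [show P.length + u - n = P.length + (u - n) by omega, List.drop_append,
      List.drop_eq_nil_of_le (by omega), List.nil_append]
    congr 1
    omega
  rw [e, List.length_append]
  constructor
  · rintro ⟨h1, h2, h3⟩
    exact ⟨hu, by omega, h3⟩
  · rintro ⟨h1, h2, h3⟩
    exact ⟨by omega, by omega, h3⟩

/-- blocks: first wall end at a place `≥ z` -/
def XX (n : ℕ) (S : Set (List α)) (z : ℕ) : Set (List α) :=
  {X | z ≤ X.length ∧ WE n S X X.length ∧ ∀ t, z ≤ t → t < X.length → ¬ WE n S X t}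

theorem pf_XX {n z : ℕ} (S : Set (List α)) (hz : 0 < z) : PF (XX n S z) := by
  constructor
  · rintro X ⟨h1, -, -⟩ rfl
    simp at h1
    omega
  · rintro X ⟨hX1, hX2, hX3⟩ Y ⟨hY1, hY2, hY3⟩ ⟨R, rfl⟩
    rcases R with _ | ⟨r, R⟩
    · simp
    · exfalso
      refine hY3 X.length hX1 (by simp) ?_
      rw [WE.left le_rfl]
      exact hX2

theorem take_mem_XX {n z : ℕ} {S : Set (List α)} {u : List α} {t : ℕ} (hz : z ≤ t)
    (ht : t ≤ u.length) (hw : WE n S u t) (hf : ∀ t', z ≤ t' → t' < t → ¬ WE n S u t') :
    u.take t ∈ XX n S z := by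
  have hl : (u.take t).length = t := by rw [List.length_take]; omega
  have key : ∀ t', t' ≤ t → (WE n S u t' ↔ WE n S (u.take t) t') := by
    intro t' h
    have := WE.left (n := n) (S := S) (P := u.take t) (Q := u.drop t) (t := t') (by omega)
    rwa [List.take_append_drop] at this
  refine ⟨by rw [hl]; exact hz, ?_, ?_⟩
  · rw [hl]; exact (key t le_rfl).1 hw
  · intro t' h1 h2 h3
    rw [hl] at h2
    exact hf t' h1 h2 ((key t' h2.le).2 h3)

/-! ### regularity -/

theorem rg_len_ge (m : ℕ) [Finite α] : Rg (fun w : List α => m ≤ w.length) := by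
  refine Crest.Agent.R320.RegCongr_253.regular_of_congr (S := Unit) (fun _ => 1) m 1 one_pos _ ?_
  intro q q' h1 h2 _ _ _ _
  exact h2

theorem rg_adm [Finite α] {n z : ℕ} (S : Set (List α)) :
    Rg (fun w : List α => z ≤ w.length ∧ WE n S w w.length) := by
  have hS : ({s : List α | s ∈ S ∧ s.length = n}).Finite :=
    (List.finite_length_eq α n).subset fun s hs => hs.2
  have h := ((rg_len_ge (α := α) z).and (Rg.ex hS (fun s w => ∃ u v : List α, w = u ++ v ∧ True ∧ v = s)
    (fun s _ => Rg.top.cat (Rg.word s))))
  refine h.congr fun w => ?_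
  constructor
  · rintro ⟨h1, h2, h3, h4⟩
    refine ⟨h1, (w.drop (w.length - n)), ?_, w.take (w.length - n), w.drop (w.length - n),
      (List.take_append_drop _ _).symm, trivial, rfl⟩
    have e : (w.drop (w.length - n)).take n = w.drop (w.length - n) :=
      List.take_of_length_le (by rw [List.length_drop]; omega)
    rw [e] at h4
    exact ⟨h4, by rw [List.length_drop]; omega⟩
  · rintro ⟨h1, s, ⟨hs1, hs2⟩, u, v, rfl, -, rfl⟩
    refine ⟨h1, by rw [List.length_append]; omega, le_rfl, ?_⟩
    have e : (u ++ v).length - n = u.length := by rw [List.length_append]; omega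
    rw [e, List.drop_left, List.take_of_length_le (by omega)]
    exact hs1

theorem rg_XX [Finite α] {n z : ℕ} (S : Set (List α)) : Rg (fun w : List α => w ∈ XX n S z) := by
  have h := (rg_adm (n := n) (z := z) S).and
    (((rg_adm (n := n) (z := z) S).cat (rg_len_ge (α := α) 1)).not)
  refine h.congr fun w => ?_
  constructor
  · rintro ⟨h1, h2, h3⟩
    refine ⟨⟨h1, h2⟩, ?_⟩
    rintro ⟨u, v, rfl, ⟨hu1, hu2⟩, hv⟩
    refine h3 u.length hu1 (by rw [List.length_append]; omega) ?_
    rw [WE.left le_rfl]
    exact hu2
  · rintro ⟨⟨h1, h2⟩, h3⟩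
    refine ⟨h1, h2, fun t ht1 ht2 ht3 => h3 ?_⟩
    refine ⟨w.take t, w.drop t, (List.take_append_drop _ _).symm, ?_, ?_⟩
    · have hl : (w.take t).length = t := by rw [List.length_take]; omega
      refine ⟨by omega, ?_⟩
      have := WE.left (n := n) (S := S) (P := w.take t) (Q := w.drop t) (t := t) (by omega)
      rw [List.take_append_drop] at this
      rw [hl]
      exact this.1 ht3
    · rw [List.length_drop]; omega

theorem rg_tail [Finite α] {n z : ℕ} (S : Set (List α)) :
    Rg (fun w : List α => w ∈ Tail (XX n S z)) := by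
  have h := ((rg_XX (n := n) (z := z) S).cat Rg.top).not
  refine h.congr fun w => ?_
  constructor
  · rintro hw ⟨u, v, rfl, hu, -⟩
    exact hw _ hu (List.prefix_append _ _)
  · rintro hw X hX ⟨R, rfl⟩
    exact hw ⟨X, R, rfl, hX, trivial⟩

/-! ### number of walls -/

theorem nw_le {n z : ℕ} {S : Set (List α)} {w : List α}
    (h : ∀ t, z ≤ t → t < w.length → ¬ WE n S w t) : nw n S w ≤ z + 1 := by
  classical
  unfold nw
  have hsub : (Finset.range (w.length + 1)).filter (fun x => Wl n S w x) ⊆
      insert (w.length - n) (Finset.range z) := by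
    intro x hx
    rw [Finset.mem_filter, Finset.mem_range] at hx
    obtain ⟨hx1, hx2⟩ := hx
    rw [Finset.mem_insert, Finset.mem_range]
    by_contra hc
    push Not at hc
    obtain ⟨h1, h2⟩ := hc
    have := hx2.1
    exact h (x + n) (by omega) (by omega) (WE.of_wl hx2)
  calc _ ≤ (insert (w.length - n) (Finset.range z)).card := Finset.card_le_card hsub
    _ ≤ z + 1 := by
      refine (Finset.card_insert_le _ _).trans ?_
      rw [Finset.card_range]

theorem nw_XX {n z : ℕ} {S : Set (List α)} {w : List α} (h : w ∈ XX n S z) :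
    nw n S w ≤ z + 1 := nw_le h.2.2

theorem nw_append {n : ℕ} {S : Set (List α)} (u v : List α) :
    nw n S (u ++ v) ≤ nw n S u + nw n S v + n + 1 := by
  classical
  unfold nw
  have hsub : (Finset.range ((u ++ v).length + 1)).filter (fun x => Wl n S (u ++ v) x) ⊆
      ((Finset.range (u.length + 1)).filter (fun x => Wl n S u x) ∪
        ((Finset.range (v.length + 1)).filter (fun x => Wl n S v x)).image (fun x => u.length + x))
        ∪ (Finset.range (n + 1)).image (fun j => u.length - j) := by
    intro x hx
    rw [Finset.mem_filter, Finset.mem_range] at hx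
    obtain ⟨hx1, hx2⟩ := hx
    rw [Finset.mem_union, Finset.mem_union]
    have hw := WE.of_wl hx2
    rw [List.length_append] at hx1
    by_cases h1 : x + n ≤ u.length
    · left; left
      rw [WE.left h1] at hw
      rw [Finset.mem_filter, Finset.mem_range]
      have := hw.wl
      rw [Nat.add_sub_cancel] at this
      exact ⟨by omega, this⟩
    · by_cases h2 : u.length ≤ x
      · left; right
        rw [show x + n = u.length + (x - u.length + n) by omega, WE.right (by omega)] at hw
        have := hw.wl
        rw [Nat.add_sub_cancel] at this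
        rw [Finset.mem_image]
        refine ⟨x - u.length, ?_, by omega⟩
        rw [Finset.mem_filter, Finset.mem_range]
        exact ⟨by have := this.1; omega, this⟩
      · right
        rw [Finset.mem_image]
        exact ⟨u.length - x, by rw [Finset.mem_range]; omega, by omega⟩
  refine (Finset.card_le_card hsub).trans ?_
  refine (Finset.card_union_le _ _).trans ?_
  have h1 := Finset.card_union_le ((Finset.range (u.length + 1)).filter (fun x => Wl n S u x))
    (((Finset.range (v.length + 1)).filter (fun x => Wl n S v x)).image (fun x => u.length + x))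
  have h2 : (((Finset.range (v.length + 1)).filter (fun x => Wl n S v x)).image
      (fun x => u.length + x)).card ≤ ((Finset.range (v.length + 1)).filter
      (fun x => Wl n S v x)).card := Finset.card_image_le
  have h3 : ((Finset.range (n + 1)).image (fun j => u.length - j)).card ≤ n + 1 := by
    refine Finset.card_image_le.trans ?_
    rw [Finset.card_range]
  omega

theorem nw_drop {n : ℕ} {S : Set (List α)} (u v : List α) :
    nw n S v ≤ nw n S (u ++ v) := by
  classical
  unfold nw
  have hsub : ((Finset.range (v.length + 1)).filter (fun x => Wl n S v x)).image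
      (fun x => u.length + x) ⊆
      (Finset.range ((u ++ v).length + 1)).filter (fun x => Wl n S (u ++ v) x) := by
    intro y hy
    rw [Finset.mem_image] at hy
    obtain ⟨x, hx, rfl⟩ := hy
    rw [Finset.mem_filter, Finset.mem_range] at hx
    rw [Finset.mem_filter, Finset.mem_range, List.length_append]
    have hw := WE.of_wl hx.2
    have h2 := (WE.right (P := u) (n := n) (S := S) (Q := v) (u := x + n) (by omega)).2 hw
    rw [← Nat.add_assoc] at h2
    have h3 := h2.wl
    rw [Nat.add_sub_cancel] at h3
    exact ⟨by omega, h3⟩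
  calc _ = (((Finset.range (v.length + 1)).filter (fun x => Wl n S v x)).image
      (fun x => u.length + x)).card := by
        rw [Finset.card_image_of_injective]
        intro a b h
        simpa using h
    _ ≤ _ := Finset.card_le_card hsub

end Crest.Agent.R320.AsmW_512
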