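import Crest.Agent.R320.Hk1_851

/-!
# Row 320: closure of `HL k` under letter maps (helper922)

* `length_ge_any`, `length_eq_any` : length conditions over an arbitrary (also infinite) alphabet;
* `allIn`, `allIn_of_finite` : all letters in a set `S`;
* `comap_filterMap` : inverse images under alphabetic morphisms (erasing allowed);
* `comap_map` : inverse images under letter-to-letter maps;
* `map_inj` : direct images under injective letter maps;
* `of_fin` : change of alphabet and universe at the top of the row.
-/

set_option autoImplicit false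

namespace Crest.Agent.R320.LetMap_922

open Crest.RegLang Crest.Agent.R320.Hk_851

universe u v

variable {α : Type u} {β : Type v} {k : ℕ}

/-- words of length at least `n`, any alphabet -/
theorem length_ge_any (n : ℕ) : HL k ({w : List α | n ≤ w.length} : Language α) := by
  induction n with
  | zero => exact HL.top.congr fun w => ⟨fun _ => trivial, fun _ => Nat.zero_le _⟩
  | succ n ih =>
    have h := (HL.one (α := α) (k := k)).compl.mul ih
    refine h.congr fun w => ?_
    rw [Language.mem_mul]
    constructor
    · intro hw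
      cases w with
      | nil => exact absurd (show n + 1 ≤ 0 from hw) (by omega)
      | cons a t =>
        refine ⟨[a], fun h1 => ?_, t, Nat.le_of_succ_le_succ (show n + 1 ≤ t.length + 1 from hw), rfl⟩
        exact List.cons_ne_nil a [] ((Language.mem_one _).1 h1)
    · rintro ⟨x, hx, y, hy, rfl⟩
      have hx' : x ≠ [] := fun h0 => hx ((Language.mem_one _).2 h0)
      have h1 : 0 < x.length := List.length_pos_iff.2 hx'
      have h2 : n ≤ y.length := hy
      show n + 1 ≤ (x ++ y).length
      rw [List.length_append]; omega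

/-- words of length exactly `n`, any alphabet -/
theorem length_eq_any (n : ℕ) : HL k ({w : List α | w.length = n} : Language α) := by
  have h := (length_ge_any (α := α) (k := k) n).inf (length_ge_any (α := α) (k := k) (n + 1)).compl
  refine h.congr fun w => ?_
  constructor
  · intro hw
    have hw' : w.length = n := hw
    exact ⟨hw'.ge, fun h1 => absurd (show n + 1 ≤ w.length from h1) (by omega)⟩
  · rintro ⟨h1, h2⟩
    have h1' : n ≤ w.length := h1
    have h2' : ¬ (n + 1 ≤ w.length) := h2
    show w.length = n
    omega

/-- the letters outside a set form a one-letter language; all letters of `w` lie in `S` as soon as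
`{[a] | a ∉ S}` is available -/
theorem allIn_of {S : Set α} (h : HL k ({w : List α | ∃ a, a ∉ S ∧ w = [a]} : Language α)) :
    HL k ({w : List α | ∀ a ∈ w, a ∈ S} : Language α) := by
  refine h.infix.compl.congr fun w => ?_
  constructor
  · rintro hw ⟨v, ⟨a, ha, rfl⟩, hv⟩
    exact ha (hw a (hv.subset (List.mem_singleton.2 rfl)))
  · intro hw a ha
    by_contra hn
    refine hw ⟨[a], ⟨a, hn, rfl⟩, ?_⟩
    obtain ⟨s, t, rfl⟩ := List.append_of_mem ha
    exact ⟨s, t, by simp⟩

/-- all letters in `S`, finite alphabet -/
theorem allIn [Finite α] (S : Set α) : HL k ({w : List α | ∀ a ∈ w, a ∈ S} : Language α) := by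
  refine allIn_of (HL.finite ?_)
  refine (Set.toFinite (Set.range fun a : α => [a])).subset ?_
  rintro w ⟨a, -, rfl⟩
  exact ⟨a, rfl⟩

/-- all letters in a finite set `S`, arbitrary alphabet -/
theorem allIn_of_finite {S : Set α} (hS : S.Finite) :
    HL k ({w : List α | ∀ a ∈ w, a ∈ S} : Language α) := by
  refine allIn_of ?_
  have h1 : HL k ({w : List α | ∃ a ∈ S, w = [a]} : Language α) := by
    refine HL.finite ((hS.image fun a : α => [a]).subset ?_)
    rintro w ⟨a, ha, rfl⟩
    exact ⟨a, ha, rfl⟩
  refine ((length_eq_any (α := α) (k := k) 1).inf h1.compl).congr fun w => ?_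
  constructor
  · rintro ⟨a, ha, rfl⟩
    refine ⟨rfl, ?_⟩
    rintro ⟨b, hb, hab⟩
    rw [List.cons.injEq] at hab
    exact ha (hab.1 ▸ hb)
  · rintro ⟨h1, h2⟩
    obtain ⟨a, rfl⟩ := List.length_eq_one_iff.1 (show w.length = 1 from h1)
    exact ⟨a, fun ha => h2 ⟨a, ha, rfl⟩, rfl⟩

theorem comap_aux [Finite α] (f : α → Option β) :
    ∀ e : GRegExp β, HL e.height ({w : List α | w.filterMap f ∈ e.lang} : Language α)
  | .zero => HL.bot.congr fun w => ⟨fun h => h.elim, fun h => h.elim⟩
  | .eps => by
    refine (allIn (k := 0) {a : α | f a = none}).congr fun w => ?_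
    show w.filterMap f ∈ (1 : Language β) ↔ ∀ a ∈ w, f a = none
    rw [Language.mem_one, List.filterMap_eq_nil_iff]
  | .char b => by
    have hE := allIn (k := 0) {a : α | f a = none}
    have hb : HL 0 ({w : List α | ∃ a, f a = some b ∧ w = [a]} : Language α) := by
      refine HL.finite ((Set.toFinite (Set.range fun a : α => [a])).subset ?_)
      rintro w ⟨a, -, rfl⟩
      exact ⟨a, rfl⟩
    refine ((hE.mul hb).mul hE).congr fun w => ?_
    rw [Language.mem_mul]
    constructor
    · intro hw
      have hw' : w.filterMap f = [b] := hw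
      rw [List.filterMap_eq_cons_iff] at hw'
      obtain ⟨l₁, a, l₂, rfl, h1, h2, h3⟩ := hw'
      refine ⟨l₁ ++ [a], Language.mem_mul.2 ⟨l₁, h1, [a], ⟨a, h2, rfl⟩, rfl⟩, l₂, ?_, by simp⟩
      exact List.filterMap_eq_nil_iff.1 h3
    · rintro ⟨x, hx, l₂, h3, rfl⟩
      obtain ⟨l₁, h1, y, ⟨a, h2, rfl⟩, rfl⟩ := Language.mem_mul.1 hx
      show (l₁ ++ [a] ++ l₂).filterMap f = [b]
      have h1' : l₁.filterMap f = [] := List.filterMap_eq_nil_iff.2 h1
      have h3' : l₂.filterMap f = [] := List.filterMap_eq_nil_iff.2 h3
      rw [List.filterMap_append, List.filterMap_append, h1', h3']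
      simp [h2]
  | .union P Q =>
    ((comap_aux f P).mono (le_max_left _ _)).sup ((comap_aux f Q).mono (le_max_right _ _))
  | .cat P Q => by
    have h := ((comap_aux f P).mono (le_max_left _ Q.height)).mul
      ((comap_aux f Q).mono (le_max_right P.height _))
    refine h.congr fun w => ?_
    rw [Language.mem_mul]
    constructor
    · intro hw
      obtain ⟨x, hx, y, hy, hxy⟩ := Language.mem_mul.1 (show w.filterMap f ∈ P.lang * Q.lang from hw)
      obtain ⟨l₁, l₂, rfl, rfl, rfl⟩ := List.filterMap_eq_append_iff.1 hxy.symm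
      exact ⟨l₁, hx, l₂, hy, rfl⟩
    · rintro ⟨x, hx, y, hy, rfl⟩
      show (x ++ y).filterMap f ∈ P.lang * Q.lang
      rw [List.filterMap_append]
      exact Language.mem_mul.2 ⟨_, hx, _, hy, rfl⟩
  | .not P => (comap_aux f P).compl
  | .star P => by
    have hE := allIn (k := P.height + 1) {a : α | f a = none}
    refine (hE.sup (comap_aux f P).star).congr fun w => ?_
    constructor
    · intro hw
      obtain ⟨l, hl, hP⟩ := Language.mem_kstar.1 (show w.filterMap f ∈ KStar.kstar P.lang from hw)
      induction l generalizing w with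
      | nil =>
        left
        exact List.filterMap_eq_nil_iff.1 hl
      | cons y l ih =>
        rw [List.flatten_cons] at hl
        obtain ⟨w₁, w₂, rfl, h1, h2⟩ := List.filterMap_eq_append_iff.1 hl
        right
        have hy : w₁.filterMap f ∈ P.lang := h1 ▸ hP y (by simp)
        have hl' : ∀ z ∈ l, z ∈ P.lang := fun z hz => hP z (by simp [hz])
        have hmem : w₂.filterMap f ∈ KStar.kstar P.lang := Language.mem_kstar.2 ⟨l, h2, hl'⟩
        rcases ih w₂ hmem h2 hl' with h | h
        · have h0 : w₂.filterMap f = [] := List.filterMap_eq_nil_iff.2 h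
          refine Language.mem_kstar.2 ⟨[w₁ ++ w₂], by simp, ?_⟩
          intro z hz
          rw [List.mem_singleton.1 hz]
          show (w₁ ++ w₂).filterMap f ∈ P.lang
          rw [List.filterMap_append, h0, List.append_nil]
          exact hy
        · obtain ⟨m, hm, hmP⟩ := Language.mem_kstar.1 h
          refine Language.mem_kstar.2 ⟨w₁ :: m, by rw [List.flatten_cons, ← hm], ?_⟩
          intro z hz
          rcases List.mem_cons.1 hz with rfl | hz
          · exact hy
          · exact hmP z hz
    · rintro (hw | hw)
      · have h0 : w.filterMap f = [] := List.filterMap_eq_nil_iff.2 hw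
        show w.filterMap f ∈ KStar.kstar P.lang
        rw [h0]
        exact Language.nil_mem_kstar _
      · obtain ⟨l, rfl, hP⟩ := Language.mem_kstar.1 hw
        show l.flatten.filterMap f ∈ KStar.kstar P.lang
        refine Language.mem_kstar.2 ⟨l.map (List.filterMap f), ?_, ?_⟩
        · clear hw hP
          induction l with
          | nil => rfl
          | cons y l ih => rw [List.flatten_cons, List.filterMap_append, ih]; rfl
        · intro z hz
          obtain ⟨y, hy, rfl⟩ := List.mem_map.1 hz
          exact hP y hy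

/-- inverse images under alphabetic morphisms, erasing allowed -/
theorem comap_filterMap [Finite α] (f : α → Option β) {L : Language β} (hL : HL k L) :
    HL k ({w : List α | w.filterMap f ∈ L} : Language α) := by
  obtain ⟨e, he, rfl⟩ := hL
  exact (comap_aux f e).mono he

/-- inverse images under letter-to-letter maps -/
theorem comap_map [Finite α] (f : α → β) {L : Language β} (hL : HL k L) :
    HL k ({w : List α | w.map f ∈ L} : Language α) := by
  refine (comap_filterMap (fun a => some (f a)) hL).congr fun w => ?_
  show w.map f ∈ L ↔ w.filterMap (fun a => some (f a)) ∈ L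
  have h : w.filterMap (fun a => some (f a)) = w.map f := by
    have := List.filterMap_eq_map (f := f)
    exact congrFun this w
  rw [h]

/-- inverse images under erasing the letters outside a decidable set -/
theorem comap_filter [Finite α] (p : α → Bool) {L : Language α} (hL : HL k L) :
    HL k ({w : List α | w.filter p ∈ L} : Language α) := by
  refine (comap_filterMap (fun a => if p a then some a else none) hL).congr fun w => ?_
  show w.filter p ∈ L ↔ w.filterMap (fun a => if p a then some a else none) ∈ L
  have h : w.filterMap (fun a => if p a then some a else none) = w.filter p := by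
    induction w with
    | nil => rfl
    | cons a w ih =>
      by_cases ha : p a = true
      · simp [ha, ih]
      · simp [ha, ih]
  rw [h]

theorem map_aux [Finite α] (f : α → β) (hf : Function.Injective f) :
    ∀ e : GRegExp α, HL e.height ({x : List β | ∃ w ∈ e.lang, w.map f = x} : Language β)
  | .zero => HL.bot.congr fun x => ⟨fun ⟨w, hw, _⟩ => hw.elim, fun h => h.elim⟩
  | .eps => by
    refine (HL.one (α := β) (k := 0)).congr fun x => ?_
    rw [Language.mem_one]
    constructor
    · rintro ⟨w, hw, rfl⟩
      rw [(Language.mem_one _).1 hw]; rfl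
    · rintro rfl
      exact ⟨[], Language.nil_mem_one, rfl⟩
  | .char a => by
    refine (HL.char (k := 0) (f a)).congr fun x => ?_
    constructor
    · rintro ⟨w, hw, rfl⟩
      rw [Set.mem_singleton_iff.1 hw]; rfl
    · intro hx
      rw [Set.mem_singleton_iff.1 hx]
      exact ⟨[a], rfl, rfl⟩
  | .union P Q => by
    refine (((map_aux f hf P).mono (le_max_left _ Q.height)).sup
      ((map_aux f hf Q).mono (le_max_right P.height _))).congr fun x => ?_
    constructor
    · rintro ⟨w, hw | hw, rfl⟩
      · exact Or.inl ⟨w, hw, rfl⟩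
      · exact Or.inr ⟨w, hw, rfl⟩
    · rintro (⟨w, hw, rfl⟩ | ⟨w, hw, rfl⟩)
      · exact ⟨w, Or.inl hw, rfl⟩
      · exact ⟨w, Or.inr hw, rfl⟩
  | .cat P Q => by
    refine (((map_aux f hf P).mono (le_max_left _ Q.height)).mul
      ((map_aux f hf Q).mono (le_max_right P.height _))).congr fun x => ?_
    rw [Language.mem_mul]
    constructor
    · rintro ⟨w, hw, rfl⟩
      obtain ⟨u, hu, v, hv, rfl⟩ := Language.mem_mul.1 (show w ∈ P.lang * Q.lang from hw)
      exact ⟨u.map f, ⟨u, hu, rfl⟩, v.map f, ⟨v, hv, rfl⟩, (List.map_append).symm⟩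
    · rintro ⟨_, ⟨u, hu, rfl⟩, _, ⟨v, hv, rfl⟩, rfl⟩
      exact ⟨u ++ v, Language.mem_mul.2 ⟨u, hu, v, hv, rfl⟩, List.map_append⟩
  | .not P => by
    have hR := allIn_of_finite (k := P.height) (Set.finite_range f)
    refine (hR.inf (map_aux f hf P).compl).congr fun x => ?_
    constructor
    · rintro ⟨w, hw, rfl⟩
      refine ⟨?_, ?_⟩
      · intro b hb
        obtain ⟨a, -, rfl⟩ := List.mem_map.1 hb
        exact ⟨a, rfl⟩
      · rintro ⟨w', hw', h⟩
        rw [List.map_injective_iff.2 hf h] at hw'
        exact hw hw'
    · rintro ⟨h1, h2⟩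
      have h3 : ∃ w : List α, w.map f = x := by
        have h1' : ∀ b ∈ x, b ∈ Set.range f := h1
        clear h1 h2
        induction x with
        | nil => exact ⟨[], rfl⟩
        | cons b x ih =>
          obtain ⟨a, ha⟩ := h1' b (by simp)
          obtain ⟨w, hw⟩ := ih fun c hc => h1' c (by simp [hc])
          exact ⟨a :: w, by rw [List.map_cons, ha, hw]⟩
      obtain ⟨w, rfl⟩ := h3
      exact ⟨w, fun hw => h2 ⟨w, hw, rfl⟩, rfl⟩
  | .star P => by
    refine (map_aux f hf P).star.congr fun x => ?_
    constructor
    · rintro ⟨w, hw, rfl⟩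
      obtain ⟨l, rfl, hP⟩ := Language.mem_kstar.1 (show w ∈ KStar.kstar P.lang from hw)
      refine Language.mem_kstar.2 ⟨l.map (List.map f), ?_, ?_⟩
      · rw [List.map_flatten]
      · intro z hz
        obtain ⟨y, hy, rfl⟩ := List.mem_map.1 hz
        exact ⟨y, hP y hy, rfl⟩
    · intro hx
      obtain ⟨l, rfl, hP⟩ := Language.mem_kstar.1 hx
      clear hx
      induction l with
      | nil => exact ⟨[], Language.nil_mem_kstar _, rfl⟩
      | cons y l ih =>
        obtain ⟨w, hw, h1⟩ := ih fun z hz => hP z (by simp [hz])
        obtain ⟨u, hu, rfl⟩ := hP y (by simp)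
        obtain ⟨m, hm, hmP⟩ := Language.mem_kstar.1 (show w ∈ KStar.kstar P.lang from hw)
        refine ⟨u ++ w, ?_, ?_⟩
        · refine Language.mem_kstar.2 ⟨u :: m, by rw [List.flatten_cons, ← hm], ?_⟩
          intro z hz
          rcases List.mem_cons.1 hz with rfl | hz
          · exact hu
          · exact hmP z hz
        · rw [List.map_append, h1, List.flatten_cons]

/-- direct images under injective letter maps -/
theorem map_inj [Finite α] (f : α → β) (hf : Function.Injective f) {L : Language α}
    (hL : HL k L) : HL k ({x : List β | ∃ w ∈ L, w.map f = x} : Language β) := by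
  obtain ⟨e, he, rfl⟩ := hL
  exact (map_aux f hf e).mono he

/-- change of alphabet and universe -/
theorem of_fin {m : ℕ}
    (h : ∀ n : ℕ, ∀ L : Language (Fin n), L.IsRegular → HL m L)
    (α : Type u) [Finite α] (L : Language α) (hL : L.IsRegular) : HL m L := by
  obtain ⟨n, ⟨e⟩⟩ := Finite.exists_equiv_fin α
  obtain ⟨σ, hσ, M, rfl⟩ := hL
  have h1 : ((M.comap e.symm).accepts).IsRegular := ⟨σ, hσ, M.comap e.symm, rfl⟩
  refine (comap_map e (h n _ h1)).congr fun w => ?_
  show w ∈ M.accepts ↔ w.map e ∈ (M.comap e.symm).accepts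
  rw [DFA.accepts_comap]
  show w ∈ M.accepts ↔ (w.map e).map e.symm ∈ M.accepts
  rw [List.map_map]
  simp

/-- the same in the form of statement S0495 -/
theorem of_fin_result {m : ℕ}
    (h : ∀ n : ℕ, ∀ L : Language (Fin n), L.IsRegular → ∃ e : GRegExp (Fin n), e.height ≤ m ∧ e.lang = L)
    (α : Type u) [Finite α] (L : Language α) (hL : L.IsRegular) :
    ∃ e : GRegExp α, e.height ≤ m ∧ e.lang = L :=
  of_fin (m := m) h α L hL

end Crest.Agent.R320.LetMap_922
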