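import Crest.Agent.R320.Main_621
import Crest.Agent.R320.LetMap_922
import Crest.Agent.R320.Top5_467

/-!
# Row 320: the last step (alphabet in any universe) from statements over `Fin n`, monoids in `Type`
-/

set_option autoImplicit false

namespace Crest.Agent.R320.Fin_869

open Crest.Agent.R320.Hk_851 Crest.RegLang

universe u

/-- from `Main_621.Data` for the alphabets `Fin n` and monoids in `Type` -/
theorem of_data
    (hD : ∀ (n : ℕ) (S : Type) [Monoid S] [Finite S] (f : Fin n → S),
      Main_621.Data (fun w : List (Fin n) => (w.map f).prod))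
    (α : Type u) [Finite α] (L : Language α) (hL : L.IsRegular) :
    ∃ e : GRegExp α, e.height ≤ 3 ∧ e.lang = L :=
  LetMap_922.of_fin_result (fun n L hL => Main_621.row (fun S _ _ f => hD n S f) L hL) α L hL

/-- from the heights of the value languages over `Fin n`, monoids in `Type` -/
theorem of_values
    (h : ∀ (n : ℕ) (S : Type) [Monoid S] [Finite S] (f : Fin n → S) (s : S),
      HL 3 ({w | (w.map f).prod = s} : Language (Fin n)))
    (α : Type u) [Finite α] (L : Language α) (hL : L.IsRegular) :
    ∃ e : GRegExp α, e.height ≤ 3 ∧ e.lang = L :=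
  LetMap_922.of_fin_result
    (fun n L hL => of_monoid (fun S _ _ f s => h n S f s) L hL) α L hL

/-- the frozen statement, word for word -/
theorem template
    (h : ∀ (n : ℕ) (S : Type) [Monoid S] [Finite S] (f : Fin n → S) (s : S),
      HL 3 ({w | (w.map f).prod = s} : Language (Fin n)))
    (α : Type*) [Finite α] (L : Language α) (hL : L.IsRegular) :
    ∃ e : Crest.RegLang.GRegExp α, e.height ≤ 3 ∧ e.lang = L :=
  of_values h α L hL

end Crest.Agent.R320.Fin_869
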