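import Crest.Agent.R320.Gad1_420
import Crest.Agent.R320.Names_755
import Crest.Agent.R320.RandF_808

/-!
Row 320: gadget of scheme 1 with positional levels (852 #13483 (G1)), literal of lead #13673.
-/

set_option autoImplicit false
set_option linter.unusedSectionVars false

namespace Crest.Agent.R320.G1_604

open Finset Crest.Agent.R320.Gad1_420

/-- arithmetic of the positional levels -/
theorem mod_low {b i j o o' : ℕ} (hj : j ≤ i) (hd : b ^ i ∣ o') :
    (o + o') % b ^ j = o % b ^ j := by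
  obtain ⟨c, hc⟩ := (pow_dvd_pow b hj).trans hd
  rw [hc, Nat.add_mul_mod_self_left]

theorem no_carry {b i o o' : ℕ} (hb : 0 < b) (_ho : o < b ^ (i + 1)) (h2 : 2 * (o / b ^ i) < b)
    (hd : b ^ i ∣ o') (h2' : 2 * (o' / b ^ i % b) < b) : o + o' % b ^ (i + 1) < b ^ (i + 1) := by
  have hbi : 0 < b ^ i := Nat.pow_pos hb
  have e1 : o' % b ^ (i + 1) = b ^ i * (o' / b ^ i % b) := by
    rw [pow_succ, Nat.mod_mul, Nat.mod_eq_zero_of_dvd hd, zero_add]
  have e2 : o = b ^ i * (o / b ^ i) + o % b ^ i := (Nat.div_add_mod o (b ^ i)).symm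
  have e3 := Nat.mod_lt o hbi
  rw [e1]
  have h3 : o / b ^ i + o' / b ^ i % b + 1 ≤ b := by omega
  calc o + b ^ i * (o' / b ^ i % b)
      = b ^ i * (o / b ^ i) + o % b ^ i + b ^ i * (o' / b ^ i % b) := by rw [← e2]
    _ < b ^ i * (o / b ^ i) + b ^ i + b ^ i * (o' / b ^ i % b) := by omega
    _ = b ^ i * (o / b ^ i + o' / b ^ i % b + 1) := by ring
    _ ≤ b ^ i * b := Nat.mul_le_mul_left _ h3
    _ = b ^ (i + 1) := (pow_succ b i).symm

theorem mod_high {b i j o o' : ℕ} (hb : 0 < b) (ho : o < b ^ (i + 1)) (h2 : 2 * (o / b ^ i) < b)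
    (hd : b ^ i ∣ o') (h2' : 2 * (o' / b ^ i % b) < b) (hj : i < j) :
    (o + o') % b ^ j = o + o' % b ^ j := by
  have h3 := no_carry hb ho h2 hd h2'
  obtain ⟨k, rfl⟩ := Nat.exists_eq_add_of_le (show i + 1 ≤ j from hj)
  have h4 : o + o' % b ^ (i + 1 + k) < b ^ (i + 1 + k) := by
    rw [pow_add, Nat.mod_mul]
    have h5 : o' / b ^ (i + 1) % b ^ k < b ^ k := Nat.mod_lt _ (Nat.pow_pos hb)
    have h6 : b ^ (i + 1) * (o' / b ^ (i + 1) % b ^ k + 1) ≤ b ^ (i + 1) * b ^ k :=
      Nat.mul_le_mul_left _ h5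
    rw [mul_add, mul_one] at h6
    omega
  rw [Nat.add_mod, Nat.mod_eq_of_lt (lt_of_le_of_lt (Nat.le_add_right _ _) h4),
    Nat.mod_eq_of_lt h4]

theorem mod_mono (b n j : ℕ) : n % b ^ j ≤ n % b ^ (j + 1) := by
  rw [← Nat.mod_mod_of_dvd n (pow_dvd_pow b (Nat.le_succ j))]
  exact Nat.mod_le _ _

section
variable {A S V W : Type} [Monoid S] [AddCommGroup V] [AddCommGroup W]

/-- product -/
def ph (f : A → S) (Y : List A) : S := (Y.map f).prod

theorem ph_app (f : A → S) (X Y : List A) : ph f (X ++ Y) = ph f X * ph f Y := by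
  unfold ph; rw [List.map_append, List.prod_append]

variable (f : A → S) (b m : ℕ) (e : ℕ → S → W) (F : S → W → V) (act : V → S → V)

def zz (Y : List A) (j : ℕ) : S := ph f (seg Y (Y.length % b ^ j) (Y.length % b ^ (j + 1)))

def ww (Y : List A) : W := ∑ j ∈ range m, e j (zz f b Y j)

abbrev NT (m : ℕ) (S W V : Type) := Fin m × S × W × S × W × V

def bbf (c : NT m S W V) : V :=
  F (c.2.1 * 1 * c.2.2.2.1) (c.2.2.1 + e c.1 1 + c.2.2.2.2.1) +
    act c.2.2.2.2.2 (c.2.1 * 1 * c.2.2.2.1)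

def okf (c : NT m S W V) : Prop :=
  ∀ z, F (c.2.1 * z * c.2.2.2.1) (c.2.2.1 + e c.1 z + c.2.2.2.2.1) +
    act c.2.2.2.2.2 (c.2.1 * z * c.2.2.2.1) = bbf m e F act c

variable (nmL nmR : ℕ → Option (NT m S W V))

def LLc (P : List A) (c : NT m S W V) : Prop :=
  okf m e F act c ∧ P.length < b ^ ((c.1 : ℕ) + 1) ∧ 2 * (P.length / b ^ (c.1 : ℕ)) < b ∧
  nmL P.length = some c ∧ c.2.1 = ph f (P.take (P.length % b ^ (c.1 : ℕ))) ∧
  c.2.2.1 = ∑ j ∈ range (c.1 : ℕ), e j (zz f b P j)

def RRc (Q : List A) (c : NT m S W V) : Prop :=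
  okf m e F act c ∧ b ^ (c.1 : ℕ) ∣ Q.length ∧ 2 * (Q.length / b ^ (c.1 : ℕ) % b) < b ∧
  nmR Q.length = some c ∧ c.2.2.2.1 = ph f (Q.drop (Q.length % b ^ ((c.1 : ℕ) + 1))) ∧
  c.2.2.2.2.1 = ∑ j ∈ Ico ((c.1 : ℕ) + 1) m, e j (zz f b Q j)

open Classical in
noncomputable def lamf (P : List A) : Option V :=
  if h : ∃ c, LLc f b m e F act nmL P c then some h.choose.2.2.2.2.2 else none

open Classical in
noncomputable def pick (G : NT m S W V → Prop) : Option V :=
  if h : ∃ c, G c then some (bbf m e F act h.choose) else none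

noncomputable def rhof (Q : List A) : Option V :=
  pick m e F act (RRc f b m e F act nmR Q)

theorem lamf_some {P : List A} {v : V} (h : lamf f b m e F act nmL P = some v) :
    ∃ c, LLc f b m e F act nmL P c ∧ c.2.2.2.2.2 = v := by
  unfold lamf at h
  split_ifs at h with h1
  exact ⟨_, h1.choose_spec, Option.some.inj h⟩

theorem rhof_some {Q : List A} {v : V} (h : rhof f b m e F act nmR Q = some v) :
    ∃ c, RRc f b m e F act nmR Q c ∧ bbf m e F act c = v := by
  unfold rhof pick at h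
  split_ifs at h with h1
  exact ⟨_, h1.choose_spec, Option.some.inj h⟩

theorem lamf_of {P : List A} {c : NT m S W V} (h : LLc f b m e F act nmL P c) :
    lamf f b m e F act nmL P = some c.2.2.2.2.2 := by
  have h1 : ∃ c, LLc f b m e F act nmL P c := ⟨c, h⟩
  unfold lamf
  rw [dif_pos h1]
  have h2 := h1.choose_spec.2.2.2.1
  have h3 := h.2.2.2.1
  rw [h3] at h2
  rw [← Option.some.inj h2]

theorem rhof_of {Q : List A} {c : NT m S W V} (h : RRc f b m e F act nmR Q c) :
    (rhof f b m e F act nmR Q).isSome := by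
  have h1 : ∃ c, RRc f b m e F act nmR Q c := ⟨c, h⟩
  unfold rhof pick
  rw [dif_pos h1]
  rfl

variable {b m}

theorem read {P Q : List A} {i : ℕ} (him : i < m) (hb : 0 < b)
    (ho : P.length < b ^ (i + 1)) (h2 : 2 * (P.length / b ^ i) < b)
    (hd : b ^ i ∣ Q.length) (h2' : 2 * (Q.length / b ^ i % b) < b) :
    (∑ j ∈ range i, e j (zz f b (P ++ Q) j)) = (∑ j ∈ range i, e j (zz f b P j)) ∧
    (∑ j ∈ Ico (i + 1) m, e j (zz f b (P ++ Q) j)) = (∑ j ∈ Ico (i + 1) m, e j (zz f b Q j)) ∧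
    ph f (P ++ Q) = ph f (P.take (P.length % b ^ i)) * zz f b (P ++ Q) i *
      ph f (Q.drop (Q.length % b ^ (i + 1))) ∧
    ww f b m e (P ++ Q) = (∑ j ∈ range i, e j (zz f b (P ++ Q) j)) + e i (zz f b (P ++ Q) i) +
      ∑ j ∈ Ico (i + 1) m, e j (zz f b (P ++ Q) j) := by
  have hl : (P ++ Q).length = P.length + Q.length := List.length_append
  have low : ∀ j, j ≤ i → (P ++ Q).length % b ^ j = P.length % b ^ j := fun j hj => by
    rw [hl]; exact mod_low hj hd
  have high : ∀ j, i < j → (P ++ Q).length % b ^ j = P.length + Q.length % b ^ j :=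
    fun j hj => by rw [hl]; exact mod_high hb ho h2 hd h2' hj
  refine ⟨?_, ?_, ?_, ?_⟩
  · refine Finset.sum_congr rfl fun k hk => ?_
    have hk' := Finset.mem_range.1 hk
    unfold zz
    rw [low k hk'.le, low (k + 1) hk', seg_left (mod_mono b _ k) (Nat.mod_le _ _)]
  · refine Finset.sum_congr rfl fun k hk => ?_
    obtain ⟨hk1, hk2⟩ := Finset.mem_Ico.1 hk
    unfold zz
    rw [high k (by omega), high (k + 1) (by omega), seg_right]
  · have h5 : (P ++ Q).length % b ^ i ≤ (P ++ Q).length % b ^ (i + 1) := mod_mono b _ i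
    have h6 := seg_split (Y := P ++ Q) h5
    conv_lhs => rw [← h6]
    rw [ph_app, ph_app]
    have e1 : (P ++ Q).take ((P ++ Q).length % b ^ i) = P.take (P.length % b ^ i) := by
      rw [low i le_rfl, List.take_append_of_le_length (Nat.mod_le _ _)]
    have e2 : (P ++ Q).drop ((P ++ Q).length % b ^ (i + 1)) = Q.drop (Q.length % b ^ (i + 1)) := by
      rw [high (i + 1) (Nat.lt_succ_self i), drop_app_right]
    rw [e1, e2]
    rfl
  · unfold ww
    rw [← Finset.sum_range_add_sum_Ico _ (show i + 1 ≤ m from him), Finset.sum_range_succ]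

/-- choice of the place -/
theorem exists_place {M n i : ℕ} (hM : 0 < M) (hb : 4 * M + 4 < b) (hcop : Nat.Coprime b M)
    (h1 : M ≤ n / b ^ i % b) (h2 : n / b ^ i % b + M + 1 ≤ b) (t : ℕ) :
    ∃ o, o ≤ n ∧ o % b ^ i = n % b ^ i ∧ o < b ^ (i + 1) ∧ 2 * (o / b ^ i) < b ∧
      b ^ i ∣ (n - o) ∧ 2 * ((n - o) / b ^ i % b) < b ∧ o ≡ t [MOD M] := by
  have hb0 : 0 < b := by omega
  have hbi : 0 < b ^ i := Nat.pow_pos hb0
  set d := n / b ^ i % b with hd
  set H := (b - 1) / 2 with hH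
  set y0 := d - H with hy0
  -- y in [y0, y0 + M) with the right residue
  have hc : Nat.Coprime (b ^ i) M := Nat.Coprime.pow_left i hcop
  obtain ⟨y, hy1, hy2, hy3⟩ : ∃ y, y0 ≤ y ∧ y < y0 + M ∧ n % b ^ i + b ^ i * y ≡ t [MOD M] := by
    have : NeZero M := ⟨by omega⟩
    let u : (ZMod M)ˣ := ZMod.unitOfCoprime (b ^ i) hc
    set x : ZMod M := (u⁻¹ : (ZMod M)ˣ) * ((t : ZMod M) - ((n % b ^ i : ℕ) : ZMod M)) - (y0 : ℕ)
      with hx
    refine ⟨y0 + x.val, by omega, by have := ZMod.val_lt x; omega, ?_⟩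
    rw [← ZMod.natCast_eq_natCast_iff]
    push_cast
    rw [ZMod.natCast_zmod_val]
    have hu : ((b : ZMod M)) ^ i = (u : ZMod M) := by
      rw [ZMod.coe_unitOfCoprime]; push_cast; rfl
    rw [hu, hx]
    push_cast
    have := u.mul_inv
    linear_combination ((t : ZMod M) - ((n % b ^ i : ℕ) : ZMod M)) * this
  have hdN : d ≤ n / b ^ i := Nat.mod_le _ _
  have hyd : y ≤ d := by omega
  have h2y : 2 * y < b := by omega
  have h2y' : 2 * (d - y) < b := by omega
  have hn : n = b ^ i * (n / b ^ i) + n % b ^ i := (Nat.div_add_mod n (b ^ i)).symm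
  have hml := Nat.mod_lt n hbi
  have hyN : b ^ i * y ≤ b ^ i * (n / b ^ i) := Nat.mul_le_mul_left _ (by omega)
  refine ⟨n % b ^ i + b ^ i * y, by omega, ?_, ?_, ?_, ?_, ?_, hy3⟩
  · rw [Nat.add_mul_mod_self_left, Nat.mod_mod]
  · have : b ^ i * (y + 1) ≤ b ^ i * b := Nat.mul_le_mul_left _ (by omega)
    rw [pow_succ]
    rw [mul_add, mul_one] at this
    omega
  · rw [Nat.add_mul_div_left _ _ hbi, Nat.div_eq_of_lt hml]
    omega
  · refine ⟨n / b ^ i - y, ?_⟩
    rw [Nat.mul_sub]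
    omega
  · have e1 : n - (n % b ^ i + b ^ i * y) = b ^ i * (n / b ^ i - y) := by
      rw [Nat.mul_sub]
      omega
    rw [e1, Nat.mul_div_cancel_left _ hbi]
    have e2 : (n / b ^ i - y) % b = d - y := by
      have e3 : n / b ^ i - y = (d - y) + b * (n / b ^ i / b) := by
        have := Nat.div_add_mod (n / b ^ i) b
        omega
      rw [e3, Nat.add_mul_mod_self_left, Nat.mod_eq_of_lt (by omega)]
    rw [e2]
    exact h2y'

end

theorem ph_drop_congr {A S : Type} [Monoid S] (f : A → S) {Q Q' : List A} {l p : ℕ}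
    (hp : p ≤ l) (hl : l ≤ Q.length) (hl' : l ≤ Q'.length) (ht : Q.take l = Q'.take l)
    (hd : ph f (Q.drop l) = ph f (Q'.drop l)) : ph f (Q.drop p) = ph f (Q'.drop p) := by
  have key : ∀ Z : List A, l ≤ Z.length → Z.drop p = (Z.take l).drop p ++ Z.drop l := by
    intro Z hZ
    have h1 : Z = Z.take l ++ Z.drop l := (List.take_append_drop l Z).symm
    conv_lhs => rw [h1]
    exact List.drop_append_of_le_length (by rw [List.length_take]; omega)
  rw [key Q hl, key Q' hl', ph_app, ph_app, ht, hd]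

theorem seg_congr {A : Type} {Q Q' : List A} {l p q : ℕ} (hq : q ≤ l)
    (ht : Q.take l = Q'.take l) : seg Q p q = seg Q' p q := by
  have key : ∀ Z : List A, seg Z p q = seg (Z.take l) p q := by
    intro Z
    unfold seg
    rw [List.drop_take, List.take_take]
    congr 1
    omega
  rw [key Q, key Q', ht]

theorem g1 (S V : Type) [Monoid S] [Finite S] [AddCommGroup V] [Finite V] (act : V → S → V) :
    ∃ m r : ℕ, ∀ Bd : ℕ, ∃ (Ms : Finset ℕ) (M : ℕ), Ms.card ≤ r ∧
      (∀ k ∈ Ms, Bd < k ∧ k.Prime ∧ k ∣ M) ∧ 0 < M ∧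
      ∀ b : ℕ, 4 * M + 4 < b → Nat.Coprime b M → ∀ (A : Type) (f : A → S),
        ∃ (lam rho : List A → Option V) (nu : List A → V),
          (∀ P v, lam P = some v → P.length < b ^ m) ∧
          (∀ P Q v v', lam P = some v → rho Q = some v' →
            v' = act v ((P ++ Q).map f).prod + nu (P ++ Q)) ∧
          (∀ X, (∀ k ∈ Ms, ¬ k ∣ X.length) →
            (∀ j < m, M ≤ X.length / b ^ j % b ∧ X.length / b ^ j % b + M + 1 ≤ b) →
            ∀ v, ∃ P Q, P ++ Q = X ∧ lam P = some v ∧ (rho Q).isSome) ∧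
          (∀ Q Q', b ^ m ≤ Q.length → b ^ m ≤ Q'.length → Q.take (b ^ m) = Q'.take (b ^ m) →
            Q.length % (M * b ^ m) = Q'.length % (M * b ^ m) →
            ((Q.drop (b ^ m)).map f).prod = ((Q'.drop (b ^ m)).map f).prod →
            rho Q = rho Q' ∧ nu Q = nu Q') := by
  classical
  have := Fintype.ofFinite S
  have := Fintype.ofFinite V
  obtain ⟨m, N, e, F, hN, hF⟩ := Crest.Agent.R320.RandF808.exists_noise S V act
  have : NeZero N := ⟨hN.ne'⟩
  let W : Type := ZMod N × ZMod N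
  let NTT : Type := NT m S W V
  let col : NTT → V × V := fun c => (c.2.2.2.2.2, bbf m e F act c)
  have : Finite W := inferInstanceAs (Finite (ZMod N × ZMod N))
  have : Finite NTT := inferInstanceAs (Finite (Fin m × S × W × S × W × V))
  obtain ⟨r, hr⟩ := Crest.Agent.R320.Names755.names NTT (V × V) col
  refine ⟨m, r, fun Bd => ?_⟩
  obtain ⟨Ms, M, nmL, nmR, hcard, hMs, hM, hpL, hpR, hn1, hn2, hn3⟩ := hr Bd
  refine ⟨Ms, M, hcard, hMs, hM, fun b hb hcop A f => ?_⟩
  have hb0 : 0 < b := by omega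
  have hpL' : ∀ x y, x % M = y % M → nmL x = nmL y := by
    intro x y h
    have hP : Function.Periodic nmL M := hpL
    rw [← hP.map_mod_nat x, ← hP.map_mod_nat y, h]
  have hpR' : ∀ x y, x % M = y % M → nmR x = nmR y := by
    intro x y h
    have hP : Function.Periodic nmR M := hpR
    rw [← hP.map_mod_nat x, ← hP.map_mod_nat y, h]
  have hdm : ∀ T k, k ∈ Ms → (k ∣ T % M ↔ k ∣ T) := by
    intro T k hk
    exact Nat.dvd_mod_iff (hMs k hk).2.2
  -- colours on bad totals
  have h3 : ∀ T : ℕ, ∃ v0 r0 : V, (∃ k ∈ Ms, k ∣ T) → ∀ o o' c c', (o + o') % M = T % M →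
      nmL o = some c → nmR o' = some c' →
      c.2.2.2.2.2 = v0 ∧ bbf m e F act c' = r0 := by
    intro T
    by_cases hex : ∃ o o' c c', (o + o') % M = T % M ∧ nmL o = some c ∧ nmR o' = some c'
    · obtain ⟨o1, o1', c1, c1', hT1, hc1, hc1'⟩ := hex
      refine ⟨c1.2.2.2.2.2, bbf m e F act c1', ?_⟩
      rintro ⟨k, hk, hkT⟩ o o' c c' hT hc hc'
      -- shift
      have hmod : (o + o') % M = (o1 + o1') % M := by rw [hT, hT1]
      have hx : o + (o' + M * ((o1 + o1') / M)) = o1 + (o1' + M * ((o + o') / M)) := by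
        have e1 := Nat.div_add_mod (o + o') M
        have e2 := Nat.div_add_mod (o1 + o1') M
        rw [hmod] at e1
        omega
      have hkd : k ∣ o + (o' + M * ((o1 + o1') / M)) := by
        have h5 : k ∣ (o + (o' + M * ((o1 + o1') / M))) % M := by
          rw [← add_assoc, Nat.add_mul_mod_self_left, hT]
          exact (hdm T k hk).2 hkT
        exact (hdm _ k hk).1 h5
      have hr1 : nmR (o' + M * ((o1 + o1') / M)) = some c' := by
        rw [← hc']; exact hpR' _ _ (Nat.add_mul_mod_self_left _ _ _)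
      have hr2 : nmR (o1' + M * ((o + o') / M)) = some c1' := by
        rw [← hc1']; exact hpR' _ _ (Nat.add_mul_mod_self_left _ _ _)
      obtain ⟨q1, q2⟩ := hn3 _ _ _ _ c c' c1 c1' hc hr1 hc1 hr2 hx ⟨k, hk, hkd⟩
      exact ⟨congrArg Prod.fst q1, congrArg Prod.snd q2⟩
    · refine ⟨0, 0, ?_⟩
      intro _ o o' c c' hT hc hc'
      exact absurd ⟨o, o', c, c', hT, hc, hc'⟩ hex
  choose v0 r0 h0 using h3
  refine ⟨lamf f b m e F act nmL, rhof f b m e F act nmR,
    fun Y => if (∀ k ∈ Ms, ¬ k ∣ Y.length) then F (ph f Y) (ww f b m e Y) else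
      r0 (Y.length % M) - act (v0 (Y.length % M)) (ph f Y), ?_, ?_, ?_, ?_⟩
  · intro P v hP
    obtain ⟨c, hc, -⟩ := lamf_some f b m e F act nmL hP
    exact lt_of_lt_of_le hc.2.1 (Nat.pow_le_pow_right hb0 c.1.2)
  · intro P Q v v' hP hQ
    obtain ⟨c, hL, hv⟩ := lamf_some f b m e F act nmL hP
    obtain ⟨c', hR, hv'⟩ := rhof_some f b m e F act nmR hQ
    beta_reduce
    show v' = act v (ph f (P ++ Q)) + _
    by_cases hg : ∀ k ∈ Ms, ¬ k ∣ (P ++ Q).length
    · rw [if_pos hg]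
      have hcc := hn1 _ _ c c' hL.2.2.2.1 hR.2.2.2.1 (by rwa [← List.length_append])
      subst hcc
      obtain ⟨hok, ho, h2, -, hg1, hwl1⟩ := hL
      obtain ⟨-, hd, h2', -, hh1, hwr1⟩ := hR
      obtain ⟨e1, e2, e3, e4⟩ := read f e c.1.2 hb0 ho h2 hd h2'
      have := hok (zz f b (P ++ Q) c.1)
      rw [e3, e4, e1, e2, ← hg1, ← hh1, ← hwl1, ← hwr1, ← hv', ← hv, ← this, add_comm]
    · rw [if_neg hg]
      push Not at hg
      obtain ⟨k, hk, hkd⟩ := hg
      obtain ⟨q1, q2⟩ := h0 ((P ++ Q).length % M) ⟨k, hk, (hdm _ k hk).2 hkd⟩ P.length Q.length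
        c c' (by rw [List.length_append, Nat.mod_mod]) hL.2.2.2.1 hR.2.2.2.1
      rw [← hv, ← hv', q1, q2]
      abel
  · intro X hg hdig v
    obtain ⟨i, him, hi⟩ := hF (ph f X) (ww f b m e X) v
    set β := X.length % b ^ i with hβ
    set β' := X.length % b ^ (i + 1) with hβ'
    let c : NTT := (⟨i, him⟩, ph f (X.take β), ∑ j ∈ range i, e j (zz f b X j),
      ph f (X.drop β'), ∑ j ∈ Ico (i + 1) m, e j (zz f b X j), v)
    obtain ⟨t, ht, ht1, ht2⟩ := hn2 X.length hg c
    obtain ⟨o, ho1, ho2, ho3, ho4, ho5, ho6, ho7⟩ :=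
      exists_place hM hb hcop (hdig i him).1 (hdig i him).2 t
    set P := X.take o with hP
    set Q := X.drop o with hQ
    have hPQ : P ++ Q = X := List.take_append_drop _ _
    have hPl : P.length = o := by rw [hP, List.length_take]; omega
    have hQl : Q.length = X.length - o := by rw [hQ, List.length_drop]
    have hnL : nmL P.length = some c := by
      rw [hPl, ← ht1]; exact hpL' _ _ ho7
    have hnR : nmR Q.length = some c := by
      rw [hQl]
      apply ht2
      have h5 : t + (X.length - o) ≡ o + (X.length - o) [MOD M] := Nat.ModEq.add_right _ ho7.symm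
      have h6 : o + (X.length - o) = X.length := by omega
      rwa [h6] at h5
    obtain ⟨e1, e2, e3, e4⟩ := read (P := P) (Q := Q) f e him hb0 (by rw [hPl]; exact ho3)
      (by rw [hPl]; exact ho4) (by rw [hQl]; exact ho5) (by rw [hQl]; exact ho6)
    rw [hPQ] at e1 e2 e3 e4
    have hβP : P.length % b ^ i = β := by rw [hPl, ho2]
    have g1 : ph f (X.take β) = ph f (P.take (P.length % b ^ i)) := by
      have hβo : β ≤ o := by
        rw [hβ, ← ho2]; exact Nat.mod_le _ _
      rw [hβP, hP, List.take_take, min_eq_left hβo]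
    have hhigh : X.length % b ^ (i + 1) = P.length + Q.length % b ^ (i + 1) := by
      have h7 := mod_high (j := i + 1) hb0 (by rw [hPl]; exact ho3 : P.length < b ^ (i + 1))
        (by rw [hPl]; exact ho4) (by rw [hQl]; exact ho5 : b ^ i ∣ Q.length)
        (by rw [hQl]; exact ho6) (Nat.lt_succ_self i)
      rw [← h7, ← List.length_append, hPQ]
    have g2 : ph f (X.drop β') = ph f (Q.drop (Q.length % b ^ (i + 1))) := by
      have h8 := drop_app_right (P := P) (Q := Q) (s := Q.length % b ^ (i + 1))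
      rw [hPQ] at h8
      rw [hβ', hhigh, h8]
    have hok : okf m e F act c := by
      intro z
      have key := hi (ph f (X.take β)) (zz f b X i) (ph f (X.drop β'))
        (by rw [e3, ← g1, ← g2])
      have hw : ∀ y : W, ww f b m e X - e i (zz f b X i) + y =
          (∑ j ∈ range i, e j (zz f b X j)) + y + ∑ j ∈ Ico (i + 1) m, e j (zz f b X j) := by
        intro y
        rw [e4]; abel
      have k1 := key z
      have k2 := key 1
      rw [hw] at k1 k2
      show F (_ * z * _) (_ + e i z + _) + act v (_ * z * _) =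
        F (_ * 1 * _) (_ + e i 1 + _) + act v (_ * 1 * _)
      rw [k1, k2]
    refine ⟨P, Q, hPQ, ?_, ?_⟩
    · have hLL : LLc f b m e F act nmL P c := by
        refine ⟨hok, by rw [hPl]; exact ho3, by rw [hPl]; exact ho4, hnL, g1, ?_⟩
        exact e1
      exact lamf_of f b m e F act nmL hLL
    · have hRR : RRc f b m e F act nmR Q c := by
        refine ⟨hok, by rw [hQl]; exact ho5, by rw [hQl]; exact ho6, hnR, g2, ?_⟩
        exact e2
      exact rhof_of f b m e F act nmR hRR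
  · intro Q Q' hl hl' ht hmod hd
    have hMb : ∀ j, j ≤ m → Q.length % b ^ j = Q'.length % b ^ j := by
      intro j hj
      have h1 : b ^ j ∣ M * b ^ m := (pow_dvd_pow b hj).trans (Dvd.intro_left _ rfl)
      rw [← Nat.mod_mod_of_dvd _ h1, hmod, Nat.mod_mod_of_dvd _ h1]
    have hMM : Q.length % M = Q'.length % M := by
      have h1 : M ∣ M * b ^ m := Dvd.intro _ rfl
      rw [← Nat.mod_mod_of_dvd _ h1, hmod, Nat.mod_mod_of_dvd _ h1]
    have hzz : ∀ j, j < m → zz f b Q j = zz f b Q' j := by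
      intro j hj
      unfold zz
      rw [hMb j hj.le, hMb (j + 1) hj]
      rw [seg_congr (le_of_lt (lt_of_lt_of_le (Nat.mod_lt _ (Nat.pow_pos hb0))
        (Nat.pow_le_pow_right hb0 hj))) ht]
    have hdrop : ∀ p, p ≤ b ^ m → ph f (Q.drop p) = ph f (Q'.drop p) := fun p hp =>
      ph_drop_congr f hp hl hl' ht hd
    have hph : ph f Q = ph f Q' := by simpa using hdrop 0 (Nat.zero_le _)
    constructor
    · unfold rhof
      congr 1
      funext c
      have hc := c.1.2
      have a1 : (b ^ (c.1 : ℕ) ∣ Q.length) = (b ^ (c.1 : ℕ) ∣ Q'.length) := by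
        rw [Nat.dvd_iff_mod_eq_zero, Nat.dvd_iff_mod_eq_zero, hMb _ hc.le]
      have a2 : Q.length / b ^ (c.1 : ℕ) % b = Q'.length / b ^ (c.1 : ℕ) % b := by
        have h5 : ∀ x : ℕ, x / b ^ (c.1 : ℕ) % b = x % b ^ ((c.1 : ℕ) + 1) / b ^ (c.1 : ℕ) := by
          intro x
          rw [pow_succ, Nat.mod_mul_right_div_self]
        rw [h5, h5, hMb _ hc]
      have a3 : nmR Q.length = nmR Q'.length := hpR' _ _ hMM
      have a4 : ph f (Q.drop (Q.length % b ^ ((c.1 : ℕ) + 1))) =
          ph f (Q'.drop (Q'.length % b ^ ((c.1 : ℕ) + 1))) := by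
        rw [← hMb _ hc]
        exact hdrop _ (le_of_lt (lt_of_lt_of_le (Nat.mod_lt _ (Nat.pow_pos hb0))
          (Nat.pow_le_pow_right hb0 hc)))
      have a5 : (∑ j ∈ Ico ((c.1 : ℕ) + 1) m, e j (zz f b Q j)) =
          ∑ j ∈ Ico ((c.1 : ℕ) + 1) m, e j (zz f b Q' j) :=
        Finset.sum_congr rfl fun k hk => by rw [hzz k (Finset.mem_Ico.1 hk).2]
      unfold RRc
      rw [a1, a2, a3, a4, a5]
    · beta_reduce
      have b1 : (∀ k ∈ Ms, ¬ k ∣ Q.length) ↔ (∀ k ∈ Ms, ¬ k ∣ Q'.length) := by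
        refine forall₂_congr fun k hk => ?_
        rw [← hdm Q.length k hk, ← hdm Q'.length k hk, hMM]
      have b2 : ww f b m e Q = ww f b m e Q' :=
        Finset.sum_congr rfl fun k hk => by rw [hzz k (Finset.mem_range.1 hk)]
      rw [hph, b2, hMM]
      by_cases hq : ∀ k ∈ Ms, ¬ k ∣ Q.length
      · rw [if_pos hq, if_pos (b1.1 hq)]
      · rw [if_neg hq, if_neg (fun h => hq (b1.2 h))]

end Crest.Agent.R320.G1_604
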