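import Crest.Agent.R320.Core1u_130
import Crest.Agent.R320.FewVal_228
import Crest.Agent.R320.Reg_852

/-!
# Row 320, P4 (helper5's plan #13253): height one of everything below the blocks

The walls of the chain are helper263's walls (`FewVal_228.exists_walls`): wall-free words are
runs, and a REGULAR language whose words have boundedly many walls has height one.  A block, a
right-legal word and a word without block prefix have at most `hi + 2` walls.  So every regular
set of them has height one.
-/

set_option autoImplicit false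

universe u

namespace Crest.Agent.R320.P4_130

open Crest.Agent.R320.Hgt1_903 Crest.Agent.R320.Core1u_130 Crest.Agent.R320.FewWalls_228

variable {α : Type u}

theorem H_reg [Finite α] {k : ℕ} {L : Language α} (h : H k L) : L.IsRegular :=
  Crest.Agent.R320.Reg_852.HL.isRegular (k := k) h

/-- the wall rule of a set of words of length `n`, looking left -/
def wlS (n : ℕ) (S : Set (List α)) (u : List α) : Prop :=
  n ≤ u.length ∧ u.drop (u.length - n) ∈ S

theorem wlS_loc (n : ℕ) (S : Set (List α)) (u v : List α) (h : n ≤ v.length) :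
    wlS n S (u ++ v) ↔ wlS n S v := by
  unfold wlS
  rw [List.length_append]
  have h1 : (u ++ v).drop (u.length + v.length - n) = v.drop (v.length - n) := by
    rw [show u.length + v.length - n = u.length + (v.length - n) by omega, List.drop_append]
    simp
  rw [h1]
  constructor
  · rintro ⟨_, h2⟩; exact ⟨h, h2⟩
  · rintro ⟨_, h2⟩; exact ⟨by omega, h2⟩

theorem wlS_len (n : ℕ) (S : Set (List α)) (u : List α) (h : wlS n S u) : n ≤ u.length := h.1

/-- a wall at `x` is the wall prefix of length `x + n` -/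
theorem wlS_take {n : ℕ} {S : Set (List α)} {w : List α} {x : ℕ} (h : Wl n S w x) :
    wlS n S (w.take (x + n)) := by
  obtain ⟨h1, h2⟩ := h
  have hl : (w.take (x + n)).length = x + n := by rw [List.length_take]; omega
  refine ⟨by omega, ?_⟩
  rw [hl, show x + n - n = x by omega, List.drop_take, show x + n - x = n by omega]
  exact h2

theorem nw_le {n : ℕ} {S : Set (List α)} {w : List α} {K : ℕ}
    (h : ∀ Y Z, w = Y ++ Z → Z ≠ [] → wlS n S Y → Y.length ≤ K) : nw n S w ≤ K + 2 := by
  classical
  unfold nw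
  have hsub : ((Finset.range (w.length + 1)).filter (fun x => Wl n S w x)) ⊆
      insert (w.length - n) (Finset.range (K + 1)) := by
    intro x hx
    rw [Finset.mem_filter, Finset.mem_range] at hx
    obtain ⟨hx1, hx2⟩ := hx
    rw [Finset.mem_insert, Finset.mem_range]
    by_cases he : x + n = w.length
    · left; omega
    · right
      have hlt : x + n < w.length := lt_of_le_of_ne hx2.1 he
      have h1 := h (w.take (x + n)) (w.drop (x + n)) (List.take_append_drop _ _).symm
        (by
          intro h0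
          have := congrArg List.length h0
          rw [List.length_drop, List.length_nil] at this
          omega) (wlS_take hx2)
      rw [List.length_take] at h1
      omega
  have h2 := Finset.card_le_card hsub
  have h3 := Finset.card_insert_le (w.length - n) (Finset.range (K + 1))
  rw [Finset.card_range] at h3
  exact le_trans h2 (by omega)

/-- the property of helper263's walls used here (last clause of `FewVal_228.exists_walls`) -/
def Few (n : ℕ) (S : Set (List α)) : Prop :=
  ∀ (L : Language α), L.IsRegular → ∀ r, H 1 ({w | w ∈ L ∧ nw n S w ≤ r} : Language α)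

theorem H1_of_reg {n : ℕ} {S : Set (List α)} (hF : Few n S) {L : Language α}
    (hL : L.IsRegular) {K : ℕ}
    (h : ∀ w ∈ L, ∀ Y Z, w = Y ++ Z → Z ≠ [] → wlS n S Y → Y.length ≤ K) : H 1 L := by
  refine H.congr (hF L hL (K + 2)) fun w => ?_
  constructor
  · rintro ⟨h1, -⟩; exact h1
  · intro h1; exact ⟨h1, nw_le (h w h1)⟩

section

variable (C : Chain α) {n : ℕ} {S : Set (List α)} (hC : C.wl = wlS n S) (hF : Few n S)
include hC hF

/-- **regular sets of blocks have height one** -/
theorem H_sub_XX {L : Language α} (hL : L.IsRegular) (h : ∀ X ∈ L, X ∈ C.XX) : H 1 L := by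
  refine H1_of_reg hF hL (K := C.hi) fun w hw Y Z hYZ hZ hY => ?_
  have h1 := (h w hw).2.2 Y Z hYZ hZ (by rw [hC]; exact hY)
  have h2 := C.hhi (Y.length % C.M)
  unfold Chain.Qual at h1
  omega

/-- **regular sets of right-legal words have height one** -/
theorem H_sub_RQ {L : Language α} (hL : L.IsRegular) (h : ∀ Q ∈ L, C.RQ Q) : H 1 L := by
  refine H1_of_reg hF hL (K := C.hi) fun w hw Y Z hYZ hZ hY => ?_
  have h1 := (h w hw).2.2 Y Z hYZ hZ (by rw [hC]; exact hY)
  have h2 := C.hhi ((C.p0 + Y.length) % C.M)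
  omega

/-- **regular sets of words without block prefix have height one** -/
theorem H_sub_NP {L : Language α} (hL : L.IsRegular) (h : ∀ r ∈ L, ∀ X ∈ C.XX, ¬ X <+: r) :
    H 1 L := by
  refine H1_of_reg hF hL (K := C.hi) fun w hw Y Z hYZ hZ hY => ?_
  by_contra hcon
  have hq : C.Qual Y.length := by
    have h2 := C.hhi (Y.length % C.M)
    unfold Chain.Qual
    omega
  obtain ⟨X, hX, hXY⟩ := C.exists_block (by rw [hC]; exact hY) hq
  exact h w hw X hX (hXY.trans ⟨Z, hYZ.symm⟩)

/-- regular sets of words whose proper wall prefixes are bounded: e.g. right words of scheme 2 -/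
theorem H_sub_bdd {L : Language α} (hL : L.IsRegular) (K : ℕ)
    (h : ∀ w ∈ L, ∀ Y Z, w = Y ++ Z → Z ≠ [] → C.wl Y → Y.length ≤ K) : H 1 L :=
  H1_of_reg hF hL (K := K) fun w hw Y Z hYZ hZ hY => h w hw Y Z hYZ hZ (by rw [hC]; exact hY)

end

/-! ### regularity -/

theorem reg_val [Finite α] {S : Type*} [Monoid S] [Finite S] (φ : List α → S) (hφ1 : φ [] = 1)
    (hφ : ∀ u v, φ (u ++ v) = φ u * φ v) (s : S) : Language.IsRegular ({w | φ w = s} : Language α) := by
  have h := Crest.Agent.R320.Reg_852.isRegular_prod (fun a => φ [a]) s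
  have key : ∀ w : List α, (w.map fun a => φ [a]).prod = φ w := by
    intro w
    induction w with
    | nil => simp [hφ1]
    | cons a w ih =>
      rw [List.map_cons, List.prod_cons, ih, ← hφ]
      rfl
  have he : ({w | (w.map fun a => φ [a]).prod = s} : Language α) = {w | φ w = s} := by
    ext w
    change (w.map fun a => φ [a]).prod = s ↔ φ w = s
    rw [key]
  rw [← he]
  exact h

theorem reg_inter {L M : Language α} (hL : L.IsRegular) (hM : M.IsRegular) :
    Language.IsRegular ({w | w ∈ L ∧ w ∈ M} : Language α) := Language.IsRegular.inf hL hM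

theorem reg_XX [Finite α] (C : Chain α) : Language.IsRegular ({X | X ∈ C.XX} : Language α) :=
  H_reg C.H_XX

theorem reg_RQ [Finite α] (C : Chain α) : Language.IsRegular ({Q | C.RQ Q} : Language α) :=
  H_reg C.H_RQ

theorem H_NP0 [Finite α] (C : Chain α) : H 1 ({r | ∀ X ∈ C.XX, ¬ X <+: r} : Language α) := by
  refine H.congr (H.not (H.cat C.H_XX (H.univ 1))) fun w => ?_
  constructor
  · rintro h X hX ⟨t, ht⟩
    exact h ⟨X, t, ht, hX, trivial⟩
  · rintro h ⟨X, t, ht, hX, -⟩
    exact h X hX ⟨t, ht⟩

/-- **`hNP` of the top theorem** -/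
theorem hNP [Finite α] (C : Chain α) {n : ℕ} {W : Set (List α)} (hC : C.wl = wlS n W)
    (hF : Few n W) {S : Type*} [Monoid S] [Finite S] (φ : List α → S) (hφ1 : φ [] = 1)
    (hφ : ∀ u v, φ (u ++ v) = φ u * φ v) (s : S) :
    H 1 ({r | (∀ X ∈ C.XX, ¬ X <+: r) ∧ φ r = s} : Language α) :=
  H_sub_NP C hC hF (reg_inter (H_reg (H_NP0 C)) (reg_val φ hφ1 hφ s)) fun _ hr => hr.1

/-- **`hXT` of the top theorem**: it is enough that `ν` is regular on blocks -/
theorem hXT [Finite α] (C : Chain α) {n : ℕ} {W : Set (List α)} (hC : C.wl = wlS n W)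
    (hF : Few n W) {S V : Type*} [Monoid S] [Finite S] [Finite V] [Add V] (φ : List α → S)
    (hφ1 : φ [] = 1) (hφ : ∀ u v, φ (u ++ v) = φ u * φ v) (act : V → S → V) (ν : List α → V)
    (T : V → List α → V) (hT : ∀ X ∈ C.XX, ∀ v, T v X = act v (φ X) + ν X)
    (hν : ∀ b, Language.IsRegular ({X | X ∈ C.XX ∧ ν X = b} : Language α)) (v v' : V) :
    H 1 ({X | X ∈ C.XX ∧ T v X = v'} : Language α) := by
  classical
  have h1 : ∀ p : S × V, H 1 ({X | X ∈ ({w | φ w = p.1} : Language α) ∧
      X ∈ ({X | X ∈ C.XX ∧ ν X = p.2} : Language α)} : Language α) := fun p =>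
    H_sub_XX C hC hF (reg_inter (reg_val φ hφ1 hφ p.1) (hν p.2)) fun _ hX => hX.2.1
  have h2 : H 1 ({X | ∃ p : S × V, X ∈ ({X | X ∈ ({X | X ∈ ({w | φ w = p.1} : Language α) ∧
      X ∈ ({X | X ∈ C.XX ∧ ν X = p.2} : Language α)} : Language α) ∧
      X ∈ ({_X | act v p.1 + p.2 = v'} : Language α)} : Language α)} : Language α) :=
    H.exists_fintype _ fun p => H.inter (h1 p) (H.const 1 _)
  refine H.congr h2 fun X => ?_
  constructor
  · rintro ⟨p, ⟨h3, h4, h5⟩, h6⟩
    have h3' : φ X = p.1 := h3
    have h6' : act v p.1 + p.2 = v' := h6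
    exact ⟨h4, by rw [hT X h4, h3', h5]; exact h6'⟩
  · rintro ⟨h4, h5⟩
    refine ⟨(φ X, ν X), ⟨rfl, h4, rfl⟩, ?_⟩
    change act v (φ X) + ν X = v'
    rw [← hT X h4]; exact h5

/-- the walls exist: sparse, with the height-one property (helper263, helper228) -/
theorem exists_few (α : Type u) [Finite α] (W : ℕ) (hW : 1 ≤ W) :
    ∃ (n c P : ℕ) (S : Set (List α)), 0 < n ∧ 0 < P ∧ (∀ s ∈ S, s.length = n) ∧
      (∀ (w : List α) (x y : ℕ), x < y → Wl n S w x → Wl n S w y → x + W ≤ y) ∧
      PerOff n c P S ∧ Few n S :=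
  Crest.Agent.R320.FewVal_228.exists_walls α W hW

/-- the chain over a wall set -/
def mkChain (n : ℕ) (S : Set (List α)) (M : ℕ) (hM : 0 < M) (Om p0 : ℕ) (th : ℕ → ℕ)
    (lo hi : ℕ) (hlo : ∀ r, lo ≤ th r) (hhi : ∀ r, th r ≤ hi) (hp : p0 + M * Om + n ≤ lo)
    (hlo0 : 0 < lo) : Chain α where
  wl := wlS n S
  n := n
  loc := wlS_loc n S
  len := wlS_len n S
  M := M
  hM := hM
  Om := Om
  p0 := p0
  th := th
  lo := lo
  hi := hi
  hlo := hlo
  hhi := hhi
  hp := hp
  hlo0 := hlo0

end Crest.Agent.R320.P4_130
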