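import Mathlib

set_option autoImplicit false

/-!
Row 320: the wide ruler for the digit gadget (852 / lead #13673), spoil count `≤ |Ms| + m`.
-/

namespace Crest.Agent.R320.Sp_21

/-- exceptional lengths of the digit gadget. -/
def Bad (m M b : ℕ) (Ms : Finset ℕ) (n : ℕ) : Prop :=
  (∃ k ∈ Ms, k ∣ n) ∨ ∃ j < m, ¬ (M ≤ n / b ^ j % b ∧ n / b ^ j % b + M + 1 ≤ b)

theorem two_pow_add_two_pow {i l j k : ℕ} (h : 2 ^ i + 2 ^ l = 2 ^ j + 2 ^ k) :
    (i = j ∧ l = k) ∨ (i = k ∧ l = j) := by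
  have key : ∀ i l j k : ℕ, i ≤ l → j ≤ k → 2 ^ i + 2 ^ l = 2 ^ j + 2 ^ k → i = j ∧ l = k := by
    intro i l j k hil hjk h
    have h1 : (2 : ℕ) ^ i ≤ 2 ^ l := Nat.pow_le_pow_right (by norm_num) hil
    have h2 : (2 : ℕ) ^ j ≤ 2 ^ k := Nat.pow_le_pow_right (by norm_num) hjk
    have p1 : 0 < (2 : ℕ) ^ i := by positivity
    have p2 : 0 < (2 : ℕ) ^ j := by positivity
    rcases lt_trichotomy l k with hlt | heq | hgt
    · exfalso
      have h3 : (2 : ℕ) ^ (l + 1) ≤ 2 ^ k := Nat.pow_le_pow_right (by norm_num) hlt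
      rw [pow_succ] at h3
      omega
    · subst heq
      have h3 : (2 : ℕ) ^ i = 2 ^ j := by omega
      exact ⟨Nat.pow_right_injective (le_refl 2) h3, rfl⟩
    · exfalso
      have h3 : (2 : ℕ) ^ (k + 1) ≤ 2 ^ l := Nat.pow_le_pow_right (by norm_num) hgt
      rw [pow_succ] at h3
      omega
  rcases le_total i l with a | a <;> rcases le_total j k with b | b
  · exact Or.inl (key _ _ _ _ a b h)
  · obtain ⟨x, y⟩ := key _ _ _ _ a b (by omega)
    exact Or.inr ⟨x, y⟩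
  · obtain ⟨x, y⟩ := key _ _ _ _ a b (by omega)
    exact Or.inr ⟨y, x⟩
  · obtain ⟨x, y⟩ := key _ _ _ _ a b (by omega)
    exact Or.inl ⟨y, x⟩

/-- differences of powers of two determine the pair. -/
theorem delta_ne {i j k l : ℕ} (hij : i ≠ j) (h : (i, j) ≠ (k, l)) :
    ((2 : ℤ) ^ j - 2 ^ i) - (2 ^ l - 2 ^ k) ≠ 0 := by
  intro h0
  have h1 : (2 : ℕ) ^ j + 2 ^ k = 2 ^ l + 2 ^ i := by
    have : ((2 : ℤ) ^ j + 2 ^ k) = 2 ^ l + 2 ^ i := by linarith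
    exact_mod_cast this
  rcases two_pow_add_two_pow h1 with ⟨a, b⟩ | ⟨a, b⟩
  · exact h (by rw [a, b])
  · exact hij a.symm

theorem delta_lt {K i j k l : ℕ} (hi : i < K) (hj : j < K) (hk : k < K) (hl : l < K) :
    |((2 : ℤ) ^ j - 2 ^ i) - (2 ^ l - 2 ^ k)| < 2 ^ (K + 1) := by
  have e : ∀ x, x < K → (0 : ℤ) < 2 ^ x ∧ (2 : ℤ) ^ x < 2 ^ K := fun x hx =>
    ⟨by positivity, pow_lt_pow_right₀ (by norm_num) hx⟩
  have h1 := e i hi
  have h2 := e j hj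
  have h3 := e k hk
  have h4 := e l hl
  rw [abs_lt, pow_succ]
  constructor <;> linarith [h1.1, h1.2, h2.1, h2.2, h3.1, h3.2, h4.1, h4.2]

/-- a failing digit puts `n` near a multiple of `b ^ (j + 1)`. -/
theorem near_of_digit {n M b j : ℕ} (hb : 0 < b) (hMb : M ≤ b)
    (h : ¬ (M ≤ n / b ^ j % b ∧ n / b ^ j % b + M + 1 ≤ b)) :
    ∃ t : ℤ, |(n : ℤ) - t * (b : ℤ) ^ (j + 1)| ≤ M * (b : ℤ) ^ j := by
  have hbj : 0 < b ^ j := by positivity
  set x := n % (b ^ j * b) with hx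
  have hd : n / b ^ j % b = x / b ^ j := by
    rw [hx, Nat.mod_mul_right_div_self]
  have hn : n = b ^ j * b * (n / (b ^ j * b)) + x := (Nat.div_add_mod n (b ^ j * b)).symm
  have hxlt : x < b ^ j * b := Nat.mod_lt _ (by positivity)
  rw [hd] at h
  set t := n / (b ^ j * b) with ht
  by_cases h1 : M ≤ x / b ^ j
  · have h2 : b < x / b ^ j + M + 1 := by
      by_contra h3
      exact h ⟨h1, by omega⟩
    have h3 : b - M ≤ x / b ^ j := by omega
    have h4 : (b - M) * b ^ j ≤ x := by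
      calc (b - M) * b ^ j ≤ (x / b ^ j) * b ^ j := Nat.mul_le_mul_right _ h3
        _ ≤ x := Nat.div_mul_le_self _ _
    refine ⟨(t : ℤ) + 1, ?_⟩
    have h5 : ((b : ℤ) - M) * (b : ℤ) ^ j ≤ x := by
      have : (((b - M : ℕ) : ℤ)) * ((b ^ j : ℕ) : ℤ) ≤ (x : ℤ) := by exact_mod_cast h4
      rw [Nat.cast_sub hMb] at this
      push_cast at this
      exact this
    have h6 : (x : ℤ) < (b : ℤ) ^ j * b := by exact_mod_cast hxlt
    have h7 : (n : ℤ) = (b : ℤ) ^ j * b * t + x := by exact_mod_cast hn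
    rw [h7, abs_le, pow_succ]
    constructor <;> nlinarith
  · have h3 : x / b ^ j < M := by omega
    have h4 : x < M * b ^ j := by
      rw [Nat.div_lt_iff_lt_mul hbj] at h3
      exact h3
    refine ⟨(t : ℤ), ?_⟩
    have h5 : (x : ℤ) < (M : ℤ) * (b : ℤ) ^ j := by exact_mod_cast h4
    have h7 : (n : ℤ) = (b : ℤ) ^ j * b * t + x := by exact_mod_cast hn
    have h8 : (0 : ℤ) ≤ x := by positivity
    rw [h7, abs_le, pow_succ]
    constructor <;> nlinarith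

theorem geom_bound (b j : ℕ) (hb : 2 ≤ b) :
    b ^ j ≤ ∑ i ∈ Finset.range (j + 1), b ^ i ∧ ∑ i ∈ Finset.range (j + 1), b ^ i ≤ 2 * b ^ j := by
  induction j with
  | zero => simp
  | succ j ih =>
    rw [Finset.sum_range_succ]
    constructor
    · omega
    · have : 2 * b ^ j ≤ b ^ (j + 1) := by
        rw [pow_succ, mul_comm]
        exact Nat.mul_le_mul_left _ hb
      omega

/-- two failing digits at the same place with different `δ` are impossible. -/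
theorem digit_clash {M b j : ℕ} {δ K0 t1 t2 T1 T2 Lb : ℤ} (hM : 0 < M) (hb2 : 2 ≤ b)
    (hLb : 0 ≤ Lb) (hb : (8 * Lb + 2) * M < b) (hδ : δ ≠ 0) (hδ2 : |δ| ≤ Lb)
    (hK : (b : ℤ) ^ (j + 1) ∣ K0 - 4 * M * ((∑ i ∈ Finset.range (j + 1), b ^ i : ℕ) : ℤ))
    (h1 : |T1 - t1 * (b : ℤ) ^ (j + 1)| ≤ M * (b : ℤ) ^ j)
    (h2 : |T2 - t2 * (b : ℤ) ^ (j + 1)| ≤ M * (b : ℤ) ^ j)
    (h12 : T1 - T2 = δ * K0) : False := by
  obtain ⟨s, hs⟩ := hK
  obtain ⟨g1, g2⟩ := geom_bound b j hb2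
  set g := ∑ i ∈ Finset.range (j + 1), b ^ i with hg
  have g1' : (b : ℤ) ^ j ≤ (g : ℤ) := by exact_mod_cast g1
  have g2' : (g : ℤ) ≤ 2 * (b : ℤ) ^ j := by exact_mod_cast g2
  have hMz : (0 : ℤ) < M := by exact_mod_cast hM
  have hbj : (0 : ℤ) < (b : ℤ) ^ j := by
    have : (0 : ℤ) < b := by exact_mod_cast (by omega : 0 < b)
    positivity
  have hMb : (0 : ℤ) < (M : ℤ) * (b : ℤ) ^ j := by positivity
  -- combine
  have h3 : |δ * (4 * M * (g : ℤ)) - (t1 - t2 - δ * s) * (b : ℤ) ^ (j + 1)| ≤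
      2 * (M * (b : ℤ) ^ j) := by
    have e : δ * (4 * M * (g : ℤ)) - (t1 - t2 - δ * s) * (b : ℤ) ^ (j + 1) =
        (T1 - t1 * (b : ℤ) ^ (j + 1)) - (T2 - t2 * (b : ℤ) ^ (j + 1)) := by
      have : K0 = 4 * M * (g : ℤ) + (b : ℤ) ^ (j + 1) * s := by linarith
      have h12' : T1 = T2 + δ * K0 := by linarith
      rw [h12', this]
      ring
    rw [e]
    calc _ ≤ |T1 - t1 * (b : ℤ) ^ (j + 1)| + |T2 - t2 * (b : ℤ) ^ (j + 1)| := abs_sub _ _
      _ ≤ _ := by linarith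
  have hdg : |δ * (4 * M * (g : ℤ))| = |δ| * (4 * M * (g : ℤ)) := by
    rw [abs_mul, abs_of_nonneg (a := 4 * (M : ℤ) * (g : ℤ)) (by positivity)]
  have hd1 : 1 ≤ |δ| := Int.one_le_abs hδ
  by_cases ht : t1 - t2 - δ * s = 0
  · rw [ht, zero_mul, sub_zero, hdg] at h3
    have : 4 * (M : ℤ) * (g : ℤ) ≤ |δ| * (4 * M * (g : ℤ)) :=
      le_mul_of_one_le_left (by positivity) hd1
    nlinarith
  · have ht1 : 1 ≤ |t1 - t2 - δ * s| := Int.one_le_abs ht
    have h4 : |(t1 - t2 - δ * s) * (b : ℤ) ^ (j + 1)| =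
        |t1 - t2 - δ * s| * ((b : ℤ) * (b : ℤ) ^ j) := by
      rw [abs_mul, pow_succ, mul_comm ((b : ℤ) ^ j) b, abs_of_nonneg (a := (b : ℤ) * (b : ℤ) ^ j)
        (by positivity)]
    have h5 : (b : ℤ) * (b : ℤ) ^ j ≤ |(t1 - t2 - δ * s) * (b : ℤ) ^ (j + 1)| := by
      rw [h4]
      exact le_mul_of_one_le_left (by positivity) ht1
    have h6 : |(t1 - t2 - δ * s) * (b : ℤ) ^ (j + 1)| ≤
        |δ * (4 * M * (g : ℤ))| + 2 * (M * (b : ℤ) ^ j) := by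
      have := abs_sub_abs_le_abs_sub ((t1 - t2 - δ * s) * (b : ℤ) ^ (j + 1))
        (δ * (4 * M * (g : ℤ)))
      rw [abs_sub_comm] at this
      linarith
    have h7 : |δ| * (4 * M * (g : ℤ)) ≤ Lb * (4 * M * (2 * (b : ℤ) ^ j)) := by
      apply mul_le_mul hδ2 _ (by positivity) hLb
      have : 4 * (M : ℤ) * (g : ℤ) ≤ 4 * M * (2 * (b : ℤ) ^ j) :=
        mul_le_mul_of_nonneg_left g2' (by positivity)
      exact this
    have h8 : (b : ℤ) * (b : ℤ) ^ j ≤ (8 * Lb + 2) * M * (b : ℤ) ^ j := by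
      rw [hdg] at h6
      calc (b : ℤ) * (b : ℤ) ^ j ≤ Lb * (4 * M * (2 * (b : ℤ) ^ j)) + 2 * (M * (b : ℤ) ^ j) := by
            linarith
        _ = _ := by ring
    have h9 := le_of_mul_le_mul_right h8 hbj
    linarith

/-- **The ruler of the digit gadget.** -/
theorem spoil (K N1 m M b : ℕ) (Ms : Finset ℕ) (hM : 0 < M)
    (hk : ∀ k ∈ Ms, k ∣ M ∧ 2 ^ (K + 1) ≤ k) (hcop : Nat.Coprime b M)
    (hb : (2 ^ (K + 4) + 2) * M < b) :
    ∃ c : ℕ → ℕ, (∀ i j, i < j → c i + 4 * N1 < c j) ∧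
      (∀ i j k l, i ≠ j → k ≠ l → (i, j) ≠ (k, l) →
        c i + c l + 4 * N1 < c k + c j ∨ c k + c j + 4 * N1 < c i + c l) ∧
      ∀ T, (∀ i < K, c i ≤ T) → ∀ s : Finset (ℕ × ℕ),
        (∀ p ∈ s, p.1 < K ∧ p.2 < K ∧ p.1 ≠ p.2 ∧ Bad m M b Ms (T + c p.2 - c p.1)) →
        s.card ≤ Ms.card + m := by
  have hb2 : 2 ≤ b := by
    have : 0 < 2 ^ (K + 4) := by positivity
    nlinarith
  obtain ⟨x, hx1, hx2⟩ := Nat.chineseRemainder (Nat.Coprime.pow_right m hcop.symm) 1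
    (4 * M * ∑ i ∈ Finset.range m, b ^ i)
  set K0 := x + M * b ^ m * (4 * N1 + 1) with hK0
  have hbm : 0 < b ^ m := by positivity
  have hK0big : 4 * N1 < K0 := by
    have : 1 ≤ M * b ^ m := Nat.succ_le_of_lt (by positivity)
    nlinarith
  have hK1 : K0 ≡ 1 [MOD M] := by
    have : K0 ≡ x [MOD M] := by
      rw [hK0, mul_assoc]
      simp [Nat.ModEq]
    exact this.trans hx1
  have hK2 : K0 ≡ 4 * M * ∑ i ∈ Finset.range m, b ^ i [MOD b ^ m] := by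
    have : K0 ≡ x [MOD b ^ m] := by
      rw [hK0, mul_comm M, mul_assoc]
      simp [Nat.ModEq]
    exact this.trans hx2
  have hK2' : ∀ j < m, (b : ℤ) ^ (j + 1) ∣
      (K0 : ℤ) - 4 * M * ((∑ i ∈ Finset.range (j + 1), b ^ i : ℕ) : ℤ) := by
    intro j hj
    have h1 : (b : ℤ) ^ m ∣ (K0 : ℤ) - ((4 * M * ∑ i ∈ Finset.range m, b ^ i : ℕ) : ℤ) := by
      have := (Nat.modEq_iff_dvd.1 hK2.symm)
      exact_mod_cast this
    have h2 : (b : ℤ) ^ (j + 1) ∣ (b : ℤ) ^ m := pow_dvd_pow _ hj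
    have h3 : ((∑ i ∈ Finset.range m, b ^ i : ℕ) : ℤ) =
        ((∑ i ∈ Finset.range (j + 1), b ^ i : ℕ) : ℤ) +
          (b : ℤ) ^ (j + 1) * ((∑ i ∈ Finset.range (m - (j + 1)), b ^ i : ℕ) : ℤ) := by
      have h4 : m = (j + 1) + (m - (j + 1)) := by omega
      conv_lhs => rw [h4, Finset.sum_range_add]
      push_cast
      congr 1
      rw [Finset.mul_sum]
      refine Finset.sum_congr rfl fun i _ => ?_
      rw [pow_add]
    have h5 : (K0 : ℤ) - 4 * M * ((∑ i ∈ Finset.range (j + 1), b ^ i : ℕ) : ℤ) =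
        ((K0 : ℤ) - ((4 * M * ∑ i ∈ Finset.range m, b ^ i : ℕ) : ℤ)) +
          (b : ℤ) ^ (j + 1) * (4 * M * ((∑ i ∈ Finset.range (m - (j + 1)), b ^ i : ℕ) : ℤ)) := by
      rw [Nat.cast_mul, h3]
      push_cast
      ring
    rw [h5]
    exact dvd_add (h2.trans h1) (dvd_mul_right _ _)
  refine ⟨fun i => 2 ^ i * K0, ?_, ?_, ?_⟩
  · intro i j hij
    have h1 : (2 : ℕ) ^ i + 1 ≤ 2 ^ j := Nat.pow_lt_pow_right (by norm_num) hij
    show 2 ^ i * K0 + 4 * N1 < 2 ^ j * K0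
    calc 2 ^ i * K0 + 4 * N1 < 2 ^ i * K0 + K0 := by omega
      _ = (2 ^ i + 1) * K0 := by ring
      _ ≤ 2 ^ j * K0 := Nat.mul_le_mul_right _ h1
  · intro i j k l hij hkl hne
    show 2 ^ i * K0 + 2 ^ l * K0 + 4 * N1 < 2 ^ k * K0 + 2 ^ j * K0 ∨
      2 ^ k * K0 + 2 ^ j * K0 + 4 * N1 < 2 ^ i * K0 + 2 ^ l * K0
    have h1 : (2 : ℕ) ^ i + 2 ^ l ≠ 2 ^ k + 2 ^ j := by
      intro h
      rcases two_pow_add_two_pow h with ⟨a, b⟩ | ⟨a, b⟩
      · exact hne (by rw [a, b])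
      · exact hij a
    rcases lt_or_gt_of_ne h1 with h | h
    · left
      have : (2 ^ i + 2 ^ l + 1) * K0 ≤ (2 ^ k + 2 ^ j) * K0 := Nat.mul_le_mul_right _ h
      nlinarith
    · right
      have : (2 ^ k + 2 ^ j + 1) * K0 ≤ (2 ^ i + 2 ^ l) * K0 := Nat.mul_le_mul_right _ h
      nlinarith
  · intro T hT s hs
    have hcast : ∀ p ∈ s, ((T + 2 ^ p.2 * K0 - 2 ^ p.1 * K0 : ℕ) : ℤ) =
        T + ((2 : ℤ) ^ p.2 - 2 ^ p.1) * K0 := by
      intro p hp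
      have h1 : 2 ^ p.1 * K0 ≤ T := hT p.1 (hs p hp).1
      rw [Nat.cast_sub (by omega)]
      push_cast
      ring
    have hcard : (Ms.disjSum (Finset.range m)).card = Ms.card + m := by simp
    rw [← hcard]
    let r : ℕ × ℕ → ℕ ⊕ ℕ → Prop := fun p e => match e with
      | Sum.inl k => k ∣ (T + 2 ^ p.2 * K0 - 2 ^ p.1 * K0)
      | Sum.inr j => ¬ (M ≤ (T + 2 ^ p.2 * K0 - 2 ^ p.1 * K0) / b ^ j % b ∧
          (T + 2 ^ p.2 * K0 - 2 ^ p.1 * K0) / b ^ j % b + M + 1 ≤ b)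
    refine Finset.card_le_card_of_forall_subsingleton r ?_ ?_
    · intro p hp
      rcases (hs p hp).2.2.2 with ⟨k, hk, hd⟩ | ⟨j, hj, hd⟩
      · exact ⟨Sum.inl k, by simp [hk], hd⟩
      · exact ⟨Sum.inr j, by simp [hj], hd⟩
    · intro e he p hp q hq
      simp only [Set.mem_ofPred_eq] at hp hq
      obtain ⟨hp, hrp⟩ := hp
      obtain ⟨hq, hrq⟩ := hq
      by_contra hne
      obtain ⟨p1, p2⟩ := p
      obtain ⟨q1, q2⟩ := q
      have hp' := hs _ hp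
      have hq' := hs _ hq
      have hcp := hcast _ hp
      have hcq := hcast _ hq
      simp only at hp' hq' hcp hcq
      have hδ : ((2 : ℤ) ^ p2 - 2 ^ p1) - (2 ^ q2 - 2 ^ q1) ≠ 0 := delta_ne hp'.2.2.1 hne
      have hδ2 := delta_lt (K := K) hp'.1 hp'.2.1 hq'.1 hq'.2.1
      set δ := ((2 : ℤ) ^ p2 - 2 ^ p1) - (2 ^ q2 - 2 ^ q1) with hδdef
      rcases e with k | j
      · have hkm : k ∈ Ms := by simpa using he
        obtain ⟨hkM, hkbig⟩ := hk k hkm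
        have d1 : (k : ℤ) ∣ T + ((2 : ℤ) ^ p2 - 2 ^ p1) * K0 := by
          rw [← hcp]; exact_mod_cast hrp
        have d2 : (k : ℤ) ∣ T + ((2 : ℤ) ^ q2 - 2 ^ q1) * K0 := by
          rw [← hcq]; exact_mod_cast hrq
        have d3 : (k : ℤ) ∣ δ * K0 := by
          have := dvd_sub d1 d2
          have e : T + ((2 : ℤ) ^ p2 - 2 ^ p1) * K0 - (T + ((2 : ℤ) ^ q2 - 2 ^ q1) * K0) =
              δ * K0 := by rw [hδdef]; ring
          rwa [e] at this
        have d4 : (k : ℤ) ∣ (K0 : ℤ) - 1 := by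
          have h1 : (M : ℤ) ∣ (K0 : ℤ) - 1 := by
            have := (Nat.modEq_iff_dvd.1 hK1.symm)
            exact_mod_cast this
          exact (Int.natCast_dvd_natCast.2 hkM).trans h1
        have d5 : (k : ℤ) ∣ δ := by
          have h1 : (k : ℤ) ∣ δ * ((K0 : ℤ) - 1) := d4.mul_left _
          have h2 := dvd_sub d3 h1
          have e : δ * (K0 : ℤ) - δ * ((K0 : ℤ) - 1) = δ := by ring
          rwa [e] at h2
        have h6 : (k : ℤ) ≤ |δ| := by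
          have := Int.le_of_dvd (abs_pos.2 hδ) ((dvd_abs _ _).2 d5)
          exact this
        have h7 : ((2 : ℤ) ^ (K + 1)) ≤ k := by exact_mod_cast hkbig
        linarith
      · have hjm : j < m := by simpa using he
        have hMb : M ≤ b := by nlinarith [Nat.pos_of_ne_zero (show 2 ^ (K + 4) ≠ 0 by positivity)]
        obtain ⟨t1, n1⟩ := near_of_digit (by omega) hMb hrp
        obtain ⟨t2, n2⟩ := near_of_digit (by omega) hMb hrq
        rw [hcp] at n1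
        rw [hcq] at n2
        refine digit_clash (Lb := 2 ^ (K + 1)) hM hb2 (by positivity) ?_ hδ hδ2.le (hK2' j hjm)
          n1 n2 (by rw [hδdef]; ring)
        have : ((2 ^ (K + 4) + 2) * M : ℤ) < b := by exact_mod_cast hb
        calc (8 * (2 : ℤ) ^ (K + 1) + 2) * M = (2 ^ (K + 4) + 2) * M := by
              rw [pow_add, pow_add]; ring
          _ < b := this

end Crest.Agent.R320.Sp_21
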