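import Crest.Agent.R320.C2_270
import Crest.Agent.R320.G1_604
import Crest.Agent.R320.Sp_21
import Crest.Agent.R320.RegCongr_253
import Crest.Agent.R320.WallU_228
import Crest.Agent.R320.ExactR_237
import Crest.Agent.R320.P4_130
import Crest.Agent.R320.Fin_869

/-!
# Row 320: assembly (helper270)
-/

set_option autoImplicit false

namespace Crest.Agent.R320.Asm270

open Crest.Agent.R320.Hk_851 Crest.Agent.R320.Code110 Crest.Agent.R320.Top270
open Crest.Agent.R320.C2_270 Crest.Agent.R320.FewWalls_228

/-- words with a wall at the end -/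
theorem hl_wall {α : Type} [Finite α] {k n : ℕ} (SS : Set (List α)) :
    HL k ({X | WallU_228.Wo n SS X} : Language α) := by
  have hfin : {Y : List α | Y.length = n ∧ Y ∈ SS}.Finite :=
    (List.finite_length_eq α n).subset fun Y h => h.1
  let LF : Language α := {Y | Y.length = n ∧ Y ∈ SS}
  have h : HL k ((⊤ : Language α) * LF) :=
    HL.top.mul (HL.finite hfin)
  refine h.congr fun w => ?_
  constructor
  · rintro ⟨h1, h2⟩
    refine Language.mem_mul.2 ⟨w.take (w.length - n), trivial, w.drop (w.length - n), ⟨?_, h2⟩,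
      List.take_append_drop _ _⟩
    rw [List.length_drop]; omega
  · intro h
    obtain ⟨a, -, b, ⟨hb1, hb2⟩, rfl⟩ := Language.mem_mul.1 h
    refine ⟨by rw [List.length_append]; omega, ?_⟩
    rw [List.length_append, hb1, Nat.add_sub_cancel, List.drop_left]
    exact hb2

/-- long words -/
theorem hl_len {α : Type} [Finite α] {k : ℕ} (z : ℕ) :
    HL k ({X | z ≤ X.length} : Language α) := by
  have hfin : {Y : List α | Y.length < z}.Finite := List.finite_length_lt α z
  have h : HL k (({Y | Y.length < z} : Language α)ᶜ) := (HL.finite hfin).compl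
  refine h.congr fun w => ?_
  constructor
  · intro hw hw2
    have h1 : z ≤ w.length := hw
    have h2 : w.length < z := hw2
    omega
  · intro hw
    show z ≤ w.length
    by_contra hcon
    exact hw (show w.length < z by omega)

theorem hl_Zb {α : Type} [Finite α] {k n : ℕ} (SS : Set (List α)) (z : ℕ) :
    HL k (Zb (WallU_228.Wo n SS) z) := by
  have hA : HL k ({X | WallU_228.Wo n SS X ∧ z ≤ X.length} : Language α) :=
    HL.setOf_and (hl_wall SS) (hl_len z)
  have hB : HL k ({X | 1 ≤ X.length} : Language α) := hl_len 1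
  have h := hA.inf (HL.compl (HL.mul hA hB))
  refine h.congr fun w => ?_
  constructor
  · rintro ⟨h1, h2, h3⟩
    refine ⟨⟨h1, h2⟩, ?_⟩
    intro hm
    obtain ⟨a, ⟨ha1, ha2⟩, b, hb, rfl⟩ := Language.mem_mul.1 hm
    have hb' : 1 ≤ b.length := hb
    refine h3 a.length (by rw [List.length_append]; omega) ha2 ?_
    rw [List.take_left' rfl]
    exact ha1
  · rintro ⟨⟨h1, h2⟩, h3⟩
    refine ⟨h1, h2, ?_⟩
    intro t ht1 ht2 hw
    apply h3
    refine Language.mem_mul.2 ⟨w.take t, ⟨hw, ?_⟩, w.drop t, ?_, List.take_append_drop _ _⟩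
    · rw [List.length_take]; omega
    · show 1 ≤ (w.drop t).length
      rw [List.length_drop]; omega

theorem hl_NP {α : Type} [Finite α] {k n : ℕ} (SS : Set (List α)) (z : ℕ) :
    HL k ({r | ∀ X ∈ Zb (WallU_228.Wo n SS) z, ¬ X <+: r} : Language α) := by
  have h := HL.compl (HL.mul (hl_Zb (k := k) (n := n) SS z) (HL.top (α := α) (k := k)))
  refine h.congr fun w => ?_
  constructor
  · intro hw hm
    obtain ⟨a, ha, b, -, rfl⟩ := Language.mem_mul.1 hm
    exact hw a ha (List.prefix_append _ _)
  · rintro hw X hX ⟨b, rfl⟩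
    exact hw (Language.mem_mul.2 ⟨X, hX, b, trivial, rfl⟩)

theorem nw_Zb {α : Type} {n : ℕ} (SS : Set (List α)) (z : ℕ) (w : List α)
    (hw : w ∈ Zb (WallU_228.Wo n SS) z) : nw n SS w ≤ z + 2 := by
  refine P4_130.nw_le ?_
  rintro Y Z rfl hZ hY
  by_contra hcon
  refine hw.2.2 Y.length ?_ (by omega) ?_
  · rw [List.length_append]
    have := List.length_pos_iff.2 hZ
    omega
  · rw [List.take_left' rfl]
    exact hY

theorem nw_NP {α : Type} {n : ℕ} (SS : Set (List α)) (z : ℕ) (w : List α)
    (hw : ∀ X ∈ Zb (WallU_228.Wo n SS) z, ¬ X <+: w) : nw n SS w ≤ z + 2 := by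
  classical
  refine P4_130.nw_le ?_
  rintro Y Z rfl hZ hY
  by_contra hcon
  have hex : ∃ t, z ≤ t ∧ t ≤ Y.length ∧ WallU_228.Wo n SS (Y.take t) :=
    ⟨Y.length, by omega, le_rfl, by rw [List.take_length]; exact hY⟩
  obtain ⟨h1, h2, h3⟩ := Nat.find_spec hex
  set t := Nat.find hex with ht
  refine hw (Y.take t) ⟨h3, ?_, ?_⟩ ?_
  · rw [List.length_take]; omega
  · intro s hs1 hs2 hs3
    rw [List.length_take] at hs1
    rw [List.take_take, min_eq_left (by omega)] at hs3
    have := Nat.find_min' hex ⟨hs2, by omega, hs3⟩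
    omega
  · exact (List.take_prefix _ _).trans (List.prefix_append _ _)

/-- **the value languages have height 3** -/
theorem values (N : ℕ) (S : Type) [Monoid S] [Finite S] (f : Fin N → S) (s : S) :
    HL 3 ({w | (w.map f).prod = s} : Language (Fin N)) := by
  classical
  obtain ⟨act, act_add, act_one, act_mul, faith⟩ := Blk467.exists_module S
  haveI : Fintype S := Fintype.ofFinite S
  obtain ⟨m, r, hg⟩ := G1_604.g1 S (S → ZMod 2) act
  -- redundancy
  obtain ⟨K, hK⟩ := ExactR_237.exact_gadget (Fin N) S (S → ZMod 2) f act (2 + 2 * (r + m))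
  obtain ⟨Ms, M, hMs, hMk, hM, hg2⟩ := hg (2 ^ (K + 1))
  set b : ℕ := M * (2 ^ (K + 4) + 8) + 1 with hb
  have hpow : 16 ≤ 2 ^ (K + 4) := by
    have : 2 ^ 4 ≤ 2 ^ (K + 4) := Nat.pow_le_pow_right (by norm_num) (by omega)
    simpa using this
  have hb1 : 4 * M + 4 < b := by nlinarith
  have hb2 : (2 ^ (K + 4) + 2) * M < b := by nlinarith
  have hcop : Nat.Coprime b M := by
    rw [hb]
    simp
  obtain ⟨lam, rho, nu, g1l, g1s, g1c, g1f⟩ := hg2 b hb1 hcop (Fin N) f
  obtain ⟨c, hc1, hc2, hc3⟩ := Sp_21.spoil K (b ^ m) m M b Ms hM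
    (fun k hk => ⟨(hMk k hk).2.2, (hMk k hk).1.le⟩) hcop hb2
  have hcmono : ∀ i j, i < j → c i < c j := fun i j h => by have := hc1 i j h; omega
  obtain ⟨lam2, rho2, nu2, e1, e2⟩ := hK c (fun i j h _ => hcmono i j h)
  have hcK : ∀ k < K, c k ≤ c K := fun k hk => (hcmono k K hk).le
  -- walls
  obtain ⟨n, cc, P, SS, hn, hP, hloc, hgap, -, -, hfew⟩ :=
    WallU_228.walls_full (α := Fin N) (2 * c K + 2 * b ^ m)
  let W : List (Fin N) → Prop := WallU_228.Wo n SS
  have hrule : LRule W n := ⟨hn, hloc, fun X h => h.1⟩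
  let D : Dat W (S → ZMod 2) S :=
    { n := n, rule := hrule, z := c K + c K + c K + b ^ m + n + 1, p0 := c K, N1 := b ^ m,
      φ := fun w => (w.map f).prod, act := act, lam1 := lam, rho1 := rho, nu1 := nu, K := K,
      c := c, lam2 := lam2, rho2 := fun k Q => rho2 k Q 1, nu2 := fun X => nu2 X 1 }
  have hD : Ok D :=
    { s1 := fun P Q v v' h1 h2 => g1s P Q v v' h1 h2
      l1 := fun P v h => (g1l P v h).le
      s2 := by
        intro k hk P Q v v' hP _ h1 h2
        have := e1 k hk P Q 1 v v' hP h1 h2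
        rw [mul_one] at this
        exact this
      cle := hcK
      z1 := by show c K + b ^ m + n < c K + c K + c K + b ^ m + n + 1; omega }
  have hZ : HL 1 (Zb W D.z) := hl_Zb SS _
  have hreg : ∀ (L : Language (Fin N)), L.IsRegular → (∀ w ∈ L, nw n SS w ≤ D.z + 2) → HL 1 L := by
    intro L hL hw
    refine (hfew L hL (D.z + 2)).congr fun w => ?_
    constructor
    · intro h; exact ⟨h, hw w h⟩
    · rintro ⟨h, -⟩; exact h
  have hT : ∀ x y, HL 1 (ZT (Zb W D.z) (tau D) x y) := by
    intro x y
    have hr : Language.IsRegular ({u | tau D u x = y} : Language (Fin N)) := by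
      refine RegCongr_253.regular_of_congr f (c K + b ^ m) (M * b ^ m)
        (Nat.mul_pos hM (Nat.pow_pos (by omega))) _ ?_
      intro q q' h1 h2 h3 h4 h5 h6
      have h6' : tau D q x = y := h6
      show tau D q' x = y
      rw [← h6']
      have t1 : q.take (c K) = q'.take (c K) := by
        have := congrArg (List.take (c K)) h3
        rw [List.take_take, List.take_take, min_eq_left (by omega)] at this
        exact this
      have t2 : (q.drop (c K)).take (b ^ m) = (q'.drop (c K)).take (b ^ m) := by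
        have := congrArg (List.drop (c K)) h3
        rw [List.drop_take, List.drop_take, Nat.add_sub_cancel_left] at this
        exact this
      have t3 : (q.drop (c K)).drop (b ^ m) = q.drop (c K + b ^ m) := List.drop_drop ..
      have t3' : (q'.drop (c K)).drop (b ^ m) = q'.drop (c K + b ^ m) := List.drop_drop ..
      have t4 : (q.drop (c K)).length % (M * b ^ m) = (q'.drop (c K)).length % (M * b ^ m) := by
        rw [List.length_drop, List.length_drop]
        have e : q.length ≡ q'.length [MOD (M * b ^ m)] := h4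
        have e' : (q.length - c K) + c K ≡ (q'.length - c K) + c K [MOD (M * b ^ m)] := by
          rw [Nat.sub_add_cancel (by omega), Nat.sub_add_cancel (by omega)]; exact e
        exact Nat.ModEq.add_right_cancel' _ e'
      have t5 := g1f (q.drop (c K)) (q'.drop (c K)) (by rw [List.length_drop]; omega)
        (by rw [List.length_drop]; omega) t2 t4 (by rw [t3, t3']; exact h5)
      have t6 : ((q.drop (c K)).map f).prod = ((q'.drop (c K)).map f).prod := by
        rw [← List.take_append_drop (b ^ m) (q.drop (c K)),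
          ← List.take_append_drop (b ^ m) (q'.drop (c K)), List.map_append, List.map_append,
          List.prod_append, List.prod_append, t2, t3, t3', h5]
      show act (act x ((q'.take (c K)).map f).prod + nu2 (q'.take (c K)) 1)
          ((q'.drop (c K)).map f).prod + nu (q'.drop (c K)) =
        act (act x ((q.take (c K)).map f).prod + nu2 (q.take (c K)) 1)
          ((q.drop (c K)).map f).prod + nu (q.drop (c K))
      rw [t1, t6, t5.2]
    have hr2 : Language.IsRegular (ZT (Zb W D.z) (tau D) x y) := by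
      have := (Reg_852.HL.isRegular (hl_Zb (k := 1) (n := n) SS D.z)).inf hr
      exact this
    exact hreg _ hr2 fun w hw => nw_Zb SS _ w hw.1
  have hNP : ∀ s : S, HL 1 ({r | (∀ X ∈ Zb W D.z, ¬ X <+: r) ∧ (r.map f).prod = s} :
      Language (Fin N)) := by
    intro s
    have hr : Language.IsRegular ({r | (∀ X ∈ Zb W D.z, ¬ X <+: r) ∧ (r.map f).prod = s} :
        Language (Fin N)) := by
      have := (Reg_852.HL.isRegular (hl_NP (k := 1) (n := n) SS D.z)).inf
        (Reg_852.isRegular_prod f s)
      exact this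
    exact hreg _ hr fun w hw => nw_NP SS _ w hw.1
  have hfinL : ∀ (B : ℕ) (L : Language (Fin N)), (∀ p ∈ L, p.length ≤ B) → {p | p ∈ L}.Finite :=
    fun B L h => (List.finite_length_le (Fin N) B).subset fun p hp => h p hp
  have hf1 : ∀ x, {p | p ∈ L1 D x}.Finite := by
    intro x
    refine hfinL (c K + b ^ m) _ ?_
    rintro p ⟨h1, h2⟩
    have h3 := g1l _ _ h2
    rw [List.length_drop] at h3
    have h3' : p.length - c K < b ^ m := h3
    have h1' : c K ≤ p.length := h1
    omega
  have hf2 : ∀ x, {p | p ∈ L2 D x}.Finite := by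
    intro x
    refine hfinL (c K) _ ?_
    rintro p ⟨k, hk, h1, -⟩
    rw [h1]
    exact hcK k hk
  have hsepW : ∀ (X : List (Fin N)) t t', W (X.take t) → W (X.take t') → t < t' →
      t' ≤ X.length → t + (2 * c K + 2 * b ^ m) < t' := by
    intro X t t' h1 h2 h3 h4
    by_contra hcon
    have h5 := hgap (X.take t') (t' - t) h2 (by omega) (by omega)
    apply h5
    rw [List.length_take, min_eq_left h4, List.take_take, min_eq_left (by omega)]
    rw [show t' - (t' - t) = t by omega]
    exact h1
  refine top (φ := fun w => (w.map f).prod) (by simp) (by intro u v; simp) act act_add act_one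
    act_mul faith (pc hrule D.z) (τ := tau D)
    (fun X => act (nu2 (X.take (c K)) 1) ((X.drop (c K)).map f).prod + nu (X.drop (c K))) ?_
    hZ hT hNP hf1 hf2 ?_ s
  · intro u _ v
    show act (act v ((u.take (c K)).map f).prod + nu2 (u.take (c K)) 1)
          ((u.drop (c K)).map f).prod + nu (u.drop (c K)) = _
    rw [act_add, ← act_mul, ← List.prod_append, ← List.map_append, List.take_append_drop]
    abel
  · refine c2 D hD (Sp_21.Bad m M b Ms) (c K) (2 * c K + 2 * b ^ m) (c K) (r + m)
      (2 + 2 * (r + m)) hsepW ?_ ?_ (by omega) ?_ (by show _ ≤ _; exact le_rfl) ?_ ?_ ?_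
    · intro Y _ hY v
      unfold Sp_21.Bad at hY
      refine g1c Y (fun k hk h => hY (Or.inl ⟨k, hk, h⟩)) (fun j hj => ?_) v
      by_contra hcon
      exact hY (Or.inr ⟨j, hj, hcon⟩)
    · intro Y hY v
      have hY' : Y.length = c K := hY
      exact e2 Y 1 v fun k hk => by rw [hY']; exact hcK k hk
    · intro k hk k' hk'
      have := hcK k hk
      show c k ≤ c k' + c K
      omega
    · show c K + c K + c K + n ≤ c K + c K + c K + b ^ m + n + 1
      omega
    · intro a a' d d' ha ha' hd hd' h1 h2 h3 h4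
      have h3' : c a + c d' ≤ c a' + c d + 2 * b ^ m := h3
      have h4' : c a' + c d ≤ c a + c d' + 2 * b ^ m := h4
      by_contra hcon
      have hne : (a, a') ≠ (d, d') := fun h => hcon ⟨congrArg Prod.fst h, congrArg Prod.snd h⟩
      have := hc2 a a' d d' h1 h2 hne
      omega
    · intro T hT'
      refine (hc3 T (fun i hi => (hcK i hi).trans hT') _ ?_).trans (Nat.add_le_add_right hMs m)
      intro p hp
      rw [Finset.mem_filter, Finset.mem_product, Finset.mem_range, Finset.mem_range] at hp
      obtain ⟨⟨p1, p2⟩, p3, p4⟩ := hp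
      refine ⟨p1, p2, p3, ?_⟩
      have p5 : c p.1 ≤ T := (hcK _ p1).trans hT'
      have p6 : T + c K + c p.2 - c p.1 - c K = T + c p.2 - c p.1 := by omega
      have p4' : Sp_21.Bad m M b Ms (T + c K + c p.2 - c p.1 - c K) := p4
      rw [p6] at p4'
      exact p4'

/-- **S0495** -/
theorem final (α : Type*) [Finite α] (L : Language α) (hL : L.IsRegular) :
    ∃ e : Crest.RegLang.GRegExp α, e.height ≤ 3 ∧ e.lang = L :=
  Fin_869.template (fun n S _ _ f s => values n S f s) α L hL

end Crest.Agent.R320.Asm270
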