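import Mathlib

/-!
Row 320, P5 assembly (helper295): scheme 1 (a gadget exact for all totals, complete outside a thin
set `BadT`) and scheme 2 (promise ruler inside the first `p0` letters) on a left-looking block code;
the hypotheses `s1`, `s2`, `cc` of 163's `top`.
-/

set_option autoImplicit false
set_option linter.unusedSectionVars false

namespace Crest.Agent.R320.Asm_295

variable {α S V : Type*}

theorem take_app {P Q : List α} {t : ℕ} : (P ++ Q).take (P.length + t) = P ++ Q.take t := by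
  rw [List.take_append]
  simp [List.take_of_length_le]

theorem drop_app {P Q : List α} {t : ℕ} : (P ++ Q).drop (P.length + t) = Q.drop t := by
  simp [List.drop_append]

/-- all data -/
structure Dat (α S V : Type*) where
  φ : List α → S
  act : V → S → V
  Wo : List α → Prop
  n : ℕ
  W : ℕ
  N1 : ℕ
  Lf : List α → Option V
  Rf : List α → Option V
  nu1 : List α → V
  BadT : ℤ → Prop
  K : ℕ
  c : ℕ → ℕ
  p0 : ℕ
  lam : ℕ → List α → Option V
  rho : ℕ → List α → Option V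
  nu2 : List α → V
  z : ℕ
  Csp : ℕ

variable [Monoid S] [AddCommGroup V] (d : Dat α S V)

/-- blocks -/
def XX : Set (List α) :=
  {X | d.Wo X ∧ d.z ≤ X.length ∧ ∀ t, t < X.length → d.z ≤ t → ¬ d.Wo (X.take t)}

/-- zone map -/
def T (v : V) (X : List α) : V :=
  d.act (d.act v (d.φ (X.take d.p0)) + d.nu2 (X.take d.p0)) (d.φ (X.drop d.p0)) +
    d.nu1 (X.drop d.p0)

/-- its constant part -/
def nuX (X : List α) : V := d.act (d.nu2 (X.take d.p0)) (d.φ (X.drop d.p0)) + d.nu1 (X.drop d.p0)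

/-- left-legal words of scheme 1 -/
def LP1 (P : List α) (v : V) : Prop :=
  d.p0 ≤ P.length ∧ d.Lf (P.drop d.p0) = some (d.act v (d.φ (P.take d.p0)) + d.nu2 (P.take d.p0))

/-- right places of scheme 1 -/
def Pl1 (Q : List α) : Prop :=
  d.Wo Q ∧ d.z ≤ Q.length + d.p0 ∧ ∀ t, t < Q.length → d.z ≤ t + d.p0 + d.N1 → ¬ d.Wo (Q.take t)

open Classical in
/-- right labels of scheme 1 -/
noncomputable def R1 (Q : List α) : Option V := if Pl1 d Q then d.Rf Q else none

/-- left-legal words of scheme 2 -/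
def LP2 (P : List α) (v : V) : Prop := ∃ k < d.K, P.length = d.c k ∧ d.lam k P = some v

/-- end of the block of the candidate `k` -/
def IsEnd (k : ℕ) (Q : List α) (t : ℕ) : Prop :=
  t ≤ Q.length ∧ d.Wo (Q.take t) ∧ d.z ≤ t + d.c k ∧
    ∀ s, s < t → d.z ≤ s + d.c k → ¬ d.Wo (Q.take s)

/-- the block of the candidate `k` is bad -/
def BadAt (k : ℕ) (Q : List α) : Prop :=
  (∃ t, t ≤ Q.length ∧ d.Wo (Q.take t) ∧ d.z ≤ t + d.c k + d.N1 ∧ t + d.c k < d.z + d.N1) ∨
    ∃ t, IsEnd d k Q t ∧ d.BadT ((t : ℤ) + d.c k - d.p0)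

/-- bad blocks -/
def Bad (X : List α) : Prop :=
  (∃ t, t ≤ X.length ∧ d.Wo (X.take t) ∧ d.z ≤ t + d.N1 ∧ t < d.z + d.N1) ∨
    d.BadT ((X.length : ℤ) - d.p0)

/-- right labels of scheme 2, as a relation -/
def RR2 (Q : List α) (b : V) : Prop :=
  ∃ k Q1 X2 y, k < d.K ∧ Q = Q1 ++ X2 ∧ X2 ∈ XX d ∧ IsEnd d k Q Q1.length ∧
    (∀ k' < d.K, BadAt d k' Q → k' = k) ∧ d.rho k (Q.take (d.p0 - d.c k)) = some y ∧
    b = T d (d.act y (d.φ (Q1.drop (d.p0 - d.c k))) + d.nu1 (Q1.drop (d.p0 - d.c k))) X2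

open Classical in
/-- right labels of scheme 2 -/
noncomputable def R2 (Q : List α) : Option V :=
  if h : (∃ b, RR2 d Q b) ∧ ∃ k < d.K, BadAt d k Q then some h.1.choose else none

/-- the hypotheses -/
structure Ok : Prop where
  φ_app : ∀ u v, d.φ (u ++ v) = d.φ u * d.φ v
  act_add : ∀ v w s, d.act (v + w) s = d.act v s + d.act w s
  act_mul : ∀ v s s', d.act (d.act v s) s' = d.act v (s * s')
  Wloc : ∀ P Q : List α, d.n ≤ Q.length → (d.Wo (P ++ Q) ↔ d.Wo Q)
  Wgap : ∀ (X : List α) (s t : ℕ), t ≤ X.length → s < t → d.Wo (X.take s) → d.Wo (X.take t) →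
    s + d.W < t
  n_pos : 0 < d.n
  g_sound : ∀ P Q v b, d.Lf P = some v → d.Rf Q = some b → b = d.act v (d.φ (P ++ Q)) + d.nu1 (P ++ Q)
  g_left : ∀ P v, d.Lf P = some v → P.length ≤ d.N1
  g_comp : ∀ Y : List α, d.N1 ≤ Y.length → ¬ d.BadT (Y.length : ℤ) → ∀ v, ∃ P Q, P ++ Q = Y ∧
    d.Lf P = some v ∧ (d.Rf Q).isSome
  c_le : ∀ k < d.K, d.c k ≤ d.p0
  e_sound : ∀ k < d.K, ∀ P Q v y, P.length = d.c k → Q.length = d.p0 - d.c k →
    d.lam k P = some v → d.rho k Q = some y → y = d.act v (d.φ (P ++ Q)) + d.nu2 (P ++ Q)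
  hz : d.p0 + d.N1 + d.n ≤ d.z
  hW : 2 * (d.p0 + d.N1) ≤ d.W

variable {d}

theorem T_eq (h : Ok d) (v : V) (X : List α) : T d v X = d.act v (d.φ X) + nuX d X := by
  unfold T nuX
  rw [h.act_add, h.act_mul, ← h.φ_app, List.take_append_drop, add_assoc]

theorem XX_prefix {X Y : List α} (h1 : X ∈ XX d) (h2 : X ++ Y ∈ XX d) : Y = [] := by
  by_contra hY
  have hpos : 0 < Y.length := List.length_pos_iff.2 hY
  have := h2.2.2 X.length (by rw [List.length_append]; omega) h1.2.1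
  rw [List.take_left'] at this
  · exact this h1.1
  · rfl

theorem XX_ne (h : Ok d) : ([] : List α) ∉ XX d := by
  intro h1
  have := h1.2.1
  have h2 := h.hz
  have h3 := h.n_pos
  simp at this
  omega

theorem s1 (h : Ok d) (P : List α) (v : V) (Q : List α) (b : V) (hP : LP1 d P v)
    (hQ : R1 d Q = some b) : P ++ Q ∈ XX d ∧ T d v (P ++ Q) = b := by
  classical
  unfold R1 at hQ
  split_ifs at hQ with hpl
  obtain ⟨hp0, hL⟩ := hP
  have hlen := h.g_left _ _ hL
  rw [List.length_drop] at hlen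
  have hz := h.hz
  obtain ⟨hw, hl, hno⟩ := hpl
  refine ⟨⟨(h.Wloc _ _ (by omega)).2 hw, by rw [List.length_append]; omega, ?_⟩, ?_⟩
  · intro t ht1 ht2 hwt
    rw [List.length_append] at ht1
    obtain ⟨t', rfl⟩ : ∃ t', t = P.length + t' := ⟨t - P.length, by omega⟩
    rw [take_app, h.Wloc _ _ (by rw [List.length_take]; omega)] at hwt
    exact hno t' (by omega) (by omega) hwt
  · have := h.g_sound _ _ _ _ hL hQ
    unfold T
    rw [List.take_append_of_le_length hp0, List.drop_append_of_le_length hp0, ← this]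

theorem complete1 (h : Ok d) {X : List α} (hX : X ∈ XX d) (hb : ¬ Bad d X) (v : V) :
    ∃ P Q, X = P ++ Q ∧ LP1 d P v ∧ (R1 d Q).isSome := by
  classical
  have hz := h.hz
  have hn := h.n_pos
  unfold Bad at hb
  push Not at hb
  obtain ⟨hb1, hb2⟩ := hb
  have hXl : d.z + d.N1 ≤ X.length := by
    have := hb1 X.length le_rfl (by rw [List.take_length]; exact hX.1) (by have := hX.2.1; omega)
    omega
  have hYl : (X.drop d.p0).length = X.length - d.p0 := List.length_drop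
  have hcast : ((X.drop d.p0).length : ℤ) = (X.length : ℤ) - d.p0 := by rw [hYl]; omega
  obtain ⟨P', Q, hPQ, hL, hR⟩ := h.g_comp (X.drop d.p0) (by omega) (by rw [hcast]; exact hb2)
    (d.act v (d.φ (X.take d.p0)) + d.nu2 (X.take d.p0))
  have hP' := h.g_left _ _ hL
  have htk : (X.take d.p0).length = d.p0 := by rw [List.length_take]; omega
  have hXe : X = (X.take d.p0 ++ P') ++ Q := by
    rw [List.append_assoc, hPQ, List.take_append_drop]
  obtain ⟨P0, hP0⟩ : ∃ P0, P0 = X.take d.p0 := ⟨_, rfl⟩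
  rw [← hP0] at htk hXe hL
  have hlen : X.length = d.p0 + P'.length + Q.length := by
    rw [hXe, List.length_append, List.length_append, htk]
  refine ⟨P0 ++ P', Q, hXe, ⟨by rw [List.length_append]; omega, ?_⟩, ?_⟩
  · rw [List.drop_left' htk, List.take_left' htk]; exact hL
  · have hpl : Pl1 d Q := by
      refine ⟨?_, by omega, ?_⟩
      · have := hX.1
        rw [hXe] at this
        exact (h.Wloc _ _ (by omega)).1 this
      · intro t ht1 ht2 hwt
        have e : X.take ((P0 ++ P').length + t) = (P0 ++ P') ++ Q.take t := by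
          rw [hXe]; exact take_app
        have hw2 : d.Wo (X.take ((P0 ++ P').length + t)) := by
          rw [e, h.Wloc _ _ (by rw [List.length_take]; omega)]; exact hwt
        rw [List.length_append, htk] at hw2
        by_cases hc : d.z ≤ d.p0 + P'.length + t
        · exact hX.2.2 _ (by omega) hc hw2
        · have := hb1 _ (by omega) hw2 (by omega)
          omega
    unfold R1
    rw [if_pos hpl]; exact hR

theorem isEnd_unique {k : ℕ} {Q : List α} {s t : ℕ} (hs : IsEnd d k Q s) (ht : IsEnd d k Q t) :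
    s = t := by
  rcases lt_trichotomy s t with h1 | h1 | h1
  · exact absurd hs.2.1 (ht.2.2.2 s h1 hs.2.2.1)
  · exact h1
  · exact absurd ht.2.1 (hs.2.2.2 t h1 ht.2.2.1)

theorem exists_end {k : ℕ} {Q : List α} (h1 : d.Wo Q) (h2 : d.z ≤ Q.length + d.c k) :
    ∃ t, IsEnd d k Q t := by
  classical
  have hex : ∃ t, t ≤ Q.length ∧ d.Wo (Q.take t) ∧ d.z ≤ t + d.c k :=
    ⟨Q.length, le_rfl, by rw [List.take_length]; exact h1, h2⟩
  obtain ⟨a1, a2, a3⟩ := Nat.find_spec hex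
  refine ⟨Nat.find hex, a1, a2, a3, ?_⟩
  intro s hs hz hw
  exact Nat.find_min hex hs ⟨by omega, hw, hz⟩

theorem end_mem (h : Ok d) {k : ℕ} (hk : k < d.K) {P Q : List α} (hP : P.length = d.c k) {t : ℕ}
    (ht : IsEnd d k Q t) : P ++ Q.take t ∈ XX d := by
  have hz := h.hz
  have hc := h.c_le k hk
  obtain ⟨a1, a2, a3, a4⟩ := ht
  have hl : (Q.take t).length = t := by rw [List.length_take]; omega
  refine ⟨(h.Wloc _ _ (by omega)).2 a2, by rw [List.length_append]; omega, ?_⟩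
  intro s hs1 hs2 hw
  rw [List.length_append, hl] at hs1
  obtain ⟨s', rfl⟩ : ∃ s', s = P.length + s' := ⟨s - P.length, by omega⟩
  rw [take_app, List.take_take, min_eq_left (by omega),
    h.Wloc _ _ (by rw [List.length_take]; omega)] at hw
  exact a4 s' (by omega) (by omega) hw

theorem bad_badAt (h : Ok d) {k : ℕ} (hk : k < d.K) {P Q : List α} (hP : P.length = d.c k) {t : ℕ}
    (ht : IsEnd d k Q t) (hb : Bad d (P ++ Q.take t)) : BadAt d k Q := by
  have hz := h.hz
  have hc := h.c_le k hk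
  have hl : (Q.take t).length = t := by rw [List.length_take]; have := ht.1; omega
  rcases hb with ⟨s, b1, b2, b3, b4⟩ | hb
  · left
    rw [List.length_append, hl] at b1
    obtain ⟨s', rfl⟩ : ∃ s', s = P.length + s' := ⟨s - P.length, by omega⟩
    have := ht.1
    rw [take_app, List.take_take, min_eq_left (by omega),
      h.Wloc _ _ (by rw [List.length_take]; omega)] at b2
    exact ⟨s', by omega, b2, by omega, by omega⟩
  · right
    refine ⟨t, ht, ?_⟩
    rw [List.length_append, hl] at hb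
    have e : ((P.length + t : ℕ) : ℤ) - d.p0 = (t : ℤ) + d.c k - d.p0 := by
      rw [hP]; push_cast; ring
    rw [← e]; exact hb

theorem s2' (h : Ok d) (P : List α) (v : V) (Q : List α) (b : V) (hP : LP2 d P v)
    (hQ : RR2 d Q b) :
    (∃ Q1 X2, Q = Q1 ++ X2 ∧ P ++ Q1 ∈ XX d ∧ Bad d (P ++ Q1) ∧ X2 ∈ XX d ∧
      T d (T d v (P ++ Q1)) X2 = b) ∨ ∃ X ∈ XX d, ¬ Bad d X ∧ X <+: P ++ Q := by
  classical
  have hz := h.hz
  have hn := h.n_pos
  obtain ⟨k, Q1, X2, y, hk, hQe, hX2, hend, huniq, hrho, hb⟩ := hQ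
  obtain ⟨ks, hks, hPl, hlam⟩ := hP
  have hcs := h.c_le ks hks
  have hck := h.c_le k hk
  have hX2l := hX2.2.1
  have hQl : Q.length = Q1.length + X2.length := by rw [hQe, List.length_append]
  have hWQ : d.Wo Q := by rw [hQe]; exact (h.Wloc _ _ (by omega)).2 hX2.1
  obtain ⟨t, ht⟩ := exists_end (d := d) (k := ks) hWQ (by omega)
  have hXm := end_mem h hks hPl ht
  by_cases hbad : Bad d (P ++ Q.take t)
  swap
  · exact Or.inr ⟨_, hXm, hbad, (List.prefix_append_right_inj P).2 (List.take_prefix t Q)⟩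
  left
  have hbk := bad_badAt h hks hPl ht hbad
  have hkk := huniq ks hks hbk
  subst hkk
  have htt := isEnd_unique ht hend
  have hQ1 : Q.take t = Q1 := by rw [htt, hQe, List.take_left' rfl]
  rw [hQ1] at hXm hbad
  have h1 := ht.2.2.1
  refine ⟨Q1, X2, hQe, hXm, hbad, hX2, ?_⟩
  have hq1l : d.p0 - d.c ks ≤ Q1.length := by omega
  have e1 : Q.take (d.p0 - d.c ks) = Q1.take (d.p0 - d.c ks) := by
    rw [hQe, List.take_append_of_le_length hq1l]
  have hy := h.e_sound ks hks P (Q1.take (d.p0 - d.c ks)) v y hPl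
    (by rw [List.length_take]; omega) hlam (by rw [← e1]; exact hrho)
  have e2 : (P ++ Q1).take d.p0 = P ++ Q1.take (d.p0 - d.c ks) := by
    have : d.p0 = P.length + (d.p0 - d.c ks) := by omega
    conv_lhs => rw [this]
    rw [take_app]
  have e3 : (P ++ Q1).drop d.p0 = Q1.drop (d.p0 - d.c ks) := by
    have : d.p0 = P.length + (d.p0 - d.c ks) := by omega
    conv_lhs => rw [this]
    rw [drop_app]
  have e4 : T d v (P ++ Q1) = d.act y (d.φ (Q1.drop (d.p0 - d.c ks))) +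
      d.nu1 (Q1.drop (d.p0 - d.c ks)) := by
    unfold T
    rw [e2, e3, ← hy]
  rw [e4, hb]

/-- the counting hypotheses of scheme 2 -/
structure Ok2 (d : Dat α S V) : Prop where
  e_comp : ∀ X : List α, X.length = d.p0 → ∀ v, 1 + 2 * d.Csp < {k : ℕ | k < d.K ∧
    d.lam k (X.take (d.c k)) = some v ∧ (d.rho k (X.drop (d.c k))).isSome}.ncard
  spoil : ∀ t : ℤ, {p : ℕ × ℕ | p.1 < d.K ∧ p.2 < d.K ∧ p.1 ≠ p.2 ∧
    d.BadT (t + d.c p.1 - d.c p.2)}.ncard ≤ d.Csp
  spaced : ∀ a b a' b', a < d.K → b < d.K → a' < d.K → b' < d.K → a ≠ b →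
    |((d.c a : ℤ) - d.c b) - (d.c a' - d.c b')| ≤ 2 * d.N1 → a = a' ∧ b = b'

theorem wall_tr (h : Ok d) {U : List α} {m t : ℕ} (hm : m ≤ U.length) (ht : d.n ≤ t)
    (hl : t ≤ (U.drop m).length) : d.Wo ((U.drop m).take t) ↔ d.Wo (U.take (m + t)) := by
  have e : U.take (m + t) = U.take m ++ (U.drop m).take t := List.take_add
  rw [e]
  exact (h.Wloc _ _ (by rw [List.length_take]; omega)).symm

/-- pairs `(k', k)`: the place `c k` is spoiled by the candidate `k'`. -/
def PB (d : Dat α S V) (U : List α) : Set (ℕ × ℕ) :=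
  {p | p.1 < d.K ∧ p.2 < d.K ∧ p.1 ≠ p.2 ∧ BadAt d p.1 (U.drop (d.c p.2))}

theorem pb_card (h : Ok d) (h2 : Ok2 d) {U : List α} (hU : d.Wo U) (hl : d.z ≤ U.length) :
    (PB d U).ncard ≤ 1 + 2 * d.Csp := by
  classical
  have hz := h.hz
  have hn := h.n_pos
  have hWW := h.hW
  have hex1 : ∃ s, s ≤ U.length ∧ d.Wo (U.take s) ∧ d.z ≤ s + d.p0 :=
    ⟨U.length, le_rfl, by rw [List.take_length]; exact hU, by omega⟩
  obtain ⟨s1, hs1⟩ : ∃ s1, s1 = Nat.find hex1 := ⟨_, rfl⟩
  have hsp1 := Nat.find_spec hex1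
  rw [← hs1] at hsp1
  obtain ⟨s2, hs2⟩ : ∃ s2, ∀ s, s ≤ U.length → d.Wo (U.take s) → s1 < s →
      s1 < s2 ∧ s2 ≤ s ∧ d.Wo (U.take s2) := by
    by_cases hex2 : ∃ s, s ≤ U.length ∧ d.Wo (U.take s) ∧ s1 < s
    · refine ⟨Nat.find hex2, fun s a1 a2 a3 => ?_⟩
      exact ⟨(Nat.find_spec hex2).2.2, Nat.find_min' hex2 ⟨a1, a2, a3⟩, (Nat.find_spec hex2).2.1⟩
    · exact ⟨0, fun s a1 a2 a3 => absurd ⟨s, a1, a2, a3⟩ hex2⟩
  set E : Set (ℕ × ℕ) := {p | p.1 < d.K ∧ p.2 < d.K ∧ p.1 ≠ p.2 ∧ ∃ s, s ≤ U.length ∧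
    d.Wo (U.take s) ∧ d.z + d.c p.2 ≤ s + d.c p.1 + d.N1 ∧ s + d.c p.1 < d.z + d.c p.2 + d.N1} with hE
  set B1 : Set (ℕ × ℕ) := {p | p.1 < d.K ∧ p.2 < d.K ∧ p.1 ≠ p.2 ∧
    d.BadT (((s1 : ℤ) - d.p0) + d.c p.1 - d.c p.2)} with hB1
  set B2 : Set (ℕ × ℕ) := {p | p.1 < d.K ∧ p.2 < d.K ∧ p.1 ≠ p.2 ∧
    d.BadT (((s2 : ℤ) - d.p0) + d.c p.1 - d.c p.2)} with hB2
  have hfin : ∀ A : Set (ℕ × ℕ), (∀ p ∈ A, p.1 < d.K ∧ p.2 < d.K) → A.Finite := by
    intro A hA
    refine ((Set.finite_Iio d.K).prod (Set.finite_Iio d.K)).subset ?_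
    intro p hp
    exact ⟨(hA p hp).1, (hA p hp).2⟩
  have hfE : E.Finite := hfin _ fun p hp => ⟨hp.1, hp.2.1⟩
  have hf1 : B1.Finite := hfin _ fun p hp => ⟨hp.1, hp.2.1⟩
  have hf2 : B2.Finite := hfin _ fun p hp => ⟨hp.1, hp.2.1⟩
  have hsub : PB d U ⊆ E ∪ (B1 ∪ B2) := by
    rintro ⟨k', k⟩ ⟨hk', hk, hne, hbad⟩
    simp only at hk' hk hne hbad
    have hck' := h.c_le k' hk'
    have hck := h.c_le k hk
    have hmU : d.c k ≤ U.length := by omega
    have hdl : (U.drop (d.c k)).length = U.length - d.c k := List.length_drop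
    rcases hbad with ⟨t, a1, a2, a3, a4⟩ | ⟨t, ht, hbt⟩
    · left
      refine ⟨hk', hk, hne, d.c k + t, by omega, ?_, by simp only; omega, by simp only; omega⟩
      exact (wall_tr h hmU (by omega) a1).1 a2
    · right
      obtain ⟨a1, a2, a3, a4⟩ := ht
      have hw : d.Wo (U.take (d.c k + t)) := (wall_tr h hmU (by omega) a1).1 a2
      have hle : s1 ≤ d.c k + t := by
        rw [hs1]; exact Nat.find_min' hex1 ⟨by omega, hw, by omega⟩
      have hcast : ∀ s : ℕ, s = d.c k + t →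
          ((s : ℤ) - d.p0) + d.c k' - d.c k = (t : ℤ) + d.c k' - d.p0 := by
        intro s hs; subst hs; push_cast; ring
      rcases hle.eq_or_lt with he | hlt
      · left
        refine ⟨hk', hk, hne, ?_⟩
        simp only
        rw [hcast _ he]; exact hbt
      · right
        obtain ⟨b1, b2, b3⟩ := hs2 _ (by omega) hw hlt
        have hg := h.Wgap U s1 s2 (by omega) b1 hsp1.2.1 b3
        have heq : s2 = d.c k + t := by
          by_contra hne2
          have hlt2 : s2 < d.c k + t := lt_of_le_of_ne b2 hne2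
          obtain ⟨s', hs'⟩ : ∃ s', s2 = d.c k + s' := ⟨s2 - d.c k, by omega⟩
          refine a4 s' (by omega) (by omega) ?_
          rw [wall_tr h hmU (by omega) (by omega), ← hs']; exact b3
        refine ⟨hk', hk, hne, ?_⟩
        simp only
        rw [hcast _ heq]; exact hbt
  have hcE : E.ncard ≤ 1 := by
    rw [Set.ncard_le_one hfE]
    rintro ⟨a, b⟩ ⟨ha, hb, hab, s, x1, x2, x3, x4⟩ ⟨a', b'⟩ ⟨ha', hb', hab', s', y1, y2, y3, y4⟩
    simp only at ha hb hab x3 x4 ha' hb' hab' y3 y4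
    have c1 := h.c_le a ha
    have c2 := h.c_le b hb
    have c3 := h.c_le a' ha'
    have c4 := h.c_le b' hb'
    have hss : s = s' := by
      rcases lt_trichotomy s s' with hlt | he | hlt
      · have := h.Wgap U s s' y1 hlt x2 y2
        omega
      · exact he
      · have := h.Wgap U s' s x1 hlt y2 x2
        omega
    subst hss
    obtain ⟨r1, r2⟩ := h2.spaced a b a' b' ha hb ha' hb' hab (by rw [abs_le]; constructor <;> omega)
    rw [r1, r2]
  calc (PB d U).ncard ≤ (E ∪ (B1 ∪ B2)).ncard := Set.ncard_le_ncard hsub (hfE.union (hf1.union hf2))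
    _ ≤ E.ncard + (B1 ∪ B2).ncard := Set.ncard_union_le _ _
    _ ≤ E.ncard + (B1.ncard + B2.ncard) := by
        have := Set.ncard_union_le B1 B2; omega
    _ ≤ 1 + 2 * d.Csp := by
        have e1 : B1.ncard ≤ d.Csp := h2.spoil _
        have e2 : B2.ncard ≤ d.Csp := h2.spoil _
        omega

theorem cc2 (h : Ok d) (h2 : Ok2 d) {X X2 : List α} (hX : X ∈ XX d) (hb : Bad d X)
    (hX2 : X2 ∈ XX d) (v : V) :
    ∃ P Q b, P ++ Q = X ++ X2 ∧ LP2 d P v ∧ RR2 d Q b := by
  classical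
  have hz := h.hz
  have hn := h.n_pos
  have hXl := hX.2.1
  have hX2l := hX2.2.1
  obtain ⟨U, hUd⟩ : ∃ U, U = X ++ X2 := ⟨_, rfl⟩
  have hUl : U.length = X.length + X2.length := by rw [hUd, List.length_append]
  have hUw : d.Wo U := by rw [hUd]; exact (h.Wloc _ _ (by omega)).2 hX2.1
  have hpb := pb_card h h2 hUw (by omega)
  have hpf : (PB d U).Finite := by
    refine ((Set.finite_Iio d.K).prod (Set.finite_Iio d.K)).subset ?_
    intro p hp
    exact ⟨hp.1, hp.2.1⟩
  have hX0 : (X.take d.p0).length = d.p0 := by rw [List.length_take]; omega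
  have hgc := h2.e_comp (X.take d.p0) hX0 v
  have himg : ((fun p : ℕ × ℕ => p.2) '' PB d U).ncard ≤ 1 + 2 * d.Csp :=
    (Set.ncard_image_le hpf).trans hpb
  have hex : ∃ k ∈ {k : ℕ | k < d.K ∧ d.lam k ((X.take d.p0).take (d.c k)) = some v ∧
      (d.rho k ((X.take d.p0).drop (d.c k))).isSome}, k ∉ (fun p : ℕ × ℕ => p.2) '' PB d U := by
    by_contra hcon
    push Not at hcon
    have hsub : {k : ℕ | k < d.K ∧ d.lam k ((X.take d.p0).take (d.c k)) = some v ∧
      (d.rho k ((X.take d.p0).drop (d.c k))).isSome} ⊆ (fun p : ℕ × ℕ => p.2) '' PB d U := by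
      intro k hk
      exact hcon k hk
    have := Set.ncard_le_ncard hsub (hpf.image _)
    omega
  obtain ⟨k, ⟨hkK, hlam, hrho⟩, hkn⟩ := hex
  have hck := h.c_le k hkK
  have huniq : ∀ k' < d.K, BadAt d k' (U.drop (d.c k)) → k' = k := by
    intro k' hk' hbk
    by_contra hne
    exact hkn ⟨(k', k), ⟨hk', hkK, hne, hbk⟩, rfl⟩
  have hdr : U.drop (d.c k) = X.drop (d.c k) ++ X2 := by
    rw [hUd, List.drop_append_of_le_length (by omega)]
  have hPl : (X.take (d.c k)).length = d.c k := by rw [List.length_take]; omega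
  have hDl : (X.drop (d.c k)).length = X.length - d.c k := List.length_drop
  have hXs : X = X.take (d.c k) ++ X.drop (d.c k) := (List.take_append_drop _ _).symm
  have hend : IsEnd d k (U.drop (d.c k)) (X.drop (d.c k)).length := by
    refine ⟨by rw [hdr, List.length_append]; omega, ?_, by omega, ?_⟩
    · rw [hdr, List.take_left' rfl]
      have := hX.1
      rw [hXs] at this
      exact (h.Wloc _ _ (by omega)).1 this
    · intro s hs1 hs2 hw
      rw [wall_tr h (by omega) (by omega) (by rw [hdr, List.length_append]; omega)] at hw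
      rw [hUd, List.take_append_of_le_length (by omega)] at hw
      exact hX.2.2 _ (by omega) (by omega) hw
  have hbadk : BadAt d k (U.drop (d.c k)) := by
    refine bad_badAt h hkK hPl hend ?_
    rw [hdr, List.take_left' rfl, List.take_append_drop]; exact hb
  obtain ⟨y, hy⟩ := Option.isSome_iff_exists.1 hrho
  have hy2 : d.rho k ((U.drop (d.c k)).take (d.p0 - d.c k)) = some y := by
    rw [← hy, List.drop_take, hdr, List.take_append_of_le_length (by omega)]
  refine ⟨U.take (d.c k), U.drop (d.c k), _, by rw [← hUd, List.take_append_drop], ?_,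
    ⟨k, X.drop (d.c k), X2, y, hkK, hdr, hX2, hend, huniq, hy2, rfl⟩⟩
  refine ⟨k, hkK, by rw [List.length_take]; omega, ?_⟩
  rw [← hlam, List.take_take, min_eq_left hck, hUd, List.take_append_of_le_length (by omega)]

theorem XX_inj {X Y : List α} (h1 : X ∈ XX d) (h2 : Y ∈ XX d) (h : X <+: Y) : X = Y := by
  obtain ⟨Z, rfl⟩ := h
  rw [XX_prefix h1 h2, List.append_nil]

/-- `hcc1` of 120's `top5` -/
theorem hcc1 (h : Ok d) {X : List α} (hX : X ∈ XX d) (hb : ¬ Bad d X) (v : V) :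
    ∃ P Q, P ++ Q = X ∧ LP1 d P v ∧ ∀ x P', LP1 d P' x → P' ++ Q ∈ XX d ∧
      T d x (P' ++ Q) = T d v X := by
  obtain ⟨P, Q, e, hP, hQ⟩ := complete1 h hX hb v
  obtain ⟨b, hb'⟩ := Option.isSome_iff_exists.1 hQ
  refine ⟨P, Q, e.symm, hP, fun x P' hP' => ?_⟩
  obtain ⟨a1, a2⟩ := s1 h P' x Q b hP' hb'
  obtain ⟨b1, b2⟩ := s1 h P v Q b hP hb'
  exact ⟨a1, by rw [a2, e, b2]⟩

/-- `hcc2` of 120's `top5` -/
theorem hcc2 (h : Ok d) (h2 : Ok2 d) {X Y : List α} (hX : X ∈ XX d) (hb : Bad d X)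
    (hY : Y ∈ XX d) (v : V) :
    ∃ P Q, P ++ Q = X ++ Y ∧ LP2 d P v ∧ ∀ x P', LP2 d P' x →
      (∃ X', X' ∈ XX d ∧ Bad d X' ∧ ∃ Y' ∈ XX d, X' ++ Y' = P' ++ Q ∧
        T d (T d x X') Y' = T d (T d v X) Y) ∨
      (∃ X' ∈ XX d, ¬ Bad d X' ∧ X' <+: P' ++ Q) := by
  obtain ⟨P, Q, b, e, hP, hQ⟩ := cc2 h h2 hX hb hY v
  have hval : T d (T d v X) Y = b := by
    rcases s2' h P v Q b hP hQ with ⟨Q1, X2, e1, m1, m2, m3, m4⟩ | ⟨X', m1, m2, m3⟩
    · have e2 : X ++ Y = (P ++ Q1) ++ X2 := by rw [← e, e1, List.append_assoc]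
      have hx : X = P ++ Q1 := by
        rcases List.prefix_or_prefix_of_prefix (List.prefix_append X Y)
          (by rw [e2]; exact List.prefix_append _ _ : (P ++ Q1) <+: X ++ Y) with h' | h'
        · exact XX_inj hX m1 h'
        · exact (XX_inj m1 hX h').symm
      subst hx
      have hy : Y = X2 := List.append_cancel_left e2
      subst hy
      exact m4
    · exfalso
      rw [e] at m3
      have hx : X = X' := by
        rcases List.prefix_or_prefix_of_prefix (List.prefix_append X Y) m3 with h' | h'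
        · exact XX_inj hX m1 h'
        · exact (XX_inj m1 hX h').symm
      rw [← hx] at m2
      exact m2 hb
  refine ⟨P, Q, e, hP, fun x P' hP' => ?_⟩
  rcases s2' h P' x Q b hP' hQ with ⟨Q1, X2, e1, m1, m2, m3, m4⟩ | h'
  · left
    exact ⟨P' ++ Q1, m1, m2, X2, m3, by rw [e1, List.append_assoc], by rw [m4, hval]⟩
  · exact Or.inr h'

end Crest.Agent.R320.Asm_295
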