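import Crest.Agent.R320.MarkAll_813
import Crest.Agent.R320.Core1_922

/-!
# Row 320: left-looking walls on ALL words (helper922), over 813's marker rule

`walls_all_left` : one rule `Wo` with window `n` such that
* `LW n Wo` : `Wo (P ++ Q) ↔ Wo Q` for `n ≤ |Q|`, and `Wo Q → n ≤ |Q|`;
* two walls of the same text are more than `W` apart;
* no wall stands at the end of `n` letters of period `≤ W`;
* a wall-free stretch `(b - N, b]` is periodic, up to `G` letters at both ends, with one period `≤ W`;
* a text without inner walls is `u ++ x^k ++ v` with `|u|, |v| ≤ B`, `|x| ≤ W`.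
-/

set_option autoImplicit false

namespace Crest.Agent.R320.LWallAll_922

open Crest.Agent.R320.MarkAll_813 Crest.Agent.R320.Core1_922

variable {α : Type*}

theorem hasPeriod_reverse {w : List α} {p : ℕ} (h : w.HasPeriod p) : w.reverse.HasPeriod p := by
  rw [List.hasPeriod_iff_getElem?] at h ⊢
  intro i hi
  rw [List.length_reverse] at hi
  rw [List.getElem?_reverse (by omega), List.getElem?_reverse (by omega)]
  have h1 := h (w.length - 1 - (i + p)) (by omega)
  rw [h1]
  congr 1
  omega

theorem hasPeriod_of_reverse {w : List α} {p : ℕ} (h : w.reverse.HasPeriod p) : w.HasPeriod p := by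
  have := hasPeriod_reverse h
  rwa [List.reverse_reverse] at this

theorem drop_reverse_take (X : List α) {b i : ℕ} (hb : b ≤ X.length) :
    ((X.take b).reverse).drop i = (X.take (b - i)).reverse := by
  rw [List.drop_reverse, List.length_take, min_eq_left hb, List.take_take,
    min_eq_left (Nat.sub_le _ _)]

theorem walls_all_left (A : Type*) [Finite A] (W : ℕ) (hW : 0 < W) :
    ∃ (n G B : ℕ) (Wo : List A → Prop), LW n Wo ∧
      (∀ (X : List A) (s t : ℕ), s < t → t ≤ X.length → Wo (X.take s) → Wo (X.take t) →
        W < t - s) ∧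
      (∀ (X : List A) (p : ℕ), 0 < p → p ≤ W → Wo X → ¬ (X.drop (X.length - n)).HasPeriod p) ∧
      (∀ (X : List A) (b N : ℕ), N + n ≤ b → b ≤ X.length →
        (∀ t, b < t + N → t ≤ b → ¬ Wo (X.take t)) →
        ∃ p, 0 < p ∧ p ≤ W ∧ ((X.drop (b - N + G)).take (N - 2 * G)).HasPeriod p) ∧
      (∀ X : List A, (∀ t < X.length, ¬ Wo (X.take t)) →
        ∃ (u x v : List A) (k : ℕ), u.length ≤ B ∧ x.length ≤ W ∧ v.length ≤ B ∧
          X = u ++ (List.replicate k x).flatten ++ v) := by
  obtain ⟨n, G, R, h1, h2, h3, h4, h5⟩ := exists_marks A W hW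
  have happ : ∀ P Q : List A, n ≤ Q.length → (R (P ++ Q).reverse ↔ R Q.reverse) := by
    intro P Q hQ
    rw [List.reverse_append, h1, h1 Q.reverse, List.take_append_of_le_length (by simpa using hQ)]
  have hstr : ∀ (X : List A) (b N : ℕ), N + n ≤ b → b ≤ X.length →
      (∀ t, b < t + N → t ≤ b → ¬ R (X.take t).reverse) →
      ∃ p, 0 < p ∧ p ≤ W ∧ ((X.drop (b - N + G)).take (N - 2 * G)).HasPeriod p := by
    intro X b N hN hb hno
    obtain ⟨p, hp, hpW, hper⟩ := h5 (X.take b).reverse N
      (by rw [List.length_reverse, List.length_take]; omega)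
      (fun i hi => by
        rw [drop_reverse_take X hb]
        exact hno (b - i) (by omega) (by omega))
    refine ⟨p, hp, hpW, ?_⟩
    by_cases hG : N < 2 * G
    · rw [Nat.sub_eq_zero_of_le hG.le, List.take_zero]
      exact List.hasPeriod_empty p
    · push Not at hG
      rw [drop_reverse_take X hb] at hper
      have e1 : ((X.take (b - G)).reverse).take (N - 2 * G) =
          ((X.take (b - G)).drop (b - N + G)).reverse := by
        rw [List.take_reverse, List.length_take, min_eq_left (by omega)]
        congr 2
        omega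
      rw [e1] at hper
      have e2 : (X.drop (b - N + G)).take (N - 2 * G) = (X.take (b - G)).drop (b - N + G) := by
        rw [List.take_drop]
        congr 2
        omega
      rw [e2]
      exact hasPeriod_of_reverse hper
  refine ⟨n, G, n + 2 * G + W + 1, fun X => R X.reverse, ⟨happ, fun Q hQ => by simpa using h2 _ hQ⟩,
    ?_, ?_, hstr, ?_⟩
  · intro X s t hst ht hs hR
    by_contra hW'
    refine h3 (X.take t).reverse (t - s) hR (by omega) (by omega) ?_
    rw [drop_reverse_take X ht, Nat.sub_sub_self hst.le]
    exact hs
  · intro X p hp hpW hR hper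
    refine h4 X.reverse p hp hpW ?_ hR
    rw [List.take_reverse]
    exact hasPeriod_reverse hper
  · intro X hX
    by_cases hs : X.length ≤ n + 1
    · exact ⟨X, [], [], 0, by omega, by simp, by simp, by simp⟩
    push Not at hs
    obtain ⟨p, hp, hpW, hper⟩ := hstr X (X.length - 1) (X.length - 1 - n) (by omega) (by omega)
      (fun t _ ht => hX t (by omega))
    set m := (X.drop (X.length - 1 - (X.length - 1 - n) + G)).take
      (X.length - 1 - n - 2 * G) with hm
    obtain ⟨k, r, hr, hk⟩ := per_pow p hp m hper
    refine ⟨X.take (X.length - 1 - (X.length - 1 - n) + G), m.take p,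
      r ++ (X.drop (X.length - 1 - (X.length - 1 - n) + G)).drop (X.length - 1 - n - 2 * G), k,
      ?_, ?_, ?_, ?_⟩
    · rw [List.length_take]; omega
    · rw [List.length_take]; omega
    · rw [List.length_append, List.length_drop, List.length_drop]; omega
    · rw [List.append_assoc, ← List.append_assoc _ r, ← hk, hm,
        List.take_append_drop, List.take_append_drop]

end Crest.Agent.R320.LWallAll_922
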