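import Crest.Agent.R320.Block_467

set_option autoImplicit false

/-!
# Row 320, top in semantic form (helper727)

A prefix code `XX` of blocks, a zone map `T : V → List α → V` (arbitrary), two families of finite
sets of left words `L1`, `L2`.  All right words are DEFINED semantically, so soundness costs
nothing; what remains is the completeness `hC2` of scheme 2 on two consecutive bad blocks.
`HL k` of the fibres `{X ∈ XX | T x X = y}` gives `HL (k + 2)` for the thread languages of `XX*`.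
-/

namespace Crest.Agent.R320.SemTop_727

open Crest.RegLang Crest.Agent.R320.Hk_851 Crest.Agent.R320.Blk467

universe u v

variable {α : Type u} {V : Type v} {k : ℕ}

/-- a set of words as a language -/
def toL (s : Set (List α)) : Language α := s

/-- the data of the two schemes -/
structure Sch (α : Type u) (V : Type v) where
  XX : Set (List α)
  T : V → List α → V
  L1 : V → Set (List α)
  L2 : V → Set (List α)

namespace Sch

variable (D : Sch α V)

/-- right-legal words of scheme 1 with label `y` -/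
def R1 (y : V) : Language α := {Q | ∀ x, ∀ P ∈ D.L1 x, P ++ Q ∈ D.XX ∧ D.T x (P ++ Q) = y}

/-- blocks in which scheme 1 cuts every token -/
def Good : Set (List α) :=
  {X | X ∈ D.XX ∧ ∀ x, ∃ P ∈ D.L1 x, ∃ Q ∈ D.R1 (D.T x X), P ++ Q = X}

def Bad : Set (List α) := {X | X ∈ D.XX ∧ X ∉ D.Good}

/-- right-legal words of scheme 2 with label `y` -/
def R2 (y : V) : Language α := {Q | ∀ x, ∀ P ∈ D.L2 x,
  (∃ X1 ∈ D.Bad, ∃ X2 ∈ D.Bad, P ++ Q = X1 ++ X2 ∧ D.T (D.T x X1) X2 = y) ∨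
  (∃ X ∈ D.Good, X <+: P ++ Q) ∨ (∃ X1 ∈ D.Bad, ∃ X2 ∈ D.Good, X1 ++ X2 <+: P ++ Q)}

def fib (x y : V) : Language α := {X | X ∈ D.XX ∧ D.T x X = y}

def E1 (x y : V) : Language α := {w | (w = [] ∧ x = y) ∨ (w ∈ D.Bad ∧ D.T x w = y)}

def K2 : Language α := {w | ∃ v, ∃ Q ∈ D.R2 v, ∃ P ∈ D.L2 v, Q ++ P = w}

section HL

variable [Finite V] [Nonempty V] (hfib : ∀ x y, HL k (D.fib x y))
include hfib

theorem HL_XX : HL k (toL (D.XX)) := by
  obtain ⟨x⟩ := ‹Nonempty V›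
  refine (HL.iUnion (k := k) (ι := V) (L := fun y => D.fib x y) (hfib x)).congr fun w => ?_
  constructor
  · intro h
    exact ⟨D.T x w, h, rfl⟩
  · rintro ⟨y, h, _⟩
    exact h

theorem HL_R1 (hL : ∀ x, (D.L1 x).Finite) (y : V) : HL k (D.R1 y) := by
  refine (HL.iInter (k := k) (ι := V) (L := fun x => ({Q | ∀ P ∈ D.L1 x, Q ∈
    ({Q | P ++ Q ∈ D.fib x y} : Language α)} : Language α)) (fun x =>
      HL.biInter (hL x) fun P _ => HL.lquot P (hfib x y))).congr fun w => ?_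
  exact Iff.rfl

theorem HL_Good (hL : ∀ x, (D.L1 x).Finite) : HL k (toL (D.Good)) := by
  have h := (HL_XX D hfib).inf (HL.iInter (k := k) (ι := V)
    (L := fun x => ({w | ∃ y : V, w ∈ (D.fib x y ⊓ ((toL (D.L1 x)) * D.R1 y) :
      Language α)} : Language α))
    (fun x => HL.iUnion (k := k) (ι := V) (fun y =>
      (hfib x y).inf (HL.mul (HL.finite (hL x)) (D.HL_R1 hfib hL y)))))
  refine h.congr fun w => ?_
  constructor
  · rintro ⟨h1, h2⟩
    refine ⟨h1, fun x => ?_⟩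
    obtain ⟨P, hP, Q, hQ, e⟩ := h2 x
    exact ⟨D.T x w, ⟨h1, rfl⟩, Language.mem_mul.2 ⟨P, hP, Q, hQ, e⟩⟩
  · rintro ⟨h1, h2⟩
    refine ⟨h1, fun x => ?_⟩
    obtain ⟨y, ⟨_, hy⟩, hm⟩ := h2 x
    obtain ⟨P, hP, Q, hQ, e⟩ := Language.mem_mul.1 hm
    exact ⟨P, hP, Q, by rw [show D.T x w = y from hy]; exact hQ, e⟩

theorem HL_Bad (hL : ∀ x, (D.L1 x).Finite) : HL k (toL (D.Bad)) :=
  (D.HL_XX hfib).sdiff (D.HL_Good hfib hL)

theorem HL_bfib (hL : ∀ x, (D.L1 x).Finite) (x y : V) :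
    HL k ({w | w ∈ D.Bad ∧ D.T x w = y} : Language α) := by
  refine ((D.HL_Bad hfib hL).inf (hfib x y)).congr fun w => ?_
  constructor
  · rintro ⟨h1, h2⟩
    exact ⟨h1, h1.1, h2⟩
  · rintro ⟨h1, h2⟩
    exact ⟨h1, h2.2⟩

theorem HL_R2 (hL : ∀ x, (D.L1 x).Finite) (hL2 : ∀ x, (D.L2 x).Finite) (y : V) :
    HL k (D.R2 y) := by
  have hA : ∀ x, HL k (toL {w | ∃ u : V, w ∈ (toL {w | w ∈ D.Bad ∧ D.T x w = u}) *
      (toL {w | w ∈ D.Bad ∧ D.T u w = y})}) := fun x =>
    HL.iUnion (k := k) (ι := V) fun u => (D.HL_bfib hfib hL x u).mul (D.HL_bfib hfib hL u y)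
  have hB := (D.HL_Good hfib hL).prefix
  have hC := ((D.HL_Bad hfib hL).mul (D.HL_Good hfib hL)).prefix
  refine (HL.iInter (k := k) (ι := V) (L := fun x => ({Q | ∀ P ∈ D.L2 x, Q ∈
    ({Q | P ++ Q ∈ (toL {w | ∃ u : V, w ∈ (toL {w | w ∈ D.Bad ∧ D.T x w = u}) *
      (toL {w | w ∈ D.Bad ∧ D.T u w = y})} +
      (toL {w | ∃ v ∈ (toL (D.Good)), v <+: w} +
      toL {w | ∃ v ∈ ((toL (D.Bad)) * (toL (D.Good))), v <+: w}))} : Language α)} : Language α)) (fun x =>
      HL.biInter (hL2 x) fun P _ => HL.lquot P ((hA x).add (hB.add hC)))).congr fun w => ?_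
  refine forall_congr' fun x => forall_congr' fun P => forall_congr' fun hP => ?_
  constructor
  · rintro (⟨X1, h1, X2, h2, e, h3⟩ | ⟨X, hX, hp⟩ | ⟨X1, h1, X2, h2, hp⟩)
    · exact Or.inl ⟨D.T x X1, Language.mem_mul.2 ⟨X1, ⟨h1, rfl⟩, X2, ⟨h2, h3⟩, e.symm⟩⟩
    · exact Or.inr (Or.inl ⟨X, hX, hp⟩)
    · exact Or.inr (Or.inr ⟨X1 ++ X2, Language.mem_mul.2 ⟨X1, h1, X2, h2, rfl⟩, hp⟩)
  · rintro (⟨u, h⟩ | ⟨X, hX, hp⟩ | ⟨X, hX, hp⟩)
    · obtain ⟨X1, ⟨h1, h1'⟩, X2, ⟨h2, h2'⟩, e⟩ := Language.mem_mul.1 h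
      refine Or.inl ⟨X1, h1, X2, h2, e.symm, ?_⟩
      rw [show D.T x X1 = u from h1']
      exact h2'
    · exact Or.inr (Or.inl ⟨X, hX, hp⟩)
    · obtain ⟨X1, h1, X2, h2, e⟩ := Language.mem_mul.1 hX
      exact Or.inr (Or.inr ⟨X1, h1, X2, h2, by rw [e]; exact hp⟩)

theorem HL_E1 (hL : ∀ x, (D.L1 x).Finite) (x y : V) : HL k (D.E1 x y) := by
  have h0 : HL k ({w | w = [] ∧ x = y} : Language α) :=
    HL.setOf_and (HL.one (k := k)) (HL.const (k := k) (x = y))
  exact HL.setOf_or h0 (D.HL_bfib hfib hL x y)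

theorem HL_K2 (hL : ∀ x, (D.L1 x).Finite) (hL2 : ∀ x, (D.L2 x).Finite) : HL k D.K2 := by
  refine (HL.iUnion (k := k) (ι := V) (L := fun v => D.R2 v * (toL (D.L2 v)))
    (fun v => (D.HL_R2 hfib hL hL2 v).mul (HL.finite (hL2 v)))).congr fun w => ?_
  constructor
  · rintro ⟨v, Q, hQ, P, hP, e⟩
    exact ⟨v, Language.mem_mul.2 ⟨Q, hQ, P, hP, e⟩⟩
  · rintro ⟨v, h⟩
    obtain ⟨Q, hQ, P, hP, e⟩ := Language.mem_mul.1 h
    exact ⟨v, Q, hQ, P, hP, e⟩

end HL

/-! ## the promise scheme -/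

theorem cancel {D : Sch α V} (hC : PCode D.XX) {X w : List α} (hX : X ∈ D.Bad)
    (h : X ++ w ∈ Str D.Bad) : w ∈ Str D.Bad := by
  obtain ⟨l, hl, e⟩ := h
  cases l with
  | nil =>
    exfalso
    have : X = [] := (List.append_eq_nil_iff.1 e.symm).1
    exact hC.1 (this ▸ hX.1)
  | cons Y l =>
    rw [List.flatten_cons] at e
    have hY := hl Y (by simp)
    have hXY : X = Y := by
      rcases List.prefix_or_prefix_of_prefix (l₁ := X) (l₂ := Y) (l₃ := X ++ w)
        (List.prefix_append _ _) (e ▸ List.prefix_append _ _) with h1 | h1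
      · exact hC.2 X hX.1 Y hY.1 h1
      · exact (hC.2 Y hY.1 X hX.1 h1).symm
    subst hXY
    exact ⟨l, fun Z hZ => hl Z (by simp [hZ]), List.append_cancel_left e⟩

theorem no_good {D : Sch α V} (hC : PCode D.XX) {X w : List α} (hX : X ∈ D.Good)
    (hp : X <+: w) (h : w ∈ Str D.Bad) : False := by
  obtain ⟨l, hl, e⟩ := h
  cases l with
  | nil =>
    have h1 : w = [] := e.symm
    rw [h1] at hp
    have : X = [] := List.prefix_nil.1 hp
    exact hC.1 (this ▸ hX.1)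
  | cons Y l =>
    rw [List.flatten_cons] at e
    have hY := hl Y (by simp)
    have hXY : X = Y := by
      rcases List.prefix_or_prefix_of_prefix (l₁ := X) (l₂ := Y) (l₃ := w)
        hp (e ▸ List.prefix_append _ _) with h1 | h1
      · exact hC.2 X hX.1 Y hY.1 h1
      · exact (hC.2 Y hY.1 X hX.1 h1).symm
    exact hY.2 (hXY ▸ hX)

/-- a junction of scheme 2 inside a product of bad blocks -/
theorem junction2 {D : Sch α V} (hC : PCode D.XX) {x y : V} {P Q w : List α} (hP : P ∈ D.L2 x)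
    (hQ : Q ∈ D.R2 y) (h : P ++ Q ++ w ∈ Str D.Bad) :
    P ++ Q ∈ Lg D.Bad D.T x y ∧ w ∈ Str D.Bad := by
  rcases hQ x P hP with ⟨X1, h1, X2, h2, e, h3⟩ | ⟨X, hX, hp⟩ | ⟨X1, h1, X2, h2, hp⟩
  · refine ⟨⟨[X1, X2], ?_, by simp [e], h3⟩, ?_⟩
    · intro X hX
      rcases List.mem_cons.1 hX with rfl | hX
      · exact h1
      · rw [List.mem_singleton.1 hX]; exact h2
    · rw [e, List.append_assoc] at h
      exact cancel hC h2 (cancel hC h1 h)
  · exact (no_good hC hX (hp.trans (List.prefix_append _ _)) h).elim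
  · exfalso
    obtain ⟨r, hr⟩ := hp
    rw [← hr, List.append_assoc, List.append_assoc] at h
    exact no_good hC h2 (List.prefix_append _ _) (cancel hC h1 h)

theorem E1_sound {D : Sch α V} {x y : V} {w : List α} (h : w ∈ D.E1 x y) :
    w ∈ Lg D.Bad D.T x y := by
  rcases h with ⟨rfl, rfl⟩ | ⟨h1, rfl⟩
  · exact Lg.nil _ _ _
  · exact Lg.single h1 x

theorem lg_bad (hC : PCode D.XX) [Finite V]
    (hfib : ∀ x y, HL k (D.fib x y)) (hL1 : ∀ x, (D.L1 x).Finite) (hL2 : ∀ x, (D.L2 x).Finite)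
    (hC2 : ∀ X1 ∈ D.Bad, ∀ X2 ∈ D.Bad, ∀ x, ∃ P ∈ D.L2 x, ∃ Q ∈ D.R2 (D.T (D.T x X1) X2),
      P ++ Q = X1 ++ X2) (x y : V) : HL (k + 1) (Lg D.Bad D.T x y) := by
  haveI : Nonempty V := ⟨x⟩
  have hS : HL (k + 1) (KStar.kstar (toL (D.Bad))) := (D.HL_Bad hfib hL1).star
  have hK : HL (k + 1) (KStar.kstar D.K2) := (D.HL_K2 hfib hL1 hL2).star
  have hB : HL (k + 1) ({z | ∃ v : V, z ∈ D.R2 v * D.E1 v y} : Language α) :=
    HL.mono (Nat.le_succ k) (HL.iUnion (k := k) (ι := V)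
      (L := fun v => D.R2 v * D.E1 v y)
      (fun v => (D.HL_R2 hfib hL1 hL2 v).mul (D.HL_E1 hfib hL1 v y)))
  have hP : HL (k + 1) (toL (D.L2 x)) := HL.finite (hL2 x)
  refine (hS.inf (((D.HL_E1 hfib hL1 x y).mono (Nat.le_succ k)).add
    ((hP.mul hK).mul hB))).congr fun w => ?_
  constructor
  · rintro ⟨l, hl, rfl, hf⟩
    refine ⟨Language.mem_kstar.2 ⟨l, rfl, hl⟩, ?_⟩
    have main : ∀ (n : ℕ) (l : List (List α)) (x : V), l.length ≤ n → (∀ X ∈ l, X ∈ D.Bad) →
        l.foldl D.T x = y → l.flatten ∈ D.E1 x y ∨ ∃ P ∈ D.L2 x, ∃ ks : List (List α),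
          (∀ z ∈ ks, z ∈ D.K2) ∧ ∃ v : V, ∃ Q ∈ D.R2 v, ∃ E ∈ D.E1 v y,
            P ++ ks.flatten ++ (Q ++ E) = l.flatten := by
      intro n
      induction n with
      | zero =>
        intro l x hn _ hf
        have : l = [] := List.length_eq_zero_iff.1 (Nat.le_zero.1 hn)
        subst this
        exact Or.inl (Or.inl ⟨rfl, hf⟩)
      | succ n ih =>
        intro l x hn hl hf
        match l, hn, hl, hf with
        | [], _, _, hf => exact Or.inl (Or.inl ⟨rfl, hf⟩)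
        | [X], _, hl, hf => exact Or.inl (Or.inr ⟨by simpa using hl X (by simp), by simpa using hf⟩)
        | X1 :: X2 :: l, hn, hl, hf =>
          right
          obtain ⟨P, hP, Q, hQ, e⟩ := hC2 X1 (hl X1 (by simp)) X2 (hl X2 (by simp)) x
          have hn' : l.length ≤ n := by
            simp only [List.length_cons] at hn
            omega
          rcases ih l (D.T (D.T x X1) X2) hn' (fun X hX => hl X (by simp [hX])) hf with
            h | ⟨P', hP', ks, hks, v, Q', hQ', E, hE, e'⟩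
          · refine ⟨P, hP, [], by simp, _, Q, hQ, _, h, ?_⟩
            have : P ++ ([] : List (List α)).flatten ++ (Q ++ l.flatten) = (P ++ Q) ++ l.flatten := by
              simp
            rw [this, e]
            simp
          · refine ⟨P, hP, (Q ++ P') :: ks, ?_, v, Q', hQ', E, hE, ?_⟩
            · intro z hz
              rcases List.mem_cons.1 hz with rfl | hz
              · exact ⟨_, Q, hQ, P', hP', rfl⟩
              · exact hks z hz
            · have : P ++ ((Q ++ P') :: ks).flatten ++ (Q' ++ E) =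
                  (P ++ Q) ++ (P' ++ ks.flatten ++ (Q' ++ E)) := by
                simp [List.append_assoc]
              rw [this, e, e']
              simp
    rcases main l.length l x le_rfl hl hf with h | ⟨P, hP, ks, hks, v, Q, hQ, E, hE, e⟩
    · exact Or.inl h
    · right
      exact mem_mul3.2 ⟨P, hP, ks.flatten, Language.mem_kstar.2 ⟨ks, rfl, hks⟩, Q ++ E,
        ⟨v, Language.mem_mul.2 ⟨Q, hQ, E, hE, rfl⟩⟩, e⟩
  · rintro ⟨hw1, hw2⟩
    obtain ⟨l, hl, hl2⟩ := Language.mem_kstar.1 hw1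
    have hw : w ∈ Str D.Bad := ⟨l, hl2, hl.symm⟩
    rcases hw2 with h | h
    · exact E1_sound h
    · obtain ⟨P, hP, m, hm, z, hz, rfl⟩ := mem_mul3.1 h
      obtain ⟨ks, rfl, hks⟩ := Language.mem_kstar.1 hm
      obtain ⟨v, hv⟩ := hz
      obtain ⟨Q, hQ, E, hE, rfl⟩ := Language.mem_mul.1 hv
      clear hw1 h hm hl hl2 hv
      have main : ∀ (ks : List (List α)) (x : V) (P : List α), P ∈ D.L2 x →
          (∀ z ∈ ks, z ∈ D.K2) → P ++ ks.flatten ++ (Q ++ E) ∈ Str D.Bad →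
          P ++ ks.flatten ++ (Q ++ E) ∈ Lg D.Bad D.T x y := by
        intro ks
        induction ks with
        | nil =>
          intro x P hP _ hS
          have e1 : P ++ ([] : List (List α)).flatten ++ (Q ++ E) = P ++ Q ++ E := by simp
          rw [e1] at hS ⊢
          exact Lg.append (junction2 hC hP hQ hS).1 (E1_sound hE)
        | cons z ks ih =>
          intro x P hP hks hS
          obtain ⟨u, Q1, hQ1, P1, hP1, rfl⟩ := hks z (by simp)
          have e1 : P ++ ((Q1 ++ P1) :: ks).flatten ++ (Q ++ E) =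
              P ++ Q1 ++ (P1 ++ ks.flatten ++ (Q ++ E)) := by
            simp [List.append_assoc]
          rw [e1] at hS ⊢
          obtain ⟨h1, h2⟩ := junction2 hC hP hQ1 hS
          exact Lg.append h1 (ih u P1 hP1 (fun z hz => hks z (by simp [hz])) h2)
      exact main ks x P hP hks hw

/-- **TOP, thread form**: everything about two wall schemes except the two completeness
statements (`Good` is defined by the completeness of scheme 1). -/
theorem lg_XX (hC : PCode D.XX) [Finite V]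
    (hfib : ∀ x y, HL k (D.fib x y)) (hL1 : ∀ x, (D.L1 x).Finite) (hL2 : ∀ x, (D.L2 x).Finite)
    (hC2 : ∀ X1 ∈ D.Bad, ∀ X2 ∈ D.Bad, ∀ x, ∃ P ∈ D.L2 x, ∃ Q ∈ D.R2 (D.T (D.T x X1) X2),
      P ++ Q = X1 ++ X2) (x y : V) : HL (k + 2) (Lg D.XX D.T x y) := by
  haveI : Nonempty V := ⟨x⟩
  refine star_step (k := k + 1) D.XX D.Bad D.T (fun v => (toL (D.L1 v))) (fun v => D.R1 v)
    (fun X hX => hX.1) ?_ ?_ ?_ (fun v => HL.finite (hL1 v))
    (fun v => (D.HL_R1 hfib hL1 v).mono (Nat.le_succ k)) x y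
  · intro v v' P Q hP hQ
    obtain ⟨h1, h2⟩ := hQ v P hP
    rw [← h2]
    exact Lg.single h1 v
  · intro X hX hB v
    have hG : X ∈ D.Good := by
      by_contra h
      exact hB ⟨hX, h⟩
    obtain ⟨P, hP, Q, hQ, e⟩ := hG.2 v
    exact ⟨P, Q, e, hP, hQ⟩
  · intro v v'
    exact D.lg_bad hC hfib hL1 hL2 hC2 v v'

end Sch

/-- **TOP**: all words. -/
theorem top {S : Type*} [Monoid S] [Finite S] {V : Type v} [AddCommGroup V] [Finite V]
    (act : V → S → V) (hadd : ∀ a b s, act (a + b) s = act a s + act b s)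
    (hone : ∀ v, act v 1 = v) (hmul : ∀ v s t, act v (s * t) = act (act v s) t)
    (hfaith : ∀ s t, (∀ v, act v s = act v t) → s = t) (φ : α → S) (nu : List α → V)
    (D : Sch α V) (hT : ∀ v X, D.T v X = act v (X.map φ).prod + nu X) (hC : PCode D.XX)
    (hfib : ∀ x y, HL k (D.fib x y)) (hL1 : ∀ x, (D.L1 x).Finite) (hL2 : ∀ x, (D.L2 x).Finite)
    (hC2 : ∀ X1 ∈ D.Bad, ∀ X2 ∈ D.Bad, ∀ x, ∃ P ∈ D.L2 x, ∃ Q ∈ D.R2 (D.T (D.T x X1) X2),
      P ++ Q = X1 ++ X2)
    (htail : ∀ s, HL (k + 2) ({w | (∀ X ∈ D.XX, ¬ X <+: w) ∧ (w.map φ).prod = s} : Language α))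
    (s : S) : HL (k + 2) ({w | (w.map φ).prod = s} : Language α) := by
  have hT' : D.T = fun v X => act v (X.map φ).prod + nu X := funext fun v => funext fun X => hT v X
  have hA : ∀ a, HL (k + 2) ({w | w ∈ Str D.XX ∧ (w.map φ).prod = a} : Language α) := fun a => by
    refine fibre_of_threads act hadd hone hmul hfaith φ nu D.XX hC.uparse ?_ a
    rw [← hT']
    exact fun v v' => D.lg_XX hC hfib hL1 hL2 hC2 v v'
  let A : S → Language α := fun a => {w | w ∈ Str D.XX ∧ (w.map φ).prod = a}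
  let B : S → Language α := fun b => {w | (∀ X ∈ D.XX, ¬ X <+: w) ∧ (w.map φ).prod = b}
  refine (HL.biUnion (k := k + 2) (Set.toFinite {p : S × S | p.1 * p.2 = s})
    (L := fun p => A p.1 * B p.2)
    (fun p _ => HL.mul (L := A p.1) (M := B p.2) (hA p.1) (htail p.2))).congr fun w => ?_
  constructor
  · intro hw
    obtain ⟨M, E, rfl, hM, hE⟩ := exists_parse hC.1 w
    refine ⟨((M.map φ).prod, (E.map φ).prod), ?_, ?_⟩
    · have hw' : ((M ++ E).map φ).prod = s := hw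
      rw [List.map_append, List.prod_append] at hw'
      exact hw'
    · exact Language.mem_mul.2 ⟨M, ⟨hM, rfl⟩, E, ⟨hE, rfl⟩, rfl⟩
  · rintro ⟨p, hp, hw⟩
    obtain ⟨M, ⟨_, hM⟩, E, ⟨_, hE⟩, rfl⟩ := Language.mem_mul.1 hw
    change ((M ++ E).map φ).prod = s
    rw [List.map_append, List.prod_append, hM, hE]
    exact hp

end Crest.Agent.R320.SemTop_727
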