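import Crest.Agent.R320.Fib_298
import Crest.Agent.R320.SemTop_727
import Crest.Agent.R320.Sc2n_937
import Crest.Agent.R320.ExactR_237
import Crest.Agent.R320.GridRuler_257
import Crest.Agent.R320.LWallAll_922

/-!
# Row 320: final assembly (helper298)

Semantic top (727) + natural rule block schemes (937) + exact gadget (237) + thin ruler (257)
+ left-looking walls on all words (922) + `Fib_298`, from the grid gadget as a hypothesis.
-/

set_option autoImplicit false
set_option maxHeartbeats 1000000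

namespace Crest.Agent.R320.Asm_298

open Crest.RegLang Crest.Agent.R320.Hk_851 Crest.Agent.R320.Blk467 Crest.Agent.R320.Fib_298
open Crest.Agent.R320.Sc2n_937 Crest.Agent.R320.GridRuler_257

/-- the grid gadget on the words over `A` (for a fixed multiplicative map), with regular noise -/
def GadHyp {A S V : Type} [Monoid S] [AddCommGroup V] (f : A → S) (act : V → S → V) : Prop :=
  ∃ m r : ℕ, ∀ B : ℕ, ∃ (Ms : Finset ℕ) (M : ℕ), Ms.card ≤ r ∧ (∀ q ∈ Ms, B < q ∧ q ∣ M) ∧
    0 < M ∧ ∀ Γ : ℕ, M + 2 ≤ Γ → Nat.Coprime M Γ →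
      ∃ (lam rho : List A → Option V) (nu : List A → V) (N : ℕ),
        (∀ P v, lam P = some v → P.length < N) ∧
        (∀ P Q v b, lam P = some v → rho Q = some b →
          b = act v ((P ++ Q).map f).prod + nu (P ++ Q)) ∧
        (∀ u : List A, 2 * N ≤ u.length → (∀ q ∈ Ms, ¬ q ∣ u.length) →
          (∀ j, 1 ≤ j → j ≤ m → M * Γ ^ j < u.length % Γ ^ (j + 1) ∧
            u.length % Γ ^ (j + 1) + M * Γ ^ j < Γ ^ (j + 1)) →
          ∀ v, ∃ P Q, u = P ++ Q ∧ lam P = some v ∧ (rho Q).isSome) ∧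
        (∀ y, Language.IsRegular ({Y | nu Y = y} : Language A))

section core

variable {A S V : Type} [Finite A] [Monoid S] [Finite S] [AddCommGroup V] [Finite V]

/-- the abstract core: all constants given -/
theorem core (f : A → S) (act : V → S → V)
    (hadd : ∀ a b s, act (a + b) s = act a s + act b s)
    (hone : ∀ v, act v 1 = v) (hmul : ∀ v s t, act v (s * t) = act (act v s) t)
    (hfaith : ∀ s t, (∀ v, act v s = act v t) → s = t)
    (g : Geo A) (B : ℕ) (hw : WallU g.Wo g.n B)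
    (lam rho : List A → Option V) (nu nu2 : List A → V)
    (hlen : ∀ P v, lam P = some v → P.length ≤ g.N1)
    (hsound : ∀ P Q v b, lam P = some v → rho Q = some b →
          b = act v ((P ++ Q).map f).prod + nu (P ++ Q))
    (BadT : ℕ → Prop)
    (hcomp : ∀ u : List A, g.z ≤ u.length + g.p0 → ¬ BadT u.length →
      ∀ v, ∃ P Q, u = P ++ Q ∧ lam P = some v ∧ (rho Q).isSome)
    (hreg : ∀ y, Language.IsRegular ({Y | nu Y = y} : Language A))
    (K : ℕ) (c : ℕ → ℕ) (lam2 rho2 : ℕ → List A → Option V) (C0 : ℕ)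
    (hc : ∀ k, k < K → c k ≤ g.p0)
    (hgap : ∀ P Q : List A, g.Wo P → g.Wo (P ++ Q) → Q ≠ [] → 2 * g.p0 + 2 * g.N1 < Q.length)
    (hsp : ∀ k k' l l', k < K → k' < K → l < K → l' < K → k' ≠ k → l' ≠ l →
      c k + c l' < c l + c k' + 2 * g.N1 → c l + c k' < c k + c l' + 2 * g.N1 → k = l)
    (hthin : ∀ τ, g.z ≤ τ + g.p0 → ∀ J : Finset ℕ, (∀ k ∈ J, k < K ∧
      ∃ k', k' < K ∧ k' ≠ k ∧ BadT (τ + c k' - c k - g.p0)) → J.card ≤ C0)
    (hex2 : ∀ k, k < K → ∀ P Q v u, P.length = c k → Q.length = g.p0 - c k →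
      lam2 k P = some v → rho2 k Q = some u →
      u = act v ((P ++ Q).map f).prod + nu2 (P ++ Q))
    (hI : ∀ (u : List A) (v : V), u.length = g.p0 → ∃ I : Finset ℕ, 2 * C0 + 2 ≤ I.card ∧
      ∀ k ∈ I, k < K ∧ lam2 k (u.take (c k)) = some v ∧ (rho2 k (u.drop (c k))).isSome)
    (s : S) : HL 3 ({w | (w.map f).prod = s} : Language A) := by
  classical
  have hz := g.hz
  have hq := g.hq
  have hN := g.hN
  have hnz : g.n ≤ g.z := by omega
  have hpz : g.p0 ≤ g.z := by omega
  have hz0 : 0 < g.z := by omega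
  let pre : List A → V → V := fun X0 v => act v (X0.map f).prod + nu2 X0
  let post : V → List A → V := fun u Y => act u (Y.map f).prod + nu Y
  have hexP : ∀ P Q u b, lam P = some u → rho Q = some b → b = post u (P ++ Q) := hsound
  let D : SemTop_727.Sch A V :=
    { XX := XX g.Wo g.z
      T := TT act f g.p0 (fun v X0 => act v (X0.map f).prod + nu2 X0) nu
      L1 := fun v => {P | g.LP1 pre lam v P}
      L2 := fun v => {P | Geo.LP2 K c lam2 v P} }
  -- scheme 1: blocks which are not bad are good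
  have good : ∀ X, g.XX X → ¬ g.BadX BadT X → X ∈ D.Good := by
    intro X hX hb
    refine ⟨hX, fun x => ?_⟩
    have hE : ¬ g.E X := fun h => hb (Or.inl h)
    have hT : ¬ BadT (X.drop g.p0).length := by
      rw [List.length_drop]
      exact fun h => hb (Or.inr h)
    obtain ⟨P, Q, b, e, hP, hQ⟩ := g.complete1 pre hlen hX hE
      (hcomp (X.drop g.p0) (by rw [List.length_drop]; have := hX.1; omega) hT) x
    have hb1 := (g.sound1 pre post hlen hexP hP hQ).2
    rw [← e] at hb1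
    refine ⟨P, hP, Q, ?_, e.symm⟩
    intro x' P' hP'
    have h2 := g.sound1 pre post hlen hexP hP' hQ
    exact ⟨h2.1, h2.2.trans hb1.symm⟩
  have bad_of : ∀ X, X ∈ D.Bad → g.BadX BadT X := by
    intro X hX
    by_contra h
    exact hX.2 (good X hX.1 h)
  have hex2' : ∀ k, k < K → ∀ P Q v u, P.length = c k → Q.length = g.p0 - c k →
      lam2 k P = some v → rho2 k Q = some u → u = pre (P ++ Q) v := hex2
  have hC2 : ∀ X1 ∈ D.Bad, ∀ X2 ∈ D.Bad, ∀ x, ∃ P ∈ D.L2 x, ∃ Q ∈ D.R2 (D.T (D.T x X1) X2),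
      P ++ Q = X1 ++ X2 := by
    intro X1 hX1 X2 hX2 x
    have hI1 : ∃ I : Finset ℕ, 2 * C0 + 2 ≤ I.card ∧ ∀ k ∈ I, k < K ∧
        lam2 k (X1.take (c k)) = some x ∧ (rho2 k ((X1.take g.p0).drop (c k))).isSome := by
      obtain ⟨I, h1, h2⟩ := hI (X1.take g.p0) x (by
        rw [List.length_take]; have := (hX1.1 : g.XX X1).1; omega)
      refine ⟨I, h1, fun k hk => ?_⟩
      obtain ⟨h3, h4, h5⟩ := h2 k hk
      refine ⟨h3, ?_, h5⟩
      rw [List.take_take, min_eq_left (hc k h3)] at h4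
      exact h4
    obtain ⟨P, Q, b, e, hP, hQ⟩ := g.complete2 pre post hc hgap hsp hthin
      (X := X1) (X2 := X2) hX1.1 hX2.1 x hI1
    -- the true value
    obtain ⟨X2', -, e2, hv⟩ := g.sound2 pre post hc hex2' (X := X1) (R := []) (R' := X2)
      hX1.1 (bad_of X1 hX1) hP hQ (by rw [List.append_nil]; exact e)
    have e3 : X2' = X2 := List.append_cancel_left (e2.symm.trans e)
    subst e3
    refine ⟨P, hP, Q, ?_, e⟩
    intro x' P' hP'
    obtain ⟨k0, hk0, hPl, hl0⟩ := id hP'
    obtain ⟨k, hk, l, hend, hgood, hXl, u, hr, hb⟩ := id hQ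
    obtain ⟨l', hend'⟩ : ∃ l', g.CEnd Q (c k0) l' := by
      by_cases hkk : k0 = k
      · subst hkk
        exact ⟨l, hend⟩
      · obtain ⟨l', h, -⟩ := hgood k0 hk0 hkk
        exact ⟨l', h⟩
    have hX' : g.XX (P' ++ Q.take l') :=
      g.xx_of_cend (by rw [hPl]; exact hc k0 hk0) (by rw [hPl]; exact hend')
    have e5 : P' ++ Q = (P' ++ Q.take l') ++ Q.drop l' := by
      rw [List.append_assoc, List.take_append_drop]
    by_cases hbX : g.BadX BadT (P' ++ Q.take l')
    · obtain ⟨Y, hY, e6, hv'⟩ := g.sound2 pre post hc hex2' (X := P' ++ Q.take l') (R := [])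
        (R' := Q.drop l') hX' hbX hP' hQ (by rw [List.append_nil]; exact e5)
      by_cases hg1 : (P' ++ Q.take l') ∈ D.Good
      · exact Or.inr (Or.inl ⟨_, hg1, ⟨Y, e6.symm⟩⟩)
      · by_cases hg2 : Y ∈ D.Good
        · exact Or.inr (Or.inr ⟨_, ⟨hX', hg1⟩, Y, hg2, by rw [e6]⟩)
        · exact Or.inl ⟨_, ⟨hX', hg1⟩, Y, ⟨hY, hg2⟩, e6, hv'.trans hv.symm⟩
    · exact Or.inr (Or.inl ⟨_, good _ hX' hbX, ⟨Q.drop l', e5.symm⟩⟩)
  refine SemTop_727.top (k := 1) act hadd hone hmul hfaith f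
    (fun X => act (nu2 (X.take g.p0)) ((X.drop g.p0).map f).prod + nu (X.drop g.p0)) D ?_
    (pcode_XX hz0) ?_ ?_ ?_ hC2 ?_ s
  · intro v X
    show TT act f g.p0 (fun v X0 => act v (X0.map f).prod + nu2 X0) nu v X = _
    unfold TT
    rw [hadd, ← hmul, ← List.prod_append, ← List.map_append, List.take_append_drop, add_assoc]
  · intro x y
    exact hfib hw hnz act f g.p0 hpz (fun v X0 => act v (X0.map f).prod + nu2 X0) nu hreg x y
  · intro x
    refine (List.finite_length_le A (g.p0 + g.N1)).subset ?_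
    rintro P ⟨hP1, hP2⟩
    have := hlen _ _ hP2
    rw [List.length_drop] at this
    show P.length ≤ _
    omega
  · intro x
    refine (List.finite_length_le A g.p0).subset ?_
    rintro P ⟨k, hk, hPl, -⟩
    show P.length ≤ _
    rw [hPl]
    exact hc k hk
  · intro s
    exact HL.mono (by omega) (rest hw hnz f s)

end core

section fin

variable {A S V : Type} [Finite A] [Monoid S] [Finite S] [AddCommGroup V] [Finite V]

theorem asm (f : A → S) (act : V → S → V)
    (hadd : ∀ a b s, act (a + b) s = act a s + act b s)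
    (hone : ∀ v, act v 1 = v) (hmul : ∀ v s t, act v (s * t) = act (act v s) t)
    (hfaith : ∀ s t, (∀ v, act v s = act v t) → s = t)
    (hG : GadHyp f act) (s : S) : HL 3 ({w | (w.map f).prod = s} : Language A) := by
  classical
  have := Fintype.ofFinite S
  have := Fintype.ofFinite V
  obtain ⟨m, r, hG⟩ := hG
  obtain ⟨K, hK⟩ := ExactR_237.exact_gadget A S V f act (2 * (r + m) + 2)
  obtain ⟨Ms, M, hcard, hMs, hM, hG⟩ := hG (4 ^ K)
  have h4 : 0 < 4 ^ K := Nat.pow_pos (by norm_num)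
  obtain ⟨lam, rho, nu, N, hlen, hsound, hcomp, hreg⟩ := hG (16 * 4 ^ K * M + 1)
    (by nlinarith) (by
      have : 16 * 4 ^ K * M + 1 = 1 + M * (16 * 4 ^ K) := by ring
      rw [this]
      exact (Nat.coprime_add_mul_left_right M 1 _).2 (Nat.coprime_one_right M))
  set Γ := 16 * 4 ^ K * M + 1 with hΓ
  have hΓ0 : 0 < Γ := by omega
  have hcopΓ : Nat.Coprime M Γ := by
    have : Γ = 1 + M * (16 * 4 ^ K) := by rw [hΓ]; ring
    rw [this]
    exact (Nat.coprime_add_mul_left_right M 1 _).2 (Nat.coprime_one_right M)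
  obtain ⟨U, hU1, hU2, hU3, hU4⟩ := ruler K m Ms M (fun j => Γ ^ (j + 1)) (fun _ => 0) (N + 1) hM
    (fun k hk => ⟨(hMs k hk).2, (hMs k hk).1.le⟩) (Nat.pow_pos hΓ0)
    (fun j => pow_dvd_pow _ (Nat.le_succ _))
    (fun j => by
      show 16 * 4 ^ K * (M * Γ ^ (j + 1)) ≤ Γ ^ (j + 1 + 1)
      have h1 : 16 * 4 ^ K * (M * Γ ^ (j + 1)) = (16 * 4 ^ K * M) * Γ ^ (j + 1) := by ring
      have h2 : Γ ^ (j + 1 + 1) = Γ * Γ ^ (j + 1) := by ring
      rw [h1, h2]
      exact Nat.mul_le_mul_right _ (by omega))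
    (Nat.Coprime.pow_right _ hcopΓ)
  have hU0 : 0 < U := by omega
  set p0 := U * 4 ^ K with hp0
  obtain ⟨n, G', B, Wo, hLW, hgapW, -, -, hfree⟩ :=
    LWallAll_922.walls_all_left A (2 * p0 + 2 * (N + 1)) (by omega)
  let g : Geo A :=
    { Wo := Wo
      n := n
      z := p0 + (N + 1) + (n + 2 * p0 + N)
      p0 := p0
      q0 := n + 2 * p0 + N
      N1 := N + 1
      loc := hLW.app
      hz := rfl
      hq := by omega
      hN := by omega
      hqp := by omega }
  have hw : WallU g.Wo g.n (B + (2 * p0 + 2 * (N + 1))) := by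
    refine ⟨hLW.app, hLW.len, fun X hX => ?_⟩
    obtain ⟨u, x, v, j, h1, h2, h3, e⟩ := hfree X hX
    exact ⟨u, x, v, j, e, by omega, by omega, by omega⟩
  have hcmono : ∀ i j, i < j → j < K → U * 4 ^ i < U * 4 ^ j := fun i j hij _ => by
    have := hU2 i j hij
    omega
  obtain ⟨lam2, rho2, nu2, hs2, hc2⟩ := hK (fun k => U * 4 ^ k) hcmono
  have hc : ∀ k, k < K → U * 4 ^ k ≤ p0 := by
    intro k hk
    rw [hp0]
    exact Nat.mul_le_mul_left _ (Nat.pow_le_pow_right (by norm_num) hk.le)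
  refine core f act hadd hone hmul hfaith g _ hw lam rho nu (fun X0 => nu2 X0 1)
    (fun P v h => by
      have := hlen P v h
      show P.length ≤ N + 1
      omega) hsound
    (fun T => BadZ Ms m M (fun j => Γ ^ (j + 1)) (fun _ => 0) (T : ℤ)) ?_ hreg K
    (fun k => U * 4 ^ k) lam2 (fun k Q => rho2 k Q 1) (r + m) hc ?_ ?_ ?_ ?_ ?_ s
  · -- completeness of the gadget
    intro u hu hb v
    have hu' : p0 + (N + 1) + (n + 2 * p0 + N) ≤ u.length + p0 := hu
    have hcl := clear_of_not_bad (Ms := Ms) (m := m) (M := M) (G := fun j => Γ ^ (j + 1))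
      (A := fun _ => 0) (fun j => Nat.pow_pos hΓ0) (T := u.length) (fun j _ _ => Nat.zero_le _) hb
    refine hcomp u (by omega) hcl.1 (fun j h1 h2 => ?_) v
    have h3 := hcl.2 j h1 h2
    have e1 : j - 1 + 1 = j := by omega
    simp only [Nat.sub_zero, e1] at h3
    exact h3
  · -- gaps
    intro P Q hP hPQ hQ
    have hl : 0 < Q.length := List.length_pos_iff.2 hQ
    have := hgapW (P ++ Q) P.length (P ++ Q).length (by rw [List.length_append]; omega) le_rfl
      (by rw [List.take_left]; exact hP) (by rw [List.take_length]; exact hPQ)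
    rw [List.length_append] at this
    show 2 * p0 + 2 * (N + 1) < Q.length
    omega
  · -- spacing
    intro k k' l l' hk hk' hl hl' hne hne' h1 h2
    have h1' : U * 4 ^ k + U * 4 ^ l' < U * 4 ^ l + U * 4 ^ k' + 2 * (N + 1) := h1
    have h2' : U * 4 ^ l + U * 4 ^ k' < U * 4 ^ k + U * 4 ^ l' + 2 * (N + 1) := h2
    rcases hU3 k k' l l' (Ne.symm hne) with h | h
    · exact h.1
    · exfalso
      rw [lt_abs] at h
      omega
  · -- thinness
    intro τ hτ J hJ
    have hτ' : p0 + (N + 1) + (n + 2 * p0 + N) ≤ τ + p0 := hτ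
    choose! k' hk' using fun k (hk : k ∈ J) => (hJ k hk).2
    have hinj : Set.InjOn (fun k => (k' k, k)) (J : Set ℕ) := by
      intro a _ b _ h
      exact congrArg Prod.snd h
    have hcardJ : (J.image (fun k => (k' k, k))).card = J.card := Finset.card_image_of_injOn hinj
    rw [← hcardJ]
    refine (hU4 ((τ : ℤ) - p0) _ ?_).trans (by omega)
    intro ab hab
    obtain ⟨k, hk, rfl⟩ := Finset.mem_image.1 hab
    obtain ⟨h1, h2, h3⟩ := hk' k hk
    refine ⟨h1, (hJ k hk).1, h2, ?_⟩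
    have hck := hc k (hJ k hk).1
    have hck' := hc (k' k) h1
    have e : ((τ : ℤ) - p0 + (U * 4 ^ (k' k) : ℕ) - (U * 4 ^ k : ℕ)) =
        ((τ + U * 4 ^ (k' k) - U * 4 ^ k - p0 : ℕ) : ℤ) := by
      omega
    show BadZ Ms m M (fun j => Γ ^ (j + 1)) (fun _ => 0)
      ((τ : ℤ) - p0 + (U * 4 ^ (k' k) : ℕ) - (U * 4 ^ k : ℕ))
    rw [e]
    exact h3
  · -- exactness of the second gadget
    intro k hk P Q v u hP hQ h1 h2
    have := hs2 k hk P Q 1 v u hP h1 h2
    rw [mul_one] at this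
    exact this
  · -- completeness of the second gadget
    intro u v hu
    have hu' : u.length = p0 := hu
    obtain ⟨I, h1, h2⟩ := hc2 u 1 v (fun k hk => by rw [hu']; exact hc k hk)
    exact ⟨I, h1, h2⟩

end fin

/-- all finite monoids, from the gadget for all finite modules -/
theorem fin_of_gadget
    (hG : ∀ (A S V : Type) [Monoid S] [Finite S] [AddCommGroup V] [Finite V] (f : A → S)
      (act : V → S → V), (∀ a b s, act (a + b) s = act a s + act b s) → GadHyp f act)
    (A : Type) [Finite A] (S : Type) [Monoid S] [Finite S] (f : A → S) (s : S) :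
    HL 3 ({w | (w.map f).prod = s} : Language A) := by
  obtain ⟨act, hadd, hone, hmul, hfaith⟩ := exists_module S
  exact asm f act hadd hone hmul hfaith (hG A S (S → ZMod 2) f act hadd) s

end Crest.Agent.R320.Asm_298
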