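import Crest.Agent.R320.Top5_467

/-!
# Row 320: concrete two-scheme assembly over 467's `top5` (helper305)

Left-looking walls `Wl` (window `n`) on all words, natural chain rule (first wall at distance `≥ z`),
an abstract content-free gadget (693 / 638 / 618 / 852) as scheme 1, the exact gadget (237) with a wide
ruler as scheme 2.  Results: `s1 c1 s2 c2` of `Top5_467.top5`.
-/

set_option autoImplicit false

namespace Crest.Agent.R320.Asm_305

open Crest.Agent.R320.Blk467

universe u

structure Dat (α : Type u) (V S : Type*) [Monoid S] [AddCommGroup V] where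
  φ : List α → S
  φ_app : ∀ u v, φ (u ++ v) = φ u * φ v
  act : V → S → V
  act_add : ∀ v w s, act (v + w) s = act v s + act w s
  act_mul : ∀ v s t, act v (s * t) = act (act v s) t
  /-- walls, left-looking -/
  Wl : List α → Prop
  n : ℕ
  loc : ∀ (P Q : List α), n ≤ Q.length → (Wl (P ++ Q) ↔ Wl Q)
  z : ℕ
  p0 : ℕ
  N1 : ℕ
  NT : ℕ
  hz1 : p0 + N1 + n ≤ z
  hz2 : 3 * p0 ≤ z
  hz3 : p0 + NT ≤ z
  hz4 : 0 < z
  gap : ∀ (U : List α) (t t' : ℕ), n ≤ t → t < t' → t' ≤ U.length → Wl (U.take t) → Wl (U.take t') →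
    2 * p0 + 2 * N1 < t' - t
  /-- gadget 1 -/
  lam : List α → Option V
  rho : List α → Option V
  nu1 : List α → V
  BT : ℕ → Prop
  lam_len : ∀ (P : List α) (v : V), lam P = some v → P.length ≤ N1
  ex1 : ∀ (P Q : List α) (v b : V), lam P = some v → rho Q = some b → b = act v (φ (P ++ Q)) + nu1 (P ++ Q)
  cp1 : ∀ Y : List α, NT ≤ Y.length → ¬ BT Y.length → ∀ v, ∃ P Q, P ++ Q = Y ∧ lam P = some v ∧
    (rho Q).isSome
  /-- gadget 2 -/
  K : ℕ
  c : ℕ → ℕ
  C0 : ℕ
  hc : ∀ k < K, c k ≤ p0
  lam2 : ℕ → List α → Option V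
  rho2 : ℕ → List α → Option V
  nu2 : List α → V
  ex2 : ∀ k < K, ∀ (P Q : List α) (v b : V), P.length = c k → lam2 k P = some v →
    rho2 k Q = some b → b = act v (φ (P ++ Q)) + nu2 (P ++ Q)
  cp2 : ∀ (u : List α) (v : V), u.length = p0 → ∃ I : Finset ℕ, 1 + 2 * C0 < I.card ∧ ∀ k ∈ I,
    k < K ∧ lam2 k (u.take (c k)) = some v ∧ (rho2 k (u.drop (c k))).isSome
  rulE : ∀ a b a' b', a < K → b < K → a' < K → b' < K → a ≠ b → a' ≠ b' →
    |(((c a : ℕ) : ℤ) - c b) - (c a' - c b')| ≤ 2 * N1 → a = a' ∧ b = b'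
  thinB : ∀ T : ℕ, p0 ≤ T → ∀ s : Finset ℕ, (∀ k ∈ s, k < K ∧ ∃ k' < K, k' ≠ k ∧
    BT (T + c k' - c k)) → s.card ≤ C0

namespace Dat

variable {α : Type u} {V S : Type*} [Monoid S] [AddCommGroup V] (D : Dat α V S)

/-- zone map -/
def T (v : V) (X : List α) : V :=
  D.act (D.act v (D.φ (X.take D.p0)) + D.nu2 (X.take D.p0)) (D.φ (X.drop D.p0)) +
    D.nu1 (X.drop D.p0)

def nu (X : List α) : V := D.act (D.nu2 (X.take D.p0)) (D.φ (X.drop D.p0)) + D.nu1 (X.drop D.p0)

theorem T_eq (v : V) (X : List α) : D.T v X = D.act v (D.φ X) + D.nu X := by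
  unfold T nu
  rw [D.act_add, ← D.act_mul, ← D.φ_app, List.take_append_drop, add_assoc]

/-- first wall at place `≥ s` -/
def FW (s : ℕ) (Q : List α) (t : ℕ) : Prop :=
  s ≤ t ∧ t ≤ Q.length ∧ D.Wl (Q.take t) ∧ ∀ t', s ≤ t' → t' < t → ¬ D.Wl (Q.take t')

/-- the blocks -/
def XX : Set (List α) := {X | D.FW D.z X X.length}

/-- the candidate anchor at distance `o` left of `Q` is bad -/
def BadAt (o : ℕ) (Q : List α) : Prop :=
  ∃ t, D.FW (D.z - o) Q t ∧
    ((∃ w, w ≤ Q.length ∧ D.Wl (Q.take w) ∧ D.z ≤ w + o + D.N1 ∧ w + o < D.z + D.N1) ∨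
      D.BT (t + o - D.p0))

def Bad : Set (List α) := {X | X ∈ D.XX ∧ D.BadAt 0 X}

def LP1 (v : V) : Language α :=
  {P | D.p0 ≤ P.length ∧
    D.lam (P.drop D.p0) = some (D.act v (D.φ (P.take D.p0)) + D.nu2 (P.take D.p0))}

def RQ1 (b : V) : Language α :=
  {Q | D.rho Q = some b ∧ D.z ≤ Q.length + D.p0 ∧ D.Wl Q ∧
    ∀ t, D.z ≤ t + D.p0 + D.N1 → t < Q.length → ¬ D.Wl (Q.take t)}

def LP2 (v : V) : Language α := {P | ∃ k < D.K, P.length = D.c k ∧ D.lam2 k P = some v}

def RQ2 (b : V) : Language α :=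
  {Q | ∃ k < D.K, D.BadAt (D.c k) Q ∧ (∀ k' < D.K, k' ≠ k → ¬ D.BadAt (D.c k') Q) ∧
    ∃ t X2 v1, D.FW (D.z - D.c k) Q t ∧ Q = Q.take t ++ X2 ∧ X2 ∈ D.XX ∧
      D.rho2 k (Q.take (D.p0 - D.c k)) = some v1 ∧
      b = D.T (D.act v1 (D.φ ((Q.take t).drop (D.p0 - D.c k))) +
        D.nu1 ((Q.take t).drop (D.p0 - D.c k))) X2}

variable {D}

theorem FW.uniq {s t t' : ℕ} {Q : List α} (h : D.FW s Q t) (h' : D.FW s Q t') : t = t' := by
  obtain ⟨a1, a2, a3, a4⟩ := h
  obtain ⟨b1, b2, b3, b4⟩ := h'
  rcases lt_trichotomy t t' with h | h | h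
  · exact absurd a3 (b4 t a1 h)
  · exact h
  · exact absurd b3 (a4 t' b1 h)

theorem FW.exists {s t : ℕ} {Q : List α} (h1 : s ≤ t) (h2 : t ≤ Q.length) (h3 : D.Wl (Q.take t)) :
    ∃ u, D.FW s Q u ∧ u ≤ t := by
  classical
  have hex : ∃ u, s ≤ u ∧ D.Wl (Q.take u) := ⟨t, h1, h3⟩
  have hle : Nat.find hex ≤ t := Nat.find_min' hex ⟨h1, h3⟩
  refine ⟨Nat.find hex, ⟨(Nat.find_spec hex).1, hle.trans h2, (Nat.find_spec hex).2, ?_⟩, hle⟩
  intro t' h4 h5 h6
  exact Nat.find_min hex h5 ⟨h4, h6⟩

/-- walls in a suffix -/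
theorem wl_drop {U : List α} {o t : ℕ} (h1 : D.n ≤ t) (h2 : o + t ≤ U.length) :
    D.Wl ((U.drop o).take t) ↔ D.Wl (U.take (o + t)) := by
  have e : U.take (o + t) = U.take o ++ (U.drop o).take t := List.take_add
  rw [e]
  refine (D.loc _ _ ?_).symm
  rw [List.length_take, List.length_drop]; omega

theorem wl_app {P Q : List α} {t : ℕ} (h1 : D.n ≤ t) (h2 : t ≤ Q.length) :
    D.Wl ((P ++ Q).take (P.length + t)) ↔ D.Wl (Q.take t) := by
  rw [List.take_length_add_append]
  refine D.loc _ _ ?_
  rw [List.length_take]; omega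

theorem take_app_le {Q R : List α} {t : ℕ} (h : t ≤ Q.length) : (Q ++ R).take t = Q.take t :=
  List.take_append_of_le_length h

theorem FW.app {s t : ℕ} {Q : List α} (R : List α) (h : D.FW s Q t) : D.FW s (Q ++ R) t := by
  obtain ⟨h1, h2, h3, h4⟩ := h
  refine ⟨h1, by rw [List.length_append]; omega, by rwa [take_app_le h2], ?_⟩
  intro t' a b
  rw [take_app_le (by omega)]
  exact h4 t' a b

theorem FW.left {s t : ℕ} {Q R : List α} (h : D.FW s (Q ++ R) t) (ht : t ≤ Q.length) :
    D.FW s Q t := by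
  obtain ⟨h1, h2, h3, h4⟩ := h
  rw [take_app_le ht] at h3
  refine ⟨h1, ht, h3, fun t' a b => ?_⟩
  have := h4 t' a b
  rwa [take_app_le (by omega)] at this

/-- translation of the first wall -/
theorem FW_shift {P Q : List α} {t : ℕ} (hP : P.length ≤ D.p0) :
    D.FW (D.z - P.length) Q t ↔ D.FW D.z (P ++ Q) (P.length + t) := by
  have hz := D.hz1
  constructor
  · rintro ⟨h1, h2, h3, h4⟩
    refine ⟨by omega, by rw [List.length_append]; omega, (wl_app (by omega) h2).2 h3, ?_⟩
    intro t' a b
    obtain ⟨s, rfl⟩ : ∃ s, t' = P.length + s := ⟨t' - P.length, by omega⟩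
    rw [wl_app (by omega) (by omega)]
    exact h4 s (by omega) (by omega)
  · rintro ⟨h1, h2, h3, h4⟩
    rw [List.length_append] at h2
    refine ⟨by omega, by omega, (wl_app (by omega) (by omega)).1 h3, ?_⟩
    intro t' a b
    have := h4 (P.length + t') (by omega) (by omega)
    rwa [wl_app (by omega) (by omega)] at this

theorem BadAt_shift {P Q : List α} (hP : P.length ≤ D.p0) :
    D.BadAt P.length Q ↔ D.BadAt 0 (P ++ Q) := by
  have hz := D.hz1
  constructor
  · rintro ⟨t, h1, h2⟩
    refine ⟨P.length + t, (FW_shift hP).1 h1, ?_⟩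
    rcases h2 with ⟨w, a, b, c, d⟩ | h2
    · left
      exact ⟨P.length + w, by rw [List.length_append]; omega, (wl_app (by omega) a).2 b,
        by omega, by omega⟩
    · right
      have : P.length + t + 0 - D.p0 = t + P.length - D.p0 := by omega
      rwa [this]
  · rintro ⟨t, h1, h2⟩
    have h1' : D.FW D.z (P ++ Q) t := h1
    have ht := h1'.1
    obtain ⟨s, rfl⟩ : ∃ s, t = P.length + s := ⟨t - P.length, by omega⟩
    refine ⟨s, (FW_shift hP).2 h1', ?_⟩
    rcases h2 with ⟨w, a, b, c, d⟩ | h2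
    · left
      rw [List.length_append] at a
      obtain ⟨w', rfl⟩ : ∃ s, w = P.length + s := ⟨w - P.length, by omega⟩
      exact ⟨w', by omega, (wl_app (by omega) (by omega)).1 b, by omega, by omega⟩
    · right
      have : P.length + s + 0 - D.p0 = s + P.length - D.p0 := by omega
      rwa [this] at h2

theorem XX_FW {X : List α} (h : X ∈ D.XX) : D.FW D.z X X.length := h

/-- badness of the first block does not depend on the rest of the text -/
theorem BadAt_block {X : List α} (hX : X ∈ D.XX) (r : List α) :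
    D.BadAt 0 (X ++ r) ↔ D.BadAt 0 X := by
  have hf : D.FW (D.z - 0) X X.length := hX
  have hf' := hf.app r
  constructor
  · rintro ⟨t, h1, h2⟩
    have e := h1.uniq hf'
    subst e
    refine ⟨_, hf, ?_⟩
    rcases h2 with ⟨w, a, b, c, d⟩ | h2
    · left
      by_cases hw : w ≤ X.length
      · exact ⟨w, hw, by rwa [take_app_le hw] at b, c, d⟩
      · have := hf.1
        exact ⟨X.length, le_rfl, hf.2.2.1, by omega, by omega⟩
    · right; exact h2
  · rintro ⟨t, h1, h2⟩
    have e := h1.uniq hf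
    subst e
    refine ⟨_, hf', ?_⟩
    rcases h2 with ⟨w, a, b, c, d⟩ | h2
    · left
      exact ⟨w, by rw [List.length_append]; omega, by rwa [take_app_le a], c, d⟩
    · right; exact h2

theorem pcode : PCode D.XX := by
  constructor
  · intro h
    have := h.1
    have hz := D.hz4
    simp at this
    omega
  · intro X hX Y hY hXY
    obtain ⟨r, rfl⟩ := hXY
    have h1 : D.FW D.z (X ++ r) X.length := FW.app r hX
    have h2 : D.FW D.z (X ++ r) (X ++ r).length := hY
    have e := h1.uniq h2
    rw [List.length_append] at e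
    have : r = [] := List.length_eq_zero_iff.1 (by omega)
    rw [this, List.append_nil]

theorem s1 (v b : V) (P Q : List α) (hP : P ∈ D.LP1 v) (hQ : Q ∈ D.RQ1 b) :
    P ++ Q ∈ D.XX ∧ D.T v (P ++ Q) = b := by
  obtain ⟨h1, h2⟩ := hP
  obtain ⟨h3, h4, h5, h6⟩ := hQ
  have hlen := D.lam_len _ _ h2
  rw [List.length_drop] at hlen
  have hz := D.hz1
  constructor
  · refine ⟨by rw [List.length_append]; omega, le_rfl, ?_, ?_⟩
    · rw [List.take_length]
      exact (D.loc P Q (by omega)).2 h5
    · intro t a b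
      rw [List.length_append] at b
      obtain ⟨s, rfl⟩ : ∃ s, t = P.length + s := ⟨t - P.length, by omega⟩
      rw [wl_app (by omega) (by omega)]
      exact h6 s (by omega) (by omega)
  · have e1 : (P ++ Q).take D.p0 = P.take D.p0 := take_app_le h1
    have e2 : (P ++ Q).drop D.p0 = P.drop D.p0 ++ Q := by
      rw [List.drop_append_of_le_length h1]
    unfold T
    rw [e1, e2]
    exact (D.ex1 _ _ _ _ h2 h3).symm

theorem c1 (X : List α) (hX : X ∈ D.XX) (hB : X ∉ D.Bad) (v : V) :
    ∃ P Q, P ++ Q = X ∧ P ∈ D.LP1 v ∧ Q ∈ D.RQ1 (D.T v X) := by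
  have hz := D.hz1
  have hz3 := D.hz3
  have hf : D.FW D.z X X.length := hX
  have hnb : ¬ D.BadAt 0 X := fun h => hB ⟨hX, h⟩
  have hE : ∀ w, w ≤ X.length → D.Wl (X.take w) → D.z ≤ w + D.N1 → D.z + D.N1 ≤ w := by
    intro w a b c
    by_contra h
    exact hnb ⟨X.length, hf, Or.inl ⟨w, a, b, by omega, by omega⟩⟩
  have hT : ¬ D.BT (X.length - D.p0) := fun h => hnb ⟨X.length, hf, Or.inr (by simpa using h)⟩
  have hl := hf.1
  have hl2 := hE X.length le_rfl hf.2.2.1 (by omega)
  obtain ⟨P, Q, e, hP, hQ⟩ := D.cp1 (X.drop D.p0) (by rw [List.length_drop]; omega)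
    (by rw [List.length_drop]; exact hT) (D.act v (D.φ (X.take D.p0)) + D.nu2 (X.take D.p0))
  have hPl := D.lam_len _ _ hP
  obtain ⟨b, hb⟩ := Option.isSome_iff_exists.1 hQ
  have hlt : (X.take D.p0).length = D.p0 := by rw [List.length_take]; omega
  have eX : X = X.take D.p0 ++ P ++ Q := by
    rw [List.append_assoc, e, List.take_append_drop]
  have hXlen : X.length = D.p0 + P.length + Q.length := by
    have := congrArg List.length eX
    rw [List.length_append, List.length_append, hlt] at this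
    exact this
  have hPm : X.take D.p0 ++ P ∈ D.LP1 v := by
    refine ⟨by rw [List.length_append]; omega, ?_⟩
    have e1 : (X.take D.p0 ++ P).drop D.p0 = P := by
      rw [List.drop_append_of_le_length (by omega)]
      rw [List.drop_eq_nil_of_le (by omega), List.nil_append]
    have e2 : (X.take D.p0 ++ P).take D.p0 = X.take D.p0 := by
      rw [take_app_le (by omega), List.take_of_length_le (by omega)]
    rw [e1, e2]; exact hP
  have hQm : Q ∈ D.RQ1 b := by
    refine ⟨hb, by omega, ?_, ?_⟩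
    · have h := hf.2.2.1
      rw [List.take_length, eX] at h
      exact (D.loc _ _ (by omega)).1 h
    · intro t a b' hw
      have hpl : (X.take D.p0 ++ P).length = D.p0 + P.length := by
        rw [List.length_append, hlt]
      have h1 : D.Wl (X.take ((X.take D.p0 ++ P).length + t)) := by
        have := (wl_app (D := D) (P := X.take D.p0 ++ P) (Q := Q) (t := t) (by omega) (by omega)).2 hw
        rwa [← eX] at this
      rw [hpl] at h1
      have h2 := hE _ (by omega) h1 (by omega)
      exact hf.2.2.2 _ (by omega) (by omega) h1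
  refine ⟨X.take D.p0 ++ P, Q, eX.symm, hPm, ?_⟩
  have := (s1 v b _ _ hPm hQm).2
  rw [← eX] at this
  rw [this]; exact hQm

theorem XX_len {X : List α} (h : X ∈ D.XX) : D.z ≤ X.length := h.1

theorem XX_wl {X : List α} (h : X ∈ D.XX) : D.Wl X := by
  have := h.2.2.1
  rwa [List.take_length] at this

/-- value of a block `P ++ Q` cut at `|P| = c k` -/
theorem T_cut {k : ℕ} (hk : k < D.K) {P Q : List α} {v v1 : V} (hP : P.length = D.c k)
    (_hQ : D.p0 ≤ (P ++ Q).length) (h1 : D.lam2 k P = some v)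
    (h2 : D.rho2 k (Q.take (D.p0 - D.c k)) = some v1) :
    D.T v (P ++ Q) = D.act v1 (D.φ (Q.drop (D.p0 - D.c k))) + D.nu1 (Q.drop (D.p0 - D.c k)) := by
  have hc := D.hc k hk
  have e1 : (P ++ Q).take D.p0 = P ++ Q.take (D.p0 - D.c k) := by
    rw [List.take_append, hP, List.take_of_length_le (by omega)]
  have e2 : (P ++ Q).drop D.p0 = Q.drop (D.p0 - D.c k) := by
    rw [List.drop_append, hP, List.drop_eq_nil_of_le (by omega), List.nil_append]
  unfold T
  rw [e1, e2, ← D.ex2 k hk _ _ _ _ hP h1 h2]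

theorem s2 (v b : V) (P Q r : List α) (hP : P ∈ D.LP2 v) (hQ : Q ∈ D.RQ2 b)
    (hr : P ++ Q ++ r ∈ Str D.Bad) : P ++ Q ∈ Lg D.Bad D.T v b := by
  have hz := D.hz1
  have hz4 := D.hz4
  obtain ⟨k, hk, hPk, hlam⟩ := hP
  obtain ⟨k', hk', hbad, huq, t, X2, v1, hfw, hQe, hX2, hrho, hb⟩ := hQ
  have hck := D.hc k hk
  have hPlen : P.length ≤ D.p0 := by omega
  -- the end of `Q` is a wall
  have hQw : D.Wl Q := by
    rw [hQe]
    exact (D.loc _ _ (by have := XX_len hX2; omega)).2 (XX_wl hX2)
  have hQl : D.z ≤ Q.length := by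
    rw [hQe, List.length_append]; have := XX_len hX2; omega
  obtain ⟨l, hl, hlf⟩ := hr
  cases l with
  | nil =>
    exfalso
    have := congrArg List.length hlf
    simp at this
    omega
  | cons X l' =>
    have hX : X ∈ D.Bad := hl X (by simp)
    rw [List.flatten_cons] at hlf
    -- first wall of the candidate `k`
    obtain ⟨s, hs, -⟩ := FW.exists (D := D) (s := D.z - P.length) (t := Q.length) (Q := Q)
      (by omega) le_rfl (by rwa [List.take_length])
    have h1 : D.FW D.z (P ++ Q) (P.length + s) := (FW_shift hPlen).1 hs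
    have h2 : D.FW D.z (P ++ Q ++ r) (P.length + s) := h1.app r
    have h3 : D.FW D.z (X ++ l'.flatten) X.length := FW.app _ hX.1
    rw [hlf] at h3
    have hXl : X.length = P.length + s := h3.uniq h2
    have hXe : X = P ++ Q.take s := by
      have e : (X ++ l'.flatten).take X.length = X := by rw [List.take_left]
      rw [hlf, hXl, List.append_assoc, List.take_length_add_append, take_app_le hs.2.1] at e
      exact e.symm
    have hb1 : D.BadAt 0 (P ++ (Q ++ r)) := by
      rw [← List.append_assoc, ← hlf]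
      exact (BadAt_block hX.1 _).2 hX.2
    -- badness of the candidate `k` is seen in `Q`
    have hb2 : D.BadAt 0 (P ++ Q) := by
      have e : P ++ Q = X ++ Q.drop s := by
        rw [hXe, List.append_assoc, List.take_append_drop]
      rw [e]
      exact (BadAt_block hX.1 _).2 hX.2
    have hb3 : D.BadAt (D.c k) Q := by
      rw [← hPk]; exact (BadAt_shift hPlen).2 hb2
    have hkk : k = k' := by
      by_contra hne
      exact huq k hk hne hb3
    subst hkk
    rw [← hPk] at hfw
    have hst : s = t := hs.uniq hfw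
    subst hst
    have hrest : l'.flatten = X2 ++ r := by
      have e : X ++ l'.flatten = X ++ (X2 ++ r) := by
        rw [hlf]
        conv_lhs => rw [hQe]
        rw [hXe]
        simp [List.append_assoc]
      exact List.append_cancel_left e
    have hX2B : X2 ∈ D.Bad := by
      cases l' with
      | nil =>
        exfalso
        have := congrArg List.length hrest
        have h4 := XX_len hX2
        simp at this
        omega
      | cons Y l'' =>
        have hY : Y ∈ D.Bad := hl Y (by simp)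
        rw [List.flatten_cons] at hrest
        have h5 : D.FW D.z (X2 ++ r) X2.length := FW.app _ hX2
        have h6 : D.FW D.z (Y ++ l''.flatten) Y.length := FW.app _ hY.1
        rw [hrest] at h6
        have h7 : Y.length = X2.length := h6.uniq h5
        have : Y = X2 := List.append_inj_left hrest h7
        rw [← this]; exact hY
    refine ⟨[X, X2], ?_, ?_, ?_⟩
    · intro Y hY
      rcases List.mem_cons.1 hY with rfl | hY
      · exact hX
      · rw [List.mem_singleton.1 hY]; exact hX2B
    · simp only [List.flatten_cons, List.flatten_nil, List.append_nil]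
      rw [hXe, List.append_assoc, ← hQe]
    · show D.T (D.T v X) X2 = b
      rw [hb, hXe]
      have e3 : (Q.take s).take (D.p0 - D.c k) = Q.take (D.p0 - D.c k) := by
        rw [List.take_take]
        congr 1
        have := hs.1
        omega
      rw [T_cut hk hPk (by
        have h8 := XX_len hX.1
        rw [hXe] at h8
        omega) hlam (by rw [e3]; exact hrho)]

theorem FW_drop {U : List α} {o s' t : ℕ} (ho : o ≤ U.length) (hn : D.n ≤ s')
    (h : D.FW s' (U.drop o) t) : D.FW (o + s') U (o + t) := by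
  obtain ⟨h1, h2, h3, h4⟩ := h
  rw [List.length_drop] at h2
  refine ⟨by omega, by omega, (wl_drop (by omega) (by omega)).1 h3, ?_⟩
  intro t' a b
  obtain ⟨x, rfl⟩ : ∃ x, t' = o + x := ⟨t' - o, by omega⟩
  rw [← wl_drop (by omega) (by omega)]
  exact h4 x (by omega) (by omega)

/-- number of spoiled places -/
theorem spoil {X X' : List α} (hX : X ∈ D.XX) (hX' : X' ∈ D.XX) (s : Finset ℕ)
    (hs : ∀ k ∈ s, k < D.K ∧ ∃ k' < D.K, k' ≠ k ∧ D.BadAt (D.c k') ((X ++ X').drop (D.c k))) :
    s.card ≤ 1 + 2 * D.C0 := by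
  classical
  have hz := D.hz1
  have hz2 := D.hz2
  have hz4 := D.hz4
  set U : List α := X ++ X' with hU
  have hUl : 2 * D.z ≤ U.length := by
    rw [hU, List.length_append]
    have := XX_len hX; have := XX_len hX'; omega
  have hUw : D.Wl (U.take U.length) := by
    rw [List.take_length, hU]
    exact (D.loc _ _ (by have := XX_len hX'; omega)).2 (XX_wl hX')
  obtain ⟨ulo, hlo, -⟩ := FW.exists (D := D) (s := D.z - D.p0) (t := U.length) (Q := U)
    (by omega) le_rfl hUw
  obtain ⟨uhi, hhi, -⟩ := FW.exists (D := D) (s := D.z + D.p0) (t := U.length) (Q := U)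
    (by omega) le_rfl hUw
  let PE : ℕ → Prop := fun k => ∃ k' < D.K, k' ≠ k ∧ ∃ w, D.c k + w ≤ U.length ∧
    D.Wl (U.take (D.c k + w)) ∧ D.z ≤ w + D.c k' + D.N1 ∧ w + D.c k' < D.z + D.N1
  let PB : ℕ → ℕ → Prop := fun u k => k < D.K ∧ ∃ k' < D.K, k' ≠ k ∧
    D.BT (u - D.p0 + D.c k' - D.c k)
  have hsub : s ⊆ (s.filter PE) ∪ ((s.filter (PB ulo)) ∪ (s.filter (PB uhi))) := by
    intro k hk
    obtain ⟨hkK, k', hk', hne, t, hfw, hb⟩ := hs k hk
    have hc1 := D.hc k hkK
    have hc2 := D.hc k' hk'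
    have hf := FW_drop (D := D) (by omega) (by omega) hfw
    have hdl : t ≤ U.length - D.c k := by
      have := hfw.2.1
      rwa [List.length_drop] at this
    rw [Finset.mem_union, Finset.mem_union, Finset.mem_filter, Finset.mem_filter,
      Finset.mem_filter]
    rcases hb with ⟨w, a, b, c, d⟩ | hb
    · left
      rw [List.length_drop] at a
      refine ⟨hk, k', hk', hne, w, by omega, ?_, c, d⟩
      exact (wl_drop (by omega) (by omega)).1 b
    · right
      have hu : D.c k + t = ulo ∨ D.c k + t = uhi := by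
        by_cases hlt : D.c k + t < D.z + D.p0
        · left
          have h1 : ulo ≤ D.c k + t := by
            by_contra hcon
            exact hlo.2.2.2 _ (by have := hf.1; omega) (by omega) hf.2.2.1
          by_contra hne'
          have := D.gap U ulo (D.c k + t) (by have := hlo.1; omega) (by omega) hf.2.1
            hlo.2.2.1 hf.2.2.1
          have := hlo.1
          omega
        · right
          refine FW.uniq (D := D) (s := D.z + D.p0) (Q := U) ⟨by omega, hf.2.1, hf.2.2.1, ?_⟩ hhi
          intro t' a b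
          exact hf.2.2.2 t' (by omega) b
      rcases hu with hu | hu
      · left
        refine ⟨hk, hkK, k', hk', hne, ?_⟩
        have e : ulo - D.p0 + D.c k' - D.c k = t + D.c k' - D.p0 := by
          have := hlo.1; omega
        rw [e]; exact hb
      · right
        refine ⟨hk, hkK, k', hk', hne, ?_⟩
        have e : uhi - D.p0 + D.c k' - D.c k = t + D.c k' - D.p0 := by
          have := hhi.1; omega
        rw [e]; exact hb
  have hE : (s.filter PE).card ≤ 1 := by
    rw [Finset.card_le_one]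
    intro a ha b hb
    rw [Finset.mem_filter] at ha hb
    obtain ⟨ha1, a', ha', hane, w, hw1, hw2, hw3, hw4⟩ := ha
    obtain ⟨hb1, b', hb', hbne, x, hx1, hx2, hx3, hx4⟩ := hb
    have haK := (hs a ha1).1
    have hbK := (hs b hb1).1
    have k1 := D.hc a haK
    have k2 := D.hc b hbK
    have k3 := D.hc a' ha'
    have k4 := D.hc b' hb'
    have heq : D.c a + w = D.c b + x := by
      rcases lt_trichotomy (D.c a + w) (D.c b + x) with h | h | h
      · have := D.gap U _ _ (by omega) h hx1 hw2 hx2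
        omega
      · exact h
      · have := D.gap U _ _ (by omega) h hw1 hx2 hw2
        omega
    have := D.rulE a a' b b' haK ha' hbK hb' hane.symm hbne.symm (by
      rw [abs_le]; constructor <;> omega)
    exact this.1
  have hlo' : (s.filter (PB ulo)).card ≤ D.C0 := by
    refine D.thinB (ulo - D.p0) (by have := hlo.1; omega) _ ?_
    intro k hk
    exact (Finset.mem_filter.1 hk).2
  have hhi' : (s.filter (PB uhi)).card ≤ D.C0 := by
    refine D.thinB (uhi - D.p0) (by have := hhi.1; omega) _ ?_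
    intro k hk
    exact (Finset.mem_filter.1 hk).2
  have h1 := Finset.card_le_card hsub
  have h2 := Finset.card_union_le (s.filter PE) ((s.filter (PB ulo)) ∪ (s.filter (PB uhi)))
  have h3 := Finset.card_union_le (s.filter (PB ulo)) (s.filter (PB uhi))
  omega

theorem c2 (X : List α) (hX : X ∈ D.Bad) (X' : List α) (hX' : X' ∈ D.Bad) (v : V) :
    ∃ P Q, P ++ Q = X ++ X' ∧ P ∈ D.LP2 v ∧ Q ∈ D.RQ2 (D.T (D.T v X) X') := by
  classical
  have hz := D.hz1
  have hz2 := D.hz2
  have hz4 := D.hz4
  have hXl := XX_len hX.1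
  set U : List α := X ++ X' with hU
  obtain ⟨I, hI, hI2⟩ := D.cp2 (X.take D.p0) v (by rw [List.length_take]; omega)
  let Sp : Finset ℕ := I.filter fun k => ∃ k' < D.K, k' ≠ k ∧ D.BadAt (D.c k') (U.drop (D.c k))
  have hSp : Sp.card ≤ 1 + 2 * D.C0 := by
    refine spoil hX.1 hX'.1 Sp ?_
    intro k hk
    have h := Finset.mem_filter.1 hk
    exact ⟨(hI2 k h.1).1, h.2⟩
  have hex : ∃ k ∈ I, k ∉ Sp := by
    by_contra hcon
    push Not at hcon
    have : I ⊆ Sp := fun k hk => hcon k hk
    have := Finset.card_le_card this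
    omega
  obtain ⟨k, hkI, hkS⟩ := hex
  obtain ⟨hkK, hlam, hrho⟩ := hI2 k hkI
  have hck := D.hc k hkK
  obtain ⟨v1, hv1⟩ := Option.isSome_iff_exists.1 hrho
  have e1 : (X.take D.p0).take (D.c k) = X.take (D.c k) := by
    rw [List.take_take]; congr 1; omega
  have e2 : (X.take D.p0).drop (D.c k) = (X.drop (D.c k)).take (D.p0 - D.c k) := by
    rw [List.drop_take]
  rw [e1] at hlam
  rw [e2] at hv1
  have hXd : U.drop (D.c k) = X.drop (D.c k) ++ X' := by
    rw [hU, List.drop_append_of_le_length (by omega)]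
  have hUt : U.take (D.c k) = X.take (D.c k) := by
    rw [hU, take_app_le (by omega)]
  have hPl : (X.take (D.c k)).length = D.c k := by rw [List.length_take]; omega
  have hfX : D.FW (D.z - D.c k) (X.drop (D.c k)) (X.length - D.c k) := by
    have h := (FW_shift (D := D) (P := X.take (D.c k)) (Q := X.drop (D.c k))
      (t := X.length - D.c k) (by omega)).2 (by
        rw [List.take_append_drop, hPl]
        have : D.c k + (X.length - D.c k) = X.length := by omega
        rw [this]; exact hX.1)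
    rwa [hPl] at h
  have hfU : D.FW (D.z - D.c k) (U.drop (D.c k)) (X.length - D.c k) := by
    rw [hXd]; exact hfX.app _
  have hbad : D.BadAt (D.c k) (U.drop (D.c k)) := by
    have h := (BadAt_shift (D := D) (P := X.take (D.c k)) (Q := U.drop (D.c k)) (by omega)).2 (by
      rw [← hUt, List.take_append_drop, hU]
      exact (BadAt_block hX.1 _).2 hX.2)
    rwa [hPl] at h
  have hQt : (U.drop (D.c k)).take (X.length - D.c k) = X.drop (D.c k) := by
    rw [hXd, take_app_le (by rw [List.length_drop]), List.take_of_length_le (by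
      rw [List.length_drop])]
  refine ⟨X.take (D.c k), U.drop (D.c k), ?_, ⟨k, hkK, hPl, hlam⟩, ⟨k, hkK, hbad, ?_,
    X.length - D.c k, X', v1, hfU, ?_, hX'.1, ?_, ?_⟩⟩
  · rw [← hUt, List.take_append_drop]
  · intro k' hk' hne hb
    exact hkS (Finset.mem_filter.2 ⟨hkI, k', hk', hne, hb⟩)
  · rw [hQt, hXd]
  · rw [hXd, take_app_le (by rw [List.length_drop]; omega)]; exact hv1
  · rw [hQt]
    congr 1
    have h := T_cut (D := D) (P := X.take (D.c k)) (Q := X.drop (D.c k)) (v := v) hkK hPl
      (by rw [List.take_append_drop]; omega) hlam hv1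
    rw [List.take_append_drop] at h
    exact h

end Dat

end Crest.Agent.R320.Asm_305
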