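import Crest.Agent.R320.Block_467
import Crest.Agent.R320.Reg_236

/-!
# Row 320: blocks of a left-looking wall rule on all words (helper298)

`XX Wo z`: words of length at least `z` which end in a wall and have no earlier wall at a place
`≥ z` (natural chain rule).  `hfree`: a word without inner walls is `u x^k v` with bounded
`u, x, v` (all words, long runs included).

* `HL_XX`, `pcode_XX`;
* `hfib` : every regular set of blocks is of height one, in particular the fibres of the zone map;
* `rest` : words without a block prefix and with a given value are of height one;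
* `final` : thread languages of the blocks in `HL k`, `1 ≤ k`, give the fibres of the monoid.
-/

set_option autoImplicit false

namespace Crest.Agent.R320.Fib_298

open Crest.RegLang Crest.Agent.R320.Hk_851 Crest.Agent.R320.Blk467 Crest.Agent.R320.Reg_236
open Language

universe u

variable {α : Type u} {k : ℕ}

/-- blocks of the natural rule -/
def XX (Wo : List α → Prop) (z : ℕ) : Set (List α) :=
  {X | z ≤ X.length ∧ Wo X ∧ ∀ t, z ≤ t → t < X.length → ¬ Wo (X.take t)}

/-- all hypotheses on the wall rule -/
structure WallU (Wo : List α → Prop) (n B : ℕ) : Prop where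
  loc : ∀ P Q : List α, n ≤ Q.length → (Wo (P ++ Q) ↔ Wo Q)
  len : ∀ Q : List α, Wo Q → n ≤ Q.length
  free : ∀ X : List α, (∀ t, t < X.length → ¬ Wo (X.take t)) →
    ∃ (u x v : List α) (j : ℕ), X = u ++ rep x j ++ v ∧ u.length ≤ B ∧ x.length ≤ B ∧
      v.length ≤ B

variable {Wo : List α → Prop} {n B z : ℕ}

theorem pcode_XX (hz : 0 < z) : PCode (XX Wo z) := by
  refine ⟨fun h => ?_, ?_⟩
  · have := h.1
    simp at this
    omega
  · rintro X ⟨hX1, hX2, hX3⟩ Y ⟨hY1, hY2, hY3⟩ ⟨D, rfl⟩
    by_contra hne
    have hD : D ≠ [] := by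
      rintro rfl
      simp at hne
    have hl : 0 < D.length := List.length_pos_iff.2 hD
    refine hY3 X.length hX1 (by rw [List.length_append]; omega) ?_
    rw [List.take_left]
    exact hX2

theorem HL_Wo [Finite α] (h : WallU Wo n B) : HL k ({X | Wo X} : Language α) := by
  have h1 : HL k ({Q : List α | Q.length = n ∧ Wo Q} : Language α) :=
    HL.finite ((List.finite_length_eq α n).subset fun v hv => hv.1)
  refine (HL.mul (HL.top (α := α)) h1).congr fun w => ?_
  constructor
  · intro hw
    have hn : n ≤ w.length := h.len w hw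
    refine Language.mem_mul.2 ⟨w.take (w.length - n), trivial, w.drop (w.length - n), ?_,
      List.take_append_drop _ _⟩
    have hl : (w.drop (w.length - n)).length = n := by
      rw [List.length_drop]; omega
    refine ⟨hl, ?_⟩
    have := (h.loc (w.take (w.length - n)) (w.drop (w.length - n)) (by omega)).1
    rw [List.take_append_drop] at this
    exact this hw
  · intro hw
    obtain ⟨P, -, Q, ⟨hQ, hQ'⟩, rfl⟩ := Language.mem_mul.1 hw
    exact (h.loc P Q (by omega)).2 hQ'

theorem HL_Lz [Finite α] (h : WallU Wo n B) (z : ℕ) :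
    HL k ({X | z ≤ X.length ∧ Wo X} : Language α) :=
  HL.setOf_and (HL.length_ge z) (HL_Wo h)

theorem HL_XX [Finite α] (h : WallU Wo n B) (z : ℕ) : HL k (XX Wo z : Language α) := by
  have h1 := HL_Lz (k := k) h z
  have h2 := HL.mul h1 (HL.length_ge (α := α) (k := k) 1)
  refine (h1.inf h2.compl).congr fun w => ?_
  constructor
  · rintro ⟨hw1, hw2, hw3⟩
    refine ⟨⟨hw1, hw2⟩, fun hc => ?_⟩
    obtain ⟨P, ⟨hP1, hP2⟩, Q, hQ, rfl⟩ := Language.mem_mul.1 hc
    have hQ1 : 1 ≤ Q.length := hQ
    refine hw3 P.length hP1 (by rw [List.length_append]; omega) ?_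
    rw [List.take_left]
    exact hP2
  · rintro ⟨⟨hw1, hw2⟩, hc⟩
    refine ⟨hw1, hw2, fun t ht1 ht2 ht3 => hc ?_⟩
    refine Language.mem_mul.2 ⟨w.take t, ⟨?_, ht3⟩, w.drop t, ?_, List.take_append_drop _ _⟩
    · rw [List.length_take]; omega
    · show 1 ≤ (w.drop t).length
      rw [List.length_drop]; omega

/-- no place `≥ z` of `w` is a wall -/
theorem no_block_iff {w : List α} :
    (∀ X ∈ XX Wo z, ¬ X <+: w) ↔ ∀ t, z ≤ t → t ≤ w.length → ¬ Wo (w.take t) := by
  constructor
  · intro h t
    induction t using Nat.strong_induction_on with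
    | _ t ih =>
      intro h1 h2 h3
      refine h (w.take t) ⟨?_, h3, ?_⟩ (List.take_prefix _ _)
      · rw [List.length_take]; omega
      · intro s hs1 hs2
        rw [List.length_take] at hs2
        have hst : s < t := by omega
        rw [List.take_take, min_eq_left (by omega : s ≤ t)]
        exact ih s hst hs1 (by omega)
  · rintro h X ⟨hX1, hX2, -⟩ ⟨D, rfl⟩
    refine h X.length hX1 (by rw [List.length_append]; omega) ?_
    rw [List.take_left]
    exact hX2

theorem HL_rest [Finite α] (h : WallU Wo n B) (z : ℕ) :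
    HL k ({w | ∀ X ∈ XX Wo z, ¬ X <+: w} : Language α) := by
  have h1 := (HL_XX (k := k) h z).prefix.compl
  refine h1.congr fun w => ?_
  constructor
  · rintro hw ⟨v, hv, hvw⟩
    exact hw v hv hvw
  · intro hw X hX hp
    exact hw ⟨X, hX, hp⟩

/-- words without inner walls at places `≥ z` are templates with two pieces -/
theorem pieces (h : WallU Wo n B) (hz : n ≤ z) {w : List α}
    (hw : ∀ t, z ≤ t → t < w.length → ¬ Wo (w.take t)) :
    ∃ l : List (List α × List α × ℕ), l.length ≤ 2 ∧
      (∀ t ∈ l, t.1.length ≤ z + B ∧ t.2.1.length ≤ z + B) ∧ w = wd l := by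
  have hY : ∀ t, t < (w.drop (z - n)).length → ¬ Wo ((w.drop (z - n)).take t) := by
    intro t ht hW
    rw [List.length_drop] at ht
    have h1 := h.len _ hW
    have h1' : n ≤ t := by
      rw [List.length_take] at h1
      omega
    refine hw (z - n + t) (by omega) (by omega) ?_
    have e : w.take (z - n + t) = w.take (z - n) ++ (w.drop (z - n)).take t := by
      rw [List.take_add]
    rw [e]
    exact (h.loc _ _ h1).2 hW
  obtain ⟨u, x, v, j, e, h1, h2, h3⟩ := h.free _ hY
  refine ⟨[(w.take (z - n) ++ u, x, j), (v, [], 0)], by simp, ?_, ?_⟩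
  · intro t ht
    rcases List.mem_cons.1 ht with rfl | ht
    · refine ⟨?_, by show x.length ≤ _; omega⟩
      show (w.take (z - n) ++ u).length ≤ _
      rw [List.length_append, List.length_take]
      omega
    · rcases List.mem_cons.1 ht with rfl | ht
      · exact ⟨by show v.length ≤ _; omega, by show ([] : List α).length ≤ _; simp⟩
      · exact absurd ht (by simp)
  · have e2 : w = w.take (z - n) ++ w.drop (z - n) := (List.take_append_drop _ _).symm
    rw [e] at e2
    unfold wd
    simp only [List.map_cons, List.map_nil, List.flatten_cons, List.flatten_nil, rep_zero,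
      List.append_nil]
    rw [← List.append_assoc, ← List.append_assoc] at e2
    exact e2

/-- a regular set of blocks is of height one -/
theorem HL_blocks [Finite α] (h : WallU Wo n B) (hz : n ≤ z) {L : Language α}
    (hL : L.IsRegular) (hsub : ∀ w ∈ L, w ∈ XX Wo z) : HL 1 L :=
  HL_one_of_bounded hL 2 (z + B) fun w hw => pieces h hz (hsub w hw).2.2

theorem HL_noblock [Finite α] (h : WallU Wo n B) (hz : n ≤ z) {L : Language α}
    (hL : L.IsRegular) (hsub : ∀ w ∈ L, ∀ X ∈ XX Wo z, ¬ X <+: w) : HL 1 L :=
  HL_one_of_bounded hL 2 (z + B) fun w hw =>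
    pieces h hz fun t h1 h2 => (no_block_iff.1 (hsub w hw)) t h1 h2.le

/-- fibres of a finite monoid are regular -/
theorem isRegular_fib {S : Type*} [Monoid S] [Finite S] (f : α → S) (s : S) :
    Language.IsRegular ({w | (w.map f).prod = s} : Language α) := by
  classical
  have := Fintype.ofFinite S
  refine Language.isRegular_iff.2 ⟨S, inferInstance, ⟨fun q a => q * f a, 1, {s}⟩, ?_⟩
  ext w
  rw [DFA.mem_accepts]
  have key : ∀ (w : List α) (q : S),
      (⟨fun q a => q * f a, 1, {s}⟩ : DFA α S).evalFrom q w = q * (w.map f).prod := by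
    intro w
    induction w with
    | nil => intro q; simp
    | cons a w ih =>
      intro q
      rw [DFA.evalFrom_cons, ih, List.map_cons, List.prod_cons, ← mul_assoc]
  have := key w 1
  rw [one_mul] at this
  show (⟨fun q a => q * f a, 1, {s}⟩ : DFA α S).evalFrom 1 w ∈ ({s} : Set S) ↔ _
  rw [this]
  rfl

/-- union of a family -/
def bU {ι : Type*} (s : Set ι) (L : ι → Language α) : Language α := {w | ∃ i ∈ s, w ∈ L i}

theorem isRegular_bU {ι : Type*} {s : Set ι} (hs : s.Finite) {L : ι → Language α}
    (h : ∀ i ∈ s, (L i).IsRegular) : (bU s L).IsRegular := by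
  induction s, hs using Set.Finite.induction_on with
  | empty =>
    have : bU (∅ : Set ι) L = 0 := by
      ext w
      constructor
      · rintro ⟨i, hi, -⟩
        exact absurd hi (by simp)
      · intro hw
        exact absurd hw (Language.notMem_zero w)
    rw [this]
    exact isRegular_zero
  | @insert a s ha hs ih =>
    have : bU (insert a s) L = L a + bU s L := by
      ext w
      constructor
      · rintro ⟨i, hi, hw⟩
        rcases Set.mem_insert_iff.1 hi with rfl | hi
        · exact Or.inl hw
        · exact Or.inr ⟨i, hi, hw⟩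
      · rintro (hw | ⟨i, hi, hw⟩)
        · exact ⟨a, Set.mem_insert _ _, hw⟩
        · exact ⟨i, Set.mem_insert_of_mem _ hi, hw⟩
    rw [this]
    exact (h a (Set.mem_insert _ _)).add (ih fun i hi => h i (Set.mem_insert_of_mem _ hi))

theorem isRegular_biUnion {ι : Type*} {s : Set ι} (hs : s.Finite) {L : ι → Language α}
    (h : ∀ i ∈ s, (L i).IsRegular) :
    Language.IsRegular ({w | ∃ i ∈ s, w ∈ L i} : Language α) :=
  isRegular_bU hs h

/-- the zone map: `p0` letters, an arbitrary map `pre`, then an affine map with regular noise -/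
def TT {S V : Type*} [Monoid S] [AddCommGroup V] (act : V → S → V) (f : α → S) (p0 : ℕ)
    (pre : V → List α → V) (nu1 : List α → V) (x : V) (X : List α) : V :=
  act (pre x (X.take p0)) ((X.drop p0).map f).prod + nu1 (X.drop p0)

theorem isRegular_TT [Finite α] {S V : Type*} [Monoid S] [Finite S] [AddCommGroup V] [Finite V]
    (act : V → S → V) (f : α → S) (p0 : ℕ) (pre : V → List α → V) (nu1 : List α → V)
    (hnu : ∀ y, Language.IsRegular ({Y | nu1 Y = y} : Language α)) (x y : V) :
    Language.IsRegular
      ({X | p0 ≤ X.length ∧ TT act f p0 pre nu1 x X = y} : Language α) := by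
  let F : S → Language α := fun a => {w | (w.map f).prod = a}
  let N : V → Language α := fun c => {Y | nu1 Y = c}
  let P : List α → Set (S × V) := fun X0 => {p : S × V | act (pre x X0) p.1 + p.2 = y}
  let I : S × V → Language α := fun p => F p.1 ⊓ N p.2
  let R : List α → Language α := fun X0 => {Y | ∃ p ∈ P X0, Y ∈ I p}
  let W : List α → Language α := fun X0 => {X0}
  have h1 := isRegular_biUnion (List.finite_length_eq α p0)
    (L := fun X0 => W X0 * R X0)
    (fun X0 _ => isRegular_mul (HL.isRegular (HL.word (k := 0) X0))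
      (isRegular_biUnion (Set.toFinite (P X0)) fun p _ => (isRegular_fib f p.1).inf (hnu p.2)))
  have e : ({X | p0 ≤ X.length ∧ TT act f p0 pre nu1 x X = y} : Language α) =
    ({w | ∃ i ∈ ({l : List α | l.length = p0} : Set (List α)), w ∈ W i * R i} :
      Language α) := by
    ext w
    constructor
    · rintro ⟨hw1, hw2⟩
      refine ⟨w.take p0, by show (w.take p0).length = p0; rw [List.length_take]; omega, ?_⟩
      refine Language.mem_mul.2 ⟨w.take p0, rfl, w.drop p0, ?_, List.take_append_drop _ _⟩
      exact ⟨(((w.drop p0).map f).prod, nu1 (w.drop p0)), hw2, rfl, rfl⟩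
    · rintro ⟨X0, hX0, hw⟩
      obtain ⟨X0', hX0', Y, ⟨p, hp, hp1, hp2⟩, rfl⟩ := Language.mem_mul.1 hw
      have : X0' = X0 := hX0'
      subst this
      have hl : X0'.length = p0 := hX0
      refine ⟨by rw [List.length_append]; omega, ?_⟩
      unfold TT
      rw [List.take_left' hl, List.drop_left' hl]
      have hp1' : (Y.map f).prod = p.1 := hp1
      have hp2' : nu1 Y = p.2 := hp2
      rw [hp1', hp2']
      exact hp
  rw [e]
  exact h1

/-- **hfib** -/
theorem hfib [Finite α] {S V : Type*} [Monoid S] [Finite S] [AddCommGroup V] [Finite V]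
    (h : WallU Wo n B) (hz : n ≤ z) (act : V → S → V) (f : α → S) (p0 : ℕ) (hp : p0 ≤ z)
    (pre : V → List α → V) (nu1 : List α → V)
    (hnu : ∀ y, Language.IsRegular ({Y | nu1 Y = y} : Language α)) (x y : V) :
    HL 1 ({X | X ∈ XX Wo z ∧ TT act f p0 pre nu1 x X = y} : Language α) := by
  refine HL_blocks h hz ?_ (fun w hw => hw.1)
  have h1 := (HL.isRegular (HL_XX (k := 0) h z)).inf (isRegular_TT act f p0 pre nu1 hnu x y)
  have e : ({X | X ∈ XX Wo z ∧ TT act f p0 pre nu1 x X = y} : Language α) =
      ((XX Wo z : Language α) ⊓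
        ({X | p0 ≤ X.length ∧ TT act f p0 pre nu1 x X = y} : Language α) : Language α) := by
    ext w
    constructor
    · rintro ⟨hw1, hw2⟩
      exact ⟨hw1, hp.trans hw1.1, hw2⟩
    · rintro ⟨hw1, hw2, hw3⟩
      exact ⟨hw1, hw3⟩
  rw [e]
  exact h1

/-- **rest** -/
theorem rest [Finite α] {S : Type*} [Monoid S] [Finite S] (h : WallU Wo n B) (hz : n ≤ z)
    (f : α → S) (s : S) :
    HL 1 ({w | (∀ X ∈ XX Wo z, ¬ X <+: w) ∧ (w.map f).prod = s} : Language α) := by
  refine HL_noblock h hz ?_ (fun w hw => hw.1)
  exact (HL.isRegular (HL_rest (k := 0) h z)).inf (isRegular_fib f s)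

/-- **final**: threads of the blocks give the fibres of the monoid, one monoid at a time. -/
theorem final [Finite α] {S V : Type*} [Monoid S] [Finite S] [AddCommGroup V] [Finite V]
    (h : WallU Wo n B) (hz : n ≤ z) (hz0 : 0 < z) (act : V → S → V)
    (hadd : ∀ a b s, act (a + b) s = act a s + act b s)
    (hone : ∀ v, act v 1 = v) (hmul : ∀ v s t, act v (s * t) = act (act v s) t)
    (hfaith : ∀ s t, (∀ v, act v s = act v t) → s = t)
    (f : α → S) (p0 : ℕ) (nu2 nu1 : List α → V) (hk : 1 ≤ k)
    (hLg : ∀ v v', HL k (Lg (XX Wo z)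
      (TT act f p0 (fun v X0 => act v (X0.map f).prod + nu2 X0) nu1) v v')) (s : S) :
    HL k ({w | (w.map f).prod = s} : Language α) := by
  have hT : (TT act f p0 (fun v X0 => act v (X0.map f).prod + nu2 X0) nu1) =
      fun v X => act v (X.map f).prod +
        (act (nu2 (X.take p0)) ((X.drop p0).map f).prod + nu1 (X.drop p0)) := by
    funext v X
    unfold TT
    rw [hadd, ← hmul, ← List.prod_append, ← List.map_append, List.take_append_drop, add_assoc]
  rw [hT] at hLg
  have hStr : ∀ a : S, HL k ({w | w ∈ Str (XX Wo z) ∧ (w.map f).prod = a} : Language α) :=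
    fun a => fibre_of_threads act hadd hone hmul hfaith f _ _ (pcode_XX hz0).uparse hLg a
  let A : S → Language α := fun a => {w | w ∈ Str (XX Wo z) ∧ (w.map f).prod = a}
  let D : S → Language α := fun b => {w | (∀ X ∈ XX Wo z, ¬ X <+: w) ∧ (w.map f).prod = b}
  refine (HL.biUnion (k := k) (Set.toFinite {p : S × S | p.1 * p.2 = s})
    (L := fun p => A p.1 * D p.2)
    (fun p _ => HL.mul (L := A p.1) (M := D p.2) (hStr p.1)
      (HL.mono hk (rest h hz f p.2)))).congr fun w => ?_
  constructor
  · intro hw
    obtain ⟨M, E, rfl, hM, hE⟩ := exists_parse (pcode_XX (Wo := Wo) hz0).1 w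
    refine ⟨((M.map f).prod, (E.map f).prod), ?_, ?_⟩
    · have hw' : ((M ++ E).map f).prod = s := hw
      rw [List.map_append, List.prod_append] at hw'
      exact hw'
    · exact Language.mem_mul.2 ⟨M, ⟨hM, rfl⟩, E, ⟨hE, rfl⟩, rfl⟩
  · rintro ⟨p, hp, hw⟩
    obtain ⟨M, ⟨_, hM⟩, E, ⟨_, hE⟩, rfl⟩ := Language.mem_mul.1 hw
    change ((M ++ E).map f).prod = s
    rw [List.map_append, List.prod_append, hM, hE]
    exact hp

end Crest.Agent.R320.Fib_298
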