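import Crest.Agent.R320.SemTop_727
import Crest.Agent.R320.Fib_298
import Crest.Agent.R320.Sc2n_937

set_option autoImplicit false

/-! Row 320: joint of 727's semantic top, 298's fibres and 937's block form (helper331). -/

namespace Crest.Agent.R320.Asm_331

open Crest.RegLang Crest.Agent.R320.Hk_851 Crest.Agent.R320.Blk467
open Crest.Agent.R320.SemTop_727 Crest.Agent.R320.Sc2n_937

universe u

variable {α : Type u} {V : Type u}

/-- all word data of the two schemes -/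
structure Dat (α : Type u) (V : Type u) extends Geo α where
  pre : List α → V → V
  post : V → List α → V
  BadT : ℕ → Prop
  lam : List α → Option V
  rho : List α → Option V
  K : ℕ
  c : ℕ → ℕ
  lam2 : ℕ → List α → Option V
  rho2 : ℕ → List α → Option V
  C0 : ℕ
  hlen : ∀ P v, lam P = some v → P.length ≤ N1
  hex : ∀ P Q u b, lam P = some u → rho Q = some b → b = post u (P ++ Q)
  hcomp : ∀ Y : List α, q0 + N1 ≤ Y.length → ¬ BadT Y.length → ∀ u : V,
    ∃ P Q, Y = P ++ Q ∧ lam P = some u ∧ (rho Q).isSome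
  hc : ∀ k, k < K → c k ≤ p0
  hex2 : ∀ k, k < K → ∀ P Q v u, P.length = c k → Q.length = p0 - c k →
      lam2 k P = some v → rho2 k Q = some u → u = pre (P ++ Q) v
  hgap : ∀ P Q : List α, Wo P → Wo (P ++ Q) → Q ≠ [] → 2 * p0 + 2 * N1 < Q.length
  hsp : ∀ k k' l l', k < K → k' < K → l < K → l' < K → k' ≠ k → l' ≠ l →
      c k + c l' < c l + c k' + 2 * N1 → c l + c k' < c k + c l' + 2 * N1 → k = l
  hthin : ∀ τ, z ≤ τ + p0 → ∀ J : Finset ℕ, (∀ k ∈ J, k < K ∧
      ∃ k', k' < K ∧ k' ≠ k ∧ BadT (τ + c k' - c k - p0)) → J.card ≤ C0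
  hcomp2 : ∀ X : List α, X.length = p0 → ∀ v : V, ∃ I : Finset ℕ, 2 * C0 + 2 ≤ I.card ∧
    ∀ k ∈ I, k < K ∧ lam2 k (X.take (c k)) = some v ∧ (rho2 k (X.drop (c k))).isSome

namespace Dat

variable (D : Dat α V)

def G : Geo α := D.toGeo

/-- the schemes -/
def sch : Sch α V where
  XX := {X | D.G.XX X}
  T := D.G.T D.pre D.post
  L1 := fun v => {P | D.G.LP1 D.pre D.lam v P}
  L2 := fun v => {P | Geo.LP2 D.K D.c D.lam2 v P}

theorem good_of {X : List α} (hX : D.G.XX X) (hb : ¬ D.G.BadX D.BadT X) : X ∈ D.sch.Good := by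
  have hE : ¬ D.G.E X := fun h => hb (Or.inl h)
  have hT : ¬ D.BadT (X.length - D.p0) := fun h => hb (Or.inr h)
  have hz : D.z = D.p0 + D.N1 + D.q0 := D.hz
  have hXz : D.z ≤ X.length := hX.1
  refine ⟨hX, fun x => ?_⟩
  have hc : ∀ u : V, ∃ P Q, X.drop D.p0 = P ++ Q ∧ D.lam P = some u ∧ (D.rho Q).isSome := by
    refine D.hcomp _ ?_ ?_
    · rw [List.length_drop]; omega
    · rw [List.length_drop]; exact hT
  obtain ⟨P, Q, b, e, hP, hQ⟩ := D.G.complete1 D.pre (lam := D.lam) (rho := D.rho)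
    D.hlen hX hE hc x
  have h0 := D.G.sound1 D.pre D.post D.hlen D.hex hP hQ
  refine ⟨P, hP, Q, ?_, e.symm⟩
  intro x' P' hP'
  have h1 := D.G.sound1 D.pre D.post D.hlen D.hex hP' hQ
  refine ⟨h1.1, ?_⟩
  show D.G.T D.pre D.post x' (P' ++ Q) = D.G.T D.pre D.post x X
  rw [h1.2, e, h0.2]

theorem bad_of {X : List α} (hX : X ∈ D.sch.Bad) : D.G.BadX D.BadT X := by
  by_contra h
  exact hX.2 (D.good_of hX.1 h)

theorem good_cand {P Q : List α} {c : ℕ} (hP : P.length = c) (hc : c ≤ D.p0)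
    (h : D.G.CGood D.BadT Q c) : ∃ l, P ++ Q.take l ∈ D.sch.Good := by
  subst hP
  obtain ⟨l, he, hg⟩ := h
  refine ⟨l, D.good_of (D.G.xx_of_cend hc he) fun hb => hg ?_⟩
  exact D.G.cbad_of_bad hc he hb

/-- value of a candidate block -/
theorem value {k l : ℕ} {P Q : List α} {v u b : V} (hk : k < D.K) (hPl : P.length = D.c k)
    (hl : D.lam2 k P = some v) (hend : D.G.CEnd Q (D.c k) l)
    (hr : D.rho2 k (Q.take (D.p0 - D.c k)) = some u)
    (hb : b = D.G.T D.pre D.post (D.post u ((Q.take l).drop (D.p0 - D.c k))) (Q.drop l)) :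
    D.G.T D.pre D.post (D.G.T D.pre D.post v (P ++ Q.take l)) (Q.drop l) = b := by
  have hz : D.z = D.p0 + D.N1 + D.q0 := D.hz
  have hck := D.hc k hk
  have h2 : D.z ≤ D.c k + l := hend.2.1
  have h6 : l ≤ Q.length := hend.1
  have h5 : D.p0 - D.c k ≤ l := by omega
  rw [hb]
  congr 1
  have e1 : (P ++ Q.take l).take D.p0 = P ++ Q.take (D.p0 - D.c k) := by
    rw [List.take_append, List.take_of_length_le (by omega), List.take_take, hPl,
      Nat.min_eq_left h5]
  have e2 : (P ++ Q.take l).drop D.p0 = (Q.take l).drop (D.p0 - D.c k) := by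
    rw [List.drop_append, List.drop_of_length_le (by omega), hPl]; rfl
  show D.post (D.pre ((P ++ Q.take l).take D.p0) v) ((P ++ Q.take l).drop D.p0) = _
  rw [e1, e2]
  congr 1
  refine (D.hex2 k hk P _ v u hPl ?_ hl hr).symm
  rw [List.length_take]
  omega

theorem hC2 : ∀ X1 ∈ D.sch.Bad, ∀ X2 ∈ D.sch.Bad, ∀ x, ∃ P ∈ D.sch.L2 x,
    ∃ Q ∈ D.sch.R2 (D.sch.T (D.sch.T x X1) X2), P ++ Q = X1 ++ X2 := by
  intro X1 h1 X2 h2 x
  have hz : D.z = D.p0 + D.N1 + D.q0 := D.hz
  have hX1z : D.z ≤ X1.length := h1.1.1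
  have hI : ∃ I : Finset ℕ, 2 * D.C0 + 2 ≤ I.card ∧ ∀ k ∈ I, k < D.K ∧
      D.lam2 k (X1.take (D.c k)) = some x ∧
        (D.rho2 k ((X1.take D.p0).drop (D.c k))).isSome := by
    obtain ⟨I, hI, h⟩ := D.hcomp2 (X1.take D.p0) (by rw [List.length_take]; omega) x
    refine ⟨I, hI, fun k hk => ?_⟩
    obtain ⟨a, b, c⟩ := h k hk
    refine ⟨a, ?_, c⟩
    rw [List.take_take, Nat.min_eq_left (D.hc k a)] at b
    exact b
  obtain ⟨P, Q, b, e, hP, hQ⟩ := D.G.complete2 D.pre D.post (BadT := D.BadT) (K := D.K)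
    (c := D.c) (lam2 := D.lam2) (rho2 := D.rho2) (C0 := D.C0) D.hc D.hgap D.hsp D.hthin
    h1.1 h2.1 x hI
  obtain ⟨k, hk, l, hend, hgood, hX2', u, hr, hb⟩ := hQ
  -- the value
  have hval : D.G.T D.pre D.post (D.G.T D.pre D.post x X1) X2 = b := by
    obtain ⟨k0, hk0, hPl, hl⟩ := hP
    have hkk : k0 = k := by
      by_contra hne
      obtain ⟨l', hg⟩ := D.good_cand hPl (D.hc k0 hk0) (hgood k0 hk0 hne)
      have : P ++ Q.take l' = X1 := by
        refine D.G.prefix_code (R := Q.drop l') (R' := X2) hg.1 h1.1 ?_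
        rw [List.append_assoc, List.take_append_drop, e]
      exact h1.2 (this ▸ hg)
    subst hkk
    have hXX : D.G.XX (P ++ Q.take l) :=
      D.G.xx_of_cend (by rw [hPl]; exact D.hc k0 hk0) (by rw [hPl]; exact hend)
    have e1 : P ++ Q.take l = X1 := by
      refine D.G.prefix_code (R := Q.drop l) (R' := X2) hXX h1.1 ?_
      rw [List.append_assoc, List.take_append_drop, e]
    have e2 : Q.drop l = X2 := by
      have e3 : (P ++ Q.take l) ++ Q.drop l = X1 ++ X2 := by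
        rw [List.append_assoc, List.take_append_drop, e]
      rw [e1] at e3
      exact List.append_cancel_left e3
    have := D.value hk0 hPl hl hend hr hb
    rw [e1, e2] at this
    exact this
  refine ⟨P, hP, Q, ?_, e⟩
  intro x' P' hP'
  obtain ⟨k', hk', hPl', hl'⟩ := hP'
  by_cases hkk : k' = k
  · subst hkk
    have hXX : D.G.XX (P' ++ Q.take l) :=
      D.G.xx_of_cend (by rw [hPl']; exact D.hc k' hk') (by rw [hPl']; exact hend)
    by_cases g1 : P' ++ Q.take l ∈ D.sch.Good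
    · exact Or.inr (Or.inl ⟨_, g1, ⟨Q.drop l, by
        rw [List.append_assoc, List.take_append_drop]⟩⟩)
    · by_cases g2 : Q.drop l ∈ D.sch.Good
      · exact Or.inr (Or.inr ⟨_, ⟨hXX, g1⟩, _, g2, ⟨[], by
          rw [List.append_nil, List.append_assoc, List.take_append_drop]⟩⟩)
      · refine Or.inl ⟨_, ⟨hXX, g1⟩, _, ⟨hX2', g2⟩, ?_, ?_⟩
        · rw [List.append_assoc, List.take_append_drop]
        · show D.G.T D.pre D.post (D.G.T D.pre D.post x' (P' ++ Q.take l)) (Q.drop l) =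
            D.G.T D.pre D.post (D.G.T D.pre D.post x X1) X2
          rw [hval]
          exact D.value hk' hPl' hl' hend hr hb
  · obtain ⟨l', hg⟩ := D.good_cand hPl' (D.hc k' hk') (hgood k' hk' hkk)
    exact Or.inr (Or.inl ⟨_, hg, ⟨Q.drop l', by
      rw [List.append_assoc, List.take_append_drop]⟩⟩)

end Dat

end Crest.Agent.R320.Asm_331
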