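import Crest.Agent.R320.Shared_621
import Crest.Agent.R320.FewVal_228
import Crest.Agent.R320.WallU_228

/-!
# Row 320: the two schemes on all words (helper49)

Blocks: `Blk Wo z X t`: `t` is the only wall of `X` at a place in `[z, |X|)` and `|X|` is a wall.
-/

set_option autoImplicit false

namespace Crest.Agent.R320.Asm_49

open Crest.Agent.R320.Hk_851 Crest.Agent.R320.Star_621 Crest.Agent.R320.Two_621
open Crest.Agent.R320.Main_621 Crest.Agent.R320.Shared_621 Crest.RegLang

variable {α : Type}

/-- `X` is a block with accepted wall `t` -/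
structure Blk (Wo : List α → Prop) (z : ℕ) (X : List α) (t : ℕ) : Prop where
  zt : z ≤ t
  tX : t < X.length
  wt : Wo (X.take t)
  wX : Wo X
  uniq : ∀ s, z ≤ s → s < X.length → Wo (X.take s) → s = t

theorem take_eq_of_append {X x Y y : List α} (h : X ++ x = Y ++ y) {s : ℕ} (h1 : s ≤ X.length)
    (h2 : s ≤ Y.length) : X.take s = Y.take s := by
  have e := congrArg (List.take s) h
  rwa [List.take_append_of_le_length h1, List.take_append_of_le_length h2] at e

theorem Blk.code_aux {Wo : List α → Prop} {z : ℕ} {X Y x y : List α} {t t' : ℕ}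
    (h : Blk Wo z X t) (h' : Blk Wo z Y t') (e : X ++ x = Y ++ y) (hl : X.length < Y.length) :
    False := by
  have h1 := h.zt
  have h2 := h.tX
  have e1 : X.take t = Y.take t := take_eq_of_append e (by omega) (by omega)
  have e2 : X.take X.length = Y.take X.length := take_eq_of_append e le_rfl (by omega)
  rw [List.take_length] at e2
  have u1 := h'.uniq t h1 (by omega) (e1 ▸ h.wt)
  have u2 := h'.uniq X.length (by omega) hl (e2 ▸ h.wX)
  omega

theorem Blk.code {Wo : List α → Prop} {z : ℕ} {X Y x y : List α} {t t' : ℕ}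
    (h : Blk Wo z X t) (h' : Blk Wo z Y t') (e : X ++ x = Y ++ y) : X = Y := by
  rcases lt_trichotomy X.length Y.length with hl | hl | hl
  · exact (h.code_aux h' e hl).elim
  · have := take_eq_of_append e le_rfl (by omega : X.length ≤ Y.length)
    rw [List.take_length, hl, List.take_length] at this
    exact this
  · exact (h'.code_aux h e.symm hl).elim

section geo

variable {Wo : List α → Prop} {n : ℕ}

theorem wo_shift (hloc : ∀ P Q : List α, n ≤ Q.length → (Wo (P ++ Q) ↔ Wo Q)) (P Q : List α)
    {s : ℕ} (h1 : n ≤ s) (h2 : s ≤ Q.length) : Wo ((P ++ Q).take (P.length + s)) ↔ Wo (Q.take s) := by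
  rw [List.take_length_add_append]
  exact hloc P _ (by rw [List.length_take]; omega)

theorem blk_shift (hloc : ∀ P Q : List α, n ≤ Q.length → (Wo (P ++ Q) ↔ Wo Q)) {z : ℕ}
    {P P' Q : List α} {s0 : ℕ} (h : Blk Wo z (P ++ Q) (P.length + s0)) (hn : n ≤ s0)
    (h1 : z ≤ P'.length + s0) (hz : P'.length + n ≤ z)
    (h2 : ∀ s, n ≤ s → z ≤ P'.length + s → s < s0 → ¬ Wo (Q.take s)) :
    Blk Wo z (P' ++ Q) (P'.length + s0) := by
  have h3 := h.tX
  rw [List.length_append] at h3
  refine ⟨h1, by rw [List.length_append]; omega, ?_, ?_, ?_⟩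
  · rw [wo_shift hloc P' Q hn (by omega)]
    exact (wo_shift hloc P Q hn (by omega)).1 h.wt
  · rw [hloc P' Q (by omega)]
    exact (hloc P Q (by omega)).1 h.wX
  · intro s hs1 hs2 hs3
    rw [List.length_append] at hs2
    obtain ⟨r, rfl⟩ : ∃ r, s = P'.length + r := ⟨s - P'.length, by omega⟩
    rw [wo_shift hloc P' Q (by omega) (by omega)] at hs3
    rcases lt_trichotomy r s0 with hr | hr | hr
    · exact absurd hs3 (h2 r (by omega) hs1 hr)
    · rw [hr]
    · have h4 := h.zt
      have := h.uniq (P.length + r) (by omega) (by rw [List.length_append]; omega)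
        ((wo_shift hloc P Q (by omega) (by omega)).2 hs3)
      omega

end geo

end Crest.Agent.R320.Asm_49
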