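import Mathlib

/-!
Row 320: the two wall schemes on the natural block code, semantic right labels (helper491).

Blocks: `X` with `z ≤ |X|`, `X` ends in an outer wall, no wall in between at `t ≥ z`.
Zone map `TT v X = act (act v φ(X₁) + ν₂ X₁) φ(Y) + ν₁ Y`, `|X₁| = p0`, `X = X₁ ++ Y`.
Gadget 1 = `lam, rho, nu1` (693's grid gadget), gadget 2 = exact gadget of 237 with the places `c k`.
Result: `cc` : every block followed by one more block is cut for every token, in the semantic form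
(474 / 445 / 163).
-/

set_option autoImplicit false
set_option linter.unusedSectionVars false

namespace Crest.Agent.R320.Asm_491

open Finset

/-- natural block code -/
def XX {α : Type*} (Wo : List α → Prop) (z : ℕ) : Set (List α) :=
  {X | z ≤ X.length ∧ Wo X ∧ ∀ t, z ≤ t → t < X.length → ¬ Wo (X.take t)}

/-- zone map -/
def TT {α S V : Type*} [Monoid S] [AddCommGroup V] (φ : List α → S) (act : V → S → V)
    (nu1 nu2 : List α → V) (p0 : ℕ) (v : V) (X : List α) : V :=
  act (act v (φ (X.take p0)) + nu2 (X.take p0)) (φ (X.drop p0)) + nu1 (X.drop p0)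

/-- the data of the two schemes -/
structure Data (α S V : Type*) where
  φ : List α → S
  act : V → S → V
  Wo : List α → Prop
  n : ℕ
  W : ℕ
  z : ℕ
  p0 : ℕ
  lam : List α → Option V
  rho : List α → Option V
  nu1 : List α → V
  N1 : ℕ
  La : ℕ
  Bad : ℕ → Prop
  K : ℕ
  R : ℕ
  C0 : ℕ
  Lam : ℕ
  c : ℕ → ℕ
  lam2 : ℕ → List α → Option V
  rho2 : ℕ → List α → Option V
  nu2 : List α → V

variable {α S V : Type*} [Monoid S] [AddCommGroup V]

open Classical in
/-- the hypotheses -/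
structure Ok (D : Data α S V) : Prop where
  loc : ∀ P Q : List α, D.n ≤ Q.length → (D.Wo (P ++ Q) ↔ D.Wo Q)
  gap : ∀ (P : List α) (d : ℕ), D.Wo P → 0 < d → d ≤ D.W → ¬ D.Wo (P.take (P.length - d))
  g1len : ∀ p v, D.lam p = some v → p.length ≤ D.N1
  g1sound : ∀ p q v r, D.lam p = some v → D.rho q = some r → D.La ≤ q.length →
    r = D.act v (D.φ (p ++ q)) + D.nu1 (p ++ q)
  g1comp : ∀ u : List α, D.La ≤ u.length → ¬ D.Bad u.length → ∀ v, ∃ p q, p ++ q = u ∧
    D.lam p = some v ∧ (D.rho q).isSome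
  cLam : ∀ k < D.K, D.c k ≤ D.Lam
  cinj : ∀ i < D.K, ∀ j < D.K, D.c i = D.c j → i = j
  golomb : ∀ i < D.K, ∀ j < D.K, ∀ k < D.K, ∀ l < D.K, i ≠ j → k ≠ l →
    D.c i + D.c l < D.c k + D.c j + 2 * D.N1 → D.c k + D.c j < D.c i + D.c l + 2 * D.N1 →
    i = k ∧ j = l
  spoil : ∀ T, D.La ≤ T → (((range D.K) ×ˢ (range D.K)).filter
    (fun q => q.1 ≠ q.2 ∧ D.Bad (T + D.c q.2 - D.c q.1))).card ≤ D.C0
  g2sound : ∀ k < D.K, ∀ (P Q : List α) (v b : V), P.length = D.c k →
    P.length + Q.length = D.p0 → D.lam2 k P = some v → D.rho2 k Q = some b →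
    b = D.act v (D.φ (P ++ Q)) + D.nu2 (P ++ Q)
  g2comp : ∀ (u : List α), u.length = D.p0 → ∀ v : V, ∃ I : Finset ℕ, D.R ≤ I.card ∧
    ∀ k ∈ I, k < D.K ∧ D.lam2 k (u.take (D.c k)) = some v ∧ (D.rho2 k (u.drop (D.c k))).isSome
  hR : 1 + 2 * D.C0 < D.R
  hLp : D.Lam ≤ D.p0
  hz : D.p0 + D.n + D.N1 + D.Lam + D.La + 1 ≤ D.z
  hW : 2 * (D.N1 + D.Lam) ≤ D.W

variable (D : Data α S V)

/-- zone map of the data -/
def Data.T (v : V) (X : List α) : V := TT D.φ D.act D.nu1 D.nu2 D.p0 v X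

/-- left words of scheme 1 -/
def Data.LP1 (P : List α) (v : V) : Prop :=
  D.p0 ≤ P.length ∧
    D.lam (P.drop D.p0) = some (D.act v (D.φ (P.take D.p0)) + D.nu2 (P.take D.p0))

/-- left words of scheme 2 -/
def Data.LP2 (P : List α) (v : V) : Prop :=
  ∃ k < D.K, P.length = D.c k ∧ D.lam2 k P = some v

/-- semantic right words of scheme 1 -/
def Data.Sem1 (Q : List α) : Prop :=
  Q ≠ [] ∧ ∃ b, ∀ P v, D.LP1 P v → P ++ Q ∈ XX D.Wo D.z ∧ D.T v (P ++ Q) = b

/-- semantic right words of scheme 2 -/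
def Data.Sem2 (Q : List α) : Prop :=
  Q ≠ [] ∧ ∃ b, ∀ P v, D.LP2 P v →
    (∃ X ∈ XX D.Wo D.z, X <+: P ++ Q ∧ ∃ P' Q', X = P' ++ Q' ∧ P.length ≤ P'.length ∧
      D.LP1 P' v ∧ D.Sem1 Q') ∨
    (∃ Q1 X2, Q = Q1 ++ X2 ∧ Q1 ≠ [] ∧ P ++ Q1 ∈ XX D.Wo D.z ∧ X2 ∈ XX D.Wo D.z ∧
      D.T (D.T v (P ++ Q1)) X2 = b)

variable {D}

theorem take_add {P Q : List α} {y : ℕ} : (P ++ Q).take (P.length + y) = P ++ Q.take y := by
  rw [List.take_append]
  simp [List.take_of_length_le]

theorem Ok.tr (h : Ok D) {P P' Q : List α} {y : ℕ} (h1 : D.n ≤ y) (h2 : y ≤ Q.length) :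
    D.Wo ((P ++ Q).take (P.length + y)) ↔ D.Wo ((P' ++ Q).take (P'.length + y)) := by
  rw [take_add, take_add, h.loc P _ (by rw [List.length_take]; omega),
    h.loc P' _ (by rw [List.length_take]; omega)]

theorem Ok.sep (h : Ok D) {Z : List α} {s t : ℕ} (hst : s < t) (ht : t ≤ Z.length)
    (hs : D.Wo (Z.take s)) (hw : D.Wo (Z.take t)) : D.W < t - s := by
  by_contra hlt
  push Not at hlt
  have hl : (Z.take t).length = t := by rw [List.length_take]; omega
  have := h.gap (Z.take t) (t - s) hw (by omega) hlt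
  rw [hl, List.take_take] at this
  apply this
  have e : min (t - (t - s)) t = s := by omega
  rw [e]
  exact hs

/-- scheme 1 cuts every token of a block without mode (E), (B) -/
theorem Ok.cut1 (h : Ok D) {X : List α} (hX : X ∈ XX D.Wo D.z)
    (hE : ∀ t, D.z ≤ t + D.N1 → t < D.z + D.N1 → t ≤ X.length → ¬ D.Wo (X.take t))
    (hB : ¬ D.Bad (X.length - D.p0)) (v : V) :
    ∃ P Q, X = P ++ Q ∧ D.p0 ≤ P.length ∧ D.LP1 P v ∧ D.Sem1 Q := by
  obtain ⟨hz, hw, hno⟩ := hX
  have hzz := h.hz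
  have hlen : D.z + D.N1 ≤ X.length := by
    by_contra hlt
    push Not at hlt
    refine hE X.length (by omega) (by omega) le_rfl ?_
    rw [List.take_length]
    exact hw
  have hd : (X.drop D.p0).length = X.length - D.p0 := List.length_drop
  obtain ⟨p, q, hpq, hp, hq⟩ := h.g1comp (X.drop D.p0) (by rw [hd]; omega) (by rw [hd]; exact hB)
    (D.act v (D.φ (X.take D.p0)) + D.nu2 (X.take D.p0))
  obtain ⟨r, hr⟩ := Option.isSome_iff_exists.1 hq
  have hX1 : (X.take D.p0).length = D.p0 := by rw [List.length_take]; omega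
  have hXe : X = (X.take D.p0 ++ p) ++ q := by
    rw [List.append_assoc, hpq, List.take_append_drop]
  have hpl := h.g1len _ _ hp
  have hpql : p.length + q.length = X.length - D.p0 := by
    rw [← hd, ← hpq, List.length_append]
  have hPl : (X.take D.p0 ++ p).length = D.p0 + p.length := by
    rw [List.length_append, hX1]
  refine ⟨X.take D.p0 ++ p, q, hXe, by omega, ⟨by omega, ?_⟩, ?_, r, ?_⟩
  · rw [List.drop_left' hX1, List.take_left' hX1]
    exact hp
  · intro hq0
    rw [hq0] at hpql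
    simp only [List.length_nil] at hpql
    omega
  · rintro P' v' ⟨a1, a2⟩
    have hp' := h.g1len _ _ a2
    rw [List.length_drop] at hp'
    have hwq : D.Wo q := by
      have := (h.loc (X.take D.p0 ++ p) q (by omega)).1 (by rw [← hXe]; exact hw)
      exact this
    refine ⟨⟨?_, (h.loc P' q (by omega)).2 hwq, ?_⟩, ?_⟩
    · rw [List.length_append]; omega
    · intro t ht1 ht2
      rw [List.length_append] at ht2
      obtain ⟨y, rfl⟩ := Nat.exists_eq_add_of_le (show P'.length ≤ t by omega)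
      rw [h.tr (P' := X.take D.p0 ++ p) (by omega) (by omega), ← hXe, hPl]
      by_cases hge : D.z ≤ D.p0 + p.length + y
      · exact hno _ hge (by omega)
      · exact hE _ (by omega) (by omega) (by omega)
    · unfold Data.T TT
      rw [List.take_append_of_le_length a1, List.drop_append_of_le_length a1]
      exact (h.g1sound _ _ _ _ a2 hr (by omega)).symm

/-- pair `(k, k')` spoiled by mode (E) on the text `Z` -/
def Data.Eb (D : Data α S V) (Z : List α) (k k' : ℕ) : Prop :=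
  ∃ t, t ≤ Z.length ∧ D.Wo (Z.take t) ∧ D.z + D.c k ≤ t + D.c k' + D.N1 ∧
    t + D.c k' < D.z + D.N1 + D.c k

/-- `t` is the block end for the candidate -/
def Data.Fst (D : Data α S V) (Z : List α) (k k' t : ℕ) : Prop :=
  t ≤ Z.length ∧ D.Wo (Z.take t) ∧ D.z + D.c k ≤ t + D.c k' ∧
    ∀ s, s < t → D.z + D.c k ≤ s + D.c k' → ¬ D.Wo (Z.take s)

/-- pair spoiled by mode (B) -/
def Data.Bb (D : Data α S V) (Z : List α) (k k' : ℕ) : Prop :=
  ∃ t, D.Fst Z k k' t ∧ D.Bad (t - D.p0 + D.c k' - D.c k)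

theorem exists_fst {Z : List α} {k k' t : ℕ} (h1 : t ≤ Z.length) (h2 : D.Wo (Z.take t))
    (h3 : D.z + D.c k ≤ t + D.c k') : ∃ t, D.Fst Z k k' t := by
  classical
  have hex : ∃ t, t ≤ Z.length ∧ D.Wo (Z.take t) ∧ D.z + D.c k ≤ t + D.c k' := ⟨t, h1, h2, h3⟩
  refine ⟨Nat.find hex, (Nat.find_spec hex).1, (Nat.find_spec hex).2.1, (Nat.find_spec hex).2.2,
    fun s hs hs2 hs3 => ?_⟩
  exact Nat.find_min hex hs ⟨by have := (Nat.find_spec hex).1; omega, hs3, hs2⟩

/-- a candidate which is neither (E)- nor (B)-bad is cut by scheme 1 for every token -/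
theorem Ok.cand (h : Ok D) {Z : List α} {k k' t : ℕ} (hk : k < D.K) (hk' : k' < D.K)
    (hf : D.Fst Z k k' t) (hE : ¬ D.Eb Z k k') (hB : ¬ D.Bb Z k k') {P : List α}
    (hP : P.length = D.c k') (v : V) :
    ∃ X ∈ XX D.Wo D.z, X <+: P ++ Z.drop (D.c k) ∧ ∃ P' Q', X = P' ++ Q' ∧
      P.length ≤ P'.length ∧ D.LP1 P' v ∧ D.Sem1 Q' := by
  have hzz := h.hz
  have hLp := h.hLp
  have hck := h.cLam k hk
  have hck' := h.cLam k' hk'
  have hf' := hf
  obtain ⟨f1, f2, f3, f4⟩ := hf
  have hB' : ¬ D.Bad (t - D.p0 + D.c k' - D.c k) := fun hb => hB ⟨t, hf', hb⟩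
  obtain ⟨y, rfl⟩ := Nat.exists_eq_add_of_le (show D.c k ≤ t by omega)
  set Q := Z.drop (D.c k) with hQ
  have hQl : Q.length = Z.length - D.c k := List.length_drop
  have hZe : Z.take (D.c k) ++ Q = Z := List.take_append_drop _ _
  have hZl : (Z.take (D.c k)).length = D.c k := by rw [List.length_take]; omega
  -- transfer of walls
  have tr : ∀ y', D.n ≤ y' → y' ≤ Q.length →
      (D.Wo ((P ++ Q).take (D.c k' + y')) ↔ D.Wo (Z.take (D.c k + y'))) := by
    intro y' h1 h2
    have := h.tr (P := P) (P' := Z.take (D.c k)) (Q := Q) h1 h2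
    rw [hP, hZl, hZe] at this
    exact this
  have hXl : ((P ++ Q).take (D.c k' + y)).length = D.c k' + y := by
    rw [List.length_take, List.length_append]; omega
  have htt : ∀ s, s ≤ D.c k' + y → ((P ++ Q).take (D.c k' + y)).take s = (P ++ Q).take s := by
    intro s hs
    rw [List.take_take, min_eq_left hs]
  have hX : (P ++ Q).take (D.c k' + y) ∈ XX D.Wo D.z := by
    refine ⟨by rw [hXl]; omega, (tr y (by omega) (by omega)).2 f2, ?_⟩
    intro s hs1 hs2
    rw [hXl] at hs2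
    rw [htt s (by omega)]
    obtain ⟨y', rfl⟩ := Nat.exists_eq_add_of_le (show D.c k' ≤ s by omega)
    rw [tr y' (by omega) (by omega)]
    exact f4 _ (by omega) (by omega)
  obtain ⟨P', Q', e, g1, g2, g3⟩ := h.cut1 hX (fun s hs1 hs2 hs3 => by
      rw [hXl] at hs3
      rw [htt s hs3]
      obtain ⟨y', rfl⟩ := Nat.exists_eq_add_of_le (show D.c k' ≤ s by omega)
      rw [tr y' (by omega) (by omega)]
      intro hw
      exact hE ⟨D.c k + y', by omega, hw, by omega, by omega⟩)
    (by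
      rw [hXl]
      have e : D.c k' + y - D.p0 = D.c k + y - D.p0 + D.c k' - D.c k := by omega
      rw [e]
      exact hB') v
  exact ⟨_, hX, List.take_prefix _ _, P', Q', e, by omega, g2, g3⟩

open Classical in
/-- at most `1 + 2 C₀` places are spoiled -/
theorem Ok.count (h : Ok D) (Z : List α) :
    ((range D.K).filter (fun k => ∃ k', k' < D.K ∧ k' ≠ k ∧ (D.Eb Z k k' ∨ D.Bb Z k k'))).card ≤
      1 + 2 * D.C0 := by
  have hzz := h.hz
  have hLp := h.hLp
  have hW := h.hW
  set A : Finset (ℕ × ℕ) := ((range D.K) ×ˢ (range D.K)).filter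
    (fun q => q.1 ≠ q.2 ∧ (D.Eb Z q.1 q.2 ∨ D.Bb Z q.1 q.2)) with hA
  have h1 : ((range D.K).filter (fun k => ∃ k', k' < D.K ∧ k' ≠ k ∧
      (D.Eb Z k k' ∨ D.Bb Z k k'))) ⊆ A.image Prod.fst := by
    intro k hk
    rw [mem_filter, mem_range] at hk
    obtain ⟨hk1, k', hk2, hk3, hk4⟩ := hk
    rw [mem_image]
    refine ⟨(k, k'), ?_, rfl⟩
    rw [hA, mem_filter, mem_product, mem_range, mem_range]
    exact ⟨⟨hk1, hk2⟩, fun e => hk3 e.symm, hk4⟩
  refine (card_le_card h1).trans (card_image_le.trans ?_)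
  -- the two possible block ends
  obtain ⟨t1, t2, ht1, ht2, ht⟩ : ∃ t1 t2 : ℕ, D.La + D.p0 ≤ t1 ∧ D.La + D.p0 ≤ t2 ∧
      ∀ k < D.K, ∀ k' < D.K, ∀ t, D.Fst Z k k' t → t = t1 ∨ t = t2 := by
    by_cases hex : ∃ t, t ≤ Z.length ∧ D.Wo (Z.take t) ∧ D.z ≤ t + D.Lam
    · have s1 := Nat.find_spec hex
      have m1 : ∀ t, t ≤ Z.length → D.Wo (Z.take t) → D.z ≤ t + D.Lam → Nat.find hex ≤ t :=
        fun t a b c => Nat.find_min' hex ⟨a, b, c⟩
      set u1 := Nat.find hex with hu1
      obtain ⟨a1, a2, a3⟩ := s1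
      by_cases hex2 : ∃ t, t ≤ Z.length ∧ D.Wo (Z.take t) ∧ u1 < t
      · have s2 := Nat.find_spec hex2
        have m2 : ∀ t, t ≤ Z.length → D.Wo (Z.take t) → u1 < t → Nat.find hex2 ≤ t :=
          fun t a b c => Nat.find_min' hex2 ⟨a, b, c⟩
        set u2 := Nat.find hex2 with hu2
        obtain ⟨b1, b2, b3⟩ := s2
        have hsep := h.sep b3 b1 a2 b2
        refine ⟨u1, u2, by omega, by omega, ?_⟩
        rintro k hk k' hk' t ⟨f1, f2, f3, f4⟩
        have hck := h.cLam k hk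
        have hck' := h.cLam k' hk'
        have l1 := m1 t f1 f2 (by omega)
        rcases Nat.lt_or_ge u1 t with hlt | hge
        · right
          have l2 := m2 t f1 f2 hlt
          rcases Nat.lt_or_ge u2 t with hlt2 | hge2
          · exact absurd b2 (f4 u2 hlt2 (by omega))
          · omega
        · left; omega
      · refine ⟨u1, u1, by omega, by omega, ?_⟩
        rintro k hk k' hk' t ⟨f1, f2, f3, f4⟩
        have hck := h.cLam k hk
        have hck' := h.cLam k' hk'
        have l1 := m1 t f1 f2 (by omega)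
        rcases Nat.lt_or_ge u1 t with hlt | hge
        · exact absurd ⟨t, f1, f2, hlt⟩ hex2
        · left; omega
    · refine ⟨D.La + D.p0, D.La + D.p0, le_rfl, le_rfl, ?_⟩
      rintro k hk k' hk' t ⟨f1, f2, f3, f4⟩
      have hck := h.cLam k hk
      have hck' := h.cLam k' hk'
      exact absurd ⟨t, f1, f2, by omega⟩ hex
  set AE : Finset (ℕ × ℕ) := ((range D.K) ×ˢ (range D.K)).filter
    (fun q => q.1 ≠ q.2 ∧ D.Eb Z q.1 q.2) with hAE
  set A1 : Finset (ℕ × ℕ) := ((range D.K) ×ˢ (range D.K)).filter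
    (fun q => q.1 ≠ q.2 ∧ D.Bad (t1 - D.p0 + D.c q.2 - D.c q.1)) with hA1
  set A2 : Finset (ℕ × ℕ) := ((range D.K) ×ˢ (range D.K)).filter
    (fun q => q.1 ≠ q.2 ∧ D.Bad (t2 - D.p0 + D.c q.2 - D.c q.1)) with hA2
  have hsub : A ⊆ AE ∪ (A1 ∪ A2) := by
    intro q hq
    rw [hA, mem_filter] at hq
    obtain ⟨q1, q2, q3⟩ := hq
    rw [mem_union, mem_union]
    rcases q3 with q3 | ⟨t, q3, q4⟩
    · left
      rw [hAE, mem_filter]
      exact ⟨q1, q2, q3⟩
    · right
      rw [mem_product, mem_range, mem_range] at q1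
      rcases ht _ q1.1 _ q1.2 t q3 with e | e
      · left
        rw [hA1, mem_filter, mem_product, mem_range, mem_range]
        exact ⟨q1, q2, e ▸ q4⟩
      · right
        rw [hA2, mem_filter, mem_product, mem_range, mem_range]
        exact ⟨q1, q2, e ▸ q4⟩
  have c1 : A1.card ≤ D.C0 := h.spoil (t1 - D.p0) (by omega)
  have c2 : A2.card ≤ D.C0 := h.spoil (t2 - D.p0) (by omega)
  have cE : AE.card ≤ 1 := by
    rw [card_le_one]
    rintro ⟨i, j⟩ hij ⟨k, l⟩ hkl
    rw [hAE, mem_filter, mem_product, mem_range, mem_range] at hij hkl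
    obtain ⟨⟨i1, i2⟩, i3, t, i4, i5, i6, i7⟩ := hij
    obtain ⟨⟨k1, k2⟩, k3, s, k4, k5, k6, k7⟩ := hkl
    simp only at i1 i2 i3 i6 i7 k1 k2 k3 k6 k7
    have e1 := h.cLam i i1
    have e2 := h.cLam j i2
    have e3 := h.cLam k k1
    have e4 := h.cLam l k2
    have hst : t = s := by
      rcases lt_trichotomy t s with hlt | heq | hgt
      · have := h.sep hlt k4 i5 k5
        omega
      · exact heq
      · have := h.sep hgt i4 k5 i5
        omega
    subst hst
    obtain ⟨g1, g2⟩ := h.golomb i i1 j i2 k k1 l k2 i3 k3 (by omega) (by omega)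
    rw [g1, g2]
  have := card_le_card hsub
  have u1 := card_union_le AE (A1 ∪ A2)
  have u2 := card_union_le A1 A2
  omega

/-- **cc** : every block followed by one more block is cut for every token -/
theorem Ok.cc (h : Ok D) {X X2 : List α} (hX : X ∈ XX D.Wo D.z) (hX2 : X2 ∈ XX D.Wo D.z) (v : V) :
    ∃ P Q, X ++ X2 = P ++ Q ∧ P.length < X.length ∧ D.LP2 P v ∧ D.Sem2 Q := by
  classical
  have hzz := h.hz
  have hLp := h.hLp
  obtain ⟨hz, hw, hno⟩ := hX
  have hz2 := hX2.1
  have hw2 := hX2.2.1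
  have hX1 : (X.take D.p0).length = D.p0 := by rw [List.length_take]; omega
  obtain ⟨I, hI, hI2⟩ := h.g2comp (X.take D.p0) hX1 v
  have hcount := h.count (X ++ X2)
  have hR := h.hR
  obtain ⟨k, hkI, hks⟩ : ∃ k ∈ I, k ∉ ((range D.K).filter (fun k => ∃ k', k' < D.K ∧ k' ≠ k ∧
      (D.Eb (X ++ X2) k k' ∨ D.Bb (X ++ X2) k k'))) := by
    by_contra hcon
    push Not at hcon
    have := card_le_card (fun k hk => hcon k hk :
      I ⊆ ((range D.K).filter (fun k => ∃ k', k' < D.K ∧ k' ≠ k ∧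
      (D.Eb (X ++ X2) k k' ∨ D.Bb (X ++ X2) k k'))))
    omega
  obtain ⟨hk, hl, hr⟩ := hI2 k hkI
  have hck := h.cLam k hk
  obtain ⟨r, hr⟩ := Option.isSome_iff_exists.1 hr
  have hun : ∀ k', k' < D.K → k' ≠ k → ¬ D.Eb (X ++ X2) k k' ∧ ¬ D.Bb (X ++ X2) k k' := by
    intro k' a b
    rw [mem_filter, mem_range] at hks
    push Not at hks
    have := hks hk k' a b
    exact ⟨this.1, this.2⟩
  have hdl : (X.drop (D.c k)).length = X.length - D.c k := List.length_drop
  have hQ1 : X.drop (D.c k) ≠ [] := by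
    intro e
    rw [e] at hdl
    simp only [List.length_nil] at hdl
    omega
  have hXe : X = X.take (D.c k) ++ X.drop (D.c k) := (List.take_append_drop _ _).symm
  have hPl : (X.take (D.c k)).length = D.c k := by rw [List.length_take]; omega
  refine ⟨X.take (D.c k), X.drop (D.c k) ++ X2, ?_, by omega, ⟨k, hk, hPl, ?_⟩, ?_,
    D.T (D.act r (D.φ (X.drop D.p0)) + D.nu1 (X.drop D.p0)) X2, ?_⟩
  · rw [← List.append_assoc, List.take_append_drop]
  · rw [List.take_take, min_eq_left (by omega)] at hl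
    exact hl
  · intro e
    exact hQ1 (List.append_eq_nil_iff.1 e).1
  · rintro P' v' ⟨k', hk', hP', hl'⟩
    have hck' := h.cLam k' hk'
    by_cases hkk : k' = k
    · subst hkk
      right
      refine ⟨X.drop (D.c k'), X2, rfl, hQ1, ?_, hX2, ?_⟩
      · -- `P' ++ X.drop (c k)` is a block
        have hwq : D.Wo (X.drop (D.c k')) :=
          (h.loc (X.take (D.c k')) _ (by omega)).1 (by rw [← hXe]; exact hw)
        refine ⟨by rw [List.length_append]; omega, (h.loc P' _ (by omega)).2 hwq, ?_⟩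
        intro t ht1 ht2
        rw [List.length_append] at ht2
        obtain ⟨y, rfl⟩ := Nat.exists_eq_add_of_le (show P'.length ≤ t by omega)
        rw [h.tr (P' := X.take (D.c k')) (by omega) (by omega), ← hXe, hPl]
        exact hno _ (by omega) (by omega)
      · congr 1
        -- the zone map
        have hlp : P'.length ≤ D.p0 := by omega
        have e1 : (P' ++ X.drop (D.c k')).take D.p0 =
            P' ++ (X.take D.p0).drop (D.c k') := by
          obtain ⟨y, hy⟩ := Nat.exists_eq_add_of_le hlp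
          rw [hy, take_add, List.drop_take]
          congr 2
          omega
        have e2 : (P' ++ X.drop (D.c k')).drop D.p0 = X.drop D.p0 := by
          obtain ⟨y, hy⟩ := Nat.exists_eq_add_of_le hlp
          rw [hy, List.drop_append, List.drop_eq_nil_of_le (by omega), List.nil_append,
            List.drop_drop]
          congr 1
          omega
        have hs := h.g2sound k' hk' P' ((X.take D.p0).drop (D.c k')) v' r hP'
          (by rw [List.length_drop, hX1]; omega) hl' hr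
        unfold Data.T TT
        rw [e1, e2, ← hs]
    · left
      obtain ⟨hE, hB⟩ := hun k' hk' hkk
      have hwZ : D.Wo (X ++ X2) := (h.loc X X2 (by omega)).2 hw2
      obtain ⟨t, hf⟩ := exists_fst (D := D) (Z := X ++ X2) (k := k) (k' := k')
        (t := (X ++ X2).length) le_rfl (by rw [List.take_length]; exact hwZ)
        (by rw [List.length_append]; omega)
      have := h.cand hk hk' hf hE hB hP' v'
      rw [List.drop_append_of_le_length (by omega)] at this
      exact this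

end Crest.Agent.R320.Asm_491
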