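import Crest.Agent.R320.Hgt1_903

/-! Run languages: words of a fixed period with a prescribed value in a finite monoid have height `≤ 1`. -/

set_option autoImplicit false

namespace Crest.Agent.R320.RunLang_872

open Crest.RegLang Crest.Agent.R320.Hgt1_903

variable {α : Type*} {M : Type*} [Monoid M]

/-- the word `x` repeated `k` times. -/
def pw (x : List α) (k : ℕ) : List α := (List.replicate k x).flatten

@[simp] theorem pw_zero (x : List α) : pw x 0 = [] := rfl

theorem pw_succ (x : List α) (k : ℕ) : pw x (k + 1) = x ++ pw x k := by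
  simp [pw, List.replicate_succ]

theorem pw_add (x : List α) (k l : ℕ) : pw x (k + l) = pw x k ++ pw x l := by
  induction k with
  | zero => rw [Nat.zero_add, pw_zero, List.nil_append]
  | succ k ih => rw [Nat.succ_add, pw_succ, pw_succ, ih, List.append_assoc]

theorem pw_mul (x : List α) (d i : ℕ) : pw x (d * i) = pw (pw x d) i := by
  induction i with
  | zero => simp
  | succ i ih => rw [Nat.mul_succ, Nat.add_comm, pw_add, pw_succ, ih]

theorem length_pw (x : List α) (k : ℕ) : (pw x k).length = k * x.length := by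
  induction k with
  | zero => simp
  | succ k ih => rw [pw_succ, List.length_append, ih]; ring

/-- The star of one word is the set of its powers. -/
theorem mem_star_word (x w : List α) :
    w ∈ (KStar.kstar ({x} : Language α) : Language α) ↔ ∃ i, w = pw x i := by
  rw [Language.mem_kstar]
  constructor
  · rintro ⟨L, rfl, hL⟩
    refine ⟨L.length, ?_⟩
    have : L = List.replicate L.length x := List.eq_replicate_length.2 fun y hy => hL y hy
    rw [pw, ← this]
  · rintro ⟨i, rfl⟩
    exact ⟨List.replicate i x, rfl, fun y hy => List.eq_of_mem_replicate hy⟩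

theorem H_pw_star (x : List α) : H 1 ({w | ∃ i, w = pw x i} : Language α) :=
  H.congr (H.star (H.word 0 x)) fun w => mem_star_word x w

/-- Powers of `x` with exponent in an eventually periodic set. -/
theorem H_pw_set (x : List α) (S : Set ℕ) (N d : ℕ) (hd : 0 < d)
    (hS : ∀ k, N ≤ k → (k ∈ S ↔ k + d ∈ S)) :
    H 1 ({w | ∃ k, k ∈ S ∧ w = pw x k} : Language α) := by
  classical
  have hS' : ∀ i k, N ≤ k → (k ∈ S ↔ k + d * i ∈ S) := by
    intro i
    induction i with
    | zero => intro k _; simp
    | succ i ih =>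
      intro k hk
      rw [ih k hk, hS (k + d * i) (by omega), Nat.mul_succ, Nat.add_assoc]
  have key : H 1 ({w | (∃ k ∈ (Finset.range N).filter (· ∈ S), w ∈ ({pw x k} : Language α)) ∨
      (∃ r ∈ (Finset.Ico N (N + d)).filter (· ∈ S),
        w ∈ ({w | ∃ u v, u ++ v = w ∧ u ∈ ({pw x r} : Language α) ∧
          v ∈ ({w | ∃ i, w = pw (pw x d) i} : Language α)} : Language α))} : Language α) := by
    refine H.union (H.exists_finset _ _ fun k _ => H.word 1 _)
      (H.exists_finset _ _ fun r _ => H.cat (H.word 1 _) (H_pw_star _))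
  refine H.congr key fun w => ?_
  constructor
  · rintro (⟨k, hk, hw⟩ | ⟨r, hr, u, v, rfl, hu, i, hv⟩)
    · exact ⟨k, (Finset.mem_filter.1 hk).2, Set.mem_singleton_iff.1 hw⟩
    · have hr' := Finset.mem_filter.1 hr
      have hr'' := Finset.mem_Ico.1 hr'.1
      refine ⟨r + d * i, (hS' i r hr''.1).1 hr'.2, ?_⟩
      rw [Set.mem_singleton_iff.1 hu, hv, ← pw_mul, ← pw_add]
  · rintro ⟨k, hk, rfl⟩
    by_cases hkN : k < N
    · left
      exact ⟨k, Finset.mem_filter.2 ⟨Finset.mem_range.2 hkN, hk⟩, rfl⟩
    · right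
      have hkN' : N ≤ k := not_lt.1 hkN
      obtain ⟨i, r, hr, hkr⟩ : ∃ i r, r < d ∧ k = N + r + d * i := by
        refine ⟨(k - N) / d, (k - N) % d, Nat.mod_lt _ hd, ?_⟩
        have := Nat.mod_add_div (k - N) d
        omega
      refine ⟨N + r, Finset.mem_filter.2 ⟨Finset.mem_Ico.2 ⟨by omega, by omega⟩, ?_⟩, pw x (N + r),
        pw x (d * i), ?_, rfl, i, pw_mul x d i⟩
      · rw [hkr] at hk
        exact (hS' i (N + r) (by omega)).2 hk
      · rw [← pw_add, hkr]

/-- In a finite monoid the powers of an element are eventually periodic. -/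
theorem pow_eventually (h : M) [Finite M] : ∃ N d : ℕ, 0 < d ∧ ∀ k, N ≤ k → h ^ k = h ^ (k + d) := by
  obtain ⟨a, b, hab, he⟩ := Finite.exists_ne_map_eq_of_infinite (fun k : ℕ => h ^ k)
  wlog hlt : a < b generalizing a b
  · exact this b a (Ne.symm hab) he.symm (lt_of_le_of_ne (not_lt.1 hlt) (Ne.symm hab))
  refine ⟨a, b - a, by omega, fun k hk => ?_⟩
  obtain ⟨c, rfl⟩ := Nat.exists_eq_add_of_le hk
  have he' : h ^ a = h ^ b := he
  have : a + c + (b - a) = b + c := by omega
  rw [this, pow_add, pow_add, he']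

/-- Powers of `x` whose exponent `k` satisfies a condition on `h ^ k` (finite monoid). -/
theorem H_pw_pow [Finite M] (x : List α) (h : M) (T : Set M) :
    H 1 ({w | ∃ k, h ^ k ∈ T ∧ w = pw x k} : Language α) := by
  obtain ⟨N, d, hd, hN⟩ := pow_eventually h
  exact H_pw_set x {k | h ^ k ∈ T} N d hd fun k hk => by
    change h ^ k ∈ T ↔ h ^ (k + d) ∈ T
    rw [hN k hk]

/-- A multiplicative map on words. -/
structure IsHom (φ : List α → M) : Prop where
  nil : φ [] = 1
  app : ∀ u v, φ (u ++ v) = φ u * φ v

theorem IsHom.pw {φ : List α → M} (hφ : IsHom φ) (x : List α) (k : ℕ) : φ (pw x k) = φ x ^ k := by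
  induction k with
  | zero => simp [hφ.nil]
  | succ k ih => rw [pw_succ, hφ.app, ih, pow_succ']

/-- `s ++ x ^ k ++ p` with a prescribed value. -/
theorem H_run [Finite M] {φ : List α → M} (hφ : IsHom φ) (s x p : List α) (T : Set M) :
    H 1 ({w | ∃ k, w = s ++ pw x k ++ p ∧ φ w ∈ T} : Language α) := by
  have key := H.factor (H.word 1 s) (H_pw_pow x (φ x) {m | φ s * m * φ p ∈ T}) (H.word 1 p)
  refine H.congr key fun w => ?_
  constructor
  · rintro ⟨u, v, t, rfl, hu, ⟨k, hk, rfl⟩, ht⟩
    refine ⟨k, ?_, ?_⟩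
    · rw [Set.mem_singleton_iff.1 hu, Set.mem_singleton_iff.1 ht]
    · rw [Set.mem_singleton_iff.1 hu, Set.mem_singleton_iff.1 ht, hφ.app, hφ.app, hφ.pw]
      exact hk
  · rintro ⟨k, rfl, hk⟩
    refine ⟨s, pw x k, p, rfl, rfl, ⟨k, ?_, rfl⟩, rfl⟩
    rw [hφ.app, hφ.app, hφ.pw] at hk
    exact hk

/-- Factors of the periodic word `x x x …` with a prescribed value. -/
theorem H_factor [Finite M] {φ : List α → M} (hφ : IsHom φ) (x : List α) (T : Set M) :
    H 1 ({w | ∃ s k p, s <:+ x ∧ p <+: x ∧ w = s ++ pw x k ++ p ∧ φ w ∈ T} : Language α) := by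
  classical
  have key := H.exists_finset (n := 1) (x.tails.toFinset ×ˢ x.inits.toFinset)
    (fun q => ({w | ∃ k, w = q.1 ++ pw x k ++ q.2 ∧ φ w ∈ T} : Language α))
    (fun q _ => H_run hφ q.1 x q.2 T)
  refine H.congr key fun w => ?_
  constructor
  · rintro ⟨⟨s, p⟩, hq, k, hk, hT⟩
    rw [Finset.mem_product, List.mem_toFinset, List.mem_toFinset, List.mem_tails,
      List.mem_inits] at hq
    exact ⟨s, k, p, hq.1, hq.2, hk, hT⟩
  · rintro ⟨s, k, p, hs, hp, hw, hT⟩
    refine ⟨(s, p), ?_, k, hw, hT⟩
    rw [Finset.mem_product, List.mem_toFinset, List.mem_toFinset, List.mem_tails, List.mem_inits]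
    exact ⟨hs, hp⟩

/-- `w` has period `q`. -/
def HasPer (q : ℕ) (w : List α) : Prop := ∀ i, i + q < w.length → w[i + q]? = w[i]?

theorem getElem_pw (x : List α) (k r : ℕ) (hr : r ≤ x.length) (i : ℕ)
    (hi : i < k * x.length + r) : (pw x k ++ x.take r)[i]? = x[i % x.length]? := by
  have hx : 0 < x.length := by
    rcases Nat.eq_zero_or_pos x.length with h | h
    · rw [h] at hi hr; omega
    · exact h
  induction k generalizing i with
  | zero =>
    have hi' : i < r := by simpa using hi
    rw [pw_zero, List.nil_append, List.getElem?_take_of_lt hi',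
      Nat.mod_eq_of_lt (lt_of_lt_of_le hi' hr)]
  | succ k ih =>
    rw [pw_succ, List.append_assoc]
    by_cases h : i < x.length
    · rw [List.getElem?_append_left h, Nat.mod_eq_of_lt h]
    · have h' := not_lt.1 h
      rw [List.getElem?_append_right h', ih (i - x.length) (by
        have : (k + 1) * x.length = k * x.length + x.length := by ring
        omega)]
      conv_rhs => rw [← Nat.sub_add_cancel h', Nat.add_mod_right]

theorem hasPer_pw (x : List α) (k r : ℕ) (hr : r ≤ x.length) :
    HasPer x.length (pw x k ++ x.take r) := by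
  intro i hi
  rw [List.length_append, length_pw, List.length_take, Nat.min_eq_left hr] at hi
  rw [getElem_pw x k r hr _ hi, getElem_pw x k r hr i (by omega), Nat.add_mod_right]

theorem hasPer_iff {q : ℕ} (hq : 0 < q) (w : List α) (hw : q ≤ w.length) (hp : HasPer q w) :
    ∃ k r, r ≤ q ∧ w = pw (w.take q) k ++ (w.take q).take r := by
  set x := w.take q with hx
  have hxl : x.length = q := by rw [hx, List.length_take]; omega
  have hmod : ∀ i, i < w.length → w[i]? = x[i % q]? := by
    intro i
    induction i using Nat.strong_induction_on with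
    | _ i ih =>
      intro hi
      by_cases h : i < q
      · rw [Nat.mod_eq_of_lt h, hx, List.getElem?_take_of_lt h]
      · have h' := not_lt.1 h
        have := hp (i - q) (by omega)
        rw [Nat.sub_add_cancel h'] at this
        rw [this, ih (i - q) (by omega) (by omega)]
        conv_rhs => rw [← Nat.sub_add_cancel h', Nat.add_mod_right]
  refine ⟨w.length / q, w.length % q, (Nat.mod_lt _ hq).le, ?_⟩
  have hlen : w.length / q * x.length + w.length % q = w.length := by
    rw [hxl]; exact Nat.div_add_mod' _ _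
  have hr : w.length % q ≤ x.length := by rw [hxl]; exact (Nat.mod_lt _ hq).le
  apply List.ext_getElem?
  intro i
  by_cases hi : i < w.length
  · rw [hmod i hi, getElem_pw x _ _ hr i (by rw [hlen]; exact hi), hxl]
  · have hi' := not_lt.1 hi
    have hl2 : (pw x (w.length / q) ++ x.take (w.length % q)).length = w.length := by
      have h3 : (x.take (w.length % q)).length = w.length % q := List.length_take_of_le hr
      rw [List.length_append, length_pw, h3, hlen]
    rw [List.getElem?_eq_none hi', List.getElem?_eq_none (by rw [hl2]; exact hi')]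

/-- Words of period `q` with a prescribed value have height `≤ 1`. -/
theorem H_hasPer [Finite α] [Finite M] {φ : List α → M} (hφ : IsHom φ) (q : ℕ) (hq : 0 < q)
    (T : Set M) : H 1 ({w | HasPer q w ∧ φ w ∈ T} : Language α) := by
  classical
  have hfin : Set.Finite {x : List α | x.length = q} :=
    (List.finite_length_le α q).subset fun x hx => le_of_eq hx
  have key : H 1 ({w | w ∈ ({w | w.length < q ∧ HasPer q w ∧ φ w ∈ T} : Language α) ∨
      w ∈ ({w | ∃ z ∈ hfin.toFinset ×ˢ Finset.range (q + 1),
        w ∈ ({w | ∃ k, w = [] ++ pw z.1 k ++ z.1.take z.2 ∧ φ w ∈ T} : Language α)} :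
          Language α)} : Language α) := by
    refine H.union (H.bounded 1 q fun w hw => hw.1.le)
      (H.exists_finset _ _ fun z _ => H_run hφ [] z.1 (z.1.take z.2) T)
  refine H.congr key fun w => ?_
  constructor
  · rintro (⟨-, h⟩ | ⟨⟨x, r⟩, hz, k, hk, hT⟩)
    · exact h
    · rw [Finset.mem_product, Set.Finite.mem_toFinset, Finset.mem_range] at hz
      have hxl : x.length = q := hz.1
      have hr : r < q + 1 := hz.2
      refine ⟨?_, hT⟩
      rw [hk, List.nil_append, ← hxl]
      exact hasPer_pw x k r (by omega)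
  · rintro ⟨hp, hT⟩
    by_cases hw : w.length < q
    · exact Or.inl ⟨hw, hp, hT⟩
    · right
      obtain ⟨k, r, hr, he⟩ := hasPer_iff hq w (not_lt.1 hw) hp
      refine ⟨(w.take q, r), ?_, k, ?_, hT⟩
      · rw [Finset.mem_product, Set.Finite.mem_toFinset, Finset.mem_range]
        refine ⟨?_, Nat.lt_succ_of_le hr⟩
        change (w.take q).length = q
        rw [List.length_take]; omega
      · rw [List.nil_append]; exact he

/-- The length modulo `e`, as a multiplicative map: for prescribing `φ w` and `|w|` mod `e`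
at the same time use `IsHom.prod hφ (isHom_len e)`. -/
theorem isHom_len (e : ℕ) : IsHom (fun w : List α => Multiplicative.ofAdd (w.length : ZMod e)) where
  nil := by simp
  app u v := by simp [ofAdd_add]

theorem IsHom.prod {M' : Type*} [Monoid M'] {φ : List α → M} {ψ : List α → M'}
    (hφ : IsHom φ) (hψ : IsHom ψ) : IsHom (fun w => (φ w, ψ w)) where
  nil := by simp [hφ.nil, hψ.nil]
  app u v := by simp [hφ.app, hψ.app]

/-- Words of period `q` with a prescribed value and a prescribed length modulo `e`. -/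
theorem H_hasPer_mod [Finite α] [Finite M] {φ : List α → M} (hφ : IsHom φ) (q : ℕ) (hq : 0 < q)
    (e : ℕ) (he : 0 < e) (P : M → ZMod e → Prop) :
    H 1 ({w | HasPer q w ∧ P (φ w) (w.length : ZMod e)} : Language α) := by
  have : NeZero e := ⟨he.ne'⟩
  have : Finite (Multiplicative (ZMod e)) := inferInstanceAs (Finite (ZMod e))
  exact H.congr (H_hasPer (hφ.prod (isHom_len e)) q hq
    {m : M × Multiplicative (ZMod e) | P m.1 (Multiplicative.toAdd m.2)}) fun w => Iff.rfl

/-- Words having some period `q ≤ b`, with a value depending on the period. -/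
theorem H_somePer [Finite α] [Finite M] {φ : List α → M} (hφ : IsHom φ) (b : ℕ)
    (T : ℕ → Set M) :
    H 1 ({w | ∃ q, 0 < q ∧ q ≤ b ∧ HasPer q w ∧ φ w ∈ T q} : Language α) := by
  have key := H.exists_finset (n := 1) (Finset.Icc 1 b)
    (fun q => ({w | HasPer q w ∧ φ w ∈ T q} : Language α))
    (fun q hq => H_hasPer hφ q (by have := (Finset.mem_Icc.1 hq).1; omega) (T q))
  refine H.congr key fun w => ?_
  constructor
  · rintro ⟨q, hq, hp, hT⟩
    have := Finset.mem_Icc.1 hq
    exact ⟨q, by omega, this.2, hp, hT⟩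
  · rintro ⟨q, hq, hb, hp, hT⟩
    exact ⟨q, Finset.mem_Icc.2 ⟨by omega, hb⟩, hp, hT⟩

end Crest.Agent.R320.RunLang_872
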