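import Crest.Agent.R320.Cl_835
import Crest.Agent.R320.RunLang_872
import Crest.Agent.R320.MarkAll_813

/-!
Row 320, P4 for the gadget without small walls.  Left-looking walls on ALL words (813), natural
block code `XX` (first wall at a place `≥ z`).  Blocks and words without block prefix are
`(bounded word) ++ u ++ x^k ++ v`, so `Cl 1` holds for them, and every "finite information" label of
a block has fibres in `H 1`.
-/

set_option autoImplicit false

namespace Crest.Agent.R320.Fib_835

open Crest.RegLang Crest.Agent.R320.Hgt1_903 Crest.Agent.R320.Top_835 Crest.Agent.R320.Cl_835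
open Crest.Agent.R320.RunLang_872

universe u v

variable {α : Type u}

/-! ### Recognizable sets from machines in any universe -/

theorem foldl_equiv {σ : Type v} {n : ℕ} (e : σ ≃ Fin n) (step : σ → α → σ) (w : List α) :
    ∀ q, w.foldl (fun (x : Fin n) a => e (step (e.symm x) a)) (e q) = e (w.foldl step q) := by
  induction w with
  | nil => intro q; rfl
  | cons a w ih =>
    intro q
    rw [List.foldl_cons, List.foldl_cons, Equiv.symm_apply_apply]
    exact ih _

theorem rec_of_run {σ : Type v} [Finite σ] (step : σ → α → σ) (q : σ) (A : Set σ) :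
    Rec {w : List α | w.foldl step q ∈ A} := by
  obtain ⟨n, ⟨e⟩⟩ := Finite.exists_equiv_fin σ
  refine (Rec.of_run (fun (x : Fin n) a => e (step (e.symm x) a)) (e q)
    {x | e.symm x ∈ A}).congr fun w => ?_
  change e.symm (w.foldl (fun (x : Fin n) a => e (step (e.symm x) a)) (e q)) ∈ A ↔
    w.foldl step q ∈ A
  rw [foldl_equiv, Equiv.symm_apply_apply]

/-! ### Finite information: first `c` letters and a finite monoid value of the rest -/

/-- one letter -/
def fstep {S : Type} [Monoid S] (φ : α → S) (c : ℕ) :
    {l : List α // l.length ≤ c} × S → α → {l : List α // l.length ≤ c} × S :=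
  fun q a => if h : q.1.1.length < c then
    (⟨q.1.1 ++ [a], by rw [List.length_append, List.length_singleton]; omega⟩, q.2)
    else (q.1, q.2 * φ a)

theorem fstep_foldl {S : Type} [Monoid S] (φ : α → S) (c : ℕ) (w : List α) :
    ∀ q : {l : List α // l.length ≤ c} × S,
      ((w.foldl (fstep φ c) q).1.1 = q.1.1 ++ w.take (c - q.1.1.length)) ∧
      (w.foldl (fstep φ c) q).2 = q.2 * ((w.drop (c - q.1.1.length)).map φ).prod := by
  induction w with
  | nil => intro q; simp
  | cons a w ih =>
    intro q
    rw [List.foldl_cons]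
    obtain ⟨h1, h2⟩ := ih (fstep φ c q a)
    rw [h1, h2]
    by_cases h : q.1.1.length < c
    · have e1 : fstep φ c q a = (⟨q.1.1 ++ [a], by
          rw [List.length_append, List.length_singleton]; omega⟩, q.2) := dif_pos h
      rw [e1]
      obtain ⟨d, hd⟩ : ∃ d, c - q.1.1.length = d + 1 := ⟨c - q.1.1.length - 1, by omega⟩
      have hd' : c - (q.1.1 ++ [a]).length = d := by
        rw [List.length_append, List.length_singleton]; omega
      simp only [hd, hd', List.take_succ_cons, List.drop_succ_cons, List.append_assoc,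
        List.singleton_append]
      exact ⟨trivial, trivial⟩
    · have e1 : fstep φ c q a = (q.1, q.2 * φ a) := dif_neg h
      rw [e1]
      have hd : c - q.1.1.length = 0 := by omega
      simp only [hd, List.take_zero, List.drop_zero, List.map_cons, List.prod_cons, mul_assoc]
      exact ⟨trivial, trivial⟩

theorem rec_fin [Finite α] {S : Type} [Monoid S] [Finite S] (φ : α → S) (c : ℕ)
    (P : List α → S → Prop) :
    Rec {w : List α | P (w.take c) ((w.drop c).map φ).prod} := by
  have hf : Finite {l : List α // l.length ≤ c} := (List.finite_length_le α c).to_subtype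
  refine (rec_of_run (fstep φ c) (⟨[], Nat.zero_le _⟩, 1)
    {q | P q.1.1 q.2}).congr fun w => ?_
  change P (w.foldl (fstep φ c) (⟨[], Nat.zero_le _⟩, 1)).1.1
    (w.foldl (fstep φ c) (⟨[], Nat.zero_le _⟩, 1)).2 ↔ _
  obtain ⟨h1, h2⟩ := fstep_foldl φ c w (⟨[], Nat.zero_le _⟩, 1)
  rw [h1, h2]
  simp

/-- **Finite information is readable** in a class. -/
theorem _root_.Crest.Agent.R320.Cl_835.Cl.fin [Finite α] {j : ℕ} {W : Set (List α)} (hW : Cl j W)
    {S : Type} [Monoid S] [Finite S] (φ : α → S) (c : ℕ) (P : List α → S → Prop) :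
    H j ({w | w ∈ W ∧ P (w.take c) ((w.drop c).map φ).prod} : Language α) :=
  hW.rec (rec_fin φ c P)

theorem prod_len (m : ℕ) (w : List α) :
    (w.map fun _ => (Multiplicative.ofAdd (1 : ZMod m))).prod
      = Multiplicative.ofAdd (w.length : ZMod m) := by
  induction w with
  | nil => simp
  | cons a w ih =>
    rw [List.map_cons, List.prod_cons, ih, ← ofAdd_add, List.length_cons]
    congr 1
    push_cast
    ring

/-- finite information with the length modulo `m` -/
theorem _root_.Crest.Agent.R320.Cl_835.Cl.fin_mod [Finite α] {j : ℕ} {W : Set (List α)}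
    (hW : Cl j W) {S : Type} [Monoid S] [Finite S] (φ : α → S) (c m : ℕ) (hm : 0 < m)
    (P : List α → S → ℕ → Prop) :
    H j ({w | w ∈ W ∧ P (w.take c) ((w.drop c).map φ).prod (w.length % m)} : Language α) := by
  have : NeZero m := ⟨hm.ne'⟩
  have hfz : Finite (Multiplicative (ZMod m)) := inferInstanceAs (Finite (ZMod m))
  refine H.congr (hW.fin (fun a => (φ a, (Multiplicative.ofAdd (1 : ZMod m)))) c
    (fun l s => P l s.1 ((l.length + (Multiplicative.toAdd s.2).val) % m))) fun w => ?_
  change (w ∈ W ∧ _) ↔ (w ∈ W ∧ _)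
  refine and_congr_right fun _ => ?_
  rw [prod_map_prod, prod_len]
  simp only [toAdd_ofAdd, ZMod.val_natCast]
  have : ((w.take c).length + (w.drop c).length % m) % m = w.length % m := by
    rw [Nat.add_mod_mod, List.length_take, List.length_drop]
    congr 1
    omega
  rw [this]

/-! ### One long power -/

/-- `u ++ x^k ++ v` with bounded `u`, `x`, `v` -/
def Pow (B W : ℕ) : Set (List α) :=
  {w | ∃ u x v k, u.length ≤ B ∧ x.length ≤ W ∧ v.length ≤ B ∧ w = u ++ pw x k ++ v}

theorem isHom_prod {S : Type*} [Monoid S] (φ : α → S) :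
    IsHom (fun w : List α => (w.map φ).prod) where
  nil := rfl
  app u v := by
    rw [List.map_append, List.prod_append]

theorem cl_pow [Finite α] (B W : ℕ) : Cl 1 (Pow B W : Set (List α)) := by
  intro S _ _ φ s
  have hB : Finite {l : List α // l.length ≤ B} := (List.finite_length_le α B).to_subtype
  have hW : Finite {l : List α // l.length ≤ W} := (List.finite_length_le α W).to_subtype
  refine H.congr (H.exists_fintype (fun i : {l : List α // l.length ≤ B} ×
    {l : List α // l.length ≤ W} × {l : List α // l.length ≤ B} =>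
      ({w | ∃ k, w = i.1.1 ++ pw i.2.1.1 k ++ i.2.2.1 ∧ (w.map φ).prod ∈ ({s} : Set S)} :
        Language α)) fun i => H_run (isHom_prod φ) _ _ _ _) fun w => ?_
  constructor
  · rintro ⟨⟨u, x, v⟩, k, hw, hs⟩
    exact ⟨⟨u.1, x.1, v.1, k, u.2, x.2, v.2, hw⟩, hs⟩
  · rintro ⟨⟨u, x, v, k, hu, hx, hv, hw⟩, hs⟩
    exact ⟨⟨⟨u, hu⟩, ⟨x, hx⟩, ⟨v, hv⟩⟩, k, hw, hs⟩

/-! ### Walls of all words, left-looking, and the natural block code -/

/-- A left-looking wall rule of all words: `Wo U` = there is a wall at the end of `U`. -/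
structure Walls (Wo : List α → Prop) (n B W : ℕ) : Prop where
  loc : ∀ P Q : List α, n ≤ Q.length → (Wo (P ++ Q) ↔ Wo Q)
  len : ∀ Q, Wo Q → n ≤ Q.length
  gap : ∀ (X : List α) (s t : ℕ), s < t → t ≤ s + W → t ≤ X.length → Wo (X.take s) →
    ¬ Wo (X.take t)
  free : ∀ X : List α, (∀ t, t < X.length → ¬ Wo (X.take t)) → X ∈ Pow B W

theorem exists_walls (α : Type u) [Finite α] (W : ℕ) (hW : 0 < W) :
    ∃ (Wo : List α → Prop) (n B : ℕ), 0 < n ∧ Walls Wo n B W := by
  obtain ⟨n, B, R, h1, h2, h3, -, h5⟩ :=
    Crest.Agent.R320.MarkAll_813.exists_marks' α W hW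
  refine ⟨fun U => R U.reverse, max n 1, B, by omega, ?_, ?_, ?_, ?_⟩
  · intro P Q hQ
    have hQ' : n ≤ Q.reverse.length := by rw [List.length_reverse]; omega
    rw [List.reverse_append, h1, h1 Q.reverse, List.take_append_of_le_length hQ']
  · intro Q hQ
    have h6 := h2 _ hQ
    rw [List.length_reverse] at h6
    have h7 : Q ≠ [] := by
      rintro rfl
      exact h3 [] 1 hQ one_pos hW (by simpa using hQ)
    have := List.length_pos_iff.2 h7
    omega
  · intro X s t hst hts htX hs ht
    have e : (X.take s).reverse = (X.take t).reverse.drop (t - s) := by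
      have e1 : X.take s = (X.take t).take s := by rw [List.take_take, min_eq_left hst.le]
      rw [e1, List.reverse_take]
      rw [List.length_take, min_eq_left htX]
    have := h3 (X.take t).reverse (t - s) ht (by omega) (by omega)
    rw [← e] at this
    exact this hs
  · intro X hX
    obtain ⟨u, x, v, k, hu, hx, hv, hQ⟩ := h5 X.reverse (fun i hi => by
      by_cases hi' : i ≤ X.length
      · have := hX (X.length - i) (by omega)
        rw [List.reverse_take] at this
        rw [show X.length - (X.length - i) = i by omega] at this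
        exact this
      · intro hR
        have hd : X.reverse.drop i = [] := by
          apply List.drop_of_length_le
          rw [List.length_reverse]; omega
        rw [hd] at hR
        exact h3 [] 1 hR one_pos hW (by simpa using hR))
    refine ⟨v.reverse, x.reverse, u.reverse, k, by simpa using hv, by simpa using hx,
      by simpa using hu, ?_⟩
    have key : ((List.replicate k x).flatten).reverse = pw x.reverse k := by
      rw [pw, List.reverse_flatten, List.map_replicate, List.reverse_replicate]
    have := congrArg List.reverse hQ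
    rw [List.reverse_reverse] at this
    rw [this, List.reverse_append, List.reverse_append, key, List.append_assoc]

/-- natural blocks: the first wall at a place `≥ z` -/
def XX (Wo : List α → Prop) (z : ℕ) : Set (List α) :=
  {X | z ≤ X.length ∧ Wo X ∧ ∀ t, z ≤ t → t < X.length → ¬ Wo (X.take t)}

/-- words without block prefix -/
def NX (Wo : List α → Prop) (z : ℕ) : Set (List α) :=
  {X | ∀ t, z ≤ t → t ≤ X.length → ¬ Wo (X.take t)}

theorem mem_NX {Wo : List α → Prop} {z : ℕ} (r : List α) :
    r ∈ NX Wo z ↔ ∀ X ∈ XX Wo z, ¬ X <+: r := by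
  constructor
  · rintro h X ⟨h1, h2, -⟩ ⟨s, rfl⟩
    exact h X.length h1 (by simp) (by rwa [List.take_left])
  · intro h t hz ht hw
    classical
    have hex : ∃ t, z ≤ t ∧ t ≤ r.length ∧ Wo (r.take t) := ⟨t, hz, ht, hw⟩
    obtain ⟨g1, g2, g3⟩ := Nat.find_spec hex
    refine h (r.take (Nat.find hex)) ⟨?_, g3, ?_⟩ (List.take_prefix _ _)
    · rw [List.length_take, min_eq_left g2]; exact g1
    · intro t' h1 h2 h3
      rw [List.length_take, min_eq_left g2] at h2
      rw [List.take_take, min_eq_left h2.le] at h3
      exact Nat.find_min hex h2 ⟨h1, h2.le.trans g2, h3⟩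

theorem prefix_code {Wo : List α → Prop} {z : ℕ} {X Y : List α} (hX : X ∈ XX Wo z)
    (h : X ++ Y ∈ XX Wo z) : Y = [] := by
  by_contra hY
  have := h.2.2 X.length hX.1 (by
    rw [List.length_append]; have := List.length_pos_iff.2 hY; omega)
  rw [List.take_left] at this
  exact this hX.2.1

theorem cover {Wo : List α → Prop} {n B W z : ℕ} (h : Walls Wo n B W) (hn : 0 < n)
    {X : List α} (hX : ∀ t, z ≤ t → t < X.length → ¬ Wo (X.take t)) :
    ∃ u v, u ++ v = X ∧ u ∈ {u : List α | u.length ≤ z} ∧ v ∈ Pow B W := by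
  classical
  set g := Nat.findGreatest (fun t => Wo (X.take t)) z with hg
  refine ⟨X.take g, X.drop g, List.take_append_drop _ _, ?_, ?_⟩
  · change (X.take g).length ≤ z
    rw [List.length_take]
    exact (min_le_left _ _).trans (Nat.findGreatest_le z)
  · apply h.free
    intro t ht hw
    rw [List.length_drop] at ht
    have hl := h.len _ hw
    rw [List.length_take, List.length_drop] at hl
    have ht0 : 0 < t := by omega
    have e : X.take (g + t) = X.take g ++ (X.drop g).take t := List.take_add
    have hw' : Wo (X.take (g + t)) := by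
      rw [e]
      exact (h.loc _ _ (by rw [List.length_take, List.length_drop]; omega)).2 hw
    rcases lt_or_ge (g + t) z with h1 | h1
    · exact Nat.findGreatest_is_greatest (show g < g + t by omega) h1.le hw'
    · exact hX (g + t) h1 (by omega) hw'

/-- the language of the words `u` with `z ≤ |u|` and a wall at the end -/
theorem H_wall [Finite α] {Wo : List α → Prop} {n B W : ℕ} (h : Walls Wo n B W) (j z : ℕ) :
    H j ({w | z ≤ w.length ∧ Wo w} : Language α) := by
  refine H.congr (H.inter (H.not (H.bounded (α := α) j z (L := {w | w.length < z})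
    fun w hw => (show w.length < z from hw).le)) (H.suffixWindow j n Wo)) fun w => ?_
  change (¬ (w.length < z) ∧ Wo (w.drop (w.length - n))) ↔ (z ≤ w.length ∧ Wo w)
  rw [not_lt]
  refine and_congr_right fun _ => ?_
  constructor
  · intro hw
    have hl := h.len _ hw
    have := (h.loc (w.take (w.length - n)) (w.drop (w.length - n)) hl).2 hw
    rwa [List.take_append_drop] at this
  · intro hw
    have hl := h.len _ hw
    have h1 := (h.loc (w.take (w.length - n)) (w.drop (w.length - n))
      (by rw [List.length_drop]; omega)).1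
    rw [List.take_append_drop] at h1
    exact h1 hw

theorem H_NX [Finite α] {Wo : List α → Prop} {n B W : ℕ} (h : Walls Wo n B W) (j z : ℕ) :
    H j (NX Wo z : Language α) := by
  refine H.congr (H.not (H.cat (H_wall h j z) (H.univ j))) fun w => ?_
  change (¬ ∃ u v, u ++ v = w ∧ (z ≤ u.length ∧ Wo u) ∧ v ∈ (⊤ : Language α)) ↔ _
  constructor
  · intro hno t h1 h2 h3
    exact hno ⟨w.take t, w.drop t, List.take_append_drop _ _,
      ⟨by rw [List.length_take, min_eq_left h2]; exact h1, h3⟩, trivial⟩
  · rintro hN ⟨u, v, rfl, ⟨h1, h2⟩, -⟩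
    exact hN u.length h1 (by simp) (by rwa [List.take_left])

theorem H_XX [Finite α] {Wo : List α → Prop} {n B W : ℕ} (h : Walls Wo n B W) (j z : ℕ) :
    H j (XX Wo z : Language α) := by
  refine H.congr (H.inter (H_wall h j z) (H.not (H.cat (H_wall h j z)
    (H.not (H.bounded (α := α) j 0 (L := {w | w.length = 0}) fun w hw => hw.le)))))
    fun w => ?_
  change ((z ≤ w.length ∧ Wo w) ∧ ¬ ∃ u v, u ++ v = w ∧ (z ≤ u.length ∧ Wo u) ∧
    ¬ (v.length = 0)) ↔ _
  constructor
  · rintro ⟨⟨h1, h2⟩, h3⟩
    refine ⟨h1, h2, fun t g1 g2 g3 => h3 ⟨w.take t, w.drop t, List.take_append_drop _ _,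
      ⟨by rw [List.length_take, min_eq_left g2.le]; exact g1, g3⟩, ?_⟩⟩
    rw [List.length_drop]; omega
  · rintro ⟨h1, h2, h3⟩
    refine ⟨⟨h1, h2⟩, ?_⟩
    rintro ⟨u, v, rfl, ⟨g1, g2⟩, g3⟩
    exact h3 u.length g1 (by rw [List.length_append]; omega) (by rwa [List.take_left])

/-- **blocks**: `Cl 1`. -/
theorem cl_XX [Finite α] {Wo : List α → Prop} {n B W : ℕ} (h : Walls Wo n B W) (hn : 0 < n)
    (z : ℕ) : Cl 1 (XX Wo z) :=
  Cl.of_cover (H_XX h 1 z) (Cl.mul (Cl.bounded 1 z (W := {u : List α | u.length ≤ z})
    fun _ hw => hw) (cl_pow B W)) fun _ hw => cover h hn hw.2.2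

/-- **words without block prefix**: `Cl 1`. -/
theorem cl_NX [Finite α] {Wo : List α → Prop} {n B W : ℕ} (h : Walls Wo n B W) (hn : 0 < n)
    (z : ℕ) : Cl 1 (NX Wo z) :=
  Cl.of_cover (H_NX h 1 z) (Cl.mul (Cl.bounded 1 z (W := {u : List α | u.length ≤ z})
    fun _ hw => hw) (cl_pow B W)) fun _ hw => cover h hn fun t h1 h2 => hw t h1 h2.le

end Crest.Agent.R320.Fib_835
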