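import Crest.Agent.R320.Reg_236
import Mathlib.Computability.MyhillNerode

/-!
# Row 320: HL 1 of the block languages for the natural chain rule (helper854)

Left-looking wall rule `Wo` with window `n` on all words, blocks = words which end at their first
wall at a place `>= z`.  Every function of a word that is determined by a bounded prefix, the length
modulo `M` and a finite monoid product has fibres of height at most one on the block code.
-/

set_option autoImplicit false

namespace Crest.Agent.R320.Fib_854

open Crest.RegLang Crest.Agent.R320.Hk_851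

universe u

variable {α : Type u}

theorem reg_of_cong {F : Type*} [Finite F] (L : Language α) (τ : List α → F)
    (hstep : ∀ u u' a, τ u = τ u' → τ (u ++ [a]) = τ (u' ++ [a]))
    (hL : ∀ u u', τ u = τ u' → u ∈ L → u' ∈ L) : L.IsRegular := by
  classical
  have happ : ∀ (v u u' : List α), τ u = τ u' → τ (u ++ v) = τ (u' ++ v) := by
    intro v
    induction v with
    | nil => intro u u' h; simpa using h
    | cons a v ih =>
      intro u u' h
      have := ih (u ++ [a]) (u' ++ [a]) (hstep u u' a h)
      simpa using this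
  have key : ∀ u u', τ u = τ u' → L.leftQuotient u = L.leftQuotient u' := by
    intro u u' h
    ext v
    simp only [Language.mem_leftQuotient]
    exact ⟨hL _ _ (happ v u u' h), hL _ _ (happ v u' u h.symm)⟩
  refine Language.IsRegular.of_finite_range_leftQuotient ?_
  let G : F → Language α := fun x => if h : ∃ u, τ u = x then L.leftQuotient h.choose else 0
  refine (Set.finite_range G).subset ?_
  rintro _ ⟨u, rfl⟩
  refine ⟨τ u, ?_⟩
  have h : ∃ u', τ u' = τ u := ⟨u, rfl⟩
  simp only [G, dif_pos h]
  exact key _ _ h.choose_spec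

/-- last `n` letters -/
def lastn (n : ℕ) (X : List α) : List α := X.drop (X.length - n)

theorem lastn_len (n : ℕ) (X : List α) : (lastn n X).length ≤ n := by
  unfold lastn; simp only [List.length_drop]; omega

theorem lastn_step (n : ℕ) (X : List α) (a : α) :
    lastn n (X ++ [a]) = lastn n (lastn n X ++ [a]) := by
  unfold lastn
  simp only [List.length_append, List.length_singleton, List.length_drop]
  rcases Nat.lt_or_ge X.length n with h | h
  · have e1 : X.length - n = 0 := by omega
    simp [e1]
  · rcases n with _ | n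
    · simp only [Nat.sub_zero, List.drop_length, List.nil_append]
      rw [List.drop_eq_nil_of_le (by simp), List.drop_eq_nil_of_le (by simp)]
    · have e1 : X.length + 1 - (n + 1) = (X.length - (n + 1)) + 1 := by omega
      have e2 : X.length - (X.length - (n + 1)) + 1 - (n + 1) = 1 := by omega
      rw [e1, e2, List.drop_append_of_le_length (by omega),
        List.drop_append_of_le_length (by rw [List.length_drop]; omega), List.drop_drop]

theorem lastn_spec (n : ℕ) (X : List α) : X = X.take (X.length - n) ++ lastn n X :=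
  (List.take_append_drop _ _).symm

/-- some wall strictly inside, at a place `>= z` -/
def Fl (Wo : List α → Prop) (z : ℕ) (X : List α) : Prop :=
  ∃ t, z ≤ t ∧ t < X.length ∧ Wo (X.take t)

theorem Fl_step (Wo : List α → Prop) (z : ℕ) (X : List α) (a : α) :
    Fl Wo z (X ++ [a]) ↔ Fl Wo z X ∨ (z ≤ X.length ∧ Wo X) := by
  constructor
  · rintro ⟨t, h1, h2, h3⟩
    simp only [List.length_append, List.length_singleton] at h2
    rcases Nat.lt_or_ge t X.length with h | h
    · left
      refine ⟨t, h1, h, ?_⟩
      rwa [List.take_append_of_le_length (by omega)] at h3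
    · right
      have ht : t = X.length := by omega
      subst ht
      refine ⟨h1, ?_⟩
      simpa using h3
  · rintro (⟨t, h1, h2, h3⟩ | ⟨h1, h2⟩)
    · refine ⟨t, h1, by simp; omega, ?_⟩
      rwa [List.take_append_of_le_length (by omega)]
    · exact ⟨X.length, h1, by simp, by simpa using h2⟩

theorem wo_lastn {Wo : List α → Prop} {n : ℕ}
    (hloc : ∀ P Q : List α, n ≤ Q.length → (Wo (P ++ Q) ↔ Wo Q)) {X : List α}
    (h : n ≤ X.length) : Wo X ↔ Wo (lastn n X) := by
  conv_lhs => rw [lastn_spec n X]
  apply hloc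
  unfold lastn; rw [List.length_drop]; omega

/-- regularity from finite data -/
theorem reg_of_data [Finite α] {S : Type*} [Monoid S] [Finite S] (f : α → S)
    (Wo : List α → Prop) (n z K M : ℕ)
    (hloc : ∀ P Q : List α, n ≤ Q.length → (Wo (P ++ Q) ↔ Wo Q))
    (hnz : n ≤ z) (hzK : z ≤ K) (hM : 0 < M) (L : Language α)
    (hL : ∀ X Y : List α, X.take K = Y.take K → lastn n X = lastn n Y →
      (Fl Wo z X ↔ Fl Wo z Y) → X.length % M = Y.length % M →
      ((X.drop K).map f).prod = ((Y.drop K).map f).prod → X ∈ L → Y ∈ L) : L.IsRegular := by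
  classical
  have i1 : Finite {l : List α // l.length ≤ K} := (List.finite_length_le α K).to_subtype
  have i2 : Finite {l : List α // l.length ≤ n} := (List.finite_length_le α n).to_subtype
  let τ : List α → {l : List α // l.length ≤ K} × {l : List α // l.length ≤ n} × Prop ×
      Fin M × S := fun X =>
    (⟨X.take K, by simp⟩, ⟨lastn n X, lastn_len n X⟩, Fl Wo z X,
      ⟨X.length % M, Nat.mod_lt _ hM⟩, ((X.drop K).map f).prod)
  have hτ : ∀ X Y, τ X = τ Y ↔ (X.take K = Y.take K ∧ lastn n X = lastn n Y ∧
      (Fl Wo z X ↔ Fl Wo z Y) ∧ X.length % M = Y.length % M ∧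
      ((X.drop K).map f).prod = ((Y.drop K).map f).prod) := by
    intro X Y
    simp only [τ, Prod.mk.injEq, Subtype.mk.injEq, Fin.mk.injEq, eq_iff_iff]
  refine reg_of_cong L τ ?_ ?_
  · intro X Y a h
    rw [hτ] at h ⊢
    obtain ⟨h1, h2, h3, h4, h5⟩ := h
    have hlen : X.length < K ↔ Y.length < K := by
      have := congrArg List.length h1
      simp only [List.length_take] at this
      omega
    have hlen2 : X.length < K → X = Y := by
      intro h
      have e1 : X.take K = X := List.take_of_length_le (by omega)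
      have e2 : Y.take K = Y := List.take_of_length_le (by have := hlen.1 h; omega)
      rw [← e1, h1, e2]
    by_cases hX : X.length < K
    · have := hlen2 hX
      subst this
      exact ⟨rfl, rfl, Iff.rfl, rfl, rfl⟩
    · have hY : ¬ Y.length < K := fun h => hX (hlen.2 h)
      refine ⟨?_, ?_, ?_, ?_, ?_⟩
      · rw [List.take_append_of_le_length (by omega), List.take_append_of_le_length (by omega), h1]
      · rw [lastn_step n X, lastn_step n Y, h2]
      · rw [Fl_step, Fl_step, h3, wo_lastn hloc (X := X) (by omega),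
          wo_lastn hloc (X := Y) (by omega), h2]
        have e1 : z ≤ X.length := by omega
        have e2 : z ≤ Y.length := by omega
        simp only [e1, e2]
      · simp only [List.length_append, List.length_singleton]
        rw [Nat.add_mod, h4, ← Nat.add_mod]
      · rw [List.drop_append_of_le_length (by omega), List.drop_append_of_le_length (by omega),
          List.map_append, List.map_append, List.prod_append, List.prod_append, h5]
  · intro X Y h hX
    rw [hτ] at h
    obtain ⟨h1, h2, h3, h4, h5⟩ := h
    exact hL X Y h1 h2 h3 h4 h5 hX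

/-- the words without a wall at `[z, |X|)` are made of boundedly many pieces -/
theorem pieces {Wo : List α → Prop} {n z B : ℕ}
    (hloc : ∀ P Q : List α, n ≤ Q.length → (Wo (P ++ Q) ↔ Wo Q))
    (hlen : ∀ Q, Wo Q → n ≤ Q.length) (hn : 0 < n) (hnz : n ≤ z)
    (hfew : ∀ X : List α, (∀ t, t < X.length → ¬ Wo (X.take t)) → ∃ (u x : List α) (k : ℕ)
      (v : List α), u.length ≤ B ∧ x.length ≤ B ∧ v.length ≤ B ∧
      X = u ++ (List.replicate k x).flatten ++ v)
    (X : List α) (hX : ¬ Fl Wo z X) :
    ∃ l : List (List α × List α × ℕ), l.length ≤ 3 ∧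
      (∀ t ∈ l, t.1.length ≤ z + B ∧ t.2.1.length ≤ z + B) ∧ X = Reg_236.wd l := by
  have hR : ∀ t, t < (X.drop (z - n)).length → ¬ Wo ((X.drop (z - n)).take t) := by
    intro t ht hw
    rw [List.length_drop] at ht
    have h1 := hlen _ hw
    rw [List.length_take, List.length_drop] at h1
    refine hX ⟨z - n + t, by omega, by omega, ?_⟩
    have e : X.take (z - n + t) = X.take (z - n) ++ (X.drop (z - n)).take t := by
      rw [List.take_add]
    rw [e]
    refine (hloc _ _ ?_).2 hw
    rw [List.length_take, List.length_drop]; omega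
  obtain ⟨u, x, k, v, hu, hx, hv, e⟩ := hfew _ hR
  refine ⟨[(X.take (z - n), [], 0), (u, x, k), (v, [], 0)], by simp, ?_, ?_⟩
  · intro t ht
    simp only [List.mem_cons, List.not_mem_nil, or_false] at ht
    rcases ht with rfl | rfl | rfl
    · simp only [List.length_take, List.length_nil]; omega
    · simp only; omega
    · simp only [List.length_nil]; omega
  · conv_lhs => rw [← List.take_append_drop (z - n) X, e]
    simp [Reg_236.wd, Reg_236.rep]

/-- the block code of the natural chain rule -/
def XX (Wo : List α → Prop) (z : ℕ) : Set (List α) :=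
  {X | z ≤ X.length ∧ Wo X ∧ ∀ t, z ≤ t → t < X.length → ¬ Wo (X.take t)}

/-- `g` is determined by a bounded prefix, the length mod `M` and a monoid product -/
def Key {β : Type*} (g : List α → β) : Prop :=
  ∃ (K M : ℕ) (S : Type) (_ : Monoid S) (_ : Finite S) (f : α → S), 0 < M ∧
    ∀ X Y : List α, K ≤ X.length → K ≤ Y.length → X.take K = Y.take K →
      X.length % M = Y.length % M →
      ((X.drop K).map f).prod = ((Y.drop K).map f).prod → g X = g Y

theorem key_le {S : Type*} [Monoid S] (f : α → S) {K K' : ℕ} (h : K ≤ K') {X Y : List α}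
    (h1 : X.take K' = Y.take K') (h2 : ((X.drop K').map f).prod = ((Y.drop K').map f).prod) :
    X.take K = Y.take K ∧ ((X.drop K).map f).prod = ((Y.drop K).map f).prod := by
  constructor
  · have := congrArg (List.take K) h1
    rwa [List.take_take, List.take_take, Nat.min_eq_left h] at this
  · have e : ∀ Z : List α, Z.drop K = (Z.take K').drop K ++ Z.drop K' := by
      intro Z
      conv_lhs => rw [← List.take_append_drop K' Z]
      rcases Nat.lt_or_ge Z.length K' with hl | hl
      · rw [List.drop_eq_nil_of_le (show Z.length ≤ K' by omega)]; simp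
      · rw [List.drop_append_of_le_length (by rw [List.length_take]; omega)]
    rw [e X, e Y, List.map_append, List.map_append, List.prod_append, List.prod_append, h1, h2]

theorem fib [Finite α] {β : Type*} {Wo : List α → Prop} {n z B : ℕ}
    (hloc : ∀ P Q : List α, n ≤ Q.length → (Wo (P ++ Q) ↔ Wo Q))
    (hlen : ∀ Q, Wo Q → n ≤ Q.length) (hn : 0 < n) (hnz : n ≤ z)
    (hfew : ∀ X : List α, (∀ t, t < X.length → ¬ Wo (X.take t)) → ∃ (u x : List α) (k : ℕ)
      (v : List α), u.length ≤ B ∧ x.length ≤ B ∧ v.length ≤ B ∧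
      X = u ++ (List.replicate k x).flatten ++ v)
    (g : List α → β) (hg : Key g) (y : β) :
    HL 1 ({X | X ∈ XX Wo z ∧ g X = y} : Language α) := by
  obtain ⟨K, M, S, iS, iF, f, hM, hkey⟩ := hg
  refine Reg_236.HL_one_of_bounded ?_ 3 (z + B) ?_
  · refine reg_of_data f Wo n z (K + z + 1) M hloc hnz (by omega) hM _ ?_
    rintro X Y h1 h2 h3 h4 h5 ⟨⟨a1, a2, a3⟩, a4⟩
    have hlenK : ∀ {m}, m ≤ K + z + 1 → (m ≤ X.length ↔ m ≤ Y.length) := by
      intro m hm
      have := congrArg List.length h1
      simp only [List.length_take] at this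
      omega
    have b1 : z ≤ Y.length := (hlenK (by omega)).1 a1
    refine ⟨⟨b1, ?_, ?_⟩, ?_⟩
    · rw [wo_lastn hloc (by omega), ← h2, ← wo_lastn hloc (by omega)]; exact a2
    · intro t t1 t2 t3
      obtain ⟨t', c1, c2, c3⟩ := h3.2 ⟨t, t1, t2, t3⟩
      exact a3 t' c1 c2 c3
    · by_cases hX : K + z + 1 ≤ X.length
      · have hY := (hlenK le_rfl).1 hX
        obtain ⟨k1, k2⟩ := key_le f (show K ≤ K + z + 1 by omega) h1 h5
        rw [← hkey X Y (by omega) (by omega) k1 h4 k2]; exact a4
      · have hY : ¬ K + z + 1 ≤ Y.length := fun h => hX ((hlenK le_rfl).2 h)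
        have e : X = Y := by
          rw [List.take_of_length_le (by omega), List.take_of_length_le (by omega)] at h1
          exact h1
        rw [← e]; exact a4
  · rintro X ⟨⟨a1, a2, a3⟩, -⟩
    refine pieces hloc hlen hn hnz hfew X ?_
    rintro ⟨t, t1, t2, t3⟩
    exact a3 t t1 t2 t3

theorem no_prefix {Wo : List α → Prop} {z : ℕ} (E : List α) :
    (∀ X ∈ XX Wo z, ¬ X <+: E) ↔ ¬ Fl Wo z E ∧ ¬ (z ≤ E.length ∧ Wo E) := by
  classical
  constructor
  · intro h
    by_contra hcon
    have hex : ∃ t, z ≤ t ∧ t ≤ E.length ∧ Wo (E.take t) := by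
      by_contra hno
      apply hcon
      refine ⟨?_, ?_⟩
      · rintro ⟨t, h1, h2, h3⟩
        exact hno ⟨t, h1, by omega, h3⟩
      · rintro ⟨h1, h2⟩
        exact hno ⟨E.length, h1, le_rfl, by simpa using h2⟩
    obtain ⟨h1, h2, h3⟩ := Nat.find_spec hex
    refine h (E.take (Nat.find hex)) ⟨?_, h3, ?_⟩ (List.take_prefix _ _)
    · rw [List.length_take]; omega
    · intro t t1 t2 t3
      rw [List.length_take] at t2
      rw [List.take_take, Nat.min_eq_left (by omega)] at t3
      exact Nat.find_min hex (by omega) ⟨t1, by omega, t3⟩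
  · rintro ⟨h1, h2⟩ X ⟨a1, a2, a3⟩ ⟨R, rfl⟩
    rcases R with _ | ⟨r, R⟩
    · exact h2 ⟨by simpa using a1, by simpa using a2⟩
    · exact h1 ⟨X.length, a1, by simp, by simpa using a2⟩

theorem tail [Finite α] {S : Type*} [Monoid S] [Finite S] (f : α → S)
    {Wo : List α → Prop} {n z B : ℕ}
    (hloc : ∀ P Q : List α, n ≤ Q.length → (Wo (P ++ Q) ↔ Wo Q))
    (hlen : ∀ Q, Wo Q → n ≤ Q.length) (hn : 0 < n) (hnz : n ≤ z)
    (hfew : ∀ X : List α, (∀ t, t < X.length → ¬ Wo (X.take t)) → ∃ (u x : List α) (k : ℕ)
      (v : List α), u.length ≤ B ∧ x.length ≤ B ∧ v.length ≤ B ∧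
      X = u ++ (List.replicate k x).flatten ++ v) (s : S) :
    HL 1 ({E | (∀ X ∈ XX Wo z, ¬ X <+: E) ∧ (E.map f).prod = s} : Language α) := by
  refine Reg_236.HL_one_of_bounded ?_ 3 (z + B) ?_
  · refine reg_of_data f Wo n z (z + 1) 1 hloc hnz (by omega) one_pos _ ?_
    rintro X Y h1 h2 h3 h4 h5 ⟨a1, a2⟩
    have hlenK : ∀ {m}, m ≤ z + 1 → (m ≤ X.length ↔ m ≤ Y.length) := by
      intro m hm
      have := congrArg List.length h1
      simp only [List.length_take] at this
      omega
    refine ⟨?_, ?_⟩
    · rw [no_prefix] at a1 ⊢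
      refine ⟨fun h => a1.1 (h3.2 h), fun h => a1.2 ⟨(hlenK (by omega)).2 h.1, ?_⟩⟩
      rw [wo_lastn hloc (by have := (hlenK (show z ≤ z + 1 by omega)).2 h.1; omega), h2,
        ← wo_lastn hloc (by omega)]
      exact h.2
    · obtain ⟨-, k2⟩ := key_le f (Nat.zero_le (z + 1)) h1 h5
      rw [← a2]
      simpa using k2.symm
  · rintro X ⟨a1, -⟩
    exact pieces hloc hlen hn hnz hfew X ((no_prefix X).1 a1).1

end Crest.Agent.R320.Fib_854
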