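import Crest.Agent.R320.TopSem_442
import Crest.Agent.R320.Joint_47
import Crest.Agent.R320.Fib_854
import Crest.Agent.R320.Fib_835

/-!
# Row 320: assembly of the row from the closed gadget with ruler `GG` (helper499)

Pieces: 442 `top_sem`, 47 `complete1` / `complete2`, 237 `exact_gadget`, 835 `exists_walls`,
854 `fib` / `tail`.
-/

set_option autoImplicit false

namespace Crest.Agent.R320.Asm_499

open Crest.RegLang Crest.Agent.R320.Hk_851 Crest.Agent.R320.ExactR_237

/-- closed gadget 1 (noise on all words, finite state) together with its ruler -/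
def GG (S V : Type) [Monoid S] [AddCommGroup V] (act : V → S → V) : Prop :=
  ∃ C0 : ℕ, ∀ K : ℕ, ∃ (N1 N0 A0 Mo : ℕ) (c : ℕ → ℕ) (BadT : ℕ → Prop),
    0 < Mo ∧ (∀ i j, i < j → j < K → c i < c j) ∧
    (∀ i i' j j', i < K → i' < K → j < K → j' < K → i' ≠ i → j' ≠ j →
      c i + c j' < c j + c i' + 2 * N1 → c j + c i' < c i + c j' + 2 * N1 → i = j) ∧
    (∀ T T' : ℕ, A0 ≤ T → A0 ≤ T' → T % Mo = T' % Mo → (BadT T ↔ BadT T')) ∧
    (∀ T : ℕ, (∀ k, k < K → c k ≤ T) → ∀ I : Finset ℕ,
      (∀ k ∈ I, k < K ∧ ∃ k', k' < K ∧ k' ≠ k ∧ BadT (T + c k' - c k)) → I.card ≤ C0) ∧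
    ∀ (A : Type) (f : A → S), ∃ (lam rho : List A → Option V) (nu : List A → V),
      (∀ P v, lam P = some v → P.length ≤ N1) ∧
      (∀ P Q v r, lam P = some v → rho Q = some r → r = act v (pr f (P ++ Q)) + nu (P ++ Q)) ∧
      (∀ Y : List A, N0 ≤ Y.length → ¬ BadT Y.length →
        ∀ v, ∃ P Q, Y = P ++ Q ∧ lam P = some v ∧ (rho Q).isSome) ∧
      (∀ X Y : List A, A0 ≤ X.length → A0 ≤ Y.length → X.take A0 = Y.take A0 →
        X.length % Mo = Y.length % Mo → pr f (X.drop A0) = pr f (Y.drop A0) → nu X = nu Y)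

theorem mod_sub {a b p M : ℕ} (ha : p ≤ a) (hb : p ≤ b) (h : a % M = b % M) :
    (a - p) % M = (b - p) % M := by
  have h1 : (a - p) + p ≡ (b - p) + p [MOD M] := by
    rw [Nat.sub_add_cancel ha, Nat.sub_add_cancel hb]; exact h
  exact Nat.ModEq.add_right_cancel' p h1

variable {A S : Type} [Finite A] [Monoid S] [Finite S]

theorem of_GG (f : A → S)
    (hG : ∀ act : (S → ZMod 2) → S → (S → ZMod 2), GG S (S → ZMod 2) act) (s : S) :
    HL 3 ({w | (w.map f).prod = s} : Language A) := by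
  classical
  have := Fintype.ofFinite S
  obtain ⟨act, hadd, hone, hmul, hfaith⟩ := Blk467.exists_module S
  obtain ⟨C0, hC0⟩ := hG act
  obtain ⟨K, hK⟩ := exact_gadget A S (S → ZMod 2) f act (2 * C0 + 2)
  obtain ⟨N1, N0, A0, Mo, c, BadT, hMo, hinc, hres, hper, hsp, hgad⟩ := hC0 K
  obtain ⟨lam2, rho2, nu2, hS2, hC2⟩ := hK c hinc
  obtain ⟨lam, rho, nu1, hL, hS, hC, hnu⟩ := hgad A f
  set p0 : ℕ := ∑ k ∈ Finset.range K, c k with hp0
  have hcp : ∀ k, k < K → c k ≤ p0 := fun k hk =>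
    Finset.single_le_sum (f := c) (fun _ _ => Nat.zero_le _) (Finset.mem_range.2 hk)
  set W : ℕ := 2 * (N1 + p0) + 1 with hW
  obtain ⟨Wo, n, B, hn, hWo⟩ := Fib_835.exists_walls A W (by omega)
  set z : ℕ := 3 * p0 + n + N1 + N0 + A0 + 1 with hz
  have hLW : Joint_47.LW n W Wo :=
    ⟨hWo.len, hWo.loc, fun X s t h1 h2 h3 h4 => by
      by_contra hc
      exact hWo.gap X s t h1 (by omega) h2 h3 h4⟩
  have hfew : ∀ X : List A, (∀ t, t < X.length → ¬ Wo (X.take t)) → ∃ (u x : List A) (k : ℕ)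
      (v : List A), u.length ≤ B + W ∧ x.length ≤ B + W ∧ v.length ≤ B + W ∧
      X = u ++ (List.replicate k x).flatten ++ v := by
    intro X hX
    obtain ⟨u, x, v, k, h1, h2, h3, h4⟩ := hWo.free X hX
    exact ⟨u, x, k, v, by omega, by omega, by omega, h4⟩
  -- the objects
  let nuT : List A → (S → ZMod 2) := fun X =>
    act (nu2 (X.take p0) 1) (pr f (X.drop p0)) + nu1 (X.drop p0)
  let T : (S → ZMod 2) → List A → (S → ZMod 2) :=
    Joint_47.T f act p0 (fun X => nu2 X 1) nu1
  let XX : Set (List A) := Joint_47.Zn Wo z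
  let Bad : Set (List A) := {X | X ∈ XX ∧ Joint_47.Bad Wo z N1 p0 BadT X}
  let LP1 : (S → ZMod 2) → Set (List A) := fun v =>
    {P | Joint_47.L1 f act p0 (fun X => nu2 X 1) lam v P}
  let LP2 : (S → ZMod 2) → Set (List A) := fun v => {P | Joint_47.L2 K c lam2 v P}
  have hT : ∀ v X, T v X = act v (X.map f).prod + nuT X := by
    intro v X
    show act (act v (pr f (X.take p0)) + nu2 (X.take p0) 1) (pr f (X.drop p0)) + nu1 (X.drop p0)
      = _
    rw [hadd, ← hmul, ← pr_append, List.take_append_drop, add_assoc]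
    rfl
  -- finite state data
  have hkeyT : ∀ (X Y : List A), p0 + A0 + z + N1 + 1 ≤ X.length → p0 + A0 + z + N1 + 1 ≤ Y.length →
      X.take (p0 + A0 + z + N1 + 1) = Y.take (p0 + A0 + z + N1 + 1) →
      X.length % Mo = Y.length % Mo →
      ((X.drop (p0 + A0 + z + N1 + 1)).map f).prod = ((Y.drop (p0 + A0 + z + N1 + 1)).map f).prod →
      (∀ v, T v X = T v Y) ∧ (Joint_47.Bad Wo z N1 p0 BadT X ↔ Joint_47.Bad Wo z N1 p0 BadT Y) := by
    intro X Y hX hY h1 h2 h3
    have htk : ∀ m, m ≤ p0 + A0 + z + N1 + 1 → X.take m = Y.take m := by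
      intro m hm
      have := congrArg (List.take m) h1
      rwa [List.take_take, List.take_take, min_eq_left hm] at this
    have hdr : ∀ m, m ≤ p0 + A0 + z + N1 + 1 → pr f (X.drop m) = pr f (Y.drop m) := by
      intro m hm
      have e : ∀ U : List A, U.drop m = (U.take (p0 + A0 + z + N1 + 1)).drop m ++
          U.drop (p0 + A0 + z + N1 + 1) := by
        intro U
        conv_lhs => rw [← List.take_append_drop (p0 + A0 + z + N1 + 1) U]
        rcases le_total m U.length with h | h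
        · rw [List.drop_append_of_le_length (by rw [List.length_take]; omega)]
        · have h5 : U.drop (p0 + A0 + z + N1 + 1) = [] := List.drop_eq_nil_of_le (by omega)
          rw [h5]; simp
      rw [e X, e Y, pr_append, pr_append, h1]
      congr 1
    have hmod := mod_sub (p := p0) (by omega : p0 ≤ X.length) (by omega : p0 ≤ Y.length) h2
    have hnu' : nu1 (X.drop p0) = nu1 (Y.drop p0) := by
      refine hnu _ _ (by rw [List.length_drop]; omega) (by rw [List.length_drop]; omega) ?_ ?_ ?_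
      · have h6 := congrArg (List.drop p0) (htk (p0 + A0) (by omega))
        rwa [List.drop_take, List.drop_take, Nat.add_sub_cancel_left] at h6
      · rw [List.length_drop, List.length_drop]; exact hmod
      · rw [List.drop_drop, List.drop_drop]; exact hdr _ (by omega)
    constructor
    · intro v
      show act (act v (pr f (X.take p0)) + nu2 (X.take p0) 1) (pr f (X.drop p0)) + nu1 (X.drop p0)
        = act (act v (pr f (Y.take p0)) + nu2 (Y.take p0) 1) (pr f (Y.drop p0)) + nu1 (Y.drop p0)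
      rw [htk p0 (by omega), hdr p0 (by omega), hnu']
    · have hB : BadT (X.length - p0) ↔ BadT (Y.length - p0) :=
        hper _ _ (by omega) (by omega) hmod
      unfold Joint_47.Bad
      rw [hB]
      refine or_congr_left ?_
      constructor
      · rintro ⟨t, a, b, d, e⟩
        refine ⟨t, a, b, by omega, ?_⟩
        rwa [← htk t (by omega)]
      · rintro ⟨t, a, b, d, e⟩
        refine ⟨t, a, b, by omega, ?_⟩
        rwa [htk t (by omega)]
  have hX : ∀ v v', HL 1 ({X | X ∈ XX ∧ T v X = v'} : Language A) := by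
    intro v v'
    refine Fib_854.fib hWo.loc hWo.len hn (by omega) hfew (T v) ?_ v'
    refine ⟨p0 + A0 + z + N1 + 1, Mo, S, inferInstance, inferInstance, f, hMo, ?_⟩
    intro X Y h1 h2 h3 h4 h5
    exact (hkeyT X Y h1 h2 h3 h4 h5).1 v
  have hB : ∀ v v', HL 1 ({X | X ∈ Bad ∧ T v X = v'} : Language A) := by
    intro v v'
    have := Fib_854.fib (z := z) hWo.loc hWo.len hn (by omega) hfew
      (fun X => (T v X, Joint_47.Bad Wo z N1 p0 BadT X)) (by
        refine ⟨p0 + A0 + z + N1 + 1, Mo, S, inferInstance, inferInstance, f, hMo, ?_⟩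
        intro X Y h1 h2 h3 h4 h5
        have h6 := hkeyT X Y h1 h2 h3 h4 h5
        show (T v X, Joint_47.Bad Wo z N1 p0 BadT X) = (T v Y, Joint_47.Bad Wo z N1 p0 BadT Y)
        rw [h6.1 v, propext h6.2]) (v', True)
    refine this.congr fun X => ?_
    show ((X ∈ XX ∧ Joint_47.Bad Wo z N1 p0 BadT X) ∧ T v X = v') ↔
      (X ∈ XX ∧ (T v X, Joint_47.Bad Wo z N1 p0 BadT X) = (v', True))
    rw [Prod.mk.injEq, eq_iff_iff, iff_true]
    tauto
  have htail : ∀ s, HL 3 ({w | (∀ X ∈ XX, ¬ X <+: w) ∧ (w.map f).prod = s} : Language A) :=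
    fun s => (Fib_854.tail f hWo.loc hWo.len hn (by omega) hfew s).mono (by omega)
  have hf1 : ∀ v, (LP1 v).Finite := by
    intro v
    refine (List.finite_length_le A (p0 + N1)).subset ?_
    rintro P ⟨h1, h2⟩
    have := hL _ _ h2
    rw [List.length_drop] at this
    show P.length ≤ p0 + N1
    omega
  have hf2 : ∀ v, (LP2 v).Finite := by
    intro v
    refine (List.finite_length_le A p0).subset ?_
    rintro P ⟨k, h1, h2, -⟩
    have := hcp k h1
    show P.length ≤ p0
    omega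
  have hPC : Blk467.PCode XX := by
    refine ⟨?_, ?_⟩
    · rintro ⟨h, -, -⟩
      simp only [List.length_nil] at h
      omega
    · intro X hX Y hY hXY
      exact Joint_47.Zn_prefix hX hY hXY (List.prefix_refl Y)
  refine TopSem_442.top_sem f act hadd hone hmul hfaith nuT T hT XX Bad hPC
    (fun X h => h.1) LP1 LP2 hf1 hf2 hX hB htail ?_ ?_ s
  · intro X hXX hXB v
    obtain ⟨p, q, e, hp, -, h⟩ := Joint_47.complete1 f act p0 (fun X => nu2 X 1) nu1 hLW hS hL hC
      (by omega) (by omega) hXX (fun hb => hXB ⟨hXX, hb⟩) v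
    exact ⟨p, q, e.symm, hp, fun v' P' hP' => h v' P' hP'⟩
  · intro X hXB X' hXB' v
    obtain ⟨p, q, e, hp, -, h⟩ := Joint_47.complete2 f act p0 nu1 hLW hS2 hC2 hinc hcp hres hsp
      (by omega) (by omega) hXB.1 hXB'.1 hXB.2 v
    refine ⟨p, q, e.symm, hp, fun v' P' hP' => ?_⟩
    rcases h v' P' hP' with ⟨a, h1, h2, h3, h4⟩ | ⟨a, h1, h2, h3⟩
    · left
      refine ⟨a, ⟨h1, h2⟩, X', hXB', h3, ?_⟩
      show T (T v' a) X' = T (T v X) X'
      rw [show T v' a = T v X from h4]
    · right; left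
      exact ⟨a, h1, fun hb => h2 hb.2, h3⟩

end Crest.Agent.R320.Asm_499
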