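import Crest.Agent.R320.Top5_120
import Crest.Agent.R320.Sc2n_937
import Crest.Agent.R320.Grid_899
import Crest.Agent.R320.Thin_963
import Crest.Agent.R320.ExactR_237
import Crest.Agent.R320.LWallAll_922
import Crest.Agent.R320.P4_933
import Crest.Agent.R320.RegCongr_253

/-!
# Row 320 (helper50): constants and join over the landed components

`asm` : both schemes (937), the top (120), the height-one languages (933, 253) joined from abstract
gadget data.
-/

set_option autoImplicit false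

namespace Crest.Agent.R320.Asm_50

open Crest.RegLang Crest.Agent.R320.Hk_851 Crest.Agent.R320.Sc2n_937

section basics

variable {α S V : Type} [Monoid S] [AddCommGroup V]

abbrev pr (φ : α → S) (w : List α) : S := (w.map φ).prod

theorem pr_append (φ : α → S) (u v : List α) : pr φ (u ++ v) = pr φ u * pr φ v := by
  simp [pr]

def pre (act : V → S → V) (φ : α → S) (nu2 : List α → V) (u : List α) (v : V) : V :=
  act v (pr φ u) + nu2 u

def post (act : V → S → V) (φ : α → S) (nu : List α → V) (v : V) (Y : List α) : V :=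
  act v (pr φ Y) + nu Y

def nuC (act : V → S → V) (φ : α → S) (p0 : ℕ) (nu2 nu : List α → V) (X : List α) : V :=
  act (nu2 (X.take p0)) (pr φ (X.drop p0)) + nu (X.drop p0)

theorem T_eq {act : V → S → V} (hadd : ∀ a b s, act (a + b) s = act a s + act b s)
    (hmul : ∀ v s t, act v (s * t) = act (act v s) t) (φ : α → S) (nu2 nu : List α → V)
    (g : Geo α) (v : V) (X : List α) :
    g.T (pre act φ nu2) (post act φ nu) v X = act v (pr φ X) + nuC act φ g.p0 nu2 nu X := by
  unfold Geo.T post pre nuC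
  rw [hadd, ← hmul, ← pr_append, List.take_append_drop, add_assoc]

theorem take_drop_eq {X X' : List α} {B j b : ℕ} (h : X.take B = X'.take B) (hj : j + b ≤ B) :
    (X.drop j).take b = (X'.drop j).take b := by
  have h1 : ∀ Y : List α, (Y.drop j).take b = ((Y.take B).take (j + b)).drop j := by
    intro Y
    rw [List.take_take, min_eq_left hj, List.drop_take]
    congr 1
    omega
  rw [h1, h1, h]

theorem take_eq_of {X X' : List α} {B j : ℕ} (h : X.take B = X'.take B) (hj : j ≤ B) :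
    X.take j = X'.take j := by
  have := take_drop_eq (j := 0) (b := j) h (by omega)
  simpa using this

theorem pr_drop_eq (φ : α → S) {X X' : List α} {B j : ℕ} (h : X.take B = X'.take B) (hj : j ≤ B)
    (h1 : B ≤ X.length) (h2 : B ≤ X'.length) (hp : pr φ (X.drop B) = pr φ (X'.drop B)) :
    pr φ (X.drop j) = pr φ (X'.drop j) := by
  have h3 : ∀ Y : List α, B ≤ Y.length → Y.drop j = (Y.take B).drop j ++ Y.drop B := by
    intro Y hY
    conv_lhs => rw [← List.take_append_drop B Y]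
    rw [List.drop_append_of_le_length]
    rw [List.length_take]; omega
  rw [h3 X h1, h3 X' h2, pr_append, pr_append, h, hp]

/-- the finite state version of `nu` -/
noncomputable def nuF (lam rho : List α → Option V) (nu : List α → V) (Y : List α) : V := by
  classical
  exact if ∃ P Q v b, P ++ Q = Y ∧ lam P = some v ∧ rho Q = some b then nu Y else 0

theorem nuF_eq {lam rho : List α → Option V} {nu : List α → V} {P Q : List α} {v b : V}
    (h1 : lam P = some v) (h2 : rho Q = some b) : nuF lam rho nu (P ++ Q) = nu (P ++ Q) := by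
  unfold nuF
  rw [if_pos ⟨P, Q, v, b, rfl, h1, h2⟩]

theorem nuF_cls {act : V → S → V} {φ : α → S} {lam rho : List α → Option V} {nu : List α → V}
    (A1 M : ℕ) (hlam : ∀ P v, lam P = some v → P.length ≤ A1)
    (hrho : ∀ Q b, rho Q = some b → A1 ≤ Q.length)
    (hs : ∀ P Q v b, lam P = some v → rho Q = some b → b = act v (pr φ (P ++ Q)) + nu (P ++ Q))
    (hcls : ∀ Q Q' : List α, A1 ≤ Q.length → A1 ≤ Q'.length → Q.take A1 = Q'.take A1 →
      pr φ (Q.drop A1) = pr φ (Q'.drop A1) → Q.length ≡ Q'.length [MOD M] → rho Q = rho Q')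
    {Y Y' : List α} (h1 : 2 * A1 ≤ Y.length) (h2 : 2 * A1 ≤ Y'.length)
    (h3 : Y.take (2 * A1) = Y'.take (2 * A1)) (h4 : Y.length ≡ Y'.length [MOD M])
    (h5 : pr φ (Y.drop (2 * A1)) = pr φ (Y'.drop (2 * A1))) :
    nuF lam rho nu Y = nuF lam rho nu Y' := by
  classical
  have key : ∀ {Y Y' : List α}, 2 * A1 ≤ Y.length → 2 * A1 ≤ Y'.length →
      Y.take (2 * A1) = Y'.take (2 * A1) → Y.length ≡ Y'.length [MOD M] →
      pr φ (Y.drop (2 * A1)) = pr φ (Y'.drop (2 * A1)) → ∀ P Q v b, P ++ Q = Y →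
      lam P = some v → rho Q = some b → ∃ Q', P ++ Q' = Y' ∧ rho Q' = some b := by
    intro Y Y' h1 h2 h3 h4 h5 P Q v b hY hl hr
    have hP := hlam P v hl
    have hQ := hrho Q b hr
    have eP : P = Y.take P.length := by rw [← hY, List.take_left]
    have eQ : Q = Y.drop P.length := by rw [← hY, List.drop_left]
    have eP' : P = Y'.take P.length := by
      rw [← take_eq_of h3 (by omega)]; exact eP
    refine ⟨Y'.drop P.length, ?_, ?_⟩
    · conv_lhs => rw [eP']
      rw [List.length_take, min_eq_left (by omega), List.take_append_drop]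
    · rw [← hr]
      refine (hcls Q _ hQ ?_ ?_ ?_ ?_).symm
      · rw [List.length_drop]; omega
      · rw [eQ]; exact take_drop_eq h3 (by omega)
      · rw [eQ, List.drop_drop, List.drop_drop]
        exact pr_drop_eq φ h3 (by omega) h1 h2 h5
      · have e1 : Y.length = P.length + Q.length := by rw [← hY, List.length_append]
        have e2 : Y'.length = P.length + (Y'.drop P.length).length := by
          rw [List.length_drop]; omega
        rw [e1, e2] at h4
        exact Nat.ModEq.add_left_cancel' _ h4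
  have hpr : pr φ Y = pr φ Y' := by
    have := pr_drop_eq φ (j := 0) h3 (by omega) h1 h2 h5
    simpa using this
  unfold nuF
  by_cases h : ∃ P Q v b, P ++ Q = Y ∧ lam P = some v ∧ rho Q = some b
  · obtain ⟨P, Q, v, b, hY, hl, hr⟩ := h
    obtain ⟨Q', hY', hr'⟩ := key h1 h2 h3 h4 h5 P Q v b hY hl hr
    rw [if_pos ⟨P, Q, v, b, hY, hl, hr⟩, if_pos ⟨P, Q', v, b, hY', hl, hr'⟩]
    have e1 := hs P Q v b hl hr
    have e2 := hs P Q' v b hl hr'
    rw [hY] at e1
    rw [hY', ← hpr] at e2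
    have := e1.symm.trans e2
    exact add_left_cancel this
  · rw [if_neg h, if_neg]
    rintro ⟨P, Q, v, b, hY, hl, hr⟩
    obtain ⟨Q', hY', hr'⟩ := key h2 h1 h3.symm h4.symm h5.symm P Q v b hY hl hr
    exact h ⟨P, Q', v, b, hY', hl, hr'⟩

end basics

section asm

variable {α S V : Type} [Finite α] [Monoid S] [Finite S] [AddCommGroup V] [Finite V]

theorem asm (act : V → S → V) (hadd : ∀ a b s, act (a + b) s = act a s + act b s)
    (hone : ∀ v, act v 1 = v) (hmul : ∀ v s t, act v (s * t) = act (act v s) t)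
    (hfaith : ∀ s t, (∀ v, act v s = act v t) → s = t) (φ : α → S) (g : Geo α)
    (len : ∀ P, g.Wo P → g.n ≤ P.length) (B0 R0 : ℕ)
    (free : ∀ u : List α, (∀ t < u.length, ¬ g.Wo (u.take t)) →
      u ∈ (BddReg_746.PN B0 R0 : Language α))
    (hgap : ∀ P Q : List α, g.Wo P → g.Wo (P ++ Q) → Q ≠ [] → 2 * g.p0 + 2 * g.N1 < Q.length)
    (lam rho : List α → Option V) (nu : List α → V) (BadN : ℕ → Prop)
    (hlen : ∀ P v, lam P = some v → P.length ≤ g.N1)
    (hex : ∀ P Q v b, lam P = some v → rho Q = some b →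
      b = act v (pr φ (P ++ Q)) + nu (P ++ Q))
    (hcomp : ∀ Y : List α, g.q0 + g.N1 ≤ Y.length → ¬ BadN Y.length → ∀ v, ∃ P Q, Y = P ++ Q ∧
      lam P = some v ∧ (rho Q).isSome)
    (K C0 : ℕ) (c : ℕ → ℕ) (hc : ∀ k, k < K → c k ≤ g.p0)
    (lam2 rho2 : ℕ → List α → Option V) (nu2 : List α → V)
    (hex2 : ∀ k, k < K → ∀ P Q v u, P.length = c k → lam2 k P = some v → rho2 k Q = some u →
      u = act v (pr φ (P ++ Q)) + nu2 (P ++ Q))
    (hcomp2 : ∀ (u : List α) (v : V), u.length = g.p0 → ∃ I : Finset ℕ, 2 * C0 + 2 ≤ I.card ∧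
      ∀ k ∈ I, k < K ∧ lam2 k (u.take (c k)) = some v ∧ (rho2 k (u.drop (c k))).isSome)
    (hsp : ∀ k k' l l', k < K → k' < K → l < K → l' < K → k' ≠ k → l' ≠ l →
      c k + c l' < c l + c k' + 2 * g.N1 → c l + c k' < c k + c l' + 2 * g.N1 → k = l)
    (hthin : ∀ τ, g.z ≤ τ + g.p0 → ∀ J : Finset ℕ, (∀ k ∈ J, k < K ∧
      ∃ k', k' < K ∧ k' ≠ k ∧ BadN (τ + c k' - c k - g.p0)) → J.card ≤ C0)
    (B M : ℕ) (hM : 0 < M) (hB : g.z + g.N1 ≤ B)
    (hnu : ∀ X X' : List α, B ≤ X.length → B ≤ X'.length → X.take B = X'.take B →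
      X.length % M = X'.length % M → pr φ (X.drop B) = pr φ (X'.drop B) →
      nu (X.drop g.p0) = nu (X'.drop g.p0))
    (hbadM : ∀ a b : ℕ, B ≤ a → B ≤ b → a % M = b % M → BadN (a - g.p0) → BadN (b - g.p0))
    (s : S) : HL 3 ({w | (w.map φ).prod = s} : Language α) := by
  classical
  set pr1 := pre act φ nu2 with hpr1
  set po1 := post act φ nu with hpo1
  let C : Set (List α) := {X | g.XX X}
  let Bad : Set (List α) := {X | g.XX X ∧ g.BadX BadN X}
  have hz := g.hz
  have hq := g.hq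
  have hN := g.hN
  have hTe : ∀ v X, g.T pr1 po1 v X = act v (X.map φ).prod + nuC act φ g.p0 nu2 nu X :=
    fun v X => T_eq hadd hmul φ nu2 nu g v X
  have hXXiff : ∀ X, P4_933.XX g.Wo g.z X ↔ g.XX X := by
    intro X
    constructor
    · rintro ⟨h1, h2, h3⟩
      exact ⟨h2, h1, fun t h4 h5 => h3 t h5 h4⟩
    · rintro ⟨h1, h2, h3⟩
      exact ⟨h2, h1, fun t h4 h5 => h3 t h5 h4⟩
  -- finite-state facts
  have hnuC : ∀ X X' : List α, B ≤ X.length → B ≤ X'.length → X.take B = X'.take B →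
      X.length % M = X'.length % M → pr φ (X.drop B) = pr φ (X'.drop B) →
      nuC act φ g.p0 nu2 nu X = nuC act φ g.p0 nu2 nu X' := by
    intro X X' h1 h2 h3 h4 h5
    unfold nuC
    rw [hnu X X' h1 h2 h3 h4 h5, take_eq_of h3 (j := g.p0) (by omega),
      pr_drop_eq φ (j := g.p0) h3 (by omega) h1 h2 h5]
  have hprX : ∀ X X' : List α, B ≤ X.length → B ≤ X'.length → X.take B = X'.take B →
      pr φ (X.drop B) = pr φ (X'.drop B) → pr φ X = pr φ X' := by
    intro X X' h1 h2 h3 h5
    have := pr_drop_eq φ (j := 0) h3 (by omega) h1 h2 h5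
    simpa using this
  have hE : ∀ X X' : List α, B ≤ X.length → B ≤ X'.length → X.take B = X'.take B →
      g.E X → g.E X' := by
    rintro X X' h1 h2 h3 ⟨t, ht, hw, h6, h7⟩
    refine ⟨t, by omega, ?_, h6, h7⟩
    rw [← take_eq_of h3 (j := t) (by omega)]
    exact hw
  have regT : ∀ x y, Language.IsRegular
      ({X | act x (X.map φ).prod + nuC act φ g.p0 nu2 nu X = y} : Language α) := by
    intro x y
    refine RegCongr_253.regular_of_congr φ B M hM _ ?_
    intro q q' h1 h2 h3 h4 h5 h6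
    have h6' : act x (q.map φ).prod + nuC act φ g.p0 nu2 nu q = y := h6
    show act x (q'.map φ).prod + nuC act φ g.p0 nu2 nu q' = y
    rw [← hnuC q q' h1 h2 h3 h4 h5, ← h6']
    congr 2
    exact (hprX q q' h1 h2 h3 h5).symm
  have regB : ∀ x y, Language.IsRegular
      ({X | g.BadX BadN X ∧ act x (X.map φ).prod + nuC act φ g.p0 nu2 nu X = y} :
        Language α) := by
    intro x y
    refine RegCongr_253.regular_of_congr φ B M hM _ ?_
    intro q q' h1 h2 h3 h4 h5 h6
    have h6' : g.BadX BadN q ∧ act x (q.map φ).prod + nuC act φ g.p0 nu2 nu q = y := h6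
    obtain ⟨h7, h8⟩ := h6'
    refine ⟨?_, ?_⟩
    · rcases h7 with h7 | h7
      · exact Or.inl (hE q q' h1 h2 h3 h7)
      · exact Or.inr (hbadM _ _ h1 h2 h4 h7)
    · rw [← hnuC q q' h1 h2 h3 h4 h5, ← h8]
      congr 2
      exact (hprX q q' h1 h2 h3 h5).symm
  have hCnil : ([] : List α) ∉ C := by
    intro h
    have h1 : g.z ≤ ([] : List α).length := h.1
    simp only [List.length_nil] at h1
    omega
  have hCpre : ∀ X ∈ C, ∀ Y ∈ C, X <+: Y → X = Y := by
    rintro X hX Y hY ⟨R, hR⟩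
    exact g.prefix_code (R := R) (R' := []) hX hY (by rw [hR, List.append_nil])
  refine Top5_120.top5 act hadd hone hmul hfaith φ (nuC act φ g.p0 nu2 nu) C Bad
    ⟨hCnil, hCpre⟩ (fun X h => h.1)
    (fun v => {P | g.LP1 pr1 lam v P}) (fun v => {P | Geo.LP2 K c lam2 v P}) ?_ ?_ ?_ ?_ ?_ ?_ ?_ s
  · intro v
    refine (List.finite_length_le α (g.p0 + g.N1)).subset ?_
    rintro P ⟨h1, h2⟩
    have h3 := hlen _ _ h2
    rw [List.length_drop] at h3
    show P.length ≤ g.p0 + g.N1
    omega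
  · intro v
    refine (List.finite_length_le α g.p0).subset ?_
    rintro P ⟨k, hk, h1, h2⟩
    show P.length ≤ g.p0
    rw [h1]; exact hc k hk
  · intro x y
    refine (P4_933.hl_XX (z := g.z) g.loc len free (regT x y)).congr fun w => ?_
    constructor
    · rintro ⟨h1, h2⟩
      exact ⟨(hXXiff w).2 h1, h2⟩
    · rintro ⟨h1, h2⟩
      exact ⟨(hXXiff w).1 h1, h2⟩
  · intro x y
    refine (P4_933.hl_XX (z := g.z) g.loc len free (regB x y)).congr fun w => ?_
    constructor
    · rintro ⟨⟨h1, h3⟩, h2⟩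
      exact ⟨(hXXiff w).2 h1, h3, h2⟩
    · rintro ⟨h1, h3, h2⟩
      exact ⟨⟨(hXXiff w).1 h1, h3⟩, h2⟩
  · intro s'
    have hreg : Language.IsRegular ({X | (X.map φ).prod = s'} : Language α) := by
      refine RegCongr_253.regular_of_congr φ 0 1 one_pos _ ?_
      intro q q' _ _ _ _ h5 h6
      simp only [List.drop_zero] at h5
      show (q'.map φ).prod = s'
      rw [← h5]; exact h6
    refine (P4_933.hl_NB (z := g.z) g.loc len free hreg).congr fun w => ?_
    constructor
    · rintro ⟨h1, h2⟩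
      refine ⟨(P4_933.NB_iff g.Wo g.z w).2 fun P hP hX => ?_, h2⟩
      exact h1 P ((hXXiff P).1 hX) hP
    · rintro ⟨h1, h2⟩
      refine ⟨fun X hX hP => ?_, h2⟩
      exact (P4_933.NB_iff g.Wo g.z w).1 h1 X hP ((hXXiff X).2 hX)
  · intro X hX hXb v
    have hX' : g.XX X := hX
    have hnE : ¬ g.E X := fun h => hXb ⟨hX, Or.inl h⟩
    have hnB : ¬ BadN (X.length - g.p0) := fun h => hXb ⟨hX, Or.inr h⟩
    have hlenX : g.z + g.N1 ≤ X.length := by
      by_contra hlt
      apply hnE
      refine ⟨X.length, le_rfl, ?_, by have := hX'.1; omega, by omega⟩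
      rw [List.take_length]; exact hX'.2.1
    obtain ⟨P, Q, b, e, hP, hQ⟩ := g.complete1 pr1 hlen hX' hnE
      (hcomp (X.drop g.p0) (by rw [List.length_drop]; omega)
        (by rw [List.length_drop]; exact hnB)) v
    have hs : ∀ x P', g.LP1 pr1 lam x P' → g.XX (P' ++ Q) ∧ g.T pr1 po1 x (P' ++ Q) = b :=
      fun x P' hP' => g.sound1 pr1 po1 hlen (fun P Q u b h1 h2 => hex P Q u b h1 h2) hP' hQ
    refine ⟨P, Q, e.symm, hP, fun x P' hP' => ?_⟩
    obtain ⟨h1, h2⟩ := hs x P' hP'
    obtain ⟨h3, h4⟩ := hs v P hP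
    refine ⟨h1, ?_⟩
    rw [← hTe, ← hTe, h2, e, h4]
  · intro X hX Y hY v
    obtain ⟨hX1, hX2⟩ := hX
    obtain ⟨hY1, hY2⟩ := hY
    have hXz := hX1.1
    obtain ⟨I, hI1, hI2⟩ := hcomp2 (X.take g.p0) v (by rw [List.length_take]; omega)
    obtain ⟨P, Q, b, e, hP, hQ⟩ := g.complete2 pr1 po1 (BadT := BadN) (K := K) (c := c)
      (lam2 := lam2) (rho2 := rho2) (C0 := C0) hc hgap hsp hthin hX1 hY1 v
      ⟨I, hI1, fun k hk => by
        obtain ⟨h1, h2, h3⟩ := hI2 k hk
        refine ⟨h1, ?_, h3⟩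
        rw [List.take_take, min_eq_left (hc k h1)] at h2
        exact h2⟩
    have hs : ∀ {v b : V} {X P Q R R' : List α}, g.XX X → g.BadX BadN X →
        Geo.LP2 K c lam2 v P → g.RQ2 pr1 po1 BadN K c rho2 b Q → P ++ Q ++ R = X ++ R' →
        ∃ X2, g.XX X2 ∧ P ++ Q = X ++ X2 ∧ g.T pr1 po1 (g.T pr1 po1 v X) X2 = b := by
      intro v b X P Q R R' h1 h2 h3 h4 h5
      exact g.sound2 pr1 po1 hc (fun k hk P Q v u h6 _ h7 h8 => hex2 k hk P Q v u h6 h7 h8)
        h1 h2 h3 h4 h5
    obtain ⟨Y', hY', e1, e2⟩ := hs (R := []) (R' := Y) hX1 hX2 hP hQ (by rw [List.append_nil, e])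
    have hYY : Y' = Y := by
      rw [e] at e1
      exact (List.append_cancel_left e1).symm
    subst hYY
    refine ⟨P, Q, e, hP, fun x P' hP' => ?_⟩
    obtain ⟨k0, hk0, hPl, hl0⟩ := hP'
    have hQ' := hQ
    obtain ⟨k, hk, l, hend, hgood, -⟩ := hQ'
    have cand : ∃ l', g.CEnd Q (c k0) l' := by
      by_cases hkk : k0 = k
      · exact ⟨l, by rw [hkk]; exact hend⟩
      · obtain ⟨l', h1, -⟩ := hgood k0 hk0 hkk
        exact ⟨l', h1⟩
    obtain ⟨l', hl'⟩ := cand
    have hXX' : g.XX (P' ++ Q.take l') :=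
      g.xx_of_cend (by rw [hPl]; exact hc k0 hk0) (by rw [hPl]; exact hl')
    by_cases hb : g.BadX BadN (P' ++ Q.take l')
    · left
      obtain ⟨X2, h1, h2, h3⟩ := hs (v := x) (R := []) (R' := Q.drop l') hXX' hb
        ⟨k0, hk0, hPl, hl0⟩ hQ
        (by rw [List.append_nil, List.append_assoc, List.take_append_drop])
      refine ⟨P' ++ Q.take l', ⟨hXX', hb⟩, X2, h1, h2.symm, ?_⟩
      rw [hTe, hTe] at h3
      rw [hTe, hTe] at e2
      rw [h3, e2]
    · right
      refine ⟨P' ++ Q.take l', hXX', fun h => hb h.2, ?_⟩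
      refine ⟨Q.drop l', ?_⟩
      rw [List.append_assoc, List.take_append_drop]

end asm

end Crest.Agent.R320.Asm_50
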