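import Crest.Agent.R320.Hk2_851

/-!
# Row 320: prefix-code form of the two-level assembly (helper505)

Zones form a prefix code `U`. `Level V B eps P R`: on the promise code `V`, left words `P v` and
right words `R v'` are sound, and every zone outside `B` splits. `level_lemma` (189's form) and the
assembly `two_levels`: two nested levels over `HL k` data give `HL (k + 2)`.
-/

set_option autoImplicit false

namespace Crest.Agent.R320.Asm_505

open Crest.RegLang Crest.Agent.R320.Hk_851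

universe u v

variable {α : Type u} {Ω : Type v}

/-- run of a thread over a list of zones -/
def Run (eps : List α → Ω → Ω) (x : Ω) (l : List (List α)) : Ω := l.foldl (fun ω z => eps z ω) x

theorem Run_cons (eps : List α → Ω → Ω) (x : Ω) (z : List α) (l : List (List α)) :
    Run eps x (z :: l) = Run eps (eps z x) l := rfl

theorem Run_append (eps : List α → Ω → Ω) (x : Ω) (l l' : List (List α)) :
    Run eps x (l ++ l') = Run eps (Run eps x l) l' := by
  simp [Run, List.foldl_append]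

/-- `w` is a list of zones of `V` leading from `x` to `y` -/
def Path (V : Language α) (eps : List α → Ω → Ω) (x : Ω) (w : List α) (y : Ω) : Prop :=
  ∃ l : List (List α), (∀ z ∈ l, z ∈ V) ∧ l.flatten = w ∧ Run eps x l = y

theorem Path.nil (V : Language α) (eps : List α → Ω → Ω) (x : Ω) : Path V eps x [] x :=
  ⟨[], by simp, rfl, rfl⟩

theorem Path.cons {V : Language α} {eps : List α → Ω → Ω} {x y : Ω} {z w : List α}
    (hz : z ∈ V) (h : Path V eps (eps z x) w y) : Path V eps x (z ++ w) y := by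
  obtain ⟨l, h1, h2, h3⟩ := h
  refine ⟨z :: l, ?_, ?_, ?_⟩
  · intro t ht
    rcases List.mem_cons.1 ht with rfl | ht
    · exact hz
    · exact h1 t ht
  · simp [h2]
  · rw [Run_cons, h3]

theorem Path.append {V : Language α} {eps : List α → Ω → Ω} {x y t : Ω} {w w' : List α}
    (h : Path V eps x w y) (h' : Path V eps y w' t) : Path V eps x (w ++ w') t := by
  obtain ⟨l, h1, h2, h3⟩ := h
  obtain ⟨l', h1', h2', h3'⟩ := h'
  refine ⟨l ++ l', ?_, ?_, ?_⟩
  · intro z hz
    rcases List.mem_append.1 hz with hz | hz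
    · exact h1 z hz
    · exact h1' z hz
  · simp [h2, h2']
  · rw [Run_append, h3, h3']

theorem Path.mono {V V' : Language α} {eps : List α → Ω → Ω} {x y : Ω} {w : List α}
    (hV : ∀ z ∈ V, z ∈ V') (h : Path V eps x w y) : Path V' eps x w y := by
  obtain ⟨l, h1, h2, h3⟩ := h
  exact ⟨l, fun z hz => hV z (h1 z hz), h2, h3⟩

/-- prefix code -/
structure PC (V : Language α) : Prop where
  ne : [] ∉ V
  pc : ∀ z ∈ V, ∀ z' ∈ V, z <+: z' → z = z'

theorem mem_kstar {V : Language α} {w : List α} :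
    w ∈ KStar.kstar V ↔ ∃ l : List (List α), (∀ z ∈ l, z ∈ V) ∧ l.flatten = w := by
  constructor
  · intro h
    obtain ⟨l, h1, h2⟩ := (Language.mem_kstar).1 h
    exact ⟨l, h2, h1.symm⟩
  · rintro ⟨l, h1, h2⟩
    exact (Language.mem_kstar).2 ⟨l, h2.symm, h1⟩

theorem pc_head {V : Language α} (hV : PC V) {z z' w w' : List α} (hz : z ∈ V) (hz' : z' ∈ V)
    (h : z ++ w = z' ++ w') : z = z' ∧ w = w' := by
  have hc : z <+: z' ∨ z' <+: z :=
    List.prefix_or_prefix_of_prefix ⟨w, h⟩ ⟨w', rfl⟩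
  have : z = z' := by
    rcases hc with hc | hc
    · exact hV.pc z hz z' hz' hc
    · exact (hV.pc z' hz' z hz hc).symm
  subst this
  exact ⟨rfl, List.append_cancel_left h⟩

theorem pc_unique {V : Language α} (hV : PC V) : ∀ (l l' : List (List α)),
    (∀ z ∈ l, z ∈ V) → (∀ z ∈ l', z ∈ V) → l.flatten = l'.flatten → l = l' := by
  intro l
  induction l with
  | nil =>
    intro l' _ h' h
    cases l' with
    | nil => rfl
    | cons z l' =>
      exfalso
      have : z = [] := by
        have : z ++ l'.flatten = [] := by simpa using h.symm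
        exact (List.append_eq_nil_iff.1 this).1
      exact hV.ne (this ▸ h' z (by simp))
  | cons z l ih =>
    intro l' h1 h' h
    cases l' with
    | nil =>
      exfalso
      have : z = [] := by
        have : z ++ l.flatten = [] := by simpa using h
        exact (List.append_eq_nil_iff.1 this).1
      exact hV.ne (this ▸ h1 z (by simp))
    | cons z' l' =>
      have h2 : z ++ l.flatten = z' ++ l'.flatten := by simpa using h
      obtain ⟨rfl, h3⟩ := pc_head hV (h1 z (by simp)) (h' z' (by simp)) h2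
      rw [ih l' (fun t ht => h1 t (by simp [ht])) (fun t ht => h' t (by simp [ht])) h3]

theorem pc_cancel {V : Language α} (hV : PC V) : ∀ (l : List (List α)) (y : List α),
    (∀ z ∈ l, z ∈ V) → l.flatten ++ y ∈ KStar.kstar V → y ∈ KStar.kstar V := by
  intro l
  induction l with
  | nil => intro y _ h; simpa using h
  | cons z l ih =>
    intro y h1 h
    obtain ⟨l', h2, h3⟩ := mem_kstar.1 h
    cases l' with
    | nil =>
      exfalso
      have : z = [] := by
        have h4 : z ++ (l.flatten ++ y) = [] := by simpa using h3.symm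
        exact (List.append_eq_nil_iff.1 h4).1
      exact hV.ne (this ▸ h1 z (by simp))
    | cons z' l' =>
      have h4 : z' ++ l'.flatten = z ++ (l.flatten ++ y) := by simpa using h3
      obtain ⟨_, h5⟩ := pc_head hV (h2 z' (by simp)) (h1 z (by simp)) h4
      exact ih y (fun t ht => h1 t (by simp [ht]))
        (mem_kstar.2 ⟨l', fun t ht => h2 t (by simp [ht]), h5⟩)

/-- one level: left words `P v`, right words `R v'`, bad zones `B`, promise code `V` -/
structure Level (V B : Language α) (eps : List α → Ω → Ω) (P R : Ω → Language α) : Prop where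
  pne : ∀ x, [] ∉ P x
  sound : ∀ z ∈ V, ∀ x y, ∀ p ∈ P x, ∀ q ∈ R y, (z <+: p ++ q ∨ p ++ q <+: z) →
    z = p ++ q ∧ eps z x = y
  compl : ∀ z ∈ V, z ∉ B → ∀ x, ∃ p ∈ P x, ∃ q ∈ R (eps z x), z = p ++ q

/-- the right-hand side of the level lemma -/
def KK (P R : Ω → Language α) (W : Ω → Ω → Language α) : Language α :=
  {k | ∃ x y, ∃ q ∈ R x, ∃ w ∈ W x y, ∃ p ∈ P y, k = q ++ w ++ p}

def Rhs (P R : Ω → Language α) (W : Ω → Ω → Language α) (x y : Ω) : Language α :=
  {w | w ∈ W x y ∨ ∃ x1 y1, ∃ w1 ∈ W x x1, ∃ p ∈ P x1, ∃ k ∈ KStar.kstar (KK P R W),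
    ∃ q ∈ R y1, ∃ w2 ∈ W y1 y, w = w1 ++ p ++ k ++ q ++ w2}

theorem kstar_cons {K : Language α} {k w : List α} (hk : k ∈ K) (hw : w ∈ KStar.kstar K) :
    k ++ w ∈ KStar.kstar K := by
  obtain ⟨l, h1, h2⟩ := mem_kstar.1 hw
  refine mem_kstar.2 ⟨k :: l, ?_, by simp [h2]⟩
  intro z hz
  rcases List.mem_cons.1 hz with rfl | hz
  · exact hk
  · exact h1 z hz

theorem level_fwd {V B : Language α} {eps : List α → Ω → Ω} {P R : Ω → Language α}
    (L : Level V B eps P R) {W : Ω → Ω → Language α}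
    (W1 : ∀ x w y, Path B eps x w y → w ∈ W x y) :
    ∀ (l : List (List α)) (x0 x : Ω) (w0 : List α), (∀ z ∈ l, z ∈ V) → Path B eps x0 w0 x →
      w0 ++ l.flatten ∈ Rhs P R W x0 (Run eps x l) := by
  intro l
  induction l with
  | nil =>
    intro x0 x w0 _ h0
    left
    have := W1 _ _ _ h0
    simpa [Run] using this
  | cons z l ih =>
    intro x0 x w0 hl h0
    have hz : z ∈ V := hl z (by simp)
    have hl' : ∀ t ∈ l, t ∈ V := fun t ht => hl t (by simp [ht])
    by_cases hB : z ∈ B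
    · have h1 : Path B eps x0 (w0 ++ z) (eps z x) := by
        have : Path B eps x z (eps z x) := by
          have := Path.cons (eps := eps) (x := x) hB (Path.nil B eps (eps z x))
          simpa using this
        exact h0.append this
      have := ih x0 (eps z x) (w0 ++ z) hl' h1
      simpa [Run_cons] using this
    · obtain ⟨p, hp, q, hq, rfl⟩ := L.compl z hz hB x
      have h2 := ih (eps (p ++ q) x) (eps (p ++ q) x) [] hl' (Path.nil _ _ _)
      rw [List.nil_append] at h2
      rw [Run_cons]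
      right
      rcases h2 with h2 | ⟨x1, y1, w1, hw1, p1, hp1, k, hk, q1, hq1, w2, hw2, he⟩
      · refine ⟨x, eps (p ++ q) x, w0, W1 _ _ _ h0, p, hp, [], ?_, q, hq, l.flatten, h2, ?_⟩
        · exact mem_kstar.2 ⟨[], by simp, rfl⟩
        · simp
      · refine ⟨x, y1, w0, W1 _ _ _ h0, p, hp, (q ++ w1 ++ p1) ++ k, ?_, q1, hq1, w2, hw2, ?_⟩
        · exact kstar_cons ⟨_, _, q, hq, w1, hw1, p1, hp1, rfl⟩ hk
        · simp [he]

theorem level_bwd {V B : Language α} {eps : List α → Ω → Ω} {P R : Ω → Language α}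
    (hV : PC V) (L : Level V B eps P R) {W : Ω → Ω → Language α}
    (W2 : ∀ x y w, w ∈ W x y → Path V eps x w y) :
    ∀ (ks : List (List α)) (x y1 y : Ω) (p q w2 : List α), (∀ k ∈ ks, k ∈ KK P R W) →
      p ∈ P x → q ∈ R y1 → w2 ∈ W y1 y → p ++ ks.flatten ++ q ++ w2 ∈ KStar.kstar V →
      Path V eps x (p ++ ks.flatten ++ q ++ w2) y := by
  intro ks
  induction ks with
  | nil =>
    intro x y1 y p q w2 _ hp hq hw2 hw
    simp only [List.flatten_nil, List.append_nil] at hw ⊢
    obtain ⟨l, h1, h2⟩ := mem_kstar.1 hw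
    cases l with
    | nil =>
      exfalso
      have h3 : p ++ (q ++ w2) = [] := by simpa using h2.symm
      have := (List.append_eq_nil_iff.1 h3).1
      exact L.pne x (this ▸ hp)
    | cons z l =>
      have h3 : z ++ l.flatten = (p ++ q) ++ w2 := by simpa using h2
      have hc : z <+: p ++ q ∨ p ++ q <+: z :=
        List.prefix_or_prefix_of_prefix ⟨l.flatten, h3⟩ ⟨w2, rfl⟩
      obtain ⟨h4, h5⟩ := L.sound z (h1 z (by simp)) x y1 p hp q hq hc
      have hz : z ∈ V := h1 z (by simp)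
      rw [← h4]
      refine Path.cons hz ?_
      rw [h5]
      exact W2 _ _ _ hw2
  | cons k ks ih =>
    intro x y1 y p q w2 hks hp hq hw2 hw
    obtain ⟨a, b, q1, hq1, w1, hw1, p1, hp1, hk⟩ := hks k (by simp)
    subst hk
    obtain ⟨l, h1, h2⟩ := mem_kstar.1 hw
    cases l with
    | nil =>
      exfalso
      have h3 : p ++ (q1 ++ w1 ++ p1 ++ (ks.flatten ++ q ++ w2)) = [] := by simpa using h2.symm
      have := (List.append_eq_nil_iff.1 h3).1
      exact L.pne x (this ▸ hp)
    | cons z l =>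
      have h3 : z ++ l.flatten = (p ++ q1) ++ (w1 ++ (p1 ++ ks.flatten ++ q ++ w2)) := by
        have : z ++ l.flatten = p ++ (q1 ++ w1 ++ p1 ++ ks.flatten) ++ q ++ w2 := by
          simpa using h2
        rw [this]; simp
      have hc : z <+: p ++ q1 ∨ p ++ q1 <+: z :=
        List.prefix_or_prefix_of_prefix ⟨l.flatten, h3⟩ ⟨_, rfl⟩
      obtain ⟨h4, h5⟩ := L.sound z (h1 z (by simp)) x a p hp q1 hq1 hc
      have hz : z ∈ V := h1 z (by simp)
      have h6 : l.flatten = w1 ++ (p1 ++ ks.flatten ++ q ++ w2) := by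
        rw [h4] at h3
        exact List.append_cancel_left h3
      have h7 : Path V eps a w1 b := W2 _ _ _ hw1
      have h8 : p1 ++ ks.flatten ++ q ++ w2 ∈ KStar.kstar V := by
        obtain ⟨l1, g1, g2, _⟩ := h7
        refine pc_cancel hV l1 _ g1 ?_
        rw [g2, ← h6]
        exact mem_kstar.2 ⟨l, fun t ht => h1 t (by simp [ht]), rfl⟩
      have h9 := ih b y1 y p1 q w2 (fun t ht => hks t (by simp [ht])) hp1 hq hw2 h8
      have h10 : p ++ ((q1 ++ w1 ++ p1) :: ks).flatten ++ q ++ w2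
          = z ++ (w1 ++ (p1 ++ ks.flatten ++ q ++ w2)) := by
        rw [h4]; simp
      rw [h10]
      refine Path.cons hz ?_
      rw [h5]
      exact h7.append h9

theorem level_lemma {V B : Language α} {eps : List α → Ω → Ω} {P R : Ω → Language α}
    (hV : PC V) (L : Level V B eps P R) {W : Ω → Ω → Language α}
    (W1 : ∀ x w y, Path B eps x w y → w ∈ W x y)
    (W2 : ∀ x y w, w ∈ W x y → Path V eps x w y) (x y : Ω) (w : List α) :
    Path V eps x w y ↔ w ∈ KStar.kstar V ∧ w ∈ Rhs P R W x y := by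
  constructor
  · rintro ⟨l, h1, h2, h3⟩
    refine ⟨mem_kstar.2 ⟨l, h1, h2⟩, ?_⟩
    have := level_fwd L W1 l x x [] h1 (Path.nil _ _ _)
    rw [List.nil_append, h3, h2] at this
    exact this
  · rintro ⟨hw, h | ⟨x1, y1, w1, hw1, p, hp, k, hk, q, hq, w2, hw2, rfl⟩⟩
    · exact W2 _ _ _ h
    · have h7 : Path V eps x w1 x1 := W2 _ _ _ hw1
      obtain ⟨ks, g1, g2⟩ := mem_kstar.1 hk
      subst g2
      have h8 : p ++ ks.flatten ++ q ++ w2 ∈ KStar.kstar V := by
        obtain ⟨l1, g1, g2, _⟩ := h7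
        refine pc_cancel hV l1 _ g1 ?_
        rw [g2]
        simpa using hw
      have h9 := level_bwd hV L W2 ks x1 y1 y p q w2 g1 hp hq hw2 h8
      have := h7.append h9
      simpa using this

variable {k : ℕ}

theorem HL.exists' {ι : Type*} [Finite ι] {L : ι → List α → Prop}
    (h : ∀ i, HL k ({w | L i w} : Language α)) : HL k ({w | ∃ i, L i w} : Language α) := by
  exact (HL.iUnion (k := k) (L := fun i => ({w | L i w} : Language α)) h).congr fun w => Iff.rfl

theorem HL.forall' {ι : Type*} [Finite ι] {L : ι → List α → Prop}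
    (h : ∀ i, HL k ({w | L i w} : Language α)) : HL k ({w | ∀ i, L i w} : Language α) := by
  exact (HL.iInter (k := k) (L := fun i => ({w | L i w} : Language α)) h).congr fun w => Iff.rfl

theorem HL.KK [Finite Ω] {P R : Ω → Language α} {W : Ω → Ω → Language α}
    (hP : ∀ x, HL k (P x)) (hR : ∀ x, HL k (R x)) (hW : ∀ x y, HL k (W x y)) :
    HL k (KK P R W) := by
  refine (HL.exists' (L := fun x w => ∃ y, w ∈ (R x * W x y * P y : Language α)) fun x =>
    HL.exists' (L := fun y w => w ∈ (R x * W x y * P y : Language α)) fun y =>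
      ((hR x).mul (hW x y)).mul (hP y)).congr fun w => ?_
  constructor
  · rintro ⟨x, y, q, hq, w1, hw1, p, hp, rfl⟩
    exact ⟨x, y, Language.mem_mul.2 ⟨_, Language.mem_mul.2 ⟨q, hq, w1, hw1, rfl⟩, p, hp, rfl⟩⟩
  · rintro ⟨x, y, h⟩
    obtain ⟨_, h1, p, hp, rfl⟩ := Language.mem_mul.1 h
    obtain ⟨q, hq, w1, hw1, rfl⟩ := Language.mem_mul.1 h1
    exact ⟨x, y, q, hq, w1, hw1, p, hp, rfl⟩

theorem HL.Rhs [Finite Ω] {P R : Ω → Language α} {W : Ω → Ω → Language α}
    (hP : ∀ x, HL k (P x)) (hR : ∀ x, HL k (R x)) (hW : ∀ x y, HL k (W x y)) (x y : Ω) :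
    HL (k + 1) (Rhs P R W x y) := by
  have hK : HL (k + 1) (KStar.kstar (Asm_505.KK P R W)) := (HL.KK hP hR hW).star
  have up : ∀ {L : Language α}, HL k L → HL (k + 1) L := fun h => h.mono (Nat.le_succ k)
  refine ((up (hW x y)).setOf_or (HL.exists' (L := fun x1 w => ∃ y1, w ∈
      (W x x1 * P x1 * KStar.kstar (Asm_505.KK P R W) * R y1 * W y1 y : Language α)) fun x1 =>
    HL.exists' (L := fun y1 w => w ∈
      (W x x1 * P x1 * KStar.kstar (Asm_505.KK P R W) * R y1 * W y1 y : Language α)) fun y1 =>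
      (((((up (hW x x1)).mul (up (hP x1))).mul hK).mul (up (hR y1))).mul
        (up (hW y1 y))))).congr fun w => ?_
  constructor
  · rintro (h | ⟨x1, y1, w1, hw1, p, hp, k, hk, q, hq, w2, hw2, rfl⟩)
    · exact Or.inl h
    · exact Or.inr ⟨x1, y1, Language.mem_mul.2 ⟨_, Language.mem_mul.2 ⟨_, Language.mem_mul.2
        ⟨_, Language.mem_mul.2 ⟨w1, hw1, p, hp, rfl⟩, k, hk, rfl⟩, q, hq, rfl⟩, w2, hw2, rfl⟩⟩
  · rintro (h | ⟨x1, y1, h⟩)
    · exact Or.inl h
    · obtain ⟨_, h1, w2, hw2, rfl⟩ := Language.mem_mul.1 h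
      obtain ⟨_, h2, q, hq, rfl⟩ := Language.mem_mul.1 h1
      obtain ⟨_, h3, k, hk, rfl⟩ := Language.mem_mul.1 h2
      obtain ⟨w1, hw1, p, hp, rfl⟩ := Language.mem_mul.1 h3
      exact Or.inr ⟨x1, y1, w1, hw1, p, hp, k, hk, q, hq, w2, hw2, rfl⟩

theorem HL.path [Finite Ω] {V B : Language α} {eps : List α → Ω → Ω} {P R : Ω → Language α}
    (hV : PC V) (L : Level V B eps P R) {W : Ω → Ω → Language α}
    (W1 : ∀ x w y, Path B eps x w y → w ∈ W x y)
    (W2 : ∀ x y w, w ∈ W x y → Path V eps x w y)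
    (hV' : HL k V) (hP : ∀ x, HL k (P x)) (hR : ∀ x, HL k (R x)) (hW : ∀ x y, HL k (W x y))
    (x y : Ω) : HL (k + 1) ({w | Path V eps x w y} : Language α) := by
  refine (hV'.star.inf (HL.Rhs hP hR hW x y)).congr fun w => ?_
  exact level_lemma hV L W1 W2 x y w

/-- decoding one thread system by another one on the same code -/
theorem HL.decode [Finite Ω] {V : Language α} (hV : PC V) {eps : List α → Ω → Ω}
    {X : Type*} (g : List (List α) → X)
    (dec : ∀ l l', (∀ z ∈ l, z ∈ V) → (∀ z ∈ l', z ∈ V) →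
      (∀ x, Run eps x l = Run eps x l') → g l = g l')
    (hVs : HL k (KStar.kstar V))
    (hp : ∀ x y, HL k ({w | Path V eps x w y} : Language α)) (c : X) :
    HL k ({w | ∃ l, (∀ z ∈ l, z ∈ V) ∧ l.flatten = w ∧ g l = c} : Language α) := by
  have h1 : ∀ f : Ω → Ω, HL k ({w | ∀ x, Path V eps x w (f x)} : Language α) := fun f =>
    HL.forall' fun x => hp x (f x)
  have h2 : HL k ({w | ∃ f : {f : Ω → Ω // ∃ l, (∀ z ∈ l, z ∈ V) ∧ (∀ x, Run eps x l = f x) ∧
      g l = c}, ∀ x, Path V eps x w (f.1 x)} : Language α) :=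
    HL.exists' fun f => h1 f.1
  refine (hVs.inf h2).congr fun w => ?_
  constructor
  · rintro ⟨l, hl, hw, hg⟩
    exact ⟨mem_kstar.2 ⟨l, hl, hw⟩, ⟨fun x => Run eps x l, l, hl, fun _ => rfl, hg⟩,
      fun x => ⟨l, hl, hw, rfl⟩⟩
  · rintro ⟨h3, ⟨f, l', hl', hf, hg⟩, h4⟩
    obtain ⟨l, hl, hw⟩ := mem_kstar.1 h3
    refine ⟨l, hl, hw, ?_⟩
    rw [← hg]
    refine dec l l' hl hl' fun x => ?_
    obtain ⟨l'', g1, g2, g3⟩ := h4 x
    have : l'' = l := pc_unique hV _ _ g1 hl (g2.trans hw.symm)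
    subst this
    rw [g3, hf]

/-- words of `U*` with product `c` -/
def ZL {M : Type*} [Monoid M] (φ : α → M) (U : Language α) (c : M) : Language α :=
  {w | ∃ l : List (List α), (∀ z ∈ l, z ∈ U) ∧ l.flatten = w ∧ (l.flatten.map φ).prod = c}

/-- words without a prefix in `U`, with product `c` -/
def Rest {M : Type*} [Monoid M] (φ : α → M) (U : Language α) (c : M) : Language α :=
  {r | (∀ z ∈ U, ¬ z <+: r) ∧ (r.map φ).prod = c}

/-- **two nested levels**: scheme 1 sound on the prefix code `U`, complete outside `B`;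
scheme 2 sound and complete on the promise code `B`. -/
theorem two_levels {Ω₁ Ω₂ : Type*} [Finite Ω₁] [Finite Ω₂] {M : Type*} [Monoid M] [Finite M]
    (φ : α → M) {U B : Language α} (hU : PC U) (hBU : ∀ z ∈ B, z ∈ U)
    {eps₁ : List α → Ω₁ → Ω₁} {P₁ R₁ : Ω₁ → Language α} (L1 : Level U B eps₁ P₁ R₁)
    {eps₂ : List α → Ω₂ → Ω₂} {P₂ R₂ : Ω₂ → Language α} (L2 : Level B 0 eps₂ P₂ R₂)
    (dec₁ : ∀ l l', (∀ z ∈ l, z ∈ U) → (∀ z ∈ l', z ∈ U) →
      (∀ x, Run eps₁ x l = Run eps₁ x l') →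
        (l.flatten.map φ).prod = (l'.flatten.map φ).prod)
    (dec₂ : ∀ l l', (∀ z ∈ l, z ∈ B) → (∀ z ∈ l', z ∈ B) →
      (∀ x, Run eps₂ x l = Run eps₂ x l') → ∀ x, Run eps₁ x l = Run eps₁ x l')
    (hHU : HL k U) (hHB : HL k B) (hP₁ : ∀ x, HL k (P₁ x)) (hR₁ : ∀ x, HL k (R₁ x))
    (hP₂ : ∀ x, HL k (P₂ x)) (hR₂ : ∀ x, HL k (R₂ x))
    (hrest : ∀ m, HL k (Rest φ U m)) (m : M) :
    HL (k + 2) ({w | (w.map φ).prod = m} : Language α) := by
  classical
  have hB : PC B := ⟨fun h => hU.ne (hBU _ h), fun z hz z' hz' h => hU.pc z (hBU z hz) z' (hBU z' hz') h⟩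
  -- scheme 2 on `B`
  have s1 : ∀ x y, HL (k + 1) ({w | Path B eps₂ x w y} : Language α) := by
    intro x y
    refine HL.path hB L2 (W := fun x y => ({w | x = y ∧ w = []} : Language α)) ?_ ?_ hHB hP₂ hR₂ ?_ x y
    · rintro x w y ⟨l, h1, h2, h3⟩
      cases l with
      | nil => exact ⟨h3, h2.symm⟩
      | cons z l => exact absurd (h1 z (by simp)) (Language.notMem_zero z)
    · rintro x y w ⟨rfl, rfl⟩
      exact Path.nil _ _ _
    · intro x y
      exact (HL.const (k := k) (x = y)).setOf_and ((HL.one (α := α) (k := k)))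
  -- threads of scheme 1 on `B`
  have s2 : ∀ x y, HL (k + 1) ({w | Path B eps₁ x w y} : Language α) := by
    intro x y
    refine (HL.decode hB (fun l => Run eps₁ x l)
      (fun l l' hl hl' h => dec₂ l l' hl hl' h x) hHB.star s1 y).congr fun w => ?_
    exact Iff.rfl
  have up : ∀ {L : Language α}, HL k L → HL (k + 1) L := fun h => h.mono (Nat.le_succ k)
  have s3 : ∀ x y, HL (k + 1 + 1) ({w | Path U eps₁ x w y} : Language α) := by
    intro x y
    exact HL.path hU L1 (W := fun x y => ({w | Path B eps₁ x w y} : Language α))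
      (fun x w y h => h) (fun x y w h => Path.mono hBU h) (up hHU) (fun x => up (hP₁ x))
      (fun x => up (hR₁ x)) s2 x y
  have s4 : ∀ c : M, HL (k + 2) (ZL φ U c) := fun c =>
    HL.decode hU (fun l : List (List α) => (l.flatten.map φ).prod) dec₁
      (hHU.star.mono (Nat.le_succ _)) s3 c
  have s5 : HL (k + 2) ({w | ∃ ab : {ab : M × M // ab.1 * ab.2 = m}, w ∈
      ZL φ U ab.1.1 * Rest φ U ab.1.2} : Language α) :=
    HL.exists' fun ab => (s4 ab.1.1).mul ((hrest ab.1.2).mono (by omega))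
  refine s5.congr fun w => ?_
  constructor
  · intro hw
    have key : ∀ n (w : List α), w.length ≤ n → ∃ (l : List (List α)) (r : List α), (∀ z ∈ l, z ∈ U) ∧ (∀ z ∈ U, ¬ z <+: r) ∧
        l.flatten ++ r = w := by
      intro n
      induction n with
      | zero =>
        intro w hn
        have : w = [] := List.length_eq_zero_iff.1 (Nat.le_zero.1 hn)
        subst this
        refine ⟨[], [], by simp, ?_, rfl⟩
        intro z hz h
        have : z = [] := List.prefix_nil.1 h
        exact hU.ne (this ▸ hz)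
      | succ n ih =>
        intro w hn
        by_cases h : ∃ z ∈ U, z <+: w
        · obtain ⟨z, hz, w', rfl⟩ := h
          have hz0 : z ≠ [] := fun h => hU.ne (h ▸ hz)
          have hzl : 0 < z.length := List.length_pos_iff.2 hz0
          obtain ⟨l, r, h1, h2, h3⟩ := ih w' (by rw [List.length_append] at hn; omega)
          refine ⟨z :: l, r, ?_, h2, by simp [h3]⟩
          intro t ht
          rcases List.mem_cons.1 ht with rfl | ht
          · exact hz
          · exact h1 t ht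
        · push Not at h
          exact ⟨[], w, by simp, h, by simp⟩
    obtain ⟨l, r, h1, h2, h3⟩ := key w.length w le_rfl
    refine ⟨⟨((l.flatten.map φ).prod, (r.map φ).prod), ?_⟩, ?_⟩
    · have : (w.map φ).prod = m := hw
      rw [← this, ← h3, List.map_append, List.prod_append]
    · exact Language.mem_mul.2 ⟨l.flatten, ⟨l, h1, rfl, rfl⟩, r, ⟨h2, rfl⟩, h3⟩
  · rintro ⟨⟨⟨a, b⟩, hab⟩, h⟩
    obtain ⟨x, ⟨l, h1, h2, h3⟩, r, ⟨h4, h5⟩, h6⟩ := Language.mem_mul.1 h
    subst h2
    change (w.map φ).prod = m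
    rw [← h6, List.map_append, List.prod_append, h3, h5]
    exact hab

end Crest.Agent.R320.Asm_505
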