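import Crest.Agent.R320.Asm_505

/-!
# Row 320: all-words assembly, the two levels (helper507)

Left-looking walls on all words, natural chain rule: a zone ends at the second wall `≥ z`.
Scheme 1 = a U-gadget on all words (bad only by total length), scheme 2 = promise ruler.
-/

set_option autoImplicit false
set_option linter.unusedVariables false
set_option linter.unusedSectionVars false

namespace Crest.Agent.R320.Asm_507

open Crest.RegLang Crest.Agent.R320.Hk_851 Crest.Agent.R320.Asm_505 Finset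

variable {α : Type} {S V : Type}

structure WR (n W : ℕ) (wl : List α → ℕ → Prop) : Prop where
  le : ∀ {X t}, wl X t → t ≤ X.length
  left : ∀ {P Q : List α} {t}, t ≤ P.length → (wl (P ++ Q) t ↔ wl P t)
  right : ∀ {P Q : List α} {s}, n ≤ s → (wl (P ++ Q) (P.length + s) ↔ wl Q s)
  gap : ∀ {X s t}, wl X s → wl X t → s < t → s + W ≤ t

def Z2 (wl : List α → ℕ → Prop) (z : ℕ) (X : List α) (t1 : ℕ) : Prop :=
  z ≤ t1 ∧ t1 < X.length ∧ wl X t1 ∧ wl X X.length ∧
    ∀ t, z ≤ t → wl X t → t = t1 ∨ t = X.length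

def UU (wl : List α → ℕ → Prop) (z : ℕ) : Language α := {X | ∃ t1, Z2 wl z X t1}

theorem Z2.unique {wl : List α → ℕ → Prop} {z : ℕ} {X : List α} {t1 t2 : ℕ}
    (h : Z2 wl z X t1) (h' : Z2 wl z X t2) : t1 = t2 := by
  rcases h.2.2.2.2 t2 h'.1 h'.2.2.1 with h1 | h1
  · exact h1.symm
  · have := h'.2.1; omega

noncomputable def fst (wl : List α → ℕ → Prop) (z : ℕ) (X : List α) : ℕ :=
  sInf {t | z ≤ t ∧ wl X t}

theorem fst_eq {wl : List α → ℕ → Prop} {z : ℕ} {X : List α} {t1 : ℕ}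
    (h : Z2 wl z X t1) : fst wl z X = t1 := by
  apply le_antisymm
  · exact Nat.sInf_le ⟨h.1, h.2.2.1⟩
  · have hne : {t | z ≤ t ∧ wl X t}.Nonempty := ⟨t1, h.1, h.2.2.1⟩
    obtain ⟨h1, h2⟩ := Nat.sInf_mem hne
    rcases h.2.2.2.2 _ h1 h2 with h3 | h3
    · exact h3.ge
    · have := h.2.1
      unfold fst
      omega

theorem pcU {wl : List α → ℕ → Prop} {n W z : ℕ} (hw : WR n W wl) : PC (UU wl z) := by
  constructor
  · rintro ⟨t1, h⟩
    have := h.2.1
    simp at this
  · rintro X ⟨t1, h⟩ X' ⟨t2, h'⟩ ⟨R, rfl⟩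
    by_cases hR : R = []
    · subst hR; simp
    · exfalso
      have hRl : 0 < R.length := List.length_pos_iff.2 hR
      have h1 : wl (X ++ R) t1 := (hw.left h.2.1.le).2 h.2.2.1
      have h2 : wl (X ++ R) X.length := (hw.left le_rfl).2 h.2.2.2.1
      have e1 := h'.2.2.2.2 t1 h.1 h1
      have e2 := h'.2.2.2.2 X.length (by have := h.1; have := h.2.1; omega) h2
      have h3 := h.2.1
      rw [List.length_append] at e1 e2
      omega

/-- all parameters -/
structure Dat (α S V : Type) where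
  wl : List α → ℕ → Prop
  n : ℕ
  W : ℕ
  N1 : ℕ
  La : ℕ
  p0 : ℕ
  q : ℕ
  z : ℕ
  K : ℕ
  C0 : ℕ
  cc : ℕ → ℕ
  act : V → S → V
  ph : List α → S
  lam : List α → Option V
  rho : List α → Option V
  nu1 : List α → V
  BadT : ℕ → Prop
  lam2 : ℕ → List α → Option V
  rho2 : ℕ → List α → Option V
  nu2 : List α → V

variable [Monoid S] [AddCommGroup V]

structure Ok (D : Dat α S V) : Prop where
  wr : WR D.n D.W D.wl
  hz : D.z = D.p0 + D.q + D.N1
  hqn : D.n ≤ D.q
  hqLa : D.La + D.p0 ≤ D.q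
  hW : 2 * D.p0 + 2 * D.N1 + 1 ≤ D.W
  hp0 : 0 < D.p0
  ug1 : ∀ (p : List α) (v : V), D.lam p = some v → p.length ≤ D.N1
  ug2 : ∀ (p q : List α) (v r : V), D.lam p = some v → D.rho q = some r → D.La ≤ q.length →
    r = D.act v (D.ph (p ++ q)) + D.nu1 (p ++ q)
  ug3 : ∀ u : List α, D.La ≤ u.length → ¬ D.BadT u.length → ∀ v : V, ∃ p q : List α, p ++ q = u ∧
    D.lam p = some v ∧ (D.rho q).isSome
  spoil : ∀ T, D.La ≤ T → ∀ F : Finset (ℕ × ℕ),
    (∀ ij ∈ F, ij.1 < D.K ∧ ij.2 < D.K ∧ ij.1 ≠ ij.2 ∧ D.BadT (T + D.cc ij.2 - D.cc ij.1)) →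
    F.card ≤ D.C0
  ruler : ∀ i j k l, i < D.K → j < D.K → k < D.K → l < D.K → i ≠ j → k ≠ l → (i, j) ≠ (k, l) →
    D.cc i + D.cc l + 4 * D.N1 < D.cc k + D.cc j ∨ D.cc k + D.cc j + 4 * D.N1 < D.cc i + D.cc l
  hcc : ∀ k < D.K, 0 < D.cc k ∧ D.cc k ≤ D.p0
  inj : ∀ k < D.K, ∀ l < D.K, D.cc k = D.cc l → k = l
  ex1 : ∀ k < D.K, ∀ (P Q : List α) (v b : V), P.length = D.cc k → D.lam2 k P = some v → D.rho2 k Q = some b →
    b = D.act v (D.ph (P ++ Q)) + D.nu2 (P ++ Q)
  ex2 : ∀ (u : List α) (v : V), u.length = D.p0 → ∃ I : Finset ℕ, 2 * D.C0 + 2 ≤ I.card ∧ ∀ k ∈ I, k < D.K ∧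
    D.lam2 k (u.take (D.cc k)) = some v ∧ (D.rho2 k (u.drop (D.cc k))).isSome

variable {D : Dat α S V}

/-- the zone map -/
noncomputable def ep (D : Dat α S V) (X : List α) (v : V) : V :=
  D.act (D.act (D.act v (D.ph (X.take D.p0)) + D.nu2 (X.take D.p0))
    (D.ph ((X.take (fst D.wl D.z X)).drop D.p0)) + D.nu1 ((X.take (fst D.wl D.z X)).drop D.p0))
    (D.ph (X.drop (fst D.wl D.z X)))

def U (D : Dat α S V) : Language α := UU D.wl D.z

/-- bad zones -/
def B (D : Dat α S V) : Language α :=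
  {X | ∃ t1, Z2 D.wl D.z X t1 ∧
    ((∃ t, D.z ≤ t + D.N1 ∧ t < D.z + D.N1 ∧ D.wl X t) ∨ D.BadT (t1 - D.p0))}

def P1 (D : Dat α S V) (x : V) : Language α :=
  {P | D.p0 ≤ P.length ∧
    D.lam (P.drop D.p0) = some (D.act x (D.ph (P.take D.p0)) + D.nu2 (P.take D.p0))}

def R1 (D : Dat α S V) (y : V) : Language α :=
  {Q | ∃ s1 r, D.q + D.N1 ≤ s1 ∧ s1 < Q.length ∧ D.wl Q s1 ∧ D.wl Q Q.length ∧
    (∀ t, D.q ≤ t → D.wl Q t → t = s1 ∨ t = Q.length) ∧ D.rho (Q.take s1) = some r ∧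
    y = D.act r (D.ph (Q.drop s1))}

theorem junction1 (h : Ok D) {x y : V} {P Q : List α} (hP : P ∈ P1 D x) (hQ : Q ∈ R1 D y) :
    P ++ Q ∈ U D ∧ ep D (P ++ Q) x = y := by
  obtain ⟨hp, hl⟩ := hP
  obtain ⟨s1, r, a1, a2, a3, a4, a5, a6, a7⟩ := hQ
  have hN := h.ug1 _ _ hl
  rw [List.length_drop] at hN
  have hz := h.hz
  have hqn := h.hqn
  have hLa := h.hqLa
  have hZ : Z2 D.wl D.z (P ++ Q) (P.length + s1) := by
    refine ⟨by omega, by rw [List.length_append]; omega, (h.wr.right (by omega)).2 a3, ?_, ?_⟩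
    · rw [List.length_append]
      exact (h.wr.right (by omega)).2 a4
    · intro t ht hw
      obtain ⟨s, rfl⟩ : ∃ s, t = P.length + s := ⟨t - P.length, by omega⟩
      rw [List.length_append]
      rcases a5 s (by omega) ((h.wr.right (by omega)).1 hw) with h1 | h1 <;> omega
  refine ⟨⟨_, hZ⟩, ?_⟩
  unfold ep
  rw [fst_eq hZ]
  have e1 : (P ++ Q).take D.p0 = P.take D.p0 := List.take_append_of_le_length hp
  have e2 : (P ++ Q).take (P.length + s1) = P ++ Q.take s1 := by
    rw [List.take_append]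
    simp [List.take_of_length_le]
  have e3 : (P ++ Q.take s1).drop D.p0 = P.drop D.p0 ++ Q.take s1 :=
    List.drop_append_of_le_length hp
  have e4 : (P ++ Q).drop (P.length + s1) = Q.drop s1 := by
    rw [List.drop_append]
    simp [List.drop_eq_nil_of_le]
  rw [e1, e2, e3, e4]
  have hlen : D.La ≤ (Q.take s1).length := by
    rw [List.length_take]; omega
  rw [← h.ug2 _ _ _ _ hl a6 hlen, a7]

theorem compl1 (h : Ok D) {X : List α} (hX : X ∈ U D) (hB : X ∉ B D) (x : V) :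
    ∃ p ∈ P1 D x, ∃ q ∈ R1 D (ep D X x), X = p ++ q := by
  obtain ⟨t1, hZ⟩ := hX
  have hz := h.hz
  have hqn := h.hqn
  have hLa := h.hqLa
  have nE : ∀ t, D.z ≤ t + D.N1 → t < D.z + D.N1 → ¬ D.wl X t := fun t a b c =>
    hB ⟨t1, hZ, Or.inl ⟨t, a, b, c⟩⟩
  have nB : ¬ D.BadT (t1 - D.p0) := fun c => hB ⟨t1, hZ, Or.inr c⟩
  have ht1 : D.z + D.N1 ≤ t1 := by
    by_contra hc
    exact nE t1 (by have := hZ.1; omega) (by omega) hZ.2.2.1
  have ht1' := hZ.2.1
  set Y := (X.take t1).drop D.p0 with hY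
  have hYl : Y.length = t1 - D.p0 := by
    rw [hY, List.length_drop, List.length_take]; omega
  obtain ⟨p, q', hpq, hlp, hrq⟩ := h.ug3 Y (by rw [hYl]; omega) (by rw [hYl]; exact nB)
    (D.act x (D.ph (X.take D.p0)) + D.nu2 (X.take D.p0))
  obtain ⟨r, hr⟩ := Option.isSome_iff_exists.1 hrq
  have hpN := h.ug1 _ _ hlp
  have hsum : p.length + q'.length = t1 - D.p0 := by
    rw [← hYl, ← hpq, List.length_append]
  -- X = take p0 ++ (p ++ q') ++ drop t1
  have hXe : X = (X.take D.p0 ++ p) ++ (q' ++ X.drop t1) := by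
    have e1 : X.take t1 = X.take D.p0 ++ Y := by
      rw [hY]
      have : (X.take t1).take D.p0 = X.take D.p0 := by
        rw [List.take_take, min_eq_left (by omega)]
      rw [← this, List.take_append_drop]
    calc X = X.take t1 ++ X.drop t1 := (List.take_append_drop _ _).symm
      _ = (X.take D.p0 ++ p) ++ (q' ++ X.drop t1) := by
        rw [e1, ← hpq]; simp only [List.append_assoc]
  set P := X.take D.p0 ++ p with hPd
  set Q := q' ++ X.drop t1 with hQd
  have hp0l : (X.take D.p0).length = D.p0 := by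
    rw [List.length_take]; omega
  have hPl : P.length = D.p0 + p.length := by
    rw [hPd, List.length_append, hp0l]
  have hPt : P.take D.p0 = X.take D.p0 := by
    rw [hPd, List.take_append_of_le_length hp0l.ge, List.take_of_length_le hp0l.le]
  have hPdr : P.drop D.p0 = p := by
    rw [hPd, List.drop_append_of_le_length hp0l.ge, List.drop_eq_nil_of_le hp0l.le,
      List.nil_append]
  have hP : P ∈ P1 D x := by
    refine ⟨by omega, ?_⟩
    rw [hPt, hPdr]; exact hlp
  have hQl : Q.length = X.length - P.length := by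
    have := congrArg List.length hXe
    rw [List.length_append] at this
    omega
  have hXl : X.length = P.length + Q.length := by
    have := congrArg List.length hXe
    rw [List.length_append] at this
    omega
  have hQtake : Q.take q'.length = q' := by
    rw [hQd, List.take_left]
  have hQdrop : Q.drop q'.length = X.drop t1 := by
    rw [hQd, List.drop_left]
  have hwQ : ∀ s, D.n ≤ s → (D.wl X (P.length + s) ↔ D.wl Q s) := by
    intro s hs
    conv_lhs => rw [hXe]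
    exact h.wr.right hs
  have hQ : Q ∈ R1 D (D.act r (D.ph (Q.drop q'.length))) := by
    refine ⟨q'.length, r, by omega, by omega, ?_, ?_, ?_, ?_, rfl⟩
    · rw [← hwQ _ (by omega)]
      have : P.length + q'.length = t1 := by omega
      rw [this]; exact hZ.2.2.1
    · rw [← hwQ _ (by omega), ← hXl]
      exact hZ.2.2.2.1
    · intro t ht hw
      have hw' := (hwQ t (by omega)).2 hw
      have h1 : D.z ≤ P.length + t := by
        by_contra hc
        exact nE _ (by omega) (by omega) hw'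
      rcases hZ.2.2.2.2 _ h1 hw' with h2 | h2
      · left; omega
      · right; omega
    · rw [hQtake]; exact hr
  obtain ⟨_, hep⟩ := junction1 h hP hQ
  refine ⟨P, hP, Q, ?_, hXe⟩
  have : ep D X x = D.act r (D.ph (Q.drop q'.length)) := by
    rw [← hep]; congr 1
  rw [this]; exact hQ

theorem level1 (h : Ok D) : Level (U D) (B D) (ep D) (P1 D) (R1 D) where
  pne := by
    intro x hx
    have := hx.1
    have := h.hp0
    simp at *
    omega
  sound := by
    intro z hz x y p hp q hq hc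
    obtain ⟨h1, h2⟩ := junction1 h hp hq
    have he : z = p ++ q := by
      rcases hc with hc | hc
      · exact (pcU h.wr).pc _ hz _ h1 hc
      · exact ((pcU h.wr).pc _ h1 _ hz hc).symm
    exact ⟨he, by rw [he]; exact h2⟩
  compl := fun z hz hB x => compl1 h hz hB x


/-- candidate `k` at the right word `Q` is bad -/
def BadAt (D : Dat α S V) (k : ℕ) (Q : List α) : Prop :=
  (∃ t, D.z ≤ D.cc k + t + D.N1 ∧ D.cc k + t < D.z + D.N1 ∧ D.wl Q t) ∨
  (∃ t, D.z ≤ D.cc k + t ∧ D.wl Q t ∧ (∀ t', D.z ≤ D.cc k + t' → D.wl Q t' → t ≤ t') ∧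
    D.BadT (D.cc k + t - D.p0))

def P2 (D : Dat α S V) (x : V) : Language α :=
  {P | ∃ k, k < D.K ∧ P.length = D.cc k ∧ D.lam2 k P = some x}

def R2 (D : Dat α S V) (y : V) : Language α :=
  {Q | ∃ k, k < D.K ∧ BadAt D k Q ∧ (∀ k' < D.K, BadAt D k' Q → k' = k) ∧ ∃ s1 r,
    D.z ≤ D.cc k + s1 ∧ s1 < Q.length ∧ D.wl Q s1 ∧ D.wl Q Q.length ∧
    (∀ t, D.z ≤ D.cc k + t → D.wl Q t → t = s1 ∨ t = Q.length) ∧
    D.rho2 k (Q.take (D.p0 - D.cc k)) = some r ∧
    y = D.act (D.act r (D.ph ((Q.take s1).drop (D.p0 - D.cc k))) +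
      D.nu1 ((Q.take s1).drop (D.p0 - D.cc k))) (D.ph (Q.drop s1))}

/-- a legal right word at the true place `k` closes the zone -/
theorem junction2 (h : Ok D) {x y : V} {P Q : List α} {k : ℕ} (hk : k < D.K)
    (hP : P.length = D.cc k) (hl : D.lam2 k P = some x) {s1 : ℕ} {r : V}
    (a1 : D.z ≤ D.cc k + s1) (a2 : s1 < Q.length) (a3 : D.wl Q s1) (a4 : D.wl Q Q.length)
    (a5 : ∀ t, D.z ≤ D.cc k + t → D.wl Q t → t = s1 ∨ t = Q.length)
    (a6 : D.rho2 k (Q.take (D.p0 - D.cc k)) = some r)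
    (a7 : y = D.act (D.act r (D.ph ((Q.take s1).drop (D.p0 - D.cc k))) +
      D.nu1 ((Q.take s1).drop (D.p0 - D.cc k))) (D.ph (Q.drop s1))) :
    P ++ Q ∈ U D ∧ ep D (P ++ Q) x = y := by
  have hz := h.hz
  have hqn := h.hqn
  have hLa := h.hqLa
  obtain ⟨hc1, hc2⟩ := h.hcc k hk
  have hZ : Z2 D.wl D.z (P ++ Q) (P.length + s1) := by
    refine ⟨by omega, by rw [List.length_append]; omega, (h.wr.right (by omega)).2 a3, ?_, ?_⟩
    · rw [List.length_append]
      exact (h.wr.right (by omega)).2 a4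
    · intro t ht hw
      obtain ⟨s, rfl⟩ : ∃ s, t = P.length + s := ⟨t - P.length, by omega⟩
      rw [List.length_append]
      rcases a5 s (by omega) ((h.wr.right (by omega)).1 hw) with h1 | h1 <;> omega
  refine ⟨⟨_, hZ⟩, ?_⟩
  unfold ep
  rw [fst_eq hZ]
  have hPp : P.length ≤ D.p0 := by omega
  have e1 : (P ++ Q).take D.p0 = P ++ Q.take (D.p0 - D.cc k) := by
    rw [List.take_append, List.take_of_length_le hPp, hP]
  have e2 : (P ++ Q).take (P.length + s1) = P ++ Q.take s1 := by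
    rw [List.take_append]
    simp [List.take_of_length_le]
  have e3 : (P ++ Q.take s1).drop D.p0 = (Q.take s1).drop (D.p0 - D.cc k) := by
    rw [List.drop_append, List.drop_eq_nil_of_le hPp, hP, List.nil_append]
  have e4 : (P ++ Q).drop (P.length + s1) = Q.drop s1 := by
    rw [List.drop_append]
    simp [List.drop_eq_nil_of_le]
  rw [e1, e2, e3, e4, ← h.ex1 k hk _ _ _ _ hP hl a6, a7]

/-- the true candidate is seen bad by every right word that closes a zone near -/
theorem badAt_true (h : Ok D) {X P Q : List α} {k : ℕ} (hk : k < D.K) (hP : P.length = D.cc k)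
    (hX : X ∈ B D) (hc : X <+: P ++ Q ∨ P ++ Q <+: X)
    (hQ : ∃ s, D.z ≤ s + D.p0 ∧ s < Q.length ∧ D.wl Q s ∧ D.wl Q Q.length) : BadAt D k Q := by
  have hz := h.hz
  have hqn := h.hqn
  have hLa := h.hqLa
  have hW := h.hW
  obtain ⟨hc1, hc2⟩ := h.hcc k hk
  obtain ⟨t1, hZ, hbad⟩ := hX
  obtain ⟨s, b1, b2, b3, b4⟩ := hQ
  have hg := h.wr.gap b3 b4 b2
  -- walls of `X` and of `P ++ Q` agree up to the end of the shorter word
  have hagree : ∀ t, t ≤ X.length → t ≤ P.length + Q.length → (D.wl X t ↔ D.wl (P ++ Q) t) := by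
    intro t h1 h2
    rcases hc with ⟨R, hR⟩ | ⟨R, hR⟩
    · rw [← hR]
      exact (h.wr.left h1).symm
    · rw [← hR]
      exact h.wr.left (by rw [List.length_append]; exact h2)
  have hwQ : ∀ t, t ≤ X.length → D.cc k + D.n ≤ t → t ≤ P.length + Q.length →
      (D.wl X t ↔ D.wl Q (t - D.cc k)) := by
    intro t h1 h2 h3
    rw [hagree t h1 h3]
    have : t = P.length + (t - D.cc k) := by omega
    conv_lhs => rw [this]
    exact h.wr.right (by omega)
  have hlenXQ : X.length ≤ P.length + Q.length ∨ P.length + Q.length ≤ X.length := by omega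
  have ht1 : t1 ≤ P.length + Q.length := by
    by_contra hcon
    push Not at hcon
    -- then `P ++ Q <+: X` and its end is a wall of `X`
    have h1 : P.length + Q.length ≤ X.length := by have := hZ.2.1; omega
    have h2 : D.wl X (P.length + Q.length) := by
      rw [hagree _ h1 le_rfl]
      exact (h.wr.right (by omega)).2 b4
    rcases hZ.2.2.2.2 _ (by omega) h2 with h3 | h3
    · omega
    · have := hZ.2.1; omega
  have ht1X := hZ.2.1
  rcases hbad with ⟨t, c1, c2, c3⟩ | hbT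
  · left
    refine ⟨t - D.cc k, by omega, by omega, ?_⟩
    exact (hwQ t (h.wr.le c3) (by omega) (by omega)).1 c3
  · right
    have hz1 := hZ.1
    refine ⟨t1 - D.cc k, by omega, (hwQ t1 ht1X.le (by omega) ht1).1 hZ.2.2.1, ?_, ?_⟩
    · intro t' d1 d2
      by_contra hcon
      push Not at hcon
      have d3 : D.wl X (D.cc k + t') := by
        rw [hwQ _ (by omega) (by omega) (by omega)]
        have : D.cc k + t' - D.cc k = t' := by omega
        rw [this]; exact d2
      rcases hZ.2.2.2.2 _ d1 d3 with h3 | h3 <;> omega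
    · have : D.cc k + (t1 - D.cc k) - D.p0 = t1 - D.p0 := by omega
      rw [this]; exact hbT

theorem sound2 (h : Ok D) : ∀ X ∈ B D, ∀ x y, ∀ P ∈ P2 D x, ∀ Q ∈ R2 D y,
    (X <+: P ++ Q ∨ P ++ Q <+: X) → X = P ++ Q ∧ ep D X x = y := by
  rintro X hX x y P ⟨k, hk, hP, hl⟩ Q ⟨k', hk', hbk', huniq, s1, r, a1, a2, a3, a4, a5, a6, a7⟩ hc
  have hb : BadAt D k Q := badAt_true h hk hP hX hc
    ⟨s1, by have := (h.hcc k' hk').2; omega, a2, a3, a4⟩
  have hkk : k = k' := huniq k hk hb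
  subst hkk
  obtain ⟨h1, h2⟩ := junction2 h hk hP hl a1 a2 a3 a4 a5 a6 a7
  have hXU : X ∈ U D := by
    obtain ⟨t1, hZ, _⟩ := hX
    exact ⟨t1, hZ⟩
  have he : X = P ++ Q := by
    rcases hc with hc | hc
    · exact (pcU h.wr).pc _ hXU _ h1 hc
    · exact ((pcU h.wr).pc _ h1 _ hXU hc).symm
  exact ⟨he, by rw [he]; exact h2⟩

theorem wl_drop (h : Ok D) {X : List α} {c t : ℕ} (hc : c ≤ X.length) (ht : D.n ≤ t) :
    D.wl (X.drop c) t ↔ D.wl X (c + t) := by
  have h1 := h.wr.right (P := X.take c) (Q := X.drop c) ht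
  rw [List.take_append_drop, List.length_take, min_eq_left hc] at h1
  exact h1.symm

open Classical in
/-- the spoiled places -/
theorem spoiled_card (h : Ok D) {X : List α} {t1 : ℕ} (hZ : Z2 D.wl D.z X t1) (Sp : Finset ℕ)
    (hSp : ∀ k ∈ Sp, k < D.K ∧ ∃ k' < D.K, k' ≠ k ∧ BadAt D k' (X.drop (D.cc k))) :
    Sp.card ≤ 2 * D.C0 + 1 := by
  have hz := h.hz
  have hqn := h.hqn
  have hLa := h.hqLa
  have hW := h.hW
  have hXl : D.p0 ≤ X.length := by have := hZ.1; have := hZ.2.1; omega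
  have hg : ∀ k, ∃ k', k ∈ Sp → k' < D.K ∧ k' ≠ k ∧ BadAt D k' (X.drop (D.cc k)) := by
    intro k
    by_cases hk : k ∈ Sp
    · obtain ⟨_, k', h1, h2, h3⟩ := hSp k hk
      exact ⟨k', fun _ => ⟨h1, h2, h3⟩⟩
    · exact ⟨0, fun hc => absurd hc hk⟩
  choose g hg using hg
  let w0 := sInf {t | D.z - D.p0 ≤ t ∧ D.wl X t}
  let w1 := sInf {t | w0 < t ∧ D.wl X t}
  let SE := Sp.filter (fun k => ∃ t, D.z ≤ D.cc (g k) + t + D.N1 ∧
    D.cc (g k) + t < D.z + D.N1 ∧ D.wl (X.drop (D.cc k)) t)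
  let SB : ℕ → Finset ℕ := fun w => Sp.filter (fun k => D.BadT (w - D.p0 + D.cc (g k) - D.cc k))
  have hne0 : {t | D.z - D.p0 ≤ t ∧ D.wl X t}.Nonempty := ⟨t1, by
    have := hZ.1
    exact ⟨by omega, hZ.2.2.1⟩⟩
  have hw0 : D.z - D.p0 ≤ w0 ∧ D.wl X w0 := Nat.sInf_mem hne0
  have hcE : SE.card ≤ 1 := by
    rw [Finset.card_le_one]
    intro k hk l hl
    obtain ⟨hkS, t, a1, a2, a3⟩ := Finset.mem_filter.1 hk
    obtain ⟨hlS, s, b1, b2, b3⟩ := Finset.mem_filter.1 hl
    obtain ⟨c1, c2, _⟩ := hg k hkS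
    obtain ⟨d1, d2, _⟩ := hg l hlS
    have hkK := (hSp k hkS).1
    have hlK := (hSp l hlS).1
    have e1 := (h.hcc k hkK).2
    have e2 := (h.hcc l hlK).2
    have e3 := (h.hcc _ c1).2
    have e4 := (h.hcc _ d1).2
    rw [wl_drop h (by omega) (by omega)] at a3 b3
    have hww : D.cc k + t = D.cc l + s := by
      rcases lt_trichotomy (D.cc k + t) (D.cc l + s) with h1 | h1 | h1
      · have := h.wr.gap a3 b3 h1; omega
      · exact h1
      · have := h.wr.gap b3 a3 h1; omega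
    by_contra hne
    have := h.ruler k (g k) l (g l) hkK c1 hlK d1 (Ne.symm c2) (Ne.symm d2)
      (fun hc => hne (by simpa using congrArg Prod.fst hc))
    omega
  have hcB : ∀ w, D.La + D.p0 ≤ w → (SB w).card ≤ D.C0 := by
    intro w hw
    have hinj : Set.InjOn (fun k => (k, g k)) (SB w : Set ℕ) := by
      intro a _ b _ hab
      simpa using congrArg Prod.fst hab
    rw [← Finset.card_image_of_injOn hinj]
    apply h.spoil (w - D.p0) (by omega)
    intro ij hij
    obtain ⟨k, hk, rfl⟩ := Finset.mem_image.1 hij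
    obtain ⟨hkS, hb⟩ := Finset.mem_filter.1 hk
    obtain ⟨c1, c2, _⟩ := hg k hkS
    exact ⟨(hSp k hkS).1, c1, Ne.symm c2, hb⟩
  have hsub : Sp ⊆ SE ∪ (SB w0 ∪ SB w1) := by
    intro k hkS
    obtain ⟨c1, c2, c3⟩ := hg k hkS
    have hkK := (hSp k hkS).1
    have e1 := (h.hcc k hkK).2
    have e3 := (h.hcc _ c1).2
    rcases c3 with c3 | ⟨t, a1, a2, a3, a4⟩
    · exact Finset.mem_union_left _ (Finset.mem_filter.2 ⟨hkS, c3⟩)
    · apply Finset.mem_union_right
      have a2' := a2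
      rw [wl_drop h (by omega) (by omega)] at a2'
      have h1 : w0 ≤ D.cc k + t := Nat.sInf_le ⟨by omega, a2'⟩
      rcases h1.eq_or_lt with h2 | h2
      · apply Finset.mem_union_left
        refine Finset.mem_filter.2 ⟨hkS, ?_⟩
        have : w0 - D.p0 + D.cc (g k) - D.cc k = D.cc (g k) + t - D.p0 := by omega
        rw [this]; exact a4
      · apply Finset.mem_union_right
        have hne1 : {t | w0 < t ∧ D.wl X t}.Nonempty := ⟨_, h2, a2'⟩
        have hw1 : w0 < w1 ∧ D.wl X w1 := Nat.sInf_mem hne1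
        have h3 : w1 ≤ D.cc k + t := Nat.sInf_le ⟨h2, a2'⟩
        have h4 := h.wr.gap hw0.2 hw1.2 hw1.1
        have hw0' := hw0.1
        have h5 : D.wl (X.drop (D.cc k)) (w1 - D.cc k) := by
          rw [wl_drop h (by omega) (by omega)]
          have : D.cc k + (w1 - D.cc k) = w1 := by omega
          rw [this]; exact hw1.2
        have h6 := a3 (w1 - D.cc k) (by omega) h5
        have h7 : w1 = D.cc k + t := by omega
        refine Finset.mem_filter.2 ⟨hkS, ?_⟩
        have : w1 - D.p0 + D.cc (g k) - D.cc k = D.cc (g k) + t - D.p0 := by omega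
        rw [this]; exact a4
  have hw0' := hw0.1
  have h1 := Finset.card_le_card hsub
  have h2 := Finset.card_union_le SE (SB w0 ∪ SB w1)
  have h3 := Finset.card_union_le (SB w0) (SB w1)
  have h4 := hcB w0 (by omega)
  have h5 : (SB w1).card ≤ D.C0 := by
    by_cases hne1 : {t | w0 < t ∧ D.wl X t}.Nonempty
    · have hw1 : w0 < w1 ∧ D.wl X w1 := Nat.sInf_mem hne1
      exact hcB w1 (by omega)
    · have hw0t : t1 = w0 ∨ w0 < t1 := by
        have := hZ.1
        have : w0 ≤ t1 := Nat.sInf_le ⟨by omega, hZ.2.2.1⟩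
        omega
      exact absurd ⟨X.length, by have := hZ.2.1; rcases hw0t with h | h <;> (show w0 < X.length) <;> omega,
        hZ.2.2.2.1⟩ hne1
  omega

theorem compl2 (h : Ok D) {X : List α} (hX : X ∈ B D) (x : V) :
    ∃ p ∈ P2 D x, ∃ q ∈ R2 D (ep D X x), X = p ++ q := by
  classical
  have hz := h.hz
  have hqn := h.hqn
  have hLa := h.hqLa
  have hX0 := hX
  obtain ⟨t1, hZ, hbad⟩ := hX
  have hz1 := hZ.1
  have hz2 := hZ.2.1
  have hul : (X.take D.p0).length = D.p0 := by rw [List.length_take]; omega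
  obtain ⟨I, hI, hIk⟩ := h.ex2 (X.take D.p0) x hul
  have : ∃ k ∈ I, ¬ ∃ k' < D.K, k' ≠ k ∧ BadAt D k' (X.drop (D.cc k)) := by
    by_contra hc
    push Not at hc
    have := spoiled_card h hZ I (fun k hk => ⟨(hIk k hk).1, by
      obtain ⟨k', a, b, c⟩ := hc k hk
      exact ⟨k', a, b, c⟩⟩)
    omega
  obtain ⟨k, hkI, hns⟩ := this
  obtain ⟨hk, hl, hr⟩ := hIk k hkI
  obtain ⟨r, hr⟩ := Option.isSome_iff_exists.1 hr
  obtain ⟨hc1, hc2⟩ := h.hcc k hk
  have hPl : (X.take (D.cc k)).length = D.cc k := by rw [List.length_take]; omega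
  have hPQ : X.take (D.cc k) ++ X.drop (D.cc k) = X := List.take_append_drop _ _
  have hl' : D.lam2 k (X.take (D.cc k)) = some x := by
    rwa [List.take_take, min_eq_left hc2] at hl
  have hQl : (X.drop (D.cc k)).length = X.length - D.cc k := List.length_drop
  have w1 : D.wl (X.drop (D.cc k)) (t1 - D.cc k) := by
    rw [wl_drop h (by omega) (by omega)]
    have : D.cc k + (t1 - D.cc k) = t1 := by omega
    rw [this]; exact hZ.2.2.1
  have w2 : D.wl (X.drop (D.cc k)) (X.drop (D.cc k)).length := by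
    rw [wl_drop h (by omega) (by omega)]
    have : D.cc k + (X.drop (D.cc k)).length = X.length := by omega
    rw [this]; exact hZ.2.2.2.1
  have w3 : ∀ t, D.z ≤ D.cc k + t → D.wl (X.drop (D.cc k)) t →
      t = t1 - D.cc k ∨ t = (X.drop (D.cc k)).length := by
    intro t a b
    rw [wl_drop h (by omega) (by omega)] at b
    rcases hZ.2.2.2.2 _ a b with h1 | h1
    · left; omega
    · right; omega
  have hb : BadAt D k (X.drop (D.cc k)) := badAt_true h hk hPl hX0 (Or.inl (by rw [hPQ]))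
    ⟨t1 - D.cc k, by omega, by omega, w1, w2⟩
  have hr' : D.rho2 k ((X.drop (D.cc k)).take (D.p0 - D.cc k)) = some r := by
    rw [← List.drop_take]; exact hr
  have hjun := junction2 h hk hPl hl' (s1 := t1 - D.cc k) (by omega) (by omega) w1 w2 w3 hr' rfl
  refine ⟨_, ⟨k, hk, hPl, hl'⟩, X.drop (D.cc k), ?_, hPQ.symm⟩
  refine ⟨k, hk, hb, ?_, t1 - D.cc k, r, by omega, by omega, w1, w2, w3, hr', ?_⟩
  · intro k' hk' hb'
    by_contra hne
    exact hns ⟨k', hk', hne, hb'⟩
  · rw [← hjun.2, hPQ]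

theorem level2 (h : Ok D) : Level (B D) 0 (ep D) (P2 D) (R2 D) where
  pne := by
    rintro x ⟨k, hk, hl, _⟩
    have := (h.hcc k hk).1
    simp at hl
    omega
  sound := fun X hX x y P hP Q hQ hc => sound2 h X hX x y P hP Q hQ hc
  compl := fun X hX _ x => compl2 h hX x

theorem B_sub : ∀ X ∈ B D, X ∈ U D := by
  rintro X ⟨t1, hZ, _⟩
  exact ⟨t1, hZ⟩

end Crest.Agent.R320.Asm_507
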