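import Crest.Agent.R320.Block_467

/-!
Row 320, P1 of the final plan: two schemes over a prefix code of blocks, the second one only under the
promise that all blocks are bad, give height 3.
-/

set_option autoImplicit false

namespace Crest.Agent.R320.Top5_566

open Crest.RegLang Crest.Agent.R320.Hk_851 Crest.Agent.R320.Blk467

universe u

variable {α : Type u} {k : ℕ}

/-- `Str C` is the star of `C`. -/
theorem Str_eq (C : Language α) : Str C = KStar.kstar C := by
  ext w
  constructor
  · rintro ⟨l, hl, rfl⟩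
    exact Language.mem_kstar.2 ⟨l, rfl, hl⟩
  · intro h
    obtain ⟨l, rfl, hl⟩ := Language.mem_kstar.1 h
    exact ⟨l, hl, rfl⟩

/-- cancellation of products of blocks on the left. -/
theorem Str_cancel {C : Set (List α)} (hC : PCode C) {x y : List α} (hx : x ∈ Str C)
    (hxy : x ++ y ∈ Str C) : y ∈ Str C := by
  obtain ⟨l, hl, rfl⟩ := hx
  obtain ⟨m, hm, e⟩ := hxy
  induction l generalizing m with
  | nil => exact ⟨m, hm, by simpa using e⟩
  | cons X l ih =>
    have hX := hl X (by simp)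
    have hX0 : X ≠ [] := fun h => hC.1 (h ▸ hX)
    cases m with
    | nil =>
      exfalso
      rw [List.flatten_nil, List.flatten_cons, List.append_assoc] at e
      exact hX0 (List.append_eq_nil_iff.1 e.symm).1
    | cons Y m =>
      rw [List.flatten_cons, List.flatten_cons, List.append_assoc] at e
      have hY := hm Y (by simp)
      have hXY : X = Y := by
        rcases List.prefix_or_prefix_of_prefix (l₁ := X) (l₂ := Y) (l₃ := X ++ (l.flatten ++ y))
          (List.prefix_append _ _) (e ▸ List.prefix_append _ _) with h1 | h1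
        · exact hC.2 X hX Y hY h1
        · exact (hC.2 Y hY X hX h1).symm
      subst hXY
      have e' := List.append_cancel_left e
      exact ih (fun Z hZ => hl Z (by simp [hZ])) m (fun Z hZ => hm Z (by simp [hZ])) e'

theorem Lg.str {V : Type*} {C : Set (List α)} {T : V → List α → V} {v v' : V} {w : List α}
    (h : w ∈ Lg C T v v') : w ∈ Str C := by
  obtain ⟨l, h1, h2, -⟩ := h
  exact ⟨l, h1, h2⟩

/-- the star words of the promise scheme. -/
def K2 {V : Type*} (LP RQ : V → Language α) : Language α :=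
  {x | ∃ u : V, x ∈ RQ u * LP u}

theorem HL_K2 {V : Type*} [Finite V] {LP RQ : V → Language α} (hP : ∀ v, HL k (LP v))
    (hQ : ∀ v, HL k (RQ v)) : HL k (K2 LP RQ) :=
  HL.iUnion (k := k) (ι := V) (L := fun u => RQ u * LP u) (fun u => (hQ u).mul (hP u))

/-- one-block thread words, and the empty word. -/
def E1 {V : Type*} (Bad : Set (List α)) (T : V → List α → V) (v v' : V) : Language α :=
  {x | x ∈ ({x | x = [] ∧ v = v'} : Language α) ∨ x ∈ ({x | x ∈ Bad ∧ T v x = v'} : Language α)}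

theorem E1_Lg {V : Type*} {Bad : Set (List α)} {T : V → List α → V} {v v' : V} {x : List α}
    (h : x ∈ E1 Bad T v v') : x ∈ Lg Bad T v v' := by
  rcases h with ⟨rfl, rfl⟩ | ⟨h, rfl⟩
  · exact Lg.nil _ _ _
  · exact Lg.single h v

theorem HL_E1 {V : Type*} {Bad : Set (List α)} {T : V → List α → V}
    (hT : ∀ v v', HL k ({x | x ∈ Bad ∧ T v x = v'} : Language α)) (v v' : V) :
    HL k (E1 Bad T v v') := by
  have h1 : HL k ({x | x = [] ∧ v = v'} : Language α) := by
    by_cases h : v = v'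
    · refine (HL.one (k := k)).congr fun w => ?_
      constructor
      · rintro ⟨h', _⟩; exact h'
      · intro h'; exact ⟨h', h⟩
    · refine (HL.zero (k := k)).congr fun w => ?_
      constructor
      · rintro ⟨_, h'⟩; exact absurd h' h
      · intro h'; exact absurd h' (Language.notMem_zero w)
  exact (h1.add (hT v v')).congr fun w => Iff.rfl

/-- **promise scheme**: every two consecutive bad blocks are cut; soundness only inside products of
bad blocks. -/
theorem promise_step {V : Type*} [Finite V] (Bad : Set (List α)) (hC : PCode Bad)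
    (T : V → List α → V) (LP RQ : V → Language α)
    (s2 : ∀ v v' P Q R, P ∈ LP v → Q ∈ RQ v' → P ++ Q ++ R ∈ Str Bad → P ++ Q ∈ Lg Bad T v v')
    (c2 : ∀ X ∈ Bad, ∀ X' ∈ Bad, ∀ v, ∃ P Q, P ++ Q = X ++ X' ∧ P ∈ LP v ∧ Q ∈ RQ (T (T v X) X'))
    (hBad : HL k (Bad : Language α))
    (hT : ∀ v v', HL k ({x | x ∈ Bad ∧ T v x = v'} : Language α))
    (hP : ∀ v, HL k (LP v)) (hQ : ∀ v, HL k (RQ v)) (v v' : V) :
    HL (k + 1) (Lg Bad T v v') := by
  classical
  have hStr : HL (k + 1) (Str Bad) := by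
    have h := HL.star hBad
    refine h.congr fun w => ?_
    exact Set.ext_iff.1 (Str_eq Bad) w
  have hK : HL (k + 1) (KStar.kstar (K2 LP RQ)) := (HL_K2 hP hQ).star
  have hE : HL (k + 1) ({x | ∃ u : V, x ∈ RQ u * E1 Bad T u v'} : Language α) :=
    HL.mono (Nat.le_succ k) (HL.iUnion (k := k) (ι := V) (L := fun u => RQ u * E1 Bad T u v')
      (fun u => (hQ u).mul (HL_E1 hT u v')))
  have key := hStr.inf ((HL.mono (Nat.le_succ k) (HL_E1 hT v v')).add
    (((HL.mono (Nat.le_succ k) (hP v)).mul hK).mul hE))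
  refine key.congr fun w => ?_
  constructor
  · -- completeness
    rintro ⟨l, hl, rfl, hf⟩
    refine ⟨⟨l, hl, rfl⟩, ?_⟩
    have main : ∀ (n : ℕ) (l : List (List α)) (v : V), l.length ≤ n → (∀ X ∈ l, X ∈ Bad) →
        l.foldl T v = v' → l.flatten ∈ E1 Bad T v v' ∨
        ∃ P ∈ LP v, ∃ ks : List (List α), (∀ x ∈ ks, x ∈ K2 LP RQ) ∧
          ∃ u : V, ∃ Q ∈ RQ u, ∃ E ∈ E1 Bad T u v', P ++ ks.flatten ++ (Q ++ E) = l.flatten := by
      intro n
      induction n with
      | zero =>
        intro l v hn _ h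
        have : l = [] := List.length_eq_zero_iff.1 (by omega)
        subst this
        exact Or.inl (Or.inl ⟨rfl, h⟩)
      | succ n ih =>
        intro l v hn hl h
        match l, hn, hl, h with
        | [], _, _, h => exact Or.inl (Or.inl ⟨rfl, h⟩)
        | [X], _, hl, h =>
          refine Or.inl (Or.inr ?_)
          refine ⟨?_, ?_⟩
          · simpa using hl X (by simp)
          · simpa using h
        | X :: X' :: l, hn, hl, h =>
          obtain ⟨P, Q, e, hP', hQ'⟩ := c2 X (hl X (by simp)) X' (hl X' (by simp)) v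
          have h' : l.foldl T (T (T v X) X') = v' := h
          have hfl : (X :: X' :: l).flatten = (P ++ Q) ++ l.flatten := by
            rw [List.flatten_cons, List.flatten_cons, ← List.append_assoc, e]
          right
          rcases ih l (T (T v X) X') (by simp only [List.length_cons] at hn; omega)
            (fun Z hZ => hl Z (by simp [hZ])) h' with h1 | ⟨P1, hP1, ks, hks, u, Q1, hQ1, E, hE', e1⟩
          · exact ⟨P, hP', [], by simp, _, Q, hQ', l.flatten, h1, by rw [hfl]; simp⟩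
          · refine ⟨P, hP', (Q ++ P1) :: ks, ?_, u, Q1, hQ1, E, hE', ?_⟩
            · intro x hx
              rcases List.mem_cons.1 hx with rfl | hx
              · exact ⟨_, Language.mem_mul.2 ⟨Q, hQ', P1, hP1, rfl⟩⟩
              · exact hks x hx
            · rw [hfl, ← e1, List.flatten_cons]
              simp [List.append_assoc]
    rcases main l.length l v le_rfl hl hf with h | ⟨P, hP', ks, hks, u, Q, hQ', E, hE', e⟩
    · exact Or.inl h
    · exact Or.inr (mem_mul3.2 ⟨P, hP', ks.flatten, Language.mem_kstar.2 ⟨ks, rfl, hks⟩, Q ++ E,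
        ⟨u, Language.mem_mul.2 ⟨Q, hQ', E, hE', rfl⟩⟩, e⟩)
  · -- soundness
    rintro ⟨hw, h | h⟩
    · exact E1_Lg h
    · obtain ⟨P, hP', y, hy, z, hz, rfl⟩ := mem_mul3.1 h
      obtain ⟨ks, rfl, hks⟩ := Language.mem_kstar.1 hy
      obtain ⟨u, hu⟩ := hz
      obtain ⟨Q, hQ', E, hE', rfl⟩ := Language.mem_mul.1 hu
      clear key hE hK hStr hu hy h
      induction ks generalizing v P with
      | nil =>
        have h1 : P ++ Q ++ E ∈ Str Bad := by
          have e0 : P ++ ([] : List (List α)).flatten ++ (Q ++ E) = P ++ Q ++ E := by simp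
          rw [← e0]; exact hw
        have h2 := s2 v u P Q E hP' hQ' h1
        have h3 := Lg.append h2 (E1_Lg hE')
        simpa [List.append_assoc] using h3
      | cons y ks ih =>
        obtain ⟨u1, hy⟩ := hks y (by simp)
        obtain ⟨Q1, hQ1, P1, hP1, rfl⟩ := Language.mem_mul.1 hy
        have e : P ++ ((Q1 ++ P1) :: ks).flatten ++ (Q ++ E)
            = (P ++ Q1) ++ (P1 ++ ks.flatten ++ (Q ++ E)) := by
          rw [List.flatten_cons]; simp [List.append_assoc]
        have hw' : (P ++ Q1) ++ (P1 ++ ks.flatten ++ (Q ++ E)) ∈ Str Bad := by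
          have : P ++ ((Q1 ++ P1) :: ks).flatten ++ (Q ++ E) ∈ Str Bad := hw
          rwa [e] at this
        have h2 := s2 v u1 P Q1 _ hP' hQ1 hw'
        have h3 := Str_cancel hC (Lg.str h2) hw'
        have h4 := ih u1 P1 hP1 (fun z hz => hks z (by simp [hz])) h3
        rw [e]
        exact Lg.append h2 h4

/-- **TOP** of row 320: scheme 1 on all blocks, scheme 2 on products of bad blocks. -/
theorem top5 {S V : Type*} [Monoid S] [Finite S] [AddCommGroup V] [Finite V] (act : V → S → V)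
    (hadd : ∀ a b s, act (a + b) s = act a s + act b s)
    (hone : ∀ v, act v 1 = v) (hmul : ∀ v s t, act v (s * t) = act (act v s) t)
    (hfaith : ∀ s t, (∀ v, act v s = act v t) → s = t)
    (φ : α → S) (nu : List α → V) (T : V → List α → V)
    (hT0 : ∀ v X, T v X = act v (X.map φ).prod + nu X)
    (C : Set (List α)) (hC : PCode C) (Bad : Set (List α)) (hBC : Bad ⊆ C)
    (LP1 RQ1 LP2 RQ2 : V → Language α)
    (s1 : ∀ v v' P Q, P ∈ LP1 v → Q ∈ RQ1 v' → P ++ Q ∈ C ∧ T v (P ++ Q) = v')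
    (c1 : ∀ X ∈ C, X ∉ Bad → ∀ v, ∃ P Q, P ++ Q = X ∧ P ∈ LP1 v ∧ Q ∈ RQ1 (T v X))
    (s2 : ∀ v v' P Q R, P ∈ LP2 v → Q ∈ RQ2 v' → P ++ Q ++ R ∈ Str Bad → P ++ Q ∈ Lg Bad T v v')
    (c2 : ∀ X ∈ Bad, ∀ X' ∈ Bad, ∀ v,
      ∃ P Q, P ++ Q = X ++ X' ∧ P ∈ LP2 v ∧ Q ∈ RQ2 (T (T v X) X'))
    (hBad : HL 1 (Bad : Language α))
    (hT : ∀ v v', HL 1 ({x | x ∈ Bad ∧ T v x = v'} : Language α))
    (hLP1 : ∀ v, HL 2 (LP1 v)) (hRQ1 : ∀ v, HL 2 (RQ1 v))
    (hLP2 : ∀ v, HL 1 (LP2 v)) (hRQ2 : ∀ v, HL 1 (RQ2 v))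
    (hrest : ∀ s, HL 3 ({w | (∀ X ∈ C, ¬ X <+: w) ∧ (w.map φ).prod = s} : Language α)) (s : S) :
    HL 3 ({w | (w.map φ).prod = s} : Language α) := by
  have hTe : T = fun v X => act v (X.map φ).prod + nu X := by
    funext v X; exact hT0 v X
  have h2 : ∀ v v', HL 2 (Lg Bad T v v') :=
    promise_step Bad (hC.mono hBC) T LP2 RQ2 s2 c2 hBad hT hLP2 hRQ2
  have h3 : ∀ v v', HL 3 (Lg C T v v') := by
    refine star_step C Bad T LP1 RQ1 hBC ?_ c1 h2 hLP1 hRQ1
    intro v v' P Q hP hQ
    obtain ⟨h1, h4⟩ := s1 v v' P Q hP hQ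
    have := Lg.single (T := T) h1 v
    rwa [h4] at this
  have hfib : ∀ s, HL 3 ({w | w ∈ Str C ∧ (w.map φ).prod = s} : Language α) := by
    intro s
    refine fibre_of_threads act hadd hone hmul hfaith φ nu C hC.uparse ?_ s
    intro v v'
    have := h3 v v'
    rwa [hTe] at this
  let A : S → Language α := fun a => {w | w ∈ Str C ∧ (w.map φ).prod = a}
  let B : S → Language α := fun b => {w | (∀ X ∈ C, ¬ X <+: w) ∧ (w.map φ).prod = b}
  refine (HL.biUnion (k := 3) (Set.toFinite {p : S × S | p.1 * p.2 = s})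
    (L := fun p => A p.1 * B p.2)
    (fun p _ => HL.mul (L := A p.1) (M := B p.2) (hfib p.1) (hrest p.2))).congr fun w => ?_
  constructor
  · intro hw
    obtain ⟨M, E, rfl, hM, hE⟩ := exists_parse hC.1 w
    refine ⟨((M.map φ).prod, (E.map φ).prod), ?_, ?_⟩
    · have hw' : ((M ++ E).map φ).prod = s := hw
      rw [List.map_append, List.prod_append] at hw'
      exact hw'
    · exact Language.mem_mul.2 ⟨M, ⟨hM, rfl⟩, E, ⟨hE, rfl⟩, rfl⟩
  · rintro ⟨p, hp, hw⟩
    obtain ⟨M, ⟨_, hM⟩, E, ⟨_, hE⟩, rfl⟩ := Language.mem_mul.1 hw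
    change ((M ++ E).map φ).prod = s
    rw [List.map_append, List.prod_append, hM, hE]
    exact hp

end Crest.Agent.R320.Top5_566
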