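import Crest.Agent.R320.Wd_515
import Crest.Agent.R320.P4_933
import Crest.Agent.R320.Top5_566

/-!
# Row 320: assembly on all words (helper515)
-/

set_option autoImplicit false

namespace Crest.Agent.R320.Asm_515

open Crest.RegLang Crest.Agent.R320.Hk_851 Crest.Agent.R320.FewWalls_228 Crest.Agent.R320.Wd_515
open Crest.Agent.R320.Blk467

universe u

variable {α : Type u}

/-- language of a predicate -/
def LG (p : List α → Prop) : Language α := {w | p w}

open Classical in
theorem nw_le {n z : ℕ} {Sw : Set (List α)} {w : List α}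
    (h : ∀ t ≤ w.length, Wo n Sw (w.take t) → t < z ∨ t = w.length) : nw n Sw w ≤ z + 1 := by
  unfold nw
  have hsub : ((Finset.range (w.length + 1)).filter (fun x => Wl n Sw w x)) ⊆
      insert (w.length - n) (Finset.range z) := by
    intro x hx
    rw [Finset.mem_filter] at hx
    have hW := hx.2
    have h1 := h (x + n) hW.1 ((Wo_take hW.1).2 ⟨by omega, by rwa [Nat.add_sub_cancel]⟩)
    rw [Finset.mem_insert, Finset.mem_range]
    rcases h1 with h1 | h1
    · right; omega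
    · left; omega
  calc _ ≤ _ := Finset.card_le_card hsub
    _ ≤ _ := Finset.card_insert_le _ _
    _ = z + 1 := by rw [Finset.card_range]

/-- everything about walls, blocks and heights -/
structure Ctx (α : Type u) (n z M0 : ℕ) (Sw : Set (List α)) {S : Type u} [Monoid S] (φ : α → S) :
    Prop where
  hM0 : 0 < M0
  few : ∀ (L : Language α), L.IsRegular → ∀ r, HL 1 ({w | w ∈ L ∧ nw n Sw w ≤ r} : Language α)

variable {n z M0 : ℕ} {Sw : Set (List α)} {S : Type u} [Monoid S] {φ : α → S}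

theorem loc (P Q : List α) (h : n ≤ Q.length) : Wo n Sw (P ++ Q) ↔ Wo n Sw Q := Wo_append P Q h

theorem len (P : List α) (h : Wo n Sw P) : n ≤ P.length := h.1

theorem XO_eq {o : ℕ} (ho : o ≤ z) : XO (Wo n Sw) z o = {X | P4_933.XX (Wo n Sw) (z - o) X} := by
  ext X
  unfold XO P4_933.XX
  simp only [Set.mem_setOf_eq]
  constructor
  · rintro ⟨h1, h2, h3⟩
    exact ⟨h1, by omega, fun t ht hz => h3 t ht (by omega)⟩
  · rintro ⟨h1, h2, h3⟩
    exact ⟨h1, by omega, fun t ht hz => h3 t ht (by omega)⟩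

variable [Finite α] [Finite S]

theorem hl_XO {k o : ℕ} (ho : o ≤ z) : HL k (XO (Wo n Sw) z o : Language α) := by
  rw [XO_eq ho]
  exact P4_933.hl_XX0 (n := n) loc len

theorem hl_base (C : Ctx α n z M0 Sw φ) {o : ℕ} (ho : o ≤ z) (g : List α → Prop)
    (hg : ∀ Y Y' : List α, z ≤ o + Y.length → z ≤ o + Y'.length → Y.length % M0 = Y'.length % M0 →
      (Y.map φ).prod = (Y'.map φ).prod → (g Y ↔ g Y')) :
    HL 1 ({Y | Y ∈ XO (Wo n Sw) z o ∧ g Y} : Language α) := by
  have hreg := P4_933.regular_of_class φ (z - o) M0 C.hM0 g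
    (fun u u' h1 h2 _ h4 h5 => hg u u' (by omega) (by omega) h4 h5)
  have h1 := (hl_XO (k := 1) (n := n) (Sw := Sw) ho).inf (C.few _ hreg (z + 1))
  refine h1.congr fun w => ?_
  constructor
  · rintro ⟨h2, h3⟩
    refine ⟨h2, h3, nw_le fun t ht hW => ?_⟩
    by_contra hcon
    rw [not_or] at hcon
    exact h2.2.2 t (by omega) (by omega) hW
  · rintro ⟨h2, h3, _⟩
    exact ⟨h2, h3⟩

theorem hl_cls (C : Ctx α n z M0 Sw φ) {o A : ℕ} (ho : o + A + n ≤ z) (g : List α → Prop)
    (hg : ∀ Y Y' : List α, z ≤ o + Y.length → z ≤ o + Y'.length → Y.length % M0 = Y'.length % M0 →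
      Y.take A = Y'.take A →
      ((Y.drop A).map φ).prod = ((Y'.drop A).map φ).prod → (g Y ↔ g Y')) :
    HL 1 ({Y | Y ∈ XO (Wo n Sw) z o ∧ g Y} : Language α) := by
  have hb : ∀ U : List α, U.length = A →
      HL 1 ({Y | Y ∈ XO (Wo n Sw) z (o + A) ∧ g (U ++ Y)} : Language α) := by
    intro U hU
    refine hl_base C (by omega) _ fun Y Y' h1 h2 h3 h4 => ?_
    refine hg _ _ (by rw [List.length_append]; omega) (by rw [List.length_append]; omega) ?_ ?_ ?_
    · rw [List.length_append, List.length_append, Nat.add_mod, h3, ← Nat.add_mod]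
    · rw [← hU]; simp
    · rw [← hU]; simpa using h4
  have h1 := HL.biUnion (k := 1) (List.finite_length_eq α A)
    (L := fun U => ({U} : Language α) * LG (fun Y => Y ∈ XO (Wo n Sw) z (o + A) ∧ g (U ++ Y)))
    (fun U hU => (HL.word U).mul (hb U hU))
  refine h1.congr fun w => ?_
  constructor
  · rintro ⟨hw, hgw⟩
    have hl : A ≤ w.length := by have := hw.2.1; omega
    have hlen : (w.take A).length = A := by rw [List.length_take]; omega
    refine ⟨w.take A, hlen, Language.mem_mul.2 ⟨w.take A, rfl, w.drop A, ⟨?_, ?_⟩,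
      List.take_append_drop A w⟩⟩
    · have := (XO_append (W := Wo n Sw) (z := z) (n := n) loc (o := o) (P := w.take A)
        (Q := w.drop A) (by rw [hlen]; omega)).1 (by rwa [List.take_append_drop])
      rwa [hlen] at this
    · rwa [List.take_append_drop]
  · rintro ⟨U, hU, hw⟩
    obtain ⟨U', hU', Y, ⟨hY, hgY⟩, rfl⟩ := Language.mem_mul.1 hw
    have hUU : U' = U := hU'
    subst hUU
    have hU2 : U'.length = A := hU
    refine ⟨?_, hgY⟩
    exact (XO_append (W := Wo n Sw) (z := z) (n := n) loc (o := o) (P := U') (Q := Y)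
      (by rw [hU2]; omega)).2 (by rwa [hU2])

theorem hl_E {k : ℕ} (p : ℕ → Prop) (Bn : ℕ) (hp : ∀ t, p t → t ≤ Bn) :
    HL k ({X | ∃ t ≤ X.length, Wo n Sw (X.take t) ∧ p t} : Language α) := by
  have hfin : ({U : List α | Wo n Sw U ∧ p U.length}).Finite :=
    (List.finite_length_le α Bn).subset fun U hU => hp _ hU.2
  have h1 := (HL.finite (k := k) hfin).mul (HL.top (α := α) (k := k))
  refine h1.congr fun w => ?_
  constructor
  · rintro ⟨t, ht, hW, hpt⟩
    refine Language.mem_mul.2 ⟨w.take t, ⟨hW, ?_⟩, w.drop t, trivial, List.take_append_drop t w⟩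
    rw [List.length_take, Nat.min_eq_left ht]
    exact hpt
  · intro hw
    obtain ⟨U, ⟨hW, hpU⟩, Y, _, rfl⟩ := Language.mem_mul.1 hw
    exact ⟨U.length, by simp, by simpa using hW, hpU⟩

theorem hl_BO (C : Ctx α n z M0 Sw φ) {o N1 p0 : ℕ} {Bd : ℕ → Prop} (ho : o ≤ p0) (hz : p0 + n ≤ z)
    (La : ℕ) (hLa : p0 + La ≤ z)
    (hBd : ∀ T T', La ≤ T → La ≤ T' → T % M0 = T' % M0 → (Bd T ↔ Bd T')) :
    HL 1 ({X | X ∈ XO (Wo n Sw) z o ∧ BO (Wo n Sw) z N1 p0 Bd o X} : Language α) := by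
  have h1 := (hl_XO (k := 1) (n := n) (Sw := Sw) (z := z) (o := o) (by omega)).inf
    (hl_E (k := 1) (n := n) (Sw := Sw) (fun t => z ≤ o + t + N1 ∧ o + t < z + N1) (z + N1)
      (fun t h => by omega))
  have h2 := hl_base C (o := o) (by omega) (fun X => Bd (o + X.length - p0))
    (fun Y Y' h1 h2 h3 _ => by
      refine hBd _ _ (by omega) (by omega) ?_
      obtain ⟨a, ha⟩ : ∃ a, o + Y.length = a + p0 := ⟨o + Y.length - p0, by omega⟩
      obtain ⟨b, hb⟩ : ∃ b, o + Y'.length = b + p0 := ⟨o + Y'.length - p0, by omega⟩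
      have h4 : (o + Y.length) % M0 = (o + Y'.length) % M0 := by
        rw [Nat.add_mod, h3, ← Nat.add_mod]
      rw [ha, hb, Nat.add_sub_cancel, Nat.add_sub_cancel]
      rw [ha, hb] at h4
      exact Nat.ModEq.add_right_cancel' p0 h4)
  refine (h1.sup h2).congr fun w => ?_
  unfold BO
  constructor
  · rintro ⟨hw, h | h⟩
    · obtain ⟨t, a, b, c, d⟩ := h
      exact Or.inl ⟨hw, t, a, b, c, d⟩
    · exact Or.inr ⟨hw, h⟩
  · rintro (⟨hw, t, a, b, c, d⟩ | ⟨hw, h⟩)
    · exact ⟨hw, Or.inl ⟨t, a, b, c, d⟩⟩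
    · exact ⟨hw, Or.inr h⟩

theorem hl_rest (C : Ctx α n z M0 Sw φ) (s : S) :
    HL 1 ({w | (∀ X ∈ XO (Wo n Sw) z 0, ¬ X <+: w) ∧ (w.map φ).prod = s} : Language α) := by
  have hreg := P4_933.regular_of_class φ 0 M0 C.hM0 (fun w => (w.map φ).prod = s)
    (fun u u' _ _ _ _ h5 => by rw [h5])
  have h1 := ((hl_XO (k := 1) (n := n) (Sw := Sw) (z := z) (o := 0) (Nat.zero_le _)).mul
    HL.top).compl.inf (C.few _ hreg (z + 1))
  refine h1.congr fun w => ?_
  constructor
  · rintro ⟨h2, h3⟩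
    refine ⟨?_, h3, nw_le fun t ht hW => ?_⟩
    · intro hw
      obtain ⟨X, hX, Y, _, rfl⟩ := Language.mem_mul.1 hw
      exact h2 X hX (List.prefix_append _ _)
    · by_contra hcon
      rw [not_or] at hcon
      obtain ⟨t0, _, h⟩ := exists_XO (z := z) (o := 0) ht hW (by omega)
      exact h2 _ h (List.take_prefix _ _)
  · rintro ⟨h2, h3, _⟩
    refine ⟨fun X hX hp => h2 ?_, h3⟩
    obtain ⟨Y, rfl⟩ := hp
    exact Language.mem_mul.2 ⟨X, hX, Y, trivial, rfl⟩

end Crest.Agent.R320.Asm_515
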