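import Crest.Agent.R320.Nest_85

/-!
# Row 320: abstract two-scheme assembly on run-free words (helper518)

`Chn` = chain of anchors (next anchor read from the text right of the current one).
`Sch Bd Cd` = one scheme: zone map `T`, left labels `L`, right labels `R`,
`exact` under `Bd`, `complete` under `Cd`.
`half1` : scheme 1 (`Bd = True`, `Cd = ¬ Bad`) + scheme 2 (`Bd = Bad`, `Cd = Bad`) give height 2
on the promised words.
-/

set_option autoImplicit false

namespace Crest.Agent.R320.Asm_518

open Crest.RegLang Crest.Agent.R320.Hgt1_903 Crest.Agent.R320.Nest_85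

universe u

variable {α : Type u}

/-- the chain of anchors -/
structure Chn (α : Type u) where
  RF : List α → Prop
  rf : ∀ u v w, RF (u ++ v ++ w) → RF v
  nx : List α → Option ℕ
  ext : ∀ Q Q' d, nx Q = some d → nx (Q ++ Q') = some d
  m1 : ℕ
  D : ℕ
  hD : m1 < D
  pos : ∀ Q d, nx Q = some d → m1 < d ∧ d ≤ Q.length
  res : ∀ Q d, nx Q = some d → nx (Q.take (d + m1)) = some d
  some_of : ∀ Q, RF Q → D ≤ Q.length → (nx Q).isSome

namespace Chn

variable (C : Chn α) {V : Type*} (T : List α → V → V)

open Classical in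
/-- the state after reading the text `Q` from an anchor -/
noncomputable def fin (Q : List α) (v : V) : List α × V :=
  if h : ∃ d, C.nx Q = some d then
    fin (Q.drop h.choose) (T Q v)
  else (Q, v)
termination_by Q.length
decreasing_by
  have h1 := C.pos Q _ h.choose_spec
  rw [List.length_drop]
  omega

theorem fin_none {Q : List α} (h : C.nx Q = none) (v : V) : C.fin T Q v = (Q, v) := by
  rw [fin]
  rw [dif_neg]
  rintro ⟨d, hd⟩
  rw [h] at hd
  cases hd

theorem fin_some {Q : List α} {d : ℕ} (h : C.nx Q = some d) (v : V) :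
    C.fin T Q v = C.fin T (Q.drop d) (T Q v) := by
  have hex : ∃ d, C.nx Q = some d := ⟨d, h⟩
  have hd : hex.choose = d := Option.some.inj (hex.choose_spec.symm.trans h)
  rw [fin, dif_pos hex, hd]

/-- induction along the chain -/
theorem ind {motive : List α → Prop} (h0 : ∀ Q, C.nx Q = none → motive Q)
    (h1 : ∀ Q d, C.nx Q = some d → motive (Q.drop d) → motive Q) : ∀ Q, motive Q := by
  intro Q
  induction hn : Q.length using Nat.strong_induction_on generalizing Q with
  | _ n ih =>
    cases h : C.nx Q with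
    | none => exact h0 Q h
    | some d =>
      have hp := C.pos Q d h
      refine h1 Q d h (ih (Q.drop d).length ?_ (Q.drop d) rfl)
      rw [List.length_drop]
      omega

theorem fin_nx (Q : List α) (v : V) : C.nx (C.fin T Q v).1 = none := by
  revert v
  refine C.ind (motive := fun Q => ∀ v, C.nx (C.fin T Q v).1 = none) ?_ ?_ Q
  · intro Q h v
    rw [C.fin_none T h]; exact h
  · intro Q d h ih v
    rw [C.fin_some T h]; exact ih _

/-- `T` only looks at the text which decides the next anchor -/
def TExt : Prop := ∀ Q Q' d, C.nx Q = some d → ∀ v : V, T (Q ++ Q') v = T Q v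

variable {T}

theorem fin_append (hT : C.TExt T) (Q Y : List α) (v : V) :
    C.fin T (Q ++ Y) v = C.fin T ((C.fin T Q v).1 ++ Y) (C.fin T Q v).2 := by
  revert v
  refine C.ind (motive := fun Q => ∀ v, C.fin T (Q ++ Y) v =
    C.fin T ((C.fin T Q v).1 ++ Y) (C.fin T Q v).2) ?_ ?_ Q
  · intro Q h v
    rw [C.fin_none T h]
  · intro Q d h ih v
    have hp := C.pos Q d h
    rw [C.fin_some T (C.ext Q Y d h), hT Q Y d h, C.fin_some T h v,
      List.drop_append_of_le_length hp.2]
    exact ih _

/-- the transition system -/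
noncomputable def step (T : List α → V → V) (q : List α × V) (a : α) : List α × V :=
  C.fin T (q.1 ++ [a]) q.2

theorem run_eq (hT : C.TExt T) {Q : List α} (h : C.nx Q = none) (v : V) (w : List α) :
    run (C.step T) (Q, v) w = C.fin T (Q ++ w) v := by
  induction w using List.reverseRecOn with
  | nil => rw [run_nil, List.append_nil, C.fin_none T h]
  | append_singleton w a ih =>
    rw [run_append, ih]
    change C.step T (C.fin T (Q ++ w) v) a = _
    rw [step, ← List.append_assoc, C.fin_append hT (Q ++ w) [a] v]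

/-- suffixes at the anchors of the chain -/
inductive CS : List α → List α → Prop
  | refl (X : List α) : CS X X
  | step {X Y : List α} {d : ℕ} (h : C.nx X = some d) (h' : CS (X.drop d) Y) : CS X Y

theorem CS.append {X Y : List α} (h : C.CS X Y) (Z : List α) : C.CS (X ++ Z) (Y ++ Z) := by
  induction h with
  | refl X => exact .refl _
  | step h h' ih =>
    refine .step (C.ext _ Z _ h) ?_
    rw [List.drop_append_of_le_length (C.pos _ _ h).2]
    exact ih

theorem CS.trans {X Y Z : List α} (h : C.CS X Y) (h' : C.CS Y Z) : C.CS X Z := by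
  induction h with
  | refl X => exact h'
  | step h _ ih => exact .step h (ih h')

theorem CS.fin (X : List α) (v : V) : C.CS X (C.fin T X v).1 := by
  revert v
  refine C.ind (motive := fun X => ∀ v, C.CS X (C.fin T X v).1) ?_ ?_ X
  · intro Q h v
    rw [C.fin_none T h]; exact .refl _
  · intro Q d h ih v
    rw [C.fin_some T h]; exact .step h (ih _)

theorem CS.suffix {X Y : List α} (h : C.CS X Y) : ∃ Z, Z ++ Y = X := by
  induction h with
  | refl X => exact ⟨[], rfl⟩
  | @step X Y d h _ ih =>
    obtain ⟨Z, hZ⟩ := ih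
    exact ⟨X.take d ++ Z, by rw [List.append_assoc, hZ, List.take_append_drop]⟩

/-- an anchor suffix is reached by `fin` from a prefix of the text -/
theorem CS.reach (hT : C.TExt T) {X Y : List α} (h : C.CS X Y) : ∀ v : V,
    ∃ v' Z, Z ++ Y = X ∧ ∀ P U, P ++ U = Y → C.m1 ≤ P.length →
      C.fin T (Z ++ P) v = C.fin T P v' := by
  induction h with
  | refl X => intro v; exact ⟨v, [], rfl, fun P U _ _ => rfl⟩
  | @step X Y d h _ ih =>
    intro v
    obtain ⟨v', Z, hZ, h2⟩ := ih (T X v)
    refine ⟨v', X.take d ++ Z, by rw [List.append_assoc, hZ, List.take_append_drop], ?_⟩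
    intro P U hPU hm
    have hp := C.pos X d h
    have hX : X = X.take d ++ (Z ++ (P ++ U)) := by
      rw [hPU, hZ, List.take_append_drop]
    have htl : (X.take d).length = d := by rw [List.length_take]; omega
    have e1 : X.take (d + C.m1) = X.take d ++ (Z ++ P).take C.m1 := by
      conv_lhs => rw [hX]
      rw [List.take_append, htl]
      congr 1
      · rw [List.take_of_length_le]; omega
      · rw [show d + C.m1 - d = C.m1 by omega, ← List.append_assoc,
          List.take_append_of_le_length]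
        rw [List.length_append]; omega
    have e2 : X.take d ++ (Z ++ P) = X.take (d + C.m1) ++ (Z ++ P).drop C.m1 := by
      rw [e1, List.append_assoc, List.take_append_drop]
    have e3 : X = X.take (d + C.m1) ++ X.drop (d + C.m1) := (List.take_append_drop _ _).symm
    have h3 := C.res X d h
    have e4 : C.nx (X.take d ++ (Z ++ P)) = some d := by
      rw [e2]; exact C.ext _ _ _ h3
    have e5 : T (X.take d ++ (Z ++ P)) v = T X v := by
      rw [e2, hT _ _ d h3]
      conv_rhs => rw [e3]
      rw [hT _ _ d h3]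
    rw [List.append_assoc, C.fin_some T e4, e5]
    have e6 : (X.take d ++ (Z ++ P)).drop d = Z ++ P := by
      rw [List.drop_append, List.drop_eq_nil_of_le (by omega), htl, Nat.sub_self]; rfl
    rw [e6]
    exact h2 P U hPU hm

end Chn

/-- one scheme -/
structure Sch (C : Chn α) (V : Type*) (T : List α → V → V) (Bd Cd : List α → Prop) where
  L : List α → Option V
  R : List α → Option (ℕ × V)
  L_len : ∀ P v, L P = some v → C.m1 ≤ P.length
  L_nx : ∀ P v, L P = some v → C.nx P = none
  R_len : ∀ s b r, R s = some (b, r) → s.length = C.D → b ≤ C.D ∧ C.D ≤ b + C.m1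
  exact : ∀ P s v b r, C.RF (P ++ s) → Bd (P ++ s) → L P = some v → s.length = C.D →
    R s = some (b, r) → C.nx (P ++ s) = some (P.length + b) ∧ T (P ++ s) v = r
  M : ℕ
  hM : C.D ≤ M
  complete : ∀ Q, C.RF Q → Q.length = M → Cd Q → ∀ v, ∃ P s U, Q = P ++ s ++ U ∧
    s.length = C.D ∧ L P = some v ∧ (R s).isSome

namespace Sch

variable {C : Chn α} {V : Type*} {T : List α → V → V} {Bd Cd : List α → Prop}

/-- the level of a scheme -/
noncomputable def lev (A : Sch C V T Bd Cd) (dflt : V) : Level α (List α × V) where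
  Lg q := A.L q.1 = some q.2
  R := {s | s.length = C.D ∧ (A.R s).isSome}
  c s := match A.R s with
    | some (b, r) => (s.drop b, r)
    | none => ([], dflt)

/-- start states -/
def St (C : Chn α) (V : Type*) (q : List α × V) : Prop := q.1.length ≤ C.m1

theorem nx_none_of_le {Q : List α} (h : Q.length ≤ C.m1) : C.nx Q = none := by
  cases hn : C.nx Q with
  | none => rfl
  | some d =>
    have := C.pos Q d hn
    omega

/-- the promise -/
def Prm (V : Type*) (G : List α → Prop) (q : List α × V) (w : List α) : Prop := G (q.1 ++ w)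

/-- good classes: prefix closed, closed under passing to anchor suffixes -/
structure Good (C : Chn α) (G : List α → Prop) : Prop where
  rf : ∀ X, G X → C.RF X
  pre : ∀ X Y, G (X ++ Y) → G X
  suf : ∀ X d, C.nx X = some d → G X → G (X.drop d)

theorem Good.cs {G : List α → Prop} (hG : Good C G) {X Y : List α} (h : C.CS X Y) (hX : G X) :
    G Y := by
  induction h with
  | refl X => exact hX
  | step h _ ih => exact ih (hG.suf _ _ h hX)

theorem ok (A : Sch C V T Bd Cd) (dflt : V) [Finite α] (hT : C.TExt T) {G : List α → Prop}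
    (hG : Good C G) (hB : ∀ X, G X → C.D ≤ X.length → Bd X) :
    (A.lev dflt).Ok (C.step T) (St C V) (Prm V G) where
  fin := (List.finite_length_eq α C.D).subset fun s hs => hs.1
  ne := by
    rintro s ⟨hs, -⟩ rfl
    have := C.hD
    simp at hs
    omega
  st := by
    rintro s ⟨hs, hR⟩
    obtain ⟨⟨b, r⟩, hbr⟩ := Option.isSome_iff_exists.1 hR
    have h1 := A.R_len s b r hbr hs
    have h2 : (A.lev dflt).c s = (s.drop b, r) := by
      simp only [lev, hbr]
    rw [h2, St, List.length_drop]
    omega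
  closed := by
    rintro ⟨P0, v0⟩ hq p s u hw ⟨hs, hR⟩ hl
    have hq' : P0.length ≤ C.m1 := hq
    have hn := nx_none_of_le (C := C) hq'
    obtain ⟨⟨b, r⟩, hbr⟩ := Option.isSome_iff_exists.1 hR
    have h2 : (A.lev dflt).c s = (s.drop b, r) := by
      simp only [lev, hbr]
    have h1 := A.R_len s b r hbr hs
    rw [C.run_eq hT hn] at hl ⊢
    set P := (C.fin T (P0 ++ p) v0).1 with hP
    set v := (C.fin T (P0 ++ p) v0).2 with hv
    have hPv : C.fin T (P0 ++ p) v0 = (P, v) := rfl
    have hLP : A.L P = some v := hl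
    have hcs : C.CS (P0 ++ p) P := Chn.CS.fin C _ _
    have hw' : G (P0 ++ p ++ (s ++ u)) := by
      have : P0 ++ p ++ (s ++ u) = P0 ++ (p ++ s ++ u) := by simp
      rw [this]; exact hw
    have hGP : G (P ++ (s ++ u)) := hG.cs (hcs.append C _) hw'
    have hGPs : G (P ++ s) := hG.pre (P ++ s) u (by rw [List.append_assoc]; exact hGP)
    have hBd : Bd (P ++ s) := hB _ hGPs (by rw [List.length_append]; omega)
    obtain ⟨e1, e2⟩ := A.exact P s v b r (hG.rf _ hGPs) hBd hLP hs hbr
    have hdrop : (P ++ s).drop (P.length + b) = s.drop b := by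
      rw [List.drop_append, List.drop_eq_nil_of_le (by omega), List.nil_append]
      congr 1
      omega
    rw [h2]
    constructor
    · have hPn : C.nx P = none := C.fin_nx T _ _
      rw [hPv, C.run_eq hT hPn, C.fin_some T e1, e2, hdrop]
      exact C.fin_none T (nx_none_of_le (by rw [List.length_drop]; omega)) r
    · change G (s.drop b ++ u)
      have h3 := hG.suf _ _ (C.ext _ u _ e1) (by rw [List.append_assoc]; exact hGP)
      rwa [List.drop_append_of_le_length (by rw [List.length_append]; omega), hdrop] at h3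

/-- a complete zone in the text of a start state gives a cut -/
theorem cut (A : Sch C V T Bd Cd) (dflt : V) (hT : C.TExt T) {P0 : List α} {v0 : V}
    (hq : P0.length ≤ C.m1) {w Y : List α} (hY : C.CS (P0 ++ w) Y) (hRF : C.RF (P0 ++ w))
    (hlen : A.M ≤ Y.length) (hCd : Cd (Y.take A.M)) :
    Cut (C.step T) (A.lev dflt) (P0, v0) w := by
  -- value at the anchor
  obtain ⟨v, Z, hZ, hv⟩ := Chn.CS.reach C hT hY v0
  have hRFY : C.RF (Y.take A.M) := by
    apply C.rf Z (Y.take A.M) (Y.drop A.M)
    rw [List.append_assoc, List.take_append_drop, hZ]; exact hRF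
  have hl : (Y.take A.M).length = A.M := by rw [List.length_take]; omega
  obtain ⟨P, s, U, hQ, hs, hL, hR⟩ := A.complete _ hRFY hl hCd v
  have hPm := A.L_len P v hL
  have hYe : P ++ (s ++ (U ++ Y.drop A.M)) = Y := by
    have : P ++ (s ++ (U ++ Y.drop A.M)) = P ++ s ++ U ++ Y.drop A.M := by simp
    rw [this, ← hQ, List.take_append_drop]
  -- the whole text
  have hX : P0 ++ w = Z ++ P ++ (s ++ (U ++ Y.drop A.M)) := by
    rw [← hZ, List.append_assoc, hYe]
  -- the prefix of the text which ends at the cut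
  have hlen2 : P0.length ≤ (Z ++ P).length := by rw [List.length_append]; omega
  have hPre : P0 <+: Z ++ P := by
    have a1 : P0 <+: P0 ++ w := List.prefix_append _ _
    have a2 : Z ++ P <+: P0 ++ w := ⟨s ++ (U ++ Y.drop A.M), hX.symm⟩
    exact List.prefix_of_prefix_length_le a1 a2 hlen2
  obtain ⟨p, hp⟩ := hPre
  have hw : w = p ++ (s ++ (U ++ Y.drop A.M)) := by
    have : P0 ++ w = P0 ++ (p ++ (s ++ (U ++ Y.drop A.M))) := by
      rw [hX, ← hp, List.append_assoc]
    exact List.append_cancel_left this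
  refine ⟨p, s, U ++ Y.drop A.M, by rw [hw, List.append_assoc], ⟨hs, hR⟩, ?_⟩
  -- the state at the cut
  have hrun : run (C.step T) (P0, v0) p = C.fin T (Z ++ P) v0 := by
    rw [C.run_eq hT (nx_none_of_le hq), hp]
  change A.L (run (C.step T) (P0, v0) p).1 = some (run (C.step T) (P0, v0) p).2
  rw [hrun, hv P _ hYe hPm, C.fin_none T (A.L_nx P v hL)]
  exact hL

/-- a scheme whose every zone is complete: height one -/
theorem one (A : Sch C V T Bd Cd) (dflt : V) [Finite α] (hT : C.TExt T) {G : List α → Prop}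
    (hG : Good C G) (hB : ∀ X, G X → C.D ≤ X.length → Bd X) (hC : ∀ X, G X → X.length = A.M → Cd X) :
    ∀ q, St C V q → ∀ T' : List α × V → Prop, ∃ E : Language α, H 1 E ∧
      ∀ w, G (q.1 ++ w) → (w ∈ E ↔ T' (run (C.step T) q w)) := by
  refine nestBounded (C.step T) (St C V) [A.lev dflt] (Prm V G)
    (fun q u v h => hG.pre (q.1 ++ u) v (by rw [List.append_assoc]; exact h)) ?_ (A.M + 1) ?_
  · intro L hL
    rw [List.mem_singleton] at hL
    rw [hL]
    exact A.ok dflt hT hG hB
  · rintro ⟨P0, v0⟩ hq w hw hc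
    by_contra hlt
    have hG' : G (P0 ++ w) := hw
    apply hc (A.lev dflt) (List.mem_singleton_self _)
    have hlen : A.M ≤ (P0 ++ w).length := by rw [List.length_append]; omega
    refine A.cut dflt hT (v0 := v0) hq (.refl _) (hG.rf _ hG') hlen (hC _ ?_ ?_)
    · apply hG.pre _ ((P0 ++ w).drop A.M)
      rw [List.take_append_drop]; exact hG'
    · change ((P0 ++ w).take A.M).length = A.M
      rw [List.length_take]; omega

end Sch

/-- push forward -/
def push {X : Type*} [Fintype X] [DecidableEq X] (t : X → X) (g : X → ZMod 2) : X → ZMod 2 :=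
  fun y => ∑ x, if t x = y then g x else 0

/-- point mass -/
def dl {X : Type*} [DecidableEq X] (x : X) : X → ZMod 2 := fun y => if x = y then 1 else 0

theorem push_add {X : Type*} [Fintype X] [DecidableEq X] (t : X → X) (g h : X → ZMod 2) :
    push t (g + h) = push t g + push t h := by
  funext y
  simp only [push, Pi.add_apply]
  rw [← Finset.sum_add_distrib]
  refine Finset.sum_congr rfl fun x _ => ?_
  split_ifs <;> simp

theorem push_dl {X : Type*} [Fintype X] [DecidableEq X] (t : X → X) (x : X) :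
    push t (dl x) = dl (t x) := by
  funext y
  simp only [push, dl]
  rw [Finset.sum_eq_single x]
  · simp
  · intro b _ hb
    rw [if_neg (Ne.symm hb)]
    simp
  · intro h
    exact absurd (Finset.mem_univ _) h

theorem dl_inj {X : Type*} [DecidableEq X] {x y : X} (h : (dl x : X → ZMod 2) = dl y) : x = y := by
  by_contra hne
  have := congrFun h x
  have h1 : (1 : ZMod 2) = 0 := by
    simpa [dl, Ne.symm hne] using this
  exact one_ne_zero h1

section read

variable (C : Chn α) {X : Type*} [Fintype X] [DecidableEq X]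

theorem fin_fst {V V' : Type*} (T : List α → V → V) (T' : List α → V' → V') (Q : List α) :
    ∀ v v', (C.fin T Q v).1 = (C.fin T' Q v').1 := by
  refine C.ind (motive := fun Q => ∀ v v', (C.fin T Q v).1 = (C.fin T' Q v').1) ?_ ?_ Q
  · intro Q h v v'
    rw [C.fin_none T h, C.fin_none T' h]
  · intro Q d h ih v v'
    rw [C.fin_some T h, C.fin_some T' h]; exact ih _ _

theorem fin_dl (τ : List α → X → X) (T : List α → (X → ZMod 2) → X → ZMod 2)
    (ν : List α → X → ZMod 2)
    (hTτ : ∀ Q d, C.nx Q = some d → ∀ g, T Q g = push (τ Q) g + ν Q) (Q : List α) :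
    ∀ g x, (C.fin T Q (g + dl x)).2 = (C.fin T Q g).2 + dl (C.fin τ Q x).2 := by
  refine C.ind (motive := fun Q => ∀ g x, (C.fin T Q (g + dl x)).2 =
    (C.fin T Q g).2 + dl (C.fin τ Q x).2) ?_ ?_ Q
  · intro Q h g x
    rw [C.fin_none T h, C.fin_none T h, C.fin_none τ h]
  · intro Q d h ih g x
    rw [C.fin_some T h, C.fin_some T h, C.fin_some τ h, hTτ Q d h, push_add, push_dl,
      add_right_comm, ← hTτ Q d h]
    exact ih _ _

theorem readout [Finite α] (τ : List α → X → X) (T : List α → (X → ZMod 2) → X → ZMod 2)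
    (ν : List α → X → ZMod 2)
    (hTτ : ∀ Q d, C.nx Q = some d → ∀ g, T Q g = push (τ Q) g + ν Q)
    (hT : C.TExt T) (hτ : C.TExt τ) {n : ℕ} {G : List α → Prop} (hG : Sch.Good C G)
    (hE : ∀ q, Sch.St C (X → ZMod 2) q → ∀ T' : List α × (X → ZMod 2) → Prop,
      ∃ E : Language α, H n E ∧ ∀ w, G (q.1 ++ w) → (w ∈ E ↔ T' (run (C.step T) q w))) :
    ∀ q, Sch.St C X q → ∀ T' : List α × X → Prop,
      ∃ E : Language α, H n E ∧ ∀ w, G (q.1 ++ w) → (w ∈ E ↔ T' (run (C.step τ) q w)) := by
  rintro ⟨P0, x0⟩ hq T'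
  have hq' : P0.length ≤ C.m1 := hq
  have hE0 := fun T'' => hE (P0, 0) hq T''
  have hE1 := fun T'' => hE (P0, dl x0) hq T''
  choose E0 h0 h0' using hE0
  choose E1 h1 h1' using hE1
  haveI : Finite {P : List α // P.length ≤ C.D} := (List.finite_length_le α C.D).to_subtype
  let f : ({P : List α // P.length ≤ C.D} × (X → ZMod 2) × (X → ZMod 2) × X) → Language α :=
    fun i => {w | (w ∈ ({_w | i.2.2.1 = i.2.1 + dl i.2.2.2 ∧ T' (i.1.1, i.2.2.2)} : Language α)) ∧
      (w ∈ ({w | w ∈ E0 (fun q => q = (i.1.1, i.2.1)) ∧ w ∈ E1 (fun q => q = (i.1.1, i.2.2.1))} :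
        Language α))}
  refine ⟨{w | ∃ i, w ∈ f i}, H.exists_fintype f fun i =>
    H.inter (H.const n _) (H.inter (h0 _) (h1 _)), ?_⟩
  intro w hw
  have hw' : G (P0 ++ w) := hw
  have hn := Sch.nx_none_of_le (C := C) hq'
  rw [C.run_eq hτ hn]
  have r0 : ∀ T'', w ∈ E0 T'' ↔ T'' (C.fin T (P0 ++ w) 0) := fun T'' => by
    rw [h0' T'' w hw, C.run_eq hT hn]
  have r1 : ∀ T'', w ∈ E1 T'' ↔ T'' (C.fin T (P0 ++ w) (dl x0)) := fun T'' => by
    rw [h1' T'' w hw, C.run_eq hT hn]
  have e1 : (C.fin T (P0 ++ w) 0).1 = (C.fin τ (P0 ++ w) x0).1 := fin_fst C T τ _ _ _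
  have e2 : (C.fin T (P0 ++ w) (dl x0)).1 = (C.fin τ (P0 ++ w) x0).1 := fin_fst C T τ _ _ _
  have e3 : (C.fin T (P0 ++ w) (dl x0)).2 =
      (C.fin T (P0 ++ w) 0).2 + dl (C.fin τ (P0 ++ w) x0).2 := by
    have := fin_dl C τ T ν hTτ (P0 ++ w) 0 x0
    rwa [zero_add] at this
  constructor
  · rintro ⟨⟨⟨P, hP⟩, g, g', x⟩, ⟨hg, ht⟩, ha, hb⟩
    have ha' := (r0 _).1 ha
    have hb' := (r1 _).1 hb
    simp only at hg ht ha' hb'
    rw [ha', hb'] at e3
    have hx : x = (C.fin τ (P0 ++ w) x0).2 := by
      apply dl_inj (X := X)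
      apply add_left_cancel (a := g)
      rw [← hg]; exact e3
    have hPe : P = (C.fin τ (P0 ++ w) x0).1 := by rw [← e1, ha']
    rw [hx, hPe] at ht
    exact ht
  · intro ht
    have hcs : C.CS (P0 ++ w) (C.fin τ (P0 ++ w) x0).1 := Chn.CS.fin C _ _
    have hRF := hG.rf _ (hG.cs hcs hw')
    have hle : (C.fin τ (P0 ++ w) x0).1.length ≤ C.D := by
      by_contra hlt
      have h3 := C.some_of _ hRF (by omega)
      rw [C.fin_nx τ] at h3
      cases h3
    refine ⟨(⟨(C.fin τ (P0 ++ w) x0).1, hle⟩, (C.fin T (P0 ++ w) 0).2,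
      (C.fin T (P0 ++ w) (dl x0)).2, (C.fin τ (P0 ++ w) x0).2), ⟨e3, ht⟩, ?_, ?_⟩
    · refine (r0 _).2 ?_
      exact Prod.ext e1 rfl
    · refine (r1 _).2 ?_
      exact Prod.ext e2 rfl

end read

section half

variable (C : Chn α)

/-- all decided zones are bad -/
def G2 (Bad : List α → Prop) (X : List α) : Prop :=
  C.RF X ∧ ∀ Y, C.CS X Y → C.D ≤ Y.length → Bad Y

theorem good_RF : Sch.Good C C.RF where
  rf := fun _ h => h
  pre := fun X Y h => C.rf [] X Y (by simpa using h)
  suf := fun X d _ h => C.rf (X.take d) (X.drop d) [] (by simpa using h)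

theorem good_G2 {Bad : List α → Prop}
    (hB : ∀ Q Y, C.D ≤ Q.length → (Bad (Q ++ Y) ↔ Bad Q)) : Sch.Good C (G2 C Bad) where
  rf := fun _ h => h.1
  pre := fun X Y h => ⟨(good_RF C).pre X Y h.1, fun Z hZ hl =>
    (hB Z Y hl).1 (h.2 (Z ++ Y) (hZ.append C Y) (by rw [List.length_append]; omega))⟩
  suf := fun X d hd h => ⟨(good_RF C).suf X d hd h.1, fun Z hZ hl => h.2 Z (.step hd hZ) hl⟩

/-- product of a word -/
def pr {S : Type*} [Monoid S] (ψ : α → S) (w : List α) : S := (w.map ψ).prod

/-- the zone product as a token map on `S` -/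
def tauS {S : Type*} [Monoid S] (ψ : α → S) (Q : List α) (s : S) : S :=
  match C.nx Q with
  | some d => s * pr ψ (Q.take d)
  | none => s

theorem tauS_ext {S : Type*} [Monoid S] (ψ : α → S) : C.TExt (tauS C ψ) := by
  intro Q Q' d h s
  simp only [tauS, h, C.ext Q Q' d h]
  rw [List.take_append_of_le_length (C.pos Q d h).2]

theorem tauS_fin {S : Type*} [Monoid S] (ψ : α → S) (Q : List α) :
    ∀ s, (C.fin (tauS C ψ) Q s).2 * pr ψ (C.fin (tauS C ψ) Q s).1 = s * pr ψ Q := by
  refine C.ind (motive := fun Q => ∀ s, (C.fin (tauS C ψ) Q s).2 *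
    pr ψ (C.fin (tauS C ψ) Q s).1 = s * pr ψ Q) ?_ ?_ Q
  · intro Q h s
    rw [C.fin_none _ h]
  · intro Q d h ih s
    rw [C.fin_some _ h, ih]
    have h1 : tauS C ψ Q s = s * pr ψ (Q.take d) := by simp only [tauS, h]
    have h2 : pr ψ Q = pr ψ (Q.take d) * pr ψ (Q.drop d) := by
      simp only [pr]
      rw [← List.prod_append, ← List.map_append, List.take_append_drop]
    rw [h1, h2, mul_assoc]

/-- **HALF 1, abstract form.** -/
theorem half1 [Finite α] {S : Type*} [Monoid S] [Fintype S] [DecidableEq S] (ψ : α → S)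
    (Bad : List α → Prop) (hB : ∀ Q Y, C.D ≤ Q.length → (Bad (Q ++ Y) ↔ Bad Q))
    (T1 : List α → (S → ZMod 2) → (S → ZMod 2)) (hT1 : C.TExt T1) (ν1 : List α → S → ZMod 2)
    (h1 : ∀ Q d, C.nx Q = some d → ∀ g, T1 Q g = push (tauS C ψ Q) g + ν1 Q)
    (A1 : Sch C (S → ZMod 2) T1 (fun _ => True) (fun Q => ¬ Bad Q))
    (T2 : List α → ((S → ZMod 2) → ZMod 2) → ((S → ZMod 2) → ZMod 2)) (hT2 : C.TExt T2)
    (ν2 : List α → (S → ZMod 2) → ZMod 2)
    (h2 : ∀ Q d, C.nx Q = some d → ∀ g, T2 Q g = push (T1 Q) g + ν2 Q)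
    (A2 : Sch C ((S → ZMod 2) → ZMod 2) T2 Bad Bad) (s : S) :
    ∃ E : Language α, H 2 E ∧ ∀ w, C.RF w → (w ∈ E ↔ pr ψ w = s) := by
  -- inner level
  have hin := Sch.one A2 0 hT2 (good_G2 C hB)
    (fun X hX hl => hX.2 X (.refl _) hl)
    (fun X hX hl => hX.2 X (.refl _) (by rw [hl]; exact A2.hM))
  have hin' := readout C T1 T2 ν2 h2 hT2 hT1 (good_G2 C hB) hin
  -- outer level
  have hout : ∀ q, Sch.St C (S → ZMod 2) q → ∀ T' : List α × (S → ZMod 2) → Prop, True →
      ∃ E : Language α, H (1 + 1) E ∧ ∀ w, Sch.Prm (S → ZMod 2) C.RF q w →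
        (w ∈ E ↔ T' (run (C.step T1) q w)) := by
    refine nest (C.step T1) (Sch.St C (S → ZMod 2)) (Sch.Prm (S → ZMod 2) C.RF)
      (fun q u v h => (good_RF C).pre (q.1 ++ u) v (by rw [List.append_assoc]; exact h))
      (A1.lev 0) (A1.ok 0 hT1 (good_RF C) (fun _ _ _ => trivial)) 1 (fun _ => True) trivial ?_
    rintro ⟨P0, v0⟩ hq T' -
    have hq' : P0.length ≤ C.m1 := hq
    have hEx := fun x : List α => hin' (P0, v0) hq (fun q' => T' (run (C.step T1) q' x))
    choose E hE hE' using hEx
    have hfin : Finite {x : List α // x.length = A1.M} :=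
      (List.finite_length_eq α A1.M).to_subtype
    refine ⟨{w | w ∈ ({w | ∃ x : {x : List α // x.length = A1.M}, w ∈ E x.1 * {x.1}} :
        Language α) ∨ w ∈ ({w | w.length < A1.M ∧ T' (run (C.step T1) (P0, v0) w)} :
        Language α)}, H.union (H.exists_fintype _ fun x => (hE x.1).mul (H.word 1 x.1))
        (H.bounded 1 A1.M fun w hw => le_of_lt hw.1), ?_⟩
    intro w hw hc
    have hw' : C.RF (P0 ++ w) := hw
    by_cases hl : w.length < A1.M
    · constructor
      · rintro (⟨x, hx⟩ | ⟨-, h⟩)
        · rw [Language.mem_mul] at hx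
          obtain ⟨y, -, z, hz, e⟩ := hx
          have hz' : z = x.1 := hz
          have hxl := x.2
          rw [← e, List.length_append, hz'] at hl
          omega
        · exact h
      · intro h
        exact Or.inr ⟨hl, h⟩
    · -- long words
      have hl' : A1.M ≤ w.length := not_lt.1 hl
      have key : ∀ y x : List α, x.length = A1.M → y ++ x = w → G2 C Bad (P0 ++ y) := by
        intro y x hx e
        refine ⟨(good_RF C).pre (P0 ++ y) x (by rw [List.append_assoc, e]; exact hw'), ?_⟩
        intro Y hY hYl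
        have hYx : C.CS (P0 ++ w) (Y ++ x) := by
          have := hY.append C x
          rwa [List.append_assoc, e] at this
        have hlen : A1.M ≤ (Y ++ x).length := by rw [List.length_append]; omega
        have hbad : Bad ((Y ++ x).take A1.M) := by
          by_contra hnb
          exact hc (A1.cut 0 hT1 hq' hYx hw' hlen hnb)
        have hM := A1.hM
        have hb2 : Bad (Y ++ x) := by
          have h3 := hB ((Y ++ x).take A1.M) ((Y ++ x).drop A1.M)
            (by rw [List.length_take]; omega)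
          rw [List.take_append_drop] at h3
          exact h3.2 hbad
        exact (hB Y x hYl).1 hb2
      constructor
      · rintro (⟨x, hx⟩ | ⟨h, -⟩)
        · rw [Language.mem_mul] at hx
          obtain ⟨y, hy, z, hz, e⟩ := hx
          have hz' : z = x.1 := hz
          rw [hz'] at e
          have h4 := (hE' x.1 y (key y x.1 x.2 e)).1 hy
          rw [← e, run_append]
          exact h4
        · exact absurd h hl
      · intro h
        left
        have e : w.take (w.length - A1.M) ++ w.drop (w.length - A1.M) = w :=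
          List.take_append_drop _ _
        have hx : (w.drop (w.length - A1.M)).length = A1.M := by
          rw [List.length_drop]; omega
        refine ⟨⟨w.drop (w.length - A1.M), hx⟩, ?_⟩
        rw [Language.mem_mul]
        refine ⟨w.take (w.length - A1.M), ?_, w.drop (w.length - A1.M), rfl, e⟩
        refine (hE' _ _ (key _ _ hx e)).2 ?_
        change T' (run (C.step T1) (run (C.step T1) (P0, v0) _) _)
        rw [← run_append, e]
        exact h
  have hfinal := readout C (tauS C ψ) T1 ν1 h1 hT1 (tauS_ext C ψ) (good_RF C)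
    (fun q hq T' => hout q hq T' trivial)
  obtain ⟨E, hE, hE'⟩ := hfinal ([], 1) (Nat.zero_le _) (fun q => q.2 * pr ψ q.1 = s)
  refine ⟨E, hE, fun w hw => ?_⟩
  rw [hE' w hw, C.run_eq (tauS_ext C ψ) (Sch.nx_none_of_le (Nat.zero_le _)), List.nil_append,
    tauS_fin C ψ w 1, one_mul]

end half

end Crest.Agent.R320.Asm_518
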