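import Crest.Agent.R320.Star_903

/-!
Row 320: assembly of two wall schemes (outer scheme exact everywhere, inner scheme exact on the
promise), with lazy re-anchoring (570): state = (text since the anchor, token).
-/

set_option autoImplicit false

namespace Crest.Agent.R320.Asm_524

open Crest.RegLang Crest.Agent.R320.Hgt1_903 Crest.Agent.R320.Star_903

variable {α : Type*}

/-- chain data: `N` reads the next anchor on words of length `B`. -/
structure Chain (α : Type*) where
  B : ℕ
  hB : 0 < B
  N : List α → ℕ
  pos : ∀ u, 0 < N u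
  le : ∀ u, N u ≤ B

abbrev St (c : Chain α) (V : Type*) := {u : List α // u.length < c.B} × V

/-- lazy re-anchoring -/
def dl (c : Chain α) {V : Type*} (zm : List α → V → V) (q : St c V) (a : α) : St c V :=
  if h : q.1.1.length + 1 < c.B then (⟨q.1.1 ++ [a], by simpa using h⟩, q.2)
  else (⟨(q.1.1 ++ [a]).drop (c.N (q.1.1 ++ [a])), by
    have h1 := q.1.2
    have h2 := c.pos (q.1.1 ++ [a])
    simp only [List.length_drop, List.length_append, List.length_singleton]
    omega⟩, zm ((q.1.1 ++ [a]).take (c.N (q.1.1 ++ [a]))) q.2)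

/-- the parse of the text into zones -/
def parse (c : Chain α) : List α → List α → List (List α) × List α
  | u, [] => ([], u)
  | u, a :: w =>
    if u.length + 1 < c.B then parse c (u ++ [a]) w
    else ((u ++ [a]).take (c.N (u ++ [a])) :: (parse c ((u ++ [a]).drop (c.N (u ++ [a]))) w).1,
      (parse c ((u ++ [a]).drop (c.N (u ++ [a]))) w).2)

theorem parse_flatten (c : Chain α) (u w : List α) :
    (parse c u w).1.flatten ++ (parse c u w).2 = u ++ w := by
  induction w generalizing u with
  | nil => simp [parse]
  | cons a w ih =>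
    rw [parse]
    split_ifs with h
    · rw [ih]; simp
    · simp only [List.flatten_cons, List.append_assoc]
      rw [ih, ← List.append_assoc, List.take_append_drop]; simp

theorem parse_lt (c : Chain α) (u w : List α) (hu : u.length < c.B) :
    (parse c u w).2.length < c.B := by
  induction w generalizing u with
  | nil => simpa [parse] using hu
  | cons a w ih =>
    rw [parse]
    split_ifs with h
    · exact ih _ (by simpa using h)
    · refine ih _ ?_
      have h2 := c.pos (u ++ [a])
      simp only [List.length_drop, List.length_append, List.length_singleton]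
      omega

theorem parse_append (c : Chain α) (u x y : List α) :
    parse c u (x ++ y) = ((parse c u x).1 ++ (parse c (parse c u x).2 y).1,
      (parse c (parse c u x).2 y).2) := by
  induction x generalizing u with
  | nil => simp [parse]
  | cons a x ih =>
    rw [List.cons_append, parse, parse]
    split_ifs with h
    · exact ih _
    · rw [ih]; simp

theorem parse_short (c : Chain α) (u w : List α) (h : (u ++ w).length < c.B) :
    parse c u w = ([], u ++ w) := by
  induction w generalizing u with
  | nil => simp [parse]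
  | cons a w ih =>
    have h' : u.length + 1 < c.B := by
      simp only [List.length_append, List.length_cons] at h; omega
    rw [parse, if_pos h', ih _ (by simpa using h)]; simp

theorem parse_full (c : Chain α) (u w : List α) (hu : u.length < c.B)
    (h : (u ++ w).length = c.B) :
    parse c u w = ([(u ++ w).take (c.N (u ++ w))], (u ++ w).drop (c.N (u ++ w))) := by
  induction w generalizing u with
  | nil => simp at h; omega
  | cons a w ih =>
    rw [parse]
    split_ifs with h'
    · have e : u ++ a :: w = (u ++ [a]) ++ w := by simp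
      rw [e]
      exact ih _ (by simpa using h') (by rw [← e]; exact h)
    · have hw : w = [] := by
        simp only [List.length_append, List.length_cons] at h
        exact List.length_eq_zero_iff.1 (by omega)
      subst hw
      simp [parse]

variable {c : Chain α} {V : Type*} {zm : List α → V → V}

theorem run_eq (zm : List α → V → V) (u : {u : List α // u.length < c.B}) (v : V) (w : List α) :
    run (dl c zm) (u, v) w = (⟨(parse c u.1 w).2, parse_lt c u.1 w u.2⟩,
      (parse c u.1 w).1.foldl (fun v z => zm z v) v) := by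
  induction w generalizing u v with
  | nil => simp [parse]
  | cons a w ih =>
    have e : run (dl c zm) (u, v) (a :: w) = run (dl c zm) (dl c zm (u, v) a) w := rfl
    by_cases h : u.1.length + 1 < c.B
    · have e2 : dl c zm (u, v) a = (⟨u.1 ++ [a], by simpa using h⟩, v) := dif_pos h
      rw [e, e2, ih]
      simp only [parse, if_pos h]
    · have e2 : dl c zm (u, v) a = (⟨(u.1 ++ [a]).drop (c.N (u.1 ++ [a])), by
          have h1 := u.2
          have h2 := c.pos (u.1 ++ [a])
          simp only [List.length_drop, List.length_append, List.length_singleton]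
          omega⟩, zm ((u.1 ++ [a]).take (c.N (u.1 ++ [a]))) v) := dif_neg h
      rw [e, e2, ih]
      simp only [parse, if_neg h, List.foldl_cons]

theorem run_short (zm : List α → V → V) (u : {u : List α // u.length < c.B}) (v : V) (w : List α)
    (h : (u.1 ++ w).length < c.B) :
    run (dl c zm) (u, v) w = (⟨u.1 ++ w, h⟩, v) := by
  rw [run_eq]
  have := parse_short c u.1 w h
  simp only [this, List.foldl_nil]

/-- one scheme: labels -/
structure Sch (c : Chain α) (V : Type*) where
  zm : List α → V → V
  D : ℕ
  hD : c.B ≤ D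
  LL : List α → V → Prop
  RR : List α → ℕ → V → Prop

namespace Sch

def CutL (s : Sch c V) (q : St c V) : Prop := s.LL q.1.1 q.2

open Classical in
noncomputable def rho (s : Sch c V) (r : List α) : Option (St c V) :=
  if h : ∃ p : ℕ × V, s.RR r p.1 p.2 then
    some (run (dl c s.zm) (⟨[], c.hB⟩, h.choose.2) (r.drop h.choose.1)) else none

theorem rho_isSome (s : Sch c V) {r : List α} {b : ℕ} {R : V} (h : s.RR r b R) :
    (s.rho r).isSome := by
  unfold rho
  rw [dif_pos ⟨(b, R), h⟩]
  rfl

theorem rho_some (s : Sch c V) {r : List α} {q : St c V} (h : s.rho r = some q) :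
    ∃ b R, s.RR r b R ∧ run (dl c s.zm) (⟨[], c.hB⟩, R) (r.drop b) = q := by
  unfold rho at h
  split_ifs at h with h'
  exact ⟨_, _, h'.choose_spec, Option.some.inj h⟩

theorem sound_core (s : Sch c V) (u : {u : List α // u.length < c.B}) (v : V) (r : List α)
    (b : ℕ) (R : V) (hr : c.B ≤ r.length)
    (h1 : c.N ((u.1 ++ r).take c.B) = u.1.length + b)
    (h2 : s.zm ((u.1 ++ r).take (u.1.length + b)) v = R) :
    run (dl c s.zm) (u, v) r = run (dl c s.zm) (⟨[], c.hB⟩, R) (r.drop b) := by
  obtain ⟨u, hu⟩ := u
  simp only at h1 h2 ⊢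
  have hN := c.le ((u ++ r).take c.B)
  rw [h1] at hN
  have ht : (u ++ r).take c.B = u ++ r.take (c.B - u.length) := by
    rw [List.take_append, List.take_of_length_le hu.le]
  have hlen : (u ++ r.take (c.B - u.length)).length = c.B := by
    simp only [List.length_append, List.length_take]; omega
  have e1 : r = r.take (c.B - u.length) ++ r.drop (c.B - u.length) :=
    (List.take_append_drop _ _).symm
  have e2 : r.drop b = (r.take (c.B - u.length)).drop b ++ r.drop (c.B - u.length) := by
    conv_lhs => rw [e1]
    rw [List.drop_append_of_le_length]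
    simp only [List.length_take]; omega
  rw [e2, run_append]
  conv_lhs => rw [e1]
  rw [run_append]
  congr 1
  rw [run_short s.zm ⟨[], c.hB⟩ R ((r.take (c.B - u.length)).drop b) (by
    simp only [List.nil_append, List.length_drop, List.length_take]
    have := c.pos ((u ++ r).take c.B)
    rw [h1] at this
    omega)]
  rw [run_eq]
  have hp := parse_full c u (r.take (c.B - u.length)) hu hlen
  rw [ht] at h1
  have h3 : (u ++ r.take (c.B - u.length)).drop (u.length + b) =
      (r.take (c.B - u.length)).drop b := by
    rw [List.drop_append, List.drop_of_length_le (by omega)]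
    simp
  have h4 : (u ++ r.take (c.B - u.length)).take (u.length + b) =
      (u ++ r).take (u.length + b) := by
    rw [← ht, List.take_take, Nat.min_eq_left hN]
  simp only [hp, h1, h3, h4, List.foldl_cons, List.foldl_nil, h2, List.nil_append]

/-- a complete place gives a cut -/
theorem cut_in_zone (s : Sch c V) (u : {u : List α // u.length < c.B}) (v : V) (w : List α)
    (B0 o : ℕ) (hw : B0 ≤ u.1.length + w.length) (ho1 : u.1.length ≤ o) (ho2 : o < c.B)
    (ho3 : o + s.D ≤ B0) (hL : s.LL (((u.1 ++ w).take B0).take o) v) {b : ℕ} {R : V}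
    (hR : s.RR ((((u.1 ++ w).take B0).drop o).take s.D) b R) :
    ¬ Uncut (dl c s.zm) s.CutL s.D s.rho (u, v) w := by
  intro hU
  have e1 : ((u.1 ++ w).take B0).take o = u.1 ++ w.take (o - u.1.length) := by
    rw [List.take_take, Nat.min_eq_left (by omega), List.take_append,
      List.take_of_length_le ho1]
  have e2 : (((u.1 ++ w).take B0).drop o).take s.D = (w.drop (o - u.1.length)).take s.D := by
    rw [List.drop_take, List.take_take, Nat.min_eq_left (by omega), List.drop_append,
      List.drop_of_length_le ho1, List.nil_append]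
  rw [e1] at hL
  rw [e2] at hR
  refine hU (w.take (o - u.1.length)) ((w.drop (o - u.1.length)).take s.D)
    ((w.drop (o - u.1.length)).drop s.D) (by
      rw [List.append_assoc, List.take_append_drop, List.take_append_drop]) ⟨?_, ?_, ?_⟩
  · simp only [List.length_take, List.length_drop]; omega
  · have hlen : (u.1 ++ w.take (o - u.1.length)).length < c.B := by
      simp only [List.length_append, List.length_take]; omega
    rw [run_short s.zm u v _ hlen]
    exact hL
  · exact s.rho_isSome hR

end Sch

theorem Uncut.suffix {Θ : Type*} {δ : Θ → α → Θ} {CutL : Θ → Prop} {D : ℕ}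
    {ρ : List α → Option Θ} {θ : Θ} {x y : List α} (h : Uncut δ CutL D ρ θ (x ++ y)) :
    Uncut δ CutL D ρ (run δ θ x) y := fun p r s e hc =>
  h (x ++ p) r s (by rw [← e]; simp) ⟨hc.1, by rw [run_append]; exact hc.2.1, hc.2.2⟩

theorem good_suffix {Good : List α → Prop} (hG : ∀ x y z, Good (x ++ y ++ z) → Good y)
    {u x y : List α} (h : Good (u ++ (x ++ y))) : Good ((parse c u x).2 ++ y) := by
  have e := parse_flatten c u x
  refine hG (parse c u x).1.flatten _ [] ?_
  rw [List.append_nil, ← List.append_assoc, e, List.append_assoc]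
  exact h

/-- **two levels**. -/
theorem two_level [Finite α] (c : Chain α) (Good : List α → Prop)
    (hG : ∀ x y z, Good (x ++ y ++ z) → Good y)
    {V1 V2 : Type*} [Finite V1] [Finite V2] [Nonempty V2] (s1 : Sch c V1) (s2 : Sch c V2)
    (Bad : List α → Prop) (B0 lo1 lo2 : ℕ)
    (snd1 : ∀ u r v b R, u.length < c.B → Good (u ++ r) → r.length = s1.D → s1.LL u v →
      s1.RR r b R → c.N ((u ++ r).take c.B) = u.length + b ∧
      s1.zm ((u ++ r).take (u.length + b)) v = R)
    (cmp1 : ∀ Y, Good Y → Y.length = B0 → ¬ Bad Y → ∀ v, ∃ o, lo1 ≤ o ∧ o < c.B ∧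
      o + s1.D ≤ B0 ∧ s1.LL (Y.take o) v ∧ ∃ b R, s1.RR ((Y.drop o).take s1.D) b R)
    (hB0 : B0 ≤ s2.D)
    (snd2 : ∀ u r v b R, u.length < c.B → Good (u ++ r) → r.length = s2.D → s2.LL u v →
      s2.RR r b R → Bad ((u ++ r).take B0) → c.N ((u ++ r).take c.B) = u.length + b ∧
      s2.zm ((u ++ r).take (u.length + b)) v = R)
    (B1 : ℕ) (hB1 : B0 ≤ B1)
    (cmp2 : ∀ Y, Good Y → Y.length = B1 → Bad (Y.take B0) → ∀ v, ∃ o, lo2 ≤ o ∧ o < c.B ∧
      o + s2.D ≤ B1 ∧ s2.LL (Y.take o) v ∧ ∃ b R, s2.RR ((Y.drop o).take s2.D) b R)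
    (hlo : ∀ u, Good u → u.length = c.B → c.B ≤ lo2 + c.N u)
    (hsep : ∀ u v, s2.LL u v → u.length ≤ lo1) (hlo12 : lo2 ≤ lo1)
    (G : V1 → (V2 → V2) → V1)
    (hdec : ∀ v1 (zs : List (List α)), zs.foldl (fun v z => s1.zm z v) v1 =
      G v1 (fun v2 => zs.foldl (fun v z => s2.zm z v) v2)) :
    RC 2 (dl c s1.zm) (fun q w => Good (q.1.1 ++ w)) := by
  have hfin : Finite {u : List α // u.length < c.B} :=
    (List.finite_length_lt α c.B).to_subtype
  have hD1 : 0 < s1.D := lt_of_lt_of_le c.hB s1.hD
  have hD2 : 0 < s2.D := lt_of_lt_of_le c.hB s2.hD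
  let C2 : St c V2 → List α → Prop := fun q w => Good (q.1.1 ++ w) ∧
    ∃ v1, Uncut (dl c s1.zm) s1.CutL s1.D s1.rho (q.1, v1) w
  have inner : RC 1 (dl c s2.zm) C2 := by
    refine nested (n := 0) (dl c s2.zm) C2 ?_ ?_ s2.CutL s2.D hD2 s2.rho ?_ ?_
    · rintro q x y ⟨h1, v1, h2⟩
      exact ⟨hG [] _ y (by simpa using h1), v1, h2.prefix⟩
    · rintro ⟨u, v⟩ x y ⟨h1, v1, h2⟩
      refine ⟨?_, (parse c u.1 x).1.foldl (fun v z => s1.zm z v) v1, ?_⟩
      · rw [run_eq]; exact good_suffix hG h1
      · have := Uncut.suffix h2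
        rw [run_eq] at this
        rw [run_eq]; exact this
    · rintro ⟨u, v⟩ r θ' ⟨h1, v1, h2⟩ hL hr hρ
      obtain ⟨b, R, hR, he⟩ := s2.rho_some hρ
      have hbad : Bad ((u.1 ++ r).take B0) := by
        by_contra hnb
        obtain ⟨o, ho1, ho2, ho3, ho4, b', R', ho5⟩ := cmp1 _
          (hG [] _ ((u.1 ++ r).drop B0) (by simpa using h1))
          (by simp only [List.length_take, List.length_append]; omega) hnb v1
        exact s1.cut_in_zone u v1 r B0 o (by omega) (le_trans (hsep _ _ hL) ho1) ho2 ho3 ho4 ho5
          h2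
      obtain ⟨a1, a2⟩ := snd2 u.1 r v b R u.2 h1 hr hL hR hbad
      rw [← he]
      exact s2.sound_core u v r b R (by rw [hr]; exact s2.hD) a1 a2
    · refine RC.bounded 0 (c.B + B1) ?_
      rintro ⟨u, v⟩ w ⟨⟨h1, v1, h2⟩, h3⟩
      by_contra hlt
      push Not at hlt
      simp only at h1
      have hu := u.2
      have ew : w = w.take (c.B - u.1.length) ++ w.drop (c.B - u.1.length) :=
        (List.take_append_drop _ _).symm
      have hlen : (u.1 ++ w.take (c.B - u.1.length)).length = c.B := by
        simp only [List.length_append, List.length_take]; omega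
      have hp := parse_full c u.1 (w.take (c.B - u.1.length)) u.2 hlen
      have hg1 : Good (u.1 ++ w.take (c.B - u.1.length)) := by
        refine hG [] _ (w.drop (c.B - u.1.length)) ?_
        rw [List.nil_append, List.append_assoc, ← ew]; exact h1
      have hlo' := hlo _ hg1 hlen
      have hNle := c.le (u.1 ++ w.take (c.B - u.1.length))
      -- the state after the first re-anchoring
      have hg2 : Good ((parse c u.1 (w.take (c.B - u.1.length))).2 ++
          w.drop (c.B - u.1.length)) := by
        refine good_suffix hG ?_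
        rw [← ew]; exact h1
      rw [ew] at h2 h3
      have h2' := Uncut.suffix h2
      have h3' := Uncut.suffix h3
      rw [run_eq] at h2' h3'
      have hul : (parse c u.1 (w.take (c.B - u.1.length))).2.length ≤ lo2 := by
        rw [hp]; simp only [List.length_drop, hlen]; omega
      have hwl : B1 ≤ (w.drop (c.B - u.1.length)).length := by
        simp only [List.length_drop]; omega
      set u' : {u : List α // u.length < c.B} :=
        ⟨(parse c u.1 (w.take (c.B - u.1.length))).2, parse_lt c _ _ u.2⟩ with hu'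
      by_cases hb : Bad ((u'.1 ++ w.drop (c.B - u.1.length)).take B0)
      · have hg3 : Good ((u'.1 ++ w.drop (c.B - u.1.length)).take B1) :=
          hG [] _ ((u'.1 ++ w.drop (c.B - u.1.length)).drop B1) (by simpa using hg2)
        obtain ⟨o, ho1, ho2, ho3, ho4, b', R', ho5⟩ := cmp2 _ hg3
          (by simp only [List.length_take, List.length_append]; omega)
          (by rw [List.take_take, Nat.min_eq_left hB1]; exact hb)
          ((parse c u.1 (w.take (c.B - u.1.length))).1.foldl (fun v z => s2.zm z v) v)
        exact s2.cut_in_zone u' _ _ B1 o (by omega) (le_trans hul ho1) ho2 ho3 ho4 ho5 h3'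
      · have hg3 : Good ((u'.1 ++ w.drop (c.B - u.1.length)).take B0) :=
          hG [] _ ((u'.1 ++ w.drop (c.B - u.1.length)).drop B0) (by simpa using hg2)
        obtain ⟨o, ho1, ho2, ho3, ho4, b', R', ho5⟩ := cmp1 _ hg3
          (by simp only [List.length_take, List.length_append]; omega) hb
          ((parse c u.1 (w.take (c.B - u.1.length))).1.foldl (fun v z => s1.zm z v) v1)
        exact s1.cut_in_zone u' _ _ B0 o (by omega) (le_trans hul (le_trans hlo12 ho1))
          ho2 ho3 ho4 ho5 h2'
  refine nested (n := 1) (dl c s1.zm) _ ?_ ?_ s1.CutL s1.D hD1 s1.rho ?_ ?_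
  · intro q x y h
    exact hG [] _ y (by simpa using h)
  · rintro ⟨u, v⟩ x y h
    rw [run_eq]; exact good_suffix hG h
  · rintro ⟨u, v⟩ r θ' h1 hL hr hρ
    obtain ⟨b, R, hR, he⟩ := s1.rho_some hρ
    obtain ⟨a1, a2⟩ := snd1 u.1 r v b R u.2 h1 hr hL hR
    rw [← he]
    exact s1.sound_core u v r b R (by rw [hr]; exact s1.hD) a1 a2
  · obtain ⟨R2, hR2, hs2⟩ := inner
    refine ⟨fun θ θ' => {w | ∃ τ : V2 → V2, w ∈ ({w | w ∈ ({_w | G θ.2 τ = θ'.2} : Language α) ∧
      w ∈ ({w | ∀ v2, w ∈ R2 (θ.1, v2) (θ'.1, τ v2)} : Language α)} : Language α)},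
      fun θ θ' => H.exists_fintype _ fun τ => H.inter (H.const _ _)
        (H.forall_fintype _ fun v2 => hR2 _ _), ?_⟩
    rintro ⟨u, v⟩ w ⟨h1, h2⟩ ⟨u', v'⟩
    have hC : ∀ v2, C2 (u, v2) w := fun v2 => ⟨h1, v, h2⟩
    constructor
    · rintro ⟨τ, hτ, hall⟩
      have hall' : ∀ v2, run (dl c s2.zm) (u, v2) w = (u', τ v2) := fun v2 =>
        (hs2 _ _ (hC v2) _).1 (hall v2)
      have hu : (⟨(parse c u.1 w).2, parse_lt c u.1 w u.2⟩ : {u : List α // u.length < c.B})
          = u' := by
        have := hall' (Classical.arbitrary V2)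
        rw [run_eq] at this
        exact (Prod.ext_iff.1 this).1
      have hτ2 : (fun v2 => (parse c u.1 w).1.foldl (fun v z => s2.zm z v) v2) = τ := by
        funext v2
        have := hall' v2
        rw [run_eq] at this
        exact (Prod.ext_iff.1 this).2
      rw [run_eq, hu, hdec, hτ2]
      have hτ' : G v τ = v' := hτ
      rw [hτ']
    · intro hrun
      rw [run_eq] at hrun
      have e1 := (Prod.ext_iff.1 hrun).1
      have e2 := (Prod.ext_iff.1 hrun).2
      simp only at e1 e2
      refine ⟨fun v2 => (parse c u.1 w).1.foldl (fun v z => s2.zm z v) v2, ?_, fun v2 => ?_⟩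
      · show G v _ = v'
        rw [← e2, hdec]
      · refine (hs2 _ _ (hC v2) _).2 ?_
        rw [run_eq, e1]

/-- read-off of a morphism from the tokens. -/
theorem read_off [Finite α] (c : Chain α) (Good : List α → Prop) {n : ℕ}
    {V1 : Type*} [Finite V1] [Nonempty V1] (zm : List α → V1 → V1)
    (h : RC n (dl c zm) (fun q w => Good (q.1.1 ++ w)))
    {S : Type*} [Monoid S] (φ : α → S) (G : (V1 → V1) → S)
    (hdec : ∀ (zs : List (List α)), (zs.flatten.map φ).prod =
      G (fun v => zs.foldl (fun v z => zm z v) v)) (s : S) :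
    ∃ L : Language α, H n L ∧ ∀ w, Good w → (w ∈ L ↔ (w.map φ).prod = s) := by
  have hfin : Finite {u : List α // u.length < c.B} :=
    (List.finite_length_lt α c.B).to_subtype
  obtain ⟨R, hR, hs⟩ := h
  refine ⟨{w | ∃ p : {u : List α // u.length < c.B} × (V1 → V1),
    w ∈ ({w | w ∈ ({_w | G p.2 * (p.1.1.map φ).prod = s} : Language α) ∧
      w ∈ ({w | ∀ v, w ∈ R (⟨[], c.hB⟩, v) (p.1, p.2 v)} : Language α)} : Language α)},
    H.exists_fintype _ fun p => H.inter (H.const _ _) (H.forall_fintype _ fun v => hR _ _), ?_⟩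
  intro w hw
  have hC : ∀ v : V1, Good ((([] : List α)) ++ w) := fun _ => by simpa using hw
  have hrd : (w.map φ).prod = G (fun v => (parse c [] w).1.foldl (fun v z => zm z v) v) *
      ((parse c [] w).2.map φ).prod := by
    have e := parse_flatten c [] w
    rw [List.nil_append] at e
    conv_lhs => rw [← e]
    rw [List.map_append, List.prod_append, hdec]
  constructor
  · rintro ⟨⟨u', τ⟩, hτ, hall⟩
    have hall' : ∀ v, run (dl c zm) (⟨[], c.hB⟩, v) w = (u', τ v) := fun v =>
      (hs _ _ (hC v) _).1 (hall v)
    have hu : (⟨(parse c [] w).2, parse_lt c [] w c.hB⟩ : {u : List α // u.length < c.B})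
        = u' := by
      have := hall' (Classical.arbitrary V1)
      rw [run_eq] at this
      exact (Prod.ext_iff.1 this).1
    have hτ2 : (fun v => (parse c [] w).1.foldl (fun v z => zm z v) v) = τ := by
      funext v
      have := hall' v
      rw [run_eq] at this
      exact (Prod.ext_iff.1 this).2
    rw [hrd, hτ2]
    have hτ' : G τ * (u'.1.map φ).prod = s := hτ
    rw [← hu] at hτ'
    exact hτ'
  · intro hsw
    refine ⟨(⟨(parse c [] w).2, parse_lt c [] w c.hB⟩,
      fun v => (parse c [] w).1.foldl (fun v z => zm z v) v), ?_, fun v => ?_⟩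
    · show _ = s
      rw [← hsw, hrd]
    · refine (hs _ _ (hC v) _).2 ?_
      rw [run_eq]

end Crest.Agent.R320.Asm_524
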