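import Crest.Agent.R320.Top_180
import Crest.Agent.R320.WallU_228
import Crest.Agent.R320.Reg_852

/-!
Row 320: all-words assembly over `top2` (helper600).  Blocks `X1 ++ (Y ++ E)`: `|X1| = p0`, `Y` ends at
the first wall `≥ z`, `E` ends at the next wall.  Scheme 1 cuts inside `Y`, scheme 2 inside `X1`.
-/

set_option autoImplicit false

namespace Crest.Agent.R320.Asm_600

open Crest.RegLang Crest.Agent.R320.Hk_851 Crest.Agent.R320.Half1_180

universe u v w

/-- `Y` ends at the first wall `≥ x` -/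
def First {α : Type u} (Wo : List α → Prop) (x : ℕ) (Y : List α) : Prop :=
  Wo Y ∧ x ≤ Y.length ∧ ∀ t, x ≤ t → t < Y.length → ¬ Wo (Y.take t)

theorem First.unique {α : Type u} {Wo : List α → Prop} {x : ℕ} {Y Y' U V : List α}
    (h : First Wo x Y) (h' : First Wo x Y') (e : Y ++ U = Y' ++ V) : Y = Y' ∧ U = V := by
  rcases lt_trichotomy Y.length Y'.length with hl | hl | hl
  · exfalso
    refine h'.2.2 Y.length h.2.1 hl ?_
    have h1 : (Y ++ U).take Y.length = Y := List.take_left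
    rw [e, List.take_append_of_le_length hl.le] at h1
    rw [h1]; exact h.1
  · exact List.append_inj e hl
  · exfalso
    refine h.2.2 Y'.length h'.2.1 hl ?_
    have h1 : (Y' ++ V).take Y'.length = Y' := List.take_left
    rw [← e, List.take_append_of_le_length hl.le] at h1
    rw [h1]; exact h'.1

/-- data -/
structure Dt (α : Type u) (S : Type v) (V : Type w) where
  Wo : List α → Prop
  n : ℕ
  W : ℕ
  z : ℕ
  p0 : ℕ
  N1 : ℕ
  La : ℕ
  f : α → S
  act : V → S → V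
  BadT : ℕ → Prop
  lam1 : List α → Option V
  rho1 : List α → Option V
  nu1 : List α → V
  K : ℕ
  c : ℕ → ℕ
  lam2 : ℕ → List α → Option V
  rho2 : ℕ → List α → Option V
  nu2 : List α → V

section
variable {α : Type u} {S : Type v} {V : Type w} [Monoid S] [AddCommGroup V]

/-- product -/
def Dt.ph (D : Dt α S V) (w : List α) : S := (w.map D.f).prod

theorem Dt.ph_app (D : Dt α S V) (u w : List α) : D.ph (u ++ w) = D.ph u * D.ph w := by
  unfold Dt.ph; rw [List.map_append, List.prod_append]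

/-- bad zones -/
def Dt.BadY (D : Dt α S V) (Y : List α) : Prop :=
  (∃ t, D.z - D.N1 ≤ t ∧ t ≤ D.z + D.N1 ∧ t ≤ Y.length ∧ D.Wo (Y.take t)) ∨ D.BadT Y.length

/-- block decomposition -/
def Dt.Dec (D : Dt α S V) (q : List α × List α × List α) : Prop :=
  q.1.length = D.p0 ∧ First D.Wo D.z q.2.1 ∧ First D.Wo 0 q.2.2

/-- blocks with a property of the zone -/
def Dt.Bl (D : Dt α S V) (p : List α → Prop) : Set (List α) :=
  {X | ∃ q : List α × List α × List α, D.Dec q ∧ p q.2.1 ∧ X = q.1 ++ (q.2.1 ++ q.2.2)}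

/-- value at the end of the block -/
def Dt.val (D : Dt α S V) (q : List α × List α × List α) (v : V) : V :=
  D.act (D.act (D.act v (D.ph q.1) + D.nu2 q.1) (D.ph q.2.1) + D.nu1 q.2.1) (D.ph q.2.2)

open Classical in
/-- block map -/
noncomputable def Dt.T (D : Dt α S V) (X : List α) (v : V) : V :=
  if h : ∃ q : List α × List α × List α, D.Dec q ∧ X = q.1 ++ (q.2.1 ++ q.2.2) then
    D.val h.choose v else v

theorem Dt.dec_unique (D : Dt α S V) {q q' : List α × List α × List α} {R R' : List α}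
    (h : D.Dec q) (h' : D.Dec q')
    (e : q.1 ++ (q.2.1 ++ (q.2.2 ++ R)) = q'.1 ++ (q'.2.1 ++ (q'.2.2 ++ R'))) : q = q' ∧ R = R' := by
  obtain ⟨e1, e2⟩ := List.append_inj e (h.1.trans h'.1.symm)
  obtain ⟨e3, e4⟩ := h.2.1.unique h'.2.1 e2
  obtain ⟨e5, e6⟩ := h.2.2.unique h'.2.2 e4
  exact ⟨Prod.ext e1 (Prod.ext e3 e5), e6⟩

theorem Dt.T_eq (D : Dt α S V) {q : List α × List α × List α} (h : D.Dec q) (v : V) :
    D.T (q.1 ++ (q.2.1 ++ q.2.2)) v = D.val q v := by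
  classical
  have hex : ∃ q' : List α × List α × List α, D.Dec q' ∧
      q.1 ++ (q.2.1 ++ q.2.2) = q'.1 ++ (q'.2.1 ++ q'.2.2) := ⟨q, h, rfl⟩
  unfold Dt.T
  rw [dif_pos hex]
  have h1 := hex.choose_spec
  have h2 := D.dec_unique (R := []) (R' := []) h h1.1 (by simpa using h1.2)
  rw [← h2.1]

/-- hypotheses -/
structure Dt.Ok (D : Dt α S V) : Prop where
  act_add : ∀ v w s, D.act (v + w) s = D.act v s + D.act w s
  act_one : ∀ v, D.act v 1 = v
  act_mul : ∀ v s s', D.act (D.act v s) s' = D.act v (s * s')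
  faithful : ∀ s s', (∀ v, D.act v s = D.act v s') → s = s'
  hn : 0 < D.n
  loc : ∀ P Q : List α, D.n ≤ Q.length → (D.Wo (P ++ Q) ↔ D.Wo Q)
  wlen : ∀ P, D.Wo P → D.n ≤ P.length
  gap : ∀ P Q : List α, D.Wo P → D.Wo (P ++ Q) → Q ≠ [] → D.W < Q.length
  g1l : ∀ P v, D.lam1 P = some v → P.length ≤ D.N1
  g1s : ∀ P Q v b, D.lam1 P = some v → D.rho1 Q = some b → D.La ≤ Q.length →
    b = D.act v (D.ph (P ++ Q)) + D.nu1 (P ++ Q)
  g1c : ∀ u, D.La ≤ u.length → ¬ D.BadT u.length → ∀ v, ∃ P Q, P ++ Q = u ∧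
    D.lam1 P = some v ∧ (D.rho1 Q).isSome
  g2s : ∀ k < D.K, ∀ P Q v b, P.length = D.c k → D.lam2 k P = some v → D.rho2 k Q = some b →
    b = D.act v (D.ph (P ++ Q)) + D.nu2 (P ++ Q)
  hc : ∀ k < D.K, D.c k ≤ D.p0
  hz : D.La + D.N1 + D.n ≤ D.z
  hW : D.p0 ≤ D.W
  g2c : ∀ q v, D.Dec q → D.BadY q.2.1 → ∃ l < D.K, D.lam2 l (q.1.take (D.c l)) = some v ∧
    (D.rho2 l (q.1.drop (D.c l))).isSome ∧ ∀ l' < D.K, l' ≠ l →
      ¬ ∃ Y R, (q.1 ++ (q.2.1 ++ q.2.2)).drop (D.c l + (D.p0 - D.c l')) = Y ++ R ∧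
        First D.Wo D.z Y ∧ D.BadY Y

theorem Dt.Ok.pf {D : Dt α S V} (h : D.Ok) (p : List α → Prop) : PF (D.Bl p) := by
  constructor
  · rintro X ⟨q, hq, _, rfl⟩ e
    have h1 := congrArg List.length e
    simp only [List.length_append, List.length_nil] at h1
    have h2 := hq.2.1.2.1
    have := h.hz
    have := h.hn
    omega
  · rintro X ⟨q, hq, _, rfl⟩ Y ⟨q', hq', _, rfl⟩ ⟨R, e⟩
    have h2 := D.dec_unique (R := R) (R' := []) hq hq' (by simpa using e)
    rw [h2.1]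

/-! ### scheme 1 -/

/-- left words -/
def Dt.LP1 (D : Dt α S V) (v : V) : Language α :=
  {P | ∃ X1 P', X1.length = D.p0 ∧ D.lam1 P' = some (D.act v (D.ph X1) + D.nu2 X1) ∧ P = X1 ++ P'}

/-- right zone words -/
def Dt.RZ (D : Dt α S V) (Y : List α) : Prop := First D.Wo (D.z - D.N1) Y ∧ D.z ≤ Y.length

/-- right words -/
def Dt.RQ1 (D : Dt α S V) (b : V) : Language α :=
  {Q | ∃ Y E c, D.RZ Y ∧ First D.Wo 0 E ∧ D.rho1 Y = some c ∧ D.act c (D.ph E) = b ∧ Q = Y ++ E}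

theorem Dt.Ok.sound1 {D : Dt α S V} (h : D.Ok) {v v' : V} {P Q : List α} (hP : P ∈ D.LP1 v)
    (hQ : Q ∈ D.RQ1 v') : P ++ Q ∈ D.Bl (fun _ => True) ∧ D.T (P ++ Q) v = v' := by
  obtain ⟨X1, P', hX, hl, rfl⟩ := hP
  obtain ⟨Y, E, c, hY, hE, hr, he, rfl⟩ := hQ
  have hz := h.hz
  have hP' := h.g1l _ _ hl
  have hYl := hY.2
  have hF : First D.Wo D.z (P' ++ Y) := by
    refine ⟨(h.loc P' Y (by omega)).2 hY.1.1, by rw [List.length_append]; omega, ?_⟩
    intro t ht1 ht2 hw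
    rw [List.length_append] at ht2
    rw [List.take_append, List.take_of_length_le (by omega)] at hw
    refine hY.1.2.2 (t - P'.length) (by omega) (by omega) ?_
    exact (h.loc P' _ (by rw [List.length_take]; omega)).1 hw
  have hD : D.Dec (X1, P' ++ Y, E) := ⟨hX, hF, hE⟩
  have e : X1 ++ P' ++ (Y ++ E) = X1 ++ ((P' ++ Y) ++ E) := by simp
  rw [e]
  refine ⟨⟨_, hD, trivial, rfl⟩, ?_⟩
  rw [show D.T (X1 ++ ((P' ++ Y) ++ E)) v = D.val (X1, P' ++ Y, E) v from D.T_eq hD v]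
  unfold Dt.val
  rw [← h.g1s P' Y _ c hl hr (by omega)]
  exact he

theorem Dt.Ok.compl1 {D : Dt α S V} (h : D.Ok) {X : List α} (hX : X ∈ D.Bl (fun Y => ¬ D.BadY Y))
    (v : V) : ∃ P Q, X = P ++ Q ∧ P ∈ D.LP1 v ∧ Q ∈ D.RQ1 (D.T X v) := by
  obtain ⟨⟨X1, Y, E⟩, hD, hB, rfl⟩ := hX
  have hz := h.hz
  obtain ⟨hX1, hY, hE⟩ := hD
  simp only at hX1 hY hE hB
  have hYl : D.z + D.N1 < Y.length := by
    by_contra hcon
    refine hB (Or.inl ⟨Y.length, ?_, by omega, le_refl _, ?_⟩)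
    · have := hY.2.1; omega
    · rw [List.take_length]; exact hY.1
  obtain ⟨P', Y2, e, hl, hr⟩ := h.g1c Y (by omega) (fun hb => hB (Or.inr hb))
    (D.act v (D.ph X1) + D.nu2 X1)
  obtain ⟨c, hc⟩ := Option.isSome_iff_exists.1 hr
  have hP' := h.g1l _ _ hl
  subst e
  rw [List.length_append] at hYl
  refine ⟨X1 ++ P', Y2 ++ E, by simp, ⟨X1, P', hX1, hl, rfl⟩, Y2, E, c, ⟨⟨?_, by omega, ?_⟩, by omega⟩,
    hE, hc, ?_, rfl⟩
  · exact (h.loc P' Y2 (by omega)).1 hY.1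
  · intro y hy1 hy2 hw
    have hw2 : D.Wo ((P' ++ Y2).take (P'.length + y)) := by
      rw [List.take_append, List.take_of_length_le (by omega), Nat.add_sub_cancel_left]
      exact (h.loc P' _ (by rw [List.length_take]; omega)).2 hw
    by_cases ht : P'.length + y ≤ D.z + D.N1
    · exact hB (Or.inl ⟨_, by omega, ht, by rw [List.length_append]; omega, hw2⟩)
    · exact hY.2.2 _ (by omega) (by rw [List.length_append]; omega) hw2
  · have hD : D.Dec (X1, P' ++ Y2, E) := ⟨hX1, hY, hE⟩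
    rw [show D.T (X1 ++ ((P' ++ Y2) ++ E)) v = D.val (X1, P' ++ Y2, E) v from D.T_eq hD v]
    unfold Dt.val
    rw [← h.g1s P' Y2 _ c hl hc (by omega)]

/-! ### scheme 2 -/

/-- a bad zone is visible from the place `x` -/
def Dt.BadAt (D : Dt α S V) (Q : List α) (x : ℕ) : Prop :=
  ∃ Y R, Q.drop x = Y ++ R ∧ First D.Wo D.z Y ∧ D.BadY Y

/-- left words -/
def Dt.LP2 (D : Dt α S V) (v : V) : Language α :=
  {P | ∃ l < D.K, P.length = D.c l ∧ D.lam2 l P = some v}

/-- right words, one block -/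
def Dt.RQ2 (D : Dt α S V) (b : V) : Language α :=
  {Q | ∃ l < D.K, (∀ l' < D.K, l' ≠ l → ¬ D.BadAt Q (D.p0 - D.c l')) ∧ ∃ U Y E d,
    U.length = D.p0 - D.c l ∧ First D.Wo D.z Y ∧ D.BadY Y ∧ First D.Wo 0 E ∧
    D.rho2 l U = some d ∧ D.act (D.act d (D.ph Y) + D.nu1 Y) (D.ph E) = b ∧ Q = U ++ (Y ++ E)}

theorem Dt.Ok.sound2 {D : Dt α S V} (h : D.Ok) {v b : V} {P Q R w' : List α}
    {q : List α × List α × List α} (hq : D.Dec q) (hB : D.BadY q.2.1) (hP : P ∈ D.LP2 v)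
    (hQ : Q ∈ D.RQ2 b) (e : P ++ (Q ++ R) = q.1 ++ (q.2.1 ++ (q.2.2 ++ w'))) :
    P ++ Q = q.1 ++ (q.2.1 ++ q.2.2) ∧ R = w' ∧ D.val q v = b := by
  obtain ⟨X1, Y0, E0⟩ := q
  obtain ⟨hX1, hY0, hE0⟩ := hq
  simp only at hX1 hY0 hE0 hB e ⊢
  obtain ⟨l0, hl0, hPl, hlam⟩ := hP
  obtain ⟨l, hl, huniq, U, Y, E, d, hU, hY, hBY, hE, hrho, hb, rfl⟩ := hQ
  have hz := h.hz
  have hc0 := h.hc l0 hl0
  have hcl := h.hc l hl
  have hW := h.hW
  -- split X1
  obtain ⟨U0, hU0⟩ : ∃ U0, X1 = P ++ U0 := by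
    refine ⟨X1.drop P.length, ?_⟩
    have h1 : X1.take P.length = P := by
      have h2 : (P ++ (U ++ (Y ++ E) ++ R)).take P.length = P := List.take_left
      rw [e, List.take_append_of_le_length (by omega)] at h2
      exact h2
    conv_lhs => rw [← List.take_append_drop P.length X1, h1]
  subst hU0
  rw [List.length_append] at hX1
  have e1 : U ++ (Y ++ E) ++ R = U0 ++ (Y0 ++ (E0 ++ w')) := by
    have : P ++ (U ++ (Y ++ E) ++ R) = P ++ (U0 ++ (Y0 ++ (E0 ++ w'))) := by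
      rw [e]; simp
    exact List.append_cancel_left this
  -- the true zone is visible in Q
  have hvis : U0.length + Y0.length ≤ (U ++ (Y ++ E)).length := by
    by_contra hcon
    have hcon : (U ++ (Y ++ E)).length < U0.length + Y0.length := not_le.1 hcon
    have hEne : E ≠ [] := by
      rintro rfl
      have h10 := h.wlen _ hE.1
      have h11 := h.hn
      rw [List.length_nil] at h10
      omega
    have hEn := h.wlen _ hE.1
    have hYE : D.Wo (Y ++ E) := (h.loc Y E hEn).2 hE.1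
    have hgap := h.gap Y E hY.1 hYE hEne
    have hYz := hY.2.1
    have hQl : (U ++ (Y ++ E)).length = U.length + (Y.length + E.length) := by simp
    have h3 : (U ++ (Y ++ E)) = U0 ++ Y0.take ((U ++ (Y ++ E)).length - U0.length) := by
      have h4 : (U ++ (Y ++ E) ++ R).take (U ++ (Y ++ E)).length = U ++ (Y ++ E) := List.take_left
      rw [e1, List.take_append, List.take_of_length_le (by omega),
        List.take_append_of_le_length (by omega)] at h4
      exact h4.symm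
    refine hY0.2.2 ((U ++ (Y ++ E)).length - U0.length) (by omega) (by omega) ?_
    have h5 : D.Wo (U ++ (Y ++ E)) := (h.loc U _ (by simp; omega)).2 hYE
    rw [h3] at h5
    refine (h.loc U0 _ ?_).1 h5
    rw [List.length_take]; omega
  have hBA : D.BadAt (U ++ (Y ++ E)) (D.p0 - D.c l0) := by
    have hU0l : U0.length = D.p0 - D.c l0 := by omega
    refine ⟨Y0, ((U ++ (Y ++ E)).drop U0.length).drop Y0.length, ?_, hY0, hB⟩
    rw [← hU0l]
    have h6 : ((U ++ (Y ++ E)).drop U0.length).take Y0.length = Y0 := by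
      have h7 : (U ++ (Y ++ E) ++ R).drop U0.length = Y0 ++ (E0 ++ w') := by
        rw [e1, List.drop_left]
      rw [List.drop_append_of_le_length (by omega)] at h7
      have h8 := congrArg (List.take Y0.length) h7
      rw [List.take_left, List.take_append_of_le_length (by rw [List.length_drop]; omega)] at h8
      exact h8
    conv_lhs => rw [← List.take_append_drop Y0.length ((U ++ (Y ++ E)).drop U0.length), h6]
  have hll : l0 = l := by
    by_contra hne
    exact huniq l0 hl0 hne hBA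
  subst hll
  have e2 : U ++ (Y ++ (E ++ R)) = U0 ++ (Y0 ++ (E0 ++ w')) := by rw [← e1]; simp
  obtain ⟨e3, e4⟩ := List.append_inj e2 (by omega)
  obtain ⟨e5, e6⟩ := hY.unique hY0 e4
  obtain ⟨e7, e8⟩ := hE.unique hE0 e6
  subst e3 e5 e7
  refine ⟨by simp, e8, ?_⟩
  unfold Dt.val
  rw [← h.g2s l0 hl P U v d hPl hlam hrho]
  exact hb

theorem Dt.Ok.compl2 {D : Dt α S V} (h : D.Ok) {q : List α × List α × List α} (hq : D.Dec q)
    (hB : D.BadY q.2.1) (v : V) :
    ∃ P Q, q.1 ++ (q.2.1 ++ q.2.2) = P ++ Q ∧ P ∈ D.LP2 v ∧ Q ∈ D.RQ2 (D.val q v) := by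
  obtain ⟨l, hl, hlam, hrho, hun⟩ := h.g2c q v hq hB
  obtain ⟨X1, Y, E⟩ := q
  obtain ⟨hX1, hY, hE⟩ := hq
  simp only at hX1 hY hE hB hlam hrho hun ⊢
  obtain ⟨d, hd⟩ := Option.isSome_iff_exists.1 hrho
  have hcl := h.hc l hl
  refine ⟨X1.take (D.c l), X1.drop (D.c l) ++ (Y ++ E), ?_, ⟨l, hl, ?_, hlam⟩, l, hl, ?_,
    X1.drop (D.c l), Y, E, d, ?_, hY, hB, hE, hd, ?_, rfl⟩
  · rw [← List.append_assoc (X1.take _), List.take_append_drop]
  · rw [List.length_take]; omega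
  · intro l' hl' hne hBA
    refine hun l' hl' hne ?_
    obtain ⟨Y', R, e, h1, h2⟩ := hBA
    refine ⟨Y', R, ?_, h1, h2⟩
    rw [← e, ← List.drop_drop, List.drop_append_of_le_length (by omega)]
  · rw [List.length_drop]; omega
  · unfold Dt.val
    simp only
    have h1 := h.g2s l hl (X1.take (D.c l)) (X1.drop (D.c l)) v d (by rw [List.length_take]; omega)
      hlam hd
    rw [List.take_append_drop] at h1
    rw [← h1]

end

end Crest.Agent.R320.Asm_600
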