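import Crest.Agent.R320.Shared_621

/-!
# Row 320: concrete two schemes on all words, left-looking walls (helper621): definitions

Zone = from the anchor to the SECOND wall at a place `≥ z0`; `t` = the first one.
-/

set_option autoImplicit false

namespace Crest.Agent.R320.Asm_621

open Crest.Agent.R320.Hk_851 Crest.Agent.R320.Star_621 Crest.Agent.R320.Two_621
open Crest.Agent.R320.Shared_621

structure Par (α S : Type) where
  f : α → S
  Wo : List α → Prop
  n : ℕ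
  z0 : ℕ
  p0 : ℕ
  N1 : ℕ
  K : ℕ
  lam : List α → Option (Tok S)
  rho : List α → Option (Tok S)
  nu : List α → Tok S
  BT : ℕ → Prop
  c : ℕ → ℕ
  lam2 : ℕ → List α → Option (Tok S)
  rho2 : ℕ → List α → Option (Tok S)
  nu2 : List α → Tok S

variable {α S : Type} [Monoid S] (P : Par α S)

namespace Par

def ph (w : List α) : S := (w.map P.f).prod

def IsT (z : List α) (t : ℕ) : Prop :=
  P.z0 ≤ t ∧ t < z.length ∧ P.Wo (z.take t) ∧ P.Wo z ∧
    ∀ u, P.z0 ≤ u → u < z.length → P.Wo (z.take u) → u = t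

def Z : Language α := {z | ∃ t, P.IsT z t}

def E (z : List α) : Prop :=
  ∃ u ≤ z.length, P.z0 ≤ u + P.N1 ∧ u < P.z0 + P.N1 ∧ P.Wo (z.take u)

def Zc : Language α := {z | ∃ t, P.IsT z t ∧ (P.E z ∨ P.BT (t - P.p0))}

open Classical in
noncomputable def d (z : List α) : Tok S :=
  if h : ∃ t, P.IsT z t then
    act (P.nu2 (z.take P.p0)) (P.ph (z.drop P.p0)) +
      act (P.nu ((z.take h.choose).drop P.p0)) (P.ph (z.drop h.choose))
  else 0

def LA (v : Tok S) : Language α :=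
  {Q | P.p0 ≤ Q.length ∧
    P.lam (Q.drop P.p0) = some (act v (P.ph (Q.take P.p0)) + P.nu2 (Q.take P.p0))}

def RAc (Q : List α) (s : ℕ) : Prop :=
  P.z0 ≤ s + P.p0 ∧ s < Q.length ∧ P.Wo (Q.take s) ∧ P.Wo Q ∧
    ∀ u, P.z0 ≤ u + P.p0 + P.N1 → u < Q.length → P.Wo (Q.take u) → u = s

def RA (τ : Tok S) : Language α :=
  {Q | ∃ s b, P.RAc Q s ∧ P.rho (Q.take s) = some b ∧ τ = act b (P.ph (Q.drop s))}

def FT (k : ℕ) (Q : List α) (s : ℕ) : Prop :=
  P.z0 ≤ s + P.c k ∧ s ≤ Q.length ∧ P.Wo (Q.take s) ∧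
    ∀ u, P.z0 ≤ u + P.c k → u < s → ¬ P.Wo (Q.take u)

def BadC (k : ℕ) (Q : List α) : Prop :=
  (∃ u ≤ Q.length, P.z0 ≤ u + P.c k + P.N1 ∧ u + P.c k < P.z0 + P.N1 ∧ P.Wo (Q.take u)) ∨
    ∃ s, P.FT k Q s ∧ P.BT (s + P.c k - P.p0)

def LB (v : Tok S) : Language α := {Q | ∃ k < P.K, Q.length = P.c k ∧ P.lam2 k Q = some v}

def RB (τ : Tok S) : Language α :=
  {Q | ∃ k < P.K, ∃ s y, P.FT k Q s ∧ s < Q.length ∧ P.Wo Q ∧
    (∀ u, s < u → u < Q.length → ¬ P.Wo (Q.take u)) ∧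
    (∀ k' < P.K, k' ≠ k → ¬ P.BadC k' Q) ∧
    P.rho2 k (Q.take (P.p0 - P.c k)) = some y ∧
    τ = act y (P.ph (Q.drop (P.p0 - P.c k))) +
      act (P.nu ((Q.take s).drop (P.p0 - P.c k))) (P.ph (Q.drop s))}

/-- words which contain no complete zone as a prefix, with a given product -/
def Rest (s : S) : Language α := {w | (∀ z ∈ P.Z, ¬ z <+: w) ∧ P.ph w = s}

open Classical in
/-- spoiled places of scheme 2 in the zone `z` -/
noncomputable def spoiled (z : List α) : Finset ℕ :=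
  (Finset.range P.K).filter fun k => ∃ k' < P.K, k' ≠ k ∧ P.BadC k' (z.drop (P.c k))

/-- geometry, soundness and completeness of the two gadgets; `R` = number of places per token -/
structure Ok (P : Par α S) (R : ℕ) : Prop where
  loc : ∀ A B : List α, P.n ≤ B.length → (P.Wo (A ++ B) ↔ P.Wo B)
  gap : ∀ (w : List α) (a b : ℕ), a < b → b ≤ w.length → P.Wo (w.take a) → P.Wo (w.take b) →
    a + 2 * P.p0 + 2 * P.N1 < b
  hz : P.n + 2 * P.p0 + 2 * P.N1 ≤ P.z0
  hc : ∀ k < P.K, 0 < P.c k ∧ P.c k ≤ P.p0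
  hp0 : 0 < P.p0
  lam_len : ∀ p v, P.lam p = some v → p.length < P.N1
  sound1 : ∀ p q v b, P.lam p = some v → P.rho q = some b →
    b = act v (P.ph (p ++ q)) + P.nu (p ++ q)
  comp1 : ∀ u : List α, P.z0 ≤ u.length + P.p0 → ¬ P.BT u.length → ∀ v, ∃ p q b,
    u = p ++ q ∧ P.lam p = some v ∧ P.rho q = some b
  sound2 : ∀ k < P.K, ∀ (p q : List α) (v y : Tok S), p.length = P.c k → P.lam2 k p = some v →
    P.rho2 k q = some y → y = act v (P.ph (p ++ q)) + P.nu2 (p ++ q)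
  comp2 : ∀ (X : List α) (v : Tok S), X.length = P.p0 → ∃ I : Finset ℕ, R ≤ I.card ∧
    ∀ k ∈ I, k < P.K ∧ P.lam2 k (X.take (P.c k)) = some v ∧ (P.rho2 k (X.drop (P.c k))).isSome
  spoil : ∀ z t, P.IsT z t → (P.spoiled z).card < R

/-- regularity of the ingredients -/
structure Reg (P : Par α S) : Prop where
  wo : Language.IsRegular ({Q | P.Wo Q} : Language α)
  rho : ∀ b, Language.IsRegular ({q | P.rho q = some b} : Language α)
  nu : ∀ b, Language.IsRegular ({q | P.nu q = b} : Language α)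
  bt : ∀ k : ℕ, Language.IsRegular ({q | P.BT (q.length + k - P.p0)} : Language α)
  /-- regular languages whose words have at most `r` walls have height one -/
  few : ∀ (L : Language α) (r : ℕ), L.IsRegular →
    (∀ w ∈ L, ∃ F : Finset ℕ, F.card ≤ r ∧ ∀ t ≤ w.length, P.Wo (w.take t) → t ∈ F) → HL 1 L

end Par

end Crest.Agent.R320.Asm_621
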