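import Mathlib

/-!
Row 320, final plan: natural chain `first wall >= z` with left looking walls on all words, scheme 1 =
any gadget on all words which is complete off a thin set of lengths (693 #13203), scheme 2 = exact
gadget with ruler.  This file proves (s1), (s2), (cc) of 163's frozen TOP (#13363) from the two gadgets,
the walls and the thinness of the bad lengths along the ruler.
-/

set_option autoImplicit false
set_option linter.unusedSectionVars false

namespace Crest.Agent.R320.Asm_624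

open Finset

structure D (α V S : Type*) where
  φ : List α → S
  act : V → S → V
  Wo : List α → Prop
  n : ℕ
  z : ℕ
  p0 : ℕ
  N1 : ℕ
  K : ℕ
  c : ℕ → ℕ
  lam1 : List α → Option V
  rho1 : List α → Option V
  nu1 : List α → V
  lam2 : ℕ → List α → Option V
  rho2 : ℕ → List α → Option V
  nu2 : List α → V
  Bd : ℤ → Prop

variable {α V S : Type*} [AddCommGroup V] [Monoid S]

namespace D

variable (D : D α V S)

/-- blocks -/
def XX : Set (List α) :=
  {X | D.Wo X ∧ D.z ≤ X.length ∧ ∀ t < X.length, D.z ≤ t → ¬ D.Wo (X.take t)}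

/-- zone map -/
def T (v : V) (X : List α) : V :=
  D.act (D.act v (D.φ (X.take D.p0)) + D.nu2 (X.take D.p0)) (D.φ (X.drop D.p0))
    + D.nu1 (X.drop D.p0)

def LP1 (P : List α) (v : V) : Prop :=
  D.p0 ≤ P.length ∧ P.length ≤ D.p0 + D.N1 ∧
    D.lam1 (P.drop D.p0) = some (D.act v (D.φ (P.take D.p0)) + D.nu2 (P.take D.p0))

def Leg1 (Q : List α) : Prop :=
  D.Wo Q ∧ D.z ≤ D.p0 + Q.length ∧ ∀ t < Q.length, D.Wo (Q.take t) → D.p0 + D.N1 + t < D.z

open Classical in
noncomputable def R1 (Q : List α) : Option V := if D.Leg1 Q then D.rho1 Q else none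

def LP2 (P : List α) (v : V) : Prop := ∃ k < D.K, P.length = D.c k ∧ D.lam2 k P = some v

/-- `t` is the end of the first block of the candidate `k` -/
def Fs (k : ℕ) (Q : List α) (t : ℕ) : Prop :=
  D.z ≤ D.c k + t ∧ t ≤ Q.length ∧ D.Wo (Q.take t) ∧
    ∀ t' < t, D.z ≤ D.c k + t' → ¬ D.Wo (Q.take t')

/-- the block of candidate `k` is bad -/
def BadC (k : ℕ) (Q : List α) : Prop :=
  ∃ t, D.Fs k Q t ∧ (D.Bd ((D.c k : ℤ) + t - D.p0) ∨ D.c k + t < D.z + D.N1 ∨
    ∃ t' < t, D.Wo (Q.take t') ∧ D.z ≤ D.c k + t' + D.N1)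

def Bad (X : List α) : Prop :=
  D.Bd ((X.length : ℤ) - D.p0) ∨ X.length < D.z + D.N1 ∨
    ∃ t < X.length, D.Wo (X.take t) ∧ D.z ≤ t + D.N1

def RR2 (Q : List α) (b : V) : Prop :=
  ∃ k < D.K, D.BadC k Q ∧ (∀ k' < D.K, D.BadC k' Q → k' = k) ∧ ∃ t, D.Fs k Q t ∧ Q.drop t ∈ D.XX ∧
    ∃ r, D.rho2 k (Q.take (D.p0 - D.c k)) = some r ∧
      b = D.T (D.act r (D.φ ((Q.take t).drop (D.p0 - D.c k)))
        + D.nu1 ((Q.take t).drop (D.p0 - D.c k))) (Q.drop t)

open Classical in
noncomputable def R2 (Q : List α) : Option V :=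
  if h : ∃ b, D.RR2 Q b then some h.choose else none

structure Ok (W r1 : ℕ) : Prop where
  φ_app : ∀ u v, D.φ (u ++ v) = D.φ u * D.φ v
  w_app : ∀ P Q : List α, D.n ≤ Q.length → (D.Wo (P ++ Q) ↔ D.Wo Q)
  w_len : ∀ Q, D.Wo Q → D.n ≤ Q.length
  gap : ∀ (X : List α) (s t : ℕ), s < t → t ≤ X.length → D.Wo (X.take s) → D.Wo (X.take t) →
    s + W < t
  z_big : 2 * D.p0 + 2 * D.N1 + D.n + 2 ≤ D.z
  c_le : ∀ k < D.K, D.c k ≤ D.p0
  W_big : 2 * D.p0 + 2 * D.N1 + 2 ≤ W
  g1s : ∀ P Q v b, D.lam1 P = some v → D.rho1 Q = some b →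
    b = D.act v (D.φ (P ++ Q)) + D.nu1 (P ++ Q)
  g1b : ∀ P v, D.lam1 P = some v → P.length ≤ D.N1
  g1c : ∀ Y : List α, D.N1 ≤ Y.length → ¬ D.Bd (Y.length : ℤ) → ∀ v, ∃ P Q, Y = P ++ Q ∧
    D.lam1 P = some v ∧ (D.rho1 Q).isSome
  g2s : ∀ k < D.K, ∀ (P Q : List α) (v b : V), P.length = D.c k → (P ++ Q).length = D.p0 →
    D.lam2 k P = some v → D.rho2 k Q = some b → b = D.act v (D.φ (P ++ Q)) + D.nu2 (P ++ Q)
  g2c : ∀ (X : List α) (v : V), X.length = D.p0 → ∃ I : Finset ℕ, 2 + 2 * r1 ≤ I.card ∧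
    ∀ k ∈ I, k < D.K ∧ D.lam2 k (X.take (D.c k)) = some v ∧ (D.rho2 k (X.drop (D.c k))).isSome
  thin : ∀ τ : ℤ, ∃ B : Finset ℕ, B.card ≤ r1 ∧ ∀ k < D.K, ∀ k' < D.K, k' ≠ k →
    D.Bd (τ - ((D.c k : ℤ) - D.c k')) → k ∈ B
  gol : ∀ τ : ℤ, ∃ B : Finset ℕ, B.card ≤ 1 ∧ ∀ k < D.K, ∀ k' < D.K, k' ≠ k →
    τ < (D.c k : ℤ) - D.c k' + D.N1 → (D.c k : ℤ) - D.c k' ≤ τ + D.N1 → k ∈ B

variable {D} {W r1 : ℕ}

theorem Ok.mem_app (h : D.Ok W r1) {P Q : List α} (hP : P.length + D.n ≤ D.z) :
    P ++ Q ∈ D.XX ↔ (D.Wo Q ∧ D.z ≤ P.length + Q.length ∧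
      ∀ t < Q.length, D.z ≤ P.length + t → ¬ D.Wo (Q.take t)) := by
  have key : ∀ t, D.z ≤ P.length + t → t ≤ Q.length →
      (D.Wo ((P ++ Q).take (P.length + t)) ↔ D.Wo (Q.take t)) := by
    intro t ht hQ
    rw [List.take_append, List.take_of_length_le (by omega), Nat.add_sub_cancel_left]
    exact h.w_app _ _ (by rw [List.length_take]; omega)
  constructor
  · rintro ⟨h1, h2, h3⟩
    rw [List.length_append] at h2
    refine ⟨(h.w_app _ _ (by omega)).1 h1, h2, fun t ht hz hw => ?_⟩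
    exact h3 (P.length + t) (by rw [List.length_append]; omega) hz ((key t hz ht.le).2 hw)
  · rintro ⟨h1, h2, h3⟩
    refine ⟨(h.w_app _ _ (by omega)).2 h1, by rw [List.length_append]; exact h2,
      fun t ht hz hw => ?_⟩
    rw [List.length_append] at ht
    obtain ⟨t', rfl⟩ : ∃ t', t = P.length + t' := ⟨t - P.length, by omega⟩
    exact h3 t' (by omega) hz ((key t' hz (by omega)).1 hw)

theorem Ok.s1 (h : D.Ok W r1) {P Q : List α} {v b : V} (hL : D.LP1 P v) (hR : D.R1 Q = some b) :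
    P ++ Q ∈ D.XX ∧ D.T v (P ++ Q) = b := by
  classical
  obtain ⟨hp, hp2, hl⟩ := hL
  unfold R1 at hR
  split_ifs at hR with hleg
  obtain ⟨hw, hz, hno⟩ := hleg
  have := h.z_big
  refine ⟨(h.mem_app (by omega)).2 ⟨hw, by omega, fun t ht hzt hwt => ?_⟩, ?_⟩
  · have := hno t ht hwt
    omega
  · unfold T
    have e1 : (P ++ Q).take D.p0 = P.take D.p0 := by
      rw [List.take_append, Nat.sub_eq_zero_of_le hp]; simp
    have e2 : (P ++ Q).drop D.p0 = P.drop D.p0 ++ Q := by
      rw [List.drop_append, Nat.sub_eq_zero_of_le hp]; simp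
    rw [e1, e2]
    exact (h.g1s _ _ _ _ hl hR).symm

theorem Ok.c1 (h : D.Ok W r1) {X : List α} (hX : X ∈ D.XX) (hb : ¬ D.Bad X) (v : V) :
    ∃ P Q, X = P ++ Q ∧ D.LP1 P v ∧ (D.R1 Q).isSome := by
  classical
  have hzb := h.z_big
  obtain ⟨hw, hz, hno⟩ := hX
  unfold Bad at hb
  push Not at hb
  obtain ⟨hb1, hb2, hb3⟩ := hb
  have hlen : (X.drop D.p0).length = X.length - D.p0 := List.length_drop
  obtain ⟨P', Q', he, hl, hr⟩ := h.g1c (X.drop D.p0) (by omega)
    (by rw [hlen, Nat.cast_sub (by omega)]; exact hb1)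
    (D.act v (D.φ (X.take D.p0)) + D.nu2 (X.take D.p0))
  have hP' := h.g1b _ _ hl
  have hl1 : (X.take D.p0).length = D.p0 := by rw [List.length_take]; omega
  have hXe : X = (X.take D.p0 ++ P') ++ Q' := by
    rw [List.append_assoc, ← he, List.take_append_drop]
  have hlX : X.length = D.p0 + P'.length + Q'.length := by
    conv_lhs => rw [hXe]
    rw [List.length_append, List.length_append, hl1]
  refine ⟨X.take D.p0 ++ P', Q', hXe, ⟨?_, ?_, ?_⟩, ?_⟩
  · rw [List.length_append, hl1]; omega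
  · rw [List.length_append, hl1]; omega
  · have e1 : (X.take D.p0 ++ P').take D.p0 = X.take D.p0 := by
      rw [List.take_append, hl1]; simp
    have e2 : (X.take D.p0 ++ P').drop D.p0 = P' := by
      rw [List.drop_append, hl1]; simp
    rw [e1, e2, hl]
  · have hleg : D.Leg1 Q' := by
      have hQl : D.n ≤ Q'.length := by omega
      refine ⟨?_, by omega, fun t ht hwt => ?_⟩
      · rw [hXe] at hw
        exact (h.w_app _ _ hQl).1 hw
      · by_contra hcon
        push Not at hcon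
        have hn := h.w_len _ hwt
        rw [List.length_take] at hn
        have hwX : D.Wo (X.take (D.p0 + P'.length + t)) := by
          conv => arg 2; rw [hXe]
          rw [List.take_append, List.take_of_length_le (by rw [List.length_append, hl1]; omega),
            List.length_append, hl1, Nat.add_sub_cancel_left]
          exact (h.w_app _ _ (by rw [List.length_take]; omega)).2 hwt
        have := hb3 (D.p0 + P'.length + t) (by omega) hwX
        have hN := this
        by_cases hc : D.z ≤ D.p0 + P'.length + t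
        · exact hno _ (by omega) hc hwX
        · omega
    unfold R1
    rw [if_pos hleg]
    exact hr

theorem Fs_unique {k : ℕ} {Q : List α} {t t' : ℕ} (h1 : D.Fs k Q t) (h2 : D.Fs k Q t') : t = t' := by
  rcases lt_trichotomy t t' with hlt | heq | hlt
  · exact absurd h1.2.2.1 (h2.2.2.2 t hlt h1.1)
  · exact heq
  · exact absurd h2.2.2.1 (h1.2.2.2 t' hlt h2.1)

theorem Fs_exists {k : ℕ} {Q : List α} {t : ℕ} (h1 : D.z ≤ D.c k + t) (h2 : t ≤ Q.length)
    (h3 : D.Wo (Q.take t)) : ∃ t', D.Fs k Q t' := by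
  classical
  have hex : ∃ t', D.z ≤ D.c k + t' ∧ t' ≤ Q.length ∧ D.Wo (Q.take t') := ⟨t, h1, h2, h3⟩
  refine ⟨Nat.find hex, (Nat.find_spec hex).1, (Nat.find_spec hex).2.1, (Nat.find_spec hex).2.2,
    fun t' ht' hz hw => ?_⟩
  exact Nat.find_min hex ht' ⟨hz, by have := (Nat.find_spec hex).2.1; omega, hw⟩

theorem Ok.blk (h : D.Ok W r1) {k : ℕ} (hk : k < D.K) {P Q : List α} {t : ℕ}
    (hP : P.length = D.c k) (hF : D.Fs k Q t) : P ++ Q.take t ∈ D.XX := by
  have hzb := h.z_big
  have hc := h.c_le k hk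
  obtain ⟨h1, h2, h3, h4⟩ := hF
  have hlt : (Q.take t).length = t := by rw [List.length_take]; omega
  refine (h.mem_app (by omega)).2 ⟨h3, by rw [hlt, hP]; exact h1, fun t' ht' hz hw => ?_⟩
  rw [hlt] at ht'
  rw [List.take_take, min_eq_left ht'.le] at hw
  exact h4 t' ht' (by rw [hP] at hz; exact hz) hw

theorem Ok.bad_iff (h : D.Ok W r1) {k : ℕ} (hk : k < D.K) {P Q : List α} {t : ℕ}
    (hP : P.length = D.c k) (hF : D.Fs k Q t) :
    D.Bad (P ++ Q.take t) ↔ (D.Bd ((D.c k : ℤ) + t - D.p0) ∨ D.c k + t < D.z + D.N1 ∨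
    ∃ t' < t, D.Wo (Q.take t') ∧ D.z ≤ D.c k + t' + D.N1) := by
  have hzb := h.z_big
  have hc := h.c_le k hk
  obtain ⟨h1, h2, h3, h4⟩ := hF
  have hlt : (Q.take t).length = t := by rw [List.length_take]; omega
  have hl : (P ++ Q.take t).length = D.c k + t := by rw [List.length_append, hlt, hP]
  have key : ∀ t', t' ≤ t → D.n ≤ t' →
      (D.Wo ((P ++ Q.take t).take (D.c k + t')) ↔ D.Wo (Q.take t')) := by
    intro t' ht' hn
    rw [List.take_append, List.take_of_length_le (by omega), hP, Nat.add_sub_cancel_left,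
      List.take_take, min_eq_left ht']
    exact h.w_app _ _ (by rw [List.length_take]; omega)
  unfold Bad
  rw [hl]
  push_cast
  refine or_congr Iff.rfl (or_congr Iff.rfl ⟨?_, ?_⟩)
  · rintro ⟨t'', ht'', hw, hz⟩
    obtain ⟨t', rfl⟩ : ∃ t', t'' = D.c k + t' := ⟨t'' - D.c k, by omega⟩
    exact ⟨t', by omega, (key t' (by omega) (by omega)).1 hw, by omega⟩
  · rintro ⟨t', ht', hw, hz⟩
    exact ⟨D.c k + t', by omega, (key t' (by omega) (by omega)).2 hw, by omega⟩

theorem R2_spec {Q : List α} {b : V} (h : D.R2 Q = some b) : D.RR2 Q b := by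
  classical
  unfold R2 at h
  split_ifs at h with hex
  have := hex.choose_spec
  rw [Option.some.injEq] at h
  rw [h] at this
  exact this

theorem Ok.s2 (h : D.Ok W r1) {P Q : List α} {v b : V} (hL : D.LP2 P v) (hR : D.R2 Q = some b)
    (hun : ∀ X ∈ D.XX, X <+: P ++ Q → ∀ P' Q', X = P' ++ Q' → P.length ≤ P'.length → D.LP1 P' v →
      (D.R1 Q').isSome → False) :
    ∃ Q1 X2, Q = Q1 ++ X2 ∧ Q1 ≠ [] ∧ P ++ Q1 ∈ D.XX ∧ X2 ∈ D.XX ∧ D.T (D.T v (P ++ Q1)) X2 = b := by
  have hzb := h.z_big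
  obtain ⟨k0, hk0, hP, hl⟩ := hL
  obtain ⟨k, hk, -, huniq, t, hF, hX2, r, hr, hb⟩ := R2_spec hR
  have hc0 := h.c_le k0 hk0
  have hck := h.c_le k hk
  -- the whole word ends in a wall
  have hlX2 : D.z ≤ (Q.drop t).length := hX2.2.1
  rw [List.length_drop] at hlX2
  have hwQ : D.Wo Q := by
    have := hX2.1
    rw [← List.take_append_drop t Q]
    exact (h.w_app _ _ (by rw [List.length_drop]; omega)).2 this
  obtain ⟨t0, hF0⟩ := Fs_exists (D := D) (k := k0) (Q := Q) (t := Q.length) (by omega) le_rfl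
    (by rw [List.take_length]; exact hwQ)
  have hXX := h.blk hk0 hP hF0
  have hbad : D.Bad (P ++ Q.take t0) := by
    by_contra hnb
    obtain ⟨P', Q', he, hl1, hr1⟩ := h.c1 hXX hnb v
    refine hun _ hXX ?_ P' Q' he ?_ hl1 hr1
    · exact (List.prefix_append_right_inj _).2 (List.take_prefix _ _)
    · have := hl1.1
      omega
  have hkk : k0 = k := huniq k0 hk0 ⟨t0, hF0, (h.bad_iff hk0 hP hF0).1 hbad⟩
  subst hkk
  have htt : t0 = t := Fs_unique hF0 hF
  subst htt
  obtain ⟨f1, f2, f3, f4⟩ := hF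
  have hlt : (Q.take t0).length = t0 := by rw [List.length_take]; omega
  refine ⟨Q.take t0, Q.drop t0, (List.take_append_drop t0 Q).symm, ?_, hXX, hX2, ?_⟩
  · intro hnil
    rw [hnil] at hlt
    simp at hlt
    omega
  · rw [hb]
    congr 1
    unfold T
    have e1 : (P ++ Q.take t0).take D.p0 = P ++ Q.take (D.p0 - D.c k0) := by
      rw [List.take_append, List.take_of_length_le (by omega), hP, List.take_take,
        min_eq_left (by omega)]
    have e2 : (P ++ Q.take t0).drop D.p0 = (Q.take t0).drop (D.p0 - D.c k0) := by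
      rw [List.drop_append, List.drop_of_length_le (by omega), hP]
      simp
    rw [e1, e2, h.g2s k0 hk0 P (Q.take (D.p0 - D.c k0)) v r hP
      (by rw [List.length_append, List.length_take]; omega) hl hr]

theorem Ok.few (h : D.Ok W r1) {w : List α} (hw : D.Wo w) (hlw : 2 * D.z ≤ w.length) :
    ∃ B : Finset ℕ, B.card ≤ 1 + 2 * r1 ∧ ∀ k < D.K, ∀ k' < D.K, k' ≠ k →
      D.BadC k' (w.drop (D.c k)) → k ∈ B := by
  classical
  have hzb := h.z_big
  have hW := h.W_big
  -- the wall in the doubtful range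
  obtain ⟨t0, ht0⟩ : ∃ t0, ∀ t ≤ w.length, D.Wo (w.take t) → D.z ≤ t + D.p0 + D.N1 →
      t ≤ D.z + D.p0 + D.N1 → t = t0 := by
    by_cases hex : ∃ t ≤ w.length, D.Wo (w.take t) ∧ D.z ≤ t + D.p0 + D.N1 ∧
      t ≤ D.z + D.p0 + D.N1
    · obtain ⟨t0, h1, h2, h3, h4⟩ := hex
      refine ⟨t0, fun t g1 g2 g3 g4 => ?_⟩
      rcases lt_trichotomy t t0 with hlt | heq | hlt
      · have := h.gap w t t0 hlt h1 g2 h2
        omega
      · exact heq
      · have := h.gap w t0 t hlt g1 h2 g2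
        omega
    · push Not at hex
      refine ⟨0, fun t g1 g2 g3 g4 => ?_⟩
      have := hex t g1 g2 g3
      omega
  have hex1 : ∃ t, t ≤ w.length ∧ D.Wo (w.take t) ∧ D.z + D.p0 + D.N1 < t :=
    ⟨w.length, le_rfl, by rw [List.take_length]; exact hw, by omega⟩
  obtain ⟨B1, hB1, hB1'⟩ := h.thin ((t0 : ℤ) - D.p0)
  obtain ⟨B2, hB2, hB2'⟩ := h.thin ((Nat.find hex1 : ℤ) - D.p0)
  obtain ⟨B3, hB3, hB3'⟩ := h.gol ((t0 : ℤ) - D.z)
  refine ⟨B3 ∪ (B1 ∪ B2), ?_, ?_⟩
  · have e1 := card_union_le B3 (B1 ∪ B2)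
    have e2 := card_union_le B1 B2
    omega
  intro k hk k' hk' hne ⟨t, ⟨f1, f2, f3, f4⟩, hbad⟩
  have hck := h.c_le k hk
  have hck' := h.c_le k' hk'
  rw [List.length_drop] at f2
  have key : ∀ t', t' ≤ w.length - D.c k → D.n ≤ t' →
      (D.Wo (w.take (D.c k + t')) ↔ D.Wo ((w.drop (D.c k)).take t')) := by
    intro t' ht' hn
    have e : w.take (D.c k + t') = w.take (D.c k) ++ (w.drop (D.c k)).take t' := by
      rw [List.take_add]
    rw [e]
    exact h.w_app _ _ (by rw [List.length_take, List.length_drop]; omega)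
  have hs : D.Wo (w.take (D.c k + t)) := (key t f2 (by omega)).2 f3
  simp only [mem_union]
  rcases hbad with hbad | hbad | ⟨t', ht', hwt', hzt'⟩
  · by_cases hr : D.c k + t ≤ D.z + D.p0 + D.N1
    · have hst := ht0 (D.c k + t) (by omega) hs (by omega) hr
      right; left
      refine hB1' k hk k' hk' hne ?_
      have : (t0 : ℤ) - D.p0 - ((D.c k : ℤ) - D.c k') = (D.c k' : ℤ) + t - D.p0 := by
        rw [← hst]; push_cast; ring
      rw [this]; exact hbad
    · have hst : Nat.find hex1 = D.c k + t := by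
        apply le_antisymm
        · exact Nat.find_min' hex1 ⟨by omega, hs, by omega⟩
        · by_contra hlt
          push Not at hlt
          obtain ⟨g1, g2, g3⟩ := Nat.find_spec hex1
          obtain ⟨t', ht'⟩ : ∃ t', Nat.find hex1 = D.c k + t' :=
            ⟨Nat.find hex1 - D.c k, by omega⟩
          rw [ht'] at g1 g2 g3 hlt
          exact f4 t' (by omega) (by omega) ((key t' (by omega) (by omega)).1 g2)
      right; right
      refine hB2' k hk k' hk' hne ?_
      have : (Nat.find hex1 : ℤ) - D.p0 - ((D.c k : ℤ) - D.c k') = (D.c k' : ℤ) + t - D.p0 := by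
        rw [hst]; push_cast; ring
      rw [this]; exact hbad
  · left
    have hst := ht0 (D.c k + t) (by omega) hs (by omega) (by omega)
    refine hB3' k hk k' hk' hne ?_ ?_
    · rw [← hst]; push_cast; omega
    · rw [← hst]; push_cast; omega
  · left
    have hn := h.w_len _ hwt'
    rw [List.length_take, List.length_drop] at hn
    have hs' : D.Wo (w.take (D.c k + t')) := (key t' (by omega) (by omega)).2 hwt'
    have hlt : D.c k' + t' < D.z := by
      by_contra hcon
      exact f4 t' ht' (by omega) hwt'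
    have hst := ht0 (D.c k + t') (by omega) hs' (by omega) (by omega)
    refine hB3' k hk k' hk' hne ?_ ?_
    · rw [← hst]; push_cast; omega
    · rw [← hst]; push_cast; omega

theorem Ok.cc (h : D.Ok W r1) {X X2 : List α} (hX : X ∈ D.XX) (hX2 : X2 ∈ D.XX) (v : V) :
    (∃ P Q, X = P ++ Q ∧ D.LP1 P v ∧ (D.R1 Q).isSome) ∨
    (∃ P Q, X ++ X2 = P ++ Q ∧ P.length < X.length ∧ D.LP2 P v ∧ (D.R2 Q).isSome) := by
  classical
  by_cases hb : D.Bad X
  swap
  · exact Or.inl (h.c1 hX hb v)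
  right
  have hzb := h.z_big
  obtain ⟨hwX, hzX, hnoX⟩ := hX
  have hzX2 := hX2.2.1
  have hw : D.Wo (X ++ X2) := (h.w_app _ _ (by omega)).2 hX2.1
  obtain ⟨B, hB, hB'⟩ := h.few hw (by rw [List.length_append]; omega)
  have hl1 : (X.take D.p0).length = D.p0 := by rw [List.length_take]; omega
  obtain ⟨I, hI, hI'⟩ := h.g2c (X.take D.p0) v hl1
  obtain ⟨k, hkI, hkB⟩ : ∃ k ∈ I, k ∉ B := by
    by_contra hcon
    push Not at hcon
    have := card_le_card (show I ⊆ B from hcon)
    omega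
  obtain ⟨hk, hl2, hr2⟩ := hI' k hkI
  have hck := h.c_le k hk
  have hdrop : (X ++ X2).drop (D.c k) = X.drop (D.c k) ++ X2 := by
    rw [List.drop_append, Nat.sub_eq_zero_of_le (by omega)]; simp
  have hlP : (X.take (D.c k)).length = D.c k := by rw [List.length_take]; omega
  have hlD : (X.drop (D.c k)).length = X.length - D.c k := List.length_drop
  have htk : (X.drop (D.c k) ++ X2).take (X.length - D.c k) = X.drop (D.c k) := by
    rw [List.take_append, hlD, Nat.sub_self, List.take_of_length_le (by omega)]; simp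
  have hdk : (X.drop (D.c k) ++ X2).drop (X.length - D.c k) = X2 := by
    rw [List.drop_append, hlD, Nat.sub_self, List.drop_of_length_le (by omega)]; simp
  have key : ∀ t', t' ≤ X.length - D.c k → D.n ≤ t' →
      (D.Wo (X.take (D.c k + t')) ↔ D.Wo ((X.drop (D.c k)).take t')) := by
    intro t' ht' hn
    have e : X.take (D.c k + t') = X.take (D.c k) ++ (X.drop (D.c k)).take t' := by
      rw [List.take_add]
    rw [e]
    exact h.w_app _ _ (by rw [List.length_take, List.length_drop]; omega)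
  have hFs : D.Fs k (X.drop (D.c k) ++ X2) (X.length - D.c k) := by
    refine ⟨by omega, by rw [List.length_append, hlD]; omega, ?_, fun t' ht' hz hwt => ?_⟩
    · rw [htk]
      have : D.Wo (X.take (D.c k) ++ X.drop (D.c k)) := by
        rw [List.take_append_drop]; exact hwX
      exact (h.w_app _ _ (by omega)).1 this
    · have e : (X.drop (D.c k) ++ X2).take t' = (X.drop (D.c k)).take t' := by
        rw [List.take_append, Nat.sub_eq_zero_of_le (by omega)]; simp
      rw [e] at hwt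
      exact hnoX (D.c k + t') (by omega) hz ((key t' (by omega) (by omega)).2 hwt)
  have hbad : D.BadC k (X.drop (D.c k) ++ X2) := by
    refine ⟨_, hFs, (h.bad_iff hk hlP hFs).1 ?_⟩
    rw [htk, List.take_append_drop]
    exact hb
  refine ⟨X.take (D.c k), X.drop (D.c k) ++ X2, by rw [← List.append_assoc, List.take_append_drop],
    by omega, ⟨k, hk, hlP, ?_⟩, ?_⟩
  · rw [List.take_take, min_eq_left hck] at hl2
    exact hl2
  · obtain ⟨r, hr⟩ := Option.isSome_iff_exists.1 hr2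
    have hte : (X.drop (D.c k) ++ X2).take (D.p0 - D.c k) = (X.take D.p0).drop (D.c k) := by
      rw [List.drop_take, List.take_append_of_le_length (by omega)]
    have hrr : D.rho2 k ((X.drop (D.c k) ++ X2).take (D.p0 - D.c k)) = some r := by
      rw [hte]; exact hr
    have hex : ∃ b, D.RR2 (X.drop (D.c k) ++ X2) b :=
      ⟨_, k, hk, hbad, fun k' hk' hb' => by
        by_contra hne
        exact hkB (hB' k hk k' hk' hne (by rw [hdrop]; exact hb')),
        _, hFs, by rw [hdk]; exact hX2, r, hrr, rfl⟩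
    unfold R2
    rw [dif_pos hex]
    rfl

theorem nil_notMem (h : D.Ok W r1) : [] ∉ D.XX := by
  intro hX
  have := hX.2.1
  have := h.z_big
  simp at *
  omega

theorem prefix_code {X Y : List α} (hX : X ∈ D.XX) (hXY : X ++ Y ∈ D.XX) : Y = [] := by
  by_contra hne
  have hl : 0 < Y.length := List.length_pos_iff.2 hne
  refine hXY.2.2 X.length (by rw [List.length_append]; omega) hX.2.1 ?_
  rw [List.take_left]
  exact hX.1

end D
end Crest.Agent.R320.Asm_624
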