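import Crest.Agent.R320.Top5_467
import Crest.Agent.R320.ExactR_237
import Crest.Agent.R320.WallU_228

/-!
# Row 320, instance of `Top5_467.top5` on all words: natural chain rule (helper667)

Blocks end at the first wall at distance at least `z` from the anchor.
-/

set_option autoImplicit false

namespace Crest.Agent.R320.Asm_667

open Crest.RegLang Crest.Agent.R320.Hk_851 Crest.Agent.R320.Blk467

/-- natural block code: a block ends at the first wall at distance at least `z` -/
def XXn {α : Type} (Wo : List α → Prop) (z : ℕ) : Set (List α) :=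
  {X | z ≤ X.length ∧ Wo X ∧ ∀ t, z ≤ t → t < X.length → ¬ Wo (X.take t)}

/-- a wall in the band of radius `N1` around `z` -/
def EB {α : Type} (Wo : List α → Prop) (z N1 : ℕ) (X : List α) : Prop :=
  ∃ t, z ≤ t + N1 ∧ t ≤ z + N1 ∧ t ≤ X.length ∧ Wo (X.take t)

theorem xx_pcode {α : Type} {Wo : List α → Prop} {z : ℕ} (hz : 0 < z) : PCode (XXn Wo z) := by
  refine ⟨fun h => ?_, fun X hX Y hY hXY => ?_⟩
  · have := h.1
    simp at this
    omega
  · obtain ⟨r, rfl⟩ := hXY
    by_contra hne
    have hr : r ≠ [] := by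
      rintro rfl
      exact hne (by simp)
    have hl : 0 < r.length := List.length_pos_iff.2 hr
    refine hY.2.2 X.length hX.1 (by rw [List.length_append]; omega) ?_
    rw [List.take_left' rfl]
    exact hX.2.1

section walls

variable {α : Type} {Wo : List α → Prop} {n : ℕ}

/-- a wall far behind the cut place depends only on the right word -/
theorem wo_swap (hloc : ∀ P Q : List α, n ≤ Q.length → (Wo (P ++ Q) ↔ Wo Q))
    (P P' Q : List α) (s : ℕ) (hs : n ≤ s) (hsQ : s ≤ Q.length) :
    Wo ((P ++ Q).take (P.length + s)) ↔ Wo ((P' ++ Q).take (P'.length + s)) := by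
  have h1 : (P ++ Q).take (P.length + s) = P ++ Q.take s := by
    rw [List.take_append, List.take_of_length_le (by omega)]
    congr 2
    omega
  have h2 : (P' ++ Q).take (P'.length + s) = P' ++ Q.take s := by
    rw [List.take_append, List.take_of_length_le (by omega)]
    congr 2
    omega
  have hl : n ≤ (Q.take s).length := by rw [List.length_take]; omega
  rw [h1, h2, hloc _ _ hl, hloc _ _ hl]

end walls

section main

variable {α S V : Type} [Monoid S] [AddCommGroup V]
variable (φ : α → S) (act : V → S → V) (Wo : List α → Prop)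
  (n z N1 p0 K : ℕ) (c : ℕ → ℕ) (Bad : ℕ → Prop)
  (lam1 rho1 : List α → Option V) (nu1 nu2 : List α → V)
  (lam2 rho2 : ℕ → List α → Option V)

/-- product -/
def ph (w : List α) : S := (w.map φ).prod

theorem ph_append (u w : List α) : ph φ (u ++ w) = ph φ u * ph φ w := by
  simp [ph]

/-- total noise -/
def nuT (X : List α) : V := act (nu2 (X.take p0)) (ph φ (X.drop p0)) + nu1 (X.drop p0)

/-- zone map -/
def TT (v : V) (X : List α) : V := act v (ph φ X) + nuT φ act p0 nu1 nu2 X

/-- zone map in two steps -/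
theorem TT_eq (hadd : ∀ a b s, act (a + b) s = act a s + act b s)
    (hmul : ∀ v s t, act v (s * t) = act (act v s) t) (v : V) (X1 Y : List α)
    (h : X1.length = p0) :
    TT φ act p0 nu1 nu2 v (X1 ++ Y) =
      act (act v (ph φ X1) + nu2 X1) (ph φ Y) + nu1 Y := by
  unfold TT nuT
  rw [List.take_left' h, List.drop_left' h, ph_append, hmul, hadd, add_assoc]

/-- bad blocks -/
def Bd : Set (List α) :=
  {X | X ∈ XXn Wo z ∧ (EB Wo z N1 X ∨ Bad (X.length - p0))}

/-- left words of scheme 1 -/
def LP1 (v : V) : Language α :=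
  {P | p0 ≤ P.length ∧ lam1 (P.drop p0) = some (act v (ph φ (P.take p0)) + nu2 (P.take p0))}

/-- right words of scheme 1 -/
def RQ1 (b : V) : Language α :=
  {Q | ∀ (v : V) (P : List α), P ∈ LP1 φ act p0 lam1 nu2 v →
    P ++ Q ∈ XXn Wo z ∧ TT φ act p0 nu1 nu2 v (P ++ Q) = b}

/-- left words of scheme 2 -/
def LP2 (v : V) : Language α :=
  {P | ∃ k < K, P.length = c k ∧ lam2 k P = some v}

/-- right words of scheme 2 -/
def RQ2 (b : V) : Language α :=
  {Q | ∀ (v : V) (P : List α), P ∈ LP2 K c lam2 v →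
    (∃ X, X ∈ XXn Wo z ∧ X ∉ Bd Wo z N1 p0 Bad ∧ X <+: P ++ Q) ∨
    (∃ X ∈ Bd Wo z N1 p0 Bad, ∃ X' ∈ Bd Wo z N1 p0 Bad, P ++ Q = X ++ X' ∧
      TT φ act p0 nu1 nu2 (TT φ act p0 nu1 nu2 v X) X' = b)}

theorem s2_ok (hz : 0 < z) (v b : V) (P Q r : List α) (hP : P ∈ LP2 K c lam2 v)
    (hQ : Q ∈ RQ2 φ act Wo z N1 p0 K c Bad nu1 nu2 lam2 b)
    (h : P ++ Q ++ r ∈ Str (Bd Wo z N1 p0 Bad)) :
    P ++ Q ∈ Lg (Bd Wo z N1 p0 Bad) (TT φ act p0 nu1 nu2) v b := by
  rcases hQ v P hP with ⟨X, hX, hXb, hpre⟩ | ⟨X, hX, X', hX', e, hb⟩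
  · exfalso
    obtain ⟨l, hl, e⟩ := h
    have hpc := xx_pcode (Wo := Wo) hz
    have hpre' : X <+: l.flatten := by
      rw [e]
      exact hpre.trans (List.prefix_append _ _)
    cases l with
    | nil =>
      rw [List.flatten_nil] at hpre'
      have : X = [] := List.prefix_nil.1 hpre'
      exact hpc.1 (this ▸ hX)
    | cons B l =>
      have hB := hl B (by simp)
      rw [List.flatten_cons] at hpre'
      have hBX : B = X := by
        rcases List.prefix_or_prefix_of_prefix (List.prefix_append B l.flatten) hpre' with h1 | h1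
        · exact hpc.2 B hB.1 X hX h1
        · exact (hpc.2 X hX B hB.1 h1).symm
      exact hXb (hBX ▸ hB)
  · exact ⟨[X, X'], by
      intro Y hY
      simp only [List.mem_cons, List.not_mem_nil, or_false] at hY
      rcases hY with rfl | rfl
      · exact hX
      · exact hX', by simp [e], by simpa using hb⟩

theorem c1_ok (hadd : ∀ a b s, act (a + b) s = act a s + act b s)
    (hmul : ∀ v s t, act v (s * t) = act (act v s) t)
    (hloc : ∀ P Q : List α, n ≤ Q.length → (Wo (P ++ Q) ↔ Wo Q))
    (La : ℕ) (hz : p0 + 2 * N1 + n + La ≤ z)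
    (hlam : ∀ p v, lam1 p = some v → p.length ≤ N1)
    (hsound : ∀ p q v r, lam1 p = some v → rho1 q = some r → La ≤ q.length →
      r = act v (ph φ (p ++ q)) + nu1 (p ++ q))
    (hcomp : ∀ u, La ≤ u.length → ¬ Bad u.length → ∀ v, ∃ p q, p ++ q = u ∧
      lam1 p = some v ∧ (rho1 q).isSome)
    (X : List α) (hX : X ∈ XXn Wo z) (hXb : X ∉ Bd Wo z N1 p0 Bad) (v : V) :
    ∃ P Q, P ++ Q = X ∧ P ∈ LP1 φ act p0 lam1 nu2 v ∧
      Q ∈ RQ1 φ act Wo z p0 lam1 nu1 nu2 (TT φ act p0 nu1 nu2 v X) := by
  have hXl := hX.1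
  have hnE : ¬ EB Wo z N1 X := fun h => hXb ⟨hX, Or.inl h⟩
  have hnB : ¬ Bad (X.length - p0) := fun h => hXb ⟨hX, Or.inr h⟩
  have hYl : (X.drop p0).length = X.length - p0 := List.length_drop ..
  obtain ⟨p, q, e, hp, hq⟩ := hcomp (X.drop p0) (by omega) (by rw [hYl]; exact hnB)
    (act v (ph φ (X.take p0)) + nu2 (X.take p0))
  obtain ⟨r, hr⟩ := Option.isSome_iff_exists.1 hq
  have hpl := hlam _ _ hp
  have hX1 : (X.take p0).length = p0 := by rw [List.length_take]; omega
  have hXe : X.take p0 ++ p ++ q = X := by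
    rw [List.append_assoc, e, List.take_append_drop]
  have hpq : p.length + q.length = X.length - p0 := by
    rw [← hYl, ← e, List.length_append]
  have hend : z + N1 < X.length := by
    by_contra hc
    exact hnE ⟨X.length, by omega, by omega, le_rfl, by rw [List.take_length]; exact hX.2.1⟩
  refine ⟨X.take p0 ++ p, q, hXe, ⟨by rw [List.length_append]; omega, ?_⟩, ?_⟩
  · rw [List.drop_left' hX1, List.take_left' hX1]
    exact hp
  · intro v2 P2 hP2
    obtain ⟨h1, h2⟩ := hP2
    have hp2 := hlam _ _ h2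
    have hP2l : P2.length = p0 + (P2.drop p0).length := by rw [List.length_drop]; omega
    have hPl : (X.take p0 ++ p).length = p0 + p.length := by
      rw [List.length_append, hX1]
    have hnq : n ≤ q.length := by omega
    constructor
    · refine ⟨by rw [List.length_append]; omega, ?_, ?_⟩
      · rw [hloc _ _ hnq]
        have := hX.2.1
        rw [← hXe, hloc _ _ hnq] at this
        exact this
      · intro t ht1 ht2 hw
        rw [List.length_append] at ht2
        set s := t - P2.length with hs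
        have ht : t = P2.length + s := by omega
        rw [ht, wo_swap hloc P2 (X.take p0 ++ p) q s (by omega) (by omega), hXe] at hw
        by_cases hcase : z ≤ (X.take p0 ++ p).length + s
        · exact hX.2.2 _ hcase (by omega) hw
        · exact hnE ⟨_, by omega, by omega, by omega, hw⟩
    · have hLaq : La ≤ q.length := by omega
      have e1 := hsound _ _ _ _ hp hr hLaq
      have e2 := hsound _ _ _ _ h2 hr hLaq
      have hT1 : TT φ act p0 nu1 nu2 v X =
          act (act v (ph φ (X.take p0)) + nu2 (X.take p0)) (ph φ (p ++ q)) + nu1 (p ++ q) := by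
        have h3 := TT_eq φ act p0 nu1 nu2 hadd hmul v (X.take p0) (p ++ q) hX1
        rw [← List.append_assoc, hXe] at h3
        exact h3
      have hP1 : (P2.take p0).length = p0 := by rw [List.length_take]; omega
      have hT2 := TT_eq φ act p0 nu1 nu2 hadd hmul v2 (P2.take p0) (P2.drop p0 ++ q) hP1
      rw [← List.append_assoc, List.take_append_drop] at hT2
      rw [hT1, hT2, ← e1, ← e2]

end main

section scheme2

variable {α S V : Type} [Monoid S] [AddCommGroup V]
variable (φ : α → S) (act : V → S → V) (Wo : List α → Prop)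
  (n z N1 p0 K : ℕ) (c : ℕ → ℕ) (Bad : ℕ → Prop)
  (nu1 nu2 : List α → V) (lam2 rho2 : ℕ → List α → Option V)

open Classical in
/-- an unspoiled place -/
theorem unspoiled (C0 La R : ℕ) (hR : 2 * C0 + 2 ≤ R)
    (hsp : ∀ i j k l, i < K → j < K → k < K → l < K → i ≠ j → k ≠ l → (i, j) ≠ (k, l) →
      c i + c l + 4 * N1 < c k + c j ∨ c k + c j + 4 * N1 < c i + c l)
    (hcount : ∀ T, La ≤ T → ((Finset.range K ×ˢ Finset.range K).filter
      (fun p => p.1 ≠ p.2 ∧ Bad (T + c p.2 - c p.1))).card ≤ C0)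
    (T0 T1 τ0 : ℕ) (h0 : La ≤ T0) (h1 : La ≤ T1) (I : Finset ℕ) (hI : R ≤ I.card)
    (hIK : ∀ k ∈ I, k < K) :
    ∃ k ∈ I, ∀ j < K, j ≠ k → ¬ Bad (T0 + c j - c k) ∧ ¬ Bad (T1 + c j - c k) ∧
      ¬ (z + c k ≤ τ0 + c j + N1 ∧ τ0 + c j ≤ z + c k + N1) := by
  by_contra hcon
  push Not at hcon
  let S0 := (Finset.range K ×ˢ Finset.range K).filter
    (fun p => p.1 ≠ p.2 ∧ Bad (T0 + c p.2 - c p.1))
  let S1 := (Finset.range K ×ˢ Finset.range K).filter
    (fun p => p.1 ≠ p.2 ∧ Bad (T1 + c p.2 - c p.1))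
  let S2 := (Finset.range K ×ˢ Finset.range K).filter
    (fun p => p.1 ≠ p.2 ∧ (z + c p.1 ≤ τ0 + c p.2 + N1 ∧ τ0 + c p.2 ≤ z + c p.1 + N1))
  have c0 : S0.card ≤ C0 := hcount T0 h0
  have c1 : S1.card ≤ C0 := hcount T1 h1
  have c2 : S2.card ≤ 1 := by
    rw [Finset.card_le_one]
    intro a ha b hb
    by_contra hab
    simp only [S2, Finset.mem_filter, Finset.mem_product, Finset.mem_range] at ha hb
    obtain ⟨⟨a1, a2⟩, a3, a4, a5⟩ := ha
    obtain ⟨⟨b1, b2⟩, b3, b4, b5⟩ := hb
    rcases hsp a.1 a.2 b.1 b.2 a1 a2 b1 b2 a3 b3 (fun h => hab (by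
      rw [Prod.ext_iff]; rw [Prod.mk.injEq] at h; exact h)) with h | h <;> omega
  have hsub : I ⊆ ((S0 ∪ S1) ∪ S2).image Prod.fst := by
    intro k hk
    obtain ⟨j, hj, hjk, hbad⟩ := hcon k hk
    rw [Finset.mem_image]
    refine ⟨(k, j), ?_, rfl⟩
    have hkK := hIK k hk
    simp only [S0, S1, S2, Finset.mem_union, Finset.mem_filter, Finset.mem_product,
      Finset.mem_range]
    by_cases b0 : Bad (T0 + c j - c k)
    · exact Or.inl (Or.inl ⟨⟨hkK, hj⟩, fun h => hjk h.symm, b0⟩)
    · by_cases b1 : Bad (T1 + c j - c k)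
      · exact Or.inl (Or.inr ⟨⟨hkK, hj⟩, fun h => hjk h.symm, b1⟩)
      · exact Or.inr ⟨⟨hkK, hj⟩, fun h => hjk h.symm, hbad b0 b1⟩
  have h2 := Finset.card_le_card hsub
  have h3 : (((S0 ∪ S1) ∪ S2).image Prod.fst).card ≤ S0.card + S1.card + S2.card := by
    refine Finset.card_image_le.trans ((Finset.card_union_le _ _).trans ?_)
    have := Finset.card_union_le S0 S1
    omega
  omega

theorem c2_ok (hadd : ∀ a b s, act (a + b) s = act a s + act b s)
    (hmul : ∀ v s t, act v (s * t) = act (act v s) t)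
    (hloc : ∀ P Q : List α, n ≤ Q.length → (Wo (P ++ Q) ↔ Wo Q))
    (W : ℕ) (hgap : ∀ (P : List α) (d : ℕ), Wo P → 0 < d → d ≤ W → ¬ Wo (P.take (P.length - d)))
    (hW : 2 * p0 + 2 * N1 ≤ W)
    (C0 La R : ℕ) (hR : 2 * C0 + 2 ≤ R) (hz : 3 * p0 + 2 * N1 + n + La + 1 ≤ z)
    (hcp : ∀ k < K, c k ≤ p0)
    (hsp : ∀ i j k l, i < K → j < K → k < K → l < K → i ≠ j → k ≠ l → (i, j) ≠ (k, l) →
      c i + c l + 4 * N1 < c k + c j ∨ c k + c j + 4 * N1 < c i + c l)
    (hcount : ∀ T, La ≤ T → (by classical exact ((Finset.range K ×ˢ Finset.range K).filter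
      (fun p => p.1 ≠ p.2 ∧ Bad (T + c p.2 - c p.1))).card ≤ C0))
    (g1 : ∀ k < K, ∀ (P Q : List α) (v b : V), P.length = c k →
      lam2 k P = some v → rho2 k Q = some b → b = act v (ph φ (P ++ Q)) + nu2 (P ++ Q))
    (g2 : ∀ (u : List α) (v : V), (∀ k < K, c k ≤ u.length) →
      ∃ I : Finset ℕ, R ≤ I.card ∧ ∀ k ∈ I, k < K ∧ lam2 k (u.take (c k)) = some v ∧
        (rho2 k (u.drop (c k))).isSome)
    (X : List α) (hX : X ∈ Bd Wo z N1 p0 Bad) (X' : List α) (hX' : X' ∈ Bd Wo z N1 p0 Bad)
    (v : V) :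
    ∃ P Q, P ++ Q = X ++ X' ∧ P ∈ LP2 K c lam2 v ∧
      Q ∈ RQ2 φ act Wo z N1 p0 K c Bad nu1 nu2 lam2
        (TT φ act p0 nu1 nu2 (TT φ act p0 nu1 nu2 v X) X') := by
  classical
  have hXl := hX.1.1
  have hX'l := hX'.1.1
  set U := X ++ X' with hU
  have hUl : U.length = X.length + X'.length := List.length_append ..
  have hWU : Wo U := (hloc X X' (by omega)).2 hX'.1.2.1
  -- the wall in the band
  obtain ⟨τ0, h0a, h0b⟩ : ∃ τ0, z ≤ τ0 + p0 + N1 ∧ ∀ t, z ≤ t + p0 + N1 → t ≤ z + p0 + N1 →
      t ≤ U.length → Wo (U.take t) → t = τ0 := by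
    by_cases hex : ∃ t, z ≤ t + p0 + N1 ∧ t ≤ z + p0 + N1 ∧ t ≤ U.length ∧ Wo (U.take t)
    · obtain ⟨t0, a1, a2, a3, a4⟩ := hex
      refine ⟨t0, a1, fun t b1 b2 b3 b4 => ?_⟩
      by_contra hne
      rcases lt_or_gt_of_ne hne with h | h
      · refine hgap (U.take t0) (t0 - t) a4 (by omega) (by omega) ?_
        rw [List.take_take, List.length_take]
        have : min (min t0 U.length - (t0 - t)) t0 = t := by omega
        rw [this]; exact b4
      · refine hgap (U.take t) (t - t0) b4 (by omega) (by omega) ?_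
        rw [List.take_take, List.length_take]
        have : min (min t U.length - (t - t0)) t = t0 := by omega
        rw [this]; exact a4
    · push Not at hex
      exact ⟨z, by omega, fun t b1 b2 b3 b4 => absurd b4 (hex t b1 b2 b3)⟩
  have hex1 : ∃ t, z + p0 ≤ t ∧ t ≤ U.length ∧ Wo (U.take t) :=
    ⟨U.length, by omega, le_rfl, by rw [List.take_length]; exact hWU⟩
  set τ1 := Nat.find hex1 with hτ1
  obtain ⟨h1a, h1b, h1c⟩ := Nat.find_spec hex1
  have h1m : ∀ t, t < τ1 → ¬ (z + p0 ≤ t ∧ t ≤ U.length ∧ Wo (U.take t)) :=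
    fun t ht => Nat.find_min hex1 ht
  rw [← hτ1] at h1a h1b h1c
  have hX1 : (X.take p0).length = p0 := by rw [List.length_take]; omega
  obtain ⟨I, hI, hIk⟩ := g2 (X.take p0) v (fun k hk => by rw [hX1]; exact hcp k hk)
  obtain ⟨k, hkI, hk⟩ := unspoiled z N1 K c Bad C0 La R hR hsp hcount (τ0 - p0) (τ1 - p0) τ0
    (by omega) (by omega) I hI (fun k hk => (hIk k hk).1)
  obtain ⟨hkK, hlam, hrho⟩ := hIk k hkI
  obtain ⟨r, hr⟩ := Option.isSome_iff_exists.1 hrho
  have hck := hcp k hkK
  have htk : (X.take p0).take (c k) = X.take (c k) := by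
    rw [List.take_take, Nat.min_eq_left hck]
  rw [htk] at hlam
  have hPl : (X.take (c k)).length = c k := by rw [List.length_take]; omega
  have hPQ : X.take (c k) ++ (X.drop (c k) ++ X') = U := by
    rw [← List.append_assoc, List.take_append_drop]
  refine ⟨X.take (c k), X.drop (c k) ++ X', hPQ, ⟨k, hkK, hPl, hlam⟩, ?_⟩
  rintro v' P' ⟨k', hk'K, hP'l, hlam'⟩
  have hck' := hcp k' hk'K
  have hdl : (X.drop (c k)).length = X.length - c k := List.length_drop ..
  by_cases hkk : k' = k
  · -- the true candidate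
    subst hkk
    right
    refine ⟨P' ++ X.drop (c k'), ?_, X', hX', by rw [List.append_assoc], ?_⟩
    · have hlen : (P' ++ X.drop (c k')).length = X.length := by
        rw [List.length_append, hdl, hP'l]; omega
      have hwo : ∀ t, c k' + n ≤ t → t ≤ X.length →
          (Wo ((P' ++ X.drop (c k')).take t) ↔ Wo (X.take t)) := by
        intro t ht1 ht2
        have := wo_swap hloc P' (X.take (c k')) (X.drop (c k')) (t - c k') (by omega)
          (by rw [hdl]; omega)
        rw [hP'l, hPl, List.take_append_drop, show c k' + (t - c k') = t by omega] at this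
        exact this
      refine ⟨⟨by omega, ?_, ?_⟩, ?_⟩
      · have := (hwo X.length (by omega) le_rfl)
        rw [List.take_length, ← hlen, List.take_length] at this
        exact this.2 hX.1.2.1
      · intro t ht1 ht2
        rw [hwo t (by omega) (by omega)]
        exact hX.1.2.2 t ht1 (by omega)
      · rcases hX.2 with hE | hB
        · left
          obtain ⟨t, e1, e2, e3, e4⟩ := hE
          exact ⟨t, e1, e2, by omega, (hwo t (by omega) e3).2 e4⟩
        · right
          rw [hlen]
          exact hB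
    · congr 1
      have hX1e : X = X.take p0 ++ X.drop p0 := (List.take_append_drop _ _).symm
      have hdd : X.drop (c k') = (X.take p0).drop (c k') ++ X.drop p0 := by
        conv_lhs => rw [hX1e]
        rw [List.drop_append_of_le_length (by rw [hX1]; exact hck)]
      have hl2 : (P' ++ (X.take p0).drop (c k')).length = p0 := by
        rw [List.length_append, List.length_drop, hX1, hP'l]; omega
      rw [hdd, ← List.append_assoc, TT_eq φ act p0 nu1 nu2 hadd hmul _ _ _ hl2]
      conv_rhs => rw [hX1e, TT_eq φ act p0 nu1 nu2 hadd hmul _ _ _ hX1]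
      have q1 := g1 k' hkK P' _ v' r hP'l hlam' hr
      have q2 := g1 k' hkK (X.take (c k')) _ v r hPl hlam hr
      have htd : X.take (c k') ++ (X.take p0).drop (c k') = X.take p0 := by
        rw [← htk, List.take_append_drop]
      rw [htd] at q2
      rw [← q1, ← q2]
  · -- a wrong candidate
    left
    obtain ⟨b0, b1, b2⟩ := hk k' hk'K hkk
    set U' := P' ++ (X.drop (c k) ++ X') with hU'
    have hQl : (X.drop (c k) ++ X').length = U.length - c k := by
      rw [List.length_append, hdl]; omega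
    have hU'l : U'.length = c k' + (U.length - c k) := by
      rw [hU', List.length_append, hQl, hP'l]
    have hwo : ∀ t, c k' + n ≤ t → t ≤ U'.length →
        (Wo (U'.take t) ↔ Wo (U.take (c k + (t - c k')))) := by
      intro t ht1 ht2
      have := wo_swap hloc P' (X.take (c k)) (X.drop (c k) ++ X') (t - c k') (by omega)
        (by rw [hQl]; omega)
      rw [hP'l, hPl, hPQ, show c k' + (t - c k') = t by omega] at this
      exact this
    have hex2 : ∃ t, z ≤ t ∧ t ≤ U'.length ∧ Wo (U'.take t) := by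
      refine ⟨U'.length, by omega, le_rfl, ?_⟩
      rw [hwo _ (by omega) le_rfl, show c k + (U'.length - c k') = U.length by omega,
        List.take_length]
      exact hWU
    set N' := Nat.find hex2 with hN'
    obtain ⟨n1, n2, n3⟩ := Nat.find_spec hex2
    have nm : ∀ t, t < N' → ¬ (z ≤ t ∧ t ≤ U'.length ∧ Wo (U'.take t)) :=
      fun t ht => Nat.find_min hex2 ht
    rw [← hN'] at n1 n2 n3
    have hNl : (U'.take N').length = N' := by rw [List.length_take]; omega
    have htt : ∀ t, t ≤ N' → (U'.take N').take t = U'.take t := fun t ht => by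
      rw [List.take_take, Nat.min_eq_left ht]
    have hXX : U'.take N' ∈ XXn Wo z := by
      refine ⟨by omega, n3, fun t t1 t2 hw => ?_⟩
      rw [hNl] at t2
      rw [htt t t2.le] at hw
      exact nm t t2 ⟨t1, by omega, hw⟩
    refine ⟨U'.take N', hXX, fun hbd => ?_, List.take_prefix _ _⟩
    rcases hbd.2 with hE | hB
    · obtain ⟨t, e1, e2, e3, e4⟩ := hE
      rw [hNl] at e3
      rw [htt t e3] at e4
      have e5 := (hwo t (by omega) (by omega)).1 e4
      have e6 := h0b _ (by omega) (by omega) (by omega) e5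
      exact b2 ⟨by omega, by omega⟩
    · rw [hNl] at hB
      have e5 := (hwo N' (by omega) (by omega)).1 n3
      by_cases hc : c k + (N' - c k') < z + p0
      · have e6 := h0b _ (by omega) (by omega) (by omega) e5
        have : τ0 - p0 + c k' - c k = N' - p0 := by omega
        exact b0 (this ▸ hB)
      · have e7 : c k + (N' - c k') = τ1 := by
          by_contra hne
          rcases lt_or_gt_of_ne hne with h | h
          · exact h1m _ h ⟨by omega, by omega, e5⟩
          · refine nm (c k' + (τ1 - c k)) (by omega) ⟨by omega, by omega, ?_⟩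
            rw [hwo _ (by omega) (by omega)]
            rw [show c k + (c k' + (τ1 - c k) - c k') = τ1 by omega]
            exact h1c
        have : τ1 - p0 + c k' - c k = N' - p0 := by omega
        exact b1 (this ▸ hB)

end scheme2

end Crest.Agent.R320.Asm_667
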