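import Crest.Agent.R320.Sch2_736

/-!
# Row 320: assembly with ONE zone map, scheme 2 on pairs of bad zones (helper736)

`two_levels_pairs`: 505's `two_levels` where scheme 2 lives on the prefix code `B * B` and uses the
SAME zone map as scheme 1; relative to a class `T` of words which parse into zones and a rest.
-/

set_option autoImplicit false

namespace Crest.Agent.R320.Asm_736

open Crest.RegLang Crest.Agent.R320.Hk_851 Crest.Agent.R320.Asm_505 Crest.Agent.R320.Sch2_736

universe u v

variable {α : Type u} {V : Type v}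

theorem path_of_pairs {B : Language α} (hB : PC B) (eps : List α → V → V) :
    ∀ (l : List (List α)) (x : V), (∀ z ∈ l, z ∈ (B * B : Language α)) →
      Path B eps x l.flatten (Run (Eps2 B eps) x l) := by
  intro l
  induction l with
  | nil => intro x _; exact Path.nil _ _ _
  | cons z l ih =>
    intro x h
    obtain ⟨z1, h1, z2, h2, rfl⟩ := Language.mem_mul.1 (h z (by simp))
    rw [Run_cons, Eps2_apply hB eps h1 h2]
    have h3 := ih (eps z2 (eps z1 x)) (fun t ht => h t (by simp [ht]))
    have h4 := Path.cons (x := x) h1 (Path.cons (x := eps z1 x) h2 h3)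
    simpa using h4

theorem pairs_of_path {B : Language α} (hB : PC B) (eps : List α → V → V) :
    ∀ (n : ℕ) (l : List (List α)) (x : V), l.length ≤ n → (∀ z ∈ l, z ∈ B) →
      Path (B * B) (Eps2 B eps) x l.flatten (Run eps x l) ∨
      ∃ w' u z, z ∈ B ∧ eps z u = Run eps x l ∧ l.flatten = w' ++ z ∧
        Path (B * B) (Eps2 B eps) x w' u := by
  intro n
  induction n with
  | zero =>
    intro l x hl _
    have : l = [] := List.length_eq_zero_iff.1 (Nat.le_zero.1 hl)
    subst this
    exact Or.inl (Path.nil _ _ _)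
  | succ n ih =>
    intro l x hl h
    match l, hl, h with
    | [], _, _ => exact Or.inl (Path.nil _ _ _)
    | [z], _, h =>
      exact Or.inr ⟨[], x, z, h z (by simp), rfl, by simp, Path.nil _ _ _⟩
    | z1 :: z2 :: l, hl, h =>
      have h1 : z1 ∈ B := h z1 (by simp)
      have h2 : z2 ∈ B := h z2 (by simp)
      have h12 : z1 ++ z2 ∈ (B * B : Language α) := Language.mem_mul.2 ⟨z1, h1, z2, h2, rfl⟩
      have e : Eps2 B eps (z1 ++ z2) x = eps z2 (eps z1 x) := Eps2_apply hB eps h1 h2 x
      have hr : Run eps x (z1 :: z2 :: l) = Run eps (eps z2 (eps z1 x)) l := rfl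
      have hf : (z1 :: z2 :: l).flatten = (z1 ++ z2) ++ l.flatten := by simp
      rcases ih l (eps z2 (eps z1 x)) (by simp at hl; omega)
        (fun t ht => h t (by simp [ht])) with h3 | ⟨w', u, z, g1, g2, g3, g4⟩
      · left
        rw [hr, hf]
        refine Path.cons h12 ?_
        rw [e]
        exact h3
      · right
        refine ⟨(z1 ++ z2) ++ w', u, z, g1, by rw [hr]; exact g2, by rw [hf, g3]; simp, ?_⟩
        refine Path.cons h12 ?_
        rw [e]
        exact g4

variable {k : ℕ}

/-- path language -/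
def PL (B : Language α) (eps : List α → V → V) (x y : V) : Language α := {w | Path B eps x w y}

/-- zones with a given transition -/
def ZE (B : Language α) (eps : List α → V → V) (x y : V) : Language α := {z | z ∈ B ∧ eps z x = y}

/-- rests with a given product -/
def RL {M : Type*} [Monoid M] (φ : α → M) (Rst : Language α) (b : M) : Language α :=
  {r | r ∈ Rst ∧ (r.map φ).prod = b}

theorem path_HL_of_pairs [Finite V] {B : Language α} (hB : PC B) (eps : List α → V → V)
    (hBe : ∀ x y, HL k ({z | z ∈ B ∧ eps z x = y} : Language α))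
    (h : ∀ x y, HL k ({w | Path (B * B) (Eps2 B eps) x w y} : Language α)) (x y : V) :
    HL k ({w | Path B eps x w y} : Language α) := by
  have h1 : HL k ({w | ∃ u, w ∈ (PL (B * B) (Eps2 B eps) x u * ZE B eps u y : Language α)} :
      Language α) :=
    HL.exists' fun u => HL.mul (L := PL (B * B) (Eps2 B eps) x u) (M := ZE B eps u y)
      (h x u) (hBe u y)
  refine ((h x y).setOf_or h1).congr fun w => ?_
  constructor
  · rintro ⟨l, f1, f2, f3⟩
    rcases pairs_of_path hB eps l.length l x le_rfl f1 with g | ⟨w', u, z, g1, g2, g3, g4⟩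
    · rw [f2, f3] at g
      exact Or.inl g
    · rw [f3] at g2
      rw [f2] at g3
      exact Or.inr ⟨u, Language.mem_mul.2 ⟨w', g4, z, ⟨g1, g2⟩, g3.symm⟩⟩
  · rintro (⟨l, g1, g2, g3⟩ | ⟨u, g⟩)
    · have := path_of_pairs hB eps l x g1
      rw [g2, g3] at this
      exact this
    · obtain ⟨w', ⟨l, g1, g2, g3⟩, z, ⟨g4, g5⟩, g6⟩ := Language.mem_mul.1 g
      have h7 := path_of_pairs hB eps l x g1
      rw [g2, g3] at h7
      have h8 : Path B eps u z y := by
        have := Path.cons (x := u) g4 (Path.nil B eps (eps z u))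
        rw [g5] at this
        simpa using this
      change Path B eps x w y
      rw [← g6]
      exact h7.append h8

/-- **two nested levels, one zone map, scheme 2 on pairs, relative to a class `T`** -/
theorem two_levels_pairs [Finite V] {M : Type*} [Monoid M] [Finite M]
    (φ : α → M) {U B : Language α} (hU : PC U) (hBU : ∀ z ∈ B, z ∈ U)
    {eps : List α → V → V} {P₁ R₁ : V → Language α} (L1 : Level U B eps P₁ R₁)
    {P₂ R₂ : V → Language α} (L2 : Level (B * B) 0 (Eps2 B eps) P₂ R₂)
    (dec : ∀ l l', (∀ z ∈ l, z ∈ U) → (∀ z ∈ l', z ∈ U) →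
      (∀ x, Run eps x l = Run eps x l') →
        (l.flatten.map φ).prod = (l'.flatten.map φ).prod)
    (hHU : HL k U) (hHB : HL k B)
    (hBe : ∀ x y, HL k ({z | z ∈ B ∧ eps z x = y} : Language α))
    (hP₁ : ∀ x, HL k (P₁ x)) (hR₁ : ∀ x, HL k (R₁ x))
    (hP₂ : ∀ x, HL k (P₂ x)) (hR₂ : ∀ x, HL k (R₂ x))
    {T : List α → Prop} (hT : HL (k + 2) ({w | T w} : Language α))
    {Rst : Language α} (hRst : ∀ b, HL k ({r | r ∈ Rst ∧ (r.map φ).prod = b} : Language α))
    (parse : ∀ w, T w → ∃ (l : List (List α)) (r : List α), (∀ z ∈ l, z ∈ U) ∧ r ∈ Rst ∧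
      l.flatten ++ r = w) (m : M) :
    HL (k + 2) ({w | T w ∧ (w.map φ).prod = m} : Language α) := by
  classical
  have hB : PC B := Sch2_736.PC.mono hU hBU
  have hBB : PC (B * B) := Sch2_736.PC.mul hB
  have up : ∀ {L : Language α}, HL k L → HL (k + 1) L := fun h => h.mono (Nat.le_succ k)
  have s1 : ∀ x y, HL (k + 1) ({w | Path (B * B) (Eps2 B eps) x w y} : Language α) := by
    intro x y
    refine HL.path hBB L2 (W := fun x y => ({w | x = y ∧ w = []} : Language α)) ?_ ?_
      (hHB.mul hHB) hP₂ hR₂ ?_ x y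
    · rintro x w y ⟨l, h1, h2, h3⟩
      cases l with
      | nil => exact ⟨h3, h2.symm⟩
      | cons z l => exact absurd (h1 z (by simp)) (Language.notMem_zero z)
    · rintro x y w ⟨rfl, rfl⟩
      exact Path.nil _ _ _
    · intro x y
      exact (HL.const (k := k) (x = y)).setOf_and ((HL.one (α := α) (k := k)))
  have s2 : ∀ x y, HL (k + 1) ({w | Path B eps x w y} : Language α) := fun x y =>
    path_HL_of_pairs hB eps (fun x y => up (hBe x y)) s1 x y
  have s3 : ∀ x y, HL (k + 1 + 1) ({w | Path U eps x w y} : Language α) := by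
    intro x y
    exact HL.path hU L1 (W := fun x y => ({w | Path B eps x w y} : Language α))
      (fun x w y h => h) (fun x y w h => Path.mono hBU h) (up hHU) (fun x => up (hP₁ x))
      (fun x => up (hR₁ x)) s2 x y
  have s4 : ∀ c : M, HL (k + 2) (ZL φ U c) := fun c =>
    HL.decode hU (fun l : List (List α) => (l.flatten.map φ).prod) dec
      (hHU.star.mono (Nat.le_succ _)) s3 c
  have s6 : ∀ b, HL (k + 2) (RL φ Rst b) := fun b =>
    HL.mono (L := RL φ Rst b) (Nat.le_add_right k 2) (hRst b)
  have s5 : HL (k + 2) ({w | ∃ ab : {ab : M × M // ab.1 * ab.2 = m}, w ∈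
      (ZL φ U ab.1.1 * RL φ Rst ab.1.2 : Language α)} : Language α) :=
    HL.exists' fun ab => (s4 ab.1.1).mul (s6 ab.1.2)
  refine (hT.setOf_and s5).congr fun w => ?_
  constructor
  · rintro ⟨hw, hm⟩
    obtain ⟨l, r, h1, h2, h3⟩ := parse w hw
    refine ⟨hw, ⟨((l.flatten.map φ).prod, (r.map φ).prod), ?_⟩, ?_⟩
    · rw [← hm, ← h3, List.map_append, List.prod_append]
    · exact Language.mem_mul.2 ⟨l.flatten, ⟨l, h1, rfl, rfl⟩, r, ⟨h2, rfl⟩, h3⟩
  · rintro ⟨hw, ⟨⟨a, b⟩, hab⟩, h⟩
    obtain ⟨x, ⟨l, h1, h2, h3⟩, r, ⟨_, h5⟩, h6⟩ := Language.mem_mul.1 h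
    subst h2
    refine ⟨hw, ?_⟩
    rw [← h6, List.map_append, List.prod_append, h3, h5]
    exact hab

/-- **HALF 1 from finite data**: `U` a finite prefix code, one zone map, left words of both schemes
with the two completeness statements; conclusion height two on every class which parses. -/
theorem half_finite [Finite α] [Finite V] {M : Type*} [Monoid M] [Finite M]
    (φ : α → M) {U B : Language α} (hU : PC U) (hfin : (U : Set (List α)).Finite)
    (hBU : ∀ z ∈ B, z ∈ U) {eps : List α → V → V} {P₁ R₁ : V → Language α}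
    (hP₁ : ∀ x, (P₁ x : Set (List α)).Finite) (hR₁ : ∀ x, (R₁ x : Set (List α)).Finite)
    (L1 : Level U B eps P₁ R₁)
    {P₂ : V → Language α} (hP₂ : ∀ x, (P₂ x : Set (List α)).Finite)
    (L2 : Level (B * B) 0 (Eps2 B eps) P₂ (MaxR (B * B) (Eps2 B eps) P₂))
    (dec : ∀ l l', (∀ z ∈ l, z ∈ U) → (∀ z ∈ l', z ∈ U) →
      (∀ x, Run eps x l = Run eps x l') →
        (l.flatten.map φ).prod = (l'.flatten.map φ).prod)
    {T : List α → Prop} (hT : HL 2 ({w | T w} : Language α))
    {Rst : Language α} (hRst : (Rst : Set (List α)).Finite)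
    (parse : ∀ w, T w → ∃ (l : List (List α)) (r : List α), (∀ z ∈ l, z ∈ U) ∧ r ∈ Rst ∧
      l.flatten ++ r = w) (m : M) :
    HL 2 ({w | T w ∧ (w.map φ).prod = m} : Language α) := by
  have hBf : (B : Set (List α)).Finite := hfin.subset hBU
  have hBBf : ((B * B : Language α) : Set (List α)).Finite := by
    have : ((B * B : Language α) : Set (List α)) =
        (fun t : List α × List α => t.1 ++ t.2) '' {t : List α × List α | t.1 ∈ B ∧ t.2 ∈ B} := by
      ext w
      constructor
      · intro h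
        obtain ⟨a, ha, b, hb, e⟩ := Language.mem_mul.1 h
        exact ⟨(a, b), ⟨ha, hb⟩, e⟩
      · rintro ⟨⟨a, b⟩, ⟨ha, hb⟩, e⟩
        exact Language.mem_mul.2 ⟨a, ha, b, hb, e⟩
    rw [this]
    refine Set.Finite.image _ ((Set.Finite.prod (s := (B : Set (List α))) (t := (B : Set (List α)))
      hBf hBf).subset ?_)
    rintro ⟨a, b⟩ ⟨ha, hb⟩
    exact ⟨ha, hb⟩
  exact two_levels_pairs (k := 0) φ hU hBU L1 L2 dec (HL.finite hfin) (HL.finite hBf)
    (fun x y => HL.finite (hBf.subset fun z hz => hz.1))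
    (fun x => HL.finite (hP₁ x)) (fun x => HL.finite (hR₁ x))
    (fun x => HL.finite (hP₂ x)) (fun x => HL.finite (MaxR_finite hBBf _ _ x)) hT
    (fun b => HL.finite (hRst.subset fun z hz => hz.1)) parse m

end Crest.Agent.R320.Asm_736
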