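import Crest.Agent.R320.Last_749
import Crest.Agent.R320.SemTop_727
import Crest.Agent.R320.Joint_47

/-!
# Row 320: assembly of the two schemes over the semantic top (helper749)
-/

set_option autoImplicit false

namespace Crest.Agent.R320.Asm_749

open Crest.RegLang Crest.Agent.R320.Hk_851 Crest.Agent.R320.FewWalls_228
  Crest.Agent.R320.WallU_228 Crest.Agent.R320.Blk467
open Crest.Agent.R320.ExactR_237 (pr pr_append)

/-- everything from the two gadgets, the walls and the ruler -/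
theorem assemble {A S V : Type} [Finite A] [Monoid S] [Finite S] [AddCommGroup V] [Finite V]
    (act : V → S → V) (hadd : ∀ a b s, act (a + b) s = act a s + act b s)
    (hone : ∀ v, act v 1 = v) (hmul : ∀ v s t, act v (s * t) = act (act v s) t)
    (hfaith : ∀ s t, (∀ v, act v s = act v t) → s = t) (f : A → S)
    {n W : ℕ} {St : Set (List A)}
    (hfew : ∀ (L : Language A), L.IsRegular → ∀ r,
      HL 1 ({w | w ∈ L ∧ nw n St w ≤ r} : Language A))
    (hW : Joint_47.LW n W (Wo n St))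
    {N1 N0 z p0 K R1 : ℕ} {BadT : ℕ → Prop}
    {lam rho : List A → Option V} {nu1 : List A → V}
    (hS : ∀ P Q v r, lam P = some v → rho Q = some r → r = act v (pr f (P ++ Q)) + nu1 (P ++ Q))
    (hL : ∀ P v, lam P = some v → P.length ≤ N1)
    (hC : ∀ Y : List A, N0 ≤ Y.length → ¬ BadT Y.length →
      ∀ v, ∃ P Q, Y = P ++ Q ∧ lam P = some v ∧ (rho Q).isSome)
    (hnu : ∀ v, Language.IsRegular ({Y | nu1 Y = v} : Language A))
    {c : ℕ → ℕ} {lam2 : ℕ → List A → Option V} {rho2 : ℕ → List A → S → Option V}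
    {nu2' : List A → S → V}
    (hS2 : ∀ k, k < K → ∀ (P Q : List A) (y : S) (v b : V), P.length = c k →
      lam2 k P = some v → rho2 k Q y = some b → b = act v (pr f (P ++ Q) * y) + nu2' (P ++ Q) y)
    (hC2 : ∀ (u : List A) (y : S) (v : V), (∀ k, k < K → c k ≤ u.length) →
      ∃ I : Finset ℕ, 2 * R1 + 2 ≤ I.card ∧ ∀ k ∈ I, k < K ∧ lam2 k (u.take (c k)) = some v ∧
        (rho2 k (u.drop (c k)) y).isSome)
    (hinc : ∀ i j, i < j → j < K → c i < c j)
    (hcp : ∀ k, k < K → c k ≤ p0)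
    (hres : ∀ i i' j j', i < K → i' < K → j < K → j' < K → i' ≠ i → j' ≠ j →
      c i + c j' < c j + c i' + 2 * N1 → c j + c i' < c i + c j' + 2 * N1 → i = j)
    (hT : ∀ T : ℕ, (∀ k, k < K → c k ≤ T) → ∀ I : Finset ℕ,
      (∀ k ∈ I, k < K ∧ ∃ k', k' < K ∧ k' ≠ k ∧ BadT (T + c k' - c k)) → I.card ≤ R1)
    (hWb : 2 * (N1 + p0) < W) (hz : 3 * p0 + n + N1 + 1 ≤ z) (hz1 : p0 + N0 ≤ z) (s : S) :
    HL 3 ({w | (w.map f).prod = s} : Language A) := by
  classical
  let nu2 : List A → V := fun X => nu2' X 1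
  let D : SemTop_727.Sch A V :=
    ⟨Joint_47.Zn (Wo n St) z, Joint_47.T f act p0 nu2 nu1,
      fun x => {P | Joint_47.L1 f act p0 nu2 lam x P}, fun x => {P | Joint_47.L2 K c lam2 x P}⟩
  let ν : List A → V := fun X => act (nu2 (X.take p0)) ((X.drop p0).map f).prod + nu1 (X.drop p0)
  have hTν : ∀ v X, D.T v X = act v (X.map f).prod + ν X := by
    intro v X
    show act (act v (pr f (X.take p0)) + nu2 (X.take p0)) (pr f (X.drop p0)) + nu1 (X.drop p0) =
      act v (X.map f).prod + (act (nu2 (X.take p0)) ((X.drop p0).map f).prod + nu1 (X.drop p0))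
    have e : (X.map f).prod = pr f (X.take p0) * pr f (X.drop p0) := by
      rw [← pr_append, List.take_append_drop]
      rfl
    rw [hadd, e, hmul, add_assoc]
    rfl
  have hPC : PCode D.XX := Last_749.pcode (by omega)
  have hfibL : ∀ x y, HL 1 (D.fib x y) := by
    intro x y
    refine (Last_749.hfib hfew z act f ν (Last_749.reg_nu act f p0 nu2 nu1 hnu) x y).congr
      fun w => ?_
    constructor
    · rintro ⟨h1, h2⟩
      refine ⟨h1, ?_⟩
      rw [← hTν]; exact h2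
    · rintro ⟨h1, h2⟩
      refine ⟨h1, ?_⟩
      rw [hTν]; exact h2
  have hL1 : ∀ x, (D.L1 x).Finite := by
    intro x
    refine (List.finite_length_le A (p0 + N1)).subset ?_
    rintro P ⟨h1, h2⟩
    have := hL _ _ h2
    rw [List.length_drop] at this
    show P.length ≤ p0 + N1
    omega
  have hL2 : ∀ x, (D.L2 x).Finite := by
    intro x
    refine (List.finite_length_le A p0).subset ?_
    rintro P ⟨k, hk, h1, _⟩
    have := hcp k hk
    show P.length ≤ p0
    omega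
  -- scheme 1
  have hgood : ∀ X ∈ D.XX, ¬ Joint_47.Bad (Wo n St) z N1 p0 BadT X → X ∈ D.Good := by
    intro X hX hb
    refine ⟨hX, fun x => ?_⟩
    obtain ⟨p, q, hpq, hp, _, hq⟩ := Joint_47.complete1 f act p0 nu2 nu1 hW hS hL hC hz1
      (by omega) hX hb x
    exact ⟨p, hp, q, fun x' P hP => hq x' P hP, hpq.symm⟩
  -- scheme 2
  have hC2' : ∀ X1 ∈ D.Bad, ∀ X2 ∈ D.Bad, ∀ x, ∃ P ∈ D.L2 x, ∃ Q ∈ D.R2 (D.T (D.T x X1) X2),
      P ++ Q = X1 ++ X2 := by
    rintro X1 ⟨h1, h1'⟩ X2 ⟨h2, h2'⟩ x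
    have hb1 : Joint_47.Bad (Wo n St) z N1 p0 BadT X1 := by
      by_contra h
      exact h1' (hgood X1 h1 h)
    obtain ⟨p, q, hpq, hp, _, hq⟩ := Joint_47.complete2 (f := f) (act := act) (p0 := p0)
      (nu1 := nu1) hW hS2 hC2 hinc hcp hres hT hWb hz h1 h2 hb1 x
    refine ⟨p, hp, q, ?_, hpq.symm⟩
    intro x' P hP
    rcases hq x' P hP with ⟨a, ha, _, hpa, hTa⟩ | ⟨a, ha, hna, hpa⟩
    · by_cases hg : a ∈ D.Good
      · exact Or.inr (Or.inl ⟨a, hg, by rw [hpa]; exact List.prefix_append _ _⟩)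
      · refine Or.inl ⟨a, ⟨ha, hg⟩, X2, ⟨h2, h2'⟩, hpa, ?_⟩
        have hTa' : D.T x' a = D.T x X1 := hTa
        rw [hTa']
    · exact Or.inr (Or.inl ⟨a, hgood a ha hna, hpa⟩)
  have htail : ∀ s, HL 3 ({w | (∀ X ∈ D.XX, ¬ X <+: w) ∧ (w.map f).prod = s} : Language A) :=
    fun s => (Last_749.HL_rest hfew z f s).mono (by omega)
  exact SemTop_727.top (k := 1) act hadd hone hmul hfaith f ν D hTν hPC hfibL hL1 hL2 hC2'
    htail s

end Crest.Agent.R320.Asm_749
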