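import Crest.Agent.R320.Hk2_851

/-!
# Row 320: abstract two-scheme assembly (helper750)
-/

set_option autoImplicit false

namespace Crest.Agent.R320.Asm_750

open Crest.RegLang Crest.Agent.R320.Hk_851

universe u v

/-- a chain rule: `nxt Q = some b` : `Q` starts at an anchor, the next anchor is at `b`, and this is visible. -/
structure Chain (α : Type u) where
  nxt : List α → Option ℕ
  la : ℕ
  pos : ∀ {Q b}, nxt Q = some b → 0 < b
  len : ∀ {Q b}, nxt Q = some b → b + la ≤ Q.length
  ext : ∀ {Q b} (Q' : List α), nxt Q = some b → nxt (Q ++ Q') = some b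
  loc : ∀ {Q b} (n : ℕ), nxt Q = some b → b + la ≤ n → nxt (Q.take n) = some b

/-- an abstract scheme for a chain -/
structure Sch {α : Type u} (C : Chain α) (V : Type v) where
  zm : List α → V → V
  LL : List α → V → Prop
  RL : List α → ℕ → V → Prop
  zm_ext : ∀ {Q b} (Q' : List α), C.nxt Q = some b → zm (Q ++ Q') = zm Q
  zm_loc : ∀ {Q b} (n : ℕ), C.nxt Q = some b → b + C.la ≤ n → zm (Q.take n) = zm Q
  LL_none : ∀ {P v}, LL P v → C.nxt P = none
  LL_len : ∀ {P v}, LL P v → C.la ≤ P.length
  RL_len : ∀ {Q b v}, RL Q b v → b + C.la ≤ Q.length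
  RL_ext : ∀ {Q b v} (Q' : List α), RL Q b v → RL (Q ++ Q') b v
  RL_loc : ∀ {Q b v} (n : ℕ), RL Q b v → b + C.la ≤ n → RL (Q.take n) b v

variable {α : Type u} {C : Chain α} {V : Type v}

/-- `Anc C w Q` : `Q` is the part of `w` from some anchor of the chain started at `0`. -/
inductive Anc (C : Chain α) : List α → List α → Prop
  | refl (w) : Anc C w w
  | step {w Q b} : C.nxt w = some b → Anc C (w.drop b) Q → Anc C w Q

/-- threads -/
inductive Thr (X : Sch C V) : List α → V → List α → V → Prop
  | refl (w v) : Thr X w v w v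
  | step {w v Q v' b} : C.nxt w = some b → Thr X (w.drop b) (X.zm w v) Q v' → Thr X w v Q v'

def AllBad (C : Chain α) (Bad : List α → Prop) (w : List α) : Prop :=
  ∀ Q, Anc C w Q → ∀ b, C.nxt Q = some b → Bad Q

theorem allBad_drop {Bad : List α → Prop} {w : List α} {b : ℕ} (h : AllBad C Bad w)
    (hb : C.nxt w = some b) : AllBad C Bad (w.drop b) :=
  fun Q hQ b' hb' => h Q (Anc.step hb hQ) b' hb'

theorem allBad_head {Bad : List α → Prop} {w : List α} {b : ℕ} (h : AllBad C Bad w)
    (hb : C.nxt w = some b) : Bad w := h w (Anc.refl w) b hb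

theorem allBad_none {Bad : List α → Prop} {w : List α} (hb : C.nxt w = none) : AllBad C Bad w := by
  intro Q hQ b hb'
  cases hQ with
  | refl => rw [hb] at hb'; cases hb'
  | step h _ => rw [hb] at h; cases h

theorem allBad_step {Bad : List α → Prop} {w : List α} {b : ℕ} (hb : C.nxt w = some b)
    (h1 : Bad w) (h2 : AllBad C Bad (w.drop b)) : AllBad C Bad w := by
  intro Q hQ b' hb'
  cases hQ with
  | refl => exact h1
  | step h h' =>
    rw [hb] at h; cases h
    exact h2 Q h' b' hb'

theorem drop_length_lt {w : List α} {b : ℕ} (hb : C.nxt w = some b) :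
    (w.drop b).length < w.length := by
  have h1 := C.pos hb
  have h2 := C.len hb
  rw [List.length_drop]; omega

theorem Anc.term_unique {w Q : List α} (h : Anc C w Q) (hQ : C.nxt Q = none) :
    ∀ {Q' : List α}, Anc C w Q' → C.nxt Q' = none → Q = Q' := by
  induction h with
  | refl w =>
    intro Q' h' _
    cases h' with
    | refl => rfl
    | step h _ => rw [hQ] at h; cases h
  | step h _ ih =>
    intro Q' h' hQ'
    cases h' with
    | refl => rw [hQ'] at h; cases h
    | step h2 h3 =>
      rw [h] at h2; cases h2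
      exact ih hQ h3 hQ'

theorem Thr.anc {X : Sch C V} {w Q : List α} {v v' : V} (h : Thr X w v Q v') : Anc C w Q := by
  induction h with
  | refl => exact Anc.refl _
  | step h _ ih => exact Anc.step h ih

theorem Thr.term_unique {X : Sch C V} {w Q : List α} {v v' : V} (h : Thr X w v Q v')
    (hQ : C.nxt Q = none) :
    ∀ {Q' : List α} {v'' : V}, Thr X w v Q' v'' → C.nxt Q' = none → Q = Q' ∧ v' = v'' := by
  induction h with
  | refl w v =>
    intro Q' v'' h' _
    cases h' with
    | refl => exact ⟨rfl, rfl⟩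
    | step h _ => rw [hQ] at h; cases h
  | step h _ ih =>
    intro Q' v'' h' hQ'
    cases h' with
    | refl => rw [hQ'] at h; cases h
    | step h2 h3 =>
      rw [h] at h2; cases h2
      exact ih hQ h3 hQ'

theorem Thr.exists_term (X : Sch C V) : ∀ (n : ℕ) (w : List α) (v : V), w.length ≤ n →
    ∃ Q v', Thr X w v Q v' ∧ C.nxt Q = none := by
  intro n
  induction n with
  | zero =>
    intro w v hw
    cases h : C.nxt w with
    | none => exact ⟨w, v, Thr.refl _ _, h⟩
    | some b => have := drop_length_lt h; omega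
  | succ n ih =>
    intro w v hw
    cases h : C.nxt w with
    | none => exact ⟨w, v, Thr.refl _ _, h⟩
    | some b =>
      obtain ⟨Q, v', h1, h2⟩ := ih (w.drop b) (X.zm w v) (by have := drop_length_lt h; omega)
      exact ⟨Q, v', Thr.step h h1, h2⟩

theorem drop_append_of_le' {P Q : List α} {b : ℕ} (h : b ≤ P.length) :
    (P ++ Q).drop b = P.drop b ++ Q := List.drop_append_of_le_length h

theorem Thr.ext {X : Sch C V} {w Q : List α} {v v' : V} (h : Thr X w v Q v') (Q' : List α) :
    Thr X (w ++ Q') v (Q ++ Q') v' := by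
  induction h with
  | refl => exact Thr.refl _ _
  | step h _ ih =>
    refine Thr.step (C.ext Q' h) ?_
    rw [X.zm_ext Q' h, List.drop_append_of_le_length (by have := C.len h; omega)]
    exact ih

theorem Thr.trans {X : Sch C V} {w Q R : List α} {v v' v'' : V} (h : Thr X w v Q v')
    (h' : Thr X Q v' R v'') : Thr X w v R v'' := by
  induction h with
  | refl => exact h'
  | step h _ ih => exact Thr.step h (ih h')

theorem drop_add_append {P Q : List α} (b : ℕ) : (P ++ Q).drop (P.length + b) = Q.drop b := by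
  rw [List.drop_append, List.drop_eq_nil_of_le (by omega)]
  simp

/-! ### Level 2 : the promise scheme -/

section Promise

variable (X : Sch C V) (Bad : List α → Prop)

/-- words from a cut in one zone to a cut in the next one -/
def KK : Language α := {k | ∃ u P R, k = u ++ P ∧ X.RL k u.length R ∧ X.LL P R}

def Pre (v : V) : Language α := {P | X.LL P v}

structure PSound : Prop where
  snd : ∀ {P Q' v b R b0}, X.LL P v → X.RL Q' b R → C.nxt (P ++ Q') = some b0 → Bad (P ++ Q') →
    b0 = P.length + b ∧ X.zm (P ++ Q') v = R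
  vis : ∀ {P Q' v b R}, X.LL P v → X.RL Q' b R → ∃ b0, C.nxt (P ++ Q') = some b0
  cpl : ∀ {w b0}, C.nxt w = some b0 → Bad w → ∀ v, ∃ P Q' b, w = P ++ Q' ∧ X.LL P v ∧
    X.RL Q' b (X.zm w v) ∧ b0 = P.length + b

variable {X Bad}

theorem path (hX : PSound X Bad) : ∀ (ks : List (List α)) (_ : ∀ k ∈ ks, k ∈ KK X) (P Q : List α)
    (v R : V) (b : ℕ), X.LL P v → X.RL Q b R → AllBad C Bad (P ++ (ks.flatten ++ Q)) →
    Thr X (P ++ (ks.flatten ++ Q)) v (Q.drop b) R := by
  intro ks
  induction ks with
  | nil =>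
    intro _ P Q v R b hP hQ hB
    simp only [List.flatten_nil, List.nil_append] at hB ⊢
    obtain ⟨b0, hb0⟩ := hX.vis hP hQ
    obtain ⟨h1, h2⟩ := hX.snd hP hQ hb0 (allBad_head hB hb0)
    refine Thr.step hb0 ?_
    rw [h1, h2, drop_add_append]
    exact Thr.refl _ _
  | cons k ks ih =>
    intro hks P Q v R b hP hQ hB
    obtain ⟨u, P1, R1, hk, hk1, hk2⟩ := hks k (by simp)
    have e : P ++ ((k :: ks).flatten ++ Q) = P ++ (k ++ (ks.flatten ++ Q)) := by simp
    rw [e] at hB ⊢
    have hR := X.RL_ext (ks.flatten ++ Q) hk1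
    obtain ⟨b0, hb0⟩ := hX.vis hP hR
    obtain ⟨h1, h2⟩ := hX.snd hP hR hb0 (allBad_head hB hb0)
    have hd : (P ++ (k ++ (ks.flatten ++ Q))).drop b0 = P1 ++ (ks.flatten ++ Q) := by
      rw [h1, drop_add_append, hk, List.append_assoc]
      simp
    have hB' := allBad_drop hB hb0
    refine Thr.step hb0 ?_
    rw [hd] at hB' ⊢
    rw [h2]
    exact ih (fun k' hk' => hks k' (by simp [hk'])) P1 Q R1 R b hk2 hQ hB'

/-- completeness: thread form -/
theorem complete (hX : PSound X Bad) : ∀ (n : ℕ) (w : List α), w.length ≤ n → AllBad C Bad w →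
    ∀ (v : V) (b0 : ℕ), C.nxt w = some b0 → ∃ (P Q : List α) (ks : List (List α)) (b : ℕ) (R : V),
      w = P ++ (ks.flatten ++ Q) ∧ (∀ k ∈ ks, k ∈ KK X) ∧ X.LL P v ∧ X.RL Q b R ∧
      C.nxt (Q.drop b) = none ∧ Thr X w v (Q.drop b) R := by
  intro n
  induction n with
  | zero => intro w hw _ v b0 hb; have := drop_length_lt hb; omega
  | succ n ih =>
    intro w hw hB v b0 hb
    obtain ⟨P, Q', b, hw', hP, hR, hb0⟩ := hX.cpl hb (allBad_head hB hb) v
    have hd : w.drop b0 = Q'.drop b := by rw [hw', hb0, drop_add_append]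
    cases h1 : C.nxt (w.drop b0) with
    | none =>
      refine ⟨P, Q', [], b, _, by simpa using hw', by simp, hP, hR, by rw [← hd]; exact h1, ?_⟩
      refine Thr.step hb ?_
      rw [hd]; exact Thr.refl _ _
    | some b1 =>
      obtain ⟨P1, Q1, ks, b2, R2, e1, e2, e3, e4, e5, e6⟩ := ih (w.drop b0)
        (by have := drop_length_lt hb; omega) (allBad_drop hB hb) (X.zm w v) b1 h1
      have hQ' : Q' = Q'.take b ++ (P1 ++ (ks.flatten ++ Q1)) := by
        rw [← e1, hd, List.take_append_drop]
      have hlenb : (Q'.take b).length = b := by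
        rw [List.length_take]; have := X.RL_len hR; omega
      refine ⟨P, Q1, (Q'.take b ++ P1) :: ks, b2, R2, ?_, ?_, hP, e4, e5, Thr.step hb e6⟩
      · rw [hw']
        conv_lhs => rw [hQ']
        simp
      · intro k hk
        rcases List.mem_cons.1 hk with rfl | hk
        · refine ⟨Q'.take b, P1, X.zm w v, rfl, ?_, e3⟩
          rw [hlenb]
          have hl := X.LL_len e3
          have h2 := X.RL_loc ((Q'.take b ++ P1).length) hR (by
            rw [List.length_append, hlenb]; omega)
          have hQ2 : Q' = (Q'.take b ++ P1) ++ (ks.flatten ++ Q1) := by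
            conv_lhs => rw [hQ']
            simp
          have h3 : ∀ A B : List α, Q' = A ++ B → Q'.take A.length = A := by
            intro A B h; rw [h]; simp
          have h3 := h3 _ _ hQ2
          rw [h3] at h2
          exact h2
        · exact e2 k hk

/-- last pieces which reach a visible zone that is not bad -/
def NBs : Language α := {Q | ∃ b R, X.RL Q b R ∧ ∃ b2, C.nxt (Q.drop b) = some b2 ∧ ¬ Bad (Q.drop b)}

theorem mem3 {A B D : Language α} {w : List α} :
    w ∈ A * (B * D) ↔ ∃ P k Q, w = P ++ (k ++ Q) ∧ P ∈ A ∧ k ∈ B ∧ Q ∈ D := by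
  constructor
  · intro h
    obtain ⟨P, hP, r, hr, rfl⟩ := Language.mem_mul.1 h
    obtain ⟨k, hk, Q, hQ, rfl⟩ := Language.mem_mul.1 hr
    exact ⟨P, k, Q, rfl, hP, hk, hQ⟩
  · rintro ⟨P, k, Q, rfl, hP, hk, hQ⟩
    exact Language.mem_mul.2 ⟨P, hP, _, Language.mem_mul.2 ⟨k, hk, Q, hQ, rfl⟩, rfl⟩

theorem not_allBad (hX : PSound X Bad) : ∀ (n : ℕ) (w : List α), w.length ≤ n → ¬ AllBad C Bad w →
    (∃ b, C.nxt w = some b ∧ ¬ Bad w) ∨
      ∀ v, w ∈ (Pre X v * (KStar.kstar (KK X) * NBs (X := X) (Bad := Bad)) : Language α) := by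
  intro n
  induction n with
  | zero =>
    intro w hw hB
    exfalso
    refine hB (allBad_none ?_)
    cases h : C.nxt w with
    | none => rfl
    | some b => have := drop_length_lt h; omega
  | succ n ih =>
    intro w hw hB
    cases hb : C.nxt w with
    | none => exact (hB (allBad_none hb)).elim
    | some b0 =>
      by_cases hbad : Bad w
      swap
      · exact Or.inl ⟨b0, rfl, hbad⟩
      right
      intro v
      have hB1 : ¬ AllBad C Bad (w.drop b0) := fun h => hB (allBad_step hb hbad h)
      obtain ⟨P, Q', b, hw', hP, hR, hb0⟩ := hX.cpl hb hbad v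
      have hd : w.drop b0 = Q'.drop b := by rw [hw', hb0, drop_add_append]
      rcases ih (w.drop b0) (by have := drop_length_lt hb; omega) hB1 with ⟨b1, h1, h2⟩ | h
      · refine mem3.2 ⟨P, [], Q', by simpa using hw', hP, Language.nil_mem_kstar _, ?_⟩
        refine ⟨b, _, hR, b1, ?_, ?_⟩
        · rw [← hd]; exact h1
        · rw [← hd]; exact h2
      · obtain ⟨P1, k1, Q1, e1, e3, e2, e4⟩ := mem3.1 (h (X.zm w v))
        obtain ⟨ks, rfl, e2'⟩ := Language.mem_kstar.1 e2
        have hQ' : Q' = Q'.take b ++ (P1 ++ (ks.flatten ++ Q1)) := by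
          rw [← e1, hd, List.take_append_drop]
        have hlenb : (Q'.take b).length = b := by
          rw [List.length_take]; have := X.RL_len hR; omega
        refine mem3.2 ⟨P, ((Q'.take b ++ P1) :: ks).flatten, Q1, ?_, hP, ?_, e4⟩
        · rw [hw']
          conv_lhs => rw [hQ']
          simp
        · refine Language.mem_kstar.2 ⟨_, rfl, ?_⟩
          intro k hk
          rcases List.mem_cons.1 hk with rfl | hk
          · refine ⟨Q'.take b, P1, X.zm w v, rfl, ?_, e3⟩
            rw [hlenb]
            have hl := X.LL_len e3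
            have h2 := X.RL_loc ((Q'.take b ++ P1).length) hR (by
              rw [List.length_append, hlenb]; omega)
            have hQ2 : Q' = (Q'.take b ++ P1) ++ (ks.flatten ++ Q1) := by
              conv_lhs => rw [hQ']
              simp
            have h3 : ∀ A B : List α, Q' = A ++ B → Q'.take A.length = A := by
              intro A B h; rw [h]; simp
            have h3 := h3 _ _ hQ2
            rw [h3] at h2
            exact h2
          · exact e2' k hk

theorem allBad_iff [Nonempty V] (hX : PSound X Bad) (w : List α) : AllBad C Bad w ↔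
    ¬ ((∃ b, C.nxt w = some b ∧ ¬ Bad w) ∨
      ∀ v, w ∈ (Pre X v * (KStar.kstar (KK X) * NBs (X := X) (Bad := Bad)) : Language α)) := by
  constructor
  · intro hB h
    rcases h with ⟨b, h1, h2⟩ | h
    · exact h2 (allBad_head hB h1)
    · obtain ⟨v⟩ := ‹Nonempty V›
      obtain ⟨P, k, Q, rfl, hP, hk, ⟨b, R, hR, b2, h1, h2⟩⟩ := mem3.1 (h v)
      obtain ⟨ks, rfl, hks⟩ := Language.mem_kstar.1 hk
      have := path hX ks hks P Q v R b hP hR hB
      exact h2 (hB _ this.anc b2 h1)
  · intro h
    by_contra hB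
    exact h (not_allBad hX _ w le_rfl hB)

/-- **AllBad is in `HL 2`** -/
theorem allBad_HL [Finite V] [Nonempty V] (hX : PSound X Bad) (hK : HL 1 (KK X))
    (hP : ∀ v, HL 2 (Pre X v)) (hN : HL 2 (NBs (X := X) (Bad := Bad)))
    (h0 : HL 2 {w | ∃ b, C.nxt w = some b ∧ ¬ Bad w}) : HL 2 {w | AllBad C Bad w} := by
  have h1 : HL 2 ({w | ∀ v, w ∈ (Pre X v * (KStar.kstar (KK X) * NBs (X := X) (Bad := Bad)) :
      Language α)} : Language α) := HL.iInter fun v => (hP v).mul (hK.star.mul hN)
  exact (h0.setOf_or h1).setOf_not.congr fun w => (allBad_iff hX w)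

end Promise

/-! ### Reading `φ w` from the threads -/

section Read

variable {S : Type u} [Monoid S] [AddCommGroup V]

def ph (φ : α → S) (w : List α) : S := (w.map φ).prod

theorem ph_append (φ : α → S) (u w : List α) : ph φ (u ++ w) = ph φ u * ph φ w := by
  simp [ph]

structure Rd (X : Sch C V) (φ : α → S) (act : V → S → V) (D : List α → V) : Prop where
  add : ∀ v v' s, act (v + v') s = act v s + act v' s
  mul : ∀ v s t, act (act v s) t = act v (s * t)
  one : ∀ v, act v 1 = v
  fth : ∀ s t, (∀ v, act v s = act v t) → s = t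
  zm_eq : ∀ {Q b} (v : V), C.nxt Q = some b → X.zm Q v = act v (ph φ (Q.take b)) + D Q

variable {X : Sch C V} {φ : α → S} {act : V → S → V} {D : List α → V}

theorem Rd.zero (h : Rd X φ act D) (s : S) : act 0 s = 0 := by
  have := h.add 0 0 s
  simpa using this

theorem Rd.anc (h : Rd X φ act D) {w Q : List α} (hQ : Anc C w Q) :
    ∃ s D0, ph φ w = s * ph φ Q ∧ ∀ v, Thr X w v Q (act v s + D0) := by
  induction hQ with
  | refl w => exact ⟨1, 0, by simp, fun v => by rw [h.one, add_zero]; exact Thr.refl _ _⟩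
  | @step w Q b hb _ ih =>
    obtain ⟨s, D0, h1, h2⟩ := ih
    refine ⟨ph φ (w.take b) * s, act (D w) s + D0, ?_, fun v => ?_⟩
    · conv_lhs => rw [← List.take_append_drop b w, ph_append, h1]
      rw [mul_assoc]
    · refine Thr.step hb ?_
      have := h2 (X.zm w v)
      rw [h.zm_eq v hb, h.add, h.mul, add_assoc] at this
      rw [h.zm_eq v hb]
      exact this

def Compat (act : V → S → V) (f : V → V) (t s : S) : Prop :=
  ∀ s' D0, (∀ v, f v = act v s' + D0) → s' * t = s

theorem read_iff (h : Rd X φ act D) (w : List α) (s : S) : ph φ w = s ↔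
    ∃ ft : (V → V) × S, Compat act ft.1 ft.2 s ∧
      ∀ v, ∃ Q, Thr X w v Q (ft.1 v) ∧ C.nxt Q = none ∧ ph φ Q = ft.2 := by
  obtain ⟨Q, v', h1, h2⟩ := Thr.exists_term X w.length w 0 le_rfl
  obtain ⟨s0, D0, e1, e2⟩ := h.anc h1.anc
  constructor
  · rintro rfl
    refine ⟨(fun v => act v s0 + D0, ph φ Q), ?_, fun v => ⟨Q, e2 v, h2, rfl⟩⟩
    intro s' D1 hf
    have h0 := hf 0
    simp only [h.zero, zero_add] at h0
    have : s0 = s' := by
      refine h.fth _ _ fun v => ?_
      have := hf v
      simp only [h0] at this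
      exact add_right_cancel this
    rw [← this, e1]
  · rintro ⟨⟨f, t⟩, hc, hv⟩
    have key : ∀ v, f v = act v s0 + D0 ∧ ph φ Q = t := by
      intro v
      obtain ⟨Q', a1, a2, a3⟩ := hv v
      obtain ⟨rfl, b2⟩ := (e2 v).term_unique h2 a1 a2
      exact ⟨b2.symm, a3⟩
    rw [e1, (key 0).2]
    exact hc s0 D0 fun v => (key v).1

end Read

/-! ### Level 2 : computation on AllBad words -/

section Promise2

variable {S : Type u} [Monoid S] [AddCommGroup V] {X : Sch C V} {Bad : List α → Prop}
  {φ : α → S} {act : V → S → V} {D : List α → V}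

def Suf (X : Sch C V) (φ : α → S) (R : V) (t : S) : Language α :=
  {Q | ∃ b, X.RL Q b R ∧ C.nxt (Q.drop b) = none ∧ ph φ (Q.drop b) = t}

theorem prom_iff (hX : PSound X Bad) (w : List α) (hB : AllBad C Bad w) (v v' : V) (t : S) :
    (∃ Q, Thr X w v Q v' ∧ C.nxt Q = none ∧ ph φ Q = t) ↔
    ((C.nxt w = none ∧ ph φ w = t) ∧ v = v') ∨
      w ∈ (Pre X v * (KStar.kstar (KK X) * Suf X φ v' t) : Language α) := by
  constructor
  · rintro ⟨Q, h1, h2, h3⟩
    cases hb : C.nxt w with
    | none =>
      left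
      obtain ⟨rfl, rfl⟩ := (Thr.refl w v : Thr X w v w v).term_unique hb h1 h2
      exact ⟨⟨rfl, h3⟩, rfl⟩
    | some b0 =>
      right
      obtain ⟨P, Q1, ks, b, R, e1, e2, e3, e4, e5, e6⟩ := complete hX w.length w le_rfl hB v b0 hb
      obtain ⟨rfl, rfl⟩ := e6.term_unique e5 h1 h2
      exact mem3.2 ⟨P, _, Q1, e1, e3, Language.mem_kstar.2 ⟨ks, rfl, e2⟩, b, e4, e5, h3⟩
  · rintro (⟨⟨h1, h2⟩, rfl⟩ | h)
    · exact ⟨w, Thr.refl _ _, h1, h2⟩
    · obtain ⟨P, k, Q, rfl, hP, hk, b, h1, h2, h3⟩ := mem3.1 h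
      obtain ⟨ks, rfl, hks⟩ := Language.mem_kstar.1 hk
      exact ⟨Q.drop b, path hX ks hks P Q v v' b hP h1 hB, h2, h3⟩

theorem promise_HL [Finite V] [Finite S] (hX : PSound X Bad) (hR : Rd X φ act D)
    (hK : HL 1 (KK X)) (hP : ∀ v, HL 2 (Pre X v)) (hS : ∀ R t, HL 2 (Suf X φ R t))
    (h1 : ∀ t, HL 2 ({w | C.nxt w = none ∧ ph φ w = t} : Language α))
    (hA : HL 2 ({w | AllBad C Bad w} : Language α)) (s : S) :
    HL 2 ({w | AllBad C Bad w ∧ ph φ w = s} : Language α) := by
  have key : HL 2 ({w | ∃ ft : {ft : (V → V) × S // Compat act ft.1 ft.2 s}, ∀ v,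
      ((C.nxt w = none ∧ ph φ w = ft.1.2) ∧ v = ft.1.1 v) ∨
      w ∈ (Pre X v * (KStar.kstar (KK X) * Suf X φ (ft.1.1 v) ft.1.2) : Language α)} :
        Language α) := by
    refine HL.iUnion fun ft => HL.iInter fun v => ?_
    exact ((h1 _).setOf_and (HL.const _)).setOf_or ((hP v).mul (hK.star.mul (hS _ _)))
  refine (hA.setOf_and key).congr fun w => Iff.symm ?_
  constructor
  · rintro ⟨hB, ⟨ft, hc⟩, h⟩
    refine ⟨hB, (read_iff hR w s).2 ⟨ft, hc, fun v => ?_⟩⟩
    exact (prom_iff hX w hB v _ _).2 (h v)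
  · rintro ⟨hB, hs⟩
    obtain ⟨ft, hc, h⟩ := (read_iff hR w s).1 hs
    exact ⟨hB, ⟨ft, hc⟩, fun v => (prom_iff hX w hB v _ _).1 (h v)⟩

/-- relative form of `of_monoid` -/
theorem of_monoid_rel [Finite α] {k : ℕ} {B : List α → Prop}
    (h : ∀ (S : Type u) [Monoid S] [Finite S] (φ : α → S) (s : S),
      HL k ({w | B w ∧ ph φ w = s} : Language α))
    (L : Language α) (hL : L.IsRegular) : HL k ({w | B w ∧ w ∈ L} : Language α) := by
  obtain ⟨σ, hσ, M, rfl⟩ := Language.isRegular_iff.{u, u}.1 hL
  classical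
  let φ : α → (Function.End σ)ᵐᵒᵖ := fun a => MulOpposite.op (fun s => M.step s a)
  have key : ∀ (w : List α) (s : σ), M.evalFrom s w = (ph φ w).unop s := by
    intro w
    induction w with
    | nil => intro s; rfl
    | cons a w ih =>
      intro s
      have : ph φ (a :: w) = φ a * ph φ w := by simp [ph]
      rw [this, MulOpposite.unop_mul]
      change M.evalFrom (M.step s a) w = (ph φ w).unop (M.step s a)
      exact ih _
  haveI : Finite (Function.End σ)ᵐᵒᵖ := by
    haveI : Finite (Function.End σ) := inferInstanceAs (Finite (σ → σ))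
    exact Finite.of_injective MulOpposite.unop MulOpposite.unop_injective
  have hfin := HL.biUnion (k := k) (Set.toFinite {s : (Function.End σ)ᵐᵒᵖ | s.unop M.start ∈ M.accept})
    (L := fun s => ({w | B w ∧ ph φ w = s} : Language α)) (fun s _ => h _ φ s)
  refine hfin.congr fun w => Iff.symm ?_
  constructor
  · rintro ⟨s, hs, hB, hw⟩
    refine ⟨hB, ?_⟩
    change M.evalFrom M.start w ∈ M.accept
    rw [key, hw]
    exact hs
  · rintro ⟨hB, hw⟩
    have hw' : M.evalFrom M.start w ∈ M.accept := hw
    rw [key] at hw'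
    exact ⟨_, hw', hB, rfl⟩

end Promise2

/-! ### Level 3 : the outer scheme -/

section Top

variable {X : Sch C V} {Bad : List α → Prop}

structure TSound (X : Sch C V) (Bad : List α → Prop) : Prop where
  snd : ∀ {P Q' v b R}, X.LL P v → X.RL Q' b R →
    C.nxt (P ++ Q') = some (P.length + b) ∧ X.zm (P ++ Q') v = R
  cpl : ∀ {w b0}, C.nxt w = some b0 → ¬ Bad w → ∀ v, ∃ P Q' b, w = P ++ Q' ∧ X.LL P v ∧
    X.RL Q' b (X.zm w v) ∧ b0 = P.length + b
  bad_loc : ∀ {Q b} (n : ℕ), C.nxt Q = some b → b + C.la ≤ n → Bad Q → Bad (Q.take n)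

def RunT (X : Sch C V) (Tgt : List α → V → Prop) (w : List α) (v : V) : Prop :=
  ∃ Q v', Thr X w v Q v' ∧ Tgt Q v'

def GG (X : Sch C V) (Bad : List α → Prop) (Tgt : List α → V → Prop) : Language α :=
  {k | ∃ b R, X.RL k b R ∧ AllBad C Bad (k.drop b) ∧ RunT X Tgt (k.drop b) R}

def St (X : Sch C V) (Bad : List α → Prop) (v : V) : Language α :=
  {P | AllBad C Bad P ∧ RunT X X.LL P v}

theorem join (hX : TSound X Bad) {P Q : List α} {v R : V} {b : ℕ} (hP : RunT X X.LL P v)
    (hQ : X.RL Q b R) : Thr X (P ++ Q) v (Q.drop b) R := by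
  obtain ⟨Q0, v0, h1, h2⟩ := hP
  obtain ⟨h3, h4⟩ := hX.snd h2 hQ
  refine (h1.ext Q).trans (Thr.step h3 ?_)
  rw [h4, drop_add_append]
  exact Thr.refl _ _

theorem RunT.trans {Tgt : List α → V → Prop} {w Q : List α} {v v' : V} (h : Thr X w v Q v')
    (h' : RunT X Tgt Q v') : RunT X Tgt w v := by
  obtain ⟨Q1, v1, h1, h2⟩ := h'
  exact ⟨Q1, v1, h.trans h1, h2⟩

theorem join_star (hX : TSound X Bad) : ∀ (ks : List (List α)) (_ : ∀ k ∈ ks, k ∈ GG X Bad X.LL)
    (P : List α) (v : V), RunT X X.LL P v → RunT X X.LL (P ++ ks.flatten) v := by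
  intro ks
  induction ks with
  | nil => intro _ P v h; simpa using h
  | cons k ks ih =>
    intro hks P v h
    obtain ⟨b, R, h1, _, h3⟩ := hks k (by simp)
    have h4 : RunT X X.LL (P ++ k) v := RunT.trans (join hX h h1) h3
    have := ih (fun k' hk' => hks k' (by simp [hk'])) (P ++ k) v h4
    simpa using this

theorem Thr.len_le {w Q : List α} {v v' : V} (h : Thr X w v Q v') : Q.length ≤ w.length := by
  induction h with
  | refl => exact le_rfl
  | step h _ ih => exact ih.trans (by rw [List.length_drop]; omega)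

theorem runT_cases {Tgt : List α → V → Prop} (hT : ∀ {Q v}, Tgt Q v → C.nxt Q = none)
    {w : List α} {v : V} {b : ℕ} (hb : C.nxt w = some b) (h : RunT X Tgt w v) :
    RunT X Tgt (w.drop b) (X.zm w v) := by
  obtain ⟨Q, v', h1, h2⟩ := h
  cases h1 with
  | refl => rw [hT h2] at hb; cases hb
  | step h3 h4 =>
    rw [hb] at h3; cases h3
    exact ⟨Q, v', h4, h2⟩

theorem take_of_eq {w A B : List α} (h : w = A ++ B) : w.take A.length = A := by
  rw [h]; simp

theorem top_split (hX : TSound X Bad) {Tgt : List α → V → Prop}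
    (hT : ∀ {Q v}, Tgt Q v → C.nxt Q = none) : ∀ (n : ℕ) (w : List α) (v : V), w.length ≤ n →
    RunT X Tgt w v → AllBad C Bad w ∨ ∃ (P : List α) (ks : List (List α)) (g : List α),
      w = P ++ (ks.flatten ++ g) ∧ P ∈ St X Bad v ∧
      (∀ k ∈ ks, k ∈ GG X Bad X.LL) ∧ g ∈ GG X Bad Tgt := by
  intro n
  induction n with
  | zero =>
    intro w v hw _
    left
    refine allBad_none ?_
    cases h : C.nxt w with
    | none => rfl
    | some b => have := drop_length_lt h; omega
  | succ n ih =>
    intro w v hw hr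
    cases hb : C.nxt w with
    | none => exact Or.inl (allBad_none hb)
    | some b0 =>
      have hr1 := runT_cases hT hb hr
      have hl := drop_length_lt hb
      by_cases hbad : Bad w
      · rcases ih (w.drop b0) (X.zm w v) (by omega) hr1 with h | ⟨P1, ks, g, e1, e2, e3, e4⟩
        · exact Or.inl (allBad_step hb hbad h)
        · right
          have hw1 : w = (w.take b0 ++ P1) ++ (ks.flatten ++ g) := by
            conv_lhs => rw [← List.take_append_drop b0 w, e1]
            simp
          have hlb : (w.take b0).length = b0 := by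
            rw [List.length_take]; have := C.len hb; omega
          have hlP : C.la ≤ P1.length := by
            obtain ⟨Q0, v0, h1, h2⟩ := e2.2
            exact (X.LL_len h2).trans (Thr.len_le h1)
          have hlen : b0 + C.la ≤ (w.take b0 ++ P1).length := by
            rw [List.length_append, hlb]; omega
          have ht := take_of_eq hw1
          have hnP : C.nxt (w.take b0 ++ P1) = some b0 := by
            have := C.loc _ hb hlen; rwa [ht] at this
          have hbP : Bad (w.take b0 ++ P1) := by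
            have := hX.bad_loc _ hb hlen hbad; rwa [ht] at this
          have hzP : X.zm (w.take b0 ++ P1) v = X.zm w v := by
            have := X.zm_loc (Q := w) _ hb hlen
            rw [ht] at this; rw [this]
          have hdP : (w.take b0 ++ P1).drop b0 = P1 := by
            have := drop_add_append (P := w.take b0) (Q := P1) 0
            rw [hlb] at this; simpa using this
          refine ⟨w.take b0 ++ P1, ks, g, hw1, ⟨?_, ?_⟩, e3, e4⟩
          · refine allBad_step hnP hbP ?_
            rw [hdP]; exact e2.1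
          · refine RunT.trans (Thr.step hnP (Thr.refl _ _)) ?_
            rw [hdP, hzP]; exact e2.2
      · right
        obtain ⟨P, Q', b, hw', hP, hR, hb0⟩ := hX.cpl hb hbad v
        have hd : w.drop b0 = Q'.drop b := by rw [hw', hb0, drop_add_append]
        have hSt : P ∈ St X Bad v := ⟨allBad_none (X.LL_none hP), P, v, Thr.refl _ _, hP⟩
        rcases ih (w.drop b0) (X.zm w v) (by omega) hr1 with h | ⟨P1, ks, g, e1, e2, e3, e4⟩
        · refine ⟨P, [], Q', by simpa using hw', hSt, by simp, b, _, hR, ?_, ?_⟩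
          · rw [← hd]; exact h
          · rw [← hd]; exact hr1
        · have hQ' : Q' = (Q'.take b ++ P1) ++ (ks.flatten ++ g) := by
            conv_lhs => rw [← List.take_append_drop b Q', ← hd, e1]
            simp
          have hlb : (Q'.take b).length = b := by
            rw [List.length_take]; have := X.RL_len hR; omega
          have hlP : C.la ≤ P1.length := by
            obtain ⟨Q0, v0, h1, h2⟩ := e2.2
            exact (X.LL_len h2).trans (Thr.len_le h1)
          have hlen : b + C.la ≤ (Q'.take b ++ P1).length := by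
            rw [List.length_append, hlb]; omega
          have hdP : (Q'.take b ++ P1).drop b = P1 := by
            have := drop_add_append (P := Q'.take b) (Q := P1) 0
            rw [hlb] at this; simpa using this
          refine ⟨P, (Q'.take b ++ P1) :: ks, g, ?_, hSt, ?_, e4⟩
          · rw [hw']
            conv_lhs => rw [hQ']
            simp
          · intro k hk
            rcases List.mem_cons.1 hk with rfl | hk
            · refine ⟨b, X.zm w v, ?_, ?_, ?_⟩
              · have := X.RL_loc _ hR hlen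
                rwa [take_of_eq hQ'] at this
              · rw [hdP]; exact e2.1
              · rw [hdP]; exact e2.2
            · exact e3 k hk

theorem top_iff (hX : TSound X Bad) {Tgt : List α → V → Prop}
    (hT : ∀ {Q v}, Tgt Q v → C.nxt Q = none) (w : List α) (v : V) : RunT X Tgt w v ↔
    (AllBad C Bad w ∧ RunT X Tgt w v) ∨
      w ∈ (St X Bad v * (KStar.kstar (GG X Bad X.LL) * GG X Bad Tgt) : Language α) := by
  constructor
  · intro h
    rcases top_split hX hT w.length w v le_rfl h with h1 | ⟨P, ks, g, e1, e2, e3, e4⟩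
    · exact Or.inl ⟨h1, h⟩
    · exact Or.inr (mem3.2 ⟨P, _, g, e1, e2, Language.mem_kstar.2 ⟨ks, rfl, e3⟩, e4⟩)
  · rintro (h | h)
    · exact h.2
    · obtain ⟨P, k, g, rfl, hP, hk, b, R, h1, h2, h3⟩ := mem3.1 h
      obtain ⟨ks, rfl, hks⟩ := Language.mem_kstar.1 hk
      have h4 := join_star hX ks hks P v hP.2
      rw [← List.append_assoc]
      exact RunT.trans (join hX h4 h1) h3

/-- all words of length `n` -/
theorem finite_len [Finite α] (n : ℕ) : {y : List α | y.length = n}.Finite :=
  List.finite_length_eq α n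

def UL (X : Sch C V) (y : List α) (R : V) : Language α := {u | X.RL (u ++ y) u.length R}

def YL (X : Sch C V) (Bad : List α → Prop) (Tgt : List α → V → Prop) (R : V) : Language α :=
  {w | AllBad C Bad w ∧ w ∈ ({w | RunT X Tgt w R} : Language α)}

theorem GG_HL [Finite α] [Finite V] {Tgt : List α → V → Prop}
    (hU : ∀ (y : List α) (R : V), HL 2 ({u | X.RL (u ++ y) u.length R} : Language α))
    (hRC : ∀ L : Language α, L.IsRegular → HL 2 ({w | AllBad C Bad w ∧ w ∈ L} : Language α))
    (hreg : ∀ v, Language.IsRegular ({w | RunT X Tgt w v} : Language α)) :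
    HL 2 (GG X Bad Tgt) := by
  have key : HL 2 ({k | ∃ R : V, ∃ y ∈ {y : List α | y.length = C.la},
      k ∈ (UL X y R * ((({y} : Language α) * (⊤ : Language α)) ⊓ YL X Bad Tgt R) :
            Language α)} : Language α) := by
    refine HL.iUnion fun R => HL.biUnion (finite_len C.la) fun y _ => ?_
    exact (hU y R).mul (((HL.word y).mul HL.top).inf (hRC _ (hreg R)))
  refine key.congr fun k => ?_
  constructor
  · rintro ⟨b, R, h1, h2, h3⟩
    have hl := X.RL_len h1
    refine ⟨R, (k.drop b).take C.la, ?_, ?_⟩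
    · change ((k.drop b).take C.la).length = C.la
      rw [List.length_take, List.length_drop]; omega
    · refine Language.mem_mul.2 ⟨k.take b, ?_, k.drop b, ⟨?_, h2, h3⟩, List.take_append_drop b k⟩
      · change X.RL (k.take b ++ (k.drop b).take C.la) (k.take b).length R
        have e : k.take b ++ (k.drop b).take C.la = k.take (b + C.la) := by
          rw [List.take_add]
        rw [e, List.length_take, Nat.min_eq_left (by omega)]
        exact X.RL_loc _ h1 le_rfl
      · exact Language.mem_mul.2 ⟨_, rfl, (k.drop b).drop C.la, trivial,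
          List.take_append_drop _ _⟩
  · rintro ⟨R, y, hy, h⟩
    obtain ⟨u, hu, Q, ⟨hQ, h2, h3⟩, rfl⟩ := Language.mem_mul.1 h
    obtain ⟨y', hy', r, _, rfl⟩ := Language.mem_mul.1 hQ
    have hyy : y' = y := hy'
    subst hyy
    have hu' : X.RL (u ++ y') u.length R := hu
    have h4 := X.RL_ext r hu'
    have h5 : (u ++ (y' ++ r)).drop u.length = y' ++ r := by simp
    refine ⟨u.length, R, by rwa [List.append_assoc] at h4, ?_, ?_⟩
    · rw [h5]; exact h2
    · rw [h5]; exact h3

theorem runT_HL [Finite α] [Finite V] (hX : TSound X Bad) {Tgt : List α → V → Prop}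
    (hT : ∀ {Q v}, Tgt Q v → C.nxt Q = none)
    (hU : ∀ (y : List α) (R : V), HL 2 ({u | X.RL (u ++ y) u.length R} : Language α))
    (hRC : ∀ L : Language α, L.IsRegular → HL 2 ({w | AllBad C Bad w ∧ w ∈ L} : Language α))
    (hregL : ∀ v, Language.IsRegular ({w | RunT X X.LL w v} : Language α))
    (hregT : ∀ v, Language.IsRegular ({w | RunT X Tgt w v} : Language α)) (v : V) :
    HL 3 ({w | RunT X Tgt w v} : Language α) := by
  have h1 := GG_HL hU hRC hregL
  have h2 := GG_HL hU hRC hregT
  have h3 : HL 2 (St X Bad v) := hRC _ (hregL v)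
  have h4 := ((hRC _ (hregT v)).mono (by omega : 2 ≤ 3)).setOf_or
    ((h3.mono (by omega : 2 ≤ 3)).mul (h1.star.mul (h2.mono (by omega : 2 ≤ 3))))
  exact h4.congr fun w => top_iff hX hT w v

end Top

/-- **TOP** -/
theorem top [Finite α] [Finite V] [AddCommGroup V] {S : Type u} [Monoid S] [Finite S]
    {X : Sch C V} {Bad : List α → Prop} {φ : α → S} {act : V → S → V} {D : List α → V}
    (hX : TSound X Bad) (hR : Rd X φ act D)
    (hU : ∀ (y : List α) (R : V), HL 2 ({u | X.RL (u ++ y) u.length R} : Language α))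
    (hRC : ∀ L : Language α, L.IsRegular → HL 2 ({w | AllBad C Bad w ∧ w ∈ L} : Language α))
    (hregL : ∀ v, Language.IsRegular ({w | RunT X X.LL w v} : Language α))
    (hregT : ∀ (v' : V) (t : S) (v : V), Language.IsRegular
      ({w | RunT X (fun Q x => x = v' ∧ C.nxt Q = none ∧ ph φ Q = t) w v} : Language α)) (s : S) :
    HL 3 ({w | ph φ w = s} : Language α) := by
  have key : HL 3 ({w | ∃ ft : {ft : (V → V) × S // Compat act ft.1 ft.2 s}, ∀ v,
      w ∈ ({w | RunT X (fun Q x => x = ft.1.1 v ∧ C.nxt Q = none ∧ ph φ Q = ft.1.2) w v} :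
        Language α)} : Language α) := by
    refine HL.iUnion fun ft => HL.iInter fun v => ?_
    exact runT_HL hX (fun h => h.2.1) hU hRC hregL (hregT _ _) v
  refine key.congr fun w => ?_
  constructor
  · intro hs
    obtain ⟨ft, hc, h⟩ := (read_iff hR w s).1 hs
    refine ⟨⟨ft, hc⟩, fun v => ?_⟩
    obtain ⟨Q, h1, h2, h3⟩ := h v
    exact ⟨Q, _, h1, rfl, h2, h3⟩
  · rintro ⟨⟨ft, hc⟩, h⟩
    refine (read_iff hR w s).2 ⟨ft, hc, fun v => ?_⟩
    obtain ⟨Q, x, h1, rfl, h2, h3⟩ := h v
    exact ⟨Q, h1, h2, h3⟩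

end Crest.Agent.R320.Asm_750
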