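import Crest.Agent.R320.Main_621
import Crest.Agent.R320.FewVal_228
import Crest.Agent.R320.ExactR_237
import Crest.Agent.R320.Reg_143

/-!
# Row 320: the data of `Main_621` from a zone gadget without walls (helper803)

Blocks: natural chain rule, block end = next wall after the first wall at distance `≥ z0` (621).
-/

set_option autoImplicit false

namespace Crest.Agent.R320.Asm_803

open Crest.Agent.R320.Hk_851 Crest.Agent.R320.Star_621 Crest.Agent.R320.Two_621
open Crest.Agent.R320.FewWalls_228

variable {α : Type}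

/-- left-looking wall at position `t` -/
def WL (n : ℕ) (Sw : Set (List α)) (w : List α) (t : ℕ) : Prop :=
  n ≤ t ∧ t ≤ w.length ∧ (w.drop (t - n)).take n ∈ Sw

section walls

variable {n : ℕ} {Sw : Set (List α)}

theorem WL.wl {w : List α} {t : ℕ} (h : WL n Sw w t) : Wl n Sw w (t - n) := by
  obtain ⟨h1, h2, h3⟩ := h
  exact ⟨by omega, h3⟩

theorem WL_left {u v : List α} {t : ℕ} (ht : t ≤ u.length) :
    WL n Sw (u ++ v) t ↔ WL n Sw u t := by
  unfold WL
  constructor
  · rintro ⟨h1, h2, h3⟩
    refine ⟨h1, ht, ?_⟩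
    rw [List.drop_append_of_le_length (by omega), List.take_append_of_le_length
      (by rw [List.length_drop]; omega)] at h3
    exact h3
  · rintro ⟨h1, h2, h3⟩
    refine ⟨h1, by rw [List.length_append]; omega, ?_⟩
    rw [List.drop_append_of_le_length (by omega), List.take_append_of_le_length
      (by rw [List.length_drop]; omega)]
    exact h3

theorem WL_right {u v : List α} {s : ℕ} (hs : n ≤ s) :
    WL n Sw (u ++ v) (u.length + s) ↔ WL n Sw v s := by
  unfold WL
  have e : (u ++ v).drop (u.length + s - n) = v.drop (s - n) := by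
    have e1 : u.length + s - n = u.length + (s - n) := by omega
    rw [e1, List.drop_append]
    simp
  rw [e, List.length_append]
  constructor
  · rintro ⟨h1, h2, h3⟩; exact ⟨hs, by omega, h3⟩
  · rintro ⟨h1, h2, h3⟩; exact ⟨by omega, by omega, h3⟩

/-- `t` is the first wall at a place `≥ m` -/
def First (n : ℕ) (Sw : Set (List α)) (m : ℕ) (w : List α) (t : ℕ) : Prop :=
  WL n Sw w t ∧ m ≤ t ∧ ∀ s, s < t → WL n Sw w s → s < m

/-- first wall `≥ m` at `t`, and the word ends at the next wall -/
def E2 (n : ℕ) (Sw : Set (List α)) (m : ℕ) (w : List α) (t : ℕ) : Prop :=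
  First n Sw m w t ∧ t < w.length ∧ WL n Sw w w.length ∧
    ∀ s, s < w.length → WL n Sw w s → s ≤ t

theorem First.unique {m : ℕ} {w : List α} {t t' : ℕ} (h : First n Sw m w t)
    (h' : First n Sw m w t') : t = t' := by
  obtain ⟨a1, a2, a3⟩ := h
  obtain ⟨b1, b2, b3⟩ := h'
  rcases Nat.lt_trichotomy t t' with hl | hl | hl
  · have := b3 t hl a1; omega
  · exact hl
  · have := a3 t' hl b1; omega

theorem First.app {m : ℕ} {u v : List α} {t : ℕ} (h : First n Sw m u t) :
    First n Sw m (u ++ v) t := by
  obtain ⟨a1, a2, a3⟩ := h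
  have hl : t ≤ u.length := a1.2.1
  exact ⟨(WL_left hl).2 a1, a2, fun s hs h => a3 s hs ((WL_left (by omega)).1 h)⟩

theorem First.of_app {m : ℕ} {u v : List α} {t : ℕ} (ht : t ≤ u.length)
    (h : First n Sw m (u ++ v) t) : First n Sw m u t := by
  obtain ⟨a1, a2, a3⟩ := h
  exact ⟨(WL_left ht).1 a1, a2, fun s hs h => a3 s hs ((WL_left (by omega)).2 h)⟩

/-- the zone language -/
def ZZ (n : ℕ) (Sw : Set (List α)) (m : ℕ) : Language α := {w | ∃ t, E2 n Sw m w t}

theorem E2.le {m : ℕ} {z z' x x' : List α} {t t' : ℕ} (h : E2 n Sw m z t)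
    (h' : E2 n Sw m z' t') (e : z ++ x = z' ++ x') : z.length ≤ z'.length := by
  by_contra hlt
  push Not at hlt
  have p1 := h.1.app (v := x)
  have p2 := h'.1.app (v := x')
  rw [← e] at p2
  have ht := p1.unique p2
  have w' : WL n Sw (z' ++ x') z'.length := (WL_left le_rfl).2 h'.2.2.1
  rw [← e] at w'
  have w'' : WL n Sw z z'.length := (WL_left hlt.le).1 w'
  have := h.2.2.2 _ hlt w''
  have := h'.2.1
  omega

theorem E2.eq {m : ℕ} {z z' x x' : List α} {t t' : ℕ} (h : E2 n Sw m z t)
    (h' : E2 n Sw m z' t') (e : z ++ x = z' ++ x') : z = z' := by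
  have h1 := h.le h' e
  have h2 := h'.le h e.symm
  exact (List.append_inj e (le_antisymm h1 h2)).1

theorem E2.unique {m : ℕ} {w : List α} {t t' : ℕ} (h : E2 n Sw m w t)
    (h' : E2 n Sw m w t') : t = t' := h.1.unique h'.1

theorem code (m : ℕ) : Code (ZZ n Sw m) := by
  refine ⟨?_, ?_⟩
  · rintro ⟨t, h⟩
    have := h.2.1
    simp at this
  · rintro z z' x x' ⟨t, h⟩ ⟨t', h'⟩ e
    exact h.eq h' e

/-- few walls -/
theorem nw_le {m : ℕ} {w : List α} {t : ℕ} (h : E2 n Sw m w t) : nw n Sw w ≤ m + 2 := by
  classical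
  unfold nw
  have hs : (Finset.range (w.length + 1)).filter (fun x => Wl n Sw w x) ⊆
      (Finset.range m).image (fun t => t - n) ∪ {t - n, w.length - n} := by
    intro x hx
    rw [Finset.mem_filter] at hx
    obtain ⟨-, h1, h2⟩ := hx
    have hw : WL n Sw w (x + n) := ⟨by omega, h1, by
      rw [Nat.add_sub_cancel]; exact h2⟩
    rw [Finset.mem_union]
    by_cases h3 : x + n < m
    · left
      exact Finset.mem_image.2 ⟨x + n, Finset.mem_range.2 h3, by omega⟩
    · right
      rw [Finset.mem_insert, Finset.mem_singleton]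
      rcases Nat.lt_or_ge (x + n) w.length with h4 | h4
      · have h5 := h.2.2.2 _ h4 hw
        rcases Nat.lt_or_ge (x + n) t with h6 | h6
        · have := h.1.2.2 _ h6 hw
          omega
        · left; omega
      · right; omega
  refine (Finset.card_le_card hs).trans ((Finset.card_union_le _ _).trans ?_)
  have := Finset.card_image_le (s := Finset.range m) (f := fun t => t - n)
  rw [Finset.card_range] at this
  have h2 : ({t - n, w.length - n} : Finset ℕ).card ≤ 2 := Finset.card_le_two
  omega

end walls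

end Crest.Agent.R320.Asm_803
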