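import Mathlib
import Crest.Agent.R320.Asm_505
import Crest.Agent.R320.ExactR_237

/-!
# Row 320: two concrete schemes on all words, natural chain rule, two-wall blocks (helper822)
-/

set_option autoImplicit false

namespace Crest.Agent.R320.Asm_822

open Crest.RegLang Crest.Agent.R320.Hk_851 Crest.Agent.R320.Asm_505

variable {α S V : Type} [Monoid S] [AddCommGroup V]

/-- product of a word -/
def pd (φ : α → S) (w : List α) : S := (w.map φ).prod

theorem pd_append (φ : α → S) (u v : List α) : pd φ (u ++ v) = pd φ u * pd φ v := by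
  simp [pd]

/-- left-looking walls -/
structure Walls (α : Type) where
  n : ℕ
  W : ℕ
  Wo : List α → Prop
  loc : ∀ P Q : List α, n ≤ Q.length → (Wo (P ++ Q) ↔ Wo Q)
  gap : ∀ (P : List α) (d : ℕ), Wo P → 0 < d → d ≤ W → ¬ Wo (P.take (P.length - d))

namespace Walls

variable (w : Walls α)

theorem loc_take (P q : List α) {s : ℕ} (h1 : w.n ≤ s) (h2 : s ≤ q.length) :
    w.Wo ((P ++ q).take (P.length + s)) ↔ w.Wo (q.take s) := by
  have e : (P ++ q).take (P.length + s) = P ++ q.take s := by
    rw [List.take_append, List.take_of_length_le (by omega)]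
    congr 1
    congr 1
    omega
  rw [e]
  exact w.loc _ _ (by rw [List.length_take]; omega)

theorem shift (P P' q : List α) {s s' : ℕ} (h : s + P'.length = s' + P.length)
    (h1 : P.length + w.n ≤ s) (h2 : s ≤ P.length + q.length) :
    w.Wo ((P ++ q).take s) ↔ w.Wo ((P' ++ q).take s') := by
  have e1 : s = P.length + (s - P.length) := by omega
  have e2 : s' = P'.length + (s - P.length) := by omega
  rw [e1, e2, w.loc_take P q (by omega) (by omega), w.loc_take P' q (by omega) (by omega)]

theorem gap' (X : List α) {s t : ℕ} (h : s < t) (ht : t ≤ X.length)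
    (h1 : w.Wo (X.take s)) (h2 : w.Wo (X.take t)) : s + w.W < t := by
  by_contra hc
  have h3 := w.gap (X.take t) (t - s) h2 (by omega) (by omega)
  rw [List.length_take, min_eq_left ht, List.take_take] at h3
  have : min (t - (t - s)) t = s := by omega
  rw [this] at h3
  exact h3 h1

/-- `t` is the first wall of `X` at a position `≥ a` -/
def FW (X : List α) (a t : ℕ) : Prop :=
  a ≤ t ∧ t ≤ X.length ∧ w.Wo (X.take t) ∧ ∀ s, a ≤ s → s < t → ¬ w.Wo (X.take s)

theorem FW.unique {w : Walls α} {X : List α} {a t t' : ℕ} (h : w.FW X a t) (h' : w.FW X a t') :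
    t = t' := by
  rcases lt_trichotomy t t' with hl | hl | hl
  · exact absurd h.2.2.1 (h'.2.2.2 t h.1 hl)
  · exact hl
  · exact absurd h'.2.2.1 (h.2.2.2 t' h'.1 hl)

theorem exists_FW {X : List α} {a t : ℕ} (h1 : a ≤ t) (h2 : t ≤ X.length)
    (h3 : w.Wo (X.take t)) : ∃ t', t' ≤ t ∧ w.FW X a t' := by
  classical
  have hex : ∃ s, a ≤ s ∧ w.Wo (X.take s) := ⟨t, h1, h3⟩
  refine ⟨Nat.find hex, Nat.find_min' hex ⟨h1, h3⟩, (Nat.find_spec hex).1,
    (Nat.find_min' hex ⟨h1, h3⟩).trans h2, (Nat.find_spec hex).2, ?_⟩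
  intro s hs hlt hw
  exact Nat.find_min hex hlt ⟨hs, hw⟩

open Classical in
noncomputable def t1 (z : ℕ) (X : List α) : ℕ := if h : ∃ t, w.FW X z t then h.choose else 0

theorem t1_eq {z : ℕ} {X : List α} {t : ℕ} (h : w.FW X z t) : w.t1 z X = t := by
  classical
  have hex : ∃ t, w.FW X z t := ⟨t, h⟩
  unfold t1
  rw [dif_pos hex]
  exact hex.choose_spec.unique h

/-- two-wall blocks -/
def U (z : ℕ) : Language α :=
  {X | ∃ t, w.FW X z t ∧ t < X.length ∧ w.Wo X ∧ ∀ s, t < s → s < X.length → ¬ w.Wo (X.take s)}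

theorem FW_prefix {X Y : List α} {a t : ℕ} (hp : X <+: Y) (h : t ≤ X.length) :
    w.FW X a t ↔ w.FW Y a t := by
  obtain ⟨Z, rfl⟩ := hp
  have e : ∀ s, s ≤ X.length → (X ++ Z).take s = X.take s := fun s hs =>
    List.take_append_of_le_length hs
  unfold FW
  constructor
  · rintro ⟨h1, h2, h3, h4⟩
    refine ⟨h1, by rw [List.length_append]; omega, by rw [e t h]; exact h3, ?_⟩
    intro s hs hlt
    rw [e s (by omega)]
    exact h4 s hs hlt
  · rintro ⟨h1, h2, h3, h4⟩
    refine ⟨h1, h, by rw [e t h] at h3; exact h3, ?_⟩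
    intro s hs hlt
    have := h4 s hs hlt
    rw [e s (by omega)] at this
    exact this

theorem U_pc (z : ℕ) : PC (w.U z) := by
  constructor
  · rintro ⟨t, h1, h2, -⟩
    simp at h2
  · rintro X ⟨t, h1, h2, h3, h4⟩ Y ⟨t', h1', h2', h3', h4'⟩ hp
    have hle := hp.length_le
    have ht : t = t' := ((w.FW_prefix hp (by omega)).1 h1).unique h1'
    subst ht
    rcases Nat.lt_or_ge X.length Y.length with hlt | hge
    · exfalso
      apply h4' X.length h2 hlt
      rw [← List.prefix_iff_eq_take.1 hp]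
      exact h3
    · exact hp.eq_of_length (le_antisymm hle hge)

theorem shift_FW {P P' q : List α} {z t t' : ℕ} (hP' : P'.length + w.n ≤ z)
    (ht : t + P'.length = t' + P.length) (hz : z ≤ t') (hle : t ≤ (P ++ q).length)
    (hw : w.Wo ((P ++ q).take t))
    (hno : ∀ s, z + P.length ≤ s + P'.length → s < t → ¬ w.Wo ((P ++ q).take s)) :
    w.FW (P' ++ q) z t' := by
  rw [List.length_append] at hle
  refine ⟨hz, by rw [List.length_append]; omega, ?_, ?_⟩
  · rw [w.shift P' P q (s := t') (s' := t) (by omega) (by omega) (by omega)]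
    exact hw
  · intro s hs hlt
    rw [w.shift P' P q (s := s) (s' := s + P.length - P'.length) (by omega) (by omega) (by omega)]
    exact hno _ (by omega) (by omega)

theorem shift_U {P P' q : List α} {z t t' : ℕ} (hF : w.FW (P' ++ q) z t')
    (hP' : P'.length + w.n ≤ z)
    (ht : t + P'.length = t' + P.length) (h2 : t < (P ++ q).length)
    (h3 : w.Wo (P ++ q)) (h4 : ∀ s, t < s → s < (P ++ q).length → ¬ w.Wo ((P ++ q).take s)) :
    P' ++ q ∈ w.U z := by
  have hz := hF.1
  rw [List.length_append] at h2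
  refine ⟨t', hF, by rw [List.length_append]; omega, ?_, ?_⟩
  · have h := w.shift P' P q (s := P'.length + q.length) (s' := P.length + q.length)
      (by omega) (by omega) (by omega)
    rw [← List.length_append, ← List.length_append, List.take_length, List.take_length] at h
    exact h.2 h3
  · intro s hs hlt
    rw [List.length_append] at hlt
    rw [w.shift P' P q (s := s) (s' := s + P.length - P'.length) (by omega) (by omega) (by omega)]
    exact h4 _ (by omega) (by rw [List.length_append]; omega)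

end Walls

/-- the gadget of scheme 1 at one alphabet -/
structure Gad (φ : α → S) (act : V → S → V) where
  (C0 K N1 La : ℕ)
  c : ℕ → ℕ
  Bad : ℕ → Prop
  lam : List α → Option V
  rho : List α → Option V
  nu : List α → V
  cmono : ∀ i j, i < j → j < K → c i < c j
  gol : ∀ i j k l, i < K → j < K → k < K → l < K → i ≠ j → k ≠ l → (i, j) ≠ (k, l) →
    c i + c l + 4 * N1 < c k + c j ∨ c k + c j + 4 * N1 < c i + c l
  spoil : ∀ T, La ≤ T → ∀ A : Finset (ℕ × ℕ),
    (∀ ab ∈ A, ab.1 < K ∧ ab.2 < K ∧ ab.1 ≠ ab.2 ∧ Bad (T + c ab.2 - c ab.1)) → A.card ≤ C0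
  lamlen : ∀ p v, lam p = some v → p.length ≤ N1
  sound : ∀ p q v r, lam p = some v → rho q = some r → La ≤ q.length →
    r = act v (pd φ (p ++ q)) + nu (p ++ q)
  compl : ∀ u : List α, La ≤ u.length → ¬ Bad u.length → ∀ v, ∃ p q, p ++ q = u ∧ lam p = some v ∧
    (rho q).isSome

/-- all the data -/
structure Dt (φ : α → S) (act : V → S → V) extends Walls α, Gad φ act where
  (p0 z : ℕ)
  nu2 : List α → V
  lam2 : ℕ → List α → Option V
  rho2 : ℕ → List α → Option V
  hz : 3 * p0 + 3 * N1 + La + n + 1 ≤ z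
  hW : 2 * (p0 + N1) + 2 ≤ W
  cp0 : ∀ k < K, c k ≤ p0
  cpos : ∀ k < K, 0 < c k
  p0pos : 0 < p0
  sound2 : ∀ k < K, ∀ (P Q : List α) (v b : V), P.length = c k → (P ++ Q).length = p0 →
    lam2 k P = some v → rho2 k Q = some b → b = act v (pd φ (P ++ Q)) + nu2 (P ++ Q)
  compl2 : ∀ (u : List α) (v : V), u.length = p0 → ∃ I : Finset ℕ, 2 + 2 * C0 ≤ I.card ∧ ∀ k ∈ I, k < K ∧
    lam2 k (u.take (c k)) = some v ∧ (rho2 k (u.drop (c k))).isSome

namespace Dt

variable {φ : α → S} {act : V → S → V} (D : Dt φ act)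

noncomputable def tt (X : List α) : ℕ := D.toWalls.t1 D.z X

/-- the zone map -/
noncomputable def eps (X : List α) (v : V) : V :=
  act (act (act v (pd φ (X.take D.p0)) + D.nu2 (X.take D.p0))
    (pd φ ((X.take (D.tt X)).drop D.p0)) + D.nu ((X.take (D.tt X)).drop D.p0))
    (pd φ (X.drop (D.tt X)))

def UU : Language α := D.toWalls.U D.z

/-- badness, read on the prefix up to the wall `t` -/
def BadT (X : List α) (t : ℕ) : Prop :=
  (∃ s, s ≤ t ∧ D.Wo (X.take s) ∧ s ≤ D.z + D.N1 ∧ D.z ≤ s + D.N1) ∨ D.Bad (t - D.p0)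

def BB : Language α := {X | X ∈ D.UU ∧ D.BadT X (D.tt X)}

def P1 (v : V) : Language α :=
  {P | D.p0 ≤ P.length ∧
    D.lam (P.drop D.p0) = some (act v (pd φ (P.take D.p0)) + D.nu2 (P.take D.p0))}

def R1 (y : V) : Language α :=
  {q | ∀ v, ∀ P ∈ D.P1 v, P ++ q ∈ D.UU ∧ D.eps (P ++ q) v = y}

theorem P1_len {v : V} {P : List α} (h : P ∈ D.P1 v) : P.length ≤ D.p0 + D.N1 := by
  have := D.lamlen _ _ h.2
  rw [List.length_drop] at this
  omega

/-- computing `eps` on `P ++ q1 ++ Dd` -/
theorem eps_eq {P q1 Dd : List α} {t : ℕ} (hF : D.toWalls.FW (P ++ (q1 ++ Dd)) D.z t)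
    (ht : t = P.length + q1.length) (hp : D.p0 ≤ P.length) (v : V) :
    D.eps (P ++ (q1 ++ Dd)) v = act (act (act v (pd φ (P.take D.p0)) + D.nu2 (P.take D.p0))
      (pd φ (P.drop D.p0 ++ q1)) + D.nu (P.drop D.p0 ++ q1)) (pd φ Dd) := by
  have h1 : D.tt (P ++ (q1 ++ Dd)) = t := D.toWalls.t1_eq hF
  have h2 : (P ++ (q1 ++ Dd)).take t = P ++ q1 := by
    rw [ht, ← List.append_assoc, ← List.length_append, List.take_left]
  have h3 : (P ++ (q1 ++ Dd)).drop t = Dd := by
    rw [ht, ← List.append_assoc, ← List.length_append, List.drop_left]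
  have h4 : (P ++ (q1 ++ Dd)).take D.p0 = P.take D.p0 := List.take_append_of_le_length hp
  have h5 : (P ++ q1).drop D.p0 = P.drop D.p0 ++ q1 := List.drop_append_of_le_length hp
  unfold eps
  rw [h1, h2, h3, h4, h5]

theorem level1 : Level D.UU D.BB D.eps D.P1 D.R1 := by
  refine ⟨?_, ?_, ?_⟩
  · intro x h
    have h1 := h.1
    have := D.p0pos
    simp at h1
    omega
  · intro z hz x y p hp q hq hcmp
    obtain ⟨h1, h2⟩ := hq x p hp
    have hpc := D.toWalls.U_pc D.z
    have he : z = p ++ q := by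
      rcases hcmp with h | h
      · exact hpc.pc _ hz _ h1 h
      · exact (hpc.pc _ h1 _ hz h).symm
    exact ⟨he, by rw [he]; exact h2⟩
  · intro X hX hnB x
    obtain ⟨t, hF, h2, h3, h4⟩ := id hX
    have htt : D.tt X = t := D.toWalls.t1_eq hF
    have hz := D.hz
    have hnb : ¬ D.BadT X t := fun h => hnB ⟨hX, by rw [htt]; exact h⟩
    have hE : ∀ s, s ≤ t → D.Wo (X.take s) → s ≤ D.z + D.N1 → D.z ≤ s + D.N1 → False :=
      fun s a b c d => hnb (Or.inl ⟨s, a, b, c, d⟩)
    have hB : ¬ D.Bad (t - D.p0) := fun h => hnb (Or.inr h)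
    have hzt : D.z ≤ t := hF.1
    have hzt' : D.z + D.N1 < t := by
      by_contra hc
      exact hE t le_rfl hF.2.2.1 (by omega) (by omega)
    have hYlen : ((X.take t).drop D.p0).length = t - D.p0 := by
      rw [List.length_drop, List.length_take, min_eq_left hF.2.1]
    obtain ⟨p, q', hpq, hlam, hrho⟩ := D.compl ((X.take t).drop D.p0) (by rw [hYlen]; omega)
      (by rw [hYlen]; exact hB) (act x (pd φ (X.take D.p0)) + D.nu2 (X.take D.p0))
    obtain ⟨r, hr⟩ := Option.isSome_iff_exists.1 hrho
    have hpl := D.lamlen _ _ hlam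
    have hql : p.length + q'.length = t - D.p0 := by
      rw [← hYlen, ← hpq, List.length_append]
    set X0 := X.take D.p0 with hX0
    have hX0l : X0.length = D.p0 := by rw [hX0, List.length_take]; omega
    set Dd := X.drop t with hDd
    have hXe : X = (X0 ++ p) ++ (q' ++ Dd) := by
      have e1 : X = X.take t ++ Dd := (List.take_append_drop t X).symm
      have e2 : X.take t = (X.take t).take D.p0 ++ (X.take t).drop D.p0 :=
        (List.take_append_drop _ _).symm
      have e3 : (X.take t).take D.p0 = X0 := by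
        rw [List.take_take, min_eq_left (by omega)]
      rw [e3, ← hpq] at e2
      rw [e2] at e1
      simpa [List.append_assoc] using e1
    have hPl : (X0 ++ p).length = D.p0 + p.length := by rw [List.length_append, hX0l]
    have htP : t = (X0 ++ p).length + q'.length := by omega
    -- the value of every left word
    have key : ∀ v P, P ∈ D.P1 v → P ++ (q' ++ Dd) ∈ D.UU ∧
        D.eps (P ++ (q' ++ Dd)) v = act r (pd φ Dd) := by
      intro v P hP
      have hPl' := D.P1_len hP
      have hP0 := hP.1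
      have hF' : D.toWalls.FW (P ++ (q' ++ Dd)) D.z (P.length + q'.length) := by
        refine D.toWalls.shift_FW (P := X0 ++ p) (t := t) (by omega) (by omega) (by omega) ?_ ?_ ?_
        · rw [← hXe]; exact hF.2.1
        · rw [← hXe]; exact hF.2.2.1
        · intro s h5 h6 h7
          rw [← hXe] at h7
          rcases Nat.lt_or_ge s D.z with h8 | h8
          · exact hE s (by omega) h7 (by omega) (by omega)
          · exact hF.2.2.2 s h8 h6 h7
      have hU' : P ++ (q' ++ Dd) ∈ D.UU := by
        refine D.toWalls.shift_U (P := X0 ++ p) (t := t) hF' (by omega) (by omega) ?_ ?_ ?_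
        · rw [← hXe]; exact h2
        · rw [← hXe]; exact h3
        · rw [← hXe]; exact h4
      refine ⟨hU', ?_⟩
      rw [D.eps_eq hF' rfl hP0, ← D.sound _ _ _ _ hP.2 hr (by omega)]
    have hPin : X0 ++ p ∈ D.P1 x := by
      refine ⟨by omega, ?_⟩
      have e1 : (X0 ++ p).drop D.p0 = p := by rw [← hX0l, List.drop_left]
      have e2 : (X0 ++ p).take D.p0 = X0 := by
        conv_lhs => rw [← hX0l]
        exact List.take_left
      rw [e1, e2]
      exact hlam
    refine ⟨X0 ++ p, hPin, q' ++ Dd, ?_, hXe⟩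
    have hx := (key x _ hPin).2
    rw [← hXe] at hx
    intro v P hP
    rw [hx]
    exact key v P hP

def P2 (v : V) : Language α := {P | ∃ k < D.K, P.length = D.c k ∧ D.lam2 k P = some v}

def G1 : Language α := {g | D.toWalls.FW g D.z g.length ∧ ¬ D.BadT g g.length}

def R2 (y : V) : Language α :=
  {q | ∀ v, ∀ P ∈ D.P2 v, (P ++ q ∈ D.BB ∧ D.eps (P ++ q) v = y) ∨ ∃ g ∈ D.G1, g <+: P ++ q}

theorem eps_eq2 {Z : List α} {t : ℕ} (hF : D.toWalls.FW Z D.z t) (v : V) :
    D.eps Z v = act (act (act v (pd φ (Z.take D.p0)) + D.nu2 (Z.take D.p0))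
      (pd φ ((Z.take t).drop D.p0)) + D.nu ((Z.take t).drop D.p0)) (pd φ (Z.drop t)) := by
  have h1 : D.tt Z = t := D.toWalls.t1_eq hF
  unfold eps
  rw [h1]

theorem G1_no {g z : List α} (hg : g ∈ D.G1) (hz : z ∈ D.BB) (h : g <+: z ∨ z <+: g) : False := by
  obtain ⟨⟨t, hF, h2, h3, h4⟩, hb⟩ := hz
  have htt : D.tt z = t := D.toWalls.t1_eq hF
  rw [htt] at hb
  obtain ⟨hG, hnb⟩ := hg
  rcases h with h | h
  · have hF' := (D.toWalls.FW_prefix h le_rfl).1 hG
    have e : g.length = t := hF'.unique hF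
    apply hnb
    obtain ⟨y, rfl⟩ := h
    rcases hb with ⟨s, h5, h6, h7, h8⟩ | hb
    · left
      refine ⟨s, by omega, ?_, h7, h8⟩
      rw [List.take_append_of_le_length (by omega)] at h6
      exact h6
    · right; rw [e]; exact hb
  · have hF' := (D.toWalls.FW_prefix h hF.2.1).1 hF
    have e := hF'.unique hG
    have := h.length_le
    omega

open Classical in
theorem card_spoil {X : List α} {t : ℕ} (hF : D.toWalls.FW X D.z t) (h2 : t < X.length)
    (h3 : D.Wo X) (A : Finset (ℕ × ℕ))
    (hA : ∀ ab ∈ A, ab.1 < D.K ∧ ab.2 < D.K ∧ ab.1 ≠ ab.2 ∧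
      ((∃ s, s ≤ X.length ∧ D.Wo (X.take s) ∧ s + D.c ab.2 ≤ D.z + D.N1 + D.c ab.1 ∧
        D.z + D.c ab.1 ≤ s + D.c ab.2 + D.N1) ∨
       ∃ s, D.toWalls.FW X (D.z + D.c ab.1 - D.c ab.2) s ∧
        D.Bad (s - D.p0 + D.c ab.2 - D.c ab.1))) : A.card ≤ 1 + 2 * D.C0 := by
  have hz := D.hz
  have hW := D.hW
  -- the two candidates
  obtain ⟨e1, he1t, he1⟩ := D.toWalls.exists_FW (a := D.z - D.p0) (t := t) (by have := hF.1; omega)
    hF.2.1 hF.2.2.1
  have hfull : D.Wo (X.take X.length) := by rw [List.take_length]; exact h3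
  have hgapb : t + D.W < X.length := D.toWalls.gap' X h2 le_rfl hF.2.2.1 hfull
  obtain ⟨e2, he2t, he2⟩ := D.toWalls.exists_FW (X := X) (a := e1 + 1) (t := X.length)
    (by omega) le_rfl hfull
  have hgap12 : e1 + D.W < e2 :=
    D.toWalls.gap' X (by have := he2.1; omega) he2.2.1 he1.2.2.1 he2.2.2.1
  have hcand : ∀ a s, D.z ≤ a + D.p0 → a ≤ D.z + D.p0 → D.toWalls.FW X a s → s = e1 ∨ s = e2 := by
    intro a s ha1 ha2 hs
    have h5 : e1 ≤ s := by
      by_contra hc
      exact he1.2.2.2 s (by have := hs.1; omega) (by omega) hs.2.2.1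
    rcases Nat.eq_or_lt_of_le h5 with h6 | h6
    · exact Or.inl h6.symm
    · right
      have h7 : e1 < a := by
        by_contra hc
        exact hs.2.2.2 e1 (by omega) h6 he1.2.2.1
      have h8 : e2 ≤ s := by
        by_contra hc
        exact he2.2.2.2 s (by omega) (by omega) hs.2.2.1
      have h9 : s ≤ e2 := by
        by_contra hc
        exact hs.2.2.2 e2 (by have := he1.1; omega) (by omega) he2.2.2.1
      omega
  let AE := A.filter (fun ab => ∃ s, s ≤ X.length ∧ D.Wo (X.take s) ∧
    s + D.c ab.2 ≤ D.z + D.N1 + D.c ab.1 ∧ D.z + D.c ab.1 ≤ s + D.c ab.2 + D.N1)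
  let AB := fun e => A.filter (fun ab => D.Bad (e - D.p0 + D.c ab.2 - D.c ab.1))
  have hsub : A ⊆ AE ∪ (AB e1 ∪ AB e2) := by
    intro ab hab
    obtain ⟨ha, hb, hne, h | ⟨s, hs, hbad⟩⟩ := hA ab hab
    · exact Finset.mem_union_left _ (Finset.mem_filter.2 ⟨hab, h⟩)
    · apply Finset.mem_union_right
      have hca := D.cp0 _ ha
      have hcb := D.cp0 _ hb
      rcases hcand _ s (by omega) (by omega) hs with h | h
      · exact Finset.mem_union_left _ (Finset.mem_filter.2 ⟨hab, by rw [← h]; exact hbad⟩)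
      · exact Finset.mem_union_right _ (Finset.mem_filter.2 ⟨hab, by rw [← h]; exact hbad⟩)
  have hAE : AE.card ≤ 1 := by
    rw [Finset.card_le_one]
    intro ab hab cd hcd
    obtain ⟨ha, s, hs1, hs2, hs3, hs4⟩ := Finset.mem_filter.1 hab
    obtain ⟨hc, s', hs1', hs2', hs3', hs4'⟩ := Finset.mem_filter.1 hcd
    obtain ⟨a1, a2, a3, -⟩ := hA ab ha
    obtain ⟨c1, c2, c3, -⟩ := hA cd hc
    have b1 := D.cp0 _ a1
    have b2 := D.cp0 _ a2
    have b3 := D.cp0 _ c1
    have b4 := D.cp0 _ c2
    have hss : s = s' := by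
      rcases lt_trichotomy s s' with h | h | h
      · have := D.toWalls.gap' X h hs1' hs2 hs2'
        omega
      · exact h
      · have := D.toWalls.gap' X h hs1 hs2' hs2
        omega
    subst hss
    by_contra hne
    have hg := D.gol ab.1 ab.2 cd.1 cd.2 a1 a2 c1 c2 a3 c3 (by
      intro h; exact hne (Prod.ext (congrArg Prod.fst h) (congrArg Prod.snd h)))
    omega
  have hAB : ∀ e, D.z ≤ e + D.p0 → (AB e).card ≤ D.C0 := by
    intro e he
    refine D.spoil (e - D.p0) (by omega) (AB e) ?_
    intro ab hab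
    obtain ⟨ha, hb⟩ := Finset.mem_filter.1 hab
    obtain ⟨a1, a2, a3, -⟩ := hA ab ha
    exact ⟨a1, a2, a3, hb⟩
  calc A.card ≤ (AE ∪ (AB e1 ∪ AB e2)).card := Finset.card_le_card hsub
    _ ≤ AE.card + (AB e1 ∪ AB e2).card := Finset.card_union_le _ _
    _ ≤ AE.card + ((AB e1).card + (AB e2).card) := by
        have := Finset.card_union_le (AB e1) (AB e2); omega
    _ ≤ 1 + 2 * D.C0 := by
        have x1 := hAB e1 (by have := he1.1; omega)
        have x2 := hAB e2 (by have := he1.1; have := he2.1; omega)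
        omega

theorem level2 : Level D.BB 0 D.eps D.P2 D.R2 := by
  classical
  refine ⟨?_, ?_, ?_⟩
  · rintro x ⟨k, hk, h, -⟩
    have := D.cpos k hk
    simp at h
    omega
  · intro z hz x y p hp q hq hcmp
    rcases hq x p hp with ⟨h1, h2⟩ | ⟨g, hg, hgp⟩
    · have hpc := D.toWalls.U_pc D.z
      have he : z = p ++ q := by
        rcases hcmp with h | h
        · exact hpc.pc _ hz.1 _ h1.1 h
        · exact (hpc.pc _ h1.1 _ hz.1 h).symm
      exact ⟨he, by rw [he]; exact h2⟩
    · exfalso
      apply D.G1_no hg hz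
      rcases hcmp with h | h
      · exact List.prefix_or_prefix_of_prefix hgp h
      · exact Or.inl (hgp.trans h)
  · intro X hX _ x
    obtain ⟨⟨t, hF, h2, h3, h4⟩, hbad⟩ := id hX
    have htt : D.tt X = t := D.toWalls.t1_eq hF
    rw [htt] at hbad
    have hz := D.hz
    have hzt := hF.1
    have hW := D.hW
    have hul : (X.take D.p0).length = D.p0 := by rw [List.length_take]; omega
    obtain ⟨I, hI, hIk⟩ := D.compl2 (X.take D.p0) x hul
    let Sp : ℕ → ℕ → Prop := fun k k' =>
      (∃ s, s ≤ X.length ∧ D.Wo (X.take s) ∧ s + D.c k' ≤ D.z + D.N1 + D.c k ∧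
        D.z + D.c k ≤ s + D.c k' + D.N1) ∨
       ∃ s, D.toWalls.FW X (D.z + D.c k - D.c k') s ∧ D.Bad (s - D.p0 + D.c k' - D.c k)
    let A := ((Finset.range D.K) ×ˢ (Finset.range D.K)).filter
      (fun ab : ℕ × ℕ => ab.1 ≠ ab.2 ∧ Sp ab.1 ab.2)
    have hAc : A.card ≤ 1 + 2 * D.C0 := by
      refine D.card_spoil hF h2 h3 A ?_
      intro ab hab
      obtain ⟨h5, h6, h7⟩ := Finset.mem_filter.1 hab
      obtain ⟨h8, h9⟩ := Finset.mem_product.1 h5
      exact ⟨Finset.mem_range.1 h8, Finset.mem_range.1 h9, h6, h7⟩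
    obtain ⟨k, hkI, hkA⟩ : ∃ k ∈ I, k ∉ A.image Prod.fst := by
      by_contra hc
      push Not at hc
      have h5 : I ⊆ A.image Prod.fst := fun k hk => hc k hk
      have h6 := Finset.card_le_card h5
      have h7 : (A.image Prod.fst).card ≤ A.card := Finset.card_image_le
      omega
    obtain ⟨hkK, hlam, hrho⟩ := hIk k hkI
    obtain ⟨b, hb⟩ := Option.isSome_iff_exists.1 hrho
    have hck := D.cp0 k hkK
    have hnsp : ∀ k' < D.K, k' ≠ k → ¬ Sp k k' := by
      intro k' hk' hne hs
      apply hkA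
      refine Finset.mem_image.2 ⟨(k, k'), Finset.mem_filter.2 ⟨Finset.mem_product.2
        ⟨Finset.mem_range.2 hkK, Finset.mem_range.2 hk'⟩, fun h => hne h.symm, hs⟩, rfl⟩
    set P := X.take (D.c k) with hP
    set q := X.drop (D.c k) with hq
    have hXe : X = P ++ q := (List.take_append_drop _ _).symm
    have hPl : P.length = D.c k := by rw [hP, List.length_take]; omega
    have hql : q.length = X.length - D.c k := by rw [hq, List.length_drop]
    have hPP : P ∈ D.P2 x := by
      refine ⟨k, hkK, hPl, ?_⟩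
      rw [List.take_take, min_eq_left hck] at hlam
      exact hlam
    -- same place
    have key1 : ∀ v P', P'.length = D.c k → D.lam2 k P' = some v → P' ++ q ∈ D.BB ∧
        D.eps (P' ++ q) v = act (act b (pd φ ((q.take (t - D.c k)).drop (D.p0 - D.c k))) +
          D.nu ((q.take (t - D.c k)).drop (D.p0 - D.c k))) (pd φ (q.drop (t - D.c k))) := by
      intro v P' hP'l hl
      have hF' : D.toWalls.FW (P' ++ q) D.z t := by
        refine D.toWalls.shift_FW (P := P) (t := t) (by omega) (by omega) hzt ?_ ?_ ?_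
        · rw [← hXe]; exact hF.2.1
        · rw [← hXe]; exact hF.2.2.1
        · intro s h5 h6
          rw [← hXe]
          exact hF.2.2.2 s (by omega) h6
      have hU' : P' ++ q ∈ D.UU := by
        refine D.toWalls.shift_U (P := P) (t := t) hF' (by omega) (by omega) ?_ ?_ ?_
        · rw [← hXe]; exact h2
        · rw [← hXe]; exact h3
        · rw [← hXe]; exact h4
      have hB' : P' ++ q ∈ D.BB := by
        refine ⟨hU', ?_⟩
        rw [show D.tt (P' ++ q) = t from D.toWalls.t1_eq hF']
        rcases hbad with ⟨s, h5, h6, h7, h8⟩ | hbad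
        · left
          refine ⟨s, h5, ?_, h7, h8⟩
          rw [D.toWalls.shift P' P q (s := s) (s' := s) (by omega) (by omega) (by omega), ← hXe]
          exact h6
        · exact Or.inr hbad
      refine ⟨hB', ?_⟩
      rw [D.eps_eq2 hF']
      have e1 : (P' ++ q).take D.p0 = P' ++ q.take (D.p0 - D.c k) := by
        rw [List.take_append, List.take_of_length_le (by omega), hP'l]
      have e2 : (P' ++ q).take t = P' ++ q.take (t - D.c k) := by
        rw [List.take_append, List.take_of_length_le (by omega), hP'l]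
      have e3 : (P' ++ q.take (t - D.c k)).drop D.p0 =
          (q.take (t - D.c k)).drop (D.p0 - D.c k) := by
        rw [List.drop_append, List.drop_of_length_le (by omega), hP'l, List.nil_append]
      have e4 : (P' ++ q).drop t = q.drop (t - D.c k) := by
        rw [List.drop_append, List.drop_of_length_le (by omega), hP'l, List.nil_append]
      have e5 : (X.take D.p0).drop (D.c k) = q.take (D.p0 - D.c k) := by
        rw [hq, List.drop_take]
      rw [e5] at hb
      have e6 := D.sound2 k hkK P' (q.take (D.p0 - D.c k)) v b hP'l (by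
        rw [List.length_append, List.length_take]; omega) hl hb
      rw [e1, e2, e3, e4, ← e6]
    refine ⟨P, hPP, q, ?_, hXe⟩
    have hlamP : D.lam2 k P = some x := by
      rw [List.take_take, min_eq_left hck] at hlam
      exact hlam
    have hx := (key1 x P hPl hlamP).2
    rw [← hXe] at hx
    rintro v P' ⟨k', hk', hP'l, hl⟩
    by_cases hkk : k' = k
    · left
      subst hkk
      rw [hx]
      exact key1 v P' hP'l hl
    · right
      have hns := hnsp k' hk' hkk
      have hck' := D.cp0 k' hk'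
      have hfull : D.Wo (X.take X.length) := by rw [List.take_length]; exact h3
      have hgapb : t + D.W < X.length := D.toWalls.gap' X h2 le_rfl hF.2.2.1 hfull
      obtain ⟨s', hs't, hs'⟩ := D.toWalls.exists_FW (X := X) (a := D.z + D.c k - D.c k')
        (t := X.length) (by omega) le_rfl hfull
      have hs'1 := hs'.1
      have hF' : D.toWalls.FW (P' ++ q) D.z (s' + D.c k' - D.c k) := by
        refine D.toWalls.shift_FW (P := P) (t := s') (by omega) (by omega) (by omega) ?_ ?_ ?_
        · rw [← hXe]; exact hs'.2.1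
        · rw [← hXe]; exact hs'.2.2.1
        · intro s h5 h6
          rw [← hXe]
          exact hs'.2.2.2 s (by omega) h6
      set t' := s' + D.c k' - D.c k with ht'
      have ht'l := hF'.2.1
      have hgl : ((P' ++ q).take t').length = t' := by rw [List.length_take]; omega
      refine ⟨(P' ++ q).take t', ⟨?_, ?_⟩, List.take_prefix _ _⟩
      · rw [hgl]
        exact (D.toWalls.FW_prefix (List.take_prefix t' (P' ++ q)) (by omega)).2 hF'
      · rw [hgl]
        rintro (⟨s, h5, h6, h7, h8⟩ | hB)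
        · apply hns
          left
          rw [List.take_take, min_eq_left h5] at h6
          refine ⟨s + D.c k - D.c k', ?_, ?_, by omega, by omega⟩
          · rw [List.length_append] at ht'l
            omega
          · have h9 := D.toWalls.shift P' P q (s := s) (s' := s + D.c k - D.c k') (by omega)
              (by omega) (by rw [List.length_append] at ht'l; omega)
            rw [← hXe] at h9
            exact h9.1 h6
        · apply hns
          right
          refine ⟨s', hs', ?_⟩
          have e : s' - D.p0 + D.c k' - D.c k = t' - D.p0 := by omega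
          rw [e]
          exact hB

end Dt

end Crest.Agent.R320.Asm_822
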