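import Crest.Agent.R320.Star_903

/-!
# Row 320, helper549: Half 1 from a two-scheme core (block automaton + 903's nested star theorem twice)
-/

set_option autoImplicit false

namespace Crest.Agent.R320.Auto_549

open Crest.RegLang Crest.Agent.R320.Hgt1_903 Crest.Agent.R320.Star_903

variable {α V : Type*}

/-- Data of the two schemes in block form. -/
structure Core (α V : Type*) where
  B : ℕ
  Tx : List α → Prop
  blk : List α → Prop
  tr : V → List α → V
  hTl : ∀ u v, Tx (u ++ v) → Tx u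
  hTr : ∀ u v, Tx (u ++ v) → Tx v
  blk_min : ∀ X t, blk X → t < X.length → ¬ blk (X.take t)
  blk_nil : ¬ blk []
  bd : ∀ u, Tx u → u.length = B → ∃ t, t ≤ B ∧ blk (u.take t)
  L1 : List α → V → Prop
  R1 : List α → V → Prop
  R1_ne : ∀ Q r, R1 Q r → Q ≠ []
  J1 : ∀ P Q v r, L1 P v → R1 Q r → blk (P ++ Q) ∧ tr v (P ++ Q) = r
  bad : List α → Prop
  Kmax : ℕ
  C1 : ∀ X, blk X → Tx X → X.length ≤ B → ¬ bad X → ∀ v, ∃ P Q r, P ++ Q = X ∧ Kmax ≤ P.length ∧
    L1 P v ∧ R1 Q r
  K2 : ℕ → Prop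
  hK2 : ∀ k, K2 k → k ≤ Kmax
  L2 : List α → V → Prop
  L2_len : ∀ P v, L2 P v → K2 P.length
  HQ : ℕ → List α → Prop
  HQ_of : ∀ P Q, K2 P.length → blk (P ++ Q) → Tx (P ++ Q) → bad (P ++ Q) → HQ P.length Q
  HQ_uniq : ∀ k Q Q' R R', HQ k Q → HQ k Q' → Q ++ R = Q' ++ R' → Q = Q'
  R2 : ℕ → List α → V → Prop
  J2 : ∀ P Q v r, L2 P v → blk (P ++ Q) → R2 P.length Q r → tr v (P ++ Q) = r
  HQ_ne : ∀ k Q, HQ k Q → Q ≠ []
  hB : 0 < B
  C2 : ∀ X R, blk X → bad X → X.length ≤ B → Tx X → ∀ v,
    ∃ P Q r, P ++ Q = X ∧ L2 P v ∧ HQ P.length Q ∧ R2 P.length Q r ∧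
      ∀ k', K2 k' → ∀ Q' R', Q ++ R = Q' ++ R' → HQ k' Q' → k' = P.length

variable (c : Core α V)

/-- states -/
abbrev St := Option ({u : List α // u.length ≤ c.B} × V)

open Classical in
/-- the block automaton -/
noncomputable def δ : St c → α → St c
  | none, _ => none
  | some (u, v), a =>
    if h : (u.1 ++ [a]).length ≤ c.B ∧ c.Tx (u.1 ++ [a]) then
      (if c.blk (u.1 ++ [a]) then some (⟨[], Nat.zero_le _⟩, c.tr v (u.1 ++ [a]))
        else some (⟨u.1 ++ [a], h.1⟩, v))
    else none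

theorem run_none (w : List α) : run (δ c) none w = none := by
  induction w with
  | nil => rfl
  | cons a w ih => exact ih

theorem run_cons (θ : St c) (a : α) (w : List α) :
    run (δ c) θ (a :: w) = run (δ c) (δ c θ a) w := rfl

theorem alive_prefix {θ : St c} {u v : List α} (h : run (δ c) θ (u ++ v) ≠ none) :
    run (δ c) θ u ≠ none := by
  intro h0
  rw [run_append, h0, run_none] at h
  exact h rfl

/-- reading inside a block -/
theorem run_in (Q : List α) : ∀ (u : List α) (hu : u.length ≤ c.B) (v : V)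
    (hl : (u ++ Q).length ≤ c.B), c.Tx (u ++ Q) →
    (∀ t, t < Q.length → ¬ c.blk (u ++ Q.take (t + 1))) →
    run (δ c) (some (⟨u, hu⟩, v)) Q = some (⟨u ++ Q, hl⟩, v) := by
  classical
  induction Q with
  | nil => intro u hu v hl _ _; simp
  | cons a Q ih =>
    intro u hu v hl hT hb
    rw [run_cons]
    have e : u ++ a :: Q = (u ++ [a]) ++ Q := by simp
    have h1 : (u ++ [a]).length ≤ c.B := by
      rw [e, List.length_append] at hl; omega
    have h2 : c.Tx (u ++ [a]) := c.hTl _ _ (e ▸ hT)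
    have h3 : ¬ c.blk (u ++ [a]) := by
      have := hb 0 (by simp)
      simpa using this
    have h4 : δ c (some (⟨u, hu⟩, v)) a = some (⟨u ++ [a], h1⟩, v) := by
      simp only [δ]
      rw [dif_pos ⟨h1, h2⟩, if_neg h3]
    rw [h4, ih (u ++ [a]) h1 v (e ▸ hl) (e ▸ hT)]
    · simp
    · intro t ht
      have := hb (t + 1) (by simp; omega)
      simpa using this

/-- completing a block -/
theorem run_blk {u : List α} (hu : u.length ≤ c.B) (v : V) {Q : List α} (hQ : Q ≠ [])
    (hl : (u ++ Q).length ≤ c.B) (hT : c.Tx (u ++ Q)) (hb : c.blk (u ++ Q)) :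
    run (δ c) (some (⟨u, hu⟩, v)) Q = some (⟨[], Nat.zero_le _⟩, c.tr v (u ++ Q)) := by
  classical
  obtain ⟨Q', a, rfl⟩ : ∃ Q' a, Q = Q' ++ [a] :=
    ⟨Q.dropLast, Q.getLast hQ, (List.dropLast_append_getLast hQ).symm⟩
  have e : u ++ (Q' ++ [a]) = (u ++ Q') ++ [a] := by simp
  have h1 : (u ++ Q').length ≤ c.B := by
    rw [e, List.length_append] at hl; omega
  have h2 : c.Tx (u ++ Q') := c.hTl _ _ (e ▸ hT)
  rw [run_append, run_in c Q' u hu v h1 h2]
  · change δ c (some (⟨u ++ Q', h1⟩, v)) a = _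
    simp only [δ]
    rw [dif_pos ⟨e ▸ hl, e ▸ hT⟩, if_pos (e ▸ hb)]
    simp
  · intro t ht hbt
    refine c.blk_min _ (u.length + (t + 1)) hb (by simp; omega) ?_
    have : (u ++ (Q' ++ [a])).take (u.length + (t + 1)) = u ++ Q'.take (t + 1) := by
      rw [List.take_length_add_append, List.take_append_of_le_length (by omega)]
    rw [this]; exact hbt

/-- analysis of living runs: the first block completion -/
theorem alive_blk (w : List α) : ∀ (u : List α) (hu : u.length ≤ c.B) (v : V),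
    run (δ c) (some (⟨u, hu⟩, v)) w ≠ none → c.B < (u ++ w).length →
    ∃ Q R, Q ≠ [] ∧ w = Q ++ R ∧ (u ++ Q).length ≤ c.B ∧ c.Tx (u ++ Q) ∧ c.blk (u ++ Q) := by
  classical
  induction w with
  | nil => intro u hu v _ h; simp at h; omega
  | cons a w ih =>
    intro u hu v hr hl
    rw [run_cons] at hr
    by_cases h : (u ++ [a]).length ≤ c.B ∧ c.Tx (u ++ [a])
    · by_cases hb : c.blk (u ++ [a])
      · exact ⟨[a], w, by simp, rfl, h.1, h.2, hb⟩
      · have h4 : δ c (some (⟨u, hu⟩, v)) a = some (⟨u ++ [a], h.1⟩, v) := by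
          simp only [δ]
          rw [dif_pos h, if_neg hb]
        rw [h4] at hr
        obtain ⟨Q, R, hQ, e, h5, h6, h7⟩ := ih (u ++ [a]) h.1 v hr (by simpa [Nat.add_assoc, Nat.add_comm 1] using hl)
        refine ⟨a :: Q, R, by simp, by rw [e]; rfl, ?_, ?_, ?_⟩
        · simpa [Nat.add_assoc, Nat.add_comm 1] using h5
        · simpa using h6
        · simpa using h7
    · exfalso
      have h4 : δ c (some (⟨u, hu⟩, v)) a = none := by
        simp only [δ]
        rw [dif_neg h]
      rw [h4, run_none] at hr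
      exact hr rfl

/-- a living run up to a block is inside the bounds -/
theorem alive_in (Q : List α) : ∀ (u : List α) (hu : u.length ≤ c.B) (v : V), Q ≠ [] →
    run (δ c) (some (⟨u, hu⟩, v)) Q ≠ none →
    (∀ t, t + 1 < Q.length → ¬ c.blk (u ++ Q.take (t + 1))) →
    (u ++ Q).length ≤ c.B ∧ c.Tx (u ++ Q) := by
  classical
  induction Q with
  | nil => intro u hu v h; exact absurd rfl h
  | cons a Q ih =>
    intro u hu v _ hr hb
    rw [run_cons] at hr
    by_cases h : (u ++ [a]).length ≤ c.B ∧ c.Tx (u ++ [a])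
    · by_cases hQ : Q = []
      · subst hQ; exact h
      · have h3 : ¬ c.blk (u ++ [a]) := by
          have := hb 0 (by
            have := List.length_pos_of_ne_nil hQ
            simp only [List.length_cons]; omega)
          simpa using this
        have h4 : δ c (some (⟨u, hu⟩, v)) a = some (⟨u ++ [a], h.1⟩, v) := by
          simp only [δ]
          rw [dif_pos h, if_neg h3]
        rw [h4] at hr
        have := ih (u ++ [a]) h.1 v hQ hr (fun t ht => by
          have := hb (t + 1) (by simp only [List.length_cons]; omega)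
          simpa using this)
        simpa using this
    · exfalso
      have h4 : δ c (some (⟨u, hu⟩, v)) a = none := by
        simp only [δ]
        rw [dif_neg h]
      rw [h4, run_none] at hr
      exact hr rfl

/-- left legal for scheme 1 -/
def Cut1 : St c → Prop := fun θ => ∃ u v, θ = some (u, v) ∧ c.L1 u.1 v

/-- left legal for scheme 2 -/
def Cut2 : St c → Prop := fun θ => ∃ u v, θ = some (u, v) ∧ c.L2 u.1 v

open Classical in
noncomputable def ρ1 (r : List α) : Option (St c) :=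
  if h : ∃ p : List α × List α × V, r = p.1 ++ p.2.1 ∧ c.R1 p.1 p.2.2 then
    some (run (δ c) (some (⟨[], Nat.zero_le _⟩, h.choose.2.2)) h.choose.2.1) else none

open Classical in
noncomputable def ρ2 (r : List α) : Option (St c) :=
  if h : ∃ p : ℕ × List α × List α × V, r = p.2.1 ++ p.2.2.1 ∧ c.K2 p.1 ∧ c.HQ p.1 p.2.1 ∧
      c.R2 p.1 p.2.1 p.2.2.2 ∧ (∀ k', c.K2 k' → ∀ Q' R', r = Q' ++ R' → c.HQ k' Q' → k' = p.1) then
    some (run (δ c) (some (⟨[], Nat.zero_le _⟩, h.choose.2.2.2)) h.choose.2.2.1) else none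

theorem run_first {u : List α} (hu : u.length ≤ c.B) (v : V) {Q R : List α} (hQ : Q ≠ [])
    (hal : run (δ c) (some (⟨u, hu⟩, v)) (Q ++ R) ≠ none) (hb : c.blk (u ++ Q)) :
    (u ++ Q).length ≤ c.B ∧ c.Tx (u ++ Q) ∧
    run (δ c) (some (⟨u, hu⟩, v)) (Q ++ R) =
      run (δ c) (some (⟨[], Nat.zero_le _⟩, c.tr v (u ++ Q))) R := by
  obtain ⟨h1, h2⟩ := alive_in c Q u hu v hQ (alive_prefix c hal) (fun t ht hbt => by
    refine c.blk_min _ (u.length + (t + 1)) hb (by simp; omega) ?_
    rw [List.take_length_add_append]; exact hbt)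
  refine ⟨h1, h2, ?_⟩
  rw [run_append, run_blk c hu v hQ h1 h2 hb]

theorem sound1 (θ : St c) (r : List α) (θ' : St c) (hal : run (δ c) θ r ≠ none) (hc : Cut1 c θ)
    (hr : ρ1 c r = some θ') : run (δ c) θ r = θ' := by
  classical
  obtain ⟨⟨u, hu⟩, v, rfl, hL⟩ := hc
  unfold ρ1 at hr
  split_ifs at hr with h
  have hs := h.choose_spec
  obtain ⟨e, hR⟩ := hs
  obtain ⟨hb, ht⟩ := c.J1 _ _ _ _ hL hR
  have hne := c.R1_ne _ _ hR
  rw [e] at hal
  have := (run_first c hu v hne hal hb).2.2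
  rw [← e] at this
  rw [this, ht]
  exact Option.some.inj hr

theorem has_cut1 {u : List α} (hu : u.length ≤ c.B) (v : V) {Q0 R0 : List α}
    (h1 : (u ++ Q0).length ≤ c.B) (hT : c.Tx (u ++ Q0)) (hb : c.blk (u ++ Q0))
    (hK : u.length ≤ c.Kmax) (hnb : ¬ c.bad (u ++ Q0)) (hR : c.B ≤ R0.length) :
    ¬ Uncut (δ c) (Cut1 c) c.B (ρ1 c) (some (⟨u, hu⟩, v)) (Q0 ++ R0) := by
  classical
  intro hU
  obtain ⟨P, Q, r1, e, hKP, hL, hR1⟩ := c.C1 _ hb hT h1 hnb v
  have hne := c.R1_ne _ _ hR1
  have hup : u <+: P := by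
    have a1 : u <+: P ++ Q := by rw [e]; exact List.prefix_append _ _
    have a2 : P <+: P ++ Q := List.prefix_append _ _
    exact List.prefix_of_prefix_length_le a1 a2 (by omega)
  obtain ⟨y, rfl⟩ := hup
  have e2 : y ++ Q = Q0 := by
    have : u ++ (y ++ Q) = u ++ Q0 := by rw [← e]; simp
    exact List.append_cancel_left this
  have hQlen : Q.length ≤ c.B := by
    have := congrArg List.length e
    simp only [List.length_append] at this h1; omega
  have hrun : run (δ c) (some (⟨u, hu⟩, v)) y = some (⟨u ++ y, by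
      have := congrArg List.length e
      simp only [List.length_append] at this h1 ⊢; omega⟩, v) := by
    apply run_in
    · exact c.hTl _ Q (by rw [e]; exact hT)
    · intro t ht hbt
      refine c.blk_min _ (u.length + (t + 1)) hb (by
        have := congrArg List.length e2
        have := List.length_pos_of_ne_nil hne
        simp only [List.length_append] at *; omega) ?_
      rw [List.take_length_add_append, ← e2, List.take_append_of_le_length (by omega)]
      exact hbt
  refine hU y ((Q ++ R0).take c.B) ((Q ++ R0).drop c.B) ?_ ⟨?_, ?_, ?_⟩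
  · rw [← e2]; simp [List.append_assoc]
  · rw [List.length_take, List.length_append]; omega
  · rw [hrun]; exact ⟨_, _, rfl, hL⟩
  · unfold ρ1
    have hx : ∃ p : List α × List α × V, (Q ++ R0).take c.B = p.1 ++ p.2.1 ∧ c.R1 p.1 p.2.2 :=
      ⟨(Q, R0.take (c.B - Q.length), r1), by rw [List.take_append, List.take_of_length_le hQlen], hR1⟩
    rw [dif_pos hx]; rfl

theorem has_cut2 {X R : List α} (v : V) (hb : c.blk X) (hbad : c.bad X) (hl : X.length ≤ c.B)
    (hT : c.Tx X) (hR : 2 * c.B ≤ R.length) :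
    ¬ Uncut (δ c) (Cut2 c) (2 * c.B) (ρ2 c) (some (⟨[], Nat.zero_le _⟩, v)) (X ++ R) := by
  classical
  intro hU
  obtain ⟨P, Q, r, e, hL, hH, hR2, huq⟩ := c.C2 X R hb hbad hl hT v
  have hne := c.HQ_ne _ _ hH
  have hlen := congrArg List.length e
  have hpos := List.length_pos_of_ne_nil hne
  rw [List.length_append] at hlen
  have hrun : run (δ c) (some (⟨[], Nat.zero_le _⟩, v)) P = some (⟨[] ++ P, by
      simp only [List.nil_append]; omega⟩, v) := by
    apply run_in
    · exact c.hTl _ Q (by rw [List.nil_append, e]; exact hT)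
    · intro t ht hbt
      refine c.blk_min _ (t + 1) hb (by omega) ?_
      rw [← e, List.take_append_of_le_length (by omega)]
      simpa using hbt
  refine hU P ((Q ++ R).take (2 * c.B)) ((Q ++ R).drop (2 * c.B)) ?_ ⟨?_, ?_, ?_⟩
  · rw [← e]; simp [List.append_assoc]
  · rw [List.length_take, List.length_append]; omega
  · rw [hrun]; exact ⟨_, _, rfl, by simpa using hL⟩
  · unfold ρ2
    have hx : ∃ p : ℕ × List α × List α × V, (Q ++ R).take (2 * c.B) = p.2.1 ++ p.2.2.1 ∧
        c.K2 p.1 ∧ c.HQ p.1 p.2.1 ∧ c.R2 p.1 p.2.1 p.2.2.2 ∧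
        (∀ k', c.K2 k' → ∀ Q' R', (Q ++ R).take (2 * c.B) = Q' ++ R' → c.HQ k' Q' → k' = p.1) := by
      refine ⟨(P.length, Q, R.take (2 * c.B - Q.length), r), ?_, c.L2_len _ _ hL, hH, hR2, ?_⟩
      · rw [List.take_append, List.take_of_length_le (by omega)]
      · intro k' hk' Q' R' e' hH'
        refine huq k' hk' Q' (R' ++ (Q ++ R).drop (2 * c.B)) ?_ hH'
        rw [← List.append_assoc, ← e', List.take_append_drop]
    rw [dif_pos hx]; rfl

theorem sound2 (θ : St c) (r : List α) (θ' : St c) (hal : run (δ c) θ r ≠ none)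
    (hU : Uncut (δ c) (Cut1 c) c.B (ρ1 c) θ r) (hc : Cut2 c θ) (hlen : r.length = 2 * c.B)
    (hr : ρ2 c r = some θ') : run (δ c) θ r = θ' := by
  classical
  obtain ⟨⟨u, hu⟩, v, rfl, hL⟩ := hc
  have hK := c.L2_len _ _ hL
  have hB := c.hB
  obtain ⟨Q0, R0, hne, e0, h1, hT, hb⟩ := alive_blk c r u hu v hal (by
    rw [List.length_append]; omega)
  have hbad : c.bad (u ++ Q0) := by
    by_contra hnb
    refine has_cut1 c hu v h1 hT hb (c.hK2 _ hK) hnb (R0 := R0) ?_ (e0 ▸ hU)
    have := congrArg List.length e0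
    simp only [List.length_append] at this h1; omega
  have hH := c.HQ_of u Q0 hK hb hT hbad
  unfold ρ2 at hr
  split_ifs at hr with h
  obtain ⟨e, hk, hH', hR2, huq⟩ := h.choose_spec
  have hk1 : u.length = h.choose.1 := huq _ hK Q0 R0 e0 hH
  rw [← hk1] at hH' hR2
  have hQ : h.choose.2.1 = Q0 := c.HQ_uniq _ _ _ _ _ hH' hH (e.symm.trans e0)
  have hRr : h.choose.2.2.1 = R0 := by
    have : Q0 ++ h.choose.2.2.1 = Q0 ++ R0 := by rw [← e0, ← hQ]; exact e.symm
    exact List.append_cancel_left this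
  rw [hQ] at hR2
  have ht := c.J2 _ _ _ _ hL hb hR2
  rw [e0] at hal
  have h3 := (run_first c hu v hne hal hb).2.2
  rw [e0, h3, ht, ← Option.some.inj hr, hRr]

theorem Uncut.suffix {Θ : Type*} {δ : Θ → α → Θ} {CutL : Θ → Prop} {D : ℕ}
    {ρ : List α → Option Θ} {θ : Θ} {u v : List α} (h : Uncut δ CutL D ρ θ (u ++ v)) :
    Uncut δ CutL D ρ (run δ θ u) v := by
  intro p r s e hc
  refine h (u ++ p) r s (by rw [← e]; simp [List.append_assoc]) ⟨hc.1, ?_, hc.2.2⟩
  rw [run_append]; exact hc.2.1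

theorem short (θ : St c) (w : List α) (hal : run (δ c) θ w ≠ none)
    (hU1 : Uncut (δ c) (Cut1 c) c.B (ρ1 c) θ w)
    (hU2 : Uncut (δ c) (Cut2 c) (2 * c.B) (ρ2 c) θ w) : w.length ≤ 5 * c.B := by
  classical
  by_contra hlt
  push Not at hlt
  have hB := c.hB
  cases θ with
  | none => exact hal (run_none c w)
  | some p =>
    obtain ⟨⟨u, hu⟩, v⟩ := p
    obtain ⟨Q0, R0, hne, e0, h1, hT, hb⟩ := alive_blk c w u hu v hal (by
      rw [List.length_append]; omega)
    subst e0
    have h3 := (run_first c hu v hne hal hb).2.2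
    rw [h3] at hal
    have h4 : run (δ c) (some (⟨u, hu⟩, v)) Q0 =
        some (⟨[], Nat.zero_le _⟩, c.tr v (u ++ Q0)) := run_blk c hu v hne h1 hT hb
    have hU1' := Uncut.suffix hU1
    have hU2' := Uncut.suffix hU2
    rw [h4] at hU1' hU2'
    simp only [List.length_append] at hlt h1
    obtain ⟨X, R, hXne, e1, h5, hTX, hbX⟩ := alive_blk c R0 [] (Nat.zero_le _) _ hal (by
      rw [List.length_append, List.length_nil]; omega)
    subst e1
    simp only [List.nil_append] at h5 hTX hbX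
    simp only [List.length_append] at hlt
    by_cases hbad : c.bad X
    · exact has_cut2 c _ hbX hbad h5 hTX (by omega) hU2'
    · exact has_cut1 c (u := []) (Nat.zero_le _) _ (Q0 := X) (R0 := R) (by simpa using h5)
        (by simpa using hTX) (by simpa using hbX) (Nat.zero_le _) (by simpa using hbad)
        (by omega) hU1'

theorem rc [Finite α] [Finite V] : RC 2 (δ c) (fun θ w => run (δ c) θ w ≠ none) := by
  classical
  haveI : Finite {u : List α // u.length ≤ c.B} := (List.finite_length_le α c.B).to_subtype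
  haveI : Finite (St c) := inferInstance
  refine nested (δ c) _ (fun θ u v h => alive_prefix c h) (fun θ u v h => by rwa [← run_append])
    (Cut1 c) c.B c.hB (ρ1 c) (fun θ r θ' h hc hl hr => sound1 c θ r θ' h hc hr) ?_
  refine nested (δ c) _ (fun θ u v h => ⟨alive_prefix c h.1, h.2.prefix⟩)
    (fun θ u v h => ⟨by rw [← run_append]; exact h.1, Uncut.suffix h.2⟩)
    (Cut2 c) (2 * c.B) (by have := c.hB; omega) (ρ2 c)
    (fun θ r θ' h hc hl hr => sound2 c θ r θ' h.1 h.2 hc hl hr) ?_
  exact RC.bounded 0 (5 * c.B) (fun θ w h => short c θ w h.1.1 h.1.2 h.2)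

end Crest.Agent.R320.Auto_549
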