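import Crest.Agent.R320.Conc_775

/-!
Row 320: the spoil count gives `Avail` (scheme 2 has a place which is read by nobody else).
-/

set_option autoImplicit false

namespace Crest.Agent.R320.Conc_775

variable {α S V : Type} [Monoid S] [AddCommGroup V]

/-- two walls of one text are more than `W` apart -/
theorem wall_gap {Wo : List α → Prop} {W : ℕ}
    (hgap : ∀ (P : List α) (d : ℕ), Wo P → 0 < d → d ≤ W → ¬ Wo (P.take (P.length - d)))
    (w : List α) (s s' : ℕ) (hs : s ≤ w.length) (hs' : s' ≤ w.length) (h1 : Wo (w.take s))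
    (h2 : Wo (w.take s')) (h : s ≤ s' + W) (h' : s' ≤ s + W) : s = s' := by
  rcases Nat.lt_trichotomy s s' with hlt | heq | hgt
  · exfalso
    have := hgap (w.take s') (s' - s) h2 (by omega) (by omega)
    rw [List.length_take, Nat.min_eq_left hs', List.take_take] at this
    rw [show s' - (s' - s) = s by omega, Nat.min_eq_left (by omega)] at this
    exact this h1
  · exact heq
  · exfalso
    have := hgap (w.take s) (s - s') h1 (by omega) (by omega)
    rw [List.length_take, Nat.min_eq_left hs, List.take_take] at this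
    rw [show s - (s - s') = s' by omega, Nat.min_eq_left (by omega)] at this
    exact this h2

open Classical in
theorem avail (D : Dat α S V) (W C0 R : ℕ)
    (hgap : ∀ (P : List α) (d : ℕ), D.Wo P → 0 < d → d ≤ W → ¬ D.Wo (P.take (P.length - d)))
    (hW : 2 * D.p0 + 2 * D.N ≤ W) (hz : 3 * D.p0 + D.N + D.n < D.z)
    (hc2 : ∀ k < D.K, D.c k ≤ D.p0)
    (hsp : ∀ a < D.K, ∀ b < D.K, ∀ a' < D.K, ∀ b' < D.K, a ≠ b → a' ≠ b' →
      D.c a + D.c b' < D.c a' + D.c b + 2 * D.N → D.c a' + D.c b < D.c a + D.c b' + 2 * D.N →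
      a = a' ∧ b = b')
    (hthin : ∀ T : ℕ, D.p0 ≤ T → ((Finset.range D.K ×ˢ Finset.range D.K).filter (fun ab =>
      ab.1 ≠ ab.2 ∧ D.BadT (T + D.c ab.2 - D.c ab.1))).card ≤ C0)
    (hR : 2 * C0 + 2 ≤ R)
    (hex : ∀ u : List α, u.length = D.p0 → ∀ v : V, ∃ I : Finset ℕ, R ≤ I.card ∧ ∀ k ∈ I,
      k < D.K ∧ D.lam2 k (u.take (D.c k)) = some v ∧ (D.rho2 k (u.drop (D.c k))).isSome) :
    Avail D := by
  intro X1 hX1 X2 hX2 x
  have hX1z := hX1.1
  have hX2z := hX2.1
  set w := X1 ++ X2 with hw
  have hwl : w.length = X1.length + X2.length := List.length_append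
  obtain ⟨I, hI, hIk⟩ := hex (X1.take D.p0) (by rw [List.length_take]; omega) x
  -- events
  let E : ℕ × ℕ → Prop := fun ab => ∃ s t : ℕ, t + D.c ab.1 = s + D.c ab.2 ∧ s ≤ w.length ∧
    D.Wo (w.take s) ∧ D.z ≤ t + D.N ∧ t < D.z + D.N
  let B : ℕ × ℕ → Prop := fun ab => ∃ s t : ℕ, t + D.c ab.1 = s + D.c ab.2 ∧ s ≤ w.length ∧
    D.Wo (w.take s) ∧ D.z ≤ t ∧ (∀ s' t', t' + D.c ab.1 = s' + D.c ab.2 → D.z ≤ t' → t' < t →
        ¬ D.Wo (w.take s')) ∧ D.BadT (t - D.p0)
  let PP : Finset (ℕ × ℕ) := (Finset.range D.K ×ˢ Finset.range D.K).filter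
    (fun ab => ab.1 ≠ ab.2 ∧ (E ab ∨ B ab))
  -- the count
  have hcard : PP.card ≤ 1 + (C0 + C0) := by
    let PE : Finset (ℕ × ℕ) := (Finset.range D.K ×ˢ Finset.range D.K).filter
      (fun ab => ab.1 ≠ ab.2 ∧ E ab)
    have hPE : PE.card ≤ 1 := by
      rw [Finset.card_le_one]
      rintro ⟨a, b⟩ hab ⟨a', b'⟩ hab'
      rw [Finset.mem_filter, Finset.mem_product, Finset.mem_range, Finset.mem_range] at hab hab'
      obtain ⟨⟨ha, hb⟩, hne, s, t, h1, h2, h3, h4, h5⟩ := hab
      obtain ⟨⟨ha', hb'⟩, hne', s', t', h1', h2', h3', h4', h5'⟩ := hab'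
      simp only at ha hb hne h1 ha' hb' hne' h1'
      have q1 := hc2 a ha
      have q2 := hc2 b hb
      have q3 := hc2 a' ha'
      have q4 := hc2 b' hb'
      have hss : s = s' := wall_gap hgap w s s' h2 h2' h3 h3' (by omega) (by omega)
      obtain ⟨e1, e2⟩ := hsp a ha b hb a' ha' b' hb' hne hne' (by omega) (by omega)
      rw [e1, e2]
    -- the two possible ends
    have hB : ∃ s0 s1 : ℕ, D.p0 + D.p0 ≤ s0 ∧ D.p0 + D.p0 ≤ s1 ∧
        ∀ ab ∈ (Finset.range D.K ×ˢ Finset.range D.K), B ab →
          D.BadT (s0 - D.p0 + D.c ab.2 - D.c ab.1) ∨ D.BadT (s1 - D.p0 + D.c ab.2 - D.c ab.1) := by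
      by_cases h0 : ∃ s, D.z ≤ s + D.p0 ∧ s ≤ D.z + D.p0 ∧ s ≤ w.length ∧ D.Wo (w.take s)
      · by_cases h1 : ∃ s, D.z + D.p0 < s ∧ s ≤ w.length ∧ D.Wo (w.take s)
        · obtain ⟨s0, g1, g2, g3, g4⟩ := h0
          have hf := Nat.find_spec h1
          refine ⟨s0, Nat.find h1, by omega, by omega, ?_⟩
          rintro ⟨a, b⟩ hab ⟨s, t, e1, e2, e3, e4, e5, e6⟩
          rw [Finset.mem_product, Finset.mem_range, Finset.mem_range] at hab
          simp only at hab e1 e5 e6 ⊢
          have q1 := hc2 a hab.1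
          have q2 := hc2 b hab.2
          by_cases hs : s ≤ D.z + D.p0
          · left
            have : s = s0 := wall_gap hgap w s s0 e2 g3 e3 g4 (by omega) (by omega)
            rw [show s0 - D.p0 + D.c b - D.c a = t - D.p0 by omega]
            exact e6
          · right
            have : s = Nat.find h1 := by
              apply le_antisymm
              · by_contra hlt
                have hlt' : Nat.find h1 < s := by omega
                exact e5 (Nat.find h1) (Nat.find h1 + D.c b - D.c a) (by omega) (by omega)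
                  (by omega) hf.2.2
              · exact Nat.find_min' h1 ⟨by omega, e2, e3⟩
            rw [show Nat.find h1 - D.p0 + D.c b - D.c a = t - D.p0 by omega]
            exact e6
        · obtain ⟨s0, g1, g2, g3, g4⟩ := h0
          refine ⟨s0, s0, by omega, by omega, ?_⟩
          rintro ⟨a, b⟩ hab ⟨s, t, e1, e2, e3, e4, e5, e6⟩
          rw [Finset.mem_product, Finset.mem_range, Finset.mem_range] at hab
          simp only at hab e1 e5 e6 ⊢
          have q1 := hc2 a hab.1
          have q2 := hc2 b hab.2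
          by_cases hs : s ≤ D.z + D.p0
          · left
            have : s = s0 := wall_gap hgap w s s0 e2 g3 e3 g4 (by omega) (by omega)
            rw [show s0 - D.p0 + D.c b - D.c a = t - D.p0 by omega]
            exact e6
          · exact absurd ⟨s, by omega, e2, e3⟩ h1
      · by_cases h1 : ∃ s, D.z + D.p0 < s ∧ s ≤ w.length ∧ D.Wo (w.take s)
        · have hf := Nat.find_spec h1
          refine ⟨Nat.find h1, Nat.find h1, by omega, by omega, ?_⟩
          rintro ⟨a, b⟩ hab ⟨s, t, e1, e2, e3, e4, e5, e6⟩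
          rw [Finset.mem_product, Finset.mem_range, Finset.mem_range] at hab
          simp only at hab e1 e5 e6 ⊢
          have q1 := hc2 a hab.1
          have q2 := hc2 b hab.2
          by_cases hs : s ≤ D.z + D.p0
          · exact absurd ⟨s, by omega, by omega, e2, e3⟩ h0
          · right
            have : s = Nat.find h1 := by
              apply le_antisymm
              · by_contra hlt
                have hlt' : Nat.find h1 < s := by omega
                exact e5 (Nat.find h1) (Nat.find h1 + D.c b - D.c a) (by omega) (by omega)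
                  (by omega) hf.2.2
              · exact Nat.find_min' h1 ⟨by omega, e2, e3⟩
            rw [show Nat.find h1 - D.p0 + D.c b - D.c a = t - D.p0 by omega]
            exact e6
        · refine ⟨D.p0 + D.p0, D.p0 + D.p0, le_rfl, le_rfl, ?_⟩
          rintro ⟨a, b⟩ hab ⟨s, t, e1, e2, e3, e4, e5, e6⟩
          rw [Finset.mem_product, Finset.mem_range, Finset.mem_range] at hab
          simp only at hab e1 e5 e6 ⊢
          have q1 := hc2 a hab.1
          have q2 := hc2 b hab.2
          by_cases hs : s ≤ D.z + D.p0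
          · exact absurd ⟨s, by omega, by omega, e2, e3⟩ h0
          · exact absurd ⟨s, by omega, e2, e3⟩ h1
    obtain ⟨s0, s1, hs0, hs1, hBB⟩ := hB
    have t0 := hthin (s0 - D.p0) (by omega)
    have t1 := hthin (s1 - D.p0) (by omega)
    have hsub : PP ⊆ PE ∪
        (((Finset.range D.K ×ˢ Finset.range D.K).filter (fun ab =>
          ab.1 ≠ ab.2 ∧ D.BadT (s0 - D.p0 + D.c ab.2 - D.c ab.1))) ∪
        ((Finset.range D.K ×ˢ Finset.range D.K).filter (fun ab =>
          ab.1 ≠ ab.2 ∧ D.BadT (s1 - D.p0 + D.c ab.2 - D.c ab.1)))) := by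
      intro ab hab
      obtain ⟨m1, m2, m3⟩ := Finset.mem_filter.1 hab
      rcases m3 with m3 | m3
      · exact Finset.mem_union_left _ (Finset.mem_filter.2 ⟨m1, m2, m3⟩)
      · apply Finset.mem_union_right
        rcases hBB ab m1 m3 with m4 | m4
        · exact Finset.mem_union_left _ (Finset.mem_filter.2 ⟨m1, m2, m4⟩)
        · exact Finset.mem_union_right _ (Finset.mem_filter.2 ⟨m1, m2, m4⟩)
    calc PP.card ≤ _ := Finset.card_le_card hsub
      _ ≤ PE.card + _ := Finset.card_union_le _ _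
      _ ≤ 1 + (C0 + C0) := by
        refine Nat.add_le_add hPE ((Finset.card_union_le _ _).trans (Nat.add_le_add t0 t1))
  -- a place which is not spoiled
  have hk : ∃ k ∈ I, k ∉ PP.image Prod.fst := by
    by_contra hcon
    push Not at hcon
    have h1 : I ⊆ PP.image Prod.fst := fun k hk => hcon k hk
    have h2 := Finset.card_le_card h1
    have h3 : (PP.image Prod.fst).card ≤ PP.card := Finset.card_image_le
    omega
  obtain ⟨k, hkI, hkP⟩ := hk
  obtain ⟨hkK, hlam, hrho⟩ := hIk k hkI
  have hck := hc2 k hkK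
  refine ⟨k, hkK, ?_, hrho, ?_⟩
  · rw [List.take_take, Nat.min_eq_left hck] at hlam
    exact hlam
  · intro k' hk' hne s t hst hs hWo
    have hnot : ¬ (E (k, k') ∨ B (k, k')) := by
      intro h
      apply hkP
      exact Finset.mem_image.2 ⟨(k, k'), Finset.mem_filter.2 ⟨Finset.mem_product.2
        ⟨Finset.mem_range.2 hkK, Finset.mem_range.2 hk'⟩, fun h => hne h.symm, h⟩, rfl⟩
    refine ⟨fun h => hnot (Or.inl ⟨s, t, hst, hs, hWo, h.1, h.2⟩), ?_⟩
    intro hzt hfirst hbad
    exact hnot (Or.inr ⟨s, t, hst, hs, hWo, hzt, hfirst, hbad⟩)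

end Crest.Agent.R320.Conc_775
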