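import Mathlib

/-!
# Row 320 : the base gadget in closed form and the gadget for `(Z/2)^d`

`IsGad A B p` : left residues `A v`, right residues `B v'`, noise `p`; every junction is exact
(`p (a + b) = v + v'`) and for every total `T` and every token `v` there is a junction.

`base` : for `m = 2c+1`, `c >= 4`, `k >= 3` the group `Z/m x Z/k` carries the gadget for `Z/2`.
`gad_pow` : for every `d` and every `t > 0` there is a modulus `M` prime to `t` with the gadget for
`(Z/2)^d`, normalised by `0 in A 0`, `0 in B 0`.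
`junction` : natural number form: a junction with `t | j` among the first `t * M` places.
-/

set_option autoImplicit false
set_option linter.unusedTactic false
set_option linter.unreachableTactic false

namespace Crest.Agent.R320.BaseG_522

structure IsGad {H V : Type} [AddCommGroup H] [AddCommGroup V] (A B : V → Set H) (p : H → V) :
    Prop where
  exact : ∀ l l' a b, a ∈ A l → b ∈ B l' → p (a + b) = l + l'
  complete : ∀ T l, ∃ a b l', a ∈ A l ∧ b ∈ B l' ∧ a + b = T

theorem val_add_cases {m : ℕ} [NeZero m] (a b : ZMod m) :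
    a.val + b.val = (a + b).val ∨ a.val + b.val = (a + b).val + m := by
  have ha := ZMod.val_lt a
  have hb := ZMod.val_lt b
  rw [ZMod.val_add]
  by_cases h : a.val + b.val < m
  · left; rw [Nat.mod_eq_of_lt h]
  · right
    rw [Nat.mod_eq_sub_mod (by omega), Nat.mod_eq_of_lt (by omega)]
    omega

/-- left residues -/
def bA (c m k : ℕ) (l : ZMod 2) : Set (ZMod m × ZMod k) :=
  {z | (l = 0 ∧ ((z.2 ≠ 0 ∧ z.1.val = 1) ∨ (z.2 = 0 ∧ (z.1.val = c + 1 ∨ z.1.val = c + 3)))) ∨
       (l = 1 ∧ ((z.2 ≠ 0 ∧ z.1.val = c + 2) ∨ (z.2 = 0 ∧ (z.1.val = 0 ∨ z.1.val = 2))))}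

/-- right residues -/
def bB (c m k : ℕ) (l : ZMod 2) : Set (ZMod m × ZMod k) :=
  {z | (l = 0 ∧ ((z.2 ≠ 0 ∧ z.1.val + 2 = c) ∨ (z.2 = 0 ∧ (c ≤ z.1.val ∧ z.1.val + 3 ≤ 2 * c)))) ∨
       (l = 1 ∧ ((z.2 ≠ 0 ∧ z.1.val + 1 = c) ∨ (z.2 = 0 ∧ z.1.val + 3 ≤ c)))}

/-- the noise is `0` exactly here -/
def bP0 (c m k : ℕ) (z : ZMod m × ZMod k) : Prop :=
  (z.2 = 0 ∧ z.1.val + 1 ≤ c) ∨
  (z.2 ≠ 0 ∧ (z.1.val = 0 ∨ z.1.val + 1 = c ∨ (c + 1 ≤ z.1.val ∧ z.1.val + 1 ≤ 2 * c)))

open Classical in
noncomputable def bp (c m k : ℕ) (z : ZMod m × ZMod k) : ZMod 2 := if bP0 c m k z then 0 else 1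

theorem zmod2_cases (l : ZMod 2) : l = 0 ∨ l = 1 := by
  revert l; decide

theorem mB0z {c m k : ℕ} {b : ZMod m} {z : ZMod k} (hz : z = 0) (h1 : c ≤ b.val)
    (h2 : b.val + 3 ≤ 2 * c) : (b, z) ∈ bB c m k 0 := Or.inl ⟨rfl, Or.inr ⟨hz, h1, h2⟩⟩

theorem mB0n {c m k : ℕ} {b : ZMod m} {z : ZMod k} (hz : z ≠ 0) (h : b.val + 2 = c) :
    (b, z) ∈ bB c m k 0 := Or.inl ⟨rfl, Or.inl ⟨hz, h⟩⟩

theorem mB1z {c m k : ℕ} {b : ZMod m} {z : ZMod k} (hz : z = 0) (h : b.val + 3 ≤ c) :
    (b, z) ∈ bB c m k 1 := Or.inr ⟨rfl, Or.inr ⟨hz, h⟩⟩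

theorem mB1n {c m k : ℕ} {b : ZMod m} {z : ZMod k} (hz : z ≠ 0) (h : b.val + 1 = c) :
    (b, z) ∈ bB c m k 1 := Or.inr ⟨rfl, Or.inl ⟨hz, h⟩⟩

theorem base (c k : ℕ) (hc : 4 ≤ c) (hk : 3 ≤ k) :
    IsGad (bA c (2 * c + 1) k) (bB c (2 * c + 1) k) (bp c (2 * c + 1) k) := by
  have : NeZero (2 * c + 1) := ⟨by omega⟩
  have : NeZero k := ⟨by omega⟩
  have h01 : (1 : ZMod 2) + 1 = 0 := by decide
  have h10 : (0 : ZMod 2) ≠ 1 := by decide
  have h10' : (1 : ZMod 2) ≠ 0 := by decide
  constructor
  · rintro l l' ⟨a, y⟩ ⟨b, y'⟩ ha hb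
    have hv := val_add_cases a b
    have hal := ZMod.val_lt a
    have hbl := ZMod.val_lt b
    have hsl := ZMod.val_lt (a + b)
    have key : bP0 c (2 * c + 1) k (a + b, y + y') ↔ l + l' = 0 := by
      have e1 : y = 0 → y' = 0 → y + y' = 0 := by rintro rfl rfl; simp
      have e2 : y = 0 → y' ≠ 0 → y + y' ≠ 0 := by rintro rfl h; simpa using h
      have e3 : y ≠ 0 → y' = 0 → y + y' ≠ 0 := by rintro h rfl; simpa using h
      simp only [bA, bB, Set.mem_ofPred_eq] at ha hb
      simp only [bP0]
      rcases ha with ⟨rfl, ha⟩ | ⟨rfl, ha⟩ <;> rcases hb with ⟨rfl, hb⟩ | ⟨rfl, hb⟩ <;>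
        rcases ha with ⟨hy, ha⟩ | ⟨hy, ha⟩ <;> rcases hb with ⟨hy', hb⟩ | ⟨hy', hb⟩
      · simp only [add_zero, iff_true]
        by_cases h : y + y' = 0
        · left; exact ⟨h, by omega⟩
        · right; exact ⟨h, by omega⟩
      · simp only [add_zero, iff_true]; right; exact ⟨e3 hy hy', by omega⟩
      · simp only [add_zero, iff_true]; right; exact ⟨e2 hy hy', by omega⟩
      · simp only [add_zero, iff_true]; left; exact ⟨e1 hy hy', by omega⟩
      · simp only [zero_add, h10', iff_false]
        rintro (⟨h, h'⟩ | ⟨h, h'⟩) <;>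
          first
            | omega
            | exact absurd h (e3 hy hy')
            | exact absurd h (e2 hy hy')
            | exact h (e1 hy hy')
      · simp only [zero_add, h10', iff_false]
        rintro (⟨h, h'⟩ | ⟨h, h'⟩) <;>
          first
            | omega
            | exact absurd h (e3 hy hy')
            | exact absurd h (e2 hy hy')
            | exact h (e1 hy hy')
      · simp only [zero_add, h10', iff_false]
        rintro (⟨h, h'⟩ | ⟨h, h'⟩) <;>
          first
            | omega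
            | exact absurd h (e3 hy hy')
            | exact absurd h (e2 hy hy')
            | exact h (e1 hy hy')
      · simp only [zero_add, h10', iff_false]
        rintro (⟨h, h'⟩ | ⟨h, h'⟩) <;>
          first
            | omega
            | exact absurd h (e3 hy hy')
            | exact absurd h (e2 hy hy')
            | exact h (e1 hy hy')
      · simp only [add_zero, h10', iff_false]
        rintro (⟨h, h'⟩ | ⟨h, h'⟩) <;>
          first
            | omega
            | exact absurd h (e3 hy hy')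
            | exact absurd h (e2 hy hy')
            | exact h (e1 hy hy')
      · simp only [add_zero, h10', iff_false]
        rintro (⟨h, h'⟩ | ⟨h, h'⟩) <;>
          first
            | omega
            | exact absurd h (e3 hy hy')
            | exact absurd h (e2 hy hy')
            | exact h (e1 hy hy')
      · simp only [add_zero, h10', iff_false]
        rintro (⟨h, h'⟩ | ⟨h, h'⟩) <;>
          first
            | omega
            | exact absurd h (e3 hy hy')
            | exact absurd h (e2 hy hy')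
            | exact h (e1 hy hy')
      · simp only [add_zero, h10', iff_false]
        rintro (⟨h, h'⟩ | ⟨h, h'⟩) <;>
          first
            | omega
            | exact absurd h (e3 hy hy')
            | exact absurd h (e2 hy hy')
            | exact h (e1 hy hy')
      · simp only [h01, iff_true]
        by_cases h : y + y' = 0
        · left; exact ⟨h, by omega⟩
        · right; exact ⟨h, by omega⟩
      · simp only [h01, iff_true]; right; exact ⟨e3 hy hy', by omega⟩
      · simp only [h01, iff_true]; right; exact ⟨e2 hy hy', by omega⟩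
      · simp only [h01, iff_true]; left; exact ⟨e1 hy hy', by omega⟩
    show bp c (2 * c + 1) k (a + b, y + y') = l + l'
    unfold bp
    split_ifs with h
    · exact (key.mp h).symm
    · rcases zmod2_cases (l + l') with h' | h'
      · exact absurd (key.mpr h') h
      · exact h'.symm
  · rintro ⟨T, y⟩ l
    have hT := ZMod.val_lt T
    -- choose the first coordinate `i` and the layer of the left place
    have mk : ∀ (i : ℕ) (y1 : ZMod k) (l' : ZMod 2), i < 2 * c + 1 →
        ((i : ZMod (2 * c + 1)), y1) ∈ bA c (2 * c + 1) k l →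
        (∀ bv : ℕ, bv < 2 * c + 1 → (i + bv = T.val ∨ i + bv = T.val + (2 * c + 1)) →
          ∀ b : ZMod (2 * c + 1), b.val = bv → (b, y - y1) ∈ bB c (2 * c + 1) k l') →
        ∃ a b l', a ∈ bA c (2 * c + 1) k l ∧ b ∈ bB c (2 * c + 1) k l' ∧ a + b = (T, y) := by
      intro i y1 l' hi hA hB
      have hval : ((i : ZMod (2 * c + 1))).val = i := ZMod.val_cast_of_lt hi
      have hcs := val_add_cases (i : ZMod (2 * c + 1)) (T - i)
      rw [hval, add_sub_cancel] at hcs
      refine ⟨((i : ZMod (2 * c + 1)), y1), (T - i, y - y1), l', hA,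
        hB _ (ZMod.val_lt _) hcs _ rfl, ?_⟩
      ext <;> simp
    have valc : ∀ i : ℕ, i < 2 * c + 1 → ((i : ZMod (2 * c + 1))).val = i :=
      fun i hi => ZMod.val_cast_of_lt hi
    by_cases hy : y = 0
    · subst hy
      have h1 : (1 : ZMod k) ≠ 0 := by
        have : Fact (1 < k) := ⟨by omega⟩
        exact one_ne_zero
      have h1' : (0 : ZMod k) - 1 ≠ 0 := by
        rw [zero_sub]; simpa using h1
      rcases zmod2_cases l with rfl | rfl
      · by_cases t1 : T.val + 3 ≤ c
        · refine mk (c + 1) 0 0 (by omega) ?_ ?_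
          · simp only [bA, Set.mem_ofPred_eq]; rw [valc _ (by omega)]; simp
          · intro bv hbv hh b hb
            exact mB0z (sub_zero 0) (by omega) (by omega)
        by_cases t2 : T.val + 1 ≤ c
        · refine mk (c + 3) 0 0 (by omega) ?_ ?_
          · simp only [bA, Set.mem_ofPred_eq]; rw [valc _ (by omega)]; simp
          · intro bv hbv hh b hb
            exact mB0z (sub_zero 0) (by omega) (by omega)
        by_cases t3 : T.val = c
        · refine mk 1 1 1 (by omega) ?_ ?_
          · simp only [bA, Set.mem_ofPred_eq]; rw [valc _ (by omega)]; simp [h1]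
          · intro bv hbv hh b hb
            exact mB1n h1' (by omega)
        by_cases t4 : T.val + 2 ≤ 2 * c
        · refine mk (c + 1) 0 1 (by omega) ?_ ?_
          · simp only [bA, Set.mem_ofPred_eq]; rw [valc _ (by omega)]; simp
          · intro bv hbv hh b hb
            exact mB1z (sub_zero 0) (by omega)
        · refine mk (c + 3) 0 1 (by omega) ?_ ?_
          · simp only [bA, Set.mem_ofPred_eq]; rw [valc _ (by omega)]; simp
          · intro bv hbv hh b hb
            exact mB1z (sub_zero 0) (by omega)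
      · by_cases t1 : T.val + 3 ≤ c
        · refine mk 0 0 1 (by omega) ?_ ?_
          · simp only [bA, Set.mem_ofPred_eq]; rw [valc _ (by omega)]; simp
          · intro bv hbv hh b hb
            exact mB1z (sub_zero 0) (by omega)
        by_cases t2 : T.val + 1 ≤ c
        · refine mk 2 0 1 (by omega) ?_ ?_
          · simp only [bA, Set.mem_ofPred_eq]; rw [valc _ (by omega)]; simp
          · intro bv hbv hh b hb
            exact mB1z (sub_zero 0) (by omega)
        by_cases t3 : T.val + 3 ≤ 2 * c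
        · refine mk 0 0 0 (by omega) ?_ ?_
          · simp only [bA, Set.mem_ofPred_eq]; rw [valc _ (by omega)]; simp
          · intro bv hbv hh b hb
            exact mB0z (sub_zero 0) (by omega) (by omega)
        by_cases t4 : T.val + 1 ≤ 2 * c
        · refine mk 2 0 0 (by omega) ?_ ?_
          · simp only [bA, Set.mem_ofPred_eq]; rw [valc _ (by omega)]; simp
          · intro bv hbv hh b hb
            exact mB0z (sub_zero 0) (by omega) (by omega)
        · refine mk (c + 2) 1 0 (by omega) ?_ ?_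
          · simp only [bA, Set.mem_ofPred_eq]; rw [valc _ (by omega)]; simp [h1]
          · intro bv hbv hh b hb
            exact mB0n h1' (by omega)
    · -- `y ≠ 0`
      obtain ⟨y1, hy1, hyy⟩ : ∃ y1 : ZMod k, y1 ≠ 0 ∧ y - y1 ≠ 0 := by
        have hcard : Fintype.card (ZMod k) = k := ZMod.card k
        by_contra hcon
        push Not at hcon
        have hsub : (Finset.univ : Finset (ZMod k)) ⊆ {0, y} := by
          intro z _
          by_cases hz : z = 0
          · simp [hz]
          · have := hcon z hz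
            have : z = y := (sub_eq_zero.mp this).symm
            simp [this]
        have h2 := Finset.card_le_card hsub
        have h3 : ({0, y} : Finset (ZMod k)).card ≤ 2 := Finset.card_le_two
        rw [Finset.card_univ, hcard] at h2
        omega
      have hyn : y - 0 ≠ 0 := by simpa using hy
      rcases zmod2_cases l with rfl | rfl
      · by_cases t0 : T.val = 0
        · refine mk (c + 3) 0 0 (by omega) ?_ ?_
          · simp only [bA, Set.mem_ofPred_eq]; rw [valc _ (by omega)]; simp
          · intro bv hbv hh b hb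
            exact mB0n hyn (by omega)
        by_cases t1 : T.val + 2 ≤ c
        · refine mk 1 y 1 (by omega) ?_ ?_
          · simp only [bA, Set.mem_ofPred_eq]; rw [valc _ (by omega)]; simp [hy]
          · intro bv hbv hh b hb
            exact mB1z (sub_self y) (by omega)
        by_cases t2 : T.val + 1 = c
        · refine mk 1 y1 0 (by omega) ?_ ?_
          · simp only [bA, Set.mem_ofPred_eq]; rw [valc _ (by omega)]; simp [hy1]
          · intro bv hbv hh b hb
            exact mB0n hyy (by omega)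
        by_cases t3 : T.val = c
        · refine mk 1 y1 1 (by omega) ?_ ?_
          · simp only [bA, Set.mem_ofPred_eq]; rw [valc _ (by omega)]; simp [hy1]
          · intro bv hbv hh b hb
            exact mB1n hyy (by omega)
        by_cases t4 : T.val + 2 ≤ 2 * c
        · refine mk 1 y 0 (by omega) ?_ ?_
          · simp only [bA, Set.mem_ofPred_eq]; rw [valc _ (by omega)]; simp [hy]
          · intro bv hbv hh b hb
            exact mB0z (sub_self y) (by omega) (by omega)
        by_cases t5 : T.val + 1 = 2 * c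
        · refine mk (c + 1) 0 0 (by omega) ?_ ?_
          · simp only [bA, Set.mem_ofPred_eq]; rw [valc _ (by omega)]; simp
          · intro bv hbv hh b hb
            exact mB0n hyn (by omega)
        · refine mk (c + 1) 0 1 (by omega) ?_ ?_
          · simp only [bA, Set.mem_ofPred_eq]; rw [valc _ (by omega)]; simp
          · intro bv hbv hh b hb
            exact mB1n hyn (by omega)
      · by_cases t0 : T.val = 0
        · refine mk (c + 2) y1 1 (by omega) ?_ ?_
          · simp only [bA, Set.mem_ofPred_eq]; rw [valc _ (by omega)]; simp [hy1]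
          · intro bv hbv hh b hb
            exact mB1n hyy (by omega)
        by_cases t1 : T.val + 2 ≤ c
        · refine mk (c + 2) y 0 (by omega) ?_ ?_
          · simp only [bA, Set.mem_ofPred_eq]; rw [valc _ (by omega)]; simp [hy]
          · intro bv hbv hh b hb
            exact mB0z (sub_self y) (by omega) (by omega)
        by_cases t2 : T.val + 1 = c
        · refine mk 0 0 1 (by omega) ?_ ?_
          · simp only [bA, Set.mem_ofPred_eq]; rw [valc _ (by omega)]; simp
          · intro bv hbv hh b hb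
            exact mB1n hyn (by omega)
        by_cases t3 : T.val = c
        · refine mk 2 0 0 (by omega) ?_ ?_
          · simp only [bA, Set.mem_ofPred_eq]; rw [valc _ (by omega)]; simp
          · intro bv hbv hh b hb
            exact mB0n hyn (by omega)
        by_cases t4 : T.val = c + 1
        · refine mk 2 0 1 (by omega) ?_ ?_
          · simp only [bA, Set.mem_ofPred_eq]; rw [valc _ (by omega)]; simp
          · intro bv hbv hh b hb
            exact mB1n hyn (by omega)
        by_cases t5 : T.val + 1 ≤ 2 * c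
        · refine mk (c + 2) y 1 (by omega) ?_ ?_
          · simp only [bA, Set.mem_ofPred_eq]; rw [valc _ (by omega)]; simp [hy]
          · intro bv hbv hh b hb
            exact mB1z (sub_self y) (by omega)
        · refine mk (c + 2) y1 0 (by omega) ?_ ?_
          · simp only [bA, Set.mem_ofPred_eq]; rw [valc _ (by omega)]; simp [hy1]
          · intro bv hbv hh b hb
            exact mB0n hyy (by omega)

/-- transport of the residue group -/
theorem IsGad.mapH {H H' V : Type} [AddCommGroup H] [AddCommGroup H'] [AddCommGroup V]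
    {A B : V → Set H} {p : H → V} (h : IsGad A B p) (e : H' ≃+ H) :
    IsGad (fun v => e ⁻¹' A v) (fun v => e ⁻¹' B v) (fun x => p (e x)) := by
  constructor
  · intro l l' a b ha hb
    show p (e (a + b)) = _
    rw [map_add]
    exact h.exact _ _ _ _ ha hb
  · intro T l
    obtain ⟨a, b, l', ha, hb, hab⟩ := h.complete (e T) l
    refine ⟨e.symm a, e.symm b, l', ?_, ?_, ?_⟩
    · show e (e.symm a) ∈ A l
      rw [e.apply_symm_apply]; exact ha
    · show e (e.symm b) ∈ B l'
      rw [e.apply_symm_apply]; exact hb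
    · apply e.injective
      rw [map_add, e.apply_symm_apply, e.apply_symm_apply]
      exact hab

/-- transport of the token group -/
theorem IsGad.mapV {H V V' : Type} [AddCommGroup H] [AddCommGroup V] [AddCommGroup V']
    {A B : V → Set H} {p : H → V} (h : IsGad A B p) (e : V' ≃+ V) :
    IsGad (fun v => A (e v)) (fun v => B (e v)) (fun x => e.symm (p x)) := by
  constructor
  · intro l l' a b ha hb
    show e.symm (p (a + b)) = _
    rw [h.exact _ _ _ _ ha hb, map_add, e.symm_apply_apply, e.symm_apply_apply]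
  · intro T l
    obtain ⟨a, b, l', ha, hb, hab⟩ := h.complete T (e l)
    refine ⟨a, b, e.symm l', ha, ?_, hab⟩
    show b ∈ B (e (e.symm l'))
    rw [e.apply_symm_apply]; exact hb

/-- product of two gadgets -/
theorem IsGad.prod {H₁ H₂ V₁ V₂ : Type} [AddCommGroup H₁] [AddCommGroup H₂] [AddCommGroup V₁]
    [AddCommGroup V₂] {A₁ B₁ : V₁ → Set H₁} {p₁ : H₁ → V₁} {A₂ B₂ : V₂ → Set H₂} {p₂ : H₂ → V₂}
    (h₁ : IsGad A₁ B₁ p₁) (h₂ : IsGad A₂ B₂ p₂) :
    IsGad (H := H₁ × H₂) (V := V₁ × V₂) (fun v => {x | x.1 ∈ A₁ v.1 ∧ x.2 ∈ A₂ v.2})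
      (fun v => {x | x.1 ∈ B₁ v.1 ∧ x.2 ∈ B₂ v.2}) (fun x => (p₁ x.1, p₂ x.2)) := by
  constructor
  · rintro ⟨l1, l2⟩ ⟨l1', l2'⟩ ⟨a1, a2⟩ ⟨b1, b2⟩ ⟨ha1, ha2⟩ ⟨hb1, hb2⟩
    show (p₁ (a1 + b1), p₂ (a2 + b2)) = (l1 + l1', l2 + l2')
    rw [h₁.exact _ _ _ _ ha1 hb1, h₂.exact _ _ _ _ ha2 hb2]
  · rintro ⟨T1, T2⟩ ⟨l1, l2⟩
    obtain ⟨a1, b1, l1', ha1, hb1, h1⟩ := h₁.complete T1 l1
    obtain ⟨a2, b2, l2', ha2, hb2, h2⟩ := h₂.complete T2 l2
    refine ⟨(a1, a2), (b1, b2), (l1', l2'), ⟨ha1, ha2⟩, ⟨hb1, hb2⟩, ?_⟩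
    rw [Prod.mk_add_mk, h1, h2]

/-- the normalised gadget `0 in A 0`, `0 in B 0` -/
theorem IsGad.norm {H V : Type} [AddCommGroup H] [AddCommGroup V]
    {A B : V → Set H} {p : H → V} (h : IsGad A B p) :
    ∃ (A' B' : V → Set H) (p' : H → V), IsGad A' B' p' ∧ (0 : H) ∈ A' 0 ∧ (0 : H) ∈ B' 0 := by
  obtain ⟨a0, _, _, ha0, _, _⟩ := h.complete 0 0
  -- shift `A` by `a0`, then shift `B` so that `0 in B 0`
  obtain ⟨_, b0, l0, _, hb0, _⟩ := h.complete a0 0
  refine ⟨fun v => {x | x + a0 ∈ A v}, fun v => {x | x + b0 ∈ B (v + l0)},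
    fun x => p (x + (a0 + b0)) - l0, ?_, ?_, ?_⟩
  · constructor
    · intro l l' a b ha hb
      have := h.exact l (l' + l0) (a + a0) (b + b0) ha hb
      show p (a + b + (a0 + b0)) - l0 = l + l'
      rw [show a + b + (a0 + b0) = a + a0 + (b + b0) by abel, this]
      abel
    · intro T l
      obtain ⟨a, b, l', ha, hb, hab⟩ := h.complete (T + (a0 + b0)) l
      refine ⟨a - a0, b - b0, l' - l0, ?_, ?_, ?_⟩
      · show a - a0 + a0 ∈ A l
        rw [sub_add_cancel]; exact ha
      · show b - b0 + b0 ∈ B (l' - l0 + l0)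
        rw [sub_add_cancel, sub_add_cancel]; exact hb
      · rw [show a - a0 + (b - b0) = (a + b) - (a0 + b0) by abel, hab]; abel
  · show 0 + a0 ∈ A 0
    rw [zero_add]; exact ha0
  · show 0 + b0 ∈ B (0 + l0)
    rw [zero_add, zero_add]; exact hb0

/-- existence of a gadget for `V` with modulus prime to `t` -/
def Has (V : Type) [AddCommGroup V] : Prop :=
  ∀ t : ℕ, 0 < t → ∃ M : ℕ, 0 < M ∧ Nat.Coprime M t ∧
    ∃ (A B : V → Set (ZMod M)) (p : ZMod M → V), IsGad A B p

theorem has_two : Has (ZMod 2) := by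
  intro t ht
  obtain ⟨q, hq, hqp⟩ := Nat.exists_infinite_primes (t + 9)
  obtain ⟨r, hr, hrp⟩ := Nat.exists_infinite_primes (q + 1)
  have hodd : Odd q := hqp.odd_of_ne_two (by omega)
  obtain ⟨c, hc⟩ := hodd
  have hcop : Nat.Coprime (2 * c + 1) r := by
    rw [← hc]
    exact (Nat.coprime_primes hqp hrp).mpr (by omega)
  have hg := base c r (by omega) (by omega)
  have h' := hg.mapH (ZMod.chineseRemainder hcop).toAddEquiv
  refine ⟨(2 * c + 1) * r, Nat.mul_pos (by omega) (by omega), ?_, _, _, _, h'⟩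
  have h1 : Nat.Coprime (2 * c + 1) t := by
    rw [← hc]
    exact (Nat.Prime.coprime_iff_not_dvd hqp).mpr (fun h => by have := Nat.le_of_dvd ht h; omega)
  have h2 : Nat.Coprime r t :=
    (Nat.Prime.coprime_iff_not_dvd hrp).mpr (fun h => by have := Nat.le_of_dvd ht h; omega)
  exact Nat.Coprime.mul_left h1 h2

theorem has_prod {V₁ V₂ : Type} [AddCommGroup V₁] [AddCommGroup V₂] (h₁ : Has V₁) (h₂ : Has V₂) :
    Has (V₁ × V₂) := by
  intro t ht
  obtain ⟨M₁, hM₁, hc₁, A₁, B₁, p₁, g₁⟩ := h₁ t ht
  obtain ⟨M₂, hM₂, hc₂, A₂, B₂, p₂, g₂⟩ := h₂ (M₁ * t) (by positivity)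
  have hc : Nat.Coprime M₁ M₂ := (Nat.Coprime.coprime_mul_right_right hc₂).symm
  have hg := (g₁.prod g₂).mapH (ZMod.chineseRemainder hc).toAddEquiv
  exact ⟨M₁ * M₂, by positivity, Nat.Coprime.mul_left hc₁ (Nat.Coprime.coprime_mul_left_right hc₂),
    _, _, _, hg⟩

theorem has_equiv {V V' : Type} [AddCommGroup V] [AddCommGroup V'] (e : V' ≃+ V) (h : Has V) :
    Has V' := by
  intro t ht
  obtain ⟨M, hM, hc, A, B, p, g⟩ := h t ht
  exact ⟨M, hM, hc, _, _, _, g.mapV e⟩

theorem has_zero (V : Type) [AddCommGroup V] [Subsingleton V] : Has V := by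
  intro t _
  refine ⟨1, one_pos, Nat.coprime_one_left t, fun _ => Set.univ, fun _ => Set.univ, fun _ => 0,
    ?_, ?_⟩
  · intro l l' a b _ _; exact Subsingleton.elim _ _
  · intro T l; exact ⟨0, T, 0, trivial, trivial, zero_add _⟩

def consE (d : ℕ) : (Fin (d + 1) → ZMod 2) ≃+ (ZMod 2 × (Fin d → ZMod 2)) where
  toFun f := (f 0, fun i => f i.succ)
  invFun x := Fin.cons x.1 x.2
  left_inv f := by
    funext i
    refine Fin.cases ?_ (fun j => ?_) i <;> simp
  right_inv x := by
    ext <;> simp
  map_add' f g := by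
    ext <;> simp

theorem has_pow (d : ℕ) : Has (Fin d → ZMod 2) := by
  induction d with
  | zero => exact has_zero _
  | succ d ih => exact has_equiv (consE d) (has_prod has_two ih)

/-- the gadget for `(Z/2)^d`, modulus prime to `t`, normalised -/
theorem gad_pow (d t : ℕ) (ht : 0 < t) :
    ∃ M : ℕ, 0 < M ∧ Nat.Coprime M t ∧
      ∃ (A B : (Fin d → ZMod 2) → Set (ZMod M)) (p : ZMod M → (Fin d → ZMod 2)),
        IsGad A B p ∧ (0 : ZMod M) ∈ A 0 ∧ (0 : ZMod M) ∈ B 0 := by
  obtain ⟨M, hM, hc, A, B, p, g⟩ := has_pow d t ht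
  obtain ⟨A', B', p', g', h0, h0'⟩ := g.norm
  exact ⟨M, hM, hc, A', B', p', g', h0, h0'⟩

/-- natural number form: for every number `N >= t * M` of periods and every token there is a
junction `j + l = N` with `t | j`, `j < t * M` -/
theorem junction {V : Type} [AddCommGroup V] {M t : ℕ} (hM : 0 < M) (ht : 0 < t)
    (hc : Nat.Coprime M t) {A B : V → Set (ZMod M)} {p : ZMod M → V} (g : IsGad A B p)
    (N : ℕ) (hN : t * M ≤ N) (v : V) :
    ∃ j l : ℕ, j + l = N ∧ t ∣ j ∧ j < t * M ∧ (j : ZMod M) ∈ A v ∧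
      (l : ZMod M) ∈ B (p (N : ZMod M) - v) := by
  have : NeZero M := ⟨by omega⟩
  obtain ⟨a, b, l', ha, hb, hab⟩ := g.complete (N : ZMod M) v
  have hl' : l' = p (N : ZMod M) - v := by
    rw [← hab, g.exact _ _ _ _ ha hb]; abel
  obtain ⟨x, hx1, hx2⟩ := Nat.chineseRemainder hc.symm 0 a.val
  have hjt : t ∣ x % (t * M) :=
    (Nat.dvd_mod_iff (Dvd.intro M rfl)).mpr ((Nat.modEq_zero_iff_dvd).mp hx1)
  have hja : ((x % (t * M) : ℕ) : ZMod M) = a := by
    have h1 : x % (t * M) ≡ a.val [MOD M] :=
      ((Nat.mod_modEq x (t * M)).of_dvd (Dvd.intro_left t rfl)).trans hx2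
    have h2 := (ZMod.natCast_eq_natCast_iff _ _ _).mpr h1
    rw [h2, ZMod.natCast_val, ZMod.cast_id]
  have hlt : x % (t * M) < t * M := Nat.mod_lt _ (by positivity)
  refine ⟨x % (t * M), N - x % (t * M), by omega, hjt, hlt, ?_, ?_⟩
  · rw [hja]; exact ha
  · rw [Nat.cast_sub (by omega), hja, ← hab, add_sub_cancel_left, hab, ← hl']
    exact hb

end Crest.Agent.R320.BaseG_522
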