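import Crest.Agent.R320.Hk1_851

/-!
# Row 320: the bounded-language lemma (813 #12712 (2)) (helper213)

Template `τ = [(u₁,p₁),..,(u_r,p_r)]`, last word `z`; `tw τ k z = u₁ p₁^k₁ .. u_r p_r^k_r z`.
If every word of `L` is of this form for a template in a finite set, and membership in `L` is
invariant under `kᵢ → kᵢ + m` for `kᵢ ≥ k0`, then `L` has generalized star height at most one.
-/

set_option autoImplicit false

namespace Crest.Agent.R320.BdLang_213

open Crest.RegLang Crest.Agent.R320.Hk_851

universe u

variable {α : Type u}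

/-- `p^k` -/
def rep (p : List α) (k : ℕ) : List α := (List.replicate k p).flatten

@[simp] theorem rep_zero (p : List α) : rep p 0 = [] := rfl

theorem rep_succ (p : List α) (k : ℕ) : rep p (k + 1) = p ++ rep p k := by
  simp [rep, List.replicate_succ]

theorem rep_add (p : List α) (a b : ℕ) : rep p (a + b) = rep p a ++ rep p b := by
  unfold rep
  rw [← List.replicate_append_replicate, List.flatten_append]

/-- the word of a template -/
def tw : List (List α × List α) → (ℕ → ℕ) → List α → List α
  | [], _, z => z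
  | (x, p) :: t, ks, z => x ++ (rep p (ks 0) ++ tw t (fun i => ks (i + 1)) z)

theorem tw_congr (t : List (List α × List α)) : ∀ (ks ks' : ℕ → ℕ) (z : List α),
    (∀ i < t.length, ks i = ks' i) → tw t ks z = tw t ks' z := by
  induction t with
  | nil => intro ks ks' z _; rfl
  | cons a t ih =>
    obtain ⟨x, p⟩ := a
    intro ks ks' z h
    have h0 : ks 0 = ks' 0 := h 0 (by simp)
    have h1 : tw t (fun i => ks (i + 1)) z = tw t (fun i => ks' (i + 1)) z :=
      ih _ _ _ fun i hi => h (i + 1) (by simpa using hi)
    simp only [tw, h0, h1]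

/-- `k` is reached from `e` by adding multiples of `m` beyond `k0` -/
def Rel (k0 m k e : ℕ) : Prop := k = e ∨ (k0 ≤ e ∧ ∃ t, k = e + t * m)

/-- the language `{p^k | k ~ e}` -/
def E (k0 m : ℕ) (p : List α) (e : ℕ) : Language α := {w | ∃ k, Rel k0 m k e ∧ w = rep p k}

theorem mem_star_rep (p : List α) (m : ℕ) (w : List α) :
    w ∈ KStar.kstar ({rep p m} : Language α) ↔ ∃ t, w = rep p (t * m) := by
  rw [Language.mem_kstar]
  constructor
  · rintro ⟨S, rfl, hS⟩
    refine ⟨S.length, ?_⟩
    induction S with
    | nil => simp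
    | cons a S ih =>
      have ha : a = rep p m := hS a (by simp)
      have hS' := ih fun y hy => hS y (by simp [hy])
      rw [List.flatten_cons, hS', ha, List.length_cons, ← rep_add]
      congr 1
      ring
  · rintro ⟨t, rfl⟩
    refine ⟨List.replicate t (rep p m), ?_, ?_⟩
    · induction t with
      | zero => simp
      | succ t ih =>
        rw [List.replicate_succ, List.flatten_cons, ← ih, ← rep_add]
        congr 1
        ring
    · intro y hy
      exact List.eq_of_mem_replicate hy

theorem HL_E (k0 m : ℕ) (p : List α) (e : ℕ) : HL 1 (E k0 m p e) := by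
  by_cases h : k0 ≤ e
  · have h1 : HL 1 (({rep p e} : Language α) * KStar.kstar ({rep p m} : Language α)) :=
      (HL.word _).mul (HL.star (k := 0) (HL.word _))
    refine h1.congr fun w => ?_
    rw [Language.mem_mul]
    refine Iff.symm ⟨?_, ?_⟩
    · rintro ⟨a, ha, b, hb, rfl⟩
      rw [Set.mem_singleton_iff.1 ha]
      obtain ⟨t, rfl⟩ := (mem_star_rep p m b).1 hb
      exact ⟨e + t * m, Or.inr ⟨h, t, rfl⟩, (rep_add _ _ _).symm⟩
    · rintro ⟨k, hk, rfl⟩
      have : ∃ t, k = e + t * m := by
        rcases hk with rfl | ⟨_, t, rfl⟩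
        · exact ⟨0, by simp⟩
        · exact ⟨t, rfl⟩
      obtain ⟨t, rfl⟩ := this
      exact ⟨rep p e, rfl, rep p (t * m), (mem_star_rep p m _).2 ⟨t, rfl⟩, (rep_add _ _ _).symm⟩
  · refine (HL.word (k := 1) (rep p e)).congr fun w => ?_
    refine Iff.symm ⟨?_, ?_⟩
    · intro hw
      exact ⟨e, Or.inl rfl, hw⟩
    · rintro ⟨k, hk, rfl⟩
      rcases hk with rfl | ⟨h', _⟩
      · rfl
      · exact (h h').elim

/-- the product language of a template with exponent classes `es` -/
def C (k0 m : ℕ) : List (List α × List α) → (ℕ → ℕ) → List α → Language α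
  | [], _, z => {z}
  | (x, p) :: t, es, z => {x} * (E k0 m p (es 0) * C k0 m t (fun i => es (i + 1)) z)

theorem HL_C (k0 m : ℕ) (t : List (List α × List α)) : ∀ (es : ℕ → ℕ) (z : List α),
    HL 1 (C k0 m t es z) := by
  induction t with
  | nil => intro es z; exact HL.word z
  | cons a t ih =>
    obtain ⟨x, p⟩ := a
    intro es z
    exact (HL.word x).mul ((HL_E k0 m p _).mul (ih _ z))

theorem mem_C (k0 m : ℕ) (t : List (List α × List α)) : ∀ (es : ℕ → ℕ) (z w : List α),
    w ∈ C k0 m t es z ↔ ∃ ks : ℕ → ℕ, (∀ i, Rel k0 m (ks i) (es i)) ∧ w = tw t ks z := by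
  induction t with
  | nil =>
    intro es z w
    constructor
    · intro hw
      exact ⟨es, fun i => Or.inl rfl, hw⟩
    · rintro ⟨ks, -, rfl⟩
      rfl
  | cons a t ih =>
    obtain ⟨x, p⟩ := a
    intro es z w
    constructor
    · intro hw
      obtain ⟨x', hx', b, hb, rfl⟩ := Language.mem_mul.1 hw
      obtain ⟨c, hc, d, hd, rfl⟩ := Language.mem_mul.1 hb
      obtain ⟨k, hk, rfl⟩ := hc
      obtain ⟨ks, hks, rfl⟩ := (ih _ z d).1 hd
      rw [Set.mem_singleton_iff.1 hx']
      refine ⟨fun i => Nat.casesOn i k ks, ?_, rfl⟩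
      intro i
      cases i with
      | zero => exact hk
      | succ i => exact hks i
    · rintro ⟨ks, hks, rfl⟩
      refine Language.mem_mul.2 ⟨x, rfl, _, ?_, rfl⟩
      refine Language.mem_mul.2 ⟨_, ⟨ks 0, hks 0, rfl⟩, _, ?_, rfl⟩
      exact (ih _ z _).2 ⟨fun i => ks (i + 1), fun i => hks (i + 1), rfl⟩

/-- a predicate on exponent vectors that is invariant under single steps is invariant under
`Rel` in every coordinate `< r` -/
theorem inv_rel {P : (ℕ → ℕ) → Prop} {k0 m : ℕ}
    (hP : ∀ ks i, k0 ≤ ks i → (P ks ↔ P (Function.update ks i (ks i + m))))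
    (ks es : ℕ → ℕ) (h : ∀ i, Rel k0 m (ks i) (es i)) (r : ℕ) :
    P (fun i => if i < r then ks i else es i) ↔ P es := by
  have step : ∀ (f : ℕ → ℕ) (i t : ℕ), k0 ≤ f i →
      (P f ↔ P (Function.update f i (f i + t * m))) := by
    intro f i t hf
    induction t with
    | zero => simp
    | succ t ih =>
      rw [ih]
      have h1 := hP (Function.update f i (f i + t * m)) i (by simp; omega)
      rw [h1]
      have : Function.update (Function.update f i (f i + t * m)) i
          ((Function.update f i (f i + t * m)) i + m) = Function.update f i (f i + (t + 1) * m) := by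
        rw [Function.update_idem, Function.update_self]
        congr 1
        ring
      rw [this]
  induction r with
  | zero => simp
  | succ r ih =>
    refine Iff.trans ?_ ih
    set f : ℕ → ℕ := fun i => if i < r then ks i else es i with hf
    have hfr : f r = es r := by simp [hf]
    have hg : (fun i => if i < r + 1 then ks i else es i) = Function.update f r (ks r) := by
      funext i
      by_cases hi : i = r
      · subst hi; simp
      · rw [Function.update_of_ne hi, hf]
        by_cases h2 : i < r
        · simp [h2, Nat.lt_succ_of_lt h2]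
        · have : ¬ i < r + 1 := by omega
          simp [h2, this]
    rw [hg]
    rcases h r with h1 | ⟨h1, t, h2⟩
    · rw [h1, ← hfr, Function.update_eq_self]
    · rw [h2, ← hfr]
      exact (step f r t (by rw [hfr]; exact h1)).symm

/-- **the bounded-language lemma** -/
theorem bounded_lang {T : Set (List (List α × List α) × List α)} (hT : T.Finite)
    {k0 m : ℕ} (hm : 0 < m) {L : Language α}
    (hform : ∀ w ∈ L, ∃ t z, (t, z) ∈ T ∧ ∃ ks, w = tw t ks z)
    (hinv : ∀ t z, (t, z) ∈ T → ∀ (ks : ℕ → ℕ) (i : ℕ), k0 ≤ ks i →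
      (tw t ks z ∈ L ↔ tw t (Function.update ks i (ks i + m)) z ∈ L)) :
    HL 1 L := by
  classical
  have key : ∀ tz ∈ T, ∀ es ks : ℕ → ℕ, (∀ i, Rel k0 m (ks i) (es i)) →
      (tw tz.1 ks tz.2 ∈ L ↔ tw tz.1 es tz.2 ∈ L) := by
    intro tz htz es ks h
    have h1 := inv_rel (P := fun f => tw tz.1 f tz.2 ∈ L) (k0 := k0) (m := m)
      (fun ks i hi => hinv tz.1 tz.2 htz ks i hi) ks es h tz.1.length
    rw [← h1]
    show _ ↔ tw tz.1 _ tz.2 ∈ L
    rw [tw_congr tz.1 (fun i => if i < tz.1.length then ks i else es i) ks tz.2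
      (fun i hi => by simp [hi])]
  have hfin : HL 1 {w : List α | ∃ tz ∈ T, w ∈
      ({w | ∃ es : Fin tz.1.length → Fin (k0 + m), w ∈
        (if tw tz.1 (fun i => if h : i < tz.1.length then (es ⟨i, h⟩ : ℕ) else 0) tz.2 ∈ L
          then C k0 m tz.1 (fun i => if h : i < tz.1.length then (es ⟨i, h⟩ : ℕ) else 0) tz.2
          else 0)} : Language α)} := by
    refine HL.biUnion hT fun tz _ => ?_
    refine HL.iUnion fun es => ?_
    split_ifs
    · exact HL_C _ _ _ _ _
    · exact HL.zero
  refine hfin.congr fun w => ?_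
  refine Iff.symm ⟨?_, ?_⟩
  · rintro ⟨tz, htz, es, hw⟩
    split_ifs at hw with hL
    · obtain ⟨ks, hks, rfl⟩ := (mem_C k0 m _ _ _ _).1 hw
      exact (key tz htz _ ks hks).2 hL
    · exact hw.elim
  · intro hw
    obtain ⟨t, z, htz, ks, rfl⟩ := hform w hw
    set red : ℕ → ℕ := fun k => if k < k0 then k else k0 + (k - k0) % m with hred
    have hlt : ∀ k, red k < k0 + m := by
      intro k
      have h1 := Nat.mod_lt (k - k0) hm
      by_cases h : k < k0
      · simp only [hred, h, if_true]; omega
      · simp only [hred, h, if_false]; omega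
    have hrel : ∀ k, Rel k0 m k (red k) := by
      intro k
      by_cases h : k < k0
      · left; simp [hred, h]
      · right
        simp only [hred, h, if_false]
        refine ⟨Nat.le_add_right _ _, (k - k0) / m, ?_⟩
        have h1 := Nat.mod_add_div (k - k0) m
        have h2 : (k - k0) / m * m = m * ((k - k0) / m) := Nat.mul_comm _ _
        omega
    let es : Fin t.length → Fin (k0 + m) := fun i => ⟨red (ks i), hlt _⟩
    let ks' : ℕ → ℕ := fun i => if i < t.length then ks i else 0
    have e1 : tw t ks z = tw t ks' z := tw_congr _ _ _ _ fun i hi => by simp [ks', hi]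
    have hR : ∀ i, Rel k0 m (ks' i) (if h : i < t.length then (es ⟨i, h⟩ : ℕ) else 0) := by
      intro i
      by_cases h : i < t.length
      · simp only [ks', h, if_true, dif_pos, es]
        exact hrel _
      · simp only [ks', h, if_false, dif_neg, not_false_iff]
        exact Or.inl rfl
    refine ⟨(t, z), htz, es, ?_⟩
    have hL : tw t (fun i => if h : i < t.length then (es ⟨i, h⟩ : ℕ) else 0) z ∈ L := by
      rw [← key (t, z) htz _ ks' hR]
      show tw t ks' z ∈ L
      rw [← e1]; exact hw
    rw [if_pos hL]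
    refine (mem_C k0 m _ _ _ _).2 ⟨ks', hR, e1⟩

end Crest.Agent.R320.BdLang_213
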