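import Crest.Agent.R320.RunLang_872

/-! Bounded-language lemma: sets of words `u₀ p₁^k₁ u₁ … p_r^k_r u_r` (finitely many patterns) whose
membership is eventually periodic in every exponent have height `≤ 1`. -/

set_option autoImplicit false

namespace Crest.Agent.R320.Bdd_872

open Crest.RegLang Crest.Agent.R320.Hgt1_903 Crest.Agent.R320.RunLang_872

variable {α : Type*}

/-- `expand [(p₁,u₁),…] [k₁,…] = p₁^k₁ u₁ p₂^k₂ u₂ …`. -/
def expand : List (List α × List α) → List ℕ → List α
  | [], _ => []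
  | _ :: _, [] => []
  | q :: pat, k :: ks => pw q.1 k ++ q.2 ++ expand pat ks

/-- `K` is invariant under adding `m` to an entry which is at least `k0`. -/
def Inv (k0 m : ℕ) (K : Set (List ℕ)) : Prop :=
  ∀ (l r : List ℕ) (k : ℕ), k0 ≤ k → (l ++ k :: r ∈ K ↔ l ++ (k + m) :: r ∈ K)

theorem Inv.cons {k0 m : ℕ} {K : Set (List ℕ)} (hK : Inv k0 m K) (r : ℕ) :
    Inv k0 m {ks | r :: ks ∈ K} := fun l t k hk => hK (r :: l) t k hk

theorem Inv.head {k0 m : ℕ} {K : Set (List ℕ)} (hK : Inv k0 m K) (i r : ℕ) (hr : k0 ≤ r)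
    (ks : List ℕ) : (r :: ks ∈ K ↔ (r + m * i) :: ks ∈ K) := by
  induction i with
  | zero => simp
  | succ i ih =>
    rw [ih]
    have := hK [] ks (r + m * i) (by omega)
    rw [List.nil_append, List.nil_append] at this
    rw [this, Nat.mul_succ, Nat.add_assoc]

/-- One pattern. -/
theorem H_pattern {k0 m : ℕ} (hm : 0 < m) (pat : List (List α × List α)) :
    ∀ (u0 : List α) (K : Set (List ℕ)), Inv k0 m K →
      H 1 ({w | ∃ ks : List ℕ, ks.length = pat.length ∧ ks ∈ K ∧ w = u0 ++ expand pat ks} :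
        Language α) := by
  classical
  induction pat with
  | nil =>
    intro u0 K _
    refine H.finite 1 (Set.Finite.subset (Set.finite_singleton u0) ?_)
    rintro w ⟨ks, -, -, rfl⟩
    simp [expand]
  | cons q pat ih =>
    intro u0 K hK
    have key : H 1 ({w | w ∈ ({w | ∃ r ∈ Finset.range k0,
          w ∈ ({w | ∃ a b, a ++ b = w ∧ a ∈ ({u0 ++ pw q.1 r} : Language α) ∧
            b ∈ ({w | ∃ ks : List ℕ, ks.length = pat.length ∧ ks ∈ {ks | r :: ks ∈ K} ∧
              w = q.2 ++ expand pat ks} : Language α)} : Language α)} : Language α) ∨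
        w ∈ ({w | ∃ r ∈ Finset.Ico k0 (k0 + m),
          w ∈ ({w | ∃ a b c, a ++ b ++ c = w ∧ a ∈ ({u0 ++ pw q.1 r} : Language α) ∧
            b ∈ ({w | ∃ i, w = pw (pw q.1 m) i} : Language α) ∧
            c ∈ ({w | ∃ ks : List ℕ, ks.length = pat.length ∧ ks ∈ {ks | r :: ks ∈ K} ∧
              w = q.2 ++ expand pat ks} : Language α)} : Language α)} : Language α)} :
        Language α) := by
      refine H.union (H.exists_finset _ _ fun r _ => H.cat (H.word 1 _) (ih _ _ (hK.cons r)))
        (H.exists_finset _ _ fun r _ =>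
          H.factor (H.word 1 _) (H_pw_star _) (ih _ _ (hK.cons r)))
    refine H.congr key fun w => ?_
    constructor
    · rintro (⟨r, -, a, b, rfl, ha, ks, hl, hks, rfl⟩ |
        ⟨r, hr, a, b, c, rfl, ha, ⟨i, rfl⟩, ks, hl, hks, rfl⟩)
      · refine ⟨r :: ks, by simp [hl], hks, ?_⟩
        rw [Set.mem_singleton_iff.1 ha]
        simp [expand, List.append_assoc]
      · refine ⟨(r + m * i) :: ks, by simp [hl], ?_, ?_⟩
        · exact (hK.head i r (Finset.mem_Ico.1 hr).1 ks).1 hks
        · rw [Set.mem_singleton_iff.1 ha, ← pw_mul]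
          simp [expand, pw_add, List.append_assoc]
    · rintro ⟨ks, hl, hks, rfl⟩
      cases ks with
      | nil => simp at hl
      | cons k ks =>
        have hl' : ks.length = pat.length := by simpa using hl
        by_cases hk : k < k0
        · left
          refine ⟨k, Finset.mem_range.2 hk, u0 ++ pw q.1 k, q.2 ++ expand pat ks, ?_, rfl,
            ks, hl', hks, rfl⟩
          simp [expand, List.append_assoc]
        · right
          have hk' := not_lt.1 hk
          obtain ⟨i, r, hr, hkr⟩ : ∃ i r, r < m ∧ k = k0 + r + m * i := by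
            refine ⟨(k - k0) / m, (k - k0) % m, Nat.mod_lt _ hm, ?_⟩
            have := Nat.mod_add_div (k - k0) m
            omega
          refine ⟨k0 + r, Finset.mem_Ico.2 ⟨by omega, by omega⟩, u0 ++ pw q.1 (k0 + r),
            pw (pw q.1 m) i, q.2 ++ expand pat ks, ?_, rfl, ⟨i, rfl⟩, ks, hl', ?_, rfl⟩
          · rw [← pw_mul, hkr]
            simp [expand, pw_add, List.append_assoc]
          · have := hK.head i (k0 + r) (by omega) ks
            rw [hkr] at hks
            exact this.2 hks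

/-- **Bounded-language lemma.** Finitely many patterns. -/
theorem H_bounded {k0 m : ℕ} (hm : 0 < m) {P : Set (List α × List (List α × List α))}
    (hP : P.Finite) (L : Language α)
    (hcov : ∀ w ∈ L, ∃ q ∈ P, ∃ ks : List ℕ, ks.length = q.2.length ∧ w = q.1 ++ expand q.2 ks)
    (hinv : ∀ q ∈ P, ∀ (l r : List ℕ) (k : ℕ), k0 ≤ k →
      (q.1 ++ expand q.2 (l ++ k :: r) ∈ L ↔ q.1 ++ expand q.2 (l ++ (k + m) :: r) ∈ L)) :
    H 1 L := by
  classical
  have key := H.exists_finset (n := 1) hP.toFinset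
    (fun q => ({w | ∃ ks : List ℕ, ks.length = q.2.length ∧
      ks ∈ {ks | q.1 ++ expand q.2 ks ∈ L} ∧ w = q.1 ++ expand q.2 ks} : Language α))
    (fun q hq => H_pattern (k0 := k0) hm q.2 q.1 _ (hinv q (hP.mem_toFinset.1 hq)))
  refine H.congr key fun w => ?_
  constructor
  · rintro ⟨q, hq, ks, hl, hks, rfl⟩
    exact hks
  · intro hw
    obtain ⟨q, hq, ks, hl, rfl⟩ := hcov w hw
    exact ⟨q, hP.mem_toFinset.2 hq, ks, hl, hw, rfl⟩

/-- Version with a restricted length of the exponent list in the invariance. -/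
theorem H_bounded' {k0 m : ℕ} (hm : 0 < m) {P : Set (List α × List (List α × List α))}
    (hP : P.Finite) (L : Language α)
    (hcov : ∀ w ∈ L, ∃ q ∈ P, ∃ ks : List ℕ, ks.length = q.2.length ∧ w = q.1 ++ expand q.2 ks)
    (hinv : ∀ q ∈ P, ∀ (l r : List ℕ) (k : ℕ), (l ++ k :: r).length = q.2.length → k0 ≤ k →
      (q.1 ++ expand q.2 (l ++ k :: r) ∈ L ↔ q.1 ++ expand q.2 (l ++ (k + m) :: r) ∈ L)) :
    H 1 L := by
  classical
  have key := H.exists_finset (n := 1) hP.toFinset
    (fun q => ({w | ∃ ks : List ℕ, ks.length = q.2.length ∧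
      ks ∈ {ks | ks.length = q.2.length ∧ q.1 ++ expand q.2 ks ∈ L} ∧
        w = q.1 ++ expand q.2 ks} : Language α))
    (fun q hq => H_pattern (k0 := k0) hm q.2 q.1 _ (fun l r k hk => by
      change ((l ++ k :: r).length = q.2.length ∧ _) ↔ ((l ++ (k + m) :: r).length = q.2.length ∧ _)
      have e : (l ++ (k + m) :: r).length = (l ++ k :: r).length := by simp
      rw [e]
      constructor
      · rintro ⟨h1, h2⟩
        exact ⟨h1, (hinv q (hP.mem_toFinset.1 hq) l r k h1 hk).1 h2⟩
      · rintro ⟨h1, h2⟩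
        exact ⟨h1, (hinv q (hP.mem_toFinset.1 hq) l r k h1 hk).2 h2⟩))
  refine H.congr key fun w => ?_
  constructor
  · rintro ⟨q, hq, ks, hl, hks, rfl⟩
    exact hks.2
  · intro hw
    obtain ⟨q, hq, ks, hl, rfl⟩ := hcov w hw
    exact ⟨q, hP.mem_toFinset.2 hq, ks, hl, ⟨hl, hw⟩, rfl⟩

end Crest.Agent.R320.Bdd_872
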