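import Crest.Agent.R320.ExactR_237

/-!
# Row 320: block instance of 163's `top` (helper539)

Left-looking walls `W` (decided by the last `n` letters), natural chain rule, scheme 1 = black box
gadget on words, scheme 2 = exact gadget with ruler places.
-/

set_option autoImplicit false
set_option linter.unusedSectionVars false

namespace Crest.Agent.R320.Blk163539

open Crest.Agent.R320

/-- left-looking wall rule -/
structure LRule (α : Type) where
  n : ℕ
  W : List α → Prop
  loc : ∀ P Q, n ≤ Q.length → (W (P ++ Q) ↔ W Q)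

variable {α S V : Type}

theorem take_app {X A B : List α} (h : X = A ++ B) (t : ℕ) :
    X.take (A.length + t) = A ++ B.take t := by
  subst h
  rw [List.take_length_add_append]

/-- blocks: from an anchor to the first wall at distance at least `z` -/
def XX (L : LRule α) (z : ℕ) : Set (List α) :=
  {X | z ≤ X.length ∧ L.W X ∧ ∀ t, z ≤ t → t < X.length → ¬ L.W (X.take t)}

theorem XX_nil (L : LRule α) {z : ℕ} (hz : 0 < z) : [] ∉ XX L z := by
  rintro ⟨h, -⟩
  simp at h
  omega

theorem XX_prefix (L : LRule α) {z : ℕ} {X : List α} (hX : X ∈ XX L z) (Y : List α)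
    (hXY : X ++ Y ∈ XX L z) : Y = [] := by
  by_contra hne
  have hl : 0 < Y.length := List.length_pos_iff.2 hne
  have h := hXY.2.2 X.length hX.1 (by rw [List.length_append]; omega)
  rw [List.take_left] at h
  exact h hX.2.1

/-- scheme 1 gadget as a black box -/
structure G1 (φ : List α → S) (act : V → S → V) [AddCommGroup V] where
  N1 : ℕ
  T0 : ℕ
  lam : List α → Option V
  rho : List α → Option V
  nu : List α → V
  BadT : ℕ → Prop
  len : ∀ P v, lam P = some v → P.length ≤ N1
  sound : ∀ P Q v c, lam P = some v → rho Q = some c → c = act v (φ (P ++ Q)) + nu (P ++ Q)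
  comp : ∀ Y, T0 ≤ Y.length → ¬ BadT Y.length → ∀ v, ∃ P Q, Y = P ++ Q ∧ lam P = some v ∧
    (rho Q).isSome

section
variable [Monoid S] [AddCommGroup V] (L : LRule α) (z p0 : ℕ) (φ : List α → S) (act : V → S → V)
  (g : G1 φ act) (nu2 : List α → V)

/-- the zone map -/
def nuX (X : List α) : V := act (nu2 (X.take p0)) (φ (X.drop p0)) + g.nu (X.drop p0)

def TT (v : V) (X : List α) : V := act v (φ X) + nuX p0 φ act g nu2 X

def LP1 (P : List α) (v : V) : Prop :=
  p0 ≤ P.length ∧ g.lam (P.drop p0) = some (act v (φ (P.take p0)) + nu2 (P.take p0))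

def Leg1 (Q : List α) : Prop :=
  z - p0 ≤ Q.length ∧ L.W Q ∧ ∀ t, z - p0 - g.N1 ≤ t → t < Q.length → ¬ L.W (Q.take t)

open Classical in
noncomputable def R1 (Q : List α) : Option V := if Leg1 L z p0 φ act g Q then g.rho Q else none

variable {L z p0 φ act g nu2}

theorem TT_split (hφ : ∀ u v, φ (u ++ v) = φ u * φ v)
    (act_mul : ∀ v s s', act (act v s) s' = act v (s * s'))
    (act_add : ∀ v w s, act (v + w) s = act v s + act w s) (v : V) {X1 Y : List α}
    (h : X1.length = p0) :
    TT p0 φ act g nu2 v (X1 ++ Y) = act (act v (φ X1) + nu2 X1) (φ Y) + g.nu Y := by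
  unfold TT nuX
  have e1 : (X1 ++ Y).take p0 = X1 := by rw [← h, List.take_left]
  have e2 : (X1 ++ Y).drop p0 = Y := by rw [← h, List.drop_left]
  rw [e1, e2, hφ, ← act_mul, act_add]
  abel

theorem s1 (hφ : ∀ u v, φ (u ++ v) = φ u * φ v)
    (act_mul : ∀ v s s', act (act v s) s' = act v (s * s'))
    (act_add : ∀ v w s, act (v + w) s = act v s + act w s) (hz : p0 + g.N1 + L.n ≤ z)
    (P : List α) (v : V) (Q : List α) (b : V) (h1 : LP1 p0 φ act g nu2 P v)
    (h2 : R1 L z p0 φ act g Q = some b) : P ++ Q ∈ XX L z ∧ TT p0 φ act g nu2 v (P ++ Q) = b := by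
  obtain ⟨hp, hl⟩ := h1
  unfold R1 at h2
  split_ifs at h2 with hQ
  obtain ⟨q1, q2, q3⟩ := hQ
  have hlen := g.len _ _ hl
  rw [List.length_drop] at hlen
  constructor
  · refine ⟨by rw [List.length_append]; omega, (L.loc P Q (by omega)).2 q2, ?_⟩
    intro t ht1 ht2 hW
    rw [List.length_append] at ht2
    have e : (P ++ Q).take t = P ++ Q.take (t - P.length) := by
      rw [List.take_append, List.take_of_length_le (by omega)]
    rw [e, L.loc P _ (by rw [List.length_take]; omega)] at hW
    exact q3 _ (by omega) (by omega) hW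
  · have e : P ++ Q = P.take p0 ++ (P.drop p0 ++ Q) := by
      rw [← List.append_assoc, List.take_append_drop]
    rw [e, TT_split hφ act_mul act_add v (by rw [List.length_take]; omega)]
    exact (g.sound _ _ _ _ hl h2).symm

/-- completeness of scheme 1 -/
theorem comp1 (hz : p0 + g.N1 + L.n ≤ z) (hT0 : p0 + g.T0 ≤ z) {X : List α} (hX : X ∈ XX L z)
    (hE1 : z + g.N1 ≤ X.length) (hE2 : ∀ t, z ≤ t + g.N1 → t < z → ¬ L.W (X.take t))
    (hB : ¬ g.BadT (X.length - p0)) (v : V) :
    ∃ P Q, X = P ++ Q ∧ p0 ≤ P.length ∧ LP1 p0 φ act g nu2 P v ∧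
      (R1 L z p0 φ act g Q).isSome := by
  have hXp : (X.take p0).length = p0 := by rw [List.length_take]; omega
  obtain ⟨P', Q', hY, hl, hr⟩ := g.comp (X.drop p0) (by rw [List.length_drop]; omega)
    (by rw [List.length_drop]; exact hB) (act v (φ (X.take p0)) + nu2 (X.take p0))
  have hlen := g.len _ _ hl
  have hXe : X = (X.take p0 ++ P') ++ Q' := by
    rw [List.append_assoc, ← hY, List.take_append_drop]
  have hXl : X.length = p0 + P'.length + Q'.length := by
    have := congrArg List.length hXe
    rw [List.length_append, List.length_append, hXp] at this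
    exact this
  refine ⟨X.take p0 ++ P', Q', hXe, by rw [List.length_append, hXp]; omega, ⟨by
    rw [List.length_append, hXp]; omega, ?_⟩, ?_⟩
  · have e1 : (X.take p0 ++ P').drop p0 = P' := by
      conv_lhs => rw [← hXp]
      rw [hXp]
      exact List.drop_left' hXp
    have e2 : (X.take p0 ++ P').take p0 = X.take p0 := List.take_left' hXp
    rw [e1, e2]
    exact hl
  · unfold R1
    rw [if_pos]
    · exact hr
    · refine ⟨by omega, ?_, ?_⟩
      · have h := hX.2.1
        rw [hXe] at h
        exact (L.loc _ Q' (by omega)).1 h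
      · intro t ht1 ht2 hW
        have e : X.take ((X.take p0 ++ P').length + t) = (X.take p0 ++ P') ++ Q'.take t :=
          take_app hXe t
        have hPl : (X.take p0 ++ P').length = p0 + P'.length := by
          rw [List.length_append, hXp]
        rw [hPl] at e
        have hW' : L.W (X.take (p0 + P'.length + t)) := by
          rw [e, L.loc _ _ (by rw [List.length_take]; omega)]
          exact hW
        by_cases hc : z ≤ p0 + P'.length + t
        · exact hX.2.2 _ hc (by omega) hW'
        · exact hE2 _ (by omega) (by omega) hW'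

end

section scheme2
variable [Monoid S] [AddCommGroup V] (L : LRule α) (z p0 : ℕ) (φ : List α → S) (act : V → S → V)
  (g : G1 φ act) (nu2 : List α → V) (K : ℕ) (c : ℕ → ℕ)
  (lam2 : ℕ → List α → Option V) (rho2 : ℕ → List α → Option V)

/-- `t` is the end of the zone whose anchor lies `c k` before the word `Q` -/
def IsEnd (Q : List α) (k t : ℕ) : Prop :=
  z - c k ≤ t ∧ t ≤ Q.length ∧ L.W (Q.take t) ∧ ∀ t', z - c k ≤ t' → t' < t → ¬ L.W (Q.take t')

/-- the zone of the anchor `c k` before `Q` is (E) or (B) bad -/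
def BadQ (Q : List α) (k : ℕ) : Prop :=
  ∃ t, IsEnd L z c Q k t ∧ (t + c k < z + g.N1 ∨
    (∃ t', z ≤ t' + c k + g.N1 ∧ t' + c k < z ∧ t' ≤ Q.length ∧ L.W (Q.take t')) ∨
    g.BadT (t + c k - p0))

def LP2 (P : List α) (v : V) : Prop := ∃ k < K, P.length = c k ∧ lam2 k P = some v

def Rel2 (Q : List α) (b : V) : Prop :=
  ∃ k < K, BadQ L z p0 φ act g c Q k ∧ (∀ k' < K, BadQ L z p0 φ act g c Q k' → k' = k) ∧
    ∃ t β, IsEnd L z c Q k t ∧ rho2 k (Q.take (p0 - c k)) = some β ∧ Q.drop t ∈ XX L z ∧
      b = TT p0 φ act g nu2 (act β (φ ((Q.take t).drop (p0 - c k))) +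
        g.nu ((Q.take t).drop (p0 - c k))) (Q.drop t)

open Classical in
noncomputable def R2 (Q : List α) : Option V :=
  if h : ∃ b, Rel2 L z p0 φ act g nu2 K c rho2 Q b then some h.choose else none

variable {L z p0 φ act g nu2 K c lam2 rho2}

theorem IsEnd.unique {Q : List α} {k t t' : ℕ} (h : IsEnd L z c Q k t) (h' : IsEnd L z c Q k t') :
    t = t' := by
  rcases lt_trichotomy t t' with hlt | heq | hgt
  · exact (h'.2.2.2 t h.1 hlt h.2.2.1).elim
  · exact heq
  · exact (h.2.2.2 t' h'.1 hgt h'.2.2.1).elim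

theorem R2_rel {Q : List α} {b : V} (h : R2 L z p0 φ act g nu2 K c rho2 Q = some b) :
    Rel2 L z p0 φ act g nu2 K c rho2 Q b := by
  unfold R2 at h
  split_ifs at h with hex
  have := Option.some.inj h
  rw [← this]
  exact hex.choose_spec

theorem R2_ne {Q : List α} {b : V} (hz : p0 < z) (hc : ∀ k < K, c k ≤ p0)
    (h : R2 L z p0 φ act g nu2 K c rho2 Q = some b) : Q ≠ [] := by
  obtain ⟨k, hk, -, -, t, β, ht, -⟩ := R2_rel h
  rintro rfl
  have h1 := ht.1
  have h2 := ht.2.1
  have h3 := hc k hk
  simp at h2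
  omega

/-- the block of the anchor `c k` before `Q` -/
theorem block_of_end (hz : p0 + L.n ≤ z) {P Q : List α} {k t : ℕ} (hk : c k ≤ p0)
    (hP : P.length = c k) (ht : IsEnd L z c Q k t) : P ++ Q.take t ∈ XX L z := by
  obtain ⟨h1, h2, h3, h4⟩ := ht
  have hl : (Q.take t).length = t := by rw [List.length_take]; omega
  refine ⟨by rw [List.length_append, hl]; omega, (L.loc _ _ (by rw [hl]; omega)).2 h3, ?_⟩
  intro s hs1 hs2 hW
  rw [List.length_append, hl] at hs2
  have e : (P ++ Q.take t).take s = P ++ Q.take (s - c k) := by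
    rw [List.take_append, List.take_of_length_le (by omega), List.take_take, hP,
      min_eq_left (by omega)]
  rw [e, L.loc P _ (by rw [List.length_take]; omega)] at hW
  exact h4 _ (by omega) (by omega) hW

theorem s2 (hφ : ∀ u v, φ (u ++ v) = φ u * φ v)
    (act_mul : ∀ v s s', act (act v s) s' = act v (s * s'))
    (act_add : ∀ v w s, act (v + w) s = act v s + act w s)
    (hz : p0 + g.N1 + L.n ≤ z) (hT0 : p0 + g.T0 ≤ z) (hz0 : p0 < z) (hc : ∀ k < K, c k ≤ p0)
    (hex : ∀ k < K, ∀ (P Q : List α) (v b : V), P.length = c k → lam2 k P = some v →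
      rho2 k Q = some b → b = act v (φ (P ++ Q)) + nu2 (P ++ Q))
    (P : List α) (v : V) (Q : List α) (b : V)
    (h1 : LP2 K c lam2 P v) (h2 : R2 L z p0 φ act g nu2 K c rho2 Q = some b)
    (hun : ∀ X ∈ XX L z, X <+: P ++ Q → ∀ P' Q', X = P' ++ Q' → P.length ≤ P'.length →
      LP1 p0 φ act g nu2 P' v → (R1 L z p0 φ act g Q').isSome → False) :
    ∃ Q1 X2, Q = Q1 ++ X2 ∧ Q1 ≠ [] ∧ P ++ Q1 ∈ XX L z ∧ X2 ∈ XX L z ∧
      TT p0 φ act g nu2 (TT p0 φ act g nu2 v (P ++ Q1)) X2 = b := by
  obtain ⟨k, hk, hPl, hlam⟩ := h1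
  obtain ⟨k1, hk1, hbad1, huniq, t1, β, ht1, hrho, hX2, hb⟩ := R2_rel h2
  have hck := hc k hk
  have hck1 := hc k1 hk1
  -- the zone of the true anchor ends inside Q
  have hX2l : z ≤ (Q.drop t1).length := hX2.1
  rw [List.length_drop] at hX2l
  have hWQ : L.W Q := by
    have h := hX2.2.1
    have e : Q = Q.take t1 ++ Q.drop t1 := (List.take_append_drop _ _).symm
    rw [e, L.loc _ _ (by rw [List.length_drop]; omega)]
    exact h
  have hexEnd : ∃ t, z - c k ≤ t ∧ t ≤ Q.length ∧ L.W (Q.take t) :=
    ⟨Q.length, by omega, le_rfl, by rw [List.take_length]; exact hWQ⟩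
  classical
  have hend : IsEnd L z c Q k (Nat.find hexEnd) := by
    obtain ⟨a1, a2, a3⟩ := Nat.find_spec hexEnd
    refine ⟨a1, a2, a3, fun t' ht' hlt hW => ?_⟩
    exact Nat.find_min hexEnd hlt ⟨ht', by omega, hW⟩
  set t := Nat.find hexEnd with htdef
  have hblk : P ++ Q.take t ∈ XX L z := block_of_end (by omega) hck hPl hend
  have htl : (Q.take t).length = t := by rw [List.length_take]; have := hend.2.1; omega
  have hbad : BadQ L z p0 φ act g c Q k := by
    by_contra hnb
    have hn : ¬ (t + c k < z + g.N1 ∨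
      (∃ t', z ≤ t' + c k + g.N1 ∧ t' + c k < z ∧ t' ≤ Q.length ∧ L.W (Q.take t')) ∨
      g.BadT (t + c k - p0)) := fun h => hnb ⟨t, hend, h⟩
    push Not at hn
    obtain ⟨n1, n2, n3⟩ := hn
    have hXl : (P ++ Q.take t).length = c k + t := by rw [List.length_append, htl, hPl]
    obtain ⟨P', Q', e1, e2, e3, e4⟩ := comp1 (nu2 := nu2) (g := g) hz hT0 hblk
      (by rw [hXl]; omega)
      (fun s hs1 hs2 hW => by
        have e : (P ++ Q.take t).take s = P ++ Q.take (s - c k) := by
          rw [List.take_append, List.take_of_length_le (by omega), List.take_take, hPl,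
            min_eq_left (by omega)]
        rw [e, L.loc P _ (by rw [List.length_take]; have := hend.2.1; omega)] at hW
        exact n2 (s - c k) (by omega) (by omega) (by have := hend.2.1; omega) hW)
      (by rw [hXl, add_comm]; exact n3) v
    exact hun _ hblk ⟨Q.drop t, by rw [List.append_assoc, List.take_append_drop]⟩ P' Q' e1
      (by omega) e3 e4
  obtain rfl : k = k1 := huniq k hk hbad
  obtain rfl : t = t1 := hend.unique ht1
  refine ⟨Q.take t, Q.drop t, (List.take_append_drop _ _).symm, ?_, hblk, hX2, ?_⟩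
  · intro h0
    have : (Q.take t).length = 0 := by rw [h0]; rfl
    rw [htl] at this
    have := hend.1
    omega
  · rw [hb]
    congr 1
    have hpl : (Q.take (p0 - c k)).length = p0 - c k := by
      rw [List.length_take]; have := hend.1; have := hend.2.1; omega
    have e : P ++ Q.take t = (P ++ Q.take (p0 - c k)) ++ (Q.take t).drop (p0 - c k) := by
      rw [List.append_assoc]
      congr 1
      have h5 : Q.take (p0 - c k) = (Q.take t).take (p0 - c k) := by
        rw [List.take_take, min_eq_left]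
        have := hend.1; omega
      rw [h5, List.take_append_drop]
    rw [e, TT_split hφ act_mul act_add v (by rw [List.length_append, hpl, hPl]; omega)]
    rw [hex k hk P _ v β hPl hlam hrho]

/-- completeness of the pair of schemes -/
theorem cc (hz : p0 + g.N1 + L.n ≤ z) (hT0 : p0 + g.T0 ≤ z) (hz0 : p0 < z)
    (hc : ∀ k < K, c k ≤ p0) (R0 : ℕ)
    (hcomp2 : ∀ (u : List α) (v : V), u.length = p0 → ∃ I : Finset ℕ, R0 < I.card ∧ ∀ k ∈ I,
      k < K ∧ lam2 k (u.take (c k)) = some v ∧ (rho2 k (u.drop (c k))).isSome)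
    (X : List α) (hX : X ∈ XX L z) (X2 : List α) (hX2 : X2 ∈ XX L z)
    (hspoil : ∀ J : Finset ℕ, (∀ k ∈ J, k < K ∧ ∃ k' < K, k' ≠ k ∧
      BadQ L z p0 φ act g c ((X ++ X2).drop (c k)) k') → J.card ≤ R0) (v : V) :
    (∃ P Q, X = P ++ Q ∧ LP1 p0 φ act g nu2 P v ∧ (R1 L z p0 φ act g Q).isSome) ∨
    (∃ P Q, X ++ X2 = P ++ Q ∧ P.length < X.length ∧ LP2 K c lam2 P v ∧
      (R2 L z p0 φ act g nu2 K c rho2 Q).isSome) := by
  classical
  by_cases hgood : z + g.N1 ≤ X.length ∧ (∀ t, z ≤ t + g.N1 → t < z → ¬ L.W (X.take t)) ∧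
      ¬ g.BadT (X.length - p0)
  · left
    obtain ⟨P, Q, a1, _, a3, a4⟩ := comp1 (nu2 := nu2) hz hT0 hX hgood.1 hgood.2.1 hgood.2.2 v
    exact ⟨P, Q, a1, a3, a4⟩
  · right
    have hXz := hX.1
    have hu : (X.take p0).length = p0 := by rw [List.length_take]; omega
    obtain ⟨I, hI, hIk⟩ := hcomp2 (X.take p0) v hu
    -- an unspoiled place
    obtain ⟨k, hkI, hns⟩ : ∃ k ∈ I, ¬ ∃ k' < K, k' ≠ k ∧
        BadQ L z p0 φ act g c ((X ++ X2).drop (c k)) k' := by
      by_contra hcon
      push Not at hcon
      have := hspoil I fun k hk => ⟨(hIk k hk).1, by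
        obtain ⟨k', h1, h2, h3⟩ := hcon k hk
        exact ⟨k', h1, h2, h3⟩⟩
      omega
    obtain ⟨hk, hlam, hrho⟩ := hIk k hkI
    have hck := hc k hk
    set Q := (X ++ X2).drop (c k) with hQ
    have hQe : Q = X.drop (c k) ++ X2 := by
      rw [hQ, List.drop_append_of_le_length (by omega)]
    have hdl : (X.drop (c k)).length = X.length - c k := List.length_drop
    have htake : ∀ s, s ≤ X.length - c k → Q.take s = (X.drop (c k)).take s := by
      intro s hs
      rw [hQe, List.take_append_of_le_length (by omega)]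
    have hWs : ∀ s, L.n ≤ s → s ≤ X.length - c k → (L.W (Q.take s) ↔ L.W (X.take (c k + s))) := by
      intro s hs1 hs2
      rw [htake s hs2, List.take_add]
      rw [L.loc (X.take (c k)) _ (by rw [List.length_take, hdl]; omega)]
    have hend : IsEnd L z c Q k (X.length - c k) := by
      refine ⟨by omega, by rw [hQe, List.length_append, hdl]; omega, ?_, ?_⟩
      · rw [hWs _ (by omega) le_rfl]
        have e : c k + (X.length - c k) = X.length := by omega
        rw [e, List.take_length]
        exact hX.2.1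
      · intro t' ht1 ht2
        rw [hWs _ (by omega) (by omega)]
        exact hX.2.2 _ (by omega) (by omega)
    have hbad : BadQ L z p0 φ act g c Q k := by
      refine ⟨_, hend, ?_⟩
      have e : X.length - c k + c k = X.length := by omega
      rw [e]
      by_contra hcon
      push Not at hcon
      obtain ⟨b1, b2, b3⟩ := hcon
      apply hgood
      refine ⟨b1, ?_, b3⟩
      intro t h1 h2 hW
      have h3 := b2 (t - c k) (by omega) (by omega) (by
        rw [hQe, List.length_append, hdl]; omega)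
      rw [hWs _ (by omega) (by omega)] at h3
      apply h3
      have e : c k + (t - c k) = t := by omega
      rw [e]; exact hW
    obtain ⟨β, hβ⟩ := Option.isSome_iff_exists.1 hrho
    have hQ2 : Q.drop (X.length - c k) = X2 := by
      rw [hQe, ← hdl, List.drop_left]
    have hQp : Q.take (p0 - c k) = (X.take p0).drop (c k) := by
      rw [htake _ (by omega), List.drop_take]
    refine ⟨X.take (c k), Q, ?_, ?_, ⟨k, hk, ?_, ?_⟩, ?_⟩
    · rw [hQe, ← List.append_assoc, List.take_append_drop]
    · rw [List.length_take]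
      omega
    · rw [List.length_take]; omega
    · have e : (X.take p0).take (c k) = X.take (c k) := by
        rw [List.take_take, min_eq_left hck]
      rw [← e]; exact hlam
    · unfold R2
      rw [dif_pos]
      · rfl
      · refine ⟨_, k, hk, hbad, ?_, X.length - c k, β, hend, ?_, ?_, rfl⟩
        · intro k' hk' hb'
          by_contra hne
          exact hns ⟨k', hk', hne, hb'⟩
        · rw [hQp]; exact hβ
        · rw [hQ2]; exact hX2

end scheme2

end Crest.Agent.R320.Blk163539
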