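import Mathlib
import Crest.Agent.R320.Exact_355

/-!
Row 320, helper46: the two schemes in block form (left-looking walls, natural chain rule, 852 #13483,
693 #13203, 118's one-token form), for any wall-free gadget of scheme 1 whose bad totals are thin.
Output = `s1`, `s2`, `cc` of 163's `Top5`.
-/

set_option autoImplicit false
set_option linter.unusedSectionVars false

namespace Crest.Agent.R320.Blk2_46

variable {α : Type*}

/-- chain data -/
structure Ch (α : Type*) where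
  Wo : List α → Prop
  no : ℕ
  p : ℕ
  q : ℕ
  N1 : ℕ
  loc : ∀ P Q : List α, no ≤ Q.length → (Wo (P ++ Q) ↔ Wo Q)
  qn : no ≤ q

/-- least length of a block -/
def Ch.z (C : Ch α) : ℕ := C.p + C.q + C.N1

/-- the blocks -/
def Ch.XX (C : Ch α) : Set (List α) :=
  {X | C.Wo X ∧ C.z ≤ X.length ∧ ∀ t < X.length, C.z ≤ t → ¬ C.Wo (X.take t)}

/-- right parts of scheme 1 -/
def Ch.RB (C : Ch α) : Set (List α) :=
  {Q | C.q + C.N1 ≤ Q.length ∧ C.Wo Q ∧ ∀ y < Q.length, C.q ≤ y → ¬ C.Wo (Q.take y)}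

/-- wall band -/
def Ch.E (C : Ch α) (X : List α) : Prop :=
  X.length < C.z + C.N1 ∨ ∃ t < X.length, C.p + C.q ≤ t ∧ C.Wo (X.take t)

variable {C : Ch α}

theorem wo_take {P Q : List α} {t : ℕ} (h1 : P.length + C.no ≤ t) (h2 : t ≤ (P ++ Q).length) :
    C.Wo ((P ++ Q).take t) ↔ C.Wo (Q.take (t - P.length)) := by
  rw [List.length_append] at h2
  rw [List.take_append, List.take_of_length_le (by omega)]
  exact C.loc P _ (by rw [List.length_take]; omega)

theorem pcode {X Y : List α} (hX : X ∈ C.XX) (hY : X ++ Y ∈ C.XX) : Y = [] := by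
  by_contra hne
  have hpos : 0 < Y.length := List.length_pos_iff.2 hne
  refine hY.2.2 X.length (by rw [List.length_append]; omega) hX.2.1 ?_
  rw [List.take_left']
  · exact hX.1
  · rfl

theorem XX_of_RB {P Q : List α} (h1 : C.p ≤ P.length) (h2 : P.length ≤ C.p + C.N1)
    (hQ : Q ∈ C.RB) : P ++ Q ∈ C.XX := by
  obtain ⟨a1, a2, a3⟩ := hQ
  have hqn := C.qn
  refine ⟨(C.loc P Q (by omega)).2 a2, ?_, ?_⟩
  · rw [List.length_append]; unfold Ch.z; omega
  · intro t ht hz hw
    unfold Ch.z at hz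
    rw [wo_take (by omega) (by omega)] at hw
    rw [List.length_append] at ht
    exact a3 (t - P.length) (by omega) (by omega) hw

theorem RB_of_XX {P Q : List α} (h1 : C.p ≤ P.length) (h2 : P.length ≤ C.p + C.N1)
    (hX : P ++ Q ∈ C.XX) (hE : ¬ C.E (P ++ Q)) : Q ∈ C.RB := by
  obtain ⟨a1, a2, a3⟩ := hX
  have hqn := C.qn
  unfold Ch.E at hE
  push Not at hE
  obtain ⟨e1, e2⟩ := hE
  have hl : (P ++ Q).length = P.length + Q.length := List.length_append
  unfold Ch.z at e1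
  refine ⟨by omega, (C.loc P Q (by omega)).1 a1, ?_⟩
  intro y hy hqy hw
  refine e2 (P.length + y) (by omega) (by omega) ?_
  rw [wo_take (by omega) (by omega), Nat.add_sub_cancel_left]
  exact hw

/-! ### Views with doubt about the anchor -/

/-- `y` is a stop for the hypothesis `c` -/
def Ch.st (C : Ch α) (c : ℕ) (Q : List α) (y : ℕ) : Prop :=
  C.Wo (Q.take y) ∧ C.no ≤ y ∧ C.z ≤ c + y

/-- first stop -/
def Ch.fs (C : Ch α) (c : ℕ) (Q : List α) (b : ℕ) : Prop :=
  b ≤ Q.length ∧ C.st c Q b ∧ ∀ y < b, ¬ C.st c Q y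

/-- bad blocks -/
def Ch.Bad (C : Ch α) (GN : ℕ → Prop) (X : List α) : Prop :=
  C.E X ∨ ¬ GN (X.length - C.p)

/-- badness from the place `c` -/
def Ch.badQ (C : Ch α) (GN : ℕ → Prop) (c : ℕ) (R : List α) : Prop :=
  (c + R.length < C.z + C.N1 ∨
    ∃ y < R.length, C.p + C.q ≤ c + y ∧ C.no ≤ y ∧ C.Wo (R.take y)) ∨
    ¬ GN (c + R.length - C.p)

theorem bad_iff {GN : ℕ → Prop} {P R : List α} (hP : P.length ≤ C.p) :
    C.Bad GN (P ++ R) ↔ C.badQ GN P.length R := by
  unfold Ch.Bad Ch.badQ Ch.E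
  have hqn := C.qn
  rw [List.length_append]
  refine or_congr (or_congr Iff.rfl ?_) Iff.rfl
  constructor
  · rintro ⟨t, h1, h2, h3⟩
    rw [wo_take (by omega) (by rw [List.length_append]; omega)] at h3
    exact ⟨t - P.length, by omega, by omega, by omega, h3⟩
  · rintro ⟨y, h1, h2, h3, h4⟩
    refine ⟨P.length + y, by omega, by omega, ?_⟩
    rw [wo_take (by omega) (by rw [List.length_append]; omega), Nat.add_sub_cancel_left]
    exact h4

theorem XX_iff {P R : List α} (hP : P.length ≤ C.p) :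
    P ++ R ∈ C.XX ↔ C.fs P.length R R.length := by
  have hqn := C.qn
  constructor
  · rintro ⟨h1, h2, h3⟩
    rw [List.length_append] at h2 h3
    have h2' := h2
    unfold Ch.z at h2'
    refine ⟨le_rfl, ⟨?_, by omega, h2⟩, ?_⟩
    · rw [List.take_length]
      exact (C.loc P R (by omega)).1 h1
    · rintro y hy ⟨a1, a2, a3⟩
      refine h3 (P.length + y) (by omega) (by omega) ?_
      rw [wo_take (by omega) (by rw [List.length_append]; omega), Nat.add_sub_cancel_left]
      exact a1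
  · rintro ⟨-, ⟨h1, h2, h3⟩, h4⟩
    rw [List.take_length] at h1
    refine ⟨(C.loc P R h2).2 h1, by rw [List.length_append]; exact h3, ?_⟩
    rintro t ht a1 a2
    rw [List.length_append] at ht
    have a1' := a1
    unfold Ch.z at a1'
    rw [wo_take (by omega) (by rw [List.length_append]; omega)] at a2
    exact h4 (t - P.length) (by omega) ⟨a2, by omega, by omega⟩

theorem st_ext {c y : ℕ} {Q T : List α} (hy : y ≤ Q.length) :
    C.st c (Q ++ T) y ↔ C.st c Q y := by
  unfold Ch.st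
  rw [List.take_append_of_le_length hy]

theorem fs_ext {c b : ℕ} {Q T : List α} (h : C.fs c Q b) : C.fs c (Q ++ T) b := by
  obtain ⟨h1, h2, h3⟩ := h
  refine ⟨by rw [List.length_append]; omega, (st_ext h1).2 h2, fun y hy => ?_⟩
  rw [st_ext (by omega)]
  exact h3 y hy

theorem fs_unique {c b b' : ℕ} {Q : List α} (h : C.fs c Q b) (h' : C.fs c Q b') : b = b' := by
  obtain ⟨-, h2, h3⟩ := h
  obtain ⟨-, h2', h3'⟩ := h'
  rcases lt_trichotomy b b' with hlt | heq | hgt
  · exact absurd h2 (h3' b hlt)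
  · exact heq
  · exact absurd h2' (h3 b' hgt)

theorem fs_take {c b : ℕ} {Q : List α} (h : C.fs c Q b) : C.fs c (Q.take b) b := by
  obtain ⟨h1, h2, h3⟩ := h
  have hl : (Q.take b).length = b := by rw [List.length_take]; omega
  refine ⟨by omega, ?_, ?_⟩
  · obtain ⟨a1, a2, a3⟩ := h2
    refine ⟨?_, a2, a3⟩
    rw [List.take_take, min_self]
    exact a1
  · rintro y hy ⟨a1, a2, a3⟩
    refine h3 y hy ⟨?_, a2, a3⟩
    rwa [List.take_take, min_eq_left hy.le] at a1

theorem fs_exists {c : ℕ} {Q : List α} {y : ℕ} (hy : y ≤ Q.length) (h : C.st c Q y) :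
    ∃ b, C.fs c Q b := by
  classical
  have hex : ∃ y, C.st c Q y := ⟨y, h⟩
  refine ⟨Nat.find hex, ?_, Nat.find_spec hex, fun y hy => Nat.find_min hex hy⟩
  exact (Nat.find_min' hex h).trans hy

/-! ### The spoiling count -/

/-- ruler data -/
structure Rul (C : Ch α) (GN : ℕ → Prop) where
  kk : ℕ
  c : ℕ → ℕ
  L : ℕ
  C0 : ℕ
  cL : ∀ j < kk, c j ≤ L
  Lp : L ≤ C.p
  res : ∀ j l p q, j < kk → l < kk → p < kk → q < kk → j ≠ l →
    |((c j : ℤ) - c l) - ((c p : ℤ) - c q)| < 2 * C.N1 → j = p ∧ l = q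
  thin : ∀ n0 : ℤ, ∀ s : Finset ℕ, (∀ j ∈ s, j < kk ∧ ∃ j' < kk, j' ≠ j ∧
    ∃ n : ℕ, (n : ℤ) = n0 + c j' - c j ∧ ¬ GN n) → s.card ≤ C0
  sep : ∀ (T : List α) (t1 t2 : ℕ), t1 < t2 → t2 ≤ T.length → C.Wo (T.take t1) →
    C.Wo (T.take t2) → t1 + 2 * L + 2 * C.N1 < t2
  zL : 2 * L + C.no ≤ C.z

variable {GN : ℕ → Prop}

/-- a place spoiled by another candidate -/
def Rul.Sp (R : Rul C GN) (T : List α) (j j' : ℕ) : Prop :=
  j' ≠ j ∧ ∃ b, C.fs (R.c j') (T.drop (R.c j)) b ∧
    C.badQ GN (R.c j') ((T.drop (R.c j)).take b)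

theorem wo_drop {T : List α} {c y : ℕ} (hc : c + y ≤ T.length) (hy : C.no ≤ y) :
    C.Wo ((T.drop c).take y) ↔ C.Wo (T.take (c + y)) := by
  have h : T.take (c + y) = T.take c ++ (T.drop c).take y := by
    rw [List.take_add]
  rw [h]
  exact (C.loc _ _ (by rw [List.length_take, List.length_drop]; omega)).symm

/-- the end wall of a candidate -/
theorem end_wall (R : Rul C GN) {T : List α} {j j' b : ℕ} (hj : j < R.kk) (hj' : j' < R.kk)
    (hcT : R.c j ≤ T.length) (h : C.fs (R.c j') (T.drop (R.c j)) b) :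
    R.c j + b ≤ T.length ∧ C.Wo (T.take (R.c j + b)) ∧ C.z ≤ R.c j' + b ∧ C.no ≤ b ∧
      ∀ u < R.c j + b, C.Wo (T.take u) → u + R.c j' < C.z + R.c j := by
  obtain ⟨h1, ⟨h2, h3, h4⟩, h5⟩ := h
  rw [List.length_drop] at h1
  refine ⟨by omega, (wo_drop (by omega) h3).1 h2, h4, h3, ?_⟩
  intro u hu hw
  by_contra hc
  have a1 := R.cL j hj
  have a2 := R.cL j' hj'
  have a3 := R.zL
  have hy : C.no ≤ u - R.c j := by omega
  refine h5 (u - R.c j) (by omega) ⟨?_, hy, by omega⟩
  rw [wo_drop (by omega) hy, show R.c j + (u - R.c j) = u by omega]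
  exact hw

theorem spoil (R : Rul C GN) {T : List α} (s : Finset ℕ)
    (hs : ∀ j ∈ s, j < R.kk ∧ R.c j ≤ T.length ∧ ∃ j' < R.kk, R.Sp T j j') :
    s.card ≤ 1 + 2 * R.C0 := by
  classical
  -- the three kinds
  let PE : ℕ → Prop := fun j => ∃ j' < R.kk, j' ≠ j ∧ ∃ u, u ≤ T.length ∧ C.Wo (T.take u) ∧
    C.p + C.q + R.c j ≤ u + R.c j' ∧ u + R.c j' < C.z + C.N1 + R.c j
  let PB : ℕ → ℕ → ℕ → Prop := fun j j' t => j' ≠ j ∧ t ≤ T.length ∧ C.Wo (T.take t) ∧
    C.z + R.c j ≤ t + R.c j' ∧ (∀ u < t, C.Wo (T.take u) → u + R.c j' < C.z + R.c j) ∧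
    ¬ GN (t + R.c j' - R.c j - C.p)
  let P1 : ℕ → Prop := fun j => ∃ j' < R.kk, ∃ t, PB j j' t ∧ t < C.z + R.L
  let P2 : ℕ → Prop := fun j => ∃ j' < R.kk, ∃ t, PB j j' t ∧ C.z + R.L ≤ t
  have hcov : s ⊆ s.filter PE ∪ (s.filter P1 ∪ s.filter P2) := by
    intro j hj
    obtain ⟨hjk, hjT, j', hj'k, hne, b, hb, hbad⟩ := hs j hj
    obtain ⟨w1, w2, w3, w4, w5⟩ := end_wall R hjk hj'k hjT hb
    have hlt : ((T.drop (R.c j)).take b).length = b := by
      rw [List.length_take, List.length_drop]; omega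
    have hz : C.z = C.p + C.q + C.N1 := rfl
    rcases hbad with (h1 | ⟨y, h1, h2, h3, h4⟩) | h1
    · refine Finset.mem_union_left _ (Finset.mem_filter.2 ⟨hj, j', hj'k, hne, R.c j + b, w1, w2,
        by omega, by omega⟩)
    · rw [hlt] at h1
      rw [List.take_take, min_eq_left h1.le] at h4
      have h5 := (wo_drop (by omega) h3).1 h4
      have h6 := w5 (R.c j + y) (by omega) h5
      exact Finset.mem_union_left _ (Finset.mem_filter.2 ⟨hj, j', hj'k, hne, R.c j + y, by omega,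
        h5, by omega, by omega⟩)
    · have hPB : PB j j' (R.c j + b) := by
        refine ⟨hne, w1, w2, by omega, w5, ?_⟩
        rw [hlt] at h1
        rwa [show R.c j + b + R.c j' - R.c j - C.p = R.c j' + b - C.p by omega]
      refine Finset.mem_union_right _ ?_
      by_cases hside : R.c j + b < C.z + R.L
      · exact Finset.mem_union_left _ (Finset.mem_filter.2 ⟨hj, j', hj'k, _, hPB, hside⟩)
      · exact Finset.mem_union_right _ (Finset.mem_filter.2 ⟨hj, j', hj'k, _, hPB, by omega⟩)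
  have c1 : (s.filter PE).card ≤ 1 := by
    rw [Finset.card_le_one]
    intro j1 h1 j2 h2
    obtain ⟨hj1, j1', hj1', hne1, u1, a1, b1, c1, d1⟩ := Finset.mem_filter.1 h1
    obtain ⟨hj2, j2', hj2', hne2, u2, a2, b2, c2, d2⟩ := Finset.mem_filter.1 h2
    have k1 := (hs j1 hj1).1
    have k2 := (hs j2 hj2).1
    have l1 := R.cL j1 k1
    have l2 := R.cL j2 k2
    have l1' := R.cL j1' hj1'
    have l2' := R.cL j2' hj2'
    have hz : C.z = C.p + C.q + C.N1 := rfl
    have hu : u1 = u2 := by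
      rcases lt_trichotomy u1 u2 with hlt | heq | hgt
      · have := R.sep T u1 u2 hlt a2 b1 b2
        omega
      · exact heq
      · have := R.sep T u2 u1 hgt a1 b2 b1
        omega
    subst hu
    have hr : |((R.c j1' : ℤ) - R.c j1) - ((R.c j2' : ℤ) - R.c j2)| < 2 * C.N1 := by
      rw [abs_lt]
      constructor <;> omega
    exact (R.res j1' j1 j2' j2 hj1' k1 hj2' k2 hne1 hr).2
  have key : ∀ (S' : Finset ℕ) (t : ℕ), S' ⊆ s →
      (∀ j ∈ S', ∃ j' < R.kk, PB j j' t) → S'.card ≤ R.C0 := by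
    intro S' t hS hP
    refine R.thin ((t : ℤ) - C.p) _ ?_
    intro j hj
    obtain ⟨j', hj', hne, hpb⟩ := hP j hj
    have k1 := (hs j (hS hj)).1
    have l1 := R.cL j k1
    have l1' := R.cL j' hj'
    have hz : C.z = C.p + C.q + C.N1 := rfl
    obtain ⟨h1, h2, h3, h4, h5⟩ := hpb
    refine ⟨k1, j', hj', hne, t + R.c j' - R.c j - C.p, by omega, h5⟩
  have c2 : (s.filter P1).card ≤ R.C0 := by
    rcases (s.filter P1).eq_empty_or_nonempty with he | ⟨j0, hj0⟩
    · rw [he]; simp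
    obtain ⟨hj0s, j0', hj0', t, hpb0, hside0⟩ := Finset.mem_filter.1 hj0
    refine key _ t (Finset.filter_subset _ _) ?_
    intro j hj
    obtain ⟨hjs, j', hj', t', hpb, hside⟩ := Finset.mem_filter.1 hj
    have k1 := (hs j hjs).1
    have k0 := (hs j0 hj0s).1
    have l1 := R.cL j k1
    have l1' := R.cL j' hj'
    have l0 := R.cL j0 k0
    have l0' := R.cL j0' hj0'
    have ht : t' = t := by
      obtain ⟨-, x1, x2, x3, -, -⟩ := hpb
      obtain ⟨-, y1, y2, y3, -, -⟩ := hpb0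
      rcases lt_trichotomy t t' with hlt | heq | hgt
      · have := R.sep T t t' hlt x1 y2 x2
        omega
      · exact heq.symm
      · have := R.sep T t' t hgt y1 x2 y2
        omega
    subst ht
    exact ⟨j', hj', hpb⟩
  have c3 : (s.filter P2).card ≤ R.C0 := by
    rcases (s.filter P2).eq_empty_or_nonempty with he | ⟨j0, hj0⟩
    · rw [he]; simp
    obtain ⟨hj0s, j0', hj0', t, hpb0, hside0⟩ := Finset.mem_filter.1 hj0
    refine key _ t (Finset.filter_subset _ _) ?_
    intro j hj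
    obtain ⟨hjs, j', hj', t', hpb, hside⟩ := Finset.mem_filter.1 hj
    have k1 := (hs j hjs).1
    have k0 := (hs j0 hj0s).1
    have l1 := R.cL j k1
    have l1' := R.cL j' hj'
    have l0 := R.cL j0 k0
    have l0' := R.cL j0' hj0'
    have ht : t' = t := by
      obtain ⟨-, x1, x2, x3, x4, -⟩ := hpb
      obtain ⟨-, y1, y2, y3, y4, -⟩ := hpb0
      rcases lt_trichotomy t t' with hlt | heq | hgt
      · have := x4 t hlt y2
        omega
      · exact heq.symm
      · have := y4 t' hgt x2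
        omega
    subst ht
    exact ⟨j', hj', hpb⟩
  have h1 := Finset.card_le_card hcov
  have h2 := Finset.card_union_le (s.filter PE) (s.filter P1 ∪ s.filter P2)
  have h3 := Finset.card_union_le (s.filter P1) (s.filter P2)
  omega

end Crest.Agent.R320.Blk2_46
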