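import Crest.Agent.R320.Blk163_539

/-!
# Row 320: the spoiling hypothesis of `Blk163_539.cc` from the wall gap and thinness (helper539)
-/

set_option autoImplicit false
set_option linter.unusedSectionVars false

namespace Crest.Agent.R320.Blk2539

open Crest.Agent.R320.Blk163539

variable {α S V : Type} [Monoid S] [AddCommGroup V] {L : LRule α} {z p0 : ℕ} {φ : List α → S}
  {act : V → S → V} {g : G1 φ act} {K : ℕ} {c : ℕ → ℕ}

/-- walls of `Z` further than `n` letters from its start -/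
def WP (L : LRule α) (Z : List α) (u : ℕ) : Prop := u ≤ Z.length ∧ L.W (Z.take u)

theorem W_shift (Z : List α) {s t : ℕ} (_hs : s ≤ Z.length) (ht : L.n ≤ t)
    (ht2 : t ≤ (Z.drop s).length) : L.W ((Z.drop s).take t) ↔ L.W (Z.take (s + t)) := by
  rw [List.take_add, L.loc _ _ (by rw [List.length_take]; omega)]

/-- the three kinds of spoiling events -/
theorem events {Z : List α} (hz : 3 * p0 + g.N1 + L.n ≤ z) (hc : ∀ k < K, c k ≤ p0)
    (hZ : p0 ≤ Z.length) {k k' : ℕ} (hk : k < K) (hk' : k' < K)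
    (h : BadQ L z p0 φ act g c (Z.drop (c k)) k') :
    (∃ u, WP L Z u ∧ z + c k ≤ u + c k' + g.N1 ∧ u + c k' ≤ z + c k + g.N1) ∨
    (∃ u, WP L Z u ∧ z + c k ≤ u + c k' ∧ (∀ u', z + c k ≤ u' + c k' → u' < u → ¬ WP L Z u') ∧
      g.BadT ((u - p0) + c k' - c k)) := by
  have h1 := hc k hk
  have h2 := hc k' hk'
  have hdl : (Z.drop (c k)).length = Z.length - c k := List.length_drop
  obtain ⟨t, ⟨e1, e2, e3, e4⟩, h⟩ := h
  have hWt : WP L Z (c k + t) := ⟨by omega, (W_shift Z (by omega) (by omega) e2).1 e3⟩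
  rcases h with h | ⟨t', a1, a2, a3, a4⟩ | h
  · left
    exact ⟨c k + t, hWt, by omega, by omega⟩
  · left
    exact ⟨c k + t', ⟨by omega, (W_shift Z (by omega) (by omega) a3).1 a4⟩, by omega, by omega⟩
  · right
    refine ⟨c k + t, hWt, by omega, ?_, ?_⟩
    · intro u' hu1 hu2 hW
      refine e4 (u' - c k) (by omega) (by omega) ?_
      rw [W_shift Z (by omega) (by omega) (by omega)]
      have e : c k + (u' - c k) = u' := by omega
      rw [e]; exact hW.2
    · have e : (c k + t - p0) + c k' - c k = t + c k' - p0 := by omega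
      rw [e]; exact h

/-- **spoiling count** -/
theorem spoil_of_thin (hz : 3 * p0 + g.N1 + L.n ≤ z) (hc : ∀ k < K, c k ≤ p0)
    (hgap : ∀ (Z : List α) (u u' : ℕ), L.n ≤ u → WP L Z u → WP L Z u' → u < u' →
      2 * (p0 + g.N1) < u' - u)
    (hwide : ∀ a b a' b' : ℕ, a < K → b < K → a' < K → b' < K → a ≠ b → a' ≠ b' →
      c a + c b' ≤ c b + c a' + 2 * g.N1 → c b + c a' ≤ c a + c b' + 2 * g.N1 → a = a')
    (C1 : ℕ)
    (hthin : ∀ T, (∀ i < K, c i ≤ T) → ∀ J : Finset ℕ,
      (∀ k ∈ J, k < K ∧ ∃ k' < K, k' ≠ k ∧ g.BadT (T + c k' - c k)) → J.card ≤ C1)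
    (Z : List α) (hZ : p0 ≤ Z.length) (J : Finset ℕ)
    (hJ : ∀ k ∈ J, k < K ∧ ∃ k' < K, k' ≠ k ∧ BadQ L z p0 φ act g c (Z.drop (c k)) k') :
    J.card ≤ 1 + 2 * C1 := by
  classical
  let JE := J.filter fun k => ∃ k' < K, k' ≠ k ∧
    ∃ u, WP L Z u ∧ z + c k ≤ u + c k' + g.N1 ∧ u + c k' ≤ z + c k + g.N1
  let J1 := J.filter fun k => ∃ k' < K, k' ≠ k ∧ ∃ u, WP L Z u ∧ z + c k ≤ u + c k' ∧
    u ≤ z + p0 ∧ g.BadT ((u - p0) + c k' - c k)
  let J2 := J.filter fun k => ∃ k' < K, k' ≠ k ∧ ∃ u, WP L Z u ∧ z + c k ≤ u + c k' ∧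
    z + p0 < u ∧ (∀ u', z + p0 ≤ u' → u' < u → ¬ WP L Z u') ∧ g.BadT ((u - p0) + c k' - c k)
  have hsub : J ⊆ JE ∪ (J1 ∪ J2) := by
    intro k hkJ
    obtain ⟨hk, k', hk', hne, hb⟩ := hJ k hkJ
    have h1 := hc k hk
    have h2 := hc k' hk'
    rcases events (by omega) hc hZ hk hk' hb with ⟨u, a1, a2, a3⟩ | ⟨u, a1, a2, a3, a4⟩
    · exact Finset.mem_union_left _ (Finset.mem_filter.2 ⟨hkJ, k', hk', hne, u, a1, a2, a3⟩)
    · apply Finset.mem_union_right
      by_cases hu : u ≤ z + p0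
      · exact Finset.mem_union_left _
          (Finset.mem_filter.2 ⟨hkJ, k', hk', hne, u, a1, a2, hu, a4⟩)
      · refine Finset.mem_union_right _
          (Finset.mem_filter.2 ⟨hkJ, k', hk', hne, u, a1, a2, by omega, ?_, a4⟩)
        intro u' b1 b2 b3
        exact a3 u' (by omega) b2 b3
  have cE : JE.card ≤ 1 := by
    rw [Finset.card_le_one]
    intro k hk l hl
    obtain ⟨hkJ, k', hk', hne, u, a1, a2, a3⟩ := Finset.mem_filter.1 hk
    obtain ⟨hlJ, l', hl', hne', u', b1, b2, b3⟩ := Finset.mem_filter.1 hl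
    have hkK := (hJ k hkJ).1
    have hlK := (hJ l hlJ).1
    have := hc k hkK
    have := hc k' hk'
    have := hc l hlK
    have := hc l' hl'
    have huu : u = u' := by
      rcases lt_trichotomy u u' with hlt | heq | hgt
      · have := hgap Z u u' (by omega) a1 b1 hlt
        omega
      · exact heq
      · have := hgap Z u' u (by omega) b1 a1 hgt
        omega
    subst huu
    exact hwide k k' l l' hkK hk' hlK hl' hne.symm hne'.symm (by omega) (by omega)
  have c1 : J1.card ≤ C1 := by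
    by_cases hne : J1 = ∅
    · rw [hne]; exact Nat.zero_le _
    obtain ⟨k0, hk0⟩ := Finset.nonempty_iff_ne_empty.2 hne
    obtain ⟨hk0J, k0', hk0', -, u0, a1, a2, a3, -⟩ := Finset.mem_filter.1 hk0
    have hk0K := (hJ k0 hk0J).1
    have h01 := hc k0 hk0K
    have h02 := hc k0' hk0'
    apply hthin (u0 - p0)
    · intro i hi
      have := hc i hi
      omega
    · intro k hk
      obtain ⟨hkJ, k', hk', hne', u, b1, b2, b3, b4⟩ := Finset.mem_filter.1 hk
      have hkK := (hJ k hkJ).1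
      have := hc k hkK
      have := hc k' hk'
      have huu : u = u0 := by
        rcases lt_trichotomy u u0 with hlt | heq | hgt
        · have := hgap Z u u0 (by omega) b1 a1 hlt
          omega
        · exact heq
        · have := hgap Z u0 u (by omega) a1 b1 hgt
          omega
      subst huu
      exact ⟨hkK, k', hk', hne', b4⟩
  have c2 : J2.card ≤ C1 := by
    by_cases hne : J2 = ∅
    · rw [hne]; exact Nat.zero_le _
    obtain ⟨k0, hk0⟩ := Finset.nonempty_iff_ne_empty.2 hne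
    obtain ⟨hk0J, k0', hk0', -, u0, a1, a2, a3, a4, -⟩ := Finset.mem_filter.1 hk0
    have hk0K := (hJ k0 hk0J).1
    apply hthin (u0 - p0)
    · intro i hi
      have := hc i hi
      omega
    · intro k hk
      obtain ⟨hkJ, k', hk', hne', u, b1, b2, b3, b4, b5⟩ := Finset.mem_filter.1 hk
      have hkK := (hJ k hkJ).1
      have huu : u = u0 := by
        rcases lt_trichotomy u u0 with hlt | heq | hgt
        · exact (a4 u (by omega) hlt b1).elim
        · exact heq
        · exact (b4 u0 (by omega) hgt a1).elim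
      subst huu
      exact ⟨hkK, k', hk', hne', b5⟩
  have h1 := Finset.card_le_card hsub
  have h2 := Finset.card_union_le JE (J1 ∪ J2)
  have h3 := Finset.card_union_le J1 J2
  omega

end Crest.Agent.R320.Blk2539
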