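import Mathlib
import Crest.Agent.R320.Sch2_606

/-!
Row 320, G3 (SC2 + CP2 of 131 #13123): scheme 2 in buffer form.

On words `y` of length `Bm` read from an anchor: `N y = p0 + NY (y.drop p0)`,
`Bad y ↔ BY (y.drop p0)`, `zm y v = mapY (y.drop p0) (act v (phi (y.take p0)) + nu2 (y.take p0))`.
-/

set_option autoImplicit false
set_option linter.unusedSectionVars false

namespace Crest.Agent.R320.Sc2_606

open Finset Crest.Agent.R320.ExactR_237 Crest.Agent.R320.Sch2_606

section

variable {A S V : Type} [Monoid S] [AddCommGroup V]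
variable {f : A → S} {act : V → S → V} {K R : ℕ} {c : ℕ → ℕ}
  {lam : ℕ → List A → Option V} {rho : ℕ → List A → S → Option V} {nu : List A → S → V}

/-- left legality of scheme 2. -/
def L2 (K : ℕ) (c : ℕ → ℕ) (lam : ℕ → List A → Option V) (u : List A) (v : V) : Prop :=
  ∃ k < K, u.length = c k ∧ lam k u = some v

/-- the bad predicate read on the text right of the frame point. -/
def BdOf (h : ℕ) (BY : List A → Prop) (Y : List A) : Prop := BY (Y.take h)

open Classical in
/-- right reading of scheme 2. -/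
noncomputable def R2 (K : ℕ) (c : ℕ → ℕ) (p0 h : ℕ) (BY : List A → Prop) (NY : List A → ℕ)
    (mapY : List A → V → V) (rho : ℕ → List A → S → Option V) (Q : List A) : Option (ℕ × V) :=
  if hk : ∃ k, Only K c p0 (BdOf h BY) Q k then
    (rho hk.choose (Q.take (p0 - c hk.choose)) 1).map fun b =>
      (p0 - c hk.choose + NY ((Q.drop (p0 - c hk.choose)).take h),
        mapY ((Q.drop (p0 - c hk.choose)).take h) b)
  else none

theorem R2_eq {p0 h : ℕ} {BY : List A → Prop} {NY : List A → ℕ} {mapY : List A → V → V}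
    {Q : List A} {k : ℕ} (hk : Only K c p0 (BdOf h BY) Q k) :
    R2 K c p0 h BY NY mapY rho Q = (rho k (Q.take (p0 - c k)) 1).map fun b =>
      (p0 - c k + NY ((Q.drop (p0 - c k)).take h), mapY ((Q.drop (p0 - c k)).take h) b) := by
  have h' : ∃ k, Only K c p0 (BdOf h BY) Q k := ⟨k, hk⟩
  unfold R2
  rw [dif_pos h']
  have : h'.choose = k := hk.2.2 _ h'.choose_spec.1 h'.choose_spec.2.1
  rw [this]

theorem R2_some {p0 h : ℕ} {BY : List A → Prop} {NY : List A → ℕ} {mapY : List A → V → V}
    {Q : List A} {d : ℕ} {b : V} (hr : R2 K c p0 h BY NY mapY rho Q = some (d, b)) :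
    ∃ k b', Only K c p0 (BdOf h BY) Q k ∧ rho k (Q.take (p0 - c k)) 1 = some b' ∧
      d = p0 - c k + NY ((Q.drop (p0 - c k)).take h) ∧
      b = mapY ((Q.drop (p0 - c k)).take h) b' := by
  by_cases hk : ∃ k, Only K c p0 (BdOf h BY) Q k
  · obtain ⟨k, hk⟩ := hk
    rw [R2_eq hk] at hr
    cases hb : rho k (Q.take (p0 - c k)) 1 with
    | none => rw [hb] at hr; simp at hr
    | some b' =>
      rw [hb, Option.map_some, Option.some.injEq, Prod.mk.injEq] at hr
      exact ⟨k, b', hk, hb, hr.1.symm, hr.2.symm⟩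
  · unfold R2 at hr
    rw [dif_neg hk] at hr
    simp at hr

/-- **SC2** (no hypothesis on the class): `Bm = p0 + h`. -/
theorem sc2 {Bm p0 h : ℕ} (hBm : Bm = p0 + h) (hp0 : ∀ k < K, c k ≤ p0)
    (hG : Gad f act K R c lam rho nu) {BY : List A → Prop} {NY : List A → ℕ}
    {mapY : List A → V → V} {u r : List A} {v b : V} {d : ℕ}
    (hl : L2 K c lam u v) (hr : R2 K c p0 h BY NY mapY rho r = some (d, b))
    (hbad : BY (((u ++ r).take Bm).drop p0)) :
    p0 + NY (((u ++ r).take Bm).drop p0) = u.length + d ∧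
      mapY (((u ++ r).take Bm).drop p0)
        (act v (pr f (((u ++ r).take Bm).take p0)) + nu (((u ++ r).take Bm).take p0) 1) = b := by
  obtain ⟨k, hk, hP, hlk⟩ := hl
  obtain ⟨j, b', hj, hrj, hd, hb⟩ := R2_some hr
  have hpk := hp0 k hk
  have hdrop : ((u ++ r).take Bm).drop p0 = (r.drop (p0 - c k)).take h := by
    have h1 : p0 = u.length + (p0 - c k) := by omega
    rw [List.drop_take]
    have h2 : Bm - p0 = h := by omega
    rw [h2]
    congr 1
    conv_lhs => rw [h1]
    rw [List.drop_append]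
    simp
  have htake : ((u ++ r).take Bm).take p0 = u ++ r.take (p0 - c k) := by
    rw [List.take_take, min_eq_left (by omega : p0 ≤ Bm)]
    have h1 : p0 = u.length + (p0 - c k) := by omega
    conv_lhs => rw [h1]
    rw [List.take_append]
    simp
  rw [hdrop] at hbad
  have hjk : k = j := hj.2.2 k hk hbad
  subst hjk
  rw [hdrop, htake]
  refine ⟨by omega, ?_⟩
  have := hG.sound k hk u (r.take (p0 - c k)) 1 v b' hP hlk hrj
  rw [mul_one] at this
  rw [← this, hb]

/-- **CP2**: complete at bad anchors with fewer than `R` spoiled places. -/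
theorem cp2 {Bm p0 h q0 D2 : ℕ} (hBm : Bm = p0 + h) (hp0 : ∀ k < K, c k ≤ p0)
    (hq0 : ∀ k < K, q0 ≤ c k)
    (hG : Gad f act K R c lam rho nu) {BY : List A → Prop} {NY : List A → ℕ}
    {mapY : List A → V → V} {t : List A} (hD2 : Bm ≤ D2) (ht : Bm + D2 ≤ t.length)
    (hbad : BY ((t.take Bm).drop p0)) {J : Finset ℕ} (hJ : J.card < R)
    (hspoil : ∀ k < K, (∃ j < K, j ≠ k ∧ BY ((t.drop (c k + (p0 - c j))).take h)) → k ∈ J)
    (v : V) :
    ∃ x, q0 ≤ x ∧ x ≤ p0 ∧ L2 K c lam (t.take x) v ∧
      (R2 K c p0 h BY NY mapY rho ((t.drop x).take D2)).isSome := by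
  have hU : p0 ≤ t.length := by omega
  have hlen : (t.take p0).length = p0 := by rw [List.length_take]; exact min_eq_left hU
  obtain ⟨I, hI, hIk⟩ := hG.complete (t.take p0) 1 v (fun k hk => by rw [hlen]; exact hp0 k hk)
  have : ∃ k ∈ I, k ∉ J := by
    by_contra hcon
    push Not at hcon
    have := Finset.card_le_card (fun k hk => hcon k hk : I ⊆ J)
    omega
  obtain ⟨k, hkI, hkJ⟩ := this
  obtain ⟨hk, hl, hr⟩ := hIk k hkI
  have hpk := hp0 k hk
  have htt : (t.take p0).take (c k) = t.take (c k) := by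
    rw [List.take_take, min_eq_left hpk]
  have htd : (t.take p0).drop (c k) = (t.drop (c k)).take (p0 - c k) := by
    rw [List.drop_take]
  have hlk : (t.take (c k)).length = c k := by
    rw [List.length_take]; exact min_eq_left (hpk.trans hU)
  rw [htt] at hl
  rw [htd] at hr
  -- texts right of the candidates, cut at `D2`
  have hcut : ∀ j < K, (((t.drop (c k)).take D2).drop (p0 - c j)).take h =
      (t.drop (c k + (p0 - c j))).take h := by
    intro j hj
    have := hp0 j hj
    rw [List.drop_take, List.take_take, List.drop_drop]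
    congr 1
    omega
  have hbk : BY ((t.drop (c k + (p0 - c k))).take h) := by
    have h1 : c k + (p0 - c k) = p0 := by omega
    have h2 : (t.take Bm).drop p0 = (t.drop p0).take h := by
      rw [List.drop_take]; congr 1; omega
    rw [h1, ← h2]
    exact hbad
  have honly : Only K c p0 (BdOf h BY) ((t.drop (c k)).take D2) k := by
    refine ⟨hk, ?_, fun j hj hbj => ?_⟩
    · unfold BdOf
      rw [hcut k hk]
      exact hbk
    · by_contra hne
      apply hkJ
      apply hspoil k hk
      refine ⟨j, hj, hne, ?_⟩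
      unfold BdOf at hbj
      rw [hcut j hj] at hbj
      exact hbj
  refine ⟨c k, hq0 k hk, hpk, ⟨k, hk, hlk, hl⟩, ?_⟩
  have htk : ((t.drop (c k)).take D2).take (p0 - c k) = (t.drop (c k)).take (p0 - c k) := by
    rw [List.take_take]; congr 1; omega
  rw [R2_eq honly, htk]
  obtain ⟨b, hb⟩ := Option.isSome_iff_exists.1 hr
  rw [hb]
  rfl

end

end Crest.Agent.R320.Sc2_606
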