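import Mathlib
import Crest.Agent.R320.Sc2_606

/-!
Row 320, P3: scheme 2 (promise ruler) in block form, for the frozen top of 163 (#13363).

`XX` prefix code of blocks, `p0 < |X|`; `YB Y`: `Y` is the rest of a block right of the frame point;
`BadY Y`: the block is bad. A right word `Q` of scheme 2 reaches to the end of the next block.
-/

set_option autoImplicit false
set_option linter.unusedSectionVars false

namespace Crest.Agent.R320.Blk2_606

open Finset Crest.Agent.R320.ExactR_237 Crest.Agent.R320.Sch2_606 Crest.Agent.R320.Sc2_606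

section

variable {A S V : Type} [Monoid S] [AddCommGroup V]
variable {f : A → S} {act : V → S → V} {K R : ℕ} {c : ℕ → ℕ}
  {lam : ℕ → List A → Option V} {rho : ℕ → List A → S → Option V} {nu : List A → S → V}

/-- the text `Y` (right of a frame point) starts with a bad block rest. -/
def BdB (YB BadY : List A → Prop) (Y : List A) : Prop :=
  ∃ Y1, YB Y1 ∧ BadY Y1 ∧ Y1 <+: Y

/-- right legality of scheme 2 in block form: candidate `k`, block rest `Y1`, next block `X2`. -/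
def RL (K : ℕ) (c : ℕ → ℕ) (p0 : ℕ) (XX : Set (List A)) (YB BadY : List A → Prop) (Q : List A)
    (k : ℕ) (Y1 X2 : List A) : Prop :=
  Only K c p0 (BdB YB BadY) Q k ∧ Q.drop (p0 - c k) = Y1 ++ X2 ∧ YB Y1 ∧ X2 ∈ XX ∧
    p0 ≤ Q.length ∧
    ∀ j < K, ∃ Y, YB Y ∧ Y <+: Q.drop (p0 - c j)

/-- the relational right reading. -/
def RR (K : ℕ) (c : ℕ → ℕ) (p0 : ℕ) (XX : Set (List A)) (YB BadY : List A → Prop)
    (T : V → List A → V) (mapY : List A → V → V) (rho : ℕ → List A → S → Option V)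
    (Q : List A) (b : V) : Prop :=
  ∃ k Y1 X2, RL K c p0 XX YB BadY Q k Y1 X2 ∧
    ∃ b', rho k (Q.take (p0 - c k)) 1 = some b' ∧ b = T (mapY Y1 b') X2

open Classical in
/-- right reading as a function. -/
noncomputable def R2B (K : ℕ) (c : ℕ → ℕ) (p0 : ℕ) (XX : Set (List A)) (YB BadY : List A → Prop)
    (T : V → List A → V) (mapY : List A → V → V) (rho : ℕ → List A → S → Option V)
    (Q : List A) : Option V :=
  if h : ∃ b, RR K c p0 XX YB BadY T mapY rho Q b then some h.choose else none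

variable {p0 : ℕ} {XX : Set (List A)} {YB BadY : List A → Prop} {T : V → List A → V}
  {mapY : List A → V → V}

theorem R2B_some {Q : List A} {b : V} (h : R2B K c p0 XX YB BadY T mapY rho Q = some b) :
    RR K c p0 XX YB BadY T mapY rho Q b := by
  unfold R2B at h
  split_ifs at h with h1
  rw [Option.some.injEq] at h
  rw [← h]
  exact h1.choose_spec

theorem R2B_isSome {Q : List A} {b : V} (h : RR K c p0 XX YB BadY T mapY rho Q b) :
    (R2B K c p0 XX YB BadY T mapY rho Q).isSome := by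
  unfold R2B
  rw [dif_pos ⟨b, h⟩]
  rfl

/-- block rests are a prefix code. -/
theorem yb_unique (hPC : ∀ X ∈ XX, ∀ Y, X ++ Y ∈ XX → Y = [])
    (hYB : ∀ X1 Y : List A, X1.length = p0 → (X1 ++ Y ∈ XX ↔ YB Y))
    {X1 Y Y' Z : List A} (hX1 : X1.length = p0) (hY : YB Y) (hY' : YB Y')
    (h1 : Y <+: Z) (h2 : Y' <+: Z) : Y = Y' := by
  rcases List.prefix_or_prefix_of_prefix h1 h2 with h | h
  · obtain ⟨W, rfl⟩ := h
    have ha : X1 ++ Y ∈ XX := (hYB X1 Y hX1).2 hY
    have hb : X1 ++ (Y ++ W) ∈ XX := (hYB X1 _ hX1).2 hY'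
    rw [← List.append_assoc] at hb
    have := hPC _ ha W hb
    rw [this, List.append_nil]
  · obtain ⟨W, rfl⟩ := h
    have ha : X1 ++ Y' ∈ XX := (hYB X1 Y' hX1).2 hY'
    have hb : X1 ++ (Y' ++ W) ∈ XX := (hYB X1 _ hX1).2 hY
    rw [← List.append_assoc] at hb
    have := hPC _ ha W hb
    rw [this, List.append_nil]

/-- **(s2)** of #13363. -/
theorem s2 (hPC : ∀ X ∈ XX, ∀ Y, X ++ Y ∈ XX → Y = [])
    (hlen : ∀ X ∈ XX, p0 < X.length)
    (hYB : ∀ X1 Y : List A, X1.length = p0 → (X1 ++ Y ∈ XX ↔ YB Y))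
    (hT : ∀ X ∈ XX, ∀ v, T v X =
      mapY (X.drop p0) (act v (pr f (X.take p0)) + nu (X.take p0) 1))
    (hp0 : ∀ k < K, c k ≤ p0) (hG : Gad f act K R c lam rho nu)
    (LP1 : List A → V → Prop) (R1 : List A → Option V)
    (hC1 : ∀ X ∈ XX, ¬ BadY (X.drop p0) → ∀ v, ∃ P Q, X = P ++ Q ∧ p0 ≤ P.length ∧ LP1 P v ∧
      (R1 Q).isSome)
    (P : List A) (v : V) (Q : List A) (b : V) (hl : L2 K c lam P v)
    (hr : R2B K c p0 XX YB BadY T mapY rho Q = some b)
    (hun : ∀ X ∈ XX, X <+: P ++ Q → ∀ P' Q', X = P' ++ Q' → P.length ≤ P'.length →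
      LP1 P' v → (R1 Q').isSome → False) :
    ∃ Q1 X2, Q = Q1 ++ X2 ∧ Q1 ≠ [] ∧ P ++ Q1 ∈ XX ∧ X2 ∈ XX ∧ T (T v (P ++ Q1)) X2 = b := by
  obtain ⟨k, hk, hP, hlk⟩ := hl
  obtain ⟨j, Y1, X2, ⟨hj, hsplit, hYB1, hX2, hjl, hvis⟩, b', hb', hb⟩ := R2B_some hr
  have hpk := hp0 k hk
  -- the true frame
  obtain ⟨Yk, hYk, hYkp⟩ := hvis k hk
  have hQl : p0 - c k ≤ Q.length := by omega
  set X1 := P ++ Q.take (p0 - c k) with hX1
  have hX1l : X1.length = p0 := by
    rw [hX1, List.length_append, List.length_take, min_eq_left hQl]; omega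
  have hXX : X1 ++ Yk ∈ XX := (hYB X1 Yk hX1l).2 hYk
  have hpre : X1 ++ Yk <+: P ++ Q := by
    obtain ⟨W, hW⟩ := hYkp
    refine ⟨W, ?_⟩
    rw [hX1, List.append_assoc, List.append_assoc, hW, List.take_append_drop]
  have hdropX : (X1 ++ Yk).drop p0 = Yk := by
    rw [← hX1l, List.drop_left]
  have hbadk : BadY Yk := by
    by_contra hnb
    obtain ⟨P', Q', h1, h2, h3, h4⟩ := hC1 _ hXX (by rw [hdropX]; exact hnb) v
    exact hun _ hXX hpre P' Q' h1 (by omega) h3 h4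
  have hkj : k = j := hj.2.2 k hk ⟨Yk, hYk, hbadk, hYkp⟩
  subst hkj
  have hYeq : Y1 = Yk := by
    apply yb_unique hPC hYB hX1l hYB1 hYk (Z := Q.drop (p0 - c k)) _ hYkp
    rw [hsplit]
    exact List.prefix_append _ _
  subst hYeq
  refine ⟨Q.take (p0 - c k) ++ Y1, X2, ?_, ?_, ?_, hX2, ?_⟩
  · rw [List.append_assoc, ← hsplit, List.take_append_drop]
  · intro hnil
    have h1 := hlen _ hXX
    rw [hX1, List.append_assoc, hnil, List.append_nil] at h1
    omega
  · rw [← List.append_assoc, ← hX1]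
    exact hXX
  · rw [← List.append_assoc, ← hX1, hT _ hXX, hdropX]
    have htk : (X1 ++ Y1).take p0 = X1 := by rw [← hX1l, List.take_left]
    rw [htk]
    have := hG.sound k hk P (Q.take (p0 - c k)) 1 v b' hP hlk hb'
    rw [mul_one] at this
    rw [← this, hb]

/-- **(cc)** of #13363. -/
theorem cc (hlen : ∀ X ∈ XX, p0 < X.length)
    (hYB : ∀ X1 Y : List A, X1.length = p0 → (X1 ++ Y ∈ XX ↔ YB Y))
    (hp0 : ∀ k < K, c k ≤ p0) (hG : Gad f act K R c lam rho nu)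
    (LP1 : List A → V → Prop) (R1 : List A → Option V)
    (hC1 : ∀ X ∈ XX, ¬ BadY (X.drop p0) → ∀ v, ∃ P Q, X = P ++ Q ∧ p0 ≤ P.length ∧ LP1 P v ∧
      (R1 Q).isSome)
    (hV : ∀ X ∈ XX, ∀ X2 ∈ XX, ∀ j < K, ∀ k < K,
      ∃ Y1, YB Y1 ∧ Y1 <+: (X ++ X2).drop (c k + (p0 - c j)))
    (hSP : ∀ X ∈ XX, ∀ X2 ∈ XX, BadY (X.drop p0) → ∃ J : Finset ℕ, J.card < R ∧
      ∀ k < K, (∃ j < K, j ≠ k ∧ ∃ Y1, YB Y1 ∧ BadY Y1 ∧
        Y1 <+: (X ++ X2).drop (c k + (p0 - c j))) → k ∈ J)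
    (X : List A) (hX : X ∈ XX) (X2 : List A) (hX2 : X2 ∈ XX) (v : V) :
    (∃ P Q, X = P ++ Q ∧ LP1 P v ∧ (R1 Q).isSome) ∨
      (∃ P Q, X ++ X2 = P ++ Q ∧ P.length < X.length ∧ L2 K c lam P v ∧
        (R2B K c p0 XX YB BadY T mapY rho Q).isSome) := by
  by_cases hb : BadY (X.drop p0)
  swap
  · obtain ⟨P, Q, h1, -, h2, h3⟩ := hC1 X hX hb v
    exact Or.inl ⟨P, Q, h1, h2, h3⟩
  right
  have hlX := hlen X hX
  have hlX2 := hlen X2 hX2
  obtain ⟨J, hJ, hJk⟩ := hSP X hX X2 hX2 hb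
  have hlt : (X.take p0).length = p0 := by rw [List.length_take]; exact min_eq_left hlX.le
  obtain ⟨I, hI, hIk⟩ := hG.complete (X.take p0) 1 v (fun k hk => by rw [hlt]; exact hp0 k hk)
  have : ∃ k ∈ I, k ∉ J := by
    by_contra hcon
    push Not at hcon
    have := Finset.card_le_card (fun k hk => hcon k hk : I ⊆ J)
    omega
  obtain ⟨k, hkI, hkJ⟩ := this
  obtain ⟨hk, hl, hr⟩ := hIk k hkI
  have hpk := hp0 k hk
  have htt : (X.take p0).take (c k) = X.take (c k) := by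
    rw [List.take_take, min_eq_left hpk]
  have htd : (X.take p0).drop (c k) = (X.drop (c k)).take (p0 - c k) := by
    rw [List.drop_take]
  rw [htt] at hl
  rw [htd] at hr
  have hlk : (X.take (c k)).length = c k := by
    rw [List.length_take]; exact min_eq_left (hpk.trans hlX.le)
  have hdd : (X.drop (c k)).drop (p0 - c k) = X.drop p0 := by
    rw [List.drop_drop]; congr 1; omega
  have hlQ : (X.drop (c k)).length = X.length - c k := List.length_drop ..
  have hQd : ∀ j, (X.drop (c k) ++ X2).drop (p0 - c j) = (X ++ X2).drop (c k + (p0 - c j)) := by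
    intro j
    rw [← List.drop_drop, List.drop_append_of_le_length (hpk.trans hlX.le)]
  have hYX : YB (X.drop p0) := by
    rw [← hYB (X.take p0) (X.drop p0) hlt, List.take_append_drop]
    exact hX
  have hQk : (X.drop (c k) ++ X2).drop (p0 - c k) = X.drop p0 ++ X2 := by
    rw [List.drop_append_of_le_length (by rw [hlQ]; omega), hdd]
  have hQt : (X.drop (c k) ++ X2).take (p0 - c k) = (X.drop (c k)).take (p0 - c k) := by
    rw [List.take_append_of_le_length (by rw [hlQ]; omega)]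
  obtain ⟨b', hb'⟩ := Option.isSome_iff_exists.1 hr
  refine ⟨X.take (c k), X.drop (c k) ++ X2, ?_, ?_, ⟨k, hk, hlk, hl⟩, ?_⟩
  · rw [← List.append_assoc, List.take_append_drop]
  · rw [hlk]; omega
  · refine R2B_isSome (b := T (mapY (X.drop p0) b') X2) ⟨k, X.drop p0, X2, ⟨⟨hk, ?_, ?_⟩, hQk, hYX,
      hX2, ?_, ?_⟩, b', ?_, rfl⟩
    · refine ⟨X.drop p0, hYX, hb, ?_⟩
      rw [hQk]
      exact List.prefix_append _ _
    · intro j hj hbj
      by_contra hne
      apply hkJ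
      apply hJk k hk
      refine ⟨j, hj, hne, ?_⟩
      obtain ⟨Y1, h1, h2, h3⟩ := hbj
      rw [hQd j] at h3
      exact ⟨Y1, h1, h2, h3⟩
    · rw [List.length_append]; omega
    · intro j hj
      obtain ⟨Y1, h1, h2⟩ := hV X hX X2 hX2 j hj k hk
      rw [← hQd j] at h2
      exact ⟨Y1, h1, h2⟩
    · rw [hQt]; exact hb'

end

end Crest.Agent.R320.Blk2_606
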