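import Mathlib

/-!
# Row 320: block glue for a wall free zone gadget (693 #13203), natural chain rule, in the literal
form of 163's `top` (helper780)

Left looking outer walls, blocks `XX` = words ending in the first wall at a place `≥ z`.
Scheme 1 = zone gadget `G1` on `X.drop p0`; scheme 2 = exact gadget `G2` on `X.take p0` with the
places `C` (a ruler).  Output: `s1`, `s2`, `cc` of 163 #13363.
-/

set_option autoImplicit false

namespace Crest.Agent.R320.Blk2_780

variable {α V S : Type*}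

/-- left looking walls -/
structure Wall (Wo : List α → Prop) (n W : ℕ) : Prop where
  loc : ∀ P Q : List α, n ≤ Q.length → (Wo (P ++ Q) ↔ Wo Q)
  len : ∀ P : List α, Wo P → n ≤ P.length
  gap : ∀ (U : List α) (s t : ℕ), s < t → t ≤ U.length → Wo (U.take s) → Wo (U.take t) → s + W ≤ t

/-- the block code: natural rule `first wall at a place ≥ z` -/
def XX (Wo : List α → Prop) (z : ℕ) : Set (List α) :=
  {X | z ≤ X.length ∧ Wo X ∧ ∀ t, z ≤ t → t < X.length → ¬ Wo (X.take t)}

theorem nil_notMem {Wo : List α → Prop} {z : ℕ} (hz : 0 < z) : [] ∉ XX Wo z := fun h => by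
  have := h.1
  simp at this
  omega

theorem prefixCode {Wo : List α → Prop} {z : ℕ} : ∀ X ∈ XX Wo z, ∀ Y, X ++ Y ∈ XX Wo z → Y = [] := by
  intro X hX Y hY
  by_contra hne
  have h0 : 0 < Y.length := List.length_pos_iff.2 hne
  refine hY.2.2 X.length hX.1 (by rw [List.length_append]; omega) ?_
  rw [List.take_left]
  exact hX.2.1

/-- the zone gadget (scheme 1), sound for all words -/
structure G1 (φ : List α → S) (act : V → S → V) [Add V] where
  N1 : ℕ
  lam : List α → Option V
  rho : List α → Option V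
  nu : List α → V
  BadT : ℕ → Prop
  sound : ∀ P Q v b, lam P = some v → rho Q = some b → b = act v (φ (P ++ Q)) + nu (P ++ Q)
  short : ∀ P v, lam P = some v → P.length < N1
  compl : ∀ Y : List α, N1 ≤ Y.length → ¬ BadT Y.length → ∀ v, ∃ P Q, Y = P ++ Q ∧
    lam P = some v ∧ (rho Q).isSome

open Classical in
/-- the exact gadget (scheme 2) on words of length `p0` -/
structure G2 (φ : List α → S) (act : V → S → V) [Add V] (p0 : ℕ) (C : Finset ℕ) (K : ℕ) where
  lam : List α → V → Prop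
  rho : ℕ → List α → Option V
  nu : List α → V
  mem : ∀ P v, lam P v → P.length ∈ C
  sound : ∀ P R v y, lam P v → (P ++ R).length = p0 → rho P.length R = some y →
    y = act v (φ (P ++ R)) + nu (P ++ R)
  compl : ∀ X : List α, X.length = p0 → ∀ v,
    K < (C.filter (fun c => lam (X.take c) v ∧ (rho c (X.drop c)).isSome)).card

section

variable (Wo : List α → Prop) (z p0 : ℕ) (φ : List α → S) (act : V → S → V) [AddCommGroup V]
variable (g1 : G1 φ act) {C : Finset ℕ} {K : ℕ} (g2 : G2 φ act p0 C K)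

/-- the token of scheme 1 in the frame `p0` -/
def pre (v : V) (X : List α) : V := act v (φ (X.take p0)) + g2.nu (X.take p0)

/-- the block map -/
def T (v : V) (X : List α) : V :=
  act (pre p0 φ act g2 v X) (φ (X.drop p0)) + g1.nu (X.drop p0)

def LP1 (P : List α) (v : V) : Prop :=
  p0 ≤ P.length ∧ g1.lam (P.drop p0) = some (pre p0 φ act g2 v P)

def RR1 (Q : List α) (b : V) : Prop :=
  g1.rho Q = some b ∧ Wo Q ∧ z ≤ p0 + Q.length ∧
    ∀ t, z ≤ p0 + g1.N1 + t → t < Q.length → ¬ Wo (Q.take t)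

/-- `Q` is the rest of a block whose first `c` letters are missing -/
def Blk (c : ℕ) (Q : List α) : Prop :=
  z ≤ c + Q.length ∧ Wo Q ∧ ∀ t, z ≤ c + t → t < Q.length → ¬ Wo (Q.take t)

/-- a block (first `c` letters missing) is bad for scheme 1 -/
def Bd (c : ℕ) (Q : List α) : Prop :=
  (∃ t, t ≤ Q.length ∧ Wo (Q.take t) ∧ z ≤ c + t + g1.N1 ∧ c + t < z + g1.N1) ∨
    g1.BadT (c + Q.length - p0)

def RR2 (Q : List α) (b : V) : Prop :=
  ∃ c ∈ C, ∃ Q1 X2 y, Q = Q1 ++ X2 ∧ (Blk Wo z c Q1 ∧ Bd Wo z p0 φ act g1 c Q1) ∧ X2 ∈ XX Wo z ∧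
    (∀ c' ∈ C, ∃ e, e ≤ Q.length ∧ Blk Wo z c' (Q.take e)) ∧
    (∀ c' ∈ C, ∀ e, e ≤ Q.length → Blk Wo z c' (Q.take e) →
      Bd Wo z p0 φ act g1 c' (Q.take e) → c' = c) ∧
    g2.rho c (Q1.take (p0 - c)) = some y ∧
    b = T p0 φ act g1 g2 (act y (φ (Q1.drop (p0 - c))) + g1.nu (Q1.drop (p0 - c))) X2

open Classical in
noncomputable def R1 (Q : List α) : Option V :=
  if h : ∃ b, RR1 Wo z p0 φ act g1 Q b then some h.choose else none

open Classical in
noncomputable def R2 (Q : List α) : Option V :=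
  if h : ∃ b, RR2 Wo z p0 φ act g1 g2 Q b then some h.choose else none

variable {Wo z p0 φ act g1 g2}

theorem R1_some {Q : List α} {b : V} (h : R1 Wo z p0 φ act g1 Q = some b) :
    RR1 Wo z p0 φ act g1 Q b := by
  unfold R1 at h
  split_ifs at h with h1
  obtain rfl := Option.some.inj h
  exact h1.choose_spec

theorem R1_isSome {Q : List α} {b : V} (h : RR1 Wo z p0 φ act g1 Q b) :
    (R1 Wo z p0 φ act g1 Q).isSome := by
  unfold R1
  rw [dif_pos ⟨b, h⟩]
  rfl

theorem R2_some {Q : List α} {b : V} (h : R2 Wo z p0 φ act g1 g2 Q = some b) :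
    RR2 Wo z p0 φ act g1 g2 Q b := by
  unfold R2 at h
  split_ifs at h with h1
  obtain rfl := Option.some.inj h
  exact h1.choose_spec

theorem RR1_unique {Q : List α} {b b' : V} (h : RR1 Wo z p0 φ act g1 Q b)
    (h' : RR1 Wo z p0 φ act g1 Q b') : b = b' := Option.some.inj (h.1.symm.trans h'.1)

theorem R1_iff {Q : List α} {b : V} : R1 Wo z p0 φ act g1 Q = some b ↔
    RR1 Wo z p0 φ act g1 Q b := by
  refine ⟨R1_some, fun h => ?_⟩
  obtain ⟨b', hb'⟩ := Option.isSome_iff_exists.1 (R1_isSome h)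
  rw [hb', RR1_unique (R1_some hb') h]

theorem RR2_unique {Q : List α} {b b' : V} (h : RR2 Wo z p0 φ act g1 g2 Q b)
    (h' : RR2 Wo z p0 φ act g1 g2 Q b') : b = b' := by
  obtain ⟨c, hc, Q1, X2, y, e1, ⟨hB, hbd⟩, hX2, hvis, hun, hrho, hb⟩ := h
  obtain ⟨c', hc', Q1', X2', y', e1', ⟨hB', hbd'⟩, hX2', hvis', hun', hrho', hb'⟩ := h'
  have t1 : Q.take Q1.length = Q1 := by rw [e1, List.take_left]
  have t1' : Q.take Q1'.length = Q1' := by rw [e1', List.take_left]
  have hcc : c' = c := hun c' hc' Q1'.length (by rw [e1', List.length_append]; omega)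
    (by rw [t1']; exact hB') (by rw [t1']; exact hbd')
  subst hcc
  have hlen : Q1.length = Q1'.length := by
    rcases lt_trichotomy Q1.length Q1'.length with h | h | h
    · exfalso
      refine hB'.2.2 Q1.length hB.1 h ?_
      have : Q1'.take Q1.length = Q1 := by
        rw [← t1', List.take_take, min_eq_left h.le, t1]
      rw [this]; exact hB.2.1
    · exact h
    · exfalso
      refine hB.2.2 Q1'.length hB'.1 h ?_
      have : Q1.take Q1'.length = Q1' := by
        rw [← t1, List.take_take, min_eq_left h.le, t1']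
      rw [this]; exact hB'.2.1
  have hQ : Q1 = Q1' := by rw [← t1, ← t1', hlen]
  subst hQ
  have hXe : X2 = X2' := by
    have := e1.symm.trans e1'
    exact List.append_cancel_left this
  subst hXe
  have hy : y = y' := Option.some.inj (hrho.symm.trans hrho')
  subst hy
  rw [hb, hb']

theorem R2_isSome {Q : List α} {b : V} (h : RR2 Wo z p0 φ act g1 g2 Q b) :
    (R2 Wo z p0 φ act g1 g2 Q).isSome := by
  unfold R2
  rw [dif_pos ⟨b, h⟩]
  rfl

theorem R2_iff {Q : List α} {b : V} : R2 Wo z p0 φ act g1 g2 Q = some b ↔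
    RR2 Wo z p0 φ act g1 g2 Q b := by
  refine ⟨R2_some, fun h => ?_⟩
  obtain ⟨b', hb'⟩ := Option.isSome_iff_exists.1 (R2_isSome h)
  rw [hb', RR2_unique (R2_some hb') h]

theorem wo_take_append {n W : ℕ} (hw : Wall Wo n W) {P Q : List α} {t : ℕ} (ht : n ≤ t)
    (htQ : t ≤ Q.length) : Wo ((P ++ Q).take (P.length + t)) ↔ Wo (Q.take t) := by
  rw [List.take_length_add_append]
  exact hw.loc _ _ (by rw [List.length_take]; omega)

/-- a missing prefix of length `c` and the rest of a block are a block -/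
theorem blk_iff {n W : ℕ} (hw : Wall Wo n W) {P Q : List α} (hz : P.length + n ≤ z) :
    P ++ Q ∈ XX Wo z ↔ Blk Wo z P.length Q := by
  constructor
  · rintro ⟨h1, h2, h3⟩
    rw [List.length_append] at h1
    refine ⟨h1, (hw.loc P Q (by omega)).1 h2, fun t h4 h5 h6 => ?_⟩
    refine h3 (P.length + t) h4 (by rw [List.length_append]; omega) ?_
    exact (wo_take_append hw (by omega) h5.le).2 h6
  · rintro ⟨h1, h2, h3⟩
    refine ⟨by rw [List.length_append]; exact h1, (hw.loc P Q (by omega)).2 h2, ?_⟩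
    intro t h4 h5 h6
    rw [List.length_append] at h5
    obtain ⟨u, rfl⟩ : ∃ u, t = P.length + u := ⟨t - P.length, by omega⟩
    exact h3 u h4 (by omega) ((wo_take_append hw (by omega) (by omega)).1 h6)

theorem bd_iff {n W : ℕ} (hw : Wall Wo n W) {P Q : List α} (hz : P.length + n + g1.N1 ≤ z) :
    Bd Wo z p0 φ act g1 0 (P ++ Q) ↔ Bd Wo z p0 φ act g1 P.length Q := by
  unfold Bd
  rw [List.length_append, zero_add]
  constructor
  · rintro (⟨t, h1, h2, h3, h4⟩ | h)
    · left
      obtain ⟨u, rfl⟩ : ∃ u, t = P.length + u := ⟨t - P.length, by omega⟩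
      refine ⟨u, by omega, (wo_take_append hw (by omega) (by omega)).1 h2, by omega, by omega⟩
    · exact Or.inr h
  · rintro (⟨t, h1, h2, h3, h4⟩ | h)
    · left
      refine ⟨P.length + t, by omega, (wo_take_append hw (by omega) (by omega)).2 h2,
        by omega, by omega⟩
    · exact Or.inr h

/-- completeness of scheme 1 off the bad blocks -/
theorem compl1 {n W : ℕ} (hw : Wall Wo n W) (hz : p0 + g1.N1 + n ≤ z) {X : List α}
    (hX : X ∈ XX Wo z) (hb : ¬ Bd Wo z p0 φ act g1 0 X) (v : V) :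
    ∃ P Q, X = P ++ Q ∧ p0 ≤ P.length ∧ LP1 p0 φ act g1 g2 P v ∧
      (R1 Wo z p0 φ act g1 Q).isSome := by
  obtain ⟨h1, h2, h3⟩ := hX
  have hnb : ∀ t, t ≤ X.length → Wo (X.take t) → z ≤ t + g1.N1 → z + g1.N1 ≤ t := by
    intro t ht hwt hzt
    by_contra hlt
    exact hb (Or.inl ⟨t, ht, hwt, by omega, by omega⟩)
  have hlen : z + g1.N1 ≤ X.length := by
    refine hnb X.length le_rfl ?_ (by omega)
    rw [List.take_length]; exact h2
  have hT : ¬ g1.BadT (X.drop p0).length := by
    rw [List.length_drop]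
    intro h
    exact hb (Or.inr (by rw [zero_add]; exact h))
  obtain ⟨P', Q, hY, hl, hr⟩ := g1.compl (X.drop p0) (by rw [List.length_drop]; omega) hT
    (pre p0 φ act g2 v X)
  obtain ⟨b, hb'⟩ := Option.isSome_iff_exists.1 hr
  have hsh := g1.short _ _ hl
  have hXe : X = X.take p0 ++ P' ++ Q := by
    rw [List.append_assoc, ← hY, List.take_append_drop]
  have htl : (X.take p0).length = p0 := by rw [List.length_take]; omega
  have hXl : X.length = p0 + P'.length + Q.length := by
    conv_lhs => rw [hXe]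
    rw [List.length_append, List.length_append, htl]
  refine ⟨X.take p0 ++ P', Q, hXe, by rw [List.length_append, htl]; omega, ⟨?_, ?_⟩, ?_⟩
  · rw [List.length_append, htl]; omega
  · have e1 : (X.take p0 ++ P').drop p0 = P' := by
      rw [List.drop_append_of_le_length (by omega), List.drop_of_length_le (by omega),
        List.nil_append]
    have e2 : (X.take p0 ++ P').take p0 = X.take p0 := by
      rw [List.take_append_of_le_length (by omega), List.take_of_length_le (by omega)]
    rw [e1, hl]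
    unfold pre
    rw [e2]
  · have hPl : (X.take p0 ++ P').length = p0 + P'.length := by rw [List.length_append, htl]
    refine R1_isSome (b := b) ⟨hb', ?_, by omega, ?_⟩
    · rw [hXe] at h2
      exact (hw.loc _ Q (by omega)).1 h2
    · intro t h4 h5 h6
      have h7 : Wo (X.take ((X.take p0 ++ P').length + t)) := by
        conv => arg 1; arg 2; rw [hXe]
        exact (wo_take_append hw (by omega) (by omega)).2 h6
      rw [hPl] at h7
      have h8 := hnb (p0 + P'.length + t) (by omega) h7 (by omega)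
      exact h3 (p0 + P'.length + t) (by omega) (by omega) h7

/-- **s1** of 163's `top` -/
theorem s1 {n W : ℕ} (hw : Wall Wo n W) (hz : p0 + g1.N1 + n ≤ z) (P : List α) (v : V)
    (Q : List α) (b : V) (hL : LP1 p0 φ act g1 g2 P v)
    (hR : R1 Wo z p0 φ act g1 Q = some b) :
    P ++ Q ∈ XX Wo z ∧ T p0 φ act g1 g2 v (P ++ Q) = b := by
  obtain ⟨hp, hl⟩ := hL
  obtain ⟨hr, hwQ, hzQ, hno⟩ := R1_some hR
  have hsh := g1.short _ _ hl
  rw [List.length_drop] at hsh
  constructor
  · refine ⟨by rw [List.length_append]; omega, (hw.loc P Q (by omega)).2 hwQ, ?_⟩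
    intro t h4 h5 h6
    rw [List.length_append] at h5
    obtain ⟨u, rfl⟩ : ∃ u, t = P.length + u := ⟨t - P.length, by omega⟩
    exact hno u (by omega) (by omega) ((wo_take_append hw (by omega) (by omega)).1 h6)
  · have e1 : (P ++ Q).drop p0 = P.drop p0 ++ Q := List.drop_append_of_le_length hp
    have e2 : (P ++ Q).take p0 = P.take p0 := List.take_append_of_le_length hp
    have := g1.sound _ _ _ _ hl hr
    unfold T pre
    rw [e1, e2, this]
    rfl

/-- **s2** of 163's `top` -/
theorem s2 {n W : ℕ} (hw : Wall Wo n W) (hz : p0 + g1.N1 + n ≤ z) (hpz : p0 < z)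
    (hC : ∀ c ∈ C, c ≤ p0)
    (P : List α) (v : V) (Q : List α) (b : V) (hL : g2.lam P v)
    (hR : R2 Wo z p0 φ act g1 g2 Q = some b)
    (hno : ∀ X ∈ XX Wo z, X <+: P ++ Q → ∀ P' Q', X = P' ++ Q' → P.length ≤ P'.length →
      LP1 p0 φ act g1 g2 P' v → (R1 Wo z p0 φ act g1 Q').isSome → False) :
    ∃ Q1 X2, Q = Q1 ++ X2 ∧ Q1 ≠ [] ∧ P ++ Q1 ∈ XX Wo z ∧ X2 ∈ XX Wo z ∧
      T p0 φ act g1 g2 (T p0 φ act g1 g2 v (P ++ Q1)) X2 = b := by
  obtain ⟨c, hc, Q1, X2, y, rfl, ⟨hB, -⟩, hX2, hvis, hun, hrho, hb⟩ := R2_some hR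
  have hPC := g2.mem _ _ hL
  have hPp := hC _ hPC
  obtain ⟨e, he, hBe⟩ := hvis _ hPC
  have hX0 : P ++ (Q1 ++ X2).take e ∈ XX Wo z := (blk_iff hw (by omega)).2 hBe
  have hbad : Bd Wo z p0 φ act g1 0 (P ++ (Q1 ++ X2).take e) := by
    by_contra hnb
    obtain ⟨P', Q', h1, h2, h3, h4⟩ := compl1 (g2 := g2) hw hz hX0 hnb v
    refine hno _ hX0 ?_ P' Q' h1 (by omega) h3 h4
    exact (List.prefix_append_right_inj P).2 (List.take_prefix _ _)
  have hce : P.length = c := by
    refine hun _ hPC e he hBe ?_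
    exact (bd_iff hw (by omega)).1 hbad
  subst hce
  have hQ1 : p0 ≤ P.length + Q1.length := by have := hB.1; omega
  have hX1 : P ++ Q1 ∈ XX Wo z := (blk_iff hw (by omega)).2 hB
  refine ⟨Q1, X2, rfl, ?_, hX1, hX2, ?_⟩
  · rintro rfl
    have := hB.1
    rw [List.length_nil] at this
    omega
  · have e1 : (P ++ Q1).take p0 = P ++ Q1.take (p0 - P.length) := by
      rw [List.take_append, List.take_of_length_le hPp]
    have e2 : (P ++ Q1).drop p0 = Q1.drop (p0 - P.length) := by
      rw [List.drop_append, List.drop_of_length_le hPp, List.nil_append]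
    have h6 := g2.sound P (Q1.take (p0 - P.length)) v y hL (by
      rw [List.length_append, List.length_take]; omega) hrho
    have h7 : T p0 φ act g1 g2 v (P ++ Q1)
        = act y (φ (Q1.drop (p0 - P.length))) + g1.nu (Q1.drop (p0 - P.length)) := by
      conv_lhs => unfold T pre
      rw [e1, e2, ← h6]
    rw [h7, hb]

/-- every text which reaches far enough has a first wall behind the threshold -/
theorem exists_blk {n W : ℕ} (_hw : Wall Wo n W) {c : ℕ} {Q : List α} (hQ : Wo Q)
    (hz : z ≤ c + Q.length) : ∃ e, e ≤ Q.length ∧ Blk Wo z c (Q.take e) := by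
  classical
  have hex : ∃ e, z ≤ c + e ∧ e ≤ Q.length ∧ Wo (Q.take e) :=
    ⟨Q.length, hz, le_rfl, by rw [List.take_length]; exact hQ⟩
  obtain ⟨h1, h2, h3⟩ := Nat.find_spec hex
  refine ⟨Nat.find hex, h2, ?_, h3, ?_⟩
  · rw [List.length_take]; omega
  · intro t h4 h5 h6
    rw [List.length_take] at h5
    have h7 : t < Nat.find hex := by omega
    refine Nat.find_min hex h7 ⟨h4, by omega, ?_⟩
    rwa [List.take_take, min_eq_left h7.le] at h6

open Classical in
/-- **the spoiling count**: for a block `X` followed by a block `X2` at most `1 + 3 KB` of the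
places `c` are spoiled -/
theorem spoil {n W Λ KB : ℕ} (hw : Wall Wo n W) (hΛ : ∀ c ∈ C, c ≤ Λ)
    (hΛp : Λ ≤ p0) (hz : p0 + Λ + g1.N1 + n ≤ z) (hW : 2 * Λ + 2 * g1.N1 < W)
    (T1 : ∀ e, (C.filter (fun c => ∃ c' ∈ C, c' ≠ c ∧ g1.BadT (e + c' - c - p0))).card ≤ KB)
    (T2 : ∀ c ∈ C, ∀ c' ∈ C, ∀ d ∈ C, ∀ d' ∈ C, c ≠ c' → d ≠ d' →
      c + d' + 2 * g1.N1 ≥ d + c' → d + c' + 2 * g1.N1 ≥ c + d' → c = d)
    {X : List α} (hX : X ∈ XX Wo z) (X2 : List α) :
    (C.filter (fun c => ∃ c' ∈ C, c' ≠ c ∧ ∃ e, e ≤ ((X ++ X2).drop c).length ∧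
      Blk Wo z c' (((X ++ X2).drop c).take e) ∧
      Bd Wo z p0 φ act g1 c' (((X ++ X2).drop c).take e))).card ≤ 1 + 3 * KB := by
  obtain ⟨hX1, hX2, hX3⟩ := hX
  set U := X ++ X2 with hU
  have hUX : U.take X.length = X := by rw [hU, List.take_left]
  have hUl : U.length = X.length + X2.length := by rw [hU, List.length_append]
  -- the place of a wall of the text behind `c`
  have hplace : ∀ c ∈ C, ∀ t, n ≤ t → t ≤ (U.drop c).length →
      (Wo ((U.drop c).take t) ↔ Wo (U.take (c + t))) := by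
    intro c hc t hnt htU
    rw [List.length_drop] at htU
    have hcΛ := hΛ c hc
    have h1 : U.take (c + t) = U.take c ++ (U.drop c).take t := by
      rw [List.take_add]
    rw [h1]
    exact (hw.loc _ _ (by rw [List.length_take, List.length_drop]; omega)).symm
  -- the three candidate walls
  obtain ⟨tm, htm⟩ : ∃ tm, ∀ t, t ≤ U.length → Wo (U.take t) → z ≤ t + Λ → t < z → t = tm := by
    by_cases h : ∃ t, t ≤ U.length ∧ Wo (U.take t) ∧ z ≤ t + Λ ∧ t < z
    · obtain ⟨t0, h1, h2, h3, h4⟩ := h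
      refine ⟨t0, fun t h5 h6 h7 h8 => ?_⟩
      rcases lt_trichotomy t t0 with h9 | h9 | h9
      · have := hw.gap U t t0 h9 h1 h6 h2; omega
      · exact h9
      · have := hw.gap U t0 t h9 h5 h2 h6; omega
    · exact ⟨0, fun t h5 h6 h7 h8 => (h ⟨t, h5, h6, h7, h8⟩).elim⟩
  obtain ⟨tp, htp⟩ : ∃ tp, ∀ t, t ≤ U.length → Wo (U.take t) → X.length < t →
      (∀ t', X.length < t' → t' < t → ¬ Wo (U.take t')) → t = tp := by
    by_cases h : ∃ t, t ≤ U.length ∧ Wo (U.take t) ∧ X.length < t ∧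
        (∀ t', X.length < t' → t' < t → ¬ Wo (U.take t'))
    · obtain ⟨t0, h1, h2, h3, h4⟩ := h
      refine ⟨t0, fun t h5 h6 h7 h8 => ?_⟩
      rcases lt_trichotomy t t0 with h9 | h9 | h9
      · exact (h4 t h7 h9 h6).elim
      · exact h9
      · exact (h8 t0 h3 h9 h2).elim
    · exact ⟨0, fun t h5 h6 h7 h8 => (h ⟨t, h5, h6, h7, h8⟩).elim⟩
  -- the wall near `z` within `Λ + N1`
  obtain ⟨te, hte⟩ : ∃ te, ∀ t, t ≤ U.length → Wo (U.take t) → z ≤ t + Λ + g1.N1 →
      t < z + Λ + g1.N1 → t = te := by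
    by_cases h : ∃ t, t ≤ U.length ∧ Wo (U.take t) ∧ z ≤ t + Λ + g1.N1 ∧ t < z + Λ + g1.N1
    · obtain ⟨t0, h1, h2, h3, h4⟩ := h
      refine ⟨t0, fun t h5 h6 h7 h8 => ?_⟩
      rcases lt_trichotomy t t0 with h9 | h9 | h9
      · have := hw.gap U t t0 h9 h1 h6 h2; omega
      · exact h9
      · have := hw.gap U t0 t h9 h5 h2 h6; omega
    · exact ⟨0, fun t h5 h6 h7 h8 => (h ⟨t, h5, h6, h7, h8⟩).elim⟩
  -- the (E) part
  set SE := C.filter (fun c => ∃ c' ∈ C, c' ≠ c ∧ z ≤ c' + (te - c) + g1.N1 ∧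
    c' + (te - c) < z + g1.N1 ∧ z ≤ te + Λ + g1.N1) with hSE
  have hSEcard : SE.card ≤ 1 := by
    refine Finset.card_le_one.2 fun c hc d hd => ?_
    rw [hSE, Finset.mem_filter] at hc hd
    obtain ⟨hcC, c', hc'C, hne, h1, h2, h3⟩ := hc
    obtain ⟨hdC, d', hd'C, hne', h1', h2', -⟩ := hd
    have := hΛ c hcC
    have := hΛ d hdC
    exact T2 c hcC c' hc'C d hdC d' hd'C hne.symm hne'.symm (by omega) (by omega)
  set SB := fun e : ℕ => C.filter (fun c => ∃ c' ∈ C, c' ≠ c ∧ g1.BadT (e + c' - c - p0)) with hSB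
  have hsub : (C.filter (fun c => ∃ c' ∈ C, c' ≠ c ∧ ∃ e, e ≤ (U.drop c).length ∧
      Blk Wo z c' ((U.drop c).take e) ∧ Bd Wo z p0 φ act g1 c' ((U.drop c).take e)))
      ⊆ SE ∪ (SB tm ∪ (SB X.length ∪ SB tp)) := by
    intro c hc
    rw [Finset.mem_filter] at hc
    obtain ⟨hcC, c', hc'C, hne, e, he, hB, hbad⟩ := hc
    have hcΛ := hΛ c hcC
    have hc'Λ := hΛ c' hc'C
    have hel : ((U.drop c).take e).length = e := by rw [List.length_take]; omega
    have heU : c + e ≤ U.length := by rw [List.length_drop] at he; omega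
    obtain ⟨hB1, hB2, hB3⟩ := hB
    rw [hel] at hB1 hB3
    rcases hbad with ⟨t, h1, h2, h3, h4⟩ | hbt
    · rw [hel] at h1
      rw [List.take_take, min_eq_left h1] at h2
      have h5 : Wo (U.take (c + t)) := (hplace c hcC t (by omega) (by omega)).1 h2
      have h6 := hte (c + t) (by omega) h5 (by omega) (by omega)
      refine Finset.mem_union_left _ ?_
      rw [hSE, Finset.mem_filter]
      exact ⟨hcC, c', hc'C, hne, by omega, by omega, by omega⟩
    · refine Finset.mem_union_right _ ?_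
      rw [hel] at hbt
      have hwe : Wo (U.take (c + e)) := (hplace c hcC e (by omega) (by omega)).1 hB2
      have hno : ∀ t', z + c ≤ c' + t' → t' < c + e → ¬ Wo (U.take t') := by
        intro t' h5 h6 h7
        obtain ⟨u, rfl⟩ : ∃ u, t' = c + u := ⟨t' - c, by omega⟩
        refine hB3 u (by omega) (by omega) ?_
        rw [List.take_take, min_eq_left (by omega)]
        exact (hplace c hcC u (by omega) (by omega)).2 h7
      have hkey : ∀ e0, c + e = e0 → c ∈ SB e0 := by
        intro e0 h0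
        rw [hSB]
        simp only [Finset.mem_filter]
        refine ⟨hcC, c', hc'C, hne, ?_⟩
        rwa [show e0 + c' - c - p0 = c' + e - p0 by omega]
      rcases lt_or_ge (c + e) z with h5 | h5
      · exact Finset.mem_union_left _ (hkey tm (htm (c + e) heU hwe (by omega) h5))
      · refine Finset.mem_union_right _ ?_
        rcases lt_trichotomy (c + e) X.length with h6 | h6 | h6
        · exfalso
          refine hX3 (c + e) h5 h6 ?_
          rw [hU, List.take_append_of_le_length h6.le] at hwe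
          exact hwe
        · exact Finset.mem_union_left _ (hkey _ h6)
        · refine Finset.mem_union_right _ (hkey tp (htp (c + e) heU hwe h6 ?_))
          intro t' h7 h8 h9
          have h10 : c' + X.length < z + c := by
            by_contra h11
            refine hno X.length (by omega) h6 ?_
            rw [hUX]; exact hX2
          have h11 := hw.gap U X.length t' h7 (by omega) (by rw [hUX]; exact hX2) h9
          exact hno t' (by omega) h8 h9
  refine (Finset.card_le_card hsub).trans ?_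
  refine (Finset.card_union_le _ _).trans ?_
  have h1 := Finset.card_union_le (SB tm) (SB X.length ∪ SB tp)
  have h2 := Finset.card_union_le (SB X.length) (SB tp)
  have h3 : (SB tm).card ≤ KB := T1 tm
  have h4 : (SB X.length).card ≤ KB := T1 X.length
  have h5 : (SB tp).card ≤ KB := T1 tp
  omega

open Classical in
/-- **cc** of 163's `top` -/
theorem cc {n W Λ KB : ℕ} (hw : Wall Wo n W) (hΛ : ∀ c ∈ C, c ≤ Λ)
    (hΛp : Λ ≤ p0) (hz : p0 + Λ + g1.N1 + n ≤ z) (hW : 2 * Λ + 2 * g1.N1 < W)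
    (T1 : ∀ e, (C.filter (fun c => ∃ c' ∈ C, c' ≠ c ∧ g1.BadT (e + c' - c - p0))).card ≤ KB)
    (T2 : ∀ c ∈ C, ∀ c' ∈ C, ∀ d ∈ C, ∀ d' ∈ C, c ≠ c' → d ≠ d' →
      c + d' + 2 * g1.N1 ≥ d + c' → d + c' + 2 * g1.N1 ≥ c + d' → c = d)
    (hK : 1 + 3 * KB ≤ K) (hpz : p0 < z)
    (X : List α) (hX : X ∈ XX Wo z) (X2 : List α) (hX2 : X2 ∈ XX Wo z) (v : V) :
    (∃ P Q, X = P ++ Q ∧ LP1 p0 φ act g1 g2 P v ∧ (R1 Wo z p0 φ act g1 Q).isSome) ∨
    (∃ P Q, X ++ X2 = P ++ Q ∧ P.length < X.length ∧ g2.lam P v ∧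
      (R2 Wo z p0 φ act g1 g2 Q).isSome) := by
  classical
  by_cases hb : Bd Wo z p0 φ act g1 0 X
  swap
  · left
    obtain ⟨P, Q, h1, -, h3, h4⟩ := compl1 (g2 := g2) hw (by omega) hX hb v
    exact ⟨P, Q, h1, h3, h4⟩
  right
  have hXz := hX.1
  have hX2z := hX2.1
  have htl : (X.take p0).length = p0 := by rw [List.length_take]; omega
  set A := C.filter (fun c => g2.lam ((X.take p0).take c) v ∧
    (g2.rho c ((X.take p0).drop c)).isSome) with hA
  have hAc : K < A.card := by
    have := g2.compl (X.take p0) htl v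
    convert this using 2
  set Sp := C.filter (fun c => ∃ c' ∈ C, c' ≠ c ∧ ∃ e, e ≤ ((X ++ X2).drop c).length ∧
      Blk Wo z c' (((X ++ X2).drop c).take e) ∧
      Bd Wo z p0 φ act g1 c' (((X ++ X2).drop c).take e)) with hSp
  have hSpc : Sp.card ≤ 1 + 3 * KB := by
    have := spoil (φ := φ) (act := act) (g1 := g1) hw hΛ hΛp hz hW T1 T2 hX X2
    convert this using 2
  obtain ⟨c, hcA, hcS⟩ : ∃ c ∈ A, c ∉ Sp := by
    by_contra hno
    push Not at hno
    have := Finset.card_le_card (show A ⊆ Sp from hno)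
    omega
  rw [hA, Finset.mem_filter] at hcA
  obtain ⟨hcC, hlam, hrho⟩ := hcA
  obtain ⟨y, hy⟩ := Option.isSome_iff_exists.1 hrho
  have hcΛ := hΛ c hcC
  have hcX : (X.take c).length = c := by rw [List.length_take]; omega
  have hun : ∀ c' ∈ C, ∀ e, e ≤ ((X ++ X2).drop c).length →
      Blk Wo z c' (((X ++ X2).drop c).take e) →
      Bd Wo z p0 φ act g1 c' (((X ++ X2).drop c).take e) → c' = c := by
    intro c' hc' e h1 h2 h3
    by_contra hne
    exact hcS (by rw [hSp, Finset.mem_filter]; exact ⟨hcC, c', hc', hne, e, h1, h2, h3⟩)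
  have hdrop : (X ++ X2).drop c = X.drop c ++ X2 :=
    List.drop_append_of_le_length (by omega)
  rw [hdrop] at hun
  refine ⟨X.take c, X.drop c ++ X2, ?_, by omega, ?_, ?_⟩
  · rw [← List.append_assoc, List.take_append_drop]
  · rwa [List.take_take, min_eq_left (by omega)] at hlam
  · have hBc : Blk Wo z c (X.drop c) := by
      have h8 := (blk_iff (z := z) (P := X.take c) (Q := X.drop c) hw (by omega)).1
        (by rw [List.take_append_drop]; exact hX)
      rwa [hcX] at h8
    have hWQ : Wo (X.drop c ++ X2) := (hw.loc _ _ (by omega)).2 hX2.2.1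
    have hBd : Bd Wo z p0 φ act g1 c (X.drop c) := by
      have h8 := (bd_iff (z := z) (p0 := p0) (φ := φ) (act := act) (g1 := g1) (P := X.take c)
        (Q := X.drop c) hw (by omega)).1 (by rw [List.take_append_drop]; exact hb)
      rwa [hcX] at h8
    refine R2_isSome (b := _) ⟨c, hcC, X.drop c, X2, y, rfl, ⟨hBc, hBd⟩, hX2, ?_, hun, ?_, rfl⟩
    · intro c' hc'
      exact exists_blk hw hWQ (by rw [List.length_append, List.length_drop]; omega)
    · rw [← hy]
      congr 1
      rw [List.drop_take]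

end

end Crest.Agent.R320.Blk2_780
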