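import Crest.Agent.R320.Blk_872

/-!
Row 320: `Blk_872` in the semantic form of `Top5_120.top5` (hcc1, hcc2), and the spoil count.
-/

set_option autoImplicit false

namespace Crest.Agent.R320.Blk_872.Dat

variable {α V S : Type*} [Monoid S] [AddCommGroup V] {D : Dat α V S}

theorem s2core (h : D.Ok) (P : List α) (v : V) (Q : List α) (b : V) (hP : D.LP2 P v)
    (hQ : D.R2 Q = some b) (hun : ∀ X, D.XX X → X <+: P ++ Q → D.BadD 0 X) :
    ∃ Q1 X2, Q = Q1 ++ X2 ∧ D.XX (P ++ Q1) ∧ D.XX X2 ∧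
      D.T (D.T v (P ++ Q1)) X2 = b := by
  classical
  have hz := h.hz
  have hN := h.hN1
  obtain ⟨k0, hk0, hPl, hl⟩ := hP
  obtain ⟨k, hk, huniq, Q1, X2, b1, e, hXd, -, hX2, hr, hb⟩ := R2_spec hQ
  have hck0 := h.ck k0 hk0
  have hck := h.ck k hk
  have hX2l : D.z ≤ X2.length := by simpa using hX2.2.1
  have hex : ∃ s, s ≤ Q.length ∧ D.z ≤ D.c k0 + s ∧ D.Wo (Q.take s) := by
    refine ⟨Q.length, le_rfl, ?_, ?_⟩
    · rw [e, List.length_append]; omega
    · rw [List.take_length, e]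
      exact (h.wo _ _ (by omega)).2 hX2.1
  obtain ⟨hs1, hs2, hs3⟩ := Nat.find_spec hex
  set s := Nat.find hex with hs
  have hmin : ∀ t, t < s → ¬ (t ≤ Q.length ∧ D.z ≤ D.c k0 + t ∧ D.Wo (Q.take t)) :=
    fun t ht => Nat.find_min hex ht
  have hXd0 : D.XXd (D.c k0) (Q.take s) := by
    refine ⟨hs3, ?_, fun t ht hzt hw => ?_⟩
    · rw [List.length_take]; omega
    · rw [List.length_take] at ht
      rw [List.take_take, min_eq_left (by omega)] at hw
      exact hmin t (by omega) ⟨by omega, hzt, hw⟩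
  have hXX0 : D.XX (P ++ Q.take s) :=
    (h.XXd_app (d := 0) (by omega)).2 (by rw [Nat.zero_add, hPl]; exact hXd0)
  have hbad : D.BadD (D.c k0) (Q.take s) := by
    have hb0 := hun _ hXX0 ⟨Q.drop s, by rw [List.append_assoc, List.take_append_drop]⟩
    rw [h.BadD_app (by omega), Nat.zero_add, hPl] at hb0
    exact hb0
  have hkk : k0 = k := huniq k0 hk0 ⟨Q.take s, Q.drop s, (List.take_append_drop _ _).symm, hXd0, hbad⟩
  subst hkk
  have hXX1 : D.XX (P ++ Q1) :=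
    (h.XXd_app (d := 0) (by omega)).2 (by rw [Nat.zero_add, hPl]; exact hXd)
  refine ⟨Q1, X2, e, hXX1, hX2, ?_⟩
  rw [hb]
  congr 1
  unfold T
  have e1 : (P ++ Q1).take D.p = P ++ Q1.take (D.p - D.c k0) := by
    rw [List.take_append, List.take_of_length_le (by omega), hPl]
  have e2 : (P ++ Q1).drop D.p = Q1.drop (D.p - D.c k0) := by
    rw [List.drop_append, List.drop_of_length_le (by omega), hPl, List.nil_append]
  rw [e1, e2, ← h.sound2 k0 hk0 _ _ _ _ hPl hl hr]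

theorem cc2 (h : D.Ok) {X X2 : List α} (hX : D.XX X) (hX2 : D.XX X2) (hB : D.BadD 0 X) (v : V) :
    ∃ P Q, X ++ X2 = P ++ Q ∧ P.length < X.length ∧ D.LP2 P v ∧ (D.R2 Q).isSome := by
  classical
  have hz := h.hz
  have hN := h.hN1
  have hXl : D.z ≤ X.length := by simpa using hX.2.1
  have htl : (X.take D.p).length = D.p := by rw [List.length_take]; omega
  obtain ⟨I, hI, hI2⟩ := h.compl2 (X.take D.p) v htl
  obtain ⟨k, hkI, hkS⟩ : ∃ k ∈ I, k ∉ D.Spoiled (X ++ X2) := by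
    by_contra hc
    push Not at hc
    have := Finset.card_le_card (show I ⊆ D.Spoiled (X ++ X2) from hc)
    have := h.spoil X X2 hX hX2 hB
    omega
  obtain ⟨hk, hl, hr⟩ := hI2 k hkI
  have hck := h.ck k hk
  obtain ⟨b1, hb1⟩ := Option.isSome_iff_exists.1 hr
  have hun : ∀ k' < D.K, D.Cand k' ((X ++ X2).drop (D.c k)) → k' = k := by
    intro k' hk' hc
    by_contra hne
    exact hkS (by
      unfold Spoiled
      rw [Finset.mem_filter, Finset.mem_range]
      exact ⟨hk, k', hk', hne, hc⟩)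
  have htk : (X.take (D.c k)).length = D.c k := by rw [List.length_take]; omega
  have eX : X = X.take (D.c k) ++ X.drop (D.c k) := (List.take_append_drop _ _).symm
  have e0 : (X ++ X2).drop (D.c k) = X.drop (D.c k) ++ X2 :=
    List.drop_append_of_le_length (by omega)
  have hXd : D.XXd (D.c k) (X.drop (D.c k)) := by
    have := (h.XXd_app (d := 0) (P := X.take (D.c k)) (Q := X.drop (D.c k)) (by omega)).1
      (by rw [← eX]; exact hX)
    rwa [Nat.zero_add, htk] at this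
  have hBd : D.BadD (D.c k) (X.drop (D.c k)) := by
    have := (h.BadD_app (d := 0) (P := X.take (D.c k)) (Q := X.drop (D.c k)) (by omega)).1
      (by rw [← eX]; exact hB)
    rwa [Nat.zero_add, htk] at this
  refine ⟨X.take (D.c k), X.drop (D.c k) ++ X2, ?_, ?_, ⟨k, hk, htk, ?_⟩, ?_⟩
  · rw [← List.append_assoc, List.take_append_drop]
  · rw [htk]; omega
  · rw [List.take_take, min_eq_left hck] at hl
    exact hl
  · have hrel : D.R2rel (X.drop (D.c k) ++ X2)
        (D.T (D.act b1 (D.φ ((X.drop (D.c k)).drop (D.p - D.c k))) +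
          D.nu1 ((X.drop (D.c k)).drop (D.p - D.c k))) X2) := by
      refine ⟨k, hk, by rw [← e0]; exact hun, X.drop (D.c k), X2, b1, rfl, hXd, hBd, hX2, ?_, rfl⟩
      rw [List.drop_take] at hb1
      exact hb1
    unfold R2
    rw [dif_pos ⟨_, hrel⟩]
    rfl

/-- hcc1 of `top5` -/
theorem hcc1 (h : D.Ok) {X : List α} (hX : D.XX X) (hB : ¬ D.BadD 0 X) (v : V) :
    ∃ P Q, P ++ Q = X ∧ D.LP1 P v ∧ ∀ x P', D.LP1 P' x → D.XX (P' ++ Q) ∧
      D.T x (P' ++ Q) = D.T v X := by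
  obtain ⟨P, Q, e, hP, hR⟩ := cc1 h hX hB v
  obtain ⟨b, hb⟩ := Option.isSome_iff_exists.1 hR
  refine ⟨P, Q, e.symm, hP, fun x P' hP' => ?_⟩
  have h1 := s1 h P v Q b hP hb
  have h2 := s1 h P' x Q b hP' hb
  exact ⟨h2.1, by rw [h2.2, e, h1.2]⟩

/-- hcc2 of `top5` -/
theorem hcc2 (h : D.Ok) {X Y : List α} (hX : D.XX X) (hY : D.XX Y) (hB : D.BadD 0 X) (v : V) :
    ∃ P Q, P ++ Q = X ++ Y ∧ D.LP2 P v ∧ ∀ x P', D.LP2 P' x →
      (∃ X' Y', D.XX X' ∧ D.BadD 0 X' ∧ D.XX Y' ∧ X' ++ Y' = P' ++ Q ∧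
        D.T (D.T x X') Y' = D.T (D.T v X) Y) ∨
      (∃ X', D.XX X' ∧ ¬ D.BadD 0 X' ∧ X' <+: P' ++ Q) := by
  classical
  obtain ⟨P, Q, e, hlt, hP, hR⟩ := cc2 h hX hY hB v
  obtain ⟨b, hb⟩ := Option.isSome_iff_exists.1 hR
  -- the true pair
  have key : D.T (D.T v X) Y = b := by
    have hun : ∀ X', D.XX X' → X' <+: P ++ Q → D.BadD 0 X' := by
      rintro X' hX' ⟨r, hr⟩
      have : X' = X := XXd_unique (Q2 := r) (Q2' := Y) hX' hX (by rw [hr, e])
      rw [this]; exact hB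
    obtain ⟨Q1, X2, eQ, hX1, hX2, hT⟩ := s2core h P v Q b hP hb hun
    have e1 : P ++ Q1 = X := XXd_unique (Q2 := X2) (Q2' := Y) hX1 hX
      (by rw [List.append_assoc, ← eQ, e])
    have e2 : X2 = Y := by
      have h3 : X ++ Y = X ++ X2 := by rw [e, eQ, ← List.append_assoc, e1]
      exact (List.append_cancel_left h3).symm
    rw [e1, e2] at hT
    exact hT
  refine ⟨P, Q, e.symm, hP, fun x P' hP' => ?_⟩
  by_cases hun : ∀ X', D.XX X' → X' <+: P' ++ Q → D.BadD 0 X'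
  · left
    obtain ⟨Q1, X2, eQ, hX1, hX2, hT⟩ := s2core h P' x Q b hP' hb hun
    refine ⟨P' ++ Q1, X2, hX1, hun _ hX1 ⟨X2, ?_⟩, hX2, ?_, ?_⟩
    · rw [eQ, List.append_assoc]
    · rw [eQ, List.append_assoc]
    · rw [hT, key]
  · right
    push Not at hun
    obtain ⟨X', h1, h2, h3⟩ := hun
    exact ⟨X', h1, h3, h2⟩

/-- **Spoil count.** -/
theorem spoil_card (D : Dat α V S) (BT : ℤ → Prop) (W C0 : ℕ) (hBT : ∀ n : ℕ, D.Good n ↔ ¬ BT n)
    (wo : ∀ P Q, D.n ≤ Q.length → (D.Wo (P ++ Q) ↔ D.Wo Q))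
    (hz : D.p + 2 * D.N1 + D.n ≤ D.z) (hN1 : 0 < D.N1) (ck : ∀ k < D.K, D.c k ≤ D.p)
    (gap : ∀ (X : List α) (s t : ℕ), s < t → t ≤ s + W → t ≤ X.length → D.Wo (X.take s) →
      ¬ D.Wo (X.take t)) (hW : 2 * D.p + 2 * D.N1 ≤ W)
    (hdiff : ∀ a b a' b' : ℕ, a < D.K → b < D.K → a' < D.K → b' < D.K → a ≠ b → a' ≠ b' →
      |((D.c a : ℤ) - D.c b) - (D.c a' - D.c b')| ≤ 2 * D.N1 → a = a' ∧ b = b')
    (hthin : ∀ T : ℤ, ∀ A : Finset (ℕ × ℕ), (∀ q ∈ A, q.1 < D.K ∧ q.2 < D.K ∧ q.1 ≠ q.2 ∧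
      BT (T + D.c q.1 - D.c q.2)) → A.card ≤ C0)
    (hR : 1 + 2 * C0 < D.R) (w : List α) : (D.Spoiled w).card < D.R := by
  classical
  -- the two walls
  have hw0 : ∃ w0 : ℕ, ∀ t, t ≤ w.length → D.Wo (w.take t) → D.z ≤ t + D.p + D.N1 →
      t ≤ D.z + D.p + D.N1 → t = w0 := by
    by_cases hc : ∃ t, t ≤ w.length ∧ D.Wo (w.take t) ∧ D.z ≤ t + D.p + D.N1 ∧
      t ≤ D.z + D.p + D.N1
    · obtain ⟨t0, h1, h2, h3, h4⟩ := hc
      refine ⟨t0, fun t g1 g2 g3 g4 => ?_⟩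
      rcases lt_trichotomy t t0 with hlt | heq | hgt
      · exact absurd h2 (gap w t t0 hlt (by omega) h1 g2)
      · exact heq
      · exact absurd g2 (gap w t0 t hgt (by omega) g1 h2)
    · exact ⟨0, fun t g1 g2 g3 g4 => absurd ⟨t, g1, g2, g3, g4⟩ hc⟩
  have hw1 : ∃ w1 : ℕ, ∀ t, t ≤ w.length → D.Wo (w.take t) → D.z + D.p + D.N1 < t →
      (∀ s, D.z + D.p + D.N1 < s → s < t → ¬ D.Wo (w.take s)) → t = w1 := by
    by_cases hc : ∃ t, t ≤ w.length ∧ D.Wo (w.take t) ∧ D.z + D.p + D.N1 < t ∧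
      (∀ s, D.z + D.p + D.N1 < s → s < t → ¬ D.Wo (w.take s))
    · obtain ⟨t0, h1, h2, h3, h4⟩ := hc
      refine ⟨t0, fun t g1 g2 g3 g4 => ?_⟩
      rcases lt_trichotomy t t0 with hlt | heq | hgt
      · exact absurd g2 (h4 t g3 hlt)
      · exact heq
      · exact absurd h2 (g4 t0 h3 hgt)
    · exact ⟨0, fun t g1 g2 g3 g4 => absurd ⟨t, g1, g2, g3, g4⟩ hc⟩
  obtain ⟨w0, hw0⟩ := hw0
  obtain ⟨w1, hw1⟩ := hw1
  let PS := (Finset.range D.K ×ˢ Finset.range D.K)
  let A0 := PS.filter fun q => q.1 ≠ q.2 ∧ |(w0 : ℤ) + D.c q.1 - D.c q.2 - D.z| ≤ D.N1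
  let A1 := PS.filter fun q => q.1 ≠ q.2 ∧ BT (((w0 : ℤ) - D.p) + D.c q.1 - D.c q.2)
  let A2 := PS.filter fun q => q.1 ≠ q.2 ∧ BT (((w1 : ℤ) - D.p) + D.c q.1 - D.c q.2)
  have hmem : ∀ q : ℕ × ℕ, q ∈ PS ↔ q.1 < D.K ∧ q.2 < D.K := by
    intro q
    simp only [PS, Finset.mem_product, Finset.mem_range]
  have hA0 : A0.card ≤ 1 := by
    rw [Finset.card_le_one]
    intro a ha b hb
    simp only [A0, Finset.mem_filter, hmem] at ha hb
    obtain ⟨⟨a1, a2⟩, a3, a4⟩ := ha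
    obtain ⟨⟨b1, b2⟩, b3, b4⟩ := hb
    rw [abs_le] at a4 b4
    have := hdiff a.1 a.2 b.1 b.2 a1 a2 b1 b2 a3 b3 (by rw [abs_le]; constructor <;> linarith)
    exact Prod.ext this.1 this.2
  have hA1 : A1.card ≤ C0 := by
    refine hthin ((w0 : ℤ) - D.p) A1 fun q hq => ?_
    simp only [A1, Finset.mem_filter, hmem] at hq
    exact ⟨hq.1.1, hq.1.2, hq.2.1, hq.2.2⟩
  have hA2 : A2.card ≤ C0 := by
    refine hthin ((w1 : ℤ) - D.p) A2 fun q hq => ?_
    simp only [A2, Finset.mem_filter, hmem] at hq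
    exact ⟨hq.1.1, hq.1.2, hq.2.1, hq.2.2⟩
  have hsub : D.Spoiled w ⊆ (A0 ∪ A1 ∪ A2).image Prod.snd := by
    intro k hk
    unfold Spoiled at hk
    rw [Finset.mem_filter, Finset.mem_range] at hk
    obtain ⟨hkK, k', hk', hne, Q1, Q2, eQ, hXd, hBd⟩ := hk
    have hck := ck k hkK
    have hck' := ck k' hk'
    have hlw : w.length - D.c k = Q1.length + Q2.length := by
      have := congrArg List.length eQ
      rw [List.length_drop, List.length_append] at this
      exact this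
    have hzl := hXd.2.1
    have hwl : D.c k + (Q1.length + Q2.length) = w.length := by omega
    have hwtake : ∀ s, s ≤ Q1.length → w.take (D.c k + s) = w.take (D.c k) ++ Q1.take s := by
      intro s hs
      rw [List.take_add, eQ, List.take_append_of_le_length hs]
    have hwall : ∀ s, s ≤ Q1.length → D.n ≤ s → (D.Wo (w.take (D.c k + s)) ↔ D.Wo (Q1.take s)) := by
      intro s hs hns
      rw [hwtake s hs]
      exact wo _ _ (by rw [List.length_take]; omega)
    have hwt1 : D.Wo (w.take (D.c k + Q1.length)) := by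
      rw [hwall _ le_rfl (by omega), List.take_length]
      exact hXd.1
    have hno : ∀ t, D.z + D.c k ≤ t + D.c k' → t < D.c k + Q1.length → ¬ D.Wo (w.take t) := by
      intro t ht1 ht2 hw
      have e1 : t = D.c k + (t - D.c k) := by omega
      rw [e1, hwall _ (by omega) (by omega)] at hw
      exact hXd.2.2 _ (by omega) (by omega) hw
    rw [Finset.mem_image]
    refine ⟨(k', k), ?_, rfl⟩
    rw [Finset.mem_union, Finset.mem_union]
    rcases hBd with ⟨s, g1, g2, g3, g4⟩ | hg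
    · left; left
      have hws : D.Wo (w.take (D.c k + s)) := (hwall s g1 (by omega)).2 g4
      have := hw0 (D.c k + s) (by omega) hws (by omega) (by omega)
      simp only [A0, Finset.mem_filter, hmem]
      refine ⟨⟨hk', hkK⟩, hne, ?_⟩
      rw [← this, abs_le]
      push_cast
      constructor <;> omega
    · rw [hBT, not_not] at hg
      have ecast : ((D.c k' + Q1.length - D.p : ℕ) : ℤ) = (D.c k' : ℤ) + Q1.length - D.p := by
        omega
      rw [ecast] at hg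
      by_cases hle : D.c k + Q1.length ≤ D.z + D.p + D.N1
      · left; right
        have := hw0 (D.c k + Q1.length) (by omega) hwt1 (by omega) hle
        simp only [A1, Finset.mem_filter, hmem]
        refine ⟨⟨hk', hkK⟩, hne, ?_⟩
        rw [← this]
        have : (((D.c k + Q1.length : ℕ) : ℤ) - D.p + D.c k' - D.c k) =
          (D.c k' : ℤ) + Q1.length - D.p := by push_cast; ring
        rw [this]; exact hg
      · right
        have := hw1 (D.c k + Q1.length) (by omega) hwt1 (by omega)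
          (fun s hs1 hs2 => hno s (by omega) hs2)
        simp only [A2, Finset.mem_filter, hmem]
        refine ⟨⟨hk', hkK⟩, hne, ?_⟩
        rw [← this]
        have : (((D.c k + Q1.length : ℕ) : ℤ) - D.p + D.c k' - D.c k) =
          (D.c k' : ℤ) + Q1.length - D.p := by push_cast; ring
        rw [this]; exact hg
  have h1 := Finset.card_le_card hsub
  have h2 := Finset.card_image_le (s := A0 ∪ A1 ∪ A2) (f := Prod.snd)
  have h3 := Finset.card_union_le (A0 ∪ A1) A2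
  have h4 := Finset.card_union_le A0 A1
  omega

end Crest.Agent.R320.Blk_872.Dat
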