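import Mathlib
import Crest.Agent.R320.Blk2_46

/-!
Row 320, helper46: the two schemes in block form, `s1`, `s2`, `cc` of 163's `Top5` (#13363).
-/

set_option autoImplicit false
set_option linter.unusedSectionVars false

namespace Crest.Agent.R320.Blk2_46

variable {α S V : Type*} [Monoid S] [AddCommGroup V]

/-- the factor `[a, b)`. -/
def seg (Y : List α) (a b : ℕ) : List α := (Y.drop a).take (b - a)

theorem seg_left {P Q : List α} {a b : ℕ} (hab : a ≤ b) (hb : b ≤ P.length) :
    seg (P ++ Q) a b = seg P a b := by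
  unfold seg
  rw [List.drop_append_of_le_length (by omega), List.take_append_of_le_length
    (by rw [List.length_drop]; omega)]

theorem seg_right {P Q : List α} {a b : ℕ} (ha : P.length ≤ a) :
    seg (P ++ Q) a b = seg Q (a - P.length) (b - P.length) := by
  unfold seg
  rw [List.drop_append, List.drop_eq_nil_of_le ha, List.nil_append]
  congr 1
  omega

/-- full data of the two schemes -/
structure Sys (α S V : Type*) [Monoid S] [AddCommGroup V] where
  C : Ch α
  φ : List α → S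
  act : V → S → V
  GN : ℕ → Prop
  R : Rul C GN
  -- scheme 1
  lam : List α → Option V
  rho : List α → Option V
  nu1 : List α → V
  -- exact gadget
  m : ℕ
  K : ℕ
  idx : Fin K → ℕ
  Lf : Fin K → List S → Prop
  Rt : Fin K → List S → Prop
  lab : Fin K → V
  rlab : Fin K → V
  nuL : List S → V
  B : ℕ → ℕ
  nam : ℕ → Fin K
  used : ℕ → Prop

variable (D : Sys α S V)

/-- block values of the first `p` letters -/
def Sys.bv (X : List α) (i : ℕ) : S := D.φ (seg X (D.B i) (D.B (i + 1)))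

def Sys.vals (X : List α) : List S := (List.range D.m).map (D.bv X)

def Sys.pre (k : Fin D.K) (P : List α) : List S := ((List.range D.m).take (D.idx k)).map (D.bv P)

def Sys.post (k : Fin D.K) (c : ℕ) (R : List α) : List S :=
  ((List.range D.m).drop (D.idx k + 1)).map
    (fun i => D.φ (seg R (D.B i - c) (D.B (i + 1) - c)))

/-- zone map -/
def Sys.T (v : V) (X : List α) : V :=
  D.act (D.act v (D.φ (X.take D.C.p)) + D.nuL (D.vals (X.take D.C.p))) (D.φ (X.drop D.C.p)) +
    D.nu1 (X.drop D.C.p)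

/-- noise -/
def Sys.ν (X : List α) : V :=
  D.act (D.nuL (D.vals (X.take D.C.p))) (D.φ (X.drop D.C.p)) + D.nu1 (X.drop D.C.p)

def Sys.LP1 (P : List α) (v : V) : Prop :=
  D.C.p ≤ P.length ∧ D.lam (P.drop D.C.p) =
    some (D.act v (D.φ (P.take D.C.p)) + D.nuL (D.vals (P.take D.C.p)))

open Classical in
noncomputable def Sys.R1 (Q : List α) : Option V := if Q ∈ D.C.RB then D.rho Q else none

def Sys.LP2 (P : List α) (v : V) : Prop :=
  ∃ j < D.R.kk, D.used j ∧ P.length = D.R.c j ∧ D.Lf (D.nam j) (D.pre (D.nam j) P) ∧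
    D.lab (D.nam j) = v

def Sys.RR2 (Q : List α) (b : V) : Prop :=
  ∃ j < D.R.kk, D.used j ∧ ∃ b1, D.C.fs (D.R.c j) Q b1 ∧ Q.drop b1 ∈ D.C.XX ∧
    D.C.badQ D.GN (D.R.c j) (Q.take b1) ∧
    (∀ j' < D.R.kk, ∃ b', D.C.fs (D.R.c j') Q b' ∧
      (D.C.badQ D.GN (D.R.c j') (Q.take b') → j' = j)) ∧
    D.Rt (D.nam j) (D.post (D.nam j) (D.R.c j) (Q.take b1)) ∧
    b = D.T (D.act (D.rlab (D.nam j)) (D.φ ((Q.take b1).drop (D.C.p - D.R.c j))) +
      D.nu1 ((Q.take b1).drop (D.C.p - D.R.c j))) (Q.drop b1)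

open Classical in
noncomputable def Sys.R2 (Q : List α) : Option V :=
  if h : ∃ b, D.RR2 Q b then some h.choose else none

/-- hypotheses -/
structure Sys.Ok (D : Sys α S V) : Prop where
  hφ1 : D.φ [] = 1
  hφ : ∀ u v, D.φ (u ++ v) = D.φ u * D.φ v
  amul : ∀ v s s', D.act (D.act v s) s' = D.act v (s * s')
  aadd : ∀ v w s, D.act (v + w) s = D.act v s + D.act w s
  qpos : 0 < D.C.q
  snd1 : ∀ P Q v r, D.lam P = some v → D.rho Q = some r →
    r = D.act v (D.φ (P ++ Q)) + D.nu1 (P ++ Q)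
  len1 : ∀ P v, D.lam P = some v → P.length ≤ D.C.N1
  cpl1 : ∀ Y : List α, D.C.q + 2 * D.C.N1 ≤ Y.length → D.GN Y.length → ∀ v, ∃ P Q, Y = P ++ Q ∧
    D.lam P = some v ∧ (D.rho Q).isSome
  hidx : ∀ k, D.idx k < D.m
  exact : ∀ (c : Fin D.K) (pre post : List S) (z : S), pre.length = D.idx c →
    (pre ++ z :: post).length = D.m → D.Lf c pre → D.Rt c post →
      D.rlab c = D.act (D.lab c) (pre ++ z :: post).prod + D.nuL (pre ++ z :: post)
  cpl2 : ∀ (u : List S) (v : V), u.length = D.m → ∃ (c : Fin D.K) (pre post : List S) (z : S),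
    u = pre ++ z :: post ∧ pre.length = D.idx c ∧ D.Lf c pre ∧ D.Rt c post ∧ D.lab c = v
  B0 : D.B 0 = 0
  Bm : D.B D.m = D.C.p
  Bmono : ∀ i k, i ≤ k → D.B i ≤ D.B k
  hc : ∀ j < D.R.kk, D.used j → D.B (D.idx (D.nam j)) ≤ D.R.c j ∧
    D.R.c j ≤ D.B (D.idx (D.nam j) + 1)
  copies : ∀ k, ∃ s : Finset ℕ, 1 + 2 * D.R.C0 < s.card ∧
    ∀ j ∈ s, j < D.R.kk ∧ D.nam j = k ∧ D.used j

variable {D}

theorem zp (D : Sys α S V) : D.C.p ≤ D.C.z := by unfold Ch.z; omega

theorem hT (h : D.Ok) (v : V) (X : List α) : D.T v X = D.act v (D.φ X) + D.ν X := by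
  unfold Sys.T Sys.ν
  rw [h.aadd, h.amul, ← h.hφ, List.take_append_drop, add_assoc]

theorem s1 (h : D.Ok) (P : List α) (v : V) (Q : List α) (b : V) (hP : D.LP1 P v)
    (hQ : D.R1 Q = some b) : P ++ Q ∈ D.C.XX ∧ D.T v (P ++ Q) = b := by
  classical
  obtain ⟨h1, h2⟩ := hP
  unfold Sys.R1 at hQ
  split_ifs at hQ with h3
  have h4 := h.len1 _ _ h2
  rw [List.length_drop] at h4
  refine ⟨XX_of_RB h1 (by omega) h3, ?_⟩
  have h5 := h.snd1 _ _ _ _ h2 hQ
  unfold Sys.T
  rw [List.take_append_of_le_length h1, List.drop_append_of_le_length h1, ← h5]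

theorem cc1 (h : D.Ok) (X : List α) (hX : X ∈ D.C.XX) (hb : ¬ D.C.Bad D.GN X) (v : V) :
    ∃ P Q, X = P ++ Q ∧ D.C.p ≤ P.length ∧ D.LP1 P v ∧ (D.R1 Q).isSome := by
  classical
  unfold Ch.Bad at hb
  push Not at hb
  obtain ⟨h1, h2⟩ := hb
  have h1' := h1
  unfold Ch.E at h1'
  push Not at h1'
  have h3 := h1'.1
  have h3' : D.C.z = D.C.p + D.C.q + D.C.N1 := rfl
  obtain ⟨P, Q, hPQ, hP, hQ⟩ := h.cpl1 (X.drop D.C.p) (by rw [List.length_drop]; omega)
    (by rw [List.length_drop]; exact h2)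
    (D.act v (D.φ (X.take D.C.p)) + D.nuL (D.vals (X.take D.C.p)))
  have hlen : (X.take D.C.p).length = D.C.p := by rw [List.length_take]; omega
  have hXe : X = (X.take D.C.p ++ P) ++ Q := by
    rw [List.append_assoc, ← hPQ, List.take_append_drop]
  have h4 := h.len1 _ _ hP
  have hRB : Q ∈ D.C.RB := by
    refine RB_of_XX (P := X.take D.C.p ++ P) (by rw [List.length_append]; omega)
      (by rw [List.length_append]; omega) (by rw [← hXe]; exact hX) (by rw [← hXe]; exact h1)
  refine ⟨X.take D.C.p ++ P, Q, hXe, by rw [List.length_append]; omega,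
    ⟨by rw [List.length_append]; omega, ?_⟩, ?_⟩
  · rw [List.drop_left' hlen, List.take_left' hlen]
    exact hP
  · unfold Sys.R1
    rw [if_pos hRB]
    exact hQ

/-! ### Block values -/

theorem seg_prod (h : D.Ok) (X : List α) (i : ℕ) :
    D.φ (X.take (D.B i)) * D.bv X i = D.φ (X.take (D.B (i + 1))) := by
  unfold Sys.bv seg
  rw [← h.hφ]
  congr 1
  have := h.Bmono i (i + 1) (Nat.le_succ i)
  conv_rhs => rw [show D.B (i + 1) = D.B i + (D.B (i + 1) - D.B i) by omega, List.take_add]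

theorem range_prod (h : D.Ok) (X : List α) (n : ℕ) :
    ((List.range n).map (D.bv X)).prod = D.φ (X.take (D.B n)) := by
  induction n with
  | zero => simp [h.B0, h.hφ1]
  | succ n ih =>
    rw [List.range_succ, List.map_append, List.prod_append, ih, List.map_singleton,
      List.prod_singleton, seg_prod h]

theorem vals_prod (h : D.Ok) (X : List α) : (D.vals X).prod = D.φ (X.take D.C.p) := by
  unfold Sys.vals
  rw [range_prod h, h.Bm]

theorem vals_take (h : D.Ok) (X : List α) (hX : D.C.p ≤ X.length) :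
    D.vals (X.take D.C.p) = D.vals X := by
  unfold Sys.vals
  refine List.map_congr_left fun i hi => ?_
  have hi' := List.mem_range.1 hi
  unfold Sys.bv
  congr 1
  have h1 := h.Bmono i (i + 1) (Nat.le_succ i)
  have h2 := h.Bmono (i + 1) D.m hi'
  rw [h.Bm] at h2
  conv_rhs => rw [← List.take_append_drop D.C.p X]
  rw [seg_left h1 (by rw [List.length_take]; omega)]

theorem vals_split (h : D.Ok) (k : Fin D.K) (P R : List α) (c : ℕ) (hP : P.length = c)
    (h1 : D.B (D.idx k) ≤ c) (h2 : c ≤ D.B (D.idx k + 1)) :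
    D.vals (P ++ R) = D.pre k P ++ D.bv (P ++ R) (D.idx k) :: D.post k c R := by
  have hk := h.hidx k
  have hr : List.range D.m = (List.range D.m).take (D.idx k) ++
      D.idx k :: (List.range D.m).drop (D.idx k + 1) := by
    conv_lhs => rw [← List.take_append_drop (D.idx k) (List.range D.m)]
    congr 1
    rw [List.drop_eq_getElem_cons (by simpa using hk)]
    simp
  unfold Sys.vals Sys.pre Sys.post
  conv_lhs => rw [hr]
  rw [List.map_append, List.map_cons]
  congr 1
  · refine List.map_congr_left fun i hi => ?_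
    have hi' : i < D.idx k := by
      rw [List.take_range] at hi
      have := List.mem_range.1 hi
      omega
    unfold Sys.bv
    have h3 := h.Bmono (i + 1) (D.idx k) hi'
    have h4 := h.Bmono i (i + 1) (Nat.le_succ i)
    rw [seg_left h4 (by omega)]
  · congr 1
    refine List.map_congr_left fun i hi => ?_
    have hi' : D.idx k + 1 ≤ i := by
      rw [List.mem_iff_getElem] at hi
      obtain ⟨n, hn, rfl⟩ := hi
      rw [List.getElem_drop, List.getElem_range]
      omega
    unfold Sys.bv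
    have h3 := h.Bmono (D.idx k + 1) i hi'
    rw [seg_right (by omega), hP]

theorem pre_length (h : D.Ok) (k : Fin D.K) (P : List α) : (D.pre k P).length = D.idx k := by
  have := h.hidx k
  unfold Sys.pre
  rw [List.length_map, List.length_take, List.length_range]
  omega

theorem vals_length (X : List α) : (D.vals X).length = D.m := by
  unfold Sys.vals
  rw [List.length_map, List.length_range]

/-- value of a block cut by the exact gadget -/
theorem T_cut (h : D.Ok) {j : ℕ} (hj : j < D.R.kk) (hu : D.used j) {P R : List α}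
    (hP : P.length = D.R.c j) (hL : D.Lf (D.nam j) (D.pre (D.nam j) P))
    (hR : D.Rt (D.nam j) (D.post (D.nam j) (D.R.c j) R)) (hlen : D.C.p ≤ (P ++ R).length) :
    D.T (D.lab (D.nam j)) (P ++ R) =
      D.act (D.rlab (D.nam j)) (D.φ (R.drop (D.C.p - D.R.c j))) +
        D.nu1 (R.drop (D.C.p - D.R.c j)) := by
  obtain ⟨h1, h2⟩ := h.hc j hj hu
  have hs := vals_split h (D.nam j) P R (D.R.c j) hP h1 h2
  have he := h.exact (D.nam j) (D.pre (D.nam j) P) (D.post (D.nam j) (D.R.c j) R)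
    (D.bv (P ++ R) (D.idx (D.nam j))) (pre_length h _ _) (by rw [← hs]; exact vals_length _) hL hR
  rw [← hs, vals_prod h] at he
  have hd : (P ++ R).drop D.C.p = R.drop (D.C.p - D.R.c j) := by
    have a1 := D.R.cL j hj
    have a2 := D.R.Lp
    rw [List.drop_append, List.drop_eq_nil_of_le (by omega), List.nil_append, hP]
  unfold Sys.T
  rw [vals_take h _ hlen, ← he, hd]

theorem s2 (h : D.Ok) (P : List α) (v : V) (Q : List α) (b : V) (hP : D.LP2 P v)
    (hQ : D.R2 Q = some b)
    (hun : ∀ X ∈ D.C.XX, X <+: P ++ Q → ∀ P' Q', X = P' ++ Q' → P.length ≤ P'.length →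
      D.LP1 P' v → (D.R1 Q').isSome → False) :
    ∃ Q1 X2, Q = Q1 ++ X2 ∧ Q1 ≠ [] ∧ P ++ Q1 ∈ D.C.XX ∧ X2 ∈ D.C.XX ∧
      D.T (D.T v (P ++ Q1)) X2 = b := by
  classical
  obtain ⟨jP, hjP, huP, hlP, hLf, hlab⟩ := hP
  unfold Sys.R2 at hQ
  split_ifs at hQ with hex
  rw [Option.some.injEq] at hQ
  have hRR := hex.choose_spec
  rw [hQ] at hRR
  obtain ⟨j, hj, hu, b1, hb1, hX2, hbad, hall, hRt, hb⟩ := hRR
  obtain ⟨b', hb', himp⟩ := hall jP hjP
  have a1 := D.R.cL jP hjP
  have a2 := D.R.Lp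
  have hPp : P.length ≤ D.C.p := by omega
  have hl' : (Q.take b').length = b' := by
    have := hb'.1
    rw [List.length_take]; omega
  have hXX : P ++ Q.take b' ∈ D.C.XX := by
    rw [XX_iff hPp, hlP, hl']
    exact fs_take hb'
  have hjj : jP = j := by
    apply himp
    rw [← hlP, ← bad_iff hPp]
    by_contra hnb
    obtain ⟨P', Q', e1, e2, e3, e4⟩ := cc1 h _ hXX hnb v
    refine hun _ hXX ?_ P' Q' e1 (by omega) e3 e4
    exact ⟨Q.drop b', by rw [List.append_assoc, List.take_append_drop]⟩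
  subst hjj
  have hbb := fs_unique hb' hb1
  subst hbb
  have hz := zp D
  have hlen : D.C.z ≤ (P ++ Q.take b').length := hXX.2.1
  refine ⟨Q.take b', Q.drop b', (List.take_append_drop b' Q).symm, ?_, hXX, hX2, ?_⟩
  · intro hnil
    rw [hnil, List.append_nil] at hlen
    unfold Ch.z at hlen
    have := h.qpos
    omega
  · rw [← hlab, T_cut h hjP huP hlP hLf hRt (by omega), hb]

theorem cc (h : D.Ok) (X : List α) (hX : X ∈ D.C.XX) (X2 : List α) (hX2 : X2 ∈ D.C.XX) (v : V) :
    (∃ P Q, X = P ++ Q ∧ D.LP1 P v ∧ (D.R1 Q).isSome) ∨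
      (∃ P Q, X ++ X2 = P ++ Q ∧ P.length < X.length ∧ D.LP2 P v ∧ (D.R2 Q).isSome) := by
  classical
  by_cases hb : D.C.Bad D.GN X
  swap
  · obtain ⟨P, Q, h1, -, h2, h3⟩ := cc1 h X hX hb v
    exact Or.inl ⟨P, Q, h1, h2, h3⟩
  right
  obtain ⟨k, pre, post, z, e1, e2, e3, e4, e5⟩ := h.cpl2 (D.vals X) v (vals_length X)
  obtain ⟨s, hs1, hs2⟩ := h.copies k
  have hz := zp D
  have hXl := hX.2.1
  have hX2l := hX2.2.1
  have hex : ∃ j ∈ s, ∀ j' < D.R.kk, ¬ D.R.Sp (X ++ X2) j j' := by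
    by_contra hcon
    push Not at hcon
    have := spoil D.R s (T := X ++ X2) (fun j hj => ⟨(hs2 j hj).1, by
      have a1 := D.R.cL j (hs2 j hj).1
      have a2 := D.R.Lp
      rw [List.length_append]; omega, hcon j hj⟩)
    omega
  obtain ⟨j, hjs, hns⟩ := hex
  obtain ⟨hj, hnam, hu⟩ := hs2 j hjs
  have a1 := D.R.cL j hj
  have a2 := D.R.Lp
  have hlX : (X.take (D.R.c j)).length = D.R.c j := by rw [List.length_take]; omega
  have hPR : X.take (D.R.c j) ++ X.drop (D.R.c j) = X := List.take_append_drop _ _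
  have hlR : (X.drop (D.R.c j)).length = X.length - D.R.c j := List.length_drop
  have hfs : D.C.fs (D.R.c j) (X.drop (D.R.c j)) (X.length - D.R.c j) := by
    have h3 := hX
    rw [← hPR, XX_iff (by omega), hlX, hlR] at h3
    exact h3
  have hbq : D.C.badQ D.GN (D.R.c j) (X.drop (D.R.c j)) := by
    have h3 := hb
    rw [← hPR, bad_iff (by omega), hlX] at h3
    exact h3
  obtain ⟨hc1, hc2⟩ := h.hc j hj hu
  have hsp := vals_split h (D.nam j) (X.take (D.R.c j)) (X.drop (D.R.c j)) (D.R.c j) hlX hc1 hc2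
  rw [hPR, e1] at hsp
  have hlpre := pre_length h (D.nam j) (X.take (D.R.c j))
  rw [hnam] at hsp hlpre
  obtain ⟨g1, g2⟩ := List.append_inj hsp (by rw [e2, hlpre])
  obtain ⟨g3, g4⟩ := List.cons.inj g2
  have hdT : (X ++ X2).drop (D.R.c j) = X.drop (D.R.c j) ++ X2 :=
    List.drop_append_of_le_length (by omega)
  refine ⟨X.take (D.R.c j), X.drop (D.R.c j) ++ X2, ?_, ?_, ?_, ?_⟩
  · rw [← List.append_assoc, hPR]
  · have := h.qpos
    rw [hlX]
    unfold Ch.z at hXl
    omega
  · exact ⟨j, hj, hu, hlX, by rw [hnam, ← g1]; exact e3, by rw [hnam]; exact e5⟩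
  · have hRR : ∃ b, D.RR2 (X.drop (D.R.c j) ++ X2) b := by
      have ht : (X.drop (D.R.c j) ++ X2).take (X.length - D.R.c j) = X.drop (D.R.c j) :=
        List.take_left' hlR
      have hd : (X.drop (D.R.c j) ++ X2).drop (X.length - D.R.c j) = X2 := List.drop_left' hlR
      refine ⟨_, j, hj, hu, X.length - D.R.c j, fs_ext hfs, by rw [hd]; exact hX2,
        by rw [ht]; exact hbq, ?_, ?_, rfl⟩
      · intro j' hj'
        have hqn := D.C.qn
        have hz' : D.C.z = D.C.p + D.C.q + D.C.N1 := rfl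
        obtain ⟨b', hb'⟩ := fs_exists (C := D.C) (c := D.R.c j')
          (Q := X.drop (D.R.c j) ++ X2) (y := (X.drop (D.R.c j) ++ X2).length) le_rfl
          ⟨by
            rw [List.take_length]
            exact (D.C.loc _ _ (by omega)).2 hX2.1, by rw [List.length_append]; omega,
            by rw [List.length_append]; omega⟩
        refine ⟨b', hb', fun hbd => ?_⟩
        by_contra hne
        refine hns j' hj' ⟨hne, b', ?_, ?_⟩
        · rw [hdT]; exact hb'
        · rw [hdT]; exact hbd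
      · rw [ht, hnam, ← g4]
        exact e4
    unfold Sys.R2
    rw [dif_pos hRR]
    rfl

end Crest.Agent.R320.Blk2_46
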