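import Crest.Agent.R320.Hk2_851

/-!
# Row 320: the step theorem in block form (helper162)

`Z` = set of blocks (subset of a prefix code `XX`), token maps `τ : List α → U → U`.
Relational left and right words, soundness only at true blocks of class `Z`.
-/

set_option autoImplicit false

namespace Crest.Agent.R320.Blk_162

open Crest.RegLang Crest.Agent.R320.Hk_851

universe u

variable {α : Type u}

/-- evolution of a token along a list of blocks -/
def ev {V : Type*} (σ : List α → V → V) (v : V) (L : List (List α)) : V :=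
  L.foldl (fun v z => σ z v) v

theorem ev_append {V : Type*} (σ : List α → V → V) (v : V) (L L' : List (List α)) :
    ev σ v (L ++ L') = ev σ (ev σ v L) L' := by
  simp [ev, List.foldl_append]

theorem ev_cons {V : Type*} (σ : List α → V → V) (v : V) (z : List α) (L : List (List α)) :
    ev σ v (z :: L) = ev σ (σ z v) L := rfl

theorem ev_nil {V : Type*} (σ : List α → V → V) (v : V) : ev σ v [] = v := rfl

/-- prefix code -/
def PC (XX : Set (List α)) : Prop := [] ∉ XX ∧ ∀ X ∈ XX, ∀ Y ∈ XX, X <+: Y → X = Y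

/-- products of blocks of class `Z` which take the token `v` to `v'` -/
def T (Z : Set (List α)) {V : Type} (σ : List α → V → V) (v v' : V) : Language α :=
  {w | ∃ L : List (List α), (∀ X ∈ L, X ∈ Z) ∧ w = L.flatten ∧ ev σ v L = v'}

variable {XX Z Z' : Set (List α)}

/-- first block of a text -/
theorem PC.first (h : PC XX) (hZ : Z ⊆ XX) {X s : List α} (hX : X ∈ XX) {L : List (List α)}
    (hL : ∀ Y ∈ L, Y ∈ Z) (e : X ++ s = L.flatten) :
    ∃ L', L = X :: L' ∧ X ∈ Z ∧ s = L'.flatten := by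
  cases L with
  | nil =>
    simp only [List.flatten_nil, List.append_eq_nil_iff] at e
    exact (h.1 (e.1 ▸ hX)).elim
  | cons Y L' =>
    rw [List.flatten_cons] at e
    have hY : Y ∈ Z := hL Y (by simp)
    have hXY : X = Y := by
      rcases List.prefix_or_prefix_of_prefix (⟨s, rfl⟩ : X <+: X ++ s)
        (⟨L'.flatten, e.symm⟩ : Y <+: X ++ s) with h1 | h1
      · exact h.2 X hX Y (hZ hY) h1
      · exact (h.2 Y (hZ hY) X hX h1).symm
    subst hXY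
    exact ⟨L', rfl, hY, List.append_cancel_left e⟩

theorem PC.initial (h : PC XX) (hZ : Z ⊆ XX) : ∀ (L₁ : List (List α)) (L : List (List α))
    (s : List α), (∀ X ∈ L₁, X ∈ XX) → (∀ Y ∈ L, Y ∈ Z) → L₁.flatten ++ s = L.flatten →
    ∃ L₂, L = L₁ ++ L₂ ∧ s = L₂.flatten := by
  intro L₁
  induction L₁ with
  | nil => intro L s _ _ e; exact ⟨L, rfl, by simpa using e⟩
  | cons X L₁ ih =>
    intro L s h1 hL e
    rw [List.flatten_cons, List.append_assoc] at e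
    obtain ⟨L', rfl, hX, e2⟩ := h.first hZ (h1 X (by simp)) hL e
    obtain ⟨L₂, rfl, e3⟩ := ih L' s (fun Y hY => h1 Y (by simp [hY]))
      (fun Y hY => hL Y (by simp [hY])) e2
    exact ⟨L₂, rfl, e3⟩

/-- a cut scheme: sound at blocks of `Z`, complete on `Z \ Z'` -/
structure Scheme (XX Z Z' : Set (List α)) {U : Type} (τ : List α → U → U) where
  LL : U → Language α
  RR : U → Language α
  ne : ∀ u u' P Q, P ∈ LL u → Q ∈ RR u' → P ++ Q ≠ []
  sound : ∀ u u' P Q s X y, P ∈ LL u → Q ∈ RR u' → X ∈ Z → (P ++ Q) ++ s = X ++ y →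
    X = P ++ Q ∧ τ X u = u'
  complete : ∀ X ∈ Z, X ∉ Z' → ∀ u, ∃ P Q, X = P ++ Q ∧ P ∈ LL u ∧ Q ∈ RR (τ X u)

section scheme

variable {U : Type} {τ : List α → U → U} (S : Scheme XX Z Z' τ)

def K : Language α :=
  {w | ∃ u₁ u₂ Q x P, Q ∈ S.RR u₁ ∧ x ∈ T Z' τ u₁ u₂ ∧ P ∈ S.LL u₂ ∧ w = Q ++ (x ++ P)}

def W0 (v : U) : Language α := {w | ∃ u x P, x ∈ T Z' τ v u ∧ P ∈ S.LL u ∧ w = x ++ P}

def W1 (v' : U) : Language α := {w | ∃ u Q x, Q ∈ S.RR u ∧ x ∈ T Z' τ u v' ∧ w = Q ++ x}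

def J (v v' : U) : Language α :=
  {w | w ∈ T Z' τ v v' ∨
    ∃ a b c, a ∈ W0 S v ∧ b ∈ KStar.kstar (K S) ∧ c ∈ W1 S v' ∧ w = a ++ (b ++ c)}

theorem kstar_cons {A : Language α} {k b : List α} (hk : k ∈ A) (hb : b ∈ KStar.kstar A) :
    k ++ b ∈ KStar.kstar A := by
  obtain ⟨S, rfl, hS⟩ := Language.mem_kstar.1 hb
  refine (Language.mem_kstar.2 ⟨k :: S, by simp, ?_⟩ : k ++ S.flatten ∈ KStar.kstar A)
  intro z hz
  rcases List.mem_cons.1 hz with rfl | hz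
  · exact hk
  · exact hS z hz

theorem nil_kstar {A : Language α} : ([] : List α) ∈ KStar.kstar A :=
  Language.mem_kstar.2 ⟨[], rfl, by simp⟩

theorem T_cons {X x : List α} {v v' : U} (hX : X ∈ Z') (h : x ∈ T Z' τ (τ X v) v') :
    X ++ x ∈ T Z' τ v v' := by
  obtain ⟨L, h1, rfl, h3⟩ := h
  refine ⟨X :: L, ?_, by simp, h3⟩
  intro Y hY
  rcases List.mem_cons.1 hY with rfl | hY
  · exact hX
  · exact h1 Y hY

theorem complete_J : ∀ (L : List (List α)), (∀ X ∈ L, X ∈ Z) → ∀ v,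
    L.flatten ∈ J S v (ev τ v L) := by
  intro L
  induction L with
  | nil => intro _ v; exact Or.inl ⟨[], by simp, rfl, rfl⟩
  | cons X L ih =>
    intro hL v
    have hX := hL X (by simp)
    have ih' := ih (fun Y hY => hL Y (by simp [hY])) (τ X v)
    rw [List.flatten_cons]
    by_cases hz : X ∈ Z'
    · rcases ih' with h | ⟨a, b, c, ⟨u, x, P, h1, h2, rfl⟩, hb, hc, e⟩
      · exact Or.inl (T_cons hz h)
      · refine Or.inr ⟨(X ++ x) ++ P, b, c, ⟨u, X ++ x, P, T_cons hz h1, h2, rfl⟩, hb, hc, ?_⟩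
        rw [e]; simp only [List.append_assoc]
    · obtain ⟨P, Q, e1, hP, hQ⟩ := S.complete X hX hz v
      rcases ih' with h | ⟨a, b, c, ⟨u, x, P', h1, h2, rfl⟩, hb, hc, e⟩
      · refine Or.inr ⟨P, [], Q ++ L.flatten, ⟨v, [], P, ⟨[], by simp, rfl, rfl⟩, hP, rfl⟩,
          nil_kstar, ⟨_, Q, _, hQ, h, rfl⟩, ?_⟩
        rw [List.nil_append, ← List.append_assoc, ← e1]
      · refine Or.inr ⟨P, (Q ++ (x ++ P')) ++ b, c, ⟨v, [], P, ⟨[], by simp, rfl, rfl⟩, hP, rfl⟩,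
          kstar_cons ⟨_, _, Q, x, P', hQ, h1, h2, rfl⟩ hb, hc, ?_⟩
        rw [e, e1]; simp only [List.append_assoc]

theorem junction {u u' : U} {P Q s : List α} (hP : P ∈ S.LL u)
    (hQ : Q ∈ S.RR u') {L : List (List α)} (hL : ∀ X ∈ L, X ∈ Z)
    (e : P ++ (Q ++ s) = L.flatten) :
    ∃ L', L = (P ++ Q) :: L' ∧ s = L'.flatten ∧ τ (P ++ Q) u = u' := by
  have hne := S.ne u u' P Q hP hQ
  cases L with
  | nil =>
    simp only [List.flatten_nil, List.append_eq_nil_iff] at e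
    exact (hne (by rw [e.1, e.2.1]; rfl)).elim
  | cons X L' =>
    rw [List.flatten_cons, ← List.append_assoc] at e
    obtain ⟨e1, e2⟩ := S.sound u u' P Q s X L'.flatten hP hQ (hL X (by simp)) e
    subst e1
    exact ⟨L', rfl, List.append_cancel_left e, e2⟩

theorem chain_E (hXX : PC XX) (hZX : Z ⊆ XX) (hZ : Z' ⊆ Z) {c s : List α} {v' : U}
    (hc : c ∈ W1 S v') : ∀ (Ks : List (List α)), (∀ k ∈ Ks, k ∈ K S) →
    ∀ (P : List α) (u : U) (L : List (List α)), P ∈ S.LL u → (∀ X ∈ L, X ∈ Z) →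
      P ++ (Ks.flatten ++ (c ++ s)) = L.flatten →
      ∃ L₁ L₂, L = L₁ ++ L₂ ∧ s = L₂.flatten ∧ ev τ u L₁ = v' := by
  intro Ks
  induction Ks with
  | nil =>
    intro _ P u L hP hL e
    rw [List.flatten_nil, List.nil_append] at e
    obtain ⟨u', Q, x, hQ, ⟨M, m1, rfl, m3⟩, rfl⟩ := hc
    rw [List.append_assoc] at e
    obtain ⟨L', rfl, e2, e3⟩ := junction S hP hQ hL e
    obtain ⟨L₂, rfl, e4⟩ := hXX.initial hZX M L' s (fun X hX => hZX (hZ (m1 X hX)))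
      (fun X hX => hL X (by simp [hX])) e2
    refine ⟨(P ++ Q) :: M, L₂, rfl, e4, ?_⟩
    rw [ev_cons, e3, m3]
  | cons k Ks ih =>
    intro hK P u L hP hL e
    obtain ⟨u₁, u₂, Q, x, P', hQ, ⟨M, m1, rfl, m3⟩, hP', rfl⟩ := hK k (by simp)
    have e' : P ++ (Q ++ (M.flatten ++ (P' ++ (Ks.flatten ++ (c ++ s))))) = L.flatten := by
      rw [← e, List.flatten_cons]; simp only [List.append_assoc]
    obtain ⟨L', rfl, e2, e3⟩ := junction S hP hQ hL e'
    obtain ⟨L₂, rfl, e4⟩ := hXX.initial hZX M L' _ (fun X hX => hZX (hZ (m1 X hX)))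
      (fun X hX => hL X (by simp [hX])) e2
    obtain ⟨L₃, L₄, rfl, f2, f3⟩ := ih (fun k' hk' => hK k' (by simp [hk'])) P' u₂ L₂ hP'
      (fun X hX => hL X (by simp [hX])) e4
    refine ⟨(P ++ Q) :: (M ++ L₃), L₄, by simp, f2, ?_⟩
    rw [ev_cons, e3, ev_append, m3, f3]

theorem sound_J (hXX : PC XX) (hZX : Z ⊆ XX) (hZ : Z' ⊆ Z) {w s : List α} {v v' : U}
    (hw : w ∈ J S v v') {L : List (List α)} (hL : ∀ X ∈ L, X ∈ Z) (e : w ++ s = L.flatten) :
    ∃ L₁ L₂, L = L₁ ++ L₂ ∧ s = L₂.flatten ∧ ev τ v L₁ = v' := by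
  rcases hw with ⟨M, m1, rfl, m3⟩ | ⟨a, b, c, ⟨u, x, P, ⟨M, m1, rfl, m3⟩, hP, rfl⟩, hb, hc, rfl⟩
  · obtain ⟨L₂, rfl, e4⟩ := hXX.initial hZX M L s (fun X hX => hZX (hZ (m1 X hX))) hL e
    exact ⟨M, L₂, rfl, e4, m3⟩
  · obtain ⟨Ks, rfl, hK⟩ := Language.mem_kstar.1 hb
    have e' : M.flatten ++ (P ++ (Ks.flatten ++ (c ++ s))) = L.flatten := by
      rw [← e]; simp only [List.append_assoc]
    obtain ⟨L₂, rfl, e4⟩ := hXX.initial hZX M L _ (fun X hX => hZX (hZ (m1 X hX))) hL e'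
    obtain ⟨L₃, L₄, rfl, f2, f3⟩ := chain_E S hXX hZX hZ hc Ks hK P u L₂ hP
      (fun X hX => hL X (by simp [hX])) e4
    refine ⟨M ++ L₃, L₄, by simp, f2, ?_⟩
    rw [ev_append, m3, f3]

/-- products of `Z`-blocks -/
def Good (Z : Set (List α)) : Language α := {w | ∃ L : List (List α), (∀ X ∈ L, X ∈ Z) ∧ w = L.flatten}

/-- words with a `Z`-block as a prefix -/
def Pre (Z : Set (List α)) : Language α := {q | ∃ X ∈ Z, X <+: q}

def Fail (v₀ : U) : Language α :=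
  {w | ∃ v' u q, u ∈ J S v₀ v' ∧ q ≠ [] ∧ q ∉ Pre Z ∧ w = u ++ q}

theorem good_or_stuck (hXX : PC XX) (hZX : Z ⊆ XX) : ∀ (n : ℕ) (r : List α), r.length ≤ n →
    ∃ (L : List (List α)) (q : List α), (∀ X ∈ L, X ∈ Z) ∧ r = L.flatten ++ q ∧
      (q = [] ∨ q ∉ Pre Z) := by
  intro n
  induction n with
  | zero =>
    intro r h1
    have : r = [] := List.length_eq_zero_iff.1 (by omega)
    exact ⟨[], [], by simp, by simp [this], Or.inl rfl⟩
  | succ n ih =>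
    intro r h1
    by_cases hs : r ∈ Pre Z
    · obtain ⟨X, hX, q, rfl⟩ := hs
      have hne : X ≠ [] := fun h => hXX.1 (h ▸ hZX hX)
      have := List.length_pos_iff.2 hne
      rw [List.length_append] at h1
      obtain ⟨L, q', g1, rfl, g3⟩ := ih q (by omega)
      refine ⟨X :: L, q', ?_, by simp, g3⟩
      intro Y hY
      rcases List.mem_cons.1 hY with rfl | hY
      · exact hX
      · exact g1 Y hY
    · exact ⟨[], r, by simp, by simp, Or.inr hs⟩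

theorem good_iff (hXX : PC XX) (hZX : Z ⊆ XX) (hZ : Z' ⊆ Z) (v₀ : U) (w : List α) :
    w ∈ Good Z ↔ w ∉ Fail S v₀ := by
  constructor
  · rintro ⟨L, hL, rfl⟩ ⟨v', u, q, h1, h2, h3, e⟩
    obtain ⟨L₁, L₂, rfl, e2, -⟩ := sound_J S hXX hZX hZ h1 hL e.symm
    cases L₂ with
    | nil => exact h2 (by simpa using e2)
    | cons X L₂ => exact h3 ⟨X, hL X (by simp), by rw [e2, List.flatten_cons]; exact ⟨_, rfl⟩⟩
  · intro h
    obtain ⟨L, q, g1, rfl, g3⟩ := good_or_stuck hXX hZX w.length w le_rfl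
    by_cases hq : q = []
    · exact ⟨L, g1, by simp [hq]⟩
    · exact (h ⟨_, _, q, complete_J S L g1 v₀, hq, g3.resolve_left hq, rfl⟩).elim

theorem T_iff (hXX : PC XX) (hZX : Z ⊆ XX) (hZ : Z' ⊆ Z) (v v' : U) (w : List α) :
    w ∈ T Z τ v v' ↔ w ∈ J S v v' ∧ w ∈ Good Z := by
  constructor
  · rintro ⟨L, h1, rfl, rfl⟩
    exact ⟨complete_J S L h1 v, L, h1, rfl⟩
  · rintro ⟨h1, L, hL, rfl⟩
    obtain ⟨L₁, L₂, rfl, e2, e3⟩ := sound_J S hXX hZX hZ (s := []) h1 hL (by simp)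
    refine ⟨L₁, fun X hX => hL X (by simp [hX]), ?_, e3⟩
    rw [List.flatten_append, ← e2, List.append_nil]

/-! ### heights -/

variable {k : ℕ}

theorem HL_K [Finite U] (h : ∀ u u', HL k (T Z' τ u u')) (hL : ∀ u, HL k (S.LL u))
    (hR : ∀ u, HL k (S.RR u)) : HL k (K S) := by
  have h1 : HL k {w : List α | ∃ i : U × U, w ∈ S.RR i.1 * (T Z' τ i.1 i.2 * S.LL i.2)} :=
    HL.iUnion fun i => (hR _).mul ((h _ _).mul (hL _))
  refine h1.congr fun w => ?_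
  constructor
  · rintro ⟨u₁, u₂, Q, x, P, a, b, c, rfl⟩
    exact ⟨(u₁, u₂), Language.mem_mul.2 ⟨Q, a, _, Language.mem_mul.2 ⟨x, b, P, c, rfl⟩, rfl⟩⟩
  · rintro ⟨⟨u₁, u₂⟩, hw⟩
    obtain ⟨Q, a, y, hy, rfl⟩ := Language.mem_mul.1 hw
    obtain ⟨x, b, P, c, rfl⟩ := Language.mem_mul.1 hy
    exact ⟨u₁, u₂, Q, x, P, a, b, c, rfl⟩

theorem HL_W0 [Finite U] (h : ∀ u u', HL k (T Z' τ u u')) (hL : ∀ u, HL k (S.LL u)) (v : U) :
    HL k (W0 S v) := by
  have h1 : HL k {w : List α | ∃ i : U, w ∈ T Z' τ v i * S.LL i} :=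
    HL.iUnion fun i => (h _ _).mul (hL _)
  refine h1.congr fun w => ?_
  constructor
  · rintro ⟨u, x, P, b, c, rfl⟩
    exact ⟨u, Language.mem_mul.2 ⟨x, b, P, c, rfl⟩⟩
  · rintro ⟨u, hw⟩
    obtain ⟨x, b, P, c, rfl⟩ := Language.mem_mul.1 hw
    exact ⟨u, x, P, b, c, rfl⟩

theorem HL_W1 [Finite U] (h : ∀ u u', HL k (T Z' τ u u')) (hR : ∀ u, HL k (S.RR u)) (v' : U) :
    HL k (W1 S v') := by
  have h1 : HL k {w : List α | ∃ i : U, w ∈ S.RR i * T Z' τ i v'} :=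
    HL.iUnion fun i => (hR _).mul (h _ _)
  refine h1.congr fun w => ?_
  constructor
  · rintro ⟨u, Q, x, b, c, rfl⟩
    exact ⟨u, Language.mem_mul.2 ⟨Q, b, x, c, rfl⟩⟩
  · rintro ⟨u, hw⟩
    obtain ⟨Q, b, x, c, rfl⟩ := Language.mem_mul.1 hw
    exact ⟨u, Q, x, b, c, rfl⟩

theorem HL_J [Finite U] (h : ∀ u u', HL k (T Z' τ u u')) (hL : ∀ u, HL k (S.LL u))
    (hR : ∀ u, HL k (S.RR u)) (v v' : U) : HL (k + 1) (J S v v') := by
  have h1 := ((h v v').mono (Nat.le_succ k)).setOf_or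
    (((HL_W0 S h hL v).mono (Nat.le_succ k)).mul
      ((HL_K S h hL hR).star.mul ((HL_W1 S h hR v').mono (Nat.le_succ k))))
  refine h1.congr fun w => ?_
  constructor
  · rintro (hw | ⟨a, b, c, ha, hb, hc, rfl⟩)
    · exact Or.inl hw
    · exact Or.inr (Language.mem_mul.2 ⟨a, ha, b ++ c, Language.mem_mul.2 ⟨b, hb, c, hc, rfl⟩, rfl⟩)
  · rintro (hw | hw)
    · exact Or.inl hw
    · obtain ⟨a, ha, bc, hbc, rfl⟩ := Language.mem_mul.1 hw
      obtain ⟨b, hb, c, hc, rfl⟩ := Language.mem_mul.1 hbc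
      exact Or.inr ⟨a, b, c, ha, hb, hc, rfl⟩

theorem HL_Pre {j : ℕ} (h : HL j (Z : Language α)) : HL j (Pre Z) :=
  h.prefix.congr fun _ => Iff.rfl

def NP (Z : Set (List α)) : Language α := {q | q ≠ [] ∧ q ∉ Pre Z}

theorem HL_NP {j : ℕ} (h : HL j (Z : Language α)) : HL j (NP Z) :=
  (HL.one.setOf_not).setOf_and (HL_Pre h).setOf_not

theorem HL_Fail [Finite U] (h : ∀ u u', HL k (T Z' τ u u')) (hL : ∀ u, HL k (S.LL u))
    (hR : ∀ u, HL k (S.RR u)) (hZ1 : HL (k + 1) (Z : Language α)) (v₀ : U) :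
    HL (k + 1) (Fail S v₀) := by
  have h1 : HL (k + 1) {w : List α | ∃ i : U, w ∈ J S v₀ i * NP Z} :=
    HL.iUnion fun i => (HL_J S h hL hR _ _).mul (HL_NP hZ1)
  refine h1.congr fun w => ?_
  constructor
  · rintro ⟨v', u, q, a, b, c, rfl⟩
    exact ⟨v', Language.mem_mul.2 ⟨u, a, q, ⟨b, c⟩, rfl⟩⟩
  · rintro ⟨v', hw⟩
    obtain ⟨u, a, q, ⟨b, c⟩, rfl⟩ := Language.mem_mul.1 hw
    exact ⟨v', u, q, a, b, c, rfl⟩

include S in
/-- **step theorem, block form** -/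
theorem HL_T [Finite U] [Nonempty U] (hXX : PC XX) (hZX : Z ⊆ XX) (hZ : Z' ⊆ Z)
    (h : ∀ u u', HL k (T Z' τ u u')) (hL : ∀ u, HL k (S.LL u)) (hR : ∀ u, HL k (S.RR u))
    (hZ1 : HL (k + 1) (Z : Language α)) (v v' : U) : HL (k + 1) (T Z τ v v') := by
  obtain ⟨v₀⟩ := ‹Nonempty U›
  have hG : HL (k + 1) (Good Z) :=
    (HL_Fail S h hL hR hZ1 v₀).compl.congr fun w => good_iff S hXX hZX hZ v₀ w
  exact ((HL_J S h hL hR v v').setOf_and hG).congr fun w => T_iff S hXX hZX hZ v v' w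

end scheme

/-- no blocks -/
theorem HL_T_empty {k : ℕ} {U : Type} (τ : List α → U → U) (v v' : U) :
    HL k (T (∅ : Set (List α)) τ v v') := by
  have h1 : HL k {w : List α | w ∈ (1 : Language α) ∧ v = v'} := HL.one.setOf_and (HL.const _)
  refine h1.congr fun w => ?_
  constructor
  · rintro ⟨L, h1, rfl, h3⟩
    cases L with
    | nil => exact ⟨rfl, h3⟩
    | cons X L => exact (h1 X (by simp)).elim
  · rintro ⟨a, b⟩
    have a' : w = [] := a
    exact ⟨[], by simp, a', b⟩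

/-- **two schemes**: scheme 2 sound and complete on `Bad`, scheme 1 sound on all blocks and
complete off `Bad`, everything of height one. -/
theorem two {U : Type} [Finite U] [Nonempty U] {τ : List α → U → U} {Bad : Set (List α)}
    (hXX : PC XX) (hB : Bad ⊆ XX) (S2 : Scheme XX Bad ∅ τ) (S1 : Scheme XX XX Bad τ)
    (h1L : ∀ u, HL 1 (S1.LL u)) (h1R : ∀ u, HL 1 (S1.RR u))
    (h2L : ∀ u, HL 1 (S2.LL u)) (h2R : ∀ u, HL 1 (S2.RR u))
    (hX : HL 1 (XX : Language α)) (hBd : HL 1 (Bad : Language α)) (v v' : U) :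
    HL 3 (T XX τ v v') := by
  refine HL_T S1 (k := 2) hXX (le_refl _) hB (fun u u' => ?_) (fun u => (h1L u).mono (by norm_num))
    (fun u => (h1R u).mono (by norm_num)) (hX.mono (by norm_num)) v v'
  exact HL_T S2 (k := 1) hXX hB (Set.empty_subset _) (fun u u' => HL_T_empty τ u u') h2L h2R
    (hBd.mono (by norm_num)) u u'

end Crest.Agent.R320.Blk_162
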