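import Crest.Agent.R320.Main_621
import Crest.Agent.R320.FewVal_228
import Crest.Agent.R320.Reg_143
import Crest.Agent.R320.ExactR_237

/-!
# Row 320: blocks between walls (helper2)
-/

set_option autoImplicit false

namespace Crest.Agent.R320.Blk_2

open Crest.Agent.R320.FewWalls_228 Crest.R320.Reg_143

universe u

variable {α : Type u} {n : ℕ} {S : Set (List α)}

theorem wl_left {u v : List α} {x : ℕ} (h : x + n ≤ u.length) :
    Wl n S (u ++ v) x ↔ Wl n S u x := by
  unfold Wl
  rw [List.drop_append_of_le_length (by omega),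
    List.take_append_of_le_length (by rw [List.length_drop]; omega)]
  constructor
  · rintro ⟨_, h2⟩; exact ⟨h, h2⟩
  · rintro ⟨_, h2⟩; exact ⟨by rw [List.length_append]; omega, h2⟩

theorem wl_right {u v : List α} {x : ℕ} :
    Wl n S (u ++ v) (u.length + x) ↔ Wl n S v x := by
  unfold Wl
  rw [List.drop_append, List.drop_eq_nil_of_le (by omega), List.nil_append,
    List.length_append]
  rw [show u.length + x - u.length = x by omega]
  constructor
  · rintro ⟨h1, h2⟩; exact ⟨by omega, h2⟩
  · rintro ⟨h1, h2⟩; exact ⟨by omega, h2⟩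

theorem wl_right' {u v : List α} {y : ℕ} (h : u.length ≤ y) :
    Wl n S (u ++ v) y ↔ Wl n S v (y - u.length) := by
  have := wl_right (n := n) (S := S) (u := u) (v := v) (x := y - u.length)
  rwa [show u.length + (y - u.length) = y by omega] at this

/-- `w` is a block with threshold `θ`, walls `t < l` after the threshold, end at `l` -/
def Blk (n : ℕ) (S : Set (List α)) (θ : ℕ) (w : List α) (t l : ℕ) : Prop :=
  θ ≤ t ∧ t < l ∧ Wl n S w t ∧ Wl n S w l ∧ l + n = w.length ∧
    ∀ x, θ ≤ x → Wl n S w x → x = t ∨ x = l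

theorem Blk.shift {θ t l : ℕ} {P Q : List α} (hP : P.length ≤ θ)
    (h : Blk n S (θ - P.length) Q t l) : Blk n S θ (P ++ Q) (P.length + t) (P.length + l) := by
  obtain ⟨h1, h2, h3, h4, h5, h6⟩ := h
  refine ⟨by omega, by omega, wl_right.2 h3, wl_right.2 h4, by rw [List.length_append]; omega, ?_⟩
  intro x hx hw
  rw [wl_right' (by omega)] at hw
  rcases h6 (x - P.length) (by omega) hw with h | h <;> omega

theorem Blk.unshift {θ t l : ℕ} {P Q : List α} (hP : P.length ≤ θ)
    (h : Blk n S θ (P ++ Q) t l) :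
    Blk n S (θ - P.length) Q (t - P.length) (l - P.length) := by
  obtain ⟨h1, h2, h3, h4, h5, h6⟩ := h
  rw [List.length_append] at h5
  refine ⟨by omega, by omega, (wl_right' (by omega)).1 h3, (wl_right' (by omega)).1 h4,
    by omega, ?_⟩
  intro x hx hw
  have := h6 (P.length + x) (by omega) (wl_right.2 hw)
  omega

theorem Blk.uniq {θ t l t' l' : ℕ} {w : List α}
    (h : Blk n S θ w t l) (h' : Blk n S θ w t' l') : t = t' ∧ l = l' := by
  obtain ⟨h1, h2, h3, h4, h5, h6⟩ := h
  obtain ⟨g1, g2, g3, g4, g5, g6⟩ := h'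
  have a := g6 t h1 h3
  have b := g6 l (by omega) h4
  omega

theorem Blk.code_aux {θ t l t' l' : ℕ} {w w' x x' : List α}
    (h : Blk n S θ w t l) (h' : Blk n S θ w' t' l') (e : w ++ x = w' ++ x')
    (hl : w.length ≤ w'.length) : w = w' := by
  obtain ⟨h1, h2, h3, h4, h5, h6⟩ := h
  obtain ⟨g1, g2, g3, g4, g5, g6⟩ := h'
  have hpre : w <+: w' := List.prefix_of_prefix_length_le ⟨x, e⟩ ⟨x', rfl⟩ hl
  obtain ⟨s, rfl⟩ := hpre
  have a := g6 t h1 ((wl_left (by have := h3.1; omega)).2 h3)
  have b := g6 l (by omega) ((wl_left (by have := h4.1; omega)).2 h4)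
  have hlen : (w ++ s).length = w.length + s.length := List.length_append
  have : s.length = 0 := by omega
  rw [List.length_eq_zero_iff.1 this, List.append_nil]

theorem Blk.code {θ t l t' l' : ℕ} {w w' x x' : List α}
    (h : Blk n S θ w t l) (h' : Blk n S θ w' t' l') (e : w ++ x = w' ++ x') : w = w' := by
  rcases Nat.le_total w.length w'.length with hl | hl
  · exact h.code_aux h' e hl
  · exact (h'.code_aux h e.symm hl).symm

theorem Blk.nw_le {θ t l : ℕ} {w : List α} (h : Blk n S θ w t l) : nw n S w ≤ θ + 2 := by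
  classical
  unfold nw
  have hsub : (Finset.range (w.length + 1)).filter (fun x => Wl n S w x) ⊆
      Finset.range θ ∪ {t, l} := by
    intro x hx
    rw [Finset.mem_filter] at hx
    rw [Finset.mem_union, Finset.mem_range, Finset.mem_insert, Finset.mem_singleton]
    by_cases hθ : x < θ
    · exact Or.inl hθ
    · exact Or.inr (h.2.2.2.2.2 x (by omega) hx.2)
  refine (Finset.card_le_card hsub).trans ((Finset.card_union_le _ _).trans ?_)
  rw [Finset.card_range]
  exact Nat.add_le_add_left Finset.card_le_two _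

/-! ### regularity -/

variable [Finite α]

theorem reg_wl {k : ℕ} (hS : ∀ s ∈ S, s.length = n) (i : Fin k) :
    RegP (fun w (x : Fin k → ℕ) => Wl n S w (x i)) := by
  have h := RegP.drop (k := k) (isRegular_take (β := α) n (fun v => v ∈ S)) i
  refine h.congr fun w x hx => ?_
  have := hx i
  unfold Wl
  constructor
  · rintro ⟨_, h2⟩; exact h2
  · intro h2
    have h3 := hS _ h2
    rw [List.length_take, List.length_drop] at h3
    exact ⟨by omega, h2⟩

theorem reg_ge {k : ℕ} (θ : ℕ) (i : Fin k) :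
    RegP (fun (w : List α) (x : Fin k → ℕ) => θ ≤ x i) := by
  refine (RegP.take (k := k) (isRegular_length (β := α) (fun m => θ ≤ m) θ 1 one_pos
    (fun m hm => by omega)) i).congr fun w x hx => ?_
  have := hx i
  rw [List.length_take]
  omega

theorem reg_end {k : ℕ} (i : Fin k) :
    RegP (fun (w : List α) (x : Fin k → ℕ) => x i + n = w.length) := by
  refine (RegP.drop (k := k) (isRegular_length (β := α) (fun m => m = n) (n + 1) 1 one_pos
    (fun m hm => by omega)) i).congr fun w x hx => ?_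
  have := hx i
  rw [List.length_drop]
  omega

theorem reg_blk {k : ℕ} (hS : ∀ s ∈ S, s.length = n) (θ : ℕ) (i j : Fin k) :
    RegP (fun w (x : Fin k → ℕ) => Blk n S θ w (x i) (x j)) := by
  have h : RegP (fun w (x : Fin k → ℕ) => ∀ y ≤ w.length, θ ≤ y → Wl n S w y →
      y = x i ∨ y = x j) := by
    refine RegP.all' (P := fun w x y => θ ≤ y → Wl n S w y → y = x i ∨ y = x j) ?_
    refine RegP.imp (reg_ge θ 0) (RegP.imp (reg_wl hS 0) (RegP.or ?_ ?_))
    · exact RegP.eq (α := α) (0 : Fin (k + 1)) i.succ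
    · exact RegP.eq (α := α) (0 : Fin (k + 1)) j.succ
  refine ((reg_ge θ i).and ((RegP.lt i j).and ((reg_wl hS i).and ((reg_wl hS j).and
    ((reg_end (n := n) j).and h))))).congr fun w x hx => ?_
  unfold Blk
  constructor
  · rintro ⟨h1, h2, h3, h4, h5, h6⟩
    exact ⟨h1, h2, h3, h4, h5, fun y hy1 hy2 hy3 => h6 y hy2 hy3⟩
  · rintro ⟨h1, h2, h3, h4, h5, h6⟩
    exact ⟨h1, h2, h3, h4, h5, fun y hy2 hy3 => h6 y (by have := hy3.1; omega) hy2 hy3⟩

end Crest.Agent.R320.Blk_2
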