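import Crest.Agent.R320.Reg_402
import Crest.Agent.R320.Top5_110
import Crest.Agent.R320.ExactR_237

/-!
# Row 320: the two completeness statements of the natural chain rule (helper402)
-/

set_option autoImplicit false

namespace Crest.Agent.R320.Blk_402

open Crest.RegLang Crest.Agent.R320.Hk_851 Crest.Agent.R320.Code110 Crest.Agent.R320.Reg_402

variable {α : Type} {S : Type} [Monoid S] {V : Type} [AddCommGroup V]

/-- product -/
def ph (f : α → S) (w : List α) : S := (w.map f).prod

theorem ph_nil (f : α → S) : ph f [] = 1 := rfl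

theorem ph_app (f : α → S) (u w : List α) : ph f (u ++ w) = ph f u * ph f w := by
  simp [ph]

section defs
variable (Wo : List α → Prop) (z p0 N1 : ℕ) (BadT : ℕ → Prop) (f : α → S) (act : V → S → V)
  (nu2 nu1 : List α → V)

/-- zone map -/
def TT (u : List α) (x : V) : V :=
  act (act x (ph f (u.take p0)) + nu2 (u.take p0)) (ph f (u.drop p0)) + nu1 (u.drop p0)

/-- bad blocks -/
def BB : Language α :=
  {X | X ∈ XX Wo z ∧ ((∃ t, z ≤ t + N1 ∧ t < z + N1 ∧ t ≤ X.length ∧ Wo (X.take t)) ∨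
    BadT (X.length - p0))}

/-- left words of scheme 1 -/
def L1 (lam : List α → Option V) (x : V) : Language α :=
  {P | p0 ≤ P.length ∧ lam (P.drop p0) = some (act x (ph f (P.take p0)) + nu2 (P.take p0))}

/-- left words of scheme 2 -/
def L2 (K : ℕ) (c : ℕ → ℕ) (lam2 : ℕ → List α → Option V) (x : V) : Language α :=
  {P | ∃ k, k < K ∧ P.length = c k ∧ lam2 k P = some x}

end defs

/-- walls of a word whose left part is exchanged -/
theorem wo_shift {Wo : List α → Prop} {n : ℕ}
    (hloc : ∀ P Q : List α, n ≤ Q.length → (Wo (P ++ Q) ↔ Wo Q))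
    (P P' q : List α) (s : ℕ) (hs : n ≤ s) (hq : s ≤ q.length) :
    Wo ((P ++ q).take (P.length + s)) ↔ Wo ((P' ++ q).take (P'.length + s)) := by
  have h1 : ∀ R : List α, (R ++ q).take (R.length + s) = R ++ q.take s := by
    intro R
    rw [List.take_append, List.take_of_length_le (by omega)]
    simp
  have hl : n ≤ (q.take s).length := by rw [List.length_take]; omega
  rw [h1, h1, hloc _ _ hl, hloc _ _ hl]

theorem pc_XX {Wo : List α → Prop} {z : ℕ} (hz : 0 < z) : PC (XX Wo z) where
  ne := fun h => by have := h.1; simp at this; omega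
  pf := by
    rintro u hu v hv ⟨r, rfl⟩
    rcases r with _ | ⟨a, r⟩
    · simp
    · exfalso
      refine hv.2.2 u.length hu.1 (by simp) ?_
      rw [List.take_left']
      · exact hu.2.1
      · rfl

/-- **Completeness of scheme 1.** -/
theorem C1 {Wo : List α → Prop} {n z p0 N1 La : ℕ} {BadT : ℕ → Prop} {f : α → S}
    {act : V → S → V} {nu2 nu1 : List α → V} {lam rho : List α → Option V}
    (hloc : ∀ P Q : List α, n ≤ Q.length → (Wo (P ++ Q) ↔ Wo Q))
    (hz : p0 + N1 + n + La ≤ z)
    (hlam : ∀ p v, lam p = some v → p.length ≤ N1)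
    (hsound : ∀ p q v r, lam p = some v → rho q = some r → La ≤ q.length →
      r = act v (ph f (p ++ q)) + nu1 (p ++ q))
    (hcomp : ∀ u : List α, La ≤ u.length → ¬ BadT u.length → ∀ v, ∃ p q, p ++ q = u ∧
      lam p = some v ∧ (rho q).isSome)
    (u : List α) (hu : u ∈ XX Wo z) (hb : u ∉ BB Wo z p0 N1 BadT) (x : V) (t : List α)
    (ht : t ∈ (XX Wo z) ^ 0) :
    ∃ p q y, u ++ t = p ++ q ∧ p ∈ L1 p0 f act nu2 lam x ∧
      q ∈ Rsem (XX Wo z) (XX Wo z) (TT p0 f act nu2 nu1) 0 (L1 p0 f act nu2 lam) y := by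
  have ht0 : t = [] := by
    rw [pow_zero] at ht
    exact ht
  subst ht0
  have hE : ∀ s, z ≤ s + N1 → s < z + N1 → s ≤ u.length → ¬ Wo (u.take s) := by
    intro s h1 h2 h3 h4
    exact hb ⟨hu, Or.inl ⟨s, h1, h2, h3, h4⟩⟩
  have hB : ¬ BadT (u.length - p0) := fun h => hb ⟨hu, Or.inr h⟩
  have hlong : z + N1 ≤ u.length := by
    by_contra hcon
    refine hE u.length (by have := hu.1; omega) (by omega) le_rfl ?_
    rw [List.take_length]; exact hu.2.1
  have hE2 : ∀ s, z ≤ s + N1 → s < u.length → ¬ Wo (u.take s) := by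
    intro s h1 h2
    rcases Nat.lt_or_ge s (z + N1) with h3 | h3
    · exact hE s h1 h3 h2.le
    · exact hu.2.2 s (by omega) h2
  obtain ⟨p, q, hpq, hl, hr⟩ := hcomp (u.drop p0) (by rw [List.length_drop]; omega)
    (by rw [List.length_drop]; exact hB) (act x (ph f (u.take p0)) + nu2 (u.take p0))
  have hpl := hlam p _ hl
  have hlq : u.length = p0 + (p.length + q.length) := by
    have := congrArg List.length hpq
    rw [List.length_append, List.length_drop] at this
    omega
  have hP0 : (u.take p0).length = p0 := by rw [List.length_take]; omega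
  obtain ⟨y, hy⟩ := Option.isSome_iff_exists.1 hr
  refine ⟨u.take p0 ++ p, q, y, ?_, ⟨?_, ?_⟩, ?_⟩
  · rw [List.append_nil, List.append_assoc, hpq, List.take_append_drop]
  · rw [List.length_append, hP0]; omega
  · rw [List.drop_left' hP0, List.take_left' hP0]; exact hl
  · -- semantic right label
    intro x' p' hp'
    left
    obtain ⟨hp1, hp2⟩ := hp'
    have hpl' := hlam _ _ hp2
    rw [List.length_drop] at hpl'
    have hw : ∀ s, n ≤ s → s ≤ q.length →
        (Wo ((p' ++ q).take (p'.length + s)) ↔ Wo (u.take (p0 + p.length + s))) := by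
      intro s h1 h2
      have h3 := wo_shift hloc p' (u.take p0 ++ p) q s h1 h2
      rw [List.append_assoc, hpq, List.take_append_drop, List.length_append, hP0] at h3
      exact h3
    have hmem : p' ++ q ∈ XX Wo z := by
      refine ⟨by rw [List.length_append]; omega, ?_, ?_⟩
      · have h1 := (hw q.length (by omega) le_rfl).2 (by
          rw [List.take_of_length_le (by omega)]; exact hu.2.1)
        rwa [List.take_of_length_le (by simp)] at h1
      · intro s h1 h2 h3
        rw [List.length_append] at h2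
        obtain ⟨s', rfl⟩ : ∃ s', s = p'.length + s' := ⟨s - p'.length, by omega⟩
        exact hE2 (p0 + p.length + s') (by omega) (by omega) ((hw s' (by omega) (by omega)).1 h3)
    have hval : TT p0 f act nu2 nu1 (p' ++ q) x' = y := by
      unfold TT
      rw [List.take_append_of_le_length hp1, List.drop_append_of_le_length hp1]
      exact (hsound _ _ _ _ hp2 hy (by omega)).symm
    refine ⟨y, Language.mem_mul.2 ⟨p' ++ q, ⟨hmem, hval⟩, [], ⟨rfl, rfl⟩, by simp⟩⟩

/-- walls of `w` as places -/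
def Wl (Wo : List α → Prop) (w : List α) (s : ℕ) : Prop := s ≤ w.length ∧ Wo (w.take s)

/-- `e` is the first wall at a place `≥ m` -/
def Fst (Wo : List α → Prop) (w : List α) (m e : ℕ) : Prop :=
  m ≤ e ∧ Wl Wo w e ∧ ∀ s, m ≤ s → s < e → ¬ Wl Wo w s

theorem exists_fst {Wo : List α → Prop} {w : List α} {m e : ℕ} (h : m ≤ e) (hw : Wl Wo w e) :
    ∃ e', Fst Wo w m e' := by
  classical
  have hex : ∃ e', m ≤ e' ∧ Wl Wo w e' := ⟨e, h, hw⟩
  obtain ⟨h1, h2⟩ := Nat.find_spec hex
  exact ⟨Nat.find hex, h1, h2, fun s a b c => Nat.find_min hex b ⟨a, c⟩⟩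

theorem Fst.two {Wo : List α → Prop} {w : List α} {W m1 m2 e1 e2 m e : ℕ}
    (hsep : ∀ s s', Wl Wo w s → Wl Wo w s' → s < s' → W < s' - s)
    (hW : m2 - m1 ≤ W) (h1 : Fst Wo w m1 e1) (h2 : Fst Wo w m2 e2) (hm1 : m1 ≤ m) (hm2 : m ≤ m2)
    (h : Fst Wo w m e) : e = e1 ∨ e = e2 := by
  rcases Nat.lt_or_ge e m2 with h3 | h3
  · left
    have h4 : e1 ≤ e := by
      by_contra hcon
      exact h1.2.2 e (by have := h.1; omega) (by omega) h.2.1
    rcases Nat.lt_or_ge e1 e with h5 | h5
    · have := hsep e1 e h1.2.1 h.2.1 h5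
      have := h1.1
      omega
    · omega
  · right
    rcases Nat.lt_trichotomy e e2 with h4 | h4 | h4
    · exact absurd h.2.1 (h2.2.2 e h3 h4)
    · exact h4
    · exact absurd h2.2.1 (h.2.2 e2 (by have := h2.1; omega) h4)

/-- spoiled pairs -/
def SP (Wo : List α → Prop) (z p0 N1 : ℕ) (BadT : ℕ → Prop) (c : ℕ → ℕ) (w : List α)
    (k k' : ℕ) : Prop :=
  k ≠ k' ∧ ((∃ s, Wl Wo w s ∧ z + c k ≤ s + c k' + N1 ∧ s + c k' < z + c k + N1) ∨
    ∃ e, Fst Wo w (z + c k - c k') e ∧ BadT ((e - p0) + c k' - c k))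

theorem block_at {Wo : List α → Prop} {n z p0 N1 : ℕ} {BadT : ℕ → Prop} {c : ℕ → ℕ}
    (hloc : ∀ P Q : List α, n ≤ Q.length → (Wo (P ++ Q) ↔ Wo Q))
    (w : List α) (k k' : ℕ) (hck : c k ≤ p0) (hck' : c k' ≤ p0)
    (hz : 2 * p0 + N1 + n ≤ z) (hkk : k ≠ k') (hsp : ¬ SP Wo z p0 N1 BadT c w k k')
    (p' : List α) (hp' : p'.length = c k') (e : ℕ) (he : Fst Wo w (z + c k - c k') e) :
    ∃ u'' ∈ XX Wo z, u'' ∉ BB Wo z p0 N1 BadT ∧ u'' <+: p' ++ w.drop (c k) := by
  obtain ⟨he1, ⟨he2, he3⟩, he4⟩ := he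
  have hwl : (w.take (c k)).length = c k := by rw [List.length_take]; omega
  have hdl : (w.drop (c k)).length = w.length - c k := List.length_drop
  have hsh : ∀ s, n ≤ s → s ≤ w.length - c k →
      (Wo ((p' ++ w.drop (c k)).take (c k' + s)) ↔ Wo (w.take (c k + s))) := by
    intro s h1 h2
    have h := wo_shift hloc p' (w.take (c k)) (w.drop (c k)) s h1 (by omega)
    rw [List.take_append_drop, hwl, hp'] at h
    exact h
  have hlen : ((p' ++ w.drop (c k)).take (c k' + (e - c k))).length = c k' + (e - c k) := by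
    rw [List.length_take, List.length_append, hp', hdl]; omega
  refine ⟨(p' ++ w.drop (c k)).take (c k' + (e - c k)), ⟨by rw [hlen]; omega, ?_, ?_⟩, ?_,
    List.take_prefix _ _⟩
  · rw [hsh (e - c k) (by omega) (by omega), show c k + (e - c k) = e by omega]
    exact he3
  · intro t h1 h2 h3
    rw [hlen] at h2
    rw [List.take_take, Nat.min_eq_left (by omega)] at h3
    obtain ⟨s, rfl⟩ : ∃ s, t = c k' + s := ⟨t - c k', by omega⟩
    have h4 := (hsh s (by omega) (by omega)).1 h3
    exact he4 (c k + s) (by omega) (by omega) ⟨by omega, h4⟩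
  · rintro ⟨-, hbad⟩
    apply hsp
    refine ⟨hkk, ?_⟩
    rcases hbad with ⟨t, h1, h2, h3, h4⟩ | hb
    · left
      rw [hlen] at h3
      rw [List.take_take, Nat.min_eq_left h3] at h4
      obtain ⟨s, rfl⟩ : ∃ s, t = c k' + s := ⟨t - c k', by omega⟩
      have h5 := (hsh s (by omega) (by omega)).1 h4
      exact ⟨c k + s, ⟨by omega, h5⟩, by omega, by omega⟩
    · right
      refine ⟨e, ⟨he1, ⟨he2, he3⟩, he4⟩, ?_⟩
      rw [hlen] at hb
      have e1 : c k' + (e - c k) - p0 = (e - p0) + c k' - c k := by omega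
      rw [e1] at hb
      exact hb

open Classical in
/-- the spoil count -/
theorem spoil_count {Wo : List α → Prop} {n z p0 N1 La C0 K W : ℕ} {BadT : ℕ → Prop} {c : ℕ → ℕ}
    (w : List α)
    (hgap : ∀ s s', Wl Wo w s → Wl Wo w s' → s < s' → W < s' - s)
    (hW : 2 * p0 + 2 * N1 ≤ W) (hck : ∀ k < K, c k ≤ p0)
    (hz : 2 * p0 + N1 + n + La ≤ z)
    (hsep : ∀ i j k l, i < K → j < K → k < K → l < K → i ≠ j → k ≠ l → (i, j) ≠ (k, l) →
      c i + c l + 4 * N1 < c k + c j ∨ c k + c j + 4 * N1 < c i + c l)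
    (hthin : ∀ T, La ≤ T → ((Finset.range K ×ˢ Finset.range K).filter
      (fun ij => ij.1 ≠ ij.2 ∧ BadT (T + c ij.2 - c ij.1))).card ≤ C0)
    (hend : Wl Wo w w.length) (hlong : z + p0 ≤ w.length) :
    ((Finset.range K ×ˢ Finset.range K).filter
      (fun ij => SP Wo z p0 N1 BadT c w ij.1 ij.2)).card ≤ 1 + C0 + C0 := by
  obtain ⟨e1, he1⟩ := exists_fst (Wo := Wo) (w := w) (m := z - p0) (e := w.length) (by omega) hend
  obtain ⟨e2, he2⟩ := exists_fst (Wo := Wo) (w := w) (m := z + p0) (e := w.length) (by omega) hend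
  have hsub : ((Finset.range K ×ˢ Finset.range K).filter
      (fun ij => SP Wo z p0 N1 BadT c w ij.1 ij.2)) ⊆
      ((Finset.range K ×ˢ Finset.range K).filter (fun ij => ij.1 ≠ ij.2 ∧
        ∃ s, Wl Wo w s ∧ z + c ij.1 ≤ s + c ij.2 + N1 ∧ s + c ij.2 < z + c ij.1 + N1)) ∪
      ((Finset.range K ×ˢ Finset.range K).filter
        (fun ij => ij.1 ≠ ij.2 ∧ BadT ((e1 - p0) + c ij.2 - c ij.1))) ∪
      ((Finset.range K ×ˢ Finset.range K).filter
        (fun ij => ij.1 ≠ ij.2 ∧ BadT ((e2 - p0) + c ij.2 - c ij.1))) := by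
    rintro ⟨k, k'⟩ h
    rw [Finset.mem_filter, Finset.mem_product, Finset.mem_range, Finset.mem_range] at h
    obtain ⟨⟨hk, hk'⟩, hne, hs⟩ := h
    dsimp only at hk hk' hne hs
    have hc1 := hck k hk
    have hc2 := hck k' hk'
    rw [Finset.mem_union, Finset.mem_union, Finset.mem_filter, Finset.mem_filter, Finset.mem_filter,
      Finset.mem_product, Finset.mem_range, Finset.mem_range]
    rcases hs with hs | ⟨e, he, hb⟩
    · exact Or.inl (Or.inl ⟨⟨hk, hk'⟩, hne, hs⟩)
    · rcases Fst.two hgap (by omega) he1 he2 (by omega) (by omega) he with rfl | rfl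
      · exact Or.inl (Or.inr ⟨⟨hk, hk'⟩, hne, hb⟩)
      · exact Or.inr ⟨⟨hk, hk'⟩, hne, hb⟩
  have hE : ((Finset.range K ×ˢ Finset.range K).filter (fun ij => ij.1 ≠ ij.2 ∧
        ∃ s, Wl Wo w s ∧ z + c ij.1 ≤ s + c ij.2 + N1 ∧
          s + c ij.2 < z + c ij.1 + N1)).card ≤ 1 := by
    rw [Finset.card_le_one]
    rintro ⟨i, j⟩ h ⟨k, l⟩ h'
    rw [Finset.mem_filter, Finset.mem_product, Finset.mem_range, Finset.mem_range] at h h'
    obtain ⟨⟨hi, hj⟩, hne, s, hs, ha, hb⟩ := h
    obtain ⟨⟨hk, hl⟩, hne', s', hs', ha', hb'⟩ := h'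
    dsimp only at hi hj hne ha hb hk hl hne' ha' hb'
    have hci := hck i hi
    have hcj := hck j hj
    have hckk := hck k hk
    have hcl := hck l hl
    have hss : s = s' := by
      rcases Nat.lt_trichotomy s s' with h3 | h3 | h3
      · have := hgap s s' hs hs' h3
        omega
      · exact h3
      · have := hgap s' s hs' hs h3
        omega
    subst hss
    by_contra hcon
    rcases hsep i j k l hi hj hk hl hne hne' hcon with h3 | h3
    · omega
    · omega
  refine (Finset.card_le_card hsub).trans ((Finset.card_union_le _ _).trans ?_)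
  refine Nat.add_le_add ((Finset.card_union_le _ _).trans ?_) (hthin _ ?_)
  · exact Nat.add_le_add hE (hthin _ (by have := he1.1; omega))
  · have := he2.1; omega

open Classical in
/-- **Completeness of scheme 2.** -/
theorem C2 {Wo : List α → Prop} {n z p0 N1 La C0 K W : ℕ} {BadT : ℕ → Prop} {f : α → S}
    {act : V → S → V} {nu2 nu1 : List α → V} {c : ℕ → ℕ}
    {lam2 rho2 : ℕ → List α → Option V}
    (hloc : ∀ P Q : List α, n ≤ Q.length → (Wo (P ++ Q) ↔ Wo Q))
    (hlen : ∀ P : List α, Wo P → n ≤ P.length)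
    (hgap : ∀ (P : List α) (d : ℕ), Wo P → 0 < d → d ≤ W → ¬ Wo (P.take (P.length - d)))
    (hW : 2 * p0 + 2 * N1 ≤ W) (hck : ∀ k < K, c k ≤ p0)
    (hz : 2 * p0 + N1 + n + La ≤ z)
    (hsep : ∀ i j k l, i < K → j < K → k < K → l < K → i ≠ j → k ≠ l → (i, j) ≠ (k, l) →
      c i + c l + 4 * N1 < c k + c j ∨ c k + c j + 4 * N1 < c i + c l)
    (hthin : ∀ T, La ≤ T → ((Finset.range K ×ˢ Finset.range K).filter
      (fun ij => ij.1 ≠ ij.2 ∧ BadT (T + c ij.2 - c ij.1))).card ≤ C0)
    (hs2 : ∀ k < K, ∀ (P Q : List α) (v b : V), P.length = c k →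
      lam2 k P = some v → rho2 k Q = some b → b = act v (ph f (P ++ Q)) + nu2 (P ++ Q))
    (hc2 : ∀ (u : List α) (v : V), (∀ k < K, c k ≤ u.length) →
      ∃ I : Finset ℕ, 2 * C0 + 2 ≤ I.card ∧ ∀ k ∈ I, k < K ∧ lam2 k (u.take (c k)) = some v ∧
        (rho2 k (u.drop (c k))).isSome)
    (u : List α) (hu : u ∈ BB Wo z p0 N1 BadT) (x : V) (t : List α)
    (ht : t ∈ (BB Wo z p0 N1 BadT) ^ 1) :
    ∃ p q y, u ++ t = p ++ q ∧ p ∈ L2 K c lam2 x ∧
      q ∈ Rsem (XX Wo z) (BB Wo z p0 N1 BadT) (TT p0 f act nu2 nu1) 1 (L2 K c lam2) y := by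
  rw [pow_one] at ht
  have hux := hu.1
  have htx := ht.1
  have hul := hux.1
  have htl := htx.1
  set w := u ++ t with hw
  have hwlen : w.length = u.length + t.length := by rw [hw, List.length_append]
  have hgap' : ∀ s s', Wl Wo w s → Wl Wo w s' → s < s' → W < s' - s := by
    intro s s' h1 h2 h3
    by_contra hcon
    refine hgap (w.take s') (s' - s) h2.2 (by omega) (by omega) ?_
    rw [List.length_take, Nat.min_eq_left h2.1, List.take_take, Nat.min_eq_left (by omega),
      show s' - (s' - s) = s by omega]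
    exact h1.2
  have hend : Wl Wo w w.length := by
    refine ⟨le_rfl, ?_⟩
    rw [List.take_length]
    exact (hloc u t (by omega)).2 htx.2.1
  have hcount := spoil_count (n := n) (K := K) (c := c) (BadT := BadT) w hgap' hW hck hz hsep hthin
    hend (by omega)
  obtain ⟨I, hI, hI2⟩ := hc2 (u.take p0) x (by
    intro k hk
    rw [List.length_take]
    have := hck k hk
    omega)
  -- an unspoiled place
  obtain ⟨k, hkI, hk⟩ : ∃ k ∈ I, ∀ k' < K, ¬ SP Wo z p0 N1 BadT c w k k' := by
    by_contra hcon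
    push Not at hcon
    have hsub : I ⊆ ((Finset.range K ×ˢ Finset.range K).filter
        (fun ij => SP Wo z p0 N1 BadT c w ij.1 ij.2)).image Prod.fst := by
      intro k hk
      obtain ⟨k', hk', hsp⟩ := hcon k hk
      rw [Finset.mem_image]
      refine ⟨(k, k'), ?_, rfl⟩
      rw [Finset.mem_filter, Finset.mem_product, Finset.mem_range, Finset.mem_range]
      exact ⟨⟨(hI2 k hk).1, hk'⟩, hsp⟩
    have h1 := Finset.card_le_card hsub
    have h2 := Finset.card_image_le (s := ((Finset.range K ×ˢ Finset.range K).filter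
        (fun ij => SP Wo z p0 N1 BadT c w ij.1 ij.2))) (f := Prod.fst)
    omega
  obtain ⟨hkK, hlk, hrk⟩ := hI2 k hkI
  have hckp := hck k hkK
  obtain ⟨b, hb⟩ := Option.isSome_iff_exists.1 hrk
  have htk : (u.take p0).take (c k) = u.take (c k) := by
    rw [List.take_take, Nat.min_eq_left hckp]
  rw [htk] at hlk
  have hdk : (u.take p0).drop (c k) = (u.drop (c k)).take (p0 - c k) := by
    rw [List.drop_take]
  rw [hdk] at hb
  have hwd : w.drop (c k) = u.drop (c k) ++ t := by
    rw [hw, List.drop_append_of_le_length (by omega)]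
  refine ⟨u.take (c k), u.drop (c k) ++ t,
    TT p0 f act nu2 nu1 t (act b (ph f (u.drop p0)) + nu1 (u.drop p0)), ?_, ?_, ?_⟩
  · rw [← List.append_assoc, List.take_append_drop]
  · exact ⟨k, hkK, by rw [List.length_take]; omega, hlk⟩
  · intro x' p' hp'
    obtain ⟨k', hk', hpl, hlp⟩ := hp'
    by_cases hkk : k = k'
    · subst hkk
      left
      have hdl : (u.drop (c k)).length = u.length - c k := List.length_drop
      have hsh : ∀ s, n ≤ s → s ≤ u.length - c k →
          (Wo ((p' ++ u.drop (c k)).take (c k + s)) ↔ Wo (u.take (c k + s))) := by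
        intro s h1 h2
        have h := wo_shift hloc p' (u.take (c k)) (u.drop (c k)) s h1 (by omega)
        rw [List.take_append_drop, hpl, List.length_take, Nat.min_eq_left (by omega)] at h
        exact h
      have hlen' : (p' ++ u.drop (c k)).length = u.length := by
        rw [List.length_append, hpl, hdl]; omega
      have hx' : p' ++ u.drop (c k) ∈ XX Wo z := by
        refine ⟨by omega, ?_, ?_⟩
        · have h1 := (hsh (u.length - c k) (by omega) le_rfl).2 (by
            rw [List.take_of_length_le (by omega)]; exact hux.2.1)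
          rwa [List.take_of_length_le (by omega)] at h1
        · intro s h1 h2 h3
          obtain ⟨s', rfl⟩ : ∃ s', s = c k + s' := ⟨s - c k, by omega⟩
          exact hux.2.2 (c k + s') h1 (by omega) ((hsh s' (by omega) (by omega)).1 h3)
      have hb' : p' ++ u.drop (c k) ∈ BB Wo z p0 N1 BadT := by
        refine ⟨hx', ?_⟩
        rw [hlen']
        rcases hu.2 with ⟨s, h1, h2, h3, h4⟩ | h
        · left
          obtain ⟨s', rfl⟩ : ∃ s', s = c k + s' := ⟨s - c k, by omega⟩
          exact ⟨c k + s', h1, h2, h3, (hsh s' (by omega) (by omega)).2 h4⟩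
        · exact Or.inr h
      have hval : TT p0 f act nu2 nu1 (p' ++ u.drop (c k)) x' =
          act b (ph f (u.drop p0)) + nu1 (u.drop p0) := by
        unfold TT
        have e1 : (p' ++ u.drop (c k)).take p0 = p' ++ (u.drop (c k)).take (p0 - c k) := by
          rw [List.take_append, hpl, List.take_of_length_le (by omega)]
        have e2 : (p' ++ u.drop (c k)).drop p0 = u.drop p0 := by
          rw [List.drop_append, hpl, List.drop_eq_nil_of_le (by omega), List.nil_append,
            List.drop_drop, show c k + (p0 - c k) = p0 by omega]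
        rw [e1, e2, ← hs2 k hkK p' _ x' b hpl hlp hb]
      refine ⟨_, Language.mem_mul.2 ⟨p' ++ u.drop (c k), ⟨hb', hval⟩, t, ?_, by simp⟩⟩
      exact ⟨_, Language.mem_mul.2 ⟨t, ⟨ht, rfl⟩, [], ⟨rfl, rfl⟩, by simp⟩⟩
    · right
      left
      have hck' := hck k' hk'
      obtain ⟨e, he⟩ := exists_fst (Wo := Wo) (w := w) (m := z + c k - c k') (e := w.length)
        (by omega) hend
      obtain ⟨u'', h1, h2, h3⟩ := block_at (N1 := N1) (BadT := BadT) hloc w k k' hckp hck'
        (by omega) hkk (hk k' hk') p' hpl e he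
      rw [hwd] at h3
      exact ⟨u'', h1, h2, h3⟩

end Crest.Agent.R320.Blk_402
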