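import Crest.Agent.R320.Star_903

/-!
# Row 320: block calculus, two schemes on one token (helper530)

Left-looking walls: a text is parsed in blocks (prefix code `B`), state of the automaton = (the part
`y` of the current block already read, the token `v` at the start of the block).  `G` = class of good
texts (run-free), on which all blocks are bounded by `Lb`.
Scheme 1 (`LP1`, `RR1`) is sound on all good texts, complete on blocks that are not `Bad`.
Scheme 2 (`LP2`, `RR2`) cuts the SAME token, left of all cut places of scheme 1; it is sound and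
complete on bad blocks only (promise).
THEOREM `two` : `{w | G w ∧ φ w = s}` has generalized star height at most `2`.
-/

set_option autoImplicit false

namespace Crest.Agent.R320.Blk_530

open Crest.RegLang Crest.Agent.R320.Hgt1_903 Crest.Agent.R320.Star_903

/-- blocks, good texts, token map -/
structure Blk (α V : Type*) where
  G : List α → Prop
  B : List α → Prop
  T : List α → V → V
  Lb : ℕ
  G_left : ∀ u v, G (u ++ v) → G u
  G_right : ∀ u v, G (u ++ v) → G v
  B_ne : ¬ B []
  B_pf : ∀ X Y, B X → B (X ++ Y) → Y = []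
  B_ex : ∀ w, G w → Lb ≤ w.length → ∃ X Y, X ++ Y = w ∧ B X ∧ X.length ≤ Lb

variable {α V : Type*}

namespace Blk

variable (b : Blk α V)

/-- incomplete block -/
def Inc (y : List α) : Prop := ∀ X, X <+: y → ¬ b.B X

abbrev St : Type _ := Option ({y : List α // y.length ≤ b.Lb} × V)

open Classical in
/-- the automaton -/
noncomputable def step : b.St → α → b.St
  | none, _ => none
  | some (y, v), a =>
    if b.B (y.1 ++ [a]) then some (⟨[], Nat.zero_le _⟩, b.T (y.1 ++ [a]) v)
    else if h : (y.1 ++ [a]).length ≤ b.Lb then some (⟨y.1 ++ [a], h⟩, v) else none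

/-- start state of a block -/
def ini (v : V) : b.St := some (⟨[], Nat.zero_le _⟩, v)

/-- the class -/
def Cl : b.St → List α → Prop
  | none, _ => False
  | some (y, _), w => b.Inc y.1 ∧ b.G (y.1 ++ w)

theorem inc_nil : b.Inc [] := by
  intro X hX hB
  rw [List.prefix_nil] at hX
  subst hX; exact b.B_ne hB

theorem Inc.left {b : Blk α V} {u v : List α} (h : b.Inc (u ++ v)) : b.Inc u :=
  fun X hX => h X (hX.trans (List.prefix_append _ _))

theorem inc_of_proper {P Q : List α} (h : b.B (P ++ Q)) (hQ : Q ≠ []) : b.Inc P := by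
  rintro X ⟨t, rfl⟩ hX
  rw [List.append_assoc] at h
  have := b.B_pf X _ hX h
  exact hQ (List.append_eq_nil_iff.1 this).2

theorem blk_le {X : List α} (hB : b.B X) (hG : b.G X) : X.length ≤ b.Lb := by
  by_contra hc
  obtain ⟨X', Y, rfl, h1, h2⟩ := b.B_ex X hG (by omega)
  have := b.B_pf X' Y h1 hB
  subst this
  rw [List.append_nil] at hc
  exact hc h2

theorem run_inc (y u : List α) (v : V) (h1 : b.Inc (y ++ u)) (h2 : (y ++ u).length ≤ b.Lb)
    (hy : y.length ≤ b.Lb) :
    run b.step (some (⟨y, hy⟩, v)) u = some (⟨y ++ u, h2⟩, v) := by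
  induction u generalizing y with
  | nil => simp
  | cons a u ih =>
    have e : y ++ a :: u = (y ++ [a]) ++ u := by simp
    have h1' : b.Inc ((y ++ [a]) ++ u) := by rwa [← e]
    have h2' : ((y ++ [a]) ++ u).length ≤ b.Lb := by rwa [← e]
    have hl : (y ++ [a]).length ≤ b.Lb := by
      rw [List.length_append] at h2'; omega
    have hstep : b.step (some (⟨y, hy⟩, v)) a = some (⟨y ++ [a], hl⟩, v) := by
      have hn : ¬ b.B (y ++ [a]) := h1' _ (List.prefix_append _ _)
      simp only [step, hn, if_false, hl, dif_pos]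
    have : run b.step (some (⟨y, hy⟩, v)) (a :: u)
        = run b.step (b.step (some (⟨y, hy⟩, v)) a) u := rfl
    rw [this, hstep, ih (y ++ [a]) h1' h2' hl]
    congr 3
    exact e.symm

theorem run_blk (y u : List α) (v : V) (hB : b.B (y ++ u)) (hu : u ≠ [])
    (hl : (y ++ u).length ≤ b.Lb) (hy : y.length ≤ b.Lb) :
    run b.step (some (⟨y, hy⟩, v)) u = b.ini (b.T (y ++ u) v) := by
  obtain ⟨u', a, rfl⟩ : ∃ u' a, u = u' ++ [a] := by
    rcases List.eq_nil_or_concat u with h | ⟨u', a, h⟩
    · exact (hu h).elim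
    · exact ⟨u', a, by simpa using h⟩
  have hi : b.Inc (y ++ u') := b.inc_of_proper (P := y ++ u') (Q := [a])
    (by rwa [List.append_assoc]) (by simp)
  have hl' : (y ++ u').length ≤ b.Lb := by
    rw [← List.append_assoc, List.length_append] at hl; omega
  rw [run_append, b.run_inc y u' v hi hl' hy]
  change b.step (some (⟨y ++ u', hl'⟩, v)) a = _
  have hB' : b.B ((y ++ u') ++ [a]) := by rwa [List.append_assoc]
  simp only [step, hB', if_true, ini]
  rw [List.append_assoc]

theorem cl_step {θ : b.St} {a : α} {w : List α} (h : b.Cl θ (a :: w)) : b.Cl (b.step θ a) w := by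
  rcases θ with _ | ⟨y, v⟩
  · exact h
  · obtain ⟨h1, h2⟩ := h
    have e : y.1 ++ a :: w = (y.1 ++ [a]) ++ w := by simp
    rw [e] at h2
    unfold step
    dsimp only
    split_ifs with hB hl
    · exact ⟨b.inc_nil, b.G_right _ _ h2⟩
    · refine ⟨?_, h2⟩
      rintro X hX hXB
      rcases List.prefix_concat_iff.1 (by simpa using hX) with h | h
      · have h' : X = y.1 ++ [a] := by simpa using h
        subst h'; exact hB hXB
      · exact h1 X h hXB
    · exfalso
      obtain ⟨X, Y, hXY, hXB, hXl⟩ := b.B_ex (y.1 ++ [a]) (b.G_left _ _ h2) (by omega)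
      have hp : X <+: y.1 ++ [a] := ⟨Y, hXY⟩
      rcases List.prefix_concat_iff.1 (by simpa using hp) with h | h
      · have h' : X = y.1 ++ [a] := by simpa using h
        subst h'; exact hB hXB
      · exact h1 X h hXB

theorem cl_suf (θ : b.St) (u v : List α) (h : b.Cl θ (u ++ v)) : b.Cl (run b.step θ u) v := by
  induction u generalizing θ with
  | nil => exact h
  | cons a u ih =>
    have h' : b.Cl (b.step θ a) (u ++ v) := b.cl_step (by simpa using h)
    exact ih _ h'

theorem cl_pre (θ : b.St) (u v : List α) (h : b.Cl θ (u ++ v)) : b.Cl θ u := by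
  rcases θ with _ | ⟨y, w⟩
  · exact h
  · exact ⟨h.1, b.G_left _ v (by rw [List.append_assoc]; exact h.2)⟩

/-- left-legal states of a scheme -/
def CutL (LP : List α → V → Prop) : b.St → Prop
  | none => False
  | some (y, v) => LP y.1 v

open Classical in
/-- right reading -/
noncomputable def rho (RR : List α → List α → V → Prop) (r : List α) : Option b.St :=
  if h : ∃ QRb : List α × List α × V, QRb.1 ++ QRb.2.1 = r ∧ RR QRb.1 QRb.2.1 QRb.2.2 then
    some (run b.step (b.ini h.choose.2.2) h.choose.2.1) else none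

theorem rho_some {RR : List α → List α → V → Prop} {Q R : List α} {c : V} (h : RR Q R c) :
    (b.rho RR (Q ++ R)).isSome := by
  have hx : ∃ QRb : List α × List α × V, QRb.1 ++ QRb.2.1 = Q ++ R ∧
      RR QRb.1 QRb.2.1 QRb.2.2 := ⟨(Q, R, c), rfl, h⟩
  unfold rho
  rw [dif_pos hx]
  rfl

theorem rho_eq {RR : List α → List α → V → Prop} {r : List α} {θ : b.St}
    (h : b.rho RR r = some θ) :
    ∃ Q R c, Q ++ R = r ∧ RR Q R c ∧ θ = run b.step (b.ini c) R := by
  unfold rho at h
  split_ifs at h with hx
  refine ⟨hx.choose.1, hx.choose.2.1, hx.choose.2.2, hx.choose_spec.1, hx.choose_spec.2, ?_⟩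
  exact (Option.some.inj h).symm

/-- two schemes on one token -/
structure Two where
  LP1 : List α → V → Prop
  RR1 : List α → V → Prop
  LP2 : List α → V → Prop
  RR2 : List α → List α → V → Prop
  Bad : List α → Prop
  p1 : ℕ
  D2 : ℕ
  hD2 : 2 * b.Lb + 1 ≤ D2
  lp2_le : ∀ P v, LP2 P v → P.length ≤ p1
  sound1 : ∀ P Q v c, LP1 P v → RR1 Q c → b.G (P ++ Q) → b.B (P ++ Q) ∧ b.T (P ++ Q) v = c
  complete1 : ∀ X, b.B X → b.G X → ¬ Bad X → ∀ v, ∃ P Q c, P ++ Q = X ∧ Q ≠ [] ∧ p1 ≤ P.length ∧
    LP1 P v ∧ RR1 Q c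
  sound2 : ∀ P Q R v c, LP2 P v → RR2 Q R c → (Q ++ R).length = D2 → b.G (P ++ (Q ++ R)) →
    b.Inc P → (∀ X Z, X ++ Z = P ++ (Q ++ R) → b.B X → Bad X) →
    b.B (P ++ Q) ∧ b.T (P ++ Q) v = c
  complete2 : ∀ X Z, b.B X → Bad X → b.G (X ++ Z) → D2 ≤ Z.length → ∀ v, ∃ P Q R Z' c,
    P ++ Q = X ∧ R ++ Z' = Z ∧ Q ≠ [] ∧ (Q ++ R).length = D2 ∧ LP2 P v ∧ RR2 Q R c

variable {b}

variable (t : b.Two)

/-- class of scheme-1-uncut runs -/
def Two.C1 (θ : b.St) (w : List α) : Prop :=
  b.Cl θ w ∧ Uncut b.step (b.CutL t.LP1) (b.Lb + 1) (b.rho fun Q _ c => t.RR1 Q c) θ w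

theorem Two.bad_of_uncut (θ : b.St) (w : List α) (h : t.C1 θ w) (y : List α) (hy : y.length ≤ b.Lb)
    (v : V) (hθ : θ = some (⟨y, hy⟩, v)) (hyp : y.length ≤ t.p1) (X Z : List α)
    (hX : X ++ Z = y ++ w) (hB : b.B X) (hZ : b.Lb + 1 ≤ Z.length) : t.Bad X := by
  subst hθ
  by_contra hbad
  obtain ⟨⟨hinc, hG⟩, hu⟩ := h
  dsimp only at hinc hG
  have hGX : b.G X := b.G_left X Z (by rw [hX]; exact hG)
  have hXl := b.blk_le hB hGX
  obtain ⟨P, Q, c, rfl, hQ, hp, hL, hR⟩ := t.complete1 X hB hGX hbad v
  -- `y` is a prefix of `P`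
  obtain ⟨p, rfl⟩ : ∃ p, P = y ++ p := by
    have h1 : P <+: y ++ w := ⟨Q ++ Z, by rw [← hX]; simp⟩
    have h2 : y <+: y ++ w := List.prefix_append _ _
    obtain ⟨p, hp'⟩ := List.prefix_of_prefix_length_le h2 h1 (by omega)
    exact ⟨p, hp'.symm⟩
  have hw : w = p ++ (Q ++ Z) := by
    have : y ++ w = y ++ (p ++ (Q ++ Z)) := by rw [← hX]; simp
    exact List.append_cancel_left this
  have hincP := b.inc_of_proper hB hQ
  have hPl : (y ++ p).length ≤ b.Lb := by
    rw [List.length_append] at hXl; omega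
  have hQl : Q.length ≤ b.Lb := by rw [List.length_append] at hXl; omega
  -- the right word
  set R := Z.take (b.Lb + 1 - Q.length) with hRdef
  have hlen : (Q ++ R).length = b.Lb + 1 := by
    rw [List.length_append, hRdef, List.length_take]; omega
  refine hu p (Q ++ R) (Z.drop (b.Lb + 1 - Q.length)) ?_ ⟨hlen, ?_, ?_⟩
  · rw [hw, hRdef]
    simp [List.append_assoc]
  · rw [b.run_inc y p v hincP hPl hy]
    exact hL
  · exact b.rho_some (RR := fun Q _ c => t.RR1 Q c) (Q := Q) (R := R) (c := c) hR

include t in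
theorem Two.rc [Finite α] [Finite V] : RC 2 b.step b.Cl := by
  classical
  have hfin : Finite {y : List α // y.length ≤ b.Lb} :=
    (List.finite_length_le α b.Lb).to_subtype
  have : Finite b.St := inferInstance
  refine nested (n := 1) b.step b.Cl b.cl_pre b.cl_suf (b.CutL t.LP1) (b.Lb + 1) (Nat.succ_pos _)
    (b.rho fun Q _ c => t.RR1 Q c) ?_ ?_
  · rintro θ r θ' hC hL - hρ
    obtain ⟨Q, R, c, rfl, hR, rfl⟩ := b.rho_eq hρ
    rcases θ with _ | ⟨⟨y, hy⟩, v⟩
    · exact hC.elim
    · obtain ⟨hinc, hG⟩ := hC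
      dsimp only at hinc hG
      have hG' : b.G (y ++ Q) := b.G_left _ R (by rw [List.append_assoc]; exact hG)
      obtain ⟨h1, h2⟩ := t.sound1 y Q v c hL hR hG'
      have hQ : Q ≠ [] := by
        rintro rfl
        rw [List.append_nil] at h1
        exact hinc y List.prefix_rfl h1
      rw [run_append, b.run_blk y Q v h1 hQ (b.blk_le h1 hG') hy, h2]
  · change RC 1 b.step t.C1
    have hD2 := t.hD2
    refine nested (n := 0) b.step t.C1 ?_ ?_ (b.CutL t.LP2) t.D2 (by omega) (b.rho t.RR2) ?_ ?_
    · rintro θ u v ⟨h1, h2⟩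
      exact ⟨b.cl_pre θ u v h1, h2.prefix⟩
    · rintro θ u v ⟨h1, h2⟩
      refine ⟨b.cl_suf θ u v h1, ?_⟩
      rintro p r s rfl ⟨hr, hL, hρ⟩
      refine h2 (u ++ p) r s (by simp [List.append_assoc]) ⟨hr, ?_, hρ⟩
      rw [run_append]; exact hL
    · rintro θ r θ' hC hL hr hρ
      obtain ⟨Q, R, c, rfl, hR, rfl⟩ := b.rho_eq hρ
      rcases θ with _ | ⟨⟨y, hy⟩, v⟩
      · exact hL.elim
      · have hLP : t.LP2 y v := hL
        obtain ⟨hinc, hG⟩ := hC.1
        dsimp only at hinc hG
        have hG' : b.G (y ++ Q) := b.G_left _ R (by rw [List.append_assoc]; exact hG)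
        have hbad : ∀ X Z, X ++ Z = y ++ (Q ++ R) → b.B X → t.Bad X := by
          intro X Z hXZ hX
          have hGX : b.G X := b.G_left X Z (by rw [hXZ]; exact hG)
          have hXl := b.blk_le hX hGX
          refine t.bad_of_uncut _ _ hC y hy v rfl (t.lp2_le _ _ hLP) X Z hXZ hX ?_
          have e := congrArg List.length hXZ
          rw [List.length_append, List.length_append, hr] at e
          omega
        obtain ⟨h1, h2⟩ := t.sound2 y Q R v c hLP hR hr hG hinc hbad
        have hQ : Q ≠ [] := by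
          rintro rfl
          rw [List.append_nil] at h1
          exact hinc y List.prefix_rfl h1
        rw [run_append, b.run_blk y Q v h1 hQ (b.blk_le h1 hG') hy, h2]
    · refine RC.bounded 0 (4 * b.Lb + t.D2 + 4) ?_
      rintro θ w ⟨hC, hu⟩
      by_contra hlen
      rcases θ with _ | ⟨⟨y, hy⟩, v⟩
      · exact hC.1.elim
      · obtain ⟨hinc, hG⟩ := hC.1
        dsimp only at hinc hG
        obtain ⟨X0, Z0, hX0, hB0, hl0⟩ := b.B_ex (y ++ w) hG (by rw [List.length_append]; omega)
        -- `y` is a proper prefix of `X0`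
        have hyX : y.length < X0.length := by
          by_contra hc
          have h1 : X0 <+: y ++ w := ⟨Z0, hX0⟩
          have h2 : y <+: y ++ w := List.prefix_append _ _
          exact hinc X0 (List.prefix_of_prefix_length_le h1 h2 (by omega)) hB0
        obtain ⟨u0, rfl⟩ : ∃ u0, X0 = y ++ u0 := by
          have h1 : X0 <+: y ++ w := ⟨Z0, hX0⟩
          have h2 : y <+: y ++ w := List.prefix_append _ _
          obtain ⟨p, hp'⟩ := List.prefix_of_prefix_length_le h2 h1 (by omega)
          exact ⟨p, hp'.symm⟩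
        have hu0 : u0 ≠ [] := by
          rintro rfl; simp at hyX
        have hw : w = u0 ++ Z0 := by
          rw [List.append_assoc] at hX0
          exact (List.append_cancel_left hX0).symm
        subst hw
        have hrun0 : run b.step (some (⟨y, hy⟩, v)) u0 = b.ini (b.T (y ++ u0) v) :=
          b.run_blk y u0 v hB0 hu0 hl0 hy
        have hGZ : b.G Z0 := by
          refine b.G_right (y ++ u0) Z0 ?_
          rw [List.append_assoc]; exact hG
        have hul : u0.length ≤ b.Lb := by rw [List.length_append] at hl0; omega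
        have hZ0 : 3 * b.Lb + t.D2 + 4 < Z0.length := by
          rw [List.length_append] at hlen; omega
        obtain ⟨X, Z, rfl, hB, hXl⟩ := b.B_ex Z0 hGZ (by omega)
        have hZl : t.D2 + b.Lb < Z.length := by
          rw [List.length_append] at hZ0; omega
        -- the class at the new node
        have hC' : t.C1 (b.ini (b.T (y ++ u0) v)) (X ++ Z) := by
          refine ⟨?_, ?_⟩
          · rw [← hrun0]; exact b.cl_suf _ u0 (X ++ Z) hC.1
          · rintro p r s hprs ⟨hr, hL, hρ⟩
            refine hC.2 (u0 ++ p) r s (by rw [← hprs]; simp [List.append_assoc]) ⟨hr, ?_, hρ⟩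
            rw [run_append, hrun0]; exact hL
        have hbad : t.Bad X :=
          t.bad_of_uncut _ _ hC' [] (Nat.zero_le _) _ rfl (Nat.zero_le _) X Z (by simp) hB
            (by omega)
        obtain ⟨P, Q, R, Z', c, rfl, rfl, hQ, hQR, hL, hR⟩ :=
          t.complete2 X Z hB hbad hGZ (by omega) (b.T (y ++ u0) v)
        have hincP := b.inc_of_proper hB hQ
        have hPl : P.length ≤ b.Lb := by rw [List.length_append] at hXl; omega
        refine hu (u0 ++ P) (Q ++ R) Z' (by simp [List.append_assoc]) ⟨hQR, ?_, ?_⟩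
        · rw [run_append, hrun0]
          have := b.run_inc [] P (b.T (y ++ u0) v) (by simpa using hincP) (by simpa using hPl)
            (Nat.zero_le _)
          change b.CutL t.LP2 (run b.step (some (⟨[], Nat.zero_le _⟩, b.T (y ++ u0) v)) P)
          rw [this]
          exact hL
        · exact b.rho_some hR

/-- the run from a node -/
theorem run_form {S : Type*} [Monoid S] [AddCommGroup V] (φ : List α → S) (h1 : φ [] = 1)
    (hφ : ∀ u v, φ (u ++ v) = φ u * φ v) (act : V → S → V)
    (act_one : ∀ v, act v 1 = v)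
    (act_mul : ∀ v s s', act v (s * s') = act (act v s) s')
    (act_add : ∀ v v' s, act (v + v') s = act v s + act v' s)
    (ν : List α → V) (hT : ∀ X v, b.B X → b.T X v = act v (φ X) + ν X) :
    ∀ (N : ℕ) (w : List α), w.length ≤ N → b.G w → ∃ M y, ∃ hy : y.length ≤ b.Lb, w = M ++ y ∧
      ∃ D, ∀ v, run b.step (b.ini v) w = some (⟨y, hy⟩, act v (φ M) + D) := by
  intro N
  induction N with
  | zero =>
    intro w hw _
    have : w = [] := List.length_eq_zero_iff.1 (Nat.le_zero.1 hw)
    subst this
    exact ⟨[], [], Nat.zero_le _, rfl, 0, fun v => by simp [ini, h1, act_one]⟩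
  | succ N ih =>
    intro w hw hG
    by_cases hi : b.Inc w
    · have hl : w.length ≤ b.Lb := by
        by_contra hc
        obtain ⟨X, Y, rfl, hB, -⟩ := b.B_ex w hG (by omega)
        exact hi X (List.prefix_append _ _) hB
      refine ⟨[], w, hl, rfl, 0, fun v => ?_⟩
      have := b.run_inc [] w v (by simpa using hi) (by simpa using hl) (Nat.zero_le _)
      rw [h1, act_one, add_zero]
      exact this
    · unfold Inc at hi
      push Not at hi
      obtain ⟨X, ⟨w', rfl⟩, hB⟩ := hi
      have hX : X ≠ [] := by rintro rfl; exact b.B_ne hB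
      have hXp : 0 < X.length := List.length_pos_iff.2 hX
      rw [List.length_append] at hw
      obtain ⟨M, y, hy, rfl, D, hD⟩ := ih w' (by omega) (b.G_right _ _ hG)
      refine ⟨X ++ M, y, hy, by simp, act (ν X) (φ M) + D, fun v => ?_⟩
      have hr : run b.step (b.ini v) X = b.ini (b.T X v) := by
        have := b.run_blk [] X v (by simpa using hB) hX
          (by simpa using b.blk_le hB (b.G_left _ _ hG)) (Nat.zero_le _)
        simpa [ini] using this
      rw [run_append, hr, hD, hT X v hB, hφ, act_mul, act_add]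
      congr 2
      abel

include t in
/-- **two schemes on one token: height two on good texts** -/
theorem Two.two [Finite α] [Finite V] {S : Type*} [Monoid S] [AddCommGroup V]
    (φ : List α → S) (h1 : φ [] = 1)
    (hφ : ∀ u v, φ (u ++ v) = φ u * φ v) (act : V → S → V)
    (act_one : ∀ v, act v 1 = v)
    (act_mul : ∀ v s s', act v (s * s') = act (act v s) s')
    (act_add : ∀ v v' s, act (v + v') s = act v s + act v' s)
    (faithful : ∀ s s', (∀ v, act v s = act v s') → s = s')
    (ν : List α → V) (hT : ∀ X v, b.B X → b.T X v = act v (φ X) + ν X)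
    (hG : H 2 ({w | b.G w} : Language α)) (s : S) :
    H 2 ({w | b.G w ∧ φ w = s} : Language α) := by
  classical
  obtain ⟨R, hR, hs⟩ := t.rc
  have hfin : Finite {y : List α // y.length ≤ b.Lb} :=
    (List.finite_length_le α b.Lb).to_subtype
  have : Finite b.St := inferInstance
  have : Finite (V → b.St) := inferInstance
  have hcl : ∀ w, b.G w → ∀ v, b.Cl (b.ini v) w := fun w hw v => ⟨b.inc_nil, by simpa using hw⟩
  -- the family of end states determines `φ w`
  have hdet : ∀ w w', b.G w → b.G w' →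
      (∀ v, run b.step (b.ini v) w = run b.step (b.ini v) w') → φ w = φ w' := by
    intro w w' hw hw' he
    obtain ⟨M, y, hy, rfl, D, hD⟩ := run_form (b := b) φ h1 hφ act act_one act_mul act_add ν hT
      _ w le_rfl hw
    obtain ⟨M', y', hy', rfl, D', hD'⟩ := run_form (b := b) φ h1 hφ act act_one act_mul act_add ν hT
      _ w' le_rfl hw'
    have h0 : ∀ s, act 0 s = 0 := fun s => by
      have := act_add 0 0 s
      rw [add_zero] at this
      exact left_eq_add.1 this
    have hv : ∀ v, y = y' ∧ act v (φ M) + D = act v (φ M') + D' := by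
      intro v
      have := he v
      rw [hD, hD'] at this
      have h2 := Option.some.inj this
      have h3 := congrArg Prod.fst h2
      have h4 := congrArg Prod.snd h2
      exact ⟨congrArg Subtype.val h3, h4⟩
    have hDD : D = D' := by simpa [h0] using (hv 0).2
    have hM : φ M = φ M' := faithful _ _ fun v => by
      have := (hv v).2
      rw [hDD] at this
      exact add_right_cancel this
    rw [hφ, hφ, hM, (hv 0).1]
  let F : (V → b.St) → Language α := fun f => {w | ∀ v, w ∈ R (b.ini v) (f v)}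
  have hF : ∀ f, H 2 (F f) := fun f => H.forall_fintype (fun v => R (b.ini v) (f v))
    (fun v => hR _ _)
  have key : H 2 ({w | b.G w ∧ ∃ f : V → b.St, w ∈ ({w | (∃ w0, b.G w0 ∧ φ w0 = s ∧
      ∀ v, run b.step (b.ini v) w0 = f v) ∧ w ∈ F f} : Language α)} : Language α) :=
    H.inter hG (H.exists_fintype _ fun f => H.inter (H.const 2 _) (hF f))
  refine key.congr fun w => ?_
  constructor
  · rintro ⟨hw, f, ⟨w0, hw0, hs0, hf⟩, hwF⟩
    refine ⟨hw, ?_⟩
    rw [← hs0]
    refine hdet w w0 hw hw0 fun v => ?_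
    rw [hf v]
    exact (hs _ w (hcl w hw v) _).1 (hwF v)
  · rintro ⟨hw, hws⟩
    refine ⟨hw, fun v => run b.step (b.ini v) w, ⟨w, hw, hws, fun v => rfl⟩, fun v => ?_⟩
    exact (hs _ w (hcl w hw v) _).2 rfl

end Blk

end Crest.Agent.R320.Blk_530
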