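import Mathlib
import Crest.Agent.R320.P3_623

/-!
# Row 320: the block code of left looking walls (852 #13483 (2)(3)) and the hypotheses of P3

`Wo` is a left looking rule with window `n` (wall at the END of the word), `XX` = words of length
`≥ z` ending at their first wall at a place `≥ z`.
-/

set_option autoImplicit false

namespace Crest.Agent.R320.Blk_623

open Crest.Agent.R320.P3_623

variable {A : Type}

/-- left looking rule with window `n` -/
structure LRule (Wo : List A → Prop) (n : ℕ) : Prop where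
  len : ∀ X, Wo X → n ≤ X.length
  look : ∀ P X, n ≤ X.length → (Wo (P ++ X) ↔ Wo X)

/-- the block code -/
def XX (Wo : List A → Prop) (z : ℕ) : Set (List A) :=
  {X | z ≤ X.length ∧ Wo X ∧ ∀ y, z ≤ y → y < X.length → ¬ Wo (X.take y)}

/-- bad blocks -/
def Bad (Wo : List A → Prop) (z N1 p : ℕ) (BT : ℕ → Prop) (X : List A) : Prop :=
  (∃ y, z ≤ y + N1 ∧ y < z + N1 ∧ y ≤ X.length ∧ Wo (X.take y)) ∨ BT (X.length - p)

theorem hPC {Wo : List A → Prop} {z : ℕ} : ∀ X ∈ XX Wo z, ∀ Y, X ++ Y ∈ XX Wo z → Y = [] := by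
  rintro X ⟨h1, h2, _⟩ Y ⟨_, _, h5⟩
  by_contra hY
  have hl : 0 < Y.length := List.length_pos_iff.2 hY
  refine h5 X.length h1 (by rw [List.length_append]; omega) ?_
  rwa [List.take_left]

theorem wall_change {Wo : List A → Prop} {n p0 : ℕ} (hW : LRule Wo n) {P P' Q : List A}
    (hl : P.length = P'.length) (hp : P.length ≤ p0) {y : ℕ} (hy : p0 + n ≤ y)
    (hyl : y ≤ (P ++ Q).length) : Wo ((P ++ Q).take y) ↔ Wo ((P' ++ Q).take y) := by
  rw [List.length_append] at hyl
  have h1 : (P ++ Q).take y = P ++ Q.take (y - P.length) := by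
    rw [List.take_append, List.take_of_length_le (by omega)]
  have h2 : (P' ++ Q).take y = P' ++ Q.take (y - P.length) := by
    rw [List.take_append, List.take_of_length_le (by omega), hl]
  have h3 : n ≤ (Q.take (y - P.length)).length := by
    rw [List.length_take]; omega
  rw [h1, h2, hW.look _ _ h3, hW.look _ _ h3]

theorem hXX {Wo : List A → Prop} {n p0 z : ℕ} (hW : LRule Wo n) (hz : p0 + n ≤ z) :
    ∀ P P' Q : List A, P.length = P'.length → P.length ≤ p0 → P ++ Q ∈ XX Wo z →
      P' ++ Q ∈ XX Wo z := by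
  rintro P P' Q hl hp ⟨h1, h2, h3⟩
  have hlen : (P' ++ Q).length = (P ++ Q).length := by
    rw [List.length_append, List.length_append, hl]
  refine ⟨by rw [hlen]; exact h1, ?_, ?_⟩
  · have := (wall_change hW hl hp (y := (P ++ Q).length) (by omega) le_rfl).1
      (by rw [List.take_length]; exact h2)
    rwa [← hlen, List.take_length] at this
  · intro y hy1 hy2 hc
    rw [hlen] at hy2
    exact h3 y hy1 hy2 ((wall_change hW hl hp (by omega) hy2.le).2 hc)

theorem hBad {Wo : List A → Prop} {n p0 z N1 p : ℕ} {BT : ℕ → Prop} (hW : LRule Wo n)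
    (hz : p0 + n + N1 ≤ z) :
    ∀ P P' Q : List A, P.length = P'.length → P.length ≤ p0 → P ++ Q ∈ XX Wo z →
      Bad Wo z N1 p BT (P ++ Q) → Bad Wo z N1 p BT (P' ++ Q) := by
  rintro P P' Q hl hp _ h
  have hlen : (P' ++ Q).length = (P ++ Q).length := by
    rw [List.length_append, List.length_append, hl]
  rcases h with ⟨y, h1, h2, h3, h4⟩ | h
  · left
    exact ⟨y, h1, h2, by rw [hlen]; exact h3, (wall_change hW hl hp (by omega) h3).1 h4⟩
  · right
    rwa [hlen]

/-- walls of the hypothetical block = walls of the text, shifted -/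
theorem wall_shift {Wo : List A → Prop} {n : ℕ} (hW : LRule Wo n) {P' T : List A} {a : ℕ}
    (ha : a ≤ T.length) {y : ℕ} (hy : P'.length + n ≤ y) (hyl : a + (y - P'.length) ≤ T.length) :
    Wo ((P' ++ T.drop a).take y) ↔ Wo (T.take (a + (y - P'.length))) := by
  have h1 : (P' ++ T.drop a).take y = P' ++ (T.drop a).take (y - P'.length) := by
    rw [List.take_append, List.take_of_length_le (by omega)]
  have h2 : T.take (a + (y - P'.length)) = T.take a ++ (T.drop a).take (y - P'.length) := by
    rw [List.take_add]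
  have h3 : n ≤ ((T.drop a).take (y - P'.length)).length := by
    rw [List.length_take, List.length_drop]; omega
  rw [h1, h2, hW.look _ _ h3, hW.look _ _ h3]

/-- the first wall of a text at a place `≥ z` gives a block -/
theorem exists_block {Wo : List A → Prop} {z : ℕ} {U : List A} {y0 : ℕ} (h1 : z ≤ y0)
    (h2 : y0 ≤ U.length) (h3 : Wo (U.take y0)) :
    ∃ y, z ≤ y ∧ y ≤ y0 ∧ U.take y ∈ XX Wo z := by
  classical
  have hex : ∃ y, z ≤ y ∧ y ≤ U.length ∧ Wo (U.take y) := ⟨y0, h1, h2, h3⟩
  have hs := Nat.find_spec hex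
  refine ⟨Nat.find hex, hs.1, Nat.find_min' hex ⟨h1, h2, h3⟩, ?_, hs.2.2, ?_⟩
  · rw [List.length_take]; omega
  · intro y hy1 hy2 hc
    rw [List.length_take] at hy2
    have hlt : y < Nat.find hex := lt_of_lt_of_le hy2 (min_le_left _ _)
    refine Nat.find_min hex hlt ⟨hy1, by omega, ?_⟩
    rwa [List.take_take, min_eq_left hlt.le] at hc

theorem hnext {Wo : List A → Prop} {n p0 z K : ℕ} {c : ℕ → ℕ} (hW : LRule Wo n)
    (hcp : ∀ k < K, c k ≤ p0) (hz : p0 + n ≤ z) :
    ∀ X ∈ XX Wo z, ∀ X2 ∈ XX Wo z, ∀ k < K, ∀ k' < K,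
      Ends c (XX Wo z) k' ((X ++ X2).drop (c k)) := by
  intro X hX X2 hX2 k hk k' hk'
  have hk1 := hcp k hk
  have hk2 := hcp k' hk'
  have hXl := hX.1
  have hX2l := hX2.1
  have hPl : (X.take (c k')).length = c k' := by rw [List.length_take]; omega
  set U : List A := X.take (c k') ++ (X ++ X2).drop (c k) with hU
  have hUl : U.length = c k' + (X.length + X2.length - c k) := by
    rw [hU, List.length_append, hPl, List.length_drop, List.length_append]
  have hWU : Wo (U.take U.length) := by
    rw [hU]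
    rw [wall_shift hW (by rw [List.length_append]; omega)
      (by rw [← hU, hUl, hPl]; omega) (by rw [← hU, hUl, hPl, List.length_append]; omega)]
    rw [← hU, hUl, hPl]
    have : c k + (c k' + (X.length + X2.length - c k) - c k') = (X ++ X2).length := by
      rw [List.length_append]; omega
    rw [this, List.take_length, hW.look _ _ (by omega)]
    exact hX2.2.1
  obtain ⟨y, hy1, hy2, hy3⟩ := exists_block (z := z) (by rw [hUl]; omega) le_rfl hWU
  refine ⟨X.take (c k'), ((X ++ X2).drop (c k)).take (y - c k'), hPl, List.take_prefix _ _, ?_⟩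
  have h1 : U.take y = X.take (c k') ++ ((X ++ X2).drop (c k)).take (y - c k') := by
    rw [hU, List.take_append, List.take_of_length_le (by rw [hPl]; omega), hPl]
  rw [← h1]
  exact hy3

/-- facts about a candidate -/
theorem cand_facts {Wo : List A → Prop} {n p0 z N1 p : ℕ} {BT : ℕ → Prop} {c : ℕ → ℕ}
    (hW : LRule Wo n) {k k' : ℕ} (hk' : c k' ≤ p0) (hz : p0 + n + N1 ≤ z)
    {T : List A} (hkT : c k ≤ T.length)
    (h : Cand c (XX Wo z) (Bad Wo z N1 p BT) k' (T.drop (c k))) :
    ∃ t, t ≤ T.length ∧ Wo (T.take t) ∧ z + c k ≤ t + c k' ∧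
      (∀ y, z + c k ≤ y + c k' → y < t → ¬ Wo (T.take y)) ∧
      ((∃ y, y ≤ T.length ∧ Wo (T.take y) ∧ z + c k ≤ y + c k' + N1 ∧
        y + c k' < z + c k + N1) ∨ BT (t + c k' - c k - p)) := by
  obtain ⟨P', Q', hP', hQ', ⟨h1, h2, h3⟩, hb⟩ := h
  obtain ⟨R, hR⟩ := hQ'
  have hQl : Q'.length + R.length = T.length - c k := by
    rw [← List.length_append, hR, List.length_drop]
  have hQt : Q' = (T.drop (c k)).take Q'.length := by
    rw [← hR, List.take_left]
  have hlen : (P' ++ Q').length = c k' + Q'.length := by rw [List.length_append, hP']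
  have key : ∀ y, P'.length + n ≤ y → y ≤ (P' ++ Q').length →
      (Wo ((P' ++ Q').take y) ↔ Wo (T.take (c k + (y - c k')))) := by
    intro y hy1 hy2
    rw [hlen] at hy2
    have e1 : (P' ++ Q').take y = (P' ++ T.drop (c k)).take y := by
      rw [← hR, ← List.append_assoc]
      exact (List.take_append_of_le_length (by rw [hlen]; omega)).symm
    rw [e1, wall_shift hW hkT hy1 (by rw [hP']; omega), hP']
  have key2 : ∀ y, p0 + n + c k ≤ y + c k' → y ≤ c k + Q'.length →
      (Wo (T.take y) ↔ Wo ((P' ++ Q').take (y + c k' - c k))) := by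
    intro y hy1 hy2
    have := key (y + c k' - c k) (by omega) (by rw [hlen]; omega)
    rw [this]
    have e : c k + (y + c k' - c k - c k') = y := by omega
    rw [e]
  rw [hlen] at h1 h3
  refine ⟨c k + Q'.length, by omega, ?_, by omega, ?_, ?_⟩
  · rw [key2 _ (by omega) le_rfl]
    have e : c k + Q'.length + c k' - c k = (P' ++ Q').length := by rw [hlen]; omega
    rw [e, List.take_length]
    exact h2
  · intro y hy1 hy2 hc
    rw [key2 y (by omega) hy2.le] at hc
    exact h3 _ (by omega) (by omega) hc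
  · rcases hb with ⟨y, hb1, hb2, hb3, hb4⟩ | hb
    · left
      rw [hlen] at hb3
      have := key y (by omega) (by rw [hlen]; exact hb3)
      rw [this] at hb4
      exact ⟨c k + (y - c k'), by omega, hb4, by omega, by omega⟩
    · right
      rw [hlen] at hb
      have e : c k + Q'.length + c k' - c k - p = c k' + Q'.length - p := by omega
      rw [e]
      exact hb

/-- **spoil count**: at most `1 + 2 * card κ` marks are spoiled -/
theorem hspoil {Wo : List A → Prop} {n p0 z N1 p K : ℕ} {c : ℕ → ℕ} {κ : Type} [Fintype κ]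
    {Bc : κ → ℕ → Prop} (hW : LRule Wo n) (hcp : ∀ k < K, c k ≤ p0) (hz : p0 + n + N1 ≤ z)
    (hp : p ≤ z)
    (gap : ∀ (T : List A) (y y' : ℕ), y < y' → y' ≤ T.length → Wo (T.take y) →
      Wo (T.take y') → 2 * p0 + 2 * N1 < y' - y)
    (hgol : ∀ k k' l l', k < K → k' < K → l < K → l' < K → k' ≠ k → l' ≠ l →
      c k + c l' < c l + c k' + 2 * N1 → c l + c k' < c k + c l' + 2 * N1 → k = l)
    (hthin : ∀ j n n' k k' l l', k < K → k' < K → l < K → l' < K → k' ≠ k → l' ≠ l →
      Bc j n → Bc j n' → n + c k + c l' = n' + c l + c k' → k = l) :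
    ∀ X ∈ XX Wo z, ∀ X2 ∈ XX Wo z, ∀ I : Finset ℕ,
      (∀ k ∈ I, k < K ∧ ∃ k' < K, k' ≠ k ∧
        Cand c (XX Wo z) (Bad Wo z N1 p (fun n => ∃ j, Bc j n)) k' ((X ++ X2).drop (c k))) →
      I.card < 2 + 2 * Fintype.card κ := by
  classical
  intro X hX X2 hX2 I hI
  set T : List A := X ++ X2 with hT
  have hTl : z ≤ T.length := by
    rw [hT, List.length_append]
    have := hX.1
    omega
  -- data of a spoiled mark
  have hdata : ∀ k : I, ∃ (k' t : ℕ) (e : Option (Bool × κ)), k' < K ∧ k' ≠ k.1 ∧
      t ≤ T.length ∧ Wo (T.take t) ∧ z + c k.1 ≤ t + c k' ∧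
      (∀ y, z + c k.1 ≤ y + c k' → y < t → ¬ Wo (T.take y)) ∧
      (match e with
        | none => ∃ y, y ≤ T.length ∧ Wo (T.take y) ∧ z + c k.1 ≤ y + c k' + N1 ∧
            y + c k' < z + c k.1 + N1
        | some (b, j) => Bc j (t + c k' - c k.1 - p) ∧ (b = true ↔ t ≤ z + p0)) := by
    intro k
    obtain ⟨hkK, k', hk', hne, hc⟩ := hI k.1 k.2
    have h1 := hcp k.1 hkK
    obtain ⟨t, ht1, ht2, ht3, ht4, ht5⟩ := cand_facts hW (hcp k' hk') hz (T := T) (by omega) hc
    rcases ht5 with h | ⟨j, hj⟩
    · exact ⟨k', t, none, hk', hne, ht1, ht2, ht3, ht4, h⟩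
    · refine ⟨k', t, some (decide (t ≤ z + p0), j), hk', hne, ht1, ht2, ht3, ht4, hj, ?_⟩
      simp
  choose kp t e hkp hne ht1 ht2 ht3 ht4 he using hdata
  have hinj : Function.Injective e := by
    intro k l hkl
    have hkK := (hI k.1 k.2).1
    have hlK := (hI l.1 l.2).1
    have b1 := hcp k.1 hkK
    have b2 := hcp l.1 hlK
    have b3 := hcp _ (hkp k)
    have b4 := hcp _ (hkp l)
    have hek := he k
    have hel := he l
    rw [← hkl] at hel
    apply Subtype.ext
    rcases hee : e k with _ | ⟨b, j⟩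
    · rw [hee] at hek hel
      obtain ⟨y, y1, y2, y3, y4⟩ := hek
      obtain ⟨y', y1', y2', y3', y4'⟩ := hel
      have hyy : y = y' := by
        rcases lt_trichotomy y y' with h | h | h
        · have := gap T y y' h y1' y2 y2'
          omega
        · exact h
        · have := gap T y' y h y1 y2' y2
          omega
      subst hyy
      exact hgol k.1 (kp k) l.1 (kp l) hkK (hkp k) hlK (hkp l) (hne k) (hne l)
        (by omega) (by omega)
    · rw [hee] at hek hel
      obtain ⟨hk1, hk2⟩ := hek
      obtain ⟨hl1, hl2⟩ := hel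
      have htt : t k = t l := by
        by_cases hb : b = true
        · have h1 := hk2.1 hb
          have h2 := hl2.1 hb
          have h3 := ht3 k
          have h4 := ht3 l
          rcases lt_trichotomy (t k) (t l) with h | h | h
          · have := gap T _ _ h (ht1 l) (ht2 k) (ht2 l)
            omega
          · exact h
          · have := gap T _ _ h (ht1 k) (ht2 l) (ht2 k)
            omega
        · have h1 : ¬ t k ≤ z + p0 := fun h => hb (hk2.2 h)
          have h2 : ¬ t l ≤ z + p0 := fun h => hb (hl2.2 h)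
          rcases lt_trichotomy (t k) (t l) with h | h | h
          · exact absurd (ht2 k) (ht4 l (t k) (by omega) h)
          · exact h
          · exact absurd (ht2 l) (ht4 k (t l) (by omega) h)
      have h3 := ht3 k
      have h4 := ht3 l
      exact hthin j _ _ k.1 (kp k) l.1 (kp l) hkK (hkp k) hlK (hkp l) (hne k) (hne l) hk1 hl1
        (by omega)
  have hcard := Fintype.card_le_of_injective e hinj
  rw [Fintype.card_coe, Fintype.card_option, Fintype.card_prod, Fintype.card_bool] at hcard
  omega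

end Crest.Agent.R320.Blk_623
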