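import Mathlib

/-!
# Row 320, CORE-1 in block form (helper829)

Left-looking walls `W` (window `n`), residue thresholds `Z` (comb modulus `M'`):
admissible words, the prefix code of blocks, the junction lemma, completeness off `Ebad`.
-/

set_option autoImplicit false

namespace Crest.Agent.R320.Core1_829

variable {α : Type*}

/-- left-looking wall rule with window `n` -/
structure LWall (W : List α → Prop) (n : ℕ) : Prop where
  len : ∀ P, W P → n ≤ P.length
  app : ∀ U P, n ≤ P.length → (W (U ++ P) ↔ W P)

/-- a wall which qualifies as the next anchor -/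
def Adm (W : List α → Prop) (Z : ℕ → ℕ) (M' : ℕ) (X : List α) : Prop :=
  W X ∧ Z (X.length % M') ≤ X.length

/-- the blocks -/
def XX (W : List α → Prop) (Z : ℕ → ℕ) (M' : ℕ) : Set (List α) :=
  {X | Adm W Z M' X ∧ ∀ P R, P ++ R = X → R ≠ [] → ¬ Adm W Z M' P}

variable {W : List α → Prop} {Z : ℕ → ℕ} {M' n : ℕ}

theorem XX_prefix {X Y R : List α} (hX : X ∈ XX W Z M') (hY : Y ∈ XX W Z M') (h : X ++ R = Y) :
    R = [] := by
  by_contra hR
  exact hY.2 X R h hR hX.1

theorem XX_unique {X Y R R' : List α} (hX : X ∈ XX W Z M') (hY : Y ∈ XX W Z M')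
    (h : X ++ R = Y ++ R') : X = Y ∧ R = R' := by
  rcases List.append_eq_append_iff.1 h with ⟨c, h1, h2⟩ | ⟨c, h1, h2⟩
  · have hc := XX_prefix hX hY h1.symm
    subst hc
    simp at h1 h2
    exact ⟨h1.symm, h2⟩
  · have hc := XX_prefix hY hX h1.symm
    subst hc
    simp at h1 h2
    exact ⟨h1, h2.symm⟩

theorem XX_len {X : List α} (hX : X ∈ XX W Z M') : Z (X.length % M') ≤ X.length := hX.1.2

theorem XX_ne_nil {X : List α} (hZ : ∀ r, 0 < Z r) (hX : X ∈ XX W Z M') : X ≠ [] := by
  rintro rfl
  have := XX_len hX
  have h2 := hZ (([] : List α).length % M')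
  simp only [List.length_nil] at this h2
  omega

/-- the right side of a scheme-1 junction, chain part -/
def RQ (W : List α → Prop) (Z : ℕ → ℕ) (M' n p0 N1 : ℕ) (Q : List α) : Prop :=
  n ≤ Q.length ∧ W Q ∧ Z ((Q.length + p0) % M') ≤ Q.length + p0 ∧
    ∀ t, n ≤ t → t < Q.length → W (Q.take t) → t + p0 + N1 < Z ((t + p0) % M')

/-- doubtful wall -/
def Ebad (W : List α → Prop) (Z : ℕ → ℕ) (M' N1 : ℕ) (X : List α) : Prop :=
  ∃ t, t ≤ X.length ∧ W (X.take t) ∧ t ≤ Z (t % M') + N1 ∧ Z (t % M') ≤ t + N1

theorem mod_comb {p0 om k : ℕ} : (p0 + M' * om + k) % M' = (k + p0) % M' := by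
  have : p0 + M' * om + k = (k + p0) + M' * om := by ring
  rw [this, Nat.add_mul_mod_self_left]

/-- JUNCTION LEMMA. -/
theorem junction (hW : LWall W n) {p0 N1 : ℕ} (hZ : ∀ r, p0 + N1 + n ≤ Z r)
    {P Q : List α} {om : ℕ} (hP : P.length = p0 + M' * om) (hom : M' * om ≤ N1)
    (hQ : RQ W Z M' n p0 N1 Q) : P ++ Q ∈ XX W Z M' := by
  obtain ⟨hn, hw, hz, hall⟩ := hQ
  have hlen : (P ++ Q).length = p0 + M' * om + Q.length := by
    rw [List.length_append, hP]
  refine ⟨⟨(hW.app P Q hn).2 hw, ?_⟩, ?_⟩
  · rw [hlen, mod_comb]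
    omega
  · rintro U R hUR hR ⟨hU1, hU2⟩
    have hRl : 0 < R.length := List.length_pos_iff.2 hR
    have hlen2 : U.length + R.length = P.length + Q.length := by
      have := congrArg List.length hUR
      simpa [List.length_append] using this
    by_cases hlt : U.length < P.length + n
    · have := hZ (U.length % M')
      omega
    · -- U = P ++ Q.take t
      have hUe : U = P ++ Q.take (U.length - P.length) := by
        have h1 : U = (P ++ Q).take U.length := by
          rw [← hUR, List.take_left']
          rfl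
        rw [List.take_append, List.take_of_length_le (by omega)] at h1
        exact h1
      set t := U.length - P.length with ht
      have htn : n ≤ t := by omega
      have htQ : t < Q.length := by omega
      have hWt : W (Q.take t) := by
        rw [hUe] at hU1
        exact (hW.app P _ (by simp; omega)).1 hU1
      have h3 := hall t htn htQ hWt
      have hUl : U.length = p0 + M' * om + t := by omega
      rw [hUl, mod_comb] at hU2
      omega

/-- off `Ebad` every comb place has a legal right side. -/
theorem RQ_of_not_Ebad (hW : LWall W n) {p0 N1 : ℕ} (hZ : ∀ r, p0 + N1 + n ≤ Z r)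
    {P Q : List α} {om : ℕ} (hP : P.length = p0 + M' * om) (hom : M' * om ≤ N1)
    (hX : P ++ Q ∈ XX W Z M') (hE : ¬ Ebad W Z M' N1 (P ++ Q)) : RQ W Z M' n p0 N1 Q := by
  have hlen : (P ++ Q).length = p0 + M' * om + Q.length := by
    rw [List.length_append, hP]
  have hXl := XX_len hX
  have hn : n ≤ Q.length := by
    have := hZ ((P ++ Q).length % M')
    omega
  have key : ∀ t, n ≤ t → t ≤ Q.length → W (Q.take t) →
      ¬ (p0 + M' * om + t ≤ Z ((t + p0) % M') + N1 ∧ Z ((t + p0) % M') ≤ p0 + M' * om + t + N1) := by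
    intro t htn htQ hWt hcon
    refine hE ⟨P.length + t, by rw [List.length_append]; omega, ?_, ?_, ?_⟩
    · rw [List.take_append, List.take_of_length_le (by omega)]
      have : P.length + t - P.length = t := by omega
      rw [this]
      exact (hW.app P _ (by simp; omega)).2 hWt
    · rw [hP, mod_comb]; exact hcon.1
    · rw [hP, mod_comb]; exact hcon.2
  have hWQ : W Q := (hW.app P Q hn).1 hX.1.1
  have hZX : Z ((Q.length + p0) % M') ≤ p0 + M' * om + Q.length := by
    rw [hlen, mod_comb] at hXl
    exact hXl
  refine ⟨hn, hWQ, ?_, ?_⟩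
  · have h1 := key Q.length hn le_rfl (by rwa [List.take_of_length_le le_rfl])
    omega
  · intro t htn htQ hWt
    have h1 := key t htn htQ.le hWt
    have h2 : ¬ Adm W Z M' (P ++ Q.take t) := by
      refine hX.2 _ (Q.drop t) (by rw [List.append_assoc, List.take_append_drop]) ?_
      intro h
      have := congrArg List.length h
      simp at this
      omega
    have h3 : ¬ Z ((t + p0) % M') ≤ p0 + M' * om + t := by
      intro h4
      refine h2 ⟨(hW.app P _ (by simp; omega)).2 hWt, ?_⟩
      have : (P ++ Q.take t).length = p0 + M' * om + t := by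
        rw [List.length_append, hP, List.length_take, min_eq_left htQ.le]
      rw [this, mod_comb]
      exact h4
    omega

/-- a wall beyond all thresholds gives a block -/
theorem exists_block {w : List α} {B : ℕ} (h : ∃ t, t ≤ w.length ∧ t ≤ B ∧ W (w.take t) ∧
    Z (t % M') ≤ t) : ∃ X R, X ++ R = w ∧ X ∈ XX W Z M' ∧ X.length ≤ B := by
  classical
  have h' : ∃ t, t ≤ w.length ∧ t ≤ B ∧ W (w.take t) ∧ Z (t % M') ≤ t := h
  obtain ⟨h1, h2, h3, h4⟩ := Nat.find_spec h'
  refine ⟨w.take (Nat.find h'), w.drop (Nat.find h'), List.take_append_drop _ _, ⟨⟨h3, ?_⟩, ?_⟩,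
    by rw [List.length_take]; omega⟩
  · rw [List.length_take, min_eq_left h1]; exact h4
  · rintro P R hPR hR ⟨hP1, hP2⟩
    have hRl : 0 < R.length := List.length_pos_iff.2 hR
    have hl : P.length + R.length = Nat.find h' := by
      have := congrArg List.length hPR
      rw [List.length_append, List.length_take, min_eq_left h1] at this
      exact this
    have hPe : P = w.take P.length := by
      have h5 : P = (w.take (Nat.find h')).take P.length := by
        rw [← hPR, List.take_left']; rfl
      rw [List.take_take, min_eq_left (by omega)] at h5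
      exact h5
    refine Nat.find_min h' (m := P.length) (by omega) ⟨by omega, by omega, ?_, hP2⟩
    rw [← hPe]; exact hP1

/-- parse of a word all of whose long suffixes start with a block -/
theorem exists_parse {B : ℕ} (hB0 : 0 < B) (hZ : ∀ r, 0 < Z r) (T : List α → Prop)
    (hT : ∀ X R, T (X ++ R) → T R)
    (hB : ∀ w, T w → B ≤ w.length → ∃ X R, X ++ R = w ∧ X ∈ XX W Z M' ∧ X.length ≤ B) :
    ∀ (l : ℕ) (w : List α), w.length = l → T w →
      ∃ (L : List (List α)) (E : List α), w = L.flatten ++ E ∧
        (∀ X ∈ L, X ∈ XX W Z M' ∧ X.length ≤ B) ∧ E.length < B := by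
  intro l
  induction l using Nat.strong_induction_on with
  | _ l ih =>
    intro w hwl hw
    by_cases hlt : w.length < B
    · exact ⟨[], w, by simp, by simp, hlt⟩
    · obtain ⟨X, R, hXR, hX, hXB⟩ := hB w hw (by omega)
      have hne := XX_ne_nil hZ hX
      have hXl : 0 < X.length := List.length_pos_iff.2 hne
      have hlen : X.length + R.length = w.length := by
        rw [← hXR, List.length_append]
      obtain ⟨L, E, h1, h2, h3⟩ := ih R.length (by omega) R rfl (hT X R (by rw [hXR]; exact hw))
      refine ⟨X :: L, E, ?_, ?_, h3⟩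
      · rw [List.flatten_cons, List.append_assoc, ← h1, hXR]
      · intro Y hY
        rcases List.mem_cons.1 hY with rfl | hY
        · exact ⟨hX, hXB⟩
        · exact h2 Y hY

end Crest.Agent.R320.Core1_829
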