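import Mathlib
import Crest.Agent.R320.Core1_829

/-!
Row 320: blocks with a hidden prefix of `c` letters, block end = wall after the first admissible wall
(182's form), visibility of the candidates.
-/

set_option autoImplicit false

namespace Crest.Agent.R320.Blk_670

open Crest.Agent.R320.Core1_829

variable {α : Type*}

/-- admissible wall, `c` hidden letters -/
def AdmO (W : List α → Prop) (Z : ℕ → ℕ) (M' c : ℕ) (Q : List α) : Prop :=
  W Q ∧ Z ((c + Q.length) % M') ≤ c + Q.length

/-- first admissible wall -/
def XO (W : List α → Prop) (Z : ℕ → ℕ) (M' c : ℕ) (Q : List α) : Prop :=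
  AdmO W Z M' c Q ∧ ∀ j < Q.length, ¬ AdmO W Z M' c (Q.take j)

/-- block: the next wall after the first admissible wall -/
def BO (W : List α → Prop) (Z : ℕ → ℕ) (M' c : ℕ) (Q : List α) : Prop :=
  ∃ j, j < Q.length ∧ XO W Z M' c (Q.take j) ∧ W Q ∧ ∀ i, j < i → i < Q.length → ¬ W (Q.take i)

variable {W : List α → Prop} {Z : ℕ → ℕ} {M' n : ℕ}

theorem XO_unique {c : ℕ} {T : List α} {i j : ℕ} (hi : i ≤ T.length) (hj : j ≤ T.length)
    (h1 : XO W Z M' c (T.take i)) (h2 : XO W Z M' c (T.take j)) : i = j := by
  rcases lt_trichotomy i j with h | h | h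
  · exfalso
    have := h2.2 i (by rw [List.length_take]; omega)
    rw [List.take_take, min_eq_left h.le] at this
    exact this h1.1
  · exact h
  · exfalso
    have := h1.2 j (by rw [List.length_take]; omega)
    rw [List.take_take, min_eq_left h.le] at this
    exact this h2.1

theorem BO_unique {c : ℕ} {T : List α} {i j : ℕ} (hi : i ≤ T.length) (hj : j ≤ T.length)
    (h1 : BO W Z M' c (T.take i)) (h2 : BO W Z M' c (T.take j)) : i = j := by
  obtain ⟨a, ha, hxa, hwa, hna⟩ := h1
  obtain ⟨b, hb, hxb, hwb, hnb⟩ := h2
  rw [List.length_take] at ha hb hna hnb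
  rw [List.take_take] at hxa hxb
  rw [min_eq_left (by omega)] at hxa hxb
  have hab := XO_unique (by omega) (by omega) hxa hxb
  subst hab
  rcases lt_trichotomy i j with h | h | h
  · exfalso
    have := hnb i (by omega) (by omega)
    rw [List.take_take, min_eq_left h.le] at this
    exact this hwa
  · exact h
  · exfalso
    have := hna j (by omega) (by omega)
    rw [List.take_take, min_eq_left h.le] at this
    exact this hwb

theorem W_app (hW : LWall W n) {P Q : List α} {t : ℕ} (h1 : P.length + n ≤ t)
    (h2 : t ≤ P.length + Q.length) : W ((P ++ Q).take t) ↔ W (Q.take (t - P.length)) := by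
  rw [List.take_append, List.take_of_length_le (by omega)]
  exact hW.app _ _ (by rw [List.length_take]; omega)

theorem Adm_app (hW : LWall W n) {P Q : List α} (hZ : ∀ r, P.length + n ≤ Z r) :
    AdmO W Z M' 0 (P ++ Q) ↔ AdmO W Z M' P.length Q := by
  unfold AdmO
  rw [List.length_append, Nat.zero_add]
  by_cases h : n ≤ Q.length
  · rw [hW.app P Q h]
  · constructor
    · rintro ⟨_, h2⟩
      have := hZ ((P.length + Q.length) % M')
      omega
    · rintro ⟨h1, _⟩
      exact absurd (hW.len _ h1) h

theorem XO_app (hW : LWall W n) {P Q : List α} (hZ : ∀ r, P.length + n ≤ Z r) :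
    XO W Z M' 0 (P ++ Q) ↔ XO W Z M' P.length Q := by
  unfold XO
  rw [Adm_app hW hZ]
  refine and_congr_right fun _ => ?_
  constructor
  · intro h j hj hadm
    refine h (P.length + j) (by rw [List.length_append]; omega) ?_
    rw [List.take_append, List.take_of_length_le (by omega), Nat.add_sub_cancel_left]
    exact (Adm_app hW hZ).2 hadm
  · intro h j hj hadm
    rw [List.length_append] at hj
    by_cases hjp : j < P.length
    · have h2 := hadm.2
      rw [List.length_take, List.length_append] at h2
      have := hZ ((0 + min j (P.length + Q.length)) % M')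
      omega
    · refine h (j - P.length) (by omega) ?_
      rw [List.take_append, List.take_of_length_le (by omega)] at hadm
      exact (Adm_app hW hZ).1 hadm

theorem BO_app (hW : LWall W n) {P Q : List α} (hZ : ∀ r, P.length + n ≤ Z r) :
    BO W Z M' 0 (P ++ Q) ↔ BO W Z M' P.length Q := by
  constructor
  · rintro ⟨j, hj, hx, hw, hn⟩
    rw [List.length_append] at hj hn
    have h0 := hx.1.2
    rw [List.length_take, List.length_append, min_eq_left (by omega), Nat.zero_add] at h0
    have h1 := hZ (j % M')
    refine ⟨j - P.length, by omega, ?_, ?_, ?_⟩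
    · rw [List.take_append, List.take_of_length_le (by omega)] at hx
      exact (XO_app hW hZ).1 hx
    · exact (hW.app P Q (by omega)).1 hw
    · intro i h2 h3 h4
      refine hn (P.length + i) (by omega) (by omega) ?_
      rw [W_app hW (by omega) (by omega), Nat.add_sub_cancel_left]
      exact h4
  · rintro ⟨j, hj, hx, hw, hn⟩
    have h0 := hx.1.2
    rw [List.length_take, min_eq_left (by omega)] at h0
    have h1 := hZ ((P.length + j) % M')
    refine ⟨P.length + j, by rw [List.length_append]; omega, ?_, ?_, ?_⟩
    · rw [List.take_append, List.take_of_length_le (by omega), Nat.add_sub_cancel_left]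
      exact (XO_app hW hZ).2 hx
    · exact (hW.app P Q (by omega)).2 hw
    · intro i h2 h3 h4
      rw [List.length_append] at h3
      rw [W_app hW (by omega) (by omega)] at h4
      exact hn _ (by omega) (by omega) h4

/-- a block of one candidate reaches the first admissible wall of every other candidate -/
theorem visible {Zmin Zmax Wg C : ℕ} (hmin : ∀ r, Zmin ≤ Z r) (hmax : ∀ r, Z r ≤ Zmax)
    (hgap : Zmax + C ≤ Zmin + Wg) {T : List α}
    (hsep : ∀ i j, i < j → j ≤ T.length → W (T.take i) → W (T.take j) → i + Wg ≤ j)
    {c c' e j : ℕ} (hc : c ≤ C) (he : e ≤ T.length) (hj : j ≤ T.length)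
    (h1 : BO W Z M' c (T.take e)) (h2 : XO W Z M' c' (T.take j)) : j ≤ e := by
  by_contra hlt
  push Not at hlt
  obtain ⟨i, hi, hx, hw, -⟩ := h1
  rw [List.length_take, min_eq_left he] at hi
  rw [List.take_take, min_eq_left hi.le] at hx
  have h3 := hx.1.2
  rw [List.length_take, min_eq_left (by omega)] at h3
  have h4 := h2.2 e (by rw [List.length_take]; omega)
  rw [List.take_take, min_eq_left hlt.le] at h4
  have h5 : ¬ Z ((c' + e) % M') ≤ c' + e := by
    intro h
    refine h4 ⟨hw, ?_⟩
    rw [List.length_take, min_eq_left he]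
    exact h
  have h6 := hsep i e hi he hx.1.1 hw
  have h7 := hmax ((c' + e) % M')
  have h8 := hmin ((c + i) % M')
  omega

end Crest.Agent.R320.Blk_670
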