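import Crest.Agent.R320.Main_621
import Crest.Agent.R320.ExactR_237

/-!
# Row 320: walls, first wall behind a threshold, blocks (helper717)
-/

set_option autoImplicit false

namespace Crest.Agent.R320.Blk_717

open Crest.Agent.R320.Hk_851 Crest.Agent.R320.Star_621 Crest.Agent.R320.Two_621
open Crest.Agent.R320.Main_621

universe u

variable {α : Type u}

/-- left-looking wall rule with window `n` and gap `> G` -/
structure Wall (α : Type u) where
  W : List α → Prop
  n : ℕ
  G : ℕ
  app : ∀ P Q : List α, n ≤ Q.length → (W (P ++ Q) ↔ W Q)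
  len : ∀ P : List α, W P → n ≤ P.length
  gap : ∀ (P : List α) (d : ℕ), W P → 0 < d → d ≤ G → ¬ W (P.take (P.length - d))

variable (w : Wall α)

/-- `t` is the first wall of `X` at a place `≥ z` -/
def Fst (X : List α) (z t : ℕ) : Prop :=
  z ≤ t ∧ t ≤ X.length ∧ w.W (X.take t) ∧ ∀ s, z ≤ s → s < t → ¬ w.W (X.take s)

/-- `e` is the next wall of `X` after `t` -/
def Nxt (X : List α) (t e : ℕ) : Prop :=
  t < e ∧ e ≤ X.length ∧ w.W (X.take e) ∧ ∀ s, t < s → s < e → ¬ w.W (X.take s)

variable {w}

theorem Fst.unique {X : List α} {z t t' : ℕ} (h : Fst w X z t) (h' : Fst w X z t') : t = t' := by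
  rcases lt_trichotomy t t' with h1 | h1 | h1
  · exact absurd h.2.2.1 (h'.2.2.2 t h.1 h1)
  · exact h1
  · exact absurd h'.2.2.1 (h.2.2.2 t' h'.1 h1)

theorem Nxt.unique {X : List α} {t e e' : ℕ} (h : Nxt w X t e) (h' : Nxt w X t e') : e = e' := by
  rcases lt_trichotomy e e' with h1 | h1 | h1
  · exact absurd h.2.2.1 (h'.2.2.2 e h.1 h1)
  · exact h1
  · exact absurd h'.2.2.1 (h.2.2.2 e' h'.1 h1)

theorem Fst.ext {X x : List α} {z t : ℕ} (h : Fst w X z t) : Fst w (X ++ x) z t := by
  obtain ⟨h1, h2, h3, h4⟩ := h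
  refine ⟨h1, by rw [List.length_append]; omega, ?_, ?_⟩
  · rw [List.take_append_of_le_length h2]; exact h3
  · intro s hs hst
    rw [List.take_append_of_le_length (by omega)]; exact h4 s hs hst

theorem Fst.res {X x : List α} {z t : ℕ} (h : Fst w (X ++ x) z t) (ht : t ≤ X.length) :
    Fst w X z t := by
  obtain ⟨h1, h2, h3, h4⟩ := h
  refine ⟨h1, ht, ?_, ?_⟩
  · rw [List.take_append_of_le_length ht] at h3; exact h3
  · intro s hs hst hW
    refine h4 s hs hst ?_
    rw [List.take_append_of_le_length (by omega)]; exact hW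

theorem Nxt.ext {X x : List α} {t e : ℕ} (h : Nxt w X t e) : Nxt w (X ++ x) t e := by
  obtain ⟨h1, h2, h3, h4⟩ := h
  refine ⟨h1, by rw [List.length_append]; omega, ?_, ?_⟩
  · rw [List.take_append_of_le_length h2]; exact h3
  · intro s hs hst
    rw [List.take_append_of_le_length (by omega)]; exact h4 s hs hst

/-- shift of the wall test -/
theorem W_shift (P Q : List α) (s : ℕ) (hs : w.n ≤ s) (hQ : s ≤ Q.length) :
    w.W ((P ++ Q).take (P.length + s)) ↔ w.W (Q.take s) := by
  rw [List.take_length_add_append]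
  exact w.app P (Q.take s) (by rw [List.length_take]; omega)

theorem Fst.shift {P Q : List α} {z t : ℕ} (hz : w.n ≤ z) (h : Fst w Q z t) :
    Fst w (P ++ Q) (P.length + z) (P.length + t) := by
  obtain ⟨h1, h2, h3, h4⟩ := h
  refine ⟨by omega, by rw [List.length_append]; omega, ?_, ?_⟩
  · exact (W_shift P Q t (by omega) h2).2 h3
  · intro s hs hst hW
    obtain ⟨s', rfl⟩ : ∃ s', s = P.length + s' := ⟨s - P.length, by omega⟩
    exact h4 s' (by omega) (by omega) ((W_shift P Q s' (by omega) (by omega)).1 hW)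

theorem Fst.unshift {P Q : List α} {z t : ℕ} (hz : w.n ≤ z)
    (h : Fst w (P ++ Q) (P.length + z) (P.length + t)) : Fst w Q z t := by
  obtain ⟨h1, h2, h3, h4⟩ := h
  rw [List.length_append] at h2
  refine ⟨by omega, by omega, ?_, ?_⟩
  · exact (W_shift P Q t (by omega) (by omega)).1 h3
  · intro s hs hst hW
    exact h4 (P.length + s) (by omega) (by omega) ((W_shift P Q s (by omega) (by omega)).2 hW)

theorem Nxt.shift {P Q : List α} {t e : ℕ} (ht : w.n ≤ t) (h : Nxt w Q t e) :
    Nxt w (P ++ Q) (P.length + t) (P.length + e) := by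
  obtain ⟨h1, h2, h3, h4⟩ := h
  refine ⟨by omega, by rw [List.length_append]; omega, ?_, ?_⟩
  · exact (W_shift P Q e (by omega) h2).2 h3
  · intro s hs hst hW
    obtain ⟨s', rfl⟩ : ∃ s', s = P.length + s' := ⟨s - P.length, by omega⟩
    exact h4 s' (by omega) (by omega) ((W_shift P Q s' (by omega) (by omega)).1 hW)

theorem Nxt.unshift {P Q : List α} {t e : ℕ} (ht : w.n ≤ t)
    (h : Nxt w (P ++ Q) (P.length + t) (P.length + e)) : Nxt w Q t e := by
  obtain ⟨h1, h2, h3, h4⟩ := h
  rw [List.length_append] at h2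
  refine ⟨by omega, by omega, ?_, ?_⟩
  · exact (W_shift P Q e (by omega) (by omega)).1 h3
  · intro s hs hst hW
    exact h4 (P.length + s) (by omega) (by omega) ((W_shift P Q s (by omega) (by omega)).2 hW)

variable (w)

/-- blocks: first wall `t ≥ z`, the block ends at the next wall -/
def ZZ (z : ℕ) : Language α := {X | ∃ t, Fst w X z t ∧ Nxt w X t X.length}

variable {w}

theorem code_ZZ {z : ℕ} : Code (ZZ w z) := by
  refine ⟨?_, ?_⟩
  · rintro ⟨t, -, h⟩
    have := h.1
    simp at this
  · intro X X' x x' hX hX' he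
    obtain ⟨t, h1, h2⟩ := hX
    obtain ⟨t', h1', h2'⟩ := hX'
    have a1 : Fst w (X ++ x) z t := h1.ext
    have a2 : Fst w (X ++ x) z t' := by rw [he]; exact h1'.ext
    have ht := a1.unique a2
    subst ht
    have b1 : Nxt w (X ++ x) t X.length := h2.ext
    have b2 : Nxt w (X ++ x) t X'.length := by rw [he]; exact h2'.ext
    have hl := b1.unique b2
    have : (X ++ x).take X.length = (X' ++ x').take X'.length := by rw [he, hl]
    simpa using this

end Crest.Agent.R320.Blk_717
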