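import Mathlib

/-!
Row 320: the concrete block code (467 / 852 #13483): left-looking walls, natural chain rule,
scheme 1 = gadget G1 of 852, scheme 2 = exact gadget with a promise ruler, in the literal form of
163's top.
-/

set_option autoImplicit false

namespace Crest.Agent.R320.Blk_872

structure Dat (α V S : Type*) where
  φ : List α → S
  act : V → S → V
  Wo : List α → Prop
  n : ℕ
  p : ℕ
  z : ℕ
  N1 : ℕ
  lam1 : List α → Option V
  rho1 : List α → Option V
  nu1 : List α → V
  Good : ℕ → Prop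
  K : ℕ
  c : ℕ → ℕ
  R : ℕ
  lam2 : ℕ → List α → Option V
  rho2 : ℕ → List α → Option V
  nu2 : List α → V

namespace Dat

variable {α V S : Type*} [Monoid S] [AddCommGroup V] (D : Dat α V S)

/-- a block whose first `d` letters are missing -/
def XXd (d : ℕ) (Q : List α) : Prop :=
  D.Wo Q ∧ D.z ≤ d + Q.length ∧ ∀ s, s < Q.length → D.z ≤ d + s → ¬ D.Wo (Q.take s)

def XX (X : List α) : Prop := D.XXd 0 X

def BadD (d : ℕ) (Q : List α) : Prop :=
  (∃ s, s ≤ Q.length ∧ D.z ≤ d + s + D.N1 ∧ d + s < D.z + D.N1 ∧ D.Wo (Q.take s)) ∨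
    ¬ D.Good (d + Q.length - D.p)

def Cand (k : ℕ) (Q : List α) : Prop :=
  ∃ Q1 Q2, Q = Q1 ++ Q2 ∧ D.XXd (D.c k) Q1 ∧ D.BadD (D.c k) Q1

def T (v : V) (X : List α) : V :=
  D.act (D.act v (D.φ (X.take D.p)) + D.nu2 (X.take D.p)) (D.φ (X.drop D.p)) + D.nu1 (X.drop D.p)

def LP1 (P : List α) (v : V) : Prop :=
  D.p ≤ P.length ∧ P.length < D.p + D.N1 ∧
    D.lam1 (P.drop D.p) = some (D.act v (D.φ (P.take D.p)) + D.nu2 (P.take D.p))

open Classical in
noncomputable def R1 (Q : List α) : Option V :=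
  if ∀ d, D.p ≤ d → d < D.p + D.N1 → D.XXd d Q then D.rho1 Q else none

def LP2 (P : List α) (v : V) : Prop :=
  ∃ k < D.K, P.length = D.c k ∧ D.lam2 k P = some v

/-- the right word of scheme 2: the rest `Q1` of the block and the next block `X2` -/
def R2rel (Q : List α) (b : V) : Prop :=
  ∃ k < D.K, (∀ k' < D.K, D.Cand k' Q → k' = k) ∧ ∃ Q1 X2 b1, Q = Q1 ++ X2 ∧ D.XXd (D.c k) Q1 ∧
    D.BadD (D.c k) Q1 ∧
    D.XX X2 ∧ D.rho2 k (Q1.take (D.p - D.c k)) = some b1 ∧
    b = D.T (D.act b1 (D.φ (Q1.drop (D.p - D.c k))) + D.nu1 (Q1.drop (D.p - D.c k))) X2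

open Classical in
noncomputable def R2 (Q : List α) : Option V :=
  if h : ∃ b, D.R2rel Q b then some h.choose else none

open Classical in
/-- the places of the ruler which are spoiled in the text `w` -/
noncomputable def Spoiled (w : List α) : Finset ℕ :=
  (Finset.range D.K).filter fun k => ∃ k' < D.K, k' ≠ k ∧ D.Cand k' (w.drop (D.c k))

structure Ok : Prop where
  φ_app : ∀ P Q, D.φ (P ++ Q) = D.φ P * D.φ Q
  act_mul : ∀ v s t, D.act (D.act v s) t = D.act v (s * t)
  act_add : ∀ v w s, D.act (v + w) s = D.act v s + D.act w s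
  wo : ∀ P Q, D.n ≤ Q.length → (D.Wo (P ++ Q) ↔ D.Wo Q)
  hz : D.p + 2 * D.N1 + D.n ≤ D.z
  hN1 : 0 < D.N1
  sound1 : ∀ P Q v b, D.lam1 P = some v → D.rho1 Q = some b →
    b = D.act v (D.φ (P ++ Q)) + D.nu1 (P ++ Q)
  len1 : ∀ P v, D.lam1 P = some v → P.length < D.N1
  compl1 : ∀ Y v, D.N1 ≤ Y.length → D.Good Y.length →
    ∃ P Q, Y = P ++ Q ∧ D.lam1 P = some v ∧ (D.rho1 Q).isSome
  ck : ∀ k < D.K, D.c k ≤ D.p
  sound2 : ∀ k < D.K, ∀ P Q v b, P.length = D.c k → D.lam2 k P = some v → D.rho2 k Q = some b →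
    b = D.act v (D.φ (P ++ Q)) + D.nu2 (P ++ Q)
  compl2 : ∀ (X : List α) v, X.length = D.p → ∃ I : Finset ℕ, D.R ≤ I.card ∧
    ∀ k ∈ I, k < D.K ∧ D.lam2 k (X.take (D.c k)) = some v ∧ (D.rho2 k (X.drop (D.c k))).isSome
  spoil : ∀ X X2, D.XX X → D.XX X2 → D.BadD 0 X → (D.Spoiled (X ++ X2)).card < D.R

variable {D}

theorem Ok.take_app (h : D.Ok) {P Q : List α} {s : ℕ} (hs : P.length + D.n ≤ s)
    (hs' : s ≤ P.length + Q.length) :
    D.Wo ((P ++ Q).take s) ↔ D.Wo (Q.take (s - P.length)) := by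
  rw [List.take_append, List.take_of_length_le (by omega)]
  exact h.wo _ _ (by rw [List.length_take]; omega)

theorem Ok.XXd_app (h : D.Ok) {d : ℕ} {P Q : List α} (hd : d + P.length + D.n ≤ D.z) :
    D.XXd d (P ++ Q) ↔ D.XXd (d + P.length) Q := by
  unfold XXd
  rw [List.length_append]
  constructor
  · rintro ⟨h1, h2, h3⟩
    refine ⟨(h.wo P Q (by omega)).1 h1, by omega, fun s hs hz => ?_⟩
    have := h3 (P.length + s) (by omega) (by omega)
    rw [h.take_app (by omega) (by omega)] at this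
    simpa using this
  · rintro ⟨h1, h2, h3⟩
    refine ⟨(h.wo P Q (by omega)).2 h1, by omega, fun s hs hz => ?_⟩
    rw [h.take_app (by omega) (by omega)]
    exact h3 (s - P.length) (by omega) (by omega)

theorem Ok.BadD_app (h : D.Ok) {d : ℕ} {P Q : List α} (hd : d + P.length + D.n + D.N1 ≤ D.z) :
    D.BadD d (P ++ Q) ↔ D.BadD (d + P.length) Q := by
  unfold BadD
  rw [List.length_append, Nat.add_assoc d P.length Q.length]
  refine or_congr ?_ Iff.rfl
  constructor
  · rintro ⟨s, h1, h2, h3, h4⟩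
    refine ⟨s - P.length, by omega, by omega, by omega, ?_⟩
    exact (h.take_app (by omega) (by omega)).1 h4
  · rintro ⟨s, h1, h2, h3, h4⟩
    refine ⟨P.length + s, by omega, by omega, by omega, ?_⟩
    rw [h.take_app (by omega) (by omega)]
    simpa using h4

/-- uniqueness of the block prefix -/
theorem XXd_unique {d : ℕ} {Q1 Q2 Q1' Q2' : List α} (h1 : D.XXd d Q1) (h2 : D.XXd d Q1')
    (e : Q1 ++ Q2 = Q1' ++ Q2') : Q1 = Q1' := by
  rcases lt_trichotomy Q1.length Q1'.length with hlt | heq | hgt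
  · exfalso
    have : Q1'.take Q1.length = Q1 := by
      have := congrArg (List.take Q1.length) e
      rw [List.take_left' rfl, List.take_append_of_le_length hlt.le] at this
      exact this.symm
    exact h2.2.2 Q1.length hlt h1.2.1 (by rw [this]; exact h1.1)
  · exact (List.append_inj e heq).1
  · exfalso
    have : Q1.take Q1'.length = Q1' := by
      have := congrArg (List.take Q1'.length) e
      rw [List.take_left' rfl, List.take_append_of_le_length hgt.le] at this
      exact this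
    exact h1.2.2 Q1'.length hgt h2.2.1 (by rw [this]; exact h2.1)

theorem XX_nil (h : D.Ok) : ¬ D.XX [] := by
  rintro ⟨-, h2, -⟩
  have := h.hz
  have := h.hN1
  simp at h2
  omega

theorem XX_prefix {X Y : List α} (hX : D.XX X) (hXY : D.XX (X ++ Y)) : Y = [] := by
  have := XXd_unique (Q2 := Y) (Q2' := []) hX hXY (by simp)
  simpa using this

theorem hR1 (h : D.Ok) {Q : List α} {b : V} (hb : D.R1 Q = some b) : Q ≠ [] := by
  rintro rfl
  unfold R1 at hb
  split_ifs at hb with hc
  have := (hc D.p le_rfl (by have := h.hN1; omega)).2.1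
  have := h.hz
  have := h.hN1
  simp at *
  omega

theorem R2_spec {Q : List α} {b : V} (hb : D.R2 Q = some b) : D.R2rel Q b := by
  unfold R2 at hb
  split_ifs at hb with hc
  have := hc.choose_spec
  rw [Option.some.injEq] at hb
  rwa [hb] at this

theorem hR2 (h : D.Ok) {Q : List α} {b : V} (hb : D.R2 Q = some b) : Q ≠ [] := by
  obtain ⟨k, hk, -, Q1, X2, b1, e, -, -, hX2, -⟩ := R2_spec hb
  rintro rfl
  have : X2 = [] := by
    have := congrArg List.length e
    rw [List.length_append, List.length_nil] at this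
    exact List.length_eq_zero_iff.1 (by omega)
  exact XX_nil h (this ▸ hX2)

/-- the linear form of `T` -/
theorem hT (h : D.Ok) (X : List α) (v : V) :
    D.T v X = D.act v (D.φ X) +
      (D.act (D.nu2 (X.take D.p)) (D.φ (X.drop D.p)) + D.nu1 (X.drop D.p)) := by
  unfold T
  rw [h.act_add, h.act_mul, ← h.φ_app, List.take_append_drop]
  abel

theorem s1 (h : D.Ok) (P : List α) (v : V) (Q : List α) (b : V) (hP : D.LP1 P v)
    (hQ : D.R1 Q = some b) : D.XX (P ++ Q) ∧ D.T v (P ++ Q) = b := by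
  obtain ⟨h1, h2, h3⟩ := hP
  have hz := h.hz
  unfold R1 at hQ
  split_ifs at hQ with hc
  refine ⟨?_, ?_⟩
  · have := (h.XXd_app (d := 0) (P := P) (Q := Q) (by omega)).2
    exact this (by simpa using hc _ h1 h2)
  · unfold T
    rw [List.take_append_of_le_length h1, List.drop_append_of_le_length h1]
    exact (h.sound1 _ _ _ _ h3 hQ).symm

theorem cc1 (h : D.Ok) {X : List α} (hX : D.XX X) (hB : ¬ D.BadD 0 X) (v : V) :
    ∃ P Q, X = P ++ Q ∧ D.LP1 P v ∧ (D.R1 Q).isSome := by
  have hz := h.hz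
  have hN := h.hN1
  have hXl : D.z ≤ X.length := by simpa using hX.2.1
  have hG : D.Good (X.length - D.p) := by
    by_contra hc
    exact hB (Or.inr (by simpa using hc))
  have hE : ∀ s, s ≤ X.length → D.z ≤ s + D.N1 → s < D.z + D.N1 → ¬ D.Wo (X.take s) := by
    intro s h1 h2 h3 h4
    exact hB (Or.inl ⟨s, h1, by omega, by omega, h4⟩)
  have hXw : D.z + D.N1 ≤ X.length := by
    by_contra hc
    exact hE X.length le_rfl (by omega) (by omega) (by simpa using hX.1)
  obtain ⟨P', Q, e, hl, hr⟩ := h.compl1 (X.drop D.p)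
    (D.act v (D.φ (X.take D.p)) + D.nu2 (X.take D.p))
    (by rw [List.length_drop]; omega) (by rw [List.length_drop]; exact hG)
  have hP' := h.len1 _ _ hl
  have htl : (X.take D.p).length = D.p := by rw [List.length_take]; omega
  have eX : X = (X.take D.p ++ P') ++ Q := by
    rw [List.append_assoc, ← e, List.take_append_drop]
  have hlen : X.length = D.p + P'.length + Q.length := by
    have := congrArg List.length eX
    rw [List.length_append, List.length_append, htl] at this
    exact this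
  refine ⟨X.take D.p ++ P', Q, eX, ⟨?_, ?_, ?_⟩, ?_⟩
  · rw [List.length_append, htl]; omega
  · rw [List.length_append, htl]; omega
  · rw [List.drop_left' htl, List.take_left' htl]
    exact hl
  · unfold R1
    rw [if_pos]
    · exact hr
    · intro d hd1 hd2
      refine ⟨?_, by omega, fun s hs hzs hw => ?_⟩
      · have := hX.1
        rw [eX] at this
        exact (h.wo _ _ (by omega)).1 this
      · have hlen2 : (X.take D.p ++ P').length = D.p + P'.length := by
          rw [List.length_append, htl]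
        have key : D.Wo (X.take (D.p + P'.length + s)) := by
          rw [eX, h.take_app (by rw [hlen2]; omega) (by rw [hlen2]; omega), hlen2]
          simpa using hw
        by_cases hc : D.p + P'.length + s < D.z + D.N1
        · exact hE _ (by omega) (by omega) hc key
        · exact hX.2.2 (D.p + P'.length + s) (by omega) (by omega) key

theorem s2 (h : D.Ok) (P : List α) (v : V) (Q : List α) (b : V) (hP : D.LP2 P v)
    (hQ : D.R2 Q = some b)
    (hun : ∀ X, D.XX X → X <+: P ++ Q → ∀ P' Q', X = P' ++ Q' → P.length ≤ P'.length →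
      D.LP1 P' v → (D.R1 Q').isSome → False) :
    ∃ Q1 X2, Q = Q1 ++ X2 ∧ Q1 ≠ [] ∧ D.XX (P ++ Q1) ∧ D.XX X2 ∧
      D.T (D.T v (P ++ Q1)) X2 = b := by
  classical
  have hz := h.hz
  have hN := h.hN1
  obtain ⟨k0, hk0, hPl, hl⟩ := hP
  obtain ⟨k, hk, huniq, Q1, X2, b1, e, hXd, -, hX2, hr, hb⟩ := R2_spec hQ
  have hck0 := h.ck k0 hk0
  have hck := h.ck k hk
  have hX2l : D.z ≤ X2.length := by simpa using hX2.2.1
  -- the first block from the true anchor
  have hex : ∃ s, s ≤ Q.length ∧ D.z ≤ D.c k0 + s ∧ D.Wo (Q.take s) := by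
    refine ⟨Q.length, le_rfl, ?_, ?_⟩
    · rw [e, List.length_append]; omega
    · rw [List.take_length, e]
      exact (h.wo _ _ (by omega)).2 hX2.1
  obtain ⟨hs1, hs2, hs3⟩ := Nat.find_spec hex
  set s := Nat.find hex with hs
  have hmin : ∀ t, t < s → ¬ (t ≤ Q.length ∧ D.z ≤ D.c k0 + t ∧ D.Wo (Q.take t)) :=
    fun t ht => Nat.find_min hex ht
  have hXd0 : D.XXd (D.c k0) (Q.take s) := by
    refine ⟨hs3, ?_, fun t ht hzt hw => ?_⟩
    · rw [List.length_take]; omega
    · rw [List.length_take] at ht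
      rw [List.take_take, min_eq_left (by omega)] at hw
      exact hmin t (by omega) ⟨by omega, hzt, hw⟩
  have hXX0 : D.XX (P ++ Q.take s) :=
    (h.XXd_app (d := 0) (by omega)).2 (by rw [Nat.zero_add, hPl]; exact hXd0)
  have hbad : D.BadD (D.c k0) (Q.take s) := by
    by_contra hc
    have hnb : ¬ D.BadD 0 (P ++ Q.take s) := by
      rw [h.BadD_app (by omega), Nat.zero_add, hPl]
      exact hc
    obtain ⟨P', Q', e', hL, hR⟩ := cc1 h hXX0 hnb v
    refine hun _ hXX0 ⟨Q.drop s, ?_⟩ P' Q' e' ?_ hL hR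
    · rw [List.append_assoc, List.take_append_drop]
    · have := hL.1
      omega
  have hkk : k0 = k := huniq k0 hk0 ⟨Q.take s, Q.drop s, (List.take_append_drop _ _).symm, hXd0, hbad⟩
  subst hkk
  have hXX1 : D.XX (P ++ Q1) :=
    (h.XXd_app (d := 0) (by omega)).2 (by rw [Nat.zero_add, hPl]; exact hXd)
  refine ⟨Q1, X2, e, ?_, hXX1, hX2, ?_⟩
  · rintro rfl
    have := hXd.2.1
    simp at this
    omega
  · rw [hb]
    congr 1
    unfold T
    have e1 : (P ++ Q1).take D.p = P ++ Q1.take (D.p - D.c k0) := by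
      rw [List.take_append, List.take_of_length_le (by omega), hPl]
    have e2 : (P ++ Q1).drop D.p = Q1.drop (D.p - D.c k0) := by
      rw [List.drop_append, List.drop_of_length_le (by omega), hPl, List.nil_append]
    rw [e1, e2, ← h.sound2 k0 hk0 _ _ _ _ hPl hl hr]

theorem cc (h : D.Ok) {X X2 : List α} (hX : D.XX X) (hX2 : D.XX X2) (v : V) :
    (∃ P Q, X = P ++ Q ∧ D.LP1 P v ∧ (D.R1 Q).isSome) ∨
    (∃ P Q, X ++ X2 = P ++ Q ∧ P.length < X.length ∧ D.LP2 P v ∧ (D.R2 Q).isSome) := by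
  classical
  by_cases hB : D.BadD 0 X
  swap
  · exact Or.inl (cc1 h hX hB v)
  right
  have hz := h.hz
  have hN := h.hN1
  have hXl : D.z ≤ X.length := by simpa using hX.2.1
  have htl : (X.take D.p).length = D.p := by rw [List.length_take]; omega
  obtain ⟨I, hI, hI2⟩ := h.compl2 (X.take D.p) v htl
  obtain ⟨k, hkI, hkS⟩ : ∃ k ∈ I, k ∉ D.Spoiled (X ++ X2) := by
    by_contra hc
    push Not at hc
    have := Finset.card_le_card (show I ⊆ D.Spoiled (X ++ X2) from hc)
    have := h.spoil X X2 hX hX2 hB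
    omega
  obtain ⟨hk, hl, hr⟩ := hI2 k hkI
  have hck := h.ck k hk
  obtain ⟨b1, hb1⟩ := Option.isSome_iff_exists.1 hr
  have hun : ∀ k' < D.K, D.Cand k' ((X ++ X2).drop (D.c k)) → k' = k := by
    intro k' hk' hc
    by_contra hne
    exact hkS (by
      unfold Spoiled
      rw [Finset.mem_filter, Finset.mem_range]
      exact ⟨hk, k', hk', hne, hc⟩)
  have htk : (X.take (D.c k)).length = D.c k := by rw [List.length_take]; omega
  have eX : X = X.take (D.c k) ++ X.drop (D.c k) := (List.take_append_drop _ _).symm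
  have e0 : (X ++ X2).drop (D.c k) = X.drop (D.c k) ++ X2 :=
    List.drop_append_of_le_length (by omega)
  have hXd : D.XXd (D.c k) (X.drop (D.c k)) := by
    have := (h.XXd_app (d := 0) (P := X.take (D.c k)) (Q := X.drop (D.c k)) (by omega)).1
      (by rw [← eX]; exact hX)
    rwa [Nat.zero_add, htk] at this
  have hBd : D.BadD (D.c k) (X.drop (D.c k)) := by
    have := (h.BadD_app (d := 0) (P := X.take (D.c k)) (Q := X.drop (D.c k)) (by omega)).1
      (by rw [← eX]; exact hB)
    rwa [Nat.zero_add, htk] at this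
  refine ⟨X.take (D.c k), X.drop (D.c k) ++ X2, ?_, ?_, ⟨k, hk, htk, ?_⟩, ?_⟩
  · rw [← List.append_assoc, List.take_append_drop]
  · rw [htk]; omega
  · rw [List.take_take, min_eq_left hck] at hl
    exact hl
  · have hrel : D.R2rel (X.drop (D.c k) ++ X2)
        (D.T (D.act b1 (D.φ ((X.drop (D.c k)).drop (D.p - D.c k))) +
          D.nu1 ((X.drop (D.c k)).drop (D.p - D.c k))) X2) := by
      refine ⟨k, hk, by rw [← e0]; exact hun, X.drop (D.c k), X2, b1, rfl, hXd, hBd, hX2, ?_, rfl⟩
      rw [List.drop_take] at hb1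
      exact hb1
    unfold R2
    rw [dif_pos ⟨_, hrel⟩]
    rfl

end Dat

end Crest.Agent.R320.Blk_872
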