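import Crest.Agent.R320.Wall_291

/-!
# Row 320, CORE-1 (helper919): left looking walls and the threshold block code

`exists_left_walls`: 291's walls, reversed (a wall at `t` is read in the last `n` letters of
`X.take t`).  `XX Wo thr M`: 467 / 420's blocks with 132's thresholds.
-/

set_option autoImplicit false

namespace Crest.Agent.R320.Blk_919

open Crest.Agent.R320.Wall_291

variable {α : Type*}

theorem flatten_replicate_reverse (e : ℕ) (x : List α) :
    (List.replicate e x).flatten.reverse = (List.replicate e x.reverse).flatten := by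
  induction e with
  | zero => simp
  | succ e ih =>
    rw [List.replicate_succ', List.flatten_append, List.reverse_append, ih, List.replicate_succ,
      List.flatten_cons]
    simp

theorem RF.reverse {e p : ℕ} {Q : List α} (h : RF e p Q) : RF e p Q.reverse := by
  intro x hx hl hi
  have h1 : (List.replicate e x).flatten.reverse <:+: Q.reverse.reverse :=
    List.reverse_infix.2 hi
  rw [List.reverse_reverse, flatten_replicate_reverse] at h1
  exact h x.reverse (by simpa using hx) (by simpa using hl) h1

theorem exists_left_walls (α : Type*) [Finite α] (e W : ℕ) :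
    ∃ (n G : ℕ) (Wo : List α → Prop),
      (∀ P Q, n ≤ Q.length → (Wo (P ++ Q) ↔ Wo Q)) ∧
      (∀ Q, Wo Q → n ≤ Q.length) ∧
      (∀ Q d, Wo Q → 0 < d → d ≤ W → ¬ Wo (Q.take (Q.length - d))) ∧
      (∀ Q, RF e W Q → G + n ≤ Q.length → ∃ i < G, Wo (Q.take (Q.length - i))) := by
  obtain ⟨n, G, R, h1, h2, h3, h4⟩ := exists_walls α e W
  refine ⟨n, G, fun Q => R Q.reverse, ?_, ?_, ?_, ?_⟩
  · intro P Q hQ
    show R (P ++ Q).reverse ↔ R Q.reverse
    rw [List.reverse_append, h1 (Q.reverse ++ P.reverse), h1 Q.reverse,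
      List.take_append_of_le_length (by simpa using hQ)]
  · intro Q hQ
    have := h2 _ hQ
    simpa using this
  · intro Q d hQ hd hdW
    have := h3 _ d hQ hd hdW
    show ¬ R (Q.take (Q.length - d)).reverse
    rw [List.drop_reverse] at this
    exact this
  · intro Q hQ hl
    obtain ⟨i, hi, hR⟩ := h4 Q.reverse (RF.reverse hQ) (by simpa using hl)
    refine ⟨i, hi, ?_⟩
    show R (Q.take (Q.length - i)).reverse
    rw [List.drop_reverse] at hR
    exact hR

/-- admissible end: a wall which has passed its threshold -/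
def Adm (Wo : List α → Prop) (thr : ℕ → ℕ) (M : ℕ) (X : List α) : Prop :=
  Wo X ∧ thr (X.length % M) ≤ X.length

/-- the block code: first admissible end -/
def XX (Wo : List α → Prop) (thr : ℕ → ℕ) (M : ℕ) : Set (List α) :=
  {X | Wo X ∧ thr (X.length % M) ≤ X.length ∧
    ∀ t < X.length, Wo (X.take t) → ¬ thr (t % M) ≤ t}

variable {Wo : List α → Prop} {thr : ℕ → ℕ} {M : ℕ}

theorem XX.prefix_eq {X Y : List α} (hX : X ∈ XX Wo thr M) (hY : Y ∈ XX Wo thr M)
    (h : X <+: Y) : X = Y := by
  obtain ⟨Z, rfl⟩ := h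
  by_contra hne
  have hZ : Z ≠ [] := by
    rintro rfl
    exact hne (by simp)
  have hZl : 0 < Z.length := List.length_pos_iff.2 hZ
  have := hY.2.2 X.length (by rw [List.length_append]; omega) (by
    rw [List.take_left]
    exact hX.1)
  exact this hX.2.1

theorem XX.ne_nil (hthr : ∀ r, 0 < thr r) : ([] : List α) ∉ XX Wo thr M := by
  intro h
  have := h.2.1
  have h1 := hthr (([] : List α).length % M)
  simp only [List.length_nil] at this h1
  omega

/-- the shortest admissible prefix is a block -/
theorem exists_block {w : List α} {t : ℕ} (ht : t ≤ w.length) (hw : Wo (w.take t))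
    (hthr : thr (t % M) ≤ t) : ∃ X, X ∈ XX Wo thr M ∧ X <+: w ∧ X.length ≤ t := by
  classical
  have hex : ∃ t, t ≤ w.length ∧ Wo (w.take t) ∧ thr (t % M) ≤ t := ⟨t, ht, hw, hthr⟩
  obtain ⟨h1, h2, h3⟩ := Nat.find_spec hex
  set s := Nat.find hex with hs
  have hsl : (w.take s).length = s := by rw [List.length_take]; omega
  refine ⟨w.take s, ⟨h2, by rw [hsl]; exact h3, ?_⟩, List.take_prefix _ _, by
    rw [hsl]; exact Nat.find_min' hex ⟨ht, hw, hthr⟩⟩
  intro u hu hWu hle
  rw [hsl] at hu
  rw [List.take_take, min_eq_left hu.le] at hWu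
  exact Nat.find_min hex hu ⟨by omega, hWu, hle⟩

/-- parsing of run free words into bounded blocks -/
theorem parse {e W n G Zm : ℕ}
    (hG : ∀ Q, RF e W Q → G + n ≤ Q.length → ∃ i < G, Wo (Q.take (Q.length - i)))
    (hpos : ∀ r, 0 < thr r) (hZ : ∀ r, thr r ≤ Zm) (w : List α) (hw : RF e W w) :
    ∃ (l : List (List α)) (E : List α), w = l.flatten ++ E ∧
      (∀ X ∈ l, X ∈ XX Wo thr M ∧ X.length ≤ Zm + G + n) ∧ E.length ≤ Zm + G + n := by
  induction hN : w.length using Nat.strong_induction_on generalizing w with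
  | _ N ih =>
  subst hN
  by_cases hlen : w.length ≤ Zm + G + n
  · exact ⟨[], w, by simp, by simp, hlen⟩
  · push_neg at hlen
    obtain ⟨i, hi, hWi⟩ := hG (w.take (Zm + G + n)) (RF.take hw _) (by
      rw [List.length_take]; omega)
    have hl : (w.take (Zm + G + n)).length = Zm + G + n := by rw [List.length_take]; omega
    rw [hl, List.take_take, min_eq_left (by omega)] at hWi
    obtain ⟨X, hX, ⟨Y, hY⟩, hXl⟩ := exists_block (M := M) (thr := thr)
      (t := Zm + G + n - i) (w := w) (by omega) hWi ((hZ _).trans (by omega))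
    have hXpos : 0 < X.length := lt_of_lt_of_le (hpos _) hX.2.1
    have hwl : w.length = X.length + Y.length := by rw [← hY, List.length_append]
    obtain ⟨l, E, hE, hl', hEl⟩ := ih Y.length (by omega) Y
      (hw.infix (hY ▸ (List.suffix_append X Y).isInfix)) rfl
    refine ⟨X :: l, E, ?_, ?_, hEl⟩
    · rw [← hY, hE]
      simp
    · intro Z hZ'
      rcases List.mem_cons.1 hZ' with rfl | hZ'
      · exact ⟨hX, by omega⟩
      · exact hl' Z hZ'

/-- right legality of the wall side (132's thresholds, comb `M`, window `[p0, p0 + N1]`) -/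
def RLeg (Wo : List α → Prop) (thr : ℕ → ℕ) (M n p0 N1 : ℕ) (Q : List α) : Prop :=
  n ≤ Q.length ∧ Wo Q ∧ thr ((p0 + Q.length) % M) ≤ p0 + Q.length ∧
    ∀ t, n ≤ t → t < Q.length → Wo (Q.take t) → p0 + N1 + t < thr ((p0 + t) % M)

theorem mod_shift {p0 om t M : ℕ} : (p0 + M * om + t) % M = (p0 + t) % M := by
  have : p0 + M * om + t = p0 + t + M * om := by ring
  rw [this, Nat.add_mul_mod_self_left]

/-- junction lemma: a comb place and a right legal word give a block -/
theorem junction {n p0 N1 : ℕ} (hW : ∀ P Q : List α, n ≤ Q.length → (Wo (P ++ Q) ↔ Wo Q))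
    (hthr : ∀ r, p0 + N1 + n < thr r) {P Q : List α} {om : ℕ} (hP : P.length = p0 + M * om)
    (hN : P.length ≤ p0 + N1) (hQ : RLeg Wo thr M n p0 N1 Q) : P ++ Q ∈ XX Wo thr M := by
  obtain ⟨h1, h2, h3, h4⟩ := hQ
  refine ⟨(hW P Q h1).2 h2, ?_, ?_⟩
  · rw [List.length_append, hP, mod_shift]
    omega
  · intro t ht hWt hle
    by_cases htn : t < P.length + n
    · have := hthr (t % M)
      omega
    · push_neg at htn
      obtain ⟨u, rfl⟩ : ∃ u, t = P.length + u := ⟨t - P.length, by omega⟩
      rw [List.take_length_add_append] at hWt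
      have hu : u < Q.length := by rw [List.length_append] at ht; omega
      have hWu : Wo (Q.take u) := (hW P (Q.take u) (by rw [List.length_take]; omega)).1 hWt
      have h5 := h4 u (by omega) hu hWu
      rw [hP, mod_shift] at hle
      omega

/-- the wall band: some wall within `N1` of its threshold -/
def EBad (Wo : List α → Prop) (thr : ℕ → ℕ) (M N1 : ℕ) (X : List α) : Prop :=
  ∃ t ≤ X.length, Wo (X.take t) ∧ t ≤ thr (t % M) + N1 ∧ thr (t % M) ≤ t + N1

/-- completeness of the wall side: off the band every comb place is right legal -/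
theorem rleg_of_not_EBad {n p0 N1 : ℕ}
    (hW : ∀ P Q : List α, n ≤ Q.length → (Wo (P ++ Q) ↔ Wo Q))
    (hthr : ∀ r, p0 + N1 + n < thr r) {P Q : List α} {om : ℕ} (hP : P.length = p0 + M * om)
    (hN : P.length ≤ p0 + N1) (hX : P ++ Q ∈ XX Wo thr M) (hE : ¬ EBad Wo thr M N1 (P ++ Q)) :
    RLeg Wo thr M n p0 N1 Q := by
  have hPQ : (P ++ Q).length = P.length + Q.length := List.length_append
  have hlen : thr ((P ++ Q).length % M) ≤ (P ++ Q).length := hX.2.1
  have h0 := hthr ((P ++ Q).length % M)
  have hn : n ≤ Q.length := by omega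
  have hmod : (P ++ Q).length % M = (p0 + Q.length) % M := by rw [hPQ, hP, mod_shift]
  refine ⟨hn, (hW P Q hn).1 hX.1, ?_, ?_⟩
  · by_contra hlt
    push_neg at hlt
    apply hE
    refine ⟨(P ++ Q).length, le_rfl, by rw [List.take_length]; exact hX.1, ?_, ?_⟩
    · rw [hmod]
      omega
    · omega
  · intro t htn htQ hWt
    by_contra hlt
    push_neg at hlt
    have hWt' : Wo ((P ++ Q).take (P.length + t)) := by
      rw [List.take_length_add_append]
      exact (hW P (Q.take t) (by rw [List.length_take]; omega)).2 hWt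
    have h6 := hX.2.2 (P.length + t) (by omega) hWt'
    have hm : (P.length + t) % M = (p0 + t) % M := by rw [hP, mod_shift]
    apply hE
    refine ⟨P.length + t, by omega, hWt', ?_, ?_⟩
    · omega
    · rw [hm]
      omega

end Crest.Agent.R320.Blk_919
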