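import Mathlib

/-!
# Row 320: blocks over left-looking walls, pure word combinatorics (helper940)

`A o` = words which end at their first wall at distance `≥ o`.
-/

set_option autoImplicit false

namespace Crest.Agent.R320.Blk_940

variable {α : Type*}

/-- words ending at their first wall at distance at least `o` -/
def A (Wo : List α → Prop) (o : ℕ) : Language α :=
  {w | o ≤ w.length ∧ Wo w ∧ ∀ s, o ≤ s → s < w.length → ¬ Wo (w.take s)}

variable {Wo : List α → Prop} {n : ℕ}

theorem prefix_cases {u u' x x' : List α} (h : u ++ x = u' ++ x') (hl : u.length ≤ u'.length) :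
    ∃ r, u' = u ++ r ∧ x = r ++ x' := by
  obtain ⟨r, h1⟩ | ⟨r, h1⟩ := List.append_eq_append_iff.1 h
  · exact ⟨r, h1.1, h1.2⟩
  · obtain ⟨h1, h2⟩ := h1
    have : r = [] := by
      have := congrArg List.length h1
      rw [List.length_append] at this
      exact List.length_eq_zero_iff.1 (by omega)
    subst this
    exact ⟨[], by simpa using h1.symm, by simpa using h2.symm⟩

theorem A_code {o : ℕ} {u u' x x' : List α} (hu : u ∈ A Wo o) (hu' : u' ∈ A Wo o)
    (h : u ++ x = u' ++ x') : u = u' := by
  rcases lt_trichotomy u.length u'.length with hl | hl | hl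
  · obtain ⟨r, h1, -⟩ := prefix_cases h hl.le
    exfalso
    refine hu'.2.2 u.length hu.1 hl ?_
    rw [h1, List.take_left]
    exact hu.2.1
  · obtain ⟨r, h1, -⟩ := prefix_cases h hl.le
    have := congrArg List.length h1
    rw [List.length_append] at this
    have : r = [] := List.length_eq_zero_iff.1 (by omega)
    rw [h1, this, List.append_nil]
  · obtain ⟨r, h1, -⟩ := prefix_cases h.symm hl.le
    exfalso
    refine hu.2.2 u'.length hu'.1 hl ?_
    rw [h1, List.take_left]
    exact hu'.2.1

/-- the wall predicate depends on the last `n` letters -/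
def Loc (Wo : List α → Prop) (n : ℕ) : Prop :=
  ∀ P Q : List α, n ≤ Q.length → (Wo (P ++ Q) ↔ Wo Q)

theorem take_shift {P R : List α} {s : ℕ} : (P ++ R).take (P.length + s) = P ++ R.take s := by
  rw [List.take_append, List.take_of_length_le (by omega)]
  congr 2
  omega

theorem wo_shift (hloc : Loc Wo n) {P R : List α} {s : ℕ} (hs : n ≤ s) (hR : s ≤ R.length) :
    Wo ((P ++ R).take (P.length + s)) ↔ Wo (R.take s) := by
  rw [take_shift]
  exact hloc _ _ (by rw [List.length_take]; omega)

theorem A_shift (hloc : Loc Wo n) {o : ℕ} (ho : n ≤ o) {P R : List α} :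
    P ++ R ∈ A Wo (P.length + o) ↔ R ∈ A Wo o := by
  constructor
  · rintro ⟨h1, h2, h3⟩
    rw [List.length_append] at h1 h3
    refine ⟨by omega, (hloc _ _ (by omega)).1 h2, fun s hs hs' hw => ?_⟩
    exact h3 (P.length + s) (by omega) (by omega) ((wo_shift hloc (by omega) (by omega)).2 hw)
  · rintro ⟨h1, h2, h3⟩
    refine ⟨by rw [List.length_append]; omega, (hloc _ _ (by omega)).2 h2, fun s hs hs' hw => ?_⟩
    rw [List.length_append] at hs'
    obtain ⟨j, rfl⟩ := Nat.exists_eq_add_of_le (show P.length ≤ s by omega)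
    exact h3 j (by omega) (by omega) ((wo_shift hloc (by omega) (by omega)).1 hw)

/-- gap property -/
def Gap (Wo : List α → Prop) (W : ℕ) : Prop :=
  ∀ (w : List α) (s t : ℕ), s < t → t ≤ w.length → Wo (w.take s) → Wo (w.take t) → W < t - s

/-- the bad first parts of blocks: a wall near the threshold, or bad length -/
def BB (Wo : List α → Prop) (N1 e : ℕ) (Bad : ℕ → Prop) (o : ℕ) : Language α :=
  {w | w ∈ A Wo o ∧ ((∃ s, o ≤ s + N1 ∧ s < o ∧ Wo (w.take s)) ∨ w.length < o + N1 ∨
    Bad (w.length - o + e))}

theorem BB_shift (hloc : Loc Wo n) {N1 e : ℕ} {Bad : ℕ → Prop} {o : ℕ} (ho : n + N1 ≤ o)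
    {P R : List α} : P ++ R ∈ BB Wo N1 e Bad (P.length + o) ↔ R ∈ BB Wo N1 e Bad o := by
  have hA := A_shift hloc (o := o) (by omega) (P := P) (R := R)
  constructor
  · rintro ⟨h1, h2⟩
    have hR := hA.1 h1
    refine ⟨hR, ?_⟩
    have hl := hR.1
    rcases h2 with ⟨s, a, b, c⟩ | h | h
    · obtain ⟨j, rfl⟩ := Nat.exists_eq_add_of_le (show P.length ≤ s by omega)
      exact Or.inl ⟨j, by omega, by omega, (wo_shift hloc (by omega) (by omega)).1 c⟩
    · rw [List.length_append] at h
      exact Or.inr (Or.inl (by omega))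
    · right; right
      have : (P ++ R).length - (P.length + o) + e = R.length - o + e := by
        rw [List.length_append]; omega
      rwa [this] at h
  · rintro ⟨h1, h2⟩
    have hl := h1.1
    refine ⟨hA.2 h1, ?_⟩
    rcases h2 with ⟨s, a, b, c⟩ | h | h
    · exact Or.inl ⟨P.length + s, by omega, by omega, (wo_shift hloc (by omega) (by omega)).2 c⟩
    · exact Or.inr (Or.inl (by rw [List.length_append]; omega))
    · right; right
      have : (P ++ R).length - (P.length + o) + e = R.length - o + e := by
        rw [List.length_append]; omega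
      rwa [this]

end Crest.Agent.R320.Blk_940
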