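import Crest.Agent.R320.Hk1_851

/-!
# Row 320, block calculus (helper603): the promise step and the reading of `phi`

`CC` : a prefix code of blocks, `T v X` : value of the token `v` after the block `X`.
`LP v` : left parts which name the token `v` (at the start of the block), `RQ u` : right parts
which name the value `u` at the end of the block.
-/

set_option autoImplicit false

namespace Crest.Agent.R320.BlockP_603

open Crest.RegLang Crest.Agent.R320.Hk_851 Computability

universe u

variable {α : Type u} {k : ℕ} {V : Type}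

/-- the words which are products of blocks of `CC` and carry `v` to `v'` -/
def Bl (CC : Language α) (T : V → List α → V) (v v' : V) : Language α :=
  {w | ∃ L : List (List α), (∀ X ∈ L, X ∈ CC) ∧ w = L.flatten ∧ L.foldl T v = v'}

theorem HL.iSup {ι : Type} [Finite ι] {L : ι → Language α} (h : ∀ i, HL k (L i)) :
    HL k (⨆ i, L i) := by
  classical
  have := Fintype.ofFinite ι
  have key : ∀ s : Finset ι, HL k (⨆ i ∈ s, L i) := by
    intro s
    induction s using Finset.induction_on with
    | empty => simpa using HL.bot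
    | insert a s _ ih =>
      rw [Finset.iSup_insert]
      exact (h a).sup ih
  simpa using key Finset.univ

theorem HL.iInf {ι : Type} [Finite ι] {L : ι → Language α} (h : ∀ i, HL k (L i)) :
    HL k (⨅ i, L i) := by
  have h2 := (HL.iSup (fun i => (h i).compl)).compl
  have : (⨆ i, (L i)ᶜ)ᶜ = ⨅ i, L i := by rw [compl_iSup]; simp
  rwa [this] at h2

theorem mem_iSup {ι : Type} {L : ι → Language α} {w : List α} :
    w ∈ (⨆ i, L i) ↔ ∃ i, w ∈ L i := by
  exact Set.mem_iUnion

theorem mem_iInf {ι : Type} {L : ι → Language α} {w : List α} :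
    w ∈ (⨅ i, L i) ↔ ∀ i, w ∈ L i := by
  exact Set.mem_iInter

/-- the chain language: `LP v K^* RQ v'` -/
def Ch (LP RQ : V → Language α) (v v' : V) : Language α :=
  LP v * ((⨆ u, RQ u * LP u)∗ * RQ v')

theorem ch_step {LP RQ : V → Language α} {v u v' : V} {P Q w : List α} (hP : P ∈ LP v)
    (hQ : Q ∈ RQ u) (hw : w ∈ Ch LP RQ u v') : P ++ Q ++ w ∈ Ch LP RQ v v' := by
  obtain ⟨P', hP', r, hr, rfl⟩ := Language.mem_mul.1 hw
  obtain ⟨s, hs, Q', hQ', rfl⟩ := Language.mem_mul.1 hr
  obtain ⟨L, rfl, hL⟩ := Language.mem_kstar.1 hs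
  refine Language.mem_mul.2 ⟨P, hP, Q ++ P' ++ L.flatten ++ Q', ?_, by simp [List.append_assoc]⟩
  refine Language.mem_mul.2 ⟨((Q ++ P') :: L).flatten, ?_, Q', hQ', by simp [List.append_assoc]⟩
  refine Language.mem_kstar.2 ⟨(Q ++ P') :: L, rfl, ?_⟩
  intro y hy
  rcases List.mem_cons.1 hy with h | h
  · rw [h]
    exact mem_iSup.2 ⟨u, Language.mem_mul.2 ⟨Q, hQ, P', hP', rfl⟩⟩
  · exact hL y h

theorem ch_one {LP RQ : V → Language α} {v v' : V} {P Q : List α} (hP : P ∈ LP v)
    (hQ : Q ∈ RQ v') : P ++ Q ∈ Ch LP RQ v v' :=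
  Language.mem_mul.2 ⟨P, hP, Q, Language.mem_mul.2 ⟨[], Language.mem_kstar.2 ⟨[], rfl, by simp⟩,
    Q, hQ, rfl⟩, rfl⟩

/-- case analysis: one cut, or a first cut followed by a chain word -/
theorem ch_cases {LP RQ : V → Language α} {v v' : V} {w : List α} (hw : w ∈ Ch LP RQ v v') :
    ∃ n : ℕ, Nat.rec (motive := fun _ => V → List α → Prop)
      (fun v w => ∃ P ∈ LP v, ∃ Q ∈ RQ v', w = P ++ Q)
      (fun _ F v w => ∃ P ∈ LP v, ∃ u, ∃ Q ∈ RQ u, ∃ r, w = P ++ (Q ++ r) ∧ F u r) n v w := by
  obtain ⟨P, hP, r, hr, rfl⟩ := Language.mem_mul.1 hw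
  obtain ⟨s, hs, Q', hQ', rfl⟩ := Language.mem_mul.1 hr
  obtain ⟨L, rfl, hL⟩ := Language.mem_kstar.1 hs
  clear hw hr hs
  induction L generalizing v P with
  | nil => exact ⟨0, P, hP, Q', hQ', by simp⟩
  | cons y L ih =>
    obtain ⟨u, hu⟩ := mem_iSup.1 (hL y (by simp))
    obtain ⟨Q, hQ, P', hP', rfl⟩ := Language.mem_mul.1 hu
    obtain ⟨n, hn⟩ := ih P' hP' (fun z hz => hL z (by simp [hz]))
    exact ⟨n + 1, P, hP, u, Q, hQ, P' ++ (L.flatten ++ Q'), by simp [List.append_assoc], hn⟩

/-- completeness half -/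
theorem bl_subset {CC : Language α} {T : V → List α → V} {LP RQ : V → Language α}
    (hc : ∀ X ∈ CC, ∀ v, ∃ P Q, X = P ++ Q ∧ P ∈ LP v ∧ Q ∈ RQ (T v X))
    (L : List (List α)) (hL : ∀ X ∈ L, X ∈ CC) (hne : L ≠ []) (v : V) :
    L.flatten ∈ Ch LP RQ v (L.foldl T v) := by
  induction L generalizing v with
  | nil => exact absurd rfl hne
  | cons X L ih =>
    obtain ⟨P, Q, e, hP, hQ⟩ := hc X (hL X (by simp)) v
    by_cases hL0 : L = []
    · subst hL0
      simpa [e] using (ch_one hP hQ : P ++ Q ∈ Ch LP RQ v (T v X))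
    · have := ih (fun z hz => hL z (by simp [hz])) hL0 (T v X)
      have h2 := ch_step hP hQ this
      rw [← e] at h2
      simpa using h2

/-- soundness half, on the promise `CC*` -/
theorem ch_sound {CC : Language α} {T : V → List α → V} {LP RQ : V → Language α}
    (hlen : ∀ v, ∀ P ∈ LP v, ∀ X ∈ CC, P.length ≤ X.length)
    (hRQ : ∀ u, [] ∉ RQ u) (hCC : ([] : List α) ∉ CC)
    (hs : ∀ v u, ∀ P ∈ LP v, ∀ R, P ++ R ∈ CC → ∀ Q ∈ RQ u, ∀ L : List (List α),
      (∀ X ∈ L, X ∈ CC) → Q <+: R ++ L.flatten → Q = R ∧ u = T v (P ++ R))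
    {v v' : V} (L : List (List α)) (hL : ∀ X ∈ L, X ∈ CC)
    (hw : L.flatten ∈ Ch LP RQ v v') : L.foldl T v = v' := by
  obtain ⟨n, hn⟩ := ch_cases hw
  clear hw
  induction n generalizing v L with
  | zero =>
    obtain ⟨P, hP, Q, hQ, e⟩ := hn
    cases L with
    | nil =>
      exfalso
      rw [List.flatten_nil] at e
      have : Q = [] := (List.append_eq_nil_iff.1 e.symm).2
      exact hRQ _ (this ▸ hQ)
    | cons X L =>
      rw [List.flatten_cons] at e
      have hX : X ∈ CC := hL X (by simp)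
      obtain ⟨R, hR⟩ : P <+: X := List.prefix_of_prefix_length_le
        ⟨Q, e.symm⟩ ⟨L.flatten, rfl⟩ (hlen v P hP X hX)
      subst hR
      rw [List.append_assoc] at e
      have e2 : Q = R ++ L.flatten := (List.append_cancel_left e).symm
      obtain ⟨h1, h2⟩ := hs v v' P hP R hX Q hQ L (fun z hz => hL z (by simp [hz]))
        ⟨[], by simp [e2]⟩
      have h3 : L.flatten = [] := by
        have : R ++ L.flatten = R ++ [] := by rw [← e2, h1, List.append_nil]
        exact List.append_cancel_left this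
      have h4 : L = [] := by
        cases L with
        | nil => rfl
        | cons Y L' =>
          exfalso
          rw [List.flatten_cons] at h3
          have hY : Y = [] := (List.append_eq_nil_iff.1 h3).1
          exact hCC (hY ▸ hL Y (by simp))
      subst h4
      simp [h2]
  | succ n ih =>
    obtain ⟨P, hP, u, Q, hQ, r, e, hr⟩ := hn
    cases L with
    | nil =>
      exfalso
      rw [List.flatten_nil] at e
      have h5 := (List.append_eq_nil_iff.1 e.symm).2
      have : Q = [] := (List.append_eq_nil_iff.1 h5).1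
      exact hRQ _ (this ▸ hQ)
    | cons X L =>
      rw [List.flatten_cons] at e
      have hX : X ∈ CC := hL X (by simp)
      obtain ⟨R, hR⟩ : P <+: X := List.prefix_of_prefix_length_le
        ⟨Q ++ r, e.symm⟩ ⟨L.flatten, rfl⟩ (hlen v P hP X hX)
      subst hR
      rw [List.append_assoc] at e
      have e2 : R ++ L.flatten = Q ++ r := List.append_cancel_left e
      obtain ⟨h1, h2⟩ := hs v u P hP R hX Q hQ L (fun z hz => hL z (by simp [hz]))
        ⟨r, e2.symm⟩
      subst h1
      have e3 : L.flatten = r := List.append_cancel_left e2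
      rw [List.foldl_cons, ← h2]
      exact ih L (fun z hz => hL z (by simp [hz])) (e3 ▸ hr)

/-- **promise step, token form** -/
theorem bl_HL [Finite V] {CC : Language α} {T : V → List α → V} {LP RQ : V → Language α}
    (hCCk : HL k CC) (hLP : ∀ v, HL k (LP v)) (hRQk : ∀ u, HL k (RQ u))
    (hlen : ∀ v, ∀ P ∈ LP v, ∀ X ∈ CC, P.length ≤ X.length)
    (hRQ : ∀ u, [] ∉ RQ u) (hCC : ([] : List α) ∉ CC)
    (hc : ∀ X ∈ CC, ∀ v, ∃ P Q, X = P ++ Q ∧ P ∈ LP v ∧ Q ∈ RQ (T v X))
    (hs : ∀ v u, ∀ P ∈ LP v, ∀ R, P ++ R ∈ CC → ∀ Q ∈ RQ u, ∀ L : List (List α),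
      (∀ X ∈ L, X ∈ CC) → Q <+: R ++ L.flatten → Q = R ∧ u = T v (P ++ R))
    (v v' : V) : HL (k + 1) (Bl CC T v v') := by
  classical
  have hCh : HL (k + 1) (Ch LP RQ v v') := by
    refine ((hLP v).mono (Nat.le_succ k)).mul (HL.mul ?_ ((hRQk v').mono (Nat.le_succ k)))
    exact (HL.iSup (fun u => (hRQk u).mul (hLP u))).star
  have hst : HL (k + 1) (CC∗) := hCCk.star
  have key : ∀ w : List α, w ∈ ((CC∗ ⊓ Ch LP RQ v v') ⊔ (if v = v' then 1 else 0)) ↔
      w ∈ Bl CC T v v' := by
    intro w
    constructor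
    · rintro (⟨h1, h2⟩ | h)
      · obtain ⟨L, rfl, hL⟩ := Language.mem_kstar.1 h1
        exact ⟨L, hL, rfl, ch_sound hlen hRQ hCC hs L hL h2⟩
      · by_cases e : v = v'
        · rw [if_pos e] at h
          have : w = [] := Language.mem_one w |>.1 h
          exact ⟨[], by simp, by simp [this], by simpa using e⟩
        · rw [if_neg e] at h
          exact absurd h (Language.notMem_zero w)
    · rintro ⟨L, hL, rfl, h⟩
      by_cases hL0 : L = []
      · subst hL0
        refine Or.inr ?_
        have e : v = v' := by simpa using h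
        rw [if_pos e]
        exact (Language.mem_one _).2 rfl
      · refine Or.inl ⟨Language.mem_kstar.2 ⟨L, rfl, hL⟩, ?_⟩
        have := bl_subset hc L hL hL0 v
        rwa [h] at this
  refine HL.congr ?_ (fun w => (key w).symm)
  refine (hst.inf hCh).sup ?_
  by_cases e : v = v'
  · rw [if_pos e]; exact HL.one
  · rw [if_neg e]; exact HL.zero

/-- the parse in a prefix code is unique -/
theorem parse_unique {CC : Language α} (hCC : ([] : List α) ∉ CC)
    (hpc : ∀ X ∈ CC, ∀ Y ∈ CC, X <+: Y → X = Y) (L M : List (List α))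
    (hL : ∀ X ∈ L, X ∈ CC) (hM : ∀ X ∈ M, X ∈ CC) (h : L.flatten = M.flatten) : L = M := by
  induction L generalizing M with
  | nil =>
    cases M with
    | nil => rfl
    | cons Y M =>
      exfalso
      rw [List.flatten_nil, List.flatten_cons] at h
      exact hCC ((List.append_eq_nil_iff.1 h.symm).1 ▸ hM Y (by simp))
  | cons X L ih =>
    cases M with
    | nil =>
      exfalso
      rw [List.flatten_nil, List.flatten_cons] at h
      exact hCC ((List.append_eq_nil_iff.1 h).1 ▸ hL X (by simp))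
    | cons Y M =>
      rw [List.flatten_cons, List.flatten_cons] at h
      have hX := hL X (by simp)
      have hY := hM Y (by simp)
      have hXY : X = Y := by
        rcases le_total X.length Y.length with hl | hl
        · exact hpc X hX Y hY (List.prefix_of_prefix_length_le ⟨_, h⟩ ⟨_, rfl⟩ hl)
        · exact (hpc Y hY X hX (List.prefix_of_prefix_length_le ⟨_, h.symm⟩ ⟨_, rfl⟩ hl)).symm
      subst hXY
      rw [ih M (fun z hz => hL z (by simp [hz])) (fun z hz => hM z (by simp [hz]))
        (List.append_cancel_left h)]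

/-- affine token maps: the difference of two runs -/
theorem fold_diff {V : Type} [AddCommGroup V] {S : Type} [Monoid S] (act : V → S → V)
    (hadd : ∀ x y s, act (x + y) s = act x s + act y s) (hone : ∀ x, act x 1 = x)
    (hmul : ∀ x s t, act x (s * t) = act (act x s) t)
    (phi : List α → S) (hphi1 : phi [] = 1) (hphim : ∀ u v, phi (u ++ v) = phi u * phi v)
    (nu : List α → V) (L : List (List α)) (x y : V) :
    L.foldl (fun v X => act v (phi X) + nu X) (x + y) =
      act x (phi L.flatten) + L.foldl (fun v X => act v (phi X) + nu X) y := by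
  induction L generalizing x y with
  | nil => simp [hphi1, hone]
  | cons X L ih =>
    rw [List.foldl_cons, List.foldl_cons, List.flatten_cons, hphim, hmul, hadd, add_assoc, ih]

/-- **reading**: from the token languages to the classes of `phi` -/
theorem read_HL {V : Type} [AddCommGroup V] [Finite V] {S : Type} [Monoid S] (act : V → S → V)
    (hadd : ∀ x y s, act (x + y) s = act x s + act y s) (hone : ∀ x, act x 1 = x)
    (hmul : ∀ x s t, act x (s * t) = act (act x s) t)
    (hfaith : ∀ s t, (∀ x, act x s = act x t) → s = t)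
    (phi : List α → S) (hphi1 : phi [] = 1) (hphim : ∀ u v, phi (u ++ v) = phi u * phi v)
    (nu : List α → V) {CC : Language α} (hCC : ([] : List α) ∉ CC)
    (hpc : ∀ X ∈ CC, ∀ Y ∈ CC, X <+: Y → X = Y)
    (hB : ∀ v v', HL k (Bl CC (fun v X => act v (phi X) + nu X) v v')) (s : S) :
    HL k {w | w ∈ CC∗ ∧ phi w = s} := by
  classical
  set T : V → List α → V := fun v X => act v (phi X) + nu X with hT
  refine HL.congr (M := ⨅ x : V, ⨆ y : V, Bl CC T 0 y ⊓ Bl CC T x (act x s + y))
    (HL.iInf fun x => HL.iSup fun y => (hB 0 y).inf (hB x _)) ?_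
  intro w
  rw [mem_iInf]
  refine Iff.symm ?_
  constructor
  · intro h
    obtain ⟨y, ⟨L, hL, e, hy⟩, _⟩ := mem_iSup.1 (h 0)
    have hw : w ∈ CC∗ := Language.mem_kstar.2 ⟨L, e, hL⟩
    refine ⟨hw, hfaith _ _ fun x => ?_⟩
    obtain ⟨y', ⟨L1, hL1, e1, hy1⟩, ⟨L2, hL2, e2, hy2⟩⟩ := mem_iSup.1 (h x)
    have h12 : L1 = L2 := parse_unique hCC hpc L1 L2 hL1 hL2 (e1.symm.trans e2)
    subst h12
    have := fold_diff act hadd hone hmul phi hphi1 hphim nu L1 x 0
    rw [add_zero, ← e1] at this
    have h3 : act x (phi w) + y' = act x s + y' := by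
      rw [← hy2, ← hy1]
      exact this.symm
    exact add_right_cancel h3
  · rintro ⟨hw, hs⟩ x
    obtain ⟨L, e, hL⟩ := Language.mem_kstar.1 hw
    refine mem_iSup.2 ⟨L.foldl T 0, ⟨L, hL, e, rfl⟩, ⟨L, hL, e, ?_⟩⟩
    have := fold_diff act hadd hone hmul phi hphi1 hphim nu L x 0
    rw [add_zero, ← e, hs] at this
    exact this

end Crest.Agent.R320.BlockP_603
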