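import Crest.Agent.R320.Nest_812

/-!
# Row 320, BLOCK CALCULUS PER FINITE MONOID (helper812)

467's block calculus with the correct order of quantifiers (691): everything is relative to ONE finite
monoid `G` and one block weight `γ : List α → G` (any function of the block).
`SolvedG k CC γ` : for every `g : G` the words `X₁ ⋯ Xₙ` with `Xᵢ ∈ CC`, `∏ γ Xᵢ = g` have height `≤ k`.
`step` : a scheme (tokens `V`, noise `ν`, left / right languages) on the blocks `CC`, exact UNDER THE
PROMISE that the text is in `CC*`, complete outside `Bad`, and `SolvedG k Bad (γ, ν)` give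
`SolvedG (k+1) CC γ`.
The final composition of two wall schemes is in `TwoSch_812.lean`.
-/

set_option autoImplicit false

namespace Crest.Agent.R320.Block_812

open Crest.RegLang Crest.Agent.R320.Hk_851 Crest.Agent.R320.Nest_812

universe u

variable {α : Type u}

/-- weight of a list of blocks -/
def wt {G : Type*} [Monoid G] (γ : List α → G) (l : List (List α)) : G := (l.map γ).prod

/-- `CC*` with weight `g`. -/
def St {G : Type*} [Monoid G] (CC : Set (List α)) (γ : List α → G) (g : G) : Language α :=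
  {w | ∃ l : List (List α), (∀ x ∈ l, x ∈ CC) ∧ l.flatten = w ∧ wt γ l = g}

def SolvedG {G : Type*} [Monoid G] (k : ℕ) (CC : Set (List α)) (γ : List α → G) : Prop :=
  ∀ g : G, HL k (St CC γ g)

/-- prefix code -/
structure PCode (XX : Set (List α)) : Prop where
  ne : ([] : List α) ∉ XX
  pre : ∀ x ∈ XX, ∀ y ∈ XX, ∀ r r' : List α, x ++ r = y ++ r' → x = y

theorem PCode.decode {XX : Set (List α)} (h : PCode XX) : ∀ (l l' : List (List α)) (r : List α),
    (∀ x ∈ l, x ∈ XX) → (∀ x ∈ l', x ∈ XX) → l'.flatten = l.flatten ++ r → ∃ l'', l' = l ++ l'' := by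
  intro l
  induction l with
  | nil => intro l' r _ _ _; exact ⟨l', rfl⟩
  | cons x l ih =>
    intro l' r hl hl' e
    cases l' with
    | nil =>
      have hx := hl x (by simp)
      simp only [List.flatten_nil, List.flatten_cons, List.append_assoc] at e
      have : x = [] := by
        cases x with
        | nil => rfl
        | cons a x => simp at e
      exact (h.ne (this ▸ hx)).elim
    | cons y l' =>
      simp only [List.flatten_cons, List.append_assoc] at e
      have hxy := h.pre y (hl' y (by simp)) x (hl x (by simp)) _ _ e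
      subst hxy
      have e' := List.append_cancel_left e
      obtain ⟨l'', rfl⟩ := ih l' r (fun z hz => hl z (by simp [hz]))
        (fun z hz => hl' z (by simp [hz])) e'
      exact ⟨l'', rfl⟩

theorem PCode.flatten_nil {XX : Set (List α)} (h : PCode XX) (l : List (List α))
    (hl : ∀ x ∈ l, x ∈ XX) (e : l.flatten = []) : l = [] := by
  cases l with
  | nil => rfl
  | cons x l =>
    simp only [List.flatten_cons, List.append_eq_nil_iff] at e
    exact (h.ne (e.1 ▸ hl x (by simp))).elim

theorem PCode.inj {XX : Set (List α)} (h : PCode XX) (l l' : List (List α))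
    (hl : ∀ x ∈ l, x ∈ XX) (hl' : ∀ x ∈ l', x ∈ XX) (e : l.flatten = l'.flatten) : l = l' := by
  obtain ⟨l'', rfl⟩ := h.decode l l' [] hl hl' (by rw [e, List.append_nil])
  rw [List.flatten_append] at e
  have : l''.flatten = [] := by
    have := congrArg List.length e
    rw [List.length_append] at this
    exact List.length_eq_zero_iff.1 (by omega)
  rw [h.flatten_nil l'' (fun z hz => hl' z (by simp [hz])) this, List.append_nil]

/-- a token module with unit law -/
structure Act (G V : Type*) [Monoid G] [AddCommGroup V] extends TokAct G V where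
  one : ∀ v, act v 1 = v

section
variable {G : Type*} {V : Type*} [Monoid G] [AddCommGroup V]

/-- affine maps -/
def Af (_ : Act G V) : Type _ := G × V

instance (A : Act G V) : Monoid (Af A) where
  mul p q := ((p.1 * q.1, A.act p.2 q.1 + q.2) : G × V)
  one := ((1, 0) : G × V)
  mul_assoc := by
    rintro ⟨a, x⟩ ⟨b, y⟩ ⟨c, z⟩
    change ((a * b * c, A.act (A.act x b + y) c + z) : G × V) =
      (a * (b * c), A.act x (b * c) + (A.act y c + z))
    rw [mul_assoc, A.add, A.mul, add_assoc]
  one_mul := by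
    rintro ⟨a, x⟩
    change ((1 * a, A.act 0 a + x) : G × V) = (a, x)
    rw [one_mul, A.toTokAct.zero, zero_add]
  mul_one := by
    rintro ⟨a, x⟩
    change ((a * 1, A.act x 1 + 0) : G × V) = (a, x)
    rw [mul_one, A.one, add_zero]

instance (A : Act G V) [Finite G] [Finite V] : Finite (Af A) := inferInstanceAs (Finite (G × V))

/-- value of the affine map `p` at `v` -/
def ev (A : Act G V) (v : V) (p : Af A) : V := A.act v p.1 + p.2

theorem ev_mul (A : Act G V) (v : V) (p q : Af A) : ev A v (p * q) = ev A (ev A v p) q := by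
  obtain ⟨a, x⟩ := p
  obtain ⟨b, y⟩ := q
  change A.act v (a * b) + (A.act x b + y) = A.act (A.act v a + x) b + y
  rw [A.mul, A.add, add_assoc]

theorem ev_one (A : Act G V) (v : V) : ev A v 1 = v := by
  change A.act v 1 + 0 = v
  rw [A.one, add_zero]

/-- weight with noise -/
def ga (A : Act G V) (γ : List α → G) (ν : List α → V) (X : List α) : Af A := ((γ X, ν X) : G × V)

/-- thread along a list of blocks -/
def vl (A : Act G V) (γ : List α → G) (ν : List α → V) (v : V) (l : List (List α)) : V :=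
  ev A v (wt (ga A γ ν) l)

theorem vl_nil (A : Act G V) (γ : List α → G) (ν : List α → V) (v : V) : vl A γ ν v [] = v :=
  ev_one A v

theorem vl_cons (A : Act G V) (γ : List α → G) (ν : List α → V) (v : V) (X : List α)
    (l : List (List α)) : vl A γ ν v (X :: l) = vl A γ ν (A.act v (γ X) + ν X) l := by
  change ev A v (wt (ga A γ ν) (X :: l)) = ev A (A.act v (γ X) + ν X) (wt (ga A γ ν) l)
  have : wt (ga A γ ν) (X :: l) = ga A γ ν X * wt (ga A γ ν) l := by
    simp only [wt, List.map_cons, List.prod_cons]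
  rw [this, ev_mul]
  rfl

theorem vl_append (A : Act G V) (γ : List α → G) (ν : List α → V) (v : V)
    (l l' : List (List α)) : vl A γ ν v (l ++ l') = vl A γ ν (vl A γ ν v l) l' := by
  change ev A v (wt (ga A γ ν) (l ++ l')) = ev A (ev A v (wt (ga A γ ν) l)) (wt (ga A γ ν) l')
  rw [← ev_mul]
  congr 1
  simp only [wt, List.map_append, List.prod_append]

theorem wt_fst (A : Act G V) (γ : List α → G) (ν : List α → V) (l : List (List α)) :
    (wt (ga A γ ν) l).1 = wt γ l := by
  induction l with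
  | nil => rfl
  | cons X l ih =>
    have h1 : wt (ga A γ ν) (X :: l) = ga A γ ν X * wt (ga A γ ν) l := by
      simp only [wt, List.map_cons, List.prod_cons]
    have h2 : wt γ (X :: l) = γ X * wt γ l := by
      simp only [wt, List.map_cons, List.prod_cons]
    rw [h1, h2, ← ih]
    rfl

/-- One scheme on the blocks `CC`, exact under the promise `text ∈ CC*`, complete outside `Bad`. -/
structure Scheme (k : ℕ) (CC Bad : Set (List α)) (γ : List α → G) (A : Act G V) where
  ν : List α → V
  LP : V → Language α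
  RQ : V → Language α
  hLP : ∀ v, HL k (LP v)
  hRQ : ∀ v, HL k (RQ v)
  ne : ∀ v, ([] : List α) ∉ LP v
  sound : ∀ v v' P Q, P ∈ LP v → Q ∈ RQ v' → ∀ X ∈ CC, ∀ R R' : List α,
    P ++ Q ++ R = X ++ R' → P ++ Q = X ∧ A.act v (γ X) + ν X = v'
  complete : ∀ X ∈ CC, X ∉ Bad → ∀ v, ∃ P Q, P ++ Q = X ∧ P ∈ LP v ∧ Q ∈ RQ (A.act v (γ X) + ν X)

/-- `CC*`. -/
def SC (CC : Set (List α)) : Language α :=
  {w | ∃ l : List (List α), (∀ x ∈ l, x ∈ CC) ∧ l.flatten = w}

theorem HL_SC {k : ℕ} {XX CC : Set (List α)} (hXX : PCode XX) (hX : HL k (XX : Language α))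
    (hC : CC ⊆ XX) (hCC : HL (k + 1) (CC : Language α)) : HL (k + 1) (SC CC) := by
  have h1 : HL (k + 1) (KStar.kstar (XX : Language α)) := hX.star
  have h2 : HL (k + 1) ((XX : Language α) ⊓ (CC : Language α)ᶜ) :=
    (hX.mono (Nat.le_succ k)).inf hCC.compl
  refine (h1.inf ((h1.mul (h2.mul HL.top)).compl)).congr fun w => ?_
  constructor
  · rintro ⟨l, hl, rfl⟩
    refine ⟨Language.mem_kstar.2 ⟨l, rfl, fun y hy => hC (hl y hy)⟩, ?_⟩
    intro hw
    obtain ⟨a, ha, b, hb, hab⟩ := Language.mem_mul.1 hw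
    obtain ⟨la, rfl, hla⟩ := Language.mem_kstar.1 ha
    obtain ⟨y, hy, z, _, rfl⟩ := Language.mem_mul.1 hb
    have hyX : y ∈ XX := hy.1
    have hyC : y ∉ CC := hy.2
    obtain ⟨l'', e⟩ := hXX.decode (la ++ [y]) l z
      (by
        intro x hx
        rcases List.mem_append.1 hx with hx | hx
        · exact hla x hx
        · rw [List.mem_singleton.1 hx]; exact hyX)
      (fun x hx => hC (hl x hx))
      (by rw [← hab]; simp)
    exact hyC (hl y (by rw [e]; simp))
  · rintro ⟨h3, h4⟩
    obtain ⟨l, rfl, hl⟩ := Language.mem_kstar.1 h3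
    refine ⟨l, ?_, rfl⟩
    intro y hy
    by_contra hyC
    obtain ⟨l1, l2, rfl⟩ := List.append_of_mem hy
    refine h4 (Language.mem_mul.2 ⟨l1.flatten, Language.mem_kstar.2 ⟨l1, rfl, fun x hx =>
      hl x (by simp [hx])⟩, y ++ l2.flatten, Language.mem_mul.2 ⟨y, ⟨hl y (by simp), hyC⟩,
      l2.flatten, trivial, rfl⟩, ?_⟩)
    simp

/-- words of `Bad*` whose thread goes from `v` to `v'`. -/
def BB (A : Act G V) (γ : List α → G) (ν : List α → V) (Bad : Set (List α)) (v v' : V) :
    Language α :=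
  {w | ∃ l : List (List α), (∀ x ∈ l, x ∈ Bad) ∧ l.flatten = w ∧ vl A γ ν v l = v'}

theorem HL_BB [Finite G] [Finite V] {k : ℕ} {A : Act G V} {γ : List α → G} {ν : List α → V}
    {Bad : Set (List α)} (h : SolvedG k Bad (ga A γ ν)) (v v' : V) :
    HL k (BB A γ ν Bad v v') := by
  have h1 := HL.iUnion (ι := {p : Af A // ev A v p = v'})
    (L := fun p => St Bad (ga A γ ν) p.1) (fun p => h p.1)
  refine h1.congr fun w => ?_
  constructor
  · rintro ⟨l, hl, hw, hv⟩
    exact ⟨⟨wt (ga A γ ν) l, hv⟩, l, hl, hw, rfl⟩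
  · rintro ⟨⟨p, hp⟩, l, hl, hw, e⟩
    refine ⟨l, hl, hw, ?_⟩
    change ev A v (wt (ga A γ ν) l) = v'
    rw [e]; exact hp

/-- **THE STEP, per finite monoid.** -/
theorem step [Finite G] [Finite V] {k : ℕ} {XX CC Bad : Set (List α)} {γ : List α → G}
    {A : Act G V} (hXX : PCode XX) (hX : HL k (XX : Language α)) (hC : CC ⊆ XX)
    (hCC : HL (k + 1) (CC : Language α)) (hB : Bad ⊆ CC) (c : Scheme k CC Bad γ A)
    (hBad : SolvedG k Bad (ga A γ c.ν)) : SolvedG (k + 1) CC γ := by
  classical
  -- languages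
  let B : V → V → Language α := fun v v' => BB A γ c.ν Bad v v'
  have hBB : ∀ v v', HL k (B v v') := fun v v' => HL_BB hBad v v'
  let K : Language α := {w | ∃ q : V × V, w ∈ c.RQ q.1 * (B q.1 q.2 * c.LP q.2)}
  have hK : HL k K := HL.iUnion fun q => (c.hRQ _).mul ((hBB _ _).mul (c.hLP _))
  let Ks : Language α := KStar.kstar K
  have hKs : HL (k + 1) Ks := hK.star
  let E : V → V → Language α := fun v0 v2 =>
    B v0 v2 ⊔ {w | ∃ q : V × V, w ∈ B v0 q.1 * (c.LP q.1 * (Ks * (c.RQ q.2 * B q.2 v2)))}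
  have hE : ∀ v0 v2, HL (k + 1) (E v0 v2) := fun v0 v2 =>
    ((hBB _ _).mono (Nat.le_succ k)).sup (HL.iUnion fun q =>
      ((hBB _ _).mono (Nat.le_succ k)).mul (((c.hLP _).mono (Nat.le_succ k)).mul
        (hKs.mul (((c.hRQ _).mono (Nat.le_succ k)).mul ((hBB _ _).mono (Nat.le_succ k))))))
  have hBX : ∀ x, x ∈ Bad → x ∈ XX := fun x hx => hC (hB hx)
  -- soundness
  have snd : ∀ (Lk : List (List α)), (∀ y ∈ Lk, y ∈ K) → ∀ (l : List (List α)),
      (∀ x ∈ l, x ∈ CC) → ∀ (v0 v v' v2 : V) (lb : List (List α)) (P Q : List α)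
      (lb' : List (List α)), (∀ x ∈ lb, x ∈ Bad) → vl A γ c.ν v0 lb = v → P ∈ c.LP v →
      Q ∈ c.RQ v' → (∀ x ∈ lb', x ∈ Bad) → vl A γ c.ν v' lb' = v2 →
      l.flatten = lb.flatten ++ (P ++ (Lk.flatten ++ (Q ++ lb'.flatten))) →
      vl A γ c.ν v0 l = v2 := by
    intro Lk
    induction Lk with
    | nil =>
      intro _ l hl v0 v v' v2 lb P Q lb' hlb hv hP hQ hlb' hv' e
      obtain ⟨l', rfl⟩ := hXX.decode lb l _ (fun x hx => hBX x (hlb x hx))
        (fun x hx => hC (hl x hx)) e
      rw [List.flatten_append] at e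
      have e1 := List.append_cancel_left e
      rw [List.flatten_nil, List.nil_append] at e1
      cases l' with
      | nil =>
        rw [List.flatten_nil] at e1
        have : P = [] := by
          cases P with
          | nil => rfl
          | cons a P => simp at e1
        exact (c.ne v (this ▸ hP)).elim
      | cons X l' =>
        have hXC : X ∈ CC := hl X (by simp)
        rw [List.flatten_cons] at e1
        obtain ⟨h1, h2⟩ := c.sound v v' P Q hP hQ X hXC lb'.flatten l'.flatten
          (by rw [List.append_assoc]; exact e1.symm)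
        rw [← List.append_assoc, h1] at e1
        have e2 := List.append_cancel_left e1
        have e3 : l' = lb' := hXX.inj l' lb' (fun x hx => hC (hl x (by simp [hx])))
          (fun x hx => hBX x (hlb' x hx)) e2
        rw [vl_append, hv, vl_cons, h2, e3, hv']
    | cons y Lk ih =>
      intro hLk l hl v0 v v' v2 lb P Q lb' hlb hv hP hQ hlb' hv' e
      obtain ⟨l', rfl⟩ := hXX.decode lb l _ (fun x hx => hBX x (hlb x hx))
        (fun x hx => hC (hl x hx)) e
      rw [List.flatten_append] at e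
      have e1 := List.append_cancel_left e
      obtain ⟨⟨u1, u2⟩, hy⟩ := hLk y (by simp)
      obtain ⟨Q1, hQ1, z, hz, rfl⟩ := Language.mem_mul.1 hy
      obtain ⟨b1, ⟨lb1, hlb1, rfl, hvb1⟩, P1, hP1, rfl⟩ := Language.mem_mul.1 hz
      cases l' with
      | nil =>
        rw [List.flatten_nil] at e1
        have : P = [] := by
          cases P with
          | nil => rfl
          | cons a P => simp at e1
        exact (c.ne v (this ▸ hP)).elim
      | cons X l' =>
        have hXC : X ∈ CC := hl X (by simp)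
        rw [List.flatten_cons, List.flatten_cons] at e1
        have e1' : P ++ Q1 ++ (lb1.flatten ++ (P1 ++ (Lk.flatten ++ (Q ++ lb'.flatten)))) =
            X ++ l'.flatten := by
          rw [e1]; simp only [List.append_assoc]
        obtain ⟨h1, h2⟩ := c.sound v u1 P Q1 hP hQ1 X hXC _ _ e1'
        rw [h1] at e1'
        have e2 := List.append_cancel_left e1'
        have := ih (fun w hw => hLk w (by simp [hw])) l' (fun x hx => hl x (by simp [hx])) u1 u2 v' v2
          lb1 P1 Q lb' hlb1 hvb1 hP1 hQ hlb' hv' e2.symm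
        rw [vl_append, hv, vl_cons, h2]
        exact this
  have sndE : ∀ (l : List (List α)), (∀ x ∈ l, x ∈ CC) → ∀ v0 v2, l.flatten ∈ E v0 v2 →
      vl A γ c.ν v0 l = v2 := by
    rintro l hl v0 v2 (hw | ⟨⟨v, v'⟩, hw⟩)
    · obtain ⟨lb, hlb, e, hv⟩ := hw
      have : l = lb := hXX.inj l lb (fun x hx => hC (hl x hx)) (fun x hx => hBX x (hlb x hx)) e.symm
      rw [this]; exact hv
    · obtain ⟨b, ⟨lb, hlb, rfl, hv⟩, z, hz, e⟩ := Language.mem_mul.1 hw
      obtain ⟨P, hP, z1, hz1, rfl⟩ := Language.mem_mul.1 hz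
      obtain ⟨k1, hk1, z2, hz2, rfl⟩ := Language.mem_mul.1 hz1
      obtain ⟨Q, hQ, b', ⟨lb', hlb', rfl, hv'⟩, rfl⟩ := Language.mem_mul.1 hz2
      obtain ⟨Lk, rfl, hLk⟩ := Language.mem_kstar.1 hk1
      exact snd Lk hLk l hl v0 v v' v2 lb P Q lb' hlb hv hP hQ hlb' hv' e.symm
  -- completeness
  have Ks0 : ([] : List α) ∈ Ks := Language.mem_kstar.2 ⟨[], rfl, fun z hz => by simp at hz⟩
  have cmpE : ∀ (l : List (List α)), (∀ x ∈ l, x ∈ CC) → ∀ v0,
      l.flatten ∈ E v0 (vl A γ c.ν v0 l) := by
    intro l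
    induction l with
    | nil =>
      intro _ v0
      exact Or.inl ⟨[], by simp, rfl, rfl⟩
    | cons X l ih =>
      intro hl v0
      have hXC : X ∈ CC := hl X (by simp)
      have ih' := ih (fun x hx => hl x (by simp [hx])) (A.act v0 (γ X) + c.ν X)
      rw [vl_cons, List.flatten_cons]
      by_cases hXB : X ∈ Bad
      · rcases ih' with ⟨lb, hlb, e, hv⟩ | ⟨⟨v, v'⟩, hw⟩
        · left
          refine ⟨X :: lb, ?_, by rw [List.flatten_cons, e], by rw [vl_cons]; exact hv⟩
          intro x hx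
          rcases List.mem_cons.1 hx with rfl | hx
          · exact hXB
          · exact hlb x hx
        · right
          obtain ⟨b, ⟨lb, hlb, rfl, hv⟩, z, hz, e⟩ := Language.mem_mul.1 hw
          refine ⟨(v, v'), Language.mem_mul.2 ⟨X ++ lb.flatten, ⟨X :: lb, ?_, by simp, ?_⟩, z, hz, ?_⟩⟩
          · intro x hx
            rcases List.mem_cons.1 hx with rfl | hx
            · exact hXB
            · exact hlb x hx
          · rw [vl_cons]; exact hv
          · rw [List.append_assoc, e]
      · obtain ⟨P, Q, hPQ, hP, hQ⟩ := c.complete X hXC hXB v0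
        rcases ih' with ⟨lb, hlb, e, hv⟩ | ⟨⟨v, v'⟩, hw⟩
        · right
          refine ⟨(v0, A.act v0 (γ X) + c.ν X), Language.mem_mul.2 ⟨[], ⟨[], by simp, rfl,
            vl_nil _ _ _ _⟩, P ++ (Q ++ l.flatten), Language.mem_mul.2 ⟨P, hP, Q ++ l.flatten,
            Language.mem_mul.2 ⟨[], Ks0, Q ++ l.flatten, Language.mem_mul.2 ⟨Q, hQ, l.flatten,
              ⟨lb, hlb, e, hv⟩, rfl⟩, rfl⟩, rfl⟩, ?_⟩⟩
          rw [List.nil_append, ← List.append_assoc, hPQ]
        · right
          obtain ⟨b, hb, z, hz, e⟩ := Language.mem_mul.1 hw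
          obtain ⟨P', hP', z1, hz1, rfl⟩ := Language.mem_mul.1 hz
          obtain ⟨k1, hk1, z2, hz2, rfl⟩ := Language.mem_mul.1 hz1
          obtain ⟨Lk, rfl, hLk⟩ := Language.mem_kstar.1 hk1
          refine ⟨(v0, v'), Language.mem_mul.2 ⟨[], ⟨[], by simp, rfl, vl_nil _ _ _ _⟩,
            P ++ ((Q ++ (b ++ P')) ++ Lk.flatten ++ z2),
            Language.mem_mul.2 ⟨P, hP, (Q ++ (b ++ P')) ++ Lk.flatten ++ z2,
              Language.mem_mul.2 ⟨(Q ++ (b ++ P')) ++ Lk.flatten,
                Language.mem_kstar.2 ⟨(Q ++ (b ++ P')) :: Lk, by simp, ?_⟩, z2, hz2, rfl⟩, rfl⟩, ?_⟩⟩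
          · intro y hy
            rcases List.mem_cons.1 hy with rfl | hy
            · exact ⟨(A.act v0 (γ X) + c.ν X, v), Language.mem_mul.2 ⟨Q, hQ, b ++ P',
                Language.mem_mul.2 ⟨b, hb, P', hP', rfl⟩, rfl⟩⟩
            · exact hLk y hy
          · rw [← e, List.nil_append, ← hPQ]
            simp only [List.append_assoc]
  -- reading
  intro g
  have hS := HL_SC hXX hX hC hCC
  have hfin : HL (k + 1) ({w | ∃ d : V, w ∈ ({w | ∀ v : V, w ∈ SC CC ⊓ E v (A.act v g + d)} :
      Language α)} : Language α) := HL.iUnion fun d => HL.iInter fun v => hS.inf (hE _ _)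
  refine hfin.congr fun w => ?_
  constructor
  · rintro ⟨l, hl, rfl, hg⟩
    refine ⟨(wt (ga A γ c.ν) l).2, fun v => ⟨⟨l, hl, rfl⟩, ?_⟩⟩
    have := cmpE l hl v
    have e : vl A γ c.ν v l = A.act v g + (wt (ga A γ c.ν) l).2 := by
      change A.act v (wt (ga A γ c.ν) l).1 + (wt (ga A γ c.ν) l).2 = _
      rw [wt_fst, hg]
    rwa [e] at this
  · rintro ⟨d, hd⟩
    obtain ⟨⟨l, hl, rfl⟩, _⟩ := hd 0
    have h1 : ∀ v, A.act v (wt γ l) + (wt (ga A γ c.ν) l).2 = A.act v g + d := by
      intro v
      have := sndE l hl v _ (hd v).2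
      rw [← this]
      change _ = A.act v (wt (ga A γ c.ν) l).1 + (wt (ga A γ c.ν) l).2
      rw [wt_fst]
    refine ⟨l, hl, rfl, A.faithful _ _ fun v => ?_⟩
    have h0 := h1 0
    rw [A.toTokAct.zero, A.toTokAct.zero, zero_add, zero_add] at h0
    have hv := h1 v
    rw [h0] at hv
    exact add_right_cancel hv

end

end Crest.Agent.R320.Block_812
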