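import Crest.Agent.R320.Blocks_830

/-!
Row 320 (helper830): the two semantic completeness statements `hcc1`, `hcc2` of `Top5_120.top5`
from the block schemes of `Blocks_830`.
-/

set_option autoImplicit false

namespace Crest.Agent.R320.Blocks_830

namespace Dat

variable {α S V : Type*} (D : Dat α S V)

/-- bad blocks -/
def Bad : Set (List α) :=
  {X | X ∈ D.XX ∧ ((∃ t, t ≤ X.length ∧ D.Wo (X.take t) ∧ D.z ≤ t + D.N1 ∧ t < D.z + D.N1) ∨
    D.BadT (X.length - D.p0))}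

variable {D}

theorem junction2 (h : D.Ok) {P Q : List α} {x b : V} (hP : D.LP2 P x) (hQ : D.R2rel Q b) :
    (∃ X' ∈ D.Bad, ∃ Y' ∈ D.XX, X' ++ Y' = P ++ Q ∧ D.T (D.T x X') Y' = b) ∨
      (∃ X' ∈ D.XX, X' ∉ D.Bad ∧ X' <+: P ++ Q) := by
  classical
  obtain ⟨j0, hj0, hPl, hl2⟩ := hP
  obtain ⟨j, hj, hc, huniq, t, hFB, hX2, b', hb', hb⟩ := hQ
  have hn := h.hn
  have hcj := h.cle j hj
  have hcj0 := h.cle j0 hj0
  have hX2' := hX2
  obtain ⟨hz2, hw2, -⟩ := hX2'
  rw [List.length_drop] at hz2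
  have htQ := hFB.1
  have hwQ : D.Wo Q := by
    have h1 := h.loc (Q.take t) (Q.drop t) (by rw [List.length_drop]; omega)
    rw [List.take_append_drop] at h1
    exact h1.2 hw2
  have hex : ∃ s, s ≤ Q.length ∧ D.Wo (Q.take s) ∧ D.z ≤ s + D.c j0 :=
    ⟨Q.length, le_rfl, by simpa using hwQ, by omega⟩
  obtain ⟨t0, ht0, hmin⟩ : ∃ t0, (t0 ≤ Q.length ∧ D.Wo (Q.take t0) ∧ D.z ≤ t0 + D.c j0) ∧
      ∀ s < t0, ¬ (s ≤ Q.length ∧ D.Wo (Q.take s) ∧ D.z ≤ s + D.c j0) :=
    ⟨Nat.find hex, Nat.find_spec hex, fun s hs => Nat.find_min hex hs⟩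
  have hFB0 : D.FB Q (D.c j0) t0 :=
    ⟨ht0.1, ht0.2.1, ht0.2.2, fun s hs hz hw => hmin s hs ⟨by omega, hw, hz⟩⟩
  have hXmem : P ++ Q.take t0 ∈ D.XX := by
    have hlt : (Q.take t0).length = t0 := by rw [List.length_take]; omega
    refine ⟨?_, ?_, ?_⟩
    · rw [List.length_append, hlt, hPl]; omega
    · rw [h.loc _ _ (by rw [hlt]; omega)]; exact ht0.2.1
    · intro s hs1 hs2
      rw [List.length_append, hlt] at hs2
      rw [h.take_app (by omega) (by rw [hlt]; omega), List.take_take,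
        Nat.min_eq_left (by omega)]
      exact hFB0.2.2.2 _ (by omega) (by omega)
  have hXlen : (P ++ Q.take t0).length = D.c j0 + t0 := by
    rw [List.length_append, List.length_take, hPl]; omega
  have hpre : P ++ Q.take t0 <+: P ++ Q :=
    (List.prefix_append_right_inj P).2 (List.take_prefix t0 Q)
  by_cases hbad : P ++ Q.take t0 ∈ D.Bad
  · left
    have hcand : D.Cand Q (D.c j0) := by
      obtain ⟨-, hE | hB⟩ := hbad
      · obtain ⟨s, hs, hw, hb1, hb2⟩ := hE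
        left
        rw [hXlen] at hs
        rw [h.take_app (by omega) (by rw [List.length_take]; omega), List.take_take,
          Nat.min_eq_left (by omega)] at hw
        exact ⟨s - P.length, by omega, hw, by omega, by omega⟩
      · right
        refine ⟨t0, hFB0, ?_⟩
        rw [hXlen] at hB
        rwa [Nat.add_comm t0]
    have hjj : j0 = j := by
      by_contra hne
      exact huniq j0 hj0 hne hcand
    subst hjj
    have htt : t0 = t := hFB0.unique hFB
    subst htt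
    refine ⟨P ++ Q.take t0, hbad, Q.drop t0, hX2, ?_, ?_⟩
    · rw [List.append_assoc, List.take_append_drop]
    · rw [hb]
      congr 1
      have ht0g : D.p0 - D.c j0 ≤ t0 := by have := hFB0.2.2.1; omega
      have e1 : (P ++ Q.take t0).take D.p0 = P ++ Q.take (D.p0 - D.c j0) := by
        rw [List.take_append, List.take_of_length_le (by omega), List.take_take, hPl,
          Nat.min_eq_left ht0g]
      have e2 : (P ++ Q.take t0).drop D.p0 = (Q.take t0).drop (D.p0 - D.c j0) := by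
        rw [List.drop_append, List.drop_eq_nil_of_le (by omega), List.nil_append, hPl]
      have e3 := h.snd2 P (Q.take (D.p0 - D.c j0)) x b' (by rw [List.length_take]; omega) hl2 hb'
      unfold T
      rw [e1, e2, ← e3]
  · right
    exact ⟨_, hXmem, hbad, hpre⟩

theorem prefix_unique (h : D.Ok) {X Y W : List α} (hX : X ∈ D.XX) (hY : Y ∈ D.XX)
    (h1 : X <+: W) (h2 : Y <+: W) : X = Y := by
  rcases List.prefix_or_prefix_of_prefix h1 h2 with ⟨Z, rfl⟩ | ⟨Z, rfl⟩
  · rw [hPC h X hX Z hY, List.append_nil]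
  · rw [hPC h Y hY Z hX, List.append_nil]

theorem hcc1 (h : D.Ok) : ∀ X ∈ D.XX, X ∉ D.Bad → ∀ v, ∃ P Q, P ++ Q = X ∧ D.LP1 P v ∧
    ∀ x, ∀ P', D.LP1 P' x → P' ++ Q ∈ D.XX ∧ D.T x (P' ++ Q) = D.T v X := by
  intro X hX hB v
  obtain ⟨P, Q, hPQ, -, hL, hR⟩ := cut1 h hX (by
    intro t ht hw hb
    exact hB ⟨hX, Or.inl ⟨t, ht, hw, hb.1, hb.2⟩⟩) (by
    intro hb
    exact hB ⟨hX, Or.inr hb⟩) v
  obtain ⟨b, hb⟩ := Option.isSome_iff_exists.1 hR
  refine ⟨P, Q, hPQ.symm, hL, fun x P' hP' => ?_⟩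
  obtain ⟨h1, h2⟩ := s1 h P' x Q b hP' hb
  obtain ⟨-, h4⟩ := s1 h P v Q b hL hb
  refine ⟨h1, ?_⟩
  rw [h2, hPQ, h4]

theorem hcc2 (h : D.Ok) (h3 : 3 * D.p0 ≤ D.z) (C0 : ℕ)
    (res : ∀ a b c d, a < D.K → b < D.K → c < D.K → d < D.K → a ≠ b → c ≠ d →
      |((D.c a : ℤ) - D.c b) - ((D.c c : ℤ) - D.c d)| ≤ 2 * D.N1 → a = c ∧ b = d)
    (spoil : ∀ T, D.z ≤ T + 2 * D.p0 → ∀ [DecidablePred fun ab : ℕ × ℕ => ab.1 ≠ ab.2 ∧
      D.BadT (T + D.c ab.1 - D.c ab.2)], ((Finset.range D.K ×ˢ Finset.range D.K).filter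
      (fun ab => ab.1 ≠ ab.2 ∧ D.BadT (T + D.c ab.1 - D.c ab.2))).card ≤ C0)
    (cmp2 : ∀ (u : List α) v, u.length = D.p0 → ∃ J : Finset ℕ, 1 + 2 * C0 < J.card ∧
      ∀ j ∈ J, j < D.K ∧ D.lam2 (u.take (D.c j)) = some v ∧
        (D.rho2 (u.drop (D.c j))).isSome) :
    ∀ X ∈ D.Bad, ∀ Y ∈ D.Bad, ∀ v, ∃ P Q, P ++ Q = X ++ Y ∧ D.LP2 P v ∧
      ∀ x, ∀ P', D.LP2 P' x →
        (∃ X' ∈ D.Bad, ∃ Y' ∈ D.XX, X' ++ Y' = P' ++ Q ∧
          D.T (D.T x X') Y' = D.T (D.T v X) Y) ∨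
        (∃ X' ∈ D.XX, X' ∉ D.Bad ∧ X' <+: P' ++ Q) := by
  classical
  intro X hXB Y hYB v
  obtain ⟨hX, hXb⟩ := id hXB
  obtain ⟨hY, -⟩ := id hYB
  have hn := h.hn
  obtain ⟨hz, hw, hno⟩ := id hX
  obtain ⟨hz2, hw2, hno2⟩ := id hY
  set U := X ++ Y with hU
  have hUl : U.length = X.length + Y.length := by rw [hU, List.length_append]
  have hUt : ∀ s, s ≤ X.length → U.take s = X.take s := fun s hs => by
    rw [hU, List.take_append_of_le_length hs]
  obtain ⟨J, hJ, hJ2⟩ := cmp2 (X.take D.p0) v (by rw [List.length_take]; omega)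
  have hSp := spoiled h h3 C0 res (fun T hT => spoil T hT) U
  obtain ⟨j, hjJ, hjS⟩ : ∃ j ∈ J, j ∉ ((Finset.range D.K).filter (fun j => ∃ j' < D.K, j' ≠ j ∧
      D.Cand (U.drop (D.c j)) (D.c j'))) := by
    by_contra hcon
    push Not at hcon
    have := Finset.card_le_card (fun j hj => hcon j hj : J ⊆ _)
    omega
  obtain ⟨hjK, hl2, hr2⟩ := hJ2 j hjJ
  have hcj := h.cle j hjK
  obtain ⟨b', hb'⟩ := Option.isSome_iff_exists.1 hr2
  have hFBj : D.FB (U.drop (D.c j)) (D.c j) (X.length - D.c j) := by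
    refine ⟨by rw [List.length_drop]; omega, ?_, by omega, ?_⟩
    · rw [wshift h (by omega) (by omega), hUt _ le_rfl, List.take_length]
      exact hw
    · intro t' ht' hzt hwt
      have h5 := wshift h (U := U) (c := D.c j) (t := D.c j + t') (by omega) (by omega)
      rw [show D.c j + t' - D.c j = t' by omega] at h5
      have h6 := h5.1 hwt
      rw [hUt _ (by omega)] at h6
      exact hno _ (by omega) (by omega) h6
  have hcj' : D.Cand (U.drop (D.c j)) (D.c j) := by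
    rcases hXb with ⟨t, ht, hwt, ht1, ht2⟩ | hB
    · left
      refine ⟨t - D.c j, by rw [List.length_drop]; omega, ?_, by omega, by omega⟩
      refine (wshift h (by omega) (by omega)).2 ?_
      rw [hUt _ ht]
      exact hwt
    · right
      refine ⟨X.length - D.c j, hFBj, ?_⟩
      rw [show X.length - D.c j + D.c j - D.p0 = X.length - D.p0 by omega]
      exact hB
  have hR : ∃ b, D.R2rel (U.drop (D.c j)) b := by
    refine ⟨_, j, hjK, hcj', ?_, X.length - D.c j, hFBj, ?_, b', ?_, rfl⟩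
    · intro j' hj' hne hcand
      exact hjS (Finset.mem_filter.2 ⟨Finset.mem_range.2 hjK, j', hj', hne, hcand⟩)
    · rw [List.drop_drop, show D.c j + (X.length - D.c j) = X.length by omega, hU,
        List.drop_left]
      exact hY
    · rw [← List.drop_take, hUt _ (by omega)]
      exact hb'
  obtain ⟨b, hb⟩ := hR
  have hP : D.LP2 (U.take (D.c j)) v := by
    refine ⟨j, hjK, ?_, ?_⟩
    · rw [List.length_take]; omega
    · rw [hUt _ (by omega)]
      rw [List.take_take, Nat.min_eq_left hcj] at hl2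
      exact hl2
  have hPQ : U.take (D.c j) ++ U.drop (D.c j) = U := List.take_append_drop _ _
  have hbe : b = D.T (D.T v X) Y := by
    rcases junction2 h hP hb with ⟨X', hX', Y', hY', he, hT⟩ | ⟨X', hX', hnb, hp⟩
    · rw [hPQ] at he
      have e1 : X' = X := prefix_unique h hX'.1 hX (W := U) ⟨Y', he⟩ ⟨Y, rfl⟩
      subst e1
      have e2 : Y' = Y := List.append_cancel_left he
      subst e2
      exact hT.symm
    · rw [hPQ] at hp
      have e1 : X' = X := prefix_unique h hX' hX hp ⟨Y, rfl⟩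
      exact absurd (e1 ▸ hXB) hnb
  refine ⟨U.take (D.c j), U.drop (D.c j), hPQ, hP, fun x P' hP' => ?_⟩
  rw [← hbe]
  exact junction2 h hP' hb

end Dat

end Crest.Agent.R320.Blocks_830
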