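import Mathlib

/-!
Row 320 (helper830): scheme 1 + scheme 2 on ALL words in the block calculus, with the natural
chain rule (`N(a)` = first wall at distance at least `z`), from
* a left-looking wall rule,
* a scheme 1 gadget on words (`lam rho nu1`, incomplete only for totals in `BadT`),
* an exact gadget on words of length `p0` (`lam2 rho2 nu2`),
* a spoiling bound for the ruler.
Result: (s1), (s2), (cc) in the frozen form of the top theorem.
-/

set_option autoImplicit false

namespace Crest.Agent.R320.Blocks_830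

variable {α S V : Type*}

/-- all data -/
structure Dat (α S V : Type*) where
  φ : List α → S
  act : V → S → V
  add : V → V → V
  Wo : List α → Prop
  n : ℕ
  z : ℕ
  p0 : ℕ
  N1 : ℕ
  K : ℕ
  c : ℕ → ℕ
  BadT : ℕ → Prop
  lam : List α → Option V
  rho : List α → Option V
  nu1 : List α → V
  lam2 : List α → Option V
  rho2 : List α → Option V
  nu2 : List α → V

namespace Dat

variable (D : Dat α S V)

/-- the blocks -/
def XX : Set (List α) :=
  {X | D.z ≤ X.length ∧ D.Wo X ∧ ∀ t, D.z ≤ t → t < X.length → ¬ D.Wo (X.take t)}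

/-- value after the part of length `p0` -/
def mid (v : V) (X : List α) : V := D.add (D.act v (D.φ X)) (D.nu2 X)

/-- value after the rest of the block -/
def fin (v : V) (Y : List α) : V := D.add (D.act v (D.φ Y)) (D.nu1 Y)

/-- transport of a block -/
def T (v : V) (X : List α) : V := D.fin (D.mid v (X.take D.p0)) (X.drop D.p0)

def LP1 (P : List α) (v : V) : Prop :=
  D.p0 ≤ P.length ∧ D.lam (P.drop D.p0) = some (D.mid v (P.take D.p0))

/-- wall condition on the right word of scheme 1 -/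
def W1 (Q : List α) : Prop :=
  D.Wo Q ∧ D.z ≤ Q.length + D.p0 ∧
    ∀ t, D.z ≤ t + D.p0 + D.N1 → t < Q.length → ¬ D.Wo (Q.take t)

open Classical in
noncomputable def R1 (Q : List α) : Option V := if D.W1 Q then D.rho Q else none

/-- the candidate anchor at distance `c` left of `Q` has a wall in the doubt zone -/
def EQ (Q : List α) (c : ℕ) : Prop :=
  ∃ t, t ≤ Q.length ∧ D.Wo (Q.take t) ∧ D.z ≤ t + c + D.N1 ∧ t + c < D.z + D.N1

/-- block end for the candidate anchor -/
def FB (Q : List α) (c t : ℕ) : Prop :=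
  t ≤ Q.length ∧ D.Wo (Q.take t) ∧ D.z ≤ t + c ∧ ∀ t' < t, D.z ≤ t' + c → ¬ D.Wo (Q.take t')

def BQ (Q : List α) (c : ℕ) : Prop := ∃ t, D.FB Q c t ∧ D.BadT (t + c - D.p0)

def Cand (Q : List α) (c : ℕ) : Prop := D.EQ Q c ∨ D.BQ Q c

def LP2 (P : List α) (v : V) : Prop := ∃ j < D.K, P.length = D.c j ∧ D.lam2 P = some v

/-- the right word of scheme 2 -/
def R2rel (Q : List α) (b : V) : Prop :=
  ∃ j < D.K, D.Cand Q (D.c j) ∧ (∀ j' < D.K, j' ≠ j → ¬ D.Cand Q (D.c j')) ∧
    ∃ t, D.FB Q (D.c j) t ∧ Q.drop t ∈ D.XX ∧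
      ∃ b', D.rho2 (Q.take (D.p0 - D.c j)) = some b' ∧
        b = D.T (D.fin b' ((Q.take t).drop (D.p0 - D.c j))) (Q.drop t)

open Classical in
noncomputable def R2 (Q : List α) : Option V :=
  if h : ∃ b, D.R2rel Q b then some h.choose else none

theorem R2_some {Q : List α} {b : V} (h : D.R2 Q = some b) : D.R2rel Q b := by
  classical
  unfold R2 at h
  split_ifs at h with h1
  rw [← Option.some.inj h]
  exact h1.choose_spec

theorem R2_isSome {Q : List α} {b : V} (h : D.R2rel Q b) : (D.R2 Q).isSome := by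
  classical
  unfold R2
  rw [dif_pos ⟨b, h⟩]
  rfl

theorem R1_some {Q : List α} {b : V} (h : D.R1 Q = some b) : D.W1 Q ∧ D.rho Q = some b := by
  classical
  unfold R1 at h
  split_ifs at h with h1
  exact ⟨h1, h⟩

/-- the hypotheses -/
structure Ok : Prop where
  hn : D.p0 + D.N1 + D.n + 1 ≤ D.z
  cle : ∀ j < D.K, D.c j ≤ D.p0
  loc : ∀ U Q : List α, D.n ≤ Q.length → (D.Wo (U ++ Q) ↔ D.Wo Q)
  gap : ∀ (U : List α) (s t : ℕ), s < t → t ≤ U.length → D.Wo (U.take s) → D.Wo (U.take t) →
    s + 2 * (D.p0 + D.N1) < t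
  lam_len : ∀ p v, D.lam p = some v → p.length ≤ D.N1
  snd1 : ∀ p q v r, D.lam p = some v → D.rho q = some r → r = D.fin v (p ++ q)
  cmp1 : ∀ u : List α, D.z ≤ u.length + D.p0 → ¬ D.BadT u.length → ∀ v, ∃ p q, p ++ q = u ∧
    D.lam p = some v ∧ (D.rho q).isSome
  snd2 : ∀ p q v r, p.length + q.length = D.p0 → D.lam2 p = some v → D.rho2 q = some r →
    r = D.mid v (p ++ q)

variable {D}

theorem Ok.take_app (h : D.Ok) {P Q : List α} {t : ℕ} (ht : P.length + D.n ≤ t)
    (ht' : t ≤ P.length + Q.length) :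
    D.Wo ((P ++ Q).take t) ↔ D.Wo (Q.take (t - P.length)) := by
  rw [List.take_append, List.take_of_length_le (by omega : P.length ≤ t)]
  apply h.loc
  rw [List.length_take]
  omega

theorem hnil (h : D.Ok) : ([] : List α) ∉ D.XX := by
  rintro ⟨h1, -, -⟩
  have := h.hn
  simp at h1
  omega

theorem hPC (_h : D.Ok) : ∀ X ∈ D.XX, ∀ Y, X ++ Y ∈ D.XX → Y = [] := by
  rintro X ⟨h1, h2, -⟩ Y ⟨-, -, h5⟩
  by_contra hY
  have hl : 0 < Y.length := List.length_pos_iff.2 hY
  refine h5 X.length h1 (by rw [List.length_append]; omega) ?_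
  simpa using h2

/-- (s1) -/
theorem s1 (h : D.Ok) (P : List α) (v : V) (Q : List α) (b : V) (hP : D.LP1 P v)
    (hQ : D.R1 Q = some b) : P ++ Q ∈ D.XX ∧ D.T v (P ++ Q) = b := by
  obtain ⟨⟨hw1, hw2, hw3⟩, hr⟩ := D.R1_some hQ
  obtain ⟨hp, hl⟩ := hP
  have hlen := h.lam_len _ _ hl
  rw [List.length_drop] at hlen
  have hn := h.hn
  refine ⟨⟨?_, ?_, ?_⟩, ?_⟩
  · rw [List.length_append]; omega
  · rw [h.loc P Q (by omega)]; exact hw1
  · intro t ht1 ht2
    rw [List.length_append] at ht2
    rw [h.take_app (by omega) (by omega)]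
    exact hw3 _ (by omega) (by omega)
  · unfold T
    rw [List.take_append_of_le_length hp, List.drop_append_of_le_length hp]
    exact (h.snd1 _ _ _ _ hl hr).symm

/-- a block which is neither E nor B is cut by scheme 1 -/
theorem cut1 (h : D.Ok) {X : List α} (hX : X ∈ D.XX)
    (hE : ∀ t, t ≤ X.length → D.Wo (X.take t) → ¬ (D.z ≤ t + D.N1 ∧ t < D.z + D.N1))
    (hB : ¬ D.BadT (X.length - D.p0)) (v : V) :
    ∃ P Q, X = P ++ Q ∧ D.p0 ≤ P.length ∧ D.LP1 P v ∧ (D.R1 Q).isSome := by
  obtain ⟨hX1, hX2, hX3⟩ := hX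
  have hn := h.hn
  have hge : D.z + D.N1 ≤ X.length := by
    by_contra hlt
    exact hE X.length le_rfl (by simpa using hX2) ⟨by omega, by omega⟩
  obtain ⟨p, q, hpq, hl, hr⟩ := h.cmp1 (X.drop D.p0) (by rw [List.length_drop]; omega)
    (by rw [List.length_drop]; exact hB) (D.mid v (X.take D.p0))
  have hlen := h.lam_len _ _ hl
  have htl : (X.take D.p0).length = D.p0 := by rw [List.length_take]; omega
  have hXe : X = X.take D.p0 ++ p ++ q := by
    rw [List.append_assoc, hpq, List.take_append_drop]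
  have hlenX : X.length = D.p0 + p.length + q.length := by
    conv_lhs => rw [hXe]
    simp only [List.length_append, htl]
  refine ⟨X.take D.p0 ++ p, q, hXe, by simp only [List.length_append, htl]; omega,
    ⟨by simp only [List.length_append, htl]; omega, ?_⟩, ?_⟩
  · rw [List.take_append_of_le_length (le_of_eq htl.symm),
      List.drop_append_of_le_length (le_of_eq htl.symm), List.take_of_length_le (le_of_eq htl),
      List.drop_eq_nil_of_le (le_of_eq htl), List.nil_append]
    exact hl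
  · have hW : D.W1 q := by
      have key : ∀ t, D.z ≤ t + D.p0 + D.N1 → t ≤ q.length →
          (D.Wo (X.take (D.p0 + p.length + t)) ↔ D.Wo (q.take t)) := by
        intro t h1 h2
        have h3 := h.take_app (P := X.take D.p0 ++ p) (Q := q) (t := D.p0 + p.length + t)
          (by simp only [List.length_append, htl]; omega)
          (by simp only [List.length_append, htl]; omega)
        rw [← hXe] at h3
        rw [h3]
        simp only [List.length_append, htl]
        rw [show D.p0 + p.length + t - (D.p0 + p.length) = t by omega]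
      refine ⟨?_, by omega, ?_⟩
      · have h4 := key q.length (by omega) le_rfl
        rw [← hlenX] at h4
        simp only [List.take_length] at h4
        exact h4.1 hX2
      · intro t h1 h2 h3
        have h4 := (key t h1 (by omega)).2 h3
        rcases lt_or_ge (D.p0 + p.length + t) D.z with h5 | h5
        · exact hE _ (by omega) h4 ⟨by omega, by omega⟩
        · exact hX3 _ h5 (by omega) h4
    unfold R1
    rw [if_pos hW]
    exact hr

theorem FB.unique {Q : List α} {c t t' : ℕ} (h : D.FB Q c t) (h' : D.FB Q c t') : t = t' := by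
  rcases lt_trichotomy t t' with hlt | heq | hgt
  · exact absurd h.2.1 (h'.2.2.2 t hlt h.2.2.1)
  · exact heq
  · exact absurd h'.2.1 (h.2.2.2 t' hgt h'.2.2.1)

/-- (s2) -/
theorem s2 (h : D.Ok) (P : List α) (v : V) (Q : List α) (b : V) (hP : D.LP2 P v)
    (hQ : D.R2 Q = some b)
    (hno : ∀ X ∈ D.XX, X <+: P ++ Q → ∀ P' Q', X = P' ++ Q' → P.length ≤ P'.length →
      D.LP1 P' v → (D.R1 Q').isSome → False) :
    ∃ Q1 X2, Q = Q1 ++ X2 ∧ Q1 ≠ [] ∧ P ++ Q1 ∈ D.XX ∧ X2 ∈ D.XX ∧
      D.T (D.T v (P ++ Q1)) X2 = b := by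
  classical
  obtain ⟨j0, hj0, hPl, hl2⟩ := hP
  obtain ⟨j, hj, hc, huniq, t, hFB, hX2, b', hb', hb⟩ := D.R2_some hQ
  have hn := h.hn
  have hcj := h.cle j hj
  have hcj0 := h.cle j0 hj0
  have hX2' := hX2
  obtain ⟨hz2, hw2, -⟩ := hX2'
  rw [List.length_drop] at hz2
  have htQ := hFB.1
  -- a wall at the end of `Q`
  have hwQ : D.Wo Q := by
    have h1 := h.loc (Q.take t) (Q.drop t) (by rw [List.length_drop]; omega)
    rw [List.take_append_drop] at h1
    exact h1.2 hw2
  have hex : ∃ s, s ≤ Q.length ∧ D.Wo (Q.take s) ∧ D.z ≤ s + D.c j0 :=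
    ⟨Q.length, le_rfl, by simpa using hwQ, by omega⟩
  obtain ⟨t0, ht0, hmin⟩ : ∃ t0, (t0 ≤ Q.length ∧ D.Wo (Q.take t0) ∧ D.z ≤ t0 + D.c j0) ∧
      ∀ s < t0, ¬ (s ≤ Q.length ∧ D.Wo (Q.take s) ∧ D.z ≤ s + D.c j0) :=
    ⟨Nat.find hex, Nat.find_spec hex, fun s hs => Nat.find_min hex hs⟩
  have hFB0 : D.FB Q (D.c j0) t0 :=
    ⟨ht0.1, ht0.2.1, ht0.2.2, fun s hs hz hw => hmin s hs ⟨by omega, hw, hz⟩⟩
  have hXmem : P ++ Q.take t0 ∈ D.XX := by
    have hlt : (Q.take t0).length = t0 := by rw [List.length_take]; omega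
    refine ⟨?_, ?_, ?_⟩
    · rw [List.length_append, hlt, hPl]; omega
    · rw [h.loc _ _ (by rw [hlt]; omega)]; exact ht0.2.1
    · intro s hs1 hs2
      rw [List.length_append, hlt] at hs2
      rw [h.take_app (by omega) (by rw [hlt]; omega), List.take_take,
        Nat.min_eq_left (by omega)]
      exact hFB0.2.2.2 _ (by omega) (by omega)
  have hXlen : (P ++ Q.take t0).length = D.c j0 + t0 := by
    rw [List.length_append, List.length_take, hPl]; omega
  -- the block is bad
  have hcand : D.Cand Q (D.c j0) := by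
    by_contra hnc
    have hE : ¬ D.EQ Q (D.c j0) := fun hE => hnc (Or.inl hE)
    have hB : ¬ D.BQ Q (D.c j0) := fun hB => hnc (Or.inr hB)
    obtain ⟨P', Q', hPQ, hp0, hL, hR⟩ := cut1 h hXmem (by
      intro s hs hw hband
      apply hE
      rw [hXlen] at hs
      rw [h.take_app (by omega) (by rw [List.length_take]; omega), List.take_take,
        Nat.min_eq_left (by omega)] at hw
      exact ⟨s - P.length, by omega, hw, by omega, by omega⟩) (by
      intro hb
      apply hB
      refine ⟨t0, hFB0, ?_⟩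
      rw [hXlen] at hb
      rwa [Nat.add_comm t0]) v
    refine hno _ hXmem ?_ P' Q' hPQ (by omega) hL hR
    exact (List.prefix_append_right_inj P).2 (List.take_prefix t0 Q)
  have hjj : j0 = j := by
    by_contra hne
    exact huniq j0 hj0 hne hcand
  subst hjj
  have htt : t0 = t := hFB0.unique hFB
  subst htt
  refine ⟨Q.take t0, Q.drop t0, (List.take_append_drop _ _).symm, ?_, hXmem, hX2, ?_⟩
  · intro h0
    have h1 : (Q.take t0).length = 0 := by rw [h0]; rfl
    rw [List.length_take] at h1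
    have := hFB0.2.2.1
    omega
  · rw [hb]
    congr 1
    have ht0g : D.p0 - D.c j0 ≤ t0 := by have := hFB0.2.2.1; omega
    have e1 : (P ++ Q.take t0).take D.p0 = P ++ Q.take (D.p0 - D.c j0) := by
      rw [List.take_append, List.take_of_length_le (by omega), List.take_take, hPl,
        Nat.min_eq_left ht0g]
    have e2 : (P ++ Q.take t0).drop D.p0 = (Q.take t0).drop (D.p0 - D.c j0) := by
      rw [List.drop_append, List.drop_eq_nil_of_le (by omega), List.nil_append, hPl]
    have e3 := h.snd2 P (Q.take (D.p0 - D.c j0)) v b' (by rw [List.length_take]; omega) hl2 hb'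
    unfold T
    rw [e1, e2, ← e3]

theorem wshift (h : D.Ok) {U : List α} {c t : ℕ} (hc : c + D.n ≤ t) (ht : t ≤ U.length) :
    D.Wo ((U.drop c).take (t - c)) ↔ D.Wo (U.take t) := by
  have e : U.take t = U.take c ++ (U.drop c).take (t - c) := by
    rw [← List.take_add, show c + (t - c) = t by omega]
  rw [e]
  exact (h.loc _ _ (by rw [List.length_take, List.length_drop]; omega)).symm

open Classical in
/-- the spoiling bound -/
theorem spoiled (h : D.Ok) (h3 : 3 * D.p0 ≤ D.z) (C0 : ℕ)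
    (res : ∀ a b c d, a < D.K → b < D.K → c < D.K → d < D.K → a ≠ b → c ≠ d →
      |((D.c a : ℤ) - D.c b) - ((D.c c : ℤ) - D.c d)| ≤ 2 * D.N1 → a = c ∧ b = d)
    (spoil : ∀ T, D.z ≤ T + 2 * D.p0 → ((Finset.range D.K ×ˢ Finset.range D.K).filter
      (fun ab => ab.1 ≠ ab.2 ∧ D.BadT (T + D.c ab.1 - D.c ab.2))).card ≤ C0)
    (U : List α) :
    ((Finset.range D.K).filter (fun j => ∃ j' < D.K, j' ≠ j ∧
      D.Cand (U.drop (D.c j)) (D.c j'))).card ≤ 1 + 2 * C0 := by
  have hn := h.hn
  let SE := (Finset.range D.K).filter (fun j => ∃ j' < D.K, j' ≠ j ∧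
    D.EQ (U.drop (D.c j)) (D.c j'))
  let SN := (Finset.range D.K).filter (fun j => ∃ j' < D.K, j' ≠ j ∧ ∃ t,
    D.FB (U.drop (D.c j)) (D.c j') t ∧ D.BadT (t + D.c j' - D.p0) ∧ D.c j + t ≤ D.z + D.p0)
  let SF := (Finset.range D.K).filter (fun j => ∃ j' < D.K, j' ≠ j ∧ ∃ t,
    D.FB (U.drop (D.c j)) (D.c j') t ∧ D.BadT (t + D.c j' - D.p0) ∧ D.z + D.p0 < D.c j + t)
  have hsub : ((Finset.range D.K).filter (fun j => ∃ j' < D.K, j' ≠ j ∧
      D.Cand (U.drop (D.c j)) (D.c j'))) ⊆ SE ∪ (SN ∪ SF) := by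
    intro j hj
    rw [Finset.mem_filter] at hj
    obtain ⟨hj1, j', hj', hne, hc⟩ := hj
    rcases hc with hE | ⟨t, hF, hB⟩
    · exact Finset.mem_union_left _ (Finset.mem_filter.2 ⟨hj1, j', hj', hne, hE⟩)
    · apply Finset.mem_union_right
      rcases le_or_gt (D.c j + t) (D.z + D.p0) with h1 | h1
      · exact Finset.mem_union_left _ (Finset.mem_filter.2 ⟨hj1, j', hj', hne, t, hF, hB, h1⟩)
      · exact Finset.mem_union_right _ (Finset.mem_filter.2 ⟨hj1, j', hj', hne, t, hF, hB, h1⟩)
  -- walls of `U`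
  have wall : ∀ j < D.K, ∀ j' < D.K, ∀ t, t ≤ (U.drop (D.c j)).length →
      D.Wo ((U.drop (D.c j)).take t) → D.z ≤ t + D.c j' + D.N1 →
      D.c j + t ≤ U.length ∧ D.Wo (U.take (D.c j + t)) := by
    intro j hj j' hj' t ht hw hz
    have h1 := h.cle j hj
    have h2 := h.cle j' hj'
    rw [List.length_drop] at ht
    have h4 := wshift h (U := U) (c := D.c j) (t := D.c j + t) (by omega) (by omega)
    rw [show D.c j + t - D.c j = t by omega] at h4
    exact ⟨by omega, h4.1 hw⟩
  have cE : SE.card ≤ 1 := by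
    rw [Finset.card_le_one]
    intro j hj l hl
    rw [Finset.mem_filter, Finset.mem_range] at hj hl
    obtain ⟨hj1, j', hj', hne, t, ht, hw, hz1, hz2⟩ := hj
    obtain ⟨hl1, l', hl', hne', t', ht', hw', hz1', hz2'⟩ := hl
    obtain ⟨g1, g2⟩ := wall j hj1 j' hj' t ht hw hz1
    obtain ⟨g1', g2'⟩ := wall l hl1 l' hl' t' ht' hw' hz1'
    have b1 := h.cle j hj1
    have b2 := h.cle j' hj'
    have b3 := h.cle l hl1
    have b4 := h.cle l' hl'
    have hss : D.c j + t = D.c l + t' := by
      rcases lt_trichotomy (D.c j + t) (D.c l + t') with hlt | heq | hgt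
      · have := h.gap U _ _ hlt g1' g2 g2'
        omega
      · exact heq
      · have := h.gap U _ _ hgt g1 g2' g2
        omega
    have := res j' j l' l hj' hj1 hl' hl1 hne hne' (by rw [abs_le]; constructor <;> omega)
    exact this.2
  have img : ∀ (s : ℕ) (A : Finset ℕ), D.z ≤ s + D.p0 → (∀ j ∈ A, j < D.K ∧ ∃ j' < D.K, j' ≠ j ∧
      ∃ t, D.z ≤ t + D.c j' ∧ D.BadT (t + D.c j' - D.p0) ∧ D.c j + t = s) → A.card ≤ C0 := by
    intro s A hs hA
    refine le_trans ?_ (spoil (s - D.p0) (by omega))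
    refine le_trans (Finset.card_le_card (t := ((Finset.range D.K ×ˢ Finset.range D.K).filter
      (fun ab => ab.1 ≠ ab.2 ∧ D.BadT (s - D.p0 + D.c ab.1 - D.c ab.2))).image Prod.snd) ?_)
      Finset.card_image_le
    intro j hj
    obtain ⟨hj1, j', hj', hne, t, hz, hB, hst⟩ := hA j hj
    have b1 := h.cle j hj1
    have b2 := h.cle j' hj'
    rw [Finset.mem_image]
    refine ⟨(j', j), ?_, rfl⟩
    rw [Finset.mem_filter, Finset.mem_product, Finset.mem_range, Finset.mem_range]
    refine ⟨⟨hj', hj1⟩, hne, ?_⟩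
    have e : s - D.p0 + D.c j' - D.c j = t + D.c j' - D.p0 := by omega
    simp only [e]
    exact hB
  have cN : SN.card ≤ C0 := by
    rcases SN.eq_empty_or_nonempty with he | ⟨l, hl⟩
    · rw [he]; simp
    · have hl0 := hl
      rw [Finset.mem_filter, Finset.mem_range] at hl0
      obtain ⟨hl1, l', hl', hne', t', hF', hB', hz'⟩ := hl0
      obtain ⟨g1', g2'⟩ := wall l hl1 l' hl' t' hF'.1 hF'.2.1 (by have := hF'.2.2.1; omega)
      have b3 := h.cle l hl1
      have b4 := h.cle l' hl'
      have f1' := hF'.2.2.1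
      refine img (D.c l + t') SN (by omega) ?_
      intro j hj
      rw [Finset.mem_filter, Finset.mem_range] at hj
      obtain ⟨hj1, j', hj', hne, t, hF, hB, hz⟩ := hj
      obtain ⟨g1, g2⟩ := wall j hj1 j' hj' t hF.1 hF.2.1 (by have := hF.2.2.1; omega)
      have b1 := h.cle j hj1
      have b2 := h.cle j' hj'
      have f1 := hF.2.2.1
      refine ⟨hj1, j', hj', hne, t, f1, hB, ?_⟩
      rcases lt_trichotomy (D.c j + t) (D.c l + t') with hlt | heq | hgt
      · have := h.gap U _ _ hlt g1' g2 g2'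
        omega
      · exact heq
      · have := h.gap U _ _ hgt g1 g2' g2
        omega
  have cF : SF.card ≤ C0 := by
    rcases SF.eq_empty_or_nonempty with he | ⟨l, hl⟩
    · rw [he]; simp
    · have hl0 := hl
      rw [Finset.mem_filter, Finset.mem_range] at hl0
      obtain ⟨hl1, l', hl', hne', t', hF', hB', hz'⟩ := hl0
      obtain ⟨g1', g2'⟩ := wall l hl1 l' hl' t' hF'.1 hF'.2.1 (by have := hF'.2.2.1; omega)
      have b3 := h.cle l hl1
      have b4 := h.cle l' hl'
      have f1' := hF'.2.2.1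
      refine img (D.c l + t') SF (by omega) ?_
      intro j hj
      rw [Finset.mem_filter, Finset.mem_range] at hj
      obtain ⟨hj1, j', hj', hne, t, hF, hB, hz⟩ := hj
      obtain ⟨g1, g2⟩ := wall j hj1 j' hj' t hF.1 hF.2.1 (by have := hF.2.2.1; omega)
      have b1 := h.cle j hj1
      have b2 := h.cle j' hj'
      have f1 := hF.2.2.1
      refine ⟨hj1, j', hj', hne, t, f1, hB, ?_⟩
      rcases lt_trichotomy (D.c j + t) (D.c l + t') with hlt | heq | hgt
      · exfalso
        refine hF'.2.2.2 (D.c j + t - D.c l) (by omega) (by omega) ?_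
        exact (wshift h (by omega) g1).2 g2
      · exact heq
      · exfalso
        refine hF.2.2.2 (D.c l + t' - D.c j) (by omega) (by omega) ?_
        exact (wshift h (by omega) g1').2 g2'
  refine (Finset.card_le_card hsub).trans ?_
  refine (Finset.card_union_le _ _).trans ?_
  have := Finset.card_union_le SN SF
  omega

/-- (cc) -/
theorem cc (h : D.Ok) (h3 : 3 * D.p0 ≤ D.z) (C0 : ℕ)
    (res : ∀ a b c d, a < D.K → b < D.K → c < D.K → d < D.K → a ≠ b → c ≠ d →
      |((D.c a : ℤ) - D.c b) - ((D.c c : ℤ) - D.c d)| ≤ 2 * D.N1 → a = c ∧ b = d)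
    (spoil : ∀ T, D.z ≤ T + 2 * D.p0 → ∀ [DecidablePred fun ab : ℕ × ℕ => ab.1 ≠ ab.2 ∧
      D.BadT (T + D.c ab.1 - D.c ab.2)], ((Finset.range D.K ×ˢ Finset.range D.K).filter
      (fun ab => ab.1 ≠ ab.2 ∧ D.BadT (T + D.c ab.1 - D.c ab.2))).card ≤ C0)
    (cmp2 : ∀ (u : List α) v, u.length = D.p0 → ∃ J : Finset ℕ, 1 + 2 * C0 < J.card ∧
      ∀ j ∈ J, j < D.K ∧ D.lam2 (u.take (D.c j)) = some v ∧
        (D.rho2 (u.drop (D.c j))).isSome) :
    ∀ X ∈ D.XX, ∀ X2 ∈ D.XX, ∀ v, (∃ P Q, X = P ++ Q ∧ D.LP1 P v ∧ (D.R1 Q).isSome) ∨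
      (∃ P Q, X ++ X2 = P ++ Q ∧ P.length < X.length ∧ D.LP2 P v ∧ (D.R2 Q).isSome) := by
  classical
  intro X hX X2 hX2 v
  have hn := h.hn
  obtain ⟨hz, hw, hno⟩ := id hX
  obtain ⟨hz2, hw2, hno2⟩ := id hX2
  set U := X ++ X2 with hU
  have hUl : U.length = X.length + X2.length := by rw [hU, List.length_append]
  have hUt : ∀ s, s ≤ X.length → U.take s = X.take s := fun s hs => by
    rw [hU, List.take_append_of_le_length hs]
  have hFB0 : D.FB U 0 X.length := by
    refine ⟨by omega, ?_, by omega, ?_⟩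
    · rw [hUt _ le_rfl, List.take_length]; exact hw
    · intro t' ht' hzt
      rw [hUt _ (by omega)]
      exact hno t' (by omega) ht'
  by_cases hc : D.Cand U 0
  · right
    obtain ⟨J, hJ, hJ2⟩ := cmp2 (X.take D.p0) v (by rw [List.length_take]; omega)
    have hSp := spoiled h h3 C0 res (fun T hT => spoil T hT) U
    obtain ⟨j, hjJ, hjS⟩ : ∃ j ∈ J, j ∉ ((Finset.range D.K).filter (fun j => ∃ j' < D.K, j' ≠ j ∧
        D.Cand (U.drop (D.c j)) (D.c j'))) := by
      by_contra hcon
      push Not at hcon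
      have := Finset.card_le_card (fun j hj => hcon j hj : J ⊆ _)
      omega
    obtain ⟨hjK, hl2, hr2⟩ := hJ2 j hjJ
    have hcj := h.cle j hjK
    obtain ⟨b', hb'⟩ := Option.isSome_iff_exists.1 hr2
    have hFBj : D.FB (U.drop (D.c j)) (D.c j) (X.length - D.c j) := by
      refine ⟨by rw [List.length_drop]; omega, ?_, by omega, ?_⟩
      · rw [wshift h (by omega) (by omega), hUt _ le_rfl, List.take_length]
        exact hw
      · intro t' ht' hzt hwt
        have h5 := wshift h (U := U) (c := D.c j) (t := D.c j + t') (by omega) (by omega)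
        rw [show D.c j + t' - D.c j = t' by omega] at h5
        have h6 := h5.1 hwt
        rw [hUt _ (by omega)] at h6
        exact hno _ (by omega) (by omega) h6
    have hcj' : D.Cand (U.drop (D.c j)) (D.c j) := by
      rcases hc with ⟨t, ht, hwt, ht1, ht2⟩ | ⟨t, hF, hB⟩
      · left
        refine ⟨t - D.c j, by rw [List.length_drop]; omega, ?_, by omega, by omega⟩
        exact (wshift h (by omega) ht).2 hwt
      · right
        refine ⟨X.length - D.c j, hFBj, ?_⟩
        have e := hF.unique hFB0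
        rw [e] at hB
        rw [show X.length - D.c j + D.c j - D.p0 = X.length + 0 - D.p0 by omega]
        exact hB
    refine ⟨U.take (D.c j), U.drop (D.c j), (List.take_append_drop _ _).symm, ?_,
      ⟨j, hjK, ?_, ?_⟩, ?_⟩
    · rw [List.length_take]; omega
    · rw [List.length_take]; omega
    · rw [hUt _ (by omega)]
      rw [List.take_take, Nat.min_eq_left hcj] at hl2
      exact hl2
    · apply D.R2_isSome
      refine ⟨j, hjK, hcj', ?_, X.length - D.c j, hFBj, ?_, b', ?_, rfl⟩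
      · intro j' hj' hne hcand
        exact hjS (Finset.mem_filter.2 ⟨Finset.mem_range.2 hjK, j', hj', hne, hcand⟩)
      · rw [List.drop_drop, show D.c j + (X.length - D.c j) = X.length by omega, hU,
          List.drop_left]
        exact hX2
      · rw [← List.drop_take, hUt _ (by omega)]
        exact hb'
  · left
    obtain ⟨P, Q, h1, -, h2, h4⟩ := cut1 h hX (by
      intro t ht hwt hband
      apply hc
      left
      exact ⟨t, by omega, by rw [hUt _ ht]; exact hwt, by omega, by omega⟩) (by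
      intro hB
      apply hc
      right
      exact ⟨X.length, hFB0, by simpa using hB⟩) v
    exact ⟨P, Q, h1, h2, h4⟩

end Dat

end Crest.Agent.R320.Blocks_830
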