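import Mathlib

/-!
Row 320: thinness of the bad set of the grid gadget (693 #13203).
`BadZ` = some prime of `Ms` divides `t`, or `t` is close to `A k` modulo `G k`.
The ruler `x a = X * 2 ^ a` meets it in at most `Ms.card + m` pairs, for every shift `T`.
-/

set_option autoImplicit false
set_option linter.all false

namespace Crest.Agent.R320.RulerG_432

open Finset

/-- the bad set of the grid gadget -/
def BadZ (Ms : Finset ℕ) (G : ℕ → ℕ) (A : ℕ → ℤ) (M m : ℕ) (t : ℤ) : Prop :=
  (∃ p ∈ Ms, (p : ℤ) ∣ t) ∨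
    ∃ k, 1 ≤ k ∧ k ≤ m ∧ ∃ j : ℤ, |t - A k - j * (G k : ℤ)| ≤ (M : ℤ) * (G (k - 1) : ℤ)

/-- differences of powers of two are distinct -/
theorem pow_diff {a b c d : ℕ} (hab : a ≠ b) (h : (2 : ℤ) ^ a - 2 ^ b = 2 ^ c - 2 ^ d) :
    a = c ∧ b = d := by
  have h' : (2 : ℤ) ^ a + 2 ^ d = 2 ^ c + 2 ^ b := by linarith
  have h2 : (2 : ℕ) ^ a + 2 ^ d = 2 ^ c + 2 ^ b := by exact_mod_cast h'
  -- compare via the set of binary digits
  have key : ∀ u v : ℕ, u < v → (2 : ℕ) ^ u + 2 ^ v = 2 ^ v + 2 ^ u := fun u v _ => by ring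
  have inj : ∀ u v : ℕ, (2 : ℕ) ^ u = 2 ^ v → u = v := fun u v h =>
    Nat.pow_right_injective (le_refl 2) h
  have lt : ∀ u v : ℕ, u < v → (2 : ℕ) ^ u * 2 ≤ 2 ^ v := fun u v h => by
    rw [← pow_succ]; exact Nat.pow_le_pow_right (by norm_num) h
  have pos : ∀ u : ℕ, 0 < (2 : ℕ) ^ u := fun u => Nat.two_pow_pos u
  -- wlog by cases on order
  rcases lt_trichotomy a c with hac | hac | hac
  · -- a < c
    rcases lt_trichotomy d b with hdb | hdb | hdb
    · have := lt a c hac; have := lt d b hdb; have := pos a; have := pos d; omega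
    · subst hdb
      have := inj a c (by omega); omega
    · -- b < d, a < c : 2^a + 2^d = 2^c + 2^b
      rcases lt_trichotomy c d with hcd | hcd | hcd
      · have h1 := lt c d hcd
        have h3 := lt b d hdb
        have h4 := lt a c hac
        rcases lt_trichotomy b c with hbc | hbc | hbc
        · have := lt b c hbc; have := pos a; have := pos b; omega
        · subst hbc
          have := pos a; omega
        · have := lt c b hbc
          have := pos a; omega
      · subst hcd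
        have := inj a b (by omega)
        exact absurd this hab
      · have h1 := lt d c hcd
        have h3 := lt a c hac
        have := pos b
        have := pos a
        rcases lt_trichotomy a d with had | had | had
        · have := lt a d had; omega
        · subst had; omega
        · have := lt d a had; omega
  · subst hac
    refine ⟨rfl, ?_⟩
    have := inj b d (by omega)
    exact this
  · -- c < a
    rcases lt_trichotomy d b with hdb | hdb | hdb
    · -- d < b
      rcases lt_trichotomy a b with hab' | hab' | hab'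
      · have h1 := lt a b hab'
        have h3 := lt d b hdb
        have h4 := pos c
        have h5 := lt c a hac
        rcases lt_trichotomy d a with hda | hda | hda
        · have := lt d a hda; omega
        · subst hda; omega
        · have := lt a d hda; omega
      · exact absurd hab' hab
      · have h1 := lt b a hab'
        have h3 := lt c a hac
        have := pos d
        rcases lt_trichotomy c b with hcb | hcb | hcb
        · have := lt c b hcb; omega
        · subst hcb; omega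
        · have := lt b c hcb; omega
    · subst hdb
      have := inj a c (by omega); omega
    · have := lt c a hac; have := lt b d hdb; have := pos c; have := pos b; omega

/-- the multiplier, cut at level `k` -/
def Xk (M : ℕ) (G : ℕ → ℕ) : ℕ → ℕ
  | 0 => 1
  | k + 1 => Xk M G k + 4 * M * G k

theorem Xk_le {M : ℕ} {G : ℕ → ℕ} {m K : ℕ} (hM : 0 < M) (hG0 : 0 < G 0)
    (hG : ∀ k < m, G k ∣ G (k + 1) ∧ 2 ^ (K + 6) * M * G k ≤ G (k + 1)) :
    ∀ k ≤ m, Xk M G k ≤ M * G k := by
  intro k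
  induction k with
  | zero => intro _; show 1 ≤ M * G 0; exact Nat.mul_pos hM hG0
  | succ k ih =>
    intro hk
    have h1 := ih (by omega)
    obtain ⟨-, h2⟩ := hG k (by omega)
    have h3 : 64 ≤ 2 ^ (K + 6) := by
      calc 64 = 2 ^ 6 := by norm_num
        _ ≤ 2 ^ (K + 6) := Nat.pow_le_pow_right (by norm_num) (by omega)
    have h4 : 64 * (M * G k) ≤ G (k + 1) := by
      calc 64 * (M * G k) ≤ 2 ^ (K + 6) * (M * G k) := Nat.mul_le_mul_right _ h3
        _ = 2 ^ (K + 6) * M * G k := by ring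
        _ ≤ _ := h2
    show Xk M G k + 4 * M * G k ≤ M * G (k + 1)
    have h5 : G (k + 1) ≤ M * G (k + 1) := Nat.le_mul_of_pos_left _ hM
    have h6 : 4 * M * G k = 4 * (M * G k) := by ring
    omega

theorem Xk_gt (M : ℕ) (G : ℕ → ℕ) (k : ℕ) : 4 * M * G k < Xk M G (k + 1) := by
  have : 0 < Xk M G k := by
    induction k with
    | zero => exact Nat.one_pos
    | succ k ih => show 0 < Xk M G k + 4 * M * G k; omega
  show 4 * M * G k < Xk M G k + 4 * M * G k
  omega

theorem Xk_mod {M : ℕ} {G : ℕ → ℕ} {m : ℕ} (hG : ∀ k < m, G k ∣ G (k + 1)) :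
    ∀ d k, k + d ≤ m → ∃ q, Xk M G (k + d) = Xk M G k + G k * q := by
  intro d
  induction d with
  | zero => intro k _; exact ⟨0, by simp⟩
  | succ d ih =>
    intro k hk
    obtain ⟨q, hq⟩ := ih k (by omega)
    have hdiv : ∀ e, k + e ≤ m → G k ∣ G (k + e) := by
      intro e
      induction e with
      | zero => intro _; simp
      | succ e ihe =>
        intro he
        exact (ihe (by omega)).trans (hG (k + e) (by omega))
    obtain ⟨c, hc⟩ := hdiv d (by omega)
    refine ⟨q + 4 * M * c, ?_⟩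
    show Xk M G (k + d) + 4 * M * G (k + d) = _
    rw [hq, hc]; ring

theorem Xk_p {M : ℕ} {G : ℕ → ℕ} {p : ℕ} (hp : p ∣ M) : ∀ k, ∃ q, Xk M G k = 1 + p * q := by
  intro k
  obtain ⟨c, hc⟩ := hp
  induction k with
  | zero => exact ⟨0, by simp [Xk]⟩
  | succ k ih =>
    obtain ⟨q, hq⟩ := ih
    refine ⟨q + 4 * c * G k, ?_⟩
    show Xk M G k + 4 * M * G k = _
    rw [hq, hc]; ring

set_option maxHeartbeats 1600000 in
/-- **The ruler.** -/
theorem ruler (K m M N1 : ℕ) (Ms : Finset ℕ) (G : ℕ → ℕ) (A : ℕ → ℤ) (hM : 0 < M)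
    (hMs : ∀ p ∈ Ms, p ∣ M ∧ 2 ^ (K + 2) < p) (hG0 : 0 < G 0)
    (hG : ∀ k < m, G k ∣ G (k + 1) ∧ 2 ^ (K + 6) * M * G k ≤ G (k + 1)) :
    ∃ X : ℕ, N1 < X ∧ ∀ (T : ℤ) (S : Finset (ℕ × ℕ)),
      (∀ ab ∈ S, ab.1 < K ∧ ab.2 < K ∧ ab.1 ≠ ab.2 ∧
        BadZ Ms G A M m (T + (X : ℤ) * 2 ^ ab.1 - (X : ℤ) * 2 ^ ab.2)) →
      S.card ≤ Ms.card + m := by
  classical
  have hGpos : ∀ k ≤ m, 0 < G k := by
    intro k
    induction k with
    | zero => intro _; exact hG0
    | succ k ih =>
      intro hk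
      have h1 := ih (by omega)
      obtain ⟨-, h2⟩ := hG k (by omega)
      have : 0 < 2 ^ (K + 6) * M * G k := by positivity
      omega
  refine ⟨Xk M G m + (N1 + 1) * M * G m, ?_, ?_⟩
  · have h1 : 0 < M * G m := Nat.mul_pos hM (hGpos m le_rfl)
    have h2 : (N1 + 1) * 1 ≤ (N1 + 1) * (M * G m) := Nat.mul_le_mul_left _ h1
    have h3 : (N1 + 1) * M * G m = (N1 + 1) * (M * G m) := by ring
    omega
  intro T S hS
  set X : ℕ := Xk M G m + (N1 + 1) * M * G m with hX
  -- size of differences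
  have hpw : ∀ a < K, (1 : ℤ) ≤ 2 ^ a ∧ (2 : ℤ) ^ a ≤ 2 ^ K := by
    intro a ha
    exact ⟨one_le_pow₀ (by norm_num), pow_le_pow_right₀ (by norm_num) ha.le⟩
  -- two bad pairs with the same event are equal
  let Ev : ℕ ⊕ ℕ → ℤ → Prop := fun e t => match e with
    | Sum.inl p => (p : ℤ) ∣ t
    | Sum.inr k => ∃ j : ℤ, |t - A k - j * (G k : ℤ)| ≤ (M : ℤ) * (G (k - 1) : ℤ)
  have hex : ∀ ab ∈ S, ∃ e ∈ Ms.disjSum (Finset.Icc 1 m),
      Ev e (T + (X : ℤ) * 2 ^ ab.1 - (X : ℤ) * 2 ^ ab.2) := by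
    intro ab hab
    obtain ⟨-, -, -, hb⟩ := hS ab hab
    rcases hb with ⟨p, hp, hd⟩ | ⟨k, h1, h2, h3⟩
    · exact ⟨Sum.inl p, Finset.inl_mem_disjSum.2 hp, hd⟩
    · exact ⟨Sum.inr k, Finset.inr_mem_disjSum.2 (Finset.mem_Icc.2 ⟨h1, h2⟩), h3⟩
  choose! f hf using hex
  have hcard : (Ms.disjSum (Finset.Icc 1 m)).card = Ms.card + m := by
    rw [Finset.card_disjSum, Nat.card_Icc]; simp
  rw [← hcard]
  refine Finset.card_le_card_of_injOn f (fun ab hab => (hf ab hab).1) ?_
  intro ab hab cd hcd hfe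
  have hab' := hS ab hab
  have hcd' := hS cd hcd
  have e1 := (hf ab hab).2
  have e2 := (hf cd hcd).2
  have hm1 := (hf ab hab).1
  rw [← hfe] at e2
  -- D = difference of differences
  obtain ⟨a, b⟩ := ab
  obtain ⟨c, d⟩ := cd
  simp only at hab' hcd' e1 e2 hm1
  obtain ⟨ha, hb, hne, -⟩ := hab'
  obtain ⟨hc, hd, hne', -⟩ := hcd'
  have pa := hpw a ha
  have pb := hpw b hb
  have pc := hpw c hc
  have pd := hpw d hd
  have hD : ((2 : ℤ) ^ a - 2 ^ b) - (2 ^ c - 2 ^ d) = 0 := by
    set D : ℤ := ((2 : ℤ) ^ a - 2 ^ b) - (2 ^ c - 2 ^ d) with hDdef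
    have hDb : |D| ≤ 2 * 2 ^ K := by
      rw [abs_le]; constructor <;> linarith [pa.1, pa.2, pb.1, pb.2, pc.1, pc.2, pd.1, pd.2]
    cases hfa : f (a, b) with
    | inl p =>
      rw [hfa] at e1 e2 hm1
      have hp : p ∈ Ms := Finset.inl_mem_disjSum.1 hm1
      obtain ⟨hpM, hpK⟩ := hMs p hp
      have d1 : (p : ℤ) ∣ T + (X : ℤ) * 2 ^ a - (X : ℤ) * 2 ^ b := e1
      have d2 : (p : ℤ) ∣ T + (X : ℤ) * 2 ^ c - (X : ℤ) * 2 ^ d := e2
      have d3 : (p : ℤ) ∣ (X : ℤ) * D := by
        have := dvd_sub d1 d2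
        have e : (T + (X : ℤ) * 2 ^ a - (X : ℤ) * 2 ^ b) - (T + (X : ℤ) * 2 ^ c - (X : ℤ) * 2 ^ d)
            = (X : ℤ) * D := by rw [hDdef]; ring
        rwa [e] at this
      obtain ⟨q, hq⟩ := Xk_p (G := G) hpM m
      obtain ⟨c', hc'⟩ := hpM
      have hXp : (X : ℤ) = 1 + (p : ℤ) * (q + (N1 + 1) * c' * G m) := by
        rw [hX]; push_cast
        have h1 : ((Xk M G m : ℕ) : ℤ) = 1 + (p : ℤ) * q := by rw [hq]; push_cast; ring
        have h2 : (M : ℤ) = (p : ℤ) * c' := by rw [hc']; push_cast; ring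
        rw [h1, h2]; ring
      have d4 : (p : ℤ) ∣ D := by
        have e : D = (X : ℤ) * D - (p : ℤ) * ((q + (N1 + 1) * c' * G m) * D) := by
          rw [hXp]; ring
        rw [e]
        exact dvd_sub d3 (Dvd.intro _ rfl)
      refine Int.eq_zero_of_abs_lt_dvd d4 ?_
      have : ((2 : ℤ) ^ (K + 2)) < p := by exact_mod_cast hpK
      have h4 : (2 : ℤ) ^ (K + 2) = 4 * 2 ^ K := by rw [pow_add]; ring
      have h5 : (0 : ℤ) < 2 ^ K := by positivity
      linarith
    | inr k =>
      rw [hfa] at e1 e2 hm1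
      have hk := Finset.mem_Icc.1 (Finset.inr_mem_disjSum.1 hm1)
      obtain ⟨k', rfl⟩ : ∃ k', k = k' + 1 := ⟨k - 1, by omega⟩
      obtain ⟨j1, h1⟩ : ∃ j : ℤ, |T + (X : ℤ) * 2 ^ a - (X : ℤ) * 2 ^ b - A (k' + 1)
        - j * (G (k' + 1) : ℤ)| ≤ (M : ℤ) * (G k' : ℤ) := e1
      obtain ⟨j2, h2⟩ : ∃ j : ℤ, |T + (X : ℤ) * 2 ^ c - (X : ℤ) * 2 ^ d - A (k' + 1)
        - j * (G (k' + 1) : ℤ)| ≤ (M : ℤ) * (G k' : ℤ) := e2
      obtain ⟨q, hq⟩ := Xk_mod (M := M) (G := G) (m := m) (fun k hk => (hG k hk).1)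
        (m - (k' + 1)) (k' + 1) (by omega)
      rw [show k' + 1 + (m - (k' + 1)) = m by omega] at hq
      have hdivm : ∀ e, k' + 1 + e ≤ m → G (k' + 1) ∣ G (k' + 1 + e) := by
        intro e
        induction e with
        | zero => intro _; simp
        | succ e ihe =>
          intro he
          exact (ihe (by omega)).trans (hG (k' + 1 + e) (by omega)).1
      obtain ⟨gm, hgm⟩ := hdivm (m - (k' + 1)) (by omega)
      rw [show k' + 1 + (m - (k' + 1)) = m by omega] at hgm
      -- X = Xk (k'+1) + G (k'+1) * r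
      have hXk : (X : ℤ) = (Xk M G (k' + 1) : ℤ) + (G (k' + 1) : ℤ) * (q + (N1 + 1) * M * gm) := by
        rw [hX]; push_cast
        have h1 : ((Xk M G m : ℕ) : ℤ) = (Xk M G (k' + 1) : ℤ) + (G (k' + 1) : ℤ) * q := by
          rw [hq]; push_cast; ring
        have h2 : (G m : ℤ) = (G (k' + 1) : ℤ) * gm := by rw [hgm]; push_cast; ring
        rw [h1, h2]; ring
      set x : ℤ := (Xk M G (k' + 1) : ℤ) with hx
      set g : ℤ := (G (k' + 1) : ℤ) with hg
      set R : ℤ := (M : ℤ) * (G k' : ℤ) with hR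
      have hRpos : 0 < R := by
        have := hGpos k' (by omega)
        rw [hR]; positivity
      have hxlow : 4 * R < x := by
        have := Xk_gt M G k'
        rw [hx, hR]; push_cast [← mul_assoc]
        exact_mod_cast this
      have hxup : x ≤ 5 * R := by
        have h1 := Xk_le hM hG0 hG k' (by omega)
        have h2 : Xk M G (k' + 1) = Xk M G k' + 4 * M * G k' := rfl
        have h3 : Xk M G (k' + 1) ≤ 5 * (M * G k') := by
          rw [h2]; have : 4 * M * G k' = 4 * (M * G k') := by ring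
          omega
        rw [hx, hR]; exact_mod_cast h3
      have hgl : 64 * 2 ^ K * R ≤ g := by
        have h1 := (hG k' (by omega)).2
        have h2 : 2 ^ (K + 6) * M * G k' = 64 * 2 ^ K * (M * G k') := by rw [pow_add]; ring
        rw [h2] at h1
        rw [hg, hR]; exact_mod_cast h1
      -- the difference
      have hdiff : |x * D - (j1 - j2 - (q + (N1 + 1) * M * gm) * D) * g| ≤ 2 * R := by
        have e : x * D - (j1 - j2 - (q + (N1 + 1) * M * gm) * D) * g =
            (T + (X : ℤ) * 2 ^ a - (X : ℤ) * 2 ^ b - A (k' + 1) - j1 * g) -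
            (T + (X : ℤ) * 2 ^ c - (X : ℤ) * 2 ^ d - A (k' + 1) - j2 * g) := by
          rw [hXk, hDdef]; ring
        rw [e]
        calc _ ≤ _ := abs_sub _ _
          _ ≤ 2 * R := by linarith
      set J : ℤ := j1 - j2 - (q + (N1 + 1) * M * gm) * D with hJ
      have hxpos : 0 < x := by linarith
      have h2K : (1 : ℤ) ≤ 2 ^ K := one_le_pow₀ (by norm_num)
      have hxD : |x * D| ≤ 10 * 2 ^ K * R := by
        rw [abs_mul, abs_of_pos hxpos]
        calc x * |D| ≤ (5 * R) * (2 * 2 ^ K) :=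
              mul_le_mul hxup hDb (abs_nonneg _) (by linarith)
          _ = 10 * 2 ^ K * R := by ring
      have hJ0 : J = 0 := by
        by_contra hne0
        have h1 : 1 ≤ |J| := Int.one_le_abs hne0
        have hgpos : 0 < g := by
          have : 0 < 64 * 2 ^ K * R := by positivity
          linarith
        have h3 : g ≤ |J * g| := by
          rw [abs_mul, abs_of_pos hgpos]
          exact le_mul_of_one_le_left hgpos.le h1
        have h4 : |J * g| ≤ |x * D| + |x * D - J * g| := by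
          have : J * g = x * D - (x * D - J * g) := by ring
          calc |J * g| = |x * D - (x * D - J * g)| := by rw [← this]
            _ ≤ _ := abs_sub _ _
        have h7 : R ≤ 2 ^ K * R := le_mul_of_one_le_left hRpos.le h2K
        have h8 : 10 * 2 ^ K * R = 10 * (2 ^ K * R) := by ring
        have h9 : 64 * 2 ^ K * R = 64 * (2 ^ K * R) := by ring
        have h10 : 0 < 2 ^ K * R := by positivity
        rw [h8] at hxD
        rw [h9] at hgl
        linarith
      rw [hJ0, zero_mul, sub_zero, abs_mul, abs_of_pos hxpos] at hdiff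
      by_contra hD0
      have h1 : 1 ≤ |D| := Int.one_le_abs hD0
      have h2 : x ≤ x * |D| := le_mul_of_one_le_right hxpos.le h1
      linarith
  have := pow_diff (a := a) (b := b) (c := c) (d := d) hne (by linarith)
  exact Prod.ext this.1 this.2

/-- different differences of the ruler are far apart -/
theorem spaced {X a b c d : ℕ} (hab : a ≠ b)
    (h : |(((X : ℤ) * 2 ^ a) - (X : ℤ) * 2 ^ b) - ((X : ℤ) * 2 ^ c - (X : ℤ) * 2 ^ d)| < X) :
    a = c ∧ b = d := by
  apply pow_diff hab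
  by_contra hne
  have e : (((X : ℤ) * 2 ^ a) - (X : ℤ) * 2 ^ b) - ((X : ℤ) * 2 ^ c - (X : ℤ) * 2 ^ d)
      = (X : ℤ) * (((2 : ℤ) ^ a - 2 ^ b) - (2 ^ c - 2 ^ d)) := by ring
  rw [e, abs_mul] at h
  have h1 : 1 ≤ |((2 : ℤ) ^ a - 2 ^ b) - (2 ^ c - 2 ^ d)| :=
    Int.one_le_abs (sub_ne_zero.2 hne)
  have h2 : (0 : ℤ) ≤ |(X : ℤ)| := abs_nonneg _
  have h3 : |(X : ℤ)| = X := abs_of_nonneg (by positivity)
  rw [h3] at h
  have h4 : (0 : ℤ) ≤ (X : ℤ) := by positivity
  nlinarith

end Crest.Agent.R320.RulerG_432
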