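import Crest.Agent.R320.GridG_19
import Crest.Agent.R320.RulerG_432

/-!
# Row 320: grid gadget and ruler in one box (helper94)
-/

set_option autoImplicit false

namespace Crest.Agent.R320.Box_94

open Crest.Agent.R320.GridG_19 Crest.Agent.R320.RulerG_432

/-- thin bad lengths -/
def BT (G : ℕ → ℕ) (Ms : Finset ℕ) (m T : ℕ) : Prop :=
  (∃ q ∈ Ms, q ∣ T) ∨ BadG G (∏ q ∈ Ms, q) 0 m T

theorem badZ_of {G : ℕ → ℕ} {Ms : Finset ℕ} {m T : ℕ} (hG : ∀ k, 0 < G k)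
    (hT : Am G (∏ q ∈ Ms, q) 0 m ≤ T) (h : BT G Ms m T) :
    BadZ Ms G (fun k => (Am G (∏ q ∈ Ms, q) 0 k : ℤ)) (∏ q ∈ Ms, q) m (T : ℤ) := by
  rcases h with ⟨q, hq, hd⟩ | ⟨k, hk, h⟩
  · exact Or.inl ⟨q, hq, by exact_mod_cast hd⟩
  · right
    refine ⟨k + 1, by omega, by omega, ?_⟩
    have hle : Am G (∏ q ∈ Ms, q) 0 (k + 1) ≤ T := (Am_mono _ _ _ (by omega)).trans hT
    set M := ∏ q ∈ Ms, q with hM
    set A := Am G M 0 (k + 1) with hA
    obtain ⟨D, hD⟩ : ∃ D, T = A + D := ⟨T - A, by omega⟩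
    have e1 : T - A = D := by omega
    rw [e1] at h
    have h1 := Nat.div_add_mod D (G (k + 1))
    have h2 := Nat.mod_lt D (hG (k + 1))
    have hk1 : k + 1 - 1 = k := by omega
    rw [hk1]
    rcases h with h | h
    · refine ⟨((D / G (k + 1) : ℕ) : ℤ), ?_⟩
      have e2 : (T : ℤ) - (A : ℤ) - ((D / G (k + 1) : ℕ) : ℤ) * (G (k + 1) : ℤ) =
          ((D % G (k + 1) : ℕ) : ℤ) := by
        have h3 : ((G (k + 1) * (D / G (k + 1)) + D % G (k + 1) : ℕ) : ℤ) = (D : ℤ) := by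
          exact_mod_cast h1
        have h4 : (T : ℤ) = (A : ℤ) + (D : ℤ) := by exact_mod_cast hD
        rw [h4, ← h3]; push_cast; ring
      rw [e2, abs_of_nonneg (by positivity)]
      exact_mod_cast h.le
    · refine ⟨((D / G (k + 1) : ℕ) : ℤ) + 1, ?_⟩
      have e2 : (T : ℤ) - (A : ℤ) - (((D / G (k + 1) : ℕ) : ℤ) + 1) * (G (k + 1) : ℤ) =
          -((G (k + 1) : ℤ) - ((D % G (k + 1) : ℕ) : ℤ)) := by
        have h3 : ((G (k + 1) * (D / G (k + 1)) + D % G (k + 1) : ℕ) : ℤ) = (D : ℤ) := by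
          exact_mod_cast h1
        have h4 : (T : ℤ) = (A : ℤ) + (D : ℤ) := by exact_mod_cast hD
        rw [h4, ← h3]; push_cast; ring
      rw [e2, abs_neg]
      have h5 : (0 : ℤ) ≤ (G (k + 1) : ℤ) - ((D % G (k + 1) : ℕ) : ℤ) := by
        have : (((D % G (k + 1) : ℕ) : ℤ)) < (G (k + 1) : ℤ) := by exact_mod_cast h2
        omega
      rw [abs_of_nonneg h5]
      have h6 : (G (k + 1) : ℤ) ≤ ((D % G (k + 1) : ℕ) : ℤ) + (M : ℤ) * (G k : ℤ) := by
        exact_mod_cast h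
      linarith

theorem BT_per {G : ℕ → ℕ} {Ms : Finset ℕ} {m T T' : ℕ} (hGd : ∀ a b, a ≤ b → G a ∣ G b)
    (hT : Am G (∏ q ∈ Ms, q) 0 m ≤ T) (hT' : Am G (∏ q ∈ Ms, q) 0 m ≤ T')
    (h : T ≡ T' [MOD (∏ q ∈ Ms, q) * G m]) (hb : BT G Ms m T) : BT G Ms m T' := by
  rcases hb with ⟨q, hq, hd⟩ | ⟨k, hk, hb⟩
  · left
    refine ⟨q, hq, ?_⟩
    have h1 : q ∣ (∏ q ∈ Ms, q) * G m := (Finset.dvd_prod_of_mem _ hq).mul_right _
    exact (Nat.ModEq.dvd_iff h h1).1 hd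
  · right
    refine ⟨k, hk, ?_⟩
    have hA : Am G (∏ q ∈ Ms, q) 0 (k + 1) ≤ Am G (∏ q ∈ Ms, q) 0 m := Am_mono _ _ _ (by omega)
    have e : (T - Am G (∏ q ∈ Ms, q) 0 (k + 1)) % G (k + 1) =
        (T' - Am G (∏ q ∈ Ms, q) 0 (k + 1)) % G (k + 1) := by
      have h1 : T ≡ T' [MOD G (k + 1)] :=
        h.of_dvd ((hGd (k + 1) m (by omega)).mul_left _)
      refine Nat.ModEq.add_right_cancel' (Am G (∏ q ∈ Ms, q) 0 (k + 1)) ?_
      rw [Nat.sub_add_cancel (hA.trans hT), Nat.sub_add_cancel (hA.trans hT')]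
      exact h1
    rw [← e]
    exact hb

/-- **gadget 1 and the ruler.** -/
theorem box (S V : Type) [Monoid S] [Finite S] [AddCommGroup V] [Finite V] (act : V → S → V) :
    ∃ C0 : ℕ, ∀ K : ℕ, ∃ (N1 La M0 : ℕ) (c : ℕ → ℕ) (BadT : ℕ → Prop), 0 < N1 ∧ 0 < M0 ∧
      (∀ i j, i < j → c i < c j) ∧
      (∀ k k' l l', k' ≠ k → l' ≠ l →
        c k + c l' < c l + c k' + 2 * N1 → c l + c k' < c k + c l' + 2 * N1 → k = l) ∧
      (∀ T T', La ≤ T → La ≤ T' → T % M0 = T' % M0 → (BadT T ↔ BadT T')) ∧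
      (∀ τ : ℕ, La ≤ τ → ∀ J : Finset ℕ, (∀ k ∈ J, k < K ∧ ∃ k', k' < K ∧ k' ≠ k ∧
        BadT (τ + c k' - c k)) → J.card ≤ C0) ∧
      ∀ (α : Type) (φ : α → S), ∃ (lam rho : List α → Option V) (nu : List α → V),
        (∀ P v, lam P = some v → P.length ≤ N1) ∧
        (∀ P Q v b, lam P = some v → rho Q = some b →
          b = act v ((P ++ Q).map φ).prod + nu (P ++ Q)) ∧
        (∀ Y : List α, La ≤ Y.length → ¬ BadT Y.length →
          ∀ v, ∃ P Q, Y = P ++ Q ∧ lam P = some v ∧ (rho Q).isSome) ∧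
        (∀ Y Y' : List α, La ≤ Y.length → La ≤ Y'.length → Y.take La = Y'.take La →
          Y.length % M0 = Y'.length % M0 → (Y.map φ).prod = (Y'.map φ).prod → nu Y = nu Y') := by
  classical
  obtain ⟨m, r, hgrid⟩ := grid.{0} S V act
  refine ⟨r + m, fun K => ?_⟩
  obtain ⟨Ms, hcard, hMs, hg⟩ := hgrid (2 ^ (K + 2) + 2)
  set M := ∏ q ∈ Ms, q with hM
  have hMpos : 0 < M := Finset.prod_pos fun q hq => (hMs q hq).1.pos
  set κ := K + 6 + M with hκ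
  let G : ℕ → ℕ := fun k => 2 ^ (κ * k)
  have hG0 : ∀ k, 0 < G k := fun k => by positivity
  have hGd : ∀ a b, a ≤ b → G a ∣ G b := fun a b hab =>
    pow_dvd_pow 2 (Nat.mul_le_mul_left κ hab)
  have hcop : ∀ k, Nat.Coprime M (G k) := by
    intro k
    refine Nat.Coprime.pow_right _ ?_
    rw [hM]
    refine Nat.Coprime.prod_left fun q hq => ?_
    refine (Nat.coprime_primes (hMs q hq).1 Nat.prime_two).2 ?_
    have h1 := (hMs q hq).2
    have h2 : 0 < 2 ^ (K + 2) := by positivity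
    omega
  have hgr : ∀ k < m, G k ∣ G (k + 1) ∧ 2 ^ (K + 6) * M * G k ≤ G (k + 1) := by
    intro k _
    refine ⟨hGd _ _ (Nat.le_succ k), ?_⟩
    show 2 ^ (K + 6) * M * 2 ^ (κ * k) ≤ 2 ^ (κ * (k + 1))
    have e : 2 ^ (κ * (k + 1)) = 2 ^ (K + 6) * 2 ^ M * 2 ^ (κ * k) := by
      rw [← pow_add, ← pow_add]; congr 1; rw [hκ]; ring
    rw [e]
    exact Nat.mul_le_mul_right _ (Nat.mul_le_mul_left _ (Nat.lt_two_pow_self).le)
  set N1 := Am G M 0 m + 1 with hN1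
  obtain ⟨X, hX, hthin⟩ := ruler K m M (2 * N1) Ms G (fun k => (Am G M 0 k : ℤ)) hMpos
    (fun p hp => ⟨Finset.dvd_prod_of_mem _ hp, by have := (hMs p hp).2; omega⟩) (hG0 0) hgr
  set c : ℕ → ℕ := fun k => X * 2 ^ k with hc
  have hcK : ∀ k < K, c k ≤ X * 2 ^ K := fun k hk =>
    Nat.mul_le_mul_left X (Nat.pow_le_pow_right (by norm_num) hk.le)
  have hMle : Am G M 0 m ≤ Ac G M 0 m := by unfold Ac; omega
  refine ⟨N1, X * 2 ^ K + 2 * Am G M 0 m + M + Ac G M 0 m, M * G m, c, BT G Ms m, by omega,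
    Nat.mul_pos hMpos (hG0 m), ?_, ?_, ?_, ?_, ?_⟩
  · intro i j hij
    exact Nat.mul_lt_mul_of_pos_left (Nat.pow_lt_pow_right (by norm_num) hij) (by omega)
  · intro k k' l l' h1 h2 h3 h4
    refine (spaced (X := X) (a := k) (b := k') (c := l) (d := l') (Ne.symm h1) ?_).1
    have h5 : ((c k : ℕ) : ℤ) + (c l' : ℕ) < (c l : ℕ) + (c k' : ℕ) + 2 * (N1 : ℤ) := by
      exact_mod_cast h3
    have h6 : ((c l : ℕ) : ℤ) + (c k' : ℕ) < (c k : ℕ) + (c l' : ℕ) + 2 * (N1 : ℤ) := by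
      exact_mod_cast h4
    have h7 : (2 * (N1 : ℤ)) < X := by exact_mod_cast hX
    have e : ∀ k, ((c k : ℕ) : ℤ) = (X : ℤ) * 2 ^ k := fun k => by
      rw [hc]; push_cast; ring
    rw [e, e, e, e] at h5 h6
    rw [abs_lt]
    constructor <;> linarith
  · intro T T' hT hT' h
    have h' : T ≡ T' [MOD (∏ q ∈ Ms, q) * G m] := h
    constructor
    · intro hb
      exact BT_per hGd (show Am G M 0 m ≤ T by omega) (show Am G M 0 m ≤ T' by omega) h' hb
    · intro hb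
      exact BT_per hGd (show Am G M 0 m ≤ T' by omega) (show Am G M 0 m ≤ T by omega) h'.symm hb
  · intro τ hτ J hJ
    have hch : ∀ k, ∃ k', k ∈ J → k' < K ∧ k' ≠ k ∧ BT G Ms m (τ + c k' - c k) := by
      intro k
      by_cases hk : k ∈ J
      · obtain ⟨_, k', h⟩ := hJ k hk
        exact ⟨k', fun _ => h⟩
      · exact ⟨0, fun h => absurd h hk⟩
    choose f hf using hch
    have h1 : (J.image fun k => (f k, k)).card = J.card :=
      Finset.card_image_of_injective _ fun a b h => (Prod.mk.inj h).2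
    rw [← h1]
    refine (hthin (τ : ℤ) _ ?_).trans (by omega)
    intro ab hab
    obtain ⟨k, hk, rfl⟩ := Finset.mem_image.1 hab
    obtain ⟨h2, h3, h4⟩ := hf k hk
    refine ⟨h2, (hJ k hk).1, h3, ?_⟩
    have h5 := hcK k (hJ k hk).1
    have h6 := badZ_of hG0 (show Am G M 0 m ≤ τ + c (f k) - c k by omega) h4
    have e : ((τ + c (f k) - c k : ℕ) : ℤ) = (τ : ℤ) + (X : ℤ) * 2 ^ (f k) - (X : ℤ) * 2 ^ k := by
      rw [Nat.cast_sub (by omega)]
      rw [hc]; push_cast; ring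
    rw [e] at h6
    exact h6
  · intro α φ
    obtain ⟨lam, rho, nu, g1, g2, -, g4, g5⟩ := hg G 0 hG0 hGd hcop α
      (fun w : List α => (w.map φ).prod) (fun u v => by rw [List.map_append, List.prod_append])
    refine ⟨lam, rho, nu, fun P v h => ?_, fun P Q v b h1 h2 => g1 P Q v b h1 h2, ?_, ?_⟩
    · have := (g2 P v h).2
      omega
    · intro Y hY hb v
      obtain ⟨P, Q, h1, h2, h3⟩ := g4 Y (by omega) (by omega)
        (fun q hq hd => hb (Or.inl ⟨q, hq, hd⟩)) (fun h => hb (Or.inr h)) v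
      exact ⟨P, Q, h1.symm, h2, h3⟩
    · intro Y Y' h1 h2 h3 h4 h5
      refine g5 Y Y' (by omega) (by omega) ?_ h4 h5
      have h6 := congrArg (List.take (Ac G M 0 m)) h3
      rwa [List.take_take, List.take_take, min_eq_left (by omega)] at h6

end Crest.Agent.R320.Box_94
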