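import Mathlib

/-!
# Row 320: finite state data are regular; bridge to helper709's gadget literal (helper3)
-/

set_option autoImplicit false

namespace Crest.Agent.R320.Bridge2_3

universe u v

/-- a language which depends on a bounded prefix, the type of the rest and the length modulo `N`
is regular (helper898's lemma) -/
theorem isRegular_of_inv {α : Type u} {S : Type*} [Finite α] [Finite S] [Monoid S]
    (phi : List α → S) (hphi : ∀ u v, phi (u ++ v) = phi u * phi v) (L0 N : ℕ) (hN : 0 < N)
    (Φ : List α → S → ℕ → Prop) :
    Language.IsRegular ({Q | Φ (Q.take L0) (phi (Q.drop L0)) (Q.length % N)} : Language α) := by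
  apply Language.IsRegular.of_finite_range_leftQuotient
  let f : List α × S × ℕ → Language α := fun p =>
    {y | Φ (p.1 ++ y.take (L0 - p.1.length)) (p.2.1 * phi (y.drop (L0 - p.1.length)))
      ((p.2.2 + y.length) % N)}
  have hfin : ((({l : List α | l.length ≤ L0}) ×ˢ
      ((Set.univ : Set S) ×ˢ Set.Iio N))).Finite :=
    (List.finite_length_le α L0).prod (Set.finite_univ.prod (Set.finite_Iio N))
  refine (hfin.image f).subset ?_
  rintro _ ⟨x, rfl⟩
  refine ⟨(x.take L0, phi (x.drop L0), x.length % N), ⟨?_, trivial, Nat.mod_lt _ hN⟩, ?_⟩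
  · simp only [Set.mem_ofPred_eq, List.length_take]; omega
  · ext y
    have h1 : L0 - (x.take L0).length = L0 - x.length := by
      rw [List.length_take]; omega
    have h2 : (x ++ y).take L0 = x.take L0 ++ y.take (L0 - (x.take L0).length) := by
      rw [h1, List.take_append]
    have h3 : phi ((x ++ y).drop L0)
        = phi (x.drop L0) * phi (y.drop (L0 - (x.take L0).length)) := by
      rw [h1, ← hphi, List.drop_append]
    have h4 : (x ++ y).length % N = (x.length % N + y.length) % N := by
      rw [List.length_append, Nat.mod_add_mod]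
    change Φ _ _ _ ↔ Φ ((x ++ y).take L0) (phi ((x ++ y).drop L0)) ((x ++ y).length % N)
    rw [h2, h3, h4]

/-- any value which depends on `(take A, phi of the rest, length mod N)` has regular fibres -/
theorem regular_of_state {α : Type u} {S β : Type*} [Finite α] [Finite S] [Monoid S]
    (phi : List α → S) (hphi : ∀ u v, phi (u ++ v) = phi u * phi v) (A N : ℕ) (hN : 0 < N)
    (g : List α → β)
    (h : ∀ Q Q' : List α, A ≤ Q.length → A ≤ Q'.length → Q.take A = Q'.take A →
      Q.length % N = Q'.length % N → phi (Q.drop A) = phi (Q'.drop A) → g Q = g Q') (b : β) :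
    Language.IsRegular ({Q | g Q = b} : Language α) := by
  have key : ({Q | g Q = b} : Language α) = {Q | (fun (P0 : List α) (s : S) (n : ℕ) =>
      (P0.length < A ∧ g P0 = b) ∨ (∃ Q : List α, A ≤ Q.length ∧ Q.take A = P0 ∧
        phi (Q.drop A) = s ∧ Q.length % N = n ∧ g Q = b))
      (Q.take A) (phi (Q.drop A)) (Q.length % N)} := by
    ext Q
    change g Q = b ↔ ((Q.take A).length < A ∧ g (Q.take A) = b) ∨ (∃ Q' : List α,
      A ≤ Q'.length ∧ Q'.take A = Q.take A ∧ phi (Q'.drop A) = phi (Q.drop A) ∧
      Q'.length % N = Q.length % N ∧ g Q' = b)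
    constructor
    · intro hQ
      rcases Nat.lt_or_ge Q.length A with hl | hl
      · left
        rw [List.take_of_length_le hl.le]
        exact ⟨hl, hQ⟩
      · right
        exact ⟨Q, hl, rfl, rfl, rfl, hQ⟩
    · rintro (⟨h1, h2⟩ | ⟨Q', h1, h2, h3, h4, h5⟩)
      · rw [List.length_take] at h1
        have hl : Q.length < A := by omega
        rwa [List.take_of_length_le hl.le] at h2
      · rw [← h5]
        have hl : A ≤ Q.length := by
          have := congrArg List.length h2
          rw [List.length_take, List.length_take] at this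
          omega
        exact h Q Q' hl h1 h2.symm h4.symm h3.symm
  rw [key]
  exact isRegular_of_inv phi hphi A N hN (fun (P0 : List α) (s : S) (n : ℕ) =>
      (P0.length < A ∧ g P0 = b) ∨ (∃ Q : List α, A ≤ Q.length ∧ Q.take A = P0 ∧
        phi (Q.drop A) = s ∧ Q.length % N = n ∧ g Q = b))

/-- the same with a length bound added -/
theorem regular_of_state_ge {α : Type u} {S β : Type*} [Finite α] [Finite S] [Monoid S]
    (phi : List α → S) (hphi : ∀ u v, phi (u ++ v) = phi u * phi v) (A N : ℕ) (hN : 0 < N)
    (g : List α → β)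
    (h : ∀ Q Q' : List α, A ≤ Q.length → A ≤ Q'.length → Q.take A = Q'.take A →
      Q.length % N = Q'.length % N → phi (Q.drop A) = phi (Q'.drop A) → g Q = g Q') (b : β) :
    Language.IsRegular ({Q | A ≤ Q.length ∧ g Q = b} : Language α) := by
  classical
  have h0 := regular_of_state phi hphi A N hN
    (fun Q : List α => if A ≤ Q.length then some (g Q) else none) (by
      intro Q Q' h1 h2 h3 h4 h5
      simp only [if_pos h1, if_pos h2]
      rw [h Q Q' h1 h2 h3 h4 h5]) (some b)
  have e : ({Q | A ≤ Q.length ∧ g Q = b} : Language α)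
      = {Q | (if A ≤ Q.length then some (g Q) else none) = some b} := by
    ext Q
    change (A ≤ Q.length ∧ g Q = b) ↔ (if A ≤ Q.length then some (g Q) else none) = some b
    by_cases hq : A ≤ Q.length
    · simp [hq]
    · simp [hq]
  rw [e]; exact h0

end Crest.Agent.R320.Bridge2_3
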