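import Mathlib

/-!
# Row 320: bridges between the literals of the word gadget (helper3)
-/

set_option autoImplicit false

namespace Crest.Agent.R320.Bridge_3

universe u v

open Classical in
/-- helper212 / helper28 / helper136's closed form of the grid gadget (with 772's clauses) -/
def UGI (S V : Type u) [Monoid S] [AddCommGroup V] (act : V → S → V) : Prop :=
  ∃ C0 : ℕ, ∀ K : ℕ, ∃ (N1 Pm La : ℕ) (c : ℕ → ℕ) (Bad : ℕ → Prop), 0 < Pm ∧
    (∀ i j, i < j → j < K → c i < c j) ∧
    (∀ i j k l, i < K → j < K → k < K → l < K → i ≠ j → k ≠ l → (i, j) ≠ (k, l) →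
      c i + c l + 4 * N1 < c k + c j ∨ c k + c j + 4 * N1 < c i + c l) ∧
    (∀ T, Bad (T + Pm) ↔ Bad T) ∧
    (∀ T, La ≤ T → ((Finset.range K ×ˢ Finset.range K).filter
      (fun ab => ab.1 ≠ ab.2 ∧ Bad (T + c ab.2 - c ab.1))).card ≤ C0) ∧
    ∀ (A : Type v) (phi : A → S), ∃ (lam rho : List A → Option V) (nu : List A → V),
      (∀ p v, lam p = some v → p.length ≤ N1) ∧
      (∀ p q v r, lam p = some v → rho q = some r → La ≤ q.length →
        r = act v ((p ++ q).map phi).prod + nu (p ++ q)) ∧
      (∀ w : List A, La ≤ w.length → ¬ Bad w.length → ∀ v, ∃ p q, p ++ q = w ∧ lam p = some v ∧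
        (rho q).isSome) ∧
      (∀ q q2 : List A, La ≤ q.length → La ≤ q2.length → q.take La = q2.take La →
        q.length % Pm = q2.length % Pm → ((q.drop La).map phi).prod = ((q2.drop La).map phi).prod →
        rho q = rho q2 ∧ nu q = nu q2)

theorem per_iter {Bad : ℕ → Prop} {Pm : ℕ} (h : ∀ T, Bad (T + Pm) ↔ Bad T) (n T : ℕ) :
    Bad (T + n * Pm) ↔ Bad T := by
  induction n with
  | zero => simp
  | succ n ih => rw [Nat.succ_mul, ← Nat.add_assoc, h, ih]

open Classical in
theorem thin_all {Bad : ℕ → Prop} {Pm La C0 K : ℕ} {c : ℕ → ℕ} (hP : 0 < Pm)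
    (h : ∀ T, Bad (T + Pm) ↔ Bad T)
    (ht : ∀ T, La ≤ T → ((Finset.range K ×ˢ Finset.range K).filter
      (fun ab => ab.1 ≠ ab.2 ∧ Bad (T + c ab.2 - c ab.1))).card ≤ C0) (T : ℕ)
    (hT : ∀ k < K, c k ≤ T) : ((Finset.range K ×ˢ Finset.range K).filter
      (fun ab => ab.1 ≠ ab.2 ∧ Bad (T + c ab.2 - c ab.1))).card ≤ C0 := by
  refine le_trans (le_of_eq ?_) (ht (T + La * Pm) ?_)
  · congr 1
    apply Finset.filter_congr
    rintro ⟨a, b⟩ hab
    have ha : a < K := by
      have := (Finset.mem_product.1 hab).1; simpa using this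
    have h1 := hT a ha
    have h2 : T + La * Pm + c b - c a = (T + c b - c a) + La * Pm := by omega
    simp only [h2, per_iter h]
  · nlinarith

/-- the gadget in helper881's form -/
structure Gad {α : Type v} {S V : Type u} [Monoid S] [AddCommGroup V] (phi : List α → S)
    (act : V → S → V) (C0 K : ℕ) where
  N : ℕ
  A : ℕ
  Mp : ℕ
  hMp : 0 < Mp
  BadT : ℕ → Prop
  c : ℕ → ℕ
  mono : StrictMono c
  lam : List α → Option V
  rho : List α → Option V
  nu : List α → V
  gol : ∀ j k j' k', j < K → k < K → j' < K → k' < K → j ≠ k → j' ≠ k' → (j, k) ≠ (j', k') →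
    c j + c k' + 2 * N < c j' + c k ∨ c j' + c k + 2 * N < c j + c k'
  thin : open Classical in ∀ T, (∀ k < K, c k ≤ T) → ((Finset.range K ×ˢ Finset.range K).filter
      (fun jk => jk.1 ≠ jk.2 ∧ BadT (T + c jk.2 - c jk.1))).card ≤ C0
  per : ∀ T, BadT (T + Mp) ↔ BadT T
  lamN : ∀ P v, lam P = some v → P.length ≤ N
  sound : ∀ P Q v r, lam P = some v → rho Q = some r → r = act v (phi (P ++ Q)) + nu (P ++ Q)
  complete : ∀ w : List α, A ≤ w.length → ¬ BadT w.length → ∀ v, ∃ P Q, w = P ++ Q ∧
    lam P = some v ∧ (rho Q).isSome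
  rhoF : ∀ Q Q' : List α, A ≤ Q.length → A ≤ Q'.length → Q.take A = Q'.take A →
    Q.length % Mp = Q'.length % Mp → phi (Q.drop A) = phi (Q'.drop A) → rho Q = rho Q'
  nuF : ∀ Q Q' : List α, A ≤ Q.length → A ≤ Q'.length → Q.take A = Q'.take A →
    Q.length % Mp = Q'.length % Mp → phi (Q.drop A) = phi (Q'.drop A) → nu Q = nu Q'

/-- ruler extended beyond `K` -/
def ext (K : ℕ) (c : ℕ → ℕ) (k : ℕ) : ℕ := if k < K then c k else c (K - 1) + 1 + k

theorem ext_lt {K : ℕ} {c : ℕ → ℕ} {k : ℕ} (h : k < K) : ext K c k = c k := by simp [ext, h]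

theorem ext_mono {K : ℕ} {c : ℕ → ℕ} (h : ∀ i j, i < j → j < K → c i < c j) :
    StrictMono (ext K c) := by
  intro i j hij
  unfold ext
  by_cases hj : j < K
  · rw [if_pos (lt_trans hij hj), if_pos hj]; exact h i j hij hj
  · rw [if_neg hj]
    by_cases hi : i < K
    · rw [if_pos hi]
      rcases Nat.lt_or_ge i (K - 1) with h1 | h1
      · have := h i (K - 1) h1 (by omega); omega
      · have : i = K - 1 := by omega
        subst this; omega
    · rw [if_neg hi]; omega

theorem drop_split {α : Type*} {A L : ℕ} (h : L ≤ A) (Q : List α) :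
    Q.drop L = (Q.take A).drop L ++ Q.drop A := by
  rw [List.drop_take]
  conv_rhs => rw [show Q.drop A = (Q.drop L).drop (A - L) by rw [List.drop_drop]; congr 1; omega]
  rw [List.take_append_drop]

theorem take_le {α : Type*} {A L : ℕ} (h : L ≤ A) (Q : List α) :
    Q.take L = (Q.take A).take L := by
  rw [List.take_take, min_eq_left h]

theorem gad_of_UGI {S V : Type u} [Monoid S] [AddCommGroup V] {act : V → S → V}
    (h : UGI.{u, v} S V act) : ∃ C0 : ℕ, ∀ K (α : Type v) (f : α → S),
      Nonempty (Gad (fun w : List α => (w.map f).prod) act C0 K) := by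
  classical
  obtain ⟨C0, h⟩ := h
  refine ⟨C0, fun K α f => ?_⟩
  obtain ⟨N1, Pm, La, c, Bad, hP, hmono, hgol, hper, hthin, hex⟩ := h K
  obtain ⟨lam, rho, nu, h1, h2, h3, h4⟩ := hex α f
  refine ⟨{
    N := N1, A := La + N1, Mp := Pm, hMp := hP, BadT := Bad, c := ext K c,
    mono := ext_mono hmono, lam := lam,
    rho := fun Q => if La ≤ Q.length then rho Q else none, nu := nu,
    gol := ?_, thin := ?_, per := hper, lamN := h1, sound := ?_, complete := ?_, rhoF := ?_,
    nuF := ?_ }⟩
  · intro j k j' k' hj hk hj' hk' a b d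
    rw [ext_lt hj, ext_lt hk, ext_lt hj', ext_lt hk']
    rcases hgol j k j' k' hj hk hj' hk' a b d with e | e
    · left; omega
    · right; omega
  · intro T hT
    have hT' : ∀ k < K, c k ≤ T := fun k hk => by
      have := hT k hk; rwa [ext_lt hk] at this
    refine le_trans (le_of_eq ?_) (thin_all hP hper hthin T hT')
    congr 1
    apply Finset.filter_congr
    rintro ⟨a, b⟩ hab
    have ha : a < K := by
      have := (Finset.mem_product.1 hab).1; simpa using this
    have hb : b < K := by
      have := (Finset.mem_product.1 hab).2; simpa using this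
    simp only [ext_lt ha, ext_lt hb]
  · intro P Q v r hP' hQ
    by_cases hl : La ≤ Q.length
    · rw [if_pos hl] at hQ
      exact h2 P Q v r hP' hQ hl
    · rw [if_neg hl] at hQ; cases hQ
  · intro w hw hb v
    obtain ⟨p, q, e, h5, h6⟩ := h3 w (by omega) hb v
    refine ⟨p, q, e.symm, h5, ?_⟩
    have h7 := h1 p v h5
    have h8 : p.length + q.length = w.length := by rw [← e, List.length_append]
    rw [if_pos (show La ≤ q.length by omega)]
    exact h6
  · intro Q Q' ha hb ht hm hp
    have e1 : Q.take La = Q'.take La := by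
      rw [take_le (show La ≤ La + N1 by omega) Q, ht, ← take_le (show La ≤ La + N1 by omega) Q']
    have e2 : ((Q.drop La).map f).prod = ((Q'.drop La).map f).prod := by
      rw [drop_split (show La ≤ La + N1 by omega) Q, drop_split (show La ≤ La + N1 by omega) Q',
        List.map_append, List.map_append, List.prod_append, List.prod_append, ht, hp]
    have := (h4 Q Q' (by omega) (by omega) e1 hm e2).1
    rw [if_pos (show La ≤ Q.length by omega), if_pos (show La ≤ Q'.length by omega)]
    exact this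
  · intro Q Q' ha hb ht hm hp
    have e1 : Q.take La = Q'.take La := by
      rw [take_le (show La ≤ La + N1 by omega) Q, ht, ← take_le (show La ≤ La + N1 by omega) Q']
    have e2 : ((Q.drop La).map f).prod = ((Q'.drop La).map f).prod := by
      rw [drop_split (show La ≤ La + N1 by omega) Q, drop_split (show La ≤ La + N1 by omega) Q',
        List.map_append, List.map_append, List.prod_append, List.prod_append, ht, hp]
    exact (h4 Q Q' (by omega) (by omega) e1 hm e2).2

end Crest.Agent.R320.Bridge_3
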