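import Crest.Agent.R320.Top5_110

/-!
# Row 320: the two completeness statements of 110's `top_sem` (natural chain rule, all words)
(helper790)

Left-looking walls `Wo` (locality `n`, gap `W`), blocks `XX` = first wall at a place `≥ z`, gadget 1
(`lam rho nu1`, window `N1`, thin set `BadT` of block lengths) on the part `Y` of a block behind the
first `p0` letters, exact gadget 2 (`lam2 rho2 nu2`, places `c k`, `k < K`) on the first `p0` letters.
-/

set_option autoImplicit false

namespace Crest.Agent.R320.C12_790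

open Crest.Agent.R320.Hk_851 Crest.Agent.R320.Code110

universe u v

variable {α : Type u} {S : Type*} [Monoid S] {V : Type v} [AddCommGroup V]

/-- walls = left-looking rule -/
structure Walls (Wo : List α → Prop) (n W : ℕ) : Prop where
  loc : ∀ P Q, n ≤ Q.length → (Wo (P ++ Q) ↔ Wo Q)
  gap : ∀ (w : List α) (s t : ℕ), s < t → t ≤ w.length → Wo (w.take s) → Wo (w.take t) → W < t - s

/-- natural block code -/
def XX (Wo : List α → Prop) (z : ℕ) : Language α :=
  {X | z ≤ X.length ∧ Wo X ∧ ∀ t, z ≤ t → t < X.length → ¬ Wo (X.take t)}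

/-- end-wall band -/
def EE (Wo : List α → Prop) (z N1 : ℕ) (u : List α) : Prop :=
  u.length < z + N1 ∨ ∃ t, z ≤ t + N1 ∧ t < z ∧ Wo (u.take t)

/-- bad blocks -/
def Bad (Wo : List α → Prop) (z N1 p0 : ℕ) (BadT : ℕ → Prop) : Language α :=
  {u | u ∈ XX Wo z ∧ (EE Wo z N1 u ∨ BadT (u.length - p0))}

/-- the zone map -/
def TM (φ : List α → S) (act : V → S → V) (nu2 nu1 : List α → V) (p0 : ℕ) (u : List α) (v : V) : V :=
  act (act v (φ (u.take p0)) + nu2 (u.take p0)) (φ (u.drop p0)) + nu1 (u.drop p0)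

/-- left words of scheme 1 -/
def L1 (φ : List α → S) (act : V → S → V) (nu2 : List α → V) (p0 : ℕ)
    (lam : List α → Option V) (x : V) : Language α :=
  {p | p0 ≤ p.length ∧ lam (p.drop p0) = some (act x (φ (p.take p0)) + nu2 (p.take p0))}

/-- left words of scheme 2 -/
def L2 (K : ℕ) (c : ℕ → ℕ) (lam2 : ℕ → List α → Option V) (x : V) : Language α :=
  {p | ∃ k < K, p.length = c k ∧ lam2 k p = some x}

variable {Wo : List α → Prop} {n W z N1 p0 N0 K C0 : ℕ} {BadT : ℕ → Prop}
  {φ : List α → S} {act : V → S → V} {nu1 nu2 : List α → V}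
  {lam rho : List α → Option V} {c : ℕ → ℕ}
  {lam2 rho2 : ℕ → List α → Option V}

theorem pc (hn : 0 < z) : PC (XX Wo z) where
  ne := by
    rintro ⟨h, -⟩
    simp at h
    omega
  pf := by
    rintro u ⟨h1, h2, -⟩ w ⟨-, -, h6⟩ ⟨r, rfl⟩
    by_contra hne
    have hr : 0 < r.length := by
      rcases Nat.eq_zero_or_pos r.length with h0 | h0
      · exact (hne (by rw [List.length_eq_zero_iff.1 h0, List.append_nil])).elim
      · exact h0
    refine h6 u.length h1 (by rw [List.length_append]; omega) ?_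
    rw [List.take_left']
    · exact h2
    · rfl

theorem hT (hφ : ∀ u w, φ (u ++ w) = φ u * φ w)
    (hactm : ∀ v s t, act v (s * t) = act (act v s) t)
    (hadd : ∀ v w s, act (v + w) s = act v s + act w s) (u : List α) (v v' : V) :
    TM φ act nu2 nu1 p0 u v - TM φ act nu2 nu1 p0 u v' = act (v - v') (φ u) := by
  have hsub : ∀ a b s, act (a - b) s = act a s - act b s := by
    intro a b s
    have := hadd (a - b) b s
    rw [sub_add_cancel] at this
    rw [this, add_sub_cancel_right]
  have h1 : φ u = φ (u.take p0) * φ (u.drop p0) := by rw [← hφ, List.take_append_drop]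
  unfold TM
  rw [h1, hactm, hsub, add_sub_add_right_eq_sub, ← hsub, add_sub_add_right_eq_sub]

/-- first block of a text -/
theorem exists_block {w : List α} {t : ℕ} (ht : z ≤ t) (htw : t ≤ w.length) (hW : Wo (w.take t)) :
    ∃ X ∈ XX Wo z, X <+: w ∧ X.length ≤ t := by
  classical
  have hex : ∃ s, z ≤ s ∧ Wo (w.take s) := ⟨t, ht, hW⟩
  have h1 := Nat.find_spec hex
  have h2 : Nat.find hex ≤ t := Nat.find_min' hex ⟨ht, hW⟩
  refine ⟨w.take (Nat.find hex), ⟨?_, h1.2, ?_⟩, List.take_prefix _ _, ?_⟩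
  · rw [List.length_take]; omega
  · intro s hs hs2
    rw [List.length_take] at hs2
    rw [List.take_take, min_eq_left (by omega)]
    intro h
    exact Nat.find_min hex (m := s) (by omega) ⟨hs, h⟩
  · rw [List.length_take]; omega

/-- wall transfer -/
theorem wall_transfer (hw : Walls Wo n W) {p p' q : List α} {s : ℕ} (h1 : n ≤ s)
    (h2 : s ≤ q.length) :
    Wo ((p' ++ q).take (p'.length + s)) ↔ Wo ((p ++ q).take (p.length + s)) := by
  have e : ∀ r : List α, (r ++ q).take (r.length + s) = r ++ q.take s := by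
    intro r
    rw [List.take_append]
    simp
  rw [e, e, hw.loc _ _ (by rw [List.length_take]; omega), hw.loc _ _ (by rw [List.length_take]; omega)]

/-- the block of the changed text -/
theorem block_transfer (hw : Walls Wo n W) (hz : p0 + N1 + n ≤ z)
    {p p' q : List α} (hp : p.length ≤ p0 + N1) (hp' : p'.length ≤ p0 + N1)
    (hd1 : p.length ≤ p'.length + N1)  (hd2 : p'.length ≤ p.length + N1)
    (hX : p ++ q ∈ XX Wo z) (hE : ¬ EE Wo z N1 (p ++ q)) : p' ++ q ∈ XX Wo z := by
  obtain ⟨h1, h2, h3⟩ := hX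
  unfold EE at hE
  push Not at hE
  obtain ⟨hE1, hE2⟩ := hE
  simp only [List.length_append] at *
  refine ⟨?_, ?_, ?_⟩
  · rw [List.length_append]; omega
  · rw [hw.loc _ _ (by omega)]
    rwa [hw.loc _ _ (by omega)] at h2
  · intro t ht1 ht2 hWt
    rw [List.length_append] at ht2
    obtain ⟨s, rfl⟩ : ∃ s, t = p'.length + s := ⟨t - p'.length, by omega⟩
    rw [wall_transfer (p := p) hw (by omega) (by omega)] at hWt
    by_cases h : z ≤ p.length + s
    · exact h3 _ h (by omega) hWt
    · exact hE2 (p.length + s) (by omega) (by omega) hWt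

/-- **C1** -/
theorem c1 (hw : Walls Wo n W) (hz : p0 + N1 + n + N0 ≤ z)
    (g1 : ∀ P v, lam P = some v → P.length ≤ N1)
    (g2 : ∀ P Q v b, lam P = some v → rho Q = some b → b = act v (φ (P ++ Q)) + nu1 (P ++ Q))
    (g3 : ∀ u, N0 ≤ u.length → ¬ BadT u.length → ∀ v, ∃ P Q, u = P ++ Q ∧ lam P = some v ∧
      (rho Q).isSome) :
    ∀ u ∈ XX Wo z, u ∉ Bad Wo z N1 p0 BadT → ∀ x : V, ∀ t ∈ (XX Wo z) ^ 0,
      ∃ p q y, u ++ t = p ++ q ∧ p ∈ L1 φ act nu2 p0 lam x ∧
      q ∈ Rsem (XX Wo z) (XX Wo z) (TM φ act nu2 nu1 p0) 0 (L1 φ act nu2 p0 lam) y := by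
  intro u hu hb x t ht
  have ht' : t = [] := by
    rw [pow_zero, Language.mem_one] at ht
    exact ht
  subst ht'
  have hE : ¬ EE Wo z N1 u := fun h => hb ⟨hu, Or.inl h⟩
  have hB : ¬ BadT (u.drop p0).length := by
    rw [List.length_drop]
    exact fun h => hb ⟨hu, Or.inr h⟩
  have hul : z ≤ u.length := hu.1
  obtain ⟨P, Q, hPQ, hP, hQ⟩ := g3 (u.drop p0) (by rw [List.length_drop]; omega) hB
    (act x (φ (u.take p0)) + nu2 (u.take p0))
  obtain ⟨b, hb'⟩ := Option.isSome_iff_exists.1 hQ
  have htk : (u.take p0).length = p0 := by rw [List.length_take]; omega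
  have huu : u = (u.take p0 ++ P) ++ Q := by
    rw [List.append_assoc, ← hPQ, List.take_append_drop]
  have hPN := g1 _ _ hP
  refine ⟨u.take p0 ++ P, Q, b, by rw [List.append_nil]; exact huu, ⟨?_, ?_⟩, ?_⟩
  · rw [List.length_append]; omega
  · rw [List.drop_left' htk, List.take_left' htk]
    exact hP
  · intro x' p' hp'
    obtain ⟨hp1, hp2⟩ := hp'
    have hl' := g1 _ _ hp2
    rw [List.length_drop] at hl'
    left
    have hmem : p' ++ Q ∈ XX Wo z := by
      rw [huu] at hu hE
      refine block_transfer hw (N1 := N1) (p0 := p0) (p := u.take p0 ++ P) (p' := p') (q := Q) (by omega) ?_ ?_ ?_ ?_ hu hE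
      · rw [List.length_append]; omega
      · omega
      · rw [List.length_append]; omega
      · rw [List.length_append]; omega
    refine ⟨b, Language.mem_mul.2 ⟨p' ++ Q, ⟨hmem, ?_⟩, [], ⟨rfl, rfl⟩, by simp⟩⟩
    have hg := g2 _ _ _ _ hp2 hb'
    unfold TM
    have e1 : (p' ++ Q).take p0 = p'.take p0 := by rw [List.take_append_of_le_length hp1]
    have e2 : (p' ++ Q).drop p0 = p'.drop p0 ++ Q := by rw [List.drop_append_of_le_length hp1]
    rw [e1, e2]
    exact hg.symm

theorem f1 [Finite α] (g1 : ∀ P v, lam P = some v → P.length ≤ N1) (x : V) :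
    {p | p ∈ L1 φ act nu2 p0 lam x}.Finite := by
  refine (List.finite_length_le α (p0 + N1)).subset ?_
  rintro p ⟨h1, h2⟩
  have := g1 _ _ h2
  rw [List.length_drop] at this
  show p.length ≤ p0 + N1
  omega

theorem f2 [Finite α] (hc : ∀ k < K, c k ≤ p0) (x : V) :
    {p | p ∈ L2 K c lam2 x}.Finite := by
  refine (List.finite_length_le α p0).subset ?_
  rintro p ⟨k, hk, h1, h2⟩
  have := hc k hk
  show p.length ≤ p0
  omega


/-- spoiled places -/
def Spoiled (Wo : List α → Prop) (z N1 p0 : ℕ) (BadT : ℕ → Prop) (K : ℕ) (c : ℕ → ℕ)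
    (w : List α) (k : ℕ) : Prop :=
  ∃ k' < K, k' ≠ k ∧ ∃ p' : List α, p'.length = c k' ∧ ∃ X1 ∈ Bad Wo z N1 p0 BadT,
    X1 <+: p' ++ w.drop (c k)

/-- where the first block of a changed text ends, and why it is bad -/
theorem spoiled_event (hw : Walls Wo n W) (hz : 2 * p0 + 2 * N1 + n ≤ z)
    (hc : ∀ k < K, c k ≤ p0) {w : List α} {k : ℕ} (hk : k < K)
    (h : Spoiled Wo z N1 p0 BadT K c w k) :
    ∃ k' < K, k' ≠ k ∧ ∃ e, e ≤ w.length ∧ Wo (w.take e) ∧ z + c k ≤ e + c k' ∧
      (∀ r, r < e → z + c k ≤ r + c k' → ¬ Wo (w.take r)) ∧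
      ((∃ r, r ≤ w.length ∧ Wo (w.take r) ∧ r + c k' ≤ z + N1 + c k ∧ z + c k ≤ r + c k' + N1) ∨
        BadT (e + c k' - c k - p0)) := by
  obtain ⟨k', hk', hne, p', hp', X1, ⟨⟨hX1, hX2, hX3⟩, hbad⟩, q2, hq2⟩ := h
  have hck := hc k hk
  have hck' := hc k' hk'
  have hlen : X1.length + q2.length = p'.length + (w.drop (c k)).length := by
    rw [← List.length_append, hq2, List.length_append]
  rw [List.length_drop] at hlen
  have hwl : c k ≤ w.length := by omega
  have htk : (w.take (c k)).length = c k := by rw [List.length_take]; omega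
  have hwe : w.take (c k) ++ w.drop (c k) = w := List.take_append_drop _ _
  -- transfer
  have tr : ∀ r, p0 + n ≤ r → r ≤ X1.length →
      (Wo (X1.take r) ↔ Wo (w.take (r - c k' + c k))) := by
    intro r h1 h2
    have e1 : X1.take r = (p' ++ w.drop (c k)).take r := by
      rw [← hq2, List.take_append_of_le_length h2]
    rw [e1]
    have := wall_transfer (p := w.take (c k)) (p' := p') (q := w.drop (c k)) hw
      (s := r - c k') (by omega) (by rw [List.length_drop]; omega)
    rw [hwe, htk, hp'] at this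
    rw [show r - c k' + c k = c k + (r - c k') by omega, ← this]
    rw [show c k' + (r - c k') = r by omega]
  refine ⟨k', hk', hne, X1.length - c k' + c k, by omega, ?_, by omega, ?_, ?_⟩
  · rw [← tr _ (by omega) le_rfl, List.take_length]
    exact hX2
  · intro r hr1 hr2 hWr
    have := (tr (r - c k + c k') (by omega) (by omega))
    rw [show r - c k + c k' - c k' + c k = r by omega] at this
    exact hX3 (r - c k + c k') (by omega) (by omega) (this.2 hWr)
  · rcases hbad with h | h
    · left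
      rcases h with h | ⟨t, ht1, ht2, ht3⟩
      · refine ⟨X1.length - c k' + c k, by omega, ?_, by omega, by omega⟩
        rw [← tr _ (by omega) le_rfl, List.take_length]
        exact hX2
      · refine ⟨t - c k' + c k, by omega, ?_, by omega, by omega⟩
        rw [← tr _ (by omega) (by omega)]
        exact ht3
    · right
      rw [show X1.length - c k' + c k + c k' - c k - p0 = X1.length - p0 by omega]
      exact h


/-- **at most `1 + 2 * C0` places are spoiled** -/
theorem spoil_card (hw : Walls Wo n W) {Tm : ℕ} (hz : 2 * p0 + 2 * N1 + n + Tm ≤ z)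
    (hW : 2 * p0 + 2 * N1 ≤ W)
    (hc : ∀ k < K, c k ≤ p0)
    (hres : ∀ a b d e, a < K → b < K → d < K → e < K → a ≠ b → d ≠ e →
      c a + c e ≤ c b + c d + 2 * N1 → c b + c d ≤ c a + c e + 2 * N1 → a = d ∧ b = e)
    (hspoil : ∀ T, Tm ≤ T → ∀ F : Finset (ℕ × ℕ), (∀ q ∈ F, q.1 < K ∧ q.2 < K ∧ q.1 ≠ q.2 ∧
      BadT (T + c q.2 - c q.1)) → F.card ≤ C0)
    {w : List α} {e1 e2 : ℕ} (h1 : z ≤ e1) (h1w : Wo (w.take e1)) (h12 : e1 < e2)
    (h2 : e2 ≤ w.length) (h2w : Wo (w.take e2))
    (I : Finset ℕ) (hI : ∀ k ∈ I, k < K ∧ Spoiled Wo z N1 p0 BadT K c w k) :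
    I.card ≤ 1 + 2 * C0 := by
  classical
  have hex1 : ∃ r, z ≤ r + p0 ∧ Wo (w.take r) := ⟨e1, by omega, h1w⟩
  have a1 := Nat.find_spec hex1
  have a1le : Nat.find hex1 ≤ e1 := Nat.find_min' hex1 ⟨by omega, h1w⟩
  have a1min : ∀ r, z ≤ r + p0 → Wo (w.take r) → Nat.find hex1 ≤ r := fun r h h' =>
    Nat.find_min' hex1 ⟨h, h'⟩
  generalize Nat.find hex1 = s1 at a1 a1le a1min
  have hex2 : ∃ r, s1 < r ∧ r ≤ w.length ∧ Wo (w.take r) := ⟨e2, by omega, h2, h2w⟩
  have a2 := Nat.find_spec hex2
  have a2min : ∀ r, s1 < r → r ≤ w.length → Wo (w.take r) → Nat.find hex2 ≤ r :=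
    fun r h h' h'' => Nat.find_min' hex2 ⟨h, h', h''⟩
  generalize Nat.find hex2 = s2 at a2 a2min
  have hgap : W < s2 - s1 := hw.gap w s1 s2 a2.1 a2.2.1 a1.2 a2.2.2
  -- partner
  have hpart : ∀ k ∈ I, ∃ k' < K, k' ≠ k ∧
      ((∃ r, r ≤ w.length ∧ Wo (w.take r) ∧ r + c k' ≤ z + N1 + c k ∧ z + c k ≤ r + c k' + N1) ∨
        BadT ((s1 - p0) + c k' - c k) ∨ BadT ((s2 - p0) + c k' - c k)) := by
    intro k hk
    obtain ⟨hkK, hsp⟩ := hI k hk
    obtain ⟨k', hk', hne, e, he1, he2, he3, he4, he5⟩ :=
      spoiled_event hw (by omega) hc hkK hsp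
    have hck := hc k hkK
    have hck' := hc k' hk'
    refine ⟨k', hk', hne, ?_⟩
    rcases he5 with h | h
    · exact Or.inl h
    · right
      have hs1e : s1 ≤ e := a1min e (by omega) he2
      rcases Nat.eq_or_lt_of_le hs1e with heq | hlt
      · left
        subst heq
        rw [show s1 - p0 + c k' - c k = s1 + c k' - c k - p0 by omega]
        exact h
      · right
        have hs2e : s2 ≤ e := a2min e hlt he1 he2
        rcases Nat.eq_or_lt_of_le hs2e with heq | hlt2
        · subst heq
          rw [show s2 - p0 + c k' - c k = s2 + c k' - c k - p0 by omega]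
          exact h
        · exact (he4 s2 hlt2 (by omega) a2.2.2).elim
  choose! g hgK hgne hg using hpart
  let A : Finset ℕ := I.filter fun k => ∃ r, r ≤ w.length ∧ Wo (w.take r) ∧
    r + c (g k) ≤ z + N1 + c k ∧ z + c k ≤ r + c (g k) + N1
  let B1 : Finset ℕ := I.filter fun k => BadT ((s1 - p0) + c (g k) - c k)
  let B2 : Finset ℕ := I.filter fun k => BadT ((s2 - p0) + c (g k) - c k)
  have hsub : I ⊆ A ∪ (B1 ∪ B2) := by
    intro k hk
    rcases hg k hk with h | h | h
    · exact Finset.mem_union_left _ (Finset.mem_filter.2 ⟨hk, h⟩)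
    · exact Finset.mem_union_right _ (Finset.mem_union_left _ (Finset.mem_filter.2 ⟨hk, h⟩))
    · exact Finset.mem_union_right _ (Finset.mem_union_right _ (Finset.mem_filter.2 ⟨hk, h⟩))
  have hA : A.card ≤ 1 := by
    rw [Finset.card_le_one]
    intro k hk l hl
    obtain ⟨hk1, r, hr1, hr2, hr3, hr4⟩ := Finset.mem_filter.1 hk
    obtain ⟨hl1, r', hr1', hr2', hr3', hr4'⟩ := Finset.mem_filter.1 hl
    have b1 := hc k (hI k hk1).1
    have b2 := hc l (hI l hl1).1
    have b3 := hc _ (hgK k hk1)
    have b4 := hc _ (hgK l hl1)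
    have hrr : r = r' := by
      rcases lt_trichotomy r r' with h | h | h
      · have := hw.gap w r r' h hr1' hr2 hr2'
        omega
      · exact h
      · have := hw.gap w r' r h hr1 hr2' hr2
        omega
    subst hrr
    exact (hres k (g k) l (g l) (hI k hk1).1 (hgK k hk1) (hI l hl1).1 (hgK l hl1)
      (hgne k hk1).symm (hgne l hl1).symm (by omega) (by omega)).1
  have hB : ∀ (s : ℕ), Tm ≤ s - p0 →
      (I.filter fun k => BadT ((s - p0) + c (g k) - c k)).card ≤ C0 := by
    intro s hs
    have hinj : Function.Injective (fun k : ℕ => (k, g k)) := fun a b h => (Prod.mk.inj h).1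
    rw [← Finset.card_image_of_injective _ hinj]
    refine hspoil (s - p0) hs _ ?_
    intro q hq
    obtain ⟨k, hk, rfl⟩ := Finset.mem_image.1 hq
    obtain ⟨hk1, hk2⟩ := Finset.mem_filter.1 hk
    exact ⟨(hI k hk1).1, hgK k hk1, (hgne k hk1).symm, hk2⟩
  have c1 := hB s1 (by omega)
  have c2 := hB s2 (by omega)
  have := Finset.card_le_card hsub
  have u1 := Finset.card_union_le A (B1 ∪ B2)
  have u2 := Finset.card_union_le B1 B2
  have c1' : B1.card ≤ C0 := c1
  have c2' : B2.card ≤ C0 := c2
  omega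

/-- **C2** -/
theorem c2 (hw : Walls Wo n W) {Tm : ℕ} (hz : 2 * p0 + 2 * N1 + n + Tm ≤ z)
    (hz0 : 0 < z) (hW : 2 * p0 + 2 * N1 ≤ W)
    (hc : ∀ k < K, c k ≤ p0)
    (hinj : ∀ k < K, ∀ k' < K, c k = c k' → k = k')
    (hres : ∀ a b d e, a < K → b < K → d < K → e < K → a ≠ b → d ≠ e →
      c a + c e ≤ c b + c d + 2 * N1 → c b + c d ≤ c a + c e + 2 * N1 → a = d ∧ b = e)
    (hspoil : ∀ T, Tm ≤ T → ∀ F : Finset (ℕ × ℕ), (∀ q ∈ F, q.1 < K ∧ q.2 < K ∧ q.1 ≠ q.2 ∧
      BadT (T + c q.2 - c q.1)) → F.card ≤ C0)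
    (ex2 : ∀ k < K, ∀ (P Q : List α) (v b : V), P.length = c k → lam2 k P = some v →
      rho2 k Q = some b → b = act v (φ (P ++ Q)) + nu2 (P ++ Q))
    (cp2 : ∀ (u : List α) (v : V), u.length = p0 → ∃ I : Finset ℕ, 1 + 2 * C0 < I.card ∧
      ∀ k ∈ I, k < K ∧ lam2 k (u.take (c k)) = some v ∧ (rho2 k (u.drop (c k))).isSome) :
    ∀ u ∈ Bad Wo z N1 p0 BadT, ∀ x : V, ∀ t ∈ (Bad Wo z N1 p0 BadT) ^ 1,
      ∃ p q y, u ++ t = p ++ q ∧ p ∈ L2 K c lam2 x ∧
      q ∈ Rsem (XX Wo z) (Bad Wo z N1 p0 BadT) (TM φ act nu2 nu1 p0) 1 (L2 K c lam2) y := by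
  classical
  intro u hu x t ht
  rw [pow_one] at ht
  have hul : z ≤ u.length := hu.1.1
  have htl : z ≤ t.length := ht.1.1
  have htk : (u.take p0).length = p0 := by rw [List.length_take]; omega
  obtain ⟨I, hIc, hI⟩ := cp2 (u.take p0) x htk
  set w := u ++ t with hwdef
  have hwl : w.length = u.length + t.length := by rw [hwdef, List.length_append]
  have hex : ∃ k ∈ I, ¬ Spoiled Wo z N1 p0 BadT K c w k := by
    by_contra hcon
    push Not at hcon
    have := spoil_card (e1 := u.length) (e2 := w.length) hw hz hW hc hres hspoil (w := w) hul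
      (by rw [hwdef, List.take_left']; exact hu.1.2.1; rfl) (by omega) le_rfl
      (by rw [List.take_length, hwdef, hw.loc _ _ (by omega)]; exact ht.1.2.1)
      I (fun k hk => ⟨(hI k hk).1, hcon k hk⟩)
    omega
  obtain ⟨k, hkI, hns⟩ := hex
  obtain ⟨hkK, hlk, hrk⟩ := hI k hkI
  obtain ⟨b, hb⟩ := Option.isSome_iff_exists.1 hrk
  have hck := hc k hkK
  have e1 : (u.take p0).take (c k) = u.take (c k) := by
    rw [List.take_take, min_eq_left hck]
  rw [e1] at hlk
  have e2 : w.take (c k) = u.take (c k) := by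
    rw [hwdef, List.take_append_of_le_length (by omega)]
  have e3 : w.drop (c k) = u.drop (c k) ++ t := by
    rw [hwdef, List.drop_append_of_le_length (by omega)]
  have e4 : u.drop (c k) = (u.take p0).drop (c k) ++ u.drop p0 := by
    have h5 : u.drop (c k) = ((u.take p0) ++ u.drop p0).drop (c k) := by
      rw [List.take_append_drop]
    rw [h5, List.drop_append_of_le_length (by omega)]
  have hcl : (u.take (c k)).length = c k := by rw [List.length_take]; omega
  refine ⟨w.take (c k), w.drop (c k),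
    TM φ act nu2 nu1 p0 t (act b (φ (u.drop p0)) + nu1 (u.drop p0)),
    (List.take_append_drop _ _).symm, ⟨k, hkK, ?_, ?_⟩, ?_⟩
  · rw [e2]; exact hcl
  · rw [e2]; exact hlk
  · rintro x' p' ⟨k', hk', hp'1, hp'2⟩
    by_cases hkk : k' = k
    · subst hkk
      left
      -- the changed first block
      have hu' : p' ++ u.drop (c k') ∈ Bad Wo z N1 p0 BadT := by
        have hsame : ∀ s, p0 + n ≤ s → s ≤ u.length →
            (Wo ((p' ++ u.drop (c k')).take s) ↔ Wo (u.take s)) := by
          intro s hs1 hs2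
          have := wall_transfer (p := u.take (c k')) (p' := p') (q := u.drop (c k')) hw
            (s := s - c k') (by omega) (by rw [List.length_drop]; omega)
          rw [List.take_append_drop, hcl, hp'1] at this
          rwa [show c k' + (s - c k') = s by omega] at this
        have hlen' : (p' ++ u.drop (c k')).length = u.length := by
          rw [List.length_append, List.length_drop]; omega
        obtain ⟨⟨hx1, hx2, hx3⟩, hbad⟩ := hu
        refine ⟨⟨by omega, ?_, ?_⟩, ?_⟩
        · rw [← List.take_length (l := p' ++ u.drop (c k')), hlen', hsame _ (by omega) le_rfl,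
            List.take_length]
          exact hx2
        · intro s hs1 hs2
          rw [hlen'] at hs2
          rw [hsame s (by omega) (by omega)]
          exact hx3 s hs1 hs2
        · rcases hbad with h | h
          · left
            rcases h with h | ⟨s, hs1, hs2, hs3⟩
            · left; omega
            · right
              refine ⟨s, hs1, hs2, ?_⟩
              rw [hsame s (by omega) (by omega)]
              exact hs3
          · right
            rw [hlen']
            exact h
      have hval : TM φ act nu2 nu1 p0 (p' ++ u.drop (c k')) x' =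
          act b (φ (u.drop p0)) + nu1 (u.drop p0) := by
        have q1 : p' ++ u.drop (c k') = (p' ++ (u.take p0).drop (c k')) ++ u.drop p0 := by
          rw [e4, List.append_assoc]
        have q2 : (p' ++ (u.take p0).drop (c k')).length = p0 := by
          rw [List.length_append, List.length_drop]; omega
        unfold TM
        rw [q1, List.take_left' q2, List.drop_left' q2]
        rw [← ex2 k' hkK p' ((u.take p0).drop (c k')) x' b hp'1 hp'2 hb]
      refine ⟨act b (φ (u.drop p0)) + nu1 (u.drop p0), Language.mem_mul.2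
        ⟨p' ++ u.drop (c k'), ⟨hu', hval⟩, t, ?_, ?_⟩⟩
      · exact ⟨_, Language.mem_mul.2 ⟨t, ⟨ht, rfl⟩, [], ⟨rfl, rfl⟩, by simp⟩⟩
      · rw [e3, List.append_assoc]
    · right
      have hck' := hc k' hk'
      have hwall : Wo ((p' ++ w.drop (c k)).take (c k' + (w.length - c k))) := by
        have := wall_transfer (p := w.take (c k)) (p' := p') (q := w.drop (c k)) hw
          (s := w.length - c k) (by omega) (by rw [List.length_drop])
        rw [hp'1] at this
        rw [this, List.take_append_drop, show (w.take (c k)).length + (w.length - c k) = w.length by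
          rw [e2, hcl]; omega, List.take_length, hwdef, hw.loc _ _ (by omega)]
        exact ht.1.2.1
      have hle : c k' + (w.length - c k) ≤ (p' ++ w.drop (c k)).length := by
        have h7 : (p' ++ w.drop (c k)).length = p'.length + (w.drop (c k)).length :=
          List.length_append
        have h8 : (w.drop (c k)).length = w.length - c k := List.length_drop
        omega
      obtain ⟨X1, hX1, hX2, -⟩ := exists_block (z := z) (t := c k' + (w.length - c k))
        (by omega) hle hwall
      left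
      refine ⟨X1, hX1, ?_, hX2⟩
      intro hbad
      exact hns ⟨k', hk', hkk, p', hp'1, X1, hbad, hX2⟩

end Crest.Agent.R320.C12_790
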