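import Mathlib

/-!
# Row 320: the spoil count (helper270): pure counting on natural numbers
-/

set_option autoImplicit false

namespace Crest.Agent.R320.Cnt270

open Finset

/-- event: the virtual anchor of the candidate `k'` at the place `k` looks bad -/
def Ev (Ws : ℕ → Prop) (BadT : ℕ → Prop) (c : ℕ → ℕ) (z p0 N1 : ℕ) (k k' : ℕ) : Prop :=
  (∃ s, Ws s ∧ z + c k ≤ s + c k' + N1 ∧ s + c k' ≤ z + c k + N1) ∨
  (∃ s, Ws s ∧ z + c k ≤ s + c k' ∧ (∀ s', Ws s' → z + c k ≤ s' + c k' → s ≤ s') ∧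
    BadT (s + c k' - c k - p0))

open Classical in
theorem spoil (Ws : ℕ → Prop) (BadT : ℕ → Prop) (c : ℕ → ℕ) (z p0 N1 K C1 span Wo T0 : ℕ)
    (hspan : ∀ k < K, ∀ k' < K, c k ≤ c k' + span)
    (hWo : 2 * span + 2 * N1 ≤ Wo)
    (hsep : ∀ s s', Ws s → Ws s' → s < s' → s + Wo < s')
    (hz : T0 + span + p0 ≤ z)
    (ruler : ∀ a a' d d', a < K → a' < K → d < K → d' < K → a ≠ a' → d ≠ d' →
      c a + c d' ≤ c a' + c d + 2 * N1 → c a' + c d ≤ c a + c d' + 2 * N1 → a = d ∧ a' = d')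
    (thin : ∀ T, T0 ≤ T → (((range K) ×ˢ (range K)).filter
      (fun q : ℕ × ℕ => q.1 ≠ q.2 ∧ BadT (T + p0 + c q.2 - c q.1 - p0))).card ≤ C1) :
    ((range K).filter (fun k => ∃ k' < K, k' ≠ k ∧ Ev Ws BadT c z p0 N1 k k')).card ≤
      1 + 2 * C1 := by
  classical
  set PE : Finset (ℕ × ℕ) := ((range K) ×ˢ (range K)).filter (fun q : ℕ × ℕ => q.1 ≠ q.2 ∧
    ∃ s, Ws s ∧ z + c q.1 ≤ s + c q.2 + N1 ∧ s + c q.2 ≤ z + c q.1 + N1) with hPE
  have hPEc : PE.card ≤ 1 := by
    rw [Finset.card_le_one]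
    intro q hq q' hq'
    rw [hPE, mem_filter, mem_product, mem_range, mem_range] at hq hq'
    obtain ⟨⟨h1, h2⟩, h3, s, hs, h4, h5⟩ := hq
    obtain ⟨⟨h1', h2'⟩, h3', s', hs', h4', h5'⟩ := hq'
    have e1 := hspan _ h1 _ h2
    have e2 := hspan _ h2 _ h1
    have e3 := hspan _ h1' _ h2'
    have e4 := hspan _ h2' _ h1'
    have hss : s = s' := by
      rcases lt_trichotomy s s' with h | h | h
      · have := hsep s s' hs hs' h; omega
      · exact h
      · have := hsep s' s hs' hs h; omega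
    subst hss
    have := ruler q.1 q.2 q'.1 q'.2 h1 h2 h1' h2' h3 h3' (by omega) (by omega)
    exact Prod.ext this.1 this.2
  -- candidates for the end wall
  have key : ∃ s1 s2 : ℕ, T0 + p0 ≤ s1 ∧ T0 + p0 ≤ s2 ∧ ∀ k < K, ∀ k' < K, ∀ s, Ws s →
      z + c k ≤ s + c k' → (∀ s', Ws s' → z + c k ≤ s' + c k' → s ≤ s') → s = s1 ∨ s = s2 := by
    by_cases hex : ∃ s, Ws s ∧ z ≤ s + span
    · set s1 := Nat.find hex with hs1
      have hs1s := Nat.find_spec hex
      rw [← hs1] at hs1s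
      by_cases hex2 : ∃ s, Ws s ∧ s1 < s
      · set s2 := Nat.find hex2 with hs2
        have hs2s := Nat.find_spec hex2
        rw [← hs2] at hs2s
        refine ⟨s1, s2, by omega, by omega, ?_⟩
        intro k hk k' hk' s hs h1 h2
        have e1 := hspan _ hk _ hk'
        have e2 := hspan _ hk' _ hk
        have h3 : s1 ≤ s := Nat.find_min' hex ⟨hs, by omega⟩
        rcases Nat.eq_or_lt_of_le h3 with h | h
        · exact Or.inl h.symm
        · right
          have h4 : s2 ≤ s := Nat.find_min' hex2 ⟨hs, h⟩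
          have h5 := hsep s1 s2 hs1s.1 hs2s.1 hs2s.2
          have h6 : s ≤ s2 := h2 s2 hs2s.1 (by omega)
          omega
      · refine ⟨s1, s1, by omega, by omega, ?_⟩
        intro k hk k' hk' s hs h1 h2
        have e1 := hspan _ hk _ hk'
        have e2 := hspan _ hk' _ hk
        have h3 : s1 ≤ s := Nat.find_min' hex ⟨hs, by omega⟩
        rcases Nat.eq_or_lt_of_le h3 with h | h
        · exact Or.inl h.symm
        · exact absurd ⟨s, hs, h⟩ hex2
    · refine ⟨T0 + p0, T0 + p0, le_rfl, le_rfl, ?_⟩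
      intro k hk k' hk' s hs h1 h2
      have e1 := hspan _ hk _ hk'
      have e2 := hspan _ hk' _ hk
      exact absurd ⟨s, hs, by omega⟩ hex
  obtain ⟨s1, s2, hs1, hs2, hkey⟩ := key
  set P : ℕ → Finset (ℕ × ℕ) := fun s => ((range K) ×ˢ (range K)).filter
      (fun q : ℕ × ℕ => q.1 ≠ q.2 ∧ BadT ((s - p0) + p0 + c q.2 - c q.1 - p0)) with hP
  have hPc : ∀ s, T0 + p0 ≤ s → (P s).card ≤ C1 := fun s hs => thin (s - p0) (by omega)
  have hsub : ((range K).filter (fun k => ∃ k' < K, k' ≠ k ∧ Ev Ws BadT c z p0 N1 k k')) ⊆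
      (PE ∪ (P s1 ∪ P s2)).image Prod.fst := by
    intro k hk
    rw [mem_filter, mem_range] at hk
    obtain ⟨hk, k', hk', hne, hev⟩ := hk
    rw [mem_image]
    refine ⟨(k, k'), ?_, rfl⟩
    rw [mem_union, mem_union]
    rcases hev with ⟨s, hs, h1, h2⟩ | ⟨s, hs, h1, h2, h3⟩
    · left
      rw [hPE, mem_filter, mem_product, mem_range, mem_range]
      exact ⟨⟨hk, hk'⟩, fun h => hne h.symm, s, hs, h1, h2⟩
    · right
      rcases hkey k hk k' hk' s hs h1 h2 with rfl | rfl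
      · left
        simp only [hP, mem_filter, mem_product, mem_range]
        refine ⟨⟨hk, hk'⟩, fun h => hne h.symm, ?_⟩
        rw [show s - p0 + p0 = s by omega]
        exact h3
      · right
        simp only [hP, mem_filter, mem_product, mem_range]
        refine ⟨⟨hk, hk'⟩, fun h => hne h.symm, ?_⟩
        rw [show s - p0 + p0 = s by omega]
        exact h3
  calc _ ≤ ((PE ∪ (P s1 ∪ P s2)).image Prod.fst).card := card_le_card hsub
    _ ≤ (PE ∪ (P s1 ∪ P s2)).card := card_image_le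
    _ ≤ PE.card + (P s1 ∪ P s2).card := card_union_le _ _
    _ ≤ PE.card + ((P s1).card + (P s2).card) := Nat.add_le_add_left (card_union_le _ _) _
    _ ≤ 1 + 2 * C1 := by
      have := hPc s1 hs1
      have := hPc s2 hs2
      omega

end Crest.Agent.R320.Cnt270
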