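import Crest.Agent.R320.Top_270
import Crest.Agent.R320.Cnt_270

/-!
# Row 320: the combinatorial statement `c2` of `Top270.top` (helper270)

Left-looking walls on ALL words, natural chain rule (first wall `≥ z`), gadget 1 = any gadget which is
sound for all words and complete off `BadT |u|`, gadget 2 = exact gadget on words of length `p0`.
-/

set_option autoImplicit false

namespace Crest.Agent.R320.C2_270

open Crest.Agent.R320.Hk_851 Crest.Agent.R320.Code110 Crest.Agent.R320.Top270

universe u

variable {α : Type u}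

/-- left-looking wall rule -/
structure LRule (W : List α → Prop) (n : ℕ) : Prop where
  pos : 0 < n
  app : ∀ P Q : List α, n ≤ Q.length → (W (P ++ Q) ↔ W Q)
  len : ∀ X, W X → n ≤ X.length

/-- zones -/
def Zb (W : List α → Prop) (z : ℕ) : Language α :=
  {X | W X ∧ z ≤ X.length ∧ ∀ t < X.length, z ≤ t → ¬ W (X.take t)}

theorem pc {W : List α → Prop} {n : ℕ} (hW : LRule W n) (z : ℕ) : PC (Zb W z) where
  ne := fun h => by have := hW.len _ h.1; have := hW.pos; simp at *; omega
  pf := by
    rintro u hu v hv ⟨w, rfl⟩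
    rcases List.eq_nil_or_concat w with rfl | ⟨w', a, rfl⟩
    · simp
    · exfalso
      refine hv.2.2 u.length ?_ hu.2.1 ?_
      · simp
      · rw [List.take_left']
        · exact hu.1
        · rfl

variable {V S : Type u} [AddCommGroup V]

/-- all data -/
structure Dat (W : List α → Prop) (V S : Type u) [AddCommGroup V] where
  n : ℕ
  rule : LRule W n
  z : ℕ
  p0 : ℕ
  N1 : ℕ
  φ : List α → S
  act : V → S → V
  lam1 : List α → Option V
  rho1 : List α → Option V
  nu1 : List α → V
  K : ℕ
  c : ℕ → ℕ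
  lam2 : ℕ → List α → Option V
  rho2 : ℕ → List α → Option V
  nu2 : List α → V

variable {W : List α → Prop} (D : Dat W V S)

/-- the noisy zone map -/
def tau (X : List α) (v : V) : V :=
  D.act (D.act v (D.φ (X.take D.p0)) + D.nu2 (X.take D.p0)) (D.φ (X.drop D.p0)) +
    D.nu1 (X.drop D.p0)

def L1 (v : V) : Language α :=
  {P | D.p0 ≤ P.length ∧
    D.lam1 (P.drop D.p0) = some (D.act v (D.φ (P.take D.p0)) + D.nu2 (P.take D.p0))}

def L2 (v : V) : Language α :=
  {P | ∃ k < D.K, P.length = D.c k ∧ D.lam2 k P = some v}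

/-- hypotheses of the gadgets -/
structure Ok : Prop where
  s1 : ∀ P Q v b, D.lam1 P = some v → D.rho1 Q = some b →
    b = D.act v (D.φ (P ++ Q)) + D.nu1 (P ++ Q)
  l1 : ∀ P v, D.lam1 P = some v → P.length ≤ D.N1
  s2 : ∀ k < D.K, ∀ P Q v b, P.length = D.c k → (P ++ Q).length = D.p0 → D.lam2 k P = some v →
    D.rho2 k Q = some b → b = D.act v (D.φ (P ++ Q)) + D.nu2 (P ++ Q)
  cle : ∀ k < D.K, D.c k ≤ D.p0
  z1 : D.p0 + D.N1 + D.n < D.z

theorem take_app {A B : List α} {t : ℕ} (h : A.length ≤ t) :
    (A ++ B).take t = A ++ B.take (t - A.length) := by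
  rw [List.take_append, List.take_of_length_le h]

/-- walls right of the left words -/
theorem wall_shift (hW : LRule W D.n) {A A' B : List α} {t : ℕ} (ht : D.n ≤ t) :
    W ((A ++ B).take (A.length + t)) → t ≤ B.length → W ((A' ++ B).take (A'.length + t)) := by
  intro h hB
  rw [take_app (by omega), Nat.add_sub_cancel_left] at h
  rw [take_app (by omega), Nat.add_sub_cancel_left]
  have hl : D.n ≤ (B.take t).length := by rw [List.length_take]; omega
  rw [hW.app _ _ hl] at h
  rw [hW.app _ _ hl]
  exact h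

/-- SCHEME 1 is complete at `u` -/
theorem good1 (hD : Ok D) {X : List α} (hX : X ∈ Zb W D.z)
    (hE : ¬ ∃ t ≤ X.length, W (X.take t) ∧ D.z ≤ t + D.N1 ∧ t ≤ D.z + D.N1)
    (hc : ∀ v, ∃ P Q, P ++ Q = X.drop D.p0 ∧ D.lam1 P = some v ∧ (D.rho1 Q).isSome) :
    X ∉ BadA (Zb W D.z) (tau D) (L1 D) := by
  rintro ⟨-, x, hx⟩
  apply hx
  have hz1 := hD.z1
  obtain ⟨hX1, hX2, hX3⟩ := hX
  have hX0 : D.z + D.N1 < X.length := by
    by_contra hcon
    exact hE ⟨X.length, le_rfl, by rw [List.take_length]; exact hX1, by omega, by omega⟩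
  obtain ⟨P, Q, hPQ, hP, hQ⟩ := hc (D.act x (D.φ (X.take D.p0)) + D.nu2 (X.take D.p0))
  obtain ⟨b, hb⟩ := Option.isSome_iff_exists.1 hQ
  have hPl := hD.l1 _ _ hP
  have hXe : X = (X.take D.p0 ++ P) ++ Q := by
    rw [List.append_assoc, hPQ, List.take_append_drop]
  have hl0 : (X.take D.p0).length = D.p0 := by rw [List.length_take]; omega
  have hlen : (X.take D.p0 ++ P).length = D.p0 + P.length := by rw [List.length_append, hl0]
  have hXl : X.length = D.p0 + P.length + Q.length := by
    conv_lhs => rw [hXe]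
    rw [List.length_append, hlen]
  refine ⟨X.take D.p0 ++ P, Q, b, hXe, ⟨by omega, ?_⟩, ?_⟩
  · rw [List.drop_left' hl0, List.take_left' hl0]
    exact hP
  · intro x' p' hp'
    left
    obtain ⟨hp1, hp2⟩ := hp'
    have hp3 := hD.l1 _ _ hp2
    rw [List.length_drop] at hp3
    have hmem : p' ++ Q ∈ Zb W D.z := by
      have hQn : D.n ≤ Q.length := by omega
      refine ⟨?_, ?_, ?_⟩
      · rw [D.rule.app _ _ hQn]
        rw [hXe, D.rule.app _ _ hQn] at hX1
        exact hX1
      · rw [List.length_append]; omega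
      · intro t ht1 ht2 hw
        rw [List.length_append] at ht1
        obtain ⟨r, hr⟩ := Nat.exists_eq_add_of_le (show p'.length ≤ t by omega)
        subst hr
        have h1 := wall_shift D D.rule (A := p') (A' := X.take D.p0 ++ P) (B := Q) (t := r)
          (by omega) hw (by omega)
        rw [← hXe, hlen] at h1
        by_cases hcase : D.z ≤ D.p0 + P.length + r
        · exact hX3 _ (by omega) hcase h1
        · exact hE ⟨_, by omega, h1, by omega, by omega⟩
    refine ⟨b, ?_⟩
    rw [Language.mem_mul]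
    refine ⟨p' ++ Q, ⟨hmem, ?_⟩, [], ⟨rfl, rfl⟩, by simp⟩
    have h2 : (p' ++ Q).take D.p0 = p'.take D.p0 := by
      rw [List.take_append_of_le_length hp1]
    have h3 : (p' ++ Q).drop D.p0 = p'.drop D.p0 ++ Q := by
      rw [List.drop_append_of_le_length hp1]
    show D.act (D.act x' (D.φ ((p' ++ Q).take D.p0)) + D.nu2 ((p' ++ Q).take D.p0))
      (D.φ ((p' ++ Q).drop D.p0)) + D.nu1 ((p' ++ Q).drop D.p0) = b
    rw [h2, h3]
    exact (hD.s1 _ _ _ _ hp2 hb).symm

open Classical in
/-- **c2** -/
theorem c2 (hD : Ok D) (BadT : ℕ → Prop) (span Wo T0 C1 R : ℕ)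
    (hsepW : ∀ (X : List α) t t', W (X.take t) → W (X.take t') → t < t' → t' ≤ X.length →
      t + Wo < t')
    (hc1 : ∀ Y : List α, T0 ≤ Y.length → ¬ BadT Y.length →
      ∀ v, ∃ P Q, P ++ Q = Y ∧ D.lam1 P = some v ∧ (D.rho1 Q).isSome)
    (hc2 : ∀ Y : List α, Y.length = D.p0 → ∀ v, ∃ I : Finset ℕ, R ≤ I.card ∧ ∀ k ∈ I, k < D.K ∧
      D.lam2 k (Y.take (D.c k)) = some v ∧ (D.rho2 k (Y.drop (D.c k))).isSome)
    (hR : 1 + 2 * C1 < R)
    (hspan : ∀ k < D.K, ∀ k' < D.K, D.c k ≤ D.c k' + span)
    (hWo : 2 * span + 2 * D.N1 ≤ Wo)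
    (hz : T0 + span + D.p0 + D.n ≤ D.z)
    (ruler : ∀ a a' d d', a < D.K → a' < D.K → d < D.K → d' < D.K → a ≠ a' → d ≠ d' →
      D.c a + D.c d' ≤ D.c a' + D.c d + 2 * D.N1 → D.c a' + D.c d ≤ D.c a + D.c d' + 2 * D.N1 →
      a = d ∧ a' = d')
    (thin : ∀ T, T0 ≤ T → (((Finset.range D.K) ×ˢ (Finset.range D.K)).filter
      (fun q : ℕ × ℕ => q.1 ≠ q.2 ∧ BadT (T + D.p0 + D.c q.2 - D.c q.1 - D.p0))).card ≤ C1) :
    ∀ u ∈ BadA (Zb W D.z) (tau D) (L1 D), ∀ x, ∀ t ∈ BadA (Zb W D.z) (tau D) (L1 D),
      ∃ p q y, u ++ t = p ++ q ∧ p ∈ L2 D x ∧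
        q ∈ Rsem (Zb W D.z) (BadA (Zb W D.z) (tau D) (L1 D)) (tau D) 1 (L2 D) y := by
  classical
  intro u hu x t ht
  have hz1 := hD.z1
  have huZ : u ∈ Zb W D.z := hu.1
  have htZ : t ∈ Zb W D.z := ht.1
  have hul := huZ.2.1
  have htl := htZ.2.1
  -- walls of u ++ t
  let Ws : ℕ → Prop := fun s => s ≤ (u ++ t).length ∧ W ((u ++ t).take s)
  have hcnt := Cnt270.spoil Ws BadT D.c D.z D.p0 D.N1 D.K C1 span Wo T0 hspan hWo
    (fun s s' hs hs' h => hsepW (u ++ t) s s' hs.2 hs'.2 h hs'.1) (by omega) ruler thin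
  have hXl : (u.take D.p0).length = D.p0 := by rw [List.length_take]; omega
  obtain ⟨I, hI, hI2⟩ := hc2 (u.take D.p0) hXl x
  have hex : ∃ k ∈ I, k ∉ (Finset.range D.K).filter
      (fun k => ∃ k' < D.K, k' ≠ k ∧ Cnt270.Ev Ws BadT D.c D.z D.p0 D.N1 k k') := by
    by_contra hcon
    push_neg at hcon
    have := Finset.card_le_card (fun k hk => hcon k hk)
    omega
  obtain ⟨k, hkI, hkS⟩ := hex
  obtain ⟨hkK, hlam, hrho⟩ := hI2 k hkI
  have hun : ∀ k' < D.K, k' ≠ k → ¬ Cnt270.Ev Ws BadT D.c D.z D.p0 D.N1 k k' := by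
    intro k' h1 h2 h3
    exact hkS (Finset.mem_filter.2 ⟨Finset.mem_range.2 hkK, k', h1, h2, h3⟩)
  have hck := hD.cle k hkK
  have hu1 : (u.take (D.c k)).length = D.c k := by rw [List.length_take]; omega
  have hut : u ++ t = u.take (D.c k) ++ (u.drop (D.c k) ++ t) := by
    rw [← List.append_assoc, List.take_append_drop]
  have htk : (u.take D.p0).take (D.c k) = u.take (D.c k) := by
    rw [List.take_take, min_eq_left hck]
  rw [htk] at hlam
  obtain ⟨b2, hb2⟩ := Option.isSome_iff_exists.1 hrho
  have hb2v : b2 = D.act x (D.φ (u.take D.p0)) + D.nu2 (u.take D.p0) := by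
    have := hD.s2 k hkK (u.take (D.c k)) ((u.take D.p0).drop (D.c k)) x b2 hu1 (by
      rw [← htk, List.take_append_drop]; exact hXl) hlam hb2
    rw [← htk, List.take_append_drop] at this
    exact this
  refine ⟨u.take (D.c k), u.drop (D.c k) ++ t, tau D t (tau D u x), hut, ⟨k, hkK, hu1, hlam⟩, ?_⟩
  intro x' p' hp'
  obtain ⟨k', hk', hpl, hlam'⟩ := hp'
  have hck' := hD.cle k' hk'
  set q : List α := u.drop (D.c k) ++ t with hq
  have hql : q.length = u.length - D.c k + t.length := by
    rw [hq, List.length_append, List.length_drop]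
  have hqn : D.n ≤ q.length := by omega
  by_cases hkk : k' = k
  · subst hkk
    -- same place
    set u' : List α := p' ++ u.drop (D.c k') with hu'
    have hu'l : u'.length = u.length := by
      rw [hu', List.length_append, List.length_drop, hpl]; omega
    have hwall : ∀ s, D.c k' + D.n ≤ s → s ≤ u.length → (W (u'.take s) ↔ W (u.take s)) := by
      intro s hs1 hs2
      obtain ⟨r, rfl⟩ := Nat.exists_eq_add_of_le (show D.c k' ≤ s by omega)
      have hud : (u.drop (D.c k')).length = u.length - D.c k' := List.length_drop ..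
      constructor
      · intro h
        have := wall_shift D D.rule (A := p') (A' := u.take (D.c k')) (B := u.drop (D.c k'))
          (t := r) (by omega) (by rw [hpl]; exact h) (by omega)
        rw [List.take_append_drop, hu1] at this
        exact this
      · intro h
        have := wall_shift D D.rule (A := u.take (D.c k')) (A' := p') (B := u.drop (D.c k'))
          (t := r) (by omega) (by rw [List.take_append_drop, hu1]; exact h) (by omega)
        rw [hpl] at this
        exact this
    have hu'Z : u' ∈ Zb W D.z := by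
      refine ⟨?_, by omega, ?_⟩
      · have := (hwall u.length (by omega) le_rfl).2 (by rw [List.take_length]; exact huZ.1)
        rw [← hu'l, List.take_length] at this
        exact this
      · intro s hs1 hs2 hw
        exact huZ.2.2 s (by omega) hs2 ((hwall s (by omega) (by omega)).1 hw)
    have hpq : p' ++ q = u' ++ t := by rw [hq, hu', List.append_assoc]
    by_cases hbad : u' ∈ BadA (Zb W D.z) (tau D) (L1 D)
    · left
      have htau : tau D u' x' = tau D u x := by
        have e1 : u'.take D.p0 = p' ++ (u.take D.p0).drop (D.c k') := by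
          rw [hu', take_app (by omega), hpl, List.drop_take]
        have e2 : u'.drop D.p0 = u.drop D.p0 := by
          rw [hu', List.drop_append, List.drop_of_length_le (by omega), List.nil_append,
            List.drop_drop, hpl]
          congr 1; omega
        have e3 := hD.s2 k' hk' p' ((u.take D.p0).drop (D.c k')) x' b2 hpl (by
          rw [List.length_append, List.length_drop, hXl, hpl]; omega) hlam' hb2
        unfold tau
        rw [e1, e2, ← e3, hb2v]
      show p' ++ q ∈ Exactly _ _ 2 x' (tau D t (tau D u x))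
      refine ⟨tau D u' x', ?_⟩
      rw [hpq]
      refine Language.mem_mul.2 ⟨u', ⟨hbad, rfl⟩, t, ?_, rfl⟩
      refine ⟨tau D t (tau D u' x'), Language.mem_mul.2 ⟨t, ⟨ht, rfl⟩, [], ⟨rfl, ?_⟩, by simp⟩⟩
      rw [htau]
    · right
      refine Or.inl ⟨u', hu'Z, hbad, ?_⟩
      rw [hpq]
      exact List.prefix_append _ _
  · -- another place
    right
    refine Or.inl ?_
    have hev := hun k' hk' hkk
    set w : List α := p' ++ q with hw
    have hwl : w.length = D.c k' + q.length := by rw [hw, List.length_append, hpl]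
    have hutl : (u ++ t).length = D.c k + q.length := by
      rw [hut, List.length_append, hu1]
    -- correspondence of walls
    have hcor : ∀ r, D.n ≤ r → r ≤ q.length → (W (w.take (D.c k' + r)) ↔
        W ((u ++ t).take (D.c k + r))) := by
      intro r hr1 hr2
      constructor
      · intro h
        have := wall_shift D D.rule (A := p') (A' := u.take (D.c k)) (B := q)
          (t := r) hr1 (by rw [hpl]; exact h) hr2
        rw [← hut, hu1] at this
        exact this
      · intro h
        have := wall_shift D D.rule (A := u.take (D.c k)) (A' := p') (B := q)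
          (t := r) hr1 (by rw [← hut, hu1]; exact h) hr2
        rw [hpl] at this
        exact this
    have hend : W (w.take w.length) := by
      rw [List.take_length, hw, D.rule.app _ _ hqn, hq, D.rule.app _ _ (by omega)]
      exact htZ.1
    have hex : ∃ s, D.z ≤ s ∧ s ≤ w.length ∧ W (w.take s) := ⟨w.length, by omega, le_rfl, hend⟩
    set t1 := Nat.find hex with ht1
    obtain ⟨ha, hb, hcw⟩ := Nat.find_spec hex
    rw [← ht1] at ha hb hcw
    have hmin : ∀ s, D.z ≤ s → s ≤ w.length → W (w.take s) → t1 ≤ s := fun s h1 h2 h3 =>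
      Nat.find_min' hex ⟨h1, h2, h3⟩
    have hvl : (w.take t1).length = t1 := by rw [List.length_take]; omega
    have hvZ : w.take t1 ∈ Zb W D.z := by
      refine ⟨hcw, by omega, ?_⟩
      intro s hs1 hs2 h
      rw [hvl] at hs1
      rw [List.take_take, min_eq_left (by omega)] at h
      have := hmin s hs2 (by omega) h
      omega
    refine ⟨w.take t1, hvZ, ?_, List.take_prefix _ _⟩
    apply good1 D hD hvZ
    · rintro ⟨s, hs1, hs2, hs3, hs4⟩
      rw [hvl] at hs1
      rw [List.take_take, min_eq_left hs1] at hs2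
      apply hev
      left
      obtain ⟨r, rfl⟩ := Nat.exists_eq_add_of_le (show D.c k' ≤ s by omega)
      refine ⟨D.c k + r, ⟨by omega, (hcor r (by omega) (by omega)).1 hs2⟩, by omega, by omega⟩
    · have hYl : ((w.take t1).drop D.p0).length = t1 - D.p0 := by
        rw [List.length_drop, hvl]
      refine hc1 _ (by rw [hYl]; omega) ?_
      rw [hYl]
      intro hB
      apply hev
      right
      obtain ⟨r, hr⟩ := Nat.exists_eq_add_of_le (show D.c k' ≤ t1 by omega)
      refine ⟨D.c k + r, ⟨by omega, (hcor r (by omega) (by omega)).1 (by rw [← hr]; exact hcw)⟩,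
        by omega, ?_, ?_⟩
      · rintro s ⟨hs1, hs2⟩ hs3
        by_cases hs4 : D.c k + D.n ≤ s
        · obtain ⟨r', rfl⟩ := Nat.exists_eq_add_of_le (show D.c k ≤ s by omega)
          have := hmin (D.c k' + r') (by omega) (by omega)
            ((hcor r' (by omega) (by omega)).2 hs2)
          omega
        · omega
      · have : D.c k + r + D.c k' - D.c k - D.p0 = t1 - D.p0 := by omega
        rw [this]
        exact hB

end Crest.Agent.R320.C2_270
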