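import Crest.Agent.R320.S12_449

/-!
Row 320 (helper449): the semantic completeness clauses `hcc1`, `hcc2` of `Top5_120.top5` for the data
`S12_449.Dat`.
-/

set_option autoImplicit false
set_option linter.unusedSectionVars false
set_option linter.unusedVariables false

namespace Crest.Agent.R320.S12_449

variable {α S V : Type*} [Monoid S] [AddCommGroup V] {D : Dat α S V}

theorem Dat.Ok.uniq (h : D.Ok) {X Y A B : List α} (hX : X ∈ D.XX) (hY : Y ∈ D.XX)
    (e : X ++ A = Y ++ B) : X = Y ∧ A = B := by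
  have h1 : X <+: Y ++ B := ⟨A, e⟩
  rcases List.prefix_or_prefix_of_prefix h1 (List.prefix_append Y B) with ⟨t, rfl⟩ | ⟨t, rfl⟩
  · have := h.prefix_code X hX t hY
    subst this
    simp at e ⊢
    exact e
  · have := h.prefix_code Y hY t hX
    subst this
    simp at e ⊢
    exact e

theorem Dat.Ok.s2' (h : D.Ok) : ∀ P v Q b, D.LP2 P v → D.R2 Q = some b →
    (∀ X ∈ D.XX, X <+: P ++ Q → D.BadX X) →
    ∃ Q1 X2, Q = Q1 ++ X2 ∧ P ++ Q1 ∈ D.XX ∧ X2 ∈ D.XX ∧
      D.T (D.T v (P ++ Q1)) X2 = b := by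
  classical
  intro P v Q b hL hR hno
  obtain ⟨k0, hk0, hP, hl⟩ := hL
  unfold Dat.R2 at hR
  split_ifs at hR with hex
  have hrel := hex.choose_spec
  rw [Option.some.injEq] at hR
  rw [hR] at hrel
  obtain ⟨k, hk, t, w, hfw, hbad, huni, hX2, hrho, hb⟩ := hrel
  have hz := h.hz
  have hc := h.hc k hk
  have hc0 := h.hc k0 hk0
  -- the true block
  have hQl : t ≤ Q.length := hfw.1
  have hdl : (Q.drop t).length = Q.length - t := List.length_drop
  have hWQ : D.Wo Q := by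
    have h1 : Q = Q.take t ++ Q.drop t := (List.take_append_drop _ _).symm
    rw [h1]
    have := hX2.1
    exact (h.hW _ _ (by omega)).2 hX2.2.1
  have hex0 : ∃ t0, D.z ≤ D.c k0 + t0 ∧ D.Wo (Q.take t0) :=
    ⟨Q.length, by have := hX2.1; omega, by rw [List.take_length]; exact hWQ⟩
  have ht0 : Nat.find hex0 ≤ Q.length :=
    Nat.find_min' hex0 ⟨by have := hX2.1; omega, by rw [List.take_length]; exact hWQ⟩
  obtain ⟨f1, f2⟩ := Nat.find_spec hex0
  have f3 : ∀ t' < Nat.find hex0, D.z ≤ D.c k0 + t' → ¬ D.Wo (Q.take t') :=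
    fun t' h1 h2 h3 => Nat.find_min hex0 h1 ⟨h2, h3⟩
  set t0 := Nat.find hex0 with ht0def
  have hX0 : P ++ Q.take t0 ∈ D.XX := by
    have hl0 : (Q.take t0).length = t0 := by rw [List.length_take]; omega
    refine ⟨by rw [List.length_append, hP, hl0]; exact f1, ?_, ?_⟩
    · exact (h.hW _ _ (by omega)).2 f2
    · intro s h1 h2
      rw [List.length_append, hP, hl0] at h2
      obtain ⟨s', rfl⟩ := Nat.exists_eq_add_of_le (show P.length ≤ s by omega)
      rw [h.wall (by omega) (by omega), List.take_take, min_eq_left (by omega)]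
      exact f3 s' (by omega) (by omega)
  have hbX : D.BadX (P ++ Q.take t0) :=
    hno _ hX0 ((List.prefix_append_right_inj P).2 (List.take_prefix _ _))
  have hQd : Q.take t0 ++ Q.drop t0 = Q := List.take_append_drop _ _
  obtain ⟨g1, g2⟩ := h.fw_of_mem (Q2 := Q.drop t0) hk0 hP hX0
  rw [hQd] at g1 g2
  have hkk : k0 = k := huni k0 hk0 (g2.2 hbX)
  subst hkk
  have htt : t = t0 := by
    have hl0 : (Q.take t0).length = t0 := by rw [List.length_take]; omega
    rw [hl0] at g1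
    rcases lt_trichotomy t t0 with h5 | h5 | h5
    · exact absurd hfw.2.2.1 (g1.2.2.2 t h5 hfw.2.1)
    · exact h5
    · exact absurd g1.2.2.1 (hfw.2.2.2 _ h5 g1.2.1)
  subst htt
  refine ⟨Q.take t0, Q.drop t0, hQd.symm, hX0, hX2, ?_⟩
  rw [hb]
  congr 1
  unfold Dat.T
  have hp0 : D.p0 - D.c k0 ≤ t0 := by omega
  have a1 : (P ++ Q.take t0).take D.p0 = P ++ Q.take (D.p0 - D.c k0) := by
    rw [List.take_append, List.take_of_length_le (by omega), List.take_take, hP,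
      min_eq_left hp0]
  have a2 : (P ++ Q.take t0).drop D.p0 = (Q.take t0).drop (D.p0 - D.c k0) := by
    rw [List.drop_append, List.drop_of_length_le (by omega), hP, List.nil_append]
  rw [a1, a2, ← h.e1 k0 hk _ _ _ _ hP hl hrho]

theorem Dat.Ok.c2 (h : D.Ok) : ∀ X ∈ D.XX, D.BadX X → ∀ X2 ∈ D.XX, ∀ v,
    (∃ P Q, X ++ X2 = P ++ Q ∧ P.length < X.length ∧ D.LP2 P v ∧ (D.R2 Q).isSome) := by
  classical
  intro X hX hb X2 hX2 v
  have hz := h.hz
  have hXl := hX.1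
  have htl : (X.take D.p0).length = D.p0 := by rw [List.length_take]; omega
  obtain ⟨I, hI, hI2⟩ := h.e2 (X.take D.p0) v (fun k hk => by rw [htl]; exact h.hc k hk)
  -- an unspoiled place
  obtain ⟨k, hkI, hgood⟩ : ∃ k ∈ I, ¬ ∃ k' < D.K, k' ≠ k ∧ D.BadQ k' ((X ++ X2).drop (D.c k)) := by
    by_contra hcon
    push Not at hcon
    have := h.sp X hX X2 hX2 hb I (fun k hk => ⟨(hI2 k hk).1, hcon k hk⟩)
    omega
  obtain ⟨hk, hl, hr⟩ := hI2 k hkI
  have hc := h.hc k hk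
  push Not at hgood
  have hPl : (X.take (D.c k)).length = D.c k := by rw [List.length_take]; omega
  have hd : (X ++ X2).drop (D.c k) = X.drop (D.c k) ++ X2 :=
    List.drop_append_of_le_length (by omega)
  have hXd : X.take (D.c k) ++ X.drop (D.c k) = X := List.take_append_drop _ _
  obtain ⟨g1, g2⟩ := h.fw_of_mem (P := X.take (D.c k)) (Q1 := X.drop (D.c k)) (Q2 := X2) hk hPl
    (by rw [hXd]; exact hX)
  rw [hXd] at g2
  refine ⟨X.take (D.c k), X.drop (D.c k) ++ X2, ?_, by rw [hPl]; omega, ⟨k, hk, hPl, ?_⟩, ?_⟩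
  · rw [← List.append_assoc, hXd]
  · rw [List.take_take, min_eq_left hc] at hl
    exact hl
  · obtain ⟨w, hw⟩ := Option.isSome_iff_exists.1 hr
    have hdl : (X.drop (D.c k)).length = X.length - D.c k := List.length_drop
    have hdrop : (X.drop (D.c k) ++ X2).drop (X.drop (D.c k)).length = X2 := List.drop_left' rfl
    have hrel : ∃ b, D.Rel (X.drop (D.c k) ++ X2) b := by
      refine ⟨_, k, hk, (X.drop (D.c k)).length, w, g1, g2.2 hb, ?_, ?_, ?_, rfl⟩
      · intro k' hk' hbk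
        by_contra hne
        rw [← hd] at hbk
        exact hgood k' hk' hne hbk
      · rw [hdrop]; exact hX2
      · have : (X.drop (D.c k) ++ X2).take (D.p0 - D.c k) = (X.take D.p0).drop (D.c k) := by
          rw [List.take_append_of_le_length (by omega), List.drop_take]
        rw [this]
        exact hw
    unfold Dat.R2
    rw [dif_pos hrel]
    rfl

theorem Dat.Ok.hcc1 (h : D.Ok) : ∀ X ∈ D.XX, ¬ D.BadX X → ∀ v, ∃ P Q, P ++ Q = X ∧ D.LP1 P v ∧
    ∀ x, ∀ P', D.LP1 P' x → P' ++ Q ∈ D.XX ∧ D.T x (P' ++ Q) = D.T v X := by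
  intro X hX hb v
  obtain ⟨P, Q, e, hP, hQ⟩ := h.c1 hX hb v
  obtain ⟨b, hQb⟩ := Option.isSome_iff_exists.1 hQ
  refine ⟨P, Q, e.symm, hP, fun x P' hP' => ?_⟩
  obtain ⟨a1, a2⟩ := h.s1 P' x Q b hP' hQb
  obtain ⟨b1, b2⟩ := h.s1 P v Q b hP hQb
  rw [← e] at b2
  exact ⟨a1, by rw [a2, b2]⟩

theorem Dat.Ok.hcc2 (h : D.Ok) : ∀ X ∈ D.XX, D.BadX X → ∀ Y ∈ D.XX, ∀ v,
    ∃ P Q, P ++ Q = X ++ Y ∧ D.LP2 P v ∧ ∀ x, ∀ P', D.LP2 P' x →
      (∃ X' ∈ D.XX, D.BadX X' ∧ ∃ Y' ∈ D.XX, X' ++ Y' = P' ++ Q ∧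
        D.T (D.T x X') Y' = D.T (D.T v X) Y) ∨
      (∃ X' ∈ D.XX, ¬ D.BadX X' ∧ X' <+: P' ++ Q) := by
  classical
  intro X hX hb Y hY v
  obtain ⟨P, Q, e, -, hP, hQ⟩ := h.c2 X hX hb Y hY v
  obtain ⟨b, hQb⟩ := Option.isSome_iff_exists.1 hQ
  refine ⟨P, Q, e.symm, hP, fun x P' hP' => ?_⟩
  have hv : D.T (D.T v X) Y = b := by
    obtain ⟨Q1, X2, e1, e2, e3, e4⟩ := h.s2' P v Q b hP hQb (by
      rintro X' hX' ⟨t, ht⟩
      rw [← e] at ht
      obtain ⟨rfl, -⟩ := h.uniq hX' hX ht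
      exact hb)
    subst e1
    rw [← List.append_assoc] at e
    obtain ⟨r1, r2⟩ := h.uniq hX e2 e
    rw [r1, r2]
    exact e4
  by_cases hall : ∀ X' ∈ D.XX, X' <+: P' ++ Q → D.BadX X'
  · left
    obtain ⟨Q1, X2, e1, e2, e3, e4⟩ := h.s2' P' x Q b hP' hQb hall
    subst e1
    refine ⟨P' ++ Q1, e2, hall _ e2 ?_, X2, e3, by rw [List.append_assoc], by rw [e4, hv]⟩
    rw [← List.append_assoc]
    exact List.prefix_append _ _
  · right
    push Not at hall
    obtain ⟨X', h1, h2, h3⟩ := hall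
    exact ⟨X', h1, h3, h2⟩

end Crest.Agent.R320.S12_449
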