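import Mathlib

/-!
# Row 320: the two completeness statements of the two-scheme proof (helper545)

All words, left-looking walls, natural chain rule, semantic right labels
(472 / 110 / 727), gadget for unknown length in the form of 772 (`UGI`),
exact gadget in the form of 237.
-/

set_option autoImplicit false

namespace Crest.Agent.R320.C2_545

variable {α : Type}

/-- the block code: first wall at a distance at least `z` -/
def XX (Wo : List α → Prop) (z : ℕ) : Set (List α) :=
  {X | z ≤ X.length ∧ Wo X ∧ ∀ t, z ≤ t → t < X.length → ¬ Wo (X.take t)}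

section walls
variable {Wo : List α → Prop} {n z : ℕ}

theorem take_ge (P Q : List α) (t : ℕ) (h : P.length ≤ t) :
    (P ++ Q).take t = P ++ Q.take (t - P.length) := by
  rw [List.take_append, List.take_of_length_le h]

/-- walls far right of the cut do not depend on the left word -/
theorem tr (hW : ∀ P Q : List α, n ≤ Q.length → (Wo (P ++ Q) ↔ Wo Q))
    (P P' Q : List α) (t t' : ℕ) (h : P'.length + n ≤ t) (ht : t ≤ P'.length + Q.length)
    (e : t + P.length = t' + P'.length) :
    Wo ((P' ++ Q).take t) ↔ Wo ((P ++ Q).take t') := by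
  rw [take_ge P' Q t (by omega), take_ge P Q t' (by omega)]
  have e1 : t' - P.length = t - P'.length := by omega
  rw [e1]
  have hl : n ≤ (Q.take (t - P'.length)).length := by
    rw [List.length_take]; omega
  rw [hW P' _ hl, hW P _ hl]

end walls

section code
variable {Wo : List α → Prop} {n z : ℕ} {V : Type}

/-- semantic right labels of scheme 1 -/
def R1 (C : Set (List α)) (T : V → List α → V) (L1 : V → Set (List α)) (y : V) : Set (List α) :=
  {Q | ∀ x, ∀ P ∈ L1 x, P ++ Q ∈ C ∧ T x (P ++ Q) = y}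

/-- blocks cut by scheme 1 for every token -/
def Good (C : Set (List α)) (T : V → List α → V) (L1 : V → Set (List α)) : Set (List α) :=
  {X | X ∈ C ∧ ∀ x, ∃ P ∈ L1 x, ∃ Q ∈ R1 C T L1 (T x X), P ++ Q = X}

def Bad (C : Set (List α)) (T : V → List α → V) (L1 : V → Set (List α)) : Set (List α) :=
  {X | X ∈ C ∧ X ∉ Good C T L1}

/-- semantic right labels of scheme 2 (one more block) -/
def R2 (C : Set (List α)) (T : V → List α → V) (L1 L2 : V → Set (List α)) (y : V) :
    Set (List α) :=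
  {Q | ∀ x, ∀ P ∈ L2 x,
    (∃ X1 ∈ Bad C T L1, ∃ X2 ∈ Bad C T L1, P ++ Q = X1 ++ X2 ∧ T (T x X1) X2 = y) ∨
    (∃ X ∈ Good C T L1, X <+: P ++ Q)}

end code

section main
variable {S V : Type} [Monoid S] [AddCommGroup V]

/-- the block map -/
def TT (f : α → S) (act : V → S → V) (nu1 nu2 : List α → V) (p0 : ℕ) (v : V) (X : List α) : V :=
  act (act v ((X.take p0).map f).prod + nu2 (X.take p0)) ((X.drop p0).map f).prod
    + nu1 (X.drop p0)

def LL1 (f : α → S) (act : V → S → V) (nu2 : List α → V) (lam : List α → Option V) (p0 : ℕ)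
    (v : V) : Set (List α) :=
  {P | p0 ≤ P.length ∧
    lam (P.drop p0) = some (act v ((P.take p0).map f).prod + nu2 (P.take p0))}

variable {f : α → S} {act : V → S → V} {nu1 nu2 : List α → V} {lam rho : List α → Option V}
  {Wo : List α → Prop} {n z p0 N1 La : ℕ} {B1 : ℕ → Prop}

theorem good_of
    (hW : ∀ P Q : List α, n ≤ Q.length → (Wo (P ++ Q) ↔ Wo Q))
    (hlam : ∀ p v, lam p = some v → p.length ≤ N1)
    (hsound : ∀ p q v r, lam p = some v → rho q = some r → La ≤ q.length →
      r = act v ((p ++ q).map f).prod + nu1 (p ++ q))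
    (hcomp : ∀ u : List α, La ≤ u.length → ¬ B1 u.length → ∀ v, ∃ p q, p ++ q = u ∧
      lam p = some v ∧ (rho q).isSome)
    (hz : p0 + N1 + N1 + n + La ≤ z)
    {X : List α} (hX : X ∈ XX Wo z)
    (hE : ∀ t, z ≤ t + N1 → t ≤ z + N1 → t ≤ X.length → ¬ Wo (X.take t))
    (hB : ¬ B1 (X.length - p0)) :
    X ∈ Good (XX Wo z) (TT f act nu1 nu2 p0) (LL1 f act nu2 lam p0) := by
  obtain ⟨hX1, hX2, hX3⟩ := hX
  have hlen : z + N1 < X.length := by
    by_contra h
    push Not at h
    refine hE X.length (by omega) h le_rfl ?_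
    rw [List.take_length]; exact hX2
  refine ⟨⟨hX1, hX2, hX3⟩, fun x => ?_⟩
  obtain ⟨p, q, e, hp, hq⟩ := hcomp (X.drop p0) (by rw [List.length_drop]; omega)
    (by rw [List.length_drop]; exact hB) (act x ((X.take p0).map f).prod + nu2 (X.take p0))
  have hpl := hlam p _ hp
  obtain ⟨b, hb⟩ := Option.isSome_iff_exists.1 hq
  have htl : (X.take p0).length = p0 := by rw [List.length_take]; omega
  have eX : (X.take p0 ++ p) ++ q = X := by
    rw [List.append_assoc, e, List.take_append_drop]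
  have hlq : X.length = p0 + p.length + q.length := by
    rw [← eX]; simp [htl]
    omega
  have hd : ∀ Y Z : List α, Y.length = p0 → (Y ++ Z).drop p0 = Z ∧ (Y ++ Z).take p0 = Y := by
    intro Y Z hY
    subst hY
    exact ⟨List.drop_left, List.take_left⟩
  have key : ∀ x', ∀ P' ∈ LL1 f act nu2 lam p0 x', P' ++ q ∈ XX Wo z ∧
      TT f act nu1 nu2 p0 x' (P' ++ q) = b := by
    rintro x' P' ⟨h1, h2⟩
    have hP'l := hlam _ _ h2
    rw [List.length_drop] at hP'l
    constructor
    · refine ⟨by rw [List.length_append]; omega, ?_, ?_⟩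
      · rw [hW P' q (by omega), ← hW (X.take p0 ++ p) q (by omega), eX]
        exact hX2
      · intro t ht1 ht2
        rw [List.length_append] at ht2
        have hlp : (X.take p0 ++ p).length = p0 + p.length := by
          rw [List.length_append, htl]
        rw [tr hW (X.take p0 ++ p) P' q t (t + (p0 + p.length) - P'.length) (by omega) (by omega)
          (by rw [hlp]; omega), eX]
        by_cases hzt : z ≤ t + (p0 + p.length) - P'.length
        · exact hX3 _ hzt (by omega)
        · exact hE _ (by omega) (by omega) (by omega)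
    · have hP0 : (P'.take p0).length = p0 := by rw [List.length_take]; omega
      have e2 : P' ++ q = P'.take p0 ++ (P'.drop p0 ++ q) := by
        rw [← List.append_assoc, List.take_append_drop]
      unfold TT
      rw [e2, (hd (P'.take p0) (P'.drop p0 ++ q) hP0).1,
        (hd (P'.take p0) (P'.drop p0 ++ q) hP0).2]
      exact (hsound _ _ _ _ h2 hb (by omega)).symm
  have hPX : X.take p0 ++ p ∈ LL1 f act nu2 lam p0 x := by
    refine ⟨by rw [List.length_append, htl]; omega, ?_⟩
    rw [(hd (X.take p0) p htl).1, (hd (X.take p0) p htl).2]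
    exact hp
  refine ⟨X.take p0 ++ p, hPX, q, ?_, eX⟩
  have hb' : TT f act nu1 nu2 p0 x X = b := by
    have := (key x _ hPX).2
    rwa [eX] at this
  rw [hb']
  exact key


def LL2 (lam2 : ℕ → List α → Option V) (c : ℕ → ℕ) (K : ℕ) (v : V) : Set (List α) :=
  {P | ∃ k < K, P.length = c k ∧ lam2 k P = some v}

theorem c2 {K C0 W : ℕ} {c : ℕ → ℕ} {lam2 rho2 : ℕ → List α → Option V}
    (hW : ∀ P Q : List α, n ≤ Q.length → (Wo (P ++ Q) ↔ Wo Q))
    (hgap : ∀ (P : List α) (d : ℕ), Wo P → 0 < d → d ≤ W → ¬ Wo (P.take (P.length - d)))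
    (hlam : ∀ p v, lam p = some v → p.length ≤ N1)
    (hsound : ∀ p q v r, lam p = some v → rho q = some r → La ≤ q.length →
      r = act v ((p ++ q).map f).prod + nu1 (p ++ q))
    (hcomp : ∀ u : List α, La ≤ u.length → ¬ B1 u.length → ∀ v, ∃ p q, p ++ q = u ∧
      lam p = some v ∧ (rho q).isSome)
    (hcp : ∀ k < K, c k ≤ p0) (hWp : 2 * p0 + 2 * N1 ≤ W)
    (hz : 3 * p0 + 2 * N1 + n + La + 1 ≤ z)
    (hs2 : ∀ k < K, ∀ (P Q : List α) (v b : V), P.length = c k → lam2 k P = some v →
      rho2 k Q = some b → b = act v ((P ++ Q).map f).prod + nu2 (P ++ Q))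
    (hc2 : ∀ (u : List α) (v : V), (∀ k < K, c k ≤ u.length) → ∃ I : Finset ℕ,
      2 + 2 * C0 ≤ I.card ∧ ∀ k ∈ I, k < K ∧ lam2 k (u.take (c k)) = some v ∧
        (rho2 k (u.drop (c k))).isSome)
    (hr : ∀ i j k l, i < K → j < K → k < K → l < K → i ≠ j → k ≠ l → (i, j) ≠ (k, l) →
      c i + c l + 4 * N1 < c k + c j ∨ c k + c j + 4 * N1 < c i + c l)
    (hsp : ∀ T, La ≤ T → ∀ F : Finset (ℕ × ℕ), (∀ ij ∈ F, ij.1 < K ∧ ij.2 < K ∧ ij.1 ≠ ij.2 ∧
      B1 (T + c ij.2 - c ij.1)) → F.card ≤ C0)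
    (X1 : List α) (h1 : X1 ∈ Bad (XX Wo z) (TT f act nu1 nu2 p0) (LL1 f act nu2 lam p0))
    (X2 : List α) (h2 : X2 ∈ Bad (XX Wo z) (TT f act nu1 nu2 p0) (LL1 f act nu2 lam p0))
    (x : V) :
    ∃ P ∈ LL2 lam2 c K x, ∃ Q ∈ R2 (XX Wo z) (TT f act nu1 nu2 p0) (LL1 f act nu2 lam p0)
      (LL2 lam2 c K) (TT f act nu1 nu2 p0 (TT f act nu1 nu2 p0 x X1) X2), P ++ Q = X1 ++ X2 := by
  classical
  obtain ⟨⟨hX1, hX1w, hX1n⟩, hb1⟩ := h1
  have h2' := h2
  obtain ⟨⟨hX2, hX2w, hX2n⟩, hb2⟩ := h2'
  -- walls of the text `X1 ++ X2`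
  have gapZ : ∀ s t, s < t → t ≤ (X1 ++ X2).length → Wo ((X1 ++ X2).take s) →
      Wo ((X1 ++ X2).take t) → s + W < t := by
    intro s t hst ht hs ht'
    by_contra h
    refine hgap _ (t - s) ht' (by omega) (by omega) ?_
    have hl : ((X1 ++ X2).take t).length = t := by rw [List.length_take]; omega
    rw [hl, List.take_take, show min (t - (t - s)) t = s by omega]
    exact hs
  have hLen : (X1 ++ X2).length = X1.length + X2.length := List.length_append
  have wb1 : Wo ((X1 ++ X2).take X1.length) := by rw [List.take_left]; exact hX1w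
  have wL : Wo ((X1 ++ X2).take (X1 ++ X2).length) := by
    rw [List.take_length, hW X1 X2 (by omega)]; exact hX2w
  have ex0 : ∃ t, z ≤ t + p0 ∧ Wo ((X1 ++ X2).take t) := ⟨X1.length, by omega, wb1⟩
  have ht0b : Nat.find ex0 ≤ X1.length := Nat.find_le ⟨by omega, wb1⟩
  obtain ⟨h01, h02⟩ := Nat.find_spec ex0
  have h0m : ∀ t, t < Nat.find ex0 → z ≤ t + p0 → ¬ Wo ((X1 ++ X2).take t) :=
    fun t ht hz' hw => Nat.find_min ex0 ht ⟨hz', hw⟩
  generalize Nat.find ex0 = t0 at *
  have ex1 : ∃ t, t0 < t ∧ Wo ((X1 ++ X2).take t) := ⟨(X1 ++ X2).length, by omega, wL⟩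
  have ht1L : Nat.find ex1 ≤ (X1 ++ X2).length := Nat.find_le ⟨by omega, wL⟩
  obtain ⟨h11, h12⟩ := Nat.find_spec ex1
  have h1m : ∀ t, t < Nat.find ex1 → t0 < t → ¬ Wo ((X1 ++ X2).take t) :=
    fun t ht hz' hw => Nat.find_min ex1 ht ⟨hz', hw⟩
  generalize Nat.find ex1 = t1 at *
  have hg01 : t0 + W < t1 := gapZ t0 t1 h11 ht1L h02 h12
  -- spoiled pairs
  let PP : Finset (ℕ × ℕ) := (Finset.range K) ×ˢ (Finset.range K)
  let A1 := PP.filter fun ij => ij.1 ≠ ij.2 ∧ ∃ s, s ≤ (X1 ++ X2).length ∧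
    Wo ((X1 ++ X2).take s) ∧ z + c ij.1 ≤ s + c ij.2 + N1 ∧ s + c ij.2 ≤ z + c ij.1 + N1
  let A2 := PP.filter fun ij => ij.1 ≠ ij.2 ∧ B1 (t0 - p0 + c ij.2 - c ij.1)
  let A3 := PP.filter fun ij => ij.1 ≠ ij.2 ∧ B1 (t1 - p0 + c ij.2 - c ij.1)
  have hPP : ∀ ij ∈ PP, ij.1 < K ∧ ij.2 < K := by
    intro ij h
    have := Finset.mem_product.1 h
    exact ⟨Finset.mem_range.1 this.1, Finset.mem_range.1 this.2⟩
  have cA1 : A1.card ≤ 1 := by
    refine Finset.card_le_one.2 ?_
    rintro ⟨i, j⟩ ha ⟨k, l⟩ hb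
    obtain ⟨ha1, ha2, s, hs1, hs2', hs3, hs4⟩ := Finset.mem_filter.1 ha
    obtain ⟨hb1', hb2', s', hs1', hs2'', hs3', hs4'⟩ := Finset.mem_filter.1 hb
    obtain ⟨hi, hj⟩ := hPP _ ha1
    obtain ⟨hk, hl⟩ := hPP _ hb1'
    simp only at hs3 hs4 hs3' hs4' hi hj hk hl ha2 hb2'
    have ci := hcp i hi
    have cj := hcp j hj
    have ck := hcp k hk
    have cl := hcp l hl
    have hss : s = s' := by
      rcases lt_trichotomy s s' with h | h | h
      · have := gapZ s s' h hs1' hs2' hs2''; omega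
      · exact h
      · have := gapZ s' s h hs1 hs2'' hs2'; omega
    subst hss
    by_contra hne
    rcases hr i j k l hi hj hk hl ha2 hb2' hne with h | h <;> omega
  have cA2 : A2.card ≤ C0 := hsp (t0 - p0) (by omega) A2 fun ij h => by
    obtain ⟨g1, g2, g3⟩ := Finset.mem_filter.1 h
    exact ⟨(hPP _ g1).1, (hPP _ g1).2, g2, g3⟩
  have cA3 : A3.card ≤ C0 := hsp (t1 - p0) (by omega) A3 fun ij h => by
    obtain ⟨g1, g2, g3⟩ := Finset.mem_filter.1 h
    exact ⟨(hPP _ g1).1, (hPP _ g1).2, g2, g3⟩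
  -- the exact gadget on the first `p0` letters
  have hul : (X1.take p0).length = p0 := by rw [List.length_take]; omega
  obtain ⟨I, hI, hI2⟩ := hc2 (X1.take p0) x (fun k hk => by rw [hul]; exact hcp k hk)
  have hcard : ((A1 ∪ A2 ∪ A3).image Prod.fst).card < I.card := by
    have e1 := Finset.card_image_le (s := A1 ∪ A2 ∪ A3) (f := Prod.fst)
    have e2 := Finset.card_union_le (A1 ∪ A2) A3
    have e3 := Finset.card_union_le A1 A2
    omega
  obtain ⟨k, hkI, hkn⟩ := Finset.exists_mem_notMem_of_card_lt_card hcard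
  obtain ⟨hkK, hkl, hkr⟩ := hI2 k hkI
  obtain ⟨b, hb⟩ := Option.isSome_iff_exists.1 hkr
  have hck := hcp k hkK
  have hns : ∀ k', k' < K → k ≠ k' → (k, k') ∉ A1 ∧ (k, k') ∉ A2 ∧ (k, k') ∉ A3 := by
    intro k' _ _
    refine ⟨fun h => hkn ?_, fun h => hkn ?_, fun h => hkn ?_⟩
    · exact Finset.mem_image.2 ⟨(k, k'), by simp [h], rfl⟩
    · exact Finset.mem_image.2 ⟨(k, k'), by simp [h], rfl⟩
    · exact Finset.mem_image.2 ⟨(k, k'), by simp [h], rfl⟩
  have eP : (X1.take p0).take (c k) = X1.take (c k) := by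
    rw [List.take_take, min_eq_left hck]
  have hPl : (X1.take (c k)).length = c k := by rw [List.length_take]; omega
  have hZ : X1.take (c k) ++ (X1.drop (c k) ++ X2) = X1 ++ X2 := by
    rw [← List.append_assoc, List.take_append_drop]
  refine ⟨X1.take (c k), ⟨k, hkK, hPl, by rw [← eP]; exact hkl⟩, X1.drop (c k) ++ X2, ?_, hZ⟩
  rintro x' P' ⟨k', hk', hP'l, hP'v⟩
  have hck' := hcp k' hk'
  by_cases hkk : k = k'
  · -- the true place
    subst hkk
    have hd : ∀ Y Z : List α, Y.length = p0 → (Y ++ Z).drop p0 = Z ∧ (Y ++ Z).take p0 = Y := by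
      intro Y Z hY
      subst hY
      exact ⟨List.drop_left, List.take_left⟩
    have hl1 : (P' ++ (X1.take p0).drop (c k)).length = p0 := by
      rw [List.length_append, List.length_drop, hul, hP'l]; omega
    have e1 : X1.drop (c k) = (X1.take p0).drop (c k) ++ X1.drop p0 := by
      conv_lhs => rw [← List.take_append_drop p0 X1]
      rw [List.drop_append_of_le_length (by rw [hul]; exact hck)]
    have eT : TT f act nu1 nu2 p0 x' (P' ++ X1.drop (c k)) = TT f act nu1 nu2 p0 x X1 := by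
      unfold TT
      rw [e1, ← List.append_assoc, (hd _ (X1.drop p0) hl1).1, (hd _ (X1.drop p0) hl1).2,
        ← hs2 k hkK P' _ x' b hP'l hP'v hb]
      have g := hs2 k hkK ((X1.take p0).take (c k)) _ x b (by rw [eP, hPl]) hkl hb
      rw [List.take_append_drop] at g
      rw [← g]
    have hXX : P' ++ X1.drop (c k) ∈ XX Wo z := by
      have hln : (P' ++ X1.drop (c k)).length = X1.length := by
        rw [List.length_append, List.length_drop, hP'l]; omega
      refine ⟨by rw [hln]; exact hX1, ?_, ?_⟩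
      · rw [hW P' _ (by rw [List.length_drop]; omega),
          ← hW (X1.take (c k)) _ (by rw [List.length_drop]; omega), List.take_append_drop]
        exact hX1w
      · intro t ht1 ht2
        rw [hln] at ht2
        rw [tr hW (X1.take (c k)) P' (X1.drop (c k)) t t (by omega)
          (by rw [List.length_drop]; omega) (by rw [hPl, hP'l]), List.take_append_drop]
        exact hX1n t ht1 ht2
    by_cases hg : P' ++ X1.drop (c k) ∈ Good (XX Wo z) (TT f act nu1 nu2 p0)
        (LL1 f act nu2 lam p0)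
    · right
      exact ⟨_, hg, ⟨X2, by rw [List.append_assoc]⟩⟩
    · left
      exact ⟨_, ⟨hXX, hg⟩, X2, h2, by rw [List.append_assoc], by rw [eT]⟩
  · -- a wrong place: the first block is good
    right
    obtain ⟨n1, n2, n3⟩ := hns k' hk' hkk
    have hmem : (k, k') ∈ PP := Finset.mem_product.2
      ⟨Finset.mem_range.2 hkK, Finset.mem_range.2 hk'⟩
    have m1 : ∀ s, s ≤ (X1 ++ X2).length → Wo ((X1 ++ X2).take s) →
        z + c k ≤ s + c k' + N1 → s + c k' ≤ z + c k + N1 → False := by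
      intro s a1 a2 a3 a4
      exact n1 (Finset.mem_filter.2 ⟨hmem, hkk, s, a1, a2, a3, a4⟩)
    have m2 : ¬ B1 (t0 - p0 + c k' - c k) := fun h => n2 (Finset.mem_filter.2 ⟨hmem, hkk, h⟩)
    have m3 : ¬ B1 (t1 - p0 + c k' - c k) := fun h => n3 (Finset.mem_filter.2 ⟨hmem, hkk, h⟩)
    obtain ⟨w, hwL, hww, hw1, hw2, hw3⟩ : ∃ w, w ≤ (X1 ++ X2).length ∧
        Wo ((X1 ++ X2).take w) ∧ z + c k ≤ w + c k' ∧
        (∀ t, z + c k ≤ t + c k' → t < w → ¬ Wo ((X1 ++ X2).take t)) ∧
        ¬ B1 (w - p0 + c k' - c k) := by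
      by_cases h : z + c k ≤ t0 + c k'
      · exact ⟨t0, by omega, h02, h, fun t a1 a2 => h0m t a2 (by omega), m2⟩
      · exact ⟨t1, ht1L, h12, by omega, fun t a1 a2 => h1m t a2 (by omega), m3⟩
    have hQl : (X1.drop (c k) ++ X2).length = X1.length + X2.length - c k := by
      rw [List.length_append, List.length_drop]; omega
    have trw : ∀ t, P'.length + n ≤ t → t ≤ P'.length + (X1.drop (c k) ++ X2).length →
        (Wo ((P' ++ (X1.drop (c k) ++ X2)).take t) ↔
          Wo ((X1 ++ X2).take (t + c k - c k'))) := by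
      intro t a1 a2
      rw [tr hW (X1.take (c k)) P' (X1.drop (c k) ++ X2) t (t + c k - c k') a1 a2
        (by rw [hPl, hP'l]; omega), hZ]
    have hYl : ((P' ++ (X1.drop (c k) ++ X2)).take (w + c k' - c k)).length =
        w + c k' - c k := by
      rw [List.length_take, List.length_append, hP'l, hQl]; omega
    have hYt : ∀ t, t ≤ w + c k' - c k →
        ((P' ++ (X1.drop (c k) ++ X2)).take (w + c k' - c k)).take t =
          (P' ++ (X1.drop (c k) ++ X2)).take t := by
      intro t ht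
      rw [List.take_take, min_eq_left ht]
    refine ⟨(P' ++ (X1.drop (c k) ++ X2)).take (w + c k' - c k), ?_, List.take_prefix _ _⟩
    refine good_of (n := n) (N1 := N1) (La := La) (B1 := B1) (rho := rho) hW hlam hsound hcomp
      (by omega) ⟨by rw [hYl]; omega, ?_, ?_⟩ ?_ ?_
    · rw [trw _ (by rw [hP'l]; omega) (by rw [hP'l, hQl]; omega),
        show w + c k' - c k + c k - c k' = w by omega]
      exact hww
    · intro t a1 a2
      rw [hYl] at a2
      rw [hYt t (by omega), trw _ (by rw [hP'l]; omega) (by rw [hP'l, hQl]; omega)]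
      exact hw2 _ (by omega) (by omega)
    · intro t a1 a2 a3
      rw [hYl] at a3
      rw [hYt t a3, trw _ (by rw [hP'l]; omega) (by rw [hP'l, hQl]; omega)]
      exact fun h => m1 _ (by omega) h (by omega) (by omega)
    · rw [hYl]
      intro h
      apply hw3
      have : w + c k' - c k - p0 = w - p0 + c k' - c k := by omega
      rwa [this] at h

end main

end Crest.Agent.R320.C2_545
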