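import Crest.Agent.R320.Top_270

/-!
# Row 320: the combinatorial hypothesis `c2` of `Top_270.top` from the two gadgets (helper626)
-/

set_option autoImplicit false

namespace Crest.Agent.R320.C2_626

open Crest.Agent.R320.Hk_851 Crest.Agent.R320.Code110 Crest.Agent.R320.Top270

universe u

/-- All data of the two schemes over a left-looking wall rule `Wo`. -/
structure Dat (α V S : Type u) [Monoid S] [AddCommGroup V] where
  φ : List α → S
  act : V → S → V
  Wo : List α → Prop
  n : ℕ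
  W : ℕ
  N1 : ℕ
  z0 : ℕ
  p0 : ℕ
  C : ℕ
  K : ℕ
  R : ℕ
  C0 : ℕ
  c : ℕ → ℕ
  BadT : ℕ → Prop
  lam1 : List α → Option V
  rho1 : List α → Option V
  nu1 : List α → V
  lam2 : ℕ → List α → Option V
  rho2 : ℕ → List α → Option V
  nu2 : List α → V

variable {α V S : Type u} [Monoid S] [AddCommGroup V]

/-- the zones -/
def Dat.Zb (D : Dat α V S) : Language α :=
  {u | D.Wo u ∧ D.z0 ≤ u.length ∧ ∀ t, D.z0 ≤ t → t < u.length → ¬ D.Wo (u.take t)}

/-- the zone map -/
def Dat.tau (D : Dat α V S) (u : List α) (v : V) : V :=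
  D.act (D.act v (D.φ (u.take D.p0)) + D.nu2 (u.take D.p0)) (D.φ (u.drop D.p0)) +
    D.nu1 (u.drop D.p0)

def Dat.L1 (D : Dat α V S) (x : V) : Language α :=
  {p | D.p0 ≤ p.length ∧
    D.lam1 (p.drop D.p0) = some (D.act x (D.φ (p.take D.p0)) + D.nu2 (p.take D.p0))}

def Dat.L2 (D : Dat α V S) (x : V) : Language α :=
  {p | ∃ k < D.K, p.length = D.c k ∧ D.lam2 k p = some x}

open Classical in
/-- the hypotheses -/
structure Dat.Ok (D : Dat α V S) : Prop where
  loc : ∀ P Q : List α, D.n ≤ Q.length → (D.Wo (P ++ Q) ↔ D.Wo Q)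
  gap : ∀ (P : List α) (d : ℕ), D.Wo P → 0 < d → d ≤ D.W → d ≤ P.length →
    ¬ D.Wo (P.take (P.length - d))
  len1 : ∀ P v, D.lam1 P = some v → P.length < D.N1
  snd1 : ∀ P Q v v', D.lam1 P = some v → D.rho1 Q = some v' →
    v' = D.act v (D.φ (P ++ Q)) + D.nu1 (P ++ Q)
  cpl1 : ∀ X : List α, D.z0 ≤ D.p0 + X.length → ¬ D.BadT X.length →
    ∀ v, ∃ P Q, P ++ Q = X ∧ D.lam1 P = some v ∧ (D.rho1 Q).isSome
  snd2 : ∀ k < D.K, ∀ (P Q : List α) (v b : V), P.length = D.c k → D.lam2 k P = some v →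
    D.rho2 k Q = some b → b = D.act v (D.φ (P ++ Q)) + D.nu2 (P ++ Q)
  cpl2 : ∀ (X : List α) (v : V), (∀ k < D.K, D.c k ≤ X.length) →
    ∃ I : Finset ℕ, D.R ≤ I.card ∧ ∀ k ∈ I, k < D.K ∧ D.lam2 k (X.take (D.c k)) = some v ∧
      (D.rho2 k (X.drop (D.c k))).isSome
  cC : ∀ k < D.K, D.c k ≤ D.C
  Cp : D.C ≤ D.p0
  z0_ge : D.p0 + 2 * D.N1 + D.n + 2 * D.C ≤ D.z0
  W_ge : 2 * D.C + 2 * D.N1 < D.W
  R_ge : 1 + 2 * D.C0 < D.R
  gol : ∀ i < D.K, ∀ j < D.K, ∀ i' < D.K, ∀ j' < D.K, i ≠ j → i' ≠ j' → (i, j) ≠ (i', j') →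
    (2 * D.N1 : ℤ) < |((D.c i : ℤ) - D.c j) - ((D.c i' : ℤ) - D.c j')|
  spoil : ∀ T : ℕ, D.C ≤ T → ((Finset.range D.K ×ˢ Finset.range D.K).filter
    (fun ab => ab.1 ≠ ab.2 ∧ D.BadT (T + D.c ab.2 - D.c ab.1))).card ≤ D.C0

namespace Dat

variable {D : Dat α V S}

/-- transfer of walls between two texts with a common right part -/
theorem Ok.tr (h : D.Ok) (p p' q : List α) (s : ℕ) (hs : D.n ≤ s) (hq : s ≤ q.length) :
    D.Wo ((p ++ q).take (p.length + s)) ↔ D.Wo ((p' ++ q).take (p'.length + s)) := by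
  rw [List.take_length_add_append, List.take_length_add_append, h.loc _ _ (by simp; omega),
    h.loc _ _ (by simp; omega)]

/-- the tail decides whether a word is a zone -/
theorem Ok.zone_tr (h : D.Ok) {p p' q : List α} (hp : p.length = p'.length)
    (hpn : p.length + D.n ≤ D.z0) (hz : p ++ q ∈ D.Zb) : p' ++ q ∈ D.Zb := by
  obtain ⟨h1, h2, h3⟩ := hz
  rw [List.length_append] at h2
  refine ⟨?_, by rw [List.length_append]; omega, ?_⟩
  · rw [h.loc _ _ (by omega)] at h1 ⊢
    exact h1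
  · intro t ht1 ht2 ht3
    rw [List.length_append] at ht2
    obtain ⟨s, rfl⟩ := Nat.exists_eq_add_of_le (show p'.length ≤ t by omega)
    rw [h.tr p' p q s (by omega) (by omega)] at ht3
    exact h3 (p.length + s) (by omega) (by rw [List.length_append]; omega) ht3

/-- zones off (E) and (B) are cut by scheme 1 -/
theorem Ok.cutA (h : D.Ok) {u : List α} (hu : u ∈ D.Zb)
    (hE : ∀ t, D.z0 ≤ t + D.N1 → t < D.z0 + D.N1 → t ≤ u.length → ¬ D.Wo (u.take t))
    (hB : ¬ D.BadT (u.length - D.p0)) : u ∉ BadA D.Zb D.tau D.L1 := by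
  rintro ⟨-, x, hx⟩
  apply hx
  have hz0 := h.z0_ge
  obtain ⟨hu1, hu2, hu3⟩ := hu
  have hlen : D.z0 + D.N1 ≤ u.length := by
    by_contra hlt
    have := hE u.length (by omega) (by omega) le_rfl
    rw [List.take_length] at this
    exact this hu1
  have hdl : (u.drop D.p0).length = u.length - D.p0 := List.length_drop
  obtain ⟨P, Q, hPQ, hP, hQ⟩ := h.cpl1 (u.drop D.p0) (by rw [hdl]; omega) (by rw [hdl]; exact hB)
    (D.act x (D.φ (u.take D.p0)) + D.nu2 (u.take D.p0))
  obtain ⟨r, hr⟩ := Option.isSome_iff_exists.1 hQ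
  have hPl := h.len1 P _ hP
  have htl : (u.take D.p0).length = D.p0 := by rw [List.length_take]; omega
  have hsplit : u = (u.take D.p0 ++ P) ++ Q := by
    rw [List.append_assoc, hPQ, List.take_append_drop]
  have hlPQ : P.length + Q.length = u.length - D.p0 := by
    rw [← List.length_append, hPQ, hdl]
  refine ⟨u.take D.p0 ++ P, Q, r, hsplit, ⟨?_, ?_⟩, ?_⟩
  · rw [List.length_append]; omega
  · rw [List.drop_append_of_le_length (by omega), List.take_append_of_le_length (by omega),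
      List.drop_eq_nil_of_le (by omega), List.nil_append, List.take_of_length_le (by omega)]
    exact hP
  · rintro x2 p2 ⟨hp2, hp2'⟩
    left
    have hl2 := h.len1 _ _ hp2'
    rw [List.length_drop] at hl2
    refine ⟨r, ?_⟩
    refine Language.mem_mul.2 ⟨p2 ++ Q, ⟨?_, ?_⟩, [], ⟨rfl, rfl⟩, List.append_nil _⟩
    · refine ⟨?_, by rw [List.length_append]; omega, ?_⟩
      · rw [h.loc _ _ (by omega)]
        rw [hsplit, h.loc _ _ (by omega)] at hu1
        exact hu1
      · intro t ht1 ht2 ht3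
        rw [List.length_append] at ht2
        obtain ⟨s, rfl⟩ := Nat.exists_eq_add_of_le (show p2.length ≤ t by omega)
        rw [h.tr p2 (u.take D.p0 ++ P) Q s (by omega) (by omega), ← hsplit] at ht3
        have hl3 : (u.take D.p0 ++ P).length = D.p0 + P.length := by
          rw [List.length_append, htl]
        rw [hl3] at ht3
        by_cases hlt : D.z0 ≤ D.p0 + P.length + s
        · exact hu3 _ hlt (by omega) ht3
        · exact hE _ (by omega) (by omega) (by omega) ht3
    · have e1 : (p2 ++ Q).take D.p0 = p2.take D.p0 := List.take_append_of_le_length hp2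
      have e2 : (p2 ++ Q).drop D.p0 = p2.drop D.p0 ++ Q := List.drop_append_of_le_length hp2
      show D.tau (p2 ++ Q) x2 = r
      rw [Dat.tau, e1, e2]
      exact (h.snd1 _ _ _ _ hp2' hr).symm

open Classical in
/-- **the hypothesis `c2` of `Top_270.top`** -/
theorem Ok.c2 (h : D.Ok) : ∀ u ∈ BadA D.Zb D.tau D.L1, ∀ x, ∀ t ∈ BadA D.Zb D.tau D.L1,
    ∃ p q y, u ++ t = p ++ q ∧ p ∈ D.L2 x ∧
      q ∈ Rsem D.Zb (BadA D.Zb D.tau D.L1) D.tau 1 D.L2 y := by
  intro u hu x t ht
  set BA := BadA D.Zb D.tau D.L1 with hBA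
  have huZ : u ∈ D.Zb := hu.1
  have htZ : t ∈ D.Zb := ht.1
  have hz0 := h.z0_ge
  have hW := h.W_ge
  have hCp := h.Cp
  have hul : D.z0 ≤ u.length := huZ.2.1
  have htl : D.z0 ≤ t.length := htZ.2.1
  have hTl : (u ++ t).length = u.length + t.length := List.length_append
  -- gap in the text
  have gapT : ∀ s1 s2, s1 < s2 → s2 ≤ (u ++ t).length → s2 ≤ s1 + D.W →
      D.Wo ((u ++ t).take s1) → D.Wo ((u ++ t).take s2) → False := by
    intro s1 s2 h12 h2 hw h3 h4
    have hl2 : ((u ++ t).take s2).length = s2 := by rw [List.length_take]; omega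
    refine h.gap ((u ++ t).take s2) (s2 - s1) h4 (by omega) (by omega) (by omega) ?_
    rw [hl2, List.take_take, min_eq_left (by omega)]
    have : s2 - (s2 - s1) = s1 := by omega
    rw [this]; exact h3
  -- the first wall
  have hex : ∃ s, D.z0 ≤ s + D.C ∧ D.Wo ((u ++ t).take s) :=
    ⟨u.length, by omega, by rw [List.take_left]; exact huZ.1⟩
  obtain ⟨tf, htf1, htf2, htf3⟩ : ∃ tf, D.z0 ≤ tf + D.C ∧ D.Wo ((u ++ t).take tf) ∧
      ∀ s, D.z0 ≤ s + D.C → D.Wo ((u ++ t).take s) → tf ≤ s :=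
    ⟨Nat.find hex, (Nat.find_spec hex).1, (Nat.find_spec hex).2,
      fun s h1 h2 => Nat.find_min' hex ⟨h1, h2⟩⟩
  -- the next wall
  obtain ⟨ts, hts1, hts2⟩ : ∃ ts, tf ≤ ts ∧ ∀ s, tf < s → D.Wo ((u ++ t).take s) →
      (∀ s', tf < s' → s' < s → ¬ D.Wo ((u ++ t).take s')) → s = ts := by
    by_cases hex2 : ∃ s, tf < s ∧ D.Wo ((u ++ t).take s)
    · refine ⟨Nat.find hex2, (Nat.find_spec hex2).1.le, fun s h1 h2 h3 => ?_⟩
      have g1 := Nat.find_min' hex2 ⟨h1, h2⟩
      by_contra hne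
      exact h3 _ (Nat.find_spec hex2).1 (by omega) (Nat.find_spec hex2).2
    · exact ⟨tf, le_rfl, fun s h1 h2 _ => absurd ⟨s, h1, h2⟩ hex2⟩
  -- spoiled pairs
  set SE := (Finset.range D.K ×ˢ Finset.range D.K).filter (fun ab : ℕ × ℕ => ab.1 ≠ ab.2 ∧
    ∃ s, s ≤ (u ++ t).length ∧ D.Wo ((u ++ t).take s) ∧ D.z0 + D.c ab.1 ≤ s + D.c ab.2 + D.N1 ∧
      s + D.c ab.2 ≤ D.z0 + D.c ab.1 + D.N1) with hSE
  set SB : ℕ → Finset (ℕ × ℕ) := fun t' => (Finset.range D.K ×ˢ Finset.range D.K).filter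
    (fun ab => ab.1 ≠ ab.2 ∧ D.BadT (t' - D.p0 + D.c ab.2 - D.c ab.1)) with hSB
  have cE : SE.card ≤ 1 := by
    rw [Finset.card_le_one]
    intro a ha b hb
    obtain ⟨ha1, ha2, sa, ha3, ha4, ha5, ha6⟩ := Finset.mem_filter.1 ha
    obtain ⟨hb1, hb2, sb, hb3, hb4, hb5, hb6⟩ := Finset.mem_filter.1 hb
    have ra := Finset.mem_product.1 ha1
    have rb := Finset.mem_product.1 hb1
    have ra1 := Finset.mem_range.1 ra.1
    have ra2 := Finset.mem_range.1 ra.2
    have rb1 := Finset.mem_range.1 rb.1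
    have rb2 := Finset.mem_range.1 rb.2
    have k1 := h.cC _ ra1
    have k2 := h.cC _ ra2
    have k3 := h.cC _ rb1
    have k4 := h.cC _ rb2
    have hs : sa = sb := by
      rcases lt_trichotomy sa sb with hlt | heq | hlt
      · exact (gapT sa sb hlt hb3 (by omega) ha4 hb4).elim
      · exact heq
      · exact (gapT sb sa hlt ha3 (by omega) hb4 ha4).elim
    subst hs
    by_contra hne
    have hg := h.gol a.1 ra1 a.2 ra2 b.1 rb1 b.2 rb2 ha2 hb2 hne
    rcases lt_abs.1 hg with hg | hg <;> omega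
  have cB : ∀ t', D.C + D.p0 ≤ t' → (SB t').card ≤ D.C0 := fun t' ht' =>
    h.spoil (t' - D.p0) (by omega)
  have cS : (SE ∪ (SB tf ∪ SB ts)).card < D.R := by
    have a1 := Finset.card_union_le SE (SB tf ∪ SB ts)
    have a2 := Finset.card_union_le (SB tf) (SB ts)
    have a3 := cB tf (by omega)
    have a4 := cB ts (by omega)
    have a5 := h.R_ge
    omega
  -- the exact gadget
  have hXl : (u.take D.p0).length = D.p0 := by rw [List.length_take]; omega
  obtain ⟨I, hI, hI2⟩ := h.cpl2 (u.take D.p0) x (fun k hk => by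
    rw [hXl]; exact (h.cC k hk).trans hCp)
  obtain ⟨k, hkI, hkS⟩ : ∃ k ∈ I, ∀ k', (k, k') ∉ SE ∪ (SB tf ∪ SB ts) := by
    by_contra hcon
    push Not at hcon
    have hsub : I ⊆ (SE ∪ (SB tf ∪ SB ts)).image Prod.fst := by
      intro k hk
      obtain ⟨k', hk'⟩ := hcon k hk
      exact Finset.mem_image.2 ⟨(k, k'), hk', rfl⟩
    have b1 := Finset.card_le_card hsub
    have b2 := Finset.card_image_le (s := SE ∪ (SB tf ∪ SB ts)) (f := Prod.fst)
    omega
  obtain ⟨hk, hlam, hrho⟩ := hI2 k hkI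
  obtain ⟨b, hb⟩ := Option.isSome_iff_exists.1 hrho
  have hck : D.c k ≤ D.C := h.cC k hk
  have htt : (u.take D.p0).take (D.c k) = u.take (D.c k) := by
    rw [List.take_take, min_eq_left (by omega)]
  rw [htt] at hlam
  have hpl : (u.take (D.c k)).length = D.c k := by rw [List.length_take]; omega
  have hdl : (u.drop (D.c k)).length = u.length - D.c k := List.length_drop
  have hTe : u ++ t = u.take (D.c k) ++ (u.drop (D.c k) ++ t) := by
    rw [← List.append_assoc, List.take_append_drop]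
  have hql : (u.drop (D.c k) ++ t).length = u.length - D.c k + t.length := by
    rw [List.length_append, hdl]
  refine ⟨u.take (D.c k), u.drop (D.c k) ++ t, D.tau t (D.tau u x), hTe, ⟨k, hk, hpl, hlam⟩, ?_⟩
  rintro x' p' ⟨k', hk', hpl', hlam'⟩
  have hck' : D.c k' ≤ D.C := h.cC k' hk'
  by_cases hkk : k' = k
  · subst hkk
    have hu'Z : p' ++ u.drop (D.c k') ∈ D.Zb := by
      refine h.zone_tr (p := u.take (D.c k')) (by omega) (by omega) ?_
      rw [List.take_append_drop]; exact huZ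
    by_cases hbad : p' ++ u.drop (D.c k') ∈ BA
    · left
      have hdt : (u.take D.p0).drop (D.c k') = (u.drop (D.c k')).take (D.p0 - D.c k') :=
        List.drop_take
      have e1 : (p' ++ u.drop (D.c k')).take D.p0 = p' ++ (u.take D.p0).drop (D.c k') := by
        rw [List.take_append, List.take_of_length_le (by omega), hpl', hdt]
      have e2 : (p' ++ u.drop (D.c k')).drop D.p0 = u.drop D.p0 := by
        rw [List.drop_append, List.drop_eq_nil_of_le (by omega), List.nil_append, hpl',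
          List.drop_drop]
        congr 1; omega
      have f1 := h.snd2 k' hk' _ _ _ _ hpl' hlam' hb
      have f2 := h.snd2 k' hk _ _ _ _ hpl hlam hb
      have e3 : u.take (D.c k') ++ (u.take D.p0).drop (D.c k') = u.take D.p0 := by
        rw [← htt, List.take_append_drop]
      rw [e3] at f2
      have etau : D.tau (p' ++ u.drop (D.c k')) x' = D.tau u x := by
        rw [Dat.tau, Dat.tau, e1, e2, ← f1, ← f2]
      refine ⟨D.tau u x, Language.mem_mul.2 ⟨p' ++ u.drop (D.c k'), ⟨hbad, etau⟩, t,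
        ⟨D.tau t (D.tau u x), Language.mem_mul.2 ⟨t, ⟨ht, rfl⟩, [], ⟨rfl, rfl⟩,
          List.append_nil _⟩⟩, List.append_assoc _ _ _⟩⟩
    · right
      exact Or.inl ⟨_, hu'Z, hbad, ⟨t, List.append_assoc _ _ _⟩⟩
  · right
    refine Or.inl ?_
    -- the shifted text
    set w := p' ++ (u.drop (D.c k) ++ t) with hw
    have hwl : w.length = D.c k' + (u.length - D.c k + t.length) := by
      rw [hw, List.length_append, hql, hpl']
    have trw : ∀ s, D.n ≤ s → s ≤ u.length - D.c k + t.length →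
        (D.Wo (w.take (D.c k' + s)) ↔ D.Wo ((u ++ t).take (D.c k + s))) := by
      intro s hs1 hs2
      have := h.tr p' (u.take (D.c k)) (u.drop (D.c k) ++ t) s hs1 (by rw [hql]; exact hs2)
      rw [hpl', hpl, ← hTe] at this
      exact this
    have hWw : D.Wo w := by
      rw [hw, ← List.append_assoc, h.loc _ _ (by omega)]
      have := htZ.1
      exact this
    have hexf : ∃ s, D.z0 ≤ s ∧ D.Wo (w.take s) :=
      ⟨w.length, by omega, by rw [List.take_length]; exact hWw⟩
    obtain ⟨f, hf1, hf2, hf3, hf4⟩ : ∃ f, D.z0 ≤ f ∧ D.Wo (w.take f) ∧ f ≤ w.length ∧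
        ∀ s, D.z0 ≤ s → s < f → ¬ D.Wo (w.take s) :=
      ⟨Nat.find hexf, (Nat.find_spec hexf).1, (Nat.find_spec hexf).2,
        Nat.find_min' hexf ⟨by omega, by rw [List.take_length]; exact hWw⟩,
        fun s h1 h2 h3 => Nat.find_min hexf h2 ⟨h1, h3⟩⟩
    have hfl : (w.take f).length = f := by rw [List.length_take]; omega
    have hZ : w.take f ∈ D.Zb := by
      refine ⟨hf2, by omega, fun s h1 h2 h3 => ?_⟩
      rw [hfl] at h2
      rw [List.take_take, min_eq_left h2.le] at h3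
      exact hf4 s h1 h2 h3
    refine ⟨w.take f, hZ, ?_, List.take_prefix _ _⟩
    have hnS := hkS k'
    rw [Finset.mem_union, Finset.mem_union] at hnS
    push Not at hnS
    obtain ⟨nE, nB1, nB2⟩ := hnS
    have hmem : (k, k') ∈ Finset.range D.K ×ˢ Finset.range D.K :=
      Finset.mem_product.2 ⟨Finset.mem_range.2 hk, Finset.mem_range.2 hk'⟩
    refine h.cutA hZ ?_ ?_
    · intro s h1 h2 h3 h4
      rw [hfl] at h3
      rw [List.take_take, min_eq_left h3] at h4
      obtain ⟨r, rfl⟩ := Nat.exists_eq_add_of_le (show D.c k' ≤ s by omega)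
      rw [trw r (by omega) (by omega)] at h4
      exact nE (Finset.mem_filter.2 ⟨hmem, fun e => hkk e.symm, D.c k + r, by omega, h4,
        by simp only; omega, by simp only; omega⟩)
    · intro hbT
      rw [hfl] at hbT
      obtain ⟨r, hr⟩ := Nat.exists_eq_add_of_le (show D.c k' ≤ f by omega)
      have hwT : D.Wo ((u ++ t).take (D.c k + r)) := by
        rw [hr, trw r (by omega) (by omega)] at hf2
        exact hf2
      have hle := htf3 (D.c k + r) (by omega) hwT
      rcases Nat.eq_or_lt_of_le hle with heq | hlt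
      · refine nB1 (Finset.mem_filter.2 ⟨hmem, fun e => hkk e.symm, ?_⟩)
        have : tf - D.p0 + D.c (k, k').2 - D.c (k, k').1 = f - D.p0 := by
          simp only; omega
        rw [this]; exact hbT
      · have hnew : ∀ s, tf ≤ s → s < D.c k + r → D.Wo ((u ++ t).take s) →
            s + D.c k' < D.z0 + D.c k := by
          intro s h1 h2 h3
          by_contra hge
          obtain ⟨r', rfl⟩ := Nat.exists_eq_add_of_le (show D.c k ≤ s by omega)
          rw [← trw r' (by omega) (by omega)] at h3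
          exact hf4 (D.c k' + r') (by omega) (by omega) h3
        have g0 := hnew tf le_rfl hlt htf2
        have hts := hts2 (D.c k + r) hlt hwT (fun s' h1 h2 h3 => by
          have g1 := hnew s' h1.le h2 h3
          exact gapT tf s' h1 (by omega) (by omega) htf2 h3)
        refine nB2 (Finset.mem_filter.2 ⟨hmem, fun e => hkk e.symm, ?_⟩)
        have : ts - D.p0 + D.c (k, k').2 - D.c (k, k').1 = f - D.p0 := by
          simp only; omega
        rw [this]; exact hbT

end Dat

end Crest.Agent.R320.C2_626
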