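import Crest.Agent.R320.Hk2_851

/-!
# Row 320: semantic right languages (helper474, after 110)

Block prefix code `XX`, thread map `T`, finite left-legal relations `LP1`, `LP2`.
The right labels `R1`, `R2` are defined semantically; then soundness is definitional and the right
languages are Boolean combinations of left quotients of `{X ∈ XX, T v X = b}`.
-/

set_option autoImplicit false
set_option linter.unusedSectionVars false

namespace Crest.Agent.R320.TopSem_474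

open Crest.Agent.R320.Hk_851

universe u v

variable {α : Type u} {V : Type v}

section defs

variable (XX : Set (List α)) (T : V → List α → V) (LP1 LP2 : List α → V → Prop)

/-- `b` is a correct right label of `Q` for scheme 1 -/
def Ok1 (Q : List α) (b : V) : Prop := Q ≠ [] ∧ ∀ P v, LP1 P v → P ++ Q ∈ XX ∧ T v (P ++ Q) = b

def Sem1 (Q : List α) : Prop := ∃ b, Ok1 XX T LP1 Q b

/-- the token `v` at the cut `P | Q` is cut again by scheme 1, in its own block, not before `P` -/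
def Late (P : List α) (v : V) (Q : List α) : Prop :=
  ∃ X ∈ XX, X <+: P ++ Q ∧ ∃ P' Q', X = P' ++ Q' ∧ P.length ≤ P'.length ∧ LP1 P' v ∧
    Sem1 XX T LP1 Q'

def Two (P : List α) (v : V) (Q : List α) (b : V) : Prop :=
  ∃ Q1 X2, Q = Q1 ++ X2 ∧ Q1 ≠ [] ∧ P ++ Q1 ∈ XX ∧ X2 ∈ XX ∧ T (T v (P ++ Q1)) X2 = b

def Ok2 (Q : List α) (b : V) : Prop :=
  Q ≠ [] ∧ ∀ P v, LP2 P v → Late XX T LP1 P v Q ∨ Two XX T P v Q b

def Sem2 (Q : List α) : Prop := ∃ b, Ok2 XX T LP1 LP2 Q b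

open Classical in
noncomputable def pick (B : Set V) : Option V := if h : B.Nonempty then some h.choose else none

def LSem1 : Language α := {Q | Sem1 XX T LP1 Q}

def LXT (v b : V) : Language α := {X | X ∈ XX ∧ T v X = b}

def LQ (P : List α) (v b : V) : Language α := {Q | Q ≠ [] ∧ P ++ Q ∈ XX ∧ T v (P ++ Q) = b}

noncomputable def R1 (Q : List α) : Option V := pick {b | Ok1 XX T LP1 Q b}

noncomputable def R2 (Q : List α) : Option V := pick {b | Ok2 XX T LP1 LP2 Q b}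

end defs

theorem pick_mem {B : Set V} {b : V} (h : pick B = some b) : b ∈ B := by
  classical
  unfold pick at h
  split_ifs at h with hB
  have : hB.choose = b := by simpa using h
  rw [← this]; exact hB.choose_spec

theorem pick_isSome {B : Set V} : (pick B).isSome ↔ B.Nonempty := by
  classical
  unfold pick
  split_ifs with hB
  · simp [hB]
  · simp [hB]

variable {XX : Set (List α)} {T : V → List α → V} {LP1 LP2 : List α → V → Prop}

theorem R1_isSome {Q : List α} : (R1 XX T LP1 Q).isSome ↔ Sem1 XX T LP1 Q := pick_isSome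

theorem R2_isSome {Q : List α} : (R2 XX T LP1 LP2 Q).isSome ↔ Sem2 XX T LP1 LP2 Q := pick_isSome

theorem R1_ne {Q : List α} {b : V} (h : R1 XX T LP1 Q = some b) : Q ≠ [] := (pick_mem h).1

theorem R2_ne {Q : List α} {b : V} (h : R2 XX T LP1 LP2 Q = some b) : Q ≠ [] := (pick_mem h).1

theorem s1 (P : List α) (v : V) (Q : List α) (b : V) (hP : LP1 P v)
    (hQ : R1 XX T LP1 Q = some b) : P ++ Q ∈ XX ∧ T v (P ++ Q) = b := (pick_mem hQ).2 P v hP

theorem s2 (P : List α) (v : V) (Q : List α) (b : V) (hP : LP2 P v)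
    (hQ : R2 XX T LP1 LP2 Q = some b)
    (hno : ∀ X ∈ XX, X <+: P ++ Q → ∀ P' Q', X = P' ++ Q' → P.length ≤ P'.length → LP1 P' v →
      (R1 XX T LP1 Q').isSome → False) :
    ∃ Q1 X2, Q = Q1 ++ X2 ∧ Q1 ≠ [] ∧ P ++ Q1 ∈ XX ∧ X2 ∈ XX ∧ T (T v (P ++ Q1)) X2 = b := by
  rcases (pick_mem hQ).2 P v hP with ⟨X, hX, hp, P', Q', h1, h2, h3, h4⟩ | h
  · exact (hno X hX hp P' Q' h1 h2 h3 (R1_isSome.2 h4)).elim
  · exact h

/-! ### heights -/

theorem hl_ne [Finite α] {k : ℕ} : HL k ({Q | Q ≠ []} : Language α) := by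
  have h : HL k ({w : List α | ¬ w.length ≤ 0} : Language α) := (HL.length_le 0).setOf_not
  refine h.congr fun w => ?_
  show w ≠ [] ↔ ¬ w.length ≤ 0
  simp

theorem hl_pick [Finite α] [Finite V] {k : ℕ} (p : List α → V → Prop)
    (h : ∀ b, HL k ({Q | p Q b} : Language α)) (b : V) :
    HL k ({Q | pick {b | p Q b} = some b} : Language α) := by
  have h1 : ∀ B : Set V, HL k ({Q | ∀ b', (p Q b' ↔ b' ∈ B)} : Language α) := by
    intro B
    have h2 : HL k ({Q | ∀ b', Q ∈ ({Q | p Q b' ↔ b' ∈ B} : Language α)} : Language α) := by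
      refine HL.iInter (L := fun b' => ({Q | p Q b' ↔ b' ∈ B} : Language α)) fun b' => ?_
      exact HL.setOf_iff (h b') (HL.const (b' ∈ B))
    exact h2
  have h3 : HL k ({Q | ∃ B : {B : Set V // pick B = some b},
      Q ∈ ({Q | ∀ b', (p Q b' ↔ b' ∈ B.1)} : Language α)} : Language α) :=
    HL.iUnion (L := fun B : {B : Set V // pick B = some b} =>
      ({Q | ∀ b', (p Q b' ↔ b' ∈ B.1)} : Language α)) fun B => h1 B.1
  refine h3.congr fun Q => ?_
  constructor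
  · intro hQ
    exact ⟨⟨{b | p Q b}, hQ⟩, fun b' => Iff.rfl⟩
  · rintro ⟨⟨B, hB⟩, hQ⟩
    have : {b | p Q b} = B := by ext b'; exact hQ b'
    show pick {b | p Q b} = some b
    rw [this]; exact hB

section heights

variable [Finite α] [Finite V] {k : ℕ}
  (hXT : ∀ v v', HL k ({X | X ∈ XX ∧ T v X = v'} : Language α))
  (hf1 : {x : List α × V | LP1 x.1 x.2}.Finite) (hf2 : {x : List α × V | LP2 x.1 x.2}.Finite)

include hXT

theorem hl_XX [Nonempty V] : HL k (XX : Language α) := by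
  obtain ⟨v⟩ := ‹Nonempty V›
  have h := HL.iUnion (L := fun v' => ({X | X ∈ XX ∧ T v X = v'} : Language α)) (hXT v)
  refine h.congr fun w => ?_
  constructor
  · intro hw; exact ⟨T v w, hw, rfl⟩
  · rintro ⟨v', hw, _⟩; exact hw

include hf1

theorem hl_Ok1 (b : V) : HL k ({Q | Ok1 XX T LP1 Q b} : Language α) := by
  have h1 : HL k ({Q | ∀ x ∈ {x : List α × V | LP1 x.1 x.2},
      Q ∈ ({Q | x.1 ++ Q ∈ ({X | X ∈ XX ∧ T x.2 X = b} : Language α)} : Language α)} :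
        Language α) :=
    HL.biInter hf1 (L := fun x : List α × V =>
      ({Q | x.1 ++ Q ∈ ({X | X ∈ XX ∧ T x.2 X = b} : Language α)} : Language α))
      fun x _ => HL.lquot x.1 (hXT x.2 b)
  refine (HL.setOf_and hl_ne h1).congr fun Q => ?_
  constructor
  · rintro ⟨h, h'⟩; exact ⟨h, fun x hx => h' x.1 x.2 hx⟩
  · rintro ⟨h, h'⟩; exact ⟨h, fun P v hP => h' (P, v) hP⟩

theorem hl_R1 (b : V) : HL k ({Q | R1 XX T LP1 Q = some b} : Language α) :=
  hl_pick (fun Q b => Ok1 XX T LP1 Q b) (fun b => hl_Ok1 hXT hf1 b) b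

theorem hl_Sem1 : HL k ({Q | Sem1 XX T LP1 Q} : Language α) := by
  have h := HL.iUnion (L := fun b => ({Q | Ok1 XX T LP1 Q b} : Language α)) (hl_Ok1 hXT hf1)
  exact h

theorem hl_Late [Nonempty V] (P : List α) (v : V) :
    HL k ({Q | Late XX T LP1 P v Q} : Language α) := by
  have hN : HL k ({X | X ∈ XX ∧ ∃ P' Q', X = P' ++ Q' ∧ P.length ≤ P'.length ∧ LP1 P' v ∧
      Sem1 XX T LP1 Q'} : Language α) := by
    have hs : ({x : List α × V | LP1 x.1 x.2} ∩ {x | P.length ≤ x.1.length ∧ x.2 = v}).Finite :=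
      hf1.subset Set.inter_subset_left
    have h1 := HL.biUnion hs (L := fun x : List α × V =>
      (({x.1} : Language α) * LSem1 XX T LP1))
      fun x _ => (HL.word x.1).mul (hl_Sem1 hXT hf1)
    refine ((hl_XX hXT).inf h1).congr fun X => ?_
    constructor
    · rintro ⟨hX, P', Q', h1, h2, h3, h4⟩
      exact ⟨hX, (P', v), ⟨h3, h2, rfl⟩, P', rfl, Q', h4, h1.symm⟩
    · rintro ⟨hX, x, ⟨hx1, hx2, hx3⟩, y, hy, Q', h4, h5⟩
      have hy' : y = x.1 := hy
      subst hy'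
      refine ⟨hX, x.1, Q', h5.symm, hx2, ?_, h4⟩
      rw [← hx3]; exact hx1
  have h2 := HL.lquot P hN.prefix
  refine h2.congr fun Q => ?_
  constructor
  · rintro ⟨X, hX, hp, h⟩; exact ⟨X, ⟨hX, h⟩, hp⟩
  · rintro ⟨X, ⟨hX, h⟩, hp⟩; exact ⟨X, hX, hp, h⟩

omit hf1 in
theorem hl_Two (P : List α) (v b : V) : HL k ({Q | Two XX T P v Q b} : Language α) := by
  have hq : ∀ u, HL k (LQ XX T P v u) := by
    intro u
    refine (HL.setOf_and hl_ne (HL.lquot P (hXT v u))).congr fun Q => ?_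
    exact Iff.rfl
  have h := HL.iUnion (L := fun u : V => (LQ XX T P v u * LXT XX T u b))
    fun u => (hq u).mul (hXT u b)
  refine h.congr fun Q => ?_
  constructor
  · rintro ⟨Q1, X2, h1, h2, h3, h4, h5⟩
    exact ⟨T v (P ++ Q1), Q1, ⟨h2, h3, rfl⟩, X2, ⟨h4, h5⟩, h1.symm⟩
  · rintro ⟨u, Q1, ⟨h2, h3, h3'⟩, X2, ⟨h4, h5⟩, h1⟩
    refine ⟨Q1, X2, h1.symm, h2, h3, h4, ?_⟩
    rw [h3']; exact h5

include hf2

theorem hl_Ok2 [Nonempty V] (b : V) : HL k ({Q | Ok2 XX T LP1 LP2 Q b} : Language α) := by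
  have h1 : HL k ({Q | ∀ x ∈ {x : List α × V | LP2 x.1 x.2},
      Q ∈ ({Q | Late XX T LP1 x.1 x.2 Q ∨ Two XX T x.1 x.2 Q b} : Language α)} : Language α) :=
    HL.biInter hf2 (L := fun x : List α × V =>
      ({Q | Late XX T LP1 x.1 x.2 Q ∨ Two XX T x.1 x.2 Q b} : Language α))
      fun x _ => HL.setOf_or (hl_Late hXT hf1 x.1 x.2) (hl_Two hXT x.1 x.2 b)
  refine (HL.setOf_and hl_ne h1).congr fun Q => ?_
  constructor
  · rintro ⟨h, h'⟩; exact ⟨h, fun x hx => h' x.1 x.2 hx⟩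
  · rintro ⟨h, h'⟩; exact ⟨h, fun P v hP => h' (P, v) hP⟩

theorem hl_R2 [Nonempty V] (b : V) : HL k ({Q | R2 XX T LP1 LP2 Q = some b} : Language α) :=
  hl_pick (fun Q b => Ok2 XX T LP1 LP2 Q b) (fun b => hl_Ok2 hXT hf1 hf2 b) b

end heights

omit XX T LP1 LP2 in
theorem hl_LP [Finite α] {k : ℕ} {LP : List α → V → Prop}
    (hf : {x : List α × V | LP x.1 x.2}.Finite) (v : V) : HL k ({P | LP P v} : Language α) := by
  refine HL.finite (s := {P | LP P v}) ?_
  have h := (hf.image Prod.fst)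
  refine h.subset ?_
  intro P hP
  exact ⟨(P, v), hP, rfl⟩

/-- scheme data are complete in the semantic sense -/
def CC (XX : Set (List α)) (T : V → List α → V) (LP1 LP2 : List α → V → Prop) : Prop :=
  ∀ X ∈ XX, ∀ X2 ∈ XX, ∀ v,
    (∃ P Q, X = P ++ Q ∧ LP1 P v ∧ Sem1 XX T LP1 Q) ∨
    (∃ P Q, X ++ X2 = P ++ Q ∧ P.length < X.length ∧ LP2 P v ∧ Sem2 XX T LP1 LP2 Q)

theorem cc (h : CC XX T LP1 LP2) : ∀ X ∈ XX, ∀ X2 ∈ XX, ∀ v,
    (∃ P Q, X = P ++ Q ∧ LP1 P v ∧ (R1 XX T LP1 Q).isSome) ∨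
    (∃ P Q, X ++ X2 = P ++ Q ∧ P.length < X.length ∧ LP2 P v ∧ (R2 XX T LP1 LP2 Q).isSome) := by
  intro X hX X2 hX2 v
  rcases h X hX X2 hX2 v with ⟨P, Q, h1, h2, h3⟩ | ⟨P, Q, h1, h2, h3, h4⟩
  · exact Or.inl ⟨P, Q, h1, h2, R1_isSome.2 h3⟩
  · exact Or.inr ⟨P, Q, h1, h2, h3, R2_isSome.2 h4⟩

end Crest.Agent.R320.TopSem_474
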