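import Mathlib
import Crest.Agent.R320.TopSem_474

/-!
# Row 320: completeness statement `CC` of 474's semantic top, natural chain rule (helper579)

Left-looking walls on all words, block = first wall at a place `≥ z`, gadget 1 (no small walls,
all contents) in the part right of `p0`, exact gadget 2 at the ruler places `c k ≤ p0`.
-/

set_option autoImplicit false
set_option linter.unusedVariables false

namespace Crest.Agent.R320.CCInst_579

open Crest.Agent.R320.TopSem_474

universe u v w

structure Dat (α : Type u) (S : Type v) (V : Type w) [Monoid S] [AddCommGroup V] where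
  φ : List α → S
  act : V → S → V
  Wo : List α → Prop
  n : ℕ
  p0 : ℕ
  N1 : ℕ
  z : ℕ
  La : ℕ
  lam : List α → Option V
  rho : List α → Option V
  nu1 : List α → V
  BadT : ℕ → Prop
  K : ℕ
  c : ℕ → ℕ
  lam2 : ℕ → List α → Option V
  rho2 : ℕ → List α → Option V
  nu2 : List α → V
  C0 : ℕ

namespace Dat

variable {α : Type u} {S : Type v} {V : Type w} [Monoid S] [AddCommGroup V] (D : Dat α S V)

/-- the blocks -/
def XX : Set (List α) :=
  {X | D.z ≤ X.length ∧ D.Wo X ∧ ∀ t, D.z ≤ t → t < X.length → ¬ D.Wo (X.take t)}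

/-- the block map -/
def T (v : V) (X : List α) : V :=
  D.act (D.act v (D.φ (X.take D.p0)) + D.nu2 (X.take D.p0)) (D.φ (X.drop D.p0)) + D.nu1 (X.drop D.p0)

def LP1 (P : List α) (v : V) : Prop :=
  D.p0 ≤ P.length ∧ D.lam (P.drop D.p0) = some (D.act v (D.φ (P.take D.p0)) + D.nu2 (P.take D.p0))

def LP2 (P : List α) (v : V) : Prop := ∃ k < D.K, P.length = D.c k ∧ D.lam2 k P = some v

def Bad (X : List α) : Prop :=
  X.length < D.z + D.N1 ∨ (∃ t, D.z ≤ t + D.N1 ∧ t < D.z ∧ D.Wo (X.take t)) ∨
    D.BadT (X.length - D.p0)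

open Classical in
structure Ok : Prop where
  hφ : ∀ u v : List α, D.φ (u ++ v) = D.φ u * D.φ v
  loc : ∀ P Q : List α, D.n ≤ Q.length → (D.Wo (P ++ Q) ↔ D.Wo Q)
  sep : ∀ (Y : List α) (s t : ℕ), s < t → t ≤ Y.length → D.Wo (Y.take s) → D.Wo (Y.take t) →
    s + 2 * (D.N1 + D.p0) < t
  hz : D.p0 + D.p0 + D.N1 + D.n + D.La < D.z
  g1s : ∀ (p q : List α) (v r : V), D.lam p = some v → D.rho q = some r → D.La ≤ q.length →
    r = D.act v (D.φ (p ++ q)) + D.nu1 (p ++ q)
  g1l : ∀ (p : List α) (v : V), D.lam p = some v → p.length ≤ D.N1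
  g1c : ∀ u : List α, D.La ≤ u.length → ¬ D.BadT u.length → ∀ v, ∃ p q, p ++ q = u ∧ D.lam p = some v ∧
    (D.rho q).isSome
  hc : ∀ k < D.K, D.c k ≤ D.p0
  g2s : ∀ k < D.K, ∀ (P Q : List α) (v b : V), P.length = D.c k → P.length + Q.length = D.p0 →
    D.lam2 k P = some v → D.rho2 k Q = some b → b = D.act v (D.φ (P ++ Q)) + D.nu2 (P ++ Q)
  g2c : ∀ (X : List α) (v : V), X.length = D.p0 → ∃ I : Finset ℕ, 1 + 2 * D.C0 < I.card ∧ ∀ k ∈ I, k < D.K ∧
    D.lam2 k (X.take (D.c k)) = some v ∧ (D.rho2 k (X.drop (D.c k))).isSome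
  sp : ∀ T, D.La ≤ T → ((Finset.range D.K ×ˢ Finset.range D.K).filter
    (fun ij : ℕ × ℕ => ij.1 ≠ ij.2 ∧ D.BadT (T + D.c ij.2 - D.c ij.1))).card ≤ D.C0
  spaced : ∀ i j k l, i < D.K → j < D.K → k < D.K → l < D.K → i ≠ j → k ≠ l → (i, j) ≠ (k, l) →
    D.c i + D.c l + 2 * D.N1 ≤ D.c k + D.c j ∨ D.c k + D.c j + 2 * D.N1 ≤ D.c i + D.c l

variable {D}

theorem exists_block (Y : List α) (t0 : ℕ) (h0 : D.z ≤ t0) (h1 : t0 ≤ Y.length)
    (h2 : D.Wo (Y.take t0)) : ∃ t, D.z ≤ t ∧ t ≤ Y.length ∧ D.Wo (Y.take t) ∧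
      Y.take t ∈ D.XX ∧ ∀ s, D.z ≤ s → s ≤ Y.length → D.Wo (Y.take s) → t ≤ s := by
  classical
  have hex : ∃ t, D.z ≤ t ∧ t ≤ Y.length ∧ D.Wo (Y.take t) := ⟨t0, h0, h1, h2⟩
  obtain ⟨a1, a2, a3⟩ := Nat.find_spec hex
  refine ⟨Nat.find hex, a1, a2, a3, ⟨?_, a3, ?_⟩, ?_⟩
  · rw [List.length_take]; omega
  · intro t b1 b2 b3
    rw [List.length_take] at b2
    have b4 : t < Nat.find hex := by omega
    rw [List.take_take, min_eq_left b4.le] at b3
    exact Nat.find_min hex b4 ⟨b1, by omega, b3⟩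
  · intro s b1 b2 b3
    by_contra hlt
    exact Nat.find_min hex (by omega) ⟨b1, b2, b3⟩

/-- completeness of scheme 1 off `Bad` -/
theorem lemA (h : D.Ok) {X : List α} (hX : X ∈ D.XX) (hB : ¬ D.Bad X) (v : V) :
    ∃ P Q, X = P ++ Q ∧ D.p0 ≤ P.length ∧ D.LP1 P v ∧ Sem1 D.XX D.T D.LP1 Q := by
  obtain ⟨hXl, hXw, hXn⟩ := hX
  have hz := h.hz
  unfold Bad at hB
  push Not at hB
  obtain ⟨hB1, hB2, hB3⟩ := hB
  have hlen : (X.drop D.p0).length = X.length - D.p0 := List.length_drop
  obtain ⟨p, q, hpq, hp, hq⟩ := h.g1c (X.drop D.p0) (by omega) (by rw [hlen]; exact hB3)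
    (D.act v (D.φ (X.take D.p0)) + D.nu2 (X.take D.p0))
  obtain ⟨r, hr⟩ := Option.isSome_iff_exists.1 hq
  have hpl := h.g1l _ _ hp
  have htl : (X.take D.p0).length = D.p0 := by rw [List.length_take]; omega
  have hpql : p.length + q.length = X.length - D.p0 := by
    rw [← hlen, ← hpq, List.length_append]
  refine ⟨X.take D.p0 ++ p, q, ?_, by rw [List.length_append]; omega, ⟨?_, ?_⟩, r, ?_, ?_⟩
  · rw [List.append_assoc, hpq, List.take_append_drop]
  · rw [List.length_append]; omega
  · rw [List.drop_append_of_le_length (by omega), List.drop_of_length_le (by omega),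
      List.nil_append, List.take_append_of_le_length (by omega), List.take_of_length_le (by omega)]
    exact hp
  · intro h0
    rw [h0] at hpql
    simp at hpql
    omega
  · rintro P' v' ⟨h1, h2⟩
    have h3 := h.g1l _ _ h2
    have h4 : (P'.drop D.p0).length = P'.length - D.p0 := List.length_drop
    refine ⟨⟨?_, ?_, ?_⟩, ?_⟩
    · rw [List.length_append]; omega
    · have hw : D.Wo (X.take D.p0 ++ p ++ q) := by
        rw [List.append_assoc, hpq, List.take_append_drop]; exact hXw
      rw [h.loc _ _ (by omega)] at hw ⊢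
      exact hw
    · intro t ht1 ht2 ht3
      rw [List.length_append] at ht2
      have e1 : (P' ++ q).take t = P' ++ q.take (t - P'.length) := by
        rw [List.take_append, List.take_of_length_le (by omega)]
      have hy : (q.take (t - P'.length)).length = t - P'.length := by
        rw [List.length_take]; omega
      rw [e1, h.loc _ _ (by omega)] at ht3
      have e2 : X.take (D.p0 + p.length + (t - P'.length)) =
          (X.take D.p0 ++ p) ++ q.take (t - P'.length) := by
        conv_lhs => rw [← List.take_append_drop D.p0 X, ← hpq, ← List.append_assoc]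
        rw [List.take_append, List.take_of_length_le (by rw [List.length_append]; omega)]
        congr 2
        rw [List.length_append]; omega
      have ht4 : D.Wo (X.take (D.p0 + p.length + (t - P'.length))) := by
        rw [e2, h.loc _ _ (by omega)]; exact ht3
      rcases Nat.lt_or_ge (D.p0 + p.length + (t - P'.length)) D.z with h5 | h5
      · exact hB2 _ (by omega) h5 ht4
      · exact hXn _ h5 (by omega) ht4
    · have e1 : (P' ++ q).take D.p0 = P'.take D.p0 := List.take_append_of_le_length h1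
      have e2 : (P' ++ q).drop D.p0 = P'.drop D.p0 ++ q := List.drop_append_of_le_length h1
      unfold T
      rw [e1, e2]
      exact (h.g1s _ _ _ _ h2 hr (by omega)).symm

/-- moving the left part -/
theorem transl (h : D.Ok) {P P' Q : List α} {t : ℕ} (h1 : P.length + D.n ≤ t)
    (h2 : t ≤ (P ++ Q).length) :
    D.Wo ((P ++ Q).take t) ↔ D.Wo ((P' ++ Q).take (t - P.length + P'.length)) := by
  rw [List.length_append] at h2
  have e1 : (P ++ Q).take t = P ++ Q.take (t - P.length) := by
    rw [List.take_append, List.take_of_length_le (by omega)]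
  have e2 : (P' ++ Q).take (t - P.length + P'.length) = P' ++ Q.take (t - P.length) := by
    rw [List.take_append, List.take_of_length_le (by omega)]
    congr 2
    omega
  have hy : (Q.take (t - P.length)).length = t - P.length := by
    rw [List.length_take]; omega
  rw [e1, e2, h.loc _ _ (by omega), h.loc _ _ (by omega)]

/-- walls of the text `Y` -/
def A (D : Dat α S V) (Y : List α) (t : ℕ) : Prop := t ≤ Y.length ∧ D.Wo (Y.take t)

/-- the pair of places `k`, `k'` is spoiled in the text `Y` -/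
def SB (D : Dat α S V) (Y : List α) (k k' : ℕ) : Prop :=
  (∃ t, D.A Y t ∧ D.z + D.c k ≤ t + D.c k' + D.N1 ∧ t + D.c k' < D.z + D.c k + D.N1) ∨
  (∃ w, D.A Y w ∧ D.z + D.c k ≤ w + D.c k' ∧
    (∀ t, D.A Y t → D.z + D.c k ≤ t + D.c k' → w ≤ t) ∧ D.BadT (w + D.c k' - D.c k - D.p0))

theorem A_sep (h : D.Ok) {Y : List α} {s t : ℕ} (hs : D.A Y s) (ht : D.A Y t) (hst : s < t) :
    s + 2 * (D.N1 + D.p0) < t := h.sep Y s t hst ht.1 hs.2 ht.2

open Classical in
theorem spoil (h : D.Ok) (Y : List α) (w0 : ℕ) (hw0 : D.A Y w0) (hw0' : D.z ≤ w0) :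
    ((Finset.range D.K).filter (fun k => ∃ k' < D.K, k' ≠ k ∧ D.SB Y k k')).card ≤
      1 + 2 * D.C0 := by
  have hz := h.hz
  -- the first two walls at places `≥ z - p0`
  have hex1 : ∃ t, D.z ≤ t + D.p0 ∧ D.A Y t := ⟨w0, by omega, hw0⟩
  set w1 := Nat.find hex1 with hw1
  obtain ⟨a1, a2⟩ := Nat.find_spec hex1
  have a3 : ∀ t, D.z ≤ t + D.p0 → D.A Y t → w1 ≤ t := fun t b1 b2 => Nat.find_min' hex1 ⟨b1, b2⟩
  obtain ⟨w2, hw2a, hw2⟩ : ∃ w2, w1 ≤ w2 ∧ ∀ w, D.A Y w → w1 < w →
      (∀ t, D.A Y t → w1 < t → w ≤ t) → w = w2 := by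
    by_cases hex2 : ∃ t, w1 < t ∧ D.A Y t
    · obtain ⟨b1, b2⟩ := Nat.find_spec hex2
      refine ⟨Nat.find hex2, b1.le, fun w c1 c2 c3 => ?_⟩
      have d1 := Nat.find_min' hex2 ⟨c2, c1⟩
      have d2 := c3 _ b2 b1
      omega
    · exact ⟨w1, le_rfl, fun w c1 c2 _ => (hex2 ⟨w, c2, c1⟩).elim⟩
  -- events
  let P1 : ℕ × ℕ → Prop := fun ij => ij.1 ≠ ij.2 ∧ ∃ t, D.A Y t ∧
    D.z + D.c ij.1 ≤ t + D.c ij.2 + D.N1 ∧ t + D.c ij.2 < D.z + D.c ij.1 + D.N1
  let E1 := (Finset.range D.K ×ˢ Finset.range D.K).filter P1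
  let E2 := (Finset.range D.K ×ˢ Finset.range D.K).filter
    (fun ij : ℕ × ℕ => ij.1 ≠ ij.2 ∧ D.BadT ((w1 - D.p0) + D.c ij.2 - D.c ij.1))
  let E3 := (Finset.range D.K ×ˢ Finset.range D.K).filter
    (fun ij : ℕ × ℕ => ij.1 ≠ ij.2 ∧ D.BadT ((w2 - D.p0) + D.c ij.2 - D.c ij.1))
  have hE1 : E1.card ≤ 1 := by
    rw [Finset.card_le_one]
    rintro ⟨i, j⟩ hij ⟨k, l⟩ hkl
    simp only [E1, P1, Finset.mem_filter, Finset.mem_product, Finset.mem_range] at hij hkl
    obtain ⟨⟨i1, i2⟩, i3, t, i4, i5, i6⟩ := hij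
    obtain ⟨⟨k1, k2⟩, k3, t', k4, k5, k6⟩ := hkl
    by_contra hne
    have c1 := h.hc i i1
    have c2 := h.hc j i2
    have c3 := h.hc k k1
    have c4 := h.hc l k2
    have htt : t = t' := by
      rcases Nat.lt_trichotomy t t' with g | g | g
      · have := A_sep h i4 k4 g; omega
      · exact g
      · have := A_sep h k4 i4 g; omega
    subst htt
    rcases h.spaced i j k l i1 i2 k1 k2 i3 k3 hne with g | g <;> omega
  have hE2 : E2.card ≤ D.C0 := h.sp _ (by omega)
  have hE3 : E3.card ≤ D.C0 := h.sp _ (by omega)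
  have hsub : (Finset.range D.K).filter (fun k => ∃ k' < D.K, k' ≠ k ∧ D.SB Y k k') ⊆
      (E1.image Prod.fst ∪ E2.image Prod.fst) ∪ E3.image Prod.fst := by
    intro k hk
    simp only [Finset.mem_filter, Finset.mem_range] at hk
    obtain ⟨hk1, k', hk2, hk3, hk4⟩ := hk
    have c1 := h.hc k hk1
    have c2 := h.hc k' hk2
    rw [Finset.mem_union, Finset.mem_union, Finset.mem_image, Finset.mem_image, Finset.mem_image]
    rcases hk4 with ⟨t, e1, e2, e3⟩ | ⟨w, e1, e2, e3, e4⟩
    · exact Or.inl (Or.inl ⟨(k, k'), by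
        simp only [E1, P1, Finset.mem_filter, Finset.mem_product, Finset.mem_range]
        exact ⟨⟨hk1, hk2⟩, fun g => hk3 g.symm, t, e1, e2, e3⟩, rfl⟩)
    · have f1 := a3 w (by omega) e1
      rcases Nat.eq_or_lt_of_le f1 with g | g
      · refine Or.inl (Or.inr ⟨(k, k'), ?_, rfl⟩)
        simp only [E2, Finset.mem_filter, Finset.mem_product, Finset.mem_range]
        refine ⟨⟨hk1, hk2⟩, fun g => hk3 g.symm, ?_⟩
        have e5 : (w1 - D.p0) + D.c k' - D.c k = w + D.c k' - D.c k - D.p0 := by omega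
        rw [e5]; exact e4
      · refine Or.inr ⟨(k, k'), ?_, rfl⟩
        simp only [E3, Finset.mem_filter, Finset.mem_product, Finset.mem_range]
        refine ⟨⟨hk1, hk2⟩, fun g => hk3 g.symm, ?_⟩
        have f2 : w = w2 := by
          refine hw2 w e1 g (fun t g1 g2 => ?_)
          have f3 := A_sep h a2 g1 g2
          exact e3 t g1 (by omega)
        have e5 : (w2 - D.p0) + D.c k' - D.c k = w + D.c k' - D.c k - D.p0 := by omega
        rw [e5]; exact e4
  refine (Finset.card_le_card hsub).trans ((Finset.card_union_le _ _).trans ?_)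
  have u1 := Finset.card_union_le (E1.image Prod.fst) (E2.image Prod.fst)
  have u2 : (E1.image Prod.fst).card ≤ E1.card := Finset.card_image_le
  have u3 : (E2.image Prod.fst).card ≤ E2.card := Finset.card_image_le
  have u4 : (E3.image Prod.fst).card ≤ E3.card := Finset.card_image_le
  omega

/-- a hypothesis which is not spoiled gives a good block -/
theorem good_block (h : D.Ok) {P P' Q : List α} {k k' : ℕ} (hk : k < D.K) (hk' : k' < D.K)
    (hP : P.length = D.c k) (hP' : P'.length = D.c k') (w0 : ℕ) (hw0 : D.A (P ++ Q) w0)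
    (hw0' : D.z + D.p0 ≤ w0) (hS : ¬ D.SB (P ++ Q) k k') :
    ∃ X ∈ D.XX, X <+: P' ++ Q ∧ ¬ D.Bad X ∧ D.z ≤ X.length := by
  have hz := h.hz
  have c1 := h.hc k hk
  have c2 := h.hc k' hk'
  have tr : ∀ t, D.z ≤ t + D.N1 → t ≤ (P' ++ Q).length →
      (D.Wo ((P' ++ Q).take t) ↔ D.Wo ((P ++ Q).take (t - D.c k' + D.c k))) := by
    intro t b1 b2
    rw [transl h (P' := P) (by omega) b2, hP, hP']
  have hl1 : (P ++ Q).length = D.c k + Q.length := by rw [List.length_append, hP]
  have hl2 : (P' ++ Q).length = D.c k' + Q.length := by rw [List.length_append, hP']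
  have hw1 := hw0.1
  obtain ⟨t, b1, b2, b3, b4, b5⟩ := exists_block (D := D) (P' ++ Q) (w0 - D.c k + D.c k')
    (by omega) (by omega) (by
      rw [tr _ (by omega) (by omega)]
      have : w0 - D.c k + D.c k' - D.c k' + D.c k = w0 := by omega
      rw [this]; exact hw0.2)
  have hlt : ((P' ++ Q).take t).length = t := by rw [List.length_take]; omega
  refine ⟨(P' ++ Q).take t, b4, List.take_prefix _ _, ?_, by omega⟩
  intro hBad
  apply hS
  have hAt : D.A (P ++ Q) (t - D.c k' + D.c k) := ⟨by omega, (tr t (by omega) b2).1 b3⟩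
  rcases hBad with g | ⟨s, g1, g2, g3⟩ | g
  · rw [hlt] at g
    exact Or.inl ⟨_, hAt, by omega, by omega⟩
  · have hs : ((P' ++ Q).take t).take s = (P' ++ Q).take s := by
      rw [List.take_take, min_eq_left (by omega)]
    rw [hs] at g3
    refine Or.inl ⟨s - D.c k' + D.c k, ⟨by omega, (tr s (by omega) (by omega)).1 g3⟩, ?_, ?_⟩ <;>
      omega
  · rw [hlt] at g
    refine Or.inr ⟨_, hAt, by omega, ?_, ?_⟩
    · intro t' d1 d2
      have d3 := d1.1
      have d4 := b5 (t' - D.c k + D.c k') (by omega) (by omega) (by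
        rw [tr _ (by omega) (by omega)]
        have : t' - D.c k + D.c k' - D.c k' + D.c k = t' := by omega
        rw [this]; exact d1.2)
      omega
    · have : t - D.c k' + D.c k + D.c k' - D.c k - D.p0 = t - D.p0 := by omega
      rw [this]; exact g

/-- the completeness statement -/
theorem cc (h : D.Ok) : CC D.XX D.T D.LP1 D.LP2 := by
  classical
  intro X hX X2 hX2 v
  by_cases hB : D.Bad X
  swap
  · obtain ⟨P, Q, h1, h2, h3, h4⟩ := lemA h hX hB v
    exact Or.inl ⟨P, Q, h1, h3, h4⟩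
  right
  have hz := h.hz
  have hX' := hX
  have hX2' := hX2
  obtain ⟨x1, x2, x3⟩ := hX'
  obtain ⟨y1, y2, y3⟩ := hX2'
  have hlX : (X.take D.p0).length = D.p0 := by rw [List.length_take]; omega
  obtain ⟨I, hI, hI2⟩ := h.g2c (X.take D.p0) v hlX
  have hwY : D.A (X ++ X2) (X.length + X2.length) := by
    refine ⟨by rw [List.length_append], ?_⟩
    rw [List.take_of_length_le (by rw [List.length_append]), h.loc _ _ (by omega)]
    exact y2
  have hsp := spoil h (X ++ X2) _ hwY (by omega)
  obtain ⟨k, hkI, hkS⟩ : ∃ k ∈ I, k ∉ (Finset.range D.K).filter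
      (fun k => ∃ k' < D.K, k' ≠ k ∧ D.SB (X ++ X2) k k') := by
    by_contra hcon
    push Not at hcon
    have := Finset.card_le_card (fun k hk => hcon k hk : I ⊆ _)
    omega
  obtain ⟨hkK, hlam, hrho⟩ := hI2 k hkI
  have hck := h.hc k hkK
  have htake : (X.take D.p0).take (D.c k) = X.take (D.c k) := by
    rw [List.take_take, min_eq_left hck]
  rw [htake] at hlam
  obtain ⟨b2, hb2⟩ := Option.isSome_iff_exists.1 hrho
  have hPl : (X.take (D.c k)).length = D.c k := by rw [List.length_take]; omega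
  have hYsplit : X.take (D.c k) ++ (X.drop (D.c k) ++ X2) = X ++ X2 := by
    rw [← List.append_assoc, List.take_append_drop]
  refine ⟨X.take (D.c k), X.drop (D.c k) ++ X2, hYsplit.symm, by omega, ⟨k, hkK, hPl, hlam⟩,
    D.T (D.T v X) X2, ?_, ?_⟩
  · intro h0
    have := congrArg List.length h0
    rw [List.length_append, List.length_nil] at this
    omega
  · rintro P' v' ⟨k', hk', hP', hl'⟩
    by_cases hkk : k' = k
    · subst hkk
      right
      have hc' := h.hc k' hk'
      -- the block with the other left part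
      have hdl : (X.drop (D.c k')).length = X.length - D.c k' := List.length_drop
      have e1 : (P' ++ X.drop (D.c k')).take D.p0 = P' ++ (X.take D.p0).drop (D.c k') := by
        rw [List.take_append, List.take_of_length_le (by omega), List.drop_take, hP']
      have e2 : (P' ++ X.drop (D.c k')).drop D.p0 = X.drop D.p0 := by
        rw [List.drop_append, List.drop_of_length_le (by omega), List.nil_append, List.drop_drop,
          hP']
        congr 1; omega
      have e3 : X.take D.p0 = X.take (D.c k') ++ (X.take D.p0).drop (D.c k') := by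
        conv_lhs => rw [← List.take_append_drop (D.c k') (X.take D.p0), htake]
      have hQm : ((X.take D.p0).drop (D.c k')).length = D.p0 - D.c k' := by
        rw [List.length_drop, hlX]
      have g1 := h.g2s k' hk' P' ((X.take D.p0).drop (D.c k')) v' b2 hP' (by omega) hl' hb2
      have g2 := h.g2s k' hk' (X.take (D.c k')) ((X.take D.p0).drop (D.c k')) v b2 hPl
        (by omega) hlam hb2
      rw [← e3] at g2
      refine ⟨X.drop (D.c k'), X2, rfl, ?_, ?_, hX2, ?_⟩
      · intro h0
        rw [h0] at hdl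
        simp at hdl; omega
      · refine ⟨by rw [List.length_append]; omega, ?_, ?_⟩
        · have hw : D.Wo (X.take (D.c k') ++ X.drop (D.c k')) := by
            rw [List.take_append_drop]; exact x2
          rw [h.loc _ _ (by omega)] at hw ⊢
          exact hw
        · intro t t1 t2 t3
          rw [List.length_append] at t2
          rw [transl h (P' := X.take (D.c k')) (by omega) (by rw [List.length_append]; omega),
            List.take_append_drop, hP', hPl] at t3
          have : t - D.c k' + D.c k' = t := by omega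
          rw [this] at t3
          exact x3 t t1 (by omega) t3
      · have : D.T v' (P' ++ X.drop (D.c k')) = D.T v X := by
          unfold T
          rw [e1, e2, ← g1, ← g2]
        rw [this]
    · left
      have hS : ¬ D.SB (X.take (D.c k) ++ (X.drop (D.c k) ++ X2)) k k' := by
        rw [hYsplit]
        intro hSB
        apply hkS
        rw [Finset.mem_filter, Finset.mem_range]
        exact ⟨hkK, k', hk', hkk, hSB⟩
      obtain ⟨X', d1, d2, d3, d4⟩ := good_block h hkK hk' hPl hP' (X.length + X2.length)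
        (by rw [hYsplit]; exact hwY) (by omega) hS
      obtain ⟨P'', Q'', f1, f2, f3, f4⟩ := lemA h d1 d3 v'
      have hc' := h.hc k' hk'
      exact ⟨X', d1, d2, P'', Q'', f1, by omega, f3, f4⟩

end Dat

end Crest.Agent.R320.CCInst_579
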