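import Mathlib

/-!
# Row 320: the statement `cc` for the natural chain rule (helper198)

Left-looking outer walls `Wo`, blocks `XX`, scheme 1 = U-gadget on the part of the block behind
`p0`, scheme 2 = exact gadget on the first `p0` letters, right labels semantic.
-/

set_option autoImplicit false

namespace Crest.Agent.R320.CC_198

variable {α S V : Type*}

/-- the blocks of the natural chain rule -/
def XX (Wo : List α → Prop) (z : ℕ) : Set (List α) :=
  {X | z ≤ X.length ∧ Wo X ∧ ∀ t, z ≤ t → t < X.length → ¬ Wo (X.take t)}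

/-- all the data -/
structure D (α S V : Type*) where
  φ : List α → S
  act : V → S → V
  Wo : List α → Prop
  n : ℕ
  W : ℕ
  z : ℕ
  p0 : ℕ
  N1 : ℕ
  La : ℕ
  K : ℕ
  C0 : ℕ
  R : ℕ
  c : ℕ → ℕ
  BadT : ℕ → Prop
  lam : List α → Option V
  rho : List α → Option V
  nu : List α → V
  lam2 : ℕ → List α → Option V
  rho2 : ℕ → List α → Option V
  nu2 : List α → V

open Classical in
structure D.Ok [Add V] (d : D α S V) : Prop where
  loc : ∀ P Q : List α, d.n ≤ Q.length → (d.Wo (P ++ Q) ↔ d.Wo Q)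
  gap : ∀ (P : List α) (t : ℕ), d.Wo P → 0 < t → t ≤ d.W → t ≤ P.length →
    ¬ d.Wo (P.take (P.length - t))
  lamN : ∀ p v, d.lam p = some v → p.length ≤ d.N1
  snd1 : ∀ p q v r, d.lam p = some v → d.rho q = some r → d.La ≤ q.length →
    r = d.act v (d.φ (p ++ q)) + d.nu (p ++ q)
  cmp1 : ∀ u : List α, d.La ≤ u.length → ¬ d.BadT u.length → ∀ v, ∃ p q, p ++ q = u ∧
    d.lam p = some v ∧ (d.rho q).isSome
  snd2 : ∀ k < d.K, ∀ (P Q : List α) (v b : V), P.length = d.c k → d.lam2 k P = some v →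
    d.rho2 k Q = some b → b = d.act v (d.φ (P ++ Q)) + d.nu2 (P ++ Q)
  cmp2 : ∀ (u : List α) (v : V), (∀ k < d.K, d.c k ≤ u.length) → ∃ I : Finset ℕ,
    d.R ≤ I.card ∧ ∀ k ∈ I, k < d.K ∧ d.lam2 k (u.take (d.c k)) = some v ∧
      (d.rho2 k (u.drop (d.c k))).isSome
  hR : 2 * d.C0 + 2 ≤ d.R
  hc : ∀ k < d.K, d.c k ≤ d.p0
  sep : ∀ i j k l, i < d.K → j < d.K → k < d.K → l < d.K → i ≠ j → k ≠ l →
    (i, j) ≠ (k, l) → d.c i + d.c l + 2 * d.N1 < d.c k + d.c j ∨
      d.c k + d.c j + 2 * d.N1 < d.c i + d.c l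
  cnt : ∀ T, d.La ≤ T → ((Finset.range d.K ×ˢ Finset.range d.K).filter
    (fun ab => ab.1 ≠ ab.2 ∧ d.BadT (T + d.c ab.1 - d.c ab.2))).card ≤ d.C0
  hz : 2 * d.p0 + 2 * d.N1 + d.n + d.La + 1 ≤ d.z
  hW : 2 * d.p0 + 2 * d.N1 ≤ d.W

variable [Add V] (d : D α S V)

def D.T (v : V) (X : List α) : V :=
  d.act (d.act v (d.φ (X.take d.p0)) + d.nu2 (X.take d.p0)) (d.φ (X.drop d.p0)) +
    d.nu (X.drop d.p0)

def D.X : Set (List α) := XX d.Wo d.z

def D.LP1 (P : List α) (v : V) : Prop :=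
  d.p0 ≤ P.length ∧ d.lam (P.drop d.p0) = some (d.act v (d.φ (P.take d.p0)) + d.nu2 (P.take d.p0))

def D.LP2 (P : List α) (v : V) : Prop := ∃ k < d.K, P.length = d.c k ∧ d.lam2 k P = some v

def D.Rt1 (Q : List α) (b : V) : Prop :=
  Q ≠ [] ∧ ∀ P' v', d.LP1 P' v' → P' ++ Q ∈ d.X ∧ d.T v' (P' ++ Q) = b

def D.NC1 (P : List α) (v : V) (Q : List α) : Prop :=
  ∀ X ∈ d.X, X <+: P ++ Q → ∀ P' Q', X = P' ++ Q' → P.length ≤ P'.length → d.LP1 P' v →
    (∃ b, d.Rt1 Q' b) → False

/-- end wall band -/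
def D.E (X : List α) : Prop :=
  ∃ t, t ≤ X.length ∧ d.Wo (X.take t) ∧ d.z ≤ t + d.N1 ∧ t ≤ d.z + d.N1

variable {d}

omit [Add V] in
lemma take_app (P Q : List α) (s : ℕ) : (P ++ Q).take (P.length + s) = P ++ Q.take s := by
  rw [List.take_append]; simp

lemma shift (h : d.Ok) {P P' Q : List α} {s : ℕ} (hs : d.n ≤ s) (hs' : s ≤ Q.length) :
    d.Wo ((P ++ Q).take (P.length + s)) ↔ d.Wo ((P' ++ Q).take (P'.length + s)) := by
  have e : d.n ≤ (Q.take s).length := by rw [List.length_take]; omega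
  rw [take_app, take_app, h.loc _ _ e, h.loc _ _ e]

/-- junction lemma -/
lemma junction (h : d.Ok) {P P' Q : List α} (hX : P ++ Q ∈ d.X) (hE : ¬ d.E (P ++ Q))
    (h1 : d.p0 ≤ P.length) (h2 : P.length ≤ d.p0 + d.N1)
    (h1' : d.p0 ≤ P'.length) (h2' : P'.length ≤ d.p0 + d.N1) : P' ++ Q ∈ d.X := by
  have hz := h.hz
  obtain ⟨a1, a2, a3⟩ := hX
  have hlen : (P ++ Q).length = P.length + Q.length := List.length_append
  have hlen' : (P' ++ Q).length = P'.length + Q.length := List.length_append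
  have hbig : d.z + d.N1 < (P ++ Q).length := by
    by_contra hc
    exact hE ⟨(P ++ Q).length, le_rfl, by rw [List.take_length]; exact a2, by omega, by omega⟩
  have hn : d.n ≤ Q.length := by omega
  refine ⟨by omega, ?_, ?_⟩
  · rw [h.loc _ _ hn]; rwa [h.loc _ _ hn] at a2
  · intro t ht htl hw
    have e : t = P'.length + (t - P'.length) := by omega
    rw [e, ← shift h (P := P) (by omega) (by omega)] at hw
    by_cases hh : d.z ≤ P.length + (t - P'.length)
    · exact a3 _ hh (by omega) hw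
    · exact hE ⟨_, by omega, hw, by omega, by omega⟩

/-- completeness of scheme 1 -/
theorem compl1 (h : d.Ok) {X : List α} (hX : X ∈ d.X) (hE : ¬ d.E X)
    (hB : ¬ d.BadT (X.length - d.p0)) (v : V) :
    ∃ P Q, X = P ++ Q ∧ d.LP1 P v ∧ ∃ b, d.Rt1 Q b := by
  have hz := h.hz
  have hXl := hX.1
  set X1 := X.take d.p0 with hX1
  have hX1l : X1.length = d.p0 := by rw [hX1, List.length_take]; omega
  obtain ⟨p, q, hpq, hl, hr⟩ := h.cmp1 (X.drop d.p0) (by rw [List.length_drop]; omega)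
    (by rw [List.length_drop]; exact hB) (d.act v (d.φ X1) + d.nu2 X1)
  have hXe : X = (X1 ++ p) ++ q := by
    rw [List.append_assoc, hpq, hX1, List.take_append_drop]
  have hpN := h.lamN _ _ hl
  have hql : X.length = d.p0 + p.length + q.length := by
    rw [hXe]; simp only [List.length_append]; omega
  obtain ⟨r, hr⟩ := Option.isSome_iff_exists.1 hr
  refine ⟨X1 ++ p, q, hXe, ⟨by rw [List.length_append]; omega, ?_⟩, r, ?_, ?_⟩
  · rw [List.drop_append_of_le_length hX1l.ge, List.take_append_of_le_length hX1l.ge,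
      ← hX1l, List.drop_length, List.take_length]
    exact hl
  · rintro rfl
    simp at hql; omega
  · intro P' v' hP'
    have hlP' := h.lamN _ _ hP'.2
    rw [List.length_drop] at hlP'
    refine ⟨?_, ?_⟩
    · rw [hXe] at hX hE
      exact junction h hX hE (by rw [List.length_append]; omega)
        (by rw [List.length_append]; omega) hP'.1 (by have := hP'.1; omega)
    · unfold D.T
      rw [List.drop_append_of_le_length hP'.1, List.take_append_of_le_length hP'.1]
      exact (h.snd1 _ _ _ _ hP'.2 hr (by omega)).symm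

omit [Add V] in
/-- the first block of a text -/
lemma first (d : D α S V) (w : List α) (hw : d.z ≤ w.length) (hWo : d.Wo w) :
    ∃ X ∈ XX d.Wo d.z, X <+: w := by
  classical
  have hex : ∃ t, d.z ≤ t ∧ t ≤ w.length ∧ d.Wo (w.take t) :=
    ⟨w.length, hw, le_rfl, by rwa [List.take_length]⟩
  obtain ⟨g1, g2, g3⟩ := Nat.find_spec hex
  set t := Nat.find hex
  refine ⟨w.take t, ⟨by rw [List.length_take]; omega, g3, ?_⟩, List.take_prefix _ _⟩
  intro s hs hs' hw'
  rw [List.length_take] at hs'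
  rw [List.take_take, min_eq_left (by omega)] at hw'
  exact Nat.find_min hex (show s < t by omega) ⟨hs, by omega, hw'⟩

lemma gap2 (h : d.Ok) {U : List α} {a b : ℕ} (hab : a < b) (hb : b ≤ U.length)
    (ha : d.Wo (U.take a)) (hb' : d.Wo (U.take b)) : a + d.W < b := by
  by_contra hc
  have e : (U.take b).length = b := by rw [List.length_take]; omega
  apply h.gap (U.take b) (b - a) hb' (by omega) (by omega) (by omega)
  rw [e, List.take_take, min_eq_left (by omega), show b - (b - a) = a by omega]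
  exact ha

/-- the candidate `k'` is bad at the place `k` of the text `U` -/
def D.SP (d : D α S V) (U : List α) (k' k : ℕ) : Prop :=
  ∃ X' ∈ XX d.Wo d.z, ∃ P' : List α, P'.length = d.c k' ∧ X' <+: P' ++ U.drop (d.c k) ∧
    ((∃ t, t ≤ X'.length ∧ d.Wo (X'.take t) ∧ d.z ≤ t + d.N1 ∧ t ≤ d.z + d.N1) ∨
      d.BadT (X'.length - d.p0))

lemma pre_take {X' w : List α} (h : X' <+: w) {t : ℕ} (ht : t ≤ X'.length) :
    X'.take t = w.take t := by
  obtain ⟨r, rfl⟩ := h
  rw [List.take_append_of_le_length ht]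

lemma spE (h : d.Ok) {U : List α} {k k' : ℕ} (hk : k < d.K) (hk' : k' < d.K)
    (hU : d.p0 ≤ U.length) {X' P' : List α} (hP' : P'.length = d.c k')
    (hpre : X' <+: P' ++ U.drop (d.c k)) {t : ℕ} (ht : t ≤ X'.length)
    (hw : d.Wo (X'.take t)) (h1 : d.z ≤ t + d.N1) :
    d.Wo (U.take (d.c k + (t - d.c k'))) ∧ d.c k + (t - d.c k') ≤ U.length := by
  have hz := h.hz
  have c1 := h.hc k hk
  have c2 := h.hc k' hk'
  have hl := hpre.length_le
  rw [List.length_append, List.length_drop] at hl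
  rw [pre_take hpre ht] at hw
  have e : t = P'.length + (t - d.c k') := by omega
  rw [e] at hw
  have hk3 : (U.take (d.c k)).length = d.c k := by rw [List.length_take]; omega
  rw [shift h (P' := U.take (d.c k)) (by omega) (by rw [List.length_drop]; omega),
    List.take_append_drop, hk3] at hw
  exact ⟨hw, by omega⟩

open Classical in
theorem count (h : d.Ok) (U : List α) (hU : d.z ≤ U.length) (hWU : d.Wo U) :
    ((Finset.range d.K ×ˢ Finset.range d.K).filter
      (fun ab => ab.1 ≠ ab.2 ∧ d.SP U ab.1 ab.2)).card ≤ 1 + d.C0 + d.C0 := by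
  have hz := h.hz
  have hW := h.hW
  have hex : ∃ t, d.z ≤ t + d.p0 ∧ t ≤ U.length ∧ d.Wo (U.take t) :=
    ⟨U.length, by omega, le_rfl, by rwa [List.take_length]⟩
  obtain ⟨w0, a1, a2, a3, a4⟩ : ∃ w0, d.z ≤ w0 + d.p0 ∧ w0 ≤ U.length ∧ d.Wo (U.take w0) ∧
      ∀ t, d.z ≤ t + d.p0 → t ≤ U.length → d.Wo (U.take t) → w0 ≤ t := by
    obtain ⟨g1, g2, g3⟩ := Nat.find_spec hex
    exact ⟨_, g1, g2, g3, fun t x1 x2 x3 => Nat.find_min' hex ⟨x1, x2, x3⟩⟩
  obtain ⟨w1, b1, b4⟩ : ∃ w1, w0 ≤ w1 ∧ ∀ t, w0 < t → t ≤ U.length → d.Wo (U.take t) →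
      w1 ≤ t ∧ w0 < w1 ∧ d.Wo (U.take w1) := by
    by_cases hx : ∃ t, w0 < t ∧ t ≤ U.length ∧ d.Wo (U.take t)
    · obtain ⟨g1, g2, g3⟩ := Nat.find_spec hx
      exact ⟨Nat.find hx, g1.le, fun t x1 x2 x3 =>
        ⟨Nat.find_min' hx ⟨x1, x2, x3⟩, g1, g3⟩⟩
    · exact ⟨w0, le_rfl, fun t x1 x2 x3 => absurd ⟨t, x1, x2, x3⟩ hx⟩
  set A := (Finset.range d.K ×ˢ Finset.range d.K).filter
      (fun ab => ab.1 ≠ ab.2 ∧ ∃ t, t ≤ U.length ∧ d.Wo (U.take t) ∧
        d.z + d.c ab.2 ≤ t + d.c ab.1 + d.N1 ∧ t + d.c ab.1 ≤ d.z + d.c ab.2 + d.N1) with hA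
  set B0 := (Finset.range d.K ×ˢ Finset.range d.K).filter
    (fun ab => ab.1 ≠ ab.2 ∧ d.BadT ((w0 - d.p0) + d.c ab.1 - d.c ab.2)) with hB0
  set B1 := (Finset.range d.K ×ˢ Finset.range d.K).filter
    (fun ab => ab.1 ≠ ab.2 ∧ d.BadT ((w1 - d.p0) + d.c ab.1 - d.c ab.2)) with hB1
  have hsub : (Finset.range d.K ×ˢ Finset.range d.K).filter
      (fun ab => ab.1 ≠ ab.2 ∧ d.SP U ab.1 ab.2) ⊆ (A ∪ B0) ∪ B1 := by
    rintro ⟨k', k⟩ hab
    simp only [Finset.mem_filter, Finset.mem_product, Finset.mem_range] at hab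
    obtain ⟨⟨hk', hk⟩, hne, X', hX', P', hP', hpre, hbad⟩ := hab
    have c1 := h.hc k hk
    have c2 := h.hc k' hk'
    simp only [Finset.mem_union, hA, hB0, hB1, Finset.mem_filter, Finset.mem_product,
      Finset.mem_range]
    rcases hbad with ⟨t, ht, hw, h1, h2⟩ | hbad
    · left; left
      obtain ⟨e1, e2⟩ := spE h hk hk' (by omega) hP' hpre ht hw h1
      exact ⟨⟨hk', hk⟩, hne, _, e2, e1, by omega, by omega⟩
    · obtain ⟨x1, x2, x3⟩ := hX'
      obtain ⟨e1, e2⟩ := spE h hk hk' (by omega) hP' hpre le_rfl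
        (by rw [List.take_length]; exact x2) (by omega)
      set τ := d.c k + (X'.length - d.c k') with hτ
      have hmin : ∀ σ, d.z + d.c k ≤ σ + d.c k' → σ < τ → ¬ d.Wo (U.take σ) := by
        intro σ hσ hστ hwσ
        have hk3 : (U.take (d.c k)).length = d.c k := by rw [List.length_take]; omega
        have e3 : σ = (U.take (d.c k)).length + (σ - d.c k) := by rw [hk3]; omega
        have hwσ' : d.Wo ((U.take (d.c k) ++ U.drop (d.c k)).take
            ((U.take (d.c k)).length + (σ - d.c k))) := by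
          rw [List.take_append_drop, ← e3]; exact hwσ
        rw [shift h (P' := P') (by omega) (by rw [List.length_drop]; omega)] at hwσ'
        rw [← pre_take hpre (by omega)] at hwσ'
        exact x3 _ (by omega) (by omega) hwσ'
      have hw0 := a4 τ (by omega) e2 e1
      rcases Nat.eq_or_lt_of_le hw0 with he | hlt
      · left; right
        refine ⟨⟨hk', hk⟩, hne, ?_⟩
        have : (w0 - d.p0) + d.c k' - d.c k = X'.length - d.p0 := by omega
        rw [this]; exact hbad
      · right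
        obtain ⟨y1, y2, y3⟩ := b4 τ hlt e2 e1
        have hg := gap2 h y2 (by omega) a3 y3
        have hτ1 : τ = w1 := by
          by_contra hne'
          exact hmin w1 (by omega) (by omega) y3
        refine ⟨⟨hk', hk⟩, hne, ?_⟩
        have : (w1 - d.p0) + d.c k' - d.c k = X'.length - d.p0 := by omega
        rw [this]; exact hbad
  have hA1 : A.card ≤ 1 := by
    rw [Finset.card_le_one]
    rintro ⟨i, j⟩ hij ⟨k, l⟩ hkl
    simp only [hA, Finset.mem_filter, Finset.mem_product, Finset.mem_range] at hij hkl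
    obtain ⟨⟨hi, hj⟩, hne, t, t1, t2, t3, t4⟩ := hij
    obtain ⟨⟨hk, hl⟩, hne', s, s1, s2, s3, s4⟩ := hkl
    by_contra hcon
    have c1 := h.hc i hi
    have c2 := h.hc j hj
    have c3 := h.hc k hk
    have c4 := h.hc l hl
    have hts : t = s := by
      rcases lt_trichotomy t s with hlt | he | hlt
      · have := gap2 h hlt s1 t2 s2; omega
      · exact he
      · have := gap2 h hlt t1 s2 t2; omega
    subst hts
    rcases h.sep i j k l hi hj hk hl hne hne' hcon with hh | hh <;> omega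
  have hB0' : B0.card ≤ d.C0 := h.cnt _ (by omega)
  have hB1' : B1.card ≤ d.C0 := h.cnt _ (by omega)
  calc _ ≤ ((A ∪ B0) ∪ B1).card := Finset.card_le_card hsub
    _ ≤ (A ∪ B0).card + B1.card := Finset.card_union_le _ _
    _ ≤ (A.card + B0.card) + B1.card := by
        have := Finset.card_union_le A B0; omega
    _ ≤ _ := by omega

/-- **Scheme 2 is complete under its promise on every pair of blocks** (second disjunct of `cc`). -/
theorem compl2 (h : d.Ok) {X X2 : List α} (hX : X ∈ d.X) (hX2 : X2 ∈ d.X) (v : V) :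
    ∃ P Q, X ++ X2 = P ++ Q ∧ P.length < X.length ∧ d.LP2 P v ∧ ∃ b, ∀ P' v', d.LP2 P' v' →
      d.NC1 P' v' Q → ∃ Q1 X2', Q = Q1 ++ X2' ∧ Q1 ≠ [] ∧ P' ++ Q1 ∈ d.X ∧ X2' ∈ d.X ∧
        d.T (d.T v' (P' ++ Q1)) X2' = b := by
  classical
  have hz := h.hz
  obtain ⟨x1, x2, x3⟩ := hX
  obtain ⟨y1, y2, y3⟩ := id hX2
  have hUl : (X ++ X2).length = X.length + X2.length := List.length_append
  have hWU : d.Wo (X ++ X2) := (h.loc _ _ (by omega)).2 y2
  have hcount := count h (X ++ X2) (by omega) hWU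
  set Pr := (Finset.range d.K ×ˢ Finset.range d.K).filter
      (fun ab => ab.1 ≠ ab.2 ∧ d.SP (X ++ X2) ab.1 ab.2) with hPr
  obtain ⟨I, hI, hI'⟩ := h.cmp2 (X.take d.p0) v (by
    intro k hk; rw [List.length_take]; have := h.hc k hk; omega)
  have hcard : (Pr.image Prod.snd).card < I.card := by
    have := Finset.card_image_le (s := Pr) (f := Prod.snd)
    have := h.hR
    omega
  obtain ⟨k, hkI, hkS⟩ := Finset.exists_mem_notMem_of_card_lt_card hcard
  obtain ⟨hk, hl, hr⟩ := hI' k hkI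
  obtain ⟨r, hr⟩ := Option.isSome_iff_exists.1 hr
  have hck := h.hc k hk
  have hns : ∀ k' < d.K, k' ≠ k → ¬ d.SP (X ++ X2) k' k := by
    intro k' hk' hne hsp
    apply hkS
    rw [Finset.mem_image]
    refine ⟨(k', k), ?_, rfl⟩
    rw [hPr, Finset.mem_filter]
    exact ⟨by simp [hk, hk'], hne, hsp⟩
  have hXt : X.take (d.c k) = (X.take d.p0).take (d.c k) := by
    rw [List.take_take, min_eq_left hck]
  have hPl : (X.take (d.c k)).length = d.c k := by rw [List.length_take]; omega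
  have hQe : (X ++ X2).drop (d.c k) = X.drop (d.c k) ++ X2 := by
    rw [List.drop_append_of_le_length (by omega)]
  refine ⟨X.take (d.c k), X.drop (d.c k) ++ X2, by
    rw [← List.append_assoc, List.take_append_drop], by omega,
    ⟨k, hk, hPl, by rw [hXt]; exact hl⟩, 
    d.T (d.act r (d.φ (X.drop d.p0)) + d.nu (X.drop d.p0)) X2, ?_⟩
  rintro P' v' ⟨k', hk', hP'l, hP'⟩ hnc
  have hck' := h.hc k' hk'
  have hQ1l : (X.drop (d.c k)).length = X.length - d.c k := List.length_drop
  by_cases hkk : k' = k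
  · subst hkk
    refine ⟨X.drop (d.c k'), X2, rfl, ?_, ⟨?_, ?_, ?_⟩, hX2, ?_⟩
    · intro h0
      rw [h0] at hQ1l; simp at hQ1l; omega
    · rw [List.length_append]; omega
    · rw [h.loc _ _ (by omega)]
      rw [← List.take_append_drop (d.c k') X, h.loc _ _ (by omega)] at x2
      exact x2
    · intro t ht htl hw
      rw [List.length_append] at htl
      have e : t = P'.length + (t - P'.length) := by omega
      rw [e, ← shift h (P := X.take (d.c k')) (by omega) (by omega),
        List.take_append_drop, hPl] at hw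
      exact x3 _ (by omega) (by omega) hw
    · have e1 : (P' ++ X.drop (d.c k')).take d.p0 = P' ++ (X.take d.p0).drop (d.c k') := by
        rw [List.take_append, List.take_of_length_le (by omega), hP'l, List.drop_take]
      have e2 : (P' ++ X.drop (d.c k')).drop d.p0 = X.drop d.p0 := by
        rw [List.drop_append, List.drop_eq_nil_of_le (by omega), List.nil_append, hP'l,
          List.drop_drop]
        congr 1; omega
      have e3 := h.snd2 k' hk' P' _ v' r hP'l hP' hr
      have e4 : d.T v' (P' ++ X.drop (d.c k')) =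
          d.act r (d.φ (X.drop d.p0)) + d.nu (X.drop d.p0) := by
        unfold D.T
        rw [e1, e2, ← e3]
      rw [e4]
  · exfalso
    have hlen : (P' ++ (X.drop (d.c k) ++ X2)).length = d.c k' + (X.length - d.c k + X2.length) := by
      rw [List.length_append, List.length_append, hQ1l, hP'l]
    have hWo : d.Wo (P' ++ (X.drop (d.c k) ++ X2)) := by
      rw [← List.append_assoc]
      exact (h.loc _ _ (by omega)).2 y2
    obtain ⟨X', hX', hpre⟩ := first d _ (by omega) hWo
    have hnot := hns k' hk' hkk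
    have hE : ¬ d.E X' := by
      rintro ⟨t, t1, t2, t3, t4⟩
      exact hnot ⟨X', hX', P', hP'l, by rw [hQe]; exact hpre, Or.inl ⟨t, t1, t2, t3, t4⟩⟩
    have hB : ¬ d.BadT (X'.length - d.p0) := fun hb =>
      hnot ⟨X', hX', P', hP'l, by rw [hQe]; exact hpre, Or.inr hb⟩
    obtain ⟨P'', Q'', he, hL, hR⟩ := compl1 h hX' hE hB v'
    exact hnc X' hX' hpre P'' Q'' he (by have := hL.1; omega) hL hR

end Crest.Agent.R320.CC_198
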