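import Crest.Agent.R320.Top5_110
import Crest.Agent.R320.ExactR_237

/-!
# Row 320: the two completeness statements of `Top5_110.top_sem` on ALL words (helper247)

Natural chain rule (block = up to the first left-looking wall at distance at least `z`), gadget 1
(693 / 638) abstract, gadget 2 = `ExactR_237.exact_gadget`, ruler with spoil count abstract.
-/

set_option autoImplicit false

namespace Crest.Agent.R320.CC_247

open Crest.Agent.R320.Hk_851 Crest.Agent.R320.Code110 Crest.Agent.R320.Top5_110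

variable {α : Type}

/-- left-looking walls -/
structure LW (Wo : List α → Prop) (n W : ℕ) : Prop where
  loc : ∀ P Q : List α, n ≤ Q.length → (Wo (P ++ Q) ↔ Wo Q)
  sep : ∀ (P : List α) (d : ℕ), Wo P → 0 < d → d ≤ W → ¬ Wo (P.take (P.length - d))

/-- blocks -/
def XX (Wo : List α → Prop) (z : ℕ) : Language α :=
  {X | z ≤ X.length ∧ Wo X ∧ ∀ t, z ≤ t → t < X.length → ¬ Wo (X.take t)}

theorem XX_pc {Wo : List α → Prop} {z : ℕ} (hz : 0 < z) : PC (XX Wo z) where
  ne := fun h => by have := h.1; simp at this; omega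
  pf := by
    intro u hu v hv huv
    by_contra hne
    have hl := huv.length_le
    have hlt : u.length < v.length := by
      rcases Nat.lt_or_ge u.length v.length with h | h
      · exact h
      · exact absurd (huv.eq_of_length_le h) hne
    have := hv.2.2 u.length hu.1 hlt
    rw [← List.prefix_iff_eq_take.1 huv] at this
    exact this hu.2.1

theorem shift {Wo : List α → Prop} {n W : ℕ} (hw : LW Wo n W) {A A' C : List α} {s s' : ℕ}
    (h1 : A.length + n ≤ s) (h2 : A'.length + n ≤ s') (h3 : s + A'.length = s' + A.length)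
    (h4 : s ≤ (A ++ C).length) :
    Wo ((A ++ C).take s) ↔ Wo ((A' ++ C).take s') := by
  have e1 : (A ++ C).take s = A ++ C.take (s - A.length) := by
    rw [List.take_append, List.take_of_length_le (by omega)]
  have e2 : (A' ++ C).take s' = A' ++ C.take (s - A.length) := by
    rw [List.take_append, List.take_of_length_le (by omega)]
    congr 2
    omega
  have hl : (C.take (s - A.length)).length = s - A.length := by
    rw [List.length_take]; rw [List.length_append] at h4; omega
  rw [e1, e2, hw.loc _ _ (by omega), hw.loc _ _ (by omega)]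

/-- two different walls of a text are more than `W` apart -/
theorem sep2 {Wo : List α → Prop} {n W : ℕ} (hw : LW Wo n W) {w : List α} {s t : ℕ}
    (ht : t ≤ w.length) (hst : s < t) (h1 : Wo (w.take s)) (h2 : Wo (w.take t)) : s + W < t := by
  by_contra hc
  have hl : (w.take t).length = t := by rw [List.length_take]; omega
  have := hw.sep (w.take t) (t - s) h2 (by omega) (by omega)
  rw [hl, List.take_take] at this
  have e : min (t - (t - s)) t = s := by omega
  rw [e] at this
  exact this h1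

section gad

variable {S V : Type} [Monoid S] [AddCommGroup V]

structure Gad (φ : List α → S) (act : V → S → V)
    (lam rho : List α → Option V) (nu1 : List α → V) (N1 La : ℕ) (BadT : ℕ → Prop) : Prop where
  g1 : ∀ P v, lam P = some v → P.length ≤ N1
  g2 : ∀ P Q v b, lam P = some v → rho Q = some b → b = act v (φ (P ++ Q)) + nu1 (P ++ Q)
  g3 : ∀ Y : List α, La ≤ Y.length → ¬ BadT Y.length → ∀ v, ∃ P Q, Y = P ++ Q ∧
    lam P = some v ∧ (rho Q).isSome

/-- zone map -/
def TT (φ : List α → S) (act : V → S → V) (nu1 nu2 : List α → V) (p0 : ℕ) (X : List α) (v : V) :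
    V :=
  act (act v (φ (X.take p0)) + nu2 (X.take p0)) (φ (X.drop p0)) + nu1 (X.drop p0)

/-- end band or bad length -/
def EB (Wo : List α → Prop) (z N1 p0 : ℕ) (BadT : ℕ → Prop) (X : List α) : Prop :=
  X.length < z + N1 ∨ (∃ t, z ≤ t + N1 ∧ t < z ∧ Wo (X.take t)) ∨ BadT (X.length - p0)

def Bad (Wo : List α → Prop) (z N1 p0 : ℕ) (BadT : ℕ → Prop) : Language α :=
  {X | X ∈ XX Wo z ∧ EB Wo z N1 p0 BadT X}

def L1 (φ : List α → S) (act : V → S → V) (lam : List α → Option V) (nu2 : List α → V) (p0 : ℕ)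
    (v : V) : Language α :=
  {P | p0 ≤ P.length ∧ lam (P.drop p0) = some (act v (φ (P.take p0)) + nu2 (P.take p0))}

def L2 (lam2 : ℕ → List α → Option V) (c : ℕ → ℕ) (K : ℕ) (v : V) : Language α :=
  {P | ∃ k < K, P.length = c k ∧ lam2 k P = some v}

theorem F1 [Finite α] {φ : List α → S} {act : V → S → V} {lam rho : List α → Option V}
    {nu1 nu2 : List α → V} {N1 La p0 : ℕ} {BadT : ℕ → Prop}
    (G : Gad φ act lam rho nu1 N1 La BadT) (v : V) :
    {p | p ∈ L1 φ act lam nu2 p0 v}.Finite := by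
  refine (List.finite_length_le α (p0 + N1)).subset ?_
  rintro p ⟨h1, h2⟩
  have := G.g1 _ _ h2
  rw [List.length_drop] at this
  show p.length ≤ p0 + N1
  omega

theorem F2 [Finite α] {lam2 : ℕ → List α → Option V} {c : ℕ → ℕ} {K p0 : ℕ}
    (hc : ∀ k < K, c k ≤ p0) (v : V) : {p | p ∈ L2 lam2 c K v}.Finite := by
  refine (List.finite_length_le α p0).subset ?_
  rintro p ⟨k, hk, h1, h2⟩
  have := hc k hk
  show p.length ≤ p0
  omega

/-- **C1** -/
theorem C1 {Wo : List α → Prop} {n W z N1 La p0 : ℕ} (hw : LW Wo n W)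
    {φ : List α → S} {act : V → S → V} {lam rho : List α → Option V}
    {nu1 nu2 : List α → V} {BadT : ℕ → Prop} (G : Gad φ act lam rho nu1 N1 La BadT)
    (hz1 : p0 + N1 + N1 + n ≤ z) (hz2 : p0 + La ≤ z)
    (u : List α) (hu : u ∈ XX Wo z) (hb : u ∉ Bad Wo z N1 p0 BadT) (x : V) (t : List α)
    (ht : t ∈ (XX Wo z) ^ 0) : ∃ p q y, u ++ t = p ++ q ∧ p ∈ L1 φ act lam nu2 p0 x ∧
      q ∈ Rsem (XX Wo z) (XX Wo z) (TT φ act nu1 nu2 p0) 0 (L1 φ act lam nu2 p0) y := by
  have ht0 : t = [] := by simpa using ht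
  subst ht0
  have hnb : ¬ EB Wo z N1 p0 BadT u := fun h => hb ⟨hu, h⟩
  have hE1 : z + N1 ≤ u.length := by
    by_contra h; exact hnb (Or.inl (by omega))
  have hE2 : ∀ t, z ≤ t + N1 → t < z → ¬ Wo (u.take t) := fun t h1 h2 h3 =>
    hnb (Or.inr (Or.inl ⟨t, h1, h2, h3⟩))
  have hB : ¬ BadT (u.drop p0).length := by
    rw [List.length_drop]; exact fun h => hnb (Or.inr (Or.inr h))
  obtain ⟨P, Q, hPQ, hP, hQ⟩ := G.g3 (u.drop p0) (by rw [List.length_drop]; omega) hB
    (act x (φ (u.take p0)) + nu2 (u.take p0))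
  obtain ⟨b, hb2⟩ := Option.isSome_iff_exists.1 hQ
  have hup : u = u.take p0 ++ (P ++ Q) := by rw [← hPQ, List.take_append_drop]
  have hlt : (u.take p0).length = p0 := by rw [List.length_take]; omega
  have hPl := G.g1 _ _ hP
  have hul : u.length = p0 + (P.length + Q.length) := by
    conv_lhs => rw [hup]
    rw [List.length_append, List.length_append, hlt]
  refine ⟨u.take p0 ++ P, Q, b, ?_, ?_, ?_⟩
  · rw [List.append_nil, List.append_assoc]; exact hup
  · refine ⟨by rw [List.length_append]; omega, ?_⟩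
    have e1 : (u.take p0 ++ P).drop p0 = P := by
      rw [List.drop_append, List.drop_of_length_le (by omega), hlt, Nat.sub_self]; simp
    have e2 : (u.take p0 ++ P).take p0 = u.take p0 := by
      rw [List.take_append, List.take_of_length_le (by omega), hlt, Nat.sub_self]; simp
    rw [e1, e2]; exact hP
  · intro x' p' hp'
    left
    obtain ⟨h1, h2⟩ := hp'
    have hp'l := G.g1 _ _ h2
    rw [List.length_drop] at hp'l
    have hval : TT φ act nu1 nu2 p0 (p' ++ Q) x' = b := by
      have e1 : (p' ++ Q).take p0 = p'.take p0 := by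
        rw [List.take_append, Nat.sub_eq_zero_of_le h1]; simp
      have e2 : (p' ++ Q).drop p0 = p'.drop p0 ++ Q := by
        rw [List.drop_append, Nat.sub_eq_zero_of_le h1]; simp
      unfold TT
      rw [e1, e2]
      exact (G.g2 _ _ _ _ h2 hb2).symm
    refine ⟨TT φ act nu1 nu2 p0 (p' ++ Q) x', Language.mem_mul.2 ⟨p' ++ Q, ⟨?_, rfl⟩, [], ⟨rfl, hval⟩,
      by simp⟩⟩
    have hXl : (p' ++ Q).length = p'.length + Q.length := List.length_append
    have huPQ : u = (u.take p0 ++ P) ++ Q := by rw [List.append_assoc]; exact hup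
    have hAl : (u.take p0 ++ P).length = p0 + P.length := by rw [List.length_append, hlt]
    refine ⟨by omega, ?_, ?_⟩
    · rw [hw.loc _ _ (by omega)]
      have := hu.2.1
      rw [huPQ, hw.loc _ _ (by omega)] at this
      exact this
    · intro s hs1 hs2 hs3
      have key := (shift hw (A := p') (A' := u.take p0 ++ P) (C := Q) (s := s)
        (s' := s + (p0 + P.length) - p'.length) (by omega) (by omega) (by omega) (by omega)).1 hs3
      rw [← huPQ] at key
      rcases Nat.lt_or_ge (s + (p0 + P.length) - p'.length) z with h | h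
      · exact hE2 _ (by omega) h key
      · exact hu.2.2 _ h (by omega) key

end gad

/-- ruler with spoil count -/
structure Rul (K N1 La C1 : ℕ) (c : ℕ → ℕ) (BadT : ℕ → Prop) : Prop where
  mono : ∀ i j, i < j → j < K → c i < c j
  res : ∀ a b a' b', a < K → b < K → a' < K → b' < K → a ≠ b → a' ≠ b' →
     ((c a : ℤ) - c b) - (c a' - c b') ≤ 2 * N1 → ((c a' : ℤ) - c b') - (c a - c b) ≤ 2 * N1 →
     a = a' ∧ b = b'
  spoil : ∀ T, La ≤ T → ∀ F : Finset (ℕ × ℕ), (∀ ab ∈ F, ab.1 < K ∧ ab.2 < K ∧ ab.1 ≠ ab.2 ∧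
     BadT (T + c ab.2 - c ab.1)) → F.card ≤ C1

/-- the block of the candidate anchor (true place `k`, assumed place `k'`) is bad -/
def BP (Wo : List α → Prop) (z N1 p0 : ℕ) (BadT : ℕ → Prop) (c : ℕ → ℕ) (w : List α)
    (k k' : ℕ) : Prop :=
  ∃ N', z ≤ N' ∧ N' + c k ≤ w.length + c k' ∧ Wo (w.take (N' + c k - c k')) ∧
    (∀ s, z ≤ s → s < N' → ¬ Wo (w.take (s + c k - c k'))) ∧
    (N' < z + N1 ∨ (∃ s, z ≤ s + N1 ∧ s < z ∧ Wo (w.take (s + c k - c k'))) ∨ BadT (N' - p0))

theorem count {Wo : List α → Prop} {n W z N1 La p0 K C1 : ℕ} (hw : LW Wo n W) {c : ℕ → ℕ}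
    {BadT : ℕ → Prop} (hr : Rul K N1 La C1 c BadT) (hc : ∀ k < K, c k ≤ p0)
    (hz : p0 + N1 + p0 + La + n ≤ z) (hW : 2 * N1 + 2 * p0 ≤ W) (w : List α)
    (F : Finset (ℕ × ℕ)) (hF : ∀ ab ∈ F, ab.1 < K ∧ ab.2 < K ∧ ab.1 ≠ ab.2 ∧
      BP Wo z N1 p0 BadT c w ab.1 ab.2) : F.card ≤ 1 + 2 * C1 := by
  classical
  let PE : ℕ × ℕ → Prop := fun ab => ∃ s, z ≤ s + N1 ∧ s < z + N1 ∧ s + c ab.1 ≤ w.length + c ab.2 ∧
    Wo (w.take (s + c ab.1 - c ab.2))
  have h0 : (F.filter PE).card ≤ 1 := by
    rw [Finset.card_le_one]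
    rintro ⟨a, b⟩ h ⟨a', b'⟩ h'
    rw [Finset.mem_filter] at h h'
    obtain ⟨ha, hb, hab, -⟩ := hF _ h.1
    obtain ⟨ha', hb', hab', -⟩ := hF _ h'.1
    obtain ⟨s, h1, h2, h3, h4⟩ := h.2
    obtain ⟨s', h1', h2', h3', h4'⟩ := h'.2
    simp only at ha hb hab ha' hb' hab' h3 h4 h3' h4'
    have e1 := hc a ha
    have e2 := hc b hb
    have e3 := hc a' ha'
    have e4 := hc b' hb'
    have heq : s + c a - c b = s' + c a' - c b' := by
      rcases Nat.lt_trichotomy (s + c a - c b) (s' + c a' - c b') with h | h | h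
      · have := sep2 hw (by omega) h h4 h4'
        omega
      · exact h
      · have := sep2 hw (by omega) h h4' h4
        omega
    obtain ⟨r1, r2⟩ := hr.res a b a' b' ha hb ha' hb' hab hab' (by omega) (by omega)
    rw [r1, r2]
  have h1 : (F.filter (fun e => ¬ PE e)).card ≤ C1 + C1 := by
    set FB := F.filter (fun e => ¬ PE e) with hFB
    have key : ∀ e ∈ FB, ∃ N', z ≤ N' ∧ N' + c e.1 ≤ w.length + c e.2 ∧
        Wo (w.take (N' + c e.1 - c e.2)) ∧
        (∀ s, z ≤ s → s < N' → ¬ Wo (w.take (s + c e.1 - c e.2))) ∧ BadT (N' - p0) := by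
      intro e he
      rw [hFB, Finset.mem_filter] at he
      obtain ⟨ha, hb, -, N', q1, q2, q3, q4, q5⟩ := hF e he.1
      refine ⟨N', q1, q2, q3, q4, ?_⟩
      have e1 := hc _ ha
      have e2 := hc _ hb
      rcases q5 with q | ⟨s, q, q', q''⟩ | q
      · exact absurd ⟨N', by omega, q, q2, q3⟩ he.2
      · exact absurd ⟨s, q, by omega, by omega, q''⟩ he.2
      · exact q
    choose! N' k1 k2 k3 k4 k5 using key
    let τ : ℕ × ℕ → ℕ := fun e => N' e + c e.1 - c e.2
    have hin : ∀ e ∈ FB, e.1 < K ∧ e.2 < K ∧ e.1 ≠ e.2 := by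
      intro e he
      have := hF e (Finset.mem_filter.1 he).1
      exact ⟨this.1, this.2.1, this.2.2.1⟩
    have grp : ∀ t, z ≤ t + p0 → (FB.filter (fun e => τ e = t)).card ≤ C1 := by
      intro t ht
      refine hr.spoil (t - p0) (by omega) _ ?_
      intro e he
      rw [Finset.mem_filter] at he
      obtain ⟨ha, hb, hab⟩ := hin e he.1
      refine ⟨ha, hb, hab, ?_⟩
      have e1 := hc _ ha
      have e2 := hc _ hb
      have e3 := k1 e he.1
      have e4 : N' e + c e.1 - c e.2 = t := he.2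
      have e5 : t - p0 + c e.2 - c e.1 = N' e - p0 := by omega
      rw [e5]
      exact k5 e he.1
    have lo : ∀ e ∈ FB, z ≤ τ e + p0 := by
      intro e he
      obtain ⟨ha, hb, -⟩ := hin e he
      have e1 := hc _ ha
      have e2 := hc _ hb
      have e3 := k1 e he
      show z ≤ N' e + c e.1 - c e.2 + p0
      omega
    have hi : ∀ e ∈ FB, τ e ≤ w.length := by
      intro e he
      have e3 := k2 e he
      show N' e + c e.1 - c e.2 ≤ w.length
      omega
    have three : ∀ e ∈ FB, ∀ e' ∈ FB, ∀ e'' ∈ FB, τ e < τ e' → τ e' < τ e'' → False := by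
      intro e he e' he' e'' he'' h1 h2
      have g1 := sep2 hw (hi e' he') h1 (k3 e he) (k3 e' he')
      obtain ⟨ha, hb, -⟩ := hin e'' he''
      have e1 := hc _ ha
      have e2 := hc _ hb
      have e3 := lo e he
      have e4 : τ e'' = N' e'' + c e''.1 - c e''.2 := rfl
      have e5 := k1 e'' he''
      refine k4 e'' he'' (τ e' + c e''.2 - c e''.1) (by omega) (by omega) ?_
      have e6 : τ e' + c e''.2 - c e''.1 + c e''.1 - c e''.2 = τ e' := by omega
      rw [e6]
      exact k3 e' he'
    rcases FB.eq_empty_or_nonempty with he | hne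
    · rw [he]; simp
    · obtain ⟨m1, hm1, hmin⟩ := Finset.exists_min_image FB τ hne
      have hsplit := Finset.card_filter_add_card_filter_not (s := FB) (fun e => τ e = τ m1)
      have g1 := grp (τ m1) (lo m1 hm1)
      have g2 : (FB.filter (fun e => ¬ τ e = τ m1)).card ≤ C1 := by
        rcases (FB.filter (fun e => ¬ τ e = τ m1)).eq_empty_or_nonempty with h | ⟨m2, hm2⟩
        · rw [h]; simp
        · rw [Finset.mem_filter] at hm2
          refine (Finset.card_le_card ?_).trans (grp (τ m2) (lo m2 hm2.1))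
          intro e he
          rw [Finset.mem_filter] at he ⊢
          refine ⟨he.1, ?_⟩
          by_contra hne2
          have l1 := hmin e he.1
          have l2 := hmin m2 hm2.1
          have l3 := he.2
          have l4 := hm2.2
          rcases Nat.lt_or_ge (τ e) (τ m2) with h | h
          · exact three m1 hm1 e he.1 m2 hm2.1 (by omega) h
          · exact three m1 hm1 m2 hm2.1 e he.1 (by omega) (by omega)
      omega
  have hsplit := Finset.card_filter_add_card_filter_not (s := F) PE
  omega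

theorem first_block {Wo : List α → Prop} {z : ℕ} {w : List α} (hz : z ≤ w.length) (hw : Wo w) :
    ∃ N', z ≤ N' ∧ N' ≤ w.length ∧ Wo (w.take N') ∧ ∀ t, z ≤ t → t < N' → ¬ Wo (w.take t) := by
  classical
  have hex : ∃ N', z ≤ N' ∧ Wo (w.take N') := ⟨w.length, hz, by rw [List.take_length]; exact hw⟩
  refine ⟨Nat.find hex, (Nat.find_spec hex).1, ?_, (Nat.find_spec hex).2, ?_⟩
  · exact Nat.find_min' hex ⟨hz, by rw [List.take_length]; exact hw⟩
  · intro t h1 h2 h3
    exact Nat.find_min hex h2 ⟨h1, h3⟩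

theorem same {Wo : List α → Prop} {n W z N1 p0 : ℕ} (hw : LW Wo n W) {BadT : ℕ → Prop}
    (hz : p0 + N1 + n ≤ z) {A A' C : List α} (hA : A.length ≤ p0) (hAA : A'.length = A.length)
    (h : A ++ C ∈ Bad Wo z N1 p0 BadT) : A' ++ C ∈ Bad Wo z N1 p0 BadT := by
  obtain ⟨⟨h1, h2, h3⟩, h4⟩ := h
  have hl : (A ++ C).length = A.length + C.length := List.length_append
  have hl' : (A' ++ C).length = A'.length + C.length := List.length_append
  refine ⟨⟨by omega, ?_, ?_⟩, ?_⟩
  · rw [hw.loc _ _ (by omega)] at h2 ⊢; exact h2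
  · intro t ht1 ht2 ht3
    exact h3 t ht1 (by omega)
      ((shift hw (A := A') (A' := A) (C := C) (by omega) (by omega) (by omega) (by omega)).1 ht3)
  · rcases h4 with h | ⟨t, q1, q2, q3⟩ | h
    · exact Or.inl (by omega)
    · exact Or.inr (Or.inl ⟨t, q1, q2,
        (shift hw (A := A) (A' := A') (C := C) (by omega) (by omega) (by omega) (by omega)).1 q3⟩)
    · refine Or.inr (Or.inr ?_)
      have e : (A' ++ C).length - p0 = (A ++ C).length - p0 := by omega
      rw [e]; exact h

/-- **C2** -/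
theorem C2 {S V : Type} [Monoid S] [AddCommGroup V] {Wo : List α → Prop}
    {n W z N1 La p0 K C1 : ℕ} (hw : LW Wo n W) {c : ℕ → ℕ}
    {BadT : ℕ → Prop} (hr : Rul K N1 La C1 c BadT) (hc : ∀ k < K, c k ≤ p0)
    (hz : p0 + N1 + p0 + La + n ≤ z) (hW : 2 * N1 + 2 * p0 ≤ W)
    {f : α → S} {act : V → S → V} {nu1 : List α → V}
    {lam2 : ℕ → List α → Option V} {rho2 : ℕ → List α → S → Option V}
    {nu : List α → S → V}
    (hs : ∀ k < K, ∀ (P Q : List α) (y : S) (v b : V), P.length = c k →
      lam2 k P = some v → rho2 k Q y = some b →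
        b = act v (ExactR_237.pr f (P ++ Q) * y) + nu (P ++ Q) y)
    (hcp : ∀ (u : List α) (y : S) (v : V), (∀ k < K, c k ≤ u.length) →
      ∃ I : Finset ℕ, 2 + 2 * C1 ≤ I.card ∧ ∀ k ∈ I, k < K ∧ lam2 k (u.take (c k)) = some v ∧
            (rho2 k (u.drop (c k)) y).isSome)
    (u : List α) (hu : u ∈ Bad Wo z N1 p0 BadT) (x : V) (t : List α)
    (ht : t ∈ (Bad Wo z N1 p0 BadT) ^ 1) :
    ∃ p q y, u ++ t = p ++ q ∧ p ∈ L2 lam2 c K x ∧
      q ∈ Rsem (XX Wo z) (Bad Wo z N1 p0 BadT)
        (TT (ExactR_237.pr f) act nu1 (fun X => nu X 1) p0) 1 (L2 lam2 c K) y := by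
  classical
  rw [pow_one] at ht
  have hul := hu.1.1
  have htl := ht.1.1
  obtain ⟨I, hI, hIk⟩ := hcp (u.take p0) 1 x (by
    intro k hk; rw [List.length_take]; have := hc k hk; omega)
  -- an unspoiled place
  have hex : ∃ k ∈ I, ∀ k' < K, k' ≠ k → ¬ BP Wo z N1 p0 BadT c (u ++ t) k k' := by
    by_contra hcon
    push Not at hcon
    choose! g g1 g2 g3 using hcon
    have := count hw hr hc hz hW (u ++ t) (I.image fun k => (k, g k)) (by
      intro ab hab
      obtain ⟨k, hk, rfl⟩ := Finset.mem_image.1 hab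
      exact ⟨(hIk k hk).1, g1 k hk, fun h => g2 k hk h.symm, g3 k hk⟩)
    rw [Finset.card_image_of_injective _ (fun a b h => (Prod.mk.inj h).1)] at this
    omega
  obtain ⟨k, hkI, hk⟩ := hex
  obtain ⟨hkK, hlam, hrho⟩ := hIk k hkI
  have hck := hc k hkK
  rw [List.take_take, Nat.min_eq_left hck] at hlam
  obtain ⟨b0, hb0⟩ := Option.isSome_iff_exists.1 hrho
  have hlk : (u.take (c k)).length = c k := by rw [List.length_take]; omega
  refine ⟨u.take (c k), u.drop (c k) ++ t,
    TT (ExactR_237.pr f) act nu1 (fun X => nu X 1) p0 t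
      (TT (ExactR_237.pr f) act nu1 (fun X => nu X 1) p0 u x), ?_, ⟨k, hkK, hlk, hlam⟩, ?_⟩
  · rw [← List.append_assoc, List.take_append_drop]
  rintro x' p' ⟨k', hk', hpl, hlam'⟩
  have hck' := hc k' hk'
  by_cases hkk : k' = k
  · subst hkk
    left
    have hu' : p' ++ u.drop (c k') ∈ Bad Wo z N1 p0 BadT := by
      refine same hw (by omega) (A := u.take (c k')) (by omega) (by omega) ?_
      rw [List.take_append_drop]; exact hu
    -- the values agree
    have hval : TT (ExactR_237.pr f) act nu1 (fun X => nu X 1) p0 (p' ++ u.drop (c k')) x' =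
        TT (ExactR_237.pr f) act nu1 (fun X => nu X 1) p0 u x := by
      have q1 := hs k' hkK _ _ _ _ _ hlk hlam hb0
      have q2 := hs k' hkK _ _ _ _ _ hpl hlam' hb0
      have e1 : u.take (c k') ++ (u.take p0).drop (c k') = u.take p0 := by
        conv_rhs => rw [← List.take_append_drop (c k') (u.take p0)]
        rw [List.take_take, Nat.min_eq_left hck]
      have e2 : (p' ++ u.drop (c k')).take p0 = p' ++ (u.take p0).drop (c k') := by
        rw [List.take_append, List.take_of_length_le (by omega), hpl, List.drop_take]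
      have e3 : (p' ++ u.drop (c k')).drop p0 = u.drop p0 := by
        rw [List.drop_append, List.drop_of_length_le (by omega), hpl, List.drop_drop,
          List.nil_append]
        congr 1; omega
      rw [e1] at q1
      unfold TT
      rw [e2, e3]
      simp only [mul_one] at q1 q2
      rw [← q2, ← q1]
    refine ⟨TT (ExactR_237.pr f) act nu1 (fun X => nu X 1) p0 u x, Language.mem_mul.2
      ⟨p' ++ u.drop (c k'), ⟨hu', hval⟩, t, ⟨_, Language.mem_mul.2 ⟨t, ⟨ht, rfl⟩, [],
        ⟨rfl, rfl⟩, by simp⟩⟩, by simp⟩⟩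
  · right
    left
    set w' : List α := p' ++ (u.drop (c k) ++ t) with hw'
    have hw'l : w'.length = c k' + (u.length - c k + t.length) := by
      rw [hw', List.length_append, List.length_append, List.length_drop, hpl]
    have hwe : u ++ t = u.take (c k) ++ (u.drop (c k) ++ t) := by
      rw [← List.append_assoc, List.take_append_drop]
    have hWw' : Wo w' := by
      rw [hw', ← List.append_assoc, hw.loc _ _ (by omega)]
      exact ht.1.2.1
    obtain ⟨N', n1, n2, n3, n4⟩ := first_block (z := z) (w := w') (by omega) hWw'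
    have htk : ∀ s ≤ N', (w'.take N').take s = w'.take s := by
      intro s hs; rw [List.take_take, Nat.min_eq_left hs]
    have hNl : (w'.take N').length = N' := by rw [List.length_take]; omega
    refine ⟨w'.take N', ⟨by omega, n3, ?_⟩, ?_, List.take_prefix _ _⟩
    · intro s h1 h2 h3
      rw [hNl] at h2
      rw [htk s (by omega)] at h3
      exact n4 s h1 h2 h3
    · intro hbad
      -- translation of walls
      have tr : ∀ s, z ≤ s + N1 → s ≤ w'.length →
          (Wo (w'.take s) ↔ Wo ((u ++ t).take (s + c k - c k'))) := by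
        intro s h1 h2
        rw [hwe, hw']
        refine shift hw (A := p') (A' := u.take (c k)) (C := u.drop (c k) ++ t) ?_ ?_ ?_ ?_
        · omega
        · omega
        · omega
        · rw [← hw']; exact h2
      refine hk k' hk' hkk ⟨N', n1, ?_, (tr N' (by omega) n2).1 n3, ?_, ?_⟩
      · rw [List.length_append]; omega
      · intro s h1 h2 h3
        exact n4 s h1 h2 ((tr s (by omega) (by omega)).2 h3)
      · rcases hbad.2 with h | ⟨s, h1, h2, h3⟩ | h
        · rw [hNl] at h; exact Or.inl h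
        · rw [htk s (by omega)] at h3
          exact Or.inr (Or.inl ⟨s, h1, h2, (tr s h1 (by omega)).1 h3⟩)
        · rw [hNl] at h; exact Or.inr (Or.inr h)

end Crest.Agent.R320.CC_247
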