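import Crest.Agent.R320.Top5_110

/-!
# Row 320: completeness statements C1, C2 of `Top5_110.top_sem` for the natural zones (helper285)

Zones: `Zn` = words of length `≥ z` that end in a wall and have no wall at a place in `[z, |X|)`
(`Wo` left-looking with window `n`).  Scheme 1 = any gadget whose completeness depends on the
length only; scheme 2 = an exact gadget at places `c k ≤ p0` with enough legal places.
-/

set_option autoImplicit false

namespace Crest.Agent.R320.CC_285

open Crest.Agent.R320.Hk_851 Crest.Agent.R320.Code110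

universe u v w

variable {α : Type u} {S : Type v} [Monoid S] {V : Type w} [AddCommGroup V]

def Zn (Wo : List α → Prop) (z : ℕ) : Language α :=
  {X | z ≤ X.length ∧ Wo X ∧ ∀ t, z ≤ t → t < X.length → ¬ Wo (X.take t)}

def EB (Wo : List α → Prop) (z N1 : ℕ) (X : List α) : Prop :=
  ∃ t, z ≤ t + N1 ∧ t < z + N1 ∧ t ≤ X.length ∧ Wo (X.take t)

def Bd (Wo : List α → Prop) (z N1 p0 : ℕ) (BadT : ℕ → Prop) : Language α :=
  {X | X ∈ Zn Wo z ∧ (EB Wo z N1 X ∨ BadT (X.length - p0))}

def TT (φ : List α → S) (act : V → S → V) (nu2 nu1 : List α → V) (p0 : ℕ) (X : List α) (x : V) :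
    V :=
  act (act x (φ (X.take p0)) + nu2 (X.take p0)) (φ (X.drop p0)) + nu1 (X.drop p0)

def L1 (φ : List α → S) (act : V → S → V) (nu2 : List α → V) (lam : List α → Option V) (p0 : ℕ)
    (x : V) : Language α :=
  {p | p0 ≤ p.length ∧ lam (p.drop p0) = some (act x (φ (p.take p0)) + nu2 (p.take p0))}

def L2 (lam2 : ℕ → List α → Option V) (K : ℕ) (c : ℕ → ℕ) (x : V) : Language α :=
  {p | ∃ k < K, p.length = c k ∧ lam2 k p = some x}

section

variable {Wo : List α → Prop} {n z N1 p0 : ℕ} {BadT : ℕ → Prop}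
  {φ : List α → S} {act : V → S → V} {nu2 nu1 : List α → V} {lam rho : List α → Option V}

theorem wo_sh (hloc : ∀ P Q : List α, n ≤ Q.length → (Wo (P ++ Q) ↔ Wo Q)) {P Q : List α} {t : ℕ}
    (h1 : P.length + n ≤ t) (h2 : t ≤ (P ++ Q).length) :
    (Wo ((P ++ Q).take t) ↔ Wo (Q.take (t - P.length))) := by
  rw [List.length_append] at h2
  rw [List.take_append, List.take_of_length_le (by omega : P.length ≤ t)]
  exact hloc _ _ (by rw [List.length_take]; omega)

/-- shift of walls -/
theorem wo_shift (hloc : ∀ P Q : List α, n ≤ Q.length → (Wo (P ++ Q) ↔ Wo Q))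
    {P P' Q : List α} {t t' : ℕ} (h1 : P.length + n ≤ t) (h2 : t ≤ (P ++ Q).length)
    (h : t + P'.length = t' + P.length) :
    (Wo ((P ++ Q).take t) ↔ Wo ((P' ++ Q).take t')) := by
  rw [wo_sh hloc h1 h2, wo_sh hloc (by omega) (by rw [List.length_append] at *; omega)]
  have : t - P.length = t' - P'.length := by omega
  rw [this]

theorem zn_shift (hloc : ∀ P Q : List α, n ≤ Q.length → (Wo (P ++ Q) ↔ Wo Q))
    {P P' Q : List α} {M : ℕ} (hP : P.length ≤ M) (hP' : P'.length ≤ M) (hM : M + n + N1 ≤ z)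
    (hd : P.length ≤ P'.length + N1) (hd' : P'.length ≤ P.length + N1)
    (hX : P ++ Q ∈ Zn Wo z) (hE : ¬ EB Wo z N1 (P ++ Q)) : P' ++ Q ∈ Zn Wo z := by
  obtain ⟨h1, h2, h3⟩ := hX
  have hlen : z + N1 ≤ (P ++ Q).length := by
    by_contra hcon
    exact hE ⟨(P ++ Q).length, by omega, by omega, le_rfl, by rw [List.take_length]; exact h2⟩
  have hl := List.length_append (as := P) (bs := Q)
  have hl' := List.length_append (as := P') (bs := Q)
  refine ⟨by omega, ?_, ?_⟩
  · rw [hloc _ _ (by omega)]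
    rwa [hloc _ _ (by omega)] at h2
  · intro t ht1 ht2 hw
    have hw' : Wo ((P ++ Q).take (t + P.length - P'.length)) := by
      rw [wo_shift hloc (P' := P) (t' := t + P.length - P'.length) (by omega) (by omega)
        (by omega)] at hw
      exact hw
    by_cases hz : z ≤ t + P.length - P'.length
    · exact h3 _ hz (by omega) hw'
    · exact hE ⟨_, by omega, by omega, by omega, hw'⟩

theorem C1 (hloc : ∀ P Q : List α, n ≤ Q.length → (Wo (P ++ Q) ↔ Wo Q))
    (hlam : ∀ p v, lam p = some v → p.length ≤ N1)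
    (hs : ∀ p q v r, lam p = some v → rho q = some r → r = act v (φ (p ++ q)) + nu1 (p ++ q))
    {La : ℕ} (hc : ∀ u : List α, La ≤ u.length → ¬ BadT u.length → ∀ v, ∃ p q, p ++ q = u ∧
      lam p = some v ∧ (rho q).isSome)
    (hz : p0 + La + N1 + n + N1 ≤ z)
    {X : List α} (hX : X ∈ Zn Wo z) (hb : X ∉ Bd Wo z N1 p0 BadT) (x : V) :
    ∃ p q, X = p ++ q ∧ p ∈ L1 φ act nu2 lam p0 x ∧ ∀ x', ∀ p' ∈ L1 φ act nu2 lam p0 x',
      p' ++ q ∈ Zn Wo z ∧ TT φ act nu2 nu1 p0 (p' ++ q) x' = TT φ act nu2 nu1 p0 X x := by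
  have hXz := hX.1
  have hE : ¬ EB Wo z N1 X := fun h => hb ⟨hX, Or.inl h⟩
  have hB : ¬ BadT (X.length - p0) := fun h => hb ⟨hX, Or.inr h⟩
  have hYl : (X.drop p0).length = X.length - p0 := List.length_drop
  obtain ⟨P, Q, hPQ, hP, hQ⟩ := hc (X.drop p0) (by omega) (by rw [hYl]; exact hB)
    (act x (φ (X.take p0)) + nu2 (X.take p0))
  obtain ⟨r, hr⟩ := Option.isSome_iff_exists.1 hQ
  have hT0 : (X.take p0).length = p0 := by rw [List.length_take]; omega
  have hXe : X = (X.take p0 ++ P) ++ Q := by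
    rw [List.append_assoc, hPQ, List.take_append_drop]
  have hr1 := hs P Q _ r hP hr
  rw [hPQ] at hr1
  refine ⟨X.take p0 ++ P, Q, hXe, ⟨by rw [List.length_append]; omega, ?_⟩, ?_⟩
  · rw [List.take_left' hT0, List.drop_left' hT0]; exact hP
  · intro x' p' hp'
    obtain ⟨hp1, hp2⟩ := hp'
    have hlp := hlam _ _ hp2
    have hlP := hlam _ _ hP
    rw [List.length_drop] at hlp
    constructor
    · rw [hXe] at hX hE
      refine zn_shift hloc (M := p0 + N1) ?_ (by omega) (by omega) ?_ ?_ hX hE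
      all_goals rw [List.length_append]; omega
    · have h1 := hs _ _ _ r hp2 hr
      have h2 : (p' ++ Q).take p0 = p'.take p0 := List.take_append_of_le_length hp1
      have h3 : (p' ++ Q).drop p0 = p'.drop p0 ++ Q := List.drop_append_of_le_length hp1
      unfold TT
      rw [h2, h3, ← h1, hr1]

theorem bd_congr (hloc : ∀ P Q : List α, n ≤ Q.length → (Wo (P ++ Q) ↔ Wo Q))
    {P P' Q : List α} (hl : P.length = P'.length) (hP : P.length ≤ p0) (hz : p0 + N1 + n ≤ z)
    (hX : P ++ Q ∈ Bd Wo z N1 p0 BadT) : P' ++ Q ∈ Bd Wo z N1 p0 BadT := by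
  obtain ⟨⟨h1, h2, h3⟩, h4⟩ := hX
  have hll : (P' ++ Q).length = (P ++ Q).length := by
    rw [List.length_append, List.length_append, hl]
  have hlq := List.length_append (as := P) (bs := Q)
  refine ⟨⟨by omega, ?_, ?_⟩, ?_⟩
  · rw [hloc _ _ (by omega)]
    rwa [hloc _ _ (by omega)] at h2
  · intro t ht1 ht2 hw
    refine h3 t ht1 (by omega) ?_
    rwa [wo_shift hloc (P' := P) (t' := t) (by omega) (by omega) (by omega)] at hw
  · rcases h4 with ⟨t, a1, a2, a3, a4⟩ | h4
    · left
      refine ⟨t, a1, a2, by omega, ?_⟩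
      rwa [wo_shift hloc (P' := P') (t' := t) (by omega) (by omega) (by omega)] at a4
    · right
      rw [hll]; exact h4

theorem C2 {W : ℕ} (hloc : ∀ P Q : List α, n ≤ Q.length → (Wo (P ++ Q) ↔ Wo Q))
    (hsep : ∀ (P : List α) (d : ℕ), Wo P → 0 < d → d ≤ W → ¬ Wo (P.take (P.length - d)))
    {K : ℕ} {c : ℕ → ℕ} {lam2 rho2 : ℕ → List α → Option V} {C0 La : ℕ}
    (hs2 : ∀ k < K, ∀ p q v b, p.length = c k → lam2 k p = some v → rho2 k q = some b →
      b = act v (φ (p ++ q)) + nu2 (p ++ q))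
    (hc2 : ∀ u : List α, u.length = p0 → ∀ v, ∃ I : Finset ℕ, 2 + 2 * C0 ≤ I.card ∧
      ∀ k ∈ I, k < K ∧ lam2 k (u.take (c k)) = some v ∧ (rho2 k (u.drop (c k))).isSome)
    (hcp : ∀ k < K, c k ≤ p0)
    (hE : ∀ i < K, ∀ j < K, ∀ k < K, ∀ l < K, i ≠ j → k ≠ l → (i ≠ k ∨ j ≠ l) →
      c i + c l + 2 * N1 ≤ c k + c j ∨ c k + c j + 2 * N1 ≤ c i + c l)
    (hB : ∀ T, La ≤ T → ∀ A : Finset (ℕ × ℕ), (∀ p ∈ A, p.1 < K ∧ p.2 < K ∧ p.1 ≠ p.2 ∧
      BadT (T + c p.2 - c p.1)) → A.card ≤ C0)
    (hz0 : 0 < z) (hz : 2 * p0 + La + N1 + n ≤ z) (hW : 2 * (p0 + N1) ≤ W)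
    {X X' : List α} (hX : X ∈ Bd Wo z N1 p0 BadT) (hX' : X' ∈ Bd Wo z N1 p0 BadT) (x : V) :
    ∃ p q, X ++ X' = p ++ q ∧ p ∈ L2 lam2 K c x ∧ ∀ x', ∀ p' ∈ L2 lam2 K c x',
      (∃ Y ∈ Bd Wo z N1 p0 BadT, p' ++ q = Y ++ X' ∧
        TT φ act nu2 nu1 p0 Y x' = TT φ act nu2 nu1 p0 X x) ∨
      (∃ Y ∈ Zn Wo z, Y ∉ Bd Wo z N1 p0 BadT ∧ Y <+: p' ++ q) := by
  classical
  have hX1 := hX.1.1
  have hX2 := hX.1.2.1
  have hX'1 := hX'.1.1
  have hX'2 := hX'.1.2.1
  set U := X ++ X' with hU
  have hUl : U.length = X.length + X'.length := by rw [hU, List.length_append]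
  -- separation inside U
  have hsepU : ∀ w w', w < w' → w' ≤ U.length → w' ≤ w + W → Wo (U.take w) →
      ¬ Wo (U.take w') := by
    intro w w' h1 h2 h3 hw hw'
    have h4 := hsep (U.take w') (w' - w) hw' (by omega) (by omega)
    rw [List.length_take, List.take_take] at h4
    have : min (min w' U.length - (w' - w)) w' = w := by omega
    rw [this] at h4
    exact h4 hw
  -- spoiled places, mode E
  let SE : Finset ℕ := (Finset.range K).filter fun k => ∃ j < K, j ≠ k ∧ ∃ w, w ≤ U.length ∧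
    Wo (U.take w) ∧ z + c k ≤ w + c j + N1 ∧ w + c j < z + N1 + c k
  have hSE : SE.card ≤ 1 := by
    refine Finset.card_le_one.2 ?_
    intro a ha b hb
    obtain ⟨ha1, j, hj, hja, w, hw1, hw2, hw3, hw4⟩ := Finset.mem_filter.1 ha
    obtain ⟨hb1, j', hj', hjb, w', hw1', hw2', hw3', hw4'⟩ := Finset.mem_filter.1 hb
    have haK := Finset.mem_range.1 ha1
    have hbK := Finset.mem_range.1 hb1
    have c1 := hcp a haK
    have c2 := hcp b hbK
    have c3 := hcp j hj
    have c4 := hcp j' hj'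
    have hww : w = w' := by
      rcases lt_trichotomy w w' with h | h | h
      · exact (hsepU w w' h hw1' (by omega) hw2 hw2').elim
      · exact h
      · exact (hsepU w' w h hw1 (by omega) hw2' hw2).elim
    subst hww
    by_contra hab
    rcases hE j hj a haK j' hj' b hbK hja hjb (Or.inr hab) with h | h <;> omega
  let SB : ℕ → Finset ℕ := fun T => ((Finset.range K ×ˢ Finset.range K).filter fun p =>
    p.1 ≠ p.2 ∧ BadT (T + c p.2 - c p.1)).image Prod.fst
  have hSB : ∀ T, La ≤ T → (SB T).card ≤ C0 := by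
    intro T hT
    refine le_trans Finset.card_image_le (hB T hT _ ?_)
    intro p hp
    obtain ⟨h1, h2, h3⟩ := Finset.mem_filter.1 hp
    obtain ⟨h4, h5⟩ := Finset.mem_product.1 h1
    exact ⟨Finset.mem_range.1 h4, Finset.mem_range.1 h5, h2, h3⟩
  have hWU : Wo (U.take U.length) := by
    rw [List.take_length, hU, hloc _ _ (by omega)]; exact hX'2
  have hex1 : ∃ t, z ≤ t + p0 ∧ t ≤ U.length ∧ Wo (U.take t) :=
    ⟨X.length, by omega, by omega, by rw [hU, List.take_left' rfl]; exact hX2⟩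
  obtain ⟨f1, hf1, hf1m⟩ : ∃ f1, (z ≤ f1 + p0 ∧ f1 ≤ U.length ∧ Wo (U.take f1)) ∧
      ∀ t, z ≤ t + p0 → t ≤ U.length → Wo (U.take t) → f1 ≤ t :=
    ⟨Nat.find hex1, Nat.find_spec hex1, fun t a b e => Nat.find_min' hex1 ⟨a, b, e⟩⟩
  have hf1X : f1 ≤ X.length :=
    hf1m X.length (by omega) (by omega) (by rw [hU, List.take_left' rfl]; exact hX2)
  have hex2 : ∃ t, f1 < t ∧ t ≤ U.length ∧ Wo (U.take t) := ⟨U.length, by omega, le_rfl, hWU⟩
  obtain ⟨f2, hf2, hf2m⟩ : ∃ f2, (f1 < f2 ∧ f2 ≤ U.length ∧ Wo (U.take f2)) ∧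
      ∀ t, f1 < t → t ≤ U.length → Wo (U.take t) → f2 ≤ t :=
    ⟨Nat.find hex2, Nat.find_spec hex2, fun t a b e => Nat.find_min' hex2 ⟨a, b, e⟩⟩
  have hfirst : ∀ y t, z ≤ y + p0 → y ≤ z + p0 → y ≤ t → t ≤ U.length → Wo (U.take t) →
      (∀ t', y ≤ t' → t' < t → ¬ Wo (U.take t')) → t = f1 ∨ t = f2 := by
    intro y t h1 h2 h3 h4 h5 h6
    have g1 := hf1m t (by omega) h4 h5
    rcases Nat.eq_or_lt_of_le g1 with g | g
    · exact Or.inl g.symm
    · right
      have g2 : f1 < y := by
        by_contra hcon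
        exact h6 f1 (by omega) g hf1.2.2
      have g3 := hf2m t g h4 h5
      rcases Nat.eq_or_lt_of_le g3 with g4 | g4
      · exact g4.symm
      · exfalso
        have g5 : f2 < y := by
          by_contra hcon
          exact h6 f2 (by omega) g4 hf2.2.2
        exact hsepU f1 f2 hf2.1 hf2.2.1 (by omega) hf1.2.2 hf2.2.2
  obtain ⟨I, hI, hI2⟩ := hc2 (X.take p0) (by rw [List.length_take]; omega) x
  obtain ⟨k, hkI, hkS⟩ : ∃ k ∈ I, k ∉ SE ∪ (SB (f1 - p0) ∪ SB (f2 - p0)) := by
    by_contra hcon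
    push Not at hcon
    have h1 : I.card ≤ (SE ∪ (SB (f1 - p0) ∪ SB (f2 - p0))).card := Finset.card_le_card hcon
    have h2 := Finset.card_union_le SE (SB (f1 - p0) ∪ SB (f2 - p0))
    have h3 := Finset.card_union_le (SB (f1 - p0)) (SB (f2 - p0))
    have h4 := hSB (f1 - p0) (by omega)
    have h5 := hSB (f2 - p0) (by omega)
    omega
  obtain ⟨hk, hlk, hrk⟩ := hI2 k hkI
  have hck := hcp k hk
  obtain ⟨b, hb⟩ := Option.isSome_iff_exists.1 hrk
  have htt : (X.take p0).take (c k) = X.take (c k) := by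
    rw [List.take_take, Nat.min_eq_left hck]
  rw [htt] at hlk
  have hpl : (X.take (c k)).length = c k := by rw [List.length_take]; omega
  have hUe : U = X.take (c k) ++ (X.drop (c k) ++ X') := by
    rw [← List.append_assoc, List.take_append_drop]
  refine ⟨X.take (c k), X.drop (c k) ++ X', hUe, ⟨k, hk, hpl, hlk⟩, ?_⟩
  rintro x' p' ⟨j, hj, hpj, hlj⟩
  have hcj := hcp j hj
  by_cases hjk : j = k
  · subst hjk
    left
    refine ⟨p' ++ X.drop (c j), ?_, by rw [List.append_assoc], ?_⟩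
    · refine bd_congr hloc (P := X.take (c j)) (by omega) (by omega) (by omega) ?_
      rw [List.take_append_drop]; exact hX
    · have e1 : (p' ++ X.drop (c j)).take p0 = p' ++ (X.take p0).drop (c j) := by
        rw [List.take_append, List.take_of_length_le (by omega : p'.length ≤ p0), hpj,
          List.drop_take]
      have e2 : (p' ++ X.drop (c j)).drop p0 = X.drop p0 := by
        rw [List.drop_append, List.drop_of_length_le (by omega : p'.length ≤ p0), hpj,
          List.nil_append, List.drop_drop]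
        congr 1
        omega
      have e3 := hs2 j hj p' _ x' b hpj hlj hb
      have e4 := hs2 j hj (X.take (c j)) _ x b hpl hlk hb
      have e5 : X.take (c j) ++ (X.take p0).drop (c j) = X.take p0 := by
        rw [← htt, List.take_append_drop]
      rw [e5] at e4
      unfold TT
      rw [e1, e2, ← e3, e4]
  · right
    set q := X.drop (c k) ++ X' with hq
    have hql : q.length = X.length - c k + X'.length := by
      rw [hq, List.length_append, List.length_drop]
    have hpq : (p' ++ q).length = c j + q.length := by rw [List.length_append, hpj]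
    have hUq : U.length = c k + q.length := by rw [hUe, List.length_append, hpl]
    -- transfer of walls
    have htr : ∀ t, p0 + n ≤ t → t ≤ (p' ++ q).length →
        (Wo ((p' ++ q).take t) ↔ Wo (U.take (t + c k - c j))) := by
      intro t h1 h2
      rw [hUe]
      exact wo_shift hloc (by omega) h2 (by omega)
    have hend : Wo ((p' ++ q).take (p' ++ q).length) := by
      rw [List.take_length, hq, ← List.append_assoc, hloc _ _ (by omega)]; exact hX'2
    have hex3 : ∃ t, z ≤ t ∧ t ≤ (p' ++ q).length ∧ Wo ((p' ++ q).take t) :=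
      ⟨_, by omega, le_rfl, hend⟩
    obtain ⟨t3, ht3, ht3m⟩ : ∃ t3, (z ≤ t3 ∧ t3 ≤ (p' ++ q).length ∧
        Wo ((p' ++ q).take t3)) ∧ ∀ t, z ≤ t → t < t3 → ¬ Wo ((p' ++ q).take t) :=
      ⟨Nat.find hex3, Nat.find_spec hex3, fun t a b e => Nat.find_min hex3 b
        ⟨a, by have := (Nat.find_spec hex3).2.1; omega, e⟩⟩
    have hYl : ((p' ++ q).take t3).length = t3 := by rw [List.length_take]; omega
    refine ⟨(p' ++ q).take t3, ⟨by omega, ht3.2.2, ?_⟩, ?_, List.take_prefix _ _⟩
    · intro t h1 h2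
      rw [List.take_take, Nat.min_eq_left (by omega)]
      exact ht3m t h1 (by omega)
    · rintro ⟨-, ⟨t, a1, a2, a3, a4⟩ | hBT⟩
      · rw [List.take_take, Nat.min_eq_left (by omega)] at a4
        rw [htr t (by omega) (by omega)] at a4
        refine hkS (Finset.mem_union_left _ (Finset.mem_filter.2 ⟨Finset.mem_range.2 hk, j, hj,
          hjk, _, ?_, a4, by omega, by omega⟩))
        omega
      · rw [hYl] at hBT
        have hw3 := (htr t3 (by omega) ht3.2.1).1 ht3.2.2
        have hno : ∀ t', z + c k - c j ≤ t' → t' < t3 + c k - c j → ¬ Wo (U.take t') := by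
          intro t' h1 h2 hw
          refine ht3m (t' + c j - c k) (by omega) (by omega) ?_
          rw [htr _ (by omega) (by omega)]
          have : t' + c j - c k + c k - c j = t' := by omega
          rw [this]; exact hw
        have hmem : ∀ f, z ≤ f + p0 → t3 + c k - c j = f → k ∈ SB (f - p0) := by
          intro f hf he
          refine Finset.mem_image.2 ⟨(k, j), Finset.mem_filter.2 ⟨Finset.mem_product.2
            ⟨Finset.mem_range.2 hk, Finset.mem_range.2 hj⟩, fun e => hjk e.symm, ?_⟩, rfl⟩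
          have : f - p0 + c j - c k = t3 - p0 := by omega
          show BadT (f - p0 + c j - c k)
          rw [this]; exact hBT
        rcases hfirst (z + c k - c j) _ (by omega) (by omega) (by omega) (by omega) hw3 hno
          with h | h
        · exact hkS (Finset.mem_union_right _ (Finset.mem_union_left _ (hmem f1 hf1.1 h)))
        · exact hkS (Finset.mem_union_right _ (Finset.mem_union_right _
            (hmem f2 (by omega) h)))

end

end Crest.Agent.R320.CC_285
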