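import Crest.Agent.R320.Top_517

/-!
# Row 320: natural wall chain, two schemes, completeness (helper855)

Left-looking walls, blocks `XX` = up to the first wall at distance `≥ z`; right labels are
defined semantically (`R1`, `R2`), so soundness is immediate; `c1`, `c2` are the two completeness
statements, from an abstract gadget 1 (`snd1 len1 cmp1`, complete off `BadT`), an abstract exact
gadget 2 (`g2`) and a ruler (`hsep`, `hthin`).
-/

set_option autoImplicit false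

namespace Crest.Agent.R320.CC_855

open Crest.Agent.R320.Hk_851 Crest.Agent.R320.Blk_517 Crest.Agent.R320.Top_517

universe u

/-- data -/
structure Inp (α : Type u) (S V : Type*) [Monoid S] [AddCommGroup V] where
  ph : List α → S
  act : V → S → V
  Wo : List α → Prop
  n : ℕ
  z : ℕ
  p0 : ℕ
  N1 : ℕ
  K : ℕ
  C1 : ℕ
  R : ℕ
  c : ℕ → ℕ
  lam1 : List α → Option V
  rho1 : List α → Option V
  nu1 : List α → V
  BadT : ℤ → Prop
  lam2 : ℕ → List α → Option V
  nu2 : List α → V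
  locW : ∀ P Q : List α, n ≤ Q.length → (Wo (P ++ Q) ↔ Wo Q)
  gapW : ∀ (U : List α) (s t : ℕ), s < t → t ≤ U.length → Wo (U.take s) → Wo (U.take t) →
    s + (2 * p0 + 2 * N1) < t
  hz : p0 + N1 + n + 1 ≤ z
  hc : ∀ k < K, c k ≤ p0
  hc0 : ∀ k < K, 0 < c k
  hsep : ∀ a < K, ∀ a' < K, ∀ b < K, ∀ b' < K, a ≠ a' → b ≠ b' →
    |((c a : ℤ) - c a') - ((c b : ℤ) - c b')| ≤ 2 * N1 → a = b
  hthin : ∀ T : ℤ, ∀ A : Finset ℕ,
    (∀ k ∈ A, k < K ∧ ∃ k' < K, k' ≠ k ∧ BadT (T - ((c k : ℤ) - c k'))) → A.card ≤ C1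
  hR : 1 + 2 * C1 < R
  snd1 : ∀ P Q v b, lam1 P = some v → rho1 Q = some b →
    b = act v (ph (P ++ Q)) + nu1 (P ++ Q)
  len1 : ∀ (P : List α) v, lam1 P = some v → P.length ≤ N1
  cmp1 : ∀ Y : List α, N1 ≤ Y.length → ¬ BadT (Y.length : ℤ) → ∀ v,
    ∃ P Q, Y = P ++ Q ∧ lam1 P = some v ∧ (rho1 Q).isSome
  g2 : ∀ X1 : List α, X1.length = p0 → ∀ v, ∃ I : Finset ℕ, R ≤ I.card ∧ ∀ k ∈ I, k < K ∧
    lam2 k (X1.take (c k)) = some v ∧ ∀ P v', P.length = c k → lam2 k P = some v' →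
      act v' (ph (P ++ X1.drop (c k))) + nu2 (P ++ X1.drop (c k)) = act v (ph X1) + nu2 X1

variable {α : Type u} {S V : Type*} [Monoid S] [AddCommGroup V] (D : Inp α S V)

namespace Inp

/-- blocks -/
def XX : Set (List α) :=
  {X | D.Wo X ∧ D.z ≤ X.length ∧ ∀ t, D.z ≤ t → t < X.length → ¬ D.Wo (X.take t)}

/-- a wall in the end band -/
def EB (X : List α) : Prop :=
  ∃ t, D.z ≤ t + D.N1 ∧ t < D.z + D.N1 ∧ t ≤ X.length ∧ D.Wo (X.take t)

/-- bad blocks -/
def Bad : Set (List α) := {X | X ∈ D.XX ∧ (D.EB X ∨ D.BadT ((X.length : ℤ) - D.p0))}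

/-- block map -/
def T (v : V) (X : List α) : V :=
  D.act (D.act v (D.ph (X.take D.p0)) + D.nu2 (X.take D.p0)) (D.ph (X.drop D.p0)) +
    D.nu1 (X.drop D.p0)

def L1 (v : V) : Language α :=
  {P | ∃ X1 P', X1.length = D.p0 ∧ P = X1 ++ P' ∧
    D.lam1 P' = some (D.act v (D.ph X1) + D.nu2 X1)}

def R1 (b : V) : Language α :=
  {Q | ∀ v, ∀ P ∈ D.L1 v, P ++ Q ∈ D.XX ∧ D.T v (P ++ Q) = b}

def L2 (v : V) : Language α := {P | ∃ k < D.K, P.length = D.c k ∧ D.lam2 k P = some v}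

def R2 (b : V) : Language α :=
  {Q | ∀ v, ∀ P ∈ D.L2 v,
    (∃ X1 ∈ D.Bad, ∃ X2 ∈ D.Bad, P ++ Q = X1 ++ X2 ∧ D.T (D.T v X1) X2 = b) ∨
    (∃ X1 ∈ D.XX, X1 ∉ D.Bad ∧ X1 <+: P ++ Q)}

theorem zpos : 0 < D.z := by have := D.hz; omega

theorem pcode : PCode D.XX := by
  refine ⟨fun h => ?_, fun X hX Y hY h => ?_⟩
  · have := h.2.1; have := D.hz; simp at *; omega
  · obtain ⟨r, rfl⟩ := h
    by_cases hr : r = []
    · subst hr; simp
    · exfalso
      have hl : 0 < r.length := List.length_pos_iff.2 hr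
      refine hY.2.2 X.length hX.2.1 (by rw [List.length_append]; omega) ?_
      rw [List.take_left]; exact hX.1

theorem uniq {X X' w : List α} (hX : X ∈ D.XX) (hX' : X' ∈ D.XX) (h : X <+: w) (h' : X' <+: w) :
    X = X' := by
  rcases List.prefix_or_prefix_of_prefix h h' with h1 | h1
  · exact D.pcode.2 _ hX _ hX' h1
  · exact (D.pcode.2 _ hX' _ hX h1).symm

theorem wtake (P Q : List α) (s : ℕ) (h1 : P.length + D.n ≤ s) (h2 : s ≤ P.length + Q.length) :
    D.Wo ((P ++ Q).take s) ↔ D.Wo (Q.take (s - P.length)) := by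
  have e : (P ++ Q).take s = P ++ Q.take (s - P.length) := by
    rw [List.take_append, List.take_of_length_le (by omega)]
  rw [e]
  exact D.locW _ _ (by rw [List.length_take]; omega)

theorem s1 (v v' : V) (P Q : List α) (hP : P ∈ D.L1 v) (hQ : Q ∈ D.R1 v') :
    P ++ Q ∈ D.XX ∧ D.T v (P ++ Q) = v' := hQ v P hP

theorem badXX : D.Bad ⊆ D.XX := fun _ h => h.1

theorem hL0 (v : V) : [] ∉ D.L2 v := by
  rintro ⟨k, hk, h, -⟩
  have := D.hc0 k hk
  simp at h; omega

theorem hlen (v v' : V) (P Q X : List α) (hP : P ∈ D.L2 v) (hQ : Q ∈ D.R2 v') (hX : X ∈ D.Bad) :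
    ¬ P ++ Q <+: X := by
  intro h
  rcases hQ v P hP with ⟨X1, h1, X2, h2, e, -⟩ | ⟨X1, h1, h2, h3⟩
  · have e1 : X1 <+: X := (List.prefix_append X1 X2).trans (e ▸ h)
    have e2 := D.pcode.2 _ h1.1 _ hX.1 e1
    subst e2
    rw [e] at h
    have := h.length_le
    rw [List.length_append] at this
    have h4 := h2.1.2.1
    have := D.zpos
    omega
  · have e2 := D.pcode.2 _ h1 _ hX.1 (h3.trans h)
    exact h2 (e2 ▸ hX)

theorem s2 (v v' : V) (P Q X1 X2 : List α) (hP : P ∈ D.L2 v) (hQ : Q ∈ D.R2 v')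
    (h1 : X1 ∈ D.Bad) (h2 : X2 ∈ D.Bad)
    (h : X1 ++ X2 <+: P ++ Q ∨ P ++ Q <+: X1 ++ X2) :
    X1 ++ X2 = P ++ Q ∧ D.T (D.T v X1) X2 = v' := by
  rcases hQ v P hP with ⟨Y1, g1, Y2, g2, e, hT⟩ | ⟨Y1, g1, g2, g3⟩
  · have e1 : X1 = Y1 := by
      rcases h with h | h
      · exact D.uniq h1.1 g1.1 ((List.prefix_append X1 X2).trans h)
          (e ▸ List.prefix_append Y1 Y2)
      · exact D.uniq h1.1 g1.1 (List.prefix_append X1 X2)
          (((e ▸ List.prefix_append Y1 Y2 : Y1 <+: P ++ Q)).trans h)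
    subst e1
    have e2 : X2 = Y2 := by
      rw [e] at h
      rcases h with h | h
      · exact D.pcode.2 _ h2.1 _ g2.1 ((List.prefix_append_right_inj X1).1 h)
      · exact (D.pcode.2 _ g2.1 _ h2.1 ((List.prefix_append_right_inj X1).1 h)).symm
    subst e2
    exact ⟨e.symm, hT⟩
  · exfalso
    have e1 : X1 = Y1 := by
      rcases h with h | h
      · exact D.uniq h1.1 g1 ((List.prefix_append X1 X2).trans h) g3
      · exact D.uniq h1.1 g1 (List.prefix_append X1 X2) (g3.trans h)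
    exact g2 (e1 ▸ h1)

theorem c1 (X : List α) (hX : X ∈ D.XX) (hb : X ∉ D.Bad) (v : V) :
    ∃ P Q, X = P ++ Q ∧ P ∈ D.L1 v ∧ Q ∈ D.R1 (D.T v X) := by
  have hz := D.hz
  have hE : ¬ D.EB X := fun h => hb ⟨hX, Or.inl h⟩
  have hB : ¬ D.BadT ((X.length : ℤ) - D.p0) := fun h => hb ⟨hX, Or.inr h⟩
  have hXl : D.z + D.N1 ≤ X.length := by
    by_contra hcon
    exact hE ⟨X.length, by have := hX.2.1; omega, by omega, le_rfl, by
      rw [List.take_length]; exact hX.1⟩
  obtain ⟨P', Q, hY, hl, hr⟩ := D.cmp1 (X.drop D.p0) (by rw [List.length_drop]; omega)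
    (by
      have e : ((X.drop D.p0).length : ℤ) = (X.length : ℤ) - D.p0 := by
        rw [List.length_drop]; omega
      rw [e]; exact hB)
    (D.act v (D.ph (X.take D.p0)) + D.nu2 (X.take D.p0))
  obtain ⟨b0, hb0⟩ := Option.isSome_iff_exists.1 hr
  have hX1 : (X.take D.p0).length = D.p0 := by rw [List.length_take]; omega
  have hP'l := D.len1 _ _ hl
  have hXe : X = (X.take D.p0 ++ P') ++ Q := by
    rw [List.append_assoc, ← hY, List.take_append_drop]
  have hQl : Q.length + P'.length + D.p0 = X.length := by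
    have := congrArg List.length hXe
    simp only [List.length_append, hX1] at this; omega
  have hTX : D.T v X = b0 := by
    show D.act _ (D.ph (X.drop D.p0)) + D.nu1 (X.drop D.p0) = b0
    rw [hY]; exact (D.snd1 _ _ _ _ hl hb0).symm
  refine ⟨X.take D.p0 ++ P', Q, hXe, ⟨X.take D.p0, P', hX1, rfl, hl⟩, ?_⟩
  rintro w P'' ⟨X1, P3, h1, rfl, h3⟩
  have h3l := D.len1 _ _ h3
  have hPl : (X.take D.p0 ++ P').length = D.p0 + P'.length := by
    rw [List.length_append, hX1]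
  have hP''l : (X1 ++ P3).length = D.p0 + P3.length := by rw [List.length_append, h1]
  have hWX : D.Wo ((X.take D.p0 ++ P') ++ Q) := by rw [← hXe]; exact hX.1
  have hWQ : D.Wo Q := (D.locW _ _ (by omega)).1 hWX
  refine ⟨⟨(D.locW _ _ (by omega)).2 hWQ, by rw [List.length_append, hP''l]; omega, ?_⟩, ?_⟩
  · intro t ht htl hW
    rw [List.length_append, hP''l] at htl
    have h5 := (D.wtake (X1 ++ P3) Q t (by rw [hP''l]; omega) (by rw [hP''l]; omega)).1 hW
    rw [hP''l] at h5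
    -- position in X
    have h6 : D.Wo (((X.take D.p0 ++ P') ++ Q).take
        (D.p0 + P'.length + (t - (D.p0 + P3.length)))) := by
      rw [D.wtake _ _ _ (by rw [hPl]; omega) (by rw [hPl]; omega), hPl]
      rw [Nat.add_sub_cancel_left]; exact h5
    rw [← hXe] at h6
    set t' := D.p0 + P'.length + (t - (D.p0 + P3.length)) with ht'
    by_cases hc : D.z ≤ t'
    · exact hX.2.2 t' hc (by omega) h6
    · exact hE ⟨t', by omega, by omega, by omega, h6⟩
  · show D.act (D.act w (D.ph (((X1 ++ P3) ++ Q).take D.p0)) + D.nu2 (((X1 ++ P3) ++ Q).take D.p0))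
      (D.ph (((X1 ++ P3) ++ Q).drop D.p0)) + D.nu1 (((X1 ++ P3) ++ Q).drop D.p0) = D.T v X
    have e1 : ((X1 ++ P3) ++ Q).take D.p0 = X1 := by
      rw [List.append_assoc, ← h1, List.take_left]
    have e2 : ((X1 ++ P3) ++ Q).drop D.p0 = P3 ++ Q := by
      rw [List.append_assoc, ← h1, List.drop_left]
    rw [e1, e2, hTX]
    exact (D.snd1 _ _ _ _ h3 hb0).symm

/-- the spoiling relation: seen from `U` (text from the true anchor), the candidate `a' = a + d`
has a bad first block -/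
def Spd (U : List α) (d : ℤ) : Prop :=
  ∃ s : ℕ, s ≤ U.length ∧ (D.z : ℤ) + d ≤ s ∧ D.Wo (U.take s) ∧
    (∀ t : ℕ, (D.z : ℤ) + d ≤ t → t < s → ¬ D.Wo (U.take t)) ∧
    ((∃ t : ℕ, t ≤ s ∧ (D.z : ℤ) + d ≤ t + D.N1 ∧ (t : ℤ) < D.z + d + D.N1 ∧
      D.Wo (U.take t)) ∨ D.BadT ((s : ℤ) - D.p0 - d))

theorem count (U : List α) (m : ℕ) (hm : D.z ≤ m) (hmU : m < U.length) (hWm : D.Wo (U.take m))
    (hWU : D.Wo (U.take U.length)) (A : Finset ℕ)
    (hA : ∀ k ∈ A, k < D.K ∧ ∃ k' < D.K, k' ≠ k ∧ D.Spd U ((D.c k : ℤ) - D.c k')) :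
    A.card ≤ 1 + 2 * D.C1 := by
  classical
  have hz := D.hz
  have hex1 : ∃ s, s ≤ U.length ∧ D.z ≤ s + D.p0 ∧ D.Wo (U.take s) :=
    ⟨m, hmU.le, by omega, hWm⟩
  obtain ⟨τ1, ⟨h1a, h1b, h1c⟩, hmin1⟩ : ∃ s, (s ≤ U.length ∧ D.z ≤ s + D.p0 ∧ D.Wo (U.take s)) ∧
      ∀ t, t < s → ¬ (t ≤ U.length ∧ D.z ≤ t + D.p0 ∧ D.Wo (U.take t)) :=
    ⟨Nat.find hex1, Nat.find_spec hex1, fun t ht => Nat.find_min hex1 ht⟩
  have hτm : τ1 ≤ m := by
    by_contra h
    exact hmin1 m (by omega) ⟨hmU.le, by omega, hWm⟩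
  have hex2 : ∃ s, s ≤ U.length ∧ τ1 < s ∧ D.Wo (U.take s) :=
    ⟨U.length, le_rfl, by omega, hWU⟩
  obtain ⟨τ2, ⟨h2a, h2b, h2c⟩, hmin2⟩ : ∃ s, (s ≤ U.length ∧ τ1 < s ∧ D.Wo (U.take s)) ∧
      ∀ t, t < s → ¬ (t ≤ U.length ∧ τ1 < t ∧ D.Wo (U.take t)) :=
    ⟨Nat.find hex2, Nat.find_spec hex2, fun t ht => Nat.find_min hex2 ht⟩
  have hgap := D.gapW U τ1 τ2 h2b h2a h1c h2c
  have hcd : ∀ k k', k < D.K → k' < D.K →
      -(D.p0 : ℤ) ≤ (D.c k : ℤ) - D.c k' ∧ (D.c k : ℤ) - D.c k' ≤ D.p0 := by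
    intro k k' hk hk'
    have := D.hc k hk; have := D.hc k' hk'
    constructor <;> omega
  let EE : ℕ → Prop := fun k => ∃ k' < D.K, k' ≠ k ∧ ∃ t : ℕ, t ≤ U.length ∧
    (D.z : ℤ) + ((D.c k : ℤ) - D.c k') ≤ t + D.N1 ∧
    (t : ℤ) < D.z + ((D.c k : ℤ) - D.c k') + D.N1 ∧ D.Wo (U.take t)
  let B1 : ℕ → Prop := fun k => ∃ k' < D.K, k' ≠ k ∧
    D.BadT (((τ1 : ℤ) - D.p0) - ((D.c k : ℤ) - D.c k'))
  let B2 : ℕ → Prop := fun k => ∃ k' < D.K, k' ≠ k ∧
    D.BadT (((τ2 : ℤ) - D.p0) - ((D.c k : ℤ) - D.c k'))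
  have hsub : A ⊆ A.filter EE ∪ (A.filter B1 ∪ A.filter B2) := by
    intro k hkA
    obtain ⟨hk, k', hk', hne, s, hsU, hs1, hs2, hs3, hs4⟩ := hA k hkA
    obtain ⟨hd1, hd2⟩ := hcd k k' hk hk'
    simp only [Finset.mem_union, Finset.mem_filter]
    rcases hs4 with ⟨t, ht1, ht2, ht3, ht4⟩ | hb
    · exact Or.inl ⟨hkA, k', hk', hne, t, by omega, ht2, ht3, ht4⟩
    · by_cases hc : (D.z : ℤ) + ((D.c k : ℤ) - D.c k') ≤ τ1
      · have e : s = τ1 := by
          apply le_antisymm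
          · by_contra h
            exact hs3 τ1 hc (by omega) h1c
          · by_contra h
            exact hmin1 s (by omega) ⟨hsU, by omega, hs2⟩
        subst e
        exact Or.inr (Or.inl ⟨hkA, k', hk', hne, hb⟩)
      · have e : s = τ2 := by
          apply le_antisymm
          · by_contra h
            exact hs3 τ2 (by omega) (by omega) h2c
          · by_contra h
            exact hmin2 s (by omega) ⟨hsU, by omega, hs2⟩
        subst e
        exact Or.inr (Or.inr ⟨hkA, k', hk', hne, hb⟩)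
  have c1 : (A.filter EE).card ≤ 1 := by
    rw [Finset.card_le_one]
    intro a ha b hb
    rw [Finset.mem_filter] at ha hb
    obtain ⟨haA, a', ha', hna, t, ht0, ht1, ht2, ht3⟩ := ha
    obtain ⟨hbA, b', hb', hnb, t', ht0', ht1', ht2', ht3'⟩ := hb
    have haK := (hA a haA).1
    have hbK := (hA b hbA).1
    obtain ⟨x1, x2⟩ := hcd a a' haK ha'
    obtain ⟨y1, y2⟩ := hcd b b' hbK hb'
    have e : t = t' := by
      rcases Nat.lt_trichotomy t t' with h | h | h
      · exfalso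
        have := D.gapW U t t' h ht0' ht3 ht3'
        omega
      · exact h
      · exfalso
        have := D.gapW U t' t h ht0 ht3' ht3
        omega
    subst e
    refine D.hsep a haK a' ha' b hbK b' hb' (Ne.symm hna) (Ne.symm hnb) ?_
    rw [abs_le]; constructor <;> omega
  have c2 : (A.filter B1).card ≤ D.C1 := by
    refine D.hthin ((τ1 : ℤ) - D.p0) _ fun k hk => ?_
    rw [Finset.mem_filter] at hk
    exact ⟨(hA k hk.1).1, hk.2⟩
  have c3 : (A.filter B2).card ≤ D.C1 := by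
    refine D.hthin ((τ2 : ℤ) - D.p0) _ fun k hk => ?_
    rw [Finset.mem_filter] at hk
    exact ⟨(hA k hk.1).1, hk.2⟩
  have h1 := Finset.card_le_card hsub
  have h2 := Finset.card_union_le (A.filter EE) (A.filter B1 ∪ A.filter B2)
  have h3 := Finset.card_union_le (A.filter B1) (A.filter B2)
  omega

theorem c2 (X : List α) (hX : X ∈ D.Bad) (Y : List α) (hY : Y ∈ D.Bad) (v : V) :
    ∃ P Q, X ++ Y = P ++ Q ∧ P ∈ D.L2 v ∧ Q ∈ D.R2 (D.T (D.T v X) Y) := by
  classical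
  have hz := D.hz
  have hXz := hX.1.2.1
  have hYz := hY.1.2.1
  obtain ⟨I, hIR, hI⟩ := D.g2 (X.take D.p0) (by rw [List.length_take]; omega) v
  have hUl : (X ++ Y).length = X.length + Y.length := List.length_append
  have hWX : D.Wo ((X ++ Y).take X.length) := by rw [List.take_left]; exact hX.1.1
  have hWY : D.Wo ((X ++ Y).take (X ++ Y).length) := by
    rw [List.take_length]; exact (D.locW X Y (by omega)).2 hY.1.1
  have hcard := D.count (X ++ Y) X.length hXz (by omega) hWX hWY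
    (I.filter fun k => ∃ k' < D.K, k' ≠ k ∧ D.Spd (X ++ Y) ((D.c k : ℤ) - D.c k'))
    (by
      intro k hk
      rw [Finset.mem_filter] at hk
      exact ⟨(hI k hk.1).1, hk.2⟩)
  have hR := D.hR
  obtain ⟨k, hkI, hkns⟩ : ∃ k ∈ I, ¬ ∃ k' < D.K, k' ≠ k ∧
      D.Spd (X ++ Y) ((D.c k : ℤ) - D.c k') := by
    by_contra hcon
    push Not at hcon
    have : I.filter (fun k => ∃ k' < D.K, k' ≠ k ∧
        D.Spd (X ++ Y) ((D.c k : ℤ) - D.c k')) = I := by
      apply Finset.filter_true_of_mem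
      intro k hk
      exact hcon k hk
    rw [this] at hcard
    omega
  obtain ⟨hkK, hlam, hforce⟩ := hI k hkI
  have hck := D.hc k hkK
  have hPl : (X.take (D.c k)).length = D.c k := by rw [List.length_take]; omega
  have hDl : (X.drop (D.c k)).length = X.length - D.c k := List.length_drop
  have hXe : X = X.take (D.c k) ++ X.drop (D.c k) := (List.take_append_drop _ _).symm
  have htt : (X.take D.p0).take (D.c k) = X.take (D.c k) := by
    rw [List.take_take, Nat.min_eq_left hck]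
  refine ⟨X.take (D.c k), X.drop (D.c k) ++ Y, by
    rw [← List.append_assoc, List.take_append_drop], ⟨k, hkK, hPl, htt ▸ hlam⟩, ?_⟩
  rintro w P'' ⟨k'', hk'', hl'', hlam''⟩
  have hck'' := D.hc k'' hk''
  by_cases hkk : k'' = k
  · subst hkk
    left
    have hwX : ∀ t, D.p0 + D.n ≤ t → t ≤ X.length →
        (D.Wo ((P'' ++ X.drop (D.c k'')).take t) ↔ D.Wo (X.take t)) := by
      intro t h1 h2
      rw [D.wtake P'' _ t (by omega) (by rw [hl'', hDl]; omega), hl'']
      conv_rhs => rw [hXe]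
      rw [D.wtake (X.take (D.c k'')) _ t (by omega) (by rw [hPl, hDl]; omega), hPl]
    have hlen : (P'' ++ X.drop (D.c k'')).length = X.length := by
      rw [List.length_append, hl'', hDl]; omega
    have hXX : P'' ++ X.drop (D.c k'') ∈ D.XX := by
      refine ⟨?_, by omega, ?_⟩
      · have := (hwX X.length (by omega) le_rfl).2 (by rw [List.take_length]; exact hX.1.1)
        rwa [← hlen, List.take_length] at this
      · intro t ht1 ht2 hW
        rw [hlen] at ht2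
        exact hX.1.2.2 t ht1 ht2 ((hwX t (by omega) ht2.le).1 hW)
    have hBad : P'' ++ X.drop (D.c k'') ∈ D.Bad := by
      refine ⟨hXX, ?_⟩
      rcases hX.2 with ⟨t, h1, h2, h3, h4⟩ | hb
      · exact Or.inl ⟨t, h1, h2, by omega, (hwX t (by omega) h3).2 h4⟩
      · right; rw [hlen]; exact hb
    refine ⟨_, hBad, Y, hY, by rw [List.append_assoc], ?_⟩
    have hT : D.T w (P'' ++ X.drop (D.c k'')) = D.T v X := by
      have e1 : (P'' ++ X.drop (D.c k'')).take D.p0 = P'' ++ (X.take D.p0).drop (D.c k'') := by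
        rw [List.take_append, List.take_of_length_le (by omega), hl'', List.drop_take]
      have e2 : (P'' ++ X.drop (D.c k'')).drop D.p0 = X.drop D.p0 := by
        rw [List.drop_append, List.drop_eq_nil_of_le (by omega), hl'', List.nil_append,
          List.drop_drop]
        congr 1; omega
      show D.act (D.act w (D.ph ((P'' ++ X.drop (D.c k'')).take D.p0)) +
        D.nu2 ((P'' ++ X.drop (D.c k'')).take D.p0)) (D.ph ((P'' ++ X.drop (D.c k'')).drop D.p0)) +
        D.nu1 ((P'' ++ X.drop (D.c k'')).drop D.p0) = D.act (D.act v (D.ph (X.take D.p0)) +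
        D.nu2 (X.take D.p0)) (D.ph (X.drop D.p0)) + D.nu1 (X.drop D.p0)
      rw [e1, e2, hforce P'' w hl'' hlam'']
    rw [hT]
  · right
    -- walls of the candidate text
    have hQl : (X.drop (D.c k) ++ Y).length = X.length - D.c k + Y.length := by
      rw [List.length_append, hDl]
    have hUe : X ++ Y = X.take (D.c k) ++ (X.drop (D.c k) ++ Y) := by
      rw [← List.append_assoc, List.take_append_drop]
    have hw : ∀ t s : ℕ, D.c k'' + D.n ≤ t → t + D.c k = s + D.c k'' →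
        s ≤ X.length + Y.length →
        (D.Wo ((P'' ++ (X.drop (D.c k) ++ Y)).take t) ↔ D.Wo ((X ++ Y).take s)) := by
      intro t s h1 h2 h3
      rw [D.wtake P'' _ t (by omega) (by rw [hl'', hQl]; omega), hl'']
      conv_rhs => rw [hUe]
      rw [D.wtake (X.take (D.c k)) _ s (by omega) (by rw [hPl, hQl]; omega), hPl]
      have : t - D.c k'' = s - D.c k := by omega
      rw [this]
    have hU''l : (P'' ++ (X.drop (D.c k) ++ Y)).length =
        D.c k'' + (X.length - D.c k + Y.length) := by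
      rw [List.length_append, hl'', hQl]
    have hex : ∃ t, D.z ≤ t ∧ t ≤ (P'' ++ (X.drop (D.c k) ++ Y)).length ∧
        D.Wo ((P'' ++ (X.drop (D.c k) ++ Y)).take t) := by
      refine ⟨(P'' ++ (X.drop (D.c k) ++ Y)).length, by omega, le_rfl, ?_⟩
      rw [hw _ (X.length + Y.length) (by omega) (by omega) le_rfl, ← hUl]
      exact hWY
    obtain ⟨t0, ⟨g1, g2, g3⟩, gmin⟩ : ∃ t, (D.z ≤ t ∧
        t ≤ (P'' ++ (X.drop (D.c k) ++ Y)).length ∧
        D.Wo ((P'' ++ (X.drop (D.c k) ++ Y)).take t)) ∧ ∀ s, s < t → ¬ (D.z ≤ s ∧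
        s ≤ (P'' ++ (X.drop (D.c k) ++ Y)).length ∧
        D.Wo ((P'' ++ (X.drop (D.c k) ++ Y)).take s)) :=
      ⟨Nat.find hex, Nat.find_spec hex, fun t ht => Nat.find_min hex ht⟩
    have ht0l : ((P'' ++ (X.drop (D.c k) ++ Y)).take t0).length = t0 := by
      rw [List.length_take]; omega
    have hmem : (P'' ++ (X.drop (D.c k) ++ Y)).take t0 ∈ D.XX := by
      refine ⟨g3, by rw [ht0l]; exact g1, fun t h1 h2 h3 => ?_⟩
      rw [ht0l] at h2
      rw [List.take_take, Nat.min_eq_left (by omega)] at h3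
      exact gmin t h2 ⟨h1, by omega, h3⟩
    refine ⟨_, hmem, fun hbad => hkns ⟨k'', hk'', hkk, ?_⟩, List.take_prefix _ _⟩
    rw [hU''l] at g2
    refine ⟨t0 + D.c k - D.c k'', by rw [hUl]; omega, by omega, ?_, ?_, ?_⟩
    · exact (hw t0 _ (by omega) (by omega) (by omega)).1 g3
    · intro s h1 h2 h3
      refine gmin (s + D.c k'' - D.c k) (by omega) ⟨by omega, by rw [hU''l]; omega, ?_⟩
      exact (hw _ s (by omega) (by omega) (by omega)).2 h3
    · rcases hbad.2 with ⟨t, h1, h2, h3, h4⟩ | hb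
      · left
        rw [ht0l] at h3
        rw [List.take_take, Nat.min_eq_left h3] at h4
        refine ⟨t + D.c k - D.c k'', by omega, by omega, by omega, ?_⟩
        exact (hw t _ (by omega) (by omega) (by omega)).1 h4
      · right
        rw [ht0l] at hb
        have e : ((t0 + D.c k - D.c k'' : ℕ) : ℤ) - D.p0 - ((D.c k : ℤ) - D.c k'') =
            (t0 : ℤ) - D.p0 := by omega
        rw [e]; exact hb

end Inp

end Crest.Agent.R320.CC_855
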