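import Crest.Agent.R320.Hk2_851

/-!
# Row 320, the two completeness statements of the semantic top, all words (helper900)

Blocks end at the first wall at distance `≥ z` (left-looking walls); one token system; scheme 1
is a clock gadget on `Y = X.drop p0` (bad lengths `Bad`), scheme 2 an exact gadget on
`X.take p0` with places `c k`; right words are legal when they are semantically right.
-/

set_option autoImplicit false

namespace Crest.Agent.R320.CC_900

/-- counting the spoiled places (pure arithmetic) -/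
theorem count (w : ℕ → Prop) (K C0 N1 z p0 W La : ℕ) (c : ℕ → ℕ) (Bad : ℕ → Prop)
    (hsep : ∀ s t, w s → w t → s < t → s + W < t) (hW : 2 * (p0 + N1) ≤ W)
    (hc : ∀ k, k < K → c k ≤ p0) (hg : ∃ t, w t ∧ z + p0 + N1 < t)
    (hsp : ∀ i j k l, i < K → j < K → k < K → l < K → i ≠ j → k ≠ l → (i, j) ≠ (k, l) →
      c i + c l + 4 * N1 < c k + c j ∨ c k + c j + 4 * N1 < c i + c l)
    (hbad : ∀ T, La ≤ T → ∀ F : Finset (ℕ × ℕ), (∀ a ∈ F, a.1 < K ∧ a.2 < K ∧ a.1 ≠ a.2 ∧
      Bad (T + c a.2 - c a.1)) → F.card ≤ C0)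
    (hz : La + 2 * p0 + N1 ≤ z) :
    ∃ J : Finset ℕ, J.card ≤ 1 + 2 * C0 ∧ ∀ k, k < K → k ∉ J → ∀ k', k' < K → k' ≠ k →
      ∃ t, w t ∧ z + c k + N1 < t + c k' ∧ (∀ s, w s → s < t → s + c k' + N1 < z + c k) ∧
        ¬ Bad (t + c k' - c k - p0) := by
  classical
  set g := Nat.find hg with hgdef
  obtain ⟨hg1, hg2⟩ := Nat.find_spec hg
  rw [← hgdef] at hg1 hg2
  have hmin : ∀ s, w s → s < g → s ≤ z + p0 + N1 := by
    intro s hs hlt
    by_contra hcon
    exact Nat.find_min hg hlt ⟨hs, by omega⟩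
  obtain ⟨b, hb⟩ : ∃ b, (w b ∧ z ≤ b + p0 + N1 ∧ (b ≤ z + p0 + N1 ∨ b = g)) ∧
      ∀ s, w s → z ≤ s + p0 + N1 → s ≤ z + p0 + N1 → s = b := by
    by_cases h : ∃ t, w t ∧ z ≤ t + p0 + N1 ∧ t ≤ z + p0 + N1
    · obtain ⟨t, h1, h2, h3⟩ := h
      refine ⟨t, ⟨h1, h2, Or.inl h3⟩, fun s hs h4 h5 => ?_⟩
      rcases lt_trichotomy s t with h6 | h6 | h6
      · have := hsep s t hs h1 h6; omega
      · exact h6
      · have := hsep t s h1 hs h6; omega
    · refine ⟨g, ⟨hg1, by omega, Or.inr rfl⟩, fun s hs h4 h5 => ?_⟩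
      exact absurd ⟨s, hs, h4, h5⟩ h
  obtain ⟨⟨hb1, hb2, hb3⟩, hbu⟩ := hb
  let RR := Finset.range K ×ˢ Finset.range K
  let E := RR.filter (fun a => a.1 ≠ a.2 ∧ z + c a.1 ≤ b + c a.2 + N1 ∧ b + c a.2 ≤ z + c a.1 + N1)
  let B1 := RR.filter (fun a => a.1 ≠ a.2 ∧ Bad (b - p0 + c a.2 - c a.1))
  let B2 := RR.filter (fun a => a.1 ≠ a.2 ∧ Bad (g - p0 + c a.2 - c a.1))
  have hE : E.card ≤ 1 := by
    refine Finset.card_le_one.2 ?_
    rintro ⟨i, j⟩ h1 ⟨k, l⟩ h2
    simp only [E, RR, Finset.mem_filter, Finset.mem_product, Finset.mem_range] at h1 h2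
    by_contra hne
    have := hsp i j k l h1.1.1 h1.1.2 h2.1.1 h2.1.2 h1.2.1 h2.2.1 hne
    omega
  have hB1 : B1.card ≤ C0 := by
    refine hbad (b - p0) (by omega) B1 ?_
    rintro ⟨i, j⟩ h1
    simp only [B1, RR, Finset.mem_filter, Finset.mem_product, Finset.mem_range] at h1
    exact ⟨h1.1.1, h1.1.2, h1.2.1, h1.2.2⟩
  have hB2 : B2.card ≤ C0 := by
    refine hbad (g - p0) (by omega) B2 ?_
    rintro ⟨i, j⟩ h1
    simp only [B2, RR, Finset.mem_filter, Finset.mem_product, Finset.mem_range] at h1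
    exact ⟨h1.1.1, h1.1.2, h1.2.1, h1.2.2⟩
  refine ⟨(E ∪ B1 ∪ B2).image Prod.fst, ?_, ?_⟩
  · calc ((E ∪ B1 ∪ B2).image Prod.fst).card ≤ (E ∪ B1 ∪ B2).card := Finset.card_image_le
      _ ≤ (E ∪ B1).card + B2.card := Finset.card_union_le _ _
      _ ≤ E.card + B1.card + B2.card := by
        have := Finset.card_union_le E B1
        omega
      _ ≤ 1 + 2 * C0 := by omega
  · intro k hk hJ k' hk' hne
    have hnot : (k, k') ∉ E ∪ B1 ∪ B2 := fun h => hJ (Finset.mem_image.2 ⟨_, h, rfl⟩)
    have hR : (k, k') ∈ RR := by simp [RR, hk, hk']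
    have hnE : ¬ (z + c k ≤ b + c k' + N1 ∧ b + c k' ≤ z + c k + N1) := by
      intro h
      apply hnot
      refine Finset.mem_union_left _ (Finset.mem_union_left _ ?_)
      exact Finset.mem_filter.2 ⟨hR, fun h => hne h.symm, h.1, h.2⟩
    have hnB1 : ¬ Bad (b - p0 + c k' - c k) := by
      intro h
      apply hnot
      refine Finset.mem_union_left _ (Finset.mem_union_right _ ?_)
      exact Finset.mem_filter.2 ⟨hR, fun h => hne h.symm, h⟩
    have hnB2 : ¬ Bad (g - p0 + c k' - c k) := by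
      intro h
      apply hnot
      refine Finset.mem_union_right _ ?_
      exact Finset.mem_filter.2 ⟨hR, fun h => hne h.symm, h⟩
    have h1 := hc k hk
    have h2 := hc k' hk'
    by_cases hbk : z + c k ≤ b + c k'
    · refine ⟨b, hb1, by omega, ?_, ?_⟩
      · intro s hs hlt
        have := hsep s b hs hb1 hlt
        by_contra hcon
        rcases hb3 with h3 | h3
        · omega
        · have := hmin s hs (by omega)
          have := hbu s hs (by omega) (by omega)
          omega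
      · have e : b + c k' - c k - p0 = b - p0 + c k' - c k := by omega
        rw [e]; exact hnB1
    · refine ⟨g, hg1, by omega, ?_, ?_⟩
      · intro s hs hlt
        have h3 := hmin s hs hlt
        by_cases h4 : z ≤ s + p0 + N1
        · have := hbu s hs h4 h3
          omega
        · omega
      · have e : g + c k' - c k - p0 = g - p0 + c k' - c k := by omega
        rw [e]; exact hnB2

structure Dat (α S V : Type*) [Monoid S] [AddCommGroup V] where
  φ : List α → S
  φ_app : ∀ u v, φ (u ++ v) = φ u * φ v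
  act : V → S → V
  Wo : List α → Prop
  n : ℕ
  W : ℕ
  loc : ∀ P Q, n ≤ Q.length → (Wo (P ++ Q) ↔ Wo Q)
  sep : ∀ P d, Wo P → 0 < d → d ≤ W → ¬ Wo (P.take (P.length - d))
  z : ℕ
  p0 : ℕ
  N1 : ℕ
  La : ℕ
  K : ℕ
  C0 : ℕ
  c : ℕ → ℕ
  Bad : ℕ → Prop
  lam1 : List α → Option V
  rho1 : List α → Option V
  nu1 : List α → V
  lam1_len : ∀ p v, lam1 p = some v → p.length ≤ N1
  g1 : ∀ p q v r, lam1 p = some v → rho1 q = some r → La ≤ q.length →
    r = act v (φ (p ++ q)) + nu1 (p ++ q)
  g1c : ∀ u : List α, La ≤ u.length → ¬ Bad u.length → ∀ v, ∃ p q, p ++ q = u ∧ lam1 p = some v ∧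
    (rho1 q).isSome
  lam2 : ℕ → List α → Option V
  rho2 : ℕ → List α → Option V
  nu2 : List α → V
  g2 : ∀ k, k < K → ∀ (P Q : List α) (v b : V), P.length = c k → Q.length = p0 - c k → lam2 k P = some v →
    rho2 k Q = some b → b = act v (φ (P ++ Q)) + nu2 (P ++ Q)
  g2c : ∀ (X : List α) (v : V), X.length = p0 → ∃ I : Finset ℕ, 1 + 2 * C0 < I.card ∧ ∀ k ∈ I, k < K ∧
    lam2 k (X.take (c k)) = some v ∧ (rho2 k (X.drop (c k))).isSome
  c_le : ∀ k, k < K → c k ≤ p0
  c_inj : ∀ k l, k < K → l < K → c k = c l → k = l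
  spoil : ∀ T, La ≤ T → ∀ F : Finset (ℕ × ℕ), (∀ a ∈ F, a.1 < K ∧ a.2 < K ∧ a.1 ≠ a.2 ∧
      Bad (T + c a.2 - c a.1)) → F.card ≤ C0
  space : ∀ i j k l, i < K → j < K → k < K → l < K → i ≠ j → k ≠ l → (i, j) ≠ (k, l) →
      c i + c l + 4 * N1 < c k + c j ∨ c k + c j + 4 * N1 < c i + c l
  hz : 3 * p0 + 4 * N1 + La + 2 * n + 2 ≤ z
  hW : 2 * (p0 + N1) ≤ W

namespace Dat

variable {α S V : Type*} [Monoid S] [AddCommGroup V] (D : Dat α S V)

/-- the blocks -/
def XX : Set (List α) :=
  {X | D.z ≤ X.length ∧ D.Wo X ∧ ∀ t, D.z ≤ t → t < X.length → ¬ D.Wo (X.take t)}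

/-- token after a block -/
def T (v : V) (X : List α) : V :=
  D.act (D.act v (D.φ (X.take D.p0)) + D.nu2 (X.take D.p0)) (D.φ (X.drop D.p0)) +
    D.nu1 (X.drop D.p0)

def LP1 (P : List α) (v : V) : Prop :=
  D.p0 ≤ P.length ∧
    D.lam1 (P.drop D.p0) = some (D.act v (D.φ (P.take D.p0)) + D.nu2 (P.take D.p0))

def LP2 (P : List α) (v : V) : Prop := ∃ k, k < D.K ∧ P.length = D.c k ∧ D.lam2 k P = some v

def Sem1 (Q : List α) : Prop :=
  Q ≠ [] ∧ ∃ b, ∀ P v, D.LP1 P v → P ++ Q ∈ D.XX ∧ D.T v (P ++ Q) = b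

def Sem2 (Q : List α) : Prop :=
  Q ≠ [] ∧ ∃ b, ∀ P v, D.LP2 P v →
    (∃ X ∈ D.XX, X <+: P ++ Q ∧ ∃ P' Q', X = P' ++ Q' ∧ P.length ≤ P'.length ∧ D.LP1 P' v ∧
      D.Sem1 Q') ∨
    (∃ Q1 X2, Q = Q1 ++ X2 ∧ Q1 ≠ [] ∧ P ++ Q1 ∈ D.XX ∧ X2 ∈ D.XX ∧
      D.T (D.T v (P ++ Q1)) X2 = b)

theorem wall_app (P Q : List α) (s : ℕ) (hs : D.n ≤ s) (hs' : s ≤ Q.length) :
    D.Wo ((P ++ Q).take (P.length + s)) ↔ D.Wo (Q.take s) := by
  have e : (P ++ Q).take (P.length + s) = P ++ Q.take s := by
    rw [List.take_append]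
    simp
  rw [e]
  refine D.loc P (Q.take s) ?_
  rw [List.length_take]
  omega

theorem mem_XX (P Q : List α) (hP : P.length + D.n ≤ D.z) (hz : D.z ≤ P.length + Q.length) :
    P ++ Q ∈ D.XX ↔ D.Wo Q ∧ ∀ s, D.z ≤ P.length + s → s < Q.length → ¬ D.Wo (Q.take s) := by
  have h0 : D.Wo (P ++ Q) ↔ D.Wo Q := D.loc P Q (by omega)
  constructor
  · rintro ⟨_, h2, h3⟩
    refine ⟨h0.1 h2, fun s hs hs' hw => ?_⟩
    refine h3 (P.length + s) hs (by rw [List.length_append]; omega) ?_
    exact (D.wall_app P Q s (by omega) (by omega)).2 hw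
  · rintro ⟨h2, h3⟩
    refine ⟨by rw [List.length_append]; omega, h0.2 h2, fun t ht ht' hw => ?_⟩
    rw [List.length_append] at ht'
    have e : t = P.length + (t - P.length) := by omega
    rw [e] at hw
    exact h3 (t - P.length) (by omega) (by omega)
      ((D.wall_app P Q _ (by omega) (by omega)).1 hw)

/-- scheme 1 cuts the clean blocks whose clock is not bad -/
theorem good1 (X : List α) (hX : X ∈ D.XX) (hcl : ∀ t, D.z ≤ t + D.N1 → t < D.z →
    ¬ D.Wo (X.take t)) (hlen : D.z + D.N1 < X.length) (hbad : ¬ D.Bad (X.length - D.p0)) (v : V) :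
    ∃ P Q, X = P ++ Q ∧ D.p0 ≤ P.length ∧ D.LP1 P v ∧ D.Sem1 Q := by
  have hz := D.hz
  have hY : (X.drop D.p0).length = X.length - D.p0 := List.length_drop
  obtain ⟨p, q, hpq, hl, hr⟩ := D.g1c (X.drop D.p0) (by rw [hY]; omega) (by rw [hY]; exact hbad)
    (D.act v (D.φ (X.take D.p0)) + D.nu2 (X.take D.p0))
  obtain ⟨r, hr⟩ := Option.isSome_iff_exists.1 hr
  have hp := D.lam1_len _ _ hl
  have hX0 : (X.take D.p0).length = D.p0 := by rw [List.length_take]; omega
  have hXe : X = (X.take D.p0 ++ p) ++ q := by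
    rw [List.append_assoc, hpq, List.take_append_drop]
  have hql : p.length + q.length = X.length - D.p0 := by
    rw [← List.length_append, hpq, hY]
  have hPl : (X.take D.p0 ++ p).length = D.p0 + p.length := by rw [List.length_append, hX0]
  refine ⟨X.take D.p0 ++ p, q, hXe, by omega, ⟨by omega, ?_⟩, ?_, r, ?_⟩
  · rw [List.drop_append_of_le_length (by omega), List.take_append_of_le_length (by omega)]
    rw [List.drop_of_length_le (by omega), List.take_of_length_le (l := X.take D.p0) (by omega)]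
    simpa using hl
  · intro h
    rw [h] at hql
    simp at hql
    omega
  · rintro P' v' ⟨hP1, hP2⟩
    have hP3 : P'.length ≤ D.p0 + D.N1 := by
      have := D.lam1_len _ _ hP2
      rw [List.length_drop] at this
      omega
    have hX' := hX
    rw [hXe, D.mem_XX _ _ (by omega) (by omega)] at hX'
    constructor
    · rw [D.mem_XX _ _ (by omega) (by omega)]
      refine ⟨hX'.1, fun s hs hs' hw => ?_⟩
      by_cases h : D.z ≤ (X.take D.p0 ++ p).length + s
      · exact hX'.2 s h hs' hw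
      · refine hcl ((X.take D.p0 ++ p).length + s) (by omega) (by omega) ?_
        have := (D.wall_app (X.take D.p0 ++ p) q s (by omega) (by omega)).2 hw
        rwa [← hXe] at this
    · have h := D.g1 _ _ _ _ hP2 hr (by omega)
      unfold T
      rw [List.drop_append_of_le_length (by omega), List.take_append_of_le_length (by omega)]
      exact h.symm

theorem cc (X : List α) (hX : X ∈ D.XX) (X2 : List α) (hX2 : X2 ∈ D.XX) (v : V) :
    (∃ P Q, X = P ++ Q ∧ D.LP1 P v ∧ D.Sem1 Q) ∨
    (∃ P Q, X ++ X2 = P ++ Q ∧ P.length < X.length ∧ D.LP2 P v ∧ D.Sem2 Q) := by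
  have hz := D.hz
  by_cases hgood : (∀ t, D.z ≤ t + D.N1 → t < D.z → ¬ D.Wo (X.take t)) ∧
      D.z + D.N1 < X.length ∧ ¬ D.Bad (X.length - D.p0)
  · obtain ⟨P, Q, h1, _, h3, h4⟩ := D.good1 X hX hgood.1 hgood.2.1 hgood.2.2 v
    exact Or.inl ⟨P, Q, h1, h3, h4⟩
  right
  -- walls of the text of both blocks
  let w : ℕ → Prop := fun t => t ≤ (X ++ X2).length ∧ D.Wo ((X ++ X2).take t)
  have hsep : ∀ s t, w s → w t → s < t → s + D.W < t := by
    rintro s t ⟨hs1, hs2⟩ ⟨ht1, ht2⟩ hlt
    by_contra hcon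
    refine D.sep _ (t - s) ht2 (by omega) (by omega) ?_
    have e : ((X ++ X2).take t).take (((X ++ X2).take t).length - (t - s)) =
        (X ++ X2).take s := by
      rw [List.take_take, List.length_take]
      congr 1
      omega
    rw [e]
    exact hs2
  have hwend : w (X ++ X2).length := by
    refine ⟨le_rfl, ?_⟩
    rw [List.take_length]
    exact (D.loc X X2 (by have := hX2.1; omega)).2 hX2.2.1
  have hlen : (X ++ X2).length = X.length + X2.length := List.length_append
  obtain ⟨J, hJ1, hJ2⟩ := count w D.K D.C0 D.N1 D.z D.p0 D.W D.La D.c D.Bad hsep D.hW D.c_le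
    ⟨_, hwend, by have := hX2.1; have := hX.1; omega⟩ D.space D.spoil (by omega)
  obtain ⟨I, hI1, hI2⟩ := D.g2c (X.take D.p0) v (by
    rw [List.length_take]; have := hX.1; omega)
  obtain ⟨k, hkI, hkJ⟩ : ∃ k ∈ I, k ∉ J := by
    by_contra hcon
    have : I ⊆ J := by
      intro k hk
      by_contra h
      exact hcon ⟨k, hk, h⟩
    have := Finset.card_le_card this
    omega
  obtain ⟨hkK, hlk, hrk⟩ := hI2 k hkI
  obtain ⟨b0, hb0⟩ := Option.isSome_iff_exists.1 hrk
  have hck := D.c_le k hkK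
  have hXl := hX.1
  have hX2l := hX2.1
  have htk : (X.take D.p0).take (D.c k) = X.take (D.c k) := by
    rw [List.take_take]; congr 1; omega
  have hPl : (X.take (D.c k)).length = D.c k := by rw [List.length_take]; omega
  have hdl : (X.drop (D.c k)).length = X.length - D.c k := List.length_drop
  refine ⟨X.take (D.c k), X.drop (D.c k) ++ X2, ?_, by omega, ⟨k, hkK, hPl, htk ▸ hlk⟩, ?_,
    D.T (D.act b0 (D.φ (X.drop D.p0)) + D.nu1 (X.drop D.p0)) X2, ?_⟩
  · rw [← List.append_assoc, List.take_append_drop]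
  · intro h
    have := congrArg List.length h
    rw [List.length_append, hdl] at this
    simp at this
    omega
  · rintro P' v' ⟨k', hk'K, hP'l, hlam'⟩
    have hck' := D.c_le k' hk'K
    by_cases hkk : k' = k
    · -- the true place
      subst hkk
      right
      refine ⟨X.drop (D.c k'), X2, rfl, ?_, ?_, hX2, ?_⟩
      · intro h
        rw [h] at hdl
        simp at hdl
        omega
      · have h0 := hX
        rw [← List.take_append_drop (D.c k') X, D.mem_XX _ _ (by omega) (by omega), hPl] at h0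
        rw [D.mem_XX _ _ (by omega) (by omega), hP'l]
        exact h0
      · have e1 : (P' ++ X.drop (D.c k')).take D.p0 =
            P' ++ (X.take D.p0).drop (D.c k') := by
          rw [List.take_append, List.take_of_length_le (by omega), hP'l, List.drop_take]
        have e2 : (P' ++ X.drop (D.c k')).drop D.p0 = X.drop D.p0 := by
          rw [List.drop_append, List.drop_of_length_le (by omega), hP'l, List.drop_drop]
          simp only [List.nil_append]
          congr 1
          omega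
        have h := D.g2 k' hkK P' ((X.take D.p0).drop (D.c k')) v' b0 hP'l (by
          rw [List.length_drop, List.length_take]; omega) hlam' hb0
        have e3 : D.T v' (P' ++ X.drop (D.c k')) =
            D.act b0 (D.φ (X.drop D.p0)) + D.nu1 (X.drop D.p0) := by
          unfold T
          rw [e1, e2, ← h]
        rw [e3]
    · -- a wrong place
      left
      obtain ⟨t, ⟨ht1, ht2⟩, ht3, ht4, ht5⟩ := hJ2 k hkK hkJ k' hk'K hkk
      set Q := X.drop (D.c k) ++ X2 with hQ
      have hQl : Q.length = X.length - D.c k + X2.length := by rw [hQ, List.length_append, hdl]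
      have hUX : X.take (D.c k) ++ Q = X ++ X2 := by
        rw [hQ, ← List.append_assoc, List.take_append_drop]
      -- walls of the candidate text
      have hw : ∀ s, D.n + D.c k ≤ s → s ≤ (X ++ X2).length →
          (D.Wo ((P' ++ Q).take (s + D.c k' - D.c k)) ↔ D.Wo ((X ++ X2).take s)) := by
        intro s hs hs'
        have e1 : s + D.c k' - D.c k = P'.length + (s - D.c k) := by omega
        have e2 : s = (X.take (D.c k)).length + (s - D.c k) := by omega
        rw [e1, D.wall_app P' Q _ (by omega) (by omega)]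
        conv_rhs => rw [e2, ← hUX]
        exact (D.wall_app _ Q _ (by omega) (by omega)).symm
      have hPQ : (P' ++ Q).length = D.c k' + Q.length := by rw [List.length_append, hP'l]
      have htl : ((P' ++ Q).take (t + D.c k' - D.c k)).length = t + D.c k' - D.c k := by
        rw [List.length_take]; omega
      have hXX : (P' ++ Q).take (t + D.c k' - D.c k) ∈ D.XX := by
        refine ⟨by omega, (hw t (by omega) ht1).2 ht2, fun s hs hs' hws => ?_⟩
        rw [htl] at hs'
        rw [List.take_take, min_eq_left (by omega)] at hws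
        have e1 : s = (s + D.c k - D.c k') + D.c k' - D.c k := by omega
        rw [e1] at hws
        have h5 := (hw (s + D.c k - D.c k') (by omega) (by omega)).1 hws
        have := ht4 (s + D.c k - D.c k') ⟨by omega, h5⟩ (by omega)
        omega
      obtain ⟨P'', Q'', h1, h2, h3, h4⟩ := D.good1 _ hXX (by
        intro s hs hs' hws
        rw [List.take_take, min_eq_left (by omega)] at hws
        have e1 : s = (s + D.c k - D.c k') + D.c k' - D.c k := by omega
        rw [e1] at hws
        have h5 := (hw (s + D.c k - D.c k') (by omega) (by omega)).1 hws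
        have := ht4 (s + D.c k - D.c k') ⟨by omega, h5⟩ (by omega)
        omega) (by rw [htl]; omega) (by rw [htl]; exact ht5) v'
      exact ⟨_, hXX, List.take_prefix _ _, P'', Q'', h1, by omega, h3, h4⟩

end Dat

end Crest.Agent.R320.CC_900
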