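import Crest.Agent.R320.TopSem_474

/-!
# Row 320: completeness `CC` of the semantic two-scheme top (helper997)

Natural chain rule over left-looking walls, scheme 1 = any word gadget complete off a thin set of
lengths (693 / 638 / 772 UGI), scheme 2 = exact gadget with redundancy on a ruler (237).
-/

set_option autoImplicit false
set_option linter.unusedSectionVars false
set_option linter.style.longLine false

namespace Crest.Agent.R320.CC_997

open Crest.Agent.R320.TopSem_474 Finset

universe u v w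

structure Dat (α : Type u) (S : Type v) (V : Type w) [Monoid S] [AddCommGroup V] where
  φ : List α → S
  act : V → S → V
  Wo : List α → Prop
  n : ℕ
  W : ℕ
  z : ℕ
  p0 : ℕ
  N1 : ℕ
  K : ℕ
  C0 : ℕ
  La : ℕ
  lam : List α → Option V
  rho : List α → Option V
  nu1 : List α → V
  Bad : ℕ → Prop
  c : ℕ → ℕ
  lam2 : ℕ → List α → Option V
  rho2 : ℕ → List α → Option V
  nu2 : List α → V

variable {α : Type u} {S : Type v} {V : Type w} [Monoid S] [AddCommGroup V]

def XXn (z : ℕ) (Wo : List α → Prop) : Set (List α) :=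
  {X | z ≤ X.length ∧ Wo X ∧ ∀ t, z ≤ t → t < X.length → ¬ Wo (X.take t)}

namespace Dat

variable (D : Dat α S V)

def XX : Set (List α) := XXn D.z D.Wo

def T (v : V) (X : List α) : V :=
  D.act (D.act v (D.φ (X.take D.p0)) + D.nu2 (X.take D.p0)) (D.φ (X.drop D.p0))
    + D.nu1 (X.drop D.p0)

def LP1 (P : List α) (v : V) : Prop :=
  D.p0 ≤ P.length ∧ D.lam (P.drop D.p0) = some (D.act v (D.φ (P.take D.p0)) + D.nu2 (P.take D.p0))

def LP2 (P : List α) (v : V) : Prop := ∃ k < D.K, P.length = D.c k ∧ D.lam2 k P = some v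

open Classical in
structure Ok : Prop where
  hφ : ∀ u v, D.φ (u ++ v) = D.φ u * D.φ v
  hloc : ∀ P Q : List α, D.n ≤ Q.length → (D.Wo (P ++ Q) ↔ D.Wo Q)
  hlen : ∀ Q : List α, D.Wo Q → D.n ≤ Q.length
  gap : ∀ (X : List α) (s t : ℕ), s < t → t ≤ X.length → D.Wo (X.take s) → D.Wo (X.take t) →
    D.W < t - s
  hz : 2 * D.p0 + D.N1 + D.n + D.La + 1 ≤ D.z
  hW : 2 * D.p0 + 2 * D.N1 ≤ D.W
  hcp : ∀ k < D.K, D.c k ≤ D.p0
  res : ∀ i j k l, i < D.K → j < D.K → k < D.K → l < D.K → i ≠ j → k ≠ l → (i, j) ≠ (k, l) →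
    D.c i + D.c l + 4 * D.N1 < D.c k + D.c j ∨ D.c k + D.c j + 4 * D.N1 < D.c i + D.c l
  spoil : ∀ T, D.La ≤ T → (((range D.K) ×ˢ (range D.K)).filter
    (fun x : ℕ × ℕ => x.1 ≠ x.2 ∧ D.Bad (T + D.c x.2 - D.c x.1))).card ≤ D.C0
  g1 : ∀ p v, D.lam p = some v → p.length ≤ D.N1
  g2 : ∀ p q v r, D.lam p = some v → D.rho q = some r → D.La ≤ q.length →
    r = D.act v (D.φ (p ++ q)) + D.nu1 (p ++ q)
  g3 : ∀ u : List α, D.La ≤ u.length → ¬ D.Bad u.length → ∀ v, ∃ p q, p ++ q = u ∧
    D.lam p = some v ∧ (D.rho q).isSome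
  e1 : ∀ k < D.K, ∀ (P Q : List α) (v b : V), P.length = D.c k → (P ++ Q).length = D.p0 →
    D.lam2 k P = some v → D.rho2 k Q = some b → b = D.act v (D.φ (P ++ Q)) + D.nu2 (P ++ Q)
  e2 : ∀ (u : List α) (v : V), u.length = D.p0 → ∃ I : Finset ℕ, 2 + 2 * D.C0 ≤ I.card ∧
    ∀ k ∈ I, k < D.K ∧ D.lam2 k (u.take (D.c k)) = some v ∧ (D.rho2 k (u.drop (D.c k))).isSome

variable {D}

theorem Ok.wo_swap (h : D.Ok) {P P' Q : List α} (hQ : D.n ≤ Q.length) :
    D.Wo (P ++ Q) ↔ D.Wo (P' ++ Q) := by
  rw [h.hloc P Q hQ, h.hloc P' Q hQ]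

theorem take_app (P Q : List α) (t : ℕ) (ht : P.length ≤ t) :
    (P ++ Q).take t = P ++ Q.take (t - P.length) := by
  rw [List.take_append, List.take_of_length_le ht]

/-- scheme 1 is complete off the bad blocks -/
theorem Ok.cut1 (h : D.Ok) {X : List α} (hX : X ∈ D.XX) (hlong : D.z + D.N1 ≤ X.length)
    (hne : ∀ t, D.z ≤ t + D.N1 → t < X.length → ¬ D.Wo (X.take t))
    (hB : ¬ D.Bad (X.length - D.p0)) (v : V) :
    ∃ P Q, X = P ++ Q ∧ D.p0 ≤ P.length ∧ D.LP1 P v ∧ Sem1 D.XX D.T D.LP1 Q := by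
  have hz := h.hz
  have hlen : (X.drop D.p0).length = X.length - D.p0 := List.length_drop
  have htl : (X.take D.p0).length = D.p0 := by rw [List.length_take]; omega
  obtain ⟨p, q, hpq, hl, hr⟩ := h.g3 (X.drop D.p0) (by omega) (by rw [hlen]; exact hB)
    (D.act v (D.φ (X.take D.p0)) + D.nu2 (X.take D.p0))
  obtain ⟨b, hb⟩ := Option.isSome_iff_exists.1 hr
  have hp := h.g1 _ _ hl
  have hpql : p.length + q.length = X.length - D.p0 := by
    rw [← List.length_append, hpq, hlen]
  have hXe : X = (X.take D.p0 ++ p) ++ q := by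
    rw [List.append_assoc, hpq, List.take_append_drop]
  refine ⟨X.take D.p0 ++ p, q, hXe, by rw [List.length_append]; omega, ⟨?_, ?_⟩, b, ?_, ?_⟩
  · rw [List.length_append]; omega
  · have e1 : (X.take D.p0 ++ p).drop D.p0 = p := by
      rw [List.drop_append_of_le_length (by omega), List.drop_of_length_le (by omega)]; rfl
    have e2 : (X.take D.p0 ++ p).take D.p0 = X.take D.p0 := by
      rw [List.take_append_of_le_length (by omega), List.take_of_length_le (by omega)]
    rw [e1, e2]; exact hl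
  · intro e
    rw [e, List.length_nil] at hpql
    omega
  · rintro P2 v2 ⟨hP2, hl2⟩
    have hp2 := h.g1 _ _ hl2
    rw [List.length_drop] at hp2
    refine ⟨⟨?_, ?_, ?_⟩, ?_⟩
    · rw [List.length_append]; omega
    · rw [h.wo_swap (P' := X.take D.p0 ++ p) (by omega), ← hXe]
      exact hX.2.1
    · intro t ht1 ht2 ht3
      rw [List.length_append] at ht2
      rw [take_app _ _ _ (by omega)] at ht3
      have hql : (q.take (t - P2.length)).length = t - P2.length := by
        rw [List.length_take]; omega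
      rw [h.wo_swap (P' := X.take D.p0 ++ p) (by omega)] at ht3
      have e4 : (X.take D.p0 ++ p) ++ q.take (t - P2.length) =
          X.take (t - P2.length + (D.p0 + p.length)) := by
        conv_rhs => rw [hXe]
        rw [take_app _ _ _ (by rw [List.length_append]; omega), List.length_append, htl]
        congr 2
        omega
      rw [e4] at ht3
      exact hne _ (by omega) (by omega) ht3
    · have e1 : (P2 ++ q).take D.p0 = P2.take D.p0 := List.take_append_of_le_length hP2
      have e2 : (P2 ++ q).drop D.p0 = P2.drop D.p0 ++ q := List.drop_append_of_le_length hP2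
      rw [T, e1, e2]
      exact (h.g2 _ _ _ _ hl2 hb (by omega)).symm

/-- the zone of a bad candidate -/
def BadX (D : Dat α S V) (X : List α) : Prop :=
  X.length < D.z + D.N1 ∨ (∃ t, D.z ≤ t + D.N1 ∧ t < X.length ∧ D.Wo (X.take t)) ∨
    D.Bad (X.length - D.p0)

theorem Ok.cut1' (h : D.Ok) {X : List α} (hX : X ∈ D.XX) (hB : ¬ D.BadX X) (v : V) :
    ∃ P Q, X = P ++ Q ∧ D.p0 ≤ P.length ∧ D.LP1 P v ∧ Sem1 D.XX D.T D.LP1 Q := by
  unfold BadX at hB
  push Not at hB
  obtain ⟨h1, h2, h3⟩ := hB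
  exact h.cut1 hX h1 h2 h3 v

/-- `e` is the first wall of `w` at a place `≥ z + a - b` -/
def First (D : Dat α S V) (w : List α) (a b e : ℕ) : Prop :=
  e ≤ w.length ∧ D.Wo (w.take e) ∧ D.z + a ≤ e + b ∧
    ∀ t, D.z + a ≤ t + b → t < e → ¬ D.Wo (w.take t)

theorem Ok.two_values (h : D.Ok) (w : List α) : ∃ e1 e2, D.La + D.p0 ≤ e1 ∧ D.La + D.p0 ≤ e2 ∧
    ∀ a b e, a ≤ D.p0 → b ≤ D.p0 → D.First w a b e → e = e1 ∨ e = e2 := by
  classical
  have hz := h.hz
  have hW := h.hW
  by_cases hex : ∃ t, D.z ≤ t + D.p0 ∧ t ≤ w.length ∧ D.Wo (w.take t)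
  · obtain ⟨ha1, ha2, ha3⟩ := Nat.find_spec hex
    have hmin : ∀ m, m < Nat.find hex → ¬ (D.z ≤ m + D.p0 ∧ m ≤ w.length ∧ D.Wo (w.take m)) :=
      fun m hm => Nat.find_min hex hm
    set e1 := Nat.find hex with he1
    clear_value e1
    by_cases hex2 : ∃ t, e1 < t ∧ t ≤ w.length ∧ D.Wo (w.take t)
    · obtain ⟨hb1, hb2, hb3⟩ := Nat.find_spec hex2
      have hmin2 : ∀ m, m < Nat.find hex2 → ¬ (e1 < m ∧ m ≤ w.length ∧ D.Wo (w.take m)) :=
        fun m hm => Nat.find_min hex2 hm
      set e2 := Nat.find hex2 with he2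
      clear_value e2
      refine ⟨e1, e2, by omega, by omega, ?_⟩
      rintro a b e ha hb ⟨h1, h2, h3, h4⟩
      have hle : e1 ≤ e := by
        by_contra hc
        exact hmin e (by omega) ⟨by omega, h1, h2⟩
      rcases Nat.eq_or_lt_of_le hle with heq | hlt
      · left; exact heq.symm
      · right
        have hle2 : e2 ≤ e := by
          by_contra hc
          exact hmin2 e (by omega) ⟨hlt, h1, h2⟩
        by_contra hne
        have hlt2 : e2 < e := by omega
        have hg := h.gap w e1 e2 hb1 hb2 ha3 hb3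
        exact h4 e2 (by omega) hlt2 hb3
    · refine ⟨e1, e1, by omega, by omega, ?_⟩
      rintro a b e ha hb ⟨h1, h2, h3, h4⟩
      left
      have hle : e1 ≤ e := by
        by_contra hc
        exact hmin e (by omega) ⟨by omega, h1, h2⟩
      by_contra hne
      exact hex2 ⟨e, by omega, h1, h2⟩
  · refine ⟨D.La + D.p0, D.La + D.p0, le_rfl, le_rfl, ?_⟩
    rintro a b e ha hb ⟨h1, h2, h3, h4⟩
    exact absurd ⟨e, by omega, h1, h2⟩ hex

/-- facts about a bad candidate -/
theorem Ok.bad_facts (h : D.Ok) {w P2 X' : List α} {a b : ℕ} (ha : a ≤ D.p0) (haw : a ≤ w.length)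
    (hb : b ≤ D.p0) (hP2 : P2.length = b) (hX' : X' ∈ D.XX) (hpre : X' <+: P2 ++ w.drop a) (hB : D.BadX X') :
    (∃ s, s ≤ w.length ∧ D.Wo (w.take s) ∧ s + b ≤ D.z + a + D.N1 ∧ D.z + a ≤ s + b + D.N1) ∨
    ∃ e, D.First w a b e ∧ D.Bad (e - D.p0 + b - a) := by
  have hz := h.hz
  obtain ⟨hX1, hX2, hX3⟩ := hX'
  obtain ⟨R, hR⟩ := hpre
  -- transfer of walls
  have htr : ∀ t, D.z ≤ t + D.N1 → t ≤ X'.length →
      (D.Wo (X'.take t) ↔ D.Wo (w.take (t + a - b))) ∧ t + a - b ≤ w.length := by
    intro t ht1 ht2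
    have hl : X'.length + R.length = P2.length + (w.length - a) := by
      rw [← List.length_append, hR, List.length_append, List.length_drop]
    have e1 : X'.take t = P2 ++ (w.drop a).take (t - b) := by
      have : X'.take t = (X' ++ R).take t := (List.take_append_of_le_length ht2).symm
      rw [this, hR, take_app _ _ _ (by omega), hP2]
    have e2 : w.take (t + a - b) = w.take a ++ (w.drop a).take (t - b) := by
      have hwa : (w.take a).length = a := by rw [List.length_take]; omega
      conv_lhs => rw [← List.take_append_drop a w]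
      rw [take_app _ _ _ (by omega), hwa]
      congr 2
      omega
    have hlt : ((w.drop a).take (t - b)).length = t - b := by
      rw [List.length_take, List.length_drop]; omega
    refine ⟨?_, by omega⟩
    rw [e1, e2]
    exact h.wo_swap (by omega)
  have hfull := htr X'.length (by omega) le_rfl
  rw [List.take_length] at hfull
  rcases hB with hB | ⟨t, ht1, ht2, ht3⟩ | hB
  · left
    refine ⟨X'.length + a - b, hfull.2, hfull.1.1 hX2, by omega, by omega⟩
  · left
    have htz : t < D.z := by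
      by_contra hc
      exact hX3 t (by omega) ht2 ht3
    have := htr t ht1 (by omega)
    exact ⟨t + a - b, this.2, this.1.1 ht3, by omega, by omega⟩
  · right
    refine ⟨X'.length + a - b, ⟨hfull.2, hfull.1.1 hX2, by omega, ?_⟩, ?_⟩
    · intro t ht1 ht2 ht3
      have h5 := htr (t + b - a) (by omega) (by omega)
      have e5 : t + b - a + a - b = t := by omega
      rw [e5] at h5
      exact hX3 (t + b - a) (by omega) (by omega) (h5.1.2 ht3)
    · have e6 : X'.length + a - b - D.p0 + b - a = X'.length - D.p0 := by omega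
      rw [e6]; exact hB

def Sp (D : Dat α S V) (w : List α) (k : ℕ) : Prop :=
  ∃ k2 < D.K, k2 ≠ k ∧ ∃ P2 X', P2.length = D.c k2 ∧ X' ∈ D.XX ∧ X' <+: P2 ++ w.drop (D.c k) ∧
    D.BadX X'

theorem Ok.count (h : D.Ok) (w : List α) (hw : D.p0 ≤ w.length) (I : Finset ℕ)
    (hI : ∀ k ∈ I, k < D.K) (hc : 2 + 2 * D.C0 ≤ I.card) : ∃ k ∈ I, ¬ D.Sp w k := by
  classical
  by_contra hall
  push Not at hall
  have hW := h.hW
  obtain ⟨e1, e2, he1, he2, hev⟩ := h.two_values w
  have hall' : ∀ k ∈ I, ∃ k2, k2 < D.K ∧ k2 ≠ k ∧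
      ((∃ s, s ≤ w.length ∧ D.Wo (w.take s) ∧ s + D.c k2 ≤ D.z + D.c k + D.N1 ∧
        D.z + D.c k ≤ s + D.c k2 + D.N1) ∨ D.Bad (e1 - D.p0 + D.c k2 - D.c k) ∨
        D.Bad (e2 - D.p0 + D.c k2 - D.c k)) := by
    intro k hk
    obtain ⟨k2, hk2, hne, P2, X', h1, h2, h3, h4⟩ := hall k hk
    refine ⟨k2, hk2, hne, ?_⟩
    have hck := h.hcp k (hI k hk)
    rcases h.bad_facts hck (by omega) (h.hcp k2 hk2) h1 h2 h3 h4 with h5 | ⟨e, h5, h6⟩
    · exact Or.inl h5
    · right
      rcases hev _ _ _ hck (h.hcp k2 hk2) h5 with rfl | rfl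
      · exact Or.inl h6
      · exact Or.inr h6
  choose! g hg1 hg2 hg3 using hall'
  let IE := I.filter fun k => ∃ s, s ≤ w.length ∧ D.Wo (w.take s) ∧
    s + D.c (g k) ≤ D.z + D.c k + D.N1 ∧ D.z + D.c k ≤ s + D.c (g k) + D.N1
  let IB : ℕ → Finset ℕ := fun e => I.filter fun k => D.Bad (e - D.p0 + D.c (g k) - D.c k)
  have hsub : I ⊆ IE ∪ (IB e1 ∪ IB e2) := by
    intro k hk
    rcases hg3 k hk with h1 | h1 | h1
    · exact mem_union_left _ (mem_filter.2 ⟨hk, h1⟩)
    · exact mem_union_right _ (mem_union_left _ (mem_filter.2 ⟨hk, h1⟩))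
    · exact mem_union_right _ (mem_union_right _ (mem_filter.2 ⟨hk, h1⟩))
  have hE : IE.card ≤ 1 := by
    rw [card_le_one]
    intro k hk l hl
    obtain ⟨hkI, s, hs1, hs2, hs3, hs4⟩ := mem_filter.1 hk
    obtain ⟨hlI, s', hs1', hs2', hs3', hs4'⟩ := mem_filter.1 hl
    have c1 := h.hcp k (hI k hkI)
    have c2 := h.hcp l (hI l hlI)
    have c3 := h.hcp _ (hg1 k hkI)
    have c4 := h.hcp _ (hg1 l hlI)
    have hss : s = s' := by
      rcases lt_trichotomy s s' with hlt | heq | hlt
      · have := h.gap w s s' hlt hs1' hs2 hs2'; omega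
      · exact heq
      · have := h.gap w s' s hlt hs1 hs2' hs2; omega
    subst hss
    by_contra hne
    have := h.res k (g k) l (g l) (hI k hkI) (hg1 k hkI) (hI l hlI) (hg1 l hlI)
      (hg2 k hkI).symm (hg2 l hlI).symm (fun e => hne (Prod.mk.inj e).1)
    omega
  have hBc : ∀ e, D.La + D.p0 ≤ e → (IB e).card ≤ D.C0 := by
    intro e he
    refine le_trans ?_ (h.spoil (e - D.p0) (by omega))
    refine card_le_card_of_injOn (fun k => (k, g k)) ?_ ?_
    · intro k hk
      obtain ⟨hkI, hk2⟩ := mem_filter.1 hk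
      simp only [coe_filter, mem_product, mem_range, Set.mem_setOf_eq]
      exact ⟨⟨hI k hkI, hg1 k hkI⟩, (hg2 k hkI).symm, hk2⟩
    · intro k _ l _ hkl
      exact (Prod.mk.inj hkl).1
  have h1 := card_le_card hsub
  have h2 := card_union_le IE (IB e1 ∪ IB e2)
  have h3 := card_union_le (IB e1) (IB e2)
  have h4 := hBc e1 he1
  have h5 := hBc e2 he2
  omega

theorem Ok.vis (h : D.Ok) {P2 X2 : List α} {Q1 : List α} (hX2 : X2 ∈ D.XX) :
    ∃ X' ∈ D.XX, X' <+: P2 ++ (Q1 ++ X2) := by
  classical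
  have hz := h.hz
  set w := P2 ++ (Q1 ++ X2) with hw
  have hwl : w.length = P2.length + (Q1.length + X2.length) := by simp [hw]
  have h1 := hX2.1
  have hWw : D.Wo w := by
    have : w = (P2 ++ Q1) ++ X2 := by rw [hw, List.append_assoc]
    rw [this, h.hloc _ _ (by omega)]
    exact hX2.2.1
  have hex : ∃ t, D.z ≤ t ∧ t ≤ w.length ∧ D.Wo (w.take t) :=
    ⟨w.length, by omega, le_rfl, by rw [List.take_length]; exact hWw⟩
  obtain ⟨ha1, ha2, ha3⟩ := Nat.find_spec hex
  refine ⟨w.take (Nat.find hex), ⟨?_, ha3, ?_⟩, List.take_prefix _ _⟩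
  · rw [List.length_take]; omega
  · intro t ht1 ht2 ht3
    rw [List.length_take] at ht2
    rw [List.take_take, min_eq_left (by omega)] at ht3
    exact Nat.find_min hex (m := t) (by omega) ⟨ht1, by omega, ht3⟩

/-- the two schemes are complete -/
theorem Ok.cc (h : D.Ok) : CC D.XX D.T D.LP1 D.LP2 := by
  intro X hX X2 hX2 v
  right
  have hz := h.hz
  have hX1 := hX.1
  have htl : (X.take D.p0).length = D.p0 := by rw [List.length_take]; omega
  obtain ⟨I, hI, hk⟩ := h.e2 (X.take D.p0) v htl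
  obtain ⟨k, hkI, hns⟩ := h.count (X ++ X2) (by rw [List.length_append]; omega) I
    (fun k hk' => (hk k hk').1) hI
  obtain ⟨hkK, hl, hr⟩ := hk k hkI
  obtain ⟨b, hb⟩ := Option.isSome_iff_exists.1 hr
  have hck := h.hcp k hkK
  have hd1 : (X ++ X2).drop (D.c k) = X.drop (D.c k) ++ X2 :=
    List.drop_append_of_le_length (by omega)
  have hPl : (X.take (D.c k)).length = D.c k := by rw [List.length_take]; omega
  have htt : (X.take D.p0).take (D.c k) = X.take (D.c k) := by
    rw [List.take_take, min_eq_left hck]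
  rw [htt] at hl
  have hsplit : X.drop (D.c k) = (X.take D.p0).drop (D.c k) ++ X.drop D.p0 := by
    conv_lhs => rw [← List.take_append_drop D.p0 X]
    rw [List.drop_append_of_le_length (by omega)]
  have hQa : ((X.take D.p0).drop (D.c k)).length = D.p0 - D.c k := by
    rw [List.length_drop, htl]
  have hXdl : (X.drop (D.c k)).length = X.length - D.c k := List.length_drop
  refine ⟨X.take (D.c k), X.drop (D.c k) ++ X2, ?_, by omega, ⟨k, hkK, hPl, hl⟩,
    D.T (D.T v X) X2, ?_, ?_⟩
  · rw [← List.append_assoc, List.take_append_drop]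
  · intro e
    have := congrArg List.length e
    rw [List.length_append, List.length_nil] at this
    omega
  · rintro P2 v2 ⟨k2, hk2, hP2, hl2⟩
    by_cases hkk : k2 = k
    · subst hkk
      right
      have hsame : ∀ t, D.p0 + D.n ≤ t → t ≤ X.length →
          (D.Wo ((P2 ++ X.drop (D.c k2)).take t) ↔ D.Wo (X.take t)) := by
        intro t ht1 ht2
        have e1 : X.take t = X.take (D.c k2) ++ (X.drop (D.c k2)).take (t - D.c k2) := by
          conv_lhs => rw [← List.take_append_drop (D.c k2) X]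
          rw [take_app _ _ _ (by omega), hPl]
        rw [take_app _ _ _ (by omega), hP2, e1]
        exact h.wo_swap (by rw [List.length_take]; omega)
      have hlenP : (P2 ++ X.drop (D.c k2)).length = X.length := by
        rw [List.length_append]; omega
      refine ⟨X.drop (D.c k2), X2, rfl, ?_, ⟨by omega, ?_, ?_⟩, hX2, ?_⟩
      · intro e
        rw [e, List.length_nil] at hXdl
        omega
      · have := hsame X.length (by omega) le_rfl
        rw [List.take_length, ← hlenP, List.take_length] at this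
        exact this.2 hX.2.1
      · intro t ht1 ht2 ht3
        rw [hlenP] at ht2
        exact hX.2.2 t ht1 ht2 ((hsame t (by omega) (by omega)).1 ht3)
      · congr 1
        have e1 : (P2 ++ X.drop (D.c k2)).take D.p0 = P2 ++ (X.take D.p0).drop (D.c k2) := by
          rw [hsplit, ← List.append_assoc, List.take_append_of_le_length (by
            rw [List.length_append]; omega), List.take_of_length_le (by
            rw [List.length_append]; omega)]
        have e2 : (P2 ++ X.drop (D.c k2)).drop D.p0 = X.drop D.p0 := by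
          rw [hsplit, ← List.append_assoc, List.drop_append_of_le_length (by
            rw [List.length_append]; omega), List.drop_of_length_le (by
            rw [List.length_append]; omega)]
          rfl
        unfold T
        rw [e1, e2]
        have h6 := h.e1 k2 hkK P2 _ v2 b hP2 (by rw [List.length_append]; omega) hl2 hb
        have h7 := h.e1 k2 hkK (X.take (D.c k2)) _ v b hPl (by rw [List.length_append]; omega) hl hb
        have e3 : X.take (D.c k2) ++ (X.take D.p0).drop (D.c k2) = X.take D.p0 := by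
          rw [← htt, List.take_append_drop]
        rw [e3] at h7
        rw [← h6, ← h7]
    · left
      obtain ⟨X', hX', hpre⟩ := h.vis (P2 := P2) (Q1 := X.drop (D.c k)) hX2
      have hnb : ¬ D.BadX X' := by
        intro hB
        exact hns ⟨k2, hk2, hkk, P2, X', hP2, hX', by rw [hd1]; exact hpre, hB⟩
      obtain ⟨P', Q', h1, h2, h3, h4⟩ := h.cut1' hX' hnb v2
      have := h.hcp k2 hk2
      exact ⟨X', hX', hpre, P', Q', h1, by omega, h3, h4⟩

end Dat

end Crest.Agent.R320.CC_997
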