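import Crest.Agent.R320.Sch2_606

/-! # Row 320: the joint of the two schemes for the natural chain rule (semantic right labels).

Left-looking walls `Wo`, blocks `XX z`; gadget 1 (grid gadget of 693) is given by `G1`,
gadget 2 is `Sch2_606.Gad`. -/

set_option autoImplicit false

namespace Crest.Agent.R320.Cc_72

open Crest.Agent.R320.Sch2_606
open Crest.Agent.R320.ExactR_237 (pr)

variable {α S V : Type}

/-- left-looking walls with window `n` and gaps larger than `W` -/
structure Walls (Wo : List α → Prop) (n W : ℕ) : Prop where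
  loc : ∀ P Q : List α, n ≤ Q.length → (Wo (P ++ Q) ↔ Wo Q)
  gap : ∀ P Q : List α, Wo P → Wo (P ++ Q) → Q ≠ [] → W < Q.length

/-- blocks: the first wall at a place `≥ z` -/
def XX (Wo : List α → Prop) (z : ℕ) : Set (List α) :=
  {X | z ≤ X.length ∧ Wo X ∧ ∀ t, z ≤ t → t < X.length → ¬ Wo (X.take t)}

theorem take_shift (P Q : List α) (t : ℕ) : (P ++ Q).take (P.length + t) = P ++ Q.take t := by
  rw [List.take_append]
  simp [List.take_of_length_le]

theorem wo_shift {Wo : List α → Prop} {n W : ℕ} (hw : Walls Wo n W) (P Q : List α) {t : ℕ}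
    (ht : n ≤ t) (htQ : t ≤ Q.length) : Wo ((P ++ Q).take (P.length + t)) ↔ Wo (Q.take t) := by
  rw [take_shift, hw.loc _ _ (by rw [List.length_take]; omega)]

theorem gap_take {Wo : List α → Prop} {n W : ℕ} (hw : Walls Wo n W) (U : List α) {s t : ℕ}
    (hst : s < t) (ht : t ≤ U.length) (h1 : Wo (U.take s)) (h2 : Wo (U.take t)) : W < t - s := by
  have e : U.take t = U.take s ++ (U.take t).drop s := by
    have : U.take s = (U.take t).take s := by rw [List.take_take, min_eq_left hst.le]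
    rw [this, List.take_append_drop]
  rw [e] at h2
  have hl : ((U.take t).drop s).length = t - s := by
    rw [List.length_drop, List.length_take]; omega
  have := hw.gap _ _ h1 h2 (by intro h0; rw [h0] at hl; simp at hl; omega)
  omega

/-- exchange of the left word -/
theorem swap {Wo : List α → Prop} {n W z D : ℕ} (hw : Walls Wo n W) {P P' Q : List α}
    (h1 : P.length ≤ P'.length + D) (h2 : P'.length ≤ P.length + D)
    (h3 : P.length + n + D ≤ z) (h4 : P'.length + n + D ≤ z) (hX : P ++ Q ∈ XX Wo z)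
    (hE : ∀ t, t ≤ (P ++ Q).length → Wo ((P ++ Q).take t) → z ≤ t + D → ¬ t < z + D) :
    P' ++ Q ∈ XX Wo z := by
  obtain ⟨a, b, c⟩ := hX
  have hl : (P ++ Q).length = P.length + Q.length := List.length_append
  have hl' : (P' ++ Q).length = P'.length + Q.length := List.length_append
  have e1 : z + D ≤ (P ++ Q).length := by
    by_contra hlt
    exact hE (P ++ Q).length le_rfl (by rw [List.take_length]; exact b) (by omega) (by omega)
  refine ⟨by omega, (hw.loc P' Q (by omega)).2 ((hw.loc P Q (by omega)).1 b), ?_⟩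
  intro t ht1 ht2 ht3
  obtain ⟨s, rfl⟩ : ∃ s, t = P'.length + s := ⟨t - P'.length, by omega⟩
  have h5 : Wo (Q.take s) := (wo_shift hw P' Q (by omega) (by omega)).1 ht3
  have h6 : Wo ((P ++ Q).take (P.length + s)) := (wo_shift hw P Q (by omega) (by omega)).2 h5
  by_cases hc : z ≤ P.length + s
  · exact c _ hc (by omega) h6
  · exact hE _ (by omega) h6 (by omega) (by omega)

theorem exists_block {Wo : List α → Prop} {z : ℕ} (U : List α) (h : z ≤ U.length) (hw : Wo U) :
    ∃ t, z ≤ t ∧ t ≤ U.length ∧ U.take t ∈ XX Wo z ∧ Wo (U.take t) ∧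
      ∀ t', z ≤ t' → t' < t → ¬ Wo (U.take t') := by
  classical
  have hex : ∃ t, z ≤ t ∧ t ≤ U.length ∧ Wo (U.take t) :=
    ⟨U.length, h, le_rfl, by rw [List.take_length]; exact hw⟩
  obtain ⟨a, b, c⟩ := Nat.find_spec hex
  have hmin : ∀ t', z ≤ t' → t' < Nat.find hex → ¬ Wo (U.take t') := fun t' h1 h2 h3 =>
    Nat.find_min hex h2 ⟨h1, by omega, h3⟩
  have hlt : (U.take (Nat.find hex)).length = Nat.find hex := by
    rw [List.length_take]; omega
  refine ⟨Nat.find hex, a, b, ⟨by rw [hlt]; exact a, c, ?_⟩, c, hmin⟩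
  intro t h1 h2
  rw [hlt] at h2
  rw [List.take_take, min_eq_left h2.le]
  exact hmin t h1 h2

variable [Monoid S] [AddCommGroup V]

/-- gadget 1 (grid gadget): sound for all words, complete for totals outside `BadT` -/
structure G1 (f : α → S) (act : V → S → V) (lam rho : List α → Option V) (nu1 : List α → V)
    (N1 N1' : ℕ) (BadT : ℕ → Prop) : Prop where
  sound : ∀ (P Q : List α) (v r : V), lam P = some v → rho Q = some r →
    r = act v (pr f (P ++ Q)) + nu1 (P ++ Q)
  len : ∀ (P : List α) (v : V), lam P = some v → P.length ≤ N1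
  complete : ∀ Y : List α, N1' ≤ Y.length → ¬ BadT Y.length → ∀ v, ∃ P Q, Y = P ++ Q ∧
    lam P = some v ∧ (rho Q).isSome

section joint

variable (f : α → S) (act : V → S → V) (Wo : List α → Prop) (z p0 N1 : ℕ)
  (lam1 : List α → Option V) (nu1 nu2 : List α → V) (BadT : ℕ → Prop)
  (K : ℕ) (c : ℕ → ℕ) (lam : ℕ → List α → Option V)

/-- token map of a block -/
def T (v : V) (X : List α) : V :=
  act (act v (pr f (X.take p0)) + nu2 (X.take p0)) (pr f (X.drop p0)) + nu1 (X.drop p0)

/-- left-legal words of scheme 1 -/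
def LP1 (P : List α) (v : V) : Prop :=
  p0 ≤ P.length ∧ lam1 (P.drop p0) = some (act v (pr f (P.take p0)) + nu2 (P.take p0))

/-- left-legal words of scheme 2 -/
def LP2 (P : List α) (v : V) : Prop := ∃ k < K, P.length = c k ∧ lam k P = some v

/-- semantic right-legality of scheme 1 -/
def R1ok (Q : List α) : Prop :=
  Q ≠ [] ∧ ∃ b, ∀ P' v', LP1 f act p0 lam1 nu2 P' v' →
    P' ++ Q ∈ XX Wo z ∧ T f act p0 nu1 nu2 v' (P' ++ Q) = b

/-- `Q` continues a thread which is not cut by scheme 1 -/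
def NC1 (P' : List α) (v' : V) (Q : List α) : Prop :=
  ∀ X ∈ XX Wo z, X <+: P' ++ Q → ∀ P'' Q'', X = P'' ++ Q'' → P'.length ≤ P''.length →
    LP1 f act p0 lam1 nu2 P'' v' → R1ok f act Wo z p0 lam1 nu1 nu2 Q'' → False

/-- bad blocks: (E) or (B) -/
def Bad (X : List α) : Prop :=
  (∃ t, t ≤ X.length ∧ Wo (X.take t) ∧ z ≤ t + N1 ∧ t < z + N1) ∨ BadT (X.length - p0)

end joint

variable {f : α → S} {act : V → S → V} {Wo : List α → Prop} {n W z p0 N1 N1' T0 R0 : ℕ}
  {lam1 rho1 : List α → Option V} {nu1 nu2 : List α → V} {BadT : ℕ → Prop}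
  {K : ℕ} {c : ℕ → ℕ} {lam : ℕ → List α → Option V}

theorem c1 (hw : Walls Wo n W) (hg : G1 f act lam1 rho1 nu1 N1 N1' BadT)
    (hz : 2 * p0 + 2 * N1 + n + N1' + 1 ≤ z) {X : List α} (hX : X ∈ XX Wo z)
    (hb : ¬ Bad Wo z p0 N1 BadT X) (v : V) :
    ∃ P Q, X = P ++ Q ∧ p0 ≤ P.length ∧ LP1 f act p0 lam1 nu2 P v ∧
      R1ok f act Wo z p0 lam1 nu1 nu2 Q := by
  have hXl : z ≤ X.length := hX.1
  have hB : ¬ BadT (X.length - p0) := fun h => hb (Or.inr h)
  obtain ⟨P, Q, hPQ, hl, hr⟩ := hg.complete (X.drop p0) (by rw [List.length_drop]; omega)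
    (by rw [List.length_drop]; exact hB) (act v (pr f (X.take p0)) + nu2 (X.take p0))
  obtain ⟨r, hr⟩ := Option.isSome_iff_exists.1 hr
  have hPl := hg.len P _ hl
  have hX1 : (X.take p0).length = p0 := by rw [List.length_take]; omega
  have hXe : X = (X.take p0 ++ P) ++ Q := by
    rw [List.append_assoc, ← hPQ, List.take_append_drop]
  have hlen : (X.take p0 ++ P).length = p0 + P.length := by rw [List.length_append, hX1]
  have hlenX : X.length = p0 + P.length + Q.length := by
    conv_lhs => rw [hXe]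
    rw [List.length_append, hlen]
  refine ⟨X.take p0 ++ P, Q, hXe, by omega, ⟨by omega, ?_⟩, ?_, r, ?_⟩
  · rw [List.drop_left' hX1, List.take_left' hX1]
    exact hl
  · rintro rfl
    simp at hlenX
    omega
  · rintro P' v' ⟨hp', hl'⟩
    have hPl' := hg.len _ _ hl'
    rw [List.length_drop] at hPl'
    refine ⟨?_, ?_⟩
    · refine swap hw (P := X.take p0 ++ P) (P' := P') (D := N1) (by omega) (by omega) (by omega)
        (by omega) (by rw [← hXe]; exact hX) ?_
      rw [← hXe]
      intro t h1 h2 h3 h4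
      exact hb (Or.inl ⟨t, h1, h2, h3, h4⟩)
    · unfold T
      rw [List.take_append_of_le_length hp', List.drop_append_of_le_length hp']
      exact (hg.sound _ _ _ _ hl' hr).symm

/-! ## the spoiling count -/

open Classical in
/-- at most one place is spoiled by the band of an outer wall -/
theorem spoilE (hw : Walls Wo n W) (hW : 2 * p0 + 2 * N1 ≤ W) (hc0 : ∀ k < K, c k ≤ p0)
    (_hz : p0 + N1 ≤ z)
    (hrul : ∀ a b a' b', a < K → b < K → a' < K → b' < K → a ≠ b → a' ≠ b' →
      c a + c b' ≤ c a' + c b + 2 * N1 → c a' + c b ≤ c a + c b' + 2 * N1 → a = a')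
    (U : List α) :
    ((Finset.range K).filter fun k => ∃ j < K, j ≠ k ∧ ∃ s, s ≤ U.length ∧ Wo (U.take s) ∧
      z + c k ≤ s + c j + N1 ∧ s + c j < z + c k + N1).card ≤ 1 := by
  rw [Finset.card_le_one]
  intro k hk k' hk'
  rw [Finset.mem_filter, Finset.mem_range] at hk hk'
  obtain ⟨hk, j, hj, hjk, s, h1, h2, h3, h4⟩ := hk
  obtain ⟨hk', j', hj', hjk', s', h1', h2', h3', h4'⟩ := hk'
  have e1 := hc0 k hk
  have e2 := hc0 k' hk'
  have e3 := hc0 j hj
  have e4 := hc0 j' hj'
  have hs : s = s' := by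
    rcases lt_trichotomy s s' with h | h | h
    · have := gap_take hw U h h1' h2 h2'
      omega
    · exact h
    · have := gap_take hw U h h1 h2' h2
      omega
  subst hs
  exact hrul k j k' j' hk hj hk' hj' (Ne.symm hjk) (Ne.symm hjk') (by omega) (by omega)

open Classical in
/-- spoiled places -/
theorem spoil (hw : Walls Wo n W) (hW : 2 * p0 + 2 * N1 ≤ W) (hc0 : ∀ k < K, c k ≤ p0)
    (hz : 2 * p0 + 2 * N1 + n + N1' + 1 + T0 ≤ z)
    (hrul : ∀ a b a' b', a < K → b < K → a' < K → b' < K → a ≠ b → a' ≠ b' →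
      c a + c b' ≤ c a' + c b + 2 * N1 → c a' + c b ≤ c a + c b' + 2 * N1 → a = a')
    (hT : ∀ T, T0 ≤ T → ((Finset.range K).filter fun k => ∃ j < K, j ≠ k ∧
      BadT (T + c j - c k)).card ≤ R0)
    (U : List α) :
    ∃ J : Finset ℕ, J.card ≤ 1 + 2 * R0 ∧ ∀ k < K, ∀ j < K, j ≠ k →
      ((∃ s, s ≤ U.length ∧ Wo (U.take s) ∧ z + c k ≤ s + c j + N1 ∧ s + c j < z + c k + N1) ∨
      (∃ s, s ≤ U.length ∧ Wo (U.take s) ∧ z + c k ≤ s + c j ∧
        (∀ s', z + c k ≤ s' + c j → s' < s → ¬ Wo (U.take s')) ∧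
        BadT (s + c j - c k - p0))) → k ∈ J := by
  set JE := (Finset.range K).filter fun k => ∃ j < K, j ≠ k ∧ ∃ s, s ≤ U.length ∧
    Wo (U.take s) ∧ z + c k ≤ s + c j + N1 ∧ s + c j < z + c k + N1 with hJE
  have hJEc : JE.card ≤ 1 := spoilE hw hW hc0 (by omega) hrul U
  set JT := fun T : ℕ => (Finset.range K).filter fun k => ∃ j < K, j ≠ k ∧
    BadT (T + c j - c k) with hJT
  -- the first walls
  by_cases hex : ∃ s, z ≤ s + p0 ∧ s ≤ U.length ∧ Wo (U.take s)
  swap
  · refine ⟨JE, by omega, ?_⟩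
    rintro k hk j hj hjk (h | ⟨s, h1, h2, h3, -⟩)
    · exact Finset.mem_filter.2 ⟨Finset.mem_range.2 hk, j, hj, hjk, h⟩
    · exact absurd ⟨s, by have := hc0 j hj; omega, h1, h2⟩ hex
  obtain ⟨a0, b0, c0⟩ := Nat.find_spec hex
  set w0 := Nat.find hex with hw0
  -- second wall
  have second : ∃ w1, T0 + p0 ≤ w1 ∧ ∀ s, w0 < s → s ≤ U.length → Wo (U.take s) →
      (∀ s', z + p0 ≤ s' → s' < s → ¬ Wo (U.take s')) → s = w1 := by
    by_cases h1 : ∃ s, w0 < s ∧ s ≤ U.length ∧ Wo (U.take s)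
    · obtain ⟨a1, b1, c1⟩ := Nat.find_spec h1
      refine ⟨Nat.find h1, by omega, fun s hs hsl hsw hmin => ?_⟩
      have hle : Nat.find h1 ≤ s := Nat.find_min' h1 ⟨hs, hsl, hsw⟩
      rcases hle.lt_or_eq with hlt | heq
      · have hg := gap_take hw U a1 b1 c0 c1
        exact absurd c1 (hmin _ (by omega) hlt)
      · exact heq.symm
    · exact ⟨T0 + p0, le_rfl, fun s hs hsl hsw _ => absurd ⟨s, hs, hsl, hsw⟩ h1⟩
  obtain ⟨w1, hw1, hsec⟩ := second
  refine ⟨JE ∪ (JT (w0 - p0) ∪ JT (w1 - p0)), ?_, ?_⟩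
  · have h1 := hT (w0 - p0) (by omega)
    have h2 := hT (w1 - p0) (by omega)
    have h3 := Finset.card_union_le JE (JT (w0 - p0) ∪ JT (w1 - p0))
    have h4 := Finset.card_union_le (JT (w0 - p0)) (JT (w1 - p0))
    have h5 : (JT (w0 - p0)).card ≤ R0 := h1
    have h6 : (JT (w1 - p0)).card ≤ R0 := h2
    omega
  · rintro k hk j hj hjk (h | ⟨s, h1, h2, h3, h4, h5⟩)
    · exact Finset.mem_union_left _
        (Finset.mem_filter.2 ⟨Finset.mem_range.2 hk, j, hj, hjk, h⟩)
    · have e1 := hc0 k hk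
      have e3 := hc0 j hj
      refine Finset.mem_union_right _ ?_
      have hs0 : w0 ≤ s := Nat.find_min' hex ⟨by omega, h1, h2⟩
      have hval : ∀ w, s = w → p0 ≤ w → k ∈ JT (w - p0) := by
        rintro w rfl hp
        refine Finset.mem_filter.2 ⟨Finset.mem_range.2 hk, j, hj, hjk, ?_⟩
        have : s - p0 + c j - c k = s + c j - c k - p0 := by omega
        rw [this]; exact h5
      rcases hs0.lt_or_eq with hlt | heq
      · exact Finset.mem_union_right _ (hval w1 (hsec s hlt h1 h2 fun s' hs' hs's =>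
          h4 s' (by omega) hs's) (by omega))
      · exact Finset.mem_union_left _ (hval w0 heq.symm (by omega))

/-! ## scheme 2 -/

theorem c2 {rho : ℕ → List α → S → Option V} {nu : List α → S → V} {R : ℕ}
    (hw : Walls Wo n W) (hg : G1 f act lam1 rho1 nu1 N1 N1' BadT)
    (hG : Gad f act K R c lam rho nu)
    (_hc : ∀ i j, i < j → j < K → c i < c j)
    (hW : 2 * p0 + 2 * N1 ≤ W) (hc0 : ∀ k < K, c k ≤ p0)
    (hz : 2 * p0 + 2 * N1 + n + N1' + 1 + T0 ≤ z)
    (hrul : ∀ a b a' b', a < K → b < K → a' < K → b' < K → a ≠ b → a' ≠ b' →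
      c a + c b' ≤ c a' + c b + 2 * N1 → c a' + c b ≤ c a + c b' + 2 * N1 → a = a')
    (hT : ∀ T, T0 ≤ T → (by classical exact ((Finset.range K).filter fun k => ∃ j < K, j ≠ k ∧
      BadT (T + c j - c k)).card) ≤ R0)
    (hR : 1 + 2 * R0 < R) (hnu : ∀ u, nu2 u = nu u 1)
    {X X2 : List α} (hX : X ∈ XX Wo z) (hX2 : X2 ∈ XX Wo z) (v : V) :
    ∃ P Q, X ++ X2 = P ++ Q ∧ P.length < X.length ∧ LP2 K c lam P v ∧
      ∃ b, ∀ P' v', LP2 K c lam P' v' → NC1 f act Wo z p0 lam1 nu1 nu2 P' v' Q →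
        ∃ Q1 X2', Q = Q1 ++ X2' ∧ Q1 ≠ [] ∧ P' ++ Q1 ∈ XX Wo z ∧ X2' ∈ XX Wo z ∧
          T f act p0 nu1 nu2 (T f act p0 nu1 nu2 v' (P' ++ Q1)) X2' = b := by
  classical
  have hXl : z ≤ X.length := hX.1
  have hX2l : z ≤ X2.length := hX2.1
  obtain ⟨J, hJ, hspoil⟩ := spoil hw hW hc0 hz hrul hT (X ++ X2)
  have hX1 : (X.take p0).length = p0 := by rw [List.length_take]; omega
  obtain ⟨I, hI, hIk⟩ := hG.complete (X.take p0) 1 v (fun k hk => by rw [hX1]; exact hc0 k hk)
  obtain ⟨k, hkI, hkJ⟩ : ∃ k ∈ I, k ∉ J := by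
    by_contra hcon
    push Not at hcon
    have := Finset.card_le_card (show I ⊆ J from hcon)
    omega
  obtain ⟨hkK, hl, hr⟩ := hIk k hkI
  obtain ⟨b0, hr⟩ := Option.isSome_iff_exists.1 hr
  have hck := hc0 k hkK
  have htk : (X.take p0).take (c k) = X.take (c k) := by rw [List.take_take, min_eq_left hck]
  rw [htk] at hl
  have hlk : (X.take (c k)).length = c k := by rw [List.length_take]; omega
  have hdk : (X ++ X2).drop (c k) = X.drop (c k) ++ X2 :=
    List.drop_append_of_le_length (by omega)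
  refine ⟨X.take (c k), X.drop (c k) ++ X2, by
    rw [← List.append_assoc, List.take_append_drop], by omega, ⟨k, hkK, hlk, hl⟩,
    T f act p0 nu1 nu2 (act b0 (pr f (X.drop p0)) + nu1 (X.drop p0)) X2, ?_⟩
  rintro P' v' ⟨j, hjK, hPj, hlj⟩ hNC
  have hcj := hc0 j hjK
  by_cases hjk : j = k
  · subst hjk
    refine ⟨X.drop (c j), X2, rfl, ?_, ?_, hX2, ?_⟩
    · intro h0
      have := congrArg List.length h0
      rw [List.length_drop, List.length_nil] at this
      omega
    · refine swap hw (P := X.take (c j)) (P' := P') (D := 0) (by omega) (by omega) (by omega)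
        (by omega) (by rw [List.take_append_drop]; exact hX) (fun t _ _ h1 h2 => by omega)
    · have ht : (P' ++ X.drop (c j)).take p0 = P' ++ (X.take p0).drop (c j) := by
        rw [List.take_append, List.take_of_length_le (by omega), hPj, List.drop_take]
      have hd : (P' ++ X.drop (c j)).drop p0 = X.drop p0 := by
        rw [List.drop_append, List.drop_eq_nil_of_le (by omega), List.nil_append,
          List.drop_drop, hPj]
        congr 1
        omega
      have hs := hG.sound j hkK P' ((X.take p0).drop (c j)) 1 v' b0 hPj hlj hr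
      rw [mul_one] at hs
      have : T f act p0 nu1 nu2 v' (P' ++ X.drop (c j)) =
          act b0 (pr f (X.drop p0)) + nu1 (X.drop p0) := by
        unfold T
        rw [ht, hd, hnu, ← hs]
      rw [this]
  · exfalso
    set Q := X.drop (c k) ++ X2 with hQ
    have hQl : Q.length = X.length - c k + X2.length := by
      rw [hQ, List.length_append, List.length_drop]
    have hUQ : X ++ X2 = X.take (c k) ++ Q := by
      rw [hQ, ← List.append_assoc, List.take_append_drop]
    have hPQl : (P' ++ Q).length = c j + Q.length := by rw [List.length_append, hPj]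
    have hwo : Wo (P' ++ Q) := by
      have h1 : Wo X2 := hX2.2.1
      rw [hQ, ← List.append_assoc]
      exact (hw.loc _ _ (by omega)).2 h1
    obtain ⟨t, ht1, ht2, htX, htW, htm⟩ := exists_block (P' ++ Q) (z := z) (by omega) hwo
    have hcoord : ∀ s, c j ≤ s → s ≤ (P' ++ Q).length → n ≤ s - c j →
        (Wo ((P' ++ Q).take s) ↔ Wo ((X ++ X2).take (s - c j + c k))) := by
      intro s hs1 hs2 hs3
      have e1 : s = P'.length + (s - c j) := by omega
      have e2 : s - c j + c k = (X.take (c k)).length + (s - c j) := by omega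
      rw [hUQ, e2]
      conv_lhs => rw [e1]
      rw [wo_shift hw P' Q hs3 (by omega), wo_shift hw (X.take (c k)) Q hs3 (by omega)]
    have htl : ((P' ++ Q).take t).length = t := by rw [List.length_take]; omega
    have hUl : (X ++ X2).length = X.length + X2.length := List.length_append
    by_cases hb : Bad Wo z p0 N1 BadT ((P' ++ Q).take t)
    · apply hkJ
      apply hspoil k hkK j hjK hjk
      rcases hb with ⟨t', h1, h2, h3, h4⟩ | hb
      · rw [htl] at h1
        rw [List.take_take, min_eq_left h1] at h2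
        refine Or.inl ⟨t' - c j + c k, by omega, (hcoord t' (by omega) (by omega) (by omega)).1 h2,
          by omega, by omega⟩
      · rw [htl] at hb
        refine Or.inr ⟨t - c j + c k, by omega, (hcoord t (by omega) (by omega) (by omega)).1 htW,
          by omega, ?_, ?_⟩
        · intro s' hs1 hs2 hs3
          have := (hcoord (s' + c j - c k) (by omega) (by omega) (by omega)).2 (by
            have : s' + c j - c k - c j + c k = s' := by omega
            rw [this]; exact hs3)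
          exact htm _ (by omega) (by omega) this
        · have : t - c j + c k + c j - c k - p0 = t - p0 := by omega
          rw [this]; exact hb
    · obtain ⟨P'', Q'', hXe, hP'', hl1, hr1⟩ := c1 (n := n) (W := W) (N1' := N1') (nu2 := nu2) hw hg
        (by omega) htX hb v'
      exact hNC _ htX (List.take_prefix _ _) P'' Q'' hXe (by omega) hl1 hr1

/-- **the semantic (cc)** -/
theorem cc {rho : ℕ → List α → S → Option V} {nu : List α → S → V} {R : ℕ}
    (hw : Walls Wo n W) (hg : G1 f act lam1 rho1 nu1 N1 N1' BadT)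
    (hG : Gad f act K R c lam rho nu)
    (_hc : ∀ i j, i < j → j < K → c i < c j)
    (hW : 2 * p0 + 2 * N1 ≤ W) (hc0 : ∀ k < K, c k ≤ p0)
    (hz : 2 * p0 + 2 * N1 + n + N1' + 1 + T0 ≤ z)
    (hrul : ∀ a b a' b', a < K → b < K → a' < K → b' < K → a ≠ b → a' ≠ b' →
      c a + c b' ≤ c a' + c b + 2 * N1 → c a' + c b ≤ c a + c b' + 2 * N1 → a = a')
    (hT : ∀ T, T0 ≤ T → (by classical exact ((Finset.range K).filter fun k => ∃ j < K, j ≠ k ∧
      BadT (T + c j - c k)).card) ≤ R0)
    (hR : 1 + 2 * R0 < R) (hnu : ∀ u, nu2 u = nu u 1) :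
    ∀ X ∈ XX Wo z, ∀ X2 ∈ XX Wo z, ∀ v,
      (∃ P Q, X = P ++ Q ∧ LP1 f act p0 lam1 nu2 P v ∧
        R1ok f act Wo z p0 lam1 nu1 nu2 Q) ∨
      (∃ P Q, X ++ X2 = P ++ Q ∧ P.length < X.length ∧ LP2 K c lam P v ∧
        ∃ b, ∀ P' v', LP2 K c lam P' v' → NC1 f act Wo z p0 lam1 nu1 nu2 P' v' Q →
          ∃ Q1 X2', Q = Q1 ++ X2' ∧ Q1 ≠ [] ∧ P' ++ Q1 ∈ XX Wo z ∧ X2' ∈ XX Wo z ∧
            T f act p0 nu1 nu2 (T f act p0 nu1 nu2 v' (P' ++ Q1)) X2' = b) := by
  intro X hX X2 hX2 v
  exact Or.inr (c2 hw hg hG _hc hW hc0 hz hrul hT hR hnu hX hX2 v)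

end Crest.Agent.R320.Cc_72
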