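import Mathlib

/-!
Row 320, natural chain rule (first wall at a place `≥ z`), zone gadget without small walls
(693 / 638), exact gadget on the first `p0` letters, semantic right words (474 / 445 / 110).
The statement `cc` of 474's semantic top: scheme 2 cuts every block followed by one more block.
-/

set_option autoImplicit false

namespace Crest.Agent.R320.Cc_994

variable {α V S : Type*}

/-- blocks: first wall at a place `≥ z` -/
def XX (Wo : List α → Prop) (z : ℕ) : Set (List α) :=
  {X | z ≤ X.length ∧ Wo X ∧ ∀ j, z ≤ j → j < X.length → ¬ Wo (X.take j)}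

def TT [Add V] (act : V → S → V) (φ : List α → S) (nu1 nu2 : List α → V) (p0 : ℕ) (v : V)
    (X : List α) : V :=
  act (act v (φ (X.take p0)) + nu2 (X.take p0)) (φ (X.drop p0)) + nu1 (X.drop p0)

def LP1 [Add V] (act : V → S → V) (φ : List α → S) (nu2 : List α → V)
    (lam1 : List α → Option V) (p0 : ℕ) (P : List α) (v : V) : Prop :=
  p0 ≤ P.length ∧ lam1 (P.drop p0) = some (act v (φ (P.take p0)) + nu2 (P.take p0))

def LP2 (lam2 : ℕ → List α → Option V) (c : ℕ → ℕ) (K : ℕ) (P : List α) (v : V) : Prop :=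
  ∃ k < K, P.length = c k ∧ lam2 k P = some v

def Sem1 (X : Set (List α)) (T : V → List α → V) (L1 : List α → V → Prop) (Q : List α) : Prop :=
  Q ≠ [] ∧ ∃ b, ∀ P v, L1 P v → P ++ Q ∈ X ∧ T v (P ++ Q) = b

def Sem2 (X : Set (List α)) (T : V → List α → V) (L1 L2 : List α → V → Prop) (Q : List α) :
    Prop :=
  Q ≠ [] ∧ ∃ b, ∀ P v, L2 P v →
    (∃ Z ∈ X, Z <+: P ++ Q ∧ ∃ P' Q', Z = P' ++ Q' ∧ P.length ≤ P'.length ∧ L1 P' v ∧
      Sem1 X T L1 Q') ∨
    (∃ Q1 X2, Q = Q1 ++ X2 ∧ Q1 ≠ [] ∧ P ++ Q1 ∈ X ∧ X2 ∈ X ∧ T (T v (P ++ Q1)) X2 = b)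

structure Hyp [AddCommGroup V] (Wo : List α → Prop) (n W z p0 N1 N0 K C0 T0 : ℕ)
    (φ : List α → S) (act : V → S → V) (lam1 rho1 : List α → Option V) (nu1 nu2 : List α → V)
    (BadT : ℕ → Prop) (c : ℕ → ℕ) (lam2 rho2 : ℕ → List α → Option V) : Prop where
  loc : ∀ P Q : List α, n ≤ Q.length → (Wo (P ++ Q) ↔ Wo Q)
  gap : ∀ (X : List α) (s t : ℕ), s < t → t ≤ X.length → Wo (X.take s) → Wo (X.take t) →
    s + W < t
  lamN : ∀ P v, lam1 P = some v → P.length ≤ N1
  sound1 : ∀ P Q v b, lam1 P = some v → rho1 Q = some b →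
    b = act v (φ (P ++ Q)) + nu1 (P ++ Q)
  compl1 : ∀ u : List α, N0 ≤ u.length → ¬ BadT u.length → ∀ v, ∃ P Q, P ++ Q = u ∧
    lam1 P = some v ∧ (rho1 Q).isSome
  cinc : ∀ i j, i < j → j < K → c i < c j
  cp0 : ∀ k < K, c k ≤ p0
  sound2 : ∀ k < K, ∀ P Q v b, P.length = c k → (P ++ Q).length = p0 → lam2 k P = some v →
    rho2 k Q = some b → b = act v (φ (P ++ Q)) + nu2 (P ++ Q)
  compl2 : ∀ (u : List α) (v : V), u.length = p0 → ∃ I : Finset ℕ, 2 + 2 * C0 ≤ I.card ∧
    ∀ k ∈ I, k < K ∧ lam2 k (u.take (c k)) = some v ∧ (rho2 k (u.drop (c k))).isSome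
  sep : ∀ a b a' b', a < K → b < K → a' < K → b' < K → a ≠ b → a' ≠ b' →
    (c a + c b' ≤ c a' + c b + 2 * N1) → (c a' + c b ≤ c a + c b' + 2 * N1) → a = a' ∧ b = b'
  spoil : ∀ T, T0 ≤ T → ∀ s : Finset (ℕ × ℕ), (∀ ab ∈ s, ab.1 < K ∧ ab.2 < K ∧ ab.1 ≠ ab.2 ∧
    BadT (T + c ab.1 - c ab.2)) → s.card ≤ C0
  hW : 2 * (p0 + N1) ≤ W
  hz : 3 * p0 + 2 * N1 + n + N0 + T0 + 1 ≤ z

section
variable [AddCommGroup V] {Wo : List α → Prop} {n W z p0 N1 N0 K C0 T0 : ℕ}
    {φ : List α → S} {act : V → S → V} {lam1 rho1 : List α → Option V} {nu1 nu2 : List α → V}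
    {BadT : ℕ → Prop} {c : ℕ → ℕ} {lam2 rho2 : ℕ → List α → Option V}

/-- wall at a place behind a prefix -/
theorem wall_shift (loc : ∀ P Q : List α, n ≤ Q.length → (Wo (P ++ Q) ↔ Wo Q)) (P Q : List α)
    (j : ℕ) (h1 : n ≤ j) (h2 : j ≤ Q.length) :
    Wo ((P ++ Q).take (P.length + j)) ↔ Wo (Q.take j) := by
  rw [List.take_length_add_append]
  exact loc P (Q.take j) (by rw [List.length_take]; omega)

/-- completeness of scheme 1 -/
theorem good_cut (h : Hyp Wo n W z p0 N1 N0 K C0 T0 φ act lam1 rho1 nu1 nu2 BadT c lam2 rho2)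
    {X : List α} (hX : X ∈ XX Wo z) (g1 : z + N1 ≤ X.length)
    (g2 : ∀ s, z ≤ s + N1 → s < z → ¬ Wo (X.take s)) (g3 : ¬ BadT (X.length - p0)) (v : V) :
    ∃ P Q, X = P ++ Q ∧ p0 ≤ P.length ∧ LP1 act φ nu2 lam1 p0 P v ∧
      Sem1 (XX Wo z) (TT act φ nu1 nu2 p0) (LP1 act φ nu2 lam1 p0) Q := by
  obtain ⟨hX1, hX2, hX3⟩ := hX
  have hz := h.hz
  obtain ⟨P1, Q1, hPQ, hl, hr⟩ := h.compl1 (X.drop p0) (by rw [List.length_drop]; omega)
    (by rw [List.length_drop]; exact g3) (act v (φ (X.take p0)) + nu2 (X.take p0))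
  obtain ⟨b, hb⟩ := Option.isSome_iff_exists.mp hr
  have hP1 := h.lamN P1 _ hl
  have hlen : P1.length + Q1.length = X.length - p0 := by
    rw [← List.length_append, hPQ, List.length_drop]
  have htk : (X.take p0).length = p0 := by rw [List.length_take]; omega
  have hXe : X = (X.take p0 ++ P1) ++ Q1 := by
    rw [List.append_assoc, hPQ, List.take_append_drop]
  have e1 : (X.take p0 ++ P1).take p0 = X.take p0 := by
    rw [List.take_append_of_le_length (by omega), List.take_take, min_self]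
  have e2 : (X.take p0 ++ P1).drop p0 = P1 := by
    rw [List.drop_append, htk, Nat.sub_self, List.drop_of_length_le (by omega)]
    simp
  refine ⟨X.take p0 ++ P1, Q1, hXe, by rw [List.length_append]; omega,
    ⟨by rw [List.length_append]; omega, by rw [e1, e2]; exact hl⟩, ?_, b, ?_⟩
  · intro h0
    rw [h0, List.length_nil] at hlen
    omega
  · intro P' v' hP'
    obtain ⟨h3, h4⟩ := hP'
    have h5 := h.lamN _ _ h4
    rw [List.length_drop] at h5
    have hPl : (X.take p0 ++ P1).length = p0 + P1.length := by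
      rw [List.length_append, htk]
    refine ⟨⟨by rw [List.length_append]; omega, ?_, ?_⟩, ?_⟩
    · rw [h.loc P' Q1 (by omega), ← h.loc (X.take p0 ++ P1) Q1 (by omega), ← hXe]
      exact hX2
    · intro j hj1 hj2
      rw [List.length_append] at hj2
      obtain ⟨i, rfl⟩ : ∃ i, j = P'.length + i := ⟨j - P'.length, by omega⟩
      rw [wall_shift h.loc P' Q1 i (by omega) (by omega),
        ← wall_shift h.loc (X.take p0 ++ P1) Q1 i (by omega) (by omega), ← hXe, hPl]
      by_cases hc : z ≤ p0 + P1.length + i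
      · exact hX3 _ hc (by omega)
      · exact g2 _ (by omega) (by omega)
    · unfold TT
      rw [List.take_append_of_le_length h3, List.drop_append_of_le_length h3]
      exact (h.sound1 _ _ _ _ h4 hb).symm

/-- scheme 2 cuts every block which is followed by a block -/
theorem cc2 (h : Hyp Wo n W z p0 N1 N0 K C0 T0 φ act lam1 rho1 nu1 nu2 BadT c lam2 rho2)
    {X X2 : List α} (hX : X ∈ XX Wo z) (hX2 : X2 ∈ XX Wo z) (v : V) :
    ∃ P Q, X ++ X2 = P ++ Q ∧ P.length < X.length ∧ LP2 lam2 c K P v ∧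
      Sem2 (XX Wo z) (TT act φ nu1 nu2 p0) (LP1 act φ nu2 lam1 p0) (LP2 lam2 c K) Q := by
  classical
  have hz := h.hz
  have hW := h.hW
  obtain ⟨a1, a2, a3⟩ := hX
  obtain ⟨b1, b2, b3⟩ := hX2
  set w := X ++ X2 with hw
  have hwl : w.length = X.length + X2.length := by rw [hw, List.length_append]
  let WW : ℕ → Prop := fun t => Wo (w.take t)
  have hwend : WW w.length := by
    show Wo (w.take w.length)
    rw [List.take_length, hw, h.loc X X2 (by omega)]
    exact b2
  -- first wall behind the band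
  have ex2 : ∃ t, z + p0 < t ∧ t ≤ w.length ∧ WW t := ⟨w.length, by omega, le_refl _, hwend⟩
  set t2 := Nat.find ex2 with ht2
  obtain ⟨c1, c2, c3⟩ := Nat.find_spec ex2
  have c4 : ∀ s, z + p0 < s → s < t2 → ¬ WW s := fun s hs1 hs2 hs3 =>
    Nat.find_min ex2 hs2 ⟨hs1, by omega, hs3⟩
  -- the wall in the band
  obtain ⟨t1, d1, d2⟩ : ∃ t1, p0 + T0 ≤ t1 ∧ ∀ t, WW t → t ≤ w.length → z ≤ t + p0 + N1 →
      t ≤ z + p0 + N1 → t = t1 := by
    by_cases hb : ∃ t, WW t ∧ t ≤ w.length ∧ z ≤ t + p0 + N1 ∧ t ≤ z + p0 + N1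
    · obtain ⟨t, e1, e2, e3, e4⟩ := hb
      refine ⟨t, by omega, fun t' f1 f2 f3 f4 => ?_⟩
      rcases lt_trichotomy t' t with hl | hl | hl
      · have := h.gap w t' t hl e2 f1 e1
        omega
      · exact hl
      · have := h.gap w t t' hl f2 e1 f1
        omega
    · exact ⟨p0 + T0, le_refl _, fun t f1 f2 f3 f4 => absurd ⟨t, f1, f2, f3, f4⟩ hb⟩
  -- good pairs
  let GD : ℕ → ℕ → Prop := fun k k' => ∃ t, t ≤ w.length ∧ z + c k ≤ t + c k' ∧ WW t ∧
    (∀ s, z + c k ≤ s + c k' → s < t → ¬ WW s) ∧ z + N1 + c k ≤ t + c k' ∧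
    (∀ s, z + c k ≤ s + N1 + c k' → s + c k' < z + c k → ¬ WW s) ∧
    ¬ BadT (t - p0 + c k' - c k)
  have hbad : ∀ k k', k < K → k' < K → ¬ GD k k' →
      (z + c k ≤ t1 + c k' + N1 ∧ t1 + c k' ≤ z + c k + N1) ∨
      BadT (t1 - p0 + c k' - c k) ∨ BadT (t2 - p0 + c k' - c k) := by
    intro k k' hk hk' hng
    have hck := h.cp0 k hk
    have hck' := h.cp0 k' hk'
    have ex : ∃ t, z + c k ≤ t + c k' ∧ t ≤ w.length ∧ WW t :=
      ⟨w.length, by omega, le_refl _, hwend⟩
    set te := Nat.find ex with hte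
    obtain ⟨e1, e2, e3⟩ := Nat.find_spec ex
    rw [← hte] at e1 e2 e3
    have e4 : ∀ s, z + c k ≤ s + c k' → s < te → ¬ WW s := fun s hs1 hs2 hs3 =>
      Nat.find_min ex hs2 ⟨hs1, by omega, hs3⟩
    have hte12 : te = t1 ∨ te = t2 := by
      by_cases hc : te ≤ z + p0
      · exact Or.inl (d2 te e3 e2 (by omega) (by omega))
      · right
        rcases lt_trichotomy te t2 with hl | hl | hl
        · exact absurd e3 (c4 te (by omega) hl)
        · exact hl
        · exact absurd c3 (e4 t2 (by omega) hl)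
    by_cases hE : z + N1 + c k ≤ te + c k' ∧
        (∀ s, z + c k ≤ s + N1 + c k' → s + c k' < z + c k → ¬ WW s)
    · by_cases hB : BadT (te - p0 + c k' - c k)
      · rcases hte12 with h0 | h0
        · right; left; rw [← h0]; exact hB
        · right; right; rw [← h0]; exact hB
      · exact absurd ⟨te, e2, e1, e3, e4, hE.1, hE.2, hB⟩ hng
    · left
      by_cases hE1 : z + N1 + c k ≤ te + c k'
      · have hE2 : ¬ ∀ s, z + c k ≤ s + N1 + c k' → s + c k' < z + c k → ¬ WW s :=
          fun hh => hE ⟨hE1, hh⟩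
        push Not at hE2
        obtain ⟨s, hs1, hs2, hs3⟩ := hE2
        have := d2 s hs3 (by omega) (by omega) (by omega)
        subst this
        omega
      · have := d2 te e3 e2 (by omega) (by omega)
        omega
  obtain ⟨I, hI1, hI2⟩ := h.compl2 (X.take p0) v (by rw [List.length_take]; omega)
  -- an unspoiled place
  obtain ⟨k, hkI, hkgood⟩ : ∃ k ∈ I, ∀ k' < K, k' ≠ k → GD k k' := by
    by_contra hcon
    push Not at hcon
    choose! g hg1 hg2 hg3 using hcon
    let J : Finset (ℕ × ℕ) := I.image fun k => (g k, k)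
    have hJc : J.card = I.card := Finset.card_image_of_injective _ (fun a b hab => by
      simpa using congrArg Prod.snd hab)
    let P1 : ℕ × ℕ → Prop := fun ab =>
      z + c ab.2 ≤ t1 + c ab.1 + N1 ∧ t1 + c ab.1 ≤ z + c ab.2 + N1
    let P2 : ℕ × ℕ → Prop := fun ab => BadT (t1 - p0 + c ab.1 - c ab.2)
    let P3 : ℕ × ℕ → Prop := fun ab => BadT (t2 - p0 + c ab.1 - c ab.2)
    have hJ : ∀ ab ∈ J, ab.1 < K ∧ ab.2 < K ∧ ab.1 ≠ ab.2 ∧ (P1 ab ∨ P2 ab ∨ P3 ab) := by
      intro ab hab
      obtain ⟨k, hk, rfl⟩ := Finset.mem_image.mp hab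
      exact ⟨hg1 k hk, (hI2 k hk).1, hg2 k hk,
        hbad k (g k) (hI2 k hk).1 (hg1 k hk) (hg3 k hk)⟩
    have hsub : J ⊆ J.filter P1 ∪ (J.filter P2 ∪ J.filter P3) := by
      intro ab hab
      rcases (hJ ab hab).2.2.2 with h0 | h0 | h0
      · exact Finset.mem_union_left _ (Finset.mem_filter.mpr ⟨hab, h0⟩)
      · exact Finset.mem_union_right _ (Finset.mem_union_left _ (Finset.mem_filter.mpr ⟨hab, h0⟩))
      · exact Finset.mem_union_right _ (Finset.mem_union_right _
          (Finset.mem_filter.mpr ⟨hab, h0⟩))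
    have n1 : (J.filter P1).card ≤ 1 := by
      rw [Finset.card_le_one]
      rintro ⟨a, b⟩ hab ⟨a', b'⟩ hab'
      obtain ⟨m1, q1, q2⟩ := Finset.mem_filter.mp hab
      obtain ⟨m2, q3, q4⟩ := Finset.mem_filter.mp hab'
      obtain ⟨u1, u2, u3, -⟩ := hJ _ m1
      obtain ⟨u4, u5, u6, -⟩ := hJ _ m2
      dsimp only at *
      obtain ⟨r1, r2⟩ := h.sep a b a' b' u1 u2 u4 u5 u3 u6 (by omega) (by omega)
      rw [r1, r2]
    have n2 : (J.filter P2).card ≤ C0 := h.spoil (t1 - p0) (by omega) _ fun ab hab => by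
      obtain ⟨m1, q1⟩ := Finset.mem_filter.mp hab
      obtain ⟨u1, u2, u3, -⟩ := hJ _ m1
      exact ⟨u1, u2, u3, q1⟩
    have n3 : (J.filter P3).card ≤ C0 := h.spoil (t2 - p0) (by omega) _ fun ab hab => by
      obtain ⟨m1, q1⟩ := Finset.mem_filter.mp hab
      obtain ⟨u1, u2, u3, -⟩ := hJ _ m1
      exact ⟨u1, u2, u3, q1⟩
    have n4 := Finset.card_le_card hsub
    have n5 := Finset.card_union_le (J.filter P1) (J.filter P2 ∪ J.filter P3)
    have n6 := Finset.card_union_le (J.filter P2) (J.filter P3)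
    omega
  obtain ⟨hkK, hlam, hrho⟩ := hI2 k hkI
  obtain ⟨r, hr⟩ := Option.isSome_iff_exists.mp hrho
  have hck := h.cp0 k hkK
  have hXt : (X.take p0).take (c k) = X.take (c k) := by
    rw [List.take_take, min_eq_left hck]
  rw [hXt] at hlam
  have hPlen : (X.take (c k)).length = c k := by rw [List.length_take]; omega
  have hQ1len : (X.drop (c k)).length = X.length - c k := List.length_drop
  have hwe : w = X.take (c k) ++ (X.drop (c k) ++ X2) := by
    rw [hw, ← List.append_assoc, List.take_append_drop]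
  have hQlen : (X.drop (c k) ++ X2).length = w.length - c k := by
    rw [List.length_append, hQ1len]; omega
  refine ⟨X.take (c k), X.drop (c k) ++ X2, hwe, by omega, ⟨k, hkK, hPlen, hlam⟩, ?_,
    TT act φ nu1 nu2 p0 (act r (φ (X.drop p0)) + nu1 (X.drop p0)) X2, ?_⟩
  · intro h0
    rw [h0, List.length_nil] at hQlen
    omega
  · rintro P' v' ⟨k', hk'K, hP'len, hlam'⟩
    have hck' := h.cp0 k' hk'K
    by_cases hkk : k' = k
    · right
      subst hkk
      have hmem : P' ++ X.drop (c k') ∈ XX Wo z := by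
        refine ⟨by rw [List.length_append, hP'len, hQ1len]; omega, ?_, ?_⟩
        · rw [h.loc _ _ (by omega), ← h.loc (X.take (c k')) _ (by omega),
            List.take_append_drop]
          exact a2
        · intro j hj1 hj2
          rw [List.length_append, hP'len, hQ1len] at hj2
          obtain ⟨i, rfl⟩ : ∃ i, j = P'.length + i := ⟨j - P'.length, by omega⟩
          rw [wall_shift h.loc P' _ i (by omega) (by omega),
            ← wall_shift h.loc (X.take (c k')) _ i (by omega) (by omega),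
            List.take_append_drop, hPlen]
          exact a3 _ (by omega) (by omega)
      refine ⟨X.drop (c k'), X2, rfl, ?_, hmem, ⟨b1, b2, b3⟩, ?_⟩
      · intro h0
        rw [h0, List.length_nil] at hQ1len
        omega
      · have e1 : (P' ++ X.drop (c k')).take p0 = P' ++ (X.take p0).drop (c k') := by
          rw [List.take_append, List.take_of_length_le (by omega), hP'len, List.drop_take]
        have e2 : (P' ++ X.drop (c k')).drop p0 = X.drop p0 := by
          rw [List.drop_append, List.drop_of_length_le (by omega), hP'len, List.drop_drop,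
            List.nil_append]
          congr 1
          omega
        have e3 := h.sound2 k' hkK P' ((X.take p0).drop (c k')) v' r hP'len (by
          rw [List.length_append, List.length_drop, List.length_take]; omega) hlam' hr
        have e4 : TT act φ nu1 nu2 p0 v' (P' ++ X.drop (c k')) =
            act r (φ (X.drop p0)) + nu1 (X.drop p0) := by
          unfold TT
          rw [e1, e2, ← e3]
        rw [e4]
    · left
      obtain ⟨t, g1, g2, g3, g4, g5, g6, g7⟩ := hkgood k' hk'K hkk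
      have tr : ∀ s, z ≤ s → s ≤ c k' + (w.length - c k) →
          (Wo ((P' ++ (X.drop (c k) ++ X2)).take s) ↔ WW (s + c k - c k')) := by
        intro s hs1 hs2
        obtain ⟨i, rfl⟩ : ∃ i, s = P'.length + i := ⟨s - P'.length, by omega⟩
        rw [wall_shift h.loc P' _ i (by omega) (by omega),
          ← wall_shift h.loc (X.take (c k)) _ i (by omega) (by omega), ← hwe, hPlen]
        show _ ↔ Wo (w.take _)
        rw [show P'.length + i + c k - c k' = c k + i by omega]
      have hZmem : (P' ++ (X.drop (c k) ++ X2)).take (t + c k' - c k) ∈ XX Wo z := by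
        have hl : ((P' ++ (X.drop (c k) ++ X2)).take (t + c k' - c k)).length =
            t + c k' - c k := by
          rw [List.length_take, List.length_append, hQlen]; omega
        refine ⟨by rw [hl]; omega, ?_, ?_⟩
        · rw [tr _ (by omega) (by omega)]
          rw [show t + c k' - c k + c k - c k' = t by omega]
          exact g3
        · intro j hj1 hj2
          rw [hl] at hj2
          rw [List.take_take, min_eq_left (by omega), tr _ (by omega) (by omega)]
          exact g4 _ (by omega) (by omega)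
      have hl : ((P' ++ (X.drop (c k) ++ X2)).take (t + c k' - c k)).length =
          t + c k' - c k := by
        rw [List.length_take, List.length_append, hQlen]; omega
      obtain ⟨P'', Q'', q1, q2, q3, q4⟩ := good_cut h hZmem (by rw [hl]; omega) (by
        intro s hs1 hs2
        rw [List.take_take, min_eq_left (by omega)]
        obtain ⟨i, rfl⟩ : ∃ i, s = P'.length + i := ⟨s - P'.length, by omega⟩
        rw [wall_shift h.loc P' _ i (by omega) (by omega),
          ← wall_shift h.loc (X.take (c k)) _ i (by omega) (by omega), ← hwe, hPlen]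
        exact g6 _ (by omega) (by omega)) (by
        rw [hl, show t + c k' - c k - p0 = t - p0 + c k' - c k by omega]
        exact g7) v'
      exact ⟨_, hZmem, List.take_prefix _ _, P'', Q'', q1, by omega, q3, q4⟩

end

end Crest.Agent.R320.Cc_994
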