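import Crest.Agent.R320.Top5_110

/-!
# Row 320: concrete two schemes over left-looking walls on all words (helper110)

Natural chain rule (block = up to the first wall at a place `≥ z`), scheme 1 = 693's grid gadget on
`Y = u.drop p0`, scheme 2 = 237's exact gadget on `X = u.take p0` (right words reach over the next
block), modes of failure: (E) a wall within `N` of `z`, (B) `BT (|u| - p0)`.
Only the two completeness statements of `Top5_110.top_sem` have to be proved.
-/

set_option autoImplicit false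

namespace Crest.Agent.R320.Cfg110

open Crest.Agent.R320.Hk_851 Crest.Agent.R320.Code110 Crest.Agent.R320.Top5_110

universe u v

structure Cfg (α S V : Type*) where
  f : α → S
  act : V → S → V
  Wl : List α → Prop
  n : ℕ
  z : ℕ
  p0 : ℕ
  N : ℕ
  BT : ℕ → Prop
  LW : List α → Option V
  RW : List α → Option V
  nu1 : List α → V
  nu2 : List α → V
  K : ℕ
  c : ℕ → ℕ
  lam : ℕ → List α → Option V
  rho : ℕ → List α → Option V

variable {α : Type u} {S : Type*} [Monoid S] {V : Type v} [AddCommGroup V] (D : Cfg α S V)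

def ph (w : List α) : S := (w.map D.f).prod

theorem ph_append (u w : List α) : ph D (u ++ w) = ph D u * ph D w := by simp [ph]

theorem ph_nil : ph D [] = 1 := by simp [ph]

def XX : Language α :=
  {u | D.Wl u ∧ D.z ≤ u.length ∧ ∀ i, D.z ≤ i → i < u.length → ¬ D.Wl (u.take i)}

def Bad : Language α :=
  {u | u ∈ XX D ∧ (u.length ≤ D.z + D.N ∨
    (∃ i, D.z ≤ i + D.N ∧ i < D.z ∧ D.Wl (u.take i)) ∨ D.BT (u.length - D.p0))}

def T (u : List α) (x : V) : V :=
  D.act (D.act x (ph D (u.take D.p0)) + D.nu2 (u.take D.p0)) (ph D (u.drop D.p0)) +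
    D.nu1 (u.drop D.p0)

def L1 (x : V) : Language α :=
  {p | D.p0 ≤ p.length ∧ D.LW (p.drop D.p0) =
    some (D.act x (ph D (p.take D.p0)) + D.nu2 (p.take D.p0))}

def L2 (x : V) : Language α := {p | ∃ k < D.K, p.length = D.c k ∧ D.lam k p = some x}

structure Ok (R C0 : ℕ) : Prop where
  act_add : ∀ v w s, D.act (v + w) s = D.act v s + D.act w s
  act_mul : ∀ v s t, D.act v (s * t) = D.act (D.act v s) t
  act_one : ∀ v, D.act v 1 = v
  faith : ∀ s t : S, (∀ v, D.act v s = D.act v t) → s = t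
  loc : ∀ P Q : List α, D.n ≤ Q.length → (D.Wl (P ++ Q) ↔ D.Wl Q)
  sep : ∀ (w : List α) (i j : ℕ), i < j → j ≤ w.length → D.Wl (w.take i) → D.Wl (w.take j) →
    2 * (D.p0 + D.N) < j - i
  hN : 0 < D.N
  hz : 2 * D.p0 + 2 * D.N + D.n ≤ D.z
  g1 : ∀ P v, D.LW P = some v → P.length < D.N
  g3 : ∀ P Q v r, D.N ≤ Q.length → D.LW P = some v → D.RW Q = some r →
    r = D.nu1 (P ++ Q) + D.act v (ph D (P ++ Q))
  g4 : ∀ u : List α, 2 * D.N ≤ u.length → ¬ D.BT u.length → ∀ v, ∃ P Q, P ++ Q = u ∧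
    D.LW P = some v ∧ (D.RW Q).isSome
  cinj : ∀ k < D.K, ∀ k' < D.K, D.c k = D.c k' → k = k'
  cle : ∀ k < D.K, D.c k ≤ D.p0
  x1 : ∀ k < D.K, ∀ (P Q : List α) (v b : V), P.length = D.c k → (P ++ Q).length = D.p0 →
    D.lam k P = some v → D.rho k Q = some b → b = D.act v (ph D (P ++ Q)) + D.nu2 (P ++ Q)
  x2 : ∀ (u : List α) (v : V), u.length = D.p0 → ∃ I : Finset ℕ, R ≤ I.card ∧ ∀ k ∈ I, k < D.K ∧
    D.lam k (u.take (D.c k)) = some v ∧ (D.rho k (u.drop (D.c k))).isSome
  hr1 : ∀ a < D.K, ∀ b < D.K, ∀ a' < D.K, ∀ b' < D.K, a ≠ b → a' ≠ b' →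
    D.c a + D.c b' ≤ D.c a' + D.c b + 2 * D.N → D.c a' + D.c b ≤ D.c a + D.c b' + 2 * D.N → b = b'
  hr2 : ∀ t : ℕ, D.z ≤ t + D.p0 + D.N → ∃ B : Finset ℕ, B.card ≤ C0 ∧ ∀ k < D.K, ∀ k' < D.K,
    k' ≠ k → D.BT (t + D.c k' - D.c k - D.p0) → k ∈ B
  hR : 1 + 2 * C0 < R

variable {D} {R C0 : ℕ}

theorem XX_pc : PC (XX D) ∨ D.z = 0 := by
  by_cases h0 : D.z = 0
  · exact Or.inr h0
  · left
    refine ⟨?_, ?_⟩
    · rintro ⟨-, h, -⟩
      simp at h
      exact h0 h
    · rintro u ⟨hu1, hu2, hu3⟩ v ⟨hv1, hv2, hv3⟩ ⟨t, rfl⟩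
      rcases Nat.eq_zero_or_pos t.length with h | h
      · rw [List.length_eq_zero_iff.1 h, List.append_nil]
      · exfalso
        refine hv3 u.length hu2 (by simp; omega) ?_
        rw [List.take_left']
        · exact hu1
        · rfl

theorem Ok.pc (h : Ok D R C0) : PC (XX D) := by
  rcases XX_pc (D := D) with h1 | h1
  · exact h1
  · have := h.hz
    have := h.hN
    omega

theorem bad_sub : ∀ u ∈ Bad D, u ∈ XX D := fun _ hu => hu.1

theorem Ok.wl_shift (h : Ok D R C0) (P Q : List α) (j : ℕ) (hj : D.n ≤ j) (hQ : j ≤ Q.length) :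
    D.Wl ((P ++ Q).take (P.length + j)) ↔ D.Wl (Q.take j) := by
  have e : (P ++ Q).take (P.length + j) = P ++ Q.take j := by
    rw [List.take_append]
    simp [List.take_of_length_le]
  rw [e]
  apply h.loc
  rw [List.length_take]
  omega

theorem Ok.act_sub (h : Ok D R C0) (v w : V) (s : S) :
    D.act (v - w) s = D.act v s - D.act w s := by
  have := h.act_add (v - w) w s
  rw [sub_add_cancel] at this
  rw [this, add_sub_cancel_right]

theorem Ok.hT (h : Ok D R C0) (u : List α) (v v' : V) :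
    T D u v - T D u v' = D.act (v - v') (ph D u) := by
  unfold T
  have e : ph D u = ph D (u.take D.p0) * ph D (u.drop D.p0) := by
    rw [← ph_append, List.take_append_drop]
  rw [e, h.act_mul, h.act_sub v v', add_sub_add_right_eq_sub, ← h.act_sub,
    add_sub_add_right_eq_sub]

theorem exactly_one {Z : Language α} {τ : List α → V → V} {w : List α} {x y : V} (hw : w ∈ Z)
    (h : τ w x = y) : w ∈ Exactly Z τ 1 x y :=
  ⟨y, Language.mem_mul.2 ⟨w, ⟨hw, h⟩, [], ⟨rfl, rfl⟩, by simp⟩⟩

theorem exactly_two {Z : Language α} {τ : List α → V → V} {w w' : List α} {x x' y : V}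
    (hw : w ∈ Z) (hw' : w' ∈ Z) (h : τ w x = x') (h' : τ w' x' = y) :
    w ++ w' ∈ Exactly Z τ 2 x y :=
  ⟨x', Language.mem_mul.2 ⟨w, ⟨hw, h⟩, w', exactly_one hw' h', rfl⟩⟩

/-- completeness of scheme 1 off `Bad` -/
theorem Ok.C1 (h : Ok D R C0) (u : List α) (hu : u ∈ XX D) (hb : u ∉ Bad D) (x : V) :
    ∃ p q y, u = p ++ q ∧ p ∈ L1 D x ∧ q ∈ Rsem (XX D) (XX D) (T D) 0 (L1 D) y := by
  obtain ⟨hu1, hu2, hu3⟩ := hu
  have hz := h.hz
  have hb1 : D.z + D.N < u.length := by
    by_contra hc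
    exact hb ⟨⟨hu1, hu2, hu3⟩, Or.inl (by omega)⟩
  have hb2 : ∀ i, D.z ≤ i + D.N → i < D.z → ¬ D.Wl (u.take i) := by
    intro i h1 h2 h3
    exact hb ⟨⟨hu1, hu2, hu3⟩, Or.inr (Or.inl ⟨i, h1, h2, h3⟩)⟩
  have hb3 : ¬ D.BT (u.length - D.p0) := by
    intro h3
    exact hb ⟨⟨hu1, hu2, hu3⟩, Or.inr (Or.inr h3)⟩
  obtain ⟨P', Q', hPQ, hP', hQ'⟩ := h.g4 (u.drop D.p0) (by rw [List.length_drop]; omega)
    (by rw [List.length_drop]; exact hb3)
    (D.act x (ph D (u.take D.p0)) + D.nu2 (u.take D.p0))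
  obtain ⟨r, hr⟩ := Option.isSome_iff_exists.1 hQ'
  have hPl := h.g1 _ _ hP'
  have hlen : P'.length + Q'.length = u.length - D.p0 := by
    rw [← List.length_append, hPQ, List.length_drop]
  have hXl : (u.take D.p0).length = D.p0 := by rw [List.length_take]; omega
  have hu' : u = (u.take D.p0 ++ P') ++ Q' := by
    rw [List.append_assoc, hPQ, List.take_append_drop]
  refine ⟨u.take D.p0 ++ P', Q', r, hu', ⟨?_, ?_⟩, ?_⟩
  · rw [List.length_append]; omega
  · rw [List.drop_left' hXl, List.take_left' hXl]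
    exact hP'
  · intro x' p' hp'
    obtain ⟨hp1, hp2⟩ := hp'
    have hp3 := h.g1 _ _ hp2
    rw [List.length_drop] at hp3
    left
    refine exactly_one ⟨?_, ?_, ?_⟩ ?_
    · rw [h.loc _ _ (by omega)]
      rw [hu', h.loc _ _ (by omega)] at hu1
      exact hu1
    · rw [List.length_append]; omega
    · intro i hi1 hi2 hi3
      rw [List.length_append] at hi2
      obtain ⟨j, rfl⟩ : ∃ j, i = p'.length + j := ⟨i - p'.length, by omega⟩
      rw [h.wl_shift p' Q' j (by omega) (by omega)] at hi3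
      have hw := (h.wl_shift (u.take D.p0 ++ P') Q' j (by omega) (by omega)).2 hi3
      rw [← hu', List.length_append, hXl] at hw
      by_cases h5 : D.z ≤ D.p0 + P'.length + j
      · exact hu3 _ h5 (by omega) hw
      · exact hb2 _ (by omega) (by omega) hw
    · unfold T
      rw [List.take_append_of_le_length hp1, List.drop_append_of_le_length hp1]
      have := h.g3 (p'.drop D.p0) Q' _ r (by omega) hp2 hr
      rw [this, add_comm]

theorem Ok.fin1 [Finite α] (h : Ok D R C0) (x : V) : {p | p ∈ L1 D x}.Finite := by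
  refine (List.finite_length_le α (D.p0 + D.N)).subset ?_
  rintro p ⟨h1, h2⟩
  have := h.g1 _ _ h2
  rw [List.length_drop] at this
  show p.length ≤ _
  omega

theorem Ok.fin2 [Finite α] (h : Ok D R C0) (x : V) : {p | p ∈ L2 D x}.Finite := by
  refine (List.finite_length_le α D.p0).subset ?_
  rintro p ⟨k, hk, h2, -⟩
  have := h.cle k hk
  show p.length ≤ _
  omega

theorem Ok.wl_move (h : Ok D R C0) (w p' : List α) (a i : ℕ) (ha : a ≤ w.length)
    (hi : p'.length + D.n ≤ i) (hi2 : i ≤ (p' ++ w.drop a).length) :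
    D.Wl ((p' ++ w.drop a).take i) ↔ D.Wl (w.take (i + a - p'.length)) := by
  rw [List.length_append, List.length_drop] at hi2
  obtain ⟨j, rfl⟩ : ∃ j, i = p'.length + j := ⟨i - p'.length, by omega⟩
  rw [h.wl_shift p' (w.drop a) j (by omega) (by rw [List.length_drop]; omega)]
  have h1 := h.wl_shift (w.take a) (w.drop a) j (by omega) (by rw [List.length_drop]; omega)
  rw [List.take_append_drop, List.length_take, min_eq_left ha] at h1
  rw [← h1]
  have e : p'.length + j + a - p'.length = a + j := by omega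
  rw [e]

/-- at most `2 C0 + 1` places are spoiled -/
theorem Ok.spoil (h : Ok D R C0) (w : List α) (hwl : D.Wl w)
    (hw : D.z + 2 * D.p0 + D.N < w.length) :
    ∃ B : Finset ℕ, B.card < R ∧ ∀ k < D.K, k ∉ B → ∀ k' < D.K, k' ≠ k → ∀ p' : List α,
      p'.length = D.c k' → ∃ u' ∈ XX D, u' ∉ Bad D ∧ u' <+: p' ++ w.drop (D.c k) := by
  classical
  have hz := h.hz
  have hN := h.hN
  obtain ⟨w0, hw0a, hw0⟩ : ∃ w0, D.z ≤ w0 + D.p0 + D.N ∧ ∀ j, D.z ≤ j + D.p0 + D.N →
      j ≤ D.z + D.p0 + D.N → j ≤ w.length → D.Wl (w.take j) → j = w0 := by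
    by_cases hex : ∃ j, D.z ≤ j + D.p0 + D.N ∧ j ≤ D.z + D.p0 + D.N ∧ j ≤ w.length ∧
        D.Wl (w.take j)
    · obtain ⟨j, h1, h2, h3, h4⟩ := hex
      refine ⟨j, h1, fun i hi1 hi2 hi3 hi4 => ?_⟩
      by_contra hne
      rcases Nat.lt_or_gt_of_ne hne with hlt | hlt
      · have := h.sep w i j hlt h3 hi4 h4
        omega
      · have := h.sep w j i hlt hi3 h4 hi4
        omega
    · refine ⟨D.z, by omega, fun i hi1 hi2 hi3 hi4 => ?_⟩
      exact (hex ⟨i, hi1, hi2, hi3, hi4⟩).elim
  have hex1 : ∃ j, D.z + D.p0 + D.N < j ∧ D.Wl (w.take j) :=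
    ⟨w.length, by omega, by rw [List.take_length]; exact hwl⟩
  obtain ⟨w1, hw1a, hw1⟩ : ∃ w1, D.z ≤ w1 + D.p0 + D.N ∧ ∀ j, D.z + D.p0 + D.N < j →
      D.Wl (w.take j) → (∀ i, D.z + D.p0 + D.N < i → i < j → ¬ D.Wl (w.take i)) → j = w1 := by
    refine ⟨Nat.find hex1, ?_, fun j h1 h2 h3 => ?_⟩
    · have := (Nat.find_spec hex1).1
      omega
    · apply le_antisymm
      · by_contra hlt
        exact h3 _ (Nat.find_spec hex1).1 (by omega) (Nat.find_spec hex1).2
      · exact Nat.find_min' hex1 ⟨h1, h2⟩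
  obtain ⟨B0, hB0c, hB0⟩ := h.hr2 w0 hw0a
  obtain ⟨B1, hB1c, hB1⟩ := h.hr2 w1 hw1a
  let BE : Finset ℕ := (Finset.range D.K).filter (fun k => ∃ k' < D.K, k' ≠ k ∧
    D.z + D.c k ≤ w0 + D.c k' + D.N ∧ w0 + D.c k' ≤ D.z + D.N + D.c k)
  have hBE : BE.card ≤ 1 := by
    rw [Finset.card_le_one]
    intro a ha b hb
    obtain ⟨ha1, a', ha2, ha3, ha4, ha5⟩ := Finset.mem_filter.1 ha
    obtain ⟨hb1, b', hb2, hb3, hb4, hb5⟩ := Finset.mem_filter.1 hb
    exact h.hr1 a' ha2 a (Finset.mem_range.1 ha1) b' hb2 b (Finset.mem_range.1 hb1) ha3 hb3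
      (by omega) (by omega)
  refine ⟨BE ∪ B0 ∪ B1, ?_, ?_⟩
  · have h1 := Finset.card_union_le (BE ∪ B0) B1
    have h2 := Finset.card_union_le BE B0
    have h3 := h.hR
    omega
  intro k hk hkB k' hk' hne p' hp'
  have hkE : k ∉ BE := fun hc => hkB (Finset.mem_union_left _ (Finset.mem_union_left _ hc))
  have hk0 : k ∉ B0 := fun hc => hkB (Finset.mem_union_left _ (Finset.mem_union_right _ hc))
  have hk1 : k ∉ B1 := fun hc => hkB (Finset.mem_union_right _ hc)
  have hck := h.cle k hk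
  have hck' := h.cle k' hk'
  set P := p' ++ w.drop (D.c k) with hP
  have hPl : P.length + D.c k = w.length + D.c k' := by
    rw [hP, List.length_append, List.length_drop, hp']
    omega
  have hmove : ∀ i, D.z ≤ i + D.N → i ≤ P.length →
      (D.Wl (P.take i) ↔ D.Wl (w.take (i + D.c k - D.c k'))) := by
    intro i hi1 hi2
    have := h.wl_move w p' (D.c k) i (by omega) (by omega) hi2
    rw [hp'] at this
    exact this
  have hex2 : ∃ i, D.z ≤ i ∧ i ≤ P.length ∧ D.Wl (P.take i) := by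
    refine ⟨P.length, by omega, le_rfl, ?_⟩
    rw [hmove P.length (by omega) le_rfl]
    have e : P.length + D.c k - D.c k' = w.length := by omega
    rw [e, List.take_length]
    exact hwl
  have hmin : ∀ i', D.z ≤ i' → i' < Nat.find hex2 → ¬ D.Wl (P.take i') := by
    intro i' h1 h2 h3
    exact Nat.find_min hex2 h2 ⟨h1, h2.le.trans (Nat.find_spec hex2).2.1, h3⟩
  obtain ⟨hi1, hi2, hi3⟩ := Nat.find_spec hex2
  generalize Nat.find hex2 = i at hi1 hi2 hi3 hmin
  have hlen : (P.take i).length = i := by rw [List.length_take]; omega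
  have htt : ∀ i', i' ≤ i → (P.take i).take i' = P.take i' := by
    intro i' h1
    rw [List.take_take, min_eq_left h1]
  refine ⟨P.take i, ⟨hi3, by omega, ?_⟩, ?_, List.take_prefix _ _⟩
  · intro i' h1 h2 h3
    rw [hlen] at h2
    rw [htt i' h2.le] at h3
    exact hmin i' h1 h2 h3
  · rintro ⟨-, hb⟩
    rw [hlen] at hb
    rcases hb with hb | ⟨i', hb1, hb2, hb3⟩ | hb
    · have h1 := (hmove i (by omega) hi2).1 hi3
      have h2 := hw0 (i + D.c k - D.c k') (by omega) (by omega) (by omega) h1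
      exact hkE (Finset.mem_filter.2 ⟨Finset.mem_range.2 hk, k', hk', hne, by omega, by omega⟩)
    · rw [htt i' (by omega)] at hb3
      have h1 := (hmove i' hb1 (by omega)).1 hb3
      have h2 := hw0 (i' + D.c k - D.c k') (by omega) (by omega) (by omega) h1
      exact hkE (Finset.mem_filter.2 ⟨Finset.mem_range.2 hk, k', hk', hne, by omega, by omega⟩)
    · have h1 := (hmove i (by omega) hi2).1 hi3
      by_cases hj : i + D.c k - D.c k' ≤ D.z + D.p0 + D.N
      · have h2 := hw0 (i + D.c k - D.c k') (by omega) hj (by omega) h1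
        refine hk0 (hB0 k hk k' hk' hne ?_)
        have e : w0 + D.c k' - D.c k = i := by omega
        rw [e]
        exact hb
      · have h2 := hw1 (i + D.c k - D.c k') (by omega) h1 (by
          intro i2 h3 h4 h5
          have h6 := hmove (i2 + D.c k' - D.c k) (by omega) (by omega)
          have e : i2 + D.c k' - D.c k + D.c k - D.c k' = i2 := by omega
          rw [e] at h6
          exact hmin _ (by omega) (by omega) (h6.2 h5))
        refine hk1 (hB1 k hk k' hk' hne ?_)
        have e : w1 + D.c k' - D.c k = i := by omega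
        rw [e]
        exact hb

/-- completeness of scheme 2 on `Bad` -/
theorem Ok.C2 (h : Ok D R C0) (u : List α) (hu : u ∈ Bad D) (x : V) (t : List α)
    (ht : t ∈ Bad D) :
    ∃ p q y, u ++ t = p ++ q ∧ p ∈ L2 D x ∧ q ∈ Rsem (XX D) (Bad D) (T D) 1 (L2 D) y := by
  classical
  have hz := h.hz
  have hN := h.hN
  have hul : D.z ≤ u.length := hu.1.2.1
  have htl : D.z ≤ t.length := ht.1.2.1
  have hwl : D.Wl (u ++ t) := (h.loc u t (by omega)).2 ht.1.1
  obtain ⟨B, hBc, hB⟩ := h.spoil (u ++ t) hwl (by rw [List.length_append]; omega)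
  have hXl : (u.take D.p0).length = D.p0 := by rw [List.length_take]; omega
  obtain ⟨I, hIc, hI⟩ := h.x2 (u.take D.p0) x hXl
  obtain ⟨k, hkI, hkB⟩ : ∃ k ∈ I, k ∉ B := by
    by_contra hc
    push Not at hc
    have := Finset.card_le_card (show I ⊆ B from fun k hk => hc k hk)
    omega
  obtain ⟨hk, hlam, hrho⟩ := hI k hkI
  obtain ⟨b, hb⟩ := Option.isSome_iff_exists.1 hrho
  have hck := h.cle k hk
  rw [List.take_take, min_eq_left hck] at hlam
  have hpl : (u.take (D.c k)).length = D.c k := by rw [List.length_take]; omega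
  have hdrop : (u ++ t).drop (D.c k) = u.drop (D.c k) ++ t := by
    rw [List.drop_append_of_le_length (by omega)]
  refine ⟨u.take (D.c k), u.drop (D.c k) ++ t,
    T D t (D.act b (ph D (u.drop D.p0)) + D.nu1 (u.drop D.p0)), ?_, ⟨k, hk, hpl, hlam⟩, ?_⟩
  · rw [← List.append_assoc, List.take_append_drop]
  · rintro x' p' ⟨k', hk', hp'l, hp'⟩
    by_cases hkk : k' = k
    · subst hkk
      left
      show p' ++ (u.drop (D.c k') ++ t) ∈ _
      rw [← List.append_assoc]
      have hlen : (p' ++ u.drop (D.c k')).length = u.length := by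
        rw [List.length_append, List.length_drop, hp'l]; omega
      have hmove : ∀ i, D.z ≤ i + D.N → i ≤ u.length →
          (D.Wl ((p' ++ u.drop (D.c k')).take i) ↔ D.Wl (u.take i)) := by
        intro i hi1 hi2
        have := h.wl_move u p' (D.c k') i (by omega) (by omega) (by omega)
        rw [this, hp'l, Nat.add_sub_cancel]
      have hXX : p' ++ u.drop (D.c k') ∈ XX D := by
        refine ⟨?_, by omega, ?_⟩
        · have := hmove u.length (by omega) le_rfl
          rw [List.take_length, ← hlen, List.take_length] at this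
          exact this.2 hu.1.1
        · intro i h1 h2 h3
          rw [hlen] at h2
          exact hu.1.2.2 i h1 h2 ((hmove i (by omega) h2.le).1 h3)
      have hBad : p' ++ u.drop (D.c k') ∈ Bad D := by
        refine ⟨hXX, ?_⟩
        rw [hlen]
        rcases hu.2 with h1 | ⟨i, h1, h2, h3⟩ | h1
        · exact Or.inl h1
        · exact Or.inr (Or.inl ⟨i, h1, h2, (hmove i h1 (by omega)).2 h3⟩)
        · exact Or.inr (Or.inr h1)
      refine exactly_two hBad ht ?_ rfl
      unfold T
      have e1 : (p' ++ u.drop (D.c k')).take D.p0 = p' ++ (u.take D.p0).drop (D.c k') := by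
        rw [List.take_append, List.take_of_length_le (by omega), hp'l, List.drop_take]
      have e2 : (p' ++ u.drop (D.c k')).drop D.p0 = u.drop D.p0 := by
        rw [List.drop_append, List.drop_eq_nil_of_le (by omega), hp'l, List.nil_append,
          List.drop_drop]
        congr 1
        omega
      rw [e1, e2]
      have := h.x1 k' hk p' ((u.take D.p0).drop (D.c k')) x' b hp'l (by
        rw [List.length_append, List.length_drop, hXl, hp'l]; omega) hp' hb
      rw [← this]
    · right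
      left
      show ∃ u' ∈ XX D, u' ∉ Bad D ∧ u' <+: p' ++ (u.drop (D.c k) ++ t)
      rw [← hdrop]
      exact hB k hk hkB k' hk' hkk p' hp'l

/-- **MAIN: from the configuration to height 3** -/
theorem Ok.main [Finite α] [Finite S] [Finite V] (h : Ok D R C0) (H1 : HL 1 (XX D))
    (H2 : HL 1 (Bad D)) (H3 : ∀ x y, HL 1 (ZT (XX D) (T D) x y))
    (H4 : ∀ s, HL 3 ({w | (∀ u ∈ XX D, ¬ u <+: w) ∧ ph D w = s} : Language α)) (s : S) :
    HL 3 ({w | ph D w = s} : Language α) :=
  top_sem (φ := ph D) (act := D.act) (ph_nil D) (ph_append D) h.act_one h.act_mul h.faith h.pc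
    bad_sub (fun u _ v v' => h.hT u v v') H1 H2 H3 H4 (N1 := 0) (N2 := 1) (L1 := L1 D)
    (L2 := L2 D) h.fin1 h.fin2
    (fun u hu hb x t ht => by
      have ht' : t = [] := by simpa using ht
      subst ht'
      rw [List.append_nil]
      exact h.C1 u hu hb x)
    (fun u hu x t ht => h.C2 u hu x t (by simpa using ht)) s

end Crest.Agent.R320.Cfg110
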