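import Crest.Agent.R320.Chain_724

/-!
# Row 320: scheme 2 (promise ruler) on all words in block form (helper724)
-/

set_option autoImplicit false

namespace Crest.Agent.R320.Chain_724

open Crest.Agent.R320.Blk467 Crest.Agent.R320.Top5_467

universe u

variable {α : Type u} {D : Prm α} {S V : Type u} [Monoid S] [AddCommGroup V]

/-- left words of scheme 2 -/
def LP2 (c : ℕ → ℕ) (K : ℕ) (lam : ℕ → List α → Option V) (v : V) : Set (List α) :=
  {P | ∃ k < K, P.length = c k ∧ lam k P = some v}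

/-- rests of bad blocks with value `b1` at the end -/
def QQ (D : Prm α) (phi : List α → S) (act : V → S → V) (nu1 : List α → V) (c : ℕ → ℕ)
    (rho : ℕ → List α → Option V) (k : ℕ) (b1 : V) : Set (List α) :=
  {W | W ∈ BadC D (c k) ∧ ∃ y1, rho k (W.take (D.p0 - c k)) = some y1 ∧
    b1 = act y1 (phi (W.drop (D.p0 - c k))) + nu1 (W.drop (D.p0 - c k))}

/-- right words of scheme 2 -/
def RQ2 (D : Prm α) (phi : List α → S) (act : V → S → V) (nu1 nu2 : List α → V) (c : ℕ → ℕ)
    (K : ℕ) (rho : ℕ → List α → Option V) (b : V) : Set (List α) :=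
  {Q | ∃ k < K, ∃ b1, ∃ W ∈ QQ D phi act nu1 c rho k b1, ∃ X2 ∈ XXc D 0,
    act b1 (phi X2) + nuAll D phi act nu1 nu2 X2 = b ∧ Q = W ++ X2 ∧
    ∀ k' < K, k' ≠ k → ∃ W', W' <+: Q ∧ W' ∈ XXc D (c k') ∧ W' ∉ BadC D (c k')}

theorem val2 {phi : List α → S} (hphi : ∀ u v, phi (u ++ v) = phi u * phi v) {act : V → S → V}
    (hadd : ∀ a b s, act (a + b) s = act a s + act b s)
    (hmul : ∀ v s t, act v (s * t) = act (act v s) t) {nu1 nu2 : List α → V}
    {c : ℕ → ℕ} {K : ℕ} {lam rho : ℕ → List α → Option V}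
    (hc : ∀ k < K, c k ≤ D.p0)
    (hsound : ∀ k < K, ∀ P Q v b, P.length = c k → lam k P = some v → rho k Q = some b →
      b = act v (phi (P ++ Q)) + nu2 (P ++ Q))
    {k : ℕ} (hk : k < K) {P W : List α} (hP : P.length = c k) {v y1 : V}
    (h1 : lam k P = some v) (h2 : rho k (W.take (D.p0 - c k)) = some y1) :
    act v (phi (P ++ W)) + nuAll D phi act nu1 nu2 (P ++ W)
      = act y1 (phi (W.drop (D.p0 - c k))) + nu1 (W.drop (D.p0 - c k)) := by
  have hck := hc k hk
  have e1 : (P ++ W).take D.p0 = P ++ W.take (D.p0 - c k) := by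
    rw [List.take_append, List.take_of_length_le (by omega), hP]
  have e2 : (P ++ W).drop D.p0 = W.drop (D.p0 - c k) := by
    rw [List.drop_append, List.drop_of_length_le (by omega), hP, List.nil_append]
  rw [T_eq hphi hadd hmul, e1, e2, hsound k hk P _ v y1 hP h1 h2]

theorem s2 {phi : List α → S} (hphi : ∀ u v, phi (u ++ v) = phi u * phi v) {act : V → S → V}
    (hadd : ∀ a b s, act (a + b) s = act a s + act b s)
    (hmul : ∀ v s t, act v (s * t) = act (act v s) t) {nu1 nu2 : List α → V}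
    {c : ℕ → ℕ} {K : ℕ} {lam rho : ℕ → List α → Option V}
    (hc : ∀ k < K, c k ≤ D.p0)
    (hsound : ∀ k < K, ∀ P Q v b, P.length = c k → lam k P = some v → rho k Q = some b →
      b = act v (phi (P ++ Q)) + nu2 (P ++ Q))
    (v b : V) (P Q r : List α) (hP : P ∈ LP2 c K lam v)
    (hQ : Q ∈ RQ2 D phi act nu1 nu2 c K rho b) (hr : P ++ Q ++ r ∈ Str (BadC D 0)) :
    P ++ Q ∈ Lg (BadC D 0) (fun v X => act v (phi X) + nuAll D phi act nu1 nu2 X) v b := by
  obtain ⟨k0, hk0, hP1, hP2⟩ := hP
  obtain ⟨k, hk, b1, W, ⟨hW, y1, hy1, hb1⟩, X2, hX2, hb, rfl, hoth⟩ := hQ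
  obtain ⟨l, hl, hfl⟩ := hr
  have hz := D.hz
  have hck0 := hc k0 hk0
  have hck := hc k hk
  have hlX : ∀ X ∈ l, X ∈ XXc D 0 := fun X hX => (hl X hX).1
  have hkk : k0 = k := by
    by_contra hne
    obtain ⟨W', ⟨q, hq⟩, h1, h2⟩ := hoth k0 hk0 hne
    have h3 : P ++ W' ∈ XXc D 0 := (XXc_shift hP1 (by omega)).2 h1
    obtain ⟨l', hl', -⟩ := PCode.first pcode (r := q ++ r) h3 l hlX (by
      rw [hfl, ← hq]; simp [List.append_assoc])
    have h4 : P ++ W' ∈ BadC D 0 := hl _ (by rw [hl']; simp)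
    exact h2 ((BadC_shift hP1 (by omega)).1 h4)
  subst hkk
  have h5 : P ++ W ∈ BadC D 0 := (BadC_shift hP1 (by omega)).2 hW
  obtain ⟨l', hl', hl2⟩ := PCode.first pcode (r := X2 ++ r) h5.1 l hlX (by
    rw [hfl]; simp [List.append_assoc])
  obtain ⟨l'', hl'', -⟩ := PCode.first pcode (r := r) hX2 l'
    (fun X hX => hlX X (by rw [hl']; simp [hX])) hl2
  have h6 : X2 ∈ BadC D 0 := hl _ (by rw [hl', hl'']; simp)
  refine ⟨[P ++ W, X2], ?_, by simp [List.append_assoc], ?_⟩
  · intro X hX
    rcases List.mem_cons.1 hX with h | h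
    · rw [h]; exact h5
    · rw [List.mem_singleton.1 h]; exact h6
  · show act (act v (phi (P ++ W)) + nuAll D phi act nu1 nu2 (P ++ W)) (phi X2)
      + nuAll D phi act nu1 nu2 X2 = b
    rw [val2 hphi hadd hmul hc hsound hk hP1 hP2 hy1, ← hb1]
    exact hb

/-- a text which ends with a wall far away has a block prefix -/
theorem exists_prefix {c : ℕ} {Q : List α} (h1 : Wo D.n D.S Q) (h2 : D.z ≤ c + Q.length) :
    ∃ W, W <+: Q ∧ W ∈ XXc D c := by
  classical
  have hex : ∃ t, D.z ≤ c + t ∧ t ≤ Q.length ∧ Wo D.n D.S (Q.take t) :=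
    ⟨Q.length, h2, le_rfl, by rwa [List.take_length]⟩
  obtain ⟨g1, g2, g3⟩ := Nat.find_spec hex
  refine ⟨Q.take (Nat.find hex), List.take_prefix _ _, g3, ?_, fun t ht hzt hw => ?_⟩
  · rw [List.length_take, min_eq_left g2]; exact g1
  · rw [List.length_take, min_eq_left g2] at ht
    rw [List.take_take, min_eq_left ht.le] at hw
    exact Nat.find_min hex ht ⟨hzt, by omega, hw⟩

open Classical in
/-- the spoiled places -/
noncomputable def Sp (D : Prm α) (c : ℕ → ℕ) (K : ℕ) (U : List α) : Finset ℕ :=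
  (Finset.range K).filter fun k => ∃ k' < K, k' ≠ k ∧
    ∃ W', W' <+: U.drop (c k) ∧ W' ∈ BadC D (c k')

theorem c2 {phi : List α → S} (hphi : ∀ u v, phi (u ++ v) = phi u * phi v) {act : V → S → V}
    (hadd : ∀ a b s, act (a + b) s = act a s + act b s)
    (hmul : ∀ v s t, act v (s * t) = act (act v s) t) {nu1 nu2 : List α → V}
    {c : ℕ → ℕ} {K R : ℕ} {lam rho : ℕ → List α → Option V}
    (hc : ∀ k < K, c k ≤ D.p0)
    (hsound : ∀ k < K, ∀ P Q v b, P.length = c k → lam k P = some v → rho k Q = some b →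
      b = act v (phi (P ++ Q)) + nu2 (P ++ Q))
    (hcompl : ∀ (w : List α) (v : V), (∀ k < K, c k ≤ w.length) →
      ∃ I : Finset ℕ, R ≤ I.card ∧ ∀ k ∈ I, k < K ∧ lam k (w.take (c k)) = some v ∧
        (rho k (w.drop (c k))).isSome)
    (hsp : ∀ X ∈ XXc D 0, ∀ X' ∈ XXc D 0, (Sp D c K (X ++ X')).card < R)
    (X : List α) (hX : X ∈ BadC D 0) (X' : List α) (hX' : X' ∈ BadC D 0) (v : V) :
    ∃ P Q, P ++ Q = X ++ X' ∧ P ∈ LP2 c K lam v ∧ Q ∈ RQ2 D phi act nu1 nu2 c K rho
      (act (act v (phi X) + nuAll D phi act nu1 nu2 X) (phi X')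
        + nuAll D phi act nu1 nu2 X') := by
  classical
  have hz := D.hz
  have hXl : D.z ≤ X.length := by have := hX.1.2.1; omega
  obtain ⟨I, hI1, hI2⟩ := hcompl (X.take D.p0) v (fun k hk => by
    have := hc k hk
    rw [List.length_take]; omega)
  obtain ⟨k, hkI, hkS⟩ : ∃ k ∈ I, k ∉ Sp D c K (X ++ X') := by
    by_contra hcon
    push Not at hcon
    have := Finset.card_le_card (show I ⊆ Sp D c K (X ++ X') from fun k hk => hcon k hk)
    have := hsp X hX.1 X' hX'.1
    omega
  obtain ⟨hk, hlam, hrho⟩ := hI2 k hkI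
  have hck := hc k hk
  obtain ⟨y1, hy1⟩ := Option.isSome_iff_exists.1 hrho
  have hPl : (X.take (c k)).length = c k := by rw [List.length_take]; omega
  have hlam' : lam k (X.take (c k)) = some v := by
    rw [← hlam, List.take_take, min_eq_left hck]
  have hW : X.drop (c k) ∈ BadC D (c k) := by
    refine (BadC_shift hPl (by omega)).1 ?_
    rw [List.take_append_drop]
    exact hX
  have hy1' : rho k ((X.drop (c k)).take (D.p0 - c k)) = some y1 := by
    rw [← hy1, List.drop_take]
  have hval := val2 (nu1 := nu1) hphi hadd hmul hc hsound hk hPl hlam' hy1'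
  rw [List.take_append_drop] at hval
  refine ⟨X.take (c k), X.drop (c k) ++ X', by rw [← List.append_assoc, List.take_append_drop],
    ⟨k, hk, hPl, hlam'⟩, k, hk, _, X.drop (c k), ⟨hW, y1, hy1', rfl⟩, X', hX'.1, ?_, rfl, ?_⟩
  · rw [hval]
  · intro k' hk' hne
    have hck' := hc k' hk'
    have hX'1 := hX'.1
    have hX'l : D.z ≤ X'.length := by have := hX'1.2.1; omega
    obtain ⟨W', h1, h2⟩ := exists_prefix (D := D) (c := c k') (Q := X.drop (c k) ++ X')
      ((Wo_app (by omega)).2 hX'1.1) (by rw [List.length_append]; omega)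
    refine ⟨W', h1, h2, fun h3 => hkS ?_⟩
    unfold Sp
    rw [Finset.mem_filter, Finset.mem_range]
    refine ⟨hk, k', hk', hne, W', ?_, h3⟩
    rw [List.drop_append_of_le_length (by omega)]
    exact h1

/-- thin events give few spoiled places -/
theorem card_thin {K C0 : ℕ} {c : ℕ → ℕ} {B : ℕ → Prop} {T : ℕ}
    (h : open Classical in ((Finset.range K ×ˢ Finset.range K).filter
      (fun ab : ℕ × ℕ => ab.1 ≠ ab.2 ∧ B (T + c ab.1 - c ab.2))).card ≤ C0)
    (A : Finset ℕ) (hA : ∀ k ∈ A, k < K ∧ ∃ k' < K, k' ≠ k ∧ B (T + c k' - c k)) :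
    A.card ≤ C0 := by
  classical
  refine le_trans ?_ h
  refine le_trans (Finset.card_le_card (t := (((Finset.range K ×ˢ Finset.range K).filter
      (fun ab : ℕ × ℕ => ab.1 ≠ ab.2 ∧ B (T + c ab.1 - c ab.2))).image Prod.snd)) ?_)
    (le_trans Finset.card_image_le (le_of_eq ?_))
  · intro k hk
    obtain ⟨h1, k', h2, h3, h4⟩ := hA k hk
    rw [Finset.mem_image]
    exact ⟨(k', k), by simp [h1, h2, h3, h4], rfl⟩
  · congr

theorem card_Sp {c : ℕ → ℕ} {K C0 Y0 Wg : ℕ} (hc : ∀ k < K, c k ≤ D.p0)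
    (hgap : ∀ (U : List α) (t t' : ℕ), t < t' → t' ≤ U.length → Wo D.n D.S (U.take t) →
      Wo D.n D.S (U.take t') → t + Wg ≤ t')
    (hWg : 2 * D.p0 + 2 * D.N1 + 2 ≤ Wg)
    (hz2 : Y0 + 2 * D.p0 + D.N1 ≤ D.z)
    (hsep : ∀ a b a' b' : ℕ, a < K → b < K → a' < K → b' < K → a ≠ b → a' ≠ b' →
      |((c a : ℤ) - c b) - ((c a' : ℤ) - c b')| ≤ 2 * D.N1 → a = a' ∧ b = b')
    (hthin : open Classical in ∀ T, Y0 ≤ T → ((Finset.range K ×ˢ Finset.range K).filter
      (fun ab : ℕ × ℕ => ab.1 ≠ ab.2 ∧ D.BadT (T + c ab.1 - c ab.2))).card ≤ C0)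
    (U : List α) : (Sp D c K U).card ≤ 1 + (C0 + C0) := by
  classical
  have hz := D.hz
  -- data of a spoiled pair
  have wall : ∀ k k' W', k < K → W' <+: U.drop (c k) → W' ∈ XXc D (c k') → k' < K →
      (Wo D.n D.S (U.take (c k + W'.length)) ∧ c k + W'.length ≤ U.length) := by
    intro k k' W' hk hW h1 hk'
    have a1 := hc k hk
    have a2 := hc k' hk'
    have h2 := h1.2.1
    have hl := hW.length_le
    rw [List.length_drop] at hl
    have e1 : W' = (U.drop (c k)).take W'.length := (List.prefix_iff_eq_take.1 hW)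
    have e2 : U.take (c k + W'.length) = U.take (c k) ++ W' := by
      rw [List.take_add, ← e1]
    refine ⟨?_, by omega⟩
    rw [e2]
    exact (Wo_app (by omega)).2 h1.1
  have wall' : ∀ k W' t, k < K → W' <+: U.drop (c k) → t < W'.length →
      D.n ≤ t → (Wo D.n D.S (W'.take t) ↔ Wo D.n D.S (U.take (c k + t))) := by
    intro k W' t hk hW ht hnt
    have e1 : W' = (U.drop (c k)).take W'.length := (List.prefix_iff_eq_take.1 hW)
    have e2 : U.take (c k + t) = U.take (c k) ++ W'.take t := by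
      rw [List.take_add]
      congr 1
      conv_rhs => rw [e1]
      rw [List.take_take, min_eq_left ht.le]
    rw [e2]
    exact (Wo_app (by rw [List.length_take]; omega)).symm
  -- three classes
  let SE : Finset ℕ := (Finset.range K).filter fun k => ∃ k' < K, k' ≠ k ∧
    ∃ t : ℕ, t ≤ U.length ∧ Wo D.n D.S (U.take t) ∧
      |(t : ℤ) - D.z - ((c k : ℤ) - c k')| ≤ D.N1
  let SL : Finset ℕ := (Finset.range K).filter fun k => ∃ k' < K, k' ≠ k ∧
    ∃ W', W' <+: U.drop (c k) ∧ W' ∈ XXc D (c k') ∧ c k + W'.length < D.z + D.p0 ∧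
      D.BadT (c k' + W'.length - D.p0)
  let SH : Finset ℕ := (Finset.range K).filter fun k => ∃ k' < K, k' ≠ k ∧
    ∃ W', W' <+: U.drop (c k) ∧ W' ∈ XXc D (c k') ∧ D.z + D.p0 ≤ c k + W'.length ∧
      D.BadT (c k' + W'.length - D.p0)
  have hsub : Sp D c K U ⊆ SE ∪ (SL ∪ SH) := by
    intro k hk
    unfold Sp at hk
    rw [Finset.mem_filter, Finset.mem_range] at hk
    obtain ⟨hk, k', hk', hne, W', hW, hX, hE | hB⟩ := hk
    · rw [Finset.mem_union]; left
      rw [Finset.mem_filter, Finset.mem_range]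
      refine ⟨hk, k', hk', hne, ?_⟩
      have h2 := hX.2.1
      obtain ⟨w1, w2⟩ := wall k k' W' hk hW hX hk'
      rcases hE with hE | ⟨t, ht, hw, hzt⟩
      · refine ⟨c k + W'.length, w2, w1, ?_⟩
        rw [abs_le]
        push_cast
        constructor <;> omega
      · have hnt : D.n ≤ t := by
          have := hw.1
          rw [List.length_take] at this
          omega
        refine ⟨c k + t, by omega, (wall' k W' t hk hW ht hnt).1 hw, ?_⟩
        have h3 : ¬ D.z ≤ c k' + t := fun h => hX.2.2 t ht h hw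
        rw [abs_le]
        push_cast
        constructor <;> omega
    · rw [Finset.mem_union, Finset.mem_union]; right
      rcases lt_or_ge (c k + W'.length) (D.z + D.p0) with h | h
      · left
        rw [Finset.mem_filter, Finset.mem_range]
        exact ⟨hk, k', hk', hne, W', hW, hX, h, hB⟩
      · right
        rw [Finset.mem_filter, Finset.mem_range]
        exact ⟨hk, k', hk', hne, W', hW, hX, h, hB⟩
  have cE : SE.card ≤ 1 := by
    rw [Finset.card_le_one]
    intro a ha b hb
    rw [Finset.mem_filter, Finset.mem_range] at ha hb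
    obtain ⟨ha, a', ha', hna, t, ht1, ht2, ht3⟩ := ha
    obtain ⟨hb, b', hb', hnb, s, hs1, hs2, hs3⟩ := hb
    have q1 := hc a ha
    have q2 := hc a' ha'
    have q3 := hc b hb
    have q4 := hc b' hb'
    rw [abs_le] at ht3 hs3
    have hts : t = s := by
      rcases lt_trichotomy t s with h | h | h
      · have := hgap U t s h hs1 ht2 hs2; omega
      · exact h
      · have := hgap U s t h ht1 hs2 ht2; omega
    subst hts
    refine (hsep a a' b b' ha ha' hb hb' hna.symm hnb.symm ?_).1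
    rw [abs_le]
    constructor <;> omega
  have cL : SL.card ≤ C0 := by
    rcases SL.eq_empty_or_nonempty with h0 | ⟨k0, hk0⟩
    · rw [h0]; simp
    · rw [Finset.mem_filter, Finset.mem_range] at hk0
      obtain ⟨hk0, k0', hk0', hne0, W0, hW0, hX0, hlt0, hB0⟩ := hk0
      obtain ⟨w1, w2⟩ := wall k0 k0' W0 hk0 hW0 hX0 hk0'
      have p1 := hc k0 hk0
      have p2 := hc k0' hk0'
      have p3 := hX0.2.1
      refine card_thin (hthin (c k0 + W0.length - D.p0) (by omega)) SL ?_
      intro k hk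
      rw [Finset.mem_filter, Finset.mem_range] at hk
      obtain ⟨hk, k', hk', hne, W, hW, hX, hlt, hB⟩ := hk
      obtain ⟨v1, v2⟩ := wall k k' W hk hW hX hk'
      have q1 := hc k hk
      have q2 := hc k' hk'
      have q3 := hX.2.1
      have heq : c k0 + W0.length = c k + W.length := by
        rcases lt_trichotomy (c k0 + W0.length) (c k + W.length) with h | h | h
        · have := hgap U _ _ h v2 w1 v1; omega
        · exact h
        · have := hgap U _ _ h w2 v1 w1; omega
      refine ⟨hk, k', hk', hne, ?_⟩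
      have e : c k0 + W0.length - D.p0 + c k' - c k = c k' + W.length - D.p0 := by omega
      rw [e]; exact hB
  have cH : SH.card ≤ C0 := by
    rcases SH.eq_empty_or_nonempty with h0 | ⟨k0, hk0⟩
    · rw [h0]; simp
    · rw [Finset.mem_filter, Finset.mem_range] at hk0
      obtain ⟨hk0, k0', hk0', hne0, W0, hW0, hX0, hlt0, hB0⟩ := hk0
      obtain ⟨w1, w2⟩ := wall k0 k0' W0 hk0 hW0 hX0 hk0'
      have p1 := hc k0 hk0
      have p2 := hc k0' hk0'
      have p3 := hX0.2.1
      refine card_thin (hthin (c k0 + W0.length - D.p0) (by omega)) SH ?_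
      intro k hk
      rw [Finset.mem_filter, Finset.mem_range] at hk
      obtain ⟨hk, k', hk', hne, W, hW, hX, hlt, hB⟩ := hk
      obtain ⟨v1, v2⟩ := wall k k' W hk hW hX hk'
      have q1 := hc k hk
      have q2 := hc k' hk'
      have q3 := hX.2.1
      have heq : c k0 + W0.length = c k + W.length := by
        rcases lt_trichotomy (c k0 + W0.length) (c k + W.length) with h | h | h
        · exfalso
          refine hX.2.2 (c k0 + W0.length - c k) (by omega) (by omega) ?_
          refine (wall' k W _ hk hW (by omega) (by omega)).2 ?_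
          rw [show c k + (c k0 + W0.length - c k) = c k0 + W0.length by omega]
          exact w1
        · exact h
        · exfalso
          refine hX0.2.2 (c k + W.length - c k0) (by omega) (by omega) ?_
          refine (wall' k0 W0 _ hk0 hW0 (by omega) (by omega)).2 ?_
          rw [show c k0 + (c k + W.length - c k0) = c k + W.length by omega]
          exact v1
      refine ⟨hk, k', hk', hne, ?_⟩
      have e : c k0 + W0.length - D.p0 + c k' - c k = c k' + W.length - D.p0 := by omega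
      rw [e]; exact hB
  calc (Sp D c K U).card ≤ (SE ∪ (SL ∪ SH)).card := Finset.card_le_card hsub
    _ ≤ SE.card + (SL ∪ SH).card := Finset.card_union_le _ _
    _ ≤ SE.card + (SL.card + SH.card) := by
      have := Finset.card_union_le SL SH; omega
    _ ≤ 1 + (C0 + C0) := by omega

end Crest.Agent.R320.Chain_724
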