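import Mathlib

/-!
Row 320, joint of pieces (3) and (9): chain schemes at word level.

`wall` is a right-looking rule on suffixes (the place `t` of a word `w` is a wall iff `wall (w.drop t)`),
`Zone wall z A d`: the first wall at distance `>= z` from the beginning of `A` is at distance `d`.
`Run wall z stp A c P v`: the chain which starts at the beginning of `A` with the value `c` passes
the anchor whose suffix is `P`, with the value `v` there (`stp A d c` is the value after the zone
`A.take d`; it may contain any noise read off the text from the anchor on).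
`K`: the words from a right-legal place (data `Rl`: distance to the first anchor, value there) to a
left-legal place (data `Ll`: value at the last anchor) along a run.

* `K_append`: junction exactness (818's lemma + gadget) implies `K ++ K <= K`;
* `K_split`: an interior zone whose value is cut gives a splitting in `K`;
* `K_irr`: words of `K` which are not a product in `K` have no cut interior zone;
* `promise_run`: the relative form for the inner (promise) scheme.
-/

set_option autoImplicit false

namespace Crest.Agent.R320.ChainScheme502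

universe u v
variable {α : Type u} {V : Type v}

/-- The first wall at distance at least `z` from the beginning of `A` is at distance `d`. -/
def Zone (wall : List α → Prop) (z : ℕ) (A : List α) (d : ℕ) : Prop :=
  z ≤ d ∧ wall (A.drop d) ∧ ∀ t, z ≤ t → t < d → ¬ wall (A.drop t)

/-- A right-looking rule with window `n`. -/
structure Rule (wall : List α → Prop) (n : ℕ) : Prop where
  pos : 0 < n
  len : ∀ Q, wall Q → n ≤ Q.length
  loc : ∀ Q X, n ≤ Q.length → (wall (Q ++ X) ↔ wall Q)

theorem Zone.unique {wall : List α → Prop} {z : ℕ} {A : List α} {d e : ℕ}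
    (hd : Zone wall z A d) (he : Zone wall z A e) : d = e := by
  rcases lt_trichotomy d e with h | h | h
  · exact absurd hd.2.1 (he.2.2 d hd.1 h)
  · exact h
  · exact absurd he.2.1 (hd.2.2 e he.1 h)

theorem Zone.le_length {wall : List α → Prop} {n z : ℕ} (hw : Rule wall n) {A : List α} {d : ℕ}
    (hd : Zone wall z A d) : d + n ≤ A.length := by
  have h := hw.len _ hd.2.1
  have h0 := hw.pos
  rw [List.length_drop] at h
  omega

theorem Zone.append {wall : List α → Prop} {n z : ℕ} (hw : Rule wall n) {A : List α} {d : ℕ}
    (hd : Zone wall z A d) (X : List α) : Zone wall z (A ++ X) d := by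
  have hl := hd.le_length hw
  refine ⟨hd.1, ?_, ?_⟩
  · rw [List.drop_append_of_le_length (by omega)]
    exact (hw.loc _ _ (by rw [List.length_drop]; omega)).2 hd.2.1
  · intro t h1 h2 h3
    rw [List.drop_append_of_le_length (by omega)] at h3
    exact hd.2.2 t h1 h2 ((hw.loc _ _ (by rw [List.length_drop]; omega)).1 h3)

theorem Zone.strip {wall : List α → Prop} {n z : ℕ} (hw : Rule wall n) {A X : List α} {d : ℕ}
    (hl : d + n ≤ A.length) (hd : Zone wall z (A ++ X) d) : Zone wall z A d := by
  refine ⟨hd.1, ?_, ?_⟩
  · have h := hd.2.1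
    rw [List.drop_append_of_le_length (by omega)] at h
    exact (hw.loc _ _ (by rw [List.length_drop]; omega)).1 h
  · intro t h1 h2 h3
    refine hd.2.2 t h1 h2 ?_
    rw [List.drop_append_of_le_length (by omega)]
    exact (hw.loc _ _ (by rw [List.length_drop]; omega)).2 h3

/-- The chain from the beginning of the first list (value `c`) to the anchor `P` (value `v`). -/
inductive Run (wall : List α → Prop) (z : ℕ) (stp : List α → ℕ → V → V) :
    List α → V → List α → V → Prop
  | nil (A : List α) (c : V) : Run wall z stp A c A c
  | step {A : List α} {d : ℕ} {c : V} {P : List α} {v : V} (hz : Zone wall z A d)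
      (hr : Run wall z stp (A.drop d) (stp A d c) P v) : Run wall z stp A c P v

variable {wall : List α → Prop} {n z : ℕ} {stp : List α → ℕ → V → V}

theorem Run.trans {A : List α} {c : V} {B : List α} {x : V} {P : List α} {v : V}
    (h1 : Run wall z stp A c B x) (h2 : Run wall z stp B x P v) : Run wall z stp A c P v := by
  induction h1 with
  | nil A c => exact h2
  | step hz _ ih => exact Run.step hz (ih h2)

theorem Run.suffix {A : List α} {c : V} {P : List α} {v : V}
    (h : Run wall z stp A c P v) : P <:+ A := by
  induction h with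
  | nil A c => exact List.suffix_rfl
  | step hz _ ih => exact ih.trans (List.drop_suffix _ _)

/-- Locality of the zone map: it only depends on the text up to the end of the zone (window included). -/
def Local (wall : List α → Prop) (z : ℕ) (stp : List α → ℕ → V → V) : Prop :=
  ∀ A X d c, Zone wall z A d → stp (A ++ X) d c = stp A d c

theorem Run.append (hw : Rule wall n) (hs : Local wall z stp) {A : List α} {c : V} {P : List α}
    {v : V} (h : Run wall z stp A c P v) (X : List α) :
    Run wall z stp (A ++ X) c (P ++ X) v := by
  induction h with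
  | nil A c => exact Run.nil _ _
  | @step A d c P v hz _ ih =>
    refine Run.step (hz.append hw X) ?_
    have hl := hz.le_length hw
    rw [List.drop_append_of_le_length (by omega), hs A X d c hz]
    exact ih

theorem Run.strip (hw : Rule wall n) (hs : Local wall z stp) {B : List α} {c : V} {R : List α}
    {v : V} (h : Run wall z stp B c R v) :
    ∀ P X : List α, R = P ++ X → n ≤ P.length → ∃ A, B = A ++ X ∧ P.length ≤ A.length ∧
      Run wall z stp A c P v := by
  induction h with
  | nil A c =>
    intro P X h hP
    exact ⟨P, h, le_rfl, Run.nil _ _⟩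
  | @step A d c R v hz _ ih =>
    intro P X h hP
    obtain ⟨A1, hA1, hl1, hr⟩ := ih P X h hP
    have hl := hz.le_length hw
    have hsp : A = (A.take d ++ A1) ++ X := by
      rw [List.append_assoc, ← hA1, List.take_append_drop]
    have htk : (A.take d).length = d := by rw [List.length_take]; omega
    have hz' : Zone wall z (A.take d ++ A1) d := by
      apply Zone.strip hw (X := X)
      · rw [List.length_append, htk]; omega
      · rw [← hsp]; exact hz
    have hst : stp A d c = stp (A.take d ++ A1) d c := by
      conv_lhs => rw [hsp]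
      exact hs _ _ _ _ hz'
    refine ⟨A.take d ++ A1, hsp, ?_, Run.step hz' ?_⟩
    · rw [List.length_append]; omega
    · have hd : (A.take d ++ A1).drop d = A1 := by
        have := List.drop_left (l₁ := A.take d) (l₂ := A1)
        rwa [htk] at this
      rw [hd, ← hst]
      exact hr

/-- The words from a right-legal place to a left-legal place along a run. -/
def K (wall : List α → Prop) (z : ℕ) (stp : List α → ℕ → V → V)
    (Rl : List α → Option (ℕ × V)) (Ll : List α → Option V) : Set (List α) :=
  {u | ∃ b c P v, Rl u = some (b, c) ∧ Run wall z stp (u.drop b) c P v ∧ Ll P = some v}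

/-- The hypotheses on the labels of a scheme. -/
structure Labels (wall : List α → Prop) (n z : ℕ) (Rl : List α → Option (ℕ × V))
    (Ll : List α → Option V) : Prop where
  /-- the right data are read inside the word -/
  rlen : ∀ u b c, Rl u = some (b, c) → b ≤ u.length
  /-- and do not change if the word is prolonged -/
  rmono : ∀ u X b c, Rl u = some (b, c) → Rl (u ++ X) = some (b, c)

/-- Junction exactness: 818's lemma for the anchor, the gadget for the value. -/
def Exact (wall : List α → Prop) (z : ℕ) (stp : List α → ℕ → V → V)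
    (Rl : List α → Option (ℕ × V)) (Ll : List α → Option V) : Prop :=
  ∀ P v Q b c, Ll P = some v → Rl Q = some (b, c) →
    Zone wall z (P ++ Q) (P.length + b) ∧ stp (P ++ Q) (P.length + b) v = c

theorem drop_append_add (P Q : List α) (b : ℕ) : (P ++ Q).drop (P.length + b) = Q.drop b := by
  rw [← List.drop_drop, List.drop_left]

variable {Rl : List α → Option (ℕ × V)} {Ll : List α → Option V}

theorem K_append (hw : Rule wall n) (hs : Local wall z stp) (hl : Labels wall n z Rl Ll)
    (hJ : Exact wall z stp Rl Ll) {u w : List α} (hu : u ∈ K wall z stp Rl Ll)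
    (hv : w ∈ K wall z stp Rl Ll) : u ++ w ∈ K wall z stp Rl Ll := by
  obtain ⟨b, c, P, x, h1, h2, h3⟩ := hu
  obtain ⟨b', c', P', x', h1', h2', h3'⟩ := hv
  have hb := hl.rlen _ _ _ h1
  refine ⟨b, c, P', x', hl.rmono _ _ _ _ h1, ?_, h3'⟩
  rw [List.drop_append_of_le_length hb]
  have hr := h2.append hw hs w
  refine hr.trans ?_
  obtain ⟨hz, hst⟩ := hJ P x w b' c' h3 h1'
  refine Run.step hz ?_
  rw [drop_append_add, hst]
  exact h2'

/-- Splitting at a cut of an interior zone. `w1 ++ Q` is the word, `P ++ Q` the text from the
anchor on, `P` is left-legal with the true value `x`, `Q` is right-legal. -/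
theorem K_split (hw : Rule wall n) (hs : Local wall z stp)
    (hJ : Exact wall z stp Rl Ll) (hLn : ∀ P x, Ll P = some x → n ≤ P.length)
    {w : List α} {b : ℕ} {c : V} (hb : b ≤ w.length)
    {P Q : List α} {x : V} (h2 : Run wall z stp (w.drop b) c (P ++ Q) x)
    {d : ℕ} {Pf : List α} {vf : V} (h3 : Zone wall z (P ++ Q) d)
    (h4 : Run wall z stp ((P ++ Q).drop d) (stp (P ++ Q) d x) Pf vf) (h5 : Ll Pf = some vf)
    (h6 : Ll P = some x) {b' : ℕ} {c' : V} (h7 : Rl Q = some (b', c'))
    (h8 : ∀ w1, w = w1 ++ Q → Rl w1 = some (b, c)) :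
    ∃ w1, w = w1 ++ Q ∧ w1 ∈ K wall z stp Rl Ll ∧ Q ∈ K wall z stp Rl Ll := by
  obtain ⟨A, hA, hPA, hr⟩ := h2.strip hw hs P Q rfl (hLn P x h6)
  have hsp : w = (w.take b ++ A) ++ Q := by
    rw [List.append_assoc, ← hA, List.take_append_drop]
  have htk : (w.take b).length = b := by rw [List.length_take]; omega
  obtain ⟨hz, hst⟩ := hJ P x Q b' c' h6 h7
  have hd : d = P.length + b' := h3.unique hz
  subst hd
  refine ⟨w.take b ++ A, hsp, ⟨b, c, P, x, h8 _ hsp, ?_, h6⟩, ⟨b', c', Pf, vf, h7, ?_, h5⟩⟩
  · have : (w.take b ++ A).drop b = A := by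
      have := List.drop_left (l₁ := w.take b) (l₂ := A)
      rwa [htk] at this
    rw [this]
    exact hr
  · rw [drop_append_add, hst] at h4
    exact h4

/-- A word of `K` which is not a product of two words of `K` has no cut interior zone
(`B0`: the right data are read in the first `b + B0` letters). -/
theorem K_irr (hw : Rule wall n) (hs : Local wall z stp)
    (hJ : Exact wall z stp Rl Ll) (hLn : ∀ P x, Ll P = some x → n ≤ P.length) (B0 : ℕ)
    (hread : ∀ u X b c, Rl (u ++ X) = some (b, c) → b + B0 ≤ u.length → Rl u = some (b, c))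
    {w : List α} {b : ℕ} {c : V} (h1 : Rl w = some (b, c)) (hb : b ≤ w.length)
    {Pf : List α} {vf : V} (h5 : Ll Pf = some vf)
    (hirr : ∀ p ∈ K wall z stp Rl Ll, ∀ q ∈ K wall z stp Rl Ll, p ++ q ≠ w)
    {A : List α} {x : V} (h2 : Run wall z stp (w.drop b) c A x)
    {d : ℕ} (h3 : Zone wall z A d)
    (h4 : Run wall z stp (A.drop d) (stp A d x) Pf vf)
    {P Q : List α} (hA : A = P ++ Q) (h6 : Ll P = some x) (hlong : b + B0 + Q.length ≤ w.length) :
    Rl Q = none := by
  subst hA
  by_contra hne
  obtain ⟨⟨b', c'⟩, h7⟩ := Option.ne_none_iff_exists'.1 hne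
  obtain ⟨w1, hw1, hk1, hk2⟩ := K_split hw hs hJ hLn hb h2 h3 h4 h5 h6 h7
    (fun w1 hw1 => hread w1 Q b c (hw1 ▸ h1) (by
      have := congrArg List.length hw1
      rw [List.length_append] at this
      omega))
  exact hirr w1 hk1 Q hk2 hw1.symm

/-! ### The relative (promise) form -/

/-- Junction exactness on the zones which satisfy the promise `Bad` (a property of the text from
the anchor on). -/
def ExactOn (wall : List α → Prop) (z : ℕ) (stp : List α → ℕ → V → V)
    (Rl : List α → Option (ℕ × V)) (Ll : List α → Option V) (Bad : List α → Prop) : Prop :=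
  ∀ P v Q b c, Ll P = some v → Rl Q = some (b, c) → Bad (P ++ Q) →
    Zone wall z (P ++ Q) (P.length + b) ∧ stp (P ++ Q) (P.length + b) v = c

/-- A product of `K`-words behind a left-legal word is read correctly as long as every anchor of
the true chain at which the product is cut (the anchor text is `P ++ Q` with `P` left-legal for the
true value and `Q` not empty) satisfies the promise. -/
theorem promise_run (hw : Rule wall n) (hs : Local wall z stp)
    (hlab : Labels wall n z Rl Ll)
    (Bad : List α → Prop) (hJ : ExactOn wall z stp Rl Ll Bad) :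
    ∀ (l : List (List α)) (P0 : List α) (v0 : V), (∀ u ∈ l, u ∈ K wall z stp Rl Ll) →
      (∀ u ∈ l, u ≠ []) →
      Ll P0 = some v0 →
      (∀ A x, Run wall z stp (P0 ++ l.flatten) v0 A x → ∀ P Q, A = P ++ Q → Q ≠ [] →
        Ll P = some x → Bad A) →
      ∃ P v, Run wall z stp (P0 ++ l.flatten) v0 P v ∧ Ll P = some v := by
  intro l
  induction l with
  | nil =>
    intro P0 v0 _ _ h0 _
    refine ⟨P0, v0, ?_, h0⟩
    simpa using Run.nil P0 v0
  | cons u l ih =>
    intro P0 v0 hK hne h0 hbad
    obtain ⟨b, c, P, x, h1, h2, h3⟩ := hK u (by simp)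
    have hb : b ≤ u.length := hlab.rlen u b c h1
    have hfl : (u :: l).flatten = u ++ l.flatten := by simp
    have hune : u ++ l.flatten ≠ [] := by
      have := hne u (by simp)
      simp [this]
    rw [hfl] at hbad ⊢
    have hB : Bad (P0 ++ (u ++ l.flatten)) :=
      hbad _ _ (Run.nil _ _) P0 (u ++ l.flatten) rfl hune h0
    obtain ⟨hz, hst⟩ := hJ P0 v0 (u ++ l.flatten) b c h0 (hlab.rmono _ _ _ _ h1) hB
    have hrun1 : Run wall z stp (P0 ++ (u ++ l.flatten)) v0 (P ++ l.flatten) x := by
      refine Run.step hz ?_
      rw [drop_append_add, hst, List.drop_append_of_le_length hb]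
      exact h2.append hw hs _
    obtain ⟨Pk, vk, hr, hk⟩ := ih P x (fun w hw' => hK w (by simp [hw']))
      (fun w hw' => hne w (by simp [hw'])) h3
      (fun A y hA P' Q' hAe hQ' hP' => hbad A y (hrun1.trans hA) P' Q' hAe hQ' hP')
    exact ⟨Pk, vk, hrun1.trans hr, hk⟩

end Crest.Agent.R320.ChainScheme502
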