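import Crest.Agent.R320.Level2_297

/-!
# Row 320, the concrete chain and the two schemes (helper297)
-/

set_option autoImplicit false

namespace Crest.Agent.R320.Chain_297

open Crest.Agent.R320.Level_297

universe u

variable {α : Type u}

/-- walls, chain and gadgets -/
structure Dat (α : Type u) (S V : Type) [Monoid S] [Add V] where
  n : ℕ
  n0 : 0 < n
  R : List α → Prop
  Rloc : ∀ Q s : List α, n ≤ Q.length → (R (Q ++ s) ↔ R Q)
  Rlen : ∀ Q, R Q → n ≤ Q.length
  act : V → S → V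
  act_mul : ∀ v s t, act (act v s) t = act v (s * t)
  phi : List α → S
  phi_mul : ∀ u v, phi (u ++ v) = phi u * phi v
  z : ℕ
  p0 : ℕ
  N : ℕ
  W : ℕ
  Bad : ℕ → Prop
  gap : ∀ Q d, R Q → 0 < d → d ≤ W → ¬ R (Q.drop d)
  hz : p0 + 2 * N ≤ z
  hp0 : n ≤ p0
  hN : 0 < N
  -- gadget 1
  lam1 : List α → Option V
  rho1 : List α → Option V
  nu1 : List α → V
  lam1_le : ∀ p v, lam1 p = some v → p.length ≤ N
  exact1 : ∀ p q v r, lam1 p = some v → rho1 q = some r → r = act v (phi (p ++ q)) + nu1 (p ++ q)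
  compl1 : ∀ u : List α, 2 * N ≤ u.length → ¬ Bad u.length → ∀ v, ∃ p q, p ++ q = u ∧
    lam1 p = some v ∧ (rho1 q).isSome
  -- gadget 2
  K : ℕ
  c : ℕ → ℕ
  cn : ∀ k, k < K → n ≤ c k
  cp : ∀ k, k < K → c k ≤ p0
  cW : ∀ j k, j < K → k < K → c k ≤ c j + W
  lam2 : List α → Option V
  rho2 : List α → Option V
  nu2 : List α → V
  exact2 : ∀ p q v r, (p ++ q).length = p0 → lam2 p = some v → rho2 q = some r →
    r = act v (phi (p ++ q)) + nu2 (p ++ q)

namespace Dat

variable {S V : Type} [Monoid S] [Add V] (D : Dat α S V)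

/-- `t` is the first wall of `Q` at a place `≥ s` -/
def FW (Q : List α) (s t : ℕ) : Prop := s ≤ t ∧ D.R (Q.drop t) ∧ ∀ i, s ≤ i → i < t →
  ¬ D.R (Q.drop i)

theorem FW.vis {D : Dat α S V} {Q : List α} {s t : ℕ} (h : D.FW Q s t) :
    t + D.n ≤ Q.length := by
  have hn := D.n0
  have := D.Rlen _ h.2.1
  rw [List.length_drop] at this
  omega

theorem R_ext {Q s : List α} {i : ℕ} (h : i + D.n ≤ Q.length) :
    D.R ((Q ++ s).drop i) ↔ D.R (Q.drop i) := by
  rw [List.drop_append_of_le_length (by omega)]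
  apply D.Rloc
  rw [List.length_drop]
  omega

theorem R_app {P Q : List α} (i : ℕ) : D.R ((P ++ Q).drop (P.length + i)) ↔ D.R (Q.drop i) := by
  rw [List.drop_append, List.drop_eq_nil_of_le (by omega)]
  simp

theorem FW.ext {D : Dat α S V} {Q s : List α} {a t : ℕ} (h : t + D.n ≤ Q.length) :
    D.FW (Q ++ s) a t ↔ D.FW Q a t := by
  unfold FW
  rw [D.R_ext h]
  refine and_congr_right fun _ => and_congr_right fun _ => forall_congr' fun i =>
    imp_congr_right fun _ => imp_congr_right fun hi => ?_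
  rw [D.R_ext (by omega)]

theorem FW.uniq {D : Dat α S V} {Q : List α} {a t t' : ℕ} (h : D.FW Q a t) (h' : D.FW Q a t') :
    t = t' := by
  rcases lt_trichotomy t t' with hl | hl | hl
  · exact (h'.2.2 t h.1 hl h.2.1).elim
  · exact hl
  · exact (h.2.2 t' h'.1 hl h'.2.1).elim

/-- zone map -/
def zm (Q : List α) (t l : ℕ) (v : V) : V :=
  D.act (D.act (D.act v (D.phi (Q.take D.p0)) + D.nu2 (Q.take D.p0))
    (D.phi ((Q.take t).drop D.p0)) + D.nu1 ((Q.take t).drop D.p0)) (D.phi ((Q.take l).drop t))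

/-- bad zones: wall in the band, or bad length -/
def Bz (Q : List α) (t : ℕ) : Prop :=
  t < D.z + D.N ∨ (∃ i, D.z ≤ i + D.N ∧ i < D.z ∧ D.R (Q.drop i)) ∨ D.Bad (t - D.p0)

theorem Bz.ext {D : Dat α S V} {Q s : List α} {t : ℕ} (hz : D.z ≤ t) (h : t + D.n ≤ Q.length) :
    D.Bz (Q ++ s) t ↔ D.Bz Q t := by
  unfold Bz
  refine or_congr Iff.rfl (or_congr (exists_congr fun i => and_congr_right fun _ =>
    and_congr_right fun hi => ?_) Iff.rfl)
  rw [D.R_ext (by omega)]

/-- zones with a local condition `C` -/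
def IsZ (C : List α → ℕ → Prop) (Q : List α) (t l : ℕ) : Prop :=
  D.FW Q D.z t ∧ D.FW Q (t + 1) l ∧ C Q t

theorem IsZ.uniq {D : Dat α S V} {C : List α → ℕ → Prop} {Q : List α} {t l t' l' : ℕ}
    (h : D.IsZ C Q t l) (h' : D.IsZ C Q t' l') : t = t' ∧ l = l' := by
  have h1 := h.1.uniq h'.1
  subst h1
  exact ⟨rfl, h.2.1.uniq h'.2.1⟩

open Classical in
/-- next anchor and zone map -/
noncomputable def nx (C : List α → ℕ → Prop) (Q : List α) : Option (ℕ × (V → V)) :=
  if h : ∃ x : ℕ × ℕ, D.IsZ C Q x.1 x.2 then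
    some (h.choose.2, D.zm Q h.choose.1 h.choose.2) else none

theorem nx_iff (C : List α → ℕ → Prop) (Q : List α) (l : ℕ) (f : V → V) :
    D.nx C Q = some (l, f) ↔ ∃ t, D.IsZ C Q t l ∧ f = D.zm Q t l := by
  unfold nx
  by_cases h : ∃ x : ℕ × ℕ, D.IsZ C Q x.1 x.2
  · rw [dif_pos h]
    have hs := h.choose_spec
    constructor
    · intro e
      simp only [Option.some.injEq, Prod.mk.injEq] at e
      obtain ⟨e1, e2⟩ := e
      refine ⟨h.choose.1, ?_, ?_⟩
      · rw [← e1]; exact hs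
      · rw [← e1, ← e2]
    · rintro ⟨t, ht, rfl⟩
      obtain ⟨e1, e2⟩ := hs.uniq ht
      simp only [Option.some.injEq, Prod.mk.injEq]
      exact ⟨e2, by rw [e1, e2]⟩
  · rw [dif_neg h]
    constructor
    · intro e; simp at e
    · rintro ⟨t, ht, _⟩
      exact (h ⟨(t, l), ht⟩).elim

theorem zm_ext {Q s : List α} {t l : ℕ} (h1 : D.p0 ≤ t) (h2 : t ≤ l) (h3 : l ≤ Q.length) :
    D.zm (Q ++ s) t l = D.zm Q t l := by
  funext v
  unfold zm
  rw [List.take_append_of_le_length (by omega), List.take_append_of_le_length (by omega),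
    List.take_append_of_le_length (by omega)]

/-- the rule with condition `C` -/
noncomputable def rule (C : List α → ℕ → Prop)
    (hC : ∀ Q s t, D.z ≤ t → t + D.n ≤ Q.length → (C (Q ++ s) t ↔ C Q t)) :
    Rule α V D.n where
  nx := D.nx C
  pos := by
    intro Q l f h
    obtain ⟨t, ht, _⟩ := (D.nx_iff C Q l f).1 h
    have := ht.2.1.1
    omega
  vis := by
    intro Q l f h
    obtain ⟨t, ht, _⟩ := (D.nx_iff C Q l f).1 h
    exact ht.2.1.vis
  ext := by
    intro Q s l f h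
    obtain ⟨t, ht, rfl⟩ := (D.nx_iff C Q l f).1 h
    have h1 := ht.2.1.vis
    have h2 := ht.2.1.1
    have h3 := ht.1.1
    have h4 := D.hz
    refine (D.nx_iff C _ l _).2 ⟨t, ⟨(FW.ext (by omega)).2 ht.1, (FW.ext h1).2 ht.2.1,
      (hC _ _ _ h3 (by omega)).2 ht.2.2⟩, ?_⟩
    rw [D.zm_ext (by omega) (by omega) (by omega)]
  cut := by
    intro Q s l f h hl
    obtain ⟨t, ht, rfl⟩ := (D.nx_iff C _ l f).1 h
    have h2 := ht.2.1.1
    have h3 := ht.1.1
    have h4 := D.hz
    refine (D.nx_iff C _ l _).2 ⟨t, ⟨(FW.ext (by omega)).1 ht.1, (FW.ext hl).1 ht.2.1,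
      (hC _ _ _ h3 (by omega)).1 ht.2.2⟩, ?_⟩
    rw [D.zm_ext (by omega) (by omega) (by omega)]

/-- all zones -/
noncomputable def rAll : Rule α V D.n := D.rule (fun _ _ => True) (fun _ _ _ _ _ => Iff.rfl)

/-- bad zones -/
noncomputable def rBad : Rule α V D.n := D.rule D.Bz (fun _ _ _ h1 h2 => Bz.ext h1 h2)

/-! ### scheme 1 -/

/-- left-legal for scheme 1 -/
def LL1 (P : List α) (v : V) : Prop :=
  ∃ X p, P = X ++ p ∧ X.length = D.p0 ∧ D.lam1 p = some (D.act v (D.phi X) + D.nu2 X)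

/-- right-legal for scheme 1 -/
def RL1 (Q : List α) (d : ℕ) (b : V) : Prop :=
  (∀ i, D.z ≤ i + D.p0 + D.N → i + D.p0 < D.z → ¬ D.R (Q.drop i)) ∧
  ∃ t, D.FW Q (D.z - D.p0) t ∧ D.FW Q (t + 1) d ∧
    ∃ r, D.rho1 (Q.take t) = some r ∧ b = D.act r (D.phi ((Q.take d).drop t))

theorem FW.shift {D : Dat α S V} {P Q : List α} {s t : ℕ} (h : D.FW Q s t) :
    D.FW (P ++ Q) (P.length + s) (P.length + t) := by
  refine ⟨by have := h.1; omega, (D.R_app t).2 h.2.1, ?_⟩
  intro i h1 h2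
  obtain ⟨j, rfl⟩ := Nat.exists_eq_add_of_le (show P.length ≤ i by omega)
  rw [D.R_app]
  exact h.2.2 j (by omega) (by omega)

theorem FW.unshift {D : Dat α S V} {P Q : List α} {s t : ℕ}
    (h : D.FW (P ++ Q) (P.length + s) (P.length + t)) : D.FW Q s t := by
  refine ⟨by have := h.1; omega, (D.R_app t).1 h.2.1, ?_⟩
  intro i h1 h2
  rw [← D.R_app (P := P)]
  exact h.2.2 _ (by omega) (by omega)

/-- **exactness of scheme 1** -/
theorem ex1 {P Q : List α} {v b : V} {d : ℕ} (hL : D.LL1 P v) (hR : D.RL1 Q d b) :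
    ∃ f, D.rAll.nx (P ++ Q) = some (P.length + d, f) ∧ f v = b := by
  obtain ⟨X, p, rfl, hX, hp⟩ := hL
  obtain ⟨hno, t, h1, h2, r, hr, rfl⟩ := hR
  have hpN := D.lam1_le _ _ hp
  have hz := D.hz
  have hFd := h2.1
  have hvis := h2.vis
  refine ⟨D.zm (X ++ p ++ Q) ((X ++ p).length + t) ((X ++ p).length + d),
    (D.nx_iff _ _ _ _).2 ⟨(X ++ p).length + t, ⟨?_, ?_, trivial⟩, rfl⟩, ?_⟩
  · have hl : (X ++ p).length = D.p0 + p.length := by rw [List.length_append, hX]
    refine ⟨by have := h1.1; omega, (D.R_app t).2 h1.2.1, ?_⟩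
    intro i hi1 hi2
    obtain ⟨j, rfl⟩ := Nat.exists_eq_add_of_le (show (X ++ p).length ≤ i by omega)
    rw [D.R_app]
    by_cases hj : j + D.p0 < D.z
    · exact hno j (by omega) hj
    · exact h1.2.2 j (by omega) (by omega)
  · have := h2.shift (P := X ++ p)
    exact this
  · have e := D.exact1 _ _ _ _ hp hr
    unfold zm
    have e1 : (X ++ p ++ Q).take D.p0 = X := by
      rw [List.append_assoc, List.take_left' hX]
    have e2 : ((X ++ p ++ Q).take ((X ++ p).length + t)).drop D.p0 = p ++ Q.take t := by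
      rw [List.take_length_add_append, List.append_assoc, List.drop_left' hX]
    have e3 : ((X ++ p ++ Q).take ((X ++ p).length + d)).drop ((X ++ p).length + t)
        = (Q.take d).drop t := by
      rw [List.take_length_add_append, List.drop_length_add_append]
    rw [e1, e2, e3, ← e]

/-- **completeness of scheme 1** -/
theorem co1 {Q : List α} {l : ℕ} {f : V → V} (h : D.rAll.nx Q = some (l, f)) :
    D.rBad.nx Q = some (l, f) ∨
      ∀ v, ∃ P Q' d b, Q = P ++ Q' ∧ D.LL1 P v ∧ D.RL1 Q' d b := by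
  obtain ⟨t, ht, rfl⟩ := (D.nx_iff _ _ _ _).1 h
  by_cases hB : D.Bz Q t
  · exact Or.inl ((D.nx_iff _ _ _ _).2 ⟨t, ⟨ht.1, ht.2.1, hB⟩, rfl⟩)
  right
  intro v
  have hz := D.hz
  unfold Bz at hB
  push Not at hB
  obtain ⟨hb1, hb2, hb3⟩ := hB
  have hvis := ht.2.1.vis
  have htl := ht.2.1.1
  have hYl : ((Q.take t).drop D.p0).length = t - D.p0 := by
    rw [List.length_drop, List.length_take]
    omega
  obtain ⟨p, q, hpq, hp, hq⟩ := D.compl1 ((Q.take t).drop D.p0) (by rw [hYl]; omega)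
    (by rw [hYl]; exact hb3) (D.act v (D.phi (Q.take D.p0)) + D.nu2 (Q.take D.p0))
  have hpN := D.lam1_le _ _ hp
  have hlen : p.length + q.length = t - D.p0 := by
    rw [← hYl, ← hpq, List.length_append]
  have eQ : Q = (Q.take D.p0 ++ p) ++ (q ++ Q.drop t) := by
    have e1 : Q.take D.p0 ++ (Q.take t).drop D.p0 = Q.take t := by
      have : Q.take D.p0 = (Q.take t).take D.p0 := by
        rw [List.take_take]
        congr 1
        omega
      rw [this, List.take_append_drop]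
    rw [List.append_assoc, ← List.append_assoc p, hpq, ← List.append_assoc, e1,
      List.take_append_drop]
  have hX : (Q.take D.p0).length = D.p0 := by
    rw [List.length_take]
    omega
  set P := Q.take D.p0 ++ p with hP
  set Q' := q ++ Q.drop t with hQ'
  have hPl : P.length = D.p0 + p.length := by rw [hP, List.length_append, hX]
  have htP : t = P.length + q.length := by omega
  obtain ⟨d, rfl⟩ := Nat.exists_eq_add_of_le (show P.length ≤ l by omega)
  obtain ⟨r, hr⟩ := Option.isSome_iff_exists.1 hq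
  have hFW1 : D.FW Q' (D.z - D.p0) q.length := by
    refine ⟨by omega, ?_, ?_⟩
    · rw [← D.R_app (P := P), ← eQ, ← htP]
      exact ht.1.2.1
    · intro i h1 h2
      rw [← D.R_app (P := P), ← eQ]
      exact ht.1.2.2 _ (by omega) (by omega)
  have hFW2 : D.FW Q' (q.length + 1) d := by
    refine FW.unshift (P := P) ?_
    rw [← eQ]
    have : P.length + (q.length + 1) = t + 1 := by omega
    rw [this]
    exact ht.2.1
  have htake : Q'.take q.length = q := by rw [hQ', List.take_left' rfl]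
  refine ⟨P, Q', d, D.act r (D.phi ((Q'.take d).drop q.length)), eQ,
    ⟨Q.take D.p0, p, rfl, hX, hp⟩, ?_, q.length, hFW1, hFW2, r, ?_, rfl⟩
  · intro i h1 h2 h3
    have h4 : D.R (Q.drop (P.length + i)) := by
      rw [eQ, D.R_app]
      exact h3
    by_cases h5 : P.length + i < D.z
    · exact hb2 (P.length + i) (by omega) h5 h4
    · refine ht.1.2.2 (P.length + i) (by omega) ?_ h4
      omega
  · rw [htake]
    exact hr

theorem RL1_ext {Q s : List α} {d : ℕ} {b : V} (h : D.RL1 Q d b) : D.RL1 (Q ++ s) d b := by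
  obtain ⟨hno, t, h1, h2, r, hr, rfl⟩ := h
  have hv := h2.vis
  have h3 := h2.1
  have h4 := h1.1
  refine ⟨?_, t, (FW.ext (by omega)).2 h1, (FW.ext hv).2 h2, r, ?_, ?_⟩
  · intro i hi1 hi2
    rw [D.R_ext (by omega)]
    exact hno i hi1 hi2
  · rw [List.take_append_of_le_length (by omega)]
    exact hr
  · rw [List.take_append_of_le_length (by omega)]

theorem RL1_cut {Q s : List α} {d : ℕ} {b : V} (h : D.RL1 (Q ++ s) d b)
    (hv : d + D.n ≤ Q.length) : D.RL1 Q d b := by
  obtain ⟨hno, t, h1, h2, r, hr, rfl⟩ := h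
  have h3 := h2.1
  have h4 := h1.1
  refine ⟨?_, t, (FW.ext (by omega)).1 h1, (FW.ext hv).1 h2, r, ?_, ?_⟩
  · intro i hi1 hi2
    rw [← D.R_ext (s := s) (by omega)]
    exact hno i hi1 hi2
  · rw [List.take_append_of_le_length (by omega)] at hr
    exact hr
  · rw [List.take_append_of_le_length (by omega)]

/-- **scheme 1** -/
noncomputable def S1 : Scheme D.rAll D.rBad where
  LL := D.LL1
  RL := D.RL1
  Dead := ⊥
  sub := by
    rintro Q ⟨l, f⟩ h
    obtain ⟨t, ht, hf⟩ := (D.nx_iff _ _ _ _).1 h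
    exact (D.nx_iff _ _ _ _).2 ⟨t, ⟨ht.1, ht.2.1, trivial⟩, hf⟩
  LLn := by
    rintro P v ⟨X, p, rfl, hX, _⟩
    have := D.hp0
    rw [List.length_append]
    omega
  RLpos := by
    rintro Q d b ⟨_, t, h1, h2, _⟩
    have := h2.vis
    have := D.n0
    omega
  RLext := fun Q s d b h => D.RL1_ext h
  RLcut := fun Q s d b h hv => D.RL1_cut h hv
  Dext := fun _ _ h => h.elim
  Dnone := fun _ h => h.elim
  exact := fun P v Q d b hL hR _ => D.ex1 hL hR
  complete := fun Q l f h => D.co1 h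

/-! ### scheme 2 -/

/-- the candidate anchor `c j` letters left of `Q`, with first wall `t`, is bad -/
def BadAt (Q : List α) (j t : ℕ) : Prop :=
  t + D.c j < D.z + D.N ∨
    (∃ i, D.z ≤ i + D.c j + D.N ∧ i + D.c j < D.z ∧ D.R (Q.drop i)) ∨ D.Bad (t + D.c j - D.p0)

theorem BadAt.ext {D : Dat α S V} {Q s : List α} {j t : ℕ} (hz : D.z - D.c j ≤ t)
    (h : t + D.n ≤ Q.length) : D.BadAt (Q ++ s) j t ↔ D.BadAt Q j t := by
  unfold BadAt
  refine or_congr Iff.rfl (or_congr (exists_congr fun i => and_congr_right fun _ =>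
    and_congr_right fun hi => ?_) Iff.rfl)
  rw [D.R_ext (by omega)]

/-- left-legal for scheme 2 -/
def LL2 (P : List α) (v : V) : Prop := ∃ k, k < D.K ∧ P.length = D.c k ∧ D.lam2 P = some v

/-- right-legal for scheme 2 -/
def RL2 (Q : List α) (d : ℕ) (b : V) : Prop :=
  ∃ k, k < D.K ∧ ∃ t, D.FW Q (D.z - D.c k) t ∧
    (∀ j, j < D.K → ∃ t', D.FW Q (D.z - D.c j) t' ∧ t' ≤ d ∧ (j ≠ k → ¬ D.BadAt Q j t')) ∧
    D.FW Q (t + 1) d ∧ ∃ r, D.rho2 (Q.take (D.p0 - D.c k)) = some r ∧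
      b = D.act (D.act r (D.phi ((Q.take t).drop (D.p0 - D.c k))) +
        D.nu1 ((Q.take t).drop (D.p0 - D.c k))) (D.phi ((Q.take d).drop t))

/-- visible failure of the promise -/
def Dead2 : Language α := {Q | ∃ t, D.FW Q D.z t ∧ ¬ D.Bz Q t}

theorem bz_badAt {P Q : List α} {k t : ℕ} (hk : k < D.K) (hP : P.length = D.c k)
    (h : D.Bz (P ++ Q) (P.length + t)) : D.BadAt Q k t := by
  have h1 := D.cp k hk
  have h2 := D.hz
  rcases h with h | ⟨i, hi1, hi2, hi3⟩ | h
  · left; omega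
  · right; left
    obtain ⟨j, rfl⟩ := Nat.exists_eq_add_of_le (show P.length ≤ i by omega)
    rw [D.R_app] at hi3
    exact ⟨j, by omega, by omega, hi3⟩
  · right; right
    rw [← hP, add_comm t]
    exact h

/-- **exactness of scheme 2** -/
theorem ex2 {P Q : List α} {v b : V} {d : ℕ} (hL : D.LL2 P v) (hR : D.RL2 Q d b)
    (hD : P ++ Q ∉ D.Dead2) : ∃ f, D.rBad.nx (P ++ Q) = some (P.length + d, f) ∧ f v = b := by
  obtain ⟨i, hi, hPi, hlam⟩ := hL
  obtain ⟨k, hk, t, h1, hall, h2, r, hr, rfl⟩ := hR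
  have hz := D.hz
  have hci := D.cp i hi
  obtain ⟨t', h1', ht'd, hbad⟩ := hall i hi
  have hFW : D.FW (P ++ Q) D.z (P.length + t') := by
    have := h1'.shift (P := P)
    rwa [show P.length + (D.z - D.c i) = D.z by omega] at this
  have hBz : D.Bz (P ++ Q) (P.length + t') := by
    by_contra hn
    exact hD ⟨_, hFW, hn⟩
  have hik : i = k := by
    by_contra hne
    exact hbad hne (D.bz_badAt hi hPi hBz)
  subst hik
  have htt : t' = t := h1'.uniq h1
  subst htt
  refine ⟨D.zm (P ++ Q) (P.length + t') (P.length + d),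
    (D.nx_iff _ _ _ _).2 ⟨P.length + t', ⟨hFW, ?_, hBz⟩, rfl⟩, ?_⟩
  · exact h2.shift (P := P)
  · have hv := h1'.vis
    have hge := h1'.1
    have hXl : (P ++ Q.take (D.p0 - D.c i)).length = D.p0 := by
      rw [List.length_append, List.length_take, hPi]
      omega
    have e0 := D.exact2 _ _ _ _ hXl hlam hr
    unfold zm
    have e1 : (P ++ Q).take D.p0 = P ++ Q.take (D.p0 - D.c i) := by
      rw [List.take_append, List.take_of_length_le (by omega), hPi]
    have e2 : ((P ++ Q).take (P.length + t')).drop D.p0 = (Q.take t').drop (D.p0 - D.c i) := by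
      rw [List.take_length_add_append, List.drop_append, List.drop_eq_nil_of_le (by omega), hPi]
      simp
    have e3 : ((P ++ Q).take (P.length + d)).drop (P.length + t') = (Q.take d).drop t' := by
      rw [List.take_length_add_append, List.drop_length_add_append]
    rw [e1, e2, e3, ← e0]

theorem RL2_loc {Q s : List α} {d : ℕ} {b : V} (hv : d + D.n ≤ Q.length) :
    D.RL2 (Q ++ s) d b ↔ D.RL2 Q d b := by
  unfold RL2
  have hz := D.hz
  refine exists_congr fun k => and_congr_right fun hk => exists_congr fun t => ?_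
  have hck := D.cp k hk
  constructor
  · rintro ⟨h1, h2, h3, r, hr, rfl⟩
    have h4 := h3.1
    have h5 := h1.1
    refine ⟨(FW.ext (by omega)).1 h1, ?_, (FW.ext hv).1 h3, r, ?_, ?_⟩
    · intro j hj
      obtain ⟨t', a1, a2, a3⟩ := h2 j hj
      refine ⟨t', (FW.ext (by omega)).1 a1, a2, fun hne => ?_⟩
      rw [← BadAt.ext (s := s) a1.1 (by omega)]
      exact a3 hne
    · rw [List.take_append_of_le_length (by omega)] at hr
      exact hr
    · rw [List.take_append_of_le_length (by omega), List.take_append_of_le_length (by omega)]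
  · rintro ⟨h1, h2, h3, r, hr, rfl⟩
    have h4 := h3.1
    have h5 := h1.1
    refine ⟨(FW.ext (by omega)).2 h1, ?_, (FW.ext hv).2 h3, r, ?_, ?_⟩
    · intro j hj
      obtain ⟨t', a1, a2, a3⟩ := h2 j hj
      refine ⟨t', (FW.ext (by omega)).2 a1, a2, fun hne => ?_⟩
      rw [BadAt.ext a1.1 (by omega)]
      exact a3 hne
    · rw [List.take_append_of_le_length (by omega)]
      exact hr
    · rw [List.take_append_of_le_length (by omega), List.take_append_of_le_length (by omega)]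

/-- completeness input for scheme 2 -/
def Co2 : Prop := ∀ Q t l, D.FW Q D.z t → D.FW Q (t + 1) l → D.Bz Q t → ∀ v, ∃ k, k < D.K ∧
  D.lam2 (Q.take (D.c k)) = some v ∧ (D.rho2 ((Q.take D.p0).drop (D.c k))).isSome ∧
  ∀ j, j < D.K → j ≠ k → ∀ t', D.FW (Q.drop (D.c k)) (D.z - D.c j) t' →
    ¬ D.BadAt (Q.drop (D.c k)) j t'

open Classical in
theorem exists_FW {Q : List α} {s t : ℕ} (h : s ≤ t) (hR : D.R (Q.drop t)) :
    ∃ t', D.FW Q s t' ∧ t' ≤ t := by
  have hex : ∃ t, s ≤ t ∧ D.R (Q.drop t) := ⟨t, h, hR⟩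
  refine ⟨Nat.find hex, ⟨(Nat.find_spec hex).1, (Nat.find_spec hex).2, ?_⟩,
    Nat.find_min' hex ⟨h, hR⟩⟩
  intro i h1 h2 h3
  exact Nat.find_min hex h2 ⟨h1, h3⟩

/-- **completeness of scheme 2** -/
theorem co2 (hCo : D.Co2) {Q : List α} {l : ℕ} {f : V → V} (h : D.rBad.nx Q = some (l, f)) (v : V) :
    ∃ P Q' d b, Q = P ++ Q' ∧ D.LL2 P v ∧ D.RL2 Q' d b := by
  obtain ⟨t, ht, rfl⟩ := (D.nx_iff _ _ _ _).1 h
  obtain ⟨k, hk, hl, hr, hun⟩ := hCo Q t l ht.1 ht.2.1 ht.2.2 v
  have hz := D.hz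
  have hck := D.cp k hk
  have hvis := ht.2.1.vis
  have htl := ht.2.1.1
  have hzt := ht.1.1
  have hPl : (Q.take (D.c k)).length = D.c k := by
    rw [List.length_take]
    omega
  have eQ : Q = Q.take (D.c k) ++ Q.drop (D.c k) := (List.take_append_drop _ _).symm
  obtain ⟨d, rfl⟩ := Nat.exists_eq_add_of_le (show D.c k ≤ l by omega)
  obtain ⟨t0, rfl⟩ := Nat.exists_eq_add_of_le (show D.c k ≤ t by omega)
  obtain ⟨r, hr⟩ := Option.isSome_iff_exists.1 hr
  have hF1 : D.FW (Q.drop (D.c k)) (D.z - D.c k) t0 := by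
    refine FW.unshift (P := Q.take (D.c k)) ?_
    rw [← eQ, hPl, show D.c k + (D.z - D.c k) = D.z by omega]
    exact ht.1
  have hF2 : D.FW (Q.drop (D.c k)) (t0 + 1) d := by
    refine FW.unshift (P := Q.take (D.c k)) ?_
    rw [← eQ, hPl, show D.c k + (t0 + 1) = D.c k + t0 + 1 by omega]
    exact ht.2.1
  have hgap : D.W < d - t0 := by
    by_contra hle
    have := D.gap (Q.drop (D.c k + t0)) (d - t0) ht.1.2.1 (by omega) (by omega)
    rw [List.drop_drop, show D.c k + t0 + (d - t0) = D.c k + d by omega] at this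
    exact this ht.2.1.2.1
  refine ⟨Q.take (D.c k), Q.drop (D.c k), d, _, eQ, ⟨k, hk, hPl, hl⟩, k, hk, t0, hF1, ?_, hF2,
    r, ?_, rfl⟩
  · intro j hj
    have hcj := D.cp j hj
    have hW := D.cW j k hj hk
    obtain ⟨t', h1, h2⟩ := D.exists_FW (Q := Q.drop (D.c k)) (s := D.z - D.c j) (t := d)
      (by omega) hF2.2.1
    exact ⟨t', h1, h2, fun hne => hun j hj hne t' h1⟩
  · have : (Q.drop (D.c k)).take (D.p0 - D.c k) = (Q.take D.p0).drop (D.c k) := by
      rw [List.drop_take]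
    rw [this]
    exact hr

/-- **scheme 2** -/
noncomputable def S2 (hCo : D.Co2) : Scheme D.rBad (emptyRule α V D.n) where
  LL := D.LL2
  RL := D.RL2
  Dead := D.Dead2
  sub := by intro Q x h; simp [emptyRule] at h
  LLn := by
    rintro P v ⟨k, hk, hP, _⟩
    have := D.cn k hk
    omega
  RLpos := by
    rintro Q d b ⟨k, hk, t, h1, _⟩
    have := h1.vis
    have := D.n0
    omega
  RLext := by
    intro Q s d b h
    obtain ⟨k, hk, t, h1, h2, h3, h4⟩ := h
    exact (D.RL2_loc h3.vis).2 ⟨k, hk, t, h1, h2, h3, h4⟩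
  RLcut := fun Q s d b h hv => (D.RL2_loc hv).1 h
  Dext := by
    rintro Q s ⟨t, h1, h2⟩
    exact ⟨t, (FW.ext h1.vis).2 h1, fun h => h2 ((Bz.ext h1.1 h1.vis).1 h)⟩
  Dnone := by
    rintro Q ⟨t, h1, h2⟩
    cases h : D.rBad.nx Q with
    | none => rfl
    | some x =>
      obtain ⟨l, f⟩ := x
      obtain ⟨t', ht', _⟩ := (D.nx_iff _ _ _ _).1 h
      have := h1.uniq ht'.1
      subst this
      exact (h2 ht'.2.2).elim
  exact := fun P v Q d b hL hR hD => D.ex2 hL hR hD
  complete := fun Q l f h => Or.inr fun v => D.co2 hCo h v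

end Dat

end Crest.Agent.R320.Chain_297
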