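import Mathlib

/-!
Row 320 (S0495), piece (3) of post 12647: helper818's lemma (post 12250).

Text positions are natural numbers.  `W : ℕ → Prop` = set of walls.  `IsFst W t b`: `b` is the
first wall at or after `t`.  Chain step with parameter `z`: from the active wall `a` to the first
wall `b ≥ a + z` (`Step W z a b`).  Cut at `x = a + p + j`, `j ≤ N`, `z = p + q + N`; right side:
no wall in `[x + q, x + q + N)`, and it puts `b` = first wall `≥ x + q + N`.  Then `b` is the
chain successor of `a` (`step_iff_of_legal`), and all later nodes of the chain are functions of the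
right word.  If no wall lies in `[a + z - N, a + z + N)` every `j ≤ N` is legal
(`legal_of_clean`).

Walls of a word: `wallAt R T i := R (T.drop i)` for a right-looking rule `R` with window `n`
(`IsRule R n`).  A word which ends at `x` sees exactly the walls `≤ x - n`, a word which starts at
`x` sees all walls `≥ x`.
-/

namespace Crest.Agent.R320.C369

/-- `b` is the first position `≥ t` with `W`. -/
def IsFst (W : ℕ → Prop) (t b : ℕ) : Prop := t ≤ b ∧ W b ∧ ∀ c, t ≤ c → c < b → ¬ W c

/-- no wall in `[s, t)` -/
def Clear (W : ℕ → Prop) (s t : ℕ) : Prop := ∀ c, s ≤ c → c < t → ¬ W c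

theorem IsFst.unique {W : ℕ → Prop} {t b b' : ℕ} (h : IsFst W t b) (h' : IsFst W t b') :
    b = b' := by
  rcases lt_trichotomy b b' with hlt | heq | hgt
  · exact absurd h.2.1 (h'.2.2 b h.1 hlt)
  · exact heq
  · exact absurd h'.2.1 (h.2.2 b' h'.1 hgt)

theorem exists_isFst {W : ℕ → Prop} {t : ℕ} (h : ∃ b, t ≤ b ∧ W b) : ∃ b, IsFst W t b := by
  classical
  refine ⟨Nat.find h, (Nat.find_spec h).1, (Nat.find_spec h).2, ?_⟩
  intro c hc hlt hw
  exact Nat.find_min h hlt ⟨hc, hw⟩

theorem Clear.mono {W : ℕ → Prop} {s t s' t' : ℕ} (h : Clear W s t) (hs : s ≤ s') (ht : t' ≤ t) :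
    Clear W s' t' := fun c h1 h2 => h c (hs.trans h1) (lt_of_lt_of_le h2 ht)

theorem Clear.trans {W : ℕ → Prop} {s t r : ℕ} (h : Clear W s t) (h' : Clear W t r) :
    Clear W s r := by
  intro c h1 h2
  rcases lt_or_ge c t with hc | hc
  · exact h c h1 hc
  · exact h' c hc h2

/-- moving the threshold inside a clear interval does not change the first wall -/
theorem isFst_iff_of_clear {W : ℕ → Prop} {t t' b : ℕ} (h : t ≤ t') (hc : Clear W t t') :
    IsFst W t b ↔ IsFst W t' b := by
  constructor
  · rintro ⟨h1, h2, h3⟩
    refine ⟨?_, h2, fun c hc1 hc2 => h3 c (h.trans hc1) hc2⟩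
    by_contra hlt
    exact hc b h1 (not_le.mp hlt) h2
  · rintro ⟨h1, h2, h3⟩
    refine ⟨h.trans h1, h2, fun c hc1 hc2 hw => ?_⟩
    rcases lt_or_ge c t' with hlt | hge
    · exact hc c hc1 hlt hw
    · exact h3 c hge hc2 hw

/-- chain step -/
def Step (W : ℕ → Prop) (z a b : ℕ) : Prop := IsFst W (a + z) b

/-- **818's lemma.** `x = a + p + j`, `j ≤ N`, `z = p + q + N`, no wall in `[x + q, x + q + N)`:
the first wall `≥ x + q + N` is the chain successor of `a`. -/
theorem step_iff_of_legal {W : ℕ → Prop} {a p q N j x b : ℕ} (hx : x = a + p + j) (hj : j ≤ N)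
    (hc : Clear W (x + q) (x + q + N)) :
    Step W (p + q + N) a b ↔ IsFst W (x + q + N) b := by
  subst hx
  unfold Step
  refine isFst_iff_of_clear (by omega) (hc.mono (by omega) (by omega))

/-- general form with a band of doubt: the right side knows that the threshold `a + z` lies in
`[s, t]` and sees no wall in `[s, t)`. -/
theorem step_iff_of_band {W : ℕ → Prop} {a z s t b : ℕ} (h1 : s ≤ a + z) (h2 : a + z ≤ t)
    (hc : Clear W s t) : Step W z a b ↔ IsFst W t b :=
  isFst_iff_of_clear h2 (hc.mono h1 le_rfl)

/-- all places are legal if the band of the threshold is clean -/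
theorem legal_of_clean {W : ℕ → Prop} {a p q N j x : ℕ} (hx : x = a + p + j) (hj : j ≤ N)
    (hc : Clear W (a + p + q) (a + p + q + N + N)) :
    Clear W (x + q) (x + q + N) := by
  subst hx
  exact hc.mono (by omega) (by omega)

/-- chain of length `k` : `a = c_0, c_1, .., c_k = b` -/
inductive Chain (W : ℕ → Prop) (z : ℕ) : ℕ → ℕ → ℕ → Prop
  | nil (a : ℕ) : Chain W z 0 a a
  | cons {k a b c : ℕ} : Step W z a b → Chain W z k b c → Chain W z (k + 1) a c

theorem Chain.unique {W : ℕ → Prop} {z k a b b' : ℕ} (h : Chain W z k a b)
    (h' : Chain W z k a b') : b = b' := by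
  induction h with
  | nil a => cases h'; rfl
  | cons hs _ ih =>
    cases h' with
    | cons hs' h2 =>
      have := hs.unique hs'
      subst this
      exact ih h2

theorem Chain.snoc {W : ℕ → Prop} {z k a b c : ℕ} (h : Chain W z k a b) (hs : Step W z b c) :
    Chain W z (k + 1) a c := by
  induction h with
  | nil a => exact .cons hs (.nil _)
  | cons h1 _ ih => exact .cons h1 (ih hs)

theorem Chain.append {W : ℕ → Prop} {z k l a b c : ℕ} (h : Chain W z k a b)
    (h' : Chain W z l b c) : Chain W z (k + l) a c := by
  induction h with
  | nil a => simpa using h'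
  | @cons k a b c hs _ ih =>
    have := Chain.cons hs (ih h')
    rwa [Nat.add_right_comm] at this

theorem Chain.le {W : ℕ → Prop} {z k a b : ℕ} (h : Chain W z k a b) : a + k * z ≤ b := by
  induction h with
  | nil a => simp
  | @cons k a b c hs _ ih =>
    have := hs.1
    nlinarith

/-- At a legal place all later nodes of the chain are the nodes of the chain which starts at the
first wall seen by the right side. -/
theorem chain_iff_of_legal {W : ℕ → Prop} {a p q N j x c k : ℕ} (hx : x = a + p + j) (hj : j ≤ N)
    (hc : Clear W (x + q) (x + q + N)) :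
    Chain W (p + q + N) (k + 1) a c ↔
      ∃ b, IsFst W (x + q + N) b ∧ Chain W (p + q + N) k b c := by
  constructor
  · intro h
    cases h with
    | cons hs h2 => exact ⟨_, (step_iff_of_legal hx hj hc).1 hs, h2⟩
  · rintro ⟨b, hb, h2⟩
    exact .cons ((step_iff_of_legal hx hj hc).2 hb) h2

/-! ### walls of words -/

/-- right-looking rule with window `n` -/
structure IsRule {α : Type*} (R : List α → Prop) (n : ℕ) : Prop where
  take : ∀ Q, R Q ↔ R (Q.take n)
  len : ∀ Q, R Q → n ≤ Q.length

/-- position `i` of `T` is a wall -/
def wallAt {α : Type*} (R : List α → Prop) (T : List α) (i : ℕ) : Prop := R (T.drop i)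

variable {α : Type*} {R : List α → Prop} {n : ℕ}

/-- the left word (ending at `u.length`) sees the walls `≤ x - n` -/
theorem wallAt_append_left (hR : IsRule R n) {u : List α} (v : List α) {i : ℕ}
    (hi : i + n ≤ u.length) : wallAt R (u ++ v) i ↔ wallAt R u i := by
  unfold wallAt
  rw [hR.take (List.drop i (u ++ v)), hR.take (List.drop i u)]
  rw [List.drop_append_of_le_length (by omega),
    List.take_append_of_le_length (by rw [List.length_drop]; omega)]

/-- a word only has walls `≤ length - n` -/
theorem wallAt.le (hR : IsRule R n) {u : List α} {i : ℕ} (hn : 0 < n) (h : wallAt R u i) :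
    i + n ≤ u.length := by
  have := hR.len _ h
  rw [List.length_drop] at this
  omega

/-- the right word (starting at `u.length`) sees all walls `≥ x` -/
theorem wallAt_append_right (u v : List α) (i : ℕ) :
    wallAt R (u ++ v) (u.length + i) ↔ wallAt R v i := by
  unfold wallAt
  rw [List.drop_append, List.drop_eq_nil_of_le (by omega : u.length ≤ u.length + i)]
  simp

/-- first walls right of the junction, seen from the right word -/
theorem isFst_append_right (u v : List α) (t b : ℕ) :
    IsFst (wallAt R (u ++ v)) (u.length + t) (u.length + b) ↔ IsFst (wallAt R v) t b := by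
  constructor
  · rintro ⟨h1, h2, h3⟩
    refine ⟨by omega, (wallAt_append_right u v b).1 h2, fun c h4 h5 hw => ?_⟩
    exact h3 (u.length + c) (by omega) (by omega) ((wallAt_append_right u v c).2 hw)
  · rintro ⟨h1, h2, h3⟩
    refine ⟨by omega, (wallAt_append_right u v b).2 h2, fun c h4 h5 hw => ?_⟩
    obtain ⟨c, rfl⟩ : ∃ c', c = u.length + c' := ⟨c - u.length, by omega⟩
    exact h3 c (by omega) (by omega) ((wallAt_append_right u v c).1 hw)

/-- every first wall with threshold right of the junction comes from the right word -/
theorem isFst_append_right' (u v : List α) (t b : ℕ) :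
    IsFst (wallAt R (u ++ v)) (u.length + t) b ↔
      ∃ b', b = u.length + b' ∧ IsFst (wallAt R v) t b' := by
  constructor
  · intro h
    obtain ⟨b', rfl⟩ : ∃ b', b = u.length + b' := ⟨b - u.length, by have := h.1; omega⟩
    exact ⟨b', rfl, (isFst_append_right u v t b').1 h⟩
  · rintro ⟨b', rfl, h⟩
    exact (isFst_append_right u v t b').2 h

/-- first walls left of the junction, seen from the left word -/
theorem isFst_append_left (hR : IsRule R n) {u : List α} (v : List α) {t b : ℕ}
    (hb : b + n ≤ u.length) :
    IsFst (wallAt R (u ++ v)) t b ↔ IsFst (wallAt R u) t b := by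
  constructor
  · rintro ⟨h1, h2, h3⟩
    refine ⟨h1, (wallAt_append_left hR v hb).1 h2, fun c h4 h5 hw => ?_⟩
    exact h3 c h4 h5 ((wallAt_append_left hR v (by omega)).2 hw)
  · rintro ⟨h1, h2, h3⟩
    refine ⟨h1, (wallAt_append_left hR v hb).2 h2, fun c h4 h5 hw => ?_⟩
    exact h3 c h4 h5 ((wallAt_append_left hR v (by omega)).1 hw)

/-- clear intervals right of the junction, seen from the right word -/
theorem clear_append_right (u v : List α) (s t : ℕ) :
    Clear (wallAt R (u ++ v)) (u.length + s) (u.length + t) ↔ Clear (wallAt R v) s t := by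
  constructor
  · intro h c h1 h2 hw
    exact h (u.length + c) (by omega) (by omega) ((wallAt_append_right u v c).2 hw)
  · intro h c h1 h2 hw
    obtain ⟨c, rfl⟩ : ∃ c', c = u.length + c' := ⟨c - u.length, by omega⟩
    exact h c (by omega) (by omega) ((wallAt_append_right u v c).1 hw)

/-- chains right of the junction, seen from the right word -/
theorem chain_append_right (u v : List α) (z k a b : ℕ) :
    Chain (wallAt R (u ++ v)) z k (u.length + a) (u.length + b) ↔ Chain (wallAt R v) z k a b := by
  constructor
  · intro h
    generalize ha : u.length + a = a' at h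
    generalize hb : u.length + b = b' at h
    induction h generalizing a with
    | nil a'' =>
      have : a = b := by omega
      subst this
      exact .nil _
    | @cons k a'' b'' c'' hs _ ih =>
      have h1 := hs.1
      obtain ⟨d, rfl⟩ : ∃ d, b'' = u.length + d := ⟨b'' - u.length, by omega⟩
      refine .cons ?_ (ih d rfl hb)
      unfold Step at hs ⊢
      subst ha
      rw [Nat.add_assoc] at hs
      exact (isFst_append_right u v _ _).1 hs
  · intro h
    induction h with
    | nil a => exact .nil _
    | @cons k a b c hs _ ih =>
      refine .cons ?_ ih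
      unfold Step at hs ⊢
      rw [Nat.add_assoc]
      exact (isFst_append_right u v _ _).2 hs

/-- chains left of the junction, seen from the left word -/
theorem chain_append_left (hR : IsRule R n) {u : List α} (v : List α) {z k a b : ℕ}
    (hb : b + n ≤ u.length) :
    Chain (wallAt R (u ++ v)) z k a b ↔ Chain (wallAt R u) z k a b := by
  constructor
  · intro h
    induction h with
    | nil a => exact .nil _
    | @cons k a b c hs h2 ih =>
      refine .cons ?_ (ih hb)
      have : b ≤ c := by have := h2.le; exact le_trans (Nat.le_add_right _ _) this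
      exact (isFst_append_left hR v (by omega)).1 hs
  · intro h
    induction h with
    | nil a => exact .nil _
    | @cons k a b c hs h2 ih =>
      refine .cons ?_ (ih hb)
      have : b ≤ c := by have := h2.le; exact le_trans (Nat.le_add_right _ _) this
      exact (isFst_append_left hR v (by omega)).2 hs

/-- **818's lemma at a junction `u | v` of a word.**  The left word `u` carries the active wall
`a` (with `a + p + j = u.length`, `j ≤ N`), the right word `v` has no wall in `[q, q + N)` and its
first wall `≥ q + N` is `b`: then `u.length + b` is the chain successor of `a` in `u ++ v`. -/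
theorem step_of_junction {u v : List α} {a p q N j b : ℕ} (hx : u.length = a + p + j)
    (hj : j ≤ N) (hc : Clear (wallAt R v) q (q + N)) :
    Step (wallAt R (u ++ v)) (p + q + N) a (u.length + b) ↔ IsFst (wallAt R v) (q + N) b := by
  have hc' : Clear (wallAt R (u ++ v)) (u.length + q) (u.length + q + N) := by
    rw [Nat.add_assoc]
    exact (clear_append_right u v q (q + N)).2 hc
  rw [step_iff_of_legal hx hj hc', Nat.add_assoc, isFst_append_right]

end Crest.Agent.R320.C369
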