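import Crest.Agent.R320.Top5_467

/-!
# Row 320: the two schemes on ALL words in block form (helper724)

Left-looking outer walls, natural chain rule (block end = first wall at distance `≥ z`), scheme 1
from a black box gadget (693 / 638), scheme 2 = promise ruler with one block of look-ahead.
-/

set_option autoImplicit false

namespace Crest.Agent.R320.Chain_724

open Crest.Agent.R320.Blk467

universe u

variable {α : Type u}

/-- the word ends with a wall -/
def Wo (n : ℕ) (S : Set (List α)) (X : List α) : Prop :=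
  n ≤ X.length ∧ X.drop (X.length - n) ∈ S

theorem Wo_app {n : ℕ} {S : Set (List α)} {P Q : List α} (h : n ≤ Q.length) :
    Wo n S (P ++ Q) ↔ Wo n S Q := by
  unfold Wo
  have e : (P ++ Q).length - n = P.length + (Q.length - n) := by
    rw [List.length_append]; omega
  rw [e, List.drop_append]
  have e2 : P.drop (P.length + (Q.length - n)) = [] := List.drop_of_length_le (by omega)
  rw [e2, List.nil_append, show P.length + (Q.length - n) - P.length = Q.length - n by omega]
  constructor
  · rintro ⟨_, h2⟩; exact ⟨h, h2⟩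
  · rintro ⟨_, h2⟩; exact ⟨by rw [List.length_append]; omega, h2⟩

/-- the parameters -/
structure Prm (α : Type u) where
  n : ℕ
  z : ℕ
  N1 : ℕ
  p0 : ℕ
  S : Set (List α)
  BadT : ℕ → Prop
  hz : p0 + N1 + n + N1 + 1 ≤ z

variable (D : Prm α)

/-- rest of a block when `c` letters of the block are to the left -/
def XXc (c : ℕ) : Set (List α) :=
  {W | Wo D.n D.S W ∧ D.z ≤ c + W.length ∧ ∀ t < W.length, D.z ≤ c + t → ¬ Wo D.n D.S (W.take t)}

/-- the wall band -/
def Ec (c : ℕ) (W : List α) : Prop :=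
  c + W.length < D.z + D.N1 ∨ ∃ t < W.length, Wo D.n D.S (W.take t) ∧ D.z ≤ c + t + D.N1

/-- bad rests -/
def BadC (c : ℕ) : Set (List α) :=
  {W | W ∈ XXc D c ∧ (Ec D c W ∨ D.BadT (c + W.length - D.p0))}

variable {D}

theorem take_app {P W : List α} {t : ℕ} : (P ++ W).take (P.length + t) = P ++ W.take t := by
  rw [List.take_append, Nat.add_sub_cancel_left, List.take_of_length_le (by omega)]

theorem XXc_shift {c : ℕ} {P W : List α} (hP : P.length = c) (hc : c + D.n ≤ D.z) :
    P ++ W ∈ XXc D 0 ↔ W ∈ XXc D c := by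
  subst hP
  constructor
  · rintro ⟨h1, h2, h3⟩
    rw [List.length_append] at h2
    refine ⟨(Wo_app (by omega)).1 h1, by omega, fun t ht hzt hw => ?_⟩
    refine h3 (P.length + t) (by rw [List.length_append]; omega) (by omega) ?_
    rw [take_app]
    exact (Wo_app (by rw [List.length_take]; omega)).2 hw
  · rintro ⟨h1, h2, h3⟩
    refine ⟨(Wo_app (by omega)).2 h1, by rw [List.length_append]; omega, fun t ht hzt hw => ?_⟩
    rw [List.length_append] at ht
    obtain ⟨y, rfl⟩ := Nat.exists_eq_add_of_le (show P.length ≤ t by omega)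
    rw [take_app] at hw
    exact h3 y (by omega) (by omega) ((Wo_app (by rw [List.length_take]; omega)).1 hw)

theorem Ec_shift {c : ℕ} {P W : List α} (hP : P.length = c) (hc : c + D.n + D.N1 + 1 ≤ D.z) :
    Ec D 0 (P ++ W) ↔ Ec D c W := by
  subst hP
  unfold Ec
  rw [List.length_append]
  constructor
  · rintro (h | ⟨t, ht, hw, hzt⟩)
    · left; omega
    · right
      obtain ⟨y, rfl⟩ := Nat.exists_eq_add_of_le (show P.length ≤ t by omega)
      rw [take_app] at hw
      exact ⟨y, by omega, (Wo_app (by rw [List.length_take]; omega)).1 hw, by omega⟩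
  · rintro (h | ⟨t, ht, hw, hzt⟩)
    · left; omega
    · right
      refine ⟨P.length + t, by omega, ?_, by omega⟩
      rw [take_app]
      exact (Wo_app (by rw [List.length_take]; omega)).2 hw

theorem BadC_shift {c : ℕ} {P W : List α} (hP : P.length = c) (hc : c + D.n + D.N1 + 1 ≤ D.z) :
    P ++ W ∈ BadC D 0 ↔ W ∈ BadC D c := by
  unfold BadC
  simp only [Set.mem_ofPred_eq]
  rw [XXc_shift hP (by omega), Ec_shift hP hc]
  have : 0 + (P ++ W).length - D.p0 = c + W.length - D.p0 := by
    rw [List.length_append, hP, Nat.zero_add]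
  rw [this]

theorem pcode : PCode (XXc D 0) := by
  have hz := D.hz
  refine ⟨?_, ?_⟩
  · rintro ⟨_, h2, _⟩
    simp at h2
    omega
  · rintro X ⟨h1, h2, h3⟩ Y ⟨g1, g2, g3⟩ hXY
    obtain ⟨r, rfl⟩ := hXY
    by_cases hr : r = []
    · subst hr; simp
    · exfalso
      have hrl : 0 < r.length := List.length_pos_iff.2 hr
      refine g3 X.length (by rw [List.length_append]; omega) (by omega) ?_
      rw [List.take_left]
      exact h1

theorem pcodeBad : PCode (BadC D 0) := PCode.mono (fun _ h => h.1) pcode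

/-! ### the maps -/

variable {S V : Type u} [Monoid S] [AddCommGroup V]

/-- zone map noise: both noises -/
def nuAll (D : Prm α) (phi : List α → S) (act : V → S → V) (nu1 nu2 : List α → V)
    (X : List α) : V :=
  act (nu2 (X.take D.p0)) (phi (X.drop D.p0)) + nu1 (X.drop D.p0)

theorem T_eq {phi : List α → S} (hphi : ∀ u v, phi (u ++ v) = phi u * phi v) {act : V → S → V}
    (hadd : ∀ a b s, act (a + b) s = act a s + act b s)
    (hmul : ∀ v s t, act v (s * t) = act (act v s) t) (nu1 nu2 : List α → V) (X : List α) (v : V) :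
    act v (phi X) + nuAll D phi act nu1 nu2 X
      = act (act v (phi (X.take D.p0)) + nu2 (X.take D.p0)) (phi (X.drop D.p0))
        + nu1 (X.drop D.p0) := by
  unfold nuAll
  have e : phi X = phi (X.take D.p0) * phi (X.drop D.p0) := by
    rw [← hphi, List.take_append_drop]
  rw [e, hmul, hadd, add_assoc]

/-! ### scheme 1 -/

/-- left words of scheme 1 -/
def LP1 (D : Prm α) (phi : List α → S) (act : V → S → V) (nu2 : List α → V)
    (Lf : List α → Option V) (v : V) : Set (List α) :=
  {P | D.p0 ≤ P.length ∧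
    Lf (P.drop D.p0) = some (act v (phi (P.take D.p0)) + nu2 (P.take D.p0))}

/-- right parts which end at the same wall for every place of the window -/
def RB (D : Prm α) : Set (List α) :=
  {Q | Wo D.n D.S Q ∧ D.z ≤ D.p0 + Q.length ∧
    ∀ t < Q.length, Wo D.n D.S (Q.take t) → D.p0 + t + D.N1 < D.z}

def RQ1 (D : Prm α) (Rf : List α → Option V) (b : V) : Set (List α) :=
  {Q | Q ∈ RB D ∧ Rf Q = some b}

theorem XX_of_RB {P Q : List α} (h1 : D.p0 ≤ P.length) (h2 : P.length ≤ D.p0 + D.N1)
    (hQ : Q ∈ RB D) : P ++ Q ∈ XXc D 0 := by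
  obtain ⟨a1, a2, a3⟩ := hQ
  have hz := D.hz
  refine ⟨(Wo_app (by omega)).2 a1, by rw [List.length_append]; omega, fun t ht hzt hw => ?_⟩
  rw [List.length_append] at ht
  obtain ⟨y, rfl⟩ := Nat.exists_eq_add_of_le (show P.length ≤ t by omega)
  rw [take_app] at hw
  have := a3 y (by omega) ((Wo_app (by rw [List.length_take]; omega)).1 hw)
  omega

theorem RB_of_XX {P Q : List α} (h1 : D.p0 ≤ P.length) (h2 : P.length ≤ D.p0 + D.N1)
    (hX : P ++ Q ∈ XXc D 0) (hE : ¬ Ec D 0 (P ++ Q)) : Q ∈ RB D := by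
  obtain ⟨a1, a2, a3⟩ := hX
  unfold Ec at hE
  push Not at hE
  obtain ⟨e1, e2⟩ := hE
  have hz := D.hz
  rw [List.length_append] at e1 a2
  refine ⟨(Wo_app (by omega)).1 a1, by omega, fun t ht hw => ?_⟩
  have hn : D.n ≤ t := by
    have := hw.1
    rw [List.length_take] at this
    omega
  have := e2 (P.length + t) (by rw [List.length_append]; omega) (by
    rw [take_app]
    exact (Wo_app (by rw [List.length_take]; omega)).2 hw)
  omega

theorem s1 {phi : List α → S} (hphi : ∀ u v, phi (u ++ v) = phi u * phi v) {act : V → S → V}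
    (hadd : ∀ a b s, act (a + b) s = act a s + act b s)
    (hmul : ∀ v s t, act v (s * t) = act (act v s) t) {nu1 nu2 : List α → V}
    {Lf Rf : List α → Option V} (hLf : ∀ P v, Lf P = some v → P.length ≤ D.N1)
    (hsound : ∀ P Q v r, Lf P = some v → Rf Q = some r →
      r = act v (phi (P ++ Q)) + nu1 (P ++ Q))
    (v b : V) (P Q : List α) (hP : P ∈ LP1 D phi act nu2 Lf v) (hQ : Q ∈ RQ1 D Rf b) :
    P ++ Q ∈ XXc D 0 ∧ act v (phi (P ++ Q)) + nuAll D phi act nu1 nu2 (P ++ Q) = b := by
  obtain ⟨h1, h2⟩ := hP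
  obtain ⟨g1, g2⟩ := hQ
  have h3 := hLf _ _ h2
  rw [List.length_drop] at h3
  refine ⟨XX_of_RB h1 (by omega) g1, ?_⟩
  rw [T_eq hphi hadd hmul, hsound _ _ _ _ h2 g2, List.take_append_of_le_length h1,
    List.drop_append_of_le_length h1]

theorem c1 {phi : List α → S} (hphi : ∀ u v, phi (u ++ v) = phi u * phi v) {act : V → S → V}
    (hadd : ∀ a b s, act (a + b) s = act a s + act b s)
    (hmul : ∀ v s t, act v (s * t) = act (act v s) t) {nu1 nu2 : List α → V}
    {Lf Rf : List α → Option V} (hLf : ∀ P v, Lf P = some v → P.length ≤ D.N1)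
    (hsound : ∀ P Q v r, Lf P = some v → Rf Q = some r →
      r = act v (phi (P ++ Q)) + nu1 (P ++ Q))
    {Y0 : ℕ} (hY0 : D.p0 + Y0 ≤ D.z)
    (hcompl : ∀ Y : List α, Y0 ≤ Y.length → ¬ D.BadT Y.length → ∀ v, ∃ P Q, P ++ Q = Y ∧
      Lf P = some v ∧ (Rf Q).isSome)
    (X : List α) (hX : X ∈ XXc D 0) (hB : X ∉ BadC D 0) (v : V) :
    ∃ P Q, P ++ Q = X ∧ P ∈ LP1 D phi act nu2 Lf v ∧
      Q ∈ RQ1 D Rf (act v (phi X) + nuAll D phi act nu1 nu2 X) := by
  have hE : ¬ Ec D 0 X := fun h => hB ⟨hX, Or.inl h⟩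
  have hT : ¬ D.BadT (X.length - D.p0) := fun h => hB ⟨hX, Or.inr (by rwa [Nat.zero_add])⟩
  have hz := D.hz
  have hXl : D.z ≤ X.length := by have := hX.2.1; omega
  obtain ⟨P', Q, hPQ, hP', hQ'⟩ := hcompl (X.drop D.p0) (by rw [List.length_drop]; omega)
    (by rwa [List.length_drop]) (act v (phi (X.take D.p0)) + nu2 (X.take D.p0))
  obtain ⟨r, hr⟩ := Option.isSome_iff_exists.1 hQ'
  have h3 := hLf _ _ hP'
  have hX0 : (X.take D.p0).length = D.p0 := by rw [List.length_take]; omega
  have hXe : (X.take D.p0 ++ P') ++ Q = X := by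
    rw [List.append_assoc, hPQ, List.take_append_drop]
  have hPl : (X.take D.p0 ++ P').length = D.p0 + P'.length := by
    rw [List.length_append, hX0]
  refine ⟨X.take D.p0 ++ P', Q, hXe, ⟨by omega, ?_⟩, ?_, ?_⟩
  · have t1 : (X.take D.p0 ++ P').drop D.p0 = P' := by
      rw [List.drop_append_of_le_length hX0.ge, List.drop_of_length_le hX0.le, List.nil_append]
    have t2 : (X.take D.p0 ++ P').take D.p0 = X.take D.p0 := by
      rw [List.take_append_of_le_length hX0.ge, List.take_of_length_le hX0.le]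
    rw [t1, t2]
    exact hP'
  · exact RB_of_XX (P := X.take D.p0 ++ P') (by omega) (by omega) (by rwa [hXe]) (by rwa [hXe])
  · rw [hr, T_eq hphi hadd hmul, hsound _ _ _ _ hP' hr, hPQ]

end Crest.Agent.R320.Chain_724
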