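import Crest.Agent.R320.Top_835

/-!
Row 320: the calculus of classes `Cl j W` ("every finite-monoid information about words of `W` is
expressible with height `j`"), recognizable sets `Rec`, the abstract star step with end types
(`T e e'`, `none` = junction), and the reading lemma.
-/

set_option autoImplicit false

namespace Crest.Agent.R320.Cl_835

open Crest.RegLang Crest.Agent.R320.Hgt1_903 Crest.Agent.R320.Top_835

universe u v

variable {α : Type u}

/-- `{w ∈ W | φ w = s}` is in `H j` for all finite monoids `S`, all `φ`, all `s`. -/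
def Cl (j : ℕ) (W : Set (List α)) : Prop :=
  ∀ (S : Type) [Monoid S] [Finite S] (φ : α → S) (s : S),
    H j ({w | w ∈ W ∧ (w.map φ).prod = s} : Language α)

theorem Cl.mono {i j : ℕ} (h : i ≤ j) {W : Set (List α)} (hW : Cl i W) : Cl j W :=
  fun S _ _ φ s => (hW S φ s).mono h

theorem Cl.congr {j : ℕ} {W W' : Set (List α)} (hW : Cl j W) (h : ∀ w, w ∈ W ↔ w ∈ W') :
    Cl j W' := by
  have : W = W' := Set.ext h
  exact this ▸ hW

theorem Cl.lang {j : ℕ} {W : Set (List α)} (hW : Cl j W) : H j (W : Language α) := by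
  refine H.congr (hW Unit (fun _ => ()) ()) fun w => ?_
  exact ⟨fun h => h.1, fun h => ⟨h, Subsingleton.elim _ _⟩⟩

theorem Cl.union {j : ℕ} {W W' : Set (List α)} (hW : Cl j W) (hW' : Cl j W') :
    Cl j (W ∪ W') := by
  intro S _ _ φ s
  refine H.congr (H.union (hW S φ s) (hW' S φ s)) fun w => ?_
  change (w ∈ W ∧ _ ∨ w ∈ W' ∧ _) ↔ ((w ∈ W ∨ w ∈ W') ∧ _)
  tauto

theorem Cl.inter {j : ℕ} {W : Set (List α)} {M : Set (List α)} (hW : Cl j W)
    (hM : H j (M : Language α)) : Cl j (W ∩ M) := by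
  intro S _ _ φ s
  refine H.congr (H.inter (hW S φ s) hM) fun w => ?_
  change ((w ∈ W ∧ _) ∧ w ∈ M) ↔ ((w ∈ W ∧ w ∈ M) ∧ _)
  tauto

theorem Cl.iUnion {j : ℕ} {ι : Type*} [Finite ι] {W : ι → Set (List α)}
    (hW : ∀ i, Cl j (W i)) : Cl j (⋃ i, W i) := by
  intro S _ _ φ s
  refine H.congr (H.exists_fintype (fun i => ({w | w ∈ W i ∧ (w.map φ).prod = s} : Language α))
    fun i => hW i S φ s) fun w => ?_
  change (∃ i, w ∈ W i ∧ (w.map φ).prod = s) ↔ (w ∈ ⋃ i, W i) ∧ (w.map φ).prod = s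
  rw [Set.mem_iUnion]
  constructor
  · rintro ⟨i, h, h'⟩; exact ⟨⟨i, h⟩, h'⟩
  · rintro ⟨⟨i, h⟩, h'⟩; exact ⟨i, h, h'⟩

/-- Concatenation of classes. -/
theorem Cl.mul {j : ℕ} {W W' : Set (List α)} (hW : Cl j W) (hW' : Cl j W') :
    Cl j {w | ∃ u v, u ++ v = w ∧ u ∈ W ∧ v ∈ W'} := by
  intro S _ _ φ s
  refine H.congr (H.exists_fintype (fun p : {p : S × S // p.1 * p.2 = s} =>
    ({w | ∃ u v, u ++ v = w ∧ u ∈ ({w | w ∈ W ∧ (w.map φ).prod = p.1.1} : Language α) ∧
      v ∈ ({w | w ∈ W' ∧ (w.map φ).prod = p.1.2} : Language α)} : Language α))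
    fun p => H.cat (hW S φ p.1.1) (hW' S φ p.1.2)) fun w => ?_
  constructor
  · rintro ⟨⟨⟨a, b⟩, hab⟩, u, v, rfl, ⟨hu, hu'⟩, ⟨hv, hv'⟩⟩
    refine ⟨⟨u, v, rfl, hu, hv⟩, ?_⟩
    have hu'' : (u.map φ).prod = a := hu'
    have hv'' : (v.map φ).prod = b := hv'
    rw [List.map_append, List.prod_append, hu'', hv'']
    exact hab
  · rintro ⟨⟨u, v, rfl, hu, hv⟩, h⟩
    have h' : ((u ++ v).map φ).prod = s := h
    rw [List.map_append, List.prod_append] at h'
    exact ⟨⟨⟨(u.map φ).prod, (v.map φ).prod⟩, h'⟩, u, v, rfl, ⟨hu, rfl⟩, ⟨hv, rfl⟩⟩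

/-- Classes of words of bounded length. -/
theorem Cl.bounded [Finite α] (j k : ℕ) {W : Set (List α)} (hW : ∀ w ∈ W, w.length ≤ k) :
    Cl j W :=
  fun _ _ _ _ _ => H.bounded j k fun w hw => hW w hw.1

/-- A class all of whose words are covered by bounded products: enough. -/
theorem Cl.of_cover {j : ℕ} {W W' : Set (List α)} (hW : H j (W : Language α))
    (hW' : Cl j W') (h : ∀ w ∈ W, w ∈ W') : Cl j W :=
  (hW'.inter hW).congr fun _ => ⟨fun h' => h'.2, fun h' => ⟨h _ h', h'⟩⟩

/-- Recognizable sets. -/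
def Rec (P : Set (List α)) : Prop :=
  ∃ (S : Type) (_ : Monoid S) (_ : Finite S) (φ : α → S) (A : Set S),
    ∀ w, w ∈ P ↔ (w.map φ).prod ∈ A

theorem Cl.rec {j : ℕ} {W P : Set (List α)} (hW : Cl j W) (hP : Rec P) :
    H j ({w | w ∈ W ∧ w ∈ P} : Language α) := by
  obtain ⟨S, _, _, φ, A, hA⟩ := hP
  refine H.congr (H.exists_fintype (fun s : A =>
    ({w | w ∈ W ∧ (w.map φ).prod = s.1} : Language α)) fun s => hW S φ s.1) fun w => ?_
  change (∃ s : A, w ∈ W ∧ (w.map φ).prod = s.1) ↔ (w ∈ W ∧ w ∈ P)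
  rw [hA]
  constructor
  · rintro ⟨s, h, h'⟩; exact ⟨h, h' ▸ s.2⟩
  · rintro ⟨h, h'⟩; exact ⟨⟨_, h'⟩, h, rfl⟩

/-- Runs of finite deterministic machines are recognizable. -/
theorem Rec.of_run {σ : Type} [Finite σ] (step : σ → α → σ) (q : σ) (A : Set σ) :
    Rec {w : List α | w.foldl step q ∈ A} := by
  have hf : Finite (Function.End σ) := inferInstanceAs (Finite (σ → σ))
  have hf' : Finite (Function.End σ)ᵐᵒᵖ := Finite.of_equiv _ MulOpposite.opEquiv
  refine ⟨(Function.End σ)ᵐᵒᵖ, inferInstance, hf',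
    fun a => MulOpposite.op (fun q => step q a : Function.End σ),
    {s | MulOpposite.unop s q ∈ A}, fun w => ?_⟩
  change w.foldl step q ∈ A ↔ MulOpposite.unop ((w.map fun a =>
    (MulOpposite.op (show Function.End σ from fun q => step q a) :
      (Function.End σ)ᵐᵒᵖ)).prod) q ∈ A
  suffices h : ∀ (w : List α) (q : σ), MulOpposite.unop ((w.map fun a =>
    (MulOpposite.op (show Function.End σ from fun q => step q a) :
      (Function.End σ)ᵐᵒᵖ)).prod) q = w.foldl step q by rw [h]
  intro w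
  induction w with
  | nil => intro q; rfl
  | cons a w ih =>
    intro q
    rw [List.map_cons, List.prod_cons, MulOpposite.unop_mul]
    exact ih (step q a)

theorem Rec.not {P : Set (List α)} (hP : Rec P) : Rec {w | w ∉ P} := by
  obtain ⟨S, i1, i2, φ, A, hA⟩ := hP
  exact ⟨S, i1, i2, φ, Aᶜ, fun w => not_congr (hA w)⟩

theorem prod_map_prod {S S' : Type} [Monoid S] [Monoid S'] (φ : α → S) (φ' : α → S')
    (w : List α) :
    (w.map fun a => (φ a, φ' a)).prod = ((w.map φ).prod, (w.map φ').prod) := by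
  induction w with
  | nil => rfl
  | cons a w ih => simp [ih]

theorem Rec.inter {P Q : Set (List α)} (hP : Rec P) (hQ : Rec Q) :
    Rec {w | w ∈ P ∧ w ∈ Q} := by
  obtain ⟨S, i1, i2, φ, A, hA⟩ := hP
  obtain ⟨S', i1', i2', φ', A', hA'⟩ := hQ
  refine ⟨S × S', inferInstance, inferInstance, fun a => (φ a, φ' a),
    {p | p.1 ∈ A ∧ p.2 ∈ A'}, fun w => ?_⟩
  rw [prod_map_prod]
  exact and_congr (hA w) (hA' w)

theorem Rec.congr {P Q : Set (List α)} (hP : Rec P) (h : ∀ w, w ∈ P ↔ w ∈ Q) : Rec Q := by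
  have : P = Q := Set.ext h
  exact this ▸ hP

theorem Rec.union {P Q : Set (List α)} (hP : Rec P) (hQ : Rec Q) :
    Rec {w | w ∈ P ∨ w ∈ Q} :=
  (hP.not.inter hQ.not).not.congr fun w => by
    change (¬ (w ∉ P ∧ w ∉ Q)) ↔ (w ∈ P ∨ w ∈ Q)
    tauto

theorem Rec.of_isRegular {L : Language α} (hL : L.IsRegular) : Rec (L : Set (List α)) := by
  obtain ⟨σ, hσ, M, rfl⟩ := hL
  exact Rec.of_run M.step M.start M.accept

/-- The top: `Cl n` of all words is enough. -/
theorem Cl.top {n : ℕ} (h : Cl n (Set.univ : Set (List α))) (L : Language α)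
    (hL : L.IsRegular) : ∃ e : GRegExp α, e.height ≤ n ∧ e.lang = L :=
  H.congr (h.rec (Rec.of_isRegular hL)) fun _ => ⟨fun h => h.2, fun h => ⟨trivial, h⟩⟩

/-! ### The abstract star step -/

/-- Products of words of `P`. -/
def St (P : Set (List α)) : Set (List α) :=
  {w | ∃ L : List (List α), w = L.flatten ∧ ∀ y ∈ L, y ∈ P}

theorem St.nil (P : Set (List α)) : [] ∈ St P := ⟨[], rfl, by simp⟩

theorem St.append {P : Set (List α)} {u v : List α} (hu : u ∈ St P) (hv : v ∈ St P) :
    u ++ v ∈ St P := by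
  obtain ⟨L, rfl, hL⟩ := hu
  obtain ⟨M, rfl, hM⟩ := hv
  refine ⟨L ++ M, by simp, fun y hy => ?_⟩
  rcases List.mem_append.1 hy with h | h
  · exact hL y h
  · exact hM y h

theorem St.single {P : Set (List α)} {u : List α} (hu : u ∈ P) : u ∈ St P :=
  ⟨[u], by simp, fun y hy => by rw [List.mem_singleton.1 hy]; exact hu⟩

theorem H.St {j : ℕ} {P : Set (List α)} (hP : H j (P : Language α)) :
    H (j + 1) (St P : Language α) :=
  H.congr (H.star hP) fun _ => Language.mem_kstar

/-- Words with end types: `none` = junction. -/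
structure Sys (A B : Type*) (T X : Option A → Option B → Set (List α)) : Prop where
  sound : ∀ e e' u u', u ∈ T e none → u' ∈ T none e' → u ++ u' ∈ T e e'
  sub : ∀ e e', X e e' ⊆ T e e'
  complete : ∀ e e' w, w ∈ T e e' → w ∈ X e e' ∨
    ∃ u u', u ≠ [] ∧ u' ≠ [] ∧ u ++ u' = w ∧ u ∈ T e none ∧ u' ∈ T none e'

theorem Sys.right {A B : Type*} {T X : Option A → Option B → Set (List α)}
    (h : Sys A B T X) :
    ∀ (n : ℕ) (e' : Option B) (w : List α), w.length = n → w ∈ T none e' →
      ∃ u u', u ++ u' = w ∧ u ∈ St (X none none) ∧ u' ∈ X none e' := by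
  intro n
  induction n using Nat.strong_induction_on with
  | _ n ih =>
    intro e' w hn hw
    rcases h.complete none e' w hw with h1 | ⟨u, u', hu, hu', rfl, h1, h2⟩
    · exact ⟨[], w, rfl, St.nil _, h1⟩
    · have l1 : 0 < u.length := List.length_pos_iff.2 hu
      have l2 : 0 < u'.length := List.length_pos_iff.2 hu'
      rw [List.length_append] at hn
      obtain ⟨p, q, hpq, hp, hq⟩ := ih u.length (by omega) none u rfl h1
      obtain ⟨p', q', hpq', hp', hq'⟩ := ih u'.length (by omega) e' u' rfl h2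
      exact ⟨p ++ q ++ p', q', by rw [List.append_assoc, hpq', hpq],
        St.append (St.append hp (St.single hq)) hp', hq'⟩

theorem Sys.mem_star {A B : Type*} {T X : Option A → Option B → Set (List α)}
    (h : Sys A B T X) {u : List α} (hu : u ∈ St (X none none)) :
    u = [] ∨ u ∈ T none none := by
  obtain ⟨L, rfl, hL⟩ := hu
  induction L with
  | nil => left; rfl
  | cons y L ih =>
    right
    have hy : y ∈ T none none := h.sub _ _ (hL y (List.mem_cons_self ..))
    rcases ih fun z hz => hL z (List.mem_cons_of_mem _ hz) with h1 | h1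
    · rw [List.flatten_cons, h1, List.append_nil]; exact hy
    · rw [List.flatten_cons]; exact h.sound _ _ _ _ hy h1

/-- The cut form of membership. -/
def CutForm {A B : Type*} (X : Option A → Option B → Set (List α)) (e : Option A)
    (e' : Option B) (w : List α) : Prop :=
  ∃ u v, u ++ v = w ∧ u ∈ X e none ∧ ∃ p q, p ++ q = v ∧ p ∈ St (X none none) ∧ q ∈ X none e'

theorem Sys.fwd {A B : Type*} {T X : Option A → Option B → Set (List α)}
    (h : Sys A B T X) (e : Option A) : ∀ (n : ℕ) (e' : Option B) (w : List α), w.length = n →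
      w ∈ T e e' → w ∈ X e e' ∨ CutForm X e e' w := by
  intro n
  induction n using Nat.strong_induction_on with
  | _ n ih =>
    intro e' w hn hw
    rcases h.complete e e' w hw with h1 | ⟨u, u', hu, hu', rfl, h1, h2⟩
    · exact Or.inl h1
    · right
      have l1 : 0 < u.length := List.length_pos_iff.2 hu
      have l2 : 0 < u'.length := List.length_pos_iff.2 hu'
      rw [List.length_append] at hn
      obtain ⟨p', q', rfl, hp', hq'⟩ := h.right _ e' u' rfl h2
      rcases ih u.length (by omega) none u rfl h1 with h3 | ⟨x, y, hxy, hx, p, q, hpq, hp, hq⟩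
      · exact ⟨u, p' ++ q', rfl, h3, p', q', rfl, hp', hq'⟩
      · refine ⟨x, p ++ q ++ p' ++ q', ?_, hx, p ++ q ++ p', q', rfl,
          St.append (St.append hp (St.single hq)) hp', hq'⟩
        rw [← hxy, ← hpq]; simp

theorem Sys.iff {A B : Type*} {T X : Option A → Option B → Set (List α)}
    (h : Sys A B T X) (e : Option A) (e' : Option B) (w : List α) :
    w ∈ T e e' ↔ w ∈ X e e' ∨ CutForm X e e' w := by
  constructor
  · exact h.fwd e _ e' w rfl
  · rintro (h1 | ⟨u, v, rfl, hu, p, q, rfl, hp, hq⟩)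
    · exact h.sub _ _ h1
    · rcases h.mem_star hp with rfl | hp
      · exact h.sound _ _ _ _ (h.sub _ _ hu) (h.sub _ _ hq)
      · exact h.sound _ _ _ _ (h.sub _ _ hu) (h.sound _ _ _ _ hp (h.sub _ _ hq))

/-- One star: from `H j` of the uncut words to `H (j+1)` of all words. -/
theorem Sys.height {A B : Type*} {T X : Option A → Option B → Set (List α)}
    (h : Sys A B T X) {j : ℕ} (hX : ∀ e e', H j (X e e' : Language α))
    (e : Option A) (e' : Option B) : H (j + 1) (T e e' : Language α) := by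
  have m : j ≤ j + 1 := Nat.le_succ j
  refine H.congr (H.union ((hX e e').mono m) (H.cat ((hX e none).mono m)
    (H.cat (H.St (hX none none)) ((hX none e').mono m)))) fun w => ?_
  exact (h.iff e e' w).symm

/-! ### Reading and the class step -/

/-- The functions `S → ZMod 2`, with `(v · s) t = v (s * t)`. -/
def ac {S : Type} [Monoid S] (v : S → ZMod 2) (s : S) : S → ZMod 2 := fun t => v (s * t)

theorem ac_mul {S : Type} [Monoid S] (v : S → ZMod 2) (s s' : S) :
    ac (ac v s) s' = ac v (s * s') := by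
  funext t
  simp [ac, mul_assoc]

theorem ac_faithful {S : Type} [Monoid S] {s s' : S} (h : ∀ v : S → ZMod 2, ac v s = ac v s') :
    s = s' := by
  classical
  have h1 := congrFun (h (fun t => if t = s then 1 else 0)) 1
  simp only [ac, mul_one, if_true] at h1
  by_contra hne
  rw [if_neg (fun e => hne e.symm)] at h1
  exact one_ne_zero h1

theorem ac_zero {S : Type} [Monoid S] (s : S) : ac (0 : S → ZMod 2) s = 0 := rfl

/-- **Class step**.  For every finite monoid there is a system whose uncut words lie in a class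
with height `j`, and whose words with both ends typed read off the noisy run on `W`. -/
theorem Cl.step {j : ℕ} {W : Set (List α)} (hW : H (j + 1) (W : Language α))
    (h : ∀ (S : Type) [Monoid S] [Finite S] (φ : α → S),
      ∃ (T : Option (S → ZMod 2) → Option (S → ZMod 2) → Set (List α))
        (Y : Set (List α)) (D : List α → S → ZMod 2),
        Cl j Y ∧ (∀ e e', Rec (T e e')) ∧
        (∀ e e' u u', u ∈ T e none → u' ∈ T none e' → u ++ u' ∈ T e e') ∧
        (∀ e e' w, w ∈ T e e' → w ∈ Y ∨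
          ∃ u u', u ≠ [] ∧ u' ≠ [] ∧ u ++ u' = w ∧ u ∈ T e none ∧ u' ∈ T none e') ∧
        (∀ w ∈ W, ∀ v v', w ∈ T (some v) (some v') ↔ v' = ac v (w.map φ).prod + D w)) :
    Cl (j + 1) W := by
  intro S _ _ φ s
  obtain ⟨T, Y, D, hY, hT, h1, h2, h3⟩ := h S φ
  have hsys : Sys (S → ZMod 2) (S → ZMod 2) T (fun e e' => {w | w ∈ Y ∧ w ∈ T e e'}) :=
    ⟨h1, fun e e' w hw => hw.2, fun e e' w hw => (h2 e e' w hw).imp (fun h => ⟨h, hw⟩) id⟩
  have hH : ∀ e e', H (j + 1) (T e e' : Language α) :=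
    hsys.height fun e e' => hY.rec (hT e e')
  refine H.congr (H.inter hW (H.forall_fintype (fun p : (S → ZMod 2) × (S → ZMod 2) =>
    ({w | w ∈ (T (some 0) (some p.2) : Language α) →
      w ∈ (T (some p.1) (some (ac p.1 s + p.2)) : Language α)} : Language α))
    fun p => H.imp (hH _ _) (hH _ _))) fun w => ?_
  change (w ∈ W ∧ ∀ p : (S → ZMod 2) × (S → ZMod 2), w ∈ T (some 0) (some p.2) →
    w ∈ T (some p.1) (some (ac p.1 s + p.2))) ↔ (w ∈ W ∧ (w.map φ).prod = s)
  refine and_congr_right fun hw => ?_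
  constructor
  · intro h4
    apply ac_faithful
    intro v
    have h5 : w ∈ T (some 0) (some (D w)) := by
      rw [h3 w hw, ac_zero, zero_add]
    have h6 := (h3 w hw _ _).1 (h4 (v, D w) h5)
    exact (add_right_cancel h6).symm
  · rintro rfl ⟨v, d⟩ h5
    rw [h3 w hw, ac_zero, zero_add] at h5
    rw [h3 w hw, h5]

end Crest.Agent.R320.Cl_835
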