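import Crest.Agent.R320.Clk_638

set_option autoImplicit false

/-!
Row 320, TEAM U leaf U2 with the periodicity fields asked for by 811 / 772.
-/

namespace Crest.Agent.R320.Clk2_638

open Classical
open Crest.Agent.R320.Clk638

theorem bad_period (R M0 M1 m rho : ℕ) (Ms Ms1 : Finset ℕ)
    (h0 : ∀ k ∈ Ms, k ∣ M0) (h1 : ∀ k ∈ Ms1, k ∣ M1) (hR : 0 < R) (hM0 : 0 < M0) (hM1 : 0 < M1)
    (n : ℕ) : Bad R M0 M1 m rho Ms Ms1 (n + PP R M0 M1 m) ↔ Bad R M0 M1 m rho Ms Ms1 n := by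
  have hA : 0 < R * M0 := by positivity
  have hB : 0 < R * M1 := by positivity
  have hd : ∀ l ≤ m, PP R M0 M1 l ∣ PP R M0 M1 m := fun l hl => P_dvd hl
  have hd0 : R * M0 ∣ PP R M0 M1 m := by
    have := hd 0 (Nat.zero_le _); simpa [PP] using this
  have hdiv : ∀ l < m, ∃ c, (n + PP R M0 M1 m) / PP R M0 M1 l = n / PP R M0 M1 l + R * M1 * c := by
    intro l hl
    obtain ⟨c, hc⟩ := hd (l + 1) hl
    refine ⟨c, ?_⟩
    have e : PP R M0 M1 (l + 1) = PP R M0 M1 l * (R * M1) := P_succ (A := R * M0) (Bs := R * M1) l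
    have hp : 0 < PP R M0 M1 l := P_pos hA hB l
    rw [hc, e, Nat.mul_assoc, Nat.add_mul_div_left _ _ hp]
  unfold Bad
  refine or_congr ?_ (or_congr ?_ ?_)
  · obtain ⟨c, hc⟩ := hd0
    rw [hc, Nat.add_mul_mod_self_left]
  · refine exists_congr fun k => and_congr_right fun hk => ?_
    have : k ∣ PP R M0 M1 m := ((h0 k hk).mul_left R).trans hd0
    exact (Nat.dvd_add_iff_left this).symm
  · refine exists_congr fun l => and_congr_right fun hl => ?_
    obtain ⟨c, hc⟩ := hdiv l hl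
    rw [hc, Nat.add_mul_mod_self_left]
    refine or_congr Iff.rfl ?_
    have : Ms1.filter (· ∣ n / PP R M0 M1 l + R * M1 * c) = Ms1.filter (· ∣ n / PP R M0 M1 l) := by
      apply Finset.filter_congr
      intro k hk
      exact (Nat.dvd_add_iff_left (((h1 k hk).mul_left R).mul_right c)).symm
    rw [this]

/-- U2, literal form (with U1 as hypothesis) -/
theorem clocks_of' (hLN : LevelNames) (m : ℕ) (Γ C : Type) [Finite Γ] [Finite C] (lv : Γ → ℕ)
    (hlv : ∀ g, lv g < m) (col : Γ → C) :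
    ∃ r : ℕ, ∀ B R : ℕ, 3 ≤ R → ∃ (Ms Ms1 : Finset ℕ) (rho M0 M1 : ℕ),
      Ms.card ≤ r ∧ Ms1.card ≤ 32 * rho ∧ 0 < rho ∧
      (∀ k ∈ Ms, B < k ∧ Nat.Prime k ∧ k ∣ M0) ∧ (∀ k ∈ Ms1, B < k ∧ Nat.Prime k ∧ k ∣ M1) ∧
      0 < M0 ∧ 0 < M1 ∧
      ∃ (nmL nmR : ℕ → Option Γ) (bL bR : ℕ → ℕ → ℕ) (Gd : ℕ → Prop),
        (∀ t g, nmL t = some g → t < PP R M0 M1 m * (3 * m + 4)) ∧
        (∀ t g, nmR t = some g → PP R M0 M1 m * (3 * m + 4) ≤ t) ∧
        (∀ t t' g g', Gd (t + t') → nmL t = some g → nmR t' = some g' →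
          g = g' ∧ (∀ l ≤ lv g, bL t l = beta R M0 M1 m (t + t') l) ∧
          (∀ l, lv g < l → l ≤ m → bR t' l + beta R M0 M1 m (t + t') l = t + t') ∧
          beta R M0 M1 m (t + t') (lv g) ≤ t ∧ t ≤ beta R M0 M1 m (t + t') (lv g + 1)) ∧
        (∀ t₁ t₁' t₂ t₂' g₁ g₁' g₂ g₂', ¬ Gd (t₁ + t₁') → t₁ + t₁' = t₂ + t₂' →
          nmL t₁ = some g₁ → nmR t₁' = some g₁' → nmL t₂ = some g₂ → nmR t₂' = some g₂' →
          col g₁ = col g₂ ∧ col g₁' = col g₂') ∧
        (∀ n, 2 * (PP R M0 M1 m * (3 * m + 4)) ≤ n → ¬ Bad R M0 M1 m rho Ms Ms1 n →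
          Gd n ∧ ∀ g, ∃ t t', t + t' = n ∧ nmL t = some g ∧ nmR t' = some g) ∧
        (∀ t, PP R M0 M1 m * (3 * m + 4) ≤ t → nmR (t + PP R M0 M1 m) = nmR t) ∧
        (∀ t, PP R M0 M1 m * (3 * m + 4) ≤ t → ∀ l ≤ m,
          bR (t + PP R M0 M1 m) l = bR t l + PP R M0 M1 m) ∧
        (∀ n, Gd (n + PP R M0 M1 m) ↔ Gd n) := by
  obtain ⟨r, hr⟩ := Names755.names Γ C col
  refine ⟨r, fun B R hR => ?_⟩
  obtain ⟨Ms, M0, nLs, nRs, hc, hMs, hM0, -, -, hagree, hcomp, hcol⟩ := hr B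
  obtain ⟨A, hAdef⟩ : ∃ A, A = R * M0 := ⟨_, rfl⟩
  obtain ⟨rho, hrho, h1⟩ := hLN (Γ × Fin A)
  obtain ⟨Ms1, M1, nL1, nR1, hc1, hMs1, hM1, -, -, hmatch, hmis, hpair, hcomp1⟩ := h1 B
  refine ⟨Ms, Ms1, rho, M0, M1, hc, hc1, hrho, hMs, hMs1, hM0, hM1, ?_⟩
  obtain ⟨Bs, hBdef⟩ : ∃ Bs, Bs = R * M1 := ⟨_, rfl⟩
  -- abbreviations
  have hA : 0 < A := by rw [hAdef]; positivity
  have hB : 0 < Bs := by rw [hBdef]; positivity
  have hk0 : ∀ k ∈ Ms, k ∣ A := fun k hk => by rw [hAdef]; exact (hMs k hk).2.2.mul_left _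
  have hk1 : ∀ k ∈ Ms1, k ∣ Bs := fun k hk => by rw [hBdef]; exact (hMs1 k hk).2.2.mul_left _
  have hM1B : M1 ≤ Bs := by rw [hBdef]; nlinarith
  have hPP : ∀ l, PP R M0 M1 l = P A Bs l := fun l => by rw [hAdef, hBdef]; rfl
  have hbeta : ∀ n l, beta R M0 M1 m n l = P A Bs m * (3 * l + 2) + n % P A Bs l := fun n l => by
    unfold beta; rw [hPP, hPP]
  let L : Γ → Fin A → ℕ → Prop := fun g σ t => Lc A Bs M0 M1 m rho lv Ms1 nLs nL1 g σ t
  let Rr : Γ → Fin A → ℕ → Prop := fun g σ t => Rc A Bs M0 M1 m rho lv Ms1 nRs nR1 g σ t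
  let nmL : ℕ → Option Γ := fun t => if ∃ g σ, L g σ t then nLs (t % A) else none
  let nmR : ℕ → Option Γ := fun t => if ∃ g σ, Rr g σ t then nRs (t % A) else none
  have hnmL : ∀ t g, nmL t = some g → ∃ σ, L g σ t := by
    intro t g h
    by_cases hx : ∃ g σ, L g σ t
    · obtain ⟨g', σ, hl⟩ := hx
      have h2 : nmL t = nLs (t % A) := if_pos ⟨g', σ, hl⟩
      rw [h2, hl.2.1] at h
      cases h
      exact ⟨σ, hl⟩
    · have h2 : nmL t = none := if_neg hx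
      rw [h2] at h; cases h
  have hnmR : ∀ t g, nmR t = some g → ∃ σ, Rr g σ t := by
    intro t g h
    by_cases hx : ∃ g σ, Rr g σ t
    · obtain ⟨g', σ, hl⟩ := hx
      have h2 : nmR t = nRs (t % A) := if_pos ⟨g', σ, hl⟩
      rw [h2, hl.2.1] at h
      cases h
      exact ⟨σ, hl⟩
    · have h2 : nmR t = none := if_neg hx
      rw [h2] at h; cases h
  have hnmL' : ∀ t g σ, L g σ t → nmL t = some g := by
    intro t g σ h
    have h2 : nmL t = nLs (t % A) := if_pos ⟨g, σ, h⟩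
    rw [h2]; exact h.2.1
  have hnmR' : ∀ t g σ, Rr g σ t → nmR t = some g := by
    intro t g σ h
    have h2 : nmR t = nRs (t % A) := if_pos ⟨g, σ, h⟩
    rw [h2]; exact h.2.1
  let sg : ℕ → ℕ := fun t => if h : ∃ g σ, L g σ t then (h.choose_spec.choose).val else 0
  have hsg : ∀ t g σ, L g σ t → sg t = σ.val := by
    intro t g σ h
    have hx : ∃ g σ, L g σ t := ⟨g, σ, h⟩
    have h2 : sg t = (hx.choose_spec.choose).val := dif_pos hx
    rw [h2]
    have h3 := hx.choose_spec.choose_spec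
    rw [(Lc.uniq h3 h).2]
  let lvR : ℕ → ℕ := fun t => ((nRs (t % A)).map lv).getD 0
  have hlvR : ∀ t g σ, Rr g σ t → lvR t = lv g := by
    intro t g σ h
    have : nRs (t % A) = some g := h.2.1
    simp [lvR, this]
  let Gd : ℕ → Prop := fun n => (∀ k ∈ Ms, ¬ k ∣ n) ∧ ∀ l < m, E Ms1 (n / P A Bs l) < 2 * rho
  -- digit form of the error counts
  have hE : ∀ l n, E Ms1 (dg A Bs l n) = E Ms1 (n / P A Bs l) := fun l n => E_mod hk1 _
  -- star part
  have hstar : ∀ t t' g σ g' σ', L g σ t → Rr g' σ' t' → t % A + t' % A < A := by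
    intro t t' g σ g' σ' h h'
    have := h.1; have := h'.1; omega
  have hstar2 : ∀ t t' g σ g' σ', L g σ t → Rr g' σ' t' → (t + t') % A = t % A + t' % A :=
    fun t t' g σ g' σ' h h' => add_mod_of (hstar t t' g σ g' σ' h h')
  have hdvd : ∀ k ∈ Ms, ∀ n, k ∣ n % A ↔ k ∣ n := fun k hk n => Nat.dvd_mod_iff (hk0 k hk)
  have hsame : ∀ t t' g σ g' σ', (∀ k ∈ Ms, ¬ k ∣ t + t') → L g σ t → Rr g' σ' t' → g = g' := by
    intro t t' g σ g' σ' hn h h'
    refine hagree _ _ g g' h.2.1 h'.2.1 fun k hk hd => hn k hk ?_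
    rw [← hdvd k hk, hstar2 t t' g σ g' σ' h h']
    exact hd
  -- level part
  have hlevel : ∀ t t' g σ σ', L g σ t → Rr g σ' t' →
      (∀ l < m, dg A Bs l (t + t') = dg A Bs l t + dg A Bs l t') := by
    intro t t' g σ σ' h h' l hl
    obtain ⟨j0, j1⟩ := junc hM1 hM0 hB h h'
    exact dg_add hA hB j0 j1 hl
  have hother : ∀ t t' g σ σ', L g σ t → Rr g σ' t' → ∀ l < m, l ≠ lv g →
      E Ms1 ((t + t') / P A Bs l) < rho := by
    intro t t' g σ σ' h h' l hl hne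
    rw [← hE, hlevel t t' g σ σ' h h' l hl]
    rcases lt_or_gt_of_ne hne with h2 | h2
    · rw [h'.2.2.1 l h2]; simpa using h.2.2.1 l h2
    · rw [h.2.2.2.2.2.1 l h2 hl]; simpa using h'.2.2.2.2.2.2.1 l h2 hl
  have hown : ∀ t t' g σ σ', L g σ t → Rr g σ' t' →
      E Ms1 ((t + t') / P A Bs (lv g)) = E Ms1 (dg A Bs (lv g) t + dg A Bs (lv g) t') := by
    intro t t' g σ σ' h h'
    rw [← hE, hlevel t t' g σ σ' h h' _ (hlv g)]
  refine ⟨nmL, nmR, fun t l => P A Bs m * (3 * l + 2) + (t + sg t) % P A Bs l,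
    fun t' l => P A Bs m * (3 * lvR t' + 3) + (t' - t' % P A Bs l) - P A Bs m * (3 * l + 2),
    Gd, ?_, ?_, ?_, ?_, ?_, ?_, ?_, ?_⟩
  · intro t g h
    obtain ⟨σ, hl⟩ := hnmL t g h
    have h1 : t / P A Bs m = 3 * lv g + 3 := hl.2.2.2.2.2.2
    have h2 := hlv g
    rw [hPP, Nat.mul_comm]
    exact (Nat.div_lt_iff_lt_mul (P_pos hA hB m)).1 (by omega)
  · intro t g h
    obtain ⟨σ, hl⟩ := hnmR t g h
    have h1 : 3 * m + 4 ≤ t / P A Bs m := hl.2.2.2.2.2.2.2
    rw [hPP, Nat.mul_comm]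
    exact (Nat.le_div_iff_mul_le (P_pos hA hB m)).1 h1
  · intro t t' g g' hG h h'
    obtain ⟨σ, hl⟩ := hnmL t g h
    obtain ⟨σ', hr'⟩ := hnmR t' g' h'
    have hgg := hsame t t' g σ g' σ' hG.1 hl hr'
    subst hgg
    have hσ : σ = σ' := by
      by_contra hne
      have h2 := hmis _ _ (g, σ) (g, σ') hl.2.2.2.2.1 hr'.2.2.2.2.1 (by
        intro hh; exact hne (Prod.mk.inj hh).2)
      have h3 := hG.2 (lv g) (hlv g)
      rw [hown t t' g σ σ' hl hr'] at h3
      exact absurd h2 (not_le.2 h3)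
    subst hσ
    obtain ⟨b1, b2, b3, b4⟩ := beliefs hM1 hM0 hB hA (hlv g) hl hr'
    refine ⟨rfl, fun l hl2 => ?_, fun l hl2 hl3 => ?_, ?_, ?_⟩
    · rw [hbeta]
      show P A Bs m * (3 * l + 2) + (t + sg t) % P A Bs l = _
      rw [hsg t g σ hl, b1 l hl2]
    · have := b2 l hl2 hl3
      rw [hbeta]
      show P A Bs m * (3 * lvR t' + 3) + (t' - t' % P A Bs l) - P A Bs m * (3 * l + 2) +
        (P A Bs m * (3 * l + 2) + (t + t') % P A Bs l) = t + t'
      rw [hlvR t' g σ hr']; exact this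
    · rw [hbeta]; exact b3
    · rw [hbeta]; exact b4
  · intro t₁ t₁' t₂ t₂' g₁ g₁' g₂ g₂' hG hs h1 h1' h2 h2'
    obtain ⟨σ₁, l1⟩ := hnmL _ _ h1
    obtain ⟨σ₁', r1⟩ := hnmR _ _ h1'
    obtain ⟨σ₂, l2⟩ := hnmL _ _ h2
    obtain ⟨σ₂', r2⟩ := hnmR _ _ h2'
    by_cases hk : ∃ k ∈ Ms, k ∣ t₁ + t₁'
    · have e1 := hstar2 _ _ _ _ _ _ l1 r1
      have e2 := hstar2 _ _ _ _ _ _ l2 r2
      refine hcol (t₁ % A) (t₁' % A) (t₂ % A) (t₂' % A) g₁ g₁' g₂ g₂' l1.2.1 r1.2.1 l2.2.1 r2.2.1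
        ?_ ?_
      · rw [← e1, ← e2, hs]
      · obtain ⟨k, hk, hd⟩ := hk
        exact ⟨k, hk, by rw [← e1, hdvd k hk]; exact hd⟩
    · push Not at hk
      have hk2 : ∀ k ∈ Ms, ¬ k ∣ t₂ + t₂' := by rw [← hs]; exact hk
      have e1 := hsame _ _ _ _ _ _ hk l1 r1
      have e2 := hsame _ _ _ _ _ _ hk2 l2 r2
      subst e1; subst e2
      have hl : ∃ l < m, 2 * rho ≤ E Ms1 ((t₁ + t₁') / P A Bs l) := by
        by_contra hcon
        push Not at hcon
        exact hG ⟨hk, hcon⟩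
      obtain ⟨l, hlm, hl⟩ := hl
      have a1 : l = lv g₁ := by
        by_contra hne
        have := hother _ _ _ _ _ l1 r1 l hlm hne
        omega
      have a2 : l = lv g₂ := by
        by_contra hne
        have := hother _ _ _ _ _ l2 r2 l hlm hne
        rw [← hs] at this
        omega
      have n1 : (g₁, σ₁) ≠ (g₁, σ₁') := by
        intro hh
        have h3 := hmatch _ _ (g₁, σ₁) l1.2.2.2.2.1 (hh ▸ r1.2.2.2.2.1)
        rw [a1, hown _ _ _ _ _ l1 r1] at hl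
        exact absurd hl (not_le.2 h3)
      have n2 : (g₂, σ₂) ≠ (g₂, σ₂') := by
        intro hh
        have h3 := hmatch _ _ (g₂, σ₂) l2.2.2.2.2.1 (hh ▸ r2.2.2.2.2.1)
        rw [a2, hs, hown _ _ _ _ _ l2 r2] at hl
        exact absurd hl (not_le.2 h3)
      have hsum : dg A Bs (lv g₁) t₁ + dg A Bs (lv g₁) t₁' =
          dg A Bs (lv g₂) t₂ + dg A Bs (lv g₂) t₂' := by
        rw [← hlevel _ _ _ _ _ l1 r1 _ (hlv g₁), ← hlevel _ _ _ _ _ l2 r2 _ (hlv g₂), ← a1, ← a2, hs]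
      rcases hpair _ _ _ _ _ _ _ _ l1.2.2.2.2.1 r1.2.2.2.2.1 l2.2.2.2.2.1 r2.2.2.2.2.1 hsum n1 n2
        with ⟨p1, -⟩ | ⟨p1, -⟩
      · have := (Prod.mk.inj p1).1; subst this; exact ⟨rfl, rfl⟩
      · have := (Prod.mk.inj p1).1; subst this; exact ⟨rfl, rfl⟩
  · intro n hn hbad
    have hb1 : M0 ≤ n % A ∧ n % A + M0 < A := by
      by_contra hcon
      refine hbad (Or.inl ?_)
      rw [← hAdef]
      omega
    have hb2 : ∀ k ∈ Ms, ¬ k ∣ n := fun k hk hd => hbad (Or.inr (Or.inl ⟨k, hk, hd⟩))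
    have hb3 : ∀ l < m, (M1 ≤ dg A Bs l n ∧ dg A Bs l n + M1 < Bs) ∧
        E Ms1 (n / P A Bs l) < rho := by
      intro l hl
      by_contra hcon
      refine hbad (Or.inr (Or.inr ⟨l, hl, ?_⟩))
      rw [← hBdef, hPP]
      by_contra hcon2
      push Not at hcon2
      apply hcon
      refine ⟨⟨hcon2.1.1, hcon2.1.2⟩, hcon2.2⟩
    refine ⟨⟨hb2, fun l hl => by have := (hb3 l hl).2; omega⟩, fun g => ?_⟩
    obtain ⟨t0, ht0, hL0, hR0⟩ := hcomp (n % A) (fun k hk hd => hb2 k hk ((hdvd k hk n).1 hd)) g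
    have hi := hlv g
    let σ : Fin A := ⟨n % A - t0, by omega⟩
    obtain ⟨t1, ht1, hL1, hR1⟩ := hcomp1 (dg A Bs (lv g) n)
      (by have := (hb3 (lv g) hi).2; rw [← hE] at this; exact this) (g, σ)
    obtain ⟨hb31, hb32⟩ := (hb3 (lv g) hi).1
    have hdm : ∀ l, dg A Bs l n < Bs := fun l => Nat.mod_lt _ hB
    let x : ℕ → ℕ := fun l => if l < lv g then dg A Bs l n else if l = lv g then t1 else 0
    let y : ℕ → ℕ := fun l => if l < lv g then 0 else if l = lv g then dg A Bs l n - t1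
      else dg A Bs l n
    have hx : ∀ l < m, x l < Bs := by
      intro l _
      have := hdm l
      simp only [x]
      split_ifs <;> omega
    have hy : ∀ l < m, y l < Bs := by
      intro l _
      have := hdm l
      simp only [y]
      split_ifs <;> omega
    have hxy : ∀ l < m, x l + y l = dg A Bs l n := by
      intro l _
      simp only [x, y]
      split_ifs with h1 h2
      · omega
      · subst h2; omega
      · omega
    have htop : 2 * (3 * m + 4) ≤ n / P A Bs m := by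
      rw [Nat.le_div_iff_mul_le (P_pos hA hB m)]
      rw [hPP] at hn
      calc 2 * (3 * m + 4) * P A Bs m = 2 * (P A Bs m * (3 * m + 4)) := by ring
        _ ≤ n := hn
    have ht0A : t0 < A := by omega
    have hsA : n % A - t0 < A := by omega
    refine ⟨V A Bs x t0 m + P A Bs m * (3 * lv g + 3),
      V A Bs y (n % A - t0) m + P A Bs m * (n / P A Bs m - (3 * lv g + 3)), ?_, ?_, ?_⟩
    · have h1 := V_add (A := A) (Bs := Bs) x y t0 (n % A - t0) m
      have h2 := V_congr (A := A) (Bs := Bs) (a := t0 + (n % A - t0)) hxy m le_rfl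
      have h3 := V_self (A := A) (Bs := Bs) n m
      have h4 : t0 + (n % A - t0) = n % A := by omega
      rw [h4] at h1 h2
      have h5 : P A Bs m * (3 * lv g + 3) + P A Bs m * (n / P A Bs m - (3 * lv g + 3)) =
          P A Bs m * (n / P A Bs m) := by
        rw [← Nat.mul_add]; congr 1; omega
      omega
    · refine hnmL' _ g σ ⟨?_, ?_, ?_, ?_, ?_, ?_, ?_⟩
      · rw [V_star ht0A hx]; exact ht0
      · rw [V_star ht0A hx]; exact hL0
      · intro l hl
        rw [V_dg hA hB ht0A hx _ l (by omega)]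
        have : x l = dg A Bs l n := by simp [x, hl]
        rw [this, hE]; exact (hb3 l (by omega)).2
      · rw [V_dg hA hB ht0A hx _ _ hi]
        have : x (lv g) = t1 := by simp [x]
        rw [this]; exact ht1
      · rw [V_dg hA hB ht0A hx _ _ hi]
        have : x (lv g) = t1 := by simp [x]
        rw [this]; exact hL1
      · intro l hl1 hl2
        rw [V_dg hA hB ht0A hx _ l hl2]
        simp only [x]
        rw [if_neg (by omega), if_neg (by omega)]
      · exact V_top hA hB ht0A hx _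
    · refine hnmR' _ g σ ⟨?_, ?_, ?_, ?_, ?_, ?_, ?_, ?_⟩
      · rw [V_star hsA hy]; omega
      · rw [V_star hsA hy]
        exact hR0 _ (by
          have : t0 + (n % A - t0) = n % A := by omega
          rw [this])
      · intro l hl
        rw [V_dg hA hB hsA hy _ l (by omega)]
        simp [y, hl]
      · rw [V_dg hA hB hsA hy _ _ hi]
        have : y (lv g) = dg A Bs (lv g) n - t1 := by simp [y]
        rw [this]; omega
      · rw [V_dg hA hB hsA hy _ _ hi]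
        have : y (lv g) = dg A Bs (lv g) n - t1 := by simp [y]
        rw [this]
        exact hR1 _ (by
          have : t1 + (dg A Bs (lv g) n - t1) = dg A Bs (lv g) n := by omega
          rw [this])
      · rw [V_star hsA hy]
      · intro l hl1 hl2
        rw [V_dg hA hB hsA hy _ l hl2]
        have : y l = dg A Bs l n := by
          simp only [y]; rw [if_neg (by omega), if_neg (by omega)]
        rw [this, hE]; exact (hb3 l hl2).2
      · rw [V_top hA hB hsA hy]; omega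
  · intro t ht
    rw [hPP] at ht ⊢
    have hPm := P_pos (Bs := Bs) hA hB m
    have hAP : A ∣ P A Bs m := by unfold P; exact Dvd.intro _ rfl
    have e1 : (t + P A Bs m) % A = t % A := by
      obtain ⟨c, hc⟩ := hAP
      rw [hc, Nat.add_mul_mod_self_left]
    have e2 : ∀ l < m, dg A Bs l (t + P A Bs m) = dg A Bs l t := by
      intro l hl
      obtain ⟨c, hc⟩ := P_dvd (A := A) (Bs := Bs) (show l + 1 ≤ m from hl)
      unfold dg
      rw [hc, P_succ, Nat.mul_assoc, Nat.add_mul_div_left _ _ (P_pos hA hB l),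
        Nat.add_mul_mod_self_left]
    have e3 : (t + P A Bs m) / P A Bs m = t / P A Bs m + 1 := by
      rw [Nat.add_div_right _ hPm]
    have e4 : 3 * m + 4 ≤ t / P A Bs m := by
      rw [Nat.le_div_iff_mul_le hPm, Nat.mul_comm]; exact ht
    have hiff : ∀ g σ, Rr g σ (t + P A Bs m) ↔ Rr g σ t := by
      intro g σ
      show Rc A Bs M0 M1 m rho lv Ms1 nRs nR1 g σ (t + P A Bs m) ↔
        Rc A Bs M0 M1 m rho lv Ms1 nRs nR1 g σ t
      have hi := hlv g
      unfold Rc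
      rw [e1, e2 _ hi, e3]
      constructor
      · rintro ⟨a1, a2, a3, a4, a5, a6, a7, a8⟩
        exact ⟨a1, a2, fun l hl => by rw [← e2 l (by omega)]; exact a3 l hl, a4, a5, a6,
          fun l hl1 hl2 => by rw [← e2 l hl2]; exact a7 l hl1 hl2, e4⟩
      · rintro ⟨a1, a2, a3, a4, a5, a6, a7, a8⟩
        exact ⟨a1, a2, fun l hl => by rw [e2 l (by omega)]; exact a3 l hl, a4, a5, a6,
          fun l hl1 hl2 => by rw [e2 l hl2]; exact a7 l hl1 hl2, by omega⟩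
    show (if ∃ g σ, Rr g σ (t + P A Bs m) then nRs ((t + P A Bs m) % A) else none) =
      (if ∃ g σ, Rr g σ t then nRs (t % A) else none)
    simp only [hiff, e1]
  · intro t ht l hl
    rw [hPP] at ht ⊢
    have hPm := P_pos (Bs := Bs) hA hB m
    have hAP : A ∣ P A Bs m := by unfold P; exact Dvd.intro _ rfl
    have e1 : (t + P A Bs m) % A = t % A := by
      obtain ⟨c, hc⟩ := hAP
      rw [hc, Nat.add_mul_mod_self_left]
    have e5 : lvR (t + P A Bs m) = lvR t := by simp only [lvR, e1]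
    have e6 : (t + P A Bs m) % P A Bs l = t % P A Bs l := by
      obtain ⟨c, hc⟩ := P_dvd (A := A) (Bs := Bs) hl
      rw [hc, Nat.add_mul_mod_self_left]
    show P A Bs m * (3 * lvR (t + P A Bs m) + 3) + ((t + P A Bs m) - (t + P A Bs m) % P A Bs l) -
      P A Bs m * (3 * l + 2) = P A Bs m * (3 * lvR t + 3) + (t - t % P A Bs l) -
      P A Bs m * (3 * l + 2) + P A Bs m
    rw [e5, e6]
    have h3 : P A Bs m * (3 * m + 4) ≤ P A Bs m * (t / P A Bs m) :=
      Nat.mul_le_mul_left _ (by rw [Nat.le_div_iff_mul_le hPm, Nat.mul_comm]; exact ht)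
    have h4 := Nat.div_add_mod t (P A Bs m)
    have h5 : t % P A Bs l ≤ t % P A Bs m := by
      rw [← Nat.mod_mod_of_dvd t (P_dvd (A := A) (Bs := Bs) hl)]
      exact Nat.mod_le _ _
    have h6 : P A Bs m * (3 * l + 2) ≤ P A Bs m * (3 * m + 4) := Nat.mul_le_mul_left _ (by omega)
    have h7 : t % P A Bs l ≤ t := Nat.mod_le _ _
    generalize P A Bs m * (3 * lvR t + 3) = a1 at *
    generalize P A Bs m * (3 * l + 2) = a2 at *
    generalize P A Bs m * (3 * m + 4) = a3 at *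
    generalize P A Bs m * (t / P A Bs m) = a4 at *
    omega
  · intro n
    rw [hPP]
    have hAP : A ∣ P A Bs m := by unfold P; exact Dvd.intro _ rfl
    refine and_congr ?_ ?_
    · refine forall_congr' fun k => forall_congr' fun hk => not_congr ?_
      exact (Nat.dvd_add_iff_left ((hk0 k hk).trans hAP)).symm
    · refine forall_congr' fun l => forall_congr' fun hl => ?_
      have : E Ms1 ((n + P A Bs m) / P A Bs l) = E Ms1 (n / P A Bs l) := by
        rw [← hE, ← hE]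
        congr 1
        obtain ⟨c, hc⟩ := P_dvd (A := A) (Bs := Bs) (show l + 1 ≤ m from hl)
        unfold dg
        rw [hc, P_succ, Nat.mul_assoc, Nat.add_mul_div_left _ _ (P_pos hA hB l),
          Nat.add_mul_mod_self_left]
      rw [this]

/-- **U2 with periodicity** -/
theorem clocks' (m : ℕ) (Γ C : Type) [Finite Γ] [Finite C] (lv : Γ → ℕ)
    (hlv : ∀ g, lv g < m) (col : Γ → C) :
    ∃ r : ℕ, ∀ B R : ℕ, 3 ≤ R → ∃ (Ms Ms1 : Finset ℕ) (rho M0 M1 : ℕ),
      Ms.card ≤ r ∧ Ms1.card ≤ 32 * rho ∧ 0 < rho ∧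
      (∀ k ∈ Ms, B < k ∧ Nat.Prime k ∧ k ∣ M0) ∧ (∀ k ∈ Ms1, B < k ∧ Nat.Prime k ∧ k ∣ M1) ∧
      0 < M0 ∧ 0 < M1 ∧
      ∃ (nmL nmR : ℕ → Option Γ) (bL bR : ℕ → ℕ → ℕ) (Gd : ℕ → Prop),
        (∀ t g, nmL t = some g → t < PP R M0 M1 m * (3 * m + 4)) ∧
        (∀ t g, nmR t = some g → PP R M0 M1 m * (3 * m + 4) ≤ t) ∧
        (∀ t t' g g', Gd (t + t') → nmL t = some g → nmR t' = some g' →
          g = g' ∧ (∀ l ≤ lv g, bL t l = beta R M0 M1 m (t + t') l) ∧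
          (∀ l, lv g < l → l ≤ m → bR t' l + beta R M0 M1 m (t + t') l = t + t') ∧
          beta R M0 M1 m (t + t') (lv g) ≤ t ∧ t ≤ beta R M0 M1 m (t + t') (lv g + 1)) ∧
        (∀ t₁ t₁' t₂ t₂' g₁ g₁' g₂ g₂', ¬ Gd (t₁ + t₁') → t₁ + t₁' = t₂ + t₂' →
          nmL t₁ = some g₁ → nmR t₁' = some g₁' → nmL t₂ = some g₂ → nmR t₂' = some g₂' →
          col g₁ = col g₂ ∧ col g₁' = col g₂') ∧
        (∀ n, 2 * (PP R M0 M1 m * (3 * m + 4)) ≤ n → ¬ Bad R M0 M1 m rho Ms Ms1 n →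
          Gd n ∧ ∀ g, ∃ t t', t + t' = n ∧ nmL t = some g ∧ nmR t' = some g) ∧
        (∀ t, PP R M0 M1 m * (3 * m + 4) ≤ t → nmR (t + PP R M0 M1 m) = nmR t) ∧
        (∀ t, PP R M0 M1 m * (3 * m + 4) ≤ t → ∀ l ≤ m,
          bR (t + PP R M0 M1 m) l = bR t l + PP R M0 M1 m) ∧
        (∀ n, Gd (n + PP R M0 M1 m) ↔ Gd n) :=
  clocks_of' levelNames m Γ C lv hlv col

end Crest.Agent.R320.Clk2_638
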