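import Crest.Agent.R320.Clk_675

/-! Row 320, leaf U2 (638 #13273): assembly of the clocks, with periodicity (845 (c), 811). -/

set_option autoImplicit false

namespace Crest.Agent.R320.Clk2_675

open Classical Crest.Agent.R320.Clk_675

section
variable {Γ : Type} {R M0 M1 m rho : ℕ} {Ms Ms1 : Finset ℕ} {nL1 nR1 : ℕ → Option (Γ × Fin (R*M0))}
  {lv : Γ → ℕ} {nRs : ℕ → Option Γ}

variable (hR : 0 < R) (h0 : 0 < M0) (h1 : 0 < M1)
include hR h0 h1

theorem div_add_PP (n : ℕ) {l : ℕ} (hl : l < m) :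
    ∃ c, (n + PP R M0 M1 m) / PP R M0 M1 l = n / PP R M0 M1 l + (R*M1) * c := by
  obtain ⟨k, rfl⟩ := Nat.exists_eq_add_of_lt hl
  have e2 : PP R M0 M1 (l+k+1) = PP R M0 M1 l * ((R*M1) * (R*M1)^k) := by
    rw [show l + k + 1 = l + (k+1) by ring, PP_add, pow_succ']
  exact ⟨(R*M1)^k, by rw [e2, Nat.add_mul_div_left _ _ (PP_pos hR h0 h1 _)]⟩

theorem filter_per (hMs1 : ∀ k ∈ Ms1, k ∣ M1) (n : ℕ) {l : ℕ} (hl : l < m) :
    Ms1.filter (· ∣ (n + PP R M0 M1 m) / PP R M0 M1 l) = Ms1.filter (· ∣ n / PP R M0 M1 l) := by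
  obtain ⟨c, hc⟩ := div_add_PP hR h0 h1 n hl
  rw [hc]
  apply Finset.filter_congr
  intro k hk
  exact Nat.dvd_add_left (((hMs1 k hk).trans (dvd_mul_left _ _)).trans (dvd_mul_right _ _))

theorem div_mod_per (n : ℕ) {l : ℕ} (hl : l < m) :
    (n + PP R M0 M1 m) / PP R M0 M1 l % (R*M1) = n / PP R M0 M1 l % (R*M1) := by
  obtain ⟨c, hc⟩ := div_add_PP hR h0 h1 n hl
  rw [hc, Nat.add_mul_mod_self_left]

omit hR h0 h1 in
theorem mod_per (n : ℕ) {l : ℕ} (hl : l ≤ m) :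
    (n + PP R M0 M1 m) % PP R M0 M1 l = n % PP R M0 M1 l := by
  obtain ⟨c, hc⟩ := PP_dvd (R := R) (M0 := M0) (M1 := M1) hl
  rw [hc, Nat.add_mul_mod_self_left]

omit hR h0 h1 in
theorem mod_per0 (n : ℕ) : (n + PP R M0 M1 m) % (R*M0) = n % (R*M0) := by
  obtain ⟨c, hc⟩ := D0_dvd (R := R) (M0 := M0) (M1 := M1) m
  rw [hc, Nat.add_mul_mod_self_left]

omit hR h0 h1 in
theorem dvd_per (hMs : ∀ k ∈ Ms, k ∣ M0) (n k : ℕ) (hk : k ∈ Ms) :
    k ∣ n + PP R M0 M1 m ↔ k ∣ n :=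
  Nat.dvd_add_left (((hMs k hk).trans (dvd_mul_left _ _)).trans (D0_dvd m))

theorem Good_per (hMs : ∀ k ∈ Ms, k ∣ M0) (hMs1 : ∀ k ∈ Ms1, k ∣ M1) (n : ℕ) :
    Good R M0 M1 m rho Ms Ms1 (n + PP R M0 M1 m) ↔ Good R M0 M1 m rho Ms Ms1 n := by
  unfold Good
  refine and_congr (forall₂_congr fun k hk => not_congr (dvd_per hMs n k hk))
    (forall₂_congr fun l hl => ?_)
  rw [filter_per hR h0 h1 hMs1 n hl]

theorem Bad_per (hMs : ∀ k ∈ Ms, k ∣ M0) (hMs1 : ∀ k ∈ Ms1, k ∣ M1) (n : ℕ) :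
    Bad R M0 M1 m rho Ms Ms1 (n + PP R M0 M1 m) ↔ Bad R M0 M1 m rho Ms Ms1 n := by
  unfold Bad
  rw [mod_per0]
  refine or_congr Iff.rfl (or_congr (exists_congr fun k => and_congr_right fun hk =>
    dvd_per hMs n k hk) (exists_congr fun l => and_congr_right fun hl => ?_))
  rw [filter_per hR h0 h1 hMs1 n hl, div_mod_per hR h0 h1 n hl]

theorem Rt_per (hMs1 : ∀ k ∈ Ms1, k ∣ M1) (hp : ∀ t, nR1 (t + M1) = nR1 t) {γ : Γ} {i t : ℕ}
    (hi : i < m) (ht : PP R M0 M1 m * (3*m+4) ≤ t) :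
    Rt R M0 M1 m rho Ms1 nR1 γ i (t + PP R M0 M1 m) ↔ Rt R M0 M1 m rho Ms1 nR1 γ i t := by
  have h2 : ∀ c t, nR1 (t + M1 * c) = nR1 t := by
    intro c
    induction c with
    | zero => intro t; simp
    | succ c ih => intro t; rw [Nat.mul_succ, ← Nat.add_assoc, hp, ih]
  have e1 := mod_per0 (R := R) (M0 := M0) (M1 := M1) (m := m) t
  have e2 := mod_per (R := R) (M0 := M0) (M1 := M1) (m := m) t hi.le
  have e3 := div_mod_per hR h0 h1 t hi (m := m)
  have e4 : nR1 ((t + PP R M0 M1 m) / PP R M0 M1 i) = nR1 (t / PP R M0 M1 i) := by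
    obtain ⟨c, hc⟩ := div_add_PP hR h0 h1 t hi
    rw [hc, show R * M1 * c = M1 * (R * c) by ring, h2]
  have e5 : ∀ l, i < l → l < m → Ms1.filter (· ∣ (t + PP R M0 M1 m) / PP R M0 M1 l) =
      Ms1.filter (· ∣ t / PP R M0 M1 l) := fun l _ hl => filter_per hR h0 h1 hMs1 t hl
  constructor
  · rintro ⟨⟨a1, a2, a3⟩, a4, a5, a6⟩
    rw [e1] at a1 a2 a4
    rw [e2] at a2
    rw [e3] at a3
    rw [e4] at a4
    exact ⟨⟨a1, a2, a3⟩, a4, fun l hl hlm => by rw [← e5 l hl hlm]; exact a5 l hl hlm, ht⟩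
  · rintro ⟨⟨a1, a2, a3⟩, a4, a5, a6⟩
    refine ⟨⟨by rw [e1]; exact a1, by rw [e1, e2]; exact a2, by rw [e3]; exact a3⟩,
      by rw [e1, e4]; exact a4, fun l hl hlm => by rw [e5 l hl hlm]; exact a5 l hl hlm, by omega⟩

end

theorem clocks (m : ℕ) (Γ C : Type) [Finite Γ] [Finite C] (lv : Γ → ℕ) (hlv : ∀ g, lv g < m)
    (col : Γ → C) :
    ∃ r : ℕ, ∀ B R : ℕ, 3 ≤ R → ∃ (Ms Ms1 : Finset ℕ) (rho M0 M1 : ℕ) (nmL nmR : ℕ → Option Γ)
      (bL bR : ℕ → ℕ → ℕ) (Gd : ℕ → Prop),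
      Ms.card ≤ r ∧ Ms1.card ≤ 32*rho ∧ 0 < rho ∧
      (∀ k ∈ Ms, B < k ∧ Nat.Prime k ∧ k ∣ M0) ∧ (∀ k ∈ Ms1, B < k ∧ Nat.Prime k ∧ k ∣ M1) ∧
      0 < M0 ∧ 0 < M1 ∧
      (∀ t g, nmL t = some g → t < PP R M0 M1 m * (3*m+4)) ∧
      (∀ t g, nmR t = some g → PP R M0 M1 m * (3*m+4) ≤ t) ∧
      (∀ t t' g g', Gd (t+t') → nmL t = some g → nmR t' = some g' →
        g = g' ∧ (∀ l ≤ lv g, bL t l = beta R M0 M1 m (t+t') l) ∧
        (∀ l, lv g < l → l ≤ m → bR t' l + beta R M0 M1 m (t+t') l = t+t') ∧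
        beta R M0 M1 m (t+t') (lv g) ≤ t ∧ t ≤ beta R M0 M1 m (t+t') (lv g + 1)) ∧
      (∀ t₁ t₁' t₂ t₂' g₁ g₁' g₂ g₂', ¬ Gd (t₁+t₁') → t₁+t₁' = t₂+t₂' → nmL t₁ = some g₁ →
        nmR t₁' = some g₁' → nmL t₂ = some g₂ → nmR t₂' = some g₂' →
        col g₁ = col g₂ ∧ col g₁' = col g₂') ∧
      (∀ n, 2*(PP R M0 M1 m * (3*m+4)) ≤ n → ¬ Bad R M0 M1 m rho Ms Ms1 n →
        Gd n ∧ ∀ g, ∃ t t', t+t' = n ∧ nmL t = some g ∧ nmR t' = some g) ∧
      (∀ n, Gd n ↔ Good R M0 M1 m rho Ms Ms1 n) ∧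
      -- periodicity
      (∀ n, Gd (n + PP R M0 M1 m) ↔ Gd n) ∧
      (∀ n, Bad R M0 M1 m rho Ms Ms1 (n + PP R M0 M1 m) ↔ Bad R M0 M1 m rho Ms Ms1 n) ∧
      (∀ t, PP R M0 M1 m * (3*m+4) ≤ t → nmR (t + PP R M0 M1 m) = nmR t) ∧
      (∀ t l, PP R M0 M1 m * (3*m+4) ≤ t → l ≤ m → nmR t ≠ none →
        bR (t + PP R M0 M1 m) l = bR t l + PP R M0 M1 m) := by
  obtain ⟨r, hr⟩ := Names755.names Γ C col
  refine ⟨r, fun B R hR3 => ?_⟩
  obtain ⟨Ms, M0, nLs, nRs, hcard, hMs, hM0, hpL, hpR, hgood, hcomp, hbad⟩ := hr B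
  obtain ⟨rho, hrho, hr1⟩ := LN_484.level_names (Γ × Fin (R*M0))
  obtain ⟨Ms1, M1, nL1, nR1, hcard1, hMs1, hM1, hpL1, hpR1, hsame1, hdiff1, hswap1, hcomp1⟩ := hr1 B
  have hR : 0 < R := by omega
  have hMs1' : ∀ k ∈ Ms1, k ∣ M1 := fun k hk => (hMs1 k hk).2.2
  have hMs0' : ∀ k ∈ Ms, k ∣ M0 := fun k hk => (hMs k hk).2.2
  have perL : ∀ t, nLs (t % (R*M0)) = nLs t := by
    intro t
    have h1 : ∀ c t, nLs (t + M0 * c) = nLs t := by
      intro c
      induction c with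
      | zero => intro t; simp
      | succ c ih => intro t; rw [Nat.mul_succ, ← Nat.add_assoc, hpL, ih]
    have h2 := Nat.mod_add_div t (R*M0)
    conv_rhs => rw [← h2, show R * M0 * (t / (R*M0)) = M0 * (R * (t / (R*M0))) by ring, h1]
  have perR : ∀ t, nRs (t % (R*M0)) = nRs t := by
    intro t
    have h1 : ∀ c t, nRs (t + M0 * c) = nRs t := by
      intro c
      induction c with
      | zero => intro t; simp
      | succ c ih => intro t; rw [Nat.mul_succ, ← Nat.add_assoc, hpR, ih]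
    have h2 := Nat.mod_add_div t (R*M0)
    conv_rhs => rw [← h2, show R * M0 * (t / (R*M0)) = M0 * (R * (t / (R*M0))) by ring, h1]
  have perL1 : ∀ t, nL1 (t % (R*M1)) = nL1 t := by
    intro t
    have h1 : ∀ c t, nL1 (t + M1 * c) = nL1 t := by
      intro c
      induction c with
      | zero => intro t; simp
      | succ c ih => intro t; rw [Nat.mul_succ, ← Nat.add_assoc, hpL1, ih]
    have h2 := Nat.mod_add_div t (R*M1)
    conv_rhs => rw [← h2, show R * M1 * (t / (R*M1)) = M1 * (R * (t / (R*M1))) by ring, h1]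
  have perR1 : ∀ t, nR1 (t % (R*M1)) = nR1 t := by
    intro t
    have h1 : ∀ c t, nR1 (t + M1 * c) = nR1 t := by
      intro c
      induction c with
      | zero => intro t; simp
      | succ c ih => intro t; rw [Nat.mul_succ, ← Nat.add_assoc, hpR1, ih]
    have h2 := Nat.mod_add_div t (R*M1)
    conv_rhs => rw [← h2, show R * M1 * (t / (R*M1)) = M1 * (R * (t / (R*M1))) by ring, h1]
  have hPm : 0 < PP R M0 M1 m := PP_pos hR hM0 hM1 m
  refine ⟨Ms, Ms1, rho, M0, M1, nmL R M0 M1 m rho Ms1 lv nLs nL1, nmR R M0 M1 m rho Ms1 lv nRs nR1,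
    bL R M0 M1 m lv nLs nL1, bR R M0 M1 m lv nRs, Good R M0 M1 m rho Ms Ms1, hcard, hcard1, hrho,
    hMs, hMs1, hM0, hM1, ?_, ?_, ?_, ?_, ?_, fun n => Iff.rfl,
    fun n => Good_per hR hM0 hM1 hMs0' hMs1' n, fun n => Bad_per hR hM0 hM1 hMs0' hMs1' n, ?_, ?_⟩
  · intro t g ht
    obtain ⟨-, hL⟩ := nmL_some ht
    refine lt_of_lt_of_le (hL.b.lt hR hM0 hM1 (hlv g)) (Nat.mul_le_mul_left _ ?_)
    have := hlv g
    omega
  · intro t g ht
    obtain ⟨-, hRt⟩ := nmR_some ht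
    exact hRt.big
  · -- soundness
    intro t t' g g' hG ht ht'
    obtain ⟨e1, hL⟩ := nmL_some ht
    obtain ⟨e2, hRt⟩ := nmR_some ht'
    obtain rfl : g = g' := hgood t t' g g' e1 e2 hG.1
    have hi := hlv g
    set σ := sg R M0 M1 lv nLs nL1 t with hσ
    obtain ⟨s, hs, hn⟩ := hL.nm
    obtain ⟨s', hs', hn'⟩ := hRt.nm
    have hss : s = s' := by
      by_contra hne
      have h1 := hdiff1 _ _ _ _ hn hn' (by simpa using hne)
      rw [← add_div_of (nocarry hR hM0 hM1 hL.b hRt.b hi.le)] at h1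
      have h2 := hG.2 (lv g) hi
      omega
    have hσ' : σ = t' % (R*M0) := by rw [← hs, ← hs', hss]
    refine ⟨rfl, ?_, ?_, ?_, ?_⟩
    · intro l hl
      unfold bL beta
      congr 1
      rw [← hσ, hσ', ← hRt.b.mod_low hR hM0 hM1 hl, Nat.add_mod_mod]
    · intro l hl hlm
      have hb : bR R M0 M1 m lv nRs t' l = PP R M0 M1 m * (3 * lv g + 3) +
          (t' - t' % PP R M0 M1 l) - PP R M0 M1 m * (3*l+2) := by
        unfold bR; rw [e2]
      rw [hb]
      unfold beta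
      rw [add_mod_of (nocarry hR hM0 hM1 hL.b hRt.b hlm)]
      have h1 := hL.b.div_up hR hM0 hM1 hl hlm
      have h2 := hRt.big
      have h3 : PP R M0 M1 m * (3*l+2) ≤ PP R M0 M1 m * (3*m+2) := Nat.mul_le_mul_left _ (by omega)
      have h4 : PP R M0 M1 m * (3*m+4) = PP R M0 M1 m * (3*m+2) + PP R M0 M1 m + PP R M0 M1 m := by
        ring
      have h5 : t' % PP R M0 M1 l < PP R M0 M1 m :=
        lt_of_lt_of_le (Nat.mod_lt _ (PP_pos hR hM0 hM1 _)) (PP_mono hR hM0 hM1 hlm)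
      omega
    · unfold beta
      have h1 := hL.b.top
      have h5 : (t + t') % PP R M0 M1 (lv g) < PP R M0 M1 m :=
        lt_of_lt_of_le (Nat.mod_lt _ (PP_pos hR hM0 hM1 _)) (PP_mono hR hM0 hM1 hi.le)
      have h4 : PP R M0 M1 m * (3*lv g+3) = PP R M0 M1 m * (3*lv g+2) + PP R M0 M1 m := by ring
      omega
    · unfold beta
      have h1 := hL.b.lt hR hM0 hM1 hi
      have h4 : PP R M0 M1 m * (3*(lv g+1)+2) = PP R M0 M1 m * (3*lv g+4) + PP R M0 M1 m := by ring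
      omega
  · -- bad totals
    intro t₁ t₁' t₂ t₂' g₁ g₁' g₂ g₂' hG hT h1 h1' h2 h2'
    obtain ⟨a1, L1⟩ := nmL_some h1
    obtain ⟨a1', R1⟩ := nmR_some h1'
    obtain ⟨a2, L2⟩ := nmL_some h2
    obtain ⟨a2', R2⟩ := nmR_some h2'
    by_cases hk : ∃ k ∈ Ms, k ∣ t₁ + t₁'
    · exact hbad _ _ _ _ _ _ _ _ a1 a1' a2 a2' hT hk
    · push Not at hk
      obtain rfl : g₁ = g₁' := hgood _ _ _ _ a1 a1' hk
      obtain rfl : g₂ = g₂' := hgood _ _ _ _ a2 a2' (by rwa [← hT])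
      have hl : ∃ l < m, 2 * rho ≤ (Ms1.filter (· ∣ (t₁ + t₁') / PP R M0 M1 l)).card := by
        by_contra hcon
        push Not at hcon
        exact hG ⟨hk, hcon⟩
      obtain ⟨l, hlm, hl⟩ := hl
      have key : ∀ (g : Γ) (t t' σ : ℕ), t + t' = t₁ + t₁' →
          L R M0 M1 m rho Ms1 nL1 g (lv g) t σ → Rt R M0 M1 m rho Ms1 nR1 g (lv g) t' →
          ∃ s s' : Fin (R*M0), lv g = l ∧ s ≠ s' ∧ nL1 (t / PP R M0 M1 l) = some (g, s) ∧
            nR1 (t' / PP R M0 M1 l) = some (g, s') ∧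
            t / PP R M0 M1 l + t' / PP R M0 M1 l = (t₁ + t₁') / PP R M0 M1 l := by
        intro g t t' σ htt hL hRt
        have hlv' : lv g = l := by
          rcases lt_trichotomy (lv g) l with h | h | h
          · have := count_up hR hM0 hM1 hMs1' hL hRt h hlm
            rw [htt] at this
            omega
          · exact h
          · have := count_low hR hM0 hM1 hMs1' hL hRt (hlv g) h
            rw [htt] at this
            omega
        subst hlv'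
        obtain ⟨s, hs, hn⟩ := hL.nm
        obtain ⟨s', hs', hn'⟩ := hRt.nm
        have hd := add_div_of (nocarry hR hM0 hM1 hL.b hRt.b hlm.le)
        refine ⟨s, s', rfl, ?_, hn, hn', ?_⟩
        · rintro rfl
          have := hsame1 _ _ _ hn hn'
          rw [← hd, htt] at this
          omega
        · rw [← hd, htt]
      obtain ⟨s1, s1', -, hs1, n1, n1', d1⟩ := key _ _ _ _ rfl L1 R1
      obtain ⟨s2, s2', -, hs2, n2, n2', d2⟩ := key _ _ _ _ hT.symm L2 R2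
      have := hswap1 _ _ _ _ _ _ _ _ n1 n1' n2 n2' (by rw [d1, d2]) (by simpa using hs1)
        (by simpa using hs2)
      have hgg : g₂ = g₁ := by
        rcases this with h | h
        · exact congrArg Prod.fst h.1
        · exact congrArg Prod.fst h.1
      subst hgg
      exact ⟨rfl, rfl⟩
  · -- completeness
    intro n hn hB
    unfold Bad at hB
    push Not at hB
    obtain ⟨⟨b1, b2⟩, b3, b4⟩ := hB
    refine ⟨⟨b3, fun l hl => ?_⟩, fun g => ?_⟩
    · have := (b4 l hl).2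
      omega
    have hi := hlv g
    set i := lv g with hi'
    obtain ⟨s, hs, hsn, hsr⟩ := hcomp n b3 g
    have hσ1 : n % (R*M0) - s < R*M0 := by omega
    let σ : Fin (R*M0) := ⟨n % (R*M0) - s, hσ1⟩
    obtain ⟨d, hd, hdn, hdr⟩ := hcomp1 (n / PP R M0 M1 i) (b4 i hi).2 (g, σ)
    obtain ⟨c1, c2⟩ := (b4 i hi).1
    -- the two clocks
    set P := PP R M0 M1 i with hP
    have hPpos : 0 < P := PP_pos hR hM0 hM1 i
    set e := n / P % (R*M1) with he
    set A' := n / P / (R*M1) with hA'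
    have hA : n / P = (R*M1) * A' + e := (Nat.div_add_mod _ _).symm
    have hnP : n = P * (n / P) + n % P := (Nat.div_add_mod _ _).symm
    have hq : n % P = (R*M0) * (n % P / (R*M0)) + n % (R*M0) := by
      have h1 := Nat.div_add_mod (n % P) (R*M0)
      rw [Nat.mod_mod_of_dvd n (D0_dvd i)] at h1
      omega
    obtain ⟨y, hy⟩ : ∃ y, m = i + 1 + y := ⟨m - (i+1), by omega⟩
    have hPm' : PP R M0 M1 m = P * ((R*M1) * (R*M1)^y) := by
      rw [hP]
      unfold PP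
      rw [hy]
      ring
    set Z := (R*M1)^y * (3*i+3) with hZ
    have hPZ : PP R M0 M1 m * (3*i+3) = P * ((R*M1) * Z) := by
      rw [hPm', hZ]; ring
    set u := n % P - (n % (R*M0) - s) with hu
    have hu1 : u + (n % (R*M0) - s) = n % P := by omega
    have hu2 : u = (R*M0) * (n % P / (R*M0)) + s := by omega
    have hnPlt : n % P < P := Nat.mod_lt _ hPpos
    have huP : u < P := by omega
    have hM0R : M0 ≤ R * M0 := Nat.le_mul_of_pos_left _ hR
    have hM1R : M1 ≤ R * M1 := Nat.le_mul_of_pos_left _ hR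
    have husD : u % (R*M0) = s := by
      rw [hu2, Nat.mul_add_mod, Nat.mod_eq_of_lt (by omega)]
    have hD1 : 0 < R * M1 := by positivity
    have hsuc : PP R M0 M1 (i+1) = P * (R*M1) := PP_succ i
    have hZA : Z ≤ A' := by
      by_contra hcon
      have h1 : A' + 1 ≤ Z := by omega
      have h2 : P * ((R*M1) * (A'+1)) ≤ P * ((R*M1) * Z) :=
        Nat.mul_le_mul_left _ (Nat.mul_le_mul_left _ h1)
      have h3 : P * ((R*M1) * (A'+1)) = P * ((R*M1)*A') + P * (R*M1) := by ring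
      have h4 : P * (e + 1) ≤ P * (R*M1) := Nat.mul_le_mul_left _ (by
        have := Nat.mod_lt (n/P) hD1
        omega)
      have h5 : P * (e+1) = P * e + P := by ring
      have h6 : n = P * ((R*M1)*A') + P * e + n % P := by
        conv_lhs => rw [hnP, hA]
        ring
      have h7 : PP R M0 M1 m * (3*i+3) ≤ PP R M0 M1 m * (3*m+4) :=
        Nat.mul_le_mul_left _ (by omega)
      omega
    set t := P * ((R*M1) * Z + d) + u with ht
    set t' := P * ((R*M1) * (A' - Z) + (e - d)) + (n % (R*M0) - s) with ht'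
    have hσP : n % (R*M0) - s < P := by omega
    have htt : t + t' = n := by
      have h1 : t + t' = P * ((R*M1) * (Z + (A' - Z)) + (d + (e - d))) + (u + (n % (R*M0) - s)) := by
        rw [ht, ht']; ring
      rw [h1, hu1, Nat.add_sub_cancel' hZA, Nat.add_sub_cancel' (by omega : d ≤ e), ← hA, ← hnP]
    have htP : t / P = (R*M1) * Z + d := div_eq_of ht huP
    have htP' : t' / P = (R*M1) * (A' - Z) + (e - d) := div_eq_of ht' hσP
    have htd : t / P % (R*M1) = d := by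
      rw [htP, Nat.mul_add_mod, Nat.mod_eq_of_lt (by omega)]
    have htd' : t' / P % (R*M1) = e - d := by
      rw [htP', Nat.mul_add_mod, Nat.mod_eq_of_lt]
      have := Nat.mod_lt (n/P) hD1
      omega
    have htD : t % (R*M0) = s := by
      have h1 : t % (R*M0) = t % P % (R*M0) := (Nat.mod_mod_of_dvd t (D0_dvd i)).symm
      rw [h1, ht, Nat.mul_add_mod, Nat.mod_eq_of_lt huP, husD]
    have htP2 : t' % P = n % (R*M0) - s := by
      rw [ht', Nat.mul_add_mod, Nat.mod_eq_of_lt hσP]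
    have htD' : t' % (R*M0) = n % (R*M0) - s := by
      have h1 : t' % (R*M0) = t' % P % (R*M0) := (Nat.mod_mod_of_dvd t' (D0_dvd i)).symm
      rw [h1, htP2, Nat.mod_eq_of_lt hσ1]
    have htop : t = PP R M0 M1 m * (3*i+3) + t % PP R M0 M1 (i+1) := by
      have h1 : t % PP R M0 M1 (i+1) = P * d + u := by
        rw [hsuc, Nat.mod_mul, htd, ht, Nat.mul_add_mod, Nat.mod_eq_of_lt huP]
        ring
      rw [h1, hPZ, ht]
      ring
    have hL0 : L0 R M0 M1 m i t := ⟨by rw [htD]; exact hs, htop, by rw [← hP, htd]; exact hd⟩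
    have hR0 : R0 R M0 M1 i t' := ⟨by rw [htD']; omega, by rw [← hP, htP2, htD'],
      by rw [← hP, htd']; omega⟩
    have hLt : L R M0 M1 m rho Ms1 nL1 g i t σ := by
      refine ⟨hL0, ⟨σ, rfl, ?_⟩, ?_⟩
      · rw [← hP, ← perL1, htd, hdn]
      · intro l hl
        rw [← filter_low hR hM0 hM1 hMs1' hL0 hR0 hi hl, htt]
        exact (b4 l (by omega)).2
    have hRt : Rt R M0 M1 m rho Ms1 nR1 g i t' := by
      refine ⟨hR0, ⟨σ, htD'.symm, ?_⟩, ?_, ?_⟩
      · rw [← hP, ← perR1, htd']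
        apply hdr
        rw [Nat.add_sub_cancel' (by omega : d ≤ e)]
        exact Nat.mod_mod_of_dvd _ (dvd_mul_left _ _)
      · intro l hl hlm
        rw [← filter_up hR hM0 hM1 hMs1' hL0 hR0 hl hlm, htt]
        exact (b4 l hlm).2
      · have h1 := hL0.lt hR hM0 hM1 hi
        have h2 : PP R M0 M1 m * (3*i+4) ≤ PP R M0 M1 m * (3*m+4) :=
          Nat.mul_le_mul_left _ (by omega)
        omega
    refine ⟨t, t', htt, nmL_of (σ := σ) ?_ hLt, nmR_of ?_ hRt⟩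
    · rw [← perL, htD, hsn]
    · rw [← perR, htD']
      apply hsr
      rw [Nat.add_sub_cancel' (by omega : s ≤ n % (R*M0))]
      exact Nat.mod_mod_of_dvd _ (dvd_mul_left _ _)

  · intro t ht
    have hs : nRs (t + PP R M0 M1 m) = nRs t := by rw [← perR, mod_per0, perR]
    unfold nmR
    rw [hs]
    refine if_congr (exists_congr fun γ => and_congr_right fun _ => ?_) rfl rfl
    exact Rt_per hR hM0 hM1 hMs1' hpR1 (hlv γ) ht
  · intro t l ht hl hne
    have hs : nRs (t + PP R M0 M1 m) = nRs t := by rw [← perR, mod_per0, perR]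
    obtain ⟨γ, hγ⟩ := Option.ne_none_iff_exists'.1 hne
    obtain ⟨e2, -⟩ := nmR_some hγ
    have hb : ∀ t, nRs t = some γ → bR R M0 M1 m lv nRs t l = PP R M0 M1 m * (3 * lv γ + 3) +
        (t - t % PP R M0 M1 l) - PP R M0 M1 m * (3*l+2) := by
      intro t ht
      unfold bR; rw [ht]
    rw [hb t e2, hb _ (hs.trans e2), mod_per _ hl]
    have h5 : t % PP R M0 M1 l < PP R M0 M1 m :=
      lt_of_lt_of_le (Nat.mod_lt _ (PP_pos hR hM0 hM1 _)) (PP_mono hR hM0 hM1 hl)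
    have h3 : PP R M0 M1 m * (3*l+2) ≤ PP R M0 M1 m * (3*m+2) := Nat.mul_le_mul_left _ (by omega)
    have h4 : PP R M0 M1 m * (3*m+4) = PP R M0 M1 m * (3*m+2) + PP R M0 M1 m + PP R M0 M1 m := by
      ring
    omega

end Crest.Agent.R320.Clk2_675
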