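import Mathlib
import Crest.Agent.R320.Noise_513

/-! Row 320, team U, leaf U3: the U-gadget in word form from the clocks (structure `Clk`) and the
explicit noise of `Noise_513`. -/

set_option autoImplicit false

namespace Crest.Agent.R320.UG811

open Finset

/-- piece of a word between two places -/
def sg {α : Type} (u : List α) (a b : ℕ) : List α := (u.drop a).take (b - a)

theorem split3 {α : Type} (u : List α) (a b : ℕ) (h : a ≤ b) :
    u = u.take a ++ sg u a b ++ u.drop b := by
  have h2 : u.drop b = (u.drop a).drop (b - a) := by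
    rw [List.drop_drop]; congr 1; omega
  rw [h2, List.append_assoc, sg, List.take_append_drop, List.take_append_drop]

theorem take_pre {α : Type} (p q : List α) (k : ℕ) (h : k ≤ p.length) :
    (p ++ q).take k = p.take k := List.take_append_of_le_length h

theorem sg_pre {α : Type} (p q : List α) (a b : ℕ) (hab : a ≤ b) (h : b ≤ p.length) :
    sg (p ++ q) a b = sg p a b := by
  unfold sg
  rw [List.drop_append_of_le_length (by omega), List.take_append_of_le_length]
  rw [List.length_drop]; omega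

theorem drop_suf {α : Type} (p q : List α) (k : ℕ) (h : p.length ≤ k) :
    (p ++ q).drop k = q.drop (k - p.length) := by
  rw [List.drop_append, List.drop_eq_nil_of_le h, List.nil_append]

theorem sg_suf {α : Type} (p q : List α) (a b : ℕ) (h : p.length ≤ a) (hab : a ≤ b) :
    sg (p ++ q) a b = sg q (a - p.length) (b - p.length) := by
  unfold sg
  rw [drop_suf p q a h]
  congr 1
  omega

theorem sum_split {m : ℕ} {W : Type} [AddCommGroup W] (f : Fin m → W) (i : Fin m) :
    ∑ l, f l = (∑ l with l < i, f l) + f i + ∑ l with i < l, f l := by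
  classical
  have h1 : ∀ l, f l = (if l < i then f l else 0) + (if l = i then f l else 0)
      + (if i < l then f l else 0) := by
    intro l
    rcases lt_trichotomy l i with h | h | h
    · have : ¬ l = i := ne_of_lt h
      have h' : ¬ i < l := not_lt.2 h.le
      simp [h, this, h']
    · subst h; simp
    · have : ¬ l = i := ne_of_gt h
      have h' : ¬ l < i := not_lt.2 h.le
      simp [h, this, h']
  rw [Finset.sum_congr rfl (fun l _ => h1 l), Finset.sum_add_distrib, Finset.sum_add_distrib,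
    Finset.sum_filter, Finset.sum_filter]
  simp

section
variable {S V W : Type} [Monoid S] [AddCommGroup V] [AddCommGroup W]

/-- the data of a name -/
structure Raw (S V W : Type) (m : ℕ) where
  i : Fin m
  g : S
  wl : W
  h : S
  wr : W
  v : V

/-- a used name: the line is good -/
def Good {m : ℕ} (act : V → S → V) (e : Fin m → S → W) (F : S → W → V) (c : Raw S V W m) : Prop :=
  ∃ b, ∀ z, F (c.g * z * c.h) (c.wl + e c.i z + c.wr) + act c.v (c.g * z * c.h) = b

/-- names -/
def Nm {m : ℕ} (act : V → S → V) (e : Fin m → S → W) (F : S → W → V) : Type :=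
  {c : Raw S V W m // Good act e F c}

noncomputable def bval {m : ℕ} {act : V → S → V} {e : Fin m → S → W} {F : S → W → V}
    (c : Nm act e F) : V := c.2.choose

theorem bval_spec {m : ℕ} {act : V → S → V} {e : Fin m → S → W} {F : S → W → V}
    (c : Nm act e F) (z : S) :
    F (c.1.g * z * c.1.h) (c.1.wl + e c.1.i z + c.1.wr) + act c.1.v (c.1.g * z * c.1.h) = bval c :=
  c.2.choose_spec z

theorem raw_finite (S V W : Type) (m : ℕ) [Finite S] [Finite V] [Finite W] :
    Finite (Raw S V W m) := by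
  have : Function.Injective (fun c : Raw S V W m => (c.i, c.g, c.wl, c.h, c.wr, c.v)) := by
    intro a b h
    cases a; cases b
    simp only [Prod.mk.injEq] at h
    obtain ⟨h1, h2, h3, h4, h5, h6⟩ := h
    subst h1 h2 h3 h4 h5 h6
    rfl
  exact Finite.of_injective _ this

instance {m : ℕ} (act : V → S → V) (e : Fin m → S → W) (F : S → W → V)
    [Finite S] [Finite V] [Finite W] : Finite (Nm act e F) := by
  have := raw_finite S V W m
  unfold Nm
  infer_instance

end

/-- The clocks (leaf U2 of #13273) as a structure. `be n l` = boundary of level `l` in a zone with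
`n` comb steps. -/
structure Clk (m : ℕ) (Γ C : Type) (lv : Γ → ℕ) (col : Γ → C) where
  N0 : ℕ
  nmL : ℕ → Option Γ
  nmR : ℕ → Option Γ
  bL : ℕ → ℕ → ℕ
  bR : ℕ → ℕ → ℕ
  be : ℕ → ℕ → ℕ
  Gd : ℕ → Prop
  Bd : ℕ → Prop
  mono : ∀ n l, l < m → be n l ≤ be n (l + 1)
  hL : ∀ t g, nmL t = some g → t < N0
  hR : ∀ t g, nmR t = some g → N0 ≤ t
  ex : ∀ t t' g g', Gd (t + t') → nmL t = some g → nmR t' = some g' →
    g = g' ∧ (∀ l, l ≤ lv g → bL t l = be (t + t') l) ∧
    (∀ l, lv g < l → l ≤ m → bR t' l + be (t + t') l = t + t') ∧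
    be (t + t') (lv g) ≤ t ∧ t ≤ be (t + t') (lv g + 1)
  nex : ∀ t₁ t₁' t₂ t₂' g₁ g₁' g₂ g₂', ¬ Gd (t₁ + t₁') → t₁ + t₁' = t₂ + t₂' →
    nmL t₁ = some g₁ → nmR t₁' = some g₁' → nmL t₂ = some g₂ → nmR t₂' = some g₂' →
    col g₁ = col g₂ ∧ col g₁' = col g₂'
  comp : ∀ n, 2 * N0 ≤ n → ¬ Bd n → Gd n ∧
    ∀ g, ∃ t t', t + t' = n ∧ nmL t = some g ∧ nmR t' = some g

section gadget
variable {S V W : Type} [Monoid S] [AddCommGroup V] [AddCommGroup W] {m : ℕ}
  {act : V → S → V} {e : Fin m → S → W} {F : S → W → V}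
  {α : Type} (φ : List α → S) (Mp : ℕ)
  (K : Clk m (Nm act e F) (V × V) (fun c => c.1.i.val) (fun c => (c.1.v, bval c)))

/-- left legality with name `c` -/
def LC (p : List α) (c : Nm act e F) : Prop :=
  Mp ∣ p.length ∧ K.nmL (p.length / Mp) = some c ∧
  φ (p.take (Mp * K.bL (p.length / Mp) c.1.i)) = c.1.g ∧
  (∑ l with l < c.1.i, e l (φ (sg p (Mp * K.bL (p.length / Mp) l)
    (Mp * K.bL (p.length / Mp) (l + 1))))) = c.1.wl

/-- offset in the right word -/
def off (q : List α) (l : ℕ) : ℕ :=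
  q.length - (Mp * K.bR (q.length / Mp) l + q.length % Mp)

/-- right legality with name `c` -/
def RC (q : List α) (c : Nm act e F) : Prop :=
  K.nmR (q.length / Mp) = some c ∧
  φ (q.drop (off Mp K q (c.1.i + 1))) = c.1.h ∧
  (∑ l with c.1.i < l, e l (φ (sg q (off Mp K q l) (off Mp K q (l + 1))))) = c.1.wr

open Classical in
noncomputable def lam (p : List α) : Option V :=
  if h : ∃ c, LC φ Mp K p c then some h.choose.1.v else none

open Classical in
noncomputable def rho (q : List α) : Option V :=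
  if h : ∃ c, RC φ Mp K q c then some (bval h.choose) else none

/-- type of the zone -/
noncomputable def wt (u : List α) : W :=
  ∑ l : Fin m, e l (φ (sg u (Mp * K.be (u.length / Mp) l) (Mp * K.be (u.length / Mp) (l + 1))))

open Classical in
noncomputable def nu (u : List α) : V :=
  if K.Gd (u.length / Mp) then F (φ u) (wt φ Mp K u)
  else if h : ∃ x : Nm act e F × Nm act e F, ∃ t t', t + t' = u.length / Mp ∧
      K.nmL t = some x.1 ∧ K.nmR t' = some x.2 then
    bval h.choose.2 - act h.choose.1.1.v (φ u)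
  else 0

theorem lam_some (p : List α) (v : V) (h : lam φ Mp K p = some v) :
    ∃ c, LC φ Mp K p c ∧ c.1.v = v := by
  unfold lam at h
  split_ifs at h with h1
  exact ⟨h1.choose, h1.choose_spec, by simpa using h⟩

theorem rho_some (q : List α) (r : V) (h : rho φ Mp K q = some r) :
    ∃ c, RC φ Mp K q c ∧ bval c = r := by
  unfold rho at h
  split_ifs at h with h1
  exact ⟨h1.choose, h1.choose_spec, by simpa using h⟩

theorem LC_lam (p : List α) (c : Nm act e F) (h : LC φ Mp K p c) :
    lam φ Mp K p = some c.1.v := by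
  unfold lam
  have h1 : ∃ c, LC φ Mp K p c := ⟨c, h⟩
  rw [dif_pos h1]
  have h2 := h1.choose_spec.2.1
  rw [h.2.1] at h2
  rw [← Option.some.inj h2]

theorem RC_rho (q : List α) (c : Nm act e F) (h : RC φ Mp K q c) :
    rho φ Mp K q = some (bval c) := by
  unfold rho
  have h1 : ∃ c, RC φ Mp K q c := ⟨c, h⟩
  rw [dif_pos h1]
  have h2 := h1.choose_spec.1
  rw [h.1] at h2
  rw [← Option.some.inj h2]

include K in
theorem be_le (n : ℕ) {a b : ℕ} (hab : a ≤ b) (hb : b ≤ m) : K.be n a ≤ K.be n b := by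
  induction b, hab using Nat.le_induction with
  | base => exact le_rfl
  | succ b hab ih => exact (ih (by omega)).trans (K.mono n b (by omega))

/-- the left word reads the true data -/
theorem left_data (hMp : 0 < Mp) (p q : List α) (c : Nm act e F) (n : ℕ)
    (hp : Mp ∣ p.length)
    (h1 : ∀ l, l ≤ c.1.i.val → K.bL (p.length / Mp) l = K.be n l)
    (h2 : K.be n c.1.i.val ≤ p.length / Mp) :
    p.take (Mp * K.bL (p.length / Mp) c.1.i) = (p ++ q).take (Mp * K.be n c.1.i) ∧
    (∑ l with l < c.1.i, e l (φ (sg p (Mp * K.bL (p.length / Mp) l)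
      (Mp * K.bL (p.length / Mp) (l + 1))))) =
    ∑ l with l < c.1.i, e l (φ (sg (p ++ q) (Mp * K.be n l) (Mp * K.be n (l + 1)))) := by
  have hlen : Mp * (p.length / Mp) = p.length := Nat.mul_div_cancel' hp
  have h3 : Mp * K.be n c.1.i.val ≤ p.length := by
    calc Mp * K.be n c.1.i.val ≤ Mp * (p.length / Mp) := Nat.mul_le_mul_left _ h2
      _ = p.length := hlen
  refine ⟨?_, ?_⟩
  · rw [h1 _ le_rfl, take_pre p q _ h3]
  · refine Finset.sum_congr rfl (fun l hl => ?_)
    have hl' : l < c.1.i := (Finset.mem_filter.1 hl).2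
    have hl2 : l.val + 1 ≤ c.1.i.val := hl'
    rw [h1 _ (by omega), h1 _ hl2]
    have h4 : K.be n (l.val + 1) ≤ K.be n c.1.i.val := be_le K n hl2 (by omega)
    have h5 : K.be n l.val ≤ K.be n (l.val + 1) := be_le K n (by omega) (by omega)
    rw [sg_pre p q _ _ (Nat.mul_le_mul_left _ h5) ((Nat.mul_le_mul_left _ h4).trans h3)]

/-- the offset of the right word -/
theorem off_eq (hMp : 0 < Mp) (p q : List α) (t l : ℕ) (hp : p.length = Mp * t)
    (h : K.bR (q.length / Mp) l + K.be (t + q.length / Mp) l = t + q.length / Mp)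
    (ht : t ≤ K.be (t + q.length / Mp) l) :
    off Mp K q l = Mp * K.be (t + q.length / Mp) l - p.length := by
  unfold off
  have h1 : Mp * (q.length / Mp) + q.length % Mp = q.length := Nat.div_add_mod _ _
  have h2 : K.bR (q.length / Mp) l ≤ q.length / Mp := by omega
  have h3 : Mp * K.be (t + q.length / Mp) l - Mp * t
      = Mp * (q.length / Mp) - Mp * K.bR (q.length / Mp) l := by
    rw [← Nat.mul_sub, ← Nat.mul_sub]
    congr 1; omega
  rw [hp, h3]
  omega

theorem right_data (hMp : 0 < Mp) (p q : List α) (c : Nm act e F) (t : ℕ)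
    (hp : p.length = Mp * t)
    (h1 : ∀ l, c.1.i.val < l → l ≤ m →
      K.bR (q.length / Mp) l + K.be (t + q.length / Mp) l = t + q.length / Mp)
    (h2 : t ≤ K.be (t + q.length / Mp) (c.1.i.val + 1)) :
    q.drop (off Mp K q (c.1.i + 1)) = (p ++ q).drop (Mp * K.be (t + q.length / Mp) (c.1.i + 1)) ∧
    (∑ l with c.1.i < l, e l (φ (sg q (off Mp K q l) (off Mp K q (l + 1))))) =
    ∑ l with c.1.i < l, e l (φ (sg (p ++ q) (Mp * K.be (t + q.length / Mp) l)
      (Mp * K.be (t + q.length / Mp) (l + 1)))) := by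
  have hge : ∀ l, c.1.i.val < l → l ≤ m → t ≤ K.be (t + q.length / Mp) l := fun l hl hl' =>
    h2.trans (be_le K _ (by omega) hl')
  have hge' : ∀ l, c.1.i.val < l → l ≤ m → p.length ≤ Mp * K.be (t + q.length / Mp) l :=
    fun l hl hl' => by rw [hp]; exact Nat.mul_le_mul_left _ (hge l hl hl')
  have hi : c.1.i.val + 1 ≤ m := c.1.i.2
  refine ⟨?_, ?_⟩
  · rw [drop_suf p q _ (hge' _ (by omega) hi),
      off_eq Mp K hMp p q t _ hp (h1 _ (by omega) hi) (hge _ (by omega) hi)]
  · refine Finset.sum_congr rfl (fun l hl => ?_)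
    have hl' : c.1.i.val < l.val := (Finset.mem_filter.1 hl).2
    have hlm : l.val + 1 ≤ m := l.2
    rw [off_eq Mp K hMp p q t _ hp (h1 _ hl' (by omega)) (hge _ hl' (by omega)),
      off_eq Mp K hMp p q t _ hp (h1 _ (by omega) hlm) (hge _ (by omega) hlm),
      sg_suf p q _ _ (hge' _ hl' (by omega))
        (Nat.mul_le_mul_left _ (be_le K _ (by omega) hlm))]

include K in
/-- SOUND -/
theorem sound (hφ : ∀ u v, φ (u ++ v) = φ u * φ v) (hMp : 0 < Mp) (p q : List α) (v r : V)
    (hl : lam φ Mp K p = some v) (hr : rho φ Mp K q = some r) :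
    r = act v (φ (p ++ q)) + nu φ Mp K (p ++ q) := by
  obtain ⟨c, hc, rfl⟩ := lam_some φ Mp K p v hl
  obtain ⟨c', hc', rfl⟩ := rho_some φ Mp K q r hr
  obtain ⟨hp, hn, hg, hwl⟩ := hc
  obtain ⟨hn', hh, hwr⟩ := hc'
  obtain ⟨t, ht⟩ := hp
  have hdiv : p.length / Mp = t := by rw [ht]; exact Nat.mul_div_cancel_left _ hMp
  have hlen : (p ++ q).length / Mp = t + q.length / Mp := by
    rw [List.length_append, ht, Nat.mul_add_div hMp]
  have htt : Mp ∣ p.length := ⟨t, ht⟩
  rw [hdiv] at hn
  unfold nu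
  rw [hlen]
  by_cases hG : K.Gd (t + q.length / Mp)
  · rw [if_pos hG]
    obtain ⟨hcc, hbl, hbr, hle, hge⟩ := K.ex t (q.length / Mp) c c' hG hn hn'
    subst hcc
    have hL := left_data (e := e) φ Mp K hMp p q c (t + q.length / Mp) htt
      (by rw [hdiv]; exact hbl) (by rw [hdiv]; exact hle)
    have hR := right_data (e := e) φ Mp K hMp p q c t ht hbr hge
    rw [hL.1] at hg
    rw [hL.2] at hwl
    rw [hR.1] at hh
    rw [hR.2] at hwr
    have hmono : Mp * K.be (t + q.length / Mp) c.1.i.val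
        ≤ Mp * K.be (t + q.length / Mp) (c.1.i.val + 1) :=
      Nat.mul_le_mul_left _ (be_le K _ (by omega) c.1.i.2)
    have hu := split3 (p ++ q) _ _ hmono
    have hφu : φ (p ++ q) = c.1.g * φ (sg (p ++ q) (Mp * K.be (t + q.length / Mp) c.1.i)
        (Mp * K.be (t + q.length / Mp) (c.1.i + 1))) * c.1.h := by
      conv_lhs => rw [hu]
      rw [hφ, hφ, hg, hh]
    have hw : wt φ Mp K (p ++ q) = c.1.wl + e c.1.i (φ (sg (p ++ q)
        (Mp * K.be (t + q.length / Mp) c.1.i) (Mp * K.be (t + q.length / Mp) (c.1.i + 1))))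
        + c.1.wr := by
      unfold wt
      rw [hlen, sum_split _ c.1.i, hwl, hwr]
    rw [hw, hφu, ← bval_spec c]
    abel
  · rw [if_neg hG]
    have hex : ∃ x : Nm act e F × Nm act e F, ∃ t₁ t₁', t₁ + t₁' = t + q.length / Mp ∧
      K.nmL t₁ = some x.1 ∧ K.nmR t₁' = some x.2 := ⟨(c, c'), t, q.length / Mp, rfl, hn, hn'⟩
    rw [dif_pos hex]
    obtain ⟨t₁, t₁', h1, h2, h3⟩ := hex.choose_spec
    have := K.nex t (q.length / Mp) t₁ t₁' c c' _ _ hG h1.symm hn hn' h2 h3
    have hv : c.1.v = hex.choose.1.1.v := (Prod.mk.inj this.1).1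
    have hb : bval c' = bval hex.choose.2 := (Prod.mk.inj this.2).2
    rw [← hv, ← hb]
    abel

include K in
/-- COMPLETE -/
theorem complete (hφ : ∀ u v, φ (u ++ v) = φ u * φ v) (hMp : 0 < Mp)
    (hF : ∀ (s : S) (w : W) (v : V), ∃ i : Fin m, ∀ g x h : S, g * x * h = s →
        ∀ z : S, F (g * z * h) (w - e i x + e i z) + act v (g * z * h) = F s w + act v s)
    (u : List α) (hu : 2 * (Mp * K.N0) ≤ u.length) (hB : ¬ K.Bd (u.length / Mp)) (v : V) :
    ∃ p q, p ++ q = u ∧ lam φ Mp K p = some v ∧ (rho φ Mp K q).isSome := by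
  set n := u.length / Mp with hn
  have hn0 : 2 * K.N0 ≤ n := by
    rw [hn, Nat.le_div_iff_mul_le hMp]
    calc 2 * K.N0 * Mp = 2 * (Mp * K.N0) := by ring
      _ ≤ u.length := hu
  obtain ⟨hG, hall⟩ := K.comp n hn0 hB
  obtain ⟨i, hi⟩ := hF (φ u) (wt φ Mp K u) v
  set a := Mp * K.be n i with ha
  set b := Mp * K.be n (i + 1) with hb
  have hab : a ≤ b := Nat.mul_le_mul_left _ (be_le K _ (by omega) i.2)
  set g := φ (u.take a) with hg
  set x := φ (sg u a b) with hx
  set h := φ (u.drop b) with hh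
  set wl : W := ∑ l with l < i, e l (φ (sg u (Mp * K.be n l) (Mp * K.be n (l + 1)))) with hwl
  set wr : W := ∑ l with i < l, e l (φ (sg u (Mp * K.be n l) (Mp * K.be n (l + 1)))) with hwr
  have hs : g * x * h = φ u := by
    conv_rhs => rw [split3 u a b hab]
    rw [hφ, hφ]
  have hw : wt φ Mp K u = wl + e i x + wr := by
    unfold wt
    rw [← hn, sum_split _ i]
  have hgood : ∀ z, F (g * z * h) (wl + e i z + wr) + act v (g * z * h)
      = F (φ u) (wt φ Mp K u) + act v (φ u) := by
    intro z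
    have := hi g x h hs z
    rw [hw] at this ⊢
    rw [← this]
    congr 2
    abel
  let c : Nm act e F := ⟨⟨i, g, wl, h, wr, v⟩, ⟨_, hgood⟩⟩
  obtain ⟨t, t', htt, h1, h2⟩ := hall c
  have hMn : Mp * n ≤ u.length := by rw [hn]; exact Nat.mul_div_le _ _
  have htn : Mp * t ≤ u.length := (Nat.mul_le_mul_left _ (by omega)).trans hMn
  have hplen : (u.take (Mp * t)).length = Mp * t := by
    rw [List.length_take]; exact min_eq_left htn
  have hqlen : (u.drop (Mp * t)).length = u.length - Mp * t := List.length_drop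
  have hq' : (u.drop (Mp * t)).length / Mp = t' := by
    rw [hqlen, Nat.sub_mul_div, ← hn]; omega
  have hpu : u.take (Mp * t) ++ u.drop (Mp * t) = u := List.take_append_drop _ _
  have hpdiv : (u.take (Mp * t)).length / Mp = t := by
    rw [hplen]; exact Nat.mul_div_cancel_left _ hMp
  obtain ⟨-, hbl, hbr, hle, hge⟩ := K.ex t t' c c (by rw [htt]; exact hG) h1 h2
  have hL := left_data (e := e) φ Mp K hMp (u.take (Mp * t)) (u.drop (Mp * t)) c n
    ⟨t, hplen⟩ (by rw [hpdiv, ← htt]; exact hbl) (by rw [hpdiv, ← htt]; exact hle)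
  have hR := right_data (e := e) φ Mp K hMp (u.take (Mp * t)) (u.drop (Mp * t)) c t
    hplen (by rw [hq']; exact hbr) (by rw [hq']; exact hge)
  rw [hpu] at hL hR
  rw [hq', htt] at hR
  refine ⟨u.take (Mp * t), u.drop (Mp * t), hpu, ?_, ?_⟩
  · refine LC_lam φ Mp K _ c ⟨⟨t, hplen⟩, by rw [hpdiv]; exact h1, ?_, ?_⟩
    · rw [hL.1]
    · rw [hL.2]
  · rw [RC_rho φ Mp K _ c ⟨by rw [hq']; exact h2, ?_, ?_⟩]
    · rfl
    · rw [hR.1]
    · rw [hR.2]

theorem lam_len (hMp : 0 < Mp) (p : List α) (v : V) (h : lam φ Mp K p = some v) :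
    Mp ∣ p.length ∧ p.length ≤ Mp * K.N0 := by
  obtain ⟨c, hc, -⟩ := lam_some φ Mp K p v h
  refine ⟨hc.1, ?_⟩
  have := K.hL _ _ hc.2.1
  calc p.length = Mp * (p.length / Mp) := (Nat.mul_div_cancel' hc.1).symm
    _ ≤ Mp * K.N0 := Nat.mul_le_mul_left _ this.le

theorem rho_len (hMp : 0 < Mp) (q : List α) (r : V) (h : rho φ Mp K q = some r) :
    Mp * K.N0 ≤ q.length := by
  obtain ⟨c, hc, -⟩ := rho_some φ Mp K q r h
  have := K.hR _ _ hc.1
  calc Mp * K.N0 ≤ Mp * (q.length / Mp) := Nat.mul_le_mul_left _ this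
    _ ≤ q.length := Nat.mul_div_le _ _

end gadget

end Crest.Agent.R320.UG811
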