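import Mathlib
import Crest.Agent.R320.Names_755
import Crest.Agent.R320.UG_811

/-! Row 320: clocks by coprime moduli (658 #13725) as an instance of `UG811.Clk`. -/

set_option autoImplicit false

namespace Crest.Agent.R320.ClkCop_934

open Crest.Agent.R320.UG811

section arith
variable (R M m : ℕ)

def Tp : ℕ := R ^ m * M
def Aa (l : ℕ) : ℕ := l * (3 * Tp R M m)
def lo (l : ℕ) : ℕ := Aa R M m l + Tp R M m

theorem Aa_succ (l : ℕ) : Aa R M m (l + 1) = Aa R M m l + 3 * Tp R M m := Nat.succ_mul _ _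

theorem Aa_mono {l l' : ℕ} (h : l ≤ l') : Aa R M m l ≤ Aa R M m l' :=
  Nat.mul_le_mul_right _ h

theorem dvd_Tp {l : ℕ} (h : l ≤ m) : R ^ l ∣ Tp R M m :=
  Dvd.dvd.mul_right (pow_dvd_pow R h) M

theorem dvd_Aa {l : ℕ} (h : l ≤ m) (k : ℕ) : R ^ l ∣ Aa R M m k :=
  Dvd.dvd.mul_left (Dvd.dvd.mul_left (dvd_Tp R M m h) 3) k

theorem dvd_lo {l : ℕ} (h : l ≤ m) (k : ℕ) : R ^ l ∣ lo R M m k :=
  Nat.dvd_add (dvd_Aa R M m h k) (dvd_Tp R M m h)

theorem M_dvd_lo (k : ℕ) : M ∣ lo R M m k := by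
  have h : M ∣ Tp R M m := Dvd.intro_left _ rfl
  exact Nat.dvd_add (Dvd.dvd.mul_left (Dvd.dvd.mul_left h 3) k) h

theorem RM_le (hR : 0 < R) {l : ℕ} (h : l ≤ m) : R ^ l * M ≤ Tp R M m :=
  Nat.mul_le_mul_right _ (Nat.pow_le_pow_right hR h)

theorem R_le (hR : 0 < R) (hM : 0 < M) {l : ℕ} (h : l ≤ m) : R ^ l ≤ Tp R M m :=
  (Nat.le_mul_of_pos_right _ hM).trans (RM_le R M m hR h)

end arith

section
variable {Γ C : Type} (m R M : ℕ) (lv : Γ → ℕ) (Ms : Finset ℕ) (nL nR : ℕ → Option Γ)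

open Classical in
noncomputable def nmL (t : ℕ) : Option Γ :=
  (nL t).bind fun g => if lo R M m (lv g) ≤ t ∧ t < lo R M m (lv g) + R ^ lv g * M then
    some g else none

def RL (t : ℕ) (g : Γ) : Prop :=
  Aa R M m (m + 1) ≤ t ∧ R ^ lv g ∣ t ∧
    ∀ k, lv g < k → k ≤ m → t % R ^ k + R ^ lv g * M ≤ R ^ k

open Classical in
noncomputable def nmR (t : ℕ) : Option Γ :=
  (nR t).bind fun g => if RL m R M lv t g then some g else none

def bL (t l : ℕ) : ℕ := Aa R M m l + t % R ^ l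

def bR (t l : ℕ) : ℕ :=
  (nR t).elim 0 (fun g => lo R M m (lv g) + t - Aa R M m l - t % R ^ l)

def be (n l : ℕ) : ℕ := min n (Aa R M m l + n % R ^ l)

def Gd (n : ℕ) : Prop := ∀ k ∈ Ms, ¬ k ∣ n

def Bd (n : ℕ) : Prop :=
  (∃ k ∈ Ms, k ∣ n) ∨ ∃ k, 1 ≤ k ∧ k ≤ m ∧
    (n % R ^ k < R ^ (k - 1) * M ∨ R ^ k < n % R ^ k + R ^ (k - 1) * M)

theorem nmL_some {t : ℕ} {g : Γ} : nmL m R M lv nL t = some g ↔
    nL t = some g ∧ lo R M m (lv g) ≤ t ∧ t < lo R M m (lv g) + R ^ lv g * M := by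
  unfold nmL
  cases h : nL t with
  | none => simp
  | some g' =>
    simp only [Option.bind_some]
    split_ifs with h1
    · constructor
      · intro h2
        have h3 : g' = g := Option.some.inj h2
        subst h3
        exact ⟨rfl, h1⟩
      · rintro ⟨h2, _⟩
        exact h2
    · constructor
      · intro h2; cases h2
      · rintro ⟨h2, h3⟩
        have h4 : g' = g := Option.some.inj h2
        subst h4
        exact absurd h3 h1

theorem nmR_some {t : ℕ} {g : Γ} : nmR m R M lv nR t = some g ↔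
    nR t = some g ∧ RL m R M lv t g := by
  unfold nmR
  cases h : nR t with
  | none => simp
  | some g' =>
    simp only [Option.bind_some]
    split_ifs with h1
    · constructor
      · intro h2
        have h3 : g' = g := Option.some.inj h2
        subst h3
        exact ⟨rfl, h1⟩
      · rintro ⟨h2, _⟩
        exact h2
    · constructor
      · intro h2; cases h2
      · rintro ⟨h2, h3⟩
        have h4 : g' = g := Option.some.inj h2
        subst h4
        exact absurd h3 h1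

theorem per_mod (f : ℕ → Option Γ) (hf : ∀ t, f (t + M) = f t) (t : ℕ) : f t = f (t % M) := by
  have h : ∀ k s, f (s + M * k) = f s := by
    intro k
    induction k with
    | zero => intro s; simp
    | succ k ih => intro s; rw [Nat.mul_succ, ← Nat.add_assoc, hf, ih]
  conv_lhs => rw [← Nat.mod_add_div t M]
  exact h _ _

theorem per_modEq (f : ℕ → Option Γ) (hf : ∀ t, f (t + M) = f t) {s t : ℕ}
    (h : s ≡ t [MOD M]) : f s = f t := by
  rw [per_mod M f hf s, per_mod M f hf t, h]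

theorem be_mono (hR : 0 < R) (hM : 0 < M) (n l : ℕ) (hl : l < m) :
    be m R M n l ≤ be m R M n (l + 1) := by
  unfold be
  have h1 := Nat.mod_lt n (Nat.pow_pos (n := l) hR)
  have h2 := R_le R M m hR hM hl.le
  have h3 := Aa_succ R M m l
  exact le_min (min_le_left _ _) ((min_le_right _ _).trans
    (le_trans (by omega) (Nat.le_add_right _ _)))

theorem ex_clk (hR : 0 < R) (hM : 0 < M) (hlv : ∀ g, lv g < m)
    (hex : ∀ t t' c c', nL t = some c → nR t' = some c' → (∀ k ∈ Ms, ¬ k ∣ t + t') → c = c')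
    (t t' : ℕ) (g g' : Γ) (hG : Gd Ms (t + t')) (h1 : nmL m R M lv nL t = some g)
    (h2 : nmR m R M lv nR t' = some g') :
    g = g' ∧ (∀ l, l ≤ lv g → bL m R M t l = be m R M (t + t') l) ∧
    (∀ l, lv g < l → l ≤ m → bR m R M lv nR t' l + be m R M (t + t') l = t + t') ∧
    be m R M (t + t') (lv g) ≤ t ∧ t ≤ be m R M (t + t') (lv g + 1) := by
  rw [nmL_some] at h1
  rw [nmR_some] at h2
  obtain ⟨h1, hlo, hhi⟩ := h1
  obtain ⟨h2, hN, hdv, hk⟩ := h2
  have hgg : g = g' := hex t t' g g' h1 h2 hG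
  subst hgg
  have hm := hlv g
  have key : ∀ l, l ≤ lv g → be m R M (t + t') l = Aa R M m l + t % R ^ l := by
    intro l hl
    have hd : R ^ l ∣ t' := (pow_dvd_pow R hl).trans hdv
    have e : (t + t') % R ^ l = t % R ^ l := by
      obtain ⟨c, hc⟩ := hd
      rw [hc, Nat.add_mul_mod_self_left]
    unfold be
    rw [e]
    have h5 := Nat.mod_lt t (Nat.pow_pos (n := l) hR)
    have h6 := R_le R M m hR hM (show l ≤ m by omega)
    have h7 := Aa_mono R M m hl
    unfold lo at hlo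
    omega
  have hAm : Aa R M m (lv g + 1) ≤ Aa R M m (m + 1) := Aa_mono R M m (by omega)
  refine ⟨rfl, fun l hl => (key l hl).symm, ?_, ?_, ?_⟩
  · intro l hl hlm
    · unfold bR be
      rw [h2]
      simp only [Option.elim_some]
      obtain ⟨y, hy⟩ : ∃ y, t = lo R M m (lv g) + y := ⟨_, (Nat.add_sub_cancel' hlo).symm⟩
      have hy2 : y < R ^ lv g * M := by omega
      have hk2 := hk l hl hlm
      have e : (t + t') % R ^ l = y + t' % R ^ l := by
        obtain ⟨c, hc⟩ := dvd_lo R M m (show l ≤ m by omega) (lv g)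
        have e1 : t + t' = (y + t' % R ^ l) + R ^ l * (c + t' / R ^ l) := by
          have := Nat.mod_add_div t' (R ^ l)
          rw [hy, hc, Nat.mul_add]
          omega
        rw [e1, Nat.add_mul_mod_self_left, Nat.mod_eq_of_lt (by omega)]
      have hA2 : Aa R M m l + 3 * Tp R M m ≤ Aa R M m (m + 1) := by
        have := Aa_mono R M m hlm
        have := Aa_succ R M m m
        omega
      have h6 := R_le R M m hR hM (show l ≤ m by omega)
      have h5 := Nat.mod_lt t' (Nat.pow_pos (n := l) hR)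
      rw [e]
      omega
  · rw [key _ le_rfl]
    have h5 := Nat.mod_lt t (Nat.pow_pos (n := lv g) hR)
    have h6 := R_le R M m hR hM hm.le
    unfold lo at hlo
    omega
  · unfold be
    have h6 := RM_le R M m hR hm.le
    have h7 := Aa_succ R M m (lv g)
    unfold lo at hhi
    exact le_min (by omega) (le_trans (by omega) (Nat.le_add_right _ _))

theorem comp_clk (hR : 0 < R) (hM : 0 < M) (hcop : Nat.Coprime M R) (hlv : ∀ g, lv g < m)
    (hpL : ∀ t, nL (t + M) = nL t)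
    (hco : ∀ T, (∀ k ∈ Ms, ¬ k ∣ T) → ∀ c, ∃ t < M, nL t = some c ∧
        ∀ t', t + t' ≡ T [MOD M] → nR t' = some c)
    (n : ℕ) (hn : 2 * Aa R M m (m + 1) ≤ n) (hB : ¬ Bd m R M Ms n) :
    Gd Ms n ∧ ∀ g, ∃ t t', t + t' = n ∧ nmL m R M lv nL t = some g ∧
      nmR m R M lv nR t' = some g := by
  have hG : Gd Ms n := fun k hk h => hB (Or.inl ⟨k, hk, h⟩)
  refine ⟨hG, fun g => ?_⟩
  obtain ⟨t0, ht0, h1, h2⟩ := hco n hG g
  have hm := hlv g
  have hc : Nat.Coprime M (R ^ lv g) := Nat.Coprime.pow_right _ hcop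
  have hzlt : (Nat.chineseRemainder hc t0 n : ℕ) < M * R ^ lv g :=
    Nat.chineseRemainder_lt_mul hc t0 n hM.ne' (Nat.pow_pos hR).ne'
  have hz := (Nat.chineseRemainder hc t0 n).2
  generalize (Nat.chineseRemainder hc t0 n : ℕ) = z at hzlt hz
  obtain ⟨hz1, hz2⟩ := hz
  rw [Nat.mul_comm] at hzlt
  have h6 := RM_le R M m hR hm.le
  have h7 := Aa_succ R M m (lv g)
  have h8 := Aa_mono R M m (show lv g + 1 ≤ m + 1 by omega)
  have hAm : Aa R M m (lv g + 1) ≤ Aa R M m (m + 1) := h8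
  have hlo : lo R M m (lv g) = Aa R M m (lv g) + Tp R M m := rfl
  have htn : lo R M m (lv g) + z ≤ Aa R M m (m + 1) := by omega
  obtain ⟨t', ht'⟩ : ∃ t', lo R M m (lv g) + z + t' = n :=
    ⟨n - (lo R M m (lv g) + z), Nat.add_sub_cancel' (by omega)⟩
  have hlM : lo R M m (lv g) + z ≡ t0 [MOD M] := by
    have : lo R M m (lv g) ≡ 0 [MOD M] := (Nat.modEq_zero_iff_dvd).2 (M_dvd_lo R M m _)
    simpa using this.add hz1
  have hnL : nL (lo R M m (lv g) + z) = some g := by
    rw [per_modEq M nL hpL hlM, h1]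
  have hnR : nR t' = some g := by
    apply h2
    rw [← ht']
    exact (hlM.symm).add_right t'
  refine ⟨lo R M m (lv g) + z, t', ht', ?_, ?_⟩
  · rw [nmL_some]
    exact ⟨hnL, by omega, by omega⟩
  · rw [nmR_some]
    refine ⟨hnR, by omega, ?_, ?_⟩
    · have e1 : z ≡ lo R M m (lv g) + z + t' [MOD R ^ lv g] := by rw [ht']; exact hz2
      have e2 : lo R M m (lv g) ≡ 0 [MOD R ^ lv g] :=
        (Nat.modEq_zero_iff_dvd).2 (dvd_lo R M m hm.le _)
      have e3 : z + 0 ≡ z + t' [MOD R ^ lv g] := by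
        have := (e2.add_right (z + t'))
        rw [Nat.zero_add, ← Nat.add_assoc] at this
        exact e1.trans this
      have e4 := Nat.ModEq.add_left_cancel' z e3
      exact (Nat.modEq_zero_iff_dvd).1 e4.symm
    · intro k hk1 hk2
      have hb : ¬ (n % R ^ k < R ^ (k - 1) * M ∨ R ^ k < n % R ^ k + R ^ (k - 1) * M) :=
        fun h => hB (Or.inr ⟨k, by omega, hk2, h⟩)
      push Not at hb
      have h9 : R ^ lv g * M ≤ R ^ (k - 1) * M :=
        Nat.mul_le_mul_right _ (Nat.pow_le_pow_right hR (by omega))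
      have hzn : z ≤ n % R ^ k := by omega
      have e5 : t' % R ^ k = n % R ^ k - z := by
        obtain ⟨c, hc⟩ := dvd_lo R M m (show k ≤ m by omega) (lv g)
        have hlt := Nat.mod_lt n (Nat.pow_pos (n := k) hR)
        have e6 : R ^ k * c + t' = (n % R ^ k - z) + R ^ k * (n / R ^ k) := by
          have := Nat.mod_add_div n (R ^ k)
          omega
        have e7 : (R ^ k * c + t') % R ^ k = n % R ^ k - z := by
          rw [e6, Nat.add_mul_mod_self_left, Nat.mod_eq_of_lt (by omega)]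
        rw [← e7, Nat.add_comm, Nat.add_mul_mod_self_left]
      rw [e5]
      omega

end

/-- the clocks -/
noncomputable def clk {Γ C : Type} (m R M : ℕ) (lv : Γ → ℕ) (col : Γ → C) (Ms : Finset ℕ)
    (nL nR : ℕ → Option Γ) (hR : 0 < R) (hM : 0 < M) (hcop : Nat.Coprime M R)
    (hlv : ∀ g, lv g < m)
    (hpL : ∀ t, nL (t + M) = nL t)
    (hex : ∀ t t' c c', nL t = some c → nR t' = some c' → (∀ k ∈ Ms, ¬ k ∣ t + t') → c = c')
    (hco : ∀ T, (∀ k ∈ Ms, ¬ k ∣ T) → ∀ c, ∃ t < M, nL t = some c ∧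
        ∀ t', t + t' ≡ T [MOD M] → nR t' = some c)
    (hcol : ∀ t₁ t₁' t₂ t₂' c₁ c₁' c₂ c₂', nL t₁ = some c₁ → nR t₁' = some c₁' →
        nL t₂ = some c₂ → nR t₂' = some c₂' → t₁ + t₁' = t₂ + t₂' →
        (∃ k ∈ Ms, k ∣ t₁ + t₁') → col c₁ = col c₂ ∧ col c₁' = col c₂') :
    Clk m Γ C lv col where
  N0 := Aa R M m (m + 1)
  nmL := nmL m R M lv nL
  nmR := nmR m R M lv nR
  bL := bL m R M
  bR := bR m R M lv nR
  be := be m R M
  Gd := Gd Ms
  Bd := Bd m R M Ms
  mono := fun n l hl => be_mono m R M hR hM n l hl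
  hL := by
    intro t g h
    rw [nmL_some] at h
    have h6 := RM_le R M m hR (hlv g).le
    have h7 := Aa_succ R M m (lv g)
    have h8 := Aa_mono R M m (show lv g + 1 ≤ m + 1 by have := hlv g; omega)
    have h9 : 0 < Tp R M m := Nat.mul_pos (Nat.pow_pos hR) hM
    have hlo : lo R M m (lv g) = Aa R M m (lv g) + Tp R M m := rfl
    omega
  hR := by
    intro t g h
    rw [nmR_some] at h
    exact h.2.1
  ex := fun t t' g g' hG h1 h2 => ex_clk m R M lv Ms nL nR hR hM hlv hex t t' g g' hG h1 h2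
  nex := by
    intro t₁ t₁' t₂ t₂' g₁ g₁' g₂ g₂' hG h h1 h1' h2 h2'
    rw [nmL_some] at h1 h2
    rw [nmR_some] at h1' h2'
    have : ∃ k ∈ Ms, k ∣ t₁ + t₁' := by
      by_contra hc
      push Not at hc
      exact hG hc
    exact hcol t₁ t₁' t₂ t₂' g₁ g₁' g₂ g₂' h1.1 h1'.1 h2.1 h2'.1 h this
  comp := fun n hn hB => comp_clk m R M lv Ms nL nR hR hM hcop hlv hpL hco n hn hB

end Crest.Agent.R320.ClkCop_934
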