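import Mathlib

set_option autoImplicit false

namespace Crest.Agent.R320.LN_133

open Finset

/-- number of 0/1 functions with prescribed values on `S` -/
lemma card_agree {N : Type} [Fintype N] [DecidableEq N] (S : Finset N) (F : N → Bool) :
    2 ^ Fintype.card N ≤ 2 ^ S.card *
      ((Finset.univ : Finset (N → Bool)).filter (fun A => ∀ x ∈ S, A x = F x)).card := by
  classical
  -- map A ↦ (A restricted to S, modified A)
  let T := (Finset.univ : Finset (N → Bool)).filter (fun A => ∀ x ∈ S, A x = F x)
  let g : (N → Bool) → ({x // x ∈ S} → Bool) × (N → Bool) :=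
    fun A => (fun x => A x.1, fun x => if x ∈ S then F x else A x)
  have hg : Function.Injective g := by
    intro A A' h
    funext x
    by_cases hx : x ∈ S
    · have := congrFun (congrArg Prod.fst h) ⟨x, hx⟩
      simpa [g] using this
    · have := congrFun (congrArg Prod.snd h) x
      simpa [g, hx] using this
  have h1 : (Finset.univ.image g) ⊆ (Finset.univ : Finset ({x // x ∈ S} → Bool)) ×ˢ T := by
    intro y hy
    rcases Finset.mem_image.1 hy with ⟨A, -, rfl⟩
    simp only [Finset.mem_product, Finset.mem_univ, true_and, T, Finset.mem_filter]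
    intro x hx
    simp [g, hx]
  have h2 := Finset.card_le_card h1
  rw [Finset.card_image_of_injective _ hg, Finset.card_product] at h2
  simpa [T, Fintype.card_fun, Fintype.card_bool] using h2

theorem level_names (N : Type) [Finite N] : ∃ ρ : ℕ, 0 < ρ ∧ ∀ B : ℕ,
    ∃ (Ms : Finset ℕ) (M : ℕ) (nmL nmR : ℕ → Option N), Ms.card ≤ 32*ρ ∧
    (∀ k ∈ Ms, B < k ∧ Nat.Prime k ∧ k ∣ M) ∧ 0 < M ∧
    (∀ t, nmL (t+M) = nmL t) ∧ (∀ t, nmR (t+M) = nmR t) ∧
    (∀ t t' c, nmL t = some c → nmR t' = some c → (Ms.filter (· ∣ t+t')).card < 2*ρ) ∧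
    (∀ t t' c c', nmL t = some c → nmR t' = some c' → c ≠ c' →
      2*ρ ≤ (Ms.filter (· ∣ t+t')).card) ∧
    (∀ t₁ t₁' t₂ t₂' c₁ c₁' c₂ c₂', nmL t₁ = some c₁ → nmR t₁' = some c₁' →
      nmL t₂ = some c₂ → nmR t₂' = some c₂' → t₁+t₁' = t₂+t₂' → c₁ ≠ c₁' → c₂ ≠ c₂' →
      (c₂ = c₁ ∧ c₂' = c₁') ∨ (c₂ = c₁' ∧ c₂' = c₁)) ∧
    (∀ T, (Ms.filter (· ∣ T)).card < ρ → ∀ c, ∃ t < M, nmL t = some c ∧
      ∀ t', t+t' ≡ T [MOD M] → nmR t' = some c) := by
  classical
  have := Fintype.ofFinite N
  let D := (N → Bool) × Fin 64
  let n := Fintype.card N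
  refine ⟨2 ^ (n+1), by positivity, fun B => ?_⟩
  let ρ := 2 ^ (n+1)
  have hρ : ρ = 2 * 2 ^ n := by simp [ρ, pow_succ, mul_comm]
  let e := Fintype.equivFin D
  let k : D → ℕ := fun A => Nat.nth Nat.Prime (B + (e A).1)
  have hkp : ∀ A, Nat.Prime (k A) := fun A => Nat.prime_nth_prime _
  have hkB : ∀ A, B < k A := fun A => by
    have := Nat.add_two_le_nth_prime (B + (e A).1)
    simp only [k]; omega
  have hkinj : Function.Injective k := by
    intro A A' h
    have := Nat.nth_injective Nat.infinite_setOfPred_prime h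
    apply e.injective
    apply Fin.ext
    omega
  let Ms : Finset ℕ := Finset.univ.image k
  let M : ℕ := ∏ A : D, k A
  have hdvd : ∀ A, k A ∣ M := fun A => Finset.dvd_prod_of_mem k (Finset.mem_univ A)
  have hMpos : 0 < M := Finset.prod_pos (fun A _ => (hkp A).pos)
  -- counting in D instead of Ms
  have hcount : ∀ T : ℕ, (Ms.filter (· ∣ T)).card =
      ((Finset.univ : Finset D).filter (fun A => k A ∣ T)).card := by
    intro T
    have : Ms.filter (· ∣ T) = ((Finset.univ : Finset D).filter (fun A => k A ∣ T)).image k := by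
      ext x
      simp only [Ms, Finset.mem_filter, Finset.mem_image, Finset.mem_univ, true_and]
      constructor
      · rintro ⟨⟨A, rfl⟩, h⟩; exact ⟨A, h, rfl⟩
      · rintro ⟨A, h, rfl⟩; exact ⟨⟨A, rfl⟩, h⟩
    rw [this, Finset.card_image_of_injective _ hkinj]
  -- lower bound for agreeing sets
  have hagree : ∀ (S : Finset N) (F : N → Bool), S.card ≤ 4 →
      2 * ρ ≤ ((Finset.univ : Finset D).filter (fun A => ∀ x ∈ S, A.1 x = F x)).card := by
    intro S F hS
    have h1 := card_agree S F
    have h2 : ((Finset.univ : Finset D).filter (fun A => ∀ x ∈ S, A.1 x = F x)) =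
        ((Finset.univ : Finset (N → Bool)).filter (fun A => ∀ x ∈ S, A x = F x)) ×ˢ
          (Finset.univ : Finset (Fin 64)) := by
      ext ⟨A, i⟩
      constructor
      · intro hA
        refine Finset.mem_product.2 ⟨?_, Finset.mem_univ _⟩
        exact Finset.mem_filter.2 ⟨Finset.mem_univ _, (Finset.mem_filter.1 hA).2⟩
      · intro hA
        have := (Finset.mem_product.1 hA).1
        exact Finset.mem_filter.2 ⟨Finset.mem_univ _, (Finset.mem_filter.1 this).2⟩
    rw [h2, Finset.card_product, Finset.card_univ, Fintype.card_fin]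
    have h3 : 2 ^ S.card ≤ 2 ^ 4 := Nat.pow_le_pow_right (by norm_num) hS
    have h4 : 2 ^ n ≤ 16 * ((Finset.univ : Finset (N → Bool)).filter
        (fun A => ∀ x ∈ S, A x = F x)).card :=
      le_trans h1 (Nat.mul_le_mul_right _ (by simpa using h3))
    rw [hρ]; omega
  -- left and right predicates
  let PL : ℕ → N → Prop := fun t c => (∀ A : D, A.1 c = false → k A ∣ t) ∧
    ((Finset.univ : Finset D).filter (fun A => A.1 c = true ∧ k A ∣ t)).card < ρ
  let PR : ℕ → N → Prop := fun t c => (∀ A : D, A.1 c = true → k A ∣ t) ∧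
    ((Finset.univ : Finset D).filter (fun A => A.1 c = false ∧ k A ∣ t)).card < ρ
  have hρpos : 0 < ρ := by positivity
  have hPLu : ∀ t c c', PL t c → PL t c' → c = c' := by
    intro t c c' h h'
    by_contra hne
    have h1 := hagree {c, c'} (fun x => if x = c then false else true)
      (le_trans (Finset.card_le_two) (by norm_num))
    have h2 : ((Finset.univ : Finset D).filter (fun A => ∀ x ∈ ({c, c'} : Finset N),
        A.1 x = (if x = c then false else true))) ⊆
        ((Finset.univ : Finset D).filter (fun A => A.1 c' = true ∧ k A ∣ t)) := by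
      intro A hA
      simp only [Finset.mem_filter, Finset.mem_univ, true_and, Finset.mem_insert,
        Finset.mem_singleton] at hA ⊢
      have a1 := hA c (Or.inl rfl)
      have a2 := hA c' (Or.inr rfl)
      rw [if_pos rfl] at a1
      rw [if_neg (fun h => hne h.symm)] at a2
      exact ⟨a2, h.1 A a1⟩
    have h3 := Finset.card_le_card h2
    have h4 := h'.2
    omega
  have hPRu : ∀ t c c', PR t c → PR t c' → c = c' := by
    intro t c c' h h'
    by_contra hne
    have h1 := hagree {c, c'} (fun x => if x = c then true else false)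
      (le_trans (Finset.card_le_two) (by norm_num))
    have h2 : ((Finset.univ : Finset D).filter (fun A => ∀ x ∈ ({c, c'} : Finset N),
        A.1 x = (if x = c then true else false))) ⊆
        ((Finset.univ : Finset D).filter (fun A => A.1 c' = false ∧ k A ∣ t)) := by
      intro A hA
      simp only [Finset.mem_filter, Finset.mem_univ, true_and, Finset.mem_insert,
        Finset.mem_singleton] at hA ⊢
      have a1 := hA c (Or.inl rfl)
      have a2 := hA c' (Or.inr rfl)
      rw [if_pos rfl] at a1
      rw [if_neg (fun h => hne h.symm)] at a2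
      exact ⟨a2, h.1 A a1⟩
    have h3 := Finset.card_le_card h2
    have h4 := h'.2
    omega
  let nmL : ℕ → Option N := fun t => if h : ∃ c, PL t c then some h.choose else none
  let nmR : ℕ → Option N := fun t => if h : ∃ c, PR t c then some h.choose else none
  have hnL : ∀ t c, nmL t = some c ↔ PL t c := by
    intro t c
    constructor
    · intro h
      by_cases hh : ∃ c, PL t c
      · have h1 : nmL t = some hh.choose := dif_pos hh
        rw [h1] at h
        rw [← Option.some.inj h]
        exact hh.choose_spec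
      · have h1 : nmL t = none := dif_neg hh
        rw [h1] at h; cases h
    · intro h
      have hh : ∃ c, PL t c := ⟨c, h⟩
      have h1 : nmL t = some hh.choose := dif_pos hh
      rw [h1, hPLu t _ _ hh.choose_spec h]
  have hnR : ∀ t c, nmR t = some c ↔ PR t c := by
    intro t c
    constructor
    · intro h
      by_cases hh : ∃ c, PR t c
      · have h1 : nmR t = some hh.choose := dif_pos hh
        rw [h1] at h
        rw [← Option.some.inj h]
        exact hh.choose_spec
      · have h1 : nmR t = none := dif_neg hh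
        rw [h1] at h; cases h
    · intro h
      have hh : ∃ c, PR t c := ⟨c, h⟩
      have h1 : nmR t = some hh.choose := dif_pos hh
      rw [h1, hPRu t _ _ hh.choose_spec h]
  have hperd : ∀ (A : D) (t : ℕ), k A ∣ t + M ↔ k A ∣ t := fun A t =>
    (Nat.dvd_add_iff_left (hdvd A)).symm
  have hPLper : ∀ t c, PL (t+M) c ↔ PL t c := by
    intro t c
    simp only [PL, hperd]
  have hPRper : ∀ t c, PR (t+M) c ↔ PR t c := by
    intro t c
    simp only [PR, hperd]
  -- the two-sided estimate
  have herr : ∀ t t' c c', PL t c → PR t' c' →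
      ((Finset.univ : Finset D).filter (fun A => A.1 c = A.1 c' ∧ k A ∣ t + t')).card < 2 * ρ := by
    intro t t' c c' h h'
    have hsub : ((Finset.univ : Finset D).filter (fun A => A.1 c = A.1 c' ∧ k A ∣ t + t')) ⊆
        ((Finset.univ : Finset D).filter (fun A => A.1 c = true ∧ k A ∣ t)) ∪
        ((Finset.univ : Finset D).filter (fun A => A.1 c' = false ∧ k A ∣ t')) := by
      intro A hA
      simp only [Finset.mem_filter, Finset.mem_univ, true_and, Finset.mem_union] at hA ⊢
      cases hc : A.1 c
      · right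
        have hc' : A.1 c' = false := by rw [← hA.1, hc]
        exact ⟨hc', (Nat.dvd_add_iff_right (h.1 A hc)).2 hA.2⟩
      · left
        have hc' : A.1 c' = true := by rw [← hA.1, hc]
        exact ⟨rfl, (Nat.dvd_add_iff_left (h'.1 A hc')).2 hA.2⟩
    have h1 := Finset.card_le_card hsub
    have h2 := Finset.card_union_le
      ((Finset.univ : Finset D).filter (fun A => A.1 c = true ∧ k A ∣ t))
      ((Finset.univ : Finset D).filter (fun A => A.1 c' = false ∧ k A ∣ t'))
    have h3 := h.2
    have h4 := h'.2
    omega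
  refine ⟨Ms, M, nmL, nmR, ?_, ?_, hMpos, ?_, ?_, ?_, ?_, ?_, ?_⟩
  · have h1 : Ms.card = Fintype.card D := by
      simp only [Ms]
      rw [Finset.card_image_of_injective _ hkinj, Finset.card_univ]
    have h2 : Fintype.card D = 2 ^ n * 64 := by
      simp [D, n, Fintype.card_prod]
    have : ρ = 2 * 2 ^ n := hρ
    rw [h1, h2]
    show 2 ^ n * 64 ≤ 32 * ρ
    omega
  · intro x hx
    simp only [Ms, Finset.mem_image, Finset.mem_univ, true_and] at hx
    obtain ⟨A, rfl⟩ := hx
    exact ⟨hkB A, hkp A, hdvd A⟩
  · intro t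
    rcases h : nmL t with _ | c
    · rcases h2 : nmL (t+M) with _ | c2
      · rfl
      · exfalso
        have := (hnL t c2).2 ((hPLper t c2).1 ((hnL _ c2).1 h2))
        rw [h] at this; cases this
    · exact (hnL _ c).2 ((hPLper t c).2 ((hnL t c).1 h))
  · intro t
    rcases h : nmR t with _ | c
    · rcases h2 : nmR (t+M) with _ | c2
      · rfl
      · exfalso
        have := (hnR t c2).2 ((hPRper t c2).1 ((hnR _ c2).1 h2))
        rw [h] at this; cases this
    · exact (hnR _ c).2 ((hPRper t c).2 ((hnR t c).1 h))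
  · intro t t' c h h'
    have := herr t t' c c ((hnL t c).1 h) ((hnR t' c).1 h')
    rw [hcount]
    simpa using this
  · intro t t' c c' h h' hne
    rw [hcount]
    have hL := (hnL t c).1 h
    have hR := (hnR t' c').1 h'
    refine le_trans (hagree {c, c'} (fun x => if x = c then false else true)
      (le_trans (Finset.card_le_two) (by norm_num))) (Finset.card_le_card ?_)
    intro A hA
    simp only [Finset.mem_filter, Finset.mem_univ, true_and, Finset.mem_insert,
      Finset.mem_singleton] at hA ⊢
    have a1 := hA c (Or.inl rfl)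
    have a2 := hA c' (Or.inr rfl)
    rw [if_pos rfl] at a1
    rw [if_neg (fun h => hne h.symm)] at a2
    exact dvd_add (hL.1 A a1) (hR.1 A a2)
  · intro t₁ t₁' t₂ t₂' c₁ c₁' c₂ c₂' h1 h1' h2 h2' hT hne1 hne2
    have hL1 := (hnL t₁ c₁).1 h1
    have hR1 := (hnR t₁' c₁').1 h1'
    have hL2 := (hnL t₂ c₂).1 h2
    have hR2 := (hnR t₂' c₂').1 h2'
    by_contra hcon
    -- a prescribed function with F c₁ = false, F c₁' = true, F c₂ = F c₂'
    obtain ⟨F, hF1, hF1', hF2⟩ : ∃ F : N → Bool, F c₁ = false ∧ F c₁' = true ∧ F c₂ = F c₂' := by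
      by_cases ha : c₂ = c₁
      · have hb : c₂' ≠ c₁' := fun hb => hcon (Or.inl ⟨ha, hb⟩)
        refine ⟨fun x => if x = c₁' then true else false, ?_, ?_, ?_⟩
        · simp [hne1]
        · simp
        · have : c₂ ≠ c₁' := by rw [ha]; exact hne1
          simp [this, hb]
      · by_cases hb : c₂ = c₁'
        · have hc : c₂' ≠ c₁ := fun hc => hcon (Or.inr ⟨hb, hc⟩)
          refine ⟨fun x => if x = c₁ then false else true, ?_, ?_, ?_⟩
          · simp
          · exact if_neg (fun h => hne1 h.symm)
          · simp [ha, hc]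
        · -- c₂ is new
          by_cases hc : c₂' = c₁
          · refine ⟨fun x => if x = c₁' then true else false, ?_, ?_, ?_⟩
            · simp [hne1]
            · simp
            · have : c₂' ≠ c₁' := by rw [hc]; exact hne1
              simp [hb, this]
          · by_cases hd : c₂' = c₁'
            · refine ⟨fun x => if x = c₁ then false else true, ?_, ?_, ?_⟩
              · simp
              · exact if_neg (fun h => hne1 h.symm)
              · simp [ha, hc]
            · refine ⟨fun x => if x = c₁ then false else true, ?_, ?_, ?_⟩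
              · simp
              · exact if_neg (fun h => hne1 h.symm)
              · simp [ha, hc]
    have hcard : ({c₁, c₁', c₂, c₂'} : Finset N).card ≤ 4 := Finset.card_le_four
    have hbig := hagree {c₁, c₁', c₂, c₂'} F hcard
    have herr2 := herr t₂ t₂' c₂ c₂' hL2 hR2
    have hsub : ((Finset.univ : Finset D).filter (fun A => ∀ x ∈ ({c₁, c₁', c₂, c₂'} : Finset N),
        A.1 x = F x)) ⊆
        ((Finset.univ : Finset D).filter (fun A => A.1 c₂ = A.1 c₂' ∧ k A ∣ t₂ + t₂')) := by
      intro A hA
      simp only [Finset.mem_filter, Finset.mem_univ, true_and, Finset.mem_insert,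
        Finset.mem_singleton] at hA ⊢
      have a1 := hA c₁ (Or.inl rfl)
      have a2 := hA c₁' (Or.inr (Or.inl rfl))
      have a3 := hA c₂ (Or.inr (Or.inr (Or.inl rfl)))
      have a4 := hA c₂' (Or.inr (Or.inr (Or.inr rfl)))
      refine ⟨by rw [a3, a4, hF2], ?_⟩
      rw [← hT]
      exact dvd_add (hL1.1 A (by rw [a1, hF1])) (hR1.1 A (by rw [a2, hF1']))
    have := Finset.card_le_card hsub
    omega
  · intro T hTc c
    rw [hcount] at hTc
    have hcop : Set.Pairwise (↑(Finset.univ : Finset D)) (Function.onFun Nat.Coprime k) := by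
      intro A _ A' _ hne
      exact (Nat.coprime_primes (hkp A) (hkp A')).2 (fun h => hne (hkinj h))
    let x := Nat.chineseRemainderOfFinset (fun A : D => if A.1 c = true then T else 0) k
      Finset.univ (fun A _ => (hkp A).ne_zero) hcop
    have hx : ∀ A : D, (x : ℕ) ≡ (if A.1 c = true then T else 0) [MOD k A] :=
      fun A => x.2 A (Finset.mem_univ A)
    have hxlt : (x : ℕ) < M := Nat.chineseRemainderOfFinset_lt_prod _ _ _ _
    have hdL : ∀ A : D, A.1 c = true → (k A ∣ (x : ℕ) ↔ k A ∣ T) := by
      intro A hA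
      have h := hx A
      rw [if_pos hA] at h
      exact h.dvd_iff dvd_rfl
    have hdL0 : ∀ A : D, A.1 c = false → k A ∣ (x : ℕ) := by
      intro A hA
      have h := hx A
      rw [if_neg (by rw [hA]; simp)] at h
      exact (Nat.modEq_zero_iff_dvd).1 h
    refine ⟨x, hxlt, (hnL _ c).2 ⟨hdL0, ?_⟩, ?_⟩
    · refine lt_of_le_of_lt (Finset.card_le_card ?_) hTc
      intro A hA
      simp only [Finset.mem_filter, Finset.mem_univ, true_and] at hA ⊢
      exact (hdL A hA.1).1 hA.2
    · intro t' ht'
      have hm : ∀ A : D, (x : ℕ) + t' ≡ T [MOD k A] := fun A => ht'.of_dvd (hdvd A)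
      refine (hnR _ c).2 ⟨?_, ?_⟩
      · intro A hA
        have h := hx A
        rw [if_pos hA] at h
        -- x ≡ T, x + t' ≡ T
        have h1 : (x : ℕ) + t' ≡ (x : ℕ) + 0 [MOD k A] := by
          simpa using (hm A).trans h.symm
        have h2 := Nat.ModEq.add_left_cancel' _ h1
        exact (Nat.modEq_zero_iff_dvd).1 h2
      · refine lt_of_le_of_lt (Finset.card_le_card ?_) hTc
        intro A hA
        simp only [Finset.mem_filter, Finset.mem_univ, true_and] at hA ⊢
        have h1 := (hm A).dvd_iff (dvd_refl (k A))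
        exact h1.1 (dvd_add (hdL0 A hA.1) hA.2)

end Crest.Agent.R320.LN_133
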