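import Mathlib
import Crest.Agent.R320.Names_755
import Crest.Agent.R320.LN_133

set_option autoImplicit false

namespace Crest.Agent.R320.Clk_133

open Finset

def PP (R M0 M1 l : ℕ) := (R*M0) * (R*M1)^l
def beta (R M0 M1 m n l : ℕ) := PP R M0 M1 m * (3*l+2) + n % PP R M0 M1 l
def Bad (R M0 M1 m rho : ℕ) (Ms Ms1 : Finset ℕ) (n : ℕ) : Prop :=
  (n % (R*M0) < M0 ∨ R*M0 ≤ n % (R*M0) + M0) ∨ (∃ k ∈ Ms, k ∣ n) ∨
  ∃ l < m, ((n / PP R M0 M1 l) % (R*M1) < M1 ∨ R*M1 ≤ (n / PP R M0 M1 l) % (R*M1) + M1) ∨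
    rho ≤ (Ms1.filter (· ∣ n / PP R M0 M1 l)).card

section arith
variable {P : ℕ → ℕ} {b P0 : ℕ}

/-- residues below level `i` are the star residue -/
lemma mod_low (hadd : ∀ i d, P (i+d) = P i * b^d) (hP0 : P 0 = P0) (hb : 0 < b) (hpos : 0 < P0)
    {i l t' : ℕ} (hli : l ≤ i) (h : t' % P i = t' % P0) : t' % P l = t' % P0 := by
  obtain ⟨d, rfl⟩ := Nat.exists_eq_add_of_le hli
  have h1 : P l ∣ P (l+d) := ⟨b^d, hadd l d⟩
  have h2 : t' % P l = (t' % P (l+d)) % P l := (Nat.mod_mod_of_dvd t' h1).symm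
  have h3 : P 0 ∣ P l := ⟨b^l, by have := hadd 0 l; rwa [Nat.zero_add] at this⟩
  rw [h2, h]
  apply Nat.mod_eq_of_lt
  refine lt_of_lt_of_le (Nat.mod_lt _ hpos) ?_
  rw [← hP0]
  apply Nat.le_of_dvd _ h3
  have := hadd 0 l
  rw [Nat.zero_add] at this
  rw [this, hP0]
  positivity

lemma nocarry (hadd : ∀ i d, P (i+d) = P i * b^d) (hP0 : P 0 = P0) (hb : 0 < b) (hpos : 0 < P0)
    {l t s : ℕ} (hs : t % P0 + s < P0) : t % P l + s < P l := by
  have h3 : P l = P0 * b^l := by have := hadd 0 l; rwa [Nat.zero_add, hP0] at this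
  have h1 : (t % P l) % P0 = t % P0 := Nat.mod_mod_of_dvd t ⟨b^l, h3⟩
  have hlt : t % P l < P l := Nat.mod_lt _ (by rw [h3]; positivity)
  have h4 := Nat.div_add_mod (t % P l) P0
  rw [h1] at h4
  have h5 : (t % P l) / P0 < b^l := by
    rw [Nat.div_lt_iff_lt_mul hpos, mul_comm]; rw [h3] at hlt ⊢; exact hlt
  have h6 : P0 * ((t % P l) / P0 + 1) ≤ P0 * b^l := Nat.mul_le_mul_left _ h5
  rw [mul_add, mul_one] at h6
  rw [h3] at *
  omega

end arith

theorem clocks (m : ℕ) (Γ C : Type) [Finite Γ] [Finite C] (lv : Γ → ℕ) (hlv : ∀ g, lv g < m)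
    (col : Γ → C) : ∃ r : ℕ, ∀ B R : ℕ, 3 ≤ R →
    ∃ (Ms Ms1 : Finset ℕ) (rho M0 M1 : ℕ) (nmL nmR : ℕ → Option Γ) (bL bR : ℕ → ℕ → ℕ)
      (Gd : ℕ → Prop),
      Ms.card ≤ r ∧ Ms1.card ≤ 32*rho ∧ 0 < rho ∧
      (∀ k ∈ Ms, B < k ∧ Nat.Prime k ∧ k ∣ M0) ∧ (∀ k ∈ Ms1, B < k ∧ Nat.Prime k ∧ k ∣ M1) ∧
      0 < M0 ∧ 0 < M1 ∧
      (∀ t g, nmL t = some g → t < PP R M0 M1 m * (3*m+4)) ∧
      (∀ t g, nmR t = some g → PP R M0 M1 m * (3*m+4) ≤ t) ∧
      (∀ t t' g g', Gd (t+t') → nmL t = some g → nmR t' = some g' → g = g' ∧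
        (∀ l ≤ lv g, bL t l = beta R M0 M1 m (t+t') l) ∧
        (∀ l, lv g < l → l ≤ m → bR t' l + beta R M0 M1 m (t+t') l = t+t') ∧
        beta R M0 M1 m (t+t') (lv g) ≤ t ∧ t ≤ beta R M0 M1 m (t+t') (lv g + 1)) ∧
      (∀ t₁ t₁' t₂ t₂' g₁ g₁' g₂ g₂', ¬ Gd (t₁+t₁') → t₁+t₁' = t₂+t₂' → nmL t₁ = some g₁ →
        nmR t₁' = some g₁' → nmL t₂ = some g₂ → nmR t₂' = some g₂' →
        col g₁ = col g₂ ∧ col g₁' = col g₂') ∧
      (∀ n, 2*(PP R M0 M1 m * (3*m+4)) ≤ n → ¬ Bad R M0 M1 m rho Ms Ms1 n → Gd n ∧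
        ∀ g, ∃ t t', t+t' = n ∧ nmL t = some g ∧ nmR t' = some g) ∧
      (∃ Pd > 0, (∀ t', PP R M0 M1 m * (3*m+4) ≤ t' → nmR (t'+Pd) = nmR t' ∧
        ∀ l ≤ m, nmR t' ≠ none → bR (t'+Pd) l = bR t' l + Pd) ∧
        ∀ n, Gd (n+Pd) ↔ Gd n) := by
  classical
  obtain ⟨r, hr⟩ := Names755.names Γ C col
  refine ⟨r, fun B R hR => ?_⟩
  obtain ⟨Ms, M0, nL, nR, hMsc, hMs, hM0, hnLp, hnRp, hnsame, hncompl, hnpair⟩ := hr B
  obtain ⟨rho, hrho, h1⟩ := LN_133.level_names (Γ × Fin (R*M0))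
  obtain ⟨Ms1, M1, nL1, nR1, hMs1c, hMs1, hM1, hp1, hp2, hmatch, hmis, hpair, hcomp⟩ := h1 B
  obtain ⟨P0, hP0def⟩ : ∃ P0, P0 = R*M0 := ⟨_, rfl⟩
  obtain ⟨b, hbdef⟩ : ∃ b, b = R*M1 := ⟨_, rfl⟩
  obtain ⟨P, hPdef⟩ : ∃ P : ℕ → ℕ, P = PP R M0 M1 := ⟨_, rfl⟩
  have hP0pos : 0 < P0 := by rw [hP0def]; positivity
  have hbpos : 0 < b := by rw [hbdef]; positivity
  have hM0le : 3*M0 ≤ P0 := by rw [hP0def]; exact Nat.mul_le_mul_right _ hR
  have hM1le : 3*M1 ≤ b := by rw [hbdef]; exact Nat.mul_le_mul_right _ hR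
  have hPl : ∀ l, P l = P0 * b^l := fun l => by rw [hPdef, hP0def, hbdef]; rfl
  have hadd : ∀ i d, P (i+d) = P i * b^d := fun i d => by rw [hPl, hPl, pow_add]; ring
  have hPz : P 0 = P0 := by rw [hPl]; simp
  have hPpos : ∀ l, 0 < P l := fun l => by rw [hPl]; positivity
  have hP0dvd : ∀ l, P0 ∣ P l := fun l => ⟨b^l, hPl l⟩
  have hP0le : ∀ l, P0 ≤ P l := fun l => Nat.le_of_dvd (hPpos l) (hP0dvd l)
  have hPmono : ∀ l l', l ≤ l' → P l ≤ P l' := fun l l' h => by
    rw [hPl, hPl]; exact Nat.mul_le_mul_left _ (Nat.pow_le_pow_right hbpos h)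
  have hkb : ∀ k ∈ Ms1, k ∣ b := fun k hk => by
    rw [hbdef]; exact Dvd.dvd.mul_left (hMs1 k hk).2.2 R
  have hk0 : ∀ k ∈ Ms, k ∣ P0 := fun k hk => by
    rw [hP0def]; exact Dvd.dvd.mul_left (hMs k hk).2.2 R
  have hdv : ∀ k ∈ Ms1, ∀ x, k ∣ x % b ↔ k ∣ x := fun k hk x => Nat.dvd_mod_iff (hkb k hk)
  have hdv0 : ∀ k ∈ Ms, ∀ x, k ∣ x % P0 ↔ k ∣ x := fun k hk x => Nat.dvd_mod_iff (hk0 k hk)
  -- predicates
  let QL : ℕ → Γ → Prop := fun t g => nL (t % P0) = some g ∧ t % P0 < M0 ∧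
    (t / P (lv g)) % b < M1 ∧
    t / P (lv g) = (t / P (lv g)) % b + (3*lv g+3) * b^(m - lv g) ∧
    (∃ s : Fin (R*M0), nL1 ((t / P (lv g)) % b) = some (g, s)) ∧
    ∀ l < lv g, (Ms1.filter (· ∣ t / P l)).card < rho
  let QR : ℕ → Γ → Prop := fun t g => nR (t % P0) = some g ∧ t % P0 + M0 ≤ P0 ∧
    t % P (lv g) = t % P0 ∧
    (∃ s : Fin (R*M0), s.1 = t % P0 ∧ nR1 ((t / P (lv g)) % b) = some (g, s)) ∧
    (t / P (lv g)) % b + M1 ≤ b ∧
    (∀ l, lv g < l → l < m → (Ms1.filter (· ∣ t / P l)).card < rho) ∧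
    P m * (3*m+4) ≤ t
  have hQLu : ∀ t g g', QL t g → QL t g' → g = g' := fun t g g' h h' =>
    Option.some.inj (h.1.symm.trans h'.1)
  have hQRu : ∀ t g g', QR t g → QR t g' → g = g' := fun t g g' h h' =>
    Option.some.inj (h.1.symm.trans h'.1)
  let nmL : ℕ → Option Γ := fun t => if h : ∃ g, QL t g then some h.choose else none
  let nmR : ℕ → Option Γ := fun t => if h : ∃ g, QR t g then some h.choose else none
  have hnmL : ∀ t g, nmL t = some g ↔ QL t g := by
    intro t g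
    constructor
    · intro h
      by_cases hh : ∃ g, QL t g
      · have h1 : nmL t = some hh.choose := dif_pos hh
        rw [h1] at h
        rw [← Option.some.inj h]
        exact hh.choose_spec
      · have h1 : nmL t = none := dif_neg hh
        rw [h1] at h; cases h
    · intro h
      have hh : ∃ g, QL t g := ⟨g, h⟩
      have h1 : nmL t = some hh.choose := dif_pos hh
      rw [h1, hQLu t _ _ hh.choose_spec h]
  have hnmR : ∀ t g, nmR t = some g ↔ QR t g := by
    intro t g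
    constructor
    · intro h
      by_cases hh : ∃ g, QR t g
      · have h1 : nmR t = some hh.choose := dif_pos hh
        rw [h1] at h
        rw [← Option.some.inj h]
        exact hh.choose_spec
      · have h1 : nmR t = none := dif_neg hh
        rw [h1] at h; cases h
    · intro h
      have hh : ∃ g, QR t g := ⟨g, h⟩
      have h1 : nmR t = some hh.choose := dif_pos hh
      rw [h1, hQRu t _ _ hh.choose_spec h]
  let sg : ℕ → ℕ := fun t => match nL (t % P0) with
    | none => 0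
    | some g => match nL1 ((t / P (lv g)) % b) with
      | none => 0
      | some x => x.2.1
  let bL : ℕ → ℕ → ℕ := fun t l => P m * (3*l+2) + (t + sg t) % P l
  let bR : ℕ → ℕ → ℕ := fun t l => match nR (t % P0) with
    | none => 0
    | some g => P m * (3*lv g+3) + (t - t % P l) - P m * (3*l+2)
  let Gd : ℕ → Prop := fun n => (∀ k ∈ Ms, ¬ k ∣ n) ∧
    ∀ l < m, (Ms1.filter (· ∣ n / P l)).card < 2*rho
  -- star digit
  have hstar : ∀ t t' g g', QL t g → QR t' g' → (t+t') % P0 = t % P0 + t' % P0 := by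
    intro t t' g g' h h'
    apply Nat.add_mod_of_add_mod_lt
    have a1 := h.2.1
    have a2 := h'.2.1
    omega
  have hname : ∀ t t' g g', QL t g → QR t' g' → (∀ k ∈ Ms, ¬ k ∣ t+t') → g = g' := by
    intro t t' g g' h h' hk
    refine hnsame (t % P0) (t' % P0) g g' h.1 h'.1 (fun k hk' hd => hk k hk' ?_)
    rw [← hstar t t' g g' h h'] at hd
    exact (hdv0 k hk' _).1 hd
  -- same level facts
  have hK1 : ∀ t' g, QR t' g → ∀ l ≤ lv g, t' % P l = t' % P0 := fun t' g h' l hl =>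
    mod_low hadd hPz hbpos hP0pos hl h'.2.2.1
  have hK2 : ∀ t t' g, QL t g → QR t' g → ∀ l ≤ lv g, t % P l + t' % P l < P l := by
    intro t t' g h h' l hl
    rw [hK1 t' g h' l hl]
    apply nocarry hadd hPz hbpos hP0pos
    have a1 := h.2.1
    have a2 := h'.2.1
    omega
  have hK3 : ∀ t t' g, QL t g → QR t' g → ∀ l ≤ lv g, (t+t') / P l = t / P l + t' / P l :=
    fun t t' g h h' l hl => Nat.add_div_eq_of_add_mod_lt (hK2 t t' g h h' l hl)
  have hK4 : ∀ t' g, QR t' g → ∀ l < lv g, b ∣ t' / P l := by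
    intro t' g h' l hl
    obtain ⟨d, hd⟩ := Nat.exists_eq_add_of_lt hl
    have e1 : P (lv g) = P l * b^(d+1) := by rw [hd, add_assoc, hadd]
    have e2 := Nat.div_add_mod t' (P (lv g))
    have e3 : t' % P (lv g) < P l := by
      rw [h'.2.2.1]; exact lt_of_lt_of_le (Nat.mod_lt _ hP0pos) (hP0le l)
    have e4 : t' / P l = b^(d+1) * (t' / P (lv g)) := by
      conv_lhs => rw [← e2, e1, mul_assoc, Nat.mul_add_div (hPpos l)]
      rw [← e1, Nat.div_eq_of_lt e3, add_zero, e1]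
    rw [e4, pow_succ]
    exact ⟨b^d * (t' / P (lv g)), by ring⟩
  have hK5 : ∀ t t' g, QL t g → QR t' g →
      ((t+t') / P (lv g)) % b = (t / P (lv g)) % b + (t' / P (lv g)) % b := by
    intro t t' g h h'
    rw [hK3 t t' g h h' _ le_rfl]
    apply Nat.add_mod_of_add_mod_lt
    have a1 := h.2.2.1
    have a2 := h'.2.2.2.2.1
    omega
  have hK6g : ∀ t t' i, i < m → (t+t') / P i = t / P i + t' / P i → (t / P i) % b < M1 →
      t / P i = (t / P i) % b + (3*i+3) * b^(m - i) → (t' / P i) % b + M1 ≤ b →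
      ∀ l, i < l → l ≤ m → (t+t') / P l = (3*i+3) * b^(m-l) + t' / P l := by
    intro t t' i him hc1 a1 hc2 a2 l hl hlm
    obtain ⟨d, hd⟩ := Nat.exists_eq_add_of_lt hl
    have e1 : P l = P i * b^(d+1) := by rw [hd, add_assoc, hadd]
    have e2 : (t+t') / P l = ((t+t') / P i) / b^(d+1) := by rw [e1, Nat.div_div_eq_div_mul]
    have e3 : t' / P l = (t' / P i) / b^(d+1) := by rw [e1, Nat.div_div_eq_div_mul]
    rw [e2, hc1, e3, hc2]
    set τ := (t / P i) % b with hτ
    set y := t' / P i with hy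
    have e5 : m - i = (d+1) + (m - l) := by omega
    have hB : 0 < b^(d+1) := by positivity
    have e6 : τ + (3*i+3) * b^(m - i) + y =
        (y + τ) + b^(d+1) * ((3*i+3) * b^(m-l)) := by rw [e5, pow_add]; ring
    rw [e6, Nat.add_mul_div_left _ _ hB]
    have e9 : τ < b^(d+1) := by
      have : b ≤ b^(d+1) := Nat.le_self_pow (by omega) b
      omega
    have e7 : y % b^(d+1) + τ < b^(d+1) := by
      have q1 : (y % b^(d+1)) % b = y % b := Nat.mod_mod_of_dvd y ⟨b^d, by ring⟩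
      have q2 : y % b^(d+1) < b^(d+1) := Nat.mod_lt _ hB
      have q3 := Nat.div_add_mod (y % b^(d+1)) b
      rw [q1] at q3
      have q4 : (y % b^(d+1)) / b < b^d := by
        rw [Nat.div_lt_iff_lt_mul hbpos]; rw [pow_succ] at q2 ⊢; exact q2
      have q5 : b * ((y % b^(d+1)) / b + 1) ≤ b * b^d := Nat.mul_le_mul_left _ q4
      rw [mul_add, mul_one] at q5
      have q6 : b^(d+1) = b * b^d := by ring
      omega
    have e8 : (y + τ) / b^(d+1) = y / b^(d+1) := by
      have := Nat.add_div_eq_of_add_mod_lt (a := y) (b := τ) (c := b^(d+1)) (by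
        have : τ % b^(d+1) = τ := Nat.mod_eq_of_lt e9
        rw [this]; exact e7)
      rw [this, Nat.div_eq_of_lt e9, add_zero]
    rw [e8]; ring
  have hK6 : ∀ t t' g, QL t g → QR t' g → ∀ l, lv g < l → l ≤ m →
      (t+t') / P l = (3*lv g+3) * b^(m-l) + t' / P l := fun t t' g h h' =>
    hK6g t t' (lv g) (hlv g) (hK3 t t' g h h' _ le_rfl) h.2.2.1 h.2.2.2.1 h'.2.2.2.2.1
  have hLb : ∀ t g, QL t g → t < P m * (3*m+4) := by
    intro t g h
    have h4 := h.2.2.2.1
    have hlt := h.2.2.1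
    have hl := hlv g
    have e1 : P m = P (lv g) * b^(m - lv g) := by
      have := hadd (lv g) (m - lv g)
      rwa [Nat.add_sub_of_le hl.le] at this
    have e2 := Nat.div_add_mod t (P (lv g))
    have e3 := Nat.mod_lt t (hPpos (lv g))
    have e4 : (t / P (lv g)) % b + 1 ≤ b^(m - lv g) := by
      have : b ≤ b^(m - lv g) := Nat.le_self_pow (by omega) b
      omega
    have e5 : t < P (lv g) * (t / P (lv g) + 1) := by rw [mul_add, mul_one]; omega
    have e6 : t / P (lv g) + 1 ≤ (3*lv g + 4) * b^(m - lv g) := by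
      have : (3*lv g + 4) * b^(m - lv g) = (3*lv g+3) * b^(m - lv g) + b^(m - lv g) := by ring
      omega
    calc t < P (lv g) * (t / P (lv g) + 1) := e5
      _ ≤ P (lv g) * ((3*lv g + 4) * b^(m - lv g)) := Nat.mul_le_mul_left _ e6
      _ = P m * (3*lv g + 4) := by rw [e1]; ring
      _ ≤ P m * (3*m+4) := Nat.mul_le_mul_left _ (by omega)
  have hD1 : ∀ t t' g, QL t g → QR t' g → ∀ l < lv g,
      (Ms1.filter (· ∣ (t+t') / P l)).card < rho := by
    intro t t' g h h' l hl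
    have : Ms1.filter (· ∣ (t+t') / P l) = Ms1.filter (· ∣ t / P l) := by
      apply Finset.filter_congr
      intro k hk
      rw [hK3 t t' g h h' l hl.le]
      exact (Nat.dvd_add_iff_left (dvd_trans (hkb k hk) (hK4 t' g h' l hl))).symm
    rw [this]
    exact h.2.2.2.2.2 l hl
  have hD2 : ∀ t t' g, QL t g → QR t' g → ∀ l, lv g < l → l < m →
      (Ms1.filter (· ∣ (t+t') / P l)).card < rho := by
    intro t t' g h h' l hl hlm
    have : Ms1.filter (· ∣ (t+t') / P l) = Ms1.filter (· ∣ t' / P l) := by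
      apply Finset.filter_congr
      intro k hk
      rw [hK6 t t' g h h' l hl hlm.le]
      refine (Nat.dvd_add_iff_right ?_).symm
      exact Dvd.dvd.mul_left (dvd_pow (hkb k hk) (by omega)) _
    rw [this]
    exact h'.2.2.2.2.2.1 l hl hlm
  have hD3 : ∀ t t' g, QL t g → QR t' g →
      Ms1.filter (· ∣ (t+t') / P (lv g)) =
        Ms1.filter (· ∣ (t / P (lv g)) % b + (t' / P (lv g)) % b) := by
    intro t t' g h h'
    apply Finset.filter_congr
    intro k hk
    rw [← hK5 t t' g h h']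
    exact (hdv k hk _).symm
  refine ⟨Ms, Ms1, rho, M0, M1, nmL, nmR, bL, bR, Gd, hMsc, hMs1c, hrho, hMs, hMs1, hM0, hM1,
    ?_, ?_, ?_, ?_, ?_, ?_⟩
  · -- bound of left
    intro t g h
    rw [← hPdef]
    exact hLb t g ((hnmL t g).1 h)
  · intro t g h
    have h := (hnmR t g).1 h
    rw [← hPdef]
    exact h.2.2.2.2.2.2
  · -- good
    intro t t' g g' hG h h'
    have h := (hnmL t g).1 h
    have h' := (hnmR t' g').1 h'
    have hg : g = g' := hname t t' g g' h h' hG.1
    subst hg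
    have hl := hlv g
    obtain ⟨s, hs⟩ := h.2.2.2.2.1
    obtain ⟨s', hs'1, hs'⟩ := h'.2.2.2.1
    have hss : s = s' := by
      by_contra hne
      have := hmis _ _ _ _ hs hs' (fun h => hne (Prod.mk.inj h).2)
      rw [← hD3 t t' g h h'] at this
      have := hG.2 (lv g) hl
      omega
    subst hss
    have hsg : sg t = t' % P0 := by
      have : sg t = s.1 := by simp only [sg, h.1, hs]
      rw [this, hs'1]
    have e1 : P m = P (lv g) * b^(m - lv g) := by
      have := hadd (lv g) (m - lv g)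
      rwa [Nat.add_sub_of_le hl.le] at this
    have htdiv : t / P m = 3*lv g+3 := by
      rw [e1, ← Nat.div_div_eq_div_mul, h.2.2.2.1, Nat.add_mul_div_right _ _ (by positivity)]
      rw [Nat.div_eq_of_lt, Nat.zero_add]
      have : b ≤ b^(m - lv g) := Nat.le_self_pow (by omega) b
      have := h.2.2.1
      omega
    have ht1 := Nat.div_add_mod t (P m)
    have ht2 := Nat.mod_lt t (hPpos m)
    rw [htdiv] at ht1
    simp only [beta, ← hPdef]
    refine ⟨trivial, ?_, ?_, ?_, ?_⟩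
    · intro l hl'
      show P m * (3*l+2) + (t + sg t) % P l = _
      rw [hsg]
      congr 1
      rw [Nat.add_mod t t', hK1 t' g h' l hl', Nat.add_mod t (t' % P0)]
      congr 2
      exact Nat.mod_eq_of_lt (lt_of_lt_of_le (Nat.mod_lt _ hP0pos) (hP0le l))
    · intro l hl1 hl2
      have hbR : bR t' l = P m * (3*lv g+3) + (t' - t' % P l) - P m * (3*l+2) := by
        simp only [bR, h'.1]
      rw [hbR]
      have e2 := hK6 t t' g h h' l hl1 hl2
      have e3 : P m = P l * b^(m-l) := by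
        have := hadd l (m-l)
        rwa [Nat.add_sub_of_le hl2] at this
      have e4 := Nat.div_add_mod (t+t') (P l)
      have e5 := Nat.div_add_mod t' (P l)
      rw [e2, mul_add] at e4
      have e6 : P l * ((3*lv g+3) * b^(m-l)) = P m * (3*lv g+3) := by rw [e3]; ring
      rw [e6] at e4
      have e7 : P m * (3*l+2) ≤ P m * (3*m+2) := Nat.mul_le_mul_left _ (by omega)
      have e8 := h'.2.2.2.2.2.2
      have e9 : P m * (3*m+4) = P m * (3*m+2) + 2 * P m := by ring
      have e10 : t' % P l < P m := lt_of_lt_of_le (Nat.mod_lt _ (hPpos l)) (hPmono l m hl2)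
      omega
    · have := lt_of_lt_of_le (Nat.mod_lt (t+t') (hPpos (lv g))) (hPmono (lv g) m hl.le)
      have e2 : P m * (3*lv g+3) = P m * (3*lv g+2) + P m := by ring
      omega
    · have e2 : P m * (3*(lv g+1)+2) = P m * (3*lv g+3) + 2 * P m := by ring
      omega
  · -- not good
    intro t₁ t₁' t₂ t₂' g₁ g₁' g₂ g₂' hG hT h1 h1' h2 h2'
    have h1 := (hnmL _ _).1 h1
    have h1' := (hnmR _ _).1 h1'
    have h2 := (hnmL _ _).1 h2
    have h2' := (hnmR _ _).1 h2'
    have s1 := hstar _ _ _ _ h1 h1'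
    have s2 := hstar _ _ _ _ h2 h2'
    by_cases hk : ∃ k ∈ Ms, k ∣ t₁+t₁'
    · refine hnpair _ _ _ _ _ _ _ _ h1.1 h1'.1 h2.1 h2'.1 (by rw [← s1, ← s2, hT]) ?_
      obtain ⟨k, hk1, hk2⟩ := hk
      exact ⟨k, hk1, by rw [← s1]; exact (hdv0 k hk1 _).2 hk2⟩
    · have hk' : ∀ k ∈ Ms, ¬ k ∣ t₁+t₁' := fun k hk1 hk2 => hk ⟨k, hk1, hk2⟩
      have a1 := hname _ _ _ _ h1 h1' hk'
      have a2 := hname _ _ _ _ h2 h2' (by rw [← hT]; exact hk')
      subst a1 a2
      have : ∃ l < m, 2*rho ≤ (Ms1.filter (· ∣ (t₁+t₁') / P l)).card := by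
        by_contra hcon
        exact hG ⟨hk', fun l hl => by
          by_contra h3
          exact hcon ⟨l, hl, not_lt.1 h3⟩⟩
      obtain ⟨l, hlm, hl⟩ := this
      have key : ∀ t t' g, QL t g → QR t' g → t + t' = t₁ + t₁' → l = lv g := by
        intro t t' g h h' hh
        rcases lt_trichotomy l (lv g) with h3 | h3 | h3
        · have := hD1 t t' g h h' l h3
          rw [hh] at this; omega
        · exact h3
        · have := hD2 t t' g h h' l h3 hlm
          rw [hh] at this; omega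
      have l1 := key _ _ _ h1 h1' rfl
      have l2 := key _ _ _ h2 h2' hT.symm
      obtain ⟨σ1, hσ1⟩ := h1.2.2.2.2.1
      obtain ⟨σ1', _, hσ1'⟩ := h1'.2.2.2.1
      obtain ⟨σ2, hσ2⟩ := h2.2.2.2.2.1
      obtain ⟨σ2', _, hσ2'⟩ := h2'.2.2.2.1
      have n1 : (g₁, σ1) ≠ (g₁, σ1') := by
        intro he
        rw [← he] at hσ1'
        have := hmatch _ _ _ hσ1 hσ1'
        rw [← hD3 _ _ _ h1 h1', ← l1] at this
        omega
      have n2 : (g₂, σ2) ≠ (g₂, σ2') := by
        intro he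
        rw [← he] at hσ2'
        have := hmatch _ _ _ hσ2 hσ2'
        rw [← hD3 _ _ _ h2 h2', ← l2, ← hT] at this
        omega
      have hsum : (t₁ / P (lv g₁)) % b + (t₁' / P (lv g₁)) % b =
          (t₂ / P (lv g₂)) % b + (t₂' / P (lv g₂)) % b := by
        rw [← hK5 _ _ _ h1 h1', ← hK5 _ _ _ h2 h2', hT, ← l1, ← l2]
      have := hpair _ _ _ _ _ _ _ _ hσ1 hσ1' hσ2 hσ2' hsum n1 n2
      have hg : g₂ = g₁ := by
        rcases this with ⟨h3, -⟩ | ⟨h3, -⟩
        · exact (Prod.mk.inj h3).1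
        · exact (Prod.mk.inj h3).1
      rw [hg]
      exact ⟨rfl, rfl⟩
  · -- completeness
    intro n hn hBad
    rw [← hPdef] at hn
    simp only [Bad, ← hPdef, ← hP0def, ← hbdef, not_or, not_exists, not_and, not_lt, not_le] at hBad
    obtain ⟨⟨hs1, hs2⟩, hb2, hb3⟩ := hBad
    have hcardlt : ∀ l < m, (Ms1.filter (· ∣ n / P l)).card < rho := fun l hl => (hb3 l hl).2
    refine ⟨⟨hb2, fun l hl => by have := hcardlt l hl; omega⟩, fun g => ?_⟩
    have hl := hlv g
    obtain ⟨i, hi⟩ : ∃ i, i = lv g := ⟨_, rfl⟩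
    have him : i < m := by rw [hi]; exact hl
    obtain ⟨τ, hτM, hτn, hτc⟩ := hncompl (n % P0)
      (fun k hk hd => hb2 k hk ((hdv0 k hk n).1 hd)) g
    obtain ⟨σ, hσ⟩ : ∃ σ, σ = n % P0 - τ := ⟨_, rfl⟩
    have hn0 : n % P0 < P0 := Nat.mod_lt _ hP0pos
    have hτσ : τ + σ = n % P0 := by omega
    have hσn : nR σ = some g := hτc σ (by rw [hτσ])
    have hσlt : σ < P0 := by omega
    have hσlt' : σ < R*M0 := by rw [← hP0def]; exact hσlt
    have hT1 : (Ms1.filter (· ∣ (n / P i) % b)).card < rho := by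
      have : Ms1.filter (· ∣ (n / P i) % b) = Ms1.filter (· ∣ n / P i) :=
        Finset.filter_congr (fun k hk => hdv k hk _)
      rw [this]; exact hcardlt i him
    obtain ⟨τ1, hτ1M, hτ1n, hτ1c⟩ := hcomp ((n / P i) % b) hT1 (g, ⟨σ, hσlt'⟩)
    obtain ⟨⟨hc1, hc2⟩, -⟩ := hb3 i him
    -- abbreviations
    obtain ⟨a, ha⟩ : ∃ a, a = n % P i := ⟨_, rfl⟩
    obtain ⟨q, hq⟩ : ∃ q, q = n / P i := ⟨_, rfl⟩
    obtain ⟨Y, hY⟩ : ∃ Y, Y = (3*i+3) * b^(m-i-1) := ⟨_, rfl⟩
    have hX : (3*i+3) * b^(m-i) = b * Y := by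
      rw [hY]
      have : m - i = (m-i-1) + 1 := by omega
      rw [this, pow_succ, Nat.add_sub_cancel]; ring
    have hnaq : P i * q + a = n := by rw [ha, hq]; exact Nat.div_add_mod n (P i)
    have halt : a < P i := by rw [ha]; exact Nat.mod_lt _ (hPpos i)
    have ha0 : a % P0 = n % P0 := by rw [ha]; exact Nat.mod_mod_of_dvd n (hP0dvd i)
    have haσ : σ ≤ a := by have := Nat.mod_le a P0; omega
    have e1 : P m = P i * b^(m - i) := by
      have := hadd i (m - i)
      rwa [Nat.add_sub_of_le him.le] at this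
    have hbX : τ1 + 1 ≤ b^(m-i) := by
      have : b ≤ b^(m - i) := Nat.le_self_pow (by omega) b
      omega
    have hXq : τ1 + b * Y ≤ q := by
      rw [hq, Nat.le_div_iff_mul_le (hPpos i)]
      refine le_trans ?_ hn
      rw [← hX]
      have : τ1 + (3*i+3) * b^(m-i) ≤ (3*i+4) * b^(m-i) := by
        have : (3*i + 4) * b^(m - i) = (3*i+3) * b^(m - i) + b^(m - i) := by ring
        omega
      calc (τ1 + (3*i+3) * b^(m-i)) * P i ≤ ((3*i+4) * b^(m-i)) * P i := Nat.mul_le_mul_right _ this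
        _ = P m * (3*i+4) := by rw [e1]; ring
        _ ≤ P m * (3*m+4) := Nat.mul_le_mul_left _ (by omega)
        _ ≤ 2 * (P m * (3*m+4)) := by omega
    obtain ⟨z, hz⟩ := Nat.exists_eq_add_of_le hXq
    obtain ⟨t, ht⟩ : ∃ t, t = P i * (τ1 + b*Y) + (a - σ) := ⟨_, rfl⟩
    obtain ⟨t', ht'⟩ : ∃ t', t' = P i * z + σ := ⟨_, rfl⟩
    have hsum : t + t' = n := by
      rw [ht, ht', ← hnaq, hz, mul_add (P i) (τ1 + b*Y) z]; omega
    have htd : t / P i = τ1 + b*Y := by
      rw [ht, Nat.mul_add_div (hPpos i), Nat.div_eq_of_lt (by omega), add_zero]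
    have ht'd : t' / P i = z := by
      rw [ht', Nat.mul_add_div (hPpos i), Nat.div_eq_of_lt (by have := hP0le i; omega), add_zero]
    have htb : (t / P i) % b = τ1 := by
      rw [htd, Nat.add_mul_mod_self_left]; exact Nat.mod_eq_of_lt (by omega)
    have hzb : z % b = q % b - τ1 := by
      have h1 : q % b = (τ1 + z) % b := by
        rw [hz]
        have : τ1 + b * Y + z = (τ1 + z) + b * Y := by ring
        rw [this, Nat.add_mul_mod_self_left]
      have h2 : M1 ≤ q % b := by rw [hq]; exact hc1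
      have h3 : q % b < b := Nat.mod_lt _ hbpos
      have h4 : (τ1 + z) % b = (τ1 + z % b) % b := by simp [Nat.add_mod]
      have h5 : z % b < b := Nat.mod_lt _ hbpos
      rcases Nat.lt_or_ge (τ1 + z % b) b with h6 | h6
      · rw [Nat.mod_eq_of_lt h6] at h4; omega
      · exfalso
        have h7 : (τ1 + z % b) % b = τ1 + z % b - b := by
          rw [Nat.mod_eq_sub_mod h6]; exact Nat.mod_eq_of_lt (by omega)
        omega
    have ht0 : t % P0 = τ := by
      obtain ⟨w, hw⟩ := hP0dvd i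
      have h1 := Nat.div_add_mod a P0
      have h2 : a - σ = P0 * (a / P0) + τ := by omega
      rw [ht, h2, hw]
      have : P0 * w * (τ1 + b*Y) + (P0 * (a / P0) + τ) = τ + P0 * (w * (τ1 + b*Y) + a / P0) := by ring
      rw [this, Nat.add_mul_mod_self_left]
      exact Nat.mod_eq_of_lt (by omega)
    have ht'0 : t' % P0 = σ := by
      obtain ⟨w, hw⟩ := hP0dvd i
      rw [ht', hw]
      have : P0 * w * z + σ = σ + P0 * (w * z) := by ring
      rw [this, Nat.add_mul_mod_self_left]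
      exact Nat.mod_eq_of_lt hσlt
    have ht'i : t' % P i = σ := by
      rw [ht', Nat.mul_add_mod]
      exact Nat.mod_eq_of_lt (by have := hP0le i; omega)
    have hQL : QL t g := by
      show nL (t % P0) = some g ∧ t % P0 < M0 ∧ (t / P (lv g)) % b < M1 ∧
        t / P (lv g) = (t / P (lv g)) % b + (3*lv g+3) * b^(m - lv g) ∧
        (∃ s : Fin (R*M0), nL1 ((t / P (lv g)) % b) = some (g, s)) ∧
        ∀ l < lv g, (Ms1.filter (· ∣ t / P l)).card < rho
      rw [← hi, htb, ht0, htd]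
      refine ⟨hτn, hτM, hτ1M, by rw [hX], ⟨_, hτ1n⟩, ?_⟩
      intro l hl2
      obtain ⟨d, hd⟩ := Nat.exists_eq_add_of_lt hl2
      have f1 : P i = P l * b^(d+1) := by rw [hd, add_assoc, hadd]
      have f2 : (a - σ) / P l = a / P l := by
        have g1 := Nat.div_add_mod a (P l)
        have g2 : (a % P l) % P0 = n % P0 := by rw [Nat.mod_mod_of_dvd a (hP0dvd l), ha0]
        have g3 : σ ≤ a % P l := by have := Nat.mod_le (a % P l) P0; omega
        have g4 : a % P l < P l := Nat.mod_lt _ (hPpos l)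
        have g5 : a - σ = P l * (a / P l) + (a % P l - σ) := by omega
        have g6 : (a % P l - σ) / P l = 0 := Nat.div_eq_of_lt (by omega)
        rw [g5, Nat.mul_add_div (hPpos l), g6, add_zero]
      have f3 : t / P l = b^(d+1) * (τ1 + b*Y) + a / P l := by
        rw [ht, f1, mul_assoc, Nat.mul_add_div (hPpos l), f2]
      have f4 : n / P l = b^(d+1) * q + a / P l := by
        conv_lhs => rw [← hnaq, f1, mul_assoc, Nat.mul_add_div (hPpos l)]
      have f5 : Ms1.filter (· ∣ t / P l) = Ms1.filter (· ∣ n / P l) := by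
        apply Finset.filter_congr
        intro k hk
        have hkp : k ∣ b^(d+1) := dvd_pow (hkb k hk) (by omega)
        rw [f3, f4, ← Nat.dvd_add_iff_right (Dvd.dvd.mul_right hkp _),
          ← Nat.dvd_add_iff_right (Dvd.dvd.mul_right hkp _)]
      rw [f5]
      exact hcardlt l (by omega)
    have hc3 : (t' / P i) % b + M1 ≤ b := by rw [ht'd, hzb, hq]; omega
    have hadd' : (t+t') / P i = t / P i + t' / P i := by
      rw [hsum, htd, ht'd, ← hq, hz]
    have hQR : QR t' g := by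
      show nR (t' % P0) = some g ∧ t' % P0 + M0 ≤ P0 ∧
        t' % P (lv g) = t' % P0 ∧
        (∃ s : Fin (R*M0), s.1 = t' % P0 ∧ nR1 ((t' / P (lv g)) % b) = some (g, s)) ∧
        (t' / P (lv g)) % b + M1 ≤ b ∧
        (∀ l, lv g < l → l < m → (Ms1.filter (· ∣ t' / P l)).card < rho) ∧
        P m * (3*m+4) ≤ t'
      rw [← hi, ht'0, ht'i]
      refine ⟨hσn, by omega, rfl, ⟨⟨σ, hσlt'⟩, rfl, ?_⟩, hc3, ?_, ?_⟩
      · rw [ht'd, hzb]
        apply hτ1c
        rw [← hq]
        have : M1 ≤ q % b := by rw [hq]; exact hc1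
        rw [Nat.add_sub_of_le (by omega)]
      · intro l hl1 hl2
        have f1 := hK6g t t' i him hadd' (by rw [htb]; exact hτ1M)
          (by rw [htb, htd, hX]) hc3 l hl1 hl2.le
        rw [hsum] at f1
        have f5 : Ms1.filter (· ∣ t' / P l) = Ms1.filter (· ∣ n / P l) := by
          apply Finset.filter_congr
          intro k hk
          rw [f1, ← Nat.dvd_add_iff_right
            (Dvd.dvd.mul_left (dvd_pow (hkb k hk) (by omega)) _)]
        rw [f5]
        exact hcardlt l hl2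
      · have := hLb t g hQL
        omega
    exact ⟨t, t', hsum, (hnmL t g).2 hQL, (hnmR t' g).2 hQR⟩
  · -- periodicity
    have hdm : ∀ l ≤ m, P m = P l * b^(m-l) := fun l hl => by
      have := hadd l (m-l)
      rwa [Nat.add_sub_of_le hl] at this
    have hm1 : ∀ l ≤ m, ∀ x, (x + P m) % P l = x % P l := fun l hl x => by
      rw [hdm l hl, Nat.add_mul_mod_self_left]
    have hm0 : ∀ x, (x + P m) % P0 = x % P0 := fun x => by
      rw [hPl m, Nat.add_mul_mod_self_left]
    have hd1 : ∀ l ≤ m, ∀ x, (x + P m) / P l = x / P l + b^(m-l) := fun l hl x => by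
      rw [hdm l hl, Nat.add_mul_div_left _ _ (hPpos l)]
    have hf : ∀ l < m, ∀ x, Ms1.filter (· ∣ (x + P m) / P l) = Ms1.filter (· ∣ x / P l) := by
      intro l hl x
      apply Finset.filter_congr
      intro k hk
      rw [hd1 l hl.le]
      exact (Nat.dvd_add_iff_left (dvd_pow (hkb k hk) (by omega))).symm
    have hb1 : ∀ l < m, ∀ x, ((x + P m) / P l) % b = (x / P l) % b := by
      intro l hl x
      rw [hd1 l hl.le]
      have : m - l = (m-l-1) + 1 := by omega
      rw [this, pow_succ, mul_comm, Nat.add_mul_mod_self_left]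
    refine ⟨P m, hPpos m, ?_, ?_⟩
    · intro t' ht'
      rw [← hPdef] at ht'
      have hQ : ∀ g, QR (t' + P m) g ↔ QR t' g := by
        intro g
        have hl := hlv g
        have hx : (∀ l, lv g < l → l < m → (Ms1.filter (· ∣ (t' + P m) / P l)).card < rho) ↔
            (∀ l, lv g < l → l < m → (Ms1.filter (· ∣ t' / P l)).card < rho) := by
          constructor
          · intro h l h1 h2; rw [← hf l h2]; exact h l h1 h2
          · intro h l h1 h2; rw [hf l h2]; exact h l h1 h2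
        have hy : (P m * (3*m+4) ≤ t' + P m) ↔ (P m * (3*m+4) ≤ t') :=
          ⟨fun _ => ht', fun _ => by omega⟩
        simp only [QR]
        rw [hm0, hm1 _ hl.le, hb1 _ hl, hx, hy]
      refine ⟨?_, ?_⟩
      · rcases h : nmR t' with _ | g
        · rcases h2 : nmR (t' + P m) with _ | g2
          · rfl
          · exfalso
            have := (hnmR t' g2).2 ((hQ g2).1 ((hnmR _ g2).1 h2))
            rw [h] at this; cases this
        · exact (hnmR _ g).2 ((hQ g).2 ((hnmR t' g).1 h))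
      · intro l hl hne
        obtain ⟨g, hg⟩ := Option.ne_none_iff_exists'.1 hne
        have hg := ((hnmR t' g).1 hg).1
        have hbR : bR t' l = P m * (3*lv g+3) + (t' - t' % P l) - P m * (3*l+2) := by
          simp only [bR, hg]
        have hbR' : bR (t' + P m) l =
            P m * (3*lv g+3) + (t' + P m - (t' + P m) % P l) - P m * (3*l+2) := by
          simp only [bR, hm0, hg]
        rw [hbR, hbR', hm1 l hl]
        have e7 : P m * (3*l+2) ≤ P m * (3*m+2) := Nat.mul_le_mul_left _ (by omega)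
        have e9 : P m * (3*m+4) = P m * (3*m+2) + 2 * P m := by ring
        have e10 : t' % P l < P m := lt_of_lt_of_le (Nat.mod_lt _ (hPpos l)) (hPmono l m hl)
        omega
    · intro n
      constructor
      · rintro ⟨h1, h2⟩
        refine ⟨fun k hk hd => h1 k hk ?_, fun l hl => by rw [← hf l hl]; exact h2 l hl⟩
        exact dvd_add hd (dvd_trans (hk0 k hk) (hP0dvd m))
      · rintro ⟨h1, h2⟩
        refine ⟨fun k hk hd => h1 k hk ?_, fun l hl => by rw [hf l hl]; exact h2 l hl⟩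
        exact (Nat.dvd_add_iff_left (dvd_trans (hk0 k hk) (hP0dvd m))).2 hd

end Crest.Agent.R320.Clk_133
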