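import Crest.Agent.R320.Names_755
import Crest.Agent.R320.LN_133

/-! Leaf U2 of helper638's TEAM U (#13273): clocks without carries. -/

namespace Crest.Agent.R320.Clk_208

def PP (R M0 M1 l : ℕ) := (R*M0) * (R*M1)^l
def beta (R M0 M1 m n l : ℕ) := PP R M0 M1 m * (3*l+2) + n % PP R M0 M1 l
def Bad (R M0 M1 m rho : ℕ) (Ms Ms1 : Finset ℕ) (n : ℕ) : Prop :=
  (n % (R*M0) < M0 ∨ R*M0 ≤ n % (R*M0) + M0) ∨ (∃ k ∈ Ms, k ∣ n) ∨
    ∃ l < m, ((n / PP R M0 M1 l) % (R*M1) < M1 ∨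
      R*M1 ≤ (n / PP R M0 M1 l) % (R*M1) + M1) ∨
      rho ≤ (Ms1.filter (· ∣ n / PP R M0 M1 l)).card

lemma nc (a b P : ℕ) (h : a % P + b % P < P) :
    (a+b)/P = a/P + b/P ∧ (a+b)%P = a%P+b%P := by
  have hP : 0 < P := by omega
  constructor
  · rw [Nat.add_div hP, if_neg (by omega)]; simp
  · rw [Nat.add_mod, Nat.mod_eq_of_lt h]

lemma lift (P Q a b : ℕ) (hPQ : P ∣ Q) (hQ : 0 < Q) (h : a % P + b % P < P)
    (ha : a % Q = a % P) : a % Q + b % Q < Q := by
  obtain ⟨c, rfl⟩ := hPQ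
  have hc : 0 < c := Nat.pos_of_ne_zero (by rintro rfl; simp at hQ)
  have h1 : b % (P*c) = b % P + P * (b / P % c) := Nat.mod_mul
  have h2 : b/P % c < c := Nat.mod_lt _ hc
  rw [ha, h1]
  have h3 : P * (b / P % c) + P ≤ P * c := by
    calc P * (b / P % c) + P = P * (b / P % c + 1) := by ring
      _ ≤ P * c := Nat.mul_le_mul_left _ h2
  omega

lemma per {X : Type} (f : ℕ → X) (M : ℕ) (h : ∀ t, f (t + M) = f t) (t c : ℕ) :
    f (t + M * c) = f t := by
  induction c with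
  | zero => simp
  | succ c ih => rw [Nat.mul_succ, ← Nat.add_assoc, h, ih]

lemma per_dvd {X : Type} (f : ℕ → X) (M : ℕ) (h : ∀ t, f (t + M) = f t) (t D : ℕ) (hD : M ∣ D) :
    f (t + D) = f t := by
  obtain ⟨c, rfl⟩ := hD
  exact per f M h t c

lemma per_modEq {X : Type} (f : ℕ → X) (M : ℕ) (h : ∀ t, f (t + M) = f t) (t t' : ℕ)
    (hD : t ≡ t' [MOD M]) : f t = f t' := by
  have h1 : ∀ x, f x = f (x % M) := fun x => by
    conv_lhs => rw [← Nat.mod_add_div x M]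
    exact per f M h _ _
  rw [h1 t, h1 t', hD]

section P
variable (P : ℕ → ℕ) (Q : ℕ) (hP : ∀ l, 0 < P l) (hS : ∀ l, P (l+1) = P l * Q)

include hS in
lemma P_dvd {l l' : ℕ} (h : l ≤ l') : P l ∣ P l' := by
  induction l', h using Nat.le_induction with
  | base => exact dvd_rfl
  | succ n _ ih => rw [hS]; exact ih.mul_right _

include hS in
lemma PQ_dvd {l l' : ℕ} (h : l < l') : P l * Q ∣ P l' := by
  rw [← hS]; exact P_dvd P Q hS h

include hP hS in
/-- adding a multiple of a higher place value -/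
lemma add_div_high {l l' : ℕ} (h : l < l') (x c : ℕ) :
    ∃ d, (x + P l' * c) / P l = x / P l + Q * d := by
  obtain ⟨d, hd⟩ := PQ_dvd P Q hS h
  refine ⟨d * c, ?_⟩
  rw [hd, show P l * Q * d * c = P l * (Q * (d * c)) by ring, Nat.add_mul_div_left _ _ (hP l)]

include hS in
/-- no carry below or at place `l ≤ i` -/
lemma nc_low (hP : ∀ l, 0 < P l) {i l : ℕ} (hl : l ≤ i) {t t' : ℕ}
    (h0 : t % P 0 + t' % P 0 < P 0)
    (h1 : t' % P i = t' % P 0) : t % P l + t' % P l < P l := by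
  have h2 : t' % P l = t' % P 0 := by
    rw [← Nat.mod_mod_of_dvd t' (P_dvd P Q hS hl), h1]
    exact Nat.mod_eq_of_lt (lt_of_lt_of_le (Nat.mod_lt _ (hP 0))
      (Nat.le_of_dvd (hP l) (P_dvd P Q hS (Nat.zero_le l))))
  have := lift (P 0) (P l) t' t (P_dvd P Q hS (Nat.zero_le l)) (hP l) (by omega) h2
  omega

include hS in
lemma nc_mid {i : ℕ} {t t' : ℕ}
    (h : t % P i + t' % P i < P i) (hd : (t / P i) % Q + (t' / P i) % Q < Q) :
    t % P (i+1) + t' % P (i+1) < P (i+1) := by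
  rw [hS, Nat.mod_mul, Nat.mod_mul]
  have h3 : P i * (t / P i % Q + t' / P i % Q) + P i ≤ P i * Q := by
    calc P i * (t / P i % Q + t' / P i % Q) + P i
        = P i * (t / P i % Q + t' / P i % Q + 1) := by ring
      _ ≤ P i * Q := Nat.mul_le_mul_left _ hd
  have h4 : P i * (t / P i % Q + t' / P i % Q) = P i * (t / P i % Q) + P i * (t' / P i % Q) := by
    ring
  omega

include hS in
lemma nc_high (hP : ∀ l, 0 < P l) {i l m : ℕ} (hl : i < l) (hm : l ≤ m) {t t' : ℕ}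
    (h : t % P (i+1) + t' % P (i+1) < P (i+1))
    (h1 : t % P m = t % P (i+1)) : t % P l + t' % P l < P l := by
  have h2 : t % P l = t % P (i+1) := by
    rw [← Nat.mod_mod_of_dvd t (P_dvd P Q hS hm), h1]
    exact Nat.mod_eq_of_lt (lt_of_lt_of_le (Nat.mod_lt _ (hP (i+1)))
      (Nat.le_of_dvd (hP l) (P_dvd P Q hS hl)))
  exact lift (P (i+1)) (P l) t t' (P_dvd P Q hS hl) (hP l) h h2

include hS in
/-- right part has zero digits below `i`: divisors of digit `l < i` come from the left part -/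
lemma dvd_low (hP : ∀ l, 0 < P l) {i l : ℕ} (hl : l < i) {t t' : ℕ}
    (h0 : t % P 0 + t' % P 0 < P 0)
    (h1 : t' % P i = t' % P 0) {k : ℕ} (hk : k ∣ Q) :
    k ∣ (t + t') / P l ↔ k ∣ t / P l := by
  have h2 := nc_low P Q hS hP hl.le h0 h1
  rw [(nc _ _ _ h2).1]
  have h3 : k ∣ t' / P l := by
    obtain ⟨d, hd⟩ := PQ_dvd P Q hS hl
    have h5 : t' = t' % P 0 + P l * (Q * (d * (t' / P i))) := by
      conv_lhs => rw [← Nat.mod_add_div t' (P i), h1]
      rw [show P i * (t' / P i) = P l * (Q * (d * (t' / P i))) by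
        generalize t' / P i = q
        rw [hd]; ring]
    rw [h5, Nat.add_mul_div_left _ _ (hP l), Nat.div_eq_of_lt, zero_add]
    · exact hk.mul_right _
    · exact lt_of_lt_of_le (Nat.mod_lt _ (hP 0))
        (Nat.le_of_dvd (hP l) (P_dvd P Q hS (Nat.zero_le l)))
  exact Nat.dvd_add_left h3

include hS in
lemma dvd_high (hP : ∀ l, 0 < P l) {i l m : ℕ} (hl : i < l) (hm : l < m) {t t' : ℕ}
    (h : t % P (i+1) + t' % P (i+1) < P (i+1))
    (h1 : t % P m = t % P (i+1)) {k : ℕ} (hk : k ∣ Q) :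
    k ∣ (t + t') / P l ↔ k ∣ t' / P l := by
  have h2 := nc_high P Q hS hP hl hm.le h h1
  rw [(nc _ _ _ h2).1]
  have h3 : k ∣ t / P l := by
    obtain ⟨d, hd⟩ := PQ_dvd P Q hS hm
    have h5 : t = t % P (i+1) + P l * (Q * (d * (t / P m))) := by
      conv_lhs => rw [← Nat.mod_add_div t (P m), h1]
      rw [show P m * (t / P m) = P l * (Q * (d * (t / P m))) by
        generalize t / P m = q
        rw [hd]; ring]
    rw [h5, Nat.add_mul_div_left _ _ (hP l), Nat.div_eq_of_lt, zero_add]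
    · exact hk.mul_right _
    · exact lt_of_lt_of_le (Nat.mod_lt _ (hP (i+1)))
        (Nat.le_of_dvd (hP l) (P_dvd P Q hS hl))
  exact Nat.dvd_add_right h3

end P

section D
open Classical

variable {Γ : Type} (P : ℕ → ℕ) (Q m rho M0 M1 : ℕ) (Ms Ms1 : Finset ℕ) (lv : Γ → ℕ)
  (S : Type) (val : S → ℕ)
  (nL nR : ℕ → Option Γ) (nL1 nR1 : ℕ → Option (Γ × S))

/-- left condition -/
def CL (t : ℕ) (g : Γ) (s : S) : Prop :=
  nL t = some g ∧ t % P 0 < M0 ∧ t / P m = 3 * lv g + 3 ∧ t % P m = t % P (lv g + 1) ∧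
    (∀ l < lv g, (Ms1.filter (· ∣ t / P l)).card < rho) ∧ (t / P (lv g)) % Q < M1 ∧
    nL1 (t / P (lv g)) = some (g, s)

/-- right condition -/
def CR (t : ℕ) (g : Γ) (s : S) : Prop :=
  nR t = some g ∧ P m * (3 * m + 4) ≤ t ∧ t % P 0 + M0 ≤ P 0 ∧ t % P (lv g) = t % P 0 ∧
    (t / P (lv g)) % Q + M1 ≤ Q ∧ nR1 (t / P (lv g)) = some (g, s) ∧ val s = t % P 0 ∧
    ∀ l, lv g < l → l < m → (Ms1.filter (· ∣ t / P l)).card < rho

noncomputable def nmL (t : ℕ) : Option Γ :=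
  if h : ∃ g s, CL P Q m rho M0 M1 Ms1 lv S nL nL1 t g s then some h.choose else none

noncomputable def nmR (t : ℕ) : Option Γ :=
  if h : ∃ g s, CR P Q m rho M0 M1 Ms1 lv S val nR nR1 t g s then some h.choose else none

noncomputable def bL (t l : ℕ) : ℕ :=
  if h : ∃ s g, CL P Q m rho M0 M1 Ms1 lv S nL nL1 t g s then
    P m * (3 * l + 2) + (t + val h.choose) % P l else 0

noncomputable def bR (t l : ℕ) : ℕ :=
  match nR t with
  | none => t
  | some g => P m * (3 * lv g + 3) + (t - t % P l) - P m * (3 * l + 2)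

lemma nmL_eq {t : ℕ} {g : Γ} :
    nmL P Q m rho M0 M1 Ms1 lv S nL nL1 t = some g ↔
      ∃ s, CL P Q m rho M0 M1 Ms1 lv S nL nL1 t g s := by
  unfold nmL
  constructor
  · intro h
    split_ifs at h with h1
    have h2 : h1.choose = g := by simpa using h
    rw [← h2]; exact h1.choose_spec
  · rintro ⟨s, hs⟩
    have h1 : ∃ g s, CL P Q m rho M0 M1 Ms1 lv S nL nL1 t g s := ⟨g, s, hs⟩
    rw [dif_pos h1]
    obtain ⟨s', hs'⟩ := h1.choose_spec
    have := hs'.1.symm.trans hs.1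
    simpa using this

lemma nmR_eq {t : ℕ} {g : Γ} :
    nmR P Q m rho M0 M1 Ms1 lv S val nR nR1 t = some g ↔
      ∃ s, CR P Q m rho M0 M1 Ms1 lv S val nR nR1 t g s := by
  unfold nmR
  constructor
  · intro h
    split_ifs at h with h1
    have h2 : h1.choose = g := by simpa using h
    rw [← h2]; exact h1.choose_spec
  · rintro ⟨s, hs⟩
    have h1 : ∃ g s, CR P Q m rho M0 M1 Ms1 lv S val nR nR1 t g s := ⟨g, s, hs⟩
    rw [dif_pos h1]
    obtain ⟨s', hs'⟩ := h1.choose_spec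
    have := hs'.1.symm.trans hs.1
    simpa using this

lemma bL_eq {t l : ℕ} {g : Γ} {s : S} (h : CL P Q m rho M0 M1 Ms1 lv S nL nL1 t g s) :
    bL P Q m rho M0 M1 Ms1 lv S val nL nL1 t l = P m * (3 * l + 2) + (t + val s) % P l := by
  have h1 : ∃ s g, CL P Q m rho M0 M1 Ms1 lv S nL nL1 t g s := ⟨s, g, h⟩
  unfold bL
  rw [dif_pos h1]
  obtain ⟨g', hg'⟩ := h1.choose_spec
  have h2 : g' = g := by
    have := hg'.1.symm.trans h.1
    simpa using this
  subst h2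
  have h3 := hg'.2.2.2.2.2.2.symm.trans h.2.2.2.2.2.2
  have h4 : h1.choose = s := by simpa using h3
  rw [h4]

section pair
variable {P Q m rho M0 M1 Ms1 lv S val nL nR nL1 nR1}
variable (hP : ∀ l, 0 < P l) (hS : ∀ l, P (l+1) = P l * Q) (hlv : ∀ g, lv g < m)
  (hk : ∀ k ∈ Ms1, k ∣ Q)
  {t t' : ℕ} {g : Γ} {s s' : S} (hL : CL P Q m rho M0 M1 Ms1 lv S nL nL1 t g s)
  (hR : CR P Q m rho M0 M1 Ms1 lv S val nR nR1 t' g s')

include hL hR in
lemma pair_zero : t % P 0 + t' % P 0 < P 0 := by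
  have h1 := hL.2.1
  have h2 := hR.2.2.1
  omega

include hS hP hL hR in
lemma pair_low {l : ℕ} (hl : l ≤ lv g) : t % P l + t' % P l < P l :=
  nc_low P Q hS hP hl (pair_zero hL hR) hR.2.2.2.1

include hS hP hL hR in
lemma pair_mid : t % P (lv g + 1) + t' % P (lv g + 1) < P (lv g + 1) := by
  have h1 := hL.2.2.2.2.2.1
  have h2 := hR.2.2.2.2.1
  exact nc_mid P Q hS (pair_low hP hS hL hR le_rfl) (by omega)

include hS hP hL hR in
lemma pair_high {l : ℕ} (hl : lv g < l) (hm : l ≤ m) : t % P l + t' % P l < P l :=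
  nc_high P Q hS hP hl hm (pair_mid hP hS hL hR) hL.2.2.2.1

include hk hS hP hL hR in
lemma pair_card {l : ℕ} (hm : l < m) (hl : l ≠ lv g) :
    (Ms1.filter (· ∣ (t + t') / P l)).card < rho := by
  rcases lt_or_gt_of_ne hl with h | h
  · have h1 := hL.2.2.2.2.1 l h
    rwa [Finset.filter_congr (q := (· ∣ t / P l)) (fun x hx =>
      dvd_low P Q hS hP h (pair_zero hL hR) hR.2.2.2.1 (hk x hx))]
  · have h1 := hR.2.2.2.2.2.2.2 l h hm
    rwa [Finset.filter_congr (q := (· ∣ t' / P l)) (fun x hx =>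
      dvd_high P Q hS hP h hm (pair_mid hP hS hL hR) hL.2.2.2.1 (hk x hx))]

include hS hP hL hR in
lemma pair_div : (t + t') / P (lv g) = t / P (lv g) + t' / P (lv g) :=
  (nc _ _ _ (pair_low hP hS hL hR le_rfl)).1

include hlv hS hP hL hR in
lemma pair_beta (hs : s = s') :
    (∀ l ≤ lv g, bL P Q m rho M0 M1 Ms1 lv S val nL nL1 t l =
      P m * (3 * l + 2) + (t + t') % P l) ∧
    (∀ l, lv g < l → l ≤ m → bR P m lv nR t' l + (P m * (3 * l + 2) + (t + t') % P l) = t + t') ∧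
    P m * (3 * lv g + 2) + (t + t') % P (lv g) ≤ t ∧
    t ≤ P m * (3 * (lv g + 1) + 2) + (t + t') % P (lv g + 1) := by
  subst hs
  have hmono : ∀ l ≤ m, P l ≤ P m := fun l hl => Nat.le_of_dvd (hP m) (P_dvd P Q hS hl)
  have hti : t = P m * (3 * lv g + 3) + t % P m := by
    conv_lhs => rw [← Nat.div_add_mod t (P m), hL.2.2.1]
  refine ⟨?_, ?_, ?_, ?_⟩
  · intro l hl
    rw [bL_eq P Q m rho M0 M1 Ms1 lv S val nL nL1 hL]
    have h1 : t' % P l = t' % P 0 := by
      rw [← Nat.mod_mod_of_dvd t' (P_dvd P Q hS hl), hR.2.2.2.1]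
      exact Nat.mod_eq_of_lt (lt_of_lt_of_le (Nat.mod_lt _ (hP 0))
        (Nat.le_of_dvd (hP l) (P_dvd P Q hS (Nat.zero_le l))))
    rw [hR.2.2.2.2.2.2.1, ← h1, Nat.add_mod_mod]
  · intro l hl hlm
    have h2 : t % P l = t % P m := by
      rw [← Nat.mod_mod_of_dvd t (P_dvd P Q hS hlm), hL.2.2.2.1]
      exact Nat.mod_eq_of_lt (lt_of_lt_of_le (Nat.mod_lt _ (hP _))
        (Nat.le_of_dvd (hP l) (P_dvd P Q hS hl)))
    rw [(nc _ _ _ (pair_high hP hS hL hR hl hlm)).2, h2]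
    have hbR : bR P m lv nR t' l = P m * (3 * lv g + 3) + (t' - t' % P l) - P m * (3 * l + 2) := by
      unfold bR; rw [hR.1]
    rw [hbR]
    have h3 : t' % P l < P l := Nat.mod_lt _ (hP l)
    have h4 := hmono l hlm
    have h5 := hR.2.1
    have h6 : P m * (3 * l + 2) + P m ≤ P m * (3 * m + 4) := by
      calc P m * (3 * l + 2) + P m = P m * (3 * l + 3) := by ring
        _ ≤ P m * (3 * m + 4) := Nat.mul_le_mul_left _ (by omega)
    omega
  · have h3 : (t + t') % P (lv g) < P (lv g) := Nat.mod_lt _ (hP _)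
    have h4 := hmono (lv g) (hlv g).le
    have h6 : P m * (3 * lv g + 3) = P m * (3 * lv g + 2) + P m := by ring
    omega
  · have h3 : t % P m < P m := Nat.mod_lt _ (hP _)
    have h6 : P m * (3 * (lv g + 1) + 2) = P m * (3 * lv g + 3) + P m + P m := by ring
    omega

end pair

end D

/-- LEAF U2 of helper638's #13273, with the extra period fields. -/
theorem clocks (m : ℕ) (Γ C : Type) [Finite Γ] [Finite C] (lv : Γ → ℕ) (hlv : ∀ g, lv g < m)
    (col : Γ → C) : ∃ r : ℕ, ∀ B R : ℕ, 3 ≤ R → ∃ (Ms Ms1 : Finset ℕ) (rho M0 M1 : ℕ)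
      (nmL nmR : ℕ → Option Γ) (bL bR : ℕ → ℕ → ℕ) (Gd : ℕ → Prop),
      Ms.card ≤ r ∧ Ms1.card ≤ 32*rho ∧ 0 < rho ∧
      (∀ k ∈ Ms, B < k ∧ Nat.Prime k ∧ k ∣ M0) ∧ (∀ k ∈ Ms1, B < k ∧ Nat.Prime k ∧ k ∣ M1) ∧
      0 < M0 ∧ 0 < M1 ∧ B < M0 ∧ B < M1 ∧
      (∀ t g, nmL t = some g → t < PP R M0 M1 m * (3*m+4)) ∧
      (∀ t g, nmR t = some g → PP R M0 M1 m * (3*m+4) ≤ t) ∧
      (∀ t t' g g', Gd (t+t') → nmL t = some g → nmR t' = some g' → g = g' ∧
        (∀ l ≤ lv g, bL t l = beta R M0 M1 m (t+t') l) ∧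
        (∀ l, lv g < l → l ≤ m → bR t' l + beta R M0 M1 m (t+t') l = t+t') ∧
        beta R M0 M1 m (t+t') (lv g) ≤ t ∧ t ≤ beta R M0 M1 m (t+t') (lv g + 1)) ∧
      (∀ t₁ t₁' t₂ t₂' g₁ g₁' g₂ g₂', ¬ Gd (t₁+t₁') → t₁+t₁' = t₂+t₂' →
        nmL t₁ = some g₁ → nmR t₁' = some g₁' → nmL t₂ = some g₂ → nmR t₂' = some g₂' →
        col g₁ = col g₂ ∧ col g₁' = col g₂') ∧
      (∀ n, 2*(PP R M0 M1 m * (3*m+4)) ≤ n → ¬ Bad R M0 M1 m rho Ms Ms1 n →
        Gd n ∧ ∀ g, ∃ t t', t+t' = n ∧ nmL t = some g ∧ nmR t' = some g) ∧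
      (∀ t, PP R M0 M1 m * (3*m+4) ≤ t → nmR (t + PP R M0 M1 m) = nmR t) ∧
      (∀ t, PP R M0 M1 m * (3*m+4) ≤ t → ∀ l ≤ m,
        bR (t + PP R M0 M1 m) l = bR t l + PP R M0 M1 m) ∧
      (∀ n, Gd (n + PP R M0 M1 m) ↔ Gd n) ∧
      (∀ n, Bad R M0 M1 m rho Ms Ms1 (n + PP R M0 M1 m) ↔ Bad R M0 M1 m rho Ms Ms1 n) := by
  classical
  obtain ⟨r, hr⟩ := Names755.names Γ C col
  refine ⟨r, fun B R hR => ?_⟩
  obtain ⟨Ms, M, nL, nR, hMc, hMs, hM, hnLp, hnRp, hmatch, hcompl, huniq⟩ := hr B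
  obtain ⟨M0, hM0⟩ : ∃ M0, M0 = M * (B+1) := ⟨_, rfl⟩
  obtain ⟨rho, hrho, h2⟩ := LN_133.level_names (Γ × Fin (R*M0))
  obtain ⟨Ms1, M', nL1, nR1, hMc1, hMs1, hM', hnLp1, hnRp1, hm1, hm2, hm3, hm4⟩ := h2 B
  obtain ⟨M1, hM1⟩ : ∃ M1, M1 = M' * (B+1) := ⟨_, rfl⟩
  have hM0p : 0 < M0 := by rw [hM0]; positivity
  have hM1p : 0 < M1 := by rw [hM1]; positivity
  have hBM0 : B < M0 := by rw [hM0]; nlinarith
  have hBM1 : B < M1 := by rw [hM1]; nlinarith
  have hMM0 : M ∣ M0 := by rw [hM0]; exact dvd_mul_right _ _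
  have hMM1 : M' ∣ M1 := by rw [hM1]; exact dvd_mul_right _ _
  have hMleM0 : M ≤ M0 := Nat.le_of_dvd hM0p hMM0
  have hMleM1 : M' ≤ M1 := Nat.le_of_dvd hM1p hMM1
  obtain ⟨P, hPdef⟩ : ∃ P : ℕ → ℕ, P = PP R M0 M1 := ⟨_, rfl⟩
  obtain ⟨Q, hQ⟩ : ∃ Q, Q = R * M1 := ⟨_, rfl⟩
  have hP0 : P 0 = R * M0 := by rw [hPdef]; simp [PP]
  have hQp : 0 < Q := by rw [hQ]; positivity
  have hP : ∀ l, 0 < P l := fun l => by rw [hPdef]; unfold PP; positivity
  have hS : ∀ l, P (l+1) = P l * Q := fun l => by rw [hPdef, hQ]; unfold PP; ring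
  have hM0P0 : M0 ∣ P 0 := by rw [hP0]; exact dvd_mul_left _ _
  have hM1Q : M1 ∣ Q := by rw [hQ]; exact dvd_mul_left _ _
  have hk1 : ∀ k ∈ Ms1, k ∣ Q := fun k hk =>
    ((hMs1 k hk).2.2.trans hMM1).trans hM1Q
  have hk0 : ∀ k ∈ Ms, k ∣ P 0 := fun k hk =>
    ((hMs k hk).2.2.trans hMM0).trans hM0P0
  let val : Fin (R*M0) → ℕ := fun s => s
  have hlt0 : ∀ x, x % P 0 < R * M0 := fun x => by rw [hP0]; exact Nat.mod_lt _ (by positivity)
  have hPm0 : P 0 ∣ P m := P_dvd P Q hS (Nat.zero_le m)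
  have hdiv : ∀ l < m, ∀ n, ∃ d, (n + P m) / P l = n / P l + Q * d := fun l hl n => by
    have := add_div_high P Q hP hS hl n 1
    simpa using this
  have hmod : ∀ l ≤ m, ∀ n, (n + P m) % P l = n % P l := fun l hl n => by
    obtain ⟨d, hd⟩ := P_dvd P Q hS hl
    rw [hd, Nat.add_mul_mod_self_left]
  have hcardper : ∀ l < m, ∀ n, Ms1.filter (· ∣ (n + P m) / P l) = Ms1.filter (· ∣ n / P l) := by
    intro l hl n
    obtain ⟨d, hd⟩ := hdiv l hl n
    refine Finset.filter_congr fun k hk => ?_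
    rw [hd]
    exact Nat.dvd_add_left ((hk1 k hk).mul_right _)
  have hkper : ∀ k ∈ Ms, ∀ n, k ∣ n + P m ↔ k ∣ n := fun k hk n =>
    Nat.dvd_add_left ((hk0 k hk).trans hPm0)
  have hnRper : ∀ n, nR (n + P m) = nR n := fun n =>
    per_dvd nR M hnRp n (P m) ((hMM0.trans hM0P0).trans hPm0)
  have hbeta : ∀ n l, beta R M0 M1 m n l = P m * (3 * l + 2) + n % P l := fun n l => by
    rw [hPdef]; rfl
  have hBad : ∀ n, Bad R M0 M1 m rho Ms Ms1 n ↔
      ((n % P 0 < M0 ∨ P 0 ≤ n % P 0 + M0) ∨ (∃ k ∈ Ms, k ∣ n) ∨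
    ∃ l < m, ((n / P l) % Q < M1 ∨ Q ≤ (n / P l) % Q + M1) ∨
      rho ≤ (Ms1.filter (· ∣ n / P l)).card) := fun n => by
    rw [hP0, hQ, hPdef]; rfl
  obtain ⟨Gd, hGd⟩ : ∃ Gd : ℕ → Prop, Gd = fun n => (∀ k ∈ Ms, ¬ k ∣ n) ∧
    ∀ l < m, (Ms1.filter (· ∣ n / P l)).card < 2*rho := ⟨_, rfl⟩
  refine ⟨Ms, Ms1, rho, M0, M1, nmL P Q m rho M0 M1 Ms1 lv _ nL nL1,
    nmR P Q m rho M0 M1 Ms1 lv _ val nR nR1, bL P Q m rho M0 M1 Ms1 lv _ val nL nL1,
    bR P m lv nR, Gd, hMc, hMc1, hrho,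
    fun k hk => ⟨(hMs k hk).1, (hMs k hk).2.1, (hMs k hk).2.2.trans hMM0⟩,
    fun k hk => ⟨(hMs1 k hk).1, (hMs1 k hk).2.1, (hMs1 k hk).2.2.trans hMM1⟩,
    hM0p, hM1p, hBM0, hBM1, ?_, ?_, ?_, ?_, ?_, ?_, ?_, ?_, ?_⟩
  · -- (a)
    intro t g h
    obtain ⟨s, hs⟩ := (nmL_eq ..).1 h
    have h1 := hs.2.2.1
    have h2 := hlv g
    rw [← hPdef]
    have h3 : t < P m * (t / P m + 1) := by
      rw [mul_add, mul_one]
      have := Nat.div_add_mod t (P m)
      have := Nat.mod_lt t (hP m)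
      omega
    exact lt_of_lt_of_le h3 (Nat.mul_le_mul_left _ (by omega))
  · -- (b)
    intro t g h
    obtain ⟨s, hs⟩ := (nmR_eq ..).1 h
    rw [← hPdef]
    exact hs.2.1
  · -- (c)
    intro t t' g g' hG hL hR'
    obtain ⟨s, hs⟩ := (nmL_eq ..).1 hL
    obtain ⟨s', hs'⟩ := (nmR_eq ..).1 hR'
    rw [hGd] at hG
    have hgg : g = g' := hmatch t t' g g' hs.1 hs'.1 hG.1
    subst hgg
    have hss : s = s' := by
      by_contra hne
      have h3 := hm2 _ _ _ _ hs.2.2.2.2.2.2 hs'.2.2.2.2.2.1 (by simpa using hne)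
      rw [← pair_div hP hS hs hs'] at h3
      have h4 := hG.2 (lv g) (hlv g)
      omega
    obtain ⟨q1, q2, q3, q4⟩ := pair_beta hP hS hlv hs hs' hss
    refine ⟨rfl, ?_, ?_, ?_, ?_⟩
    · intro l hl; rw [hbeta]; exact q1 l hl
    · intro l hl hlm; rw [hbeta]; exact q2 l hl hlm
    · rw [hbeta]; exact q3
    · rw [hbeta]; exact q4
  · -- (d)
    intro t₁ t₁' t₂ t₂' g₁ g₁' g₂ g₂' hG hT h1 h1' h2 h2'
    obtain ⟨s₁, hs₁⟩ := (nmL_eq ..).1 h1
    obtain ⟨s₁', hs₁'⟩ := (nmR_eq ..).1 h1'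
    obtain ⟨s₂, hs₂⟩ := (nmL_eq ..).1 h2
    obtain ⟨s₂', hs₂'⟩ := (nmR_eq ..).1 h2'
    by_cases hex : ∃ k ∈ Ms, k ∣ t₁ + t₁'
    · exact huniq _ _ _ _ _ _ _ _ hs₁.1 hs₁'.1 hs₂.1 hs₂'.1 hT hex
    · push Not at hex
      have e1 : g₁ = g₁' := hmatch _ _ _ _ hs₁.1 hs₁'.1 hex
      have e2 : g₂ = g₂' := hmatch _ _ _ _ hs₂.1 hs₂'.1 (hT ▸ hex)
      subst e1 e2
      rw [hGd] at hG
      have hG2 : ∃ l < m, 2 * rho ≤ (Ms1.filter (· ∣ (t₁+t₁') / P l)).card := by
        by_contra hcon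
        push Not at hcon
        exact hG ⟨hex, hcon⟩
      obtain ⟨l, hl, hlc⟩ := hG2
      have hl1 : l = lv g₁ := by
        by_contra hne
        have := pair_card (Ms1 := Ms1) hP hS hk1 hs₁ hs₁' hl hne
        omega
      have hl2 : l = lv g₂ := by
        by_contra hne
        have := pair_card (Ms1 := Ms1) hP hS hk1 hs₂ hs₂' hl hne
        rw [← hT] at this
        omega
      have d1 := pair_div hP hS hs₁ hs₁'
      have d2 := pair_div hP hS hs₂ hs₂'
      rw [← hl1] at d1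
      rw [← hl2, ← hT] at d2
      have a1 := hs₁.2.2.2.2.2.2
      have a1' := hs₁'.2.2.2.2.2.1
      have a2 := hs₂.2.2.2.2.2.2
      have a2' := hs₂'.2.2.2.2.2.1
      rw [← hl1] at a1 a1'
      rw [← hl2] at a2 a2'
      have hne1 : ((g₁, s₁) : Γ × Fin (R*M0)) ≠ (g₁, s₁') := by
        intro he
        rw [← he] at a1'
        have := hm1 _ _ _ a1 a1'
        rw [← d1] at this
        omega
      have hne2 : ((g₂, s₂) : Γ × Fin (R*M0)) ≠ (g₂, s₂') := by
        intro he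
        rw [← he] at a2'
        have := hm1 _ _ _ a2 a2'
        rw [← d2] at this
        omega
      have hgg : g₁ = g₂ := by
        rcases hm3 _ _ _ _ _ _ _ _ a1 a1' a2 a2' (by rw [← d1, ← d2]) hne1 hne2 with h | h
        · exact (congrArg Prod.fst h.1).symm
        · exact (congrArg Prod.fst h.1).symm
      subst hgg
      exact ⟨rfl, rfl⟩
  · -- (e)
    intro n hn hnb
    rw [hBad] at hnb
    push Not at hnb
    obtain ⟨⟨hb1, hb2⟩, hb3, hb4⟩ := hnb
    refine ⟨?_, fun g => ?_⟩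
    · rw [hGd]
      refine ⟨hb3, fun l hl => ?_⟩
      have := (hb4 l hl).2
      omega
    · obtain ⟨i, hi⟩ : ∃ i, i = lv g := ⟨_, rfl⟩
      have him : i < m := hi ▸ hlv g
      obtain ⟨a, haM, haL, haR⟩ := hcompl n hb3 g
      have haP : a ≤ n % P 0 := by omega
      have hnP0 : n % P 0 < P 0 := Nat.mod_lt _ (hP 0)
      obtain ⟨σ, hσ⟩ : ∃ σ, σ = n % P 0 - a := ⟨_, rfl⟩
      have hσlt : σ < R * M0 := by rw [← hP0]; omega
      obtain ⟨τ, hτM, hτL, hτR⟩ := hm4 (n / P i) (hb4 i him).2 (g, ⟨σ, hσlt⟩)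
      have hPi0 : P 0 ∣ P i := P_dvd P Q hS (Nat.zero_le i)
      have hmm : n % P i % P 0 = n % P 0 := Nat.mod_mod_of_dvd n hPi0
      have hle : n % P 0 ≤ n % P i := by rw [← hmm]; exact Nat.mod_le _ _
      obtain ⟨w, hw⟩ : ∃ w, w = n % P i - σ := ⟨_, rfl⟩
      have hwσ : w + σ = n % P i := by omega
      have hnPi : n % P i < P i := Nat.mod_lt _ (hP i)
      have hwlt : w < P i := by omega
      have hw0 : w % P 0 = a := by
        have h5 : w = a + P 0 * (n % P i / P 0) := by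
          have := Nat.mod_add_div (n % P i) (P 0)
          rw [hmm] at this
          omega
        rw [h5, Nat.add_mul_mod_self_left, Nat.mod_eq_of_lt (by omega)]
      obtain ⟨t, ht⟩ : ∃ t, t = P m * (3 * i + 3) + (P i * τ + w) := ⟨_, rfl⟩
      obtain ⟨d, hd⟩ := PQ_dvd P Q hS him
      have htw : t = w + P i * (Q * (d * (3 * i + 3)) + τ) := by
        rw [ht, hd]; ring
      have hM1le : M1 ≤ Q := Nat.le_of_dvd hQp hM1Q
      have htdiv : t / P i = Q * (d * (3 * i + 3)) + τ := by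
        rw [htw, Nat.add_mul_div_left _ _ (hP i), Nat.div_eq_of_lt hwlt, zero_add]
      have htmod : t % P i = w := by
        rw [htw, Nat.add_mul_mod_self_left, Nat.mod_eq_of_lt hwlt]
      have htdig : t / P i % Q = τ := by
        rw [htdiv, Nat.mul_add_mod, Nat.mod_eq_of_lt (by omega)]
      have htS : t % P (i+1) = w + P i * τ := by
        rw [hS, Nat.mod_mul, htmod, htdig]
      have hlts : P i * τ + w < P (i+1) := by
        rw [hS]
        have : P i * τ + P i ≤ P i * Q := by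
          calc P i * τ + P i = P i * (τ + 1) := by ring
            _ ≤ P i * Q := Nat.mul_le_mul_left _ (by omega)
        omega
      have hPim : P (i+1) ≤ P m := Nat.le_of_dvd (hP m) (P_dvd P Q hS him)
      have htm : t % P m = P i * τ + w := by
        rw [ht, Nat.mul_add_mod, Nat.mod_eq_of_lt (by omega)]
      have htdm : t / P m = 3 * i + 3 := by
        rw [ht, Nat.mul_add_div (hP m), Nat.div_eq_of_lt (by omega), add_zero]
      have ht0 : t % P 0 = a := by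
        rw [← Nat.mod_mod_of_dvd t hPi0, htmod, hw0]
      have htlt : t < P m * (3 * m + 4) := by
        have : P m * (3 * i + 3) + P m ≤ P m * (3 * m + 4) := by
          calc P m * (3 * i + 3) + P m = P m * (3 * i + 4) := by ring
            _ ≤ P m * (3 * m + 4) := Nat.mul_le_mul_left _ (by omega)
        omega
      rw [← hPdef] at hn
      obtain ⟨t', ht'⟩ : ∃ t', t' = n - t := ⟨_, rfl⟩
      have hsum : t + t' = n := by omega
      have hta : t ≡ a [MOD M] := by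
        have h7 : t ≡ a [MOD P 0] := by
          unfold Nat.ModEq; rw [ht0, Nat.mod_eq_of_lt (by omega)]
        exact h7.of_dvd (hMM0.trans hM0P0)
      have ht'i : t' % P i = σ := by
        have h5 : (t + t') % P i = w + σ := by rw [hsum, hwσ]
        rw [Nat.add_mod, htmod] at h5
        have h6 : t' % P i < P i := Nat.mod_lt _ (hP i)
        rcases lt_or_ge (w + t' % P i) (P i) with h | h
        · rw [Nat.mod_eq_of_lt h] at h5; omega
        · rw [Nat.mod_eq_sub_mod h, Nat.mod_eq_of_lt (by omega)] at h5; omega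
      have ht'0 : t' % P 0 = σ := by
        rw [← Nat.mod_mod_of_dvd t' hPi0, ht'i, Nat.mod_eq_of_lt (by omega)]
      have h0 : t % P 0 + t' % P 0 < P 0 := by omega
      have hnci : t % P i + t' % P i < P i := by omega
      have hdi : n / P i = t / P i + t' / P i := by rw [← hsum]; exact (nc _ _ _ hnci).1
      have hdx : τ + t' / P i % Q = n / P i % Q := by
        have h5 : (t / P i + t' / P i) % Q = n / P i % Q := by rw [hdi]
        rw [Nat.add_mod, htdig] at h5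
        have h6 : t' / P i % Q < Q := Nat.mod_lt _ hQp
        have h7 := (hb4 i him).1
        rcases lt_or_ge (τ + t' / P i % Q) Q with h | h
        · rw [Nat.mod_eq_of_lt h] at h5; omega
        · rw [Nat.mod_eq_sub_mod h, Nat.mod_eq_of_lt (by omega)] at h5; omega
      have hb4i := (hb4 i him).1
      have hmid : t % P (i+1) + t' % P (i+1) < P (i+1) := by
        refine nc_mid P Q hS hnci ?_
        have : n / P i % Q < Q := Nat.mod_lt _ hQp
        omega
      have h1' : t' % P i = t' % P 0 := by rw [ht'i, ht'0]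
      refine ⟨t, t', hsum, (nmL_eq ..).2 ⟨⟨σ, hσlt⟩, ?_⟩, (nmR_eq ..).2 ⟨⟨σ, hσlt⟩, ?_⟩⟩
      · unfold CL
        rw [← hi]
        refine ⟨?_, by omega, htdm, by rw [htm, htS]; ring, ?_, by rw [htdig]; omega, ?_⟩
        · rw [per_modEq nL M hnLp t a hta, haL]
        · intro l hl
          rw [← Finset.filter_congr (p := (· ∣ (t + t') / P l)) (fun x hx =>
            dvd_low P Q hS hP hl h0 h1' (hk1 x hx)), hsum]
          exact (hb4 l (hl.trans him)).2
        · rw [htdiv, Nat.add_comm, mul_comm Q]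
          rw [per_dvd nL1 M' hnLp1 τ _ ((hMM1.trans hM1Q).mul_left _), hτL]
      · unfold CR
        rw [← hi]
        refine ⟨?_, by omega, by omega, h1', by omega, ?_, by rw [ht'0], ?_⟩
        · apply haR
          calc a + t' ≡ t + t' [MOD M] := Nat.ModEq.add_right _ hta.symm
            _ = n := hsum
        · apply hτR
          rw [hdi, htdiv]
          apply Nat.ModEq.add_right
          unfold Nat.ModEq
          obtain ⟨c, hc⟩ := hMM1.trans hM1Q
          rw [hc, mul_assoc, Nat.mul_add_mod]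
        · intro l hl hlm
          rw [← Finset.filter_congr (p := (· ∣ (t + t') / P l)) (fun x hx =>
            dvd_high P Q hS hP hl hlm hmid (by rw [htm, htS]; ring) (hk1 x hx)), hsum]
          exact (hb4 l hlm).2
  · -- period nmR
    intro t ht
    rw [← hPdef] at ht ⊢
    apply Option.ext
    intro g
    rw [nmR_eq, nmR_eq]
    refine exists_congr fun s => ?_
    unfold CR
    obtain ⟨d, hd⟩ := hdiv (lv g) (hlv g) t
    rw [hnRper, hmod 0 (Nat.zero_le m), hmod (lv g) (hlv g).le, hd, Nat.add_mul_mod_self_left,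
      per_dvd nR1 M' hnRp1 _ _ ((hMM1.trans hM1Q).mul_right d)]
    refine and_congr Iff.rfl (and_congr ⟨fun _ => ht, fun _ => by omega⟩
      (and_congr Iff.rfl (and_congr Iff.rfl (and_congr Iff.rfl (and_congr Iff.rfl
      (and_congr Iff.rfl ?_))))))
    refine forall_congr' fun l => forall_congr' fun _ => forall_congr' fun hl => ?_
    rw [hcardper l hl]
  · -- period bR
    intro t ht l hl
    rw [← hPdef] at ht ⊢
    unfold bR
    rw [hnRper]
    cases hcase : nR t with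
    | none => rfl
    | some g =>
      simp only
      rw [hmod l hl]
      have h3 : t % P l < P l := Nat.mod_lt _ (hP l)
      have h4 : P l ≤ P m := Nat.le_of_dvd (hP m) (P_dvd P Q hS hl)
      have h6 : P m * (3 * l + 2) + P m ≤ P m * (3 * m + 4) := by
        calc P m * (3 * l + 2) + P m = P m * (3 * l + 3) := by ring
          _ ≤ P m * (3 * m + 4) := Nat.mul_le_mul_left _ (by omega)
      omega
  · -- period Gd
    intro n
    rw [← hPdef, hGd]
    refine and_congr ?_ ?_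
    · exact forall₂_congr fun k hk => not_congr (hkper k hk n)
    · refine forall₂_congr fun l hl => ?_
      rw [hcardper l hl]
  · -- period Bad
    intro n
    rw [hBad, hBad, ← hPdef, hmod 0 (Nat.zero_le m)]
    refine or_congr Iff.rfl (or_congr ?_ ?_)
    · refine exists_congr fun k => and_congr_right fun hk => hkper k hk n
    · refine exists_congr fun l => and_congr_right fun hl => ?_
      rw [hcardper l hl]
      obtain ⟨d, hd⟩ := hdiv l hl n
      rw [hd, Nat.add_mul_mod_self_left]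

end Crest.Agent.R320.Clk_208
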