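import Crest.Agent.R320.LN_601
import Crest.Agent.R320.Names_755

set_option autoImplicit false

/-!
Row 320, TEAM U, LEAF U2 (`clocks` of 638 #13273), copy by helper307, with periodicity.
-/

namespace Crest.Agent.R320.Clk_307

open Classical

def PP (R M0 M1 l : ℕ) := (R*M0) * (R*M1)^l

def beta (R M0 M1 m n l : ℕ) := PP R M0 M1 m * (3*l+2) + n % PP R M0 M1 l

def Bad (R M0 M1 m rho : ℕ) (Ms Ms1 : Finset ℕ) (n : ℕ) : Prop :=
  (n % (R*M0) < M0 ∨ R*M0 ≤ n % (R*M0) + M0) ∨ (∃ k ∈ Ms, k ∣ n) ∨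
    ∃ l < m, ((n / PP R M0 M1 l) % (R*M1) < M1 ∨ R*M1 ≤ (n / PP R M0 M1 l) % (R*M1) + M1) ∨
      rho ≤ (Ms1.filter (· ∣ n / PP R M0 M1 l)).card

section digits

def dg (A Q l n : ℕ) : ℕ := (n / (A * Q^l)) % Q

theorem dg_lt {A Q : ℕ} (hQ : 0 < Q) (l n : ℕ) : dg A Q l n < Q := Nat.mod_lt _ hQ

theorem mod_succ (A Q l n : ℕ) :
    n % (A*Q^(l+1)) = n % (A*Q^l) + A*Q^l * dg A Q l n := by
  rw [pow_succ, ← mul_assoc, Nat.mod_mul]; rfl

theorem nocarry {A Q m t t' : ℕ} (h0 : t % A + t' % A < A)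
    (h : ∀ l < m, dg A Q l t + dg A Q l t' < Q) :
    ∀ l ≤ m, t % (A*Q^l) + t' % (A*Q^l) < A*Q^l := by
  intro l
  induction l with
  | zero => intro _; simpa using h0
  | succ l ih =>
    intro hl
    have h1 := ih (by omega)
    have h2 := h l (by omega)
    rw [mod_succ, mod_succ]
    have h4 : A*Q^(l+1) = A*Q^l * Q := by ring
    rw [h4]
    generalize A*Q^l = P at *
    generalize dg A Q l t = a at *
    generalize dg A Q l t' = b at *
    have h3 : P * (a + b + 1) ≤ P * Q := Nat.mul_le_mul_left _ h2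
    have h5 : P * (a + b + 1) = P * a + P * b + P := by ring
    omega

theorem add_mod' {P t t' : ℕ} (h : t % P + t' % P < P) : (t + t') % P = t % P + t' % P := by
  rw [Nat.add_mod, Nat.mod_eq_of_lt h]

theorem add_div' {P t t' : ℕ} (h : t % P + t' % P < P) : (t + t') / P = t / P + t' / P := by
  have hP : 0 < P := by omega
  rw [Nat.add_div hP, if_neg (by omega)]; rfl

theorem dg_add {A Q m t t' : ℕ} (h0 : t % A + t' % A < A)
    (h : ∀ l < m, dg A Q l t + dg A Q l t' < Q) {l : ℕ} (hl : l < m) :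
    dg A Q l (t + t') = dg A Q l t + dg A Q l t' := by
  unfold dg
  rw [add_div' (nocarry h0 h l hl.le), Nat.add_mod]
  exact Nat.mod_eq_of_lt (h l hl)

theorem dvd_dg {A Q k : ℕ} (hk : k ∣ Q) (l n : ℕ) : k ∣ dg A Q l n ↔ k ∣ n / (A * Q^l) :=
  Nat.dvd_mod_iff hk

/-- subtraction without borrow, one modulus -/
theorem sub_mod' {P t T : ℕ} (h : t % P ≤ T % P) (h' : t ≤ T) :
    (T - t) % P = T % P - t % P ∧ (T - t) / P = T / P - t / P := by
  rcases Nat.eq_zero_or_pos P with hP | hP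
  · subst hP; simp
  have e1 := Nat.div_add_mod T P
  have e2 := Nat.div_add_mod t P
  have hd : t / P ≤ T / P := Nat.div_le_div_right h'
  have e3 : T - t = (T % P - t % P) + P * (T / P - t / P) := by
    rw [Nat.mul_sub]
    have := Nat.mul_le_mul_left P hd
    omega
  have hlt : T % P - t % P < P := lt_of_le_of_lt (Nat.sub_le _ _) (Nat.mod_lt _ hP)
  constructor
  · rw [e3, Nat.add_mul_mod_self_left, Nat.mod_eq_of_lt hlt]
  · rw [e3, Nat.add_mul_div_left _ _ hP, Nat.div_eq_of_lt hlt, Nat.zero_add]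

theorem low_le {A Q m t T : ℕ} (h0 : t % A ≤ T % A)
    (h : ∀ l < m, dg A Q l t ≤ dg A Q l T) :
    ∀ l ≤ m, t % (A*Q^l) ≤ T % (A*Q^l) := by
  intro l
  induction l with
  | zero => intro _; simpa using h0
  | succ l ih =>
    intro hl
    rw [mod_succ, mod_succ]
    exact Nat.add_le_add (ih (by omega)) (Nat.mul_le_mul_left _ (h l (by omega)))

theorem le_of_digits {A Q m t T : ℕ} (h0 : t % A ≤ T % A)
    (h : ∀ l < m, dg A Q l t ≤ dg A Q l T) (ht : t / (A*Q^m) ≤ T / (A*Q^m)) : t ≤ T := by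
  have h1 := low_le h0 h m le_rfl
  have e1 := Nat.div_add_mod T (A*Q^m)
  have e2 := Nat.div_add_mod t (A*Q^m)
  have := Nat.mul_le_mul_left (A*Q^m) ht
  omega

theorem dg_sub {A Q m t T : ℕ} (h0 : t % A ≤ T % A)
    (h : ∀ l < m, dg A Q l t ≤ dg A Q l T) (ht : t / (A*Q^m) ≤ T / (A*Q^m))
    {l : ℕ} (hl : l < m) : dg A Q l (T - t) = dg A Q l T - dg A Q l t := by
  have hle := le_of_digits h0 h ht
  have h1 := low_le h0 h l hl.le
  unfold dg
  rw [(sub_mod' h1 hle).2]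
  exact (sub_mod' (h l hl) (Nat.div_le_div_right hle)).1

/-- a number with prescribed digits -/
theorem exists_digits {A Q : ℕ} (hA : 0 < A) (hQ : 0 < Q) {s : ℕ} (hs : s < A) (f : ℕ → ℕ)
    (hf : ∀ l, f l < Q) : ∀ m top : ℕ, ∃ t : ℕ, t % A = s ∧ (∀ l < m, dg A Q l t = f l) ∧
      t / (A*Q^m) = top := by
  intro m
  induction m with
  | zero =>
    intro top
    refine ⟨s + A * top, ?_, fun l hl => absurd hl (by omega), ?_⟩
    · rw [Nat.add_mul_mod_self_left, Nat.mod_eq_of_lt hs]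
    · rw [pow_zero, mul_one, Nat.add_mul_div_left _ _ hA, Nat.div_eq_of_lt hs, Nat.zero_add]
  | succ m ih =>
    intro top
    obtain ⟨t, h1, h2, h3⟩ := ih (f m + Q * top)
    refine ⟨t, h1, ?_, ?_⟩
    · intro l hl
      rcases Nat.lt_or_ge l m with h | h
      · exact h2 l h
      · have : l = m := by omega
        subst this
        unfold dg
        rw [h3, Nat.add_mul_mod_self_left, Nat.mod_eq_of_lt (hf _)]
    · rw [pow_succ, ← mul_assoc, ← Nat.div_div_eq_div_mul, h3, Nat.add_mul_div_left _ _ hQ,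
        Nat.div_eq_of_lt (hf _), Nat.zero_add]

end digits

/-- data of the two clocks: star names (sL, sR) and level names (lL, lR). -/
structure Pr (Γ C : Type) (A : ℕ) where
  (Q M0 M1 m rho : ℕ)
  lv : Γ → ℕ
  col : Γ → C
  (Ms Ms1 : Finset ℕ)
  (sL sR : ℕ → Option Γ)
  (lL lR : ℕ → Option (Γ × Fin A))
  hA : 0 < A
  hQ : 0 < Q
  dA : M0 ∣ A
  dQ : M1 ∣ Q
  hlv : ∀ g, lv g < m
  hrho : 0 < rho
  kM0 : ∀ k ∈ Ms, k ∣ M0
  kM1 : ∀ k ∈ Ms1, k ∣ M1
  s_good : ∀ t t' c c', sL t = some c → sR t' = some c' → (∀ k ∈ Ms, ¬ k ∣ t + t') → c = c'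
  s_comp : ∀ T, (∀ k ∈ Ms, ¬ k ∣ T) → ∀ c, ∃ t < M0, sL t = some c ∧
        ∀ t', t + t' ≡ T [MOD M0] → sR t' = some c
  s_bad : ∀ t₁ t₁' t₂ t₂' c₁ c₁' c₂ c₂', sL t₁ = some c₁ → sR t₁' = some c₁' →
        sL t₂ = some c₂ → sR t₂' = some c₂' → t₁ + t₁' = t₂ + t₂' →
        (∃ k ∈ Ms, k ∣ t₁ + t₁') → col c₁ = col c₂ ∧ col c₁' = col c₂'
  l_match : ∀ t t' c, lL t = some c → lR t' = some c → (Ms1.filter (· ∣ t + t')).card < 2 * rho
  l_mis : ∀ t t' c c', lL t = some c → lR t' = some c' → c ≠ c' →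
        2 * rho ≤ (Ms1.filter (· ∣ t + t')).card
  l_swap : ∀ t₁ t₁' t₂ t₂' c₁ c₁' c₂ c₂', lL t₁ = some c₁ → lR t₁' = some c₁' →
        lL t₂ = some c₂ → lR t₂' = some c₂' → t₁ + t₁' = t₂ + t₂' → c₁ ≠ c₁' → c₂ ≠ c₂' →
        (c₂ = c₁ ∧ c₂' = c₁') ∨ (c₂ = c₁' ∧ c₂' = c₁)
  l_comp : ∀ T, (Ms1.filter (· ∣ T)).card < rho → ∀ c, ∃ t < M1, lL t = some c ∧
        ∀ t', t + t' ≡ T [MOD M1] → lR t' = some c

namespace Pr

variable {Γ C : Type} {A : ℕ} (X : Pr Γ C A)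

def cnt (n : ℕ) : ℕ := (X.Ms1.filter (· ∣ n)).card

theorem kQ {k : ℕ} (hk : k ∈ X.Ms1) : k ∣ X.Q := (X.kM1 k hk).trans X.dQ

theorem kA {k : ℕ} (hk : k ∈ X.Ms) : k ∣ A := (X.kM0 k hk).trans X.dA

theorem cnt_dg (l n : ℕ) : X.cnt (dg A X.Q l n) = X.cnt (n / (A * X.Q^l)) := by
  unfold cnt
  congr 1
  apply Finset.filter_congr
  intro k hk
  exact dvd_dg (X.kQ hk) l n

def LLc (t : ℕ) (g : Γ) : Prop :=
  t % A < X.M0 ∧ t / (A * X.Q^X.m) = 3 * X.lv g + 3 ∧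
  (∀ l, X.lv g < l → l < X.m → dg A X.Q l t = 0) ∧
  (∀ l, l < X.lv g → X.cnt (dg A X.Q l t) < X.rho) ∧
  dg A X.Q (X.lv g) t < X.M1 ∧ ∃ s, X.lL (dg A X.Q (X.lv g) t) = some (g, s)

def RRc (t : ℕ) (g : Γ) : Prop :=
  t % A + X.M0 ≤ A ∧ (∀ l, l < X.lv g → dg A X.Q l t = 0) ∧
  dg A X.Q (X.lv g) t + X.M1 ≤ X.Q ∧
  X.lR (dg A X.Q (X.lv g) t) = some (g, ⟨t % A, Nat.mod_lt _ X.hA⟩) ∧
  (∀ l, X.lv g < l → l < X.m → X.cnt (dg A X.Q l t) < X.rho) ∧
  A * X.Q^X.m * (3 * X.m + 4) ≤ t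

noncomputable def nmL (t : ℕ) : Option Γ := (X.sL (t % A)).bind fun g => if X.LLc t g then some g else none

noncomputable def nmR (t : ℕ) : Option Γ := (X.sR (t % A)).bind fun g => if X.RRc t g then some g else none

theorem nmL_iff {t : ℕ} {g : Γ} : X.nmL t = some g ↔ X.sL (t % A) = some g ∧ X.LLc t g := by
  unfold nmL
  cases h : X.sL (t % A) with
  | none => simp
  | some g' =>
    simp only [Option.bind_some, Option.some.injEq]
    constructor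
    · intro h'
      split_ifs at h' with h2
      simp only [Option.some.injEq] at h'
      subst h'
      exact ⟨rfl, h2⟩
    · rintro ⟨rfl, h2⟩
      rw [if_pos h2]

theorem nmR_iff {t : ℕ} {g : Γ} : X.nmR t = some g ↔ X.sR (t % A) = some g ∧ X.RRc t g := by
  unfold nmR
  cases h : X.sR (t % A) with
  | none => simp
  | some g' =>
    simp only [Option.bind_some, Option.some.injEq]
    constructor
    · intro h'
      split_ifs at h' with h2
      simp only [Option.some.injEq] at h'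
      subst h'
      exact ⟨rfl, h2⟩
    · rintro ⟨rfl, h2⟩
      rw [if_pos h2]

/-- the right star digit claimed by the left name -/
noncomputable def sg (t : ℕ) : ℕ :=
  ((X.nmL t).bind fun g => X.lL (dg A X.Q (X.lv g) t)).elim 0 fun c => (c.2 : ℕ)

noncomputable def bL (t l : ℕ) : ℕ :=
  A * X.Q^X.m * (3*l+2) + (t + X.sg t) % (A * X.Q^l)

noncomputable def bR (t l : ℕ) : ℕ :=
  A * X.Q^X.m * (3 * ((X.nmR t).elim 0 X.lv) + 3) + (t - t % (A * X.Q^l))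
    - A * X.Q^X.m * (3*l+2)

def Gd (n : ℕ) : Prop := (∀ k ∈ X.Ms, ¬ k ∣ n) ∧ ∀ l < X.m, X.cnt (n / (A * X.Q^l)) < 2 * X.rho

section pair

variable {X} {t t' : ℕ} {g : Γ} (hl : X.LLc t g) (hr : X.RRc t' g)
include hl hr

theorem star_lt : t % A + t' % A < A := by
  have h1 := hl.1
  have h2 := hr.1
  omega

theorem dig_lt : ∀ l < X.m, dg A X.Q l t + dg A X.Q l t' < X.Q := by
  intro l hlm
  obtain ⟨_, _, h3, _, h5, _⟩ := hl
  obtain ⟨_, k2, k3, _, _, _⟩ := hr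
  rcases lt_trichotomy l (X.lv g) with h | h | h
  · rw [k2 l h, Nat.add_zero]; exact dg_lt X.hQ _ _
  · subst h; omega
  · rw [h3 l h hlm, Nat.zero_add]; exact dg_lt X.hQ _ _

theorem star_sum : (t + t') % A = t % A + t' % A := add_mod' (star_lt hl hr)

theorem dig_sum {l : ℕ} (h : l < X.m) : dg A X.Q l (t + t') = dg A X.Q l t + dg A X.Q l t' :=
  dg_add (star_lt hl hr) (dig_lt hl hr) h

theorem mod_sum {l : ℕ} (h : l ≤ X.m) :
    (t + t') % (A * X.Q^l) = t % (A * X.Q^l) + t' % (A * X.Q^l) :=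
  add_mod' (nocarry (star_lt hl hr) (dig_lt hl hr) l h)

theorem cnt_low {l : ℕ} (h : l < X.lv g) : X.cnt ((t + t') / (A * X.Q^l)) < X.rho := by
  have hm := X.hlv g
  rw [← X.cnt_dg, dig_sum hl hr (by omega), hr.2.1 l h, Nat.add_zero]
  exact hl.2.2.2.1 l h

theorem cnt_high {l : ℕ} (h : X.lv g < l) (hm : l < X.m) :
    X.cnt ((t + t') / (A * X.Q^l)) < X.rho := by
  rw [← X.cnt_dg, dig_sum hl hr hm, hl.2.2.1 l h hm, Nat.zero_add]
  exact hr.2.2.2.2.1 l h hm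

/-- `t' % PP l` is the star digit for `l ≤ lv g` -/
theorem right_low : ∀ l ≤ X.lv g, t' % (A * X.Q^l) = t' % A := by
  have _ := hl
  intro l
  induction l with
  | zero => intro _; simp
  | succ l ih =>
    intro h
    rw [mod_succ, hr.2.1 l (by omega), Nat.mul_zero, Nat.add_zero]
    exact ih (by omega)

/-- `t % PP l = t % PP m` for `l > lv g` -/
theorem left_high : ∀ l, X.lv g < l → l ≤ X.m → ∀ d, l + d = X.m →
    t % (A * X.Q^X.m) = t % (A * X.Q^l) := by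
  have _ := hr
  intro l h1 h2 d
  induction d generalizing l with
  | zero => intro h; have : l = X.m := by omega
            subst this; rfl
  | succ d ih =>
    intro h
    rw [ih (l+1) (by omega) (by omega) (by omega), mod_succ, hl.2.2.1 l h1 (by omega),
      Nat.mul_zero, Nat.add_zero]

end pair

/-- on good totals the names agree -/
theorem same_of_good {t t' : ℕ} {g g' : Γ} (hG : ∀ k ∈ X.Ms, ¬ k ∣ t + t')
    (h : X.nmL t = some g) (h' : X.nmR t' = some g') : g = g' := by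
  rw [nmL_iff] at h
  rw [nmR_iff] at h'
  refine X.s_good _ _ _ _ h.1 h'.1 ?_
  intro k hk hd
  apply hG k hk
  have h1 : t % A + t' % A = (t + t') % A := by
    have a1 := h.2.1
    have a2 := h'.2.1
    exact (add_mod' (by omega)).symm
  rw [h1] at hd
  exact (Nat.dvd_mod_iff (X.kA hk)).1 hd

theorem sg_eq {t t' : ℕ} {g : Γ} (hG : X.Gd (t + t'))
    (h : X.nmL t = some g) (h' : X.nmR t' = some g) : X.sg t = t' % A := by
  have hl := (X.nmL_iff.1 h).2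
  have hr := (X.nmR_iff.1 h').2
  obtain ⟨s, hs⟩ := hl.2.2.2.2.2
  have hc := hG.2 (X.lv g) (X.hlv g)
  rw [← X.cnt_dg, dig_sum hl hr (X.hlv g)] at hc
  have he : (g, s) = (g, (⟨t' % A, Nat.mod_lt _ X.hA⟩ : Fin A)) := by
    by_contra hne
    have := X.l_mis _ _ _ _ hs hr.2.2.2.1 hne
    unfold cnt at hc
    omega
  unfold sg
  rw [h, Option.bind_some, hs, Option.elim_some, he]

theorem main_good {t t' : ℕ} {g g' : Γ} (hG : X.Gd (t + t'))
    (h : X.nmL t = some g) (h' : X.nmR t' = some g') : g = g' ∧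
      (∀ l ≤ X.lv g, X.bL t l = A * X.Q^X.m * (3*l+2) + (t + t') % (A * X.Q^l)) ∧
      (∀ l, X.lv g < l → l ≤ X.m →
        X.bR t' l + (A * X.Q^X.m * (3*l+2) + (t + t') % (A * X.Q^l)) = t + t') ∧
      A * X.Q^X.m * (3*(X.lv g)+2) + (t + t') % (A * X.Q^(X.lv g)) ≤ t ∧
      t ≤ A * X.Q^X.m * (3*(X.lv g + 1)+2) + (t + t') % (A * X.Q^(X.lv g + 1)) := by
  have hgg := X.same_of_good hG.1 h h'
  subst hgg
  have hl := (X.nmL_iff.1 h).2
  have hr := (X.nmR_iff.1 h').2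
  have hm := X.hlv g
  have hPm : 0 < A * X.Q^X.m := Nat.mul_pos X.hA (Nat.pow_pos X.hQ)
  have htm := Nat.div_add_mod t (A * X.Q^X.m)
  have htl := Nat.mod_lt t hPm
  have htop := hl.2.1
  rw [htop] at htm
  have hP1 : A * X.Q^X.m * (3 * X.lv g + 3) = A * X.Q^X.m * (3 * X.lv g + 2) + A * X.Q^X.m := by ring
  refine ⟨rfl, ?_, ?_, ?_, ?_⟩
  · intro l hll
    unfold bL
    rw [X.sg_eq hG h h', ← right_low hl hr l hll, Nat.add_mod_mod]
  · intro l h1 h2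
    unfold bR
    rw [h', Option.elim_some, mod_sum hl hr h2]
    have e1 := left_high hl hr l h1 h2 (X.m - l) (by omega)
    have e2 : t' % (A * X.Q^l) ≤ t' := Nat.mod_le _ _
    have e3 : A * X.Q^X.m * (3 * l + 2) ≤ A * X.Q^X.m * (3 * X.m + 2) :=
      Nat.mul_le_mul_left _ (by omega)
    have e4 : A * X.Q^X.m * (3 * X.m + 4) = A * X.Q^X.m * (3 * X.m + 2) + 2 * (A * X.Q^X.m) := by
      ring
    have e5 := hr.2.2.2.2.2
    have e6 : t' % (A * X.Q^l) ≤ A * X.Q^X.m := by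
      have a1 : 0 < A * X.Q^l := Nat.mul_pos X.hA (Nat.pow_pos X.hQ)
      have a2 := Nat.mod_lt t' a1
      have a3 : A * X.Q^l ≤ A * X.Q^X.m :=
        Nat.mul_le_mul_left _ (Nat.pow_le_pow_right X.hQ h2)
      omega
    omega
  · have a0 : 0 < A * X.Q^(X.lv g) := Nat.mul_pos X.hA (Nat.pow_pos X.hQ)
    have a2 := Nat.mod_lt (t + t') a0
    have a3 : A * X.Q^(X.lv g) ≤ A * X.Q^X.m :=
        Nat.mul_le_mul_left _ (Nat.pow_le_pow_right X.hQ hm.le)
    omega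
  · have a4 : A * X.Q^X.m * (3*(X.lv g + 1)+2) = A * X.Q^X.m * (3 * X.lv g + 3) + 2 * (A * X.Q^X.m) := by
      ring
    omega

theorem main_bad {t₁ t₁' t₂ t₂' : ℕ} {g₁ g₁' g₂ g₂' : Γ} (hG : ¬ X.Gd (t₁ + t₁'))
    (hsum : t₁ + t₁' = t₂ + t₂') (h1 : X.nmL t₁ = some g₁) (h1' : X.nmR t₁' = some g₁')
    (h2 : X.nmL t₂ = some g₂) (h2' : X.nmR t₂' = some g₂') :
    X.col g₁ = X.col g₂ ∧ X.col g₁' = X.col g₂' := by
  have k1 := (X.nmL_iff.1 h1)
  have k1' := (X.nmR_iff.1 h1')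
  have k2 := (X.nmL_iff.1 h2)
  have k2' := (X.nmR_iff.1 h2')
  have s1 : t₁ % A + t₁' % A = (t₁ + t₁') % A := by
    have a1 := k1.2.1
    have a2 := k1'.2.1
    exact (add_mod' (by omega)).symm
  have s2 : t₂ % A + t₂' % A = (t₂ + t₂') % A := by
    have a1 := k2.2.1
    have a2 := k2'.2.1
    exact (add_mod' (by omega)).symm
  by_cases hk : ∃ k ∈ X.Ms, k ∣ t₁ + t₁'
  · refine X.s_bad _ _ _ _ _ _ _ _ k1.1 k1'.1 k2.1 k2'.1 ?_ ?_
    · rw [s1, s2, hsum]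
    · obtain ⟨k, hk, hd⟩ := hk
      refine ⟨k, hk, ?_⟩
      rw [s1]
      exact (Nat.dvd_mod_iff (X.kA hk)).2 hd
  · have hk' : ∀ k ∈ X.Ms, ¬ k ∣ t₁ + t₁' := by
      intro k hkm hd; exact hk ⟨k, hkm, hd⟩
    have e1 := X.same_of_good hk' h1 h1'
    have e2 := X.same_of_good (by rw [← hsum]; exact hk') h2 h2'
    subst e1 e2
    have : ∃ l < X.m, 2 * X.rho ≤ X.cnt ((t₁ + t₁') / (A * X.Q^l)) := by
      by_contra hcon
      push Not at hcon
      exact hG ⟨hk', hcon⟩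
    obtain ⟨l, hlm, hc⟩ := this
    have hrho := X.hrho
    have q1 : X.lv g₁ = l := by
      rcases lt_trichotomy l (X.lv g₁) with h | h | h
      · have := cnt_low k1.2 k1'.2 h
        omega
      · exact h.symm
      · have := cnt_high k1.2 k1'.2 h hlm
        omega
    have q2 : X.lv g₂ = l := by
      rcases lt_trichotomy l (X.lv g₂) with h | h | h
      · have := cnt_low k2.2 k2'.2 h
        rw [← hsum] at this
        omega
      · exact h.symm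
      · have := cnt_high k2.2 k2'.2 h hlm
        rw [← hsum] at this
        omega
    obtain ⟨x1, hx1⟩ := k1.2.2.2.2.2.2
    obtain ⟨x2, hx2⟩ := k2.2.2.2.2.2.2
    have y1 := k1'.2.2.2.2.1
    have y2 := k2'.2.2.2.2.1
    have d1 := dig_sum k1.2 k1'.2 (X.hlv g₁)
    have d2 := dig_sum k2.2 k2'.2 (X.hlv g₂)
    rw [q1] at hx1 y1 d1
    rw [q2] at hx2 y2 d2
    have hne1 : (g₁, x1) ≠ (g₁, (⟨t₁' % A, Nat.mod_lt _ X.hA⟩ : Fin A)) := by
      intro he
      rw [he] at hx1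
      have := X.l_match _ _ _ hx1 y1
      rw [← d1] at this
      have h3 := X.cnt_dg l (t₁ + t₁')
      unfold cnt at h3 hc
      omega
    have hne2 : (g₂, x2) ≠ (g₂, (⟨t₂' % A, Nat.mod_lt _ X.hA⟩ : Fin A)) := by
      intro he
      rw [he] at hx2
      have := X.l_match _ _ _ hx2 y2
      rw [← d2, ← hsum] at this
      have h3 := X.cnt_dg l (t₁ + t₁')
      unfold cnt at h3 hc
      omega
    have hgg : g₂ = g₁ := by
      rcases X.l_swap _ _ _ _ _ _ _ _ hx1 y1 hx2 y2 (by rw [← d1, ← d2, hsum]) hne1 hne2 with h | h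
      · exact congrArg Prod.fst h.1
      · exact congrArg Prod.fst h.1
    subst hgg
    exact ⟨rfl, rfl⟩

theorem main_comp {n : ℕ} (hn : 2 * (A * X.Q^X.m * (3 * X.m + 4)) ≤ n)
    (h1 : X.M0 ≤ n % A) (h2 : n % A + X.M0 < A) (h3 : ∀ k ∈ X.Ms, ¬ k ∣ n)
    (h4 : ∀ l < X.m, X.M1 ≤ dg A X.Q l n) (h5 : ∀ l < X.m, dg A X.Q l n + X.M1 < X.Q)
    (h6 : ∀ l < X.m, X.cnt (n / (A * X.Q^l)) < X.rho) (g : Γ) :
    ∃ t t', t + t' = n ∧ X.nmL t = some g ∧ X.nmR t' = some g := by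
  have hm := X.hlv g
  have hPm : 0 < A * X.Q^X.m := Nat.mul_pos X.hA (Nat.pow_pos X.hQ)
  obtain ⟨s, hs, hs1, hs2⟩ := X.s_comp (n % A) (by
    intro k hk hd
    exact h3 k hk ((Nat.dvd_mod_iff (X.kA hk)).1 hd)) g
  have hlt : n % A - s < A := lt_of_le_of_lt (Nat.sub_le _ _) (Nat.mod_lt _ X.hA)
  obtain ⟨d, hd, hd1, hd2⟩ := X.l_comp (dg A X.Q (X.lv g) n)
    (by have := h6 (X.lv g) hm; rw [← X.cnt_dg] at this; exact this) (g, ⟨n % A - s, hlt⟩)
  have h4' := h4 (X.lv g) hm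
  have h5' := h5 (X.lv g) hm
  obtain ⟨t, u1, u2, u3⟩ := exists_digits X.hA X.hQ (s := s) (by omega)
    (fun l => if l < X.lv g then dg A X.Q l n else if l = X.lv g then d else 0)
    (by
      intro l
      split_ifs
      · exact dg_lt X.hQ _ _
      · omega
      · exact X.hQ) X.m (3 * X.lv g + 3)
  have c0 : t % A ≤ n % A := by omega
  have c1 : ∀ l < X.m, dg A X.Q l t ≤ dg A X.Q l n := by
    intro l hl
    rw [u2 l hl]
    split_ifs with a b
    · exact le_rfl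
    · subst b; omega
    · exact Nat.zero_le _
  have c2 : t / (A * X.Q^X.m) ≤ n / (A * X.Q^X.m) := by
    rw [u3, Nat.le_div_iff_mul_le hPm]
    have : (3 * X.lv g + 3) * (A * X.Q^X.m) ≤ (3 * X.m + 4) * (A * X.Q^X.m) :=
      Nat.mul_le_mul_right _ (by omega)
    have e : (3 * X.m + 4) * (A * X.Q^X.m) = A * X.Q^X.m * (3 * X.m + 4) := by ring
    omega
  have hle := le_of_digits c0 c1 c2
  have hst : (n - t) % A = n % A - s := by
    rw [(sub_mod' c0 hle).1, u1]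
  have hdl : ∀ l < X.lv g, dg A X.Q l (n - t) = 0 := by
    intro l hl
    rw [dg_sub c0 c1 c2 (by omega), u2 l (by omega), if_pos hl, Nat.sub_self]
  have hdi : dg A X.Q (X.lv g) (n - t) = dg A X.Q (X.lv g) n - d := by
    rw [dg_sub c0 c1 c2 hm, u2 _ hm, if_neg (lt_irrefl _), if_pos rfl]
  have hdh : ∀ l, X.lv g < l → l < X.m → dg A X.Q l (n - t) = dg A X.Q l n := by
    intro l hl hl'
    rw [dg_sub c0 c1 c2 hl', u2 l hl', if_neg (by omega), if_neg (by omega), Nat.sub_zero]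
  refine ⟨t, n - t, by omega, ?_, ?_⟩
  · rw [nmL_iff]
    refine ⟨by rw [u1]; exact hs1, by rw [u1]; exact hs, u3, ?_, ?_, ?_, ?_⟩
    · intro l hl hl'
      rw [u2 l hl', if_neg (by omega), if_neg (by omega)]
    · intro l hl
      rw [u2 l (by omega), if_pos hl, X.cnt_dg]
      exact h6 l (by omega)
    · rw [u2 _ hm, if_neg (lt_irrefl _), if_pos rfl]; exact hd
    · refine ⟨⟨n % A - s, hlt⟩, ?_⟩
      rw [u2 _ hm, if_neg (lt_irrefl _), if_pos rfl]; exact hd1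
  · rw [nmR_iff]
    refine ⟨?_, ?_, hdl, ?_, ?_, ?_, ?_⟩
    · apply hs2
      rw [hst]
      have : s + (n % A - s) = n % A := by omega
      rw [this]
    · rw [hst]; omega
    · rw [hdi]; omega
    · rw [hdi]
      have e1 : (⟨(n - t) % A, Nat.mod_lt _ X.hA⟩ : Fin A) = ⟨n % A - s, hlt⟩ := by
        apply Fin.ext; exact hst
      rw [e1]
      apply hd2
      have : d + (dg A X.Q (X.lv g) n - d) = dg A X.Q (X.lv g) n := by omega
      rw [this]
    · intro l hl hl'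
      rw [hdh l hl hl', X.cnt_dg]
      exact h6 l hl'
    · have e1 := Nat.div_add_mod t (A * X.Q^X.m)
      have e2 := Nat.mod_lt t hPm
      rw [u3] at e1
      have e3 : A * X.Q^X.m * (3 * X.lv g + 3) + A * X.Q^X.m ≤ A * X.Q^X.m * (3 * X.m + 4) := by
        have : A * X.Q^X.m * (3 * X.lv g + 3) + A * X.Q^X.m = A * X.Q^X.m * (3 * X.lv g + 4) := by
          ring
        rw [this]
        exact Nat.mul_le_mul_left _ (by omega)
      omega

/-- shifts by `PP m` -/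
theorem div_shift {l : ℕ} (hl : l < X.m) (n : ℕ) :
    (n + A * X.Q^X.m) / (A * X.Q^l) = n / (A * X.Q^l) + X.Q * X.Q^(X.m - l - 1) := by
  have hP : 0 < A * X.Q^l := Nat.mul_pos X.hA (Nat.pow_pos X.hQ)
  have e : A * X.Q^X.m = A * X.Q^l * (X.Q * X.Q^(X.m - l - 1)) := by
    have : X.m = l + (1 + (X.m - l - 1)) := by omega
    conv_lhs => rw [this]
    rw [pow_add, pow_add, pow_one, mul_assoc]
  rw [e, Nat.add_mul_div_left _ _ hP]

theorem dg_shift {l : ℕ} (hl : l < X.m) (n : ℕ) :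
    dg A X.Q l (n + A * X.Q^X.m) = dg A X.Q l n := by
  unfold dg
  rw [X.div_shift hl, Nat.add_mul_mod_self_left]

theorem mod_shift (n : ℕ) : (n + A * X.Q^X.m) % A = n % A := Nat.add_mul_mod_self_left _ _ _

theorem cnt_shift {l : ℕ} (hl : l < X.m) (n : ℕ) :
    X.cnt ((n + A * X.Q^X.m) / (A * X.Q^l)) = X.cnt (n / (A * X.Q^l)) := by
  rw [← X.cnt_dg, X.dg_shift hl, X.cnt_dg]

theorem dvd_shift {k : ℕ} (hk : k ∈ X.Ms) (n : ℕ) : k ∣ n + A * X.Q^X.m ↔ k ∣ n :=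
  Nat.dvd_add_left ((X.kA hk).trans (Dvd.intro _ rfl))

theorem Gd_shift (n : ℕ) : X.Gd (n + A * X.Q^X.m) ↔ X.Gd n := by
  unfold Gd
  constructor
  · rintro ⟨h1, h2⟩
    exact ⟨fun k hk hd => h1 k hk ((X.dvd_shift hk n).2 hd),
      fun l hl => by rw [← X.cnt_shift hl]; exact h2 l hl⟩
  · rintro ⟨h1, h2⟩
    exact ⟨fun k hk hd => h1 k hk ((X.dvd_shift hk n).1 hd),
      fun l hl => by rw [X.cnt_shift hl]; exact h2 l hl⟩

theorem nmR_shift {t : ℕ} (ht : A * X.Q^X.m * (3 * X.m + 4) ≤ t) :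
    X.nmR (t + A * X.Q^X.m) = X.nmR t := by
  have key : ∀ g, X.RRc (t + A * X.Q^X.m) g ↔ X.RRc t g := by
    intro g
    unfold RRc
    have e1 : (⟨(t + A * X.Q^X.m) % A, Nat.mod_lt _ X.hA⟩ : Fin A)
        = ⟨t % A, Nat.mod_lt _ X.hA⟩ := by apply Fin.ext; exact X.mod_shift t
    rw [e1, X.dg_shift (X.hlv g), X.mod_shift]
    constructor
    · rintro ⟨a1, a2, a3, a4, a5, a6⟩
      refine ⟨a1, ?_, a3, a4, ?_, ht⟩
      · intro l hl
        have := a2 l hl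
        rwa [X.dg_shift (by have := X.hlv g; omega)] at this
      · intro l hl hl'
        have := a5 l hl hl'
        rwa [X.dg_shift hl'] at this
    · rintro ⟨a1, a2, a3, a4, a5, a6⟩
      refine ⟨a1, ?_, a3, a4, ?_, by omega⟩
      · intro l hl
        rw [X.dg_shift (by have := X.hlv g; omega)]
        exact a2 l hl
      · intro l hl hl'
        rw [X.dg_shift hl']
        exact a5 l hl hl'
  unfold nmR
  rw [X.mod_shift]
  congr 1
  funext g
  simp only [key g]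

end Pr

/-- LEAF U2 of 638 #13273, with extra conjuncts: `B ≤ M0`, `B ≤ M1`, periodicity of `nmR`, `Gd`, `Bad`,
`Gd`'s left names bounded. -/
theorem clocks (m : ℕ) (Γ C : Type) [Finite Γ] [Finite C] (lv : Γ → ℕ) (hlv : ∀ g, lv g < m)
    (col : Γ → C) : ∃ r : ℕ, ∀ B R : ℕ, 3 ≤ R →
    ∃ (Ms Ms1 : Finset ℕ) (rho M0 M1 : ℕ) (nmL nmR : ℕ → Option Γ) (bL bR : ℕ → ℕ → ℕ)
      (Gd : ℕ → Prop),
      Ms.card ≤ r ∧ Ms1.card ≤ 32*rho ∧ 0 < rho ∧
      (∀ k ∈ Ms, B < k ∧ Nat.Prime k ∧ k ∣ M0) ∧ (∀ k ∈ Ms1, B < k ∧ Nat.Prime k ∧ k ∣ M1) ∧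
      0 < M0 ∧ 0 < M1 ∧ B ≤ M0 ∧ B ≤ M1 ∧
      (∀ t g, nmL t = some g → t < PP R M0 M1 m * (3*m+4)) ∧
      (∀ t g, nmR t = some g → PP R M0 M1 m * (3*m+4) ≤ t) ∧
      (∀ t t' g g', Gd (t+t') → nmL t = some g → nmR t' = some g' → g = g' ∧
        (∀ l ≤ lv g, bL t l = beta R M0 M1 m (t+t') l) ∧
        (∀ l, lv g < l → l ≤ m → bR t' l + beta R M0 M1 m (t+t') l = t+t') ∧
        beta R M0 M1 m (t+t') (lv g) ≤ t ∧ t ≤ beta R M0 M1 m (t+t') (lv g + 1)) ∧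
      (∀ t₁ t₁' t₂ t₂' g₁ g₁' g₂ g₂', ¬ Gd (t₁+t₁') → t₁+t₁' = t₂+t₂' →
        nmL t₁ = some g₁ → nmR t₁' = some g₁' → nmL t₂ = some g₂ → nmR t₂' = some g₂' →
        col g₁ = col g₂ ∧ col g₁' = col g₂') ∧
      (∀ n, 2*(PP R M0 M1 m * (3*m+4)) ≤ n → ¬ Bad R M0 M1 m rho Ms Ms1 n → Gd n ∧
        ∀ g, ∃ t t', t+t' = n ∧ nmL t = some g ∧ nmR t' = some g) ∧
      (∀ t, PP R M0 M1 m * (3*m+4) ≤ t → nmR (t + PP R M0 M1 m) = nmR t) ∧
      (∀ n, Gd (n + PP R M0 M1 m) ↔ Gd n) ∧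
      (∀ n, Bad R M0 M1 m rho Ms Ms1 (n + PP R M0 M1 m) ↔ Bad R M0 M1 m rho Ms Ms1 n) := by
  obtain ⟨r, hr⟩ := Names755.names Γ C col
  refine ⟨r, ?_⟩
  intro B R hR
  obtain ⟨Ms, M, sL, sR, a1, a2, a3, a4, a5, a6, a7, a8⟩ := hr B
  have hA : 0 < R * (M * (B+1)) := Nat.mul_pos (by omega) (Nat.mul_pos a3 (by omega))
  obtain ⟨rho, hrho, h⟩ := LN_601.level_names (Γ × Fin (R * (M * (B+1))))
  obtain ⟨Ms1, M', lL, lR, b1, b2, b3, b4, b5, b6, b7, b8, b9⟩ := h B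
  have hQ : 0 < R * (M' * (B+1)) := Nat.mul_pos (by omega) (Nat.mul_pos b3 (by omega))
  have hMB : M ≤ M * (B+1) := Nat.le_mul_of_pos_right _ (by omega)
  have hMB' : M' ≤ M' * (B+1) := Nat.le_mul_of_pos_right _ (by omega)
  let X : Pr Γ C (R * (M * (B+1))) :=
    { Q := R * (M' * (B+1)), M0 := M * (B+1), M1 := M' * (B+1), m := m, rho := rho,
      lv := lv, col := col, Ms := Ms, Ms1 := Ms1, sL := sL, sR := sR, lL := lL, lR := lR,
      hA := hA, hQ := hQ, dA := Dvd.intro_left _ rfl, dQ := Dvd.intro_left _ rfl,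
      hlv := hlv, hrho := hrho,
      kM0 := fun k hk => (a2 k hk).2.2.trans (Dvd.intro _ rfl),
      kM1 := fun k hk => (b2 k hk).2.2.trans (Dvd.intro _ rfl),
      s_good := a6,
      s_comp := by
        intro T hT c
        obtain ⟨t, h1, h2, h3⟩ := a7 T hT c
        exact ⟨t, lt_of_lt_of_le h1 hMB, h2, fun t' ht' => h3 t' (ht'.of_mul_right _)⟩,
      s_bad := a8,
      l_match := b6, l_mis := b7, l_swap := b8,
      l_comp := by
        intro T hT c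
        obtain ⟨t, h1, h2, h3⟩ := b9 T hT c
        exact ⟨t, lt_of_lt_of_le h1 hMB', h2, fun t' ht' => h3 t' (ht'.of_mul_right _)⟩ }
  have hPm : 0 < R * (M * (B+1)) * (R * (M' * (B+1)))^m := Nat.mul_pos hA (Nat.pow_pos hQ)
  refine ⟨Ms, Ms1, rho, M * (B+1), M' * (B+1), X.nmL, X.nmR, X.bL, X.bR, X.Gd, a1, b1, hrho,
    fun k hk => ⟨(a2 k hk).1, (a2 k hk).2.1, (a2 k hk).2.2.trans (Dvd.intro _ rfl)⟩,
    fun k hk => ⟨(b2 k hk).1, (b2 k hk).2.1, (b2 k hk).2.2.trans (Dvd.intro _ rfl)⟩,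
    Nat.mul_pos a3 (by omega), Nat.mul_pos b3 (by omega), ?_, ?_, ?_, ?_, ?_, ?_, ?_, ?_, ?_, ?_⟩
  · exact le_trans (by omega) (Nat.le_mul_of_pos_left (B+1) a3)
  · exact le_trans (by omega) (Nat.le_mul_of_pos_left (B+1) b3)
  · intro t g hg
    have hl := (X.nmL_iff.1 hg).2
    have e1 := Nat.div_add_mod t (R * (M * (B+1)) * (R * (M' * (B+1)))^m)
    have e2 := Nat.mod_lt t hPm
    have e3 : t / (R * (M * (B+1)) * (R * (M' * (B+1)))^m) = 3 * lv g + 3 := hl.2.1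
    rw [e3] at e1
    have e4 := hlv g
    unfold PP
    have e5 : R * (M * (B+1)) * (R * (M' * (B+1)))^m * (3 * lv g + 3)
        + R * (M * (B+1)) * (R * (M' * (B+1)))^m
        ≤ R * (M * (B+1)) * (R * (M' * (B+1)))^m * (3 * m + 4) := by
      have : R * (M * (B+1)) * (R * (M' * (B+1)))^m * (3 * lv g + 3)
        + R * (M * (B+1)) * (R * (M' * (B+1)))^m
        = R * (M * (B+1)) * (R * (M' * (B+1)))^m * (3 * lv g + 4) := by ring
      rw [this]
      exact Nat.mul_le_mul_left _ (by omega)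
    omega
  · intro t g hg
    exact (X.nmR_iff.1 hg).2.2.2.2.2.2
  · intro t t' g g' hG h h'
    exact X.main_good hG h h'
  · intro t₁ t₁' t₂ t₂' g₁ g₁' g₂ g₂' hG hs h1 h1' h2 h2'
    exact X.main_bad hG hs h1 h1' h2 h2'
  · intro n hn hB
    unfold Bad at hB
    push Not at hB
    obtain ⟨⟨c1, c2⟩, c3, c4⟩ := hB
    have c6 : ∀ l < m, X.cnt (n / (R * (M * (B+1)) * (R * (M' * (B+1)))^l)) < rho :=
      fun l hl => (c4 l hl).2
    refine ⟨⟨c3, fun l hl => ?_⟩, fun g => ?_⟩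
    · have h2 : rho ≤ 2 * rho := by omega
      exact lt_of_lt_of_le (c6 l hl) h2
    · exact X.main_comp hn c1 c2 c3 (fun l hl => (c4 l hl).1.1) (fun l hl => (c4 l hl).1.2) c6 g
  · intro t ht
    exact X.nmR_shift ht
  · intro n
    exact X.Gd_shift n
  · intro n
    have e1 : (n + PP R (M * (B+1)) (M' * (B+1)) m) % (R * (M * (B+1))) = n % (R * (M * (B+1))) :=
      X.mod_shift n
    have e2 : ∀ l < m, ((n + PP R (M * (B+1)) (M' * (B+1)) m) / PP R (M * (B+1)) (M' * (B+1)) l)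
        % (R * (M' * (B+1))) = (n / PP R (M * (B+1)) (M' * (B+1)) l) % (R * (M' * (B+1))) :=
      fun l hl => X.dg_shift hl n
    have e3 : ∀ l < m, (Ms1.filter (· ∣ (n + PP R (M * (B+1)) (M' * (B+1)) m)
        / PP R (M * (B+1)) (M' * (B+1)) l)).card
        = (Ms1.filter (· ∣ n / PP R (M * (B+1)) (M' * (B+1)) l)).card :=
      fun l hl => X.cnt_shift hl n
    have e4 : (∃ k ∈ Ms, k ∣ n + PP R (M * (B+1)) (M' * (B+1)) m) ↔ ∃ k ∈ Ms, k ∣ n := by
      constructor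
      · rintro ⟨k, hk, hd⟩; exact ⟨k, hk, (X.dvd_shift hk n).1 hd⟩
      · rintro ⟨k, hk, hd⟩; exact ⟨k, hk, (X.dvd_shift hk n).2 hd⟩
    unfold Bad
    rw [e1, e4]
    constructor
    · rintro (h | h | ⟨l, hl, h⟩)
      · exact Or.inl h
      · exact Or.inr (Or.inl h)
      · rw [e2 l hl, e3 l hl] at h
        exact Or.inr (Or.inr ⟨l, hl, h⟩)
    · rintro (h | h | ⟨l, hl, h⟩)
      · exact Or.inl h
      · exact Or.inr (Or.inl h)
      · rw [← e2 l hl, ← e3 l hl] at h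
        exact Or.inr (Or.inr ⟨l, hl, h⟩)

end Crest.Agent.R320.Clk_307
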