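import Mathlib

/-! Row 320, leaf U1 (638 #13151): error tolerant names by CRT. -/

set_option autoImplicit false

namespace Crest.Agent.R320.LN_484

open Finset

section
variable {I : Type} [Fintype I] [DecidableEq I]

theorem card_agree (s : Finset I) (f : I → Bool) (k : ℕ) (hs : s.card ≤ k) :
    2 ^ Fintype.card I ≤
      (Finset.univ.filter fun A : I → Bool => ∀ i ∈ s, A i = f i).card * 2 ^ k := by
  classical
  have h1 : (Finset.univ : Finset (I → Bool)).card = 2 ^ Fintype.card I := by simp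
  let g : (I → Bool) → (I → Bool) × (s → Bool) :=
    fun A => (fun i => if i ∈ s then f i else A i, fun i => A i)
  have hg : Function.Injective g := by
    intro A B h
    funext i
    by_cases hi : i ∈ s
    · exact congrFun (congrArg Prod.snd h) ⟨i, hi⟩
    · have := congrFun (congrArg Prod.fst h) i
      simpa [g, hi] using this
  have h2 : (Finset.univ : Finset (I → Bool)).card ≤
      ((Finset.univ.filter fun A : I → Bool => ∀ i ∈ s, A i = f i) ×ˢ
        (Finset.univ : Finset (s → Bool))).card := by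
    refine Finset.card_le_card_of_injOn g ?_ hg.injOn
    intro A _
    simp only [Finset.coe_product, Set.mem_prod, Finset.mem_coe, Finset.mem_filter,
      Finset.mem_univ, true_and, and_true]
    intro i hi
    simp [g, hi]
  rw [h1, Finset.card_product] at h2
  refine h2.trans (Nat.mul_le_mul_left _ ?_)
  rw [Finset.card_univ, Fintype.card_fun, Fintype.card_bool, Fintype.card_coe]
  exact Nat.pow_le_pow_right (by norm_num) hs

end

section core
variable {N : Type} [Fintype N] [DecidableEq N]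

/-- index set with dummies -/
abbrev IX (N : Type) := N ⊕ Fin 6

/-- left name -/
def LC (k : (IX N → Bool) → ℕ) (ρ : ℕ) (t : ℕ) (c : N) : Prop :=
  (∀ A, A (.inl c) = false → k A ∣ t) ∧
    (Finset.univ.filter fun A : IX N → Bool => A (.inl c) = true ∧ k A ∣ t).card < ρ

/-- right name -/
def RC (k : (IX N → Bool) → ℕ) (ρ : ℕ) (t : ℕ) (c : N) : Prop :=
  (∀ A, A (.inl c) = true → k A ∣ t) ∧
    (Finset.univ.filter fun A : IX N → Bool => A (.inl c) = false ∧ k A ∣ t).card < ρ

variable (k : (IX N → Bool) → ℕ)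

theorem card_ix : Fintype.card (IX N) = Fintype.card N + 6 := by simp [IX]

theorem big (s : Finset (IX N)) (f : IX N → Bool) (hs : s.card ≤ 4) :
    4 * 2 ^ Fintype.card N ≤
      (Finset.univ.filter fun A : IX N → Bool => ∀ i ∈ s, A i = f i).card := by
  have h := card_agree s f 4 hs
  rw [card_ix, pow_add] at h
  omega

theorem LC.unique {t : ℕ} {c c' : N}
    (h : LC k (2 ^ (Fintype.card N + 1)) t c) (h' : LC k (2 ^ (Fintype.card N + 1)) t c') : c = c' := by
  by_contra hne
  have h4 := big ({.inl c, .inl c'} : Finset (IX N)) (fun i => if i = .inl c then true else false)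
    ((Finset.card_le_two).trans (by norm_num))
  have hsub : (Finset.univ.filter fun A : IX N → Bool => ∀ i ∈ ({.inl c, .inl c'} : Finset (IX N)),
      A i = (if i = .inl c then true else false)) ⊆
      (Finset.univ.filter fun A : IX N → Bool => A (.inl c) = true ∧ k A ∣ t) := by
    intro A hA
    simp only [Finset.mem_filter, Finset.mem_univ, true_and, Finset.mem_insert,
      Finset.mem_singleton, forall_eq_or_imp, forall_eq, if_true] at hA ⊢
    refine ⟨hA.1, h'.1 A ?_⟩
    rw [hA.2, if_neg]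
    intro e; exact hne (Sum.inl.inj e).symm
  have := Finset.card_le_card hsub
  have h3 := h.2
  rw [pow_succ] at h3
  omega

theorem RC.unique {t : ℕ} {c c' : N}
    (h : RC k (2 ^ (Fintype.card N + 1)) t c) (h' : RC k (2 ^ (Fintype.card N + 1)) t c') : c = c' := by
  by_contra hne
  have h4 := big ({.inl c, .inl c'} : Finset (IX N)) (fun i => if i = .inl c then false else true)
    ((Finset.card_le_two).trans (by norm_num))
  have hsub : (Finset.univ.filter fun A : IX N → Bool => ∀ i ∈ ({.inl c, .inl c'} : Finset (IX N)),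
      A i = (if i = .inl c then false else true)) ⊆
      (Finset.univ.filter fun A : IX N → Bool => A (.inl c) = false ∧ k A ∣ t) := by
    intro A hA
    simp only [Finset.mem_filter, Finset.mem_univ, true_and, Finset.mem_insert,
      Finset.mem_singleton, forall_eq_or_imp, forall_eq, if_true] at hA ⊢
    refine ⟨hA.1, h'.1 A ?_⟩
    rw [hA.2, if_neg]
    intro e; exact hne (Sum.inl.inj e).symm
  have := Finset.card_le_card hsub
  have h3 := h.2
  rw [pow_succ] at h3
  omega

/-- number of moduli dividing `T` -/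
def cnt (T : ℕ) : ℕ := (Finset.univ.filter fun A : IX N → Bool => k A ∣ T).card

theorem same {t t' : ℕ} {c : N} {ρ : ℕ} (h : LC k ρ t c) (h' : RC k ρ t' c) :
    cnt k (t + t') < 2 * ρ := by
  have hsub : (Finset.univ.filter fun A : IX N → Bool => k A ∣ t + t') ⊆
      (Finset.univ.filter fun A : IX N → Bool => A (.inl c) = true ∧ k A ∣ t) ∪
      (Finset.univ.filter fun A : IX N → Bool => A (.inl c) = false ∧ k A ∣ t') := by
    intro A hA
    simp only [Finset.mem_filter, Finset.mem_univ, true_and, Finset.mem_union] at hA ⊢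
    cases hc : A (.inl c) with
    | true => exact Or.inl ⟨rfl, (Nat.dvd_add_left (h'.1 A hc)).1 hA⟩
    | false => exact Or.inr ⟨rfl, (Nat.dvd_add_right (h.1 A hc)).1 hA⟩
  have h1 := (Finset.card_le_card hsub).trans (Finset.card_union_le _ _)
  have h2 := h.2
  have h3 := h'.2
  unfold cnt
  omega

theorem mismatch {t t' : ℕ} {c c' : N} {ρ : ℕ} (h : LC k ρ t c) (h' : RC k ρ t' c') (hne : c ≠ c') :
    4 * 2 ^ Fintype.card N ≤ cnt k (t + t') := by
  refine (big ({.inl c, .inl c'} : Finset (IX N)) (fun i => if i = .inl c then false else true)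
    ((Finset.card_le_two).trans (by norm_num))).trans (Finset.card_le_card ?_)
  intro A hA
  simp only [Finset.mem_filter, Finset.mem_univ, true_and, Finset.mem_insert,
    Finset.mem_singleton, forall_eq_or_imp, forall_eq, if_true] at hA ⊢
  refine dvd_add (h.1 A hA.1) (h'.1 A ?_)
  rw [hA.2, if_neg]
  intro e; exact hne (Sum.inl.inj e).symm

theorem pair {t₁ t₁' t₂ t₂' : ℕ} {c₁ c₁' c₂ c₂' : N}
    (h1 : LC k (2 ^ (Fintype.card N + 1)) t₁ c₁) (h1' : RC k (2 ^ (Fintype.card N + 1)) t₁' c₁')
    (h2 : LC k (2 ^ (Fintype.card N + 1)) t₂ c₂) (h2' : RC k (2 ^ (Fintype.card N + 1)) t₂' c₂')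
    (hT : t₁ + t₁' = t₂ + t₂') (n1 : c₁ ≠ c₁') (n2 : c₂ ≠ c₂') :
    (c₂ = c₁ ∧ c₂' = c₁') ∨ (c₂ = c₁' ∧ c₂' = c₁) := by
  by_contra hcon
  -- a pattern
  obtain ⟨f, f1, f2, f3⟩ : ∃ f : N → Bool, f c₁ = false ∧ f c₁' = true ∧ f c₂ = f c₂' := by
    by_cases e1 : c₂ = c₁
    · by_cases e2 : c₂' = c₁'
      · exact (hcon (Or.inl ⟨e1, e2⟩)).elim
      · refine ⟨fun x => if x = c₁' then true else false, by simp [n1], by simp, ?_⟩
        simp [e1, n1, e2]
    · by_cases e3 : c₂ = c₁'
      · by_cases e4 : c₂' = c₁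
        · exact (hcon (Or.inr ⟨e3, e4⟩)).elim
        · refine ⟨fun x => if x = c₁ then false else true, by simp, by simp [Ne.symm n1], ?_⟩
          simp [e3, e4, Ne.symm n1]
      · -- c₂ is free
        by_cases e5 : c₂' = c₁
        · refine ⟨fun x => if x = c₁' then true else false, by simp [n1], by simp, ?_⟩
          simp [e5, n1, e3]
        · refine ⟨fun x => if x = c₁ then false else true, by simp, by simp [Ne.symm n1], ?_⟩
          simp [e1, e5]
  have hbig := big ({.inl c₁, .inl c₁', .inl c₂, .inl c₂'} : Finset (IX N))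
    (Sum.elim f fun _ => false) Finset.card_le_four
  have hsub : (Finset.univ.filter fun A : IX N → Bool =>
      ∀ i ∈ ({.inl c₁, .inl c₁', .inl c₂, .inl c₂'} : Finset (IX N)),
      A i = (Sum.elim f fun _ => false) i) ⊆
      (Finset.univ.filter fun A : IX N → Bool => A (.inl c₂) = true ∧ k A ∣ t₂) ∪
      (Finset.univ.filter fun A : IX N → Bool => A (.inl c₂') = false ∧ k A ∣ t₂') := by
    intro A hA
    simp only [Finset.mem_filter, Finset.mem_univ, true_and, Finset.mem_insert,
      Finset.mem_singleton, forall_eq_or_imp, forall_eq, Sum.elim_inl, Finset.mem_union] at hA ⊢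
    obtain ⟨a1, a1', a2, a2'⟩ := hA
    have hk : k A ∣ t₂ + t₂' := by
      rw [← hT]
      exact dvd_add (h1.1 A (a1.trans f1)) (h1'.1 A (a1'.trans f2))
    cases hc : f c₂ with
    | true =>
      left
      refine ⟨a2.trans hc, (Nat.dvd_add_left (h2'.1 A ?_)).1 hk⟩
      rw [a2', ← f3, hc]
    | false =>
      right
      refine ⟨by rw [a2', ← f3, hc], (Nat.dvd_add_right (h2.1 A (a2.trans hc))).1 hk⟩
  have h3 := (hbig.trans (Finset.card_le_card hsub)).trans (Finset.card_union_le _ _)
  have h4 := h2.2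
  have h5 := h2'.2
  rw [pow_succ] at h4 h5
  omega

end core

theorem level_names (N : Type) [Finite N] : ∃ ρ : ℕ, 0 < ρ ∧ ∀ B : ℕ,
    ∃ (Ms : Finset ℕ) (M : ℕ) (nmL nmR : ℕ → Option N), Ms.card ≤ 32*ρ ∧
      (∀ k ∈ Ms, B < k ∧ Nat.Prime k ∧ k ∣ M) ∧ 0 < M ∧
      (∀ t, nmL (t+M) = nmL t) ∧ (∀ t, nmR (t+M) = nmR t) ∧
      (∀ t t' c, nmL t = some c → nmR t' = some c → (Ms.filter (· ∣ t+t')).card < 2*ρ) ∧
      (∀ t t' c c', nmL t = some c → nmR t' = some c' → c ≠ c' →
        2*ρ ≤ (Ms.filter (· ∣ t+t')).card) ∧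
      (∀ t₁ t₁' t₂ t₂' c₁ c₁' c₂ c₂', nmL t₁ = some c₁ → nmR t₁' = some c₁' →
        nmL t₂ = some c₂ → nmR t₂' = some c₂' → t₁+t₁' = t₂+t₂' → c₁ ≠ c₁' → c₂ ≠ c₂' →
        (c₂ = c₁ ∧ c₂' = c₁') ∨ (c₂ = c₁' ∧ c₂' = c₁)) ∧
      (∀ T, (Ms.filter (· ∣ T)).card < ρ → ∀ c, ∃ t < M, nmL t = some c ∧
        ∀ t', t+t' ≡ T [MOD M] → nmR t' = some c) := by
  classical
  haveI := Fintype.ofFinite N
  refine ⟨2 ^ (Fintype.card N + 1), by positivity, fun B => ?_⟩
  -- the primes
  let e := Fintype.equivFin (IX N → Bool)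
  let k : (IX N → Bool) → ℕ := fun A => Nat.nth Nat.Prime (B + (e A : ℕ))
  have hkp : ∀ A, Nat.Prime (k A) := fun A => Nat.prime_nth_prime _
  have hkB : ∀ A, B < k A := fun A => by
    have := Nat.add_two_le_nth_prime (B + (e A : ℕ))
    show B < Nat.nth Nat.Prime (B + (e A : ℕ))
    omega
  have hkinj : Function.Injective k := by
    intro A A' h
    have h1 := Nat.nth_injective Nat.infinite_setOf_prime h
    apply e.injective
    apply Fin.ext
    omega
  have hcop : ∀ A A', A ≠ A' → Nat.Coprime (k A) (k A') := fun A A' h =>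
    (Nat.coprime_primes (hkp A) (hkp A')).2 fun h' => h (hkinj h')
  let M := ∏ A, k A
  have hkM : ∀ A, k A ∣ M := fun A => Finset.dvd_prod_of_mem _ (Finset.mem_univ A)
  have hMpos : 0 < M := Finset.prod_pos fun A _ => (hkp A).pos
  have hcard : Fintype.card (IX N → Bool) = 32 * 2 ^ (Fintype.card N + 1) := by
    rw [Fintype.card_fun, Fintype.card_bool, card_ix, pow_add, pow_succ]; ring
  have hcnt : ∀ T, ((Finset.univ.image k).filter (· ∣ T)).card = cnt k T := by
    intro T
    rw [Finset.filter_image, Finset.card_image_of_injective _ hkinj]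
    rfl
  let nmL : ℕ → Option N := fun t =>
    if h : ∃ c, LC k (2 ^ (Fintype.card N + 1)) t c then some h.choose else none
  let nmR : ℕ → Option N := fun t =>
    if h : ∃ c, RC k (2 ^ (Fintype.card N + 1)) t c then some h.choose else none
  have hL : ∀ t c, nmL t = some c ↔ LC k (2 ^ (Fintype.card N + 1)) t c := by
    intro t c
    constructor
    · intro h
      by_cases hex : ∃ c, LC k (2 ^ (Fintype.card N + 1)) t c
      · simp only [nmL, dif_pos hex, Option.some.injEq] at h
        rw [← h]; exact hex.choose_spec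
      · simp [nmL, dif_neg hex] at h
    · intro h
      have hex : ∃ c, LC k (2 ^ (Fintype.card N + 1)) t c := ⟨c, h⟩
      simp only [nmL, dif_pos hex, Option.some.injEq]
      exact LC.unique k hex.choose_spec h
  have hR : ∀ t c, nmR t = some c ↔ RC k (2 ^ (Fintype.card N + 1)) t c := by
    intro t c
    constructor
    · intro h
      by_cases hex : ∃ c, RC k (2 ^ (Fintype.card N + 1)) t c
      · simp only [nmR, dif_pos hex, Option.some.injEq] at h
        rw [← h]; exact hex.choose_spec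
      · simp [nmR, dif_neg hex] at h
    · intro h
      have hex : ∃ c, RC k (2 ^ (Fintype.card N + 1)) t c := ⟨c, h⟩
      simp only [nmR, dif_pos hex, Option.some.injEq]
      exact RC.unique k hex.choose_spec h
  have hper : ∀ A t, k A ∣ t + M ↔ k A ∣ t := fun A t => Nat.dvd_add_left (hkM A)
  refine ⟨Finset.univ.image k, M, nmL, nmR, ?_, ?_, hMpos, ?_, ?_, ?_, ?_, ?_, ?_⟩
  · rw [Finset.card_image_of_injective _ hkinj, Finset.card_univ, hcard]
  · intro x hx
    obtain ⟨A, -, rfl⟩ := Finset.mem_image.1 hx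
    exact ⟨hkB A, hkp A, hkM A⟩
  · intro t
    have : ∀ c, LC k (2 ^ (Fintype.card N + 1)) (t + M) c ↔ LC k (2 ^ (Fintype.card N + 1)) t c := by
      intro c; unfold LC; simp only [hper]
    simp only [nmL, this]
  · intro t
    have : ∀ c, RC k (2 ^ (Fintype.card N + 1)) (t + M) c ↔ RC k (2 ^ (Fintype.card N + 1)) t c := by
      intro c; unfold RC; simp only [hper]
    simp only [nmR, this]
  · intro t t' c h h'
    rw [hcnt]
    exact same k ((hL t c).1 h) ((hR t' c).1 h')
  · intro t t' c c' h h' hne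
    rw [hcnt]
    have := mismatch k ((hL t c).1 h) ((hR t' c').1 h') hne
    rw [pow_succ]; omega
  · intro t₁ t₁' t₂ t₂' c₁ c₁' c₂ c₂' h1 h1' h2 h2' hT n1 n2
    exact pair k ((hL _ _).1 h1) ((hR _ _).1 h1') ((hL _ _).1 h2) ((hR _ _).1 h2') hT n1 n2
  · intro T hT c
    rw [hcnt] at hT
    -- CRT
    obtain ⟨t₀, ht₀⟩ : ∃ t₀ : ℕ, ∀ A, t₀ ≡ (if A (.inl c) = true then T else 0) [MOD k A] := by
      have := Nat.chineseRemainderOfFinset (fun A : IX N → Bool => if A (.inl c) = true then T else 0)
        k Finset.univ (fun A _ => (hkp A).ne_zero) (fun A _ A' _ h => hcop A A' h)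
      exact ⟨this.1, fun A => this.2 A (Finset.mem_univ A)⟩
    have ht : ∀ A, (t₀ % M) ≡ (if A (.inl c) = true then T else 0) [MOD k A] := fun A =>
      ((Nat.mod_modEq t₀ M).of_dvd (hkM A)).trans (ht₀ A)
    refine ⟨t₀ % M, Nat.mod_lt _ hMpos, (hL _ _).2 ⟨fun A hA => ?_, ?_⟩, fun t' ht' => (hR _ _).2
      ⟨fun A hA => ?_, ?_⟩⟩
    · have := ht A
      rw [if_neg (by simp [hA])] at this
      exact (Nat.modEq_zero_iff_dvd).1 this
    · refine lt_of_le_of_lt (Finset.card_le_card ?_) hT
      intro A hA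
      simp only [Finset.mem_filter, Finset.mem_univ, true_and] at hA ⊢
      have := ht A
      rw [if_pos hA.1] at this
      exact (this.dvd_iff (dvd_refl _)).1 hA.2
    · have h1 := ht A
      rw [if_pos hA] at h1
      have h2 : t₀ % M + t' ≡ T [MOD k A] := ht'.of_dvd (hkM A)
      have h3 : t₀ % M + t' ≡ t₀ % M + 0 [MOD k A] := h2.trans (by simpa using h1.symm)
      exact (Nat.modEq_zero_iff_dvd).1 (Nat.ModEq.add_left_cancel' _ h3)
    · refine lt_of_le_of_lt (Finset.card_le_card ?_) hT
      intro A hA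
      simp only [Finset.mem_filter, Finset.mem_univ, true_and] at hA ⊢
      have h1 := ht A
      rw [if_neg (by simp [hA.1])] at h1
      have h2 : t₀ % M + t' ≡ T [MOD k A] := ht'.of_dvd (hkM A)
      have h3 : k A ∣ t₀ % M + t' := dvd_add ((Nat.modEq_zero_iff_dvd).1 h1) hA.2
      exact (h2.dvd_iff (dvd_refl _)).1 h3

end Crest.Agent.R320.LN_484
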