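import Crest.Agent.R320.Names_755
import Crest.Agent.R320.LN_484

/-!
# Row 320, TEAM U, leaf U2 `clocks` of 638 #13273 (helper404)

Mixed radix clocks: star super-digit `R * M0` (names of 755), `m` level super-digits `R * M1`
(error tolerant names of 638, leaf U1, here `LN_484.level_names`), left at level `i` = digits above
`i` zero and top digit `3 i + 3`, right at level `i` = digits below `i` zero.
-/

set_option autoImplicit false

namespace Crest.Agent.R320.Clk_404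

def PP (R M0 M1 l : ℕ) : ℕ := (R*M0) * (R*M1)^l
def beta (R M0 M1 m n l : ℕ) : ℕ := PP R M0 M1 m * (3*l+2) + n % PP R M0 M1 l
def Bad (R M0 M1 m rho : ℕ) (Ms Ms1 : Finset ℕ) (n : ℕ) : Prop :=
  (n % (R*M0) < M0 ∨ R*M0 ≤ n % (R*M0) + M0) ∨ (∃ k ∈ Ms, k ∣ n) ∨
    ∃ l < m, ((n / PP R M0 M1 l) % (R*M1) < M1 ∨ R*M1 ≤ (n / PP R M0 M1 l) % (R*M1) + M1) ∨
      rho ≤ (Ms1.filter (· ∣ n / PP R M0 M1 l)).card

/-! ### digits -/

section digits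

def Q (b0 b1 l : ℕ) : ℕ := b0 * b1 ^ l

variable {b0 b1 : ℕ}

theorem Q_zero : Q b0 b1 0 = b0 := by simp [Q]
theorem Q_succ (l : ℕ) : Q b0 b1 (l+1) = Q b0 b1 l * b1 := by simp [Q, pow_succ, mul_assoc]
theorem Q_pos (h0 : 0 < b0) (h1 : 0 < b1) (l : ℕ) : 0 < Q b0 b1 l := by unfold Q; positivity
theorem Q_dvd {l l' : ℕ} (h : l ≤ l') : Q b0 b1 l ∣ Q b0 b1 l' :=
  Nat.mul_dvd_mul_left _ (pow_dvd_pow _ h)
theorem Q_le (h0 : 0 < b0) (h1 : 0 < b1) {l l' : ℕ} (h : l ≤ l') : Q b0 b1 l ≤ Q b0 b1 l' :=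
  Nat.le_of_dvd (Q_pos h0 h1 _) (Q_dvd h)
theorem b0_dvd (l : ℕ) : b0 ∣ Q b0 b1 l := ⟨b1 ^ l, rfl⟩

theorem nc {b P x y : ℕ} (hb : b ∣ P) (hP : 0 < P) (h : x % b + y < b) : x % P + y < P := by
  obtain ⟨p, rfl⟩ := hb
  have hp : 0 < p := Nat.pos_of_ne_zero (by rintro rfl; simp at hP)
  rw [Nat.mod_mul]
  have h1 : x / b % p < p := Nat.mod_lt _ hp
  have h2 : b * (x / b % p + 1) ≤ b * p := Nat.mul_le_mul_left b h1
  rw [Nat.mul_add, Nat.mul_one] at h2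
  omega

variable {t u i m l : ℕ}

theorem u_mod (h0 : 0 < b0) (h1 : 0 < b1) (c1 : u % Q b0 b1 i = u % b0) (hl : l ≤ i) :
    u % Q b0 b1 l = u % b0 := by
  have e1 : u % Q b0 b1 l = (u % Q b0 b1 i) % Q b0 b1 l := (Nat.mod_mod_of_dvd _ (Q_dvd hl)).symm
  rw [e1, c1, Nat.mod_eq_of_lt]
  calc u % b0 < b0 := Nat.mod_lt _ h0
    _ = Q b0 b1 0 := Q_zero.symm
    _ ≤ _ := Q_le h0 h1 (Nat.zero_le _)

theorem t_mod (h0 : 0 < b0) (h1 : 0 < b1) (c3 : t % Q b0 b1 m < Q b0 b1 (i+1)) (hi : i + 1 ≤ l)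
    (hl : l ≤ m) : t % Q b0 b1 l = t % Q b0 b1 m := by
  have e1 : t % Q b0 b1 l = (t % Q b0 b1 m) % Q b0 b1 l := (Nat.mod_mod_of_dvd _ (Q_dvd hl)).symm
  rw [e1, Nat.mod_eq_of_lt]
  exact c3.trans_le (Q_le h0 h1 hi)

theorem noc (h0 : 0 < b0) (h1 : 0 < b1) (hi : i < m) (hl : l ≤ m)
    (c0 : t % b0 + u % b0 < b0) (c1 : u % Q b0 b1 i = u % b0)
    (c2 : (t / Q b0 b1 i) % b1 + (u / Q b0 b1 i) % b1 < b1)
    (c3 : t % Q b0 b1 m < Q b0 b1 (i+1)) :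
    t % Q b0 b1 l + u % Q b0 b1 l < Q b0 b1 l := by
  have low : ∀ j ≤ i, t % Q b0 b1 j + u % Q b0 b1 j < Q b0 b1 j := by
    intro j hj
    rw [u_mod h0 h1 c1 hj]
    exact nc (b0_dvd j) (Q_pos h0 h1 j) c0
  have mid : t % Q b0 b1 (i+1) + u % Q b0 b1 (i+1) < Q b0 b1 (i+1) := by
    have h2 := low i le_rfl
    rw [Q_succ, Nat.mod_mul, Nat.mod_mul]
    have h3 : Q b0 b1 i * ((t / Q b0 b1 i) % b1 + (u / Q b0 b1 i) % b1 + 1) ≤ Q b0 b1 i * b1 :=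
      Nat.mul_le_mul_left _ c2
    rw [Nat.mul_add, Nat.mul_add, Nat.mul_one] at h3
    omega
  rcases Nat.lt_or_ge i l with hil | hil
  · rw [t_mod h0 h1 c3 hil hl, ← t_mod h0 h1 c3 le_rfl hi, Nat.add_comm]
    exact nc (Q_dvd (show i + 1 ≤ l from hil)) (Q_pos h0 h1 l) (by omega)
  · exact low l hil

theorem u_dig (h0 : 0 < b0) (h1 : 0 < b1) (c1 : u % Q b0 b1 i = u % b0) (hl : l < i) :
    (u / Q b0 b1 l) % b1 = 0 := by
  rw [← Nat.mod_mul_right_div_self, ← Q_succ, u_mod h0 h1 c1 hl]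
  apply Nat.div_eq_of_lt
  calc u % b0 < b0 := Nat.mod_lt _ h0
    _ = Q b0 b1 0 := Q_zero.symm
    _ ≤ _ := Q_le h0 h1 (Nat.zero_le _)

theorem t_dig (h0 : 0 < b0) (h1 : 0 < b1) (c3 : t % Q b0 b1 m < Q b0 b1 (i+1)) (hi : i < l)
    (hl : l < m) : (t / Q b0 b1 l) % b1 = 0 := by
  rw [← Nat.mod_mul_right_div_self, ← Q_succ, t_mod h0 h1 c3 (by omega) hl]
  apply Nat.div_eq_of_lt
  exact c3.trans_le (Q_le h0 h1 hi)

theorem filt {Ms : Finset ℕ} (h : ∀ k ∈ Ms, k ∣ b1) {a c : ℕ} (hac : a % b1 = c % b1) :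
    Ms.filter (· ∣ a) = Ms.filter (· ∣ c) := by
  apply Finset.filter_congr
  intro k hk
  rw [← Nat.dvd_mod_iff (h k hk), hac, Nat.dvd_mod_iff (h k hk)]

theorem low_eq (h0 : 0 < b0) (h1 : 0 < b1) (hi : i < m)
    (c0 : t % b0 + u % b0 < b0) (c1 : u % Q b0 b1 i = u % b0)
    (c2 : (t / Q b0 b1 i) % b1 + (u / Q b0 b1 i) % b1 < b1)
    (c3 : t % Q b0 b1 m < Q b0 b1 (i+1)) (hl : l < i) :
    ((t + u) / Q b0 b1 l) % b1 = (t / Q b0 b1 l) % b1 := by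
  rw [Nat.add_div_eq_of_add_mod_lt (noc h0 h1 hi (by omega) c0 c1 c2 c3), Nat.add_mod,
    u_dig h0 h1 c1 hl, Nat.add_zero, Nat.mod_mod]

theorem high_eq (h0 : 0 < b0) (h1 : 0 < b1) (hi : i < m)
    (c0 : t % b0 + u % b0 < b0) (c1 : u % Q b0 b1 i = u % b0)
    (c2 : (t / Q b0 b1 i) % b1 + (u / Q b0 b1 i) % b1 < b1)
    (c3 : t % Q b0 b1 m < Q b0 b1 (i+1)) (hl : i < l) (hlm : l < m) :
    ((t + u) / Q b0 b1 l) % b1 = (u / Q b0 b1 l) % b1 := by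
  rw [Nat.add_div_eq_of_add_mod_lt (noc h0 h1 hi (by omega) c0 c1 c2 c3), Nat.add_mod,
    t_dig h0 h1 c3 hl hlm, Nat.zero_add, Nat.mod_mod]

end digits


/-! ### the data -/

structure Dat (Γ : Type) where
  R : ℕ
  M0 : ℕ
  M1 : ℕ
  m : ℕ
  rho : ℕ
  Ms : Finset ℕ
  Ms1 : Finset ℕ
  lv : Γ → ℕ
  nL : ℕ → Option Γ
  nR : ℕ → Option Γ
  nL1 : ℕ → Option (Γ × Fin (R * M0))
  nR1 : ℕ → Option (Γ × Fin (R * M0))

namespace Dat

variable {Γ : Type} (D : Dat Γ)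

/-- place values -/
def P (l : ℕ) : ℕ := Q (D.R * D.M0) (D.R * D.M1) l

structure LOk (t : ℕ) (g : Γ) (s : Fin (D.R * D.M0)) : Prop where
  a0 : t % (D.R * D.M0) < D.M0
  a1 : D.nL (t % (D.R * D.M0)) = some g
  a2 : t / D.P D.m = 3 * D.lv g + 3
  a3 : t % D.P D.m < D.P (D.lv g + 1)
  a4 : (t / D.P (D.lv g)) % (D.R * D.M1) < D.M1
  a5 : D.nL1 ((t / D.P (D.lv g)) % (D.R * D.M1)) = some (g, s)
  a6 : ∀ l < D.lv g, (D.Ms1.filter (· ∣ t / D.P l)).card < D.rho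

structure ROk (t : ℕ) (g : Γ) : Prop where
  b0 : t % (D.R * D.M0) + D.M0 ≤ D.R * D.M0
  b1 : D.nR (t % (D.R * D.M0)) = some g
  b2 : t % D.P (D.lv g) = t % (D.R * D.M0)
  b3 : (t / D.P (D.lv g)) % (D.R * D.M1) + D.M1 ≤ D.R * D.M1
  b4 : ∃ s : Fin (D.R * D.M0), (s : ℕ) = t % (D.R * D.M0) ∧
    D.nR1 ((t / D.P (D.lv g)) % (D.R * D.M1)) = some (g, s)
  b5 : ∀ l, D.lv g < l → l < D.m → (D.Ms1.filter (· ∣ t / D.P l)).card < D.rho
  b6 : D.P D.m * (3 * D.m + 4) ≤ t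

structure Good : Prop where
  hR : 3 ≤ D.R
  hM0 : 0 < D.M0
  hM1 : 0 < D.M1
  hrho : 0 < D.rho
  hlv : ∀ g, D.lv g < D.m
  hMs : ∀ k ∈ D.Ms, k ∣ D.M0
  hMs1 : ∀ k ∈ D.Ms1, k ∣ D.M1
  n1 : ∀ t t' c c', D.nL t = some c → D.nR t' = some c' → (∀ k ∈ D.Ms, ¬ k ∣ t + t') → c = c'
  n2 : ∀ T, (∀ k ∈ D.Ms, ¬ k ∣ T) → ∀ c, ∃ t < D.M0, D.nL t = some c ∧
    ∀ t', t + t' = T → D.nR t' = some c
  l1 : ∀ t t' c, D.nL1 t = some c → D.nR1 t' = some c →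
    (D.Ms1.filter (· ∣ t+t')).card < 2 * D.rho
  l2 : ∀ t t' c c', D.nL1 t = some c → D.nR1 t' = some c' → c ≠ c' →
    2 * D.rho ≤ (D.Ms1.filter (· ∣ t+t')).card
  l3 : ∀ t₁ t₁' t₂ t₂' c₁ c₁' c₂ c₂', D.nL1 t₁ = some c₁ → D.nR1 t₁' = some c₁' →
    D.nL1 t₂ = some c₂ → D.nR1 t₂' = some c₂' → t₁+t₁' = t₂+t₂' → c₁ ≠ c₁' → c₂ ≠ c₂' →
    (c₂ = c₁ ∧ c₂' = c₁') ∨ (c₂ = c₁' ∧ c₂' = c₁)
  l4 : ∀ T, (D.Ms1.filter (· ∣ T)).card < D.rho → ∀ c, ∃ t < D.M1, D.nL1 t = some c ∧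
    ∀ t', t+t' = T → D.nR1 t' = some c

def Gd (n : ℕ) : Prop :=
  (∀ k ∈ D.Ms, ¬ k ∣ n) ∧ ∀ l < D.m, (D.Ms1.filter (· ∣ n / D.P l)).card < 2 * D.rho

variable {D}

theorem Good.p0 (G : D.Good) : 0 < D.R * D.M0 := Nat.mul_pos (by have := G.hR; omega) G.hM0
theorem Good.p1 (G : D.Good) : 0 < D.R * D.M1 := Nat.mul_pos (by have := G.hR; omega) G.hM1

/-- everything about a pair with the same star name -/
structure Pair (D : Dat Γ) (t u : ℕ) (g : Γ) (s s' : Fin (D.R * D.M0)) : Prop where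
  L : D.LOk t g s
  R : D.ROk u g
  e : (s' : ℕ) = u % (D.R * D.M0)
  n : D.nR1 ((u / D.P (D.lv g)) % (D.R * D.M1)) = some (g, s')

variable {t u : ℕ} {g : Γ} {s s' : Fin (D.R * D.M0)}

theorem Pair.noc (G : D.Good) (h : Pair D t u g s s') {l : ℕ} (hl : l ≤ D.m) :
    t % D.P l + u % D.P l < D.P l := by
  refine Clk_404.noc G.p0 G.p1 (G.hlv g) hl ?_ h.R.b2 ?_ h.L.a3
  · have := h.L.a0; have := h.R.b0; omega
  · have h1 := h.L.a4; have h2 := h.R.b3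
    change (t / D.P (D.lv g)) % (D.R * D.M1) + (u / D.P (D.lv g)) % (D.R * D.M1) < D.R * D.M1
    omega

theorem Pair.div (G : D.Good) (h : Pair D t u g s s') {l : ℕ} (hl : l ≤ D.m) :
    (t + u) / D.P l = t / D.P l + u / D.P l := Nat.add_div_eq_of_add_mod_lt (h.noc G hl)

theorem Pair.mod (G : D.Good) (h : Pair D t u g s s') {l : ℕ} (hl : l ≤ D.m) :
    (t + u) % D.P l = t % D.P l + u % D.P l := Nat.add_mod_of_add_mod_lt (h.noc G hl)

theorem Good.dvd1 (G : D.Good) : ∀ k ∈ D.Ms1, k ∣ D.R * D.M1 :=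
  fun k hk => (G.hMs1 k hk).mul_left _

theorem Good.dvd0 (G : D.Good) : ∀ k ∈ D.Ms, k ∣ D.R * D.M0 :=
  fun k hk => (G.hMs k hk).mul_left _

theorem Pair.low (G : D.Good) (h : Pair D t u g s s') {l : ℕ} (hl : l < D.lv g) :
    (D.Ms1.filter (· ∣ (t + u) / D.P l)).card < D.rho := by
  have hm := G.hlv g
  rw [h.div G (by omega), filt G.dvd1 (c := t / D.P l)]
  · exact h.L.a6 l hl
  · have := u_dig G.p0 G.p1 h.R.b2 hl
    rw [Nat.add_mod, show u / D.P l % (D.R * D.M1) = 0 from this, Nat.add_zero, Nat.mod_mod]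

theorem Pair.high (G : D.Good) (h : Pair D t u g s s') {l : ℕ} (hl : D.lv g < l) (hlm : l < D.m) :
    (D.Ms1.filter (· ∣ (t + u) / D.P l)).card < D.rho := by
  rw [h.div G (by omega), filt G.dvd1 (c := u / D.P l)]
  · exact h.R.b5 l hl hlm
  · have := t_dig G.p0 G.p1 h.L.a3 hl hlm
    rw [Nat.add_mod, show t / D.P l % (D.R * D.M1) = 0 from this, Nat.zero_add, Nat.mod_mod]

theorem Pair.at (G : D.Good) (h : Pair D t u g s s') :
    D.Ms1.filter (· ∣ (t + u) / D.P (D.lv g)) =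
      D.Ms1.filter (· ∣ (t / D.P (D.lv g)) % (D.R * D.M1) + (u / D.P (D.lv g)) % (D.R * D.M1)) := by
  have hm := G.hlv g
  rw [h.div G (by omega)]
  apply filt G.dvd1
  rw [Nat.add_mod]

theorem pair_of (hL : D.LOk t g s) (hR : D.ROk u g) : ∃ s', Pair D t u g s s' := by
  obtain ⟨s', h1, h2⟩ := hR.b4
  exact ⟨s', hL, hR, h1, h2⟩

theorem Good.star (G : D.Good) {g' : Γ} (hL : D.LOk t g s) (hR : D.ROk u g')
    (h : ∀ k ∈ D.Ms, ¬ k ∣ t + u) : g = g' := by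
  refine G.n1 _ _ _ _ hL.a1 hR.b1 fun k hk hd => h k hk ?_
  have h1 := G.dvd0 k hk
  have h2 : t % (D.R * D.M0) + u % (D.R * D.M0) = (t + u) % (D.R * D.M0) := by
    rw [Nat.add_mod_of_add_mod_lt]
    have := hL.a0; have := hR.b0; omega
  rw [h2, Nat.dvd_mod_iff h1] at hd
  exact hd

theorem Pair.same (G : D.Good) (h : Pair D t u g s s') (hG : D.Gd (t + u)) : s = s' := by
  by_contra hne
  have h1 := G.l2 _ _ _ _ h.L.a5 h.n (fun e => hne (Prod.ext_iff.1 e).2)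
  have h2 := hG.2 (D.lv g) (G.hlv g)
  rw [h.at G] at h2
  omega


variable (D) in
open Classical in
noncomputable def nmL (t : ℕ) : Option Γ :=
  if h : ∃ g s, D.LOk t g s then some h.choose else none

variable (D) in
open Classical in
noncomputable def bL (t l : ℕ) : ℕ :=
  if h : ∃ g s, D.LOk t g s then D.P D.m * (3 * l + 2) + (t + (h.choose_spec.choose : ℕ)) % D.P l
  else 0

variable (D) in
open Classical in
noncomputable def nmR (t : ℕ) : Option Γ :=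
  if h : ∃ g, D.ROk t g then some h.choose else none

variable (D) in
open Classical in
noncomputable def bR (t l : ℕ) : ℕ :=
  if h : ∃ g, D.ROk t g then
    D.P D.m * (3 * D.lv h.choose + 3) + (t - t % D.P l) - D.P D.m * (3 * l + 2)
  else 0

theorem specL (h : D.nmL t = some g) : ∃ s, D.LOk t g s ∧
    ∀ l, D.bL t l = D.P D.m * (3 * l + 2) + (t + (s : ℕ)) % D.P l := by
  unfold nmL at h
  split_ifs at h with h1
  have h2 := Option.some.inj h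
  subst h2
  refine ⟨h1.choose_spec.choose, h1.choose_spec.choose_spec, fun l => ?_⟩
  unfold bL
  rw [dif_pos h1]

theorem specL' (h : D.LOk t g s) : D.nmL t = some g := by
  unfold nmL
  rw [dif_pos ⟨g, s, h⟩]
  have h1 : ∃ g s, D.LOk t g s := ⟨g, s, h⟩
  have h2 := h1.choose_spec.choose_spec.a1
  have h3 := h.a1
  rw [h2] at h3
  exact h3

theorem specR (h : D.nmR u = some g) : D.ROk u g ∧
    ∀ l, D.bR u l = D.P D.m * (3 * D.lv g + 3) + (u - u % D.P l) - D.P D.m * (3 * l + 2) := by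
  unfold nmR at h
  split_ifs at h with h1
  have h2 := Option.some.inj h
  subst h2
  refine ⟨h1.choose_spec, fun l => ?_⟩
  unfold bR
  rw [dif_pos h1]

theorem specR' (h : D.ROk u g) : D.nmR u = some g := by
  unfold nmR
  rw [dif_pos ⟨g, h⟩]
  have h1 : ∃ g, D.ROk u g := ⟨g, h⟩
  have h2 := h1.choose_spec.b1
  have h3 := h.b1
  rw [h2] at h3
  exact h3

theorem Good.P_pos (G : D.Good) (l : ℕ) : 0 < D.P l := Q_pos G.p0 G.p1 l
theorem Good.P_le (G : D.Good) {l l' : ℕ} (h : l ≤ l') : D.P l ≤ D.P l' := Q_le G.p0 G.p1 h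

theorem LOk.lt (G : D.Good) (h : D.LOk t g s) : t < D.P D.m * (3 * D.lv g + 4) := by
  have h1 := h.a2
  rw [Nat.mul_comm]
  rw [← Nat.div_lt_iff_lt_mul (G.P_pos _)]
  omega

theorem LOk.eq (h : D.LOk t g s) : t = D.P D.m * (3 * D.lv g + 3) + t % D.P D.m := by
  have h1 := Nat.div_add_mod t (D.P D.m)
  rw [h.a2] at h1
  exact h1.symm

theorem sound_good (G : D.Good) {g' : Γ} (hG : D.Gd (t + u)) (hL : D.nmL t = some g)
    (hR : D.nmR u = some g') : g = g' ∧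
    (∀ l ≤ D.lv g, D.bL t l = D.P D.m * (3 * l + 2) + (t + u) % D.P l) ∧
    (∀ l, D.lv g < l → l ≤ D.m →
      D.bR u l + (D.P D.m * (3 * l + 2) + (t + u) % D.P l) = t + u) ∧
    D.P D.m * (3 * D.lv g + 2) + (t + u) % D.P (D.lv g) ≤ t ∧
    t ≤ D.P D.m * (3 * (D.lv g + 1) + 2) + (t + u) % D.P (D.lv g + 1) := by
  obtain ⟨s, h1, h2⟩ := specL hL
  obtain ⟨h3, h4⟩ := specR hR
  have he := G.star h1 h3 hG.1
  subst he
  obtain ⟨s', hp⟩ := pair_of h1 h3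
  have hs := hp.same G hG
  subst hs
  have hm := G.hlv g
  refine ⟨rfl, ?_, ?_, ?_, ?_⟩
  · intro l hl
    rw [h2, Nat.add_mod t (s : ℕ), Nat.add_mod t u, hp.e]
    have := u_mod (l := l) G.p0 G.p1 h3.b2 hl
    change u % D.P l = _ at this
    rw [← this, Nat.mod_mod]
  · intro l hl hlm
    rw [h4, hp.mod G hlm]
    have e1 : t % D.P l = t % D.P D.m := t_mod G.p0 G.p1 h1.a3 hl hlm
    have e2 := h1.eq
    have e3 := h3.b6
    have e4 : u % D.P l < D.P D.m := (Nat.mod_lt _ (G.P_pos l)).trans_le (G.P_le hlm)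
    have e5 : u % D.P l ≤ u := Nat.mod_le _ _
    have e6 : D.P D.m * (3 * l + 2) ≤ D.P D.m * (3 * D.m + 3) := Nat.mul_le_mul_left _ (by omega)
    have e7 : D.P D.m * (3 * D.m + 4) = D.P D.m * (3 * D.m + 3) + D.P D.m := by ring
    rw [e1]
    omega
  · have e2 := h1.eq
    have e4 : (t + u) % D.P (D.lv g) < D.P D.m :=
      (Nat.mod_lt _ (G.P_pos _)).trans_le (G.P_le (by omega))
    have e7 : D.P D.m * (3 * D.lv g + 3) = D.P D.m * (3 * D.lv g + 2) + D.P D.m := by ring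
    omega
  · have e2 := h1.lt G
    have e6 : D.P D.m * (3 * D.lv g + 4) ≤ D.P D.m * (3 * (D.lv g + 1) + 2) :=
      Nat.mul_le_mul_left _ (by omega)
    omega

theorem sound_bad (G : D.Good) {C : Type} (col : Γ → C)
    (hcol : ∀ t₁ t₁' t₂ t₂' c₁ c₁' c₂ c₂', D.nL t₁ = some c₁ → D.nR t₁' = some c₁' →
      D.nL t₂ = some c₂ → D.nR t₂' = some c₂' → t₁ + t₁' = t₂ + t₂' →
      (∃ k ∈ D.Ms, k ∣ t₁ + t₁') → col c₁ = col c₂ ∧ col c₁' = col c₂')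
    {t₁ u₁ t₂ u₂ : ℕ} {g₁ g₁' g₂ g₂' : Γ} (hG : ¬ D.Gd (t₁ + u₁)) (e : t₁ + u₁ = t₂ + u₂)
    (h1 : D.nmL t₁ = some g₁) (h1' : D.nmR u₁ = some g₁')
    (h2 : D.nmL t₂ = some g₂) (h2' : D.nmR u₂ = some g₂') :
    col g₁ = col g₂ ∧ col g₁' = col g₂' := by
  obtain ⟨s₁, L1, -⟩ := specL h1
  obtain ⟨s₂, L2, -⟩ := specL h2
  obtain ⟨R1, -⟩ := specR h1'
  obtain ⟨R2, -⟩ := specR h2'
  by_cases hk : ∃ k ∈ D.Ms, k ∣ t₁ + u₁
  · have f1 : t₁ % (D.R * D.M0) + u₁ % (D.R * D.M0) = (t₁ + u₁) % (D.R * D.M0) := by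
      rw [Nat.add_mod_of_add_mod_lt]
      have := L1.a0; have := R1.b0; omega
    have f2 : t₂ % (D.R * D.M0) + u₂ % (D.R * D.M0) = (t₂ + u₂) % (D.R * D.M0) := by
      rw [Nat.add_mod_of_add_mod_lt]
      have := L2.a0; have := R2.b0; omega
    refine hcol _ _ _ _ _ _ _ _ L1.a1 R1.b1 L2.a1 R2.b1 (by rw [f1, f2, e]) ?_
    obtain ⟨k, hk1, hk2⟩ := hk
    refine ⟨k, hk1, ?_⟩
    rw [f1, Nat.dvd_mod_iff (G.dvd0 k hk1)]
    exact hk2
  · push Not at hk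
    have e1 := G.star L1 R1 hk
    have e2 := G.star L2 R2 (by rw [← e]; exact hk)
    subst e1 e2
    obtain ⟨s₁', p1⟩ := pair_of L1 R1
    obtain ⟨s₂', p2⟩ := pair_of L2 R2
    have hl : ∃ l < D.m, 2 * D.rho ≤ (D.Ms1.filter (· ∣ (t₁ + u₁) / D.P l)).card := by
      by_contra hc
      push Not at hc
      exact hG ⟨hk, hc⟩
    obtain ⟨l, hlm, hl⟩ := hl
    have i1 : l = D.lv g₁ := by
      rcases lt_trichotomy l (D.lv g₁) with h | h | h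
      · have := p1.low G h; omega
      · exact h
      · have := p1.high G h hlm; omega
    have i2 : l = D.lv g₂ := by
      rcases lt_trichotomy l (D.lv g₂) with h | h | h
      · have := p2.low G h; rw [← e] at this; omega
      · exact h
      · have := p2.high G h hlm; rw [← e] at this; omega
    have q1 : (g₁, s₁) ≠ (g₁, s₁') := by
      intro hh
      have hn := p1.n
      rw [← hh] at hn
      have := G.l1 _ _ _ L1.a5 hn
      rw [← p1.at G, ← i1] at this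
      omega
    have q2 : (g₂, s₂) ≠ (g₂, s₂') := by
      intro hh
      have hn := p2.n
      rw [← hh] at hn
      have := G.l1 _ _ _ L2.a5 hn
      rw [← p2.at G, ← i2, ← e] at this
      omega
    have hsum : (t₁ / D.P (D.lv g₁)) % (D.R * D.M1) + (u₁ / D.P (D.lv g₁)) % (D.R * D.M1) =
        (t₂ / D.P (D.lv g₂)) % (D.R * D.M1) + (u₂ / D.P (D.lv g₂)) % (D.R * D.M1) := by
      have k1 := p1.div G (l := l) hlm.le
      have k2 := p2.div G (l := l) hlm.le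
      rw [← i1, ← i2]
      rw [← Nat.add_mod_of_add_mod_lt, ← Nat.add_mod_of_add_mod_lt, ← k1, ← k2, e]
      · have a := L2.a4; have b := R2.b3
        rw [← i2] at a b
        omega
      · have a := L1.a4; have b := R1.b3
        rw [← i1] at a b
        omega
    have hfin := G.l3 _ _ _ _ _ _ _ _ L1.a5 p1.n L2.a5 p2.n hsum q1 q2
    have hg : g₂ = g₁ := by
      rcases hfin with ⟨h, -⟩ | ⟨h, -⟩
      · exact (Prod.ext_iff.1 h).1
      · exact (Prod.ext_iff.1 h).1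
    subst hg
    exact ⟨rfl, rfl⟩


theorem complete (G : D.Good) {n : ℕ} (hn : 2 * (D.P D.m * (3 * D.m + 4)) ≤ n)
    (hs1 : D.M0 ≤ n % (D.R * D.M0)) (hs2 : n % (D.R * D.M0) + D.M0 < D.R * D.M0)
    (hk : ∀ k ∈ D.Ms, ¬ k ∣ n)
    (hd : ∀ l < D.m, D.M1 ≤ (n / D.P l) % (D.R * D.M1) ∧
      (n / D.P l) % (D.R * D.M1) + D.M1 < D.R * D.M1 ∧
      (D.Ms1.filter (· ∣ n / D.P l)).card < D.rho) (g : Γ) :
    ∃ t u, t + u = n ∧ D.nmL t = some g ∧ D.nmR u = some g := by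
  have him := G.hlv g
  have p0 := G.p0
  have p1 := G.p1
  have hM0 := G.hM0
  have hM1 := G.hM1
  obtain ⟨t0, ht0, hL0, hR0⟩ := G.n2 (n % (D.R * D.M0))
    (fun k hk' h => hk k hk' ((Nat.dvd_mod_iff (G.dvd0 k hk')).1 h)) g
  obtain ⟨u0, hu0⟩ : ∃ u0, t0 + u0 = n % (D.R * D.M0) := ⟨_, Nat.add_sub_of_le (by omega)⟩
  have hR0 := hR0 u0 hu0
  have hu0lt : u0 < D.R * D.M0 := by omega
  obtain ⟨hd1, hd2, hd3⟩ := hd _ him
  have hfl : D.Ms1.filter (· ∣ n / D.P (D.lv g)) =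
      D.Ms1.filter (· ∣ (n / D.P (D.lv g)) % (D.R * D.M1)) :=
    filt G.dvd1 (Nat.mod_mod _ _).symm
  rw [hfl] at hd3
  obtain ⟨e, he, hL1, hR1⟩ := G.l4 _ hd3 (g, ⟨u0, hu0lt⟩)
  obtain ⟨e', hee⟩ : ∃ e', e + e' = (n / D.P (D.lv g)) % (D.R * D.M1) :=
    ⟨_, Nat.add_sub_of_le (by omega)⟩
  have hR1 := hR1 e' hee
  have hA := G.P_pos (D.lv g)
  have hAm := G.P_pos D.m
  obtain ⟨c, hc⟩ : ∃ c, D.P D.m = D.P (D.lv g) * ((D.R * D.M1) * c) := by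
    have h1 : D.P (D.lv g + 1) ∣ D.P D.m := Q_dvd him
    obtain ⟨c, hc⟩ := h1
    refine ⟨c, ?_⟩
    have h2 : D.P (D.lv g + 1) = D.P (D.lv g) * (D.R * D.M1) := Q_succ _
    rw [hc, h2, Nat.mul_assoc]
  have hb0A : D.R * D.M0 ∣ D.P (D.lv g) := b0_dvd _
  have hb0m : D.R * D.M0 ∣ D.P D.m := b0_dvd _
  have hb0le : D.R * D.M0 ≤ D.P (D.lv g) := Nat.le_of_dvd hA hb0A
  have hP1 : D.P (D.lv g + 1) = D.P (D.lv g) * (D.R * D.M1) := Q_succ _
  have hP1m : D.P (D.lv g + 1) ≤ D.P D.m := G.P_le him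
  -- remainder
  have hT0 : (n % D.P (D.lv g)) % (D.R * D.M0) = n % (D.R * D.M0) := Nat.mod_mod_of_dvd _ hb0A
  obtain ⟨r, hr⟩ : ∃ r, r + u0 = n % D.P (D.lv g) := by
    refine ⟨_, Nat.sub_add_cancel ?_⟩
    have := Nat.mod_le (n % D.P (D.lv g)) (D.R * D.M0)
    omega
  have hrlt : r + u0 < D.P (D.lv g) := hr ▸ Nat.mod_lt _ hA
  have hrb : r % (D.R * D.M0) = t0 := by
    have h1 := Nat.div_add_mod (n % D.P (D.lv g)) (D.R * D.M0)
    rw [hT0, ← hr] at h1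
    have h2 : r = (D.R * D.M0) * ((r + u0) / (D.R * D.M0)) + t0 := by omega
    rw [h2, Nat.mul_add_mod, Nat.mod_eq_of_lt (by omega)]
  -- quotient
  obtain ⟨N', hN'⟩ : ∃ N', n / D.P (D.lv g) = (D.R * D.M1) * N' + (e + e') :=
    ⟨_, by rw [hee]; exact (Nat.div_add_mod _ _).symm⟩
  have hn' : n = D.P (D.lv g) * ((D.R * D.M1) * N' + (e + e')) + (r + u0) := by
    rw [← hN', hr]; exact (Nat.div_add_mod _ _).symm
  have hEN : c * (3 * D.lv g + 3) + c * 1 ≤ N' + c * 1 := by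
    refine Nat.add_le_add_right ?_ _
    by_contra hlt
    push Not at hlt
    have k1 : D.P (D.lv g) * ((D.R * D.M1) * (N' + 1)) ≤
        D.P (D.lv g) * ((D.R * D.M1) * (c * (3 * D.lv g + 3))) :=
      Nat.mul_le_mul_left _ (Nat.mul_le_mul_left _ hlt)
    have k2 : D.P (D.lv g) * ((D.R * D.M1) * (c * (3 * D.lv g + 3))) =
        D.P D.m * (3 * D.lv g + 3) := by rw [hc]; ring
    have k3 : D.P (D.lv g) * ((e + e') + 1) ≤ D.P (D.lv g) * (D.R * D.M1) := by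
      apply Nat.mul_le_mul_left
      rw [hee]; exact Nat.mod_lt _ p1
    have k4 : D.P D.m * (3 * D.lv g + 3) ≤ D.P D.m * (3 * D.m + 4) :=
      Nat.mul_le_mul_left _ (by omega)
    have k5 : 0 < D.P D.m * (3 * D.m + 4) := Nat.mul_pos hAm (by omega)
    rw [Nat.mul_add (D.R * D.M1), Nat.mul_add (D.P (D.lv g)), k2] at k1
    rw [Nat.mul_add (D.P (D.lv g))] at hn' k3
    rw [Nat.mul_one] at k1 k3
    omega
  obtain ⟨D', hD'⟩ : ∃ D', N' = c * (3 * D.lv g + 3) + D' :=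
    Nat.exists_eq_add_of_le (Nat.le_of_add_le_add_right hEN)
  -- the pair
  let t := D.P (D.lv g) * ((D.R * D.M1) * (c * (3 * D.lv g + 3)) + e) + r
  let u := D.P (D.lv g) * ((D.R * D.M1) * D' + e') + u0
  have htdef : t = D.P (D.lv g) * ((D.R * D.M1) * (c * (3 * D.lv g + 3)) + e) + r := rfl
  have hudef : u = D.P (D.lv g) * ((D.R * D.M1) * D' + e') + u0 := rfl
  have htu : t + u = n := by rw [hn', hD', htdef, hudef]; ring
  have hrA : r < D.P (D.lv g) := by omega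
  have huA : u0 < D.P (D.lv g) := by omega
  have t1 : t % D.P (D.lv g) = r := by rw [htdef, Nat.mul_add_mod, Nat.mod_eq_of_lt hrA]
  have u1 : u % D.P (D.lv g) = u0 := by rw [hudef, Nat.mul_add_mod, Nat.mod_eq_of_lt huA]
  have t2 : t / D.P (D.lv g) = (D.R * D.M1) * (c * (3 * D.lv g + 3)) + e := by
    rw [htdef, Nat.mul_add_div hA, Nat.div_eq_of_lt hrA, Nat.add_zero]
  have u2 : u / D.P (D.lv g) = (D.R * D.M1) * D' + e' := by
    rw [hudef, Nat.mul_add_div hA, Nat.div_eq_of_lt huA, Nat.add_zero]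
  have hee' : e + e' < D.R * D.M1 := by rw [hee]; exact Nat.mod_lt _ p1
  have t3 : (t / D.P (D.lv g)) % (D.R * D.M1) = e := by
    rw [t2, Nat.mul_add_mod, Nat.mod_eq_of_lt (by omega)]
  have u3 : (u / D.P (D.lv g)) % (D.R * D.M1) = e' := by
    rw [u2, Nat.mul_add_mod, Nat.mod_eq_of_lt (by omega)]
  have t4 : t % (D.R * D.M0) = t0 := by
    rw [← Nat.mod_mod_of_dvd t hb0A, t1, hrb]
  have u4 : u % (D.R * D.M0) = u0 := by
    rw [← Nat.mod_mod_of_dvd u hb0A, u1, Nat.mod_eq_of_lt hu0lt]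
  have t5 : t = D.P D.m * (3 * D.lv g + 3) + (D.P (D.lv g) * e + r) := by
    rw [htdef, hc]; ring
  have t6 : D.P (D.lv g) * e + r < D.P (D.lv g + 1) := by
    rw [hP1]
    have : D.P (D.lv g) * (e + 1) ≤ D.P (D.lv g) * (D.R * D.M1) :=
      Nat.mul_le_mul_left _ (by omega)
    rw [Nat.mul_add, Nat.mul_one] at this
    omega
  have t7 : t / D.P D.m = 3 * D.lv g + 3 := by
    rw [t5, Nat.mul_add_div hAm, Nat.div_eq_of_lt (by omega), Nat.add_zero]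
  have t8 : t % D.P D.m = D.P (D.lv g) * e + r := by
    rw [t5, Nat.mul_add_mod, Nat.mod_eq_of_lt (by omega)]
  have c0 : t % (D.R * D.M0) + u % (D.R * D.M0) < D.R * D.M0 := by rw [t4, u4]; omega
  have c1 : u % D.P (D.lv g) = u % (D.R * D.M0) := by rw [u1, u4]
  have c2 : (t / D.P (D.lv g)) % (D.R * D.M1) + (u / D.P (D.lv g)) % (D.R * D.M1) <
      D.R * D.M1 := by rw [t3, u3]; omega
  have c3 : t % D.P D.m < D.P (D.lv g + 1) := by rw [t8]; exact t6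
  refine ⟨t, u, htu, specL' (s := ⟨u0, hu0lt⟩) ?_, specR' ?_⟩
  · refine ⟨by rw [t4]; exact ht0, by rw [t4]; exact hL0, t7, c3, by rw [t3]; exact he,
      by rw [t3]; exact hL1, fun l hl => ?_⟩
    have h1 := (hd l (by omega)).2.2
    rw [← htu] at h1
    have h2 : D.Ms1.filter (· ∣ (t + u) / D.P l) = D.Ms1.filter (· ∣ t / D.P l) :=
      filt G.dvd1 (low_eq p0 p1 him c0 c1 c2 c3 hl)
    rw [← h2]
    exact h1
  · refine ⟨by rw [u4]; omega, by rw [u4]; exact hR0, c1, by rw [u3]; omega,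
      ⟨⟨u0, hu0lt⟩, by rw [u4], by rw [u3]; exact hR1⟩, fun l hl hlm => ?_, ?_⟩
    · have h1 := (hd l hlm).2.2
      rw [← htu] at h1
      have h2 : D.Ms1.filter (· ∣ (t + u) / D.P l) = D.Ms1.filter (· ∣ u / D.P l) :=
        filt G.dvd1 (high_eq p0 p1 him c0 c1 c2 c3 hl hlm)
      rw [← h2]
      exact h1
    · have h1 : t < D.P D.m * (3 * D.m + 4) := by
        have h2 : D.P D.m * (3 * D.lv g + 3) + D.P D.m ≤ D.P D.m * (3 * D.m + 4) := by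
          calc D.P D.m * (3 * D.lv g + 3) + D.P D.m = D.P D.m * (3 * D.lv g + 4) := by ring
            _ ≤ _ := Nat.mul_le_mul_left _ (by omega)
        omega
      omega

end Dat

/-- **Leaf U2 of TEAM U** (638 #13273), with two more conjuncts at the end. -/
theorem clocks (m : ℕ) (Γ C : Type) [Finite Γ] [Finite C] (lv : Γ → ℕ) (hlv : ∀ g, lv g < m)
    (col : Γ → C) : ∃ r : ℕ, ∀ B R : ℕ, 3 ≤ R →
    ∃ (Ms Ms1 : Finset ℕ) (rho M0 M1 : ℕ) (nmL nmR : ℕ → Option Γ) (bL bR : ℕ → ℕ → ℕ)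
      (Gd : ℕ → Prop),
      Ms.card ≤ r ∧ Ms1.card ≤ 32*rho ∧ 0 < rho ∧ (∀ k ∈ Ms, B < k ∧ Nat.Prime k ∧ k ∣ M0) ∧
      (∀ k ∈ Ms1, B < k ∧ Nat.Prime k ∧ k ∣ M1) ∧ 0 < M0 ∧ 0 < M1 ∧
      (∀ t g, nmL t = some g → t < PP R M0 M1 m * (3*m+4)) ∧
      (∀ t g, nmR t = some g → PP R M0 M1 m * (3*m+4) ≤ t) ∧
      (∀ t t' g g', Gd (t+t') → nmL t = some g → nmR t' = some g' → g = g' ∧
        (∀ l ≤ lv g, bL t l = beta R M0 M1 m (t+t') l) ∧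
        (∀ l, lv g < l → l ≤ m → bR t' l + beta R M0 M1 m (t+t') l = t+t') ∧
        beta R M0 M1 m (t+t') (lv g) ≤ t ∧ t ≤ beta R M0 M1 m (t+t') (lv g + 1)) ∧
      (∀ t₁ t₁' t₂ t₂' g₁ g₁' g₂ g₂', ¬ Gd (t₁+t₁') → t₁+t₁' = t₂+t₂' → nmL t₁ = some g₁ →
        nmR t₁' = some g₁' → nmL t₂ = some g₂ → nmR t₂' = some g₂' →
        col g₁ = col g₂ ∧ col g₁' = col g₂') ∧
      (∀ n, 2*(PP R M0 M1 m * (3*m+4)) ≤ n → ¬ Bad R M0 M1 m rho Ms Ms1 n →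
        Gd n ∧ ∀ g, ∃ t t', t+t' = n ∧ nmL t = some g ∧ nmR t' = some g) ∧
      B < M0 ∧ B < M1 := by
  obtain ⟨r, hr⟩ := Names755.names Γ C col
  refine ⟨r, fun B R hR => ?_⟩
  obtain ⟨Ms, M, nL, nR, hc, hMs, hM, -, -, n1, n2, n3⟩ := hr B
  have hMB : M ≤ M * (B + 1) := Nat.le_mul_of_pos_right _ (Nat.succ_pos _)
  obtain ⟨rho, hrho, h⟩ := LN_484.level_names (Γ × Fin (R * (M * (B + 1))))
  obtain ⟨Ms1, M', nL1, nR1, hc1, hMs1, hM', -, -, l1, l2, l3, l4⟩ := h B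
  have hMB' : M' ≤ M' * (B + 1) := Nat.le_mul_of_pos_right _ (Nat.succ_pos _)
  let D : Dat Γ := ⟨R, M * (B + 1), M' * (B + 1), m, rho, Ms, Ms1, lv, nL, nR, nL1, nR1⟩
  have G : D.Good :=
    { hR := hR
      hM0 := Nat.mul_pos hM (Nat.succ_pos _)
      hM1 := Nat.mul_pos hM' (Nat.succ_pos _)
      hrho := hrho
      hlv := hlv
      hMs := fun k hk => (hMs k hk).2.2.mul_right _
      hMs1 := fun k hk => (hMs1 k hk).2.2.mul_right _
      n1 := n1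
      n2 := by
        intro T hT c
        obtain ⟨t, ht, h1, h2⟩ := n2 T hT c
        exact ⟨t, ht.trans_le hMB, h1, fun t' e => h2 t' (by rw [e])⟩
      l1 := l1
      l2 := l2
      l3 := l3
      l4 := by
        intro T hT c
        obtain ⟨t, ht, h1, h2⟩ := l4 T hT c
        exact ⟨t, ht.trans_le hMB', h1, fun t' e => h2 t' (by rw [e])⟩ }
  refine ⟨Ms, Ms1, rho, M * (B + 1), M' * (B + 1), D.nmL, D.nmR, D.bL, D.bR, D.Gd, hc, hc1, hrho,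
    fun k hk => ⟨(hMs k hk).1, (hMs k hk).2.1, (hMs k hk).2.2.mul_right _⟩,
    fun k hk => ⟨(hMs1 k hk).1, (hMs1 k hk).2.1, (hMs1 k hk).2.2.mul_right _⟩,
    Nat.mul_pos hM (Nat.succ_pos _), Nat.mul_pos hM' (Nat.succ_pos _), ?_, ?_, ?_, ?_, ?_, ?_, ?_⟩
  · intro t g ht
    obtain ⟨s, h1, -⟩ := Dat.specL ht
    refine (h1.lt G).trans_le ?_
    have := hlv g
    exact Nat.mul_le_mul_left _ (show 3 * lv g + 4 ≤ 3 * m + 4 by omega)
  · intro t g ht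
    exact (Dat.specR ht).1.b6
  · intro t t' g g' hG hL hR'
    exact Dat.sound_good G hG hL hR'
  · intro t₁ t₁' t₂ t₂' g₁ g₁' g₂ g₂' hG e h1 h1' h2 h2'
    exact Dat.sound_bad G col n3 hG e h1 h1' h2 h2'
  · intro n hn hb
    simp only [Bad, not_or, not_exists, not_and, not_lt, not_le] at hb
    obtain ⟨⟨b1, b2⟩, b3, b4⟩ := hb
    refine ⟨⟨b3, fun l hl => ?_⟩, fun g => ?_⟩
    · have := (b4 l hl).2
      change (Ms1.filter (· ∣ n / PP R (M * (B + 1)) (M' * (B + 1)) l)).card < 2 * rho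
      omega
    · exact Dat.complete G hn b1 b2 b3 (fun l hl => ⟨(b4 l hl).1.1, (b4 l hl).1.2, (b4 l hl).2⟩) g
  · have : 1 * (B + 1) ≤ M * (B + 1) := Nat.mul_le_mul_right _ hM
    omega
  · have : 1 * (B + 1) ≤ M' * (B + 1) := Nat.mul_le_mul_right _ hM'
    omega

end Crest.Agent.R320.Clk_404
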