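import Mathlib
import Crest.Agent.R320.Names_755
import Crest.Agent.R320.LN_133

/-!
# Row 320, team U (638 #13273): leaf U2 = `clocks` (helper555)
-/

set_option autoImplicit false

namespace Crest.Agent.R320.Clk_555

open Finset

def PP (R M0 M1 l : ℕ) : ℕ := (R*M0) * (R*M1)^l
def beta (R M0 M1 m n l : ℕ) : ℕ := PP R M0 M1 m * (3*l+2) + n % PP R M0 M1 l
def Bad (R M0 M1 m rho : ℕ) (Ms Ms1 : Finset ℕ) (n : ℕ) : Prop :=
  (n % (R*M0) < M0 ∨ R*M0 ≤ n % (R*M0) + M0) ∨ (∃ k ∈ Ms, k ∣ n) ∨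
  ∃ l < m, ((n / PP R M0 M1 l) % (R*M1) < M1 ∨ R*M1 ≤ (n / PP R M0 M1 l) % (R*M1) + M1) ∨
    rho ≤ (Ms1.filter (· ∣ n / PP R M0 M1 l)).card

def P (c0 b l : ℕ) : ℕ := c0 * b^l

lemma P_pos {c0 b : ℕ} (h0 : 0 < c0) (hb : 0 < b) (l : ℕ) : 0 < P c0 b l := by
  unfold P; positivity

lemma P_succ {c0 b : ℕ} (l : ℕ) : P c0 b (l+1) = P c0 b l * b := by
  unfold P; ring

lemma P_split {c0 b i j : ℕ} (h : i ≤ j) : P c0 b j = P c0 b i * b^(j-i) := by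
  unfold P; rw [mul_assoc, ← pow_add]; congr 2; omega

lemma P_dvd {c0 b i j : ℕ} (h : i ≤ j) : P c0 b i ∣ P c0 b j := ⟨_, P_split h⟩

lemma P_le {c0 b i j : ℕ} (hb : 0 < b) (h : i ≤ j) : P c0 b i ≤ P c0 b j := by
  rw [P_split h]; exact Nat.le_mul_of_pos_right _ (by positivity)

lemma nc_lift {x c q s : ℕ} (hx : x < c*q) (h : x % c + s < c) : x + s < c*q := by
  have h1 : c*(x/c) + x%c = x := Nat.div_add_mod x c
  have h2 : x / c < q := Nat.div_lt_of_lt_mul hx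
  have h3 : c*(x/c) + c ≤ c*q := by
    calc c*(x/c)+c = c*(x/c+1) := by ring
      _ ≤ c*q := Nat.mul_le_mul_left _ h2
  omega

structure LA (c0 b m M0 M1 i t : ℕ) : Prop where
  a0 : t % P c0 b 0 < M0
  ai : t / P c0 b i % b < M1
  up : t % P c0 b m = t % P c0 b (i+1)
  top : t / P c0 b m = 3*i+3

structure RA (c0 b M0 M1 i t : ℕ) : Prop where
  lo : t % P c0 b i = t % P c0 b 0
  a0 : t % P c0 b 0 + M0 ≤ P c0 b 0
  ai : t / P c0 b i % b + M1 ≤ b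

section
variable {c0 b m M0 M1 i t t' : ℕ}

lemma RA.low (h0 : 0 < c0) (hb : 0 < b) (hR : RA c0 b M0 M1 i t') {l : ℕ} (hl : l ≤ i) :
    t' % P c0 b l = t' % P c0 b 0 := by
  have h1 : (t' % P c0 b i) % P c0 b l = t' % P c0 b l := Nat.mod_mod_of_dvd _ (P_dvd hl)
  rw [hR.lo] at h1
  have h2 : t' % P c0 b 0 < P c0 b l :=
    lt_of_lt_of_le (Nat.mod_lt _ (P_pos h0 hb 0)) (P_le hb (Nat.zero_le _))
  rw [Nat.mod_eq_of_lt h2] at h1
  exact h1.symm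

lemma LA.high (h0 : 0 < c0) (hb : 0 < b) (hL : LA c0 b m M0 M1 i t) {l : ℕ} (hl : i + 1 ≤ l)
    (hm : l ≤ m) : t % P c0 b l = t % P c0 b (i+1) := by
  have h1 : (t % P c0 b m) % P c0 b l = t % P c0 b l := Nat.mod_mod_of_dvd _ (P_dvd hm)
  rw [hL.up] at h1
  have h2 : t % P c0 b (i+1) < P c0 b l :=
    lt_of_lt_of_le (Nat.mod_lt _ (P_pos h0 hb _)) (P_le hb hl)
  rw [Nat.mod_eq_of_lt h2] at h1
  exact h1.symm

lemma nc (h0 : 0 < c0) (hb : 0 < b) (hL : LA c0 b m M0 M1 i t) (hR : RA c0 b M0 M1 i t') :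
    ∀ l ≤ m, t % P c0 b l + t' % P c0 b l < P c0 b l := by
  have hlow : ∀ l ≤ i, t % P c0 b l + t' % P c0 b l < P c0 b l := by
    intro l hl
    rw [hR.low h0 hb hl]
    have h1 : (t % P c0 b l) % P c0 b 0 = t % P c0 b 0 :=
      Nat.mod_mod_of_dvd _ (P_dvd (Nat.zero_le _))
    have h2 := Nat.mod_lt t (P_pos h0 hb l)
    rw [P_split (Nat.zero_le l)] at h2 ⊢
    refine nc_lift h2 ?_
    rw [← P_split (Nat.zero_le l), h1]
    have := hL.a0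
    have := hR.a0
    omega
  have hi1 : t % P c0 b (i+1) + t' % P c0 b (i+1) < P c0 b (i+1) := by
    have h1 := hlow i le_rfl
    have h2 := hL.ai
    have h3 := hR.ai
    rw [P_succ, Nat.mod_mul, Nat.mod_mul]
    generalize t / P c0 b i % b = d at *
    generalize t' / P c0 b i % b = d' at *
    have h4 : P c0 b i * (d + d' + 1) ≤ P c0 b i * b := Nat.mul_le_mul_left _ (by omega)
    have h5 : P c0 b i * (d + d' + 1) = P c0 b i * d + P c0 b i * d' + P c0 b i := by ring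
    omega
  intro l hm
  by_cases hl : l ≤ i
  · exact hlow l hl
  · have hl' : i + 1 ≤ l := by omega
    rw [hL.high h0 hb hl' hm]
    have h1 : (t' % P c0 b l) % P c0 b (i+1) = t' % P c0 b (i+1) :=
      Nat.mod_mod_of_dvd _ (P_dvd hl')
    have h2 := Nat.mod_lt t' (P_pos h0 hb l)
    have h3 : t' % P c0 b l + t % P c0 b (i+1) < P c0 b l := by
      rw [P_split hl'] at h2 ⊢
      refine nc_lift h2 ?_
      rw [← P_split hl', h1]
      omega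
    omega

lemma add_div_nc {x y c : ℕ} (hc : 0 < c) (h : x % c + y % c < c) :
    (x + y) / c = x / c + y / c := by
  rw [Nat.add_div hc, if_neg (by omega)]; simp

lemma dvd_div {x p c k : ℕ} (hp : 0 < p) (h : x % (p*c) < p) (hk : k ∣ c) : k ∣ x / p := by
  have h1 : x = x % (p*c) + p * (c * (x / (p*c))) := by
    have := Nat.div_add_mod x (p*c)
    nlinarith [this]
  have h2 : x / p = c * (x / (p*c)) := by
    conv_lhs => rw [h1]
    rw [Nat.add_mul_div_left _ _ hp, Nat.div_eq_of_lt h, zero_add]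
  rw [h2]
  exact hk.mul_right _

end

section
variable {c0 b m M0 M1 i t t' : ℕ}

lemma sum_mod (h0 : 0 < c0) (hb : 0 < b) (hL : LA c0 b m M0 M1 i t) (hR : RA c0 b M0 M1 i t')
    {l : ℕ} (hl : l ≤ m) : (t + t') % P c0 b l = t % P c0 b l + t' % P c0 b l := by
  rw [Nat.add_mod, Nat.mod_eq_of_lt (nc h0 hb hL hR l hl)]

lemma sum_div (h0 : 0 < c0) (hb : 0 < b) (hL : LA c0 b m M0 M1 i t) (hR : RA c0 b M0 M1 i t')
    {l : ℕ} (hl : l ≤ m) : (t + t') / P c0 b l = t / P c0 b l + t' / P c0 b l :=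
  add_div_nc (P_pos h0 hb l) (nc h0 hb hL hR l hl)

/-- below the level: divisors of the digit of `t + t'` are those of `t` -/
lemma dvd_low (h0 : 0 < c0) (hb : 0 < b) (hL : LA c0 b m M0 M1 i t)
    (hR : RA c0 b M0 M1 i t') (hi : i < m) {k l : ℕ} (hk : k ∣ b) (hl : l < i) :
    k ∣ (t + t') / P c0 b l ↔ k ∣ t / P c0 b l := by
  rw [sum_div h0 hb hL hR (by omega)]
  have h1 : k ∣ t' / P c0 b l := by
    have h2 : P c0 b l * b^(i-l) = P c0 b i := (P_split hl.le).symm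
    refine dvd_div (c := b^(i-l)) (P_pos h0 hb l) ?_ (hk.trans (dvd_pow_self _ (by omega)))
    rw [h2, hR.lo]
    exact lt_of_lt_of_le (Nat.mod_lt _ (P_pos h0 hb 0)) (P_le hb (Nat.zero_le _))
  exact (Nat.dvd_add_left h1)

/-- above the level -/
lemma dvd_high (h0 : 0 < c0) (hb : 0 < b) (hL : LA c0 b m M0 M1 i t)
    (hR : RA c0 b M0 M1 i t') {k l : ℕ} (hk : k ∣ b) (hl : i < l) (hm : l < m) :
    k ∣ (t + t') / P c0 b l ↔ k ∣ t' / P c0 b l := by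
  rw [sum_div h0 hb hL hR (by omega)]
  have h1 : k ∣ t / P c0 b l := by
    have h2 : P c0 b l * b^(m-l) = P c0 b m := (P_split hm.le).symm
    refine dvd_div (c := b^(m-l)) (P_pos h0 hb l) ?_ (hk.trans (dvd_pow_self _ (by omega)))
    rw [h2, hL.up]
    exact lt_of_lt_of_le (Nat.mod_lt _ (P_pos h0 hb _)) (P_le hb hl)
  exact (Nat.dvd_add_right h1)

lemma dvd_mid (h0 : 0 < c0) (hb : 0 < b) (hL : LA c0 b m M0 M1 i t)
    (hR : RA c0 b M0 M1 i t') (hi : i < m) {k : ℕ} (hk : k ∣ b) :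
    k ∣ (t + t') / P c0 b i ↔ k ∣ t / P c0 b i % b + t' / P c0 b i % b := by
  rw [sum_div h0 hb hL hR (by omega)]
  have h1 : t / P c0 b i % b + t' / P c0 b i % b ≡ t / P c0 b i + t' / P c0 b i [MOD b] :=
    Nat.ModEq.add (Nat.mod_modEq _ _) (Nat.mod_modEq _ _)
  exact ((h1.dvd_iff hk).symm)

/-- the digit of the sum at the level -/
lemma dig_mid (h0 : 0 < c0) (hb : 0 < b) (hL : LA c0 b m M0 M1 i t)
    (hR : RA c0 b M0 M1 i t') (hi : i < m) :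
    (t + t') / P c0 b i % b = t / P c0 b i % b + t' / P c0 b i % b := by
  rw [sum_div h0 hb hL hR (by omega), Nat.add_mod, Nat.mod_eq_of_lt]
  have := hL.ai
  have := hR.ai
  omega

end

/-- package of names used below -/
structure Pk (Γ C : Type) (col : Γ → C) (R M0 M1 rho : ℕ) (Ms Ms1 : Finset ℕ)
    (nL nR : ℕ → Option Γ) (nL1 nR1 : ℕ → Option (Γ × Fin (R*M0))) : Prop where
  hR : 3 ≤ R
  hM0 : 0 < M0
  hM1 : 0 < M1
  hrho : 0 < rho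
  dv1 : ∀ k ∈ Ms1, k ∣ M1
  perL : ∀ t, nL (t + M0) = nL t
  perR : ∀ t, nR (t + M0) = nR t
  good : ∀ t t' c c', nL t = some c → nR t' = some c' → (∀ k ∈ Ms, ¬ k ∣ t + t') → c = c'
  comp : ∀ T, (∀ k ∈ Ms, ¬ k ∣ T) → ∀ c, ∃ t < M0, nL t = some c ∧
    ∀ t', t + t' ≡ T [MOD M0] → nR t' = some c
  bad : ∀ t₁ t₁' t₂ t₂' c₁ c₁' c₂ c₂', nL t₁ = some c₁ → nR t₁' = some c₁' →
    nL t₂ = some c₂ → nR t₂' = some c₂' → t₁ + t₁' = t₂ + t₂' →
    (∃ k ∈ Ms, k ∣ t₁ + t₁') → col c₁ = col c₂ ∧ col c₁' = col c₂'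
  same1 : ∀ t t' c, nL1 t = some c → nR1 t' = some c → (Ms1.filter (· ∣ t+t')).card < 2*rho
  diff1 : ∀ t t' c c', nL1 t = some c → nR1 t' = some c' → c ≠ c' →
    2*rho ≤ (Ms1.filter (· ∣ t+t')).card
  swap1 : ∀ t₁ t₁' t₂ t₂' c₁ c₁' c₂ c₂', nL1 t₁ = some c₁ → nR1 t₁' = some c₁' →
    nL1 t₂ = some c₂ → nR1 t₂' = some c₂' → t₁+t₁' = t₂+t₂' → c₁ ≠ c₁' → c₂ ≠ c₂' →
    (c₂ = c₁ ∧ c₂' = c₁') ∨ (c₂ = c₁' ∧ c₂' = c₁)
  comp1 : ∀ T, (Ms1.filter (· ∣ T)).card < rho → ∀ c, ∃ t < M1, nL1 t = some c ∧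
    ∀ t', t+t' ≡ T [MOD M1] → nR1 t' = some c

section
variable {Γ C : Type} {col : Γ → C} {R M0 M1 rho : ℕ} {Ms Ms1 : Finset ℕ}
  {nL nR : ℕ → Option Γ} {nL1 nR1 : ℕ → Option (Γ × Fin (R*M0))}

structure LL (lv : Γ → ℕ) (m R M0 M1 rho : ℕ) (Ms1 : Finset ℕ) (nL : ℕ → Option Γ)
    (nL1 : ℕ → Option (Γ × Fin (R*M0))) (p : Γ × Fin (R*M0)) (t : ℕ) : Prop where
  n : nL t = some p.1
  la : LA (R*M0) (R*M1) m M0 M1 (lv p.1) t
  lo : ∀ l < lv p.1, (Ms1.filter (· ∣ t / P (R*M0) (R*M1) l)).card < rho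
  n1 : nL1 (t / P (R*M0) (R*M1) (lv p.1) % (R*M1)) = some p

structure RR (lv : Γ → ℕ) (m R M0 M1 rho : ℕ) (Ms1 : Finset ℕ) (nR : ℕ → Option Γ)
    (nR1 : ℕ → Option (Γ × Fin (R*M0))) (p : Γ × Fin (R*M0)) (t : ℕ) : Prop where
  n : nR t = some p.1
  ra : RA (R*M0) (R*M1) M0 M1 (lv p.1) t
  hi : ∀ l, lv p.1 < l → l < m → (Ms1.filter (· ∣ t / P (R*M0) (R*M1) l)).card < rho
  n1 : nR1 (t / P (R*M0) (R*M1) (lv p.1) % (R*M1)) = some p
  st : (p.2 : ℕ) = t % P (R*M0) (R*M1) 0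
  big : P (R*M0) (R*M1) m * (3*m+4) ≤ t

variable {lv : Γ → ℕ} {m : ℕ}

lemma LL.uniq {p p' : Γ × Fin (R*M0)} {t : ℕ} (h : LL lv m R M0 M1 rho Ms1 nL nL1 p t)
    (h' : LL lv m R M0 M1 rho Ms1 nL nL1 p' t) : p = p' := by
  have h1 : p.1 = p'.1 := Option.some.inj (h.n.symm.trans h'.n)
  have h2 := h.n1
  rw [h1, h'.n1] at h2
  exact (Option.some.inj h2).symm

lemma RR.uniq {p p' : Γ × Fin (R*M0)} {t : ℕ} (h : RR lv m R M0 M1 rho Ms1 nR nR1 p t)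
    (h' : RR lv m R M0 M1 rho Ms1 nR nR1 p' t) : p = p' := by
  have h1 : p.1 = p'.1 := Option.some.inj (h.n.symm.trans h'.n)
  have h2 := h.n1
  rw [h1, h'.n1] at h2
  exact (Option.some.inj h2).symm

/-- good totals -/
def Gd (m R M0 M1 rho : ℕ) (Ms Ms1 : Finset ℕ) (n : ℕ) : Prop :=
  (∀ k ∈ Ms, ¬ k ∣ n) ∧ ∀ l < m, (Ms1.filter (· ∣ n / P (R*M0) (R*M1) l)).card < 2*rho

lemma Pk.c0 (pk : Pk Γ C col R M0 M1 rho Ms Ms1 nL nR nL1 nR1) : 0 < R*M0 :=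
  Nat.mul_pos (by have := pk.hR; omega) pk.hM0

lemma Pk.b0 (pk : Pk Γ C col R M0 M1 rho Ms Ms1 nL nR nL1 nR1) : 0 < R*M1 :=
  Nat.mul_pos (by have := pk.hR; omega) pk.hM1

lemma Pk.db (pk : Pk Γ C col R M0 M1 rho Ms Ms1 nL nR nL1 nR1) {k : ℕ} (hk : k ∈ Ms1) :
    k ∣ R*M1 := (pk.dv1 k hk).mul_left _

lemma cnt_low (pk : Pk Γ C col R M0 M1 rho Ms Ms1 nL nR nL1 nR1) (hlv : ∀ g, lv g < m)
    {p q : Γ × Fin (R*M0)} {t t' : ℕ}
    (hL : LL lv m R M0 M1 rho Ms1 nL nL1 p t) (hR : RR lv m R M0 M1 rho Ms1 nR nR1 q t')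
    (hpq : p.1 = q.1) {l : ℕ} (hl : l < lv p.1) :
    (Ms1.filter (· ∣ (t + t') / P (R*M0) (R*M1) l)).card < rho := by
  have hra := hR.ra
  rw [← hpq] at hra
  have h1 : Ms1.filter (· ∣ (t + t') / P (R*M0) (R*M1) l) =
      Ms1.filter (· ∣ t / P (R*M0) (R*M1) l) :=
    Finset.filter_congr fun k hk => dvd_low pk.c0 pk.b0 hL.la hra (hlv _) (pk.db hk) hl
  rw [h1]
  exact hL.lo l hl

lemma cnt_high (pk : Pk Γ C col R M0 M1 rho Ms Ms1 nL nR nL1 nR1)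
    {p q : Γ × Fin (R*M0)} {t t' : ℕ}
    (hL : LL lv m R M0 M1 rho Ms1 nL nL1 p t) (hR : RR lv m R M0 M1 rho Ms1 nR nR1 q t')
    (hpq : p.1 = q.1) {l : ℕ} (hl : lv p.1 < l) (hm : l < m) :
    (Ms1.filter (· ∣ (t + t') / P (R*M0) (R*M1) l)).card < rho := by
  have hra := hR.ra
  rw [← hpq] at hra
  have h1 : Ms1.filter (· ∣ (t + t') / P (R*M0) (R*M1) l) =
      Ms1.filter (· ∣ t' / P (R*M0) (R*M1) l) :=
    Finset.filter_congr fun k hk => dvd_high pk.c0 pk.b0 hL.la hra (pk.db hk) hl hm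
  rw [h1]
  exact hR.hi l (hpq ▸ hl) hm

lemma cnt_mid (pk : Pk Γ C col R M0 M1 rho Ms Ms1 nL nR nL1 nR1) (hlv : ∀ g, lv g < m)
    {p q : Γ × Fin (R*M0)} {t t' : ℕ}
    (hL : LL lv m R M0 M1 rho Ms1 nL nL1 p t) (hR : RR lv m R M0 M1 rho Ms1 nR nR1 q t')
    (hpq : p.1 = q.1) :
    Ms1.filter (· ∣ (t + t') / P (R*M0) (R*M1) (lv p.1)) =
      Ms1.filter (· ∣ t / P (R*M0) (R*M1) (lv p.1) % (R*M1) +
        t' / P (R*M0) (R*M1) (lv p.1) % (R*M1)) := by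
  have hra := hR.ra
  rw [← hpq] at hra
  exact Finset.filter_congr fun k hk => dvd_mid pk.c0 pk.b0 hL.la hra (hlv _) (pk.db hk)

lemma eq_of_Gd (pk : Pk Γ C col R M0 M1 rho Ms Ms1 nL nR nL1 nR1) (hlv : ∀ g, lv g < m)
    {p q : Γ × Fin (R*M0)} {t t' : ℕ}
    (hL : LL lv m R M0 M1 rho Ms1 nL nL1 p t) (hR : RR lv m R M0 M1 rho Ms1 nR nR1 q t')
    (hG : Gd m R M0 M1 rho Ms Ms1 (t + t')) : p = q := by
  have hpq : p.1 = q.1 := pk.good t t' _ _ hL.n hR.n hG.1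
  by_contra hne
  have h1 := hR.n1
  rw [← hpq] at h1
  have h2 := pk.diff1 _ _ _ _ hL.n1 h1 hne
  rw [← cnt_mid pk hlv hL hR hpq] at h2
  have h3 := hG.2 (lv p.1) (hlv _)
  omega

/-- two coexisting pairs at a total which is not good -/
lemma bad_pairs (pk : Pk Γ C col R M0 M1 rho Ms Ms1 nL nR nL1 nR1) (hlv : ∀ g, lv g < m)
    {p₁ q₁ p₂ q₂ : Γ × Fin (R*M0)} {t₁ t₁' t₂ t₂' : ℕ}
    (hL1 : LL lv m R M0 M1 rho Ms1 nL nL1 p₁ t₁) (hR1 : RR lv m R M0 M1 rho Ms1 nR nR1 q₁ t₁')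
    (hL2 : LL lv m R M0 M1 rho Ms1 nL nL1 p₂ t₂) (hR2 : RR lv m R M0 M1 rho Ms1 nR nR1 q₂ t₂')
    (hs : t₁ + t₁' = t₂ + t₂') (hG : ¬ Gd m R M0 M1 rho Ms Ms1 (t₁ + t₁')) :
    col p₁.1 = col p₂.1 ∧ col q₁.1 = col q₂.1 := by
  by_cases hMs : ∃ k ∈ Ms, k ∣ t₁ + t₁'
  · exact pk.bad _ _ _ _ _ _ _ _ hL1.n hR1.n hL2.n hR2.n hs hMs
  push Not at hMs
  have h1 : p₁.1 = q₁.1 := pk.good _ _ _ _ hL1.n hR1.n hMs
  have h2 : p₂.1 = q₂.1 := pk.good _ _ _ _ hL2.n hR2.n (hs ▸ hMs)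
  obtain ⟨l, hl, hc⟩ : ∃ l < m, 2*rho ≤ (Ms1.filter (· ∣ (t₁ + t₁') / P (R*M0) (R*M1) l)).card := by
    by_contra hcon
    push Not at hcon
    exact hG ⟨hMs, hcon⟩
  have hrho := pk.hrho
  have hl1 : lv p₁.1 = l := by
    rcases lt_trichotomy l (lv p₁.1) with h | h | h
    · have := cnt_low pk hlv hL1 hR1 h1 h; omega
    · exact h.symm
    · have := cnt_high pk hL1 hR1 h1 h hl; omega
  have hl2 : lv p₂.1 = l := by
    rw [hs] at hc
    rcases lt_trichotomy l (lv p₂.1) with h | h | h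
    · have := cnt_low pk hlv hL2 hR2 h2 h; omega
    · exact h.symm
    · have := cnt_high pk hL2 hR2 h2 h hl; omega
  have hr1 := hR1.n1
  have hr2 := hR2.n1
  rw [← h1] at hr1
  rw [← h2] at hr2
  have ne1 : p₁ ≠ q₁ := by
    intro he
    rw [← he] at hr1
    have h3 := pk.same1 _ _ _ hL1.n1 hr1
    rw [← cnt_mid pk hlv hL1 hR1 h1, hl1] at h3
    omega
  have ne2 : p₂ ≠ q₂ := by
    intro he
    rw [← he] at hr2
    have h3 := pk.same1 _ _ _ hL2.n1 hr2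
    rw [← cnt_mid pk hlv hL2 hR2 h2, hl2, ← hs] at h3
    omega
  have hra1 := hR1.ra
  have hra2 := hR2.ra
  rw [← h1] at hra1
  rw [← h2] at hra2
  have hd1 := dig_mid pk.c0 pk.b0 hL1.la hra1 (hlv _)
  have hd2 := dig_mid pk.c0 pk.b0 hL2.la hra2 (hlv _)
  have hsum : t₁ / P (R*M0) (R*M1) (lv p₁.1) % (R*M1) + t₁' / P (R*M0) (R*M1) (lv p₁.1) % (R*M1)
      = t₂ / P (R*M0) (R*M1) (lv p₂.1) % (R*M1) + t₂' / P (R*M0) (R*M1) (lv p₂.1) % (R*M1) := by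
    rw [← hd1, ← hd2, hs, hl1, hl2]
  rcases pk.swap1 _ _ _ _ _ _ _ _ hL1.n1 hr1 hL2.n1 hr2 hsum ne1 ne2 with ⟨h3, h4⟩ | ⟨h3, h4⟩
  · rw [h3, h4]; exact ⟨rfl, rfl⟩
  · have e1 : p₂.1 = p₁.1 := by rw [h3, h1]
    have e2 : q₂.1 = q₁.1 := by rw [← h2, ← h1, e1]
    rw [e1, e2]; exact ⟨rfl, rfl⟩

lemma left_true (pk : Pk Γ C col R M0 M1 rho Ms Ms1 nL nR nL1 nR1)
    {p : Γ × Fin (R*M0)} {t t' : ℕ} (hR : RR lv m R M0 M1 rho Ms1 nR nR1 p t')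
    {l : ℕ} (hl : l ≤ lv p.1) :
    (t + (p.2 : ℕ)) % P (R*M0) (R*M1) l = (t + t') % P (R*M0) (R*M1) l := by
  rw [hR.st, ← hR.ra.low pk.c0 pk.b0 hl, Nat.add_mod_mod]

lemma right_true (pk : Pk Γ C col R M0 M1 rho Ms Ms1 nL nR nL1 nR1) (hlv : ∀ g, lv g < m)
    {p : Γ × Fin (R*M0)} {t t' : ℕ}
    (hL : LL lv m R M0 M1 rho Ms1 nL nL1 p t) (hR : RR lv m R M0 M1 rho Ms1 nR nR1 p t')
    {l : ℕ} (hl : lv p.1 < l) (hm : l ≤ m) :
    (P (R*M0) (R*M1) m * (3*lv p.1+3) + (t' - t' % P (R*M0) (R*M1) l)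
      - P (R*M0) (R*M1) m * (3*l+2)) +
      (P (R*M0) (R*M1) m * (3*l+2) + (t + t') % P (R*M0) (R*M1) l) = t + t' := by
  have h1 := sum_mod pk.c0 pk.b0 hL.la hR.ra hm
  have h2 := hL.la.high pk.c0 pk.b0 (l := l) (by omega) hm
  have h3 := hL.la.high pk.c0 pk.b0 (l := m) (by have := hlv p.1; omega) le_rfl
  have h4 : P (R*M0) (R*M1) m * (t / P (R*M0) (R*M1) m) + t % P (R*M0) (R*M1) m = t :=
    Nat.div_add_mod _ _
  rw [hL.la.top] at h4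
  have h5 := hR.big
  have h6 : t' % P (R*M0) (R*M1) l < P (R*M0) (R*M1) m :=
    lt_of_lt_of_le (Nat.mod_lt _ (P_pos pk.c0 pk.b0 l)) (P_le pk.b0 hm)
  have h7 : P (R*M0) (R*M1) m * (3*l+2) + P (R*M0) (R*M1) m ≤ P (R*M0) (R*M1) m * (3*m+4) := by
    calc _ = P (R*M0) (R*M1) m * (3*l+3) := by ring
      _ ≤ _ := Nat.mul_le_mul_left _ (by omega)
  omega

lemma LL.bds (pk : Pk Γ C col R M0 M1 rho Ms Ms1 nL nR nL1 nR1)
    {p : Γ × Fin (R*M0)} {t : ℕ} (hL : LL lv m R M0 M1 rho Ms1 nL nL1 p t) :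
    P (R*M0) (R*M1) m * (3*lv p.1+3) ≤ t ∧ t < P (R*M0) (R*M1) m * (3*lv p.1+4) := by
  have h4 : P (R*M0) (R*M1) m * (t / P (R*M0) (R*M1) m) + t % P (R*M0) (R*M1) m = t :=
    Nat.div_add_mod _ _
  rw [hL.la.top] at h4
  have h5 := Nat.mod_lt t (P_pos pk.c0 pk.b0 m)
  have h6 : P (R*M0) (R*M1) m * (3*lv p.1+4) =
      P (R*M0) (R*M1) m * (3*lv p.1+3) + P (R*M0) (R*M1) m := by ring
  constructor <;> omega

lemma per_eq {X : Type} {f : ℕ → X} {M : ℕ} (h : ∀ t, f (t + M) = f t) {x y : ℕ}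
    (hxy : x ≡ y [MOD M]) : f x = f y := by
  have h1 : ∀ j z, f (z + M*j) = f z := by
    intro j
    induction j with
    | zero => intro z; simp
    | succ j ih => intro z; rw [show z + M*(j+1) = (z + M*j) + M by ring, h, ih]
  have h2 : ∀ z, f z = f (z % M) := by
    intro z
    have := h1 (z / M) (z % M)
    rwa [Nat.mod_add_div] at this
  rw [h2 x, h2 y, hxy]

lemma complete (pk : Pk Γ C col R M0 M1 rho Ms Ms1 nL nR nL1 nR1) (hlv : ∀ g, lv g < m)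
    {n : ℕ} (hn : 2*(P (R*M0) (R*M1) m * (3*m+4)) ≤ n)
    (hMs : ∀ k ∈ Ms, ¬ k ∣ n)
    (hA : M0 ≤ n % P (R*M0) (R*M1) 0) (hA' : n % P (R*M0) (R*M1) 0 + M0 < P (R*M0) (R*M1) 0)
    (hD : ∀ l < m, M1 ≤ n / P (R*M0) (R*M1) l % (R*M1))
    (hD' : ∀ l < m, n / P (R*M0) (R*M1) l % (R*M1) + M1 < R*M1)
    (hc : ∀ l < m, (Ms1.filter (· ∣ n / P (R*M0) (R*M1) l)).card < rho) (g : Γ) :
    ∃ t t' p, t + t' = n ∧ p.1 = g ∧ LL lv m R M0 M1 rho Ms1 nL nL1 p t ∧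
      RR lv m R M0 M1 rho Ms1 nR nR1 p t' := by
  have him := hlv g
  obtain ⟨t0, ht0, hnL, hnR⟩ := pk.comp n hMs g
  have hP0 : P (R*M0) (R*M1) 0 = R*M0 := by simp [P]
  have hb0 := pk.b0
  have hc0 := pk.c0
  set i := lv g with hi
  set b := R*M1 with hb
  have hPi : 0 < P (R*M0) b i := P_pos hc0 hb0 i
  set D := n / P (R*M0) b i % b with hDdef
  set s' := n % P (R*M0) b 0 - t0 with hs'
  have hs'lt : s' < R*M0 := by
    have := Nat.mod_lt n (P_pos hc0 hb0 0); omega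
  obtain ⟨d, hd, hd1, hd2⟩ := pk.comp1 D (by
    have h1 : Ms1.filter (· ∣ D) = Ms1.filter (· ∣ n / P (R*M0) b i) :=
      Finset.filter_congr fun k hk => Nat.dvd_mod_iff (pk.db hk)
    rw [h1]; exact hc i him) (g, ⟨s', hs'lt⟩)
  have hDi := hD i him
  have hDi' := hD' i him
  rw [← hDdef] at hDi hDi'
  -- pieces of `n`
  obtain ⟨x, hx⟩ : ∃ x, n % P (R*M0) b i = n % P (R*M0) b 0 + P (R*M0) b 0 * x := by
    refine ⟨(n % P (R*M0) b i) / P (R*M0) b 0, ?_⟩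
    have h1 : (n % P (R*M0) b i) % P (R*M0) b 0 = n % P (R*M0) b 0 :=
      Nat.mod_mod_of_dvd _ (P_dvd (Nat.zero_le _))
    have h2 := Nat.mod_add_div (n % P (R*M0) b i) (P (R*M0) b 0)
    omega
  have hn1 : n % P (R*M0) b (i+1) = n % P (R*M0) b i + P (R*M0) b i * D := by
    rw [P_succ, Nat.mod_mul]
  obtain ⟨Q, hQ⟩ : ∃ Q, n % P (R*M0) b m = n % P (R*M0) b (i+1) + P (R*M0) b (i+1) * Q := by
    refine ⟨(n % P (R*M0) b m) / P (R*M0) b (i+1), ?_⟩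
    have h1 : (n % P (R*M0) b m) % P (R*M0) b (i+1) = n % P (R*M0) b (i+1) :=
      Nat.mod_mod_of_dvd _ (P_dvd him)
    have h2 := Nat.mod_add_div (n % P (R*M0) b m) (P (R*M0) b (i+1))
    omega
  have hn2 := Nat.mod_add_div n (P (R*M0) b m)
  have htop : 3*i+3 ≤ n / P (R*M0) b m := by
    rw [Nat.le_div_iff_mul_le (P_pos hc0 hb0 m)]
    have : (3*i+3) * P (R*M0) b m ≤ P (R*M0) b m * (3*m+4) := by
      rw [mul_comm]; exact Nat.mul_le_mul_left _ (by omega)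
    omega
  obtain ⟨y, hy⟩ : ∃ y, n / P (R*M0) b m = 3*i+3 + y := ⟨_, (Nat.add_sub_cancel' htop).symm⟩
  obtain ⟨d', hd'⟩ : ∃ d', D = d + d' := ⟨D - d, by omega⟩
  have hs0 : n % P (R*M0) b 0 = t0 + s' := by omega
  -- powers
  have hPi1 : P (R*M0) b (i+1) = P (R*M0) b i * b := P_succ i
  have hPm : P (R*M0) b m = P (R*M0) b i * b * b^(m-(i+1)) := by
    rw [P_split (show i+1 ≤ m from him), hPi1]
  set t := t0 + P (R*M0) b 0 * x + P (R*M0) b i * d + P (R*M0) b m * (3*i+3) with ht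
  set t' := s' + P (R*M0) b i * (d' + b * (Q + b^(m-(i+1)) * y)) with ht'
  have hsum : t + t' = n := by
    have e1 : P (R*M0) b i * (d' + b * (Q + b^(m-(i+1)) * y)) =
        P (R*M0) b i * d' + P (R*M0) b (i+1) * Q + P (R*M0) b m * y := by
      rw [hPm, hPi1]; ring
    rw [ht, ht', e1]
    rw [hy] at hn2
    have e2 : P (R*M0) b m * (3*i+3+y) = P (R*M0) b m * (3*i+3) + P (R*M0) b m * y := by ring
    have e3 : P (R*M0) b i * D = P (R*M0) b i * d + P (R*M0) b i * d' := by rw [hd']; ring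
    omega
  have hAlt : t0 + P (R*M0) b 0 * x < P (R*M0) b i := by
    have := Nat.mod_lt n hPi; omega
  have hM1b : M1 ≤ b := by
    rw [hb]; exact Nat.le_mul_of_pos_left _ (by have := pk.hR; omega)
  have hBlt : t0 + P (R*M0) b 0 * x + P (R*M0) b i * d < P (R*M0) b (i+1) := by
    rw [hPi1]
    have : P (R*M0) b i * (d + 1) ≤ P (R*M0) b i * b := Nat.mul_le_mul_left _ (by omega)
    have e : P (R*M0) b i * (d + 1) = P (R*M0) b i * d + P (R*M0) b i := by ring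
    omega
  have hBltm : t0 + P (R*M0) b 0 * x + P (R*M0) b i * d < P (R*M0) b m :=
    lt_of_lt_of_le hBlt (P_le hb0 him)
  have htm : t % P (R*M0) b m = t0 + P (R*M0) b 0 * x + P (R*M0) b i * d := by
    rw [ht, Nat.add_mul_mod_self_left, Nat.mod_eq_of_lt hBltm]
  have htd : t / P (R*M0) b m = 3*i+3 := by
    rw [ht, Nat.add_mul_div_left _ _ (P_pos hc0 hb0 m), Nat.div_eq_of_lt hBltm, zero_add]
  have hti1 : t % P (R*M0) b (i+1) = t0 + P (R*M0) b 0 * x + P (R*M0) b i * d := by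
    have h1 : (t % P (R*M0) b m) % P (R*M0) b (i+1) = t % P (R*M0) b (i+1) :=
      Nat.mod_mod_of_dvd _ (P_dvd him)
    rw [← h1, htm, Nat.mod_eq_of_lt hBlt]
  have ht0m : t % P (R*M0) b 0 = t0 := by
    have h1 : (t % P (R*M0) b m) % P (R*M0) b 0 = t % P (R*M0) b 0 :=
      Nat.mod_mod_of_dvd _ (P_dvd (Nat.zero_le _))
    obtain ⟨z, hz⟩ : P (R*M0) b 0 ∣ P (R*M0) b i := P_dvd (Nat.zero_le _)
    rw [← h1, htm, hz, mul_assoc, Nat.add_mul_mod_self_left, Nat.add_mul_mod_self_left,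
      Nat.mod_eq_of_lt]
    omega
  have htib : t / P (R*M0) b i % b = d := by
    have h1 : t % P (R*M0) b (i+1) = t % P (R*M0) b i + P (R*M0) b i * (t / P (R*M0) b i % b) := by
      rw [hPi1, Nat.mod_mul]
    have h2 : t % P (R*M0) b i = t0 + P (R*M0) b 0 * x := by
      have h1 : (t % P (R*M0) b (i+1)) % P (R*M0) b i = t % P (R*M0) b i :=
        Nat.mod_mod_of_dvd _ (P_dvd (Nat.le_succ i))
      rw [← h1, hti1, Nat.add_mul_mod_self_left, Nat.mod_eq_of_lt hAlt]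
    rw [hti1, h2] at h1
    have h3 : P (R*M0) b i * (t / P (R*M0) b i % b) = P (R*M0) b i * d := by omega
    exact Nat.eq_of_mul_eq_mul_left hPi h3
  have hLA : LA (R*M0) b m M0 M1 i t :=
    ⟨by rw [ht0m]; exact ht0, by rw [htib]; exact hd, by rw [htm, hti1], htd⟩
  have hs'i : s' < P (R*M0) b i :=
    lt_of_lt_of_le (by rw [hP0]; exact hs'lt) (P_le hb0 (Nat.zero_le i))
  have ht'i : t' % P (R*M0) b i = s' := by
    rw [ht', Nat.add_mul_mod_self_left, Nat.mod_eq_of_lt hs'i]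
  have ht'0 : t' % P (R*M0) b 0 = s' := by
    have h1 : (t' % P (R*M0) b i) % P (R*M0) b 0 = t' % P (R*M0) b 0 :=
      Nat.mod_mod_of_dvd _ (P_dvd (Nat.zero_le _))
    rw [← h1, ht'i, Nat.mod_eq_of_lt (by rw [hP0]; exact hs'lt)]
  have ht'ib : t' / P (R*M0) b i % b = d' := by
    rw [ht', Nat.add_mul_div_left _ _ hPi, Nat.div_eq_of_lt hs'i, zero_add,
      Nat.add_mul_mod_self_left, Nat.mod_eq_of_lt]
    omega
  have hRA : RA (R*M0) b M0 M1 i t' :=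
    ⟨by rw [ht'i, ht'0], by rw [ht'0]; omega, by rw [ht'ib]; omega⟩
  have hMd : M0 ∣ P (R*M0) b 0 := by rw [hP0]; exact Dvd.intro_left _ rfl
  have htt0 : t ≡ t0 [MOD M0] := by
    have : t ≡ t0 [MOD P (R*M0) b 0] := by
      unfold Nat.ModEq
      rw [ht0m, Nat.mod_eq_of_lt]
      omega
    exact this.of_dvd hMd
  refine ⟨t, t', (g, ⟨s', hs'lt⟩), hsum, rfl, ⟨?_, hLA, ?_, ?_⟩, ⟨?_, hRA, ?_, ?_, ?_, ?_⟩⟩
  · rw [per_eq pk.perL htt0]; exact hnL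
  · intro l hl
    have h1 : Ms1.filter (· ∣ t / P (R*M0) b l) = Ms1.filter (· ∣ n / P (R*M0) b l) :=
      Finset.filter_congr fun k hk => by
        rw [← hsum]; exact (dvd_low hc0 hb0 hLA hRA him (pk.db hk) hl).symm
    rw [h1]; exact hc l (lt_trans (show l < i from hl) him)
  · show nL1 (t / P (R*M0) b i % b) = _
    rw [htib]; exact hd1
  · refine hnR t' ?_
    have := htt0.add_right t'
    rw [hsum] at this
    exact this.symm
  · intro l hl hlm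
    have h1 : Ms1.filter (· ∣ t' / P (R*M0) b l) = Ms1.filter (· ∣ n / P (R*M0) b l) :=
      Finset.filter_congr fun k hk => by
        rw [← hsum]; exact (dvd_high hc0 hb0 hLA hRA (pk.db hk) hl hlm).symm
    rw [h1]; exact hc l hlm
  · show nR1 (t' / P (R*M0) b i % b) = _
    rw [ht'ib]
    exact hd2 d' (by rw [hd'])
  · show s' = _
    exact ht'0.symm
  · show P (R*M0) b m * (3*m+4) ≤ t'
    have h1 : t < P (R*M0) b m * (3*i+4) := by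
      have e : P (R*M0) b m * (3*i+4) = P (R*M0) b m * (3*i+3) + P (R*M0) b m := by ring
      omega
    have h2 : P (R*M0) b m * (3*i+4) ≤ P (R*M0) b m * (3*m+4) := Nat.mul_le_mul_left _ (by omega)
    omega

end

lemma PP_eq (R M0 M1 l : ℕ) : PP R M0 M1 l = P (R*M0) (R*M1) l := rfl

/-- LEAF U2 of 638 #13273. -/
theorem clocks (m : ℕ) (Γ C : Type) [Finite Γ] [Finite C] (lv : Γ → ℕ) (hlv : ∀ g, lv g < m)
    (col : Γ → C) : ∃ r : ℕ, ∀ B R : ℕ, 3 ≤ R → ∃ (Ms Ms1 : Finset ℕ) (rho M0 M1 : ℕ),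
      Ms.card ≤ r ∧ Ms1.card ≤ 32*rho ∧ 0 < rho ∧
      (∀ k ∈ Ms, B < k ∧ Nat.Prime k ∧ k ∣ M0) ∧ (∀ k ∈ Ms1, B < k ∧ Nat.Prime k ∧ k ∣ M1) ∧
      0 < M0 ∧ 0 < M1 ∧ B < M0 ∧ B < M1 ∧
      ∃ (nmL nmR : ℕ → Option Γ) (bL bR : ℕ → ℕ → ℕ) (Gd : ℕ → Prop),
        (∀ t g, nmL t = some g → t < PP R M0 M1 m * (3*m+4)) ∧
        (∀ t g, nmR t = some g → PP R M0 M1 m * (3*m+4) ≤ t) ∧
        (∀ t t' g g', Gd (t+t') → nmL t = some g → nmR t' = some g' → g = g' ∧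
          (∀ l ≤ lv g, bL t l = beta R M0 M1 m (t+t') l) ∧
          (∀ l, lv g < l → l ≤ m → bR t' l + beta R M0 M1 m (t+t') l = t+t') ∧
          beta R M0 M1 m (t+t') (lv g) ≤ t ∧ t ≤ beta R M0 M1 m (t+t') (lv g + 1)) ∧
        (∀ t₁ t₁' t₂ t₂' g₁ g₁' g₂ g₂', ¬ Gd (t₁+t₁') → t₁+t₁' = t₂+t₂' →
          nmL t₁ = some g₁ → nmR t₁' = some g₁' → nmL t₂ = some g₂ → nmR t₂' = some g₂' →
          col g₁ = col g₂ ∧ col g₁' = col g₂') ∧
        (∀ n, 2*(PP R M0 M1 m * (3*m+4)) ≤ n → ¬ Bad R M0 M1 m rho Ms Ms1 n →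
          Gd n ∧ ∀ g, ∃ t t', t+t' = n ∧ nmL t = some g ∧ nmR t' = some g) := by
  classical
  obtain ⟨r, hr⟩ := Crest.Agent.R320.Names755.names Γ C col
  refine ⟨r, fun B R hR => ?_⟩
  obtain ⟨Ms, M, nL, nR, hcard, hMs, hM, perL, perR, good, comp, bad⟩ := hr B
  have hM0 : 0 < M * (B+1) := Nat.mul_pos hM (Nat.succ_pos B)
  obtain ⟨rho, hrho, hr1⟩ := Crest.Agent.R320.LN_133.level_names (Γ × Fin (R*(M*(B+1))))
  obtain ⟨Ms1, M', nL1, nR1, hcard1, hMs1, hM', perL1, perR1, same1, diff1, swap1, comp1⟩ := hr1 B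
  have per_mul : ∀ {X : Type} {f : ℕ → X} {N : ℕ}, (∀ t, f (t + N) = f t) →
      ∀ t, f (t + N*(B+1)) = f t := by
    intro X f N h t
    exact per_eq h (by unfold Nat.ModEq; simp)
  have pk : Pk Γ C col R (M*(B+1)) (M'*(B+1)) rho Ms Ms1 nL nR nL1 nR1 :=
    { hR := hR
      hM0 := hM0
      hM1 := Nat.mul_pos hM' (Nat.succ_pos B)
      hrho := hrho
      dv1 := fun k hk => (hMs1 k hk).2.2.mul_right _
      perL := per_mul perL
      perR := per_mul perR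
      good := good
      comp := by
        intro T hT c
        obtain ⟨t, ht, h1, h2⟩ := comp T hT c
        exact ⟨t, lt_of_lt_of_le ht (Nat.le_mul_of_pos_right _ (Nat.succ_pos B)), h1,
          fun t' h => h2 t' (h.of_dvd (Dvd.intro _ rfl))⟩
      bad := bad
      same1 := same1
      diff1 := diff1
      swap1 := swap1
      comp1 := by
        intro T hT c
        obtain ⟨t, ht, h1, h2⟩ := comp1 T hT c
        exact ⟨t, lt_of_lt_of_le ht (Nat.le_mul_of_pos_right _ (Nat.succ_pos B)), h1,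
          fun t' h => h2 t' (h.of_dvd (Dvd.intro _ rfl))⟩ }
  refine ⟨Ms, Ms1, rho, M*(B+1), M'*(B+1), hcard, hcard1, hrho,
    fun k hk => ⟨(hMs k hk).1, (hMs k hk).2.1, (hMs k hk).2.2.mul_right _⟩,
    fun k hk => ⟨(hMs1 k hk).1, (hMs1 k hk).2.1, (hMs1 k hk).2.2.mul_right _⟩,
    hM0, pk.hM1, ?_, ?_, ?_⟩
  · have := Nat.le_mul_of_pos_left (B+1) hM; omega
  · have := Nat.le_mul_of_pos_left (B+1) hM'; omega
  generalize M*(B+1) = M0 at *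
  generalize M'*(B+1) = M1 at *
  have fL : ∀ t, ∃ o : Option (Γ × Fin (R*M0)),
      (∀ p, o = some p ↔ LL lv m R M0 M1 rho Ms1 nL nL1 p t) := by
    intro t
    by_cases h : ∃ p, LL lv m R M0 M1 rho Ms1 nL nL1 p t
    · obtain ⟨p, hp⟩ := h
      refine ⟨some p, fun q => ⟨fun h => by rw [← Option.some.inj h]; exact hp, fun h => ?_⟩⟩
      rw [hp.uniq h]
    · exact ⟨none, fun q => ⟨fun h => by simp at h, fun hq => (h ⟨q, hq⟩).elim⟩⟩
  have fR : ∀ t, ∃ o : Option (Γ × Fin (R*M0)),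
      (∀ p, o = some p ↔ RR lv m R M0 M1 rho Ms1 nR nR1 p t) := by
    intro t
    by_cases h : ∃ p, RR lv m R M0 M1 rho Ms1 nR nR1 p t
    · obtain ⟨p, hp⟩ := h
      refine ⟨some p, fun q => ⟨fun h => by rw [← Option.some.inj h]; exact hp, fun h => ?_⟩⟩
      rw [hp.uniq h]
    · exact ⟨none, fun q => ⟨fun h => by simp at h, fun hq => (h ⟨q, hq⟩).elim⟩⟩
  choose oL hoL using fL
  choose oR hoR using fR
  have eL : ∀ t g, (oL t).map Prod.fst = some g → ∃ p, oL t = some p ∧ p.1 = g := by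
    intro t g h
    simpa [Option.map_eq_some_iff] using h
  have eR : ∀ t g, (oR t).map Prod.fst = some g → ∃ p, oR t = some p ∧ p.1 = g := by
    intro t g h
    simpa [Option.map_eq_some_iff] using h
  refine ⟨fun t => (oL t).map Prod.fst, fun t => (oR t).map Prod.fst,
    fun t l => match oL t with
      | some p => PP R M0 M1 m * (3*l+2) + (t + (p.2 : ℕ)) % PP R M0 M1 l
      | none => 0,
    fun t' l => match oR t' with
      | some p => PP R M0 M1 m * (3*lv p.1+3) + (t' - t' % PP R M0 M1 l)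
          - PP R M0 M1 m * (3*l+2)
      | none => 0,
    Gd m R M0 M1 rho Ms Ms1, ?_, ?_, ?_, ?_, ?_⟩
  · intro t g h
    obtain ⟨p, hp, rfl⟩ := eL t g h
    have h1 := ((hoL t p).1 hp).bds pk
    have h2 : P (R*M0) (R*M1) m * (3*lv p.1+4) ≤ P (R*M0) (R*M1) m * (3*m+4) :=
      Nat.mul_le_mul_left _ (by have := hlv p.1; omega)
    exact lt_of_lt_of_le h1.2 h2
  · intro t g h
    obtain ⟨p, hp, rfl⟩ := eR t g h
    exact ((hoR t p).1 hp).big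
  · intro t t' g g' hG h h'
    obtain ⟨p, hp, rfl⟩ := eL t g h
    obtain ⟨q, hq, rfl⟩ := eR t' g' h'
    have hL := (hoL t p).1 hp
    have hRR := (hoR t' q).1 hq
    have hpq := eq_of_Gd pk hlv hL hRR hG
    subst hpq
    have hb := hL.bds pk
    refine ⟨rfl, ?_, ?_, ?_, ?_⟩
    · intro l hl
      simp only [hp]
      unfold beta
      rw [PP_eq R M0 M1 l, left_true pk hRR hl]
    · intro l hl hm
      simp only [hq]
      exact right_true pk hlv hL hRR hl hm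
    · unfold beta
      rw [PP_eq, PP_eq]
      have h1 : (t+t') % P (R*M0) (R*M1) (lv p.1) < P (R*M0) (R*M1) m :=
        lt_of_lt_of_le (Nat.mod_lt _ (P_pos pk.c0 pk.b0 _)) (P_le pk.b0 (hlv p.1).le)
      have h2 : P (R*M0) (R*M1) m * (3*lv p.1+3) =
        P (R*M0) (R*M1) m * (3*lv p.1+2) + P (R*M0) (R*M1) m := by ring
      omega
    · unfold beta
      rw [PP_eq, PP_eq]
      have h2 : P (R*M0) (R*M1) m * (3*lv p.1+4) ≤ P (R*M0) (R*M1) m * (3*(lv p.1+1)+2) :=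
        Nat.mul_le_mul_left _ (by omega)
      omega
  · intro t₁ t₁' t₂ t₂' g₁ g₁' g₂ g₂' hG hs h1 h1' h2 h2'
    obtain ⟨p₁, hp₁, rfl⟩ := eL _ _ h1
    obtain ⟨q₁, hq₁, rfl⟩ := eR _ _ h1'
    obtain ⟨p₂, hp₂, rfl⟩ := eL _ _ h2
    obtain ⟨q₂, hq₂, rfl⟩ := eR _ _ h2'
    exact bad_pairs pk hlv ((hoL _ _).1 hp₁) ((hoR _ _).1 hq₁) ((hoL _ _).1 hp₂)
      ((hoR _ _).1 hq₂) hs hG
  · intro n hn hB
    unfold Bad at hB
    push Not at hB
    obtain ⟨⟨hA, hA'⟩, hk, hl⟩ := hB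
    have hP0 : P (R*M0) (R*M1) 0 = R*M0 := by simp [P]
    refine ⟨⟨hk, fun l hlm => ?_⟩, fun g => ?_⟩
    · have := (hl l hlm).2
      have h3 : (Ms1.filter (· ∣ n / P (R*M0) (R*M1) l)).card < rho := this
      omega
    · obtain ⟨t, t', p, hs, hpg, hL, hRR⟩ := complete pk hlv (n := n) hn hk
        (by rw [hP0]; exact hA) (by rw [hP0]; exact hA') (fun l hlm => (hl l hlm).1.1)
        (fun l hlm => (hl l hlm).1.2) (fun l hlm => (hl l hlm).2) g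
      refine ⟨t, t', hs, ?_, ?_⟩
      · show (oL t).map Prod.fst = some g
        rw [(hoL t p).2 hL]; simp [hpg]
      · show (oR t').map Prod.fst = some g
        rw [(hoR t' p).2 hRR]; simp [hpg]

end Crest.Agent.R320.Clk_555
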