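import Mathlib

/-!
LEAF U1 of row 320 (638 #13151): error-tolerant level names.  Pure CRT.
-/

set_option autoImplicit false

namespace Crest.Agent.R320.LN_601

open Finset

/-- cylinder sets of `ι → Bool` with `F` fixed coordinates have density at least `2^(-|F|)`. -/
theorem cyl_card {ι : Type*} [Fintype ι] [DecidableEq ι] (F : Finset ι) (σ : ι → Bool) :
    Fintype.card (ι → Bool) ≤
      (univ.filter (fun A : ι → Bool => ∀ x ∈ F, A x = σ x)).card * 2 ^ F.card := by
  classical
  have h2 : (2 : ℕ) ^ F.card = Fintype.card (F → Bool) := by simp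
  rw [h2, ← Finset.card_univ (α := F → Bool), ← Finset.card_product, ← Finset.card_univ]
  refine Finset.card_le_card_of_injOn
    (fun A => (fun x => if x ∈ F then σ x else A x, fun x : F => A x)) ?_ ?_
  · intro A _
    simp only [Finset.coe_product, Set.mem_prod, Finset.mem_coe, mem_filter, mem_univ, true_and,
      and_true]
    intro x hx
    simp [hx]
  · intro A _ A' _ h
    simp only [Prod.mk.injEq] at h
    funext x
    by_cases hx : x ∈ F
    · exact congrFun h.2 ⟨x, hx⟩
    · have := congrFun h.1 x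
      simpa [hx] using this

noncomputable def pick {N : Type*} (P : N → Prop) : Option N := by
  classical exact if h : ∃ c, P c then some h.choose else none

theorem pick_some {N : Type*} {P : N → Prop} {c : N} (h : pick P = some c) : P c := by
  classical
  unfold pick at h
  split_ifs at h with hx
  · have := hx.choose_spec
    simp only [Option.some.injEq] at h
    rwa [h] at this

theorem pick_eq {N : Type*} {P : N → Prop} {c : N} (h : P c) (hu : ∀ c', P c' → c' = c) :
    pick P = some c := by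
  classical
  unfold pick
  have hx : ∃ c, P c := ⟨c, h⟩
  rw [dif_pos hx]
  exact congrArg some (hu _ hx.choose_spec)

section
variable {N : Type*} [Fintype N] [DecidableEq N]

/-- coordinates: names plus six dummies. -/
abbrev I (N : Type*) := N ⊕ Fin 6
abbrev Dd (N : Type*) := I N → Bool

def LC (k : Dd N → ℕ) (ρ : ℕ) (t : ℕ) (c : N) : Prop :=
  (∀ A : Dd N, A (Sum.inl c) = false → k A ∣ t) ∧
    (univ.filter (fun A : Dd N => A (Sum.inl c) = true ∧ k A ∣ t)).card < ρ

def RCc (k : Dd N → ℕ) (ρ : ℕ) (t : ℕ) (c : N) : Prop :=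
  (∀ A : Dd N, A (Sum.inl c) = true → k A ∣ t) ∧
    (univ.filter (fun A : Dd N => A (Sum.inl c) = false ∧ k A ∣ t)).card < ρ

theorem card_Dd : Fintype.card (Dd N) = 32 * 2 ^ (Fintype.card N + 1) := by
  simp [Dd, I, Fintype.card_sum, pow_add]
  ring

theorem two_card (ρ : ℕ) (hρ : Fintype.card (Dd N) = 32 * ρ) {c c' : N} (h : c ≠ c') (b b' : Bool) :
    8 * ρ ≤ (univ.filter (fun A : Dd N => A (Sum.inl c) = b ∧ A (Sum.inl c') = b')).card := by
  classical
  have hcyl := cyl_card (ι := I N) {Sum.inl c, Sum.inl c'}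
    (fun x => if x = Sum.inl c then b else b')
  have hc2 : ({Sum.inl c, Sum.inl c'} : Finset (I N)).card = 2 := by
    rw [Finset.card_pair]; simpa using h
  have hne : (Sum.inl c' : I N) ≠ Sum.inl c := by simpa using h.symm
  rw [hc2] at hcyl
  have hsub : (univ.filter (fun A : I N → Bool => ∀ x ∈ ({Sum.inl c, Sum.inl c'} : Finset (I N)),
      A x = if x = Sum.inl c then b else b')) ⊆
      (univ.filter (fun A : Dd N => A (Sum.inl c) = b ∧ A (Sum.inl c') = b')) := by
    intro A hA
    simp only [mem_filter, mem_univ, true_and, mem_insert, mem_singleton, forall_eq_or_imp,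
      forall_eq, if_true, if_neg hne] at hA
    simpa using hA
  have := Finset.card_le_card hsub
  have hρ' : Fintype.card (I N → Bool) = 32 * ρ := hρ
  omega

theorem four_card (ρ : ℕ) (hρ : Fintype.card (Dd N) = 32 * ρ) {c₁ c₁' c₂ c₂' : N}
    (h1 : c₁ ≠ c₁')
    (hne : ¬ ((c₂ = c₁ ∧ c₂' = c₁') ∨ (c₂ = c₁' ∧ c₂' = c₁))) :
    2 * ρ ≤ (univ.filter (fun A : Dd N => (A (Sum.inl c₁) = false ∧ A (Sum.inl c₁') = true) ∧
      A (Sum.inl c₂) = A (Sum.inl c₂'))).card := by
  classical
  -- value of the common bit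
  obtain ⟨b, hb1, hb2, hb3, hb4⟩ : ∃ b : Bool, (c₂ = c₁ → b = false) ∧ (c₂ = c₁' → b = true) ∧
      (c₂' = c₁ → b = false) ∧ (c₂' = c₁' → b = true) := by
    by_cases e1 : c₂ = c₁ ∨ c₂' = c₁
    · refine ⟨false, fun _ => rfl, fun e => ?_, fun _ => rfl, fun e => ?_⟩
      · exfalso
        rcases e1 with e1 | e1
        · exact h1 (e1 ▸ e)
        · exact hne (Or.inr ⟨e, e1⟩)
      · exfalso
        rcases e1 with e1 | e1
        · exact hne (Or.inl ⟨e1, e⟩)
        · exact h1 (e1 ▸ e)
    · rw [not_or] at e1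
      exact ⟨true, fun e => (e1.1 e).elim, fun _ => rfl, fun e => (e1.2 e).elim, fun _ => rfl⟩
  set σ : I N → Bool := fun x => if x = Sum.inl c₁ then false else if x = Sum.inl c₁' then true
    else b with hσ
  set F : Finset (I N) := {Sum.inl c₁, Sum.inl c₁', Sum.inl c₂, Sum.inl c₂'} with hF
  have hcyl := cyl_card (ι := I N) F σ
  have hFc : F.card ≤ 4 := Finset.card_le_four
  have hpow : (2:ℕ) ^ F.card ≤ 16 := by
    calc (2:ℕ) ^ F.card ≤ 2 ^ 4 := Nat.pow_le_pow_right (by norm_num) hFc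
      _ = 16 := by norm_num
  have hσ1 : σ (Sum.inl c₁) = false := by simp [hσ]
  have hσ1' : σ (Sum.inl c₁') = true := by
    have : (Sum.inl c₁' : I N) ≠ Sum.inl c₁ := by simpa using h1.symm
    simp [hσ, this]
  have hσ2 : σ (Sum.inl c₂) = b := by
    by_cases e : c₂ = c₁
    · rw [e, hσ1, hb1 e]
    · by_cases e' : c₂ = c₁'
      · rw [e', hσ1', hb2 e']
      · simp [hσ, e, e']
  have hσ2' : σ (Sum.inl c₂') = b := by
    by_cases e : c₂' = c₁
    · rw [e, hσ1, hb3 e]
    · by_cases e' : c₂' = c₁'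
      · rw [e', hσ1', hb4 e']
      · simp [hσ, e, e']
  have hsub : (univ.filter (fun A : I N → Bool => ∀ x ∈ F, A x = σ x)) ⊆
      (univ.filter (fun A : Dd N => (A (Sum.inl c₁) = false ∧ A (Sum.inl c₁') = true) ∧
      A (Sum.inl c₂) = A (Sum.inl c₂'))) := by
    intro A hA
    simp only [mem_filter, mem_univ, true_and] at hA ⊢
    have a1 := hA (Sum.inl c₁) (by simp [hF])
    have a2 := hA (Sum.inl c₁') (by simp [hF])
    have a3 := hA (Sum.inl c₂) (by simp [hF])
    have a4 := hA (Sum.inl c₂') (by simp [hF])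
    rw [hσ1] at a1; rw [hσ1'] at a2; rw [hσ2] at a3; rw [hσ2'] at a4
    exact ⟨⟨a1, a2⟩, a3.trans a4.symm⟩
  have hle := Finset.card_le_card hsub
  have hρ' : Fintype.card (I N → Bool) = 32 * ρ := hρ
  have : 32 * ρ ≤ (univ.filter (fun A : I N → Bool => ∀ x ∈ F, A x = σ x)).card * 16 := by
    calc 32 * ρ = Fintype.card (I N → Bool) := hρ'.symm
      _ ≤ _ := hcyl
      _ ≤ _ := Nat.mul_le_mul_left _ hpow
  omega

theorem LC_unique (k : Dd N → ℕ) (ρ : ℕ) (h0 : 0 < ρ) (hρ : Fintype.card (Dd N) = 32 * ρ) {t : ℕ}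
    {c c' : N} (h : LC k ρ t c) (h' : LC k ρ t c') : c' = c := by
  classical
  by_contra hne
  have hcard := two_card ρ hρ (c := c) (c' := c') (fun e => hne e.symm) true false
  have hsub : (univ.filter (fun A : Dd N => A (Sum.inl c) = true ∧ A (Sum.inl c') = false)) ⊆
      (univ.filter (fun A : Dd N => A (Sum.inl c) = true ∧ k A ∣ t)) := by
    intro A hA
    simp only [mem_filter, mem_univ, true_and] at hA ⊢
    exact ⟨hA.1, h'.1 A hA.2⟩
  have := Finset.card_le_card hsub
  have := h.2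
  omega

theorem RC_unique (k : Dd N → ℕ) (ρ : ℕ) (h0 : 0 < ρ) (hρ : Fintype.card (Dd N) = 32 * ρ) {t : ℕ}
    {c c' : N} (h : RCc k ρ t c) (h' : RCc k ρ t c') : c' = c := by
  classical
  by_contra hne
  have hcard := two_card ρ hρ (c := c) (c' := c') (fun e => hne e.symm) false true
  have hsub : (univ.filter (fun A : Dd N => A (Sum.inl c) = false ∧ A (Sum.inl c') = true)) ⊆
      (univ.filter (fun A : Dd N => A (Sum.inl c) = false ∧ k A ∣ t)) := by
    intro A hA
    simp only [mem_filter, mem_univ, true_and] at hA ⊢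
    exact ⟨hA.1, h'.1 A hA.2⟩
  have := Finset.card_le_card hsub
  have := h.2
  omega

/-- divisors of the total outside the symmetric difference of the two codes. -/
theorem err_lt (k : Dd N → ℕ) (ρ : ℕ) (h0 : 0 < ρ) {t t' : ℕ} {c c' : N}
    (h : LC k ρ t c) (h' : RCc k ρ t' c') :
    (univ.filter (fun A : Dd N => k A ∣ t + t' ∧ A (Sum.inl c) = A (Sum.inl c'))).card < 2 * ρ := by
  classical
  have hsub : (univ.filter (fun A : Dd N => k A ∣ t + t' ∧ A (Sum.inl c) = A (Sum.inl c'))) ⊆
      (univ.filter (fun A : Dd N => A (Sum.inl c) = true ∧ k A ∣ t)) ∪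
      (univ.filter (fun A : Dd N => A (Sum.inl c') = false ∧ k A ∣ t')) := by
    intro A hA
    simp only [mem_filter, mem_univ, true_and, mem_union] at hA ⊢
    obtain ⟨hd, he⟩ := hA
    cases hb : A (Sum.inl c) with
    | false =>
      right
      have ht : k A ∣ t := h.1 A hb
      exact ⟨by rw [← he, hb], (Nat.dvd_add_right ht).1 hd⟩
    | true =>
      left
      have ht : k A ∣ t' := h'.1 A (by rw [← he, hb])
      exact ⟨rfl, (Nat.dvd_add_left ht).1 hd⟩
  have h1 := Finset.card_le_card hsub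
  have h2 := Finset.card_union_le (univ.filter (fun A : Dd N => A (Sum.inl c) = true ∧ k A ∣ t))
      (univ.filter (fun A : Dd N => A (Sum.inl c') = false ∧ k A ∣ t'))
  have h3 := h.2
  have h4 := h'.2
  omega

end

/-- LEAF U1 (638 #13151). -/
theorem level_names (N : Type) [Finite N] : ∃ ρ : ℕ, 0 < ρ ∧ ∀ B : ℕ,
    ∃ (Ms : Finset ℕ) (M : ℕ) (nmL nmR : ℕ → Option N), Ms.card ≤ 32 * ρ ∧
      (∀ k ∈ Ms, B < k ∧ Nat.Prime k ∧ k ∣ M) ∧ 0 < M ∧
      (∀ t, nmL (t + M) = nmL t) ∧ (∀ t, nmR (t + M) = nmR t) ∧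
      (∀ t t' c, nmL t = some c → nmR t' = some c → (Ms.filter (· ∣ t + t')).card < 2 * ρ) ∧
      (∀ t t' c c', nmL t = some c → nmR t' = some c' → c ≠ c' →
        2 * ρ ≤ (Ms.filter (· ∣ t + t')).card) ∧
      (∀ t₁ t₁' t₂ t₂' c₁ c₁' c₂ c₂', nmL t₁ = some c₁ → nmR t₁' = some c₁' →
        nmL t₂ = some c₂ → nmR t₂' = some c₂' → t₁ + t₁' = t₂ + t₂' → c₁ ≠ c₁' → c₂ ≠ c₂' →
        (c₂ = c₁ ∧ c₂' = c₁') ∨ (c₂ = c₁' ∧ c₂' = c₁)) ∧
      (∀ T, (Ms.filter (· ∣ T)).card < ρ → ∀ c, ∃ t < M, nmL t = some c ∧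
        ∀ t', t + t' ≡ T [MOD M] → nmR t' = some c) := by
  classical
  haveI := Fintype.ofFinite N
  refine ⟨2 ^ (Fintype.card N + 1), by positivity, fun B => ?_⟩
  set ρ : ℕ := 2 ^ (Fintype.card N + 1) with hρdef
  have h0 : 0 < ρ := by positivity
  have hρ : Fintype.card (Dd N) = 32 * ρ := card_Dd
  let e := Fintype.equivFin (Dd N)
  let k : Dd N → ℕ := fun A => Nat.nth Nat.Prime (B + (e A : ℕ))
  have hkp : ∀ A, Nat.Prime (k A) := fun A => Nat.prime_nth_prime _
  have hkB : ∀ A, B < k A := fun A => by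
    have := Nat.add_two_le_nth_prime (B + (e A : ℕ))
    show B < Nat.nth Nat.Prime (B + (e A : ℕ))
    omega
  have hkinj : Function.Injective k := by
    intro A A' h
    have := Nat.nth_injective Nat.infinite_setOf_prime h
    have h2 : (e A : ℕ) = (e A' : ℕ) := by omega
    exact e.injective (Fin.ext h2)
  let M : ℕ := ∏ A : Dd N, k A
  have hkM : ∀ A, k A ∣ M := fun A => Finset.dvd_prod_of_mem k (Finset.mem_univ A)
  have hM0 : 0 < M := Finset.prod_pos (fun A _ => (hkp A).pos)
  have hfil : ∀ T : ℕ, ((univ.image k).filter (· ∣ T)).card =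
      (univ.filter (fun A : Dd N => k A ∣ T)).card := by
    intro T
    rw [Finset.filter_image, Finset.card_image_of_injective _ hkinj]
  have hper : ∀ A t, k A ∣ t + M ↔ k A ∣ t := fun A t => (Nat.dvd_add_left (hkM A))
  have hLper : ∀ t, (LC k ρ (t + M) : N → Prop) = LC k ρ t := by
    intro t
    funext c
    simp only [LC, hper]
  have hRper : ∀ t, (RCc k ρ (t + M) : N → Prop) = RCc k ρ t := by
    intro t
    funext c
    simp only [RCc, hper]
  refine ⟨univ.image k, M, fun t => pick (LC k ρ t), fun t => pick (RCc k ρ t), ?_, ?_, hM0, ?_, ?_,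
    ?_, ?_, ?_, ?_⟩
  · rw [Finset.card_image_of_injective _ hkinj, Finset.card_univ, hρ]
  · intro q hq
    obtain ⟨A, _, rfl⟩ := Finset.mem_image.1 hq
    exact ⟨hkB A, hkp A, hkM A⟩
  · intro t
    simp only [hLper]
  · intro t
    simp only [hRper]
  · intro t t' c hc hc'
    have h1 := pick_some hc
    have h2 := pick_some hc'
    have := err_lt k ρ h0 h1 h2
    rw [hfil]
    simpa using this
  · intro t t' c c' hc hc' hne
    have h1 := pick_some hc
    have h2 := pick_some hc'
    rw [hfil]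
    have h3 := two_card ρ hρ hne false true
    have hsub : (univ.filter (fun A : Dd N => A (Sum.inl c) = false ∧ A (Sum.inl c') = true)) ⊆
        (univ.filter (fun A : Dd N => k A ∣ t + t')) := by
      intro A hA
      simp only [mem_filter, mem_univ, true_and] at hA ⊢
      exact dvd_add (h1.1 A hA.1) (h2.1 A hA.2)
    have := Finset.card_le_card hsub
    omega
  · intro t₁ t₁' t₂ t₂' c₁ c₁' c₂ c₂' h1 h1' h2 h2' hT hne1 _
    by_contra hcon
    have g1 := pick_some h1
    have g1' := pick_some h1'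
    have g2 := pick_some h2
    have g2' := pick_some h2'
    have h3 := four_card ρ hρ hne1 hcon
    have h4 := err_lt k ρ h0 g2 g2'
    have hsub : (univ.filter (fun A : Dd N =>
        (A (Sum.inl c₁) = false ∧ A (Sum.inl c₁') = true) ∧ A (Sum.inl c₂) = A (Sum.inl c₂'))) ⊆
        (univ.filter (fun A : Dd N => k A ∣ t₂ + t₂' ∧ A (Sum.inl c₂) = A (Sum.inl c₂'))) := by
      intro A hA
      simp only [mem_filter, mem_univ, true_and] at hA ⊢
      refine ⟨?_, hA.2⟩
      rw [← hT]
      exact dvd_add (g1.1 A hA.1.1) (g1'.1 A hA.1.2)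
    have := Finset.card_le_card hsub
    omega
  · intro T hT c
    rw [hfil] at hT
    have hcop : Set.Pairwise ((univ : Finset (Dd N)) : Set (Dd N)) (Function.onFun Nat.Coprime k) := by
      intro A _ A' _ hne
      exact (Nat.coprime_primes (hkp A) (hkp A')).2 (fun h => hne (hkinj h))
    obtain ⟨t0, ht0⟩ := Nat.chineseRemainderOfFinset
      (fun A : Dd N => if A (Sum.inl c) = true then T else 0) k univ
      (fun A _ => (hkp A).ne_zero) hcop
    have hcong : ∀ A : Dd N, t0 % M ≡ (if A (Sum.inl c) = true then T else 0) [MOD k A] := by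
      intro A
      have h1 : t0 % M ≡ t0 [MOD k A] := (Nat.mod_modEq t0 M).of_dvd (hkM A)
      exact h1.trans (ht0 A (Finset.mem_univ A))
    have hdv : ∀ A : Dd N, A (Sum.inl c) = false → k A ∣ t0 % M := by
      intro A hA
      have := hcong A
      simp only [hA] at this
      exact (Nat.modEq_zero_iff_dvd).1 (by simpa using this)
    have hdv2 : ∀ A : Dd N, A (Sum.inl c) = true → (k A ∣ t0 % M ↔ k A ∣ T) := by
      intro A hA
      have := hcong A
      rw [if_pos hA] at this
      exact this.dvd_iff dvd_rfl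
    have hLC : LC k ρ (t0 % M) c := by
      refine ⟨hdv, lt_of_le_of_lt (Finset.card_le_card ?_) hT⟩
      intro A hA
      simp only [mem_filter, mem_univ, true_and] at hA ⊢
      exact (hdv2 A hA.1).1 hA.2
    refine ⟨t0 % M, Nat.mod_lt _ hM0, pick_eq hLC (fun c' hc' => LC_unique k ρ h0 hρ hLC hc'), ?_⟩
    intro t' ht'
    have hRC : RCc k ρ t' c := by
      have hk : ∀ A : Dd N, t0 % M + t' ≡ T [MOD k A] := fun A => ht'.of_dvd (hkM A)
      refine ⟨fun A hA => ?_, lt_of_le_of_lt (Finset.card_le_card ?_) hT⟩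
      · have h1 := hcong A
        rw [if_pos hA] at h1
        have h2 : T + t' ≡ T + 0 [MOD k A] := ((h1.symm.add_right t').trans (hk A))
        exact (Nat.modEq_zero_iff_dvd).1 (Nat.ModEq.add_left_cancel' T h2)
      · intro A hA
        simp only [mem_filter, mem_univ, true_and] at hA ⊢
        have h1 := hdv A hA.1
        have h3 : k A ∣ t0 % M + t' := dvd_add h1 hA.2
        exact ((hk A).dvd_iff dvd_rfl).1 h3
    exact pick_eq hRC (fun c' hc' => RC_unique k ρ h0 hρ hRC hc')

end Crest.Agent.R320.LN_601
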