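import Mathlib
import Crest.Agent.R320.Names_755
import Crest.Agent.R320.LN_601

/-!
LEAF U2 of row 320 (638 #13273): assembly of the clocks (star group = 755's names, level groups =
error-tolerant names of U1).  helper578.
-/

set_option autoImplicit false

namespace Crest.Agent.R320.Clk_578

/-- radix product, abstract -/
def P (q b l : ℕ) : ℕ := q * b ^ l

section radix

variable {q b M0 M1 m i t t' l l' : ℕ}

theorem P_zero : P q b 0 = q := by simp [P]

theorem P_succ : P q b (l + 1) = P q b l * b := by simp [P, pow_succ, mul_assoc]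

theorem P_dvd (h : l ≤ l') : P q b l ∣ P q b l' := Nat.mul_dvd_mul_left q (pow_dvd_pow b h)

theorem P_pos (hq : 0 < q) (hb : 0 < b) : 0 < P q b l := Nat.mul_pos hq (pow_pos hb l)

theorem P_le (hq : 0 < q) (hb : 0 < b) (h : l ≤ l') : P q b l ≤ P q b l' :=
  Nat.le_of_dvd (P_pos hq hb) (P_dvd h)

theorem q_le (hq : 0 < q) (hb : 0 < b) : q ≤ P q b l := by
  have := P_le (l := 0) (l' := l) hq hb (Nat.zero_le l)
  rwa [P_zero] at this

theorem q_dvd : q ∣ P q b l := Dvd.intro _ rfl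

/-- left position at level `i` -/
structure LOK (q b M0 M1 m i t : ℕ) : Prop where
  a0 : t % q < M0
  a1 : (t / P q b i) % b < M1
  a2 : t % P q b m < P q b (i + 1)
  a3 : t / P q b m = 3 * i + 3

/-- right position at level `i` -/
structure ROK (q b M0 M1 i t' : ℕ) : Prop where
  c0 : t' % q + M0 ≤ q
  c1 : t' % P q b i = t' % q
  c2 : (t' / P q b i) % b + M1 ≤ b

theorem ROK.mod (hR : ROK q b M0 M1 i t') (hq : 0 < q) (hb : 0 < b) (h : l ≤ i) :
    t' % P q b l = t' % q := by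
  rw [← Nat.mod_mod_of_dvd t' (P_dvd h), hR.c1]
  exact Nat.mod_eq_of_lt ((Nat.mod_lt _ hq).trans_le (q_le hq hb))

theorem LOK.mod (hL : LOK q b M0 M1 m i t) (hq : 0 < q) (hb : 0 < b) (h : i + 1 ≤ l) (h' : l ≤ m) :
    t % P q b l = t % P q b m := by
  rw [← Nat.mod_mod_of_dvd t (P_dvd h')]
  exact Nat.mod_eq_of_lt (hL.a2.trans_le (P_le hq hb h))

theorem nocarry (hq : 0 < q) (hb : 0 < b) (him : i < m) (hL : LOK q b M0 M1 m i t)
    (hR : ROK q b M0 M1 i t') : ∀ l ≤ m, t % P q b l + t' % P q b l < P q b l := by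
  have h1 : ∀ l ≤ i, t % P q b l + t' % P q b l < P q b l := by
    intro l hl
    rw [hR.mod hq hb hl]
    have e : t % P q b l = t % q + q * (t / q % b ^ l) := Nat.mod_mul
    rw [e]
    have h2 : t / q % b ^ l < b ^ l := Nat.mod_lt _ (pow_pos hb l)
    have h3 : q * (t / q % b ^ l + 1) ≤ q * b ^ l := Nat.mul_le_mul_left q h2
    have h4 := hL.a0
    have h5 := hR.c0
    have h6 : P q b l = q * b ^ l := rfl
    rw [h6]
    rw [Nat.mul_add, Nat.mul_one] at h3
    omega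
  have h2 : t % P q b (i + 1) + t' % P q b (i + 1) < P q b (i + 1) := by
    rw [P_succ, Nat.mod_mul, Nat.mod_mul]
    have h3 := h1 i le_rfl
    have h4 := hL.a1
    have h5 := hR.c2
    have h6 : P q b i * (t / P q b i % b + t' / P q b i % b + 1) ≤ P q b i * b :=
      Nat.mul_le_mul_left _ (by omega)
    rw [Nat.mul_add, Nat.mul_add, Nat.mul_one] at h6
    omega
  intro l hl
  rcases Nat.lt_or_ge i l with h | h
  · obtain ⟨d, rfl⟩ := Nat.exists_eq_add_of_le (show i + 1 ≤ l from h)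
    have e0 : P q b (i + 1 + d) = P q b (i + 1) * b ^ d := by simp [P, pow_add, mul_assoc]
    have e1 : t % P q b (i + 1 + d) = t % P q b (i + 1) := by
      rw [hL.mod hq hb (by omega) hl, hL.mod hq hb le_rfl (by omega)]
    have e2 : t' % P q b (i + 1 + d) =
        t' % P q b (i + 1) + P q b (i + 1) * (t' / P q b (i + 1) % b ^ d) := by
      rw [e0]; exact Nat.mod_mul
    have h3 : t' / P q b (i + 1) % b ^ d < b ^ d := Nat.mod_lt _ (pow_pos hb d)
    have h4 : P q b (i + 1) * (t' / P q b (i + 1) % b ^ d + 1) ≤ P q b (i + 1) * b ^ d :=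
      Nat.mul_le_mul_left _ h3
    rw [Nat.mul_add, Nat.mul_one] at h4
    rw [e1, e2, e0]
    omega
  · exact h1 l h

theorem add_nc {p : ℕ} (hp : 0 < p) (h : t % p + t' % p < p) :
    (t + t') / p = t / p + t' / p ∧ (t + t') % p = t % p + t' % p := by
  constructor
  · rw [Nat.add_div hp, if_neg (by omega), add_zero]
  · rw [Nat.add_mod, Nat.mod_eq_of_lt h]

theorem ROK.digit (hR : ROK q b M0 M1 i t') (hq : 0 < q) (hb : 0 < b) (h : l < i) :
    b ∣ t' / P q b l := by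
  have e := Nat.mod_mul (x := t') (a := P q b l) (b := b)
  rw [← P_succ, hR.mod hq hb (show l + 1 ≤ i from h), hR.mod hq hb h.le] at e
  have h1 : P q b l * (t' / P q b l % b) = 0 := by omega
  rcases Nat.mul_eq_zero.1 h1 with h2 | h2
  · exact absurd h2 (P_pos hq hb).ne'
  · exact Nat.dvd_of_mod_eq_zero h2

theorem LOK.digit (hL : LOK q b M0 M1 m i t) (hq : 0 < q) (hb : 0 < b) (h : i < l) (h' : l < m) :
    b ∣ t / P q b l := by
  have e := Nat.mod_mul (x := t) (a := P q b l) (b := b)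
  rw [← P_succ, hL.mod hq hb (show i + 1 ≤ l + 1 by omega) h', hL.mod hq hb h h'.le] at e
  have h1 : P q b l * (t / P q b l % b) = 0 := by omega
  rcases Nat.mul_eq_zero.1 h1 with h2 | h2
  · exact absurd h2 (P_pos hq hb).ne'
  · exact Nat.dvd_of_mod_eq_zero h2

theorem filter_left (hq : 0 < q) (hb : 0 < b) (him : i < m) (hL : LOK q b M0 M1 m i t)
    (hR : ROK q b M0 M1 i t') (Ms1 : Finset ℕ) (hMs : ∀ k ∈ Ms1, k ∣ b) (h : l < i) :
    Ms1.filter (· ∣ (t + t') / P q b l) = Ms1.filter (· ∣ t / P q b l) := by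
  apply Finset.filter_congr
  intro k hk
  rw [(add_nc (P_pos hq hb) (nocarry hq hb him hL hR l (by omega))).1]
  exact Nat.dvd_add_left ((hMs k hk).trans (hR.digit hq hb h))

theorem filter_right (hq : 0 < q) (hb : 0 < b) (him : i < m) (hL : LOK q b M0 M1 m i t)
    (hR : ROK q b M0 M1 i t') (Ms1 : Finset ℕ) (hMs : ∀ k ∈ Ms1, k ∣ b) (h : i < l) (h' : l < m) :
    Ms1.filter (· ∣ (t + t') / P q b l) = Ms1.filter (· ∣ t' / P q b l) := by
  apply Finset.filter_congr
  intro k hk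
  rw [(add_nc (P_pos hq hb) (nocarry hq hb him hL hR l (by omega))).1]
  exact Nat.dvd_add_right ((hMs k hk).trans (hL.digit hq hb h h'))

/-- construction of the two positions at level `i` -/
theorem build (hq : 0 < q) (hb : 0 < b) (him : i < m) {n t0 e : ℕ} (hn : P q b m * (3 * i + 3) ≤ n)
    (hn' : 3 * i + 3 ≤ n / P q b m)
    (h0 : t0 < M0) (h0' : M0 ≤ n % q) (h0'' : n % q + M0 ≤ q)
    (he : e < M1) (he' : M1 ≤ n / P q b i % b) (he'' : n / P q b i % b + M1 ≤ b) :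
    ∃ t t', t + t' = n ∧ LOK q b M0 M1 m i t ∧ ROK q b M0 M1 i t' ∧ t % q = t0 ∧
      t' % q = n % q - t0 ∧ t / P q b i % b = e ∧
      (∀ l ≤ m, n / P q b l = t / P q b l + t' / P q b l) ∧ t' / P q b m = n / P q b m - (3 * i + 3) := by
  have hPi : 0 < P q b i := P_pos hq hb
  have hPm : 0 < P q b m := P_pos hq hb
  have e1 : ∀ l, n % P q b l % q = n % q := fun l => Nat.mod_mod_of_dvd n q_dvd
  have hge : ∀ l, n % q ≤ n % P q b l := fun l => by
    rw [← e1 l]; exact Nat.mod_le _ _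
  set a := n % P q b i - (n % q - t0) with ha
  have ha1 : a + (n % q - t0) = n % P q b i := by have := hge i; omega
  have haP : a < P q b i := by have := Nat.mod_lt n hPi; omega
  set t := P q b m * (3 * i + 3) + (P q b i * e + a) with ht
  have hlow : P q b i * e + a < P q b (i + 1) := by
    rw [P_succ]
    have : P q b i * (e + 1) ≤ P q b i * b := Nat.mul_le_mul_left _ (by omega)
    rw [Nat.mul_add, Nat.mul_one] at this
    omega
  have hPle : P q b (i + 1) ≤ P q b m := P_le hq hb him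
  have htm : t % P q b m = P q b i * e + a := by
    rw [ht, Nat.mul_add_mod]
    exact Nat.mod_eq_of_lt (hlow.trans_le hPle)
  have htd : t / P q b m = 3 * i + 3 := by
    rw [ht, Nat.mul_add_div hPm, Nat.div_eq_of_lt (hlow.trans_le hPle), add_zero]
  have hti : t % P q b i = a := by
    rw [← Nat.mod_mod_of_dvd t (P_dvd him.le), htm, Nat.mul_add_mod]
    exact Nat.mod_eq_of_lt haP
  have hte : t / P q b i % b = e := by
    have h1 : t % P q b (i + 1) = P q b i * e + a := by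
      rw [← Nat.mod_mod_of_dvd t (P_dvd (show i + 1 ≤ m from him)), htm]
      exact Nat.mod_eq_of_lt hlow
    have h2 := Nat.mod_mul (x := t) (a := P q b i) (b := b)
    rw [← P_succ, h1, hti] at h2
    have h3 : P q b i * (t / P q b i % b) = P q b i * e := by omega
    exact Nat.eq_of_mul_eq_mul_left hPi h3
  have hmodl : ∀ l ≤ i, t % P q b l = n % P q b l - (n % q - t0) := by
    intro l hl
    have h1 : t % P q b l = a % P q b l := by
      rw [← Nat.mod_mod_of_dvd t (P_dvd hl), hti]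
    have h2 : a + (n % q - t0) ≡ n % P q b l - (n % q - t0) + (n % q - t0) [MOD P q b l] := by
      have h3 := hge l
      rw [ha1, Nat.sub_add_cancel (by omega)]
      show n % P q b i % P q b l = n % P q b l % P q b l
      rw [Nat.mod_mod_of_dvd n (P_dvd hl), Nat.mod_mod]
    have h4 := Nat.ModEq.add_right_cancel' _ h2
    rw [h1]
    have h5 : a % P q b l = (n % P q b l - (n % q - t0)) % P q b l := h4
    rw [h5]
    exact Nat.mod_eq_of_lt (by have := Nat.mod_lt n (P_pos (l := l) hq hb); omega)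
  have hle : ∀ l ≤ m, t % P q b l ≤ n % P q b l := by
    intro l hl
    rcases Nat.lt_or_ge i l with h | h
    · have h1 : t % P q b l = P q b i * e + a := by
        rw [← Nat.mod_mod_of_dvd t (P_dvd hl), htm]
        exact Nat.mod_eq_of_lt (hlow.trans_le (P_le hq hb h))
      have h2 : n % P q b (i + 1) ≤ n % P q b l := by
        rw [← Nat.mod_mod_of_dvd n (P_dvd (show i + 1 ≤ l from h))]
        exact Nat.mod_le _ _
      have h3 := Nat.mod_mul (x := n) (a := P q b i) (b := b)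
      rw [← P_succ] at h3
      have h4 : P q b i * e ≤ P q b i * (n / P q b i % b) := Nat.mul_le_mul_left _ (by omega)
      rw [h1]; omega
    · rw [hmodl l h]; omega
  have htn : t ≤ n := by
    have h1 := Nat.div_add_mod n (P q b m)
    have h2 := Nat.div_add_mod t (P q b m)
    have h3 := hle m le_rfl
    have h4 : P q b m * (t / P q b m) ≤ P q b m * (n / P q b m) :=
      Nat.mul_le_mul_left _ (by rw [htd]; exact hn')
    omega
  have hsub : ∀ l ≤ m, (n - t) % P q b l = n % P q b l - t % P q b l ∧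
      (n - t) / P q b l + t / P q b l = n / P q b l := by
    intro l hl
    have hp : 0 < P q b l := P_pos hq hb
    have h1 := Nat.div_add_mod n (P q b l)
    have h2 := Nat.div_add_mod t (P q b l)
    have h3 := hle l hl
    have h4 := Nat.mod_lt n hp
    have h5 : t / P q b l ≤ n / P q b l := Nat.div_le_div_right htn
    obtain ⟨d, hd⟩ := Nat.exists_eq_add_of_le h5
    have h6 : n - t = P q b l * d + (n % P q b l - t % P q b l) := by
      rw [hd, Nat.mul_add] at h1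
      omega
    have h7 : n % P q b l - t % P q b l < P q b l := by omega
    constructor
    · rw [h6, Nat.mul_add_mod]; exact Nat.mod_eq_of_lt h7
    · rw [h6, Nat.mul_add_div hp, Nat.div_eq_of_lt h7]; omega
  have ht0 : t % q = t0 := by
    have := hmodl 0 (Nat.zero_le _)
    rw [P_zero] at this
    rw [this]; omega
  have hs0 : (n - t) % q = n % q - t0 := by
    have := (hsub 0 (Nat.zero_le _)).1
    rw [P_zero, ht0] at this
    exact this
  refine ⟨t, n - t, by omega, ⟨by rw [ht0]; exact h0, by rw [hte]; exact he, ?_, htd⟩,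
    ⟨by rw [hs0]; omega, ?_, ?_⟩, ht0, hs0, hte, ?_, ?_⟩
  · rw [htm]; exact hlow
  · rw [(hsub i him.le).1, hti, hs0]; omega
  · have h1 := (hsub i him.le).2
    have h2 : (n / P q b i) % b = ((n - t) / P q b i % b + t / P q b i % b) % b := by
      rw [← h1, Nat.add_mod]
    have h3 := Nat.mod_lt ((n - t) / P q b i) hb
    rw [hte] at h2
    generalize (n - t) / P q b i % b = x at h2 h3 ⊢
    rcases Nat.lt_or_ge (x + e) b with h | h
    · rw [Nat.mod_eq_of_lt h] at h2; omega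
    · rw [Nat.mod_eq_sub_mod h, Nat.mod_eq_of_lt (show x + e - b < b by omega)] at h2; omega
  · intro l hl; have := (hsub l hl).2; omega
  · have := (hsub m le_rfl).2; rw [htd] at this; omega

end radix

def PP (R M0 M1 l : ℕ) : ℕ := (R * M0) * (R * M1) ^ l

def beta (R M0 M1 m n l : ℕ) : ℕ := PP R M0 M1 m * (3 * l + 2) + n % PP R M0 M1 l

def Bad (R M0 M1 m rho : ℕ) (Ms Ms1 : Finset ℕ) (n : ℕ) : Prop :=
  (n % (R * M0) < M0 ∨ R * M0 ≤ n % (R * M0) + M0) ∨ (∃ k ∈ Ms, k ∣ n) ∨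
    ∃ l < m, ((n / PP R M0 M1 l) % (R * M1) < M1 ∨
      R * M1 ≤ (n / PP R M0 M1 l) % (R * M1) + M1) ∨
      rho ≤ (Ms1.filter (· ∣ n / PP R M0 M1 l)).card

theorem per {X : Type} (f : ℕ → X) (N : ℕ) (hf : ∀ t, f (t + N) = f t) {K : ℕ} (hK : N ∣ K)
    {t t0 : ℕ} (h : t % K = t0) : f t = f t0 := by
  have h1 : ∀ j s, f (s + N * j) = f s := by
    intro j
    induction j with
    | zero => intro s; simp
    | succ j ih => intro s; rw [Nat.mul_succ, ← add_assoc, hf, ih]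
  obtain ⟨c, rfl⟩ := hK
  have h2 := Nat.div_add_mod t (N * c)
  rw [h] at h2
  rw [← h2, add_comm, mul_assoc, h1]

/-- LEAF U2 (638 #13273). -/
theorem clocks (m : ℕ) (Γ C : Type) [Finite Γ] [Finite C] (lv : Γ → ℕ) (hlv : ∀ g, lv g < m)
    (col : Γ → C) : ∃ r : ℕ, ∀ B R : ℕ, 3 ≤ R →
    ∃ (Ms Ms1 : Finset ℕ) (rho M0 M1 : ℕ), Ms.card ≤ r ∧ Ms1.card ≤ 32 * rho ∧ 0 < rho ∧
      (∀ k ∈ Ms, B < k ∧ Nat.Prime k ∧ k ∣ M0) ∧ (∀ k ∈ Ms1, B < k ∧ Nat.Prime k ∧ k ∣ M1) ∧
      B < M0 ∧ B < M1 ∧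
      ∃ (nmL nmR : ℕ → Option Γ) (bL bR : ℕ → ℕ → ℕ) (Gd : ℕ → Prop),
      (∀ t g, nmL t = some g → t < PP R M0 M1 m * (3 * m + 4)) ∧
      (∀ t g, nmR t = some g → PP R M0 M1 m * (3 * m + 4) ≤ t) ∧
      (∀ t t' g g', Gd (t + t') → nmL t = some g → nmR t' = some g' → g = g' ∧
        (∀ l ≤ lv g, bL t l = beta R M0 M1 m (t + t') l) ∧
        (∀ l, lv g < l → l ≤ m → bR t' l + beta R M0 M1 m (t + t') l = t + t') ∧
        beta R M0 M1 m (t + t') (lv g) ≤ t ∧ t ≤ beta R M0 M1 m (t + t') (lv g + 1)) ∧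
      (∀ t₁ t₁' t₂ t₂' g₁ g₁' g₂ g₂', ¬ Gd (t₁ + t₁') → t₁ + t₁' = t₂ + t₂' →
        nmL t₁ = some g₁ → nmR t₁' = some g₁' → nmL t₂ = some g₂ → nmR t₂' = some g₂' →
        col g₁ = col g₂ ∧ col g₁' = col g₂') ∧
      (∀ n, 2 * (PP R M0 M1 m * (3 * m + 4)) ≤ n → ¬ Bad R M0 M1 m rho Ms Ms1 n →
        Gd n ∧ ∀ g, ∃ t t', t + t' = n ∧ nmL t = some g ∧ nmR t' = some g) ∧
      (∀ n, Gd (n + PP R M0 M1 m) ↔ Gd n) := by
  classical
  obtain ⟨r, hr⟩ := Names755.names Γ C col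
  refine ⟨r, fun B R hR3 => ?_⟩
  obtain ⟨Ms, N0, nL, nR, hc, hMs, hN0, hpL, hpR, hgood, hcompl, hbad⟩ := hr B
  obtain ⟨M0, hM0⟩ : ∃ M0, M0 = N0 * (B + 1) := ⟨_, rfl⟩
  obtain ⟨rho, hrho, h1⟩ := LN_601.level_names (Γ × Fin (R * M0))
  obtain ⟨Ms1, N1, kL, kR, hc1, hMs1, hN1, hqL, hqR, hsame, hdiff, hpair, hcompl1⟩ := h1 B
  obtain ⟨M1, hM1⟩ : ∃ M1, M1 = N1 * (B + 1) := ⟨_, rfl⟩
  have hN0M : N0 ∣ M0 := ⟨_, hM0⟩
  have hN1M : N1 ∣ M1 := ⟨_, hM1⟩
  have hBM0 : B < M0 := by rw [hM0]; nlinarith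
  have hBM1 : B < M1 := by rw [hM1]; nlinarith
  have hM0p : 0 < M0 := by omega
  have hM1p : 0 < M1 := by omega
  obtain ⟨q, hq⟩ : ∃ q, q = R * M0 := ⟨_, rfl⟩
  obtain ⟨b, hb⟩ : ∃ b, b = R * M1 := ⟨_, rfl⟩
  have hqp : 0 < q := by rw [hq]; positivity
  have hbp : 0 < b := by rw [hb]; positivity
  have hPP : ∀ l, PP R M0 M1 l = P q b l := fun l => by rw [PP, P, hq, hb]
  have hMb : ∀ k ∈ Ms1, k ∣ b := fun k hk => ((hMs1 k hk).2.2.trans hN1M).trans (hb ▸ Dvd.intro_left R rfl)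
  have hMq : ∀ k ∈ Ms, k ∣ q := fun k hk => ((hMs k hk).2.2.trans hN0M).trans (hq ▸ Dvd.intro_left R rfl)
  -- predicates
  let LLp : Γ → ℕ → Prop := fun γ t => LOK q b M0 M1 m (lv γ) t ∧
    (∀ l < lv γ, (Ms1.filter (· ∣ t / P q b l)).card < rho) ∧
    ∃ σ, kL (t / P q b (lv γ)) = some (γ, σ)
  let RRp : Γ → ℕ → Prop := fun γ t' => ROK q b M0 M1 (lv γ) t' ∧
    (∀ l, lv γ < l → l < m → (Ms1.filter (· ∣ t' / P q b l)).card < rho) ∧
    (∃ σ : Fin (R * M0), (σ : ℕ) = t' % q ∧ kR (t' / P q b (lv γ)) = some (γ, σ)) ∧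
    P q b m * (3 * m + 4) ≤ t'
  let nmL : ℕ → Option Γ := fun t => (nL t).filter (fun γ => decide (LLp γ t))
  let nmR : ℕ → Option Γ := fun t => (nR t).filter (fun γ => decide (RRp γ t))
  have hnmL : ∀ t γ, nmL t = some γ ↔ nL t = some γ ∧ LLp γ t := fun t γ => by
    simp only [nmL, Option.filter_eq_some_iff, decide_eq_true_eq]
  have hnmR : ∀ t γ, nmR t = some γ ↔ nR t = some γ ∧ RRp γ t := fun t γ => by
    simp only [nmR, Option.filter_eq_some_iff, decide_eq_true_eq]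
  let sig : ℕ → ℕ := fun t => match nL t with
    | some γ => (match kL (t / P q b (lv γ)) with
      | some c => (c.2 : ℕ)
      | none => 0)
    | none => 0
  let lvR : ℕ → ℕ := fun t => match nR t with
    | some γ => lv γ
    | none => 0
  let Gd : ℕ → Prop := fun n => (∀ k ∈ Ms, ¬ k ∣ n) ∧
    ∀ l < m, (Ms1.filter (· ∣ n / P q b l)).card < 2 * rho
  have hsig : ∀ t γ σ, nL t = some γ → kL (t / P q b (lv γ)) = some (γ, σ) → sig t = (σ : ℕ) := by
    intro t γ σ h1 h2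
    simp only [sig, h1, h2]
  have hlvR : ∀ t γ, nR t = some γ → lvR t = lv γ := by
    intro t γ h1
    simp only [lvR, h1]
  refine ⟨Ms, Ms1, rho, M0, M1, hc, hc1, hrho, fun k hk => ⟨(hMs k hk).1, (hMs k hk).2.1,
    (hMs k hk).2.2.trans hN0M⟩, fun k hk => ⟨(hMs1 k hk).1, (hMs1 k hk).2.1,
    (hMs1 k hk).2.2.trans hN1M⟩, hBM0, hBM1, nmL, nmR,
    fun t l => P q b m * (3 * l + 2) + (t + sig t) % P q b l,
    fun t l => P q b m * (3 * lvR t + 3) + (t - t % P q b l) - P q b m * (3 * l + 2), Gd,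
    ?_, ?_, ?_, ?_, ?_, ?_⟩
  · -- left bound
    intro t g h
    obtain ⟨-, hL, -⟩ := (hnmL t g).1 h
    rw [hPP]
    have h1 := Nat.div_add_mod t (P q b m)
    rw [hL.a3] at h1
    have h2 := Nat.mod_lt t (P_pos (l := m) hqp hbp)
    have h3 : P q b m * (3 * lv g + 4) ≤ P q b m * (3 * m + 4) :=
      Nat.mul_le_mul_left _ (by have := hlv g; omega)
    have h4 : P q b m * (3 * lv g + 4) = P q b m * (3 * lv g + 3) + P q b m := by ring
    omega
  · intro t g h
    rw [hPP]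
    exact ((hnmR t g).1 h).2.2.2.2
  · -- good totals
    intro t t' g g' hG hl hr
    obtain ⟨hl1, hL, hl2, σ, hσ⟩ := (hnmL t g).1 hl
    obtain ⟨hr1, hR, hr2, ⟨σ', hσ'q, hσ'⟩, hr3⟩ := (hnmR t' g').1 hr
    obtain rfl := hgood t t' g g' hl1 hr1 hG.1
    have hi := hlv g
    have nc := nocarry hqp hbp hi hL hR
    have hsum : ∀ l ≤ m, (t + t') / P q b l = t / P q b l + t' / P q b l ∧
        (t + t') % P q b l = t % P q b l + t' % P q b l := fun l h =>
      add_nc (P_pos hqp hbp) (nc l h)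
    have hσσ : σ = σ' := by
      by_contra hne
      have h2 := hdiff _ _ _ _ hσ hσ' (fun h => hne (Prod.mk.inj h).2)
      rw [← (hsum _ hi.le).1] at h2
      have h3 := hG.2 _ hi
      omega
    subst hσσ
    have hsg := hsig t g σ hl1 hσ
    have hlr := hlvR t' g hr1
    have hPm : ∀ l ≤ m, P q b l ≤ P q b m := fun l h => P_le hqp hbp h
    refine ⟨rfl, ?_, ?_, ?_, ?_⟩
    · intro l hl
      have h1 := nc l (by omega)
      simp only [beta, hPP]
      rw [(hsum l (by omega)).2, hsg, hσ'q, ← Nat.mod_add_mod, hR.mod hqp hbp hl]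
      rw [hR.mod hqp hbp hl] at h1
      rw [Nat.mod_eq_of_lt h1]
    · intro l hl1 hlm
      simp only [beta, hPP]
      rw [(hsum l hlm).2, hlr]
      have h1 := Nat.div_add_mod t (P q b m)
      rw [hL.a3] at h1
      have h2 := hL.mod hqp hbp hl1 hlm
      have h3 := Nat.mod_lt t' (P_pos (l := l) hqp hbp)
      have h4 := hPm l hlm
      have h5 := Nat.mod_le t' (P q b l)
      have e1 : P q b m * (3 * l + 2) = 3 * (P q b m * l) + 2 * P q b m := by ring
      have e2 : P q b m * (3 * lv g + 3) = 3 * (P q b m * lv g) + 3 * P q b m := by ring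
      have e3 : P q b m * (3 * m + 4) = 3 * (P q b m * m) + 4 * P q b m := by ring
      have e4 : P q b m * l ≤ P q b m * m := Nat.mul_le_mul_left _ hlm
      rw [e1, e2]
      rw [e2] at h1
      rw [e3] at hr3
      omega
    · simp only [beta, hPP]
      have h1 := Nat.div_add_mod t (P q b m)
      rw [hL.a3] at h1
      have h3 := Nat.mod_lt (t + t') (P_pos (l := lv g) hqp hbp)
      have h4 := hPm (lv g) hi.le
      have e1 : P q b m * (3 * lv g + 2) = 3 * (P q b m * lv g) + 2 * P q b m := by ring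
      have e2 : P q b m * (3 * lv g + 3) = 3 * (P q b m * lv g) + 3 * P q b m := by ring
      rw [e1]; rw [e2] at h1
      omega
    · simp only [beta, hPP]
      have h1 := Nat.div_add_mod t (P q b m)
      rw [hL.a3] at h1
      have h3 := Nat.mod_lt t (P_pos (l := m) hqp hbp)
      have e1 : P q b m * (3 * (lv g + 1) + 2) = 3 * (P q b m * lv g) + 5 * P q b m := by ring
      have e2 : P q b m * (3 * lv g + 3) = 3 * (P q b m * lv g) + 3 * P q b m := by ring
      rw [e1]; rw [e2] at h1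
      omega
  · -- bad totals
    intro t₁ t₁' t₂ t₂' g₁ g₁' g₂ g₂' hG hn hl₁ hr₁ hl₂ hr₂
    by_cases hk : ∃ k ∈ Ms, k ∣ t₁ + t₁'
    · exact hbad t₁ t₁' t₂ t₂' g₁ g₁' g₂ g₂' ((hnmL _ _).1 hl₁).1 ((hnmR _ _).1 hr₁).1
        ((hnmL _ _).1 hl₂).1 ((hnmR _ _).1 hr₂).1 hn hk
    have hk' : ∀ k ∈ Ms, ¬ k ∣ t₁ + t₁' := fun k h1 h2 => hk ⟨k, h1, h2⟩
    obtain ⟨l, hlm, hl⟩ : ∃ l < m, 2 * rho ≤ (Ms1.filter (· ∣ (t₁ + t₁') / P q b l)).card := by
      by_contra h
      push Not at h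
      exact hG ⟨hk', h⟩
    have junc : ∀ t t' g g', t + t' = t₁ + t₁' → nmL t = some g → nmR t' = some g' →
        g = g' ∧ ∃ σ σ', kL (t / P q b l) = some (g, σ) ∧ kR (t' / P q b l) = some (g, σ') ∧
          (g, σ) ≠ (g, σ') ∧ t / P q b l + t' / P q b l = (t₁ + t₁') / P q b l := by
      intro t t' g g' e hl' hr'
      obtain ⟨hl1, hL, hl2, σ, hσ⟩ := (hnmL t g).1 hl'
      obtain ⟨hr1, hR, hr2, ⟨σ', hσ'q, hσ'⟩, hr3⟩ := (hnmR t' g').1 hr'
      obtain rfl := hgood t t' g g' hl1 hr1 (by rw [e]; exact hk')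
      have hi := hlv g
      have nc := nocarry hqp hbp hi hL hR
      have hlv' : l = lv g := by
        rcases lt_trichotomy l (lv g) with h | h | h
        · exfalso
          have h2 := hl2 l h
          rw [← filter_left hqp hbp hi hL hR Ms1 hMb h, e] at h2
          omega
        · exact h
        · exfalso
          have h2 := hr2 l h hlm
          rw [← filter_right hqp hbp hi hL hR Ms1 hMb h hlm, e] at h2
          omega
      subst hlv'
      have hs := (add_nc (P_pos hqp hbp) (nc _ hi.le)).1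
      rw [e] at hs
      refine ⟨rfl, σ, σ', hσ, hσ', ?_, hs.symm⟩
      intro heq
      rw [← heq] at hσ'
      have h2 := hsame _ _ _ hσ hσ'
      rw [← hs] at h2
      omega
    obtain ⟨rfl, σ₁, σ₁', a1, a2, a3, a4⟩ := junc t₁ t₁' g₁ g₁' rfl hl₁ hr₁
    obtain ⟨rfl, σ₂, σ₂', b1, b2, b3, b4⟩ := junc t₂ t₂' g₂ g₂' hn.symm hl₂ hr₂
    have hg : g₂ = g₁ := by
      rcases hpair _ _ _ _ _ _ _ _ a1 a2 b1 b2 (by rw [a4, b4]) a3 b3 with ⟨h1, _⟩ | ⟨h1, _⟩
      · exact (Prod.mk.inj h1).1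
      · exact (Prod.mk.inj h1).1
    subst hg
    exact ⟨rfl, rfl⟩
  · -- completeness
    intro n hn hB
    unfold Bad at hB
    push Not at hB
    obtain ⟨⟨hB1, hB2⟩, hB3, hB4⟩ := hB
    rw [hPP] at hn
    rw [← hq] at hB1 hB2
    simp only [hPP, ← hb] at hB4
    refine ⟨⟨hB3, fun l hl => ?_⟩, fun g => ?_⟩
    · have := (hB4 l hl).2; omega
    have hi := hlv g
    obtain ⟨t0, ht0, ht0L, ht0R⟩ := hcompl n hB3 g
    obtain ⟨⟨hd1, hd2⟩, hd3⟩ := hB4 (lv g) hi
    have ht0M : t0 < M0 := ht0.trans_le (Nat.le_of_dvd hM0p hN0M)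
    have hlt : n % q - t0 < R * M0 := by
      have := Nat.mod_lt n hqp
      omega
    obtain ⟨e, he, heL, heR⟩ := hcompl1 (n / P q b (lv g)) hd3 (g, ⟨n % q - t0, hlt⟩)
    have heM : e < M1 := he.trans_le (Nat.le_of_dvd hM1p hN1M)
    have hX1 : P q b m * (3 * lv g + 3) ≤ n := by
      have : P q b m * (3 * lv g + 3) ≤ 2 * (P q b m * (3 * m + 4)) := by
        have h3 : P q b m * (3 * lv g + 3) ≤ P q b m * (3 * m + 4) :=
          Nat.mul_le_mul_left _ (by omega)
        omega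
      omega
    have hX2 : 2 * (3 * m + 4) ≤ n / P q b m := by
      rw [Nat.le_div_iff_mul_le (P_pos hqp hbp)]
      calc 2 * (3 * m + 4) * P q b m = 2 * (P q b m * (3 * m + 4)) := by ring
        _ ≤ n := hn
    obtain ⟨t, t', e0, hL, hR, c1, c2, c3, c4, c5⟩ := build (t0 := t0) (e := e) hqp hbp hi hX1
      (by omega) ht0M (by omega) (by omega) heM (by omega) (by omega)
    refine ⟨t, t', e0, (hnmL t g).2 ⟨?_, hL, ?_, ?_⟩, (hnmR t' g).2 ⟨?_, hR, ?_, ?_, ?_⟩⟩
    · rw [per nL N0 hpL (hN0M.trans (hq ▸ Dvd.intro_left R rfl)) c1]; exact ht0L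
    · intro l hl
      rw [← filter_left hqp hbp hi hL hR Ms1 hMb hl, e0]
      exact (hB4 l (by omega)).2
    · refine ⟨⟨n % q - t0, hlt⟩, ?_⟩
      rw [per kL N1 hqL (hN1M.trans (hb ▸ Dvd.intro_left R rfl)) c3]; exact heL
    · apply ht0R
      have h2 : t ≡ t0 [MOD N0] := by
        have h3 : t ≡ t0 [MOD q] := by
          rw [← c1]; exact (Nat.mod_modEq t q).symm
        exact h3.of_dvd (hN0M.trans (hq ▸ Dvd.intro_left R rfl))
      have h4 : t0 + t' ≡ t + t' [MOD N0] := Nat.ModEq.add_right _ h2.symm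
      rwa [e0] at h4
    · intro l hl hlm
      rw [← filter_right hqp hbp hi hL hR Ms1 hMb hl hlm, e0]
      exact (hB4 l hlm).2
    · refine ⟨⟨n % q - t0, hlt⟩, c2.symm, ?_⟩
      apply heR
      have h2 : t / P q b (lv g) ≡ e [MOD N1] := by
        have h3 : t / P q b (lv g) ≡ e [MOD b] := by
          rw [← c3]; exact (Nat.mod_modEq _ b).symm
        exact h3.of_dvd (hN1M.trans (hb ▸ Dvd.intro_left R rfl))
      have h4 : e + t' / P q b (lv g) ≡ t / P q b (lv g) + t' / P q b (lv g) [MOD N1] :=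
        Nat.ModEq.add_right _ h2.symm
      rwa [← c4 _ hi.le] at h4
    · have h1 : 3 * m + 4 ≤ t' / P q b m := by rw [c5]; omega
      have h2 := Nat.div_mul_le_self t' (P q b m)
      calc P q b m * (3 * m + 4) ≤ P q b m * (t' / P q b m) := Nat.mul_le_mul_left _ h1
        _ = t' / P q b m * P q b m := by ring
        _ ≤ t' := h2
  · -- periodicity
    intro n
    rw [hPP]
    have hA : (∀ k ∈ Ms, ¬ k ∣ n + P q b m) ↔ ∀ k ∈ Ms, ¬ k ∣ n := by
      refine forall₂_congr fun k hk => ?_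
      rw [Nat.dvd_add_left ((hMq k hk).trans q_dvd)]
    have hB : ∀ l < m, (Ms1.filter (· ∣ (n + P q b m) / P q b l)) =
        Ms1.filter (· ∣ n / P q b l) := by
      intro l hl
      apply Finset.filter_congr
      intro k hk
      obtain ⟨d, rfl⟩ := Nat.exists_eq_add_of_lt hl
      have e1 : P q b (l + d + 1) = P q b l * (b * b ^ d) := by
        simp only [P, pow_add, pow_one]; ring
      rw [e1, Nat.add_mul_div_left _ _ (P_pos hqp hbp)]
      exact Nat.dvd_add_left ((hMb k hk).trans (Dvd.intro _ rfl))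
    constructor
    · rintro ⟨h1, h2⟩
      exact ⟨hA.1 h1, fun l hl => by rw [← hB l hl]; exact h2 l hl⟩
    · rintro ⟨h1, h2⟩
      exact ⟨hA.2 h1, fun l hl => by rw [hB l hl]; exact h2 l hl⟩

end Crest.Agent.R320.Clk_578
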