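import Crest.Agent.R320.LN_133
import Crest.Agent.R320.Names_755

/-! Row 320, leaf U2 (`clocks` of helper638): the clocks of the unit gadget, by a mixed radix
system without carries (star digit to base `R * M0`, level digits to base `R * M1`). -/

set_option autoImplicit false

namespace Crest.Agent.R320.Clk_594

def PP (R M0 M1 l : ℕ) : ℕ := (R * M0) * (R * M1) ^ l

def beta (R M0 M1 m n l : ℕ) : ℕ := PP R M0 M1 m * (3 * l + 2) + n % PP R M0 M1 l

def Bad (R M0 M1 m ρ : ℕ) (Ms Ms1 : Finset ℕ) (n : ℕ) : Prop :=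
  (n % (R * M0) < M0 ∨ R * M0 ≤ n % (R * M0) + M0) ∨ (∃ k ∈ Ms, k ∣ n) ∨
  ∃ l < m, ((n / PP R M0 M1 l) % (R * M1) < M1 ∨
      R * M1 ≤ (n / PP R M0 M1 l) % (R * M1) + M1) ∨
    ρ ≤ (Ms1.filter (· ∣ n / PP R M0 M1 l)).card

/-! ### arithmetic of the mixed radix system -/

section arith
variable {A B : ℕ}

theorem P_pos (hA : 0 < A) (hB : 0 < B) (l : ℕ) : 0 < A * B ^ l := by positivity

theorem P_succ (l : ℕ) : A * B ^ (l + 1) = (A * B ^ l) * B := by rw [pow_succ, mul_assoc]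

theorem P_dvd {l j : ℕ} (h : l ≤ j) : A * B ^ l ∣ A * B ^ j :=
  Nat.mul_dvd_mul_left A (pow_dvd_pow B h)

theorem P_le (hA : 0 < A) (hB : 0 < B) {l j : ℕ} (h : l ≤ j) : A * B ^ l ≤ A * B ^ j :=
  Nat.le_of_dvd (P_pos hA hB j) (P_dvd h)

theorem A_le (hB : 0 < B) (l : ℕ) : A ≤ A * B ^ l :=
  Nat.le_mul_of_pos_right A (by positivity)

structure LC (A B m M0 M1 i t : ℕ) : Prop where
  a : t % A < M0
  b : t % (A * B ^ m) < A * B ^ (i + 1)
  c : (t / (A * B ^ i)) % B < M1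

structure RC (A B M0 M1 i t : ℕ) : Prop where
  a : t % A + M0 ≤ A
  b : t % (A * B ^ i) = t % A
  c : (t / (A * B ^ i)) % B + M1 ≤ B

theorem R_low (hA : 0 < A) (hB : 0 < B) {M0 M1 i t' l : ℕ} (hR : RC A B M0 M1 i t')
    (hl : l ≤ i) : t' % (A * B ^ l) = t' % A := by
  rw [← Nat.mod_mod_of_dvd t' (P_dvd hl), hR.b]
  exact Nat.mod_eq_of_lt (lt_of_lt_of_le (Nat.mod_lt _ hA) (A_le hB l))

theorem L_high (hA : 0 < A) (hB : 0 < B) {m M0 M1 i t l : ℕ} (hL : LC A B m M0 M1 i t)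
    (hl : i < l) (hm : l ≤ m) : t % (A * B ^ l) = t % (A * B ^ m) := by
  rw [← Nat.mod_mod_of_dvd t (P_dvd hm)]
  exact Nat.mod_eq_of_lt (lt_of_lt_of_le hL.b (P_le hA hB hl))

theorem s1 (hA : 0 < A) (hB : 0 < B) {m M0 M1 i t t' l : ℕ} (hL : LC A B m M0 M1 i t)
    (hR : RC A B M0 M1 i t') (hl : l ≤ i) :
    t % (A * B ^ l) + t' % (A * B ^ l) < A * B ^ l := by
  rw [R_low hA hB hR hl, Nat.mod_mul]
  have h1 := hL.a
  have h2 := hR.a
  have h3 : t / A % B ^ l + 1 ≤ B ^ l := Nat.mod_lt _ (by positivity)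
  have h4 := Nat.mul_le_mul_left A h3
  rw [Nat.mul_add, Nat.mul_one] at h4
  omega

theorem s3 (hA : 0 < A) (hB : 0 < B) {m M0 M1 i t t' l : ℕ} (hL : LC A B m M0 M1 i t)
    (hR : RC A B M0 M1 i t') (hl : i < l) (hm : l ≤ m) :
    t % (A * B ^ l) + t' % (A * B ^ l) < A * B ^ l := by
  have h0 := s1 hA hB hL hR le_rfl
  -- level i + 1
  have h1 : t % (A * B ^ (i + 1)) + t' % (A * B ^ (i + 1)) < A * B ^ (i + 1) := by
    rw [P_succ, Nat.mod_mul, Nat.mod_mul (x := t')]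
    have h2 : (t / (A * B ^ i)) % B + (t' / (A * B ^ i)) % B + 1 ≤ B := by
      have := hL.c
      have := hR.c
      omega
    have h3 := Nat.mul_le_mul_left (A * B ^ i) h2
    rw [Nat.mul_add, Nat.mul_add, Nat.mul_one] at h3
    omega
  rw [L_high hA hB hL hl hm]
  rw [L_high hA hB hL (Nat.lt_succ_self i) (le_trans hl hm)] at h1
  obtain ⟨j, rfl⟩ := Nat.exists_eq_add_of_le (show i + 1 ≤ l from hl)
  have e : A * B ^ (i + 1 + j) = (A * B ^ (i + 1)) * B ^ j := by rw [pow_add, mul_assoc]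
  rw [e, Nat.mod_mul (x := t')]
  have h3 : t' / (A * B ^ (i + 1)) % B ^ j + 1 ≤ B ^ j := Nat.mod_lt _ (by positivity)
  have h4 := Nat.mul_le_mul_left (A * B ^ (i + 1)) h3
  rw [Nat.mul_add, Nat.mul_one] at h4
  omega

theorem snc (hA : 0 < A) (hB : 0 < B) {m M0 M1 i t t' l : ℕ} (hL : LC A B m M0 M1 i t)
    (hR : RC A B M0 M1 i t') (hm : l ≤ m) :
    t % (A * B ^ l) + t' % (A * B ^ l) < A * B ^ l := by
  rcases Nat.lt_or_ge i l with h | h
  · exact s3 hA hB hL hR h hm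
  · exact s1 hA hB hL hR h

theorem div_add (hA : 0 < A) (hB : 0 < B) {m M0 M1 i t t' l : ℕ} (hL : LC A B m M0 M1 i t)
    (hR : RC A B M0 M1 i t') (hm : l ≤ m) :
    (t + t') / (A * B ^ l) = t / (A * B ^ l) + t' / (A * B ^ l) := by
  have := snc hA hB hL hR hm
  rw [Nat.add_div (P_pos hA hB l), if_neg (by omega)]
  omega

theorem mod_add (hA : 0 < A) (hB : 0 < B) {m M0 M1 i t t' l : ℕ} (hL : LC A B m M0 M1 i t)
    (hR : RC A B M0 M1 i t') (hm : l ≤ m) :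
    (t + t') % (A * B ^ l) = t % (A * B ^ l) + t' % (A * B ^ l) := by
  have := snc hA hB hL hR hm
  rw [Nat.add_mod, Nat.mod_eq_of_lt this]

theorem s2 (hA : 0 < A) (hB : 0 < B) {M0 M1 i t' l : ℕ} (hR : RC A B M0 M1 i t')
    (hl : l < i) : B ∣ t' / (A * B ^ l) := by
  have h1 := R_low hA hB hR hl.le
  have h2 := R_low hA hB hR (show l + 1 ≤ i from hl)
  rw [P_succ, Nat.mod_mul, h1] at h2
  have h3 : A * B ^ l * (t' / (A * B ^ l) % B) = 0 := by omega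
  rcases Nat.mul_eq_zero.1 h3 with h | h
  · have := P_pos hA hB l
    omega
  · exact Nat.dvd_of_mod_eq_zero h

theorem s4 (hA : 0 < A) (hB : 0 < B) {m M0 M1 i t l : ℕ} (hL : LC A B m M0 M1 i t)
    (hl : i < l) (hm : l < m) : B ∣ t / (A * B ^ l) := by
  have h1 := L_high hA hB hL hl hm.le
  have h2 := L_high hA hB hL (show i < l + 1 by omega) (show l + 1 ≤ m from hm)
  rw [P_succ, Nat.mod_mul, h1] at h2
  have h3 : A * B ^ l * (t / (A * B ^ l) % B) = 0 := by omega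
  rcases Nat.mul_eq_zero.1 h3 with h | h
  · have := P_pos hA hB l
    omega
  · exact Nat.dvd_of_mod_eq_zero h

theorem D1 (hA : 0 < A) (hB : 0 < B) {m M0 M1 i t t' l k : ℕ} (hL : LC A B m M0 M1 i t)
    (hR : RC A B M0 M1 i t') (hi : i < m) (hl : l < i) (hk : k ∣ B) :
    k ∣ (t + t') / (A * B ^ l) ↔ k ∣ t / (A * B ^ l) := by
  rw [div_add hA hB hL hR (by omega : l ≤ m)]
  exact Nat.dvd_add_left (hk.trans (s2 hA hB hR hl))

theorem D3 (hA : 0 < A) (hB : 0 < B) {m M0 M1 i t t' l k : ℕ} (hL : LC A B m M0 M1 i t)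
    (hR : RC A B M0 M1 i t') (hl : i < l) (hm : l < m) (hk : k ∣ B) :
    k ∣ (t + t') / (A * B ^ l) ↔ k ∣ t' / (A * B ^ l) := by
  rw [div_add hA hB hL hR hm.le]
  exact Nat.dvd_add_right (hk.trans (s4 hA hB hL hl hm))

theorem D2' (hA : 0 < A) (hB : 0 < B) {m M0 M1 i t t' : ℕ} (hL : LC A B m M0 M1 i t)
    (hR : RC A B M0 M1 i t') (hi : i < m) :
    ((t + t') / (A * B ^ i)) % B = (t / (A * B ^ i)) % B + (t' / (A * B ^ i)) % B := by
  rw [div_add hA hB hL hR hi.le, Nat.add_mod]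
  apply Nat.mod_eq_of_lt
  have := hL.c
  have := hR.c
  omega

theorem D2 (hA : 0 < A) (hB : 0 < B) {m M0 M1 i t t' k : ℕ} (hL : LC A B m M0 M1 i t)
    (hR : RC A B M0 M1 i t') (hi : i < m) (hk : k ∣ B) :
    k ∣ (t + t') / (A * B ^ i) ↔ k ∣ (t / (A * B ^ i)) % B + (t' / (A * B ^ i)) % B := by
  rw [← D2' hA hB hL hR hi]
  exact (Nat.dvd_mod_iff hk).symm

end arith

theorem card_congr' {Ms : Finset ℕ} {x y B : ℕ} (hB : ∀ k ∈ Ms, k ∣ B)
    (h : ∀ k, k ∣ B → (k ∣ x ↔ k ∣ y)) :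
    (Ms.filter (· ∣ x)).card = (Ms.filter (· ∣ y)).card := by
  congr 1
  apply Finset.filter_congr
  intro k hk
  exact h k (hB k hk)

theorem clocks (m : ℕ) (Γ C : Type) [Finite Γ] [Finite C] (lv : Γ → ℕ) (hlv : ∀ g, lv g < m)
    (col : Γ → C) :
    ∃ r : ℕ, ∀ B R : ℕ, 3 ≤ R → ∃ (Ms Ms1 : Finset ℕ) (ρ M0 M1 : ℕ),
      Ms.card ≤ r ∧ Ms1.card ≤ 32 * ρ ∧ 0 < ρ ∧
      (∀ k ∈ Ms, B < k ∧ Nat.Prime k ∧ k ∣ M0) ∧
      (∀ k ∈ Ms1, B < k ∧ Nat.Prime k ∧ k ∣ M1) ∧ 0 < M0 ∧ 0 < M1 ∧ B < M0 ∧ B < M1 ∧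
      ∃ (nmL nmR : ℕ → Option Γ) (bL bR : ℕ → ℕ → ℕ) (Gd : ℕ → Prop),
        (∀ t g, nmL t = some g → t < PP R M0 M1 m * (3 * m + 4)) ∧
        (∀ t g, nmR t = some g → PP R M0 M1 m * (3 * m + 4) ≤ t) ∧
        (∀ t t' g g', Gd (t + t') → nmL t = some g → nmR t' = some g' →
          g = g' ∧ (∀ l ≤ lv g, bL t l = beta R M0 M1 m (t + t') l) ∧
          (∀ l, lv g < l → l ≤ m → bR t' l + beta R M0 M1 m (t + t') l = t + t') ∧
          beta R M0 M1 m (t + t') (lv g) ≤ t ∧ t ≤ beta R M0 M1 m (t + t') (lv g + 1)) ∧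
        (∀ t₁ t₁' t₂ t₂' g₁ g₁' g₂ g₂', ¬ Gd (t₁ + t₁') → t₁ + t₁' = t₂ + t₂' →
          nmL t₁ = some g₁ → nmR t₁' = some g₁' → nmL t₂ = some g₂ → nmR t₂' = some g₂' →
          col g₁ = col g₂ ∧ col g₁' = col g₂') ∧
        (∀ n, 2 * (PP R M0 M1 m * (3 * m + 4)) ≤ n → ¬ Bad R M0 M1 m ρ Ms Ms1 n →
          Gd n ∧ ∀ g, ∃ t t', t + t' = n ∧ nmL t = some g ∧ nmR t' = some g) ∧
        (∀ n, Gd (n + PP R M0 M1 m) ↔ Gd n) ∧
        (∀ t', PP R M0 M1 m * (3 * m + 4) ≤ t' → nmR (t' + PP R M0 M1 m) = nmR t') ∧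
        (∀ t' g l, nmR t' = some g → lv g < l → l ≤ m →
          bR (t' + PP R M0 M1 m) l = bR t' l + PP R M0 M1 m) := by
  classical
  obtain ⟨r, hr⟩ := Crest.Agent.R320.Names755.names Γ C col
  refine ⟨r, fun B R hR3 => ?_⟩
  obtain ⟨Ms, M, nL, nR, hcard, hMs, hM, hnLp, hnRp, hsame, hcomp, hcolr⟩ := hr B
  obtain ⟨ρ, hρ, hln⟩ := Crest.Agent.R320.LN_133.level_names (Γ × Fin (R * (M * (B + 1))))
  obtain ⟨Ms1, M', nL1, nR1, hcard1, hMs1, hM', hL1p, hR1p, hlt, hge, hpair, hcomp1⟩ := hln B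
  have hM0 : 0 < M * (B + 1) := by positivity
  have hM1 : 0 < M' * (B + 1) := by positivity
  have hRpos : 0 < R := by omega
  generalize hM0e : M * (B + 1) = M0 at *
  generalize hM1e : M' * (B + 1) = M1 at *
  have hMM0 : M ≤ M0 := by rw [← hM0e]; exact Nat.le_mul_of_pos_right _ (by omega)
  have hMM1 : M' ≤ M1 := by rw [← hM1e]; exact Nat.le_mul_of_pos_right _ (by omega)
  have hdM0 : M ∣ M0 := by rw [← hM0e]; exact Nat.dvd_mul_right _ _
  have hdM1 : M' ∣ M1 := by rw [← hM1e]; exact Nat.dvd_mul_right _ _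
  have hBM0 : B < M0 := by
    have : 1 * (B + 1) ≤ M * (B + 1) := Nat.mul_le_mul_right _ hM
    omega
  have hBM1 : B < M1 := by
    have : 1 * (B + 1) ≤ M' * (B + 1) := Nat.mul_le_mul_right _ hM'
    omega
  -- the bases
  obtain ⟨A, hAe⟩ : ∃ A, A = R * M0 := ⟨_, rfl⟩
  obtain ⟨Bb, hBe⟩ : ∃ Bb, Bb = R * M1 := ⟨_, rfl⟩
  have hA : 0 < A := by rw [hAe]; positivity
  have hBb : 0 < Bb := by rw [hBe]; positivity
  have hMA : M ∣ A := by rw [hAe]; exact hdM0.trans (Nat.dvd_mul_left _ _)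
  have hMB : M' ∣ Bb := by rw [hBe]; exact hdM1.trans (Nat.dvd_mul_left _ _)
  have hM0A : 3 * M0 ≤ A := by rw [hAe]; exact Nat.mul_le_mul_right _ hR3
  have hM1B : 3 * M1 ≤ Bb := by rw [hBe]; exact Nat.mul_le_mul_right _ hR3
  have hPP : ∀ l, PP R M0 M1 l = A * Bb ^ l := fun l => by rw [PP, hAe, hBe]
  have hkA : ∀ k ∈ Ms, k ∣ A := fun k hk => (hMs k hk).2.2.trans hMA
  have hkB : ∀ k ∈ Ms1, k ∣ Bb := fun k hk => (hMs1 k hk).2.2.trans hMB
  -- periodicity of the names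
  have perL : ∀ x y, x ≡ y [MOD M] → nL x = nL y := by
    have h0 : ∀ x j, nL (x + M * j) = nL x := by
      intro x j
      induction j with
      | zero => simp
      | succ j ih => rw [Nat.mul_succ, ← add_assoc, hnLp, ih]
    intro x y h
    rw [← Nat.mod_add_div x M, ← Nat.mod_add_div y M, h0, h0]
    rw [show x % M = y % M from h]
  have perR : ∀ x y, x ≡ y [MOD M] → nR x = nR y := by
    have h0 : ∀ x j, nR (x + M * j) = nR x := by
      intro x j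
      induction j with
      | zero => simp
      | succ j ih => rw [Nat.mul_succ, ← add_assoc, hnRp, ih]
    intro x y h
    rw [← Nat.mod_add_div x M, ← Nat.mod_add_div y M, h0, h0]
    rw [show x % M = y % M from h]
  -- legality
  let LL : ℕ → Γ → ℕ → Prop := fun t g s =>
    nL t = some g ∧ t / (A * Bb ^ m) = 3 * lv g + 3 ∧ LC A Bb m M0 M1 (lv g) t ∧
    (∀ l < lv g, (Ms1.filter (· ∣ t / (A * Bb ^ l))).card < ρ) ∧
    ∃ σ : Fin (R * M0), σ.1 = s ∧ nL1 ((t / (A * Bb ^ (lv g))) % Bb) = some (g, σ)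
  let RR : ℕ → Γ → Prop := fun t g =>
    nR t = some g ∧ RC A Bb M0 M1 (lv g) t ∧
    (∃ σ : Fin (R * M0), σ.1 = t % A ∧ nR1 ((t / (A * Bb ^ (lv g))) % Bb) = some (g, σ)) ∧
    (∀ l, lv g < l → l < m → (Ms1.filter (· ∣ t / (A * Bb ^ l))).card < ρ) ∧
    A * Bb ^ m * (3 * m + 4) ≤ t
  let Gd : ℕ → Prop := fun n => (∀ k ∈ Ms, ¬ k ∣ n) ∧
    ∀ l < m, (Ms1.filter (· ∣ n / (A * Bb ^ l))).card < 2 * ρ
  let nmL : ℕ → Option Γ := fun t => if h : ∃ g, ∃ s, LL t g s then some h.choose else none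
  let nmR : ℕ → Option Γ := fun t => if h : ∃ g, RR t g then some h.choose else none
  let bL : ℕ → ℕ → ℕ := fun t l => if h : ∃ gs : Γ × ℕ, LL t gs.1 gs.2 then
    A * Bb ^ m * (3 * l + 2) + (t + h.choose.2) % (A * Bb ^ l) else 0
  let bR : ℕ → ℕ → ℕ := fun t l => if h : ∃ g, RR t g then
    A * Bb ^ m * (3 * lv h.choose + 3) + (t - t % (A * Bb ^ l)) - A * Bb ^ m * (3 * l + 2) else 0
  have hLLu : ∀ {t g s g' s'}, LL t g s → LL t g' s' → g = g' ∧ s = s' := by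
    rintro t g s g' s' ⟨h1, -, -, -, σ, hσ, h2⟩ ⟨h1', -, -, -, σ', hσ', h2'⟩
    have hg : g = g' := Option.some.inj (h1.symm.trans h1')
    subst hg
    have := Option.some.inj (h2.symm.trans h2')
    have h3 : σ = σ' := (Prod.mk.inj this).2
    exact ⟨rfl, by rw [← hσ, ← hσ', h3]⟩
  have hRRu : ∀ {t g g'}, RR t g → RR t g' → g = g' := by
    rintro t g g' ⟨h1, -⟩ ⟨h1', -⟩
    exact Option.some.inj (h1.symm.trans h1')
  have nmL_spec : ∀ {t g}, nmL t = some g → ∃ s, LL t g s := by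
    intro t g h
    by_cases hc : ∃ g, ∃ s, LL t g s
    · have h1 : nmL t = some hc.choose := dif_pos hc
      rw [h1] at h
      rw [← Option.some.inj h]
      exact hc.choose_spec
    · have h1 : nmL t = none := dif_neg hc
      rw [h1] at h
      cases h
  have nmR_spec : ∀ {t g}, nmR t = some g → RR t g := by
    intro t g h
    by_cases hc : ∃ g, RR t g
    · have h1 : nmR t = some hc.choose := dif_pos hc
      rw [h1] at h
      rw [← Option.some.inj h]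
      exact hc.choose_spec
    · have h1 : nmR t = none := dif_neg hc
      rw [h1] at h
      cases h
  have nmL_of : ∀ {t g s}, LL t g s → nmL t = some g := by
    intro t g s h
    have hc : ∃ g, ∃ s, LL t g s := ⟨g, s, h⟩
    have h1 : nmL t = some hc.choose := dif_pos hc
    obtain ⟨s', h2⟩ := hc.choose_spec
    rw [h1, (hLLu h2 h).1]
  have nmR_of : ∀ {t g}, RR t g → nmR t = some g := by
    intro t g h
    have hc : ∃ g, RR t g := ⟨g, h⟩
    have h1 : nmR t = some hc.choose := dif_pos hc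
    rw [h1, hRRu hc.choose_spec h]
  have bL_of : ∀ {t g s}, LL t g s → ∀ l, bL t l =
      A * Bb ^ m * (3 * l + 2) + (t + s) % (A * Bb ^ l) := by
    intro t g s h l
    have hc : ∃ gs : Γ × ℕ, LL t gs.1 gs.2 := ⟨(g, s), h⟩
    have h1 : bL t l = A * Bb ^ m * (3 * l + 2) + (t + hc.choose.2) % (A * Bb ^ l) := dif_pos hc
    rw [h1, (hLLu hc.choose_spec h).2]
  have bR_of : ∀ {t g}, RR t g → ∀ l, bR t l =
      A * Bb ^ m * (3 * lv g + 3) + (t - t % (A * Bb ^ l)) - A * Bb ^ m * (3 * l + 2) := by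
    intro t g h l
    have hc : ∃ g, RR t g := ⟨g, h⟩
    have h1 : bR t l = A * Bb ^ m * (3 * lv hc.choose + 3) + (t - t % (A * Bb ^ l)) -
      A * Bb ^ m * (3 * l + 2) := dif_pos hc
    rw [h1, hRRu hc.choose_spec h]
  have hPm : 0 < A * Bb ^ m := P_pos hA hBb m
  -- the levels
  have cnt1 : ∀ {t t' g}, LC A Bb m M0 M1 (lv g) t → RC A Bb M0 M1 (lv g) t' → ∀ l < lv g,
      (Ms1.filter (· ∣ (t + t') / (A * Bb ^ l))).card =
      (Ms1.filter (· ∣ t / (A * Bb ^ l))).card := by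
    intro t t' g hL hR l hl
    exact card_congr' hkB fun k hk => D1 hA hBb hL hR (hlv g) hl hk
  have cnt3 : ∀ {t t' g}, LC A Bb m M0 M1 (lv g) t → RC A Bb M0 M1 (lv g) t' →
      ∀ l, lv g < l → l < m →
      (Ms1.filter (· ∣ (t + t') / (A * Bb ^ l))).card =
      (Ms1.filter (· ∣ t' / (A * Bb ^ l))).card := by
    intro t t' g hL hR l hl hm
    exact card_congr' hkB fun k hk => D3 hA hBb hL hR hl hm hk
  have cnt2 : ∀ {t t' g}, LC A Bb m M0 M1 (lv g) t → RC A Bb M0 M1 (lv g) t' →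
      (Ms1.filter (· ∣ (t + t') / (A * Bb ^ (lv g)))).card =
      (Ms1.filter (· ∣ (t / (A * Bb ^ (lv g))) % Bb + (t' / (A * Bb ^ (lv g))) % Bb)).card := by
    intro t t' g hL hR
    exact card_congr' hkB fun k hk => D2 hA hBb hL hR (hlv g) hk
  -- shifts by the period
  have shift_mod : ∀ n l, l ≤ m → (n + A * Bb ^ m) % (A * Bb ^ l) = n % (A * Bb ^ l) := by
    intro n l hl
    obtain ⟨c, hc⟩ := P_dvd (A := A) (B := Bb) hl
    rw [hc, Nat.add_mul_mod_self_left]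
  have shift_div : ∀ n l, l ≤ m → (n + A * Bb ^ m) / (A * Bb ^ l) =
      n / (A * Bb ^ l) + Bb ^ (m - l) := by
    intro n l hl
    have h1 : A * Bb ^ m = (A * Bb ^ l) * Bb ^ (m - l) := by
      rw [mul_assoc, ← pow_add, Nat.add_sub_cancel' hl]
    rw [h1, Nat.add_mul_div_left _ _ (P_pos hA hBb l)]
  have hBpow : ∀ l < m, Bb ∣ Bb ^ (m - l) := fun l hl => dvd_pow_self _ (by omega)
  have shift_dvd : ∀ n l, l < m → ∀ k, k ∣ Bb →
      (k ∣ (n + A * Bb ^ m) / (A * Bb ^ l) ↔ k ∣ n / (A * Bb ^ l)) := by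
    intro n l hl k hk
    rw [shift_div n l hl.le]
    exact Nat.dvd_add_left (hk.trans (hBpow l hl))
  have shift_dig : ∀ n l, l < m → ((n + A * Bb ^ m) / (A * Bb ^ l)) % Bb =
      (n / (A * Bb ^ l)) % Bb := by
    intro n l hl
    obtain ⟨c, hc⟩ := hBpow l hl
    rw [shift_div n l hl.le, hc, Nat.add_mul_mod_self_left]
  have shiftR : ∀ t g, A * Bb ^ m * (3 * m + 4) ≤ t → (RR (t + A * Bb ^ m) g ↔ RR t g) := by
    intro t g ht
    have e0 : (t + A * Bb ^ m) % A = t % A := by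
      have := shift_mod t 0 (Nat.zero_le _)
      simpa using this
    have e1 : (t + A * Bb ^ m) % (A * Bb ^ lv g) = t % (A * Bb ^ lv g) :=
      shift_mod t _ (hlv g).le
    have e2 := shift_dig t _ (hlv g)
    have e3 : nR (t + A * Bb ^ m) = nR t := perR _ _ (by
      refine Nat.ModEq.of_dvd hMA ?_
      exact e0)
    have e4 : RC A Bb M0 M1 (lv g) (t + A * Bb ^ m) ↔ RC A Bb M0 M1 (lv g) t := by
      constructor
      · rintro ⟨a, b, c⟩
        rw [e0] at a b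
        rw [e1] at b
        rw [e2] at c
        exact ⟨a, b, c⟩
      · rintro ⟨a, b, c⟩
        refine ⟨?_, ?_, ?_⟩
        · rw [e0]; exact a
        · rw [e0, e1]; exact b
        · rw [e2]; exact c
    have e5 : ∀ l < m, (Ms1.filter (· ∣ (t + A * Bb ^ m) / (A * Bb ^ l))).card =
        (Ms1.filter (· ∣ t / (A * Bb ^ l))).card := fun l hl =>
      card_congr' hkB fun k hk => shift_dvd t l hl k hk
    show (nR (t + A * Bb ^ m) = some g ∧ RC A Bb M0 M1 (lv g) (t + A * Bb ^ m) ∧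
      (∃ σ : Fin (R * M0), σ.1 = (t + A * Bb ^ m) % A ∧
        nR1 (((t + A * Bb ^ m) / (A * Bb ^ (lv g))) % Bb) = some (g, σ)) ∧
      (∀ l, lv g < l → l < m →
        (Ms1.filter (· ∣ (t + A * Bb ^ m) / (A * Bb ^ l))).card < ρ) ∧
      A * Bb ^ m * (3 * m + 4) ≤ t + A * Bb ^ m) ↔
      (nR t = some g ∧ RC A Bb M0 M1 (lv g) t ∧
      (∃ σ : Fin (R * M0), σ.1 = t % A ∧ nR1 ((t / (A * Bb ^ (lv g))) % Bb) = some (g, σ)) ∧
      (∀ l, lv g < l → l < m → (Ms1.filter (· ∣ t / (A * Bb ^ l))).card < ρ) ∧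
      A * Bb ^ m * (3 * m + 4) ≤ t)
    rw [e3, e4, e0, e2]
    constructor
    · rintro ⟨a, b, c, d, _⟩
      exact ⟨a, b, c, fun l hl hm => by rw [← e5 l hm]; exact d l hl hm, ht⟩
    · rintro ⟨a, b, c, d, _⟩
      exact ⟨a, b, c, fun l hl hm => by rw [e5 l hm]; exact d l hl hm, by omega⟩
  refine ⟨Ms, Ms1, ρ, M0, M1, hcard, hcard1, hρ,
    fun k hk => ⟨(hMs k hk).1, (hMs k hk).2.1, (hMs k hk).2.2.trans hdM0⟩,
    fun k hk => ⟨(hMs1 k hk).1, (hMs1 k hk).2.1, (hMs1 k hk).2.2.trans hdM1⟩,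
    hM0, hM1, hBM0, hBM1, nmL, nmR, bL, bR, Gd, ?_, ?_, ?_, ?_, ?_, ?_, ?_, ?_⟩
  · -- (i)
    intro t g h
    obtain ⟨s, h1, h2, -⟩ := nmL_spec h
    rw [hPP]
    have h3 : t < (A * Bb ^ m) * (3 * lv g + 3 + 1) := by
      rw [← h2]; exact Nat.lt_mul_div_succ t hPm
    refine lt_of_lt_of_le h3 (Nat.mul_le_mul_left _ ?_)
    have := hlv g
    omega
  · -- (ii)
    intro t g h
    rw [hPP]
    exact (nmR_spec h).2.2.2.2
  · -- (iii)
    intro t t' g g' hG hL hR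
    obtain ⟨s, hLL⟩ := nmL_spec hL
    have hRR := nmR_spec hR
    obtain ⟨l1, l2, l3, l4, σ, hσ, l5⟩ := id hLL
    obtain ⟨r1, r2, ⟨σ', hσ', r3⟩, r4, r5⟩ := id hRR
    have hg : g = g' := hsame _ _ _ _ l1 r1 hG.1
    subst hg
    have hs : s = t' % A := by
      by_contra hne
      have hne' : (g, σ) ≠ (g, σ') := by
        intro h
        have := (Prod.mk.inj h).2
        exact hne (by rw [← hσ, ← hσ', this])
      have h1 := hge _ _ _ _ l5 r3 hne'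
      rw [← cnt2 l3 r2] at h1
      exact absurd (hG.2 _ (hlv g)) (by omega)
    refine ⟨rfl, ?_, ?_, ?_, ?_⟩
    · intro l hl
      rw [bL_of hLL l, beta, hPP, hPP, hs]
      congr 1
      rw [Nat.add_mod t t', R_low hA hBb r2 hl, Nat.add_mod t (t' % A),
        Nat.mod_eq_of_lt (lt_of_lt_of_le (Nat.mod_lt _ hA) (A_le hBb l))]
    · intro l hl hm
      rw [bR_of hRR l, beta, hPP, hPP, mod_add hA hBb l3 r2 hm, L_high hA hBb l3 hl hm]
      have e1 : t = A * Bb ^ m * (3 * lv g + 3) + t % (A * Bb ^ m) := by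
        rw [← l2]; exact (Nat.div_add_mod t _).symm
      have h2 : t' % (A * Bb ^ l) ≤ t' := Nat.mod_le _ _
      have h3 : t' % (A * Bb ^ l) < A * Bb ^ m :=
        lt_of_lt_of_le (Nat.mod_lt _ (P_pos hA hBb l)) (P_le hA hBb hm)
      have h4 : A * Bb ^ m * (3 * l + 2) + A * Bb ^ m ≤ A * Bb ^ m * (3 * m + 4) := by
        rw [← Nat.mul_succ]
        exact Nat.mul_le_mul_left _ (by omega)
      omega
    · rw [beta, hPP, hPP]
      have h1 : (t + t') % (A * Bb ^ lv g) < A * Bb ^ m :=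
        lt_of_lt_of_le (Nat.mod_lt _ (P_pos hA hBb _)) (P_le hA hBb (hlv g).le)
      have h2 : A * Bb ^ m * (3 * lv g + 3) ≤ t := by
        rw [← l2]; exact Nat.mul_div_le t _
      have h3 : A * Bb ^ m * (3 * lv g + 3) = A * Bb ^ m * (3 * lv g + 2) + A * Bb ^ m := by ring
      omega
    · rw [beta, hPP, hPP]
      have h2 : t < A * Bb ^ m * (3 * lv g + 3 + 1) := by
        rw [← l2]; exact Nat.lt_mul_div_succ t hPm
      have h3 : A * Bb ^ m * (3 * lv g + 3 + 1) ≤ A * Bb ^ m * (3 * (lv g + 1) + 2) :=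
        Nat.mul_le_mul_left _ (by omega)
      omega
  · -- (iv)
    intro t₁ t₁' t₂ t₂' g₁ g₁' g₂ g₂' hG hsum hL1' hR1' hL2' hR2'
    obtain ⟨s₁, hLL1⟩ := nmL_spec hL1'
    obtain ⟨s₂, hLL2⟩ := nmL_spec hL2'
    have hRR1 := nmR_spec hR1'
    have hRR2 := nmR_spec hR2'
    obtain ⟨a1, a2, a3, a4, σ, hσ, a5⟩ := hLL1
    obtain ⟨b1, b2, ⟨τ, hτ, b3⟩, b4, b5⟩ := hRR1
    obtain ⟨c1, c2, c3, c4, σ', hσ', c5⟩ := hLL2
    obtain ⟨d1, d2, ⟨τ', hτ', d3⟩, d4, d5⟩ := hRR2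
    by_cases hst : ∃ k ∈ Ms, k ∣ t₁ + t₁'
    · exact hcolr _ _ _ _ _ _ _ _ a1 b1 c1 d1 hsum hst
    · have hst' : ∀ k ∈ Ms, ¬ k ∣ t₁ + t₁' := fun k hk h => hst ⟨k, hk, h⟩
      have e1 : g₁ = g₁' := hsame _ _ _ _ a1 b1 hst'
      have e2 : g₂ = g₂' := hsame _ _ _ _ c1 d1 (by rw [← hsum]; exact hst')
      subst e1 e2
      have hl : ∃ l < m, 2 * ρ ≤ (Ms1.filter (· ∣ (t₁ + t₁') / (A * Bb ^ l))).card := by
        by_contra hcon
        push Not at hcon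
        exact hG ⟨hst', hcon⟩
      obtain ⟨l, hlm, hl⟩ := hl
      have f1 : l = lv g₁ := by
        rcases Nat.lt_trichotomy l (lv g₁) with h | h | h
        · rw [cnt1 a3 b2 l h] at hl
          have := a4 l h
          omega
        · exact h
        · rw [cnt3 a3 b2 l h hlm] at hl
          have := b4 l h hlm
          omega
      have f2 : l = lv g₂ := by
        rw [hsum] at hl
        rcases Nat.lt_trichotomy l (lv g₂) with h | h | h
        · rw [cnt1 c3 d2 l h] at hl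
          have := c4 l h
          omega
        · exact h
        · rw [cnt3 c3 d2 l h hlm] at hl
          have := d4 l h hlm
          omega
      have n1 : (g₁, σ) ≠ (g₁, τ) := by
        intro h
        rw [h] at a5
        have := hlt _ _ _ a5 b3
        rw [← cnt2 a3 b2, ← f1] at this
        omega
      have n2 : (g₂, σ') ≠ (g₂, τ') := by
        intro h
        rw [h] at c5
        have := hlt _ _ _ c5 d3
        rw [← cnt2 c3 d2, ← f2, ← hsum] at this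
        omega
      have e3 : (t₁ / (A * Bb ^ lv g₁)) % Bb + (t₁' / (A * Bb ^ lv g₁)) % Bb =
          (t₂ / (A * Bb ^ lv g₂)) % Bb + (t₂' / (A * Bb ^ lv g₂)) % Bb := by
        rw [← D2' hA hBb a3 b2 (hlv g₁), ← D2' hA hBb c3 d2 (hlv g₂), ← f1, ← f2, hsum]
      rcases hpair _ _ _ _ _ _ _ _ a5 b3 c5 d3 e3 n1 n2 with ⟨h, -⟩ | ⟨h, -⟩
      · have : g₂ = g₁ := (Prod.mk.inj h).1
        rw [this]; exact ⟨rfl, rfl⟩
      · have : g₂ = g₁ := (Prod.mk.inj h).1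
        rw [this]; exact ⟨rfl, rfl⟩
  · -- (v)
    intro n hn hB
    rw [hPP] at hn
    have hB' : ¬ ((n % A < M0 ∨ A ≤ n % A + M0) ∨ (∃ k ∈ Ms, k ∣ n) ∨
      ∃ l < m, ((n / (A * Bb ^ l)) % Bb < M1 ∨ Bb ≤ (n / (A * Bb ^ l)) % Bb + M1) ∨
        ρ ≤ (Ms1.filter (· ∣ n / (A * Bb ^ l))).card) := by
      intro h
      apply hB
      simp only [Bad, hPP, ← hAe, ← hBe]
      exact h
    push Not at hB'
    obtain ⟨⟨q1, q2⟩, q3, q4⟩ := hB'
    have hGd : Gd n := ⟨q3, fun l hl => lt_of_lt_of_le (q4 l hl).2 (by omega)⟩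
    refine ⟨hGd, fun g => ?_⟩
    obtain ⟨i, hi⟩ : ∃ i, i = lv g := ⟨_, rfl⟩
    have him : i < m := hi ▸ hlv g
    obtain ⟨a, ha, ha1, ha2⟩ := hcomp n q3 g
    have haA : a < M0 := lt_of_lt_of_le ha hMM0
    obtain ⟨σ, hσ⟩ : ∃ σ, σ = n % A - a := ⟨_, rfl⟩
    have hσA : σ < A := by
      have := Nat.mod_lt n hA
      omega
    have haσ : a + σ = n % A := by omega
    obtain ⟨⟨w1, w2⟩, w3⟩ := q4 i him
    obtain ⟨δ, hδ, hδ1, hδ2⟩ := hcomp1 (n / (A * Bb ^ i)) w3 (g, ⟨σ, by rw [← hAe]; exact hσA⟩)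
    have hδM : δ < M1 := lt_of_lt_of_le hδ hMM1
    obtain ⟨d, hd⟩ : ∃ d, d = (n / (A * Bb ^ i)) % Bb := ⟨_, rfl⟩
    rw [← hd] at w1 w2
    obtain ⟨d', hd'⟩ : ∃ d', d = δ + d' := Nat.exists_eq_add_of_le (by omega)
    obtain ⟨Q, hQ⟩ : ∃ Q, Q = n / (A * Bb ^ (i + 1)) := ⟨_, rfl⟩
    have hPi : 0 < A * Bb ^ i := P_pos hA hBb i
    have hPi1 : 0 < A * Bb ^ (i + 1) := P_pos hA hBb (i + 1)
    have hdec : n = A * Bb ^ (i + 1) * Q + (A * Bb ^ i) * d + n % (A * Bb ^ i) := by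
      have h1 := Nat.div_add_mod n (A * Bb ^ (i + 1))
      rw [← hQ] at h1
      have h2 : n % (A * Bb ^ (i + 1)) = n % (A * Bb ^ i) + (A * Bb ^ i) * d := by
        rw [P_succ, Nat.mod_mul, hd]
      omega
    obtain ⟨e, he⟩ : ∃ e, n % (A * Bb ^ i) = A * e + n % A :=
      ⟨(n / A) % Bb ^ i, by rw [Nat.mod_mul]; ring⟩
    have helt : A * e + n % A < A * Bb ^ i := he ▸ Nat.mod_lt _ hPi
    obtain ⟨Z, hZ⟩ : ∃ Z, Z = Bb ^ (m - (i + 1)) * (3 * i + 3) := ⟨_, rfl⟩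
    have hPmZ : A * Bb ^ (i + 1) * Z = A * Bb ^ m * (3 * i + 3) := by
      have h1 : Bb ^ m = Bb ^ (i + 1) * Bb ^ (m - (i + 1)) := by
        rw [← pow_add, Nat.add_sub_cancel' him]
      rw [hZ, h1]; ring
    have hle1 : A * Bb ^ m * (3 * i + 3) + A * Bb ^ m ≤ A * Bb ^ m * (3 * m + 4) := by
      rw [← Nat.mul_succ]
      exact Nat.mul_le_mul_left _ (by omega)
    have hZQ : Z ≤ Q := by
      rw [hQ, Nat.le_div_iff_mul_le hPi1, mul_comm, hPmZ]
      omega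
    obtain ⟨Q', hQ'⟩ : ∃ Q', Q = Z + Q' := Nat.exists_eq_add_of_le hZQ
    have hlow : (A * Bb ^ i) * δ + (A * e + a) < A * Bb ^ (i + 1) := by
      have h1 : (A * Bb ^ i) * (δ + 1) ≤ (A * Bb ^ i) * Bb := Nat.mul_le_mul_left _ (by omega)
      rw [P_succ]
      rw [Nat.mul_add, Nat.mul_one] at h1
      omega
    obtain ⟨t, ht⟩ : ∃ t, t = A * Bb ^ (i + 1) * Z + ((A * Bb ^ i) * δ + (A * e + a)) :=
      ⟨_, rfl⟩
    obtain ⟨t', ht'⟩ : ∃ t', t' = A * Bb ^ (i + 1) * Q' + ((A * Bb ^ i) * d' + σ) := ⟨_, rfl⟩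
    have hsum : t + t' = n := by
      rw [hdec, he, hQ', hd', Nat.mul_add, Nat.mul_add, ht, ht', ← haσ]
      omega
    have hlowm : (A * Bb ^ i) * δ + (A * e + a) < A * Bb ^ m :=
      lt_of_lt_of_le hlow (P_le hA hBb him)
    have tm : t % (A * Bb ^ m) = (A * Bb ^ i) * δ + (A * e + a) := by
      rw [ht, hPmZ, Nat.mul_add_mod, Nat.mod_eq_of_lt hlowm]
    have td : t / (A * Bb ^ m) = 3 * i + 3 := by
      rw [ht, hPmZ, Nat.mul_add_div hPm, Nat.div_eq_of_lt hlowm, add_zero]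
    have ta : t % A = a := by
      have : t = A * (Bb ^ (i + 1) * Z + Bb ^ i * δ + e) + a := by rw [ht]; ring
      rw [this, Nat.mul_add_mod, Nat.mod_eq_of_lt (by omega)]
    have ti : (t / (A * Bb ^ i)) % Bb = δ := by
      have : t = (A * Bb ^ i) * (Bb * Z + δ) + (A * e + a) := by rw [ht, pow_succ]; ring
      rw [this, Nat.mul_add_div hPi, Nat.div_eq_of_lt (by omega), add_zero, Nat.mul_add_mod,
        Nat.mod_eq_of_lt (by omega)]
    have ta' : t' % A = σ := by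
      have : t' = A * (Bb ^ (i + 1) * Q' + Bb ^ i * d') + σ := by rw [ht']; ring
      rw [this, Nat.mul_add_mod, Nat.mod_eq_of_lt hσA]
    have hσi : σ < A * Bb ^ i := lt_of_lt_of_le hσA (A_le hBb i)
    have tb' : t' % (A * Bb ^ i) = σ := by
      have : t' = (A * Bb ^ i) * (Bb * Q' + d') + σ := by rw [ht', pow_succ]; ring
      rw [this, Nat.mul_add_mod, Nat.mod_eq_of_lt hσi]
    have ti' : (t' / (A * Bb ^ i)) % Bb = d' := by
      have : t' = (A * Bb ^ i) * (Bb * Q' + d') + σ := by rw [ht', pow_succ]; ring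
      rw [this, Nat.mul_add_div hPi, Nat.div_eq_of_lt hσi, add_zero, Nat.mul_add_mod,
        Nat.mod_eq_of_lt (by omega)]
    have hL : LC A Bb m M0 M1 (lv g) t := by
      rw [← hi]
      exact ⟨by rw [ta]; exact haA, by rw [tm]; exact hlow, by rw [ti]; exact hδM⟩
    have hR : RC A Bb M0 M1 (lv g) t' := by
      rw [← hi]
      exact ⟨by rw [ta']; omega, by rw [tb', ta'], by rw [ti']; omega⟩
    have hta : t ≡ a [MOD M] := by
      refine Nat.ModEq.of_dvd hMA ?_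
      rw [Nat.ModEq, ta, Nat.mod_eq_of_lt (by omega)]
    have hLL : LL t g σ := by
      refine ⟨?_, ?_, hL, ?_, ⟨σ, by rw [← hAe]; exact hσA⟩, rfl, ?_⟩
      · rw [perL _ _ hta]; exact ha1
      · rw [td, hi]
      · intro l hl
        rw [← cnt1 hL hR l hl, hsum]
        exact (q4 l (hl.trans (hlv g))).2
      · rw [← hi, ti]; exact hδ1
    have hRR : RR t' g := by
      refine ⟨?_, hR, ⟨⟨σ, by rw [← hAe]; exact hσA⟩, ta'.symm, ?_⟩, ?_, ?_⟩
      · apply ha2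
        rw [← hsum]
        exact Nat.ModEq.add_right _ hta.symm
      · rw [← hi, ti']
        apply hδ2
        rw [← hd', hd]
        exact Nat.ModEq.of_dvd hMB (Nat.mod_modEq _ _)
      · intro l hl hlm
        rw [← cnt3 hL hR l hl hlm, hsum]
        exact (q4 l hlm).2
      · have h1 : t < A * Bb ^ m * (3 * i + 3) + A * Bb ^ m := by
          rw [ht, hPmZ]; omega
        omega
    exact ⟨t, t', hsum, nmL_of hLL, nmR_of hRR⟩
  · -- Gd periodic
    intro n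
    rw [hPP]
    have hkPm : ∀ k ∈ Ms, k ∣ A * Bb ^ m := fun k hk => (hkA k hk).trans (Nat.dvd_mul_right _ _)
    have h1 : (∀ k ∈ Ms, ¬ k ∣ n + A * Bb ^ m) ↔ (∀ k ∈ Ms, ¬ k ∣ n) :=
      forall₂_congr fun k hk => not_congr (Nat.dvd_add_left (hkPm k hk))
    have h2 : ∀ l < m, (Ms1.filter (· ∣ (n + A * Bb ^ m) / (A * Bb ^ l))).card =
        (Ms1.filter (· ∣ n / (A * Bb ^ l))).card := fun l hl =>
      card_congr' hkB fun k hk => shift_dvd n l hl k hk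
    constructor
    · rintro ⟨u, v⟩
      exact ⟨h1.1 u, fun l hl => by rw [← h2 l hl]; exact v l hl⟩
    · rintro ⟨u, v⟩
      exact ⟨h1.2 u, fun l hl => by rw [h2 l hl]; exact v l hl⟩
  · intro t' ht'
    rw [hPP] at ht' ⊢
    apply Option.ext
    intro g
    exact ⟨fun h => nmR_of ((shiftR t' g ht').1 (nmR_spec h)),
      fun h => nmR_of ((shiftR t' g ht').2 (nmR_spec h))⟩
  · intro t' g l hg hl hm
    have hRR := nmR_spec hg
    have ht' := hRR.2.2.2.2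
    rw [hPP, bR_of hRR l, bR_of ((shiftR t' g ht').2 hRR) l, shift_mod t' l hm]
    have h2 : t' % (A * Bb ^ l) ≤ t' := Nat.mod_le _ _
    have h3 : t' % (A * Bb ^ l) < A * Bb ^ m :=
      lt_of_lt_of_le (Nat.mod_lt _ (P_pos hA hBb l)) (P_le hA hBb hm)
    have h4 : A * Bb ^ m * (3 * l + 2) + A * Bb ^ m ≤ A * Bb ^ m * (3 * m + 4) := by
      rw [← Nat.mul_succ]
      exact Nat.mul_le_mul_left _ (by omega)
    omega

end Crest.Agent.R320.Clk_594
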