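import Crest.Agent.R320.Names_755
import Crest.Agent.R320.LN_484

set_option autoImplicit false

/-!
Row 320, TEAM U leaf U2: assembly of the clocks (star names of 755, error tolerant level names U1).
Names of two clocks `t`, `t'` together with boundaries which are functions of `n = t + t'`.
-/

namespace Crest.Agent.R320.Clk638

open Classical

def PP (R M0 M1 l : ℕ) : ℕ := (R * M0) * (R * M1) ^ l

def beta (R M0 M1 m n l : ℕ) : ℕ := PP R M0 M1 m * (3 * l + 2) + n % PP R M0 M1 l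

def Bad (R M0 M1 m rho : ℕ) (Ms Ms1 : Finset ℕ) (n : ℕ) : Prop :=
  (n % (R * M0) < M0 ∨ R * M0 ≤ n % (R * M0) + M0) ∨ (∃ k ∈ Ms, k ∣ n) ∨
    ∃ l < m, ((n / PP R M0 M1 l) % (R * M1) < M1 ∨ R * M1 ≤ (n / PP R M0 M1 l) % (R * M1) + M1) ∨
      rho ≤ (Ms1.filter (· ∣ n / PP R M0 M1 l)).card

/-- statement of leaf U1 -/
def LevelNames : Prop := ∀ (N : Type) [Finite N], ∃ ρ : ℕ, 0 < ρ ∧ ∀ B : ℕ,
  ∃ (Ms : Finset ℕ) (M : ℕ) (nmL nmR : ℕ → Option N),
    Ms.card ≤ 32 * ρ ∧ (∀ k ∈ Ms, B < k ∧ Nat.Prime k ∧ k ∣ M) ∧ 0 < M ∧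
    (∀ t, nmL (t + M) = nmL t) ∧ (∀ t, nmR (t + M) = nmR t) ∧
    (∀ t t' c, nmL t = some c → nmR t' = some c → (Ms.filter (· ∣ t + t')).card < 2 * ρ) ∧
    (∀ t t' c c', nmL t = some c → nmR t' = some c' → c ≠ c' →
      2 * ρ ≤ (Ms.filter (· ∣ t + t')).card) ∧
    (∀ t₁ t₁' t₂ t₂' c₁ c₁' c₂ c₂', nmL t₁ = some c₁ → nmR t₁' = some c₁' →
      nmL t₂ = some c₂ → nmR t₂' = some c₂' → t₁ + t₁' = t₂ + t₂' → c₁ ≠ c₁' → c₂ ≠ c₂' →
      (c₂ = c₁ ∧ c₂' = c₁') ∨ (c₂ = c₁' ∧ c₂' = c₁)) ∧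
    (∀ T, (Ms.filter (· ∣ T)).card < ρ → ∀ c, ∃ t < M, nmL t = some c ∧
      ∀ t', t + t' ≡ T [MOD M] → nmR t' = some c)

/-! ### digits -/

section dig
variable (A Bs : ℕ)

def P (l : ℕ) : ℕ := A * Bs ^ l

theorem P_succ (l : ℕ) : P A Bs (l + 1) = P A Bs l * Bs := by
  unfold P; rw [pow_succ]; ring

def dg (l n : ℕ) : ℕ := (n / P A Bs l) % Bs

variable {A Bs}

theorem mod_succ (n l : ℕ) : n % P A Bs (l + 1) = n % P A Bs l + P A Bs l * dg A Bs l n := by
  rw [P_succ, Nat.mod_mul]; rfl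

theorem nocarry {t t' : ℕ} {m : ℕ} (h0 : t % A + t' % A < A)
    (h : ∀ l < m, dg A Bs l t + dg A Bs l t' < Bs) :
    ∀ l ≤ m, t % P A Bs l + t' % P A Bs l < P A Bs l := by
  intro l
  induction l with
  | zero => intro _; simpa [P] using h0
  | succ l ih =>
    intro hl
    have h1 := ih (by omega)
    have h2 := h l (by omega)
    rw [mod_succ, mod_succ, P_succ]
    have h3 : P A Bs l * (dg A Bs l t + dg A Bs l t' + 1) ≤ P A Bs l * Bs :=
      Nat.mul_le_mul_left _ h2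
    have h4 : P A Bs l * (dg A Bs l t + dg A Bs l t' + 1) =
      P A Bs l * dg A Bs l t + P A Bs l * dg A Bs l t' + P A Bs l := by ring
    omega

theorem add_mod_of {t t' p : ℕ} (h : t % p + t' % p < p) : (t + t') % p = t % p + t' % p := by
  rw [Nat.add_mod, Nat.mod_eq_of_lt h]

theorem add_div_of {t t' p : ℕ} (hp : 0 < p) (h : t % p + t' % p < p) :
    (t + t') / p = t / p + t' / p := by
  rw [Nat.add_div hp, if_neg (by omega)]; rfl

theorem dg_add {t t' : ℕ} {m l : ℕ} (hA : 0 < A) (hB : 0 < Bs) (h0 : t % A + t' % A < A)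
    (h : ∀ l < m, dg A Bs l t + dg A Bs l t' < Bs) (hl : l < m) :
    dg A Bs l (t + t') = dg A Bs l t + dg A Bs l t' := by
  have hp : 0 < P A Bs l := by unfold P; positivity
  have h1 := nocarry h0 h l hl.le
  have h2 := h l hl
  unfold dg at h2 ⊢
  rw [add_div_of hp h1]
  exact add_mod_of h2

theorem P_pos (hA : 0 < A) (hB : 0 < Bs) (l : ℕ) : 0 < P A Bs l := by unfold P; positivity

theorem P_dvd {l l' : ℕ} (h : l ≤ l') : P A Bs l ∣ P A Bs l' := by
  unfold P; exact Nat.mul_dvd_mul_left _ (pow_dvd_pow _ h)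

theorem low_zero {t : ℕ} {i : ℕ} (h : ∀ l < i, dg A Bs l t = 0) :
    ∀ l ≤ i, t % P A Bs l = t % A := by
  intro l
  induction l with
  | zero => intro _; simp [P]
  | succ l ih =>
    intro hl
    rw [mod_succ, ih (by omega), h l (by omega)]; simp

/-- the number with digits `x`, star digit `a` (below level `l`) -/
def V (A Bs : ℕ) (x : ℕ → ℕ) (a : ℕ) : ℕ → ℕ
  | 0 => a
  | l + 1 => V A Bs x a l + P A Bs l * x l

theorem V_lt {x : ℕ → ℕ} {a : ℕ} (ha : a < A) {m : ℕ} (hx : ∀ l < m, x l < Bs) :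
    ∀ l ≤ m, V A Bs x a l < P A Bs l := by
  intro l
  induction l with
  | zero => intro _; simpa [V, P] using ha
  | succ l ih =>
    intro hl
    have h1 := ih (by omega)
    have h3 : P A Bs l * (x l + 1) ≤ P A Bs l * Bs := Nat.mul_le_mul_left _ (hx l (by omega))
    rw [P_succ]
    have h4 : P A Bs l * (x l + 1) = P A Bs l * x l + P A Bs l := by ring
    show V A Bs x a l + P A Bs l * x l < _
    omega

theorem V_mod {x : ℕ → ℕ} {a : ℕ} (ha : a < A) {m : ℕ} (hx : ∀ l < m, x l < Bs) (top : ℕ) :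
    ∀ l ≤ m, (V A Bs x a m + P A Bs m * top) % P A Bs l = V A Bs x a l := by
  intro l hl
  have hd : ∀ k, l ≤ k → (V A Bs x a k) % P A Bs l = (V A Bs x a l) % P A Bs l := by
    intro k hk
    induction k with
    | zero => have : l = 0 := by omega
              subst this; rfl
    | succ k ih =>
      rcases Nat.lt_or_ge k l with h | h
      · have : l = k + 1 := by omega
        subst this; rfl
      · rw [← ih h]
        show (V A Bs x a k + P A Bs k * x k) % P A Bs l = _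
        obtain ⟨c, hc⟩ := P_dvd (A := A) (Bs := Bs) h
        rw [hc, Nat.mul_assoc, Nat.add_mul_mod_self_left]
  obtain ⟨c, hc⟩ := P_dvd (A := A) (Bs := Bs) hl
  rw [show P A Bs m * top = P A Bs l * (c * top) by rw [hc]; ring, Nat.add_mul_mod_self_left,
    hd m hl, Nat.mod_eq_of_lt (V_lt ha hx l hl)]

theorem V_dg {x : ℕ → ℕ} {a : ℕ} (hA : 0 < A) (hB : 0 < Bs) (ha : a < A) {m : ℕ}
    (hx : ∀ l < m, x l < Bs) (top : ℕ) :
    ∀ l < m, dg A Bs l (V A Bs x a m + P A Bs m * top) = x l := by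
  intro l hl
  have h1 := mod_succ (A := A) (Bs := Bs) (V A Bs x a m + P A Bs m * top) l
  rw [V_mod ha hx top l hl.le, V_mod ha hx top (l + 1) hl] at h1
  have h2 : V A Bs x a l + P A Bs l * x l =
    V A Bs x a l + P A Bs l * dg A Bs l (V A Bs x a m + P A Bs m * top) := h1
  have h3 := Nat.add_left_cancel h2
  exact (Nat.eq_of_mul_eq_mul_left (by unfold P; positivity) h3).symm

theorem V_star {x : ℕ → ℕ} {a : ℕ} (ha : a < A) {m : ℕ}
    (hx : ∀ l < m, x l < Bs) (top : ℕ) : (V A Bs x a m + P A Bs m * top) % A = a := by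
  have := V_mod ha hx top 0 (Nat.zero_le _)
  simpa [P, V] using this

theorem V_top {x : ℕ → ℕ} {a : ℕ} (hA : 0 < A) (hB : 0 < Bs) (ha : a < A) {m : ℕ}
    (hx : ∀ l < m, x l < Bs) (top : ℕ) : (V A Bs x a m + P A Bs m * top) / P A Bs m = top := by
  rw [Nat.add_mul_div_left _ _ (by unfold P; positivity), Nat.div_eq_of_lt (V_lt ha hx m le_rfl)]
  simp

theorem V_self (n m : ℕ) : n = V A Bs (fun l => dg A Bs l n) (n % A) m + P A Bs m * (n / P A Bs m) := by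
  have h : ∀ l, n % P A Bs l = V A Bs (fun l => dg A Bs l n) (n % A) l := by
    intro l
    induction l with
    | zero => simp [P, V]
    | succ l ih => rw [mod_succ, ih]; rfl
  rw [← h m, Nat.add_comm]
  exact (Nat.div_add_mod n _).symm

theorem V_add (x y : ℕ → ℕ) (a b l : ℕ) :
    V A Bs x a l + V A Bs y b l = V A Bs (fun l => x l + y l) (a + b) l := by
  induction l with
  | zero => rfl
  | succ l ih =>
    show V A Bs x a l + P A Bs l * x l + (V A Bs y b l + P A Bs l * y l) =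
      V A Bs (fun l => x l + y l) (a + b) l + P A Bs l * (x l + y l)
    rw [← ih]; ring

theorem V_congr {x y : ℕ → ℕ} {a : ℕ} {m : ℕ} (h : ∀ l < m, x l = y l) :
    ∀ l ≤ m, V A Bs x a l = V A Bs y a l := by
  intro l
  induction l with
  | zero => intro _; rfl
  | succ l ih =>
    intro hl
    show V A Bs x a l + P A Bs l * x l = V A Bs y a l + P A Bs l * y l
    rw [ih (by omega), h l (by omega)]

theorem high_zero {t : ℕ} {i m : ℕ} (h : ∀ l, i < l → l < m → dg A Bs l t = 0) :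
    ∀ l, i < l → l ≤ m → t % P A Bs l = t % P A Bs (i + 1) := by
  intro l
  induction l with
  | zero => intro h1; omega
  | succ l ih =>
    intro h1 h2
    rcases Nat.lt_or_ge i l with h3 | h3
    · rw [mod_succ, ih h3 (by omega), h l h3 (by omega)]; simp
    · have : l = i := by omega
      subst this; rfl

end dig


section main
variable {Γ : Type} (A Bs M0 M1 m rho : ℕ) (lv : Γ → ℕ) (Ms1 : Finset ℕ)
  (nLs nRs : ℕ → Option Γ) (nL1 nR1 : ℕ → Option (Γ × Fin A))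

def E (Ms1 : Finset ℕ) (x : ℕ) : ℕ := (Ms1.filter (· ∣ x)).card

def Lc (g : Γ) (σ : Fin A) (t : ℕ) : Prop :=
  t % A < M0 ∧ nLs (t % A) = some g ∧ (∀ l < lv g, E Ms1 (dg A Bs l t) < rho) ∧
    dg A Bs (lv g) t < M1 ∧ nL1 (dg A Bs (lv g) t) = some (g, σ) ∧
    (∀ l, lv g < l → l < m → dg A Bs l t = 0) ∧ t / P A Bs m = 3 * lv g + 3

def Rc (g : Γ) (σ : Fin A) (t : ℕ) : Prop :=
  t % A + M0 ≤ A ∧ nRs (t % A) = some g ∧ (∀ l < lv g, dg A Bs l t = 0) ∧
    dg A Bs (lv g) t + M1 ≤ Bs ∧ nR1 (dg A Bs (lv g) t) = some (g, σ) ∧ σ.val = t % A ∧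
    (∀ l, lv g < l → l < m → E Ms1 (dg A Bs l t) < rho) ∧ 3 * m + 4 ≤ t / P A Bs m

variable {A Bs M0 M1 m rho lv Ms1 nLs nRs nL1 nR1}

theorem Lc.uniq {g g' : Γ} {σ σ' : Fin A} {t : ℕ} (h : Lc A Bs M0 M1 m rho lv Ms1 nLs nL1 g σ t)
    (h' : Lc A Bs M0 M1 m rho lv Ms1 nLs nL1 g' σ' t) : g = g' ∧ σ = σ' := by
  have h1 : g = g' := by
    have := h.2.1.symm.trans h'.2.1
    simpa using this
  subst h1
  have := h.2.2.2.2.1.symm.trans h'.2.2.2.2.1
  simp only [Option.some.injEq, Prod.mk.injEq, true_and] at this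
  exact ⟨rfl, this⟩

/-- the sum of two legal clocks with the same star name has no carry -/
theorem junc {g : Γ} {σ σ' : Fin A} {t t' : ℕ} (hM1 : 0 < M1) (hM0 : 0 < M0) (hB : 0 < Bs)
    (h : Lc A Bs M0 M1 m rho lv Ms1 nLs nL1 g σ t)
    (h' : Rc A Bs M0 M1 m rho lv Ms1 nRs nR1 g σ' t') :
    t % A + t' % A < A ∧ ∀ l < m, dg A Bs l t + dg A Bs l t' < Bs := by
  refine ⟨by have := h.1; have := h'.1; omega, fun l hl => ?_⟩
  have hm : ∀ x, dg A Bs l x < Bs := fun x => Nat.mod_lt _ hB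
  rcases lt_trichotomy l (lv g) with h1 | h1 | h1
  · rw [h'.2.2.1 l h1]; simpa using hm t
  · subst h1
    have := h.2.2.2.1; have := h'.2.2.2.1; omega
  · rw [h.2.2.2.2.2.1 l h1 hl]; simpa using hm t'

theorem beliefs {g : Γ} {σ : Fin A} {t t' : ℕ} (hM1 : 0 < M1) (hM0 : 0 < M0) (hB : 0 < Bs)
    (hA : 0 < A) (hlv : lv g < m)
    (h : Lc A Bs M0 M1 m rho lv Ms1 nLs nL1 g σ t)
    (h' : Rc A Bs M0 M1 m rho lv Ms1 nRs nR1 g σ t') :
    (∀ l ≤ lv g, (t + σ.val) % P A Bs l = (t + t') % P A Bs l) ∧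
    (∀ l, lv g < l → l ≤ m → P A Bs m * (3 * lv g + 3) + (t' - t' % P A Bs l) -
      P A Bs m * (3 * l + 2) + (P A Bs m * (3 * l + 2) + (t + t') % P A Bs l) = t + t') ∧
    P A Bs m * (3 * lv g + 2) + (t + t') % P A Bs (lv g) ≤ t ∧
    t ≤ P A Bs m * (3 * (lv g + 1) + 2) + (t + t') % P A Bs (lv g + 1) := by
  obtain ⟨j0, j1⟩ := junc hM1 hM0 hB h h'
  have hnc := nocarry j0 j1
  have hPm := P_pos (Bs := Bs) hA hB m
  have htm : t = P A Bs m * (3 * lv g + 3) + t % P A Bs m := by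
    have := Nat.div_add_mod t (P A Bs m)
    rw [h.2.2.2.2.2.2] at this; omega
  have hmle : ∀ l ≤ m, P A Bs l ≤ P A Bs m := fun l hl => Nat.le_of_dvd hPm (P_dvd hl)
  have hmod : ∀ x l, l ≤ m → x % P A Bs l < P A Bs l := fun x l _ =>
    Nat.mod_lt _ (P_pos hA hB l)
  refine ⟨fun l hl => ?_, fun l hl1 hl2 => ?_, ?_, ?_⟩
  · have h1 := low_zero h'.2.2.1 l hl
    rw [h'.2.2.2.2.2.1, ← h1, Nat.add_mod_mod]
  · have h1 : t % P A Bs m = t % P A Bs l := by
      rw [high_zero h.2.2.2.2.2.1 m (by omega) le_rfl, high_zero h.2.2.2.2.2.1 l hl1 hl2]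
    have h2 := add_mod_of (hnc l hl2)
    have h3 : P A Bs m * (3 * m + 4) ≤ P A Bs m * (t' / P A Bs m) :=
      Nat.mul_le_mul_left _ h'.2.2.2.2.2.2.2
    have h4 := Nat.div_add_mod t' (P A Bs m)
    have h5 : t' % P A Bs l ≤ t' % P A Bs m := by
      rw [← Nat.mod_mod_of_dvd t' (P_dvd (A := A) (Bs := Bs) hl2)]
      exact Nat.mod_le _ _
    have h6 : P A Bs m * (3 * l + 2) ≤ P A Bs m * (3 * m + 4) := Nat.mul_le_mul_left _ (by omega)
    have h7 : t' % P A Bs l ≤ t' := Nat.mod_le _ _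
    generalize P A Bs m * (3 * lv g + 3) = a1 at *
    generalize P A Bs m * (3 * l + 2) = a2 at *
    generalize P A Bs m * (3 * m + 4) = a3 at *
    generalize P A Bs m * (t' / P A Bs m) = a4 at *
    omega
  · have h1 := hmod (t + t') (lv g) hlv.le
    have h2 := hmle (lv g) hlv.le
    have h3 : P A Bs m * (3 * lv g + 3) = P A Bs m * (3 * lv g + 2) + P A Bs m := by ring
    omega
  · have h1 := hmod t m le_rfl
    have h3 : P A Bs m * (3 * (lv g + 1) + 2) = P A Bs m * (3 * lv g + 3) + P A Bs m + P A Bs m := by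
      ring
    omega

theorem E_mod {Ms1 : Finset ℕ} {Bs : ℕ} (h : ∀ k ∈ Ms1, k ∣ Bs) (x : ℕ) :
    E Ms1 (x % Bs) = E Ms1 x := by
  unfold E
  congr 1
  apply Finset.filter_congr
  intro k hk
  exact Nat.dvd_mod_iff (h k hk)

end main

/-- U2, literal form (with U1 as hypothesis) -/
theorem clocks_of (hLN : LevelNames) (m : ℕ) (Γ C : Type) [Finite Γ] [Finite C] (lv : Γ → ℕ)
    (hlv : ∀ g, lv g < m) (col : Γ → C) :
    ∃ r : ℕ, ∀ B R : ℕ, 3 ≤ R → ∃ (Ms Ms1 : Finset ℕ) (rho M0 M1 : ℕ),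
      Ms.card ≤ r ∧ Ms1.card ≤ 32 * rho ∧ 0 < rho ∧
      (∀ k ∈ Ms, B < k ∧ Nat.Prime k ∧ k ∣ M0) ∧ (∀ k ∈ Ms1, B < k ∧ Nat.Prime k ∧ k ∣ M1) ∧
      0 < M0 ∧ 0 < M1 ∧
      ∃ (nmL nmR : ℕ → Option Γ) (bL bR : ℕ → ℕ → ℕ) (Gd : ℕ → Prop),
        (∀ t g, nmL t = some g → t < PP R M0 M1 m * (3 * m + 4)) ∧
        (∀ t g, nmR t = some g → PP R M0 M1 m * (3 * m + 4) ≤ t) ∧
        (∀ t t' g g', Gd (t + t') → nmL t = some g → nmR t' = some g' →
          g = g' ∧ (∀ l ≤ lv g, bL t l = beta R M0 M1 m (t + t') l) ∧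
          (∀ l, lv g < l → l ≤ m → bR t' l + beta R M0 M1 m (t + t') l = t + t') ∧
          beta R M0 M1 m (t + t') (lv g) ≤ t ∧ t ≤ beta R M0 M1 m (t + t') (lv g + 1)) ∧
        (∀ t₁ t₁' t₂ t₂' g₁ g₁' g₂ g₂', ¬ Gd (t₁ + t₁') → t₁ + t₁' = t₂ + t₂' →
          nmL t₁ = some g₁ → nmR t₁' = some g₁' → nmL t₂ = some g₂ → nmR t₂' = some g₂' →
          col g₁ = col g₂ ∧ col g₁' = col g₂') ∧
        (∀ n, 2 * (PP R M0 M1 m * (3 * m + 4)) ≤ n → ¬ Bad R M0 M1 m rho Ms Ms1 n →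
          Gd n ∧ ∀ g, ∃ t t', t + t' = n ∧ nmL t = some g ∧ nmR t' = some g) := by
  obtain ⟨r, hr⟩ := Names755.names Γ C col
  refine ⟨r, fun B R hR => ?_⟩
  obtain ⟨Ms, M0, nLs, nRs, hc, hMs, hM0, -, -, hagree, hcomp, hcol⟩ := hr B
  obtain ⟨A, hAdef⟩ : ∃ A, A = R * M0 := ⟨_, rfl⟩
  obtain ⟨rho, hrho, h1⟩ := hLN (Γ × Fin A)
  obtain ⟨Ms1, M1, nL1, nR1, hc1, hMs1, hM1, -, -, hmatch, hmis, hpair, hcomp1⟩ := h1 B
  refine ⟨Ms, Ms1, rho, M0, M1, hc, hc1, hrho, hMs, hMs1, hM0, hM1, ?_⟩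
  obtain ⟨Bs, hBdef⟩ : ∃ Bs, Bs = R * M1 := ⟨_, rfl⟩
  -- abbreviations
  have hA : 0 < A := by rw [hAdef]; positivity
  have hB : 0 < Bs := by rw [hBdef]; positivity
  have hk0 : ∀ k ∈ Ms, k ∣ A := fun k hk => by rw [hAdef]; exact (hMs k hk).2.2.mul_left _
  have hk1 : ∀ k ∈ Ms1, k ∣ Bs := fun k hk => by rw [hBdef]; exact (hMs1 k hk).2.2.mul_left _
  have hM1B : M1 ≤ Bs := by rw [hBdef]; nlinarith
  have hPP : ∀ l, PP R M0 M1 l = P A Bs l := fun l => by rw [hAdef, hBdef]; rfl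
  have hbeta : ∀ n l, beta R M0 M1 m n l = P A Bs m * (3 * l + 2) + n % P A Bs l := fun n l => by
    unfold beta; rw [hPP, hPP]
  let L : Γ → Fin A → ℕ → Prop := fun g σ t => Lc A Bs M0 M1 m rho lv Ms1 nLs nL1 g σ t
  let Rr : Γ → Fin A → ℕ → Prop := fun g σ t => Rc A Bs M0 M1 m rho lv Ms1 nRs nR1 g σ t
  let nmL : ℕ → Option Γ := fun t => if ∃ g σ, L g σ t then nLs (t % A) else none
  let nmR : ℕ → Option Γ := fun t => if ∃ g σ, Rr g σ t then nRs (t % A) else none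
  have hnmL : ∀ t g, nmL t = some g → ∃ σ, L g σ t := by
    intro t g h
    by_cases hx : ∃ g σ, L g σ t
    · obtain ⟨g', σ, hl⟩ := hx
      have h2 : nmL t = nLs (t % A) := if_pos ⟨g', σ, hl⟩
      rw [h2, hl.2.1] at h
      cases h
      exact ⟨σ, hl⟩
    · have h2 : nmL t = none := if_neg hx
      rw [h2] at h; cases h
  have hnmR : ∀ t g, nmR t = some g → ∃ σ, Rr g σ t := by
    intro t g h
    by_cases hx : ∃ g σ, Rr g σ t
    · obtain ⟨g', σ, hl⟩ := hx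
      have h2 : nmR t = nRs (t % A) := if_pos ⟨g', σ, hl⟩
      rw [h2, hl.2.1] at h
      cases h
      exact ⟨σ, hl⟩
    · have h2 : nmR t = none := if_neg hx
      rw [h2] at h; cases h
  have hnmL' : ∀ t g σ, L g σ t → nmL t = some g := by
    intro t g σ h
    have h2 : nmL t = nLs (t % A) := if_pos ⟨g, σ, h⟩
    rw [h2]; exact h.2.1
  have hnmR' : ∀ t g σ, Rr g σ t → nmR t = some g := by
    intro t g σ h
    have h2 : nmR t = nRs (t % A) := if_pos ⟨g, σ, h⟩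
    rw [h2]; exact h.2.1
  let sg : ℕ → ℕ := fun t => if h : ∃ g σ, L g σ t then (h.choose_spec.choose).val else 0
  have hsg : ∀ t g σ, L g σ t → sg t = σ.val := by
    intro t g σ h
    have hx : ∃ g σ, L g σ t := ⟨g, σ, h⟩
    have h2 : sg t = (hx.choose_spec.choose).val := dif_pos hx
    rw [h2]
    have h3 := hx.choose_spec.choose_spec
    rw [(Lc.uniq h3 h).2]
  let lvR : ℕ → ℕ := fun t => ((nRs (t % A)).map lv).getD 0
  have hlvR : ∀ t g σ, Rr g σ t → lvR t = lv g := by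
    intro t g σ h
    have : nRs (t % A) = some g := h.2.1
    simp [lvR, this]
  let Gd : ℕ → Prop := fun n => (∀ k ∈ Ms, ¬ k ∣ n) ∧ ∀ l < m, E Ms1 (n / P A Bs l) < 2 * rho
  -- digit form of the error counts
  have hE : ∀ l n, E Ms1 (dg A Bs l n) = E Ms1 (n / P A Bs l) := fun l n => E_mod hk1 _
  -- star part
  have hstar : ∀ t t' g σ g' σ', L g σ t → Rr g' σ' t' → t % A + t' % A < A := by
    intro t t' g σ g' σ' h h'
    have := h.1; have := h'.1; omega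
  have hstar2 : ∀ t t' g σ g' σ', L g σ t → Rr g' σ' t' → (t + t') % A = t % A + t' % A :=
    fun t t' g σ g' σ' h h' => add_mod_of (hstar t t' g σ g' σ' h h')
  have hdvd : ∀ k ∈ Ms, ∀ n, k ∣ n % A ↔ k ∣ n := fun k hk n => Nat.dvd_mod_iff (hk0 k hk)
  have hsame : ∀ t t' g σ g' σ', (∀ k ∈ Ms, ¬ k ∣ t + t') → L g σ t → Rr g' σ' t' → g = g' := by
    intro t t' g σ g' σ' hn h h'
    refine hagree _ _ g g' h.2.1 h'.2.1 fun k hk hd => hn k hk ?_
    rw [← hdvd k hk, hstar2 t t' g σ g' σ' h h']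
    exact hd
  -- level part
  have hlevel : ∀ t t' g σ σ', L g σ t → Rr g σ' t' →
      (∀ l < m, dg A Bs l (t + t') = dg A Bs l t + dg A Bs l t') := by
    intro t t' g σ σ' h h' l hl
    obtain ⟨j0, j1⟩ := junc hM1 hM0 hB h h'
    exact dg_add hA hB j0 j1 hl
  have hother : ∀ t t' g σ σ', L g σ t → Rr g σ' t' → ∀ l < m, l ≠ lv g →
      E Ms1 ((t + t') / P A Bs l) < rho := by
    intro t t' g σ σ' h h' l hl hne
    rw [← hE, hlevel t t' g σ σ' h h' l hl]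
    rcases lt_or_gt_of_ne hne with h2 | h2
    · rw [h'.2.2.1 l h2]; simpa using h.2.2.1 l h2
    · rw [h.2.2.2.2.2.1 l h2 hl]; simpa using h'.2.2.2.2.2.2.1 l h2 hl
  have hown : ∀ t t' g σ σ', L g σ t → Rr g σ' t' →
      E Ms1 ((t + t') / P A Bs (lv g)) = E Ms1 (dg A Bs (lv g) t + dg A Bs (lv g) t') := by
    intro t t' g σ σ' h h'
    rw [← hE, hlevel t t' g σ σ' h h' _ (hlv g)]
  refine ⟨nmL, nmR, fun t l => P A Bs m * (3 * l + 2) + (t + sg t) % P A Bs l,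
    fun t' l => P A Bs m * (3 * lvR t' + 3) + (t' - t' % P A Bs l) - P A Bs m * (3 * l + 2),
    Gd, ?_, ?_, ?_, ?_, ?_⟩
  · intro t g h
    obtain ⟨σ, hl⟩ := hnmL t g h
    have h1 : t / P A Bs m = 3 * lv g + 3 := hl.2.2.2.2.2.2
    have h2 := hlv g
    rw [hPP, Nat.mul_comm]
    exact (Nat.div_lt_iff_lt_mul (P_pos hA hB m)).1 (by omega)
  · intro t g h
    obtain ⟨σ, hl⟩ := hnmR t g h
    have h1 : 3 * m + 4 ≤ t / P A Bs m := hl.2.2.2.2.2.2.2
    rw [hPP, Nat.mul_comm]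
    exact (Nat.le_div_iff_mul_le (P_pos hA hB m)).1 h1
  · intro t t' g g' hG h h'
    obtain ⟨σ, hl⟩ := hnmL t g h
    obtain ⟨σ', hr'⟩ := hnmR t' g' h'
    have hgg := hsame t t' g σ g' σ' hG.1 hl hr'
    subst hgg
    have hσ : σ = σ' := by
      by_contra hne
      have h2 := hmis _ _ (g, σ) (g, σ') hl.2.2.2.2.1 hr'.2.2.2.2.1 (by
        intro hh; exact hne (Prod.mk.inj hh).2)
      have h3 := hG.2 (lv g) (hlv g)
      rw [hown t t' g σ σ' hl hr'] at h3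
      exact absurd h2 (not_le.2 h3)
    subst hσ
    obtain ⟨b1, b2, b3, b4⟩ := beliefs hM1 hM0 hB hA (hlv g) hl hr'
    refine ⟨rfl, fun l hl2 => ?_, fun l hl2 hl3 => ?_, ?_, ?_⟩
    · rw [hbeta]
      show P A Bs m * (3 * l + 2) + (t + sg t) % P A Bs l = _
      rw [hsg t g σ hl, b1 l hl2]
    · have := b2 l hl2 hl3
      rw [hbeta]
      show P A Bs m * (3 * lvR t' + 3) + (t' - t' % P A Bs l) - P A Bs m * (3 * l + 2) +
        (P A Bs m * (3 * l + 2) + (t + t') % P A Bs l) = t + t'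
      rw [hlvR t' g σ hr']; exact this
    · rw [hbeta]; exact b3
    · rw [hbeta]; exact b4
  · intro t₁ t₁' t₂ t₂' g₁ g₁' g₂ g₂' hG hs h1 h1' h2 h2'
    obtain ⟨σ₁, l1⟩ := hnmL _ _ h1
    obtain ⟨σ₁', r1⟩ := hnmR _ _ h1'
    obtain ⟨σ₂, l2⟩ := hnmL _ _ h2
    obtain ⟨σ₂', r2⟩ := hnmR _ _ h2'
    by_cases hk : ∃ k ∈ Ms, k ∣ t₁ + t₁'
    · have e1 := hstar2 _ _ _ _ _ _ l1 r1
      have e2 := hstar2 _ _ _ _ _ _ l2 r2
      refine hcol (t₁ % A) (t₁' % A) (t₂ % A) (t₂' % A) g₁ g₁' g₂ g₂' l1.2.1 r1.2.1 l2.2.1 r2.2.1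
        ?_ ?_
      · rw [← e1, ← e2, hs]
      · obtain ⟨k, hk, hd⟩ := hk
        exact ⟨k, hk, by rw [← e1, hdvd k hk]; exact hd⟩
    · push Not at hk
      have hk2 : ∀ k ∈ Ms, ¬ k ∣ t₂ + t₂' := by rw [← hs]; exact hk
      have e1 := hsame _ _ _ _ _ _ hk l1 r1
      have e2 := hsame _ _ _ _ _ _ hk2 l2 r2
      subst e1; subst e2
      have hl : ∃ l < m, 2 * rho ≤ E Ms1 ((t₁ + t₁') / P A Bs l) := by
        by_contra hcon
        push Not at hcon
        exact hG ⟨hk, hcon⟩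
      obtain ⟨l, hlm, hl⟩ := hl
      have a1 : l = lv g₁ := by
        by_contra hne
        have := hother _ _ _ _ _ l1 r1 l hlm hne
        omega
      have a2 : l = lv g₂ := by
        by_contra hne
        have := hother _ _ _ _ _ l2 r2 l hlm hne
        rw [← hs] at this
        omega
      have n1 : (g₁, σ₁) ≠ (g₁, σ₁') := by
        intro hh
        have h3 := hmatch _ _ (g₁, σ₁) l1.2.2.2.2.1 (hh ▸ r1.2.2.2.2.1)
        rw [a1, hown _ _ _ _ _ l1 r1] at hl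
        exact absurd hl (not_le.2 h3)
      have n2 : (g₂, σ₂) ≠ (g₂, σ₂') := by
        intro hh
        have h3 := hmatch _ _ (g₂, σ₂) l2.2.2.2.2.1 (hh ▸ r2.2.2.2.2.1)
        rw [a2, hs, hown _ _ _ _ _ l2 r2] at hl
        exact absurd hl (not_le.2 h3)
      have hsum : dg A Bs (lv g₁) t₁ + dg A Bs (lv g₁) t₁' =
          dg A Bs (lv g₂) t₂ + dg A Bs (lv g₂) t₂' := by
        rw [← hlevel _ _ _ _ _ l1 r1 _ (hlv g₁), ← hlevel _ _ _ _ _ l2 r2 _ (hlv g₂), ← a1, ← a2, hs]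
      rcases hpair _ _ _ _ _ _ _ _ l1.2.2.2.2.1 r1.2.2.2.2.1 l2.2.2.2.2.1 r2.2.2.2.2.1 hsum n1 n2
        with ⟨p1, -⟩ | ⟨p1, -⟩
      · have := (Prod.mk.inj p1).1; subst this; exact ⟨rfl, rfl⟩
      · have := (Prod.mk.inj p1).1; subst this; exact ⟨rfl, rfl⟩
  · intro n hn hbad
    have hb1 : M0 ≤ n % A ∧ n % A + M0 < A := by
      by_contra hcon
      refine hbad (Or.inl ?_)
      rw [← hAdef]
      omega
    have hb2 : ∀ k ∈ Ms, ¬ k ∣ n := fun k hk hd => hbad (Or.inr (Or.inl ⟨k, hk, hd⟩))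
    have hb3 : ∀ l < m, (M1 ≤ dg A Bs l n ∧ dg A Bs l n + M1 < Bs) ∧
        E Ms1 (n / P A Bs l) < rho := by
      intro l hl
      by_contra hcon
      refine hbad (Or.inr (Or.inr ⟨l, hl, ?_⟩))
      rw [← hBdef, hPP]
      by_contra hcon2
      push Not at hcon2
      apply hcon
      refine ⟨⟨hcon2.1.1, hcon2.1.2⟩, hcon2.2⟩
    refine ⟨⟨hb2, fun l hl => by have := (hb3 l hl).2; omega⟩, fun g => ?_⟩
    obtain ⟨t0, ht0, hL0, hR0⟩ := hcomp (n % A) (fun k hk hd => hb2 k hk ((hdvd k hk n).1 hd)) g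
    have hi := hlv g
    let σ : Fin A := ⟨n % A - t0, by omega⟩
    obtain ⟨t1, ht1, hL1, hR1⟩ := hcomp1 (dg A Bs (lv g) n)
      (by have := (hb3 (lv g) hi).2; rw [← hE] at this; exact this) (g, σ)
    obtain ⟨hb31, hb32⟩ := (hb3 (lv g) hi).1
    have hdm : ∀ l, dg A Bs l n < Bs := fun l => Nat.mod_lt _ hB
    let x : ℕ → ℕ := fun l => if l < lv g then dg A Bs l n else if l = lv g then t1 else 0
    let y : ℕ → ℕ := fun l => if l < lv g then 0 else if l = lv g then dg A Bs l n - t1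
      else dg A Bs l n
    have hx : ∀ l < m, x l < Bs := by
      intro l _
      have := hdm l
      simp only [x]
      split_ifs <;> omega
    have hy : ∀ l < m, y l < Bs := by
      intro l _
      have := hdm l
      simp only [y]
      split_ifs <;> omega
    have hxy : ∀ l < m, x l + y l = dg A Bs l n := by
      intro l _
      simp only [x, y]
      split_ifs with h1 h2
      · omega
      · subst h2; omega
      · omega
    have htop : 2 * (3 * m + 4) ≤ n / P A Bs m := by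
      rw [Nat.le_div_iff_mul_le (P_pos hA hB m)]
      rw [hPP] at hn
      calc 2 * (3 * m + 4) * P A Bs m = 2 * (P A Bs m * (3 * m + 4)) := by ring
        _ ≤ n := hn
    have ht0A : t0 < A := by omega
    have hsA : n % A - t0 < A := by omega
    refine ⟨V A Bs x t0 m + P A Bs m * (3 * lv g + 3),
      V A Bs y (n % A - t0) m + P A Bs m * (n / P A Bs m - (3 * lv g + 3)), ?_, ?_, ?_⟩
    · have h1 := V_add (A := A) (Bs := Bs) x y t0 (n % A - t0) m
      have h2 := V_congr (A := A) (Bs := Bs) (a := t0 + (n % A - t0)) hxy m le_rfl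
      have h3 := V_self (A := A) (Bs := Bs) n m
      have h4 : t0 + (n % A - t0) = n % A := by omega
      rw [h4] at h1 h2
      have h5 : P A Bs m * (3 * lv g + 3) + P A Bs m * (n / P A Bs m - (3 * lv g + 3)) =
          P A Bs m * (n / P A Bs m) := by
        rw [← Nat.mul_add]; congr 1; omega
      omega
    · refine hnmL' _ g σ ⟨?_, ?_, ?_, ?_, ?_, ?_, ?_⟩
      · rw [V_star ht0A hx]; exact ht0
      · rw [V_star ht0A hx]; exact hL0
      · intro l hl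
        rw [V_dg hA hB ht0A hx _ l (by omega)]
        have : x l = dg A Bs l n := by simp [x, hl]
        rw [this, hE]; exact (hb3 l (by omega)).2
      · rw [V_dg hA hB ht0A hx _ _ hi]
        have : x (lv g) = t1 := by simp [x]
        rw [this]; exact ht1
      · rw [V_dg hA hB ht0A hx _ _ hi]
        have : x (lv g) = t1 := by simp [x]
        rw [this]; exact hL1
      · intro l hl1 hl2
        rw [V_dg hA hB ht0A hx _ l hl2]
        simp only [x]
        rw [if_neg (by omega), if_neg (by omega)]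
      · exact V_top hA hB ht0A hx _
    · refine hnmR' _ g σ ⟨?_, ?_, ?_, ?_, ?_, ?_, ?_, ?_⟩
      · rw [V_star hsA hy]; omega
      · rw [V_star hsA hy]
        exact hR0 _ (by
          have : t0 + (n % A - t0) = n % A := by omega
          rw [this])
      · intro l hl
        rw [V_dg hA hB hsA hy _ l (by omega)]
        simp [y, hl]
      · rw [V_dg hA hB hsA hy _ _ hi]
        have : y (lv g) = dg A Bs (lv g) n - t1 := by simp [y]
        rw [this]; omega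
      · rw [V_dg hA hB hsA hy _ _ hi]
        have : y (lv g) = dg A Bs (lv g) n - t1 := by simp [y]
        rw [this]
        exact hR1 _ (by
          have : t1 + (dg A Bs (lv g) n - t1) = dg A Bs (lv g) n := by omega
          rw [this])
      · rw [V_star hsA hy]
      · intro l hl1 hl2
        rw [V_dg hA hB hsA hy _ l hl2]
        have : y l = dg A Bs l n := by
          simp only [y]; rw [if_neg (by omega), if_neg (by omega)]
        rw [this, hE]; exact (hb3 l hl2).2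
      · rw [V_top hA hB hsA hy]; omega

theorem levelNames : LevelNames := fun N _ => LN_484.level_names N

/-- **U2** -/
theorem clocks (m : ℕ) (Γ C : Type) [Finite Γ] [Finite C] (lv : Γ → ℕ)
    (hlv : ∀ g, lv g < m) (col : Γ → C) :
    ∃ r : ℕ, ∀ B R : ℕ, 3 ≤ R → ∃ (Ms Ms1 : Finset ℕ) (rho M0 M1 : ℕ),
      Ms.card ≤ r ∧ Ms1.card ≤ 32 * rho ∧ 0 < rho ∧
      (∀ k ∈ Ms, B < k ∧ Nat.Prime k ∧ k ∣ M0) ∧ (∀ k ∈ Ms1, B < k ∧ Nat.Prime k ∧ k ∣ M1) ∧
      0 < M0 ∧ 0 < M1 ∧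
      ∃ (nmL nmR : ℕ → Option Γ) (bL bR : ℕ → ℕ → ℕ) (Gd : ℕ → Prop),
        (∀ t g, nmL t = some g → t < PP R M0 M1 m * (3 * m + 4)) ∧
        (∀ t g, nmR t = some g → PP R M0 M1 m * (3 * m + 4) ≤ t) ∧
        (∀ t t' g g', Gd (t + t') → nmL t = some g → nmR t' = some g' →
          g = g' ∧ (∀ l ≤ lv g, bL t l = beta R M0 M1 m (t + t') l) ∧
          (∀ l, lv g < l → l ≤ m → bR t' l + beta R M0 M1 m (t + t') l = t + t') ∧
          beta R M0 M1 m (t + t') (lv g) ≤ t ∧ t ≤ beta R M0 M1 m (t + t') (lv g + 1)) ∧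
        (∀ t₁ t₁' t₂ t₂' g₁ g₁' g₂ g₂', ¬ Gd (t₁ + t₁') → t₁ + t₁' = t₂ + t₂' →
          nmL t₁ = some g₁ → nmR t₁' = some g₁' → nmL t₂ = some g₂ → nmR t₂' = some g₂' →
          col g₁ = col g₂ ∧ col g₁' = col g₂') ∧
        (∀ n, 2 * (PP R M0 M1 m * (3 * m + 4)) ≤ n → ¬ Bad R M0 M1 m rho Ms Ms1 n →
          Gd n ∧ ∀ g, ∃ t t', t + t' = n ∧ nmL t = some g ∧ nmR t' = some g) :=
  clocks_of levelNames m Γ C lv hlv col

end Crest.Agent.R320.Clk638
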