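import Crest.Agent.R320.Names_755
import Crest.Agent.R320.LN_484

/-! Row 320, leaf U2 (638 #13273): assembly of the clocks. -/

set_option autoImplicit false

namespace Crest.Agent.R320.Clk_675

open Classical

/-! ### arithmetic without carries -/

theorem add_div_of {a b P : ℕ} (h : a % P + b % P < P) : (a + b) / P = a / P + b / P := by
  have hP : 0 < P := by omega
  rw [Nat.add_div hP, if_neg (by omega)]
  rfl

theorem add_mod_of {a b P : ℕ} (h : a % P + b % P < P) : (a + b) % P = a % P + b % P := by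
  rw [Nat.add_mod, Nat.mod_eq_of_lt h]

theorem div_eq_of {a P X r : ℕ} (h : a = P * X + r) (hr : r < P) : a / P = X := by
  subst h
  rw [Nat.mul_add_div (by omega), Nat.div_eq_of_lt hr, add_zero]

theorem lift_lt {a s D P : ℕ} (hP : 0 < P) (hd : D ∣ P) (h : a % D + s < D) : a % P + s < P := by
  obtain ⟨c, rfl⟩ := hd
  have hD : 0 < D := by omega
  have hc : 0 < c := Nat.pos_of_mul_pos_left hP |> fun h => by
    rcases Nat.eq_zero_or_pos c with rfl | hc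
    · simp at hP
    · exact hc
  rw [Nat.mod_mul]
  have h1 : a / D % c < c := Nat.mod_lt _ hc
  have h2 : D * (a / D % c) + D ≤ D * c := by
    have : D * (a / D % c + 1) ≤ D * c := Nat.mul_le_mul_left _ h1
    linarith [this, Nat.mul_succ D (a / D % c)]
  omega

theorem step_lt {a b P D : ℕ} (h : a % P + b % P < P) (hd : a / P % D + b / P % D < D) :
    a % (P * D) + b % (P * D) < P * D := by
  rw [Nat.mod_mul, Nat.mod_mul]
  have h2 : P * (a / P % D) + P * (b / P % D) + P ≤ P * D := by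
    have : P * (a / P % D + b / P % D + 1) ≤ P * D := Nat.mul_le_mul_left _ hd
    nlinarith [this]
  omega

/-! ### the definitions of the leaf -/

def PP (R M0 M1 l : ℕ) : ℕ := (R*M0) * (R*M1)^l

def beta (R M0 M1 m n l : ℕ) : ℕ := PP R M0 M1 m * (3*l+2) + n % PP R M0 M1 l

def Bad (R M0 M1 m rho : ℕ) (Ms Ms1 : Finset ℕ) (n : ℕ) : Prop :=
  (n % (R*M0) < M0 ∨ R*M0 ≤ n % (R*M0) + M0) ∨ (∃ k ∈ Ms, k ∣ n) ∨
  ∃ l < m, ((n / PP R M0 M1 l) % (R*M1) < M1 ∨ R*M1 ≤ (n / PP R M0 M1 l) % (R*M1) + M1) ∨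
    rho ≤ (Ms1.filter (· ∣ n / PP R M0 M1 l)).card

def Good (R M0 M1 m rho : ℕ) (Ms Ms1 : Finset ℕ) (n : ℕ) : Prop :=
  (∀ k ∈ Ms, ¬ k ∣ n) ∧ ∀ l < m, (Ms1.filter (· ∣ n / PP R M0 M1 l)).card < 2 * rho

section
variable {R M0 M1 : ℕ}

theorem PP_succ (l : ℕ) : PP R M0 M1 (l+1) = PP R M0 M1 l * (R*M1) := by
  unfold PP; ring

theorem PP_zero : PP R M0 M1 0 = R*M0 := by simp [PP]

theorem PP_add (l k : ℕ) : PP R M0 M1 (l+k) = PP R M0 M1 l * (R*M1)^k := by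
  unfold PP; ring

theorem PP_dvd {l l' : ℕ} (h : l ≤ l') : PP R M0 M1 l ∣ PP R M0 M1 l' := by
  obtain ⟨k, rfl⟩ := Nat.exists_eq_add_of_le h
  exact ⟨_, PP_add l k⟩

theorem D0_dvd (l : ℕ) : R*M0 ∣ PP R M0 M1 l := ⟨_, rfl⟩

theorem PP_pos (hR : 0 < R) (h0 : 0 < M0) (h1 : 0 < M1) (l : ℕ) : 0 < PP R M0 M1 l := by
  unfold PP; positivity

theorem PP_mono (hR : 0 < R) (h0 : 0 < M0) (h1 : 0 < M1) {l l' : ℕ} (h : l ≤ l') :
    PP R M0 M1 l ≤ PP R M0 M1 l' := Nat.le_of_dvd (PP_pos hR h0 h1 _) (PP_dvd h)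

end

structure L0 (R M0 M1 m i t : ℕ) : Prop where
  star : t % (R*M0) < M0
  top : t = PP R M0 M1 m * (3*i+3) + t % PP R M0 M1 (i+1)
  dig : t / PP R M0 M1 i % (R*M1) < M1

structure R0 (R M0 M1 i t : ℕ) : Prop where
  star : t % (R*M0) + M0 ≤ R*M0
  bot : t % PP R M0 M1 i = t % (R*M0)
  dig : t / PP R M0 M1 i % (R*M1) + M1 ≤ R*M1

/-- data of a left clock -/
structure L {Γ : Type} (R M0 M1 m rho : ℕ) (Ms1 : Finset ℕ) (nL1 : ℕ → Option (Γ × Fin (R*M0)))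
    (γ : Γ) (i t : ℕ) (σ : ℕ) : Prop where
  b : L0 R M0 M1 m i t
  nm : ∃ s : Fin (R*M0), (s : ℕ) = σ ∧ nL1 (t / PP R M0 M1 i) = some (γ, s)
  low : ∀ l < i, (Ms1.filter (· ∣ t / PP R M0 M1 l)).card < rho

/-- data of a right clock -/
structure Rt {Γ : Type} (R M0 M1 m rho : ℕ) (Ms1 : Finset ℕ) (nR1 : ℕ → Option (Γ × Fin (R*M0)))
    (γ : Γ) (i t : ℕ) : Prop where
  b : R0 R M0 M1 i t
  nm : ∃ s : Fin (R*M0), (s : ℕ) = t % (R*M0) ∧ nR1 (t / PP R M0 M1 i) = some (γ, s)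
  up : ∀ l, i < l → l < m → (Ms1.filter (· ∣ t / PP R M0 M1 l)).card < rho
  big : PP R M0 M1 m * (3*m+4) ≤ t

section
variable {Γ : Type} {R M0 M1 m rho : ℕ} {Ms1 : Finset ℕ} {nL1 nR1 : ℕ → Option (Γ × Fin (R*M0))}

variable (hR : 0 < R) (h0 : 0 < M0) (h1 : 0 < M1)
include hR h0 h1

/-- left clocks: residues above the own level -/
theorem L0.mod_up {i t : ℕ} (h : L0 R M0 M1 m i t) {l : ℕ} (hl : i < l)
    (hlm : l ≤ m) : t % PP R M0 M1 l = t % PP R M0 M1 (i+1) := by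
  have hlt : t % PP R M0 M1 (i+1) < PP R M0 M1 l :=
    lt_of_lt_of_le (Nat.mod_lt _ (PP_pos hR h0 h1 _)) (PP_mono hR h0 h1 hl)
  conv_lhs => rw [h.top]
  rw [Nat.add_mod, Nat.mod_eq_zero_of_dvd ((PP_dvd hlm).mul_right _), zero_add, Nat.mod_mod,
    Nat.mod_eq_of_lt hlt]

theorem L0.div_up {i t : ℕ} (h : L0 R M0 M1 m i t) {l : ℕ} (hl : i < l)
    (hlm : l ≤ m) : t = PP R M0 M1 m * (3*i+3) + t % PP R M0 M1 l := by
  rw [h.mod_up hR h0 h1 hl hlm]; exact h.top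

theorem L0.lt {i t : ℕ} (h : L0 R M0 M1 m i t) (hi : i < m) :
    t < PP R M0 M1 m * (3*i+4) := by
  have h2 : t % PP R M0 M1 (i+1) < PP R M0 M1 m :=
    lt_of_lt_of_le (Nat.mod_lt _ (PP_pos hR h0 h1 _)) (PP_mono hR h0 h1 hi)
  have h3 := h.top
  have h4 : PP R M0 M1 m * (3*i+4) = PP R M0 M1 m * (3*i+3) + PP R M0 M1 m := by ring
  omega

theorem R0.mod_low {i t : ℕ} (h : R0 R M0 M1 i t) {l : ℕ} (hl : l ≤ i) :
    t % PP R M0 M1 l = t % (R*M0) := by
  have h2 : t % PP R M0 M1 l = t % PP R M0 M1 i % PP R M0 M1 l :=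
    (Nat.mod_mod_of_dvd _ (PP_dvd hl)).symm
  have h3 : t % (R*M0) < PP R M0 M1 l := by
    refine lt_of_lt_of_le (Nat.mod_lt _ (by positivity)) ?_
    have := PP_mono hR h0 h1 (Nat.zero_le l)
    rwa [PP_zero] at this
  rw [h2, h.bot, Nat.mod_eq_of_lt h3]

theorem nocarry {i t t' : ℕ} (hL : L0 R M0 M1 m i t)
    (hRt : R0 R M0 M1 i t') {l : ℕ} (hl : l ≤ m) :
    t % PP R M0 M1 l + t' % PP R M0 M1 l < PP R M0 M1 l := by
  have hlow : ∀ l ≤ i, t % PP R M0 M1 l + t' % PP R M0 M1 l < PP R M0 M1 l := by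
    intro l hl
    rw [hRt.mod_low hR h0 h1 hl]
    refine lift_lt (PP_pos hR h0 h1 _) (D0_dvd l) ?_
    have := hL.star
    have := hRt.star
    omega
  rcases Nat.lt_or_ge i l with hil | hil
  · have hst : t % PP R M0 M1 (i+1) + t' % PP R M0 M1 (i+1) < PP R M0 M1 (i+1) := by
      rw [PP_succ]
      refine step_lt (hlow i le_rfl) ?_
      have := hL.dig
      have := hRt.dig
      omega
    rw [hL.mod_up hR h0 h1 hil hl, add_comm]
    exact lift_lt (PP_pos hR h0 h1 _) (PP_dvd (show i+1 ≤ l from hil)) (by omega)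
  · exact hlow l hil

theorem filter_low (hMs1 : ∀ k ∈ Ms1, k ∣ M1) {i t t' : ℕ}
    (hL : L0 R M0 M1 m i t) (hRt : R0 R M0 M1 i t') (him : i < m) {l : ℕ} (hl : l < i) :
    (Ms1.filter (· ∣ (t + t') / PP R M0 M1 l)) = Ms1.filter (· ∣ t / PP R M0 M1 l) := by
  rw [add_div_of (nocarry hR h0 h1 hL hRt (by omega))]
  have hdv : R*M1 ∣ t' / PP R M0 M1 l := by
    obtain ⟨k, rfl⟩ := Nat.exists_eq_add_of_lt hl
    have hb := hRt.mod_low hR h0 h1 (le_refl _)
    have hc := hRt.mod_low hR h0 h1 (show l ≤ l + k + 1 by omega)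
    have e1 : t' = PP R M0 M1 (l+k+1) * (t' / PP R M0 M1 (l+k+1)) + t' % PP R M0 M1 l := by
      have := Nat.div_add_mod t' (PP R M0 M1 (l+k+1))
      omega
    have e2 : PP R M0 M1 (l+k+1) = PP R M0 M1 l * ((R*M1) * (R*M1)^k) := by
      rw [show l + k + 1 = l + (k+1) by ring, PP_add, pow_succ']
    have e3 : t' / PP R M0 M1 l = (R*M1) * ((R*M1)^k * (t' / PP R M0 M1 (l+k+1))) := by
      refine div_eq_of (r := t' % PP R M0 M1 l) ?_ (Nat.mod_lt _ (PP_pos hR h0 h1 _))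
      rw [e2] at e1 ⊢
      calc t' = _ := e1
        _ = _ := by ring
    rw [e3]
    exact Dvd.intro _ rfl
  apply Finset.filter_congr
  intro k hk
  exact Nat.dvd_add_left ((dvd_trans (hMs1 k hk) (dvd_mul_left _ _)).trans hdv)

theorem count_low (hMs1 : ∀ k ∈ Ms1, k ∣ M1) {γ γ' : Γ} {i t t' σ : ℕ}
    (hL : L R M0 M1 m rho Ms1 nL1 γ i t σ)
    (hRt : Rt R M0 M1 m rho Ms1 nR1 γ' i t') (him : i < m) {l : ℕ} (hl : l < i) :
    (Ms1.filter (· ∣ (t + t') / PP R M0 M1 l)).card < rho := by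
  rw [filter_low hR h0 h1 hMs1 hL.b hRt.b him hl]
  exact hL.low l hl

theorem filter_up (hMs1 : ∀ k ∈ Ms1, k ∣ M1) {i t t' : ℕ}
    (hL : L0 R M0 M1 m i t) (hRt : R0 R M0 M1 i t') {l : ℕ} (hl : i < l) (hlm : l < m) :
    (Ms1.filter (· ∣ (t + t') / PP R M0 M1 l)) = Ms1.filter (· ∣ t' / PP R M0 M1 l) := by
  rw [add_div_of (nocarry hR h0 h1 hL hRt (by omega))]
  have hdv : R*M1 ∣ t / PP R M0 M1 l := by
    obtain ⟨k, rfl⟩ := Nat.exists_eq_add_of_lt hlm
    have e1 := hL.div_up hR h0 h1 hl hlm.le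
    have e2 : PP R M0 M1 (l+k+1) = PP R M0 M1 l * ((R*M1) * (R*M1)^k) := by
      rw [show l + k + 1 = l + (k+1) by ring, PP_add, pow_succ']
    have e3 : t / PP R M0 M1 l = (R*M1) * ((R*M1)^k * (3*i+3)) := by
      refine div_eq_of (r := t % PP R M0 M1 l) ?_ (Nat.mod_lt _ (PP_pos hR h0 h1 _))
      rw [e2] at e1
      calc t = _ := e1
        _ = _ := by ring
    rw [e3]
    exact Dvd.intro _ rfl
  apply Finset.filter_congr
  intro k hk
  exact Nat.dvd_add_right ((dvd_trans (hMs1 k hk) (dvd_mul_left _ _)).trans hdv)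

theorem count_up (hMs1 : ∀ k ∈ Ms1, k ∣ M1) {γ γ' : Γ} {i t t' σ : ℕ}
    (hL : L R M0 M1 m rho Ms1 nL1 γ i t σ)
    (hRt : Rt R M0 M1 m rho Ms1 nR1 γ' i t') {l : ℕ} (hl : i < l) (hlm : l < m) :
    (Ms1.filter (· ∣ (t + t') / PP R M0 M1 l)).card < rho := by
  rw [filter_up hR h0 h1 hMs1 hL.b hRt.b hl hlm]
  exact hRt.up l hl hlm

end

section defs
variable {Γ : Type} (R M0 M1 m rho : ℕ) (Ms1 : Finset ℕ) (lv : Γ → ℕ) (nLs nRs : ℕ → Option Γ)
  (nL1 nR1 : ℕ → Option (Γ × Fin (R*M0)))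

noncomputable def nmL (t : ℕ) : Option Γ :=
  if ∃ γ σ, nLs t = some γ ∧ L R M0 M1 m rho Ms1 nL1 γ (lv γ) t σ then nLs t else none

noncomputable def nmR (t : ℕ) : Option Γ :=
  if ∃ γ, nRs t = some γ ∧ Rt R M0 M1 m rho Ms1 nR1 γ (lv γ) t then nRs t else none

def sg (t : ℕ) : ℕ :=
  match nLs t with
  | none => 0
  | some γ => match nL1 (t / PP R M0 M1 (lv γ)) with
    | none => 0
    | some p => p.2

def bL (t l : ℕ) : ℕ := PP R M0 M1 m * (3*l+2) + (t + sg R M0 M1 lv nLs nL1 t) % PP R M0 M1 l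

def bR (t l : ℕ) : ℕ :=
  match nRs t with
  | none => 0
  | some γ => PP R M0 M1 m * (3 * lv γ + 3) + (t - t % PP R M0 M1 l) - PP R M0 M1 m * (3*l+2)

variable {R M0 M1 m rho Ms1 lv nLs nRs nL1 nR1}

theorem nmL_some {t : ℕ} {γ : Γ} (h : nmL R M0 M1 m rho Ms1 lv nLs nL1 t = some γ) :
    nLs t = some γ ∧ L R M0 M1 m rho Ms1 nL1 γ (lv γ) t (sg R M0 M1 lv nLs nL1 t) := by
  unfold nmL at h
  split_ifs at h with hc
  obtain ⟨γ', σ, h1, h2⟩ := hc
  rw [h1] at h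
  obtain rfl : γ' = γ := by simpa using h
  refine ⟨h1, ?_⟩
  obtain ⟨s, hs, hn⟩ := h2.nm
  have : sg R M0 M1 lv nLs nL1 t = σ := by
    unfold sg
    rw [h1]
    simp only [hn, hs]
  rw [this]
  exact h2

theorem nmL_of {t : ℕ} {γ : Γ} {σ : ℕ} (h1 : nLs t = some γ)
    (h2 : L R M0 M1 m rho Ms1 nL1 γ (lv γ) t σ) :
    nmL R M0 M1 m rho Ms1 lv nLs nL1 t = some γ := by
  unfold nmL
  rw [if_pos ⟨γ, σ, h1, h2⟩, h1]

theorem nmR_some {t : ℕ} {γ : Γ} (h : nmR R M0 M1 m rho Ms1 lv nRs nR1 t = some γ) :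
    nRs t = some γ ∧ Rt R M0 M1 m rho Ms1 nR1 γ (lv γ) t := by
  unfold nmR at h
  split_ifs at h with hc
  obtain ⟨γ', h1, h2⟩ := hc
  rw [h1] at h
  obtain rfl : γ' = γ := by simpa using h
  exact ⟨h1, h2⟩

theorem nmR_of {t : ℕ} {γ : Γ} (h1 : nRs t = some γ)
    (h2 : Rt R M0 M1 m rho Ms1 nR1 γ (lv γ) t) :
    nmR R M0 M1 m rho Ms1 lv nRs nR1 t = some γ := by
  unfold nmR
  rw [if_pos ⟨γ, h1, h2⟩, h1]

end defs

theorem clocks (m : ℕ) (Γ C : Type) [Finite Γ] [Finite C] (lv : Γ → ℕ) (hlv : ∀ g, lv g < m)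
    (col : Γ → C) :
    ∃ r : ℕ, ∀ B R : ℕ, 3 ≤ R → ∃ (Ms Ms1 : Finset ℕ) (rho M0 M1 : ℕ) (nmL nmR : ℕ → Option Γ)
      (bL bR : ℕ → ℕ → ℕ) (Gd : ℕ → Prop),
      Ms.card ≤ r ∧ Ms1.card ≤ 32*rho ∧ 0 < rho ∧
      (∀ k ∈ Ms, B < k ∧ Nat.Prime k ∧ k ∣ M0) ∧ (∀ k ∈ Ms1, B < k ∧ Nat.Prime k ∧ k ∣ M1) ∧
      0 < M0 ∧ 0 < M1 ∧
      (∀ t g, nmL t = some g → t < PP R M0 M1 m * (3*m+4)) ∧
      (∀ t g, nmR t = some g → PP R M0 M1 m * (3*m+4) ≤ t) ∧
      (∀ t t' g g', Gd (t+t') → nmL t = some g → nmR t' = some g' →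
        g = g' ∧ (∀ l ≤ lv g, bL t l = beta R M0 M1 m (t+t') l) ∧
        (∀ l, lv g < l → l ≤ m → bR t' l + beta R M0 M1 m (t+t') l = t+t') ∧
        beta R M0 M1 m (t+t') (lv g) ≤ t ∧ t ≤ beta R M0 M1 m (t+t') (lv g + 1)) ∧
      (∀ t₁ t₁' t₂ t₂' g₁ g₁' g₂ g₂', ¬ Gd (t₁+t₁') → t₁+t₁' = t₂+t₂' → nmL t₁ = some g₁ →
        nmR t₁' = some g₁' → nmL t₂ = some g₂ → nmR t₂' = some g₂' →
        col g₁ = col g₂ ∧ col g₁' = col g₂') ∧
      (∀ n, 2*(PP R M0 M1 m * (3*m+4)) ≤ n → ¬ Bad R M0 M1 m rho Ms Ms1 n →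
        Gd n ∧ ∀ g, ∃ t t', t+t' = n ∧ nmL t = some g ∧ nmR t' = some g) ∧
      (∀ n, Gd n ↔ Good R M0 M1 m rho Ms Ms1 n) := by
  obtain ⟨r, hr⟩ := Names755.names Γ C col
  refine ⟨r, fun B R hR3 => ?_⟩
  obtain ⟨Ms, M0, nLs, nRs, hcard, hMs, hM0, hpL, hpR, hgood, hcomp, hbad⟩ := hr B
  obtain ⟨rho, hrho, hr1⟩ := LN_484.level_names (Γ × Fin (R*M0))
  obtain ⟨Ms1, M1, nL1, nR1, hcard1, hMs1, hM1, hpL1, hpR1, hsame1, hdiff1, hswap1, hcomp1⟩ := hr1 B
  have hR : 0 < R := by omega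
  have hMs1' : ∀ k ∈ Ms1, k ∣ M1 := fun k hk => (hMs1 k hk).2.2
  have perL : ∀ t, nLs (t % (R*M0)) = nLs t := by
    intro t
    have h1 : ∀ c t, nLs (t + M0 * c) = nLs t := by
      intro c
      induction c with
      | zero => intro t; simp
      | succ c ih => intro t; rw [Nat.mul_succ, ← Nat.add_assoc, hpL, ih]
    have h2 := Nat.mod_add_div t (R*M0)
    conv_rhs => rw [← h2, show R * M0 * (t / (R*M0)) = M0 * (R * (t / (R*M0))) by ring, h1]
  have perR : ∀ t, nRs (t % (R*M0)) = nRs t := by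
    intro t
    have h1 : ∀ c t, nRs (t + M0 * c) = nRs t := by
      intro c
      induction c with
      | zero => intro t; simp
      | succ c ih => intro t; rw [Nat.mul_succ, ← Nat.add_assoc, hpR, ih]
    have h2 := Nat.mod_add_div t (R*M0)
    conv_rhs => rw [← h2, show R * M0 * (t / (R*M0)) = M0 * (R * (t / (R*M0))) by ring, h1]
  have perL1 : ∀ t, nL1 (t % (R*M1)) = nL1 t := by
    intro t
    have h1 : ∀ c t, nL1 (t + M1 * c) = nL1 t := by
      intro c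
      induction c with
      | zero => intro t; simp
      | succ c ih => intro t; rw [Nat.mul_succ, ← Nat.add_assoc, hpL1, ih]
    have h2 := Nat.mod_add_div t (R*M1)
    conv_rhs => rw [← h2, show R * M1 * (t / (R*M1)) = M1 * (R * (t / (R*M1))) by ring, h1]
  have perR1 : ∀ t, nR1 (t % (R*M1)) = nR1 t := by
    intro t
    have h1 : ∀ c t, nR1 (t + M1 * c) = nR1 t := by
      intro c
      induction c with
      | zero => intro t; simp
      | succ c ih => intro t; rw [Nat.mul_succ, ← Nat.add_assoc, hpR1, ih]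
    have h2 := Nat.mod_add_div t (R*M1)
    conv_rhs => rw [← h2, show R * M1 * (t / (R*M1)) = M1 * (R * (t / (R*M1))) by ring, h1]
  have hPm : 0 < PP R M0 M1 m := PP_pos hR hM0 hM1 m
  refine ⟨Ms, Ms1, rho, M0, M1, nmL R M0 M1 m rho Ms1 lv nLs nL1, nmR R M0 M1 m rho Ms1 lv nRs nR1,
    bL R M0 M1 m lv nLs nL1, bR R M0 M1 m lv nRs, Good R M0 M1 m rho Ms Ms1, hcard, hcard1, hrho,
    hMs, hMs1, hM0, hM1, ?_, ?_, ?_, ?_, ?_, fun n => Iff.rfl⟩
  · intro t g ht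
    obtain ⟨-, hL⟩ := nmL_some ht
    refine lt_of_lt_of_le (hL.b.lt hR hM0 hM1 (hlv g)) (Nat.mul_le_mul_left _ ?_)
    have := hlv g
    omega
  · intro t g ht
    obtain ⟨-, hRt⟩ := nmR_some ht
    exact hRt.big
  · -- soundness
    intro t t' g g' hG ht ht'
    obtain ⟨e1, hL⟩ := nmL_some ht
    obtain ⟨e2, hRt⟩ := nmR_some ht'
    obtain rfl : g = g' := hgood t t' g g' e1 e2 hG.1
    have hi := hlv g
    set σ := sg R M0 M1 lv nLs nL1 t with hσ
    obtain ⟨s, hs, hn⟩ := hL.nm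
    obtain ⟨s', hs', hn'⟩ := hRt.nm
    have hss : s = s' := by
      by_contra hne
      have h1 := hdiff1 _ _ _ _ hn hn' (by simpa using hne)
      rw [← add_div_of (nocarry hR hM0 hM1 hL.b hRt.b hi.le)] at h1
      have h2 := hG.2 (lv g) hi
      omega
    have hσ' : σ = t' % (R*M0) := by rw [← hs, ← hs', hss]
    refine ⟨rfl, ?_, ?_, ?_, ?_⟩
    · intro l hl
      unfold bL beta
      congr 1
      rw [← hσ, hσ', ← hRt.b.mod_low hR hM0 hM1 hl, Nat.add_mod_mod]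
    · intro l hl hlm
      have hb : bR R M0 M1 m lv nRs t' l = PP R M0 M1 m * (3 * lv g + 3) +
          (t' - t' % PP R M0 M1 l) - PP R M0 M1 m * (3*l+2) := by
        unfold bR; rw [e2]
      rw [hb]
      unfold beta
      rw [add_mod_of (nocarry hR hM0 hM1 hL.b hRt.b hlm)]
      have h1 := hL.b.div_up hR hM0 hM1 hl hlm
      have h2 := hRt.big
      have h3 : PP R M0 M1 m * (3*l+2) ≤ PP R M0 M1 m * (3*m+2) := Nat.mul_le_mul_left _ (by omega)
      have h4 : PP R M0 M1 m * (3*m+4) = PP R M0 M1 m * (3*m+2) + PP R M0 M1 m + PP R M0 M1 m := by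
        ring
      have h5 : t' % PP R M0 M1 l < PP R M0 M1 m :=
        lt_of_lt_of_le (Nat.mod_lt _ (PP_pos hR hM0 hM1 _)) (PP_mono hR hM0 hM1 hlm)
      omega
    · unfold beta
      have h1 := hL.b.top
      have h5 : (t + t') % PP R M0 M1 (lv g) < PP R M0 M1 m :=
        lt_of_lt_of_le (Nat.mod_lt _ (PP_pos hR hM0 hM1 _)) (PP_mono hR hM0 hM1 hi.le)
      have h4 : PP R M0 M1 m * (3*lv g+3) = PP R M0 M1 m * (3*lv g+2) + PP R M0 M1 m := by ring
      omega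
    · unfold beta
      have h1 := hL.b.lt hR hM0 hM1 hi
      have h4 : PP R M0 M1 m * (3*(lv g+1)+2) = PP R M0 M1 m * (3*lv g+4) + PP R M0 M1 m := by ring
      omega
  · -- bad totals
    intro t₁ t₁' t₂ t₂' g₁ g₁' g₂ g₂' hG hT h1 h1' h2 h2'
    obtain ⟨a1, L1⟩ := nmL_some h1
    obtain ⟨a1', R1⟩ := nmR_some h1'
    obtain ⟨a2, L2⟩ := nmL_some h2
    obtain ⟨a2', R2⟩ := nmR_some h2'
    by_cases hk : ∃ k ∈ Ms, k ∣ t₁ + t₁'
    · exact hbad _ _ _ _ _ _ _ _ a1 a1' a2 a2' hT hk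
    · push Not at hk
      obtain rfl : g₁ = g₁' := hgood _ _ _ _ a1 a1' hk
      obtain rfl : g₂ = g₂' := hgood _ _ _ _ a2 a2' (by rwa [← hT])
      have hl : ∃ l < m, 2 * rho ≤ (Ms1.filter (· ∣ (t₁ + t₁') / PP R M0 M1 l)).card := by
        by_contra hcon
        push Not at hcon
        exact hG ⟨hk, hcon⟩
      obtain ⟨l, hlm, hl⟩ := hl
      have key : ∀ (g : Γ) (t t' σ : ℕ), t + t' = t₁ + t₁' →
          L R M0 M1 m rho Ms1 nL1 g (lv g) t σ → Rt R M0 M1 m rho Ms1 nR1 g (lv g) t' →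
          ∃ s s' : Fin (R*M0), lv g = l ∧ s ≠ s' ∧ nL1 (t / PP R M0 M1 l) = some (g, s) ∧
            nR1 (t' / PP R M0 M1 l) = some (g, s') ∧
            t / PP R M0 M1 l + t' / PP R M0 M1 l = (t₁ + t₁') / PP R M0 M1 l := by
        intro g t t' σ htt hL hRt
        have hlv' : lv g = l := by
          rcases lt_trichotomy (lv g) l with h | h | h
          · have := count_up hR hM0 hM1 hMs1' hL hRt h hlm
            rw [htt] at this
            omega
          · exact h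
          · have := count_low hR hM0 hM1 hMs1' hL hRt (hlv g) h
            rw [htt] at this
            omega
        subst hlv'
        obtain ⟨s, hs, hn⟩ := hL.nm
        obtain ⟨s', hs', hn'⟩ := hRt.nm
        have hd := add_div_of (nocarry hR hM0 hM1 hL.b hRt.b hlm.le)
        refine ⟨s, s', rfl, ?_, hn, hn', ?_⟩
        · rintro rfl
          have := hsame1 _ _ _ hn hn'
          rw [← hd, htt] at this
          omega
        · rw [← hd, htt]
      obtain ⟨s1, s1', -, hs1, n1, n1', d1⟩ := key _ _ _ _ rfl L1 R1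
      obtain ⟨s2, s2', -, hs2, n2, n2', d2⟩ := key _ _ _ _ hT.symm L2 R2
      have := hswap1 _ _ _ _ _ _ _ _ n1 n1' n2 n2' (by rw [d1, d2]) (by simpa using hs1)
        (by simpa using hs2)
      have hgg : g₂ = g₁ := by
        rcases this with h | h
        · exact congrArg Prod.fst h.1
        · exact congrArg Prod.fst h.1
      subst hgg
      exact ⟨rfl, rfl⟩
  · -- completeness
    intro n hn hB
    unfold Bad at hB
    push Not at hB
    obtain ⟨⟨b1, b2⟩, b3, b4⟩ := hB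
    refine ⟨⟨b3, fun l hl => ?_⟩, fun g => ?_⟩
    · have := (b4 l hl).2
      omega
    have hi := hlv g
    set i := lv g with hi'
    obtain ⟨s, hs, hsn, hsr⟩ := hcomp n b3 g
    have hσ1 : n % (R*M0) - s < R*M0 := by omega
    let σ : Fin (R*M0) := ⟨n % (R*M0) - s, hσ1⟩
    obtain ⟨d, hd, hdn, hdr⟩ := hcomp1 (n / PP R M0 M1 i) (b4 i hi).2 (g, σ)
    obtain ⟨c1, c2⟩ := (b4 i hi).1
    -- the two clocks
    set P := PP R M0 M1 i with hP
    have hPpos : 0 < P := PP_pos hR hM0 hM1 i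
    set e := n / P % (R*M1) with he
    set A' := n / P / (R*M1) with hA'
    have hA : n / P = (R*M1) * A' + e := (Nat.div_add_mod _ _).symm
    have hnP : n = P * (n / P) + n % P := (Nat.div_add_mod _ _).symm
    have hq : n % P = (R*M0) * (n % P / (R*M0)) + n % (R*M0) := by
      have h1 := Nat.div_add_mod (n % P) (R*M0)
      rw [Nat.mod_mod_of_dvd n (D0_dvd i)] at h1
      omega
    obtain ⟨y, hy⟩ : ∃ y, m = i + 1 + y := ⟨m - (i+1), by omega⟩
    have hPm' : PP R M0 M1 m = P * ((R*M1) * (R*M1)^y) := by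
      rw [hP]
      unfold PP
      rw [hy]
      ring
    set Z := (R*M1)^y * (3*i+3) with hZ
    have hPZ : PP R M0 M1 m * (3*i+3) = P * ((R*M1) * Z) := by
      rw [hPm', hZ]; ring
    set u := n % P - (n % (R*M0) - s) with hu
    have hu1 : u + (n % (R*M0) - s) = n % P := by omega
    have hu2 : u = (R*M0) * (n % P / (R*M0)) + s := by omega
    have hnPlt : n % P < P := Nat.mod_lt _ hPpos
    have huP : u < P := by omega
    have hM0R : M0 ≤ R * M0 := Nat.le_mul_of_pos_left _ hR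
    have hM1R : M1 ≤ R * M1 := Nat.le_mul_of_pos_left _ hR
    have husD : u % (R*M0) = s := by
      rw [hu2, Nat.mul_add_mod, Nat.mod_eq_of_lt (by omega)]
    have hD1 : 0 < R * M1 := by positivity
    have hsuc : PP R M0 M1 (i+1) = P * (R*M1) := PP_succ i
    have hZA : Z ≤ A' := by
      by_contra hcon
      have h1 : A' + 1 ≤ Z := by omega
      have h2 : P * ((R*M1) * (A'+1)) ≤ P * ((R*M1) * Z) :=
        Nat.mul_le_mul_left _ (Nat.mul_le_mul_left _ h1)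
      have h3 : P * ((R*M1) * (A'+1)) = P * ((R*M1)*A') + P * (R*M1) := by ring
      have h4 : P * (e + 1) ≤ P * (R*M1) := Nat.mul_le_mul_left _ (by
        have := Nat.mod_lt (n/P) hD1
        omega)
      have h5 : P * (e+1) = P * e + P := by ring
      have h6 : n = P * ((R*M1)*A') + P * e + n % P := by
        conv_lhs => rw [hnP, hA]
        ring
      have h7 : PP R M0 M1 m * (3*i+3) ≤ PP R M0 M1 m * (3*m+4) :=
        Nat.mul_le_mul_left _ (by omega)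
      omega
    set t := P * ((R*M1) * Z + d) + u with ht
    set t' := P * ((R*M1) * (A' - Z) + (e - d)) + (n % (R*M0) - s) with ht'
    have hσP : n % (R*M0) - s < P := by omega
    have htt : t + t' = n := by
      have h1 : t + t' = P * ((R*M1) * (Z + (A' - Z)) + (d + (e - d))) + (u + (n % (R*M0) - s)) := by
        rw [ht, ht']; ring
      rw [h1, hu1, Nat.add_sub_cancel' hZA, Nat.add_sub_cancel' (by omega : d ≤ e), ← hA, ← hnP]
    have htP : t / P = (R*M1) * Z + d := div_eq_of ht huP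
    have htP' : t' / P = (R*M1) * (A' - Z) + (e - d) := div_eq_of ht' hσP
    have htd : t / P % (R*M1) = d := by
      rw [htP, Nat.mul_add_mod, Nat.mod_eq_of_lt (by omega)]
    have htd' : t' / P % (R*M1) = e - d := by
      rw [htP', Nat.mul_add_mod, Nat.mod_eq_of_lt]
      have := Nat.mod_lt (n/P) hD1
      omega
    have htD : t % (R*M0) = s := by
      have h1 : t % (R*M0) = t % P % (R*M0) := (Nat.mod_mod_of_dvd t (D0_dvd i)).symm
      rw [h1, ht, Nat.mul_add_mod, Nat.mod_eq_of_lt huP, husD]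
    have htP2 : t' % P = n % (R*M0) - s := by
      rw [ht', Nat.mul_add_mod, Nat.mod_eq_of_lt hσP]
    have htD' : t' % (R*M0) = n % (R*M0) - s := by
      have h1 : t' % (R*M0) = t' % P % (R*M0) := (Nat.mod_mod_of_dvd t' (D0_dvd i)).symm
      rw [h1, htP2, Nat.mod_eq_of_lt hσ1]
    have htop : t = PP R M0 M1 m * (3*i+3) + t % PP R M0 M1 (i+1) := by
      have h1 : t % PP R M0 M1 (i+1) = P * d + u := by
        rw [hsuc, Nat.mod_mul, htd, ht, Nat.mul_add_mod, Nat.mod_eq_of_lt huP]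
        ring
      rw [h1, hPZ, ht]
      ring
    have hL0 : L0 R M0 M1 m i t := ⟨by rw [htD]; exact hs, htop, by rw [← hP, htd]; exact hd⟩
    have hR0 : R0 R M0 M1 i t' := ⟨by rw [htD']; omega, by rw [← hP, htP2, htD'],
      by rw [← hP, htd']; omega⟩
    have hLt : L R M0 M1 m rho Ms1 nL1 g i t σ := by
      refine ⟨hL0, ⟨σ, rfl, ?_⟩, ?_⟩
      · rw [← hP, ← perL1, htd, hdn]
      · intro l hl
        rw [← filter_low hR hM0 hM1 hMs1' hL0 hR0 hi hl, htt]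
        exact (b4 l (by omega)).2
    have hRt : Rt R M0 M1 m rho Ms1 nR1 g i t' := by
      refine ⟨hR0, ⟨σ, htD'.symm, ?_⟩, ?_, ?_⟩
      · rw [← hP, ← perR1, htd']
        apply hdr
        rw [Nat.add_sub_cancel' (by omega : d ≤ e)]
        exact Nat.mod_mod_of_dvd _ (dvd_mul_left _ _)
      · intro l hl hlm
        rw [← filter_up hR hM0 hM1 hMs1' hL0 hR0 hl hlm, htt]
        exact (b4 l hlm).2
      · have h1 := hL0.lt hR hM0 hM1 hi
        have h2 : PP R M0 M1 m * (3*i+4) ≤ PP R M0 M1 m * (3*m+4) :=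
          Nat.mul_le_mul_left _ (by omega)
        omega
    refine ⟨t, t', htt, nmL_of (σ := σ) ?_ hLt, nmR_of ?_ hRt⟩
    · rw [← perL, htD, hsn]
    · rw [← perR, htD']
      apply hsr
      rw [Nat.add_sub_cancel' (by omega : s ≤ n % (R*M0))]
      exact Nat.mod_mod_of_dvd _ (dvd_mul_left _ _)

end Crest.Agent.R320.Clk_675
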