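import Crest.Agent.R320.Names_755
import Crest.Agent.R320.LN_484

/-! helper80: leaf U2 (`clocks`) of helper638 #13273: three-group mixed radix clocks.
Star group = 755's names, level groups = error tolerant names (level_names). -/

namespace Crest.Agent.R320.Clk_80

def PP (R M0 M1 l : ℕ) : ℕ := (R*M0) * (R*M1)^l
def beta (R M0 M1 m n l : ℕ) : ℕ := PP R M0 M1 m * (3*l+2) + n % PP R M0 M1 l
def Bad (R M0 M1 m rho : ℕ) (Ms Ms1 : Finset ℕ) (n : ℕ) : Prop :=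
  (n % (R*M0) < M0 ∨ R*M0 ≤ n % (R*M0) + M0) ∨ (∃ k ∈ Ms, k ∣ n) ∨
    ∃ l < m, ((n / PP R M0 M1 l) % (R*M1) < M1 ∨ R*M1 ≤ (n / PP R M0 M1 l) % (R*M1) + M1) ∨
      rho ≤ (Ms1.filter (· ∣ n / PP R M0 M1 l)).card

/-! ### mixed radix -/

/-- place values -/
def P (a b l : ℕ) : ℕ := a * b ^ l

theorem P_zero (a b : ℕ) : P a b 0 = a := by simp [P]
theorem P_succ (a b l : ℕ) : P a b (l+1) = P a b l * b := by simp [P, pow_succ, mul_assoc]
theorem P_pos {a b : ℕ} (ha : 0 < a) (hb : 0 < b) (l : ℕ) : 0 < P a b l := by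
  unfold P; positivity
theorem P_dvd {a b l l' : ℕ} (h : l ≤ l') : P a b l ∣ P a b l' := by
  unfold P; exact Nat.mul_dvd_mul_left _ (pow_dvd_pow _ h)
theorem P_le {a b l l' : ℕ} (hb : 0 < b) (h : l ≤ l') : P a b l ≤ P a b l' := by
  unfold P; exact Nat.mul_le_mul_left _ (Nat.pow_le_pow_right hb h)
theorem PP_eq (R M0 M1 l : ℕ) : PP R M0 M1 l = P (R*M0) (R*M1) l := rfl

/-- the number with given digits -/
def num (a b s : ℕ) (d : ℕ → ℕ) : ℕ → ℕ → ℕ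
  | 0, top => s + a * top
  | m+1, top => num a b s d m (d m + b * top)

theorem num_mod {a b s : ℕ} {d : ℕ → ℕ} (hs : s < a) : ∀ (m top : ℕ), num a b s d m top % a = s
  | 0, top => by simp [num, Nat.mod_eq_of_lt hs]
  | m+1, top => by rw [num]; exact num_mod hs m _

theorem num_div {a b s : ℕ} {d : ℕ → ℕ} (hs : s < a) :
    ∀ (m top : ℕ), (∀ l < m, d l < b) → num a b s d m top / P a b m = top
  | 0, top, _ => by
    rw [num, P_zero, Nat.add_mul_div_left _ _ (by omega : 0 < a), Nat.div_eq_of_lt hs, zero_add]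
  | m+1, top, h => by
    rw [num, P_succ, ← Nat.div_div_eq_div_mul, num_div hs m _ (fun l hl => h l (by omega))]
    have hm := h m (by omega)
    rw [Nat.add_mul_div_left _ _ (by omega : 0 < b), Nat.div_eq_of_lt hm, zero_add]

theorem num_digit {a b s : ℕ} {d : ℕ → ℕ} (hs : s < a) :
    ∀ (m top : ℕ), (∀ l < m, d l < b) → ∀ l < m, num a b s d m top / P a b l % b = d l
  | 0, _, _, l, hl => by omega
  | m+1, top, h, l, hl => by
    rw [num]
    rcases Nat.lt_succ_iff_lt_or_eq.mp hl with h1 | h1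
    · exact num_digit hs m _ (fun l hl => h l (by omega)) l h1
    · subst h1
      rw [num_div hs l _ (fun l' hl' => h l' (by omega)), Nat.add_mul_mod_self_left,
        Nat.mod_eq_of_lt (h l hl)]

theorem num_add {a b : ℕ} (s s' : ℕ) (d d' : ℕ → ℕ) :
    ∀ (m top top' : ℕ), num a b s d m top + num a b s' d' m top' =
      num a b (s+s') (fun l => d l + d' l) m (top + top')
  | 0, top, top' => by simp only [num]; ring
  | m+1, top, top' => by
    simp only [num]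
    rw [num_add s s' d d' m]
    congr 1
    ring

theorem num_self {a b : ℕ} (n : ℕ) :
    ∀ m : ℕ, num a b (n % a) (fun l => n / P a b l % b) m (n / P a b m) = n
  | 0 => by rw [num, P_zero]; exact Nat.mod_add_div n a
  | m+1 => by
    rw [num]
    have : n / P a b m % b + b * (n / P a b (m+1)) = n / P a b m := by
      rw [P_succ, ← Nat.div_div_eq_div_mul]
      exact Nat.mod_add_div _ _
    rw [this]
    exact num_self n m

theorem num_congr {a b s : ℕ} {d d' : ℕ → ℕ} : ∀ (m top : ℕ), (∀ l < m, d l = d' l) →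
    num a b s d m top = num a b s d' m top
  | 0, _, _ => rfl
  | m+1, top, h => by
    simp only [num]
    rw [h m (by omega)]
    exact num_congr m _ (fun l hl => h l (by omega))

theorem num_ge {a b s : ℕ} {d : ℕ → ℕ} (m top : ℕ) : P a b m * top ≤ num a b s d m top := by
  induction m generalizing top with
  | zero => simp [num, P_zero]
  | succ m ih =>
    rw [num]
    refine le_trans ?_ (ih _)
    rw [P_succ]
    have : P a b m * b * top = P a b m * (b * top) := by ring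
    rw [this]
    exact Nat.mul_le_mul_left _ (by omega)

/-- no carries -/
theorem split_div {a b m t t' : ℕ} (h0 : t % a + t' % a < a)
    (hd : ∀ l < m, t / P a b l % b + t' / P a b l % b < b) :
    ∀ l ≤ m, (t + t') / P a b l = t / P a b l + t' / P a b l
  | 0, _ => by
    rw [P_zero]; exact Nat.add_div_eq_of_add_mod_lt h0
  | l+1, hl => by
    have ih := split_div h0 hd l (by omega)
    rw [P_succ, ← Nat.div_div_eq_div_mul, ← Nat.div_div_eq_div_mul, ← Nat.div_div_eq_div_mul, ih]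
    exact Nat.add_div_eq_of_add_mod_lt (hd l (by omega))

theorem mod_eq_low {a b t' l : ℕ} (hz : ∀ j < l, t' / P a b j % b = 0) :
    t' % P a b l = t' % a := by
  induction l with
  | zero => rw [P_zero]
  | succ l ih =>
    rw [P_succ, Nat.mod_mul, hz l (by omega), ih (fun j hj => hz j (by omega))]
    simp

theorem mod_eq_high {a b t l m : ℕ} (hlm : l ≤ m) (hz : ∀ j, l ≤ j → j < m → t / P a b j % b = 0) :
    t % P a b m = t % P a b l := by
  induction m, hlm using Nat.le_induction with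
  | base => rfl
  | succ m hm ih =>
    rw [P_succ, Nat.mod_mul, hz m hm (by omega), ih (fun j h1 h2 => hz j h1 (by omega))]
    simp


/-! ### the clocks -/

structure Dat (Γ : Type) where
  (m a b M0 M1 rho : ℕ)
  (lv : Γ → ℕ)
  (Ms Ms1 : Finset ℕ)
  (nL nR : ℕ → Option Γ)
  (kL kR : ℕ → Option (Γ × Fin a))

variable {Γ C : Type}

structure Dat.Ok (D : Dat Γ) (col : Γ → C) : Prop where
  hM0 : 0 < D.M0
  hM1 : 0 < D.M1
  ha : D.M0 ≤ D.a
  hb : D.M1 ≤ D.b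
  da : D.M0 ∣ D.a
  db : D.M1 ∣ D.b
  hlv : ∀ g, D.lv g < D.m
  hMs : ∀ k ∈ D.Ms, k ∣ D.M0
  hMs1 : ∀ k ∈ D.Ms1, k ∣ D.M1
  hrho : 0 < D.rho
  n1 : ∀ t t' c c', D.nL t = some c → D.nR t' = some c' → (∀ k ∈ D.Ms, ¬ k ∣ t + t') → c = c'
  n4 : ∀ T, (∀ k ∈ D.Ms, ¬ k ∣ T) → ∀ c, ∃ t < D.M0, D.nL t = some c ∧
        ∀ t', t + t' ≡ T [MOD D.M0] → D.nR t' = some c
  n3 : ∀ t₁ t₁' t₂ t₂' c₁ c₁' c₂ c₂', D.nL t₁ = some c₁ → D.nR t₁' = some c₁' →
        D.nL t₂ = some c₂ → D.nR t₂' = some c₂' → t₁ + t₁' = t₂ + t₂' →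
        (∃ k ∈ D.Ms, k ∣ t₁ + t₁') → col c₁ = col c₂ ∧ col c₁' = col c₂'
  k1 : ∀ t t' c, D.kL t = some c → D.kR t' = some c →
        (D.Ms1.filter (· ∣ t+t')).card < 2*D.rho
  k2 : ∀ t t' c c', D.kL t = some c → D.kR t' = some c' → c ≠ c' →
        2*D.rho ≤ (D.Ms1.filter (· ∣ t+t')).card
  k3 : ∀ t₁ t₁' t₂ t₂' c₁ c₁' c₂ c₂', D.kL t₁ = some c₁ → D.kR t₁' = some c₁' →
        D.kL t₂ = some c₂ → D.kR t₂' = some c₂' → t₁+t₁' = t₂+t₂' → c₁ ≠ c₁' → c₂ ≠ c₂' →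
        (c₂ = c₁ ∧ c₂' = c₁') ∨ (c₂ = c₁' ∧ c₂' = c₁)
  k4 : ∀ T, (D.Ms1.filter (· ∣ T)).card < D.rho → ∀ c, ∃ t < D.M1, D.kL t = some c ∧
        ∀ t', t+t' ≡ T [MOD D.M1] → D.kR t' = some c

namespace Dat
variable (D : Dat Γ) {col : Γ → C}

abbrev Q (l : ℕ) : ℕ := P D.a D.b l

def LLeg (t : ℕ) (g : Γ) (σ : Fin D.a) : Prop :=
  t % D.a < D.M0 ∧ D.nL (t % D.a) = some g ∧ t / D.Q D.m = 3 * D.lv g + 3 ∧
  (∀ l, D.lv g < l → l < D.m → t / D.Q l % D.b = 0) ∧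
  (∀ l < D.lv g, (D.Ms1.filter (· ∣ t / D.Q l)).card < D.rho) ∧
  t / D.Q (D.lv g) % D.b < D.M1 ∧ D.kL (t / D.Q (D.lv g) % D.b) = some (g, σ)

def RLeg (t : ℕ) (g : Γ) (σ : Fin D.a) : Prop :=
  t % D.a + D.M0 ≤ D.a ∧ D.nR (t % D.a) = some g ∧ D.Q D.m * (3*D.m+4) ≤ t ∧
  (∀ l < D.lv g, t / D.Q l % D.b = 0) ∧
  (∀ l, D.lv g < l → l < D.m → (D.Ms1.filter (· ∣ t / D.Q l)).card < D.rho) ∧
  t / D.Q (D.lv g) % D.b + D.M1 ≤ D.b ∧ (σ : ℕ) = t % D.a ∧
  D.kR (t / D.Q (D.lv g) % D.b) = some (g, σ)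

theorem LLeg.uniq {t : ℕ} {g g' : Γ} {σ σ' : Fin D.a} (h : D.LLeg t g σ) (h' : D.LLeg t g' σ') :
    g = g' ∧ σ = σ' := by
  have h1 : g = g' := by
    have := h.2.1.symm.trans h'.2.1
    simpa using this
  subst h1
  have := h.2.2.2.2.2.2.symm.trans h'.2.2.2.2.2.2
  refine ⟨rfl, ?_⟩
  simpa using this

theorem RLeg.uniq {t : ℕ} {g g' : Γ} {σ σ' : Fin D.a} (h : D.RLeg t g σ) (h' : D.RLeg t g' σ') :
    g = g' ∧ σ = σ' := by
  have h1 : g = g' := by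
    have := h.2.1.symm.trans h'.2.1
    simpa using this
  subst h1
  refine ⟨rfl, ?_⟩
  have e1 := h.2.2.2.2.2.2.1
  have e2 := h'.2.2.2.2.2.2.1
  exact Fin.ext (e1.trans e2.symm)

open Classical in
noncomputable def nmL (t : ℕ) : Option Γ := if h : ∃ g, ∃ σ, D.LLeg t g σ then some h.choose else none
open Classical in
noncomputable def nmR (t : ℕ) : Option Γ := if h : ∃ g, ∃ σ, D.RLeg t g σ then some h.choose else none
open Classical in
noncomputable def bL (t l : ℕ) : ℕ :=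
  if h : ∃ g, ∃ σ, D.LLeg t g σ then
    D.Q D.m * (3*l+2) + (t + ((h.choose_spec.choose : Fin D.a) : ℕ)) % D.Q l else 0
noncomputable def bR (t l : ℕ) : ℕ :=
  match D.nmR t with
  | none => 0
  | some g => D.Q D.m * (3*D.lv g+3) + (t - t % D.Q l) - D.Q D.m * (3*l+2)
def Gd (n : ℕ) : Prop := (∀ k ∈ D.Ms, ¬ k ∣ n) ∧ ∀ l < D.m, (D.Ms1.filter (· ∣ n / D.Q l)).card < 2*D.rho

theorem nmL_iff {t : ℕ} {g : Γ} : D.nmL t = some g ↔ ∃ σ, D.LLeg t g σ := by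
  unfold nmL
  constructor
  · intro h
    split_ifs at h with h1
    · obtain rfl := Option.some.inj h
      exact h1.choose_spec
  · rintro ⟨σ, hσ⟩
    have h1 : ∃ g, ∃ σ, D.LLeg t g σ := ⟨g, σ, hσ⟩
    rw [dif_pos h1]
    obtain ⟨σ', h2⟩ := h1.choose_spec
    rw [(LLeg.uniq D h2 hσ).1]

theorem nmR_iff {t : ℕ} {g : Γ} : D.nmR t = some g ↔ ∃ σ, D.RLeg t g σ := by
  unfold nmR
  constructor
  · intro h
    split_ifs at h with h1
    · obtain rfl := Option.some.inj h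
      exact h1.choose_spec
  · rintro ⟨σ, hσ⟩
    have h1 : ∃ g, ∃ σ, D.RLeg t g σ := ⟨g, σ, hσ⟩
    rw [dif_pos h1]
    obtain ⟨σ', h2⟩ := h1.choose_spec
    rw [(RLeg.uniq D h2 hσ).1]

theorem bL_eq {t l : ℕ} {g : Γ} {σ : Fin D.a} (h : D.LLeg t g σ) :
    D.bL t l = D.Q D.m * (3*l+2) + (t + (σ : ℕ)) % D.Q l := by
  unfold bL
  have h1 : ∃ g, ∃ σ, D.LLeg t g σ := ⟨g, σ, h⟩
  rw [dif_pos h1]
  have h2 := h1.choose_spec.choose_spec
  rw [(LLeg.uniq D h2 h).2]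

theorem bR_eq {t l : ℕ} {g : Γ} {σ : Fin D.a} (h : D.RLeg t g σ) :
    D.bR t l = D.Q D.m * (3*D.lv g+3) + (t - t % D.Q l) - D.Q D.m * (3*l+2) := by
  unfold bR
  rw [D.nmR_iff.2 ⟨σ, h⟩]

theorem filt_mod {Ms1 : Finset ℕ} {b : ℕ} (h : ∀ k ∈ Ms1, k ∣ b) (x : ℕ) :
    Ms1.filter (· ∣ x % b) = Ms1.filter (· ∣ x) := by
  apply Finset.filter_congr
  intro k hk
  exact Nat.dvd_mod_iff (h k hk)

theorem filt_add {Ms1 : Finset ℕ} {b : ℕ} (h : ∀ k ∈ Ms1, k ∣ b) (x y : ℕ) (hy : y % b = 0) :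
    Ms1.filter (· ∣ x + y) = Ms1.filter (· ∣ x) := by
  apply Finset.filter_congr
  intro k hk
  exact (Nat.dvd_add_iff_left ((h k hk).trans (Nat.dvd_of_mod_eq_zero hy))).symm

variable {D}

theorem Ok.apos (H : D.Ok col) : 0 < D.a := lt_of_lt_of_le H.hM0 H.ha
theorem Ok.bpos (H : D.Ok col) : 0 < D.b := lt_of_lt_of_le H.hM1 H.hb
theorem Ok.dvb (H : D.Ok col) : ∀ k ∈ D.Ms1, k ∣ D.b := fun k hk => (H.hMs1 k hk).trans H.db
theorem Ok.dva (H : D.Ok col) : ∀ k ∈ D.Ms, k ∣ D.a := fun k hk => (H.hMs k hk).trans H.da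

theorem Ok.star (H : D.Ok col) {t t' : ℕ} {g g' σ σ'} (h : D.LLeg t g σ) (h' : D.RLeg t' g' σ') :
    (t + t') % D.a = t % D.a + t' % D.a := by
  apply Nat.add_mod_of_add_mod_lt
  have := h.1
  have := h'.1
  omega

theorem Ok.dvd_star (H : D.Ok col) {t t' : ℕ} {g g' σ σ'} (h : D.LLeg t g σ)
    (h' : D.RLeg t' g' σ') {k : ℕ} (hk : k ∈ D.Ms) :
    k ∣ t % D.a + t' % D.a ↔ k ∣ t + t' := by
  rw [← H.star h h']
  exact Nat.dvd_mod_iff (H.dva k hk)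

theorem Ok.same (H : D.Ok col) {t t' : ℕ} {g g' σ σ'} (h : D.LLeg t g σ) (h' : D.RLeg t' g' σ')
    (hn : ∀ k ∈ D.Ms, ¬ k ∣ t + t') : g = g' :=
  H.n1 _ _ _ _ h.2.1 h'.2.1 (fun k hk hd => hn k hk ((H.dvd_star h h' hk).1 hd))

theorem Ok.div (H : D.Ok col) {t t' : ℕ} {g σ σ'} (h : D.LLeg t g σ) (h' : D.RLeg t' g σ') :
    ∀ l ≤ D.m, (t + t') / D.Q l = t / D.Q l + t' / D.Q l := by
  apply split_div
  · have := h.1
    have := h'.1
    omega
  · intro l hl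
    have hb := H.bpos
    rcases lt_trichotomy l (D.lv g) with h1 | h1 | h1
    · have := h'.2.2.2.1 l h1
      rw [this, add_zero]
      exact Nat.mod_lt _ hb
    · subst h1
      have e1 := h.2.2.2.2.2.1
      have e2 := h'.2.2.2.2.2.1
      show t / D.Q (D.lv g) % D.b + t' / D.Q (D.lv g) % D.b < D.b
      omega
    · have := h.2.2.2.1 l h1 hl
      rw [this, zero_add]
      exact Nat.mod_lt _ hb

theorem Ok.digit (H : D.Ok col) {t t' : ℕ} {g σ σ'} (h : D.LLeg t g σ) (h' : D.RLeg t' g σ') :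
    (t + t') / D.Q (D.lv g) % D.b = t / D.Q (D.lv g) % D.b + t' / D.Q (D.lv g) % D.b := by
  rw [H.div h h' _ (H.hlv g).le]
  apply Nat.add_mod_of_add_mod_lt
  have := h.2.2.2.2.2.1
  have := h'.2.2.2.2.2.1
  have := H.hM1
  omega

theorem Ok.card_lv (H : D.Ok col) {t t' : ℕ} {g σ σ'} (h : D.LLeg t g σ) (h' : D.RLeg t' g σ') :
    D.Ms1.filter (· ∣ (t + t') / D.Q (D.lv g)) =
      D.Ms1.filter (· ∣ t / D.Q (D.lv g) % D.b + t' / D.Q (D.lv g) % D.b) := by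
  rw [← H.digit h h', filt_mod H.dvb]

theorem Ok.card_ne (H : D.Ok col) {t t' : ℕ} {g σ σ'} (h : D.LLeg t g σ) (h' : D.RLeg t' g σ')
    {l : ℕ} (hl : l < D.m) (hne : l ≠ D.lv g) :
    (D.Ms1.filter (· ∣ (t + t') / D.Q l)).card < D.rho := by
  rw [H.div h h' l hl.le]
  rcases lt_or_gt_of_ne hne with h1 | h1
  · rw [filt_add H.dvb _ _ (h'.2.2.2.1 l h1)]
    exact h.2.2.2.2.1 l h1
  · rw [add_comm, filt_add H.dvb _ _ (h.2.2.2.1 l h1 hl)]
    exact h'.2.2.2.2.1 l h1 hl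

theorem Ok.gd_same (H : D.Ok col) {t t' : ℕ} {g g' σ σ'} (h : D.LLeg t g σ)
    (h' : D.RLeg t' g' σ') (hg : D.Gd (t + t')) : g = g' ∧ σ = σ' := by
  obtain rfl := H.same h h' hg.1
  refine ⟨rfl, ?_⟩
  by_contra hne
  have h2 := H.k2 _ _ _ _ h.2.2.2.2.2.2 h'.2.2.2.2.2.2.2 (by
    intro hh; exact hne (Prod.ext_iff.1 hh).2)
  rw [← H.card_lv h h'] at h2
  exact absurd (hg.2 _ (H.hlv g)) (by omega)

theorem Ok.bad_lv (H : D.Ok col) {t t' : ℕ} {g σ σ'} (h : D.LLeg t g σ)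
    (h' : D.RLeg t' g σ') {l : ℕ} (hl : l < D.m)
    (hc : 2*D.rho ≤ (D.Ms1.filter (· ∣ (t + t') / D.Q l)).card) : l = D.lv g ∧ σ ≠ σ' := by
  have e1 : l = D.lv g := by
    by_contra hne
    have := H.card_ne h h' hl hne
    omega
  refine ⟨e1, ?_⟩
  rintro rfl
  subst e1
  rw [H.card_lv h h'] at hc
  have := H.k1 _ _ _ h.2.2.2.2.2.2 h'.2.2.2.2.2.2.2
  omega

theorem Ok.bounds (H : D.Ok col) {t t' : ℕ} {g σ} (h : D.LLeg t g σ) (h' : D.RLeg t' g σ) :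
    (∀ l ≤ D.lv g, (t + (σ : ℕ)) % D.Q l = (t + t') % D.Q l) ∧
    (∀ l, D.lv g < l → l ≤ D.m →
      D.Q D.m * (3*D.lv g+3) + (t' - t' % D.Q l) = (t + t') - (t + t') % D.Q l) := by
  constructor
  · intro l hl
    have h1 : t' % D.Q l = t' % D.a := mod_eq_low (fun j hj => h'.2.2.2.1 j (by omega))
    rw [h'.2.2.2.2.2.2.1, ← h1]
    exact Nat.add_mod_mod _ _ _
  · intro l hl hlm
    have hq : t % D.Q D.m = t % D.Q l := mod_eq_high hlm (fun j h1 h2 => h.2.2.2.1 j (by omega) h2)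
    have h3 : t = D.Q D.m * (3 * D.lv g + 3) + t % D.Q l := by
      rw [← hq, ← h.2.2.1]
      exact (Nat.div_add_mod _ _).symm
    have h4 := H.div h h' l hlm
    have h5 : (t + t') - (t + t') % D.Q l = D.Q l * ((t + t') / D.Q l) := by
      have := Nat.div_add_mod (t + t') (D.Q l)
      omega
    have h6 : t' - t' % D.Q l = D.Q l * (t' / D.Q l) := by
      have := Nat.div_add_mod t' (D.Q l)
      omega
    have h7 : D.Q D.m * (3 * D.lv g + 3) = D.Q l * (t / D.Q l) := by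
      have := Nat.div_add_mod t (D.Q l)
      omega
    rw [h5, h6, h7, h4]
    ring

theorem Ok.sound (H : D.Ok col) {t t' : ℕ} {g g' : Γ} (hg : D.Gd (t+t')) (h : D.nmL t = some g)
    (h' : D.nmR t' = some g') : g = g' ∧
      (∀ l ≤ D.lv g, D.bL t l = D.Q D.m * (3*l+2) + (t+t') % D.Q l) ∧
      (∀ l, D.lv g < l → l ≤ D.m →
        D.bR t' l + (D.Q D.m * (3*l+2) + (t+t') % D.Q l) = t+t') ∧
      D.Q D.m * (3*D.lv g+2) + (t+t') % D.Q (D.lv g) ≤ t ∧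
      t ≤ D.Q D.m * (3*(D.lv g+1)+2) + (t+t') % D.Q (D.lv g+1) := by
  obtain ⟨σ, h⟩ := D.nmL_iff.1 h
  obtain ⟨σ', h'⟩ := D.nmR_iff.1 h'
  obtain ⟨rfl, rfl⟩ := H.gd_same h h' hg
  obtain ⟨b1, b2⟩ := H.bounds h h'
  have hlv := H.hlv g
  have hQ : ∀ l, 0 < D.Q l := fun l => P_pos H.apos H.bpos l
  have hle : ∀ l ≤ D.m, D.Q l ≤ D.Q D.m := fun l hl => P_le H.bpos hl
  have hlt : ∀ x l, x % D.Q l < D.Q l := fun x l => Nat.mod_lt _ (hQ l)
  refine ⟨rfl, ?_, ?_, ?_, ?_⟩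
  · intro l hl
    rw [D.bL_eq h, b1 l hl]
  · intro l hl hlm
    rw [D.bR_eq h', b2 l hl hlm]
    have e1 : (t + t') % D.Q l ≤ t + t' := Nat.mod_le _ _
    have e2 : D.Q D.m * (3*D.m+4) ≤ t' := h'.2.2.1
    have e3 := hlt (t+t') l
    have e4 := hle l hlm
    have e5 : D.Q D.m * (3*l+2) + D.Q D.m ≤ D.Q D.m * (3*D.m+4) := by
      have : D.Q D.m * (3*l+2) + D.Q D.m = D.Q D.m * (3*l+3) := by ring
      rw [this]
      exact Nat.mul_le_mul_left _ (by omega)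
    omega
  · have e1 := hlt (t+t') (D.lv g)
    have e2 := hle (D.lv g) hlv.le
    have e3 : D.Q D.m * (3 * D.lv g + 3) ≤ t := by
      rw [← h.2.2.1]; exact Nat.mul_div_le _ _
    have e5 : D.Q D.m * (3*D.lv g+2) + D.Q D.m = D.Q D.m * (3 * D.lv g + 3) := by ring
    omega
  · have e3 : t < D.Q D.m * (3 * D.lv g + 3) + D.Q D.m := by
      have e4 := Nat.div_add_mod t (D.Q D.m)
      rw [h.2.2.1] at e4
      have := hlt t D.m
      omega
    have e5 : D.Q D.m * (3 * D.lv g + 3) + D.Q D.m ≤ D.Q D.m * (3*(D.lv g+1)+2) := by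
      have : D.Q D.m * (3 * D.lv g + 3) + D.Q D.m = D.Q D.m * (3 * D.lv g + 4) := by ring
      rw [this]
      exact Nat.mul_le_mul_left _ (by omega)
    omega

theorem Ok.pair (H : D.Ok col) {t₁ t₁' t₂ t₂' : ℕ} {g₁ g₁' g₂ g₂' : Γ}
    (hg : ¬ D.Gd (t₁+t₁')) (ht : t₁+t₁' = t₂+t₂') (h1 : D.nmL t₁ = some g₁)
    (h1' : D.nmR t₁' = some g₁') (h2 : D.nmL t₂ = some g₂) (h2' : D.nmR t₂' = some g₂') :
    col g₁ = col g₂ ∧ col g₁' = col g₂' := by
  obtain ⟨σ1, h1⟩ := D.nmL_iff.1 h1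
  obtain ⟨σ1', h1'⟩ := D.nmR_iff.1 h1'
  obtain ⟨σ2, h2⟩ := D.nmL_iff.1 h2
  obtain ⟨σ2', h2'⟩ := D.nmR_iff.1 h2'
  by_cases hk : ∃ k ∈ D.Ms, k ∣ t₁ + t₁'
  · obtain ⟨k, hk, hd⟩ := hk
    refine H.n3 _ _ _ _ _ _ _ _ h1.2.1 h1'.2.1 h2.2.1 h2'.2.1 ?_ ⟨k, hk, (H.dvd_star h1 h1' hk).2 hd⟩
    rw [← H.star h1 h1', ← H.star h2 h2', ht]
  · push Not at hk
    obtain rfl := H.same h1 h1' hk
    obtain rfl := H.same h2 h2' (by rw [← ht]; exact hk)
    have : ∃ l < D.m, 2*D.rho ≤ (D.Ms1.filter (· ∣ (t₁ + t₁') / D.Q l)).card := by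
      by_contra hcon
      push Not at hcon
      exact hg ⟨hk, hcon⟩
    obtain ⟨l, hl, hc⟩ := this
    obtain ⟨e1, s1⟩ := H.bad_lv h1 h1' hl hc
    obtain ⟨e2, s2⟩ := H.bad_lv h2 h2' hl (by rw [← ht]; exact hc)
    have hd1 := H.digit h1 h1'
    have hd2 := H.digit h2 h2'
    rw [← e1] at hd1
    rw [← e2, ← ht] at hd2
    have k1 := h1.2.2.2.2.2.2
    have k1' := h1'.2.2.2.2.2.2.2
    have k2 := h2.2.2.2.2.2.2
    have k2' := h2'.2.2.2.2.2.2.2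
    rw [← e1] at k1 k1'
    rw [← e2] at k2 k2'
    rcases H.k3 _ _ _ _ _ _ _ _ k1 k1' k2 k2' (hd1.symm.trans hd2)
      (by intro hh; exact s1 (Prod.ext_iff.1 hh).2) (by intro hh; exact s2 (Prod.ext_iff.1 hh).2) with hh | hh
    · have := (Prod.ext_iff.1 hh.1).1
      have : g₂ = g₁ := this
      subst this
      exact ⟨rfl, rfl⟩
    · have := (Prod.ext_iff.1 hh.1).1
      have : g₂ = g₁ := this
      subst this
      exact ⟨rfl, rfl⟩

/-- completeness -/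
theorem Ok.complete (H : D.Ok col) {n : ℕ} (hn : 2 * (D.Q D.m * (3*D.m+4)) ≤ n)
    (hs1 : D.M0 ≤ n % D.a) (hs2 : n % D.a + D.M0 < D.a) (hk : ∀ k ∈ D.Ms, ¬ k ∣ n)
    (hd1 : ∀ l < D.m, D.M1 ≤ n / D.Q l % D.b) (hd2 : ∀ l < D.m, n / D.Q l % D.b + D.M1 < D.b)
    (hc : ∀ l < D.m, (D.Ms1.filter (· ∣ n / D.Q l)).card < D.rho) (g : Γ) :
    ∃ t t', t + t' = n ∧ D.nmL t = some g ∧ D.nmR t' = some g := by
  have hlv := H.hlv g
  have ha := H.apos
  have hb := H.bpos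
  -- star digits
  obtain ⟨s, hsM, hsL, hsR⟩ := H.n4 (n % D.a)
    (fun k hk' hd => hk k hk' ((Nat.dvd_mod_iff (H.dva k hk')).1 hd)) g
  have hs' := hsR (n % D.a - s) (by
    have : s + (n % D.a - s) = n % D.a := by omega
    rw [this])
  set i := D.lv g with hi
  -- digit i
  obtain ⟨x, hxM, hxL, hxR⟩ := H.k4 (n / D.Q i % D.b)
    (by rw [filt_mod H.dvb]; exact hc i hlv) (g, ⟨n % D.a - s, by omega⟩)
  have hx' := hxR (n / D.Q i % D.b - x) (by
    have := hd1 i hlv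
    have : x + (n / D.Q i % D.b - x) = n / D.Q i % D.b := by omega
    rw [this])
  let d : ℕ → ℕ := fun l => if l < i then n / D.Q l % D.b else if l = i then x else 0
  let d' : ℕ → ℕ := fun l => if l < i then 0 else if l = i then n / D.Q i % D.b - x else n / D.Q l % D.b
  have hmodlt : ∀ y, y % D.b < D.b := fun y => Nat.mod_lt _ hb
  have hxb : x < D.b := lt_of_lt_of_le hxM H.hb
  have hdb : ∀ l < D.m, d l < D.b := by
    intro l hl
    simp only [d]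
    split_ifs
    · exact hmodlt _
    · exact hxb
    · exact hb
  have hdb' : ∀ l < D.m, d' l < D.b := by
    intro l hl
    simp only [d']
    split_ifs
    · exact hb
    · exact lt_of_le_of_lt (Nat.sub_le _ _) (hmodlt _)
    · exact hmodlt _
  have hsa : s < D.a := by omega
  have hsa' : n % D.a - s < D.a := by omega
  have htop : 2 * (3 * D.m + 4) ≤ n / D.Q D.m := by
    rw [Nat.le_div_iff_mul_le (P_pos ha hb _)]
    calc 2 * (3 * D.m + 4) * D.Q D.m = 2 * (D.Q D.m * (3*D.m+4)) := by ring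
      _ ≤ n := hn
  refine ⟨num D.a D.b s d D.m (3*i+3), num D.a D.b (n % D.a - s) d' D.m (n / D.Q D.m - (3*i+3)), ?_, ?_, ?_⟩
  · rw [num_add]
    have e1 : s + (n % D.a - s) = n % D.a := by omega
    have e2 : 3*i+3 + (n / D.Q D.m - (3*i+3)) = n / D.Q D.m := by omega
    rw [e1, e2]
    rw [num_congr (d' := fun l => n / P D.a D.b l % D.b) D.m _ ?_]
    · exact num_self n D.m
    · intro l hl
      simp only [d, d']
      split_ifs with c1 c2
      · simp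
      · subst c2
        have := hd1 i hlv
        show x + (n / D.Q i % D.b - x) = n / D.Q i % D.b
        omega
      · simp
  · rw [D.nmL_iff]
    refine ⟨⟨n % D.a - s, hsa'⟩, ?_, ?_, ?_, ?_, ?_, ?_, ?_⟩
    · rw [num_mod hsa]; exact hsM
    · rw [num_mod hsa]; exact hsL
    · exact num_div hsa _ _ hdb
    · intro l h1 h2
      rw [num_digit hsa _ _ hdb l h2]
      simp only [d]
      rw [if_neg (by omega), if_neg (by omega)]
    · intro l hl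
      have hlm : l < D.m := by omega
      rw [← filt_mod H.dvb, num_digit hsa _ _ hdb l hlm]
      simp only [d]
      rw [if_pos hl, filt_mod H.dvb]
      exact hc l hlm
    · rw [num_digit hsa _ _ hdb _ hlv]
      simp only [d]
      simp only [lt_irrefl, if_false, if_true]
      exact hxM
    · rw [num_digit hsa _ _ hdb _ hlv]
      simp only [d]
      simp only [lt_irrefl, if_false, if_true]
      exact hxL
  · rw [D.nmR_iff]
    refine ⟨⟨n % D.a - s, hsa'⟩, ?_, ?_, ?_, ?_, ?_, ?_, ?_, ?_⟩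
    · rw [num_mod hsa']; omega
    · rw [num_mod hsa']; exact hs'
    · refine le_trans ?_ (num_ge _ _)
      exact Nat.mul_le_mul_left _ (by omega)
    · intro l hl
      rw [num_digit hsa' _ _ hdb' l (by omega)]
      simp only [d']
      rw [if_pos hl]
    · intro l h1 h2
      rw [← filt_mod H.dvb, num_digit hsa' _ _ hdb' l h2]
      simp only [d']
      rw [if_neg (by omega), if_neg (by omega), filt_mod H.dvb]
      exact hc l h2
    · rw [num_digit hsa' _ _ hdb' _ hlv]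
      simp only [d']
      simp only [lt_irrefl, if_false, if_true]
      have := hd2 i hlv
      omega
    · rw [num_mod hsa']
    · rw [num_digit hsa' _ _ hdb' _ hlv]
      simp only [d']
      simp only [lt_irrefl, if_false, if_true]
      exact hx'

theorem Ok.dig_add (H : D.Ok col) (t : ℕ) {l : ℕ} (hl : l < D.m) :
    (t + D.Q D.m) / D.Q l % D.b = t / D.Q l % D.b := by
  have h1 : D.Q D.m = D.Q l * (D.b * D.b ^ (D.m - l - 1)) := by
    have : D.m = l + 1 + (D.m - l - 1) := by omega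
    show D.a * D.b ^ D.m = D.a * D.b ^ l * (D.b * D.b ^ (D.m - l - 1))
    conv_lhs => rw [this, pow_add, pow_succ]
    ring
  rw [h1, Nat.add_mul_div_left _ _ (P_pos H.apos H.bpos l), Nat.add_mul_mod_self_left]

theorem Ok.mod_add (_H : D.Ok col) (t : ℕ) {l : ℕ} (hl : l ≤ D.m) :
    (t + D.Q D.m) % D.Q l = t % D.Q l := by
  obtain ⟨c, hc⟩ : D.Q l ∣ D.Q D.m := P_dvd hl
  rw [hc, Nat.add_mul_mod_self_left]

theorem Ok.moda_add (H : D.Ok col) (t : ℕ) : (t + D.Q D.m) % D.a = t % D.a := by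
  have := H.mod_add t (Nat.zero_le D.m)
  rwa [show D.Q 0 = D.a from P_zero _ _] at this

theorem Ok.filt_per (H : D.Ok col) (t : ℕ) {l : ℕ} (hl : l < D.m) :
    D.Ms1.filter (· ∣ (t + D.Q D.m) / D.Q l) = D.Ms1.filter (· ∣ t / D.Q l) := by
  rw [← filt_mod H.dvb, H.dig_add t hl, filt_mod H.dvb]

theorem Ok.rleg_add (H : D.Ok col) {t : ℕ} (ht : D.Q D.m * (3*D.m+4) ≤ t) (g : Γ) (σ : Fin D.a) :
    D.RLeg (t + D.Q D.m) g σ ↔ D.RLeg t g σ := by
  have hlv := H.hlv g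
  unfold RLeg
  rw [H.moda_add, H.dig_add t hlv]
  have e1 : (∀ l < D.lv g, (t + D.Q D.m) / D.Q l % D.b = 0) ↔ (∀ l < D.lv g, t / D.Q l % D.b = 0) := by
    constructor
    · intro h l hl
      rw [← H.dig_add t (by omega : l < D.m)]; exact h l hl
    · intro h l hl
      rw [H.dig_add t (by omega : l < D.m)]; exact h l hl
  have e2 : (∀ l, D.lv g < l → l < D.m → (D.Ms1.filter (· ∣ (t + D.Q D.m) / D.Q l)).card < D.rho) ↔
      (∀ l, D.lv g < l → l < D.m → (D.Ms1.filter (· ∣ t / D.Q l)).card < D.rho) := by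
    constructor
    · intro h l h1 h2
      rw [← H.filt_per t h2]; exact h l h1 h2
    · intro h l h1 h2
      rw [H.filt_per t h2]; exact h l h1 h2
  rw [e1, e2]
  constructor
  · rintro ⟨a1, a2, _, a4⟩
    exact ⟨a1, a2, ht, a4⟩
  · rintro ⟨a1, a2, _, a4⟩
    exact ⟨a1, a2, by omega, a4⟩

theorem Ok.nmR_add (H : D.Ok col) {t : ℕ} (ht : D.Q D.m * (3*D.m+4) ≤ t) :
    D.nmR (t + D.Q D.m) = D.nmR t := by
  apply Option.ext
  intro g
  rw [D.nmR_iff, D.nmR_iff]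
  constructor
  · rintro ⟨σ, h⟩; exact ⟨σ, (H.rleg_add ht g σ).1 h⟩
  · rintro ⟨σ, h⟩; exact ⟨σ, (H.rleg_add ht g σ).2 h⟩

theorem Ok.bR_add (H : D.Ok col) {t : ℕ} (ht : D.Q D.m * (3*D.m+4) ≤ t) (hn : D.nmR t ≠ none)
    {l : ℕ} (hl : l ≤ D.m) : D.bR (t + D.Q D.m) l = D.bR t l + D.Q D.m := by
  obtain ⟨g, hg⟩ := Option.ne_none_iff_exists'.1 hn
  obtain ⟨σ, h⟩ := D.nmR_iff.1 hg
  rw [D.bR_eq h, D.bR_eq ((H.rleg_add ht g σ).2 h), H.mod_add t hl]
  have e3 : t % D.Q l < D.Q l := Nat.mod_lt _ (P_pos H.apos H.bpos l)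
  have e4 : D.Q l ≤ D.Q D.m := P_le H.bpos hl
  have e5 : D.Q D.m * (3*l+2) + D.Q D.m ≤ D.Q D.m * (3*D.m+4) := by
    have : D.Q D.m * (3*l+2) + D.Q D.m = D.Q D.m * (3*l+3) := by ring
    rw [this]
    exact Nat.mul_le_mul_left _ (by omega)
  omega

theorem Ok.Gd_add (H : D.Ok col) (n : ℕ) : D.Gd (n + D.Q D.m) ↔ D.Gd n := by
  unfold Gd
  have hd : ∀ k ∈ D.Ms, k ∣ D.Q D.m := fun k hk =>
    (H.dva k hk).trans (Dvd.intro _ rfl)
  have e1 : (∀ k ∈ D.Ms, ¬ k ∣ n + D.Q D.m) ↔ (∀ k ∈ D.Ms, ¬ k ∣ n) := by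
    constructor
    · intro h k hk hh
      exact h k hk (dvd_add hh (hd k hk))
    · intro h k hk hh
      exact h k hk ((Nat.dvd_add_iff_left (hd k hk)).2 hh)
  have e2 : (∀ l < D.m, (D.Ms1.filter (· ∣ (n + D.Q D.m) / D.Q l)).card < 2*D.rho) ↔
      (∀ l < D.m, (D.Ms1.filter (· ∣ n / D.Q l)).card < 2*D.rho) := by
    constructor
    · intro h l h2
      rw [← H.filt_per n h2]; exact h l h2
    · intro h l h2
      rw [H.filt_per n h2]; exact h l h2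
  rw [e1, e2]

theorem lt_of_nmL (H : D.Ok col) {t : ℕ} {g : Γ} (h : D.nmL t = some g) :
    t < D.Q D.m * (3*D.m+4) := by
  obtain ⟨σ, h⟩ := D.nmL_iff.1 h
  have hlv := H.hlv g
  have e4 := Nat.div_add_mod t (D.Q D.m)
  rw [h.2.2.1] at e4
  have : t % D.Q D.m < D.Q D.m := Nat.mod_lt _ (P_pos H.apos H.bpos _)
  have e5 : D.Q D.m * (3 * D.lv g + 3) + D.Q D.m ≤ D.Q D.m * (3*D.m+4) := by
    have : D.Q D.m * (3 * D.lv g + 3) + D.Q D.m = D.Q D.m * (3 * D.lv g + 4) := by ring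
    rw [this]
    exact Nat.mul_le_mul_left _ (by omega)
  omega

end Dat

/-- **LEAF U2** of helper638 #13273. -/
theorem clocks (m : ℕ) (Γ C : Type) [Finite Γ] [Finite C] (lv : Γ → ℕ) (hlv : ∀ g, lv g < m)
    (col : Γ → C) : ∃ r : ℕ, ∀ B R : ℕ, 3 ≤ R → ∃ (Ms Ms1 : Finset ℕ) (rho M0 M1 : ℕ),
      Ms.card ≤ r ∧ Ms1.card ≤ 32*rho ∧ 0 < rho ∧
      (∀ k ∈ Ms, B < k ∧ Nat.Prime k ∧ k ∣ M0) ∧ (∀ k ∈ Ms1, B < k ∧ Nat.Prime k ∧ k ∣ M1) ∧
      B < M0 ∧ B < M1 ∧ 0 < M0 ∧ 0 < M1 ∧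
      ∃ (nmL nmR : ℕ → Option Γ) (bL bR : ℕ → ℕ → ℕ) (Gd : ℕ → Prop),
        (∀ t g, nmL t = some g → t < PP R M0 M1 m * (3*m+4)) ∧
        (∀ t g, nmR t = some g → PP R M0 M1 m * (3*m+4) ≤ t) ∧
        (∀ t t' g g', Gd (t+t') → nmL t = some g → nmR t' = some g' → g = g' ∧
          (∀ l ≤ lv g, bL t l = beta R M0 M1 m (t+t') l) ∧
          (∀ l, lv g < l → l ≤ m → bR t' l + beta R M0 M1 m (t+t') l = t+t') ∧
          beta R M0 M1 m (t+t') (lv g) ≤ t ∧ t ≤ beta R M0 M1 m (t+t') (lv g + 1)) ∧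
        (∀ t₁ t₁' t₂ t₂' g₁ g₁' g₂ g₂', ¬ Gd (t₁+t₁') → t₁+t₁' = t₂+t₂' → nmL t₁ = some g₁ →
          nmR t₁' = some g₁' → nmL t₂ = some g₂ → nmR t₂' = some g₂' →
          col g₁ = col g₂ ∧ col g₁' = col g₂') ∧
        (∀ n, 2*(PP R M0 M1 m * (3*m+4)) ≤ n → ¬ Bad R M0 M1 m rho Ms Ms1 n →
          Gd n ∧ ∀ g, ∃ t t', t+t' = n ∧ nmL t = some g ∧ nmR t' = some g) ∧
        -- periodicity of the right data (helper811)
        (∀ t, PP R M0 M1 m * (3*m+4) ≤ t → nmR (t + PP R M0 M1 m) = nmR t) ∧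
        (∀ t, PP R M0 M1 m * (3*m+4) ≤ t → nmR t ≠ none → ∀ l ≤ m,
          bR (t + PP R M0 M1 m) l = bR t l + PP R M0 M1 m) ∧
        (∀ n, Gd (n + PP R M0 M1 m) ↔ Gd n) := by
  obtain ⟨r, hr⟩ := Crest.Agent.R320.Names755.names Γ C col
  refine ⟨r, fun B R hR => ?_⟩
  obtain ⟨Ms, M, nL, nR, hr1, hr2, hr3, hr4, hr5, hr6, hr7, hr8⟩ := hr B
  set M0 := M * (B+1) with hM0
  haveI : Finite (Γ × Fin (R*M0)) := inferInstance
  obtain ⟨rho, hrho, hk⟩ := LN_484.level_names (Γ × Fin (R*M0))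
  obtain ⟨Ms1, M', kL, kR, k1, k2, k3, k4, k5, k6, k7, k8, k9⟩ := hk B
  set M1 := M' * (B+1) with hM1
  have p0 : B < M0 := by rw [hM0]; nlinarith
  have p1 : B < M1 := by rw [hM1]; nlinarith
  let D : Dat Γ := ⟨m, R*M0, R*M1, M0, M1, rho, lv, Ms, Ms1, nL, nR, kL, kR⟩
  have H : D.Ok col :=
    { hM0 := by show 0 < M0; omega
      hM1 := by show 0 < M1; omega
      ha := Nat.le_mul_of_pos_left _ (by omega)
      hb := Nat.le_mul_of_pos_left _ (by omega)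
      da := Dvd.intro_left _ rfl
      db := Dvd.intro_left _ rfl
      hlv := hlv
      hMs := fun k hk => (hr2 k hk).2.2.trans (Dvd.intro _ rfl)
      hMs1 := fun k hk => (k2 k hk).2.2.trans (Dvd.intro _ rfl)
      hrho := hrho
      n1 := hr6
      n4 := by
        intro T hT c
        obtain ⟨t, ht, h1, h2⟩ := hr7 T hT c
        exact ⟨t, lt_of_lt_of_le ht (Nat.le_mul_of_pos_right _ (by omega)), h1,
          fun t' h3 => h2 t' (h3.of_mul_right _)⟩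
      n3 := hr8
      k1 := k6
      k2 := k7
      k3 := k8
      k4 := by
        intro T hT c
        obtain ⟨t, ht, h1, h2⟩ := k9 T hT c
        exact ⟨t, lt_of_lt_of_le ht (Nat.le_mul_of_pos_right _ (by omega)), h1,
          fun t' h3 => h2 t' (h3.of_mul_right _)⟩ }
  refine ⟨Ms, Ms1, rho, M0, M1, hr1, k1, hrho,
    fun k hk => ⟨(hr2 k hk).1, (hr2 k hk).2.1, H.hMs k hk⟩,
    fun k hk => ⟨(k2 k hk).1, (k2 k hk).2.1, H.hMs1 k hk⟩, p0, p1, H.hM0, H.hM1,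
    D.nmL, D.nmR, D.bL, D.bR, D.Gd, ?_, ?_, ?_, ?_, ?_, ?_, ?_, ?_⟩
  · intro t g h
    exact Dat.lt_of_nmL H h
  · intro t g h
    obtain ⟨σ, h⟩ := D.nmR_iff.1 h
    exact h.2.2.1
  · intro t t' g g' hg h h'
    exact H.sound hg h h'
  · intro t₁ t₁' t₂ t₂' g₁ g₁' g₂ g₂' hg ht h1 h1' h2 h2'
    exact H.pair hg ht h1 h1' h2 h2'
  · intro n hn hb
    unfold Bad at hb
    push Not at hb
    obtain ⟨⟨b1, b2⟩, b3, b4⟩ := hb
    refine ⟨⟨b3, fun l hl => ?_⟩, fun g => ?_⟩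
    · have := (b4 l hl).2
      show (Ms1.filter (· ∣ n / PP R M0 M1 l)).card < 2*rho
      omega
    · exact H.complete hn b1 b2 b3 (fun l hl => (b4 l hl).1.1) (fun l hl => (b4 l hl).1.2)
        (fun l hl => (b4 l hl).2) g
  · intro t ht
    exact H.nmR_add ht
  · intro t ht hn l hl
    exact H.bR_add ht hn hl
  · intro n
    exact H.Gd_add n

end Crest.Agent.R320.Clk_80
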