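import Crest.Agent.R320.Names_755
import Crest.Agent.R320.LN_601

/-!
Row 320, TEAM U, LEAF U2 (638 #13273): the clocks of the U-gadget, second copy (helper836).
-/

set_option autoImplicit false

namespace Crest.Agent.R320.Clk836

open Classical

def PP (R M0 M1 l : ℕ) := (R*M0) * (R*M1)^l
def beta (R M0 M1 m n l : ℕ) := PP R M0 M1 m * (3*l+2) + n % PP R M0 M1 l
def Bad (R M0 M1 m rho : ℕ) (Ms Ms1 : Finset ℕ) (n : ℕ) : Prop :=
  (n % (R*M0) < M0 ∨ R*M0 ≤ n % (R*M0) + M0) ∨ (∃ k ∈ Ms, k ∣ n) ∨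
  ∃ l < m, ((n / PP R M0 M1 l) % (R*M1) < M1 ∨ R*M1 ≤ (n / PP R M0 M1 l) % (R*M1) + M1) ∨
    rho ≤ (Ms1.filter (· ∣ n / PP R M0 M1 l)).card
/-- digit `l`. -/
def dg (R M0 M1 l n : ℕ) := n / PP R M0 M1 l % (R*M1)

section
variable {R M0 M1 : ℕ}

theorem PP_zero : PP R M0 M1 0 = R*M0 := by simp [PP]
theorem PP_succ (l : ℕ) : PP R M0 M1 (l+1) = PP R M0 M1 l * (R*M1) := by
  simp [PP, pow_succ, mul_assoc]
theorem PP_pos (hR : 0 < R) (h0 : 0 < M0) (h1 : 0 < M1) (l : ℕ) : 0 < PP R M0 M1 l := by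
  unfold PP; positivity
theorem mod_succ (n l : ℕ) :
    n % PP R M0 M1 (l+1) = n % PP R M0 M1 l + PP R M0 M1 l * dg R M0 M1 l n := by
  rw [PP_succ, Nat.mod_mul]; rfl
theorem PP_dvd {l j : ℕ} (h : l ≤ j) : PP R M0 M1 l ∣ PP R M0 M1 j := by
  obtain ⟨k, rfl⟩ := Nat.exists_eq_add_of_le h
  unfold PP
  rw [pow_add, ← mul_assoc]; exact dvd_mul_right _ _
theorem PP_le (hR : 0 < R) (h0 : 0 < M0) (h1 : 0 < M1) {l j : ℕ} (h : l ≤ j) :
    PP R M0 M1 l ≤ PP R M0 M1 j := Nat.le_of_dvd (PP_pos hR h0 h1 j) (PP_dvd h)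
theorem dg_lt (hR : 0 < R) (h1 : 0 < M1) (l n : ℕ) : dg R M0 M1 l n < R*M1 :=
  Nat.mod_lt _ (by positivity)

theorem nocarry {m t t' : ℕ} (hs : t % PP R M0 M1 0 + t' % PP R M0 M1 0 < PP R M0 M1 0)
    (hd : ∀ l < m, dg R M0 M1 l t + dg R M0 M1 l t' < R*M1) :
    ∀ l ≤ m, t % PP R M0 M1 l + t' % PP R M0 M1 l < PP R M0 M1 l := by
  intro l
  induction l with
  | zero => intro _; exact hs
  | succ l ih =>
    intro hl
    have h := ih (by omega)
    have hd' := hd l (by omega)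
    rw [mod_succ, mod_succ, PP_succ]
    have h3 : PP R M0 M1 l * (dg R M0 M1 l t + dg R M0 M1 l t' + 1) ≤ PP R M0 M1 l * (R*M1) :=
      Nat.mul_le_mul_left _ hd'
    rw [Nat.mul_add, Nat.mul_add, Nat.mul_one] at h3
    omega

theorem add_mod_of {P t t' : ℕ} (h : t % P + t' % P < P) : (t + t') % P = t % P + t' % P := by
  rw [Nat.add_mod, Nat.mod_eq_of_lt h]

theorem dg_add {m t t' : ℕ} (hs : t % PP R M0 M1 0 + t' % PP R M0 M1 0 < PP R M0 M1 0)
    (hd : ∀ l < m, dg R M0 M1 l t + dg R M0 M1 l t' < R*M1) {l : ℕ} (hl : l < m) :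
    dg R M0 M1 l (t + t') = dg R M0 M1 l t + dg R M0 M1 l t' := by
  have h := nocarry hs hd l hl.le
  have hd' := hd l hl
  unfold dg at *
  rw [Nat.add_div_eq_of_add_mod_lt h, Nat.add_mod, Nat.mod_eq_of_lt hd']

theorem card_dg {Ms1 : Finset ℕ} (hk : ∀ k ∈ Ms1, k ∣ M1) (l n : ℕ) :
    (Ms1.filter (· ∣ n / PP R M0 M1 l)).card = (Ms1.filter (· ∣ dg R M0 M1 l n)).card := by
  congr 1
  apply Finset.filter_congr
  intro k hkm
  unfold dg
  exact (Nat.dvd_mod_iff (dvd_mul_of_dvd_right (hk k hkm) R)).symm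

theorem sub_mod_of {P n t : ℕ} (hP : 0 < P) (htn : t ≤ n) (h : t % P ≤ n % P) :
    (n - t) % P = n % P - t % P := by
  have e1 := Nat.div_add_mod n P
  have e2 := Nat.div_add_mod t P
  have h3 : t / P ≤ n / P := Nat.div_le_div_right htn
  obtain ⟨q, hq⟩ := Nat.exists_eq_add_of_le h3
  have h4 : n - t = (n % P - t % P) + P * q := by
    have : P * (n / P) = P * (t / P) + P * q := by rw [hq, Nat.mul_add]
    omega
  rw [h4, Nat.add_mul_mod_self_left]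
  exact Nat.mod_eq_of_lt (lt_of_le_of_lt (Nat.sub_le _ _) (Nat.mod_lt _ hP))

/-- zero digits: the remainder does not change. -/
theorem mod_eq_of_zero {t a b : ℕ} (hab : a ≤ b) (h : ∀ l, a ≤ l → l < b → dg R M0 M1 l t = 0) :
    t % PP R M0 M1 b = t % PP R M0 M1 a := by
  induction b with
  | zero => have : a = 0 := by omega
            rw [this]
  | succ b ih =>
    rcases Nat.lt_or_ge a (b+1) with hlt | hge
    · rw [mod_succ, h b (by omega) (by omega), Nat.mul_zero, Nat.add_zero]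
      exact ih (by omega) (fun l h1 h2 => h l h1 (by omega))
    · have : a = b + 1 := by omega
      rw [this]

end

section
variable {Γ : Type} (R M0 M1 m rho : ℕ) (Ms1 : Finset ℕ) (lv : Γ → ℕ)
  (nL nR : ℕ → Option Γ) (nL1 nR1 : ℕ → Option (Γ × Fin (R*M0)))

def LeftL (t : ℕ) (g : Γ) : Prop :=
  t % PP R M0 M1 0 < M0 ∧ nL (t % PP R M0 M1 0) = some g ∧ t / PP R M0 M1 m = 3 * lv g + 3 ∧
  (∀ l, lv g < l → l < m → dg R M0 M1 l t = 0) ∧
  (∀ l, l < lv g → (Ms1.filter (· ∣ dg R M0 M1 l t)).card < rho) ∧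
  dg R M0 M1 (lv g) t < M1 ∧ ∃ σ, nL1 (dg R M0 M1 (lv g) t) = some (g, σ)

def RightL (t : ℕ) (g : Γ) : Prop :=
  t % PP R M0 M1 0 + M0 ≤ R*M0 ∧ nR (t % PP R M0 M1 0) = some g ∧
  PP R M0 M1 m * (3*m+4) ≤ t ∧
  (∀ l, l < lv g → dg R M0 M1 l t = 0) ∧
  (∀ l, lv g < l → l < m → (Ms1.filter (· ∣ dg R M0 M1 l t)).card < rho) ∧
  dg R M0 M1 (lv g) t + M1 ≤ R*M1 ∧
  ∃ σ : Fin (R*M0), σ.val = t % PP R M0 M1 0 ∧ nR1 (dg R M0 M1 (lv g) t) = some (g, σ)

noncomputable def nmL (t : ℕ) : Option Γ :=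
  if h : ∃ g, LeftL R M0 M1 m rho Ms1 lv nL nL1 t g then some h.choose else none

noncomputable def nmR (t : ℕ) : Option Γ :=
  if h : ∃ g, RightL R M0 M1 m rho Ms1 lv nR nR1 t g then some h.choose else none

def bL (t l : ℕ) : ℕ :=
  match nL (t % PP R M0 M1 0) with
  | none => 0
  | some g => match nL1 (dg R M0 M1 (lv g) t) with
    | none => 0
    | some c => PP R M0 M1 m * (3*l+2) + (t + c.2.val) % PP R M0 M1 l

def bR (t l : ℕ) : ℕ :=
  match nR (t % PP R M0 M1 0) with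
  | none => 0
  | some g => PP R M0 M1 m * (3*lv g+3) + (t - t % PP R M0 M1 l) - PP R M0 M1 m * (3*l+2)

variable {R M0 M1 m rho Ms1 lv nL nR nL1 nR1}

theorem nmL_iff {t : ℕ} {g : Γ} : nmL R M0 M1 m rho Ms1 lv nL nL1 t = some g ↔
    LeftL R M0 M1 m rho Ms1 lv nL nL1 t g := by
  unfold nmL
  constructor
  · intro h
    split_ifs at h with hx
    have := hx.choose_spec
    rw [Option.some.inj h] at this
    exact this
  · intro h
    have hx : ∃ g, LeftL R M0 M1 m rho Ms1 lv nL nL1 t g := ⟨g, h⟩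
    rw [dif_pos hx]
    have h2 := hx.choose_spec.2.1
    rw [h.2.1] at h2
    exact h2.symm

theorem nmR_iff {t : ℕ} {g : Γ} : nmR R M0 M1 m rho Ms1 lv nR nR1 t = some g ↔
    RightL R M0 M1 m rho Ms1 lv nR nR1 t g := by
  unfold nmR
  constructor
  · intro h
    split_ifs at h with hx
    have := hx.choose_spec
    rw [Option.some.inj h] at this
    exact this
  · intro h
    have hx : ∃ g, RightL R M0 M1 m rho Ms1 lv nR nR1 t g := ⟨g, h⟩
    rw [dif_pos hx]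
    have h2 := hx.choose_spec.2.1
    rw [h.2.1] at h2
    exact h2.symm

theorem LeftL.lt {t : ℕ} {g : Γ} (h : LeftL R M0 M1 m rho Ms1 lv nL nL1 t g)
    (hP : 0 < PP R M0 M1 m) : t < PP R M0 M1 m * (3 * lv g + 4) ∧
      PP R M0 M1 m * (3 * lv g + 3) + t % PP R M0 M1 m = t := by
  have e := Nat.div_add_mod t (PP R M0 M1 m)
  have h2 := Nat.mod_lt t hP
  rw [h.2.2.1] at e
  have : PP R M0 M1 m * (3 * lv g + 4) = PP R M0 M1 m * (3 * lv g + 3) + PP R M0 M1 m := by ring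
  omega

theorem star_lt {t t' : ℕ} {g g' : Γ} (h : LeftL R M0 M1 m rho Ms1 lv nL nL1 t g)
    (h' : RightL R M0 M1 m rho Ms1 lv nR nR1 t' g') :
    t % PP R M0 M1 0 + t' % PP R M0 M1 0 < PP R M0 M1 0 := by
  have h1 := h.1
  have h2 := h'.1
  have e : PP R M0 M1 0 = R*M0 := PP_zero
  omega

theorem dg_sum {t t' : ℕ} {g : Γ} (h : LeftL R M0 M1 m rho Ms1 lv nL nL1 t g)
    (h' : RightL R M0 M1 m rho Ms1 lv nR nR1 t' g) (hR : 0 < R) (h1 : 0 < M1) :
    ∀ l < m, dg R M0 M1 l t + dg R M0 M1 l t' < R*M1 := by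
  intro l hl
  rcases lt_trichotomy l (lv g) with hlt | heq | hgt
  · rw [h'.2.2.2.1 l hlt]; exact dg_lt hR h1 l t
  · rw [heq]
    have a := h.2.2.2.2.2.1
    have b := h'.2.2.2.2.2.1
    omega
  · rw [h.2.2.2.1 l hgt hl, Nat.zero_add]; exact dg_lt hR h1 l t'

end

/-- the split of `n` into two clocks with prescribed star digit `t0` and `i`-th digit `t1` on the left
and top digit `3 i + 3`. -/
theorem exists_split {R M0 M1 m : ℕ} (hR : 0 < R) (h0 : 0 < M0) (h1 : 0 < M1) {n i t0 t1 : ℕ}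
    (hi : i < m) (hn : 2*(PP R M0 M1 m * (3*m+4)) ≤ n) (ht0 : t0 ≤ n % PP R M0 M1 0)
    (ht1 : t1 ≤ dg R M0 M1 i n) :
    ∃ t t' : ℕ, t + t' = n ∧ t % PP R M0 M1 0 = t0 ∧ t' % PP R M0 M1 0 = n % PP R M0 M1 0 - t0 ∧
      t / PP R M0 M1 m = 3*i+3 ∧ PP R M0 M1 m * (3*m+4) ≤ t' ∧
      (∀ l, l < i → dg R M0 M1 l t = dg R M0 M1 l n ∧ dg R M0 M1 l t' = 0) ∧
      (dg R M0 M1 i t = t1 ∧ dg R M0 M1 i t' = dg R M0 M1 i n - t1) ∧
      (∀ l, i < l → l < m → dg R M0 M1 l t = 0 ∧ dg R M0 M1 l t' = dg R M0 M1 l n) := by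
  have hP : ∀ l, 0 < PP R M0 M1 l := PP_pos hR h0 h1
  have hmono : ∀ a b, a ≤ b → n % PP R M0 M1 a ≤ n % PP R M0 M1 b := by
    intro a b hab
    have e := Nat.mod_mod_of_dvd n (PP_dvd (R := R) (M0 := M0) (M1 := M1) hab)
    rw [← e]; exact Nat.mod_le _ _
  have hs : ∀ l, n % PP R M0 M1 0 ≤ n % PP R M0 M1 l := fun l => hmono 0 l (Nat.zero_le _)
  have hd1 : t1 + 1 ≤ R*M1 := lt_of_le_of_lt ht1 (dg_lt hR h1 i n)
  -- the left part below the top digit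
  obtain ⟨A, hA⟩ : ∃ A, A = t0 + (n % PP R M0 M1 i - n % PP R M0 M1 0) + PP R M0 M1 i * t1 := ⟨_, rfl⟩
  have hAlt : A < PP R M0 M1 (i+1) := by
    have e1 : n % PP R M0 M1 i < PP R M0 M1 i := Nat.mod_lt _ (hP i)
    have e2 : PP R M0 M1 i * (t1 + 1) ≤ PP R M0 M1 i * (R*M1) := Nat.mul_le_mul_left _ hd1
    rw [PP_succ, hA]
    rw [Nat.mul_add, Nat.mul_one] at e2
    have := hs i
    omega
  have hAle : ∀ l, i < l → A ≤ n % PP R M0 M1 l := by
    intro l hl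
    have e1 := hmono (i+1) l hl
    rw [mod_succ] at e1
    have e2 : PP R M0 M1 i * t1 ≤ PP R M0 M1 i * dg R M0 M1 i n := Nat.mul_le_mul_left _ ht1
    have := hs i
    omega
  have hAltl : ∀ l, i < l → A < PP R M0 M1 l := fun l hl =>
    lt_of_lt_of_le hAlt (PP_le hR h0 h1 hl)
  obtain ⟨t, ht⟩ : ∃ t, t = A + PP R M0 M1 m * (3*i+3) := ⟨_, rfl⟩
  have hmodhi : ∀ l, i < l → l ≤ m → t % PP R M0 M1 l = A := by
    intro l hl hlm
    obtain ⟨K, hK⟩ := PP_dvd (R := R) (M0 := M0) (M1 := M1) hlm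
    rw [ht, hK, Nat.mul_assoc, Nat.add_mul_mod_self_left]
    exact Nat.mod_eq_of_lt (hAltl l hl)
  have hmodlo : ∀ l, l ≤ i → t % PP R M0 M1 l = t0 + (n % PP R M0 M1 l - n % PP R M0 M1 0) := by
    intro l hl
    obtain ⟨K3, hK3⟩ := PP_dvd (R := R) (M0 := M0) (M1 := M1) (le_trans hl hi.le)
    obtain ⟨K2, hK2⟩ := PP_dvd (R := R) (M0 := M0) (M1 := M1) hl
    have e := Nat.div_add_mod (n % PP R M0 M1 i) (PP R M0 M1 l)
    rw [Nat.mod_mod_of_dvd n (PP_dvd (R := R) (M0 := M0) (M1 := M1) hl)] at e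
    have e2 : t = (t0 + (n % PP R M0 M1 l - n % PP R M0 M1 0)) +
        PP R M0 M1 l * (n % PP R M0 M1 i / PP R M0 M1 l + K2 * t1 + K3 * (3*i+3)) := by
      generalize n % PP R M0 M1 i / PP R M0 M1 l = X at e ⊢
      have h5 : PP R M0 M1 l * (X + K2 * t1 + K3 * (3*i+3)) =
          PP R M0 M1 l * X + PP R M0 M1 i * t1 + PP R M0 M1 m * (3*i+3) := by
        rw [hK2, hK3]; ring
      have := hs l
      rw [ht, hA, h5]
      omega
    rw [e2, Nat.add_mul_mod_self_left]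
    apply Nat.mod_eq_of_lt
    have e3 : n % PP R M0 M1 l < PP R M0 M1 l := Nat.mod_lt _ (hP l)
    have := hs l
    omega
  have hdivt : t / PP R M0 M1 m = 3*i+3 := by
    rw [ht, Nat.add_mul_div_left _ _ (hP m), Nat.div_eq_of_lt (hAltl m hi), Nat.zero_add]
  have htlt : t < PP R M0 M1 m * (3*m+4) := by
    have e1 := hAltl m hi
    have e2 : PP R M0 M1 m * (3*i+4) ≤ PP R M0 M1 m * (3*m+4) := Nat.mul_le_mul_left _ (by omega)
    have e3 : PP R M0 M1 m * (3*i+4) = PP R M0 M1 m * (3*i+3) + PP R M0 M1 m := by ring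
    omega
  have htn : t ≤ n := by omega
  have hmodle : ∀ l, l ≤ m → t % PP R M0 M1 l ≤ n % PP R M0 M1 l := by
    intro l hl
    rcases Nat.lt_or_ge i l with h | h
    · rw [hmodhi l h hl]; exact hAle l h
    · rw [hmodlo l h]
      have := hs l
      omega
  have hmod' : ∀ l, l ≤ m → (n - t) % PP R M0 M1 l = n % PP R M0 M1 l - t % PP R M0 M1 l :=
    fun l hl => sub_mod_of (hP l) htn (hmodle l hl)
  refine ⟨t, n - t, by omega, ?_, ?_, hdivt, by omega, ?_, ⟨?_, ?_⟩, ?_⟩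
  · rw [hmodlo 0 (Nat.zero_le _)]; omega
  · rw [hmod' 0 (Nat.zero_le _), hmodlo 0 (Nat.zero_le _)]; omega
  · intro l hl
    have a1 := hmodlo l hl.le
    have a2 := hmodlo (l+1) hl
    have b1 := hmod' l (by omega)
    have b2 := hmod' (l+1) (by omega)
    have hsl := hs l
    have hsl1 := hs (l+1)
    rw [a1] at b1
    rw [a2] at b2
    rw [mod_succ] at a2 b2
    rw [mod_succ n] at a2 b2 hsl1
    constructor
    · apply Nat.eq_of_mul_eq_mul_left (hP l)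
      omega
    · have : PP R M0 M1 l * dg R M0 M1 l (n - t) = 0 := by omega
      rcases Nat.mul_eq_zero.1 this with h | h
      · exact absurd h (hP l).ne'
      · exact h
  · have a1 := hmodlo i le_rfl
    have a2 := hmodhi (i+1) (by omega) hi
    rw [mod_succ] at a2
    apply Nat.eq_of_mul_eq_mul_left (hP i)
    omega
  · have a1 := hmodlo i le_rfl
    have a2 := hmodhi (i+1) (by omega) hi
    have b1 := hmod' i hi.le
    have b2 := hmod' (i+1) hi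
    rw [a1] at b1
    rw [a2] at b2
    rw [mod_succ] at b2
    rw [mod_succ n] at b2
    apply Nat.eq_of_mul_eq_mul_left (hP i)
    rw [Nat.mul_sub]
    have e2 : PP R M0 M1 i * t1 ≤ PP R M0 M1 i * dg R M0 M1 i n := Nat.mul_le_mul_left _ ht1
    have := hs i
    omega
  · intro l hl hlm
    have a1 := hmodhi l hl hlm.le
    have a2 := hmodhi (l+1) (by omega) hlm
    have b1 := hmod' l hlm.le
    have b2 := hmod' (l+1) hlm
    have c1 := hAle l hl
    rw [a1] at b1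
    rw [a2] at b2
    rw [mod_succ] at a2 b2
    rw [mod_succ n] at b2
    constructor
    · have : PP R M0 M1 l * dg R M0 M1 l t = 0 := by omega
      rcases Nat.mul_eq_zero.1 this with h | h
      · exact absurd h (hP l).ne'
      · exact h
    · apply Nat.eq_of_mul_eq_mul_left (hP l)
      omega

theorem clocks (m : ℕ) (Γ C : Type) [Finite Γ] [Finite C] (lv : Γ → ℕ) (hlv : ∀ g, lv g < m)
    (col : Γ → C) :
    ∃ r : ℕ, ∀ B R : ℕ, 3 ≤ R → ∃ (Ms Ms1 : Finset ℕ) (rho M0 M1 : ℕ),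
      Ms.card ≤ r ∧ Ms1.card ≤ 32*rho ∧ 0 < rho ∧
      (∀ k ∈ Ms, B < k ∧ Nat.Prime k ∧ k ∣ M0) ∧ (∀ k ∈ Ms1, B < k ∧ Nat.Prime k ∧ k ∣ M1) ∧
      B < M0 ∧ B < M1 ∧
      ∃ (nmL nmR : ℕ → Option Γ) (bL bR : ℕ → ℕ → ℕ) (Gd : ℕ → Prop),
        (∀ t g, nmL t = some g → t < PP R M0 M1 m * (3*m+4)) ∧
        (∀ t g, nmR t = some g → PP R M0 M1 m * (3*m+4) ≤ t) ∧
        (∀ t t' g g', Gd (t+t') → nmL t = some g → nmR t' = some g' →
          g = g' ∧ (∀ l ≤ lv g, bL t l = beta R M0 M1 m (t+t') l) ∧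
          (∀ l, lv g < l → l ≤ m → bR t' l + beta R M0 M1 m (t+t') l = t+t') ∧
          beta R M0 M1 m (t+t') (lv g) ≤ t ∧ t ≤ beta R M0 M1 m (t+t') (lv g + 1)) ∧
        (∀ t₁ t₁' t₂ t₂' g₁ g₁' g₂ g₂', ¬ Gd (t₁+t₁') → t₁+t₁' = t₂+t₂' →
          nmL t₁ = some g₁ → nmR t₁' = some g₁' → nmL t₂ = some g₂ → nmR t₂' = some g₂' →
          col g₁ = col g₂ ∧ col g₁' = col g₂') ∧
        (∀ n, 2*(PP R M0 M1 m * (3*m+4)) ≤ n → ¬ Bad R M0 M1 m rho Ms Ms1 n →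
          Gd n ∧ ∀ g, ∃ t t', t+t' = n ∧ nmL t = some g ∧ nmR t' = some g) := by
  obtain ⟨r, hr⟩ := Crest.Agent.R320.Names755.names Γ C col
  refine ⟨r, fun B R hR3 => ?_⟩
  have hR : 0 < R := by omega
  obtain ⟨Ms, M, nL, nR, hc, hMs, hM, -, -, hgood, hcomp, hpair⟩ := hr B
  set M0 := M * (B+1) with hM0
  have hM0B : B < M0 := by
    have : 1 * (B+1) ≤ M * (B+1) := Nat.mul_le_mul_right _ hM
    omega
  have hM0p : 0 < M0 := by omega
  have hMM0 : M ≤ M0 := Nat.le_mul_of_pos_right _ (by omega)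
  obtain ⟨rho, hrho, hlev⟩ := Crest.Agent.R320.LN_601.level_names (Γ × Fin (R*M0))
  obtain ⟨Ms1, M', nL1, nR1, hc1, hMs1, hM', -, -, hsame, hdiff, hpair1, hcomp1⟩ := hlev B
  set M1 := M' * (B+1) with hM1
  have hM1B : B < M1 := by
    have : 1 * (B+1) ≤ M' * (B+1) := Nat.mul_le_mul_right _ hM'
    omega
  have hM1p : 0 < M1 := by omega
  have hMM1 : M' ≤ M1 := Nat.le_mul_of_pos_right _ (by omega)
  have hk0 : ∀ k ∈ Ms, k ∣ M0 := fun k hk => dvd_mul_of_dvd_left (hMs k hk).2.2 _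
  have hk1 : ∀ k ∈ Ms1, k ∣ M1 := fun k hk => dvd_mul_of_dvd_left (hMs1 k hk).2.2 _
  have hPm : 0 < PP R M0 M1 m := PP_pos hR hM0p hM1p m
  have hP0 : PP R M0 M1 0 = R * M0 := PP_zero
  -- star divisibility
  have hstar : ∀ k ∈ Ms, ∀ n : ℕ, k ∣ n % PP R M0 M1 0 ↔ k ∣ n := by
    intro k hk n
    rw [hP0]
    exact Nat.dvd_mod_iff (dvd_mul_of_dvd_right (hk0 k hk) R)
  have hss : ∀ t t' g g', LeftL R M0 M1 m rho Ms1 lv nL nL1 t g →
      RightL R M0 M1 m rho Ms1 lv nR nR1 t' g' →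
      (t + t') % PP R M0 M1 0 = t % PP R M0 M1 0 + t' % PP R M0 M1 0 :=
    fun t t' g g' h h' => add_mod_of (star_lt h h')
  have hag : ∀ t t' g g', LeftL R M0 M1 m rho Ms1 lv nL nL1 t g →
      RightL R M0 M1 m rho Ms1 lv nR nR1 t' g' → (∀ k ∈ Ms, ¬ k ∣ t + t') → g = g' := by
    intro t t' g g' h h' hk
    refine hgood _ _ g g' h.2.1 h'.2.1 ?_
    intro k hkm hd
    rw [← hss t t' g g' h h', hstar k hkm] at hd
    exact hk k hkm hd
  refine ⟨Ms, Ms1, rho, M0, M1, hc, hc1, hrho, fun k hk => ⟨(hMs k hk).1, (hMs k hk).2.1, hk0 k hk⟩,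
    fun k hk => ⟨(hMs1 k hk).1, (hMs1 k hk).2.1, hk1 k hk⟩, hM0B, hM1B,
    nmL R M0 M1 m rho Ms1 lv nL nL1, nmR R M0 M1 m rho Ms1 lv nR nR1,
    bL R M0 M1 m lv nL nL1, bR R M0 M1 m lv nR,
    fun n => (∀ k ∈ Ms, ¬ k ∣ n) ∧ ∀ l < m, (Ms1.filter (· ∣ n / PP R M0 M1 l)).card < 2 * rho,
    ?_, ?_, ?_, ?_, ?_⟩
  · intro t g h
    rw [nmL_iff] at h
    have h1 := (h.lt hPm).1
    have h2 := hlv g
    have h3 : PP R M0 M1 m * (3 * lv g + 4) ≤ PP R M0 M1 m * (3 * m + 4) :=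
      Nat.mul_le_mul_left _ (by omega)
    omega
  · intro t g h
    rw [nmR_iff] at h
    exact h.2.2.1
  · rintro t t' g g' ⟨hG1, hG2⟩ h h'
    rw [nmL_iff] at h
    rw [nmR_iff] at h'
    have hgg := hag t t' g g' h h' hG1
    subst hgg
    have hst := star_lt h h'
    have hds := dg_sum h h' hR hM1p
    have hi := hlv g
    obtain ⟨σ, hσ⟩ := h.2.2.2.2.2.2
    obtain ⟨τ, hτ, hτ'⟩ := h'.2.2.2.2.2.2
    have hcard := hG2 (lv g) hi
    rw [card_dg hk1, dg_add hst hds hi] at hcard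
    have hστ : (g, σ) = (g, τ) := by
      by_contra hne
      have := hdiff _ _ _ _ hσ hτ' hne
      omega
    have hst' : σ = τ := (Prod.mk.injEq _ _ _ _ ▸ hστ).2
    have hnc := nocarry hst hds
    have hPl : ∀ l, 0 < PP R M0 M1 l := PP_pos hR hM0p hM1p
    have hlt := h.lt hPm
    refine ⟨rfl, ?_, ?_, ?_, ?_⟩
    · intro l hl
      have e : bL R M0 M1 m lv nL nL1 t l = PP R M0 M1 m * (3*l+2) + (t + σ.val) % PP R M0 M1 l := by
        unfold bL
        rw [h.2.1]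
        simp only [hσ]
      rw [e, beta]
      congr 1
      have e1 : t' % PP R M0 M1 l = t' % PP R M0 M1 0 :=
        mod_eq_of_zero (Nat.zero_le l) (fun j _ hj => h'.2.2.2.1 j (by omega))
      rw [Nat.add_mod, Nat.add_mod t t', e1, hst', hτ]
      congr 2
      apply Nat.mod_eq_of_lt
      exact lt_of_lt_of_le (Nat.mod_lt _ (hPl 0)) (PP_le hR hM0p hM1p (Nat.zero_le l))
    · intro l hil hlm
      have e : bR R M0 M1 m lv nR t' l
          = PP R M0 M1 m * (3*lv g+3) + (t' - t' % PP R M0 M1 l) - PP R M0 M1 m * (3*l+2) := by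
        unfold bR
        rw [h'.2.1]
      have e1 : t % PP R M0 M1 m = t % PP R M0 M1 l :=
        mod_eq_of_zero hlm (fun j h1 h2 => h.2.2.2.1 j (by omega) h2)
      rw [e, beta, add_mod_of (hnc l hlm)]
      have h1 := hlt.2
      have h2 := h'.2.2.1
      have h3 : PP R M0 M1 m * (3*l+2) ≤ PP R M0 M1 m * (3*m+2) := Nat.mul_le_mul_left _ (by omega)
      have h4 : PP R M0 M1 m * (3*m+4) = PP R M0 M1 m * (3*m+2) + PP R M0 M1 m + PP R M0 M1 m := by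
        ring
      have h5 : t' % PP R M0 M1 l < PP R M0 M1 l := Nat.mod_lt _ (hPl l)
      have h6 := PP_le (R := R) (M0 := M0) (M1 := M1) hR hM0p hM1p hlm
      omega
    · rw [beta]
      have h1 := hlt.2
      have h2 : (t + t') % PP R M0 M1 (lv g) < PP R M0 M1 (lv g) := Nat.mod_lt _ (hPl _)
      have h3 := PP_le (R := R) (M0 := M0) (M1 := M1) hR hM0p hM1p hi.le
      have h4 : PP R M0 M1 m * (3*lv g+3) = PP R M0 M1 m * (3*lv g+2) + PP R M0 M1 m := by ring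
      omega
    · rw [beta]
      have h1 := hlt.1
      have h4 : PP R M0 M1 m * (3*(lv g + 1)+2) = PP R M0 M1 m * (3*lv g+4) + PP R M0 M1 m := by ring
      omega
  · intro t₁ t₁' t₂ t₂' g₁ g₁' g₂ g₂' hG hT h1 h1' h2 h2'
    rw [nmL_iff] at h1 h2
    rw [nmR_iff] at h1' h2'
    by_cases hd : ∃ k ∈ Ms, k ∣ t₁ + t₁'
    · obtain ⟨k, hk, hkd⟩ := hd
      refine hpair _ _ _ _ g₁ g₁' g₂ g₂' h1.2.1 h1'.2.1 h2.2.1 h2'.2.1 ?_ ⟨k, hk, ?_⟩
      · rw [← hss _ _ _ _ h1 h1', ← hss _ _ _ _ h2 h2', hT]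
      · rw [← hss _ _ _ _ h1 h1', hstar k hk]; exact hkd
    · have hd' : ∀ k ∈ Ms, ¬ k ∣ t₁ + t₁' := fun k hk hkd => hd ⟨k, hk, hkd⟩
      have e1 := hag _ _ _ _ h1 h1' hd'
      have e2 := hag _ _ _ _ h2 h2' (by rw [← hT]; exact hd')
      subst e1 e2
      have hG' : ∃ l < m, 2 * rho ≤ (Ms1.filter (· ∣ (t₁ + t₁') / PP R M0 M1 l)).card := by
        by_contra hcon
        apply hG
        refine ⟨hd', fun l hl => ?_⟩
        by_contra hlt
        exact hcon ⟨l, hl, not_lt.1 hlt⟩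
      obtain ⟨l, hl, hcard⟩ := hG'
      have key : ∀ t t' g, LeftL R M0 M1 m rho Ms1 lv nL nL1 t g →
          RightL R M0 M1 m rho Ms1 lv nR nR1 t' g → t + t' = t₁ + t₁' → l = lv g ∧
          ∀ σ τ, nL1 (dg R M0 M1 (lv g) t) = some (g, σ) →
            nR1 (dg R M0 M1 (lv g) t') = some (g, τ) → (g, σ) ≠ (g, τ) := by
        intro t t' g h h' hsum
        have hst := star_lt h h'
        have hds := dg_sum h h' hR hM1p
        rw [← hsum, card_dg hk1, dg_add hst hds hl] at hcard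
        have hle : l = lv g := by
          rcases lt_trichotomy l (lv g) with hlt | heq | hgt
          · rw [h'.2.2.2.1 l hlt, Nat.add_zero] at hcard
            have := h.2.2.2.2.1 l hlt
            omega
          · exact heq
          · rw [h.2.2.2.1 l hgt hl, Nat.zero_add] at hcard
            have := h'.2.2.2.2.1 l hgt hl
            omega
        refine ⟨hle, fun σ τ hσ hτ hne => ?_⟩
        rw [hle] at hcard
        rw [← hne] at hτ
        have := hsame _ _ _ hσ hτ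
        omega
      have k1 := key _ _ _ h1 h1' rfl
      have k2 := key _ _ _ h2 h2' hT.symm
      obtain ⟨σ₁, hσ₁⟩ := h1.2.2.2.2.2.2
      obtain ⟨σ₂, hσ₂⟩ := h2.2.2.2.2.2.2
      obtain ⟨τ₁, _, hτ₁⟩ := h1'.2.2.2.2.2.2
      obtain ⟨τ₂, _, hτ₂⟩ := h2'.2.2.2.2.2.2
      have hne1 := k1.2 _ _ hσ₁ hτ₁
      have hne2 := k2.2 _ _ hσ₂ hτ₂
      have hlv12 : lv g₁ = lv g₂ := k1.1.symm.trans k2.1
      have hi := hlv g₁
      have s1 := dg_add (star_lt h1 h1') (dg_sum h1 h1' hR hM1p) hi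
      have s2 := dg_add (star_lt h2 h2') (dg_sum h2 h2' hR hM1p) (hlv g₂)
      have hsum : dg R M0 M1 (lv g₁) t₁ + dg R M0 M1 (lv g₁) t₁'
          = dg R M0 M1 (lv g₂) t₂ + dg R M0 M1 (lv g₂) t₂' := by
        rw [← s1, ← s2, hT, hlv12]
      have := hpair1 _ _ _ _ _ _ _ _ hσ₁ hτ₁ hσ₂ hτ₂ hsum hne1 hne2
      have hgg : g₂ = g₁ := by
        rcases this with ⟨ha, -⟩ | ⟨ha, -⟩
        · exact congrArg Prod.fst ha
        · exact congrArg Prod.fst ha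
      rw [hgg]
      exact ⟨rfl, rfl⟩
  · intro n hn hB
    unfold Bad at hB
    push Not at hB
    obtain ⟨⟨hs1, hs2⟩, hnk, hlv'⟩ := hB
    refine ⟨⟨hnk, fun l hl => ?_⟩, ?_⟩
    · have := (hlv' l hl).2
      omega
    intro g
    have hi := hlv g
    obtain ⟨t0, ht0, hnL, hnR⟩ := hcomp n hnk g
    rw [← hP0] at hs1 hs2
    obtain ⟨⟨hd1, hd2⟩, hcd⟩ := hlv' (lv g) hi
    have hdd : ∀ l, n / PP R M0 M1 l % (R*M1) = dg R M0 M1 l n := fun l => rfl
    rw [hdd] at hd1 hd2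
    have hσ : n % PP R M0 M1 0 - t0 < R*M0 := by omega
    obtain ⟨t1, ht1, hnL1, hnR1⟩ := hcomp1 (dg R M0 M1 (lv g) n)
      (by rw [card_dg hk1] at hcd; exact hcd) (g, ⟨n % PP R M0 M1 0 - t0, hσ⟩)
    obtain ⟨t, t', hsum, e0, e0', etop, hbig, elo, ⟨ei, ei'⟩, ehi⟩ :=
      exists_split (R := R) (M0 := M0) (M1 := M1) (m := m) hR hM0p hM1p (n := n) (i := lv g)
        (t0 := t0) (t1 := t1) hi hn (by omega) (by omega)
    refine ⟨t, t', hsum, ?_, ?_⟩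
    · rw [nmL_iff]
      refine ⟨by omega, by rw [e0]; exact hnL, etop, fun l h1 h2 => (ehi l h1 h2).1, ?_, by omega,
        ⟨⟨n % PP R M0 M1 0 - t0, hσ⟩, by rw [ei]; exact hnL1⟩⟩
      intro l hl
      rw [(elo l hl).1, ← card_dg hk1]
      exact (hlv' l (by omega)).2
    · rw [nmR_iff]
      refine ⟨by omega, ?_, hbig, fun l h1 => (elo l h1).2, ?_, by omega,
        ⟨⟨n % PP R M0 M1 0 - t0, hσ⟩, e0'.symm, ?_⟩⟩
      · rw [e0']
        apply hnR
        have e : t0 + (n % PP R M0 M1 0 - t0) = n % PP R M0 M1 0 := by omega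
        rw [e, hP0]
        exact (Nat.mod_modEq n (R*M0)).of_dvd
          (dvd_mul_of_dvd_right (Dvd.intro _ rfl : M ∣ M0) R)
      · intro l h1 h2
        rw [(ehi l h1 h2).2, ← card_dg hk1]
        exact (hlv' l h2).2
      · rw [ei']
        apply hnR1
        have e : t1 + (dg R M0 M1 (lv g) n - t1) = dg R M0 M1 (lv g) n := by omega
        rw [e]

end Crest.Agent.R320.Clk836
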