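import Mathlib
import Crest.Agent.R320.Names_570
import Crest.Agent.R320.LN_484

/-! Row 320, TEAM U, leaf U2 (638 #13273): `clocks`, assembly of the star names (570) and the
error tolerant level names (484). -/

set_option autoImplicit false

namespace Crest.Agent.R320.Clk_950

def PP (R M0 M1 l : ℕ) : ℕ := (R*M0) * (R*M1)^l
def beta (R M0 M1 m n l : ℕ) : ℕ := PP R M0 M1 m * (3*l+2) + n % PP R M0 M1 l
def Bad (R M0 M1 m rho : ℕ) (Ms Ms1 : Finset ℕ) (n : ℕ) : Prop :=
  (n % (R*M0) < M0 ∨ R*M0 ≤ n % (R*M0) + M0) ∨ (∃ k ∈ Ms, k ∣ n) ∨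
    ∃ l < m, ((n / PP R M0 M1 l) % (R*M1) < M1 ∨ R*M1 ≤ (n / PP R M0 M1 l) % (R*M1) + M1) ∨
      rho ≤ (Ms1.filter (· ∣ n / PP R M0 M1 l)).card

section digits
variable {R M0 M1 : ℕ}

def dig (R M0 M1 x l : ℕ) : ℕ := (x / PP R M0 M1 l) % (R*M1)

theorem PP_zero : PP R M0 M1 0 = R*M0 := by simp [PP]
theorem PP_succ (l : ℕ) : PP R M0 M1 (l+1) = PP R M0 M1 l * (R*M1) := by
  unfold PP; rw [pow_succ]; ring
theorem PP_pos (hR : 0 < R) (h0 : 0 < M0) (h1 : 0 < M1) (l : ℕ) : 0 < PP R M0 M1 l := by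
  unfold PP; positivity
theorem PP_le (hR : 0 < R) (h1 : 0 < M1) {l l' : ℕ} (h : l ≤ l') :
    PP R M0 M1 l ≤ PP R M0 M1 l' := by
  unfold PP
  exact Nat.mul_le_mul_left _ (Nat.pow_le_pow_right (Nat.mul_pos hR h1) h)

theorem mod_succ (x l : ℕ) : x % PP R M0 M1 (l+1) =
    x % PP R M0 M1 l + PP R M0 M1 l * dig R M0 M1 x l := by
  rw [PP_succ, Nat.mod_mul]; rfl

theorem mod_eq_of_dig_zero (x : ℕ) {l l' : ℕ} (h : l ≤ l')
    (hz : ∀ j, l ≤ j → j < l' → dig R M0 M1 x j = 0) :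
    x % PP R M0 M1 l' = x % PP R M0 M1 l := by
  induction l', h using Nat.le_induction with
  | base => rfl
  | succ k hk ih =>
    rw [mod_succ, hz k hk (Nat.lt_succ_self k), Nat.mul_zero, Nat.add_zero]
    exact ih (fun j h1 h2 => hz j h1 (Nat.lt_succ_of_lt h2))

theorem nocarry (hR : 0 < R) (h0 : 0 < M0) (h1 : 0 < M1) {m t t' : ℕ}
    (ha : t % (R*M0) + t' % (R*M0) < R*M0)
    (hd : ∀ l < m, dig R M0 M1 t l + dig R M0 M1 t' l < R*M1) :
    ∀ l ≤ m, t % PP R M0 M1 l + t' % PP R M0 M1 l < PP R M0 M1 l := by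
  intro l
  induction l with
  | zero => intro _; rw [PP_zero]; exact ha
  | succ k ih =>
    intro hk
    have h2 := ih (by omega)
    have h3 := hd k (by omega)
    rw [mod_succ, mod_succ, PP_succ]
    have h4 : dig R M0 M1 t k + dig R M0 M1 t' k + 1 ≤ R*M1 := h3
    have h5 := Nat.mul_le_mul_left (PP R M0 M1 k) h4
    have h6 : PP R M0 M1 k * (dig R M0 M1 t k + dig R M0 M1 t' k + 1) =
      PP R M0 M1 k * dig R M0 M1 t k + PP R M0 M1 k * dig R M0 M1 t' k + PP R M0 M1 k := by ring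
    omega

theorem dig_add (hR : 0 < R) (h0 : 0 < M0) (h1 : 0 < M1) {t t' l : ℕ}
    (hc : t % PP R M0 M1 l + t' % PP R M0 M1 l < PP R M0 M1 l)
    (hd : dig R M0 M1 t l + dig R M0 M1 t' l < R*M1) :
    dig R M0 M1 (t+t') l = dig R M0 M1 t l + dig R M0 M1 t' l := by
  unfold dig at *
  rw [Nat.add_div (PP_pos hR h0 h1 l), if_neg (by omega), Nat.add_zero, Nat.add_mod,
    Nat.mod_eq_of_lt hd]

theorem mod_add {t t' P : ℕ} (hc : t % P + t' % P < P) : (t+t') % P = t % P + t' % P := by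
  rw [Nat.add_mod, Nat.mod_eq_of_lt hc]

theorem filter_dig {Ms1 : Finset ℕ} (h : ∀ k ∈ Ms1, k ∣ M1) (n l : ℕ) :
    Ms1.filter (· ∣ n / PP R M0 M1 l) = Ms1.filter (· ∣ dig R M0 M1 n l) := by
  apply Finset.filter_congr
  intro k hk
  unfold dig
  exact (Nat.dvd_mod_iff (Dvd.dvd.mul_left (h k hk) R)).symm

end digits

theorem clocks (m : ℕ) (Γ C : Type) [Finite Γ] [Finite C] (lv : Γ → ℕ) (hlv : ∀ g, lv g < m)
    (col : Γ → C) : ∃ r : ℕ, ∀ B R : ℕ, 3 ≤ R → ∃ (Ms Ms1 : Finset ℕ) (rho M0 M1 : ℕ),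
      Ms.card ≤ r ∧ Ms1.card ≤ 32*rho ∧ 0 < rho ∧ (∀ k ∈ Ms, B < k ∧ Nat.Prime k ∧ k ∣ M0) ∧
      (∀ k ∈ Ms1, B < k ∧ Nat.Prime k ∧ k ∣ M1) ∧ 0 < M0 ∧ 0 < M1 ∧ B ≤ M0 ∧ B ≤ M1 ∧
      ∃ (nmL nmR : ℕ → Option Γ) (bL bR : ℕ → ℕ → ℕ) (Gd : ℕ → Prop),
      (∀ t g, nmL t = some g → t < PP R M0 M1 m * (3*m+4)) ∧
      (∀ t g, nmR t = some g → PP R M0 M1 m * (3*m+4) ≤ t) ∧
      (∀ t t' g g', Gd (t+t') → nmL t = some g → nmR t' = some g' → g = g' ∧
        (∀ l ≤ lv g, bL t l = beta R M0 M1 m (t+t') l) ∧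
        (∀ l, lv g < l → l ≤ m → bR t' l + beta R M0 M1 m (t+t') l = t+t') ∧
        beta R M0 M1 m (t+t') (lv g) ≤ t ∧ t ≤ beta R M0 M1 m (t+t') (lv g + 1)) ∧
      (∀ t₁ t₁' t₂ t₂' g₁ g₁' g₂ g₂', ¬ Gd (t₁+t₁') → t₁+t₁' = t₂+t₂' → nmL t₁ = some g₁ →
        nmR t₁' = some g₁' → nmL t₂ = some g₂ → nmR t₂' = some g₂' →
        col g₁ = col g₂ ∧ col g₁' = col g₂') ∧
      (∀ n, 2*(PP R M0 M1 m * (3*m+4)) ≤ n → ¬ Bad R M0 M1 m rho Ms Ms1 n →
        Gd n ∧ ∀ g, ∃ t t', t+t' = n ∧ nmL t = some g ∧ nmR t' = some g) := by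
  classical
  obtain ⟨r, hr⟩ := Names_570.exists_names col
  refine ⟨r, fun B R hR3 => ?_⟩
  have hR : 0 < R := by omega
  obtain ⟨Ms, nL, nR, hcard, hprime, hLper, hRper, hgood, havail, hbad⟩ := hr B
  set PM := ∏ k ∈ Ms, k with hPM
  have hPMpos : 0 < PM := Finset.prod_pos (fun k hk => (hprime k hk).1.pos)
  set M0 := PM * (B+1) with hM0
  have hM0pos : 0 < M0 := by positivity
  have hPMM0 : PM ≤ M0 := Nat.le_mul_of_pos_right _ (Nat.succ_pos B)
  have hkM0 : ∀ k ∈ Ms, k ∣ M0 := fun k hk => Dvd.dvd.mul_right (Finset.dvd_prod_of_mem _ hk) _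
  obtain ⟨rho, hrho, hLN⟩ := LN_484.level_names (Γ × Fin (R*M0))
  obtain ⟨Ms1, MM, lL, lR, hcard1, hMs1, hMMpos, hlLper, hlRper, hlgood, hlbad, hlswap, hlavail⟩ :=
    hLN B
  set M1 := MM * (B+1) with hM1
  have hM1pos : 0 < M1 := by positivity
  have hMMM1 : MM ≤ M1 := Nat.le_mul_of_pos_right _ (Nat.succ_pos B)
  have hkM1 : ∀ k ∈ Ms1, k ∣ M1 := fun k hk => Dvd.dvd.mul_right (hMs1 k hk).2.2 _
  let P : ℕ → ℕ := PP R M0 M1
  let D : ℕ → ℕ → ℕ := dig R M0 M1
  -- conditions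
  let LC : ℕ → Γ → Fin (R*M0) → Prop := fun t g σ =>
    t % (R*M0) < M0 ∧ nL (t % (R*M0)) = some g ∧ t / P m = 3 * lv g + 3 ∧
    (∀ l, lv g < l → l < m → D t l = 0) ∧
    (∀ l < lv g, (Ms1.filter (· ∣ D t l)).card < rho) ∧ D t (lv g) < M1 ∧
    lL (D t (lv g)) = some (g, σ)
  let RC : ℕ → Γ → Fin (R*M0) → Prop := fun t g σ =>
    t % (R*M0) + M0 ≤ R*M0 ∧ nR (t % (R*M0)) = some g ∧ P m * (3*m+4) ≤ t ∧
    (∀ l < lv g, D t l = 0) ∧
    (∀ l, lv g < l → l < m → (Ms1.filter (· ∣ D t l)).card < rho) ∧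
    D t (lv g) + M1 ≤ R*M1 ∧ lR (D t (lv g)) = some (g, σ) ∧ (σ : ℕ) = t % (R*M0)
  have LCu : ∀ t g σ g' σ', LC t g σ → LC t g' σ' → g = g' ∧ σ = σ' := by
    intro t g σ g' σ' h h'
    have hg : g = g' := by
      have := h.2.1.symm.trans h'.2.1
      exact Option.some.inj this
    subst hg
    have h1 := h.2.2.2.2.2.2.symm.trans h'.2.2.2.2.2.2
    have h2 := Option.some.inj h1
    exact ⟨rfl, (Prod.ext_iff.mp h2).2⟩
  have RCu : ∀ t g σ g' σ', RC t g σ → RC t g' σ' → g = g' := by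
    intro t g σ g' σ' h h'
    have := h.2.1.symm.trans h'.2.1
    exact Option.some.inj this
  let nmL : ℕ → Option Γ := fun t => if h : ∃ g σ, LC t g σ then some h.choose else none
  let nmR : ℕ → Option Γ := fun t => if h : ∃ g σ, RC t g σ then some h.choose else none
  let sg : ℕ → ℕ := fun t => if h : ∃ σ : Fin (R*M0), ∃ g, LC t g σ then (h.choose : ℕ) else 0
  have nmL_iff : ∀ t g, nmL t = some g ↔ ∃ σ, LC t g σ := by
    intro t g
    constructor
    · intro h
      by_cases hx : ∃ g σ, LC t g σ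
      · simp only [nmL, dif_pos hx] at h
        have := Option.some.inj h
        rw [← this]; exact hx.choose_spec
      · simp only [nmL, dif_neg hx] at h
        exact absurd h (by simp)
    · rintro ⟨σ, h⟩
      have hx : ∃ g σ, LC t g σ := ⟨g, σ, h⟩
      simp only [nmL, dif_pos hx]
      obtain ⟨σ', h'⟩ := hx.choose_spec
      rw [(LCu t _ _ _ _ h' h).1]
  have nmR_iff : ∀ t g, nmR t = some g ↔ ∃ σ, RC t g σ := by
    intro t g
    constructor
    · intro h
      by_cases hx : ∃ g σ, RC t g σ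
      · simp only [nmR, dif_pos hx] at h
        have := Option.some.inj h
        rw [← this]; exact hx.choose_spec
      · simp only [nmR, dif_neg hx] at h
        exact absurd h (by simp)
    · rintro ⟨σ, h⟩
      have hx : ∃ g σ, RC t g σ := ⟨g, σ, h⟩
      simp only [nmR, dif_pos hx]
      obtain ⟨σ', h'⟩ := hx.choose_spec
      rw [RCu t _ _ _ _ h' h]
  have sg_eq : ∀ t g (σ : Fin (R*M0)), LC t g σ → sg t = σ := by
    intro t g σ h
    have hx : ∃ σ : Fin (R*M0), ∃ g, LC t g σ := ⟨σ, g, h⟩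
    simp only [sg, dif_pos hx]
    obtain ⟨g', h'⟩ := hx.choose_spec
    rw [(LCu t _ _ _ _ h' h).2]
  let bL : ℕ → ℕ → ℕ := fun t l => P m * (3*l+2) + (t + sg t) % P l
  let bR : ℕ → ℕ → ℕ := fun t l =>
    if h : ∃ g σ, RC t g σ then P m * (3 * lv h.choose + 3) + (t - t % P l) - P m * (3*l+2) else 0
  have bR_eq : ∀ t g σ l, RC t g σ →
      bR t l = P m * (3 * lv g + 3) + (t - t % P l) - P m * (3*l+2) := by
    intro t g σ l h
    have hx : ∃ g σ, RC t g σ := ⟨g, σ, h⟩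
    simp only [bR, dif_pos hx]
    obtain ⟨σ', h'⟩ := hx.choose_spec
    rw [RCu t _ _ _ _ h' h]
  let Gd : ℕ → Prop := fun n => (∀ k ∈ Ms, ¬ k ∣ n) ∧
    ∀ l < m, (Ms1.filter (· ∣ D n l)).card < 2*rho
  -- star names on the sum
  have hstar : ∀ t t' k, k ∈ Ms → (k ∣ t % (R*M0) + t' % (R*M0) ↔ k ∣ t + t') := by
    intro t t' k hk
    have hd : k ∣ R*M0 := Dvd.dvd.mul_left (hkM0 k hk) R
    rw [Nat.dvd_iff_mod_eq_zero, Nat.dvd_iff_mod_eq_zero]
    have h1 : (t % (R*M0) + t' % (R*M0)) % k = (t + t') % k := by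
      rw [Nat.add_mod, Nat.mod_mod_of_dvd _ hd, Nat.mod_mod_of_dvd _ hd, ← Nat.add_mod]
    rw [h1]
  -- a pair with the same name has no carry
  have hnc : ∀ t t' g σ σ', LC t g σ → RC t' g σ' →
      (∀ l ≤ m, t % P l + t' % P l < P l) ∧ (∀ l < m, D (t+t') l = D t l + D t' l) := by
    intro t t' g σ σ' hl hr
    have ha : t % (R*M0) + t' % (R*M0) < R*M0 := by have := hl.1; have := hr.1; omega
    have hd : ∀ l < m, dig R M0 M1 t l + dig R M0 M1 t' l < R*M1 := by
      intro l hlm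
      have hRM : 0 < R*M1 := Nat.mul_pos hR hM1pos
      rcases lt_trichotomy l (lv g) with h | h | h
      · have h1 := hr.2.2.2.1 l h
        have h2 : dig R M0 M1 t l < R*M1 := Nat.mod_lt _ hRM
        have h3 : dig R M0 M1 t' l = 0 := h1
        omega
      · subst h
        have h1 : dig R M0 M1 t (lv g) < M1 := hl.2.2.2.2.2.1
        have h2 : dig R M0 M1 t' (lv g) + M1 ≤ R*M1 := hr.2.2.2.2.2.1
        omega
      · have h1 : dig R M0 M1 t l = 0 := hl.2.2.2.1 l h hlm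
        have h2 : dig R M0 M1 t' l < R*M1 := Nat.mod_lt _ hRM
        omega
    have h3 := nocarry hR hM0pos hM1pos ha hd
    exact ⟨h3, fun l hlm => dig_add hR hM0pos hM1pos (h3 l hlm.le) (hd l hlm)⟩
  refine ⟨Ms, Ms1, rho, M0, M1, hcard, hcard1, hrho,
    fun k hk => ⟨(hprime k hk).2, (hprime k hk).1, hkM0 k hk⟩,
    fun k hk => ⟨(hMs1 k hk).1, (hMs1 k hk).2.1, hkM1 k hk⟩, hM0pos, hM1pos, ?_, ?_,
    nmL, nmR, bL, bR, Gd, ?_, ?_, ?_, ?_, ?_⟩
  · calc B ≤ B + 1 := Nat.le_succ B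
      _ = 1 * (B+1) := (Nat.one_mul _).symm
      _ ≤ M0 := Nat.mul_le_mul_right _ hPMpos
  · calc B ≤ B + 1 := Nat.le_succ B
      _ = 1 * (B+1) := (Nat.one_mul _).symm
      _ ≤ M1 := Nat.mul_le_mul_right _ hMMpos
  · intro t g h
    obtain ⟨σ, h⟩ := (nmL_iff t g).1 h
    have h1 := h.2.2.1
    have hPpos : 0 < P m := PP_pos hR hM0pos hM1pos m
    have h2 := hlv g
    have h3 : t < P m * (3 * lv g + 3 + 1) := by
      rw [← h1]; exact Nat.lt_mul_div_succ t hPpos
    exact lt_of_lt_of_le h3 (Nat.mul_le_mul_left _ (by omega))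
  · intro t g h
    obtain ⟨σ, h⟩ := (nmR_iff t g).1 h
    exact h.2.2.1
  · -- good sums
    intro t t' g g' hG hl hr
    obtain ⟨σ, hl⟩ := (nmL_iff t g).1 hl
    obtain ⟨σ', hr⟩ := (nmR_iff t' g').1 hr
    have hgg : g = g' := by
      refine hgood (t % (R*M0)) (t' % (R*M0)) g g' ?_ hl.2.1 hr.2.1
      intro k hk hdv
      exact hG.1 k hk ((hstar t t' k hk).1 hdv)
    subst hgg
    obtain ⟨hc, hdg⟩ := hnc t t' g σ σ' hl hr
    have him := hlv g
    have hσ : (g, σ) = (g, σ') := by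
      by_contra hne
      have h1 := hlbad (D t (lv g)) (D t' (lv g)) (g, σ) (g, σ') hl.2.2.2.2.2.2
        hr.2.2.2.2.2.2.1 hne
      have h2 := hG.2 (lv g) him
      rw [hdg (lv g) him] at h2
      omega
    have hσ2 : σ = σ' := (Prod.ext_iff.mp hσ).2
    have hs : sg t = t' % (R*M0) := by
      rw [sg_eq t g σ hl, hσ2]; exact hr.2.2.2.2.2.2.2
    have hPpos : ∀ l, 0 < P l := fun l => PP_pos hR hM0pos hM1pos l
    have hPle : ∀ l ≤ m, P l ≤ P m := fun l hl => PP_le hR hM1pos hl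
    have htdiv : t = P m * (3 * lv g + 3) + t % P m := by
      conv_lhs => rw [← Nat.div_add_mod t (P m)]
      rw [hl.2.2.1]
    refine ⟨rfl, ?_, ?_, ?_, ?_⟩
    · intro l hll
      show P m * (3*l+2) + (t + sg t) % P l = P m * (3*l+2) + (t+t') % P l
      have h1 : t' % P l = t' % (R*M0) := by
        have := mod_eq_of_dig_zero (R := R) (M0 := M0) (M1 := M1) t' (Nat.zero_le l)
          (fun j _ hj => hr.2.2.2.1 j (by omega))
        rw [PP_zero] at this
        exact this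
      rw [hs, ← h1, Nat.add_mod_mod]
    · intro l hll hlm
      rw [bR_eq t' g σ' l hr]
      show P m * (3 * lv g + 3) + (t' - t' % P l) - P m * (3*l+2) +
        (P m * (3*l+2) + (t+t') % P l) = t + t'
      have h1 : t % P m = t % P l :=
        mod_eq_of_dig_zero t hlm (fun j hj1 hj2 => hl.2.2.2.1 j (by omega) hj2)
      rw [mod_add (hc l hlm)]
      have h2 : P m * (3*m+4) ≤ t' := hr.2.2.1
      have h3 : t' % P l < P m := lt_of_lt_of_le (Nat.mod_lt _ (hPpos l)) (hPle l hlm)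
      have h4 : P m * (3*l+2) ≤ P m * (3*m+2) := Nat.mul_le_mul_left _ (by omega)
      have h5 : P m * (3*m+4) = P m * (3*m+2) + P m + P m := by ring
      have h6 : t' % P l ≤ t' := Nat.mod_le _ _
      omega
    · show P m * (3 * lv g + 2) + (t+t') % P (lv g) ≤ t
      have h1 : (t+t') % P (lv g) < P m :=
        lt_of_lt_of_le (Nat.mod_lt _ (hPpos _)) (hPle _ him.le)
      have h2 : P m * (3 * lv g + 3) = P m * (3 * lv g + 2) + P m := by ring
      omega
    · show t ≤ P m * (3 * (lv g + 1) + 2) + (t+t') % P (lv g + 1)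
      have h1 : t % P m < P m := Nat.mod_lt _ (hPpos _)
      have h2 : P m * (3 * (lv g + 1) + 2) = P m * (3 * lv g + 3) + P m + P m := by ring
      omega
  · -- bad sums
    intro t₁ t₁' t₂ t₂' g₁ g₁' g₂ g₂' hG hsum h1 h1' h2 h2'
    obtain ⟨σ₁, h1⟩ := (nmL_iff _ _).1 h1
    obtain ⟨σ₁', h1'⟩ := (nmR_iff _ _).1 h1'
    obtain ⟨σ₂, h2⟩ := (nmL_iff _ _).1 h2
    obtain ⟨σ₂', h2'⟩ := (nmR_iff _ _).1 h2'
    have hs1 : t₁ % (R*M0) + t₁' % (R*M0) < R*M0 := by have := h1.1; have := h1'.1; omega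
    have hs2 : t₂ % (R*M0) + t₂' % (R*M0) < R*M0 := by have := h2.1; have := h2'.1; omega
    have hsumm : t₁ % (R*M0) + t₁' % (R*M0) = t₂ % (R*M0) + t₂' % (R*M0) := by
      rw [← mod_add hs1, ← mod_add hs2, hsum]
    by_cases hk : ∃ k ∈ Ms, k ∣ t₁ + t₁'
    · obtain ⟨k, hk, hkd⟩ := hk
      rcases hbad _ _ _ _ g₁ g₁' g₂ g₂' hsumm ⟨k, hk, (hstar t₁ t₁' k hk).2 hkd⟩ h1.2.1 h1'.2.1
        h2.2.1 h2'.2.1 with ⟨ha, hb⟩ | ⟨ha, hb, hc⟩
      · exact ⟨by rw [ha], by rw [hb]⟩
      · exact ⟨hc.trans (by rw [hb]), hc.symm.trans (by rw [ha])⟩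
    · have hk' : ∀ k ∈ Ms, ¬ k ∣ t₁ + t₁' := fun k hk1 hk2 => hk ⟨k, hk1, hk2⟩
      have hgg1 : g₁ = g₁' := hgood _ _ _ _
        (fun k hk1 hdv => hk' k hk1 ((hstar _ _ k hk1).1 hdv)) h1.2.1 h1'.2.1
      have hgg2 : g₂ = g₂' := hgood _ _ _ _
        (fun k hk1 hdv => hk' k hk1 (by rw [hsum]; exact (hstar _ _ k hk1).1 hdv)) h2.2.1 h2'.2.1
      subst hgg1
      subst hgg2
      obtain ⟨hc1, hd1⟩ := hnc _ _ _ _ _ h1 h1'
      obtain ⟨hc2, hd2⟩ := hnc _ _ _ _ _ h2 h2'
      have hex : ∃ l < m, 2*rho ≤ (Ms1.filter (· ∣ D (t₁+t₁') l)).card := by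
        by_contra hno
        apply hG
        refine ⟨hk', fun l hl => ?_⟩
        by_contra hno2
        exact hno ⟨l, hl, by omega⟩
      obtain ⟨l, hlm, hl2⟩ := hex
      have key : ∀ t t' g (σ σ' : Fin (R*M0)), LC t g σ → RC t' g σ' →
          (∀ l < m, D (t+t') l = D t l + D t' l) →
          2*rho ≤ (Ms1.filter (· ∣ D (t+t') l)).card → l = lv g := by
        intro t t' g σ σ' hL hR' hD hcd
        by_contra hne
        rcases lt_or_gt_of_ne hne with h | h
        · have h3 := hL.2.2.2.2.1 l h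
          rw [hD l hlm, hR'.2.2.2.1 l h, Nat.add_zero] at hcd
          omega
        · have h3 := hR'.2.2.2.2.1 l h hlm
          rw [hD l hlm, hL.2.2.2.1 l h hlm, Nat.zero_add] at hcd
          omega
      have e1 : l = lv g₁ := key _ _ _ _ _ h1 h1' hd1 hl2
      have e2 : l = lv g₂ := key _ _ _ _ _ h2 h2' hd2 (by rw [← hsum]; exact hl2)
      have hne1 : (g₁, σ₁) ≠ (g₁, σ₁') := by
        intro h
        have := hlgood (D t₁ (lv g₁)) (D t₁' (lv g₁)) (g₁, σ₁) h1.2.2.2.2.2.2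
          (by rw [h]; exact h1'.2.2.2.2.2.2.1)
        rw [← e1, ← hd1 l hlm] at this
        omega
      have hne2 : (g₂, σ₂) ≠ (g₂, σ₂') := by
        intro h
        have := hlgood (D t₂ (lv g₂)) (D t₂' (lv g₂)) (g₂, σ₂) h2.2.2.2.2.2.2
          (by rw [h]; exact h2'.2.2.2.2.2.2.1)
        rw [← e2, ← hd2 l hlm, ← hsum] at this
        omega
      have hsum2 : D t₁ (lv g₁) + D t₁' (lv g₁) = D t₂ (lv g₂) + D t₂' (lv g₂) := by
        rw [← e1, ← e2, ← hd1 l hlm, ← hd2 l hlm, hsum]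
      rcases hlswap _ _ _ _ _ _ _ _ h1.2.2.2.2.2.2 h1'.2.2.2.2.2.2.1 h2.2.2.2.2.2.2
        h2'.2.2.2.2.2.2.1 hsum2 hne1 hne2 with ⟨ha, hb⟩ | ⟨ha, hb⟩
      · have : g₂ = g₁ := (Prod.ext_iff.mp ha).1
        rw [this]; exact ⟨rfl, rfl⟩
      · have : g₂ = g₁ := (Prod.ext_iff.mp ha).1
        rw [this]; exact ⟨rfl, rfl⟩
  · -- completeness
    intro n hn hB
    have hB1 : M0 ≤ n % (R*M0) ∧ n % (R*M0) + M0 < R*M0 := by
      by_contra h
      apply hB
      left
      by_contra h2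
      apply h
      constructor
      · by_contra h3; exact h2 (Or.inl (by omega))
      · by_contra h3; exact h2 (Or.inr (by omega))
    have hB2 : ∀ k ∈ Ms, ¬ k ∣ n := fun k hk hd => hB (Or.inr (Or.inl ⟨k, hk, hd⟩))
    have hB3 : ∀ l < m, M1 ≤ D n l ∧ D n l + M1 < R*M1 ∧
        (Ms1.filter (· ∣ D n l)).card < rho := by
      intro l hl
      have hx : ¬ (((n / PP R M0 M1 l) % (R*M1) < M1 ∨
          R*M1 ≤ (n / PP R M0 M1 l) % (R*M1) + M1) ∨
          rho ≤ (Ms1.filter (· ∣ n / PP R M0 M1 l)).card) := by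
        intro h
        exact hB (Or.inr (Or.inr ⟨l, hl, h⟩))
      rw [filter_dig hkM1 n l] at hx
      have hx2 : ¬ ((D n l < M1 ∨ R*M1 ≤ D n l + M1) ∨
          rho ≤ (Ms1.filter (· ∣ D n l)).card) := hx
      refine ⟨?_, ?_, ?_⟩
      · by_contra h; exact hx2 (Or.inl (Or.inl (by omega)))
      · by_contra h; exact hx2 (Or.inl (Or.inr (by omega)))
      · by_contra h; exact hx2 (Or.inr (by omega))
    refine ⟨⟨hB2, fun l hl => by have := (hB3 l hl).2.2; omega⟩, fun g => ?_⟩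
    have him := hlv g
    have hRM0 : 0 < R*M0 := Nat.mul_pos hR hM0pos
    have hRM1 : 0 < R*M1 := Nat.mul_pos hR hM1pos
    -- the star digit
    obtain ⟨τ, -, hτ1, hτ2, hτL, hτR⟩ := havail (n % (R*M0)) g 0
      (fun k hk hd => hB2 k hk ((Nat.dvd_mod_iff (Dvd.dvd.mul_left (hkM0 k hk) R)).1 hd))
      (by omega)
    rw [Nat.zero_add] at hτ1
    have hτM : τ < M0 := lt_of_lt_of_le hτ1 hPMM0
    set s := n % (R*M0) - τ with hs
    have hsM : s + M0 ≤ R*M0 := by omega
    have hslt : s < R*M0 := by omega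
    -- the level digit
    obtain ⟨a, haM, haL, haR⟩ := hlavail (D n (lv g)) (hB3 _ him).2.2 (g, ⟨s, hslt⟩)
    have haM1 : a < M1 := lt_of_lt_of_le haM hMMM1
    set b := D n (lv g) - a with hb
    have hab : a + b = D n (lv g) := by have := (hB3 _ him).1; omega
    have hbR : lR b = some (g, ⟨s, hslt⟩) := haR b (by rw [hab])
    have hbM : b + M1 ≤ R*M1 := by have := (hB3 _ him).2.1; omega
    have hPpos : ∀ l, 0 < P l := fun l => PP_pos hR hM0pos hM1pos l
    -- the lower parts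
    have hmodi : n % P (lv g) % (R*M0) = n % (R*M0) := by
      apply Nat.mod_mod_of_dvd
      exact Dvd.intro _ rfl
    have hsle : s ≤ n % P (lv g) := by
      have h1 : n % (R*M0) ≤ n % P (lv g) := by
        rw [← hmodi]; exact Nat.mod_le _ _
      omega
    set lo := n % P (lv g) - s with hlo
    set t := P m * (3 * lv g + 3) + (a * P (lv g) + lo) with ht
    have hlolt : lo < P (lv g) := by
      have := Nat.mod_lt n (hPpos (lv g)); omega
    have hPdvd : ∀ l l', l ≤ l' → P l ∣ P l' := by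
      intro l l' h
      show PP R M0 M1 l ∣ PP R M0 M1 l'
      unfold PP
      exact Nat.mul_dvd_mul_left _ (Nat.pow_dvd_pow _ h)
    have hPs : ∀ l, P (l+1) = P l * (R*M1) := fun l => PP_succ l
    have hlo2 : a * P (lv g) + lo < P (lv g + 1) := by
      rw [hPs]
      have h1 : a + 1 ≤ R*M1 := by omega
      have h2 := Nat.mul_le_mul_left (P (lv g)) h1
      have h3 : P (lv g) * (a+1) = a * P (lv g) + P (lv g) := by ring
      omega
    have hlo3 : a * P (lv g) + lo < P m :=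
      lt_of_lt_of_le hlo2 (PP_le hR hM1pos him)
    have htdiv : t / P m = 3 * lv g + 3 := by
      rw [ht, Nat.mul_add_div (hPpos m), Nat.div_eq_of_lt hlo3, Nat.add_zero]
    have htmod : t % P m = a * P (lv g) + lo := by
      rw [ht, Nat.mul_add_mod, Nat.mod_eq_of_lt hlo3]
    have htm : ∀ l ≤ m, t % P l = (a * P (lv g) + lo) % P l := by
      intro l hl
      rw [← htmod, Nat.mod_mod_of_dvd _ (hPdvd l m hl)]
    have htle : t ≤ n := by
      have hn' : 2*(P m * (3*m+4)) ≤ n := hn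
      have h1 : P m * (3*m+4) = P m * (3*m) + P m * 4 := by ring
      have h2 : P m * (3 * lv g + 3) ≤ P m * (3*m) := Nat.mul_le_mul_left _ (by omega)
      have := hPpos m
      omega
    set t' := n - t with ht'
    have htt' : t + t' = n := by omega
    have ht0 : t % (R*M0) = τ := by
      have h0 := htm 0 (Nat.zero_le _)
      have hP0 : P 0 = R*M0 := PP_zero
      rw [hP0] at h0
      rw [h0]
      have h1 : (R*M0) ∣ a * P (lv g) := Dvd.dvd.mul_left (hP0 ▸ hPdvd 0 (lv g) (Nat.zero_le _)) a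
      obtain ⟨c, hc⟩ := h1
      rw [hc, Nat.mul_add_mod]
      -- lo % (R*M0) = τ
      have h2 : n % P (lv g) = (R*M0) * (n % P (lv g) / (R*M0)) + n % (R*M0) := by
        conv_lhs => rw [← Nat.div_add_mod (n % P (lv g)) (R*M0)]
        rw [hmodi]
      have h3 : lo = (R*M0) * (n % P (lv g) / (R*M0)) + τ := by omega
      rw [h3, Nat.mul_add_mod, Nat.mod_eq_of_lt (by omega)]
    have hti : t % P (lv g) = lo := by
      rw [htm _ him.le, Nat.add_comm, Nat.add_mul_mod_self_right, Nat.mod_eq_of_lt hlolt]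
    have hti1 : t % P (lv g + 1) = a * P (lv g) + lo := by
      rw [htm _ him, Nat.mod_eq_of_lt hlo2]
    have hdt : D t (lv g) = a := by
      have h1 := mod_succ (R := R) (M0 := M0) (M1 := M1) t (lv g)
      have h2 : t % P (lv g + 1) = t % P (lv g) + P (lv g) * D t (lv g) := h1
      rw [hti1, hti] at h2
      have h3 : P (lv g) * a = P (lv g) * D t (lv g) := by
        have : a * P (lv g) = P (lv g) * a := Nat.mul_comm _ _
        omega
      exact (Nat.eq_of_mul_eq_mul_left (hPpos _) h3).symm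
    have hdlow : ∀ l < lv g, D t l = D n l := by
      intro l hl
      -- t % P(l+1) and n % P (l+1) differ by s at both places
      have h1 : ∀ j ≤ lv g, t % P j + s = n % P j := by
        intro j hj
        have h2 : t % P j = lo % P j := by
          rw [← hti, Nat.mod_mod_of_dvd _ (hPdvd j _ hj)]
        have h3 : (lo + s) % P j = n % P j := by
          have : lo + s = n % P (lv g) := by omega
          rw [this, Nat.mod_mod_of_dvd _ (hPdvd j _ hj)]
        have h4 : n % (R*M0) ≤ n % P j := by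
          have h5 : n % P j % (R*M0) = n % (R*M0) := by
            apply Nat.mod_mod_of_dvd
            exact Dvd.intro _ rfl
          rw [← h5]; exact Nat.mod_le _ _
        have h6 : s ≤ n % P j := by omega
        have h7 : n % P j < P j := Nat.mod_lt _ (hPpos j)
        have h8 : s < P j := by omega
        -- lo % P j + s ≡ n % P j
        rw [h2]
        have h9 : (lo % P j + s) % P j = n % P j := by
          rw [Nat.mod_add_mod]; exact h3
        rcases Nat.lt_or_ge (lo % P j + s) (P j) with h10 | h10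
        · rwa [Nat.mod_eq_of_lt h10] at h9
        · exfalso
          have h11 : lo % P j < P j := Nat.mod_lt _ (hPpos j)
          rw [Nat.mod_eq_sub_mod h10, Nat.mod_eq_of_lt (by omega)] at h9
          omega
      have e1 := h1 l hl.le
      have e2 := h1 (l+1) hl
      have f1 : t % P (l+1) = t % P l + P l * D t l := mod_succ t l
      have f2 : n % P (l+1) = n % P l + P l * D n l := mod_succ n l
      have f3 : P l * D t l = P l * D n l := by omega
      exact Nat.eq_of_mul_eq_mul_left (hPpos _) f3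
    have hdhigh : ∀ l, lv g < l → l < m → D t l = 0 := by
      intro l hl hlm
      have h1 : t % P (l+1) = t % P l + P l * D t l := mod_succ t l
      have h2 : ∀ j, lv g < j → j ≤ m → t % P j = a * P (lv g) + lo := by
        intro j hj hjm
        rw [htm j hjm, Nat.mod_eq_of_lt]
        exact lt_of_lt_of_le hlo2 (PP_le hR hM1pos hj)
      rw [h2 (l+1) (by omega) hlm, h2 l hl hlm.le] at h1
      have h3 : P l * D t l = 0 := by omega
      rcases Nat.mul_eq_zero.1 h3 with h | h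
      · exact absurd h (hPpos l).ne'
      · exact h
    -- digits of t' from those of n
    have hmodle : ∀ l ≤ m, t % P l ≤ n % P l := by
      intro l
      induction l with
      | zero =>
        intro _
        have hP0 : P 0 = R*M0 := PP_zero
        rw [hP0, ht0]; exact hτ2
      | succ k ih =>
        intro hk
        have h1 := ih (by omega)
        have f1 : t % P (k+1) = t % P k + P k * D t k := mod_succ t k
        have f2 : n % P (k+1) = n % P k + P k * D n k := mod_succ n k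
        have h2 : D t k ≤ D n k := by
          rcases lt_trichotomy k (lv g) with h | h | h
          · exact (hdlow k h).le
          · rw [h, hdt]; omega
          · rw [hdhigh k h (by omega)]; exact Nat.zero_le _
        have h3 := Nat.mul_le_mul_left (P k) h2
        omega
    have ht'mod : ∀ l ≤ m, t' % P l = n % P l - t % P l := by
      intro l hl
      have h1 := hmodle l hl
      have h2 : n % P l < P l := Nat.mod_lt _ (hPpos l)
      have h3 : (t % P l + t' % P l) % P l = n % P l := by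
        rw [← Nat.add_mod, htt']
      have h4 : t' % P l < P l := Nat.mod_lt _ (hPpos l)
      have h5 : t % P l < P l := Nat.mod_lt _ (hPpos l)
      rcases Nat.lt_or_ge (t % P l + t' % P l) (P l) with h6 | h6
      · rw [Nat.mod_eq_of_lt h6] at h3; omega
      · rw [Nat.mod_eq_sub_mod h6, Nat.mod_eq_of_lt (by omega)] at h3
        omega
    have hdt' : ∀ l < m, D t l + D t' l = D n l := by
      intro l hl
      have f1 : t % P (l+1) = t % P l + P l * D t l := mod_succ t l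
      have f2 : n % P (l+1) = n % P l + P l * D n l := mod_succ n l
      have f3 : t' % P (l+1) = t' % P l + P l * D t' l := mod_succ t' l
      have g1 := ht'mod l hl.le
      have g2 := ht'mod (l+1) hl
      have g3 := hmodle l hl.le
      have g4 := hmodle (l+1) hl
      have h1 : P l * (D t l + D t' l) = P l * D n l := by
        rw [Nat.mul_add]; omega
      exact Nat.eq_of_mul_eq_mul_left (hPpos _) h1
    have ht'0 : t' % (R*M0) = s := by
      have h1 := ht'mod 0 (Nat.zero_le _)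
      have hP0 : P 0 = R*M0 := PP_zero
      rw [hP0, ht0] at h1
      exact h1
    refine ⟨t, t', htt', (nmL_iff t g).2 ⟨⟨s, hslt⟩, ?_⟩, (nmR_iff t' g).2 ⟨⟨s, hslt⟩, ?_⟩⟩
    · refine ⟨by rw [ht0]; exact hτM, by rw [ht0]; exact hτL, htdiv, hdhigh, ?_, ?_, ?_⟩
      · intro l hl
        rw [hdlow l hl]; exact (hB3 l (by omega)).2.2
      · rw [hdt]; exact haM1
      · rw [hdt]; exact haL
    · have hi := hdt' (lv g) him
      rw [hdt] at hi
      have hbi : D t' (lv g) = b := by omega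
      refine ⟨by rw [ht'0]; exact hsM, by rw [ht'0]; exact hτR, ?_, ?_, ?_, ?_, ?_, ?_⟩
      · have h1 : t < P m * (3*m+4) := by
          have h2 : t < P m * (3 * lv g + 3 + 1) := by
            rw [← htdiv]; exact Nat.lt_mul_div_succ t (hPpos m)
          exact lt_of_lt_of_le h2 (Nat.mul_le_mul_left _ (by omega))
        have h3 : 2*(P m * (3*m+4)) ≤ n := hn
        omega
      · intro l hl
        have h1 := hdt' l (by omega)
        rw [hdlow l hl] at h1
        omega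
      · intro l hl hlm
        have h1 := hdt' l hlm
        rw [hdhigh l hl hlm, Nat.zero_add] at h1
        rw [h1]; exact (hB3 l hlm).2.2
      · rw [hbi]; exact hbM
      · rw [hbi]; exact hbR
      · exact ht'0.symm

end Crest.Agent.R320.Clk_950
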