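import Crest.Agent.R320.Sumset_560

/-! Row 320: the normalised clock (`l 0 = r 0 = 0`) in natural numbers, complete for all totals. -/

set_option autoImplicit false

namespace Crest.Agent.R320.ClockN_560

open Crest.Agent.R320.Sumset_560

/-- normalisation: both sides contain label `0` at clock `0` -/
theorem Gad.norm {C E : Type*} [AddCommGroup C] [AddCommGroup E] (h : Gad C E) :
    ∃ (A B : C → Option E) (P : C → E),
      (∀ x y a b, A x = some a → B y = some b → a + b = P (x + y)) ∧
      (∀ T a, ∃ x, A x = some a ∧ ∃ b, B (T - x) = some b) ∧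
      A 0 = some 0 ∧ B 0 = some 0 := by
  obtain ⟨A, B, P, hs, hc⟩ := h
  obtain ⟨x0, hx0, b0, hb0⟩ := hc 0 0
  refine ⟨fun x => A (x + x0), fun y => (B (y + (0 - x0))).map (fun b => b - b0),
    fun z => P z - b0, ?_, ?_, ?_, ?_⟩
  · intro x y a b hA hB
    simp only [Option.map_eq_some_iff] at hB
    obtain ⟨b', hB, rfl⟩ := hB
    have := hs _ _ _ _ hA hB
    have e : x + x0 + (y + (0 - x0)) = x + y := by abel
    rw [e] at this
    show a + (b' - b0) = P (x + y) - b0
    rw [← this]; abel
  · intro T a
    obtain ⟨x, hx, b, hb⟩ := hc T a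
    refine ⟨x - x0, by simpa using hx, b - b0, ?_⟩
    have e : T - (x - x0) + (0 - x0) = T - x := by abel
    simp only [e, hb, Option.map_some]
  · simpa using hx0
  · simp only [zero_add]
    rw [hb0]; simp

/-- the clock over a finite index type -/
theorem clock_index (ι : Type*) [Finite ι] (N0 : ℕ) (hN0 : 0 < N0) :
    ∃ M : ℕ, 0 < M ∧ Nat.Coprime M N0 ∧ Gad (ZMod M) (ι → ZMod 2) := by
  classical
  have := Fintype.ofFinite ι
  obtain ⟨M, hM, hc, hG⟩ := clock (Fintype.card ι) N0 hN0
  refine ⟨M, hM, hc, hG.equiv (AddEquiv.refl _) ?_⟩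
  exact
    { toFun := fun f i => f (Fintype.equivFin ι i)
      invFun := fun g j => g ((Fintype.equivFin ι).symm j)
      left_inv := fun f => by funext j; simp
      right_inv := fun g => by funext i; simp
      map_add' := fun x y => rfl }

theorem add_self_F2 {ι : Type*} (a : ι → ZMod 2) : a + a = 0 := by
  funext i
  have : ∀ z : ZMod 2, z + z = 0 := by decide
  exact this (a i)

/-- **the normalised clock gadget**: complete for all totals `T ≥ 2 K + t M`, with both clocks
`≥ K`, left clock divisible by `t`. -/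
theorem clockN (ι : Type*) [Finite ι] (t : ℕ) (ht : 0 < t) :
    ∃ (M : ℕ) (l r : ℕ → Option (ι → ZMod 2)) (p : ℕ → (ι → ZMod 2)),
      0 < M ∧ Nat.Coprime M t ∧
      (∀ o o', o % M = o' % M → l o = l o') ∧ (∀ o o', o % M = o' % M → r o = r o') ∧
      (∀ o o', o % M = o' % M → p o = p o') ∧
      (∀ o o' a b, l o = some a → r o' = some b → b = a + p (o + o')) ∧
      l 0 = some 0 ∧ r 0 = some 0 ∧
      (∀ (K T : ℕ) (v : ι → ZMod 2), 2 * K + t * M ≤ T → ∃ o o', o + o' = T ∧ t ∣ o ∧
        K ≤ o ∧ K ≤ o' ∧ l o = some v ∧ ∃ b, r o' = some b) := by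
  obtain ⟨M, hM, hcop, hG⟩ := clock_index ι t ht
  have : NeZero M := ⟨hM.ne'⟩
  obtain ⟨A, B, P, hs, hc, hA0, hB0⟩ := Gad.norm hG
  have hcast : ∀ o o' : ℕ, o % M = o' % M → ((o : ℕ) : ZMod M) = (o' : ZMod M) := fun o o' h =>
    (ZMod.natCast_eq_natCast_iff' o o' M).2 h
  refine ⟨M, fun o => A (o : ZMod M), fun o => B (o : ZMod M), fun o => P (o : ZMod M), hM, hcop,
    fun o o' h => by simp only [hcast o o' h], fun o o' h => by simp only [hcast o o' h],
    fun o o' h => by simp only [hcast o o' h], ?_, by simpa using hA0, by simpa using hB0, ?_⟩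
  · intro o o' a b ha hb
    have := hs _ _ _ _ ha hb
    have e : ((o + o' : ℕ) : ZMod M) = (o : ZMod M) + (o' : ZMod M) := by push_cast; rfl
    show b = a + P ((o + o' : ℕ) : ZMod M)
    rw [e, ← this, ← add_assoc, add_self_F2, zero_add]
  · intro K T v hT
    obtain ⟨x, hx, b, hb⟩ := hc (T : ZMod M) v
    -- a residue mod t * M
    obtain ⟨z, hz1, hz2⟩ := Nat.chineseRemainder hcop x.val 0
    set q := t * M with hq
    have hqpos : 0 < q := Nat.mul_pos ht hM
    -- o := K + ((z + q*K - K) % q)
    set o := K + (z + (q - 1) * K) % q with ho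
    have ho1 : o % q = z % q := by
      have : (K + (z + (q - 1) * K) % q) % q = (K + (z + (q - 1) * K)) % q := by
        rw [Nat.add_mod_mod]
      rw [ho, this]
      have e : K + (z + (q - 1) * K) = z + q * K := by
        obtain ⟨q', hq'⟩ : ∃ q', q = q' + 1 := ⟨q - 1, by omega⟩
        rw [hq']; simp only [Nat.add_sub_cancel]; ring
      rw [e, Nat.add_mul_mod_self_left]
    have ho2 : o < K + q := by
      have := Nat.mod_lt (z + (q - 1) * K) hqpos
      omega
    have hot : t ∣ o := by
      have h1 : o % t = z % t := by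
        have := congrArg (fun y => y % t) ho1
        simp only [Nat.mod_mod_of_dvd _ (show t ∣ q from Dvd.intro _ hq.symm)] at this
        exact this
      have h2 : z % t = 0 := by
        have := hz2
        unfold Nat.ModEq at this
        simpa using this
      exact Nat.dvd_of_mod_eq_zero (h1.trans h2)
    have hoM : o % M = x.val % M := by
      have h1 : o % M = z % M := by
        have := congrArg (fun y => y % M) ho1
        simp only [Nat.mod_mod_of_dvd _ (show M ∣ q from Dvd.intro_left _ hq.symm)] at this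
        exact this
      rw [h1]; exact hz1
    have hox : ((o : ℕ) : ZMod M) = x := by
      rw [hcast o x.val hoM]; exact ZMod.natCast_zmod_val x
    refine ⟨o, T - o, by omega, hot, by omega, by omega, by simp only [hox, hx], b, ?_⟩
    have : ((T - o : ℕ) : ZMod M) = (T : ZMod M) - x := by
      rw [Nat.cast_sub (by omega), hox]
    simp only [this, hb]

end Crest.Agent.R320.ClockN_560
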