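import Crest.Agent.R320.UG_873
import Crest.Agent.R320.Names_755

/-!
# Row 320: gadget G1 (helper852 #13483, literal of lead #13673)

Levels = digits of the length in base `b`, names = CRT (helper755), noise = helper513,
labels on words = helper873 (UG_873).
-/

set_option autoImplicit false

namespace Crest.Agent.R320.G1_873

open Crest.Agent.R320.UG_873

section
variable {S V W : Type} [Monoid S] [AddCommGroup V] [AddCommGroup W]
variable {α : Type}

theorem seg_congr {q q' : List α} {B a b : ℕ} (h : q.take B = q'.take B) (hb : b ≤ B) :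
    seg q a b = seg q' a b := by
  unfold seg
  have : q.take b = q'.take b := by
    have := congrArg (List.take b) h
    rwa [List.take_take, List.take_take, min_eq_left hb] at this
  rw [this]

theorem phi_drop_congr (phi : List α → S) (hphi : ∀ u v, phi (u ++ v) = phi u * phi v)
    {q q' : List α} {B a : ℕ} (h : q.take B = q'.take B) (ha : a ≤ B)
    (hd : phi (q.drop B) = phi (q'.drop B)) (hB : B ≤ q.length) (hB' : B ≤ q'.length) :
    phi (q.drop a) = phi (q'.drop a) := by
  have key : ∀ q : List α, B ≤ q.length → q.drop a = (q.take B).drop a ++ q.drop B := by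
    intro q hq
    conv_lhs => rw [← List.take_append_drop B q]
    rw [List.drop_append_of_le_length (by rw [List.length_take, min_eq_left hq]; exact ha)]
  rw [key q hB, key q' hB', hphi, hphi, h, hd]

/-- core of the unit gadget for clocks that work at every length, with the finite-state clause -/
theorem core1 (act : V → S → V) (m : ℕ) (e : Fin m → S → W) (F : S → W → V)
    (hF : ∀ (s : S) (w : W) (v : V), ∃ i : Fin m, ∀ g x h : S, g * x * h = s →
        ∀ z : S, F (g * z * h) (w - e i x + e i z) + act v (g * z * h) = F s w + act v s)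
    (Mp : ℕ) (hMp1 : Mp = 1) (beta : ℕ → ℕ → ℕ) (hmono : ∀ n l, beta n l ≤ beta n (l + 1))
    (Nn : ℕ) (nmL nmR : ℕ → Option (Gam act e F)) (bL bR : ℕ → ℕ → ℕ) (Gd Bad : ℕ → Prop)
    (h1 : ∀ t g, nmL t = some g → t < Nn)
    (h3 : ∀ t t' g g', Gd (t + t') → nmL t = some g → nmR t' = some g' →
      g = g' ∧ (∀ l ≤ lv g, bL t l = beta (t + t') l) ∧
      (∀ l, lv g < l → l ≤ m → bR t' l + beta (t + t') l = t + t') ∧
      beta (t + t') (lv g) ≤ t ∧ t ≤ beta (t + t') (lv g + 1))
    (h4 : ∀ t₁ t₁' t₂ t₂' g₁ g₁' g₂ g₂', ¬ Gd (t₁ + t₁') → t₁ + t₁' = t₂ + t₂' →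
      nmL t₁ = some g₁ → nmR t₁' = some g₁' → nmL t₂ = some g₂ → nmR t₂' = some g₂' →
      col g₁ = col g₂ ∧ col g₁' = col g₂')
    (h5 : ∀ n, ¬ Bad n → Gd n ∧ ∀ g, ∃ t t', t + t' = n ∧ nmL t = some g ∧
      nmR t' = some g)
    (B P : ℕ) (hNB : Nn ≤ B)
    (p1 : ∀ t t', t % P = t' % P → nmR t = nmR t')
    (p2 : ∀ t t' l, l ≤ m → t % P = t' % P → t - bR t l = t' - bR t' l)
    (p3 : ∀ t l, l ≤ m → t - bR t l ≤ B)
    (p4 : ∀ t t', t % P = t' % P → (Gd t ↔ Gd t'))
    (p5 : ∀ t t' l, l ≤ m → t % P = t' % P → beta t l = beta t' l)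
    (p6 : ∀ t l, l ≤ m → beta t l ≤ B)
    (phi : List α → S) (hphi : ∀ u v, phi (u ++ v) = phi u * phi v) :
    ∃ (lam rho : List α → Option V) (nu : List α → V),
      (∀ p v, lam p = some v → p.length < Nn) ∧
      (∀ p q v r, lam p = some v → rho q = some r → r = act v (phi (p ++ q)) + nu (p ++ q)) ∧
      (∀ u, ¬ Bad u.length → ∀ v, ∃ p q, p ++ q = u ∧
        lam p = some v ∧ (rho q).isSome) ∧
      (∀ Q Q', B ≤ Q.length → B ≤ Q'.length → Q.take B = Q'.take B →
        Q.length % P = Q'.length % P → phi (Q.drop B) = phi (Q'.drop B) →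
        rho Q = rho Q' ∧ nu Q = nu Q') := by
  classical
  have hMp : 0 < Mp := by omega
  -- labels
  let PL : List α → Gam act e F → Prop := fun p c =>
    Mp ∣ p.length ∧ nmL (p.length / Mp) = some c ∧ LC phi Mp (bL (p.length / Mp)) p c
  let PR : List α → Gam act e F → Prop := fun q c =>
    nmR (q.length / Mp) = some c ∧ RC phi Mp (bR (q.length / Mp)) q c
  let CR : (Gam act e F → Prop) → Option V := fun X =>
    if h : ∃ c, X c then some (bval h.choose) else none
  let lam : List α → Option V := fun p => if h : ∃ c, PL p c then some h.choose.1.v else none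
  let rho : List α → Option V := fun q => CR (PR q)
  let J : ℕ → Gam act e F × Gam act e F → Prop := fun n cc =>
    ∃ t t', t + t' = n ∧ nmL t = some cc.1 ∧ nmR t' = some cc.2
  let CJ : (Gam act e F × Gam act e F → Prop) → S → V := fun X s =>
    if h : ∃ cc, X cc then bval h.choose.2 - act h.choose.1.1.v s else 0
  let nu : List α → V := fun u =>
    if Gd (u.length / Mp) then F (phi u) (wt e phi Mp (beta (u.length / Mp)) u)
    else CJ (J (u.length / Mp)) (phi u)
  have hlam : ∀ p v, lam p = some v → ∃ c, PL p c ∧ c.1.v = v := by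
    intro p v h
    by_cases hc : ∃ c, PL p c
    · refine ⟨hc.choose, hc.choose_spec, ?_⟩
      have : lam p = some hc.choose.1.v := dif_pos hc
      rw [this] at h
      exact Option.some.inj h
    · have : lam p = none := dif_neg hc
      rw [this] at h
      cases h
  have hrho : ∀ q r, rho q = some r → ∃ c, PR q c ∧ bval c = r := by
    intro q r h
    by_cases hc : ∃ c, PR q c
    · refine ⟨hc.choose, hc.choose_spec, ?_⟩
      have : rho q = some (bval hc.choose) := dif_pos hc
      rw [this] at h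
      exact Option.some.inj h
    · have : rho q = none := dif_neg hc
      rw [this] at h
      cases h
  refine ⟨lam, rho, nu, ?_, ?_, ?_, ?_⟩
  · intro p v h
    obtain ⟨c, ⟨hd, hn, _⟩, _⟩ := hlam p v h
    have := h1 _ _ hn
    rwa [hMp1, Nat.div_one] at this
  · intro p q v r hl hr
    obtain ⟨c, ⟨hd, hn, hL⟩, rfl⟩ := hlam p v hl
    obtain ⟨c', ⟨hn', hR⟩, rfl⟩ := hrho q r hr
    have hn3 : (p ++ q).length / Mp = p.length / Mp + q.length / Mp := by
      rw [List.length_append, Nat.add_div_of_dvd_right hd]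
    by_cases hG : Gd ((p ++ q).length / Mp)
    · have hG' := hG
      rw [hn3] at hG'
      obtain ⟨rfl, hb1, hb2, hb3, hb4⟩ := h3 _ _ _ _ hG' hn hn'
      have hval := value (act := act) (e := e) (F := F) phi hphi hMp
        (beta ((p ++ q).length / Mp)) (bL (p.length / Mp)) (bR (q.length / Mp)) p q c
        (hmono _) hd (by rw [hn3]; exact hb1) (by rw [hn3]; exact hb2) (by rw [hn3]; exact hb3)
        (by rw [hn3]; exact hb4) hL hR
      have : nu (p ++ q) = F (phi (p ++ q)) (wt e phi Mp (beta ((p ++ q).length / Mp)) (p ++ q)) :=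
        if_pos hG
      rw [this, ← hval]
      abel
    · have hex : ∃ cc, J ((p ++ q).length / Mp) cc := ⟨(c, c'), _, _, hn3.symm, hn, hn'⟩
      have : nu (p ++ q) = bval hex.choose.2 - act hex.choose.1.1.v (phi (p ++ q)) := by
        show (if Gd ((p ++ q).length / Mp) then _ else CJ _ _) = _
        rw [if_neg hG]
        exact dif_pos hex
      obtain ⟨t, t', ht, hc1, hc2⟩ := hex.choose_spec
      have hG' := hG
      rw [hn3] at hG'
      obtain ⟨k1, k2⟩ := h4 _ _ t t' c c' _ _ hG' (by rw [ht, hn3]) hn hn' hc1 hc2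
      have e1 : c.1.v = hex.choose.1.1.v := congrArg Prod.fst k1
      have e2 : bval c' = bval hex.choose.2 := congrArg Prod.snd k2
      rw [this, ← e1, ← e2]
      abel
  · intro u hB v
    have hB' : ¬ Bad (u.length / Mp) := by rw [hMp1, Nat.div_one]; exact hB
    set n := u.length / Mp with hn
    obtain ⟨hG, hav⟩ := h5 n hB'
    obtain ⟨i, hi⟩ := hF (phi u) (wt e phi Mp (beta n) u) v
    let Z := phi (seg u (Mp * beta n i) (Mp * beta n (i + 1)))
    let c0 : Pre S V W m :=
      { i := i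
        g := phi (u.take (Mp * beta n i))
        wl := ∑ l ∈ Finset.range (i : ℕ), ex e l (phi (seg u (Mp * beta n l) (Mp * beta n (l + 1))))
        h := phi (u.drop (Mp * beta n (i + 1)))
        wr := ∑ l ∈ Finset.Ico ((i : ℕ) + 1) m,
          ex e l (phi (seg u (Mp * beta n l) (Mp * beta n (l + 1))))
        v := v }
    have hs : c0.g * Z * c0.h = phi u :=
      (phi_split phi hphi u (Nat.mul_le_mul_left Mp (hmono n i))).symm
    have hw : ∀ z, wt e phi Mp (beta n) u - e i Z + e i z = c0.wl + e i z + c0.wr := by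
      intro z
      rw [wt_split phi Mp (beta n) u i.2]
      have : ex e i Z = e i Z := by unfold ex; rw [dif_pos i.2]
      show c0.wl + ex e i Z + c0.wr - e i Z + e i z = _
      rw [this]
      abel
    have hgood : ∀ z, c0.at act e F z = F (phi u) (wt e phi Mp (beta n) u) + act v (phi u) := by
      intro z
      have := hi _ _ _ hs z
      rw [hw z] at this
      exact this
    let c : Gam act e F := ⟨c0, fun z => (hgood z).trans (hgood 1).symm⟩
    obtain ⟨t, t', htt, hnl, hnr⟩ := hav c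
    have hG' : Gd (t + t') := by rw [htt]; exact hG
    obtain ⟨_, hb1, hb2, hb3, hb4⟩ := h3 t t' c c hG' hnl hnr
    rw [htt] at hb1 hb2 hb3 hb4
    have htu : Mp * t ≤ u.length := by
      calc Mp * t ≤ Mp * n := Nat.mul_le_mul_left _ (by omega)
        _ ≤ u.length := Nat.mul_div_le _ _
    have hlp : (u.take (Mp * t)).length = Mp * t := by
      rw [List.length_take, min_eq_left htu]
    have hlq : (u.drop (Mp * t)).length = u.length - Mp * t := List.length_drop
    have hdp : (u.take (Mp * t)).length / Mp = t := by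
      rw [hlp, Nat.mul_div_cancel_left _ hMp]
    have hdq : (u.drop (Mp * t)).length / Mp = t' := by
      rw [hlq, Nat.sub_mul_div]
      omega
    have hpq : u.take (Mp * t) ++ u.drop (Mp * t) = u := List.take_append_drop _ _
    have hmono' : ∀ k l, k ≤ l → beta n k ≤ beta n l := fun k l h =>
      monotone_nat_of_le_succ (hmono n) h
    have hci : lv c = (i : ℕ) := rfl
    rw [hci] at hb1 hb2 hb3 hb4
    have hpl : ∀ l, l ≤ (i : ℕ) → Mp * beta n l ≤ (u.take (Mp * t)).length := by
      intro l hl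
      rw [hlp]
      exact Nat.mul_le_mul_left _ ((hmono' l _ hl).trans hb3)
    have hpr : ∀ l, (i : ℕ) < l → (u.take (Mp * t)).length ≤ Mp * beta n l := by
      intro l hl
      rw [hlp]
      exact Nat.mul_le_mul_left _ (hb4.trans (hmono' _ l hl))
    have hPL : PL (u.take (Mp * t)) c := by
      refine ⟨by rw [hlp]; exact dvd_mul_right _ _, by rw [hdp]; exact hnl, ?_, ?_⟩
      · rw [hdp, hci, hb1 _ le_rfl]
        have := hpl i le_rfl
        have h6 : (u.take (Mp * t)).take (Mp * beta n i) = u.take (Mp * beta n i) := by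
          rw [List.take_take, min_eq_left (by rw [hlp] at this; exact this)]
        rw [h6]
      · rw [hdp, hci]
        refine Finset.sum_congr rfl fun l hl => ?_
        have hl' : l < (i : ℕ) := Finset.mem_range.1 hl
        rw [hb1 l hl'.le, hb1 (l + 1) hl', ← seg_append_left _ (u.drop (Mp * t)) (hpl (l + 1) hl'),
          hpq]
    have hPR : PR (u.drop (Mp * t)) c := by
      have hq : (u.drop (Mp * t)).length % Mp = u.length % Mp := by
        have h6 : u.length = Mp * t + (u.drop (Mp * t)).length := by rw [hlq]; omega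
        rw [h6, Nat.mul_add_mod]
      have hsuf : ∀ l, (i : ℕ) < l → l ≤ m →
          Mp * bR t' l + (u.drop (Mp * t)).length % Mp + Mp * beta n l = u.length := by
        intro l hl hlm
        have h7 := hb2 l hl hlm
        have h8 := Nat.div_add_mod u.length Mp
        rw [← hn, ← h7, Nat.mul_add, ← hq] at h8
        omega
      have hq2 : ∀ l, (i : ℕ) < l → l ≤ m →
          (u.drop (Mp * t)).length - (Mp * bR t' l + (u.drop (Mp * t)).length % Mp) =
            Mp * beta n l - (u.take (Mp * t)).length := by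
        intro l hl hlm
        have h7 := hsuf l hl hlm
        have h8 := hpr l hl
        rw [hlp] at h8 ⊢
        rw [hlq] at h7 ⊢
        omega
      refine ⟨by rw [hdq]; exact hnr, ?_, ?_⟩
      · rw [hdq, hci, hq2 _ (Nat.lt_succ_self _) i.2]
        have h6 : (u.drop (Mp * t)).drop (Mp * beta n (i + 1) - (u.take (Mp * t)).length) =
            u.drop (Mp * beta n (i + 1)) := by
          rw [List.drop_drop]
          congr 1
          have := hpr (i + 1) (Nat.lt_succ_self _)
          rw [hlp] at this ⊢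
          omega
        rw [h6]
      · rw [hdq, hci]
        refine Finset.sum_congr rfl fun l hl => ?_
        obtain ⟨hl1, hl2⟩ := Finset.mem_Ico.1 hl
        rw [hq2 l hl1 hl2.le, hq2 (l + 1) (by omega) hl2,
          ← seg_append_right _ _ (hpr l hl1) (Nat.mul_le_mul_left _ (hmono n l)), hpq]
    refine ⟨u.take (Mp * t), u.drop (Mp * t), hpq, ?_, ?_⟩
    · have hex : ∃ c, PL (u.take (Mp * t)) c := ⟨c, hPL⟩
      have h6 : lam (u.take (Mp * t)) = some hex.choose.1.v := dif_pos hex
      have h7 : hex.choose = c := by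
        have := hex.choose_spec.2.1
        rw [hPL.2.1] at this
        exact (Option.some.inj this).symm
      rw [h6, h7]
    · have hex : ∃ c, PR (u.drop (Mp * t)) c := ⟨c, hPR⟩
      have h6 : rho (u.drop (Mp * t)) = some (bval hex.choose) := dif_pos hex
      rw [h6]
      rfl
  · intro Q Q' hQ hQ' hT hP hD
    subst hMp1
    have hphiQ : phi Q = phi Q' := by
      have := phi_drop_congr phi hphi hT (Nat.zero_le B) hD hQ hQ'
      simpa using this
    constructor
    · show CR (PR Q) = CR (PR Q')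
      congr 1
      funext c
      apply propext
      have e1 : nmR (Q.length / 1) = nmR (Q'.length / 1) := by
        rw [Nat.div_one, Nat.div_one]
        exact p1 _ _ hP
      have e2 : ∀ l, l ≤ m → Q.length - (1 * bR (Q.length / 1) l + Q.length % 1) =
          Q'.length - (1 * bR (Q'.length / 1) l + Q'.length % 1) := by
        intro l hl
        simp only [one_mul, Nat.mod_one, add_zero, Nat.div_one]
        exact p2 _ _ l hl hP
      have e3 : ∀ l, l ≤ m → Q'.length - (1 * bR (Q'.length / 1) l + Q'.length % 1) ≤ B := by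
        intro l hl
        simp only [one_mul, Nat.mod_one, add_zero, Nat.div_one]
        exact p3 _ l hl
      have hlt := lv_lt c
      have e4 : phi (Q.drop (Q.length - (1 * bR (Q.length / 1) (lv c + 1) + Q.length % 1))) =
          phi (Q'.drop (Q'.length - (1 * bR (Q'.length / 1) (lv c + 1) + Q'.length % 1))) := by
        rw [e2 _ hlt]
        exact phi_drop_congr phi hphi hT (e3 _ hlt) hD hQ hQ'
      have e5 : ∑ l ∈ Finset.Ico (lv c + 1) m,
          ex e l (phi (seg Q (Q.length - (1 * bR (Q.length / 1) l + Q.length % 1))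
            (Q.length - (1 * bR (Q.length / 1) (l + 1) + Q.length % 1)))) =
          ∑ l ∈ Finset.Ico (lv c + 1) m,
          ex e l (phi (seg Q' (Q'.length - (1 * bR (Q'.length / 1) l + Q'.length % 1))
            (Q'.length - (1 * bR (Q'.length / 1) (l + 1) + Q'.length % 1)))) := by
        refine Finset.sum_congr rfl fun l hl => ?_
        obtain ⟨hl1, hl2⟩ := Finset.mem_Ico.1 hl
        rw [e2 l hl2.le, e2 (l + 1) hl2, seg_congr hT (e3 (l + 1) hl2)]
      show (nmR (Q.length / 1) = some c ∧ RC phi 1 (bR (Q.length / 1)) Q c) ↔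
        (nmR (Q'.length / 1) = some c ∧ RC phi 1 (bR (Q'.length / 1)) Q' c)
      unfold RC
      rw [e1, e4, e5]
    · have g1 : Gd (Q.length / 1) ↔ Gd (Q'.length / 1) := by
        rw [Nat.div_one, Nat.div_one]
        exact p4 _ _ hP
      have g2 : wt e phi 1 (beta (Q.length / 1)) Q = wt e phi 1 (beta (Q'.length / 1)) Q' := by
        unfold wt
        refine Finset.sum_congr rfl fun l hl => ?_
        have hl' := Finset.mem_range.1 hl
        simp only [one_mul, Nat.div_one]
        rw [p5 _ _ l hl'.le hP, p5 _ _ (l + 1) hl' hP, seg_congr hT (p6 _ (l + 1) hl')]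
      have g3 : J (Q.length / 1) = J (Q'.length / 1) := by
        funext cc
        apply propext
        have half : ∀ n n', B ≤ n' → n % P = n' % P → J n cc → J n' cc := by
          rintro n n' hn' hnn ⟨t, t', ht, a1, a2⟩
          have h9 := h1 _ _ a1
          refine ⟨t, n' - t, by omega, a1, ?_⟩
          rw [← a2]
          apply p1
          have : t + (n' - t) ≡ t + t' [MOD P] := by
            rw [ht, show t + (n' - t) = n' by omega]
            exact hnn.symm
          exact Nat.ModEq.add_left_cancel' t this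
        rw [Nat.div_one, Nat.div_one]
        exact ⟨half _ _ hQ' hP, half _ _ hQ hP.symm⟩
      show (if Gd (Q.length / 1) then F (phi Q) (wt e phi 1 (beta (Q.length / 1)) Q)
        else CJ (J (Q.length / 1)) (phi Q)) =
        (if Gd (Q'.length / 1) then F (phi Q') (wt e phi 1 (beta (Q'.length / 1)) Q')
        else CJ (J (Q'.length / 1)) (phi Q'))
      rw [g2, g3, hphiQ]
      by_cases hg : Gd (Q'.length / 1)
      · rw [if_pos hg, if_pos (g1.2 hg)]
      · rw [if_neg hg, if_neg (fun h => hg (g1.1 h))]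
end

/-! ### digits -/

theorem no_carry {b i t s : ℕ} (hb : 0 < b) (h1 : 2 * (t / b ^ i) < b)
    (h2 : 2 * (s % b) < b) {l : ℕ} (hl : i < l) :
    (t + b ^ i * s) / b ^ l = b ^ i * s / b ^ l := by
  have hbi : 0 < b ^ i := Nat.pow_pos hb
  obtain ⟨k, rfl⟩ : ∃ k, l = i + 1 + k := ⟨l - (i + 1), by omega⟩
  rw [pow_add, pow_succ, ← Nat.div_div_eq_div_mul, ← Nat.div_div_eq_div_mul,
    ← Nat.div_div_eq_div_mul, ← Nat.div_div_eq_div_mul, Nat.add_mul_div_left _ _ hbi,
    Nat.mul_div_cancel_left _ hbi]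
  congr 1
  have h3 := Nat.div_add_mod s b
  have h4 : t / b ^ i + s = (t / b ^ i + s % b) + b * (s / b) := by omega
  rw [h4, Nat.add_mul_div_left _ _ hb, Nat.div_eq_of_lt (by omega), zero_add]

theorem split {b M i n : ℕ} (hM : 0 < M) (hb : 4 * M + 4 < b) (hc : Nat.Coprime b M)
    (h1 : M ≤ n / b ^ i % b) (h2 : n / b ^ i % b + M + 1 ≤ b) (t0 : ℕ) :
    ∃ t t', t + t' = n ∧ t ≡ t0 [MOD M] ∧ t < b ^ (i + 1) ∧ 2 * (t / b ^ i) < b ∧ b ^ i ∣ t' ∧
      2 * (t' / b ^ i % b) < b := by
  have hb0 : 0 < b := by omega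
  have hbi : 0 < b ^ i := Nat.pow_pos hb0
  have : NeZero M := ⟨hM.ne'⟩
  have hcop : Nat.Coprime (b ^ i) M := Nat.Coprime.pow_left i hc
  have hinv : ((b ^ i : ℕ) : ZMod M) * ((b ^ i : ℕ) : ZMod M)⁻¹ = 1 :=
    ZMod.coe_mul_inv_eq_one _ hcop
  set y0 := n / b ^ i % b - (b - 1) / 2 with hy0
  obtain ⟨x, hx, hxm⟩ : ∃ x < M, n % b ^ i + b ^ i * (y0 + x) ≡ t0 [MOD M] := by
    refine ⟨(((t0 : ZMod M) - ((n % b ^ i : ℕ) : ZMod M) - ((b ^ i : ℕ) : ZMod M) * (y0 : ZMod M)) *
      ((b ^ i : ℕ) : ZMod M)⁻¹).val, ZMod.val_lt _, ?_⟩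
    rw [← ZMod.natCast_eq_natCast_iff]
    rw [Nat.cast_add, Nat.cast_mul, Nat.cast_add, ZMod.natCast_zmod_val]
    linear_combination ((t0 : ZMod M) - ((n % b ^ i : ℕ) : ZMod M) -
      ((b ^ i : ℕ) : ZMod M) * (y0 : ZMod M)) * hinv
  have hdm := Nat.div_add_mod n (b ^ i)
  have hdm2 := Nat.div_add_mod (n / b ^ i) b
  have hml : n % b ^ i < b ^ i := Nat.mod_lt _ hbi
  have hle : y0 + x ≤ n / b ^ i := by
    have : y0 + x ≤ n / b ^ i % b := by omega
    exact this.trans (Nat.mod_le _ _)
  have hmulle : b ^ i * (y0 + x) ≤ b ^ i * (n / b ^ i) := Nat.mul_le_mul_left _ hle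
  have htd : (n % b ^ i + b ^ i * (y0 + x)) / b ^ i = y0 + x := by
    rw [Nat.add_mul_div_left _ _ hbi, Nat.div_eq_of_lt hml, zero_add]
  have h2y : 2 * (y0 + x) < b := by omega
  refine ⟨n % b ^ i + b ^ i * (y0 + x), b ^ i * (n / b ^ i - (y0 + x)), ?_, hxm, ?_, ?_,
    dvd_mul_right _ _, ?_⟩
  · rw [Nat.mul_sub]
    omega
  · rw [pow_succ, mul_comm (b ^ i) b, ← Nat.div_lt_iff_lt_mul hbi, htd]
    omega
  · rw [htd]
    exact h2y
  · rw [Nat.mul_div_cancel_left _ hbi]
    have h4 : n / b ^ i - (y0 + x) = (n / b ^ i % b - (y0 + x)) + b * (n / b ^ i / b) := by omega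
    rw [h4, Nat.add_mul_mod_self_left, Nat.mod_eq_of_lt (by omega)]
    omega

/-- **G1 (lead #13673, literal).** -/
theorem g1 (S V : Type) [Monoid S] [Finite S] [AddCommGroup V] [Finite V] (act : V → S → V) :
    ∃ m r : ℕ, ∀ Bd : ℕ, ∃ (Ms : Finset ℕ) (M : ℕ), Ms.card ≤ r ∧
      (∀ k ∈ Ms, Bd < k ∧ k.Prime ∧ k ∣ M) ∧ 0 < M ∧
      ∀ b : ℕ, 4 * M + 4 < b → Nat.Coprime b M → ∀ (A : Type) (f : A → S),
        ∃ (lam rho : List A → Option V) (nu : List A → V),
          (∀ P v, lam P = some v → P.length < b ^ m) ∧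
          (∀ P Q v v', lam P = some v → rho Q = some v' →
            v' = act v ((P ++ Q).map f).prod + nu (P ++ Q)) ∧
          (∀ X, (∀ k ∈ Ms, ¬ k ∣ X.length) →
            (∀ j < m, M ≤ X.length / b ^ j % b ∧ X.length / b ^ j % b + M + 1 ≤ b) →
            ∀ v, ∃ P Q, P ++ Q = X ∧ lam P = some v ∧ (rho Q).isSome) ∧
          (∀ Q Q', b ^ m ≤ Q.length → b ^ m ≤ Q'.length → Q.take (b ^ m) = Q'.take (b ^ m) →
            Q.length % (M * b ^ m) = Q'.length % (M * b ^ m) →
            ((Q.drop (b ^ m)).map f).prod = ((Q'.drop (b ^ m)).map f).prod →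
            rho Q = rho Q' ∧ nu Q = nu Q') := by
  classical
  obtain ⟨W, _, _, m, e, F, hF⟩ := Crest.Agent.R320.Noise513.explicit_noise S V act
  obtain ⟨r, hr⟩ := Crest.Agent.R320.Names755.names (Gam act e F) (V × V) col
  refine ⟨m, r, fun Bd => ?_⟩
  obtain ⟨Ms, M, nmL, nmR, hcard, hMs, hM, hpL, hpR, hsame, hav, hcol⟩ := hr Bd
  refine ⟨Ms, M, hcard, hMs, hM, fun b hb hcop A f => ?_⟩
  have hb0 : 0 < b := by omega
  have hbp : ∀ l, 0 < b ^ l := fun l => Nat.pow_pos hb0
  let nmL' : ℕ → Option (Gam act e F) := fun t => (nmL t).filter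
    (fun c => decide (t < b ^ (lv c + 1) ∧ 2 * (t / b ^ lv c) < b))
  let nmR' : ℕ → Option (Gam act e F) := fun t => (nmR t).filter
    (fun c => decide (b ^ lv c ∣ t ∧ 2 * (t / b ^ lv c % b) < b))
  have hL' : ∀ t c, nmL' t = some c ↔
      nmL t = some c ∧ t < b ^ (lv c + 1) ∧ 2 * (t / b ^ lv c) < b := by
    intro t c
    show (nmL t).filter _ = some c ↔ _
    rw [Option.filter_eq_some_iff]
    simp
  have hR' : ∀ t c, nmR' t = some c ↔
      nmR t = some c ∧ b ^ lv c ∣ t ∧ 2 * (t / b ^ lv c % b) < b := by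
    intro t c
    show (nmR t).filter _ = some c ↔ _
    rw [Option.filter_eq_some_iff]
    simp
  have hpow : ∀ {k l : ℕ}, k ≤ l → b ^ k ∣ b ^ l := fun h => pow_dvd_pow b h
  have hmodb : ∀ t t' l, l ≤ m → t % (M * b ^ m) = t' % (M * b ^ m) → t % b ^ l = t' % b ^ l := by
    intro t t' l hl h
    have h1 : t ≡ t' [MOD M * b ^ m] := h
    exact (h1.of_mul_left M).of_dvd (hpow hl)
  have hmodM : ∀ t t', t % (M * b ^ m) = t' % (M * b ^ m) → t ≡ t' [MOD M] := by
    intro t t' h
    have h1 : t ≡ t' [MOD M * b ^ m] := h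
    exact h1.of_mul_right _
  have perL : ∀ t t', t ≡ t' [MOD M] → nmL t = nmL t' := by
    intro t t' h
    have h1 : Function.Periodic nmL M := hpL
    rw [← h1.map_mod_nat t, ← h1.map_mod_nat t', h]
  have perR : ∀ t t', t ≡ t' [MOD M] → nmR t = nmR t' := by
    intro t t' h
    have h1 : Function.Periodic nmR M := hpR
    rw [← h1.map_mod_nat t, ← h1.map_mod_nat t', h]
  obtain ⟨lam, rho, nu, c1, c2, c3, c4⟩ := core1 (α := A) act m e F hF 1 rfl
    (fun n l => n % b ^ l)
    (fun n l => by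
      show n % b ^ l ≤ n % b ^ (l + 1)
      have : n % b ^ l = n % b ^ (l + 1) % b ^ l := (Nat.mod_mod_of_dvd n (hpow (Nat.le_succ l))).symm
      rw [this]
      exact Nat.mod_le _ _)
    (b ^ m) nmL' nmR' (fun t l => t % b ^ l) (fun t l => b ^ l * (t / b ^ l))
    (fun n => ∀ k ∈ Ms, ¬ k ∣ n)
    (fun n => ¬ ((∀ k ∈ Ms, ¬ k ∣ n) ∧ ∀ j < m, M ≤ n / b ^ j % b ∧ n / b ^ j % b + M + 1 ≤ b))
    (by
      intro t g h
      obtain ⟨_, h2, _⟩ := (hL' t g).1 h
      exact h2.trans_le (Nat.pow_le_pow_right hb0 (lv_lt g)))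
    (by
      intro t t' g g' hG h h'
      obtain ⟨a1, a2, a3⟩ := (hL' t g).1 h
      obtain ⟨b1, b2, b3⟩ := (hR' t' g').1 h'
      obtain rfl := hsame t t' g g' a1 b1 hG
      obtain ⟨s, rfl⟩ := b2
      rw [Nat.mul_div_cancel_left _ (hbp _)] at b3
      have key : ∀ l, lv g < l → (t + b ^ lv g * s) / b ^ l = b ^ lv g * s / b ^ l := fun l hl =>
        no_carry hb0 a3 b3 hl
      have low : ∀ l ≤ lv g, t % b ^ l = (t + b ^ lv g * s) % b ^ l := by
        intro l hl
        obtain ⟨k, hk⟩ := hpow hl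
        rw [hk, mul_assoc, Nat.add_mul_mod_self_left]
      refine ⟨rfl, low, ?_, ?_, ?_⟩
      · intro l hl _
        show b ^ l * (b ^ lv g * s / b ^ l) + (t + b ^ lv g * s) % b ^ l = t + b ^ lv g * s
        rw [← key l hl]
        exact Nat.div_add_mod _ _
      · show (t + b ^ lv g * s) % b ^ lv g ≤ t
        rw [← low _ le_rfl]
        exact Nat.mod_le _ _
      · show t ≤ (t + b ^ lv g * s) % b ^ (lv g + 1)
        have h5 := Nat.div_add_mod (t + b ^ lv g * s) (b ^ (lv g + 1))
        rw [key (lv g + 1) (Nat.lt_succ_self _)] at h5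
        have h6 := Nat.mul_div_le (b ^ lv g * s) (b ^ (lv g + 1))
        omega)
    (by
      intro t₁ t₁' t₂ t₂' g₁ g₁' g₂ g₂' hG hT ha ha' hb' hb''
      have hG2 : ∃ k ∈ Ms, k ∣ t₁ + t₁' := by
        by_contra hcon
        apply hG
        intro k hk hd
        exact hcon ⟨k, hk, hd⟩
      exact hcol t₁ t₁' t₂ t₂' g₁ g₁' g₂ g₂' ((hL' _ _).1 ha).1 ((hR' _ _).1 ha').1
        ((hL' _ _).1 hb').1 ((hR' _ _).1 hb'').1 hT hG2)
    (by
      intro n hn
      obtain ⟨hn1, hn2⟩ := not_not.1 hn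
      refine ⟨hn1, fun g => ?_⟩
      obtain ⟨t0, _, ht0, hav'⟩ := hav n hn1 g
      obtain ⟨d1, d2⟩ := hn2 (lv g) (lv_lt g)
      obtain ⟨t, t', htt, hm1, hm2, hm3, hm4, hm5⟩ := split hM hb hcop d1 d2 t0
      refine ⟨t, t', htt, (hL' _ _).2 ⟨?_, hm2, hm3⟩, (hR' _ _).2 ⟨?_, hm4, hm5⟩⟩
      · rw [perL _ _ hm1]
        exact ht0
      · apply hav'
        rw [← htt]
        exact Nat.ModEq.add_right _ hm1.symm)
    (b ^ m) (M * b ^ m) le_rfl
    (by
      intro t t' h
      have e1 := perR _ _ (hmodM _ _ h)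
      ext c
      show nmR' t = some c ↔ nmR' t' = some c
      rw [hR', hR', e1]
      have hlt : lv c + 1 ≤ m := lv_lt c
      have e2 : b ^ lv c ∣ t ↔ b ^ lv c ∣ t' := by
        rw [Nat.dvd_iff_mod_eq_zero, Nat.dvd_iff_mod_eq_zero, hmodb t t' _ (lv_lt c).le h]
      have e3 : t / b ^ lv c % b = t' / b ^ lv c % b := by
        rw [← Nat.mod_mul_right_div_self, ← Nat.mod_mul_right_div_self, ← pow_succ,
          hmodb t t' _ hlt h]
      rw [e2, e3])
    (by
      intro t t' l hl h
      show t - b ^ l * (t / b ^ l) = t' - b ^ l * (t' / b ^ l)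
      have h1 := Nat.div_add_mod t (b ^ l)
      have h2 := Nat.div_add_mod t' (b ^ l)
      have h3 := hmodb t t' l hl h
      omega)
    (by
      intro t l hl
      show t - b ^ l * (t / b ^ l) ≤ b ^ m
      have h1 := Nat.div_add_mod t (b ^ l)
      have h2 := Nat.mod_lt t (hbp l)
      have h3 : b ^ l ≤ b ^ m := Nat.pow_le_pow_right hb0 hl
      omega)
    (by
      intro t t' h
      have h1 := hmodM _ _ h
      constructor
      · intro h2 k hk hd
        exact h2 k hk (((h1.of_dvd (hMs k hk).2.2).dvd_iff dvd_rfl).2 hd)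
      · intro h2 k hk hd
        exact h2 k hk (((h1.of_dvd (hMs k hk).2.2).dvd_iff dvd_rfl).1 hd))
    (fun t t' l hl h => hmodb t t' l hl h)
    (fun t l hl => (Nat.mod_lt t (hbp l)).le.trans (Nat.pow_le_pow_right hb0 hl))
    (fun u => (u.map f).prod) (fun u v => by simp)
  refine ⟨lam, rho, nu, c1, c2, ?_, c4⟩
  intro X hX1 hX2 v
  exact c3 X (not_not.2 ⟨hX1, hX2⟩) v

end Crest.Agent.R320.G1_873
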