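import Crest.Agent.R320.Fin_963
import Crest.Agent.R320.G1_873
import Crest.Agent.R320.Sp_485

/-!
# Row 320 (helper735): `Gad1` of `Fin_963` from `G1_873.g1` and `Sp_485.spoil`, hence the row.
-/

set_option autoImplicit false

namespace Crest.Agent.R320.Close_735

open Crest.RegLang Crest.Agent.R320.Fin_963 Crest.Agent.R320.Hk_851

theorem digit_per (M b m j T : ℕ) (hb : 0 < b) (hj : j < m) :
    (T + M * b ^ m) / b ^ j % b = T / b ^ j % b := by
  obtain ⟨d, rfl⟩ : ∃ d, m = j + 1 + d := ⟨m - (j + 1), by omega⟩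
  have h : T + M * b ^ (j + 1 + d) = T + b ^ j * (b * (M * b ^ d)) := by ring
  rw [h, Nat.add_mul_div_left _ _ (Nat.pow_pos hb), Nat.add_mul_mod_self_left]

theorem gad1 (S V : Type) [Monoid S] [Finite S] [AddCommGroup V] [Finite V]
    (act : V → S → V) : Gad1 S V act := by
  classical
  obtain ⟨m, r, h1⟩ := G1_873.g1 S V act
  refine ⟨r + m, fun K => ?_⟩
  obtain ⟨Ms, M, hcard, hMs, hM, h2⟩ := h1 (2 ^ (K + 1))
  obtain ⟨b, hb⟩ : ∃ b, b = 1 + (2 ^ (K + 4) + 8) * M := ⟨_, rfl⟩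
  have hK4 : 1 ≤ 2 ^ (K + 4) := Nat.one_le_two_pow
  have hprod : (2 ^ (K + 4) + 8) * M = 2 ^ (K + 4) * M + 8 * M := by ring
  have hb1 : 4 * M + 4 < b := by omega
  have hb2 : 2 ^ (K + 4) * M + 2 * M ≤ b := by omega
  have hcop : Nat.Coprime b M := by
    rw [hb]
    exact (Nat.coprime_add_mul_right_left 1 M _).2 (Nat.coprime_one_left M)
  have hb0 : 0 < b := by omega
  have hbm : 0 < b ^ m := Nat.pow_pos hb0
  obtain ⟨c, hmono, -, -, hsid, hthin, -⟩ := Sp_485.spoil Ms M m b K (b ^ m) hM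
    (fun k hk => ⟨(hMs k hk).1.le, (hMs k hk).2.2⟩) hcop hb2
  refine ⟨b ^ m, b ^ m, M * b ^ m, c, Sp_485.Bad Ms M m b, Nat.mul_pos hM hbm, hbm,
    fun i j hij _ => hmono hij, ?_, ?_, ?_, ?_⟩
  · intro k k' l l' _ _ _ _ hk hl e1 e2
    by_contra hne
    have h := hsid k' k l' l hk (fun e => hne e.2)
    rw [lt_abs] at h
    generalize b ^ m = N at h e1 e2
    omega
  · intro T hT _ F hF
    refine le_trans (Finset.card_le_card ?_) ((hthin T hT).trans (by omega))
    intro p hp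
    obtain ⟨q1, q2, q3, q4⟩ := hF p hp
    rw [Finset.mem_filter, Finset.mem_product, Finset.mem_range, Finset.mem_range]
    exact ⟨⟨q1, q2⟩, q3, q4⟩
  · intro T _
    unfold Sp_485.Bad
    refine or_congr ?_ ?_
    · refine exists_congr fun k => and_congr_right fun hk => ?_
      have : k ∣ M * b ^ m := Dvd.dvd.mul_right (hMs k hk).2.2 _
      exact (Nat.dvd_add_left this)
    · refine exists_congr fun j => and_congr_right fun hj => ?_
      rw [digit_per M b m j T hb0 hj]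
  · intro A f
    obtain ⟨lam, rho, nu, g1, g2, g3, g4⟩ := h2 b hb1 hcop A f
    refine ⟨lam, rho, nu, g2, fun P v h => (g1 P v h).le, ?_, ?_⟩
    · intro Y _ hY v
      obtain ⟨P, Q, e1, e2, e3⟩ := g3 Y (fun k hk hd => hY (Or.inl ⟨k, hk, hd⟩))
        (fun j hj => by
          by_contra h
          exact hY (Or.inr ⟨j, hj, h⟩)) v
      exact ⟨P, Q, e1.symm, e2, e3⟩
    · intro u u' k1 k2 k3 k4 k5
      exact (g4 u u' k1 k2 k3 k5 k4).2

theorem fin (α : Type) [Finite α] (S : Type) [Monoid S] [Finite S] (f : α → S) (s : S) :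
    HL 3 ({w | (w.map f).prod = s} : Language α) :=
  Fin_963.main f (gad1 S (S → ZMod 2) Fin_963.act) s

end Crest.Agent.R320.Close_735
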