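import Crest.Agent.R320.Sch_940

/-!
# Row 320: completeness of the inner (promise) scheme from a ruler (helper940)
-/

set_option autoImplicit false

namespace Crest.Agent.R320.Sch_940

open Crest.Agent.R320.Star_621 Crest.Agent.R320.Two_621 Crest.Agent.R320.Blk_940

variable {α S : Type} [Monoid S] {p : Pr α S}

/-- ruler hypotheses -/
structure Rul (p : Pr α S) (L C0 : ℕ) : Prop where
  hL : ∀ k < p.K, p.c k ≤ L
  hW : 2 * L + 2 * p.N1 ≤ p.W
  hq : p.n + L ≤ p.q
  res : ∀ a b a' b' : ℕ, a < p.K → b < p.K → a' < p.K → b' < p.K → a ≠ b → a' ≠ b' →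
    |((p.c a : ℤ) - p.c b) - (p.c a' - p.c b')| ≤ 2 * p.N1 → a = a' ∧ b = b'
  spB : ∀ (T : ℤ) (s : Finset ℕ), (∀ k ∈ s, k < p.K ∧ ∃ k' < p.K, k' ≠ k ∧
    ∃ n : ℕ, (n : ℤ) = T + p.c k' - p.c k ∧ p.Bad n) → s.card ≤ C0

/-- a spoiled place -/
def Spl (p : Pr α S) (z : List α) (k : ℕ) : Prop :=
  ∃ k' < p.K, k' ≠ k ∧ ∃ Q1, Q1 <+: z.drop (p.cc k) ∧ Q1 ∈ p.B (p.zd - p.cc k')

theorem wall_uniq {L : ℕ} (hg : Gap p.Wo p.W) {z : List α} {s t : ℕ} (hs : s ≤ z.length)
    (ht : t ≤ z.length) (ws : p.Wo (z.take s)) (wt : p.Wo (z.take t)) (hL : L ≤ p.W)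
    (h1 : s ≤ t + L) (h2 : t ≤ s + L) : s = t := by
  rcases lt_trichotomy s t with h | h | h
  · have := hg z s t h ht ws wt; omega
  · exact h
  · have := hg z t s h hs wt ws; omega

theorem spoil_card (hp : Ok p) {L C0 : ℕ} (hr : Rul p L C0) {z1 z2 : List α}
    (hz1 : z1 ∈ p.AA p.zd) (s : Finset ℕ) (hs : ∀ k ∈ s, k < p.K ∧ Spl p (z1 ++ z2) k) :
    s.card ≤ 1 + 3 * C0 := by
  classical
  obtain ⟨z, hz⟩ : ∃ z, z = z1 ++ z2 := ⟨_, rfl⟩
  rw [← hz] at hs
  obtain ⟨t, ht⟩ : ∃ t, t = z1.length := ⟨_, rfl⟩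
  have htz : t ≤ z.length := by rw [ht, hz, List.length_append]; omega
  have hzt : z.take t = z1 := by rw [hz, ht, List.take_left]
  have wt : p.Wo (z.take t) := by rw [hzt]; exact hz1.2.1
  have tzd : p.zd ≤ t := ht ▸ hz1.1
  have hno : ∀ x, p.zd ≤ x → x < t → ¬ p.Wo (z.take x) := by
    intro x hx hx' hw
    refine hz1.2.2 x hx (by omega) ?_
    have : z1.take x = z.take x := by rw [hz, List.take_append_of_le_length (by omega)]
    rw [this]; exact hw
  have hWL := hr.hW
  have hqn := hr.hq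
  have hzd : p.zd = p.p0 + (p.q + p.N1) := rfl
  -- the two other walls
  obtain ⟨w1, hw1⟩ : ∃ w1 : ℕ, ∀ x, x ≤ z.length → p.Wo (z.take x) → p.zd ≤ x + L → x < p.zd →
      x = w1 := by
    by_cases h : ∃ x, x ≤ z.length ∧ p.Wo (z.take x) ∧ p.zd ≤ x + L ∧ x < p.zd
    · obtain ⟨x0, a1, a2, a3, a4⟩ := h
      refine ⟨x0, fun x b1 b2 b3 b4 => wall_uniq (L := L) hp.gap b1 a1 b2 a2 (by omega) (by omega) (by omega)⟩
    · exact ⟨0, fun x b1 b2 b3 b4 => absurd ⟨x, b1, b2, b3, b4⟩ h⟩
  obtain ⟨w3, hw3⟩ : ∃ w3 : ℕ, ∀ x, x ≤ z.length → p.Wo (z.take x) → t < x →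
      (∀ y, t < y → y < x → ¬ p.Wo (z.take y)) → x = w3 := by
    by_cases h : ∃ x, x ≤ z.length ∧ p.Wo (z.take x) ∧ t < x ∧
        (∀ y, t < y → y < x → ¬ p.Wo (z.take y))
    · obtain ⟨x0, a1, a2, a3, a4⟩ := h
      refine ⟨x0, fun x b1 b2 b3 b4 => ?_⟩
      rcases lt_trichotomy x x0 with h | h | h
      · exact absurd b2 (a4 x b3 h)
      · exact h
      · exact absurd a2 (b4 x0 a3 h)
    · exact ⟨0, fun x b1 b2 b3 b4 => absurd ⟨x, b1, b2, b3, b4⟩ h⟩
  -- analysis of a spoiled place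
  let SB : ℕ → ℕ → Prop := fun w k => ∃ k' < p.K, k' ≠ k ∧
    ∃ n : ℕ, (n : ℤ) = ((w : ℤ) - p.p0) + p.c k' - p.c k ∧ p.Bad n
  let SE : ℕ → Prop := fun k => ∃ k' < p.K, k' ≠ k ∧ ∃ x, x ≤ z.length ∧ p.Wo (z.take x) ∧
    |(x : ℤ) - (p.zd + p.c k - p.c k')| ≤ p.N1
  have key : ∀ k ∈ s, SE k ∨ SB t k ∨ SB w1 k ∨ SB w3 k := by
    intro k hk
    obtain ⟨hkK, k', hk', hne, Q1, hpre, hQ⟩ := hs k hk
    obtain ⟨a1, a2, a3⟩ := zd_sub hp hkK
    obtain ⟨b1, b2, b3⟩ := zd_sub hp hk'
    have hck := hp.hcc k hkK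
    have hck' := hp.hcc k' hk'
    have hLk := hr.hL k hkK
    have hLk' := hr.hL k' hk'
    have hcc : p.cc k = p.c k + 1 := rfl
    have hcc' : p.cc k' = p.c k' + 1 := rfl
    obtain ⟨R, hR⟩ := hpre
    have hzl : p.cc k ≤ z.length := by omega
    have hzs : z = (z.take (p.cc k) ++ Q1) ++ R := by
      rw [List.append_assoc, hR, List.take_append_drop]
    have hX : (z.take (p.cc k)).length = p.cc k := by rw [List.length_take]; omega
    have hlen : p.cc k + Q1.length ≤ z.length := by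
      have := congrArg List.length hzs
      rw [List.length_append, List.length_append, hX] at this
      omega
    have htake : ∀ x, x ≤ Q1.length → z.take (p.cc k + x) = z.take (p.cc k) ++ Q1.take x := by
      intro x hx
      conv_lhs => rw [hzs]
      rw [List.take_append_of_le_length (by rw [List.length_append, hX]; omega)]
      have := take_shift (P := z.take (p.cc k)) (R := Q1) (s := x)
      rw [hX] at this
      exact this
    have hwall : ∀ x, p.n ≤ x → x ≤ Q1.length →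
        (p.Wo (z.take (p.cc k + x)) ↔ p.Wo (Q1.take x)) := by
      intro x hx hx'
      rw [htake x hx']
      exact hp.loc _ _ (by rw [List.length_take]; omega)
    obtain ⟨hA, hcase⟩ := hQ
    have hQl := hA.1
    have wt' : p.Wo (z.take (p.cc k + Q1.length)) := by
      rw [hwall _ (by omega) le_rfl, List.take_length]; exact hA.2.1
    have hno' : ∀ x, p.cc k + (p.zd - p.cc k') ≤ x → x < p.cc k + Q1.length →
        ¬ p.Wo (z.take x) := by
      intro x hx hx' hw
      obtain ⟨j, rfl⟩ := Nat.exists_eq_add_of_le (show p.cc k ≤ x by omega)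
      exact hA.2.2 j (by omega) (by omega) ((hwall j (by omega) (by omega)).1 hw)
    rcases hcase with ⟨x, c1, c2, c3⟩ | h | h
    · left
      refine ⟨k', hk', hne, p.cc k + x, by omega, (hwall x (by omega) (by omega)).2 c3, ?_⟩
      rw [abs_le]; push_cast; constructor <;> omega
    · left
      refine ⟨k', hk', hne, p.cc k + Q1.length, hlen, wt', ?_⟩
      rw [abs_le]; push_cast; constructor <;> omega
    · right
      have hSB : SB (p.cc k + Q1.length) k := by
        refine ⟨k', hk', hne, _, ?_, h⟩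
        push_cast
        omega
      rcases lt_trichotomy (p.cc k + Q1.length) t with hlt | heq | hgt
      · right; left
        have hltz : p.cc k + Q1.length < p.zd := by
          by_contra hc
          push Not at hc
          exact hno _ hc hlt wt'
        have := hw1 _ hlen wt' (by omega) hltz
        rw [← this]; exact hSB
      · left; rw [← heq]; exact hSB
      · right; right
        have := hw3 _ hlen wt' hgt (by
          intro y hy hy' hw
          by_cases hc : p.cc k + (p.zd - p.cc k') ≤ y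
          · exact hno' y hc hy' hw
          · push Not at hc
            have := hp.gap z t y hy (by omega) wt hw
            omega)
        rw [← this]; exact hSB
  -- counting
  have hcov : s ⊆ (s.filter fun k => SE k) ∪ ((s.filter fun k => SB t k) ∪
      ((s.filter fun k => SB w1 k) ∪ (s.filter fun k => SB w3 k))) := by
    intro k hk
    simp only [Finset.mem_union, Finset.mem_filter]
    rcases key k hk with h | h | h | h
    · exact Or.inl ⟨hk, h⟩
    · exact Or.inr (Or.inl ⟨hk, h⟩)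
    · exact Or.inr (Or.inr (Or.inl ⟨hk, h⟩))
    · exact Or.inr (Or.inr (Or.inr ⟨hk, h⟩))
  have hB : ∀ w : ℕ, (s.filter fun k => SB w k).card ≤ C0 := by
    intro w
    refine hr.spB ((w : ℤ) - p.p0) _ fun k hk => ?_
    obtain ⟨h1, h2⟩ := Finset.mem_filter.1 hk
    exact ⟨(hs k h1).1, h2⟩
  have hE : (s.filter fun k => SE k).card ≤ 1 := by
    refine Finset.card_le_one.2 fun a ha b hb => ?_
    obtain ⟨ha1, a', ha', hna, x, hx1, hx2, hx3⟩ := Finset.mem_filter.1 ha
    obtain ⟨hb1, b', hb', hnb, y, hy1, hy2, hy3⟩ := Finset.mem_filter.1 hb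
    have haK := (hs a ha1).1
    have hbK := (hs b hb1).1
    have l1 := hr.hL a haK
    have l2 := hr.hL a' ha'
    have l3 := hr.hL b hbK
    have l4 := hr.hL b' hb'
    rw [abs_le] at hx3 hy3
    have hxy : x = y := wall_uniq (L := 2 * L + 2 * p.N1) hp.gap hx1 hy1 hx2 hy2 hWL
      (by omega) (by omega)
    subst hxy
    have := hr.res a a' b b' haK ha' hbK hb' hna.symm hnb.symm (by
      rw [abs_le]; constructor <;> omega)
    exact this.1
  have h1 := Finset.card_le_card hcov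
  have h2 := Finset.card_union_le (s.filter fun k => SE k) ((s.filter fun k => SB t k) ∪
      ((s.filter fun k => SB w1 k) ∪ (s.filter fun k => SB w3 k)))
  have h3 := Finset.card_union_le (s.filter fun k => SB t k)
      ((s.filter fun k => SB w1 k) ∪ (s.filter fun k => SB w3 k))
  have h4 := Finset.card_union_le (s.filter fun k => SB w1 k) (s.filter fun k => SB w3 k)
  have h5 := hB t
  have h6 := hB w1
  have h7 := hB w3
  omega

theorem completeB (hp : Ok p) {L C0 : ℕ} (hr : Rul p L C0)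
    (comp2 : ∀ (X : List α) (y : M2 S) (v : Tok (M2 S)), X.length = p.p0 →
      ∃ I : Finset ℕ, 2 + 3 * C0 ≤ I.card ∧ ∀ k ∈ I, k < p.K ∧
        p.lam2 k (X.take (p.cc k)) = some v ∧ (p.rho2 k (X.drop (p.cc k)) y).isSome)
    (z : List α) (hz : z ∈ p.Zc) (v : Tok (M2 S)) : Cut p.LB p.RB v z := by
  classical
  obtain ⟨z1, hz1, z2, hz2, rfl⟩ := Language.mem_mul.1 hz
  have hl1 := hz1.1.1
  have hzd : p.zd = p.p0 + (p.q + p.N1) := rfl
  have hX : ((z1 ++ z2).take p.p0).length = p.p0 := by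
    rw [List.length_take, List.length_append]; omega
  obtain ⟨I, hI, hIk⟩ := comp2 _ (p.h ((z1 ++ z2).drop p.p0)) v hX
  obtain ⟨k, hkI, hksp⟩ : ∃ k ∈ I, ¬ Spl p (z1 ++ z2) k := by
    by_contra hc
    push Not at hc
    have := spoil_card hp hr hz1.1 I (z2 := z2) fun k hk => ⟨(hIk k hk).1, hc k hk⟩
    omega
  obtain ⟨hkK, hlam, hrho⟩ := hIk k hkI
  obtain ⟨t, ht⟩ := Option.isSome_iff_exists.1 hrho
  have hck := hp.hcc k hkK
  obtain ⟨a1, a2, a3⟩ := zd_sub hp hkK
  have htl : (z1.take (p.cc k)).length = p.cc k := by rw [List.length_take]; omega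
  have hdr : (z1 ++ z2).drop (p.cc k) = z1.drop (p.cc k) ++ z2 :=
    List.drop_append_of_le_length (by omega)
  refine ⟨(z1 ++ z2).take (p.cc k), (z1 ++ z2).drop (p.cc k), t,
    (List.take_append_drop _ _).symm, ⟨k, hkK, ?_, ?_⟩, k, hkK, ⟨z1.drop (p.cc k), z2, hdr, ?_, hz2⟩, ?_, ?_⟩
  · rw [List.length_take, List.length_append]; omega
  · rw [List.take_take, Nat.min_eq_left hck] at hlam
    exact hlam
  · refine (BB_shift hp.loc (by omega) (P := z1.take (p.cc k))).1 ?_
    rw [List.take_append_drop, htl, a2]; exact hz1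
  · intro k' hk' hne Q1 hpre hQ1
    exact hksp ⟨k', hk', hne, Q1, hpre, hQ1⟩
  · have e1 : ((z1 ++ z2).drop (p.cc k)).take (p.p0 - p.cc k) =
        ((z1 ++ z2).take p.p0).drop (p.cc k) := by
      rw [List.drop_take]
    have e2 : ((z1 ++ z2).drop (p.cc k)).drop (p.p0 - p.cc k) = (z1 ++ z2).drop p.p0 := by
      rw [List.drop_drop]; congr 1; omega
    rw [e1, e2]; exact ht

end Crest.Agent.R320.Sch_940
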