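import Mathlib
import Crest.Agent.R320.ExactR_237

/-!
Row 320, piece P3 (helper943): scheme 2 (promise ruler) in the literal form of 163 #13363 (s2) / (cc).
Cut places `c k <= p0`; the right word `Q` = rest of the block ++ one more block; a candidate `k'` is a place such that
the block of `u ++ Q`, `|u| = c k'`, is bad; legal iff there is exactly one candidate.
-/

set_option autoImplicit false

namespace Crest.Agent.R320.P3_943

open Crest.Agent.R320.ExactR_237

section

variable {A : Type} (c : ℕ → ℕ) (XX : Set (List A)) (Bad : List A → Prop)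

/-- the candidate anchor `c k` letters to the left of the text `Q` starts a bad block. -/
def Cand (k : ℕ) (Q : List A) : Prop :=
  ∃ u X : List A, u.length = c k ∧ X ∈ XX ∧ X <+: u ++ Q ∧ Bad X

end

section

variable {A S V : Type} [Monoid S] [AddCommGroup V]

/-- zone map of both schemes. -/
def TT (φ : List A → S) (act : V → S → V) (nu2 nu1 : List A → V) (p0 : ℕ) (v : V)
    (X : List A) : V :=
  act (act v (φ (X.take p0)) + nu2 (X.take p0)) (φ (X.drop p0)) + nu1 (X.drop p0)

/-- right reading as a relation. -/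
def Rr (φ : List A → S) (act : V → S → V) (nu2 nu1 : List A → V) (p0 : ℕ) (c : ℕ → ℕ) (K : ℕ)
    (XX : Set (List A)) (Bad : List A → Prop) (rho : ℕ → List A → S → Option V)
    (Q : List A) (b : V) : Prop :=
  ∃ k b' u0 Q1 X2, k < K ∧ u0.length = c k ∧ Q = Q1 ++ X2 ∧ u0 ++ Q1 ∈ XX ∧ X2 ∈ XX ∧
    (∀ k' < K, Cand c XX Bad k' Q → k' = k) ∧ rho k (Q1.take (p0 - c k)) 1 = some b' ∧
    b = TT φ act nu2 nu1 p0 (act b' (φ (Q1.drop (p0 - c k))) + nu1 (Q1.drop (p0 - c k))) X2

theorem pr_eq (φ : List A → S) (h1 : φ [] = 1) (hφ : ∀ u v, φ (u ++ v) = φ u * φ v)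
    (w : List A) : pr (fun a => φ [a]) w = φ w := by
  induction w with
  | nil => simp [pr, h1]
  | cons a w ih =>
    have : a :: w = [a] ++ w := rfl
    rw [this, hφ]
    simp only [pr, List.map_append, List.prod_append, List.map_cons, List.map_nil,
      List.prod_singleton] at ih ⊢
    rw [ih]

/-- **P3**: (s2) and the second half of (cc). -/
theorem scheme2 [Fintype S] [Fintype V] (φ : List A → S) (h1 : φ [] = 1)
    (hφ : ∀ u v, φ (u ++ v) = φ u * φ v) (act : V → S → V) (R : ℕ) :
    ∃ K : ℕ, ∀ c : ℕ → ℕ, (∀ i j, i < j → j < K → c i < c j) →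
      ∃ (nu2 : List A → V) (lam : ℕ → List A → Option V),
      ∀ (p0 : ℕ) (XX : Set (List A)) (Bad : List A → Prop) (nu1 : List A → V),
        (∀ k < K, c k ≤ p0) →
        (∀ X ∈ XX, p0 < X.length) →
        -- prefix code
        (∀ X ∈ XX, ∀ Y, X ++ Y ∈ XX → Y = []) →
        -- blocks do not read the first `p0` letters
        (∀ u u' Q : List A, u.length = u'.length → u.length ≤ p0 → (u ++ Q ∈ XX → u' ++ Q ∈ XX)) →
        -- a candidate text contains a whole block
        (∀ k < K, ∀ k' < K, ∀ u u' Q1 X2 : List A, u.length = c k → u'.length = c k' →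
          u' ++ Q1 ∈ XX → X2 ∈ XX → ∃ X ∈ XX, X <+: u ++ (Q1 ++ X2)) →
        -- the count
        (∀ X ∈ XX, ∀ X2 ∈ XX, Bad X → ∀ I : Finset ℕ, (∀ k ∈ I, k < K) → R ≤ I.card →
          ∃ k ∈ I, ∀ k' < K, Cand c XX Bad k' ((X ++ X2).drop (c k)) → k' = k) →
        ∃ (R2 : List A → Option V),
          (∀ Q b, R2 Q = some b → Q ≠ []) ∧
          (∀ P v Q b, (∃ k < K, P.length = c k ∧ lam k P = some v) → R2 Q = some b →
            (∀ X ∈ XX, X <+: P ++ Q → Bad X) →
            ∃ Q1 X2, Q = Q1 ++ X2 ∧ Q1 ≠ [] ∧ P ++ Q1 ∈ XX ∧ X2 ∈ XX ∧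
              TT φ act nu2 nu1 p0 (TT φ act nu2 nu1 p0 v (P ++ Q1)) X2 = b) ∧
          (∀ X ∈ XX, ∀ X2 ∈ XX, Bad X → ∀ v, ∃ P Q, X ++ X2 = P ++ Q ∧ P.length < X.length ∧
            (∃ k < K, P.length = c k ∧ lam k P = some v) ∧ (R2 Q).isSome) := by
  classical
  obtain ⟨K, hK⟩ := exact_gadget A S V (fun a => φ [a]) act (max R 1)
  refine ⟨K, fun c hc => ?_⟩
  obtain ⟨lam, rho, nu, g1, g2⟩ := hK c hc
  refine ⟨fun X => nu X 1, lam, ?_⟩
  intro p0 XX Bad nu1 hck hlen hpc hloc hex hcount
  set nu2 : List A → V := fun X => nu X 1 with hnu2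
  refine ⟨fun Q => if h : ∃ b, Rr φ act nu2 nu1 p0 c K XX Bad rho Q b then some h.choose else none,
    ?_, ?_, ?_⟩
  · intro Q b hR
    beta_reduce at hR
    by_cases hx : ∃ b, Rr φ act nu2 nu1 p0 c K XX Bad rho Q b
    swap
    · rw [dif_neg hx] at hR
      exact absurd hR (by simp)
    obtain ⟨b1, k, b', u0, Q1, X2, hk, hu0, hQ, hX, hX2, -⟩ := hx
    rintro rfl
    have h3 : X2 = [] := by
      have := congrArg List.length hQ
      rw [List.length_append, List.length_nil] at this
      exact List.length_eq_zero_iff.1 (by omega)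
    have := hlen X2 hX2
    rw [h3] at this
    simp at this
  · rintro P v Q b ⟨k1, hk1, hP, hl⟩ hR hbad
    beta_reduce at hR
    by_cases hx : ∃ b, Rr φ act nu2 nu1 p0 c K XX Bad rho Q b
    swap
    · rw [dif_neg hx] at hR
      exact absurd hR (by simp)
    rw [dif_pos hx, Option.some.injEq] at hR
    have hs := hx.choose_spec
    rw [hR] at hs
    obtain ⟨k, b', u0, Q1, X2, hk, hu0, hQ, hX, hX2, huq, hrho, hb⟩ := hs
    obtain ⟨X, hXX, hXp⟩ := hex k1 hk1 k hk P u0 Q1 X2 hP hu0 hX hX2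
    rw [← hQ] at hXp
    have hkk : k1 = k := huq k1 hk1 ⟨P, X, hP, hXX, hXp, hbad X hXX hXp⟩
    subst hkk
    have hle : P.length ≤ p0 := by rw [hP]; exact hck k1 hk1
    have hPQ : P ++ Q1 ∈ XX := hloc u0 P Q1 (by rw [hP, hu0]) (by rw [hu0, ← hP]; exact hle) hX
    have hl1 := hlen _ hPQ
    rw [List.length_append] at hl1
    refine ⟨Q1, X2, hQ, ?_, hPQ, hX2, ?_⟩
    · rintro rfl
      simp only [List.length_nil] at hl1
      omega
    · have hX1 : (P ++ Q1).take p0 = P ++ Q1.take (p0 - c k1) := by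
        rw [List.take_append, hP, List.take_of_length_le hle]
      have hY : (P ++ Q1).drop p0 = Q1.drop (p0 - c k1) := by
        rw [List.drop_append, hP, List.drop_eq_nil_of_le hle, List.nil_append]
      have he := g1 k1 hk1 P (Q1.take (p0 - c k1)) 1 v b' hP hl hrho
      rw [mul_one, pr_eq φ h1 hφ, ← hX1] at he
      rw [hb]
      congr 1
      unfold TT
      rw [hY, he]
  · intro X hX X2 hX2 hB v
    have hXl := hlen X hX
    obtain ⟨I, hI1, hI2⟩ := g2 (X.take p0) 1 v
      (fun k hk => by rw [List.length_take]; have := hck k hk; omega)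
    obtain ⟨k, hkI, huq⟩ := hcount X hX X2 hX2 hB I (fun k hk => (hI2 k hk).1)
      (le_trans (le_max_left _ _) hI1)
    obtain ⟨hk, hlam, hrho⟩ := hI2 k hkI
    have hp := hck k hk
    have hdrop : (X ++ X2).drop (c k) = X.drop (c k) ++ X2 :=
      List.drop_append_of_le_length (by omega)
    refine ⟨X.take (c k), X.drop (c k) ++ X2, ?_, ?_, ⟨k, hk, ?_, ?_⟩, ?_⟩
    · rw [← List.append_assoc, List.take_append_drop]
    · rw [List.length_take]; omega
    · rw [List.length_take]; omega
    · rw [List.take_take, Nat.min_eq_left hp] at hlam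
      exact hlam
    · obtain ⟨b', hb'⟩ := Option.isSome_iff_exists.1 hrho
      have hx : ∃ b, Rr φ act nu2 nu1 p0 c K XX Bad rho (X.drop (c k) ++ X2) b := by
        refine ⟨_, k, b', X.take (c k), X.drop (c k), X2, hk, ?_, rfl, ?_, hX2, ?_, ?_, rfl⟩
        · rw [List.length_take]; omega
        · rw [List.take_append_drop]; exact hX
        · rw [← hdrop]; exact huq
        · rw [← hb']
          congr 1
          rw [List.drop_take]
      show (if h : ∃ b, Rr φ act nu2 nu1 p0 c K XX Bad rho (X.drop (c k) ++ X2) b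
        then some h.choose else none).isSome = true
      rw [dif_pos hx]
      rfl

end

end Crest.Agent.R320.P3_943
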