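import Crest.Agent.R320.GridRuler_692
import Crest.Agent.R320.Grid_899

/-!
Row 320: parameters of the grid gadget and its ruler (helper656).
-/

set_option autoImplicit false

namespace Crest.Agent.R320.Rul_656

open Finset Crest.Agent.R320.Grid_899 Crest.Agent.R320.GridRuler_692

theorem sum_G (κ : ℕ) (hκ : 1 ≤ κ) (M : ℕ) : ∀ j : ℕ,
    (∑ i ∈ range (j + 1), M * G κ i) ≤ 2 * (M * G κ j) := by
  intro j
  induction j with
  | zero => simp; omega
  | succ j ih =>
    rw [Finset.sum_range_succ]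
    have h1 : G κ (j + 1) = 2 ^ κ * G κ j := by
      unfold G; rw [← pow_add]; congr 1; ring
    have h2 : 2 ≤ 2 ^ κ := by
      calc 2 = 2 ^ 1 := by norm_num
        _ ≤ 2 ^ κ := Nat.pow_le_pow_right (by norm_num) hκ
    have h3 : 2 * (M * G κ j) ≤ M * G κ (j + 1) := by
      rw [h1]
      calc 2 * (M * G κ j) ≤ 2 ^ κ * (M * G κ j) := Nat.mul_le_mul_right _ h2
        _ = M * (2 ^ κ * G κ j) := by ring
    omega

theorem params (k m K : ℕ) : ∃ (q : Fin k → ℕ), (∀ j, Odd (q j)) ∧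
    Pairwise (fun i j => Nat.Coprime (q i) (q j)) ∧ ∃ κ : ℕ, ∀ N : ℕ,
    ∃ x : ℕ → ℕ, (∀ a b, a < b → x a < x b) ∧
      (∀ a b c' d, a < K → b < K → c' < K → d < K → a ≠ b →
        |((x a : ℤ) - x b) - ((x c' : ℤ) - x d)| ≤ 2 * N → a = c' ∧ b = d) ∧
      ∀ T : ℤ, ∀ F : Finset (ℕ × ℕ),
        (∀ p ∈ F, p.1 < K ∧ p.2 < K ∧ p.1 ≠ p.2 ∧
          BadZ (univ.image q) m (G κ) (fun i => (∏ j, q j) * G κ i) (Am (∏ j, q j) κ)
            (T - ((x p.1 : ℤ) - x p.2))) → F.card ≤ k + m := by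
  classical
  let q : Fin k → ℕ := fun j => Nat.nth Nat.Prime (4 * 2 ^ K + 1 + j)
  have hp : ∀ j, (q j).Prime := fun j => Nat.prime_nth_prime _
  have hbig : ∀ j, 4 * 2 ^ K < q j := by
    intro j
    have := Nat.add_two_le_nth_prime (4 * 2 ^ K + 1 + (j : ℕ))
    show 4 * 2 ^ K < Nat.nth Nat.Prime (4 * 2 ^ K + 1 + j)
    omega
  have hinj : ∀ i j, i ≠ j → q i ≠ q j := by
    intro i j hij h
    apply hij
    have := Nat.nth_injective Nat.infinite_setOf_prime h
    exact Fin.ext (by omega)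
  have hodd : ∀ j, Odd (q j) := by
    intro j
    apply (hp j).odd_of_ne_two
    have h1 := hbig j
    have h2 : 1 ≤ 2 ^ K := Nat.one_le_two_pow
    omega
  have hcop : Pairwise (fun i j => Nat.Coprime (q i) (q j)) := fun i j hij =>
    (Nat.coprime_primes (hp i) (hp j)).2 (hinj i j hij)
  refine ⟨q, hodd, hcop, 32 * 2 ^ K * (∏ j, q j), ?_⟩
  intro N
  set M := ∏ j, q j with hM
  have hMpos : 0 < M := Finset.prod_pos fun j _ => (hp j).pos
  set κ := 32 * 2 ^ K * M with hκ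
  have hκ1 : 1 ≤ κ := by
    have : 0 < 32 * 2 ^ K * M := by positivity
    omega
  have hGM : Nat.Coprime M (G κ m) := by
    unfold G
    apply Nat.Coprime.pow_right
    rw [hM]
    exact Nat.Coprime.prod_left fun j _ => (Nat.coprime_two_right).2 (hodd j)
  obtain ⟨x, h1, h2, h3⟩ := grid_ruler K M m (G κ) (fun i => M * G κ i) (Am M κ) (univ.image q)
    (by
      intro p hp'
      obtain ⟨j, _, rfl⟩ := Finset.mem_image.1 hp'
      exact ⟨Finset.dvd_prod_of_mem q (Finset.mem_univ j), hbig j⟩)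
    hGM hMpos (G_pos m) (fun i j hij _ => G_dvd hij) (fun i => Dvd.intro_left _ rfl)
    (fun i => Nat.mul_pos hMpos (G_pos i))
    (by
      intro j _
      have h1 := sum_G κ hκ1 M j
      have h2 : G κ (j + 1) = 2 ^ κ * G κ j := by
        unfold G; rw [← pow_add]; congr 1; ring
      have h3 : κ < 2 ^ κ := Nat.lt_two_pow_self
      have h4 : 0 < G κ j := G_pos j
      calc 16 * 2 ^ K * (∑ i ∈ range (j + 1), M * G κ i)
          ≤ 16 * 2 ^ K * (2 * (M * G κ j)) := Nat.mul_le_mul_left _ h1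
        _ = κ * G κ j := by rw [hκ]; ring
        _ < 2 ^ κ * G κ j := Nat.mul_lt_mul_of_pos_right h3 h4
        _ = G κ (j + 1) := h2.symm) N
  refine ⟨x, h1, h2, fun T F hF => ?_⟩
  have h4 := h3 T F hF
  have h5 : (univ.image q).card ≤ k := by
    calc (univ.image q).card ≤ (univ : Finset (Fin k)).card := Finset.card_image_le
      _ = k := by simp
  omega

end Crest.Agent.R320.Rul_656
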