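import Crest.Agent.R320.Reg_656
import Crest.Agent.R320.P3_943
import Crest.Agent.R320.Rul_656

/-!
Row 320: the number of spoiled places of scheme 2 (helper656).
-/

set_option autoImplicit false

namespace Crest.Agent.R320.Cnt_656

open Crest.Agent.R320.Reg_656 Crest.Agent.R320.P3_943 Crest.Agent.R320.Grid_899
  Crest.Agent.R320.GridRuler_692

variable {α : Type} {z n : ℕ} {Wo : List α → Prop}

/-- clean totals -/
def GoodT {k : ℕ} (q : Fin k → ℕ) (κ m T : ℕ) : Prop :=
  (∀ j, ¬ q j ∣ T) ∧ ∀ j, 1 ≤ j → j ≤ m →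
    (∏ j, q j) * G κ (j - 1) ≤ (T - Am (∏ j, q j) κ j) % G κ j ∧
    (T - Am (∏ j, q j) κ j) % G κ j + (∏ j, q j) * G κ (j - 1) ≤ G κ j

theorem badZ_of_not_good {k : ℕ} (q : Fin k → ℕ) (κ m T : ℕ)
    (hT : Am (∏ j, q j) κ (m + 1) ≤ T) (h : ¬ GoodT q κ m T) :
    BadZ (Finset.univ.image q) m (G κ) (fun i => (∏ j, q j) * G κ i) (Am (∏ j, q j) κ) (T : ℤ) := by
  classical
  by_cases h1 : ∀ j, ¬ q j ∣ T
  · right
    by_contra h2
    push Not at h2
    apply h
    refine ⟨h1, fun j hj1 hj2 => ?_⟩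
    obtain ⟨i, rfl⟩ : ∃ i, j = i + 1 := ⟨j - 1, by omega⟩
    obtain ⟨a, b⟩ := h2 i (by omega)
    have hA : Am (∏ j, q j) κ (i + 1) ≤ Am (∏ j, q j) κ (m + 1) := Am_mono (by omega)
    have e : ((T : ℤ) - (Am (∏ j, q j) κ (i + 1) : ℕ)) % ((G κ (i + 1) : ℕ) : ℤ) =
        (((T - Am (∏ j, q j) κ (i + 1)) % G κ (i + 1) : ℕ) : ℤ) := by
      rw [Int.natCast_mod, Nat.cast_sub (by omega)]
    rw [e] at a b
    simp only [Nat.add_sub_cancel]
    constructor
    · exact_mod_cast a
    · have hb := b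
      have : (((T - Am (∏ j, q j) κ (i + 1)) % G κ (i + 1) : ℕ) : ℤ) +
          (((∏ j, q j) * G κ i : ℕ) : ℤ) ≤ (G κ (i + 1) : ℕ) := by linarith
      exact_mod_cast this
  · left
    push Not at h1
    obtain ⟨j, hj⟩ := h1
    exact ⟨q j, Finset.mem_image.2 ⟨j, Finset.mem_univ _, rfl⟩, by exact_mod_cast hj⟩

/-- good blocks: no wall within `N1` of `z`, clean total -/
def GoodX {k : ℕ} (q : Fin k → ℕ) (κ m z N1 p0 : ℕ) (Wo : List α → Prop) (X : List α) : Prop :=
  z + N1 < X.length ∧ (∀ t, z ≤ t + N1 → t < z → ¬ Wo (X.take t)) ∧ GoodT q κ m (X.length - p0)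

/-- translation of walls -/
theorem tr (hW : LW n Wo) {u w X : List α} {cb ca p0 t : ℕ} (hu : u.length = cb) (hcb : cb ≤ p0)
    (hca : ca ≤ w.length) (hX : X <+: u ++ w.drop ca) (h1 : p0 + n ≤ t) (h2 : t ≤ X.length) :
    Wo (X.take t) ↔ Wo (w.take (t - cb + ca)) := by
  have hXl := hX.length_le
  rw [List.length_append, List.length_drop] at hXl
  have e1 : X.take t = u ++ (w.drop ca).take (t - cb) := by
    have h3 : X = (u ++ w.drop ca).take X.length := List.prefix_iff_eq_take.1 hX
    have h4 : X.take t = (u ++ w.drop ca).take t := by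
      conv_lhs => rw [h3]
      rw [List.take_take, min_eq_left h2]
    rw [h4]
    obtain ⟨s, rfl⟩ : ∃ s, t = u.length + s := ⟨t - u.length, by omega⟩
    rw [List.take_length_add_append]
    congr 2
    omega
  have e2 : w.take (t - cb + ca) = w.take ca ++ (w.drop ca).take (t - cb) := by
    rw [Nat.add_comm, List.take_add]
  rw [e1, e2, hW.loc _ _ (by rw [List.length_take, List.length_drop]; omega),
    hW.loc _ _ (by rw [List.length_take, List.length_drop]; omega)]

theorem count {k m K p0 N1 W κ : ℕ} (q : Fin k → ℕ) (x : ℕ → ℕ)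
    (hx : ∀ i < K, x i ≤ p0)
    (hsp : ∀ a b c' d, a < K → b < K → c' < K → d < K → a ≠ b →
        |((x a : ℤ) - x b) - ((x c' : ℤ) - x d)| ≤ 2 * (N1 : ℕ) → a = c' ∧ b = d)
    (hbad : ∀ T : ℤ, ∀ F : Finset (ℕ × ℕ),
        (∀ p ∈ F, p.1 < K ∧ p.2 < K ∧ p.1 ≠ p.2 ∧
          BadZ (Finset.univ.image q) m (G κ) (fun i => (∏ j, q j) * G κ i) (Am (∏ j, q j) κ)
            (T - ((x p.1 : ℤ) - x p.2))) → F.card ≤ k + m)
    (hW : LW n Wo) (hsep : ∀ (w : List α) (s t : ℕ), s < t → t ≤ w.length → Wo (w.take s) →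
      Wo (w.take t) → W < t - s) (hWb : 2 * p0 + 2 * N1 ≤ W)
    (hz : 2 * p0 + n + N1 + Am (∏ j, q j) κ (m + 1) ≤ z) (hzp : 0 < z)
    (X X2 : List α) (hX : X ∈ XX z Wo) (hX2 : X2 ∈ XX z Wo)
    (I : Finset ℕ) (hI : ∀ i ∈ I, i < K) (hR : 2 * (k + m) + 2 ≤ I.card) :
    ∃ i ∈ I, ∀ j < K, Cand x (XX z Wo) (fun X => ¬ GoodX q κ m z N1 p0 Wo X) j
      ((X ++ X2).drop (x i)) → j = i := by
  classical
  by_contra hcon
  push Not at hcon
  choose! f hfK hfC hfne using hcon
  set w := X ++ X2 with hw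
  have hwl : z ≤ w.length := by rw [hw, List.length_append]; have := hX.1; omega
  -- data of a candidate
  have hdat : ∀ i ∈ I, ∃ e : ℕ, e ≤ w.length ∧ Wo (w.take e) ∧ z + x i ≤ e + x (f i) ∧
      (∀ s, z + x i ≤ s + x (f i) → s < e → ¬ Wo (w.take s)) ∧
      ((∃ s, s ≤ w.length ∧ Wo (w.take s) ∧ z + x i ≤ s + x (f i) + N1 ∧
        s + x (f i) ≤ z + x i + N1) ∨
       BadZ (Finset.univ.image q) m (G κ) (fun i => (∏ j, q j) * G κ i) (Am (∏ j, q j) κ)
        (((e : ℤ) - p0) - ((x i : ℤ) - x (f i)))) := by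
    intro i hi
    obtain ⟨u, X', hu, hX', hp, hb⟩ := hfC i hi
    have hca : x i ≤ w.length := by have := hx i (hI i hi); omega
    have hcb : x (f i) ≤ p0 := hx _ (hfK i hi)
    have hcai : x i ≤ p0 := hx _ (hI i hi)
    have hXl := hp.length_le
    rw [List.length_append, List.length_drop, hu] at hXl
    obtain ⟨g1, g2, g3⟩ := hX'
    have key := fun t h1 h2 => tr (t := t) hW hu hcb hca hp h1 h2
    refine ⟨X'.length - x (f i) + x i, by omega, ?_, by omega, ?_, ?_⟩
    · have := key X'.length (by omega) le_rfl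
      rw [List.take_length] at this
      exact this.1 g2
    · intro s hs1 hs2 hs3
      have h4 := key (s + x (f i) - x i) (by omega) (by omega)
      have e : s + x (f i) - x i - x (f i) + x i = s := by omega
      rw [e] at h4
      exact g3 (s + x (f i) - x i) (by omega) (by omega) (h4.2 hs3)
    · unfold GoodX at hb
      by_cases hb1 : z + N1 < X'.length
      · by_cases hb2 : ∀ t, z ≤ t + N1 → t < z → ¬ Wo (X'.take t)
        · right
          have hb3 : ¬ GoodT q κ m (X'.length - p0) := fun h => hb ⟨hb1, hb2, h⟩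
          have := badZ_of_not_good q κ m (X'.length - p0) (by omega) hb3
          have e : ((X'.length - p0 : ℕ) : ℤ) =
              (((X'.length - x (f i) + x i : ℕ) : ℤ) - p0) - ((x i : ℤ) - x (f i)) := by
            rw [Nat.cast_sub (by omega), Nat.cast_add, Nat.cast_sub (by omega)]
            ring
          rw [e] at this
          exact this
        · left
          push Not at hb2
          obtain ⟨t, ht1, ht2, ht3⟩ := hb2
          refine ⟨t - x (f i) + x i, by omega, (key t (by omega) (by omega)).1 ht3, by omega,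
            by omega⟩
      · left
        refine ⟨X'.length - x (f i) + x i, by omega, ?_, by omega, by omega⟩
        have := key X'.length (by omega) le_rfl
        rw [List.take_length] at this
        exact this.1 g2
  choose! e he1 he2 he3 he4 he5 using hdat
  have hxi : ∀ i ∈ I, x i ≤ p0 := fun i hi => hx _ (hI i hi)
  have hxf : ∀ i ∈ I, x (f i) ≤ p0 := fun i hi => hx _ (hfK i hi)
  -- the (E) part
  let EV : ℕ → Prop := fun i => ∃ s, s ≤ w.length ∧ Wo (w.take s) ∧ z + x i ≤ s + x (f i) + N1 ∧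
        s + x (f i) ≤ z + x i + N1
  have hE : (I.filter EV).card ≤ 1 := by
    rw [Finset.card_le_one]
    intro a ha b hb
    rw [Finset.mem_filter] at ha hb
    obtain ⟨haI, s, hs1, hs2, hs3, hs4⟩ := ha
    obtain ⟨hbI, t, ht1, ht2, ht3, ht4⟩ := hb
    have h1 := hxi a haI
    have h2 := hxf a haI
    have h3 := hxi b hbI
    have h4 := hxf b hbI
    have hst : s = t := by
      by_contra hne
      rcases Nat.lt_or_gt_of_ne hne with hlt | hlt
      · have := hsep w s t hlt ht1 hs2 ht2
        omega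
      · have := hsep w t s hlt hs1 ht2 hs2
        omega
    subst hst
    refine (hsp a (f a) b (f b) (hI a haI) (hfK a haI) (hI b hbI) (hfK b hbI)
      (Ne.symm (hfne a haI)) ?_).1
    rw [abs_le]
    constructor <;> omega
  -- the ends
  have hends : (I.image e).card ≤ 2 := by
    by_contra hc
    push Not at hc
    obtain ⟨a, ha, b, hb, c, hc', hab, hac, hbc⟩ := Finset.two_lt_card.1 hc
    have h3 : ∀ a b c, a ∈ I.image e → b ∈ I.image e → c ∈ I.image e → a < b → b < c → False := by
      intro a b c ha hb hc h1 h2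
      obtain ⟨i, hi, rfl⟩ := Finset.mem_image.1 ha
      obtain ⟨j, hj, rfl⟩ := Finset.mem_image.1 hb
      obtain ⟨l, hl, rfl⟩ := Finset.mem_image.1 hc
      have g1 := hsep w _ _ h1 (he1 j hj) (he2 i hi) (he2 j hj)
      have g2 := he3 i hi
      have g3 : ¬ (z + x l ≤ e j + x (f l)) := fun hh => he4 l hl (e j) hh h2 (he2 j hj)
      have g4 := hxi i hi
      have g5 := hxf i hi
      have g6 := hxi l hl
      have g7 := hxf l hl
      omega
    rcases Nat.lt_or_gt_of_ne hab with h1 | h1 <;> rcases Nat.lt_or_gt_of_ne hac with h2 | h2 <;>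
      rcases Nat.lt_or_gt_of_ne hbc with h4 | h4
    · exact h3 a b c ha hb hc' h1 h4
    · exact h3 a c b ha hc' hb h2 h4
    · omega
    · exact h3 c a b hc' ha hb h2 h1
    · exact h3 b a c hb ha hc' h1 h2
    · omega
    · exact h3 b c a hb hc' ha h4 h2
    · exact h3 c b a hc' hb ha h4 h1
  -- the rest
  have hB : (I.filter (fun i => ¬ EV i)).card ≤ (k + m) * 2 := by
    have h1 : (I.filter (fun i => ¬ EV i)).card ≤
        (k + m) * ((I.filter (fun i => ¬ EV i)).image e).card := by
      apply Finset.card_le_mul_card_image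
      intro b _
      set J := (I.filter (fun i => ¬ EV i)).filter (fun i => e i = b) with hJ
      have h2 := hbad ((b : ℤ) - p0) (J.image (fun i => (i, f i))) (by
        intro p hp
        obtain ⟨i, hi, rfl⟩ := Finset.mem_image.1 hp
        rw [hJ, Finset.mem_filter, Finset.mem_filter] at hi
        obtain ⟨⟨hi1, hi2⟩, hi3⟩ := hi
        refine ⟨hI i hi1, hfK i hi1, Ne.symm (hfne i hi1), ?_⟩
        rcases he5 i hi1 with h | h
        · exact absurd h hi2
        · rw [hi3] at h
          exact h)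
      rw [Finset.card_image_of_injective _ (fun a b hab => by
        simpa using congrArg Prod.fst hab)] at h2
      exact h2
    have h2 : ((I.filter (fun i => ¬ EV i)).image e).card ≤ 2 :=
      le_trans (Finset.card_le_card (Finset.image_subset_image (Finset.filter_subset _ _))) hends
    calc (I.filter (fun i => ¬ EV i)).card
        ≤ (k + m) * ((I.filter (fun i => ¬ EV i)).image e).card := h1
      _ ≤ (k + m) * 2 := Nat.mul_le_mul_left _ h2
  have hsplit := Finset.card_filter_add_card_filter_not (s := I) EV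
  omega

end Crest.Agent.R320.Cnt_656
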