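import Mathlib

set_option autoImplicit false

/-!
Row 320, item (7): the counting lemma of the random noise `F` (237 / 488 / 823 / 811).

Points `P`, values `V`.  A task `i` has a base point `b i` and phases `j`; phase `j` demands
`F q = dem i j (F (b i)) q` on the finite set of points `A i j`.  The sets of different phases
are disjoint and do not contain the base point.  If `#tasks * (1 - |V|^-C)^m < 1`, some `F`
satisfies, for every task, all demands of at least one phase.
-/

namespace Crest.Agent.R320.Cnt693

open Finset

universe u v w x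

variable {P : Type u} {V : Type v} {ι : Type w} {κ : Type x}

/-- All demands of phase `j` hold for `F`. -/
def Sat (A : κ → Finset P) (dem : κ → V → P → V) (b : P) (F : P → V) (j : κ) : Prop :=
  ∀ q ∈ A j, F q = dem j (F b) q

/-- `F` changed on `A j` to the demanded values. -/
noncomputable def fix [DecidableEq P] (A : κ → Finset P) (dem : κ → V → P → V) (b : P)
    (j : κ) (F : P → V) : P → V :=
  fun q => if q ∈ A j then dem j (F b) q else F q

theorem fix_base [DecidableEq P] {A : κ → Finset P} {dem : κ → V → P → V} {b : P} {j : κ}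
    (hb : b ∉ A j) (F : P → V) : fix A dem b j F b = F b := by
  simp [fix, hb]

theorem fix_sat [DecidableEq P] {A : κ → Finset P} {dem : κ → V → P → V} {b : P} {j : κ}
    (hb : b ∉ A j) (F : P → V) : Sat A dem b (fix A dem b j F) j := by
  intro q hq
  rw [fix_base hb]
  simp [fix, hq]

theorem fix_sat_iff [DecidableEq P] {A : κ → Finset P} {dem : κ → V → P → V} {b : P}
    {j j' : κ} (hb : b ∉ A j) (hd : Disjoint (A j) (A j')) (F : P → V) :
    Sat A dem b (fix A dem b j F) j' ↔ Sat A dem b F j' := by
  have key : ∀ q ∈ A j', fix A dem b j F q = F q := by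
    intro q hq
    have : q ∉ A j := fun h => (Finset.disjoint_left.1 hd h hq).elim
    simp [fix, this]
  constructor
  · intro h q hq
    have := h q hq
    rw [fix_base hb, key q hq] at this
    exact this
  · intro h q hq
    rw [fix_base hb, key q hq]
    exact h q hq

/-- One step of the count. -/
theorem card_step [Fintype P] [DecidableEq P] [Fintype V] [DecidableEq V]
    (A : κ → Finset P) (dem : κ → V → P → V) (b : P) (C : ℕ) (j : κ)
    (hb : b ∉ A j) (hC : (A j).card ≤ C)
    (B : Finset (P → V)) (hfix : ∀ F ∈ B, fix A dem b j F ∈ B) [Nonempty V]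
    (B' : Finset (P → V)) (hB' : ∀ F, F ∈ B' ↔ F ∈ B ∧ ¬ Sat A dem b F j) :
    B'.card * Fintype.card V ^ C ≤ B.card * (Fintype.card V ^ C - 1) := by
  classical
  set N := Fintype.card V ^ C with hN
  have hNpos : 0 < N := pow_pos Fintype.card_pos _
  set S : Finset (P → V) := B.filter (fun F => Sat A dem b F j) with hS
  have hsplit : B'.card + S.card = B.card := by
    have h1 : B' = B.filter (fun F => ¬ Sat A dem b F j) := by
      ext F; simp [hB']
    rw [h1, hS, add_comm]
    exact Finset.card_filter_add_card_filter_not (s := B) (fun F => Sat A dem b F j)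
  have hmap : ∀ F ∈ B, fix A dem b j F ∈ S := by
    intro F hF
    rw [hS, Finset.mem_filter]
    exact ⟨hfix F hF, fix_sat hb F⟩
  have hfib : ∀ G ∈ S, (B.filter (fun F => fix A dem b j F = G)).card ≤ N := by
    intro G _
    -- inject into functions on `A j`
    have hinj : Set.InjOn (fun F : P → V => fun q : (A j) => F q.1)
        (B.filter (fun F => fix A dem b j F = G) : Finset (P → V)) := by
      intro F1 h1 F2 h2 h
      simp only [Finset.coe_filter, Set.mem_setOf_eq] at h1 h2
      funext q
      by_cases hq : q ∈ A j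
      · exact congrFun h ⟨q, hq⟩
      · have e1 := congrFun h1.2 q
        have e2 := congrFun h2.2 q
        simp only [fix, hq, if_false] at e1 e2
        rw [e1, e2]
    have hc := Finset.card_le_card_of_injOn (t := (Finset.univ : Finset ((A j) → V)))
      (fun F : P → V => fun q : (A j) => F q.1) (fun _ _ => Finset.mem_univ _) hinj
    refine hc.trans ?_
    rw [Finset.card_univ, Fintype.card_fun, Fintype.card_coe]
    exact Nat.pow_le_pow_right Fintype.card_pos hC
  have hle : B.card ≤ N * S.card := Finset.card_le_mul_card_image_of_maps_to hmap N hfib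
  have h2 : B.card * (N - 1) = B.card * N - B.card := by
    rw [Nat.mul_sub, Nat.mul_one]
  rw [h2]
  have h3 : B'.card * N + N * S.card = B.card * N := by
    rw [← hsplit]; ring
  omega

/-- Functions for which none of the phases in `J` holds: at most the expected number. -/
theorem card_bad [Fintype P] [DecidableEq P] [Fintype V] [DecidableEq V] [Nonempty V]
    [DecidableEq κ]
    (A : κ → Finset P) (dem : κ → V → P → V) (b : P) (C : ℕ)
    (hdisj : ∀ j j', j ≠ j' → Disjoint (A j) (A j'))
    (hb : ∀ j, b ∉ A j) (hC : ∀ j, (A j).card ≤ C) (J : Finset κ)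
    (B : Finset (P → V)) (hB : ∀ F, F ∈ B ↔ ∀ j ∈ J, ¬ Sat A dem b F j) :
    B.card * (Fintype.card V ^ C) ^ J.card
      ≤ Fintype.card (P → V) * (Fintype.card V ^ C - 1) ^ J.card := by
  classical
  induction J using Finset.induction_on generalizing B with
  | empty =>
      simp only [Finset.card_empty, pow_zero, mul_one]
      exact Finset.card_le_univ _
  | insert j J hj ih =>
      set B0 : Finset (P → V) := Finset.univ.filter (fun F => ∀ j ∈ J, ¬ Sat A dem b F j)
        with hB0
      have h0 := ih B0 (fun F => by simp [hB0])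
      have hstep := card_step A dem b C j (hb j) (hC j) B0 (by
        intro F hF
        rw [hB0, Finset.mem_filter] at hF ⊢
        refine ⟨Finset.mem_univ _, fun j' hj' hs => hF.2 j' hj' ?_⟩
        have hne : j ≠ j' := fun h => hj (h ▸ hj')
        exact (fix_sat_iff (hb j) (hdisj j j' hne) F).1 hs) B (by
        intro F
        rw [hB, hB0, Finset.mem_filter]
        constructor
        · intro h
          exact ⟨⟨Finset.mem_univ _, fun j' hj' => h j' (Finset.mem_insert_of_mem hj')⟩,
            h j (Finset.mem_insert_self _ _)⟩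
        · rintro ⟨⟨_, h1⟩, h2⟩ j' hj'
          rcases Finset.mem_insert.1 hj' with rfl | h
          · exact h2
          · exact h1 j' h)
      rw [Finset.card_insert_of_notMem hj, pow_succ, pow_succ]
      calc B.card * ((Fintype.card V ^ C) ^ J.card * Fintype.card V ^ C)
          = (B.card * Fintype.card V ^ C) * (Fintype.card V ^ C) ^ J.card := by ring
        _ ≤ (B0.card * (Fintype.card V ^ C - 1)) * (Fintype.card V ^ C) ^ J.card :=
            Nat.mul_le_mul_right _ hstep
        _ = (B0.card * (Fintype.card V ^ C) ^ J.card) * (Fintype.card V ^ C - 1) := by ring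
        _ ≤ (Fintype.card (P → V) * (Fintype.card V ^ C - 1) ^ J.card)
              * (Fintype.card V ^ C - 1) := Nat.mul_le_mul_right _ h0
        _ = _ := by ring

/-- **Counting lemma.** -/
theorem exists_fun [Fintype P] [DecidableEq P] [Fintype V] [DecidableEq V] [Nonempty V]
    [Fintype ι] (m C : ℕ)
    (A : ι → Fin m → Finset P) (dem : ι → Fin m → V → P → V) (b : ι → P)
    (hdisj : ∀ i j j', j ≠ j' → Disjoint (A i j) (A i j'))
    (hb : ∀ i j, b i ∉ A i j) (hC : ∀ i j, (A i j).card ≤ C)
    (hcount : Fintype.card ι * (Fintype.card V ^ C - 1) ^ m < (Fintype.card V ^ C) ^ m) :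
    ∃ F : P → V, ∀ i, ∃ j, Sat (A i) (dem i) (b i) F j := by
  classical
  by_contra hcon
  push Not at hcon
  set N := Fintype.card V ^ C with hN
  have hNpos : 0 < N := pow_pos Fintype.card_pos _
  let Bad : ι → Finset (P → V) := fun i =>
    Finset.univ.filter (fun F => ∀ j ∈ (Finset.univ : Finset (Fin m)),
      ¬ Sat (A i) (dem i) (b i) F j)
  have hbad : ∀ i, (Bad i).card * N ^ m ≤ Fintype.card (P → V) * (N - 1) ^ m := by
    intro i
    have := card_bad (A i) (dem i) (b i) C (hdisj i) (hb i) (hC i) Finset.univ (Bad i)
      (fun F => by simp [Bad])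
    simpa using this
  have hcover : (Finset.univ : Finset (P → V)) ⊆ Finset.univ.biUnion Bad := by
    intro F _
    obtain ⟨i, hi⟩ := hcon F
    exact Finset.mem_biUnion.2 ⟨i, Finset.mem_univ _, by simpa [Bad] using hi⟩
  have h1 : Fintype.card (P → V) ≤ ∑ i, (Bad i).card := by
    calc Fintype.card (P → V) = (Finset.univ : Finset (P → V)).card := rfl
      _ ≤ (Finset.univ.biUnion Bad).card := Finset.card_le_card hcover
      _ ≤ ∑ i, (Bad i).card := Finset.card_biUnion_le
  have h2 : (∑ i, (Bad i).card) * N ^ m
      ≤ Fintype.card ι * (Fintype.card (P → V) * (N - 1) ^ m) := by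
    rw [Finset.sum_mul]
    calc ∑ i, (Bad i).card * N ^ m ≤ ∑ _i : ι, Fintype.card (P → V) * (N - 1) ^ m :=
          Finset.sum_le_sum (fun i _ => hbad i)
      _ = Fintype.card ι * (Fintype.card (P → V) * (N - 1) ^ m) := by
          rw [Finset.sum_const, Finset.card_univ, smul_eq_mul]
  have hT : 0 < Fintype.card (P → V) := Fintype.card_pos
  have h3 : Fintype.card (P → V) * N ^ m
      ≤ Fintype.card (P → V) * (Fintype.card ι * (N - 1) ^ m) := by
    calc Fintype.card (P → V) * N ^ m ≤ (∑ i, (Bad i).card) * N ^ m :=
          Nat.mul_le_mul_right _ h1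
      _ ≤ Fintype.card ι * (Fintype.card (P → V) * (N - 1) ^ m) := h2
      _ = _ := by ring
  have h4 := Nat.le_of_mul_le_mul_left h3 hT
  omega

end Crest.Agent.R320.Cnt693
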