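import Mathlib

/-!
# Row 320: spoil count of the promise ruler for the natural chain rule (helper8)
-/

set_option autoImplicit false

namespace Crest.Agent.R320.Cnt_8

open Finset

open Classical in
theorem count (G Bad : ℕ → Prop) (K N1 C0 Wg p0 z1 t b : ℕ) (c : ℕ → ℕ)
    (hc : ∀ k < K, c k ≤ p0)
    (hgap : ∀ x y, x < y → y ≤ b → G x → G y → x + Wg < y)
    (hWg : 2 * p0 + 2 * N1 ≤ Wg)
    (htG : G t) (ht1 : p0 + z1 ≤ t) (htmin : ∀ x, p0 + z1 ≤ x → x < t → ¬ G x)
    (htb : t < b) (hbG : G b) (hbmin : ∀ x, t < x → x < b → ¬ G x)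
    (hz1 : 2 * p0 ≤ z1)
    (hruler : ∀ k < K, ∀ k' < K, ∀ l < K, ∀ l' < K, k' ≠ k → l' ≠ l →
      c k + c l' ≤ c l + c k' + 2 * N1 → c l + c k' ≤ c k + c l' + 2 * N1 → k = l)
    (hthin : ∀ T, (∀ k < K, c k ≤ T) →
      ((range K).filter (fun k => ∃ k' < K, k' ≠ k ∧ Bad (T + c k' - c k))).card ≤ C0) :
    ∃ J : Finset ℕ, J.card ≤ 3 * C0 + 1 ∧ ∀ k < K, ∀ k' < K, k' ≠ k →
      ∃ s, z1 ≤ s ∧ p0 + c k - c k' + s ≤ b ∧ G (p0 + c k - c k' + s) ∧
        (∀ s', z1 ≤ s' → s' < s → ¬ G (p0 + c k - c k' + s')) ∧
        (k ∉ J → ¬ ((∃ s', z1 ≤ s' + N1 ∧ s' ≤ z1 + N1 ∧ s' ≤ s ∧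
          G (p0 + c k - c k' + s')) ∨ Bad s)) := by
  -- the previous wall
  obtain ⟨xp, hxp⟩ : ∃ xp, ∀ x, G x → p0 + z1 ≤ x + p0 → x < p0 + z1 → x = xp := by
    by_cases h : ∃ x, G x ∧ p0 + z1 ≤ x + p0 ∧ x < p0 + z1
    · obtain ⟨x, h1, h2, h3⟩ := h
      refine ⟨x, fun y h4 h5 h6 => ?_⟩
      rcases lt_trichotomy y x with hl | hl | hl
      · have := hgap y x hl (by omega) h4 h1
        omega
      · exact hl
      · have := hgap x y hl (by omega) h1 h4
        omega
    · push Not at h
      refine ⟨0, fun y h4 h5 h6 => ?_⟩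
      have := h y h4 h5
      omega
  let B : ℕ → Finset ℕ := fun x =>
    (range K).filter (fun k => ∃ k' < K, k' ≠ k ∧ Bad (x - p0 + c k' - c k))
  have hB : ∀ x, p0 + p0 ≤ x → (B x).card ≤ C0 := fun x hx =>
    hthin (x - p0) (fun k hk => by have := hc k hk; omega)
  let E : Finset ℕ := (range K).filter (fun k => ∃ k' < K, k' ≠ k ∧
    ∃ s', z1 ≤ s' + N1 ∧ s' ≤ z1 + N1 ∧ p0 + c k - c k' + s' ≤ b ∧ G (p0 + c k - c k' + s'))
  have hE : E.card ≤ 1 := by
    rw [Finset.card_le_one]
    intro k hk l hl
    simp only [E, mem_filter, mem_range] at hk hl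
    obtain ⟨hk1, k', hk', hne, s, h1, h2, h3, h4⟩ := hk
    obtain ⟨hl1, l', hl', hne', r, h5, h6, h7, h8⟩ := hl
    have a1 := hc k hk1
    have a2 := hc k' hk'
    have a3 := hc l hl1
    have a4 := hc l' hl'
    have hxy : p0 + c k - c k' + s = p0 + c l - c l' + r := by
      rcases lt_trichotomy (p0 + c k - c k' + s) (p0 + c l - c l' + r) with hlt | hlt | hlt
      · have := hgap _ _ hlt h7 h4 h8
        omega
      · exact hlt
      · have := hgap _ _ hlt h3 h8 h4
        omega
    exact hruler k hk1 k' hk' l hl1 l' hl' hne hne' (by omega) (by omega)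
  have hbt := hgap t b htb le_rfl htG hbG
  by_cases hxpr : p0 + p0 ≤ xp
  · refine ⟨E ∪ (B xp ∪ (B t ∪ B b)), ?_, ?_⟩
    · have h1 := card_union_le E (B xp ∪ (B t ∪ B b))
      have h2 := card_union_le (B xp) (B t ∪ B b)
      have h3 := card_union_le (B t) (B b)
      have h4 := hB xp hxpr
      have h5 := hB t (by omega)
      have h6 := hB b (by omega)
      omega
    · intro k hk k' hk' hne
      have a1 := hc k hk
      have a2 := hc k' hk'
      have hex : ∃ s, z1 ≤ s ∧ p0 + c k - c k' + s ≤ b ∧ G (p0 + c k - c k' + s) := by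
        refine ⟨b - (p0 + c k - c k'), by omega, by omega, ?_⟩
        have : p0 + c k - c k' + (b - (p0 + c k - c k')) = b := by omega
        rw [this]; exact hbG
      obtain ⟨g1, g2, g3⟩ := Nat.find_spec hex
      have gmin : ∀ s', z1 ≤ s' → s' < Nat.find hex → ¬ G (p0 + c k - c k' + s') := by
        intro s' h1 h2 h3
        exact Nat.find_min hex h2 ⟨h1, by omega, h3⟩
      generalize hs : Nat.find hex = s at *
      refine ⟨s, g1, g2, g3, gmin, ?_⟩
      intro hkJ hcon
      apply hkJ
      rcases hcon with ⟨s', h1, h2, h3, h4⟩ | hbad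
      · apply mem_union_left
        simp only [E, mem_filter, mem_range]
        exact ⟨hk, k', hk', hne, s', h1, h2, by omega, h4⟩
      · apply mem_union_right
        have key : ∀ x, x = p0 + c k - c k' + s → k ∈ B x := by
          intro x hx
          simp only [B, mem_filter, mem_range]
          refine ⟨hk, k', hk', hne, ?_⟩
          have : x - p0 + c k' - c k = s := by omega
          rw [this]; exact hbad
        by_cases hx : p0 + c k - c k' + s < p0 + z1
        · have := hxp _ g3 (by omega) hx
          exact mem_union_left _ (key xp this.symm)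
        · apply mem_union_right
          rcases lt_trichotomy (p0 + c k - c k' + s) t with hl | hl | hl
          · exact absurd g3 (htmin _ (by omega) hl)
          · exact mem_union_left _ (key t hl.symm)
          · have : p0 + c k - c k' + s = b := by
              by_contra hnb
              exact hbmin _ hl (by omega) g3
            exact mem_union_right _ (key b this.symm)
  · refine ⟨E ∪ (B t ∪ B b), ?_, ?_⟩
    · have h1 := card_union_le E (B t ∪ B b)
      have h3 := card_union_le (B t) (B b)
      have h5 := hB t (by omega)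
      have h6 := hB b (by omega)
      omega
    · intro k hk k' hk' hne
      have a1 := hc k hk
      have a2 := hc k' hk'
      have hex : ∃ s, z1 ≤ s ∧ p0 + c k - c k' + s ≤ b ∧ G (p0 + c k - c k' + s) := by
        refine ⟨b - (p0 + c k - c k'), by omega, by omega, ?_⟩
        have : p0 + c k - c k' + (b - (p0 + c k - c k')) = b := by omega
        rw [this]; exact hbG
      obtain ⟨g1, g2, g3⟩ := Nat.find_spec hex
      have gmin : ∀ s', z1 ≤ s' → s' < Nat.find hex → ¬ G (p0 + c k - c k' + s') := by
        intro s' h1 h2 h3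
        exact Nat.find_min hex h2 ⟨h1, by omega, h3⟩
      generalize hs : Nat.find hex = s at *
      refine ⟨s, g1, g2, g3, gmin, ?_⟩
      intro hkJ hcon
      apply hkJ
      rcases hcon with ⟨s', h1, h2, h3, h4⟩ | hbad
      · apply mem_union_left
        simp only [E, mem_filter, mem_range]
        exact ⟨hk, k', hk', hne, s', h1, h2, by omega, h4⟩
      · apply mem_union_right
        have key : ∀ x, x = p0 + c k - c k' + s → k ∈ B x := by
          intro x hx
          simp only [B, mem_filter, mem_range]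
          refine ⟨hk, k', hk', hne, ?_⟩
          have : x - p0 + c k' - c k = s := by omega
          rw [this]; exact hbad
        by_cases hx : p0 + c k - c k' + s < p0 + z1
        · have := hxp _ g3 (by omega) hx
          omega
        · rcases lt_trichotomy (p0 + c k - c k' + s) t with hl | hl | hl
          · exact absurd g3 (htmin _ (by omega) hl)
          · exact mem_union_left _ (key t hl.symm)
          · have : p0 + c k - c k' + s = b := by
              by_contra hnb
              exact hbmin _ hl (by omega) g3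
            exact mem_union_right _ (key b this.symm)

end Crest.Agent.R320.Cnt_8
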