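import Crest.Agent.R320.Chain_297

/-!
# Row 320, completeness of scheme 2 from the ruler (helper297)
-/

set_option autoImplicit false

namespace Crest.Agent.R320.Chain_297

open Crest.Agent.R320.Level_297

universe u

variable {α : Type u} {S V : Type} [Monoid S] [Add V]

namespace Dat

variable (D : Dat α S V)

/-- places `k` from which another candidate `j` looks bad -/
def Sp (Q : List α) (k : ℕ) : Prop := ∃ j, j < D.K ∧ j ≠ k ∧ ∃ t', D.FW (Q.drop (D.c k))
  (D.z - D.c j) t' ∧ D.BadAt (Q.drop (D.c k)) j t'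

theorem co2_of (C0 : ℕ) (hW : 2 * D.p0 + 2 * D.N ≤ D.W) (hz : 3 * D.p0 + 2 * D.N ≤ D.z)
    (hE : ∀ x : ℤ, ∀ k j k' j', k < D.K → j < D.K → k' < D.K → j' < D.K → j ≠ k → j' ≠ k' →
      |x - ((D.c k : ℤ) - D.c j)| ≤ D.N → |x - ((D.c k' : ℤ) - D.c j')| ≤ D.N → k = k')
    (hB : ∀ T : ℕ, D.p0 ≤ T → ∃ B : Finset ℕ, B.card ≤ C0 ∧ ∀ k j, k < D.K → j < D.K → j ≠ k →
      D.Bad (T + D.c j - D.c k) → k ∈ B)
    (hm : ∀ u : List α, u.length = D.p0 → ∀ v, ∃ I : Finset ℕ, 2 * C0 + 2 ≤ I.card ∧
      ∀ k ∈ I, k < D.K ∧ D.lam2 (u.take (D.c k)) = some v ∧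
        (D.rho2 (u.drop (D.c k))).isSome) : D.Co2 := by
  classical
  intro Q t l h1 h2 _ v
  have hvis := h2.vis
  have htl := h2.1
  have hzt := h1.1
  have hXl : (Q.take D.p0).length = D.p0 := by
    rw [List.length_take]
    omega
  obtain ⟨I, hI, hIk⟩ := hm (Q.take D.p0) hXl v
  -- the walls
  obtain ⟨y0, hy0, hy0t⟩ := D.exists_FW (Q := Q) (s := D.z - D.p0 - D.N) (t := t) (by omega) h1.2.1
  have hgap : ∀ y y', D.R (Q.drop y) → y < y' → D.R (Q.drop y') → D.W < y' - y := by
    intro y y' hy hlt hy'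
    by_contra hle
    have := D.gap (Q.drop y) (y' - y) hy (by omega) (by omega)
    rw [List.drop_drop, show y + (y' - y) = y' by omega] at this
    exact this hy'
  obtain ⟨y1, hy1, hy1l⟩ := D.exists_FW (Q := Q) (s := y0 + 1) (t := l) (by omega) h2.2.1
  have hy01 := hgap y0 y1 hy0.2.1 (by have := hy1.1; omega) hy1.2.1
  have hy0g := hy0.1
  obtain ⟨B0, hB0, hB0'⟩ := hB (y0 - D.p0) (by omega)
  obtain ⟨B1, hB1, hB1'⟩ := hB (y1 - D.p0) (by omega)
  -- spoiled places
  let E0 : Finset ℕ := (Finset.range D.K).filter fun k => ∃ j, j < D.K ∧ j ≠ k ∧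
    |((y0 : ℤ) - D.z) - ((D.c k : ℤ) - D.c j)| ≤ D.N
  have hE0 : E0.card ≤ 1 := by
    rw [Finset.card_le_one]
    intro k hk k' hk'
    simp only [E0, Finset.mem_filter, Finset.mem_range] at hk hk'
    obtain ⟨hk, j, hj, hjk, e⟩ := hk
    obtain ⟨hk', j', hj', hjk', e'⟩ := hk'
    exact hE _ k j k' j' hk hj hk' hj' hjk hjk' e e'
  have hsp : ∀ k, k < D.K → D.Sp Q k → k ∈ E0 ∪ B0 ∪ B1 := by
    rintro k hk ⟨j, hj, hjk, t', ht', hbad⟩
    have hck := D.cp k hk
    have hcj := D.cp j hj
    have hPl : (Q.take (D.c k)).length = D.c k := by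
      rw [List.length_take]
      omega
    have eQ : Q = Q.take (D.c k) ++ Q.drop (D.c k) := (List.take_append_drop _ _).symm
    have hRk : ∀ i, D.R ((Q.drop (D.c k)).drop i) ↔ D.R (Q.drop (D.c k + i)) := by
      intro i
      rw [List.drop_drop]
    -- first wall of Q at or after z + c k - c j
    have hF : D.FW Q (D.c k + (D.z - D.c j)) (D.c k + t') := by
      have := ht'.shift (P := Q.take (D.c k))
      rwa [← eQ, hPl] at this
    have hcase : D.c k + t' = y0 ∨ D.c k + t' = y1 := by
      by_cases hle : D.c k + (D.z - D.c j) ≤ y0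
      · left
        refine hF.uniq ⟨hle, hy0.2.1, ?_⟩
        intro i hi1 hi2
        exact hy0.2.2 i (by omega) hi2
      · right
        refine hF.uniq ⟨by omega, hy1.2.1, ?_⟩
        intro i hi1 hi2
        exact hy1.2.2 i (by omega) hi2
    simp only [Finset.mem_union]
    rcases hbad with hb | ⟨i, hi1, hi2, hi3⟩ | hb
    · left; left
      simp only [E0, Finset.mem_filter, Finset.mem_range]
      refine ⟨hk, j, hj, hjk, ?_⟩
      have hF1 := hF.1
      rcases hcase with hc | hc
      · rw [abs_le]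
        constructor <;> omega
      · exfalso
        omega
    · left; left
      simp only [E0, Finset.mem_filter, Finset.mem_range]
      refine ⟨hk, j, hj, hjk, ?_⟩
      rw [hRk] at hi3
      have hy : D.c k + i = y0 := by
        by_contra hne
        have hge : y0 < D.c k + i := by
          by_contra hlt
          exact hy0.2.2 (D.c k + i) (by omega) (by omega) hi3
        have := hgap y0 _ hy0.2.1 hge hi3
        omega
      rw [abs_le]
      constructor <;> omega
    · rcases hcase with hc | hc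
      · left; right
        refine hB0' k j hk hj hjk ?_
        have e : y0 - D.p0 + D.c j - D.c k = t' + D.c j - D.p0 := by omega
        rw [e]
        exact hb
      · right
        refine hB1' k j hk hj hjk ?_
        have e : y1 - D.p0 + D.c j - D.c k = t' + D.c j - D.p0 := by omega
        rw [e]
        exact hb
  have hcard : (E0 ∪ B0 ∪ B1).card < I.card := by
    have a1 := Finset.card_union_le (E0 ∪ B0) B1
    have a2 := Finset.card_union_le E0 B0
    omega
  obtain ⟨k, hkI, hkn⟩ := Finset.exists_mem_notMem_of_card_lt_card hcard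
  obtain ⟨hk, hl1, hr1⟩ := hIk k hkI
  have hck := D.cp k hk
  refine ⟨k, hk, ?_, hr1, ?_⟩
  · rw [List.take_take, min_eq_left hck] at hl1
    exact hl1
  · intro j hj hjk t' ht' hbad
    exact hkn (hsp k hk ⟨j, hj, hjk, t', ht', hbad⟩)

end Dat

end Crest.Agent.R320.Chain_297
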