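import Crest.Agent.R320.Hk2_851

/-!
# Row 320: the step theorem over a prefix code of zones (helper110)

`Z` a prefix code, `τ u : Ω → Ω` the zone maps, `Run Z τ x w y` the thread along `w ∈ Z*`.
`step` : a weakly sound scheme (sound only inside `Z*`, no first-failure argument: `Z*` itself has
height `k + 1`), complete at the zones outside `Bad`, lifts `HL k` of the `Bad`-threads to
`HL (k + 1)` of all threads.  `Rsem` : right labels defined semantically from FINITE left label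
languages; soundness is automatic and the height is that of the zone languages.
-/

set_option autoImplicit false

namespace Crest.Agent.R320.Code110

open Crest.Agent.R320.Hk_851

universe u v

variable {α : Type u} {Ω : Type v} {k : ℕ}

/-- the thread along a product of zones -/
inductive Run (Z : Language α) (τ : List α → Ω → Ω) : Ω → List α → Ω → Prop
  | nil (x : Ω) : Run Z τ x [] x
  | cons {x y : Ω} {u w : List α} : u ∈ Z → Run Z τ (τ u x) w y → Run Z τ x (u ++ w) y

/-- prefix code -/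
structure PC (Z : Language α) : Prop where
  ne : [] ∉ Z
  pf : ∀ u ∈ Z, ∀ v ∈ Z, u <+: v → u = v

variable {Z Bad : Language α} {τ : List α → Ω → Ω}

theorem Run.append {x y z : Ω} {w w' : List α} (h : Run Z τ x w y) (h' : Run Z τ y w' z) :
    Run Z τ x (w ++ w') z := by
  induction h with
  | nil => exact h'
  | cons hu _ ih => rw [List.append_assoc]; exact Run.cons hu (ih h')

theorem Run.mono (hB : ∀ u ∈ Bad, u ∈ Z) {x y : Ω} {w : List α} (h : Run Bad τ x w y) :
    Run Z τ x w y := by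
  induction h with
  | nil => exact Run.nil _
  | cons hu _ ih => exact Run.cons (hB _ hu) ih

theorem Run.single {x : Ω} {u : List α} (hu : u ∈ Z) : Run Z τ x u (τ u x) := by
  have := Run.cons hu (Run.nil (Z := Z) (τ := τ) (τ u x))
  simpa using this

theorem Run.mem_star {x y : Ω} {w : List α} (h : Run Z τ x w y) : w ∈ KStar.kstar Z := by
  rw [Language.mem_kstar]
  induction h with
  | nil => exact ⟨[], rfl, by simp⟩
  | cons hu _ ih =>
    obtain ⟨S, h1, h2⟩ := ih
    refine ⟨_ :: S, by rw [List.flatten_cons, h1], ?_⟩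
    intro y hy
    rcases List.mem_cons.1 hy with rfl | hy
    · exact hu
    · exact h2 y hy

theorem exists_run_flatten (S : List (List α)) (h : ∀ u ∈ S, u ∈ Z) :
    ∀ x : Ω, ∃ y, Run Z τ x S.flatten y := by
  induction S with
  | nil => intro x; exact ⟨x, Run.nil x⟩
  | cons u S ih =>
    intro x
    obtain ⟨y, hy⟩ := ih (fun v hv => h v (List.mem_cons_of_mem _ hv)) (τ u x)
    exact ⟨y, by rw [List.flatten_cons]; exact Run.cons (h u (List.mem_cons_self ..)) hy⟩

theorem exists_run {w : List α} (h : w ∈ KStar.kstar Z) (x : Ω) : ∃ y, Run Z τ x w y := by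
  rw [Language.mem_kstar] at h
  obtain ⟨S, rfl, h2⟩ := h
  exact exists_run_flatten S h2 x

theorem PC.eq_of_append (hZ : PC Z) {u v a b : List α} (hu : u ∈ Z) (hv : v ∈ Z)
    (h : u ++ a = v ++ b) : u = v ∧ a = b := by
  have h1 : u <+: v ++ b := ⟨a, h⟩
  have h2 : v <+: v ++ b := ⟨b, rfl⟩
  have h3 : u = v := by
    rcases List.prefix_or_prefix_of_prefix h1 h2 with h | h
    · exact hZ.pf u hu v hv h
    · exact (hZ.pf v hv u hu h).symm
  subst h3
  exact ⟨rfl, List.append_cancel_left h⟩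

/-- left cancellation of a run -/
theorem Run.cancel (hZ : PC Z) {x y z : Ω} {w w' : List α} (h : Run Z τ x w y)
    (h' : Run Z τ x (w ++ w') z) : Run Z τ y w' z := by
  induction h with
  | nil => exact h'
  | @cons x y u w hu _ ih =>
    rw [List.append_assoc] at h'
    generalize hs : u ++ (w ++ w') = s at h'
    cases h' with
    | nil =>
      exfalso
      have : u = [] := (List.append_eq_nil_iff.1 hs).1
      exact hZ.ne (this ▸ hu)
    | @cons _ _ u' s' hu' hr =>
      obtain ⟨e1, e2⟩ := hZ.eq_of_append hu hu' hs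
      subst e1
      subst e2
      exact ih hr

theorem Run.det (hZ : PC Z) {x y z : Ω} {w : List α} (h : Run Z τ x w y)
    (h' : Run Z τ x w z) : y = z := by
  have h2 : Run Z τ x (w ++ []) z := by simpa using h'
  have h3 := h.cancel hZ h2
  generalize hs : ([] : List α) = s at h3
  cases h3 with
  | nil => rfl
  | @cons _ _ u' s' hu' hr =>
    exfalso
    have : u' = [] := (List.append_eq_nil_iff.1 hs.symm).1
    exact hZ.ne (this ▸ hu')

/-- zones moving `x` to `y` -/
def ZT (Z : Language α) (τ : List α → Ω → Ω) (x y : Ω) : Language α := {u | u ∈ Z ∧ τ u x = y}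

/-- words whose thread moves `x` to `y` -/
def RB (Z : Language α) (τ : List α → Ω → Ω) (x y : Ω) : Language α := {w | Run Z τ x w y}

/-- words of at most `n` zones -/
def Short (Z : Language α) (τ : List α → Ω → Ω) : ℕ → Ω → Ω → Language α
  | 0, x, y => {w | w = [] ∧ x = y}
  | n + 1, x, y => {w | (w = [] ∧ x = y) ∨ ∃ x', w ∈ ZT Z τ x x' * Short Z τ n x' y}

theorem Short.run {n : ℕ} : ∀ {x y : Ω} {w : List α}, w ∈ Short Z τ n x y → Run Z τ x w y := by
  induction n with
  | zero => rintro x y w ⟨rfl, rfl⟩; exact Run.nil x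
  | succ n ih =>
    intro x y w hw
    rcases hw with ⟨rfl, rfl⟩ | ⟨x', hw⟩
    · exact Run.nil x
    · obtain ⟨u, ⟨hu, hx⟩, w', hw', rfl⟩ := Language.mem_mul.1 hw
      subst hx
      exact Run.cons hu (ih hw')

theorem Short.mono_succ {n : ℕ} : ∀ {x y : Ω} {w : List α}, w ∈ Short Z τ n x y →
    w ∈ Short Z τ (n + 1) x y := by
  induction n with
  | zero => rintro x y w ⟨rfl, rfl⟩; exact Or.inl ⟨rfl, rfl⟩
  | succ n ih =>
    intro x y w hw
    rcases hw with h | ⟨x', hw⟩
    · exact Or.inl h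
    · obtain ⟨u, hu, w', hw', rfl⟩ := Language.mem_mul.1 hw
      exact Or.inr ⟨x', Language.mem_mul.2 ⟨u, hu, w', ih hw', rfl⟩⟩

theorem HLempty_eq (x y : Ω) : HL k ({w | w = [] ∧ x = y} : Language α) := by
  by_cases h : x = y
  · refine HL.one.congr fun w => ?_
    exact ⟨fun hw => hw.1, fun hw => ⟨hw, h⟩⟩
  · exact HL.zero.congr fun w => ⟨fun hw => (h hw.2).elim, fun hw => hw.elim⟩

theorem Short.hl [Finite Ω] (hτ : ∀ x y, HL k (ZT Z τ x y)) (n : ℕ) :
    ∀ x y, HL k (Short Z τ n x y) := by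
  induction n with
  | zero => intro x y; exact HLempty_eq x y
  | succ n ih =>
    intro x y
    exact HL.setOf_or (HLempty_eq x y) (HL.iUnion fun x' => (hτ x x').mul (ih x' y))

/-- a run of fewer than `n` zones is `Short`, otherwise it starts with `n` zones -/
theorem Run.short_or {n : ℕ} : ∀ {x y : Ω} {w : List α}, Run Z τ x w y →
    w ∈ Short Z τ n x y ∨ ∃ t w' x', w = t ++ w' ∧ t ∈ Z ^ n ∧ Run Z τ x t x' ∧
      Run Z τ x' w' y := by
  induction n with
  | zero =>
    intro x y w h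
    exact Or.inr ⟨[], w, x, rfl, by simp, Run.nil x, h⟩
  | succ n ih =>
    intro x y w h
    cases h with
    | nil => exact Or.inl (Or.inl ⟨rfl, rfl⟩)
    | @cons _ _ u w hu hr =>
      rcases ih hr with h | ⟨t, w', x', rfl, ht, h1, h2⟩
      · exact Or.inl (Or.inr ⟨_, Language.mem_mul.2 ⟨u, ⟨hu, rfl⟩, w, h, rfl⟩⟩)
      · refine Or.inr ⟨u ++ t, w', x', by simp, ?_, Run.cons hu h1, h2⟩
        rw [pow_succ']
        exact Language.mem_mul.2 ⟨u, hu, t, ht, rfl⟩

/-- a scheme over the zones -/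
structure Sch (Z Bad : Language α) (τ : List α → Ω → Ω) (N : ℕ) (L R : Ω → Language α) :
    Prop where
  sound : ∀ x y p q r, p ∈ L x → q ∈ R y → p ++ (q ++ r) ∈ KStar.kstar Z →
    Run Z τ x (p ++ q) y
  complete : ∀ u ∈ Z, u ∉ Bad → ∀ x, ∀ t ∈ Z ^ N, ∃ p q y, u ++ t = p ++ q ∧ p ∈ L x ∧ q ∈ R y

section step
variable {N M : ℕ} {L R : Ω → Language α}

/-- `Bad`-run followed by at most `N + 1` zones -/
def EE (Z Bad : Language α) (τ : List α → Ω → Ω) (N : ℕ) (x y : Ω) : Language α :=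
  {w | ∃ x', w ∈ RB Bad τ x x' * Short Z τ N x' y}

/-- cut to cut -/
def KK (Bad : Language α) (τ : List α → Ω → Ω) (L R : Ω → Language α) : Language α :=
  {w | ∃ q : Ω × Ω, w ∈ R q.1 * RB Bad τ q.1 q.2 * L q.2}

theorem EE.run (hB : ∀ u ∈ Bad, u ∈ Z) {x y : Ω} {w : List α} (h : w ∈ EE Z Bad τ M x y) :
    Run Z τ x w y := by
  obtain ⟨x', hw⟩ := h
  obtain ⟨a, ha, b, hb, rfl⟩ := Language.mem_mul.1 hw
  exact (Run.mono hB ha).append (Short.run hb)

theorem sound_aux (hZ : PC Z) (hB : ∀ u ∈ Bad, u ∈ Z) (hS : Sch Z Bad τ N L R)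
    {y' y : Ω} {r e : List α} (hr : r ∈ R y') (he : e ∈ EE Z Bad τ M y' y) :
    ∀ (ks : List (List α)), (∀ w ∈ ks, w ∈ KK Bad τ L R) → ∀ (x' : Ω) (l : List α), l ∈ L x' →
      l ++ (ks.flatten ++ (r ++ e)) ∈ KStar.kstar Z →
      Run Z τ x' (l ++ (ks.flatten ++ (r ++ e))) y := by
  intro ks
  induction ks with
  | nil =>
    intro _ x' l hl hst
    simp only [List.flatten_nil, List.nil_append] at hst ⊢
    have h1 := hS.sound x' y' l r e hl hr hst
    have := h1.append (EE.run hB he)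
    simpa [List.append_assoc] using this
  | cons w ks ih =>
    intro hks x' l hl hst
    obtain ⟨⟨y1, x1⟩, hw⟩ := hks w (List.mem_cons_self ..)
    obtain ⟨rb, hrb, l1, hl1, rfl⟩ := Language.mem_mul.1 hw
    obtain ⟨r1, hr1, b1, hb1, rfl⟩ := Language.mem_mul.1 hrb
    have e1 : l ++ (((r1 ++ b1 ++ l1) :: ks).flatten ++ (r ++ e)) =
        l ++ (r1 ++ (b1 ++ (l1 ++ (ks.flatten ++ (r ++ e))))) := by
      simp [List.append_assoc]
    rw [e1] at hst ⊢
    have h1 := hS.sound x' y1 l r1 _ hl hr1 hst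
    have h2 : Run Z τ x' ((l ++ r1) ++ b1) x1 := h1.append (Run.mono hB hb1)
    obtain ⟨z, hz⟩ := exists_run (τ := τ) hst x'
    have e2 : l ++ (r1 ++ (b1 ++ (l1 ++ (ks.flatten ++ (r ++ e))))) =
        ((l ++ r1) ++ b1) ++ (l1 ++ (ks.flatten ++ (r ++ e))) := by
      simp [List.append_assoc]
    rw [e2] at hz ⊢
    have h3 := h2.cancel hZ hz
    exact h2.append (ih (fun w hw => hks w (List.mem_cons_of_mem _ hw)) x1 l1 hl1 h3.mem_star)

/-- the cut words -/
def TT (Z Bad : Language α) (τ : List α → Ω → Ω) (N : ℕ) (L R : Ω → Language α) (x y : Ω) :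
    Language α :=
  {w | ∃ q : Ω × Ω, w ∈ RB Bad τ x q.1 * (L q.1 *
    (KStar.kstar (KK Bad τ L R) * (R q.2 * EE Z Bad τ N q.2 y)))}

theorem TT.run (hZ : PC Z) (hB : ∀ u ∈ Bad, u ∈ Z) (hS : Sch Z Bad τ N L R) {x y : Ω}
    {w : List α} (h : w ∈ TT Z Bad τ M L R x y) (hst : w ∈ KStar.kstar Z) : Run Z τ x w y := by
  obtain ⟨⟨x', y'⟩, hw⟩ := h
  obtain ⟨b, hb, w1, hw1, rfl⟩ := Language.mem_mul.1 hw
  obtain ⟨l, hl, w2, hw2, rfl⟩ := Language.mem_mul.1 hw1
  obtain ⟨ks, hks, w3, hw3, rfl⟩ := Language.mem_mul.1 hw2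
  obtain ⟨r, hr, e, he, rfl⟩ := Language.mem_mul.1 hw3
  rw [Language.mem_kstar] at hks
  obtain ⟨S, rfl, hS2⟩ := hks
  have hb' : Run Z τ x b x' := Run.mono hB hb
  obtain ⟨z, hz⟩ := exists_run (τ := τ) hst x
  have h3 := hb'.cancel hZ hz
  exact hb'.append (sound_aux hZ hB hS hr he S hS2 x' l hl h3.mem_star)

theorem complete_aux (hZ : PC Z) (hS : Sch Z Bad τ N L R) :
    ∀ (m : ℕ) (w : List α), w.length ≤ m → ∀ (x0 x y : Ω) (b : List α), Run Bad τ x0 b x →
      Run Z τ x w y → (b ++ w) ∈ EE Z Bad τ (N + 1) x0 y ∨ (b ++ w) ∈ TT Z Bad τ (N + 1) L R x0 y := by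
  intro m
  induction m with
  | zero =>
    intro w hw x0 x y b hb h
    have : w = [] := List.length_eq_zero_iff.1 (by omega)
    subst this
    have hxy : x = y := (Run.nil (Z := Z) (τ := τ) x).det hZ h
    subst hxy
    left
    exact ⟨x, Language.mem_mul.2 ⟨b, hb, [], Or.inl ⟨rfl, rfl⟩, rfl⟩⟩
  | succ m ih =>
    intro w hw x0 x y b hb h
    cases h with
    | nil =>
      left
      exact ⟨x, Language.mem_mul.2 ⟨b, hb, [], Or.inl ⟨rfl, rfl⟩, rfl⟩⟩
    | @cons _ _ u w hu hr =>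
      have hul : 0 < u.length := by
        rcases Nat.eq_zero_or_pos u.length with h0 | h0
        · exact (hZ.ne (List.length_eq_zero_iff.1 h0 ▸ hu)).elim
        · exact h0
      by_cases hbad : u ∈ Bad
      · have h1 := ih w (by simp at hw; omega) x0 (τ u x) y (b ++ u)
          (hb.append (Run.single hbad)) hr
        rw [List.append_assoc] at h1
        exact h1
      · rcases hr.short_or (n := N) with hsh | ⟨t, w', x', rfl, ht, h1, h2⟩
        · left
          exact ⟨x, Language.mem_mul.2 ⟨b, hb, u ++ w,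
            Or.inr ⟨τ u x, Language.mem_mul.2 ⟨u, ⟨hu, rfl⟩, w, hsh, rfl⟩⟩, rfl⟩⟩
        · right
          obtain ⟨p, q, y1, e1, hp, hq⟩ := hS.complete u hu hbad x t ht
          have hrun : Run Z τ x (u ++ (t ++ w')) y := Run.cons hu hr
          have e2 : u ++ (t ++ w') = p ++ (q ++ w') := by
            rw [← List.append_assoc, e1, List.append_assoc]
          have hs1 := hS.sound x y1 p q w' hp hq (by rw [← e2]; exact hrun.mem_star)
          have hx' : Run Z τ x (p ++ q) x' := by rw [← e1]; exact Run.cons hu h1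
          have hyx : y1 = x' := hs1.det hZ hx'
          subst hyx
          have h3 := ih w' (by simp at hw; omega) y1 y1 y [] (Run.nil y1) h2
          rw [List.nil_append] at h3
          rw [e2]
          rcases h3 with h3 | ⟨⟨x2, y2⟩, h3⟩
          · refine ⟨(x, y1), Language.mem_mul.2 ⟨b, hb, _, Language.mem_mul.2 ⟨p, hp, _,
              Language.mem_mul.2 ⟨[], ?_, _, Language.mem_mul.2 ⟨q, hq, w', h3, rfl⟩, rfl⟩, rfl⟩,
              rfl⟩⟩
            exact Language.nil_mem_kstar _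
          · obtain ⟨b2, hb2, w4, hw4, rfl⟩ := Language.mem_mul.1 h3
            obtain ⟨l2, hl2, w5, hw5, rfl⟩ := Language.mem_mul.1 hw4
            obtain ⟨ks, hks, w6, hw6, rfl⟩ := Language.mem_mul.1 hw5
            refine ⟨(x, y2), Language.mem_mul.2 ⟨b, hb, _, Language.mem_mul.2 ⟨p, hp, _,
              Language.mem_mul.2 ⟨(q ++ b2 ++ l2) ++ ks, ?_, w6, hw6, rfl⟩, ?_⟩, rfl⟩⟩
            · rw [Language.mem_kstar] at hks ⊢
              obtain ⟨S, rfl, hS2⟩ := hks
              refine ⟨(q ++ b2 ++ l2) :: S, by simp, ?_⟩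
              intro z hz
              rcases List.mem_cons.1 hz with rfl | hz
              · exact ⟨(y1, x2), Language.mem_mul.2 ⟨q ++ b2, Language.mem_mul.2
                  ⟨q, hq, b2, hb2, rfl⟩, l2, hl2, rfl⟩⟩
              · exact hS2 z hz
            · simp [List.append_assoc]

/-- **THE STEP THEOREM** -/
theorem step [Finite Ω] (hZ : PC Z) (hB : ∀ u ∈ Bad, u ∈ Z)
    (hst : HL (k + 1) (KStar.kstar Z))
    (hτ : ∀ x y, HL k (ZT Z τ x y))
    (hbad : ∀ x y, HL k (RB Bad τ x y))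
    (hL : ∀ x, HL k (L x)) (hR : ∀ y, HL k (R y)) (hS : Sch Z Bad τ N L R) (x y : Ω) :
    HL (k + 1) (RB Z τ x y) := by
  have hE : ∀ x y, HL k (EE Z Bad τ (N + 1) x y) := fun x y =>
    HL.iUnion fun x' => (hbad x x').mul (Short.hl hτ (N + 1) x' y)
  have hK : HL k (KK Bad τ L R) :=
    HL.iUnion fun q : Ω × Ω => ((hR q.1).mul (hbad q.1 q.2)).mul (hL q.2)
  have hT : HL (k + 1) (TT Z Bad τ (N + 1) L R x y) :=
    HL.iUnion fun q : Ω × Ω => ((hbad x q.1).mono (Nat.le_succ k)).mul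
      (((hL q.1).mono (Nat.le_succ k)).mul (hK.star.mul
        (((hR q.2).mono (Nat.le_succ k)).mul ((hE q.2 y).mono (Nat.le_succ k)))))
  have h := (((hE x y).mono (Nat.le_succ k)).sup hT).inf hst
  refine h.congr fun w => ?_
  constructor
  · intro hw
    refine ⟨?_, Run.mem_star hw⟩
    rcases complete_aux hZ hS w.length w le_rfl x x y [] (Run.nil x) hw with h | h
    · left; rw [List.nil_append] at h; exact h
    · right; rw [List.nil_append] at h; exact h
  · rintro ⟨hw | hw, hw2⟩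
    · exact EE.run hB hw
    · exact TT.run hZ hB hS hw hw2

end step

/-! ### semantic right labels -/

section sem
variable {N : ℕ} {L : Ω → Language α} {Zb : Language α}

/-- `w` starts with at most `N` zones of `Zb` followed by a zone of `Zb` outside `Z` -/
def Off (Zb Z : Language α) : ℕ → Language α
  | 0 => {w | ∃ u ∈ Zb, u ∉ Z ∧ u <+: w}
  | n + 1 => {w | w ∈ Off Zb Z n ∨ w ∈ Zb * Off Zb Z n}

theorem Off.hl (hZb : HL k Zb) (hZ : HL k Z) (n : ℕ) : HL k (Off Zb Z n) := by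
  induction n with
  | zero =>
    refine (hZb.sdiff hZ).prefix.congr fun w => ?_
    constructor
    · rintro ⟨u, h1, h2, h3⟩; exact ⟨u, ⟨h1, h2⟩, h3⟩
    · rintro ⟨u, ⟨h1, h2⟩, h3⟩; exact ⟨u, h1, h2, h3⟩
  | succ n ih => exact HL.setOf_or ih (hZb.mul ih)

theorem star_cons_inv {w : List α} (hw : w ∈ KStar.kstar Z) :
    w = [] ∨ ∃ u v, w = u ++ v ∧ u ∈ Z ∧ v ∈ KStar.kstar Z := by
  rw [Language.mem_kstar] at hw
  obtain ⟨S, rfl, hS⟩ := hw
  cases S with
  | nil => exact Or.inl rfl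
  | cons u S =>
    refine Or.inr ⟨u, S.flatten, by simp, hS u (List.mem_cons_self ..), ?_⟩
    rw [Language.mem_kstar]
    exact ⟨S, rfl, fun y hy => hS y (List.mem_cons_of_mem _ hy)⟩

theorem Off.not_star (hZb : PC Zb) (hsub : ∀ u ∈ Z, u ∈ Zb) (n : ℕ) :
    ∀ {w r : List α}, w ∈ Off Zb Z n → w ++ r ∉ KStar.kstar Z := by
  induction n with
  | zero =>
    rintro w r ⟨u, h1, h2, t, rfl⟩ hst
    rcases star_cons_inv hst with h0 | ⟨u', v, e, hu', -⟩
    · have : u = [] := by
        have := (List.append_eq_nil_iff.1 h0).1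
        exact (List.append_eq_nil_iff.1 this).1
      exact hZb.ne (this ▸ h1)
    · rw [List.append_assoc] at e
      obtain ⟨e1, -⟩ := hZb.eq_of_append h1 (hsub _ hu') e
      exact h2 (e1 ▸ hu')
  | succ n ih =>
    intro w r hw hst
    rcases hw with hw | hw
    · exact ih hw hst
    · obtain ⟨u, hu, w', hw', rfl⟩ := Language.mem_mul.1 hw
      rcases star_cons_inv hst with h0 | ⟨u', v, e, hu', hv⟩
      · have : u = [] := by
          have := (List.append_eq_nil_iff.1 h0).1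
          exact (List.append_eq_nil_iff.1 this).1
        exact hZb.ne (this ▸ hu)
      · rw [List.append_assoc] at e
        obtain ⟨-, e2⟩ := hZb.eq_of_append hu (hsub _ hu') e
        exact ih hw' (e2 ▸ hv)

/-- exactly `n` zones -/
def Exactly (Z : Language α) (τ : List α → Ω → Ω) : ℕ → Ω → Ω → Language α
  | 0, x, y => {w | w = [] ∧ x = y}
  | n + 1, x, y => {w | ∃ x', w ∈ ZT Z τ x x' * Exactly Z τ n x' y}

theorem Exactly.run {n : ℕ} : ∀ {x y : Ω} {w : List α}, w ∈ Exactly Z τ n x y →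
    Run Z τ x w y := by
  induction n with
  | zero => rintro x y w ⟨rfl, rfl⟩; exact Run.nil x
  | succ n ih =>
    rintro x y w ⟨x', hw⟩
    obtain ⟨u, ⟨hu, hx⟩, w', hw', rfl⟩ := Language.mem_mul.1 hw
    subst hx
    exact Run.cons hu (ih hw')

theorem Exactly.hl [Finite Ω] (hτ : ∀ x y, HL k (ZT Z τ x y)) (n : ℕ) :
    ∀ x y, HL k (Exactly Z τ n x y) := by
  induction n with
  | zero => intro x y; exact HLempty_eq x y
  | succ n ih => intro x y; exact HL.iUnion fun x' => (hτ x x').mul (ih x' y)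

/-- **right labels, defined semantically** -/
def Rsem (Zb Z : Language α) (τ : List α → Ω → Ω) (N : ℕ) (L : Ω → Language α) (y : Ω) :
    Language α :=
  {q | ∀ x, ∀ p ∈ {p | p ∈ L x}, q ∈ ({q | p ++ q ∈ Exactly Z τ (N + 1) x y ∨
    p ++ q ∈ Off Zb Z N} : Language α)}

theorem Rsem.hl [Finite Ω] (hfin : ∀ x, {p | p ∈ L x}.Finite) (hZb : HL k Zb) (hZ : HL k Z)
    (hτ : ∀ x y, HL k (ZT Z τ x y)) (y : Ω) : HL k (Rsem Zb Z τ N L y) :=
  HL.iInter fun x => HL.biInter (hfin x) fun p _ =>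
    HL.setOf_or (HL.lquot p (Exactly.hl hτ (N + 1) x y)) (HL.lquot p (Off.hl hZb hZ N))

/-- **semantic right labels are sound: only completeness has to be proved** -/
theorem Rsem.sch (hZb : PC Zb) (hsub : ∀ u ∈ Z, u ∈ Zb)
    (hc : ∀ u ∈ Z, u ∉ Bad → ∀ x, ∀ t ∈ Z ^ N, ∃ p q y, u ++ t = p ++ q ∧ p ∈ L x ∧
      q ∈ Rsem Zb Z τ N L y) : Sch Z Bad τ N L (Rsem Zb Z τ N L) where
  sound := by
    intro x y p q r hp hq hst
    rcases hq x p hp with h | h
    · exact Exactly.run h
    · rw [← List.append_assoc] at hst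
      exact (Off.not_star hZb hsub N h hst).elim
  complete := hc

theorem PC.sub (hZb : PC Zb) (hsub : ∀ u ∈ Z, u ∈ Zb) : PC Z :=
  ⟨fun h => hZb.ne (hsub _ h), fun u hu v hv h => hZb.pf u (hsub u hu) v (hsub v hv) h⟩

/-- **step theorem with semantic right labels** -/
theorem step_sem [Finite Ω] (hZb : PC Zb) (hsub : ∀ u ∈ Z, u ∈ Zb) (hB : ∀ u ∈ Bad, u ∈ Z)
    (hHb : HL k Zb) (hH : HL k Z) (hst : HL (k + 1) (KStar.kstar Z))
    (hτ : ∀ x y, HL k (ZT Z τ x y)) (hbad : ∀ x y, HL k (RB Bad τ x y))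
    (hfin : ∀ x, {p | p ∈ L x}.Finite)
    (hc : ∀ u ∈ Z, u ∉ Bad → ∀ x, ∀ t ∈ Z ^ N, ∃ p q y, u ++ t = p ++ q ∧ p ∈ L x ∧
      q ∈ Rsem Zb Z τ N L y) (x y : Ω) : HL (k + 1) (RB Z τ x y) :=
  step (hZb.sub hsub) hB hst hτ hbad (fun x => HL.finite (hfin x))
    (Rsem.hl hfin hHb hH hτ) (Rsem.sch hZb hsub hc) x y

end sem

end Crest.Agent.R320.Code110
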