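import Crest.Agent.R320.Comb_500

/-!
# Row 320: two-wall blocks on all words, scheme 2 and spoil count (helper500)
-/

set_option autoImplicit false

namespace Crest.Agent.R320.Comb_500

open Crest.Agent.R320.Hk_851 Crest.Agent.R320.Star_621 Crest.Agent.R320.Two_621
open Crest.RegLang Finset

universe u

variable {α : Type u} {Wo : List α → Prop} {z0 : ℕ}

variable {S : Type u} [Monoid S] (f : α → S) (nu1 nu2 : List α → Tok S) (p0 : ℕ)
  (K : ℕ) (c : ℕ → ℕ) (lam2 rho2 : ℕ → List α → Option (Tok S))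

def LB (v : Tok S) : Language α :=
  {P | ∃ k < K, P.length = c k ∧ lam2 k P = some v}

def RB (Wo : List α → Prop) (z0 N1 : ℕ) (BT : ℕ → Prop) (τ : Tok S) : Language α :=
  {Q | ∀ ω, ∀ P ∈ LB K c lam2 ω, (P ++ Q ∈ Zc Wo z0 N1 p0 BT ∧
    τ = aff (ph f) (dd f nu1 nu2 p0 Wo z0) (P ++ Q) ω) ∨
      ∃ u ∈ U1 Wo z0, ¬ BadU Wo z0 N1 p0 BT u ∧ u <+: P ++ Q}

theorem Zc_sub {N1 : ℕ} {BT : ℕ → Prop} : ∀ z ∈ Zc Wo z0 N1 p0 BT, z ∈ ZZ Wo z0 := by
  rintro z ⟨t, ht, -⟩
  exact ⟨t, ht⟩

theorem soundB {N1 : ℕ} {BT : ℕ → Prop} (h0 : 0 < z0) (hc0 : ∀ k < K, 0 < c k) :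
    Sound (Zc Wo z0 N1 p0 BT) (aff (ph f) (dd f nu1 nu2 p0 Wo z0)) (LB K c lam2)
      (RB f nu1 nu2 p0 K c lam2 Wo z0 N1 BT) := by
  refine ⟨?_, ?_⟩
  · rintro ω ⟨k, hk, h, -⟩
    have := hc0 k hk
    simp at h
    omega
  · intro ω τ P Q z x y hP hQ hz he
    rcases hQ ω P hP with ⟨h1, h2⟩ | ⟨u, hu, hb, v, hv⟩
    · have := (ZZ_code h0).2 _ _ x y (Zc_sub p0 _ h1) (Zc_sub p0 _ hz) he
      exact ⟨this, this ▸ h2⟩
    · exfalso
      obtain ⟨t, ht, hbt⟩ := hz
      have e1 : u ++ (v ++ x) = z.take t ++ (z.drop t ++ y) := by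
        rw [← List.append_assoc, hv, he, ← List.append_assoc, List.take_append_drop]
      have := U1_code hu ht.take_mem e1
      exact hb (this ▸ hbt)

open Classical in
theorem completeB {n N1 La C0 W : ℕ} {BT : ℕ → Prop}
    (hloc : ∀ P Q : List α, n ≤ Q.length → (Wo (P ++ Q) ↔ Wo Q))
    (hsep : ∀ (P : List α) (d : ℕ), Wo P → 0 < d → d ≤ W → ¬ Wo (P.take (P.length - d)))
    (hW : 2 * (p0 + N1) ≤ W) (hcp : ∀ k < K, c k ≤ p0)
    (hgol : ∀ i j k l, i < K → j < K → k < K → l < K → i ≠ j → (i, j) ≠ (k, l) →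
      c i + c l + 4 * N1 < c k + c j ∨ c k + c j + 4 * N1 < c i + c l)
    (hsp : ∀ T, La ≤ T → (((range K ×ˢ range K).filter
      fun ab => ab.1 ≠ ab.2 ∧ BT (T + c ab.2 - c ab.1))).card ≤ C0)
    (hs : ∀ k < K, ∀ (P Q : List α) (v b : Tok S), P.length = c k → lam2 k P = some v →
      rho2 k Q = some b → b = act v (ph f (P ++ Q)) + nu2 (P ++ Q))
    (hI : ∀ X : List α, X.length = p0 → ∀ v, ∃ I : Finset ℕ, 3 * C0 + 2 ≤ I.card ∧ ∀ k ∈ I,
      k < K ∧ lam2 k (X.take (c k)) = some v ∧ (rho2 k (X.drop (c k))).isSome)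
    (hz0 : p0 + p0 + N1 + n + La ≤ z0) {z : List α} (hz : z ∈ Zc Wo z0 N1 p0 BT)
    (v : Tok S) :
    Cut (LB K c lam2) (RB f nu1 nu2 p0 K c lam2 Wo z0 N1 BT) v z := by
  classical
  obtain ⟨t, ht, hbt⟩ := hz
  have ht' := ht
  obtain ⟨a1, a2, a3, a4, a5⟩ := ht
  have hlt : (z.take t).length = t := by rw [List.length_take]; omega
  have sep2 : ∀ s s', s < s' → s' ≤ z.length → Wo (z.take s) → Wo (z.take s') → W < s' - s := by
    intro s s' h1 h2 h3 h4
    by_contra hle
    have hl : (z.take s').length = s' := by rw [List.length_take]; omega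
    apply hsep (z.take s') (s' - s) h4 (by omega) (by omega)
    rw [hl, List.take_take, Nat.min_eq_left (by omega)]
    have : s' - (s' - s) = s := by omega
    rw [this]; exact h3
  have hzW : t + W < z.length := by
    have := sep2 t z.length a2 le_rfl a3 (by rw [List.take_length]; exact a4)
    omega
  let Ws : Finset ℕ := (range (z.length + 1)).filter (fun s => Wo (z.take s) ∧ z0 ≤ s + p0)
  have hWs : Ws.card ≤ 3 := by
    have h1 : Ws ⊆ (Ws.filter (· < z0)) ∪ {t, z.length} := by
      intro s hs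
      rw [Finset.mem_union, Finset.mem_filter]
      rcases Nat.lt_or_ge s z0 with h | h
      · exact Or.inl ⟨hs, h⟩
      · right
        rw [Finset.mem_filter, Finset.mem_range] at hs
        rcases Nat.lt_or_ge s z.length with h' | h'
        · rw [a5 s h h' hs.2.1]; simp
        · have : s = z.length := by omega
          rw [this]; simp
    have h2 : (Ws.filter (· < z0)).card ≤ 1 := by
      rw [Finset.card_le_one]
      intro s hs s' hs'
      rw [Finset.mem_filter, Finset.mem_filter, Finset.mem_range] at hs hs'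
      by_contra hne
      rcases Nat.lt_or_gt_of_ne hne with h | h
      · have := sep2 s s' h (by omega) hs.1.2.1 hs'.1.2.1
        omega
      · have := sep2 s' s h (by omega) hs'.1.2.1 hs.1.2.1
        omega
    calc Ws.card ≤ ((Ws.filter (· < z0)) ∪ {t, z.length}).card := Finset.card_le_card h1
      _ ≤ (Ws.filter (· < z0)).card + ({t, z.length} : Finset ℕ).card := Finset.card_union_le _ _
      _ ≤ 1 + 2 := Nat.add_le_add h2 Finset.card_le_two
      _ = 3 := rfl
  let SpT : Finset ℕ := Ws.biUnion (fun s => (((range K ×ˢ range K).filter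
      fun ab => ab.1 ≠ ab.2 ∧ BT ((s - p0) + c ab.2 - c ab.1))).image Prod.fst)
  have hSpT : SpT.card ≤ 3 * C0 := by
    have h1 : SpT.card ≤ Ws.card * C0 := by
      apply Finset.card_biUnion_le_card_mul
      intro s hs
      rw [Finset.mem_filter] at hs
      exact le_trans Finset.card_image_le (hsp _ (by omega))
    exact le_trans h1 (Nat.mul_le_mul_right _ hWs)
  let SpE : Finset ℕ := (range K).filter (fun k => ∃ j < K, j ≠ k ∧ ∃ e, e ≤ z.length ∧
    Wo (z.take e) ∧ z0 + c k ≤ e + c j + N1 ∧ e + c j < z0 + N1 + c k)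
  have hSpE : SpE.card ≤ 1 := by
    rw [Finset.card_le_one]
    intro k hk k' hk'
    rw [Finset.mem_filter, Finset.mem_range] at hk hk'
    obtain ⟨hkK, j, hj, hjk, e, he1, he2, he3, he4⟩ := hk
    obtain ⟨hkK', j', hj', hjk', e', he1', he2', he3', he4'⟩ := hk'
    have hee : e = e' := by
      have p1 := hcp k hkK
      have p2 := hcp j hj
      have p3 := hcp k' hkK'
      have p4 := hcp j' hj'
      by_contra hne
      rcases Nat.lt_or_gt_of_ne hne with h | h
      · have := sep2 e e' h he1' he2 he2'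
        omega
      · have := sep2 e' e h he1 he2' he2
        omega
    subst hee
    by_contra hne
    have := hgol k j k' j' hkK hj hkK' hj' (Ne.symm hjk) (fun h => hne (Prod.ext_iff.1 h).1)
    omega
  -- the text
  obtain ⟨X, Y, R, hzf, hX, hY⟩ : ∃ X Y R : List α, z = X ++ (Y ++ R) ∧ X.length = p0 ∧
      Y.length = t - p0 := by
    refine ⟨z.take p0, (z.drop p0).take (t - p0), (z.drop p0).drop (t - p0), ?_, ?_, ?_⟩
    · rw [List.take_append_drop, List.take_append_drop]
    · rw [List.length_take]; omega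
    · rw [List.length_take, List.length_drop]; omega
  have hzl : z.length = p0 + (t - p0) + R.length := by
    rw [hzf, List.length_append, List.length_append]; omega
  obtain ⟨I, hIc, hIk⟩ := hI X hX v
  obtain ⟨k, hkI, hkS⟩ : ∃ k ∈ I, k ∉ SpT ∪ SpE := by
    apply Finset.exists_mem_notMem_of_card_lt_card
    have := Finset.card_union_le SpT SpE
    omega
  obtain ⟨hkK, hlk, hrk⟩ := hIk k hkI
  obtain ⟨b, hb⟩ := Option.isSome_iff_exists.1 hrk
  have hck := hcp k hkK
  have hPl : (X.take (c k)).length = c k := by rw [List.length_take]; omega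
  have hXe : X.take (c k) ++ X.drop (c k) = X := List.take_append_drop _ _
  have hzv : aff (ph f) (dd f nu1 nu2 p0 Wo z0) z v = act (act b (ph f Y) + nu1 Y) (ph f R) := by
    have e2 : t = X.length + Y.length := by omega
    rw [aff_eq f nu1 nu2 p0 hzf hX (e2 ▸ ht') v]
    have := hs k hkK _ _ v b hPl hlk hb
    rw [hXe] at this
    rw [this]
  refine ⟨X.take (c k), X.drop (c k) ++ (Y ++ R), act (act b (ph f Y) + nu1 Y) (ph f R), ?_,
    ⟨k, hkK, hPl, hlk⟩, ?_⟩
  · rw [← List.append_assoc, hXe]; exact hzf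
  intro ω P' hP'
  obtain ⟨j, hj, hP'l, hlj⟩ := hP'
  have hcj := hcp j hj
  by_cases hjk : j = k
  · left
    subst hjk
    have hX1l : (P' ++ X.drop (c j)).length = p0 := by
      rw [List.length_append, List.length_drop]; omega
    have hz' : P' ++ (X.drop (c j) ++ (Y ++ R)) = (P' ++ X.drop (c j)) ++ (Y ++ R) := by simp
    have hYR : (Y ++ R).length = (t - p0) + R.length := by rw [List.length_append]; omega
    have hsh : ∀ s, p0 + n ≤ s → s ≤ z.length →
        (Wo (z.take s) ↔ Wo ((P' ++ (X.drop (c j) ++ (Y ++ R))).take s)) := by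
      intro s h1 h2
      have h3 := shift (P := X) (P' := P' ++ X.drop (c j)) (Q := Y ++ R) (s := s - p0) hloc
        (by omega) (by omega)
      rw [hX, hX1l, ← hzf, ← hz'] at h3
      have e : p0 + (s - p0) = s := by omega
      rw [e] at h3
      exact h3
    have hl' : (P' ++ (X.drop (c j) ++ (Y ++ R))).length = z.length := by
      rw [hz', List.length_append, hX1l, hYR]; omega
    have hIZ : IsZ Wo z0 (P' ++ (X.drop (c j) ++ (Y ++ R))) t := by
      refine ⟨a1, by omega, (hsh t (by omega) (by omega)).1 a3, ?_, ?_⟩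
      · have h1 := hsh z.length (by omega) le_rfl
        rw [List.take_length] at h1
        have h2 := h1.1 a4
        rw [← hl', List.take_length] at h2
        exact h2
      · intro s h1 h2 h3
        exact a5 s h1 (by omega) ((hsh s (by omega) (by omega)).2 h3)
    refine ⟨⟨t, hIZ, ?_⟩, ?_⟩
    · have hl2 : ((P' ++ (X.drop (c j) ++ (Y ++ R))).take t).length = t := by
        rw [List.length_take]; omega
      unfold BadU at hbt ⊢
      rw [hlt] at hbt
      rw [hl2]
      rcases hbt with (h | ⟨s, h1, h2, h3⟩) | h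
      · exact Or.inl (Or.inl h)
      · refine Or.inl (Or.inr ⟨s, h1, h2, ?_⟩)
        rw [List.take_take, Nat.min_eq_left (by omega)] at h3 ⊢
        exact (hsh s (by omega) (by omega)).1 h3
      · exact Or.inr h
    · have e2 : t = (P' ++ X.drop (c j)).length + Y.length := by omega
      rw [aff_eq f nu1 nu2 p0 hz' hX1l (e2 ▸ hIZ) ω]
      have := hs j hj _ _ ω b hP'l hlj hb
      rw [← this]
  · right
    by_contra hno
    have hno' : ∀ u ∈ U1 Wo z0, u <+: P' ++ (X.drop (c k) ++ (Y ++ R)) →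
        BadU Wo z0 N1 p0 BT u := by
      intro u hu hp
      by_contra hb'
      exact hno ⟨u, hu, hb', hp⟩
    set Q := X.drop (c k) ++ (Y ++ R) with hQ
    have hQl : c k + Q.length = z.length := by
      rw [hQ, List.length_append, List.length_drop, List.length_append]; omega
    have hzPQ : z = X.take (c k) ++ Q := by
      rw [hQ, ← List.append_assoc, hXe]; exact hzf
    have hsh : ∀ s, n ≤ s → s ≤ Q.length →
        (Wo ((P' ++ Q).take (c j + s)) ↔ Wo (z.take (c k + s))) := by
      intro s h1 h2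
      have h3 := shift (P := P') (P' := X.take (c k)) (Q := Q) (s := s) hloc h1 h2
      rw [hP'l, hPl, ← hzPQ] at h3
      exact h3
    have hwl : (P' ++ Q).length = c j + Q.length := by rw [List.length_append]; omega
    have hex : ∃ s, z0 ≤ s ∧ s ≤ (P' ++ Q).length ∧ Wo ((P' ++ Q).take s) := by
      refine ⟨(P' ++ Q).length, by omega, le_rfl, ?_⟩
      rw [hwl]
      refine (hsh Q.length (by omega) le_rfl).2 ?_
      rw [hQl, List.take_length]; exact a4
    obtain ⟨f1, f2, f3⟩ := Nat.find_spec hex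
    have f4 : ∀ s, s < Nat.find hex → ¬ (z0 ≤ s ∧ s ≤ (P' ++ Q).length ∧ Wo ((P' ++ Q).take s)) :=
      fun s h => Nat.find_min hex h
    generalize Nat.find hex = t' at f1 f2 f3 f4
    have hul : ((P' ++ Q).take t').length = t' := by rw [List.length_take]; omega
    have hu : (P' ++ Q).take t' ∈ U1 Wo z0 := by
      refine ⟨by omega, f3, ?_⟩
      intro s h1 h2 h3
      rw [hul] at h2
      rw [List.take_take, Nat.min_eq_left h2.le] at h3
      exact f4 s h2 ⟨h1, by omega, h3⟩
    have hbad := hno' _ hu (List.take_prefix _ _)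
    have hwall : ∀ s', c j + n ≤ s' → s' ≤ (P' ++ Q).length → Wo ((P' ++ Q).take s') →
        ∃ e, e + c j = s' + c k ∧ e ≤ z.length ∧ Wo (z.take e) := by
      intro s' h1 h2 h3
      refine ⟨c k + (s' - c j), by omega, by omega, ?_⟩
      rw [← hsh (s' - c j) (by omega) (by omega)]
      have : c j + (s' - c j) = s' := by omega
      rw [this]; exact h3
    have hSE : ∀ s', z0 ≤ s' + N1 → s' < z0 + N1 → s' ≤ (P' ++ Q).length →
        Wo ((P' ++ Q).take s') → False := by
      intro s' h1 h2 h3 h4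
      obtain ⟨e, g1, g2, g3⟩ := hwall s' (by omega) h3 h4
      apply hkS
      rw [Finset.mem_union]
      right
      rw [Finset.mem_filter, Finset.mem_range]
      exact ⟨hkK, j, hj, hjk, e, g2, g3, by omega, by omega⟩
    rcases hbad with (h | ⟨s, h1, h2, h3⟩) | h
    · rw [hul] at h
      exact hSE t' (by omega) h f2 f3
    · rw [List.take_take, Nat.min_eq_left (by omega)] at h3
      exact hSE s h1 (by omega) (by omega) h3
    · rw [hul] at h
      obtain ⟨e, g1, g2, g3⟩ := hwall t' (by omega) f2 f3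
      apply hkS
      rw [Finset.mem_union]
      left
      rw [Finset.mem_biUnion]
      refine ⟨e, ?_, ?_⟩
      · rw [Finset.mem_filter, Finset.mem_range]
        exact ⟨by omega, g3, by omega⟩
      · rw [Finset.mem_image]
        refine ⟨(k, j), ?_, rfl⟩
        rw [Finset.mem_filter, Finset.mem_product, Finset.mem_range, Finset.mem_range]
        refine ⟨⟨hkK, hj⟩, fun h' => hjk h'.symm, ?_⟩
        have : e - p0 + c j - c k = t' - p0 := by omega
        show BT (e - p0 + c j - c k)
        rw [this]; exact h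

end Crest.Agent.R320.Comb_500
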