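import Mathlib

set_option autoImplicit false

/-!
Row 320, piece (2)(3) of post 12664 (helper132), pure integer statements.

Walls are a predicate `Wl` on the integers.  The chain rule uses thresholds which depend on the
residue of `t - a - z` modulo `M`:  the next anchor of `a` is the first wall `t` with
`th ((t - a - z) % M) <= t - a - z`.  All cut places are `x = a + p + M * om` with `M * om <= N1`,
so the right hand side, which does not know `om`, knows the residue.
-/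

namespace Crest.Agent.R320.Comb264

variable (Wl : ℤ → Prop) (z M p N1 : ℤ) (th : ℤ → ℤ)

/-- The wall `t` is late enough to be the next anchor of `a`. -/
def Pass (a t : ℤ) : Prop := th ((t - a - z) % M) ≤ t - a - z

/-- `b` is the next anchor of `a`: the first wall which passes. -/
def IsN (a b : ℤ) : Prop :=
  Wl b ∧ Pass z M th a b ∧ ∀ t, Wl t → Pass z M th a t → b ≤ t

/-- The test of the right hand side at the place `x`. -/
def PassR (x t : ℤ) : Prop := th ((t - x + p - z) % M) ≤ t - x + p - z + N1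

/-- The right hand side claims the next anchor `b`. -/
def IsB (x b : ℤ) : Prop :=
  Wl b ∧ PassR z M p N1 th x b ∧ ∀ t, Wl t → PassR z M p N1 th x t → b ≤ t

/-- Right-legal as far as the walls are concerned. -/
def LegR (x : ℤ) : Prop :=
  ∀ t, Wl t → ¬ (t - x + p - z < th ((t - x + p - z) % M) ∧
    th ((t - x + p - z) % M) ≤ t - x + p - z + N1)

/-- The failure mode (E) at `a`. -/
def BadE (a : ℤ) : Prop :=
  ∃ t, Wl t ∧ |t - a - z - th ((t - a - z) % M)| ≤ N1

variable {Wl z M p N1 th}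

theorem IsN.unique {a b b' : ℤ} (h : IsN Wl z M th a b) (h' : IsN Wl z M th a b') : b = b' :=
  le_antisymm (h.2.2 _ h'.1 h'.2.1) (h'.2.2 _ h.1 h.2.1)

theorem IsB.unique {x b b' : ℤ} (h : IsB Wl z M p N1 th x b) (h' : IsB Wl z M p N1 th x b') :
    b = b' :=
  le_antisymm (h.2.2 _ h'.1 h'.2.1) (h'.2.2 _ h.1 h.2.1)

theorem res_eq (a t om : ℤ) :
    (t - (a + p + M * om) + p - z) % M = (t - a - z) % M := by
  have : t - (a + p + M * om) + p - z = (t - a - z) + M * (-om) := by ring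
  rw [this, Int.add_mul_emod_self_left]

/-- At a legal place the two tests agree on every wall. -/
theorem pass_iff {a om t : ℤ} (h0 : 0 ≤ M * om) (h1 : M * om ≤ N1)
    (hl : LegR Wl z M p N1 th (a + p + M * om)) (ht : Wl t) :
    Pass z M th a t ↔ PassR z M p N1 th (a + p + M * om) t := by
  have hr := hl t ht
  unfold Pass PassR
  rw [res_eq] at hr ⊢
  constructor
  · intro h; omega
  · intro h
    by_contra hc
    apply hr
    constructor <;> omega

/-- **Junction lemma**: at every legal place the claim of the right hand side is the next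
anchor of `a`. -/
theorem isN_iff_isB {a om b : ℤ} (h0 : 0 ≤ M * om) (h1 : M * om ≤ N1)
    (hl : LegR Wl z M p N1 th (a + p + M * om)) :
    IsN Wl z M th a b ↔ IsB Wl z M p N1 th (a + p + M * om) b := by
  unfold IsN IsB
  constructor
  · rintro ⟨hb, hp, hm⟩
    exact ⟨hb, (pass_iff h0 h1 hl hb).1 hp, fun t ht htp => hm t ht ((pass_iff h0 h1 hl ht).2 htp)⟩
  · rintro ⟨hb, hp, hm⟩
    exact ⟨hb, (pass_iff h0 h1 hl hb).2 hp, fun t ht htp => hm t ht ((pass_iff h0 h1 hl ht).1 htp)⟩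

/-- Off (E) every place of the window is right-legal with respect to the walls. -/
theorem legR_of_not_badE {a om : ℤ} (h0 : 0 ≤ M * om) (h1 : M * om ≤ N1)
    (he : ¬ BadE Wl z M N1 th a) : LegR Wl z M p N1 th (a + p + M * om) := by
  intro t ht
  rw [res_eq]
  rintro ⟨h2, h3⟩
  apply he
  refine ⟨t, ht, ?_⟩
  rw [abs_le]
  constructor <;> omega

/-- Bounds of the next anchor. -/
theorem Pass.lower {S a t : ℤ} (hS : ∀ i, -S ≤ th i) (h : Pass z M th a t) : a + z - S ≤ t := by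
  have := hS ((t - a - z) % M)
  unfold Pass at h
  omega

theorem pass_of_ge {S a t : ℤ} (hS : ∀ i, th i ≤ S) (h : a + z + S ≤ t) : Pass z M th a t := by
  have := hS ((t - a - z) % M)
  unfold Pass
  omega

/-- The next anchor exists as soon as there is a wall behind `a + z + S`. -/
theorem exists_isN {S a t : ℤ} (hS : ∀ i, -S ≤ th i) (hS' : ∀ i, th i ≤ S) (ht : Wl t)
    (h : a + z + S ≤ t) : ∃ b, IsN Wl z M th a b ∧ b ≤ t := by
  classical
  have hp : Pass z M th a t := pass_of_ge hS' h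
  have hex : ∃ n : ℕ, Wl (a + z - S + n) ∧ Pass z M th a (a + z - S + n) := by
    have := hp.lower hS
    refine ⟨(t - (a + z - S)).toNat, ?_⟩
    have e : a + z - S + ((t - (a + z - S)).toNat : ℤ) = t := by omega
    rw [e]; exact ⟨ht, hp⟩
  have hmin : ∀ t', Wl t' → Pass z M th a t' → a + z - S + (Nat.find hex : ℤ) ≤ t' := by
    intro t' h1 h2
    have h3 := h2.lower hS
    have e : a + z - S + ((t' - (a + z - S)).toNat : ℤ) = t' := by omega
    have : Nat.find hex ≤ (t' - (a + z - S)).toNat :=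
      Nat.find_min' hex (by rw [e]; exact ⟨h1, h2⟩)
    omega
  exact ⟨_, ⟨(Nat.find_spec hex).1, (Nat.find_spec hex).2, hmin⟩, hmin t ht hp⟩

/-- Locality: the next anchor is decided by the walls in `[a + z - S, b]`. -/
theorem IsN.congr {Wl' : ℤ → Prop} {S a b : ℤ} (hS : ∀ i, -S ≤ th i)
    (hw : ∀ t, a + z - S ≤ t → t ≤ b → (Wl t ↔ Wl' t)) (h : IsN Wl z M th a b) :
    IsN Wl' z M th a b := by
  refine ⟨(hw b (h.2.1.lower hS) le_rfl).1 h.1, h.2.1, ?_⟩
  intro t ht hp
  by_contra hc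
  push Not at hc
  have h3 := hp.lower hS
  have := h.2.2 t ((hw t h3 hc.le).2 ht) hp
  omega

/-! ### Spoiling -/

/-- Two (E)-bad shifts of `a` by `d1`, `d2` are congruent modulo `M`, as soon as the thresholds
are far apart and the walls are far apart. -/
theorem badE_shift {S Lam G a d1 d2 : ℤ} (hM : 0 < M)
    (hS : ∀ i, |th i| ≤ S)
    (hsep : ∀ i j, 0 ≤ i → i < M → 0 ≤ j → j < M → |th i - th j| ≤ 2 * N1 + 2 * Lam → i = j)
    (hW : ∀ t t', Wl t → Wl t' → |t - t'| ≤ G → t = t')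
    (hG : 2 * (S + N1 + Lam) ≤ G)
    (h1 : |d1| ≤ Lam) (h2 : |d2| ≤ Lam)
    (hb1 : BadE Wl z M N1 th (a - d1)) (hb2 : BadE Wl z M N1 th (a - d2)) :
    M ∣ d1 - d2 := by
  obtain ⟨t1, w1, e1⟩ := hb1
  obtain ⟨t2, w2, e2⟩ := hb2
  have s1 := hS ((t1 - (a - d1) - z) % M)
  have s2 := hS ((t2 - (a - d2) - z) % M)
  rw [abs_le] at s1 s2 e1 e2 h1 h2
  have ht : t1 = t2 := by
    apply hW t1 t2 w1 w2
    rw [abs_le]
    constructor <;> omega
  subst ht
  have hr := hsep ((t1 - (a - d1) - z) % M) ((t1 - (a - d2) - z) % M)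
    (Int.emod_nonneg _ hM.ne') (Int.emod_lt_of_pos _ hM)
    (Int.emod_nonneg _ hM.ne') (Int.emod_lt_of_pos _ hM)
    (by rw [abs_le]; constructor <;> omega)
  have h3 := (Int.emod_emod_of_dvd _ (dvd_refl M) :
    (t1 - (a - d1) - z) % M % M = (t1 - (a - d1) - z) % M)
  have h4 : (t1 - (a - d1) - z) ≡ (t1 - (a - d2) - z) [ZMOD M] := hr
  have h5 := h4.symm.dvd
  have e : t1 - (a - d1) - z - (t1 - (a - d2) - z) = d1 - d2 := by ring
  rwa [e] at h5

/-- If `a` itself is (E)-bad then no other hypothesis of a set of places which are pairwise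
different modulo `M` is (E)-bad. -/
theorem badE_only {S Lam G a : ℤ} (hM : 0 < M)
    (hS : ∀ i, |th i| ≤ S) (hLam : 0 ≤ Lam)
    (hsep : ∀ i j, 0 ≤ i → i < M → 0 ≤ j → j < M → |th i - th j| ≤ 2 * N1 + 2 * Lam → i = j)
    (hW : ∀ t t', Wl t → Wl t' → |t - t'| ≤ G → t = t')
    (hG : 2 * (S + N1 + Lam) ≤ G) (C : Finset ℤ)
    (hC : ∀ c ∈ C, ∀ c' ∈ C, |c - c'| ≤ Lam)
    (hdist : ∀ c ∈ C, ∀ c' ∈ C, M ∣ c - c' → c = c')
    (hb : BadE Wl z M N1 th a) {c c' : ℤ} (hc : c ∈ C) (hc' : c' ∈ C) (hne : c ≠ c') :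
    ¬ BadE Wl z M N1 th (a + (c - c')) := by
  intro h
  have h' : BadE Wl z M N1 th (a - (c' - c)) := by
    have e : a + (c - c') = a - (c' - c) := by ring
    rwa [e] at h
  have hb' : BadE Wl z M N1 th (a - 0) := by simpa using hb
  have := badE_shift hM hS hsep hW hG (hC c' hc' c hc) (by simpa using hLam) h' hb'
  apply hne
  exact (hdist c' hc' c hc (by simpa using this)).symm

/-- (E) spoils at most one element of a Golomb set: if two true places `c1`, `c2` have a wrong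
(E)-bad hypothesis each, they are equal. -/
theorem badE_golomb {S Lam G a : ℤ} (hM : 0 < M)
    (hS : ∀ i, |th i| ≤ S)
    (hsep : ∀ i j, 0 ≤ i → i < M → 0 ≤ j → j < M → |th i - th j| ≤ 2 * N1 + 2 * Lam → i = j)
    (hW : ∀ t t', Wl t → Wl t' → |t - t'| ≤ G → t = t')
    (hG : 2 * (S + N1 + Lam) ≤ G) (C : Finset ℤ)
    (hC : ∀ c ∈ C, ∀ c' ∈ C, |c - c'| ≤ Lam)
    (hgol : ∀ c1 ∈ C, ∀ c1' ∈ C, ∀ c2 ∈ C, ∀ c2' ∈ C, c1 ≠ c1' → c2 ≠ c2' →
      M ∣ (c1 - c1') - (c2 - c2') → c1 = c2 ∧ c1' = c2')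
    {c1 c1' c2 c2' : ℤ} (h1 : c1 ∈ C) (h1' : c1' ∈ C) (h2 : c2 ∈ C) (h2' : c2' ∈ C)
    (n1 : c1 ≠ c1') (n2 : c2 ≠ c2')
    (b1 : BadE Wl z M N1 th (a + (c1 - c1'))) (b2 : BadE Wl z M N1 th (a + (c2 - c2'))) :
    c1 = c2 ∧ c1' = c2' := by
  have e1 : a + (c1 - c1') = a - (c1' - c1) := by ring
  have e2 : a + (c2 - c2') = a - (c2' - c2) := by ring
  rw [e1] at b1
  rw [e2] at b2
  have := badE_shift hM hS hsep hW hG (hC c1' h1' c1 h1) (hC c2' h2' c2 h2) b1 b2
  apply hgol c1 h1 c1' h1' c2 h2 c2' h2' n1 n2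
  have e : (c1 - c1') - (c2 - c2') = -((c1' - c1) - (c2' - c2)) := by ring
  rw [e]
  exact (dvd_neg).2 this

/-- Existence of thresholds: `th i = (D + 1) * i` for `0 <= i < M`, cut off outside. -/
theorem exists_thresholds (M D : ℤ) (hM : 0 < M) (hD : 0 ≤ D) :
    ∃ th : ℤ → ℤ, (∀ i, 0 ≤ th i) ∧ (∀ i, th i ≤ (D + 1) * M) ∧
      ∀ i j, 0 ≤ i → i < M → 0 ≤ j → j < M → |th i - th j| ≤ D → i = j := by
  refine ⟨fun i => (D + 1) * (i % M), ?_, ?_, ?_⟩
  · intro i
    exact mul_nonneg (by omega) (Int.emod_nonneg _ hM.ne')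
  · intro i
    exact mul_le_mul_of_nonneg_left (Int.emod_lt_of_pos _ hM).le (by omega)
  · intro i j hi hi' hj hj' h
    simp only [Int.emod_eq_of_lt hi hi', Int.emod_eq_of_lt hj hj'] at h
    rw [← mul_sub, abs_mul, abs_of_pos (by omega : (0:ℤ) < D + 1)] at h
    by_contra hne
    have h1 : 1 ≤ |i - j| := Int.one_le_abs (sub_ne_zero.2 hne)
    nlinarith

end Crest.Agent.R320.Comb264
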