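import Crest.Agent.R320.Shared_500

/-!
# Row 320: two-wall blocks on all words, combinatorics of both schemes (helper500)
-/

set_option autoImplicit false

namespace Crest.Agent.R320.Comb_500

open Crest.Agent.R320.Hk_851 Crest.Agent.R320.Star_621 Crest.Agent.R320.Two_621
open Crest.RegLang

universe u

variable {α : Type u}

/-- first wall at distance at least `z0` -/
def U1 (Wo : List α → Prop) (z0 : ℕ) : Language α :=
  {u | z0 ≤ u.length ∧ Wo u ∧ ∀ t, z0 ≤ t → t < u.length → ¬ Wo (u.take t)}

/-- a two-wall block with first wall `t` -/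
def IsZ (Wo : List α → Prop) (z0 : ℕ) (z : List α) (t : ℕ) : Prop :=
  z0 ≤ t ∧ t < z.length ∧ Wo (z.take t) ∧ Wo z ∧
    ∀ s, z0 ≤ s → s < z.length → Wo (z.take s) → s = t

def ZZ (Wo : List α → Prop) (z0 : ℕ) : Language α := {z | ∃ t, IsZ Wo z0 z t}

variable {Wo : List α → Prop} {z0 : ℕ}

theorem IsZ.uniq {z : List α} {t t' : ℕ} (h : IsZ Wo z0 z t) (h' : IsZ Wo z0 z t') : t = t' :=
  h'.2.2.2.2 t h.1 h.2.1 h.2.2.1

theorem IsZ.take_mem {z : List α} {t : ℕ} (h : IsZ Wo z0 z t) : z.take t ∈ U1 Wo z0 := by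
  obtain ⟨h1, h2, h3, -, h5⟩ := h
  have hl : (z.take t).length = t := by rw [List.length_take]; omega
  refine ⟨by omega, h3, ?_⟩
  intro s hs hst hW
  rw [hl] at hst
  rw [List.take_take, Nat.min_eq_left hst.le] at hW
  have := h5 s hs (by omega) hW
  omega

theorem U1_code {u u' x x' : List α} (h : u ∈ U1 Wo z0) (h' : u' ∈ U1 Wo z0)
    (he : u ++ x = u' ++ x') : u = u' := by
  have key : ∀ {u u' x x' : List α}, u ∈ U1 Wo z0 → u' ∈ U1 Wo z0 → u ++ x = u' ++ x' →
      ¬ u.length < u'.length := by
    intro u u' x x' h h' he hlt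
    have e : u'.take u.length = u := by
      have := congrArg (List.take u.length) he
      rw [List.take_left, List.take_append_of_le_length hlt.le] at this
      exact this.symm
    exact h'.2.2 u.length h.1 hlt (by rw [e]; exact h.2.1)
  have hl : u.length = u'.length := le_antisymm (not_lt.1 (key h' h he.symm)) (not_lt.1 (key h h' he))
  exact (List.append_inj he hl).1

theorem ZZ_code (_h0 : 0 < z0) : Code (ZZ Wo z0) := by
  refine ⟨?_, ?_⟩
  · rintro ⟨t, h⟩
    have := h.2.1
    simp at this
  · have key : ∀ {u u' x x' : List α}, u ∈ ZZ Wo z0 → u' ∈ ZZ Wo z0 → u ++ x = u' ++ x' →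
      ¬ u.length < u'.length := by
      intro u u' x x' h h' he hlt
      obtain ⟨t, ht⟩ := h
      obtain ⟨t', ht'⟩ := h'
      have e : u'.take u.length = u := by
        have := congrArg (List.take u.length) he
        rw [List.take_left, List.take_append_of_le_length hlt.le] at this
        exact this.symm
      have e1 := ht'.2.2.2.2 u.length (by have := ht.1; have := ht.2.1; omega) hlt
        (by rw [e]; exact ht.2.2.2.1)
      have e2 := ht'.2.2.2.2 t ht.1 (by have := ht.2.1; omega) (by
        have : u'.take t = u.take t := by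
          rw [← e, List.take_take, Nat.min_eq_left (by have := ht.2.1; omega)]
        rw [this]; exact ht.2.2.1)
      have := ht.2.1
      omega
    intro z z' x x' h h' he
    have hl : z.length = z'.length :=
      le_antisymm (not_lt.1 (key h' h he.symm)) (not_lt.1 (key h h' he))
    exact (List.append_inj he hl).1

/-- changing the letters before the window of all relevant walls -/
theorem shift {n : ℕ} (hloc : ∀ P Q : List α, n ≤ Q.length → (Wo (P ++ Q) ↔ Wo Q))
    {P P' Q : List α} {s : ℕ} (hs : n ≤ s) (hsQ : s ≤ Q.length) :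
    Wo ((P ++ Q).take (P.length + s)) ↔ Wo ((P' ++ Q).take (P'.length + s)) := by
  rw [List.take_length_add_append, List.take_length_add_append,
    hloc P _ (by rw [List.length_take]; omega), hloc P' _ (by rw [List.length_take]; omega)]

open Classical in
/-- position of the first wall -/
noncomputable def t1 (Wo : List α → Prop) (z0 : ℕ) (z : List α) : ℕ :=
  if h : ∃ t, IsZ Wo z0 z t then h.choose else 0

theorem t1_eq {z : List α} {t : ℕ} (h : IsZ Wo z0 z t) : t1 Wo z0 z = t := by
  have hex : ∃ t, IsZ Wo z0 z t := ⟨t, h⟩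
  unfold t1
  rw [dif_pos hex]
  exact hex.choose_spec.uniq h

/-- bad first part -/
def BadU (Wo : List α → Prop) (z0 N1 p0 : ℕ) (BT : ℕ → Prop) (u : List α) : Prop :=
  (u.length < z0 + N1 ∨ ∃ t, z0 ≤ t + N1 ∧ t < z0 ∧ Wo (u.take t)) ∨ BT (u.length - p0)

def Zc (Wo : List α → Prop) (z0 N1 p0 : ℕ) (BT : ℕ → Prop) : Language α :=
  {z | ∃ t, IsZ Wo z0 z t ∧ BadU Wo z0 N1 p0 BT (z.take t)}

section schemes

variable {S : Type u} [Monoid S] (f : α → S)

/-- value of a word -/
def ph (w : List α) : S := (w.map f).prod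

theorem ph_append (a b : List α) : ph f (a ++ b) = ph f a * ph f b := by simp [ph]

variable (nu1 nu2 : List α → Tok S) (p0 : ℕ)

/-- noise of both gadgets -/
noncomputable def dd (Wo : List α → Prop) (z0 : ℕ) (z : List α) : Tok S :=
  act (nu2 (z.take p0)) (ph f (z.drop p0)) +
    act (nu1 ((z.take (t1 Wo z0 z)).drop p0)) (ph f (z.drop (t1 Wo z0 z)))

/-- the zone map in factored form -/
theorem aff_eq {X Y R z : List α} (hz : z = X ++ (Y ++ R)) (hX : X.length = p0)
    (ht : IsZ Wo z0 z (X.length + Y.length)) (v : Tok S) :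
    aff (ph f) (dd f nu1 nu2 p0 Wo z0) z v =
      act (act (act v (ph f X) + nu2 X) (ph f Y) + nu1 Y) (ph f R) := by
  have e1 : z.take p0 = X := by rw [hz, ← hX, List.take_left]
  have e2 : z.drop p0 = Y ++ R := by rw [hz, ← hX, List.drop_left]
  have e3 : z = (X ++ Y) ++ R := by rw [hz, List.append_assoc]
  have e4 : z.take (X.length + Y.length) = X ++ Y := by
    rw [e3, ← List.length_append, List.take_left]
  have e5 : z.drop (X.length + Y.length) = R := by
    rw [e3, ← List.length_append, List.drop_left]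
  unfold aff dd
  rw [t1_eq ht, e1, e2, e4, e5]
  have e6 : (X ++ Y).drop p0 = Y := by rw [← hX, List.drop_left]
  rw [e6, hz, ph_append, ph_append]
  rw [act_add, act_add, act_add, act_mul, act_mul, act_mul]
  rw [add_assoc]

variable (lam1 rho1 : List α → Option (Tok S))

def LA (v : Tok S) : Language α :=
  {P | p0 ≤ P.length ∧ lam1 (P.drop p0) = some (act v (ph f (P.take p0)) + nu2 (P.take p0))}

def RA (Wo : List α → Prop) (z0 : ℕ) (τ : Tok S) : Language α :=
  {Q | ∀ ω, ∀ P ∈ LA f nu2 p0 lam1 ω, P ++ Q ∈ ZZ Wo z0 ∧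
    τ = aff (ph f) (dd f nu1 nu2 p0 Wo z0) (P ++ Q) ω}

theorem soundA (h0 : 0 < z0) (hp0 : 0 < p0) :
    Sound (ZZ Wo z0) (aff (ph f) (dd f nu1 nu2 p0 Wo z0)) (LA f nu2 p0 lam1)
      (RA f nu1 nu2 p0 lam1 Wo z0) := by
  refine ⟨?_, ?_⟩
  · rintro ω ⟨h, -⟩
    simp at h
    omega
  · intro ω τ P Q z x y hP hQ hz he
    obtain ⟨h1, h2⟩ := hQ ω P hP
    have := (ZZ_code h0).2 _ _ x y h1 hz he
    exact ⟨this, this ▸ h2⟩

theorem completeA {n N1 La : ℕ} {BT : ℕ → Prop}
    (hloc : ∀ P Q : List α, n ≤ Q.length → (Wo (P ++ Q) ↔ Wo Q))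
    (hlam : ∀ p v, lam1 p = some v → p.length ≤ N1)
    (hs : ∀ p q v r, lam1 p = some v → rho1 q = some r → La ≤ q.length →
      r = act v (ph f (p ++ q)) + nu1 (p ++ q))
    (hc : ∀ w : List α, La ≤ w.length → ¬ BT w.length → ∀ v, ∃ p q, p ++ q = w ∧
      lam1 p = some v ∧ (rho1 q).isSome)
    (hz0 : p0 + N1 + n + La ≤ z0) {z : List α} (hz : z ∈ ZZ Wo z0)
    (hzc : z ∉ Zc Wo z0 N1 p0 BT) (v : Tok S) :
    Cut (LA f nu2 p0 lam1) (RA f nu1 nu2 p0 lam1 Wo z0) v z := by
  obtain ⟨t, ht⟩ := hz
  have hnb : ¬ BadU Wo z0 N1 p0 BT (z.take t) := fun hb => hzc ⟨t, ht, hb⟩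
  obtain ⟨a1, a2, a3, a4, a5⟩ := ht
  have hl : (z.take t).length = t := by rw [List.length_take]; omega
  have hn1 : z0 + N1 ≤ t := by
    by_contra hlt
    exact hnb (Or.inl (Or.inl (by omega)))
  have hn2 : ∀ s, z0 ≤ s + N1 → s < z0 → ¬ Wo (z.take s) := by
    intro s h1 h2 h3
    apply hnb
    refine Or.inl (Or.inr ⟨s, h1, h2, ?_⟩)
    rw [List.take_take, Nat.min_eq_left (by omega)]
    exact h3
  have hn3 : ¬ BT (t - p0) := by
    intro h
    apply hnb
    right
    rw [hl]; exact h
  -- factorization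
  obtain ⟨X, Y, R, hzf, hX, hY⟩ : ∃ X Y R : List α, z = X ++ (Y ++ R) ∧ X.length = p0 ∧
      Y.length = t - p0 := by
    refine ⟨z.take p0, (z.drop p0).take (t - p0), (z.drop p0).drop (t - p0), ?_, ?_, ?_⟩
    · rw [List.take_append_drop, List.take_append_drop]
    · rw [List.length_take]; omega
    · rw [List.length_take, List.length_drop]; omega
  have hR : 0 < R.length := by
    have := congrArg List.length hzf
    rw [List.length_append, List.length_append] at this
    omega
  obtain ⟨p, q, hpq, hp, hq⟩ := hc Y (by omega) (by rw [hY]; exact hn3)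
    (act v (ph f X) + nu2 X)
  obtain ⟨r, hr⟩ := Option.isSome_iff_exists.1 hq
  have hpl := hlam _ _ hp
  have hlen : p.length + q.length = t - p0 := by
    rw [← hY, ← hpq, List.length_append]
  have hzPQ : z = (X ++ p) ++ (q ++ R) := by
    rw [hzf, ← hpq]; simp
  refine ⟨X ++ p, q ++ R, act r (ph f R), hzPQ, ⟨?_, ?_⟩, ?_⟩
  · rw [List.length_append]; omega
  · rw [← hX, List.drop_left, List.take_left]
    exact hp
  · intro ω P' hP'
    obtain ⟨b1, b2⟩ := hP'
    have hp'l := hlam _ _ b2
    set X' := P'.take p0 with hX'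
    set p' := P'.drop p0 with hp'
    have hX'l : X'.length = p0 := by rw [hX', List.length_take]; omega
    have hP'e : P' = X' ++ p' := (List.take_append_drop p0 P').symm
    have hP'l : P'.length = p0 + p'.length := by
      conv_lhs => rw [hP'e, List.length_append, hX'l]
    have hPl : (X ++ p).length = p0 + p.length := by rw [List.length_append, hX]
    have hsh : ∀ s, n ≤ s → s ≤ (q ++ R).length →
        (Wo ((P' ++ (q ++ R)).take (P'.length + s)) ↔ Wo (z.take ((X ++ p).length + s))) := by
      intro s h1 h2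
      rw [hzPQ]
      exact shift hloc h1 h2
    have hQl : (q ++ R).length = q.length + R.length := List.length_append
    have hzl : z.length = p0 + p.length + q.length + R.length := by
      rw [hzPQ, List.length_append, hPl, hQl]; omega
    have hIZ : IsZ Wo z0 (P' ++ (q ++ R)) (P'.length + q.length) := by
      refine ⟨by omega, ?_, ?_, ?_, ?_⟩
      · rw [List.length_append, hQl]; omega
      · rw [hsh q.length (by omega) (by omega), hPl]
        have : p0 + p.length + q.length = t := by omega
        rw [this]; exact a3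
      · have h1 := hsh (q ++ R).length (by omega) le_rfl
        rw [← List.length_append, List.take_length, hPl] at h1
        rw [h1]
        have h2 : p0 + p.length + (q ++ R).length = z.length := by omega
        rw [h2, List.take_length]; exact a4
      · intro s hs1 hs2 hW
        rw [List.length_append, hQl] at hs2
        have e : s = P'.length + (s - P'.length) := by omega
        rw [e, hsh (s - P'.length) (by omega) (by omega), hPl] at hW
        rcases Nat.lt_or_ge (p0 + p.length + (s - P'.length)) z0 with hlt | hge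
        · exact absurd hW (hn2 _ (by omega) hlt)
        · have := a5 _ hge (by omega) hW
          omega
    refine ⟨⟨_, hIZ⟩, ?_⟩
    have e1 : P' ++ (q ++ R) = X' ++ ((p' ++ q) ++ R) := by
      conv_lhs => rw [hP'e]
      simp
    have e2 : P'.length + q.length = X'.length + (p' ++ q).length := by
      rw [List.length_append]; omega
    rw [e2] at hIZ
    rw [aff_eq f nu1 nu2 p0 e1 hX'l hIZ ω]
    have := hs p' q _ r b2 hr (by omega)
    rw [← this]

end schemes

end Crest.Agent.R320.Comb_500
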