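import Mathlib

/-!
Row 320 (S0495), piece (4b): zone complementarity of two inner chains on rigid walls
(860 #12446 (3), 762 #12626 (1), 233 #12627 (2)).  Pure integer statement.

Walls are a set of integers `W`, rigid (all gaps `L` or `L+1`) on `[lo, hi]`.
`Next W z a b` : `b` is the first wall `≥ a + z`.
`Crit W z q a` : some wall lies strictly within `q` of `a + z`.

Main result `complementary` : if `z2 = z1 + 2L + L/2`, `4q + 30 ≤ L`, and `a`, `b` are a
`z1`-chain and a `z2`-chain which start left of `x0`, then in the window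
`[x0, x0 + 2 m D)` one of the two chains has at least `m` clean (not critical) nodes.
-/

namespace Crest.Agent.R320.Comp713

structure Rigid (W : ℤ → Prop) (L lo hi : ℤ) : Prop where
  sep : ∀ x y, lo ≤ x → x < y → y ≤ hi → W x → W y → x + L ≤ y
  nxt : ∀ x, lo ≤ x → x + L + 1 ≤ hi → W x → W (x + L) ∨ W (x + L + 1)

def Next (W : ℤ → Prop) (z a b : ℤ) : Prop :=
  W b ∧ a + z ≤ b ∧ ∀ c, a + z ≤ c → c < b → ¬ W c

def Crit (W : ℤ → Prop) (z q a : ℤ) : Prop := ∃ t, W t ∧ a + z - q < t ∧ t < a + z + q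

variable {W : ℤ → Prop} {L lo hi : ℤ}

/-- Two walls have distance `i L + e` with `0 ≤ e ≤ i`. -/
theorem Rigid.dist (h : Rigid W L lo hi) (hL : 0 < L) (x y : ℤ) (hx : lo ≤ x) (hxy : x ≤ y)
    (hy : y ≤ hi) (wx : W x) (wy : W y) : ∃ i : ℤ, 0 ≤ i ∧ i * L ≤ y - x ∧ y - x ≤ i * (L + 1) := by
  obtain ⟨n, hn⟩ : ∃ n : ℕ, (y - x).toNat = n := ⟨_, rfl⟩
  induction n using Nat.strong_induction_on generalizing x with
  | _ n ih =>
    rcases hxy.eq_or_lt with rfl | hlt
    · exact ⟨0, le_refl _, by simp, by simp⟩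
    · have hs := h.sep x y hx hlt hy wx wy
      rcases hs.eq_or_lt with he | hlt2
      · exact ⟨1, by norm_num, by linarith, by linarith⟩
      · rcases h.nxt x hx (by omega) wx with w | w
        · obtain ⟨i, h0, h1, h2⟩ := ih ((y - (x + L)).toNat) (by omega) (x + L) (by omega)
            (by omega) w rfl
          exact ⟨i + 1, by omega, by nlinarith, by nlinarith⟩
        · obtain ⟨i, h0, h1, h2⟩ := ih ((y - (x + L + 1)).toNat) (by omega) (x + L + 1) (by omega)
            (by omega) w rfl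
          exact ⟨i + 1, by omega, by nlinarith, by nlinarith⟩

/-- Signed form for walls at distance at most `6 L`. -/
theorem Rigid.near (h : Rigid W L lo hi) (hL : 0 < L) (x y : ℤ) (hx : lo ≤ x) (hx' : x ≤ hi)
    (hy : lo ≤ y) (hy' : y ≤ hi) (wx : W x) (wy : W y) (h1 : y - x ≤ 6 * L) (h2 : x - y ≤ 6 * L) :
    ∃ i e : ℤ, y - x = i * L + e ∧ -6 ≤ e ∧ e ≤ 6 := by
  rcases le_total x y with hxy | hxy
  · obtain ⟨i, h0, hi1, hi2⟩ := h.dist hL x y hx hxy hy' wx wy
    have hi6 : i ≤ 6 := by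
      by_contra hc
      push Not at hc
      nlinarith
    exact ⟨i, y - x - i * L, by ring, by nlinarith, by nlinarith⟩
  · obtain ⟨i, h0, hi1, hi2⟩ := h.dist hL y x hy hxy hx' wy wx
    have hi6 : i ≤ 6 := by
      by_contra hc
      push Not at hc
      nlinarith
    exact ⟨-i, y - x + i * L, by ring, by nlinarith, by nlinarith⟩

/-- In a rigid region there is a wall in every interval `[y, y + L]` right of a wall. -/
theorem Rigid.dense (h : Rigid W L lo hi) (hL : 0 < L) (x y : ℤ) (hx : lo ≤ x) (hxy : x ≤ y)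
    (hy : y + L + 1 ≤ hi) (wx : W x) : ∃ c, W c ∧ y ≤ c ∧ c ≤ y + L := by
  obtain ⟨n, hn⟩ : ∃ n : ℕ, (y - x).toNat = n := ⟨_, rfl⟩
  induction n using Nat.strong_induction_on generalizing x with
  | _ n ih =>
    rcases hxy.eq_or_lt with rfl | hlt
    · exact ⟨x, wx, le_refl _, by omega⟩
    · rcases h.nxt x hx (by omega) wx with w | w
      · by_cases hc : y ≤ x + L
        · exact ⟨x + L, w, hc, by omega⟩
        · exact ih ((y - (x + L)).toNat) (by omega) (x + L) (by omega) (by omega) w rfl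
      · by_cases hc : y ≤ x + L + 1
        · exact ⟨x + L + 1, w, hc, by omega⟩
        · exact ih ((y - (x + L + 1)).toNat) (by omega) (x + L + 1) (by omega) (by omega) w rfl

theorem Rigid.step (h : Rigid W L lo hi) (hL : 0 < L) {z a b : ℤ} (hz : 0 ≤ z) (ha : lo ≤ a)
    (wa : W a) (hb : a + z + L + 1 ≤ hi) (hn : Next W z a b) : a + z ≤ b ∧ b ≤ a + z + L := by
  refine ⟨hn.2.1, ?_⟩
  obtain ⟨c, wc, hc1, hc2⟩ := h.dense hL a (a + z) ha (by omega) hb wa
  by_contra hcon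
  exact hn.2.2 c hc1 (by omega) wc

/-- Two critical nodes of the two chains cannot be near each other. -/
theorem far (h : Rigid W L lo hi) {q z1 z2 : ℤ} (hq : 0 ≤ q) (hL : 4 * q + 30 ≤ L)
    (hz : z2 = z1 + 2 * L + L / 2) (hz1 : q ≤ z1) {a b : ℤ} (ha : lo ≤ a) (hb : lo ≤ b)
    (wa : W a) (wb : W b) (ha' : a + z1 + q ≤ hi) (hb' : b + z2 + q ≤ hi)
    (ca : Crit W z1 q a) (cb : Crit W z2 q b)
    (h1 : -(3 * L) ≤ b - a) (h2 : b - a ≤ 3 * L) : False := by
  obtain ⟨t, wt, t1, t2⟩ := ca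
  obtain ⟨t', wt', t1', t2'⟩ := cb
  have hL0 : 0 < L := by omega
  have hdiv : L / 2 * 2 ≤ L ∧ L ≤ L / 2 * 2 + 1 := by omega
  obtain ⟨i, e, he, e1, e2⟩ := h.near hL0 a b ha (by omega) hb (by omega) wa wb (by omega)
    (by omega)
  obtain ⟨i', e', he', e1', e2'⟩ := h.near hL0 t t' (by omega) (by omega) (by omega) (by omega)
    wt wt' (by omega) (by omega)
  -- (t' - t) - (b - a) = z2 - z1 + r with |r| < 2 q
  have key : (i' - i - 2) * L = L / 2 + ((t' - (b + z2)) - (t - (a + z1))) - (e' - e) := by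
    have : t' - t - (b - a) = (i' - i) * L + (e' - e) := by rw [he, he']; ring
    have h3 : (i' - i - 2) * L = (i' - i) * L - 2 * L := by ring
    rw [h3]
    linarith
  rcases le_or_gt (i' - i - 2) 0 with hk | hk
  · have : (i' - i - 2) * L ≤ 0 := mul_nonpos_of_nonpos_of_nonneg hk hL0.le
    omega
  · have : L ≤ (i' - i - 2) * L := by nlinarith
    omega

/-- Reaching a prescribed place with a chain. -/
theorem reach (h : Rigid W L lo hi) (hL : 0 < L) {z : ℤ} (hz : 0 ≤ z) {a : ℕ → ℤ}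
    (hmono : StrictMono a) (ha0 : lo ≤ a 0) (wa : ∀ j, W (a j))
    (hnext : ∀ j, a j + z + L + 1 ≤ hi → Next W z (a j) (a (j + 1)))
    {x : ℤ} (hx : a 0 ≤ x) (hx' : x + z + L + 1 ≤ hi) :
    ∃ j, x ≤ a j ∧ a j ≤ x + z + L := by
  by_contra hcon
  push Not at hcon
  have hlo : ∀ j, lo ≤ a j := fun j => ha0.trans (hmono.monotone (Nat.zero_le j))
  have key : ∀ n : ℕ, a n < x ∧ a 0 + n ≤ a n := by
    intro n
    induction n with
    | zero =>
      refine ⟨?_, by simp⟩
      by_contra hc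
      have := hcon 0 (by omega)
      omega
    | succ n ih =>
      obtain ⟨ih1, ih2⟩ := ih
      have hst := h.step hL hz (hlo n) (wa n) (by omega) (hnext n (by omega))
      have hlt : a n < a (n + 1) := hmono (Nat.lt_succ_self n)
      refine ⟨?_, by push_cast; omega⟩
      by_contra hc
      have := hcon (n + 1) (by omega)
      omega
  have := key ((x - a 0).toNat + 1)
  push_cast at this
  omega

/-- One piece: a clean node of one of the two chains in `[x, x + D)`. -/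
theorem piece (h : Rigid W L lo hi) {q z1 z2 : ℤ} (hq : 0 ≤ q) (hL : 4 * q + 30 ≤ L)
    (hz : z2 = z1 + 2 * L + L / 2) (hz1 : q ≤ z1) {K : ℕ} (hK : L + z1 + 1 ≤ K * L)
    {D : ℤ} (hD : (K + 1) * (z2 + L) + 4 * L + z1 + 1 < D)
    {a b : ℕ → ℤ} (ma : StrictMono a) (mb : StrictMono b) (ha0 : lo ≤ a 0) (hb0 : lo ≤ b 0)
    (wa : ∀ j, W (a j)) (wb : ∀ j, W (b j))
    (na : ∀ j, a j + z1 + L + 1 ≤ hi → Next W z1 (a j) (a (j + 1)))
    (nb : ∀ j, b j + z2 + L + 1 ≤ hi → Next W z2 (b j) (b (j + 1)))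
    {x : ℤ} (hxa : a 0 ≤ x) (hxb : b 0 ≤ x) (hx : x + D + z2 + L + 1 ≤ hi) :
    (∃ j, x ≤ a j ∧ a j < x + D ∧ ¬ Crit W z1 q (a j)) ∨
    (∃ i, x ≤ b i ∧ b i < x + D ∧ ¬ Crit W z2 q (b i)) := by
  have hL0 : 0 < L := by omega
  have hz10 : 0 ≤ z1 := by omega
  have hz20 : 0 ≤ z2 := by omega
  have hdiv : L / 2 * 2 ≤ L ∧ L ≤ L / 2 * 2 + 1 := by omega
  have hKD : 0 ≤ (K : ℤ) * (z2 + L) := by positivity
  have hD' : (K : ℤ) * (z2 + L) + (z2 + L) + 4 * L + z1 + 1 < D := by linarith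
  obtain ⟨i, hi1, hi2⟩ := reach h hL0 hz20 mb hb0 wb nb hxb (by omega)
  obtain ⟨j, hj1, hj2⟩ := reach h hL0 hz10 ma ha0 wa na (x := b i + 3 * L + 1) (by omega) (by omega)
  have loa : ∀ j, lo ≤ a j := fun j => ha0.trans (ma.monotone (Nat.zero_le j))
  have lob : ∀ j, lo ≤ b j := fun j => hb0.trans (mb.monotone (Nat.zero_le j))
  by_contra hcon
  push Not at hcon
  obtain ⟨hca, hcb⟩ := hcon
  -- invariants along the common run
  have key : ∀ k : ℕ, k ≤ K →
      b (i + k) ≤ b i + k * (z2 + L) ∧ b (i + k) - a (j + k) < -(3 * L) ∧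
      b i - a j + k * L ≤ b (i + k) - a (j + k) ∧ a (j + k) ≤ a j + k * (z1 + L) := by
    intro k
    induction k with
    | zero =>
      intro _
      simp only [Nat.cast_zero, zero_mul, add_zero]
      exact ⟨le_refl _, by omega, le_refl _, le_refl _⟩
    | succ k ih =>
      intro hk
      obtain ⟨i1, i2, i3, i4⟩ := ih (by omega)
      have hkK : (k : ℤ) + 1 ≤ K := by exact_mod_cast hk
      have hkK1 : ((k : ℤ) + 1) * (z2 + L) ≤ K * (z2 + L) :=
        mul_le_mul_of_nonneg_right hkK (by omega)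
      have hkK2 : ((k : ℤ) + 1) * (z1 + L) ≤ K * (z2 + L) :=
        (mul_le_mul_of_nonneg_left (by omega) (by positivity)).trans hkK1
      have hk0 : 0 ≤ (k : ℤ) * L := by positivity
      have e1 : ((k : ℤ) + 1) * (z2 + L) = k * (z2 + L) + (z2 + L) := by ring
      have e2 : ((k : ℤ) + 1) * (z1 + L) = k * (z1 + L) + (z1 + L) := by ring
      have sb := h.step hL0 hz20 (lob (i + k)) (wb _) (by omega) (nb (i + k) (by omega))
      have sa := h.step hL0 hz10 (loa (j + k)) (wa _) (by omega) (na (j + k) (by omega))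
      rw [← Nat.add_assoc, ← Nat.add_assoc]
      have hxb' : x ≤ b (i + k + 1) := hi1.trans (mb.monotone (by omega))
      have hxa' : x ≤ a (j + k + 1) := by
        have := ma.monotone (show j ≤ j + k + 1 by omega)
        omega
      have c1 := hca (j + k + 1) hxa' (by omega)
      have c2 := hcb (i + k + 1) hxb' (by omega)
      have hfar : ¬ (-(3 * L) ≤ b (i + k + 1) - a (j + k + 1)) := by
        intro hge
        exact far h hq hL hz hz1 (loa _) (lob _) (wa _) (wb _) (by omega) (by omega) c1 c2 hge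
          (by omega)
      push_cast
      refine ⟨by linarith, by omega, by linarith, by linarith⟩
  obtain ⟨_, k2, k3, _⟩ := key K le_rfl
  omega

/-- **Zone complementarity.** -/
theorem complementary (h : Rigid W L lo hi) {q z1 z2 : ℤ} (hq : 0 ≤ q) (hL : 4 * q + 30 ≤ L)
    (hz : z2 = z1 + 2 * L + L / 2) (hz1 : q ≤ z1) {K : ℕ} (hK : L + z1 + 1 ≤ K * L)
    {D : ℤ} (hD : (K + 1) * (z2 + L) + 4 * L + z1 + 1 < D)
    {a b : ℕ → ℤ} (ma : StrictMono a) (mb : StrictMono b) (ha0 : lo ≤ a 0) (hb0 : lo ≤ b 0)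
    (wa : ∀ j, W (a j)) (wb : ∀ j, W (b j))
    (na : ∀ j, a j + z1 + L + 1 ≤ hi → Next W z1 (a j) (a (j + 1)))
    (nb : ∀ j, b j + z2 + L + 1 ≤ hi → Next W z2 (b j) (b (j + 1)))
    (m : ℕ) {x0 : ℤ} (hxa : a 0 ≤ x0) (hxb : b 0 ≤ x0)
    (hx : x0 + 2 * m * D + z2 + L + 1 ≤ hi) :
    (∃ s : Fin m → ℕ, StrictMono s ∧ ∀ t, x0 ≤ a (s t) ∧ a (s t) < x0 + 2 * m * D ∧
      ¬ Crit W z1 q (a (s t))) ∨
    (∃ s : Fin m → ℕ, StrictMono s ∧ ∀ t, x0 ≤ b (s t) ∧ b (s t) < x0 + 2 * m * D ∧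
      ¬ Crit W z2 q (b (s t))) := by
  classical
  have hL0 : 0 < L := by omega
  have hz10 : 0 ≤ z1 := by omega
  have hz20 : 0 ≤ z2 := by omega
  have hKD : 0 ≤ ((K : ℤ) + 1) * (z2 + L) := by positivity
  have hD0 : 0 < D := by linarith
  let PA : ℕ → Prop := fun p => ∃ j, x0 + p * D ≤ a j ∧ a j < x0 + p * D + D ∧ ¬ Crit W z1 q (a j)
  let PB : ℕ → Prop := fun p => ∃ j, x0 + p * D ≤ b j ∧ b j < x0 + p * D + D ∧ ¬ Crit W z2 q (b j)
  have hp : ∀ p : ℕ, p < 2 * m → PA p ∨ PB p := by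
    intro p hp
    have hp1 : (p : ℤ) + 1 ≤ 2 * m := by exact_mod_cast hp
    have hp2 : ((p : ℤ) + 1) * D ≤ 2 * m * D := mul_le_mul_of_nonneg_right hp1 hD0.le
    have hp3 : 0 ≤ (p : ℤ) * D := by positivity
    have e1 : ((p : ℤ) + 1) * D = p * D + D := by ring
    exact piece h hq hL hz hz1 hK hD ma mb ha0 hb0 wa wb na nb (x := x0 + p * D)
      (by omega) (by omega) (by omega)
  have gen : ∀ (c : ℕ → ℤ) (z : ℤ), StrictMono c →
      m ≤ ((Finset.range (2 * m)).filter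
        (fun p : ℕ => ∃ j, x0 + (p : ℤ) * D ≤ c j ∧ c j < x0 + p * D + D ∧ ¬ Crit W z q (c j))).card →
      ∃ s : Fin m → ℕ, StrictMono s ∧ ∀ t, x0 ≤ c (s t) ∧ c (s t) < x0 + 2 * m * D ∧
        ¬ Crit W z q (c (s t)) := by
    intro c z mc hcard
    set P := (Finset.range (2 * m)).filter
        (fun p : ℕ => ∃ j, x0 + (p : ℤ) * D ≤ c j ∧ c j < x0 + p * D + D ∧ ¬ Crit W z q (c j)) with hP
    let f := P.orderEmbOfCardLe hcard
    have hf : ∀ t, ∃ j, x0 + ((f t : ℕ) : ℤ) * D ≤ c j ∧ c j < x0 + ((f t : ℕ) : ℤ) * D + D ∧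
        ¬ Crit W z q (c j) := by
      intro t
      have : f t ∈ P := Finset.orderEmbOfCardLe_mem P hcard t
      exact (Finset.mem_filter.mp this).2
    choose s hs1 hs2 hs3 using hf
    refine ⟨s, ?_, ?_⟩
    · intro t t' htt
      have hlt : f t < f t' := f.strictMono htt
      have h1 : ((f t : ℕ) : ℤ) + 1 ≤ ((f t' : ℕ) : ℤ) := by exact_mod_cast hlt
      have h2 : (((f t : ℕ) : ℤ) + 1) * D ≤ ((f t' : ℕ) : ℤ) * D :=
        mul_le_mul_of_nonneg_right h1 hD0.le
      have e1 : (((f t : ℕ) : ℤ) + 1) * D = ((f t : ℕ) : ℤ) * D + D := by ring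
      have a1 := hs2 t
      have a2 := hs1 t'
      exact mc.lt_iff_lt.mp (by omega)
    · intro t
      have hmem : f t ∈ P := Finset.orderEmbOfCardLe_mem P hcard t
      have hlt : f t < 2 * m := Finset.mem_range.mp (Finset.mem_filter.mp hmem).1
      have h1 : ((f t : ℕ) : ℤ) + 1 ≤ 2 * m := by exact_mod_cast hlt
      have h2 : (((f t : ℕ) : ℤ) + 1) * D ≤ 2 * m * D := mul_le_mul_of_nonneg_right h1 hD0.le
      have h3 : 0 ≤ ((f t : ℕ) : ℤ) * D := by positivity
      have e1 : (((f t : ℕ) : ℤ) + 1) * D = ((f t : ℕ) : ℤ) * D + D := by ring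
      have a1 := hs1 t
      have a2 := hs2 t
      exact ⟨by omega, by omega, hs3 t⟩
  by_cases hA : m ≤ ((Finset.range (2 * m)).filter PA).card
  · exact Or.inl (gen a z1 ma hA)
  · right
    refine gen b z2 mb ?_
    have hsub : Finset.range (2 * m) ⊆ (Finset.range (2 * m)).filter PA ∪
        (Finset.range (2 * m)).filter PB := by
      intro p hpm
      rcases hp p (Finset.mem_range.mp hpm) with h1 | h1
      · exact Finset.mem_union_left _ (Finset.mem_filter.mpr ⟨hpm, h1⟩)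
      · exact Finset.mem_union_right _ (Finset.mem_filter.mpr ⟨hpm, h1⟩)
    have h1 := Finset.card_le_card hsub
    have h2 := Finset.card_union_le ((Finset.range (2 * m)).filter PA)
      ((Finset.range (2 * m)).filter PB)
    rw [Finset.card_range] at h1
    have h3 : m ≤ ((Finset.range (2 * m)).filter PB).card := by omega
    exact h3

end Crest.Agent.R320.Comp713
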