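import Crest.Agent.R320.Sch2_606

/-!
Row 320, helper407: THE TWO WALL SCHEMES ON ALL WORDS, from 638's gadget `UG` (no small walls) and
237's / 606's redundant exact gadget.  Walls = left-looking walls of all words.
-/

set_option autoImplicit false
set_option linter.unusedSectionVars false

namespace Crest.Agent.R320.Con_407

open Finset Crest.Agent.R320.ExactR_237 Crest.Agent.R320.Sch2_606

/-- left-looking walls -/
structure LW {α : Type} (Wo : List α → Prop) (no W : ℕ) : Prop where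
  loc : ∀ P Q : List α, no ≤ Q.length → (Wo (P ++ Q) ↔ Wo Q)
  len : ∀ P, Wo P → no ≤ P.length
  gap : ∀ P D, Wo P → Wo (P ++ D) → D ≠ [] → W < D.length

/-- 638's gadget -/
structure UGd {α S V : Type} [Monoid S] [AddCommGroup V] (f : α → S) (act : V → S → V) (Mp N : ℕ)
    (BadN : ℕ → Prop) (lam rho : List α → Option V) (nu : List α → V) : Prop where
  l : ∀ p v, lam p = some v → Mp ∣ p.length ∧ p.length ≤ N
  exact : ∀ p q v b, lam p = some v → rho q = some b → b = act v (pr f (p ++ q)) + nu (p ++ q)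
  complete : ∀ u, 2 * N ≤ u.length → ¬ BadN u.length → ∀ v, ∃ p q, p ++ q = u ∧ lam p = some v ∧
    (rho q).isSome

section

variable {α : Type} (Wo : List α → Prop) (z Δ Mp N : ℕ)

/-- a wall at distance `y` (from anchor + p0) qualifies -/
def Ql (y : ℕ) : Prop := z + Δ * (y % Mp) ≤ y

/-- the next anchor of the text `Y` -/
def IsN (Y : List α) (y : ℕ) : Prop :=
  y ≤ Y.length ∧ Wo (Y.take y) ∧ Ql z Δ Mp y ∧ ∀ y' < y, Wo (Y.take y') → ¬ Ql z Δ Mp y'

/-- blocks without their first `p0` letters -/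
def YY (Y : List α) : Prop := IsN Wo z Δ Mp Y Y.length

/-- right words of scheme 1 -/
def RB (Q : List α) : Prop :=
  Wo Q ∧ Ql z Δ Mp Q.length ∧ ∀ y < Q.length, Wo (Q.take y) → y + N < z + Δ * (y % Mp)

/-- wall band -/
def EE (Y : List α) : Prop :=
  ∃ y ≤ Y.length, Wo (Y.take y) ∧ y ≤ z + Δ * (y % Mp) + N ∧ z + Δ * (y % Mp) ≤ y + N

variable {Wo z Δ Mp N} {no W : ℕ}

theorem IsN.unique {Y : List α} {y y' : ℕ} (h : IsN Wo z Δ Mp Y y) (h' : IsN Wo z Δ Mp Y y') :
    y = y' := by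
  rcases lt_trichotomy y y' with h1 | h1 | h1
  · exact absurd h.2.2.1 (h'.2.2.2 y h1 h.2.1)
  · exact h1
  · exact absurd h'.2.2.1 (h.2.2.2 y' h1 h'.2.1)

theorem IsN.append {Y Z : List α} {y : ℕ} (h : IsN Wo z Δ Mp Y y) : IsN Wo z Δ Mp (Y ++ Z) y := by
  obtain ⟨h1, h2, h3, h4⟩ := h
  refine ⟨by rw [List.length_append]; omega, ?_, h3, fun y' hy' hw => ?_⟩
  · rwa [List.take_append_of_le_length h1]
  · rw [List.take_append_of_le_length (by omega)] at hw
    exact h4 y' hy' hw

theorem IsN.of_append {Y Z : List α} {y : ℕ} (h : IsN Wo z Δ Mp (Y ++ Z) y) (hy : y ≤ Y.length) :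
    IsN Wo z Δ Mp Y y := by
  obtain ⟨h1, h2, h3, h4⟩ := h
  refine ⟨hy, ?_, h3, fun y' hy' hw => ?_⟩
  · rwa [List.take_append_of_le_length hy] at h2
  · refine h4 y' hy' ?_
    rwa [List.take_append_of_le_length (by omega)]

theorem IsN.take {Y : List α} {y : ℕ} (h : IsN Wo z Δ Mp Y y) : YY Wo z Δ Mp (Y.take y) := by
  have h1 : (Y.take y).length = y := by rw [List.length_take]; exact min_eq_left h.1
  unfold YY
  rw [h1]
  have : Y = Y.take y ++ Y.drop y := (List.take_append_drop _ _).symm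
  rw [this] at h
  exact h.of_append h1.ge

theorem YY.isN {Y Z : List α} (h : YY Wo z Δ Mp Y) : IsN Wo z Δ Mp (Y ++ Z) Y.length := IsN.append h

theorem exists_isN {Y : List α} {y : ℕ} (hy : y ≤ Y.length) (hw : Wo (Y.take y))
    (hq : Ql z Δ Mp y) : ∃ e, IsN Wo z Δ Mp Y e := by
  classical
  have hex : ∃ y, y ≤ Y.length ∧ Wo (Y.take y) ∧ Ql z Δ Mp y := ⟨y, hy, hw, hq⟩
  obtain ⟨h1, h2, h3⟩ := Nat.find_spec hex
  refine ⟨Nat.find hex, h1, h2, h3, fun y' hy' hw' hq' => ?_⟩
  exact Nat.find_min hex hy' ⟨by omega, hw', hq'⟩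

/-- junction of scheme 1 -/
theorem junction (hW : LW Wo no W) (hz : N + no < z) {P Q : List α} (hP : Mp ∣ P.length)
    (hP' : P.length ≤ N) (hQ : RB Wo z Δ Mp N Q) : YY Wo z Δ Mp (P ++ Q) := by
  obtain ⟨h1, h2, h3⟩ := hQ
  have hno := hW.len _ h1
  obtain ⟨k, hk⟩ := hP
  have hmod : ∀ y, (P.length + y) % Mp = y % Mp := by
    intro y
    rw [hk, Nat.mul_add_mod]
  refine ⟨le_rfl, ?_, ?_, fun y' hy' hw hq => ?_⟩
  · rw [List.take_length]
    exact (hW.loc _ _ hno).2 h1
  · unfold Ql at h2 ⊢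
    rw [List.length_append, hmod]
    omega
  · rw [List.length_append] at hy'
    unfold Ql at hq
    have hy'' : P.length + no ≤ y' := by omega
    obtain ⟨y, rfl⟩ := Nat.exists_eq_add_of_le (show P.length ≤ y' by omega)
    rw [hmod] at hq
    rw [List.take_append, List.take_of_length_le (by omega), Nat.add_sub_cancel_left] at hw
    have hw2 := (hW.loc _ _ (by rw [List.length_take]; omega)).1 hw
    have := h3 y (by omega) hw2
    omega

theorem junction_conv (hW : LW Wo no W) (hz : N + no < z) {P Q : List α} (hP : Mp ∣ P.length)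
    (hP' : P.length ≤ N) (hY : YY Wo z Δ Mp (P ++ Q)) (hE : ¬ EE Wo z Δ Mp N (P ++ Q)) :
    RB Wo z Δ Mp N Q := by
  obtain ⟨-, h1, h2, h3⟩ := hY
  rw [List.take_length] at h1
  obtain ⟨k, hk⟩ := hP
  have hmod : ∀ y, (P.length + y) % Mp = y % Mp := by
    intro y
    rw [hk, Nat.mul_add_mod]
  unfold Ql at h2
  have hl : (P ++ Q).length = P.length + Q.length := List.length_append
  unfold EE at hE
  push Not at hE
  have e1 := hE (P ++ Q).length le_rfl (by rwa [List.take_length])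
  rw [hl, hmod] at h2
  rw [hl, hmod] at e1
  have hQno : no ≤ Q.length := by omega
  refine ⟨(hW.loc _ _ hQno).1 h1, ?_, fun y hy hw => ?_⟩
  · unfold Ql
    by_contra hcon
    exact absurd (e1 (by omega)) (by omega)
  · have hyno : no ≤ y := by
      have := hW.len _ hw
      rw [List.length_take] at this
      omega
    have hw2 : Wo ((P ++ Q).take (P.length + y)) := by
      rw [List.take_append, List.take_of_length_le (by omega), Nat.add_sub_cancel_left]
      exact (hW.loc _ _ (by rw [List.length_take]; omega)).2 hw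
    have h4 := h3 (P.length + y) (by omega) hw2
    unfold Ql at h4
    rw [hmod] at h4
    have h5 := hE (P.length + y) (by omega) hw2
    rw [hmod] at h5
    by_contra hcon
    exact absurd (h5 (by omega)) (by omega)


end

/-! ### The two schemes -/

section Two

variable {α S V : Type} [Monoid S] [AddCommGroup V]

/-- all data -/
structure Dt (α S V : Type) where
  Wo : List α → Prop
  z : ℕ
  Δ : ℕ
  Mp : ℕ
  N : ℕ
  no : ℕ
  W : ℕ
  p0 : ℕ
  K : ℕ
  x : ℕ → ℕ
  BadN : ℕ → Prop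
  f : α → S
  act : V → S → V
  lam : List α → Option V
  rho : List α → Option V
  nu : List α → V
  lam' : ℕ → List α → Option V
  rho' : ℕ → List α → S → Option V
  nu' : List α → S → V

variable (D : Dt α S V)

/-- next anchor -/
def Dt.N' (Y : List α) (y : ℕ) : Prop := IsN D.Wo D.z D.Δ D.Mp Y y

/-- blocks -/
def Dt.XX : Set (List α) := {X | D.p0 ≤ X.length ∧ YY D.Wo D.z D.Δ D.Mp (X.drop D.p0)}

/-- label after `p0` letters -/
def Dt.pre (X : List α) (v : V) : V := D.act v (pr D.f X * 1) + D.nu' X 1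

/-- second half of the zone map -/
def Dt.post (b : V) (Y : List α) : V := D.act b (pr D.f Y) + D.nu Y

/-- zone map -/
def Dt.T (v : V) (X : List α) : V := D.post (D.pre (X.take D.p0) v) (X.drop D.p0)

/-- bad texts -/
def Dt.Bd (Y : List α) : Prop :=
  ∃ e, D.N' Y e ∧ (EE D.Wo D.z D.Δ D.Mp D.N (Y.take e) ∨ D.BadN e)

open Classical in
/-- tail data for 606 -/
noncomputable def Dt.tl (Y : List α) : Option (ℕ × S) :=
  if h : ∃ e, D.N' Y e then some (h.choose, 1) else none

def Dt.LP1 (v : V) : Set (List α) :=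
  {P | D.p0 ≤ P.length ∧ D.lam (P.drop D.p0) = some (D.pre (P.take D.p0) v)}

def Dt.RQ1 (b : V) : Set (List α) := {Q | RB D.Wo D.z D.Δ D.Mp D.N Q ∧ D.rho Q = some b}

noncomputable def Dt.LP2 (v : V) : Set (List α) := {P | lam2 D.K D.x D.lam' P = some v}

def Dt.RQ2 (w : V) : Set (List α) :=
  {Q | ∃ k e b, Only D.K D.x D.p0 D.Bd Q k ∧ D.N' (Q.drop (D.p0 - D.x k)) e ∧
    D.rho' k (Q.take (D.p0 - D.x k)) 1 = some b ∧ Q.drop (D.p0 - D.x k + e) ∈ D.XX ∧
    w = D.T (D.post b ((Q.drop (D.p0 - D.x k)).take e)) (Q.drop (D.p0 - D.x k + e))}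

/-- hypotheses -/
structure Dt.Ok (D : Dt α S V) (R C0 : ℕ) : Prop where
  lw : LW D.Wo D.no D.W
  hz : D.N + D.no < D.z
  hz2 : 2 * D.N + 2 * D.p0 + D.no ≤ D.z
  hMp : 0 < D.Mp
  hΔ : 2 * D.N + 2 * D.p0 < D.Δ
  hW : D.Δ * D.Mp + 2 * D.N + 2 * D.p0 ≤ D.W
  ug : UGd D.f D.act D.Mp D.N D.BadN D.lam D.rho D.nu
  xm : ∀ i j, i < j → j < D.K → D.x i < D.x j
  xp : ∀ k < D.K, D.x k ≤ D.p0
  gad : Gad D.f D.act D.K R D.x D.lam' D.rho' D.nu'
  golomb : ∀ a b c d, a < D.K → b < D.K → c < D.K → d < D.K →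
    (D.Mp : ℤ) ∣ ((D.x a : ℤ) - D.x b) - (D.x c - D.x d) → (a = c ∧ b = d) ∨ (a = b ∧ c = d)
  spoil : ∀ T, D.N ≤ T → ∀ [DecidablePred D.BadN],
    ((Finset.range D.K ×ˢ Finset.range D.K).filter
      (fun ab => ab.1 ≠ ab.2 ∧ D.BadN (T + D.x ab.1 - D.x ab.2))).card ≤ C0
  hR : 1 + 2 * C0 < R

variable {D} {R C0 : ℕ}

theorem XX_ne (h : D.Ok R C0) {X : List α} (hX : X ∈ D.XX) : X ≠ [] := by
  rintro rfl
  have := hX.2.2.2.1
  unfold Ql at this
  have := h.hz
  simp at *
  omega

theorem XX_prefix {X Z : List α} (hX : X ∈ D.XX) (hXZ : X ++ Z ∈ D.XX) : Z = [] := by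
  obtain ⟨h1, h2⟩ := hX
  obtain ⟨h3, h4⟩ := hXZ
  rw [List.drop_append_of_le_length h1] at h4
  have h5 := h2.isN (Z := Z)
  have h6 := IsN.unique h5 h4
  rw [List.length_append] at h6
  exact List.length_eq_zero_iff.1 (by omega)

/-- first scheme, soundness -/
theorem s1 (h : D.Ok R C0) {P Q : List α} {v b : V} (hP : P ∈ D.LP1 v) (hQ : Q ∈ D.RQ1 b) :
    P ++ Q ∈ D.XX ∧ D.T v (P ++ Q) = b := by
  obtain ⟨h1, h2⟩ := hP
  obtain ⟨h3, h4⟩ := hQ
  obtain ⟨h5, h6⟩ := h.ug.l _ _ h2
  refine ⟨⟨by rw [List.length_append]; omega, ?_⟩, ?_⟩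
  · rw [List.drop_append_of_le_length h1]
    exact junction h.lw h.hz h5 h6 h3
  · unfold Dt.T Dt.post
    rw [List.drop_append_of_le_length h1, List.take_append_of_le_length h1]
    exact (h.ug.exact _ _ _ _ h2 h4).symm

theorem Q_len (h : D.Ok R C0) {b : V} {Q : List α} (hQ : Q ∈ D.RQ1 b) : Q ≠ [] := by
  rintro rfl
  have := hQ.1.2.1
  unfold Ql at this
  have := h.hz
  simp at *
  omega

/-- first scheme, completeness -/
theorem c1 (h : D.Ok R C0) {X : List α} (hX : X ∈ D.XX)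
    (hE : ¬ EE D.Wo D.z D.Δ D.Mp D.N (X.drop D.p0)) (hB : ¬ D.BadN (X.drop D.p0).length) (v : V) :
    ∃ P Q b, X = P ++ Q ∧ P ∈ D.LP1 v ∧ Q ∈ D.RQ1 b := by
  obtain ⟨h1, h2⟩ := hX
  have hq := h2.2.2.1
  unfold Ql at hq
  have hz2 := h.hz2
  obtain ⟨p, q, e, h3, h4⟩ := h.ug.complete (X.drop D.p0) (by omega) hB (D.pre (X.take D.p0) v)
  obtain ⟨b, hb⟩ := Option.isSome_iff_exists.1 h4
  obtain ⟨h5, h6⟩ := h.ug.l _ _ h3
  have hl : (X.take D.p0).length = D.p0 := by rw [List.length_take]; exact min_eq_left h1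
  refine ⟨X.take D.p0 ++ p, q, b, ?_, ⟨by rw [List.length_append]; omega, ?_⟩, ?_, hb⟩
  · rw [List.append_assoc, e, List.take_append_drop]
  · rw [List.drop_append_of_le_length hl.ge, List.drop_of_length_le hl.le, List.nil_append,
      List.take_append_of_le_length hl.ge, List.take_of_length_le hl.le]
    exact h3
  · refine junction_conv h.lw h.hz h5 h6 ?_ ?_
    · rw [e]; exact h2
    · rw [e]; exact hE


theorem Ql_of_large (h : D.Ok R C0) {y : ℕ} (hy : D.z + D.Δ * D.Mp ≤ y) : Ql D.z D.Δ D.Mp y := by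
  unfold Ql
  have := Nat.mul_le_mul_left D.Δ (Nat.mod_lt y h.hMp).le
  omega

theorem take_add' {U : List α} (s y : ℕ) : U.take (s + y) = U.take s ++ (U.drop s).take y :=
  List.take_add

theorem s2 (h : D.Ok R C0) {P Q : List α} {v w : V} (hP : P ∈ D.LP2 v) (hQ : Q ∈ D.RQ2 w)
    (hnc : ¬ ∃ P1 Q1 r b, P ++ Q = P1 ++ Q1 ++ r ∧ P.length ≤ P1.length ∧ P1 ∈ D.LP1 v ∧
      Q1 ∈ D.RQ1 b) :
    ∃ X1 ∈ D.XX, ∃ X2 ∈ D.XX, P ++ Q = X1 ++ X2 ∧ D.T (D.T v X1) X2 = w ∧
      P.length ≤ X1.length := by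
  obtain ⟨k0, hk0, hPl, hl⟩ := lam2_some hP
  obtain ⟨k, e, b, hOnly, hN, hr, hX2, rfl⟩ := hQ
  have hxk := h.xp k hOnly.1
  have hxk0 := h.xp k0 hk0
  have hz := h.hz
  have hz2 := h.hz2
  have hW := h.hW
  have hdrop : (P ++ Q).drop D.p0 = Q.drop (D.p0 - D.x k0) := by
    have h1 : D.p0 = P.length + (D.p0 - D.x k0) := by omega
    conv_lhs => rw [h1]
    rw [List.drop_append]
    simp
  have htake : (P ++ Q).take D.p0 = P ++ Q.take (D.p0 - D.x k0) := by
    have h1 : D.p0 = P.length + (D.p0 - D.x k0) := by omega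
    conv_lhs => rw [h1]
    rw [List.take_append]
    simp
  have hez : D.z ≤ e := by
    have := hN.2.2.1
    unfold Ql at this
    omega
  have hel : e ≤ Q.length - (D.p0 - D.x k) := by
    have := hN.1
    rwa [List.length_drop] at this
  have hQX : Q = Q.take (D.p0 - D.x k + e) ++ Q.drop (D.p0 - D.x k + e) :=
    (List.take_append_drop _ _).symm
  set X2 := Q.drop (D.p0 - D.x k + e) with hX2def
  have hX2l : X2.length = Q.length - (D.p0 - D.x k + e) := by rw [hX2def, List.length_drop]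
  have hX2w : D.Wo (X2.drop D.p0) := by
    have := hX2.2.2.1
    rwa [List.take_length] at this
  have hX2z : D.z ≤ (X2.drop D.p0).length := by
    have := hX2.2.2.2.1
    unfold Ql at this
    omega
  have hWQ : D.Wo Q := by
    have : Q = (Q.take (D.p0 - D.x k + e) ++ X2.take D.p0) ++ X2.drop D.p0 := by
      rw [List.append_assoc, List.take_append_drop]; exact hQX
    rw [this]
    exact (h.lw.loc _ _ (by omega)).2 hX2w
  have hWt : D.Wo (Q.take (D.p0 - D.x k + e)) := by
    rw [take_add']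
    exact (h.lw.loc _ _ (by rw [List.length_take, List.length_drop]; omega)).2 hN.2.1
  have hgap : D.W < X2.length := by
    refine h.lw.gap _ _ hWt (by rw [← hQX]; exact hWQ) ?_
    intro h0
    rw [h0] at hX2z
    simp at hX2z
    omega
  set Y := Q.drop (D.p0 - D.x k0) with hY
  have hYl : Y.length = Q.length - (D.p0 - D.x k0) := by rw [hY, List.length_drop]
  obtain ⟨e0, he0⟩ : ∃ e0, D.N' Y e0 := by
    refine exists_isN (y := Y.length) le_rfl ?_ (Ql_of_large h (by omega))
    rw [List.take_length]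
    have h2 : Q = Q.take (D.p0 - D.x k0) ++ Y := (List.take_append_drop _ _).symm
    rw [h2] at hWQ
    exact (h.lw.loc _ _ (by omega)).1 hWQ
  have hbd : D.Bd Y := by
    by_contra hbd
    apply hnc
    have he0l := he0.1
    have hXl : ((P ++ Q).take (D.p0 + e0)).length = D.p0 + e0 := by
      rw [List.length_take, List.length_append]
      omega
    have hXd : ((P ++ Q).take (D.p0 + e0)).drop D.p0 = Y.take e0 := by
      rw [List.drop_take, hdrop, Nat.add_sub_cancel_left]
    have hX : (P ++ Q).take (D.p0 + e0) ∈ D.XX := by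
      refine ⟨by omega, ?_⟩
      rw [hXd]
      exact he0.take
    have hYt : (Y.take e0).length = e0 := by rw [List.length_take]; omega
    obtain ⟨P1, Q1, b1, e1, e2, e3⟩ := c1 h hX (by
      rw [hXd]; exact fun hE => hbd ⟨e0, he0, Or.inl hE⟩) (by
      rw [hXd, hYt]; exact fun hB => hbd ⟨e0, he0, Or.inr hB⟩) v
    refine ⟨P1, Q1, (P ++ Q).drop (D.p0 + e0), b1, ?_, ?_, e2, e3⟩
    · rw [← e1, List.take_append_drop]
    · have := e2.1
      omega
  have hkk : k0 = k := hOnly.2.2 k0 hk0 hbd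
  subst hkk
  have hXl : ((P ++ Q).take (D.p0 + e)).length = D.p0 + e := by
    rw [List.length_take, List.length_append]
    omega
  have hXd : ((P ++ Q).take (D.p0 + e)).drop D.p0 = Y.take e := by
    rw [List.drop_take, hdrop, Nat.add_sub_cancel_left]
  have hX : (P ++ Q).take (D.p0 + e) ∈ D.XX := by
    refine ⟨by omega, ?_⟩
    rw [hXd]
    exact hN.take
  have hX2' : (P ++ Q).drop (D.p0 + e) = X2 := by
    have : D.p0 + e = P.length + (D.p0 - D.x k0 + e) := by omega
    rw [this, List.drop_append]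
    simp [hX2def]
  refine ⟨(P ++ Q).take (D.p0 + e), hX, X2, hX2, ?_, ?_, by omega⟩
  · rw [← hX2', List.take_append_drop]
  · congr 1
    unfold Dt.T
    rw [hXd]
    congr 1
    rw [List.take_take, min_eq_left (by omega), htake]
    exact (h.gad.sound k0 hk0 P _ 1 v b hPl hl hr).symm

/-- two possible next anchors for all candidates -/
theorem two_walls (h : D.Ok R C0) (U : List α) : ∃ w1 w2 : ℕ, D.z ≤ w1 ∧ D.z ≤ w2 ∧
    ∀ s e, s ≤ 2 * D.p0 → D.N' (U.drop s) e → s + e = w1 ∨ s + e = w2 := by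
  classical
  have hz := h.hz
  have hz2 := h.hz2
  have hW := h.hW
  have key : ∀ s e, D.N' (U.drop s) e → s + e ≤ U.length ∧ D.Wo (U.take (s + e)) ∧ D.z ≤ e := by
    intro s e he
    have hez : D.z ≤ e := by
      have := he.2.2.1
      unfold Ql at this
      omega
    have h1 := he.1
    rw [List.length_drop] at h1
    refine ⟨by omega, ?_, hez⟩
    rw [take_add']
    exact (h.lw.loc _ _ (by rw [List.length_take, List.length_drop]; omega)).2 he.2.1
  by_cases hex : ∃ t, D.z ≤ t ∧ t ≤ U.length ∧ D.Wo (U.take t)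
  · obtain ⟨a1, a2, a3⟩ := Nat.find_spec hex
    set w1 := Nat.find hex with hw1
    by_cases hex2 : ∃ t, w1 < t ∧ t ≤ U.length ∧ D.Wo (U.take t)
    · obtain ⟨b1, b2, b3⟩ := Nat.find_spec hex2
      set w2 := Nat.find hex2 with hw2
      refine ⟨w1, w2, a1, by omega, fun s e hs he => ?_⟩
      obtain ⟨c1, c2, c3⟩ := key s e he
      have d1 : w1 ≤ s + e := Nat.find_min' hex ⟨by omega, c1, c2⟩
      rcases Nat.eq_or_lt_of_le d1 with d2 | d2
      · exact Or.inl d2.symm
      · have d3 : w2 ≤ s + e := Nat.find_min' hex2 ⟨d2, c1, c2⟩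
        rcases Nat.eq_or_lt_of_le d3 with d4 | d4
        · exact Or.inr d4.symm
        · exfalso
          have hg : D.W < w2 - w1 := by
            have e1 : U.take w2 = U.take w1 ++ (U.drop w1).take (w2 - w1) := by
              rw [← take_add']; congr 1; omega
            have := h.lw.gap _ ((U.drop w1).take (w2 - w1)) a3 (by rw [← e1]; exact b3) (by
              intro h0
              have := congrArg List.length h0
              rw [List.length_take, List.length_drop, List.length_nil] at this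
              omega)
            rw [List.length_take, List.length_drop] at this
            omega
          refine he.2.2.2 (w2 - s) (by omega) ?_ (Ql_of_large h (by omega))
          have e2 : U.take w2 = U.take s ++ (U.drop s).take (w2 - s) := by
            rw [← take_add']; congr 1; omega
          rw [e2] at b3
          exact (h.lw.loc _ _ (by rw [List.length_take, List.length_drop]; omega)).1 b3
    · refine ⟨w1, w1, a1, a1, fun s e hs he => ?_⟩
      obtain ⟨c1, c2, c3⟩ := key s e he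
      have d1 : w1 ≤ s + e := Nat.find_min' hex ⟨by omega, c1, c2⟩
      rcases Nat.eq_or_lt_of_le d1 with d2 | d2
      · exact Or.inl d2.symm
      · exact absurd ⟨s + e, d2, c1, c2⟩ hex2
  · refine ⟨D.z, D.z, le_rfl, le_rfl, fun s e hs he => ?_⟩
    obtain ⟨c1, c2, c3⟩ := key s e he
    exact absurd ⟨s + e, by omega, c1, c2⟩ hex


/-- the pair `(k,j)` sees the wall band -/
def Dt.EP (D : Dt α S V) (U : List α) (s : ℕ) : Prop :=
  ∃ y, s + y ≤ U.length ∧ D.no ≤ y ∧ D.Wo (U.take (s + y)) ∧ y ≤ D.z + D.Δ * (y % D.Mp) + D.N ∧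
    D.z + D.Δ * (y % D.Mp) ≤ y + D.N

theorem EP_unique (h : D.Ok R C0) (U : List α) {k j k' j' : ℕ} (hk : k < D.K) (hj : j < D.K)
    (hk' : k' < D.K) (hj' : j' < D.K) (hkj : j ≠ k) (hkj' : j' ≠ k')
    (h1 : D.EP U (D.x k + (D.p0 - D.x j))) (h2 : D.EP U (D.x k' + (D.p0 - D.x j'))) :
    k = k' ∧ j = j' := by
  obtain ⟨y, a1, a2, a3, a4, a5⟩ := h1
  obtain ⟨y', b1, b2, b3, b4, b5⟩ := h2
  have x1 := h.xp k hk
  have x2 := h.xp j hj
  have x3 := h.xp k' hk'
  have x4 := h.xp j' hj'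
  have hz := h.hz
  have hz2 := h.hz2
  have hW := h.hW
  have hΔ := h.hΔ
  have m1 := Nat.mul_le_mul_left D.Δ (Nat.mod_lt y h.hMp).le
  have m2 := Nat.mul_le_mul_left D.Δ (Nat.mod_lt y' h.hMp).le
  have hgap : ∀ a b : ℕ, a < b → b ≤ U.length → D.Wo (U.take a) → D.Wo (U.take b) →
      D.W < b - a := by
    intro a b hab hb ha hb'
    have e1 : U.take b = U.take a ++ (U.drop a).take (b - a) := by
      rw [← take_add']; congr 1; omega
    have := h.lw.gap _ ((U.drop a).take (b - a)) ha (by rw [← e1]; exact hb') (by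
      intro h0
      have := congrArg List.length h0
      rw [List.length_take, List.length_drop, List.length_nil] at this
      omega)
    rw [List.length_take, List.length_drop] at this
    omega
  have hσ : D.x k + (D.p0 - D.x j) + y = D.x k' + (D.p0 - D.x j') + y' := by
    rcases lt_trichotomy (D.x k + (D.p0 - D.x j) + y) (D.x k' + (D.p0 - D.x j') + y') with c | c | c
    · have := hgap _ _ c b1 a3 b3
      omega
    · exact c
    · have := hgap _ _ c a1 b3 a3
      omega
  have hρ : y % D.Mp = y' % D.Mp := by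
    rcases lt_trichotomy (y % D.Mp) (y' % D.Mp) with c | c | c
    · have := Nat.mul_le_mul_left D.Δ (show y % D.Mp + 1 ≤ y' % D.Mp from c)
      rw [Nat.mul_add, Nat.mul_one] at this
      omega
    · exact c
    · have := Nat.mul_le_mul_left D.Δ (show y' % D.Mp + 1 ≤ y % D.Mp from c)
      rw [Nat.mul_add, Nat.mul_one] at this
      omega
  have hdvd : (D.Mp : ℤ) ∣ (y : ℤ) - y' := by
    have : (y' : ℤ) ≡ y [ZMOD D.Mp] := by
      have := (show y' ≡ y [MOD D.Mp] from hρ.symm)
      exact (Int.natCast_modEq_iff).2 this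
    exact this.dvd
  have hg : (D.Mp : ℤ) ∣ ((D.x k' : ℤ) - D.x j') - (D.x k - D.x j) := by
    have : ((D.x k' : ℤ) - D.x j') - (D.x k - D.x j) = (y : ℤ) - y' := by omega
    rw [this]; exact hdvd
  rcases h.golomb k' j' k j hk' hj' hk hj hg with ⟨c1, c2⟩ | ⟨c1, c2⟩
  · exact ⟨c1.symm, c2.symm⟩
  · exact absurd c1.symm hkj'

open Classical in
/-- the number of spoiled places -/
theorem spoil_count (h : D.Ok R C0) (U : List α) :
    ((Finset.range D.K).filter (fun k => ∃ j < D.K, j ≠ k ∧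
      D.Bd (U.drop (D.x k + (D.p0 - D.x j))))).card < R := by
  obtain ⟨w1, w2, hw1, hw2, hw⟩ := two_walls h U
  have hz := h.hz
  have hz2 := h.hz2
  have hR := h.hR
  set A := Finset.range D.K ×ˢ Finset.range D.K with hA
  set E := A.filter (fun ab => ab.1 ≠ ab.2 ∧ D.EP U (D.x ab.2 + (D.p0 - D.x ab.1))) with hE
  set B1 := A.filter (fun ab => ab.1 ≠ ab.2 ∧ D.BadN ((w1 - D.p0) + D.x ab.1 - D.x ab.2)) with hB1
  set B2 := A.filter (fun ab => ab.1 ≠ ab.2 ∧ D.BadN ((w2 - D.p0) + D.x ab.1 - D.x ab.2)) with hB2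
  have cE : E.card ≤ 1 := by
    rw [Finset.card_le_one]
    rintro ⟨j, k⟩ h1 ⟨j', k'⟩ h2
    rw [hE, Finset.mem_filter, hA, Finset.mem_product, Finset.mem_range, Finset.mem_range] at h1 h2
    obtain ⟨⟨a1, a2⟩, a3, a4⟩ := h1
    obtain ⟨⟨b1, b2⟩, b3, b4⟩ := h2
    obtain ⟨c1, c2⟩ := EP_unique h U a2 a1 b2 b1 a3 b3 a4 b4
    exact Prod.ext c2 c1
  have c1 : B1.card ≤ C0 := by
    have := h.spoil (w1 - D.p0) (by omega)
    convert this using 2
  have c2 : B2.card ≤ C0 := by
    have := h.spoil (w2 - D.p0) (by omega)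
    convert this using 2
  have hsub : ((Finset.range D.K).filter (fun k => ∃ j < D.K, j ≠ k ∧
      D.Bd (U.drop (D.x k + (D.p0 - D.x j))))) ⊆ (E ∪ (B1 ∪ B2)).image Prod.snd := by
    intro k hk
    rw [Finset.mem_filter, Finset.mem_range] at hk
    obtain ⟨hk, j, hj, hjk, e, he, hb⟩ := hk
    rw [Finset.mem_image]
    refine ⟨(j, k), ?_, rfl⟩
    have x1 := h.xp k hk
    have x2 := h.xp j hj
    have hmem : (j, k) ∈ A := by
      rw [hA, Finset.mem_product, Finset.mem_range, Finset.mem_range]; exact ⟨hj, hk⟩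
    have hel := he.1
    rw [List.length_drop] at hel
    have hez : D.z ≤ e := by
      have := he.2.2.1
      unfold Ql at this
      omega
    rw [Finset.mem_union, Finset.mem_union]
    rcases hb with hb | hb
    · left
      rw [hE, Finset.mem_filter]
      refine ⟨hmem, hjk, ?_⟩
      show D.EP U (D.x k + (D.p0 - D.x j))
      obtain ⟨y, d1, d2, d3, d4⟩ := hb
      rw [List.length_take, List.length_drop] at d1
      have d5 := h.lw.len _ d2
      rw [List.length_take, List.length_take, List.length_drop] at d5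
      refine ⟨y, by omega, by omega, ?_, d3, d4⟩
      rw [take_add']
      rw [List.take_take, min_eq_left (by omega)] at d2
      exact (h.lw.loc _ _ (by rw [List.length_take, List.length_drop]; omega)).2 d2
    · right
      rcases hw _ _ (by omega) he with hw' | hw'
      · left
        rw [hB1, Finset.mem_filter]
        refine ⟨hmem, hjk, ?_⟩
        show D.BadN ((w1 - D.p0) + D.x j - D.x k)
        have : (w1 - D.p0) + D.x j - D.x k = e := by omega
        rw [this]; exact hb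
      · right
        rw [hB2, Finset.mem_filter]
        refine ⟨hmem, hjk, ?_⟩
        show D.BadN ((w2 - D.p0) + D.x j - D.x k)
        have : (w2 - D.p0) + D.x j - D.x k = e := by omega
        rw [this]; exact hb
  have h1 := Finset.card_le_card hsub
  have h2 : ((E ∪ (B1 ∪ B2)).image Prod.snd).card ≤ (E ∪ (B1 ∪ B2)).card := Finset.card_image_le
  have h3 := Finset.card_union_le E (B1 ∪ B2)
  have h4 := Finset.card_union_le B1 B2
  omega

theorem tl_some {Y : List α} {e : ℕ} {y : S} (ht : D.tl Y = some (e, y)) : D.N' Y e ∧ y = 1 := by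
  unfold Dt.tl at ht
  split_ifs at ht with hc
  rw [Option.some.injEq, Prod.mk.injEq] at ht
  exact ⟨by rw [← ht.1]; exact hc.choose_spec, ht.2.symm⟩

theorem tl_eq {Y : List α} {e : ℕ} (he : D.N' Y e) : D.tl Y = some (e, 1) := by
  have hc : ∃ e, D.N' Y e := ⟨e, he⟩
  unfold Dt.tl
  rw [dif_pos hc, IsN.unique hc.choose_spec he]

/-- every block followed by a block is cut by one of the two schemes -/
theorem cc (h : D.Ok R C0) {X1 X2 : List α} (h1 : X1 ∈ D.XX) (h2 : X2 ∈ D.XX) (v : V) :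
    (∃ P Q b, X1 = P ++ Q ∧ P ∈ D.LP1 v ∧ Q ∈ D.RQ1 b) ∨
    (∃ P Q w, X1 ++ X2 = P ++ Q ∧ P ∈ D.LP2 v ∧ Q ∈ D.RQ2 w ∧ P.length ≤ D.p0 ∧
      P.length < X1.length) := by
  classical
  have hz := h.hz
  have hz2 := h.hz2
  by_cases hbad : EE D.Wo D.z D.Δ D.Mp D.N (X1.drop D.p0) ∨ D.BadN (X1.drop D.p0).length
  swap
  · push Not at hbad
    exact Or.inl (c1 h h1 hbad.1 hbad.2 v)
  right
  have hdr : (X1 ++ X2).drop D.p0 = X1.drop D.p0 ++ X2 := List.drop_append_of_le_length h1.1
  have hN : D.N' ((X1 ++ X2).drop D.p0) (X1.drop D.p0).length := by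
    rw [hdr]; exact h1.2.isN
  have hBd : D.Bd ((X1 ++ X2).drop D.p0) := by
    refine ⟨_, hN, ?_⟩
    rw [hdr, List.take_append_of_le_length le_rfl, List.take_length]
    exact hbad
  have hXz : D.z ≤ (X1.drop D.p0).length := by
    have := h1.2.2.2.1
    unfold Ql at this
    omega
  rw [List.length_drop] at hXz
  obtain ⟨k, hk, hl, b, hb⟩ := complete2 h.xm h.xp h.gad (U := X1 ++ X2)
    (by rw [List.length_append]; omega) hBd (tl_eq hN) (spoil_count h (X1 ++ X2))
    (fun k hk hex => by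
      rw [Finset.mem_filter, Finset.mem_range]
      obtain ⟨j, hj, hjk, hbj⟩ := hex
      exact ⟨hk, j, hj, hjk, hbj⟩) v
  have hxk := h.xp k hk
  obtain ⟨k', e', y', hO, ht', hr', hd'⟩ := rho2_some hb
  obtain ⟨hN', rfl⟩ := tl_some ht'
  have hdd : ((X1 ++ X2).drop (D.x k)).drop (D.p0 - D.x k) = (X1 ++ X2).drop D.p0 := by
    rw [List.drop_drop]; congr 1; omega
  have hkk : k = k' := hO.2.2 k hk (by rw [hdd]; exact hBd)
  subst hkk
  rw [hdd] at hN'
  have hee := IsN.unique hN hN'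
  refine ⟨(X1 ++ X2).take (D.x k), (X1 ++ X2).drop (D.x k), _, (List.take_append_drop _ _).symm,
    hl, ⟨k, e', b, hO, by rw [hdd]; exact hN', hr', ?_, rfl⟩, ?_, ?_⟩
  · rw [List.drop_drop]
    have : D.x k + (D.p0 - D.x k + e') = X1.length := by
      rw [← hee, List.length_drop]; omega
    rw [this, List.drop_append_of_le_length le_rfl, List.drop_length, List.nil_append]
    exact h2
  · rw [List.length_take]; omega
  · rw [List.length_take]; omega

end Two

end Crest.Agent.R320.Con_407
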