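import Crest.Agent.R320.Top5_110
import Crest.Agent.R320.ExactR_237

/-!
# Row 320: completeness C1, C2 of 110's `top_sem` for the natural chain (helper504)
-/

set_option autoImplicit false

namespace Crest.Agent.R320.Con_504

open Crest.Agent.R320.Hk_851 Crest.Agent.R320.Code110 Crest.Agent.R320.ExactR_237

variable {α S V : Type}

/-- natural block code: first wall at a place `≥ z` -/
def XX (Wo : List α → Prop) (z : ℕ) : Language α :=
  {X | z ≤ X.length ∧ Wo X ∧ ∀ t, z ≤ t → t < X.length → ¬ Wo (X.take t)}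

/-- a wall in the band around `z` -/
def BE (Wo : List α → Prop) (z N1 : ℕ) (X : List α) : Prop :=
  ∃ t, t ≤ X.length ∧ z ≤ t + N1 ∧ t < z + N1 ∧ Wo (X.take t)

/-- bad blocks -/
def Bad (Wo : List α → Prop) (z N1 p0 : ℕ) (BadT : ℕ → Prop) : Language α :=
  {X | X ∈ XX Wo z ∧ (BE Wo z N1 X ∨ BadT (X.length - p0))}

/-- token map -/
def TT [Monoid S] [AddCommGroup V] (f : α → S) (act : V → S → V) (p0 : ℕ)
    (nu2 nu1 : List α → V) (X : List α) (v : V) : V :=
  act (act v (pr f (X.take p0)) + nu2 (X.take p0)) (pr f (X.drop p0)) + nu1 (X.drop p0)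

section walls

variable {Wo : List α → Prop} {n W : ℕ}

theorem take_wall (hloc : ∀ P Q : List α, n ≤ Q.length → (Wo (P ++ Q) ↔ Wo Q))
    (P Q : List α) (s : ℕ) (h1 : n ≤ s) (h2 : s ≤ Q.length) :
    Wo ((P ++ Q).take (P.length + s)) ↔ Wo (Q.take s) := by
  have : (P ++ Q).take (P.length + s) = P ++ Q.take s := by
    rw [List.take_append]
    simp
  rw [this]
  exact hloc _ _ (by rw [List.length_take]; omega)

theorem gap2 (hgap : ∀ (P : List α) (d : ℕ), Wo P → 0 < d → d ≤ W →
      ¬ Wo (P.take (P.length - d)))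
    (w : List α) (a b : ℕ) (hab : a < b) (hb : b ≤ w.length) (ha : Wo (w.take a))
    (hb' : Wo (w.take b)) : a + W < b := by
  by_contra hcon
  have h := hgap (w.take b) (b - a) hb' (by omega) (by omega)
  have hl : (w.take b).length = b := by rw [List.length_take]; omega
  rw [hl, List.take_take] at h
  have : min (b - (b - a)) b = a := by omega
  rw [this] at h
  exact h ha

theorem mem_XX_iff (hloc : ∀ P Q : List α, n ≤ Q.length → (Wo (P ++ Q) ↔ Wo Q))
    {z : ℕ} (P Q : List α) (hz : P.length + n ≤ z) :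
    P ++ Q ∈ XX Wo z ↔ z ≤ P.length + Q.length ∧ Wo Q ∧
      ∀ s, z ≤ P.length + s → s < Q.length → ¬ Wo (Q.take s) := by
  constructor
  · rintro ⟨h1, h2, h3⟩
    rw [List.length_append] at h1 h3
    refine ⟨h1, (hloc P Q (by omega)).1 h2, ?_⟩
    intro s hs1 hs2 hW
    exact h3 (P.length + s) hs1 (by omega) ((take_wall hloc P Q s (by omega) (by omega)).2 hW)
  · rintro ⟨h1, h2, h3⟩
    refine ⟨by rw [List.length_append]; exact h1, (hloc P Q (by omega)).2 h2, ?_⟩
    intro t ht1 ht2 hW
    rw [List.length_append] at ht2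
    have e : t = P.length + (t - P.length) := by omega
    rw [e] at hW
    exact h3 (t - P.length) (by omega) (by omega)
      ((take_wall hloc P Q _ (by omega) (by omega)).1 hW)

theorem BE_iff (hloc : ∀ P Q : List α, n ≤ Q.length → (Wo (P ++ Q) ↔ Wo Q))
    {z N1 : ℕ} (P Q : List α) (hz : P.length + n + N1 ≤ z) :
    BE Wo z N1 (P ++ Q) ↔ ∃ s, s ≤ Q.length ∧ z ≤ P.length + s + N1 ∧
      P.length + s < z + N1 ∧ Wo (Q.take s) := by
  constructor
  · rintro ⟨t, h1, h2, h3, h4⟩
    rw [List.length_append] at h1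
    have e : t = P.length + (t - P.length) := by omega
    rw [e] at h4
    exact ⟨t - P.length, by omega, by omega, by omega,
      (take_wall hloc P Q _ (by omega) (by omega)).1 h4⟩
  · rintro ⟨s, h1, h2, h3, h4⟩
    exact ⟨P.length + s, by rw [List.length_append]; omega, h2, h3,
      (take_wall hloc P Q s (by omega) h1).2 h4⟩

theorem XX_pc {z : ℕ} (hz : 0 < z) : PC (XX Wo z) := by
  constructor
  · rintro ⟨h, -, -⟩
    simp at h
    omega
  · rintro u ⟨hu1, hu2, hu3⟩ v ⟨hv1, hv2, hv3⟩ ⟨r, rfl⟩
    by_contra hne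
    have hr : r ≠ [] := by rintro rfl; simp at hne
    have hr' : 0 < r.length := List.length_pos_iff.2 hr
    refine hv3 u.length hu1 (by rw [List.length_append]; omega) ?_
    rw [List.take_left]
    exact hu2

/-- first wall at a place `≥ d` -/
def FW (Wo : List α → Prop) (w : List α) (d e : ℕ) : Prop :=
  d ≤ e ∧ e ≤ w.length ∧ Wo (w.take e) ∧ ∀ t, d ≤ t → t < e → ¬ Wo (w.take t)

theorem exists_FW {w : List α} {d e : ℕ} (h1 : d ≤ e) (h2 : e ≤ w.length)
    (h3 : Wo (w.take e)) : ∃ e', FW Wo w d e' := by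
  classical
  have hex : ∃ e, d ≤ e ∧ e ≤ w.length ∧ Wo (w.take e) := ⟨e, h1, h2, h3⟩
  refine ⟨Nat.find hex, (Nat.find_spec hex).1, (Nat.find_spec hex).2.1,
    (Nat.find_spec hex).2.2, ?_⟩
  intro t ht1 ht2 hW
  exact Nat.find_min hex ht2 ⟨ht1, by have := (Nat.find_spec hex).2.1; omega, hW⟩

theorem two_vals (hgap : ∀ (P : List α) (d : ℕ), Wo P → 0 < d → d ≤ W →
      ¬ Wo (P.take (P.length - d))) (w : List α) (z p0 : ℕ) (hW : 2 * p0 ≤ W) (hz : p0 ≤ z) :
    ∃ e1 e2, z ≤ e1 + p0 ∧ z ≤ e2 + p0 ∧ ∀ d e, z ≤ d + p0 → d ≤ z + p0 → FW Wo w d e →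
      e = e1 ∨ e = e2 := by
  by_cases h1 : ∃ e1, FW Wo w (z - p0) e1
  · obtain ⟨e1, a1, a2, a3, a4⟩ := h1
    by_cases h2 : ∃ e2, FW Wo w (e1 + 1) e2
    · obtain ⟨e2, b1, b2, b3, b4⟩ := h2
      refine ⟨e1, e2, by omega, by omega, ?_⟩
      rintro d e hd1 hd2 ⟨c1, c2, c3, c4⟩
      have hg := gap2 hgap w e1 e2 (by omega) b2 a3 b3
      have he1 : e1 ≤ e := by
        by_contra hlt
        exact a4 e (by omega) (by omega) c3
      by_cases hde : d ≤ e1
      · left
        by_contra hne
        exact c4 e1 hde (by omega) a3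
      · right
        have he2 : e2 ≤ e := by
          by_contra hlt
          exact b4 e (by omega) (by omega) c3
        by_contra hne
        exact c4 e2 (by omega) (by omega) b3
    · refine ⟨e1, e1, by omega, by omega, ?_⟩
      rintro d e hd1 hd2 ⟨c1, c2, c3, c4⟩
      left
      have he1 : e1 ≤ e := by
        by_contra hlt
        exact a4 e (by omega) (by omega) c3
      by_contra hne
      exact h2 (exists_FW (e := e) (by omega) c2 c3)
  · refine ⟨z, z, by omega, by omega, ?_⟩
    rintro d e hd1 hd2 ⟨c1, c2, c3, c4⟩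
    exact (h1 (exists_FW (e := e) (by omega) c2 c3)).elim

end walls

section main

variable [Monoid S] [AddCommGroup V]
variable {Wo : List α → Prop} {n W : ℕ}

/-- left labels of scheme 1 -/
def L1 (f : α → S) (act : V → S → V) (p0 N1 : ℕ) (nu2 : List α → V)
    (lam : List α → Option V) (x : V) : Language α :=
  {P | p0 ≤ P.length ∧ P.length ≤ p0 + N1 ∧
    lam (P.drop p0) = some (act x (pr f (P.take p0)) + nu2 (P.take p0))}

/-- left labels of scheme 2 -/
def L2 (K : ℕ) (c : ℕ → ℕ) (lam : ℕ → List α → Option V) (x : V) : Language α :=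
  {P | ∃ k < K, P.length = c k ∧ lam k P = some x}

theorem C1 (hloc : ∀ P Q : List α, n ≤ Q.length → (Wo (P ++ Q) ↔ Wo Q))
    (f : α → S) (act : V → S → V) (p0 N1 La z : ℕ) (nu2 nu1 : List α → V)
    (lam rho : List α → Option V) (BadT : ℕ → Prop)
    (hlamN : ∀ p v, lam p = some v → p.length ≤ N1)
    (hsound : ∀ p q v r, lam p = some v → rho q = some r → La ≤ q.length →
      r = act v (pr f (p ++ q)) + nu1 (p ++ q))
    (hcompl : ∀ u, La ≤ u.length → ¬ BadT u.length → ∀ v, ∃ p q, p ++ q = u ∧
      lam p = some v ∧ (rho q).isSome)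
    (hz : p0 + N1 + n + N1 + La ≤ z)
    (u : List α) (hu : u ∈ XX Wo z) (hb : u ∉ Bad Wo z N1 p0 BadT) (x : V)
    (t : List α) (ht : t ∈ XX Wo z ^ 0) :
    ∃ p q y, u ++ t = p ++ q ∧ p ∈ L1 f act p0 N1 nu2 lam x ∧
      q ∈ Rsem (XX Wo z) (XX Wo z) (TT f act p0 nu2 nu1) 0 (L1 f act p0 N1 nu2 lam) y := by
  have ht' : t = [] := by
    rw [pow_zero] at ht
    exact ht
  subst ht'
  have hE : ¬ BE Wo z N1 u := fun h => hb ⟨hu, Or.inl h⟩
  have hB : ¬ BadT (u.length - p0) := fun h => hb ⟨hu, Or.inr h⟩
  have hul : z + N1 ≤ u.length := by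
    by_contra hlt
    refine hE ⟨u.length, le_rfl, by have := hu.1; omega, by omega, ?_⟩
    rw [List.take_length]
    exact hu.2.1
  have hdl : (u.drop p0).length = u.length - p0 := List.length_drop
  have htl : (u.take p0).length = p0 := by rw [List.length_take]; omega
  obtain ⟨p, q, hpq, hp, hq⟩ := hcompl (u.drop p0) (by omega) (by rw [hdl]; exact hB)
    (act x (pr f (u.take p0)) + nu2 (u.take p0))
  obtain ⟨r, hr⟩ := Option.isSome_iff_exists.1 hq
  have hpN := hlamN _ _ hp
  have hsum : p.length + q.length = u.length - p0 := by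
    rw [← List.length_append, hpq, hdl]
  have hPQ : u = (u.take p0 ++ p) ++ q := by
    rw [List.append_assoc, hpq, List.take_append_drop]
  refine ⟨u.take p0 ++ p, q, r, by rw [List.append_nil]; exact hPQ, ?_, ?_⟩
  · refine ⟨by rw [List.length_append]; omega, by rw [List.length_append]; omega, ?_⟩
    have e1 : (u.take p0 ++ p).drop p0 = p := by
      rw [List.drop_append_of_le_length (by omega), List.drop_eq_nil_of_le (by omega),
        List.nil_append]
    have e2 : (u.take p0 ++ p).take p0 = u.take p0 := by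
      rw [List.take_append_of_le_length (by omega), List.take_of_length_le (by omega)]
    rw [e1, e2]
    exact hp
  · intro x' P' hP'
    obtain ⟨h1, h2, h3⟩ := hP'
    left
    have hPl : (u.take p0 ++ p).length = p0 + p.length := by rw [List.length_append]; omega
    have hu' := hu
    rw [hPQ, mem_XX_iff hloc _ _ (by omega)] at hu'
    rw [hPQ, BE_iff hloc _ _ (by omega)] at hE
    obtain ⟨a1, a2, a3⟩ := hu'
    have hmem : P' ++ q ∈ XX Wo z := by
      rw [mem_XX_iff hloc _ _ (by omega)]
      refine ⟨by omega, a2, ?_⟩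
      intro s hs1 hs2 hW
      by_cases hlt : (u.take p0 ++ p).length + s < z + N1
      · exact hE ⟨s, by omega, by omega, hlt, hW⟩
      · exact a3 s (by omega) hs2 hW
    have hval : TT f act p0 nu2 nu1 (P' ++ q) x' = r := by
      unfold TT
      have e1 : (P' ++ q).drop p0 = P'.drop p0 ++ q := by
        rw [List.drop_append_of_le_length h1]
      have e2 : (P' ++ q).take p0 = P'.take p0 := by
        rw [List.take_append_of_le_length h1]
      rw [e1, e2]
      exact (hsound _ _ _ _ h3 hr (by omega)).symm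
    exact ⟨r, Language.mem_mul.2 ⟨P' ++ q, ⟨hmem, hval⟩, [], ⟨rfl, rfl⟩, by simp⟩⟩

theorem C2 [Fintype S] [Fintype V]
    (hloc : ∀ P Q : List α, n ≤ Q.length → (Wo (P ++ Q) ↔ Wo Q))
    (hgap : ∀ (P : List α) (d : ℕ), Wo P → 0 < d → d ≤ W → ¬ Wo (P.take (P.length - d)))
    (f : α → S) (act : V → S → V) (p0 N1 La z K C0 : ℕ) (nu1 : List α → V)
    (c : ℕ → ℕ) (BadT : ℕ → Prop)
    (hcp : ∀ k < K, c k ≤ p0)
    (hsep : ∀ i < K, ∀ j < K, ∀ k < K, ∀ l < K, i ≠ j → k ≠ l → (i, j) ≠ (k, l) →
      c i + c l + 4 * N1 < c k + c j ∨ c k + c j + 4 * N1 < c i + c l)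
    (hspoil : ∀ T, La ≤ T → ∀ J : Finset (ℕ × ℕ),
      (∀ q ∈ J, q.1 < K ∧ q.2 < K ∧ q.1 ≠ q.2 ∧ BadT (T + c q.2 - c q.1)) → J.card ≤ C0)
    (lam2 : ℕ → List α → Option V) (rho2 : ℕ → List α → S → Option V) (nu2 : List α → V)
    (hex : ∀ k < K, ∀ (P Q : List α) (v b : V), P.length = c k →
          lam2 k P = some v → rho2 k Q 1 = some b → b = act v (pr f (P ++ Q)) + nu2 (P ++ Q))
    (hex2 : ∀ (u : List α) (v : V), u.length = p0 →
          ∃ I : Finset ℕ, 2 + 2 * C0 ≤ I.card ∧ ∀ k ∈ I, k < K ∧ lam2 k (u.take (c k)) = some v ∧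
            (rho2 k (u.drop (c k)) 1).isSome)
    (hz : 2 * p0 + N1 + n + N1 + La ≤ z) (hW : 2 * p0 + 2 * N1 ≤ W)
    (u : List α) (hu : u ∈ Bad Wo z N1 p0 BadT) (x : V)
    (t : List α) (ht : t ∈ Bad Wo z N1 p0 BadT ^ 1) :
    ∃ p q y, u ++ t = p ++ q ∧ p ∈ L2 K c lam2 x ∧
      q ∈ Rsem (XX Wo z) (Bad Wo z N1 p0 BadT) (TT f act p0 nu2 nu1) 1 (L2 K c lam2) y := by
  classical
  rw [pow_one] at ht
  have hul : z ≤ u.length := hu.1.1
  have htl : z ≤ t.length := ht.1.1
  have hwl : (u ++ t).length = u.length + t.length := List.length_append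
  have hWw : Wo ((u ++ t).take (u ++ t).length) := by
    rw [List.take_length]
    exact (hloc u t (by omega)).2 ht.1.2.1
  have hu0 : (u.take p0).length = p0 := by rw [List.length_take]; omega
  obtain ⟨I, hI, hIk⟩ := hex2 (u.take p0) x hu0
  -- the unspoiled mark
  let E : ℕ → ℕ → Prop := fun k k' => ∃ s, s ≤ (u ++ t).length ∧ Wo ((u ++ t).take s) ∧
    z + c k ≤ s + c k' + N1 ∧ s + c k' < z + c k + N1
  have hgood : ∃ k ∈ I, ∀ k' < K, k' ≠ k → ∀ e, FW Wo (u ++ t) (z + c k - c k') e →
      ¬ E k k' ∧ ¬ BadT (e + c k' - c k - p0) := by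
    by_contra hcon
    push Not at hcon
    obtain ⟨e1, e2, he1, he2, hvals⟩ := two_vals hgap (u ++ t) z p0 (by omega) (by omega)
    let IE := I.filter (fun k => ∃ k' < K, k' ≠ k ∧ E k k')
    let IT : ℕ → Finset ℕ := fun e => I.filter (fun k => ∃ k' < K, k' ≠ k ∧
      BadT (e + c k' - c k - p0))
    have hsub : I ⊆ IE ∪ (IT e1 ∪ IT e2) := by
      intro k hk
      obtain ⟨k', hk', hne, e, he, hbad⟩ := hcon k hk
      rw [Finset.mem_union, Finset.mem_union]
      by_cases hE : E k k'
      · left
        exact Finset.mem_filter.2 ⟨hk, k', hk', hne, hE⟩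
      · right
        have hkK := (hIk k hk).1
        have c1 := hcp k hkK
        have c2 := hcp k' hk'
        rcases hvals _ e (by omega) (by omega) he with h | h
        · left
          exact Finset.mem_filter.2 ⟨hk, k', hk', hne, h ▸ hbad hE⟩
        · right
          exact Finset.mem_filter.2 ⟨hk, k', hk', hne, h ▸ hbad hE⟩
    have hIE : IE.card ≤ 1 := by
      refine Finset.card_le_one.2 ?_
      intro k hk l hl
      obtain ⟨hk0, k', hk', hne, s, s1, s2, s3, s4⟩ := Finset.mem_filter.1 hk
      obtain ⟨hl0, l', hl', hne', r, r1, r2, r3, r4⟩ := Finset.mem_filter.1 hl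
      have hkK := (hIk k hk0).1
      have hlK := (hIk l hl0).1
      by_contra hkl
      have c1 := hcp k hkK
      have c2 := hcp k' hk'
      have c3 := hcp l hlK
      have c4 := hcp l' hl'
      have hsr : s = r := by
        rcases lt_trichotomy s r with h | h | h
        · have := gap2 hgap (u ++ t) s r h r1 s2 r2
          omega
        · exact h
        · have := gap2 hgap (u ++ t) r s h s1 r2 s2
          omega
      subst hsr
      rcases hsep k hkK k' hk' l hlK l' hl' (Ne.symm hne) (Ne.symm hne')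
        (fun h => hkl (Prod.mk.inj h).1) with h | h <;> omega
    have hIT : ∀ e, z ≤ e + p0 → (IT e).card ≤ C0 := by
      intro e he
      let J : Finset (ℕ × ℕ) := (Finset.range K ×ˢ Finset.range K).filter
        (fun q => q.1 ≠ q.2 ∧ BadT ((e - p0) + c q.2 - c q.1))
      have hJ : J.card ≤ C0 := by
        refine hspoil (e - p0) (by omega) J ?_
        intro q hq
        obtain ⟨h1, h2, h3⟩ := Finset.mem_filter.1 hq
        obtain ⟨h4, h5⟩ := Finset.mem_product.1 h1
        exact ⟨Finset.mem_range.1 h4, Finset.mem_range.1 h5, h2, h3⟩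
      refine le_trans ?_ hJ
      refine le_trans (Finset.card_le_card (t := J.image Prod.fst) ?_) Finset.card_image_le
      intro k hk
      obtain ⟨hk0, k', hk', hne, hb⟩ := Finset.mem_filter.1 hk
      have hkK := (hIk k hk0).1
      have c1 := hcp k hkK
      have c2 := hcp k' hk'
      refine Finset.mem_image.2 ⟨(k, k'), Finset.mem_filter.2 ⟨Finset.mem_product.2
        ⟨Finset.mem_range.2 hkK, Finset.mem_range.2 hk'⟩, Ne.symm hne, ?_⟩, rfl⟩
      have e5 : e - p0 + c k' - c k = e + c k' - c k - p0 := by omega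
      show BadT (e - p0 + c k' - c k)
      rw [e5]
      exact hb
    have hc1 := Finset.card_le_card hsub
    have hc2 := Finset.card_union_le IE (IT e1 ∪ IT e2)
    have hc3 := Finset.card_union_le (IT e1) (IT e2)
    have hc4 := hIT e1 he1
    have hc5 := hIT e2 he2
    omega
  obtain ⟨k, hkI, hk⟩ := hgood
  obtain ⟨hkK, hlam, hrho⟩ := hIk k hkI
  have hck := hcp k hkK
  obtain ⟨b, hb⟩ := Option.isSome_iff_exists.1 hrho
  have htk : (u.take p0).take (c k) = u.take (c k) := by
    rw [List.take_take, min_eq_left hck]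
  rw [htk] at hlam
  have hdk : (u.take p0).drop (c k) = (u.drop (c k)).take (p0 - c k) := by
    rw [List.drop_take]
  have hPl : (u.take (c k)).length = c k := by rw [List.length_take]; omega
  have hsplit : u = u.take (c k) ++ u.drop (c k) := (List.take_append_drop _ _).symm
  refine ⟨u.take (c k), u.drop (c k) ++ t, TT f act p0 nu2 nu1 t (TT f act p0 nu2 nu1 u x),
    ?_, ⟨k, hkK, hPl, hlam⟩, ?_⟩
  · rw [← List.append_assoc, List.take_append_drop]
  · rintro x' P' ⟨k', hk', hP'l, hP'⟩
    by_cases hkk : k' = k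
    · subst hkk
      left
      have hmemXX : P' ++ u.drop (c k') ∈ XX Wo z := by
        rw [mem_XX_iff hloc _ _ (by omega), hP'l]
        have := hu.1
        rw [hsplit, mem_XX_iff hloc _ _ (by omega), hPl] at this
        exact this
      have hmem : P' ++ u.drop (c k') ∈ Bad Wo z N1 p0 BadT := by
        refine ⟨hmemXX, ?_⟩
        rcases hu.2 with h | h
        · left
          rw [BE_iff hloc _ _ (by omega), hP'l]
          rw [hsplit, BE_iff hloc _ _ (by omega), hPl] at h
          exact h
        · right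
          have e : (P' ++ u.drop (c k')).length = u.length := by
            rw [List.length_append, List.length_drop]; omega
          rw [e]
          exact h
      have hT : TT f act p0 nu2 nu1 (P' ++ u.drop (c k')) x' = TT f act p0 nu2 nu1 u x := by
        unfold TT
        have e1 : (P' ++ u.drop (c k')).drop p0 = u.drop p0 := by
          rw [List.drop_append, List.drop_eq_nil_of_le (by omega), List.nil_append,
            List.drop_drop]
          congr 1
          omega
        have e2 : (P' ++ u.drop (c k')).take p0 = P' ++ (u.take p0).drop (c k') := by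
          rw [List.take_append, List.take_of_length_le (by omega), hdk, hP'l]
        have e3 : u.take p0 = u.take (c k') ++ (u.take p0).drop (c k') := by
          conv_lhs => rw [← List.take_append_drop (c k') (u.take p0)]
          rw [htk]
        rw [e1, e2]
        have h1 := hex k' hkK P' _ x' b hP'l hP' hb
        have h2 := hex k' hkK (u.take (c k')) _ x b hPl hlam hb
        rw [← e3] at h2
        rw [← h1, ← h2]
      refine ⟨TT f act p0 nu2 nu1 u x, Language.mem_mul.2 ⟨P' ++ u.drop (c k'), ⟨hmem, hT⟩, t,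
        ⟨TT f act p0 nu2 nu1 t (TT f act p0 nu2 nu1 u x), Language.mem_mul.2 ⟨t, ⟨ht, rfl⟩, [],
          ⟨rfl, rfl⟩, by simp⟩⟩, by rw [List.append_assoc]⟩⟩
    · right
      left
      have hck' := hcp k' hk'
      obtain ⟨e, he⟩ := exists_FW (Wo := Wo) (w := u ++ t) (d := z + c k - c k')
        (e := (u ++ t).length) (by omega) le_rfl hWw
      obtain ⟨hn1, hn2⟩ := hk k' hk' hkk e he
      obtain ⟨f1, f2, f3, f4⟩ := he
      have hdrop : u.drop (c k) ++ t = (u ++ t).drop (c k) := by
        rw [List.drop_append_of_le_length (by omega)]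
      have hdl : ((u ++ t).drop (c k)).length = (u ++ t).length - c k := List.length_drop
      have hQl : (((u ++ t).drop (c k)).take (e - c k)).length = e - c k := by
        rw [List.length_take]; omega
      have htr : ∀ s, n ≤ s → s ≤ e - c k →
          (Wo ((((u ++ t).drop (c k)).take (e - c k)).take s) ↔ Wo ((u ++ t).take (c k + s))) := by
        intro s hs1 hs2
        rw [List.take_take, min_eq_left hs2]
        have h0 := take_wall hloc ((u ++ t).take (c k)) ((u ++ t).drop (c k)) s hs1 (by omega)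
        rw [List.take_append_drop] at h0
        have hl0 : ((u ++ t).take (c k)).length = c k := by rw [List.length_take]; omega
        rw [hl0] at h0
        exact h0.symm
      have hX : P' ++ ((u ++ t).drop (c k)).take (e - c k) ∈ XX Wo z := by
        rw [mem_XX_iff hloc _ _ (by omega), hQl, hP'l]
        refine ⟨by omega, ?_, ?_⟩
        · have h0 := htr (e - c k) (by omega) le_rfl
          rw [List.take_take, min_self] at h0
          rw [h0]
          have e6 : c k + (e - c k) = e := by omega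
          rw [e6]
          exact f3
        · intro s hs1 hs2 hW'
          exact f4 (c k + s) (by omega) (by omega) ((htr s (by omega) (by omega)).1 hW')
      refine ⟨_, hX, ?_, ?_⟩
      · rintro ⟨-, hbe | hbt⟩
        · rw [BE_iff hloc _ _ (by omega), hQl, hP'l] at hbe
          obtain ⟨s, s1, s2, s3, s4⟩ := hbe
          exact hn1 ⟨c k + s, by omega, (htr s (by omega) s1).1 s4, by omega, by omega⟩
        · apply hn2
          have e7 : (P' ++ ((u ++ t).drop (c k)).take (e - c k)).length - p0
              = e + c k' - c k - p0 := by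
            rw [List.length_append, hQl]; omega
          rw [← e7]
          exact hbt
      · rw [hdrop]
        exact (List.prefix_append_right_inj P').2 (List.take_prefix _ _)

end main

end Crest.Agent.R320.Con_504
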