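import Crest.Agent.R320.Half1Def_961
import Crest.Agent.R320.Zone132_898

/-!
Row 320: scheme 1 of 132 in 961's `TwoSchemes` interface (chain with thresholds, exactness, completeness),
on top of 898's zone gadget.
-/

set_option autoImplicit false

namespace Crest.Agent.R320.Conc_685

open Crest.Agent.R320.Half1_961 Crest.Agent.R320.Zone132_898 Finset

variable {α : Type*}

/-- a qualifying wall at distance `t` from the anchor -/
def Ql (ro : Rule α) (th : ℕ → ℕ) (q : ℕ) (Q : List α) (t : ℕ) : Prop :=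
  ro.R (Q.drop t) ∧ th (t % q) ≤ t

open Classical in
/-- the next anchor -/
noncomputable def nxf (ro : Rule α) (th : ℕ → ℕ) (q : ℕ) (Q : List α) : Option ℕ :=
  if h : ∃ t, Ql ro th q Q t then some (Nat.find h) else none

theorem nxf_eq {ro : Rule α} {th : ℕ → ℕ} {q : ℕ} {Q : List α} {t : ℕ} :
    nxf ro th q Q = some t ↔ Ql ro th q Q t ∧ ∀ t' < t, ¬ Ql ro th q Q t' := by
  classical
  unfold nxf
  constructor
  · intro h
    split_ifs at h with h1
    · simp only [Option.some.injEq] at h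
      subst h
      exact ⟨Nat.find_spec h1, fun t' ht' => Nat.find_min h1 ht'⟩
  · rintro ⟨h1, h2⟩
    have h3 : ∃ t, Ql ro th q Q t := ⟨t, h1⟩
    rw [dif_pos h3]
    congr 1
    apply le_antisymm (Nat.find_min' h3 h1)
    by_contra hlt
    push Not at hlt
    exact h2 _ hlt (Nat.find_spec h3)

theorem nxf_none {ro : Rule α} {th : ℕ → ℕ} {q : ℕ} {Q : List α} :
    nxf ro th q Q = none ↔ ∀ t, ¬ Ql ro th q Q t := by
  classical
  unfold nxf
  constructor
  · intro h t ht
    rw [dif_pos ⟨t, ht⟩] at h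
    exact absurd h (by simp)
  · intro h
    rw [dif_neg]
    rintro ⟨t, ht⟩
    exact h t ht

theorem rfit (ro : Rule α) {Q : List α} {t : ℕ} (h : ro.R (Q.drop t)) :
    t + ro.n ≤ Q.length := by
  have h1 := ro.len _ h
  have h2 := ro.pos
  rw [List.length_drop] at h1
  omega

/-- the chain -/
noncomputable def chain (ro : Rule α) (th : ℕ → ℕ) (q : ℕ) (hth : ∀ r, 0 < th r) : Chain α where
  nx := nxf ro th q
  n := ro.n
  ext := by
    intro Q Q' d h
    rw [nxf_eq] at h ⊢
    have h1 := rfit ro h.1.1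
    refine ⟨⟨(R_left ro h1).2 h.1.1, h.1.2⟩, ?_⟩
    intro t' ht' h2
    exact h.2 t' ht' ⟨(R_left ro (by omega)).1 h2.1, h2.2⟩
  vis := by
    intro Q d h
    rw [nxf_eq] at h
    have h1 := rfit ro h.1.1
    have h2 := h.1.2
    have h3 := hth (d % q)
    exact ⟨by omega, h1⟩
  tight := by
    intro Q Q' d h hd
    rw [nxf_eq] at h ⊢
    refine ⟨⟨(R_left ro hd).1 h.1.1, h.1.2⟩, ?_⟩
    intro t' ht' h2
    exact h.2 t' ht' ⟨(R_left ro (by omega)).2 h2.1, h2.2⟩

/-- All parameters. -/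
structure Par (α S W : Type*) [Monoid S] [Finite S] [AddCommGroup W] where
  D : Data α S (S → ZMod 2) W
  hact : ∀ v s, D.act v s = push (fun x => x * s) v
  ro : Rule α
  th : ℕ → ℕ
  hi : ℕ
  base : ℕ
  L : ℕ
  n2 : ℕ
  G : ℕ
  RF : List α → Prop
  rf_pre : ∀ Q Q', RF (Q ++ Q') → RF Q
  hth : ∀ r, hi < th r
  hcell : ∀ i, i < D.m → D.q * (D.lo i + D.M) ≤ hi
  hbase : ∀ i, i < D.m → base ≤ D.q * D.lo i
  hn2 : n2 + D.q * D.M ≤ D.A 0
  hsmall : ∀ Q a, RF Q → a + G + D.r.n ≤ Q.length → ∃ t, a ≤ t ∧ t < a + G ∧ D.r.R (Q.drop t)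
  hlo : ∀ i, i < D.m → D.A i + G + D.r.n ≤ D.q * D.lo i
  hAm : ∀ r, D.A D.m + G + D.r.n ≤ th r
  hnx : ∀ Q, RF Q → L ≤ Q.length → nxf ro th D.q Q ≠ none
  hN1 : D.N1
  hN2 : D.N2
  hN3 : D.N3
  hF : D.Hides

variable {S W : Type*} [Monoid S] [Finite S] [AddCommGroup W]

namespace Par

variable (p : Par α S W)

/-- the chain of `p` -/
noncomputable def c : Chain α := chain p.ro p.th p.D.q (fun r => by have := p.hth r; omega)

theorem c_nx (Q : List α) : p.c.nx Q = nxf p.ro p.th p.D.q Q := rfl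

/-- mode (E) -/
def EE (T : List α) : Prop :=
  ∃ t, p.ro.R (T.drop t) ∧ p.th (t % p.D.q) ≤ t + (p.hi - p.base) ∧
    t ≤ p.th (t % p.D.q) + (p.hi - p.base)

/-- mode (D) -/
def DD (T : List α) : Prop :=
  ∃ k, k ≤ p.D.m ∧ ∃ t, p.D.A k ≤ t + p.D.q * p.D.M ∧ t < p.D.A k + p.D.q * p.D.M ∧
    p.D.r.R (T.drop t)

/-- mode (B) -/
def BB (T : List α) : Prop := ∃ N, nxf p.ro p.th p.D.q T = some N ∧ p.D.B (N / p.D.q)

/-- badness of the zone -/
def Bad (Q : List α) : Prop := p.EE (Q.take p.L) ∨ p.DD (Q.take p.L) ∨ p.BB (Q.take p.L)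

theorem Bad_local (Q Q' : List α) (h : p.L ≤ Q.length) : p.Bad (Q ++ Q') ↔ p.Bad Q := by
  unfold Bad
  rw [List.take_append_of_le_length h]

theorem LL_unique {P : List α} {v v' : S → ZMod 2} (h : p.D.LL P v) (h' : p.D.LL P v') :
    v = v' := by
  obtain ⟨c, om, H, hP, hi, hlo, hhi, hLN, hg, hH, hcg, hcw, rfl⟩ := h
  obtain ⟨c', om', H', hP', hi', hlo', hhi', hLN', hg', hH', hcg', hcw', rfl⟩ := h'
  have h1 : om = om' := Nat.eq_of_mul_eq_mul_left p.D.hq (hP.symm.trans hP')
  subst h1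
  rw [hLN] at hLN'
  simp only [Option.some.injEq] at hLN'
  rw [hLN']

theorem LL_len {P : List α} {v : S → ZMod 2} (h : p.D.LL P v) :
    ∃ om, P.length = p.D.q * om ∧ P.length ≤ p.hi ∧ p.base ≤ P.length := by
  obtain ⟨c, om, H, hP, hi, hlo, hhi, hLN, hg, hH, hcg, hcw, rfl⟩ := h
  refine ⟨om, hP, ?_, ?_⟩
  · have h1 := p.hcell _ hi
    have h2 : p.D.q * om ≤ p.D.q * (p.D.lo c.i + p.D.M) := Nat.mul_le_mul_left _ hhi.le
    omega
  · have h1 := p.hbase _ hi
    have h2 : p.D.q * p.D.lo c.i ≤ p.D.q * om := Nat.mul_le_mul_left _ hlo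
    omega

open Classical in
/-- left labels of scheme 1 -/
noncomputable def al1 (P : List α) : Option (S → ZMod 2) :=
  if h : ∃ v, p.D.LL P v then some h.choose else none

theorem al1_some {P : List α} {v : S → ZMod 2} : p.al1 P = some v ↔ p.D.LL P v := by
  classical
  unfold al1
  constructor
  · intro h
    split_ifs at h with h1
    · simp only [Option.some.injEq] at h
      rw [← h]
      exact h1.choose_spec
  · intro h
    have h1 : ∃ v, p.D.LL P v := ⟨v, h⟩
    rw [dif_pos h1]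
    congr 1
    exact p.LL_unique h1.choose_spec h

/-- the right side sees the next anchor -/
def Leg (U : List α) (b : ℕ) : Prop :=
  p.ro.R (U.drop b) ∧ p.th (b % p.D.q) ≤ b + p.base ∧
    ∀ t, t < b → p.ro.R (U.drop t) → t + p.hi < p.th (t % p.D.q)

open Classical in
/-- right labels of scheme 1 -/
noncomputable def rl1 (U : List α) : Option (ℕ × (S → ZMod 2)) :=
  if h : ∃ x : ℕ × (S → ZMod 2), p.Leg U x.1 ∧ p.D.RR (U.take x.1) x.2 then some h.choose
  else none

theorem rl1_some {U : List α} {b : ℕ} {R : S → ZMod 2} (h : p.rl1 U = some (b, R)) :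
    p.Leg U b ∧ p.D.RR (U.take b) R := by
  classical
  unfold rl1 at h
  split_ifs at h with h1
  · simp only [Option.some.injEq] at h
    have h2 := h1.choose_spec
    rw [h] at h2
    exact h2

theorem nx_of_leg {P U : List α} {b om : ℕ} (hP : P.length = p.D.q * om)
    (hPh : P.length ≤ p.hi) (hPb : p.base ≤ P.length) (h : p.Leg U b) : p.c.nx (P ++ U) = some (P.length + b) := by
  rw [p.c_nx, nxf_eq]
  obtain ⟨h1, h2, h3⟩ := h
  have hmod : ∀ t, (P.length + t) % p.D.q = t % p.D.q := by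
    intro t; rw [hP, Nat.mul_add_mod]
  refine ⟨⟨by rw [drop_add]; exact h1, ?_⟩, ?_⟩
  · rw [hmod]; omega
  · rintro t' ht' ⟨h4, h5⟩
    rcases lt_or_ge t' P.length with h6 | h6
    · have := p.hth (t' % p.D.q)
      omega
    · obtain ⟨t, rfl⟩ := Nat.exists_eq_add_of_le h6
      rw [drop_add] at h4
      rw [hmod] at h5
      have := h3 t (by omega) h4
      omega

theorem exact1 (D1 : ℕ) :
    Exact p.c (T1 p.D.phi p.D.nu) p.al1 D1 p.rl1 (fun P U => p.RF (P ++ U)) := by
  intro P U v b R hU hnx hG hal hrl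
  rw [p.al1_some] at hal
  obtain ⟨hleg, hRR⟩ := p.rl1_some hrl
  obtain ⟨om, hP, hPh, hPb⟩ := p.LL_len hal
  refine ⟨p.nx_of_leg hP hPh hPb hleg, ?_⟩
  have h1 := p.D.sound p.hN1 p.hN2 hal hRR
  rw [p.hact] at h1
  rw [h1]
  rfl

theorem small_FW {Z : List α} (hZ : p.RF Z) {a : ℕ} (h : a + p.G + p.D.r.n ≤ Z.length) :
    ∃ t, FW p.D.r Z a t ∧ t ≤ a + p.G := by
  classical
  obtain ⟨t, h1, h2, h3⟩ := p.hsmall Z a hZ h
  have hex : ∃ t, a ≤ t ∧ p.D.r.R (Z.drop t) := ⟨t, h1, h3⟩
  refine ⟨Nat.find hex, ⟨(Nat.find_spec hex).1, (Nat.find_spec hex).2, ?_⟩, ?_⟩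
  · intro t' ht' ht'' h4
    exact Nat.find_min hex ht'' ⟨ht', h4⟩
  · have := Nat.find_min' hex ⟨h1, h3⟩
    omega

theorem complete1 :
    Complete p.c p.al1 p.L p.rl1 p.n2 p.hi
      (fun Q => p.RF Q ∧ p.L + p.L + p.hi ≤ Q.length ∧ ¬ p.Bad Q) := by
  classical
  rintro Q ⟨hRF, hlen, hbad⟩ v
  unfold Bad at hbad
  push Not at hbad
  obtain ⟨hE, hD, hB⟩ := hbad
  have hT : (Q.take p.L).length = p.L := by rw [List.length_take]; omega
  have hQT : Q.take p.L ++ Q.drop p.L = Q := List.take_append_drop _ _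
  have hRT : p.RF (Q.take p.L) := p.rf_pre _ (Q.drop p.L) (by rw [hQT]; exact hRF)
  obtain ⟨N, hN⟩ := Option.ne_none_iff_exists'.1 (p.hnx _ hRT (by rw [hT]))
  have hN' := nxf_eq.1 hN
  have hNL := rfit p.ro hN'.1.1
  rw [hT] at hNL
  have hNth := hN'.1.2
  set T := Q.take p.L with hTdef
  have hTN : T.take N ++ T.drop N = T := List.take_append_drop _ _
  have hZlen : (T.take N).length = N := by rw [List.length_take]; omega
  have hRZ : p.RF (T.take N) := p.rf_pre _ (T.drop N) (by rw [hTN]; exact hRT)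
  have hposn := p.ro.pos
  have hthN := p.hth (N % p.D.q)
  have hAmN := p.hAm (N % p.D.q)
  have hAk : ∀ k, k ≤ p.D.m → p.D.A k ≤ p.D.A p.D.m := fun k hk => p.D.monoA hk
  have hHex : ∀ k, ∃ t, k ≤ p.D.m → FW p.D.r (T.take N) (p.D.A k) t ∧ t ≤ p.D.A k + p.G := by
    intro k
    by_cases hk : k ≤ p.D.m
    · obtain ⟨t, ht⟩ := p.small_FW hRZ (a := p.D.A k) (by rw [hZlen]; have := hAk k hk; omega)
      exact ⟨t, fun _ => ht⟩
    · exact ⟨0, fun h => absurd h hk⟩
  choose H hH using hHex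
  obtain ⟨P, Qz, i, om, hZPQ, hi, hP, hlo, hhi, hLL, b, hRR⟩ :=
    p.D.complete p.hN3 p.hF (G := p.G) (Z := T.take N)
      (by rw [hZlen]; exact fun h => hB ⟨N, hN, h⟩) H (fun k hk => (hH k hk).1)
      (fun k hk => (hH k hk).2) p.hlo
      (by
        intro k hk t h1 h2 h3
        apply hD
        refine ⟨k, hk, t, h1, h2, ?_⟩
        have h4 := rfit p.D.r h3
        have h5 := (R_left p.D.r (Q := T.drop N) h4).2 h3
        rwa [hTN] at h5)
      (by intro i hi; rw [hZlen]; have := p.hcell i hi; omega) v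
  obtain ⟨om', hP', hPh, hPb⟩ := p.LL_len hLL
  have hPQlen : P.length + Qz.length = N := by
    rw [← hZlen, hZPQ, List.length_append]
  have hmod : ∀ t, (P.length + t) % p.D.q = t % p.D.q := by
    intro t; rw [hP, Nat.mul_add_mod]
  have hQ1 : Q = P ++ (Qz ++ (T.drop N ++ Q.drop p.L)) := by
    rw [← List.append_assoc, ← hZPQ, ← List.append_assoc, hTN, hQT]
  refine ⟨P, (Q.drop P.length).take p.L, (Q.drop P.length).drop p.L, ?_, ?_, ?_, hPh, ?_,
    p.al1_some.2 hLL, ?_⟩
  · rw [List.take_append_drop]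
    conv_lhs => rw [hQ1]
    conv_rhs => rw [hQ1]
    simp
  · rw [List.length_take, List.length_drop]; omega
  · have h1 := p.hlo i hi
    have h2 := p.hn2
    have h3 : p.D.A 0 ≤ p.D.A i := p.D.monoA (Nat.zero_le _)
    have h4 : p.D.q * p.D.lo i ≤ p.D.q * om := Nat.mul_le_mul_left _ hlo
    omega
  · rw [p.c_nx, nxf_none]
    rintro t ⟨h1, h2⟩
    have h3 := rfit p.ro h1
    have h4 := p.hth (t % p.D.q)
    omega
  · have hU : (Q.drop P.length).take p.L = Qz ++ ((T.drop N ++ Q.drop p.L).take (p.L - Qz.length)) := by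
      have : Q.drop P.length = Qz ++ (T.drop N ++ Q.drop p.L) := by
        conv_lhs => rw [hQ1]
        simp
      rw [this, List.take_append, List.take_of_length_le (by omega)]
    -- walls of U are walls of T
    have hUT : ∀ t, t ≤ N - P.length → (p.ro.R (((Q.drop P.length).take p.L).drop t) ↔
        p.ro.R (T.drop (P.length + t))) := by
      intro t ht
      rw [p.ro.take_iff, p.ro.take_iff (T.drop (P.length + t))]
      have : (((Q.drop P.length).take p.L).drop t).take p.ro.n =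
          (T.drop (P.length + t)).take p.ro.n := by
        rw [hTdef, List.drop_take, List.drop_take, List.drop_drop, List.take_take, List.take_take,
          min_eq_left (by omega), min_eq_left (by omega)]
      rw [this]
    have hleg : p.Leg ((Q.drop P.length).take p.L) (N - P.length) := by
      have hNN : ¬ (N ≤ p.th (N % p.D.q) + (p.hi - p.base)) := by
        intro h
        exact hE ⟨N, hN'.1.1, by omega, h⟩
      have hmN : N % p.D.q = (N - P.length) % p.D.q := by
        have := hmod (N - P.length)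
        rw [← this]; congr 1; omega
      refine ⟨?_, ?_, ?_⟩
      · rw [hUT _ le_rfl]
        have : P.length + (N - P.length) = N := by omega
        rw [this]
        exact hN'.1.1
      · rw [← hmN]; omega
      · intro t ht hR
        rw [hUT t ht.le] at hR
        have h1 := hN'.2 (P.length + t) (by omega)
        unfold Ql at h1
        have h2 : ¬ (p.th ((P.length + t) % p.D.q) ≤ P.length + t) := fun h => h1 ⟨hR, h⟩
        have h3 : ¬ (p.th ((P.length + t) % p.D.q) ≤ P.length + t + (p.hi - p.base)) := by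
          intro h
          exact hE ⟨P.length + t, hR, h, by omega⟩
        rw [hmod] at h3
        omega
    have hRR' : p.D.RR (((Q.drop P.length).take p.L).take (N - P.length)) b := by
      rw [hU, List.take_append_of_le_length (by omega)]
      have : N - P.length = Qz.length := by omega
      rw [this, List.take_length]
      exact hRR
    have hex : ∃ x : ℕ × (S → ZMod 2), p.Leg ((Q.drop P.length).take p.L) x.1 ∧
        p.D.RR (((Q.drop P.length).take p.L).take x.1) x.2 := ⟨(N - P.length, b), hleg, hRR'⟩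
    unfold rl1
    rw [dif_pos hex]
    rfl

end Par

end Crest.Agent.R320.Conc_685
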