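import Crest.Agent.R320.Conc1_685
import Crest.Agent.R320.Exact_355

/-!
Row 320: scheme 2 (promise ruler) of 132 in 961's `TwoSchemes` interface, on top of 355's exact gadget with
names; the spoiling count is a hypothesis.
-/

set_option autoImplicit false
set_option linter.unusedSectionVars false

namespace Crest.Agent.R320.Conc_685

open Crest.Agent.R320.Half1_961 Crest.Agent.R320.Zone132_898 Finset

variable {α : Type*}

/-- packaged exact gadget (355) -/
structure Ex (S V : Type*) [Monoid S] [AddCommGroup V] (beta : V → S → V) where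
  m : ℕ
  K : ℕ
  idx : Fin K → ℕ
  Lf : Fin K → List S → Prop
  Rt : Fin K → List S → Prop
  lab : Fin K → V
  rlab : Fin K → V
  nu : List S → V
  hm : 0 < m
  hidx : ∀ c, idx c < m
  ex : ∀ (c : Fin K) (pre post : List S) (z : S), pre.length = idx c →
        (pre ++ z :: post).length = m → Lf c pre → Rt c post →
          rlab c = beta (lab c) (pre ++ z :: post).prod + nu (pre ++ z :: post)
  co : ∀ (u : List S) (v : V), u.length = m → ∃ (c : Fin K) (pre post : List S) (z : S),
        u = pre ++ z :: post ∧ pre.length = idx c ∧ Lf c pre ∧ Rt c post ∧ lab c = v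

theorem exists_Ex {S V : Type*} [Monoid S] [AddCommGroup V] [Finite S] [Finite V]
    (beta : V → S → V) : Nonempty (Ex S V beta) := by
  obtain ⟨m, K, idx, Lf, Rt, lab, rlab, nu, h1, h2, h3, h4⟩ :=
    Crest.Agent.R320.Exact_355.exact_names S V beta
  exact ⟨⟨m, K, idx, Lf, Rt, lab, rlab, nu, h1, h2, h3, h4⟩⟩

section Blocks

variable {S : Type*}

/-- boundaries: the last block ends at `n2` -/
def bdy (β : ℕ → ℕ) (m n2 j : ℕ) : ℕ := if j < m then β j else n2

/-- block products -/
def bl (phi : List α → S) (bd : ℕ → ℕ) (X : List α) (a b : ℕ) : List S :=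
  (List.range' a (b - a)).map fun j => zt phi X (bd j) (bd (j + 1))

/-- block products seen from the right -/
def blU (phi : List α → S) (bd : ℕ → ℕ) (s : ℕ) (U : List α) (a b : ℕ) : List S :=
  (List.range' a (b - a)).map fun j => zt phi U (bd j - s) (bd (j + 1) - s)

theorem bl_length (phi : List α → S) (bd : ℕ → ℕ) (X : List α) (a b : ℕ) :
    (bl phi bd X a b).length = b - a := by simp [bl]

theorem range'_split {i m : ℕ} (h : i < m) :
    List.range' 0 (m - 0) = List.range' 0 (i - 0) ++ i :: List.range' (i + 1) (m - (i + 1)) := by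
  have h1 : m - 0 = (i - 0) + ((m - (i + 1)) + 1) := by omega
  rw [h1, ← List.range'_append_1, List.range'_succ]
  simp

theorem bl_split (phi : List α → S) (bd : ℕ → ℕ) (X : List α) {i m : ℕ} (h : i < m) :
    bl phi bd X 0 m = bl phi bd X 0 i ++ zt phi X (bd i) (bd (i + 1)) :: bl phi bd X (i + 1) m := by
  unfold bl
  rw [range'_split h, List.map_append, List.map_cons]

theorem bl_left (phi : List α → S) (bd : ℕ → ℕ) {P Q : List α} {i : ℕ}
    (h : ∀ j, j < i → bd (j + 1) ≤ P.length) : bl phi bd (P ++ Q) 0 i = bl phi bd P 0 i := by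
  unfold bl
  apply List.map_congr_left
  intro j hj
  rw [List.mem_range'_1] at hj
  exact zt_left phi (h j (by omega))

theorem bl_right (phi : List α → S) (bd : ℕ → ℕ) {P Q : List α} {a b : ℕ}
    (h : ∀ j, a ≤ j → j ≤ b → P.length ≤ bd j) :
    bl phi bd (P ++ Q) a b = blU phi bd P.length Q a b := by
  unfold bl blU
  apply List.map_congr_left
  intro j hj
  rw [List.mem_range'_1] at hj
  have h1 := h j (by omega) (by omega)
  have h2 := h (j + 1) (by omega) (by omega)
  have h3 := zt_right phi (P := P) (Q := Q) (a := bd j - P.length) (b := bd (j + 1) - P.length)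
  rw [show P.length + (bd j - P.length) = bd j by omega,
    show P.length + (bd (j + 1) - P.length) = bd (j + 1) by omega] at h3
  exact h3

theorem bl_prod [Monoid S] (phi : List α → S) (hphi : ∀ u v, phi (u ++ v) = phi u * phi v)
    (h1 : phi [] = 1) (bd : ℕ → ℕ) (h0 : bd 0 = 0) (hm : ∀ j, bd j ≤ bd (j + 1)) (X : List α)
    (k : ℕ) : (bl phi bd X 0 k).prod = phi (X.take (bd k)) := by
  induction k with
  | zero => simp [bl, h0, h1]
  | succ k ih =>
    rw [bl_split phi bd X (Nat.lt_succ_self k)]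
    have : bl phi bd X (k + 1) (k + 1) = [] := by simp [bl]
    rw [this, List.prod_append, ih]
    simp only [List.prod_cons, List.prod_nil, mul_one]
    unfold zt
    rw [← hphi]
    congr 1
    have h2 : bd (k + 1) = bd k + (bd (k + 1) - bd k) := by have := hm k; omega
    conv_rhs => rw [h2, List.take_add]

end Blocks

section S2

variable {S W : Type*} [Monoid S] [Finite S] [AddCommGroup W]

/-- possible zone maps as functions of the product of `X` -/
abbrev Th (S : Type*) := S → (S → ZMod 2) → (S → ZMod 2)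

/-- inner tokens -/
abbrev V2 (S : Type*) := (S → ZMod 2) → ZMod 2

/-- inner action -/
noncomputable def beta (θ : Th S) (v : V2 S) (s : S) : V2 S := push (θ s) v

/-- a text with the anchor `c` letters before `U` -/
def hyp (c : ℕ) (U : List α) : List α := U.take c ++ U

theorem hyp_len {c : ℕ} {U : List α} (h : c ≤ U.length) : (U.take c).length = c := by
  rw [List.length_take]; omega

/-- names of scheme 2 -/
abbrev Nm (E : ∀ θ : Th S, Ex S (V2 S) (beta θ)) (R : ℕ) := (θ : Th S) × (Fin (E θ).K × Fin R)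

/-- parameters of scheme 2 -/
structure Par2 (p : Par α S W) where
  E : ∀ θ : Th S, Ex S (V2 S) (beta θ)
  R : ℕ
  D2 : ℕ
  β : ℕ → ℕ
  place : Nm E R → ℕ
  inj : Function.Injective place
  β0 : β 0 = 0
  βmono : Monotone β
  ok1 : ∀ nm, β ((E nm.1).idx nm.2.1) ≤ place nm
  ok2 : ∀ nm, place nm ≤ β ((E nm.1).idx nm.2.1 + 1)
  ok3 : ∀ nm, place nm ≤ p.n2
  βn2 : ∀ θ, β (E θ).m ≤ p.n2
  hn : ∀ nm, p.ro.n ≤ place nm
  hphi1 : p.D.phi [] = 1
  hth2 : ∀ r, p.hi + p.n2 < p.th r
  hnL : p.n2 ≤ p.L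
  hn0 : p.ro.n ≤ p.n2
  hL0 : 0 < p.L
  hD2 : p.L + p.L + p.hi ≤ D2
  spoil : ∀ Q, p.RF Q → D2 + p.n2 ≤ Q.length → ∀ (θ : Th S) (c : Fin (E θ).K), ∃ r : Fin R,
    ∀ nm' : Nm E R, place nm' ≠ place ⟨θ, c, r⟩ →
      ¬ p.Bad (hyp (place nm') ((Q.drop (place ⟨θ, c, r⟩)).take D2))

namespace Par2

variable {p : Par α S W} (s : Par2 p)

include s

theorem Ql_congr {P P' U : List α} (h : P.length = P'.length) (hP : P.length ≤ p.n2) :
    Ql p.ro p.th p.D.q (P ++ U) = Ql p.ro p.th p.D.q (P' ++ U) := by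
  funext t
  unfold Ql
  apply propext
  constructor
  · rintro ⟨h1, h2⟩
    have h3 := s.hth2 (t % p.D.q)
    obtain ⟨x, rfl⟩ := Nat.exists_eq_add_of_le (show P.length ≤ t by omega)
    rw [drop_add] at h1
    exact ⟨by rw [h, drop_add]; exact h1, h2⟩
  · rintro ⟨h1, h2⟩
    have h3 := s.hth2 (t % p.D.q)
    obtain ⟨x, rfl⟩ := Nat.exists_eq_add_of_le (show P.length ≤ t by omega)
    rw [h, drop_add] at h1
    exact ⟨by rw [drop_add]; exact h1, h2⟩

theorem nx_congr {P P' U : List α} (h : P.length = P'.length) (hP : P.length ≤ p.n2) :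
    nxf p.ro p.th p.D.q (P ++ U) = nxf p.ro p.th p.D.q (P' ++ U) := by
  unfold nxf
  rw [s.Ql_congr h hP]

theorem EE_congr {P P' U : List α} (h : P.length = P'.length) (hP : P.length ≤ p.n2) :
    p.EE (P ++ U) → p.EE (P' ++ U) := by
  rintro ⟨t, h1, h2, h3⟩
  have h4 := s.hth2 (t % p.D.q)
  refine ⟨t, ?_, h2, h3⟩
  obtain ⟨x, rfl⟩ := Nat.exists_eq_add_of_le (show P.length ≤ t by omega)
  rw [drop_add] at h1
  rw [h, drop_add]; exact h1

theorem DD_congr {P P' U : List α} (h : P.length = P'.length) (hP : P.length ≤ p.n2) :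
    p.DD (P ++ U) → p.DD (P' ++ U) := by
  rintro ⟨k, hk, t, h1, h2, h3⟩
  refine ⟨k, hk, t, h1, h2, ?_⟩
  have h4 := p.hn2
  have h5 : p.D.A 0 ≤ p.D.A k := p.D.monoA (Nat.zero_le _)
  obtain ⟨x, rfl⟩ := Nat.exists_eq_add_of_le (show P.length ≤ t by omega)
  rw [drop_add] at h3
  rw [h, drop_add]; exact h3

theorem Bad_congr' {P P' U : List α} (h : P.length = P'.length) (hP : P.length ≤ p.n2) :
    p.Bad (P ++ U) → p.Bad (P' ++ U) := by
  have hL := s.hnL
  unfold Par.Bad
  rw [List.take_append, List.take_append, List.take_of_length_le (l := P) (by omega),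
    List.take_of_length_le (l := P') (by omega), ← h]
  rintro (h1 | h1 | h1)
  · exact Or.inl (s.EE_congr h hP h1)
  · exact Or.inr (Or.inl (s.DD_congr h hP h1))
  · refine Or.inr (Or.inr ?_)
    obtain ⟨N, h2, h3⟩ := h1
    exact ⟨N, by rw [← s.nx_congr h hP]; exact h2, h3⟩

theorem Bad_congr {P P' U : List α} (h : P.length = P'.length) (hP : P.length ≤ p.n2) :
    p.Bad (P ++ U) ↔ p.Bad (P' ++ U) :=
  ⟨s.Bad_congr' h hP, s.Bad_congr' h.symm (by omega)⟩

/-- the zone map depends on `X` only through its product -/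
theorem nu_congr {X X' Y : List α} (h : X.length = X'.length) (hX : X.length ≤ p.n2)
    (hphi : p.D.phi X = p.D.phi X') : p.D.nu (X ++ Y) = p.D.nu (X' ++ Y) := by
  classical
  have hlen : (X ++ Y).length = (X' ++ Y).length := by simp [h]
  have hph : p.D.phi (X ++ Y) = p.D.phi (X' ++ Y) := by rw [p.D.hphi, p.D.hphi, hphi]
  have hn2 := p.hn2
  by_cases hB : p.D.B ((X ++ Y).length / p.D.q)
  · unfold Data.nu
    rw [if_pos hB, if_pos (by rw [← hlen]; exact hB), hph]
    simp only [hlen]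
  · have key : ∀ {X X' : List α}, X.length = X'.length → X.length ≤ p.n2 → ∀ H : ℕ → ℕ,
        (∀ k, k ≤ p.D.m → FW p.D.r (X ++ Y) (p.D.A k) (H k)) →
        (∀ k, k ≤ p.D.m → FW p.D.r (X' ++ Y) (p.D.A k) (H k)) := by
      intro X X' h hX H hH k hk
      obtain ⟨h1, h2, h3⟩ := hH k hk
      have h5 : p.D.A 0 ≤ p.D.A k := p.D.monoA (Nat.zero_le _)
      have hd : ∀ t, p.n2 ≤ t → (X' ++ Y).drop t = (X ++ Y).drop t := by
        intro t ht
        obtain ⟨x, rfl⟩ := Nat.exists_eq_add_of_le (show X.length ≤ t by omega)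
        rw [drop_add, h, drop_add]
      refine ⟨h1, by rw [hd _ (by omega)]; exact h2, ?_⟩
      intro t' ht' ht''
      rw [hd _ (by omega)]
      exact h3 t' ht' ht''
    by_cases hex : ∃ H : ℕ → ℕ, ∀ k, k ≤ p.D.m → FW p.D.r (X ++ Y) (p.D.A k) (H k)
    · obtain ⟨H, hH⟩ := hex
      rw [p.D.nu_of_not _ hB H hH,
        p.D.nu_of_not _ (by rw [← hlen]; exact hB) H (key h hX H hH), hph]
      congr 1
      apply Finset.sum_congr rfl
      intro k hk
      rw [Finset.mem_range] at hk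
      have h6 : p.D.A 0 ≤ p.D.A k := p.D.monoA (Nat.zero_le _)
      have h7 : p.D.A 0 ≤ p.D.A (k + 1) := p.D.monoA (Nat.zero_le _)
      have h8 := (hH k (by omega)).1
      have h9 := (hH (k + 1) (by omega)).1
      have hz : ∀ a b, p.n2 ≤ a → zt p.D.phi (X ++ Y) a b = zt p.D.phi (X' ++ Y) a b := by
        intro a b ha
        unfold zt
        obtain ⟨x, rfl⟩ := Nat.exists_eq_add_of_le (show X.length ≤ a by omega)
        rw [drop_add, h, drop_add]
      rw [hz _ _ (by omega)]
    · have hex' : ¬ ∃ H : ℕ → ℕ, ∀ k, k ≤ p.D.m → FW p.D.r (X' ++ Y) (p.D.A k) (H k) := by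
        rintro ⟨H, hH⟩
        exact hex ⟨H, key h.symm (by omega) H hH⟩
      unfold Data.nu
      rw [if_neg hB, if_neg (by rw [← hlen]; exact hB), dif_neg hex, dif_neg hex']

omit s in
open Classical in
/-- right data of the zone -/
noncomputable def theta (p : Par α S W) (Y : List α) : Th S := fun x =>
  if h : ∃ X : List α, X.length = p.n2 ∧ p.D.phi X = x then T1 p.D.phi p.D.nu (h.choose ++ Y)
  else id

theorem theta_eq {X Y : List α} (hX : X.length = p.n2) :
    theta p Y (p.D.phi X) = T1 p.D.phi p.D.nu (X ++ Y) := by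
  classical
  have hex : ∃ X' : List α, X'.length = p.n2 ∧ p.D.phi X' = p.D.phi X := ⟨X, hX, rfl⟩
  unfold theta
  rw [dif_pos hex]
  obtain ⟨h1, h2⟩ := hex.choose_spec
  funext v
  unfold T1
  rw [s.nu_congr (X := hex.choose) (X' := X) (by omega) (by omega) h2, p.D.hphi, p.D.hphi, h2]

/-- block boundaries for `θ` -/
def bd (θ : Th S) (j : ℕ) : ℕ := bdy s.β (s.E θ).m p.n2 j

theorem bd_zero (θ : Th S) : s.bd θ 0 = 0 := by
  unfold bd bdy
  rw [if_pos (s.E θ).hm, s.β0]

theorem bd_m (θ : Th S) : s.bd θ (s.E θ).m = p.n2 := by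
  unfold bd bdy
  rw [if_neg (lt_irrefl _)]

theorem bd_mono (θ : Th S) : Monotone (s.bd θ) := by
  intro i j hij
  unfold bd bdy
  have h1 := s.βn2 θ
  split_ifs with h2 h3 h3
  · exact s.βmono hij
  · exact le_trans (s.βmono h2.le) h1
  · omega
  · exact le_rfl

/-- left legality -/
def LL2 (P : List α) (nm : Nm s.E s.R) (v : V2 S) : Prop :=
  P.length = s.place nm ∧
    (s.E nm.1).Lf nm.2.1 (bl p.D.phi (s.bd nm.1) P 0 ((s.E nm.1).idx nm.2.1)) ∧
    v = (s.E nm.1).lab nm.2.1

/-- right legality -/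
def RR2 (U : List α) (nm : Nm s.E s.R) (b : ℕ) (R : V2 S) : Prop :=
  (∀ nm', p.Bad (hyp (s.place nm') U) ↔ s.place nm' = s.place nm) ∧
  nxf p.ro p.th p.D.q (hyp (s.place nm) U) = some (s.place nm + b) ∧
  theta p ((U.drop (p.n2 - s.place nm)).take (s.place nm + b - p.n2)) = nm.1 ∧
  (s.E nm.1).Rt nm.2.1 (blU p.D.phi (s.bd nm.1) (s.place nm) (U.take b)
    ((s.E nm.1).idx nm.2.1 + 1) (s.E nm.1).m) ∧
  R = (s.E nm.1).rlab nm.2.1

open Classical in
/-- left labels of scheme 2 -/
noncomputable def al2 (P : List α) : Option (V2 S) :=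
  if h : ∃ x : Nm s.E s.R × V2 S, s.LL2 P x.1 x.2 then some h.choose.2 else none

open Classical in
/-- right labels of scheme 2 -/
noncomputable def rl2 (U : List α) : Option (ℕ × V2 S) :=
  if h : ∃ x : Nm s.E s.R × (ℕ × V2 S), s.RR2 U x.1 x.2.1 x.2.2 then some h.choose.2 else none

theorem al2_some {P : List α} {v : V2 S} : s.al2 P = some v ↔ ∃ nm, s.LL2 P nm v := by
  classical
  unfold al2
  constructor
  · intro h
    split_ifs at h with h1
    · simp only [Option.some.injEq] at h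
      rw [← h]
      exact ⟨_, h1.choose_spec⟩
  · rintro ⟨nm, h⟩
    have h1 : ∃ x : Nm s.E s.R × V2 S, s.LL2 P x.1 x.2 := ⟨(nm, v), h⟩
    rw [dif_pos h1]
    congr 1
    have h2 := h1.choose_spec
    have h3 : h1.choose.1 = nm := s.inj (h2.1.symm.trans h.1)
    rw [h2.2.2, h.2.2, h3]

theorem rl2_some {U : List α} {b : ℕ} {R : V2 S} (h : s.rl2 U = some (b, R)) :
    ∃ nm, s.RR2 U nm b R := by
  classical
  unfold rl2 at h
  split_ifs at h with h1
  · simp only [Option.some.injEq] at h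
    have h2 := h1.choose_spec
    rw [h] at h2
    exact ⟨_, h2⟩

/-- noise of scheme 2 -/
noncomputable def nu2 (Z : List α) : V2 S :=
  (s.E (theta p (Z.drop p.n2))).nu (bl p.D.phi (s.bd (theta p (Z.drop p.n2))) Z 0
    (s.E (theta p (Z.drop p.n2))).m)

theorem split_bl {P U : List α} (nm : Nm s.E s.R) (hP : P.length = s.place nm) :
    bl p.D.phi (s.bd nm.1) (P ++ U) 0 (s.E nm.1).m =
      bl p.D.phi (s.bd nm.1) P 0 ((s.E nm.1).idx nm.2.1) ++
        zt p.D.phi (P ++ U) (s.bd nm.1 ((s.E nm.1).idx nm.2.1))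
          (s.bd nm.1 ((s.E nm.1).idx nm.2.1 + 1)) ::
        blU p.D.phi (s.bd nm.1) P.length U ((s.E nm.1).idx nm.2.1 + 1) (s.E nm.1).m := by
  have hi := (s.E nm.1).hidx nm.2.1
  rw [bl_split _ _ _ hi]
  have h1 : s.bd nm.1 ((s.E nm.1).idx nm.2.1) ≤ P.length := by
    rw [hP]
    unfold bd bdy
    rw [if_pos hi]
    exact s.ok1 nm
  have h2 : P.length ≤ s.bd nm.1 ((s.E nm.1).idx nm.2.1 + 1) := by
    rw [hP]
    unfold bd bdy
    split_ifs
    · exact s.ok2 nm
    · exact s.ok3 nm
  rw [bl_left _ _ (fun j hj => le_trans (s.bd_mono nm.1 (by omega)) h1),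
    bl_right _ _ (fun j hj _ => le_trans h2 (s.bd_mono nm.1 hj))]

theorem exact2 (D2 : ℕ) (hD2 : s.D2 ≤ D2) : Exact p.c (T2 (T1 p.D.phi p.D.nu) s.nu2) s.al2 D2 s.rl2
    (fun P U => p.RF (P ++ U) ∧ P.length ≤ p.n2 ∧ p.Bad (P ++ U)) := by
  intro P U v b R hU hnx hG hal hrl
  obtain ⟨hRF, hPn, hbad⟩ := hG
  obtain ⟨nm, hP, hLf, rfl⟩ := s.al2_some.1 hal
  obtain ⟨nm', huni, hnx', hth', hRt, rfl⟩ := s.rl2_some hrl
  have hD := s.hD2
  have hL := s.hnL
  have hUlen : p.n2 ≤ U.length := by omega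
  have hhyp : ∀ nm'' : Nm s.E s.R, (U.take (s.place nm'')).length = s.place nm'' := by
    intro nm''
    exact hyp_len (le_trans (s.ok3 nm'') hUlen)
  have h1 : p.Bad (hyp (s.place nm) U) := by
    unfold hyp
    rw [s.Bad_congr (P' := P) (by rw [hhyp, hP]) (by rw [hhyp]; exact s.ok3 nm)]
    exact hbad
  have h2 : nm = nm' := s.inj ((huni nm).1 h1)
  subst h2
  have h3 : nxf p.ro p.th p.D.q (P ++ U) = some (s.place nm + b) := by
    rw [← hnx']
    unfold hyp
    exact s.nx_congr (by rw [hhyp, hP]) (by omega)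
  refine ⟨by rw [p.c_nx, hP]; exact h3, ?_⟩
  have h4 := nxf_eq.1 h3
  have h5 := rfit p.ro h4.1.1
  have h6 := s.hth2 ((s.place nm + b) % p.D.q)
  have h7 := h4.1.2
  have h8 := s.ok3 nm
  rw [List.length_append] at h5
  have hblen : (U.take b).length = b := by rw [List.length_take]; omega
  have hdrop : (P ++ U.take b).drop p.n2 = (U.drop (p.n2 - s.place nm)).take (s.place nm + b - p.n2) := by
    have e1 : p.n2 = P.length + (p.n2 - s.place nm) := by omega
    conv_lhs => rw [e1, drop_add]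
    rw [List.drop_take]
    congr 1
    omega
  have htake : ((P ++ U.take b).take p.n2).length = p.n2 := by
    rw [List.length_take, List.length_append, hblen]; omega
  have hθ : theta p ((P ++ U.take b).drop p.n2) = nm.1 := by rw [hdrop]; exact hth'
  have hsplit := s.split_bl (U := U.take b) nm hP
  unfold T2 nu2
  rw [hθ, hsplit, hP]
  have hlen : (bl p.D.phi (s.bd nm.1) P 0 ((s.E nm.1).idx nm.2.1) ++
        zt p.D.phi (P ++ U.take b) (s.bd nm.1 ((s.E nm.1).idx nm.2.1))
          (s.bd nm.1 ((s.E nm.1).idx nm.2.1 + 1)) ::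
        blU p.D.phi (s.bd nm.1) (s.place nm) (U.take b) ((s.E nm.1).idx nm.2.1 + 1)
          (s.E nm.1).m).length = (s.E nm.1).m := by
    rw [← hP, ← hsplit, bl_length]
    omega
  have hex := (s.E nm.1).ex nm.2.1 _ _ _ (by rw [bl_length]; omega) hlen hLf hRt
  rw [hex]
  congr 1
  rw [← hP, ← hsplit, bl_prod p.D.phi p.D.hphi s.hphi1 (s.bd nm.1) (s.bd_zero _)
    (fun j => s.bd_mono _ (Nat.le_succ j)), s.bd_m]
  unfold beta
  have h9 := s.theta_eq (X := (P ++ U.take b).take p.n2) (Y := (P ++ U.take b).drop p.n2) htake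
  rw [hθ, List.take_append_drop] at h9
  rw [h9]

theorem complete2 (D2 : ℕ) (hD2 : D2 = s.D2) : Complete p.c s.al2 D2 s.rl2 p.c.n p.n2
    (fun Q => p.RF Q ∧ D2 + p.n2 ≤ Q.length ∧ p.Bad Q) := by
  classical
  subst hD2
  rintro Q ⟨hRF, hlen, hbad⟩ v
  have hD := s.hD2
  have hL := s.hnL
  have hQT : Q.take p.L ++ Q.drop p.L = Q := List.take_append_drop _ _
  have hT : (Q.take p.L).length = p.L := by rw [List.length_take]; omega
  have hRT : p.RF (Q.take p.L) := p.rf_pre _ (Q.drop p.L) (by rw [hQT]; exact hRF)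
  obtain ⟨N, hN⟩ := Option.ne_none_iff_exists'.1 (p.hnx _ hRT (by rw [hT]))
  have hNQ : p.c.nx Q = some N := by
    rw [← hQT]; exact p.c.ext _ _ _ hN
  have hN' := nxf_eq.1 hN
  have hNL := rfit p.ro hN'.1.1
  rw [hT] at hNL
  have hNth := hN'.1.2
  have hthN := s.hth2 (N % p.D.q)
  obtain ⟨θ, hθ⟩ : ∃ θ, θ = theta p ((Q.take N).drop p.n2) := ⟨_, rfl⟩
  obtain ⟨c, pre, post, z, hu, hpre, hLf, hRt, hlab⟩ :=
    (s.E θ).co (bl p.D.phi (s.bd θ) (Q.take N) 0 (s.E θ).m) v (by rw [bl_length]; omega)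
  obtain ⟨r, hr⟩ := s.spoil Q hRF hlen θ c
  set nm : Nm s.E s.R := ⟨θ, c, r⟩ with hnm
  have hpl := s.ok3 nm
  have hPlen : (Q.take (s.place nm)).length = s.place nm := by rw [List.length_take]; omega
  set U := (Q.drop (s.place nm)).take s.D2 with hUdef
  have hUlen : U.length = s.D2 := by rw [hUdef, List.length_take, List.length_drop]; omega
  have hQPU : Q = Q.take (s.place nm) ++ (U ++ (Q.drop (s.place nm)).drop s.D2) := by
    rw [hUdef, List.take_append_drop, List.take_append_drop]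
  have hPU : Q.take (s.place nm) ++ U = Q.take (s.place nm + s.D2) := by
    rw [List.take_add]
  have hPUlen : (Q.take (s.place nm) ++ U).length = s.place nm + s.D2 := by
    rw [List.length_append, hPlen, hUlen]
  have hbadPU : p.Bad (Q.take (s.place nm) ++ U) := by
    have h1 := p.Bad_local (Q.take (s.place nm) ++ U) ((Q.drop (s.place nm)).drop s.D2)
      (by rw [hPUlen]; omega)
    rw [List.append_assoc, ← hQPU] at h1
    exact h1.1 hbad
  have hnxPU : p.c.nx (Q.take (s.place nm) ++ U) = some N := by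
    apply p.c.tight _ ((Q.drop (s.place nm)).drop s.D2)
    · rw [List.append_assoc, ← hQPU]; exact hNQ
    · rw [hPUlen]
      show N + p.ro.n ≤ _
      omega
  have hhyp : ∀ nm'' : Nm s.E s.R, (U.take (s.place nm'')).length = s.place nm'' := by
    intro nm''
    exact hyp_len (le_trans (s.ok3 nm'') (by omega))
  have hZ : Q.take (s.place nm) ++ U.take (N - s.place nm) = Q.take N := by
    rw [hUdef, List.take_take, min_eq_left (by omega), ← List.take_add]
    congr 1; omega
  have hsplit := s.split_bl (P := Q.take (s.place nm)) (U := U.take (N - s.place nm)) nm hPlen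
  rw [hZ, hPlen] at hsplit
  have hpre' : pre = bl p.D.phi (s.bd nm.1) (Q.take (s.place nm)) 0 ((s.E nm.1).idx nm.2.1) ∧
      post = blU p.D.phi (s.bd nm.1) (s.place nm) (U.take (N - s.place nm))
        ((s.E nm.1).idx nm.2.1 + 1) (s.E nm.1).m := by
    have h1 := hu.symm.trans hsplit
    have h2 := List.append_inj h1 (by rw [hpre, bl_length, Nat.sub_zero])
    refine ⟨h2.1, ?_⟩
    have h3 := h2.2
    rw [List.cons.injEq] at h3
    exact h3.2
  refine ⟨Q.take (s.place nm), U, (Q.drop (s.place nm)).drop s.D2, hQPU, hUlen, ?_, ?_, ?_, ?_, ?_⟩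
  · rw [hPlen]; exact s.hn nm
  · rw [hPlen]; exact hpl
  · rw [p.c_nx, nxf_none]
    rintro t ⟨h1, h2⟩
    have h3 := rfit p.ro h1
    have h4 := s.hth2 (t % p.D.q)
    omega
  · rw [s.al2_some]
    refine ⟨nm, hPlen, ?_, hlab.symm⟩
    rw [← hpre'.1]
    exact hLf
  · have hRR : s.RR2 U nm (N - s.place nm) ((s.E nm.1).rlab nm.2.1) := by
      refine ⟨?_, ?_, ?_, ?_, rfl⟩
      · intro nm'
        constructor
        · intro h
          by_contra hne
          exact hr nm' hne h
        · intro h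
          rw [h]
          unfold hyp
          rw [s.Bad_congr (P' := Q.take (s.place nm)) (by rw [hhyp, hPlen])
            (by rw [hhyp]; exact hpl)]
          exact hbadPU
      · unfold hyp
        rw [s.nx_congr (P' := Q.take (s.place nm)) (by rw [hhyp, hPlen])
            (by rw [hhyp]; exact hpl)]
        have := hnxPU
        rw [p.c_nx] at this
        rw [this]
        congr 1; omega
      · show _ = θ
        rw [hθ]
        congr 1
        rw [hUdef, List.drop_take, List.take_take, List.drop_drop, List.drop_take,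
          min_eq_left (by omega)]
        congr 1
        · omega
        · congr 1; omega
      · rw [← hpre'.2]
        exact hRt
    have hex : ∃ x : Nm s.E s.R × (ℕ × V2 S), s.RR2 U x.1 x.2.1 x.2.2 :=
      ⟨(nm, (N - s.place nm, (s.E nm.1).rlab nm.2.1)), hRR⟩
    unfold rl2
    rw [dif_pos hex]
    rfl

/-- **961's interface** -/
theorem twoSchemes (s : Par2 p) : TwoSchemes p.D.phi p.RF := by
  refine ⟨p.c, p.L, p.L, p.n2, p.hi, p.Bad, ?_, ?_, ?_, p.D.nu, p.al1, p.L, p.rl1, ?_,
    p.exact1 p.L, p.complete1, s.nu2, s.al2, s.D2, s.rl2, s.hD2, s.exact2 _ le_rfl,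
    s.complete2 _ rfl⟩
  · intro Q hQ h
    exact p.hnx Q hQ h
  · exact s.hn0
  · intro Q Q' h
    exact p.Bad_local Q Q' h
  · exact s.hL0

end Par2

end S2

end Crest.Agent.R320.Conc_685
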