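import Crest.Agent.R320.Conc_795

/-!
# Row 320: scheme 2, the spoil count and the cut (helper795)
-/

set_option autoImplicit false

namespace Crest.Agent.R320.Conc_795

open Crest.RegLang Crest.Agent.R320.Hk_851 Crest.Agent.R320.Blk_517 Crest.Agent.R320.Top_517
  Crest.Agent.R320.Fin_517 Crest.Agent.R320.Main_517 Crest.Agent.R320.SemTop_795

universe u

variable {α : Type u} {V S : Type*} [Monoid S] [AddCommGroup V] {φ : α → S} {act : V → S → V}
  {p0 : ℕ} {nu1 nu2 : List α → V} {lam rho lam2 rho2 : List α → Option V}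

open Classical in
/-- the spoiled places are few -/
theorem spoil {Wo : List α → Prop} {n W z A C0 K : ℕ} (hW : Walls Wo n W)
    (hz : p0 + 3 * A + n + p0 ≤ z) (hWb : 2 * A + 2 * p0 ≤ W) {c : ℕ → ℕ}
    (hc : ∀ k < K, c k ≤ p0) {Bad1 : ℕ → Prop}
    (rul : ∀ a b a' b', a < K → b < K → a' < K → b' < K → a ≠ b → a' ≠ b' →
      |((c a : ℤ) - c b) - (c a' - c b')| < 2 * A → a = a' ∧ b = b')
    (thin : ∀ T : ℤ, ∃ Pr : Finset (ℕ × ℕ), Pr.card ≤ C0 ∧ ∀ a b, a < K → b < K → a ≠ b →
      ∀ y : ℕ, (y : ℤ) = T - ((c a : ℤ) - c b) → Bad1 y → (a, b) ∈ Pr)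
    {X Y : List α} (hX : X ∈ XX Wo z) (hY : Y ∈ XX Wo z) :
    ∃ Sp : Finset ℕ, Sp.card ≤ 2 * C0 + 1 ∧ ∀ k < K, ∀ j < K, j ≠ k → ∀ P'' : List α,
      P''.length = c j → ∀ X'' ∈ XX Wo z, X'' <+: P'' ++ (X.drop (c k) ++ Y) →
      ((∃ t, t ≤ X''.length ∧ z ≤ t + A ∧ t < z + A ∧ Wo (X''.take t)) ∨
        Bad1 (X''.length - p0)) → k ∈ Sp := by
  set U := X ++ Y with hU
  have hUl : U.length = X.length + Y.length := by rw [hU, List.length_append]
  have hXl := hX.1
  have hYl := hY.1
  -- the first wall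
  have hex1 : ∃ t, z ≤ t + p0 ∧ t ≤ U.length ∧ Wo (U.take t) := by
    refine ⟨X.length, by omega, by omega, ?_⟩
    rw [hU, List.take_left' rfl]; exact hX.2.1
  set w1 := Nat.find hex1 with hw1
  obtain ⟨w1a, w1b, w1c⟩ := Nat.find_spec hex1
  rw [← hw1] at w1a w1b w1c
  -- the second wall
  let w2 : ℕ := if h : ∃ t, w1 < t ∧ t ≤ U.length ∧ Wo (U.take t) then Nat.find h else 0
  -- the three sets of pairs
  obtain ⟨Pr1, hP1, hP1'⟩ := thin ((w1 : ℤ) - p0)
  obtain ⟨Pr2, hP2, hP2'⟩ := thin ((w2 : ℤ) - p0)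
  let EP : ℕ → ℕ → Prop := fun k j => k < K ∧ j < K ∧ k ≠ j ∧ ∃ t, t ≤ U.length ∧ Wo (U.take t) ∧
    (z : ℤ) ≤ t + c j - c k + A ∧ (t : ℤ) + c j - c k < z + A
  let PE : Finset (ℕ × ℕ) := if h : ∃ ab : ℕ × ℕ, EP ab.1 ab.2 then {h.choose} else ∅
  have hPE : PE.card ≤ 1 := by
    by_cases h : ∃ ab : ℕ × ℕ, EP ab.1 ab.2
    · simp only [PE, dif_pos h, Finset.card_singleton, le_refl]
    · simp only [PE, dif_neg h, Finset.card_empty]; omega
  have hPE' : ∀ k j, EP k j → (k, j) ∈ PE := by
    intro k j hkj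
    have h : ∃ ab : ℕ × ℕ, EP ab.1 ab.2 := ⟨(k, j), hkj⟩
    simp only [PE, dif_pos h, Finset.mem_singleton]
    obtain ⟨a1, a2, a3, t, a4, a5, a6, a7⟩ := hkj
    obtain ⟨b1, b2, b3, s, b4, b5, b6, b7⟩ := h.choose_spec
    set ab := h.choose with hab
    have c1 := hc k a1
    have c2 := hc j a2
    have c3 := hc ab.1 b1
    have c4 := hc ab.2 b2
    have hts : t = s := by
      rcases lt_trichotomy t s with h' | h' | h'
      · have := far hW a5 b5 h' b4
        omega
      · exact h'
      · have := far hW b5 a5 h' a4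
        omega
    subst hts
    have := rul k j ab.1 ab.2 a1 a2 b1 b2 a3 b3 (by rw [abs_lt]; constructor <;> omega)
    exact Prod.ext this.1 this.2
  refine ⟨(PE ∪ (Pr1 ∪ Pr2)).image Prod.fst, ?_, ?_⟩
  · refine Finset.card_image_le.trans ?_
    refine (Finset.card_union_le _ _).trans ?_
    have := Finset.card_union_le Pr1 Pr2
    omega
  · intro k hk j hj hjk P'' hP'' X'' hX'' hpr hbad
    have ck := hc k hk
    have cj := hc j hj
    have hlk : (X.take (c k)).length = c k := by rw [List.length_take]; omega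
    have hQl : (X.drop (c k) ++ Y).length = X.length - c k + Y.length := by
      rw [List.length_append, List.length_drop]
    have hUe : U = X.take (c k) ++ (X.drop (c k) ++ Y) := by
      rw [← List.append_assoc, List.take_append_drop]
    -- transport of a wall of X'' to U
    have tr : ∀ t, t ≤ X''.length → z ≤ t + A → Wo (X''.take t) →
        Wo (U.take (t - c j + c k)) ∧ t - c j + c k ≤ U.length := by
      intro t ht hzt hwt
      have hl := hpr.length_le
      rw [List.length_append, hP'', hQl] at hl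
      have e1 : X''.take t = (P'' ++ (X.drop (c k) ++ Y)).take t := by
        obtain ⟨s, hs⟩ := hpr
        rw [← hs, List.take_append_of_le_length ht]
      rw [e1] at hwt
      have := (shift hW (P := P'') (P' := X.take (c k)) (Q := X.drop (c k) ++ Y) (t := t)
        (by omega) (by omega)).1 hwt
      rw [← hUe, hP'', hlk] at this
      exact ⟨this, by omega⟩
    rw [Finset.mem_image]
    refine ⟨(k, j), ?_, rfl⟩
    rw [Finset.mem_union]
    rcases hbad with ⟨t, t1, t2, t3, t4⟩ | hb
    · left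
      apply hPE'
      obtain ⟨h1, h2⟩ := tr t t1 t2 t4
      refine ⟨hk, hj, hjk.symm, _, h2, h1, ?_, ?_⟩ <;> omega
    · right
      rw [Finset.mem_union]
      have hx1 := hX''.1
      obtain ⟨h1, h2⟩ := tr X''.length le_rfl (by omega) (by rw [List.take_length]; exact hX''.2.1)
      set τ := X''.length - c j + c k with hτ
      have hw1τ : w1 ≤ τ := Nat.find_min' hex1 ⟨by omega, h2, h1⟩
      by_cases hτ1 : τ = w1
      · left
        refine hP1' k j hk hj hjk.symm _ ?_ hb
        omega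
      · right
        have hex2 : ∃ t, w1 < t ∧ t ≤ U.length ∧ Wo (U.take t) := ⟨τ, by omega, h2, h1⟩
        have hw2 : w2 = Nat.find hex2 := dif_pos hex2
        obtain ⟨g1, g2, g3⟩ := Nat.find_spec hex2
        rw [← hw2] at g1 g2 g3
        have hw2τ : w2 ≤ τ := by rw [hw2]; exact Nat.find_min' hex2 ⟨by omega, h2, h1⟩
        have hfar := far hW w1c g3 g1 g2
        have hτ2 : τ = w2 := by
          by_contra hne
          have hlt : w2 < τ := by omega
          -- transport back
          have hl := hpr.length_le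
          rw [List.length_append, hP'', hQl] at hl
          have hs := (shift hW (P := X.take (c k)) (P' := P'') (Q := X.drop (c k) ++ Y) (t := w2)
            (by omega) (by omega)).1 (by rw [← hUe]; exact g3)
          rw [hP'', hlk] at hs
          have e1 : X''.take (w2 - c k + c j) =
              (P'' ++ (X.drop (c k) ++ Y)).take (w2 - c k + c j) := by
            obtain ⟨s, hs'⟩ := hpr
            rw [← hs', List.take_append_of_le_length (by omega)]
          rw [← e1] at hs
          exact hX''.2.2 _ (by omega) (by omega) hs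
        refine hP2' k j hk hj hjk.symm _ ?_ hb
        omega

theorem cut2 {Wo : List α → Prop} {n W z A C0 K : ℕ} (hW : Walls Wo n W)
    (hz : p0 + 3 * A + n + p0 ≤ z) (hWb : 2 * A + 2 * p0 ≤ W) {c : ℕ → ℕ}
    (hc : ∀ k < K, c k ≤ p0) {Bad1 : ℕ → Prop}
    (snd : ∀ P Q v r, A ≤ Q.length → lam P = some v → rho Q = some r →
      r = nu1 (P ++ Q) + act v (ev φ (P ++ Q)))
    (ll : ∀ P, (lam P).isSome → P.length < A)
    (cmp : ∀ u : List α, 2 * A ≤ u.length → ¬ Bad1 u.length → ∀ v, ∃ P Q, P ++ Q = u ∧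
      lam P = some v ∧ (rho Q).isSome)
    (rul : ∀ a b a' b', a < K → b < K → a' < K → b' < K → a ≠ b → a' ≠ b' →
      |((c a : ℤ) - c b) - (c a' - c b')| < 2 * A → a = a' ∧ b = b')
    (thin : ∀ T : ℤ, ∃ Pr : Finset (ℕ × ℕ), Pr.card ≤ C0 ∧ ∀ a b, a < K → b < K → a ≠ b →
      ∀ y : ℕ, (y : ℤ) = T - ((c a : ℤ) - c b) → Bad1 y → (a, b) ∈ Pr)
    (g2s : ∀ (p q : List α) (v b : V), p.length + q.length = p0 → lam2 p = some v →
      rho2 q = some b → b = act v (ev φ (p ++ q)) + nu2 (p ++ q))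
    (g2c : ∀ (u : List α) (v : V), u.length = p0 → ∃ J : Finset ℕ, 2 * C0 + 2 ≤ J.card ∧
      ∀ k ∈ J, k < K ∧ lam2 (u.take (c k)) = some v ∧ (rho2 (u.drop (c k))).isSome = true)
    {X Y : List α} (hX : X ∈ XX Wo z) (hY : Y ∈ XX Wo z) (v : V) :
    ∃ P Q b, X ++ Y = P ++ Q ∧ P ∈ LL2 (α := α) lam2 c K v ∧
      Q ∈ R2 (XX Wo z) (TT φ act p0 nu1 nu2) (LL1 φ act p0 nu2 lam) (LL2 lam2 c K) b := by
  have hXl := hX.1
  have hYl := hY.1
  have hul : (X.take p0).length = p0 := by rw [List.length_take]; omega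
  obtain ⟨J, hJ, hJ'⟩ := g2c (X.take p0) v hul
  obtain ⟨Sp, hSp, hSp'⟩ := spoil (p0 := p0) hW hz hWb hc rul thin hX hY
  obtain ⟨k, hkJ, hkS⟩ : ∃ k ∈ J, k ∉ Sp := by
    by_contra hcon
    push Not at hcon
    have := Finset.card_le_card (show J ⊆ Sp from hcon)
    omega
  obtain ⟨hk, hl2, hr2⟩ := hJ' k hkJ
  have ck := hc k hk
  obtain ⟨y, hy⟩ := Option.isSome_iff_exists.1 hr2
  have htt : (X.take p0).take (c k) = X.take (c k) := by
    rw [List.take_take, Nat.min_eq_left ck]
  rw [htt] at hl2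
  have hlk : (X.take (c k)).length = c k := by rw [List.length_take]; omega
  have hXd : X.drop (c k) = (X.take p0).drop (c k) ++ X.drop p0 := by
    conv_lhs => rw [← List.take_append_drop p0 X]
    rw [List.drop_append_of_le_length (by omega)]
  have hdl : ((X.take p0).drop (c k)).length = p0 - c k := by rw [List.length_drop, hul]
  -- value of the first block from a left word of length `c k`
  have hval : ∀ (P'' : List α) (v'' : V), P''.length = c k → lam2 P'' = some v'' →
      TT φ act p0 nu1 nu2 v'' (P'' ++ X.drop (c k)) =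
        act y (ev φ (X.drop p0)) + nu1 (X.drop p0) := by
    intro P'' v'' h1 h2
    rw [hXd, ← List.append_assoc, TT_append φ act p0 nu1 nu2 (by rw [List.length_append, hdl]; omega)]
    rw [← g2s P'' _ v'' y (by rw [hdl]; omega) h2 hy]
  refine ⟨X.take (c k), X.drop (c k) ++ Y,
    TT φ act p0 nu1 nu2 (act y (ev φ (X.drop p0)) + nu1 (X.drop p0)) Y, ?_, ⟨k, hk, hlk, hl2⟩, ?_⟩
  · rw [← List.append_assoc, List.take_append_drop]
  · rintro v'' P'' ⟨j, hj, hP'', hl''⟩
    by_cases hjk : j = k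
    · subst hjk
      right
      refine ⟨P'' ++ X.drop (c j), ?_, Y, hY, by rw [List.append_assoc], ?_⟩
      · refine swap0 hW (p0 := p0) (by omega) (P := X.take (c j)) ?_ (by omega) (by omega)
        rw [List.take_append_drop]; exact hX
      · rw [hval P'' v'' hP'' hl'']
    · left
      by_contra hno
      push Not at hno
      have cj := hc j hj
      have hQl : (X.drop (c k) ++ Y).length = X.length - c k + Y.length := by
        rw [List.length_append, List.length_drop]
      have hYn : n ≤ Y.length := by omega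
      obtain ⟨X'', hX'', hpr⟩ := exists_first (Wo := Wo) (z := z)
        (w := P'' ++ (X.drop (c k) ++ Y)) (t := (P'' ++ (X.drop (c k) ++ Y)).length)
        (by rw [List.length_append, hQl]; omega) le_rfl
        (by rw [List.take_length, ← List.append_assoc, hW.loc _ _ hYn]; exact hY.2.1)
      apply hkS
      refine hSp' k hk j hj hjk P'' hP'' X'' hX'' hpr ?_
      by_contra hgood
      push Not at hgood
      obtain ⟨hg1, hg2⟩ := hgood
      have hnot := cut1 (p0 := p0) (nu1 := nu1) (nu2 := nu2) hW (A := A) (by omega) snd ll cmp hX''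
        (fun t h1 h2 h3 => hg1 t h1 h2 h3) hg2
      exact hno X'' ⟨hX'', hnot⟩ hpr

end Crest.Agent.R320.Conc_795
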