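import Crest.Agent.R320.Conc_951

/-!
# Row 320: completeness of scheme 2 (helper951)
-/

set_option autoImplicit false

namespace Crest.Agent.R320.Conc_951

open Crest.RegLang Crest.Agent.R320.Hk_851 Crest.Agent.R320.Blk467

variable {α : Type} {S V : Type} [Monoid S] [AddCommGroup V]

/-- left labels of scheme 2 -/
def L2 (K : ℕ) (x : ℕ → ℕ) (lam2 : ℕ → List α → Option V) (v : V) : Language α :=
  {P | ∃ k < K, P.length = x k ∧ lam2 k P = some v}

theorem compl2 (φ : α → S) (act : V → S → V) (nu1 nu2 : List α → V) (p0 : ℕ)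
    (hadd : ∀ a b s, act (a + b) s = act a s + act b s)
    (hmul : ∀ v s t, act v (s * t) = act (act v s) t)
    {Wo : List α → Prop} {n z N W C0 T0 K : ℕ} {x : ℕ → ℕ}
    (hloc : ∀ P Q : List α, n ≤ Q.length → (Wo (P ++ Q) ↔ Wo Q))
    (hgapW : ∀ (P : List α) (d : ℕ), Wo P → 0 < d → d ≤ W → ¬ Wo (P.take (P.length - d)))
    (hz : 3 * p0 + 2 * N + n + T0 ≤ z) (hW : 2 * (p0 + N) < W) (hx : ∀ a < K, x a ≤ p0)
    {lam rho : List α → Option V} {BadT : ℕ → Prop}
    (hUN : ∀ P v, lam P = some v → P.length ≤ N)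
    (hUs : ∀ P Q v r, lam P = some v → rho Q = some r →
      r = act v (pr φ (P ++ Q)) + nu1 (P ++ Q))
    (hUc : ∀ u : List α, 2 * N ≤ u.length → ¬ BadT u.length → ∀ v, ∃ P Q, P ++ Q = u ∧
      lam P = some v ∧ (rho Q).isSome)
    (hrul : ∀ a b c d, a < K → b < K → c < K → d < K → a ≠ b → c ≠ d → ¬ (a = c ∧ b = d) →
      2 * (N : ℤ) < |((x b : ℤ) - x a) - ((x d : ℤ) - x c)|)
    (hsp : ∀ T, T0 ≤ T → ∀ F : Finset (ℕ × ℕ), (∀ p ∈ F, p.1 < K ∧ p.2 < K ∧ p.1 ≠ p.2 ∧
      BadT (T + x p.2 - x p.1)) → F.card ≤ C0)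
    {lam2 rho2 : ℕ → List α → Option V}
    (hEs : ∀ k < K, ∀ (P Q : List α) (v b : V), P.length = x k →
      lam2 k P = some v → rho2 k Q = some b → b = act v (pr φ (P ++ Q)) + nu2 (P ++ Q))
    (hEc : ∀ (u : List α) (v : V), (∀ k < K, x k ≤ u.length) →
      ∃ I : Finset ℕ, 2 + 3 * C0 ≤ I.card ∧ ∀ k ∈ I, k < K ∧ lam2 k (u.take (x k)) = some v ∧
        (rho2 k (u.drop (x k))).isSome)
    (X : List α) (hX : X ∈ Bad (XX Wo z) (T φ act nu1 nu2 p0) (L1 φ act nu2 p0 N lam))
    (X' : List α) (hX' : X' ∈ Bad (XX Wo z) (T φ act nu1 nu2 p0) (L1 φ act nu2 p0 N lam))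
    (v : V) :
    ∃ P Q, P ++ Q = X ++ X' ∧ P ∈ L2 K x lam2 v ∧
      Q ∈ R2 (XX Wo z) (T φ act nu1 nu2 p0) (L1 φ act nu2 p0 N lam) (L2 K x lam2)
        (T φ act nu1 nu2 p0 (T φ act nu1 nu2 p0 v X) X') := by
  classical
  have hXl := hX.1.1
  have hX'l := hX'.1.1
  let full := X ++ X'
  have hfl : full.length = X.length + X'.length := List.length_append
  let Wl : ℕ → Prop := fun s => s ≤ full.length ∧ Wo (full.take s)
  have hgap : ∀ s s', Wl s → Wl s' → s < s' → W < s' - s := by
    rintro s s' ⟨h1, h2⟩ ⟨h3, h4⟩ hlt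
    by_contra hc
    have hl : (full.take s').length = s' := by rw [List.length_take]; omega
    refine hgapW (full.take s') (s' - s) h4 (by omega) (by omega) ?_
    have e : (full.take s').take ((full.take s').length - (s' - s)) = full.take s := by
      rw [List.take_take, hl]
      congr 1
      omega
    rw [e]
    exact h2
  have hb : Wl X.length := ⟨by omega, by rw [List.take_left]; exact hX.1.2.1⟩
  have hfirst : ∀ s, z ≤ s → s < X.length → ¬ Wl s := by
    rintro s h1 h2 ⟨_, h4⟩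
    rw [List.take_append_of_le_length h2.le] at h4
    exact hX.1.2.2 s h1 h2 h4
  -- the ambiguous places
  let Fp : Finset (ℕ × ℕ) := ((Finset.range K) ×ˢ (Finset.range K)).filter (fun p => p.1 ≠ p.2 ∧
    (EB Wl z N (x p.1) (x p.2) ∨ BB Wl z p0 BadT (x p.1) (x p.2)))
  have hFp : Fp.card ≤ 1 + 3 * C0 := by
    refine count K C0 N W p0 z T0 X.length x BadT Wl hx hW (by omega) hgap hb hXl hfirst hrul hsp
      Fp ?_
    intro p hp
    obtain ⟨h1, h2, h3⟩ := Finset.mem_filter.1 hp
    obtain ⟨h4, h5⟩ := Finset.mem_product.1 h1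
    exact ⟨Finset.mem_range.1 h4, Finset.mem_range.1 h5, h2, h3⟩
  let Sp : Finset ℕ := Fp.image Prod.fst
  have hSp : Sp.card ≤ 1 + 3 * C0 := Finset.card_image_le.trans hFp
  obtain ⟨I, hI1, hI2⟩ := hEc (X.take p0) v (fun k hk => by
    rw [List.length_take]
    have := hx k hk
    omega)
  obtain ⟨k, hkI, hkS⟩ : ∃ k ∈ I, k ∉ Sp :=
    Finset.exists_mem_notMem_of_card_lt_card (by omega)
  obtain ⟨hkK, hlam, hrho⟩ := hI2 k hkI
  have hxk := hx k hkK
  obtain ⟨b0, hb0⟩ := Option.isSome_iff_exists.1 hrho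
  have et : (X.take p0).take (x k) = X.take (x k) := by rw [List.take_take, min_eq_left hxk]
  rw [et] at hlam
  have hPl : (X.take (x k)).length = x k := by rw [List.length_take]; omega
  have eX : X.take (x k) ++ X.drop (x k) = X := List.take_append_drop _ _
  have hb1 : b0 = act v (pr φ (X.take p0)) + nu2 (X.take p0) := by
    have := hEs k hkK _ _ v b0 hPl hlam hb0
    have e3 : X.take (x k) ++ (X.take p0).drop (x k) = X.take p0 := by
      rw [← et, List.take_append_drop]
    rw [e3] at this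
    exact this
  refine ⟨X.take (x k), X.drop (x k) ++ X', by rw [← List.append_assoc, eX],
    ⟨k, hkK, hPl, hlam⟩, ?_⟩
  rintro x1 P1 ⟨k', hk', hl', hlam'⟩
  have hxk' := hx k' hk'
  by_cases hkk : k' = k
  · subst hkk
    have hXd : (X.drop (x k')).length = X.length - x k' := List.length_drop
    have hmem : P1 ++ X.drop (x k') ∈ XX Wo z := by
      refine ⟨by rw [List.length_append]; omega, ?_, ?_⟩
      · rw [hloc P1 _ (by omega), ← hloc (X.take (x k')) _ (by omega), eX]
        exact hX.1.2.1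
      · intro t ht ht2
        rw [List.length_append] at ht2
        rw [shift hloc P1 (X.take (x k')) (X.drop (x k')) t (by omega) (by omega), eX, hPl, hl']
        exact hX.1.2.2 _ (by omega) (by omega)
    by_cases hg : P1 ++ X.drop (x k') ∈ Good (XX Wo z) (T φ act nu1 nu2 p0)
        (L1 φ act nu2 p0 N lam)
    · right
      exact ⟨_, hg, by rw [← List.append_assoc]; exact List.prefix_append _ _⟩
    · left
      refine ⟨P1 ++ X.drop (x k'), ⟨hmem, hg⟩, X', hX', by rw [List.append_assoc], ?_⟩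
      congr 1
      have e1 : (P1 ++ X.drop (x k')).take p0 = P1 ++ (X.take p0).drop (x k') := by
        rw [List.take_append, List.take_of_length_le (by omega), hl', List.drop_take]
      have e2 : (P1 ++ X.drop (x k')).drop p0 = X.drop p0 := by
        rw [List.drop_append, List.drop_of_length_le (by omega), List.nil_append, hl',
          List.drop_drop]
        congr 1
        omega
      rw [T_eq φ act nu1 nu2 p0 hadd hmul, T_eq φ act nu1 nu2 p0 hadd hmul, e1, e2,
        ← hEs k' hk' _ _ x1 b0 hl' hlam' hb0, hb1]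
  · right
    have hns : ¬ (EB Wl z N (x k) (x k') ∨ BB Wl z p0 BadT (x k) (x k')) := by
      intro h
      apply hkS
      exact Finset.mem_image.2 ⟨(k, k'), Finset.mem_filter.2
        ⟨Finset.mem_product.2 ⟨Finset.mem_range.2 hkK, Finset.mem_range.2 hk'⟩,
          fun e => hkk e.symm, h⟩, rfl⟩
    have efull : X.take (x k) ++ (X.drop (x k) ++ X') = full := by
      rw [← List.append_assoc, eX]
    refine first_good φ act nu1 nu2 p0 hadd hmul hloc (by omega) hUN hUs hUc (X.take (x k)) P1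
      (X.drop (x k) ++ X') (by omega) (by omega) ?_ ?_ ?_ ?_
    · rw [efull]
      show Wo (X ++ X')
      rw [hloc X X' (by omega)]
      exact hX'.1.2.1
    · rw [efull]; omega
    · rw [efull, hPl, hl']
      exact fun h => hns (Or.inl h)
    · rw [efull, hPl, hl']
      exact fun h => hns (Or.inr h)

end Crest.Agent.R320.Conc_951
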