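import Crest.Agent.R320.Conc2_795
import Crest.Agent.R320.WallU_228

/-!
# Row 320: height one of the fibres of the zone map and of the rest words (helper795)
-/

set_option autoImplicit false

namespace Crest.Agent.R320.Conc_795

open Crest.RegLang Crest.Agent.R320.Hk_851 Crest.Agent.R320.Blk_517 Crest.Agent.R320.Top_517
  Crest.Agent.R320.Fin_517 Crest.Agent.R320.Main_517 Crest.Agent.R320.SemTop_795
  Crest.Agent.R320.FewWalls_228 Crest.Agent.R320.WallU_228 Crest.Agent.R320.FewVal_228

universe u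

variable {α : Type u} {V S : Type*}

theorem hl_Wo [Finite α] {k : ℕ} (n : ℕ) (Sw : Set (List α)) :
    HL k ({X | Wo n Sw X} : Language α) := by
  have h : HL k ({s | s.length = n ∧ s ∈ Sw} : Language α) :=
    HL.finite ((List.finite_length_eq α n).subset fun v hv => hv.1)
  refine h.suffix.congr fun X => ?_
  constructor
  · rintro ⟨h1, h2⟩
    exact ⟨X.drop (X.length - n), ⟨by rw [List.length_drop]; omega, h2⟩, List.drop_suffix _ _⟩
  · rintro ⟨v, ⟨h1, h2⟩, y, rfl⟩
    refine ⟨by rw [List.length_append]; omega, ?_⟩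
    rw [List.length_append, h1, Nat.add_sub_cancel, List.drop_left]
    exact h2

/-- long words with a wall at the end -/
def Eb (n z : ℕ) (Sw : Set (List α)) : Language α := {X | z ≤ X.length ∧ Wo n Sw X}

/-- nonempty words -/
def Ne : Language α := {w | 1 ≤ w.length}

/-- words with at most one wall and a given value -/
def Fw {M : Type*} [Monoid M] (n : ℕ) (Sw : Set (List α)) (f : α → M) (g : M) : Language α :=
  {w | nw n Sw w ≤ 1 ∧ (w.map f).prod = g}

theorem hl_blocks [Finite α] {k : ℕ} (n z : ℕ) (Sw : Set (List α)) :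
    HL k (XX (Wo n Sw) z : Language α) := by
  have h1 : HL k (Eb n z Sw) :=
    (HL.length_ge z).setOf_and (hl_Wo n Sw)
  have h2 : HL k (Eb n z Sw * Ne) := h1.mul (HL.length_ge 1)
  refine (h1.inf h2.compl).congr fun X => ?_
  constructor
  · rintro ⟨a1, a2, a3⟩
    refine ⟨⟨a1, a2⟩, fun hm => ?_⟩
    obtain ⟨P, ⟨b1, b2⟩, Q, b3, rfl⟩ := Language.mem_mul.1 hm
    have b3' : 1 ≤ Q.length := b3
    refine a3 P.length b1 (by rw [List.length_append]; omega) ?_
    rw [List.take_left' rfl]; exact b2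
  · rintro ⟨⟨a1, a2⟩, a3⟩
    refine ⟨a1, a2, fun t ht ht' hw => a3 (Language.mem_mul.2 ⟨X.take t, ⟨?_, hw⟩, X.drop t, ?_,
      List.take_append_drop _ _⟩)⟩
    · rw [List.length_take]; omega
    · show 1 ≤ (X.drop t).length
      rw [List.length_drop]; omega

theorem prod_pair [Monoid S] (φ : α → S) (N : ℕ) (w : List α) :
    (w.map (fun a => ((φ a, Multiplicative.ofAdd (1 : ZMod N)) :
      S × Multiplicative (ZMod N)))).prod = (ev φ w, Multiplicative.ofAdd (w.length : ZMod N)) := by
  induction w with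
  | nil => simp [ev]; rfl
  | cons a w ih =>
    rw [List.map_cons, List.prod_cons, ih]
    simp only [ev, List.map_cons, List.prod_cons, List.length_cons, Prod.mk_mul_mk]
    rw [← ofAdd_add]
    congr 2
    push_cast
    ring

theorem drop_nw {n z : ℕ} (hn : 0 < n) {Sw : Set (List α)} {X : List α}
    (hX : X ∈ XX (Wo n Sw) z) : nw n Sw (X.drop z) ≤ 1 := by
  refine nw_le_one _ fun t ht hw => ?_
  have hnt : n ≤ ((X.drop z).take t).length := hw.1
  have h1 := hX.1
  rw [List.length_drop] at ht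
  rw [List.length_take] at hnt
  refine hX.2.2 (z + t) (by omega) (by omega) ?_
  have : X.take (z + t) = X.take z ++ (X.drop z).take t := by
    rw [List.take_add]
  rw [this, wo_append _ _ (by rw [List.length_take]; exact hnt)]
  exact hw

theorem hl_fibre [Finite α] {n c P : ℕ} {Sw : Set (List α)} (hn : 0 < n) (hP : 0 < P)
    (hper : PerOff n c P Sw) (z : ℕ) [Monoid S] [Finite S] (φ : α → S) (N : ℕ) (hN : 0 < N)
    (Tf : List α → V)
    (hT : ∀ X X', X ∈ XX (Wo n Sw) z → X' ∈ XX (Wo n Sw) z → X.take z = X'.take z →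
      ev φ (X.drop z) = ev φ (X'.drop z) → X.length % N = X'.length % N → Tf X = Tf X') (v' : V) :
    HL 1 ({X | X ∈ XX (Wo n Sw) z ∧ Tf X = v'} : Language α) := by
  haveI : NeZero N := ⟨by omega⟩
  let f' : α → S × Multiplicative (ZMod N) := fun a => (φ a, Multiplicative.ofAdd (1 : ZMod N))
  haveI : Finite (Multiplicative (ZMod N)) := inferInstanceAs (Finite (ZMod N))
  let Good : Set (List α × (S × Multiplicative (ZMod N))) :=
    {p | ∃ X0 ∈ XX (Wo n Sw) z, X0.take z = p.1 ∧ ((X0.drop z).map f').prod = p.2 ∧ Tf X0 = v'}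
  have hG : Good.Finite := by
    refine ((List.finite_length_le α z).prod (Set.finite_univ)).subset ?_
    rintro p ⟨X0, h1, h2, h3, h4⟩
    refine ⟨?_, trivial⟩
    show p.1.length ≤ z
    rw [← h2, List.length_take]; omega
  have h1 : HL 1 ({w | ∃ p ∈ Good, w ∈ (({p.1} : Language α) * Fw n Sw f' p.2)} :
      Language α) :=
    HL.biUnion hG (L := fun p => (({p.1} : Language α) * Fw n Sw f' p.2))
      fun p _ => (HL.word p.1).mul (HL_few_value hn hP hper 1 f' p.2)
  refine ((hl_blocks n z Sw).inf h1).congr fun X => ?_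
  constructor
  · rintro ⟨hX, hv⟩
    refine ⟨hX, (X.take z, ((X.drop z).map f').prod), ⟨X, hX, rfl, rfl, hv⟩, ?_⟩
    exact Language.mem_mul.2 ⟨X.take z, rfl, X.drop z, ⟨drop_nw hn hX, rfl⟩,
      List.take_append_drop _ _⟩
  · rintro ⟨hX, p, ⟨X0, hX0, e1, e2, e3⟩, hm⟩
    refine ⟨hX, ?_⟩
    obtain ⟨a, ha, w, ⟨hw1, hw2⟩, rfl⟩ := Language.mem_mul.1 hm
    have ha' : a = p.1 := ha
    subst ha'
    have hpl : p.1.length = z := by
      rw [← e1, List.length_take]
      have := hX0.1
      omega
    rw [← e3]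
    have hpr : ((X0.drop z).map f').prod = (w.map f').prod := by rw [e2, hw2]
    rw [prod_pair, prod_pair] at hpr
    have hp1 := congrArg Prod.fst hpr
    have hp2 := congrArg Prod.snd hpr
    refine hT _ _ hX hX0 ?_ ?_ ?_
    · rw [List.take_left' hpl, e1]
    · rw [List.drop_left' hpl]; exact hp1.symm
    · have h5 : (((X0.drop z).length : ℕ) : ZMod N) = ((w.length : ℕ) : ZMod N) := hp2
      rw [ZMod.natCast_eq_natCast_iff] at h5
      have h6 : X0.length = z + (X0.drop z).length := by
        rw [List.length_drop]; have := hX0.1; omega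
      show (p.1 ++ w).length % N = X0.length % N
      rw [List.length_append, hpl, h6]
      exact (Nat.ModEq.add_left z h5.symm)

theorem hl_rest [Finite α] {n c P : ℕ} {Sw : Set (List α)} (hn : 0 < n) (hP : 0 < P)
    (hper : PerOff n c P Sw) (z : ℕ) [Monoid S] [Finite S] (φ : α → S) (s : S) :
    HL 1 (RR φ (XX (Wo n Sw) z) s) := by
  classical
  refine ((hl_blocks (k := 1) n z Sw).prefix.compl.inf
    (HL_few_value hn hP hper z φ s)).congr fun w => ?_
  constructor
  · rintro ⟨h1, h2⟩
    refine ⟨?_, ?_, h2⟩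
    · rintro ⟨X, hX, hp⟩; exact h1 X hX hp
    · unfold nw
      refine (Finset.card_le_card (t := Finset.range z) ?_).trans (by rw [Finset.card_range])
      intro x hx
      rw [Finset.mem_filter] at hx
      rw [Finset.mem_range]
      by_contra hlt
      push Not at hlt
      obtain ⟨h3, h4⟩ := wo_take.1 hx.2
      obtain ⟨X, hX, hp⟩ := exists_first (Wo := Wo n Sw) (z := z) (w := w) (t := x + n)
        (by omega) h3 h4
      exact h1 X hX hp
  · rintro ⟨h1, h2, h3⟩
    exact ⟨fun X hX hp => h1 ⟨X, hX, hp⟩, h3⟩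

end Crest.Agent.R320.Conc_795
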