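import Crest.Agent.R320.Golomb_314

/-!
Row 320: the ruler and the spoil count for the thin modes of 693's grid gadget:
`q ∣ T` for `q ∈ Ms`, and `T - A i` within `c (i-1)` of a multiple of `G i`, `1 ≤ i ≤ m`.
-/

set_option autoImplicit false

namespace Crest.Agent.R320.GridRuler314

open Finset Crest.Agent.R320.Golomb314

/-- the integer coefficient `(2^a - 2^b) - (2^c - 2^d)` vanishes only for the same pair. -/
theorem coef_zero {a b c d : ℕ} (hab : a ≠ b)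
    (h : ((2 : ℤ) ^ a - 2 ^ b) - (2 ^ c - 2 ^ d) = 0) : a = c ∧ b = d := by
  have h2 : 2 ^ a + 2 ^ d = 2 ^ b + 2 ^ c := by
    have : (2 : ℤ) ^ a + 2 ^ d = 2 ^ b + 2 ^ c := by linarith
    exact_mod_cast this
  rcases two_pow_add_two_pow h2 with ⟨e, -⟩ | ⟨e, f⟩
  · exact absurd e hab
  · exact ⟨e, f.symm⟩

theorem coef_lt {K a b c d : ℕ} (ha : a < K) (hb : b < K) (hc : c < K) (hd : d < K) :
    |((2 : ℤ) ^ a - 2 ^ b) - (2 ^ c - 2 ^ d)| < 2 ^ (K + 1) := by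
  have h : ∀ n, n < K → (1 : ℤ) ≤ 2 ^ n ∧ (2 : ℤ) * 2 ^ n ≤ 2 ^ K := by
    intro n hn
    refine ⟨one_le_pow₀ (by norm_num), ?_⟩
    rw [← pow_succ']
    exact pow_le_pow_right₀ (by norm_num) hn
  obtain ⟨a1, a2⟩ := h a ha
  obtain ⟨b1, b2⟩ := h b hb
  obtain ⟨c1, c2⟩ := h c hc
  obtain ⟨d1, d2⟩ := h d hd
  rw [abs_lt, pow_succ]
  constructor <;> linarith

/-- marks `x a = 2 ^ a * X` -/
def xm (X a : ℕ) : ℤ := 2 ^ a * (X : ℤ)

theorem xm_diff (X a b c d : ℕ) : (xm X a - xm X b) - (xm X c - xm X d) =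
    (((2 : ℤ) ^ a - 2 ^ b) - (2 ^ c - 2 ^ d)) * X := by
  unfold xm; ring

theorem spaced {X Res a b : ℕ} (hX : Res < X) (hab : a ≠ b) :
    (Res : ℤ) < |xm X a - xm X b| := by
  have e : xm X a - xm X b = ((2 : ℤ) ^ a - 2 ^ b) * X := by unfold xm; ring
  rw [e, abs_mul, Nat.abs_cast]
  have h1 : (2 : ℤ) ^ a - 2 ^ b ≠ 0 := by
    intro h
    have h' : ((2 : ℤ) ^ a - 2 ^ b) - (2 ^ a - 2 ^ a) = 0 := by linarith
    exact hab ((coef_zero hab h').2.symm)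
  have h2 : 1 ≤ |(2 : ℤ) ^ a - 2 ^ b| := Int.one_le_abs h1
  have h3 : (Res : ℤ) < X := by exact_mod_cast hX
  have h4 : (0 : ℤ) ≤ X := Int.natCast_nonneg X
  nlinarith

/-- one modulus -/
theorem pair_q {K X q : ℕ} (hq : 2 ^ (K + 1) < q) (hX : X ≡ 1 [MOD q]) {y : ℤ} {a b c d : ℕ}
    (ha : a < K) (hb : b < K) (hc : c < K) (hd : d < K) (hab : a ≠ b)
    (h1 : (q : ℤ) ∣ y - (xm X a - xm X b)) (h2 : (q : ℤ) ∣ y - (xm X c - xm X d)) :
    a = c ∧ b = d := by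
  have h3 : (q : ℤ) ∣ (((2 : ℤ) ^ a - 2 ^ b) - (2 ^ c - 2 ^ d)) * X := by
    have := dvd_sub h2 h1
    have e : (y - (xm X c - xm X d)) - (y - (xm X a - xm X b)) =
        (((2 : ℤ) ^ a - 2 ^ b) - (2 ^ c - 2 ^ d)) * X := by rw [← xm_diff]; ring
    rwa [e] at this
  have hX' : (q : ℤ) ∣ (X : ℤ) - 1 := by
    have := (Nat.modEq_iff_dvd.1 hX.symm)
    simpa using this
  have h4 : (q : ℤ) ∣ (((2 : ℤ) ^ a - 2 ^ b) - (2 ^ c - 2 ^ d)) := by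
    have h5 : (q : ℤ) ∣ (((2 : ℤ) ^ a - 2 ^ b) - (2 ^ c - 2 ^ d)) * ((X : ℤ) - 1) :=
      Dvd.dvd.mul_left hX' _
    have := dvd_sub h3 h5
    have e : (((2 : ℤ) ^ a - 2 ^ b) - (2 ^ c - 2 ^ d)) * X -
        (((2 : ℤ) ^ a - 2 ^ b) - (2 ^ c - 2 ^ d)) * ((X : ℤ) - 1) =
        (((2 : ℤ) ^ a - 2 ^ b) - (2 ^ c - 2 ^ d)) := by ring
    rwa [e] at this
  refine coef_zero hab (Int.eq_zero_of_abs_lt_dvd h4 ?_)
  refine (coef_lt ha hb hc hd).trans ?_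
  exact_mod_cast hq

/-- one grid: `X ≡ 4 S (mod g)`, `2^(K+4) S ≤ g`, band `w ≤ S`, `0 < S` -/
theorem pair_g {K X g S w : ℕ} (hS : 0 < S) (hw : w ≤ S) (hbig : 2 ^ (K + 4) * S ≤ g)
    (hX : X ≡ 4 * S [MOD g]) {y t t' : ℤ} {a b c d : ℕ}
    (ha : a < K) (hb : b < K) (hc : c < K) (hd : d < K) (hab : a ≠ b)
    (h1 : |y - (xm X a - xm X b) - t * g| ≤ w) (h2 : |y - (xm X c - xm X d) - t' * g| ≤ w) :
    a = c ∧ b = d := by
  set D : ℤ := ((2 : ℤ) ^ a - 2 ^ b) - (2 ^ c - 2 ^ d) with hD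
  have hX' : (g : ℤ) ∣ (X : ℤ) - 4 * S := by
    have := (Nat.modEq_iff_dvd.1 hX.symm)
    simpa using this
  obtain ⟨k, hk⟩ := hX'
  have e : (y - (xm X c - xm X d) - t' * g) - (y - (xm X a - xm X b) - t * g) =
      D * (4 * S) + (D * k + t - t') * g := by
    have e1 : (X : ℤ) = 4 * S + g * k := by linarith
    have e2 : (y - (xm X c - xm X d) - t' * g) - (y - (xm X a - xm X b) - t * g) =
        ((xm X a - xm X b) - (xm X c - xm X d)) + (t - t') * g := by ring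
    rw [e2, xm_diff, ← hD, e1]; ring
  have h3 : |D * (4 * S) + (D * k + t - t') * g| ≤ 2 * w := by
    rw [← e]
    calc _ ≤ |y - (xm X c - xm X d) - t' * g| + |y - (xm X a - xm X b) - t * g| := abs_sub _ _
      _ ≤ w + w := add_le_add h2 h1
      _ = 2 * w := by ring
  set n : ℤ := D * k + t - t' with hn
  have hDlt := coef_lt ha hb hc hd
  rw [← hD] at hDlt
  have hw' : (w : ℤ) ≤ S := by exact_mod_cast hw
  have hS' : (1 : ℤ) ≤ S := by exact_mod_cast hS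
  have hbig' : (2 : ℤ) ^ (K + 4) * S ≤ g := by exact_mod_cast hbig
  have hp : (2 : ℤ) ^ (K + 4) = 8 * 2 ^ (K + 1) := by ring
  rw [hp] at hbig'
  have hP : (1 : ℤ) ≤ 2 ^ (K + 1) := one_le_pow₀ (by norm_num)
  have habs : |D * (4 * S)| ≤ 4 * 2 ^ (K + 1) * S := by
    rw [abs_mul]
    have : |(4 * (S : ℤ))| = 4 * S := abs_of_nonneg (by linarith)
    rw [this]
    nlinarith [abs_nonneg D]
  have hn0 : n = 0 := by
    by_contra hne
    have h4 : 1 ≤ |n| := Int.one_le_abs hne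
    have h5 : (g : ℤ) ≤ |n * g| := by
      rw [abs_mul, Nat.abs_cast]
      nlinarith [Int.natCast_nonneg g]
    have h6 : |n * g| ≤ |D * (4 * S) + n * g| + |D * (4 * S)| := by
      have : n * g = (D * (4 * S) + n * g) - D * (4 * S) := by ring
      calc |n * g| = |(D * (4 * S) + n * g) - D * (4 * S)| := by rw [← this]
        _ ≤ _ := abs_sub _ _
    nlinarith
  rw [hn0, zero_mul, add_zero] at h3
  refine coef_zero hab ?_
  rw [← hD]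
  by_contra hne
  have h4 : 1 ≤ |D| := Int.one_le_abs hne
  have h5 : |D * (4 * S)| = |D| * (4 * S) := by
    rw [abs_mul, abs_of_nonneg (by linarith : (0 : ℤ) ≤ 4 * S)]
  rw [h5] at h3
  nlinarith

/-- the thin set of lengths -/
def BadT (Ms : Finset ℕ) (m : ℕ) (G c : ℕ → ℕ) (A : ℕ → ℤ) (T : ℤ) : Prop :=
  (∃ q ∈ Ms, (q : ℤ) ∣ T) ∨ ∃ i, 1 ≤ i ∧ i ≤ m ∧ ∃ t : ℤ, |T - A i - t * G i| ≤ c (i - 1)

/-- **existence of the ruler** -/
theorem exists_X (Res K m : ℕ) (Ms : Finset ℕ) (G c : ℕ → ℕ)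
    (hGc : ∀ i, G i ∣ c i) (hGG : ∀ i, G i ∣ G (i + 1)) (hGm : 0 < G m)
    (hcop : Nat.Coprime (G m) (∏ q ∈ Ms, q)) (hMs : ∀ q ∈ Ms, 2 ^ (K + 1) < q) :
    ∃ X : ℕ, Res < X ∧ (∀ q ∈ Ms, X ≡ 1 [MOD q]) ∧
      ∀ i, i ≤ m → X ≡ 4 * ∑ j ∈ range i, c j [MOD G i] := by
  classical
  set Q := ∏ q ∈ Ms, q with hQ
  have hQ0 : 0 < Q := by
    rw [hQ]
    exact Finset.prod_pos fun q hq => lt_of_le_of_lt (Nat.zero_le _) (hMs q hq)
  obtain ⟨x, hx1, hx2⟩ := Nat.chineseRemainder hcop (4 * ∑ j ∈ range m, c j) 1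
  have hGdvd : ∀ i, i ≤ m → G i ∣ G m := by
    intro i hi
    induction m, hi using Nat.le_induction with
    | base => exact dvd_rfl
    | succ k _ ih =>
      exact Dvd.dvd.trans (by
        have := hGG
        exact (Nat.le_induction (m := i) (P := fun n _ => G i ∣ G n) dvd_rfl
          (fun n _ h => h.trans (hGG n)) k (by omega))) (hGG k)
  refine ⟨x + (Res + 1) * (G m * Q), ?_, ?_, ?_⟩
  · have : 1 ≤ G m * Q := Nat.mul_pos hGm hQ0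
    nlinarith
  · intro q hq
    have h1 : q ∣ Q := Finset.dvd_prod_of_mem _ hq
    have h2 : x ≡ 1 [MOD q] := hx2.of_dvd h1
    have h3 : (Res + 1) * (G m * Q) ≡ 0 [MOD q] :=
      (Nat.modEq_zero_iff_dvd).2 (Dvd.dvd.mul_left (Dvd.dvd.mul_left h1 _) _)
    simpa using h2.add h3
  · intro i hi
    have h1 : G i ∣ G m := hGdvd i hi
    have h2 : x ≡ 4 * ∑ j ∈ range m, c j [MOD G i] := hx1.of_dvd h1
    have h3 : (Res + 1) * (G m * Q) ≡ 0 [MOD G i] :=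
      (Nat.modEq_zero_iff_dvd).2 (Dvd.dvd.mul_left (Dvd.dvd.mul_right h1 _) _)
    have h4 : x + (Res + 1) * (G m * Q) ≡ 4 * ∑ j ∈ range m, c j [MOD G i] := by
      simpa using h2.add h3
    have h5 : 4 * ∑ j ∈ range m, c j ≡ 4 * ∑ j ∈ range i, c j [MOD G i] := by
      refine Nat.ModEq.mul_left 4 ?_
      rw [← Finset.sum_range_add_sum_Ico _ hi]
      have h6 : G i ∣ ∑ j ∈ Ico i m, c j := by
        refine Finset.dvd_sum fun j hj => ?_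
        have hij : i ≤ j := (Finset.mem_Ico.1 hj).1
        exact (Nat.le_induction (m := i) (P := fun n _ => G i ∣ G n) dvd_rfl
          (fun n _ h => h.trans (hGG n)) j hij).trans (hGc j)
      simpa using (Nat.ModEq.refl (∑ j ∈ range i, c j)).add ((Nat.modEq_zero_iff_dvd).2 h6)
    exact h4.trans h5

/-- **ruler + spoil count** -/
theorem grid_ruler (Res K m : ℕ) (Ms : Finset ℕ) (G c : ℕ → ℕ)
    (hc0 : ∀ i, 0 < c i) (hGc : ∀ i, G i ∣ c i) (hGG : ∀ i, G i ∣ G (i + 1)) (hGm : 0 < G m)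
    (hbig : ∀ i, 1 ≤ i → i ≤ m → 2 ^ (K + 4) * ∑ j ∈ range i, c j ≤ G i)
    (hcop : Nat.Coprime (G m) (∏ q ∈ Ms, q)) (hMs : ∀ q ∈ Ms, 2 ^ (K + 1) < q) :
    ∃ X : ℕ, Res < X ∧ (∀ a b, a ≠ b → (Res : ℤ) < |xm X a - xm X b|) ∧
      (∀ q ∈ Ms, ∀ y : ℤ, ∀ a b c' d, a < K → b < K → c' < K → d < K → a ≠ b →
        (q : ℤ) ∣ y - (xm X a - xm X b) → (q : ℤ) ∣ y - (xm X c' - xm X d) → a = c' ∧ b = d) ∧
      (∀ i, 1 ≤ i → i ≤ m → ∀ y t t' : ℤ, ∀ a b c' d, a < K → b < K → c' < K → d < K → a ≠ b →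
        |y - (xm X a - xm X b) - t * G i| ≤ c (i - 1) →
        |y - (xm X c' - xm X d) - t' * G i| ≤ c (i - 1) → a = c' ∧ b = d) ∧
      (∀ (A : ℕ → ℤ) (T0 : ℤ), ∃ P : Finset (ℕ × ℕ), P.card ≤ Ms.card + m ∧
        ∀ a b, a < K → b < K → a ≠ b → BadT Ms m G c A (T0 - (xm X a - xm X b)) →
          (a, b) ∈ P) := by
  classical
  obtain ⟨X, h1, h2, h3⟩ := exists_X Res K m Ms G c hGc hGG hGm hcop hMs
  have hq : ∀ q ∈ Ms, ∀ y : ℤ, ∀ a b c' d, a < K → b < K → c' < K → d < K → a ≠ b →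
      (q : ℤ) ∣ y - (xm X a - xm X b) → (q : ℤ) ∣ y - (xm X c' - xm X d) → a = c' ∧ b = d :=
    fun q hqM y a b c' d ha hb hc' hd hab e1 e2 =>
      pair_q (hMs q hqM) (h2 q hqM) ha hb hc' hd hab e1 e2
  have hg : ∀ i, 1 ≤ i → i ≤ m → ∀ y t t' : ℤ, ∀ a b c' d, a < K → b < K → c' < K → d < K →
      a ≠ b → |y - (xm X a - xm X b) - t * G i| ≤ c (i - 1) →
      |y - (xm X c' - xm X d) - t' * G i| ≤ c (i - 1) → a = c' ∧ b = d := by
    intro i hi him y t t' a b c' d ha hb hc' hd hab e1 e2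
    have hle : c (i - 1) ≤ ∑ j ∈ range i, c j :=
      Finset.single_le_sum (f := c) (fun _ _ => Nat.zero_le _) (Finset.mem_range.2 (by omega))
    have hpos : 0 < ∑ j ∈ range i, c j := lt_of_lt_of_le (hc0 (i - 1)) hle
    exact pair_g hpos hle (hbig i hi him) (h3 i him) ha hb hc' hd hab e1 e2
  refine ⟨X, h1, fun a b hab => spaced h1 hab, hq, hg, ?_⟩
  intro A T0
  let Eq : ℕ → Set (ℕ × ℕ) := fun q => {ab | ab.1 < K ∧ ab.2 < K ∧ ab.1 ≠ ab.2 ∧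
    (q : ℤ) ∣ T0 - (xm X ab.1 - xm X ab.2)}
  let Eg : ℕ → Set (ℕ × ℕ) := fun i => {ab | ab.1 < K ∧ ab.2 < K ∧ ab.1 ≠ ab.2 ∧
    ∃ t : ℤ, |T0 - (xm X ab.1 - xm X ab.2) - A i - t * G i| ≤ c (i - 1)}
  have pick : ∀ E : Set (ℕ × ℕ), (∀ x ∈ E, ∀ y ∈ E, x = y) →
      ∃ F : Finset (ℕ × ℕ), F.card ≤ 1 ∧ ∀ x ∈ E, x ∈ F := by
    intro E hE
    by_cases h : ∃ x, x ∈ E
    · obtain ⟨x, hx⟩ := h
      exact ⟨{x}, by simp, fun y hy => by rw [hE y hy x hx]; simp⟩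
    · exact ⟨∅, by simp, fun x hx => (h ⟨x, hx⟩).elim⟩
  have hq' : ∀ q, ∃ F : Finset (ℕ × ℕ), F.card ≤ 1 ∧ (q ∈ Ms → ∀ x ∈ Eq q, x ∈ F) := by
    intro q
    by_cases hqM : q ∈ Ms
    · obtain ⟨F, hF1, hF2⟩ := pick (Eq q) (by
        rintro ⟨a, b⟩ ⟨ha, hb, hab, e1⟩ ⟨c', d⟩ ⟨hc', hd, -, e2⟩
        obtain ⟨r1, r2⟩ := hq q hqM T0 a b c' d ha hb hc' hd hab e1 e2
        rw [r1, r2])
      exact ⟨F, hF1, fun _ => hF2⟩
    · exact ⟨∅, by simp, fun h => (hqM h).elim⟩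
  have hg' : ∀ i, ∃ F : Finset (ℕ × ℕ), F.card ≤ 1 ∧ (1 ≤ i → i ≤ m → ∀ x ∈ Eg i, x ∈ F) := by
    intro i
    by_cases hi : 1 ≤ i ∧ i ≤ m
    · obtain ⟨F, hF1, hF2⟩ := pick (Eg i) (by
        rintro ⟨a, b⟩ ⟨ha, hb, hab, t, e1⟩ ⟨c', d⟩ ⟨hc', hd, -, t', e2⟩
        have e1' : |(T0 - A i) - (xm X a - xm X b) - t * G i| ≤ c (i - 1) := by
          have : (T0 - A i) - (xm X a - xm X b) - t * G i =
            T0 - (xm X a - xm X b) - A i - t * G i := by ring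
          rw [this]; exact e1
        have e2' : |(T0 - A i) - (xm X c' - xm X d) - t' * G i| ≤ c (i - 1) := by
          have : (T0 - A i) - (xm X c' - xm X d) - t' * G i =
            T0 - (xm X c' - xm X d) - A i - t' * G i := by ring
          rw [this]; exact e2
        obtain ⟨r1, r2⟩ := hg i hi.1 hi.2 (T0 - A i) t t' a b c' d ha hb hc' hd hab e1' e2'
        rw [r1, r2])
      exact ⟨F, hF1, fun _ _ => hF2⟩
    · exact ⟨∅, by simp, fun h1 h2 => (hi ⟨h1, h2⟩).elim⟩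
  choose Fq hFq1 hFq2 using hq'
  choose Fg hFg1 hFg2 using hg'
  refine ⟨Ms.biUnion Fq ∪ (Finset.Icc 1 m).biUnion Fg, ?_, ?_⟩
  · refine (Finset.card_union_le _ _).trans (add_le_add ?_ ?_)
    · refine Finset.card_biUnion_le.trans ?_
      calc ∑ q ∈ Ms, (Fq q).card ≤ ∑ _q ∈ Ms, 1 := Finset.sum_le_sum fun q _ => hFq1 q
        _ = Ms.card := by simp
    · refine Finset.card_biUnion_le.trans ?_
      calc ∑ i ∈ Finset.Icc 1 m, (Fg i).card ≤ ∑ _i ∈ Finset.Icc 1 m, 1 :=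
            Finset.sum_le_sum fun i _ => hFg1 i
        _ = m := by simp
  · intro a b ha hb hab hbad
    rcases hbad with ⟨q, hqM, hdvd⟩ | ⟨i, hi, him, t, ht⟩
    · exact Finset.mem_union_left _ (Finset.mem_biUnion.2 ⟨q, hqM,
        hFq2 q hqM (a, b) ⟨ha, hb, hab, hdvd⟩⟩)
    · exact Finset.mem_union_right _ (Finset.mem_biUnion.2 ⟨i, Finset.mem_Icc.2 ⟨hi, him⟩,
        hFg2 i hi him (a, b) ⟨ha, hb, hab, t, ht⟩⟩)

end Crest.Agent.R320.GridRuler314
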