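import Crest.Agent.R320.Lvl_274

/-!
# Row 320: scheme 1 on b-anchored nested grids (#13203) — pure words, all contents, no small walls

`grid` : left words bounded, right words regular, sound for every pair of words with a long right word,
complete when the length of the whole word avoids a thin set.
-/

set_option autoImplicit false
set_option linter.unusedSectionVars false

namespace Crest.Agent.R320.Grid_693

open Crest.Agent.R320.Names_274 Crest.Agent.R320.Lvl_274

theorem sound2 {m : ℕ} {S V W : Type*} [Monoid S] [AddCommGroup V] [AddCommGroup W]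
    (act : V → S → V) (e : ℕ → S → W) (F : S → W → V)
    (q q' : Nm m S V W → ℕ) (μ : V × V → ℕ) {M : ℕ}
    (hM : ∀ l, q l ∣ M ∧ q' l ∣ M) (hM' : ∀ j, μ j ∣ M)
    (z pre : List S) {i : ℕ} (om om' : ℕ) (cont : ℕ → Option (List S)) (v r : V) (hi : i < m)
    (hz : i + 1 < z.length)
    (hc : ∀ post, cont i = some post → pre = z.take (i + 1) ∧ post = z.drop (i + 2))
    (hL : LL act e F (mkNS act e F q q' μ) i pre om = some v)
    (hR : RR act e F (mkNS act e F q q' μ) om' cont = some r) :
    r = nu act e F (mkNS act e F q q' μ) M (om + om') z + act v z.prod := by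
  classical
  set D := mkNS act e F q q' μ with hD
  unfold LL pick at hL
  unfold RR pick at hR
  split_ifs at hL with h1
  split_ifs at hR with h2
  obtain ⟨a1, a2, a3, a4, a5⟩ := h1.choose_spec
  obtain ⟨b1, b2, post, b3, b4, b5⟩ := h2.choose_spec
  set c := h1.choose with hcdef
  set c' := h2.choose with hcdef'
  have hv : c.2.2.2.2.2.1 = v := Option.some.inj hL
  have hr : bval act e F c' = r := Option.some.inj hR
  have hPr : Pr D M (om + om') c c' := ⟨om, om', a1, b1, rfl⟩
  by_cases hcc : c = c'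
  · have hno : ¬ ∃ p : Nm m S V W × Nm m S V W, p.1 ≠ p.2 ∧ Pr D M (om + om') p.1 p.2 := by
      rintro ⟨p, hp1, hp2⟩
      rw [← hcc] at hPr
      exact hp1 (same' (D := D) hM hM' hPr hp2)
    unfold nu nuA
    rw [dif_neg hno]
    rw [← hcc] at b3 b4 b5 hr
    rw [a2] at b3 b5
    obtain ⟨hpre, hpost⟩ := hc post b3
    rw [hpre] at a3 a4
    rw [hpost] at b4 b5
    obtain ⟨t1, t2⟩ := totals e z hi hz
    have hci : (c.1 : ℕ) = i := a2
    have hU := a5 z[i + 1]
    rw [← hr, ← hU, ← hv, t1, t2, a3, a4, b4, b5, hci]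
  · have hex : ∃ p : Nm m S V W × Nm m S V W, p.1 ≠ p.2 ∧ Pr D M (om + om') p.1 p.2 :=
      ⟨(c, c'), hcc, hPr⟩
    unfold nu nuA
    rw [dif_pos hex]
    obtain ⟨p1, p2⟩ := hex.choose_spec
    set p := hex.choose with hp
    rcases pair' (D := D) hM hM' hcc hPr p2 with ⟨e1, e2⟩ | ⟨e1, e2⟩
    · rw [e1, e2, hv, hr]; abel
    · have hcol := swap' (D := D) hM hM' hPr (by rw [← e1, ← e2]; exact p2)
      obtain ⟨k1, k2⟩ := col_eq act e F q q' μ hcol
      rw [e1, e2, ← k1, k2, hv, hr]; abel

theorem gadget2 (S V : Type*) [Monoid S] [Finite S] [AddCommGroup V] [Finite V]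
    (act : V → S → V) :
    ∃ (m c : ℕ), ∀ B : ℕ, ∃ (M : ℕ) (mods : Finset ℕ) (L : ℕ → List S → ℕ → Option V)
      (R : ℕ → (ℕ → Option (List S)) → Option V) (nu : ℕ → List S → V),
      0 < M ∧ Nat.Coprime 2 M ∧ mods.card ≤ c ∧ (∀ μ ∈ mods, B < μ ∧ μ ∣ M) ∧
      (∀ i pre om, L i pre (om + M) = L i pre om) ∧
      (∀ om cont, R (om + M) cont = R om cont) ∧ (∀ n z, nu (n + M) z = nu n z) ∧
      (∀ (z pre : List S) (i om om' : ℕ) (cont : ℕ → Option (List S)) (v r : V), i < m →
        i + 1 < z.length →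
        (∀ post, cont i = some post → pre = z.take (i + 1) ∧ post = z.drop (i + 2)) →
        L i pre om = some v → R om' cont = some r → r = nu (om + om') z + act v z.prod) ∧
      (∀ (z : List S), m + 1 ≤ z.length → ∀ (v : V) (n : ℕ), (∀ μ ∈ mods, ¬ μ ∣ n) →
        ∃ i < m, ∀ x0, x0 + M ≤ n + 1 → ∃ om, x0 ≤ om ∧ om < x0 + M ∧ om ≤ n ∧
          L i (z.take (i + 1)) om = some v ∧
          ∀ cont : ℕ → Option (List S), cont i = some (z.drop (i + 2)) →
            (R (n - om) cont).isSome) := by
  classical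
  have : Fintype S := Fintype.ofFinite S
  have : Fintype V := Fintype.ofFinite V
  obtain ⟨m, N, e, F, hN, hF⟩ := RandF808.exists_noise S V act
  have : NeZero N := ⟨hN.ne'⟩
  refine ⟨m, Fintype.card (Nm m S V (ZMod N × ZMod N) ⊕
    Nm m S V (ZMod N × ZMod N) ⊕ (V × V)), fun B => ?_⟩
  obtain ⟨μ, hco, hμ⟩ := exists_moduli (Nm m S V (ZMod N × ZMod N) ⊕
    Nm m S V (ZMod N × ZMod N) ⊕ (V × V)) B
  set D := mkNS (m := m) act e F (fun l => μ (Sum.inl l)) (fun l => μ (Sum.inr (Sum.inl l)))
    (fun j => μ (Sum.inr (Sum.inr j))) with hD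
  have hmod : D.mod = μ := by
    funext i
    rcases i with l | l | j <;> rfl
  have hdvd : ∀ i, μ i ∣ D.M := fun i => by
    rw [← hmod]; exact Finset.dvd_prod_of_mem _ (Finset.mem_univ i)
  have hM1 : ∀ l, D.q l ∣ D.M ∧ D.q' l ∣ D.M := fun l =>
    ⟨hdvd (Sum.inl l), hdvd (Sum.inr (Sum.inl l))⟩
  have hM2 : ∀ j, D.m j ∣ D.M := fun j => hdvd (Sum.inr (Sum.inr j))
  have hL1 : ∀ c t, LOK D c (t + D.M) ↔ LOK D c t := fun c t => by
    simpa using LOK_add (D := D) hM1 hM2 c t 1
  have hR1 : ∀ c t, ROK D c (t + D.M) ↔ ROK D c t := fun c t => by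
    simpa using ROK_add (D := D) hM1 hM2 c t 1
  refine ⟨D.M, Finset.image μ Finset.univ, LL act e F D, RR act e F D, nu act e F D D.M,
    ?_, ?_, Finset.card_image_le, ?_, ?_, ?_, ?_, ?_, ?_⟩
  · exact Finset.prod_pos (fun i _ => by rw [hmod]; have := (hμ i).2.2; omega)
  · refine Nat.Coprime.prod_right (fun i _ => ?_)
    rw [hmod]
    have h2 := (hμ i).2.1
    rw [Nat.coprime_two_left]
    exact Nat.odd_iff.2 h2
  · intro x hx
    obtain ⟨i, -, rfl⟩ := Finset.mem_image.1 hx
    exact ⟨(hμ i).1, hdvd i⟩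
  · intro i pre om
    have h2 : LProp act e F D i pre (om + D.M) = LProp act e F D i pre om := by
      funext c
      simp only [LProp, hL1]
    unfold LL
    rw [h2]
  · intro om cont
    have h2 : RProp act e F D (om + D.M) cont = RProp act e F D om cont := by
      funext c
      simp only [RProp, hR1]
    unfold RR
    rw [h2]
  · intro n z
    have h2 : Pr D D.M (n + D.M) = Pr D D.M n := by
      funext c c'
      simp only [Pr, Nat.add_mod_right]
    unfold nu
    rw [h2]
  · intro z pre i om om' cont v r hi hz hc hL hR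
    exact sound2 act e F _ _ _ (fun l => hM1 l) (fun j => hM2 j) z pre om om' cont v r hi hz hc
      hL hR
  · intro z hz v n hn
    refine complete act e F _ _ _ hF (fun i => ?_) ?_ (fun j => (hμ _).2.1) z hz v n (fun i => ?_)
    · have h3 : D.mod i ≠ 0 := by rw [hmod]; have := (hμ i).2.2; omega
      exact h3
    · have h3 : Pairwise (Function.onFun Nat.Coprime D.mod) := by rw [hmod]; exact hco
      exact h3
    · have h3 : ¬ D.mod i ∣ n := by
        rw [hmod]; exact hn _ (Finset.mem_image_of_mem _ (Finset.mem_univ i))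
      exact h3

/-! ## grids -/

/-- grid of level `i`. -/
def G (κ : ℕ) (i : ℕ) : ℕ := 2 ^ (κ * (i + 1))

/-- lower anchor of level `i`. -/
def Am (κ M : ℕ) : ℕ → ℕ
  | 0 => 0
  | i + 1 => Am κ M i + (M + 1) * G κ i

/-- start of cell `i`; the cell is `[A i, Am (i + 1))`. -/
def A (κ M : ℕ) (i : ℕ) : ℕ := Am κ M i + G κ i

def bet (κ M : ℕ) (T i : ℕ) : ℕ := Am κ M i + (T - Am κ M i) % G κ i

/-- block boundaries of a word of length `T`. -/
def bd (κ M m : ℕ) (T : ℕ) : ℕ → ℕ
  | 0 => 0
  | j + 1 => if j < m then bet κ M T j else T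

def sg {α S : Type*} [Monoid S] (f : α → S) (u : List α) (a b : ℕ) : S :=
  (((u.drop a).take (b - a)).map f).prod

def zz {α S : Type*} [Monoid S] (f : α → S) (κ M m : ℕ) (u : List α) : List S :=
  (List.range (m + 1)).map (fun j => sg f u (bd κ M m u.length j) (bd κ M m u.length (j + 1)))

def preW {α S : Type*} [Monoid S] (f : α → S) (κ M m : ℕ) (P : List α) (i : ℕ) : List S :=
  (List.range (i + 1)).map (fun j => sg f P (bd κ M m P.length j) (bd κ M m P.length (j + 1)))

/-- block boundaries seen from a right word of length `q` at level `i`. -/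
def bdR (κ M m : ℕ) (q i : ℕ) : ℕ → ℕ
  | 0 => 0
  | j + 1 => if j < m then q - G κ j * ((q + A κ M i - Am κ M j) / G κ j) else q

def Unamb (κ M m : ℕ) (q i : ℕ) : Prop :=
  ∀ j, i < j → j < m →
    (q + A κ M i - Am κ M j) / G κ j = (q + A κ M i + M * G κ i - Am κ M j) / G κ j

def postW {α S : Type*} [Monoid S] (f : α → S) (κ M m : ℕ) (Q : List α) (i : ℕ) : List S :=
  ((List.range (m + 1)).drop (i + 2)).map
    (fun j => sg f Q (bdR κ M m Q.length i j) (bdR κ M m Q.length i (j + 1)))

open Classical in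
noncomputable def contW {α S : Type*} [Monoid S] (f : α → S) (κ M m : ℕ) (Q : List α) (i : ℕ) :
    Option (List S) :=
  if i < m ∧ G κ i ∣ Q.length ∧ Unamb κ M m Q.length i then some (postW f κ M m Q i) else none

open Classical in
/-- left words. -/
noncomputable def LW {α S V : Type*} [Monoid S] (f : α → S) (κ M m : ℕ)
    (L : ℕ → List S → ℕ → Option V) (P : List α) : Option V :=
  if h : ∃ i, i < m ∧ A κ M i ≤ P.length ∧ P.length < Am κ M (i + 1) then
    L h.choose (preW f κ M m P h.choose) P.length else none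

/-- right words. -/
noncomputable def RW {α S V : Type*} [Monoid S] (f : α → S) (κ M m : ℕ)
    (R : ℕ → (ℕ → Option (List S)) → Option V) (Q : List α) : Option V :=
  R Q.length (contW f κ M m Q)

/-- the thin set of lengths on which completeness may fail. -/
def Bad (κ M m : ℕ) (mods : Finset ℕ) (T : ℕ) : Prop :=
  (∃ μ ∈ mods, μ ∣ T) ∨ ∃ j, 1 ≤ j ∧ j < m ∧
    ((T - Am κ M j) % G κ j < M * G κ (j - 1) ∨
      G κ j ≤ (T - Am κ M j) % G κ j + M * G κ (j - 1))

section lemmas

variable {κ M m : ℕ}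

theorem G_pos (i : ℕ) : 0 < G κ i := Nat.pos_of_ne_zero (by unfold G; positivity)

theorem G_dvd {i j : ℕ} (h : i ≤ j) : G κ i ∣ G κ j :=
  pow_dvd_pow _ (Nat.mul_le_mul_left _ (by omega))

theorem Am_succ (i : ℕ) : Am κ M (i + 1) = A κ M i + M * G κ i := by
  simp only [Am, A]; ring

theorem Am_mono {i j : ℕ} (h : i ≤ j) : Am κ M i ≤ Am κ M j := by
  induction j, h using Nat.le_induction with
  | base => exact le_rfl
  | succ j _ ih => exact ih.trans (Nat.le_add_right _ _)

theorem bet_lt (T i : ℕ) : bet κ M T i < A κ M i :=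
  Nat.add_lt_add_left (Nat.mod_lt _ (G_pos i)) _

theorem le_bet (T i : ℕ) : Am κ M i ≤ bet κ M T i := Nat.le_add_right _ _

theorem A_le (i : ℕ) : A κ M i ≤ Am κ M (i + 1) := by rw [Am_succ]; exact Nat.le_add_right _ _

theorem bet_congr {T o i j : ℕ} (hij : j ≤ i) (hT : Am κ M i ≤ T) (ho : Am κ M i ≤ o)
    (h : T % G κ i = o % G κ i) : bet κ M T j = bet κ M o j := by
  have h1 : T ≡ o [MOD G κ i] := h
  have h2 : T ≡ o [MOD G κ j] := h1.of_dvd (G_dvd hij)
  have h3 := Am_mono (κ := κ) (M := M) hij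
  unfold bet
  congr 1
  have h4 : (T - Am κ M j) + Am κ M j ≡ (o - Am κ M j) + Am κ M j [MOD G κ j] := by
    rw [Nat.sub_add_cancel (by omega), Nat.sub_add_cancel (by omega)]; exact h2
  exact Nat.ModEq.add_right_cancel' _ h4

variable {α S : Type*} [Monoid S] (f : α → S)

theorem sg_left (P Q : List α) (a b : ℕ) (h : b ≤ P.length) :
    sg f (P ++ Q) a b = sg f P a b := by
  unfold sg
  rw [List.drop_append]
  rw [List.take_append_of_le_length (by rw [List.length_drop]; omega)]

theorem sg_right (P Q : List α) (a b : ℕ) (h : P.length ≤ a) :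
    sg f (P ++ Q) a b = sg f Q (a - P.length) (b - P.length) := by
  unfold sg
  rw [List.drop_append, List.drop_eq_nil_of_le h, List.nil_append,
    show b - P.length - (a - P.length) = b - a by omega]

theorem sg_mul (u : List α) (a b c : ℕ) (h : a ≤ b) (h' : b ≤ c) :
    sg f u a b * sg f u b c = sg f u a c := by
  unfold sg
  rw [← List.prod_append, ← List.map_append]
  congr 2
  rw [show c - a = (b - a) + (c - b) by omega, List.take_add, List.drop_drop,
    show a + (b - a) = b by omega]

theorem bd_mono (T : ℕ) (hT : Am κ M m ≤ T) (j : ℕ) (hj : j ≤ m) :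
    bd κ M m T j ≤ bd κ M m T (j + 1) := by
  rcases j with _ | j
  · exact Nat.zero_le _
  · have h1 : j < m := by omega
    simp only [bd, h1, if_true]
    have h3 := (bet_lt (κ := κ) (M := M) T j).le.trans (A_le j)
    split_ifs with h2
    · exact h3.trans (le_bet _ _)
    · exact h3.trans ((Am_mono (by omega)).trans hT)

theorem zz_prod (u : List α) (hT : Am κ M m ≤ u.length) :
    (zz f κ M m u).prod = (u.map f).prod := by
  have h : ∀ k, k ≤ m → ((List.range (k + 1)).map (fun j => sg f u (bd κ M m u.length j)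
      (bd κ M m u.length (j + 1)))).prod = sg f u 0 (bd κ M m u.length (k + 1)) := by
    intro k
    induction k with
    | zero => intro _; simp [List.range_succ, bd]
    | succ k ih =>
      intro hk
      rw [List.range_succ, List.map_append, List.prod_append, ih (by omega)]
      simp only [List.map_cons, List.map_nil, List.prod_cons, List.prod_nil, mul_one]
      exact sg_mul f u _ _ _ (Nat.zero_le _) (bd_mono _ hT _ hk)
  unfold zz
  rw [h m le_rfl]
  unfold sg
  simp [bd]

theorem zz_length (u : List α) : (zz f κ M m u).length = m + 1 := by simp [zz]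

theorem key (P Q : List α) {i : ℕ} (hi : i < m) (h1 : A κ M i ≤ P.length)
    (h2 : P.length < Am κ M (i + 1)) (hQ : Am κ M m ≤ Q.length) (hG : G κ i ∣ Q.length)
    (hU : Unamb κ M m Q.length i) :
    preW f κ M m P i = (zz f κ M m (P ++ Q)).take (i + 1) ∧
      postW f κ M m Q i = (zz f κ M m (P ++ Q)).drop (i + 2) := by
  have hlen : (P ++ Q).length = P.length + Q.length := List.length_append
  constructor
  · unfold zz preW
    rw [← List.map_take, List.take_range, show min (i + 1) (m + 1) = i + 1 by omega]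
    refine List.map_congr_left (fun j hj => ?_)
    rw [List.mem_range] at hj
    have hb : ∀ k, k ≤ i → bet κ M (P ++ Q).length k = bet κ M P.length k := by
      intro k hk
      have h3 : Am κ M i ≤ A κ M i := Nat.le_add_right _ _
      refine bet_congr hk (by rw [hlen]; omega) (by omega) ?_
      rw [hlen]
      obtain ⟨t, ht⟩ := hG
      rw [ht, Nat.add_mul_mod_self_left]
    have hb2 : ∀ k, k ≤ i + 1 → bd κ M m (P ++ Q).length k = bd κ M m P.length k := by
      intro k hk
      rcases k with _ | k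
      · rfl
      · simp only [bd, show k < m by omega, if_true]
        exact hb k (by omega)
    rw [hb2 j (by omega), hb2 (j + 1) (by omega), sg_left]
    simp only [bd, show j < m by omega, if_true]
    have h4 := bet_lt (κ := κ) (M := M) P.length j
    have h5 : A κ M j ≤ A κ M i := by
      rcases Nat.lt_or_ge j i with h | h
      · exact (A_le j).trans ((Am_mono h).trans (Nat.le_add_right _ _))
      · rw [show j = i by omega]
    omega
  · unfold zz postW
    rw [← List.map_drop]
    refine List.map_congr_left (fun j hj => ?_)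
    obtain ⟨k, hk, rfl⟩ := List.mem_iff_getElem.1 hj
    rw [List.getElem_drop, List.getElem_range]
    have hk' : i + 2 + k < m + 1 := by
      rw [List.length_drop, List.length_range] at hk; omega
    have hb : ∀ l, i < l → l ≤ m → bd κ M m (P ++ Q).length (l + 1) - P.length =
        bdR κ M m Q.length i (l + 1) ∧ P.length ≤ bd κ M m (P ++ Q).length (l + 1) := by
      intro l hl hl'
      simp only [bd, bdR]
      split_ifs with hlm
      · have e1 := hU l hl hlm
        have e2 : Am κ M (i + 1) ≤ Am κ M l := Am_mono (by omega)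
        have e3 : Am κ M l ≤ Am κ M m := Am_mono (by omega)
        have e4 : (Q.length + A κ M i - Am κ M l) / G κ l =
            ((P ++ Q).length - Am κ M l) / G κ l := by
          refine le_antisymm (Nat.div_le_div_right (by rw [hlen]; omega)) ?_
          rw [e1]
          refine Nat.div_le_div_right ?_
          rw [Am_succ] at h2
          rw [hlen]; omega
        have e5 := Nat.div_add_mod ((P ++ Q).length - Am κ M l) (G κ l)
        rw [e4]
        unfold bet
        set d := G κ l * (((P ++ Q).length - Am κ M l) / G κ l)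
        set r := ((P ++ Q).length - Am κ M l) % G κ l
        constructor
        · omega
        · omega
      · exact ⟨by rw [hlen]; omega, by rw [hlen]; omega⟩
    have hj1 := hb (i + 1 + k) (by omega) (by omega)
    have hj2 := hb (i + 2 + k) (by omega) (by omega)
    rw [show i + 1 + k + 1 = i + 2 + k by omega] at hj1
    rw [sg_right _ _ _ _ _ hj1.2, hj1.1, hj2.1]

theorem periodic_congr {β : Type*} {g : ℕ → β} {M x y : ℕ} (h : ∀ x, g (x + M) = g x)
    (hxy : x ≡ y [MOD M]) : g x = g y := by
  have hp : Function.Periodic g M := h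
  rw [← hp.map_mod_nat x, ← hp.map_mod_nat y, hxy]

theorem div_add_eq_iff (x y g : ℕ) (hg : 0 < g) : x / g = (x + y) / g ↔ x % g + y < g := by
  have h1 := Nat.div_add_mod x g
  have h2 := Nat.div_add_mod (x + y) g
  constructor
  · intro h
    rw [← h] at h2
    have h3 := Nat.mod_lt (x + y) hg
    omega
  · intro h
    have h3 : x + y = (x % g + y) + g * (x / g) := by omega
    rw [h3, Nat.add_mul_div_left _ _ hg, Nat.div_eq_of_lt h, zero_add]

theorem unamb_iff {q i : ℕ} (hq : Am κ M m ≤ q) : Unamb κ M m q i ↔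
    ∀ j, i < j → j < m → (q + A κ M i - Am κ M j) % G κ j + M * G κ i < G κ j := by
  unfold Unamb
  refine forall_congr' (fun j => forall_congr' (fun h1 => forall_congr' (fun h2 => ?_)))
  have h3 : Am κ M j ≤ Am κ M m := Am_mono (by omega)
  rw [← div_add_eq_iff _ _ _ (G_pos j),
    show q + A κ M i + M * G κ i - Am κ M j = q + A κ M i - Am κ M j + M * G κ i by omega]

theorem bdR_eq {q i j : ℕ} (hq : Am κ M m ≤ q) (h1 : i < j) (h2 : j < m) :
    bdR κ M m q i (j + 1) = (Am κ M j - A κ M i) + (q + A κ M i - Am κ M j) % G κ j := by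
  simp only [bdR, h2, if_true]
  have h3 : Am κ M j ≤ Am κ M m := Am_mono (by omega)
  have h4 : A κ M i ≤ Am κ M j := (A_le i).trans (Am_mono h1)
  have h5 := Nat.div_add_mod (q + A κ M i - Am κ M j) (G κ j)
  have h6 : Am κ M j + (q + A κ M i - Am κ M j) % G κ j ≥ A κ M i := by omega
  set d := G κ j * ((q + A κ M i - Am κ M j) / G κ j)
  omega

theorem sound3 {V : Type*} [AddCommGroup V] (act : V → S → V)
    (L : ℕ → List S → ℕ → Option V) (R : ℕ → (ℕ → Option (List S)) → Option V)
    (nu : ℕ → List S → V)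
    (hS : ∀ (z pre : List S) (i om om' : ℕ) (cont : ℕ → Option (List S)) (v r : V), i < m →
        i + 1 < z.length →
        (∀ post, cont i = some post → pre = z.take (i + 1) ∧ post = z.drop (i + 2)) →
        L i pre om = some v → R om' cont = some r → r = nu (om + om') z + act v z.prod)
    (P Q : List α) (v r : V) (hQ : Am κ M m ≤ Q.length) (hL : LW f κ M m L P = some v)
    (hR : RW f κ M m R Q = some r) :
    r = nu (P ++ Q).length (zz f κ M m (P ++ Q)) + act v ((P ++ Q).map f).prod := by
  unfold LW at hL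
  unfold RW at hR
  split_ifs at hL with h
  obtain ⟨h1, h2, h3⟩ := h.choose_spec
  set i := h.choose
  have := hS (zz f κ M m (P ++ Q)) (preW f κ M m P i) i P.length Q.length (contW f κ M m Q) v r h1
    (by rw [zz_length]; omega) ?_ hL hR
  · rw [this, zz_prod _ _ (by rw [List.length_append]; omega), List.length_append]
  · intro post hp
    unfold contW at hp
    split_ifs at hp with hc
    obtain ⟨k1, k2⟩ := key f P Q h1 h2 h3 hQ hc.2.1 hc.2.2
    exact ⟨k1, by rw [← k2]; exact (Option.some.inj hp).symm⟩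

theorem complete3 {V : Type*} (hM : 0 < M) (h2M : Nat.Coprime 2 M) (mods : Finset ℕ)
    (L : ℕ → List S → ℕ → Option V) (R : ℕ → (ℕ → Option (List S)) → Option V)
    (hLp : ∀ i pre om, L i pre (om + M) = L i pre om)
    (hRp : ∀ om cont, R (om + M) cont = R om cont)
    (hC : ∀ (z : List S), m + 1 ≤ z.length → ∀ (v : V) (n : ℕ), (∀ μ ∈ mods, ¬ μ ∣ n) →
        ∃ i < m, ∀ x0, x0 + M ≤ n + 1 → ∃ om, x0 ≤ om ∧ om < x0 + M ∧ om ≤ n ∧
          L i (z.take (i + 1)) om = some v ∧
          ∀ cont : ℕ → Option (List S), cont i = some (z.drop (i + 2)) →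
            (R (n - om) cont).isSome)
    (u : List α) (hu : 2 * Am κ M m ≤ u.length) (hbad : ¬ Bad κ M m mods u.length) (v : V) :
    ∃ P Q, P ++ Q = u ∧ LW f κ M m L P = some v ∧ (RW f κ M m R Q).isSome := by
  obtain ⟨i, hi, H⟩ := hC (zz f κ M m u) (by rw [zz_length]) v u.length
    (fun μ hμ h => hbad (Or.inl ⟨μ, hμ, h⟩))
  have a1 : Am κ M (i + 1) ≤ Am κ M m := Am_mono hi
  have a2 : Am κ M (i + 1) = A κ M i + M * G κ i := Am_succ i
  have a3 : M * 1 ≤ M * G κ i := Nat.mul_le_mul_left _ (G_pos i)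
  obtain ⟨om, o1, o2, o3, o4, o5⟩ := H (A κ M i) (by omega)
  have hco : Nat.Coprime M (G κ i) := (h2M.pow_left _).symm
  obtain ⟨k, k1, k2⟩ := Nat.chineseRemainder hco (om - A κ M i) (u.length - A κ M i)
  have hpos : 0 < M * G κ i := Nat.mul_pos hM (G_pos i)
  set y := k % (M * G κ i) with hy
  have y0 : y ≡ k [MOD M * G κ i] := Nat.mod_modEq _ _
  have y1 : y < M * G κ i := Nat.mod_lt _ hpos
  have y2 : y + A κ M i ≡ om [MOD M] := by
    have h1 : y ≡ om - A κ M i [MOD M] := (y0.of_dvd (Dvd.intro _ rfl)).trans k1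
    have h2 := h1.add_right (A κ M i)
    rwa [Nat.sub_add_cancel o1] at h2
  have y3 : y + A κ M i ≡ u.length [MOD G κ i] := by
    have h1 : y ≡ u.length - A κ M i [MOD G κ i] := (y0.of_dvd (Dvd.intro_left _ rfl)).trans k2
    have h2 := h1.add_right (A κ M i)
    rwa [Nat.sub_add_cancel (by omega)] at h2
  set o := y + A κ M i with ho
  have hon : o ≤ u.length := by omega
  have hP : (u.take o).length = o := by rw [List.length_take]; omega
  have hQ : (u.drop o).length = u.length - o := List.length_drop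
  have hPQ : u.take o ++ u.drop o = u := List.take_append_drop _ _
  have hG : G κ i ∣ (u.drop o).length := by
    rw [hQ]; exact (Nat.modEq_iff_dvd' hon).1 y3
  have hQ2 : Am κ M m ≤ (u.drop o).length := by omega
  have hU : Unamb κ M m (u.drop o).length i := by
    rw [unamb_iff hQ2]
    intro j hj hjm
    have hb : ¬ ((u.length - Am κ M j) % G κ j < M * G κ (j - 1) ∨
      G κ j ≤ (u.length - Am κ M j) % G κ j + M * G κ (j - 1)) :=
      fun h => hbad (Or.inr ⟨j, by omega, hjm, h⟩)
    rw [not_or, not_lt, not_le] at hb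
    obtain ⟨b1, b2⟩ := hb
    have b3 : M * G κ i ≤ M * G κ (j - 1) :=
      Nat.mul_le_mul_left _ (Nat.le_of_dvd (G_pos _) (G_dvd (by omega)))
    have b4 : Am κ M j ≤ Am κ M m := Am_mono (by omega)
    rw [hQ]
    have b5 := Nat.div_add_mod (u.length - Am κ M j) (G κ j)
    have b6 : u.length - o + A κ M i - Am κ M j =
        ((u.length - Am κ M j) % G κ j - y) + G κ j * ((u.length - Am κ M j) / G κ j) := by
      set d := G κ j * ((u.length - Am κ M j) / G κ j)
      omega
    rw [b6, Nat.add_mul_mod_self_left]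
    have b7 := Nat.mod_le ((u.length - Am κ M j) % G κ j - y) (G κ j)
    omega
  obtain ⟨e1, e2⟩ := key f (u.take o) (u.drop o) hi (by omega) (by omega) hQ2 hG hU
  rw [hPQ] at e1 e2
  refine ⟨u.take o, u.drop o, hPQ, ?_, ?_⟩
  · have hex : ∃ i, i < m ∧ A κ M i ≤ (u.take o).length ∧ (u.take o).length < Am κ M (i + 1) :=
      ⟨i, hi, by omega, by omega⟩
    unfold LW
    rw [dif_pos hex]
    obtain ⟨c1, c2, c3⟩ := hex.choose_spec
    have hchoose : hex.choose = i := by
      rcases Nat.lt_trichotomy hex.choose i with h | h | h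
      · have h3 : Am κ M (hex.choose + 1) ≤ Am κ M i := Am_mono h
        have h4 : Am κ M i ≤ A κ M i := Nat.le_add_right _ _
        omega
      · exact h
      · have h3 : Am κ M (i + 1) ≤ Am κ M hex.choose := Am_mono h
        have h4 : Am κ M hex.choose ≤ A κ M hex.choose := Nat.le_add_right _ _
        omega
    rw [hchoose, e1, ← o4, hP]
    exact periodic_congr (fun x => hLp i _ x) y2
  · unfold RW
    have h1 : contW f κ M m (u.drop o) i = some ((zz f κ M m u).drop (i + 2)) := by
      unfold contW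
      rw [if_pos ⟨hi, hG, hU⟩, e2]
    have h2 := o5 _ h1
    have h3 : u.length - o ≡ u.length - om [MOD M] := by
      refine Nat.ModEq.add_right_cancel y2 ?_
      rw [Nat.sub_add_cancel hon, Nat.sub_add_cancel o3]
    rw [hQ, periodic_congr (g := fun x => R x (contW f κ M m (u.drop o))) (fun x => hRp x _) h3]
    exact h2

theorem cong_sub {q q' a b g : ℕ} (h : q ≡ q' [MOD g]) (h1 : b ≤ q + a) (h2 : b ≤ q' + a) :
    (q + a - b) % g = (q' + a - b) % g := by
  have h3 : (q + a - b) + b ≡ (q' + a - b) + b [MOD g] := by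
    rw [Nat.sub_add_cancel h1, Nat.sub_add_cancel h2]; exact h.add_right _
  exact Nat.ModEq.add_right_cancel' _ h3

theorem sg_take (Q : List α) (K a b : ℕ) (hK : K ≤ Q.length) (h : b ≤ K) :
    sg f Q a b = sg f (Q.take K) a b := by
  conv_lhs => rw [← List.take_append_drop K Q]
  rw [sg_left]
  rw [List.length_take]; omega

theorem sg_full (Q : List α) (K a : ℕ) (hK : K ≤ Q.length) (h : a ≤ K) :
    sg f Q a Q.length = sg f (Q.take K) a K * ((Q.drop K).map f).prod := by
  rw [← sg_mul f Q a K Q.length h hK, sg_take f Q K a K hK le_rfl]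
  congr 1
  unfold sg
  rw [List.take_of_length_le (by rw [List.length_drop])]

theorem RW_congr {V : Type*} (hM : 0 < M) (R : ℕ → (ℕ → Option (List S)) → Option V)
    (hRp : ∀ om cont, R (om + M) cont = R om cont)
    (Q Q' : List α) (hQ : Am κ M m ≤ Q.length) (hQ' : Am κ M m ≤ Q'.length)
    (h1 : Q.take (Am κ M m) = Q'.take (Am κ M m))
    (h2 : ((Q.drop (Am κ M m)).map f).prod = ((Q'.drop (Am κ M m)).map f).prod)
    (h3 : Q.length % (M * G κ m) = Q'.length % (M * G κ m)) :
    RW f κ M m R Q = RW f κ M m R Q' := by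
  have h3' : Q.length ≡ Q'.length [MOD M * G κ m] := h3
  have hg : ∀ j, j ≤ m → Q.length ≡ Q'.length [MOD G κ j] := fun j hj =>
    h3'.of_dvd ((G_dvd hj).mul_left M)
  have hU : ∀ i, i < m → (Unamb κ M m Q.length i ↔ Unamb κ M m Q'.length i) := by
    intro i hi
    rw [unamb_iff hQ, unamb_iff hQ']
    refine forall_congr' (fun j => forall_congr' (fun k1 => forall_congr' (fun k2 => ?_)))
    have h4 : Am κ M j ≤ Am κ M m := Am_mono (by omega)
    rw [cong_sub (a := A κ M i) (b := Am κ M j) (hg j (by omega)) (by omega) (by omega)]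
  have hbd : ∀ i j, i < j → j < m → bdR κ M m Q.length i (j + 1) = bdR κ M m Q'.length i (j + 1) := by
    intro i j k1 k2
    have h4 : Am κ M j ≤ Am κ M m := Am_mono (by omega)
    rw [bdR_eq hQ k1 k2, bdR_eq hQ' k1 k2,
      cong_sub (a := A κ M i) (b := Am κ M j) (hg j (by omega)) (by omega) (by omega)]
  have hle : ∀ i j, i < j → j < m → bdR κ M m Q.length i (j + 1) ≤ Am κ M m := by
    intro i j k1 k2
    rw [bdR_eq hQ k1 k2]
    have h5 := Nat.mod_lt (Q.length + A κ M i - Am κ M j) (G_pos (κ := κ) j)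
    have h6 : Am κ M j ≤ Am κ M (j + 1) := Am_mono (by omega)
    have h7 := A_le (κ := κ) (M := M) j
    have h8 : Am κ M (j + 1) ≤ Am κ M m := Am_mono (by omega)
    have h9 : A κ M j = Am κ M j + G κ j := rfl
    set r := (Q.length + A κ M i - Am κ M j) % G κ j
    omega
  have hpost : ∀ i, i < m → postW f κ M m Q i = postW f κ M m Q' i := by
    intro i hi
    unfold postW
    refine List.map_congr_left (fun j hj => ?_)
    obtain ⟨k, hk, rfl⟩ := List.mem_iff_getElem.1 hj
    rw [List.getElem_drop, List.getElem_range]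
    have hk' : i + 2 + k < m + 1 := by
      rw [List.length_drop, List.length_range] at hk; omega
    have e1 := hbd i (i + 1 + k) (by omega) (by omega)
    have e2 := hle i (i + 1 + k) (by omega) (by omega)
    rw [show i + 1 + k + 1 = i + 2 + k by omega] at e1 e2
    rcases Nat.lt_or_ge (i + 2 + k) m with h | h
    · have e3 := hbd i (i + 2 + k) (by omega) (by omega)
      have e4 := hle i (i + 2 + k) (by omega) (by omega)
      rw [sg_take f Q (Am κ M m) _ _ hQ e4, sg_take f Q' (Am κ M m) _ _ hQ' (e3 ▸ e4), h1, e1, e3]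
    · have e5 : ∀ q, bdR κ M m q i (i + 2 + k + 1) = q := fun q => by
        simp only [bdR]; rw [if_neg (by omega)]
      rw [e5, e5, sg_full f Q (Am κ M m) _ hQ e2, sg_full f Q' (Am κ M m) _ hQ' (e1 ▸ e2), h1, h2,
        e1]
  have hcont : contW f κ M m Q = contW f κ M m Q' := by
    funext i
    unfold contW
    by_cases hi : i < m
    · have h4 : G κ i ∣ Q.length ↔ G κ i ∣ Q'.length := (hg i hi.le).dvd_iff (dvd_refl _)
      rw [hpost i hi]
      have h5 : (i < m ∧ G κ i ∣ Q.length ∧ Unamb κ M m Q.length i) ↔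
        (i < m ∧ G κ i ∣ Q'.length ∧ Unamb κ M m Q'.length i) := by rw [h4, hU i hi]
      by_cases hc : i < m ∧ G κ i ∣ Q.length ∧ Unamb κ M m Q.length i
      · rw [if_pos hc, if_pos (h5.1 hc)]
      · rw [if_neg hc, if_neg (fun h => hc (h5.2 h))]
    · simp only [hi, false_and, if_false]
  unfold RW
  rw [hcont]
  exact periodic_congr (g := fun x => R x (contW f κ M m Q')) (fun x => hRp x _)
    (h3'.of_dvd (Dvd.intro _ rfl))

end lemmas

/-- **Scheme 1 on b-anchored nested grids.** -/
theorem grid (S V : Type*) [Monoid S] [Finite S] [AddCommGroup V] [Finite V]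
    (act : V → S → V) :
    ∃ m c : ℕ, ∀ B : ℕ, ∃ (M : ℕ) (mods : Finset ℕ),
      0 < M ∧ Nat.Coprime 2 M ∧ mods.card ≤ c ∧ (∀ μ ∈ mods, B < μ ∧ μ ∣ M) ∧
      ∀ (κ : ℕ) {α : Type*} (f : α → S), ∃ (LW RW : List α → Option V) (nu : List α → V),
        (∀ P, (LW P).isSome → P.length < Am κ M m) ∧
        (∀ Q Q' : List α, Am κ M m ≤ Q.length → Am κ M m ≤ Q'.length →
          Q.take (Am κ M m) = Q'.take (Am κ M m) →
          ((Q.drop (Am κ M m)).map f).prod = ((Q'.drop (Am κ M m)).map f).prod →
          Q.length % (M * G κ m) = Q'.length % (M * G κ m) → RW Q = RW Q') ∧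
        (∀ (P Q : List α) (v r : V), Am κ M m ≤ Q.length → LW P = some v → RW Q = some r →
          r = nu (P ++ Q) + act v ((P ++ Q).map f).prod) ∧
        (∀ u : List α, 2 * Am κ M m ≤ u.length → ¬ Bad κ M m mods u.length → ∀ v : V,
          ∃ P Q, P ++ Q = u ∧ LW P = some v ∧ (RW Q).isSome) := by
  obtain ⟨m, c, H⟩ := gadget2 S V act
  refine ⟨m, c, fun B => ?_⟩
  obtain ⟨M, mods, L, R, nu, hM, h2M, hcard, hmods, hLp, hRp, -, hS, hC⟩ := H B
  refine ⟨M, mods, hM, h2M, hcard, hmods, fun κ α f => ⟨LW f κ M m L, RW f κ M m R,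
    fun u => nu u.length (zz f κ M m u), ?_, ?_, ?_, ?_⟩⟩
  · intro P hP
    unfold LW at hP
    split_ifs at hP with h
    · obtain ⟨h1, h2, h3⟩ := h.choose_spec
      exact h3.trans_le (Am_mono h1)
    · simp at hP
  · intro Q Q' hQ hQ' h1 h2 h3
    exact RW_congr f hM R hRp Q Q' hQ hQ' h1 h2 h3
  · intro P Q v r hQ hL hR
    exact sound3 f act L R nu hS P Q v r hQ hL hR
  · intro u hu hbad v
    exact complete3 f hM h2M mods L R hLp hRp hC u hu hbad v

end Crest.Agent.R320.Grid_693
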