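import Crest.Agent.R320.Conc3_795
import Crest.Agent.R320.Grid_693
import Crest.Agent.R320.GridRuler_314
import Crest.Agent.R320.Exact_808

/-!
# Row 320: parameters and the final statement (helper795)
-/

set_option autoImplicit false

namespace Crest.Agent.R320.Conc_795

open Crest.RegLang Crest.Agent.R320.Hk_851 Crest.Agent.R320.Blk_517 Crest.Agent.R320.Top_517
  Crest.Agent.R320.Fin_517 Crest.Agent.R320.Main_517 Crest.Agent.R320.SemTop_795
  Crest.Agent.R320.FewWalls_228 Crest.Agent.R320.WallU_228 Crest.Agent.R320.FewVal_228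

universe u

variable {α : Type u} {V S : Type*}

theorem ev_drop [Monoid S] (φ : α → S) (X : List α) {a z : ℕ} (h : a ≤ z) (hz : z ≤ X.length) :
    ev φ (X.drop a) = ev φ ((X.take z).drop a) * ev φ (X.drop z) := by
  rw [← ev_append]
  congr 1
  conv_lhs => rw [← List.take_append_drop z X]
  rw [List.drop_append_of_le_length (by rw [List.length_take]; omega)]

theorem modsub {a b c N : ℕ} (h : a % N = b % N) (h1 : c ≤ a) (h2 : c ≤ b) :
    (a - c) % N = (b - c) % N := by
  have h3 : a - c + c ≡ b - c + c [MOD N] := by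
    rw [Nat.sub_add_cancel h1, Nat.sub_add_cancel h2]; exact h
  exact Nat.ModEq.add_right_cancel' c h3

open Classical in
theorem nu_fix [Monoid S] [AddCommGroup V] (φ : α → S) (act : V → S → V) {A N : ℕ}
    {LW RW : List α → Option V} {nu : List α → V}
    (hl : ∀ P, (LW P).isSome → P.length < A)
    (hr : ∀ Q Q' : List α, A ≤ Q.length → A ≤ Q'.length → Q.take A = Q'.take A →
      ((Q.drop A).map φ).prod = ((Q'.drop A).map φ).prod →
      Q.length % N = Q'.length % N → RW Q = RW Q')
    (hs : ∀ (P Q : List α) (v r : V), A ≤ Q.length → LW P = some v → RW Q = some r →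
      r = nu (P ++ Q) + act v ((P ++ Q).map φ).prod) :
    ∃ nu' : List α → V,
      (∀ (P Q : List α) (v r : V), A ≤ Q.length → LW P = some v → RW Q = some r →
        r = nu' (P ++ Q) + act v (ev φ (P ++ Q))) ∧
      (∀ Y Y' : List α, 2 * A ≤ Y.length → 2 * A ≤ Y'.length → Y.take (2 * A) = Y'.take (2 * A) →
        ev φ (Y.drop (2 * A)) = ev φ (Y'.drop (2 * A)) → Y.length % N = Y'.length % N →
        nu' Y = nu' Y') := by
  let Cd : List α → Prop := fun Y => ∃ P Q v r, P ++ Q = Y ∧ A ≤ Q.length ∧ LW P = some v ∧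
    RW Q = some r
  refine ⟨fun Y => if Cd Y then nu Y else 0, ?_, ?_⟩
  · intro P Q v r h1 h2 h3
    have hc : Cd (P ++ Q) := ⟨P, Q, v, r, rfl, h1, h2, h3⟩
    simp only [if_pos hc]
    exact hs P Q v r h1 h2 h3
  · -- key transfer
    have key : ∀ Y Y' : List α, 2 * A ≤ Y.length → 2 * A ≤ Y'.length →
        Y.take (2 * A) = Y'.take (2 * A) →
        ev φ (Y.drop (2 * A)) = ev φ (Y'.drop (2 * A)) → Y.length % N = Y'.length % N →
        Cd Y → Cd Y' ∧ nu Y = nu Y' := by
      intro Y Y' hY hY' h1 h2 h3 hc
      obtain ⟨P, Q, v, r, rfl, hQ, hP, hR⟩ := hc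
      have hPl := hl P (by rw [hP]; rfl)
      have e1 : Y'.take P.length = P := by
        have := congrArg (List.take P.length) h1
        rw [List.take_take, List.take_take, Nat.min_eq_left (by omega), List.take_left' rfl] at this
        exact this.symm
      have e2 : Y' = P ++ Y'.drop P.length := by
        conv_lhs => rw [← List.take_append_drop P.length Y', e1]
      have hQe : Q = (P ++ Q).drop P.length := by rw [List.drop_left' rfl]
      have hlQ : (Y'.drop P.length).length = Y'.length - P.length := List.length_drop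
      have hYl : (P ++ Q).length = P.length + Q.length := List.length_append
      have e3 : RW (Y'.drop P.length) = some r := by
        rw [← hR]
        symm
        refine hr _ _ hQ (by omega) ?_ ?_ ?_
        · have := congrArg (List.drop P.length) (congrArg (List.take (P.length + A)) h1)
          rw [List.take_take, List.take_take, Nat.min_eq_left (by omega)] at this
          rw [List.drop_take, List.drop_take] at this
          simp only [Nat.add_sub_cancel_left] at this
          rw [List.drop_left' rfl] at this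
          exact this
        · have h4 : ev φ ((P ++ Q).drop (P.length + A)) = ev φ (Y'.drop (P.length + A)) := by
            rw [ev_drop φ (P ++ Q) (z := 2 * A) (by omega) hY,
              ev_drop φ Y' (z := 2 * A) (by omega) hY', h1, h2]
          rw [← List.drop_drop, ← List.drop_drop, List.drop_left' rfl] at h4
          exact h4
        · rw [hlQ]
          have h5 := modsub (c := P.length) h3 (by omega) (by omega)
          rw [hYl, Nat.add_sub_cancel_left] at h5
          exact h5
      refine ⟨⟨P, _, v, r, e2.symm, by omega, hP, e3⟩, ?_⟩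
      have s1 := hs P Q v r hQ hP hR
      have s2 := hs P (Y'.drop P.length) v r (by omega) hP e3
      rw [← e2] at s2
      have h6 : ((P ++ Q).map φ).prod = (Y'.map φ).prod := by
        have h7 := ev_drop φ (P ++ Q) (a := 0) (z := 2 * A) (by omega) hY
        have h8 := ev_drop φ Y' (a := 0) (z := 2 * A) (by omega) hY'
        rw [h1, h2, ← h8] at h7
        exact h7
      rw [h6] at s1
      exact add_right_cancel (s1.symm.trans s2)
    intro Y Y' hY hY' h1 h2 h3
    by_cases hc : Cd Y
    · obtain ⟨k1, k2⟩ := key Y Y' hY hY' h1 h2 h3 hc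
      simp only [if_pos hc, if_pos k1, k2]
    · have hc' : ¬ Cd Y' := fun h => hc (key Y' Y hY' hY h1.symm h2.symm h3.symm h).1
      simp only [if_neg hc, if_neg hc']

theorem TT_inv [Monoid S] [AddCommGroup V] (φ : α → S) (act : V → S → V) {A N p0 z : ℕ}
    (nu1 nu2 : List α → V) (hz : p0 + 2 * A ≤ z)
    (hnu : ∀ Y Y' : List α, 2 * A ≤ Y.length → 2 * A ≤ Y'.length →
      Y.take (2 * A) = Y'.take (2 * A) → ev φ (Y.drop (2 * A)) = ev φ (Y'.drop (2 * A)) →
      Y.length % N = Y'.length % N → nu1 Y = nu1 Y') (v : V) {X X' : List α}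
    (hX : z ≤ X.length) (hX' : z ≤ X'.length) (h1 : X.take z = X'.take z)
    (h2 : ev φ (X.drop z) = ev φ (X'.drop z)) (h3 : X.length % N = X'.length % N) :
    TT φ act p0 nu1 nu2 v X = TT φ act p0 nu1 nu2 v X' := by
  have e1 : X.take p0 = X'.take p0 := by
    have := congrArg (List.take p0) h1
    rwa [List.take_take, List.take_take, Nat.min_eq_left (by omega)] at this
  have e2 : ∀ a ≤ z, ev φ (X.drop a) = ev φ (X'.drop a) := by
    intro a ha
    rw [ev_drop φ X ha hX, ev_drop φ X' ha hX', h1, h2]
  have e3 : nu1 (X.drop p0) = nu1 (X'.drop p0) := by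
    refine hnu _ _ (by rw [List.length_drop]; omega) (by rw [List.length_drop]; omega) ?_ ?_ ?_
    · have := congrArg (List.drop p0) (congrArg (List.take (p0 + 2 * A)) h1)
      rw [List.take_take, List.take_take, Nat.min_eq_left (by omega)] at this
      rw [List.drop_take, List.drop_take] at this
      simpa only [Nat.add_sub_cancel_left] using this
    · rw [List.drop_drop, List.drop_drop]
      exact e2 _ hz
    · rw [List.length_drop, List.length_drop]
      exact modsub h3 (by omega) (by omega)
  unfold TT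
  rw [e1, e2 p0 (by omega), e3]

/-- the bad lengths of the grid are bad for the ruler -/
theorem bad_badT {κ M m : ℕ} {mods : Finset ℕ} {y : ℕ} (hy : Grid_693.Am κ M m ≤ y)
    (hmono : ∀ i j, i ≤ j → Grid_693.Am κ M i ≤ Grid_693.Am κ M j)
    (h : Grid_693.Bad κ M m mods y) :
    GridRuler314.BadT mods m (Grid_693.G κ) (fun i => M * Grid_693.G κ i)
      (fun i => (Grid_693.Am κ M i : ℤ)) (y : ℤ) := by
  rcases h with ⟨μ, h1, h2⟩ | ⟨j, h1, h2, h3⟩
  · exact Or.inl ⟨μ, h1, Int.natCast_dvd_natCast.2 h2⟩
  · refine Or.inr ⟨j, h1, h2.le, ?_⟩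
    have hA : Grid_693.Am κ M j ≤ y := (hmono j m h2.le).trans hy
    set q := (y - Grid_693.Am κ M j) / Grid_693.G κ j with hq
    set r := (y - Grid_693.Am κ M j) % Grid_693.G κ j with hr
    have hG : 0 < Grid_693.G κ j := pow_pos (by norm_num) _
    have hrl : r < Grid_693.G κ j := Nat.mod_lt _ hG
    have hd : Grid_693.G κ j * q + r = y - Grid_693.Am κ M j := Nat.div_add_mod _ _
    have hd' : (Grid_693.G κ j : ℤ) * q + r = (y : ℤ) - Grid_693.Am κ M j := by
      have : ((Grid_693.G κ j * q + r : ℕ) : ℤ) = ((y - Grid_693.Am κ M j : ℕ) : ℤ) := by rw [hd]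
      rw [Nat.cast_sub hA] at this
      push_cast at this
      exact this
    rcases h3 with h3 | h3
    · refine ⟨q, ?_⟩
      have e : (y : ℤ) - Grid_693.Am κ M j - q * Grid_693.G κ j = r := by rw [← hd']; ring
      show |(y : ℤ) - Grid_693.Am κ M j - q * Grid_693.G κ j| ≤ _
      rw [e, abs_of_nonneg (Int.natCast_nonneg r)]
      exact_mod_cast h3.le
    · refine ⟨q + 1, ?_⟩
      have e : (y : ℤ) - Grid_693.Am κ M j - ((q : ℤ) + 1) * Grid_693.G κ j =
          -((Grid_693.G κ j : ℤ) - r) := by rw [← hd']; ring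
      show |(y : ℤ) - Grid_693.Am κ M j - ((q : ℤ) + 1) * Grid_693.G κ j| ≤ _
      rw [e, abs_neg, abs_of_nonneg (by
        have : (r : ℤ) < Grid_693.G κ j := by exact_mod_cast hrl
        linarith)]
      have : (Grid_693.G κ j : ℤ) ≤ r + (M * Grid_693.G κ (j - 1) : ℕ) := by exact_mod_cast h3
      linarith

end Crest.Agent.R320.Conc_795
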