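import Crest.Agent.R320.Conc4_795

/-!
# Row 320: parameters and the final statement (helper795)
-/

set_option autoImplicit false

namespace Crest.Agent.R320.Conc_795

open Crest.RegLang Crest.Agent.R320.Hk_851 Crest.Agent.R320.Blk_517 Crest.Agent.R320.Top_517
  Crest.Agent.R320.Fin_517 Crest.Agent.R320.Main_517 Crest.Agent.R320.SemTop_795
  Crest.Agent.R320.FewWalls_228 Crest.Agent.R320.WallU_228 Crest.Agent.R320.FewVal_228

universe u

variable {α : Type u}

open Classical in
/-- the exact gadget with `R` copies of each place, places `2^k X` -/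
theorem exact_places (S V : Type) [Monoid S] [Finite S] [AddCommGroup V] [Finite V] :
    ∃ m k : ℕ, ∀ (R X : ℕ), 0 < R → 0 < X → ∀ (α : Type u) (φ : List α → S),
      (∀ u v, φ (u ++ v) = φ u * φ v) → ∀ act : V → S → V,
      ∃ (lam rho : List α → Option V) (nu : List α → V),
        (∀ (p q : List α) (v b : V), p.length + q.length = 2 ^ (m * (k * R)) * X →
          lam p = some v → rho q = some b → b = act v (φ (p ++ q)) + nu (p ++ q)) ∧
        (∀ (u : List α) (v : V), u.length = 2 ^ (m * (k * R)) * X → ∃ J : Finset ℕ, R ≤ J.card ∧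
          ∀ a ∈ J, a < m * (k * R) ∧ lam (u.take (2 ^ a * X)) = some v ∧
            (rho (u.drop (2 ^ a * X))).isSome = true) := by
  obtain ⟨m, k, hex⟩ := Crest.Agent.R320.Exact808.exact_gadget S V
  refine ⟨m, k, fun R X hR hX α φ hφ act => ?_⟩
  set K := m * (k * R) with hK
  set p0 := 2 ^ K * X with hp0
  have hpow : ∀ a b, a ≤ b → 2 ^ a * X ≤ 2 ^ b * X := fun a b h =>
    Nat.mul_le_mul_right _ (Nat.pow_le_pow_right (by norm_num) h)
  let Bd : ℕ → ℕ := fun i => if i = 0 then 0 else if m ≤ i then p0 else 2 ^ (i * (k * R)) * X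
  have hB0 : Bd 0 = 0 := if_pos rfl
  have hBmono : Monotone Bd := by
    intro i j hij
    show (if i = 0 then 0 else if m ≤ i then p0 else 2 ^ (i * (k * R)) * X) ≤
      (if j = 0 then 0 else if m ≤ j then p0 else 2 ^ (j * (k * R)) * X)
    by_cases h0 : i = 0
    · rw [if_pos h0]; exact Nat.zero_le _
    · have h0' : j ≠ 0 := by omega
      rw [if_neg h0, if_neg h0']
      by_cases h1 : m ≤ i
      · rw [if_pos h1, if_pos (by omega)]
      · rw [if_neg h1]
        by_cases h2 : m ≤ j
        · rw [if_pos h2]; exact hpow _ _ (Nat.mul_le_mul_right _ (by omega))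
        · rw [if_neg h2]; exact hpow _ _ (Nat.mul_le_mul_right _ hij)
  have hinj : ∀ a b, 2 ^ a * X = 2 ^ b * X → a = b := fun a b h =>
    Nat.pow_right_injective (le_refl 2) (Nat.eq_of_mul_eq_mul_right hX h)
  let ctx : ℕ → Option (ℕ × Fin k) := fun x =>
    if h : ∃ a, a < K ∧ 2 ^ a * X = x then
      (if hk : 0 < k then some (h.choose / (k * R), ⟨(h.choose / R) % k, Nat.mod_lt _ hk⟩)
        else none) else none
  have hctxv : ∀ a, a < K → ∀ hk : 0 < k,
      ctx (2 ^ a * X) = some (a / (k * R), ⟨(a / R) % k, Nat.mod_lt _ hk⟩) := by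
    intro a ha hk
    have h : ∃ a', a' < K ∧ 2 ^ a' * X = 2 ^ a * X := ⟨a, ha, rfl⟩
    have he : h.choose = a := hinj _ _ h.choose_spec.2
    show (if h : ∃ a', a' < K ∧ 2 ^ a' * X = 2 ^ a * X then
      (if hk : 0 < k then some (h.choose / (k * R), (⟨(h.choose / R) % k, Nat.mod_lt _ hk⟩ : Fin k))
        else none) else none) = _
    rw [dif_pos h, dif_pos hk]
    simp only [he]
  have hctx : ∀ x i c, ctx x = some (i, c) → i < m ∧ Bd i ≤ x ∧ x ≤ Bd (i + 1) := by
    intro x i c h
    by_cases h1 : ∃ a, a < K ∧ 2 ^ a * X = x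
    · obtain ⟨a, ha, rfl⟩ := h1
      have hk : 0 < k := by
        rcases Nat.eq_zero_or_pos k with h2 | h2
        · rw [hK, h2] at ha; simp at ha
        · exact h2
      rw [hctxv a ha hk] at h
      have hi : a / (k * R) = i := congrArg Prod.fst (Option.some.inj h)
      have hb : 0 < k * R := Nat.mul_pos hk hR
      have hdm := Nat.div_add_mod a (k * R)
      have hml := Nat.mod_lt a hb
      rw [hi] at hdm
      have him : i < m := by
        rw [← hi]
        exact Nat.div_lt_of_lt_mul (by rw [Nat.mul_comm]; exact ha)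
      refine ⟨him, ?_, ?_⟩
      · show (if i = 0 then 0 else if m ≤ i then p0 else 2 ^ (i * (k * R)) * X) ≤ _
        by_cases h0 : i = 0
        · rw [if_pos h0]; exact Nat.zero_le _
        · rw [if_neg h0, if_neg (by omega)]
          refine hpow _ _ ?_
          rw [Nat.mul_comm]; omega
      · show _ ≤ (if i + 1 = 0 then 0 else if m ≤ i + 1 then p0 else
          2 ^ ((i + 1) * (k * R)) * X)
        rw [if_neg (by omega)]
        by_cases h2 : m ≤ i + 1
        · rw [if_pos h2]; exact hpow _ _ ha.le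
        · rw [if_neg h2]
          refine hpow _ _ ?_
          rw [Nat.succ_mul, Nat.mul_comm i]; omega
    · exfalso
      have : ctx x = none := dif_neg h1
      rw [this] at h
      cases h
  obtain ⟨lam, hlam⟩ := hex α φ hφ Bd ctx hBmono hB0 hctx
  obtain ⟨rho, nu, g1, g2⟩ := hlam act
  have hm : 0 < m := by
    rcases Nat.eq_zero_or_pos m with h | h
    · obtain ⟨i, hi, -⟩ := g2 [] 0 (by rw [h, hB0]; rfl)
      omega
    · exact h
  have hBm : Bd m = p0 := by
    show (if m = 0 then 0 else if m ≤ m then p0 else 2 ^ (m * (k * R)) * X) = p0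
    rw [if_neg (by omega), if_pos le_rfl]
  refine ⟨lam, rho, nu, ?_, ?_⟩
  · intro p q v b h h1 h2
    exact g1 p q v b (by rw [h, hBm]) h1 h2
  · intro u v hu
    obtain ⟨i, hi, cc, hcc⟩ := g2 u v (by rw [hu, hBm])
    have hk : 0 < k := lt_of_le_of_lt (Nat.zero_le _) cc.2
    refine ⟨(Finset.range R).image (fun r => (i * k + cc) * R + r), ?_, ?_⟩
    · rw [Finset.card_image_of_injective _ (fun a b h => Nat.add_left_cancel h),
        Finset.card_range]
    · intro a ha
      obtain ⟨r, hr, rfl⟩ := Finset.mem_image.1 ha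
      rw [Finset.mem_range] at hr
      have hcl : (cc : ℕ) < k := cc.2
      have h1 : (i * k + cc) * R + r < K := by
        have h2 : i * k + cc + 1 ≤ m * k := by
          calc i * k + cc + 1 ≤ i * k + k := by omega
            _ = (i + 1) * k := by ring
            _ ≤ m * k := Nat.mul_le_mul_right _ hi
        calc (i * k + cc) * R + r < (i * k + cc) * R + R := by omega
          _ = (i * k + cc + 1) * R := by ring
          _ ≤ m * k * R := Nat.mul_le_mul_right _ h2
          _ = K := by rw [hK, Nat.mul_assoc]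
      have h3 : ((i * k + cc) * R + r) / R = i * k + cc := by
        rw [Nat.mul_comm, Nat.mul_add_div hR, Nat.div_eq_of_lt hr, Nat.add_zero]
      have h4 : (i * k + (cc : ℕ)) % k = cc := by
        rw [Nat.mul_comm, Nat.mul_add_mod, Nat.mod_eq_of_lt hcl]
      have h5 : ((i * k + cc) * R + r) / (k * R) = i := by
        rw [Nat.mul_comm k R, ← Nat.div_div_eq_div_mul, h3, Nat.mul_comm i k,
          Nat.mul_add_div hk, Nat.div_eq_of_lt hcl, Nat.add_zero]
      have h6 : ctx (2 ^ ((i * k + cc) * R + r) * X) = some (i, cc) := by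
        rw [hctxv _ h1 hk]
        congr 1
        refine Prod.ext h5 (Fin.ext ?_)
        show ((i * k + (cc : ℕ)) * R + r) / R % k = cc
        rw [h3, h4]
      exact ⟨h1, hcc _ h6⟩

theorem exists_params (W : ℕ) [Finite α] :
    ∃ (n c P : ℕ) (Sw : Set (List α)), 0 < n ∧ 0 < P ∧ Walls (Wo n Sw) n W ∧ PerOff n c P Sw := by
  obtain ⟨n, c, P, S, hn, hP, hS, hsep, hper⟩ :=
    Crest.Agent.R320.Mk263.marker (α := α) (W + 1) (by omega)
  refine ⟨n, c, P, S, hn, hP, ⟨fun P Q h => wo_append P Q h, ?_⟩, hper⟩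
  intro Q d hQ hd hdW hT
  obtain ⟨h1, h2⟩ := hQ
  obtain ⟨h3, h4⟩ := hT
  have hl : (Q.take (Q.length - d)).length = Q.length - d := by rw [List.length_take]; omega
  rw [hl] at h3 h4
  rw [List.drop_take] at h4
  have e2 : Q.length - d - (Q.length - d - n) = n := by omega
  rw [e2] at h4
  have h5 : (Q.drop (Q.length - n)).take n ∈ S := by
    rw [List.take_of_length_le (by rw [List.length_drop]; omega)]
    exact h2
  have := hsep Q (Q.length - d - n) (Q.length - n) (by omega) (by omega) h4 h5
  omega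

end Crest.Agent.R320.Conc_795
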