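import Crest.Agent.R320.Wall_291

/-!
Row 320, helper532: the threshold chain of 132 #12664 (2) in natural numbers on words, measured from `a + p0`,
for the interface of 131 #13123.
-/

set_option autoImplicit false

namespace Crest.Agent.R320.Conc_532

variable {α : Type*}

/-- right looking rule with window `n`. -/
structure Rl (R : List α → Prop) (n : ℕ) : Prop where
  pos : 0 < n
  loc : ∀ Q, R Q ↔ R (Q.take n)
  len : ∀ Q, R Q → n ≤ Q.length

theorem Rl.take_iff {R : List α → Prop} {n : ℕ} (h : Rl R n) (Q : List α) {j : ℕ} (hj : n ≤ j) :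
    R (Q.take j) ↔ R Q := by
  rw [h.loc (Q.take j), h.loc Q, List.take_take, min_eq_left hj]

theorem Rl.win_iff {R : List α → Prop} {n : ℕ} (h : Rl R n) (T : List α) {B s : ℕ}
    (hs : s + n ≤ B) : R ((T.take B).drop s) ↔ R (T.drop s) := by
  rw [List.drop_take]
  exact h.take_iff _ (by omega)

theorem Rl.win_le {R : List α → Prop} {n : ℕ} (h : Rl R n) {T : List α} {B s : ℕ}
    (hs : R ((T.take B).drop s)) : s + n ≤ B := by
  have h1 := h.len _ hs
  have h2 := h.pos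
  rw [List.length_drop, List.length_take] at h1
  omega

theorem Rl.of_win {R : List α → Prop} {n : ℕ} (h : Rl R n) {T : List α} {B s : ℕ}
    (hs : R ((T.take B).drop s)) : R (T.drop s) :=
  (h.win_iff T (h.win_le hs)).1 hs

theorem exists_walls' (α : Type*) [Finite α] (e W : ℕ) :
    ∃ (n G : ℕ) (R : List α → Prop), Rl R n ∧
      (∀ Q d, R Q → 0 < d → d ≤ W → ¬ R (Q.drop d)) ∧
      (∀ Q, Wall_291.RF e W Q → G + n ≤ Q.length → ∃ i < G, R (Q.drop i)) := by
  obtain ⟨n, G, R, h1, h2, h3, h4⟩ := Wall_291.exists_walls α e W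
  refine ⟨n + 1, G, fun Q => R Q ∧ n + 1 ≤ Q.length, ⟨Nat.succ_pos n, ?_, fun Q h => h.2⟩, ?_, ?_⟩
  · intro Q
    constructor
    · rintro ⟨a, b⟩
      refine ⟨?_, by rw [List.length_take]; omega⟩
      rw [h1, List.take_take, min_eq_left (Nat.le_succ n), ← h1]
      exact a
    · rintro ⟨a, b⟩
      refine ⟨?_, by rw [List.length_take] at b; omega⟩
      rw [h1, List.take_take, min_eq_left (Nat.le_succ n), ← h1] at a
      exact a
  · rintro Q d ⟨a, _⟩ h0 hd ⟨b, _⟩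
    exact h3 Q d a h0 hd b
  · intro Q hQ hl
    obtain ⟨i, hi, hR⟩ := h4 Q hQ (by omega)
    exact ⟨i, hi, hR, by rw [List.length_drop]; omega⟩

/-- `s` qualifies as next anchor in the text `T` from `a + p0`. -/
def Qf (Ro : List α → Prop) (th : ℕ → ℕ) (M : ℕ) (T : List α) (s : ℕ) : Prop :=
  Ro (T.drop s) ∧ th (s % M) ≤ s

/-- the next anchor (distance from `a + p0`). -/
noncomputable def NT (Ro : List α → Prop) (th : ℕ → ℕ) (M : ℕ) (T : List α) : ℕ :=
  sInf {s | Qf Ro th M T s}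

/-- right legality with respect to the outer walls. -/
def LegR (Ro : List α → Prop) (th : ℕ → ℕ) (M N1 : ℕ) (r : List α) : Prop :=
  ∀ s, Ro (r.drop s) → ¬ (s < th (s % M) ∧ th (s % M) ≤ s + N1)

variable {Ro : List α → Prop} {th : ℕ → ℕ} {M N1 : ℕ}

theorem NT_mem {T : List α} (h : ∃ s, Qf Ro th M T s) : Qf Ro th M T (NT Ro th M T) :=
  Nat.sInf_mem (s := {s | Qf Ro th M T s}) h

theorem NT_le {T : List α} {s : ℕ} (h : Qf Ro th M T s) : NT Ro th M T ≤ s :=
  Nat.sInf_le (s := {s | Qf Ro th M T s}) h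

theorem NT_eq {T : List α} {s : ℕ} (h : Qf Ro th M T s) (h2 : ∀ t < s, ¬ Qf Ro th M T t) :
    NT Ro th M T = s := by
  apply le_antisymm (NT_le h)
  by_contra hc
  push Not at hc
  exact h2 _ hc (NT_mem ⟨s, h⟩)

theorem Qf_app {P r : List α} {s : ℕ} (hP : M ∣ P.length) (hN : P.length ≤ N1)
    (hr : LegR Ro th M N1 r) : Qf Ro th M (P ++ r) (P.length + s) ↔ Qf Ro th M r s := by
  obtain ⟨k, hk⟩ := hP
  have e1 : (P ++ r).drop (P.length + s) = r.drop s := by
    rw [← List.drop_drop, List.drop_left]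
  have e2 : (P.length + s) % M = s % M := by rw [hk, Nat.mul_add_mod]
  unfold Qf
  rw [e1, e2]
  constructor
  · rintro ⟨a, b⟩
    refine ⟨a, ?_⟩
    by_contra hc
    exact hr s a ⟨by omega, by omega⟩
  · rintro ⟨a, b⟩
    exact ⟨a, by omega⟩

theorem NT_app {P r : List α} (hP : M ∣ P.length) (hN : P.length ≤ N1)
    (hr : LegR Ro th M N1 r) (hth : ∀ ρ, N1 < th ρ) (h : ∃ s, Qf Ro th M r s) :
    NT Ro th M (P ++ r) = P.length + NT Ro th M r := by
  apply NT_eq
  · rw [Qf_app hP hN hr]; exact NT_mem h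
  · intro t ht hq
    rcases lt_or_ge t P.length with h1 | h1
    · have := hq.2
      have := hth (t % M)
      omega
    · obtain ⟨u, rfl⟩ := Nat.exists_eq_add_of_le h1
      rw [Qf_app hP hN hr] at hq
      have := NT_le hq
      omega

theorem Qf_take {n : ℕ} (hR : Rl Ro n) {T : List α} {B s : ℕ} :
    Qf Ro th M (T.take B) s ↔ Qf Ro th M T s ∧ s + n ≤ B := by
  unfold Qf
  constructor
  · rintro ⟨a, b⟩
    exact ⟨⟨hR.of_win a, b⟩, hR.win_le a⟩
  · rintro ⟨⟨a, b⟩, c⟩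
    exact ⟨(hR.win_iff T c).2 a, b⟩

theorem NT_take {n : ℕ} (hR : Rl Ro n) {T : List α} {B s : ℕ} (h : Qf Ro th M T s)
    (hs : s + n ≤ B) : NT Ro th M (T.take B) = NT Ro th M T ∧ NT Ro th M T + n ≤ B := by
  have h1 := NT_le h
  refine ⟨?_, by omega⟩
  apply NT_eq
  · rw [Qf_take hR]
    exact ⟨NT_mem ⟨s, h⟩, by omega⟩
  · intro t ht hq
    rw [Qf_take hR] at hq
    have := NT_le hq.1
    omega

/-- existence of the next anchor on run-free text. -/
theorem exists_Qf {e W n G B0 : ℕ} (hR : Rl Ro n)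
    (hcov : ∀ Q, Wall_291.RF e W Q → G + n ≤ Q.length → ∃ i < G, Ro (Q.drop i))
    (hth : ∀ ρ, th ρ ≤ B0) {T : List α} (hT : Wall_291.RF e W T) (hl : B0 + G + n ≤ T.length) :
    ∃ s, Qf Ro th M T s ∧ s + n < B0 + G + n := by
  obtain ⟨i, hi, h⟩ := hcov (T.drop B0) (hT.drop B0) (by rw [List.length_drop]; omega)
  rw [List.drop_drop] at h
  refine ⟨B0 + i, ⟨h, ?_⟩, by omega⟩
  have := hth ((B0 + i) % M)
  omega

/-- criticality. -/
def EB (Ro : List α → Prop) (th : ℕ → ℕ) (M N1 : ℕ) (T : List α) : Prop :=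
  ∃ s, Ro (T.drop s) ∧ s ≤ th (s % M) + N1 ∧ th (s % M) ≤ s + N1

theorem LegR_of_not_EB {n B B0 : ℕ} (hR : Rl Ro n) {T : List α} {P r : List α} (hT : T = P ++ r)
    (hP : M ∣ P.length) (hN : P.length ≤ N1) (hth : ∀ ρ, th ρ ≤ B0) (hB : B0 + N1 + n ≤ B)
    (hE : ¬ EB Ro th M N1 (T.take B)) : LegR Ro th M N1 r := by
  intro s hs hh
  apply hE
  obtain ⟨k, hk⟩ := hP
  have e2 : (P.length + s) % M = s % M := by rw [hk, Nat.mul_add_mod]
  have h3 := hth (s % M)
  refine ⟨P.length + s, ?_, by rw [e2]; omega, by rw [e2]; omega⟩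
  rw [hR.win_iff T (by omega), hT, ← List.drop_drop, List.drop_left]
  exact hs

end Crest.Agent.R320.Conc_532
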