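import Crest.Agent.R320.ConcH_951

/-!
# Row 320 from the U-gadget (helper951)
-/

set_option autoImplicit false

namespace Crest.Agent.R320.Conc_951

open Crest.RegLang Crest.Agent.R320.Hk_851 Crest.Agent.R320.Blk467
  Crest.Agent.R320.FewWalls_228 Crest.Agent.R320.WallU_228

variable {α : Type} [Finite α]

section heights

variable {V : Type} [Finite V] [AddCommGroup V] {X0 : Set (List α)} {T0 : V → List α → V}
  {L L' : V → Language α}

omit [Finite α] [AddCommGroup V] in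
theorem HL_R1 (hLf : ∀ v, (L v : Set (List α)).Finite)
    (hfib : ∀ x y, HL 1 ({X | X ∈ X0 ∧ T0 x X = y} : Language α)) (b : V) :
    HL 1 (R1 X0 T0 L b) := by
  have h := HL.iInter (k := 1) (ι := V)
    (L := fun x => ({Q | ∀ P ∈ (L x : Set (List α)), Q ∈ ({w | P ++ w ∈
      ({X | X ∈ X0 ∧ T0 x X = b} : Language α)} : Language α)} : Language α))
    (fun x => HL.biInter (hLf x) (fun P _ => (hfib x b).lquot P))
  exact h.congr fun Q => Iff.rfl

omit [Finite α] in
theorem HL_Good (hLf : ∀ v, (L v : Set (List α)).Finite)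
    (hfib : ∀ x y, HL 1 ({X | X ∈ X0 ∧ T0 x X = y} : Language α)) :
    HL 1 (Good X0 T0 L : Language α) := by
  have h := HL.iInter (k := 1) (ι := V)
    (L := fun v => ({X | ∃ b, X ∈ (({X | X ∈ X0 ∧ T0 v X = b} : Language α) ⊓
      (L v * R1 X0 T0 L b) : Language α)} : Language α))
    (fun v => HL.iUnion (k := 1) (ι := V) (fun b => (hfib v b).inf
      ((HL.finite (hLf v)).mul (HL_R1 hLf hfib b))))
  refine h.congr fun X => ?_
  constructor
  · rintro ⟨g1, g2⟩ v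
    obtain ⟨P, Q, e, hP, hQ⟩ := g2 v
    exact ⟨T0 v X, ⟨g1, rfl⟩, Language.mem_mul.2 ⟨P, hP, Q, hQ, e⟩⟩
  · intro g
    obtain ⟨b0, ⟨g1, -⟩, -⟩ := g 0
    refine ⟨g1, fun v => ?_⟩
    obtain ⟨b, ⟨-, g2⟩, g3⟩ := g v
    obtain ⟨P, hP, Q, hQ, e⟩ := Language.mem_mul.1 g3
    exact ⟨P, Q, e, hP, by rw [show T0 v X = b from g2]; exact hQ⟩

omit [Finite α] in
theorem HL_Bad (hX0 : HL 1 (X0 : Language α)) (hLf : ∀ v, (L v : Set (List α)).Finite)
    (hfib : ∀ x y, HL 1 ({X | X ∈ X0 ∧ T0 x X = y} : Language α)) :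
    HL 1 (Bad X0 T0 L : Language α) :=
  (hX0.sdiff (HL_Good hLf hfib)).congr fun _ => Iff.rfl

omit [Finite α] in
theorem HL_Badfib (hX0 : HL 1 (X0 : Language α)) (hLf : ∀ v, (L v : Set (List α)).Finite)
    (hfib : ∀ x y, HL 1 ({X | X ∈ X0 ∧ T0 x X = y} : Language α)) (x y : V) :
    HL 1 ({X | X ∈ Bad X0 T0 L ∧ T0 x X = y} : Language α) :=
  ((HL_Bad hX0 hLf hfib).inf (hfib x y)).congr fun X => by
    constructor
    · rintro ⟨h1, h2⟩
      exact ⟨h1, h1.1, h2⟩
    · rintro ⟨h1, h2, h3⟩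
      exact ⟨h1, h3⟩

/-- bad blocks with a given thread -/
def BF (X0 : Set (List α)) (T0 : V → List α → V) (L : V → Language α) (x y : V) : Language α :=
  {X | X ∈ Bad X0 T0 L ∧ T0 x X = y}

omit [Finite α] in
theorem HL_R2 (hX0 : HL 1 (X0 : Language α)) (hLf : ∀ v, (L v : Set (List α)).Finite)
    (hLf' : ∀ v, (L' v : Set (List α)).Finite)
    (hfib : ∀ x y, HL 1 ({X | X ∈ X0 ∧ T0 x X = y} : Language α)) (b : V) :
    HL 1 (R2 X0 T0 L L' b) := by
  have hA : ∀ x, HL 1 ({w | ∃ y, w ∈ BF X0 T0 L x y * BF X0 T0 L y b} : Language α) := fun x =>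
    HL.iUnion (k := 1) (ι := V) (L := fun y => BF X0 T0 L x y * BF X0 T0 L y b)
      (fun y => HL.mul (L := BF X0 T0 L x y) (M := BF X0 T0 L y b)
        (HL_Badfib hX0 hLf hfib x y) (HL_Badfib hX0 hLf hfib y b))
  have hB : HL 1 ({w | ∃ v ∈ Good X0 T0 L, v <+: w} : Language α) := (HL_Good hLf hfib).prefix
  have h := HL.iInter (k := 1) (ι := V)
    (L := fun x => ({Q | ∀ P ∈ (L' x : Set (List α)), Q ∈ ({w | P ++ w ∈
      ({w | (∃ y, w ∈ BF X0 T0 L x y * BF X0 T0 L y b) ∨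
      (∃ v ∈ Good X0 T0 L, v <+: w)} : Language α)} : Language α)} :
        Language α))
    (fun x => HL.biInter (hLf' x) (fun P _ => (HL.setOf_or (hA x) hB).lquot P))
  refine h.congr fun Q => ?_
  constructor
  · intro g x P hP
    rcases g x P hP with ⟨Y1, h1, Y2, h2, e, h3⟩ | g
    · left
      exact ⟨T0 x Y1, Language.mem_mul.2 ⟨Y1, ⟨h1, rfl⟩, Y2, ⟨h2, h3⟩, e.symm⟩⟩
    · exact Or.inr g
  · intro g x P hP
    rcases g x P hP with ⟨y, g⟩ | g
    · left
      obtain ⟨Y1, ⟨h1, h2⟩, Y2, ⟨h3, h4⟩, e⟩ := Language.mem_mul.1 g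
      exact ⟨Y1, h1, Y2, h3, e.symm, by rw [show T0 x Y1 = y from h2]; exact h4⟩
    · exact Or.inr g

end heights

/-- the U-gadget for `S` acting on `V` -/
def UG (S V : Type) [Monoid S] [AddCommGroup V] (act : V → S → V) : Prop :=
  ∃ C0 : ℕ, ∀ K : ℕ, ∃ (N M0 A T0 : ℕ) (x : ℕ → ℕ) (BadT : ℕ → Prop),
    0 < M0 ∧ (∀ i j, i < j → j < K → x i < x j) ∧
    (∀ a b c d, a < K → b < K → c < K → d < K → a ≠ b → c ≠ d → ¬ (a = c ∧ b = d) →
      2 * (N : ℤ) < |((x b : ℤ) - x a) - ((x d : ℤ) - x c)|) ∧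
    (∀ T, T0 ≤ T → ∀ F : Finset (ℕ × ℕ), (∀ p ∈ F, p.1 < K ∧ p.2 < K ∧ p.1 ≠ p.2 ∧
      BadT (T + x p.2 - x p.1)) → F.card ≤ C0) ∧
    ∀ (α : Type) [Finite α] (φ : α → S), ∃ (lam rho : List α → Option V) (nu1 : List α → V),
      (∀ P v, lam P = some v → P.length ≤ N) ∧
      (∀ P Q v r, lam P = some v → rho Q = some r → r = act v (pr φ (P ++ Q)) + nu1 (P ++ Q)) ∧
      (∀ u : List α, 2 * N ≤ u.length → ¬ BadT u.length → ∀ v, ∃ P Q, P ++ Q = u ∧
        lam P = some v ∧ (rho Q).isSome) ∧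
      (∀ u u' : List α, A ≤ u.length → A ≤ u'.length → u.take A = u'.take A →
        u.length % M0 = u'.length % M0 → pr φ u = pr φ u' → nu1 u = nu1 u')

/-- **row 320 for one monoid from the U-gadget** -/
theorem main_of_ug {S V : Type} [Monoid S] [Finite S] [AddCommGroup V] [Finite V] (φ : α → S)
    (act : V → S → V)
    (hadd : ∀ a b s, act (a + b) s = act a s + act b s)
    (hone : ∀ v, act v 1 = v) (hmul : ∀ v s t, act v (s * t) = act (act v s) t)
    (hfaith : ∀ s t, (∀ v, act v s = act v t) → s = t) (hUG : UG S V act) (s : S) :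
    HL 3 ({w | (w.map φ).prod = s} : Language α) := by
  classical
  haveI := Fintype.ofFinite S
  haveI := Fintype.ofFinite V
  obtain ⟨C0, hK⟩ := hUG
  obtain ⟨K, hexact⟩ := Crest.Agent.R320.ExactR_237.exact_gadget α S V φ act (2 + 3 * C0)
  obtain ⟨N, M0, A, T0, x, BadT, hM0, hmono, hrul, hsp, hα⟩ := hK K
  obtain ⟨lam, rho, nu1, hUN, hUs, hUc, hnu⟩ := hα α φ
  obtain ⟨lam2, rho2, nu2', hEs', hEc'⟩ := hexact x hmono
  -- `p0`
  obtain ⟨p0, hp0⟩ : ∃ p0, ∀ a < K, x a ≤ p0 :=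
    ⟨∑ i ∈ Finset.range K, x i, fun a ha =>
      Finset.single_le_sum (f := x) (fun _ _ => Nat.zero_le _) (Finset.mem_range.2 ha)⟩
  obtain ⟨n, c, Pp, Sw, hn, hPp, hloc, hgapW, -, -, hfew⟩ :=
    walls_full (α := α) (2 * (p0 + N) + 1)
  let z : ℕ := 3 * p0 + 2 * N + n + T0 + A
  let nu2 : List α → V := fun u => nu2' u 1
  let Wo' : List α → Prop := Wo n Sw
  let LL : V → Language α := L1 φ act nu2 p0 N lam
  let LL2 : V → Language α := L2 K x lam2
  let TT : V → List α → V := T φ act nu1 nu2 p0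
  have hz0 : 0 < z := by show 0 < 3 * p0 + 2 * N + n + T0 + A; omega
  have hfin1 : ∀ v, (LL v : Set (List α)).Finite := fun v =>
    (List.finite_length_le α (p0 + N)).subset fun P hP => hP.2.1
  have hfin2 : ∀ v, (LL2 v : Set (List α)).Finite := fun v =>
    (List.finite_length_le α p0).subset fun P hP => by
      obtain ⟨k, hk, h1, _⟩ := hP
      show P.length ≤ p0
      rw [h1]
      exact hp0 k hk
  have hfib : ∀ x' y, HL 1 ({X | X ∈ XX Wo' z ∧ TT x' X = y} : Language α) := fun x' y =>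
    HL_fib φ act nu1 nu2 p0 hadd hmul hM0 (by show p0 + A ≤ 3 * p0 + 2 * N + n + T0 + A; omega)
      hfew hnu x' y
  have hX0 : HL 1 (XX Wo' z : Language α) := HL_XX 1 n z Sw
  have hPC : PCode (XX Wo' z) := XX_pcode hz0
  refine Crest.Agent.R320.Top5_467.top5 φ act hadd hone hmul hfaith (nu φ act nu1 nu2 p0) (XX Wo' z)
    (Bad (XX Wo' z) TT LL) hPC (fun X hX => hX.1) LL (R1 (XX Wo' z) TT LL) LL2
    (R2 (XX Wo' z) TT LL LL2) ?_ ?_ ?_ ?_ (HL_Bad hX0 hfin1 hfib)
    (fun v => HL.finite (hfin2 v)) (fun v => HL_R2 hX0 hfin1 hfin2 hfib v)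
    (fun v => HL.finite (hfin1 v)) (fun v => (HL_R1 hfin1 hfib v).mono (by norm_num))
    (fun v v' => (HL_Badfib hX0 hfin1 hfib v v').mono (by norm_num))
    (fun s => (HL_tail φ hfew s).mono (by norm_num)) s
  · -- s1
    intro v b P Q hP hQ
    exact hQ v P hP
  · -- c1
    intro X hX hb v
    have hg : X ∈ Good (XX Wo' z) TT LL := by
      by_contra hc
      exact hb ⟨hX, hc⟩
    exact hg.2 v
  · -- s2
    rintro v b P Q r hP hQ ⟨l, hl, he⟩
    rcases hQ v P hP with ⟨Y1, h1, Y2, h2, e, h3⟩ | ⟨X, hX, hXp⟩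
    · rw [e]
      exact Lg.append (Lg.single h1 v) (by rw [← h3]; exact Lg.single h2 _)
    · exfalso
      have hpre : X <+: l.flatten := by
        rw [he]
        exact hXp.trans (List.prefix_append _ _)
      cases l with
      | nil =>
        rw [List.flatten_nil, List.prefix_nil] at hpre
        exact hPC.1 (hpre ▸ hX.1)
      | cons Y l =>
        rw [List.flatten_cons] at hpre
        have hY := hl Y (by simp)
        rcases List.prefix_or_prefix_of_prefix hpre (List.prefix_append Y l.flatten) with h | h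
        · have := hPC.2 X hX.1 Y hY.1 h
          exact hY.2 (this ▸ hX)
        · have := hPC.2 Y hY.1 X hX.1 h
          exact hY.2 (this ▸ hX)
  · -- c2
    intro X hX X' hX' v
    exact compl2 (W := 2 * (p0 + N) + 1) (T0 := T0) (C0 := C0) (K := K) (x := x)
      (lam2 := lam2) (rho2 := fun k Q => rho2 k Q 1) (BadT := BadT) (rho := rho)
      φ act nu1 nu2 p0 hadd hmul hloc hgapW
      (by show 3 * p0 + 2 * N + n + T0 ≤ 3 * p0 + 2 * N + n + T0 + A; omega) (by omega) hp0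
      hUN hUs hUc hrul hsp
      (fun k hk P Q v b h1 h2 h3 => by
        have := hEs' k hk P Q 1 v b h1 h2 h3
        rw [mul_one] at this
        exact this)
      (fun u v hu => hEc' u 1 v hu) X hX X' hX' v

/-- all regular languages, `Type` -/
theorem row_of_ug (h : ∀ (S : Type) [Monoid S] [Finite S] (act : (S → ZMod 2) → S → (S → ZMod 2)),
      (∀ a b s, act (a + b) s = act a s + act b s) → UG S (S → ZMod 2) act)
    (L : Language α) (hL : L.IsRegular) : HL 3 L := by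
  refine of_monoid (fun S _ _ φ s => ?_) L hL
  obtain ⟨act, h1, h2, h3, h4⟩ := exists_module S
  exact main_of_ug φ act h1 h2 h3 h4 (h S act h1) s

end Crest.Agent.R320.Conc_951
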