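import Crest.Agent.R320.Conc_67
import Crest.Agent.R320.Reg_819
import Crest.Agent.R320.WallU_228

/-!
Row 320 (helper67): the `HL 1` facts H1-H4 of `Top5_110.top_sem` for the natural block code.
-/

set_option autoImplicit false

namespace Crest.Agent.R320.Conc_67

open Crest.Agent.R320.Hk_851 Crest.Agent.R320.Code110 Crest.Agent.R320.ExactR_237
open Crest.Agent.R320.Reg_819

variable {α : Type} [Finite α] {n z N1 p0 : ℕ} {Wo : List α → Prop} {BadT : ℕ → Prop}

theorem HL_wo (hloc : ∀ P Q : List α, n ≤ Q.length → (Wo (P ++ Q) ↔ Wo Q))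
    (hlen : ∀ P, Wo P → n ≤ P.length) : HL 0 ({w | Wo w} : Language α) := by
  have hf : ({w | w.length = n ∧ Wo w} : Set (List α)).Finite :=
    (List.finite_length_eq α n).subset fun w h => h.1
  refine (HL.mul (k := 0) (HL.top) (HL.finite hf)).congr fun w => ?_
  constructor
  · intro h
    have h1 := hlen w h
    refine Language.mem_mul.2
      ⟨w.take (w.length - n), trivial, w.drop (w.length - n), ?_, List.take_append_drop _ _⟩
    have h2 : (w.drop (w.length - n)).length = n := by rw [List.length_drop]; omega
    refine ⟨h2, ?_⟩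
    have h' : Wo w := h
    rw [← List.take_append_drop (w.length - n) w] at h'
    exact (hloc _ _ h2.ge).1 h'
  · intro h
    obtain ⟨a, -, b, ⟨hb1, hb2⟩, rfl⟩ := Language.mem_mul.1 h
    exact (hloc a b hb1.ge).2 hb2

theorem HL_XX (hloc : ∀ P Q : List α, n ≤ Q.length → (Wo (P ++ Q) ↔ Wo Q))
    (hlen : ∀ P, Wo P → n ≤ P.length) : HL 0 (XX Wo z) := by
  have h1 : HL 0 ({w : List α | z ≤ w.length ∧ Wo w} : Language α) :=
    HL.setOf_and (HL.length_ge z) (HL_wo hloc hlen)
  have h2 : HL 0 ({w : List α | 1 ≤ w.length} : Language α) := HL.length_ge 1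
  refine (h1.inf (h1.mul h2).compl).congr fun w => ?_
  constructor
  · rintro ⟨a1, a2, a3⟩
    refine ⟨⟨a1, a2⟩, ?_⟩
    intro hm
    obtain ⟨a, ⟨ha1, ha2⟩, b, hb, rfl⟩ := Language.mem_mul.1 hm
    have hb' : 1 ≤ b.length := hb
    refine a3 a.length ha1 (by rw [List.length_append]; omega) ?_
    rw [List.take_left]
    exact ha2
  · rintro ⟨⟨a1, a2⟩, a3⟩
    refine ⟨a1, a2, ?_⟩
    intro t ht1 ht2 ht3
    refine a3 (Language.mem_mul.2 ⟨w.take t, ⟨?_, ht3⟩, w.drop t, ?_, List.take_append_drop _ _⟩)
    · show z ≤ (w.take t).length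
      rw [List.length_take]; omega
    · show 1 ≤ (w.drop t).length
      rw [List.length_drop]; omega

/-- no block is a prefix -/
theorem HL_NP (hloc : ∀ P Q : List α, n ≤ Q.length → (Wo (P ++ Q) ↔ Wo Q))
    (hlen : ∀ P, Wo P → n ≤ P.length) :
    HL 0 ({w | ∀ u ∈ XX Wo z, ¬ u <+: w} : Language α) := by
  refine (HL.prefix (HL_XX (z := z) hloc hlen)).compl.congr fun w => ?_
  constructor
  · rintro h ⟨v, hv, hvw⟩
    exact h v hv hvw
  · intro h u hu huw
    exact h ⟨u, hu, huw⟩

theorem reg_pr {S : Type} [Monoid S] [Finite S] (f : α → S) (s : S) :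
    Language.IsRegular ({w | pr f w = s} : Language α) := by
  classical
  haveI := Fintype.ofFinite S
  have key : ∀ (w : List α) (m : S), w.foldl (fun (m : S) b => m * f b) m = m * pr f w := by
    intro w
    induction w with
    | nil => intro m; simp [pr]
    | cons a w ih => intro m; rw [List.foldl_cons, ih]; simp [pr, mul_assoc]
  refine ⟨S, inferInstance, ⟨fun m b => m * f b, 1, {s}⟩, ?_⟩
  ext w
  show List.foldl (fun (m : S) b => m * f b) 1 w ∈ ({s} : Set S) ↔ _
  rw [key, one_mul]
  rfl

/-- eventually periodic length condition -/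
theorem reg_len (B : ℕ → Prop) (T0 M : ℕ) (hM : 0 < M) (hB : ∀ T, T0 ≤ T → (B (T + M) ↔ B T)) :
    Language.IsRegular ({w | B w.length} : Language α) := by
  classical
  -- quotients
  refine .of_finite_range_leftQuotient ?_
  refine (Set.finite_range (fun i : Fin (T0 + M) => ({w | B (i.1 + w.length)} : Language α))).subset ?_
  rintro _ ⟨u, rfl⟩
  -- reduce the length of `u`
  have hper : ∀ k a, T0 ≤ a → (B (a + k * M) ↔ B a) := by
    intro k
    induction k with
    | zero => intro a _; simp
    | succ k ih =>
      intro a ha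
      rw [show a + (k + 1) * M = (a + k * M) + M by ring, hB _ (by omega), ih a ha]
  by_cases hu : u.length < T0
  · refine ⟨⟨u.length, by omega⟩, ?_⟩
    ext w
    show B (u.length + w.length) ↔ B ((u ++ w).length)
    rw [List.length_append]
  · have hmod := Nat.div_add_mod (u.length - T0) M
    have hlt := Nat.mod_lt (u.length - T0) hM
    refine ⟨⟨T0 + (u.length - T0) % M, by omega⟩, ?_⟩
    ext w
    show B (T0 + (u.length - T0) % M + w.length) ↔ B ((u ++ w).length)
    rw [List.length_append]
    have e : u.length + w.length = (T0 + (u.length - T0) % M + w.length) +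
        ((u.length - T0) / M) * M := by
      have : M * ((u.length - T0) / M) = ((u.length - T0) / M) * M := by ring
      omega
    rw [e, hper _ _ (by omega)]

/-- union of translates -/
def UnS (L : List α → Language α) (s : Set (List α)) : Language α :=
  {X | ∃ A ∈ s, X ∈ ({A} : Language α) * L A}

omit [Finite α] in
theorem reg_UnS (L : List α → Language α) (hL : ∀ A, (L A).IsRegular) (s : Set (List α))
    (hs : s.Finite) : (UnS L s).IsRegular := by
  induction s, hs using Set.Finite.induction_on with
  | empty =>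
    have : UnS L (∅ : Set (List α)) = 0 := by
      ext w
      constructor
      · rintro ⟨A, hA, -⟩; exact hA.elim
      · intro h; exact h.elim
    rw [this]
    exact reg_zero
  | @insert A s _ _ ih =>
    have : UnS L (insert A s) = (({A} : Language α) * L A) + UnS L s := by
      ext w
      constructor
      · rintro ⟨A', hA', hw⟩
        rcases hA' with rfl | hA'
        · exact Or.inl hw
        · exact Or.inr ⟨A', hA', hw⟩
      · rintro (hw | ⟨A', hA', hw⟩)
        · exact ⟨A, Or.inl rfl, hw⟩
        · exact ⟨A', Or.inr hA', hw⟩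
    rw [this]
    exact (reg_mul (HL.regular (HL.word (k := 0) A)) (hL A)).add ih

/-- left translation by words of length `p0` -/
theorem reg_shift (p0 : ℕ) (L : List α → Language α) (hL : ∀ A, (L A).IsRegular) :
    Language.IsRegular ({X | p0 ≤ X.length ∧ X.drop p0 ∈ L (X.take p0)} : Language α) := by
  have hfin : ({A | A.length = p0} : Set (List α)).Finite := List.finite_length_eq α p0
  have h := reg_UnS L hL _ hfin
  have e : ({X | p0 ≤ X.length ∧ X.drop p0 ∈ L (X.take p0)} : Language α) =
      UnS L {A | A.length = p0} := by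
    ext w
    constructor
    · rintro ⟨h1, h2⟩
      exact ⟨w.take p0, by show (w.take p0).length = p0; rw [List.length_take]; omega,
        Language.mem_mul.2 ⟨w.take p0, rfl, w.drop p0, h2, List.take_append_drop _ _⟩⟩
    · rintro ⟨A, hA, hw⟩
      obtain ⟨a, ha, b, hb, rfl⟩ := Language.mem_mul.1 hw
      have ha' : a = A := ha
      subst ha'
      have hA' : a.length = p0 := hA
      refine ⟨by rw [List.length_append]; omega, ?_⟩
      rw [← hA', List.drop_left, List.take_left]
      exact hb
  rw [e]
  exact h

end Crest.Agent.R320.Conc_67
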