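import Crest.Agent.R320.Conc2_951

/-!
# Row 320: heights of all languages of the concrete side (helper951)
-/

set_option autoImplicit false

namespace Crest.Agent.R320.Conc_951

open Crest.RegLang Crest.Agent.R320.Hk_851 Crest.Agent.R320.Blk467
  Crest.Agent.R320.FewWalls_228 Crest.Agent.R320.WallU_228

variable {α : Type} [Finite α]

/-- finite-state languages: first `B` letters, and the product of the rest in a finite monoid -/
theorem reg_key {M : Type} [Monoid M] [Finite M] (ψ : α → M) (B : ℕ) (F : List α → M → Prop) :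
    Language.IsRegular ({X | B ≤ X.length ∧ F (X.take B) ((X.drop B).map ψ).prod} :
      Language α) := by
  classical
  set L : Language α := {X | B ≤ X.length ∧ F (X.take B) ((X.drop B).map ψ).prod} with hL
  have hfin : ({w : List α | w.length ≤ B} : Set (List α)).Finite := List.finite_length_le α B
  refine Crest.Agent.R320.Reg_852.isRegular_of_forall_mem
    (T := (fun w => L.leftQuotient w) '' {w : List α | w.length ≤ B} ∪
      (fun p : List α × M => ({x | F p.1 (p.2 * (x.map ψ).prod)} : Language α)) ''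
        ({w : List α | w.length ≤ B} ×ˢ (Set.univ : Set M)))
    ((hfin.image _).union ((hfin.prod Set.finite_univ).image _)) ?_
  intro w
  by_cases hw : w.length ≤ B
  · exact Or.inl ⟨w, hw, rfl⟩
  · refine Or.inr ⟨(w.take B, ((w.drop B).map ψ).prod), ⟨?_, Set.mem_univ _⟩, ?_⟩
    · show (w.take B).length ≤ B
      rw [List.length_take]; omega
    · ext x
      rw [Language.mem_leftQuotient]
      show F (w.take B) (((w.drop B).map ψ).prod * (x.map ψ).prod) ↔
        (B ≤ (w ++ x).length ∧ F ((w ++ x).take B) (((w ++ x).drop B).map ψ).prod)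
      rw [List.take_append_of_le_length (by omega), List.drop_append_of_le_length (by omega),
        List.map_append, List.prod_append, List.length_append]
      constructor
      · intro h; exact ⟨by omega, h⟩
      · intro h; exact h.2

theorem HL_len_ge (k m : ℕ) : HL k ({X | m ≤ X.length} : Language α) := by
  have : HL k ({X | X.length ≤ m} : Language α) := HL.finite (List.finite_length_le α m)
  have h2 : HL k ({X | X.length < m} : Language α) :=
    HL.finite ((List.finite_length_le α m).subset fun X hX => Nat.le_of_lt hX)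
  exact h2.compl.congr fun X => by
    show m ≤ X.length ↔ ¬ (X.length < m)
    omega

theorem HL_wo (k n : ℕ) (Sw : Set (List α)) : HL k ({X | Wo n Sw X} : Language α) := by
  have h1 : HL k ({v | v ∈ Sw ∧ v.length = n} : Language α) :=
    HL.finite ((List.finite_length_le α n).subset fun X hX => le_of_eq hX.2)
  refine (HL.mul (HL.top (k := k) (α := α)) h1).congr fun X => ?_
  constructor
  · rintro ⟨h1, h2⟩
    exact Language.mem_mul.2 ⟨X.take (X.length - n), trivial, X.drop (X.length - n),
      ⟨h2, by rw [List.length_drop]; omega⟩, List.take_append_drop _ _⟩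
  · intro h
    obtain ⟨u, _, v, ⟨hv, hl⟩, rfl⟩ := Language.mem_mul.1 h
    refine ⟨by rw [List.length_append]; omega, ?_⟩
    have : (u ++ v).length - n = u.length := by rw [List.length_append]; omega
    rw [this, List.drop_left]
    exact hv

/-- the blocks are star-free -/
theorem HL_XX (k n z : ℕ) (Sw : Set (List α)) :
    HL k (XX (Wo n Sw) z : Language α) := by
  have h1 := HL_len_ge (α := α) k z
  have h2 := HL_wo (α := α) k n Sw
  have h3 : HL k ({X | 1 ≤ X.length} : Language α) := HL_len_ge k 1
  have h4 := ((h1.setOf_and h2).mul h3).compl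
  refine (h1.setOf_and (h2.setOf_and h4)).congr fun X => ?_
  constructor
  · rintro ⟨g1, g2, g3⟩
    refine ⟨g1, g2, fun hm => ?_⟩
    obtain ⟨u, ⟨hu1, hu2⟩, v, hv, rfl⟩ := Language.mem_mul.1 hm
    have hv' : 1 ≤ v.length := hv
    have := g3 u.length hu1 (by rw [List.length_append]; omega)
    rw [List.take_left] at this
    exact this hu2
  · rintro ⟨g1, g2, g3⟩
    refine ⟨g1, g2, fun t ht htX hw => g3 ?_⟩
    refine Language.mem_mul.2 ⟨X.take t, ⟨?_, hw⟩, X.drop t, ?_, List.take_append_drop _ _⟩
    · show z ≤ (X.take t).length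
      rw [List.length_take]; omega
    · show 1 ≤ (X.drop t).length
      rw [List.length_drop]; omega

omit [Finite α] in
/-- walls only at places `< z` or at the end: at most `z + 1` -/
theorem nw_le {n z : ℕ} {Sw : Set (List α)} (u : List α)
    (hu : ∀ t, z ≤ t → t < u.length → ¬ Wo n Sw (u.take t)) : nw n Sw u ≤ z + 1 := by
  classical
  unfold nw
  have hsub : (Finset.range (u.length + 1)).filter (fun x => Wl n Sw u x) ⊆
      Finset.range z ∪ {u.length - n} := by
    intro x hx
    obtain ⟨h1, h2⟩ := Finset.mem_filter.1 hx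
    obtain ⟨h3, h4⟩ := wo_take.1 h2
    rw [Finset.mem_union, Finset.mem_range, Finset.mem_singleton]
    by_contra hc
    push Not at hc
    exact hu (x + n) (by omega) (by omega) h4
  refine (Finset.card_le_card hsub).trans ((Finset.card_union_le _ _).trans ?_)
  rw [Finset.card_range, Finset.card_singleton]

/-- a regular language with at most `z + 1` walls per word has height one -/
theorem HL_reg {n z : ℕ} {Sw : Set (List α)}
    (hfew : ∀ (L : Language α), L.IsRegular → ∀ r, HL 1 ({w | w ∈ L ∧ nw n Sw w ≤ r} :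
      Language α)) (L : Language α) (hL : L.IsRegular)
    (h : ∀ w ∈ L, ∀ t, z ≤ t → t < w.length → ¬ Wo n Sw (w.take t)) : HL 1 L :=
  (hfew L hL (z + 1)).congr fun w => by
    constructor
    · intro hw
      exact ⟨hw, nw_le w (h w hw)⟩
    · intro hw
      exact hw.1

/-- the tail: words without a block -/
theorem HL_tail {S : Type} [Monoid S] [Finite S] (φ : α → S) {n z : ℕ} {Sw : Set (List α)}
    (hfew : ∀ (L : Language α), L.IsRegular → ∀ r, HL 1 ({w | w ∈ L ∧ nw n Sw w ≤ r} :
      Language α)) (s : S) :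
    HL 1 ({w | (∀ X ∈ XX (Wo n Sw) z, ¬ X <+: w) ∧ (w.map φ).prod = s} : Language α) := by
  have h1 : HL 0 ({w | ∃ v ∈ XX (Wo n Sw) z, v <+: w} : Language α) :=
    (HL_XX (α := α) 0 n z Sw).prefix
  have h2 := Crest.Agent.R320.Reg_852.HL.isRegular h1.compl
  have h3 := Crest.Agent.R320.Reg_852.isRegular_prod φ s
  have h4 := h2.inf h3
  have h5 : HL 1 ((({w | ∃ v ∈ XX (Wo n Sw) z, v <+: w} : Language α)ᶜ ⊓
      ({w | (w.map φ).prod = s} : Language α)) : Language α) := by
    refine HL_reg (z := z) hfew _ h4 ?_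
    rintro w ⟨hw, -⟩ t ht htw hwo
    -- the first wall at a place `≥ z`
    classical
    have hex : ∃ t, z ≤ t ∧ t ≤ w.length ∧ Wo n Sw (w.take t) := ⟨t, ht, htw.le, hwo⟩
    obtain ⟨g1, g2, g3⟩ := Nat.find_spec hex
    refine hw ⟨w.take (Nat.find hex), ⟨?_, g3, ?_⟩, List.take_prefix _ _⟩
    · rw [List.length_take]; omega
    · intro t' h6 h7 h8
      rw [List.length_take] at h7
      rw [List.take_take, min_eq_left (by omega)] at h8
      exact Nat.find_min hex (m := t') (by omega) ⟨h6, by omega, h8⟩
  refine h5.congr fun w => ?_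
  constructor
  · rintro ⟨g1, g2⟩
    exact ⟨fun ⟨v, hv, hp⟩ => g1 v hv hp, g2⟩
  · rintro ⟨g1, g2⟩
    exact ⟨fun v hv hp => g1 ⟨v, hv, hp⟩, g2⟩

/-- the fibres of the zone map on blocks -/
theorem HL_fib {S V : Type} [Monoid S] [Finite S] [AddCommGroup V] (φ : α → S) (act : V → S → V)
    (nu1 nu2 : List α → V) (p0 : ℕ)
    (hadd : ∀ a b s, act (a + b) s = act a s + act b s)
    (hmul : ∀ v s t, act v (s * t) = act (act v s) t)
    {n z A M0 : ℕ} {Sw : Set (List α)} (hM0 : 0 < M0) (hzA : p0 + A ≤ z)
    (hfew : ∀ (L : Language α), L.IsRegular → ∀ r, HL 1 ({w | w ∈ L ∧ nw n Sw w ≤ r} :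
      Language α))
    (hnu : ∀ u u' : List α, A ≤ u.length → A ≤ u'.length → u.take A = u'.take A →
      u.length % M0 = u'.length % M0 → pr φ u = pr φ u' → nu1 u = nu1 u') (x y : V) :
    HL 1 ({X | X ∈ XX (Wo n Sw) z ∧ T φ act nu1 nu2 p0 x X = y} : Language α) := by
  classical
  haveI : NeZero M0 := ⟨hM0.ne'⟩
  let M := S × Multiplicative (ZMod M0)
  let ψ : α → M := fun a => (φ a, Multiplicative.ofAdd 1)
  have hψ : ∀ w : List α, (w.map ψ).prod = ((w.map φ).prod,
      Multiplicative.ofAdd (w.length : ZMod M0)) := by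
    intro w
    induction w with
    | nil => simp; rfl
    | cons a w ih =>
      rw [List.map_cons, List.prod_cons, ih, List.map_cons, List.prod_cons]
      refine Prod.ext rfl ?_
      show Multiplicative.ofAdd (1 : ZMod M0) * Multiplicative.ofAdd (w.length : ZMod M0) =
        Multiplicative.ofAdd (((a :: w).length : ℕ) : ZMod M0)
      rw [← ofAdd_add, List.length_cons, Nat.cast_succ, add_comm]
  let L : Language α := {X | p0 + A ≤ X.length ∧ ∃ X1 : List α, p0 + A ≤ X1.length ∧
    X1.take (p0 + A) = X.take (p0 + A) ∧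
    ((X1.drop (p0 + A)).map ψ).prod = ((X.drop (p0 + A)).map ψ).prod ∧
    T φ act nu1 nu2 p0 x X1 = y}
  have hLreg : L.IsRegular := reg_key ψ (p0 + A) (fun h m => ∃ X1 : List α, p0 + A ≤ X1.length ∧
    X1.take (p0 + A) = h ∧ ((X1.drop (p0 + A)).map ψ).prod = m ∧ T φ act nu1 nu2 p0 x X1 = y)
  have hX := Crest.Agent.R320.Reg_852.HL.isRegular (HL_XX (α := α) 0 n z Sw)
  have h5 := hX.inf hLreg
  have h6 : HL 1 ((XX (Wo n Sw) z : Language α) ⊓ L : Language α) :=
    HL_reg (z := z) hfew _ h5 (fun w hw t ht htw => hw.1.2.2 t ht htw)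
  refine h6.congr fun X => ?_
  constructor
  · rintro ⟨g1, g2⟩
    have : z ≤ X.length := g1.1
    exact ⟨g1, by omega, X, by omega, rfl, rfl, g2⟩
  · rintro ⟨g1, g2, X1, k1, k2, k3, k4⟩
    refine ⟨g1, ?_⟩
    rw [← k4, T_eq φ act nu1 nu2 p0 hadd hmul, T_eq φ act nu1 nu2 p0 hadd hmul]
    rw [hψ, hψ] at k3
    have k5 : pr φ (X1.drop (p0 + A)) = pr φ (X.drop (p0 + A)) := congrArg Prod.fst k3
    have k6 : ((X1.drop (p0 + A)).length : ZMod M0) = ((X.drop (p0 + A)).length : ZMod M0) :=
      Multiplicative.ofAdd.injective (congrArg Prod.snd k3)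
    rw [ZMod.natCast_eq_natCast_iff'] at k6
    have e0 : X1.take p0 = X.take p0 := by
      have := congrArg (List.take p0) k2
      rwa [List.take_take, List.take_take, min_eq_left (by omega)] at this
    have e1 : (X1.drop p0).take A = (X.drop p0).take A := by
      have := congrArg (List.drop p0) k2
      rw [List.drop_take, List.drop_take] at this
      have e : p0 + A - p0 = A := by omega
      rwa [e] at this
    have e2 : ∀ Y : List α, p0 + A ≤ Y.length → Y.drop p0 = (Y.drop p0).take A ++ Y.drop (p0 + A) := by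
      intro Y hY
      rw [← List.drop_drop, List.take_append_drop]
    have e3 : pr φ (X1.drop p0) = pr φ (X.drop p0) := by
      rw [e2 X1 k1, e2 X g2, pr_append, pr_append, e1, k5]
    have e4 : nu1 (X1.drop p0) = nu1 (X.drop p0) := by
      refine hnu _ _ (by rw [List.length_drop]; omega) (by rw [List.length_drop]; omega) e1 ?_ e3
      rw [e2 X1 k1, e2 X g2, List.length_append, List.length_append, e1, Nat.add_mod, k6,
        ← Nat.add_mod]
    rw [e0, e3, e4]

end Crest.Agent.R320.Conc_951
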