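import Crest.Agent.R320.Top5_110
import Crest.Agent.R320.Zone2_594

/-!
Row 320 (helper67): the concrete side of `Top5_110.top_sem` for the natural block code of
left-looking walls on ALL words: completeness of scheme 1 (any gadget `lam rho nu1` on words) and of
scheme 2 (594's promise scheme on the first `p0` letters).
-/

set_option autoImplicit false

namespace Crest.Agent.R320.Conc_67

open Crest.Agent.R320.Code110 Crest.Agent.R320.Zone2_594 Crest.Agent.R320.ExactR_237

variable {α : Type} {S V : Type} [Monoid S] [AddCommGroup V]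

/-- blocks: cut at the first wall at a place `≥ z` -/
def XX (Wo : List α → Prop) (z : ℕ) : Language α :=
  {X | z ≤ X.length ∧ Wo X ∧ ∀ t, z ≤ t → t < X.length → ¬ Wo (X.take t)}

/-- zone map -/
def ZM (φ : List α → S) (act : V → S → V) (p0 : ℕ) (nu1 nu2 : List α → V) (X : List α) (v : V) : V :=
  act (act v (φ (X.take p0)) + nu2 (X.take p0)) (φ (X.drop p0)) + nu1 (X.drop p0)

/-- bad blocks: a wall in the band, or a bad total -/
def BadL (Wo : List α → Prop) (z N1 p0 : ℕ) (BadT : ℕ → Prop) : Language α :=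
  {X | X ∈ XX Wo z ∧ ((∃ t, t ≤ X.length ∧ z ≤ t + N1 ∧ t < z + N1 ∧ Wo (X.take t)) ∨
    BadT (X.length - p0))}

/-- bad block from an anchor at distance `j` before the word -/
def BadAt (Wo : List α → Prop) (z N1 p0 : ℕ) (BadT : ℕ → Prop) (j : ℕ) (Q : List α) : Prop :=
  ∃ y, y ≤ Q.length ∧ z ≤ j + y ∧ Wo (Q.take y) ∧
    (∀ y', y' < y → z ≤ j + y' → ¬ Wo (Q.take y')) ∧
    ((∃ t, t ≤ y ∧ z ≤ j + t + N1 ∧ j + t < z + N1 ∧ Wo (Q.take t)) ∨ BadT (j + y - p0))

section basics

variable {Wo : List α → Prop} {n z N1 p0 : ℕ} {BadT : ℕ → Prop}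

theorem wo_take (hloc : ∀ P Q : List α, n ≤ Q.length → (Wo (P ++ Q) ↔ Wo Q)) (P Q : List α)
    (s : ℕ) (h1 : P.length + n ≤ s) (h2 : s ≤ P.length + Q.length) :
    Wo ((P ++ Q).take s) ↔ Wo (Q.take (s - P.length)) := by
  rw [List.take_append, List.take_of_length_le (by omega)]
  exact hloc _ _ (by rw [List.length_take]; omega)

theorem XX_PC (hz : 0 < z) : PC (XX Wo z) where
  ne := by
    rintro ⟨h, -⟩
    simp at h
    omega
  pf := by
    rintro u ⟨hu1, hu2, hu3⟩ v ⟨hv1, hv2, hv3⟩ h
    rcases Nat.lt_or_ge u.length v.length with h1 | h1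
    · exfalso
      have e : v.take u.length = u := (List.prefix_iff_eq_take.1 h).symm
      exact hv3 u.length hu1 h1 (by rw [e]; exact hu2)
    · exact List.IsPrefix.eq_of_length_le h h1

theorem XX_replace (hloc : ∀ P Q : List α, n ≤ Q.length → (Wo (P ++ Q) ↔ Wo Q))
    {A A' Y : List α} (hA : A.length = A'.length) (hz : A.length + n ≤ z)
    (h : A ++ Y ∈ XX Wo z) : A' ++ Y ∈ XX Wo z := by
  obtain ⟨h1, h2, h3⟩ := h
  rw [List.length_append] at h1
  refine ⟨by rw [List.length_append]; omega, ?_, ?_⟩
  · exact (hloc A' Y (by omega)).2 ((hloc A Y (by omega)).1 h2)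
  · intro t ht1 ht2 ht3
    rw [List.length_append] at ht2
    have h4 := (wo_take hloc A' Y t (by omega) (by omega)).1 ht3
    rw [← hA] at h4
    exact h3 t ht1 (by rw [List.length_append]; omega)
      ((wo_take hloc A Y t (by omega) (by omega)).2 h4)

theorem exists_block {U : List α} (h : ∃ t, z ≤ t ∧ t ≤ U.length ∧ Wo (U.take t)) :
    ∃ X, X ∈ XX Wo z ∧ X <+: U := by
  classical
  obtain ⟨h1, h2, h3⟩ := Nat.find_spec h
  refine ⟨U.take (Nat.find h), ⟨by rw [List.length_take]; omega, h3, ?_⟩, List.take_prefix _ _⟩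
  intro t ht1 ht2 ht3
  rw [List.length_take] at ht2
  rw [List.take_take, Nat.min_eq_left (by omega)] at ht3
  exact Nat.find_min h (m := t) (by omega) ⟨ht1, by omega, ht3⟩

theorem badAt_of_bad {X R : List α} (h : X ∈ BadL Wo z N1 p0 BadT) :
    BadAt Wo z N1 p0 BadT 0 (X ++ R) := by
  obtain ⟨⟨h1, h2, h3⟩, h4⟩ := h
  refine ⟨X.length, by rw [List.length_append]; omega, by omega, ?_, ?_, ?_⟩
  · rw [List.take_left]; exact h2
  · intro y' hy' hz' hw
    rw [List.take_append_of_le_length hy'.le] at hw
    exact h3 y' (by omega) hy' hw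
  · rcases h4 with ⟨t, ht1, ht2, ht3, ht4⟩ | h4
    · left
      refine ⟨t, ht1, by omega, by omega, ?_⟩
      rw [List.take_append_of_le_length ht1]
      exact ht4
    · right
      rw [Nat.zero_add]
      exact h4

theorem badAt_append (hloc : ∀ P Q : List α, n ≤ Q.length → (Wo (P ++ Q) ↔ Wo Q))
    (hz : p0 + n + N1 ≤ z) (P Q : List α) (hP : P.length ≤ p0) :
    BadAt Wo z N1 p0 BadT 0 (P ++ Q) ↔ BadAt Wo z N1 p0 BadT P.length Q := by
  constructor
  · rintro ⟨y, h1, h2, h3, h4, h5⟩
    rw [List.length_append] at h1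
    obtain ⟨y, rfl⟩ := Nat.exists_eq_add_of_le (show P.length ≤ y by omega)
    have e : P.length + y - P.length = y := by omega
    refine ⟨y, by omega, by omega, ?_, ?_, ?_⟩
    · have := (wo_take hloc P Q (P.length + y) (by omega) (by omega)).1 h3
      rwa [e] at this
    · intro y' hy' hz' hw
      refine h4 (P.length + y') (by omega) (by omega) ?_
      refine (wo_take hloc P Q (P.length + y') (by omega) (by omega)).2 ?_
      rwa [show P.length + y' - P.length = y' by omega]
    · rcases h5 with ⟨t, ht1, ht2, ht3, ht4⟩ | h5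
      · left
        obtain ⟨t, rfl⟩ := Nat.exists_eq_add_of_le (show P.length ≤ t by omega)
        refine ⟨t, by omega, by omega, by omega, ?_⟩
        have := (wo_take hloc P Q (P.length + t) (by omega) (by omega)).1 ht4
        rwa [show P.length + t - P.length = t by omega] at this
      · right
        rwa [Nat.zero_add] at h5
  · rintro ⟨y, h1, h2, h3, h4, h5⟩
    refine ⟨P.length + y, by rw [List.length_append]; omega, by omega, ?_, ?_, ?_⟩
    · refine (wo_take hloc P Q (P.length + y) (by omega) (by omega)).2 ?_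
      rwa [show P.length + y - P.length = y by omega]
    · intro y' hy' hz' hw
      obtain ⟨y', rfl⟩ := Nat.exists_eq_add_of_le (show P.length ≤ y' by omega)
      refine h4 y' (by omega) (by omega) ?_
      have := (wo_take hloc P Q (P.length + y') (by omega) (by omega)).1 hw
      rwa [show P.length + y' - P.length = y' by omega] at this
    · rcases h5 with ⟨t, ht1, ht2, ht3, ht4⟩ | h5
      · left
        refine ⟨P.length + t, by omega, by omega, by omega, ?_⟩
        refine (wo_take hloc P Q (P.length + t) (by omega) (by omega)).2 ?_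
        rwa [show P.length + t - P.length = t by omega]
      · right
        rwa [Nat.zero_add]

end basics

/-! ### scheme 1 -/

section s1

variable {Wo : List α → Prop} {n z N1 p0 : ℕ} {BadT : ℕ → Prop}
variable {f : α → S} {act : V → S → V} {nu1 nu2 : List α → V} {lam rho : List α → Option V}

/-- left words of scheme 1 -/
def L1 (f : α → S) (act : V → S → V) (nu2 : List α → V) (lam : List α → Option V) (p0 : ℕ)
    (v : V) : Language α :=
  {P | p0 ≤ P.length ∧ lam (P.drop p0) = some (act v (pr f (P.take p0)) + nu2 (P.take p0))}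

theorem C1 (hloc : ∀ P Q : List α, n ≤ Q.length → (Wo (P ++ Q) ↔ Wo Q))
    (hz : p0 + n + N1 + N1 ≤ z)
    (hl : ∀ P v, lam P = some v → P.length ≤ N1)
    (hs : ∀ P Q v r, lam P = some v → rho Q = some r → r = act v (pr f (P ++ Q)) + nu1 (P ++ Q))
    (hc : ∀ Y : List α, z ≤ p0 + Y.length → ¬ BadT Y.length → ∀ v, ∃ P Q, Y = P ++ Q ∧
      lam P = some v ∧ ∃ r, rho Q = some r) :
    ∀ u ∈ XX Wo z, u ∉ BadL Wo z N1 p0 BadT → ∀ x, ∀ t ∈ (XX Wo z) ^ 0, ∃ p q y, u ++ t = p ++ q ∧
      p ∈ L1 f act nu2 lam p0 x ∧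
      q ∈ Rsem (XX Wo z) (XX Wo z) (ZM (pr f) act p0 nu1 nu2) 0 (L1 f act nu2 lam p0) y := by
  intro u hu hub x t ht
  have ht' : t = [] := by
    rw [pow_zero] at ht
    exact (Language.mem_one t).1 ht
  subst ht'
  have hu' := hu
  obtain ⟨h1, h2, h3⟩ := hu
  have hnE : ¬ ∃ t, t ≤ u.length ∧ z ≤ t + N1 ∧ t < z + N1 ∧ Wo (u.take t) :=
    fun h => hub ⟨hu', Or.inl h⟩
  have hnB : ¬ BadT (u.length - p0) := fun h => hub ⟨hu', Or.inr h⟩
  push Not at hnE
  have hul : z + N1 ≤ u.length := by
    by_contra hlt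
    exact hnE u.length le_rfl (by omega) (by omega) (by rw [List.take_length]; exact h2)
  obtain ⟨P, Q, hPQ, hP, y, hQ⟩ := hc (u.drop p0) (by rw [List.length_drop]; omega)
    (by rw [List.length_drop]; exact hnB) (act x (pr f (u.take p0)) + nu2 (u.take p0))
  have hPl := hl P _ hP
  have hA : (u.take p0).length = p0 := by rw [List.length_take]; omega
  have hue : u = u.take p0 ++ (P ++ Q) := by rw [← hPQ, List.take_append_drop]
  have hulen : u.length = p0 + (P.length + Q.length) := by
    have := congrArg List.length hue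
    rw [List.length_append, List.length_append, hA] at this
    exact this
  refine ⟨u.take p0 ++ P, Q, y, by rw [List.append_nil, List.append_assoc]; exact hue, ?_, ?_⟩
  · refine ⟨by rw [List.length_append, hA]; omega, ?_⟩
    have t1 : (u.take p0 ++ P).drop p0 = P := by
      rw [List.drop_append_of_le_length hA.ge, List.drop_of_length_le hA.le, List.nil_append]
    have t2 : (u.take p0 ++ P).take p0 = u.take p0 := by
      rw [List.take_append_of_le_length hA.ge, List.take_of_length_le hA.le]
    rw [t1, t2]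
    exact hP
  · intro x' p' hp'
    obtain ⟨g1, g2⟩ := hp'
    left
    have hp'l := hl _ _ g2
    rw [List.length_drop] at hp'l
    have hmem : p' ++ Q ∈ XX Wo z := by
      refine ⟨by rw [List.length_append]; omega, ?_, ?_⟩
      · refine (hloc p' Q (by omega)).2 ?_
        have := (hloc (u.take p0 ++ P) Q (by omega)).1 (by rw [List.append_assoc, ← hue]; exact h2)
        exact this
      · intro s hs1 hs2 hs3
        rw [List.length_append] at hs2
        have h4 := (wo_take hloc p' Q s (by omega) (by omega)).1 hs3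
        have h5 : Wo (u.take (p0 + P.length + (s - p'.length))) := by
          have e : u = (u.take p0 ++ P) ++ Q := by rw [List.append_assoc]; exact hue
          rw [e]
          refine (wo_take hloc (u.take p0 ++ P) Q _ ?_ ?_).2 ?_
          · rw [List.length_append, hA]; omega
          · rw [List.length_append, hA]; omega
          · rw [List.length_append, hA,
              show p0 + P.length + (s - p'.length) - (p0 + P.length) = s - p'.length by omega]
            exact h4
        rcases Nat.lt_or_ge (p0 + P.length + (s - p'.length)) z with h6 | h6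
        · exact hnE _ (by omega) (by omega) (by omega) h5
        · exact h3 _ h6 (by omega) h5
    refine ⟨y, Language.mem_mul.2 ⟨p' ++ Q, ⟨hmem, ?_⟩, [], ⟨rfl, rfl⟩, by simp⟩⟩
    have := hs _ _ _ _ g2 hQ
    unfold ZM
    rw [List.take_append_of_le_length g1, List.drop_append_of_le_length g1]
    exact this.symm

end s1

/-! ### scheme 2 -/

section s2

variable {Wo : List α → Prop} {n z N1 p0 K : ℕ} {BadT : ℕ → Prop}
variable {f : α → S} {act : V → S → V} {nu1 : List α → V} {nu : List α → S → V}
variable {LL : List α → Option V} {RR : List α → Option (ℕ × V)} {c : ℕ → ℕ}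

/-- left words of scheme 2 -/
def L2 (LL : List α → Option V) (v : V) : Language α := {P | LL P = some v}

theorem C2 (hloc : ∀ P Q : List α, n ≤ Q.length → (Wo (P ++ Q) ↔ Wo Q))
    (hz : p0 + n + N1 + N1 ≤ z) (hz0 : 0 < z) (hcp : ∀ k < K, c k ≤ p0)
    (hex : ∀ (P Q : List α) (v : V) (d : ℕ) (b : V), LL P = some v → RR Q = some (d, b) →
      BadAt Wo z N1 p0 BadT 0 (P ++ Q) → some p0 = some (P.length + d) ∧
        b = act v (pr f ((P ++ Q).take p0) * 1) + nu ((P ++ Q).take p0) 1)
    (hlf : ∀ (P : List α) (v : V), LL P = some v → ∃ k < K, P.length = c k)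
    (hco : ∀ (U : List α) (v : V), p0 ≤ U.length → BadAt Wo z N1 p0 BadT 0 U →
      ∃ k < K, LL (U.take (c k)) = some v ∧ (RR (U.drop (c k))).isSome) :
    ∀ u ∈ BadL Wo z N1 p0 BadT, ∀ x, ∀ t ∈ (BadL Wo z N1 p0 BadT) ^ 1, ∃ p q y, u ++ t = p ++ q ∧
      p ∈ L2 LL x ∧
      q ∈ Rsem (XX Wo z) (BadL Wo z N1 p0 BadT) (ZM (pr f) act p0 nu1 (fun w => nu w 1)) 1 (L2 LL) y := by
  intro u hu x t ht
  rw [pow_one] at ht
  have hu1 : z ≤ u.length := hu.1.1
  have ht1 : z ≤ t.length := ht.1.1
  obtain ⟨k, hk, hk1, hk2⟩ := hco (u ++ t) x (by rw [List.length_append]; omega)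
    (badAt_of_bad hu)
  obtain ⟨⟨d, b⟩, hdb⟩ := Option.isSome_iff_exists.1 hk2
  have hckp := hcp k hk
  have hpl : ((u ++ t).take (c k)).length = c k := by
    rw [List.length_take, List.length_append]; omega
  have hpq : (u ++ t).take (c k) ++ (u ++ t).drop (c k) = u ++ t := List.take_append_drop _ _
  obtain ⟨hd, hb⟩ := hex _ _ x d b hk1 hdb (by rw [hpq]; exact badAt_of_bad hu)
  rw [hpl] at hd
  have hd' : p0 = c k + d := Option.some.inj hd
  refine ⟨(u ++ t).take (c k), (u ++ t).drop (c k),
    ZM (pr f) act p0 nu1 (fun w => nu w 1) t (act b (pr f (u.drop p0)) + nu1 (u.drop p0)),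
    hpq.symm, hk1, ?_⟩
  intro x' p' hp'
  have hp1 : LL p' = some x' := hp'
  obtain ⟨k', hk', hk'l⟩ := hlf p' x' hp1
  have hck'p := hcp k' hk'
  set q := (u ++ t).drop (c k) with hq
  have hql : q.length = u.length + t.length - c k := by
    rw [hq, List.length_drop, List.length_append]
  -- the first block of `p' ++ q`
  have hend : Wo (u ++ t) := (hloc u t (by omega)).2 ht.1.2.1
  have hq2 : Wo q := by
    have := hpq
    rw [← hpq] at hend
    exact (hloc _ _ (by omega)).1 hend
  obtain ⟨X, hX, hXp⟩ : ∃ X, X ∈ XX Wo z ∧ X <+: p' ++ q := by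
    refine exists_block ⟨(p' ++ q).length, ?_, le_rfl, ?_⟩
    · rw [List.length_append]; omega
    · rw [List.take_length]
      exact (hloc p' q (by omega)).2 hq2
  by_cases hXb : X ∈ BadL Wo z N1 p0 BadT
  · left
    obtain ⟨R, hR⟩ := hXp
    obtain ⟨hd2, hb2⟩ := hex p' q x' d b hp1 hdb (by rw [← hR]; exact badAt_of_bad hXb)
    have hd2' : p0 = p'.length + d := Option.some.inj hd2
    have hkk : p'.length = c k := by omega
    -- the block
    have e1 : q.drop d = u.drop p0 ++ t := by
      rw [hq, List.drop_drop, ← hd', List.drop_append_of_le_length (by omega)]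
    have e2 : p' ++ q = (p' ++ q).take p0 ++ (u.drop p0 ++ t) := by
      conv_lhs => rw [← List.take_append_drop p0 (p' ++ q)]
      congr 1
      rw [List.drop_append, List.drop_of_length_le (by omega), List.nil_append,
        show p0 - p'.length = d by omega, e1]
    set A := (p' ++ q).take p0 with hA
    have hAl : A.length = p0 := by
      rw [hA, List.length_take, List.length_append]; omega
    have hAY : A ++ u.drop p0 ∈ XX Wo z := by
      refine XX_replace (A := u.take p0) hloc ?_ ?_ ?_
      · rw [List.length_take, hAl]; omega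
      · rw [List.length_take]; omega
      · rw [List.take_append_drop]; exact hu.1
    have hXe : X = A ++ u.drop p0 := by
      have h1 : X <+: A ++ u.drop p0 ++ t := ⟨R, by rw [hR, e2, List.append_assoc]⟩
      have h2 : A ++ u.drop p0 <+: A ++ u.drop p0 ++ t := ⟨t, rfl⟩
      rcases List.prefix_or_prefix_of_prefix h1 h2 with h | h
      · exact (XX_PC hz0).pf _ hX _ hAY h
      · exact ((XX_PC hz0).pf _ hAY _ hX h).symm
    have hval : ZM (pr f) act p0 nu1 (fun w => nu w 1) (A ++ u.drop p0) x' =
        act b (pr f (u.drop p0)) + nu1 (u.drop p0) := by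
      unfold ZM
      rw [List.take_append_of_le_length hAl.ge, List.take_of_length_le hAl.le,
        List.drop_append_of_le_length hAl.ge, List.drop_of_length_le hAl.le, List.nil_append,
        hb2, mul_one]
    refine ⟨_, Language.mem_mul.2 ⟨A ++ u.drop p0, ⟨hXe ▸ hXb, rfl⟩, t,
      ⟨_, Language.mem_mul.2 ⟨t, ⟨ht, rfl⟩, [], ⟨rfl, ?_⟩, by simp⟩⟩, ?_⟩⟩
    · rw [hval]
    · rw [List.append_assoc]; exact e2.symm
  · right
    exact Or.inl ⟨X, hX, hXb, hXp⟩

end s2

end Crest.Agent.R320.Conc_67
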