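import Crest.Agent.R320.Scheme_870

set_option autoImplicit false

/-! # Wall schemes from a right-looking wall rule and an arbitrary set of admissible distances (row 320)

`R` = right-looking wall rule with lookahead `n` (`R Q` iff there is a wall at the first place of `Q`).
`Ok t` = a wall at distance `t` from the anchor is late enough to be the next anchor (818: `z ≤ t`;
132: `th ((t - z) % M') ≤ t - z`).  `LL o` = a junction at distance `o` from the active anchor is
left-legal (818: `p ≤ o ≤ p + N1`; 132: moreover `M' ∣ o - p`).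
The right side at a junction does not know `o`; it is legal iff every wall up to the claimed anchor has
the same status for all `o` with `LL o`.  Then `junc` holds for every text.
-/

namespace Crest.Agent.R320.WallSch_870

open Crest.Agent.R320.Scheme_870

variable {α V : Type*}

/-- the next anchor of the anchor with text `Q` is at distance `t` -/
def Nx (R : List α → Prop) (Ok : ℕ → Prop) (Q : List α) (t : ℕ) : Prop :=
  R (Q.drop t) ∧ Ok t ∧ ∀ s, s < t → R (Q.drop s) → ¬ Ok s

/-- the first anchor right of a junction with right text `Q` is at distance `t`, and the junction is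
right-legal as far as the walls are concerned -/
def Fs (R : List α → Prop) (Ok LL : ℕ → Prop) (Q : List α) (t : ℕ) : Prop :=
  R (Q.drop t) ∧ (∀ o, LL o → Ok (o + t)) ∧ ∀ s, s < t → R (Q.drop s) → ∀ o, LL o → ¬ Ok (o + s)

section rule

variable {R : List α → Prop} {n : ℕ}

theorem R_app (h1 : ∀ Q, R Q ↔ R (Q.take n)) {Q : List α} (X : List α) (h : n ≤ Q.length) :
    R (Q ++ X) ↔ R Q := by
  rw [h1 (Q ++ X), h1 Q, List.take_append_of_le_length h]

theorem R_drop_app (h1 : ∀ Q, R Q ↔ R (Q.take n)) {Q : List α} {t : ℕ} (X : List α)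
    (h : t + n ≤ Q.length) : R ((Q ++ X).drop t) ↔ R (Q.drop t) := by
  rw [List.drop_append_of_le_length (by omega)]
  exact R_app h1 X (by rw [List.length_drop]; omega)

theorem R_drop_len (h2 : ∀ Q, R Q → n ≤ Q.length) {Q : List α} {t : ℕ} (h : R (Q.drop t))
    (hn : 0 < n) : t + n ≤ Q.length := by
  have := h2 _ h
  rw [List.length_drop] at this
  omega

variable {Ok LL : ℕ → Prop}

theorem Nx_app (h1 : ∀ Q, R Q ↔ R (Q.take n)) {Q : List α} {t : ℕ} (X : List α)
    (h : t + n ≤ Q.length) : Nx R Ok (Q ++ X) t ↔ Nx R Ok Q t := by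
  unfold Nx
  rw [R_drop_app h1 X h]
  refine and_congr_right fun _ => and_congr_right fun _ => ?_
  refine forall_congr' fun s => forall_congr' fun hs => ?_
  rw [R_drop_app h1 X (by omega)]

theorem Fs_app (h1 : ∀ Q, R Q ↔ R (Q.take n)) {Q : List α} {t : ℕ} (X : List α)
    (h : t + n ≤ Q.length) : Fs R Ok LL (Q ++ X) t ↔ Fs R Ok LL Q t := by
  unfold Fs
  rw [R_drop_app h1 X h]
  refine and_congr_right fun _ => and_congr_right fun _ => ?_
  refine forall_congr' fun s => forall_congr' fun hs => ?_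
  rw [R_drop_app h1 X (by omega)]

theorem Nx_uniq {Q : List α} {t t' : ℕ} (h : Nx R Ok Q t) (h' : Nx R Ok Q t') : t = t' := by
  rcases lt_trichotomy t t' with hlt | heq | hgt
  · exact absurd h.2.1 (h'.2.2 t hlt h.1)
  · exact heq
  · exact absurd h'.2.1 (h.2.2 t' hgt h'.1)

theorem Fs_uniq (hne : ∃ o, LL o) {Q : List α} {t t' : ℕ} (h : Fs R Ok LL Q t)
    (h' : Fs R Ok LL Q t') : t = t' := by
  obtain ⟨o, ho⟩ := hne
  rcases lt_trichotomy t t' with hlt | heq | hgt
  · exact absurd (h.2.1 o ho) (h'.2.2 t hlt h.1 o ho)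
  · exact heq
  · exact absurd (h'.2.1 o ho) (h.2.2 t' hgt h'.1 o ho)

/-- **JUNCTION LEMMA** (818, in the generality of 132's thresholds): at every left-legal / right-legal
junction of every text the right side names the next anchor. -/
theorem junc (hsep : ∀ s o, Ok s → LL o → o < s) {P Q : List α} {t : ℕ} (hL : LL P.length)
    (hF : Fs R Ok LL Q t) : Nx R Ok (P ++ Q) (P.length + t) := by
  obtain ⟨h1, h2, h3⟩ := hF
  have hd : ∀ s, (P ++ Q).drop (P.length + s) = Q.drop s := by
    intro s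
    rw [List.drop_append]
    simp
  refine ⟨by rw [hd]; exact h1, h2 _ hL, ?_⟩
  intro s hs hR hO
  rcases Nat.lt_or_ge s P.length with hlt | hge
  · exact absurd (hsep s _ hO hL) (by omega)
  · obtain ⟨s', rfl⟩ := Nat.exists_eq_add_of_le hge
    rw [hd] at hR
    exact h3 s' (by omega) hR _ hL hO

/-- converse: if the status of every wall up to the next anchor does not depend on the place of the
junction in the window, the junction is right-legal and names the next anchor -/
theorem Fs_of_clear (hsep : ∀ s o, Ok s → LL o → o < s) {P Q : List α} {T : ℕ}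
    (hN : Nx R Ok (P ++ Q) T) (hL : LL P.length)
    (hclear : ∀ s, s ≤ T → P.length ≤ s → R ((P ++ Q).drop s) → ∀ o, LL o →
      (Ok (o + (s - P.length)) ↔ Ok s)) :
    P.length ≤ T ∧ Fs R Ok LL Q (T - P.length) := by
  obtain ⟨h1, h2, h3⟩ := hN
  have hPT : P.length < T := hsep _ _ h2 hL
  have hd : ∀ s, (P ++ Q).drop (P.length + s) = Q.drop s := by
    intro s
    rw [List.drop_append]
    simp
  refine ⟨hPT.le, ?_, ?_, ?_⟩
  · have := hd (T - P.length)
    rw [Nat.add_sub_cancel' hPT.le] at this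
    rw [← this]
    exact h1
  · intro o ho
    exact (hclear T le_rfl hPT.le h1 o ho).mpr h2
  · intro s hs hR o ho hO
    have hR' : R ((P ++ Q).drop (P.length + s)) := by rw [hd]; exact hR
    have := (hclear (P.length + s) (by omega) (by omega) hR' o ho).mp
      (by rwa [Nat.add_sub_cancel_left])
    exact h3 _ (by omega) hR' this

/-- a next anchor exists as soon as there is some admissible wall -/
theorem exists_Nx {Q : List α} {s : ℕ} (hR : R (Q.drop s)) (hO : Ok s) : ∃ t, t ≤ s ∧ Nx R Ok Q t := by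
  classical
  have hex : ∃ t, R (Q.drop t) ∧ Ok t := ⟨s, hR, hO⟩
  refine ⟨Nat.find hex, Nat.find_min' hex ⟨hR, hO⟩, (Nat.find_spec hex).1, (Nat.find_spec hex).2, ?_⟩
  intro u hu hRu hOu
  exact Nat.find_min hex hu ⟨hRu, hOu⟩

end rule

/-- THE SCHEME of a wall rule. The only non-trivial input is `sound` (the gadget). -/
def toSch (R : List α → Prop) (n : ℕ) (hn : 0 < n) (h1 : ∀ Q, R Q ↔ R (Q.take n))
    (h2 : ∀ Q, R Q → n ≤ Q.length)
    (Ok LL : ℕ → Prop) (hsep : ∀ s o, Ok s → LL o → o < s) (hLne : ∃ o, LL o)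
    (mv : V → List α → ℕ → V) (Lf Rt : List α → Option V)
    (hmv : ∀ (v : V) {Q : List α} {t : ℕ} (X : List α), t + n ≤ Q.length → mv v (Q ++ X) t = mv v Q t)
    (hLf : ∀ {P v}, Lf P = some v → LL P.length ∧ n ≤ P.length)
    (hRt : ∀ {Q : List α} {t : ℕ} (X : List α), Fs R Ok LL Q t → Rt (Q ++ X) = Rt Q)
    (sound : ∀ {P Q v r t}, Lf P = some v → Rt Q = some r → Fs R Ok LL Q t →
      mv v (P ++ Q) (P.length + t) = r) : Sch α V where
  n := n
  Nx := Nx R Ok
  Fs := Fs R Ok LL
  mv := mv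
  Lf := Lf
  Rt := Rt
  Nx_pos := by
    intro Q t h
    obtain ⟨o, ho⟩ := hLne
    have := hsep _ _ h.2.1 ho
    omega
  Nx_len := fun h => R_drop_len h2 h.1 hn
  Nx_ext := fun X h => (Nx_app h1 X (R_drop_len h2 h.1 hn)).mpr h
  Nx_cut := fun h hl => (Nx_app h1 _ hl).mp h
  Nx_uniq := Nx_uniq
  Fs_len := fun h => R_drop_len h2 h.1 hn
  Fs_ext := fun X h => (Fs_app h1 X (R_drop_len h2 h.1 hn)).mpr h
  Fs_cut := fun h hl => (Fs_app h1 _ hl).mp h
  Fs_uniq := Fs_uniq hLne
  mv_loc := hmv
  Rt_loc := hRt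
  Lf_len := fun h => (hLf h).2
  Lf_nx := by
    intro P v t h hN
    have h3 := hsep _ _ hN.2.1 (hLf h).1
    have h4 := R_drop_len h2 hN.1 hn
    omega
  junc := fun hL _ hF => junc hsep (hLf hL).1 hF
  sound := sound

/-! ## The two instances of `(Ok, LL)` -/

/-- 818: threshold `z`, window `[p, p + N]` -/
theorem sep818 {z p N : ℕ} (h : p + N < z) :
    ∀ s o, (fun t => z ≤ t) s → (fun o => p ≤ o ∧ o ≤ p + N) o → o < s := by
  intro s o hs ho
  have h1 : z ≤ s := hs
  have h2 : p ≤ o ∧ o ≤ p + N := ho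
  omega

/-- 818, completeness of the wall part: no wall at a distance in `[z - N, z + N)` makes every place of
the window right-legal -/
theorem clear818 {z p N s o l : ℕ} (ho : p ≤ o ∧ o ≤ p + N) (hl : p ≤ l ∧ l ≤ p + N) (hls : l ≤ s)
    (hc : s + N < z ∨ z + N ≤ s) : z ≤ o + (s - l) ↔ z ≤ s := by
  omega

/-- 132: thresholds `th ρ`, comb of modulus `M` -/
def Ok132 (z M : ℤ) (th : ℤ → ℤ) (t : ℕ) : Prop := th (((t : ℤ) - z) % M) ≤ (t : ℤ) - z

def LL132 (p N : ℕ) (M : ℤ) (o : ℕ) : Prop := p ≤ o ∧ o ≤ p + N ∧ M ∣ (o : ℤ) - p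

theorem sep132 {z M : ℤ} {th : ℤ → ℤ} {S : ℤ} {p N : ℕ} (hth : ∀ r, -S ≤ th r)
    (h : (p : ℤ) + N + S < z) : ∀ s o, Ok132 z M th s → LL132 p N M o → o < s := by
  intro s o hs ho
  have h1 := hth (((s : ℤ) - z) % M)
  have h2 := ho.2.1
  unfold Ok132 at hs
  omega

/-- 132, completeness of the wall part: if the wall at distance `s` is not within `N` of its own
threshold, its status is the same for all junctions of the comb -/
theorem clear132 {z M : ℤ} {th : ℤ → ℤ} {p N : ℕ} {s o l : ℕ} (ho : LL132 p N M o)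
    (hl : LL132 p N M l) (hls : l ≤ s)
    (hc : (N : ℤ) < |(s : ℤ) - z - th (((s : ℤ) - z) % M)|) :
    Ok132 z M th (o + (s - l)) ↔ Ok132 z M th s := by
  obtain ⟨ho1, ho2, k, hk⟩ := ho
  obtain ⟨hl1, hl2, j, hj⟩ := hl
  have e1 : ((o + (s - l) : ℕ) : ℤ) - z = ((s : ℤ) - z) + M * (k - j) := by
    push_cast [hls]
    linear_combination hk - hj
  have e2 : (((o + (s - l) : ℕ) : ℤ) - z) % M = ((s : ℤ) - z) % M := by
    rw [e1, Int.add_mul_emod_self_left]
  unfold Ok132
  rw [e2]
  generalize th (((s : ℤ) - z) % M) = c at hc ⊢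
  have h3 : (((o + (s - l) : ℕ)) : ℤ) = (o : ℤ) + s - l := by
    push_cast [hls]
    ring
  rw [h3]
  rcases abs_cases ((s : ℤ) - z - c) with ⟨ha, hb⟩ | ⟨ha, hb⟩
  · rw [ha] at hc
    constructor <;> intro _ <;> omega
  · rw [ha] at hc
    constructor <;> intro _ <;> omega

/-- 132 (3): outside the band (E) every comb place of the window is right-legal and names `N(a)` -/
theorem Fs_of_notE {R : List α → Prop} {z M : ℤ} {th : ℤ → ℤ} {S : ℤ} {p N : ℕ}
    (hth : ∀ r, -S ≤ th r) (h : (p : ℤ) + N + S < z) {P Q : List α} {T : ℕ}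
    (hN : Nx R (Ok132 z M th) (P ++ Q) T) (hL : LL132 p N M P.length)
    (hE : ∀ s, s ≤ T → R ((P ++ Q).drop s) → (N : ℤ) < |(s : ℤ) - z - th (((s : ℤ) - z) % M)|) :
    P.length ≤ T ∧ Fs R (Ok132 z M th) (LL132 p N M) Q (T - P.length) :=
  Fs_of_clear (sep132 hth h) hN hL fun s hs hPs hR _ ho => clear132 ho hL hPs (hE s hs hR)

/-- 818 (3): if there is no wall at a distance in `[z - N, z + N)` every place of the window is
right-legal and names the next anchor -/
theorem Fs_of_clear818 {R : List α → Prop} {z p N : ℕ} (h : p + N < z) {P Q : List α} {T : ℕ}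
    (hN : Nx R (fun t => z ≤ t) (P ++ Q) T) (hL : p ≤ P.length ∧ P.length ≤ p + N)
    (hc : ∀ s, R ((P ++ Q).drop s) → s + N < z ∨ z + N ≤ s) :
    P.length ≤ T ∧ Fs R (fun t => z ≤ t) (fun o => p ≤ o ∧ o ≤ p + N) Q (T - P.length) :=
  Fs_of_clear (sep818 h) hN hL fun s _ hPs hR _ ho => clear818 ho hL hPs (hc s hR)

end Crest.Agent.R320.WallSch_870
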