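import Crest.Agent.R320.Two_743
import Crest.Agent.R320.Zone132_898
import Crest.Agent.R320.WallSch_870

/-!
Row 320 (helper743): the concrete two level wall scheme (132 #12664) as an instance of
`Two_743.Two`: chain of 870 (thresholds), level 1 = zone gadget of 898, level 2 = exact gadget with
an unambiguous promise ruler.
-/

set_option autoImplicit false

namespace Crest.Agent.R320.Conc_743

open Crest.Agent.R320.Zone132_898 Crest.Agent.R320.WallSch_870
open Crest.Agent.R320.CutAut_600 Crest.Agent.R320.Two_743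

/-- concrete parameters. -/
structure CP (α S V W : Type*) [Monoid S] [AddCommGroup V] [AddCommGroup W] where
  D : Data α S V W
  r : Rule α
  p0 : ℕ
  N1 : ℕ
  z : ℤ
  th : ℤ → ℤ
  Sb : ℤ
  th_lo : ∀ x, -Sb ≤ th x
  th_hi : ∀ x, th x ≤ Sb
  hz : (p0 : ℤ) + N1 + Sb < z
  nu2 : List α → V
  lam : ℕ → List α → Option V
  rho : ℕ → List α → Option V
  c : ℕ → ℕ
  K : ℕ
  hc : ∀ k, k < K → c k ≤ p0
  hc_inj : ∀ k k', k < K → k' < K → c k = c k' → k = k'
  hcn : ∀ k, k < K → r.n ≤ c k
  hnp : r.n ≤ p0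
  hN1 : D.N1
  hN2 : D.N2
  snd2 : ∀ k, k < K → ∀ (P Q : List α) (v b : V), P.length = c k → P.length + Q.length = p0 →
    lam k P = some v → rho k Q = some b → b = D.act v (D.phi (P ++ Q)) + nu2 (P ++ Q)

variable {α S V W : Type*} [Monoid S] [AddCommGroup V] [AddCommGroup W]

namespace CP

variable (C : CP α S V W)

/-- late enough walls -/
def Ok : ℕ → Prop := Ok132 C.z C.D.q C.th
/-- the window of level 1 -/
def LL : ℕ → Prop := LL132 C.p0 C.N1 C.D.q
/-- next anchor -/
def nx (Q : List α) (t : ℕ) : Prop := Nx C.r.R C.Ok Q t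
/-- right reading of the next anchor -/
def fs (Q : List α) (t : ℕ) : Prop := Fs C.r.R C.Ok C.LL Q t

theorem ok_lt {s o : ℕ} (h : C.Ok s) (ho : o ≤ C.p0 + C.N1) : o < s := by
  have h1 := C.th_lo (((s : ℤ) - C.z) % C.D.q)
  have h2 := C.hz
  unfold Ok Ok132 at h
  omega

theorem hsep : ∀ s o, C.Ok s → C.LL o → o < s :=
  fun _ _ h ho => C.ok_lt h ho.2.1

theorem nx_lt {Q : List α} {t o : ℕ} (h : C.nx Q t) (ho : o ≤ C.p0 + C.N1) : o < t :=
  C.ok_lt h.2.1 ho

theorem nx_len {Q : List α} {t : ℕ} (h : C.nx Q t) : t + C.r.n ≤ Q.length :=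
  R_drop_len C.r.len h.1 C.r.pos

theorem nx_app {Q : List α} {t : ℕ} (X : List α) (h : t + C.r.n ≤ Q.length) :
    C.nx (Q ++ X) t ↔ C.nx Q t := Nx_app C.r.take_iff X h

theorem nx_uniq {Q : List α} {t t' : ℕ} (h : C.nx Q t) (h' : C.nx Q t') : t = t' := Nx_uniq h h'

theorem fs_len {Q : List α} {t : ℕ} (h : C.fs Q t) : t + C.r.n ≤ Q.length :=
  R_drop_len C.r.len h.1 C.r.pos

theorem fs_app {Q : List α} {t : ℕ} (X : List α) (h : t + C.r.n ≤ Q.length) :
    C.fs (Q ++ X) t ↔ C.fs Q t := Fs_app C.r.take_iff X h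

/-- zone map -/
noncomputable def T (Q : List α) (t : ℕ) : V → V := fun v =>
  C.D.act (C.D.act v (C.D.phi (Q.take C.p0)) + C.nu2 (Q.take C.p0))
    (C.D.phi ((Q.take t).drop C.p0)) + C.D.nu ((Q.take t).drop C.p0)

open Classical in
/-- chain rule -/
noncomputable def Z (Q : List α) : Option (ℕ × (V → V)) :=
  if h : ∃ t, C.nx Q t then some (h.choose, C.T Q h.choose) else none

theorem Z_some {Q : List α} {t : ℕ} (h : C.nx Q t) : C.Z Q = some (t, C.T Q t) := by
  classical
  have hex : ∃ t, C.nx Q t := ⟨t, h⟩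
  have e : hex.choose = t := C.nx_uniq hex.choose_spec h
  unfold Z
  rw [dif_pos hex, e]

theorem Z_none {Q : List α} (h : ∀ t, ¬ C.nx Q t) : C.Z Q = none := by
  classical
  unfold Z
  rw [dif_neg (fun ⟨t, ht⟩ => h t ht)]

theorem of_Z {Q : List α} {d : ℕ} {t : V → V} (h : C.Z Q = some (d, t)) :
    C.nx Q d ∧ t = C.T Q d := by
  by_cases hex : ∃ t, C.nx Q t
  · obtain ⟨t', ht'⟩ := hex
    rw [C.Z_some ht'] at h
    have h1 := Option.some.inj h
    have h2 : t' = d := congrArg Prod.fst h1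
    have h3 : C.T Q t' = t := congrArg Prod.snd h1
    subst h2
    exact ⟨ht', h3.symm⟩
  · rw [C.Z_none (fun t ht => hex ⟨t, ht⟩)] at h
    cases h

theorem Z_short {Q : List α} (h : Q.length ≤ C.p0 + C.N1) : C.Z Q = none := by
  refine C.Z_none fun t ht => ?_
  have h1 := C.nx_lt ht h
  have h2 := C.nx_len ht
  omega

theorem T_app {Q X : List α} {t : ℕ} (h : t ≤ Q.length) (hp : C.p0 ≤ t) :
    C.T (Q ++ X) t = C.T Q t := by
  unfold T
  rw [List.take_append_of_le_length h, List.take_append_of_le_length (by omega)]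

theorem zrule : ZRule C.r.n C.Z := by
  constructor
  · intro Q d t h
    obtain ⟨h1, -⟩ := C.of_Z h
    exact ⟨by have := C.nx_lt h1 (Nat.zero_le _); omega, C.nx_len h1⟩
  · intro Q X r h
    obtain ⟨d, t⟩ := r
    obtain ⟨h1, rfl⟩ := C.of_Z h
    have h2 := C.nx_len h1
    have h3 := C.nx_lt h1 (show C.p0 ≤ C.p0 + C.N1 by omega)
    rw [C.Z_some ((C.nx_app X h2).2 h1), C.T_app (by omega) h3.le]
  · intro Q d t h
    obtain ⟨h1, rfl⟩ := C.of_Z h
    have h2 := C.nx_len h1
    have h3 := C.nx_lt h1 (show C.p0 ≤ C.p0 + C.N1 by omega)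
    have hl : (Q.take (d + C.r.n)).length = d + C.r.n := by rw [List.length_take]; omega
    have e : Q = Q.take (d + C.r.n) ++ Q.drop (d + C.r.n) := (List.take_append_drop _ _).symm
    have h4 : C.nx (Q.take (d + C.r.n)) d := by
      rw [e] at h1
      exact (C.nx_app _ (by omega)).1 h1
    rw [C.Z_some h4]
    congr 2
    conv_rhs => rw [e]
    exact (C.T_app (by omega) h3.le).symm

/-! ### level 1 -/

/-- left legal, level 1 -/
def L1 (P : List α) (v : V) : Prop :=
  C.LL P.length ∧ C.D.LL (P.drop C.p0) (C.D.act v (C.D.phi (P.take C.p0)) + C.nu2 (P.take C.p0))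

/-- right legal, level 1 -/
def Q1 (r : List α) (x : ℕ × V) : Prop := C.fs r x.1 ∧ C.D.RR (r.take x.1) x.2

open Classical in
noncomputable def R1 (r : List α) : Option (ℕ × V) :=
  if h : ∃ x, C.Q1 r x then some h.choose else none

theorem of_R1 {r : List α} {x : ℕ × V} (h : C.R1 r = some x) : C.Q1 r x := by
  classical
  unfold R1 at h
  split_ifs at h with h1
  have := Option.some.inj h
  rw [← this]; exact h1.choose_spec

theorem R1_some {r : List α} {x : ℕ × V} (h : C.Q1 r x) : (C.R1 r).isSome := by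
  classical
  unfold R1
  rw [dif_pos ⟨x, h⟩]; rfl

theorem ex1 (P : List α) (v : V) (r : List α) (e : ℕ) (c : V) (hL : C.L1 P v)
    (hR : C.R1 r = some (e, c)) : ∃ t, C.Z (P ++ r) = some (P.length + e, t) ∧ t v = c := by
  obtain ⟨hf, hrr⟩ := C.of_R1 hR
  obtain ⟨hl, hll⟩ := hL
  have hn : C.nx (P ++ r) (P.length + e) := junc C.hsep hl hf
  refine ⟨_, C.Z_some hn, ?_⟩
  have hp : C.p0 ≤ P.length := hl.1
  have h1 : (P ++ r).take C.p0 = P.take C.p0 := List.take_append_of_le_length hp
  have h2 : ((P ++ r).take (P.length + e)).drop C.p0 = P.drop C.p0 ++ r.take e := by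
    rw [List.take_length_add_append, List.drop_append_of_le_length hp]
  unfold T
  rw [h1, h2]
  exact (C.D.sound C.hN1 C.hN2 hll hrr).symm

/-! ### good zones -/

/-- every token is cut by level 1 (text from the place `p0` behind the anchor) -/
def G1 (E : List α) (t' : ℕ) : Prop := ∀ u : V, ∃ o, o ≤ t' ∧ C.LL (C.p0 + o) ∧
  C.D.LL (E.take o) u ∧ C.fs (E.drop o) (t' - o) ∧ ∃ b, C.D.RR ((E.drop o).take (t' - o)) b

def Good (s : List α) : Prop := ∃ t, C.nx s t ∧ C.G1 (s.drop C.p0) (t - C.p0)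

theorem G1_app {E : List α} {t' : ℕ} (X : List α) (h : t' + C.r.n ≤ E.length) :
    C.G1 (E ++ X) t' ↔ C.G1 E t' := by
  unfold G1
  refine forall_congr' fun u => exists_congr fun o => and_congr_right fun ho =>
    and_congr_right fun _ => ?_
  have h1 : (E ++ X).take o = E.take o := List.take_append_of_le_length (by omega)
  have h2 : (E ++ X).drop o = E.drop o ++ X := List.drop_append_of_le_length (by omega)
  have h3 : t' - o + C.r.n ≤ (E.drop o).length := by rw [List.length_drop]; omega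
  rw [h1, h2, C.fs_app X h3, List.take_append_of_le_length (by omega)]

theorem good_app_iff {s : List α} (X : List α) (h : ∀ t, C.nx (s ++ X) t → t + C.r.n ≤ s.length) :
    C.Good (s ++ X) ↔ C.Good s := by
  constructor
  · rintro ⟨t, h1, h2⟩
    have h3 := h t h1
    have h4 := C.nx_lt h1 (show C.p0 ≤ C.p0 + C.N1 by omega)
    refine ⟨t, (C.nx_app X h3).1 h1, ?_⟩
    rw [List.drop_append_of_le_length (by omega)] at h2
    exact (C.G1_app X (by rw [List.length_drop]; omega)).1 h2
  · rintro ⟨t, h1, h2⟩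
    have h3 := C.nx_len h1
    have h4 := C.nx_lt h1 (show C.p0 ≤ C.p0 + C.N1 by omega)
    refine ⟨t, (C.nx_app X h3).2 h1, ?_⟩
    rw [List.drop_append_of_le_length (by omega)]
    exact (C.G1_app X (by rw [List.length_drop]; omega)).2 h2

theorem good_app {s : List α} (X : List α) (h : C.Good s) : C.Good (s ++ X) := by
  obtain ⟨t, h1, h2⟩ := h
  have h3 := C.nx_len h1
  have h5 := (C.nx_app X h3).2 h1
  refine (C.good_app_iff X fun t' ht' => ?_).2 ⟨t, h1, h2⟩
  rw [C.nx_uniq ht' h5]; exact h3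

/-- the chain does not see the first `p0` letters -/
theorem nx_fs {P r : List α} {t : ℕ} (hP : P.length ≤ C.p0) (h : C.nx (P ++ r) t) :
    P.length ≤ t ∧ Fs C.r.R C.Ok (fun o => o = P.length) r (t - P.length) := by
  refine Fs_of_clear (LL := fun o => o = P.length) ?_ h rfl ?_
  · intro s o hs ho
    exact C.ok_lt hs (by have : o = P.length := ho; omega)
  · intro s _ hs _ o ho
    have : o = P.length := ho
    rw [this, Nat.add_sub_cancel' hs]

theorem nx_of_fs {P r : List α} {t k : ℕ} (hk : P.length = k) (hP : k ≤ C.p0)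
    (h : Fs C.r.R C.Ok (fun o => o = k) r t) : C.nx (P ++ r) (k + t) := by
  subst hk
  refine junc (LL := fun o => o = P.length) ?_ rfl h
  intro s o hs ho
  exact C.ok_lt hs (by have : o = P.length := ho; omega)

theorem good_change {P P' r : List α} (hl : P.length = P'.length) (hP : P.length ≤ C.p0)
    (h : C.Good (P ++ r)) : C.Good (P' ++ r) := by
  obtain ⟨t, h1, h2⟩ := h
  obtain ⟨h3, h4⟩ := C.nx_fs hP h1
  have h5 := C.nx_of_fs (P := P') hl.symm hP h4
  rw [Nat.add_sub_cancel' h3] at h5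
  refine ⟨t, h5, ?_⟩
  have e : (P' ++ r).drop C.p0 = (P ++ r).drop C.p0 := by
    rw [List.drop_append, List.drop_append, List.drop_eq_nil_of_le (as := P) hP,
      List.drop_eq_nil_of_le (as := P') (by omega), hl]
  rw [e]; exact h2

/-! ### level 2 -/

def L2 (P : List α) (v : V) : Prop := ∃ k, k < C.K ∧ P.length = C.c k ∧ C.lam k P = some v

def BadH (k : ℕ) (r : List α) : Prop := ∀ P : List α, P.length = C.c k → ¬ C.Good (P ++ r)

def Q2 (r : List α) (x : ℕ × V) : Prop := ∃ k, k < C.K ∧ C.BadH k r ∧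
  (∀ k', k' < C.K → k' ≠ k → ¬ C.BadH k' r) ∧
  Fs C.r.R C.Ok (fun o => o = C.c k) r x.1 ∧
  ∃ b, C.rho k (r.take (C.p0 - C.c k)) = some b ∧
    x.2 = C.D.act b (C.D.phi ((r.take x.1).drop (C.p0 - C.c k))) +
      C.D.nu ((r.take x.1).drop (C.p0 - C.c k))

open Classical in
noncomputable def R2 (r : List α) : Option (ℕ × V) :=
  if h : ∃ x, C.Q2 r x then some h.choose else none

theorem of_R2 {r : List α} {x : ℕ × V} (h : C.R2 r = some x) : C.Q2 r x := by
  classical
  unfold R2 at h
  split_ifs at h with h1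
  have := Option.some.inj h
  rw [← this]; exact h1.choose_spec

theorem R2_some {r : List α} {x : ℕ × V} (h : C.Q2 r x) : (C.R2 r).isSome := by
  classical
  unfold R2
  rw [dif_pos ⟨x, h⟩]; rfl

theorem ex2 (P : List α) (v : V) (r : List α) (e : ℕ) (c : V) (hL : C.L2 P v)
    (hR : C.R2 r = some (e, c)) (hB : ¬ C.Good (P ++ r)) :
    ∃ t, C.Z (P ++ r) = some (P.length + e, t) ∧ t v = c := by
  obtain ⟨k0, hk0, hP, hlam⟩ := hL
  obtain ⟨k, hk, hbad, hoth, hf, b, hrho, hc⟩ := C.of_R2 hR
  have hk0k : k0 = k := by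
    by_contra hne
    refine hoth k0 hk0 hne ?_
    intro P' hP' hg
    refine hB (C.good_change (P := P') (by omega) ?_ hg)
    rw [hP']; exact C.hc k0 hk0
  subst hk0k
  have hcp := C.hc k0 hk0
  have hn := C.nx_of_fs hP hcp hf
  rw [← hP] at hn
  refine ⟨_, C.Z_some hn, ?_⟩
  have h4 := C.nx_lt hn (show C.p0 ≤ C.p0 + C.N1 by omega)
  have h5 := C.nx_len hn
  rw [List.length_append] at h5
  have h1 : (P ++ r).take C.p0 = P ++ r.take (C.p0 - C.c k0) := by
    rw [List.take_append, List.take_of_length_le (by omega), hP]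
  have h2 : ((P ++ r).take (P.length + e)).drop C.p0 = (r.take e).drop (C.p0 - C.c k0) := by
    rw [List.take_length_add_append, List.drop_append, List.drop_eq_nil_of_le (by omega),
      List.nil_append, hP]
  have h3 := C.snd2 k0 hk0 P (r.take (C.p0 - C.c k0)) v b hP (by
    rw [List.length_take]
    simp only at h4 h5
    omega) hlam hrho
  unfold T
  rw [h1, h2, ← h3]
  exact hc.symm

/-- texts: factor closed, gaps of the outer walls bounded. -/
structure RFG (RF : List α → Prop) (G zT : ℕ) : Prop where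
  pre : ∀ u v, RF (u ++ v) → RF u
  suf : ∀ u v, RF (u ++ v) → RF v
  gap : ∀ Q, RF Q → G + C.r.n ≤ Q.length → ∃ i, i < G ∧ C.r.R (Q.drop i)
  zT : C.z + C.Sb ≤ zT

variable {C}

theorem ok_ge {t zT : ℕ} (h : C.z + C.Sb ≤ zT) (ht : zT ≤ t) : C.Ok t := by
  have h1 := C.th_hi (((t : ℤ) - C.z) % C.D.q)
  unfold Ok Ok132
  omega

theorem exists_nx {RF : List α → Prop} {G zT : ℕ} (H : C.RFG RF G zT) {F : List α}
    (hF : RF (F.drop zT)) (hl : zT + G + C.r.n ≤ F.length) : ∃ t, t < zT + G ∧ C.nx F t := by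
  obtain ⟨i, hi, hR⟩ := H.gap _ hF (by rw [List.length_drop]; omega)
  rw [List.drop_drop] at hR
  obtain ⟨t, ht, hn⟩ := exists_Nx (Ok := C.Ok) hR (ok_ge H.zT (Nat.le_add_right _ _))
  exact ⟨t, by omega, hn⟩

theorem RFG.drop {RF : List α → Prop} {G zT : ℕ} (H : C.RFG RF G zT) {F : List α} (hF : RF F)
    (i : ℕ) : RF (F.drop i) := H.suf (F.take i) _ (by rw [List.take_append_drop]; exact hF)

theorem rfc {RF : List α → Prop} {G zT : ℕ} (H : C.RFG RF G zT) :
    RFc C.Z RF (zT + G + C.r.n) := by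
  refine ⟨H.pre, H.suf, fun Q hQ hl => ?_⟩
  obtain ⟨t, -, ht⟩ := exists_nx H (H.drop hQ zT) hl.le
  rw [C.Z_some ht]
  exact fun h => by cases h

theorem cutGood {RF : List α → Prop} {G zT : ℕ} (H : C.RFG RF G zT) {s : List α} (hs : RF s)
    (hl : 2 * (zT + G + C.r.n) ≤ s.length) (hg : C.Good s) (v : V) :
    ∃ r1 r2 r3, s = r1 ++ (r2 ++ r3) ∧ C.p0 ≤ r1.length ∧ r2.length = zT + G + C.r.n ∧
      C.Z r1 = none ∧ C.L1 r1 v ∧ (C.R1 r2).isSome := by
  obtain ⟨t, hn, hG⟩ := hg
  obtain ⟨t', ht', hn'⟩ := exists_nx H (H.drop hs zT) (by omega)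
  obtain rfl := C.nx_uniq hn hn'
  have h1 := C.nx_lt hn (show C.p0 ≤ C.p0 + C.N1 by omega)
  obtain ⟨o, ho, hLL, hDL, hfs, b, hRR⟩ := hG (C.D.act v (C.D.phi (s.take C.p0)) +
    C.nu2 (s.take C.p0))
  set B := zT + G + C.r.n with hB
  have e1 : (s.drop C.p0).drop o = s.drop (C.p0 + o) := by rw [List.drop_drop]
  rw [e1] at hfs hRR
  have hl1 : (s.take (C.p0 + o)).length = C.p0 + o := by rw [List.length_take]; omega
  have e2 : s.drop (C.p0 + o) = (s.drop (C.p0 + o)).take B ++ (s.drop (C.p0 + o)).drop B :=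
    (List.take_append_drop _ _).symm
  have hl2 : ((s.drop (C.p0 + o)).take B).length = B := by
    rw [List.length_take, List.length_drop]; omega
  refine ⟨s.take (C.p0 + o), (s.drop (C.p0 + o)).take B, (s.drop (C.p0 + o)).drop B, ?_, ?_, hl2,
    ?_, ⟨?_, ?_⟩, ?_⟩
  · rw [← e2, List.take_append_drop]
  · omega
  · exact C.Z_short (by rw [hl1]; exact hLL.2.1)
  · rw [hl1]; exact hLL
  · rw [List.drop_take, List.take_take, min_eq_left (by omega), Nat.add_sub_cancel_left]
    exact hDL
  · refine C.R1_some (x := (t - C.p0 - o, b)) ⟨?_, ?_⟩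
    · rw [e2] at hfs
      exact (C.fs_app _ (by rw [hl2]; omega)).1 hfs
    · change C.D.RR (((s.drop (C.p0 + o)).take B).take (t - C.p0 - o)) b
      rw [List.take_take, min_eq_left (by omega)]
      exact hRR

theorem two_of {RF : List α → Prop} {G zT D3 Rc : ℕ} (H : C.RFG RF G zT)
    (hD3 : C.p0 + (3 * (zT + G + C.r.n)) ≤ D3)
    (cmp2 : ∀ (u : List α) (v : V), u.length = C.p0 → ∃ I : Finset ℕ, Rc ≤ I.card ∧
      ∀ k ∈ I, k < C.K ∧ C.lam k (u.take (C.c k)) = some v ∧ (C.rho k (u.drop (C.c k))).isSome)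
    (spoil : ∀ s, RF s → D3 ≤ s.length → ¬ C.Good s → ∀ I : Finset ℕ, Rc ≤ I.card →
      (∀ k ∈ I, k < C.K) → ∃ k ∈ I, ∀ k', k' < C.K → k' ≠ k →
        ∃ P : List α, P.length = C.c k' ∧ C.Good (P ++ s.drop (C.c k))) :
    Two C.r.n (zT + G + C.r.n) C.Z RF C.L1 C.L2 C.R1 C.R2 (zT + G + C.r.n)
      (2 * (zT + G + C.r.n)) D3 (fun s => ¬ C.Good s) := by
  have hnpos := C.r.pos
  refine ⟨C.zrule, rfc H, by omega, by omega, ?_, ?_, ?_, ?_, ?_, ?_⟩
  · intro r e c h
    have := C.fs_len (C.of_R1 h).1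
    simp only at this
    omega
  · intro r e c h
    obtain ⟨k, _, _, _, hf, _⟩ := C.of_R2 h
    have : e + C.r.n ≤ r.length := R_drop_len C.r.len hf.1 C.r.pos
    omega
  · intro P v r e c _ _ hL _ hR
    exact C.ex1 P v r e c hL hR
  · intro P v r e c _ _ hL _ hR hB
    exact C.ex2 P v r e c hL hR hB
  · intro P v r _ hF hL hr hg
    rw [not_not] at hg
    obtain ⟨k, hk, hPk, _⟩ := hL
    have hcp := C.hc k hk
    obtain ⟨r1', r2, r3, hs, h1, h2, h3, h4, h5⟩ := cutGood H hF (by
      rw [List.length_append]; omega) hg v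
    obtain ⟨r1, rfl, hr1⟩ : ∃ r1, r1' = P ++ r1 ∧ r = r1 ++ (r2 ++ r3) := by
      rcases List.append_eq_append_iff.1 hs with ⟨x, hx1, hx2⟩ | ⟨x, hx1, hx2⟩
      · exact ⟨x, hx1, hx2⟩
      · have : x = [] := by
          have := congrArg List.length hx1
          rw [List.length_append] at this
          exact List.eq_nil_of_length_eq_zero (by omega)
        subst this
        exact ⟨[], by simpa using hx1.symm, by simpa using hx2.symm⟩
    exact ⟨r1, r2, r3, hr1, h2, h3, h4, h5⟩
  · intro s v hs hl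
    by_cases hg : C.Good s
    · obtain ⟨r1, r2, r3, h0, h1, h2, h3, h4, h5⟩ := cutGood H hs (by omega) hg v
      exact ⟨r1, r2, r3, h0, le_trans C.hnp h1, h3, Or.inr ⟨h2, h4, h5⟩⟩
    · set B := zT + G + C.r.n with hB
      have hul : (s.take C.p0).length = C.p0 := by rw [List.length_take]; omega
      obtain ⟨I, hI, hI'⟩ := cmp2 (s.take C.p0) v hul
      obtain ⟨k, hkI, hun⟩ := spoil s hs hl hg I hI (fun k hk => (hI' k hk).1)
      obtain ⟨hk, hlam, hrho⟩ := hI' k hkI
      have hcp := C.hc k hk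
      have hcn := C.hcn k hk
      have hl1 : (s.take (C.c k)).length = C.c k := by rw [List.length_take]; omega
      set R := s.drop (C.c k) with hRdef
      have hsR : s = s.take (C.c k) ++ R := (List.take_append_drop _ _).symm
      have hRl : R.length = s.length - C.c k := by rw [hRdef, List.length_drop]
      set r2 := R.take (2 * B) with hr2
      set r3 := R.drop (2 * B) with hr3
      have hR23 : R = r2 ++ r3 := (List.take_append_drop _ _).symm
      have hl2 : r2.length = 2 * B := by rw [hr2, List.length_take]; omega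
      obtain ⟨t, ht, hn⟩ := exists_nx H (H.drop hs zT) (by omega)
      refine ⟨s.take (C.c k), r2, r3, by rw [← hR23]; exact hsR, by omega,
        C.Z_short (by omega), Or.inl ⟨hl2, ⟨k, hk, hl1, ?_⟩, ?_⟩⟩
      · rw [List.take_take, min_eq_left hcp] at hlam
        exact hlam
      · have hn' := hn
        rw [hsR] at hn'
        obtain ⟨h1, h2⟩ := C.nx_fs (by omega) hn'
        rw [hl1] at h1 h2
        have h2' : Fs C.r.R C.Ok (fun o => o = C.c k) r2 (t - C.c k) := by
          rw [hR23] at h2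
          exact (Fs_app C.r.take_iff r3 (by omega)).1 h2
        obtain ⟨b, hb⟩ := Option.isSome_iff_exists.1 hrho
        refine C.R2_some (x := (t - C.c k,
          C.D.act b (C.D.phi ((r2.take (t - C.c k)).drop (C.p0 - C.c k))) +
            C.D.nu ((r2.take (t - C.c k)).drop (C.p0 - C.c k)))) ⟨k, hk, ?_, ?_, h2', b, ?_, rfl⟩
        · intro P hP hgood
          have h3 := C.good_app r3 hgood
          rw [List.append_assoc, ← hR23] at h3
          have h4 := C.good_change (P' := s.take (C.c k)) (by omega) (by omega) h3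
          rw [← hsR] at h4
          exact hg h4
        · intro k' hk' hne hbad
          obtain ⟨P, hP, hgood⟩ := hun k' hk' hne
          have hcp' := C.hc k' hk'
          refine hbad P hP ?_
          rw [hR23, ← List.append_assoc] at hgood
          refine (C.good_app_iff r3 ?_).1 hgood
          intro t' ht'
          have hzp : C.p0 < zT := by
            have h7 := H.zT
            have h8 := C.hz
            have h9 := C.th_lo 0
            have h10 := C.th_hi 0
            omega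
          obtain ⟨t'', h5, h6⟩ := exists_nx H (F := (P ++ r2) ++ r3) (by
            rw [List.append_assoc, ← hR23, List.drop_append, List.drop_eq_nil_of_le (by omega),
              List.nil_append, hRdef, List.drop_drop]
            exact H.drop hs _) (by
            rw [List.append_assoc, ← hR23, List.length_append]; omega)
          rw [C.nx_uniq ht' h6, List.length_append]
          omega
        · rw [hr2, List.take_take, min_eq_left (by omega), hRdef]
          rw [List.drop_take] at hb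
          exact hb

end CP

end Crest.Agent.R320.Conc_743
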