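import Crest.Agent.R320.Block_467

/-!
Row 320: the concrete side above the word gadget (grid gadget of 693 / 219), natural chain rule,
semantic right words (727).  All words, no run promise.
-/

set_option autoImplicit false

namespace Crest.Agent.R320.Conc_775

open Crest.Agent.R320.Blk467

variable {α S V : Type}

/-- value of a word -/
def pr [Monoid S] (f : α → S) (u : List α) : S := (u.map f).prod

theorem pr_append [Monoid S] (f : α → S) (u v : List α) : pr f (u ++ v) = pr f u * pr f v := by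
  simp [pr]

/-- blocks: natural chain rule, left-looking walls -/
def XX (Wo : List α → Prop) (z : ℕ) : Set (List α) :=
  {X | z ≤ X.length ∧ Wo X ∧ ∀ t, z ≤ t → t < X.length → ¬ Wo (X.take t)}

/-- mode (E): a wall in the band `[z - N, z + N)` -/
def EE (Wo : List α → Prop) (z N : ℕ) (X : List α) : Prop :=
  ∃ t, z ≤ t + N ∧ t < z + N ∧ t ≤ X.length ∧ Wo (X.take t)

structure Dat (α S V : Type) where
  f : α → S
  act : V → S → V
  Wo : List α → Prop
  n : ℕ
  z : ℕ
  p0 : ℕ
  N : ℕ
  K : ℕ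
  c : ℕ → ℕ
  BadT : ℕ → Prop
  lam : List α → Option V
  rho : List α → Option V
  nu : List α → V
  lam2 : ℕ → List α → Option V
  rho2 : ℕ → List α → Option V
  nu2 : List α → V

variable [Monoid S] [AddCommGroup V]

/-- zone map -/
def TT (D : Dat α S V) (x : V) (X : List α) : V :=
  D.act (D.act x (pr D.f (X.take D.p0)) + D.nu2 (X.take D.p0)) (pr D.f (X.drop D.p0)) +
    D.nu (X.drop D.p0)

def L1 (D : Dat α S V) (x : V) : Set (List α) :=
  {P | D.p0 ≤ P.length ∧ P.length ≤ D.p0 + D.N ∧
    D.lam (P.drop D.p0) = some (D.act x (pr D.f (P.take D.p0)) + D.nu2 (P.take D.p0))}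

def L2 (D : Dat α S V) (x : V) : Set (List α) :=
  {P | ∃ k < D.K, P.length = D.c k ∧ D.lam2 k P = some x}

/-- semantic right words -/
def R1 (C : Set (List α)) (T : V → List α → V) (L : V → Set (List α)) (y : V) : Set (List α) :=
  {Q | ∀ x, ∀ P ∈ L x, P ++ Q ∈ C ∧ T x (P ++ Q) = y}

def Good (C : Set (List α)) (T : V → List α → V) (L : V → Set (List α)) : Set (List α) :=
  {X | X ∈ C ∧ ∀ x, ∃ P ∈ L x, ∃ Q ∈ R1 C T L (T x X), P ++ Q = X}

def Bad (C : Set (List α)) (T : V → List α → V) (L : V → Set (List α)) : Set (List α) :=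
  {X | X ∈ C ∧ X ∉ Good C T L}

def R2 (C : Set (List α)) (T : V → List α → V) (L L' : V → Set (List α)) (y : V) :
    Set (List α) :=
  {Q | ∀ x, ∀ P ∈ L' x,
    (∃ X1 ∈ Bad C T L, ∃ X2 ∈ Bad C T L, P ++ Q = X1 ++ X2 ∧ T (T x X1) X2 = y) ∨
    (∃ X ∈ Good C T L, X <+: P ++ Q) ∨
    (∃ X1 ∈ Bad C T L, ∃ X2 ∈ Good C T L, X1 ++ X2 <+: P ++ Q)}

structure Ok (D : Dat α S V) : Prop where
  loc : ∀ P Q : List α, D.n ≤ Q.length → (D.Wo (P ++ Q) ↔ D.Wo Q)
  hz : D.p0 + D.N + D.n < D.z
  hl : ∀ p v, D.lam p = some v → p.length ≤ D.N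
  hs : ∀ p q v b, D.lam p = some v → D.rho q = some b →
    b = D.act v (pr D.f (p ++ q)) + D.nu (p ++ q)
  hc : ∀ u : List α, D.N ≤ u.length → ¬ D.BadT u.length → ∀ v, ∃ p q, p ++ q = u ∧
    D.lam p = some v ∧ (D.rho q).isSome
  hc2 : ∀ k < D.K, D.c k ≤ D.p0
  ex2 : ∀ k < D.K, ∀ P Q v b, P.length = D.c k → D.lam2 k P = some v → D.rho2 k Q = some b →
    b = D.act v (pr D.f (P ++ Q)) + D.nu2 (P ++ Q)

theorem pcode {Wo : List α → Prop} {z : ℕ} (hz : 0 < z) : PCode (XX Wo z) := by
  refine ⟨fun h => ?_, ?_⟩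
  · have := h.1
    simp at this
    omega
  · rintro X ⟨h1, h2, h3⟩ Y ⟨g1, g2, g3⟩ ⟨Z, rfl⟩
    by_contra hne
    have hlt : X.length < (X ++ Z).length := by
      rcases Nat.eq_zero_or_pos Z.length with h | h
      · exact absurd (by rw [List.length_eq_zero_iff.1 h, List.append_nil]) hne
      · rw [List.length_append]; omega
    apply g3 X.length h1 hlt
    rw [List.take_left]
    exact h2

/-- walls at corresponding places -/
theorem wall_iff {Wo : List α → Prop} {n : ℕ}
    (loc : ∀ P Q : List α, n ≤ Q.length → (Wo (P ++ Q) ↔ Wo Q)) (P P' Q : List α) (j : ℕ)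
    (hj : n ≤ j) (hjQ : j ≤ Q.length) :
    Wo ((P ++ Q).take (P.length + j)) ↔ Wo ((P' ++ Q).take (P'.length + j)) := by
  rw [List.take_length_add_append, List.take_length_add_append]
  have hl : n ≤ (Q.take j).length := by rw [List.length_take]; omega
  rw [loc P _ hl, loc P' _ hl]

/-- **blocks which are not (E), (B) are good** -/
theorem good (D : Dat α S V) (h : Ok D) (X : List α) (hX : X ∈ XX D.Wo D.z)
    (hE : ¬ EE D.Wo D.z D.N X) (hB : ¬ D.BadT (X.length - D.p0)) :
    X ∈ Good (XX D.Wo D.z) (TT D) (L1 D) := by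
  have hz := h.hz
  obtain ⟨hX1, hX2, hX3⟩ := hX
  have hlen : D.z + D.N ≤ X.length := by
    by_contra hlt
    exact hE ⟨X.length, by omega, by omega, le_rfl, by rwa [List.take_length]⟩
  refine ⟨⟨hX1, hX2, hX3⟩, fun x => ?_⟩
  have hXd : (X.drop D.p0).length = X.length - D.p0 := List.length_drop
  obtain ⟨p, q, hpq, hlam, hrho⟩ := h.hc (X.drop D.p0) (by rw [hXd]; omega) (by rwa [hXd])
    (D.act x (pr D.f (X.take D.p0)) + D.nu2 (X.take D.p0))
  obtain ⟨b, hb⟩ := Option.isSome_iff_exists.1 hrho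
  have hpN := h.hl _ _ hlam
  have hXt : (X.take D.p0).length = D.p0 := by rw [List.length_take]; omega
  have hXe : X = X.take D.p0 ++ p ++ q := by
    rw [List.append_assoc, hpq, List.take_append_drop]
  have hPl : (X.take D.p0 ++ p).length = D.p0 + p.length := by
    rw [List.length_append, hXt]
  have hPd : (X.take D.p0 ++ p).drop D.p0 = p := by
    rw [List.drop_append_of_le_length (by rw [hXt])]
    rw [List.drop_of_length_le (by rw [hXt]), List.nil_append]
  have hPt : (X.take D.p0 ++ p).take D.p0 = X.take D.p0 := by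
    rw [List.take_append_of_le_length (by rw [hXt])]
    rw [List.take_of_length_le (by rw [hXt])]
  have hPL : X.take D.p0 ++ p ∈ L1 D x := by
    refine ⟨by rw [hPl]; omega, by rw [hPl]; omega, ?_⟩
    rw [hPd, hPt]
    exact hlam
  have hTX : ∀ x' : V, ∀ P' ∈ L1 D x', TT D x' (P' ++ q) = b := by
    rintro x' P' ⟨g1, g2, g3⟩
    have e := h.hs _ _ _ _ g3 hb
    have e1 : (P' ++ q).take D.p0 = P'.take D.p0 := List.take_append_of_le_length g1
    have e2 : (P' ++ q).drop D.p0 = P'.drop D.p0 ++ q := List.drop_append_of_le_length g1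
    rw [TT, e1, e2, ← e]
  refine ⟨_, hPL, q, ?_, hXe.symm⟩
  rintro x' P' hP'
  refine ⟨?_, ?_⟩
  · obtain ⟨g1, g2, g3⟩ := hP'
    have hql : X.length = D.p0 + p.length + q.length := by
      conv_lhs => rw [hXe]
      rw [List.length_append, hPl]
    have hP'q : (P' ++ q).length = P'.length + q.length := List.length_append
    refine ⟨by rw [hP'q]; omega, ?_, ?_⟩
    · have := (wall_iff h.loc (X.take D.p0 ++ p) P' q q.length (by omega) le_rfl).1 (by
        rw [hPl, ← hql, ← hXe, List.take_length]; exact hX2)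
      rwa [← List.length_append, List.take_length] at this
    · intro t ht1 ht2 hW
      obtain ⟨j, rfl⟩ : ∃ j, t = P'.length + j := ⟨t - P'.length, by omega⟩
      have h1 := (wall_iff h.loc (X.take D.p0 ++ p) P' q j (by omega) (by omega)).2 hW
      rw [← hXe, hPl] at h1
      by_cases hc : D.z ≤ D.p0 + p.length + j
      · exact hX3 _ hc (by omega) h1
      · exact hE ⟨_, by omega, by omega, by omega, h1⟩
  · rw [hTX x' P' hP']
    conv_rhs => rw [hXe]
    exact (hTX x _ hPL).symm

/-- the arithmetic availability of scheme 2 on the text `w = X1 ++ X2` -/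
def Avail (D : Dat α S V) : Prop :=
  ∀ X1 ∈ XX D.Wo D.z, ∀ X2 ∈ XX D.Wo D.z, ∀ x : V, ∃ k < D.K,
    D.lam2 k (X1.take (D.c k)) = some x ∧
    (D.rho2 k ((X1.take D.p0).drop (D.c k))).isSome ∧
    ∀ k' < D.K, k' ≠ k → ∀ s t : ℕ, t + D.c k = s + D.c k' → s ≤ (X1 ++ X2).length →
      D.Wo ((X1 ++ X2).take s) →
      ¬ (D.z ≤ t + D.N ∧ t < D.z + D.N) ∧
      (D.z ≤ t → (∀ s' t', t' + D.c k = s' + D.c k' → D.z ≤ t' → t' < t →
        ¬ D.Wo ((X1 ++ X2).take s')) → ¬ D.BadT (t - D.p0))

/-- **completeness of scheme 2 on pairs of bad blocks** -/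
theorem compl2 (D : Dat α S V) (h : Ok D) (hA : Avail D) :
    ∀ X1 ∈ Bad (XX D.Wo D.z) (TT D) (L1 D), ∀ X2 ∈ Bad (XX D.Wo D.z) (TT D) (L1 D), ∀ x : V,
      ∃ P ∈ L2 D x, ∃ Q ∈ R2 (XX D.Wo D.z) (TT D) (L1 D) (L2 D) (TT D (TT D x X1) X2),
        P ++ Q = X1 ++ X2 := by
  intro X1 hX1 X2 hX2 x
  have hz := h.hz
  obtain ⟨k, hk, hlam, hrho, hav⟩ := hA X1 hX1.1 X2 hX2.1 x
  obtain ⟨b, hb⟩ := Option.isSome_iff_exists.1 hrho
  have hck := h.hc2 k hk
  have hX1z := hX1.1.1
  have hX2z := hX2.1.1
  have hPl : (X1.take (D.c k)).length = D.c k := by rw [List.length_take]; omega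
  refine ⟨X1.take (D.c k), ⟨k, hk, hPl, hlam⟩, X1.drop (D.c k) ++ X2, ?_,
    by rw [← List.append_assoc, List.take_append_drop]⟩
  rintro x' P' ⟨k', hk', hP'l, hlam'⟩
  have hck' := h.hc2 k' hk'
  have hw : X1 ++ X2 = X1.take (D.c k) ++ (X1.drop (D.c k) ++ X2) := by
    rw [← List.append_assoc, List.take_append_drop]
  have hQl : (X1.drop (D.c k) ++ X2).length = X1.length - D.c k + X2.length := by
    rw [List.length_append, List.length_drop]
  have hwl : (X1 ++ X2).length = X1.length + X2.length := List.length_append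
  by_cases hkk : k' = k
  · subst hkk
    -- same place
    have hX1'l : (P' ++ X1.drop (D.c k')).length = X1.length := by
      rw [List.length_append, List.length_drop]; omega
    have hX1' : P' ++ X1.drop (D.c k') ∈ XX D.Wo D.z := by
      refine ⟨by rw [hX1'l]; exact hX1z, ?_, ?_⟩
      · have := (wall_iff h.loc (X1.take (D.c k')) P' (X1.drop (D.c k'))
          (X1.length - D.c k') (by omega) (by rw [List.length_drop])).1 (by
            rw [List.take_append_drop, hPl, show D.c k' + (X1.length - D.c k') = X1.length by omega,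
              List.take_length]
            exact hX1.1.2.1)
        rw [show P'.length + (X1.length - D.c k') = (P' ++ X1.drop (D.c k')).length by
          rw [hX1'l]; omega, List.take_length] at this
        exact this
      · intro t ht1 ht2 hW
        rw [hX1'l] at ht2
        obtain ⟨j, rfl⟩ : ∃ j, t = P'.length + j := ⟨t - P'.length, by omega⟩
        have h1 := (wall_iff h.loc (X1.take (D.c k')) P' (X1.drop (D.c k')) j (by omega)
          (by rw [List.length_drop]; omega)).2 hW
        rw [List.take_append_drop, hPl] at h1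
        exact hX1.1.2.2 _ (by omega) (by omega) h1
    by_cases hg : P' ++ X1.drop (D.c k') ∈ Good (XX D.Wo D.z) (TT D) (L1 D)
    · right; left
      exact ⟨_, hg, by rw [← List.append_assoc]; exact List.prefix_append _ _⟩
    · left
      refine ⟨_, ⟨hX1', hg⟩, X2, hX2, by rw [List.append_assoc], ?_⟩
      congr 1
      -- the same thread
      have e1 : (P' ++ X1.drop (D.c k')).take D.p0 = P' ++ (X1.take D.p0).drop (D.c k') := by
        rw [List.take_append, List.take_of_length_le (by omega), hP'l, List.drop_take]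
      have e2 : (P' ++ X1.drop (D.c k')).drop D.p0 = X1.drop D.p0 := by
        rw [List.drop_append, List.drop_of_length_le (by omega), List.nil_append, hP'l,
          List.drop_drop]
        congr 1
        omega
      have e3 := h.ex2 k' hk' P' _ x' b hP'l hlam' hb
      have e4 := h.ex2 k' hk' (X1.take (D.c k')) _ x b hPl hlam hb
      have e5 : X1.take (D.c k') ++ (X1.take D.p0).drop (D.c k') = X1.take D.p0 := by
        have : X1.take (D.c k') = (X1.take D.p0).take (D.c k') := by
          rw [List.take_take]; congr 1; omega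
        rw [this, List.take_append_drop]
      rw [e5] at e4
      rw [TT, TT, e1, e2, ← e3, ← e4]
  · -- another place
    right; left
    have hav' := hav k' hk' hkk
    set w' := P' ++ (X1.drop (D.c k) ++ X2) with hw'
    have hw'l : w'.length = D.c k' + (X1.length - D.c k + X2.length) := by
      rw [hw', List.length_append, hP'l, hQl]
    have tr : ∀ j, D.n ≤ j → j ≤ (X1.drop (D.c k) ++ X2).length →
        (D.Wo ((X1 ++ X2).take (D.c k + j)) ↔ D.Wo (w'.take (D.c k' + j))) := by
      intro j h1 h2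
      have := wall_iff h.loc (X1.take (D.c k)) P' (X1.drop (D.c k) ++ X2) j h1 h2
      rw [← hw, hPl, hP'l] at this
      exact this
    have hex : ∃ t, D.z ≤ t ∧ t ≤ w'.length ∧ D.Wo (w'.take t) := by
      refine ⟨w'.length, by rw [hw'l]; omega, le_rfl, ?_⟩
      have h1 := (tr (X1.drop (D.c k) ++ X2).length (by rw [hQl]; omega) le_rfl).1 (by
        rw [show D.c k + (X1.drop (D.c k) ++ X2).length = (X1 ++ X2).length by
          rw [hQl, hwl]; omega, List.take_length]
        exact (h.loc X1 X2 (by omega)).2 hX2.1.2.1)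
      rw [hQl, ← hw'l] at h1
      exact h1
    classical
    let t := Nat.find hex
    obtain ⟨ht1, ht2, ht3⟩ : D.z ≤ t ∧ t ≤ w'.length ∧ D.Wo (w'.take t) := Nat.find_spec hex
    have htm : ∀ t' < t, ¬ (D.z ≤ t' ∧ t' ≤ w'.length ∧ D.Wo (w'.take t')) :=
      fun t' h => Nat.find_min hex h
    have htl : (w'.take t).length = t := by rw [List.length_take]; omega
    have hXX : w'.take t ∈ XX D.Wo D.z := by
      refine ⟨by rw [htl]; exact ht1, ht3, ?_⟩
      intro t' h1 h2 hW
      rw [htl] at h2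
      rw [List.take_take, Nat.min_eq_left (by omega)] at hW
      exact htm t' h2 ⟨h1, by omega, hW⟩
    refine ⟨w'.take t, good D h _ hXX ?_ ?_, List.take_prefix _ _⟩
    · rintro ⟨t', h1, h2, h3, h4⟩
      rw [htl] at h3
      rw [List.take_take, Nat.min_eq_left (by omega)] at h4
      obtain ⟨j, rfl⟩ : ∃ j, t' = D.c k' + j := ⟨t' - D.c k', by omega⟩
      have h5 := (tr j (by omega) (by rw [hQl]; omega)).2 h4
      exact (hav' (D.c k + j) (D.c k' + j) (by omega) (by rw [hwl]; omega) h5).1 ⟨h1, h2⟩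
    · rw [htl]
      obtain ⟨j, hj⟩ : ∃ j, t = D.c k' + j := ⟨t - D.c k', by omega⟩
      have h5 := (tr j (by omega) (by rw [hQl]; omega)).2 (by rw [← hj]; exact ht3)
      have h6 := (hav' (D.c k + j) t (by omega) (by rw [hwl]; omega) h5).2 ht1
      apply h6
      intro s' t' e1 e2 e3 hW
      obtain ⟨j', rfl⟩ : ∃ j', t' = D.c k' + j' := ⟨t' - D.c k', by omega⟩
      obtain rfl : s' = D.c k + j' := by omega
      exact htm _ e3 ⟨e2, by omega, (tr j' (by omega) (by rw [hQl]; omega)).1 hW⟩

end Crest.Agent.R320.Conc_775
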