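import Crest.Agent.R320.SemTop_795

/-!
# Row 320: blocks from left looking walls, two schemes (helper795)
-/

set_option autoImplicit false

namespace Crest.Agent.R320.Conc_795

open Crest.RegLang Crest.Agent.R320.Hk_851 Crest.Agent.R320.Blk_517 Crest.Agent.R320.Top_517
  Crest.Agent.R320.Fin_517 Crest.Agent.R320.Main_517 Crest.Agent.R320.SemTop_795

universe u

variable {α : Type u} {V S : Type*}

/-- left looking walls -/
structure Walls (Wo : List α → Prop) (n W : ℕ) : Prop where
  loc : ∀ P Q : List α, n ≤ Q.length → (Wo (P ++ Q) ↔ Wo Q)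
  sep : ∀ (P : List α) (d : ℕ), Wo P → 0 < d → d ≤ W → ¬ Wo (P.take (P.length - d))

/-- blocks -/
def XX (Wo : List α → Prop) (z : ℕ) : Set (List α) :=
  {X | z ≤ X.length ∧ Wo X ∧ ∀ t, z ≤ t → t < X.length → ¬ Wo (X.take t)}

theorem pcode {Wo : List α → Prop} {z : ℕ} (hz : 0 < z) : PCode (XX Wo z) := by
  refine ⟨fun h => ?_, fun X hX Y hY hp => ?_⟩
  · have := h.1
    simp at this
    omega
  · by_contra hne
    have hl : X.length < Y.length := by
      rcases Nat.lt_or_ge X.length Y.length with h | h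
      · exact h
      · exact (hne (hp.eq_of_length_le h)).elim
    have := hY.2.2 X.length hX.1 hl
    rw [← List.prefix_iff_eq_take.1 hp] at this
    exact this hX.2.1

theorem exists_first {Wo : List α → Prop} {z : ℕ} {w : List α} {t : ℕ} (h1 : z ≤ t)
    (h2 : t ≤ w.length) (h3 : Wo (w.take t)) : ∃ X ∈ XX Wo z, X <+: w := by
  classical
  have hex : ∃ t, z ≤ t ∧ t ≤ w.length ∧ Wo (w.take t) := ⟨t, h1, h2, h3⟩
  obtain ⟨k1, k2, k3⟩ := Nat.find_spec hex
  refine ⟨w.take (Nat.find hex), ⟨?_, k3, ?_⟩, List.take_prefix _ _⟩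
  · rw [List.length_take]; omega
  · intro s hs hs'
    rw [List.length_take] at hs'
    rw [List.take_take, Nat.min_eq_left (by omega)]
    intro h
    exact Nat.find_min hex (m := s) (by omega) ⟨hs, by omega, h⟩

theorem shift {Wo : List α → Prop} {n W : ℕ} (hW : Walls Wo n W) {P P' Q : List α} {t : ℕ}
    (h1 : P.length + n ≤ t) (h2 : t ≤ P.length + Q.length) :
    Wo ((P ++ Q).take t) ↔ Wo ((P' ++ Q).take (t - P.length + P'.length)) := by
  have e1 : (P ++ Q).take t = P ++ Q.take (t - P.length) := by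
    rw [List.take_append, List.take_of_length_le (by omega)]
  have e2 : (P' ++ Q).take (t - P.length + P'.length) = P' ++ Q.take (t - P.length) := by
    rw [List.take_append, List.take_of_length_le (by omega)]
    congr 2
    omega
  have e3 : n ≤ (Q.take (t - P.length)).length := by rw [List.length_take]; omega
  rw [e1, e2, hW.loc _ _ e3, hW.loc _ _ e3]

theorem far {Wo : List α → Prop} {n W : ℕ} (hW : Walls Wo n W) {U : List α} {s t : ℕ}
    (h1 : Wo (U.take s)) (h2 : Wo (U.take t)) (hst : s < t) (ht : t ≤ U.length) : s + W < t := by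
  by_contra hlt
  push Not at hlt
  refine hW.sep (U.take t) (t - s) h2 (by omega) (by omega) ?_
  rw [List.length_take, Nat.min_eq_left ht, List.take_take, Nat.min_eq_left (by omega)]
  have : t - (t - s) = s := by omega
  rw [this]
  exact h1

/-- replace the left part -/
theorem swap {Wo : List α → Prop} {n W z A p0 : ℕ} (hW : Walls Wo n W) (hz : p0 + 3 * A + n ≤ z)
    {P P' Q : List α} (hX : P ++ Q ∈ XX Wo z)
    (hE : ∀ t, t ≤ (P ++ Q).length → z ≤ t + A → t < z + A → ¬ Wo ((P ++ Q).take t))
    (hP : P.length ≤ p0 + A) (hP' : P'.length ≤ p0 + A) (h1 : P.length ≤ P'.length + A)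
    (h2 : P'.length ≤ P.length + A) : P' ++ Q ∈ XX Wo z := by
  obtain ⟨x1, x2, x3⟩ := hX
  rw [List.length_append] at x1 x3 hE
  by_cases hA : A = 0
  · subst hA
    have hl : P.length = P'.length := by omega
    have hQn : n ≤ Q.length := by omega
    refine ⟨by rw [List.length_append]; omega, ?_, ?_⟩
    · rw [hW.loc _ _ hQn]; rwa [hW.loc _ _ hQn] at x2
    · intro t ht ht' h
      rw [List.length_append] at ht'
      refine x3 t ht (by omega) ?_
      rw [shift hW (P := P) (P' := P') (by omega) (by omega), hl]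
      have : t - P'.length + P'.length = t := by omega
      rwa [this]
  have hbig : z + A ≤ P.length + Q.length := by
    by_contra hlt
    push Not at hlt
    refine hE (P.length + Q.length) le_rfl (by omega) hlt ?_
    rw [← List.length_append, List.take_length]
    exact x2
  have hQn : n ≤ Q.length := by omega
  refine ⟨by rw [List.length_append]; omega, ?_, ?_⟩
  · rw [hW.loc _ _ hQn]; rwa [hW.loc _ _ hQn] at x2
  · intro t ht ht' h
    rw [List.length_append] at ht'
    rw [shift hW (P := P') (P' := P) (by omega) (by omega)] at h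
    rcases Nat.lt_or_ge (t - P'.length + P.length) z with h3 | h3
    · exact hE _ (by omega) (by omega) (by omega) h
    · exact x3 _ h3 (by omega) h

/-- same length -/
theorem swap0 {Wo : List α → Prop} {n W z p0 : ℕ} (hW : Walls Wo n W) (hz : p0 + n ≤ z)
    {P P' Q : List α} (hX : P ++ Q ∈ XX Wo z) (hP : P.length ≤ p0) (hl : P.length = P'.length) :
    P' ++ Q ∈ XX Wo z := by
  obtain ⟨x1, x2, x3⟩ := hX
  rw [List.length_append] at x1 x3
  have hQn : n ≤ Q.length := by omega
  refine ⟨by rw [List.length_append]; omega, ?_, ?_⟩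
  · rw [hW.loc _ _ hQn]; rwa [hW.loc _ _ hQn] at x2
  · intro t ht ht' h
    rw [List.length_append] at ht'
    refine x3 t ht (by omega) ?_
    rw [shift hW (P := P) (P' := P') (by omega) (by omega), hl]
    have : t - P'.length + P'.length = t := by omega
    rwa [this]

section sch

variable [Monoid S] [AddCommGroup V] (φ : α → S) (act : V → S → V) (p0 : ℕ)
  (nu1 nu2 : List α → V)

/-- zone map -/
def TT (v : V) (X : List α) : V :=
  act (act v (ev φ (X.take p0)) + nu2 (X.take p0)) (ev φ (X.drop p0)) + nu1 (X.drop p0)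

theorem TT_append {X1 Y : List α} (h : X1.length = p0) (v : V) :
    TT φ act p0 nu1 nu2 v (X1 ++ Y) = act (act v (ev φ X1) + nu2 X1) (ev φ Y) + nu1 Y := by
  unfold TT
  rw [List.take_left' h, List.drop_left' h]

variable (lam rho lam2 rho2 : List α → Option V)

/-- left words of scheme 1 -/
def LL1 (v : V) : Language α :=
  {P | ∃ X1 P', P = X1 ++ P' ∧ X1.length = p0 ∧ lam P' = some (act v (ev φ X1) + nu2 X1)}

/-- left words of scheme 2 -/
def LL2 (c : ℕ → ℕ) (K : ℕ) (v : V) : Language α :=
  {P | ∃ k < K, P.length = c k ∧ lam2 P = some v}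

variable {φ act p0 nu1 nu2 lam rho lam2 rho2}

theorem cut1 {Wo : List α → Prop} {n W z A : ℕ} (hW : Walls Wo n W) (hz : p0 + 3 * A + n ≤ z)
    {Bad1 : ℕ → Prop}
    (snd : ∀ P Q v r, A ≤ Q.length → lam P = some v → rho Q = some r →
      r = nu1 (P ++ Q) + act v (ev φ (P ++ Q)))
    (ll : ∀ P, (lam P).isSome → P.length < A)
    (cmp : ∀ u : List α, 2 * A ≤ u.length → ¬ Bad1 u.length → ∀ v, ∃ P Q, P ++ Q = u ∧
      lam P = some v ∧ (rho Q).isSome)
    {X : List α} (hX : X ∈ XX Wo z)
    (hE : ∀ t, t ≤ X.length → z ≤ t + A → t < z + A → ¬ Wo (X.take t))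
    (hB : ¬ Bad1 (X.length - p0)) :
    X ∉ Bd (XX Wo z) (TT φ act p0 nu1 nu2) (LL1 φ act p0 nu2 lam) := by
  rintro ⟨-, v, hv⟩
  apply hv
  have hl := hX.1
  have hX1 : (X.take p0).length = p0 := by rw [List.length_take]; omega
  obtain ⟨P', Q, he, hP', hQ⟩ := cmp (X.drop p0) (by rw [List.length_drop]; omega)
    (by rw [List.length_drop]; exact hB) (act v (ev φ (X.take p0)) + nu2 (X.take p0))
  obtain ⟨r, hr⟩ := Option.isSome_iff_exists.1 hQ
  have hPl := ll P' (by rw [hP']; rfl)
  have heX : X = (X.take p0 ++ P') ++ Q := by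
    rw [List.append_assoc, he, List.take_append_drop]
  have hlen : X.length = p0 + P'.length + Q.length := by
    conv_lhs => rw [heX]
    rw [List.length_append, List.length_append, hX1]
  refine ⟨X.take p0 ++ P', Q, r, heX, ⟨X.take p0, P', rfl, hX1, hP'⟩, ?_⟩
  rintro v'' P'' ⟨X1'', P''', rfl, hX1'', hP'''⟩
  have hPl3 := ll P''' (by rw [hP''']; rfl)
  have h1 : (X1'' ++ P''').length = p0 + P'''.length := by rw [List.length_append, hX1'']
  have h2 : (X.take p0 ++ P').length = p0 + P'.length := by rw [List.length_append, hX1]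
  refine ⟨?_, ?_⟩
  · refine swap hW hz (P := X.take p0 ++ P') (heX ▸ hX) ?_ (by omega) (by omega) (by omega)
      (by omega)
    rw [← heX]
    exact hE
  · rw [List.append_assoc, TT_append φ act p0 nu1 nu2 hX1'']
    rw [snd P''' Q _ r (by omega) hP''' hr]
    abel

end sch

end Crest.Agent.R320.Conc_795
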