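import Crest.Agent.R320.Top5_467
import Crest.Agent.R320.WallU_228
import Crest.Agent.R320.ExactR_237
import Crest.Agent.R320.Reg_852

/-!
# Row 320: the concrete side over 467's `top5` (helper951)

Natural chain rule: a block ends at the first (left-looking) wall at a place `≥ z`.
Semantic labels.  Scheme 1 = the U-gadget (as a hypothesis), scheme 2 = 237's exact gadget.
-/

set_option autoImplicit false

namespace Crest.Agent.R320.Conc_951

open Crest.RegLang Crest.Agent.R320.Hk_851 Crest.Agent.R320.Blk467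

variable {α : Type}

/-- blocks: end with the first wall at a place `≥ z` -/
def XX (Wo : List α → Prop) (z : ℕ) : Set (List α) :=
  {X | z ≤ X.length ∧ Wo X ∧ ∀ t, z ≤ t → t < X.length → ¬ Wo (X.take t)}

theorem XX_pcode {Wo : List α → Prop} {z : ℕ} (hz : 0 < z) : PCode (XX Wo z) := by
  refine ⟨fun h => ?_, ?_⟩
  · have := h.1
    simp at this
    omega
  · intro X hX Y hY hXY
    obtain ⟨r, rfl⟩ := hXY
    by_cases hr : r = []
    · simp [hr]
    · exfalso
      have hlen : 0 < r.length := List.length_pos_iff.2 hr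
      have := hY.2.2 X.length hX.1 (by rw [List.length_append]; omega)
      rw [List.take_left] at this
      exact this hX.2.1

/-- walls of `P1 ++ Q` behind place `|P1| + n` are walls of `P ++ Q` -/
theorem shift {Wo : List α → Prop} {n : ℕ}
    (hloc : ∀ P Q : List α, n ≤ Q.length → (Wo (P ++ Q) ↔ Wo Q))
    (P1 P Q : List α) (t : ℕ) (h1 : P1.length + n ≤ t) (h2 : t ≤ P1.length + Q.length) :
    Wo ((P1 ++ Q).take t) ↔ Wo ((P ++ Q).take (t - P1.length + P.length)) := by
  have e1 : (P1 ++ Q).take t = P1 ++ Q.take (t - P1.length) := by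
    rw [List.take_append, List.take_of_length_le (by omega)]
  have e2 : (P ++ Q).take (t - P1.length + P.length) = P ++ Q.take (t - P1.length) := by
    rw [List.take_append, List.take_of_length_le (by omega)]
    congr 2
    omega
  have hl : n ≤ (Q.take (t - P1.length)).length := by
    rw [List.length_take]; omega
  rw [e1, e2, hloc _ _ hl, hloc _ _ hl]

section

variable {S V : Type} [Monoid S] [AddCommGroup V]

/-- product of the values -/
def pr (φ : α → S) (u : List α) : S := (u.map φ).prod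

theorem pr_append (φ : α → S) (u v : List α) : pr φ (u ++ v) = pr φ u * pr φ v := by
  simp [pr]

variable (φ : α → S) (act : V → S → V) (nu1 nu2 : List α → V) (p0 : ℕ)

/-- noise of a block -/
def nu (X : List α) : V := act (nu2 (X.take p0)) (pr φ (X.drop p0)) + nu1 (X.drop p0)

/-- zone map -/
def T (v : V) (X : List α) : V := act v (X.map φ).prod + nu φ act nu1 nu2 p0 X

theorem T_eq (hadd : ∀ a b s, act (a + b) s = act a s + act b s)
    (hmul : ∀ v s t, act v (s * t) = act (act v s) t) (v : V) (X : List α) :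
    T φ act nu1 nu2 p0 v X =
      act (act v (pr φ (X.take p0)) + nu2 (X.take p0)) (pr φ (X.drop p0)) + nu1 (X.drop p0) := by
  have e : (X.map φ).prod = pr φ (X.take p0) * pr φ (X.drop p0) := by
    rw [← pr_append, List.take_append_drop]; rfl
  unfold T nu
  rw [e, hmul, hadd, add_assoc]

/-- left labels of scheme 1 -/
def L1 (N : ℕ) (lam : List α → Option V) (v : V) : Language α :=
  {P | p0 ≤ P.length ∧ P.length ≤ p0 + N ∧
    lam (P.drop p0) = some (act v (pr φ (P.take p0)) + nu2 (P.take p0))}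

/-- right labels of scheme 1, semantic -/
def R1 (X0 : Set (List α)) (T0 : V → List α → V) (L : V → Language α) (b : V) : Language α :=
  {Q | ∀ x, ∀ P ∈ L x, P ++ Q ∈ X0 ∧ T0 x (P ++ Q) = b}

/-- completely cut blocks -/
def Good (X0 : Set (List α)) (T0 : V → List α → V) (L : V → Language α) : Set (List α) :=
  {X | X ∈ X0 ∧ ∀ v, ∃ P Q, P ++ Q = X ∧ P ∈ L v ∧ Q ∈ R1 X0 T0 L (T0 v X)}

def Bad (X0 : Set (List α)) (T0 : V → List α → V) (L : V → Language α) : Set (List α) :=
  {X | X ∈ X0 ∧ X ∉ Good X0 T0 L}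

/-- right labels of scheme 2, semantic -/
def R2 (X0 : Set (List α)) (T0 : V → List α → V) (L L' : V → Language α) (b : V) : Language α :=
  {Q | ∀ x, ∀ P ∈ L' x, (∃ Y1 ∈ Bad X0 T0 L, ∃ Y2 ∈ Bad X0 T0 L, P ++ Q = Y1 ++ Y2 ∧
    T0 (T0 x Y1) Y2 = b) ∨ (∃ X ∈ Good X0 T0 L, X <+: P ++ Q)}

/-- a block is completely cut off the events (E) and (B) -/
theorem good_of (hadd : ∀ a b s, act (a + b) s = act a s + act b s)
    (hmul : ∀ v s t, act v (s * t) = act (act v s) t)
    {Wo : List α → Prop} {n z N : ℕ}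
    (hloc : ∀ P Q : List α, n ≤ Q.length → (Wo (P ++ Q) ↔ Wo Q))
    (hz : p0 + 2 * N + n ≤ z) {lam rho : List α → Option V} {BadT : ℕ → Prop}
    (hUN : ∀ P v, lam P = some v → P.length ≤ N)
    (hUs : ∀ P Q v r, lam P = some v → rho Q = some r →
      r = act v (pr φ (P ++ Q)) + nu1 (P ++ Q))
    (hUc : ∀ u : List α, 2 * N ≤ u.length → ¬ BadT u.length → ∀ v, ∃ P Q, P ++ Q = u ∧
      lam P = some v ∧ (rho Q).isSome)
    (X : List α) (hX : X ∈ XX Wo z) (hE : ∀ t, z ≤ t + N → t < z → ¬ Wo (X.take t))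
    (hE2 : z + N ≤ X.length) (hB : ¬ BadT (X.length - p0)) :
    X ∈ Good (XX Wo z) (T φ act nu1 nu2 p0) (L1 φ act nu2 p0 N lam) := by
  refine ⟨hX, fun v => ?_⟩
  have hlen : (X.drop p0).length = X.length - p0 := List.length_drop
  obtain ⟨P', Q, hPQ, hP', hQ'⟩ := hUc (X.drop p0) (by rw [hlen]; omega) (by rw [hlen]; exact hB)
    (act v (pr φ (X.take p0)) + nu2 (X.take p0))
  obtain ⟨r, hr⟩ := Option.isSome_iff_exists.1 hQ'
  have hN' := hUN _ _ hP'
  have hl0 : (X.take p0).length = p0 := by rw [List.length_take]; omega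
  have eX : X.take p0 ++ P' ++ Q = X := by
    rw [List.append_assoc, hPQ, List.take_append_drop]
  have hlQ : P'.length + Q.length = X.length - p0 := by
    rw [← List.length_append, hPQ, hlen]
  refine ⟨X.take p0 ++ P', Q, eX, ?_, ?_⟩
  · refine ⟨by rw [List.length_append]; omega, by rw [List.length_append]; omega, ?_⟩
    have e1 : (X.take p0 ++ P').drop p0 = P' := by
      rw [List.drop_append, hl0, Nat.sub_self, List.drop_of_length_le (by omega)]
      simp
    have e2 : (X.take p0 ++ P').take p0 = X.take p0 := by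
      rw [List.take_append, hl0, Nat.sub_self]
      simp
    rw [e1, e2]
    exact hP'
  · rintro x P1 ⟨h1, h2, h3⟩
    constructor
    · refine ⟨by rw [List.length_append]; omega, ?_, ?_⟩
      · rw [hloc P1 Q (by omega), ← hloc (X.take p0 ++ P') Q (by omega), eX]
        exact hX.2.1
      · intro t ht1 ht2
        rw [List.length_append] at ht2
        rw [shift hloc P1 (X.take p0 ++ P') Q t (by omega) (by omega), eX]
        have hl1 : (X.take p0 ++ P').length = p0 + P'.length := by
          rw [List.length_append, hl0]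
        rw [hl1]
        by_cases hlt : t - P1.length + (p0 + P'.length) < z
        · exact hE _ (by omega) hlt
        · exact hX.2.2 _ (by omega) (by omega)
    · have e1 : (P1 ++ Q).take p0 = P1.take p0 := by
        rw [List.take_append_of_le_length h1]
      have e2 : (P1 ++ Q).drop p0 = P1.drop p0 ++ Q := by
        rw [List.drop_append_of_le_length h1]
      rw [T_eq φ act nu1 nu2 p0 hadd hmul, T_eq φ act nu1 nu2 p0 hadd hmul, e1, e2, ← hPQ,
        ← hUs _ _ _ _ h3 hr, ← hUs _ _ _ _ hP' hr]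

/-- event (E) for the places `a` (true) and `a'` (assumed) -/
def EB (Wl : ℕ → Prop) (z N a a' : ℕ) : Prop :=
  ∃ s, Wl s ∧ z + a ≤ s + a' + N ∧ s + a' ≤ z + N + a

/-- event (B) -/
def BB (Wl : ℕ → Prop) (z p0 : ℕ) (BadT : ℕ → Prop) (a a' : ℕ) : Prop :=
  ∃ s, Wl s ∧ z + a ≤ s + a' ∧ (∀ s' < s, z + a ≤ s' + a' → ¬ Wl s') ∧ BadT (s + a' - a - p0)

theorem first_good (hadd : ∀ a b s, act (a + b) s = act a s + act b s)
    (hmul : ∀ v s t, act v (s * t) = act (act v s) t)
    {Wo : List α → Prop} {n z N : ℕ}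
    (hloc : ∀ P Q : List α, n ≤ Q.length → (Wo (P ++ Q) ↔ Wo Q))
    (hz : 2 * p0 + 2 * N + n ≤ z) {lam rho : List α → Option V} {BadT : ℕ → Prop}
    (hUN : ∀ P v, lam P = some v → P.length ≤ N)
    (hUs : ∀ P Q v r, lam P = some v → rho Q = some r →
      r = act v (pr φ (P ++ Q)) + nu1 (P ++ Q))
    (hUc : ∀ u : List α, 2 * N ≤ u.length → ¬ BadT u.length → ∀ v, ∃ P Q, P ++ Q = u ∧
      lam P = some v ∧ (rho Q).isSome)
    (P P1 Q : List α) (hP : P.length ≤ p0) (hP1 : P1.length ≤ p0)
    (hend : Wo (P ++ Q)) (hlen : z + p0 ≤ (P ++ Q).length)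
    (hE : ¬ EB (fun s => s ≤ (P ++ Q).length ∧ Wo ((P ++ Q).take s)) z N P.length P1.length)
    (hB : ¬ BB (fun s => s ≤ (P ++ Q).length ∧ Wo ((P ++ Q).take s)) z p0 BadT P.length
      P1.length) :
    ∃ X ∈ Good (XX Wo z) (T φ act nu1 nu2 p0) (L1 φ act nu2 p0 N lam), X <+: P1 ++ Q := by
  classical
  have hl1 : (P ++ Q).length = P.length + Q.length := List.length_append
  have hl2 : (P1 ++ Q).length = P1.length + Q.length := List.length_append
  have hex : ∃ t, z ≤ t ∧ t ≤ (P1 ++ Q).length ∧ Wo ((P1 ++ Q).take t) := by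
    refine ⟨(P1 ++ Q).length, by omega, le_rfl, ?_⟩
    rw [List.take_length, hloc P1 Q (by omega), ← hloc P Q (by omega)]
    exact hend
  set t0 := Nat.find hex with ht0
  obtain ⟨h1, h2, h3⟩ := Nat.find_spec hex
  rw [← ht0] at h1 h2 h3
  have hmin : ∀ t, z ≤ t → t < t0 → ¬ Wo ((P1 ++ Q).take t) := by
    intro t ht htt hw
    exact Nat.find_min hex htt ⟨ht, by omega, hw⟩
  have hlX : ((P1 ++ Q).take t0).length = t0 := by rw [List.length_take]; omega
  have htt : ∀ t, t ≤ t0 → ((P1 ++ Q).take t0).take t = (P1 ++ Q).take t := by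
    intro t ht
    rw [List.take_take, min_eq_left ht]
  have hsh : ∀ t, P1.length + n ≤ t → t ≤ t0 → Wo ((P1 ++ Q).take t) →
      (t - P1.length + P.length ≤ (P ++ Q).length ∧
        Wo ((P ++ Q).take (t - P1.length + P.length))) := by
    intro t ht ht' hw
    exact ⟨by omega, (shift hloc P1 P Q t ht (by omega)).1 hw⟩
  refine ⟨(P1 ++ Q).take t0, ?_, List.take_prefix _ _⟩
  refine good_of φ act nu1 nu2 p0 hadd hmul hloc (by omega) hUN hUs hUc _ ?_ ?_ ?_ ?_
  · refine ⟨by rw [hlX]; exact h1, h3, ?_⟩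
    intro t ht ht'
    rw [hlX] at ht'
    rw [htt t ht'.le]
    exact hmin t ht ht'
  · intro t ht ht' hw
    rw [htt t (by omega)] at hw
    exact hE ⟨t - P1.length + P.length, hsh t (by omega) (by omega) hw, by omega, by omega⟩
  · rw [hlX]
    by_contra hlt
    exact hE ⟨t0 - P1.length + P.length, hsh t0 (by omega) le_rfl h3, by omega, by omega⟩
  · rw [hlX]
    intro hb
    refine hB ⟨t0 - P1.length + P.length, hsh t0 (by omega) le_rfl h3, by omega, ?_, ?_⟩
    · rintro s' hs' hs'' ⟨g1, g2⟩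
      have h5 := (shift hloc P P1 Q s' (by omega) (by omega)).1 g2
      exact hmin _ (by omega) (by omega) h5
    · have : t0 - P1.length + P.length + P1.length - P.length - p0 = t0 - p0 := by omega
      rw [this]
      exact hb

end

/-- **spoil count**: at most `1 + 3 C0` ambiguous pairs -/
theorem count (K C0 N W p0 z T0 b : ℕ) (x : ℕ → ℕ) (BadT : ℕ → Prop) (Wl : ℕ → Prop)
    (hx : ∀ a < K, x a ≤ p0) (hW : 2 * (p0 + N) < W) (hz : 3 * p0 + T0 ≤ z)
    (hgap : ∀ s s', Wl s → Wl s' → s < s' → W < s' - s)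
    (hb : Wl b) (hzb : z ≤ b) (hfirst : ∀ s, z ≤ s → s < b → ¬ Wl s)
    (hrul : ∀ a b c d, a < K → b < K → c < K → d < K → a ≠ b → c ≠ d → ¬ (a = c ∧ b = d) →
      2 * (N : ℤ) < |((x b : ℤ) - x a) - ((x d : ℤ) - x c)|)
    (hsp : ∀ T, T0 ≤ T → ∀ F : Finset (ℕ × ℕ), (∀ p ∈ F, p.1 < K ∧ p.2 < K ∧ p.1 ≠ p.2 ∧
      BadT (T + x p.2 - x p.1)) → F.card ≤ C0)
    (F : Finset (ℕ × ℕ)) (hF : ∀ p ∈ F, p.1 < K ∧ p.2 < K ∧ p.1 ≠ p.2 ∧
      (EB Wl z N (x p.1) (x p.2) ∨ BB Wl z p0 BadT (x p.1) (x p.2))) :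
    F.card ≤ 1 + 3 * C0 := by
  classical
  -- the three walls
  let T1 : ℕ := if h : ∃ s, Wl s ∧ s < b ∧ z ≤ s + p0 then h.choose - p0 else T0
  let T3 : ℕ := if h : ∃ s, Wl s ∧ b < s then Nat.find h - p0 else T0
  have hT1 : T0 ≤ T1 := by
    by_cases h : ∃ s, Wl s ∧ s < b ∧ z ≤ s + p0
    · have := h.choose_spec
      simp only [T1, dif_pos h]
      omega
    · simp only [T1, dif_neg h]; exact le_rfl
  have hT3 : T0 ≤ T3 := by
    by_cases h : ∃ s, Wl s ∧ b < s
    · have := Nat.find_spec h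
      simp only [T3, dif_pos h]
      omega
    · simp only [T3, dif_neg h]; exact le_rfl
  let FE := F.filter (fun p => EB Wl z N (x p.1) (x p.2))
  let F1 := F.filter (fun p => BadT (T1 + x p.2 - x p.1))
  let F2 := F.filter (fun p => BadT (b - p0 + x p.2 - x p.1))
  let F3 := F.filter (fun p => BadT (T3 + x p.2 - x p.1))
  have hsub : F ⊆ FE ∪ (F1 ∪ (F2 ∪ F3)) := by
    intro p hp
    obtain ⟨h1, h2, h3, h4⟩ := hF p hp
    have hx1 := hx _ h1
    have hx2 := hx _ h2
    rcases h4 with h4 | ⟨s, hs, g1, g2, g3⟩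
    · exact Finset.mem_union_left _ (Finset.mem_filter.2 ⟨hp, h4⟩)
    · refine Finset.mem_union_right _ ?_
      rcases lt_trichotomy s b with hlt | heq | hgt
      · refine Finset.mem_union_left _ (Finset.mem_filter.2 ⟨hp, ?_⟩)
        have hsz : s < z := by
          by_contra hc
          exact hfirst s (by omega) hlt hs
        have hexx : ∃ s, Wl s ∧ s < b ∧ z ≤ s + p0 := ⟨s, hs, hlt, by omega⟩
        have hc := hexx.choose_spec
        have hc1 : hexx.choose < z := by
          by_contra hcc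
          exact hfirst _ (by omega) hc.2.1 hc.1
        have hcs : hexx.choose = s := by
          rcases lt_trichotomy hexx.choose s with h | h | h
          · have := hgap _ _ hc.1 hs h
            omega
          · exact h
          · have := hgap _ _ hs hc.1 h
            omega
        have e : T1 + x p.2 - x p.1 = s + x p.2 - x p.1 - p0 := by
          simp only [T1, dif_pos hexx, hcs]
          omega
        rw [e]
        exact g3
      · refine Finset.mem_union_right _ (Finset.mem_union_left _ (Finset.mem_filter.2 ⟨hp, ?_⟩))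
        have e : b - p0 + x p.2 - x p.1 = s + x p.2 - x p.1 - p0 := by omega
        rw [e]
        exact g3
      · refine Finset.mem_union_right _ (Finset.mem_union_right _ (Finset.mem_filter.2 ⟨hp, ?_⟩))
        have hexx : ∃ s, Wl s ∧ b < s := ⟨s, hs, hgt⟩
        have hc := Nat.find_spec hexx
        have hcs : Nat.find hexx = s := by
          refine le_antisymm (Nat.find_min' hexx ⟨hs, hgt⟩) ?_
          by_contra hlt
          have hg := hgap _ _ hb hc.1 hc.2
          exact g2 (Nat.find hexx) (by omega) (by omega) hc.1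
        have e : T3 + x p.2 - x p.1 = s + x p.2 - x p.1 - p0 := by
          simp only [T3, dif_pos hexx, hcs]
          omega
        rw [e]
        exact g3
  have hcE : FE.card ≤ 1 := by
    rw [Finset.card_le_one]
    intro p hp q hq
    obtain ⟨hp1, s, hs, g1, g2⟩ := Finset.mem_filter.1 hp
    obtain ⟨hq1, s', hs', k1, k2⟩ := Finset.mem_filter.1 hq
    obtain ⟨a1, a2, a3, -⟩ := hF p hp1
    obtain ⟨b1, b2, b3, -⟩ := hF q hq1
    have := hx _ a1
    have := hx _ a2
    have := hx _ b1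
    have := hx _ b2
    have hss : s = s' := by
      rcases lt_trichotomy s s' with h | h | h
      · have := hgap _ _ hs hs' h
        omega
      · exact h
      · have := hgap _ _ hs' hs h
        omega
    subst hss
    by_contra hne
    have h5 := hrul p.1 p.2 q.1 q.2 a1 a2 b1 b2 a3 b3 (fun h => hne (Prod.ext h.1 h.2))
    rcases abs_cases (((x p.2 : ℤ) - x p.1) - ((x q.2 : ℤ) - x q.1)) with ⟨h6, -⟩ | ⟨h6, -⟩ <;>
      omega
  have hc1 : F1.card ≤ C0 := hsp T1 hT1 F1 fun p hp => by
    obtain ⟨h1, h2⟩ := Finset.mem_filter.1 hp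
    obtain ⟨a1, a2, a3, -⟩ := hF p h1
    exact ⟨a1, a2, a3, h2⟩
  have hc2 : F2.card ≤ C0 := hsp (b - p0) (by omega) F2 fun p hp => by
    obtain ⟨h1, h2⟩ := Finset.mem_filter.1 hp
    obtain ⟨a1, a2, a3, -⟩ := hF p h1
    exact ⟨a1, a2, a3, h2⟩
  have hc3 : F3.card ≤ C0 := hsp T3 hT3 F3 fun p hp => by
    obtain ⟨h1, h2⟩ := Finset.mem_filter.1 hp
    obtain ⟨a1, a2, a3, -⟩ := hF p h1
    exact ⟨a1, a2, a3, h2⟩
  calc F.card ≤ (FE ∪ (F1 ∪ (F2 ∪ F3))).card := Finset.card_le_card hsub
    _ ≤ FE.card + (F1.card + (F2.card + F3.card)) :=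
      (Finset.card_union_le _ _).trans (Nat.add_le_add_left ((Finset.card_union_le _ _).trans
        (Nat.add_le_add_left (Finset.card_union_le _ _) _)) _)
    _ ≤ 1 + 3 * C0 := by omega

end Crest.Agent.R320.Conc_951
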