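import Crest.Agent.R320.ThrChain_260

/-!
Row 320, scheme 2 (the promise ruler) of helper132's two-scheme chain (post 12664 (3)):
spoiling count over all failure modes of scheme 1.

`Bad a` = (E) a critical wall, or (D) a small wall within `D` of one of the levels `a + A k`,
or (B) one of the moduli divides the clock value `(N(a) - a - p0) / M`.
If `C` is a ruler (Golomb mod `M`, at resolution `2 D`, and at resolution `M` mod every `m i * M`)
then for every anchor `a` at most `1 + K + 2 r` elements `c` of `C` have a different `c'` in `C`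
such that the wrong anchor `a + (c - c')` is bad.
-/

set_option autoImplicit false

namespace Crest.Agent.R320.Ruler2_537

open Crest.Agent.R320.ThrChain260

variable {P : Par}

/-- Failure mode (D): a small wall near a level. -/
def DBad (Ws : ℤ → Prop) (A : ℕ → ℤ) (D : ℤ) (k : ℕ) (a : ℤ) : Prop :=
  ∃ u, Ws u ∧ |u - a - A k| ≤ D

/-- Failure mode (B): a modulus divides the clock value of the zone. -/
def BBad (P : Par) (Wl : ℤ → Prop) (m : ℕ → ℤ) (i : ℕ) (a : ℤ) : Prop :=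
  ∃ b, IsN P Wl a b ∧ m i ∣ (b - a - P.p0) / P.M

/-- All failure modes. -/
def Bad (P : Par) (Wl Ws : ℤ → Prop) (A : ℕ → ℤ) (D : ℤ) (K : ℕ) (m : ℕ → ℤ) (r : ℕ) (a : ℤ) :
    Prop :=
  E P Wl a ∨ (∃ k < K, DBad Ws A D k a) ∨ (∃ i < r, BBad P Wl m i a)

/-- The ruler of scheme 2. -/
structure Ruler2 (P : Par) (D : ℤ) (m : ℕ → ℤ) (r : ℕ) (C : Finset ℤ) : Prop where
  base : Ruler P C
  res : ∀ c₁ ∈ C, ∀ c₂ ∈ C, ∀ c₃ ∈ C, ∀ c₄ ∈ C, c₁ ≠ c₂ → c₃ ≠ c₄ →
    |(c₁ - c₂) - (c₃ - c₄)| ≤ 2 * D → c₁ = c₃ ∧ c₂ = c₄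
  mods : ∀ i < r, ∀ c₁ ∈ C, ∀ c₂ ∈ C, ∀ c₃ ∈ C, ∀ c₄ ∈ C, c₁ ≠ c₂ → c₃ ≠ c₄ → ∀ t : ℤ,
    |(c₁ - c₂) - (c₃ - c₄) - t * (m i * P.M)| < P.M → c₁ = c₃ ∧ c₂ = c₄

/-- The next anchors of two close (possibly wrong) anchors are equal if both are near `a + z`
or both are not. -/
theorem isN_eq_of_near {Wl : ℤ → Prop}
    (gap : ∀ t t', Wl t → Wl t' → t < t' → 2 * (P.S + P.L) < t' - t) {a d d' b b' : ℤ}
    (hd : |d| ≤ P.L) (hd' : |d'| ≤ P.L) (h : IsN P Wl (a + d) b) (h' : IsN P Wl (a + d') b')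
    (hnear : |b - a - P.z| ≤ P.S + P.L ↔ |b' - a - P.z| ≤ P.S + P.L) : b = b' := by
  have hN := P.hN
  have D1 := abs_le.mp hd
  have D1' := abs_le.mp hd'
  by_cases hb : |b - a - P.z| ≤ P.S + P.L
  · have hb' := hnear.mp hb
    have m1 := abs_le.mp hb
    have m2 := abs_le.mp hb'
    rcases lt_trichotomy b b' with hlt | heq | hgt
    · have := gap b b' h.1.1 h'.1.1 hlt
      linarith [m1.1, m1.2, m2.1, m2.2]
    · exact heq
    · have := gap b' b h'.1.1 h.1.1 hgt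
      linarith [m1.1, m1.2, m2.1, m2.2]
  · have hb' : ¬ |b' - a - P.z| ≤ P.S + P.L := fun hc => hb (hnear.mpr hc)
    have g1 := qual_ge h.1
    have g1' := qual_ge h'.1
    have c1 : a + P.z + (P.S + P.L) < b := by
      by_contra hc
      apply hb
      rw [abs_le]
      constructor <;> linarith [D1.1, D1.2]
    have c1' : a + P.z + (P.S + P.L) < b' := by
      by_contra hc
      apply hb'
      rw [abs_le]
      constructor <;> linarith [D1'.1, D1'.2]
    have q1 : Qual P Wl (a + d) b' := qual_of_ge h'.1.1 (by linarith [D1.1, D1.2])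
    have q2 : Qual P Wl (a + d') b := qual_of_ge h.1.1 (by linarith [D1'.1, D1'.2])
    rcases lt_trichotomy b b' with hlt | heq | hgt
    · exact absurd q2 (h'.2 b hlt)
    · exact heq
    · exact absurd q1 (h.2 b' hgt)

/-- (D) spoils at most one ordered pair per level. -/
theorem spoil_D {Ws : ℤ → Prop} {A : ℕ → ℤ} {D : ℤ} {m : ℕ → ℤ} {r : ℕ} {C : Finset ℤ}
    (hC : Ruler2 P D m r C)
    (gapS : ∀ t t', Ws t → Ws t' → t < t' → 2 * (D + P.L) < t' - t) {a c₁ c₂ c₃ c₄ : ℤ} {k : ℕ}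
    (h₁ : c₁ ∈ C) (h₂ : c₂ ∈ C) (h₃ : c₃ ∈ C) (h₄ : c₄ ∈ C) (hne : c₁ ≠ c₂) (hne' : c₃ ≠ c₄)
    (hb : DBad Ws A D k (a + (c₁ - c₂))) (hb' : DBad Ws A D k (a + (c₃ - c₄))) :
    c₁ = c₃ ∧ c₂ = c₄ := by
  obtain ⟨u, hu, e1⟩ := hb
  obtain ⟨u', hu', e2⟩ := hb'
  have s1 := abs_le.mp (hC.base.span c₁ h₁ c₂ h₂)
  have s2 := abs_le.mp (hC.base.span c₃ h₃ c₄ h₄)
  have m1 := abs_le.mp e1
  have m2 := abs_le.mp e2
  have huu : u = u' := by
    rcases lt_trichotomy u u' with hlt | heq | hgt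
    · have := gapS u u' hu hu' hlt
      linarith [m1.1, m1.2, m2.1, m2.2, s1.1, s1.2, s2.1, s2.2]
    · exact heq
    · have := gapS u' u hu' hu hgt
      linarith [m1.1, m1.2, m2.1, m2.2, s1.1, s1.2, s2.1, s2.2]
  subst huu
  apply hC.res c₁ h₁ c₂ h₂ c₃ h₃ c₄ h₄ hne hne'
  rw [abs_le]
  constructor <;> linarith [m1.1, m1.2, m2.1, m2.2]

/-- (B) spoils at most one ordered pair per modulus and candidate wall. -/
theorem spoil_B {Wl : ℤ → Prop} {D : ℤ} {m : ℕ → ℤ} {r : ℕ} {C : Finset ℤ}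
    (hC : Ruler2 P D m r C)
    (gap : ∀ t t', Wl t → Wl t' → t < t' → 2 * (P.S + P.L) < t' - t) {a c₁ c₂ c₃ c₄ b b' : ℤ}
    {i : ℕ} (hi : i < r)
    (h₁ : c₁ ∈ C) (h₂ : c₂ ∈ C) (h₃ : c₃ ∈ C) (h₄ : c₄ ∈ C) (hne : c₁ ≠ c₂) (hne' : c₃ ≠ c₄)
    (hb : IsN P Wl (a + (c₁ - c₂)) b) (hb' : IsN P Wl (a + (c₃ - c₄)) b')
    (hnear : |b - a - P.z| ≤ P.S + P.L ↔ |b' - a - P.z| ≤ P.S + P.L)
    (hm : m i ∣ (b - (a + (c₁ - c₂)) - P.p0) / P.M)
    (hm' : m i ∣ (b' - (a + (c₃ - c₄)) - P.p0) / P.M) :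
    c₁ = c₃ ∧ c₂ = c₄ := by
  have hbb : b = b' := isN_eq_of_near gap (hC.base.span c₁ h₁ c₂ h₂) (hC.base.span c₃ h₃ c₄ h₄)
    hb hb' hnear
  subst hbb
  obtain ⟨k, hk⟩ := hm
  obtain ⟨k', hk'⟩ := hm'
  have hM := P.hM
  set X := b - (a + (c₁ - c₂)) - P.p0 with hX
  set X' := b - (a + (c₃ - c₄)) - P.p0 with hX'
  have e1 := Int.mul_ediv_add_emod X P.M
  have e1' := Int.mul_ediv_add_emod X' P.M
  have r0 := Int.emod_nonneg X hM.ne'
  have r1 := Int.emod_lt_of_pos X hM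
  have r0' := Int.emod_nonneg X' hM.ne'
  have r1' := Int.emod_lt_of_pos X' hM
  rw [hk] at e1
  rw [hk'] at e1'
  apply hC.mods i hi c₁ h₁ c₂ h₂ c₃ h₃ c₄ h₄ hne hne' (k' - k)
  have key : (c₁ - c₂) - (c₃ - c₄) - (k' - k) * (m i * P.M) = X' % P.M - X % P.M := by
    have : (c₁ - c₂) - (c₃ - c₄) = X' - X := by rw [hX, hX']; ring
    linear_combination this - e1' + e1
  rw [key, abs_lt]
  constructor <;> linarith

/-- **Spoiling count.**  For every anchor `a` at most `1 + K + 2 r` elements of the ruler have a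
different element for which the wrong anchor is bad. -/
theorem card_spoiled {Wl Ws : ℤ → Prop} {A : ℕ → ℤ} {D : ℤ} {K : ℕ} {m : ℕ → ℤ} {r : ℕ}
    {C : Finset ℤ} (hC : Ruler2 P D m r C)
    (gap : ∀ t t', Wl t → Wl t' → t < t' → 2 * (P.S + P.L) < t' - t)
    (gapS : ∀ t t', Ws t → Ws t' → t < t' → 2 * (D + P.L) < t' - t) (a : ℤ)
    [DecidablePred fun c => ∃ c' ∈ C, c' ≠ c ∧ Bad P Wl Ws A D K m r (a + (c - c'))] :
    (C.filter fun c => ∃ c' ∈ C, c' ≠ c ∧ Bad P Wl Ws A D K m r (a + (c - c'))).card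
      ≤ 1 + K + 2 * r := by
  classical
  set near : ℤ → Prop := fun b => |b - a - P.z| ≤ P.S + P.L with hnear
  let F0 : Finset ℤ := C.filter fun c => ∃ c' ∈ C, c' ≠ c ∧ E P Wl (a + (c - c'))
  let F1 : ℕ → Finset ℤ := fun k => C.filter fun c => ∃ c' ∈ C, c' ≠ c ∧
    DBad Ws A D k (a + (c - c'))
  let F2 : ℕ → Finset ℤ := fun i => C.filter fun c => ∃ c' ∈ C, c' ≠ c ∧
    ∃ b, near b ∧ IsN P Wl (a + (c - c')) b ∧ m i ∣ (b - (a + (c - c')) - P.p0) / P.M
  let F3 : ℕ → Finset ℤ := fun i => C.filter fun c => ∃ c' ∈ C, c' ≠ c ∧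
    ∃ b, ¬ near b ∧ IsN P Wl (a + (c - c')) b ∧ m i ∣ (b - (a + (c - c')) - P.p0) / P.M
  have h0 : F0.card ≤ 1 := card_spoiled_le_one hC.base gap a
  have h1 : ∀ k, (F1 k).card ≤ 1 := by
    intro k
    rw [Finset.card_le_one]
    intro c hc d hd
    simp only [F1, Finset.mem_filter] at hc hd
    obtain ⟨hc1, c', hc', hne, hb⟩ := hc
    obtain ⟨hd1, d', hd', hne', hb'⟩ := hd
    exact (spoil_D hC gapS hc1 hc' hd1 hd' hne.symm hne'.symm hb hb').1
  have h2 : ∀ i < r, (F2 i).card ≤ 1 := by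
    intro i hi
    rw [Finset.card_le_one]
    intro c hc d hd
    simp only [F2, Finset.mem_filter] at hc hd
    obtain ⟨hc1, c', hc', hne, b, nb, hb, hm⟩ := hc
    obtain ⟨hd1, d', hd', hne', b', nb', hb', hm'⟩ := hd
    exact (spoil_B hC gap hi hc1 hc' hd1 hd' hne.symm hne'.symm hb hb'
      ⟨fun _ => nb', fun _ => nb⟩ hm hm').1
  have h3 : ∀ i < r, (F3 i).card ≤ 1 := by
    intro i hi
    rw [Finset.card_le_one]
    intro c hc d hd
    simp only [F3, Finset.mem_filter] at hc hd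
    obtain ⟨hc1, c', hc', hne, b, nb, hb, hm⟩ := hc
    obtain ⟨hd1, d', hd', hne', b', nb', hb', hm'⟩ := hd
    exact (spoil_B hC gap hi hc1 hc' hd1 hd' hne.symm hne'.symm hb hb'
      ⟨fun x => absurd x nb, fun x => absurd x nb'⟩ hm hm').1
  have hsub : (C.filter fun c => ∃ c' ∈ C, c' ≠ c ∧ Bad P Wl Ws A D K m r (a + (c - c'))) ⊆
      F0 ∪ (Finset.range K).biUnion F1 ∪
        ((Finset.range r).biUnion F2 ∪ (Finset.range r).biUnion F3) := by
    intro c hc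
    simp only [Finset.mem_filter] at hc
    obtain ⟨hc1, c', hc', hne, hb⟩ := hc
    rcases hb with hE | ⟨k, hk, hD⟩ | ⟨i, hi, b, hN, hm⟩
    · apply Finset.mem_union_left
      apply Finset.mem_union_left
      exact Finset.mem_filter.mpr ⟨hc1, c', hc', hne, hE⟩
    · apply Finset.mem_union_left
      apply Finset.mem_union_right
      exact Finset.mem_biUnion.mpr ⟨k, Finset.mem_range.mpr hk,
        Finset.mem_filter.mpr ⟨hc1, c', hc', hne, hD⟩⟩
    · apply Finset.mem_union_right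
      by_cases nb : near b
      · apply Finset.mem_union_left
        exact Finset.mem_biUnion.mpr ⟨i, Finset.mem_range.mpr hi,
          Finset.mem_filter.mpr ⟨hc1, c', hc', hne, b, nb, hN, hm⟩⟩
      · apply Finset.mem_union_right
        exact Finset.mem_biUnion.mpr ⟨i, Finset.mem_range.mpr hi,
          Finset.mem_filter.mpr ⟨hc1, c', hc', hne, b, nb, hN, hm⟩⟩
  refine (Finset.card_le_card hsub).trans ?_
  refine (Finset.card_union_le _ _).trans ?_
  have c1 : ((Finset.range K).biUnion F1).card ≤ K := by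
    refine Finset.card_biUnion_le.trans ?_
    calc ∑ k ∈ Finset.range K, (F1 k).card ≤ ∑ _k ∈ Finset.range K, 1 :=
          Finset.sum_le_sum fun k _ => h1 k
      _ = K := by simp
  have c2 : ((Finset.range r).biUnion F2).card ≤ r := by
    refine Finset.card_biUnion_le.trans ?_
    calc ∑ k ∈ Finset.range r, (F2 k).card ≤ ∑ _k ∈ Finset.range r, 1 :=
          Finset.sum_le_sum fun k hk => h2 k (Finset.mem_range.mp hk)
      _ = r := by simp
  have c3 : ((Finset.range r).biUnion F3).card ≤ r := by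
    refine Finset.card_biUnion_le.trans ?_
    calc ∑ k ∈ Finset.range r, (F3 k).card ≤ ∑ _k ∈ Finset.range r, 1 :=
          Finset.sum_le_sum fun k hk => h3 k (Finset.mem_range.mp hk)
      _ = r := by simp
  have u1 := Finset.card_union_le F0 ((Finset.range K).biUnion F1)
  have u2 := Finset.card_union_le ((Finset.range r).biUnion F2) ((Finset.range r).biUnion F3)
  omega

end Crest.Agent.R320.Ruler2_537
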