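import Mathlib

/-! Explicit ruler for the promise scheme (row 320, 132 (3) / 185): `c_j = 4^j * U`,
`U = M' * (1 + M * t) + 1`.  All differences are `U * (4^j - 4^l)`. -/

set_option autoImplicit false

namespace Crest.Agent.R320.Ruler_302

/-- Sidon property of the powers of four (one side proper). -/
theorem sidon {j l p q : ℕ} (hjl : j ≠ l)
    (h : (4 : ℤ) ^ j - 4 ^ l = 4 ^ p - 4 ^ q) : j = p ∧ l = q := by
  have h' : (4 : ℕ) ^ j + 4 ^ q = 4 ^ p + 4 ^ l := by
    have : (4 : ℤ) ^ j + 4 ^ q = 4 ^ p + 4 ^ l := by linarith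
    exact_mod_cast this
  -- compare the largest exponents
  have key : ∀ a b c d : ℕ, a ≤ b → c ≤ d → (4 : ℕ) ^ a + 4 ^ b = 4 ^ c + 4 ^ d → b = d := by
    intro a b c d hab hcd he
    rcases lt_trichotomy b d with hlt | heq | hgt
    · exfalso
      have h1 : (4 : ℕ) ^ a ≤ 4 ^ b := Nat.pow_le_pow_right (by norm_num) hab
      have h2 : (4 : ℕ) ^ (b + 1) ≤ 4 ^ d := Nat.pow_le_pow_right (by norm_num) hlt
      have h3 : 0 < (4 : ℕ) ^ c := by positivity
      have h4 : (4 : ℕ) ^ (b + 1) = 4 * 4 ^ b := by ring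
      have h5 : 0 < (4 : ℕ) ^ b := by positivity
      omega
    · exact heq
    · exfalso
      have h1 : (4 : ℕ) ^ c ≤ 4 ^ d := Nat.pow_le_pow_right (by norm_num) hcd
      have h2 : (4 : ℕ) ^ (d + 1) ≤ 4 ^ b := Nat.pow_le_pow_right (by norm_num) hgt
      have h3 : 0 < (4 : ℕ) ^ a := by positivity
      have h4 : (4 : ℕ) ^ (d + 1) = 4 * 4 ^ d := by ring
      have h5 : 0 < (4 : ℕ) ^ d := by positivity
      omega
  have inj : ∀ a b : ℕ, (4 : ℕ) ^ a = 4 ^ b → a = b := fun a b h =>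
    Nat.pow_right_injective (le_refl 2 |>.trans (by norm_num)) h
  rcases le_total j q with hjq | hjq <;> rcases le_total p l with hpl | hpl
  · have h1 := key j q p l hjq hpl h'
    subst h1
    exact ⟨inj _ _ (by omega), rfl⟩
  · have h1 := key j q l p hjq hpl (by omega)
    subst h1
    exact absurd (inj _ _ (by omega)) hjl
  · have h1 := key q j p l hjq hpl (by omega)
    exact absurd h1 hjl
  · have h1 := key q j l p hjq hpl (by omega)
    subst h1
    exact ⟨rfl, inj _ _ (by omega)⟩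

/-- the spread of a double difference -/
theorem spread {k j l p q : ℕ} (hj : j < k) (hl : l < k) (hp : p < k) (hq : q < k) :
    |((4 : ℤ) ^ j - 4 ^ l) - (4 ^ p - 4 ^ q)| < 4 ^ k := by
  have hb : ∀ a, a < k → (4 : ℤ) * 4 ^ a ≤ 4 ^ k := by
    intro a ha
    have : (4 : ℤ) ^ (a + 1) ≤ 4 ^ k := pow_le_pow_right₀ (by norm_num) ha
    calc (4 : ℤ) * 4 ^ a = 4 ^ (a + 1) := by ring
      _ ≤ 4 ^ k := this
  have hpos : ∀ a : ℕ, (0 : ℤ) < 4 ^ a := fun a => by positivity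
  have := hb j hj; have := hb l hl; have := hb p hp; have := hb q hq
  have := hpos j; have := hpos l; have := hpos p; have := hpos q
  rw [abs_lt]
  constructor <;> linarith

/-- (1) differences are distinct modulo `M'` (take `p = q` for: no difference is `0`). -/
theorem dist_mod {k j l p q : ℕ} {M' U : ℤ} (hM' : (4 : ℤ) ^ k ≤ M') (hU : M' ∣ U - 1)
    (hj : j < k) (hl : l < k) (hp : p < k) (hq : q < k) (hjl : j ≠ l)
    (h : M' ∣ U * (4 ^ j - 4 ^ l) - U * (4 ^ p - 4 ^ q)) : j = p ∧ l = q := by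
  set e : ℤ := ((4 : ℤ) ^ j - 4 ^ l) - (4 ^ p - 4 ^ q) with he
  have h1 : M' ∣ e := by
    have h2 : U * (4 ^ j - 4 ^ l) - U * (4 ^ p - 4 ^ q) = (U - 1) * e + e := by rw [he]; ring
    rw [h2] at h
    exact (dvd_add_right (Dvd.dvd.mul_right hU e)).1 h
  have h3 := spread hj hl hp hq
  rw [← he] at h3
  have h4 : e = 0 := Int.eq_zero_of_abs_lt_dvd h1 (lt_of_lt_of_le h3 hM')
  exact sidon hjl (by linarith)

/-- (3) absolute resolution `U`. -/
theorem resol {j l p q : ℕ} {U : ℤ} (hU : 0 < U) (hjl : j ≠ l)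
    (h : |U * (4 ^ j - 4 ^ l) - U * (4 ^ p - 4 ^ q)| < U) : j = p ∧ l = q := by
  set e : ℤ := ((4 : ℤ) ^ j - 4 ^ l) - (4 ^ p - 4 ^ q) with he
  have h2 : U * (4 ^ j - 4 ^ l) - U * (4 ^ p - 4 ^ q) = U * e := by rw [he]; ring
  rw [h2, abs_mul, abs_of_pos hU] at h
  have h4 : |e| < 1 := by
    by_contra hc
    push Not at hc
    nlinarith
  have h5 : e = 0 := Int.abs_lt_one_iff.1 h4
  exact sidon hjl (by linarith)

/-- (2) resolution `M'` modulo `m * M'`, for `m ∣ M`, `U = M' * (1 + M * t) + 1`. -/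
theorem dist_mod_floor {k j l p q : ℕ} {M' M m t U r : ℤ} (hM' : 0 < M')
    (hm : 2 * (4 : ℤ) ^ k + 2 ≤ m) (hmM : m ∣ M) (hU : U = M' * (1 + M * t) + 1)
    (hj : j < k) (hl : l < k) (hp : p < k) (hq : q < k) (hjl : j ≠ l) (hr : |r| < M')
    (h : m * M' ∣ U * (4 ^ j - 4 ^ l) - U * (4 ^ p - 4 ^ q) - r) : j = p ∧ l = q := by
  set e : ℤ := ((4 : ℤ) ^ j - 4 ^ l) - (4 ^ p - 4 ^ q) with he
  have h2 : U * (4 ^ j - 4 ^ l) - U * (4 ^ p - 4 ^ q) - r
      = M' * M * t * e + ((M' + 1) * e - r) := by rw [he, hU]; ring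
  rw [h2] at h
  have h3 : m * M' ∣ M' * M * t * e := by
    obtain ⟨c, rfl⟩ := hmM
    exact ⟨c * t * e, by ring⟩
  have h4 : m * M' ∣ (M' + 1) * e - r := (dvd_add_right h3).1 h
  have h5 := spread hj hl hp hq
  rw [← he] at h5
  have hk : (0 : ℤ) < 4 ^ k := by positivity
  have h6 : |(M' + 1) * e - r| < m * M' := by
    have h7 : |(M' + 1) * e - r| ≤ |(M' + 1) * e| + |r| := abs_sub _ _
    have h8 : |(M' + 1) * e| = (M' + 1) * |e| := by
      rw [abs_mul, abs_of_pos (by linarith)]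
    have h9 : (M' + 1) * |e| ≤ 2 * M' * |e| := by
      have : (0 : ℤ) ≤ |e| := abs_nonneg e
      nlinarith
    nlinarith
  have h7 : (M' + 1) * e - r = 0 := Int.eq_zero_of_abs_lt_dvd h4 h6
  have h8 : e = 0 := by
    by_contra hc
    have h9 : 1 ≤ |e| := Int.one_le_abs hc
    have h10 : |(M' + 1) * e| = |r| := by rw [show (M' + 1) * e = r by linarith]
    rw [abs_mul, abs_of_pos (by linarith : (0:ℤ) < M' + 1)] at h10
    nlinarith
  exact sidon hjl (by linarith)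

end Crest.Agent.R320.Ruler_302
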