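import Mathlib

/-!
Row 320, post #12664 (helper132), items (2) and (3): the chain rule with residue thresholds.
Pure integer statements.  `Wl` = set of walls, `M` = comb modulus, `th` = thresholds indexed by
residues modulo `M`, `z` = step, `p0` = left offset of the window, `N1` = length of the window,
`S` = bound of the thresholds, `Lam` = span of the ruler.
-/

set_option autoImplicit false

namespace Crest.Agent.R320.Thresh997

/-- consecutive (hence all) walls are more than `G` apart -/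
def Gap (Wl : ℤ → Prop) (G : ℤ) : Prop := ∀ s t, Wl s → Wl t → s < t → G < t - s

/-- the wall `t` qualifies as right end of the zone that starts at `a` -/
def Q (Wl : ℤ → Prop) (th : ℤ → ℤ) (M z a t : ℤ) : Prop :=
  Wl t ∧ th ((t - a - z) % M) ≤ t - a - z

/-- `b = N(a)` : the first qualifying wall -/
def IsN (Wl : ℤ → Prop) (th : ℤ → ℤ) (M z a b : ℤ) : Prop :=
  Q Wl th M z a b ∧ ∀ t, t < b → ¬ Q Wl th M z a t

/-- what the right side at `x` computes (it does not know `a`) -/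
def QR (Wl : ℤ → Prop) (th : ℤ → ℤ) (M z p0 x t : ℤ) : Prop :=
  Wl t ∧ x ≤ t ∧ th ((t - x + p0 - z) % M) ≤ t - x + p0 - z

def IsB (Wl : ℤ → Prop) (th : ℤ → ℤ) (M z p0 x b : ℤ) : Prop :=
  QR Wl th M z p0 x b ∧ ∀ t, t < b → ¬ QR Wl th M z p0 x t

/-- right-legality with respect to the outer walls -/
def LegR (Wl : ℤ → Prop) (th : ℤ → ℤ) (M z p0 N1 x : ℤ) : Prop :=
  ∀ t, Wl t → x ≤ t →
    ¬ (t - x + p0 - z < th ((t - x + p0 - z) % M) ∧
        th ((t - x + p0 - z) % M) ≤ t - x + p0 - z + N1)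

/-- the outer wall band (E) -/
def Ebad (Wl : ℤ → Prop) (th : ℤ → ℤ) (M z N1 a : ℤ) : Prop :=
  ∃ t, Wl t ∧ |t - a - z - th ((t - a - z) % M)| ≤ N1

variable {Wl : ℤ → Prop} {th : ℤ → ℤ} {M z p0 N1 S Lam : ℤ}

theorem emod_shift (t a om : ℤ) : (t - (a + p0 + M * om) + p0 - z) % M = (t - a - z) % M := by
  have h : t - (a + p0 + M * om) + p0 - z = (t - a - z) + M * (-om) := by ring
  rw [h, Int.add_mul_emod_self_left]

/-- **junction lemma**: at every legal junction `x = a + p0 + M om` of every text the right side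
computes `N(a)`. -/
theorem isN_iff_isB (hth : ∀ r, -S ≤ th r) (hz : p0 + N1 + S < z)
    {a om b : ℤ} (h0 : 0 ≤ M * om) (h1 : M * om ≤ N1)
    (hleg : LegR Wl th M z p0 N1 (a + p0 + M * om)) :
    IsN Wl th M z a b ↔ IsB Wl th M z p0 (a + p0 + M * om) b := by
  have key : ∀ t, Q Wl th M z a t ↔ QR Wl th M z p0 (a + p0 + M * om) t := by
    intro t
    unfold Q QR
    rw [emod_shift]
    constructor
    · rintro ⟨hw, hq⟩
      have hx : a + p0 + M * om ≤ t := by
        by_contra hcon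
        have := hth ((t - a - z) % M)
        linarith
      refine ⟨hw, hx, ?_⟩
      have hl := hleg t hw hx
      rw [emod_shift] at hl
      by_contra hcon
      exact hl ⟨by linarith, by linarith⟩
    · rintro ⟨hw, hx, hq⟩
      exact ⟨hw, by linarith⟩
  unfold IsN IsB
  rw [key b]
  constructor
  · rintro ⟨h, h'⟩
    exact ⟨h, fun t ht => fun hh => h' t ht ((key t).2 hh)⟩
  · rintro ⟨h, h'⟩
    exact ⟨h, fun t ht => fun hh => h' t ht ((key t).1 hh)⟩

theorem IsN.unique {a b b' : ℤ} (h : IsN Wl th M z a b) (h' : IsN Wl th M z a b') : b = b' := by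
  rcases lt_trichotomy b b' with hlt | heq | hgt
  · exact absurd h.1 (h'.2 b hlt)
  · exact heq
  · exact absurd h'.1 (h.2 b' hgt)

/-- off the band (E) every place of the window is right-legal -/
theorem legR_of_not_Ebad {a om : ℤ} (h0 : 0 ≤ M * om) (h1 : M * om ≤ N1)
    (hE : ¬ Ebad Wl th M z N1 a) : LegR Wl th M z p0 N1 (a + p0 + M * om) := by
  intro t hw _ hcon
  rw [emod_shift] at hcon
  apply hE
  refine ⟨t, hw, ?_⟩
  rw [abs_le]
  constructor <;> linarith [hcon.1, hcon.2]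

/-- existence and range of `N(a)` -/
theorem exists_isN (hlo : ∀ r, -S ≤ th r) (hhi : ∀ r, th r ≤ S) {a t1 : ℤ}
    (hw : Wl t1) (h1 : a + z + S ≤ t1) :
    ∃ b, IsN Wl th M z a b ∧ a + z - S ≤ b ∧ b ≤ t1 := by
  classical
  have hq : Q Wl th M z a t1 := ⟨hw, by have := hhi ((t1 - a - z) % M); linarith⟩
  have hlb : ∀ t, Q Wl th M z a t → a + z - S ≤ t := by
    intro t ht
    have := hlo ((t - a - z) % M)
    have := ht.2
    linarith
  obtain ⟨b, hb, hmin⟩ := Int.exists_least_of_bdd (P := fun t => Q Wl th M z a t)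
    ⟨a + z - S, fun t ht => hlb t ht⟩ ⟨t1, hq⟩
  refine ⟨b, ⟨hb, fun t ht hh => ?_⟩, hlb b hb, hmin t1 hq⟩
  exact absurd (hmin t hh) (not_le.2 ht)

/-- `N(a)` for all `a'` near `a` is the wall near `a + z` or the next one: if `t0`, `t1` are such
that every wall in the doubt region is `t0` and `t1` is the first wall behind the region, then
`N(a') = t0` or `N(a') = t1`. -/
theorem isN_near (hlo : ∀ r, -S ≤ th r) (hhi : ∀ r, th r ≤ S) {a d b t1 : ℤ}
    (hd : |d| ≤ Lam)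
    (ht1 : Wl t1) (ht1' : a + z + S + Lam ≤ t1)
    (hfirst : ∀ t, Wl t → a + z + S + Lam ≤ t → t1 ≤ t)
    (hb : IsN Wl th M z (a - d) b) :
    b = t1 ∨ (a + z - S - Lam ≤ b ∧ b < a + z + S + Lam) := by
  have hd' := abs_le.1 hd
  have h1 : -S ≤ b - (a - d) - z := le_trans (hlo _) hb.1.2
  by_cases h : a + z + S + Lam ≤ b
  · left
    have hge := hfirst b hb.1.1 h
    rcases eq_or_lt_of_le hge with heq | hlt
    · exact heq.symm
    · exfalso
      apply hb.2 t1 hlt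
      refine ⟨ht1, ?_⟩
      have := hhi ((t1 - (a - d) - z) % M)
      linarith [hd'.1, hd'.2]
  · right
    constructor
    · linarith [hd'.1, hd'.2]
    · linarith

/-- **(E) spoils at most one difference modulo `M`.** -/
theorem Ebad_near (hlo : ∀ r, -S + N1 ≤ th r) (hhi : ∀ r, th r ≤ S - N1)
    (hsep : ∀ t t' : ℤ, |th (t % M) - th (t' % M)| ≤ 2 * N1 + 2 * Lam → t % M = t' % M)
    (hgap : Gap Wl (2 * S + 2 * Lam)) {a d d' : ℤ} (hd : |d| ≤ Lam) (hd' : |d'| ≤ Lam)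
    (h : Ebad Wl th M z N1 (a - d)) (h' : Ebad Wl th M z N1 (a - d')) :
    (d - d') % M = 0 := by
  obtain ⟨t, hw, ht⟩ := h
  obtain ⟨t', hw', ht'⟩ := h'
  rw [abs_le] at hd hd' ht ht'
  have e1 := hlo ((t - (a - d) - z) % M)
  have e2 := hhi ((t - (a - d) - z) % M)
  have e3 := hlo ((t' - (a - d') - z) % M)
  have e4 := hhi ((t' - (a - d') - z) % M)
  have heq : t = t' := by
    rcases lt_trichotomy t t' with hlt | heq | hgt
    · have := hgap t t' hw hw' hlt
      linarith [hd.1, hd.2, hd'.1, hd'.2, ht.1, ht.2, ht'.1, ht'.2]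
    · exact heq
    · have := hgap t' t hw' hw hgt
      linarith [hd.1, hd.2, hd'.1, hd'.2, ht.1, ht.2, ht'.1, ht'.2]
  subst heq
  have hs : |th ((t - (a - d) - z) % M) - th ((t - (a - d') - z) % M)| ≤ 2 * N1 + 2 * Lam := by
    rw [abs_le]
    constructor <;> linarith [hd.1, hd.2, hd'.1, hd'.2, ht.1, ht.2, ht'.1, ht'.2]
  have hres := hsep _ _ hs
  have h2 := Int.emod_emod_of_dvd (t - (a - d) - z) (dvd_refl M)
  have h3 : ((t - (a - d) - z) - (t - (a - d') - z)) % M = 0 :=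
    Int.emod_eq_emod_iff_emod_sub_eq_zero.1 hres
  have h4 : (t - (a - d) - z) - (t - (a - d') - z) = d - d' := by ring
  rwa [h4] at h3

/-- ruler form: `C` Golomb modulo `M`; the pairs `(c, c')` with `a + c - c'` (E)-bad are at most
one pair off the diagonal, and none if `a` itself is (E)-bad. -/
theorem Ebad_ruler (hlo : ∀ r, -S + N1 ≤ th r) (hhi : ∀ r, th r ≤ S - N1)
    (hsep : ∀ t t' : ℤ, |th (t % M) - th (t' % M)| ≤ 2 * N1 + 2 * Lam → t % M = t' % M)
    (hgap : Gap Wl (2 * S + 2 * Lam)) {a : ℤ} {C : ℤ → Prop}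
    (hspan : ∀ c c', C c → C c' → |c' - c| ≤ Lam)
    (hgol : ∀ c1 c1' c2 c2', C c1 → C c1' → C c2 → C c2' →
      ((c1' - c1) - (c2' - c2)) % M = 0 → (c1 = c1' ∧ c2 = c2') ∨ (c1 = c2 ∧ c1' = c2'))
    {c1 c1' c2 c2' : ℤ} (h1 : C c1) (h1' : C c1') (h2 : C c2) (h2' : C c2')
    (hb1 : Ebad Wl th M z N1 (a + c1 - c1')) (hb2 : Ebad Wl th M z N1 (a + c2 - c2')) :
    (c1 = c1' ∧ c2 = c2') ∨ (c1 = c2 ∧ c1' = c2') := by
  apply hgol c1 c1' c2 c2' h1 h1' h2 h2'
  have e1 : a + c1 - c1' = a - (c1' - c1) := by ring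
  have e2 : a + c2 - c2' = a - (c2' - c2) := by ring
  rw [e1] at hb1
  rw [e2] at hb2
  exact Ebad_near hlo hhi hsep hgap (hspan _ _ h1 h1') (hspan _ _ h2 h2') hb1 hb2

theorem Ebad_ruler_self (hlo : ∀ r, -S + N1 ≤ th r) (hhi : ∀ r, th r ≤ S - N1)
    (hsep : ∀ t t' : ℤ, |th (t % M) - th (t' % M)| ≤ 2 * N1 + 2 * Lam → t % M = t' % M)
    (hgap : Gap Wl (2 * S + 2 * Lam)) {a : ℤ} {C : ℤ → Prop}
    (hspan : ∀ c c', C c → C c' → |c' - c| ≤ Lam)
    (hgol : ∀ c1 c1' c2 c2', C c1 → C c1' → C c2 → C c2' →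
      ((c1' - c1) - (c2' - c2)) % M = 0 → (c1 = c1' ∧ c2 = c2') ∨ (c1 = c2 ∧ c1' = c2'))
    {c c' : ℤ} (h1 : C c) (h1' : C c')
    (ha : Ebad Wl th M z N1 a) (hb : Ebad Wl th M z N1 (a + c - c')) : c = c' := by
  have ha' : Ebad Wl th M z N1 (a + c - c) := by
    have : a + c - c = a := by ring
    rwa [this]
  rcases Ebad_ruler hlo hhi hsep hgap hspan hgol h1 h1 h1 h1' ha' hb with h | h
  · exact h.2
  · exact h.2

/-- (D): a small wall within `R` of `a' + A` for two places `a' = a - d`, `a - d'` : the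
differences are within `2R`. -/
theorem small_near {Wl : ℤ → Prop} {a A R d d' Lam w w' : ℤ} (hgap : Gap Wl (2 * Lam + 2 * R))
    (hd : |d| ≤ Lam) (hd' : |d'| ≤ Lam) (hw : Wl w) (hw' : Wl w')
    (h : |w - (a - d + A)| ≤ R) (h' : |w' - (a - d' + A)| ≤ R) : |d - d'| ≤ 2 * R := by
  rw [abs_le] at hd hd' h h'
  have heq : w = w' := by
    rcases lt_trichotomy w w' with hlt | heq | hgt
    · have := hgap w w' hw hw' hlt
      linarith [hd.1, hd.2, hd'.1, hd'.2, h.1, h.2, h'.1, h'.2]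
    · exact heq
    · have := hgap w' w hw' hw hgt
      linarith [hd.1, hd.2, hd'.1, hd'.2, h.1, h.2, h'.1, h'.2]
  subst heq
  rw [abs_le]
  constructor <;> linarith [h.1, h.2, h'.1, h'.2]

/-- (B): `m ∣ ⌊(K + d) / M⌋` and `m ∣ ⌊(K + d') / M⌋` put `d - d'` within `M` of a multiple of
`m M`. -/
theorem floor_near {M : ℤ} (hM : 0 < M) {m K d d' : ℤ}
    (h : m ∣ (K + d) / M) (h' : m ∣ (K + d') / M) :
    ∃ k, |d - d' - k * (m * M)| < M := by
  obtain ⟨u, hu⟩ := h
  obtain ⟨v, hv⟩ := h'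
  refine ⟨u - v, ?_⟩
  have e1 := Int.mul_ediv_add_emod (K + d) M
  have e2 := Int.mul_ediv_add_emod (K + d') M
  have p1 := Int.emod_nonneg (K + d) hM.ne'
  have p2 := Int.emod_lt_of_pos (K + d) hM
  have p3 := Int.emod_nonneg (K + d') hM.ne'
  have p4 := Int.emod_lt_of_pos (K + d') hM
  rw [hu] at e1
  rw [hv] at e2
  have e3 : d - d' - (u - v) * (m * M) = (K + d) % M - (K + d') % M := by
    have : d - d' = (K + d) - (K + d') := by ring
    rw [this, ← e1, ← e2]
    have q1 : (M * (m * u) + (K + d) % M) % M = (K + d) % M := by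
      rw [e1]
    have q2 : (M * (m * v) + (K + d') % M) % M = (K + d') % M := by
      rw [e2]
    rw [q1, q2]
    ring
  rw [e3, abs_lt]
  constructor <;> linarith

/-- thresholds exist: `th r = (r - M) * D` style, pairwise more than `D` apart and bounded. -/
theorem exists_thresholds {M : ℤ} (hM : 0 < M) (N1 Lam : ℤ) (hN : 0 ≤ N1) (hL : 0 ≤ Lam) :
    ∃ (S : ℤ) (th : ℤ → ℤ), 0 ≤ S ∧ (∀ r, -S + N1 ≤ th r) ∧ (∀ r, th r ≤ S - N1) ∧
      (∀ t t' : ℤ, |th (t % M) - th (t' % M)| ≤ 2 * N1 + 2 * Lam → t % M = t' % M) := by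
  refine ⟨(2 * N1 + 2 * Lam + 1) * M + N1, fun r => (2 * N1 + 2 * Lam + 1) * (r % M), ?_, ?_, ?_,
    ?_⟩
  · positivity
  · intro r
    have p1 := Int.emod_nonneg r hM.ne'
    have : 0 ≤ (2 * N1 + 2 * Lam + 1) * (r % M) := by positivity
    have : 0 ≤ (2 * N1 + 2 * Lam + 1) * M := by positivity
    show -((2 * N1 + 2 * Lam + 1) * M + N1) + N1 ≤ (2 * N1 + 2 * Lam + 1) * (r % M)
    linarith
  · intro r
    have p2 := Int.emod_lt_of_pos r hM
    have : (2 * N1 + 2 * Lam + 1) * (r % M) ≤ (2 * N1 + 2 * Lam + 1) * M :=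
      mul_le_mul_of_nonneg_left p2.le (by positivity)
    show (2 * N1 + 2 * Lam + 1) * (r % M) ≤ (2 * N1 + 2 * Lam + 1) * M + N1 - N1
    linarith
  · intro t t' h
    simp only [Int.emod_emod_of_dvd _ (dvd_refl M)] at h
    have h2 : |(2 * N1 + 2 * Lam + 1) * (t % M - t' % M)| ≤ 2 * N1 + 2 * Lam := by
      have : (2 * N1 + 2 * Lam + 1) * (t % M - t' % M)
          = (2 * N1 + 2 * Lam + 1) * (t % M) - (2 * N1 + 2 * Lam + 1) * (t' % M) := by ring
      rw [this]; exact h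
    rw [abs_mul, abs_of_pos (by positivity)] at h2
    by_contra hne
    have h3 : 1 ≤ |t % M - t' % M| := Int.one_le_abs (sub_ne_zero.2 hne)
    have : (2 * N1 + 2 * Lam + 1) * 1 ≤ (2 * N1 + 2 * Lam + 1) * |t % M - t' % M| :=
      mul_le_mul_of_nonneg_left h3 (by positivity)
    linarith

end Crest.Agent.R320.Thresh997
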