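import Mathlib
import Crest.Agent.R320.Ruler2_537
import Crest.Agent.R320.Ruler_302
import Crest.Agent.R320.Thresh_997

/-!
Row 320, CORE-5: the constants of helper132's two wall schemes (post 12664 (4)).

* `exists_ruler2` : the ruler of scheme 2 exists for every comb modulus `M' ≥ 4 ^ k`, every
  family of moduli `m i ∣ M`, `m i ≥ 2 * 4 ^ k + 2`, and every resolution `D`; it does not depend on
  the remaining parameters of the threshold rule.
* `exists_par` : the threshold rule exists for every `M'`, `N1`, `L`.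
* `exists_thr` : the same in natural numbers (`thr ρ = z + s ρ`, `M' ∣ z`).
-/

set_option autoImplicit false

namespace Crest.Agent.R320.Const_809

open Crest.Agent.R320.ThrChain260 Crest.Agent.R320.Ruler2_537

/-- the marks of the ruler -/
def mark (U j : ℕ) : ℕ := U * 4 ^ j

theorem mark_strictMono {U : ℕ} (hU : 0 < U) : StrictMono (mark U) := by
  intro i j hij
  exact Nat.mul_lt_mul_of_pos_left (Nat.pow_lt_pow_right (by norm_num) hij) hU

theorem mark_gap {U i j : ℕ} (hij : i < j) : mark U i + U ≤ mark U j := by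
  unfold mark
  have h1 : 4 ^ i + 1 ≤ 4 ^ j := Nat.pow_lt_pow_right (by norm_num) hij
  calc U * 4 ^ i + U = U * (4 ^ i + 1) := by ring
    _ ≤ U * 4 ^ j := Nat.mul_le_mul_left _ h1

theorem mark_sub {U : ℕ} (j l p q : ℕ) :
    (((mark U j : ℕ) : ℤ) - (mark U l : ℕ)) - ((mark U p : ℕ) - (mark U q : ℕ))
      = (U : ℤ) * (4 ^ j - 4 ^ l) - U * (4 ^ p - 4 ^ q) := by
  unfold mark
  push_cast
  ring

/-- **The ruler of scheme 2 exists**, before the thresholds, the outer walls, `p0` and `z`. -/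
theorem exists_ruler2 (k M' : ℕ) (hM' : 4 ^ k ≤ M') (r : ℕ) (m : ℕ → ℕ) (M : ℕ) (hM : 0 < M)
    (hm : ∀ i < r, 2 * 4 ^ k + 2 ≤ m i ∧ m i ∣ M) (D : ℕ) :
    ∃ (c : ℕ → ℕ) (L : ℕ), StrictMono c ∧ (∀ j, 2 * D < c j) ∧
      (∀ i j, i < j → c i + 2 * D < c j) ∧ (∀ j < k, c j ≤ L) ∧
      ∀ P : Par, P.M = (M' : ℤ) → P.L = (L : ℤ) →
        Ruler2 P (D : ℤ) (fun i => (m i : ℤ)) r
          ((Finset.range k).image (fun j => ((c j : ℕ) : ℤ))) := by
  have hk : 0 < 4 ^ k := by positivity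
  have hM'0 : 0 < M' := lt_of_lt_of_le hk hM'
  obtain ⟨U, hU⟩ : ∃ U : ℕ, U = M' * (1 + M * (2 * D + 1)) + 1 := ⟨_, rfl⟩
  have hUD : 2 * D < U := by
    have h1 : 2 * D + 1 ≤ M * (2 * D + 1) := Nat.le_mul_of_pos_left _ hM
    have h2 : 1 + M * (2 * D + 1) ≤ M' * (1 + M * (2 * D + 1)) := Nat.le_mul_of_pos_left _ hM'0
    omega
  have hU0 : 0 < U := by omega
  have hUz : (U : ℤ) = (M' : ℤ) * (1 + (M : ℤ) * (2 * D + 1)) + 1 := by rw [hU]; push_cast; ring
  have hM'z : (4 : ℤ) ^ k ≤ (M' : ℤ) := by exact_mod_cast hM'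
  have hdvd : (M' : ℤ) ∣ (U : ℤ) - 1 := ⟨1 + (M : ℤ) * (2 * D + 1), by rw [hUz]; ring⟩
  have hUz0 : (0 : ℤ) < (U : ℤ) := by exact_mod_cast hU0
  have hM'z0 : (0 : ℤ) < (M' : ℤ) := by exact_mod_cast hM'0
  refine ⟨mark U, mark U k, mark_strictMono hU0, ?_, ?_, ?_, ?_⟩
  · intro j
    have : U ≤ mark U j := Nat.le_mul_of_pos_right _ (by positivity)
    omega
  · intro i j hij
    have := mark_gap (U := U) hij
    omega
  · intro j hj
    exact (mark_strictMono hU0).monotone hj.le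
  · intro P hPM hPL
    have mem : ∀ {x : ℤ}, x ∈ (Finset.range k).image (fun j => ((mark U j : ℕ) : ℤ)) →
        ∃ j, j < k ∧ x = ((mark U j : ℕ) : ℤ) := by
      intro x hx
      obtain ⟨j, hj, rfl⟩ := Finset.mem_image.mp hx
      exact ⟨j, Finset.mem_range.mp hj, rfl⟩
    have nej : ∀ {j l : ℕ}, ((mark U j : ℕ) : ℤ) ≠ ((mark U l : ℕ) : ℤ) → j ≠ l := by
      rintro j l h rfl
      exact h rfl
    refine ⟨⟨?_, ?_, ?_⟩, ?_, ?_⟩
    · intro x hx y hy
      obtain ⟨j, hj, rfl⟩ := mem hx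
      obtain ⟨l, hl, rfl⟩ := mem hy
      have h1 : mark U j ≤ mark U k := (mark_strictMono hU0).monotone hj.le
      have h2 : mark U l ≤ mark U k := (mark_strictMono hU0).monotone hl.le
      rw [hPL, abs_le]
      constructor <;> omega
    · intro x hx y hy hne hd
      obtain ⟨j, hj, rfl⟩ := mem hx
      obtain ⟨l, hl, rfl⟩ := mem hy
      have hjl := nej hne
      rw [hPM] at hd
      have h := Ruler_302.dist_mod (p := j) (q := j) hM'z hdvd hj hl hj hj hjl (by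
        rw [← mark_sub]
        simpa using hd)
      exact hjl h.2.symm
    · intro x1 hx1 x2 hx2 x3 hx3 x4 hx4 hne hne' hd
      obtain ⟨j, hj, rfl⟩ := mem hx1
      obtain ⟨l, hl, rfl⟩ := mem hx2
      obtain ⟨p, hp, rfl⟩ := mem hx3
      obtain ⟨q, hq, rfl⟩ := mem hx4
      rw [hPM, mark_sub] at hd
      obtain ⟨rfl, rfl⟩ := Ruler_302.dist_mod hM'z hdvd hj hl hp hq (nej hne) hd
      exact ⟨rfl, rfl⟩
    · intro x1 hx1 x2 hx2 x3 hx3 x4 hx4 hne hne' hd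
      obtain ⟨j, hj, rfl⟩ := mem hx1
      obtain ⟨l, hl, rfl⟩ := mem hx2
      obtain ⟨p, hp, rfl⟩ := mem hx3
      obtain ⟨q, hq, rfl⟩ := mem hx4
      rw [mark_sub] at hd
      obtain ⟨rfl, rfl⟩ := Ruler_302.resol hUz0 (nej hne) (lt_of_le_of_lt hd (by exact_mod_cast hUD))
      exact ⟨rfl, rfl⟩
    · intro i hi x1 hx1 x2 hx2 x3 hx3 x4 hx4 hne hne' t hd
      obtain ⟨j, hj, rfl⟩ := mem hx1
      obtain ⟨l, hl, rfl⟩ := mem hx2
      obtain ⟨p, hp, rfl⟩ := mem hx3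
      obtain ⟨q, hq, rfl⟩ := mem hx4
      rw [hPM, mark_sub] at hd
      obtain ⟨hm1, hm2⟩ := hm i hi
      obtain ⟨rfl, rfl⟩ := Ruler_302.dist_mod_floor (m := (m i : ℤ)) (M := (M : ℤ))
        (t := 2 * (D : ℤ) + 1) hM'z0 (by exact_mod_cast hm1) (by exact_mod_cast hm2) hUz
        hj hl hp hq (nej hne) hd ⟨t, by ring⟩
      exact ⟨rfl, rfl⟩

/-- **The threshold rule exists** for every comb modulus, window length and span. -/
theorem exists_par (M' N1 L : ℕ) (hM' : 0 < M') :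
    ∃ (S : ℕ) (s : ℤ → ℤ), ∀ z p0 : ℤ, ∃ P : Par, P.M = (M' : ℤ) ∧ P.z = z ∧ P.p0 = p0 ∧
      P.N1 = (N1 : ℤ) ∧ P.S = (S : ℤ) ∧ P.L = (L : ℤ) ∧ P.s = s := by
  obtain ⟨S, th, hS, h1, h2, h3⟩ := Crest.Agent.R320.Thresh997.exists_thresholds
    (M := (M' : ℤ)) (by exact_mod_cast hM') (N1 : ℤ) (L : ℤ) (by positivity) (by positivity)
  obtain ⟨S', rfl⟩ : ∃ S' : ℕ, S = (S' : ℤ) := ⟨S.toNat, (Int.toNat_of_nonneg hS).symm⟩
  refine ⟨S', th, fun z p0 => ⟨⟨(M' : ℤ), z, p0, (N1 : ℤ), (S' : ℤ), (L : ℤ), th,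
    by exact_mod_cast hM', by positivity, by positivity, ?_, ?_⟩, rfl, rfl, rfl, rfl, rfl, rfl, rfl⟩⟩
  · intro r
    rw [abs_le]
    constructor
    · have := h1 r
      linarith
    · exact h2 r
  · intro r r' hr hrM hr' hrM' hne
    by_contra hc
    push Not at hc
    apply hne
    have := h3 r r' (by
      rw [Int.emod_eq_of_lt hr hrM, Int.emod_eq_of_lt hr' hrM']
      linarith)
    rwa [Int.emod_eq_of_lt hr hrM, Int.emod_eq_of_lt hr' hrM'] at this

end Crest.Agent.R320.Const_809
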