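import Mathlib.Data.List.Basic
import Mathlib.Data.List.TakeDrop
import Mathlib.Data.Nat.Find
import Mathlib.Tactic.Ring
import Mathlib.Tactic.Linarith
import Mathlib.Tactic.Push

/-!
# Row 320, CORE-1: left-looking walls, threshold chain, block code and junction lemma

(helper132 #12664 (2), helper467 #12877 (1)(2).)  A wall rule `wl` is left-looking: `wl u` = there
is a wall at the end of `u`, and this depends on the last `n` letters only.  A wall at distance `t`
from the start of the block closes the block iff `th (t % M) ≤ t`.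
-/

set_option autoImplicit false

namespace Crest.Agent.R320.Core1_130

variable {α : Type*}

/-- the constants and the wall rule -/
structure Chain (α : Type*) where
  wl : List α → Prop
  n : ℕ
  loc : ∀ u v : List α, n ≤ v.length → (wl (u ++ v) ↔ wl v)
  len : ∀ u : List α, wl u → n ≤ u.length
  M : ℕ
  hM : 0 < M
  Om : ℕ
  p0 : ℕ
  th : ℕ → ℕ
  lo : ℕ
  hi : ℕ
  hlo : ∀ r, lo ≤ th r
  hhi : ∀ r, th r ≤ hi
  hp : p0 + M * Om + n ≤ lo
  hlo0 : 0 < lo
  B : ℕ

namespace Chain

variable (C : Chain α)

def Qual (t : ℕ) : Prop := C.th (t % C.M) ≤ t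

/-- the block code -/
def XX : Set (List α) := {X | C.wl X ∧ C.Qual X.length ∧ X.length ≤ C.B ∧
  ∀ Y Z, X = Y ++ Z → Z ≠ [] → C.wl Y → ¬ C.Qual Y.length}

/-- left-legal places -/
def LP (P : List α) : Prop := ∃ om, om < C.Om ∧ P.length = C.p0 + C.M * om

/-- right-legal words -/
def RQ (Q : List α) : Prop := C.wl Q ∧ C.th ((C.p0 + Q.length) % C.M) ≤ C.p0 + Q.length ∧
  (∀ Y Z, Q = Y ++ Z → Z ≠ [] → C.wl Y →
    C.p0 + C.M * C.Om + Y.length ≤ C.th ((C.p0 + Y.length) % C.M)) ∧
  Q.length + C.p0 + C.M * C.Om ≤ C.B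

theorem XX_ne {X : List α} (h : X ∈ C.XX) : X ≠ [] := by
  rintro rfl
  have h1 := h.2.1
  have h2 := C.hlo (([] : List α).length % C.M)
  have h3 := C.hlo0
  unfold Qual at h1
  simp only [List.length_nil] at h1 h2
  omega

theorem XX_len {X : List α} (h : X ∈ C.XX) : X.length ≤ C.B := h.2.2.1

theorem XX_lo {X : List α} (h : X ∈ C.XX) : C.lo ≤ X.length :=
  le_trans (C.hlo _) h.2.1

theorem XX_prefix {X Y : List α} (h1 : X ∈ C.XX) (h2 : X ++ Y ∈ C.XX) : Y = [] := by
  by_contra hne
  exact h2.2.2.2 X Y rfl hne h1.1 h1.2.1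

/-- two parses of a text start with the same block -/
theorem XX_unique {X X' Z Z' : List α} (h1 : X ∈ C.XX) (h2 : X' ∈ C.XX)
    (h : X ++ Z = X' ++ Z') : X = X' ∧ Z = Z' := by
  rcases List.append_eq_append_iff.1 h with ⟨A, hA, hB⟩ | ⟨A, hA, hB⟩
  · subst hA
    have : A = [] := C.XX_prefix h1 h2
    subst this
    simp at hB
    exact ⟨by simp, hB⟩
  · subst hA
    have : A = [] := C.XX_prefix h2 h1
    subst this
    simp at hB
    exact ⟨by simp, hB.symm⟩

theorem mod_eq {om k : ℕ} : (C.p0 + C.M * om + k) % C.M = (C.p0 + k) % C.M := by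
  rw [show C.p0 + C.M * om + k = (C.p0 + k) + C.M * om by ring, Nat.add_mul_mod_self_left]

theorem mul_lt {om : ℕ} (h : om < C.Om) : C.M * om + C.M ≤ C.M * C.Om := by
  have := Nat.mul_le_mul_left C.M h
  rw [Nat.mul_succ] at this
  exact this

/-- **junction lemma** (818 with thresholds) -/
theorem junction {P Q : List α} (hP : C.LP P) (hQ : C.RQ Q) : P ++ Q ∈ C.XX := by
  obtain ⟨om, hom, hlP⟩ := hP
  obtain ⟨q1, q2, q3, q4⟩ := hQ
  have hmul := C.mul_lt hom
  have hM := C.hM
  have hp := C.hp
  refine ⟨?_, ?_, ?_, ?_⟩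
  · exact (C.loc P Q (C.len Q q1)).2 q1
  · unfold Qual
    rw [List.length_append, hlP, C.mod_eq]
    omega
  · rw [List.length_append]
    omega
  · intro Y Z hYZ hZ hY hq
    have hlo := le_trans (C.hlo (Y.length % C.M)) hq
    -- `Y` is longer than `P`
    rcases List.append_eq_append_iff.1 hYZ with ⟨A, hA, hB⟩ | ⟨A, hA, hB⟩
    · -- `Y = P ++ A`, `Q = A ++ Z`
      subst hA
      rw [List.length_append] at hlo hq
      have hAn : C.n ≤ A.length := by omega
      have hA' : C.wl A := (C.loc P A hAn).1 hY
      have h3 := q3 A Z hB hZ hA'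
      have hmod : (P.length + A.length) % C.M = (C.p0 + A.length) % C.M := by
        rw [hlP, C.mod_eq]
      unfold Qual at hq
      rw [hmod] at hq
      omega
    · -- `P = Y ++ A`: then `Y` is too short
      have : Y.length ≤ P.length := by rw [hA, List.length_append]; omega
      omega

/-- the block has no wall in the band of its threshold: the negation of (E) -/
def Clean (X : List α) : Prop := ∀ Y Z, X = Y ++ Z → C.wl Y →
  Y.length + C.M * C.Om ≤ C.th (Y.length % C.M) ∨ C.th (Y.length % C.M) + C.M * C.Om ≤ Y.length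

/-- **in a clean block every place is right-legal** -/
theorem RQ_of_clean {X P Q : List α} (hX : X ∈ C.XX) (hc : C.Clean X) (hXP : X = P ++ Q)
    (hP : C.LP P) (hB : X.length + C.M * C.Om ≤ C.B) : C.RQ Q := by
  obtain ⟨om, hom, hlP⟩ := hP
  have hmul := C.mul_lt hom
  have hM := C.hM
  have hp := C.hp
  have hlo := C.XX_lo hX
  have hlen : X.length = P.length + Q.length := by rw [hXP, List.length_append]
  have hQn : C.n ≤ Q.length := by omega
  have hwQ : C.wl Q := by
    have := hX.1
    rw [hXP] at this
    exact (C.loc P Q hQn).1 this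
  refine ⟨hwQ, ?_, ?_, by omega⟩
  · have h1 := hX.2.1
    unfold Qual at h1
    have h2 := hc X [] (by simp) hX.1
    have hmod : X.length % C.M = (C.p0 + Q.length) % C.M := by
      rw [hlen, hlP, C.mod_eq]
    rw [hmod] at h1 h2
    omega
  · intro Y Z hYZ hZ hY
    have hn := C.len Y hY
    have hXY : X = (P ++ Y) ++ Z := by rw [hXP, hYZ, List.append_assoc]
    have hwY : C.wl (P ++ Y) := (C.loc P Y hn).2 hY
    have h1 := hX.2.2.2 (P ++ Y) Z hXY hZ hwY
    have h2 := hc (P ++ Y) Z hXY hwY
    have hmod : (P ++ Y).length % C.M = (C.p0 + Y.length) % C.M := by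
      rw [List.length_append, hlP, C.mod_eq]
    unfold Qual at h1
    rw [hmod] at h1 h2
    rw [List.length_append] at h1 h2
    omega

/-- **blocks exist**: if the text has walls with bounded gaps, a block is a prefix of every long
text -/
theorem exists_block {G : ℕ} {w : List α} (hG : C.hi + G ≤ w.length)
    (hfreq : ∀ u v, w = u ++ v → C.hi + G ≤ u.length → ∃ i, i < G ∧ C.wl (u.take (u.length - i)))
    (hB : C.hi + G ≤ C.B) : ∃ X Z, w = X ++ Z ∧ X ∈ C.XX ∧ X.length ≤ C.hi + G := by
  classical
  -- the first qualifying wall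
  have hex : ∃ t, t ≤ w.length ∧ C.wl (w.take t) ∧ C.Qual t := by
    obtain ⟨i, hi, h⟩ := hfreq (w.take (C.hi + G)) (w.drop (C.hi + G))
      (List.take_append_drop _ _).symm (by rw [List.length_take]; omega)
    rw [List.length_take, Nat.min_eq_left hG, List.take_take] at h
    refine ⟨min (C.hi + G - i) (C.hi + G), by omega, h, ?_⟩
    unfold Qual
    have := C.hhi (min (C.hi + G - i) (C.hi + G) % C.M)
    omega
  have hle : Nat.find hex ≤ C.hi + G := by
    obtain ⟨i, hi, h⟩ := hfreq (w.take (C.hi + G)) (w.drop (C.hi + G))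
      (List.take_append_drop _ _).symm (by rw [List.length_take]; omega)
    rw [List.length_take, Nat.min_eq_left hG, List.take_take] at h
    have hq : C.Qual (min (C.hi + G - i) (C.hi + G)) := by
      unfold Qual
      have := C.hhi (min (C.hi + G - i) (C.hi + G) % C.M)
      omega
    have := Nat.find_min' hex ⟨by omega, h, hq⟩
    omega
  obtain ⟨h1, h2, h3⟩ := Nat.find_spec hex
  refine ⟨w.take (Nat.find hex), w.drop (Nat.find hex), (List.take_append_drop _ _).symm,
    ⟨h2, ?_, ?_, ?_⟩, ?_⟩
  · rw [List.length_take, Nat.min_eq_left h1]; exact h3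
  · rw [List.length_take, Nat.min_eq_left h1]; omega
  · intro Y Z hYZ hZ hY hq
    have hlt : Y.length < Nat.find hex := by
      have := congrArg List.length hYZ
      rw [List.length_take, Nat.min_eq_left h1, List.length_append] at this
      have hz : 0 < Z.length := List.length_pos_iff.2 hZ
      omega
    have hY' : Y = w.take Y.length := by
      have h4 : Y = (w.take (Nat.find hex)).take Y.length := by rw [hYZ]; simp
      rw [List.take_take, Nat.min_eq_left hlt.le] at h4
      exact h4
    refine Nat.find_min hex hlt ⟨by omega, ?_, hq⟩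
    rw [← hY']
    exact hY
  · rw [List.length_take, Nat.min_eq_left h1]; exact hle

/-- **parse**: a text of a suffix-closed and prefix-closed class with frequent walls is a product of
blocks and a short rest -/
theorem parse {G : ℕ} (T : List α → Prop) (hT : ∀ u v, T (u ++ v) → T u ∧ T v)
    (hfreq : ∀ u, T u → C.hi + G ≤ u.length → ∃ i, i < G ∧ C.wl (u.take (u.length - i)))
    (hB : C.hi + G ≤ C.B) : ∀ (w : List α), T w →
    ∃ (L : List (List α)) (E : List α), w = L.flatten ++ E ∧
      (∀ X ∈ L, X ∈ C.XX ∧ X.length ≤ C.hi + G) ∧ E.length < C.hi + G := by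
  have key : ∀ (N : ℕ) (w : List α), w.length ≤ N → T w →
      ∃ (L : List (List α)) (E : List α), w = L.flatten ++ E ∧
        (∀ X ∈ L, X ∈ C.XX ∧ X.length ≤ C.hi + G) ∧ E.length < C.hi + G := by
    intro N
    induction N with
    | zero =>
      intro w hw hTw
      have hw0 : w = [] := List.length_eq_zero_iff.1 (Nat.le_zero.1 hw)
      subst hw0
      have h1 := C.hhi 0
      have h2 := C.hlo 0
      have h3 := C.hlo0
      refine ⟨[], [], by simp, by simp, ?_⟩
      simp only [List.length_nil]
      omega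
    | succ N ih =>
      intro w hw hTw
      rcases Nat.lt_or_ge w.length (C.hi + G) with h | h
      · exact ⟨[], w, by simp, by simp, h⟩
      · obtain ⟨X, Z, hXZ, hX, hXl⟩ := C.exists_block h (fun u v huv hu => by
          rw [huv] at hTw
          exact hfreq u (hT u v hTw).1 hu) hB
        have hX0 : 0 < X.length := List.length_pos_iff.2 (C.XX_ne hX)
        have hlen : w.length = X.length + Z.length := by rw [hXZ, List.length_append]
        obtain ⟨L, E, h1, h2, h3⟩ := ih Z (by omega) (hT X Z (hXZ ▸ hTw)).2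
        refine ⟨X :: L, E, ?_, ?_, h3⟩
        · rw [hXZ, h1, List.flatten_cons, List.append_assoc]
        · intro Y hY
          rcases List.mem_cons.1 hY with rfl | hY
          · exact ⟨hX, hXl⟩
          · exact h2 Y hY
  intro w hw
  exact key w.length w le_rfl hw


/-! ### The next-anchor function `N` of 131's interface -/

open Classical in
/-- distance to the next anchor, read in the text `y` from an anchor -/
noncomputable def N (y : List α) : ℕ :=
  if h : ∃ t, t ≤ y.length ∧ y.take t ∈ C.XX then Nat.find h else y.length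

theorem N_append {X : List α} (hX : X ∈ C.XX) (Z : List α) : C.N (X ++ Z) = X.length := by
  classical
  have hex : ∃ t, t ≤ (X ++ Z).length ∧ (X ++ Z).take t ∈ C.XX :=
    ⟨X.length, by rw [List.length_append]; omega, by rw [List.take_left]; exact hX⟩
  unfold N
  rw [dif_pos hex]
  obtain ⟨h1, h2⟩ := Nat.find_spec hex
  have h3 := (C.XX_unique h2 hX (Z := (X ++ Z).drop (Nat.find hex)) (Z' := Z)
    (List.take_append_drop _ _)).1
  have h4 := congrArg List.length h3
  rw [List.length_take, Nat.min_eq_left h1] at h4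
  exact h4

theorem N_take {X : List α} (hX : X ∈ C.XX) (Z : List α) {k : ℕ} (hk : X.length ≤ k) :
    C.N ((X ++ Z).take k) = X.length := by
  rw [List.take_append, List.take_of_length_le hk]
  exact C.N_append hX _

theorem N_le (y : List α) : C.N y ≤ y.length := by
  classical
  unfold N
  split_ifs with h
  · exact (Nat.find_spec h).1
  · exact le_rfl

theorem N_spec (y : List α) : y.take (C.N y) ∈ C.XX ∨ C.N y = y.length := by
  classical
  unfold N
  split_ifs with h
  · left; exact (Nat.find_spec h).2
  · right; rfl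

theorem le_N {y : List α} (hy : C.lo ≤ y.length) : C.lo ≤ C.N y := by
  rcases C.N_spec y with h | h
  · have := C.XX_lo h
    rw [List.length_take] at this
    omega
  · omega

theorem N_pos {y : List α} (hy : C.lo ≤ y.length) : 0 < C.N y :=
  lt_of_lt_of_le C.hlo0 (C.le_N hy)

/-- on texts with frequent walls `N` is the length of a block -/
theorem N_freq {G : ℕ} {y : List α} (hy : C.hi + G ≤ y.length)
    (hfreq : ∀ u v, y = u ++ v → C.hi + G ≤ u.length → ∃ i, i < G ∧ C.wl (u.take (u.length - i)))
    (hB : C.hi + G ≤ C.B) : y.take (C.N y) ∈ C.XX ∧ C.N y ≤ C.hi + G := by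
  obtain ⟨X, Z, hXZ, hX, hXl⟩ := C.exists_block hy hfreq hB
  have h : C.N y = X.length := by rw [hXZ]; exact C.N_append hX Z
  refine ⟨?_, by omega⟩
  rw [h, hXZ, List.take_left]
  exact hX

/-- **junction lemma in 131's form**: `u` left-legal, `r.take d` right-legal -/
theorem N_junction {u r : List α} {d Bm : ℕ} (hu : C.LP u) (hd : d ≤ r.length)
    (hr : C.RQ (r.take d)) (hBm : u.length + d ≤ Bm) :
    C.N ((u ++ r).take Bm) = u.length + d := by
  have hX := C.junction hu hr
  have h1 : u ++ r = (u ++ r.take d) ++ r.drop d := by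
    rw [List.append_assoc, List.take_append_drop]
  have h2 : (u ++ r.take d).length = u.length + d := by
    rw [List.length_append, List.length_take, Nat.min_eq_left hd]
  rw [h1, C.N_take hX _ (by rw [h2]; exact hBm), h2]

/-- **in a clean zone every place is usable**, 131's form -/
theorem RQ_of_cleanN {G : ℕ} {y : List α} (hy : C.hi + G ≤ y.length)
    (hfreq : ∀ u v, y = u ++ v → C.hi + G ≤ u.length → ∃ i, i < G ∧ C.wl (u.take (u.length - i)))
    (hB : C.hi + G + C.M * C.Om ≤ C.B) (hc : C.Clean (y.take (C.N y))) {om : ℕ} (hom : om < C.Om) :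
    C.RQ ((y.drop (C.p0 + C.M * om)).take (C.N y - (C.p0 + C.M * om))) := by
  obtain ⟨h1, h2⟩ := C.N_freq hy hfreq (by omega)
  have hmul := C.mul_lt hom
  have hp := C.hp
  have hlo := C.XX_lo h1
  rw [List.length_take] at hlo
  have hP : C.LP (y.take (C.p0 + C.M * om)) :=
    ⟨om, hom, by rw [List.length_take]; omega⟩
  refine C.RQ_of_clean h1 hc (P := y.take (C.p0 + C.M * om)) ?_ hP ?_
  · have h3 : y.take (C.N y) = y.take ((C.p0 + C.M * om) + (C.N y - (C.p0 + C.M * om))) := by
      congr 1
      omega
    rw [h3, List.take_add]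
  · rw [List.length_take]
    omega

end Chain

end Crest.Agent.R320.Core1_130
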