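import Crest.Agent.R320.Wall_291

/-!
Row 320, CORE-1: left-looking walls, threshold block code (132 #12664 (2) in 467's block calculus).
-/

set_option autoImplicit false

namespace Crest.Agent.R320.Core1_136

open Crest.Agent.R320.Wall_291

variable {α : Type*}

/-- data of a left-looking wall rule together with the threshold chain -/
structure WD (α : Type*) where
  Wl : List α → Prop
  n : ℕ
  wlen : ∀ u, Wl u → n ≤ u.length
  wloc : ∀ p u, n ≤ u.length → (Wl (p ++ u) ↔ Wl u)
  Mp : ℕ
  OM : ℕ
  p0 : ℕ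
  zlo : ℕ
  zhi : ℕ
  th : ℕ → ℕ
  Mpos : 0 < Mp
  hlo : ∀ r, zlo ≤ th r
  hhi : ∀ r, th r ≤ zhi
  hz : p0 + Mp * OM + n ≤ zlo
  npos : 0 < n

namespace WD

variable (D : WD α)

/-- the prefix `X.take t` ends in a wall which qualifies -/
def Qual (X : List α) (t : ℕ) : Prop := D.Wl (X.take t) ∧ D.th (t % D.Mp) ≤ t

/-- block code -/
def XX : Set (List α) :=
  {X | D.Wl X ∧ D.th (X.length % D.Mp) ≤ X.length ∧
    ∀ t < X.length, D.Wl (X.take t) → t < D.th (t % D.Mp)}

/-- right place -/
def RP (Q : List α) : Prop :=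
  D.n ≤ Q.length ∧ D.Wl Q ∧ D.th ((D.p0 + Q.length) % D.Mp) ≤ D.p0 + Q.length ∧
    ∀ y < Q.length, D.n ≤ y → D.Wl (Q.take y) →
      D.p0 + y + D.Mp * D.OM < D.th ((D.p0 + y) % D.Mp)

/-- the wall band event -/
def E (X : List α) : Prop :=
  ∃ t ≤ X.length, D.Wl (X.take t) ∧ t < D.th (t % D.Mp) + D.Mp * D.OM ∧
    D.th (t % D.Mp) ≤ t + D.Mp * D.OM

variable {D}

theorem XX_length {X : List α} (hX : X ∈ D.XX) : D.zlo ≤ X.length :=
  (D.hlo _).trans hX.2.1

theorem XX_ne_nil {X : List α} (hX : X ∈ D.XX) : X ≠ [] := by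
  rintro rfl
  have h := XX_length hX
  have h1 := D.hz
  have h2 := D.npos
  simp at h
  omega

theorem code {X Y : List α} (hX : X ∈ D.XX) (hXY : X ++ Y ∈ D.XX) : Y = [] := by
  by_contra hY
  have hlt : X.length < (X ++ Y).length := by
    rw [List.length_append]
    have := List.length_pos_iff.mpr hY
    omega
  have h := hXY.2.2 X.length hlt (by rw [List.take_left]; exact hX.1)
  have := hX.2.1
  omega

theorem mod_shift (om y : ℕ) : (D.p0 + D.Mp * om + y) % D.Mp = (D.p0 + y) % D.Mp := by
  have : D.p0 + D.Mp * om + y = D.p0 + y + D.Mp * om := by ring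
  rw [this, Nat.add_mul_mod_self_left]

/-- **Junction lemma** -/
theorem junction {P Q : List α} {om : ℕ} (hP : P.length = D.p0 + D.Mp * om) (hom : om ≤ D.OM)
    (hQ : D.RP Q) : P ++ Q ∈ D.XX := by
  obtain ⟨h1, h2, h3, h4⟩ := hQ
  have hmono : D.Mp * om ≤ D.Mp * D.OM := Nat.mul_le_mul_left _ hom
  have hz := D.hz
  refine ⟨(D.wloc _ _ h1).mpr h2, ?_, ?_⟩
  · rw [List.length_append, hP, mod_shift]
    omega
  · intro t ht hw
    rw [List.length_append] at ht
    by_cases hcase : t < P.length + D.n
    · have := D.hlo (t % D.Mp)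
      omega
    · obtain ⟨y, rfl⟩ : ∃ y, t = P.length + y := ⟨t - P.length, by omega⟩
      have hy : y < Q.length := by omega
      have hny : D.n ≤ y := by omega
      have htake : (P ++ Q).take (P.length + y) = P ++ Q.take y := by
        rw [List.take_append, List.take_of_length_le (by omega), Nat.add_sub_cancel_left]
      rw [htake] at hw
      have hwl : D.Wl (Q.take y) := by
        refine (D.wloc P _ ?_).mp hw
        rw [List.length_take]
        omega
      have h5 := h4 y hy hny hwl
      rw [hP, mod_shift]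
      omega

/-- not (E): every clock place is right-legal -/
theorem not_E {X : List α} (hX : X ∈ D.XX) (hE : ¬ D.E X) {om : ℕ} (hom : om ≤ D.OM) :
    ∃ P Q, X = P ++ Q ∧ P.length = D.p0 + D.Mp * om ∧ D.RP Q := by
  have hmono : D.Mp * om ≤ D.Mp * D.OM := Nat.mul_le_mul_left _ hom
  have hz := D.hz
  have hlen := XX_length hX
  set k := D.p0 + D.Mp * om with hk
  have hPl : (X.take k).length = k := by rw [List.length_take]; omega
  have hQl : (X.drop k).length = X.length - k := List.length_drop
  have hwal : ∀ y, D.n ≤ y → y ≤ X.length - k →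
      (D.Wl ((X.drop k).take y) ↔ D.Wl (X.take (k + y))) := by
    intro y hy hy2
    have e1 : X.take (k + y) = X.take k ++ (X.drop k).take y := List.take_add
    rw [e1, D.wloc]
    rw [List.length_take, hQl]
    omega
  have hEt : ∀ t ≤ X.length, D.Wl (X.take t) → D.th (t % D.Mp) ≤ t + D.Mp * D.OM →
      D.th (t % D.Mp) + D.Mp * D.OM ≤ t := by
    intro t ht hw h1
    by_contra hcon
    exact hE ⟨t, ht, hw, by omega, h1⟩
  refine ⟨X.take k, X.drop k, (List.take_append_drop k X).symm, hPl, ?_, ?_, ?_, ?_⟩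
  · rw [hQl]; omega
  · have h := (hwal (X.length - k) (by omega) le_rfl)
    have e2 : k + (X.length - k) = X.length := by omega
    rw [e2, List.take_length] at h
    have e3 : (X.drop k).take (X.length - k) = X.drop k := by
      rw [List.take_of_length_le]; rw [hQl]
    rw [e3] at h
    exact h.mpr hX.1
  · have h1 := hEt X.length le_rfl (by rw [List.take_length]; exact hX.1)
      (by have := hX.2.1; omega)
    have e4 : X.length % D.Mp = (D.p0 + (X.length - k)) % D.Mp := by
      rw [← mod_shift (D := D) om (X.length - k)]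
      congr 1
      omega
    rw [hQl, ← e4]
    omega
  · intro y hy hny hw
    rw [hQl] at hy
    have hw' := (hwal y hny (by omega)).mp hw
    have h1 := hX.2.2 (k + y) (by omega) hw'
    have e5 : (k + y) % D.Mp = (D.p0 + y) % D.Mp := by
      rw [hk, mod_shift]
    have h2 : ¬ D.th ((k + y) % D.Mp) ≤ (k + y) + D.Mp * D.OM := by
      intro h3
      have := hEt (k + y) (by omega) hw' h3
      omega
    rw [e5] at h2
    omega

/-- every long word with a wall in every window of length `G` behind `zhi` has a prefix in the code -/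
theorem bounded {w : List α} {G : ℕ} (hG : ∃ t, D.zhi ≤ t ∧ t ≤ w.length ∧ t ≤ D.zhi + G ∧
    D.Wl (w.take t)) : ∃ X Y, w = X ++ Y ∧ X ∈ D.XX ∧ X.length ≤ D.zhi + G := by
  classical
  obtain ⟨t0, h0, h1, h1', h2⟩ := hG
  have hex : ∃ t, t ≤ w.length ∧ D.Wl (w.take t) ∧ D.th (t % D.Mp) ≤ t :=
    ⟨t0, h1, h2, (D.hhi _).trans h0⟩
  set t := Nat.find hex with ht
  obtain ⟨a1, a2, a3⟩ := Nat.find_spec hex
  have hle : t ≤ t0 := Nat.find_min' hex ⟨h1, h2, (D.hhi _).trans h0⟩
  have hl : (w.take t).length = t := by rw [List.length_take]; omega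
  refine ⟨w.take t, w.drop t, (List.take_append_drop t w).symm, ⟨a2, ?_, ?_⟩, ?_⟩
  · rw [hl]; exact a3
  · intro s hs hw
    rw [hl] at hs
    rw [List.take_take, min_eq_left hs.le] at hw
    by_contra hcon
    exact Nat.find_min hex hs ⟨by omega, hw, by omega⟩
  · rw [hl]; omega

end WD

theorem RF_reverse {e W : ℕ} {u : List α} (h : RF e W u) : RF e W u.reverse := by
  intro x hx hl hi
  refine h x.reverse (by simpa using hx) (by simpa using hl) ?_
  have h1 : (List.replicate e x.reverse).flatten = ((List.replicate e x).flatten).reverse := by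
    rw [List.reverse_flatten, List.map_replicate, List.reverse_replicate]
  rw [h1, ← List.reverse_reverse u]
  exact List.reverse_infix.mpr hi

/-- left-looking walls from 291's rule -/
theorem exists_left_walls (α : Type*) [Finite α] (e W : ℕ) :
    ∃ (n G : ℕ) (Wl : List α → Prop), 0 < n ∧
      (∀ u, Wl u → n ≤ u.length) ∧ (∀ p u, n ≤ u.length → (Wl (p ++ u) ↔ Wl u)) ∧
      (∀ u d, Wl u → 0 < d → d ≤ W → ¬ Wl (u.take (u.length - d))) ∧
      (∀ u, RF e W u → G + n ≤ u.length → ∃ i < G, Wl (u.take (u.length - i))) := by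
  obtain ⟨n, G, R, h1, h2, h3, h4⟩ := exists_walls α e W
  refine ⟨n + 1, G, fun u => n + 1 ≤ u.length ∧ R u.reverse, Nat.succ_pos _, fun u h => h.1,
    ?_, ?_, ?_⟩
  · intro p u hu
    have e1 : R (p ++ u).reverse ↔ R u.reverse := by
      rw [List.reverse_append, h1 (u.reverse ++ p.reverse), h1 u.reverse,
        List.take_append_of_le_length]
      rw [List.length_reverse]; omega
    show (n + 1 ≤ (p ++ u).length ∧ R (p ++ u).reverse) ↔ (n + 1 ≤ u.length ∧ R u.reverse)
    rw [e1, List.length_append]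
    constructor
    · rintro ⟨_, h⟩; exact ⟨hu, h⟩
    · rintro ⟨_, h⟩; exact ⟨by omega, h⟩
  · rintro u d ⟨hu, hR⟩ hd hdW ⟨hu', hR'⟩
    rw [List.length_take] at hu'
    rw [List.reverse_take] at hR'
    have e2 : u.length - (u.length - d) = d := by omega
    rw [e2] at hR'
    exact h3 _ d hR hd hdW hR'
  · intro u hRF hlen
    obtain ⟨i, hi, hR⟩ := h4 u.reverse (RF_reverse hRF) (by rw [List.length_reverse]; omega)
    refine ⟨i, hi, ?_, ?_⟩
    · rw [List.length_take]; omega
    · rw [List.reverse_take]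
      have e2 : u.length - (u.length - i) = i := by omega
      rw [e2]
      exact hR

/-- walls bounded on run-free words: the form needed by `WD.bounded` -/
theorem wall_between {n G : ℕ} {Wl : List α → Prop} {e W : ℕ}
    (hG : ∀ u, RF e W u → G + n ≤ u.length → ∃ i < G, Wl (u.take (u.length - i)))
    {w : List α} (hw : RF e W w) {z : ℕ} (hlen : z + G + n ≤ w.length) :
    ∃ t, z ≤ t ∧ t ≤ w.length ∧ t ≤ z + (G + n) ∧ Wl (w.take t) := by
  have hl : (w.take (z + G + n)).length = z + G + n := by rw [List.length_take]; omega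
  obtain ⟨i, hi, h⟩ := hG (w.take (z + G + n)) (hw.take _) (by rw [hl]; omega)
  rw [hl, List.take_take] at h
  refine ⟨z + G + n - i, by omega, by omega, by omega, ?_⟩
  rwa [min_eq_left (by omega)] at h

end Crest.Agent.R320.Core1_136
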