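import Crest.Agent.R320.Wall_291

/-!
Row 320, CORE-1 (helper202): left-looking walls (291's walls on the reversed word), the block code
of the threshold chain rule (132 #12664 (2)), parse of run-free words, junction lemma.
-/

set_option autoImplicit false

namespace Crest.Agent.R320.Core1_202

open Crest.Agent.R320.Wall_291

universe u

variable {α : Type u}

theorem reverse_pow (x : List α) (e : ℕ) :
    ((List.replicate e x).flatten).reverse = (List.replicate e x.reverse).flatten := by
  induction e with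
  | zero => simp
  | succ e ih =>
    rw [List.replicate_succ, List.flatten_cons, List.reverse_append, ih, List.replicate_succ',
      List.flatten_append]
    simp

theorem RF_reverse {e p : ℕ} {Q : List α} (h : RF e p Q) : RF e p Q.reverse := by
  intro x hx hl hi
  refine h x.reverse (by simpa using hx) (by simpa using hl) ?_
  rw [← reverse_pow]
  have := List.reverse_infix.2 hi
  simpa using this

/-- left-looking walls -/
theorem left_walls (α : Type u) [Finite α] (e W : ℕ) :
    ∃ (n G : ℕ) (Wo : List α → Prop),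
      (∀ P Q, n ≤ Q.length → (Wo (P ++ Q) ↔ Wo Q)) ∧
      (∀ P, Wo P → n ≤ P.length) ∧
      (∀ P d, Wo P → 0 < d → d ≤ W → ¬ Wo (P.take (P.length - d))) ∧
      (∀ P, RF e W P → G + n ≤ P.length → ∃ i < G, Wo (P.take (P.length - i))) := by
  obtain ⟨n, G, R, h1, h2, h3, h4⟩ := exists_walls α e W
  refine ⟨n, G, fun P => R P.reverse, ?_, ?_, ?_, ?_⟩
  · intro P Q hn
    show R (P ++ Q).reverse ↔ R Q.reverse
    rw [h1, h1 Q.reverse, List.reverse_append,
      List.take_append_of_le_length (by simpa using hn)]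
  · intro P hP
    simpa using h2 _ hP
  · intro P d hP hd hdW h
    refine h3 _ d hP hd hdW ?_
    rwa [List.drop_reverse]
  · intro P hP hlen
    obtain ⟨i, hi, h⟩ := h4 P.reverse (RF_reverse hP) (by simpa using hlen)
    refine ⟨i, hi, ?_⟩
    rwa [List.drop_reverse] at h

section Code

variable (Wo : List α → Prop) (thr : ℕ → ℕ) (M : ℕ)

/-- place `t` of `X` is a qualifying wall -/
def Qual (X : List α) (t : ℕ) : Prop := Wo (X.take t) ∧ thr (t % M) ≤ t

/-- the block code of the threshold rule -/
def XX : Set (List α) :=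
  {X | Wo X ∧ thr (X.length % M) ≤ X.length ∧
    ∀ t < X.length, ¬ (Wo (X.take t) ∧ thr (t % M) ≤ t)}

variable {Wo thr M}

theorem prefix_code {X Y : List α} (hX : X ∈ XX Wo thr M) (hY : Y ∈ XX Wo thr M) (h : X <+: Y) :
    X = Y := by
  by_contra hne
  have hlt : X.length < Y.length := by
    rcases lt_or_eq_of_le h.length_le with h1 | h1
    · exact h1
    · exact absurd (h.eq_of_length h1) hne
  refine hY.2.2 X.length hlt ⟨?_, hX.2.1⟩
  rw [← List.prefix_iff_eq_take.1 h]
  exact hX.1

theorem nil_notMem (hthr : ∀ r, 0 < thr r) : ([] : List α) ∉ XX Wo thr M := by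
  intro h
  have h1 := h.2.1
  have h2 := hthr (([] : List α).length % M)
  simp only [List.length_nil] at h1 h2
  omega

theorem length_pos (hthr : ∀ r, 0 < thr r) {X : List α} (h : X ∈ XX Wo thr M) : 0 < X.length := by
  rcases X with _ | ⟨a, X⟩
  · exact absurd h (nil_notMem hthr)
  · simp

/-- the first qualifying wall cuts off a block -/
theorem first_block {w : List α} (h : ∃ t ≤ w.length, Wo (w.take t) ∧ thr (t % M) ≤ t) :
    ∃ t ≤ w.length, w.take t ∈ XX Wo thr M := by
  classical
  have h' : ∃ t, t ≤ w.length ∧ Wo (w.take t) ∧ thr (t % M) ≤ t := by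
    obtain ⟨t, h1, h2⟩ := h; exact ⟨t, h1, h2⟩
  refine ⟨Nat.find h', (Nat.find_spec h').1, ?_, ?_, ?_⟩
  · exact (Nat.find_spec h').2.1
  · rw [List.length_take, min_eq_left (Nat.find_spec h').1]
    exact (Nat.find_spec h').2.2
  · intro t ht
    rw [List.length_take, min_eq_left (Nat.find_spec h').1] at ht
    rw [List.take_take, min_eq_left ht.le]
    intro hq
    exact Nat.find_min h' ht ⟨le_trans ht.le (Nat.find_spec h').1, hq⟩

variable {e W n G T : ℕ}

/-- in a run-free word there is a qualifying wall before `T + G + n` -/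
theorem exists_qual (hT : ∀ r, thr r ≤ T)
    (h4 : ∀ P, RF e W P → G + n ≤ P.length → ∃ i < G, Wo (P.take (P.length - i)))
    {w : List α} (hw : RF e W w) (hlen : T + G + n ≤ w.length) :
    ∃ t ≤ T + G + n, t ≤ w.length ∧ T < t ∧ Wo (w.take t) ∧ thr (t % M) ≤ t := by
  have hl : (w.take (T + G + n)).length = T + G + n := by
    rw [List.length_take, min_eq_left hlen]
  obtain ⟨i, hi, h⟩ := h4 (w.take (T + G + n)) (hw.take _) (by omega)
  rw [hl, List.take_take, min_eq_left (Nat.sub_le _ _)] at h
  refine ⟨T + G + n - i, Nat.sub_le _ _, by omega, by omega, h, ?_⟩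
  exact le_trans (hT _) (by omega)

/-- blocks of run-free words are bounded -/
theorem block_bound (hT : ∀ r, thr r ≤ T)
    (h4 : ∀ P, RF e W P → G + n ≤ P.length → ∃ i < G, Wo (P.take (P.length - i)))
    {X : List α} (hw : RF e W X) (hX : X ∈ XX Wo thr M) : X.length ≤ T + G + n := by
  by_contra hlt
  push Not at hlt
  obtain ⟨t, h1, h2, h3, h5⟩ := exists_qual (M := M) hT h4 hw hlt.le
  exact hX.2.2 t (by omega) h5

/-- parse of a run-free word -/
theorem parse (hthr : ∀ r, 0 < thr r) (hT : ∀ r, thr r ≤ T)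
    (h4 : ∀ P, RF e W P → G + n ≤ P.length → ∃ i < G, Wo (P.take (P.length - i)))
    (w : List α) (hw : RF e W w) : ∃ (L : List (List α)) (E : List α), w = L.flatten ++ E ∧
      (∀ X ∈ L, X ∈ XX Wo thr M ∧ RF e W X ∧ X.length ≤ T + G + n) ∧
      (∀ t ≤ E.length, ¬ (Wo (E.take t) ∧ thr (t % M) ≤ t)) ∧ E.length < T + G + n ∧
      RF e W E := by
  induction hl : w.length using Nat.strong_induction_on generalizing w with
  | _ k ih =>
    subst hl
    by_cases h : ∃ t ≤ w.length, Wo (w.take t) ∧ thr (t % M) ≤ t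
    · obtain ⟨t, ht, hX⟩ := first_block h
      have hpos := length_pos hthr hX
      rw [List.length_take, min_eq_left ht] at hpos
      obtain ⟨L, E, h1, h2, h3, h5, h6⟩ := ih (w.drop t).length
        (by rw [List.length_drop]; omega) (w.drop t) (hw.drop t) rfl
      refine ⟨w.take t :: L, E, ?_, ?_, h3, h5, h6⟩
      · rw [List.flatten_cons, List.append_assoc, ← h1, List.take_append_drop]
      · intro X hX'
        rcases List.mem_cons.1 hX' with rfl | hX'
        · exact ⟨hX, hw.take t, block_bound hT h4 (hw.take t) hX⟩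
        · exact h2 X hX'
    · push Not at h
      refine ⟨[], w, by simp, by simp, fun t ht hq => absurd hq.2 (not_le.2 (h t ht hq.1)), ?_, hw⟩
      by_contra hlt
      push Not at hlt
      obtain ⟨t, h1, h2, h3, h5, h6⟩ := exists_qual (M := M) hT h4 hw hlt
      exact absurd h6 (not_le.2 (h t h2 h5))

variable (Wo thr M) in
/-- right words of scheme 1: they end in a wall which qualifies for every comb place, and no
earlier visible wall qualifies for any comb place -/
def QQ (n p0 N1 : ℕ) : Set (List α) :=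
  {Q | n ≤ Q.length ∧ Wo Q ∧ thr ((p0 + Q.length) % M) ≤ p0 + Q.length ∧
    ∀ t < Q.length, n ≤ t → Wo (Q.take t) → p0 + t + N1 < thr ((p0 + t) % M)}

/-- **junction lemma** (818 in block form) -/
theorem junction {p0 N1 : ℕ} (h1 : ∀ P Q, n ≤ Q.length → (Wo (P ++ Q) ↔ Wo Q))
    (hz : ∀ r, p0 + N1 + n ≤ thr r) {P Q : List α} {om : ℕ} (hP : P.length = p0 + M * om)
    (hom : M * om ≤ N1) (hQ : Q ∈ QQ Wo thr M n p0 N1) : P ++ Q ∈ XX Wo thr M := by
  obtain ⟨hn, hW, hq, hno⟩ := hQ
  have hmod : ∀ t, (P.length + t) % M = (p0 + t) % M := by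
    intro t
    rw [hP, show p0 + M * om + t = (p0 + t) + M * om by ring, Nat.add_mul_mod_self_left]
  refine ⟨(h1 P Q hn).2 hW, ?_, ?_⟩
  · rw [List.length_append, hmod]
    omega
  · rintro t ht ⟨hWt, hqt⟩
    rw [List.length_append] at ht
    have h3 := hz (t % M)
    obtain ⟨s, rfl⟩ : ∃ s, t = P.length + s := ⟨t - P.length, by omega⟩
    rw [hmod] at hqt
    have hs : n ≤ s := by
      have := hz ((p0 + s) % M)
      omega
    have e1 : (P ++ Q).take (P.length + s) = P ++ Q.take s := by
      rw [List.take_append, List.take_of_length_le (by omega), Nat.add_sub_cancel_left]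
    rw [e1, h1 P (Q.take s) (by rw [List.length_take]; omega)] at hWt
    have := hno s (by omega) hs hWt
    omega

variable (Wo thr M) in
/-- mode (E) of a block: a wall in the doubt region of the thresholds -/
def EBad (N1 : ℕ) (X : List α) : Prop :=
  ∃ t ≤ X.length, Wo (X.take t) ∧ t < thr (t % M) + N1 ∧ thr (t % M) ≤ t + N1

/-- off (E) every comb place is right-legal -/
theorem split_QQ {p0 N1 : ℕ} (h1 : ∀ P Q, n ≤ Q.length → (Wo (P ++ Q) ↔ Wo Q))
    (hz : ∀ r, p0 + N1 + n ≤ thr r) {X : List α} (hX : X ∈ XX Wo thr M)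
    (hE : ¬ EBad Wo thr M N1 X) {om : ℕ} (hom : M * om ≤ N1) :
    p0 + M * om ≤ X.length ∧ X.drop (p0 + M * om) ∈ QQ Wo thr M n p0 N1 := by
  have hlen : p0 + N1 + n ≤ X.length := le_trans (hz _) hX.2.1
  have hlen' : p0 + M * om ≤ X.length := by omega
  have hmod : ∀ t, (p0 + M * om + t) % M = (p0 + t) % M := by
    intro t
    rw [show p0 + M * om + t = (p0 + t) + M * om by ring, Nat.add_mul_mod_self_left]
  have hdl : (X.drop (p0 + M * om)).length = X.length - (p0 + M * om) := List.length_drop ..
  have hXe : X.take (p0 + M * om) ++ X.drop (p0 + M * om) = X := List.take_append_drop _ _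
  refine ⟨hlen', ?_, ?_, ?_, ?_⟩
  · omega
  · have := (h1 (X.take (p0 + M * om)) (X.drop (p0 + M * om)) (by omega)).1
    rw [hXe] at this
    exact this hX.1
  · have h2 : ¬ (X.length < thr (X.length % M) + N1) := by
      intro h2
      refine hE ⟨X.length, le_rfl, ?_, h2, ?_⟩
      · rw [List.take_length]; exact hX.1
      · exact le_trans hX.2.1 (Nat.le_add_right _ _)
    have h3 := hmod (X.drop (p0 + M * om)).length
    rw [show p0 + M * om + (X.drop (p0 + M * om)).length = X.length by omega] at h3
    rw [← h3]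
    omega
  · intro t ht hn hWt
    have e1 : X.take (p0 + M * om + t) =
        X.take (p0 + M * om) ++ (X.drop (p0 + M * om)).take t := by
      rw [← List.take_add]
    have hW2 : Wo (X.take (p0 + M * om + t)) := by
      rw [e1, h1 _ _ (by rw [List.length_take]; omega)]
      exact hWt
    have h2 := hX.2.2 (p0 + M * om + t) (by omega)
    have h3 : ¬ (p0 + M * om + t < thr ((p0 + M * om + t) % M) + N1 ∧
        thr ((p0 + M * om + t) % M) ≤ p0 + M * om + t + N1) := fun h3 =>
      hE ⟨_, by omega, hW2, h3.1, h3.2⟩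
    rw [hmod] at h2 h3
    have h4 : ¬ thr ((p0 + t) % M) ≤ p0 + M * om + t := fun h4 => h2 ⟨hW2, h4⟩
    omega

end Code

end Crest.Agent.R320.Core1_202
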