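import Mathlib
import Crest.Agent.R320.Wall_291

set_option autoImplicit false

/-!
Row 320, CORE-1: left-looking walls, threshold blocks, junction lemma, comb places.
-/

namespace Crest.Agent.R320.Core1_211

open Crest.Agent.R320.Wall_291

variable {α : Type*}

/-- a left-looking wall rule with window `n`, gaps `> W`, dense (`G`) on the words without
`e`-th powers of words of length `≤ W` -/
structure LWall (e W n G : ℕ) (WL : List α → Prop) : Prop where
  loc : ∀ A P : List α, n ≤ P.length → (WL (A ++ P) ↔ WL P)
  len : ∀ P, WL P → n ≤ P.length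
  gap : ∀ P D : List α, WL P → D ≠ [] → D.length ≤ W → ¬ WL (P ++ D)
  dense : ∀ Q, RF e W Q → G + n ≤ Q.length → ∃ i < G, WL (Q.take (Q.length - i))

theorem flatten_replicate_reverse (e : ℕ) (x : List α) :
    ((List.replicate e x).flatten).reverse = (List.replicate e x.reverse).flatten := by
  induction e with
  | zero => simp
  | succ e ih =>
    rw [List.replicate_succ, List.flatten_cons, List.reverse_append, ih]
    rw [show e + 1 = e + 1 from rfl, ← List.replicate_append_replicate (n := e) (m := 1)]
    simp

theorem RF_reverse {e p : ℕ} {Q : List α} (h : RF e p Q) : RF e p Q.reverse := by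
  intro x hx hl hi
  apply h x.reverse (by simpa using hx) (by simpa using hl)
  rw [← flatten_replicate_reverse]
  exact List.reverse_infix.mp (by simpa using hi)

theorem exists_lwalls (α : Type*) [Finite α] (e W : ℕ) :
    ∃ (n G : ℕ) (WL : List α → Prop), LWall e W n G WL := by
  obtain ⟨n, G, R, h1, h2, h3, h4⟩ := exists_walls α e W
  refine ⟨n, G, fun P => R P.reverse, ⟨?_, ?_, ?_, ?_⟩⟩
  · intro A P hP
    show R (A ++ P).reverse ↔ R P.reverse
    rw [h1 (A ++ P).reverse, h1 P.reverse, List.reverse_append]
    rw [List.take_append_of_le_length (by simpa using hP)]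
  · intro P hP
    simpa using h2 _ hP
  · intro P D hP hD hW hPD
    have hPD' : R (P ++ D).reverse := hPD
    have := h3 (P ++ D).reverse D.length hPD' (List.length_pos_iff.mpr hD) hW
    apply this
    rw [List.reverse_append]
    have e1 : D.length = D.reverse.length := by simp
    rw [e1, List.drop_left]
    exact hP
  · intro Q hQ hl
    obtain ⟨i, hi, hR⟩ := h4 Q.reverse (RF_reverse hQ) (by simpa using hl)
    refine ⟨i, hi, ?_⟩
    show R (Q.take (Q.length - i)).reverse
    rw [List.drop_reverse] at hR
    exact hR

/-- a place (counted from the block start) passes its threshold -/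
def qual (M' : ℕ) (th : ℕ → ℕ) (y : ℕ) : Prop := th (y % M') ≤ y

/-- the block code -/
def XX (WL : List α → Prop) (M' : ℕ) (th : ℕ → ℕ) : Set (List α) :=
  {X | WL X ∧ qual M' th X.length ∧ ∀ y < X.length, WL (X.take y) → ¬ qual M' th y}

/-- right-legality with respect to the walls -/
def RL (WL : List α → Prop) (M' : ℕ) (th : ℕ → ℕ) (p0 N1 : ℕ) (Q : List α) : Prop :=
  WL Q ∧ th ((Q.length + p0) % M') ≤ Q.length + p0 ∧
    ∀ y < Q.length, WL (Q.take y) → y + p0 + N1 < th ((y + p0) % M')

/-- some wall of the block lies in its band -/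
def EE (WL : List α → Prop) (M' : ℕ) (th : ℕ → ℕ) (N1 : ℕ) (X : List α) : Prop :=
  ∃ y ≤ X.length, WL (X.take y) ∧ th (y % M') ≤ y + N1 ∧ y ≤ th (y % M') + N1

section

variable {e W n G M' p0 N1 : ℕ} {WL : List α → Prop} {th : ℕ → ℕ}

theorem XX_ne_nil (hw : LWall e W n G WL) (hth : ∀ r, p0 + N1 + n < th r) {X : List α}
    (hX : X ∈ XX WL M' th) : X ≠ [] := by
  rintro rfl
  have := hX.2.1
  unfold qual at this
  have h2 := hth (([] : List α).length % M')
  simp at this h2
  omega

theorem XX_lt_length (hth : ∀ r, p0 + N1 + n ≤ th r) {X : List α}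
    (hX : X ∈ XX WL M' th) : p0 + N1 + n ≤ X.length := by
  have := hX.2.1
  unfold qual at this
  have h2 := hth (X.length % M')
  omega

/-- prefix code -/
theorem XX_prefix {X D : List α} (hX : X ∈ XX WL M' th) (hXD : X ++ D ∈ XX WL M' th) : D = [] := by
  by_contra hD
  have hlt : X.length < (X ++ D).length := by
    rw [List.length_append]
    have := List.length_pos_iff.mpr hD
    omega
  have := hXD.2.2 X.length hlt (by rw [List.take_left]; exact hX.1)
  exact this hX.2.1

/-- junction lemma: `b(x) = N(a)` -/
theorem junction (hw : LWall e W n G WL) (hth : ∀ r, p0 + N1 + n ≤ th r)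
    {P Q : List α} {om : ℕ} (hP : P.length = p0 + M' * om) (hom : M' * om ≤ N1)
    (hQ : RL WL M' th p0 N1 Q) : P ++ Q ∈ XX WL M' th := by
  obtain ⟨hQ1, hQ2, hQ3⟩ := hQ
  have hres : ∀ y, (P.length + y) % M' = (y + p0) % M' := by
    intro y
    have : P.length + y = (y + p0) + M' * om := by omega
    rw [this, Nat.add_mul_mod_self_left]
  refine ⟨(hw.loc P Q (hw.len Q hQ1)).mpr hQ1, ?_, ?_⟩
  · unfold qual
    rw [List.length_append, hres]
    omega
  · intro y hy hWy
    rw [List.length_append] at hy
    unfold qual
    by_cases hlt : y < P.length + n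
    · have := hth (y % M')
      omega
    · push Not at hlt
      obtain ⟨y', rfl⟩ : ∃ y', y = P.length + y' := ⟨y - P.length, by omega⟩
      have hW' : WL (Q.take y') := by
        rw [List.take_length_add_append] at hWy
        refine (hw.loc P (Q.take y') ?_).mp hWy
        rw [List.length_take]
        omega
      have h3 := hQ3 y' (by omega) hW'
      rw [hres]
      omega

/-- a comb place of a block without a wall in its band is right-legal -/
theorem RL_of_not_EE (hw : LWall e W n G WL) (hth : ∀ r, p0 + N1 + n ≤ th r)
    {X : List α} (hX : X ∈ XX WL M' th) (hE : ¬ EE WL M' th N1 X) {om : ℕ} (hom : M' * om ≤ N1) :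
    RL WL M' th p0 N1 (X.drop (p0 + M' * om)) := by
  have hlen := XX_lt_length (p0 := p0) (N1 := N1) (n := n) hth hX
  set P := X.take (p0 + M' * om) with hPdef
  set Q := X.drop (p0 + M' * om) with hQdef
  have hPQ : P ++ Q = X := List.take_append_drop _ _
  have hPl : P.length = p0 + M' * om := by
    rw [hPdef, List.length_take]
    omega
  have hQl : Q.length = X.length - (p0 + M' * om) := by rw [hQdef, List.length_drop]
  have hres : ∀ y, (P.length + y) % M' = (y + p0) % M' := by
    intro y
    have : P.length + y = (y + p0) + M' * om := by omega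
    rw [this, Nat.add_mul_mod_self_left]
  have hE' : ∀ y ≤ X.length, WL (X.take y) → th (y % M') ≤ y + N1 → th (y % M') + N1 < y := by
    intro y hy hWy h1
    by_contra hcon
    exact hE ⟨y, hy, hWy, h1, by omega⟩
  refine ⟨?_, ?_, ?_⟩
  · have := hX.1
    rw [← hPQ] at this
    exact (hw.loc P Q (by omega)).mp this
  · have h1 := hX.2.1
    unfold qual at h1
    have h2 := hE' X.length le_rfl (by rw [List.take_length]; exact hX.1) (by omega)
    have h3 : X.length = P.length + Q.length := by rw [← hPQ, List.length_append]
    have h4 := hres Q.length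
    rw [← h3] at h4
    rw [← h4]
    omega
  · intro y hy hWy
    have hny : n ≤ y := by
      have := hw.len _ hWy
      rw [List.length_take] at this
      omega
    have hWX : WL (X.take (P.length + y)) := by
      rw [← hPQ, List.take_length_add_append]
      refine (hw.loc P (Q.take y) ?_).mpr hWy
      rw [List.length_take]
      omega
    have hylt : P.length + y < X.length := by omega
    have h1 := hX.2.2 (P.length + y) hylt hWX
    unfold qual at h1
    rw [hres] at h1
    by_contra hcon
    push Not at hcon
    have h2 := hE' (P.length + y) hylt.le hWX (by rw [hres]; omega)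
    rw [hres] at h2
    omega

/-- a long power-free word starts with a block of bounded length -/
theorem exists_block (hw : LWall e W n G WL) {B : ℕ} (hB : ∀ r, th r ≤ B) (hG : 0 < G)
    {w : List α} (hRF : RF e W w) (hl : B + G + n ≤ w.length) :
    ∃ X E : List α, w = X ++ E ∧ X ∈ XX WL M' th ∧ X.length ≤ B + G + n := by
  classical
  obtain ⟨i, hi, hWi⟩ := hw.dense (w.take (B + G + n)) (hRF.take _) (by
    rw [List.length_take]; omega)
  have hlt : (w.take (B + G + n)).length = B + G + n := by
    rw [List.length_take]; omega
  rw [hlt, List.take_take, min_eq_left (by omega)] at hWi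
  have hex : ∃ y, y ≤ B + G + n ∧ WL (w.take y) ∧ qual M' th y := by
    refine ⟨B + G + n - i, by omega, hWi, ?_⟩
    unfold qual
    have := hB ((B + G + n - i) % M')
    omega
  obtain ⟨hy1, hy2, hy3⟩ := Nat.find_spec hex
  set y := Nat.find hex with hy
  have hyl : (w.take y).length = y := by
    rw [List.length_take]; omega
  refine ⟨w.take y, w.drop y, (List.take_append_drop _ _).symm, ⟨hy2, ?_, ?_⟩, ?_⟩
  · rw [hyl]; exact hy3
  · intro y' hy' hW' hq
    rw [hyl] at hy'
    rw [List.take_take, min_eq_left hy'.le] at hW'
    exact Nat.find_min hex hy' ⟨by omega, hW', hq⟩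
  · rw [hyl]; exact hy1

/-- blocks of power-free texts are short -/
theorem XX_length_le (hw : LWall e W n G WL) {B : ℕ} (hB : ∀ r, th r ≤ B) (hG : 0 < G)
    {X : List α} (hRF : RF e W X) (hX : X ∈ XX WL M' th) : X.length ≤ B + G + n := by
  by_contra hcon
  push Not at hcon
  obtain ⟨X', E, hXE, hX', hl⟩ := exists_block (M' := M') hw hB hG hRF hcon.le
  rw [hXE] at hX hcon
  have := XX_prefix hX' hX
  subst this
  simp at hcon
  omega

/-- every power-free word is a product of short blocks and a short rest -/
theorem exists_parse (hw : LWall e W n G WL) {B : ℕ} (hB : ∀ r, th r ≤ B) (hG : 0 < G)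
    (hth : ∀ r, 0 < th r) (w : List α) (hRF : RF e W w) :
    ∃ (l : List (List α)) (E : List α), w = l.flatten ++ E ∧
      (∀ X ∈ l, X ∈ XX WL M' th ∧ X.length ≤ B + G + n) ∧ E.length < B + G + n := by
  induction hN : w.length using Nat.strong_induction_on generalizing w with
  | _ N ih =>
    by_cases hlt : w.length < B + G + n
    · exact ⟨[], w, by simp, by simp, hlt⟩
    · push Not at hlt
      obtain ⟨X, E, hXE, hX, hl⟩ := exists_block (M' := M') hw hB hG hRF hlt
      have hX0 : 0 < X.length := by
        have := hX.2.1
        unfold qual at this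
        have := hth (X.length % M')
        omega
      have hEl : E.length < N := by
        rw [← hN, hXE, List.length_append]
        omega
      obtain ⟨l, E', h1, h2, h3⟩ := ih E.length hEl E
        (hRF.infix (by rw [hXE]; exact (List.suffix_append X E).isInfix)) rfl
      refine ⟨X :: l, E', ?_, ?_, h3⟩
      · rw [hXE, h1, List.flatten_cons, List.append_assoc]
      · intro Y hY
        rcases List.mem_cons.mp hY with h | h
        · subst h; exact ⟨hX, hl⟩
        · exact h2 Y h

end

end Crest.Agent.R320.Core1_211
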