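import Mathlib

/-!
# Row 320, CORE-1 (helper430): left-looking walls, threshold chain, block code, junction lemma

`E w` = "the word `w` ends in a wall" (left-looking, window `n`).
`qual thr M y` = the place `y` of a block qualifies: `thr (y % M) ≤ y` (comb modulus `M`, thresholds
depend on the residue of the place; the constant `z` of 132 #12664 is absorbed in `thr`).
`XX` = block code: first qualified wall.  `Right` = right words which complete EVERY left word of
length `p0 + M * om`, `om ≤ OM`.
-/

set_option autoImplicit false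

namespace Crest.Agent.R320.Core1_430

variable {α : Type*}

/-- left-looking wall rule with window `n` -/
structure Rule (α : Type*) where
  n : ℕ
  E : List α → Prop
  loc : ∀ u v : List α, n ≤ v.length → (E (u ++ v) ↔ E v)
  len : ∀ v, E v → n ≤ v.length

/-- the place `y` qualifies -/
def qual (thr : ℕ → ℕ) (M y : ℕ) : Prop := thr (y % M) ≤ y

/-- the block code: words ending in the first qualified wall -/
def XX (r : Rule α) (thr : ℕ → ℕ) (M : ℕ) : Set (List α) :=
  {X | r.E X ∧ qual thr M X.length ∧ ∀ y, y < X.length → r.E (X.take y) → ¬ qual thr M y}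

/-- `Q` completes every left word of length `x` to a block -/
def Place (r : Rule α) (thr : ℕ → ℕ) (M x : ℕ) (Q : List α) : Prop :=
  r.E Q ∧ qual thr M (x + Q.length) ∧ ∀ u, u < Q.length → r.E (Q.take u) → ¬ qual thr M (x + u)

/-- right-legal with respect to the walls -/
def Right (r : Rule α) (thr : ℕ → ℕ) (M p0 OM : ℕ) (Q : List α) : Prop :=
  ∀ om, om ≤ OM → Place r thr M (p0 + M * om) Q

/-- the wall band (E) -/
def EE (r : Rule α) (thr : ℕ → ℕ) (M N1 : ℕ) (X : List α) : Prop :=
  ∃ y, y ≤ X.length ∧ r.E (X.take y) ∧ y ≤ thr (y % M) + N1 ∧ thr (y % M) ≤ y + N1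

variable {r : Rule α} {thr : ℕ → ℕ} {M : ℕ}

theorem XX_prefix {X Y : List α} (hX : X ∈ XX r thr M) (hXY : X ++ Y ∈ XX r thr M) : Y = [] := by
  by_contra h
  have hl : 0 < Y.length := List.length_pos_iff.2 h
  have := hXY.2.2 X.length (by simp; omega) (by simpa using hX.1)
  exact this hX.2.1

/-- two blocks which are prefixes of the same word are equal -/
theorem XX_unique {X Y X' Y' : List α} (hX : X ∈ XX r thr M) (hX' : X' ∈ XX r thr M)
    (h : X ++ Y = X' ++ Y') : X = X' := by
  rcases List.append_eq_append_iff.1 h with ⟨c, h1, -⟩ | ⟨c, h1, -⟩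
  · subst h1
    rw [XX_prefix hX hX', List.append_nil]
  · subst h1
    rw [XX_prefix hX' hX, List.append_nil]

theorem XX_lo {lo : ℕ} (hlo : ∀ ρ, lo ≤ thr ρ) {X : List α} (hX : X ∈ XX r thr M) :
    lo ≤ X.length := le_trans (hlo _) hX.2.1

/-- walls inside the right part -/
theorem E_append_take {P Q : List α} {u : ℕ} (hu : r.n ≤ u) (hu' : u ≤ Q.length) :
    r.E ((P ++ Q).take (P.length + u)) ↔ r.E (Q.take u) := by
  rw [List.take_append]
  simp only [Nat.add_sub_cancel_left]
  rw [List.take_of_length_le (by omega)]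
  exact r.loc _ _ (by rw [List.length_take]; omega)

/-- a place which completes a left word of length `|P|` completes `P` -/
theorem junction {P Q : List α} {lo x : ℕ} (hlo : ∀ ρ, lo ≤ thr ρ) (hx : P.length = x)
    (hn : x + r.n ≤ lo) (hQ : Place r thr M x Q) : P ++ Q ∈ XX r thr M := by
  subst hx
  obtain ⟨h1, h2, h3⟩ := hQ
  refine ⟨(r.loc _ _ (r.len _ h1)).2 h1, by rw [List.length_append]; exact h2, ?_⟩
  intro y hy hE hq
  rw [List.length_append] at hy
  have hy1 : P.length + r.n ≤ y := by
    have := hlo (y % M)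
    unfold qual at hq
    omega
  obtain ⟨u, rfl⟩ : ∃ u, y = P.length + u := ⟨y - P.length, by omega⟩
  rw [E_append_take (by omega) (by omega)] at hE
  exact h3 u (by omega) hE hq

/-- converse: the right part of a block -/
theorem place_of_mem {P Q : List α} (hQ : r.n ≤ Q.length) (h : P ++ Q ∈ XX r thr M)
    (hne : Q ≠ []) : Place r thr M P.length Q := by
  obtain ⟨h1, h2, h3⟩ := h
  refine ⟨(r.loc _ _ hQ).1 h1, by rw [← List.length_append]; exact h2, ?_⟩
  intro u hu hE
  have hn := r.len _ hE
  rw [List.length_take] at hn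
  refine h3 (P.length + u) (by simp; omega) ?_
  rw [E_append_take (by omega) (by omega)]
  exact hE

theorem mod_shift {a b : ℕ} (h : a ≤ b) (k : ℕ) (e : b = a + M * k) : b % M = a % M := by
  subst e; simp

/-- off the wall band every comb place is right-legal -/
theorem right_of_not_EE {P Q : List α} {lo p0 OM om : ℕ} (hlo : ∀ ρ, lo ≤ thr ρ)
    (hom : om ≤ OM) (hP : P.length = p0 + M * om) (hn : p0 + M * OM + r.n ≤ lo)
    (hX : P ++ Q ∈ XX r thr M) (hE : ¬ EE r thr M (M * OM) (P ++ Q)) :
    Right r thr M p0 OM Q := by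
  have hmul : ∀ k, k ≤ OM → M * k ≤ M * OM := fun k hk => Nat.mul_le_mul_left M hk
  have hlen : lo ≤ P.length + Q.length := by
    have := XX_lo hlo hX
    rwa [List.length_append] at this
  have hom' := hmul om hom
  have hQn : r.n ≤ Q.length := by omega
  have hQE : r.E Q := (r.loc _ _ hQn).1 hX.1
  -- every wall place `P.length + u` of the block is far from its threshold
  have key : ∀ u, r.n ≤ u → u ≤ Q.length → r.E (Q.take u) →
      ∀ k, k ≤ OM → (qual thr M (p0 + M * k + u) ↔ qual thr M (P.length + u)) := by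
    intro u hu1 hu2 hu3 k hk
    have hk' := hmul k hk
    have hE' : r.E ((P ++ Q).take (P.length + u)) := (E_append_take hu1 hu2).2 hu3
    have hfar : ¬ (P.length + u ≤ thr ((P.length + u) % M) + M * OM ∧
        thr ((P.length + u) % M) ≤ P.length + u + M * OM) := fun h =>
      hE ⟨P.length + u, by simp; omega, hE', h.1, h.2⟩
    have hmod : (p0 + M * k + u) % M = (P.length + u) % M := by
      rw [hP]
      have e1 : p0 + M * k + u = (p0 + u) + M * k := by ring
      have e2 : p0 + M * om + u = (p0 + u) + M * om := by ring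
      rw [e1, e2]; simp
    unfold qual
    rw [hmod]
    constructor <;> intro h
    · by_contra h'
      apply hfar
      omega
    · by_contra h'
      apply hfar
      omega
  intro k hk
  refine ⟨hQE, ?_, ?_⟩
  · have := (key Q.length hQn le_rfl (by simpa using hQE) k hk).2
      (by have := hX.2.1; rwa [List.length_append] at this)
    exact this
  · intro u hu hEu hq
    have hn' := r.len _ hEu
    rw [List.length_take] at hn'
    have h1 := (key u (by omega) (by omega) hEu k hk).1 hq
    exact hX.2.2 (P.length + u) (by simp; omega) ((E_append_take (by omega) (by omega)).2 hEu) h1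

/-- every text with a wall in `[hi, hi + G]` starts with a block of length `≤ hi + G` -/
theorem exists_block {hi G : ℕ} (hhi : ∀ ρ, thr ρ ≤ hi) {w : List α}
    (hw : ∃ y, hi ≤ y ∧ y ≤ hi + G ∧ y ≤ w.length ∧ r.E (w.take y)) :
    ∃ X Y, w = X ++ Y ∧ X ∈ XX r thr M ∧ X.length ≤ hi + G := by
  classical
  obtain ⟨y0, h1, h2, h3, h4⟩ := hw
  have hex : ∃ y, y ≤ w.length ∧ r.E (w.take y) ∧ qual thr M y :=
    ⟨y0, h3, h4, le_trans (hhi _) h1⟩
  obtain ⟨g1, g2, g3⟩ := Nat.find_spec hex
  have hmin : ∀ y, y < Nat.find hex → ¬ (y ≤ w.length ∧ r.E (w.take y) ∧ qual thr M y) :=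
    fun y hy => Nat.find_min hex hy
  have hle : Nat.find hex ≤ y0 := Nat.find_min' hex ⟨h3, h4, le_trans (hhi _) h1⟩
  refine ⟨w.take (Nat.find hex), w.drop (Nat.find hex), (List.take_append_drop _ _).symm,
    ⟨g2, ?_, ?_⟩, ?_⟩
  · rw [List.length_take, min_eq_left g1]; exact g3
  · intro y hy hE hq
    rw [List.length_take, min_eq_left g1] at hy
    rw [List.take_take, min_eq_left (by omega)] at hE
    exact hmin y hy ⟨by omega, hE, hq⟩
  · rw [List.length_take]; omega

end Crest.Agent.R320.Core1_430
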