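import Mathlib

/-!
Row 320 (generalized star height), helper 132's threshold chain rule (post 12664, items (2), (3)).

Walls are a set `Wl` of integers.  The next anchor of an anchor `a` is the first wall `t` with
`s_rho <= t - a - z`, where `rho = (t - a - z) mod M` and `s` is a table of thresholds.
A place `x` of the comb `x - p0 - a = M * om`, `0 <= M * om <= N1`, knows `rho` of every wall
from the right side alone.  Main results:

* `isN_iff_isB` : at every right-legal comb place the first wall which qualifies for `a` is the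
  wall which the right side names (`N(a) = b(x)`, 818's lemma);
* `legal_congr`, `isB_congr` : legality and `b(x)` only depend on the walls `>= x`;
* `legal_of_not_E` : if `a` is not critical, every comb place of its window is right-legal;
* `spoil_unique`, `not_E_of_E`, `card_spoiled_le_one` : criticality spoils at most one element of
  a ruler which is Golomb modulo `M`.
-/

set_option autoImplicit false

namespace Crest.Agent.R320.ThrChain260

/-- Parameters of the threshold rule. -/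
structure Par where
  M : ℤ
  z : ℤ
  p0 : ℤ
  N1 : ℤ
  S : ℤ
  L : ℤ
  s : ℤ → ℤ
  hM : 0 < M
  hN : 0 ≤ N1
  hL : 0 ≤ L
  hs : ∀ r, |s r| ≤ S - N1
  sep : ∀ r r' : ℤ, 0 ≤ r → r < M → 0 ≤ r' → r' < M → r ≠ r' → 2 * (N1 + L) < |s r - s r'|

variable (P : Par)

/-- The wall `t` qualifies for the anchor `a`. -/
def Qual (Wl : ℤ → Prop) (a t : ℤ) : Prop :=
  Wl t ∧ P.s ((t - a - P.z) % P.M) ≤ t - a - P.z

/-- `t` is the next anchor of `a`. -/
def IsN (Wl : ℤ → Prop) (a t : ℤ) : Prop :=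
  Qual P Wl a t ∧ ∀ t' < t, ¬ Qual P Wl a t'

/-- The wall `t` qualifies as seen from the right word starting at `x`. -/
def QualR (Wl : ℤ → Prop) (x t : ℤ) : Prop :=
  Wl t ∧ P.s ((t - x + P.p0 - P.z) % P.M) ≤ t - x + P.p0 - P.z

/-- `t` is the anchor named by the right word starting at `x`. -/
def IsB (Wl : ℤ → Prop) (x t : ℤ) : Prop :=
  QualR P Wl x t ∧ ∀ t' < t, ¬ QualR P Wl x t'

/-- Right-legality at `x`: no wall in the doubtful band. -/
def Legal (Wl : ℤ → Prop) (x : ℤ) : Prop :=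
  ∀ t, Wl t → ¬ (t - x + P.p0 - P.z < P.s ((t - x + P.p0 - P.z) % P.M) ∧
    P.s ((t - x + P.p0 - P.z) % P.M) ≤ t - x + P.p0 - P.z + P.N1)

/-- `x` is a comb place of the window of `a`. -/
def InWin (a x : ℤ) : Prop :=
  0 ≤ x - P.p0 - a ∧ x - P.p0 - a ≤ P.N1 ∧ P.M ∣ x - P.p0 - a

/-- The anchor `a` is critical. -/
def E (Wl : ℤ → Prop) (a : ℤ) : Prop :=
  ∃ t, Wl t ∧ |t - a - P.z - P.s ((t - a - P.z) % P.M)| ≤ P.N1

variable {P}

theorem mod_eq {a x : ℤ} (h : InWin P a x) (t : ℤ) :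
    (t - x + P.p0 - P.z) % P.M = (t - a - P.z) % P.M := by
  have : (t - x + P.p0 - P.z) ≡ (t - a - P.z) [ZMOD P.M] := by
    rw [Int.modEq_iff_dvd]
    have e : t - a - P.z - (t - x + P.p0 - P.z) = x - P.p0 - a := by ring
    rw [e]
    exact h.2.2
  exact this

theorem qual_iff {Wl : ℤ → Prop} {a x : ℤ} (hl : Legal P Wl x) (hw : InWin P a x) (t : ℤ) :
    Qual P Wl a t ↔ QualR P Wl x t := by
  unfold Qual QualR
  rw [mod_eq hw t]
  constructor
  · rintro ⟨h1, h2⟩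
    refine ⟨h1, ?_⟩
    by_contra hc
    have := hl t h1
    rw [mod_eq hw t] at this
    apply this
    refine ⟨not_le.mp hc, ?_⟩
    have := hw.2.1
    linarith
  · rintro ⟨h1, h2⟩
    refine ⟨h1, ?_⟩
    have := hw.1
    linarith

/-- 818's lemma for the threshold rule: `b(x) = N(a)` at every legal junction. -/
theorem isN_iff_isB {Wl : ℤ → Prop} {a x : ℤ} (hl : Legal P Wl x) (hw : InWin P a x) (t : ℤ) :
    IsN P Wl a t ↔ IsB P Wl x t := by
  unfold IsN IsB
  rw [qual_iff hl hw t]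
  constructor
  · rintro ⟨h1, h2⟩
    exact ⟨h1, fun t' ht' h => h2 t' ht' ((qual_iff hl hw t').mpr h)⟩
  · rintro ⟨h1, h2⟩
    exact ⟨h1, fun t' ht' h => h2 t' ht' ((qual_iff hl hw t').mp h)⟩

theorem s_ge (r : ℤ) : -(P.S - P.N1) ≤ P.s r := (abs_le.mp (P.hs r)).1

theorem s_le (r : ℤ) : P.s r ≤ P.S - P.N1 := (abs_le.mp (P.hs r)).2

/-- A wall left of `x` is never in the doubtful band and never qualifies. -/
theorem left_lt {x t : ℤ} (hz : P.p0 + P.S ≤ P.z) (ht : t < x) :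
    t - x + P.p0 - P.z + P.N1 < P.s ((t - x + P.p0 - P.z) % P.M) := by
  have := s_ge (P := P) ((t - x + P.p0 - P.z) % P.M)
  linarith

/-- Legality only depends on the walls `>= x`. -/
theorem legal_congr {Wl Wl' : ℤ → Prop} {x : ℤ} (hz : P.p0 + P.S ≤ P.z)
    (h : ∀ t, x ≤ t → (Wl t ↔ Wl' t)) : Legal P Wl x ↔ Legal P Wl' x := by
  constructor
  · intro hl t ht hb
    rcases lt_or_ge t x with hx | hx
    · exact absurd hb.2 (not_le.mpr (left_lt hz hx))
    · exact hl t ((h t hx).mpr ht) hb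
  · intro hl t ht hb
    rcases lt_or_ge t x with hx | hx
    · exact absurd hb.2 (not_le.mpr (left_lt hz hx))
    · exact hl t ((h t hx).mp ht) hb

theorem qualR_ge {Wl : ℤ → Prop} {x t : ℤ} (hz : P.p0 + P.S ≤ P.z) (h : QualR P Wl x t) :
    x ≤ t := by
  by_contra hc
  have h1 := left_lt (P := P) hz (not_le.mp hc)
  have h2 := h.2
  have h3 := P.hN
  linarith

theorem qualR_congr {Wl Wl' : ℤ → Prop} {x : ℤ} (hz : P.p0 + P.S ≤ P.z)
    (h : ∀ t, x ≤ t → (Wl t ↔ Wl' t)) (t : ℤ) : QualR P Wl x t ↔ QualR P Wl' x t := by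
  constructor
  · intro hq
    exact ⟨(h t (qualR_ge hz hq)).mp hq.1, hq.2⟩
  · intro hq
    exact ⟨(h t (qualR_ge hz hq)).mpr hq.1, hq.2⟩

/-- The anchor named by the right side only depends on the walls `>= x`. -/
theorem isB_congr {Wl Wl' : ℤ → Prop} {x : ℤ} (hz : P.p0 + P.S ≤ P.z)
    (h : ∀ t, x ≤ t → (Wl t ↔ Wl' t)) (t : ℤ) : IsB P Wl x t ↔ IsB P Wl' x t := by
  unfold IsB
  rw [qualR_congr hz h t]
  constructor
  · rintro ⟨h1, h2⟩
    exact ⟨h1, fun t' ht' hq => h2 t' ht' ((qualR_congr hz h t').mpr hq)⟩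
  · rintro ⟨h1, h2⟩
    exact ⟨h1, fun t' ht' hq => h2 t' ht' ((qualR_congr hz h t').mp hq)⟩

/-- A next anchor is at distance at least `z - (S - N1)`. -/
theorem qual_ge {Wl : ℤ → Prop} {a t : ℤ} (h : Qual P Wl a t) :
    a + P.z - (P.S - P.N1) ≤ t := by
  have h1 := s_ge (P := P) ((t - a - P.z) % P.M)
  have h2 := h.2
  linarith

/-- Every wall at distance at least `z + (S - N1)` qualifies. -/
theorem qual_of_ge {Wl : ℤ → Prop} {a t : ℤ} (hw : Wl t) (h : a + P.z + (P.S - P.N1) ≤ t) :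
    Qual P Wl a t := by
  refine ⟨hw, ?_⟩
  have h1 := s_le (P := P) ((t - a - P.z) % P.M)
  linarith

/-- Existence (with bounds) of the next anchor. -/
theorem exists_isN {Wl : ℤ → Prop} {a u : ℤ} (hw : Wl u) (h : a + P.z + (P.S - P.N1) ≤ u) :
    ∃ t, IsN P Wl a t ∧ a + P.z - (P.S - P.N1) ≤ t ∧ t ≤ u := by
  classical
  obtain ⟨t, ht, hmin⟩ := Int.exists_least_of_bdd (P := fun t => Qual P Wl a t)
    ⟨a + P.z - (P.S - P.N1), fun t ht => qual_ge ht⟩ ⟨u, qual_of_ge hw h⟩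
  refine ⟨t, ⟨ht, fun t' ht' hq => ?_⟩, qual_ge ht, hmin u (qual_of_ge hw h)⟩
  exact absurd (hmin t' hq) (not_le.mpr ht')

theorem isN_unique {Wl : ℤ → Prop} {a t t' : ℤ} (h : IsN P Wl a t) (h' : IsN P Wl a t') :
    t = t' := by
  rcases lt_trichotomy t t' with hlt | heq | hgt
  · exact absurd h.1 (h'.2 t hlt)
  · exact heq
  · exact absurd h'.1 (h.2 t' hgt)

/-- If the anchor is not critical, every comb place of its window is right-legal. -/
theorem legal_of_not_E {Wl : ℤ → Prop} {a x : ℤ} (hE : ¬ E P Wl a) (hw : InWin P a x) :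
    Legal P Wl x := by
  intro t ht hb
  apply hE
  refine ⟨t, ht, ?_⟩
  rw [mod_eq hw t] at hb
  have h1 := hw.1
  have h2 := hw.2.1
  rw [abs_le]
  constructor
  · linarith [hb.2]
  · linarith [hb.1]

/-- The wall which makes `a + d` critical is close to `a + z`. -/
theorem near_of_E {a d t : ℤ} (hd : |d| ≤ P.L)
    (h : |t - (a + d) - P.z - P.s ((t - (a + d) - P.z) % P.M)| ≤ P.N1) :
    |t - a - P.z| ≤ P.S + P.L := by
  have h1 := abs_le.mp h
  have h2 := abs_le.mp hd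
  have h3 := s_ge (P := P) ((t - (a + d) - P.z) % P.M)
  have h4 := s_le (P := P) ((t - (a + d) - P.z) % P.M)
  rw [abs_le]
  constructor <;> linarith [h1.1, h1.2, h2.1, h2.2]

/-- Two shifts `d, d'` which make the same neighbourhood critical agree modulo `M`. -/
theorem dvd_of_E_E {Wl : ℤ → Prop}
    (gap : ∀ t t', Wl t → Wl t' → t < t' → 2 * (P.S + P.L) < t' - t) {a d d' : ℤ}
    (hd : |d| ≤ P.L) (hd' : |d'| ≤ P.L) (h : E P Wl (a + d)) (h' : E P Wl (a + d')) :
    P.M ∣ d - d' := by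
  obtain ⟨t, ht, h1⟩ := h
  obtain ⟨t', ht', h1'⟩ := h'
  have n1 := near_of_E hd h1
  have n2 := near_of_E hd' h1'
  have ett : t = t' := by
    have m1 := abs_le.mp n1
    have m2 := abs_le.mp n2
    rcases lt_trichotomy t t' with hlt | heq | hgt
    · have := gap t t' ht ht' hlt
      linarith [m1.1, m1.2, m2.1, m2.2]
    · exact heq
    · have := gap t' t ht' ht hgt
      linarith [m1.1, m1.2, m2.1, m2.2]
  subst ett
  set r := (t - (a + d) - P.z) % P.M with hr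
  set r' := (t - (a + d') - P.z) % P.M with hr'
  have hrr : r = r' := by
    by_contra hne
    have hsep := P.sep r r' (Int.emod_nonneg _ P.hM.ne') (Int.emod_lt_of_pos _ P.hM)
      (Int.emod_nonneg _ P.hM.ne') (Int.emod_lt_of_pos _ P.hM) hne
    have a1 := abs_le.mp h1
    have a2 := abs_le.mp h1'
    have b1 := abs_le.mp hd
    have b2 := abs_le.mp hd'
    have : |P.s r - P.s r'| ≤ 2 * (P.N1 + P.L) := by
      rw [abs_le]
      constructor <;> linarith [a1.1, a1.2, a2.1, a2.2, b1.1, b1.2, b2.1, b2.2]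
    linarith
  have hme : (t - (a + d) - P.z) ≡ (t - (a + d') - P.z) [ZMOD P.M] := hrr
  rw [Int.modEq_iff_dvd] at hme
  have e : t - (a + d') - P.z - (t - (a + d) - P.z) = d - d' := by ring
  rw [e] at hme
  exact hme

/-- A ruler: bounded span, all differences of distinct elements distinct and nonzero mod `M`. -/
structure Ruler (P : Par) (C : Finset ℤ) : Prop where
  span : ∀ c ∈ C, ∀ c' ∈ C, |c - c'| ≤ P.L
  nz : ∀ c ∈ C, ∀ c' ∈ C, c ≠ c' → ¬ P.M ∣ c - c'
  gol : ∀ c₁ ∈ C, ∀ c₂ ∈ C, ∀ c₃ ∈ C, ∀ c₄ ∈ C, c₁ ≠ c₂ → c₃ ≠ c₄ →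
    P.M ∣ (c₁ - c₂) - (c₃ - c₄) → c₁ = c₃ ∧ c₂ = c₄

/-- Criticality of a wrong anchor `a + c - c'` happens for at most one pair `(c, c')`. -/
theorem spoil_unique {Wl : ℤ → Prop} {C : Finset ℤ} (hC : Ruler P C)
    (gap : ∀ t t', Wl t → Wl t' → t < t' → 2 * (P.S + P.L) < t' - t) {a c₁ c₂ c₃ c₄ : ℤ}
    (h₁ : c₁ ∈ C) (h₂ : c₂ ∈ C) (h₃ : c₃ ∈ C) (h₄ : c₄ ∈ C) (hne : c₁ ≠ c₂) (hne' : c₃ ≠ c₄)
    (hE : E P Wl (a + (c₁ - c₂))) (hE' : E P Wl (a + (c₃ - c₄))) : c₁ = c₃ ∧ c₂ = c₄ :=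
  hC.gol c₁ h₁ c₂ h₂ c₃ h₃ c₄ h₄ hne hne'
    (dvd_of_E_E gap (hC.span c₁ h₁ c₂ h₂) (hC.span c₃ h₃ c₄ h₄) hE hE')

/-- If the true anchor is critical, no wrong anchor of the ruler is. -/
theorem not_E_of_E {Wl : ℤ → Prop} {C : Finset ℤ} (hC : Ruler P C)
    (gap : ∀ t t', Wl t → Wl t' → t < t' → 2 * (P.S + P.L) < t' - t) {a c c' : ℤ}
    (h : c ∈ C) (h' : c' ∈ C) (hne : c ≠ c') (hE : E P Wl a) : ¬ E P Wl (a + (c - c')) := by
  intro hE'
  have h0 : E P Wl (a + 0) := by simpa using hE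
  have := dvd_of_E_E gap (hC.span c h c' h') (by simpa using P.hL) hE' h0
  apply hC.nz c h c' h' hne
  simpa using this

/-- Criticality spoils at most one element of the ruler. -/
theorem card_spoiled_le_one {Wl : ℤ → Prop} {C : Finset ℤ} (hC : Ruler P C)
    (gap : ∀ t t', Wl t → Wl t' → t < t' → 2 * (P.S + P.L) < t' - t) (a : ℤ)
    [DecidablePred fun c => ∃ c' ∈ C, c' ≠ c ∧ E P Wl (a + (c - c'))] :
    (C.filter fun c => ∃ c' ∈ C, c' ≠ c ∧ E P Wl (a + (c - c'))).card ≤ 1 := by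
  rw [Finset.card_le_one]
  intro c hc d hd
  simp only [Finset.mem_filter] at hc hd
  obtain ⟨hc1, c', hc', hne, hE⟩ := hc
  obtain ⟨hd1, d', hd', hne', hE'⟩ := hd
  exact (spoil_unique hC gap hc1 hc' hd1 hd' hne.symm hne'.symm hE hE').1

end Crest.Agent.R320.ThrChain260
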