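import Crest.Agent.R320.Gad1_420
import Crest.Agent.R320.ThrChain_260

/-!
Row 320 (helper449): scheme 1 in the buffer form of helper131 (post 13123): (SC1), (CP1) from the
zone gadget `Gad1_420` and the threshold chain `ThrChain260`.
-/

set_option autoImplicit false
set_option linter.unusedSectionVars false
set_option linter.unusedVariables false

namespace Crest.Agent.R320.Core1_449

open Crest.Agent.R320.Gad1_420 Crest.Agent.R320.ThrChain260

variable {α : Type*}

/-- walls of the text `T` as a set of integers -/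
def WlI (R : List α → Prop) (T : List α) (t : ℤ) : Prop := ∃ s : ℕ, (s : ℤ) = t ∧ R (T.drop s)

theorem rule_take {R : List α → Prop} {n : ℕ} (hR : Rule R n) {T : List α} {B j : ℕ}
    (h : j + n ≤ B) : R ((T.take B).drop j) ↔ R (T.drop j) := by
  rw [hR.loc (T.drop j), hR.loc ((T.take B).drop j), List.drop_take, List.take_take,
    min_eq_left (by omega)]

theorem rule_take_imp {R : List α → Prop} {n : ℕ} (hR : Rule R n) {T : List α} {B j : ℕ}
    (h : R ((T.take B).drop j)) : j + n ≤ B ∧ R (T.drop j) := by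
  have h1 := hR.wall_fit h
  rw [List.length_take] at h1
  have h2 : j + n ≤ B := by omega
  exact ⟨h2, (rule_take hR h2).1 h⟩

section chain

variable (P : Par) (R : List α → Prop)

/-- the wall `t` qualifies as next anchor of the anchor `0` of the text `T` -/
def Qu (T : List α) (t : ℕ) : Prop :=
  R (T.drop t) ∧ P.s (((t : ℤ) - P.z) % P.M) ≤ (t : ℤ) - P.z

/-- the wall `t` qualifies as seen from the right text `r` -/
def QuR (r : List α) (t : ℕ) : Prop :=
  R (r.drop t) ∧ P.s (((t : ℤ) + P.p0 - P.z) % P.M) ≤ (t : ℤ) + P.p0 - P.z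

/-- right-legality -/
def LegR (r : List α) : Prop :=
  ∀ t : ℕ, R (r.drop t) → ¬ ((t : ℤ) + P.p0 - P.z < P.s (((t : ℤ) + P.p0 - P.z) % P.M) ∧
    P.s (((t : ℤ) + P.p0 - P.z) % P.M) ≤ (t : ℤ) + P.p0 - P.z + P.N1)

open Classical in
/-- the next anchor, read on `Bm` letters -/
noncomputable def NN (Bm : ℕ) (y : List α) : ℕ :=
  if h : ∃ t, Qu P R y t then Nat.find h else Bm

variable {P R}

theorem qual_iff' {T : List α} {s : ℕ} : Qual P (WlI R T) 0 (s : ℤ) ↔ Qu P R T s := by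
  unfold Qual Qu WlI
  constructor
  · rintro ⟨⟨s', hs, h1⟩, h2⟩
    have : s' = s := by exact_mod_cast hs
    subst this
    rw [sub_zero] at h2
    exact ⟨h1, h2⟩
  · rintro ⟨h1, h2⟩
    refine ⟨⟨s, rfl, h1⟩, ?_⟩
    rw [sub_zero]
    exact h2

theorem qualR_iff' {u r : List α} {s : ℕ} :
    QualR P (WlI R (u ++ r)) (u.length : ℤ) ((u.length + s : ℕ) : ℤ) ↔ QuR P R r s := by
  have e : (((u.length + s : ℕ) : ℤ) - (u.length : ℤ) + P.p0 - P.z) = (s : ℤ) + P.p0 - P.z := by
    push_cast; ring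
  unfold QualR QuR WlI
  rw [e]
  constructor
  · rintro ⟨⟨s', hs, h1⟩, h2⟩
    have : s' = u.length + s := by exact_mod_cast hs
    subst this
    rw [drop_app_right] at h1
    exact ⟨h1, h2⟩
  · rintro ⟨h1, h2⟩
    exact ⟨⟨u.length + s, rfl, by rwa [drop_app_right]⟩, h2⟩

theorem legal_of_legR (hz : P.p0 + P.S ≤ P.z) {u r : List α} (hl : LegR P R r) :
    Legal P (WlI R (u ++ r)) (u.length : ℤ) := by
  rintro t ⟨s, hs, h1⟩ ⟨h2, h3⟩
  rcases lt_or_ge s u.length with h | h
  · have := left_lt (P := P) (x := (u.length : ℤ)) (t := t) hz (by rw [← hs]; exact_mod_cast h)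
    omega
  · obtain ⟨s', rfl⟩ := Nat.exists_eq_add_of_le h
    rw [drop_app_right] at h1
    have e : t - (u.length : ℤ) + P.p0 - P.z = (s' : ℤ) + P.p0 - P.z := by
      rw [← hs]; push_cast; ring
    rw [e] at h2 h3
    exact hl s' h1 ⟨h2, h3⟩

/-- the junction lemma in list form -/
theorem junction (hz : P.p0 + P.S ≤ P.z) {u r : List α} (hw : InWin P 0 (u.length : ℤ))
    (hl : LegR P R r) {d : ℕ} (hd : QuR P R r d) (hmin : ∀ t < d, ¬ QuR P R r t) :
    Qu P R (u ++ r) (u.length + d) ∧ ∀ t < u.length + d, ¬ Qu P R (u ++ r) t := by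
  have hL := legal_of_legR (u := u) hz hl
  have key : ∀ s : ℕ, Qu P R (u ++ r) s ↔ QualR P (WlI R (u ++ r)) (u.length : ℤ) (s : ℤ) := by
    intro s
    rw [← qual_iff']
    exact qual_iff hL hw _
  refine ⟨(key _).2 (qualR_iff'.2 hd), ?_⟩
  intro t ht hq
  rw [key] at hq
  rcases lt_or_ge t u.length with h | h
  · have := qualR_ge hz hq
    have : u.length ≤ t := by exact_mod_cast this
    omega
  · obtain ⟨s', rfl⟩ := Nat.exists_eq_add_of_le h
    exact hmin s' (by omega) (qualR_iff'.1 hq)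

theorem NN_eq {n Bm : ℕ} (hR : Rule R n) {T : List α} {b : ℕ} (hb : b + n ≤ Bm)
    (h1 : Qu P R T b) (h2 : ∀ t < b, ¬ Qu P R T t) : NN P R Bm (T.take Bm) = b := by
  classical
  have hq : Qu P R (T.take Bm) b := ⟨(rule_take hR hb).2 h1.1, h1.2⟩
  have hex : ∃ t, Qu P R (T.take Bm) t := ⟨b, hq⟩
  unfold NN
  rw [dif_pos hex]
  rw [Nat.find_eq_iff]
  refine ⟨hq, fun t ht hqt => h2 t ht ⟨(rule_take_imp hR hqt.1).2, hqt.2⟩⟩

theorem exists_next {n G Bm : ℕ} (hR : Rule R n) {T : List α}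
    (hG : ∀ t, t + G + n ≤ T.length → ∃ s, t ≤ s ∧ s < t + G ∧ R (T.drop s))
    (hz : P.p0 + P.S ≤ P.z) (hp0 : 0 ≤ P.p0)
    (hBm : P.z + P.S + G + n ≤ Bm) (hT : Bm ≤ T.length) :
    ∃ b, Qu P R T b ∧ (∀ t < b, ¬ Qu P R T t) ∧ b + n ≤ Bm ∧ P.z - P.S ≤ b := by
  classical
  have hN := P.hN
  have hS : 0 ≤ P.S - P.N1 := le_trans (abs_nonneg _) (P.hs 0)
  obtain ⟨s, hs1, hs2, hs3⟩ := hG (P.z + P.S).toNat (by omega)
  have hq : Qu P R T s := by
    refine ⟨hs3, ?_⟩
    have := s_le (P := P) (((s : ℤ) - P.z) % P.M)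
    omega
  have hex : ∃ t, Qu P R T t := ⟨s, hq⟩
  refine ⟨Nat.find hex, Nat.find_spec hex, fun t ht => Nat.find_min hex ht, ?_, ?_⟩
  · have := Nat.find_min' hex hq
    omega
  · have h1 := (Nat.find_spec hex).2
    have h2 := s_ge (P := P) ((((Nat.find hex : ℕ) : ℤ) - P.z) % P.M)
    omega

end chain

section scheme

variable {S V W : Type*} [Monoid S] [AddCommGroup V] [AddCommGroup W]
  (D : Dat α S V W) (P : Par) (Ro : List α → Prop) (p0 Bm : ℕ) (nu1 nu2 : List α → V)

/-- left reading of scheme 1 -/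
def L1 (u : List α) (v : V) : Prop :=
  p0 ≤ u.length ∧ D.Lf (u.drop p0) = some (D.act v (D.φ (u.take p0)) + nu2 (u.take p0))

open Classical in
/-- right reading of scheme 1 -/
noncomputable def R1 (r : List α) : Option (ℕ × V) :=
  if h : LegR P Ro r ∧ ∃ t, QuR P Ro r t then
    (D.Rf (r.take (Nat.find h.2))).map (fun b => (Nat.find h.2, b))
  else none

/-- the noise -/
noncomputable def nu (y : List α) : V :=
  D.act (nu2 (y.take p0)) (D.φ ((y.take (NN P Ro Bm y)).drop p0)) +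
    nu1 ((y.take (NN P Ro Bm y)).drop p0)

/-- the zone map -/
noncomputable def zm (y : List α) (v : V) : V :=
  D.act v (D.φ (y.take (NN P Ro Bm y))) + nu D P Ro p0 Bm nu1 nu2 y

/-- the zone of the anchor is bad -/
def Bad (good : ℕ → Prop) (y : List α) : Prop :=
  (∃ t : ℕ, Ro (y.drop t) ∧ |(t : ℤ) - P.z - P.s (((t : ℤ) - P.z) % P.M)| ≤ P.N1) ∨
  (¬ good ((NN P Ro Bm y - p0) / D.M')) ∨
  (∃ k ≤ D.m, ∃ s : ℕ, D.A k ≤ s + D.M' * D.M ∧ s < D.A k + D.M' * D.M ∧
    D.R (y.drop (p0 + s)))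

variable {D P Ro p0 Bm nu1 nu2}

theorem SC1 (hP0 : P.p0 = (p0 : ℤ)) (hPM : P.M = (D.M' : ℤ))
    (hPN : ∀ i < D.m, ((D.A' i + D.M' * D.M : ℕ) : ℤ) ≤ P.N1)
    (hφ : ∀ u v, D.φ (u ++ v) = D.φ u * D.φ v)
    (hadd : ∀ a b s, D.act (a + b) s = D.act a s + D.act b s)
    (hmul : ∀ a s t, D.act a (s * t) = D.act (D.act a s) t)
    {no Go : ℕ} (hRo : Rule Ro no)
    (hz : P.p0 + P.S ≤ P.z) (hBm : P.z + P.S + Go + no ≤ Bm)
    (hG1 : ∀ X Q v r, D.Lf X = some v → D.Rf Q = some r →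
      r = D.act v (D.φ (X ++ Q)) + nu1 (X ++ Q))
    (hG2 : ∀ X v, D.Lf X = some v → ∃ i < D.m, D.M' ∣ X.length ∧ D.A' i ≤ X.length ∧
      X.length < D.A' i + D.M' * D.M)
    {u r : List α}
    (hGo : ∀ t, t + Go + no ≤ (u ++ r).length → ∃ s, t ≤ s ∧ s < t + Go ∧ Ro ((u ++ r).drop s))
    (hr : Bm ≤ r.length) {v : V} {d : ℕ} {b : V}
    (hL : L1 D p0 nu2 u v) (hR : R1 D P Ro r = some (d, b)) :
    NN P Ro Bm ((u ++ r).take Bm) = u.length + d ∧
      zm D P Ro p0 Bm nu1 nu2 ((u ++ r).take Bm) v = b := by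
  classical
  obtain ⟨hpu, hLf⟩ := hL
  unfold R1 at hR
  split_ifs at hR with h
  obtain ⟨hleg, hex⟩ := h
  rw [Option.map_eq_some_iff] at hR
  obtain ⟨b', hb', hb2⟩ := hR
  simp only [Prod.mk.injEq] at hb2
  obtain ⟨hd, rfl⟩ := hb2
  rw [hd] at hb'
  obtain ⟨i, hi, hdvd, ha1, ha2⟩ := hG2 _ _ hLf
  have hlen : (u.drop p0).length = u.length - p0 := List.length_drop
  rw [hlen] at hdvd ha1 ha2
  have hwin : InWin P 0 (u.length : ℤ) := by
    refine ⟨by rw [hP0]; omega, ?_, ?_⟩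
    · have := hPN i hi
      rw [hP0]
      omega
    · rw [hPM, hP0, sub_zero]
      have : ((u.length : ℤ) - (p0 : ℤ)) = ((u.length - p0 : ℕ) : ℤ) := by omega
      rw [this]
      exact_mod_cast hdvd
  have hq : QuR P Ro r d := by rw [← hd]; exact Nat.find_spec hex
  have hmin : ∀ t < d, ¬ QuR P Ro r t := by
    rw [← hd]; exact fun t ht => Nat.find_min hex ht
  obtain ⟨j1, j2⟩ := junction hz hwin hleg hq hmin
  obtain ⟨b0, c1, c2, c3, c4⟩ := exists_next (P := P) (Bm := Bm) hRo hGo hz (by omega) hBm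
    (by rw [List.length_append]; omega)
  have hb0 : b0 = u.length + d := by
    rcases lt_trichotomy b0 (u.length + d) with h | h | h
    · exact absurd c1 (j2 _ h)
    · exact h
    · exact absurd j1 (c2 _ h)
  subst hb0
  have hNN : NN P Ro Bm ((u ++ r).take Bm) = u.length + d := NN_eq hRo c3 c1 c2
  refine ⟨hNN, ?_⟩
  have e1 : ((u ++ r).take Bm).take (u.length + d) = u ++ r.take d := by
    rw [List.take_take, min_eq_left (by omega), List.take_append]
    simp
  have e2 : ((u ++ r).take Bm).take p0 = u.take p0 := by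
    rw [List.take_take, min_eq_left (by omega), List.take_append_of_le_length hpu]
  have e3 : (u ++ r.take d).drop p0 = u.drop p0 ++ r.take d :=
    List.drop_append_of_le_length hpu
  unfold zm nu
  rw [hNN, e1, e2, e3]
  have h1 := hG1 _ _ _ _ hLf hb'
  rw [h1, hadd]
  have e4 : D.φ (u ++ r.take d) = D.φ (u.take p0) * D.φ (u.drop p0 ++ r.take d) := by
    rw [← hφ, ← List.append_assoc, List.take_append_drop]
  rw [e4, hmul, add_assoc]

theorem CP1 (hP0 : P.p0 = (p0 : ℤ)) (hPM : P.M = (D.M' : ℤ))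
    (hPN : ∀ i < D.m, ((D.A' i + D.M' * D.M : ℕ) : ℤ) ≤ P.N1)
    (hgeo : Geo D) {good : ℕ → Prop} {Cl : List α → Prop}
    (hCl : ∀ T T', T' <:+: T → Cl T → Cl T')
    {no Go : ℕ} (hRo : Rule Ro no)
    (hz : P.p0 + P.S ≤ P.z) (hBm : P.z + P.S + Go + no ≤ Bm)
    (hz2 : P.p0 + ((D.A D.m + D.M' * D.M + D.G + D.n : ℕ) : ℤ) ≤ P.z - P.S)
    (hGo : ∀ T, Cl T → ∀ t, t + Go + no ≤ T.length → ∃ s, t ≤ s ∧ s < t + Go ∧ Ro (T.drop s))
    (hGs : ∀ T, Cl T → ∀ t, t + D.G + D.n ≤ T.length →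
      ∃ s, t ≤ s ∧ s < t + D.G ∧ D.R (T.drop s))
    (hG2 : ∀ X v, D.Lf X = some v → ∃ i < D.m, D.M' ∣ X.length ∧ D.A' i ≤ X.length ∧
      X.length < D.A' i + D.M' * D.M)
    (hG3 : ∀ Y : List α, good (Y.length / D.M') →
        (∀ i < D.m, D.A' i + D.M' * D.M ≤ Y.length) →
        (∀ t, t ≤ D.A D.m + D.M' * D.M → ∃ s, t ≤ s ∧ s < t + D.G ∧ D.R (Y.drop s)) →
        (∀ k, k ≤ D.m → ∀ s, D.A k ≤ s + D.M' * D.M → s < D.A k + D.M' * D.M →
          ¬ D.R (Y.drop s)) →
        ∀ v, ∃ X Q, X ++ Q = Y ∧ D.Lf X = some v ∧ (D.Rf Q).isSome)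
    {D1 : ℕ} (hD1 : Bm ≤ D1) {t : List α} (hct : Cl t) (ht : Bm + D1 ≤ t.length)
    (hbad : ¬ Bad D P Ro p0 Bm good (t.take Bm)) (v : V) :
    ∃ x, p0 ≤ x ∧ x < Bm ∧ L1 D p0 nu2 (t.take x) v ∧
      (R1 D P Ro ((t.drop x).take D1)).isSome := by
  classical
  have hno : 0 < no := hRo.pos
  have hN := P.hN
  have hS : 0 ≤ P.S - P.N1 := le_trans (abs_nonneg _) (P.hs 0)
  obtain ⟨b, c1, c2, c3, c4⟩ := exists_next (P := P) (Bm := Bm) hRo (hGo t hct) hz (by omega) hBm
    (by omega)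
  have hNN : NN P Ro Bm (t.take Bm) = b := NN_eq hRo c3 c1 c2
  unfold Bad at hbad
  push Not at hbad
  obtain ⟨hE, hB, hDD⟩ := hbad
  rw [hNN] at hB
  have hpb : p0 ≤ b := by omega
  set Y := (t.take b).drop p0 with hY
  have hbt : b ≤ t.length := by omega
  have hYl : Y.length = b - p0 := by
    rw [hY, List.length_drop, List.length_take, min_eq_left hbt]
  have hYt : t.take p0 ++ Y = t.take b := by
    have : t.take p0 = (t.take b).take p0 := by rw [List.take_take, min_eq_left hpb]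
    rw [this, hY, List.take_append_drop]
  have hYi : Y <:+: t := (List.drop_suffix _ _).isInfix.trans (List.take_prefix _ _).isInfix
  have hYc : Cl Y := hCl _ _ hYi hct
  have hYd : ∀ s, D.R (Y.drop s) → D.R ((t.take Bm).drop (p0 + s)) := by
    intro s hs
    rw [hY, List.drop_drop] at hs
    obtain ⟨h1, h2⟩ := rule_take_imp hgeo.rule hs
    exact (rule_take hgeo.rule (by omega)).2 h2
  obtain ⟨X, Q, hXQ, hLf, hRf⟩ := hG3 Y (by rw [hYl]; exact hB)
    (by
      intro i hi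
      have := hgeo.next i D.m hi
      rw [hYl]
      omega)
    (by
      intro t' ht'
      exact hGs Y hYc t' (by rw [hYl]; omega))
    (by
      intro k hk s hs1 hs2 hs3
      exact hDD k hk s hs1 hs2 (hYd s hs3)) (D.act v (D.φ (t.take p0)) + nu2 (t.take p0))
  obtain ⟨i, hi, hdvd, ha1, ha2⟩ := hG2 _ _ hLf
  have hXl : X.length + Q.length = b - p0 := by rw [← hYl, ← hXQ, List.length_append]
  set x := p0 + X.length with hx
  have hxb : x + Q.length = b := by omega
  have htb : t.take b = t.take p0 ++ X ++ Q := by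
    rw [List.append_assoc, hXQ, hYt]
  have hp0l : (t.take p0).length = p0 := by rw [List.length_take]; omega
  have htx : t.take x = t.take p0 ++ X := by
    have e : t.take x = (t.take b).take x := by rw [List.take_take, min_eq_left (by omega)]
    rw [e, htb]
    have : x = (t.take p0 ++ X).length := by rw [List.length_append, hp0l]
    rw [this, List.take_left']
    rfl
  refine ⟨x, by omega, by omega, ⟨?_, ?_⟩, ?_⟩
  · rw [htx, List.length_append, hp0l]; omega
  · have e1 : (t.take x).drop p0 = X := by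
      rw [htx]
      exact List.drop_left' hp0l
    have e2 : (t.take x).take p0 = t.take p0 := by
      rw [List.take_take, min_eq_left (by omega)]
    rw [e1, e2]
    exact hLf
  · have hwin : InWin P 0 (x : ℤ) := by
      refine ⟨by rw [hP0]; omega, ?_, ?_⟩
      · have := hPN i hi
        rw [hP0]
        omega
      · rw [hPM, hP0, sub_zero]
        have : ((x : ℤ) - (p0 : ℤ)) = ((X.length : ℕ) : ℤ) := by omega
        rw [this]
        exact_mod_cast hdvd
    have hnE : ¬ E P (WlI Ro t) 0 := by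
      rintro ⟨t', ⟨s, hs, h1⟩, h2⟩
      rw [sub_zero, ← hs] at h2
      have h3 := s_le (P := P) (((s : ℤ) - P.z) % P.M)
      have h4 := abs_le.1 h2
      refine absurd h2 (not_le.2 (hE s ?_))
      exact (rule_take hRo (by omega)).2 h1
    have hleg := legal_of_not_E hnE hwin
    set r := (t.drop x).take D1 with hr
    have hxt : x ≤ t.length := by omega
    have hdecomp : t.take x ++ t.drop x = t := List.take_append_drop _ _
    have htxl : (t.take x).length = x := by rw [List.length_take]; omega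
    have hdr : ∀ s, t.drop (x + s) = (t.drop x).drop s := fun s => by rw [List.drop_drop]
    have hlegR : LegR P Ro r := by
      intro s hs h2
      obtain ⟨h3, h4⟩ := rule_take_imp hRo hs
      rw [← hdr] at h4
      have := hleg ((x + s : ℕ) : ℤ) ⟨x + s, rfl, h4⟩
      have e : (((x + s : ℕ) : ℤ) - (x : ℤ) + P.p0 - P.z) = (s : ℤ) + P.p0 - P.z := by
        push_cast; ring
      rw [e] at this
      exact this h2
    have hqr : ∀ s, s + no ≤ D1 → (QuR P Ro r s ↔ Qu P Ro t (x + s)) := by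
      intro s hs
      rw [← qual_iff', qual_iff hleg hwin]
      unfold QuR QualR WlI
      have e : (((x + s : ℕ) : ℤ) - (x : ℤ) + P.p0 - P.z) = (s : ℤ) + P.p0 - P.z := by
        push_cast; ring
      rw [e]
      constructor
      · rintro ⟨h1, h2⟩
        obtain ⟨h3, h4⟩ := rule_take_imp hRo h1
        rw [← hdr] at h4
        exact ⟨⟨x + s, rfl, h4⟩, h2⟩
      · rintro ⟨⟨s', hs', h1⟩, h2⟩
        have : s' = x + s := by exact_mod_cast hs'
        subst this
        rw [hdr] at h1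
        exact ⟨(rule_take hRo hs).2 h1, h2⟩
    have hq : QuR P Ro r Q.length := (hqr _ (by omega)).2 (by rw [hxb]; exact c1)
    have hex : ∃ t, QuR P Ro r t := ⟨_, hq⟩
    have hfind : Nat.find hex = Q.length := by
      rw [Nat.find_eq_iff]
      exact ⟨hq, fun s hs hqs => c2 (x + s) (by omega) ((hqr s (by omega)).1 hqs)⟩
    have hrt : r.take Q.length = Q := by
      rw [hr, List.take_take, min_eq_left (by omega)]
      have e : (t.drop x).take Q.length = (t.take b).drop x := by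
        rw [List.drop_take]
        congr 1
        omega
      rw [e, htb]
      exact List.drop_left' (by rw [List.length_append, hp0l])
    unfold R1
    rw [dif_pos ⟨hlegR, hex⟩, Option.isSome_map]
    rw [hfind, hrt]
    exact hRf

/-- bounds of the next anchor -/
theorem NN_bounds {no Go : ℕ} (hRo : Rule Ro no) (hp0 : 0 ≤ P.p0)
    (hz : P.p0 + P.S ≤ P.z) (hz0 : 0 < P.z - P.S) (hBm : P.z + P.S + Go + no ≤ Bm) {y : List α}
    (hy : y.length = Bm) :
    0 < NN P Ro Bm y ∧ NN P Ro Bm y ≤ Bm ∧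
      ((∀ t, t + Go + no ≤ y.length → ∃ s, t ≤ s ∧ s < t + Go ∧ Ro (y.drop s)) →
        ((Bm : ℤ) - NN P Ro Bm y ≤ Bm - P.z + P.S) ∧ NN P Ro Bm y + no ≤ Bm) := by
  classical
  have hN := P.hN
  have hS : 0 ≤ P.S - P.N1 := le_trans (abs_nonneg _) (P.hs 0)
  have hno := hRo.pos
  have hself : y.take Bm = y := by rw [← hy, List.take_length]
  refine ⟨?_, ?_, ?_⟩
  · unfold NN
    split_ifs with h
    · have h1 := (Nat.find_spec h).2
      have h2 := s_ge (P := P) ((((Nat.find h : ℕ) : ℤ) - P.z) % P.M)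
      omega
    · omega
  · unfold NN
    split_ifs with h
    · have := hRo.wall_fit (Nat.find_spec h).1
      omega
    · exact le_rfl
  · intro hG
    obtain ⟨b, c1, c2, c3, c4⟩ := exists_next (P := P) (Bm := Bm) hRo hG hz hp0 hBm
      (by omega)
    have hNN := NN_eq hRo c3 c1 c2
    rw [hself] at hNN
    rw [hNN]
    exact ⟨by omega, c3⟩

end scheme

end Crest.Agent.R320.Core1_449
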