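import Crest.Agent.R320.Wall_291

set_option autoImplicit false

/-!
# Row 320, CORE-1 (helper727)

Left-looking walls and the block code with residue thresholds (132 #12664 (2), 420 #13076,
467 #12877): `XX` is a prefix code, every run-free text is parsed into blocks of `XX` and a bounded
rest, the junction lemma, and the completeness of the right-legality off the band (E).
-/

namespace Crest.Agent.R320.Core1_727

open Crest.Agent.R320.Wall_291

variable {α : Type*}

theorem reverse_pow (e : ℕ) (x : List α) :
    ((List.replicate e x).flatten).reverse = (List.replicate e x.reverse).flatten := by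
  induction e with
  | zero => simp
  | succ e ih =>
    rw [List.replicate_succ, List.flatten_cons, List.reverse_append, ih, List.replicate_succ',
      List.flatten_append]
    simp

theorem RF_reverse {e p : ℕ} {Q : List α} (h : RF e p Q) : RF e p Q.reverse := by
  intro x hx hl hi
  refine h x.reverse (by simpa using hx) (by simpa using hl) ?_
  rw [← reverse_pow, ← List.reverse_infix, List.reverse_reverse]
  exact hi

/-- left-looking walls -/
theorem exists_left_walls (α : Type*) [Finite α] (e W : ℕ) :
    ∃ (n G : ℕ) (R : List α → Prop),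
      (∀ P Q, n ≤ Q.length → (R (P ++ Q) ↔ R Q)) ∧
      (∀ Q, R Q → n ≤ Q.length) ∧
      (∀ Q d, R Q → 0 < d → d ≤ W → ¬ R (Q.take (Q.length - d))) ∧
      (∀ Q, RF e W Q → ∀ a, n ≤ a → a + G ≤ Q.length → ∃ t, a < t ∧ t ≤ a + G ∧ R (Q.take t)) := by
  obtain ⟨n, G, R, h1, h2, h3, h4⟩ := Wall_291.exists_walls α e W
  refine ⟨n, G, fun Q => R Q.reverse, ?_, ?_, ?_, ?_⟩
  · intro P Q hQ
    show R (P ++ Q).reverse ↔ R Q.reverse
    rw [h1 (P ++ Q).reverse, h1 Q.reverse, List.reverse_append, List.take_append_of_le_length]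
    simpa using hQ
  · intro Q hQ
    simpa using h2 _ hQ
  · intro Q d hQ hd hW
    have := h3 _ d hQ hd hW
    show ¬ R (Q.take (Q.length - d)).reverse
    rw [List.reverse_take]
    have hl := h2 _ hQ
    rw [List.length_reverse] at hl
    by_cases hdl : d ≤ Q.length
    · rwa [show Q.length - (Q.length - d) = d by omega]
    · rw [show Q.length - (Q.length - d) = Q.length by omega]
      rw [show Q.reverse.drop d = [] from List.drop_eq_nil_of_le (by simp; omega)] at this
      rwa [show Q.reverse.drop Q.length = [] from List.drop_eq_nil_of_le (by simp)]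
  · intro Q hQ a ha hG
    have hl : ((Q.take (a + G)).reverse).length = a + G := by simp; omega
    obtain ⟨i, hi, hR⟩ := h4 (Q.take (a + G)).reverse (RF_reverse (hQ.take _)) (by omega)
    refine ⟨a + G - i, by omega, by omega, ?_⟩
    have e1 : (Q.take (a + G - i)).reverse = (Q.take (a + G)).reverse.drop i := by
      have : Q.take (a + G - i) = (Q.take (a + G)).take (a + G - i) := by
        rw [List.take_take]
        congr 1
        omega
      rw [this, List.reverse_take]
      congr 1
      rw [List.length_take]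
      omega
    show R (Q.take (a + G - i)).reverse
    rw [e1]
    exact hR

/-- The block code: `Wo` = wall rule (left-looking), `thr` = residue thresholds modulo `M`,
`B` = bound for the lengths. -/
def XX (Wo : List α → Prop) (thr : ℕ → ℕ) (M B : ℕ) : Set (List α) :=
  {X | Wo X ∧ thr (X.length % M) ≤ X.length ∧ X.length ≤ B ∧
    ∀ t, t < X.length → Wo (X.take t) → t < thr (t % M)}

theorem prefix_code {Wo : List α → Prop} {thr : ℕ → ℕ} {M B : ℕ} {X Y : List α}
    (hX : X ∈ XX Wo thr M B) (hY : Y ∈ XX Wo thr M B) (h : X <+: Y) : X = Y := by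
  by_contra hne
  have hl : X.length < Y.length := by
    rcases h.length_le.lt_or_eq with h1 | h1
    · exact h1
    · exact absurd (h.eq_of_length h1) hne
  have hX' : X = Y.take X.length := List.prefix_iff_eq_take.1 h
  have := hY.2.2.2 X.length hl (by rw [← hX']; exact hX.1)
  have := hX.2.1
  omega

theorem nil_notMem {Wo : List α → Prop} {thr : ℕ → ℕ} {M B : ℕ} (h : 0 < thr (0 % M)) :
    ([] : List α) ∉ XX Wo thr M B := by
  intro hX
  have := hX.2.1
  simp only [List.length_nil] at this
  omega

/-- the first block of a long run-free text -/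
theorem exists_block {Wo : List α → Prop} {thr : ℕ → ℕ} {M B n G S e W : ℕ}
    (hG : ∀ Q, RF e W Q → ∀ a, n ≤ a → a + G ≤ Q.length → ∃ t, a < t ∧ t ≤ a + G ∧ Wo (Q.take t))
    (hS : ∀ r, thr r ≤ S) (hn : n ≤ S) (hB : S + G ≤ B) (w : List α) (hw : RF e W w)
    (hl : S + G ≤ w.length) :
    ∃ X E, w = X ++ E ∧ X ∈ XX Wo thr M B ∧ X.length ≤ S + G := by
  classical
  obtain ⟨t, h1, h2, h3⟩ := hG w hw S hn hl
  have hex : ∃ t, Wo (w.take t) ∧ thr (t % M) ≤ t ∧ t ≤ S + G :=
    ⟨t, h3, (hS _).trans h1.le, h2⟩
  have hf := Nat.find_spec hex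
  set t0 := Nat.find hex with ht0
  have hlen : (w.take t0).length = t0 := by
    rw [List.length_take]; omega
  refine ⟨w.take t0, w.drop t0, (List.take_append_drop _ _).symm, ⟨hf.1, ?_, ?_, ?_⟩, ?_⟩
  · rw [hlen]; exact hf.2.1
  · rw [hlen]; omega
  · intro t ht hW
    rw [hlen] at ht
    by_contra hc
    refine Nat.find_min hex ht ⟨?_, by omega, by omega⟩
    rwa [List.take_take, min_eq_left ht.le] at hW
  · rw [hlen]; exact hf.2.2

/-- **parse** -/
theorem parse {Wo : List α → Prop} {thr : ℕ → ℕ} {M B n G S e W : ℕ}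
    (hG : ∀ Q, RF e W Q → ∀ a, n ≤ a → a + G ≤ Q.length → ∃ t, a < t ∧ t ≤ a + G ∧ Wo (Q.take t))
    (hS : ∀ r, thr r ≤ S) (hn : n ≤ S) (hB : S + G ≤ B) (h0 : 0 < thr (0 % M)) (w : List α)
    (hw : RF e W w) :
    ∃ l : List (List α), (∀ X ∈ l, X ∈ XX Wo thr M B ∧ X.length ≤ S + G) ∧
      ∃ E, w = l.flatten ++ E ∧ E.length ≤ B := by
  induction hk : w.length using Nat.strong_induction_on generalizing w with
  | _ k ih =>
    by_cases hl : S + G ≤ w.length
    · obtain ⟨X, E, rfl, hX, hXl⟩ := exists_block (M := M) hG hS hn hB w hw hl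
      have hXpos : 0 < X.length := by
        rcases X with _ | ⟨a, X⟩
        · exact absurd hX (nil_notMem h0)
        · simp
      obtain ⟨l, h1, E', rfl, h3⟩ := ih E.length
        (by rw [← hk, List.length_append]; omega) E (hw.infix (List.suffix_append X E).isInfix) rfl
      refine ⟨X :: l, ?_, E', by simp, h3⟩
      intro Y hY
      rcases List.mem_cons.1 hY with rfl | hY
      · exact ⟨hX, hXl⟩
      · exact h1 Y hY
    · exact ⟨[], by simp, w, by simp, by omega⟩

/-- right-legality with respect to the walls; `c` = residue of the cut place -/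
def RL (Wo : List α → Prop) (thr : ℕ → ℕ) (M B n p N c : ℕ) (Q : List α) : Prop :=
  Wo Q ∧ n ≤ Q.length ∧ thr ((c + Q.length) % M) ≤ p + Q.length ∧ p + N + Q.length ≤ B ∧
    ∀ t, t < Q.length → n ≤ t → Wo (Q.take t) → p + N + t < thr ((c + t) % M)

/-- **junction lemma**: a right-legal word behind ANY left word with a length in the window
`[p, p + N]` and of residue `c` is the end of a block. -/
theorem junction {Wo : List α → Prop} {thr : ℕ → ℕ} {M B n p N c : ℕ}
    (win : ∀ P Q, n ≤ Q.length → (Wo (P ++ Q) ↔ Wo Q)) (low : ∀ r, p + N + n ≤ thr r)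
    {P Q : List α} (h1 : p ≤ P.length) (h2 : P.length ≤ p + N) (hc : P.length % M = c % M)
    (hQ : RL Wo thr M B n p N c Q) : P ++ Q ∈ XX Wo thr M B := by
  obtain ⟨q1, q2, q3, q4, q5⟩ := hQ
  have hmod : ∀ t, (P.length + t) % M = (c + t) % M := fun t => by
    rw [Nat.add_mod, hc, ← Nat.add_mod]
  refine ⟨(win P Q q2).2 q1, ?_, ?_, ?_⟩
  · rw [List.length_append, hmod]; omega
  · rw [List.length_append]; omega
  · intro t ht hW
    rw [List.length_append] at ht
    by_cases htn : t < P.length + n
    · have := low (t % M)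
      omega
    · obtain ⟨t', rfl⟩ : ∃ t', t = P.length + t' := ⟨t - P.length, by omega⟩
      rw [List.take_length_add_append] at hW
      have hlen : (Q.take t').length = t' := by rw [List.length_take]; omega
      have := q5 t' (by omega) (by omega) ((win P _ (by omega)).1 hW)
      rw [hmod]
      omega

/-- the band (E): some wall of the block is within `N` of its threshold -/
def EE (Wo : List α → Prop) (thr : ℕ → ℕ) (M N : ℕ) (X : List α) : Prop :=
  ∃ t, t ≤ X.length ∧ Wo (X.take t) ∧ t ≤ thr (t % M) + N ∧ thr (t % M) ≤ t + N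

/-- **completeness** of the right-legality off the band (E) -/
theorem complete {Wo : List α → Prop} {thr : ℕ → ℕ} {M B n p N : ℕ}
    (win : ∀ P Q, n ≤ Q.length → (Wo (P ++ Q) ↔ Wo Q)) {P Q : List α}
    (hX : P ++ Q ∈ XX Wo thr M B) (hB : (P ++ Q).length + N ≤ B)
    (hE : ¬ EE Wo thr M N (P ++ Q)) (h1 : p ≤ P.length) (h2 : P.length ≤ p + N)
    (hQ : n ≤ Q.length) : RL Wo thr M B n p N (P.length % M) Q := by
  obtain ⟨x1, x2, x3, x4⟩ := hX
  have hmod : ∀ t, (P.length % M + t) % M = (P.length + t) % M := fun t => by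
    rw [Nat.add_mod, Nat.mod_mod, ← Nat.add_mod]
  rw [List.length_append] at x2 x3 x4 hB
  refine ⟨(win P Q hQ).1 x1, hQ, ?_, by omega, ?_⟩
  · rw [hmod]
    by_contra hc
    refine hE ⟨(P ++ Q).length, le_rfl, by rwa [List.take_length], ?_, ?_⟩
    · rw [List.length_append]; omega
    · rw [List.length_append]; omega
  · intro t ht hnt hW
    rw [hmod]
    have hlen : (Q.take t).length = t := by rw [List.length_take]; omega
    have hW' : Wo ((P ++ Q).take (P.length + t)) := by
      rw [List.take_length_add_append]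
      exact (win P _ (by omega)).2 hW
    have h4 := x4 (P.length + t) (by omega) hW'
    by_contra hc
    exact hE ⟨P.length + t, by rw [List.length_append]; omega, hW', by omega, by omega⟩

end Crest.Agent.R320.Core1_727
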