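import Mathlib
import Crest.Agent.R320.Wall_291

/-!
Row 320, box CORE-1 (post #13073): left-looking walls, threshold chain, prefix code of blocks,
junction lemma on words.
-/

set_option autoImplicit false

namespace Crest.Agent.R320.Core1_775

open Crest.Agent.R320.Wall_291

variable {α : Type*}

/-- left-looking rule with window `n`: there is a wall at place `t` of `X` iff `Rl (X.take t)` -/
structure IsL (n : ℕ) (Rl : List α → Prop) : Prop where
  loc : ∀ Y, Rl Y ↔ Rl (Y.drop (Y.length - n))
  len : ∀ Y, Rl Y → n ≤ Y.length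

theorem IsL.append {n : ℕ} {Rl : List α → Prop} (h : IsL n Rl) (X : List α) {Y : List α}
    (hY : n ≤ Y.length) : Rl (X ++ Y) ↔ Rl Y := by
  rw [h.loc (X ++ Y), h.loc Y]
  have : (X ++ Y).length - n = X.length + (Y.length - n) := by
    rw [List.length_append]; omega
  rw [this, List.drop_append]
  have h1 : X.drop (X.length + (Y.length - n)) = [] := List.drop_eq_nil_of_le (by omega)
  rw [h1]
  have h2 : X.length + (Y.length - n) - X.length = Y.length - n := by omega
  rw [h2]; simp

theorem RF.reverse {e p : ℕ} {w : List α} (h : RF e p w) : RF e p w.reverse := by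
  intro x hx hl hi
  apply h x.reverse (by simpa using hx) (by simpa using hl)
  have h1 := List.reverse_infix.2 hi
  rw [List.reverse_reverse] at h1
  convert h1 using 1
  rw [List.reverse_flatten]
  simp

/-- left-looking walls -/
theorem exists_left_walls (α : Type*) [Finite α] (e W : ℕ) :
    ∃ (n G : ℕ) (Rl : List α → Prop), IsL n Rl ∧
      (∀ X : List α, ∀ t t', t < t' → t' ≤ X.length → Rl (X.take t) → Rl (X.take t') → t + W < t') ∧
      (∀ w, RF e W w → G + n ≤ w.length → ∃ t, t ≤ w.length ∧ w.length < t + G ∧ Rl (w.take t)) := by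
  obtain ⟨n, G, R, h1, h2, h3, h4⟩ := exists_walls α e W
  refine ⟨n, G, fun Y => R Y.reverse, ⟨fun Y => ?_, fun Y hY => ?_⟩, ?_, ?_⟩
  · show R Y.reverse ↔ R (Y.drop (Y.length - n)).reverse
    rw [h1 Y.reverse, List.take_reverse]
  · have := h2 _ hY
    simpa using this
  · intro X t t' htt ht' hw hw'
    by_contra hcon
    have hd : 0 < t' - t := by omega
    have hdW : t' - t ≤ W := by omega
    apply h3 _ (t' - t) hw' hd hdW
    have : (X.take t').reverse.drop (t' - t) = (X.take t).reverse := by
      rw [List.drop_reverse, List.length_take, List.take_take]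
      congr 2
      omega
    rw [this]
    exact hw
  · intro w hw hlen
    obtain ⟨i, hi, hR⟩ := h4 w.reverse (RF.reverse hw) (by simpa using hlen)
    refine ⟨w.length - i, by omega, by omega, ?_⟩
    show R (w.take (w.length - i)).reverse
    rw [List.drop_reverse] at hR
    exact hR

section chain

variable (Rl : List α → Prop) (th : ℤ → ℤ) (M z : ℕ)

/-- the place `t` of `X` is a wall which qualifies as end of the block that starts at `0` -/
def Qual (X : List α) (t : ℕ) : Prop :=
  t ≤ X.length ∧ Rl (X.take t) ∧ th (((t : ℤ) - z) % M) ≤ (t : ℤ) - z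

/-- the blocks -/
def XX : Set (List α) :=
  {X | Qual Rl th M z X X.length ∧ ∀ t < X.length, ¬ Qual Rl th M z X t}

variable {Rl th M z}

theorem Qual.append {X : List α} {t : ℕ} (h : Qual Rl th M z X t) (Y : List α) :
    Qual Rl th M z (X ++ Y) t := by
  obtain ⟨h1, h2, h3⟩ := h
  refine ⟨by rw [List.length_append]; omega, ?_, h3⟩
  rw [List.take_append_of_le_length h1]
  exact h2

theorem Qual.of_append {X Y : List α} {t : ℕ} (h : Qual Rl th M z (X ++ Y) t)
    (ht : t ≤ X.length) : Qual Rl th M z X t := by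
  obtain ⟨h1, h2, h3⟩ := h
  refine ⟨ht, ?_, h3⟩
  rw [List.take_append_of_le_length ht] at h2
  exact h2

/-- (1) prefix code -/
theorem prefix_code {X Y : List α} (hX : X ∈ XX Rl th M z) (hXY : X ++ Y ∈ XX Rl th M z) :
    Y = [] := by
  by_contra hY
  have hlt : X.length < (X ++ Y).length := by
    rw [List.length_append]
    have := List.length_pos_iff.2 hY
    omega
  exact hXY.2 _ hlt (hX.1.append Y)

theorem XX_len {S : ℕ} (hlo : ∀ r, -(S : ℤ) ≤ th r) {X : List α} (hX : X ∈ XX Rl th M z) :
    z ≤ X.length + S := by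
  have := hX.1.2.2
  have := hlo (((X.length : ℤ) - z) % M)
  omega

/-- the two parses: any text with a qualifying wall starts with a block -/
theorem exists_block_of_qual {w : List α} {t : ℕ} (h : Qual Rl th M z w t) :
    ∃ X Y, w = X ++ Y ∧ X ∈ XX Rl th M z ∧ X.length ≤ t := by
  classical
  have hex : ∃ t, Qual Rl th M z w t := ⟨t, h⟩
  have hf := Nat.find_spec hex
  have hle : Nat.find hex ≤ t := Nat.find_min' hex h
  have hlen : (w.take (Nat.find hex)).length = Nat.find hex := by
    rw [List.length_take]; have := hf.1; omega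
  refine ⟨w.take (Nat.find hex), w.drop (Nat.find hex), (List.take_append_drop _ w).symm,
    ⟨?_, ?_⟩, by omega⟩
  · rw [hlen]
    refine ⟨by omega, ?_, hf.2.2⟩
    rw [List.take_take, min_self]
    exact hf.2.1
  · intro s hs hq
    rw [hlen] at hs
    apply Nat.find_min hex hs
    have := hq.append (w.drop (Nat.find hex))
    rwa [List.take_append_drop] at this

/-- (2) existence of blocks on run-free texts -/
theorem exists_block {e W n G S : ℕ}
    (hex : ∀ w, RF e W w → G + n ≤ w.length → ∃ t, t ≤ w.length ∧ w.length < t + G ∧ Rl (w.take t))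
    (hhi : ∀ r, th r ≤ (S : ℤ)) {w : List α} (hw : RF e W w)
    (hlen : z + S + G + n ≤ w.length) :
    ∃ X Y, w = X ++ Y ∧ X ∈ XX Rl th M z ∧ X.length ≤ z + S + G + n := by
  have hl : (w.take (z + S + G + n)).length = z + S + G + n := by
    rw [List.length_take]; omega
  obtain ⟨t, ht1, ht2, ht3⟩ := hex (w.take (z + S + G + n)) (hw.take _) (by omega)
  rw [hl] at ht1 ht2
  have hq : Qual Rl th M z w t := by
    refine ⟨by omega, ?_, ?_⟩
    · rw [List.take_take, min_eq_left ht1] at ht3
      exact ht3
    · have := hhi (((t : ℤ) - z) % M)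
      omega
  obtain ⟨X, Y, h1, h2, h3⟩ := exists_block_of_qual hq
  exact ⟨X, Y, h1, h2, by omega⟩

variable (Rl th M z)

/-- (3) the right reading: `Q` is the text from the cut place to the next anchor -/
def RLeg (p0 N1 : ℕ) (Q : List α) : Prop :=
  Rl Q ∧ th (((Q.length : ℤ) + p0 - z) % M) ≤ (Q.length : ℤ) + p0 - z ∧
    ∀ t < Q.length, Rl (Q.take t) → (t : ℤ) + p0 - z + N1 < th (((t : ℤ) + p0 - z) % M)

/-- the outer wall band (E) -/
def Ebad (N1 : ℕ) (X : List α) : Prop :=
  ∃ t ≤ X.length, Rl (X.take t) ∧ |(t : ℤ) - z - th (((t : ℤ) - z) % M)| ≤ N1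

variable {Rl th M z}

theorem emod_shift (x : ℤ) (om : ℕ) : (x + ((M * om : ℕ) : ℤ)) % M = x % M := by
  push_cast
  rw [Int.add_mul_emod_self_left]

/-- **junction lemma** -/
theorem junction {n S p0 N1 om : ℕ} (hL : IsL n Rl) (hlo : ∀ r, -(S : ℤ) ≤ th r)
    (hz : p0 + N1 + S + n < z) (hom : M * om ≤ N1) {P Q : List α}
    (hP : P.length = p0 + M * om) (hQ : RLeg Rl th M z p0 N1 Q) :
    P ++ Q ∈ XX Rl th M z := by
  obtain ⟨h1, h2, h3⟩ := hQ
  have hn : n ≤ Q.length := hL.len Q h1
  refine ⟨⟨le_rfl, ?_, ?_⟩, ?_⟩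
  · rw [List.take_length]
    exact (hL.append P hn).2 h1
  · have e1 : (((P ++ Q).length : ℕ) : ℤ) - z = ((Q.length : ℤ) + p0 - z) + ((M * om : ℕ) : ℤ) := by
      rw [List.length_append, hP]; push_cast; ring
    rw [e1, emod_shift]
    have : (0 : ℤ) ≤ ((M * om : ℕ) : ℤ) := Int.natCast_nonneg _
    linarith
  · intro t ht hq
    obtain ⟨ht1, ht2, ht3⟩ := hq
    have hlo' := hlo (((t : ℤ) - z) % M)
    have hge : P.length + n ≤ t := by omega
    obtain ⟨t', rfl⟩ : ∃ t', t = P.length + t' := ⟨t - P.length, by omega⟩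
    rw [List.take_append] at ht2
    have hh : P.take (P.length + t') = P := List.take_of_length_le (by omega)
    rw [hh, Nat.add_sub_cancel_left] at ht2
    rw [List.length_append] at ht
    have ht'Q : t' < Q.length := by omega
    have hlen : (Q.take t').length = t' := by rw [List.length_take]; omega
    have hw : Rl (Q.take t') := (hL.append P (by omega)).1 ht2
    have h4 := h3 t' ht'Q hw
    have e1 : (((P.length + t' : ℕ) : ℕ) : ℤ) - z = ((t' : ℤ) + p0 - z) + ((M * om : ℕ) : ℤ) := by
      rw [hP]; push_cast; ring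
    rw [e1, emod_shift] at ht3
    have hom' : ((M * om : ℕ) : ℤ) ≤ N1 := by exact_mod_cast hom
    linarith

/-- (4) off the band every place of the window is right-legal -/
theorem rleg_of_not_Ebad {n S p0 N1 om : ℕ} (hL : IsL n Rl) (hlo : ∀ r, -(S : ℤ) ≤ th r)
    (hz : p0 + N1 + S + n < z) (hom : M * om ≤ N1) {X : List α} (hX : X ∈ XX Rl th M z)
    (hE : ¬ Ebad Rl th M z N1 X) : RLeg Rl th M z p0 N1 (X.drop (p0 + M * om)) := by
  have hXl := XX_len hlo hX
  have hxlt : p0 + M * om + n < X.length := by omega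
  set x := p0 + M * om with hx
  have hQl : (X.drop x).length = X.length - x := List.length_drop
  have hXe : X.take x ++ X.drop x = X := List.take_append_drop x X
  have hom' : ((M * om : ℕ) : ℤ) ≤ N1 := by exact_mod_cast hom
  have hom0 : (0 : ℤ) ≤ ((M * om : ℕ) : ℤ) := Int.natCast_nonneg _
  have hE' : ∀ t ≤ X.length, Rl (X.take t) →
      (N1 : ℤ) < |(t : ℤ) - z - th (((t : ℤ) - z) % M)| := by
    intro t ht hw
    by_contra hcon
    exact hE ⟨t, ht, hw, not_lt.1 hcon⟩
  have hXw : Rl X := by
    have := hX.1.2.1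
    rwa [List.take_length] at this
  refine ⟨?_, ?_, ?_⟩
  · have := (hL.append (X.take x) (Y := X.drop x) (by omega)).1 (by rw [hXe]; exact hXw)
    exact this
  · have h1 := hX.1.2.2
    have h2 := hE' X.length le_rfl (by rw [List.take_length]; exact hXw)
    have e1 : ((X.drop x).length : ℤ) + p0 - z + ((M * om : ℕ) : ℤ) = (X.length : ℤ) - z := by
      rw [hQl, Nat.cast_sub (by omega), hx]; push_cast; ring
    have e2 : th ((((X.drop x).length : ℤ) + p0 - z) % M) = th (((X.length : ℤ) - z) % M) := by
      rw [← e1, emod_shift]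
    rw [e2]
    rw [abs_of_nonneg (by linarith)] at h2
    linarith
  · intro t ht hw
    have hnt : n ≤ t := by
      have := hL.len _ hw
      rw [List.length_take] at this
      omega
    have htl : ((X.drop x).take t).length = t := by rw [List.length_take]; omega
    have hw' : Rl (X.take (x + t)) := by
      rw [List.take_add]
      exact (hL.append (X.take x) (by omega)).2 hw
    have hnq := hX.2 (x + t) (by omega)
    have hlt : ((x + t : ℕ) : ℤ) - z < th ((((x + t : ℕ) : ℤ) - z) % M) := by
      by_contra hcon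
      exact hnq ⟨by omega, hw', not_lt.1 hcon⟩
    have h2 := hE' (x + t) (by omega) hw'
    have e1 : (t : ℤ) + p0 - z + ((M * om : ℕ) : ℤ) = ((x + t : ℕ) : ℤ) - z := by
      rw [hx]; push_cast; ring
    have e2 : th (((t : ℤ) + p0 - z) % M) = th ((((x + t : ℕ) : ℤ) - z) % M) := by
      rw [← e1, emod_shift]
    rw [e2]
    rw [abs_of_neg (by linarith)] at h2
    linarith

end chain

end Crest.Agent.R320.Core1_775
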