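import Crest.Agent.R320.Wall_291

/-!
# Row 320, CORE-1: left looking walls, threshold chain, block code (helper928)

Claim #13118.  `Wo` = left looking outer wall rule (window `n`), `M'` = comb modulus, `Z` = threshold
of every residue, `p0` = first cut place, `K` = number of comb steps of the window.
-/

set_option autoImplicit false

namespace Crest.Agent.R320.Core1_928

open Crest.Agent.R320.Wall_291

variable {α : Type*}

/-- the end of `X` is an admissible next anchor, seen from the anchor at the beginning of `X` -/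
def Adm (Wo : List α → Prop) (M' : ℕ) (Z : ℕ → ℕ) (X : List α) : Prop :=
  Wo X ∧ Z (X.length % M') ≤ X.length

/-- the block code -/
def XX (Wo : List α → Prop) (M' : ℕ) (Z : ℕ → ℕ) : Set (List α) :=
  {X | Adm Wo M' Z X ∧ ∀ Y, Y <+: X → Y ≠ X → ¬ Adm Wo M' Z Y}

/-- right legal words (walls only) -/
def QR (Wo : List α → Prop) (n M' : ℕ) (Z : ℕ → ℕ) (p0 K : ℕ) (Q : List α) : Prop :=
  Wo Q ∧ Z ((Q.length + p0) % M') ≤ Q.length + p0 ∧
    ∀ Y, Y <+: Q → Y ≠ Q → n ≤ Y.length → Wo Y →
      Y.length + p0 + M' * K < Z ((Y.length + p0) % M')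

/-- the block is not (E)-bad -/
def NotE (Wo : List α → Prop) (n M' : ℕ) (Z : ℕ → ℕ) (p0 K : ℕ) (X : List α) : Prop :=
  Z (X.length % M') + M' * K ≤ X.length ∧
    ∀ Y, Y <+: X → Y ≠ X → p0 + n ≤ Y.length → Wo Y → Y.length + M' * K < Z (Y.length % M')

/-- a left looking rule with window `n` -/
structure LRule (Wo : List α → Prop) (n : ℕ) : Prop where
  len : ∀ X, Wo X → n ≤ X.length
  app : ∀ P Q, n ≤ Q.length → (Wo (P ++ Q) ↔ Wo Q)

variable {Wo : List α → Prop} {n M' : ℕ} {Z : ℕ → ℕ} {p0 K : ℕ}

/-- `XX` is a prefix code -/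
theorem XX_code {X Y : List α} (hX : X ∈ XX Wo M' Z) (hY : Y ∈ XX Wo M' Z) (h : Y <+: X) :
    Y = X := by
  by_contra hne
  exact hX.2 Y h hne hY.1

theorem XX_ne_nil {X : List α} (hX : X ∈ XX Wo M' Z) (hZ : ∀ r, 0 < Z r) : X ≠ [] := by
  rintro rfl
  have := hX.1.2
  have h2 := hZ (([] : List α).length % M')
  simp at this h2
  omega

theorem prefix_append_cases {Y P Q : List α} (h : Y <+: P ++ Q) :
    Y <+: P ∨ ∃ Y', Y = P ++ Y' ∧ Y' <+: Q := by
  rcases Nat.le_total Y.length P.length with hl | hl
  · exact Or.inl (List.prefix_of_prefix_length_le h (List.prefix_append P Q) hl)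
  · obtain ⟨Y', rfl⟩ := List.prefix_of_prefix_length_le (List.prefix_append P Q) h hl
    exact Or.inr ⟨Y', rfl, (List.prefix_append_right_inj P).1 h⟩

/-- **junction lemma** (818 / 132 (2)) -/
theorem junction (hR : LRule Wo n) {om : ℕ} (hom : om ≤ K)
    (hZ : ∀ r, p0 + M' * K + n < Z r) {P Q : List α} (hP : P.length = p0 + M' * om)
    (hQ : QR Wo n M' Z p0 K Q) : P ++ Q ∈ XX Wo M' Z := by
  obtain ⟨hW, hZQ, hY⟩ := hQ
  have hMo : M' * om ≤ M' * K := Nat.mul_le_mul_left _ hom
  have hmod : ∀ l : ℕ, (p0 + M' * om + l) % M' = (l + p0) % M' := by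
    intro l
    rw [show p0 + M' * om + l = (l + p0) + M' * om by ring, Nat.add_mul_mod_self_left]
  have hnQ : n ≤ Q.length := hR.len Q hW
  refine ⟨⟨(hR.app P Q hnQ).2 hW, ?_⟩, ?_⟩
  · rw [List.length_append, hP, hmod]
    omega
  · rintro Y hYp hne ⟨hYW, hYZ⟩
    rcases prefix_append_cases hYp with h1 | ⟨Y', rfl, h2⟩
    · have := h1.length_le
      have h3 := hZ (Y.length % M')
      omega
    · have hne' : Y' ≠ Q := by rintro rfl; exact hne rfl
      rw [List.length_append, hP, hmod] at hYZ
      rcases Nat.lt_or_ge Y'.length n with h3 | h3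
      · have h4 := hZ ((Y'.length + p0) % M')
        omega
      · have h4 := hY Y' h2 hne' h3 ((hR.app P Y' h3).1 hYW)
        omega

/-- every comb place of a block which is not (E)-bad is right legal for the walls -/
theorem legal_of_notE (hR : LRule Wo n) {om : ℕ} (hom : om ≤ K)
    (hZ : ∀ r, p0 + M' * K + n < Z r) {X : List α} (hX : X ∈ XX Wo M' Z)
    (hE : NotE Wo n M' Z p0 K X) :
    p0 + M' * om + n ≤ X.length ∧ (X.take (p0 + M' * om)).length = p0 + M' * om ∧
      QR Wo n M' Z p0 K (X.drop (p0 + M' * om)) := by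
  obtain ⟨h1, h2⟩ := hE
  have hMo : M' * om ≤ M' * K := Nat.mul_le_mul_left _ hom
  have h3 := hZ (X.length % M')
  have hlen : p0 + M' * om + n ≤ X.length := by omega
  set P := X.take (p0 + M' * om) with hP
  set Q := X.drop (p0 + M' * om) with hQ
  have hPQ : P ++ Q = X := List.take_append_drop _ _
  have hPl : P.length = p0 + M' * om := by rw [hP, List.length_take]; omega
  have hQl : Q.length = X.length - (p0 + M' * om) := by rw [hQ, List.length_drop]
  have hmod : ∀ l : ℕ, (p0 + M' * om + l) % M' = (l + p0) % M' := by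
    intro l
    rw [show p0 + M' * om + l = (l + p0) + M' * om by ring, Nat.add_mul_mod_self_left]
  have hXl : X.length = p0 + M' * om + Q.length := by omega
  refine ⟨hlen, hPl, ?_, ?_, ?_⟩
  · have := hX.1.1
    rw [← hPQ] at this
    exact (hR.app P Q (by omega)).1 this
  · rw [hXl, hmod] at h1
    omega
  · intro Y hY hne hn hW
    have h4 : P ++ Y <+: X := by
      rw [← hPQ]
      exact (List.prefix_append_right_inj P).2 hY
    have h5 : P ++ Y ≠ X := by
      intro h
      rw [← hPQ] at h
      exact hne (List.append_cancel_left h)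
    have h6 := h2 (P ++ Y) h4 h5 (by rw [List.length_append]; omega) ((hR.app P Y hn).2 hW)
    rw [List.length_append, hPl, hmod] at h6
    omega

/-- the block is recovered -/
theorem split_eq {X : List α} (om : ℕ) :
    X.take (p0 + M' * om) ++ X.drop (p0 + M' * om) = X := List.take_append_drop _ _

/-- **existence and bound**: a long word with a wall behind `Zmax` starts with a block -/
theorem exists_block {w : List α} {i Zmax : ℕ} (hZ : ∀ r, Z r ≤ Zmax) (hi : Zmax ≤ i)
    (hiw : i ≤ w.length) (hW : Wo (w.take i)) :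
    ∃ X ∈ XX Wo M' Z, X <+: w ∧ X.length ≤ i := by
  classical
  have hex : ∃ j, j ≤ w.length ∧ Adm Wo M' Z (w.take j) := by
    refine ⟨i, hiw, hW, ?_⟩
    rw [List.length_take, min_eq_left hiw]
    exact (hZ _).trans hi
  obtain ⟨hj1, hj2⟩ := Nat.find_spec hex
  refine ⟨w.take (Nat.find hex), ⟨hj2, ?_⟩, List.take_prefix _ _, ?_⟩
  · intro Y hY hne hA
    have hYw : Y <+: w := hY.trans (List.take_prefix _ _)
    have hYt : Y = w.take Y.length := List.prefix_iff_eq_take.1 hYw
    have hl := hY.length_le
    rw [List.length_take, min_eq_left hj1] at hl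
    have hlt : Y.length < Nat.find hex := by
      refine lt_of_le_of_ne hl ?_
      intro h
      rw [h] at hYt
      exact hne hYt
    apply Nat.find_min hex hlt
    refine ⟨hYw.length_le, ?_⟩
    rw [← hYt]
    exact hA
  · rw [List.length_take, min_eq_left hj1]
    refine Nat.find_min' hex ⟨hiw, hW, ?_⟩
    rw [List.length_take, min_eq_left hiw]
    exact (hZ _).trans hi

/-- power of the reversed word -/
theorem reverse_flatten_replicate (x : List α) (e : ℕ) :
    ((List.replicate e x).flatten).reverse = (List.replicate e x.reverse).flatten := by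
  induction e with
  | zero => simp
  | succ e ih =>
    rw [List.replicate_succ', List.flatten_append, List.reverse_append, ih]
    simp [List.replicate_succ]

theorem RF.rev {e p : ℕ} {Q : List α} (h : RF e p Q) : RF e p Q.reverse := by
  intro x hx hl hi
  apply h x.reverse (by simpa using hx) (by simpa using hl)
  rw [← reverse_flatten_replicate]
  have := List.reverse_infix.2 hi
  rwa [List.reverse_reverse] at this

/-- **left looking walls** from 291's rule: window `n`, gaps `> W`, one wall in every `G` places of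
a word without `e`-th powers of words of length `≤ W` -/
theorem exists_lwalls (α : Type*) [Finite α] (e W : ℕ) :
    ∃ (n G : ℕ) (Wo : List α → Prop), LRule Wo n ∧
      (∀ X d, Wo X → 0 < d → d ≤ W → ¬ Wo (X.take (X.length - d))) ∧
      (∀ w, RF e W w → G + n ≤ w.length → ∀ i, G + n ≤ i → i ≤ w.length →
        ∃ j, j ≤ i ∧ i < j + G ∧ Wo (w.take j)) := by
  obtain ⟨n, G, R, h1, h2, h3, h4⟩ := exists_walls α e W
  refine ⟨n, G, fun X => R X.reverse, ⟨?_, ?_⟩, ?_, ?_⟩
  · intro X hX
    have := h2 _ hX
    simpa using this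
  · intro P Q hQ
    show R (P ++ Q).reverse ↔ R Q.reverse
    rw [List.reverse_append, h1 (Q.reverse ++ P.reverse), h1 Q.reverse,
      List.take_append_of_le_length (by simpa using hQ)]
  · intro X d hX hd hdW hY
    have h5 := h3 X.reverse d hX hd hdW
    apply h5
    have : X.reverse.drop d = (X.take (X.length - d)).reverse := by
      rw [List.reverse_take]
      rcases Nat.lt_or_ge X.length d with h | h
      · rw [show X.length - (X.length - d) = X.length by omega]
        rw [List.drop_eq_nil_of_le (by simp; omega), List.drop_eq_nil_of_le (by simp)]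
      · rw [show X.length - (X.length - d) = d by omega]
    rw [this]
    exact hY
  · intro w hw hl i hi hiw
    have h5 : RF e W (w.take i).reverse := RF.rev (hw.take i)
    obtain ⟨j, hj, hR⟩ := h4 _ h5 (by rw [List.length_reverse, List.length_take]; omega)
    refine ⟨i - j, by omega, by omega, ?_⟩
    show R (w.take (i - j)).reverse
    have : (w.take i).reverse.drop j = (w.take (i - j)).reverse := by
      rw [List.drop_reverse, List.length_take, List.take_take]
      congr 2
      omega
    rw [← this]
    exact hR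

/-- **bounded decomposition** of words of the class: all blocks are short and stay in the class -/
theorem decomp {C : List α → Prop} (hC : ∀ u v, u <:+: v → C v → C u) {B : ℕ}
    (hB : ∀ w, C w → B ≤ w.length → ∃ X ∈ XX Wo M' Z, X <+: w ∧ X.length ≤ B)
    (hne : ∀ X ∈ XX Wo M' Z, X ≠ []) (w : List α) (hw : C w) :
    ∃ (l : List (List α)) (E : List α), w = l.flatten ++ E ∧
      (∀ X ∈ l, X ∈ XX Wo M' Z ∧ C X ∧ X.length ≤ B) ∧ E.length < B := by
  induction hn : w.length using Nat.strong_induction_on generalizing w with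
  | _ k ih =>
    rcases Nat.lt_or_ge w.length B with h | h
    · exact ⟨[], w, by simp, by simp, h⟩
    · obtain ⟨X, hX, ⟨w', rfl⟩, hXl⟩ := hB w hw h
      have hX0 : 0 < X.length := List.length_pos_iff.2 (hne X hX)
      have hw' : C w' := hC _ _ (List.suffix_append _ _).isInfix hw
      obtain ⟨l, E, h1, h2, h3⟩ :=
        ih w'.length (by rw [← hn, List.length_append]; omega) w' hw' rfl
      refine ⟨X :: l, E, by rw [h1]; simp, ?_, h3⟩
      intro Y hY
      rcases List.mem_cons.1 hY with rfl | hY
      · exact ⟨hX, hC _ _ (List.prefix_append _ _).isInfix hw, hXl⟩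
      · exact h2 Y hY

end Crest.Agent.R320.Core1_928
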