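import Mathlib

/-!
# Row 320, helper958: CORE-1 in left-looking form

Outer walls `W` (a property of the last `n` letters), thresholds `Zt` read at the residue of the
length mod `M`; `XX` = blocks; junction lemma; completeness of places; blocks on a class of texts
where walls have bounded gaps; the rule from a right-looking one.
-/

set_option autoImplicit false

namespace Crest.Agent.R320.Core1_958

variable {α : Type*}

/-- left-looking wall rule with window `n` -/
structure LRule (W : List α → Prop) (n : ℕ) : Prop where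
  pos : 0 < n
  loc : ∀ X, W X ↔ W (X.drop (X.length - n))
  len : ∀ X, W X → n ≤ X.length

variable {W : List α → Prop} {n : ℕ}

theorem LRule.app (h : LRule W n) {P Q : List α} (hQ : n ≤ Q.length) : W (P ++ Q) ↔ W Q := by
  rw [h.loc (P ++ Q), h.loc Q]
  have : (P ++ Q).drop ((P ++ Q).length - n) = Q.drop (Q.length - n) := by
    rw [List.length_append, show P.length + Q.length - n = P.length + (Q.length - n) by omega,
      List.drop_append]
    simp
  rw [this]

theorem LRule.take_app (h : LRule W n) {P Q : List α} {t : ℕ} (ht : P.length + n ≤ t)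
    (htQ : t ≤ P.length + Q.length) : W ((P ++ Q).take t) ↔ W (Q.take (t - P.length)) := by
  have : (P ++ Q).take t = P ++ Q.take (t - P.length) := by
    rw [List.take_append, List.take_of_length_le (by omega : P.length ≤ t)]
  rw [this]
  apply h.app
  rw [List.length_take]; omega

/-- admissible words -/
def Adm (W : List α → Prop) (M : ℕ) (Zt : ℕ → ℕ) (X : List α) : Prop :=
  W X ∧ Zt (X.length % M) ≤ X.length

/-- blocks -/
def XX (W : List α → Prop) (M : ℕ) (Zt : ℕ → ℕ) : Set (List α) :=
  {X | Adm W M Zt X ∧ ∀ t, t < X.length → ¬ Adm W M Zt (X.take t)}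

variable {M : ℕ} {Zt : ℕ → ℕ}

theorem nil_notMem (h : LRule W n) : ([] : List α) ∉ XX W M Zt := by
  intro hx
  have := h.len _ hx.1.1
  have := h.pos
  simp at *
  omega

theorem prefix_eq {X Y : List α} (hX : X ∈ XX W M Zt) (hY : Y ∈ XX W M Zt) (h : X <+: Y) :
    X = Y := by
  by_contra hne
  have hlt : X.length < Y.length := by
    rcases lt_or_eq_of_le h.length_le with h1 | h1
    · exact h1
    · exact absurd (h.eq_of_length h1) hne
  have h2 : Y.take X.length = X := (List.prefix_iff_eq_take.1 h).symm
  exact hY.2 X.length hlt (by rw [h2]; exact hX.1)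

/-- right-legal places -/
structure RP (W : List α → Prop) (n M : ℕ) (Zt : ℕ → ℕ) (p0 N1 : ℕ) (Q : List α) : Prop where
  wall : W Q
  thr : Zt ((Q.length + p0) % M) ≤ Q.length + p0
  no : ∀ t, n ≤ t → t < Q.length → W (Q.take t) → t + p0 + N1 < Zt ((t + p0) % M)

/-- left-legal places -/
def LP (M p0 N1 : ℕ) (P : List α) : Prop := ∃ om, P.length = p0 + M * om ∧ M * om ≤ N1

variable {p0 N1 : ℕ}

theorem mod_shift (x om : ℕ) : (p0 + M * om + x) % M = (x + p0) % M := by
  rw [show p0 + M * om + x = x + p0 + M * om by ring, Nat.add_mul_mod_self_left]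

/-- **junction lemma** -/
theorem junction (h : LRule W n) (hZ : ∀ r, p0 + N1 + n < Zt r) {P Q : List α}
    (hP : LP M p0 N1 P) (hQ : RP W n M Zt p0 N1 Q) : P ++ Q ∈ XX W M Zt := by
  obtain ⟨om, h1, h2⟩ := hP
  have hn := h.len _ hQ.wall
  refine ⟨⟨(h.app hn).2 hQ.wall, ?_⟩, ?_⟩
  · rw [List.length_append, h1, mod_shift]
    have := hQ.thr
    omega
  · intro t ht hA
    obtain ⟨h3, h4⟩ := hA
    rw [List.length_append] at ht
    have h5 : ((P ++ Q).take t).length = t := by
      rw [List.length_take, List.length_append]; omega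
    rw [h5] at h4
    have h6 := hZ (t % M)
    have h7 : P.length + n ≤ t := by omega
    rw [h.take_app h7 (by omega)] at h3
    have h8 := hQ.no (t - P.length) (by omega) (by omega) h3
    have h9 : t % M = (t - P.length + p0) % M := by
      have := mod_shift (p0 := p0) (M := M) (t - P.length) om
      rw [← this]
      congr 1
      omega
    rw [← h9] at h8
    omega

/-- the wall band -/
def EBad (W : List α → Prop) (M : ℕ) (Zt : ℕ → ℕ) (N1 : ℕ) (z : List α) : Prop :=
  ∃ t, t ≤ z.length ∧ W (z.take t) ∧ Zt (t % M) ≤ t + N1 ∧ t < Zt (t % M) + N1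

/-- off the band every comb place of the window is legal -/
theorem place (h : LRule W n) (hZ : ∀ r, p0 + N1 + n < Zt r) {z : List α} (hz : z ∈ XX W M Zt)
    (hE : ¬ EBad W M Zt N1 z) {om : ℕ} (hom : M * om ≤ N1) :
    LP M p0 N1 (z.take (p0 + M * om)) ∧ RP W n M Zt p0 N1 (z.drop (p0 + M * om)) := by
  have hlen : p0 + N1 + n < z.length := lt_of_lt_of_le (hZ _) hz.1.2
  have hl1 : (z.take (p0 + M * om)).length = p0 + M * om := by
    rw [List.length_take]; omega
  have hl2 : (z.drop (p0 + M * om)).length = z.length - (p0 + M * om) := List.length_drop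
  have hsplit : z.take (p0 + M * om) ++ z.drop (p0 + M * om) = z := List.take_append_drop _ _
  refine ⟨⟨om, hl1, hom⟩, ?_, ?_, ?_⟩
  · have : W (z.take (p0 + M * om) ++ z.drop (p0 + M * om)) := by rw [hsplit]; exact hz.1.1
    exact (h.app (by omega)).1 this
  · have h3 : ¬ (z.length < Zt (z.length % M) + N1) := by
      intro hlt
      exact hE ⟨z.length, le_rfl, by rw [List.take_length]; exact hz.1.1,
        le_trans hz.1.2 (by omega), hlt⟩
    have h4 : ((z.drop (p0 + M * om)).length + p0) % M = z.length % M := by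
      rw [hl2]
      have := mod_shift (p0 := p0) (M := M) (z.length - (p0 + M * om)) om
      rw [← this]
      congr 1
      omega
    rw [h4, hl2]
    omega
  · intro t hnt ht hW
    rw [hl2] at ht
    have h5 : W (z.take (t + (p0 + M * om))) := by
      have h6 : W ((z.take (p0 + M * om) ++ z.drop (p0 + M * om)).take (t + (p0 + M * om))) := by
        rw [h.take_app (by omega) (by rw [hl1, hl2]; omega), hl1]
        simpa using hW
      rwa [hsplit] at h6
    have h7 : ¬ Adm W M Zt (z.take (t + (p0 + M * om))) := hz.2 _ (by omega)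
    have h8 : (z.take (t + (p0 + M * om))).length = t + (p0 + M * om) := by
      rw [List.length_take]; omega
    have h9 : (t + (p0 + M * om)) % M = (t + p0) % M := by
      rw [show t + (p0 + M * om) = t + p0 + M * om by ring, Nat.add_mul_mod_self_left]
    have h10 : t + (p0 + M * om) < Zt ((t + (p0 + M * om)) % M) := by
      by_contra hc
      exact h7 ⟨h5, by rw [h8]; omega⟩
    have h11 : ¬ (Zt ((t + (p0 + M * om)) % M) ≤ t + (p0 + M * om) + N1) := by
      intro hc
      exact hE ⟨t + (p0 + M * om), by omega, h5, hc, by omega⟩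
    rw [h9] at h11
    omega

/-- every word of the class with bounded wall gaps starts with a block or is short -/
theorem exists_block {T : List α → Prop} {G Zm : ℕ}
    (hgap : ∀ X, T X → ∀ s, s + G ≤ X.length → ∃ t, s ≤ t ∧ t ≤ s + G ∧ W (X.take t))
    (hZm : ∀ r, Zt r ≤ Zm) {X : List α} (hX : T X) (hl : Zm + G ≤ X.length) :
    ∃ t, t ≤ Zm + G ∧ X.take t ∈ XX W M Zt := by
  classical
  obtain ⟨t, h1, h2, h3⟩ := hgap X hX Zm hl
  have hex : ∃ t, t ≤ X.length ∧ Adm W M Zt (X.take t) := by
    refine ⟨t, by omega, h3, ?_⟩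
    rw [List.length_take, min_eq_left (by omega)]
    exact le_trans (hZm _) h1
  have hspec := Nat.find_spec hex
  have hmin := fun m (hm : m < Nat.find hex) => Nat.find_min hex hm
  refine ⟨Nat.find hex, ?_, hspec.2, ?_⟩
  · by_contra hc
    push Not at hc
    refine hmin t (by omega) ⟨by omega, h3, ?_⟩
    rw [List.length_take, min_eq_left (by omega)]
    exact le_trans (hZm _) h1
  · intro s hs hA
    rw [List.length_take, min_eq_left hspec.1] at hs
    refine hmin s hs ⟨by omega, ?_⟩
    rwa [List.take_take, min_eq_left (by omega)] at hA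

/-- blocks of the class are bounded -/
theorem block_len {T : List α → Prop} {G Zm : ℕ}
    (hgap : ∀ X, T X → ∀ s, s + G ≤ X.length → ∃ t, s ≤ t ∧ t ≤ s + G ∧ W (X.take t))
    (hZm : ∀ r, Zt r ≤ Zm) {z : List α} (hT : T z) (hz : z ∈ XX W M Zt) :
    z.length ≤ Zm + G := by
  by_contra hc
  push Not at hc
  obtain ⟨t, h1, h2⟩ := exists_block (M := M) hgap hZm hT (by omega)
  exact hz.2 t (by omega) h2.1

/-- **parse** -/
theorem parse (h : LRule W n) {T : List α → Prop} {G Zm : ℕ}
    (hT : ∀ X Y, T (X ++ Y) → T X ∧ T Y)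
    (hgap : ∀ X, T X → ∀ s, s + G ≤ X.length → ∃ t, s ≤ t ∧ t ≤ s + G ∧ W (X.take t))
    (hZm : ∀ r, Zt r ≤ Zm) : ∀ (k : ℕ) (w : List α), w.length ≤ k → T w →
    ∃ (l : List (List α)) (E : List α), (∀ z ∈ l, z ∈ XX W M Zt ∧ T z ∧ z.length ≤ Zm + G) ∧
      w = l.flatten ++ E ∧ E.length < Zm + G + 1 ∧ T E := by
  intro k
  induction k with
  | zero =>
    intro w hw hTw
    exact ⟨[], w, by simp, by simp, by omega, hTw⟩
  | succ k ih =>
    intro w hw hTw
    rcases Nat.lt_or_ge w.length (Zm + G + 1) with hs | hs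
    · exact ⟨[], w, by simp, by simp, hs, hTw⟩
    · obtain ⟨t, h1, h2⟩ := exists_block (M := M) hgap hZm hTw (by omega)
      have ht : 0 < t := by
        rcases Nat.eq_zero_or_pos t with h0 | h0
        · subst h0
          simp only [List.take_zero] at h2
          exact absurd h2 (nil_notMem h)
        · exact h0
      have hw' : w.take t ++ w.drop t = w := List.take_append_drop _ _
      have hTT := hT (w.take t) (w.drop t) (by rw [hw']; exact hTw)
      obtain ⟨l, E, h3, h4, h5, h6⟩ := ih (w.drop t) (by rw [List.length_drop]; omega) hTT.2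
      refine ⟨w.take t :: l, E, ?_, ?_, h5, h6⟩
      · intro z hz
        rcases List.mem_cons.1 hz with rfl | hz
        · exact ⟨h2, hTT.1, block_len hgap hZm hTT.1 h2⟩
        · exact h3 z hz
      · rw [List.flatten_cons, List.append_assoc, ← h4, hw']

/-- from a right-looking rule to the left-looking one -/
theorem lrule_of_right {R : List α → Prop} {n : ℕ} (hn : 0 < n)
    (h1 : ∀ Q, R Q ↔ R (Q.take n)) (h2 : ∀ Q, R Q → n ≤ Q.length) :
    LRule (fun X : List α => R X.reverse) n := by
  refine ⟨hn, fun X => ?_, fun X hX => ?_⟩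
  · show R X.reverse ↔ R (X.drop (X.length - n)).reverse
    rw [h1 X.reverse]
    have : (X.drop (X.length - n)).reverse = X.reverse.take n := by
      rw [List.take_reverse]
    rw [this]
  · have := h2 _ hX
    simpa using this

theorem gap_of_right {R : List α → Prop} {n G : ℕ} {T : List α → Prop}
    (hTt : ∀ X t, T X → T (X.take t)) (hTr : ∀ X, T X → T X.reverse)
    (h3 : ∀ Q, T Q → G + n ≤ Q.length → ∃ i < G, R (Q.drop i)) :
    ∀ X, T X → ∀ s, s + (G + n) ≤ X.length →
      ∃ t, s ≤ t ∧ t ≤ s + (G + n) ∧ R (X.take t).reverse := by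
  intro X hX s hs
  obtain ⟨i, hi, hR⟩ := h3 (X.take (s + (G + n))).reverse (hTr _ (hTt _ _ hX)) (by
    rw [List.length_reverse, List.length_take]; omega)
  refine ⟨s + (G + n) - i, by omega, by omega, ?_⟩
  have : (X.take (s + (G + n) - i)).reverse = (X.take (s + (G + n))).reverse.drop i := by
    rw [List.drop_reverse, List.length_take, min_eq_left hs, List.take_take,
      min_eq_left (by omega)]
  rw [this]
  exact hR

end Crest.Agent.R320.Core1_958
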