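import Mathlib
import Crest.Agent.R320.Wall_291

/-!
# Row 320, CORE-1 (helper967): left-looking walls, threshold chain = prefix code, junction lemma

* `exists_lrule` : left-looking wall rule on words without powers (helper291's rule, reversed);
* `XX` : blocks (first admissible wall), prefix code, bounded on `RF` words, parse;
* `junction` : left place `|P| = p0 + M om`, right-legal `Q` imply `P ++ Q ∈ XX`;
* `rq_of_not_E` : a block which is not critical is right-legal at every place of its window.
-/

set_option autoImplicit false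

namespace Crest.Agent.R320.Core1_967

open Crest.Agent.R320.Wall_291

variable {α : Type*}

theorem flatten_replicate_reverse (e : ℕ) (x : List α) :
    ((List.replicate e x).flatten).reverse = (List.replicate e x.reverse).flatten := by
  rw [List.reverse_flatten, List.map_replicate, List.reverse_replicate]

theorem RF_reverse {e p : ℕ} {Q : List α} (h : RF e p Q) : RF e p Q.reverse := by
  intro x hx hl hi
  refine h x.reverse (by simpa using hx) (by simpa using hl) ?_
  rw [← flatten_replicate_reverse]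
  have := List.reverse_infix.2 hi
  simpa using this

/-- left-looking wall rule: `W X` says that `X` ends in a wall. -/
structure LRule (W : List α → Prop) (n g G : ℕ) (T : List α → Prop) : Prop where
  len : ∀ X, W X → n ≤ X.length
  loc : ∀ X Y, n ≤ Y.length → (W (X ++ Y) ↔ W Y)
  sep : ∀ X Y, W (X ++ Y) → Y ≠ [] → Y.length ≤ g → ¬ W X
  dense : ∀ X, T X → G + n ≤ X.length → ∃ X' Y, X = X' ++ Y ∧ Y.length < G ∧ W X'

theorem exists_lrule (α : Type*) [Finite α] (e g : ℕ) :
    ∃ (n G : ℕ) (W : List α → Prop), LRule W n g G (RF e g) := by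
  obtain ⟨n, G, R, h1, h2, h3, h4⟩ := exists_walls α e g
  refine ⟨n, G, fun X => R X.reverse, ⟨?_, ?_, ?_, ?_⟩⟩
  · intro X hX
    simpa using h2 _ hX
  · intro X Y hY
    show R (X ++ Y).reverse ↔ R Y.reverse
    rw [h1 (X ++ Y).reverse, h1 Y.reverse, List.reverse_append,
      List.take_append_of_le_length (by simpa using hY)]
  · intro X Y h hY hg hX
    have h' : R (X ++ Y).reverse := h
    have := h3 _ Y.length h' (List.length_pos_iff.2 hY) hg
    rw [List.reverse_append] at this
    rw [show (Y.reverse ++ X.reverse).drop Y.length = X.reverse by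
      rw [List.drop_append_of_le_length (by simp)]
      simp] at this
    exact this hX
  · intro X hX hl
    obtain ⟨i, hi, hR⟩ := h4 X.reverse (RF_reverse hX) (by simpa using hl)
    refine ⟨X.take (X.length - i), X.drop (X.length - i), (List.take_append_drop _ _).symm, ?_, ?_⟩
    · rw [List.length_drop]; omega
    · show R (X.take (X.length - i)).reverse
      rw [List.reverse_take]
      convert hR using 2
      omega

/-- parameters of the threshold chain -/
structure Par where
  M : ℕ
  p0 : ℕ
  N1 : ℕ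
  n : ℕ
  lo : ℕ
  hi : ℕ
  Z : ℕ → ℕ
  hM : 0 < M
  h1 : ∀ r, lo ≤ Z r
  h2 : ∀ r, Z r ≤ hi
  h3 : p0 + N1 + n ≤ lo
  h0 : 0 < lo

variable (P : Par) (W : List α → Prop)

/-- `X` ends in a wall which qualifies for the anchor at its beginning. -/
def Adm (X : List α) : Prop := W X ∧ P.Z (X.length % P.M) ≤ X.length

/-- blocks. -/
def XX : Set (List α) := {X | Adm P W X ∧ ∀ Y, Y <+: X → Y ≠ X → ¬ Adm P W Y}

/-- right-legal words. -/
def RQ (Q : List α) : Prop :=
  W Q ∧ P.n ≤ Q.length ∧ P.Z ((Q.length + P.p0) % P.M) ≤ Q.length + P.p0 ∧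
    ∀ Y, Y <+: Q → Y ≠ Q → P.n ≤ Y.length → W Y →
      Y.length + P.p0 + P.N1 < P.Z ((Y.length + P.p0) % P.M)

/-- left places. -/
def LP (U : List α) : Prop := ∃ om, U.length = P.p0 + P.M * om ∧ P.M * om ≤ P.N1

/-- critical block texts. -/
def E (X : List α) : Prop :=
  ∃ Y, Y <+: X ∧ W Y ∧ P.Z (Y.length % P.M) ≤ Y.length + P.N1 ∧
    Y.length ≤ P.Z (Y.length % P.M) + P.N1

variable {P W}

theorem prefixCode {X X' : List α} (h : X ∈ XX P W) (h' : X' ∈ XX P W) (hp : X <+: X') :
    X = X' := by
  by_contra hne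
  exact h'.2 X hp hne h.1

theorem Adm.le {X : List α} (h : Adm P W X) : P.lo ≤ X.length := (P.h1 _).trans h.2

theorem nil_not_mem : ([] : List α) ∉ XX P W := by
  intro h
  have := Adm.le h.1
  have h0 := P.h0
  simp at this
  omega

/-- every word with an admissible prefix has a block as a prefix. -/
theorem exists_of_adm {w X : List α} (hX : X <+: w) (h : Adm P W X) :
    ∃ Y ∈ XX P W, Y <+: w ∧ Y.length ≤ X.length := by
  classical
  have hex : ∃ k, ∃ Y, Y <+: w ∧ Adm P W Y ∧ Y.length = k := ⟨_, X, hX, h, rfl⟩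
  obtain ⟨Y, h1, h2, h3⟩ := Nat.find_spec hex
  refine ⟨Y, ⟨h2, fun Y' hp hne ha => ?_⟩, h1, ?_⟩
  · have hl : Y'.length < Y.length := by
      rcases Nat.lt_or_ge Y'.length Y.length with h | h
      · exact h
      · exact absurd (hp.eq_of_length_le h) hne
    exact Nat.find_min hex (by omega) ⟨Y', hp.trans h1, ha, rfl⟩
  · rw [h3]
    exact Nat.find_min' hex ⟨X, hX, h, rfl⟩

variable {T : List α → Prop} {g G : ℕ}

/-- long texts start with a bounded block. -/
theorem exists_block (hW : LRule W P.n g G T) (hT : ∀ X Y, X <+: Y → T Y → T X)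
    {w : List α} (hw : T w) (hl : P.hi + G ≤ w.length) :
    ∃ X ∈ XX P W, X <+: w ∧ X.length ≤ P.hi + G := by
  have hT' : T (w.take (P.hi + G)) := hT _ _ (List.take_prefix _ _) hw
  have hlen : (w.take (P.hi + G)).length = P.hi + G := by
    rw [List.length_take]; omega
  have h3 := P.h3
  have h12 := (P.h1 0).trans (P.h2 0)
  obtain ⟨X', Y, e, hY, hX'⟩ := hW.dense _ hT' (by rw [hlen]; omega)
  have hl2 : X'.length + Y.length = P.hi + G := by
    rw [← List.length_append, ← e, hlen]
  have hadm : Adm P W X' := ⟨hX', (P.h2 _).trans (by omega)⟩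
  have hpre : X' <+: w :=
    (List.prefix_append X' Y).trans (by rw [← e]; exact List.take_prefix _ _)
  obtain ⟨B, hB, h1, h2⟩ := exists_of_adm hpre hadm
  exact ⟨B, hB, h1, by omega⟩

/-- blocks of texts are bounded. -/
theorem block_le (hW : LRule W P.n g G T) (hT : ∀ X Y, X <+: Y → T Y → T X)
    {X w : List α} (hX : X ∈ XX P W) (hp : X <+: w) (hw : T w) : X.length ≤ P.hi + G := by
  by_contra hlt
  push_neg at hlt
  obtain ⟨B, hB, h1, h2⟩ := exists_block hW hT (hT _ _ hp hw) (by omega)
  have := prefixCode hB hX h1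
  subst this
  omega

/-- parse. -/
theorem exists_parse (hW : LRule W P.n g G T) (hT : ∀ X Y, X <+: Y → T Y → T X)
    (hTs : ∀ X Y, T (X ++ Y) → T Y) :
    ∀ (k : ℕ) (w : List α), w.length ≤ k → T w →
      ∃ (l : List (List α)) (R : List α), (∀ X ∈ l, X ∈ XX P W) ∧ w = l.flatten ++ R ∧
        R.length < P.hi + G := by
  intro k
  induction k with
  | zero =>
    intro w hw _
    refine ⟨[], w, by simp, by simp, ?_⟩
    have h0 := P.h0
    have h12 := (P.h1 0).trans (P.h2 0)
    omega
  | succ k ih =>
    intro w hw hTw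
    by_cases hl : w.length < P.hi + G
    · exact ⟨[], w, by simp, by simp, hl⟩
    · obtain ⟨X, hX, ⟨w', rfl⟩, -⟩ := exists_block hW hT hTw (not_lt.1 hl)
      have hX0 : 0 < X.length := lt_of_lt_of_le P.h0 (Adm.le hX.1)
      obtain ⟨l, R, h1, h2, h3⟩ := ih w' (by
        rw [List.length_append] at hw; omega) (hTs _ _ hTw)
      refine ⟨X :: l, R, ?_, ?_, h3⟩
      · intro Y hY
        rcases List.mem_cons.1 hY with rfl | h
        · exact hX
        · exact h1 Y h
      · rw [List.flatten_cons, List.append_assoc, ← h2]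

/-- JUNCTION LEMMA: a left place and a right-legal word make a block. -/
theorem junction (hloc : ∀ X Y, P.n ≤ Y.length → (W (X ++ Y) ↔ W Y))
    {U Q : List α} (hU : LP P U) (hQ : RQ P W Q) : U ++ Q ∈ XX P W := by
  obtain ⟨om, h1, h2⟩ := hU
  obtain ⟨q1, q2, q3, q4⟩ := hQ
  have hmod : ∀ Y : List α, (U ++ Y).length % P.M = (Y.length + P.p0) % P.M := by
    intro Y
    rw [List.length_append, h1, show P.p0 + P.M * om + Y.length = Y.length + P.p0 + P.M * om by ring,
      Nat.add_mul_mod_self_left]
  refine ⟨⟨(hloc _ _ q2).2 q1, ?_⟩, ?_⟩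
  · rw [hmod, List.length_append, h1]; omega
  · intro Y hp hne hadm
    have hlo := Adm.le hadm
    have h3 := P.h3
    obtain ⟨Y1, rfl⟩ : U <+: Y := by
      refine List.prefix_of_prefix_length_le (List.prefix_append U Q) hp ?_
      omega
    have hp1 : Y1 <+: Q := (List.prefix_append_right_inj U).1 hp
    have hne1 : Y1 ≠ Q := fun h => hne (by rw [h])
    have hl1 : P.n ≤ Y1.length := by
      rw [List.length_append] at hlo; omega
    have hW1 : W Y1 := (hloc _ _ hl1).1 hadm.1
    have := q4 Y1 hp1 hne1 hl1 hW1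
    have h5 := hadm.2
    rw [hmod, List.length_append] at h5
    omega

/-- a block which is not critical is right-legal at every place of its window. -/
theorem rq_of_not_E (hloc : ∀ X Y, P.n ≤ Y.length → (W (X ++ Y) ↔ W Y))
    {U Q : List α} (hU : LP P U) (hX : U ++ Q ∈ XX P W) (hE : ¬ E P W (U ++ Q)) : RQ P W Q := by
  obtain ⟨om, h1, h2⟩ := hU
  have hmod : ∀ Y : List α, (U ++ Y).length % P.M = (Y.length + P.p0) % P.M := by
    intro Y
    rw [List.length_append, h1, show P.p0 + P.M * om + Y.length = Y.length + P.p0 + P.M * om by ring,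
      Nat.add_mul_mod_self_left]
  have h3 := P.h3
  have hlo := Adm.le hX.1
  rw [List.length_append] at hlo
  have hnQ : P.n ≤ Q.length := by omega
  refine ⟨(hloc _ _ hnQ).1 hX.1.1, hnQ, ?_, ?_⟩
  · by_contra hc
    refine hE ⟨U ++ Q, List.prefix_rfl, hX.1.1, ?_, ?_⟩
    · exact hX.1.2.trans (by omega)
    · rw [hmod, List.length_append]; omega
  · intro Y hp hne hn hWY
    have hp' : U ++ Y <+: U ++ Q := (List.prefix_append_right_inj U).2 hp
    have hne' : U ++ Y ≠ U ++ Q := fun h => hne (List.append_cancel_left h)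
    have hWU : W (U ++ Y) := (hloc _ _ hn).2 hWY
    have hnadm : ¬ P.Z ((U ++ Y).length % P.M) ≤ (U ++ Y).length := fun h =>
      hX.2 _ hp' hne' ⟨hWU, h⟩
    by_contra hc
    refine hE ⟨U ++ Y, hp', hWU, ?_, ?_⟩
    · rw [hmod, List.length_append, h1]; omega
    · omega

end Crest.Agent.R320.Core1_967
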