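import Crest.Agent.R320.Hgt1_903

/-!
# Row 320, CORE-1 on ALL words (no length bound): block code, junction lemma, height one

(helper132 #12664 (2), helper467 #12877.)  `wl u` = wall at the end of `u` (left-looking, last `n`
letters).  A wall at distance `t` closes the block iff `th (t % M) ≤ t`.  The block code `XX` and
the right-legal words `RQ` are of star height at most one.
-/

set_option autoImplicit false

namespace Crest.Agent.R320.Core1u_130

open Crest.Agent.R320.Hgt1_903

variable {α : Type*}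

/-! ### length languages -/

theorem mem_star_len {M : ℕ} : ∀ (k : ℕ) (w : List α), w.length = M * k →
    w ∈ (KStar.kstar ({v : List α | v.length = M} : Language α) : Language α) := by
  intro k
  induction k with
  | zero =>
    intro w hw
    have : w = [] := List.length_eq_zero_iff.1 (by simpa using hw)
    subst this
    exact Language.nil_mem_kstar _
  | succ k ih =>
    intro w hw
    have h1 : (w.take M).length = M := by
      rw [List.length_take, hw, Nat.mul_succ]; omega
    have h2 : (w.drop M).length = M * k := by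
      rw [List.length_drop, hw, Nat.mul_succ]; omega
    obtain ⟨L, hL, hL'⟩ := Language.mem_kstar.1 (ih _ h2)
    refine Language.mem_kstar.2 ⟨w.take M :: L, ?_, ?_⟩
    · rw [List.flatten_cons, ← hL, List.take_append_drop]
    · intro y hy
      rcases List.mem_cons.1 hy with rfl | hy
      · exact h1
      · exact hL' y hy

theorem star_len_dvd {M : ℕ} {w : List α}
    (h : w ∈ (KStar.kstar ({v : List α | v.length = M} : Language α) : Language α)) :
    M ∣ w.length := by
  obtain ⟨L, rfl, hL'⟩ := Language.mem_kstar.1 h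
  clear h
  induction L with
  | nil => simp
  | cons a L ih =>
    rw [List.flatten_cons, List.length_append]
    have h1 : a.length = M := hL' a (by simp)
    rw [h1]
    exact Dvd.dvd.add (dvd_refl M) (ih fun y hy => hL' y (by simp [hy]))

theorem H_mod [Finite α] {M : ℕ} (hM : 0 < M) (r : ℕ) :
    H 1 ({w | w.length % M = r} : Language α) := by
  by_cases hr : r < M
  · refine H.congr (H.cat (H.star (H.bounded (α := α) 0 M (L := {v | v.length = M})
      fun w hw => le_of_eq hw)) (H.bounded (α := α) 1 r (L := {v | v.length = r})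
      fun w hw => le_of_eq hw)) fun w => ?_
    constructor
    · rintro ⟨u, v, rfl, hu, hv⟩
      obtain ⟨k, hk⟩ := star_len_dvd hu
      change (u ++ v).length % M = r
      rw [List.length_append, hk, show v.length = r from hv, Nat.mul_add_mod,
        Nat.mod_eq_of_lt hr]
    · intro h
      have h' : w.length % M = r := h
      have hd := Nat.div_add_mod w.length M
      rw [h'] at hd
      refine ⟨w.take (M * (w.length / M)), w.drop (M * (w.length / M)),
        List.take_append_drop _ _, mem_star_len (w.length / M) _ ?_, ?_⟩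
      · rw [List.length_take]; omega
      · change (w.drop (M * (w.length / M))).length = r
        rw [List.length_drop]; omega
  · refine H.congr (H.empty 1) fun w => ?_
    constructor
    · intro h; exact absurd h (Language.notMem_zero w)
    · intro h
      have h' : w.length % M = r := h
      have := Nat.mod_lt w.length hM
      omega

/-- eventually periodic length conditions have height one -/
theorem H_len [Finite α] {M : ℕ} (hM : 0 < M) (K : ℕ) (p : ℕ → Prop)
    (hp : ∀ t t', K ≤ t → K ≤ t' → t % M = t' % M → (p t ↔ p t')) :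
    H 1 ({w | p w.length} : Language α) := by
  have hfin : H 1 ({w | ∃ r : Fin M, w ∈ ({w | w ∈ ({w | w.length % M = r.1} : Language α) ∧
      w ∈ ({w | w ∈ ({w | ¬ w ∈ ({w | w.length < K} : Language α)} : Language α) ∧
      w ∈ ({_w | ∃ t, K ≤ t ∧ t % M = r.1 ∧ p t} : Language α)} : Language α)} : Language α)} :
      Language α) :=
    H.exists_fintype (n := 1) (ι := Fin M) _ fun r => H.inter (H_mod (α := α) hM r.1)
      (H.inter (H.not (H.bounded (α := α) 1 K (L := {w | w.length < K}) fun w hw => le_of_lt hw))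
        (H.const 1 (∃ t, K ≤ t ∧ t % M = r.1 ∧ p t)))
  refine H.congr (H.union (H.bounded (α := α) 1 K (L := {w | w.length ≤ K ∧ p w.length})
    fun w hw => hw.1) hfin) fun w => ?_
  constructor
  · rintro (⟨-, h⟩ | ⟨r, h1, h2, t, ht, ht', hpt⟩)
    · exact h
    · have h1' : w.length % M = r.1 := h1
      have h2' : ¬ w.length < K := h2
      exact (hp w.length t (by omega) ht (by rw [h1', ht'])).2 hpt
  · intro h
    have h' : p w.length := h
    rcases Nat.lt_or_ge w.length K with hw | hw
    · exact Or.inl ⟨hw.le, h'⟩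
    · refine Or.inr ⟨⟨w.length % M, Nat.mod_lt _ hM⟩, rfl, ?_, w.length, hw, rfl, h'⟩
      intro hlt
      have : w.length < K := hlt
      omega

/-- the constants and the wall rule -/
structure Chain (α : Type*) where
  wl : List α → Prop
  n : ℕ
  loc : ∀ u v : List α, n ≤ v.length → (wl (u ++ v) ↔ wl v)
  len : ∀ u : List α, wl u → n ≤ u.length
  M : ℕ
  hM : 0 < M
  Om : ℕ
  p0 : ℕ
  th : ℕ → ℕ
  lo : ℕ
  hi : ℕ
  hlo : ∀ r, lo ≤ th r
  hhi : ∀ r, th r ≤ hi
  hp : p0 + M * Om + n ≤ lo
  hlo0 : 0 < lo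

namespace Chain

variable (C : Chain α)

def Qual (t : ℕ) : Prop := C.th (t % C.M) ≤ t

/-- the block code -/
def XX : Set (List α) := {X | C.wl X ∧ C.Qual X.length ∧
  ∀ Y Z, X = Y ++ Z → Z ≠ [] → C.wl Y → ¬ C.Qual Y.length}

/-- left-legal places -/
def LP (P : List α) : Prop := ∃ om, om < C.Om ∧ P.length = C.p0 + C.M * om

/-- right-legal words -/
def RQ (Q : List α) : Prop := C.wl Q ∧ C.th ((C.p0 + Q.length) % C.M) ≤ C.p0 + Q.length ∧
  (∀ Y Z, Q = Y ++ Z → Z ≠ [] → C.wl Y →
    C.p0 + C.M * C.Om + Y.length ≤ C.th ((C.p0 + Y.length) % C.M))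

theorem XX_ne {X : List α} (h : X ∈ C.XX) : X ≠ [] := by
  rintro rfl
  have h1 := h.2.1
  have h2 := C.hlo (([] : List α).length % C.M)
  have h3 := C.hlo0
  unfold Qual at h1
  simp only [List.length_nil] at h1 h2
  omega

theorem nil_notMem : ([] : List α) ∉ C.XX := fun h => C.XX_ne h rfl

theorem XX_lo {X : List α} (h : X ∈ C.XX) : C.lo ≤ X.length :=
  le_trans (C.hlo _) h.2.1

theorem XX_prefix {X Y : List α} (h1 : X ∈ C.XX) (h2 : X ++ Y ∈ C.XX) : Y = [] := by
  by_contra hne
  exact h2.2.2 X Y rfl hne h1.1 h1.2.1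

/-- the form of the top theorem -/
theorem XX_code : ∀ X ∈ C.XX, ∀ Y, X ++ Y ∈ C.XX → Y = [] := fun _ h1 _ h2 => C.XX_prefix h1 h2

/-- two parses of a text start with the same block -/
theorem XX_unique {X X' Z Z' : List α} (h1 : X ∈ C.XX) (h2 : X' ∈ C.XX)
    (h : X ++ Z = X' ++ Z') : X = X' ∧ Z = Z' := by
  rcases List.append_eq_append_iff.1 h with ⟨A, hA, hB⟩ | ⟨A, hA, hB⟩
  · subst hA
    have : A = [] := C.XX_prefix h1 h2
    subst this
    simp at hB
    exact ⟨by simp, hB⟩
  · subst hA
    have : A = [] := C.XX_prefix h2 h1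
    subst this
    simp at hB
    exact ⟨by simp, hB.symm⟩

/-- a text with a qualified wall has a block as a prefix -/
theorem exists_block {Y : List α} (h1 : C.wl Y) (h2 : C.Qual Y.length) :
    ∃ X ∈ C.XX, X <+: Y := by
  classical
  have hex : ∃ t, t ≤ Y.length ∧ C.wl (Y.take t) ∧ C.Qual t :=
    ⟨Y.length, le_rfl, by rw [List.take_length]; exact h1, h2⟩
  obtain ⟨a1, a2, a3⟩ := Nat.find_spec hex
  refine ⟨Y.take (Nat.find hex), ⟨a2, ?_, ?_⟩, List.take_prefix _ _⟩
  · rw [List.length_take, Nat.min_eq_left a1]; exact a3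
  · intro Y' Z hYZ hZ hY' hq
    have hlt : Y'.length < Nat.find hex := by
      have := congrArg List.length hYZ
      rw [List.length_take, Nat.min_eq_left a1, List.length_append] at this
      have hz : 0 < Z.length := List.length_pos_iff.2 hZ
      omega
    have hY'' : Y' = Y.take Y'.length := by
      have h4 : Y' = (Y.take (Nat.find hex)).take Y'.length := by rw [hYZ]; simp
      rw [List.take_take, Nat.min_eq_left hlt.le] at h4
      exact h4
    refine Nat.find_min hex hlt ⟨by omega, ?_, hq⟩
    rw [← hY'']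
    exact hY'

theorem mod_eq {om k : ℕ} : (C.p0 + C.M * om + k) % C.M = (C.p0 + k) % C.M := by
  rw [show C.p0 + C.M * om + k = (C.p0 + k) + C.M * om by ring, Nat.add_mul_mod_self_left]

theorem mul_lt {om : ℕ} (h : om < C.Om) : C.M * om + C.M ≤ C.M * C.Om := by
  have := Nat.mul_le_mul_left C.M h
  rw [Nat.mul_succ] at this
  exact this

/-- **junction lemma** (818 with thresholds) -/
theorem junction {P Q : List α} (hP : C.LP P) (hQ : C.RQ Q) : P ++ Q ∈ C.XX := by
  obtain ⟨om, hom, hlP⟩ := hP
  obtain ⟨q1, q2, q3⟩ := hQ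
  have hmul := C.mul_lt hom
  have hM := C.hM
  have hp := C.hp
  refine ⟨?_, ?_, ?_⟩
  · exact (C.loc P Q (C.len Q q1)).2 q1
  · unfold Qual
    rw [List.length_append, hlP, C.mod_eq]
    omega
  · intro Y Z hYZ hZ hY hq
    have hlo := le_trans (C.hlo (Y.length % C.M)) hq
    rcases List.append_eq_append_iff.1 hYZ with ⟨A, hA, hB⟩ | ⟨A, hA, hB⟩
    · subst hA
      rw [List.length_append] at hlo hq
      have hAn : C.n ≤ A.length := by omega
      have hA' : C.wl A := (C.loc P A hAn).1 hY
      have h3 := q3 A Z hB hZ hA'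
      have hmod : (P.length + A.length) % C.M = (C.p0 + A.length) % C.M := by
        rw [hlP, C.mod_eq]
      unfold Qual at hq
      rw [hmod] at hq
      omega
    · have : Y.length ≤ P.length := by rw [hA, List.length_append]; omega
      omega

/-- the block has no wall in the band of its threshold: the negation of (E) -/
def Clean (X : List α) : Prop := ∀ Y Z, X = Y ++ Z → C.wl Y →
  Y.length + C.M * C.Om ≤ C.th (Y.length % C.M) ∨ C.th (Y.length % C.M) + C.M * C.Om ≤ Y.length

/-- **in a clean block every place is right-legal** -/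
theorem RQ_of_clean {X P Q : List α} (hX : X ∈ C.XX) (hc : C.Clean X) (hXP : X = P ++ Q)
    (hP : C.LP P) : C.RQ Q := by
  obtain ⟨om, hom, hlP⟩ := hP
  have hmul := C.mul_lt hom
  have hM := C.hM
  have hp := C.hp
  have hlo := C.XX_lo hX
  have hlen : X.length = P.length + Q.length := by rw [hXP, List.length_append]
  have hQn : C.n ≤ Q.length := by omega
  have hwQ : C.wl Q := by
    have := hX.1
    rw [hXP] at this
    exact (C.loc P Q hQn).1 this
  refine ⟨hwQ, ?_, ?_⟩
  · have h1 := hX.2.1
    unfold Qual at h1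
    have h2 := hc X [] (by simp) hX.1
    have hmod : X.length % C.M = (C.p0 + Q.length) % C.M := by
      rw [hlen, hlP, C.mod_eq]
    rw [hmod] at h1 h2
    omega
  · intro Y Z hYZ hZ hY
    have hn := C.len Y hY
    have hXY : X = (P ++ Y) ++ Z := by rw [hXP, hYZ, List.append_assoc]
    have hwY : C.wl (P ++ Y) := (C.loc P Y hn).2 hY
    have h1 := hX.2.2 (P ++ Y) Z hXY hZ hwY
    have h2 := hc (P ++ Y) Z hXY hwY
    have hmod : (P ++ Y).length % C.M = (C.p0 + Y.length) % C.M := by
      rw [List.length_append, hlP, C.mod_eq]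
    unfold Qual at h1
    rw [hmod] at h1 h2
    rw [List.length_append] at h1 h2
    omega

/-! ### height one -/

variable [Finite α]

theorem H_wl (k : ℕ) : H k ({w | C.wl w} : Language α) := by
  refine H.congr (H.suffixWindow (α := α) k C.n C.wl) fun w => ?_
  change C.wl (w.drop (w.length - C.n)) ↔ C.wl w
  by_cases h : C.n ≤ w.length
  · have h1 := C.loc (w.take (w.length - C.n)) (w.drop (w.length - C.n))
      (by rw [List.length_drop]; omega)
    rw [List.take_append_drop] at h1
    exact h1.symm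
  · rw [Nat.sub_eq_zero_of_le (by omega), List.drop_zero]

theorem H_qual : H 1 ({w | C.Qual w.length} : Language α) := by
  refine H_len C.hM C.hi C.Qual fun t t' ht ht' _ => ?_
  have h1 := C.hhi (t % C.M)
  have h2 := C.hhi (t' % C.M)
  unfold Qual
  constructor <;> intro _ <;> omega

theorem H_ne (k : ℕ) : H k ({w | w ≠ []} : Language α) := by
  refine H.congr (H.not (H.bounded (α := α) k 0 (L := {w | w.length ≤ 0}) fun w hw => hw))
    fun w => ?_
  change ¬ (w.length ≤ 0) ↔ w ≠ []
  rw [← List.length_pos_iff, not_le]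

/-- **the block code has height one** -/
theorem H_XX : H 1 ({X | X ∈ C.XX} : Language α) := by
  have hA := H.inter (C.H_wl 1) C.H_qual
  refine H.congr (H.inter hA (H.not (H.cat hA (H_ne 1)))) fun w => ?_
  constructor
  · rintro ⟨⟨h1, h2⟩, h3⟩
    refine ⟨h1, h2, fun Y Z hYZ hZ hY hq => h3 ⟨Y, Z, hYZ.symm, ⟨hY, hq⟩, hZ⟩⟩
  · rintro ⟨h1, h2, h3⟩
    refine ⟨⟨h1, h2⟩, ?_⟩
    rintro ⟨Y, Z, hYZ, ⟨hY, hq⟩, hZ⟩
    exact h3 Y Z hYZ.symm hZ hY hq

/-- **the right-legal words have height one** -/
theorem H_RQ : H 1 ({Q | C.RQ Q} : Language α) := by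
  have h1 : H 1 ({w | C.th ((C.p0 + w.length) % C.M) ≤ C.p0 + w.length} : Language α) := by
    refine H_len C.hM C.hi (fun t => C.th ((C.p0 + t) % C.M) ≤ C.p0 + t) fun t t' ht ht' _ => ?_
    have h1 := C.hhi ((C.p0 + t) % C.M)
    have h2 := C.hhi ((C.p0 + t') % C.M)
    constructor <;> intro _ <;> omega
  have h2 : H 1 ({w | ¬ (C.p0 + C.M * C.Om + w.length ≤ C.th ((C.p0 + w.length) % C.M))} :
      Language α) := by
    refine H_len C.hM (C.hi + 1)
      (fun t => ¬ (C.p0 + C.M * C.Om + t ≤ C.th ((C.p0 + t) % C.M))) fun t t' ht ht' _ => ?_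
    have h1 := C.hhi ((C.p0 + t) % C.M)
    have h2 := C.hhi ((C.p0 + t') % C.M)
    constructor <;> intro _ <;> omega
  refine H.congr (H.inter (H.inter (C.H_wl 1) h1) (H.not (H.cat (H.inter (C.H_wl 1) h2)
    (H_ne 1)))) fun w => ?_
  constructor
  · rintro ⟨⟨a1, a2⟩, a3⟩
    refine ⟨a1, a2, fun Y Z hYZ hZ hY => ?_⟩
    by_contra hcon
    exact a3 ⟨Y, Z, hYZ.symm, ⟨hY, hcon⟩, hZ⟩
  · rintro ⟨a1, a2, a3⟩
    refine ⟨⟨a1, a2⟩, ?_⟩
    rintro ⟨Y, Z, hYZ, ⟨hY, hq⟩, hZ⟩
    exact hq (a3 Y Z hYZ.symm hZ hY)

/-- the left-legal words of the place `om` are finite in number, so every set of them has height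
one -/
theorem H_LP (L : Set (List α)) (hL : ∀ P ∈ L, C.LP P) : H 1 (L : Language α) := by
  refine H.bounded 1 (C.p0 + C.M * C.Om) fun w hw => ?_
  obtain ⟨om, hom, hl⟩ := hL w hw
  have := C.mul_lt hom
  omega

end Chain

end Crest.Agent.R320.Core1u_130
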