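import Crest.Agent.R320.Core1_958
import Crest.Agent.R320.Asm_505

/-!
# Row 320, helper958: scheme 1 on blocks from ANY zone gadget (final plan #13253 / #13406)

Natural chain rule (`M = 1`, constant threshold `z`): blocks `XX Wo 1 (fun _ => z)`; frame shift
`p0`; one token system (118): `T v X = act (act v (phi X1) + nu2 X1) (phi Y) + nu1 Y`.
-/

set_option autoImplicit false

namespace Crest.Agent.R320.Core2G_958

open Crest.Agent.R320.Core1_958

variable {α S V : Type*} [Monoid S] [AddCommGroup V]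

/-- an abstract zone gadget on words -/
structure Gad (α S V : Type*) [Monoid S] [AddCommGroup V] where
  phi : List α → S
  hphi : ∀ u v, phi (u ++ v) = phi u * phi v
  act : V → S → V
  lam : List α → V → Prop
  rho : List α → V → Prop
  nu : List α → V
  N1 : ℕ
  N1' : ℕ
  BadT : ℕ → Prop
  sound : ∀ P Q v r, lam P v → rho Q r → r = act v (phi (P ++ Q)) + nu (P ++ Q)
  len : ∀ P v, lam P v → P.length ≤ N1
  compl : ∀ Y : List α, N1' ≤ Y.length → ¬ BadT Y.length → ∀ v,
    ∃ P Q r, Y = P ++ Q ∧ lam P v ∧ rho Q r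

/-- outer walls and sizes -/
structure Out (α : Type*) where
  Wo : List α → Prop
  n : ℕ
  rule : LRule Wo n
  z : ℕ
  p0 : ℕ

variable (G : Gad α S V) (g : Out α) (nu2 : List α → V)

/-- blocks -/
def Blk (g : Out α) : Set (List α) := XX g.Wo 1 (fun _ => g.z)

theorem mem_Blk {g : Out α} {X : List α} : X ∈ Blk g ↔ (g.Wo X ∧ g.z ≤ X.length) ∧
    ∀ t, t < X.length → ¬ (g.Wo (X.take t) ∧ g.z ≤ (X.take t).length) := Iff.rfl

/-- token map of a block -/
def TT (v : V) (X : List α) : V :=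
  G.act (G.act v (G.phi (X.take g.p0)) + nu2 (X.take g.p0)) (G.phi (X.drop g.p0)) +
    G.nu (X.drop g.p0)

/-- left words of scheme 1 -/
def P1 (v : V) (P : List α) : Prop :=
  g.p0 ≤ P.length ∧ G.lam (P.drop g.p0) (G.act v (G.phi (P.take g.p0)) + nu2 (P.take g.p0))

/-- right words of scheme 1 -/
def R1 (b : V) (Q : List α) : Prop :=
  RP g.Wo g.n 1 (fun _ => g.z) g.p0 G.N1 Q ∧ G.rho Q b

/-- bad blocks: wall band or exceptional length -/
def Bad (X : List α) : Prop :=
  EBad g.Wo 1 (fun _ => g.z) G.N1 X ∨ G.BadT (X.length - g.p0)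

variable {G g nu2}

theorem P1.lp {v : V} {P : List α} (h : P1 G g nu2 v P) : LP 1 g.p0 G.N1 P := by
  have := G.len _ _ h.2
  rw [List.length_drop] at this
  exact ⟨P.length - g.p0, by have := h.1; omega, by omega⟩

theorem P1.ne {v : V} {P : List α} (hp : 0 < g.p0) (h : P1 G g nu2 v P) : P ≠ [] := by
  rintro rfl
  have := h.1
  simp at this
  omega

/-- **(s1)** -/
theorem s1 (hz : g.p0 + G.N1 + g.n < g.z) {P Q : List α} {v b : V}
    (hP : P1 G g nu2 v P) (hQ : R1 G g b Q) :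
    P ++ Q ∈ Blk g ∧ TT G g nu2 v (P ++ Q) = b := by
  refine ⟨junction g.rule (fun _ => hz) hP.lp hQ.1, ?_⟩
  have h1 := G.sound _ _ _ _ hP.2 hQ.2
  have hd : (P ++ Q).drop g.p0 = P.drop g.p0 ++ Q := List.drop_append_of_le_length hP.1
  have ht : (P ++ Q).take g.p0 = P.take g.p0 := List.take_append_of_le_length hP.1
  unfold TT
  rw [hd, ht]
  exact h1.symm

/-- soundness in the form of 505's `Level` -/
theorem s1_level (hz : g.p0 + G.N1 + g.n < g.z) {P Q X : List α} {v b : V}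
    (hP : P1 G g nu2 v P) (hQ : R1 G g b Q) (hX : X ∈ Blk g)
    (hc : X <+: P ++ Q ∨ P ++ Q <+: X) : X = P ++ Q ∧ TT G g nu2 v X = b := by
  obtain ⟨h3, h4⟩ := s1 hz hP hQ
  have : X = P ++ Q := by
    rcases hc with hc | hc
    · exact prefix_eq hX h3 hc
    · exact (prefix_eq h3 hX hc).symm
  exact ⟨this, this ▸ h4⟩

/-- **completeness of scheme 1 off `Bad`** -/
theorem c1 (hz : g.p0 + G.N1 + g.n < g.z) (hz' : g.p0 + G.N1' ≤ g.z) {X : List α}
    (hX : X ∈ Blk g) (hB : ¬ Bad G g X) (v : V) :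
    ∃ P Q, X = P ++ Q ∧ P1 G g nu2 v P ∧ R1 G g (TT G g nu2 v X) Q := by
  have hlen : g.z ≤ X.length := hX.1.2
  have hE : ¬ EBad g.Wo 1 (fun _ => g.z) G.N1 X := fun h => hB (Or.inl h)
  have hT : ¬ G.BadT (X.drop g.p0).length := by
    rw [List.length_drop]; exact fun h => hB (Or.inr h)
  obtain ⟨P', Q, r, hY, hlam, hrho⟩ := G.compl (X.drop g.p0)
    (by rw [List.length_drop]; omega) hT
    (G.act v (G.phi (X.take g.p0)) + nu2 (X.take g.p0))
  have hl := G.len _ _ hlam
  have hXs : X = (X.take g.p0 ++ P') ++ Q := by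
    rw [List.append_assoc, ← hY, List.take_append_drop]
  have hl0 : (X.take g.p0).length = g.p0 := by rw [List.length_take]; omega
  have hl1 : (X.take g.p0 ++ P').length = g.p0 + 1 * P'.length := by
    rw [List.length_append, hl0, one_mul]
  have ht : X.take (g.p0 + 1 * P'.length) = X.take g.p0 ++ P' := by
    conv_lhs => rw [hXs]
    rw [← hl1, List.take_left']
    rfl
  have hd : X.drop (g.p0 + 1 * P'.length) = Q := by
    conv_lhs => rw [hXs]
    rw [← hl1, List.drop_left']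
    rfl
  obtain ⟨_, hp2⟩ := place g.rule (fun _ => hz) hX hE (om := P'.length) (by omega)
  rw [hd] at hp2
  have hP : P1 G g nu2 v (X.take g.p0 ++ P') := by
    refine ⟨by rw [hl1]; omega, ?_⟩
    have e1 : (X.take g.p0 ++ P').drop g.p0 = P' := by
      conv_lhs => rw [← hl0]
      simp
    have e2 : (X.take g.p0 ++ P').take g.p0 = X.take g.p0 := by
      rw [List.take_append_of_le_length (by omega), List.take_take, min_self]
    rw [e1, e2]
    exact hlam
  have hQ : R1 G g r Q := ⟨hp2, hrho⟩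
  have hs := (s1 hz hP hQ).2
  rw [← hXs] at hs
  exact ⟨_, Q, hXs, hP, hs ▸ hQ⟩

open Crest.Agent.R320.Asm_505 in
/-- scheme 1 as a `Level` of 505 -/
theorem level1 (hz : g.p0 + G.N1 + g.n < g.z) (hz' : g.p0 + G.N1' ≤ g.z) (hp : 0 < g.p0) :
    Level (Blk g : Language α) {X | X ∈ Blk g ∧ Bad G g X} (fun X v => TT G g nu2 v X)
      (fun v => {P | P1 G g nu2 v P}) (fun b => {Q | R1 G g b Q}) where
  pne v h := P1.ne hp h rfl
  sound X hX v b P hP Q hQ hc := s1_level hz hP hQ hX hc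
  compl X hX hB v := by
    obtain ⟨P, Q, h1, h2, h3⟩ := c1 (nu2 := nu2) hz hz' hX (fun h => hB ⟨hX, h⟩) v
    exact ⟨P, h2, Q, h3, h1⟩

open Crest.Agent.R320.Asm_505 in
theorem pc_Blk : PC (Blk g : Language α) :=
  ⟨nil_notMem g.rule, fun _ hX _ hY h => prefix_eq hX hY h⟩

end Crest.Agent.R320.Core2G_958
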