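import Crest.Agent.R320.Core_671

/-!
# Row 320: the four buffer statements from `Prm` (helper671)
-/

set_option autoImplicit false

namespace Crest.Agent.R320.Core_671

open Crest.Agent.R320.ThrChain260 Crest.Agent.R320.Zone132_898 Crest.Agent.R320.Ruler2_537

variable {α S V W : Type}

theorem rule_take (r : Rule α) (X : List α) {k : ℕ} (h : r.n ≤ k) : r.R (X.take k) ↔ r.R X := by
  rw [r.take_iff (X.take k), r.take_iff X, List.take_take, min_eq_left h]

theorem take_app (u Q : List α) (d : ℕ) : (u ++ Q).take (u.length + d) = u ++ Q.take d := by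
  rw [List.take_append, List.take_of_length_le (by omega), Nat.add_sub_cancel_left]

theorem legal_app {P : Par} (r : Rule α) (u Q : List α) (hz : P.p0 + P.S ≤ P.z) :
    Legal P (Wz r (u ++ Q)) u.length ↔ Legal P (Wz r Q) 0 := by
  constructor
  · intro h t ht hb
    refine h (t + u.length) ((Wz_app r u Q ht.nn).2 ht) ?_
    have e : t + u.length - u.length + P.p0 - P.z = t - 0 + P.p0 - P.z := by ring
    rw [e]; exact hb
  · intro h t ht hb
    rcases lt_or_ge t (u.length : ℤ) with hx | hx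
    · exact absurd hb.2 (not_le.mpr (left_lt hz hx))
    · refine h (t - u.length) ((Wz_app' r u Q hx).1 ht) ?_
      have e : t - u.length - 0 + P.p0 - P.z = t - u.length + P.p0 - P.z := by ring
      rw [e]; exact hb

theorem qualR_app {P : Par} (r : Rule α) (u Q : List α) (hz : P.p0 + P.S ≤ P.z) (t : ℤ) :
    QualR P (Wz r (u ++ Q)) u.length t ↔ QualR P (Wz r Q) 0 (t - u.length) := by
  have e : t - u.length - 0 + P.p0 - P.z = t - u.length + P.p0 - P.z := by ring
  constructor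
  · intro h
    have h1 := qualR_ge hz h
    refine ⟨(Wz_app' r u Q h1).1 h.1, ?_⟩
    rw [e]; exact h.2
  · rintro ⟨h1, h2⟩
    have h3 := h1.nn
    refine ⟨(Wz_app' r u Q (by omega)).2 h1, ?_⟩
    rw [e] at h2; exact h2

theorem isB_app {P : Par} (r : Rule α) (u Q : List α) (hz : P.p0 + P.S ≤ P.z) (t : ℤ) :
    IsB P (Wz r (u ++ Q)) u.length t ↔ IsB P (Wz r Q) 0 (t - u.length) := by
  unfold IsB
  rw [qualR_app r u Q hz t]
  constructor
  · rintro ⟨h1, h2⟩
    refine ⟨h1, fun t' ht' hq => h2 (t' + u.length) (by omega) ((qualR_app r u Q hz _).2 ?_)⟩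
    rwa [add_sub_cancel_right]
  · rintro ⟨h1, h2⟩
    exact ⟨h1, fun t' ht' hq => h2 (t' - u.length) (by omega) ((qualR_app r u Q hz _).1 hq)⟩

namespace Prm

variable [Monoid S] [AddCommGroup V] [AddCommGroup W] (p : Prm α S V W)

theorem NN_eq {o : ℕ} {Q : List α} {t : ℤ} (h : IsN p.P (Wz p.ro Q) (-(o : ℤ)) t) :
    (p.NN o Q : ℤ) = t := by
  classical
  unfold NN
  rw [dif_pos ⟨t, h⟩]
  have h1 : ∃ t : ℤ, IsN p.P (Wz p.ro Q) (-(o : ℤ)) t := ⟨t, h⟩
  have h2 := isN_unique h1.choose_spec h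
  have h3 := h.1.1.nn
  change ((h1.choose).toNat : ℤ) = t
  rw [h2]
  omega

theorem N_eq {y : List α} {t : ℤ} (h : IsN p.P (Wz p.ro y) 0 t) : (p.N y : ℤ) = t := by
  apply p.NN_eq
  simpa using h

theorem S_nonneg : 0 ≤ p.P.S - p.P.N1 := by
  have := p.P.hs 0
  exact le_trans (abs_nonneg _) this

theorem phi_append (u v : List α) : p.D.phi (u ++ v) = p.D.phi u * p.D.phi v := p.D.hphi u v

variable {G : List α → Prop}

theorem ex_isN (hO : ∀ T, G T → ∀ i, i + p.Go + p.ro.n ≤ T.length →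
    ∃ t, i ≤ t ∧ t < i + p.Go ∧ p.ro.R (T.drop t)) {T : List α} (hG : G T)
    (hlen : p.B ≤ T.length) :
    ∃ t : ℤ, IsN p.P (Wz p.ro T) 0 t ∧ p.P.z - p.P.S ≤ t ∧ t + p.ro.n + p.P.N1 ≤ p.B := by
  have h1 := p.S_nonneg
  have h2 := p.P.hN
  have h3 := p.hz'
  have h4 := p.hB
  have h5 : (0 : ℤ) ≤ p.p0 := by positivity
  obtain ⟨t, ht1, ht2, ht3⟩ := hO T hG (p.P.z + p.P.S).toNat (by omega)
  obtain ⟨t', a1, a2, a3⟩ := exists_isN (P := p.P) (Wl := Wz p.ro T) (a := 0) (u := (t : ℤ))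
    ⟨by positivity, by simpa using ht3⟩ (by omega)
  exact ⟨t', a1, by omega, by omega⟩

/-- window place of a left word of scheme 1 -/
theorem inWin_of_L1 {u : List α} {v : V} (h : p.L1 u v) : InWin p.P 0 (u.length : ℤ) := by
  obtain ⟨hp, c, om, H, hP, hi, hlo, hhi, _⟩ := h
  rw [List.length_drop] at hP
  have h1 := p.hN1 _ hi
  have h2 := p.hp0
  have h3 : p.D.q * om ≤ p.D.q * (p.D.lo c.i + p.D.M) := Nat.mul_le_mul_left _ (by omega)
  have h4 : (u.length : ℤ) - p.P.p0 - 0 = (p.D.q * om : ℕ) := by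
    rw [h2, ← hP]; omega
  refine ⟨?_, ?_, ?_⟩
  · rw [h4]; positivity
  · rw [h4]
    have : ((p.D.q * om : ℕ) : ℤ) ≤ ((p.D.q * (p.D.lo c.i + p.D.M) : ℕ) : ℤ) := by
      exact_mod_cast h3
    linarith
  · rw [h4, p.hq]
    push_cast
    exact dvd_mul_right _ _

theorem A_eq (v : V) {y X Y : List α} (hX : y.take p.p0 = X)
    (hN : (y.take (p.N y)) = X ++ Y) (hXl : X.length = p.p0) :
    p.A v y = p.D.act (p.D.act v (p.D.phi X) + p.nu2 X 1) (p.D.phi Y) + p.D.nu Y := by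
  unfold A nu
  rw [hX, hN]
  have h1 : (X ++ Y).drop p.p0 = Y := by rw [← hXl]; simp
  rw [h1, p.phi_append, ← p.act_mul, p.act_add, add_assoc]

/-- **(s1)** -/
theorem s1 (hO : ∀ T, G T → ∀ i, i + p.Go + p.ro.n ≤ T.length →
    ∃ t, i ≤ t ∧ t < i + p.Go ∧ p.ro.R (T.drop t)) {u Q : List α} {v b : V} {d : ℕ}
    (hG : G (u ++ Q)) (hlen : p.B ≤ (u ++ Q).length) (hL : p.L1 u v)
    (hR : p.R1 Q = some (d, b)) :
    p.N ((u ++ Q).take p.B) = u.length + d ∧ p.A v ((u ++ Q).take p.B) = b := by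
  have hz : p.P.p0 + p.P.S ≤ p.P.z := by
    have := p.hz'; have := p.hp0; have := p.P.hN; omega
  obtain ⟨h1, h2, h3⟩ := p.R1_some hR
  obtain ⟨t, ht, ht1, ht2⟩ := p.ex_isN hO hG hlen
  have hw := p.inWin_of_L1 hL
  have h4 := (legal_app p.ro u Q hz).2 h1
  have h5 : IsB p.P (Wz p.ro (u ++ Q)) u.length (u.length + d) := by
    rw [isB_app p.ro u Q hz, add_sub_cancel_left]; exact h2
  have h6 := (isN_iff_isB h4 hw _).2 h5
  have h7 := isN_unique ht h6
  have hNn := p.P.hN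
  have h8 : IsN p.P (Wz p.ro ((u ++ Q).take p.B)) 0 t := (isN_take (by omega)).2 ht
  have h9 := p.N_eq h8
  have h10 : p.N ((u ++ Q).take p.B) = u.length + d := by omega
  refine ⟨h10, ?_⟩
  obtain ⟨hp, hLL⟩ := hL
  have hXl : (u.take p.p0).length = p.p0 := by rw [List.length_take]; omega
  have hB0 : p.p0 ≤ p.B := by
    have := p.hz'; have := p.hB; have := p.S_nonneg; omega
  have e1 : ((u ++ Q).take p.B).take p.p0 = u.take p.p0 := by
    rw [List.take_take, min_eq_left hB0, List.take_append_of_le_length hp]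
  have e2 : ((u ++ Q).take p.B).take (p.N ((u ++ Q).take p.B)) =
      u.take p.p0 ++ (u.drop p.p0 ++ Q.take d) := by
    rw [h10, List.take_take, min_eq_left (by omega), take_app, ← List.append_assoc,
      List.take_append_drop]
  rw [p.A_eq v e1 e2 hXl]
  exact (p.D.sound p.hN_1 p.hN_2 hLL h3).symm

end Prm

end Crest.Agent.R320.Core_671
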