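import Crest.Agent.R320.Core1_958
import Crest.Agent.R320.Zone132_898

/-!
# Row 320, helper958: CORE-2 = scheme 1 on blocks, in the level form of 505

`P1 v`, `R1 b` relations, `T1` zone map; soundness on all pairs (`sound1`, `level1_sound`) and
completeness off the three bands (`complete1`).
-/

set_option autoImplicit false

namespace Crest.Agent.R320.Core2_958

open Crest.Agent.R320.Core1_958 Crest.Agent.R320.Zone132_898

variable {α S V W : Type*} [Monoid S] [AddCommGroup V] [AddCommGroup W]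

/-- geometry of scheme 1: outer walls, thresholds, frame shift `p0`, window `N1` -/
structure Geo (α : Type*) where
  Wo : List α → Prop
  n : ℕ
  rule : LRule Wo n
  Zt : ℕ → ℕ
  p0 : ℕ
  N1 : ℕ

variable (g : Geo α) (D : Data α S V W)

/-- thresholds are far enough -/
def Geo.Far : Prop := ∀ r, g.p0 + g.N1 + g.n < g.Zt r

/-- blocks -/
def Blk : Set (List α) := XX g.Wo D.q g.Zt

/-- left words -/
def P1 (v : V) (P : List α) : Prop :=
  LP D.q g.p0 g.N1 P ∧ D.LL (P.drop g.p0) (D.act v (D.phi (P.take g.p0)))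

/-- right words -/
def R1 (b : V) (Q : List α) : Prop :=
  RP g.Wo g.n D.q g.Zt g.p0 g.N1 Q ∧ D.RR Q b

/-- zone map -/
noncomputable def T1 (X : List α) (v : V) : V := D.act v (D.phi X) + D.nu (X.drop g.p0)

variable {g D}

theorem ne_nil_of_P1 (hp : 0 < g.p0) {v : V} {P : List α} (h : P1 g D v P) : P ≠ [] := by
  rintro rfl
  obtain ⟨om, h1, _⟩ := h.1
  simp at h1
  omega

/-- **soundness of scheme 1 on all pairs** -/
theorem sound1 (hF : g.Far) (h1 : D.N1) (h2 : D.N2)
    (hact : ∀ v s t, D.act (D.act v s) t = D.act v (s * t)) {P Q : List α} {v b : V}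
    (hP : P1 g D v P) (hQ : R1 g D b Q) : P ++ Q ∈ Blk g D ∧ T1 g D (P ++ Q) v = b := by
  refine ⟨junction g.rule hF hP.1 hQ.1, ?_⟩
  have hs := D.sound h1 h2 hP.2 hQ.2
  obtain ⟨om, hl, _⟩ := hP.1
  have hdrop : (P ++ Q).drop g.p0 = P.drop g.p0 ++ Q :=
    List.drop_append_of_le_length (by omega)
  have hphi : D.phi (P ++ Q) = D.phi (P.take g.p0) * D.phi (P.drop g.p0 ++ Q) := by
    rw [← D.hphi, ← List.append_assoc, List.take_append_drop]
  unfold T1
  rw [hdrop, hphi, ← hact]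
  exact hs.symm

theorem level1_sound (hF : g.Far) (h1 : D.N1) (h2 : D.N2)
    (hact : ∀ v s t, D.act (D.act v s) t = D.act v (s * t)) {P Q z : List α} {v b : V}
    (hP : P1 g D v P) (hQ : R1 g D b Q) (hz : z ∈ Blk g D)
    (hc : z <+: P ++ Q ∨ P ++ Q <+: z) : z = P ++ Q ∧ T1 g D z v = b := by
  obtain ⟨h3, h4⟩ := sound1 hF h1 h2 hact hP hQ
  have : z = P ++ Q := by
    rcases hc with hc | hc
    · exact prefix_eq hz h3 hc
    · exact (prefix_eq h3 hz hc).symm
  exact ⟨this, this ▸ h4⟩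

/-- a small wall near a level -/
def DBad (g : Geo α) (D : Data α S V W) (z : List α) : Prop :=
  ∃ k, k ≤ D.m ∧ ∃ t, D.A k ≤ t + D.q * D.M ∧ t < D.A k + D.q * D.M ∧
    D.r.R ((z.drop g.p0).drop t)

/-- exceptional length -/
def BBad (g : Geo α) (D : Data α S V W) (z : List α) : Prop :=
  D.B ((z.drop g.p0).length / D.q)

/-- **completeness of scheme 1 off the bands** -/
theorem complete1 (hF : g.Far) (h1 : D.N1) (h2 : D.N2) (h3 : D.N3) (hH : D.Hides)
    (hact : ∀ v s t, D.act (D.act v s) t = D.act v (s * t))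
    (hlo : ∀ i, i < D.m → D.A i + D.G + D.r.n ≤ D.q * D.lo i)
    (hN1 : ∀ i, i < D.m → D.q * (D.lo i + D.M) ≤ g.N1)
    {z : List α} (hz : z ∈ Blk g D)
    (hgap : ∀ k, k ≤ D.m → ∃ t, D.A k ≤ t ∧ t ≤ D.A k + D.G ∧ D.r.R ((z.drop g.p0).drop t))
    (hE : ¬ EBad g.Wo D.q g.Zt g.N1 z) (hB : ¬ BBad g D z) (hD : ¬ DBad g D z) (v : V) :
    ∃ P Q, z = P ++ Q ∧ P1 g D v P ∧ R1 g D (T1 g D z v) Q := by
  classical
  have hlen : g.p0 + g.N1 + g.n < z.length := lt_of_lt_of_le (hF _) hz.1.2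
  set Y := z.drop g.p0 with hY
  -- first walls
  have hex : ∀ k, k ≤ D.m → ∃ t, FW D.r Y (D.A k) t ∧ t ≤ D.A k + D.G := by
    intro k hk
    obtain ⟨t, ht1, ht2, ht3⟩ := hgap k hk
    have he : ∃ t, D.A k ≤ t ∧ D.r.R (Y.drop t) := ⟨t, ht1, ht3⟩
    refine ⟨Nat.find he, ?_, ?_⟩
    · refine ⟨(Nat.find_spec he).1, (Nat.find_spec he).2, ?_⟩
      intro t' ht1' ht2' hR
      exact Nat.find_min he ht2' ⟨ht1', hR⟩
    · exact le_trans (Nat.find_min' he ⟨ht1, ht3⟩) ht2
  choose! H hHs using hex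
  obtain ⟨P', Q, i, om, hYs, hi, hPl, hlo1, hlo2, hLL, b, hRR⟩ :=
    D.complete h3 hH (Z := Y) hB H (fun k hk => (hHs k hk).1)
      (fun k hk => (hHs k hk).2) hlo
      (fun k hk t ht1 ht2 hR => hD ⟨k, hk, t, ht1, ht2, hR⟩)
      (fun i hi => by
        have := hN1 i hi
        rw [hY, List.length_drop]
        omega)
      (D.act v (D.phi (z.take g.p0)))
  have hom : D.q * om ≤ g.N1 := by
    have := hN1 i hi
    have h5 : D.q * om ≤ D.q * (D.lo i + D.M) := Nat.mul_le_mul_left _ (by omega)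
    omega
  have hzs : z = (z.take g.p0 ++ P') ++ Q := by
    rw [List.append_assoc, ← hYs, hY, List.take_append_drop]
  have hl0 : (z.take g.p0).length = g.p0 := by rw [List.length_take]; omega
  have hl1 : (z.take g.p0 ++ P').length = g.p0 + D.q * om := by
    rw [List.length_append, hl0, hPl]
  have ht : z.take (g.p0 + D.q * om) = z.take g.p0 ++ P' := by
    conv_lhs => rw [hzs]
    rw [← hl1, List.take_left']
    rfl
  have hd : z.drop (g.p0 + D.q * om) = Q := by
    conv_lhs => rw [hzs]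
    rw [← hl1, List.drop_left']
    rfl
  obtain ⟨hp1, hp2⟩ := place g.rule hF hz hE hom
  rw [ht] at hp1
  rw [hd] at hp2
  have hP : P1 g D v (z.take g.p0 ++ P') := by
    refine ⟨hp1, ?_⟩
    have e1 : (z.take g.p0 ++ P').drop g.p0 = P' := by
      conv_lhs => rw [← hl0]
      simp
    have e2 : (z.take g.p0 ++ P').take g.p0 = z.take g.p0 := by
      rw [List.take_append_of_le_length (by omega), List.take_take, min_self]
    rw [e1, e2]
    exact hLL
  have hQ : R1 g D b Q := ⟨hp2, hRR⟩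
  have hs := (sound1 hF h1 h2 hact hP hQ).2
  rw [← hzs] at hs
  exact ⟨_, Q, hzs, hP, hs ▸ hQ⟩

end Crest.Agent.R320.Core2_958
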