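import Crest.Agent.R320.Core2_671

/-!
# Row 320: completeness of scheme 1 from `Prm` (helper671)
-/

set_option autoImplicit false

namespace Crest.Agent.R320.Core_671

open Crest.Agent.R320.ThrChain260 Crest.Agent.R320.Zone132_898 Crest.Agent.R320.Ruler2_537

variable {α S V W : Type}

namespace Prm

variable [Monoid S] [AddCommGroup V] [AddCommGroup W] (p : Prm α S V W)

variable {G : List α → Prop}

/-- **(c1)** -/
theorem c1 (hO : ∀ T, G T → ∀ i, i + p.Go + p.ro.n ≤ T.length →
    ∃ t, i ≤ t ∧ t < i + p.Go ∧ p.ro.R (T.drop t))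
    (hS : ∀ T, G T → ∀ i, i + p.Gs + p.D.r.n ≤ T.length →
      ∃ t, i ≤ t ∧ t < i + p.Gs ∧ p.D.r.R (T.drop t))
    {T : List α} (hG : G T) (hlen : p.B + p.B ≤ T.length) (hBad : ¬ p.BadZ 0 (T.take p.B))
    (v : V) : ∃ i, i < p.B ∧ p.L1 (T.take i) v ∧ (p.R1 ((T.drop i).take p.B)).isSome := by
  classical
  have hz : p.P.p0 + p.P.S ≤ p.P.z := by
    have := p.hz'; have := p.hp0; have := p.P.hN; omega
  have hp0 := p.hp0
  have hz' := p.hz'
  have hB := p.hB
  have hSn := p.S_nonneg
  have hNn := p.P.hN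
  obtain ⟨t, ht, ht1, ht2⟩ := p.ex_isN hO hG (by omega)
  have h8 : IsN p.P (Wz p.ro (T.take p.B)) 0 t := (isN_take (by omega)).2 ht
  have ht0 := ht.1.1.nn
  obtain ⟨n, rfl⟩ := Int.eq_ofNat_of_zero_le ht0
  have ht2' : n + p.ro.n ≤ p.B := by omega
  -- the zone word right of `p0`
  set Y : List α := (T.take n).drop p.p0 with hY
  have hYl : Y.length = n - p.p0 := by
    rw [hY, List.length_drop, List.length_take]; omega
  have hpn : p.p0 ≤ n := by omega
  -- walls of `Y`
  have hYd : ∀ h, Y.drop h = (T.drop (p.p0 + h)).take (n - (p.p0 + h)) := by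
    intro h
    rw [hY, List.drop_drop, List.drop_take]
  have hYR : ∀ h, p.p0 + h + p.D.r.n ≤ n → (p.D.r.R (Y.drop h) ↔ p.D.r.R (T.drop (p.p0 + h))) := by
    intro h hh
    rw [hYd, rule_take _ _ (by omega)]
  have hH : ∀ k, ∃ h, k ≤ p.D.m → (FW p.D.r Y (p.D.A k) h ∧ h ≤ p.D.A k + p.Gs) := by
    intro k
    by_cases hk : k ≤ p.D.m
    · have hzk := p.hz k hk
      obtain ⟨t1, a1, a2, a3⟩ := hS T hG (p.p0 + p.D.A k) (by omega)
      have hex : ∃ h, p.D.A k ≤ h ∧ p.D.r.R (Y.drop h) := by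
        refine ⟨t1 - p.p0, by omega, ?_⟩
        rw [hYR _ (by omega)]
        have : p.p0 + (t1 - p.p0) = t1 := by omega
        rw [this]; exact a3
      refine ⟨Nat.find hex, fun _ => ⟨⟨(Nat.find_spec hex).1, (Nat.find_spec hex).2, ?_⟩, ?_⟩⟩
      · intro t' b1 b2 b3
        exact Nat.find_min hex b2 ⟨b1, b3⟩
      · have : Nat.find hex ≤ t1 - p.p0 := by
          refine Nat.find_min' hex ⟨by omega, ?_⟩
          rw [hYR _ (by omega)]
          have : p.p0 + (t1 - p.p0) = t1 := by omega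
          rw [this]; exact a3
        omega
    · exact ⟨0, fun h => absurd h hk⟩
  choose H hH using hH
  have hBad1 : ¬ E p.P (Wz p.ro (T.take p.B)) 0 := by
    intro h
    apply hBad
    unfold BadZ Bad
    left
    simpa using h
  have hBad2 : ∀ k ≤ p.D.m, ¬ DBad (Wz p.D.r (T.take p.B)) (fun k => (p.p0 : ℤ) + p.D.A k)
      (p.D.q * p.D.M : ℕ) k 0 := by
    intro k hk h
    apply hBad
    unfold BadZ Bad
    right; left
    exact ⟨k, by omega, by simpa using h⟩
  have hBad3 : ¬ p.D.B (Y.length / p.D.q) := by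
    intro h
    obtain ⟨i, hi, hd⟩ := (p.hBm _).1 h
    apply hBad
    unfold BadZ Bad
    right; right
    refine ⟨i, hi, (n : ℤ), by simpa using h8, ?_⟩
    have e : ((n : ℤ) - -((0 : ℕ) : ℤ) - p.P.p0) / p.P.M = ((Y.length / p.D.q : ℕ) : ℤ) := by
      rw [Int.natCast_div, hYl, p.hq, hp0]
      congr 1
      omega
    rw [e]; exact hd
  have hnear : ∀ k, k ≤ p.D.m → ∀ t, p.D.A k ≤ t + p.D.q * p.D.M →
      t < p.D.A k + p.D.q * p.D.M → ¬ p.D.r.R (Y.drop t) := by
    intro k hk t b1 b2 b3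
    have hzk := p.hz k hk
    have hAk := p.hA k hk
    apply hBad2 k hk
    have hlen3 := p.D.r.len _ b3
    have hpos := p.D.r.pos
    rw [List.length_drop, hYl] at hlen3
    rw [hYR t (by omega)] at b3
    refine ⟨((p.p0 + t : ℕ) : ℤ), ?_, ?_⟩
    · refine (Wz_take _ _ (by omega)).2 ⟨by positivity, ?_⟩
      rw [Int.toNat_natCast]
      exact b3
    · rw [abs_le]
      push_cast
      have c1 : (p.D.A k : ℤ) ≤ t + p.D.q * p.D.M := by exact_mod_cast b1
      have c2 : (t : ℤ) < p.D.A k + p.D.q * p.D.M := by exact_mod_cast b2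
      constructor <;> linarith
  have hZ : ∀ i, i < p.D.m → p.D.q * (p.D.lo i + p.D.M) ≤ Y.length := by
    intro i hi
    have := p.hN1 i hi
    rw [hYl]
    omega
  obtain ⟨P, Q, i, om, hYPQ, hi, hP, hl, hu, hLL, hRR⟩ :=
    p.D.complete' p.hN_1 p.hN_2 p.hN_3 p.hHid hBad3 H (fun k hk => (hH k hk).1)
      (fun k hk => (hH k hk).2) p.hlo hnear hZ
      (p.D.act v (p.D.phi (T.take p.p0)) + p.nu2 (T.take p.p0) 1)
  have hPlt : P.length < p.D.q * (p.D.lo i + p.D.M) := by
    rw [hP]
    exact Nat.mul_lt_mul_of_pos_left hu p.D.hq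
  have hN1i := p.hN1 i hi
  have hPQl : P.length + Q.length = n - p.p0 := by rw [← hYl, hYPQ, List.length_append]
  set x : ℕ := p.p0 + P.length with hx
  have hxn : x ≤ n := by omega
  have hxB : x < p.B := by omega
  have hTn : T.take n = T.take p.p0 ++ (P ++ Q) := by
    rw [← hYPQ, hY]
    have := (List.take_append_drop p.p0 (T.take n)).symm
    rwa [List.take_take, min_eq_left hpn] at this
  have hp0l : (T.take p.p0).length = p.p0 := by rw [List.length_take]; omega
  have hTx : T.take x = T.take p.p0 ++ P := by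
    have h1 : T.take x = (T.take n).take x := by rw [List.take_take, min_eq_left hxn]
    rw [h1, hTn, ← List.append_assoc, List.take_left']
    rw [List.length_append, hp0l]
  have hTd : (T.drop x).take (n - x) = Q := by
    have h1 : (T.drop x).take (n - x) = (T.take n).drop x := by rw [List.drop_take]
    rw [h1, hTn, ← List.append_assoc, List.drop_left']
    rw [List.length_append, hp0l]
  have hL1 : p.L1 (T.take x) v := by
    refine ⟨by rw [List.length_take]; omega, ?_⟩
    have e1 : (T.take x).drop p.p0 = P := by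
      rw [hTx, List.drop_left' hp0l]
    have e2 : (T.take x).take p.p0 = T.take p.p0 := by
      rw [List.take_take, min_eq_left (by omega)]
    rw [e1, e2]; exact hLL
  refine ⟨x, hxB, hL1, ?_⟩
  apply p.R1_isSome (d := n - x)
    (b := p.D.act (p.D.act v (p.D.phi (T.take p.p0)) + p.nu2 (T.take p.p0) 1) (p.D.phi Y) +
      p.D.nu Y)
  have hxl : (T.take x).length = x := by rw [List.length_take]; omega
  have hTsplit : T.take (x + p.B) = T.take x ++ (T.drop x).take p.B := by
    rw [List.take_add]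
  have hw : InWin p.P 0 (((T.take x).length : ℕ) : ℤ) := p.inWin_of_L1 hL1
  have hleg : Legal p.P (Wz p.ro (T.take (x + p.B))) ((T.take x).length : ℕ) := by
    apply legal_of_not_E (a := 0) _ hw
    rintro ⟨s, hs1, hs2⟩
    apply hBad1
    refine ⟨s, ?_, hs2⟩
    have h1 := p.P.hs ((s - 0 - p.P.z) % p.P.M)
    rw [abs_le] at h1 hs2
    have h2 : s + p.ro.n ≤ p.B := by omega
    exact (Wz_take _ _ h2).2 (Wz_of_take hs1)
  refine ⟨?_, ?_, ?_⟩
  · rw [hTsplit] at hleg
    exact (legal_app p.ro _ _ hz).1 hleg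
  · have h9 : IsN p.P (Wz p.ro (T.take (x + p.B))) 0 (n : ℤ) := (isN_take (by omega)).2 ht
    have h10 := (isN_iff_isB hleg hw _).1 h9
    rw [hTsplit] at h10
    have h11 := (isB_app p.ro _ _ hz _).1 h10
    rw [hxl] at h11
    have : ((n - x : ℕ) : ℤ) = (n : ℤ) - x := by omega
    rw [this]; exact h11
  · rw [List.take_take, min_eq_left (by omega), hTd]
    have : P ++ Q = Y := hYPQ.symm
    exact hRR

end Prm

end Crest.Agent.R320.Core_671
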