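import Crest.Agent.R320.Straub1_932
import Crest.Agent.R320.Hk2_851

/-! TEAM 3: core theorem over the separation criterion. -/

set_option autoImplicit false
set_option linter.all false

namespace Crest.Agent.R320.Core3_932

open scoped Classical
open Crest.Agent.R320.Straub_932 (ev)
open Crest.Agent.R320.Hk_851

universe u

/-- `w^k` -/
def rep {A : Type u} (k : ℕ) (w : List A) : List A := (List.replicate k w).flatten

/-- `w` is a power of a word of length `≤ W` -/
def Short {A : Type u} (W : ℕ) (w : List A) : Prop :=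
  ∃ (x : List A) (j : ℕ), x.length ≤ W ∧ w = rep j x

/-- a language inside which only powers of short words can be pumped -/
def Thin {A : Type u} (W : ℕ) (R : Language A) : Prop :=
  ∀ x w y : List A, (∀ n, ∃ k, n ≤ k ∧ x ++ rep k w ++ y ∈ R) → Short W w

/-- iterate of a block map along a list of blocks -/
def run {A V : Type u} (T : V → List A → V) (v : V) (l : List (List A)) : V := l.foldl T v

/-- blocks of `B` with thread `v → v'` -/
def fib {A V : Type u} (B : Language A) (T : V → List A → V) (v v' : V) : Language A :=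
  {X | X ∈ B ∧ T v X = v'}

/-- words of `B*` with thread `v → v'` -/
def thread {A V : Type u} (B : Language A) (T : V → List A → V) (v v' : V) : Language A :=
  {w | ∃ l : List (List A), w = l.flatten ∧ (∀ X ∈ l, X ∈ B) ∧ run T v l = v'}

/-- `k ↦ [x w^k y ∈ L]` is not eventually constant -/
def Osc {A : Type u} (L : Language A) (x w y : List A) : Prop :=
  ∀ n, ∃ k l, n ≤ k ∧ n ≤ l ∧ x ++ rep k w ++ y ∈ L ∧ x ++ rep l w ++ y ∉ L

/-- some language of the family separates two powers of `w` -/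
def SepBy {A : Type u} (F : Set (Language A)) (w : List A) : Prop :=
  ∃ X ∈ F, ∃ x y : List A, ∃ k l : ℕ, 0 < k ∧ 0 < l ∧ x ++ rep k w ++ y ∈ X ∧
    x ++ rep l w ++ y ∉ X

/-- (SEP) -/
def SepLang (A : Type u) : Prop := ∀ (h : ℕ) (F : Set (Language A)), F.Finite →
  (∀ X ∈ F, HL h X) → ∀ L : Language A, L.IsRegular →
  (∀ x w y : List A, Osc L x w y → SepBy F w) → HL h L

/-- (SHORT) -/
def ShortSep (A : Type u) : Prop := ∀ (W : ℕ) (L : Language A), L.IsRegular →
  ∃ F : Set (Language A), F.Finite ∧ (∀ X ∈ F, HL 1 X) ∧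
    ∀ x w y : List A, Short W w → Osc L x w y → SepBy F w

section basic
variable {A V : Type u}

@[simp] theorem rep_zero (w : List A) : rep 0 w = [] := by simp [rep]
theorem rep_succ (k : ℕ) (w : List A) : rep (k + 1) w = w ++ rep k w := by
  simp [rep, List.replicate_succ]
theorem rep_add (k l : ℕ) (w : List A) : rep (k + l) w = rep k w ++ rep l w := by
  rw [rep, rep, rep, List.replicate_add, List.flatten_append]
theorem rep_prefix {k l : ℕ} (h : k ≤ l) (w : List A) : rep k w <+: rep l w := by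
  obtain ⟨d, rfl⟩ := Nat.exists_eq_add_of_le h
  rw [rep_add]; exact List.prefix_append _ _

@[simp] theorem run_nil (T : V → List A → V) (v : V) : run T v [] = v := rfl
@[simp] theorem run_cons (T : V → List A → V) (v : V) (X : List A) (l : List (List A)) :
    run T v (X :: l) = run T (T v X) l := rfl
theorem run_append (T : V → List A → V) (v : V) (l m : List (List A)) :
    run T v (l ++ m) = run T (run T v l) m := by simp [run]

/-- parse lemma for a prefix code -/
theorem parse {XX : Language A} (pref : ∀ X ∈ XX, ∀ Y, X ++ Y ∈ XX → Y = [])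
    (l : List (List A)) : ∀ (l' : List (List A)) (t t' : List A), (∀ X ∈ l, X ∈ XX) →
    (∀ X ∈ l', X ∈ XX) → l.flatten ++ t = l'.flatten ++ t' →
    (∃ m, l' = l ++ m ∧ t = m.flatten ++ t') ∨ (∃ m, l = l' ++ m ∧ t' = m.flatten ++ t) := by
  induction l with
  | nil =>
    intro l' t t' _ _ h
    left
    exact ⟨l', rfl, by simpa using h⟩
  | cons X l ih =>
    intro l' t t' hl hl' h
    cases l' with
    | nil =>
      right
      exact ⟨X :: l, rfl, by simpa using h.symm⟩
    | cons X' l' =>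
      have hX := hl X List.mem_cons_self
      have hX' := hl' X' List.mem_cons_self
      rw [List.flatten_cons, List.flatten_cons, List.append_assoc, List.append_assoc] at h
      have hXX : X = X' := by
        rcases List.append_eq_append_iff.1 h with ⟨Y, h1, _⟩ | ⟨Y, h1, _⟩
        · have := pref X hX Y (h1 ▸ hX')
          rw [this, List.append_nil] at h1
          exact h1.symm
        · have := pref X' hX' Y (h1 ▸ hX)
          rw [this, List.append_nil] at h1
          exact h1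
      subst hXX
      have h2 := List.append_cancel_left h
      rcases ih l' t t' (fun Y hY => hl Y (List.mem_cons_of_mem _ hY))
        (fun Y hY => hl' Y (List.mem_cons_of_mem _ hY)) h2 with ⟨m, h3, h4⟩ | ⟨m, h3, h4⟩
      · exact Or.inl ⟨m, by rw [h3]; rfl, h4⟩
      · exact Or.inr ⟨m, by rw [h3]; rfl, h4⟩

theorem flatten_nil_of {XX : Language A} (ne : [] ∉ XX) {m : List (List A)}
    (hm : ∀ X ∈ m, X ∈ XX) (h : m.flatten = []) : m = [] := by
  cases m with
  | nil => rfl
  | cons X m =>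
    exfalso
    rw [List.flatten_cons] at h
    have h1 : X = [] := (List.append_eq_nil_iff.1 h).1
    exact ne (h1 ▸ hm X List.mem_cons_self)

/-- a parsed prefix of a parsed word -/
theorem parse_le {XX : Language A} (pref : ∀ X ∈ XX, ∀ Y, X ++ Y ∈ XX → Y = [])
    (ne : [] ∉ XX) {l l' : List (List A)} {t : List A} (hl : ∀ X ∈ l, X ∈ XX)
    (hl' : ∀ X ∈ l', X ∈ XX) (h : l.flatten ++ t = l'.flatten) :
    ∃ m, l' = l ++ m ∧ t = m.flatten := by
  rcases parse pref l l' t [] hl hl' (by simpa using h) with ⟨m, h3, h4⟩ | ⟨m, h3, h4⟩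
  · exact ⟨m, h3, by simpa using h4⟩
  · have h5 : m.flatten = [] := (List.append_eq_nil_iff.1 h4.symm).1
    have h6 : t = [] := (List.append_eq_nil_iff.1 h4.symm).2
    have h7 : m = [] := flatten_nil_of ne (fun X hX => hl X (by rw [h3]; simp [hX])) h5
    subst h7
    exact ⟨[], by rw [h3]; simp, by rw [h6]; simp⟩

end basic

/-! ### the chain identity -/

section chain
variable {A V : Type u} [Finite V]

/-- one factor of the star -/
def KK (B : V → V → Language A) (LP RQ : V → Language A) : Language A :=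
  {u | ∃ v v' : V, u ∈ RQ v * B v v' * LP v'}

def PP (B : V → V → Language A) (LP : V → Language A) (v0 : V) : Language A :=
  {u | ∃ v : V, u ∈ B v0 v * LP v}

def QQ (B : V → V → Language A) (RQ : V → Language A) (v1 : V) : Language A :=
  {u | ∃ v : V, u ∈ RQ v * B v v1}

/-- the chain language -/
def DD (B : V → V → Language A) (LP RQ : V → Language A) (v0 v1 : V) : Language A :=
  B v0 v1 + PP B LP v0 * KStar.kstar (KK B LP RQ) * QQ B RQ v1

theorem DD_HL {h : ℕ} {B : V → V → Language A} {LP RQ : V → Language A}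
    (hB : ∀ v v', HL h (B v v')) (hL : ∀ v, HL h (LP v)) (hR : ∀ v, HL h (RQ v)) (v0 v1 : V) :
    HL (h + 1) (DD B LP RQ v0 v1) := by
  have hK : HL h (KK B LP RQ) := by
    refine (HL.iUnion (k := h) (ι := V × V)
      (L := fun p => RQ p.1 * B p.1 p.2 * LP p.2) (fun p => ((hR _).mul (hB _ _)).mul (hL _))).congr ?_
    intro w
    constructor
    · rintro ⟨v, v', hw⟩; exact ⟨(v, v'), hw⟩
    · rintro ⟨p, hw⟩; exact ⟨p.1, p.2, hw⟩
  have hP : HL h (PP B LP v0) := by
    refine (HL.iUnion (k := h) (ι := V)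
      (L := fun p => B v0 p * LP p) (fun p => (hB _ _).mul (hL _))).congr ?_
    intro w; exact Iff.rfl
  have hQ : HL h (QQ B RQ v1) := by
    refine (HL.iUnion (k := h) (ι := V)
      (L := fun p => RQ p * B p v1) (fun p => (hR _).mul (hB _ _))).congr ?_
    intro w; exact Iff.rfl
  exact ((hB v0 v1).mono (Nat.le_succ h)).add
    (((hP.mono (Nat.le_succ h)).mul hK.star).mul (hQ.mono (Nat.le_succ h)))

variable {XX X0 Bd : Language A} {T : V → List A → V} {LP RQ : V → Language A}

/-- soundness -/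
theorem DD_sound (blk : ∀ v v', ∀ P ∈ LP v, ∀ Q ∈ RQ v', P ++ Q ∈ XX)
    (snd : ∀ v v', ∀ P ∈ LP v, ∀ Q ∈ RQ v', P ++ Q ∈ X0 → T v (P ++ Q) = v')
    (hBd : ∀ X ∈ Bd, X ∈ XX) {v0 v1 : V} {u : List A}
    (hu : u ∈ DD (thread Bd T) LP RQ v0 v1) :
    ∃ l : List (List A), u = l.flatten ∧ (∀ X ∈ l, X ∈ XX) ∧
      ((∀ X ∈ l, X ∈ X0) → run T v0 l = v1) := by
  rcases hu with hu | hu
  · obtain ⟨l, rfl, hl, hr⟩ := hu
    exact ⟨l, rfl, fun X hX => hBd X (hl X hX), fun _ => hr⟩
  · obtain ⟨pk, hpk, q, hq, rfl⟩ := (Language.mem_mul).1 hu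
    obtain ⟨p, hp, k, hk, rfl⟩ := (Language.mem_mul).1 hpk
    obtain ⟨v1', hq'⟩ := hq
    obtain ⟨Q0, hQ0, b1, ⟨lb1, rfl, hlb1, hrb1⟩, rfl⟩ := (Language.mem_mul).1 hq'
    -- statement for `p ++ k`: blocks, then a left half
    have key : ∀ (L : List (List A)), (∀ y ∈ L, y ∈ KK (thread Bd T) LP RQ) →
        ∃ (l : List (List A)) (P : List A) (v : V), p ++ L.flatten = l.flatten ++ P ∧
          P ∈ LP v ∧ (∀ X ∈ l, X ∈ XX) ∧ ((∀ X ∈ l, X ∈ X0) → run T v0 l = v) := by
      intro L
      induction L using List.reverseRecOn with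
      | nil =>
        intro _
        obtain ⟨v, hp'⟩ := hp
        obtain ⟨b0, ⟨lb0, rfl, hlb0, hrb0⟩, P0, hP0, rfl⟩ := (Language.mem_mul).1 hp'
        exact ⟨lb0, P0, v, by simp, hP0, fun X hX => hBd X (hlb0 X hX), fun _ => hrb0⟩
      | append_singleton L y ih =>
        intro hL
        obtain ⟨l, P, v, h1, h2, h3, h4⟩ := ih (fun z hz => hL z (by simp [hz]))
        obtain ⟨v2, v3, hy⟩ := hL y (by simp)
        obtain ⟨qb, hqb, P', hP', rfl⟩ := (Language.mem_mul).1 hy
        obtain ⟨Q, hQ, b, ⟨lb, rfl, hlb, hrb⟩, rfl⟩ := (Language.mem_mul).1 hqb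
        refine ⟨l ++ (P ++ Q) :: lb, P', v3, ?_, hP', ?_, ?_⟩
        · rw [List.flatten_append, ← List.append_assoc, h1]
          simp
        · intro X hX
          rw [List.mem_append, List.mem_cons] at hX
          rcases hX with hX | rfl | hX
          · exact h3 X hX
          · exact blk _ _ P h2 Q hQ
          · exact hBd X (hlb X hX)
        · intro hall
          rw [run_append, run_cons, h4 (fun X hX => hall X (by simp [hX])),
            snd _ _ P h2 Q hQ (hall _ (by simp)), hrb]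
    obtain ⟨L, rfl, hL⟩ := (Language.mem_kstar).1 hk
    obtain ⟨l, P, v, h1, h2, h3, h4⟩ := key L hL
    refine ⟨l ++ (P ++ Q0) :: lb1, ?_, ?_, ?_⟩
    · rw [h1]; simp
    · intro X hX
      rw [List.mem_append, List.mem_cons] at hX
      rcases hX with hX | rfl | hX
      · exact h3 X hX
      · exact blk _ _ P h2 Q0 hQ0
      · exact hBd X (hlb1 X hX)
    · intro hall
      rw [run_append, run_cons, h4 (fun X hX => hall X (by simp [hX])),
        snd _ _ P h2 Q0 hQ0 (hall _ (by simp)), hrb1]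

/-- completeness -/
theorem DD_complete
    (snd : ∀ v v', ∀ P ∈ LP v, ∀ Q ∈ RQ v', P ++ Q ∈ X0 → T v (P ++ Q) = v')
    (cpl : ∀ X ∈ X0, X ∉ Bd → ∀ v, ∃ P Q v', X = P ++ Q ∧ P ∈ LP v ∧ Q ∈ RQ v')
    (l : List (List A)) : (∀ X ∈ l, X ∈ X0) → ∀ v0 : V,
    l.flatten ∈ DD (thread Bd T) LP RQ v0 (run T v0 l) := by
  induction l using List.reverseRecOn with
  | nil =>
    intro _ v0
    exact Or.inl ⟨[], rfl, by simp, rfl⟩
  | append_singleton l X ih =>
    intro hl v0
    have hX : X ∈ X0 := hl X (by simp)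
    have ih' := ih (fun Y hY => hl Y (by simp [hY])) v0
    rw [run_append]
    simp only [run_cons, run_nil, List.flatten_append, List.flatten_cons, List.flatten_nil,
      List.append_nil]
    by_cases hXB : X ∈ Bd
    · rcases ih' with h | h
      · obtain ⟨lb, e, hlb, hrb⟩ := h
        refine Or.inl ⟨lb ++ [X], by rw [e]; simp, ?_, ?_⟩
        · intro Y hY
          rw [List.mem_append, List.mem_singleton] at hY
          rcases hY with hY | rfl
          · exact hlb Y hY
          · exact hXB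
        · rw [run_append, hrb]; rfl
      · obtain ⟨pk, hpk, q, hq, e⟩ := (Language.mem_mul).1 h
        obtain ⟨v, hq'⟩ := hq
        obtain ⟨Q, hQ, b, ⟨lb, rfl, hlb, hrb⟩, rfl⟩ := (Language.mem_mul).1 hq'
        refine Or.inr ((Language.mem_mul).2 ⟨pk, hpk, Q ++ (lb ++ [X]).flatten, ?_, ?_⟩)
        · refine ⟨v, (Language.mem_mul).2 ⟨Q, hQ, _, ⟨lb ++ [X], rfl, ?_, ?_⟩, rfl⟩⟩
          · intro Y hY
            rw [List.mem_append, List.mem_singleton] at hY
            rcases hY with hY | rfl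
            · exact hlb Y hY
            · exact hXB
          · rw [run_append, hrb]; rfl
        · rw [← e]; simp
    · obtain ⟨P, Q, v', rfl, hP, hQ⟩ := cpl X hX hXB (run T v0 l)
      have hv' : T (run T v0 l) (P ++ Q) = v' := snd _ _ P hP Q hQ hX
      rw [hv']
      have hQQ : Q ∈ QQ (thread Bd T) RQ v' :=
        ⟨v', (Language.mem_mul).2 ⟨Q, hQ, [], ⟨[], rfl, by simp, rfl⟩, by simp⟩⟩
      rcases ih' with h | h
      · refine Or.inr ((Language.mem_mul).2 ⟨l.flatten ++ P, ?_, Q, hQQ, by simp⟩)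
        refine (Language.mem_mul).2 ⟨l.flatten ++ P, ?_, [], ?_, by simp⟩
        · exact ⟨run T v0 l, (Language.mem_mul).2 ⟨l.flatten, h, P, hP, rfl⟩⟩
        · exact (Language.mem_kstar).2 ⟨[], rfl, by simp⟩
      · obtain ⟨pk, hpk, q, hq, e⟩ := (Language.mem_mul).1 h
        obtain ⟨p, hp, k, hk, rfl⟩ := (Language.mem_mul).1 hpk
        obtain ⟨v, hq'⟩ := hq
        obtain ⟨L, rfl, hL⟩ := (Language.mem_kstar).1 hk
        refine Or.inr ((Language.mem_mul).2 ⟨p ++ (L ++ [q ++ P]).flatten, ?_, Q, hQQ, ?_⟩)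
        · refine (Language.mem_mul).2 ⟨p, hp, _, ?_, rfl⟩
          refine (Language.mem_kstar).2 ⟨L ++ [q ++ P], rfl, ?_⟩
          intro y hy
          rw [List.mem_append, List.mem_singleton] at hy
          rcases hy with hy | rfl
          · exact hL y hy
          · exact ⟨v, run T v0 l, (Language.mem_mul).2 ⟨q, hq', P, hP, rfl⟩⟩
        · rw [← List.append_assoc, ← e]; simp

end chain

/-! ### the step -/

theorem SepBy.mono {A : Type u} {F G : Set (Language A)} (h : F ⊆ G) {w : List A}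
    (hs : SepBy F w) : SepBy G w := by
  obtain ⟨X, hX, r⟩ := hs
  exact ⟨X, h hX, r⟩

theorem Osc.inf {A : Type u} {L : Language A} {x w y : List A} (h : Osc L x w y) :
    ∀ n, ∃ k, n ≤ k ∧ x ++ rep k w ++ y ∈ L := by
  intro n
  obtain ⟨k, _, hk, _, h1, _⟩ := h n
  exact ⟨k, hk, h1⟩

theorem thin_HL {A : Type u} (hSep : SepLang A) (hShort : ShortSep A) {W : ℕ} {L : Language A}
    (hL : L.IsRegular) (ht : Thin W L) : HL 1 L := by
  obtain ⟨F, hF, hF1, hs⟩ := hShort W L hL
  refine hSep 1 F hF hF1 L hL ?_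
  intro x w y ho
  exact hs x w y (ht x w y ho.inf) ho

/-- infinitely many blocks unless the period is short -/
theorem many_blocks {A : Type u} {XX : Language A} (ne : [] ∉ XX) {W : ℕ}
    (wf : ∀ r w : List A, (∀ k, ∀ X ∈ XX, ¬ X <+: r ++ rep k w) → Short W w)
    (x w : List A) (hS : ¬ Short W w) (n : ℕ) :
    ∃ k, ∃ l : List (List A), (∀ X ∈ l, X ∈ XX) ∧ x ++ rep n w <+: l.flatten ∧
      l.flatten <+: x ++ rep k w := by
  by_contra hno
  have hbd : ∀ (l : List (List A)) (k : ℕ), (∀ X ∈ l, X ∈ XX) → l.flatten <+: x ++ rep k w →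
      l.flatten.length ≤ (x ++ rep n w).length := by
    intro l k hl hk
    by_contra hlt
    apply hno
    refine ⟨k, l, hl, ?_, hk⟩
    have h1 : l.flatten <+: x ++ rep (max n k) w :=
      hk.trans ((List.prefix_append_right_inj x).2 (rep_prefix (le_max_right n k) w))
    have h2 : x ++ rep n w <+: x ++ rep (max n k) w :=
      (List.prefix_append_right_inj x).2 (rep_prefix (le_max_left n k) w)
    exact List.prefix_of_prefix_length_le h2 h1 (by omega)
  let P : ℕ → Prop := fun m => ∃ (l : List (List A)) (k : ℕ), (∀ X ∈ l, X ∈ XX) ∧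
    l.flatten <+: x ++ rep k w ∧ l.flatten.length = m
  have hP0 : P 0 := ⟨[], 0, by simp, by simp, rfl⟩
  have hspec := Nat.findGreatest_spec (P := P) (Nat.zero_le (x ++ rep n w).length) hP0
  obtain ⟨l, k, hl, hk, hm⟩ := hspec
  have hlen := hbd l k hl hk
  have h1 : l.flatten <+: x ++ rep (max n k) w :=
    hk.trans ((List.prefix_append_right_inj x).2 (rep_prefix (le_max_right n k) w))
  have h2 : x ++ rep n w <+: x ++ rep (max n k) w :=
    (List.prefix_append_right_inj x).2 (rep_prefix (le_max_left n k) w)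
  obtain ⟨r, hr⟩ := List.prefix_of_prefix_length_le h1 h2 hlen
  apply hS
  refine wf r w ?_
  intro k' X hX hpre
  have h3 : (l ++ [X]).flatten <+: x ++ rep (n + k') w := by
    rw [rep_add, ← List.append_assoc, ← hr, List.append_assoc, List.flatten_append]
    refine (List.prefix_append_right_inj _).2 ?_
    simpa using hpre
  have hl' : ∀ Y ∈ l ++ [X], Y ∈ XX := by
    intro Y hY
    rw [List.mem_append, List.mem_singleton] at hY
    rcases hY with hY | rfl
    · exact hl Y hY
    · exact hX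
  have h4 := hbd _ _ hl' h3
  have hXpos : 0 < X.length := by
    rcases Nat.eq_zero_or_pos X.length with h | h
    · exact absurd (List.length_eq_zero_iff.1 h ▸ hX) ne
    · exact h
  have h5 : (l ++ [X]).flatten.length = l.flatten.length + X.length := by simp
  have h6 := Nat.findGreatest_is_greatest (P := P) (n := (x ++ rep n w).length)
    (k := (l ++ [X]).flatten.length) (by rw [← hm, h5]; omega) h4
  exact h6 ⟨l ++ [X], n + k', hl', h3, rfl⟩

theorem main_step {A V : Type u} [Finite V] [Nonempty V] (hSep : SepLang A)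
    (hShort : ShortSep A) {h W : ℕ} {XX X0 Bd : Language A} {T : V → List A → V}
    {LP RQ : V → Language A}
    (pref : ∀ X ∈ XX, ∀ Y, X ++ Y ∈ XX → Y = []) (ne : [] ∉ XX)
    (wf : ∀ r w : List A, (∀ k, ∀ X ∈ XX, ¬ X <+: r ++ rep k w) → Short W w)
    (blk : ∀ v v', ∀ P ∈ LP v, ∀ Q ∈ RQ v', P ++ Q ∈ XX)
    (snd : ∀ v v', ∀ P ∈ LP v, ∀ Q ∈ RQ v', P ++ Q ∈ X0 → T v (P ++ Q) = v')
    (cpl : ∀ X ∈ X0, X ∉ Bd → ∀ v, ∃ P Q v', X = P ++ Q ∧ P ∈ LP v ∧ Q ∈ RQ v')
    (hBd : ∀ X ∈ Bd, X ∈ XX)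
    (hB : ∀ v v', HL h (thread Bd T v v')) (hLP : ∀ v, HL h (LP v)) (hRQ : ∀ v, HL h (RQ v))
    (L : Language A) (hL : L.IsRegular)
    (hall : ∀ x w y : List A, (∀ n, ∃ k, n ≤ k ∧ x ++ rep k w ++ y ∈ L) →
      ∀ l : List (List A), (∀ X ∈ l, X ∈ XX) → ∀ k, l.flatten <+: x ++ rep k w →
      ∀ X ∈ l, X ∈ X0)
    (hind : ∀ l l' : List (List A), (∀ X ∈ l, X ∈ X0) → (∀ X ∈ l', X ∈ X0) →
      (∀ t, run T t l = run T t l') → ∀ z, l.flatten ++ z ∈ L → l'.flatten ++ z ∈ L) :
    HL (h + 1) L := by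
  obtain ⟨F0, hF0, hF1, hs⟩ := hShort W L hL
  refine hSep (h + 1) (F0 ∪ Set.range (fun p : V × V => DD (thread Bd T) LP RQ p.1 p.2))
    (hF0.union (Set.finite_range _)) ?_ L hL ?_
  · rintro X (hX | ⟨p, rfl⟩)
    · exact (hF1 X hX).mono (by omega)
    · exact DD_HL hB hLP hRQ _ _
  intro x w y ho
  by_cases hS : Short W w
  · exact (hs x w y hS ho).mono Set.subset_union_left
  by_contra hno
  obtain ⟨K, l, hl, h1, h2⟩ := many_blocks ne wf x w hS 1
  have hX0 := hall x w y ho.inf
  have hl0 : ∀ X ∈ l, X ∈ X0 := hX0 l hl K h2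
  obtain ⟨y', hy'⟩ := h1
  have h3 : rep 1 w ++ y' <+: rep K w := by
    rw [← hy', List.append_assoc] at h2
    exact (List.prefix_append_right_inj x).1 h2
  have key : ∀ k, ∃ lk : List (List A), x ++ rep (k + 1) w ++ y' = lk.flatten ∧
      (∀ X ∈ lk, X ∈ X0) ∧ ∀ t, run T t lk = run T t l := by
    intro k
    have hpre : x ++ rep (k + 1) w ++ y' <+: x ++ rep (k + K) w := by
      rw [rep_add k 1, rep_add k K, List.append_assoc, List.append_assoc]
      exact (List.prefix_append_right_inj x).2 ((List.prefix_append_right_inj _).2 h3)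
    have hk : ∀ t : V, ∃ lk : List (List A), x ++ rep (k + 1) w ++ y' = lk.flatten ∧
        (∀ X ∈ lk, X ∈ XX) ∧ (∀ X ∈ lk, X ∈ X0) ∧ run T t lk = run T t l := by
      intro t
      have hin : x ++ rep 1 w ++ y' ∈ DD (thread Bd T) LP RQ t (run T t l) := by
        rw [hy']
        exact DD_complete snd cpl l hl0 t
      have hin2 : x ++ rep (k + 1) w ++ y' ∈ DD (thread Bd T) LP RQ t (run T t l) := by
        by_contra hn
        exact hno ⟨_, Or.inr ⟨(t, run T t l), rfl⟩, x, y', 1, k + 1, one_pos, Nat.succ_pos k,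
          hin, hn⟩
      obtain ⟨lt, e, hlt, hr⟩ := DD_sound blk snd hBd hin2
      have hlt0 : ∀ X ∈ lt, X ∈ X0 := hX0 lt hlt (k + K) (e ▸ hpre)
      exact ⟨lt, e, hlt, hlt0, hr hlt0⟩
    obtain ⟨t0⟩ := ‹Nonempty V›
    obtain ⟨lk, e, hlk, hlk0, _⟩ := hk t0
    refine ⟨lk, e, hlk0, ?_⟩
    intro t
    obtain ⟨lt, e', hlt, _, hr⟩ := hk t
    obtain ⟨m, h4, h5⟩ := parse_le pref ne (t := []) hlk hlt (by rw [List.append_nil, ← e, e'])
    have hm : m = [] := flatten_nil_of ne (fun X hX => hlt X (by rw [h4]; simp [hX])) h5.symm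
    subst hm
    rw [List.append_nil] at h4
    rw [← h4]
    exact hr
  obtain ⟨z, hz⟩ := h3
  have hrew : ∀ k, x ++ rep (k + K) w ++ y = (x ++ rep (k + 1) w ++ y') ++ (z ++ y) := by
    intro k
    rw [rep_add k K, ← hz, rep_add k 1]
    simp
  obtain ⟨k1, k2, hk1, hk2, hin, hnin⟩ := ho K
  obtain ⟨a1, rfl⟩ := Nat.exists_eq_add_of_le' hk1
  obtain ⟨a2, rfl⟩ := Nat.exists_eq_add_of_le' hk2
  rw [hrew] at hin hnin
  obtain ⟨l1, e1, hl1, hr1⟩ := key a1
  obtain ⟨l2, e2, hl2, hr2⟩ := key a2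
  rw [e1] at hin
  rw [e2] at hnin
  exact hnin (hind l1 l2 hl1 hl2 (fun t => by rw [hr1, hr2]) _ hin)

/-! ### the two-scheme structure -/

/-- (REGB) -/
def RegThread (A : Type u) : Prop := ∀ (V : Type u) [Finite V] (T : V → List A → V)
  (B : Language A), [] ∉ B → (∀ X ∈ B, ∀ Y, X ++ Y ∈ B → Y = []) →
  (∀ v v', (fib B T v v').IsRegular) → ∀ v v', (thread B T v v').IsRegular

/-- THE DATA of 132's two schemes on ALL words, block form (left-looking walls). -/
structure Core (A S : Type u) [Monoid S] (φ : A → S) where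
  XX : Language A
  pref : ∀ X ∈ XX, ∀ Y, X ++ Y ∈ XX → Y = []
  ne : [] ∉ XX
  W : ℕ
  /-- a periodic text without further block has a short period -/
  wf : ∀ r w : List A, (∀ k, ∀ X ∈ XX, ¬ X <+: r ++ rep k w) → Short W w
  V1 : Type u
  fin1 : Finite V1
  ne1 : Nonempty V1
  T1 : V1 → List A → V1
  faith1 : ∀ l l' : List (List A), (∀ X ∈ l, X ∈ XX) → (∀ X ∈ l', X ∈ XX) →
    (∀ v, run T1 v l = run T1 v l') → ev φ l.flatten = ev φ l'.flatten
  LP1 : V1 → Language A
  RQ1 : V1 → Language A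
  Bad : Language A
  bad_sub : ∀ X ∈ Bad, X ∈ XX
  blk1 : ∀ v v', ∀ P ∈ LP1 v, ∀ Q ∈ RQ1 v', P ++ Q ∈ XX
  snd1 : ∀ v v', ∀ P ∈ LP1 v, ∀ Q ∈ RQ1 v', T1 v (P ++ Q) = v'
  cpl1 : ∀ X ∈ XX, X ∉ Bad → ∀ v, ∃ P Q v', X = P ++ Q ∧ P ∈ LP1 v ∧ Q ∈ RQ1 v'
  V2 : Type u
  fin2 : Finite V2
  ne2 : Nonempty V2
  T2 : V2 → List A → V2
  faith2 : ∀ l l' : List (List A), (∀ X ∈ l, X ∈ Bad) → (∀ X ∈ l', X ∈ Bad) →
    (∀ t, run T2 t l = run T2 t l') → ∀ v, run T1 v l = run T1 v l'
  LP2 : V2 → Language A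
  RQ2 : V2 → Language A
  blk2 : ∀ v v', ∀ P ∈ LP2 v, ∀ Q ∈ RQ2 v', P ++ Q ∈ XX
  snd2 : ∀ v v', ∀ P ∈ LP2 v, ∀ Q ∈ RQ2 v', P ++ Q ∈ Bad → T2 v (P ++ Q) = v'
  cpl2 : ∀ X ∈ Bad, ∀ v, ∃ P Q v', X = P ++ Q ∧ P ∈ LP2 v ∧ Q ∈ RQ2 v'
  regL1 : ∀ v, (LP1 v).IsRegular
  regR1 : ∀ v, (RQ1 v).IsRegular
  regL2 : ∀ v, (LP2 v).IsRegular
  regR2 : ∀ v, (RQ2 v).IsRegular
  regB : ∀ v v', (fib Bad T1 v v').IsRegular
  thinL1 : ∀ v, Thin W (LP1 v)
  thinR1 : ∀ v, Thin W (RQ1 v)
  thinL2 : ∀ v, Thin W (LP2 v)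
  thinR2 : ∀ v, Thin W (RQ2 v)

theorem ev_regular {A S : Type u} [Monoid S] [Finite S] (φ : A → S) (s : S) :
    Language.IsRegular ({w | ev φ w = s} : Language A) := by
  haveI := Fintype.ofFinite S
  let M : DFA A S := { step := fun t a => t * φ a, start := 1, accept := {s} }
  have hM : ∀ (w : List A) (t : S), M.evalFrom t w = t * ev φ w := by
    intro w
    induction w with
    | nil => intro t; simp [DFA.evalFrom]
    | cons a w ih =>
      intro t
      show M.evalFrom (t * φ a) w = _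
      rw [ih, Straub_932.ev_cons, mul_assoc]
  refine Language.isRegular_iff.{u, u}.2 ⟨S, inferInstance, M, ?_⟩
  ext w
  show M.evalFrom 1 w = s ↔ ev φ w = s
  rw [hM, one_mul]

/-- (CORE): everything follows from the data of the two schemes. -/
theorem core {A S : Type u} [Finite A] [Monoid S] [Finite S] (hSep : SepLang A)
    (hShort : ShortSep A) (hReg : RegThread A) (φ : A → S) (K : Core A S φ) (s : S) :
    HL 3 ({w | ev φ w = s} : Language A) := by
  haveI := K.fin1
  haveI := K.fin2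
  haveI := K.ne1
  haveI := K.ne2
  -- inner step
  have inner : ∀ v v', HL 2 (thread K.Bad K.T1 v v') := by
    intro v v'
    refine main_step (h := 1) (T := K.T2) (X0 := K.Bad) (Bd := (0 : Language A)) (LP := K.LP2)
      (RQ := K.RQ2) hSep hShort K.pref K.ne K.wf K.blk2 K.snd2
      (fun X hX _ v => K.cpl2 X hX v) (fun X hX => absurd hX (Language.notMem_zero X)) ?_
      (fun v => thin_HL hSep hShort (K.regL2 v) (K.thinL2 v))
      (fun v => thin_HL hSep hShort (K.regR2 v) (K.thinR2 v)) _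
      (hReg K.V1 K.T1 K.Bad (fun h => K.ne (K.bad_sub _ h))
        (fun X hX Y hY => K.pref X (K.bad_sub _ hX) Y (K.bad_sub _ hY)) K.regB v v') ?_ ?_
    · intro t t'
      by_cases htt : t = t'
      · refine (HL.one (k := 1)).congr ?_
        intro w
        constructor
        · rintro ⟨l, rfl, hl, _⟩
          cases l with
          | nil => exact (Language.mem_one _).2 rfl
          | cons X l => exact absurd (hl X List.mem_cons_self) (Language.notMem_zero X)
        · intro hw
          have hw : w = [] := (Language.mem_one w).1 hw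
          exact ⟨[], by rw [hw]; rfl, by simp, htt⟩
      · refine (HL.zero (k := 1)).congr ?_
        intro w
        constructor
        · rintro ⟨l, rfl, hl, hr⟩
          cases l with
          | nil => exact absurd hr htt
          | cons X l => exact absurd (hl X List.mem_cons_self) (Language.notMem_zero X)
        · intro hw; exact absurd hw (Language.notMem_zero w)
    · intro x w y hinf l hl k hk X hX
      obtain ⟨k', hk', l'', e, hl'', _⟩ := hinf k
      have h1 : l.flatten <+: l''.flatten := by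
        rw [← e]
        exact (hk.trans ((List.prefix_append_right_inj x).2 (rep_prefix hk' w))).trans
          (List.prefix_append _ _)
      obtain ⟨t, ht⟩ := h1
      obtain ⟨m, h2, _⟩ := parse_le K.pref K.ne hl (fun X hX => K.bad_sub X (hl'' X hX)) ht
      exact hl'' X (by rw [h2]; simp [hX])
    · intro l l' hl hl' hrun z hz
      obtain ⟨l'', e, hl'', hr⟩ := hz
      obtain ⟨m, h2, h3⟩ := parse_le K.pref K.ne (fun X hX => K.bad_sub X (hl X hX))
        (fun X hX => K.bad_sub X (hl'' X hX)) e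
      refine ⟨l' ++ m, by rw [h3]; simp, ?_, ?_⟩
      · intro X hX
        rw [List.mem_append] at hX
        rcases hX with hX | hX
        · exact hl' X hX
        · exact hl'' X (by rw [h2]; simp [hX])
      · rw [run_append, ← K.faith2 l l' hl hl' hrun, ← run_append, ← h2]
        exact hr
  -- top step
  refine main_step (h := 2) (T := K.T1) (X0 := K.XX) (Bd := K.Bad) (LP := K.LP1)
      (RQ := K.RQ1) hSep hShort K.pref K.ne K.wf K.blk1
      (fun v v' P hP Q hQ _ => K.snd1 v v' P hP Q hQ) K.cpl1 K.bad_sub inner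
      (fun v => (thin_HL hSep hShort (K.regL1 v) (K.thinL1 v)).mono (by omega))
      (fun v => (thin_HL hSep hShort (K.regR1 v) (K.thinR1 v)).mono (by omega)) _
      (ev_regular φ s) ?_ ?_
  · intro x w y _ l hl k _ X hX
    exact hl X hX
  · intro l l' hl hl' hrun z hz
    have h1 := K.faith1 l l' hl hl' hrun
    have hz : ev φ (l.flatten ++ z) = s := hz
    show ev φ (l'.flatten ++ z) = s
    rw [Straub_932.ev_append] at hz ⊢
    rw [← h1]
    exact hz

end Crest.Agent.R320.Core3_932
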