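import Crest.Agent.R320.Core3_671

/-!
# Row 320: scheme 2 (exact promise ruler) from `Prm` (helper671)
-/

set_option autoImplicit false

namespace Crest.Agent.R320.Core_671

open Crest.Agent.R320.ThrChain260 Crest.Agent.R320.Zone132_898 Crest.Agent.R320.Ruler2_537

variable {α S V W : Type}

namespace Prm

variable [Monoid S] [AddCommGroup V] [AddCommGroup W] (p : Prm α S V W)

variable {G : List α → Prop}

/-- badness of an anchor `a` of a text -/
def BadA (T : List α) (a : ℤ) : Prop :=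
  Bad p.P (Wz p.ro T) (Wz p.D.r T) (fun k => (p.p0 : ℤ) + p.D.A k) (p.D.q * p.D.M : ℕ) (p.D.m + 1)
    p.mods p.nm a

theorem BadZ_eq (o : ℕ) (Q : List α) : p.BadZ o Q = p.BadA Q (-(o : ℤ)) := rfl

theorem bad_app (u Q : List α) {a : ℤ} (ha : (u.length : ℤ) ≤ a + p.p0) :
    p.BadA (u ++ Q) a ↔ p.BadA Q (a - u.length) := by
  have hp0 := p.hp0
  have hz' := p.hz'
  have hSn := p.S_nonneg
  have hNn := p.P.hN
  unfold BadA Bad
  refine or_congr ?_ (or_congr ?_ ?_)
  · unfold E
    constructor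
    · rintro ⟨t, h1, h2⟩
      have h3 := p.P.hs ((t - a - p.P.z) % p.P.M)
      refine ⟨t - u.length, (Wz_app' _ _ _ ?_).1 h1, ?_⟩
      · rw [abs_le] at h2 h3
        omega
      · have e : t - u.length - (a - u.length) - p.P.z = t - a - p.P.z := by ring
        rw [e]; exact h2
    · rintro ⟨t, h1, h2⟩
      have h3 := h1.nn
      refine ⟨t + u.length, (Wz_app _ _ _ h3).2 h1, ?_⟩
      have e : t + u.length - a - p.P.z = t - (a - u.length) - p.P.z := by ring
      rw [e]; exact h2
  · have key : ∀ k, k < p.D.m + 1 →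
        (DBad (Wz p.D.r (u ++ Q)) (fun k => (p.p0 : ℤ) + p.D.A k) (p.D.q * p.D.M : ℕ) k a ↔
        DBad (Wz p.D.r Q) (fun k => (p.p0 : ℤ) + p.D.A k) (p.D.q * p.D.M : ℕ) k
          (a - u.length)) := by
      intro k hk
      have hA := p.hA k (by omega)
      have hA' : ((p.D.q * p.D.M : ℕ) : ℤ) ≤ p.D.A k := by exact_mod_cast hA
      unfold DBad
      constructor
      · rintro ⟨t, h1, h2⟩
        refine ⟨t - u.length, (Wz_app' _ _ _ ?_).1 h1, ?_⟩
        · rw [abs_le] at h2
          simp only at h2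
          linarith [h2.1]
        · have e : t - u.length - (a - u.length) = t - a := by ring
          rw [e]; exact h2
      · rintro ⟨t, h1, h2⟩
        have h3 := h1.nn
        refine ⟨t + u.length, (Wz_app _ _ _ h3).2 h1, ?_⟩
        have e : t + u.length - a = t - (a - u.length) := by ring
        rw [e]; exact h2
    constructor
    · rintro ⟨k, hk, h⟩; exact ⟨k, hk, (key k hk).1 h⟩
    · rintro ⟨k, hk, h⟩; exact ⟨k, hk, (key k hk).2 h⟩
  · have key : ∀ i, BBad p.P (Wz p.ro (u ++ Q)) p.mods i a ↔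
        BBad p.P (Wz p.ro Q) p.mods i (a - u.length) := by
      intro i
      unfold BBad
      constructor
      · rintro ⟨b, h1, h2⟩
        refine ⟨b - u.length, (isN_app p.ro u Q (by omega)).1 h1, ?_⟩
        have e : b - u.length - (a - u.length) - p.P.p0 = b - a - p.P.p0 := by ring
        rw [e]; exact h2
      · rintro ⟨b, h1, h2⟩
        refine ⟨b + u.length, (isN_app p.ro u Q (by omega)).2 ?_, ?_⟩
        · rwa [add_sub_cancel_right]
        · have e : b + u.length - a - p.P.p0 = b - (a - u.length) - p.P.p0 := by ring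
          rw [e]; exact h2
    constructor
    · rintro ⟨k, hk, h⟩; exact ⟨k, hk, (key k).1 h⟩
    · rintro ⟨k, hk, h⟩; exact ⟨k, hk, (key k).2 h⟩

theorem bad_of_take {T : List α} {k : ℕ} {a : ℤ} (h : p.BadA (T.take k) a) : p.BadA T a := by
  unfold BadA Bad at h ⊢
  rcases h with ⟨t, h1, h2⟩ | ⟨k, hk, t, h1, h2⟩ | ⟨i, hi, b, h1, h2⟩
  · exact Or.inl ⟨t, Wz_of_take h1, h2⟩
  · exact Or.inr (Or.inl ⟨k, hk, t, Wz_of_take h1, h2⟩)
  · exact Or.inr (Or.inr ⟨i, hi, b, isN_of_take h1, h2⟩)

/-- **(s2)** -/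
theorem s2 (hO : ∀ T, G T → ∀ i, i + p.Go + p.ro.n ≤ T.length →
    ∃ t, i ≤ t ∧ t < i + p.Go ∧ p.ro.R (T.drop t)) {u Q : List α} {v b : V} {d : ℕ}
    (hG : G (u ++ Q)) (hlen : p.B ≤ (u ++ Q).length) (hBad : p.BadZ 0 ((u ++ Q).take p.B))
    (hL : p.L2 u v) (hR : p.R2 Q = some (d, b)) :
    p.N ((u ++ Q).take p.B) = u.length + d ∧ p.A v ((u ++ Q).take p.B) = b := by
  have hp0 := p.hp0
  have hz' := p.hz'
  have hB := p.hB
  have hSn := p.S_nonneg
  have hNn := p.P.hN
  obtain ⟨k0, hk0, hul, hlam⟩ := hL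
  obtain ⟨k, hk, hG1, hd, b', hrho, hb⟩ := p.R2_some hR
  have hck0 := p.hcp k0 hk0
  have hT : (u ++ Q).take p.B = u ++ Q.take (p.B - u.length) := by
    rw [List.take_append, List.take_of_length_le (by omega)]
  have h1 : p.BadZ (p.c k0) (Q.take (p.B - p.c k0)) := by
    rw [BadZ_eq, hT] at hBad
    have h2 := (p.bad_app u (Q.take (p.B - u.length)) (a := -((0 : ℕ) : ℤ)) (by omega)).1 hBad
    rw [BadZ_eq, ← hul]
    have e : -((0 : ℕ) : ℤ) - u.length = -(u.length : ℤ) := by simp
    rw [e] at h2; exact h2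
  have hkk : k0 = k := (hG1 k0 hk0).1 h1
  subst hkk
  obtain ⟨t, ht, ht1, ht2⟩ := p.ex_isN hO hG hlen
  have h8 : IsN p.P (Wz p.ro ((u ++ Q).take p.B)) 0 t := (isN_take (by omega)).2 ht
  have h9 := p.N_eq h8
  have h10 : IsN p.P (Wz p.ro (Q.take (p.B - p.c k0))) (-(p.c k0 : ℤ)) (t - u.length) := by
    rw [hT] at h8
    have h11 := (isN_app p.ro u (Q.take (p.B - u.length)) (by omega)).1 h8
    rw [hul] at h11 ⊢
    simpa using h11
  have h11 := p.NN_eq h10
  rw [← hd] at h11
  have h12 : p.N ((u ++ Q).take p.B) = u.length + d := by omega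
  refine ⟨h12, ?_⟩
  have hlen' : p.B ≤ u.length + Q.length := by rwa [List.length_append] at hlen
  have hpd : p.p0 - p.c k0 ≤ d := by omega
  set X : List α := u ++ Q.take (p.p0 - p.c k0) with hX
  have hXl : X.length = p.p0 := by
    rw [hX, List.length_append, List.length_take]; omega
  have e1 : ((u ++ Q).take p.B).take p.p0 = X := by
    rw [List.take_take, min_eq_left (by omega), List.take_append,
      List.take_of_length_le (by omega), hul]
  have e2 : ((u ++ Q).take p.B).take (p.N ((u ++ Q).take p.B)) =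
      X ++ (Q.take d).drop (p.p0 - p.c k0) := by
    rw [h12, List.take_take, min_eq_left (by omega), take_app, hX, List.append_assoc]
    congr 1
    have h13 : Q.take (p.p0 - p.c k0) = (Q.take d).take (p.p0 - p.c k0) := by
      rw [List.take_take, min_eq_left hpd]
    rw [h13, List.take_append_drop]
  rw [p.A_eq v e1 e2 hXl, hb]
  have h14 := p.exact2 k0 hk0 u (Q.take (p.p0 - p.c k0)) 1 v b' hul hlam hrho
  rw [h14, p.hphi X, mul_one]

/-- **(c2)** -/
theorem c2 (hO : ∀ T, G T → ∀ i, i + p.Go + p.ro.n ≤ T.length →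
    ∃ t, i ≤ t ∧ t < i + p.Go ∧ p.ro.R (T.drop t)) {T : List α} (hG : G T) {D2 : ℕ}
    (hD2 : p.B ≤ D2) (hlen : p.B ≤ T.length) (hBad : p.BadZ 0 (T.take p.B)) (v : V) :
    ∃ i, i ≤ p.p0 ∧ p.L2 (T.take i) v ∧ (p.R2 ((T.drop i).take D2)).isSome := by
  classical
  have hp0 := p.hp0
  have hz' := p.hz'
  have hB := p.hB
  have hSn := p.S_nonneg
  have hNn := p.P.hN
  have hpB : p.p0 ≤ p.B := by omega
  have hXl : (T.take p.p0).length = p.p0 := by rw [List.length_take]; omega
  obtain ⟨I, hI, hI2⟩ := p.compl2 (T.take p.p0) 1 v (fun k hk => by rw [hXl]; exact p.hcp k hk)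
  set C : Finset ℤ := (Finset.range p.K).image fun k => (p.c k : ℤ) with hC
  have hsp := card_spoiled (Wl := Wz p.ro T) (Ws := Wz p.D.r T)
    (A := fun k => (p.p0 : ℤ) + p.D.A k) (K := p.D.m + 1) p.ruler (p.gap T) (p.gapS T) 0
  have hinj : ∀ i < p.K, ∀ j < p.K, p.c i = p.c j → i = j := by
    intro i hi j hj h
    rcases lt_trichotomy i j with h1 | h1 | h1
    · have := p.hc i j h1 hj; omega
    · exact h1
    · have := p.hc j i h1 hi; omega
  have hex : ∃ k ∈ I, ¬ ∃ c' ∈ C, c' ≠ (p.c k : ℤ) ∧ p.BadA T (0 + ((p.c k : ℤ) - c')) := by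
    by_contra hno
    push Not at hno
    have h1 : I.card ≤ (C.filter fun c => ∃ c' ∈ C, c' ≠ c ∧
        p.BadA T (0 + (c - c'))).card := by
      apply Finset.card_le_card_of_injOn (fun k => (p.c k : ℤ))
      · intro k hk
        have hk' : k ∈ I := hk
        rw [Finset.mem_coe, Finset.mem_filter]
        refine ⟨?_, hno k hk'⟩
        rw [hC]
        exact Finset.mem_image_of_mem _ (Finset.mem_range.2 (hI2 k hk').1)
      · intro i hi j hj h
        have h' : (p.c i : ℤ) = p.c j := h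
        exact hinj i (hI2 i hi).1 j (hI2 j hj).1 (by exact_mod_cast h')
    have h2 : (C.filter fun c => ∃ c' ∈ C, c' ≠ c ∧
        p.BadA T (0 + (c - c'))).card ≤ 1 + (p.D.m + 1) + 2 * p.nm := by
      refine le_trans (le_of_eq ?_) hsp
      congr 1
    omega
  obtain ⟨k, hkI, hns⟩ := hex
  obtain ⟨hk, hlam, hrho⟩ := hI2 k hkI
  have hck := p.hcp k hk
  have hTk : (T.take (p.c k)).length = p.c k := by rw [List.length_take]; omega
  refine ⟨p.c k, hck, ⟨k, hk, hTk, ?_⟩, ?_⟩
  · rw [List.take_take, min_eq_left hck] at hlam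
    exact hlam
  obtain ⟨b', hb'⟩ := Option.isSome_iff_exists.1 hrho
  apply p.R2_isSome (d := p.NN (p.c k) (((T.drop (p.c k)).take D2).take (p.B - p.c k)))
    (b := _)
  refine ⟨k, hk, ?_, rfl, b', ?_, rfl⟩
  · intro k' hk'
    have hck' := p.hcp k' hk'
    rw [List.take_take, min_eq_left (by omega), BadZ_eq]
    have hsplit : T.take (p.c k + (p.B - p.c k')) =
        T.take (p.c k) ++ (T.drop (p.c k)).take (p.B - p.c k') := by rw [List.take_add]
    have happ := p.bad_app (T.take (p.c k)) ((T.drop (p.c k)).take (p.B - p.c k'))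
      (a := (p.c k : ℤ) - p.c k') (by rw [hTk]; omega)
    rw [hTk, ← hsplit] at happ
    have e : (p.c k : ℤ) - p.c k' - (p.c k : ℕ) = -(p.c k' : ℤ) := by ring
    rw [e] at happ
    constructor
    · intro h
      by_contra hne
      apply hns
      refine ⟨(p.c k' : ℤ), ?_, ?_, ?_⟩
      · rw [hC]
        exact Finset.mem_image_of_mem _ (Finset.mem_range.2 hk')
      · intro h'
        exact hne (hinj k' hk' k hk (by exact_mod_cast h'))
      · rw [zero_add]
        exact p.bad_of_take (happ.2 h)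
    · rintro rfl
      apply happ.1
      rw [BadZ_eq] at hBad
      have e2 : p.c k' + (p.B - p.c k') = p.B := by omega
      rw [e2, sub_self]
      simpa using hBad
  · rw [List.take_take, min_eq_left (by omega)]
    rw [List.drop_take] at hb'
    exact hb'

end Prm

end Crest.Agent.R320.Core_671
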