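import Mathlib

/-!
# Row 320, BOX CORE, CORE-4 (helper182): the promise scheme (scheme 2) in block form

One block `X = U ++ Z`, `|U| = p0`; `Z = [a + p0, N⁺(a))`, and `Y = [a + p0, N(a))` is a prefix
of `Z`.  `BB` = the bad words `Y`.  The right word `Q` starts at the cut place `x = a + c`; the
candidate `c'` (anchor `x - c'`) is seen bad by `Q` when some `Y ∈ BB` is a prefix of
`Q.drop (p0 - c')`.
-/

set_option autoImplicit false

namespace Crest.Agent.R320.Core4_182

variable {α V : Type*}

/-- data of the promise scheme -/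
structure PData (α V : Type*) where
  p0 : ℕ
  C : ℕ → Prop
  ZZ : Set (List α)
  BB : Set (List α)
  TZ : V → List α → V
  pre : V → List α → V
  lam : List α → Option V
  rho : List α → Option V

/-- the candidate `c` is seen to be bad in the right word `Q` -/
def PData.Cand (D : PData α V) (Q : List α) (c : ℕ) : Prop :=
  D.C c ∧ ∃ Y ∈ D.BB, Y <+: Q.drop (D.p0 - c)

/-- left words -/
def PData.LL (D : PData α V) (v : V) (P : List α) : Prop :=
  D.C P.length ∧ D.lam P = some v

/-- right words -/
def PData.RR (D : PData α V) (v' : V) (Q : List α) : Prop :=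
  ∃ c, D.Cand Q c ∧ (∀ c', D.Cand Q c' → c' = c) ∧ Q.drop (D.p0 - c) ∈ D.ZZ ∧
    ∃ b, D.rho (Q.take (D.p0 - c)) = some b ∧ v' = D.TZ b (Q.drop (D.p0 - c))

/-- the bad blocks -/
def PData.XB (D : PData α V) (X : List α) : Prop :=
  D.p0 ≤ X.length ∧ X.drop D.p0 ∈ D.ZZ ∧ ∃ Y ∈ D.BB, Y <+: X.drop D.p0

/-- the zone map -/
def PData.T (D : PData α V) (v : V) (X : List α) : V :=
  D.TZ (D.pre v (X.take D.p0)) (X.drop D.p0)

structure PHyp (D : PData α V) : Prop where
  le : ∀ c, D.C c → c ≤ D.p0
  zne : [] ∉ D.ZZ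
  snd : ∀ p q v b, p.length + q.length = D.p0 → D.lam p = some v → D.rho q = some b →
    b = D.pre v (p ++ q)
  pc : ∀ Z ∈ D.ZZ, ∀ Z' ∈ D.ZZ, Z <+: Z' → Z = Z'
  vis : ∀ (W : List α) (c c' : ℕ), D.C c → D.C c' → ∀ Z ∈ D.ZZ, ∀ Y ∈ D.BB,
    Z <+: W.drop (D.p0 - c') → Y <+: W.drop (D.p0 - c) →
    D.p0 - c + Y.length ≤ D.p0 - c' + Z.length

theorem prefix_of_drop {Y W Q : List α} {k : ℕ} (hY : Y <+: W.drop k) (hQ : Q <+: W)
    (hl : k + Y.length ≤ Q.length) : Y <+: Q.drop k := by
  obtain ⟨t, rfl⟩ := hQ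
  rw [List.drop_append_of_le_length (by omega)] at hY
  exact List.prefix_of_prefix_length_le hY (List.prefix_append _ _)
    (by rw [List.length_drop]; omega)

/-- soundness of the promise scheme: on a bad block a left word and a right word meet only at the
end of the true block, with the true value. -/
theorem promise_sound {D : PData α V} (h : PHyp D) {P R t Q : List α} {v v' : V}
    (hP : D.LL v P) (hX : D.XB (P ++ R)) (hQ : Q <+: R ++ t) (hR : D.RR v' Q) :
    Q = R ∧ v' = D.T v (P ++ R) := by
  obtain ⟨hc, hlam⟩ := hP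
  obtain ⟨hX1, hX2, Y, hY, hYX⟩ := hX
  obtain ⟨c', hcand, huniq, hZ, b, hrho, hv'⟩ := hR
  set c := P.length with hcdef
  have hcp := h.le c hc
  have hc'p := h.le c' hcand.1
  have hdrop : (P ++ R).drop D.p0 = R.drop (D.p0 - c) := by
    rw [List.drop_append, List.drop_of_length_le (by omega), List.nil_append]
  rw [hdrop] at hX2 hYX
  have hRl : D.p0 - c ≤ R.length := by
    rw [List.length_append] at hX1; omega
  -- everything inside `W = R ++ t`
  have hRW : R.drop (D.p0 - c) <+: (R ++ t).drop (D.p0 - c) := by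
    rw [List.drop_append_of_le_length hRl]; exact List.prefix_append _ _
  have hZne : (Q.drop (D.p0 - c')).length ≠ 0 := by
    intro h0
    exact h.zne ((List.length_eq_zero_iff.1 h0) ▸ hZ)
  have hQl : D.p0 - c' ≤ Q.length := by
    rw [List.length_drop] at hZne; omega
  have hQW : Q.drop (D.p0 - c') <+: (R ++ t).drop (D.p0 - c') := by
    obtain ⟨s, hs⟩ := hQ
    rw [← hs, List.drop_append_of_le_length hQl]; exact List.prefix_append _ _
  have hvis := h.vis (R ++ t) c c' hc hcand.1 _ hZ Y hY hQW (hYX.trans hRW)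
  have hlen : D.p0 - c' + (Q.drop (D.p0 - c')).length = Q.length := by
    rw [List.length_drop]; omega
  have hYQ : Y <+: Q.drop (D.p0 - c) :=
    prefix_of_drop (hYX.trans hRW) hQ (by omega)
  have hcc : c = c' := huniq c ⟨hc, Y, hY, hYQ⟩
  subst hcc
  have hQR : Q.drop (D.p0 - c) = R.drop (D.p0 - c) := by
    rcases List.prefix_or_prefix_of_prefix hQW hRW with h1 | h1
    · exact h.pc _ hZ _ hX2 h1
    · exact (h.pc _ hX2 _ hZ h1).symm
  have hlenQR : Q.length = R.length := by
    have := congrArg List.length hQR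
    rw [List.length_drop, List.length_drop] at this
    omega
  have hQRe : Q = R := by
    have h1 := List.prefix_of_prefix_length_le hQ (List.prefix_append R t) hlenQR.le
    exact h1.eq_of_length hlenQR
  subst hQRe
  refine ⟨rfl, ?_⟩
  have hsnd := h.snd P (Q.take (D.p0 - c)) v b
    (by rw [List.length_take]; omega) hlam hrho
  have htk : (P ++ Q).take D.p0 = P ++ Q.take (D.p0 - c) := by
    rw [List.take_append, List.take_of_length_le (show P.length ≤ D.p0 by omega)]
  unfold PData.T
  rw [hdrop, hv', hsnd, htk]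

/-- completeness of the promise scheme: if some mark works for the exact gadget and is seen
uniquely, then the token is cut. -/
theorem promise_complete {D : PData α V} (h : PHyp D) {X : List α} (hX : D.XB X) (v : V)
    (hc : ∃ c, D.C c ∧ D.lam (X.take c) = some v ∧
      (D.rho ((X.take D.p0).drop c)).isSome = true ∧
      ∀ c', D.Cand (X.drop c) c' → c' = c) :
    ∃ P Q, X = P ++ Q ∧ D.LL v P ∧ D.RR (D.T v X) Q := by
  obtain ⟨c, hC, hl, hr, hu⟩ := hc
  obtain ⟨hX1, hX2, Y, hY, hYX⟩ := hX
  have hcp := h.le c hC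
  have hd : (X.drop c).drop (D.p0 - c) = X.drop D.p0 := by
    rw [List.drop_drop]; congr 1; omega
  obtain ⟨b, hb⟩ := Option.isSome_iff_exists.1 hr
  have ht : (X.take D.p0).drop c = (X.drop c).take (D.p0 - c) := by
    rw [List.drop_take]
  refine ⟨X.take c, X.drop c, (List.take_append_drop _ _).symm, ⟨?_, hl⟩, c, ?_, hu, ?_, b, ?_, ?_⟩
  · rw [List.length_take, min_eq_left (by omega)]; exact hC
  · refine ⟨hC, Y, hY, ?_⟩
    rw [hd]; exact hYX
  · rw [hd]; exact hX2
  · rw [← ht]; exact hb
  · have hsnd := h.snd (X.take c) ((X.drop c).take (D.p0 - c)) v b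
      (by rw [List.length_take, List.length_take, List.length_drop]; omega) hl (by rw [← ht]; exact hb)
    unfold PData.T
    rw [hd, hsnd]
    congr 2
    have : X.take D.p0 = X.take (c + (D.p0 - c)) := by congr 1; omega
    rw [this, List.take_add]

end Crest.Agent.R320.Core4_182
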