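import Crest.Agent.R320.Core1_202
import Crest.Agent.R320.Zone132_898

/-!
Row 320, CORE, part A (helper202): the zone `X ++ Y` and scheme 1 in the form of 131 #13123.
-/

set_option autoImplicit false

namespace Crest.Agent.R320.CoreA_202

open Crest.Agent.R320.Wall_291 Crest.Agent.R320.Core1_202 Crest.Agent.R320.Zone132_898

universe u

variable {α : Type u}

section NY

variable (Wo : List α → Prop) (thr : ℕ → ℕ) (M : ℕ)

open Classical in
/-- length of the first block of `Z` (1 if there is none) -/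
noncomputable def NY (Z : List α) : ℕ :=
  if h : ∃ t, t ≤ Z.length ∧ Z.take t ∈ XX Wo thr M then h.choose else 1

variable {Wo thr M}

theorem NY_eq {Z : List α} {t : ℕ} (ht : t ≤ Z.length) (h : Z.take t ∈ XX Wo thr M) :
    NY Wo thr M Z = t := by
  classical
  have hex : ∃ t, t ≤ Z.length ∧ Z.take t ∈ XX Wo thr M := ⟨t, ht, h⟩
  unfold NY
  rw [dif_pos hex]
  obtain ⟨h1, h2⟩ := hex.choose_spec
  have key : ∀ s s' : ℕ, s ≤ Z.length → s' ≤ Z.length → Z.take s ∈ XX Wo thr M →
      Z.take s' ∈ XX Wo thr M → s ≤ s' → s = s' := by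
    intro s s' hs hs' h3 h4 hle
    have h5 : Z.take s <+: Z.take s' := by
      rw [show Z.take s = (Z.take s').take s by rw [List.take_take, min_eq_left hle]]
      exact List.take_prefix _ _
    have h6 := prefix_code h3 h4 h5
    have h7 := congrArg List.length h6
    simp only [List.length_take, min_eq_left hs, min_eq_left hs'] at h7
    exact h7
  rcases le_total hex.choose t with h3 | h3
  · exact key _ _ h1 ht h2 h h3
  · exact (key _ _ ht h1 h h2 h3).symm

theorem NY_spec {Z : List α} (h : ∃ t, t ≤ Z.length ∧ Z.take t ∈ XX Wo thr M) :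
    NY Wo thr M Z ≤ Z.length ∧ Z.take (NY Wo thr M Z) ∈ XX Wo thr M := by
  obtain ⟨t, ht, h1⟩ := h
  rw [NY_eq ht h1]
  exact ⟨ht, h1⟩

theorem NY_none {Z : List α} (h : ¬ ∃ t, t ≤ Z.length ∧ Z.take t ∈ XX Wo thr M) :
    NY Wo thr M Z = 1 := by
  unfold NY
  rw [dif_neg h]

theorem NY_le {Z : List α} (hZ : 0 < Z.length) : NY Wo thr M Z ≤ Z.length := by
  by_cases h : ∃ t, t ≤ Z.length ∧ Z.take t ∈ XX Wo thr M
  · exact (NY_spec h).1
  · rw [NY_none h]; exact hZ

/-- the first block does not depend on the continuation -/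
theorem NY_take {Z : List α} {t l : ℕ} (ht : t ≤ Z.length) (h : Z.take t ∈ XX Wo thr M)
    (hl : t ≤ l) : NY Wo thr M (Z.take l) = t := by
  refine NY_eq ?_ ?_
  · rw [List.length_take]; omega
  · rw [List.take_take, min_eq_left hl]; exact h

end NY

section S1

variable {S V W : Type*} [Monoid S] [AddCommGroup V] [AddCommGroup W]
variable (D : Data α S V W) (Wo : List α → Prop) (thr : ℕ → ℕ) (p0 BY N1 no : ℕ)
  (nu2 : List α → V)

/-- left labels of scheme 1 -/
def L1 (u : List α) (v : V) : Prop :=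
  ∃ X P, u = X ++ P ∧ X.length = p0 ∧ D.LL P (D.act v (D.phi X) + nu2 X)

open Classical in
/-- right labels of scheme 1 -/
noncomputable def R1 (r : List α) : Option (ℕ × V) :=
  if h : ∃ x : ℕ × V, x.1 ≤ r.length ∧ r.take x.1 ∈ QQ Wo thr D.q no 0 N1 ∧
    D.RR (r.take x.1) x.2 then some h.choose else none

open Classical in
/-- distance to the next anchor -/
noncomputable def NN (y : List α) : ℕ :=
  if y.length = p0 + BY then p0 + NY Wo thr D.q (y.drop p0) else p0 + BY

/-- noise of both gadgets -/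
noncomputable def nuu (y : List α) : V :=
  D.act (nu2 (y.take p0)) (D.phi ((y.take (NN D Wo thr p0 BY y)).drop p0)) +
    D.nu ((y.take (NN D Wo thr p0 BY y)).drop p0)

variable {D Wo thr p0 BY N1 no nu2}

theorem R1_spec {r : List α} {d : ℕ} {b : V} (h : R1 D Wo thr N1 no r = some (d, b)) :
    d ≤ r.length ∧ r.take d ∈ QQ Wo thr D.q no 0 N1 ∧ D.RR (r.take d) b := by
  classical
  unfold R1 at h
  split_ifs at h with hex
  have h1 := hex.choose_spec
  have h2 := Option.some.inj h
  rw [h2] at h1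
  exact h1

theorem R1_isSome {r : List α} {d : ℕ} {b : V} (h1 : d ≤ r.length)
    (h2 : r.take d ∈ QQ Wo thr D.q no 0 N1) (h3 : D.RR (r.take d) b) :
    (R1 D Wo thr N1 no r).isSome := by
  classical
  unfold R1
  rw [dif_pos ⟨(d, b), h1, h2, h3⟩]
  rfl

variable {e W G T : ℕ}

/-- (SC1) -/
theorem sc1 (hadd : ∀ x y s, D.act (x + y) s = D.act x s + D.act y s)
    (hmul : ∀ x s t, D.act x (s * t) = D.act (D.act x s) t)
    (hN1 : D.N1) (hN2 : D.N2)
    (h1 : ∀ P Q, no ≤ Q.length → (Wo (P ++ Q) ↔ Wo Q))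
    (hz : ∀ r, N1 + no ≤ thr r) (hcell : ∀ i, i < D.m → D.q * (D.lo i + D.M) ≤ N1)
    (hT : ∀ r, thr r ≤ T)
    (h4 : ∀ P, RF e W P → G + no ≤ P.length → ∃ i < G, Wo (P.take (P.length - i)))
    (hBY : T + G + no ≤ BY)
    {u r : List α} {v b : V} {d : ℕ} (hCl : RF e W (u ++ r)) (hr : p0 + BY ≤ r.length)
    (hL : L1 D p0 nu2 u v) (hR : R1 D Wo thr N1 no r = some (d, b)) :
    NN D Wo thr p0 BY ((u ++ r).take (p0 + BY)) = u.length + d ∧
      D.act v (D.phi (((u ++ r).take (p0 + BY)).take (NN D Wo thr p0 BY ((u ++ r).take (p0 + BY)))))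
        + nuu D Wo thr p0 BY nu2 ((u ++ r).take (p0 + BY)) = b := by
  obtain ⟨X, P, rfl, hX, hLL⟩ := hL
  obtain ⟨hd, hQ, hRR⟩ := R1_spec hR
  have hLL' := hLL
  obtain ⟨c, om, H, hP, hi, hlo, hhi, -⟩ := hLL'
  have hom : D.q * om ≤ N1 := le_trans (Nat.mul_le_mul_left _ (by omega)) (hcell c.i hi)
  have hPQ : P ++ r.take d ∈ XX Wo thr D.q :=
    junction (p0 := 0) (N1 := N1) h1 (by intro r; have := hz r; omega) (om := om)
      (by rw [hP]; omega) hom hQ
  have hRFPQ : RF e W (P ++ r.take d) := by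
    refine hCl.infix ⟨X, r.drop d, ?_⟩
    simp [List.append_assoc]
  have hlen : (P ++ r.take d).length ≤ BY := le_trans (block_bound hT h4 hRFPQ hPQ) hBY
  rw [List.length_append, List.length_take, min_eq_left hd] at hlen
  set y := (X ++ P ++ r).take (p0 + BY) with hy
  have hylen : y.length = p0 + BY := by
    rw [hy, List.length_take, List.length_append, List.length_append]; omega
  have hyd : y.drop p0 = (P ++ r).take BY := by
    rw [hy, List.drop_take, List.append_assoc, ← hX, List.drop_left]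
    congr 1; omega
  have hyt : y.take p0 = X := by
    rw [hy, List.take_take, min_eq_left (by omega), List.append_assoc, ← hX, List.take_left]
  have htk : (P ++ r).take (P.length + d) = P ++ r.take d := by
    rw [List.take_append, List.take_of_length_le (by omega), Nat.add_sub_cancel_left]
  have hNY : NY Wo thr D.q (y.drop p0) = P.length + d := by
    rw [hyd]
    refine NY_take ?_ ?_ hlen
    · rw [List.length_append]; omega
    · rw [htk]; exact hPQ
  have hNN : NN D Wo thr p0 BY y = p0 + (P.length + d) := by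
    unfold NN; rw [if_pos hylen, hNY]
  have hytN : y.take (NN D Wo thr p0 BY y) = X ++ (P ++ r.take d) := by
    rw [hNN, List.take_add, hyt, hyd, List.take_take, min_eq_left hlen, htk]
  have hytNd : (y.take (NN D Wo thr p0 BY y)).drop p0 = P ++ r.take d := by
    rw [hytN, ← hX, List.drop_left]
  refine ⟨?_, ?_⟩
  · rw [hNN, List.length_append]; omega
  · rw [nuu, hytNd, hyt, hytN, D.sound hN1 hN2 hLL hRR, D.hphi X, hmul, hadd]
    abel

variable (D Wo thr N1) in
/-- the three failure modes, read on the text from the place `p0` of the zone -/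
def BadY (Z : List α) : Prop :=
  EBad Wo thr D.q N1 Z ∨ D.B (NY Wo thr D.q Z / D.q) ∨
    ∃ k ≤ D.m, ∃ t, D.A k ≤ t + D.q * D.M ∧ t < D.A k + D.q * D.M ∧ D.r.R (Z.drop t)

/-- (CP1) -/
theorem cp1 (hN3 : D.N3) (hF : D.Hides)
    (h1 : ∀ P Q, no ≤ Q.length → (Wo (P ++ Q) ↔ Wo Q))
    (hz : ∀ r, N1 + no ≤ thr r) (hcell : ∀ i, i < D.m → D.q * (D.lo i + D.M) ≤ N1)
    (hT : ∀ r, thr r ≤ T)
    (h4 : ∀ P, RF e W P → G + no ≤ P.length → ∃ i < G, Wo (P.take (P.length - i)))
    (hBY : T + G + no ≤ BY)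
    (h5 : ∀ Q, RF e W Q → D.G + D.r.n ≤ Q.length → ∃ i < D.G, D.r.R (Q.drop i))
    (hAm : ∀ k, k ≤ D.m → D.A k + D.G + D.r.n ≤ N1)
    (hlo : ∀ i, i < D.m → D.A i + D.G + D.r.n ≤ D.q * D.lo i)
    {t : List α} (hCl : RF e W t) (ht : p0 + BY + (p0 + BY) ≤ t.length)
    (hbad : ¬ BadY D Wo thr N1 ((t.take (p0 + BY)).drop p0)) (v : V) :
    ∃ x, p0 ≤ x ∧ x < p0 + BY ∧ L1 D p0 nu2 (t.take x) v ∧
      (R1 D Wo thr N1 no ((t.drop x).take (p0 + BY))).isSome := by
  classical
  set Z := (t.take (p0 + BY)).drop p0 with hZ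
  have hZ' : Z = (t.drop p0).take BY := by rw [hZ, List.drop_take]; congr 1; omega
  have hZlen : Z.length = BY := by
    rw [hZ', List.length_take, List.length_drop]; omega
  have hZRF : RF e W Z := (hCl.take _).drop _
  obtain ⟨hb1, hb2, hb3⟩ : ¬ EBad Wo thr D.q N1 Z ∧ ¬ D.B (NY Wo thr D.q Z / D.q) ∧
      ¬ ∃ k ≤ D.m, ∃ t, D.A k ≤ t + D.q * D.M ∧ t < D.A k + D.q * D.M ∧ D.r.R (Z.drop t) := by
    unfold BadY at hbad
    push Not at hbad ⊢
    exact hbad
  have hex : ∃ s, s ≤ Z.length ∧ Z.take s ∈ XX Wo thr D.q := by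
    obtain ⟨s, -, hs, -, hs'⟩ := exists_qual (M := D.q) hT h4 hZRF (by omega)
    exact first_block ⟨s, hs, hs'⟩
  obtain ⟨hNle, hYX⟩ := NY_spec hex
  set n := NY Wo thr D.q Z with hn
  set Y := Z.take n with hY
  have hYlen : Y.length = n := by rw [hY, List.length_take, min_eq_left hNle]
  have hYN1 : N1 + no ≤ n := by
    have := hYX.2.1
    rw [hYlen] at this
    exact le_trans (hz _) this
  have hYE : ¬ EBad Wo thr D.q N1 Y := by
    rintro ⟨s, hs, hs1, hs2⟩
    refine hb1 ⟨s, by omega, ?_, hs2⟩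
    rw [hY, List.take_take, min_eq_left (by omega)] at hs1
    exact hs1
  have hRYZ : ∀ s, D.r.R (Y.drop s) → D.r.R (Z.drop s) := by
    intro s hs
    have h6 := D.r.len _ hs
    have h7 := D.r.pos
    rw [List.length_drop] at h6
    have h8 : Z.drop s = Y.drop s ++ Z.drop n := by
      have : Z = Y ++ Z.drop n := (List.take_append_drop n Z).symm
      conv_lhs => rw [this]
      rw [List.drop_append_of_le_length (by omega)]
    rw [h8, D.r.app (by rw [List.length_drop]; omega)]
    exact hs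
  have hYRF : RF e W Y := hZRF.take _
  have hH : ∀ k, ∃ s, k ≤ D.m → FW D.r Y (D.A k) s ∧ s ≤ D.A k + D.G := by
    intro k
    by_cases hk : k ≤ D.m
    · have h6 := hAm k hk
      obtain ⟨i, hi, hRi⟩ := h5 (Y.drop (D.A k)) (hYRF.drop _)
        (by rw [List.length_drop]; omega)
      rw [List.drop_drop] at hRi
      have hx : ∃ s, D.A k ≤ s ∧ D.r.R (Y.drop s) := ⟨D.A k + i, by omega, hRi⟩
      refine ⟨Nat.find hx, fun _ => ⟨⟨(Nat.find_spec hx).1, (Nat.find_spec hx).2, ?_⟩, ?_⟩⟩
      · intro s' hs' hs'' hR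
        exact Nat.find_min hx hs'' ⟨hs', hR⟩
      · have := Nat.find_min' hx ⟨by omega, hRi⟩
        omega
    · exact ⟨0, fun h => absurd h hk⟩
  choose H hH using hH
  obtain ⟨P, Q, i, om, hPQ, hi, hPl, hlo1, hlo2, hLL, b, hRR⟩ :=
    D.complete hN3 hF (Z := Y) (by rw [hYlen]; exact hb2) H (fun k hk => (hH k hk).1)
      (fun k hk => (hH k hk).2) hlo
      (fun k hk s hs1 hs2 hR => hb3 ⟨k, hk, s, hs1, hs2, hRYZ s hR⟩)
      (fun i hi => by have := hcell i hi; omega) (D.act v (D.phi (t.take p0)) + nu2 (t.take p0))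
  have hom : D.q * om ≤ N1 := le_trans (Nat.mul_le_mul_left _ (by omega)) (hcell i hi)
  obtain ⟨h6, h7⟩ := split_QQ (p0 := 0) (N1 := N1) h1 (by intro r; have := hz r; omega) hYX hYE
    (om := om) hom
  simp only [Nat.zero_add] at h6 h7
  have hQ : Q = Y.drop (D.q * om) := by
    rw [hPQ, ← hPl, List.drop_left]
  have hP : P = Y.take (D.q * om) := by
    rw [hPQ, ← hPl, List.take_left]
  have hQl : Q.length = n - D.q * om := by rw [hQ, List.length_drop, hYlen]
  have htp : (t.take p0).length = p0 := by rw [List.length_take]; omega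
  have hom' : D.q * om < N1 :=
    lt_of_lt_of_le (Nat.mul_lt_mul_of_pos_left hlo2 D.hq) (hcell i hi)
  refine ⟨p0 + D.q * om, Nat.le_add_right _ _, by omega, ?_, ?_⟩
  · refine ⟨t.take p0, P, ?_, htp, hLL⟩
    rw [List.take_add, hP, hY, List.take_take, min_eq_left (by omega), hZ', List.take_take,
      min_eq_left (by omega)]
  · have hr : ((t.drop (p0 + D.q * om)).take (p0 + BY)).take Q.length = Q := by
      rw [List.take_take, min_eq_left (by omega), hQl, hQ, hY, hZ', List.take_take,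
        min_eq_left (by omega), List.drop_take, List.drop_drop]
    refine R1_isSome (d := Q.length) (b := b) ?_ ?_ ?_
    · rw [List.length_take, List.length_drop]; omega
    · rw [hr, hQ]; exact h7
    · rw [hr]; exact hRR

variable (D Wo thr p0 BY N1) (c' : ℕ → ℕ) (K : ℕ)
  (lam : ℕ → List α → Option V) (rho : ℕ → List α → Option V)

/-- left labels of scheme 2 -/
def L2 (u : List α) (v : V) : Prop := ∃ k < K, u.length = c' k ∧ lam k u = some v

/-- the zone text of candidate `j`, read from the place `p0` on -/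
def cand (r : List α) (j : ℕ) : List α := (r.drop (p0 - c' j)).take BY

/-- the right reading of scheme 2 -/
def R2rel (r : List α) (j d : ℕ) (b : V) : Prop :=
  j < K ∧ (∀ i < K, BadY D Wo thr N1 (cand p0 BY c' r i) → i = j) ∧
    ∃ b0, rho j (r.take (p0 - c' j)) = some b0 ∧
      d = (p0 - c' j) + NY Wo thr D.q (cand p0 BY c' r j) ∧
      b = D.act b0 (D.phi ((cand p0 BY c' r j).take (NY Wo thr D.q (cand p0 BY c' r j)))) +
        D.nu ((cand p0 BY c' r j).take (NY Wo thr D.q (cand p0 BY c' r j)))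

open Classical in
/-- right labels of scheme 2 -/
noncomputable def R2 (r : List α) : Option (ℕ × V) :=
  if h : ∃ x : ℕ × V, ∃ j, R2rel D Wo thr p0 BY N1 c' K rho r j x.1 x.2 then some h.choose
  else none

variable {D Wo thr p0 BY N1 c' K lam rho}

theorem R2_spec {r : List α} {d : ℕ} {b : V}
    (h : R2 D Wo thr p0 BY N1 c' K rho r = some (d, b)) :
    ∃ j, R2rel D Wo thr p0 BY N1 c' K rho r j d b := by
  classical
  unfold R2 at h
  split_ifs at h with hex
  have h1 := hex.choose_spec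
  have h2 := Option.some.inj h
  rw [h2] at h1
  exact h1

theorem R2_isSome {r : List α} {j d : ℕ} {b : V}
    (h : R2rel D Wo thr p0 BY N1 c' K rho r j d b) :
    (R2 D Wo thr p0 BY N1 c' K rho r).isSome := by
  classical
  unfold R2
  rw [dif_pos ⟨(d, b), j, h⟩]
  rfl

/-- (SC2) -/
theorem sc2 (hadd : ∀ x y s, D.act (x + y) s = D.act x s + D.act y s)
    (hmul : ∀ x s t, D.act x (s * t) = D.act (D.act x s) t)
    (hc : ∀ k < K, c' k ≤ p0)
    (hsound : ∀ k < K, ∀ (P Q : List α) (v b : V), P.length = c' k → lam k P = some v →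
      rho k Q = some b → b = D.act v (D.phi (P ++ Q)) + nu2 (P ++ Q))
    {u r : List α} {v b : V} {d : ℕ} (hr : p0 + BY ≤ r.length)
    (hbad : BadY D Wo thr N1 (((u ++ r).take (p0 + BY)).drop p0))
    (hL : L2 c' K lam u v) (hR : R2 D Wo thr p0 BY N1 c' K rho r = some (d, b)) :
    NN D Wo thr p0 BY ((u ++ r).take (p0 + BY)) = u.length + d ∧
      D.act v (D.phi (((u ++ r).take (p0 + BY)).take (NN D Wo thr p0 BY ((u ++ r).take (p0 + BY)))))
        + nuu D Wo thr p0 BY nu2 ((u ++ r).take (p0 + BY)) = b := by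
  obtain ⟨k, hk, huk, hlam⟩ := hL
  obtain ⟨j, hj, huniq, b0, hrho, hd, hb⟩ := R2_spec hR
  have hcp := hc k hk
  set y := (u ++ r).take (p0 + BY) with hy
  have hylen : y.length = p0 + BY := by
    rw [hy, List.length_take, List.length_append]; omega
  have hyd : y.drop p0 = cand p0 BY c' r k := by
    rw [hy, List.drop_take, List.drop_append, huk, List.drop_eq_nil_of_le (by omega),
      List.nil_append]
    unfold cand
    congr 1; omega
  have hkj : k = j := huniq k hk (by rw [← hyd]; exact hbad)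
  subst hkj
  have hyt : y.take p0 = u ++ r.take (p0 - c' k) := by
    rw [hy, List.take_take, min_eq_left (by omega), List.take_append, huk,
      List.take_of_length_le (by omega)]
  rw [← hyd] at hd hb
  have hNN : NN D Wo thr p0 BY y = p0 + NY Wo thr D.q (y.drop p0) := by
    unfold NN; rw [if_pos hylen]
  have hytN : y.take (NN D Wo thr p0 BY y) =
      (u ++ r.take (p0 - c' k)) ++ (y.drop p0).take (NY Wo thr D.q (y.drop p0)) := by
    rw [hNN, List.take_add, hyt]
  have hXlen : (u ++ r.take (p0 - c' k)).length = p0 := by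
    rw [List.length_append, List.length_take]; omega
  have hytNd : (y.take (NN D Wo thr p0 BY y)).drop p0 =
      (y.drop p0).take (NY Wo thr D.q (y.drop p0)) := by
    rw [hytN]
    exact List.drop_left' hXlen
  have hs := hsound k hk u (r.take (p0 - c' k)) v b0 huk hlam hrho
  refine ⟨?_, ?_⟩
  · rw [hNN]; omega
  · rw [nuu, hytNd, hyt, hytN, hb, hs, D.hphi (u ++ _), hmul, hadd]
    abel

end S1

end Crest.Agent.R320.CoreA_202
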