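import Crest.Agent.R320.Zone132_898

/-!
# Row 320, chain rule of 132 #12664 (2) on words, junction lemma (helper805)
-/

set_option autoImplicit false

namespace Crest.Agent.R320.CoreA_805

open Crest.Agent.R320.Zone132_898

variable {α : Type*}

/-- outer chain data: wall rule, comb modulus, thresholds, largest comb index -/
structure Ch (α : Type*) where
  r : Rule α
  q : ℕ
  hq : 0 < q
  th : ℕ → ℕ
  Om : ℕ
  hth : ∀ ρ, q * Om < th ρ

namespace Ch

variable (C : Ch α)

/-- qualifying wall at place `t` of the text `Y` (`Y` starts at `a + p0`) -/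
def QW (Y : List α) (t : ℕ) : Prop := C.r.R (Y.drop t) ∧ C.th (t % C.q) ≤ t

open Classical in
/-- first qualifying wall -/
noncomputable def nz (Y : List α) : ℕ := if h : ∃ t, C.QW Y t then Nat.find h else 0

/-- right side legal with respect to the outer walls -/
def Leg (Q : List α) : Prop :=
  ∀ t, C.r.R (Q.drop t) → t < C.th (t % C.q) → ¬ C.th (t % C.q) ≤ t + C.q * C.Om

theorem QW.len {C : Ch α} {Y : List α} {t : ℕ} (h : C.QW Y t) : t + C.r.n ≤ Y.length := by
  have h1 := C.r.len _ h.1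
  have h2 := C.r.pos
  rw [List.length_drop] at h1
  omega

theorem nz_eq {Y : List α} {t : ℕ} (h : C.QW Y t) (hm : ∀ t', t' < t → ¬ C.QW Y t') :
    C.nz Y = t := by
  classical
  have hex : ∃ t, C.QW Y t := ⟨t, h⟩
  unfold nz
  rw [dif_pos hex]
  rcases lt_trichotomy (Nat.find hex) t with h1 | h1 | h1
  · exact absurd (Nat.find_spec hex) (hm _ h1)
  · exact h1
  · exact absurd h (Nat.find_min hex h1)

theorem nz_spec {Y : List α} (h : ∃ t, C.QW Y t) : C.QW Y (C.nz Y) := by
  classical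
  unfold nz
  rw [dif_pos h]
  exact Nat.find_spec h

theorem nz_min {Y : List α} (h : ∃ t, C.QW Y t) {t : ℕ} (ht : t < C.nz Y) : ¬ C.QW Y t := by
  classical
  unfold nz at ht
  rw [dif_pos h] at ht
  exact Nat.find_min h ht

theorem nz_le {Y : List α} {t : ℕ} (h : C.QW Y t) : C.nz Y ≤ t := by
  by_contra hlt
  exact C.nz_min ⟨t, h⟩ (not_le.1 hlt) h

/-- the rule is read off on the first letters -/
theorem QW_take {Y : List α} {t L : ℕ} (h : t + C.r.n ≤ L) (hL : L ≤ Y.length) :
    C.QW (Y.take L) t ↔ C.QW Y t := by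
  have h1 := R_left C.r (P := Y.take L) (Q := Y.drop L) (t := t)
    (by rw [List.length_take]; omega)
  rw [List.take_append_drop] at h1
  unfold QW
  rw [h1]

theorem nz_take {Y : List α} (h : ∃ t, C.QW Y t) {L : ℕ} (h1 : C.nz Y + C.r.n ≤ L)
    (hL : L ≤ Y.length) : C.QW (Y.take L) (C.nz Y) ∧ C.nz (Y.take L) = C.nz Y := by
  have h2 : C.QW (Y.take L) (C.nz Y) := (C.QW_take h1 hL).2 (C.nz_spec h)
  refine ⟨h2, C.nz_eq h2 fun t' ht' hq => C.nz_min h ht' ?_⟩
  exact (C.QW_take (by omega) hL).1 hq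

/-- **junction lemma** -/
theorem junction {P Q : List α} {om : ℕ} (hP : P.length = C.q * om) (hom : om ≤ C.Om)
    (hQ : C.Leg Q) (hex : ∃ t, C.QW Q t) :
    C.QW (P ++ Q) (P.length + C.nz Q) ∧ C.nz (P ++ Q) = P.length + C.nz Q := by
  have hmod : ∀ t, (P.length + t) % C.q = t % C.q := fun t => by
    rw [hP, Nat.mul_add_mod]
  have hle : P.length ≤ C.q * C.Om := by rw [hP]; exact Nat.mul_le_mul_left _ hom
  have key : ∀ t, C.QW (P ++ Q) (P.length + t) ↔ C.QW Q t := by
    intro t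
    unfold QW
    rw [drop_add, hmod]
    constructor
    · rintro ⟨h1, h2⟩
      refine ⟨h1, ?_⟩
      by_contra h3
      exact hQ t h1 (not_le.1 h3) (by omega)
    · rintro ⟨h1, h2⟩
      exact ⟨h1, by omega⟩
  have h1 : C.QW (P ++ Q) (P.length + C.nz Q) := (key _).2 (C.nz_spec hex)
  refine ⟨h1, C.nz_eq h1 fun t' ht' hq => ?_⟩
  rcases lt_or_ge t' P.length with h2 | h2
  · have := C.hth (t' % C.q)
    have := hq.2
    omega
  · obtain ⟨u, rfl⟩ : ∃ u, t' = P.length + u := ⟨t' - P.length, by omega⟩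
    exact C.nz_min hex (by omega) ((key u).1 hq)

/-- outer wall in the doubt region of the anchor -/
def E (Y : List α) : Prop :=
  ∃ t, C.r.R (Y.drop t) ∧ t < C.th (t % C.q) + C.q * C.Om ∧ C.th (t % C.q) ≤ t + C.q * C.Om

theorem leg_of_not_E {Y : List α} (h : ¬ C.E Y) {om : ℕ} (hom : om ≤ C.Om) :
    C.Leg (Y.drop (C.q * om)) := by
  intro t h1 h2 h3
  apply h
  rw [List.drop_drop] at h1
  have hmod : (C.q * om + t) % C.q = t % C.q := by rw [Nat.mul_add_mod]
  have hle : C.q * om ≤ C.q * C.Om := Nat.mul_le_mul_left _ hom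
  refine ⟨C.q * om + t, h1, ?_, ?_⟩
  · rw [hmod]; omega
  · rw [hmod]; omega

end Ch

end Crest.Agent.R320.CoreA_805
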