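import Crest.Agent.R320.ZRed_608

/-!
# Row 320: HALF 1 from a finite CORE with semantic right labels (helper608)

One zone action `e` for both schemes (118), right labels defined semantically (110 / 781),
the inner (promise) scheme looks one full zone ahead (287).
What remains is: `compl1` and `compl2`.
-/

set_option autoImplicit false
set_option linter.unusedVariables false

namespace Crest.Agent.R320.Core_608

open Crest.Agent.R320.Hk_851 Crest.Agent.R320.ZRed_608

universe u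

variable {α : Type u}

/-- The promise level: weakly sound, complete with one zone of lookahead. -/
theorem level2 {V : Type} (B : Set (List α)) (hP : PC B)
    (e : List α → V → V) (P R : V → Set (List α)) (hP0 : ∀ v, [] ∉ P v)
    (S : ∀ v v', ∀ p ∈ P v, ∀ q ∈ R v', ∀ r,
      (∃ L : List (List α), p ++ q ++ r = L.flatten ∧ ∀ y ∈ L, y ∈ B) →
      Run B e (p ++ q) v v')
    (C : ∀ u ∈ B, ∀ u' ∈ B, ∀ v, ∃ p ∈ P v, ∃ q, q ++ u' ∈ R (e u' (e u v)) ∧ u = p ++ q)
    (K : Set (List α))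
    (hK : ∀ k, k ∈ K ↔ ∃ v1 r p, r ∈ R v1 ∧ p ∈ P v1 ∧ k = r ++ p)
    (w : List α) (v v' : V) :
    Run B e w v v' ↔ (∃ L : List (List α), w = L.flatten ∧ ∀ y ∈ L, y ∈ B) ∧
      ((w = [] ∧ v = v') ∨ (w ∈ B ∧ e w v = v') ∨
        ∃ v2 p q z, ∃ ks : List (List α), (∀ k ∈ ks, k ∈ K) ∧
        p ∈ P v ∧ q ∈ R v2 ∧ ((z = [] ∧ v2 = v') ∨ (z ∈ B ∧ e z v2 = v')) ∧
        w = p ++ (ks.flatten ++ (q ++ z))) := by
  constructor
  · intro h
    refine ⟨h.star, ?_⟩
    obtain ⟨L, rfl, hL⟩ := h.star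
    have h' : act e L v = v' := Run.unique hP (run_act L hL v) h
    clear h
    have key : ∀ (n : ℕ) (L : List (List α)), L.length ≤ n → (∀ y ∈ L, y ∈ B) → ∀ v v',
        act e L v = v' →
        ((L.flatten = [] ∧ v = v') ∨ (L.flatten ∈ B ∧ e L.flatten v = v') ∨
        ∃ v2 p q z, ∃ ks : List (List α), (∀ k ∈ ks, k ∈ K) ∧
        p ∈ P v ∧ q ∈ R v2 ∧ ((z = [] ∧ v2 = v') ∨ (z ∈ B ∧ e z v2 = v')) ∧
        L.flatten = p ++ (ks.flatten ++ (q ++ z))) := by
      intro n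
      induction n with
      | zero =>
        intro L hn hL v v' h
        cases L with
        | nil => exact Or.inl ⟨rfl, h⟩
        | cons a L => simp at hn
      | succ n ih =>
        intro L hn hL v v' h
        match L, hn, hL, h with
        | [], _, _, h => exact Or.inl ⟨rfl, h⟩
        | [u], _, hL, h => exact Or.inr (Or.inl (by simpa [act] using ⟨hL u (by simp), h⟩))
        | u :: u' :: L, hn, hL, h =>
          obtain ⟨p, hp, q, hq, rfl⟩ := C u (hL _ (by simp)) u' (hL _ (by simp)) v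
          have hL' : ∀ y ∈ L, y ∈ B := fun y hy => hL y (by simp [hy])
          have hn' : L.length ≤ n := by simp at hn; omega
          rcases ih L hn' hL' _ v' h with ⟨h1, h2⟩ | ⟨h1, h2⟩ |
            ⟨v2, p1, q1, z, ks, h1, h2, h3, h4, h5⟩
          · exact Or.inr (Or.inr ⟨_, p, q ++ u', [], [], by simp, hp, hq, Or.inl ⟨rfl, h2⟩,
              by simp [h1]⟩)
          · exact Or.inr (Or.inr ⟨_, p, q ++ u', L.flatten, [], by simp, hp, hq,
              Or.inr ⟨h1, h2⟩, by simp⟩)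
          · refine Or.inr (Or.inr ⟨v2, p, q1, z, (q ++ u' ++ p1) :: ks, ?_, hp, h3, h4,
              by simp [h5]⟩)
            intro k hk
            rcases List.mem_cons.1 hk with rfl | hk
            · exact (hK _).2 ⟨_, q ++ u', p1, hq, h2, rfl⟩
            · exact h1 k hk
    exact key L.length L le_rfl hL v v' h'
  · rintro ⟨hst, ⟨rfl, rfl⟩ | ⟨hw, h⟩ | ⟨v2, p, q, z, ks, hks, hp, hq, hz, rfl⟩⟩
    · exact Run.nil v
    · have := Run.cons (w := []) hw (h ▸ Run.nil _ : Run B e [] (e w v) v')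
      simpa using this
    · have hz' : Run B e z v2 v' := by
        rcases hz with ⟨rfl, rfl⟩ | ⟨hz, h⟩
        · exact Run.nil _
        · have := Run.cons (w := []) hz (h ▸ Run.nil _ : Run B e [] (e z v2) v')
          simpa using this
      have key : ∀ (ks : List (List α)), (∀ k ∈ ks, k ∈ K) → ∀ v1, ∀ p ∈ P v1,
          (∃ L : List (List α), p ++ (ks.flatten ++ (q ++ z)) = L.flatten ∧ ∀ y ∈ L, y ∈ B) →
          Run B e (p ++ (ks.flatten ++ (q ++ z))) v1 v' := by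
        intro ks
        induction ks with
        | nil =>
          intro _ v1 p hp hL
          have h1 := S v1 v2 p hp q hq z (by simpa using hL)
          simpa using h1.append hz'
        | cons k ks ih =>
          intro hks v1 p hp hL
          obtain ⟨v3, r, p', hr, hp', rfl⟩ := (hK k).1 (hks k (by simp))
          have h1 := S v1 v3 p hp r hr (p' ++ (ks.flatten ++ (q ++ z))) (by simpa using hL)
          have h5 := star_cancel hP h1.star (y := p' ++ (ks.flatten ++ (q ++ z)))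
            (by simpa using hL)
          have h6 := ih (fun k hk => hks k (List.mem_cons_of_mem _ hk)) v3 p' hp' h5
          simpa using h1.append h6
      exact key ks hks v p hp hst

theorem level2_HL {V : Type} [Finite V] {h : ℕ} (B : Set (List α)) (hP : PC B)
    (e : List α → V → V) (P R : V → Set (List α)) (hP0 : ∀ v, [] ∉ P v)
    (S : ∀ v v', ∀ p ∈ P v, ∀ q ∈ R v', ∀ r,
      (∃ L : List (List α), p ++ q ++ r = L.flatten ∧ ∀ y ∈ L, y ∈ B) →
      Run B e (p ++ q) v v')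
    (C : ∀ u ∈ B, ∀ u' ∈ B, ∀ v, ∃ p ∈ P v, ∃ q, q ++ u' ∈ R (e u' (e u v)) ∧ u = p ++ q)
    (hB : HL h (B : Language α)) (hPh : ∀ v, HL h (P v : Language α))
    (hRh : ∀ v, HL h (R v : Language α))
    (hBe : ∀ v v', HL h ({w | w ∈ B ∧ e w v = v'} : Language α)) (v v' : V) :
    HL (h + 1) ({w | Run B e w v v'} : Language α) := by
  let PL : V → Language α := fun v => P v
  let RL : V → Language α := fun v => R v
  let E : V → V → Language α := fun v v' => {w | (w = [] ∧ v = v') ∨ (w ∈ B ∧ e w v = v')}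
  let K : Language α := {k | ∃ x : V, k ∈ RL x * PL x}
  have hE : ∀ v v', HL h (E v v') := fun v v' =>
    HL.setOf_or (HL.setOf_and (HL.one.congr fun w => (Language.mem_one w).symm) (HL.const _))
      (hBe v v')
  have hKh : HL h K := HL.iUnion fun x => (hRh x).mul (hPh x)
  have hKs : HL (h + 1) (KStar.kstar K) := hKh.star
  have hUs : HL (h + 1) (KStar.kstar (B : Language α)) := hB.star
  have hm : h ≤ h + 1 := Nat.le_succ h
  have hbig : HL (h + 1) ({w | ∃ x : V, w ∈ PL v * (KStar.kstar K *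
      (RL x * E x v'))} : Language α) :=
    HL.iUnion fun x => ((hPh v).mono hm).mul (hKs.mul
      (((hRh x).mono hm).mul ((hE x v').mono hm)))
  refine (hUs.setOf_and (((hE v v').mono hm).setOf_or hbig)).congr fun w => ?_
  have hlev := level2 B hP e P R hP0 S C {k | k ∈ K} (fun k => ?_) w v v'
  · refine hlev.trans ?_
    constructor
    · rintro ⟨⟨L, h1, h2⟩, h3 | h3 | ⟨v2, p, q, z, ks, h3, h5, h6, h7, h8⟩⟩
      · exact ⟨Language.mem_kstar.2 ⟨L, h1, h2⟩, Or.inl (Or.inl h3)⟩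
      · exact ⟨Language.mem_kstar.2 ⟨L, h1, h2⟩, Or.inl (Or.inr h3)⟩
      · refine ⟨Language.mem_kstar.2 ⟨L, h1, h2⟩, Or.inr ⟨v2, ?_⟩⟩
        exact Language.mem_mul.2 ⟨p, h5, _, Language.mem_mul.2
          ⟨ks.flatten, Language.mem_kstar.2 ⟨ks, rfl, h3⟩, _, Language.mem_mul.2
            ⟨q, h6, z, h7, rfl⟩, rfl⟩, h8.symm⟩
    · rintro ⟨h1, (h2 | h2) | ⟨v2, h2⟩⟩
      · exact ⟨Language.mem_kstar.1 h1, Or.inl h2⟩
      · exact ⟨Language.mem_kstar.1 h1, Or.inr (Or.inl h2)⟩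
      · obtain ⟨p, h6, y2, h7, h8⟩ := Language.mem_mul.1 h2
        obtain ⟨k, h9, y3, h10, rfl⟩ := Language.mem_mul.1 h7
        obtain ⟨q, h11, z, h12, rfl⟩ := Language.mem_mul.1 h10
        obtain ⟨ks, rfl, hks⟩ := Language.mem_kstar.1 h9
        exact ⟨Language.mem_kstar.1 h1, Or.inr (Or.inr ⟨v2, p, q, z, ks, hks, h6, h11, h12,
          h8.symm⟩)⟩
  · constructor
    · rintro ⟨v1, h2⟩
      obtain ⟨r, h4, p, h5, h8⟩ := Language.mem_mul.1 h2
      exact ⟨v1, r, p, h4, h5, h8.symm⟩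
    · rintro ⟨v1, r, p, h1, h3, rfl⟩
      exact ⟨v1, Language.mem_mul.2 ⟨r, h1, p, h3, rfl⟩⟩


/-- The finite core of HALF 1. `Z` = all zones (prefix code), `U` = the zones of run-free words,
`e` = the action of a zone on the states (both noises included), `P1 v`, `P2 v` = finite sets of
left words with label `v`. Right labels are not data. -/
structure Core (α : Type u) {S : Type} [Monoid S] (φ : α → S) (RF : Set (List α)) where
  Z : Set (List α)
  pcZ : PC Z
  U : Set (List α)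
  subU : U ⊆ Z
  finU : U.Finite
  T : Set (List α)
  finT : T.Finite
  cover : ∀ w ∈ RF, ∃ L : List (List α), (∀ y ∈ L, y ∈ U) ∧ ∃ t ∈ T, w = L.flatten ++ t
  V : Type
  fin : Finite V
  inh : Nonempty V
  e : List α → V → V
  rcv : ∀ L L' : List (List α), (∀ y ∈ L, y ∈ U) → (∀ y ∈ L', y ∈ U) →
    (∀ v, act e L v = act e L' v) → (L.flatten.map φ).prod = (L'.flatten.map φ).prod
  Bad : Set (List α)
  P1 : V → Set (List α)
  finP1 : ∀ v, (P1 v).Finite
  ne1 : ∀ v, [] ∉ P1 v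
  compl1 : ∀ u ∈ U, u ∉ Bad → ∀ v, ∃ p q, u = p ++ q ∧ p ∈ P1 v ∧
    ∀ v'', ∀ p'' ∈ P1 v'', p'' ++ q ∈ Z ∧ e (p'' ++ q) v'' = e u v
  P2 : V → Set (List α)
  finP2 : ∀ v, (P2 v).Finite
  ne2 : ∀ v, [] ∉ P2 v
  compl2 : ∀ u ∈ U, u ∈ Bad → ∀ u' ∈ U, u' ∈ Bad → ∀ v, ∃ p q, u = p ++ q ∧ p ∈ P2 v ∧
    ∀ v'', ∀ p'' ∈ P2 v'',
      (∃ u1 ∈ Z, ∃ u2 ∈ Z, p'' ++ (q ++ u') = u1 ++ u2 ∧ e u2 (e u1 v'') = e u' (e u v)) ∨
      (∃ x1 x2, (x1 = [] ∨ x1 ∈ Z) ∧ x2 ∈ Z ∧ x2 ∉ Bad ∧ x1 ++ x2 <+: p'' ++ (q ++ u'))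

variable {S : Type} [Monoid S] {φ : α → S} {RF : Set (List α)}

def Core.B (D : Core α φ RF) : Set (List α) := {u | u ∈ D.U ∧ u ∈ D.Bad}

def Core.Q1 (D : Core α φ RF) : Set (List α) := {q | ∃ u ∈ D.U, q <:+ u}

def Core.Q2 (D : Core α φ RF) : Set (List α) := {q' | ∃ q ∈ D.Q1, ∃ u' ∈ D.U, q ++ u' = q'}

theorem Core.finQ1 (D : Core α φ RF) : D.Q1.Finite := by
  have h : D.Q1 ⊆ ⋃ u ∈ D.U, {q | q ∈ u.tails} := by
    rintro q ⟨u, hu, h⟩
    simp only [Set.mem_iUnion]
    exact ⟨u, hu, (List.mem_tails q u).2 h⟩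
  exact (Set.Finite.biUnion D.finU fun u _ => List.finite_toSet _).subset h

theorem Core.finQ2 (D : Core α φ RF) : D.Q2.Finite :=
  (Set.Finite.image2 (fun q u => q ++ u) D.finQ1 D.finU).subset
    (by rintro _ ⟨q, hq, u, hu, rfl⟩; exact ⟨q, hq, u, hu, rfl⟩)

def Core.R1 (D : Core α φ RF) (v' : D.V) : Set (List α) :=
  {q | q ∈ D.Q1 ∧ ∀ v'', ∀ p'' ∈ D.P1 v'', p'' ++ q ∈ D.Z ∧ D.e (p'' ++ q) v'' = v'}

def Core.R2 (D : Core α φ RF) (v' : D.V) : Set (List α) :=
  {q | q ∈ D.Q2 ∧ ∀ v'', ∀ p'' ∈ D.P2 v'',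
      (∃ u1 ∈ D.Z, ∃ u2 ∈ D.Z, p'' ++ q = u1 ++ u2 ∧ D.e u2 (D.e u1 v'') = v') ∨
      (∃ x1 x2, (x1 = [] ∨ x1 ∈ D.Z) ∧ x2 ∈ D.Z ∧ x2 ∉ D.Bad ∧ x1 ++ x2 <+: p'' ++ q)}

theorem Core.subB (D : Core α φ RF) : D.B ⊆ D.U := fun _ h => h.1

theorem Core.pcU (D : Core α φ RF) : PC D.U := D.pcZ.mono D.subU

theorem Core.finB (D : Core α φ RF) : D.B.Finite := D.finU.subset D.subB

theorem Core.innerHL (D : Core α φ RF) (x x' : D.V) :
    HL 1 ({w | Run D.B D.e w x x'} : Language α) := by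
  have := D.fin
  refine level2_HL D.B (D.pcU.mono D.subB) D.e D.P2 D.R2 D.ne2 ?_ ?_ (HL.finite D.finB)
    (fun v => HL.finite (D.finP2 v)) (fun v => HL.finite (D.finQ2.subset fun q hq => hq.1))
    (fun v v' => HL.finite (D.finB.subset fun w hw => hw.1)) x x'
  · rintro v v' p hp q ⟨-, hq⟩ r ⟨L, hL, hLB⟩
    rcases hq v p hp with ⟨u1, hu1, u2, hu2, h1, h2⟩ | ⟨x1, x2, hx1, hx2, hxb, t, ht⟩
    · rw [h1] at hL ⊢
      match L, hL, hLB with
      | [], hL, _ =>
        have : u1 = [] := by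
          have h3 := hL
          rw [List.flatten_nil, List.append_assoc] at h3
          exact (List.append_eq_nil_iff.1 h3).1
        exact absurd (this ▸ hu1) D.pcZ.1
      | b1 :: L, hL, hLB =>
        have hb1 := hLB b1 (by simp)
        rw [List.flatten_cons, List.append_assoc] at hL
        obtain ⟨hu1b, hL3⟩ := D.pcZ.eq hu1 (D.subU hb1.1) hL
        subst hu1b
        match L, hL3, hLB with
        | [], hL3, _ =>
          have : u2 = [] := by
            rw [List.flatten_nil] at hL3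
            exact (List.append_eq_nil_iff.1 hL3).1
          exact absurd (this ▸ hu2) D.pcZ.1
        | b2 :: L, hL3, hLB =>
          have hb2 := hLB b2 (by simp)
          rw [List.flatten_cons] at hL3
          obtain ⟨rfl, hL4⟩ := D.pcZ.eq hu2 (D.subU hb2.1) hL3
          have h5 : Run D.B D.e (u1 ++ (u2 ++ [])) v v' :=
            Run.cons hb1 (Run.cons hb2 (by rw [h2]; exact Run.nil _))
          simpa using h5
    · exfalso
      have hL2 : x1 ++ (x2 ++ (t ++ r)) = L.flatten := by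
        rw [← hL, ← ht]; simp
      have hx2ne : x2 ≠ [] := fun h => D.pcZ.1 (h ▸ hx2)
      have aux : ∀ (L : List (List α)), (∀ y ∈ L, y ∈ D.B) → ∀ s, x2 ++ s = L.flatten →
          False := by
        intro L hLB s hs
        cases L with
        | nil => exact hx2ne (List.append_eq_nil_iff.1 hs).1
        | cons b L =>
          rw [List.flatten_cons] at hs
          have hb := hLB b (by simp)
          obtain ⟨rfl, -⟩ := D.pcZ.eq hx2 (D.subU hb.1) hs
          exact hxb hb.2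
      rcases hx1 with rfl | hx1
      · exact aux L hLB _ hL2
      · cases L with
        | nil => exact D.pcZ.1 ((List.append_eq_nil_iff.1 hL2).1 ▸ hx1)
        | cons b L =>
          rw [List.flatten_cons] at hL2
          have hb := hLB b (by simp)
          obtain ⟨rfl, hL3⟩ := D.pcZ.eq hx1 (D.subU hb.1) hL2
          exact aux L (fun y hy => hLB y (by simp [hy])) _ hL3
  · rintro u ⟨hu, hub⟩ u' ⟨hu', hub'⟩ v
    obtain ⟨p, q, rfl, hp, h⟩ := D.compl2 u hu hub u' hu' hub' v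
    exact ⟨p, hp, q, ⟨⟨q, ⟨_, hu, List.suffix_append p q⟩, u', hu', rfl⟩, h⟩, rfl⟩

theorem Core.outerHL (D : Core α φ RF) (v v' : D.V) :
    HL 2 ({w | Run D.U D.e w v v'} : Language α) := by
  have := D.fin
  refine level_HL D.U D.B D.subB D.pcU D.e D.P1 D.R1 D.ne1 ?_ ?_
    (HL.finite D.finU) (fun v => HL.finite (D.finP1 v))
    (fun v => HL.finite (D.finQ1.subset fun q hq => hq.1)) (fun v v' => D.innerHL v v') v v'
  · rintro u hu v v' p hp q ⟨-, hq⟩ hcmp
    obtain ⟨h1, h2⟩ := hq v p hp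
    have : u = p ++ q := by
      rcases hcmp with h | h
      · exact D.pcZ.2 u (D.subU hu) _ h1 h
      · exact (D.pcZ.2 _ h1 u (D.subU hu) h).symm
    subst this
    exact ⟨rfl, h2⟩
  · intro u hu hub v
    obtain ⟨p, q, rfl, hp, h⟩ := D.compl1 u hu (fun hb => hub ⟨hu, hb⟩) v
    exact ⟨p, hp, q, ⟨⟨_, hu, List.suffix_append p q⟩, h⟩, rfl⟩

/-- **HALF 1 from the core.** -/
theorem Core.half1 [Finite S] (hRF : HL 2 (RF : Language α)) (D : Core α φ RF) (s : S) :
    HL 2 ({w | w ∈ RF ∧ (w.map φ).prod = s} : Language α) := by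
  have := D.fin
  let LS : S → Language α := fun s1 => {w | ∃ L : List (List α), (∀ y ∈ L, y ∈ D.U) ∧
      w = L.flatten ∧ (L.flatten.map φ).prod = s1}
  let TS : S → Language α := fun s2 => {t | t ∈ D.T ∧ (t.map φ).prod = s2}
  have hstar : ∀ s1 : S, HL 2 (LS s1) := fun s1 =>
    readoff (h := 2) (W := Unit) (X := Unit) D.pcU D.e (fun x x' => D.outerHL x x') D.inh
      (fun L => (L.flatten.map φ).prod = s1) (fun L L' hL hL' h => by
        show (L.flatten.map φ).prod = s1 ↔ (L'.flatten.map φ).prod = s1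
        rw [D.rcv L L' hL hL' h])
  have htail : ∀ s2 : S, HL 2 (TS s2) := fun s2 =>
    HL.finite (D.finT.subset fun t ht => ht.1)
  have hall : HL 2 ({w | ∃ x : {x : S × S // x.1 * x.2 = s}, w ∈ LS x.1.1 * TS x.1.2} :
      Language α) :=
    HL.iUnion fun x => (hstar x.1.1).mul (htail x.1.2)
  refine (hRF.setOf_and hall).congr fun w => ?_
  constructor
  · rintro ⟨hw, hs⟩
    refine ⟨hw, ?_⟩
    obtain ⟨L, hL, t, ht, rfl⟩ := D.cover w hw
    refine ⟨⟨((L.flatten.map φ).prod, (t.map φ).prod), ?_⟩, Language.mem_mul.2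
      ⟨L.flatten, ⟨L, hL, rfl, rfl⟩, t, ⟨ht, rfl⟩, rfl⟩⟩
    rw [← hs, List.map_append, List.prod_append]
  · rintro ⟨hw, ⟨⟨s1, s2⟩, h12⟩, h⟩
    refine ⟨hw, ?_⟩
    obtain ⟨x, ⟨L, hL, rfl, h1⟩, t, ⟨ht, h2⟩, rfl⟩ := Language.mem_mul.1 h
    rw [List.map_append, List.prod_append, h1, h2]
    exact h12

end Crest.Agent.R320.Core_608
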