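import Crest.Agent.R320.ZRed_608
import Crest.Agent.R320.Core_608
import Crest.Agent.R320.Hk2_851

/-!
# Row 320: TOP for ALL words (helper401), over helper608's level lemmas

`CoreAll`: one prefix code of zones (possibly unbounded), one zone action `e` for both schemes,
right labels semantic. The only language input is `hZe`, `hBe`, `hT` (height one).
-/

set_option autoImplicit false
set_option linter.unusedVariables false

namespace Crest.Agent.R320.CoreAll_401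

open Crest.Agent.R320.Hk_851 Crest.Agent.R320.ZRed_608 Crest.Agent.R320.Core_608

universe u

variable {α : Type u}

structure CoreAll (α : Type u) {S : Type} [Monoid S] (φ : α → S) where
  Z : Set (List α)
  pcZ : PC Z
  T : Set (List α)
  cover : ∀ w, ∃ L : List (List α), (∀ y ∈ L, y ∈ Z) ∧ ∃ t ∈ T, w = L.flatten ++ t
  hT : ∀ s : S, HL 3 ({t | t ∈ T ∧ (t.map φ).prod = s} : Language α)
  V : Type
  fin : Finite V
  inh : Nonempty V
  e : List α → V → V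
  rcv : ∀ L L' : List (List α), (∀ y ∈ L, y ∈ Z) → (∀ y ∈ L', y ∈ Z) →
    (∀ v, act e L v = act e L' v) → (L.flatten.map φ).prod = (L'.flatten.map φ).prod
  Bad : Set (List α)
  hZe : ∀ v v', HL 1 ({w | w ∈ Z ∧ e w v = v'} : Language α)
  hBe : ∀ v v', HL 1 ({w | (w ∈ Z ∧ w ∈ Bad) ∧ e w v = v'} : Language α)
  P1 : V → Set (List α)
  finP1 : ∀ v, (P1 v).Finite
  ne1 : ∀ v, [] ∉ P1 v
  compl1 : ∀ u ∈ Z, u ∉ Bad → ∀ v, ∃ p q, u = p ++ q ∧ p ∈ P1 v ∧
    ∀ v'', ∀ p'' ∈ P1 v'', p'' ++ q ∈ Z ∧ e (p'' ++ q) v'' = e u v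
  P2 : V → Set (List α)
  finP2 : ∀ v, (P2 v).Finite
  ne2 : ∀ v, [] ∉ P2 v
  compl2 : ∀ u ∈ Z, u ∈ Bad → ∀ u' ∈ Z, u' ∈ Bad → ∀ v, ∃ p q, u = p ++ q ∧ p ∈ P2 v ∧
    ∀ v'', ∀ p'' ∈ P2 v'',
      (∃ u1 ∈ Z, ∃ u2 ∈ Z, p'' ++ (q ++ u') = u1 ++ u2 ∧ e u2 (e u1 v'') = e u' (e u v)) ∨
      (∃ x1 x2, (x1 = [] ∨ x1 ∈ Z) ∧ x2 ∈ Z ∧ x2 ∉ Bad ∧ x1 ++ x2 <+: p'' ++ (q ++ u'))

variable {S : Type} [Monoid S] {φ : α → S}

def CoreAll.B (D : CoreAll α φ) : Set (List α) := {u | u ∈ D.Z ∧ u ∈ D.Bad}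

def CoreAll.R1 (D : CoreAll α φ) (v' : D.V) : Set (List α) :=
  {q | ∀ v'', ∀ p'' ∈ D.P1 v'', p'' ++ q ∈ D.Z ∧ D.e (p'' ++ q) v'' = v'}

def CoreAll.R2 (D : CoreAll α φ) (v' : D.V) : Set (List α) :=
  {q | ∀ v'', ∀ p'' ∈ D.P2 v'',
      (∃ u1 ∈ D.Z, ∃ u2 ∈ D.Z, p'' ++ q = u1 ++ u2 ∧ D.e u2 (D.e u1 v'') = v') ∨
      (∃ x1 x2, (x1 = [] ∨ x1 ∈ D.Z) ∧ x2 ∈ D.Z ∧ x2 ∉ D.Bad ∧ x1 ++ x2 <+: p'' ++ q)}

theorem CoreAll.hZ (D : CoreAll α φ) : HL 1 (D.Z : Language α) := by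
  have := D.fin
  obtain ⟨v0⟩ := D.inh
  refine (HL.iUnion (L := fun v' => ({w | w ∈ D.Z ∧ D.e w v0 = v'} : Language α))
    fun v' => D.hZe v0 v').congr fun w => ?_
  constructor
  · intro h; exact ⟨D.e w v0, h, rfl⟩
  · rintro ⟨v', h, -⟩; exact h

theorem CoreAll.hB (D : CoreAll α φ) : HL 1 (D.B : Language α) := by
  have := D.fin
  obtain ⟨v0⟩ := D.inh
  refine (HL.iUnion (L := fun v' => ({w | (w ∈ D.Z ∧ w ∈ D.Bad) ∧ D.e w v0 = v'} : Language α))
    fun v' => D.hBe v0 v').congr fun w => ?_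
  constructor
  · intro h; exact ⟨D.e w v0, h, rfl⟩
  · rintro ⟨v', h, -⟩; exact h

theorem CoreAll.hG (D : CoreAll α φ) : HL 1 ({w | w ∈ D.Z ∧ w ∉ D.Bad} : Language α) := by
  refine (D.hZ.setOf_and (p := fun w => w ∈ D.Z) (D.hB.setOf_not (p := fun w => w ∈ D.B))).congr
    fun w => ?_
  constructor
  · rintro ⟨h1, h2⟩; exact ⟨h1, fun h => h2 h.2⟩
  · rintro ⟨h1, h2⟩; exact ⟨h1, fun h => h2 ⟨h1, h⟩⟩

theorem CoreAll.hR1 (D : CoreAll α φ) (v' : D.V) : HL 1 (D.R1 v' : Language α) := by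
  have := D.fin
  refine (HL.iInter (L := fun v'' => ({q | ∀ p'' ∈ D.P1 v'',
      q ∈ ({q | p'' ++ q ∈ D.Z ∧ D.e (p'' ++ q) v'' = v'} : Language α)} : Language α))
    fun v'' => HL.biInter (D.finP1 v'') fun p'' _ => (D.hZe v'' v').lquot p'').congr fun w => ?_
  exact Iff.rfl

theorem CoreAll.hR2 (D : CoreAll α φ) (v' : D.V) : HL 1 (D.R2 v' : Language α) := by
  have := D.fin
  -- two zones
  have hA : ∀ v'' : D.V, HL 1 ({x | ∃ u1 ∈ D.Z, ∃ u2 ∈ D.Z, x = u1 ++ u2 ∧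
      D.e u2 (D.e u1 v'') = v'} : Language α) := by
    intro v''
    let E1 : D.V → D.V → Language α := fun a b => {w | w ∈ D.Z ∧ D.e w a = b}
    have hE1 : ∀ a b, HL 1 (E1 a b) := D.hZe
    refine (HL.iUnion (L := fun x1 => (E1 v'' x1 * E1 x1 v'))
      fun x1 => (hE1 v'' x1).mul (hE1 x1 v')).congr fun w => ?_
    constructor
    · rintro ⟨u1, h1, u2, h2, rfl, h3⟩
      exact ⟨D.e u1 v'', Language.mem_mul.2 ⟨u1, ⟨h1, rfl⟩, u2, ⟨h2, h3⟩, rfl⟩⟩
    · rintro ⟨x1, h⟩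
      obtain ⟨u1, ⟨h1, rfl⟩, u2, ⟨h2, h3⟩, rfl⟩ := Language.mem_mul.1 h
      exact ⟨u1, h1, u2, h2, rfl, h3⟩
  have hC : HL 1 ({x | ∃ x1 x2, (x1 = [] ∨ x1 ∈ D.Z) ∧ x2 ∈ D.Z ∧ x2 ∉ D.Bad ∧
      x1 ++ x2 <+: x} : Language α) := by
    have h1 : HL 1 ({w | w = [] ∨ w ∈ D.Z} : Language α) :=
      HL.setOf_or (HL.one.congr fun w => (Language.mem_one w).symm) D.hZ
    refine ((h1.mul D.hG).mul HL.top).congr fun w => ?_
    constructor
    · rintro ⟨x1, x2, h1, h2, h3, t, rfl⟩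
      exact Language.mem_mul.2 ⟨x1 ++ x2, Language.mem_mul.2 ⟨x1, h1, x2, ⟨h2, h3⟩, rfl⟩, t,
        trivial, rfl⟩
    · intro h
      obtain ⟨y, hy, t, -, rfl⟩ := Language.mem_mul.1 h
      obtain ⟨x1, h1, x2, ⟨h2, h3⟩, rfl⟩ := Language.mem_mul.1 hy
      exact ⟨x1, x2, h1, h2, h3, t, rfl⟩
  refine (HL.iInter (L := fun v'' => ({q | ∀ p'' ∈ D.P2 v'',
      q ∈ ({q | p'' ++ q ∈ ({x | (∃ u1 ∈ D.Z, ∃ u2 ∈ D.Z, x = u1 ++ u2 ∧
      D.e u2 (D.e u1 v'') = v') ∨ (∃ x1 x2, (x1 = [] ∨ x1 ∈ D.Z) ∧ x2 ∈ D.Z ∧ x2 ∉ D.Bad ∧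
      x1 ++ x2 <+: x)} : Language α)} : Language α)} : Language α))
    fun v'' => HL.biInter (D.finP2 v'') fun p'' _ =>
      ((hA v'').setOf_or hC).lquot p'').congr fun w => ?_
  exact Iff.rfl

theorem CoreAll.pcB (D : CoreAll α φ) : PC D.B := D.pcZ.mono fun _ h => h.1

theorem CoreAll.innerHL (D : CoreAll α φ) (x x' : D.V) :
    HL 2 ({w | Run D.B D.e w x x'} : Language α) := by
  have := D.fin
  refine level2_HL D.B D.pcB D.e D.P2 D.R2 D.ne2 ?_ ?_ D.hB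
    (fun v => HL.finite (D.finP2 v)) (fun v => D.hR2 v)
    (fun v v' => D.hBe v v') x x'
  · rintro v v' p hp q hq r ⟨L, hL, hLB⟩
    rcases hq v p hp with ⟨u1, hu1, u2, hu2, h1, h2⟩ | ⟨x1, x2, hx1, hx2, hxb, t, ht⟩
    · rw [h1] at hL ⊢
      match L, hL, hLB with
      | [], hL, _ =>
        have : u1 = [] := by
          have h3 := hL
          rw [List.flatten_nil, List.append_assoc] at h3
          exact (List.append_eq_nil_iff.1 h3).1
        exact absurd (this ▸ hu1) D.pcZ.1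
      | b1 :: L, hL, hLB =>
        have hb1 := hLB b1 (by simp)
        rw [List.flatten_cons, List.append_assoc] at hL
        obtain ⟨hu1b, hL3⟩ := D.pcZ.eq hu1 hb1.1 hL
        subst hu1b
        match L, hL3, hLB with
        | [], hL3, _ =>
          have : u2 = [] := by
            rw [List.flatten_nil] at hL3
            exact (List.append_eq_nil_iff.1 hL3).1
          exact absurd (this ▸ hu2) D.pcZ.1
        | b2 :: L, hL3, hLB =>
          have hb2 := hLB b2 (by simp)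
          rw [List.flatten_cons] at hL3
          obtain ⟨rfl, hL4⟩ := D.pcZ.eq hu2 hb2.1 hL3
          have h5 : Run D.B D.e (u1 ++ (u2 ++ [])) v v' :=
            Run.cons hb1 (Run.cons hb2 (by rw [h2]; exact Run.nil _))
          simpa using h5
    · exfalso
      have hL2 : x1 ++ (x2 ++ (t ++ r)) = L.flatten := by
        rw [← hL, ← ht]; simp
      have hx2ne : x2 ≠ [] := fun h => D.pcZ.1 (h ▸ hx2)
      have aux : ∀ (L : List (List α)), (∀ y ∈ L, y ∈ D.B) → ∀ s, x2 ++ s = L.flatten →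
          False := by
        intro L hLB s hs
        cases L with
        | nil => exact hx2ne (List.append_eq_nil_iff.1 hs).1
        | cons b L =>
          rw [List.flatten_cons] at hs
          have hb := hLB b (by simp)
          obtain ⟨rfl, -⟩ := D.pcZ.eq hx2 hb.1 hs
          exact hxb hb.2
      rcases hx1 with rfl | hx1
      · exact aux L hLB _ hL2
      · cases L with
        | nil => exact D.pcZ.1 ((List.append_eq_nil_iff.1 hL2).1 ▸ hx1)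
        | cons b L =>
          rw [List.flatten_cons] at hL2
          have hb := hLB b (by simp)
          obtain ⟨rfl, hL3⟩ := D.pcZ.eq hx1 hb.1 hL2
          exact aux L (fun y hy => hLB y (by simp [hy])) _ hL3
  · rintro u ⟨hu, hub⟩ u' ⟨hu', hub'⟩ v
    obtain ⟨p, q, rfl, hp, h⟩ := D.compl2 u hu hub u' hu' hub' v
    exact ⟨p, hp, q, h, rfl⟩

theorem CoreAll.outerHL (D : CoreAll α φ) (v v' : D.V) :
    HL 3 ({w | Run D.Z D.e w v v'} : Language α) := by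
  have := D.fin
  refine level_HL D.Z D.B (fun _ h => h.1) D.pcZ D.e D.P1 D.R1 D.ne1 ?_ ?_
    (D.hZ.mono (by norm_num)) (fun v => HL.finite (D.finP1 v))
    (fun v => (D.hR1 v).mono (by norm_num)) (fun v v' => D.innerHL v v') v v'
  · rintro u hu v v' p hp q hq hcmp
    obtain ⟨h1, h2⟩ := hq v p hp
    have : u = p ++ q := by
      rcases hcmp with h | h
      · exact D.pcZ.2 u hu _ h1 h
      · exact (D.pcZ.2 _ h1 u hu h).symm
    subst this
    exact ⟨rfl, h2⟩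
  · intro u hu hub v
    obtain ⟨p, q, rfl, hp, h⟩ := D.compl1 u hu (fun hb => hub ⟨hu, hb⟩) v
    exact ⟨p, hp, q, h, rfl⟩

/-- **TOP for all words**: `CoreAll` gives height three for every fibre of `φ`. -/
theorem CoreAll.top [Finite S] (D : CoreAll α φ) (s : S) :
    HL 3 ({w | (w.map φ).prod = s} : Language α) := by
  have := D.fin
  let LS : S → Language α := fun s1 => {w | ∃ L : List (List α), (∀ y ∈ L, y ∈ D.Z) ∧
      w = L.flatten ∧ (L.flatten.map φ).prod = s1}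
  let TS : S → Language α := fun s2 => {t | t ∈ D.T ∧ (t.map φ).prod = s2}
  have hstar : ∀ s1 : S, HL 3 (LS s1) := fun s1 =>
    readoff (h := 3) (W := Unit) (X := Unit) D.pcZ D.e (fun x x' => D.outerHL x x') D.inh
      (fun L => (L.flatten.map φ).prod = s1) (fun L L' hL hL' h => by
        show (L.flatten.map φ).prod = s1 ↔ (L'.flatten.map φ).prod = s1
        rw [D.rcv L L' hL hL' h])
  have hall : HL 3 ({w | ∃ x : {x : S × S // x.1 * x.2 = s}, w ∈ LS x.1.1 * TS x.1.2} :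
      Language α) :=
    HL.iUnion fun x => (hstar x.1.1).mul (D.hT x.1.2)
  refine hall.congr fun w => ?_
  constructor
  · intro hs
    change (w.map φ).prod = s at hs
    obtain ⟨L, hL, t, ht, rfl⟩ := D.cover w
    refine ⟨⟨((L.flatten.map φ).prod, (t.map φ).prod), ?_⟩, Language.mem_mul.2
      ⟨L.flatten, ⟨L, hL, rfl, rfl⟩, t, ⟨ht, rfl⟩, rfl⟩⟩
    rw [← hs, List.map_append, List.prod_append]
  · rintro ⟨⟨⟨s1, s2⟩, h12⟩, h⟩
    obtain ⟨x, ⟨L, hL, rfl, h1⟩, t, ⟨ht, h2⟩, rfl⟩ := Language.mem_mul.1 h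
    change ((L.flatten ++ t).map φ).prod = s
    rw [List.map_append, List.prod_append, h1, h2]
    exact h12

end Crest.Agent.R320.CoreAll_401
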