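import Crest.Agent.R320.Core_603

/-!
# Row 320: from the combinatorial core on ALL words to height 3 (helper603)
-/

set_option autoImplicit false

namespace Crest.Agent.R320.CoreAll_603

open Crest.RegLang Crest.Agent.R320.Hk_851 Crest.Agent.R320.BlockP_603
  Crest.Agent.R320.Core_603 Computability

universe u

variable {α : Type u} {k : ℕ}

/-- **CORE on all words ⟹ height 3** -/
theorem core_all {V V2 : Type} [AddCommGroup V] [Finite V] [AddCommGroup V2] [Finite V2]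
    {S : Type} [Monoid S] [Finite S] (act : V → S → V)
    (hadd : ∀ x y s, act (x + y) s = act x s + act y s) (hone : ∀ x, act x 1 = x)
    (hmul : ∀ x s t, act x (s * t) = act (act x s) t)
    (hfaith : ∀ s t, (∀ x, act x s = act x t) → s = t)
    (phi : List α → S) (hphi1 : phi [] = 1) (hphim : ∀ u v, phi (u ++ v) = phi u * phi v)
    (nu1 : List α → V) (XX Bad : Language α) (L1 R1 : V → Language α)
    (hXnil : ([] : List α) ∉ XX) (hpc : ∀ X ∈ XX, ∀ Y ∈ XX, X <+: Y → X = Y)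
    (hBX : ∀ X ∈ Bad, X ∈ XX) (hBad : HL 1 Bad)
    (hL1 : ∀ v, HL 2 (L1 v)) (hR1 : ∀ v, HL 2 (R1 v))
    (sound1 : ∀ v u, ∀ P ∈ L1 v, ∀ Q ∈ R1 u, P ++ Q ∈ XX ∧ u = act v (phi (P ++ Q)) + nu1 (P ++ Q))
    (complete1 : ∀ X ∈ XX, X ∈ Bad ∨ ∀ v, ∃ P Q, X = P ++ Q ∧ P ∈ L1 v ∧
      Q ∈ R1 (act v (phi X) + nu1 X))
    -- scheme 2 on `Bad`
    (act2 : V2 → Mp V → V2)
    (hadd2 : ∀ x y s, act2 (x + y) s = act2 x s + act2 y s) (hone2 : ∀ x, act2 x 1 = x)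
    (hmul2 : ∀ x s t, act2 x (s * t) = act2 (act2 x s) t)
    (hfaith2 : ∀ s t, (∀ x, act2 x s = act2 x t) → s = t)
    (nu2 : List α → V2) (L2 R2 : V2 → Language α)
    (hL2 : ∀ v, HL 1 (L2 v)) (hR2 : ∀ v, HL 1 (R2 v))
    (hlen2 : ∀ v, ∀ P ∈ L2 v, ∀ X ∈ Bad, P.length ≤ X.length) (hRnil2 : ∀ u, [] ∉ R2 u)
    (complete2 : ∀ X ∈ Bad, ∀ v, ∃ P Q, X = P ++ Q ∧ P ∈ L2 v ∧
      Q ∈ R2 (act2 v (MulOpposite.op (fun x => act x (phi X) + nu1 X)) + nu2 X))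
    (sound2 : ∀ v u, ∀ P ∈ L2 v, ∀ R, P ++ R ∈ Bad → ∀ Q ∈ R2 u, ∀ L : List (List α),
      (∀ X ∈ L, X ∈ Bad) → Q <+: R ++ L.flatten →
      Q = R ∧ u = act2 v (MulOpposite.op (fun x => act x (phi (P ++ R)) + nu1 (P ++ R))) +
        nu2 (P ++ R))
    -- the tails
    (Tl : Language α) (hTl : ∀ t, HL 3 {e | e ∈ Tl ∧ phi e = t})
    (hdec : ∀ w, ∃ M ∈ XX∗, ∃ e ∈ Tl, w = M ++ e) (s : S) :
    HL 3 {w | phi w = s} := by
  classical
  have hBnil : ([] : List α) ∉ Bad := fun h => hXnil (hBX _ h)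
  have hBpc : ∀ X ∈ Bad, ∀ Y ∈ Bad, X <+: Y → X = Y := fun X hX Y hY =>
    hpc X (hBX X hX) Y (hBX Y hY)
  set T1 : V → List α → V := fun v X => act v (phi X) + nu1 X with hT1
  set psi1 : List α → Mp V := fun X => MulOpposite.op (fun x => T1 x X) with hpsi1
  have h2 : ∀ v v', HL 2 (Bl Bad (fun v X => act2 v (psi1 X) + nu2 X) v v') := fun v v' =>
    bl_HL hBad hL2 hR2 hlen2 hRnil2 hBnil (fun X hX v => complete2 X hX v) sound2 v v'
  have h3 : ∀ t : Mp V, HL 2 {w | ∃ L : List (List α), (∀ X ∈ L, X ∈ Bad) ∧ w = L.flatten ∧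
      (L.map psi1).prod = t} := fun t =>
    read_HL' act2 hadd2 hone2 hmul2 hfaith2 psi1 nu2 hBnil hBpc h2 t
  have hfin : Finite (Mp V) := by
    have : Finite (Function.End V) := inferInstanceAs (Finite (V → V))
    exact Finite.of_injective MulOpposite.unop MulOpposite.unop_injective
  have h4 : ∀ v v', HL 2 (Bl Bad T1 v v') := by
    intro v v'
    refine HL.congr (M := ⨆ t : {t : Mp V // t.unop v = v'}, ({w | ∃ L : List (List α),
      (∀ X ∈ L, X ∈ Bad) ∧ w = L.flatten ∧ (L.map psi1).prod = t.1} : Language α))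
      (HL.iSup fun t => h3 t.1) ?_
    intro w
    refine Iff.trans ?_ mem_iSup.symm
    constructor
    · rintro ⟨L, hL, e, h⟩
      exact ⟨⟨(L.map psi1).prod, by rw [hpsi1, mp_prod]; exact h⟩, L, hL, e, rfl⟩
    · rintro ⟨⟨t, ht⟩, L, hL, e, h⟩
      refine ⟨L, hL, e, ?_⟩
      rw [← mp_prod T1 L v]
      change (L.map psi1).prod.unop v = v'
      rw [h]
      exact ht
  have h5 : ∀ v v', HL 3 (Bl XX T1 v v') := fun v v' =>
    lam_HL h4 hL1 hR1 hBX sound1 complete1 v v'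
  have h6 : ∀ t : S, HL 3 {w | w ∈ XX∗ ∧ phi w = t} := fun t =>
    read_HL act hadd hone hmul hfaith phi hphi1 hphim nu1 hXnil hpc h5 t
  let A : S → Language α := fun t => {w | w ∈ XX∗ ∧ phi w = t}
  let B : S → Language α := fun t => {e | e ∈ Tl ∧ phi e = t}
  have hA : ∀ t, HL 3 (A t) := h6
  have hB : ∀ t, HL 3 (B t) := hTl
  refine HL.congr (M := ⨆ p : {p : S × S // p.1 * p.2 = s}, A p.1.1 * B p.1.2)
    (iSup_HL fun p => (hA p.1.1).mul (hB p.1.2)) ?_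
  intro w
  refine Iff.trans ?_ mem_iSup'.symm
  constructor
  · intro h
    obtain ⟨M, hM, e, he, hw⟩ := hdec w
    have h' : phi w = s := h
    exact ⟨⟨(phi M, phi e), by rw [← hphim, ← hw]; exact h'⟩,
      Language.mem_mul.2 ⟨M, ⟨hM, rfl⟩, e, ⟨he, rfl⟩, hw.symm⟩⟩
  · rintro ⟨⟨⟨t, t'⟩, ht⟩, hw⟩
    obtain ⟨M, ⟨_, hM⟩, e, ⟨_, he⟩, hw⟩ := Language.mem_mul.1 hw
    have hM' : phi M = t := hM
    have he' : phi e = t' := he
    have ht' : t * t' = s := ht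
    change phi w = s
    rw [← hw, hphim, hM', he', ht']

end Crest.Agent.R320.CoreAll_603
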