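import Crest.Agent.R320.CoreA_805

/-!
# Row 320, HALF 1: the two schemes of 132 #12664 on one chain, one zone map (118 #13043)
(helper805)
-/

set_option autoImplicit false

namespace Crest.Agent.R320.CoreB_805

open Crest.Agent.R320.Zone132_898 Crest.Agent.R320.CoreA_805

variable {α S V W : Type*} [Monoid S] [AddCommGroup V] [AddCommGroup W]

/-- zone badness, a predicate on the text from `a + p0` on -/
def Bad (D : Data α S V W) (C : Ch α) (Y : List α) : Prop :=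
  C.E Y ∨ (∃ k, k ≤ D.m ∧ ∃ t, D.A k ≤ t + D.q * D.M ∧ t < D.A k + D.q * D.M ∧
    D.r.R (Y.drop t)) ∨ D.B (C.nz Y / D.q)

/-- all the data of the two schemes and their geometric properties -/
structure Par (α S V W : Type*) [Monoid S] [AddCommGroup V] [AddCommGroup W] where
  D : Data α S V W
  C : Ch α
  hCq : C.q = D.q
  hcell : ∀ i, i < D.m → D.lo i + D.M ≤ C.Om + 1
  n1 : D.N1
  n2 : D.N2
  n3 : D.N3
  hF : D.Hides
  G : ℕ
  Go : ℕ
  T0 : ℕ
  T1 : ℕ
  hT0 : ∀ ρ, T0 ≤ C.th ρ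
  hT1 : ∀ ρ, C.th ρ ≤ T1
  Cl : List α → Prop
  cl_infix : ∀ u v, Cl v → u <:+: v → Cl u
  gapS : ∀ Q, Cl Q → G + D.r.n ≤ Q.length → ∃ i < G, D.r.R (Q.drop i)
  gapO : ∀ Q, Cl Q → Go + C.r.n ≤ Q.length → ∃ i < Go, C.r.R (Q.drop i)
  hlo : ∀ i, i < D.m → D.A i + G + D.r.n ≤ D.q * D.lo i
  hT0A : D.A D.m + G + D.r.n ≤ T0
  hT0Om : D.q * (C.Om + 1) ≤ T0
  hAM : D.A D.m + D.q * D.M ≤ T1
  p0 : ℕ
  K : ℕ
  c : ℕ → ℕ
  hc : ∀ k, k < K → c k ≤ p0
  lam : ℕ → List α → Option V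
  rho : ℕ → List α → Option V
  nu2 : List α → V
  sound2 : ∀ k, k < K → ∀ (P Q : List α) (v b : V), P.length = c k → lam k P = some v →
    rho k Q = some b → b = D.act v (D.phi (P ++ Q)) + nu2 (P ++ Q)
  R : ℕ
  complete2 : ∀ (u : List α) (v : V), (∀ k, k < K → c k ≤ u.length) → ∃ I : Finset ℕ,
    R ≤ I.card ∧ ∀ k ∈ I, k < K ∧ lam k (u.take (c k)) = some v ∧ (rho k (u.drop (c k))).isSome
  Ls : ℕ
  spoil : ∀ x, Cl x → Ls ≤ x.length → ∃ J : Finset ℕ, J.card < R ∧ ∀ k, k < K → ∀ k', k' < K →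
    k ≠ k' → Bad D C (x.drop (p0 + c k - c k')) → k ∈ J

namespace Par

variable (A : Par α S V W)

/-- the next anchor -/
noncomputable def N (y : List α) : ℕ := A.p0 + A.C.nz (y.drop A.p0)

/-- the second part of the zone -/
noncomputable def Z (Y : List α) : List α := Y.take (A.C.nz Y)

/-- the zone map -/
noncomputable def zm (y : List α) (v : V) : V :=
  A.D.act (A.D.act v (A.D.phi (y.take A.p0)) + A.nu2 (y.take A.p0))
    (A.D.phi (A.Z (y.drop A.p0))) + A.D.nu (A.Z (y.drop A.p0))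

def LL1 (u : List α) (v : V) : Prop :=
  A.p0 ≤ u.length ∧ A.D.LL (u.drop A.p0) (A.D.act v (A.D.phi (u.take A.p0)) + A.nu2 (u.take A.p0))

def RR1 (r : List α) (d : ℕ) (b : V) : Prop :=
  A.C.Leg r ∧ (∃ t, A.C.QW r t) ∧ d = A.C.nz r ∧ A.D.RR (A.Z r) b

def LL2 (u : List α) (v : V) : Prop := ∃ k, k < A.K ∧ u.length = A.c k ∧ A.lam k u = some v

def RR2 (r : List α) (d : ℕ) (b : V) : Prop :=
  ∃ k b0, k < A.K ∧ (∀ k', k' < A.K → Bad A.D A.C (r.drop (A.p0 - A.c k')) → k' = k) ∧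
    A.rho k (r.take (A.p0 - A.c k)) = some b0 ∧
    d = A.p0 - A.c k + A.C.nz (r.drop (A.p0 - A.c k)) ∧
    b = A.D.act b0 (A.D.phi (A.Z (r.drop (A.p0 - A.c k)))) + A.D.nu (A.Z (r.drop (A.p0 - A.c k)))

theorem LL_len {P : List α} {v : V} (h : A.D.LL P v) :
    ∃ om, P.length = A.C.q * om ∧ om ≤ A.C.Om := by
  obtain ⟨c, om, H, hP, hi, hlo, hhi, -⟩ := h
  refine ⟨om, by rw [hP, A.hCq], ?_⟩
  have := A.hcell c.i hi
  omega

theorem sound1 {u r : List α} {v b : V} {d : ℕ} (hL : A.LL1 u v) (hR : A.RR1 r d b) :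
    A.N (u ++ r) = u.length + d ∧ A.zm (u ++ r) v = b := by
  obtain ⟨hu, hLL⟩ := hL
  obtain ⟨hleg, hex, rfl, hRR⟩ := hR
  obtain ⟨om, hP, hom⟩ := A.LL_len hLL
  obtain ⟨-, hj⟩ := A.C.junction hP hom hleg hex
  have h1 : (u ++ r).drop A.p0 = u.drop A.p0 ++ r := List.drop_append_of_le_length hu
  have h2 : (u ++ r).take A.p0 = u.take A.p0 := List.take_append_of_le_length hu
  have h3 : (u.drop A.p0).length = u.length - A.p0 := List.length_drop ..
  constructor
  · unfold N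
    rw [h1, hj, h3]
    omega
  · unfold zm
    have hZ : A.Z (u.drop A.p0 ++ r) = u.drop A.p0 ++ A.Z r := by
      unfold Z
      rw [hj, List.take_length_add_append]
    rw [h1, h2, hZ]
    exact (A.D.sound A.n1 A.n2 hLL hRR).symm

theorem sound2' {u r : List α} {v b : V} {d : ℕ} (hB : Bad A.D A.C ((u ++ r).drop A.p0))
    (hL : A.LL2 u v) (hR : A.RR2 r d b) :
    A.N (u ++ r) = u.length + d ∧ A.zm (u ++ r) v = b := by
  obtain ⟨k0, hk0, hu, hlam⟩ := hL
  obtain ⟨k, b0, hk, huniq, hrho, rfl, rfl⟩ := hR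
  have hck0 := A.hc k0 hk0
  have h1 : (u ++ r).drop A.p0 = r.drop (A.p0 - A.c k0) := by
    rw [List.drop_append, List.drop_of_length_le (by omega), List.nil_append, hu]
  rw [h1] at hB
  have hkk : k0 = k := huniq k0 hk0 hB
  subst hkk
  have h2 : (u ++ r).take A.p0 = u ++ r.take (A.p0 - A.c k0) := by
    rw [List.take_append, List.take_of_length_le (by omega), hu]
  constructor
  · unfold N
    rw [h1, hu]
    omega
  · unfold zm
    rw [h1, h2, ← A.sound2 k0 hk u (r.take (A.p0 - A.c k0)) v b0 hu hlam hrho]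

theorem R_of_take (r : Rule α) {Y : List α} {L t : ℕ} (h : r.R ((Y.take L).drop t)) :
    r.R (Y.drop t) := by
  have h1 := r.len _ h
  have h2 := r.pos
  rw [List.length_drop] at h1
  have h3 := R_left r (P := Y.take L) (Q := Y.drop L) (t := t) (by omega)
  rw [List.take_append_drop] at h3
  exact h3.2 h

theorem R_take_iff (r : Rule α) {Y : List α} {L t : ℕ} (hL : L ≤ Y.length) (h : t + r.n ≤ L) :
    r.R ((Y.take L).drop t) ↔ r.R (Y.drop t) := by
  have h3 := R_left r (P := Y.take L) (Q := Y.drop L) (t := t)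
    (by rw [List.length_take]; omega)
  rw [List.take_append_drop] at h3
  exact h3.symm

/-- a qualifying wall exists -/
theorem exists_QW {Y : List α} (hY : A.Cl Y) (hl : A.T1 + A.Go + A.C.r.n ≤ Y.length) :
    ∃ t, A.C.QW Y t ∧ t ≤ A.T1 + A.Go := by
  obtain ⟨i, hi, hR⟩ := A.gapO (Y.drop A.T1) (A.cl_infix _ _ hY (List.drop_suffix _ _).isInfix)
    (by rw [List.length_drop]; omega)
  rw [List.drop_drop] at hR
  exact ⟨A.T1 + i, ⟨hR, le_trans (A.hT1 _) (by omega)⟩, by omega⟩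

theorem nz_bounds {Y : List α} (hY : A.Cl Y) (hl : A.T1 + A.Go + A.C.r.n ≤ Y.length) :
    A.T0 ≤ A.C.nz Y ∧ A.C.nz Y ≤ A.T1 + A.Go := by
  obtain ⟨t, ht, hle⟩ := A.exists_QW hY hl
  refine ⟨le_trans (A.hT0 _) (A.C.nz_spec ⟨t, ht⟩).2, le_trans (A.C.nz_le ht) hle⟩

/-- length of right context for everything local in `Y` -/
def Lb : ℕ := A.T1 + A.Go + A.C.r.n + A.D.r.n + A.C.q * A.C.Om

theorem bad_take {Y : List α} (hY : A.Cl Y) {L : ℕ} (hL : A.Lb ≤ L) (hLY : L ≤ Y.length) :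
    Bad A.D A.C (Y.take L) ↔ Bad A.D A.C Y := by
  unfold Lb at hL
  obtain ⟨t0, ht0, hle0⟩ := A.exists_QW hY (by omega)
  have hb := A.nz_bounds hY (by omega)
  have hnz := (A.C.nz_take ⟨t0, ht0⟩ (L := L) (by omega) hLY).2
  unfold Bad
  rw [hnz]
  refine or_congr ?_ (or_congr ?_ Iff.rfl)
  · unfold Ch.E
    refine exists_congr fun t => ?_
    constructor
    · rintro ⟨h1, h2, h3⟩
      exact ⟨R_of_take _ h1, h2, h3⟩
    · rintro ⟨h1, h2, h3⟩
      have := A.hT1 (t % A.C.q)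
      exact ⟨(R_take_iff A.C.r hLY (by omega)).2 h1, h2, h3⟩
  · refine exists_congr fun k => and_congr_right fun hk => exists_congr fun t => ?_
    refine and_congr_right fun h1 => and_congr_right fun h2 => ?_
    have h3 := A.D.monoA hk
    have h4 := A.hAM
    exact R_take_iff A.D.r hLY (by omega)

theorem leg_take {Q : List α} (h : A.C.Leg Q) (L : ℕ) : A.C.Leg (Q.take L) :=
  fun t h1 => h t (R_of_take _ h1)

theorem complete1 {y : List α} (hy : A.Cl y) {Dd : ℕ} (hD : A.Lb ≤ Dd)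
    (hl : A.p0 + A.C.q * A.C.Om + Dd ≤ y.length) (hB : ¬ Bad A.D A.C (y.drop A.p0)) (v : V) :
    ∃ i, A.p0 ≤ i ∧ i ≤ A.p0 + A.C.q * A.C.Om ∧ A.LL1 (y.take i) v ∧
      ∃ d b, A.RR1 ((y.drop i).take Dd) d b := by
  classical
  have hLb : A.Lb = A.T1 + A.Go + A.C.r.n + A.D.r.n + A.C.q * A.C.Om := rfl
  set Y := y.drop A.p0 with hYdef
  have hY : A.Cl Y := A.cl_infix _ _ hy (List.drop_suffix _ _).isInfix
  have hYl : Y.length = y.length - A.p0 := by rw [hYdef, List.length_drop]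
  obtain ⟨t0, ht0, -⟩ := A.exists_QW hY (by omega)
  have hb := A.nz_bounds hY (by omega)
  have hZl : (A.Z Y).length = A.C.nz Y := by
    unfold Z
    rw [List.length_take]
    omega
  have hZc : A.Cl (A.Z Y) := A.cl_infix _ _ hY (List.take_prefix _ _).isInfix
  unfold Bad at hB
  rw [not_or, not_or] at hB
  obtain ⟨hB1, hB2, hB3⟩ := hB
  have hex : ∀ k, k ≤ A.D.m → ∃ t, FW A.D.r (A.Z Y) (A.D.A k) t ∧ t ≤ A.D.A k + A.G := by
    intro k hk
    have h3 := A.D.monoA hk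
    have h4 := A.hT0A
    obtain ⟨i, hi, hR⟩ := A.gapS ((A.Z Y).drop (A.D.A k))
      (A.cl_infix _ _ hZc (List.drop_suffix _ _).isInfix)
      (by rw [List.length_drop, hZl]; omega)
    rw [List.drop_drop] at hR
    have hex' : ∃ t, A.D.A k ≤ t ∧ A.D.r.R ((A.Z Y).drop t) := ⟨_, by omega, hR⟩
    refine ⟨Nat.find hex', ⟨(Nat.find_spec hex').1, (Nat.find_spec hex').2, fun t' h5 h6 h7 => ?_⟩,
      ?_⟩
    · exact Nat.find_min hex' h6 ⟨h5, h7⟩
    · exact le_trans (Nat.find_le (n := A.D.A k + i) ⟨by omega, hR⟩) (by omega)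
  choose! H hH hHG using hex
  obtain ⟨P, Q, i, om, hPQ, hi, hP, hl1, hu1, hLL, b, hRR⟩ :=
    A.D.complete A.n3 A.hF (G := A.G) (Z := A.Z Y) (by rw [hZl]; exact hB3) H hH hHG A.hlo
      (fun k hk t h5 h6 h7 => hB2 ⟨k, hk, t, h5, h6, R_of_take _ h7⟩)
      (fun i hi => by
        have h5 := A.hcell i hi
        have h6 := A.hT0Om
        have h7 : A.D.q * (A.D.lo i + A.D.M) ≤ A.D.q * (A.C.Om + 1) := Nat.mul_le_mul_left _ h5
        rw [hZl]
        omega)
      (A.D.act v (A.D.phi (y.take A.p0)) + A.nu2 (y.take A.p0))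
  have hom : om ≤ A.C.Om := by
    have := A.hcell i hi
    omega
  have hPle : P.length ≤ A.C.q * A.C.Om := by
    rw [hP, ← A.hCq]; exact Nat.mul_le_mul_left _ hom
  have hPY : P = Y.take P.length := by
    have h5 : P <+: Y := by
      refine List.IsPrefix.trans ⟨Q, hPQ.symm⟩ ?_
      unfold Z
      exact List.take_prefix _ _
    exact (List.prefix_iff_eq_take.1 h5)
  have hYsplit : Y = P ++ Y.drop P.length := by
    conv_lhs => rw [← List.take_append_drop P.length Y]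
    rw [← hPY]
  set Q' := Y.drop P.length with hQ'
  have hQ'c : A.Cl Q' := A.cl_infix _ _ hY (List.drop_suffix _ _).isInfix
  have hQ'l : Q'.length = Y.length - P.length := by rw [hQ', List.length_drop]
  obtain ⟨t1, ht1, -⟩ := A.exists_QW hQ'c (by omega)
  have hb' := A.nz_bounds hQ'c (by omega)
  have hleg : A.C.Leg Q' := by
    have := A.C.leg_of_not_E hB1 hom
    rwa [A.hCq, ← hP] at this
  obtain ⟨-, hj⟩ := A.C.junction (P := P) (Q := Q') (om := om) (by rw [hP, A.hCq]) hom hleg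
    ⟨t1, ht1⟩
  have hQQ : Q = A.Z Q' := by
    have h5 : A.Z Y = P ++ A.Z Q' := by
      unfold Z
      rw [hYsplit, hj, List.take_length_add_append]
    rw [h5] at hPQ
    exact (List.append_cancel_left hPQ).symm
  have hdrop : y.drop (A.p0 + P.length) = Q' := by
    rw [hQ', hYdef, List.drop_drop]
  refine ⟨A.p0 + P.length, by omega, by omega, ⟨?_, ?_⟩, ?_⟩
  · rw [List.length_take]; omega
  · have h5 : (y.take (A.p0 + P.length)).drop A.p0 = P := by
      rw [List.drop_take, Nat.add_sub_cancel_left, ← hYdef, ← hPY]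
    have h6 : (y.take (A.p0 + P.length)).take A.p0 = y.take A.p0 := by
      rw [List.take_take, Nat.min_eq_left (by omega)]
    rw [h5, h6]
    exact hLL
  · rw [hdrop]
    obtain ⟨h7, h8⟩ := A.C.nz_take (Y := Q') ⟨t1, ht1⟩ (L := Dd) (by omega) (by omega)
    refine ⟨_, b, A.leg_take hleg Dd, ⟨_, h7⟩, rfl, ?_⟩
    have h9 : A.Z (Q'.take Dd) = A.Z Q' := by
      unfold Z
      rw [h8, List.take_take, Nat.min_eq_left (by omega)]
    rw [h9, ← hQQ]
    exact hRR

theorem complete2' {y : List α} (hy : A.Cl y) {Dd : ℕ} (hD : A.p0 + A.Lb ≤ Dd)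
    (hl : A.p0 + A.p0 + Dd ≤ y.length) (hls : A.Ls ≤ y.length)
    (hB : Bad A.D A.C (y.drop A.p0)) (v : V) :
    ∃ k, k < A.K ∧ A.LL2 (y.take (A.c k)) v ∧ ∃ d b, A.RR2 ((y.drop (A.c k)).take Dd) d b := by
  classical
  obtain ⟨J, hJ, hJs⟩ := A.spoil y hy hls
  obtain ⟨I, hI, hIs⟩ := A.complete2 (y.take A.p0) v (fun k hk => by
    rw [List.length_take]
    have := A.hc k hk
    omega)
  obtain ⟨k, hkI, hkJ⟩ : ∃ k ∈ I, k ∉ J := by
    by_contra hcon
    push Not at hcon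
    have := Finset.card_le_card (fun k hk => hcon k hk : I ⊆ J)
    omega
  obtain ⟨hk, hlam, hrho⟩ := hIs k hkI
  have hck := A.hc k hk
  have hdt : ∀ k', k' < A.K → ((y.drop (A.c k)).take Dd).drop (A.p0 - A.c k') =
      (y.drop (A.p0 + A.c k - A.c k')).take (Dd - (A.p0 - A.c k')) := by
    intro k' hk'
    have hck' := A.hc k' hk'
    rw [List.drop_take, List.drop_drop]
    congr 2
    omega
  have hloc : ∀ k', k' < A.K → (Bad A.D A.C (((y.drop (A.c k)).take Dd).drop (A.p0 - A.c k')) ↔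
      Bad A.D A.C (y.drop (A.p0 + A.c k - A.c k'))) := by
    intro k' hk'
    have hck' := A.hc k' hk'
    rw [hdt k' hk']
    refine A.bad_take (A.cl_infix _ _ hy (List.drop_suffix _ _).isInfix) (by omega) ?_
    rw [List.length_drop]
    omega
  obtain ⟨b0, hb0⟩ := Option.isSome_iff_exists.1 hrho
  refine ⟨k, hk, ⟨k, hk, by rw [List.length_take]; omega, ?_⟩, ?_⟩
  · rw [List.take_take, Nat.min_eq_left hck] at hlam
    exact hlam
  · refine ⟨_, _, k, b0, hk, ?_, ?_, rfl, rfl⟩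
    · intro k' hk' hbad
      by_contra hne
      exact hkJ (hJs k hk k' hk' (fun h => hne h.symm) ((hloc k' hk').1 hbad))
    · rw [List.take_take, Nat.min_eq_left (by omega)]
      rw [List.drop_take] at hb0
      exact hb0

/-- locality of the next anchor and of the zone map -/
theorem N_take {y : List α} (hy : A.Cl y) {L : ℕ} (hL : A.p0 + A.T1 + A.Go + A.C.r.n ≤ L)
    (hLy : L ≤ y.length) : A.N (y.take L) = A.N y ∧ ∀ v, A.zm (y.take L) v = A.zm y v := by
  have hY : A.Cl (y.drop A.p0) := A.cl_infix _ _ hy (List.drop_suffix _ _).isInfix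
  have hYl : (y.drop A.p0).length = y.length - A.p0 := List.length_drop ..
  obtain ⟨t0, ht0, -⟩ := A.exists_QW hY (by omega)
  have hb := A.nz_bounds hY (by omega)
  obtain ⟨-, h8⟩ := A.C.nz_take (Y := y.drop A.p0) ⟨t0, ht0⟩ (L := L - A.p0) (by omega) (by omega)
  have h1 : (y.take L).drop A.p0 = (y.drop A.p0).take (L - A.p0) := by rw [List.drop_take]
  have h2 : (y.take L).take A.p0 = y.take A.p0 := by
    rw [List.take_take, Nat.min_eq_left (by omega)]
  constructor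
  · unfold N
    rw [h1, h8]
  · intro v
    unfold zm
    have h3 : A.Z ((y.take L).drop A.p0) = A.Z (y.drop A.p0) := by
      unfold Z
      rw [h1, h8, List.take_take, Nat.min_eq_left (by omega)]
    rw [h2, h3]

theorem N_bounds {y : List α} (hy : A.Cl y) (hl : A.p0 + A.T1 + A.Go + A.C.r.n ≤ y.length) :
    A.p0 + A.T0 ≤ A.N y ∧ A.N y ≤ A.p0 + A.T1 + A.Go := by
  have hY : A.Cl (y.drop A.p0) := A.cl_infix _ _ hy (List.drop_suffix _ _).isInfix
  have hb := A.nz_bounds hY (by rw [List.length_drop]; omega)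
  unfold N
  omega

end Par

end Crest.Agent.R320.CoreB_805
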