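import Crest.Agent.R320.Ruler2_537
import Crest.Agent.R320.Wall_291
import Crest.Agent.R320.Gad1_420
import Crest.Agent.R320.ExactR_237

/-!
Row 320, helper59: the concrete two-scheme core (chain 132 #12664) from a list of constants.
-/

set_option autoImplicit false
set_option linter.unusedSectionVars false

namespace Crest.Agent.R320.CoreC_59

open Crest.Agent.R320.ThrChain260 Crest.Agent.R320.Ruler2_537

section basic

variable {α : Type*}

/-- walls of a word which starts at the coordinate `x` -/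
def WZ (R : List α → Prop) (w : List α) (x : ℤ) (t : ℤ) : Prop :=
  ∃ k : ℕ, t = x + k ∧ R (w.drop k)

structure Rul (R : List α → Prop) (n : ℕ) : Prop where
  loc : ∀ Q, R Q ↔ R (Q.take n)
  len : ∀ Q, R Q → n ≤ Q.length
  pos : 0 < n

theorem Rul.take {R : List α → Prop} {n : ℕ} (h : Rul R n) {Q : List α} {j : ℕ} (hj : n ≤ j) :
    R (Q.take j) ↔ R Q := by
  rw [h.loc (Q.take j), h.loc Q, List.take_take, min_eq_left hj]

theorem Rul.fit {R : List α → Prop} {n : ℕ} (h : Rul R n) {Q : List α} {k : ℕ}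
    (hj : R (Q.drop k)) : k + n ≤ Q.length := by
  have h1 := h.len _ hj
  have h2 := h.pos
  rw [List.length_drop] at h1
  omega

theorem WZ.ge {R : List α → Prop} {w : List α} {x t : ℤ} (h : WZ R w x t) : x ≤ t := by
  obtain ⟨k, hk, -⟩ := h; omega

theorem WZ_shift (R : List α → Prop) (w : List α) (x y : ℤ) (t : ℤ) :
    WZ R w x (t + y) ↔ WZ R w (x - y) t := by
  constructor
  · rintro ⟨k, hk, h⟩; exact ⟨k, by omega, h⟩
  · rintro ⟨k, hk, h⟩; exact ⟨k, by omega, h⟩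

theorem WZ_append (R : List α → Prop) (u r : List α) (x t : ℤ) (h : x + u.length ≤ t) :
    WZ R (u ++ r) x t ↔ WZ R r (x + u.length) t := by
  constructor
  · rintro ⟨k, hk, h'⟩
    refine ⟨k - u.length, by omega, ?_⟩
    have : k = u.length + (k - u.length) := by omega
    rw [this, ← List.drop_drop, List.drop_left] at h'
    exact h'
  · rintro ⟨k, hk, h'⟩
    refine ⟨u.length + k, by push_cast; omega, ?_⟩
    rw [← List.drop_drop, List.drop_left]
    exact h'

theorem WZ_drop (R : List α → Prop) (y : List α) (o : ℕ) (ho : o ≤ y.length) (t : ℤ)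
    (h : (o : ℤ) ≤ t) : WZ R y 0 t ↔ WZ R (y.drop o) o t := by
  have h1 := WZ_append R (y.take o) (y.drop o) 0 t (by rw [List.length_take]; omega)
  rw [List.take_append_drop] at h1
  rw [h1, List.length_take, min_eq_left ho, zero_add]

theorem WZ_take {R : List α → Prop} {n : ℕ} (hR : Rul R n) (w : List α) (l : ℕ) (x t : ℤ)
    (h : t + n ≤ x + l) : WZ R (w.take l) x t ↔ WZ R w x t := by
  constructor
  · rintro ⟨k, hk, h'⟩
    refine ⟨k, hk, ?_⟩
    rw [List.drop_take] at h'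
    exact (hR.take (by omega)).1 h'
  · rintro ⟨k, hk, h'⟩
    refine ⟨k, hk, ?_⟩
    rw [List.drop_take]
    exact (hR.take (by omega)).2 h'

theorem WZ_gap {R : List α → Prop} {W : ℕ} (hg : ∀ Q d, R Q → 0 < d → d ≤ W → ¬ R (Q.drop d))
    (w : List α) (x : ℤ) {B : ℤ} (hB : B ≤ W) (t t' : ℤ) (h : WZ R w x t) (h' : WZ R w x t')
    (hlt : t < t') : B < t' - t := by
  obtain ⟨k, hk, h1⟩ := h
  obtain ⟨k', hk', h1'⟩ := h'
  by_contra hc
  refine hg (w.drop k) (k' - k) h1 (by omega) (by omega) ?_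
  rw [List.drop_drop, show k + (k' - k) = k' by omega]
  exact h1'

end basic

section chain

variable {P : Par}

theorem qual_shift (W : ℤ → Prop) (x a t : ℤ) :
    Qual P (fun t => W (t + x)) a t ↔ Qual P W (a + x) (t + x) := by
  unfold Qual
  rw [show t + x - (a + x) - P.z = t - a - P.z by ring]

theorem isN_shift (W : ℤ → Prop) (x a t : ℤ) :
    IsN P (fun t => W (t + x)) a t ↔ IsN P W (a + x) (t + x) := by
  unfold IsN
  rw [qual_shift]
  constructor
  · rintro ⟨h1, h2⟩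
    refine ⟨h1, fun t' ht' h => h2 (t' - x) (by omega) ?_⟩
    rw [qual_shift, sub_add_cancel]
    exact h
  · rintro ⟨h1, h2⟩
    refine ⟨h1, fun t' ht' h => h2 (t' + x) (by omega) ?_⟩
    rw [qual_shift] at h
    exact h

theorem qualR_shift (W : ℤ → Prop) (x a t : ℤ) :
    QualR P (fun t => W (t + x)) a t ↔ QualR P W (a + x) (t + x) := by
  unfold QualR
  rw [show t + x - (a + x) + P.p0 - P.z = t - a + P.p0 - P.z by ring]

theorem isB_shift (W : ℤ → Prop) (x a t : ℤ) :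
    IsB P (fun t => W (t + x)) a t ↔ IsB P W (a + x) (t + x) := by
  unfold IsB
  rw [qualR_shift]
  constructor
  · rintro ⟨h1, h2⟩
    refine ⟨h1, fun t' ht' h => h2 (t' - x) (by omega) ?_⟩
    rw [qualR_shift, sub_add_cancel]
    exact h
  · rintro ⟨h1, h2⟩
    refine ⟨h1, fun t' ht' h => h2 (t' + x) (by omega) ?_⟩
    rw [qualR_shift] at h
    exact h

theorem legal_shift (W : ℤ → Prop) (x a : ℤ) :
    Legal P (fun t => W (t + x)) a ↔ Legal P W (a + x) := by
  unfold Legal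
  constructor
  · intro h t ht
    have := h (t - x) (show W (t - x + x) by rw [sub_add_cancel]; exact ht)
    rw [show t - x - a + P.p0 - P.z = t - (a + x) + P.p0 - P.z by ring] at this
    exact this
  · intro h t ht
    have := h (t + x) ht
    rw [show t + x - (a + x) + P.p0 - P.z = t - a + P.p0 - P.z by ring] at this
    exact this

theorem E_shift (W : ℤ → Prop) (x a : ℤ) :
    E P (fun t => W (t + x)) a ↔ E P W (a + x) := by
  unfold E
  constructor
  · rintro ⟨t, ht, h⟩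
    refine ⟨t + x, ht, ?_⟩
    rw [show t + x - (a + x) - P.z = t - a - P.z by ring]
    exact h
  · rintro ⟨t, ht, h⟩
    refine ⟨t - x, show W (t - x + x) by rw [sub_add_cancel]; exact ht, ?_⟩
    rw [show t - x - a - P.z = t - (a + x) - P.z by ring]
    exact h

theorem bad_shift (W Ws : ℤ → Prop) (A : ℕ → ℤ) (D : ℤ) (K : ℕ) (m : ℕ → ℤ) (r : ℕ) (x a : ℤ) :
    Bad P (fun t => W (t + x)) (fun t => Ws (t + x)) A D K m r a ↔
      Bad P W Ws A D K m r (a + x) := by
  unfold Bad DBad BBad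
  rw [E_shift]
  constructor
  · rintro (h | ⟨k, hk, u, hu, h⟩ | ⟨i, hi, b, hb, h⟩)
    · exact Or.inl h
    · refine Or.inr (Or.inl ⟨k, hk, u + x, hu, ?_⟩)
      rw [show u + x - (a + x) - A k = u - a - A k by ring]
      exact h
    · refine Or.inr (Or.inr ⟨i, hi, b + x, (isN_shift W x a b).1 hb, ?_⟩)
      rw [show b + x - (a + x) - P.p0 = b - a - P.p0 by ring]
      exact h
  · rintro (h | ⟨k, hk, u, hu, h⟩ | ⟨i, hi, b, hb, h⟩)
    · exact Or.inl h
    · refine Or.inr (Or.inl ⟨k, hk, u - x, ?_, ?_⟩)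
      · change Ws (u - x + x)
        rw [sub_add_cancel]
        exact hu
      · rw [show u - x - a - A k = u - (a + x) - A k by ring]
        exact h
    · refine Or.inr (Or.inr ⟨i, hi, b - x, (isN_shift W x a (b - x)).2 ?_, ?_⟩)
      · rw [sub_add_cancel]; exact hb
      · rw [show b - x - a - P.p0 = b - (a + x) - P.p0 by ring]
        exact h

theorem isN_congr {W W' : ℤ → Prop} {a b : ℤ}
    (h : ∀ t, a + P.z - (P.S - P.N1) ≤ t → t ≤ b → (W t ↔ W' t)) (hN : IsN P W a b) :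
    IsN P W' a b := by
  have hg := qual_ge hN.1
  refine ⟨⟨(h b hg le_rfl).1 hN.1.1, hN.1.2⟩, fun t' ht' hq => ?_⟩
  have hg' := qual_ge hq
  exact hN.2 t' ht' ⟨(h t' hg' ht'.le).2 hq.1, hq.2⟩

theorem E_congr {W W' : ℤ → Prop} {a : ℤ}
    (h : ∀ t, a + P.z - P.S ≤ t → t ≤ a + P.z + P.S → (W t ↔ W' t)) (hE : E P W a) :
    E P W' a := by
  obtain ⟨t, ht, h1⟩ := hE
  have h2 := abs_le.1 h1
  have h3 := s_ge (P := P) ((t - a - P.z) % P.M)
  have h4 := s_le (P := P) ((t - a - P.z) % P.M)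
  exact ⟨t, (h t (by linarith [h2.1, h2.2]) (by linarith [h2.1, h2.2])).1 ht, h1⟩

theorem bad_congr_aux {W W' Ws Ws' : ℤ → Prop} {A : ℕ → ℤ} {D : ℤ} {K : ℕ} {m : ℕ → ℤ} {r : ℕ}
    {a lo hi : ℤ}
    (h1 : ∀ t, lo ≤ t → t ≤ hi → (W t ↔ W' t)) (h2 : ∀ t, lo ≤ t → t ≤ hi → (Ws t ↔ Ws' t))
    (hlo : lo ≤ a + P.z - P.S) (hhi : a + P.z + P.S ≤ hi)
    (hA : ∀ k < K, lo ≤ a + A k - D ∧ a + A k + D ≤ hi)
    {b0 : ℤ} (hb0 : b0 ≤ hi) (hN : IsN P W a b0)
    (hB : Bad P W Ws A D K m r a) : Bad P W' Ws' A D K m r a := by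
  have hN1 := P.hN
  rcases hB with h | ⟨k, hk, u, hu, h⟩ | ⟨i, hi', b, hb, h⟩
  · exact Or.inl (E_congr (fun t ht ht' => h1 t (by linarith) (by linarith)) h)
  · refine Or.inr (Or.inl ⟨k, hk, u, ?_, h⟩)
    have h3 := abs_le.1 h
    obtain ⟨h4, h5⟩ := hA k hk
    exact (h2 u (by linarith [h3.1]) (by linarith [h3.2])).1 hu
  · refine Or.inr (Or.inr ⟨i, hi', b, ?_, h⟩)
    have hbb : b = b0 := isN_unique hb hN
    subst hbb
    exact isN_congr (fun t ht ht' => h1 t (by linarith) (by linarith)) hb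

theorem bad_congr {W W' Ws Ws' : ℤ → Prop} {A : ℕ → ℤ} {D : ℤ} {K : ℕ} {m : ℕ → ℤ} {r : ℕ}
    {a lo hi : ℤ}
    (h1 : ∀ t, lo ≤ t → t ≤ hi → (W t ↔ W' t)) (h2 : ∀ t, lo ≤ t → t ≤ hi → (Ws t ↔ Ws' t))
    (hlo : lo ≤ a + P.z - P.S) (hhi : a + P.z + P.S ≤ hi)
    (hA : ∀ k < K, lo ≤ a + A k - D ∧ a + A k + D ≤ hi)
    {b0 : ℤ} (hb0 : b0 ≤ hi) (hN : IsN P W a b0) :
    Bad P W Ws A D K m r a ↔ Bad P W' Ws' A D K m r a := by
  have hN1 := P.hN
  constructor
  · exact bad_congr_aux h1 h2 hlo hhi hA hb0 hN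
  · have hN' : IsN P W' a b0 :=
      isN_congr (fun t ht ht' => h1 t (by linarith) (by linarith)) hN
    exact bad_congr_aux (fun t ht ht' => (h1 t ht ht').symm) (fun t ht ht' => (h2 t ht ht').symm)
      hlo hhi hA hb0 hN'

end chain

section main

open Crest.Agent.R320.Gad1_420 Crest.Agent.R320.ExactR_237

variable {α S V W : Type} [Monoid S] [AddCommGroup V] [AddCommGroup W]

/-- the data of the two schemes -/
structure Cs (α S V W : Type) [Monoid S] [AddCommGroup V] [AddCommGroup W] where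
  f : α → S
  G : List α → Prop
  P : Par
  Ro : List α → Prop
  no : ℕ
  Go : ℕ
  Wo : ℕ
  Wi : ℕ
  D : Dat α S V W
  nu1 : List α → V
  mo : ℕ → ℤ
  r : ℕ
  c : ℕ → ℕ
  K : ℕ
  lam : ℕ → List α → Option V
  rho : ℕ → List α → S → Option V
  nu2 : List α → S → V
  B : ℕ
  p : ℕ
  q : ℕ

variable (C : Cs α S V W)

/-- radius of doubt of scheme 1 -/
def Cs.DD : ℤ := ((C.D.M' * C.D.M : ℕ) : ℤ)

/-- levels as integers, from the anchor -/
def Cs.AZ (k : ℕ) : ℤ := C.P.p0 + (C.D.A k : ℕ)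

/-- the anchor at the coordinate `a` is bad in the word `y` which starts at `0` -/
def Cs.BadAt (y : List α) (a : ℤ) : Prop :=
  Bad C.P (WZ C.Ro y 0) (WZ C.D.R y 0) C.AZ C.DD (C.D.m + 1) C.mo C.r a

structure Cs.Ok (C : Cs α S V W) : Prop where
  Gdrop : ∀ Q i, C.G Q → C.G (Q.drop i)
  Gtake : ∀ Q i, C.G Q → C.G (Q.take i)
  hadd : ∀ v w s, C.D.act (v + w) s = C.D.act v s + C.D.act w s
  hmul : ∀ v s t, C.D.act (C.D.act v s) t = C.D.act v (s * t)
  hφ : C.D.φ = pr C.f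
  ruleO : Rul C.Ro C.no
  ruleS : Rul C.D.R C.D.n
  gapO : ∀ Q d, C.Ro Q → 0 < d → d ≤ C.Wo → ¬ C.Ro (Q.drop d)
  gapS : ∀ Q d, C.D.R Q → 0 < d → d ≤ C.Wi → ¬ C.D.R (Q.drop d)
  hWo : 2 * (C.P.S + C.P.L) ≤ C.Wo
  hWi : 2 * (C.DD + C.P.L) ≤ C.Wi
  wallO : ∀ Q, C.G Q → C.Go + C.no ≤ Q.length → ∃ i < C.Go, C.Ro (Q.drop i)
  wallS : ∀ Q, C.G Q → C.D.G + C.D.n ≤ Q.length → ∃ i < C.D.G, C.D.R (Q.drop i)
  hp : (C.p : ℤ) = C.P.p0
  hM : C.P.M = (C.D.M' : ℤ)
  hM' : 0 < C.D.M'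
  /-- the zone is longer than everything of scheme 1 -/
  hz : C.P.p0 + C.P.L + C.P.S ≤ C.P.z
  hz1 : ∀ k ≤ C.D.m, C.P.p0 + (C.D.A k : ℕ) + C.DD + C.D.G + C.D.n + C.P.S ≤ C.P.z
  hz2 : C.P.p0 + C.P.N1 + C.P.S + 1 ≤ C.P.z
  hA0 : ∀ k ≤ C.D.m, C.P.L + C.DD ≤ (C.D.A k : ℕ)
  hB : C.P.z + C.P.S + C.Go + C.no + 1 ≤ C.B
  hBs : C.D.n ≤ C.B
  hLp : C.P.L ≤ C.P.p0
  hq : C.B - (C.P.z - C.P.S) ≤ C.q
  hqp : C.q ≤ C.p
  hr : ∀ i < C.r, True
  g1 : ∀ P Q v r, C.D.Lf P = some v → C.D.Rf Q = some r →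
        r = C.D.act v (C.D.φ (P ++ Q)) + C.nu1 (P ++ Q)
  g2 : ∀ P v, C.D.Lf P = some v → C.D.M' ∣ P.length ∧ (P.length : ℤ) ≤ C.P.N1
  g3 : ∀ Y : List α, (∀ i < C.r, ¬ C.mo i ∣ ((Y.length / C.D.M' : ℕ) : ℤ)) →
        (C.P.N1 ≤ (Y.length : ℤ)) →
        (∀ t, t ≤ C.D.A C.D.m + C.D.M' * C.D.M → ∃ s, t ≤ s ∧ s < t + C.D.G ∧ C.D.R (Y.drop s)) →
        (∀ k, k ≤ C.D.m → ∀ s, C.D.A k ≤ s + C.D.M' * C.D.M → s < C.D.A k + C.D.M' * C.D.M →
          ¬ C.D.R (Y.drop s)) →
        ∀ v, ∃ P Q, P ++ Q = Y ∧ C.D.Lf P = some v ∧ (C.D.Rf Q).isSome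
  cq : ∀ k < C.K, C.q ≤ C.c k ∧ C.c k ≤ C.p
  cinj : ∀ k < C.K, ∀ k' < C.K, C.c k = C.c k' → k = k'
  ruler : Ruler2 C.P C.DD C.mo C.r ((Finset.range C.K).image fun k => (C.c k : ℤ))
  e1 : ∀ k < C.K, ∀ (P Q : List α) (y : S) (v b : V), P.length = C.c k →
          C.lam k P = some v → C.rho k Q y = some b →
          b = C.D.act v (pr C.f (P ++ Q) * y) + C.nu2 (P ++ Q) y
  e2 : ∀ (u : List α) (y : S) (v : V), (∀ k < C.K, C.c k ≤ u.length) →
          ∃ I : Finset ℕ, 1 + (C.D.m + 1) + 2 * C.r < I.card ∧ ∀ k ∈ I, k < C.K ∧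
            C.lam k (u.take (C.c k)) = some v ∧ (C.rho k (u.drop (C.c k)) y).isSome

variable {C}

open Classical in
/-- distance to the next anchor -/
noncomputable def Cs.N (C : Cs α S V W) (x : List α) : ℕ :=
  if h : ∃ d : ℕ, IsN C.P (WZ C.Ro x 0) 0 d then h.choose else C.B

noncomputable def Cs.nu (C : Cs α S V W) (x : List α) : V :=
  C.D.act (C.nu2 (x.take C.p) 1) (C.D.φ ((x.take (C.N x)).drop C.p)) +
    C.nu1 ((x.take (C.N x)).drop C.p)

noncomputable def Cs.A (C : Cs α S V W) (v : V) (x : List α) : V :=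
  C.D.act v (pr C.f (x.take (C.N x))) + C.nu x

def Cs.L1 (C : Cs α S V W) (u : List α) (v : V) : Prop :=
  C.p ≤ u.length ∧
    C.D.Lf (u.drop C.p) = some (C.D.act v (C.D.φ (u.take C.p)) + C.nu2 (u.take C.p) 1)

def Cs.R1r (C : Cs α S V W) (Q : List α) (d : ℕ) (R : V) : Prop :=
  Legal C.P (WZ C.Ro Q 0) 0 ∧ IsB C.P (WZ C.Ro Q 0) 0 d ∧ C.D.Rf (Q.take d) = some R

def Cs.L2 (C : Cs α S V W) (u : List α) (v : V) : Prop :=
  ∃ k < C.K, u.length = C.c k ∧ C.lam k u = some v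

def Cs.R2r (C : Cs α S V W) (Q : List α) (d : ℕ) (R : V) : Prop :=
  ∃ k < C.K, (∀ k' < C.K, C.BadAt Q (-(C.c k' : ℤ)) → k' = k) ∧
    IsN C.P (WZ C.Ro Q 0) (-(C.c k : ℤ)) d ∧
    ∃ b, C.rho k (Q.take (C.p - C.c k)) 1 = some b ∧
      R = C.D.act b (C.D.φ ((Q.take d).drop (C.p - C.c k))) +
        C.nu1 ((Q.take d).drop (C.p - C.c k))

open Classical in
noncomputable def Cs.R1 (C : Cs α S V W) (Q : List α) : Option (ℕ × V) :=
  if h : ∃ x : ℕ × V, C.R1r Q x.1 x.2 then some h.choose else none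

open Classical in
noncomputable def Cs.R2 (C : Cs α S V W) (Q : List α) : Option (ℕ × V) :=
  if h : ∃ x : ℕ × V, C.R2r Q x.1 x.2 then some h.choose else none

theorem R1_some {Q : List α} {x : ℕ × V} (h : C.R1 Q = some x) : C.R1r Q x.1 x.2 := by
  unfold Cs.R1 at h
  split_ifs at h with h1
  have := h1.choose_spec
  rw [Option.some.inj h] at this
  exact this

theorem R1_isSome {Q : List α} {d : ℕ} {R : V} (h : C.R1r Q d R) : (C.R1 Q).isSome := by
  unfold Cs.R1
  rw [dif_pos ⟨(d, R), h⟩]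
  rfl

theorem R2_some {Q : List α} {x : ℕ × V} (h : C.R2 Q = some x) : C.R2r Q x.1 x.2 := by
  unfold Cs.R2 at h
  split_ifs at h with h1
  have := h1.choose_spec
  rw [Option.some.inj h] at this
  exact this

theorem R2_isSome {Q : List α} {d : ℕ} {R : V} (h : C.R2r Q d R) : (C.R2 Q).isSome := by
  unfold Cs.R2
  rw [dif_pos ⟨(d, R), h⟩]
  rfl

/-- the next anchor exists in good texts, for every (possibly wrong) anchor `a` -/
theorem Cs.Ok.exN (h : C.Ok) {y : List α} (hG : C.G y) {a : ℤ}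
    (ha : 0 ≤ a + C.P.z - C.P.S)
    (hl : a + C.P.z + C.P.S + C.Go + C.no ≤ y.length) :
    ∃ b, IsN C.P (WZ C.Ro y 0) a b ∧ b ≤ a + C.P.z + C.P.S + C.Go := by
  have hN := C.P.hN
  have hS : 0 ≤ C.P.S - C.P.N1 := le_trans (abs_nonneg _) (C.P.hs 0)
  obtain ⟨o, ho⟩ := Int.eq_ofNat_of_zero_le (show 0 ≤ a + C.P.z + (C.P.S - C.P.N1) by omega)
  obtain ⟨i, hi, hw⟩ := h.wallO (y.drop o) (h.Gdrop _ _ hG) (by rw [List.length_drop]; omega)
  have hW : WZ C.Ro y 0 ((o : ℤ) + i) := ⟨o + i, by push_cast; ring, by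
    rw [← List.drop_drop]; exact hw⟩
  obtain ⟨t, ht, -, ht2⟩ := exists_isN (P := C.P) (a := a) hW (by omega)
  exact ⟨t, ht, by omega⟩

/-- `N` of the first `B` letters is the next anchor of the text -/
theorem Cs.Ok.N_eq (h : C.Ok) {y : List α} {b : ℕ} (hN : IsN C.P (WZ C.Ro y 0) 0 b)
    (hb : b + C.no ≤ C.B) : C.N (y.take C.B) = b := by
  have h1 : IsN C.P (WZ C.Ro (y.take C.B) 0) 0 b :=
    isN_congr (fun t _ ht => (WZ_take h.ruleO y C.B 0 t (by omega)).symm) hN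
  unfold Cs.N
  have hex : ∃ d : ℕ, IsN C.P (WZ C.Ro (y.take C.B) 0) 0 d := ⟨b, h1⟩
  rw [dif_pos hex]
  have := isN_unique hex.choose_spec h1
  exact_mod_cast this

theorem Cs.Ok.n_prop (h : C.Ok) {x : List α} (hx : x.length = C.B) :
    0 < C.N x ∧ C.N x ≤ C.B ∧ C.B ≤ C.N x + C.q := by
  have hN := C.P.hN
  have hL := C.P.hL
  have h2 := h.hz2
  have hB := h.hB
  have hq := h.hq
  have hS : 0 ≤ C.P.S - C.P.N1 := le_trans (abs_nonneg _) (C.P.hs 0)
  have hpp : (0 : ℤ) ≤ C.P.p0 := by rw [← h.hp]; positivity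
  unfold Cs.N
  split_ifs with hex
  · have h1 := hex.choose_spec
    have h3 := qual_ge h1.1
    obtain ⟨k, hk, hk2⟩ := h1.1.1
    have h4 := h.ruleO.fit hk2
    have h5 : hex.choose = k := by omega
    rw [h5] at h3 ⊢
    omega
  · omega

/-- the anchor read with the window of a zone -/
theorem Cs.Ok.isN_data (h : C.Ok) {y : List α} (hG : C.G y) (hl : C.B ≤ y.length) :
    ∃ b : ℕ, IsN C.P (WZ C.Ro y 0) 0 b ∧ b + C.no + 1 ≤ C.B ∧
      C.P.z - (C.P.S - C.P.N1) ≤ b ∧ C.N (y.take C.B) = b := by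
  have hN := C.P.hN
  have hS : 0 ≤ C.P.S - C.P.N1 := le_trans (abs_nonneg _) (C.P.hs 0)
  have h2 := h.hz2
  have hB := h.hB
  have hpp : (0 : ℤ) ≤ C.P.p0 := by rw [← h.hp]; positivity
  obtain ⟨b, hb, hb2⟩ := h.exN hG (a := 0) (by omega) (by omega)
  have h3 := qual_ge hb.1
  obtain ⟨b', rfl⟩ := Int.eq_ofNat_of_zero_le (show 0 ≤ b by omega)
  refine ⟨b', hb, by omega, by omega, h.N_eq hb (by omega)⟩

/-- scheme 1, exactness -/
theorem Cs.Ok.s1 (h : C.Ok) {u Q : List α} (hG : C.G (u ++ Q)) (hl : C.B ≤ (u ++ Q).length)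
    {v R : V} {d : ℕ} (hL : C.L1 u v) (hR : C.R1 Q = some (d, R)) :
    C.N ((u ++ Q).take C.B) = u.length + d ∧ C.A v ((u ++ Q).take C.B) = R := by
  obtain ⟨h1, h2, h3⟩ := R1_some hR
  obtain ⟨hp, hLf⟩ := hL
  obtain ⟨hd1, hd2⟩ := h.g2 _ _ hLf
  rw [List.length_drop] at hd1 hd2
  have hz : C.P.p0 + C.P.S ≤ C.P.z := by have := h.hz; have := C.P.hL; omega
  have hpp := h.hp
  -- shift to the coordinates of `u ++ Q`
  have e1 : (fun t => WZ C.Ro Q (u.length : ℤ) (t + u.length)) = WZ C.Ro Q 0 := by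
    funext t; rw [WZ_shift, sub_self]
  have h1' : Legal C.P (WZ C.Ro Q (u.length : ℤ)) u.length := by
    have := (legal_shift (P := C.P) (WZ C.Ro Q (u.length : ℤ)) u.length 0).1
      (by rw [e1]; exact h1)
    rwa [zero_add] at this
  have h2' : IsB C.P (WZ C.Ro Q (u.length : ℤ)) u.length (u.length + d) := by
    have := (isB_shift (P := C.P) (WZ C.Ro Q (u.length : ℤ)) u.length 0 d).1
      (by rw [e1]; exact h2)
    rwa [zero_add, add_comm (d : ℤ)] at this
  have hW : ∀ t, (u.length : ℤ) ≤ t →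
      (WZ C.Ro (u ++ Q) 0 t ↔ WZ C.Ro Q (u.length : ℤ) t) := fun t ht => by
    have := WZ_append C.Ro u Q 0 t (by omega)
    rwa [zero_add] at this
  have h1'' := (legal_congr (P := C.P) hz hW).2 h1'
  have h2'' := (isB_congr (P := C.P) hz hW _).2 h2'
  have hin : InWin C.P 0 u.length := by
    refine ⟨by omega, by omega, ?_⟩
    rw [h.hM]
    have : ((u.length - C.p : ℕ) : ℤ) = (u.length : ℤ) - C.P.p0 - 0 := by omega
    rw [← this]
    exact_mod_cast hd1
  have hN := (isN_iff_isB h1'' hin _).2 h2''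
  obtain ⟨b, hb1, hb2, hb3, hb4⟩ := h.isN_data hG hl
  have hbe : (u.length : ℤ) + d = b := isN_unique hN hb1
  have hbe' : u.length + d = b := by exact_mod_cast hbe
  refine ⟨by rw [hb4, hbe'], ?_⟩
  have hzb : C.p ≤ b := by have := h.hz2; have := C.P.hN; omega
  have hpB : C.p ≤ C.B := by omega
  unfold Cs.A Cs.nu
  rw [hb4, List.take_take, List.take_take, min_eq_left (show b ≤ C.B by omega),
    min_eq_left hpB]
  have hX : (u ++ Q).take C.p = u.take C.p := List.take_append_of_le_length hp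
  have hT : (u ++ Q).take b = u ++ Q.take d := by
    rw [← hbe', List.take_length_add_append]
  have hY : ((u ++ Q).take b).drop C.p = u.drop C.p ++ Q.take d := by
    rw [hT, List.drop_append_of_le_length hp]
  have h4 : R = C.D.act (C.D.act v (C.D.φ (u.take C.p)) + C.nu2 (u.take C.p) 1)
      (C.D.φ (u.drop C.p ++ Q.take d)) + C.nu1 (u.drop C.p ++ Q.take d) := h.g1 _ _ _ _ hLf h3
  rw [hY, hX, hT, h4]
  have h5 : pr C.f (u ++ Q.take d) =
      C.D.φ (u.take C.p) * C.D.φ (u.drop C.p ++ Q.take d) := by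
    rw [h.hφ]
    unfold pr
    rw [← List.prod_append, ← List.map_append, ← List.append_assoc, List.take_append_drop]
  rw [h5, h.hadd, h.hmul, add_assoc]

/-- badness seen from a later place -/
theorem Cs.Ok.bad_iff (h : C.Ok) {y : List α} (hG : C.G y) {o l : ℕ} (ho : o ≤ C.p)
    (hol : o + l ≤ y.length) (hl : 3 * C.B ≤ l) {a : ℤ} (ha : |a| ≤ C.P.L) :
    C.BadAt ((y.drop o).take l) (a - o) ↔ C.BadAt y a := by
  have hN := C.P.hN
  have hLp := C.P.hL
  have hS : 0 ≤ C.P.S - C.P.N1 := le_trans (abs_nonneg _) (C.P.hs 0)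
  have h0 := h.hp
  have h1 := h.hz
  have h2 := h.hz2
  have hB := h.hB
  have hBs := h.hBs
  have hL := h.hLp
  obtain ⟨ha1, ha2⟩ := abs_le.1 ha
  have e1 : ∀ R : List α → Prop, (fun t => WZ R ((y.drop o).take l) (o : ℤ) (t + o)) =
      WZ R ((y.drop o).take l) 0 := by
    intro R; funext t; rw [WZ_shift, sub_self]
  have e2 : C.BadAt ((y.drop o).take l) (a - o) ↔
      Bad C.P (WZ C.Ro ((y.drop o).take l) (o : ℤ)) (WZ C.D.R ((y.drop o).take l) (o : ℤ))
        C.AZ C.DD (C.D.m + 1) C.mo C.r a := by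
    unfold Cs.BadAt
    rw [← e1, ← e1, bad_shift, sub_add_cancel]
  rw [e2]
  unfold Cs.BadAt
  obtain ⟨b0, hb0, hb0'⟩ := h.exN hG (a := a) (by omega) (by omega)
  symm
  refine bad_congr (lo := o) (hi := (o : ℤ) + l - C.no - C.D.n) ?_ ?_ (by omega) (by omega) ?_
    (b0 := b0) (by omega) hb0
  · intro t h3 h4
    rw [WZ_drop C.Ro y o (by omega) t h3, WZ_take h.ruleO (y.drop o) l o t (by omega)]
  · intro t h3 h4
    rw [WZ_drop C.D.R y o (by omega) t h3, WZ_take h.ruleS (y.drop o) l o t (by omega)]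
  · intro k hk
    have h5 := h.hz1 k (by omega)
    have h6 := h.hA0 k (by omega)
    unfold Cs.AZ
    constructor <;> omega

theorem Cs.Ok.s2 (h : C.Ok) {u Q : List α} (hG : C.G (u ++ Q)) (hl : 3 * C.B ≤ Q.length)
    (hBad : C.BadAt (u ++ Q) 0) {v R : V} {d : ℕ} (hL : C.L2 u v) (hR : C.R2 Q = some (d, R)) :
    C.N ((u ++ Q).take C.B) = u.length + d ∧ C.A v ((u ++ Q).take C.B) = R := by
  have hNn := C.P.hN
  have hLl := C.P.hL
  have hS : 0 ≤ C.P.S - C.P.N1 := le_trans (abs_nonneg _) (C.P.hs 0)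
  obtain ⟨k, hk, hku, hlam⟩ := hL
  obtain ⟨k', hk', huniq, hN, b, hb, hRe⟩ := R2_some hR
  simp only at hN hb hRe
  have hcp := (h.cq k hk).2
  have hz0 := h.hz
  have hz2 := h.hz2
  have hpp := h.hp
  have hB := h.hB
  have hbad1 : C.BadAt Q (-(C.c k : ℤ)) := by
    have := (h.bad_iff (y := u ++ Q) hG (o := u.length) (l := Q.length) (by omega)
      (by rw [List.length_append]) hl (a := 0) (by simpa using hLl)).2 hBad
    rw [List.drop_left, List.take_length, zero_sub, hku] at this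
    exact this
  have hkk : k = k' := huniq k hk hbad1
  subst hkk
  have e1 : (fun t => WZ C.Ro Q (u.length : ℤ) (t + u.length)) = WZ C.Ro Q 0 := by
    funext t; rw [WZ_shift, sub_self]
  have h2' : IsN C.P (WZ C.Ro Q (u.length : ℤ)) 0 (u.length + d) := by
    have := (isN_shift (P := C.P) (WZ C.Ro Q (u.length : ℤ)) u.length (-(C.c k : ℤ)) d).1
      (by rw [e1]; exact hN)
    rw [← hku, neg_add_cancel, add_comm (d : ℤ)] at this
    exact this
  have hN' : IsN C.P (WZ C.Ro (u ++ Q) 0) 0 (u.length + d) := by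
    refine isN_congr (fun t ht _ => ?_) h2'
    have := WZ_append C.Ro u Q 0 t (by omega)
    rw [zero_add] at this
    exact this.symm
  obtain ⟨b', hb1, hb2, hb3, hb4⟩ := h.isN_data hG (by rw [List.length_append]; omega)
  have hbe : (u.length : ℤ) + d = b' := isN_unique hN' hb1
  have hbe' : u.length + d = b' := by exact_mod_cast hbe
  refine ⟨by rw [hb4, hbe'], ?_⟩
  have hzb : C.p ≤ b' := by omega
  have hpB : C.p ≤ C.B := by omega
  unfold Cs.A Cs.nu
  rw [hb4, List.take_take, List.take_take, min_eq_left (show b' ≤ C.B by omega),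
    min_eq_left hpB]
  have hX : (u ++ Q).take C.p = u ++ Q.take (C.p - C.c k) := by
    rw [List.take_append, List.take_of_length_le (by omega), hku]
  have hT : (u ++ Q).take b' = u ++ Q.take d := by
    rw [← hbe', List.take_length_add_append]
  have hY : ((u ++ Q).take b').drop C.p = (Q.take d).drop (C.p - C.c k) := by
    rw [hT, List.drop_append, List.drop_of_length_le (by omega), hku, List.nil_append]
  have h4 := h.e1 k hk u (Q.take (C.p - C.c k)) 1 v b hku hlam hb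
  rw [mul_one] at h4
  have h5 : pr C.f ((u ++ Q).take b') =
      pr C.f (u ++ Q.take (C.p - C.c k)) * C.D.φ ((Q.take d).drop (C.p - C.c k)) := by
    rw [h.hφ, ← hX, ← hY]
    unfold pr
    rw [← List.prod_append, ← List.map_append]
    congr 2
    conv_lhs => rw [← List.take_append_drop C.p ((u ++ Q).take b')]
    rw [List.take_take, min_eq_left hzb]
  rw [hY, hX, h5, hRe, h4, h.hadd, h.hmul, add_assoc]

theorem Cs.Ok.c2 (h : C.Ok) {y : List α} (hG : C.G y) (hl : C.B + 3 * C.B ≤ y.length)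
    (hBad : C.BadAt y 0) (v : V) :
    ∃ i ≤ C.B, C.L2 (y.take i) v ∧ (C.R2 ((y.drop i).take (3 * C.B))).isSome := by
  classical
  have hNn := C.P.hN
  have hLl := C.P.hL
  have hS : 0 ≤ C.P.S - C.P.N1 := le_trans (abs_nonneg _) (C.P.hs 0)
  have hz0 := h.hz
  have hz2 := h.hz2
  have hpp := h.hp
  have hB := h.hB
  have hpB : C.p ≤ C.B := by omega
  have hlen : (y.take C.p).length = C.p := by rw [List.length_take]; omega
  obtain ⟨I, hI, hI2⟩ := h.e2 (y.take C.p) 1 v (fun k hk => by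
    rw [hlen]; exact (h.cq k hk).2)
  have hsp := card_spoiled (P := C.P) (Wl := WZ C.Ro y 0) (Ws := WZ C.D.R y 0) (A := C.AZ)
    (K := C.D.m + 1) h.ruler
    (fun t t' ht ht' hlt => WZ_gap h.gapO y 0 h.hWo t t' ht ht' hlt)
    (fun t t' ht ht' hlt => WZ_gap h.gapS y 0 h.hWi t t' ht ht' hlt) 0
  obtain ⟨k, hkI, hk⟩ : ∃ k ∈ I, ∀ k' < C.K, k' ≠ k →
      ¬ Bad C.P (WZ C.Ro y 0) (WZ C.D.R y 0) C.AZ C.DD (C.D.m + 1) C.mo C.r
        (0 + ((C.c k : ℤ) - C.c k')) := by
    by_contra hc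
    push Not at hc
    have hsub : (I.image fun k => (C.c k : ℤ)) ⊆
        ((Finset.range C.K).image fun k => (C.c k : ℤ)).filter fun c =>
          ∃ c' ∈ (Finset.range C.K).image (fun k => (C.c k : ℤ)), c' ≠ c ∧
            Bad C.P (WZ C.Ro y 0) (WZ C.D.R y 0) C.AZ C.DD (C.D.m + 1) C.mo C.r
              (0 + (c - c')) := by
      intro x hx
      rw [Finset.mem_image] at hx
      obtain ⟨k, hk, rfl⟩ := hx
      obtain ⟨k', hk', hne, hb⟩ := hc k hk
      rw [Finset.mem_filter]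
      refine ⟨Finset.mem_image.2 ⟨k, Finset.mem_range.2 (hI2 k hk).1, rfl⟩, (C.c k' : ℤ),
        Finset.mem_image.2 ⟨k', Finset.mem_range.2 hk', rfl⟩, ?_, hb⟩
      intro he
      exact hne (h.cinj k' hk' k (hI2 k hk).1 (by exact_mod_cast he))
    have h3 := Finset.card_le_card hsub
    rw [Finset.card_image_of_injOn] at h3
    · have h4 := h3.trans hsp
      omega
    · intro k hk k' hk' he
      have he' : (C.c k : ℤ) = C.c k' := he
      exact h.cinj k (hI2 k hk).1 k' (hI2 k' hk').1 (by exact_mod_cast he')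
  obtain ⟨hkK, hlam, hrho⟩ := hI2 k hkI
  have hcp := (h.cq k hkK).2
  obtain ⟨b, hb1, hb2, hb3, hb4⟩ := h.isN_data hG (by omega)
  have hcb : C.c k ≤ b := by omega
  refine ⟨C.c k, by omega, ⟨k, hkK, by rw [List.length_take]; omega, ?_⟩, ?_⟩
  · rw [List.take_take, min_eq_left hcp] at hlam
    exact hlam
  · have hQX : ((y.drop (C.c k)).take (3 * C.B)).take (C.p - C.c k) =
        (y.take C.p).drop (C.c k) := by
      rw [List.take_take, min_eq_left (by omega), List.drop_take]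
    obtain ⟨b2, hb2'⟩ := Option.isSome_iff_exists.1 hrho
    refine R2_isSome (d := b - C.c k) ⟨k, hkK, ?_, ?_, b2, by rw [hQX]; exact hb2', rfl⟩
    · intro k' hk' hbad
      by_contra hne
      apply hk k' hk' hne
      have hspan := h.ruler.base.span (C.c k) (Finset.mem_image.2 ⟨k, Finset.mem_range.2 hkK, rfl⟩)
        (C.c k') (Finset.mem_image.2 ⟨k', Finset.mem_range.2 hk', rfl⟩)
      have := (h.bad_iff (y := y) hG (o := C.c k) (l := 3 * C.B) hcp (by omega) le_rfl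
        (a := (C.c k : ℤ) - C.c k') hspan).1 (by
          rw [show (C.c k : ℤ) - C.c k' - C.c k = -(C.c k' : ℤ) by ring]
          exact hbad)
      rw [zero_add]
      exact this
    · have e1 : (fun t => WZ C.Ro ((y.drop (C.c k)).take (3 * C.B)) (C.c k : ℤ) (t + C.c k)) =
          WZ C.Ro ((y.drop (C.c k)).take (3 * C.B)) 0 := by
        funext t; rw [WZ_shift, sub_self]
      rw [← e1, isN_shift, neg_add_cancel, Nat.cast_sub hcb, sub_add_cancel]
      refine isN_congr (fun t ht1 ht2 => ?_) hb1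
      rw [WZ_drop C.Ro y (C.c k) (by omega) t (by omega),
        WZ_take h.ruleO (y.drop (C.c k)) (3 * C.B) (C.c k) t (by omega)]

theorem Cs.Ok.c1 (h : C.Ok) {y : List α} (hG : C.G y) (hl : C.B + C.B ≤ y.length)
    (hBad : ¬ C.BadAt y 0) (v : V) :
    ∃ i ≤ C.B, C.L1 (y.take i) v ∧ (C.R1 ((y.drop i).take C.B)).isSome := by
  classical
  have hNn := C.P.hN
  have hLl := C.P.hL
  have hS : 0 ≤ C.P.S - C.P.N1 := le_trans (abs_nonneg _) (C.P.hs 0)
  have hz0 := h.hz
  have hz2 := h.hz2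
  have hpp := h.hp
  have hB := h.hB
  have hM := h.hM
  have hpB : C.p ≤ C.B := by omega
  obtain ⟨b, hb1, hb2, hb3, hb4⟩ := h.isN_data hG (by omega)
  unfold Cs.BadAt Bad at hBad
  push Not at hBad
  obtain ⟨hnE, hnD, hnB⟩ := hBad
  have hpb : C.p ≤ b := by omega
  set Y := (y.take b).drop C.p with hY
  have hYl : Y.length = b - C.p := by
    rw [hY, List.length_drop, List.length_take]; omega
  have hYd : ∀ s, Y.drop s = (y.drop (C.p + s)).take (b - (C.p + s)) := by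
    intro s
    rw [hY, List.drop_drop, List.drop_take]
  have hDD : C.DD = ((C.D.M' * C.D.M : ℕ) : ℤ) := rfl
  obtain ⟨P', Q', hPQ, hLf, hRf⟩ := h.g3 Y (by
      intro i hi hdvd
      refine hnB i hi ⟨b, hb1, ?_⟩
      rw [hM, sub_zero, ← hpp, ← Nat.cast_sub hpb, ← Int.natCast_div, ← hYl]
      exact hdvd) (by rw [hYl]; omega) (by
      intro t ht
      have h3 := h.hz1 C.D.m le_rfl
      rw [hDD] at h3
      obtain ⟨i, hi, hi2⟩ := h.wallS (y.drop (C.p + t)) (h.Gdrop _ _ hG) (by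
        rw [List.length_drop]; omega)
      refine ⟨t + i, by omega, by omega, ?_⟩
      rw [hYd, h.ruleS.take (by omega)]
      rw [List.drop_drop] at hi2
      rw [← add_assoc]
      exact hi2) (by
      intro k hk s h3 h4 h5
      have h6 := h.ruleS.fit h5
      rw [hYd, h.ruleS.take (by omega)] at h5
      refine hnD k (by omega) ⟨((C.p + s : ℕ) : ℤ), ⟨C.p + s, by simp, h5⟩, ?_⟩
      unfold Cs.AZ
      rw [hDD, abs_le]
      push_cast
      constructor <;> omega)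
    (C.D.act v (C.D.φ (y.take C.p)) + C.nu2 (y.take C.p) 1)
  obtain ⟨hd1, hd2⟩ := h.g2 _ _ hLf
  have hlen : P'.length + Q'.length = b - C.p := by
    rw [← hYl, ← hPQ, List.length_append]
  have hyb : y.take b = y.take C.p ++ (P' ++ Q') := by
    rw [hPQ, hY]
    conv_lhs => rw [← List.take_append_drop C.p (y.take b)]
    rw [List.take_take, min_eq_left hpb]
  have hlp : (y.take C.p).length = C.p := by rw [List.length_take]; omega
  have hyi : y.take (C.p + P'.length) = y.take C.p ++ P' := by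
    have h7 : y.take (C.p + P'.length) = (y.take b).take (C.p + P'.length) := by
      rw [List.take_take, min_eq_left (by omega)]
    rw [h7, hyb, ← List.append_assoc, List.take_left' (by rw [List.length_append, hlp])]
  refine ⟨C.p + P'.length, by omega, ⟨by rw [List.length_take]; omega, ?_⟩, ?_⟩
  · rw [hyi, List.drop_left' hlp, List.take_left' hlp]
    exact hLf
  · obtain ⟨R, hR⟩ := Option.isSome_iff_exists.1 hRf
    set i := C.p + P'.length with hi
    have hin : InWin C.P 0 (i : ℤ) := by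
      refine ⟨by omega, by omega, ?_⟩
      rw [hM]
      have : ((P'.length : ℕ) : ℤ) = (i : ℤ) - C.P.p0 - 0 := by omega
      rw [← this]
      exact_mod_cast hd1
    have hleg := legal_of_not_E hnE hin
    have hisB := (isN_iff_isB hleg hin _).1 hb1
    have hib : i ≤ b := by omega
    have hsubW : ∀ t, WZ C.Ro ((y.drop i).take C.B) (i : ℤ) t → WZ C.Ro y 0 t := by
      intro t ht
      have h8 := ht
      obtain ⟨k, hk, hk2⟩ := h8
      have h9 := h.ruleO.fit hk2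
      rw [List.length_take, List.length_drop] at h9
      rw [WZ_drop C.Ro y i (by omega) t (by omega)]
      exact (WZ_take h.ruleO (y.drop i) C.B i t (by omega)).1 ht
    have e1 : (fun t => WZ C.Ro ((y.drop i).take C.B) (i : ℤ) (t + i)) =
        WZ C.Ro ((y.drop i).take C.B) 0 := by
      funext t; rw [WZ_shift, sub_self]
    refine R1_isSome (d := b - i) (R := R) ⟨?_, ?_, ?_⟩
    · rw [← e1, legal_shift, zero_add]
      intro t ht
      exact hleg t (hsubW t ht)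
    · rw [← e1, isB_shift, zero_add, Nat.cast_sub hib, sub_add_cancel]
      refine ⟨⟨?_, hisB.1.2⟩, fun t' ht' hq => hisB.2 t' ht' ⟨hsubW t' hq.1, hq.2⟩⟩
      rw [WZ_take h.ruleO (y.drop i) C.B i b (by omega), ← WZ_drop C.Ro y i (by omega) b (by omega)]
      exact hisB.1.1
    · have h10 : ((y.drop i).take C.B).take (b - i) = Q' := by
        rw [List.take_take, min_eq_left (by omega), ← List.drop_take, hyb, ← List.append_assoc,
          List.drop_left' (by rw [List.length_append, hlp])]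
      rw [h10]
      exact hR

end main

end Crest.Agent.R320.CoreC_59
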