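import Crest.Agent.R320.Hk2_851

/-!
# Row 320: one star over a prefix code (helper722)

Blocks of a prefix code `XX`, transformations `T X : V → V` of the blocks, partial labels
`L`, `R` with `L P = some v`, `R Q = some v'` implying `P ++ Q ∈ XX` and (if the block `P ++ Q`
satisfies the promise `Dm`) `v' = T (P ++ Q) v`. Blocks of `Dm` outside `Bd` are cut for every
token. Then the thread languages over `Dm` are one star above those over `Bd`.
-/

set_option autoImplicit false

namespace Crest.Agent.R320.CoreHalf_722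

open Crest.RegLang Crest.Agent.R320.Hk_851

universe u v

variable {α : Type u} {V : Type v} {n : ℕ}

/-- run of a list of blocks -/
def runT (T : List α → V → V) : List (List α) → V → V
  | [], x => x
  | X :: D, x => runT T D (T X x)

theorem runT_append (T : List α → V → V) (D E : List (List α)) (x : V) :
    runT T (D ++ E) x = runT T E (runT T D x) := by
  induction D generalizing x with
  | nil => rfl
  | cons X D ih => exact ih _

/-- words over a set of blocks with a given transition -/
def Thr (T : List α → V → V) (Bd : Set (List α)) (x y : V) : Language α :=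
  {w | ∃ D : List (List α), (∀ X ∈ D, X ∈ Bd) ∧ D.flatten = w ∧ runT T D x = y}

/-- prefix code -/
structure PC (XX : Set (List α)) : Prop where
  nil : [] ∉ XX
  pre : ∀ X ∈ XX, ∀ Y ∈ XX, X <+: Y → X = Y

theorem PC.unique {XX : Set (List α)} (h : PC XX) : ∀ D E : List (List α),
    (∀ X ∈ D, X ∈ XX) → (∀ X ∈ E, X ∈ XX) → D.flatten = E.flatten → D = E := by
  intro D
  induction D with
  | nil =>
    intro E _ hE he
    cases E with
    | nil => rfl
    | cons Y E =>
      have : Y = [] := by
        have := he.symm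
        simp only [List.flatten_nil, List.flatten_cons, List.append_eq_nil_iff] at this
        exact this.1
      exact (h.nil (this ▸ hE Y (by simp))).elim
  | cons X D ih =>
    intro E hD hE he
    cases E with
    | nil =>
      have : X = [] := by
        simp only [List.flatten_nil, List.flatten_cons, List.append_eq_nil_iff] at he
        exact he.1
      exact (h.nil (this ▸ hD X (by simp))).elim
    | cons Y E =>
      rw [List.flatten_cons, List.flatten_cons] at he
      have hX := hD X (by simp)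
      have hY := hE Y (by simp)
      have hXY : X = Y := by
        rcases List.append_eq_append_iff.1 he with ⟨a, h1, h2⟩ | ⟨a, h1, h2⟩
        · exact h.pre X hX Y hY ⟨a, h1.symm⟩
        · exact (h.pre Y hY X hX ⟨a, h1.symm⟩).symm
      subst hXY
      have he' := List.append_cancel_left he
      rw [ih E (fun Z hZ => hD Z (by simp [hZ])) (fun Z hZ => hE Z (by simp [hZ])) he']

/-- one cut system over the blocks -/
structure Cut (XX Dm Bd : Set (List α)) (bd : ℕ) (T : List α → V → V)
    (L R : List α → Option V) : Prop where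
  code : PC XX
  dm : ∀ X ∈ Dm, X ∈ XX
  bdm : ∀ X ∈ Bd, X ∈ Dm
  len : ∀ X ∈ XX, X.length ≤ bd
  junction : ∀ P Q x y, L P = some x → R Q = some y → P ++ Q ∈ XX
  sound : ∀ P Q x y, L P = some x → R Q = some y → P ++ Q ∈ Dm → y = T (P ++ Q) x
  complete : ∀ X ∈ Dm, X ∉ Bd → ∀ x, ∃ P Q, X = P ++ Q ∧ L P = some x ∧ (R Q).isSome

def LP (bd : ℕ) (L : List α → Option V) (x : V) : Language α :=
  {P | L P = some x ∧ P.length ≤ bd}

theorem LP_HL [Finite α] (bd : ℕ) (L : List α → Option V) (x : V) : HL n (LP bd L x) :=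
  HL.finite ((List.finite_length_le α bd).subset fun _ h => h.2)

/-- cut-to-cut words -/
def KK (bd : ℕ) (T : List α → V → V) (Bd : Set (List α)) (L R : List α → Option V) :
    Language α :=
  {w | ∃ x y, w ∈ LP bd R x * Thr T Bd x y * LP bd L y}

/-- from the last cut to the end -/
def Suf (bd : ℕ) (T : List α → V → V) (Bd : Set (List α)) (R : List α → Option V) (z : V) :
    Language α :=
  {w | ∃ x, w ∈ LP bd R x * Thr T Bd x z}

/-- the expression -/
def Ex (bd : ℕ) (T : List α → V → V) (Bd : Set (List α)) (L R : List α → Option V) (x z : V) :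
    Language α :=
  {w | w ∈ Thr T Bd x z ∨
    ∃ y, w ∈ Thr T Bd x y * LP bd L y * (KStar.kstar (KK bd T Bd L R) * Suf bd T Bd R z)}

theorem Ex_HL [Finite α] [Finite V] {bd : ℕ} {T : List α → V → V} {Bd : Set (List α)}
    {L R : List α → Option V} (h : ∀ x y, HL n (Thr T Bd x y)) (x z : V) :
    HL (n + 1) (Ex bd T Bd L R x z) := by
  have hK : HL n (KK bd T Bd L R) :=
    HL.iUnion fun x => HL.iUnion fun y => ((LP_HL bd R x).mul (h x y)).mul (LP_HL bd L y)
  have hS : HL n (Suf bd T Bd R z) := HL.iUnion fun x => (LP_HL bd R x).mul (h x z)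
  have h1 : HL (n + 1) ({w | ∃ y, w ∈ Thr T Bd x y * LP bd L y *
      (KStar.kstar (KK bd T Bd L R) * Suf bd T Bd R z)} : Language α) :=
    HL.iUnion fun y => (((h x y).mono (Nat.le_succ n)).mul (LP_HL bd L y)).mul
      (hK.star.mul (hS.mono (Nat.le_succ n)))
  exact (((h x z).mono (Nat.le_succ n)).setOf_or h1)

variable {XX Dm Bd : Set (List α)} {bd : ℕ} {T : List α → V → V} {L R : List α → Option V}

/-- completeness -/
theorem Cut.complete_Ex (h : Cut XX Dm Bd bd T L R) (z : V) : ∀ (D : List (List α)) (x : V),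
    (∀ X ∈ D, X ∈ Dm) → runT T D x = z → D.flatten ∈ Ex bd T Bd L R x z := by
  intro D
  induction D with
  | nil =>
    intro x _ hx
    exact Or.inl ⟨[], by simp, rfl, hx⟩
  | cons X D ih =>
    intro x hD hx
    have hX : X ∈ Dm := hD X (by simp)
    have ih' := ih (T X x) (fun Y hY => hD Y (by simp [hY])) hx
    rw [List.flatten_cons]
    by_cases hb : X ∈ Bd
    · rcases ih' with ⟨D', h1, h2, h3⟩ | ⟨y, hy⟩
      · left
        refine ⟨X :: D', ?_, by rw [List.flatten_cons, h2], h3⟩
        intro Y hY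
        rcases List.mem_cons.1 hY with rfl | hY
        · exact hb
        · exact h1 Y hY
      · right
        refine ⟨y, ?_⟩
        obtain ⟨a, ha, r, hr, hre⟩ := Language.mem_mul.1 hy
        obtain ⟨m, hm, p, hp, rfl⟩ := Language.mem_mul.1 ha
        obtain ⟨D', h1, h2, h3⟩ := hm
        refine Language.mem_mul.2 ⟨X ++ m ++ p, ?_, r, hr, ?_⟩
        · refine Language.mem_mul.2 ⟨X ++ m, ⟨X :: D', ?_, by rw [List.flatten_cons, h2], h3⟩,
            p, hp, rfl⟩
          intro Y hY
          rcases List.mem_cons.1 hY with rfl | hY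
          · exact hb
          · exact h1 Y hY
        · rw [← hre]; simp
    · obtain ⟨P, Q, hPQ, hP, hQ⟩ := h.complete X hX hb x
      obtain ⟨y, hy⟩ := Option.isSome_iff_exists.1 hQ
      have hlen := h.len X (h.dm X hX)
      rw [hPQ, List.length_append] at hlen
      have hyT : y = T X x := by
        have := h.sound P Q x y hP hy (hPQ ▸ hX)
        rw [this, ← hPQ]
      have hQm : Q ∈ LP bd R (T X x) := ⟨by rw [hy, hyT], by omega⟩
      have hPm : P ∈ LP bd L x := ⟨hP, by omega⟩
      right
      refine ⟨x, ?_⟩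
      refine Language.mem_mul.2 ⟨P, Language.mem_mul.2 ⟨[], ⟨[], by simp, rfl, rfl⟩, P, hPm, rfl⟩,
        Q ++ D.flatten, ?_, by rw [hPQ]; simp⟩
      rcases ih' with h1 | ⟨u, hu⟩
      · exact Language.mem_mul.2 ⟨[], Language.nil_mem_kstar _, Q ++ D.flatten,
          ⟨T X x, Language.mem_mul.2 ⟨Q, hQm, D.flatten, h1, rfl⟩⟩, rfl⟩
      · obtain ⟨a, ha, r, hr, hre⟩ := Language.mem_mul.1 hu
        obtain ⟨ks, hks, s, hs, rfl⟩ := Language.mem_mul.1 hr
        obtain ⟨m, hm, p, hp, rfl⟩ := Language.mem_mul.1 ha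
        have hk : Q ++ m ++ p ∈ KK bd T Bd L R :=
          ⟨T X x, u, Language.mem_mul.2 ⟨Q ++ m, Language.mem_mul.2 ⟨Q, hQm, m, hm, rfl⟩,
            p, hp, rfl⟩⟩
        obtain ⟨Lk, hLk, hLm⟩ := Language.mem_kstar.1 hks
        refine Language.mem_mul.2 ⟨(Q ++ m ++ p) ++ ks, ?_, s, hs, ?_⟩
        · refine Language.mem_kstar.2 ⟨(Q ++ m ++ p) :: Lk, by rw [List.flatten_cons, hLk], ?_⟩
          intro Y hY
          rcases List.mem_cons.1 hY with rfl | hY
          · exact hk
          · exact hLm Y hY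
        · rw [← hre]; simp

/-- parse with promise -/
def Par (XX Dm : Set (List α)) (T : List α → V → V) (w : List α) (x z : V) : Prop :=
  ∃ D : List (List α), (∀ X ∈ D, X ∈ XX) ∧ D.flatten = w ∧
    ((∀ X ∈ D, X ∈ Dm) → runT T D x = z)

theorem Cut.par (h : Cut XX Dm Bd bd T L R) (z : V) (s : List α) (hs : s ∈ Suf bd T Bd R z) :
    ∀ (Lk : List (List α)), (∀ y ∈ Lk, y ∈ KK bd T Bd L R) → ∀ (P : List α) (x : V),
      L P = some x → Par XX Dm T (P ++ (Lk.flatten ++ s)) x z := by
  intro Lk
  induction Lk with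
  | nil =>
    intro _ P x hP
    obtain ⟨y, hy⟩ := hs
    obtain ⟨Q, hQ, m, ⟨D, h1, h2, h3⟩, rfl⟩ := Language.mem_mul.1 hy
    refine ⟨(P ++ Q) :: D, ?_, by simp [h2], ?_⟩
    · intro X hX
      rcases List.mem_cons.1 hX with rfl | hX
      · exact h.junction P Q x y hP hQ.1
      · exact h.dm X (h.bdm X (h1 X hX))
    · intro hD
      have := h.sound P Q x y hP hQ.1 (hD _ (by simp))
      show runT T D (T (P ++ Q) x) = z
      rw [← this]; exact h3
  | cons k Lk ih =>
    intro hL P x hP
    obtain ⟨y, u, hk⟩ := hL k (by simp)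
    obtain ⟨a, ha, p, hp, rfl⟩ := Language.mem_mul.1 hk
    obtain ⟨Q, hQ, m, ⟨D, h1, h2, h3⟩, rfl⟩ := Language.mem_mul.1 ha
    obtain ⟨E, e1, e2, e3⟩ := ih (fun Y hY => hL Y (by simp [hY])) p u hp.1
    refine ⟨(P ++ Q) :: (D ++ E), ?_, by simp [h2, e2], ?_⟩
    · intro X hX
      rcases List.mem_cons.1 hX with rfl | hX
      · exact h.junction P Q x y hP hQ.1
      · rcases List.mem_append.1 hX with hX | hX
        · exact h.dm X (h.bdm X (h1 X hX))
        · exact e1 X hX
    · intro hD
      have := h.sound P Q x y hP hQ.1 (hD _ (by simp))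
      show runT T (D ++ E) (T (P ++ Q) x) = z
      rw [runT_append, ← this, h3]
      exact e3 fun X hX => hD X (by simp [hX])

/-- soundness -/
theorem Cut.sound_Ex (h : Cut XX Dm Bd bd T L R) (x z : V) (w : List α)
    (hw : w ∈ Ex bd T Bd L R x z) : Par XX Dm T w x z := by
  rcases hw with ⟨D, h1, h2, h3⟩ | ⟨y, hy⟩
  · exact ⟨D, fun X hX => h.dm X (h.bdm X (h1 X hX)), h2, fun _ => h3⟩
  · obtain ⟨a, ha, r, hr, rfl⟩ := Language.mem_mul.1 hy
    obtain ⟨m, ⟨D, h1, h2, h3⟩, p, hp, rfl⟩ := Language.mem_mul.1 ha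
    obtain ⟨ks, hks, s, hs, rfl⟩ := Language.mem_mul.1 hr
    obtain ⟨Lk, rfl, hLm⟩ := Language.mem_kstar.1 hks
    obtain ⟨E, e1, e2, e3⟩ := h.par z s hs Lk hLm p y hp.1
    refine ⟨D ++ E, ?_, by simp [h2, e2], ?_⟩
    · intro X hX
      rcases List.mem_append.1 hX with hX | hX
      · exact h.dm X (h.bdm X (h1 X hX))
      · exact e1 X hX
    · intro hD
      rw [runT_append, h3]
      exact e3 fun X hX => hD X (by simp [hX])

/-- **one star**: on words over `Dm` the thread languages are one star above those over `Bd` -/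
theorem Cut.agree (h : Cut XX Dm Bd bd T L R) (x z : V) (D : List (List α))
    (hD : ∀ X ∈ D, X ∈ Dm) :
    D.flatten ∈ Ex bd T Bd L R x z ↔ runT T D x = z := by
  constructor
  · intro hw
    obtain ⟨E, e1, e2, e3⟩ := h.sound_Ex x z _ hw
    have : D = E := h.code.unique D E (fun X hX => h.dm X (hD X hX)) e1 e2.symm
    subst this
    exact e3 hD
  · intro hz
    exact h.complete_Ex z D x hD hz

end Crest.Agent.R320.CoreHalf_722
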