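import Crest.Agent.R320.Hk2_851

/-!
# Row 320: Core gives Half 1 (helper890), after 517 #13011

Block calculus on a prefix code, two nested schemes, no first failure lemma.
-/

set_option autoImplicit false

namespace Crest.Agent.R320.CoreHalf_890

open Crest.RegLang Crest.Agent.R320.Hk_851

universe u

variable {α : Type u}

/-- prefix code -/
def PC (XX : Set (List α)) : Prop := ∀ X ∈ XX, ∀ Y ∈ XX, X <+: Y → X = Y

/-- transition along blocks -/
def tr {V : Type*} (T : List α → V → V) (v : V) (l : List (List α)) : V :=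
  l.foldl (fun v X => T X v) v

def Res {V : Type*} (G : Set (List α)) (T : List α → V → V) (v v' : V) : Language α :=
  {w | ∃ l : List (List α), (∀ X ∈ l, X ∈ G) ∧ l.flatten = w ∧ tr T v l = v'}

def St (G : Set (List α)) : Language α :=
  {w | ∃ l : List (List α), (∀ X ∈ l, X ∈ G) ∧ l.flatten = w}

theorem tr_append {V : Type*} (T : List α → V → V) (v : V) (l m : List (List α)) :
    tr T v (l ++ m) = tr T (tr T v l) m := by
  simp [tr, List.foldl_append]

theorem tr_cons {V : Type*} (T : List α → V → V) (v : V) (X : List α) (m : List (List α)) :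
    tr T v (X :: m) = tr T (T X v) m := rfl

theorem tr_nil {V : Type*} (T : List α → V → V) (v : V) : tr T v [] = v := rfl

theorem head_eq {XX : Set (List α)} (hpc : PC XX) {X Y a b : List α} (hX : X ∈ XX) (hY : Y ∈ XX)
    (h : X ++ a = Y ++ b) : X = Y := by
  have h1 : X <+: Y ++ b := ⟨a, h⟩
  have h2 : Y <+: Y ++ b := ⟨b, rfl⟩
  rcases List.prefix_or_prefix_of_prefix h1 h2 with h3 | h3
  · exact hpc X hX Y hY h3
  · exact (hpc Y hY X hX h3).symm

theorem factor {XX : Set (List α)} (hpc : PC XX) (hne : [] ∉ XX) :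
    ∀ (m l : List (List α)) (z : List α), (∀ X ∈ m, X ∈ XX) → (∀ X ∈ l, X ∈ XX) →
      l.flatten = m.flatten ++ z → ∃ l', l = m ++ l' ∧ l'.flatten = z := by
  intro m
  induction m with
  | nil => intro l z _ _ h; exact ⟨l, rfl, by simpa using h⟩
  | cons X m ih =>
    intro l z hm hl h
    have hX : X ∈ XX := hm X (by simp)
    cases l with
    | nil =>
      exfalso
      rw [List.flatten_nil, List.flatten_cons, List.append_assoc] at h
      have h0 : X = [] := (List.append_eq_nil_iff.1 h.symm).1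
      exact hne (h0 ▸ hX)
    | cons Y l =>
      have hY : Y ∈ XX := hl Y (by simp)
      rw [List.flatten_cons, List.flatten_cons, List.append_assoc] at h
      have hXY : Y = X := head_eq hpc hY hX h
      subst hXY
      have h' := List.append_cancel_left h
      obtain ⟨l', h1, h2⟩ := ih l z (fun A hA => hm A (by simp [hA])) (fun A hA => hl A (by simp [hA])) h'
      exact ⟨l', by rw [h1]; rfl, h2⟩

theorem unique {XX : Set (List α)} (hpc : PC XX) (hne : [] ∉ XX) {m l : List (List α)}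
    (hm : ∀ X ∈ m, X ∈ XX) (hl : ∀ X ∈ l, X ∈ XX) (h : l.flatten = m.flatten) : l = m := by
  obtain ⟨l', h1, h2⟩ := factor hpc hne m l [] hm hl (by simpa using h)
  have : l' = [] := by
    cases l' with
    | nil => rfl
    | cons Y l' =>
      exfalso
      rw [List.flatten_cons] at h2
      have h0 : Y = [] := (List.append_eq_nil_iff.1 h2).1
      exact hne (h0 ▸ hl Y (by rw [h1]; simp))
  rw [h1, this, List.append_nil]

section Block

variable {V : Type*} (XX G B : Set (List α)) (T : List α → V → V) (Lf Rf : List α → V → Prop)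

/-- the words with label `v` -/
def Sl {W : Type*} (p : List α → W → Prop) (v : W) : Language α := {P | p P v}

/-- cut-to-cut words -/
def KK : Language α :=
  {w | ∃ Q u M u' P, Rf Q u ∧ M ∈ Res B T u u' ∧ Lf P u' ∧ w = Q ++ (M ++ P)}

theorem sound (hpc : PC XX) (hne : [] ∉ XX) (hG : ∀ X ∈ G, X ∈ XX) (hB : ∀ X ∈ B, X ∈ G)
    (j : ∀ P Q v v', Lf P v → Rf Q v' → P ++ Q ∈ XX ∧ (P ++ Q ∈ G → v' = T (P ++ Q) v))
    (v' : V) :
    ∀ (L : List (List α)), (∀ k ∈ L, k ∈ KK B T Lf Rf) →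
      ∀ (P : List α) (u : V), Lf P u → ∀ Q u', Rf Q u' → ∀ M, M ∈ Res B T u' v' →
        ∀ l : List (List α), (∀ X ∈ l, X ∈ G) → l.flatten = P ++ (L.flatten ++ (Q ++ M)) →
          tr T u l = v' := by
  intro L
  induction L with
  | nil =>
    intro _ P u hP Q u' hQ M hM l hl h
    obtain ⟨m, hm, rfl, hmt⟩ := hM
    obtain ⟨h1, h2⟩ := j P Q u u' hP hQ
    rw [List.flatten_nil, List.nil_append, ← List.append_assoc] at h
    have hh : l.flatten = ((P ++ Q) :: m).flatten := by rw [h, List.flatten_cons]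
    have hl' := unique hpc hne (m := (P ++ Q) :: m)
      (fun X hX => by
        rcases List.mem_cons.1 hX with rfl | hX
        · exact h1
        · exact hG X (hB X (hm X hX))) (fun X hX => hG X (hl X hX)) hh
    subst hl'
    have h3 := h2 (hl _ (by simp))
    rw [tr_cons, ← h3, hmt]
  | cons k L ih =>
    intro hk P u hP Q u' hQ M hM l hl h
    obtain ⟨Q1, u1, M1, u1', P1, hQ1, hM1, hP1, rfl⟩ := hk k (by simp)
    obtain ⟨m1, hm1, rfl, hmt1⟩ := hM1
    obtain ⟨h1, h2⟩ := j P Q1 u u1 hP hQ1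
    have hh : l.flatten = ((P ++ Q1) :: m1).flatten ++ (P1 ++ (L.flatten ++ (Q ++ M))) := by
      rw [h, List.flatten_cons, List.flatten_cons]
      simp [List.append_assoc]
    obtain ⟨l', h3, h4⟩ := factor hpc hne ((P ++ Q1) :: m1) l _ (fun X hX => by
        rcases List.mem_cons.1 hX with rfl | hX
        · exact h1
        · exact hG X (hB X (hm1 X hX))) (fun X hX => hG X (hl X hX)) hh
    subst h3
    have h5 := h2 (hl _ (by simp))
    rw [tr_append, tr_cons, ← h5, hmt1]
    exact ih (fun k hk' => hk k (by simp [hk'])) P1 u1' hP1 Q u' hQ M hM l'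
      (fun X hX => hl X (by simp [hX])) h4

theorem compl (j : ∀ P Q v v', Lf P v → Rf Q v' → P ++ Q ∈ XX ∧ (P ++ Q ∈ G → v' = T (P ++ Q) v))
    (c : ∀ X ∈ G, X ∉ B → ∀ v, ∃ P Q v', X = P ++ Q ∧ Lf P v ∧ Rf Q v') (v' : V) :
    ∀ (l : List (List α)), (∀ X ∈ l, X ∈ G) → ∀ (Q : List α) (u : V), Rf Q u →
      ∀ m : List (List α), (∀ X ∈ m, X ∈ B) → tr T (tr T u m) l = v' →
        ∃ k ∈ KStar.kstar (KK B T Lf Rf), ∃ Q' u' M, Rf Q' u' ∧ M ∈ Res B T u' v' ∧
          Q ++ (m.flatten ++ l.flatten) = k ++ (Q' ++ M) := by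
  intro l
  induction l with
  | nil =>
    intro _ Q u hQ m hm ht
    exact ⟨[], Language.nil_mem_kstar _, Q, u, m.flatten, hQ, ⟨m, hm, rfl, ht⟩, by simp⟩
  | cons X l ih =>
    intro hl Q u hQ m hm ht
    have hX : X ∈ G := hl X (by simp)
    have hl' : ∀ Y ∈ l, Y ∈ G := fun Y hY => hl Y (by simp [hY])
    by_cases hXB : X ∈ B
    · obtain ⟨k, hk, Q', u', M, h1, h2, h3⟩ := ih hl' Q u hQ (m ++ [X])
        (fun Y hY => by
          rcases List.mem_append.1 hY with hY | hY
          · exact hm Y hY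
          · rw [List.mem_singleton.1 hY]; exact hXB)
        (by rw [tr_append, tr_cons, tr_nil]; rw [tr_cons] at ht; exact ht)
      refine ⟨k, hk, Q', u', M, h1, h2, ?_⟩
      rw [← h3]
      simp [List.append_assoc]
    · obtain ⟨P, Q2, w', hXe, hP, hQ2⟩ := c X hX hXB (tr T u m)
      have hw' := (j P Q2 _ _ hP hQ2).2 (hXe ▸ hX)
      rw [← hXe] at hw'
      rw [tr_cons, ← hw'] at ht
      obtain ⟨k, hk, Q', u', M, h1, h2, h3⟩ := ih hl' Q2 w' hQ2 [] (by simp) (by rw [tr_nil]; exact ht)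
      have hk0 : Q ++ (m.flatten ++ P) ∈ KK B T Lf Rf :=
        ⟨Q, u, m.flatten, tr T u m, P, hQ, ⟨m, hm, rfl, rfl⟩, hP, rfl⟩
      obtain ⟨S, rfl, hS⟩ := Language.mem_kstar.1 hk
      refine ⟨((Q ++ (m.flatten ++ P)) :: S).flatten, Language.mem_kstar.2 ⟨_, rfl, ?_⟩,
        Q', u', M, h1, h2, ?_⟩
      · intro y hy
        rcases List.mem_cons.1 hy with rfl | hy
        · exact hk0
        · exact hS y hy
      · rw [List.flatten_nil, List.nil_append] at h3
        rw [List.flatten_cons, List.flatten_cons, List.append_assoc, ← h3, hXe]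
        simp [List.append_assoc]

theorem complHead (j : ∀ P Q v v', Lf P v → Rf Q v' → P ++ Q ∈ XX ∧ (P ++ Q ∈ G → v' = T (P ++ Q) v))
    (c : ∀ X ∈ G, X ∉ B → ∀ v, ∃ P Q v', X = P ++ Q ∧ Lf P v ∧ Rf Q v') (v v' : V) :
    ∀ (l : List (List α)), (∀ X ∈ l, X ∈ G) →
      ∀ m : List (List α), (∀ X ∈ m, X ∈ B) → tr T (tr T v m) l = v' →
        (m.flatten ++ l.flatten ∈ Res B T v v') ∨
        ∃ M u P, M ∈ Res B T v u ∧ Lf P u ∧ ∃ k ∈ KStar.kstar (KK B T Lf Rf), ∃ Q' u' M',
          Rf Q' u' ∧ M' ∈ Res B T u' v' ∧ m.flatten ++ l.flatten = M ++ (P ++ (k ++ (Q' ++ M'))) := by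
  intro l
  induction l with
  | nil =>
    intro _ m hm ht
    left
    exact ⟨m, hm, by simp, ht⟩
  | cons X l ih =>
    intro hl m hm ht
    have hX : X ∈ G := hl X (by simp)
    have hl' : ∀ Y ∈ l, Y ∈ G := fun Y hY => hl Y (by simp [hY])
    by_cases hXB : X ∈ B
    · have := ih hl' (m ++ [X])
        (fun Y hY => by
          rcases List.mem_append.1 hY with hY | hY
          · exact hm Y hY
          · rw [List.mem_singleton.1 hY]; exact hXB)
        (by rw [tr_append, tr_cons, tr_nil]; rw [tr_cons] at ht; exact ht)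
      have he : (m ++ [X]).flatten ++ l.flatten = m.flatten ++ (X :: l).flatten := by
        simp [List.append_assoc]
      rw [he] at this
      exact this
    · obtain ⟨P, Q2, w', hXe, hP, hQ2⟩ := c X hX hXB (tr T v m)
      have hw' := (j P Q2 _ _ hP hQ2).2 (hXe ▸ hX)
      rw [← hXe] at hw'
      rw [tr_cons, ← hw'] at ht
      obtain ⟨k, hk, Q', u', M, h1, h2, h3⟩ :=
        compl XX G B T Lf Rf j c v' l hl' Q2 w' hQ2 [] (by simp) (by rw [tr_nil]; exact ht)
      right
      refine ⟨m.flatten, tr T v m, P, ⟨m, hm, rfl, rfl⟩, hP, k, hk, Q', u', M, h1, h2, ?_⟩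
      rw [List.flatten_nil, List.nil_append] at h3
      rw [← h3, List.flatten_cons, hXe]
      simp [List.append_assoc]

theorem block_star [Finite V] {n : ℕ} (hpc : PC XX) (hne : [] ∉ XX)
    (hG : ∀ X ∈ G, X ∈ XX) (hB : ∀ X ∈ B, X ∈ G)
    (hLf : ∀ v, HL n (Sl Lf v)) (hRf : ∀ v, HL n (Sl Rf v))
    (j : ∀ P Q v v', Lf P v → Rf Q v' → P ++ Q ∈ XX ∧ (P ++ Q ∈ G → v' = T (P ++ Q) v))
    (c : ∀ X ∈ G, X ∉ B → ∀ v, ∃ P Q v', X = P ++ Q ∧ Lf P v ∧ Rf Q v')
    (hRB : ∀ v v', HL n (Res B T v v'))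
    (hGs : HL (n + 1) (St G)) (v v' : V) : HL (n + 1) (Res G T v v') := by
  have hK : HL n (KK B T Lf Rf) := by
    have h := HL.iUnion (k := n) (ι := V × V) (L := fun p => Sl Rf p.1 *
      (Res B T p.1 p.2 * Sl Lf p.2)) (fun p => (hRf _).mul ((hRB _ _).mul (hLf _)))
    refine h.congr fun w => ?_
    constructor
    · rintro ⟨Q, u, M, u', P, h1, h2, h3, rfl⟩
      exact ⟨(u, u'), Language.mem_mul.2 ⟨Q, h1, M ++ P, Language.mem_mul.2 ⟨M, h2, P, h3, rfl⟩, rfl⟩⟩
    · rintro ⟨⟨u, u'⟩, hw⟩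
      obtain ⟨Q, h1, y, hy, rfl⟩ := Language.mem_mul.1 hw
      obtain ⟨M, h2, P, h3, rfl⟩ := Language.mem_mul.1 hy
      exact ⟨Q, u, M, u', P, h1, h2, h3, rfl⟩
  have hX := HL.iUnion (k := n + 1) (ι := V × V) (L := fun p => (Res B T v p.1) *
      (Sl Lf p.1 * (KStar.kstar (KK B T Lf Rf) *
        (Sl Rf p.2 * Res B T p.2 v'))))
      (fun p => ((hRB _ _).mono (Nat.le_succ n)).mul (((hLf _).mono (Nat.le_succ n)).mul (hK.star.mul
        (((hRf _).mono (Nat.le_succ n)).mul ((hRB _ _).mono (Nat.le_succ n))))))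
  have h := (((hRB v v').mono (Nat.le_succ n)).sup hX).inf hGs
  refine h.congr fun w => ?_
  constructor
  · rintro ⟨l, hl, rfl, ht⟩
    refine ⟨?_, l, hl, rfl⟩
    rcases complHead XX G B T Lf Rf j c v v' l hl [] (by simp) (by rw [tr_nil]; exact ht) with h | h
    · left
      have h' : l.flatten ∈ Res B T v v' := by simpa using h
      exact h'
    · right
      obtain ⟨M, u, P, h1, h2, k, hk, Q', u', M', h3, h4, h5⟩ := h
      rw [List.flatten_nil, List.nil_append] at h5
      rw [h5]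
      exact ⟨(u, u'), Language.mem_mul.2 ⟨M, h1, _, Language.mem_mul.2 ⟨P, h2, _,
        Language.mem_mul.2 ⟨k, hk, _, Language.mem_mul.2 ⟨Q', h3, M', h4, rfl⟩, rfl⟩, rfl⟩, rfl⟩⟩
  · rintro ⟨h1, l, hl, rfl⟩
    refine ⟨l, hl, rfl, ?_⟩
    rcases h1 with h1 | h1
    · obtain ⟨m, hm, h2, h3⟩ := h1
      have := unique hpc hne (fun X hX => hG X (hB X (hm X hX))) (fun X hX => hG X (hl X hX)) h2.symm
      rw [this]; exact h3
    · obtain ⟨⟨u, u'⟩, hw⟩ := h1
      obtain ⟨M, hM, y1, hy1, e1⟩ := Language.mem_mul.1 hw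
      obtain ⟨P, hP, y2, hy2, rfl⟩ := Language.mem_mul.1 hy1
      obtain ⟨k, hk, y3, hy3, rfl⟩ := Language.mem_mul.1 hy2
      obtain ⟨Q, hQ, M', hM', rfl⟩ := Language.mem_mul.1 hy3
      obtain ⟨m, hm, rfl, hmt⟩ := hM
      obtain ⟨L, rfl, hL⟩ := Language.mem_kstar.1 hk
      obtain ⟨l', h3, h4⟩ := factor hpc hne m l _ (fun X hX => hG X (hB X (hm X hX)))
        (fun X hX => hG X (hl X hX)) e1.symm
      subst h3
      rw [tr_append, hmt]
      exact sound XX G B T Lf Rf hpc hne hG hB j v' L hL P u hP Q u' hQ M' hM' l'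
        (fun X hX => hl X (by simp [hX])) h4

end Block

/-! ### the two schemes -/

theorem St_HL (G : Set (List α)) (hf : G.Finite) : HL 1 (St G) := by
  have h := (HL.finite (k := 0) hf).star
  refine h.congr fun w => ?_
  constructor
  · rintro ⟨l, hl, e⟩
    exact Language.mem_kstar.2 ⟨l, e.symm, hl⟩
  · intro hw
    obtain ⟨l, e, hl⟩ := Language.mem_kstar.1 hw
    exact ⟨l, hl, e.symm⟩

/-- the words of `G*` whose parse satisfies `p` -/
def RO (G : Set (List α)) (p : List (List α) → Prop) : Language α :=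
  {w | ∃ l : List (List α), (∀ X ∈ l, X ∈ G) ∧ l.flatten = w ∧ p l}

theorem Sl_HL [Finite α] {W : Type*} {n : ℕ} (p : List α → W → Prop) (b : ℕ)
    (hb : ∀ P v, p P v → P.length ≤ b) (v : W) : HL n (Sl p v) :=
  HL.finite ((List.finite_length_le α b).subset fun P hP => hb P v hP)

theorem Res_empty {V : Type*} {n : ℕ} (T : List α → V → V) (v v' : V) :
    HL n (Res (∅ : Set (List α)) T v v') := by
  by_cases h : v = v'
  · refine (HL.one (α := α) (k := n)).congr fun w => ?_
    constructor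
    · rintro ⟨l, hl, rfl, -⟩
      cases l with
      | nil => rfl
      | cons X l => exact (hl X (by simp)).elim
    · intro hw
      have : w = [] := hw
      subst this
      exact ⟨[], by simp, rfl, h⟩
  · refine (HL.bot (α := α) (k := n)).congr fun w => ?_
    constructor
    · rintro ⟨l, hl, rfl, ht⟩
      cases l with
      | nil => exact (h ht).elim
      | cons X l => exact (hl X (by simp)).elim
    · intro hw
      exact hw.elim

/-- reading an affine action off its tokens -/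
theorem read_off {V2 : Type*} [Finite V2] [AddCommGroup V2] {n : ℕ}
    {XX G : Set (List α)} (hpc : PC XX) (hne : [] ∉ XX) (hG : ∀ X ∈ G, X ∈ XX)
    {F : Type*} (act2 : V2 → F → V2) (faith : ∀ f g : F, (∀ a, act2 a f = act2 a g) → f = g)
    (zero : ∀ f, act2 0 f = 0)
    (T2 : List α → V2 → V2) (fl : List (List α) → F)
    (aff : ∀ l : List (List α), (∀ X ∈ l, X ∈ G) → ∃ c, ∀ a, tr T2 a l = act2 a (fl l) + c)
    (h2 : ∀ a a', HL n (Res G T2 a a')) (p : F → Prop) :
    HL n (RO G fun l => p (fl l)) := by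
  have h := HL.biUnion (k := n) (s := {g : V2 → V2 | ∃ f c, (∀ a, g a = act2 a f + c) ∧ p f})
    (Set.toFinite _) (L := fun g => {w | ∀ a, w ∈ Res G T2 a (g a)})
    (fun g _ => HL.iInter fun a => h2 a (g a))
  refine h.congr fun w => ?_
  constructor
  · rintro ⟨l, hl, rfl, hp⟩
    obtain ⟨c, hc⟩ := aff l hl
    exact ⟨fun a => tr T2 a l, ⟨fl l, c, hc, hp⟩, fun a => ⟨l, hl, rfl, rfl⟩⟩
  · rintro ⟨g, ⟨f, c, hc, hp⟩, hw⟩
    obtain ⟨l, hl, rfl, ht0⟩ := hw 0
    refine ⟨l, hl, rfl, ?_⟩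
    have hall : ∀ a, tr T2 a l = g a := by
      intro a
      obtain ⟨l', hl', e, ht⟩ := hw a
      have := unique hpc hne (fun X hX => hG X (hl X hX)) (fun X hX => hG X (hl' X hX)) e
      rw [← this]; exact ht
    obtain ⟨c', hc'⟩ := aff l hl
    have hcc : c = c' := by
      have h1 := hall 0
      rw [hc, hc', zero, zero, zero_add, zero_add] at h1
      exact h1.symm
    have : fl l = f := by
      apply faith
      intro a
      have h1 := hall a
      rw [hc, hc', hcc] at h1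
      exact add_right_cancel h1
    change p (fl l)
    rw [this]; exact hp

/-- composite of the block maps -/
def cmp {V : Type*} (T : List α → V → V) (l : List (List α)) : V → V := fun v => tr T v l

theorem aff2 {V V2 : Type*} [AddCommGroup V2] (act2 : V2 → (V → V) → V2)
    (add2 : ∀ a b f, act2 (a + b) f = act2 a f + act2 b f)
    (comp2 : ∀ a f g, act2 (act2 a f) g = act2 a (g ∘ f)) (id2 : ∀ a, act2 a id = a)
    (T : List α → V → V) (nu2 : List α → V2) (l : List (List α)) :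
    ∃ c, ∀ a, tr (fun X a => act2 a (T X) + nu2 X) a l = act2 a (cmp T l) + c := by
  induction l with
  | nil => exact ⟨0, fun a => by rw [tr_nil, add_zero]; exact (id2 a).symm⟩
  | cons X l ih =>
    obtain ⟨c, hc⟩ := ih
    refine ⟨act2 (nu2 X) (cmp T l) + c, fun a => ?_⟩
    rw [tr_cons, hc, add2, comp2, add_assoc]
    rfl

/-- the data of 517's Core -/
structure Core {S V V2 : Type*} [Monoid S] [AddCommGroup V] [AddCommGroup V2]
    (act : V → S → V) (act2 : V2 → (V → V) → V2) (ψ : α → S) (Tc : List α → Prop) where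
  XX : Set (List α)
  B : ℕ
  L1 : List α → Option V
  R1 : List α → Option V
  nu1 : List α → V
  L2 : List α → Option V2
  R2 : List α → Option V2
  nu2 : List α → V2
  pre : ∀ X ∈ XX, ∀ Y ∈ XX, X <+: Y → X = Y
  ne : [] ∉ XX
  len : ∀ X ∈ XX, X.length ≤ B
  parse : ∀ w, Tc w → ∃ l : List (List α), (∀ X ∈ l, X ∈ XX) ∧
    ∃ E, w = l.flatten ++ E ∧ E.length ≤ B
  j1 : ∀ P Q v v', L1 P = some v → R1 Q = some v' →
    P ++ Q ∈ XX ∧ v' = act v (((P ++ Q).map ψ).prod) + nu1 (P ++ Q)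
  j2 : ∀ P Q a a', L2 P = some a → R2 Q = some a' → P ++ Q ∈ XX ∧
    ((∃ v, ∀ P' Q', P ++ Q = P' ++ Q' → L1 P' = some v → R1 Q' = none) →
      a' = act2 a (fun v => act v (((P ++ Q).map ψ).prod) + nu1 (P ++ Q)) + nu2 (P ++ Q))
  c2 : ∀ X ∈ XX, (∃ v, ∀ P' Q', X = P' ++ Q' → L1 P' = some v → R1 Q' = none) →
    ∀ a, ∃ P Q, X = P ++ Q ∧ L2 P = some a ∧ (R2 Q).isSome

theorem half1 [Finite α] {S V V2 : Type*} [Monoid S] [AddCommGroup V] [AddCommGroup V2]
    [Finite V] [Finite V2] {act : V → S → V} {act2 : V2 → (V → V) → V2}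
    (add1 : ∀ a b s, act (a + b) s = act a s + act b s)
    (comp1 : ∀ a s t, act (act a s) t = act a (s * t)) (one1 : ∀ a, act a 1 = a)
    (faith1 : ∀ s t, (∀ a, act a s = act a t) → s = t)
    (add2 : ∀ a b f, act2 (a + b) f = act2 a f + act2 b f)
    (comp2 : ∀ a f g, act2 (act2 a f) g = act2 a (g ∘ f)) (id2 : ∀ a, act2 a id = a)
    (faith2 : ∀ f g, (∀ a, act2 a f = act2 a g) → f = g)
    {ψ : α → S} {Tc : List α → Prop} (hT : HL 2 ({w | Tc w} : Language α))
    (D : Core act act2 ψ Tc) (s : S) :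
    HL 2 ({w | Tc w ∧ (w.map ψ).prod = s} : Language α) := by
  have zero1 : ∀ s, act 0 s = 0 := fun s => by
    have := add1 0 0 s
    rw [add_zero] at this
    exact left_eq_add.1 this
  have zero2 : ∀ f, act2 0 f = 0 := fun f => by
    have := add2 0 0 f
    rw [add_zero] at this
    exact left_eq_add.1 this
  let φ : List α → S := fun w => (w.map ψ).prod
  have hφ : ∀ u w, φ (u ++ w) = φ u * φ w := fun u w => by
    simp [φ, List.map_append, List.prod_append]
  let T1 : List α → V → V := fun X v => act v (φ X) + D.nu1 X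
  let T2 : List α → V2 → V2 := fun X a => act2 a (T1 X) + D.nu2 X
  let Bad : Set (List α) := {X | X ∈ D.XX ∧ ∃ v, ∀ P' Q', X = P' ++ Q' → D.L1 P' = some v → D.R1 Q' = none}
  have hBX : ∀ X ∈ Bad, X ∈ D.XX := fun X hX => hX.1
  have finX : D.XX.Finite := (List.finite_length_le α D.B).subset D.len
  have finB : Bad.Finite := finX.subset hBX
  -- labels of bounded length
  let Lf1 : List α → V → Prop := fun P v => D.L1 P = some v ∧ P.length ≤ D.B
  let Rf1 : List α → V → Prop := fun Q v => D.R1 Q = some v ∧ Q.length ≤ D.B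
  let Lf2 : List α → V2 → Prop := fun P v => D.L2 P = some v ∧ P.length ≤ D.B
  let Rf2 : List α → V2 → Prop := fun Q v => D.R2 Q = some v ∧ Q.length ≤ D.B
  -- scheme 2 on Bad*
  have step2 : ∀ a a', HL 1 (Res Bad T2 a a') := by
    refine block_star (n := 0) D.XX Bad ∅ T2 Lf2 Rf2 D.pre D.ne hBX (fun X hX => hX.elim)
      (fun v => Sl_HL _ D.B (fun P v h => h.2) v) (fun v => Sl_HL _ D.B (fun P v h => h.2) v)
      ?_ ?_ (fun v v' => Res_empty T2 v v') (St_HL Bad finB)
    · intro P Q v v' hP hQ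
      obtain ⟨h1, h2⟩ := D.j2 P Q v v' hP.1 hQ.1
      exact ⟨h1, fun hb => h2 hb.2⟩
    · intro X hX _ v
      obtain ⟨P, Q, h1, h2, h3⟩ := D.c2 X hX.1 hX.2 v
      obtain ⟨v', hv'⟩ := Option.isSome_iff_exists.1 h3
      have hlen := D.len X hX.1
      rw [h1, List.length_append] at hlen
      exact ⟨P, Q, v', h1, ⟨h2, by omega⟩, ⟨hv', by omega⟩⟩
  have resB : ∀ v v', HL 1 (Res Bad T1 v v') := by
    intro v v'
    refine (read_off (n := 1) D.pre D.ne hBX act2 faith2 zero2 T2 (cmp T1)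
      (fun l _ => aff2 act2 add2 comp2 id2 T1 D.nu2 l) step2 (fun f => f v = v')).congr fun w => ?_
    rfl
  have step1 : ∀ v v', HL 2 (Res D.XX T1 v v') := by
    refine block_star (n := 1) D.XX D.XX Bad T1 Lf1 Rf1 D.pre D.ne (fun X hX => hX) hBX
      (fun v => Sl_HL _ D.B (fun P v h => h.2) v) (fun v => Sl_HL _ D.B (fun P v h => h.2) v)
      ?_ ?_ resB ((St_HL D.XX finX).mono (by omega))
    · intro P Q v v' hP hQ
      obtain ⟨h1, h2⟩ := D.j1 P Q v v' hP.1 hQ.1
      exact ⟨h1, fun _ => h2⟩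
    · intro X hX hnb v
      have : ¬ ∀ P' Q', X = P' ++ Q' → D.L1 P' = some v → D.R1 Q' = none := fun h => hnb ⟨hX, v, h⟩
      push Not at this
      obtain ⟨P, Q, h1, h2, h3⟩ := this
      obtain ⟨v', hv'⟩ := Option.ne_none_iff_exists'.1 h3
      have hlen := D.len X hX
      rw [h1, List.length_append] at hlen
      exact ⟨P, Q, v', h1, ⟨h2, by omega⟩, ⟨hv', by omega⟩⟩
  have aff1 : ∀ l : List (List α), ∃ c, ∀ a, tr T1 a l = act a (φ l.flatten) + c := by
    intro l
    induction l with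
    | nil => exact ⟨0, fun a => by rw [tr_nil, add_zero]; simp [φ, one1]⟩
    | cons X l ih =>
      obtain ⟨c, hc⟩ := ih
      refine ⟨act (D.nu1 X) (φ l.flatten) + c, fun a => ?_⟩
      rw [tr_cons, hc, List.flatten_cons, hφ]
      simp only [T1]
      rw [add1, comp1, add_assoc]
  have hE : ∀ E : List α, HL 2 (RO D.XX fun l => φ l.flatten * φ E = s) := by
    intro E
    exact read_off (n := 2) D.pre D.ne (fun X hX => hX) act faith1 zero1 T1 (fun l => φ l.flatten)
      (fun l _ => aff1 l) step1 (fun t => t * φ E = s)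
  have hU := HL.biUnion (k := 2) (s := {E : List α | E.length ≤ D.B}) (List.finite_length_le α D.B)
    (L := fun E => (RO D.XX fun l => φ l.flatten * φ E = s) * ({E} : Language α))
    (fun E _ => (hE E).mul (HL.word E))
  refine (hT.inf hU).congr fun w => ?_
  constructor
  · rintro ⟨h1, h2⟩
    refine ⟨h1, ?_⟩
    obtain ⟨l, hl, E, rfl, hEl⟩ := D.parse w h1
    refine ⟨E, hEl, Language.mem_mul.2 ⟨l.flatten, ⟨l, hl, rfl, ?_⟩, E, rfl, rfl⟩⟩
    change φ l.flatten * φ E = s
    rw [← hφ]; exact h2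
  · rintro ⟨h1, E, hEl, h2⟩
    refine ⟨h1, ?_⟩
    obtain ⟨y, ⟨l, hl, rfl, hs⟩, z, hz, rfl⟩ := Language.mem_mul.1 h2
    have hs' : φ l.flatten * φ E = s := hs
    rw [Set.mem_singleton_iff.1 hz]
    rw [← hφ] at hs'
    exact hs'

end Crest.Agent.R320.CoreHalf_890
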