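import Crest.Agent.R320.Top5_110

/-!
# Row 320: natural chain rule, the two completeness statements of 110's `top_sem` (helper106)

Walls: left looking, `Wo X` depends on the last `n` letters.  Block code `XX`: the first wall at a
distance `≥ z`.  Scheme 1: abstract gadget `lam, rho, nu1` on the word `Y` right of `a + p0`
(sound for every total, complete off `BT |Y|`).  Scheme 2: exact gadget on the first `p0` letters,
places `c k`, redundancy `R`.  One token system.
-/

set_option autoImplicit false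

namespace Crest.Agent.R320.CoreN_106

open Crest.Agent.R320.Hk_851 Crest.Agent.R320.Code110

universe u

structure Dt (α : Type u) (S V : Type) [Monoid S] [AddCommGroup V] where
  φ : List α → S
  hφ0 : φ [] = 1
  hφ : ∀ u w, φ (u ++ w) = φ u * φ w
  act : V → S → V
  hact1 : ∀ v, act v 1 = v
  hactm : ∀ v s t, act v (s * t) = act (act v s) t
  hacta : ∀ v w s, act (v + w) s = act v s + act w s
  Wo : List α → Prop
  n : ℕ
  hloc : ∀ P Q : List α, n ≤ Q.length → (Wo (P ++ Q) ↔ Wo Q)
  hlen : ∀ P : List α, Wo P → n ≤ P.length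
  p0 : ℕ
  N1 : ℕ
  z : ℕ
  hz : p0 + N1 + n < z
  lam : List α → Option V
  rho : List α → Option V
  nu1 : List α → V
  BT : ℕ → Prop
  g1 : ∀ P Q v b, lam P = some v → rho Q = some b → b = act v (φ (P ++ Q)) + nu1 (P ++ Q)
  g2 : ∀ P v, lam P = some v → P.length ≤ N1
  g3 : ∀ Y : List α, z - p0 ≤ Y.length → ¬ BT Y.length → ∀ v, ∃ P Q, Y = P ++ Q ∧
    lam P = some v ∧ (rho Q).isSome
  K : ℕ
  c : ℕ → ℕ
  hc : ∀ k < K, c k ≤ p0
  lm : ℕ → List α → Option V
  rh : ℕ → List α → Option V
  nu2 : List α → V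
  h1 : ∀ k < K, ∀ P Q v b, P.length = c k → (P ++ Q).length = p0 → lm k P = some v →
    rh k Q = some b → b = act v (φ (P ++ Q)) + nu2 (P ++ Q)
  R : ℕ
  h2 : ∀ u : List α, u.length = p0 → ∀ v, ∃ I : Finset ℕ, R ≤ I.card ∧ ∀ k ∈ I, k < K ∧
    lm k (u.take (c k)) = some v ∧ (rh k (u.drop (c k))).isSome

namespace Dt

variable {α : Type u} {S V : Type} [Monoid S] [AddCommGroup V] (D : Dt α S V)

/-- blocks: up to the first wall at a distance `≥ z` -/
def XX : Language α :=
  {X | D.z ≤ X.length ∧ D.Wo X ∧ ∀ t < X.length, D.Wo (X.take t) → t < D.z}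

/-- the wall band -/
def BE (X : List α) : Prop :=
  ∃ t ≤ X.length, D.Wo (X.take t) ∧ D.z ≤ t + D.N1 ∧ t ≤ D.z + D.N1

/-- bad blocks -/
def Bad : Language α := {X | X ∈ D.XX ∧ (D.BE X ∨ D.BT (X.length - D.p0))}

/-- block map -/
def T (X : List α) (v : V) : V :=
  D.act (D.act v (D.φ (X.take D.p0)) + D.nu2 (X.take D.p0)) (D.φ (X.drop D.p0)) +
    D.nu1 (X.drop D.p0)

/-- left words of scheme 1 -/
def L1 (v : V) : Language α :=
  {P | D.p0 ≤ P.length ∧
    D.lam (P.drop D.p0) = some (D.act v (D.φ (P.take D.p0)) + D.nu2 (P.take D.p0))}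

/-- left words of scheme 2 -/
def L2 (v : V) : Language α := {P | ∃ k < D.K, P.length = D.c k ∧ D.lm k P = some v}

theorem pc : PC D.XX where
  ne := by
    rintro ⟨h, _⟩
    have := D.hz
    simp only [List.length_nil] at h
    omega
  pf := by
    rintro u ⟨hu1, hu2, hu3⟩ v ⟨hv1, hv2, hv3⟩ ⟨r, rfl⟩
    rcases r with _ | ⟨a, r⟩
    · simp
    · exfalso
      have h := hv3 u.length (by simp) (by rw [List.take_left]; exact hu2)
      omega

theorem sub : ∀ u ∈ D.Bad, u ∈ D.XX := fun _ h => h.1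

theorem hT (X : List α) (v v' : V) : D.T X v - D.T X v' = D.act (v - v') (D.φ X) := by
  have hs : ∀ a b s, D.act (a - b) s = D.act a s - D.act b s := by
    intro a b s
    have := D.hacta (a - b) b s
    rw [sub_add_cancel] at this
    rw [this]
    abel
  have e : D.φ X = D.φ (X.take D.p0) * D.φ (X.drop D.p0) := by
    rw [← D.hφ, List.take_append_drop]
  unfold T
  rw [e, D.hactm, hs, hs, D.hacta, D.hacta]
  abel

/-- the walls of `p ++ q` behind `p` do not depend on `p` -/
theorem wall_right (P Q : List α) (t : ℕ) (ht : t ≤ Q.length) (hn : D.n ≤ t) :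
    D.Wo ((P ++ Q).take (P.length + t)) ↔ D.Wo (Q.take t) := by
  rw [List.take_append, List.take_of_length_le (by omega : P.length ≤ P.length + t),
    Nat.add_sub_cancel_left]
  exact D.hloc _ _ (by rw [List.length_take]; omega)

theorem exists_block (w : List α) (h1 : D.z ≤ w.length) (h2 : D.Wo w) :
    ∃ X ∈ D.XX, X <+: w := by
  classical
  have hex : ∃ t, D.z ≤ t ∧ t ≤ w.length ∧ D.Wo (w.take t) :=
    ⟨w.length, h1, le_rfl, by rw [List.take_length]; exact h2⟩
  obtain ⟨h3, h4, h5⟩ := Nat.find_spec hex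
  refine ⟨w.take (Nat.find hex), ⟨?_, h5, ?_⟩, List.take_prefix _ _⟩
  · rw [List.length_take]; omega
  · intro t ht hw
    rw [List.length_take] at ht
    rw [List.take_take, min_eq_left (by omega)] at hw
    by_contra hlt
    exact Nat.find_min hex (m := t) (by omega) ⟨by omega, by omega, hw⟩

/-- junction of scheme 1 -/
theorem junction {P Q : List α} (hP : D.p0 ≤ P.length) (hP' : P.length ≤ D.p0 + D.N1)
    (hQ : D.Wo Q) (hQ1 : D.z ≤ Q.length + D.p0)
    (hQ2 : ∀ t < Q.length, D.Wo (Q.take t) → t + D.p0 + D.N1 < D.z) : P ++ Q ∈ D.XX := by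
  have hz := D.hz
  refine ⟨?_, (D.hloc _ _ (by omega)).2 hQ, ?_⟩
  · rw [List.length_append]; omega
  · intro t ht hw
    rw [List.length_append] at ht
    by_cases h : t < P.length + D.n
    · omega
    · obtain ⟨s, rfl⟩ : ∃ s, t = P.length + s := ⟨t - P.length, by omega⟩
      rw [D.wall_right P Q s (by omega) (by omega)] at hw
      have := hQ2 s (by omega) hw
      omega

theorem mem_exactly_one {X : List α} {Z : Language α} (hX : X ∈ Z) (v : V) :
    X ∈ Exactly Z D.T 1 v (D.T X v) := by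
  refine ⟨D.T X v, Language.mem_mul.2 ⟨X, ⟨hX, rfl⟩, [], ⟨rfl, rfl⟩, List.append_nil X⟩⟩

theorem mem_exactly_two {X Y : List α} {Z : Language α} (hX : X ∈ Z) (hY : Y ∈ Z) (v : V) :
    X ++ Y ∈ Exactly Z D.T 2 v (D.T Y (D.T X v)) := by
  exact ⟨D.T X v, Language.mem_mul.2 ⟨X, ⟨hX, rfl⟩, Y, D.mem_exactly_one hY _, rfl⟩⟩

/-- **completeness of scheme 1** -/
theorem C1 : ∀ u ∈ D.XX, u ∉ D.Bad → ∀ x, ∀ t ∈ D.XX ^ 0, ∃ p q y, u ++ t = p ++ q ∧
    p ∈ D.L1 x ∧ q ∈ Rsem D.XX D.XX D.T 0 D.L1 y := by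
  intro u hu hub x t ht
  have ht' : t = [] := by
    rw [pow_zero] at ht
    exact ht
  subst ht'
  have hz := D.hz
  obtain ⟨hu1, hu2, hu3⟩ := hu
  have hnb : ¬ D.BE u ∧ ¬ D.BT (u.length - D.p0) := by
    constructor
    · intro h; exact hub ⟨⟨hu1, hu2, hu3⟩, Or.inl h⟩
    · intro h; exact hub ⟨⟨hu1, hu2, hu3⟩, Or.inr h⟩
  have hul : D.z + D.N1 < u.length := by
    by_contra h
    exact hnb.1 ⟨u.length, le_rfl, by rw [List.take_length]; exact hu2, by omega, by omega⟩
  obtain ⟨P, Q, hPQ, hP, hQ⟩ := D.g3 (u.drop D.p0) (by rw [List.length_drop]; omega)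
    (by rw [List.length_drop]; exact hnb.2)
    (D.act x (D.φ (u.take D.p0)) + D.nu2 (u.take D.p0))
  obtain ⟨b, hb⟩ := Option.isSome_iff_exists.1 hQ
  have hPl := D.g2 P _ hP
  have hlen : u.length = D.p0 + P.length + Q.length := by
    have := congrArg List.length hPQ
    rw [List.length_drop, List.length_append] at this
    omega
  have htl : (u.take D.p0).length = D.p0 := by rw [List.length_take]; omega
  have hu : u = (u.take D.p0 ++ P) ++ Q := by
    rw [List.append_assoc, ← hPQ, List.take_append_drop]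
  have hpl : (u.take D.p0 ++ P).length = D.p0 + P.length := by
    rw [List.length_append, htl]
  have hWQ : D.Wo Q := by
    rw [hu] at hu2
    exact (D.hloc _ _ (by omega)).1 hu2
  have hQw : ∀ t < Q.length, D.Wo (Q.take t) → t + D.p0 + D.N1 < D.z := by
    intro t ht hw
    have hnt := D.hlen _ hw
    rw [List.length_take] at hnt
    have h3 := (D.wall_right (u.take D.p0 ++ P) Q t (by omega) (by omega)).2 hw
    rw [← hu, hpl] at h3
    have h4 := hu3 (D.p0 + P.length + t) (by omega) h3
    by_contra h5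
    exact hnb.1 ⟨D.p0 + P.length + t, by omega, h3, by omega, by omega⟩
  refine ⟨u.take D.p0 ++ P, Q, b, by rw [List.append_nil]; exact hu, ?_, ?_⟩
  · refine ⟨by omega, ?_⟩
    rw [List.drop_left' htl, List.take_left' htl]
    exact hP
  · intro x' p' hp'
    obtain ⟨h1, h2⟩ := hp'
    left
    have h3 := D.g2 _ _ h2
    rw [List.length_drop] at h3
    have h4 : p' ++ Q ∈ D.XX := D.junction h1 (by omega) hWQ (by omega) hQw
    have h5 := D.g1 _ _ _ _ h2 hb
    have h6 : D.T (p' ++ Q) x' = b := by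
      unfold T
      rw [List.take_append_of_le_length h1, List.drop_append_of_le_length h1]
      exact h5.symm
    rw [← h6]
    exact D.mem_exactly_one h4 x'

/-- replacing the first `c k` letters of a block -/
theorem swap {u p' : List α} {k : ℕ} (hk : k < D.K) (hu : u ∈ D.XX) (hp : p'.length = D.c k) :
    p' ++ u.drop (D.c k) ∈ D.XX ∧ (u ∈ D.Bad → p' ++ u.drop (D.c k) ∈ D.Bad) := by
  have hz := D.hz
  have hck := D.hc k hk
  obtain ⟨hu1, hu2, hu3⟩ := hu
  have hl : (p' ++ u.drop (D.c k)).length = u.length := by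
    rw [List.length_append, List.length_drop]; omega
  have htk : (u.take (D.c k)).length = p'.length := by
    rw [List.length_take]; omega
  have key : ∀ t, p'.length + D.n ≤ t → t ≤ u.length →
      (D.Wo ((p' ++ u.drop (D.c k)).take t) ↔ D.Wo (u.take t)) := by
    intro t ht1 ht2
    obtain ⟨s, rfl⟩ : ∃ s, t = p'.length + s := ⟨t - p'.length, by omega⟩
    rw [D.wall_right p' (u.drop (D.c k)) s (by rw [List.length_drop]; omega) (by omega)]
    have h := D.wall_right (u.take (D.c k)) (u.drop (D.c k)) s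
      (by rw [List.length_drop]; omega) (by omega)
    rw [List.take_append_drop, htk] at h
    exact h.symm
  have hX : p' ++ u.drop (D.c k) ∈ D.XX := by
    refine ⟨by omega, ?_, ?_⟩
    · have := (key u.length (by omega) le_rfl).2 (by rw [List.take_length]; exact hu2)
      rwa [← hl, List.take_length] at this
    · intro t ht hw
      by_cases h : t < p'.length + D.n
      · omega
      · exact hu3 t (by omega) ((key t (by omega) (by omega)).1 hw)
  refine ⟨hX, ?_⟩
  rintro ⟨_, h⟩
  refine ⟨hX, ?_⟩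
  rcases h with ⟨t, h1, h2, h3, h4⟩ | h
  · left
    exact ⟨t, by omega, (key t (by omega) h1).2 h2, h3, h4⟩
  · right
    rw [hl]
    exact h

/-- **completeness of scheme 2** -/
theorem C2
    (hspoil : ∀ u ∈ D.Bad, ∀ t ∈ D.XX, ∃ Sp : Finset ℕ, Sp.card < D.R ∧ ∀ k < D.K, k ∉ Sp →
      ∀ k' < D.K, k' ≠ k → ∀ p' : List α, p'.length = D.c k' →
        ∀ X' ∈ D.XX, X' <+: p' ++ (u.drop (D.c k) ++ t) → X' ∉ D.Bad) :
    ∀ u ∈ D.Bad, ∀ x, ∀ t ∈ D.Bad ^ 1, ∃ p q y, u ++ t = p ++ q ∧ p ∈ D.L2 x ∧
      q ∈ Rsem D.XX D.Bad D.T 1 D.L2 y := by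
  intro u hu x t ht
  rw [pow_one] at ht
  have hz := D.hz
  have hu0 := hu
  obtain ⟨⟨hu1, hu2, hu3⟩, hu4⟩ := hu
  obtain ⟨Sp, hSp, hsp⟩ := hspoil u hu0 t ht.1
  have htl : (u.take D.p0).length = D.p0 := by rw [List.length_take]; omega
  obtain ⟨I, hI, hI'⟩ := D.h2 (u.take D.p0) htl x
  obtain ⟨k, hkI, hkS⟩ : ∃ k ∈ I, k ∉ Sp := by
    by_contra h
    push Not at h
    have := Finset.card_le_card (show I ⊆ Sp from fun k hk => h k hk)
    omega
  obtain ⟨hkK, hl, hr⟩ := hI' k hkI
  have hck := D.hc k hkK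
  rw [List.take_take, min_eq_left hck] at hl
  obtain ⟨b, hb⟩ := Option.isSome_iff_exists.1 hr
  have hckl : (u.take (D.c k)).length = D.c k := by rw [List.length_take]; omega
  refine ⟨u.take (D.c k), u.drop (D.c k) ++ t, D.T t (D.T u x), ?_, ⟨k, hkK, hckl, hl⟩, ?_⟩
  · rw [← List.append_assoc, List.take_append_drop]
  · intro x' p' hp'
    obtain ⟨k', hk', hpl, hlm⟩ := hp'
    by_cases hkk : k' = k
    · subst hkk
      left
      obtain ⟨h5, h6⟩ := D.swap hkK hu0.1 hpl
      have h7 := h6 hu0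
      have hTT : D.T (p' ++ u.drop (D.c k')) x' = D.T u x := by
        have e1 : (p' ++ u.drop (D.c k')).take D.p0 = p' ++ (u.take D.p0).drop (D.c k') := by
          rw [List.take_append, List.take_of_length_le (by omega : p'.length ≤ D.p0),
            List.drop_take, hpl]
        have e2 : (p' ++ u.drop (D.c k')).drop D.p0 = u.drop D.p0 := by
          rw [List.drop_append, List.drop_of_length_le (by omega : p'.length ≤ D.p0),
            List.nil_append, List.drop_drop]
          congr 1
          omega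
        have e3 : u.take (D.c k') ++ (u.take D.p0).drop (D.c k') = u.take D.p0 := by
          have h8 := List.take_append_drop (D.c k') (u.take D.p0)
          rwa [List.take_take, min_eq_left hck] at h8
        have hdl : ((u.take D.p0).drop (D.c k')).length = D.p0 - D.c k' := by
          rw [List.length_drop, htl]
        have s1 := D.h1 k' hkK p' _ x' b hpl
          (by rw [List.length_append, hdl]; omega) hlm hb
        have s2 := D.h1 k' hkK (u.take (D.c k')) _ x b hckl
          (by rw [List.length_append, hdl]; omega) hl hb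
        unfold T
        rw [e1, e2, ← s1]
        rw [e3] at s2
        rw [← s2]
      rw [← List.append_assoc, ← hTT]
      exact D.mem_exactly_two h7 ht x'
    · right
      obtain ⟨t1, t2, t3⟩ := ht.1
      obtain ⟨X', hX', hpre⟩ := D.exists_block (p' ++ (u.drop (D.c k) ++ t))
        (by simp only [List.length_append]; omega)
        (by
          rw [← List.append_assoc]
          exact (D.hloc _ _ (by omega)).2 t2)
      have hnb := hsp k hkK hkS k' hk' hkk p' hpl X' hX' hpre
      left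
      exact ⟨X', hX', hnb, hpre⟩

end Dt

end Crest.Agent.R320.CoreN_106
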