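import Crest.Agent.R320.Wall_291
import Crest.Agent.R320.Block_467

/-!
# Row 320, CORE-1 (helper37): left-looking walls, threshold blocks, junction lemma

`LWall`: a left-looking wall rule (status of the place `|X|` of a text is read on its last `n` letters).
`XX Wo M th`: blocks of the threshold chain rule of 132 #12664 (2): a block ends at the first wall `t`
with `th (t % M) ≤ t`.
-/

set_option autoImplicit false

namespace Crest.Agent.R320.CoreOne_37

open Crest.Agent.R320.Wall_291 Crest.Agent.R320.Blk467

universe u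
variable {α : Type u}

/-- the class of words without powers is closed under reversal -/
theorem RF_reverse {e W : ℕ} {Q : List α} (h : RF e W Q) : RF e W Q.reverse := by
  intro x hx hl hi
  refine h x.reverse (by simpa using hx) (by simpa using hl) ?_
  have h1 := List.reverse_infix.2 hi
  rw [List.reverse_reverse, List.reverse_flatten, List.map_replicate,
    List.reverse_replicate] at h1
  exact h1

/-- a left-looking wall rule with window `n`, gaps `> W`, gaps `≤ G` on power-free words -/
structure LWall (e W n G : ℕ) (Wo : List α → Prop) : Prop where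
  loc : ∀ P Q : List α, n ≤ Q.length → (Wo (P ++ Q) ↔ Wo Q)
  len : ∀ Q : List α, Wo Q → n ≤ Q.length
  gap : ∀ (X : List α) (s t : ℕ), s < t → t ≤ s + W → t ≤ X.length → Wo (X.take s) →
    Wo (X.take t) → False
  ex : ∀ X : List α, RF e W X → ∀ t, G + n ≤ t → t ≤ X.length → ∃ i < G, Wo (X.take (t - i))

theorem reverse_take_drop (X : List α) (t i : ℕ) (ht : t ≤ X.length) :
    (X.take t).reverse.drop i = (X.take (t - i)).reverse := by
  rw [List.drop_reverse, List.take_take, List.length_take, Nat.min_eq_left ht]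
  congr 2
  omega

theorem exists_lwalls (α : Type u) [Finite α] (e W : ℕ) :
    ∃ (n G : ℕ) (Wo : List α → Prop), LWall e W n G Wo := by
  obtain ⟨n, G, R, h1, h2, h3, h4⟩ := exists_walls α e W
  refine ⟨n, G, fun X => R X.reverse, ?_, ?_, ?_, ?_⟩
  · intro P Q hQ
    rw [List.reverse_append, h1 (Q.reverse ++ P.reverse), h1 Q.reverse,
      List.take_append_of_le_length (by simpa using hQ)]
  · intro Q hQ
    simpa using h2 _ hQ
  · intro X s t hst htW htX hs ht
    refine h3 _ (t - s) ht (by omega) (by omega) ?_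
    rw [reverse_take_drop X t (t - s) htX, show t - (t - s) = s by omega]
    exact hs
  · intro X hX t h5 h6
    obtain ⟨i, hi, hR⟩ := h4 (X.take t).reverse (RF_reverse (hX.take t))
      (by rw [List.length_reverse, List.length_take]; omega)
    refine ⟨i, hi, ?_⟩
    rw [reverse_take_drop X t i h6] at hR
    exact hR

section blocks

variable {e W n G : ℕ} {Wo : List α → Prop} {M : ℕ} {th : ℕ → ℕ}

/-- the blocks of the threshold chain rule -/
def XX (Wo : List α → Prop) (M : ℕ) (th : ℕ → ℕ) : Set (List α) :=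
  {X | Wo X ∧ th (X.length % M) ≤ X.length ∧
    ∀ t, t < X.length → Wo (X.take t) → ¬ th (t % M) ≤ t}

/-- blocks of bounded length -/
def XB (Wo : List α → Prop) (M : ℕ) (th : ℕ → ℕ) (B : ℕ) : Set (List α) :=
  {X | X ∈ XX Wo M th ∧ X.length ≤ B}

theorem pcode (h0 : ∀ r, 0 < th r) : PCode (XX Wo M th) := by
  refine ⟨?_, ?_⟩
  · rintro ⟨-, h, -⟩
    have := h0 (([] : List α).length % M)
    simp at h this
    omega
  · intro X hX Y hY hXY
    rcases eq_or_lt_of_le hXY.length_le with h | h
    · exact hXY.eq_of_length h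
    · exfalso
      refine hY.2.2 X.length h ?_ hX.2.1
      rw [List.prefix_iff_eq_take.1 hXY] at hX
      exact hX.1

theorem pcodeB (h0 : ∀ r, 0 < th r) (B : ℕ) : PCode (XB Wo M th B) :=
  (pcode h0).mono fun _ h => h.1

/-- every long power-free word starts with a bounded block -/
theorem exists_block (hW : LWall e W n G Wo) {Z : ℕ} (hZ : ∀ r, th r ≤ Z) {w : List α}
    (hw : RF e W w) (hlen : Z + G + n ≤ w.length) :
    ∃ X, X ∈ XX Wo M th ∧ X <+: w ∧ X.length ≤ Z + G + n := by
  classical
  obtain ⟨i, hi, hwall⟩ := hW.ex w hw (Z + G + n) (by omega) hlen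
  have hex : ∃ t, t ≤ Z + G + n ∧ Wo (w.take t) ∧ th (t % M) ≤ t :=
    ⟨Z + G + n - i, by omega, hwall, (hZ _).trans (by omega)⟩
  obtain ⟨h1, h2, h3⟩ := Nat.find_spec hex
  set t := Nat.find hex with ht
  have hl : (w.take t).length = t := by rw [List.length_take]; omega
  refine ⟨w.take t, ⟨h2, by rw [hl]; exact h3, ?_⟩, List.take_prefix t w, by rw [hl]; exact h1⟩
  intro s hs hws hth
  rw [hl] at hs
  rw [List.take_take, Nat.min_eq_left hs.le] at hws
  exact Nat.find_min hex hs ⟨by omega, hws, hth⟩

/-- power-free blocks are bounded -/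
theorem block_le (hW : LWall e W n G Wo) {Z : ℕ} (hZ : ∀ r, th r ≤ Z) {X : List α}
    (hX : X ∈ XX Wo M th) (hRF : RF e W X) : X.length ≤ Z + G + n := by
  by_contra hcon
  push Not at hcon
  obtain ⟨Y, hY, hYX, hYl⟩ := exists_block (M := M) hW hZ hRF hcon.le
  have hlt : Y.length < X.length := by omega
  refine hX.2.2 Y.length hlt ?_ hY.2.1
  rw [List.prefix_iff_eq_take.1 hYX] at hY
  exact hY.1

/-- every power-free word is a product of bounded blocks and a bounded rest -/
theorem parse (hW : LWall e W n G Wo) (h0 : ∀ r, 0 < th r) {Z : ℕ} (hZ : ∀ r, th r ≤ Z) :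
    ∀ (k : ℕ) (w : List α), w.length ≤ k → RF e W w →
      ∃ l : List (List α), (∀ X ∈ l, X ∈ XB Wo M th (Z + G + n)) ∧
        ∃ E, w = l.flatten ++ E ∧ E.length < Z + G + n + 1 := by
  intro k
  induction k with
  | zero =>
    intro w hw _
    exact ⟨[], by simp, w, by simp, by omega⟩
  | succ k ih =>
    intro w hw hRF
    by_cases hlen : Z + G + n ≤ w.length
    · obtain ⟨X, hX, ⟨Y, rfl⟩, hXl⟩ := exists_block (M := M) hW hZ hRF hlen
      have hpos : 0 < X.length := by
        have := (pcode (Wo := Wo) (M := M) h0).1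
        rcases List.eq_nil_or_concat X with h | ⟨a, b, h⟩
        · rw [h] at hX; exact absurd hX this
        · rw [h]; simp
      obtain ⟨l, hl, E, hE, hEl⟩ := ih Y (by rw [List.length_append] at hw; omega)
        (hRF.infix (List.suffix_append X Y).isInfix)
      refine ⟨X :: l, ?_, E, by rw [hE]; simp, hEl⟩
      intro A hA
      rcases List.mem_cons.1 hA with rfl | hA
      · exact ⟨hX, hXl⟩
      · exact hl A hA
    · exact ⟨[], by simp, w, by simp, by omega⟩

/-- the wall part of right-legality: whatever legal distance `o` the anchor has, the block which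
contains the junction ends exactly with `Q` -/
def Rl (Wo : List α → Prop) (n M : ℕ) (th : ℕ → ℕ) (LL : ℕ → Prop) (Q : List α) : Prop :=
  Wo Q ∧ (∀ o, LL o → th ((o + Q.length) % M) ≤ o + Q.length) ∧
    ∀ s, s < Q.length → n ≤ s → Wo (Q.take s) → ∀ o, LL o → ¬ th ((o + s) % M) ≤ o + s

variable {LL : ℕ → Prop}

/-- **junction lemma** (818 / 132 (2)), for every text -/
theorem junc (hW : LWall e W n G Wo) (hLL : ∀ o, LL o → ∀ r, o + n ≤ th r) {P Q : List α}
    (hP : LL P.length) (hQ : Rl Wo n M th LL Q) : P ++ Q ∈ XX Wo M th := by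
  refine ⟨(hW.loc P Q (hW.len Q hQ.1)).2 hQ.1, ?_, ?_⟩
  · rw [List.length_append]
    exact hQ.2.1 _ hP
  · intro t ht hwall hth
    have h1 := hLL _ hP (t % M)
    have h2 : P.length + n ≤ t := h1.trans hth
    obtain ⟨s, rfl⟩ : ∃ s, t = P.length + s := ⟨t - P.length, by omega⟩
    rw [List.length_append] at ht
    rw [List.take_append, List.take_of_length_le (by omega), Nat.add_sub_cancel_left,
      hW.loc _ _ (by rw [List.length_take]; omega)] at hwall
    exact hQ.2.2 s (by omega) (by omega) hwall _ hP hth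

/-- the band: some wall whose status as next node depends on the place of the window -/
def E (Wo : List α → Prop) (M N1 : ℕ) (th : ℕ → ℕ) (X : List α) : Prop :=
  ∃ t, t ≤ X.length ∧ Wo (X.take t) ∧ t < th (t % M) + N1 ∧ th (t % M) ≤ t + N1

/-- **completeness of the wall part**: outside the band every place of the window is right-legal -/
theorem compl {p0 N1 : ℕ} (hLL : ∀ o, LL o → p0 ≤ o ∧ o ≤ p0 + N1 ∧ M ∣ o - p0) {X P Q : List α}
    (hX : X ∈ XX Wo M th) (hE : ¬ E Wo M N1 th X) (hPQ : P ++ Q = X) (hP : LL P.length)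
    (hW : LWall e W n G Wo) (hQn : n ≤ Q.length) : Rl Wo n M th LL Q := by
  have hE' : ∀ t, t ≤ X.length → Wo (X.take t) → th (t % M) + N1 ≤ t ∨ t + N1 < th (t % M) := by
    intro t h1 h2
    by_contra hc
    push Not at hc
    exact hE ⟨t, h1, h2, hc.1, hc.2⟩
  have hmod : ∀ o, LL o → ∀ s, (o + s) % M = (P.length + s) % M := by
    intro o ho s
    obtain ⟨a1, a2, a3⟩ := hLL o ho
    obtain ⟨b1, b2, b3⟩ := hLL _ hP
    obtain ⟨c, hc⟩ := a3
    obtain ⟨d, hd⟩ := b3
    have e1 : o + s = (p0 + s) + M * c := by omega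
    have e2 : P.length + s = (p0 + s) + M * d := by omega
    rw [e1, e2, Nat.add_mul_mod_self_left, Nat.add_mul_mod_self_left]
  obtain ⟨b1, b2, b3⟩ := hLL _ hP
  have hlen : X.length = P.length + Q.length := by rw [← hPQ, List.length_append]
  refine ⟨?_, ?_, ?_⟩
  · have := hX.1
    rw [← hPQ] at this
    exact (hW.loc P Q hQn).1 this
  · intro o ho
    obtain ⟨a1, a2, a3⟩ := hLL o ho
    rw [hmod o ho, ← hlen]
    have h1 := hX.2.1
    rcases hE' X.length le_rfl (by rw [List.take_length]; exact hX.1) with h | h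
    · omega
    · omega
  · intro s hs hns hwall o ho hth
    obtain ⟨a1, a2, a3⟩ := hLL o ho
    rw [hmod o ho] at hth
    have hw' : Wo (X.take (P.length + s)) := by
      rw [← hPQ, List.take_append, List.take_of_length_le (by omega), Nat.add_sub_cancel_left,
        hW.loc _ _ (by rw [List.length_take]; omega)]
      exact hwall
    have h1 := hX.2.2 (P.length + s) (by omega) hw'
    rcases hE' (P.length + s) (by omega) hw' with h | h
    · exact h1 (by omega)
    · omega

end blocks

end Crest.Agent.R320.CoreOne_37
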