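import Crest.Agent.R320.CoreHalf_722

/-!
# Row 320: the finite core gives height two (helper722; form of helper517 #13011 / 467)
-/

set_option autoImplicit false

namespace Crest.Agent.R320.CoreHalf_722

open Crest.RegLang Crest.Agent.R320.Hk_851

universe u v

variable {α : Type u} {V : Type v}

/-- affine transformation of a block -/
def aff {W : Type*} [Add W] {S : Type*} (act : W → S → W) (ph : List α → S) (nu : List α → W)
    (X : List α) (x : W) : W := act x (ph X) + nu X

section aff

variable {W : Type*} [AddCommGroup W] {S : Type*} [Monoid S] {act : W → S → W}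
  {ph : List α → S} {nu : List α → W}

theorem runT_aff (h1 : ∀ x, act x 1 = x) (hm : ∀ x s t, act x (s * t) = act (act x s) t)
    (ha : ∀ x y s, act (x + y) s = act x s + act y s)
    (p1 : ph [] = 1) (pm : ∀ u v, ph (u ++ v) = ph u * ph v) (D : List (List α)) :
    ∀ x y : W, runT (aff act ph nu) D (x + y) = act x (ph D.flatten) + runT (aff act ph nu) D y := by
  induction D with
  | nil => intro x y; simp [runT, p1, h1]
  | cons X D ih =>
    intro x y
    have e : aff act ph nu X (x + y) = act x (ph X) + aff act ph nu X y := by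
      simp only [aff, ha]; abel
    show runT _ D (aff act ph nu X (x + y)) = _ + runT _ D (aff act ph nu X y)
    rw [e, ih, List.flatten_cons, pm, hm]

/-- fibres of `ph` on words over a set of blocks, from the thread languages -/
theorem fibre_iff (h1 : ∀ x, act x 1 = x) (hm : ∀ x s t, act x (s * t) = act (act x s) t)
    (ha : ∀ x y s, act (x + y) s = act x s + act y s)
    (p1 : ph [] = 1) (pm : ∀ u v, ph (u ++ v) = ph u * ph v)
    {Dm : Set (List α)} {F : W → W → Language α}
    (hF : ∀ x z (D : List (List α)), (∀ X ∈ D, X ∈ Dm) →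
      (D.flatten ∈ F x z ↔ runT (aff act ph nu) D x = z))
    (D : List (List α)) (hD : ∀ X ∈ D, X ∈ Dm) (x y : W) :
    act x (ph D.flatten) = y ↔ ∃ a, D.flatten ∈ F 0 a ∧ D.flatten ∈ F x (y + a) := by
  have key : runT (aff act ph nu) D x = act x (ph D.flatten) + runT (aff act ph nu) D 0 := by
    have := runT_aff (nu := nu) h1 hm ha p1 pm D x 0
    rwa [add_zero] at this
  constructor
  · intro h
    refine ⟨runT (aff act ph nu) D 0, (hF _ _ D hD).2 rfl, (hF _ _ D hD).2 ?_⟩
    rw [key, h]
  · rintro ⟨a, h0, h2⟩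
    have e0 := (hF _ _ D hD).1 h0
    have e2 := (hF _ _ D hD).1 h2
    rw [key, e0] at e2
    exact add_right_cancel e2

end aff

/-- push forward of functions to `ZMod 2` -/
noncomputable def push [Finite V] (x : V → ZMod 2) (f : V → V) : V → ZMod 2 :=
  fun w => by
    classical
    let _ := Fintype.ofFinite V
    exact ∑ a, if f a = w then x a else 0

noncomputable def dlt (a : V) : V → ZMod 2 := by
  classical
  exact fun w => if a = w then 1 else 0

theorem dlt_inj {a b : V} (h : dlt a = dlt b) : a = b := by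
  classical
  by_contra hab
  have h1 := congrFun h a
  simp only [dlt, if_true] at h1
  rw [if_neg (fun e => hab e.symm)] at h1
  exact one_ne_zero h1

theorem push_dlt [Finite V] (a : V) (f : V → V) : push (dlt a) f = dlt (f a) := by
  classical
  let _ := Fintype.ofFinite V
  funext w
  show (∑ b, if f b = w then dlt a b else 0) = dlt (f a) w
  rw [Finset.sum_eq_single a]
  · simp [dlt]
  · intro b _ hb
    simp [dlt, Ne.symm hb]
  · intro h; exact (h (Finset.mem_univ a)).elim

theorem push_add [Finite V] (x y : V → ZMod 2) (f : V → V) :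
    push (x + y) f = push x f + push y f := by
  classical
  let _ := Fintype.ofFinite V
  funext w
  show (∑ b, if f b = w then (x + y) b else 0) =
    (∑ b, if f b = w then x b else 0) + (∑ b, if f b = w then y b else 0)
  rw [← Finset.sum_add_distrib]
  refine Finset.sum_congr rfl fun b _ => ?_
  split_ifs <;> simp

theorem push_id [Finite V] (x : V → ZMod 2) : push x id = x := by
  classical
  let _ := Fintype.ofFinite V
  funext w
  show (∑ b, if id b = w then x b else 0) = x w
  simp

theorem push_comp [Finite V] (x : V → ZMod 2) (f g : V → V) :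
    push x (fun a => g (f a)) = push (push x f) g := by
  classical
  let _ := Fintype.ofFinite V
  funext w
  show (∑ b, if g (f b) = w then x b else 0) =
    ∑ c, if g c = w then (∑ b, if f b = c then x b else 0) else 0
  have h1 : ∀ c, (if g c = w then (∑ b, if f b = c then x b else 0) else 0) =
      ∑ b, if f b = c then (if g (f b) = w then x b else 0) else 0 := by
    intro c
    by_cases hc : g c = w
    · rw [if_pos hc]
      refine Finset.sum_congr rfl fun b _ => ?_
      by_cases hb : f b = c
      · rw [if_pos hb, if_pos hb, if_pos (hb ▸ hc)]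
      · rw [if_neg hb, if_neg hb]
    · rw [if_neg hc]
      symm
      refine Finset.sum_eq_zero fun b _ => ?_
      by_cases hb : f b = c
      · rw [if_pos hb, if_neg (hb ▸ hc)]
      · rw [if_neg hb]
  rw [Finset.sum_congr rfl fun c _ => h1 c, Finset.sum_comm]
  refine Finset.sum_congr rfl fun b _ => ?_
  simp

/-- **the finite core** of one monoid on a class `Tx` of texts (helper517's form) -/
structure Core {S : Type*} [Monoid S] [AddCommGroup V] [Finite V]
    (act : V → S → V) (ph : List α → S) (Tx : List α → Prop) where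
  XX : Set (List α)
  B : ℕ
  code : PC XX
  len : ∀ X ∈ XX, X.length ≤ B
  cover : ∀ w, Tx w → ∃ (D : List (List α)) (E : List α), (∀ X ∈ D, X ∈ XX) ∧
    w = D.flatten ++ E ∧ E.length ≤ B
  L1 : List α → Option V
  R1 : List α → Option V
  nu1 : List α → V
  sound1 : ∀ P Q x y, L1 P = some x → R1 Q = some y →
    P ++ Q ∈ XX ∧ y = aff act ph nu1 (P ++ Q) x
  L2 : List α → Option (V → ZMod 2)
  R2 : List α → Option (V → ZMod 2)
  nu2 : List α → (V → ZMod 2)
  sound2 : ∀ P Q x y, L2 P = some x → R2 Q = some y → P ++ Q ∈ XX ∧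
    ((∃ v, ∀ P' Q', P ++ Q = P' ++ Q' → L1 P' = some v → R1 Q' = none) →
      y = push x (aff act ph nu1 (P ++ Q)) + nu2 (P ++ Q))
  complete2 : ∀ X ∈ XX, (∃ v, ∀ P' Q', X = P' ++ Q' → L1 P' = some v → R1 Q' = none) →
    ∀ x, ∃ P Q, X = P ++ Q ∧ L2 P = some x ∧ (R2 Q).isSome

/-- a set of words as a language -/
def lg (X : Set (List α)) : Language α := X

theorem flatten_mem_star {XX : Set (List α)} {w : List α} :
    w ∈ KStar.kstar (lg XX) ↔
      ∃ D : List (List α), (∀ X ∈ D, X ∈ XX) ∧ D.flatten = w := by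
  rw [Language.mem_kstar]
  constructor
  · rintro ⟨D, h1, h2⟩; exact ⟨D, h2, h1.symm⟩
  · rintro ⟨D, h1, h2⟩; exact ⟨D, h2.symm, h1⟩

/-- **the finite core gives height two** -/
theorem Core.height {S : Type*} [Monoid S] [Finite S] [AddCommGroup V] [Finite V] [Finite α]
    {act : V → S → V} {ph : List α → S} {Tx : List α → Prop} (C : Core act ph Tx)
    (h1 : ∀ x, act x 1 = x) (hm : ∀ x s t, act x (s * t) = act (act x s) t)
    (ha : ∀ x y s, act (x + y) s = act x s + act y s)
    (hf : ∀ s t, (∀ x, act x s = act x t) → s = t)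
    (p1 : ph [] = 1) (pm : ∀ u v, ph (u ++ v) = ph u * ph v)
    (hT : HL 2 ({w | Tx w} : Language α)) (s : S) :
    HL 2 ({w | Tx w ∧ ph w = s} : Language α) := by
  classical
  set Bad : Set (List α) :=
    {X | X ∈ C.XX ∧ ∃ v, ∀ P' Q', X = P' ++ Q' → C.L1 P' = some v → C.R1 Q' = none} with hBad
  have finXX : C.XX.Finite := (List.finite_length_le α C.B).subset C.len
  have finBad : Bad.Finite := finXX.subset fun X hX => hX.1
  -- inner cut system
  let T1 : List α → V → V := aff act ph C.nu1
  let act2 : (V → ZMod 2) → (Function.End V)ᵐᵒᵖ → (V → ZMod 2) := fun x f => push x f.unop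
  let T2 : List α → (V → ZMod 2) → (V → ZMod 2) := fun X x => push x (T1 X) + C.nu2 X
  have cut2 : Cut C.XX Bad ∅ C.B T2 C.L2 C.R2 :=
    { code := C.code
      dm := fun X hX => hX.1
      bdm := fun X hX => hX.elim
      len := C.len
      junction := fun P Q x y hP hQ => (C.sound2 P Q x y hP hQ).1
      sound := fun P Q x y hP hQ hb => (C.sound2 P Q x y hP hQ).2 hb.2
      complete := fun X hX _ x => C.complete2 X hX.1 hX.2 x }
  have thr0 : ∀ x y, HL 0 (Thr T2 (∅ : Set (List α)) x y) := by
    intro x y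
    have : HL 0 ({w | w ∈ (1 : Language α) ∧ x = y} : Language α) :=
      HL.one.setOf_and (HL.const _)
    refine this.congr fun w => ?_
    constructor
    · rintro ⟨D, hD, rfl, hr⟩
      cases D with
      | nil => exact ⟨rfl, hr⟩
      | cons X D => exact (hD X (by simp)).elim
    · rintro ⟨hw, hxy⟩
      have : w = [] := hw
      exact ⟨[], by simp, this.symm, hxy⟩
  have ex2 : ∀ x z, HL 1 (Ex C.B T2 (∅ : Set (List α)) C.L2 C.R2 x z) := fun x z => Ex_HL thr0 x z
  -- run of T2 is affine over the run of T1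
  have run2 : ∀ (D : List (List α)) (x y : V → ZMod 2),
      runT T2 D (x + y) = push x (runT T1 D) + runT T2 D y := by
    intro D
    induction D with
    | nil =>
      intro x y
      show x + y = push x (fun a => a) + y
      rw [show (fun a : V => a) = id from rfl, push_id]
    | cons X D ih =>
      intro x y
      have e : T2 X (x + y) = push x (T1 X) + T2 X y := by
        show push (x + y) (T1 X) + C.nu2 X = push x (T1 X) + (push y (T1 X) + C.nu2 X)
        rw [push_add]; abel
      show runT T2 D (T2 X (x + y)) = push x (fun a => runT T1 D (T1 X a)) + runT T2 D (T2 X y)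
      rw [e, ih, push_comp x (T1 X) (runT T1 D)]
  have starBad : HL 1 (KStar.kstar (lg Bad)) := (HL.finite (k := 0) finBad).star
  have thr1 : ∀ x y, HL 1 (Thr T1 Bad x y) := by
    intro x y
    have hh : HL 1 ({w | w ∈ KStar.kstar (lg Bad) ∧
        ∃ a, w ∈ Ex C.B T2 (∅ : Set (List α)) C.L2 C.R2 0 a ⊓
          Ex C.B T2 (∅ : Set (List α)) C.L2 C.R2 (dlt x) (dlt y + a)} : Language α) :=
      starBad.setOf_and (HL.iUnion fun a => (ex2 _ _).inf (ex2 _ _))
    refine hh.congr fun w => ?_
    constructor
    · rintro ⟨D, hD, rfl, hr⟩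
      refine ⟨flatten_mem_star.2 ⟨D, hD, rfl⟩, runT T2 D 0, (cut2.agree _ _ D hD).2 rfl,
        (cut2.agree _ _ D hD).2 ?_⟩
      have := run2 D (dlt x) 0
      rw [add_zero] at this
      rw [this, push_dlt, hr]
    · rintro ⟨hw, a, h0, h2⟩
      obtain ⟨D, hD, rfl⟩ := flatten_mem_star.1 hw
      have e0 := (cut2.agree _ _ D hD).1 h0
      have e2 := (cut2.agree _ _ D hD).1 h2
      have := run2 D (dlt x) 0
      rw [add_zero, e2, push_dlt, e0] at this
      exact ⟨D, hD, rfl, (dlt_inj (add_right_cancel this)).symm⟩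
  -- outer cut system
  have cut1 : Cut C.XX C.XX Bad C.B T1 C.L1 C.R1 :=
    { code := C.code
      dm := fun X hX => hX
      bdm := fun X hX => hX.1
      len := C.len
      junction := fun P Q x y hP hQ => (C.sound1 P Q x y hP hQ).1
      sound := fun P Q x y hP hQ _ => (C.sound1 P Q x y hP hQ).2
      complete := fun X hX hb x => by
        by_contra hcon
        push Not at hcon
        refine hb ⟨hX, x, fun P' Q' e hP' => ?_⟩
        have := hcon P' Q' e hP'
        simpa using this }
  have ex1 : ∀ x z, HL 2 (Ex C.B T1 Bad C.L1 C.R1 x z) := fun x z => Ex_HL thr1 x z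
  have starXX : HL 2 (KStar.kstar (lg C.XX)) :=
    ((HL.finite (k := 0) finXX).star).mono (by omega)
  have fib : ∀ t : S, HL 2 ({w | w ∈ KStar.kstar (lg C.XX) ∧ ph w = t} : Language α) := by
    intro t
    have hh : HL 2 ({w | w ∈ KStar.kstar (lg C.XX) ∧
        ∀ x : V, w ∈ ({w | ∃ a, w ∈ Ex C.B T1 Bad C.L1 C.R1 0 a ⊓
          Ex C.B T1 Bad C.L1 C.R1 x (act x t + a)} : Language α)} : Language α) :=
      starXX.setOf_and (HL.iInter fun x => HL.iUnion fun a => (ex1 _ _).inf (ex1 _ _))
    refine hh.congr fun w => ?_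
    constructor
    · rintro ⟨hw, rfl⟩
      obtain ⟨D, hD, rfl⟩ := flatten_mem_star.1 hw
      refine ⟨hw, fun x => ?_⟩
      have := (fibre_iff (nu := C.nu1) h1 hm ha p1 pm (Dm := C.XX)
        (F := fun x z => Ex C.B T1 Bad C.L1 C.R1 x z) (fun x z D hD => cut1.agree x z D hD)
        D hD x (act x (ph D.flatten))).1 rfl
      obtain ⟨a, h0, h2⟩ := this
      exact ⟨a, h0, h2⟩
    · rintro ⟨hw, hall⟩
      obtain ⟨D, hD, rfl⟩ := flatten_mem_star.1 hw
      refine ⟨hw, hf _ _ fun x => ?_⟩
      obtain ⟨a, h0, h2⟩ := hall x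
      exact (fibre_iff (nu := C.nu1) h1 hm ha p1 pm (Dm := C.XX)
        (F := fun x z => Ex C.B T1 Bad C.L1 C.R1 x z) (fun x z D hD => cut1.agree x z D hD)
        D hD x (act x t)).2 ⟨a, h0, h2⟩
  have hfin : {E : List α | E.length ≤ C.B}.Finite := List.finite_length_le α C.B
  have hall : HL 2 ({w | Tx w ∧ w ∈ ({w | ∃ E ∈ {E : List α | E.length ≤ C.B},
      w ∈ ({w | ∃ t : S, w ∈ ({_w | t * ph E = s} : Language α) ⊓
        (lg {w | w ∈ KStar.kstar (lg C.XX) ∧ ph w = t} *
          (lg {E}))} : Language α)} : Language α)} : Language α) :=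
    hT.setOf_and (HL.biUnion hfin fun E _ => HL.iUnion fun t =>
      (HL.const _).inf ((fib t).mul (HL.word E)))
  refine hall.congr fun w => ?_
  constructor
  · rintro ⟨hw, rfl⟩
    obtain ⟨D, E, hD, rfl, hE⟩ := C.cover w hw
    refine ⟨hw, E, hE, ph D.flatten, (pm _ _).symm, ?_⟩
    exact Language.mem_mul.2 ⟨D.flatten, ⟨flatten_mem_star.2 ⟨D, hD, rfl⟩, rfl⟩, E, rfl, rfl⟩
  · rintro ⟨hw, E, hE, t, ht, hm'⟩
    obtain ⟨M, ⟨-, hM⟩, E', hE', rfl⟩ := Language.mem_mul.1 hm'
    have : E' = E := hE'
    subst this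
    refine ⟨hw, ?_⟩
    rw [pm, hM]; exact ht

end Crest.Agent.R320.CoreHalf_722
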