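import Mathlib

/-!
Row 320: finite core of the mask + right-frame lemma (post 12619 of helper823).
-/

set_option autoImplicit false
set_option linter.unusedSectionVars false

open Finset

namespace Crest.Agent.R320.Core286

section Counting

variable {X V : Type*} [Fintype X] [DecidableEq X] [Fintype V] [DecidableEq V]

/-- functions which are bad on each of `m` disjoint finsets -/
def BadF (D : ℕ → Finset X) (d : ℕ → X → V) (m : ℕ) : Finset (X → V) :=
  univ.filter (fun F : X → V => ∀ i < m, ∃ x ∈ D i, F x ≠ d i x)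

lemma card_step (C : ℕ) (m : ℕ) (D : ℕ → Finset X) (d : ℕ → X → V)
    (hC : (D m).card ≤ C) (hD : ∀ i < m, Disjoint (D i) (D m)) (hV : 0 < Fintype.card V) :
    (BadF D d m).card ≤ Fintype.card V ^ C *
      ((BadF D d m).filter (fun F => ∀ x ∈ D m, F x = d m x)).card := by
  classical
  let f : (X → V) → (X → V) := fun F x => if x ∈ D m then d m x else F x
  refine Finset.card_le_mul_card_image_of_maps_to (f := f) ?_ _ ?_
  · intro F hF
    simp only [BadF, mem_filter, mem_univ, true_and] at hF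
    simp only [BadF, mem_filter, mem_univ, true_and]
    constructor
    · intro i hi
      obtain ⟨x, hx, hne⟩ := hF i hi
      refine ⟨x, hx, ?_⟩
      have hxm : x ∉ D m := fun h => (Finset.disjoint_left.mp (hD i hi)) hx h
      simpa [f, hxm] using hne
    · intro x hx
      simp [f, hx]
  · intro G _
    have h1 : ((BadF D d m).filter (fun F => f F = G)).card ≤
        (univ : Finset ({x // x ∈ D m} → V)).card := by
      refine Finset.card_le_card_of_injOn (fun F => fun x => F x.1) (by intro _ _; simp) ?_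
      intro F hF F' hF' heq
      simp only [coe_filter, Set.mem_ofPred_eq] at hF hF'
      funext x
      by_cases hx : x ∈ D m
      · exact congrFun heq ⟨x, hx⟩
      · have h := congrFun (hF.2.trans hF'.2.symm) x
        simpa [f, hx] using h
    refine h1.trans ?_
    rw [Finset.card_univ, Fintype.card_fun, Fintype.card_coe]
    exact Nat.pow_le_pow_right hV hC

lemma card_bad (C : ℕ) (m : ℕ) (D : ℕ → Finset X) (d : ℕ → X → V)
    (hC : ∀ i < m, (D i).card ≤ C)
    (hD : ∀ i < m, ∀ j < m, i ≠ j → Disjoint (D i) (D j)) (hV : 0 < Fintype.card V) :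
    (BadF D d m).card * (Fintype.card V ^ C) ^ m
      ≤ Fintype.card V ^ Fintype.card X * (Fintype.card V ^ C - 1) ^ m := by
  classical
  induction m with
  | zero =>
    simp only [pow_zero, mul_one]
    calc (BadF D d 0).card ≤ (univ : Finset (X → V)).card := Finset.card_le_card (by intro _ _; simp)
      _ = _ := by rw [Finset.card_univ, Fintype.card_fun]
  | succ m ih =>
    have ih' := ih (fun i hi => hC i (by omega)) (fun i hi j hj h => hD i (by omega) j (by omega) h)
    have hs := card_step C m D d (hC m (by omega)) (fun i hi => hD i (by omega) m (by omega) (by omega)) hV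
    set q := Fintype.card V ^ C with hq
    have hq1 : 1 ≤ q := Nat.one_le_pow _ _ hV
    have hsplit : (BadF D d m).card = ((BadF D d m).filter (fun F => ∀ x ∈ D m, F x = d m x)).card
        + (BadF D d (m+1)).card := by
      rw [← Finset.card_filter_add_card_filter_not (s := BadF D d m) (fun F => ∀ x ∈ D m, F x = d m x)]
      congr 2
      ext F
      simp only [BadF, mem_filter, mem_univ, true_and]
      constructor
      · rintro ⟨h1, h2⟩ i hi
        rcases Nat.lt_succ_iff_lt_or_eq.mp hi with h | h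
        · exact h1 i h
        · subst h
          push Not at h2
          exact h2
      · intro h
        refine ⟨fun i hi => h i (by omega), ?_⟩
        push Not
        exact h m (by omega)
    have h3 : (BadF D d (m+1)).card * q ≤ (BadF D d m).card * (q - 1) := by
      obtain ⟨p, hp⟩ : ∃ p, q = p + 1 := ⟨q - 1, by omega⟩
      rw [hp] at hs ⊢
      simp only [Nat.add_sub_cancel]
      nlinarith
    calc (BadF D d (m+1)).card * q ^ (m+1) = ((BadF D d (m+1)).card * q) * q ^ m := by ring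
      _ ≤ ((BadF D d m).card * (q - 1)) * q ^ m := Nat.mul_le_mul_right _ h3
      _ = ((BadF D d m).card * q ^ m) * (q - 1) := by ring
      _ ≤ (Fintype.card V ^ Fintype.card X * (q - 1) ^ m) * (q - 1) := Nat.mul_le_mul_right _ ih'
      _ = _ := by ring

end Counting

section Generic

variable {Z : Type*} [Fintype Z] [DecidableEq Z] {P : ℕ} [Fact P.Prime]

lemma card_zeros (t : ZMod P) (a b a' b' z0 : Z)
    (h : t * ((Pi.single z0 (1 : ZMod P) : Z → ZMod P) b - (Pi.single z0 (1 : ZMod P) : Z → ZMod P) a)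
      - ((Pi.single z0 (1 : ZMod P) : Z → ZMod P) b' - (Pi.single z0 (1 : ZMod P) : Z → ZMod P) a') ≠ 0) :
    (univ.filter (fun e : Z → ZMod P => t * (e b - e a) = e b' - e a')).card * P
      ≤ P ^ Fintype.card Z := by
  classical
  set u : Z → ZMod P := Pi.single z0 (1 : ZMod P) with hu
  set A := univ.filter (fun e : Z → ZMod P => t * (e b - e a) = e b' - e a') with hA
  have h1 : (A ×ˢ (univ : Finset (ZMod P))).card ≤ (univ : Finset (Z → ZMod P)).card := by
    refine Finset.card_le_card_of_injOn (fun p => p.1 + p.2 • u) (by intro _ _; simp) ?_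
    rintro ⟨e, x⟩ he ⟨e', x'⟩ he' heq
    simp only [coe_product, Set.mem_prod, mem_coe, hA, mem_filter, mem_univ, true_and, and_true] at he he'
    simp only at heq
    have hb := congrFun heq b
    have ha := congrFun heq a
    have hb' := congrFun heq b'
    have ha' := congrFun heq a'
    simp only [Pi.add_apply, Pi.smul_apply, smul_eq_mul] at hb ha hb' ha'
    have h2 : (x - x') * (t * (u b - u a) - (u b' - u a')) = 0 := by
      linear_combination t * hb - t * ha - hb' + ha' - he + he'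
    have h3 : x = x' := by
      rcases mul_eq_zero.mp h2 with h4 | h4
      · exact sub_eq_zero.mp h4
      · exact absurd h4 h
    subst h3
    have h4 : e = e' := by
      funext z
      have := congrFun heq z
      simpa using this
    rw [h4]
  rw [Finset.card_product, Finset.card_univ, ZMod.card, Finset.card_univ, Fintype.card_fun, ZMod.card] at h1
  exact h1

lemma exists_coord (t : ZMod P) (ht0 : t ≠ 0) (h2 : (2 : ZMod P) ≠ 0) (a b a' b' : Z) (hab : a ≠ b) (hab' : a' ≠ b')
    (h : (t ≠ 1 ∧ t ≠ -1) ∨ (t = 1 ∧ (a ≠ a' ∨ b ≠ b'))) :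
    ∃ z0 : Z, t * ((Pi.single z0 (1 : ZMod P) : Z → ZMod P) b - (Pi.single z0 (1 : ZMod P) : Z → ZMod P) a)
      - ((Pi.single z0 (1 : ZMod P) : Z → ZMod P) b' - (Pi.single z0 (1 : ZMod P) : Z → ZMod P) a') ≠ 0 := by
  by_contra hcon
  push Not at hcon
  have hb := hcon b
  have ha := hcon a
  have h1ne : (1 : ZMod P) ≠ 0 := one_ne_zero
  have s1 : ∀ z y : Z, (Pi.single z (1 : ZMod P) : Z → ZMod P) y = if y = z then 1 else 0 := by
    intro z y
    rw [Pi.single_apply]
  rw [s1, s1, s1, s1, if_pos rfl, if_neg hab] at hb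
  rw [s1, s1, s1, s1, if_neg hab.symm, if_pos rfl] at ha
  rcases h with ⟨h1, h1'⟩ | ⟨h1, h3⟩
  · by_cases c1 : b' = b
    · by_cases c2 : a' = b
      · exact hab' (c2.trans c1.symm)
      · rw [if_pos c1, if_neg c2] at hb
        apply h1
        linear_combination hb
    · by_cases c2 : a' = b
      · rw [if_neg c1, if_pos c2] at hb
        apply h1'
        linear_combination hb
      · rw [if_neg c1, if_neg c2] at hb
        apply ht0
        linear_combination hb
  · subst h1
    by_cases c1 : b' = b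
    · by_cases c2 : a' = a
      · rcases h3 with h3 | h3
        · exact h3 c2.symm
        · exact h3 c1.symm
      · have c3 : b' ≠ a := fun hh => hab (hh.symm.trans c1)
        rw [if_neg c3, if_neg c2] at ha
        apply h1ne
        linear_combination -ha
    · by_cases c2 : a' = b
      · rw [if_neg c1, if_pos c2] at hb
        apply h2
        linear_combination hb
      · rw [if_neg c1, if_neg c2] at hb
        apply h1ne
        linear_combination hb

lemma exists_generic (t : ZMod P) (m : ℕ)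
    (ht : t ≠ 0) (h1 : ∀ d, 0 < d → d < m → t ^ d ≠ 1 ∧ t ^ d ≠ -1) (h2 : (2 : ZMod P) ≠ 0)
    (hm : m * Fintype.card Z ^ 4 < P) :
    ∃ e : Z → ZMod P, ∀ d < m, ∀ a b a' b' : Z, a ≠ b → a' ≠ b' → (d ≠ 0 ∨ a ≠ a' ∨ b ≠ b') →
      t ^ d * (e b - e a) ≠ e b' - e a' := by
  classical
  by_cases hZ : IsEmpty Z
  · exact ⟨fun _ => 0, fun d _ a => (hZ.false a).elim⟩
  rw [not_isEmpty_iff] at hZ
  by_contra hcon
  push Not at hcon
  let I : Finset (ℕ × (Z × Z) × (Z × Z)) := ((range m) ×ˢ (univ ×ˢ univ)).filter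
    (fun q => q.2.1.1 ≠ q.2.1.2 ∧ q.2.2.1 ≠ q.2.2.2 ∧ (q.1 ≠ 0 ∨ q.2.1.1 ≠ q.2.2.1 ∨ q.2.1.2 ≠ q.2.2.2))
  let A : ℕ × (Z × Z) × (Z × Z) → Finset (Z → ZMod P) := fun q =>
    univ.filter (fun e : Z → ZMod P => t ^ q.1 * (e q.2.1.2 - e q.2.1.1) = e q.2.2.2 - e q.2.2.1)
  have hcov : (univ : Finset (Z → ZMod P)) ⊆ I.biUnion A := by
    intro e _
    obtain ⟨d, hd, a, b, a', b', hab, hab', hne, heq⟩ := hcon e
    rw [mem_biUnion]
    refine ⟨(d, (a, b), (a', b')), ?_, ?_⟩
    · simp only [I, mem_filter, mem_product, mem_range, mem_univ, and_true]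
      exact ⟨hd, hab, hab', hne⟩
    · simp only [A, mem_filter, mem_univ, true_and]
      exact heq
  have hA : ∀ q ∈ I, (A q).card * P ≤ P ^ Fintype.card Z := by
    rintro ⟨d, ⟨a, b⟩, ⟨a', b'⟩⟩ hq
    simp only [I, mem_filter, mem_product, mem_range, mem_univ, and_true] at hq
    obtain ⟨hd, hab, hab', hne⟩ := hq
    obtain ⟨z0, hz0⟩ := exists_coord (t ^ d) (pow_ne_zero _ ht) h2 a b a' b' hab hab' (by
      by_cases hd0 : d = 0
      · right
        subst hd0
        exact ⟨pow_zero _, by simpa using hne⟩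
      · left
        exact h1 d (Nat.pos_of_ne_zero hd0) hd)
    exact card_zeros (t ^ d) a b a' b' z0 hz0
  have hI : I.card ≤ m * Fintype.card Z ^ 4 := by
    refine (Finset.card_filter_le _ _).trans ?_
    rw [Finset.card_product, Finset.card_product, Finset.card_range, Finset.card_univ, Fintype.card_prod]
    apply le_of_eq
    ring
  have hPpos : 0 < P := (Fact.out : P.Prime).pos
  have h3 : P ^ Fintype.card Z * P ≤ m * Fintype.card Z ^ 4 * P ^ Fintype.card Z := by
    calc P ^ Fintype.card Z * P = (univ : Finset (Z → ZMod P)).card * P := by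
          rw [Finset.card_univ, Fintype.card_fun, ZMod.card]
      _ ≤ (I.biUnion A).card * P := Nat.mul_le_mul_right _ (Finset.card_le_card hcov)
      _ ≤ (∑ q ∈ I, (A q).card) * P := Nat.mul_le_mul_right _ Finset.card_biUnion_le
      _ = ∑ q ∈ I, (A q).card * P := by rw [Finset.sum_mul]
      _ ≤ ∑ q ∈ I, P ^ Fintype.card Z := Finset.sum_le_sum hA
      _ = I.card * P ^ Fintype.card Z := by rw [Finset.sum_const, smul_eq_mul]
      _ ≤ _ := Nat.mul_le_mul_right _ hI
  have h4 : 0 < P ^ Fintype.card Z := pow_pos hPpos _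
  have h5 : P ≤ m * Fintype.card Z ^ 4 := by
    by_contra h6
    push Not at h6
    have := Nat.mul_lt_mul_of_pos_left h6 h4
    nlinarith
  omega

end Generic

section Root

lemma exists_root (P m : ℕ) [Fact P.Prime] (hm : 2 * m < P) :
    ∃ t : (ZMod P)ˣ, ∀ d, 0 < d → d < m → ((t : ZMod P)) ^ d ≠ 1 ∧ ((t : ZMod P)) ^ d ≠ -1 := by
  obtain ⟨g, hg⟩ := IsCyclic.exists_generator (α := (ZMod P)ˣ)
  have hord : orderOf g = P - 1 := by
    rw [orderOf_eq_card_of_forall_mem_zpowers hg, Nat.card_eq_fintype_card, ZMod.card_units]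
  refine ⟨g, fun d hd0 hd => ⟨fun h => ?_, fun h => ?_⟩⟩
  · have h1 : g ^ d = 1 := by
      apply Units.ext
      simpa using h
    have h2 := orderOf_dvd_of_pow_eq_one h1
    have := Nat.le_of_dvd hd0 h2
    omega
  · have h1 : g ^ (2 * d) = 1 := by
      apply Units.ext
      rw [Units.val_pow_eq_pow_val, Units.val_one, mul_comm, pow_mul, h]
      ring
    have h2 := orderOf_dvd_of_pow_eq_one h1
    have := Nat.le_of_dvd (by omega) h2
    omega

/-- parameters: `P` polynomial in `m`, the union bound wins -/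
lemma exists_params (q K A : ℕ) (hq : 1 ≤ q) :
    ∃ m P : ℕ, 1 ≤ m ∧ P.Prime ∧ m * A < P ∧ K * P * P * (q - 1) ^ m < q ^ m := by
  have hr : |((q - 1 : ℕ) : ℝ) / q| < 1 := by
    have hq0 : (0 : ℝ) < q := by exact_mod_cast hq
    rw [abs_of_nonneg (by positivity), div_lt_one hq0]
    exact_mod_cast (by omega : q - 1 < q)
  have ht := tendsto_pow_const_mul_const_pow_of_abs_lt_one 2 hr
  have hε : (0 : ℝ) < 1 / ((K : ℝ) * (2 * (A + 1)) ^ 2 + 1) := by positivity
  have h1 := (ht.eventually (gt_mem_nhds hε)).and (Filter.eventually_ge_atTop 1)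
  obtain ⟨m, hm, hm1⟩ := h1.exists
  obtain ⟨P, hP, hlt, hle⟩ := Nat.exists_prime_lt_and_le_two_mul (m * (A + 1)) (by
    have : 0 < m * (A + 1) := Nat.mul_pos (by omega) (by omega)
    omega)
  refine ⟨m, P, hm1, hP, by nlinarith, ?_⟩
  have hq0 : (0 : ℝ) < q := by exact_mod_cast hq
  have hqm : (0 : ℝ) < (q : ℝ) ^ m := by positivity
  rw [div_pow] at hm
  have hden : (0 : ℝ) < (K : ℝ) * (2 * (A + 1)) ^ 2 + 1 := by positivity
  have h2 : (m : ℝ) ^ 2 * ((q - 1 : ℕ) : ℝ) ^ m * ((K : ℝ) * (2 * (A + 1)) ^ 2 + 1) < (q : ℝ) ^ m := by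
    have h3 : (m : ℝ) ^ 2 * (((q - 1 : ℕ) : ℝ) ^ m / (q : ℝ) ^ m) * (q : ℝ) ^ m
        < 1 / ((K : ℝ) * (2 * (A + 1)) ^ 2 + 1) * (q : ℝ) ^ m := mul_lt_mul_of_pos_right hm hqm
    have h4 : (m : ℝ) ^ 2 * (((q - 1 : ℕ) : ℝ) ^ m / (q : ℝ) ^ m) * (q : ℝ) ^ m
        = (m : ℝ) ^ 2 * ((q - 1 : ℕ) : ℝ) ^ m := by
      field_simp
    rw [h4] at h3
    calc _ < 1 / ((K : ℝ) * (2 * (A + 1)) ^ 2 + 1) * (q : ℝ) ^ m * ((K : ℝ) * (2 * (A + 1)) ^ 2 + 1) :=
          mul_lt_mul_of_pos_right h3 hden
      _ = (q : ℝ) ^ m := by field_simp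
  have h5 : (K : ℝ) * P * P * ((q - 1 : ℕ) : ℝ) ^ m ≤
      (m : ℝ) ^ 2 * ((q - 1 : ℕ) : ℝ) ^ m * ((K : ℝ) * (2 * (A + 1)) ^ 2 + 1) := by
    have hPr : (P : ℝ) ≤ 2 * (m * (A + 1)) := by exact_mod_cast hle
    have hP0 : (0 : ℝ) ≤ P := by positivity
    have h6 : (P : ℝ) * P ≤ (2 * (m * (A + 1))) * (2 * (m * (A + 1))) :=
      mul_le_mul hPr hPr hP0 (by positivity)
    have h7 : (0 : ℝ) ≤ ((q - 1 : ℕ) : ℝ) ^ m := by positivity
    have hK : (0 : ℝ) ≤ K := by positivity
    calc (K : ℝ) * P * P * ((q - 1 : ℕ) : ℝ) ^ m = K * ((P : ℝ) * P) * ((q - 1 : ℕ) : ℝ) ^ m := by ring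
      _ ≤ K * ((2 * (m * (A + 1))) * (2 * (m * (A + 1)))) * ((q - 1 : ℕ) : ℝ) ^ m := by
          gcongr
      _ = (m : ℝ) ^ 2 * ((q - 1 : ℕ) : ℝ) ^ m * ((K : ℝ) * (2 * (A + 1)) ^ 2) := by ring
      _ ≤ _ := by
          gcongr
          linarith
  exact_mod_cast lt_of_le_of_lt h5 h2

end Root

section Core

variable {S V X Y : Type*} [Monoid S] [AddCommGroup V] [AddCommGroup X] [AddCommGroup Y]

/-- Phase with multiplier `c = tau^(i')` is good for the total type `(s,w)` and the token `v`. -/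
def Good {P : ℕ} (act : V → S → V) (cS : S → X) (cV : V → Y) (e : S → X × Y → ZMod P)
    (F : S → ZMod P → V) (c : ZMod P) (s : S) (w : ZMod P) (v : V) : Prop :=
  ∀ g z h : S, g * z * h = s → ∀ f0 : X × Y, ∀ g1 z1 : S, ∀ v1 : V,
    F (g1 * z1 * h) (w - c * e z f0 + c * e z1 (f0 - (cS g, cV v) + (cS g1, cV v1)))
      + act v1 (g1 * z1 * h) = F s w + act v s

variable [Fintype S] [Fintype V] [Fintype X] [Fintype Y] [DecidableEq S] [DecidableEq V]
  [DecidableEq X] [DecidableEq Y]

/-- demanded points of one phase -/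
def DS {P : ℕ} (e : S × (X × Y) → ZMod P) (c : ZMod P) (w : ZMod P) : Finset (S × ZMod P) :=
  univ ×ˢ ((univ.filter (fun p : (S × (X × Y)) × (S × (X × Y)) => p.1 ≠ p.2)).image
    (fun p => w + c * (e p.2 - e p.1)))

lemma card_DS {P : ℕ} (e : S × (X × Y) → ZMod P) (c w : ZMod P) :
    (DS e c w).card ≤ Fintype.card S * Fintype.card (S × (X × Y)) ^ 2 := by
  unfold DS
  rw [Finset.card_product, Finset.card_univ]
  refine Nat.mul_le_mul_left _ (Finset.card_image_le.trans ((Finset.card_filter_le _ _).trans ?_))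
  rw [Finset.card_univ, Fintype.card_prod]
  exact le_of_eq (by ring)

open Classical in
/-- the demanded value -/
noncomputable def dv {P : ℕ} (act : V → S → V) (cV : V → Y) (e : S × (X × Y) → ZMod P) (c : ZMod P)
    (s : S) (w : ZMod P) (v a : V) (x : S × ZMod P) : V :=
  a + act v s - act (if h : ∃ p : (S × (X × Y)) × (S × (X × Y)), p.1 ≠ p.2 ∧ x.2 = w + c * (e p.2 - e p.1)
    then Function.invFun cV (cV v + (h.choose.2.2.2 - h.choose.1.2.2)) else 0) x.1

lemma good_of {P : ℕ} [Fact P.Prime] (act : V → S → V) (cS : S → X) (cV : V → Y)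
    (hS : Function.Injective cS) (hV : Function.Injective cV)
    (e : S × (X × Y) → ZMod P) (c : ZMod P) (hc : c ≠ 0)
    (he : ∀ a b a' b', a ≠ b → a' ≠ b' → e b - e a = e b' - e a' → a = a' ∧ b = b')
    (F : S × ZMod P → V) (s : S) (w : ZMod P) (v : V)
    (h : ∀ x ∈ DS e c w, F x = dv act cV e c s w v (F (s, w)) x) :
    Good act cS cV (fun z f => e (z, f)) (fun s w => F (s, w)) c s w v := by
  classical
  intro g z hh hprod f0 g1 z1 v1
  set ζ : S × (X × Y) := (z, f0) with hζ
  set ζ1 : S × (X × Y) := (z1, f0 - (cS g, cV v) + (cS g1, cV v1)) with hζ1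
  by_cases heq : ζ = ζ1
  · have h1 : z = z1 := congrArg Prod.fst heq
    have h2 : f0 = f0 - (cS g, cV v) + (cS g1, cV v1) := congrArg Prod.snd heq
    have h3 : (cS g, cV v) = (cS g1, cV v1) := by
      have h4 : f0 - (cS g, cV v) + (cS g1, cV v1) = f0 + ((cS g1, cV v1) - (cS g, cV v)) := by abel
      rw [h4] at h2
      have h5 := left_eq_add.mp h2
      exact (sub_eq_zero.mp h5).symm
    have h6 : g = g1 := hS (congrArg Prod.fst h3)
    have h7 : v = v1 := hV (congrArg Prod.snd h3)
    have h8 : w - c * e (z, f0) + c * e (z1, f0 - (cS g, cV v) + (cS g1, cV v1)) = w := by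
      have : e (z1, f0 - (cS g, cV v) + (cS g1, cV v1)) = e (z, f0) := by
        rw [← hζ1, ← hζ, heq]
      rw [this]
      ring
    show F (g1 * z1 * hh, _) + _ = _
    rw [h8, ← h6, ← h1, ← h7, hprod]
  · have hx : ((g1 * z1 * hh, w - c * e ζ + c * e ζ1) : S × ZMod P) ∈ DS e c w := by
      unfold DS
      rw [mem_product]
      refine ⟨mem_univ _, mem_image.mpr ⟨(ζ, ζ1), ?_, ?_⟩⟩
      · simp only [mem_filter, mem_univ, true_and]
        exact heq
      · ring
    have h9 := h _ hx
    show F (g1 * z1 * hh, w - c * e ζ + c * e ζ1) + _ = _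
    rw [h9]
    unfold dv
    have hex : ∃ p : (S × (X × Y)) × (S × (X × Y)), p.1 ≠ p.2 ∧
        ((g1 * z1 * hh, w - c * e ζ + c * e ζ1) : S × ZMod P).2 = w + c * (e p.2 - e p.1) :=
      ⟨(ζ, ζ1), heq, by simp only; ring⟩
    rw [dif_pos hex]
    have hch := hex.choose_spec
    have h10 : c * (e hex.choose.2 - e hex.choose.1) = c * (e ζ1 - e ζ) := by
      have := hch.2
      simp only at this
      linear_combination -this
    have h11 := mul_left_cancel₀ hc h10
    obtain ⟨h12, h13⟩ := he _ _ _ _ hch.1 heq h11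
    rw [h12, h13]
    have h14 : cV v + (ζ1.2.2 - ζ.2.2) = cV v1 := by
      simp only [hζ, hζ1, Prod.snd_add, Prod.snd_sub]
      abel
    rw [h14, Function.leftInverse_invFun hV v1]
    abel

lemma disj_DS {P : ℕ} (e : S × (X × Y) → ZMod P) (t : ZMod P) (m : ℕ) (w : ZMod P) (r : ℕ)
    (ht : t ≠ 0) [Fact P.Prime]
    (he : ∀ d < m, ∀ a b a' b', a ≠ b → a' ≠ b' → (d ≠ 0 ∨ a ≠ a' ∨ b ≠ b') →
      t ^ d * (e b - e a) ≠ e b' - e a') :
    ∀ i < m, ∀ j < m, i ≠ j → Disjoint (DS (S := S) (X := X) (Y := Y) e (t ^ (r + i)) w) (DS e (t ^ (r + j)) w) := by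
  classical
  have key : ∀ i < m, ∀ j < m, i < j → Disjoint (DS (S := S) (X := X) (Y := Y) e (t ^ (r + i)) w) (DS e (t ^ (r + j)) w) := by
    intro i hi j hj hij
    rw [Finset.disjoint_left]
    rintro ⟨s1, w1⟩ h1 h2
    unfold DS at h1 h2
    rw [mem_product, mem_image] at h1 h2
    obtain ⟨-, p, hp, hpe⟩ := h1
    obtain ⟨-, p', hp', hpe'⟩ := h2
    simp only [mem_filter, mem_univ, true_and] at hp hp'
    obtain ⟨d, rfl⟩ : ∃ d, j = i + d := ⟨j - i, by omega⟩
    have h3 : t ^ (r + i) * (e p.2 - e p.1) = t ^ (r + i) * (t ^ d * (e p'.2 - e p'.1)) := by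
      have : t ^ (r + (i + d)) = t ^ (r + i) * t ^ d := by rw [← pow_add, add_assoc]
      rw [this] at hpe'
      simp only at hpe hpe'
      linear_combination hpe - hpe'
    have h4 := mul_left_cancel₀ (pow_ne_zero _ ht) h3
    exact he d (by omega) p'.1 p'.2 p.1 p.2 hp' hp (Or.inl (by omega)) h4.symm
  intro i hi j hj hij
  rcases Nat.lt_or_gt_of_ne hij with h | h
  · exact key i hi j hj h
  · exact (key j hj i hi h).symm

/-- FINITE CORE of 823's gadget. -/
theorem exists_core (act : V → S → V) (cS : S → X) (cV : V → Y)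
    (hS : Function.Injective cS) (hV : Function.Injective cV) (N0 : ℕ) :
    ∃ (P : ℕ) (_ : P.Prime) (t : (ZMod P)ˣ) (m : ℕ) (e : S → X × Y → ZMod P) (F : S → ZMod P → V),
      N0 < P ∧ 1 ≤ m ∧ ∀ (s : S) (w : ZMod P) (v : V) (r : ℕ),
        ∃ i, r ≤ i ∧ i < r + m ∧ Good act cS cV e F ((t : ZMod P) ^ i) s w v := by
  classical
  set Z := S × (X × Y)
  set C := Fintype.card S * Fintype.card Z ^ 2 with hCdef
  have hV0 : 0 < Fintype.card V := Fintype.card_pos
  set q := Fintype.card V ^ C with hqdef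
  have hq1 : 1 ≤ q := Nat.one_le_pow _ _ hV0
  obtain ⟨m, P, hm1, hPp, hmP, hbound⟩ := exists_params q
    (Fintype.card S * Fintype.card V * Fintype.card V) (Fintype.card Z ^ 4 + 2 + N0) hq1
  have : Fact P.Prime := ⟨hPp⟩
  have hA : m * Fintype.card Z ^ 4 < P := by nlinarith
  have h2m : 2 * m < P := by
    have : m * 2 ≤ m * (Fintype.card Z ^ 4 + 2 + N0) := Nat.mul_le_mul_left _ (by omega)
    omega
  have hN0 : N0 < P := by
    have : 1 * N0 ≤ m * (Fintype.card Z ^ 4 + 2 + N0) := Nat.mul_le_mul hm1 (by omega)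
    omega
  obtain ⟨t, ht⟩ := exists_root P m h2m
  have ht0 : (t : ZMod P) ≠ 0 := t.ne_zero
  have h2ne : (2 : ZMod P) ≠ 0 := by
    intro h
    have h3 : ((2 : ℕ) : ZMod P) = 0 := by exact_mod_cast h
    rw [ZMod.natCast_eq_zero_iff] at h3
    have := Nat.le_of_dvd (by norm_num) h3
    omega
  obtain ⟨e, he⟩ := exists_generic (Z := Z) (t : ZMod P) m ht0 ht h2ne hA
  have he0 : ∀ a b a' b' : Z, a ≠ b → a' ≠ b' → e b - e a = e b' - e a' → a = a' ∧ b = b' := by
    intro a b a' b' hab hab' heq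
    by_contra hcon
    have h5 : a ≠ a' ∨ b ≠ b' := by
      by_contra h6
      push Not at h6
      exact hcon h6
    refine he 0 (by omega) a b a' b' hab hab' (Or.inr h5) ?_
    rw [pow_zero, one_mul]
    exact heq
  -- the bad events
  let T : Finset (((S × ZMod P) × V) × (ℕ × V)) := (univ ×ˢ univ) ×ˢ ((range (P - 1)) ×ˢ univ)
  let B : ((S × ZMod P) × V) × (ℕ × V) → Finset (S × ZMod P → V) := fun k =>
    BadF (fun i => DS (S := S) (X := X) (Y := Y) e ((t : ZMod P) ^ (k.2.1 + i)) k.1.1.2)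
      (fun i => dv act cV e ((t : ZMod P) ^ (k.2.1 + i)) k.1.1.1 k.1.1.2 k.1.2 k.2.2) m
  have hB : ∀ k ∈ T, (B k).card * q ^ m ≤ Fintype.card V ^ Fintype.card (S × ZMod P) * (q - 1) ^ m := by
    intro k _
    refine card_bad C m _ _ (fun i _ => card_DS _ _ _) ?_ hV0
    exact disj_DS e (t : ZMod P) m _ _ ht0 he
  have hT : T.card ≤ (Fintype.card S * Fintype.card V * Fintype.card V) * P * P := by
    simp only [T]
    rw [Finset.card_product, Finset.card_product, Finset.card_product, Finset.card_univ,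
      Finset.card_univ, Finset.card_range, Fintype.card_prod, ZMod.card]
    calc Fintype.card S * P * Fintype.card V * ((P - 1) * Fintype.card V)
        ≤ Fintype.card S * P * Fintype.card V * (P * Fintype.card V) := by
          gcongr
          omega
      _ = _ := by ring
  have hqm : 0 < q ^ m := pow_pos hq1 _
  have htot : (T.biUnion B).card < (univ : Finset (S × ZMod P → V)).card := by
    rw [Finset.card_univ, Fintype.card_fun]
    have hVX : 0 < Fintype.card V ^ Fintype.card (S × ZMod P) := pow_pos hV0 _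
    have h7 : (T.biUnion B).card * q ^ m < Fintype.card V ^ Fintype.card (S × ZMod P) * q ^ m := by
      calc (T.biUnion B).card * q ^ m ≤ (∑ k ∈ T, (B k).card) * q ^ m :=
            Nat.mul_le_mul_right _ Finset.card_biUnion_le
        _ = ∑ k ∈ T, (B k).card * q ^ m := by rw [Finset.sum_mul]
        _ ≤ ∑ k ∈ T, Fintype.card V ^ Fintype.card (S × ZMod P) * (q - 1) ^ m := Finset.sum_le_sum hB
        _ = T.card * (Fintype.card V ^ Fintype.card (S × ZMod P) * (q - 1) ^ m) := by
            rw [Finset.sum_const, smul_eq_mul]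
        _ ≤ ((Fintype.card S * Fintype.card V * Fintype.card V) * P * P) *
            (Fintype.card V ^ Fintype.card (S × ZMod P) * (q - 1) ^ m) := Nat.mul_le_mul_right _ hT
        _ = Fintype.card V ^ Fintype.card (S × ZMod P) *
            ((Fintype.card S * Fintype.card V * Fintype.card V) * P * P * (q - 1) ^ m) := by ring
        _ < Fintype.card V ^ Fintype.card (S × ZMod P) * q ^ m := Nat.mul_lt_mul_of_pos_left hbound hVX
    exact lt_of_mul_lt_mul_right h7 (Nat.zero_le _)
  obtain ⟨F, -, hF⟩ := Finset.exists_mem_notMem_of_card_lt_card htot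
  refine ⟨P, hPp, t, m, fun z f => e (z, f), fun s w => F (s, w), hN0, hm1, ?_⟩
  intro s w v r
  have hP1 : 0 < P - 1 := by have := hPp.two_le; omega
  have hF' : F ∉ B (((s, w), v), (r % (P - 1), F (s, w))) := by
    intro hmem
    exact hF (mem_biUnion.mpr ⟨_, by
      simp only [T, mem_product, mem_univ, mem_range, true_and, and_true]
      exact Nat.mod_lt _ hP1, hmem⟩)
  simp only [B, BadF, mem_filter, mem_univ, true_and] at hF'
  push Not at hF'
  obtain ⟨i, hi, hi2⟩ := hF'
  refine ⟨r + i, by omega, by omega, ?_⟩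
  have hpow : (t : ZMod P) ^ (r + i) = (t : ZMod P) ^ (r % (P - 1) + i) := by
    have h8 : (t : ZMod P) ^ (P - 1) = 1 := by
      have := ZMod.units_pow_card_sub_one_eq_one P t
      have h9 := congrArg Units.val this
      simpa using h9
    rw [pow_add, pow_add]
    congr 1
    conv_lhs => rw [← Nat.div_add_mod r (P - 1), pow_add, pow_mul, h8, one_pow, one_mul]
  rw [hpow]
  exact good_of act cS cV hS hV e _ (pow_ne_zero _ ht0) he0 F s w v hi2

end Core

end Crest.Agent.R320.Core286
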