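import Crest.Agent.R320.Block_467

/-!
# Row 320: `Core → half 1` (helper467, form of helper517 #13011)

`Core` is a purely finite statement (a finite prefix code of blocks, two token schemes given by
partial functions on words); `core_half1` gives `HL 2 {w | Tx w ∧ phi w = s}`.
-/

set_option autoImplicit false

namespace Crest.Agent.R320.Core467

open Crest.RegLang Crest.Agent.R320.Hk_851 Crest.Agent.R320.Blk467

universe u

variable {α : Type u} {k : ℕ}

theorem PCode.first {C : Set (List α)} (hC : PCode C) {Y r : List α} (hY : Y ∈ C) :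
    ∀ l : List (List α), (∀ X ∈ l, X ∈ C) → Y ++ r = l.flatten →
      ∃ l', l = Y :: l' ∧ r = l'.flatten := by
  intro l hl e
  cases l with
  | nil =>
    exfalso
    rw [List.flatten_nil] at e
    have : Y = [] := (List.append_eq_nil_iff.1 e).1
    exact hC.1 (this ▸ hY)
  | cons X l =>
    have hX := hl X (by simp)
    rw [List.flatten_cons] at e
    have hXY : X = Y := by
      rcases List.prefix_or_prefix_of_prefix (l₁ := X) (l₂ := Y) (l₃ := X ++ l.flatten)
        (List.prefix_append _ _) (e ▸ List.prefix_append _ _) with h1 | h1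
      · exact hC.2 X hX Y hY h1
      · exact (hC.2 Y hY X hX h1).symm
    subst hXY
    exact ⟨l, rfl, List.append_cancel_left e⟩

/-- the promise scheme: sound only in blocks of `Bad`, the star costs one level -/
theorem promise_step {V : Type*} [Finite V] (C Bad : Set (List α)) (hC : PCode C)
    (hBC : Bad ⊆ C) (T : V → List α → V) (LP RQ : V → Language α)
    (sound : ∀ v v' P Q, P ∈ LP v → Q ∈ RQ v' → P ++ Q ∈ C ∧ (P ++ Q ∈ Bad → T v (P ++ Q) = v'))
    (compl : ∀ X ∈ Bad, ∀ v, ∃ P Q, P ++ Q = X ∧ P ∈ LP v ∧ Q ∈ RQ (T v X))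
    (hB : HL k (Bad : Language α)) (hP : ∀ v, HL k (LP v)) (hQ : ∀ v, HL k (RQ v))
    (v v' : V) : HL (k + 1) (Lg Bad T v v') := by
  classical
  let K : Language α := {x | ∃ a : V, x ∈ (RQ a * LP a : Language α)}
  have hK : HL (k + 1) (KStar.kstar K) :=
    HL.star (HL.iUnion (k := k) (ι := V) (L := fun a => RQ a * LP a)
      (fun a => (hQ a).mul (hP a)))
  have hBs : HL (k + 1) (KStar.kstar (Bad : Language α)) := hB.star
  have hE : HL (k + 1) (LP v * KStar.kstar K * RQ v') :=
    ((HL.mono (Nat.le_succ k) (hP v)).mul hK).mul (HL.mono (Nat.le_succ k) (hQ v'))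
  have hD : HL (k + 1) (if v = v' then (1 : Language α) else 0) := by
    split_ifs
    · exact HL.one
    · exact HL.zero
  refine (hBs.inf (hD.add hE)).congr fun w => ?_
  constructor
  · rintro ⟨l, hl, rfl, hf⟩
    refine ⟨Language.mem_kstar.2 ⟨l, rfl, hl⟩, ?_⟩
    have main : ∀ (l : List (List α)) (v : V), (∀ X ∈ l, X ∈ Bad) → l.foldl T v = v' →
        (l = [] ∧ v = v') ∨ ∃ P ∈ LP v, ∃ ks : List (List α), (∀ x ∈ ks, x ∈ K) ∧
          ∃ Q ∈ RQ v', P ++ ks.flatten ++ Q = l.flatten := by
      intro l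
      induction l with
      | nil => intro v _ h; exact Or.inl ⟨rfl, h⟩
      | cons X l ih =>
        intro v hl hf
        right
        obtain ⟨P, Q, e, hP', hQ'⟩ := compl X (hl X (by simp)) v
        have hf' : l.foldl T (T v X) = v' := hf
        rcases ih (T v X) (fun Y hY => hl Y (by simp [hY])) hf' with ⟨h1, h2⟩ |
            ⟨P1, hP1, ks, hks, Q1, hQ1, e1⟩
        · subst h1
          refine ⟨P, hP', [], by simp, Q, h2 ▸ hQ', ?_⟩
          simp [e]
        · refine ⟨P, hP', (Q ++ P1) :: ks, ?_, Q1, hQ1, ?_⟩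
          · intro x hx
            rcases List.mem_cons.1 hx with rfl | hx
            · exact ⟨T v X, Language.mem_mul.2 ⟨Q, hQ', P1, hP1, rfl⟩⟩
            · exact hks x hx
          · have e2 : (X :: l).flatten = (P ++ Q) ++ (P1 ++ ks.flatten ++ Q1) := by
              rw [List.flatten_cons, e1, e]
            rw [e2]
            simp [List.append_assoc]
    rcases main l v hl hf with ⟨h1, h2⟩ | ⟨P, hP', ks, hks, Q, hQ', e⟩
    · left
      subst h1
      rw [if_pos h2]
      exact rfl
    · right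
      exact mem_mul3.2 ⟨P, hP', ks.flatten, Language.mem_kstar.2 ⟨ks, rfl, hks⟩, Q, hQ', e⟩
  · rintro ⟨hw, h⟩
    obtain ⟨l, rfl, hl⟩ := Language.mem_kstar.1 hw
    refine ⟨l, hl, rfl, ?_⟩
    rcases h with h | h
    · split_ifs at h with hvv
      · have h' : l.flatten = [] := h
        cases l with
        | nil => exact hvv
        | cons X l =>
          exfalso
          rw [List.flatten_cons] at h'
          exact hC.1 ((List.append_eq_nil_iff.1 h').1 ▸ hBC (hl X (by simp)))
      · exact absurd h (Language.notMem_zero _)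
    · obtain ⟨P, hP', y, hy, Q, hQ', e⟩ := mem_mul3.1 h
      obtain ⟨ks, rfl, hks⟩ := Language.mem_kstar.1 hy
      have main : ∀ (ks : List (List α)) (v : V) (P : List α) (l : List (List α)),
          (∀ x ∈ ks, x ∈ K) → (∀ X ∈ l, X ∈ Bad) → P ∈ LP v →
          P ++ ks.flatten ++ Q = l.flatten → l.foldl T v = v' := by
        intro ks
        induction ks with
        | nil =>
          intro v P l _ hl hP' e
          obtain ⟨h1, h2⟩ := sound v v' P Q hP' hQ'
          have e' : (P ++ Q) ++ [] = l.flatten := by simpa using e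
          obtain ⟨l', rfl, hr⟩ := PCode.first hC h1 l (fun X hX => hBC (hl X hX)) e'
          have hl' : l' = [] := by
            cases l' with
            | nil => rfl
            | cons Z l' =>
              exfalso
              rw [List.flatten_cons] at hr
              exact hC.1 ((List.append_eq_nil_iff.1 hr.symm).1 ▸ hBC (hl Z (by simp)))
          subst hl'
          exact h2 (hl _ (by simp))
        | cons y ks ih =>
          intro v P l hks hl hP' e
          obtain ⟨a, ha⟩ := hks y (by simp)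
          obtain ⟨Q1, hQ1, P1, hP1, rfl⟩ := Language.mem_mul.1 ha
          obtain ⟨h1, h2⟩ := sound v a P Q1 hP' hQ1
          have e' : (P ++ Q1) ++ (P1 ++ ks.flatten ++ Q) = l.flatten := by
            rw [← e]; simp [List.append_assoc]
          obtain ⟨l', rfl, hr⟩ := PCode.first hC h1 l (fun X hX => hBC (hl X hX)) e'
          rw [List.foldl_cons, h2 (hl _ (by simp))]
          exact ih a P1 l' (fun x hx => hks x (by simp [hx])) (fun X hX => hl X (by simp [hX]))
            hP1 hr
      exact main ks v P l hks hl hP' e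

/-- push forward of a function along `f` -/
noncomputable def push {V : Type*} [Finite V] (f : V → V) (x : V → ZMod 2) : V → ZMod 2 := by
  classical
  exact fun t => ∑ᶠ y : V, if f y = t then x y else 0

theorem push_add {V : Type*} [Finite V] (f : V → V) (x y : V → ZMod 2) :
    push f (x + y) = push f x + push f y := by
  classical
  haveI := Fintype.ofFinite V
  funext t
  simp only [push, finsum_eq_sum_of_fintype, Pi.add_apply]
  rw [← Finset.sum_add_distrib]
  refine Finset.sum_congr rfl fun z _ => ?_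
  split_ifs <;> simp

/-- the token `v` -/
noncomputable def dl {V : Type*} (v : V) : V → ZMod 2 := by
  classical
  exact fun t => if t = v then 1 else 0

theorem dl_inj {V : Type*} {v w : V} (h : dl v = dl w) : v = w := by
  classical
  have h1 := congrFun h v
  simp only [dl, if_true] at h1
  by_contra hne
  rw [if_neg hne] at h1
  exact one_ne_zero h1

theorem push_dl {V : Type*} [Finite V] (f : V → V) (v : V) : push f (dl v) = dl (f v) := by
  classical
  haveI := Fintype.ofFinite V
  funext t
  simp only [push, dl, finsum_eq_sum_of_fintype]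
  rw [Finset.sum_eq_single v]
  · by_cases h : f v = t
    · simp [h]
    · have h' : ¬ t = f v := fun e => h e.symm
      simp [h, h']
  · intro y _ hy
    simp [hy]
  · simp

/-- thread languages of arbitrary block maps from pushed tokens -/
theorem thread_push {V : Type*} [Finite V] (C : Set (List α)) (hC : UParse C)
    (θ : List α → V → V) (nu2 : List α → V → ZMod 2)
    (h : ∀ x x', HL k (Lg C (fun x X => push (θ X) x + nu2 X) x x')) (v v' : V) :
    HL k (Lg C (fun v X => θ X v) v v') := by
  set T2 : (V → ZMod 2) → List α → (V → ZMod 2) := fun x X => push (θ X) x + nu2 X with hT2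
  have hfold : ∀ (l : List (List α)) (v : V) (b : V → ZMod 2),
      l.foldl T2 (dl v + b) = dl (l.foldl (fun v X => θ X v) v) + l.foldl T2 b := by
    intro l
    induction l with
    | nil => intro v b; rfl
    | cons X l ih =>
      intro v b
      rw [List.foldl_cons, List.foldl_cons, List.foldl_cons, ← ih]
      congr 1
      rw [hT2]
      simp only
      rw [push_add, push_dl, add_assoc]
  refine (HL.iUnion (k := k) (ι := V → ZMod 2)
    (L := fun c => (Lg C T2 0 c ⊓ Lg C T2 (dl v) (dl v' + c) : Language α))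
    (fun c => (h 0 c).inf (h (dl v) (dl v' + c)))).congr fun w => ?_
  constructor
  · rintro ⟨l, hl, rfl, hf⟩
    refine ⟨l.foldl T2 0, ⟨l, hl, rfl, rfl⟩, ⟨l, hl, rfl, ?_⟩⟩
    have := hfold l v 0
    rw [add_zero] at this
    rw [this, hf]
  · rintro ⟨c, ⟨l, hl, e, f⟩, ⟨m, hm, e', f'⟩⟩
    have hlm : l = m := hC l m hl hm (e.trans e'.symm)
    subst hlm
    refine ⟨l, hl, e, ?_⟩
    have := hfold l v 0
    rw [add_zero, f, f'] at this
    exact (dl_inj (add_right_cancel this)).symm

/-- blocks which are not cut for some token -/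
def BadOf {V : Type*} (XX : Set (List α)) (L1 R1 : List α → Option V) : Set (List α) :=
  {X | X ∈ XX ∧ ∃ v, ∀ P Q, X = P ++ Q → L1 P = some v → R1 Q = none}

/-- **Core** (517 #13011): purely finite -/
def Core (V : Type u) [AddCommGroup V] [Finite V] (θ : List α → V → V) (Tx : List α → Prop) :
    Prop :=
  ∃ (XX : Set (List α)) (B : ℕ) (L1 R1 : List α → Option V) (nu1 : List α → V)
    (L2 R2 : List α → Option (V → ZMod 2)) (nu2 : List α → V → ZMod 2),
    PCode XX ∧ (∀ X ∈ XX, X.length ≤ B) ∧
    (∀ w, Tx w → B < w.length → ∃ X ∈ XX, X <+: w) ∧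
    (∀ P Q v v', L1 P = some v → R1 Q = some v' →
      P ++ Q ∈ XX ∧ v' = θ (P ++ Q) v + nu1 (P ++ Q)) ∧
    (∀ P Q x x', L2 P = some x → R2 Q = some x' →
      P ++ Q ∈ XX ∧ (P ++ Q ∈ BadOf XX L1 R1 →
        x' = push (fun v => θ (P ++ Q) v + nu1 (P ++ Q)) x + nu2 (P ++ Q))) ∧
    (∀ X ∈ BadOf XX L1 R1, ∀ x, ∃ P Q, X = P ++ Q ∧ L2 P = some x ∧ (R2 Q).isSome)

theorem HL_bounded [Finite α] (B : ℕ) (p : List α → Prop) :
    HL k ({w | w.length ≤ B ∧ p w} : Language α) :=
  HL.finite ((List.finite_length_le α B).subset fun _ h => h.1)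

theorem core_threads [Finite α] {V : Type u} [AddCommGroup V] [Finite V] {θ : List α → V → V}
    {Tx : List α → Prop} (h : Core V θ Tx) :
    ∃ (XX : Set (List α)) (B : ℕ) (nu : List α → V), PCode XX ∧
      (∀ w, Tx w → B < w.length → ∃ X ∈ XX, X <+: w) ∧
      ∀ v v', HL 2 (Lg XX (fun v X => θ X v + nu X) v v') := by
  obtain ⟨XX, B, L1, R1, nu1, L2, R2, nu2, hC, hlen, htx, s1, s2, c2⟩ := h
  refine ⟨XX, B, nu1, hC, htx, ?_⟩
  have hBC : BadOf XX L1 R1 ⊆ XX := fun X hX => hX.1
  have hB0 : HL 0 (BadOf XX L1 R1 : Language α) :=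
    (HL_bounded (k := 0) B (fun w => w ∈ BadOf XX L1 R1)).congr fun w =>
      ⟨fun hw => ⟨hlen w hw.1, hw⟩, fun hw => hw.2⟩
  have hth2 : ∀ x x', HL 1 (Lg (BadOf XX L1 R1)
      (fun x X => push ((fun (X : List α) (v : V) => θ X v + nu1 X) X) x + nu2 X) x x') := by
    refine promise_step (k := 0) XX (BadOf XX L1 R1) hC hBC _
      (fun x => {P | P.length ≤ B ∧ L2 P = some x}) (fun x => {Q | Q.length ≤ B ∧ R2 Q = some x})
      ?_ ?_ hB0 (fun x => HL_bounded B _) (fun x => HL_bounded B _)
    · intro x x' P Q hP hQ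
      obtain ⟨h1, h2⟩ := s2 P Q x x' hP.2 hQ.2
      exact ⟨h1, fun hb => (h2 hb).symm⟩
    · intro X hX x
      obtain ⟨P, Q, rfl, hP, hQ⟩ := c2 X hX x
      obtain ⟨x', hx'⟩ := Option.isSome_iff_exists.1 hQ
      have hl := hlen _ hX.1
      rw [List.length_append] at hl
      have h2 := (s2 P Q x x' hP hx').2 hX
      refine ⟨P, Q, rfl, ⟨by omega, hP⟩, ⟨by omega, ?_⟩⟩
      rw [hx', h2]
  have hth1 := thread_push (k := 1) (BadOf XX L1 R1) (hC.mono hBC).uparse
    (fun X v => θ X v + nu1 X) nu2 hth2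
  refine fun v v' => star_step (k := 1) XX (BadOf XX L1 R1) _
    (fun x => {P | P.length ≤ B ∧ L1 P = some x}) (fun x => {Q | Q.length ≤ B ∧ R1 Q = some x})
    hBC ?_ ?_ hth1 (fun x => HL_bounded B _) (fun x => HL_bounded B _) v v'
  · intro x x' P Q hP hQ
    obtain ⟨h1, h2⟩ := s1 P Q x x' hP.2 hQ.2
    exact ⟨[P ++ Q], by simpa using h1, by simp, h2.symm⟩
  · intro X hX hXb x
    have : ∃ P Q, X = P ++ Q ∧ L1 P = some x ∧ R1 Q ≠ none := by
      by_contra hcon
      refine hXb ⟨hX, x, fun P Q e hP => ?_⟩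
      by_contra hQ
      exact hcon ⟨P, Q, e, hP, hQ⟩
    obtain ⟨P, Q, rfl, hP, hQ⟩ := this
    obtain ⟨x', hx'⟩ := Option.ne_none_iff_exists'.1 hQ
    have hl := hlen _ hX
    rw [List.length_append] at hl
    have h2 := (s1 P Q x x' hP hx').2
    refine ⟨P, Q, rfl, ⟨by omega, hP⟩, ⟨by omega, ?_⟩⟩
    rw [hx', h2]

/-- **half 1 from Core** -/
theorem core_half1 [Finite α] {S : Type u} [Monoid S] [Finite S] (φ : α → S)
    {Tx : List α → Prop} (hTx : HL 2 ({w | Tx w} : Language α))
    (hsuf : ∀ w E, Tx w → E <:+ w → Tx E)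
    (hcore : ∀ (act : (S → ZMod 2) → S → (S → ZMod 2)),
      (∀ a b s, act (a + b) s = act a s + act b s) → (∀ v, act v 1 = v) →
      (∀ v s t, act v (s * t) = act (act v s) t) →
      Core (S → ZMod 2) (fun X v => act v (X.map φ).prod) Tx) (s : S) :
    HL 2 ({w | Tx w ∧ (w.map φ).prod = s} : Language α) := by
  obtain ⟨act, hadd, hone, hmul, hfaith⟩ := exists_module S
  obtain ⟨XX, B, nu, hC, htx, hth⟩ := core_threads (hcore act hadd hone hmul)
  have hfib := fun s => fibre_of_threads (k := 2) act hadd hone hmul hfaith φ nu XX hC.uparse hth s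
  let A : S → Language α := fun a => {w | w ∈ Str XX ∧ (w.map φ).prod = a}
  let E : S → Language α := fun b => {w | w.length ≤ B ∧ (w.map φ).prod = b}
  have hprod := HL.biUnion (k := 2) (Set.toFinite {p : S × S | p.1 * p.2 = s})
    (L := fun p => A p.1 * E p.2)
    (fun p _ => HL.mul (L := A p.1) (M := E p.2) (hfib p.1) (HL_bounded B _))
  refine (hTx.inf hprod).congr fun w => ?_
  constructor
  · rintro ⟨hw, hs⟩
    refine ⟨hw, ?_⟩
    obtain ⟨M, R, rfl, hM, hR⟩ := exists_parse hC.1 w
    have hRT : Tx R := hsuf _ R hw (List.suffix_append _ _)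
    have hRB : R.length ≤ B := by
      by_contra hlt
      obtain ⟨X, hX, hp⟩ := htx R hRT (by omega)
      exact hR X hX hp
    refine ⟨((M.map φ).prod, (R.map φ).prod), ?_, ?_⟩
    · rw [List.map_append, List.prod_append] at hs
      exact hs
    · exact Language.mem_mul.2 ⟨M, ⟨hM, rfl⟩, R, ⟨hRB, rfl⟩, rfl⟩
  · rintro ⟨hw, p, hp, hm⟩
    refine ⟨hw, ?_⟩
    obtain ⟨M, ⟨_, hM⟩, R, ⟨_, hR⟩, rfl⟩ := Language.mem_mul.1 hm
    rw [List.map_append, List.prod_append, hM, hR]
    exact hp

end Crest.Agent.R320.Core467
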