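import Crest.Agent.R320.Star_903

/-!
Row 320, HALF 1 from the combinatorial core (helper50).

One token system, one run, two schemes (118), lazy re-anchoring (570), `Star_903.nested` twice.
-/

set_option autoImplicit false
set_option linter.unusedSectionVars false

namespace Crest.Agent.R320.Core_50

open Crest.RegLang Crest.Agent.R320.Hgt1_903 Crest.Agent.R320.Star_903

universe u

variable {α : Type u} {S : Type*} [Monoid S] {V : Type*} [AddCommGroup V]

/-- the product of a word -/
def ph (f : α → S) (w : List α) : S := (w.map f).prod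

theorem ph_append (f : α → S) (u w : List α) : ph f (u ++ w) = ph f u * ph f w := by
  simp [ph]

/-- the zone map of the text `x` (of length `B`) which follows an anchor -/
def zm (act : V → S → V) (f : α → S) (N : List α → ℕ) (nu : List α → V) (v : V) (x : List α) : V :=
  act v (ph f (x.take (N x))) + nu x

/-- the combinatorial core: two families of cuts for the same run -/
def Core (act : V → S → V) (f : α → S) (G : List α → Prop) : Prop :=
  ∃ (B p q D1 D2 : ℕ) (N : List α → ℕ) (nu : List α → V) (P : List α → Prop)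
    (L1 L2 : List α → V → Prop) (R1 R2 : List α → Option (ℕ × V)),
    (0 < B ∧ p < B ∧ q ≤ p ∧ B ≤ D1 ∧ B + D1 ≤ D2) ∧
    (∀ x : List α, x.length = B → 0 < N x ∧ N x ≤ B ∧ B ≤ N x + q) ∧
    (∀ u v, L2 u v → q ≤ u.length ∧ u.length ≤ p) ∧
    (∀ u v, L1 u v → p ≤ u.length ∧ u.length < B) ∧
    (∀ u v Q d r, G (u ++ Q) → Q.length = D1 → L1 u v → R1 Q = some (d, r) →
      N ((u ++ Q).take B) = u.length + d ∧ zm act f N nu v ((u ++ Q).take B) = r) ∧
    (∀ y : List α, G y → B + D1 ≤ y.length → ¬ P y → ∀ v, ∃ i ≤ B, L1 (y.take i) v ∧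
      (R1 ((y.drop i).take D1)).isSome) ∧
    (∀ u v Q d r, G (u ++ Q) → Q.length = D2 → P (u ++ Q) → L2 u v → R2 Q = some (d, r) →
      N ((u ++ Q).take B) = u.length + d ∧ zm act f N nu v ((u ++ Q).take B) = r) ∧
    (∀ y : List α, G y → B + D2 ≤ y.length → P y → ∀ v, ∃ i ≤ B, L2 (y.take i) v ∧
      (R2 ((y.drop i).take D2)).isSome)

/-- states -/
abbrev St (α : Type u) (V : Type*) (B : ℕ) := {u : List α // u.length < B} × V

section
variable (B : ℕ) (N : List α → ℕ) (A : V → List α → V)

/-- the letter step -/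
def stp (θ : St α V B) (c : α) : St α V B :=
  if h : θ.1.1.length + 1 < B then (⟨θ.1.1 ++ [c], by simpa using h⟩, θ.2)
  else (⟨(θ.1.1 ++ [c]).drop (max 1 (N (θ.1.1 ++ [c]))), by
    have := θ.1.2
    simp only [List.length_drop, List.length_append, List.length_singleton]
    have : 1 ≤ max 1 (N (θ.1.1 ++ [c])) := le_max_left _ _
    omega⟩, A θ.2 (θ.1.1 ++ [c]))

theorem stp_lt (θ : St α V B) (c : α) (h : θ.1.1.length + 1 < B) :
    (stp B N A θ c).1.1 = θ.1.1 ++ [c] ∧ (stp B N A θ c).2 = θ.2 := by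
  unfold stp; rw [dif_pos h]; exact ⟨rfl, rfl⟩

theorem stp_ge (θ : St α V B) (c : α) (h : ¬ θ.1.1.length + 1 < B) :
    (stp B N A θ c).1.1 = (θ.1.1 ++ [c]).drop (max 1 (N (θ.1.1 ++ [c]))) ∧
      (stp B N A θ c).2 = A θ.2 (θ.1.1 ++ [c]) := by
  unfold stp; rw [dif_neg h]; exact ⟨rfl, rfl⟩

theorem run_short (θ : St α V B) (w : List α) (h : θ.1.1.length + w.length < B) :
    (run (stp B N A) θ w).1.1 = θ.1.1 ++ w ∧ (run (stp B N A) θ w).2 = θ.2 := by
  induction w generalizing θ with
  | nil => simp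
  | cons c w ih =>
    have hc : θ.1.1.length + 1 < B := by simp at h; omega
    have e : run (stp B N A) θ (c :: w) = run (stp B N A) (stp B N A θ c) w := rfl
    obtain ⟨e1, e2⟩ := stp_lt B N A θ c hc
    have := ih (stp B N A θ c) (by rw [e1]; simp at h ⊢; omega)
    rw [e, this.1, this.2, e1, e2]
    simp

theorem run_full (θ : St α V B) (w : List α) (h : θ.1.1.length + w.length = B) :
    (run (stp B N A) θ w).1.1 = (θ.1.1 ++ w).drop (max 1 (N (θ.1.1 ++ w))) ∧
      (run (stp B N A) θ w).2 = A θ.2 (θ.1.1 ++ w) := by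
  have hw : w ≠ [] := by
    rintro rfl
    have := θ.1.2
    simp at h; omega
  obtain ⟨w', c, rfl⟩ : ∃ w' c, w = w' ++ [c] :=
    ⟨w.dropLast, w.getLast hw, (List.dropLast_append_getLast hw).symm⟩
  have hl : θ.1.1.length + w'.length < B := by simp at h; omega
  obtain ⟨a1, a2⟩ := run_short B N A θ w' hl
  have e : run (stp B N A) θ (w' ++ [c]) = stp B N A (run (stp B N A) θ w') c := by
    rw [run_append]; rfl
  have hn : ¬ (run (stp B N A) θ w').1.1.length + 1 < B := by
    rw [a1]; simp at h ⊢; omega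
  obtain ⟨g1, g2⟩ := stp_ge B N A (run (stp B N A) θ w') c hn
  rw [e, g1, g2, a1, a2, List.append_assoc]
  exact ⟨rfl, rfl⟩

/-- the rest is a suffix of the text -/
theorem run_suffix (w : List α) : ∀ θ : St α V B,
    ∃ pre, θ.1.1 ++ w = pre ++ (run (stp B N A) θ w).1.1 := by
  induction w with
  | nil => intro θ; exact ⟨[], by simp⟩
  | cons c w ih =>
    intro θ
    obtain ⟨pre, hp⟩ := ih (stp B N A θ c)
    have e : run (stp B N A) θ (c :: w) = run (stp B N A) (stp B N A θ c) w := rfl
    have h1 : ∃ pre1, θ.1.1 ++ [c] = pre1 ++ (stp B N A θ c).1.1 := by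
      by_cases hc : θ.1.1.length + 1 < B
      · exact ⟨[], by rw [(stp_lt B N A θ c hc).1]; rfl⟩
      · exact ⟨_, by rw [(stp_ge B N A θ c hc).1]; exact (List.take_append_drop _ _).symm⟩
    obtain ⟨pre1, hp1⟩ := h1
    refine ⟨pre1 ++ pre, ?_⟩
    rw [e, List.append_assoc, ← hp, ← List.append_assoc, ← hp1]
    simp

/-- **reset lemma** -/
theorem run_reset (θ θ0 : St α V B) (Q : List α) (d : ℕ) (hQ : B ≤ Q.length)
    (hN0 : 0 < N ((θ.1.1 ++ Q).take B)) (hNB : N ((θ.1.1 ++ Q).take B) ≤ B)
    (hN : N ((θ.1.1 ++ Q).take B) = θ.1.1.length + d)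
    (h0 : θ0.1.1 = []) (hr : A θ.2 ((θ.1.1 ++ Q).take B) = θ0.2) :
    run (stp B N A) θ Q = run (stp B N A) θ0 (Q.drop d) := by
  have hu := θ.1.2
  set j := B - θ.1.1.length with hj
  have hjl : j ≤ Q.length := by omega
  have hx : (θ.1.1 ++ Q).take B = θ.1.1 ++ Q.take j := by
    rw [List.take_append, List.take_of_length_le (le_of_lt hu)]
  have hdj : d ≤ j := by omega
  have hQ1 : (Q.take j).length = j := by simp [hjl]
  obtain ⟨a1, a2⟩ := run_full B N A θ (Q.take j) (by rw [hQ1]; omega)
  rw [← hx] at a1 a2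
  have hmax : max 1 (N ((θ.1.1 ++ Q).take B)) = θ.1.1.length + d := by
    rw [← hN]; exact max_eq_right hN0
  rw [hmax, hx, List.drop_append] at a1
  have hz : (List.drop (θ.1.1.length + d) θ.1.1) = [] := by
    apply List.drop_eq_nil_of_le; omega
  rw [hz, List.nil_append, Nat.add_sub_cancel_left] at a1
  have e1 : run (stp B N A) θ Q = run (stp B N A) (run (stp B N A) θ (Q.take j)) (Q.drop j) := by
    rw [← run_append, List.take_append_drop]
  have e2 : Q.drop d = (Q.take j).drop d ++ Q.drop j := by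
    conv_lhs => rw [← List.take_append_drop j Q]
    rw [List.drop_append, hQ1]
    have : d - j = 0 := by omega
    rw [this, List.drop_zero]
  have hlen : θ0.1.1.length + ((Q.take j).drop d).length < B := by
    rw [h0]; simp only [List.length_nil, List.length_drop, hQ1]; omega
  obtain ⟨b1, b2⟩ := run_short B N A θ0 ((Q.take j).drop d) hlen
  have e3 : run (stp B N A) θ (Q.take j) = run (stp B N A) θ0 ((Q.take j).drop d) := by
    refine Prod.ext (Subtype.ext ?_) ?_
    · rw [a1, b1, h0, List.nil_append]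
    · rw [a2, b2, hr]
  rw [e1, e2, run_append, e3]

end

/-- reading the product from the runs -/
theorem run_read (act : V → S → V) (f : α → S) (hadd : ∀ v v' s, act (v + v') s = act v s + act v' s)
    (hmul : ∀ v s t, act (act v s) t = act v (s * t)) (hone : ∀ v, act v 1 = v)
    (B : ℕ) (hB : 0 < B) (N : List α → ℕ) (nu : List α → V)
    (hN : ∀ x : List α, x.length = B → 0 < N x) (w : List α) :
    ∃ (pre rest : List α) (D : V), w = pre ++ rest ∧ ∀ v : V,
      (run (stp B N (zm act f N nu)) (⟨[], hB⟩, v) w).1.1 = rest ∧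
      (run (stp B N (zm act f N nu)) (⟨[], hB⟩, v) w).2 = act v (ph f pre) + D := by
  induction w using List.reverseRecOn with
  | nil => exact ⟨[], [], 0, rfl, fun v => ⟨rfl, by simp [ph, hone]⟩⟩
  | append_singleton w c ih =>
    obtain ⟨pre, rest, D, hw, h⟩ := ih
    have e : ∀ v, run (stp B N (zm act f N nu)) (⟨[], hB⟩, v) (w ++ [c]) =
        stp B N (zm act f N nu) (run (stp B N (zm act f N nu)) (⟨[], hB⟩, v) w) c := by
      intro v; rw [run_append]; rfl
    by_cases hr : rest.length + 1 < B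
    · refine ⟨pre, rest ++ [c], D, by rw [hw]; simp, fun v => ?_⟩
      obtain ⟨h1, h2⟩ := h v
      have hc : (run (stp B N (zm act f N nu)) (⟨[], hB⟩, v) w).1.1.length + 1 < B := by
        rw [h1]; exact hr
      obtain ⟨g1, g2⟩ := stp_lt B N (zm act f N nu) (run (stp B N (zm act f N nu)) (⟨[], hB⟩, v) w) c hc
      rw [e, g1, g2, h1]
      exact ⟨rfl, h2⟩
    · have hlt : rest.length < B := by
        obtain ⟨h1, -⟩ := h 0
        rw [← h1]
        exact (run (stp B N (zm act f N nu)) (⟨[], hB⟩, 0) w).1.2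
      have hx : (rest ++ [c]).length = B := by simp; omega
      have hpos := hN _ hx
      refine ⟨pre ++ (rest ++ [c]).take (N (rest ++ [c])), (rest ++ [c]).drop (N (rest ++ [c])),
        act D (ph f ((rest ++ [c]).take (N (rest ++ [c])))) + nu (rest ++ [c]), ?_, fun v => ?_⟩
      · rw [hw, List.append_assoc, List.append_assoc, List.take_append_drop]
      · obtain ⟨h1, h2⟩ := h v
        have hc : ¬ (run (stp B N (zm act f N nu)) (⟨[], hB⟩, v) w).1.1.length + 1 < B := by
          rw [h1]; exact hr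
        obtain ⟨g1, g2⟩ := stp_ge B N (zm act f N nu)
          (run (stp B N (zm act f N nu)) (⟨[], hB⟩, v) w) c hc
        rw [e, g1, g2, h1, h2]
        refine ⟨by rw [max_eq_right (Nat.succ_le_of_lt hpos)], ?_⟩
        unfold zm
        rw [hadd, hmul, ← ph_append, add_assoc]

theorem uncut_suffix {Θ : Type*} {δ : Θ → α → Θ} {CutL : Θ → Prop} {D : ℕ}
    {ρ : List α → Option Θ} {θ : Θ} {a b : List α} (h : Uncut δ CutL D ρ θ (a ++ b)) :
    Uncut δ CutL D ρ (run δ θ a) b := by
  intro p r s e hc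
  refine h (a ++ p) r s (by rw [← e]; simp [List.append_assoc]) ⟨hc.1, ?_, hc.2.2⟩
  rw [run_append]; exact hc.2.1

/-- **HALF 1 from the core.** -/
theorem half1_of_core [Finite α] [Finite V] (act : V → S → V) (f : α → S)
    (hadd : ∀ v v' s, act (v + v') s = act v s + act v' s)
    (hmul : ∀ v s t, act (act v s) t = act v (s * t)) (hone : ∀ v, act v 1 = v)
    (hfaith : ∀ s t, (∀ v, act v s = act v t) → s = t)
    (G : List α → Prop) (hG : H 0 ({w | G w} : Language α))
    (hfac : ∀ a b c : List α, G (a ++ b ++ c) → G b)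
    (hcore : Core act f G) (s : S) :
    H 2 ({w | G w ∧ ph f w = s} : Language α) := by
  classical
  obtain ⟨B, p, q, D1, D2, N, nu, P, L1, L2, R1, R2, ⟨hB, hpB, hqp, hBD, hD2⟩, hN, hl2, hl1, s1, c1,
    s2, c2⟩ := hcore
  have : Finite {u : List α // u.length < B} := by
    have h : ({u : List α | u.length < B}).Finite :=
      (List.finite_length_le α B).subset fun u (hu : u.length < B) => le_of_lt hu
    exact h.to_subtype
  set A := zm act f N nu with hA
  set δ := stp B N A with hδ
  have hpreG : ∀ a b : List α, G (a ++ b) → G a := fun a b h => hfac [] a b (by simpa using h)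
  have hsufG : ∀ a b : List α, G (a ++ b) → G b := fun a b h => hfac a b [] (by simpa using h)
  -- right readings
  let ρ : (List α → Option (ℕ × V)) → List α → Option (St α V B) := fun R r =>
    (R r).map fun x => run δ (⟨[], hB⟩, x.2) (r.drop x.1)
  let C0 : St α V B → List α → Prop := fun θ w => G (θ.1.1 ++ w)
  have hC0pre : ∀ θ u v, C0 θ (u ++ v) → C0 θ u := by
    intro θ a b h
    exact hpreG _ b (by rw [List.append_assoc]; exact h)
  have hC0suf : ∀ θ u v, C0 θ (u ++ v) → C0 (run δ θ u) v := by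
    intro θ a b h
    obtain ⟨pre, hp⟩ := run_suffix B N A a θ
    have h' : G (pre ++ ((run δ θ a).1.1 ++ b)) := by
      rw [← List.append_assoc, ← hp, List.append_assoc]; exact h
    exact hsufG _ _ h'
  -- soundness of a scheme from its two equations
  have hreset : ∀ (θ : St α V B) (Q : List α) (d : ℕ) (r : V), B ≤ Q.length →
      N ((θ.1.1 ++ Q).take B) = θ.1.1.length + d → A θ.2 ((θ.1.1 ++ Q).take B) = r →
      run δ θ Q = run δ (⟨[], hB⟩, r) (Q.drop d) := by
    intro θ Q d r hQ h1 h2
    have hlen : ((θ.1.1 ++ Q).take B).length = B := by simp; omega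
    obtain ⟨n1, n2, -⟩ := hN _ hlen
    exact run_reset B N A θ (⟨[], hB⟩, r) Q d hQ n1 n2 h1 rfl h2
  let Cut1 : St α V B → Prop := fun θ => L1 θ.1.1 θ.2
  let Cut2 : St α V B → Prop := fun θ => L2 θ.1.1 θ.2
  -- a legal place ahead of the state is a cut
  have hcut : ∀ (L : List α → V → Prop) (R : List α → Option (ℕ × V)) (D : ℕ) (θ : St α V B)
      (w : List α) (i : ℕ), θ.1.1.length ≤ i → i < B → i + D ≤ (θ.1.1 ++ w).length →
      L ((θ.1.1 ++ w).take i) θ.2 → (R (((θ.1.1 ++ w).drop i).take D)).isSome →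
      ¬ Uncut δ (fun θ => L θ.1.1 θ.2) D (ρ R) θ w := by
    intro L R D θ w i h1 h2 h3 hL hR hu
    have e1 : (θ.1.1 ++ w).take i = θ.1.1 ++ w.take (i - θ.1.1.length) := by
      rw [List.take_append, List.take_of_length_le h1]
    have e2 : (θ.1.1 ++ w).drop i = w.drop (i - θ.1.1.length) := by
      rw [List.drop_append, List.drop_eq_nil_of_le h1, List.nil_append]
    have hl : (θ.1.1 ++ w).length = θ.1.1.length + w.length := List.length_append
    obtain ⟨b1, b2⟩ := run_short B N A θ (w.take (i - θ.1.1.length)) (by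
      rw [List.length_take]; omega)
    refine hu (w.take (i - θ.1.1.length)) ((w.drop (i - θ.1.1.length)).take D)
      ((w.drop (i - θ.1.1.length)).drop D) ?_ ⟨?_, ?_, ?_⟩
    · rw [List.append_assoc, List.take_append_drop, List.take_append_drop]
    · rw [List.length_take, List.length_drop]; omega
    · show L (run δ θ _).1.1 (run δ θ _).2
      rw [b1, b2, ← e1]; exact hL
    · rw [← e2]
      obtain ⟨x, hx⟩ := Option.isSome_iff_exists.1 hR
      show (Option.map _ (R _)).isSome
      rw [hx]; rfl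
  -- inner level
  let C1 : St α V B → List α → Prop := fun θ w => C0 θ w ∧ Uncut δ Cut1 D1 (ρ R1) θ w
  have hin : RC 1 δ C1 := by
    refine nested (n := 0) δ C1 ?_ ?_ Cut2 D2 (by omega) (ρ R2) ?_ ?_
    · rintro θ a b ⟨h1, h2⟩
      exact ⟨hC0pre θ a b h1, h2.prefix⟩
    · rintro θ a b ⟨h1, h2⟩
      exact ⟨hC0suf θ a b h1, uncut_suffix h2⟩
    · rintro θ r θ' ⟨h1, h2⟩ hL hr hρ
      have hL' : L2 θ.1.1 θ.2 := hL
      obtain ⟨hq, hp⟩ := hl2 _ _ hL'
      have hlen : (θ.1.1 ++ r).length = θ.1.1.length + r.length := List.length_append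
      have hP : P (θ.1.1 ++ r) := by
        by_contra hP
        obtain ⟨i, hi, a1, a2⟩ := c1 (θ.1.1 ++ r) h1 (by omega) hP θ.2
        have hti : ((θ.1.1 ++ r).take i).length = i := by
          rw [List.length_take]; omega
        obtain ⟨b1, b2⟩ := hl1 _ _ a1
        rw [hti] at b1 b2
        exact hcut L1 R1 D1 θ r i (by omega) b2 (by omega) a1 a2 h2
      obtain ⟨x, hx, hx'⟩ := Option.map_eq_some_iff.1 hρ
      obtain ⟨d, v'⟩ := x
      obtain ⟨e1, e2⟩ := s2 θ.1.1 θ.2 r d v' h1 hr hP hL' hx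
      rw [← hx']
      exact hreset θ r d v' (by omega) e1 e2
    · refine RC.bounded 0 (2 * B + D2) ?_
      rintro θ w ⟨⟨h1, h2⟩, h3⟩
      by_contra hw
      push Not at hw
      have hu := θ.1.2
      set j := B - θ.1.1.length with hj
      have hjl : (w.take j).length = j := by rw [List.length_take]; omega
      obtain ⟨a1, a2⟩ := run_full B N A θ (w.take j) (by rw [hjl]; omega)
      have hxl : (θ.1.1 ++ w.take j).length = B := by rw [List.length_append, hjl]; omega
      obtain ⟨n1, n2, n3⟩ := hN _ hxl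
      rw [max_eq_right n1] at a1
      have hC := hC0suf θ (w.take j) (w.drop j) (by
        show G (θ.1.1 ++ (w.take j ++ w.drop j))
        rw [List.take_append_drop]; exact h1)
      have hU1 : Uncut δ Cut1 D1 (ρ R1) (run δ θ (w.take j)) (w.drop j) :=
        uncut_suffix (by rw [List.take_append_drop]; exact h2)
      have hU2 : Uncut δ Cut2 D2 (ρ R2) (run δ θ (w.take j)) (w.drop j) :=
        uncut_suffix (by rw [List.take_append_drop]; exact h3)
      set θ1 := run δ θ (w.take j) with hθ1
      have hθ1l : θ1.1.1.length ≤ q := by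
        rw [show θ1.1.1 = _ from a1, List.length_drop, hxl]; omega
      have hyl : (θ1.1.1 ++ w.drop j).length = θ1.1.1.length + (w.length - j) := by
        rw [List.length_append, List.length_drop]
      by_cases hP : P (θ1.1.1 ++ w.drop j)
      · obtain ⟨i, hi, b1, b2⟩ := c2 _ hC (by omega) hP θ1.2
        have hti : ((θ1.1.1 ++ w.drop j).take i).length = i := by
          rw [List.length_take]; omega
        obtain ⟨d1, d2⟩ := hl2 _ _ b1
        rw [hti] at d1 d2
        exact hcut L2 R2 D2 θ1 (w.drop j) i (by omega) (by omega) (by omega) b1 b2 hU2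
      · obtain ⟨i, hi, b1, b2⟩ := c1 _ hC (by omega) hP θ1.2
        have hti : ((θ1.1.1 ++ w.drop j).take i).length = i := by
          rw [List.length_take]; omega
        obtain ⟨d1, d2⟩ := hl1 _ _ b1
        rw [hti] at d1 d2
        exact hcut L1 R1 D1 θ1 (w.drop j) i (by omega) d2 (by omega) b1 b2 hU1
  -- outer level
  have hout : RC 2 δ C0 := by
    refine nested (n := 1) δ C0 hC0pre hC0suf Cut1 D1 (by omega) (ρ R1) ?_ hin
    rintro θ r θ' h1 hL hr hρ
    obtain ⟨x, hx, hx'⟩ := Option.map_eq_some_iff.1 hρ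
    obtain ⟨d, v'⟩ := x
    obtain ⟨e1, e2⟩ := s1 θ.1.1 θ.2 r d v' h1 hr hL hx
    rw [← hx']
    exact hreset θ r d v' (by omega) e1 e2
  obtain ⟨R, hR, hRs⟩ := hout
  -- reading
  let F0 : List α → V → St α V B := fun w v => run δ (⟨[], hB⟩, v) w
  have hdet : ∀ w w' : List α, (∀ v, F0 w v = F0 w' v) → ph f w = ph f w' := by
    intro w w' hww
    obtain ⟨pre, rest, D, e, h⟩ := run_read act f hadd hmul hone B hB N nu (fun x hx => (hN x hx).1) w
    obtain ⟨pre', rest', D', e', h'⟩ :=
      run_read act f hadd hmul hone B hB N nu (fun x hx => (hN x hx).1) w'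
    have hz : ∀ s, act 0 s = 0 := by
      intro s
      have := hadd 0 0 s
      rw [add_zero] at this
      exact (add_eq_left.1 this.symm)
    have hrest : rest = rest' := by
      rw [← (h 0).1, ← (h' 0).1]
      exact congrArg (fun θ : St α V B => θ.1.1) (hww 0)
    have hv : ∀ v, act v (ph f pre) + D = act v (ph f pre') + D' := by
      intro v
      rw [← (h v).2, ← (h' v).2]
      exact congrArg (fun θ : St α V B => θ.2) (hww v)
    have hD : D = D' := by
      have := hv 0
      rwa [hz, hz, zero_add, zero_add] at this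
    have hpre : ph f pre = ph f pre' := hfaith _ _ fun v => by
      have := hv v
      rw [hD] at this
      exact add_right_cancel this
    rw [e, e', ph_append, ph_append, hpre, hrest]
  let 𝓕 : Set (V → St α V B) := {F | ∃ w, ph f w = s ∧ ∀ v, F0 w v = F v}
  have hbig : H 2 ({w | w ∈ ({w | G w} : Language α) ∧
      w ∈ ({w | ∃ F : V → St α V B, w ∈ ({w | w ∈ ({_w | F ∈ 𝓕} : Language α) ∧
        w ∈ ({w | ∀ v, w ∈ R (⟨[], hB⟩, v) (F v)} : Language α)} : Language α)} : Language α)} :
      Language α) :=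
    H.inter (hG.mono (Nat.zero_le 2)) (H.exists_fintype _ fun F =>
      H.inter (H.const 2 _) (H.forall_fintype _ fun v => hR _ _))
  refine hbig.congr fun w => ?_
  constructor
  · rintro ⟨hg, F, ⟨w', hs', hF⟩, hw⟩
    refine ⟨hg, ?_⟩
    rw [← hs']
    refine hdet w w' fun v => ?_
    rw [hF v]
    exact (hRs (⟨[], hB⟩, v) w (by simpa [C0] using hg) (F v)).1 (hw v)
  · rintro ⟨hg, hs'⟩
    refine ⟨hg, F0 w, ⟨w, hs', fun _ => rfl⟩, fun v => ?_⟩
    exact (hRs (⟨[], hB⟩, v) w (by simpa [C0] using hg) _).2 rfl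

end Crest.Agent.R320.Core_50
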