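import Crest.Agent.R320.Geo_524

/-!
Row 320: the five combinatorial hypotheses (s1, c1, hlen, s2, c2) of `Top_517.top3` for the chain
'first wall ≥ z', from a scheme-1 gadget and `Sc2_524.scheme2`.
-/

set_option autoImplicit false

namespace Crest.Agent.R320.Core_524

open Crest.Agent.R320.ExactR_237 Crest.Agent.R320.Sc2_524 Crest.Agent.R320.Geo_524

variable {α S V : Type} [Monoid S] [AddCommGroup V]

theorem comp_eq {Wo : List α → Prop} {z : ℕ} {X Y U : List α} (hX : XX Wo z X) (hY : XX Wo z Y)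
    (h1 : X <+: U) (h2 : Y <+: U) : X = Y := by
  rcases List.prefix_or_prefix_of_prefix h1 h2 with h | h
  · exact xx_pcode hX hY h
  · exact (xx_pcode hY hX h).symm

/-- a block is visible -/
theorem vis {Wo : List α → Prop} {n W z p0 : ℕ} (hW : Walls Wo n W) (hz : p0 + n ≤ z)
    (P Q1 X2 : List α) (hP : P.length ≤ p0) (hX2 : XX Wo z X2) :
    ∃ Q', Q' <+: Q1 ++ X2 ∧ XX Wo z (P ++ Q') := by
  have hl : (P ++ (Q1 ++ X2)).length = P.length + (Q1.length + X2.length) := by simp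
  have h2 := hX2.2.1
  have hw : Wo ((P ++ (Q1 ++ X2)).take (P ++ (Q1 ++ X2)).length) := by
    rw [List.take_length, ← List.append_assoc, hW.loc _ _ (by omega)]
    exact hX2.1
  obtain ⟨s, hs1, hs2, hs3⟩ := xx_exists (z := z) (U := P ++ (Q1 ++ X2)) (by omega) le_rfl hw
  have hzs : z ≤ s := by have := hs2.2.1; omega
  refine ⟨(Q1 ++ X2).take (s - P.length), List.take_prefix _ _, ?_⟩
  rw [← take_app _ _ (by omega)]
  exact hs2

section

variable (f : α → S) (act : V → S → V) (Wo : List α → Prop) (z p0 N1 : ℕ) (Bt : ℕ → Prop)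
  (lam1 rho1 : List α → Option V) (nu1 nu2 : List α → V)

def L1 (v : V) : Language α :=
  {P | p0 ≤ P.length ∧
    lam1 (P.drop p0) = some (act v (pr f (P.take p0)) + nu2 (P.take p0))}

def R1 (v : V) : Language α := {Q | Rleg Wo z p0 N1 Q ∧ rho1 Q = some v}

theorem s1 {n W : ℕ} (hW : Walls Wo n W) (hz : p0 + N1 + n ≤ z)
    (hlen1 : ∀ P v, lam1 P = some v → P.length < N1)
    (snd1 : ∀ P Q v v', lam1 P = some v → rho1 Q = some v' →
      v' = act v (pr f (P ++ Q)) + nu1 (P ++ Q)) (v v' : V) (P Q : List α)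
    (hP : P ∈ L1 f act p0 lam1 nu2 v) (hQ : Q ∈ R1 Wo z p0 N1 rho1 v') :
    XX Wo z (P ++ Q) ∧ T f act p0 nu2 nu1 v (P ++ Q) = v' := by
  obtain ⟨hP1, hP2⟩ := hP
  obtain ⟨hQ1, hQ2⟩ := hQ
  have hl := hlen1 _ _ hP2
  rw [List.length_drop] at hl
  refine ⟨rleg_xx hW hz hP1 (by omega) hQ1, ?_⟩
  have e1 : (P ++ Q).take p0 = P.take p0 := List.take_append_of_le_length hP1
  have e2 : (P ++ Q).drop p0 = P.drop p0 ++ Q := List.drop_append_of_le_length hP1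
  unfold T
  rw [e1, e2]
  exact (snd1 _ _ _ _ hP2 hQ2).symm

theorem c1 {n W : ℕ} (hW : Walls Wo n W) (hz : p0 + N1 + n ≤ z)
    (hlen1 : ∀ P v, lam1 P = some v → P.length < N1)
    (snd1 : ∀ P Q v v', lam1 P = some v → rho1 Q = some v' →
      v' = act v (pr f (P ++ Q)) + nu1 (P ++ Q))
    (cpl1 : ∀ X : List α, ¬ Bt X.length → ∀ v, ∃ P Q, P ++ Q = X ∧ lam1 P = some v ∧
      (rho1 Q).isSome)
    (X : List α) (hX : XX Wo z X) (hB : ¬ Bad Wo z p0 N1 Bt X) (v : V) :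
    ∃ P Q, X = P ++ Q ∧ P ∈ L1 f act p0 lam1 nu2 v ∧
      Q ∈ R1 Wo z p0 N1 rho1 (T f act p0 nu2 nu1 v X) := by
  have hE : ¬ BadE Wo z N1 X := fun h => hB ⟨hX, Or.inl h⟩
  have hBt : ¬ Bt (X.drop p0).length := by
    rw [List.length_drop]; exact fun h => hB ⟨hX, Or.inr h⟩
  have hXl := hX.2.1
  obtain ⟨P', Q, hPQ, h1, h2⟩ := cpl1 (X.drop p0) hBt
    (act v (pr f (X.take p0)) + nu2 (X.take p0))
  obtain ⟨b, hb⟩ := Option.isSome_iff_exists.1 h2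
  have hl := hlen1 _ _ h1
  have ht : (X.take p0).length = p0 := by rw [List.length_take]; omega
  have hXe : X = (X.take p0 ++ P') ++ Q := by
    rw [List.append_assoc, hPQ, List.take_append_drop]
  have hP1 : (X.take p0 ++ P').drop p0 = P' := by
    rw [List.drop_append, List.drop_of_length_le (by omega), ht]; simp
  have hP2 : (X.take p0 ++ P').take p0 = X.take p0 := by
    rw [List.take_append, ht]; simp
  have hlP : (X.take p0 ++ P').length = p0 + P'.length := by rw [List.length_append, ht]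
  have hmem : (X.take p0 ++ P') ∈ L1 f act p0 lam1 nu2 v := by
    refine ⟨by omega, ?_⟩
    rw [hP1, hP2]; exact h1
  have hQd : Q = X.drop (p0 + P'.length) := by
    conv_rhs => rw [hXe]
    rw [← hlP, List.drop_left]
  have hR : Rleg Wo z p0 N1 Q := by
    rw [hQd]; exact rleg_of_not_bad hW hz hX hE (by omega) (by omega)
  have hval := (s1 f act Wo z p0 N1 lam1 rho1 nu1 nu2 hW hz hlen1 snd1 v b _ Q hmem ⟨hR, hb⟩).2
  rw [← hXe] at hval
  exact ⟨X.take p0 ++ P', Q, hXe, hmem, hR, by rw [hval]; exact hb⟩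

end

/-- the two-block soundness of scheme 2 in the form of `top3` -/
theorem s2 {f : α → S} {act : V → S → V} {Wo : List α → Prop} {z p0 N1 n W : ℕ} {Bt : ℕ → Prop}
    {nu1 nu2 : List α → V} {K : ℕ} {c : ℕ → ℕ} {lam2 rho2 : ℕ → List α → Option V}
    (hW : Walls Wo n W) (hz : p0 + N1 + n ≤ z) (hc : ∀ k < K, c k ≤ p0)
    (snd : ∀ P Q v r, LP K c lam2 P v →
        RQ f act p0 nu2 nu1 (XX Wo z) (Bad Wo z p0 N1 Bt) K c rho2 Q r →
        (∃ Q', Q' <+: Q ∧ XX Wo z (P ++ Q') ∧ Bad Wo z p0 N1 Bt (P ++ Q')) →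
        ∃ Q1 X2, Q = Q1 ++ X2 ∧ XX Wo z (P ++ Q1) ∧ XX Wo z X2 ∧
          T f act p0 nu2 nu1 (T f act p0 nu2 nu1 v (P ++ Q1)) X2 = r)
    (v v' : V) (P Q X1 X2 : List α) (hP : LP K c lam2 P v)
    (hQ : RQ f act p0 nu2 nu1 (XX Wo z) (Bad Wo z p0 N1 Bt) K c rho2 Q v')
    (h1 : Bad Wo z p0 N1 Bt X1) (h2 : Bad Wo z p0 N1 Bt X2)
    (h : X1 ++ X2 <+: P ++ Q ∨ P ++ Q <+: X1 ++ X2) :
    X1 ++ X2 = P ++ Q ∧ T f act p0 nu2 nu1 (T f act p0 nu2 nu1 v X1) X2 = v' := by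
  have hPl : P.length ≤ p0 := by
    obtain ⟨k, hk, hPk, -⟩ := hP
    rw [hPk]; exact hc k hk
  have hQv : ∃ Q', Q' <+: Q ∧ XX Wo z (P ++ Q') := by
    obtain ⟨k, hk, -, Q1, X2', b, hQe, hcand, hX2', -⟩ := hQ
    obtain ⟨Q', a, b⟩ := vis hW (by omega) P Q1 X2' hPl hX2'
    exact ⟨Q', by rw [hQe]; exact a, b⟩
  obtain ⟨Q', hQ', hX'⟩ := hQv
  have hpre : P ++ Q' <+: P ++ Q := (List.prefix_append_right_inj P).2 hQ'
  have hX1e : X1 = P ++ Q' := by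
    rcases h with h | h
    · exact comp_eq h1.1 hX' ((List.prefix_append X1 X2).trans h) hpre
    · exact comp_eq h1.1 hX' (List.prefix_append X1 X2) (hpre.trans h)
  obtain ⟨Q1, X2', hQe, hX1', hX2', hval⟩ := snd P Q v v' hP hQ
    ⟨Q', hQ', hX', by rw [← hX1e]; exact h1⟩
  have e1 : X1 = P ++ Q1 := by
    rw [hX1e]
    refine comp_eq hX' hX1' hpre ?_
    rw [hQe]; exact (List.prefix_append_right_inj P).2 (List.prefix_append Q1 X2')
  have e2 : P ++ Q = X1 ++ X2' := by rw [hQe, e1, List.append_assoc]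
  have e3 : X2 = X2' := by
    rcases h with h | h
    · rw [e2] at h
      exact xx_pcode h2.1 hX2' ((List.prefix_append_right_inj X1).1 h)
    · rw [e2] at h
      exact (xx_pcode hX2' h2.1 ((List.prefix_append_right_inj X1).1 h)).symm
  rw [e3, e2]
  refine ⟨rfl, ?_⟩
  rw [e1]; exact hval

theorem hlen {f : α → S} {act : V → S → V} {Wo : List α → Prop} {z p0 N1 n W : ℕ} {Bt : ℕ → Prop}
    {nu1 nu2 : List α → V} {K : ℕ} {c : ℕ → ℕ} {lam2 rho2 : ℕ → List α → Option V}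
    (hW : Walls Wo n W) (hz : p0 + N1 + n ≤ z) (hz0 : 0 < z) (hc : ∀ k < K, c k ≤ p0)
    (snd : ∀ P Q v r, LP K c lam2 P v →
        RQ f act p0 nu2 nu1 (XX Wo z) (Bad Wo z p0 N1 Bt) K c rho2 Q r →
        (∃ Q', Q' <+: Q ∧ XX Wo z (P ++ Q') ∧ Bad Wo z p0 N1 Bt (P ++ Q')) →
        ∃ Q1 X2, Q = Q1 ++ X2 ∧ XX Wo z (P ++ Q1) ∧ XX Wo z X2 ∧
          T f act p0 nu2 nu1 (T f act p0 nu2 nu1 v (P ++ Q1)) X2 = r)
    (v v' : V) (P Q X : List α) (hP : LP K c lam2 P v)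
    (hQ : RQ f act p0 nu2 nu1 (XX Wo z) (Bad Wo z p0 N1 Bt) K c rho2 Q v')
    (h1 : Bad Wo z p0 N1 Bt X) : ¬ P ++ Q <+: X := by
  intro h
  have hPl : P.length ≤ p0 := by
    obtain ⟨k, hk, hPk, -⟩ := hP
    rw [hPk]; exact hc k hk
  have hQv : ∃ Q', Q' <+: Q ∧ XX Wo z (P ++ Q') := by
    obtain ⟨k, hk, -, Q1, X2', b, hQe, hcand, hX2', -⟩ := hQ
    obtain ⟨Q', a, b⟩ := vis hW (by omega) P Q1 X2' hPl hX2'
    exact ⟨Q', by rw [hQe]; exact a, b⟩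
  obtain ⟨Q', hQ', hX'⟩ := hQv
  have hpre : P ++ Q' <+: P ++ Q := (List.prefix_append_right_inj P).2 hQ'
  have hXe : P ++ Q' = X := xx_pcode hX' h1.1 (hpre.trans h)
  obtain ⟨Q1, X2', hQe, hX1', hX2', -⟩ := snd P Q v v' hP hQ
    ⟨Q', hQ', hX', by rw [hXe]; exact h1⟩
  have hpre1 : P ++ Q1 <+: P ++ Q := by
    rw [hQe]; exact (List.prefix_append_right_inj P).2 (List.prefix_append Q1 X2')
  have e1 : P ++ Q1 = X := xx_pcode hX1' h1.1 (hpre1.trans h)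
  have l1 := h.length_le
  rw [← e1, hQe] at l1
  simp only [List.length_append] at l1
  have := hX2'.2.1
  omega

theorem c2 {f : α → S} {act : V → S → V} {Wo : List α → Prop} {z p0 N1 n W : ℕ} {Bt : ℕ → Prop}
    {nu1 nu2 : List α → V} {K K0 : ℕ} {c : ℕ → ℕ} {lam2 rho2 : ℕ → List α → Option V}
    (hz : p0 + N1 + n ≤ z)
    (snd : ∀ P Q v r, LP K c lam2 P v →
        RQ f act p0 nu2 nu1 (XX Wo z) (Bad Wo z p0 N1 Bt) K c rho2 Q r →
        (∃ Q', Q' <+: Q ∧ XX Wo z (P ++ Q') ∧ Bad Wo z p0 N1 Bt (P ++ Q')) →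
        ∃ Q1 X2, Q = Q1 ++ X2 ∧ XX Wo z (P ++ Q1) ∧ XX Wo z X2 ∧
          T f act p0 nu2 nu1 (T f act p0 nu2 nu1 v (P ++ Q1)) X2 = r)
    (cpl : ∀ X X2 v, XX Wo z X → p0 ≤ X.length → Bad Wo z p0 N1 Bt X → XX Wo z X2 →
        {k | k < K ∧ ∃ j < K, j ≠ k ∧ ∃ Q', Q' <+: X.drop (c k) ++ X2 ∧
          Cand (XX Wo z) (Bad Wo z p0 N1 Bt) (c j) Q'}.ncard ≤ K0 →
        ∃ k < K, LP K c lam2 (X.take (c k)) v ∧
          ∃ r, RQ f act p0 nu2 nu1 (XX Wo z) (Bad Wo z p0 N1 Bt) K c rho2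
            (X.drop (c k) ++ X2) r)
    (spoil : ∀ X X2, XX Wo z X → XX Wo z X2 →
        {k | k < K ∧ ∃ j < K, j ≠ k ∧ ∃ Q', Q' <+: X.drop (c k) ++ X2 ∧
          Cand (XX Wo z) (Bad Wo z p0 N1 Bt) (c j) Q'}.ncard ≤ K0)
    (X Y : List α) (hX : Bad Wo z p0 N1 Bt X) (hY : Bad Wo z p0 N1 Bt Y) (v : V) :
    ∃ P Q, X ++ Y = P ++ Q ∧ LP K c lam2 P v ∧
      RQ f act p0 nu2 nu1 (XX Wo z) (Bad Wo z p0 N1 Bt) K c rho2 Q
        (T f act p0 nu2 nu1 (T f act p0 nu2 nu1 v X) Y) := by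
  have hXl := hX.1.2.1
  obtain ⟨k, hk, hL, r, hR⟩ := cpl X Y v hX.1 (by omega) hX hY.1 (spoil X Y hX.1 hY.1)
  have hXe : X.take (c k) ++ X.drop (c k) = X := List.take_append_drop _ _
  obtain ⟨Q1, X2', hQe, hX1', hX2', hval⟩ := snd _ _ v r hL hR
    ⟨X.drop (c k), List.prefix_append _ _, by rw [hXe]; exact hX.1, by rw [hXe]; exact hX⟩
  have e0 : X ++ Y = (X.take (c k) ++ Q1) ++ X2' := by
    rw [List.append_assoc, ← hQe, ← List.append_assoc, hXe]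
  have e1 : X = X.take (c k) ++ Q1 := by
    refine comp_eq hX.1 hX1' (List.prefix_append X Y) ?_
    rw [e0]; exact List.prefix_append _ _
  have e2 : Y = X2' := by
    have h3 : X ++ Y = X ++ X2' := by rw [e0, ← e1]
    exact List.append_cancel_left h3
  refine ⟨X.take (c k), X.drop (c k) ++ Y, by rw [← List.append_assoc, hXe], hL, ?_⟩
  have e3 : T f act p0 nu2 nu1 (T f act p0 nu2 nu1 v X) Y = r := by
    rw [← hval, ← e1, ← e2]
  rw [e3]; exact hR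

end Crest.Agent.R320.Core_524
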