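import Crest.Agent.R320.BlockP_603

/-!
# Row 320: from the finite combinatorial core to HALF 1 (helper603)
-/

set_option autoImplicit false

namespace Crest.Agent.R320.Core_603

open Crest.RegLang Crest.Agent.R320.Hk_851 Crest.Agent.R320.BlockP_603 Computability

universe u

variable {α : Type u} {k : ℕ} {V : Type}

theorem iSup_HL {ι : Type*} [Finite ι] {L : ι → Language α} (h : ∀ i, HL k (L i)) :
    HL k (⨆ i, L i) := by
  classical
  have := Fintype.ofFinite ι
  have key : ∀ s : Finset ι, HL k (⨆ i ∈ s, L i) := by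
    intro s
    induction s using Finset.induction_on with
    | empty => simpa using HL.bot
    | insert a s _ ih =>
      rw [Finset.iSup_insert]
      exact (h a).sup ih
  simpa using key Finset.univ

theorem mem_iSup' {ι : Type*} {L : ι → Language α} {w : List α} :
    w ∈ (⨆ i, L i) ↔ ∃ i, w ∈ L i :=
  Set.mem_iUnion

theorem bl_nil {CC : Language α} {T : V → List α → V} (v : V) : [] ∈ Bl CC T v v :=
  ⟨[], by simp, rfl, rfl⟩

theorem bl_append {CC : Language α} {T : V → List α → V} {v u v' : V} {w w' : List α}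
    (h : w ∈ Bl CC T v u) (h' : w' ∈ Bl CC T u v') : w ++ w' ∈ Bl CC T v v' := by
  obtain ⟨L, hL, rfl, hv⟩ := h
  obtain ⟨M, hM, rfl, hv'⟩ := h'
  refine ⟨L ++ M, ?_, by simp, by rw [List.foldl_append, hv, hv']⟩
  intro X hX
  rcases List.mem_append.1 hX with h | h
  · exact hL X h
  · exact hM X h

theorem bl_one {CC : Language α} {T : V → List α → V} {v : V} {X : List α}
    (h : X ∈ CC) : X ∈ Bl CC T v (T v X) :=
  ⟨[X], by simpa using h, by simp, rfl⟩

theorem bl_mono {CC DD : Language α} (hCD : ∀ X ∈ CC, X ∈ DD) {T : V → List α → V} {v v' : V}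
    {w : List α} (h : w ∈ Bl CC T v v') : w ∈ Bl DD T v v' := by
  obtain ⟨L, hL, e, hv⟩ := h
  exact ⟨L, fun X hX => hCD X (hL X hX), e, hv⟩

/-- right end of a chain word -/
def En (Bad : Language α) (T : V → List α → V) (RQ : V → Language α) (v' : V) : Language α :=
  ⨆ u, RQ u * Bl Bad T u v'

/-- left end of a chain word -/
def St (Bad : Language α) (T : V → List α → V) (LP : V → Language α) (v : V) : Language α :=
  ⨆ u, Bl Bad T v u * LP u

/-- the star base -/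
def Kw (Bad : Language α) (T : V → List α → V) (LP RQ : V → Language α) : Language α :=
  ⨆ u, RQ u * St Bad T LP u

/-- the full language -/
def Lam (Bad : Language α) (T : V → List α → V) (LP RQ : V → Language α) (v v' : V) :
    Language α :=
  Bl Bad T v v' ⊔ St Bad T LP v * ((Kw Bad T LP RQ)∗ * En Bad T RQ v')

theorem lam_bad {Bad : Language α} {T : V → List α → V} {LP RQ : V → Language α} {v v' : V}
    {X w : List α} (hX : X ∈ Bad) (hw : w ∈ Lam Bad T LP RQ (T v X) v') :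
    X ++ w ∈ Lam Bad T LP RQ v v' := by
  rcases hw with h | h
  · exact Or.inl (bl_append (bl_one hX) h)
  · refine Or.inr ?_
    obtain ⟨a, ha, b, hb, rfl⟩ := Language.mem_mul.1 h
    obtain ⟨u, hu⟩ := mem_iSup.1 ha
    obtain ⟨m, hm, p, hp, rfl⟩ := Language.mem_mul.1 hu
    refine Language.mem_mul.2 ⟨(X ++ m) ++ p, mem_iSup.2 ⟨u, Language.mem_mul.2
      ⟨X ++ m, bl_append (bl_one hX) hm, p, hp, rfl⟩⟩, b, hb, by simp [List.append_assoc]⟩

theorem lam_cut {Bad : Language α} {T : V → List α → V} {LP RQ : V → Language α} {v u v' : V}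
    {P Q w : List α} (hP : P ∈ LP v) (hQ : Q ∈ RQ u) (hw : w ∈ Lam Bad T LP RQ u v') :
    P ++ Q ++ w ∈ Lam Bad T LP RQ v v' := by
  refine Or.inr ?_
  have hPs : P ∈ St Bad T LP v :=
    mem_iSup.2 ⟨v, Language.mem_mul.2 ⟨[], bl_nil v, P, hP, rfl⟩⟩
  rcases hw with h | h
  · refine Language.mem_mul.2 ⟨P, hPs, Q ++ w, Language.mem_mul.2 ⟨[], ?_, Q ++ w, ?_, rfl⟩,
      by simp [List.append_assoc]⟩
    · exact Language.mem_kstar.2 ⟨[], rfl, by simp⟩
    · exact mem_iSup.2 ⟨u, Language.mem_mul.2 ⟨Q, hQ, w, h, rfl⟩⟩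
  · obtain ⟨a, ha, b, hb, rfl⟩ := Language.mem_mul.1 h
    obtain ⟨c, hc, d, hd, rfl⟩ := Language.mem_mul.1 hb
    obtain ⟨L, rfl, hL⟩ := Language.mem_kstar.1 hc
    refine Language.mem_mul.2 ⟨P, hPs, (Q ++ a) ++ L.flatten ++ d, Language.mem_mul.2
      ⟨((Q ++ a) :: L).flatten, Language.mem_kstar.2 ⟨(Q ++ a) :: L, rfl, ?_⟩, d, hd,
        by simp [List.append_assoc]⟩, by simp [List.append_assoc]⟩
    intro y hy
    rcases List.mem_cons.1 hy with h1 | h1
    · rw [h1]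
      exact mem_iSup.2 ⟨u, Language.mem_mul.2 ⟨Q, hQ, a, ha, rfl⟩⟩
    · exact hL y h1

theorem lam_complete {XX Bad : Language α} {T : V → List α → V} {LP RQ : V → Language α}
    (hc : ∀ X ∈ XX, X ∈ Bad ∨ ∀ v, ∃ P Q, X = P ++ Q ∧ P ∈ LP v ∧ Q ∈ RQ (T v X))
    (L : List (List α)) (hL : ∀ X ∈ L, X ∈ XX) (v : V) :
    L.flatten ∈ Lam Bad T LP RQ v (L.foldl T v) := by
  induction L generalizing v with
  | nil => exact Or.inl (bl_nil v)
  | cons X L ih =>
    have h1 := ih (fun z hz => hL z (by simp [hz])) (T v X)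
    rw [List.flatten_cons, List.foldl_cons]
    rcases hc X (hL X (by simp)) with hb | hg
    · exact lam_bad hb h1
    · obtain ⟨P, Q, e, hP, hQ⟩ := hg v
      have h2 := lam_cut hP hQ h1
      rwa [← e] at h2

theorem lam_sound {XX Bad : Language α} {T : V → List α → V} {LP RQ : V → Language α}
    (hBX : ∀ X ∈ Bad, X ∈ XX)
    (hs : ∀ v u, ∀ P ∈ LP v, ∀ Q ∈ RQ u, P ++ Q ∈ XX ∧ u = T v (P ++ Q))
    {v v' : V} {w : List α} (hw : w ∈ Lam Bad T LP RQ v v') : w ∈ Bl XX T v v' := by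
  rcases hw with h | h
  · exact bl_mono hBX h
  · obtain ⟨a, ha, b, hb, rfl⟩ := Language.mem_mul.1 h
    obtain ⟨c, hc, d, hd, rfl⟩ := Language.mem_mul.1 hb
    obtain ⟨L, rfl, hL⟩ := Language.mem_kstar.1 hc
    clear h hb hc
    obtain ⟨z, hz⟩ := mem_iSup.1 hd
    obtain ⟨Q', hQ', m', hm', rfl⟩ := Language.mem_mul.1 hz
    clear hd hz
    induction L generalizing v a with
    | nil =>
      obtain ⟨u, hu⟩ := mem_iSup.1 ha
      obtain ⟨m, hm, p, hp, rfl⟩ := Language.mem_mul.1 hu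
      obtain ⟨h1, h2⟩ := hs u z p hp Q' hQ'
      have h3 : m ++ ((p ++ Q') ++ m') ∈ Bl XX T v v' := by
        refine bl_append (bl_mono hBX hm) (bl_append (bl_one h1) ?_)
        rw [← h2]
        exact bl_mono hBX hm'
      simpa [List.append_assoc] using h3
    | cons y L ih =>
      obtain ⟨u, hu⟩ := mem_iSup.1 ha
      obtain ⟨m, hm, p, hp, rfl⟩ := Language.mem_mul.1 hu
      obtain ⟨x, hx⟩ := mem_iSup.1 (hL y (by simp))
      obtain ⟨Q, hQ, a', ha', rfl⟩ := Language.mem_mul.1 hx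
      obtain ⟨h1, h2⟩ := hs u x p hp Q hQ
      have h4 := ih a' ha' (fun z hz => hL z (by simp [hz]))
      have h3 : m ++ ((p ++ Q) ++ (a' ++ (L.flatten ++ (Q' ++ m')))) ∈ Bl XX T v v' := by
        refine bl_append (bl_mono hBX hm) (bl_append (bl_one h1) ?_)
        rw [← h2]
        exact h4
      simpa [List.append_assoc] using h3

/-- **the sound-everywhere step** (467), token form -/
theorem lam_HL [Finite V] {XX Bad : Language α} {T : V → List α → V} {LP RQ : V → Language α}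
    (hB : ∀ v v', HL k (Bl Bad T v v')) (hLP : ∀ v, HL k (LP v)) (hRQ : ∀ v, HL k (RQ v))
    (hBX : ∀ X ∈ Bad, X ∈ XX)
    (hs : ∀ v u, ∀ P ∈ LP v, ∀ Q ∈ RQ u, P ++ Q ∈ XX ∧ u = T v (P ++ Q))
    (hc : ∀ X ∈ XX, X ∈ Bad ∨ ∀ v, ∃ P Q, X = P ++ Q ∧ P ∈ LP v ∧ Q ∈ RQ (T v X))
    (v v' : V) : HL (k + 1) (Bl XX T v v') := by
  have hSt : ∀ v, HL k (St Bad T LP v) := fun v => HL.iSup fun u => (hB v u).mul (hLP u)
  have hEn : HL k (En Bad T RQ v') := HL.iSup fun u => (hRQ u).mul (hB u v')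
  have hK : HL k (Kw Bad T LP RQ) := HL.iSup fun u => (hRQ u).mul (hSt u)
  have hLam : HL (k + 1) (Lam Bad T LP RQ v v') :=
    ((hB v v').mono (Nat.le_succ k)).sup (((hSt v).mono (Nat.le_succ k)).mul
      (hK.star.mul (hEn.mono (Nat.le_succ k))))
  refine HL.congr hLam (fun w => ⟨?_, lam_sound hBX hs⟩)
  rintro ⟨L, hL, rfl, h⟩
  have := lam_complete hc L hL v
  rwa [h] at this

/-- difference of two runs, block form -/
theorem fold_diff' [AddCommGroup V] {S : Type} [Monoid S] (act : V → S → V)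
    (hadd : ∀ x y s, act (x + y) s = act x s + act y s) (hone : ∀ x, act x 1 = x)
    (hmul : ∀ x s t, act x (s * t) = act (act x s) t)
    (psi : List α → S) (nu : List α → V) (L : List (List α)) (x y : V) :
    L.foldl (fun v X => act v (psi X) + nu X) (x + y) =
      act x (L.map psi).prod + L.foldl (fun v X => act v (psi X) + nu X) y := by
  induction L generalizing x y with
  | nil => simp [hone]
  | cons X L ih =>
    rw [List.foldl_cons, List.foldl_cons, List.map_cons, List.prod_cons, hmul, hadd, add_assoc,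
      ih]

/-- **reading**, block form: `psi` is any function on blocks -/
theorem read_HL' [AddCommGroup V] [Finite V] {S : Type} [Monoid S] (act : V → S → V)
    (hadd : ∀ x y s, act (x + y) s = act x s + act y s) (hone : ∀ x, act x 1 = x)
    (hmul : ∀ x s t, act x (s * t) = act (act x s) t)
    (hfaith : ∀ s t, (∀ x, act x s = act x t) → s = t)
    (psi : List α → S) (nu : List α → V) {CC : Language α} (hCC : ([] : List α) ∉ CC)
    (hpc : ∀ X ∈ CC, ∀ Y ∈ CC, X <+: Y → X = Y)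
    (hB : ∀ v v', HL k (Bl CC (fun v X => act v (psi X) + nu X) v v')) (s : S) :
    HL k {w | ∃ L : List (List α), (∀ X ∈ L, X ∈ CC) ∧ w = L.flatten ∧ (L.map psi).prod = s} := by
  classical
  set T : V → List α → V := fun v X => act v (psi X) + nu X with hT
  refine HL.congr (M := ⨅ x : V, ⨆ y : V, Bl CC T 0 y ⊓ Bl CC T x (act x s + y))
    (HL.iInf fun x => HL.iSup fun y => (hB 0 y).inf (hB x _)) ?_
  intro w
  rw [mem_iInf]
  refine Iff.symm ?_
  constructor
  · intro h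
    obtain ⟨y, ⟨L, hL, e, hy⟩, _⟩ := mem_iSup.1 (h 0)
    refine ⟨L, hL, e, hfaith _ _ fun x => ?_⟩
    obtain ⟨y', ⟨L1, hL1, e1, hy1⟩, ⟨L2, hL2, e2, hy2⟩⟩ := mem_iSup.1 (h x)
    have h1 : L = L1 := parse_unique hCC hpc L L1 hL hL1 (e.symm.trans e1)
    have h12 : L = L2 := parse_unique hCC hpc L L2 hL hL2 (e.symm.trans e2)
    subst h1
    subst h12
    have := fold_diff' act hadd hone hmul psi nu L x 0
    rw [add_zero] at this
    have h3 : act x (L.map psi).prod + y' = act x s + y' := by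
      rw [← hy2, ← hy1]
      exact this.symm
    exact add_right_cancel h3
  · rintro ⟨L, hL, e, hs⟩ x
    refine mem_iSup.2 ⟨L.foldl T 0, ⟨L, hL, e, rfl⟩, ⟨L, hL, e, ?_⟩⟩
    have := fold_diff' act hadd hone hmul psi nu L x 0
    rw [add_zero, hs] at this
    exact this

/-- the maps `V → V` as a monoid acting on the right -/
abbrev Mp (V : Type) := (Function.End V)ᵐᵒᵖ

theorem mp_prod (T : V → List α → V) (L : List (List α)) (v : V) :
    (L.map (fun X => (MulOpposite.op (fun v => T v X) : Mp V))).prod.unop v = L.foldl T v := by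
  induction L generalizing v with
  | nil => rfl
  | cons X L ih =>
    rw [List.map_cons, List.prod_cons, List.foldl_cons, ← ih, MulOpposite.unop_mul]
    rfl

/-- **CORE ⟹ HALF 1** -/
theorem core_half1 {V V2 : Type} [AddCommGroup V] [Finite V] [AddCommGroup V2] [Finite V2]
    {S : Type} [Monoid S] [Finite S] (act : V → S → V)
    (hadd : ∀ x y s, act (x + y) s = act x s + act y s) (hone : ∀ x, act x 1 = x)
    (hmul : ∀ x s t, act x (s * t) = act (act x s) t)
    (hfaith : ∀ s t, (∀ x, act x s = act x t) → s = t)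
    (phi : List α → S) (hphi1 : phi [] = 1) (hphim : ∀ u v, phi (u ++ v) = phi u * phi v)
    (nu1 : List α → V) (XX Bad : Language α) (L1 R1 : V → Language α)
    (hXnil : ([] : List α) ∉ XX) (hpc : ∀ X ∈ XX, ∀ Y ∈ XX, X <+: Y → X = Y)
    (hBX : ∀ X ∈ Bad, X ∈ XX) (hBad : HL 0 Bad)
    (hL1 : ∀ v, HL 1 (L1 v)) (hR1 : ∀ v, HL 1 (R1 v))
    (sound1 : ∀ v u, ∀ P ∈ L1 v, ∀ Q ∈ R1 u, P ++ Q ∈ XX ∧ u = act v (phi (P ++ Q)) + nu1 (P ++ Q))
    (complete1 : ∀ X ∈ XX, X ∈ Bad ∨ ∀ v, ∃ P Q, X = P ++ Q ∧ P ∈ L1 v ∧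
      Q ∈ R1 (act v (phi X) + nu1 X))
    -- scheme 2 on `Bad`
    (act2 : V2 → Mp V → V2)
    (hadd2 : ∀ x y s, act2 (x + y) s = act2 x s + act2 y s) (hone2 : ∀ x, act2 x 1 = x)
    (hmul2 : ∀ x s t, act2 x (s * t) = act2 (act2 x s) t)
    (hfaith2 : ∀ s t, (∀ x, act2 x s = act2 x t) → s = t)
    (nu2 : List α → V2) (L2 R2 : V2 → Language α)
    (hL2 : ∀ v, HL 0 (L2 v)) (hR2 : ∀ v, HL 0 (R2 v))
    (hlen2 : ∀ v, ∀ P ∈ L2 v, ∀ X ∈ Bad, P.length ≤ X.length) (hRnil2 : ∀ u, [] ∉ R2 u)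
    (complete2 : ∀ X ∈ Bad, ∀ v, ∃ P Q, X = P ++ Q ∧ P ∈ L2 v ∧
      Q ∈ R2 (act2 v (MulOpposite.op (fun x => act x (phi X) + nu1 X)) + nu2 X))
    (sound2 : ∀ v u, ∀ P ∈ L2 v, ∀ R, P ++ R ∈ Bad → ∀ Q ∈ R2 u, ∀ L : List (List α),
      (∀ X ∈ L, X ∈ Bad) → Q <+: R ++ L.flatten →
      Q = R ∧ u = act2 v (MulOpposite.op (fun x => act x (phi (P ++ R)) + nu1 (P ++ R))) +
        nu2 (P ++ R))
    -- the class of words
    (G : Language α) (hG : HL 2 G) (E : Set (List α)) (hE : E.Finite)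
    (hdec : ∀ w ∈ G, ∃ M ∈ XX∗, ∃ e ∈ E, w = M ++ e) (s : S) :
    HL 2 {w | w ∈ G ∧ phi w = s} := by
  classical
  have hBnil : ([] : List α) ∉ Bad := fun h => hXnil (hBX _ h)
  have hBpc : ∀ X ∈ Bad, ∀ Y ∈ Bad, X <+: Y → X = Y := fun X hX Y hY =>
    hpc X (hBX X hX) Y (hBX Y hY)
  set T1 : V → List α → V := fun v X => act v (phi X) + nu1 X with hT1
  set psi1 : List α → Mp V := fun X => MulOpposite.op (fun x => T1 x X) with hpsi1
  have h2 : ∀ v v', HL 1 (Bl Bad (fun v X => act2 v (psi1 X) + nu2 X) v v') := fun v v' =>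
    bl_HL hBad hL2 hR2 hlen2 hRnil2 hBnil (fun X hX v => complete2 X hX v) sound2 v v'
  have h3 : ∀ t : Mp V, HL 1 {w | ∃ L : List (List α), (∀ X ∈ L, X ∈ Bad) ∧ w = L.flatten ∧
      (L.map psi1).prod = t} := fun t =>
    read_HL' act2 hadd2 hone2 hmul2 hfaith2 psi1 nu2 hBnil hBpc h2 t
  have hfin : Finite (Mp V) := by
    have : Finite (Function.End V) := inferInstanceAs (Finite (V → V))
    exact Finite.of_injective MulOpposite.unop MulOpposite.unop_injective
  have h4 : ∀ v v', HL 1 (Bl Bad T1 v v') := by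
    intro v v'
    refine HL.congr (M := ⨆ t : {t : Mp V // t.unop v = v'}, ({w | ∃ L : List (List α),
      (∀ X ∈ L, X ∈ Bad) ∧ w = L.flatten ∧ (L.map psi1).prod = t.1} : Language α))
      (HL.iSup fun t => h3 t.1) ?_
    intro w
    refine Iff.trans ?_ mem_iSup.symm
    constructor
    · rintro ⟨L, hL, e, h⟩
      exact ⟨⟨(L.map psi1).prod, by rw [hpsi1, mp_prod]; exact h⟩, L, hL, e, rfl⟩
    · rintro ⟨⟨t, ht⟩, L, hL, e, h⟩
      refine ⟨L, hL, e, ?_⟩
      rw [← mp_prod T1 L v]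
      change (L.map psi1).prod.unop v = v'
      rw [h]
      exact ht
  have h5 : ∀ v v', HL 2 (Bl XX T1 v v') := fun v v' =>
    lam_HL h4 hL1 hR1 hBX sound1 complete1 v v'
  have h6 : ∀ t : S, HL 2 {w | w ∈ XX∗ ∧ phi w = t} := fun t =>
    read_HL act hadd hone hmul hfaith phi hphi1 hphim nu1 hXnil hpc h5 t
  have hfinE : Finite E := hE
  have h7 : ∀ e : List α, HL 2 ({w | w ∈ XX∗ ∧ phi w * phi e = s} : Language α) := by
    intro e
    refine HL.congr (M := ⨆ t : {t : S // t * phi e = s}, ({w | w ∈ XX∗ ∧ phi w = t.1} :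
      Language α)) (HL.iSup fun t => h6 t.1) ?_
    intro w
    refine Iff.trans ?_ mem_iSup.symm
    constructor
    · rintro ⟨h1, h2⟩
      exact ⟨⟨phi w, h2⟩, h1, rfl⟩
    · rintro ⟨⟨t, ht⟩, h1, h2⟩
      refine ⟨h1, ?_⟩
      change phi w * phi e = s
      have h3 : phi w = t := h2
      rw [h3]
      exact ht
  let N : List α → Language α := fun e => {w | w ∈ XX∗ ∧ phi w * phi e = s}
  have h8 : ∀ e, HL 2 (N e) := h7
  refine HL.congr (M := G ⊓ ⨆ e : E, (N e.1 * ({e.1} : Language α)))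
    (hG.inf (iSup_HL fun e => (h8 e.1).mul (HL.word e.1))) ?_
  intro w
  constructor
  · rintro ⟨h1, h2⟩
    obtain ⟨M, hM, e, he, rfl⟩ := hdec w h1
    refine ⟨h1, mem_iSup'.2 ⟨⟨e, he⟩, Language.mem_mul.2 ⟨M, ⟨hM, ?_⟩, e, rfl, rfl⟩⟩⟩
    change phi M * phi e = s
    rw [← hphim]
    exact h2
  · rintro ⟨h1, h2⟩
    obtain ⟨⟨e, he⟩, hw⟩ := mem_iSup'.1 h2
    obtain ⟨M, ⟨hM, hs⟩, e', he', rfl⟩ := Language.mem_mul.1 hw
    have : e' = e := he'
    subst this
    refine ⟨h1, ?_⟩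
    change phi (M ++ e') = s
    rw [hphim]
    exact hs

end Crest.Agent.R320.Core_603
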