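import Crest.Agent.R320.Star_903

/-!
Row 320 (S0495), BOX C in the one-run form (118 #13043 + 570 #12994 + 903's nested star theorem).

`Core act phi G`: a wall scheme with two kinds of cuts on the texts of a factor closed class `G`.
State = (text since the anchor, shorter than `Bm`; token at the anchor).  The anchor is moved lazily: as
soon as `Bm` letters since the anchor are read, it moves to `N u` and the token becomes `A v u`.
`half1`: then `{w | G w ∧ phi w = s}` has height `2` (as soon as `G` has).
-/

set_option autoImplicit false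

namespace Crest.Agent.R320.Core_649

open Crest.RegLang Crest.Agent.R320.Hgt1_903 Crest.Agent.R320.Star_903

variable {α S V : Type*}

/-- the product of a word -/
def ph [Monoid S] (phi : α → S) (w : List α) : S := (w.map phi).prod

theorem ph_append [Monoid S] (phi : α → S) (u w : List α) :
    ph phi (u ++ w) = ph phi u * ph phi w := by
  simp [ph]

/-- Two kinds of cuts on one chain (all that is needed of the wall schemes). -/
structure Core [Monoid S] [AddCommGroup V] (act : V → S → V) (phi : α → S)
    (G : List α → Prop) where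
  (Bm D1 D2 q p Lc1 Lc2 : ℕ)
  /-- next anchor, read on the first `Bm` letters from the anchor -/
  N : List α → ℕ
  /-- zone map, read on the first `Bm` letters from the anchor -/
  A : V → List α → V
  nu : List α → V
  /-- the zone (read in the text from the anchor) is bad for scheme 1 -/
  Bad : List α → Prop
  L1 : List α → V → Prop
  L2 : List α → V → Prop
  R1 : List α → Option (ℕ × V)
  R2 : List α → Option (ℕ × V)
  hBm : 0 < Bm
  hBD1 : Bm ≤ D1
  hBD2 : Bm ≤ D2
  hLD : Lc1 ≤ D2
  hN0 : ∀ u, u.length = Bm → 0 < N u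
  hN1 : ∀ u, u.length = Bm → N u ≤ Bm
  hq : ∀ u, G u → u.length = Bm → Bm ≤ N u + q
  aff : ∀ v u, u.length = Bm → A v u = act v (ph phi (u.take (N u))) + nu u
  l1q : q ≤ p
  l1a : ∀ u v, L1 u v → p ≤ u.length
  l1b : ∀ u v, L1 u v → u.length < Bm
  l2a : ∀ u v, L2 u v → q ≤ u.length
  l2b : ∀ u v, L2 u v → u.length ≤ p
  l2c : ∀ u v, L2 u v → u.length < Bm
  /-- scheme 1 is exact on the class -/
  sc1 : ∀ u v r b c, G (u ++ r) → L1 u v → r.length = D1 → R1 r = some (b, c) →
    N ((u ++ r).take Bm) = u.length + b ∧ A v ((u ++ r).take Bm) = c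
  /-- scheme 2 is exact on bad zones -/
  sc2 : ∀ u v r b c, G (u ++ r) → Bad (u ++ r) → L2 u v → r.length = D2 → R2 r = some (b, c) →
    N ((u ++ r).take Bm) = u.length + b ∧ A v ((u ++ r).take Bm) = c
  /-- scheme 1 cuts every token in every zone which is not bad -/
  cp1 : ∀ X, Lc1 ≤ X.length → G X → ¬ Bad X → ∀ v, ∃ u r s, X = u ++ (r ++ s) ∧ r.length = D1 ∧
    L1 u v ∧ (R1 r).isSome
  /-- scheme 2 cuts every token in every bad zone -/
  cp2 : ∀ X, Lc2 ≤ X.length → G X → Bad X → ∀ v, ∃ u r s, X = u ++ (r ++ s) ∧ r.length = D2 ∧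
    L2 u v ∧ (R2 r).isSome

variable [Monoid S] [AddCommGroup V] {act : V → S → V} {phi : α → S} {G : List α → Prop}

open Classical in
/-- raw letter step -/
noncomputable def d0 (K : Core act phi G) (x : List α × V) (c : α) : List α × V :=
  if (x.1 ++ [c]).length < K.Bm then (x.1 ++ [c], x.2)
  else ((x.1 ++ [c]).drop (K.N (x.1 ++ [c])), K.A x.2 (x.1 ++ [c]))

/-- raw run -/
noncomputable def r0 (K : Core act phi G) (x : List α × V) (w : List α) : List α × V :=
  w.foldl (d0 K) x

theorem r0_nil (K : Core act phi G) (x : List α × V) : r0 K x [] = x := rfl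

theorem r0_append (K : Core act phi G) (x : List α × V) (u w : List α) :
    r0 K x (u ++ w) = r0 K (r0 K x u) w := by
  unfold r0; rw [List.foldl_append]

theorem r0_single (K : Core act phi G) (x : List α × V) (c : α) : r0 K x [c] = d0 K x c := rfl

theorem d0_lt (K : Core act phi G) (x : List α × V) (c : α) (h : x.1.length < K.Bm) :
    (d0 K x c).1.length < K.Bm := by
  unfold d0
  split
  · assumption
  · rename_i h'
    have h1 : (x.1 ++ [c]).length = K.Bm := by
      simp only [List.length_append, List.length_singleton] at h' ⊢; omega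
    have h2 := K.hN0 _ h1
    have h3 := K.hBm
    simp only [List.length_drop]
    omega

theorem r0_lt (K : Core act phi G) (w : List α) : ∀ (x : List α × V), x.1.length < K.Bm →
    (r0 K x w).1.length < K.Bm := by
  induction w with
  | nil => intro x h; exact h
  | cons c w ih =>
    intro x h
    exact ih _ (d0_lt K x c h)

/-- no move of the anchor -/
theorem r0_short (K : Core act phi G) (w : List α) : ∀ (u : List α) (v : V),
    (u ++ w).length < K.Bm → r0 K (u, v) w = (u ++ w, v) := by
  induction w with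
  | nil => intro u v _; rw [r0_nil, List.append_nil]
  | cons c w ih =>
    intro u v h
    have e : u ++ c :: w = (u ++ [c]) ++ w := by simp
    rw [e] at h ⊢
    have h1 : (u ++ [c]).length < K.Bm := by
      rw [List.length_append] at h; omega
    have h2 : r0 K (u, v) (c :: w) = r0 K (d0 K (u, v) c) w := rfl
    have h3 : d0 K (u, v) c = (u ++ [c], v) := by
      unfold d0; rw [if_pos h1]
    rw [h2, h3, ih _ _ h]

/-- the first move of the anchor -/
theorem r0_move (K : Core act phi G) (w : List α) : ∀ (u : List α) (v : V),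
    u.length < K.Bm → K.Bm ≤ (u ++ w).length →
    r0 K (u, v) w = r0 K (((u ++ w).take K.Bm).drop (K.N ((u ++ w).take K.Bm)),
      K.A v ((u ++ w).take K.Bm)) (w.drop (K.Bm - u.length)) := by
  induction w with
  | nil => intro u v h h'; rw [List.append_nil] at h'; omega
  | cons c w ih =>
    intro u v h h'
    have e : u ++ c :: w = (u ++ [c]) ++ w := by simp
    have h2 : r0 K (u, v) (c :: w) = r0 K (d0 K (u, v) c) w := rfl
    by_cases h1 : (u ++ [c]).length < K.Bm
    · have h3 : d0 K (u, v) c = (u ++ [c], v) := by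
        unfold d0; rw [if_pos h1]
      rw [h2, h3, ih _ _ h1 (by rw [← e]; exact h'), ← e]
      congr 1
      have h4 : K.Bm - u.length = (K.Bm - (u ++ [c]).length) + 1 := by
        simp only [List.length_append, List.length_singleton] at h1 ⊢; omega
      rw [h4, List.drop_succ_cons]
    · have h3 : d0 K (u, v) c = ((u ++ [c]).drop (K.N (u ++ [c])), K.A v (u ++ [c])) := by
        unfold d0; rw [if_neg h1]
      have h5 : (u ++ [c]).length = K.Bm := by
        simp only [List.length_append, List.length_singleton] at h1 ⊢; omega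
      have h6 : (u ++ c :: w).take K.Bm = u ++ [c] := by
        rw [e, ← h5, List.take_left']
        rfl
      have h7 : K.Bm - u.length = 1 := by
        simp only [List.length_append, List.length_singleton] at h5; omega
      rw [h2, h3, h6, h7]
      rfl

theorem d0_suffix (K : Core act phi G) (x : List α × V) (c : α) :
    (d0 K x c).1 <:+ x.1 ++ [c] := by
  unfold d0
  split
  · exact List.suffix_refl _
  · exact List.drop_suffix _ _

theorem r0_suffix (K : Core act phi G) (w : List α) : ∀ (x : List α × V),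
    (r0 K x w).1 <:+ x.1 ++ w := by
  induction w with
  | nil => intro x; rw [r0_nil, List.append_nil]
  | cons c w ih =>
    intro x
    have h2 : r0 K x (c :: w) = r0 K (d0 K x c) w := rfl
    rw [h2]
    refine (ih _).trans ?_
    obtain ⟨t, ht⟩ := d0_suffix K x c
    refine ⟨t, ?_⟩
    rw [← List.append_assoc, ht]
    simp

/-- the cut of a scheme which knows the next anchor and the token there -/
theorem r0_cut (K : Core act phi G) (u r : List α) (v c : V) (b : ℕ) (hu : u.length < K.Bm)
    (hr : K.Bm ≤ r.length) (hN : K.N ((u ++ r).take K.Bm) = u.length + b)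
    (hA : K.A v ((u ++ r).take K.Bm) = c) :
    r0 K (u, v) r = r0 K ([], c) (r.drop b) := by
  have hl : ((u ++ r).take K.Bm).length = K.Bm := by
    rw [List.length_take, List.length_append]; omega
  have h0 := K.hN0 _ hl
  have h1 := K.hN1 _ hl
  rw [hN] at h0 h1
  rw [r0_move K r u v hu (by rw [List.length_append]; omega), hN, hA]
  have e1 : ((u ++ r).take K.Bm).drop (u.length + b) = (r.drop b).take (K.Bm - u.length - b) := by
    rw [List.drop_take, List.drop_append]
    have : K.Bm - (u.length + b) = K.Bm - u.length - b := by omega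
    rw [this]
    congr 1
    rw [List.drop_eq_nil_of_le (by omega : u.length ≤ u.length + b), List.nil_append]
    congr 1
    omega
  rw [e1]
  have e2 : r.drop (K.Bm - u.length) = (r.drop b).drop (K.Bm - u.length - b) := by
    rw [List.drop_drop]; congr 1; omega
  rw [e2]
  conv_rhs => rw [← List.take_append_drop (K.Bm - u.length - b) (r.drop b), r0_append]
  congr 1
  rw [r0_short K _ [] c (by rw [List.nil_append, List.length_take]; omega), List.nil_append]

/-! ### The finite automaton -/

/-- states -/
abbrev Th (K : Core act phi G) := {x : List α × V // x.1.length < K.Bm}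

instance [Finite α] [Finite V] (K : Core act phi G) : Finite (Th K) := by
  have h1 : Set.Finite {u : List α | u.length < K.Bm} := List.finite_length_lt α K.Bm
  have h2 : Set.Finite {x : List α × V | x.1.length < K.Bm} := by
    have : {x : List α × V | x.1.length < K.Bm} = {u : List α | u.length < K.Bm} ×ˢ Set.univ := by
      ext x; simp
    rw [this]
    exact h1.prod Set.finite_univ
  exact h2.to_subtype

/-- letter step on the finite states -/
noncomputable def dl (K : Core act phi G) (x : Th K) (c : α) : Th K :=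
  ⟨d0 K x.1 c, d0_lt K x.1 c x.2⟩

theorem run_val (K : Core act phi G) (w : List α) : ∀ (x : Th K),
    (run (dl K) x w).1 = r0 K x.1 w := by
  induction w with
  | nil => intro x; rfl
  | cons c w ih => intro x; exact ih _

/-- start state -/
def ini (K : Core act phi G) (v : V) : Th K := ⟨([], v), K.hBm⟩

/-- right reading -/
noncomputable def rho (K : Core act phi G) (R : List α → Option (ℕ × V)) (r : List α) :
    Option (Th K) :=
  (R r).map fun x => run (dl K) (ini K x.2) (r.drop x.1)

theorem rho_isSome (K : Core act phi G) (R : List α → Option (ℕ × V)) (r : List α) :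
    (rho K R r).isSome = (R r).isSome := by
  unfold rho; simp

/-- the class -/
def Cl (K : Core act phi G) (x : Th K) (w : List α) : Prop := G (x.1.1 ++ w)

theorem cut_sound (K : Core act phi G) (R : List α → Option (ℕ × V)) (x : Th K) (r : List α)
    (y : Th K) (hr : K.Bm ≤ r.length) (hy : rho K R r = some y)
    (h : ∀ b c, R r = some (b, c) → K.N ((x.1.1 ++ r).take K.Bm) = x.1.1.length + b ∧
      K.A x.1.2 ((x.1.1 ++ r).take K.Bm) = c) : run (dl K) x r = y := by
  unfold rho at hy
  rw [Option.map_eq_some_iff] at hy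
  obtain ⟨⟨b, c⟩, h1, h2⟩ := hy
  obtain ⟨h3, h4⟩ := h b c h1
  rw [← h2]
  apply Subtype.ext
  rw [run_val, run_val]
  exact r0_cut K x.1.1 r x.1.2 c b x.2 hr h3 h4

theorem Uncut.suffix {Θ : Type*} {δ : Θ → α → Θ} {CutL : Θ → Prop} {D : ℕ}
    {ρ : List α → Option Θ} {θ : Θ} {u v : List α} (h : Uncut δ CutL D ρ θ (u ++ v)) :
    Uncut δ CutL D ρ (run δ θ u) v := by
  intro p r s e hc
  refine h (u ++ p) r s (by rw [← e]; simp [List.append_assoc]) ⟨hc.1, ?_, hc.2.2⟩
  rw [run_append]; exact hc.2.1

/-- Uncut words contain no cut of the scheme. -/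
theorem no_cut (K : Core act phi G) {L : List α → V → Prop} {D : ℕ}
    {R : List α → Option (ℕ × V)} {x : Th K} {w : List α}
    (h : Uncut (dl K) (fun x => L x.1.1 x.1.2) D (rho K R) x w)
    {y r s : List α} (e : w = y ++ (r ++ s)) (hr : r.length = D)
    (hL : L (r0 K x.1 y).1 (r0 K x.1 y).2) (hR : (R r).isSome) : False := by
  refine h y r s (by rw [e]; simp [List.append_assoc]) ⟨hr, ?_, ?_⟩
  · show L (run (dl K) x y).1.1 (run (dl K) x y).1.2
    rw [run_val]; exact hL
  · rw [rho_isSome]; exact hR

theorem rc2 [Finite α] [Finite V] (K : Core act phi G)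
    (hG : ∀ u w, u <:+: w → G w → G u) : RC 2 (dl K) (Cl K) := by
  classical
  have pre : ∀ (θ : Th K) u v, Cl K θ (u ++ v) → Cl K θ u := fun θ u v h =>
    hG _ _ ⟨[], v, by simp⟩ h
  have suf : ∀ (θ : Th K) u v, Cl K θ (u ++ v) → Cl K (run (dl K) θ u) v := fun θ u v h => by
    unfold Cl at h ⊢
    rw [run_val]
    obtain ⟨t, ht⟩ := r0_suffix K u θ.1
    refine hG _ _ ⟨t, [], ?_⟩ h
    rw [List.append_nil, ← List.append_assoc, ht, List.append_assoc]
  refine nested (dl K) (Cl K) pre suf (fun x => K.L1 x.1.1 x.1.2) K.D1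
    (lt_of_lt_of_le K.hBm K.hBD1) (rho K K.R1) ?_ ?_
  · intro θ r θ' hc hL hr hρ
    exact cut_sound K K.R1 θ r θ' (by rw [hr]; exact K.hBD1) hρ
      fun b c h => K.sc1 _ _ r b c hc hL hr h
  refine nested (dl K) _ ?_ ?_ (fun x => K.L2 x.1.1 x.1.2) K.D2
    (lt_of_lt_of_le K.hBm K.hBD2) (rho K K.R2) ?_ ?_
  · rintro θ u v ⟨h1, h2⟩
    exact ⟨pre θ u v h1, h2.prefix⟩
  · rintro θ u v ⟨h1, h2⟩
    exact ⟨suf θ u v h1, Uncut.suffix h2⟩
  · rintro θ r θ' ⟨hc, hu⟩ hL hr hρ
    refine cut_sound K K.R2 θ r θ' (by rw [hr]; exact K.hBD2) hρ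
      fun b c h => K.sc2 _ _ r b c hc ?_ hL hr h
    by_contra hb
    obtain ⟨u', r', s', e, hr', hL', hR'⟩ := K.cp1 (θ.1.1 ++ r)
      (by rw [List.length_append, hr]; have := K.hLD; omega) hc hb θ.1.2
    have hle : θ.1.1.length ≤ u'.length := (K.l2b _ _ hL).trans (K.l1a _ _ hL')
    have hpre : θ.1.1 <+: u' := by
      refine List.prefix_of_prefix_length_le (l₃ := θ.1.1 ++ r) ⟨r, rfl⟩ ⟨r' ++ s', e.symm⟩ hle
    obtain ⟨y, hy⟩ := hpre
    have e2 : r = y ++ (r' ++ s') := by
      rw [← hy, List.append_assoc] at e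
      exact List.append_cancel_left e
    have h5 : r0 K θ.1 y = (u', θ.1.2) := by
      have := r0_short K y θ.1.1 θ.1.2 (by rw [hy]; exact K.l1b _ _ hL')
      rw [hy] at this
      exact this
    exact no_cut K hu e2 hr' (by rw [h5]; exact hL') hR'
  · refine RC.bounded 0 (K.Bm + K.Bm + K.Lc1 + K.Lc2) ?_
    rintro θ w ⟨⟨hc, hu1⟩, hu2⟩
    by_contra hlen
    push Not at hlen
    have hθ := θ.2
    have hl : ((θ.1.1 ++ w).take K.Bm).length = K.Bm := by
      rw [List.length_take, List.length_append]; omega
    have hN0 := K.hN0 _ hl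
    have hN1 := K.hN1 _ hl
    have hGu : G ((θ.1.1 ++ w).take K.Bm) := hG _ _ (List.take_prefix _ _).isInfix hc
    have hq := K.hq _ hGu hl
    set u1 := (θ.1.1 ++ w).take K.Bm with hu1def
    set b := K.N u1 with hb
    set v' := K.A θ.1.2 u1 with hv'
    have hmove : r0 K θ.1 (w.take (K.Bm - θ.1.1.length)) = (u1.drop b, v') := by
      have e0 : θ.1.1 ++ w.take (K.Bm - θ.1.1.length) = u1 := by
        rw [hu1def, List.take_append, List.take_of_length_le (by omega : θ.1.1.length ≤ K.Bm)]
      have := r0_move K (w.take (K.Bm - θ.1.1.length)) θ.1.1 θ.1.2 hθ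
        (by rw [e0, hl])
      have h9 : u1.take K.Bm = u1 := List.take_of_length_le (le_of_eq hl)
      rw [e0, h9] at this
      have h10 : (w.take (K.Bm - θ.1.1.length)).drop (K.Bm - θ.1.1.length) = [] :=
        List.drop_eq_nil_of_le (by rw [List.length_take]; exact Nat.min_le_left _ _)
      rw [h10, r0_nil] at this
      exact this
    -- the text from the new anchor
    have hX : (θ.1.1 ++ w).drop b = u1.drop b ++ w.drop (K.Bm - θ.1.1.length) := by
      have e1 : θ.1.1 ++ w = u1 ++ w.drop (K.Bm - θ.1.1.length) := by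
        conv_lhs => rw [← List.take_append_drop K.Bm (θ.1.1 ++ w)]
        rw [← hu1def]
        congr 1
        rw [List.drop_append, List.drop_eq_nil_of_le (by omega : θ.1.1.length ≤ K.Bm),
          List.nil_append]
      conv_lhs => rw [e1]
      rw [List.drop_append_of_le_length (by rw [hl]; exact hN1)]
    have hGX : G ((θ.1.1 ++ w).drop b) := hG _ _ (List.drop_suffix _ _).isInfix hc
    have hXl : K.Lc1 + K.Lc2 ≤ ((θ.1.1 ++ w).drop b).length := by
      rw [List.length_drop, List.length_append]; omega
    -- a legal place at distance at least q is visited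
    have key : ∀ (L : List α → V → Prop) (D : ℕ) (R : List α → Option (ℕ × V)),
        (∀ u v, L u v → K.q ≤ u.length) → (∀ u v, L u v → u.length < K.Bm) →
        Uncut (dl K) (fun x => L x.1.1 x.1.2) D (rho K R) θ w →
        (∃ u r s, (θ.1.1 ++ w).drop b = u ++ (r ++ s) ∧ r.length = D ∧ L u v' ∧ (R r).isSome) →
        False := by
      rintro L D R hLq hLB hunc ⟨u', r', s', e, hr', hL', hR'⟩
      have hle : (u1.drop b).length ≤ u'.length := by
        have := hLq _ _ hL'
        rw [List.length_drop, hl]; omega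
      have hpre : u1.drop b <+: u' := by
        refine List.prefix_of_prefix_length_le (l₃ := (θ.1.1 ++ w).drop b)
          ⟨_, hX.symm⟩ ⟨r' ++ s', e.symm⟩ hle
      obtain ⟨y, hy⟩ := hpre
      have e2 : w.drop (K.Bm - θ.1.1.length) = y ++ (r' ++ s') := by
        rw [hX, ← hy, List.append_assoc] at e
        exact List.append_cancel_left e
      have e3 : w = (w.take (K.Bm - θ.1.1.length) ++ y) ++ (r' ++ s') := by
        rw [List.append_assoc, ← e2, List.take_append_drop]
      have h5 : r0 K θ.1 (w.take (K.Bm - θ.1.1.length) ++ y) = (u', v') := by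
        rw [r0_append, hmove, r0_short K y _ _ (by rw [hy]; exact hLB _ _ hL'), hy]
      exact no_cut K hunc e3 hr' (by rw [h5]; exact hL') hR'
    by_cases hbad : K.Bad ((θ.1.1 ++ w).drop b)
    · exact key K.L2 K.D2 K.R2 K.l2a K.l2c hu2 (K.cp2 _ (by omega) hGX hbad v')
    · exact key K.L1 K.D1 K.R1 (fun u v h => K.l1q.trans (K.l1a u v h)) K.l1b hu1
        (K.cp1 _ (by omega) hGX hbad v')

/-! ### Reading the product -/

theorem read_off (K : Core act phi G) (hone : ∀ v, act v 1 = v)
    (hmul : ∀ v s t, act (act v s) t = act v (s * t))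
    (hadd : ∀ v v' s, act (v + v') s = act v s + act v' s) (w : List α) :
    ∃ (w1 u : List α) (c : V), w = w1 ++ u ∧ u.length < K.Bm ∧
      ∀ v, r0 K ([], v) w = (u, act v (ph phi w1) + c) := by
  induction w using List.reverseRecOn with
  | nil =>
    refine ⟨[], [], 0, rfl, K.hBm, fun v => ?_⟩
    simp [r0_nil, ph, hone]
  | append_singleton w a ih =>
    obtain ⟨w1, u, c, rfl, hu, h⟩ := ih
    by_cases h1 : (u ++ [a]).length < K.Bm
    · refine ⟨w1, u ++ [a], c, by simp, h1, fun v => ?_⟩
      rw [r0_append, h v, r0_single]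
      unfold d0
      rw [if_pos h1]
    · have h5 : (u ++ [a]).length = K.Bm := by
        simp only [List.length_append, List.length_singleton] at h1 ⊢; omega
      have h0 := K.hN0 _ h5
      refine ⟨w1 ++ (u ++ [a]).take (K.N (u ++ [a])), (u ++ [a]).drop (K.N (u ++ [a])),
        act c (ph phi ((u ++ [a]).take (K.N (u ++ [a])))) + K.nu (u ++ [a]), ?_, ?_, fun v => ?_⟩
      · rw [List.append_assoc, List.append_assoc, List.take_append_drop]
      · rw [List.length_drop, h5]; omega
      · rw [r0_append, h v, r0_single]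
        unfold d0
        rw [if_neg h1]
        simp only
        rw [K.aff _ _ h5, hadd, hmul, ph_append, add_assoc]

theorem half1 [Finite α] [Finite V] [Finite S] (K : Core act phi G)
    (hG : ∀ u w, u <:+: w → G w → G u) (hGH : H 2 ({w | G w} : Language α))
    (hone : ∀ v, act v 1 = v)
    (hmul : ∀ v s t, act (act v s) t = act v (s * t))
    (hadd : ∀ v v' s, act (v + v') s = act v s + act v' s)
    (hfaith : ∀ s t, (∀ v, act v s = act v t) → s = t) (s : S) :
    H 2 ({w | G w ∧ ph phi w = s} : Language α) := by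
  classical
  obtain ⟨R, hR, hs⟩ := rc2 K hG
  have h0 : ∀ t, act 0 t = 0 := fun t => by
    have := hadd 0 0 t
    rw [add_zero] at this
    exact left_eq_add.mp this
  let P : (V → Th K) → Prop := fun f => ∃ (t : S) (u : List α), (∀ v, (f v).1.1 = u) ∧
    (∀ v, (f v).1.2 = act v t + (f 0).1.2) ∧ t * ph phi u = s
  have hL : H 2 ({w | ∃ f : V → Th K, w ∈ ({w | w ∈ ({_w | P f} : Language α) ∧
      w ∈ ({w | ∀ v, w ∈ R (ini K v) (f v)} : Language α)} : Language α)} : Language α) :=
    H.exists_fintype _ fun f => H.inter (H.const 2 _) (H.forall_fintype _ fun v => hR _ _)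
  refine (H.inter hGH hL).congr fun w => ?_
  constructor
  · rintro ⟨hGw, f, ⟨t, u, h1, h2, h3⟩, hf⟩
    refine ⟨hGw, ?_⟩
    obtain ⟨w1, u0, c, e, -, h⟩ := read_off K hone hmul hadd w
    have hrun : ∀ v, (f v).1 = (u0, act v (ph phi w1) + c) := fun v => by
      have h4 := (hs (ini K v) w (show G ([] ++ w) from hGw) (f v)).1 (hf v)
      rw [← h4, run_val]
      exact h v
    have hu : u = u0 := by rw [← h1 0, hrun 0]
    have ht : t = ph phi w1 := hfaith _ _ fun v => by
      have h5 := h2 v
      rw [hrun v, hrun 0] at h5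
      simp only [h0, zero_add] at h5
      exact (add_right_cancel h5).symm
    rw [e, ph_append, ← hu, ← ht]
    exact h3
  · rintro ⟨hGw, hw⟩
    refine ⟨hGw, fun v => run (dl K) (ini K v) w, ?_, fun v => ?_⟩
    · obtain ⟨w1, u0, c, e, -, h⟩ := read_off K hone hmul hadd w
      refine ⟨ph phi w1, u0, fun v => ?_, fun v => ?_, ?_⟩
      · show (run (dl K) (ini K v) w).1.1 = u0
        rw [run_val]
        exact congrArg Prod.fst (h v)
      · show (run (dl K) (ini K v) w).1.2 = act v (ph phi w1) + (run (dl K) (ini K 0) w).1.2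
        rw [run_val, run_val]
        have e1 : (r0 K (ini K v).1 w).2 = act v (ph phi w1) + c := congrArg Prod.snd (h v)
        have e2 : (r0 K (ini K 0).1 w).2 = act 0 (ph phi w1) + c := congrArg Prod.snd (h 0)
        rw [e1, e2, h0, zero_add]
      · rw [← ph_append, ← e]
        exact hw
    · exact (hs (ini K v) w (show G ([] ++ w) from hGw) _).2 rfl

end Crest.Agent.R320.Core_649
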