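import Crest.Agent.R320.Zone132_898
import Crest.Agent.R320.ExactR_237
import Crest.Agent.R320.Ruler2_537

/-!
# Row 320: the two schemes of 132 #12664 on run-free words, glue (helper671)

The four buffer statements (SC1)(CP1)(SC2)(CP2) of 131 #13123 / 50 #13160 from one parameter
structure `Prm` over `Zone132_898` (scheme 1), `ExactR_237` (scheme 2), `Ruler2_537` (spoiling),
`ThrChain_260` (thresholds).
-/

set_option autoImplicit false

namespace Crest.Agent.R320.Core_671

open Crest.Agent.R320.ThrChain260 Crest.Agent.R320.Zone132_898 Crest.Agent.R320.Ruler2_537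

variable {α S V W : Type}

/-- walls of a text at integer places -/
def Wz (r : Rule α) (y : List α) (t : ℤ) : Prop := 0 ≤ t ∧ r.R (y.drop t.toNat)

theorem Wz.le {r : Rule α} {y : List α} {t : ℤ} (h : Wz r y t) : t + r.n ≤ y.length := by
  have h1 := r.len _ h.2
  have h2 := r.pos
  have h3 := h.1
  rw [List.length_drop] at h1
  omega

theorem Wz.nn {r : Rule α} {y : List α} {t : ℤ} (h : Wz r y t) : 0 ≤ t := h.1

/-- truncation does not change walls which are visible -/
theorem Wz_take (r : Rule α) (y : List α) {t : ℤ} {k : ℕ} (h : t + r.n ≤ k) :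
    Wz r (y.take k) t ↔ Wz r y t := by
  unfold Wz
  constructor
  · rintro ⟨h0, h1⟩
    refine ⟨h0, ?_⟩
    rw [List.drop_take] at h1
    have h2 : r.n ≤ k - t.toNat := by omega
    rw [r.take_iff] at h1 ⊢
    rwa [List.take_take, min_eq_left h2] at h1
  · rintro ⟨h0, h1⟩
    refine ⟨h0, ?_⟩
    rw [List.drop_take]
    have h2 : r.n ≤ k - t.toNat := by omega
    rw [r.take_iff] at h1 ⊢
    rwa [List.take_take, min_eq_left h2]

/-- a wall of a truncated text is a wall of the text -/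
theorem Wz_of_take {r : Rule α} {y : List α} {t : ℤ} {k : ℕ} (h : Wz r (y.take k) t) :
    Wz r y t := by
  have h1 := h.le
  have h2 : (y.take k).length ≤ k := by rw [List.length_take]; omega
  exact (Wz_take r y (by omega)).1 h

/-- shift -/
theorem Wz_app (r : Rule α) (u Q : List α) {t : ℤ} (h : 0 ≤ t) :
    Wz r (u ++ Q) (t + u.length) ↔ Wz r Q t := by
  unfold Wz
  have h1 : (t + u.length).toNat = u.length + t.toNat := by omega
  rw [h1, ← List.drop_drop, List.drop_left]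
  constructor
  · rintro ⟨_, h2⟩; exact ⟨h, h2⟩
  · rintro ⟨_, h2⟩; exact ⟨by omega, h2⟩

theorem Wz_app' (r : Rule α) (u Q : List α) {t : ℤ} (h : (u.length : ℤ) ≤ t) :
    Wz r (u ++ Q) t ↔ Wz r Q (t - u.length) := by
  have := Wz_app r u Q (t := t - u.length) (by omega)
  rwa [sub_add_cancel] at this


/-! ### next anchors and truncation -/

theorem isN_take {P : Par} {r : Rule α} {T : List α} {k : ℕ} {a t : ℤ} (h : t + r.n ≤ k) :
    IsN P (Wz r (T.take k)) a t ↔ IsN P (Wz r T) a t := by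
  unfold IsN Qual
  rw [Wz_take r T h]
  constructor
  · rintro ⟨h1, h2⟩
    refine ⟨h1, fun t' ht' hq => h2 t' ht' ⟨(Wz_take r T (by omega)).2 hq.1, hq.2⟩⟩
  · rintro ⟨h1, h2⟩
    refine ⟨h1, fun t' ht' hq => h2 t' ht' ⟨Wz_of_take hq.1, hq.2⟩⟩

theorem isN_of_take {P : Par} {r : Rule α} {T : List α} {k : ℕ} {a t : ℤ}
    (h : IsN P (Wz r (T.take k)) a t) : IsN P (Wz r T) a t := by
  have h1 := h.1.1.le
  have h2 : (T.take k).length ≤ k := by rw [List.length_take]; omega
  exact (isN_take (by omega)).1 h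

/-- translation of the next anchor -/
theorem isN_app {P : Par} (r : Rule α) (u Q : List α) {a t : ℤ}
    (ha : (u.length : ℤ) ≤ a + P.z - P.S) :
    IsN P (Wz r (u ++ Q)) a t ↔ IsN P (Wz r Q) (a - u.length) (t - u.length) := by
  have hN := P.hN
  have key : ∀ t : ℤ, Qual P (Wz r (u ++ Q)) a t ↔
      Qual P (Wz r Q) (a - u.length) (t - u.length) := by
    intro t
    unfold Qual
    have e : t - u.length - (a - u.length) - P.z = t - a - P.z := by ring
    rw [e]
    constructor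
    · rintro ⟨h1, h2⟩
      have h3 := qual_ge (P := P) (⟨h1, h2⟩ : Qual P (Wz r (u ++ Q)) a t)
      exact ⟨(Wz_app' r u Q (by omega)).1 h1, h2⟩
    · rintro ⟨h1, h2⟩
      have h3 := h1.nn
      exact ⟨(Wz_app' r u Q (by omega)).2 h1, h2⟩
  unfold IsN
  rw [key t]
  constructor
  · rintro ⟨h1, h2⟩
    refine ⟨h1, fun t' ht' hq => h2 (t' + u.length) (by omega) ((key _).2 ?_)⟩
    rwa [add_sub_cancel_right]
  · rintro ⟨h1, h2⟩
    exact ⟨h1, fun t' ht' hq => h2 (t' - u.length) (by omega) ((key _).1 hq)⟩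

/-- parameters of the two schemes -/
structure Prm (α S V W : Type) [Monoid S] [AddCommGroup V] [AddCommGroup W] where
  P : Par
  D : Data α S V W
  ro : Rule α
  f : α → S
  hphi : ∀ w, D.phi w = (w.map f).prod
  act_add : ∀ v v' s, D.act (v + v') s = D.act v s + D.act v' s
  act_mul : ∀ v s t, D.act (D.act v s) t = D.act v (s * t)
  p0 : ℕ
  hp0 : P.p0 = p0
  hq : P.M = D.q
  hN1 : ∀ i < D.m, ((D.q * (D.lo i + D.M) : ℕ) : ℤ) ≤ P.N1
  mods : ℕ → ℤ
  nm : ℕ
  hBm : ∀ n : ℕ, D.B n ↔ ∃ i < nm, mods i ∣ (n : ℤ)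
  hN_1 : D.N1
  hN_2 : D.N2
  hN_3 : D.N3
  hHid : D.Hides
  /-- window length -/
  B : ℕ
  Gs : ℕ
  Go : ℕ
  hB : P.z + P.S + P.N1 + Go + ro.n + 1 ≤ B
  hlo : ∀ i, i < D.m → D.A i + Gs + D.r.n ≤ D.q * D.lo i
  /-- everything of scheme 1 and 2 is left of the end of the zone -/
  hz : ∀ k ≤ D.m, (p0 : ℤ) + D.A k + Gs + D.r.n + P.S + 1 ≤ P.z
  hz' : (p0 : ℤ) + P.N1 + P.S + 1 ≤ P.z
  /-- levels are right of `p0` -/
  hA : ∀ k ≤ D.m, D.q * D.M ≤ D.A k
  /-- scheme 2 -/
  K : ℕ
  c : ℕ → ℕ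
  hc : ∀ i j, i < j → j < K → c i < c j
  hcp : ∀ k < K, c k ≤ p0
  lam : ℕ → List α → Option V
  rho : ℕ → List α → S → Option V
  nu2 : List α → S → V
  exact2 : ∀ k < K, ∀ (X Q : List α) (y : S) (v b : V), X.length = c k →
    lam k X = some v → rho k Q y = some b →
      b = D.act v (((X ++ Q).map f).prod * y) + nu2 (X ++ Q) y
  compl2 : ∀ (u : List α) (y : S) (v : V), (∀ k < K, c k ≤ u.length) →
    ∃ I : Finset ℕ, (1 + (D.m + 1) + 2 * nm) + 1 ≤ I.card ∧ ∀ k ∈ I, k < K ∧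
      lam k (u.take (c k)) = some v ∧ (rho k (u.drop (c k)) y).isSome
  ruler : Ruler2 P (D.q * D.M : ℕ) mods nm ((Finset.range K).image fun k => (c k : ℤ))
  gap : ∀ y : List α, ∀ t t', Wz ro y t → Wz ro y t' → t < t' → 2 * (P.S + P.L) < t' - t
  gapS : ∀ y : List α, ∀ t t', Wz D.r y t → Wz D.r y t' → t < t' →
    2 * ((D.q * D.M : ℕ) + P.L) < t' - t

namespace Prm

variable [Monoid S] [AddCommGroup V] [AddCommGroup W] (p : Prm α S V W)

/-- badness of the anchor `o` letters left of `Q` -/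
def BadZ (o : ℕ) (Q : List α) : Prop :=
  Bad p.P (Wz p.ro Q) (Wz p.D.r Q) (fun k => (p.p0 : ℤ) + p.D.A k) (p.D.q * p.D.M : ℕ) (p.D.m + 1)
    p.mods p.nm (-(o : ℤ))

open Classical in
/-- distance from the start of `Q` to the next anchor of the anchor `o` letters left of `Q` -/
noncomputable def NN (o : ℕ) (Q : List α) : ℕ :=
  if h : ∃ t : ℤ, IsN p.P (Wz p.ro Q) (-(o : ℤ)) t then h.choose.toNat else p.B - o

noncomputable def N (y : List α) : ℕ := p.NN 0 y

/-- the noise, a function of the word of length `B` -/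
noncomputable def nu (y : List α) : V :=
  p.D.act (p.nu2 (y.take p.p0) 1) (p.D.phi ((y.take (p.N y)).drop p.p0)) +
    p.D.nu ((y.take (p.N y)).drop p.p0)

/-- the zone map -/
noncomputable def A (v : V) (y : List α) : V := p.D.act v (p.D.phi (y.take (p.N y))) + p.nu y

def L1 (u : List α) (v : V) : Prop :=
  p.p0 ≤ u.length ∧ p.D.LL (u.drop p.p0) (p.D.act v (p.D.phi (u.take p.p0)) + p.nu2 (u.take p.p0) 1)

def R1r (Q : List α) (d : ℕ) (b : V) : Prop :=
  Legal p.P (Wz p.ro Q) 0 ∧ IsB p.P (Wz p.ro Q) 0 (d : ℤ) ∧ p.D.RR (Q.take d) b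

open Classical in
noncomputable def R1 (Q : List α) : Option (ℕ × V) :=
  if h : ∃ db : ℕ × V, p.R1r Q db.1 db.2 then some h.choose else none

theorem R1_some {Q : List α} {d : ℕ} {b : V} (h : p.R1 Q = some (d, b)) : p.R1r Q d b := by
  classical
  unfold R1 at h
  split_ifs at h with h1
  have h2 : h1.choose = (d, b) := Option.some.inj h
  have h3 := h1.choose_spec
  rw [h2] at h3
  exact h3

theorem R1_isSome {Q : List α} {d : ℕ} {b : V} (h : p.R1r Q d b) : (p.R1 Q).isSome := by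
  classical
  unfold R1
  rw [dif_pos ⟨(d, b), h⟩]
  rfl

def L2 (u : List α) (v : V) : Prop := ∃ k < p.K, u.length = p.c k ∧ p.lam k u = some v

/-- right relation of scheme 2 -/
def R2r (Q : List α) (d : ℕ) (b : V) : Prop :=
  ∃ k < p.K, (∀ k' < p.K, p.BadZ (p.c k') (Q.take (p.B - p.c k')) ↔ k' = k) ∧
    d = p.NN (p.c k) (Q.take (p.B - p.c k)) ∧
    ∃ b', p.rho k (Q.take (p.p0 - p.c k)) 1 = some b' ∧
      b = p.D.act b' (p.D.phi ((Q.take d).drop (p.p0 - p.c k))) +
        p.D.nu ((Q.take d).drop (p.p0 - p.c k))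

open Classical in
noncomputable def R2 (Q : List α) : Option (ℕ × V) :=
  if h : ∃ db : ℕ × V, p.R2r Q db.1 db.2 then some h.choose else none

theorem R2_some {Q : List α} {d : ℕ} {b : V} (h : p.R2 Q = some (d, b)) : p.R2r Q d b := by
  classical
  unfold R2 at h
  split_ifs at h with h1
  have h2 : h1.choose = (d, b) := Option.some.inj h
  have h3 := h1.choose_spec
  rw [h2] at h3
  exact h3

theorem R2_isSome {Q : List α} {d : ℕ} {b : V} (h : p.R2r Q d b) : (p.R2 Q).isSome := by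
  classical
  unfold R2
  rw [dif_pos ⟨(d, b), h⟩]
  rfl

end Prm

end Crest.Agent.R320.Core_671
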