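import Crest.Agent.R320.Top5_110
import Crest.Agent.R320.ExactR_237

/-!
# Row 320: the two completeness statements of 110's semantic top, from a word gadget,
the exact gadget and a wide ruler (helper756)
-/

set_option autoImplicit false

namespace Crest.Agent.R320.Core_756

open Crest.Agent.R320.Hk_851 Crest.Agent.R320.Code110 Crest.Agent.R320.ExactR_237

variable {α S V : Type} [Monoid S] [AddCommGroup V]

/-- blocks: up to the first wall at a place `≥ z` -/
def XX (Wo : List α → Prop) (z : ℕ) : Language α :=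
  {X | z ≤ X.length ∧ Wo X ∧ ∀ t, z ≤ t → t < X.length → ¬ Wo (X.take t)}

/-- a wall near `z` -/
def EE (Wo : List α → Prop) (z N : ℕ) (X : List α) : Prop :=
  X.length < z + N ∨ ∃ t, z ≤ t + N ∧ t < z ∧ Wo (X.take t)

/-- bad blocks -/
def BB (Wo : List α → Prop) (z N p0 : ℕ) (Bt : ℕ → Prop) : Language α :=
  {X | X ∈ XX Wo z ∧ (EE Wo z N X ∨ Bt (X.length - p0))}

/-- zone maps -/
def TT (φ : List α → S) (act : V → S → V) (nu1 nu2 : List α → V) (p0 : ℕ) (u : List α) (v : V) : V :=
  act (act v (φ (u.take p0)) + nu2 (u.take p0)) (φ (u.drop p0)) + nu1 (u.drop p0)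

/-- left words of scheme 1 -/
def L1 (φ : List α → S) (act : V → S → V) (nu2 : List α → V) (p0 : ℕ)
    (lam : List α → Option V) (x : V) : Language α :=
  {p | ∃ X0 P, p = X0 ++ P ∧ X0.length = p0 ∧ lam P = some (act x (φ X0) + nu2 X0)}

/-- left words of scheme 2 -/
def L2 (K : ℕ) (c : ℕ → ℕ) (lam2 : ℕ → List α → Option V) (x : V) : Language α :=
  {p | ∃ k < K, p.length = c k ∧ lam2 k p = some x}

structure Wall (Wo : List α → Prop) (n : ℕ) : Prop where
  loc : ∀ P Q : List α, n ≤ Q.length → (Wo (P ++ Q) ↔ Wo Q)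

theorem pc_XX {Wo : List α → Prop} {z : ℕ} (hz : 0 < z) : PC (XX Wo z) := by
  constructor
  · rintro ⟨h, -⟩
    simp at h; omega
  · intro u hu v hv huv
    obtain ⟨r, rfl⟩ := huv
    by_cases hr : r = []
    · simp [hr]
    · exfalso
      have hlen : u.length < (u ++ r).length := by
        rw [List.length_append]
        have := List.length_pos_of_ne_nil hr
        omega
      have := hv.2.2 u.length hu.1 hlen
      rw [List.take_left'  rfl] at this
      exact this hu.2.1

section one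
variable {φ : List α → S} {act : V → S → V} {Wo : List α → Prop} {n z N1 p0 L0 : ℕ}
  {Bt : ℕ → Prop} {nu1 nu2 : List α → V} {lam rho : List α → Option V}

theorem take_wall (hW : Wall Wo n) {p p' q : List α} {t : ℕ} (h1 : p.length + n ≤ t) {t' : ℕ}
    (h2 : p'.length + n ≤ t') (h : t + p'.length = t' + p.length) (ht : t ≤ (p ++ q).length) :
    Wo ((p ++ q).take t) ↔ Wo ((p' ++ q).take t') := by
  rw [List.length_append] at ht
  have e1 : (p ++ q).take t = p ++ q.take (t - p.length) := by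
    rw [List.take_append, List.take_of_length_le (by omega)]
  have e2 : (p' ++ q).take t' = p' ++ q.take (t - p.length) := by
    rw [List.take_append, List.take_of_length_le (by omega)]
    congr 2; omega
  rw [e1, e2, hW.loc _ _ (by rw [List.length_take]; omega),
    hW.loc _ _ (by rw [List.length_take]; omega)]

theorem complete1 (hW : Wall Wo n)
    (hz1 : p0 + N1 + n ≤ z) (hz2 : p0 + L0 ≤ z)
    (hlam : ∀ P v, lam P = some v → P.length ≤ N1)
    (hsnd : ∀ P Q v b, lam P = some v → rho Q = some b → b = act v (φ (P ++ Q)) + nu1 (P ++ Q))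
    (hcmp : ∀ u, L0 ≤ u.length → ¬ Bt u.length → ∀ v, ∃ P Q, u = P ++ Q ∧ lam P = some v ∧
      (rho Q).isSome)
    (u : List α) (hu : u ∈ XX Wo z) (hub : u ∉ BB Wo z N1 p0 Bt) (x : V) :
    ∀ t ∈ (XX Wo z) ^ 0, ∃ p q y, u ++ t = p ++ q ∧ p ∈ L1 φ act nu2 p0 lam x ∧
      q ∈ Rsem (XX Wo z) (XX Wo z) (TT φ act nu1 nu2 p0) 0 (L1 φ act nu2 p0 lam) y := by
  intro t ht
  have ht : t = [] := by simpa using ht
  subst ht
  have hE : ¬ EE Wo z N1 u := fun h => hub ⟨hu, Or.inl h⟩
  have hB : ¬ Bt (u.length - p0) := fun h => hub ⟨hu, Or.inr h⟩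
  have hul := hu.1
  have hE1 : z + N1 ≤ u.length := by
    by_contra h; exact hE (Or.inl (by omega))
  have hE2 : ∀ t, z ≤ t + N1 → t < z → ¬ Wo (u.take t) := fun t h1 h2 h3 =>
    hE (Or.inr ⟨t, h1, h2, h3⟩)
  obtain ⟨P, Q, hPQ, hP, hQ⟩ := hcmp (u.drop p0) (by rw [List.length_drop]; omega)
    (by rw [List.length_drop]; exact hB) (act x (φ (u.take p0)) + nu2 (u.take p0))
  obtain ⟨b, hb⟩ := Option.isSome_iff_exists.1 hQ
  have hX0 : (u.take p0).length = p0 := by rw [List.length_take]; omega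
  have hu2 : u = (u.take p0 ++ P) ++ Q := by
    rw [List.append_assoc, ← hPQ, List.take_append_drop]
  have hPl := hlam _ _ hP
  have hulen : u.length = p0 + P.length + Q.length := by
    conv_lhs => rw [hu2]
    rw [List.length_append, List.length_append, hX0]
  refine ⟨u.take p0 ++ P, Q, b, by rw [List.append_nil]; exact hu2, ⟨_, _, rfl, hX0, hP⟩, ?_⟩
  intro x' p' hp'
  obtain ⟨X0', P', rfl, hX0', hP'⟩ := hp'
  have hPl' := hlam _ _ hP'
  refine Or.inl ?_
  refine ⟨b, Language.mem_mul.2 ⟨(X0' ++ P') ++ Q, ⟨?_, ?_⟩, [], ⟨rfl, rfl⟩, by simp⟩⟩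
  · refine ⟨?_, ?_, ?_⟩
    · simp only [List.length_append]; omega
    · rw [hW.loc _ _ (by omega)]
      have := hu.2.1
      rw [hu2, hW.loc _ _ (by omega)] at this
      exact this
    · intro t h1 h2
      simp only [List.length_append] at h2
      have h3 : (X0' ++ P').length = p0 + P'.length := by rw [List.length_append, hX0']
      have h4 : (u.take p0 ++ P).length = p0 + P.length := by rw [List.length_append, hX0]
      rw [take_wall hW (p := X0' ++ P') (p' := u.take p0 ++ P) (q := Q) (t := t)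
        (t' := t + P.length - P'.length) (by rw [h3]; omega) (by rw [h4]; omega)
        (by rw [h3, h4]; omega) (by rw [List.length_append, h3]; omega), ← hu2]
      by_cases h5 : z ≤ t + P.length - P'.length
      · exact hu.2.2 _ h5 (by omega)
      · exact hE2 _ (by omega) (by omega)
  · have e1 : ((X0' ++ P') ++ Q).take p0 = X0' := by
      rw [List.append_assoc, List.take_left' hX0']
    have e2 : ((X0' ++ P') ++ Q).drop p0 = P' ++ Q := by
      rw [List.append_assoc, List.drop_left' hX0']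
    simp only [TT, e1, e2]
    exact (hsnd _ _ _ _ hP' hb).symm

end one

section two
variable {φ : List α → S} {act : V → S → V} {Wo : List α → Prop} {n z N1 p0 K C0 : ℕ}
  {Bt : ℕ → Prop} {nu1 nu2 : List α → V} {c : ℕ → ℕ}
  {lam2 rho2 : ℕ → List α → Option V}

/-- the block seen from the anchor `c k - c k'` of the text `w` is bad -/
def BadAt (Wo : List α → Prop) (z N1 p0 : ℕ) (Bt : ℕ → Prop) (c : ℕ → ℕ) (w : List α)
    (k k' : ℕ) : Prop :=
  ∃ s, s ≤ w.length ∧ z + c k ≤ s + c k' ∧ Wo (w.take s) ∧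
    (∀ s2, z + c k ≤ s2 + c k' → s2 < s → ¬ Wo (w.take s2)) ∧
    ((s + c k' < z + c k + N1 ∨ ∃ s2, z + c k ≤ s2 + c k' + N1 ∧ s2 + c k' < z + c k ∧
      Wo (w.take s2)) ∨ Bt (s + c k' - c k - p0))

open Classical in
theorem cov (hthin : ∀ s, z ≤ s + p0 → ((Finset.range K ×ˢ Finset.range K).filter
      (fun ab => ab.1 ≠ ab.2 ∧ Bt (s + c ab.2 - c ab.1 - p0))).card ≤ C0)
    (Rel : ℕ → Prop) (huniq : ∀ s s', Rel s → Rel s' → s = s') (hlow : ∀ s, Rel s → z ≤ s + p0) :
    ((Finset.range K ×ˢ Finset.range K).filter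
      (fun ab => ab.1 ≠ ab.2 ∧ ∃ s, Rel s ∧ Bt (s + c ab.2 - c ab.1 - p0))).card ≤ C0 := by
  by_cases h : ∃ s, Rel s
  · obtain ⟨s, hs⟩ := h
    refine le_trans (Finset.card_le_card ?_) (hthin s (hlow s hs))
    intro ab hab
    rw [Finset.mem_filter] at hab ⊢
    obtain ⟨h1, h2, s', hs', h3⟩ := hab
    rw [huniq s' s hs' hs] at h3
    exact ⟨h1, h2, h3⟩
  · rw [Finset.filter_false_of_mem]
    · simp
    · rintro ab - ⟨-, s, hs, -⟩
      exact h ⟨s, hs⟩

open Classical in
theorem spoil (w : List α)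
    (hgap : ∀ s s', s < s' → s' ≤ w.length → Wo (w.take s) → Wo (w.take s') →
      s + 2 * (p0 + N1) < s')
    (hcp : ∀ k < K, c k ≤ p0)
    (hsp : ∀ k < K, ∀ k' < K, ∀ l < K, ∀ l' < K, k ≠ k' → l ≠ l' →
      c k + c l' ≤ c k' + c l + 2 * N1 → c k' + c l ≤ c k + c l' + 2 * N1 → k = l ∧ k' = l')
    (hz : p0 + N1 ≤ z)
    (hthin : ∀ s, z ≤ s + p0 → ((Finset.range K ×ˢ Finset.range K).filter
      (fun ab => ab.1 ≠ ab.2 ∧ Bt (s + c ab.2 - c ab.1 - p0))).card ≤ C0) :
    ((Finset.range K).filter (fun k => ∃ k' < K, k' ≠ k ∧ BadAt Wo z N1 p0 Bt c w k k')).card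
      ≤ 1 + 2 * C0 := by
  have huni : ∀ s s', s ≤ w.length → s' ≤ w.length → Wo (w.take s) → Wo (w.take s') →
      s ≤ s' + 2 * (p0 + N1) → s' ≤ s + 2 * (p0 + N1) → s = s' := by
    intro s s' h1 h2 h3 h4 h5 h6
    rcases lt_trichotomy s s' with h | h | h
    · have := hgap s s' h h2 h3 h4; omega
    · exact h
    · have := hgap s' s h h1 h4 h3; omega
  let FE := (Finset.range K ×ˢ Finset.range K).filter
    (fun ab => ab.1 ≠ ab.2 ∧ ∃ s, s ≤ w.length ∧ Wo (w.take s) ∧
      z + c ab.1 ≤ s + c ab.2 + N1 ∧ s + c ab.2 ≤ z + c ab.1 + N1)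
  have hFE : FE.card ≤ 1 := by
    rw [Finset.card_le_one]
    rintro ⟨a, b⟩ h1 ⟨a', b'⟩ h2
    rw [Finset.mem_filter, Finset.mem_product, Finset.mem_range, Finset.mem_range] at h1 h2
    obtain ⟨⟨ha, hb⟩, hne, s, hs, hw, h3, h4⟩ := h1
    obtain ⟨⟨ha', hb'⟩, hne', s', hs', hw', h3', h4'⟩ := h2
    dsimp only at *
    have := hcp a ha
    have := hcp b hb
    have := hcp a' ha'
    have := hcp b' hb'
    have hss : s = s' := huni s s' hs hs' hw hw' (by omega) (by omega)
    subst hss
    obtain ⟨e1, e2⟩ := hsp a ha b hb a' ha' b' hb' hne hne' (by omega) (by omega)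
    rw [e1, e2]
  let RA : ℕ → Prop := fun s => s ≤ w.length ∧ Wo (w.take s) ∧ z ≤ s + p0 ∧ s ≤ z + p0
  let RB : ℕ → Prop := fun s => s ≤ w.length ∧ Wo (w.take s) ∧ z + p0 < s ∧
    ∀ s2, z + p0 < s2 → s2 < s → ¬ Wo (w.take s2)
  have hA := cov (z := z) (p0 := p0) (c := c) (K := K) (Bt := Bt) hthin RA
    (fun s s' h h' => huni s s' h.1 h'.1 h.2.1 h'.2.1
      (by have := h.2.2; have := h'.2.2; omega) (by have := h.2.2; have := h'.2.2; omega))
    (fun s h => h.2.2.1)
  have hB := cov (z := z) (p0 := p0) (c := c) (K := K) (Bt := Bt) hthin RB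
    (fun s s' h h' => by
      rcases lt_trichotomy s s' with hh | hh | hh
      · exact (h'.2.2.2 s h.2.2.1 hh h.2.1).elim
      · exact hh
      · exact (h.2.2.2 s' h'.2.2.1 hh h'.2.1).elim)
    (fun s h => by have := h.2.2.1; omega)
  set FA := (Finset.range K ×ˢ Finset.range K).filter
      (fun ab => ab.1 ≠ ab.2 ∧ ∃ s, RA s ∧ Bt (s + c ab.2 - c ab.1 - p0)) with hFA
  set FB := (Finset.range K ×ˢ Finset.range K).filter
      (fun ab => ab.1 ≠ ab.2 ∧ ∃ s, RB s ∧ Bt (s + c ab.2 - c ab.1 - p0)) with hFB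
  have hsub : (Finset.range K).filter
      (fun k => ∃ k' < K, k' ≠ k ∧ BadAt Wo z N1 p0 Bt c w k k') ⊆
      (FE ∪ (FA ∪ FB)).image Prod.fst := by
    intro k hk
    rw [Finset.mem_filter, Finset.mem_range] at hk
    obtain ⟨hk, k', hk', hne, s, h1, h2, h3, h4, h5⟩ := hk
    have c1 := hcp k hk
    have c2 := hcp k' hk'
    rw [Finset.mem_image]
    refine ⟨(k, k'), ?_, rfl⟩
    have hmem : (k, k') ∈ Finset.range K ×ˢ Finset.range K := by
      rw [Finset.mem_product]; exact ⟨Finset.mem_range.2 hk, Finset.mem_range.2 hk'⟩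
    rw [Finset.mem_union, Finset.mem_union]
    rcases h5 with (h5 | ⟨s2, h6, h7, h8⟩) | h5
    · left
      exact Finset.mem_filter.2 ⟨hmem, fun h => hne h.symm, s, h1, h3, by dsimp only; omega,
        by dsimp only; omega⟩
    · left
      exact Finset.mem_filter.2 ⟨hmem, fun h => hne h.symm, s2, by omega, h8,
        by dsimp only; omega, by dsimp only; omega⟩
    · right
      by_cases hs : s ≤ z + p0
      · left
        exact Finset.mem_filter.2 ⟨hmem, fun h => hne h.symm, s, ⟨h1, h3, by omega, hs⟩, h5⟩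
      · right
        refine Finset.mem_filter.2 ⟨hmem, fun h => hne h.symm, s, ⟨h1, h3, by omega, ?_⟩, h5⟩
        intro s2 h6 h7
        exact h4 s2 (by omega) h7
  calc _ ≤ ((FE ∪ (FA ∪ FB)).image Prod.fst).card := Finset.card_le_card hsub
    _ ≤ (FE ∪ (FA ∪ FB)).card := Finset.card_image_le
    _ ≤ FE.card + (FA ∪ FB).card := Finset.card_union_le _ _
    _ ≤ FE.card + (FA.card + FB.card) := Nat.add_le_add_left (Finset.card_union_le _ _) _
    _ ≤ 1 + 2 * C0 := by omega

theorem xx_loc (hW : Wall Wo n) (hz : p0 + N1 + n ≤ z) {P P' Q : List α}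
    (hl : P.length = P'.length) (hp : P.length ≤ p0) (h : P ++ Q ∈ XX Wo z) :
    P' ++ Q ∈ XX Wo z := by
  obtain ⟨h1, h2, h3⟩ := h
  rw [List.length_append] at h1 h3
  refine ⟨by rw [List.length_append]; omega, ?_, ?_⟩
  · rw [hW.loc _ _ (by omega)] at h2 ⊢
    exact h2
  · intro t h4 h5
    rw [List.length_append] at h5
    rw [take_wall hW (p := P') (p' := P) (q := Q) (t := t) (t' := t) (by omega) (by omega)
      (by omega) (by rw [List.length_append]; omega)]
    exact h3 t h4 (by omega)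

theorem bb_loc (hW : Wall Wo n) (hz : p0 + N1 + n ≤ z) {P P' Q : List α}
    (hl : P.length = P'.length) (hp : P.length ≤ p0) (h : P ++ Q ∈ BB Wo z N1 p0 Bt) :
    P' ++ Q ∈ BB Wo z N1 p0 Bt := by
  obtain ⟨h1, h2⟩ := h
  refine ⟨xx_loc hW hz hl hp h1, ?_⟩
  have hlen : (P' ++ Q).length = (P ++ Q).length := by
    rw [List.length_append, List.length_append]; omega
  rcases h2 with (h2 | ⟨t, h3, h4, h5⟩) | h2
  · left; left; rw [hlen]; exact h2
  · left; right
    refine ⟨t, h3, h4, ?_⟩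
    have := h1.1
    rw [take_wall hW (p := P') (p' := P) (q := Q) (t := t) (t' := t) (by omega) (by omega)
      (by omega) (by rw [hlen]; omega)]
    exact h5
  · right; rw [hlen]; exact h2

open Classical in
theorem complete2 (hW : Wall Wo n)
    (hgap : ∀ (w : List α) s s', s < s' → s' ≤ w.length → Wo (w.take s) → Wo (w.take s') →
      s + 2 * (p0 + N1) < s')
    (hn : 0 < z)
    (hc : ∀ i j, i < j → j < K → c i < c j)
    (hcp : ∀ k < K, c k ≤ p0)
    (hsp : ∀ k < K, ∀ k' < K, ∀ l < K, ∀ l' < K, k ≠ k' → l ≠ l' →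
      c k + c l' ≤ c k' + c l + 2 * N1 → c k' + c l ≤ c k + c l' + 2 * N1 → k = l ∧ k' = l')
    (hz : p0 + N1 + n ≤ z)
    (hthin : ∀ s, z ≤ s + p0 → ((Finset.range K ×ˢ Finset.range K).filter
      (fun ab => ab.1 ≠ ab.2 ∧ Bt (s + c ab.2 - c ab.1 - p0))).card ≤ C0)
    (hx1 : ∀ k < K, ∀ P Q v b, P.length = c k → lam2 k P = some v → rho2 k Q = some b →
      b = act v (φ (P ++ Q)) + nu2 (P ++ Q))
    (hx2 : ∀ (u : List α) (v : V), (∀ k < K, c k ≤ u.length) → ∃ I : Finset ℕ, 2 + 2 * C0 ≤ I.card ∧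
      ∀ k ∈ I, k < K ∧ lam2 k (u.take (c k)) = some v ∧ (rho2 k (u.drop (c k))).isSome)
    (u : List α) (hu : u ∈ BB Wo z N1 p0 Bt) (x : V) :
    ∀ t ∈ (BB Wo z N1 p0 Bt) ^ 1, ∃ p q y, u ++ t = p ++ q ∧ p ∈ L2 K c lam2 x ∧
      q ∈ Rsem (XX Wo z) (BB Wo z N1 p0 Bt) (TT φ act nu1 nu2 p0) 1 (L2 K c lam2) y := by
  intro t ht
  rw [pow_one] at ht
  have hul := hu.1.1
  have htl := ht.1.1
  set w := u ++ t with hw
  have hwl : w.length = u.length + t.length := by rw [hw, List.length_append]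
  have hu0 : (u.take p0).length = p0 := by rw [List.length_take]; omega
  obtain ⟨I, hI, hI2⟩ := hx2 (u.take p0) x (fun k hk => by rw [hu0]; exact hcp k hk)
  have hsp' := spoil (Wo := Wo) (Bt := Bt) (C0 := C0) w (hgap w) hcp hsp (by omega) hthin
  obtain ⟨k, hkI, hkS⟩ : ∃ k ∈ I, k ∉ (Finset.range K).filter
      (fun k => ∃ k' < K, k' ≠ k ∧ BadAt Wo z N1 p0 Bt c w k k') := by
    by_contra hcon
    push Not at hcon
    have := Finset.card_le_card (fun k hk => hcon k hk : I ⊆ _)
    omega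
  obtain ⟨hk, hl2, hr2⟩ := hI2 k hkI
  have hck := hcp k hk
  have hns : ∀ k' < K, k' ≠ k → ¬ BadAt Wo z N1 p0 Bt c w k k' := by
    intro k' hk' hne hb
    exact hkS (Finset.mem_filter.2 ⟨Finset.mem_range.2 hk, k', hk', hne, hb⟩)
  obtain ⟨b', hb'⟩ := Option.isSome_iff_exists.1 hr2
  have hq : w.drop (c k) = u.drop (c k) ++ t := by
    rw [hw, List.drop_append_of_le_length (by omega)]
  have htk : (u.take p0).take (c k) = u.take (c k) := by
    rw [List.take_take, min_eq_left hck]
  rw [htk] at hl2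
  have hwt : w.take (c k) = u.take (c k) := by
    rw [hw, List.take_append_of_le_length (by omega)]
  refine ⟨w.take (c k), w.drop (c k),
    TT φ act nu1 nu2 p0 t (act b' (φ (u.drop p0)) + nu1 (u.drop p0)),
    (List.take_append_drop _ _).symm, ⟨k, hk, by rw [List.length_take]; omega, by
      rw [hwt]; exact hl2⟩, ?_⟩
  intro x' p' hp'
  obtain ⟨k', hk', hpl, hlp⟩ := hp'
  have hck' := hcp k' hk'
  by_cases hkk : k' = k
  · subst hkk
    refine Or.inl ?_
    have hmid : (p' ++ u.drop (c k')).take p0 = p' ++ (u.take p0).drop (c k') := by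
      rw [List.take_append, List.take_of_length_le (by omega), List.drop_take, hpl]
    have hrest : (p' ++ u.drop (c k')).drop p0 = u.drop p0 := by
      rw [List.drop_append, List.drop_of_length_le (by omega), List.nil_append, List.drop_drop,
        hpl]
      congr 1; omega
    have hbb : p' ++ u.drop (c k') ∈ BB Wo z N1 p0 Bt := by
      refine bb_loc hW hz (P := u.take (c k')) (by rw [List.length_take]; omega)
        (by rw [List.length_take]; omega) ?_
      rw [List.take_append_drop]; exact hu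
    refine ⟨act b' (φ (u.drop p0)) + nu1 (u.drop p0), Language.mem_mul.2
      ⟨p' ++ u.drop (c k'), ⟨hbb, ?_⟩, t, ?_, ?_⟩⟩
    · simp only [TT, hmid, hrest]
      rw [← hx1 k' hk' _ _ _ _ hpl hlp hb']
    · exact ⟨_, Language.mem_mul.2 ⟨t, ⟨ht, rfl⟩, [], ⟨rfl, rfl⟩, by simp⟩⟩
    · rw [hq, List.append_assoc]
  · refine Or.inr (Or.inl ?_)
    set q := w.drop (c k) with hqdef
    have hqlen : q.length = w.length - c k := by rw [hqdef, List.length_drop]
    have hwq : w = w.take (c k) ++ q := (List.take_append_drop _ _).symm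
    have hwtl : (w.take (c k)).length = c k := by rw [List.length_take]; omega
    have hex : ∃ s, z + c k ≤ s + c k' ∧ Wo (w.take s) := by
      refine ⟨w.length, by omega, ?_⟩
      rw [List.take_length, hw, hW.loc _ _ (by omega)]
      exact ht.1.2.1
    set s := Nat.find hex with hs
    have hs1 := (Nat.find_spec hex).1
    have hs2 := (Nat.find_spec hex).2
    rw [← hs] at hs1 hs2
    have hsl : s ≤ w.length := by
      refine Nat.find_min' hex ⟨by omega, ?_⟩
      rw [List.take_length, hw, hW.loc _ _ (by omega)]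
      exact ht.1.2.1
    have hmin : ∀ s2, z + c k ≤ s2 + c k' → s2 < s → ¬ Wo (w.take s2) := by
      intro s2 h1 h2 h3
      exact Nat.find_min hex h2 ⟨h1, h3⟩
    have hpq : (p' ++ q).length = c k' + (w.length - c k) := by
      rw [List.length_append, hpl, hqlen]
    have hwall : ∀ t', c k' + n ≤ t' → c k + n ≤ t' + c k - c k' → t' ≤ (p' ++ q).length →
        (Wo ((p' ++ q).take t') ↔ Wo (w.take (t' + c k - c k'))) := by
      intro t' h1 h2 h3
      rw [take_wall hW (p := p') (p' := w.take (c k)) (q := q) (t := t')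
        (t' := t' + c k - c k') (by omega) (by omega) (by omega) h3, ← hwq]
    let m := c k' + (s - c k)
    have hm : m ≤ (p' ++ q).length := by
      show c k' + (s - c k) ≤ _
      omega
    have hBl : ((p' ++ q).take m).length = m := by rw [List.length_take]; omega
    have hmz : z ≤ m := by show z ≤ c k' + (s - c k); omega
    have hBt : ∀ t', t' ≤ m → ((p' ++ q).take m).take t' = (p' ++ q).take t' := by
      intro t' h; rw [List.take_take, min_eq_left h]
    have hmeq : m + c k - c k' = s := by show c k' + (s - c k) + c k - c k' = s; omega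
    have hX : (p' ++ q).take m ∈ XX Wo z := by
      refine ⟨by rw [hBl]; exact hmz, ?_, ?_⟩
      · rw [hwall m (by omega) (by omega) hm, hmeq]; exact hs2
      · intro t' h1 h2
        rw [hBl] at h2
        rw [hBt t' (by omega), hwall t' (by omega) (by omega) (by omega)]
        exact hmin _ (by omega) (by omega)
    refine ⟨(p' ++ q).take m, hX, ?_, List.take_prefix _ _⟩
    intro hbad
    refine hns k' hk' hkk ⟨s, hsl, hs1, hs2, hmin, ?_⟩
    rcases hbad.2 with (h | ⟨t', h3, h4, h5⟩) | h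
    · left; left
      rw [hBl] at h
      have : c k' + (s - c k) < z + N1 := h
      omega
    · left; right
      rw [hBt t' (by omega), hwall t' (by omega) (by omega) (by omega)] at h5
      exact ⟨t' + c k - c k', by omega, by omega, h5⟩
    · right
      rw [hBl] at h
      have : m - p0 = s + c k' - c k - p0 := by
        show c k' + (s - c k) - p0 = _
        omega
      rw [this] at h
      exact h

end two

end Crest.Agent.R320.Core_756
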