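import Crest.Agent.R320.Hk2_851

/-!
# Row 320: the number of occurrences of a factor modulo `M` has height one (helper319)

`cnt u v` = number of prefixes of `v` which end with `u` = number of occurrences of `u` in `v`.
-/

set_option autoImplicit false

namespace Crest.Agent.R320.Count_319

open Crest.RegLang Crest.Agent.R320.Hk_851

universe u

variable {α : Type u} {k : ℕ}

theorem HL.pow {L : Language α} (h : HL k L) (n : ℕ) : HL k (L ^ n) := by
  induction n with
  | zero => rw [pow_zero]; exact HL.one
  | succ n ih => rw [pow_succ]; exact ih.mul h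

/-- non-empty words -/
def Pos : Language α := {f | f ≠ []}

/-- words which end with `u` -/
def E (u : List α) : Language α := {v | u <:+ v}

/-- words which lead from a mark to a mark -/
def S (u : List α) : Language α := {f | f ≠ [] ∧ u <:+ u ++ f}

/-- first returns -/
def R (u : List α) : Language α := {f | f ∈ S u ∧ f ∉ S u * Pos}

/-- no further mark -/
def T (u : List α) : Language α := {f | f ∉ S u * (⊤ : Language α)}

/-- first mark -/
def F (u : List α) : Language α := {f | f ∈ E u ∧ f ∉ E u * Pos}

/-- no mark at all -/
def Z (u : List α) : Language α := {f | f ∉ E u * (⊤ : Language α)}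

theorem hl_Pos : HL k (Pos : Language α) := by
  have h := (HL.one (α := α) (k := k)).compl
  exact h.congr fun w => Iff.rfl

theorem hl_E (u : List α) : HL k (E u) := by
  have h := (HL.word (k := k) u).suffix
  refine h.congr fun w => ?_
  constructor
  · intro hw; exact ⟨u, rfl, hw⟩
  · rintro ⟨v, hv, hw⟩
    rw [Set.mem_singleton_iff.1 hv] at hw; exact hw

theorem hl_S (u : List α) : HL k (S u) :=
  hl_Pos.setOf_and ((hl_E u).lquot u)

theorem hl_R (u : List α) : HL k (R u) :=
  (hl_S u).setOf_and ((hl_S u).mul hl_Pos).compl

theorem hl_T (u : List α) : HL k (T u) := ((hl_S u).mul HL.top).compl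

theorem hl_F (u : List α) : HL k (F u) := (hl_E u).setOf_and ((hl_E u).mul hl_Pos).compl

theorem hl_Z (u : List α) : HL k (Z u) := ((hl_E u).mul HL.top).compl

theorem suf_iff {u v : List α} (h : u <:+ v) (g : List α) : u <:+ v ++ g ↔ u <:+ u ++ g := by
  obtain ⟨s, rfl⟩ := h
  rw [List.append_assoc]
  constructor
  · intro h
    exact List.suffix_of_suffix_length_le h (List.suffix_append s (u ++ g)) (by simp)
  · intro h
    exact h.trans (List.suffix_append s (u ++ g))

open Classical in
/-- number of marks behind a mark -/
noncomputable def cR (u f : List α) : ℕ :=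
  ∑ i ∈ Finset.range f.length, if u <:+ u ++ f.take (i + 1) then 1 else 0

open Classical in
/-- number of occurrences of `u` in `v` -/
noncomputable def cnt (u v : List α) : ℕ :=
  ∑ i ∈ Finset.range (v.length + 1), if u <:+ v.take i then 1 else 0

theorem cR_nil (u : List α) : cR u [] = 0 := by simp [cR]

theorem cR_append {u f : List α} (h : u <:+ u ++ f) (g : List α) :
    cR u (f ++ g) = cR u f + cR u g := by
  classical
  unfold cR
  rw [List.length_append, Finset.sum_range_add]
  congr 1
  · refine Finset.sum_congr rfl fun i hi => ?_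
    rw [Finset.mem_range] at hi
    rw [List.take_append_of_le_length (by omega)]
  · refine Finset.sum_congr rfl fun i hi => ?_
    have e : (f ++ g).take (f.length + i + 1) = f ++ g.take (i + 1) := by
      rw [add_assoc, List.take_length_add_append]
    have e2 : (u <:+ u ++ (f ++ g).take (f.length + i + 1)) ↔ u <:+ u ++ g.take (i + 1) := by
      rw [e, ← List.append_assoc]
      exact suf_iff h _
    simp only [e2]

theorem cnt_append {u v : List α} (h : u <:+ v) (f : List α) :
    cnt u (v ++ f) = cnt u v + cR u f := by
  classical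
  unfold cnt cR
  rw [List.length_append, show v.length + f.length + 1 = (v.length + 1) + f.length by omega,
    Finset.sum_range_add]
  congr 1
  · refine Finset.sum_congr rfl fun i hi => ?_
    rw [Finset.mem_range] at hi
    rw [List.take_append_of_le_length (by omega)]
  · refine Finset.sum_congr rfl fun i hi => ?_
    have e : (v ++ f).take (v.length + 1 + i) = v ++ f.take (i + 1) := by
      rw [show v.length + 1 + i = v.length + (i + 1) by omega, List.take_length_add_append]
    have e2 : (u <:+ (v ++ f).take (v.length + 1 + i)) ↔ u <:+ u ++ f.take (i + 1) := by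
      rw [e]
      exact suf_iff h _
    simp only [e2]

theorem cR_R {u f : List α} (h : f ∈ R u) : cR u f = 1 := by
  classical
  obtain ⟨⟨hne, hs⟩, hn⟩ := h
  unfold cR
  have hl : 0 < f.length := List.length_pos_of_ne_nil hne
  obtain ⟨n, hn'⟩ : ∃ n, f.length = n + 1 := ⟨f.length - 1, by omega⟩
  rw [hn', Finset.sum_range_succ, Finset.sum_eq_zero, zero_add, if_pos]
  · rw [← hn', List.take_length]; exact hs
  · intro i hi
    rw [Finset.mem_range] at hi
    rw [if_neg]
    intro hc
    apply hn
    refine Language.mem_mul.2 ⟨f.take (i + 1), ⟨?_, hc⟩, f.drop (i + 1), ?_,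
      List.take_append_drop _ _⟩
    · intro h0
      have := congrArg List.length h0
      rw [List.length_take, List.length_nil] at this
      omega
    · intro h0
      have := congrArg List.length h0
      rw [List.length_drop, List.length_nil] at this
      omega

theorem cR_T {u f : List α} (h : f ∈ T u) : cR u f = 0 := by
  classical
  unfold cR
  refine Finset.sum_eq_zero fun i hi => ?_
  rw [Finset.mem_range] at hi
  rw [if_neg]
  intro hc
  apply h
  refine Language.mem_mul.2 ⟨f.take (i + 1), ⟨?_, hc⟩, f.drop (i + 1), trivial,
    List.take_append_drop _ _⟩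
  intro h0
  have := congrArg List.length h0
  rw [List.length_take, List.length_nil] at this
  omega

theorem cnt_F {u v : List α} (h : v ∈ F u) : cnt u v = 1 := by
  classical
  obtain ⟨hs, hn⟩ := h
  unfold cnt
  rw [Finset.sum_range_succ, Finset.sum_eq_zero, zero_add, if_pos]
  · rw [List.take_length]; exact hs
  · intro i hi
    rw [Finset.mem_range] at hi
    rw [if_neg]
    intro hc
    apply hn
    refine Language.mem_mul.2 ⟨v.take i, hc, v.drop i, ?_, List.take_append_drop _ _⟩
    intro h0
    have := congrArg List.length h0
    rw [List.length_drop, List.length_nil] at this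
    omega

theorem cnt_Z {u v : List α} (h : v ∈ Z u) : cnt u v = 0 := by
  classical
  unfold cnt
  refine Finset.sum_eq_zero fun i hi => ?_
  rw [if_neg]
  intro hc
  exact h (Language.mem_mul.2 ⟨v.take i, hc, v.drop i, trivial, List.take_append_drop _ _⟩)

/-- a power of `R u` : number of marks and end mark -/
theorem pow_R {u : List α} (n : ℕ) : ∀ f ∈ R u ^ n, cR u f = n ∧ u <:+ u ++ f := by
  induction n with
  | zero =>
    intro f hf
    rw [pow_zero] at hf
    have : f = [] := hf
    subst this
    exact ⟨cR_nil u, by simp⟩
  | succ n ih =>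
    intro f hf
    rw [pow_succ] at hf
    obtain ⟨a, ha, b, hb, rfl⟩ := Language.mem_mul.1 hf
    obtain ⟨h1, h2⟩ := ih a ha
    refine ⟨by rw [cR_append h2, h1, cR_R hb], ?_⟩
    have h3 := hb.1.2
    rw [← List.append_assoc]
    exact (suf_iff h2 b).2 h3

theorem star_R {u : List α} (M : ℕ) :
    ∀ f ∈ KStar.kstar (R u ^ M), M ∣ cR u f ∧ u <:+ u ++ f := by
  intro f hf
  obtain ⟨L, rfl, hL⟩ := Language.mem_kstar.1 hf
  clear hf
  induction L with
  | nil => simp [cR_nil]
  | cons a L ih =>
    obtain ⟨h1, h2⟩ := pow_R M a (hL a (by simp))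
    obtain ⟨h3, h4⟩ := ih fun y hy => hL y (by simp [hy])
    rw [List.flatten_cons]
    refine ⟨by rw [cR_append h2, h1]; exact (dvd_refl M).add h3, ?_⟩
    rw [← List.append_assoc]
    exact (suf_iff h2 _).2 h4

/-- every word is a product of first returns and a tail -/
theorem exists_pow (u f : List α) : f ∈ R u ^ (cR u f) * T u := by
  classical
  induction hn : f.length using Nat.strong_induction_on generalizing f with
  | _ n ih =>
    by_cases hT : f ∈ T u
    · rw [cR_T hT, pow_zero, one_mul]; exact hT
    · have hT' : f ∈ S u * (⊤ : Language α) := by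
        by_contra h; exact hT h
      have hex : ∃ i, f.take i ∈ S u := by
        obtain ⟨a, ha, b, -, rfl⟩ := Language.mem_mul.1 hT'
        exact ⟨a.length, by simpa using ha⟩
      let i := Nat.find hex
      have hi : f.take i ∈ S u := Nat.find_spec hex
      have hR : f.take i ∈ R u := by
        refine ⟨hi, ?_⟩
        intro hc
        obtain ⟨a, ha, b, hb, hab⟩ := Language.mem_mul.1 hc
        have hb' : 0 < b.length := List.length_pos_of_ne_nil hb
        have hla : a.length + b.length ≤ i := by
          have := congrArg List.length hab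
          rw [List.length_append, List.length_take] at this
          omega
        have ha' : f.take a.length = a := by
          have h1 : a <+: f.take i := ⟨b, hab⟩
          have h2 : a <+: f := h1.trans (List.take_prefix i f)
          exact (List.prefix_iff_eq_take.1 h2).symm
        exact Nat.find_min hex (m := a.length) (by omega) (by rw [ha']; exact ha)
      have hne : f.take i ≠ [] := hi.1
      have hlen : (f.drop i).length < n := by
        rw [← hn, List.length_drop]
        have h0 : 0 < i := by
          rcases Nat.eq_zero_or_pos i with h | h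
          · rw [h] at hne; simp at hne
          · exact h
        have h1 : 0 < f.length := by
          rcases Nat.eq_zero_or_pos f.length with h | h
          · rw [List.eq_nil_of_length_eq_zero h] at hne; simp at hne
          · exact h
        omega
      have h3 := ih _ hlen (f.drop i) rfl
      have e : cR u f = cR u (f.drop i) + 1 := by
        conv_lhs => rw [← List.take_append_drop i f]
        rw [cR_append hi.2, cR_R hR, add_comm]
      rw [e, pow_succ', mul_assoc]
      exact Language.mem_mul.2 ⟨_, hR, _, h3, List.take_append_drop i f⟩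

/-- every word is without mark or has a first mark -/
theorem exists_first (u v : List α) : v ∈ Z u ∨ v ∈ F u * (⊤ : Language α) := by
  classical
  by_cases hZ : v ∈ Z u
  · exact Or.inl hZ
  · right
    have hZ' : v ∈ E u * (⊤ : Language α) := by
      by_contra h; exact hZ h
    have hex : ∃ i, v.take i ∈ E u := by
      obtain ⟨a, ha, b, -, rfl⟩ := Language.mem_mul.1 hZ'
      exact ⟨a.length, by simpa using ha⟩
    let i := Nat.find hex
    have hi : v.take i ∈ E u := Nat.find_spec hex
    refine Language.mem_mul.2 ⟨v.take i, ⟨hi, ?_⟩, v.drop i, trivial, List.take_append_drop i v⟩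
    intro hc
    obtain ⟨a, ha, b, hb, hab⟩ := Language.mem_mul.1 hc
    have hb' : 0 < b.length := List.length_pos_of_ne_nil hb
    have hla : a.length + b.length ≤ i := by
      have := congrArg List.length hab
      rw [List.length_append, List.length_take] at this
      omega
    have ha' : v.take a.length = a := by
      have h1 : a <+: v.take i := ⟨b, hab⟩
      have h2 : a <+: v := h1.trans (List.take_prefix i v)
      exact (List.prefix_iff_eq_take.1 h2).symm
    exact Nat.find_min hex (m := a.length) (by omega) (by rw [ha']; exact ha)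

theorem mem_kstar_pow {L : Language α} (q : ℕ) : ∀ f ∈ L ^ q, f ∈ KStar.kstar L := by
  induction q with
  | zero =>
    intro f hf
    rw [pow_zero] at hf
    have : f = [] := hf
    subst this
    exact Language.mem_kstar.2 ⟨[], rfl, by simp⟩
  | succ q ih =>
    intro f hf
    rw [pow_succ'] at hf
    obtain ⟨a, ha, b, hb, rfl⟩ := Language.mem_mul.1 hf
    obtain ⟨L', rfl, hL⟩ := Language.mem_kstar.1 (ih b hb)
    refine Language.mem_kstar.2 ⟨a :: L', by simp, ?_⟩
    intro y hy
    rcases List.mem_cons.1 hy with rfl | hy
    · exact ha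
    · exact hL y hy

/-- **the number of occurrences of `u` modulo `M` is decided at height one** -/
theorem HL.occ_mod (u : List α) (M r : ℕ) (hM : 0 < M) :
    HL 1 ({v | cnt u v % M = r} : Language α) := by
  classical
  have hsum : HL 1 ({v | (v ∈ Z u ∧ 0 % M = r) ∨
      ∃ j : Fin M, (j.1 + 1) % M = r ∧
        v ∈ F u * (KStar.kstar (R u ^ M) * (R u ^ j.1 * T u))} : Language α) := by
    refine ((hl_Z u).setOf_and (HL.const _)).setOf_or ?_
    refine HL.iUnion (L := fun j : Fin M => ({v | (j.1 + 1) % M = r ∧
        v ∈ F u * (KStar.kstar (R u ^ M) * (R u ^ j.1 * T u))} : Language α)) fun j => ?_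
    refine (HL.const _).setOf_and ((hl_F u).mul ?_)
    exact ((HL.pow (hl_R (k := 0) u) M).star).mul ((HL.pow (hl_R u) j.1).mul (hl_T u))
  refine hsum.congr fun v => ?_
  constructor
  · intro (hv : cnt u v % M = r)
    rcases exists_first u v with hZ | hF
    · left
      refine ⟨hZ, ?_⟩
      rwa [cnt_Z hZ] at hv
    · right
      obtain ⟨a, ha, f, -, rfl⟩ := Language.mem_mul.1 hF
      have h1 := exists_pow u f
      rw [cnt_append ha.1, cnt_F ha] at hv
      refine ⟨⟨cR u f % M, Nat.mod_lt _ hM⟩, ?_, Language.mem_mul.2 ⟨a, ha, f, ?_, rfl⟩⟩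
      · rw [← hv, Nat.add_comm 1]
        simp [Nat.add_mod]
      · have h2 : R u ^ (cR u f) = (R u ^ M) ^ (cR u f / M) * R u ^ (cR u f % M) := by
          rw [← pow_mul, ← pow_add, Nat.div_add_mod]
        rw [h2, mul_assoc] at h1
        obtain ⟨b, hb, c, hc, rfl⟩ := Language.mem_mul.1 h1
        exact Language.mem_mul.2 ⟨b, mem_kstar_pow _ b hb, c, hc, rfl⟩
  · rintro (⟨hZ, hr⟩ | ⟨j, hj, hv⟩)
    · show cnt u v % M = r
      rw [cnt_Z hZ]; exact hr
    · obtain ⟨a, ha, f, hf, rfl⟩ := Language.mem_mul.1 hv
      obtain ⟨b, hb, c, hc, rfl⟩ := Language.mem_mul.1 hf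
      obtain ⟨d, hd, t, ht, rfl⟩ := Language.mem_mul.1 hc
      obtain ⟨h1, h2⟩ := star_R M b hb
      obtain ⟨h3, h4⟩ := pow_R j.1 d hd
      show cnt u (a ++ (b ++ (d ++ t))) % M = r
      rw [cnt_append ha.1, cnt_F ha, cR_append h2, cR_append h4, h3, cR_T ht, add_zero, ← hj]
      obtain ⟨q, hq⟩ := h1
      rw [hq, show 1 + (M * q + j.1) = (j.1 + 1) + M * q by ring, Nat.add_mul_mod_self_left]

end Crest.Agent.R320.Count_319
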