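import Crest.Agent.R320.Joint_947

/-!
# Row 320: the spoil count for the natural rule (helper947)
-/

set_option autoImplicit false

namespace Crest.Agent.R320.Joint_947

open Crest.Agent.R320.Core1_922 (LW)

variable {A : Type} {Wo : List A → Prop} {n z p0 N1 : ℕ} {BadT : ℕ → Prop}

theorem count (hW : LW n Wo) {Wg C K RB : ℕ} {c : ℕ → ℕ}
    (hgap : ∀ (X : List A) (s t : ℕ), s < t → t ≤ X.length → Wo (X.take s) → Wo (X.take t) →
      Wg < t - s)
    (hC : ∀ k < K, c k ≤ C) (hWg : 2 * C + 2 * N1 ≤ Wg) (hz : p0 + 2 * C + N1 + n ≤ z)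
    (hrul : ∀ i < K, ∀ j < K, ∀ k < K, ∀ l < K, i ≠ j → k ≠ l →
      |((c i : ℤ) - c j) - ((c k : ℤ) - c l)| ≤ 2 * N1 → i = k)
    (hthin : ∀ T : ℕ, C ≤ T → ∃ Sp : Finset ℕ, Sp.card ≤ RB ∧ ∀ k < K, k ∉ Sp →
      ∀ k' < K, k' ≠ k → ¬ BadT (T + c k' - c k)) :
    Count Wo z p0 N1 BadT K c (2 + 2 * RB) := by
  classical
  intro X hX
  obtain ⟨⟨t, ⟨hzt, htl, hWt, hfirst⟩, ht, hWX, hno⟩, -⟩ := hX
  have hXlen : Wo (X.take X.length) := by rw [List.take_length]; exact hWX
  -- first wall behind z - C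
  have ex0 : ∃ s, z - C ≤ s ∧ Wo (X.take s) := ⟨t, by omega, hWt⟩
  let s0 := Nat.find ex0
  have h0 := Nat.find_spec ex0
  have h0min : ∀ s, s < s0 → z - C ≤ s → ¬ Wo (X.take s) := fun s hs h1 h2 =>
    Nat.find_min ex0 hs ⟨h1, h2⟩
  have h0t : s0 ≤ t := Nat.find_min' ex0 ⟨by omega, hWt⟩
  have ex1 : ∃ s, s0 < s ∧ Wo (X.take s) := ⟨X.length, by omega, hXlen⟩
  let s1 := Nat.find ex1
  have h1' := Nat.find_spec ex1
  have h1min : ∀ s, s < s1 → s0 < s → ¬ Wo (X.take s) := fun s hs h1 h2 =>
    Nat.find_min ex1 hs ⟨h1, h2⟩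
  have h1l : s1 ≤ X.length := Nat.find_min' ex1 ⟨by omega, hXlen⟩
  have hs0z : z - C ≤ s0 := h0.1
  have hs0W : Wo (X.take s0) := h0.2
  have hs01 : s0 < s1 := h1'.1
  have hs1W : Wo (X.take s1) := h1'.2
  have hgap01 := hgap X s0 s1 hs01 h1l hs0W hs1W
  obtain ⟨S0, hS0c, hS0⟩ := hthin (s0 - p0) (by omega)
  obtain ⟨S1, hS1c, hS1⟩ := hthin (s1 - p0) (by omega)
  let SE : Finset ℕ := (Finset.range K).filter fun k => ∃ k' < K, k' ≠ k ∧ ∃ s ≤ X.length,
    Wo (X.take s) ∧ z + c k ≤ s + c k' + N1 ∧ s + c k' ≤ z + c k + N1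
  have hSE : SE.card ≤ 1 := by
    rw [Finset.card_le_one]
    intro k hk l hl
    obtain ⟨hkK, k', hk', hkk, s, hs, hsW, a1, a2⟩ := Finset.mem_filter.1 hk
    obtain ⟨hlK, l', hl', hll, r, hr, hrW, b1, b2⟩ := Finset.mem_filter.1 hl
    have hkK' := Finset.mem_range.1 hkK
    have hlK' := Finset.mem_range.1 hlK
    have c1 := hC k hkK'
    have c2 := hC k' hk'
    have c3 := hC l hlK'
    have c4 := hC l' hl'
    have hsr : s = r := by
      rcases lt_trichotomy s r with h | h | h
      · have := hgap X s r h hr hsW hrW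
        omega
      · exact h
      · have := hgap X r s h hs hrW hsW
        omega
    subst hsr
    refine hrul k hkK' k' hk' l hlK' l' hl' hkk.symm hll.symm ?_
    rw [abs_le]
    constructor
    · push_cast; omega
    · push_cast; omega
  refine ⟨SE ∪ (S0 ∪ S1), ?_, ?_⟩
  · have a := Finset.card_union_le SE (S0 ∪ S1)
    have b := Finset.card_union_le S0 S1
    omega
  · intro k hk hkS k' hk' hkk P hP
    simp only [Finset.mem_union, not_or] at hkS
    obtain ⟨hkE, hk0, hk1⟩ := hkS
    have c1 := hC k hk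
    have c2 := hC k' hk'
    have hlenQ : (X.drop (c k)).length = X.length - c k := List.length_drop
    have hPk : (X.take (c k)).length = c k := by rw [List.length_take]; omega
    have hlen : (P ++ X.drop (c k)).length = X.length + c k' - c k := by
      rw [List.length_append, hlenQ, hP]; omega
    have hwi : ∀ s s' : ℕ, c k + n ≤ s → s ≤ X.length → s' + c k = s + c k' →
        (Wo (X.take s) ↔ Wo ((P ++ X.drop (c k)).take s')) := by
      intro s s' a b d
      have := wall_iff (P := X.take (c k)) (P' := P) (Q := X.drop (c k)) hW (s := s) (s' := s')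
        (by rw [hPk]; exact a) (by rw [hPk, hlenQ]; omega) (by rw [hPk, hP]; exact d)
      rw [List.take_append_drop] at this
      exact this
    refine ⟨?_, ?_⟩
    · rintro ⟨s', a, b, d, e⟩
      refine hkE (Finset.mem_filter.2 ⟨Finset.mem_range.2 hk, k', hk', hkk, s' + c k - c k', ?_, ?_,
        ?_, ?_⟩)
      · omega
      · exact (hwi (s' + c k - c k') s' (by omega) (by omega) (by omega)).2 b
      · omega
      · omega
    · by_cases hθ : z + c k ≤ s0 + c k'
      · refine ⟨s0 + c k' - c k, ⟨by omega, by omega, ?_, ?_⟩, ?_⟩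
        · exact (hwi s0 _ (by omega) (by omega) (by omega)).1 hs0W
        · intro s' a b d
          exact h0min (s' + c k - c k') (by omega) (by omega)
            ((hwi (s' + c k - c k') s' (by omega) (by omega) (by omega)).2 d)
        · have := hS0 k hk hk0 k' hk' hkk
          have e : s0 + c k' - c k - p0 = s0 - p0 + c k' - c k := by omega
          rw [e]; exact this
      · refine ⟨s1 + c k' - c k, ⟨by omega, by omega, ?_, ?_⟩, ?_⟩
        · exact (hwi s1 _ (by omega) (by omega) (by omega)).1 hs1W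
        · intro s' a b d
          exact h1min (s' + c k - c k') (by omega) (by omega)
            ((hwi (s' + c k - c k') s' (by omega) (by omega) (by omega)).2 d)
        · have := hS1 k hk hk1 k' hk' hkk
          have e : s1 + c k' - c k - p0 = s1 - p0 + c k' - c k := by omega
          rw [e]; exact this

end Crest.Agent.R320.Joint_947
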