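import Mathlib

/-!
Row 320, counted metric (helper706).  A position of a word is UNCOUNTED when the window of
`R0 + 1` letters starting there has a period `<= p0`.  The counted text is the list of the windows
(length `R0 + 1`, shorter at the end) at the counted positions.  It contains no cube of a word of
length `<= p0`, for EVERY word; after an uncounted stretch there are `R0 - 2 p0` consecutive counted
positions, and an uncounted stretch lies in one run.
-/

namespace Crest.Agent.R320.Counted706

variable {α : Type*}

/-- The window of `R0 + 1` letters at the start of `s` is complete and has a period `≤ p0`. -/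
def Unc (p0 R0 : ℕ) (s : List α) : Prop :=
  R0 < s.length ∧ ∃ p, 0 < p ∧ p ≤ p0 ∧ ∀ i, i + p ≤ R0 → s[i]? = s[i + p]?

/-- right-looking: only the first `R0 + 1` letters matter. -/
theorem unc_take (p0 R0 : ℕ) (s : List α) :
    Unc p0 R0 s ↔ Unc p0 R0 (s.take (R0 + 1)) := by
  unfold Unc
  constructor
  · rintro ⟨h, p, hp, hp0, H⟩
    refine ⟨by simp; omega, p, hp, hp0, fun i hi => ?_⟩
    rw [List.getElem?_take_of_lt (by omega), List.getElem?_take_of_lt (by omega)]
    exact H i hi
  · rintro ⟨h, p, hp, hp0, H⟩
    refine ⟨by simp at h; omega, p, hp, hp0, fun i hi => ?_⟩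
    have := H i hi
    rwa [List.getElem?_take_of_lt (by omega), List.getElem?_take_of_lt (by omega)] at this

theorem not_unc_nil (p0 R0 : ℕ) : ¬ Unc p0 R0 ([] : List α) := by
  rintro ⟨h, -⟩
  simp at h

/-- one step of the run argument: a run of period `p` on the first `R0 + k` letters and an
uncounted position `d + k`, `d` small, force the run one letter further. -/
theorem ext_step {p0 R0 : ℕ} {s : List α} {p k d : ℕ} (hp0 : p ≤ p0)
    (hP : ∀ i, i + p < R0 + k → s[i]? = s[i + p]?) (hk : 0 < k) (hd : d + 2 * p0 ≤ R0)
    (hU : Unc p0 R0 (s.drop (d + k))) :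
    ∀ i, i + p < R0 + (k + 1) → s[i]? = s[i + p]? := by
  obtain ⟨hlen, q, hq, hq0, hQ⟩ := hU
  intro i hi
  by_cases h : i + p < R0 + k
  · exact hP i h
  have hi' : i + p = R0 + k := by omega
  -- y = R0 + k
  have e1 : s[R0 + k - q]? = s[R0 + k]? := by
    have := hQ (R0 - q - d) (by omega)
    rw [List.getElem?_drop, List.getElem?_drop] at this
    rw [show d + k + (R0 - q - d) = R0 + k - q by omega,
      show d + k + (R0 - q - d + q) = R0 + k by omega] at this
    exact this
  have e2 : s[R0 + k - q - p]? = s[R0 + k - q]? := by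
    have := hP (R0 + k - q - p) (by omega)
    rwa [show R0 + k - q - p + p = R0 + k - q by omega] at this
  have e3 : s[R0 + k - q - p]? = s[R0 + k - p]? := by
    have := hQ (R0 - q - p - d) (by omega)
    rw [List.getElem?_drop, List.getElem?_drop] at this
    rw [show d + k + (R0 - q - p - d) = R0 + k - q - p by omega,
      show d + k + (R0 - q - p - d + q) = R0 + k - p by omega] at this
    exact this
  have hi2 : i = R0 + k - p := by omega
  rw [hi', hi2, ← e3, e2, e1]

/-- (C3) an uncounted stretch of length `k` lies in ONE run: its first `R0 + k` letters have a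
common period `≤ p0`. -/
theorem stretch_run {p0 R0 : ℕ} (hR : 2 * p0 ≤ R0) {s : List α} :
    ∀ k, 0 < k → (∀ i, i < k → Unc p0 R0 (s.drop i)) →
      ∃ p, 0 < p ∧ p ≤ p0 ∧ ∀ i, i + p < R0 + k → s[i]? = s[i + p]? := by
  intro k
  induction k with
  | zero => intro h; omega
  | succ k ih =>
    intro _ H
    rcases Nat.eq_zero_or_pos k with rfl | hk
    · obtain ⟨-, p, hp, hp0, h⟩ := H 0 (by omega)
      refine ⟨p, hp, hp0, fun i hi => ?_⟩
      simpa using h i (by omega)
    · obtain ⟨p, hp, hp0, h⟩ := ih hk (fun i hi => H i (by omega))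
      refine ⟨p, hp, hp0, ?_⟩
      exact ext_step (d := 0) hp0 h hk (by omega) (by simpa using H k (by omega))

/-- (C1) if `s` starts uncounted and position `d > 0`, `d + 2 p0 ≤ R0`, is uncounted, then
position `1` is uncounted. -/
theorem unc_one {p0 R0 : ℕ} {s : List α} {d : ℕ} (hd : 0 < d) (hdR : d + 2 * p0 ≤ R0 + 1)
    (h0 : Unc p0 R0 s) (h1 : Unc p0 R0 (s.drop d)) : Unc p0 R0 (s.drop 1) := by
  obtain ⟨hl, p, hp, hp0, hP⟩ := h0
  have hP' : ∀ i, i + p < R0 + 1 → s[i]? = s[i + p]? := fun i hi => hP i (by omega)
  have := ext_step (d := d - 1) (k := 1) hp0 hP' (by omega) (by omega)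
    (by rwa [show d - 1 + 1 = d by omega])
  refine ⟨?_, p, hp, hp0, fun i hi => ?_⟩
  · have := h1.1
    simp only [List.length_drop] at this ⊢
    omega
  · rw [List.getElem?_drop, List.getElem?_drop]
    have h2 := this (1 + i) (by omega)
    rwa [show 1 + i + p = 1 + (i + p) by omega] at h2

/-- (C1) after the end of an uncounted stretch the next `R0 - 2 p0 + 1` positions are counted. -/
theorem counted_after {p0 R0 : ℕ} {s : List α} (h0 : Unc p0 R0 s) (h1 : ¬ Unc p0 R0 (s.drop 1))
    {d : ℕ} (hd : 0 < d) (hdR : d + 2 * p0 ≤ R0 + 1) : ¬ Unc p0 R0 (s.drop d) :=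
  fun h => h1 (unc_one hd hdR h0 h)

open Classical in
/-- The counted text: the windows at the counted positions. -/
noncomputable def ctext (p0 R0 : ℕ) : List α → List (List α)
  | [] => []
  | a :: s => if Unc p0 R0 (a :: s) then ctext p0 R0 s
      else (a :: s).take (R0 + 1) :: ctext p0 R0 s

theorem ctext_unc {p0 R0 : ℕ} {a : α} {s : List α} (h : Unc p0 R0 (a :: s)) :
    ctext p0 R0 (a :: s) = ctext p0 R0 s := by
  simp only [ctext, if_pos h]

theorem ctext_cnt {p0 R0 : ℕ} {a : α} {s : List α} (h : ¬ Unc p0 R0 (a :: s)) :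
    ctext p0 R0 (a :: s) = (a :: s).take (R0 + 1) :: ctext p0 R0 s := by
  simp only [ctext, if_neg h]

theorem ctext_length_le (p0 R0 : ℕ) (w : List α) : (ctext p0 R0 w).length ≤ w.length := by
  induction w with
  | nil => simp [ctext]
  | cons a s ih =>
    by_cases h : Unc p0 R0 (a :: s)
    · rw [ctext_unc h, List.length_cons]; omega
    · rw [ctext_cnt h, List.length_cons, List.length_cons]; omega

/-- index form on a counted prefix. -/
theorem ctext_get {p0 R0 : ℕ} : ∀ (k : ℕ) (w : List α), (∀ i, i ≤ k → ¬ Unc p0 R0 (w.drop i)) →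
    k < w.length → (ctext p0 R0 w)[k]? = some ((w.drop k).take (R0 + 1)) := by
  intro k
  induction k with
  | zero =>
    intro w h hl
    cases w with
    | nil => simp at hl
    | cons a s =>
      have := h 0 le_rfl
      rw [List.drop_zero] at this
      rw [ctext_cnt this]
      simp
  | succ k ih =>
    intro w h hl
    cases w with
    | nil => simp at hl
    | cons a s =>
      have := h 0 (by omega)
      rw [List.drop_zero] at this
      rw [ctext_cnt this, List.getElem?_cons_succ]
      rw [ih s (fun i hi => by simpa using h (i + 1) (by omega)) (by simpa using hl)]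
      simp

theorem ctext_drop {p0 R0 : ℕ} : ∀ (k : ℕ) (w : List α), (∀ i, i < k → ¬ Unc p0 R0 (w.drop i)) →
    k ≤ w.length → (ctext p0 R0 w).drop k = ctext p0 R0 (w.drop k) := by
  intro k
  induction k with
  | zero => intro w _ _; simp
  | succ k ih =>
    intro w h hl
    cases w with
    | nil => simp at hl
    | cons a s =>
      have := h 0 (by omega)
      rw [List.drop_zero] at this
      rw [ctext_cnt this, List.drop_succ_cons, List.drop_succ_cons]
      exact ih s (fun i hi => by simpa using h (i + 1) (by omega)) (by simpa using hl)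

theorem ctext_skip {p0 R0 : ℕ} : ∀ (k : ℕ) (w : List α), (∀ i, i < k → Unc p0 R0 (w.drop i)) →
    ctext p0 R0 w = ctext p0 R0 (w.drop k) := by
  intro k
  induction k with
  | zero => intro w _; simp
  | succ k ih =>
    intro w h
    cases w with
    | nil => simp
    | cons a s =>
      have := h 0 (by omega)
      rw [List.drop_zero] at this
      rw [ctext_unc this, List.drop_succ_cons]
      exact ih s (fun i hi => by simpa using h (i + 1) (by omega))

theorem exists_drop (p0 R0 : ℕ) (w : List α) :
    ∀ j, ∃ t, (ctext p0 R0 w).drop j = ctext p0 R0 (w.drop t) := by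
  induction w with
  | nil => intro j; exact ⟨0, by simp [ctext]⟩
  | cons a s ih =>
    intro j
    by_cases h : Unc p0 R0 (a :: s)
    · obtain ⟨t, ht⟩ := ih j
      exact ⟨t + 1, by rw [ctext_unc h, ht, List.drop_succ_cons]⟩
    · cases j with
      | zero => exact ⟨0, by simp⟩
      | succ j =>
        obtain ⟨t, ht⟩ := ih j
        exact ⟨t + 1, by rw [ctext_cnt h, List.drop_succ_cons, ht, List.drop_succ_cons]⟩

/-- equal windows at distance `p ≤ p0` make the position uncounted. -/
theorem unc_of_eq {p0 R0 p : ℕ} (hp : 0 < p) (hp0 : p ≤ p0) {v : List α} (hl : p < v.length)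
    (h : v.take (R0 + 1) = (v.drop p).take (R0 + 1)) : Unc p0 R0 v := by
  have hlen : min (R0 + 1) v.length = min (R0 + 1) (v.length - p) := by
    have := congrArg List.length h
    simpa using this
  refine ⟨by omega, p, hp, hp0, fun i hi => ?_⟩
  have := congrArg (fun l => l[i]?) h
  rw [List.getElem?_take_of_lt (by omega), List.getElem?_take_of_lt (by omega),
    List.getElem?_drop] at this
  rw [this, Nat.add_comm p i]

/-- first counted `p + 1` positions: letters `0` and `p` of the counted text differ. -/
theorem ne_of_counted {p0 R0 p : ℕ} (hp : 0 < p) (hp0 : p ≤ p0) {v : List α} (hl : p < v.length)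
    (hc : ∀ i, i ≤ p → ¬ Unc p0 R0 (v.drop i)) :
    (ctext p0 R0 v)[0]? ≠ (ctext p0 R0 v)[p]? := by
  intro h
  rw [ctext_get 0 v (fun i hi => hc i (by omega)) (by omega), ctext_get p v hc hl] at h
  rw [List.drop_zero, Option.some.injEq] at h
  exact hc 0 (by omega) (by rw [List.drop_zero]; exact unc_of_eq hp hp0 hl h)

/-- (C2), index form. -/
theorem no_period {p0 R0 p : ℕ} (hp : 0 < p) (hp0 : p ≤ p0) (hR : 3 * p0 ≤ R0) (w : List α)
    (hl : 2 * p < (ctext p0 R0 w).length)
    (h : ∀ i, i ≤ p → (ctext p0 R0 w)[i]? = (ctext p0 R0 w)[i + p]?) : False := by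
  classical
  induction w with
  | nil => simp [ctext] at hl
  | cons a s ih =>
    by_cases hu : Unc p0 R0 (a :: s)
    · rw [ctext_unc hu] at hl h
      exact ih hl h
    set w := a :: s with hw
    have hwl := ctext_length_le p0 R0 w
    by_cases hall : ∀ i, i ≤ p → ¬ Unc p0 R0 (w.drop i)
    · refine ne_of_counted hp hp0 (by omega) hall ?_
      have := h 0 (by omega)
      simpa using this
    · push Not at hall
      obtain ⟨d, ⟨hdp, hdU⟩, hmin⟩ : ∃ d, (d ≤ p ∧ Unc p0 R0 (w.drop d)) ∧
          ∀ i, i < d → ¬ Unc p0 R0 (w.drop i) := by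
        refine ⟨Nat.find hall, Nat.find_spec hall, fun i hi hU => ?_⟩
        exact Nat.find_min hall hi ⟨by have := (Nat.find_spec hall).1; omega, hU⟩
      have hdl : d ≤ w.length := by
        have := hdU.1
        simp only [List.length_drop] at this
        omega
      have hdrop := ctext_drop d w hmin hdl
      -- the end of the uncounted stretch
      have hex : ∃ k, ¬ Unc p0 R0 ((w.drop d).drop k) := by
        refine ⟨w.length, ?_⟩
        rw [List.drop_eq_nil_of_le (by simp)]
        exact not_unc_nil p0 R0
      obtain ⟨k, hk, hkmin⟩ : ∃ k, ¬ Unc p0 R0 ((w.drop d).drop k) ∧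
          ∀ i, i < k → Unc p0 R0 ((w.drop d).drop i) :=
        ⟨Nat.find hex, Nat.find_spec hex, fun i hi => not_not.mp (Nat.find_min hex hi)⟩
      have hk0 : 0 < k := by
        rcases Nat.eq_zero_or_pos k with h0 | h0
        · exfalso; rw [h0] at hk; exact hk (by simpa using hdU)
        · exact h0
      have hskip := ctext_skip k (w.drop d) hkmin
      set v := (w.drop d).drop k with hv
      have hv' : v = w.drop (d + k) := by rw [hv, List.drop_drop]
      have hcount : ∀ j, j ≤ p → ¬ Unc p0 R0 (v.drop j) := by
        intro j hj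
        have h1 : Unc p0 R0 ((w.drop d).drop (k - 1)) := hkmin (k - 1) (by omega)
        have h2 : ((w.drop d).drop (k - 1)).drop 1 = v := by
          rw [hv, List.drop_drop, show k - 1 + 1 = k by omega]
        have h3 : ((w.drop d).drop (k - 1)).drop (j + 1) = v.drop j := by
          rw [← h2]
          simp only [List.drop_drop]
          congr 1
          omega
        rw [← h3]
        exact counted_after h1 (by rw [h2]; exact hk) (by omega) (by omega)
      have hcv := ctext_length_le p0 R0 v
      have hlen : (ctext p0 R0 w).length ≤ d + (ctext p0 R0 v).length := by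
        have := congrArg List.length hdrop
        rw [hskip, List.length_drop] at this
        omega
      refine ne_of_counted hp hp0 (v := v) (by omega) hcount ?_
      have e := h d hdp
      have g : ∀ i, (ctext p0 R0 w)[d + i]? = (ctext p0 R0 v)[i]? := by
        intro i
        rw [← List.getElem?_drop, hdrop, hskip]
      rw [← g 0, ← g p]
      simpa using e

/-- (C2) **The counted text of EVERY word contains no cube of a word of length `≤ p0`.** -/
theorem no_cube {p0 R0 : ℕ} (hR : 3 * p0 ≤ R0) (w : List α) (x : List (List α)) (hx : x ≠ [])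
    (hxp : x.length ≤ p0) : ¬ (x ++ x ++ x) <:+: ctext p0 R0 w := by
  rintro ⟨a, b, hab⟩
  have hxl : 0 < x.length := List.length_pos_iff.mpr hx
  obtain ⟨t, ht⟩ := exists_drop p0 R0 w a.length
  have hd : (ctext p0 R0 w).drop a.length = x ++ (x ++ (x ++ b)) := by
    rw [← hab]
    simp [List.append_assoc]
  rw [ht] at hd
  refine no_period (p := x.length) hxl hxp hR (w.drop t) ?_ ?_
  · rw [hd]; simp; omega
  · intro i hi
    rw [hd]
    have key : ∀ (y z : List (List α)) (n : ℕ), (y ++ z)[n + y.length]? = z[n]? := by
      intro y z n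
      rw [List.getElem?_append_right (Nat.le_add_left _ _), Nat.add_sub_cancel]
    rw [key]
    rcases Nat.lt_or_ge i x.length with h | h
    · rw [List.getElem?_append_left h, List.getElem?_append_left h]
    · have e : i = 0 + x.length := by omega
      rw [e, key, key, List.getElem?_append_left hxl, List.getElem?_append_left hxl]

end Crest.Agent.R320.Counted706
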