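import Mathlib

/-!
# Row 320: relative star-free theorem (Straubing 1979, local divisor proof of Diekert-Kufleitner)

`SF f` = star-free closure of the family `{w | f w = t}`.  If `φ`, `τ` are morphisms from words into
finite monoids such that `φ w` is aperiodic whenever `τ w` is idempotent, then all fibres of `φ`
are in `SF τ`.
-/

set_option autoImplicit false

namespace Crest.Agent.R320.Crit_876

universe u

/-- value of a word -/
def ev {A M : Type u} [Monoid M] (φ : A → M) (w : List A) : M := (w.map φ).prod

section ev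
variable {A M : Type u} [Monoid M] (φ : A → M)

@[simp] theorem ev_nil : ev φ [] = 1 := rfl
@[simp] theorem ev_cons (a : A) (w : List A) : ev φ (a :: w) = φ a * ev φ w := by
  simp [ev]
@[simp] theorem ev_append (v w : List A) : ev φ (v ++ w) = ev φ v * ev φ w := by
  simp [ev]

theorem ev_flatten_replicate (w : List A) (n : ℕ) :
    ev φ (List.replicate n w).flatten = ev φ w ^ n := by
  induction n with
  | zero => simp
  | succ n ih => rw [List.replicate_succ, List.flatten_cons, ev_append, ih, pow_succ']
end ev

/-- star-free closure -/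
inductive SF {A T : Type u} (f : List A → T) : Set (List A) → Prop
  | base (t : T) : SF f {w | f w = t}
  | word1 (a : A) : SF f {[a]}
  | one : SF f {[]}
  | compl {L : Set (List A)} : SF f L → SF f Lᶜ
  | union {L K : Set (List A)} : SF f L → SF f K → SF f (L ∪ K)
  | cat {L K : Set (List A)} : SF f L → SF f K → SF f {w | ∃ u v, u ∈ L ∧ v ∈ K ∧ u ++ v = w}

namespace SF

variable {A T : Type u} {f : List A → T}

theorem congr {L K : Set (List A)} (h : SF f L) (e : ∀ w, w ∈ L ↔ w ∈ K) : SF f K := by
  have : L = K := Set.ext e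
  exact this ▸ h

theorem inter {L K : Set (List A)} (hL : SF f L) (hK : SF f K) : SF f (L ∩ K) := by
  have := (hL.compl.union hK.compl).compl
  simpa [Set.compl_union] using this

theorem univ : SF f (Set.univ : Set (List A)) := by
  refine (SF.one.union SF.one.compl).congr fun w => ?_
  simp

theorem empty : SF f (∅ : Set (List A)) := by
  refine univ.compl.congr fun w => ?_
  simp

theorem finUnion {ι : Type*} [Finite ι] (g : ι → Set (List A)) (h : ∀ i, SF f (g i)) :
    SF f {w | ∃ i, w ∈ g i} := by
  classical
  have := Fintype.ofFinite ι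
  have key : ∀ s : Finset ι, SF f {w | ∃ i ∈ s, w ∈ g i} := by
    intro s
    induction s using Finset.induction_on with
    | empty => exact empty.congr fun w => by simp
    | insert a s _ ih =>
      refine ((h a).union ih).congr fun w => ?_
      simp
  exact (key Finset.univ).congr fun w => by simp

/-- constant condition -/
theorem and_const (p : Prop) {L : Set (List A)} (h : p → SF f L) : SF f {w | p ∧ w ∈ L} := by
  by_cases hp : p
  · exact (h hp).congr fun w => by simp [hp]
  · exact empty.congr fun w => by simp [hp]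

/-- words over `B` -/
theorem inB [Finite A] (B : Finset A) : SF f {w : List A | ∀ a ∈ w, a ∈ B} := by
  have h := (finUnion (f := f) (ι := {a : A // a ∉ B})
    (fun a => {w | ∃ x y, x ∈ (Set.univ : Set (List A)) ∧
      y ∈ {w | ∃ u v, u ∈ ({[a.1]} : Set (List A)) ∧ v ∈ (Set.univ : Set (List A)) ∧ u ++ v = w}
      ∧ x ++ y = w})
    (fun a => univ.cat ((SF.word1 a.1).cat univ))).compl
  refine h.congr fun w => ?_
  constructor
  · intro hw a ha
    by_contra hB
    apply hw
    obtain ⟨x, y, rfl⟩ := List.append_of_mem ha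
    exact ⟨⟨a, hB⟩, x, a :: y, trivial, ⟨[a], y, rfl, trivial, rfl⟩, rfl⟩
  · rintro hw ⟨a, x, y, -, ⟨u, v, hu, -, rfl⟩, rfl⟩
    apply a.2
    apply hw
    rw [Set.mem_singleton_iff.1 hu]
    simp

end SF

/-! ### local divisors -/

section LD
variable {M : Type u} [Monoid M]

/-- `c M ∩ M c` -/
def LD (c : M) : Type u := {x : M // (∃ y, x = y * c) ∧ ∃ y, x = c * y}

namespace LD
variable {c : M}

instance [Finite M] : Finite (LD c) := inferInstanceAs (Finite {x : M // _})

noncomputable def l (x : LD c) : M := x.2.1.choose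
theorem l_spec (x : LD c) : x.1 = l x * c := x.2.1.choose_spec
noncomputable def r (x : LD c) : M := x.2.2.choose
theorem r_spec (x : LD c) : x.1 = c * r x := x.2.2.choose_spec

theorem lr (x y : LD c) : l x * y.1 = x.1 * r y := by
  rw [r_spec y, ← mul_assoc, ← l_spec]

noncomputable instance : Mul (LD c) :=
  ⟨fun x y => ⟨l x * y.1, ⟨l x * l y, by rw [mul_assoc, ← l_spec]⟩,
    ⟨r x * r y, by rw [lr, ← mul_assoc, ← r_spec]⟩⟩⟩

theorem val_mul (x y : LD c) : (x * y).1 = l x * y.1 := rfl
theorem val_mul' (x y : LD c) : (x * y).1 = x.1 * r y := lr x y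

/-- the product computed with any right factor -/
theorem val_mul_of (x y : LD c) {q : M} (h : y.1 = c * q) : (x * y).1 = x.1 * q := by
  rw [val_mul, h, ← mul_assoc, ← l_spec]

theorem val_mul_of_left (x y : LD c) {q : M} (h : x.1 = q * c) : (x * y).1 = q * y.1 := by
  rw [val_mul', h, mul_assoc, ← r_spec]

noncomputable instance : One (LD c) := ⟨⟨c, ⟨1, by simp⟩, ⟨1, by simp⟩⟩⟩

theorem val_one : (1 : LD c).1 = c := rfl

noncomputable instance : Monoid (LD c) where
  mul_assoc x y z := by
    apply Subtype.ext
    rw [val_mul' (x * y) z, val_mul x y, val_mul x (y * z), val_mul' y z, mul_assoc]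
  one_mul x := by
    apply Subtype.ext
    rw [val_mul_of_left 1 x (q := 1) (by simp [val_one]), one_mul]
  mul_one x := by
    apply Subtype.ext
    rw [val_mul_of x 1 (q := 1) (by simp [val_one]), mul_one]

theorem val_pow (x : LD c) {q : M} (h : x.1 = c * q) (n : ℕ) : (x ^ n).1 = c * q ^ n := by
  induction n with
  | zero => simp [val_one]
  | succ n ih => rw [pow_succ, val_mul_of _ x h, ih, pow_succ, mul_assoc]

theorem card_lt [Finite M] (hc : ¬ IsUnit c) : Nat.card (LD c) < Nat.card M := by
  apply Finite.card_subtype_lt (x := (1 : M))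
  rintro ⟨⟨y, hy⟩, ⟨z, hz⟩⟩
  apply hc
  exact ⟨⟨c, z, hz.symm, by
    have : y = z := by
      calc y = y * (c * z) := by rw [← hz, mul_one]
        _ = z := by rw [← mul_assoc, ← hy, one_mul]
    rw [← this, ← hy]⟩, rfl⟩

end LD
end LD

end Crest.Agent.R320.Crit_876
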