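import Crest.Agent.R320.Crit1_876

/-!
# Row 320: relative star-free theorem, main induction
-/

set_option autoImplicit false

namespace Crest.Agent.R320.Crit_876

universe u

/-- idempotent power in a finite monoid -/
theorem exists_idem_pow {T : Type u} [Monoid T] [Finite T] (x : T) :
    ∃ k : ℕ, 0 < k ∧ IsIdempotentElem (x ^ k) := by
  obtain ⟨i, j, hij, h⟩ := Finite.exists_ne_map_eq_of_infinite (fun n : ℕ => x ^ n)
  wlog hlt : i < j generalizing i j with H
  · exact H j i hij.symm h.symm (by omega)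
  have h' : x ^ i = x ^ j := h
  obtain ⟨p, hp, rfl⟩ : ∃ p, 0 < p ∧ j = i + p := ⟨j - i, by omega, by omega⟩
  have h1 : ∀ n, i ≤ n → x ^ (n + p) = x ^ n := by
    intro n hn
    obtain ⟨d, rfl⟩ := Nat.exists_eq_add_of_le hn
    rw [show i + d + p = (i + p) + d by ring, pow_add, ← h', ← pow_add]
  have h2 : ∀ q n, i ≤ n → x ^ (n + q * p) = x ^ n := by
    intro q
    induction q with
    | zero => intro n _; simp
    | succ q ih =>
      intro n hn
      rw [show n + (q + 1) * p = (n + q * p) + p by ring, h1 _ (by omega), ih n hn]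
  refine ⟨(i + 1) * p, by positivity, ?_⟩
  change x ^ ((i + 1) * p) * x ^ ((i + 1) * p) = x ^ ((i + 1) * p)
  rw [← pow_add]
  exact h2 (i + 1) _ (by nlinarith)

theorem eq_one_of_unit {M : Type u} [Monoid M] {g : M} (hg : IsUnit g)
    (h : ∃ n, g ^ n = g ^ (n + 1)) : g = 1 := by
  obtain ⟨n, hn⟩ := h
  have : g ^ n * 1 = g ^ n * g := by rw [mul_one, ← pow_succ]; exact hn
  exact ((hg.pow n).mul_left_cancel this).symm

theorem isUnit_ev {A M : Type u} [Monoid M] {φ : A → M} {w : List A}
    (h : ∀ a ∈ w, IsUnit (φ a)) : IsUnit (ev φ w) := by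
  induction w with
  | nil => simp
  | cons a w ih =>
    rw [ev_cons]
    exact (h a (by simp)).mul (ih fun b hb => h b (by simp [hb]))

/-- Case 1: all letters are units -/
theorem unit_case {A M T : Type u} [Monoid M] [Monoid T] [Finite T]
    (φ : A → M) (τ : A → T) (B : Finset A)
    (hyp : ∀ w : List A, (∀ a ∈ w, a ∈ B) → IsIdempotentElem (ev τ w) →
      ∃ n, ev φ w ^ n = ev φ w ^ (n + 1))
    (hu : ∀ a ∈ B, IsUnit (φ a)) (w w' : List A) (hw : ∀ a ∈ w, a ∈ B) (hw' : ∀ a ∈ w', a ∈ B)
    (h : ev τ w = ev τ w') : ev φ w = ev φ w' := by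
  obtain ⟨k, hk, he⟩ := exists_idem_pow (ev τ w)
  obtain ⟨k, rfl⟩ : ∃ j, k = j + 1 := ⟨k - 1, by omega⟩
  set v := (List.replicate k w).flatten with hv
  have hvB : ∀ a ∈ v, a ∈ B := by
    intro a ha
    rw [hv, List.mem_flatten] at ha
    obtain ⟨l, hl, hal⟩ := ha
    rw [List.eq_of_mem_replicate hl] at hal
    exact hw a hal
  have e1 : ev τ (w ++ v) = ev τ w ^ (k + 1) := by
    rw [ev_append, hv, ev_flatten_replicate, pow_succ']
  have e2 : ev τ (w' ++ v) = ev τ w ^ (k + 1) := by
    rw [ev_append, ← h, hv, ev_flatten_replicate, pow_succ']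
  have hB1 : ∀ a ∈ w ++ v, a ∈ B := by
    intro a ha
    rcases List.mem_append.1 ha with ha | ha
    · exact hw a ha
    · exact hvB a ha
  have hB2 : ∀ a ∈ w' ++ v, a ∈ B := by
    intro a ha
    rcases List.mem_append.1 ha with ha | ha
    · exact hw' a ha
    · exact hvB a ha
  have g1 := eq_one_of_unit (isUnit_ev fun a ha => hu a (hB1 a ha))
    (hyp _ hB1 (by rw [e1]; exact he))
  have g2 := eq_one_of_unit (isUnit_ev fun a ha => hu a (hB2 a ha))
    (hyp _ hB2 (by rw [e2]; exact he))
  rw [ev_append] at g1 g2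
  exact (isUnit_ev fun a ha => hu a (hvB a ha)).mul_right_cancel (g1.trans g2.symm)

/-- unique factorisation at the first marked letter -/
theorem first_unique {A : Type u} {c : A} : ∀ {v v' w w' : List A}, c ∉ v → c ∉ v' →
    v ++ c :: w = v' ++ c :: w' → v = v' ∧ w = w'
  | [], [], w, w', _, _, h => by simpa using h
  | [], b :: v', w, w', _, h2, h => by
    simp only [List.nil_append, List.cons_append, List.cons.injEq] at h
    exact (h2 (by simp [h.1])).elim
  | b :: v, [], w, w', h1, _, h => by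
    simp only [List.nil_append, List.cons_append, List.cons.injEq] at h
    exact (h1 (by simp [← h.1])).elim
  | b :: v, b' :: v', w, w', h1, h2, h => by
    simp only [List.cons_append, List.cons.injEq] at h
    obtain ⟨rfl, h⟩ := h
    have := first_unique (c := c) (fun hc => h1 (by simp [hc])) (fun hc => h2 (by simp [hc])) h
    exact ⟨by rw [this.1], this.2⟩

section Step
variable {A M T : Type u} [Monoid M] [Monoid T] (φ : A → M) (τ : A → T) (B' : Finset A) (c : A)

/-- realised block letters -/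
def Sg : Type u := {p : M × T // ∃ v : List A, (∀ a ∈ v, a ∈ B') ∧ ev φ v = p.1 ∧ ev τ v = p.2}

instance [Finite M] [Finite T] : Finite (Sg φ τ B') := inferInstanceAs (Finite {p : M × T // _})

/-- `Rel W w` : `w = v₁ c v₂ c ... v_k c` with block letters `W` -/
inductive Rel : List (Sg φ τ B') → List A → Prop
  | nil : Rel [] []
  | cons (s : Sg φ τ B') (W : List (Sg φ τ B')) (v w : List A) (hv : ∀ a ∈ v, a ∈ B')
      (h1 : ev φ v = s.1.1) (h2 : ev τ v = s.1.2) (h : Rel W w) : Rel (s :: W) (v ++ c :: w)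

variable {φ τ B' c}

theorem Rel.unique (hc : c ∉ B') {W W' : List (Sg φ τ B')} {w : List A}
    (h : Rel φ τ B' c W w) (h' : Rel φ τ B' c W' w) : W = W' := by
  induction h generalizing W' with
  | nil =>
    generalize hx : ([] : List A) = x at h'
    cases h' with
    | nil => rfl
    | cons s W v w hv h1 h2 h => simp at hx
  | cons s W v w hv h1 h2 h ih =>
    generalize hx : v ++ c :: w = x at h'
    cases h' with
    | nil => simp at hx
    | cons s' W' v' w' hv' h1' h2' h' =>
      obtain ⟨e1, e2⟩ := first_unique (fun hh => hc (hv _ hh)) (fun hh => hc (hv' _ hh)) hx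
      subst e1 e2
      have : s = s' := by
        apply Subtype.ext
        apply Prod.ext
        · rw [← h1, ← h1']
        · rw [← h2, ← h2']
      rw [this, ih h']

theorem Rel.append {W W' : List (Sg φ τ B')} {w w' : List A}
    (h : Rel φ τ B' c W w) (h' : Rel φ τ B' c W' w') : Rel φ τ B' c (W ++ W') (w ++ w') := by
  induction h with
  | nil => simpa using h'
  | cons s W v w hv h1 h2 h ih =>
    have := Rel.cons s (W ++ W') v (w ++ w') hv h1 h2 ih
    simpa using this

theorem Rel.split {W W' : List (Sg φ τ B')} {w : List A}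
    (h : Rel φ τ B' c (W ++ W') w) : ∃ x y, Rel φ τ B' c W x ∧ Rel φ τ B' c W' y ∧ x ++ y = w := by
  induction W generalizing w with
  | nil => exact ⟨[], w, .nil, h, rfl⟩
  | cons s W ih =>
    rw [List.cons_append] at h
    cases h with
    | cons _ _ v w hv h1 h2 h =>
      obtain ⟨x, y, hx, hy, rfl⟩ := ih h
      exact ⟨v ++ c :: x, y, .cons s W v x hv h1 h2 hx, hy, by simp⟩

/-- domain of the decomposition -/
theorem Rel.exists {B : Finset A} (hB : ∀ a ∈ B, a ≠ c → a ∈ B') (n : ℕ) :
    ∀ w : List A, w.length ≤ n → (∀ a ∈ w, a ∈ B) →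
    (w = [] ∨ ∃ x, w = x ++ [c]) → ∃ W, Rel φ τ B' c W w := by
  induction n with
  | zero =>
    intro w hw _ _
    have : w = [] := List.length_eq_zero_iff.1 (by omega)
    subst this
    exact ⟨[], .nil⟩
  | succ n ih =>
    intro w hw hwB h
    rcases h with rfl | ⟨x, rfl⟩
    · exact ⟨[], .nil⟩
    · obtain ⟨v, w1, e, hcv⟩ := List.eq_append_cons_of_mem (a := c) (xs := x ++ [c]) (by simp)
      have hvB : ∀ a ∈ v, a ∈ B' := fun a ha =>
        hB a (hwB a (by rw [e]; simp [ha])) (fun hac => hcv (hac ▸ ha))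
      have hlen : w1.length ≤ n := by
        have := congrArg List.length e
        simp only [List.length_append, List.length_cons, List.length_nil] at this hw
        omega
      obtain ⟨W, hW⟩ := ih w1 hlen (fun a ha => hwB a (by rw [e]; simp [ha])) (by
        rcases List.eq_nil_or_concat w1 with h1 | ⟨L, b, h1⟩
        · exact Or.inl h1
        · right
          refine ⟨L, ?_⟩
          rw [h1] at e ⊢
          have e' : x ++ [c] = (v ++ c :: L) ++ [b] := by rw [e]; simp
          have := (List.append_inj' e' rfl).2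
          simp only [List.cons.injEq, and_true] at this
          simp [this])
      rw [e]
      exact ⟨⟨(ev φ v, ev τ v), v, hvB, rfl, rfl⟩ :: W, .cons _ W v w1 hvB rfl rfl hW⟩

theorem Rel.dom {B : Finset A} (hB : ∀ a ∈ B', a ∈ B) (hcB : c ∈ B) {W : List (Sg φ τ B')}
    {w : List A} (h : Rel φ τ B' c W w) :
    (∀ a ∈ w, a ∈ B) ∧ (w = [] ∨ ∃ x, w = x ++ [c]) := by
  induction h with
  | nil => simp
  | cons s W v w hv h1 h2 h ih =>
    constructor
    · intro a ha
      rw [List.mem_append, List.mem_cons] at ha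
      rcases ha with ha | rfl | ha
      · exact hB a (hv a ha)
      · exact hcB
      · exact ih.1 a ha
    · right
      rcases ih.2 with rfl | ⟨x, rfl⟩
      · exact ⟨v, rfl⟩
      · exact ⟨v ++ c :: x, by simp⟩

/-- letter values of the block alphabet -/
def tau' (τ : A → T) (c : A) (φ : A → M) (B' : Finset A) : Sg φ τ B' → T := fun s => s.1.2 * τ c

noncomputable def psi (φ : A → M) (c : A) (τ : A → T) (B' : Finset A) :
    Sg φ τ B' → LD (φ c) := fun s =>
  ⟨φ c * s.1.1 * φ c, ⟨φ c * s.1.1, rfl⟩, ⟨s.1.1 * φ c, by rw [mul_assoc]⟩⟩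

theorem Rel.ev_tau {W : List (Sg φ τ B')} {w : List A} (h : Rel φ τ B' c W w) :
    ev τ w = ev (tau' τ c φ B') W := by
  induction h with
  | nil => rfl
  | cons s W v w hv h1 h2 h ih =>
    rw [ev_append, ev_cons, ev_cons, ih, h2, tau', mul_assoc]

theorem Rel.ev_psi {W : List (Sg φ τ B')} {w : List A} (h : Rel φ τ B' c W w) :
    (ev (psi φ c τ B') W).1 = φ c * ev φ w := by
  induction h with
  | nil => simp [LD.val_one]
  | cons s W v w hv h1 h2 h ih =>
    rw [ev_cons, LD.val_mul_of_left _ _ (q := φ c * s.1.1) rfl, ih, ev_append, ev_cons, h1]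
    simp only [mul_assoc]

theorem Rel.exists_real (W : List (Sg φ τ B')) : ∃ w, Rel φ τ B' c W w := by
  induction W with
  | nil => exact ⟨[], .nil⟩
  | cons s W ih =>
    obtain ⟨w, hw⟩ := ih
    obtain ⟨v, hv, h1, h2⟩ := s.2
    exact ⟨v ++ c :: w, .cons s W v w hv h1 h2 hw⟩

end Step

end Crest.Agent.R320.Crit_876
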