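import Crest.Agent.R320.Crit2_876
import Crest.Agent.R320.Hk2_851

/-!
# Row 320: relative star-free theorem, conclusion, and the form over `HL`
-/

set_option autoImplicit false

namespace Crest.Agent.R320.Crit_876

universe u

section Pull
variable {A M T : Type u} [Finite A] [Monoid M] [Monoid T] [Finite M] [Finite T]
  {φ : A → M} {τ : A → T} {B B' : Finset A} {c : A}

/-- the domain of the block decomposition is star-free -/
theorem sf_dom (f : List A → T) : SF f {w : List A | (∀ a ∈ w, a ∈ B) ∧ (w = [] ∨ ∃ x, w = x ++ [c])} := by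
  refine ((SF.inB (f := f) B).inter (SF.one.union (SF.univ.cat (SF.word1 c)))).congr fun w => ?_
  constructor
  · rintro ⟨h1, h2 | ⟨x, y, -, hy, rfl⟩⟩
    · exact ⟨h1, Or.inl h2⟩
    · rw [Set.mem_singleton_iff.1 hy] at h1 ⊢
      exact ⟨h1, Or.inr ⟨x, rfl⟩⟩
  · rintro ⟨h1, h2 | ⟨x, rfl⟩⟩
    · exact ⟨h1, Or.inl h2⟩
    · exact ⟨h1, Or.inr ⟨x, [c], trivial, rfl, rfl⟩⟩

/-- pull-back of star-free languages along the block decomposition -/
theorem sf_pull (hB : ∀ a, a ∈ B ↔ a ∈ B' ∨ a = c) (hc : c ∉ B')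
    (h0 : ∀ m, SF (ev τ) {w : List A | (∀ a ∈ w, a ∈ B') ∧ ev φ w = m})
    {K : Set (List (Sg φ τ B'))} (hK : SF (ev (tau' τ c φ B')) K) :
    SF (ev τ) {w : List A | ∃ W ∈ K, Rel φ τ B' c W w} := by
  have hBc : c ∈ B := (hB c).2 (Or.inr rfl)
  have hBB : ∀ a ∈ B', a ∈ B := fun a ha => (hB a).2 (Or.inl ha)
  have hBB' : ∀ a ∈ B, a ≠ c → a ∈ B' := fun a ha hac => ((hB a).1 ha).resolve_right hac
  have hdom : SF (ev τ) {w : List A | ∃ W : List (Sg φ τ B'), Rel φ τ B' c W w} := by
    refine (sf_dom (B := B) (c := c) (ev τ)).congr fun w => ?_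
    constructor
    · rintro ⟨h1, h2⟩
      exact Rel.exists hBB' w.length w le_rfl h1 h2
    · rintro ⟨W, hW⟩
      exact hW.dom hBB hBc
  induction hK with
  | base t =>
    refine (hdom.inter (SF.base t)).congr fun w => ?_
    constructor
    · rintro ⟨⟨W, hW⟩, h⟩
      refine ⟨W, ?_, hW⟩
      change ev (tau' τ c φ B') W = t
      rw [← hW.ev_tau]; exact h
    · rintro ⟨W, h, hW⟩
      refine ⟨⟨W, hW⟩, ?_⟩
      change ev τ w = t
      rw [hW.ev_tau]; exact h
  | word1 s =>
    refine (((h0 s.1.1).inter (SF.base s.1.2)).cat (SF.word1 c)).congr fun w => ?_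
    constructor
    · rintro ⟨v, y, ⟨⟨h1, h2⟩, h3⟩, hy, rfl⟩
      rw [Set.mem_singleton_iff.1 hy]
      exact ⟨[s], rfl, .cons s [] v [] h1 h2 h3 .nil⟩
    · rintro ⟨W, hWs, hW⟩
      rw [Set.mem_singleton_iff.1 hWs] at hW
      cases hW with
      | cons _ _ v w hv h1 h2 h =>
        cases h
        exact ⟨v, [c], ⟨⟨hv, h1⟩, h2⟩, rfl, rfl⟩
  | one =>
    refine SF.one.congr fun w => ?_
    constructor
    · intro hw
      rw [Set.mem_singleton_iff.1 hw]
      exact ⟨[], rfl, .nil⟩
    · rintro ⟨W, hWs, hW⟩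
      rw [Set.mem_singleton_iff.1 hWs] at hW
      cases hW
      rfl
  | @compl L _ ih =>
    refine (hdom.inter ih.compl).congr fun w => ?_
    constructor
    · rintro ⟨⟨W, hW⟩, h⟩
      exact ⟨W, fun hL => h ⟨W, hL, hW⟩, hW⟩
    · rintro ⟨W, hL, hW⟩
      refine ⟨⟨W, hW⟩, ?_⟩
      rintro ⟨W', hL', hW'⟩
      rw [hW.unique hc hW'] at hL
      exact hL hL'
  | @union L K _ _ ih1 ih2 =>
    refine (ih1.union ih2).congr fun w => ?_
    constructor
    · rintro (⟨W, h, hW⟩ | ⟨W, h, hW⟩)
      · exact ⟨W, Or.inl h, hW⟩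
      · exact ⟨W, Or.inr h, hW⟩
    · rintro ⟨W, h | h, hW⟩
      · exact Or.inl ⟨W, h, hW⟩
      · exact Or.inr ⟨W, h, hW⟩
  | @cat L K _ _ ih1 ih2 =>
    refine (ih1.cat ih2).congr fun w => ?_
    constructor
    · rintro ⟨x, y, ⟨W, h, hW⟩, ⟨W', h', hW'⟩, rfl⟩
      exact ⟨W ++ W', ⟨W, W', h, h', rfl⟩, hW.append hW'⟩
    · rintro ⟨_, ⟨W, W', h, h', rfl⟩, hW⟩
      obtain ⟨x, y, hx, hy, rfl⟩ := hW.split
      exact ⟨x, y, ⟨W, h, hx⟩, ⟨W', h', hy⟩, rfl⟩

end Pull

/-- last factorisation -/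
theorem last_split {A : Type u} (c : A) (r : List A) :
    ∃ w v, r = w ++ v ∧ c ∉ v ∧ (w = [] ∨ ∃ x, w = x ++ [c]) := by
  induction r using List.reverseRecOn with
  | nil => exact ⟨[], [], rfl, by simp, Or.inl rfl⟩
  | append_singleton r a ih =>
    by_cases h : a = c
    · exact ⟨r ++ [a], [], by simp, by simp, Or.inr ⟨r, by rw [h]⟩⟩
    · obtain ⟨w, v, e, hv, hw⟩ := ih
      refine ⟨w, v ++ [a], by rw [e]; simp, ?_, hw⟩
      rw [List.mem_append, not_or]
      exact ⟨hv, by simpa using fun hh => h hh.symm⟩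

/-- **relative star-free theorem**, induction form -/
theorem main_aux (n : ℕ) : ∀ (M : Type u) [Monoid M] [Finite M], Nat.card M ≤ n →
    ∀ (A : Type u) [Finite A] (T : Type u) [Monoid T] [Finite T] (φ : A → M) (τ : A → T)
    (k : ℕ) (B : Finset A), B.card ≤ k →
    (∀ w : List A, (∀ a ∈ w, a ∈ B) → IsIdempotentElem (ev τ w) →
      ∃ n, ev φ w ^ n = ev φ w ^ (n + 1)) →
    ∀ m, SF (ev τ) {w : List A | (∀ a ∈ w, a ∈ B) ∧ ev φ w = m} := by
  induction n with
  | zero =>
    intro M _ _ hM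
    have : 0 < Nat.card M := Nat.card_pos
    omega
  | succ n ihn =>
    intro M _ _ hM A _ T _ _ φ τ k
    induction k with
    | zero =>
      intro B hB _ m
      have hB0 : B = ∅ := Finset.card_eq_zero.1 (by omega)
      subst hB0
      refine (SF.and_const ((1 : M) = m) (fun _ => SF.one)).congr fun w => ?_
      constructor
      · rintro ⟨h1, h2⟩
        rw [Set.mem_singleton_iff.1 h2]
        exact ⟨by simp, by rw [ev_nil]; exact h1⟩
      · rintro ⟨h1, h2⟩
        have hw : w = [] := List.eq_nil_iff_forall_not_mem.2 fun a ha => by simpa using h1 a ha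
        subst hw
        exact ⟨by rw [← h2]; rfl, rfl⟩
    | succ k ihk =>
      intro B hB hyp m
      classical
      by_cases hu : ∀ a ∈ B, IsUnit (φ a)
      · have h1 := SF.finUnion (f := ev τ)
          (ι := {t : T // ∃ w0 : List A, (∀ a ∈ w0, a ∈ B) ∧ ev τ w0 = t ∧ ev φ w0 = m})
          (fun t => {w | ev τ w = t.1}) (fun t => SF.base t.1)
        refine ((SF.inB (f := ev τ) B).inter h1).congr fun w => ?_
        constructor
        · rintro ⟨hw, ⟨t, w0, h2, h3, h4⟩, h5⟩
          refine ⟨hw, ?_⟩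
          rw [unit_case φ τ B hyp hu w w0 hw h2 (by rw [h3]; exact h5)]
          exact h4
        · rintro ⟨hw, h2⟩
          exact ⟨hw, ⟨ev τ w, w, hw, rfl, h2⟩, rfl⟩
      · push Not at hu
        obtain ⟨c, hcB, hcu⟩ := hu
        set B' := B.erase c with hB'
        have hcB' : c ∉ B' := by simp [hB']
        have hBiff : ∀ a, a ∈ B ↔ a ∈ B' ∨ a = c := by
          intro a
          rw [hB', Finset.mem_erase]
          constructor
          · intro ha
            by_cases h : a = c
            · exact Or.inr h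
            · exact Or.inl ⟨h, ha⟩
          · rintro (h | rfl)
            · exact h.2
            · exact hcB
        have hBB : ∀ a ∈ B', a ∈ B := fun a ha => (hBiff a).2 (Or.inl ha)
        have hcard : B'.card ≤ k := by
          rw [hB', Finset.card_erase_of_mem hcB]; omega
        have h0 := ihk B' hcard (fun w hw => hyp w fun a ha => hBB a (hw a ha))
        -- local divisor
        have hLD : Nat.card (LD (φ c)) ≤ n := by
          have := LD.card_lt hcu
          omega
        haveI : Fintype (Sg φ τ B') := Fintype.ofFinite _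
        have hyp' : ∀ W : List (Sg φ τ B'), (∀ a ∈ W, a ∈ (Finset.univ : Finset (Sg φ τ B'))) →
            IsIdempotentElem (ev (tau' τ c φ B') W) →
            ∃ n, ev (psi φ c τ B') W ^ n = ev (psi φ c τ B') W ^ (n + 1) := by
          intro W _ hW
          obtain ⟨w, hw⟩ := Rel.exists_real (c := c) W
          rw [← hw.ev_tau] at hW
          obtain ⟨j, hj⟩ := hyp w (hw.dom hBB hcB).1 hW
          refine ⟨j, Subtype.ext ?_⟩
          rw [LD.val_pow _ hw.ev_psi, LD.val_pow _ hw.ev_psi, hj]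
        have h1 : ∀ x : LD (φ c), SF (ev τ) {w : List A | ∃ W ∈
            {W : List (Sg φ τ B') | (∀ a ∈ W, a ∈ (Finset.univ : Finset (Sg φ τ B'))) ∧
              ev (psi φ c τ B') W = x}, Rel φ τ B' c W w} := fun x =>
          sf_pull hBiff hcB' h0 (ihn (LD (φ c)) hLD (Sg φ τ B') T (psi φ c τ B') (tau' τ c φ B')
            _ Finset.univ le_rfl hyp' x)
        have h2 := SF.finUnion (f := ev τ)
          (ι := {p : M × LD (φ c) × M // p.1 * p.2.1.1 * p.2.2 = m})
          (fun p => {w | ∃ u v, u ∈ {w : List A | (∀ a ∈ w, a ∈ B') ∧ ev φ w = p.1.1} ∧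
            v ∈ {w | ∃ u v, u ∈ ({[c]} : Set (List A)) ∧ v ∈ {w | ∃ u v,
              u ∈ {w : List A | ∃ W ∈
            {W : List (Sg φ τ B') | (∀ a ∈ W, a ∈ (Finset.univ : Finset (Sg φ τ B'))) ∧
              ev (psi φ c τ B') W = p.1.2.1}, Rel φ τ B' c W w} ∧
              v ∈ {w : List A | (∀ a ∈ w, a ∈ B') ∧ ev φ w = p.1.2.2} ∧ u ++ v = w} ∧ u ++ v = w}
              ∧ u ++ v = w})
          (fun p => (h0 p.1.1).cat ((SF.word1 c).cat ((h1 p.1.2.1).cat (h0 p.1.2.2))))
        refine ((h0 m).union h2).congr fun w => ?_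
        constructor
        · rintro (⟨h3, h4⟩ | ⟨⟨⟨m1, x, m3⟩, hm⟩, v0, y, ⟨hv0, e0⟩, ⟨c', z, hc', ⟨w', v1,
            ⟨W, ⟨-, hWx⟩, hW⟩, ⟨hv1, e1⟩, rfl⟩, rfl⟩, rfl⟩)
          · exact ⟨fun a ha => hBB a (h3 a ha), h4⟩
          · rw [Set.mem_singleton_iff.1 hc']
            constructor
            · intro a ha
              rw [List.mem_append, List.mem_append, List.mem_append, List.mem_singleton] at ha
              rcases ha with ha | rfl | ha | ha
              · exact hBB a (hv0 a ha)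
              · exact hcB
              · exact (hW.dom hBB hcB).1 a ha
              · exact hBB a (hv1 a ha)
            · have h5 := hW.ev_psi
              rw [hWx] at h5
              simp only at hm e0 e1
              rw [ev_append, ev_append, ev_append, ev_cons, ev_nil, mul_one, e0, e1, ← hm, h5]
              simp only [mul_assoc]
        · rintro ⟨hw, hm⟩
          by_cases hcw : c ∈ w
          · right
            obtain ⟨v0, r, rfl, hv0⟩ := List.eq_append_cons_of_mem hcw
            obtain ⟨w', v1, rfl, hv1, hw'⟩ := last_split c r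
            have hB0 : ∀ a ∈ v0, a ∈ B' := fun a ha =>
              ((hBiff a).1 (hw a (by simp [ha]))).resolve_right fun h => hv0 (h ▸ ha)
            have hB1 : ∀ a ∈ v1, a ∈ B' := fun a ha =>
              ((hBiff a).1 (hw a (by simp [ha]))).resolve_right fun h => hv1 (h ▸ ha)
            obtain ⟨W, hW⟩ := Rel.exists (φ := φ) (τ := τ) (B := B) (B' := B') (c := c)
              (fun a ha hac => ((hBiff a).1 ha).resolve_right hac) w'.length w' le_rfl
              (fun a ha => hw a (by simp [ha])) hw'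
            refine ⟨⟨⟨ev φ v0, ev (psi φ c τ B') W, ev φ v1⟩, ?_⟩, v0, c :: (w' ++ v1), ⟨hB0, rfl⟩,
              ⟨[c], w' ++ v1, rfl, ⟨w', v1, ⟨W, ⟨fun a _ => Finset.mem_univ a, rfl⟩, hW⟩,
                ⟨hB1, rfl⟩, rfl⟩, rfl⟩, rfl⟩
            simp only
            rw [hW.ev_psi, ← hm, ev_append, ev_cons, ev_append]
            simp only [mul_assoc]
          · left
            refine ⟨fun a ha => ?_, hm⟩
            exact ((hBiff a).1 (hw a ha)).resolve_right fun h => hcw (h ▸ ha)

/-- **relative star-free theorem** -/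
theorem main {A M T : Type u} [Finite A] [Monoid M] [Finite M] [Monoid T] [Finite T]
    (φ : A → M) (τ : A → T)
    (hyp : ∀ w : List A, IsIdempotentElem (ev τ w) → ∃ n, ev φ w ^ n = ev φ w ^ (n + 1)) (m : M) :
    SF (ev τ) {w : List A | ev φ w = m} := by
  haveI : Fintype A := Fintype.ofFinite A
  refine (main_aux _ M le_rfl A T φ τ _ Finset.univ le_rfl (fun w _ => hyp w) m).congr fun w => ?_
  simp

open Crest.RegLang Crest.Agent.R320.Hk_851

theorem HL_of_SF {A T : Type u} {k : ℕ} {f : List A → T}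
    (h : ∀ t, HL k ({w | f w = t} : Language A)) {L : Set (List A)} (hL : SF f L) :
    HL k (L : Language A) := by
  induction hL with
  | base t => exact h t
  | word1 a => exact HL.word [a]
  | one => exact HL.word []
  | compl _ ih => exact ih.compl
  | union _ _ ih1 ih2 => exact ih1.sup ih2
  | cat _ _ ih1 ih2 =>
    refine (ih1.mul ih2).congr fun w => ?_
    constructor
    · rintro ⟨u, v, hu, hv, rfl⟩
      exact Language.mem_mul.2 ⟨u, hu, v, hv, rfl⟩
    · intro hw
      obtain ⟨u, hu, v, hv, rfl⟩ := Language.mem_mul.1 hw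
      exact ⟨u, v, hu, hv, rfl⟩

/-- **criterion, morphism form**: fibres of `τ` in `HL k`, `φ` aperiodic over `τ`-idempotents,
then fibres of `φ` in `HL k`. -/
theorem criterion {A M T : Type u} [Finite A] [Monoid M] [Finite M] [Monoid T] [Finite T] {k : ℕ}
    (φ : A → M) (τ : A → T) (h : ∀ t, HL k ({w | (w.map τ).prod = t} : Language A))
    (hyp : ∀ w : List A, IsIdempotentElem (w.map τ).prod →
      ∃ n, (w.map φ).prod ^ n = (w.map φ).prod ^ (n + 1)) (m : M) :
    HL k ({w | (w.map φ).prod = m} : Language A) :=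
  HL_of_SF (f := ev τ) h (main φ τ hyp m)

end Crest.Agent.R320.Crit_876
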