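import Crest.Agent.R320.Crit_204
import Crest.Agent.R320.Hk2_851

/-!
# Row 320: the periodic separation criterion for languages of star height at most `h` (helper204)
-/

set_option autoImplicit false
set_option linter.unusedSectionVars false
set_option linter.unusedSimpArgs false

namespace Crest.Agent.R320.CritHL_204

open Crest.Agent.R320.Crit_204 Crest.Agent.R320.Hk_851

universe u

variable {α : Type u}

/-- `k`-th power of a word -/
def rep (w : List α) (k : ℕ) : List α := (List.replicate k w).flatten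

@[simp] theorem rep_zero (w : List α) : rep w 0 = [] := rfl
theorem rep_succ (w : List α) (k : ℕ) : rep w (k + 1) = w ++ rep w k := by
  simp [rep, List.replicate_succ]
theorem rep_add (w : List α) (k l : ℕ) : rep w (k + l) = rep w k ++ rep w l := by
  induction k with
  | zero => simp
  | succ k ih => rw [show k + 1 + l = (k + l) + 1 by ring, rep_succ, ih, rep_succ, List.append_assoc]
theorem rep_one (w : List α) : rep w 1 = w := by simp [rep]
theorem rep_mul (w : List α) (k l : ℕ) : rep w (k * l) = rep (rep w k) l := by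
  induction l with
  | zero => simp
  | succ l ih => rw [Nat.mul_succ, Nat.add_comm, rep_add, ih, rep_succ]

theorem ev_rep {M : Type u} [Monoid M] (f : α → M) (w : List α) (k : ℕ) :
    ev f (rep w k) = ev f w ^ k := exists_pow_word f w k

theorem good_HL (h : ℕ) : Good (fun L : Set (List α) => HL h (L : Language α)) where
  compl := fun hL => HL.compl hL
  union := fun hK hL => HL.sup hK hL
  mul := by
    intro K L hK hL
    refine (HL.mul hK hL).congr fun w => ?_
    constructor
    · rintro ⟨u, hu, v, hv, rfl⟩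
      exact Language.mem_mul.2 ⟨u, hu, v, hv, rfl⟩
    · intro hw
      obtain ⟨u, hu, v, hv, rfl⟩ := Language.mem_mul.1 hw
      exact ⟨u, hu, v, hv, rfl⟩
  letter := fun a => HL.char a
  nil := HL.one

/-! ### syntactic congruence of a family -/

section syn
variable {ι : Type*} (X : ι → Language α)

/-- syntactic congruence of a family of languages -/
def synCon : Con (FreeMonoid α) where
  r w w' := ∀ (i : ι) (x y : List α), (x ++ FreeMonoid.toList w ++ y ∈ X i ↔ x ++ FreeMonoid.toList w' ++ y ∈ X i)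
  iseqv := ⟨fun _ _ _ _ => Iff.rfl, fun h i x y => (h i x y).symm,
    fun h h' i x y => (h i x y).trans (h' i x y)⟩
  mul' := by
    intro a b c d h h' i x y
    rw [FreeMonoid.toList_mul, FreeMonoid.toList_mul]
    have h1 := h i x (FreeMonoid.toList c ++ y)
    have h2 := h' i (x ++ FreeMonoid.toList b) y
    simp only [List.append_assoc] at h1 h2 ⊢
    exact h1.trans h2

/-- the letter map into the syntactic monoid -/
def syn (a : α) : (synCon X).Quotient := (FreeMonoid.of a : FreeMonoid α)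

theorem ev_syn (w : List α) : ev (syn X) w = ((FreeMonoid.ofList w : FreeMonoid α) : (synCon X).Quotient) := by
  induction w with
  | nil => rfl
  | cons a w ih => rw [ev_cons, ih]; rfl

theorem ev_syn_eq (w w' : List α) : ev (syn X) w = ev (syn X) w' ↔
    ∀ (i : ι) (x y : List α), (x ++ w ++ y ∈ X i ↔ x ++ w' ++ y ∈ X i) := by
  rw [ev_syn, ev_syn]
  exact (Con.eq (synCon X))

/-- all two-sided quotients -/
def QQ : Set (Language α) := {Q | ∃ (i : ι) (x y : List α), Q = {w | x ++ w ++ y ∈ X i}}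

theorem QQ_finite [Finite ι] (hreg : ∀ i, (X i).IsRegular) : (QQ X).Finite := by
  have h1 : ∀ i, {Q : Language α | ∃ (x y : List α), Q = {w | x ++ w ++ y ∈ X i}}.Finite := by
    intro i
    obtain ⟨σ, hσ, M, hM⟩ := hreg i
    refine (Set.finite_range (fun p : σ × Set σ => ({w | M.evalFrom p.1 w ∈ p.2} : Language α))).subset ?_
    rintro Q ⟨x, y, rfl⟩
    refine ⟨(M.evalFrom M.start x, {s | M.evalFrom s y ∈ M.accept}), ?_⟩
    ext w
    rw [← hM]
    change M.evalFrom (M.evalFrom (M.evalFrom M.start x) w) y ∈ M.accept ↔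
      M.evalFrom M.start (x ++ w ++ y) ∈ M.accept
    rw [DFA.evalFrom_of_append, DFA.evalFrom_of_append]
  refine (Set.finite_iUnion h1).subset ?_
  rintro Q ⟨i, x, y, rfl⟩
  exact Set.mem_iUnion.2 ⟨i, x, y, rfl⟩

theorem QQ_HL {h : ℕ} (hX : ∀ i, HL h (X i)) {Q : Language α} (hQ : Q ∈ QQ X) : HL h Q := by
  obtain ⟨i, x, y, rfl⟩ := hQ
  refine (((hX i).lquot x).rquot y).congr fun w => ?_
  change x ++ w ++ y ∈ X i ↔ x ++ (w ++ y) ∈ X i
  rw [List.append_assoc]

theorem syn_fibre [Finite ι] {h : ℕ} (hreg : ∀ i, (X i).IsRegular) (hX : ∀ i, HL h (X i)) (w : List α) :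
    HL h ({w' | ev (syn X) w' = ev (syn X) w} : Language α) := by
  have h1 := HL.biInter (k := h) (QQ_finite X hreg) (L := fun Q => ({w' | w' ∈ Q ↔ w ∈ Q} : Language α))
    (fun Q hQ => HL.setOf_iff (QQ_HL X hX hQ) (HL.const (w ∈ Q)))
  refine h1.congr fun w' => ?_
  constructor
  · intro hw Q hQ
    obtain ⟨i, x, y, rfl⟩ := hQ
    exact (ev_syn_eq X w' w).1 hw i x y
  · intro hw
    exact (ev_syn_eq X w' w).2 fun i x y => hw _ ⟨i, x, y, rfl⟩

theorem syn_finite [Finite ι] (hreg : ∀ i, (X i).IsRegular) : Finite (synCon X).Quotient := by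
  have hf : Finite (QQ X) := (QQ_finite X hreg).to_subtype
  have hs : ∀ q : (synCon X).Quotient, ∃ w : List α, ev (syn X) w = q := by
    intro q
    obtain ⟨w, rfl⟩ := Quotient.exists_rep q
    exact ⟨FreeMonoid.toList w, ev_syn X _⟩
  choose r hr using hs
  refine Finite.of_injective (fun q => ({Q : QQ X | r q ∈ Q.1} : Set (QQ X))) ?_
  intro p q hpq
  rw [← hr p, ← hr q]
  refine (ev_syn_eq X _ _).2 fun i x y => ?_
  have := Set.ext_iff.1 hpq ⟨_, i, x, y, rfl⟩
  exact this

end syn

/-! ### powers -/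

theorem pow_stab {M : Type u} [Monoid M] {x : M} {N : ℕ} (h : x ^ N = x ^ (N + 1)) {n : ℕ} (hn : N ≤ n) :
    x ^ n = x ^ N := by
  induction n, hn using Nat.le_induction with
  | base => rfl
  | succ n _ ih => rw [pow_succ, ih, ← pow_succ, ← h]

/-- a non-aperiodic element has arbitrarily high non-aperiodic powers -/
theorem exists_big_power {M : Type u} [Monoid M] [Finite M] {x : M} (hx : ¬ Ap x) (N : ℕ) :
    ∃ m, N ≤ m ∧ 1 ≤ m ∧ ¬ Ap (x ^ m) := by
  obtain ⟨K, hK, hi⟩ := exists_idem x
  refine ⟨K * N + 1, by nlinarith, by omega, ?_⟩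
  rintro ⟨J, hJ⟩
  apply hx
  have hK' : ∀ n, x ^ (K + K * n) = x ^ K := by
    intro n
    induction n with
    | zero => simp
    | succ n ih =>
      rw [show K + K * (n + 1) = (K + K * n) + K by ring, pow_add, ih, hi]
  refine ⟨(K * N + 1) * J + K, ?_⟩
  rw [← pow_mul, ← pow_mul] at hJ
  calc x ^ ((K * N + 1) * J + K) = x ^ ((K * N + 1) * J) * x ^ K := pow_add _ _ _
    _ = x ^ ((K * N + 1) * (J + 1)) * x ^ K := by rw [hJ]
    _ = x ^ ((K * N + 1) * J + 1) * x ^ (K + K * N) := by
        rw [← pow_add, ← pow_add]; congr 1; ring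
    _ = x ^ ((K * N + 1) * J + 1) * x ^ K := by rw [hK']
    _ = x ^ ((K * N + 1) * J + K + 1) := by rw [← pow_add]; congr 1; ring

/-! ### the criterion -/

theorem HL_crit [Finite α] {M : Type u} [Monoid M] [Finite M] (f : α → M) {ι : Type*} [Finite ι]
    {h : ℕ} (X : ι → Language α) (hreg : ∀ i, (X i).IsRegular) (hX : ∀ i, HL h (X i))
    (hsep : ∀ w, ¬ Ap (ev f w) → ∃ (i : ι) (x y : List α) (k l : ℕ), 1 ≤ k ∧ 1 ≤ l ∧
      x ++ rep w k ++ y ∈ X i ∧ x ++ rep w l ++ y ∉ X i) (m : M) :
    HL h ({w | ev f w = m} : Language α) := by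
  have := syn_finite X hreg
  refine crit f (syn X) (C := fun L : Set (List α) => HL h (L : Language α)) (good_HL h) ?_ ?_ m
  · intro t
    by_cases ht : ∃ w, ev (syn X) w = t
    · obtain ⟨w, rfl⟩ := ht
      exact syn_fibre X hreg hX w
    · refine HL.bot.congr fun w => ?_
      exact ⟨fun hw => (ht ⟨w, hw⟩).elim, fun hw => hw.elim⟩
  · intro w hw
    by_contra hf
    obtain ⟨N, hN⟩ := hw
    obtain ⟨m, hNm, hm, hfm⟩ := exists_big_power hf N
    rw [← ev_rep] at hfm
    obtain ⟨i, x, y, k, l, hk, hl, h1, h2⟩ := hsep _ hfm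
    have h3 : ev (syn X) (rep (rep w m) k) = ev (syn X) (rep (rep w m) l) := by
      rw [← rep_mul, ← rep_mul, ev_rep, ev_rep, pow_stab hN (n := m * k) (by nlinarith),
        pow_stab hN (n := m * l) (by nlinarith)]
    exact h2 (((ev_syn_eq X _ _).1 h3 i x y).1 h1)

/-- criterion for one regular language -/
theorem HL_crit_lang [Finite α] {L : Language α} (hL : L.IsRegular) {ι : Type*} [Finite ι]
    {h : ℕ} (X : ι → Language α) (hreg : ∀ i, (X i).IsRegular) (hX : ∀ i, HL h (X i))
    (hsep : ∀ w, (∀ N, ∃ x y, ¬ (x ++ rep w N ++ y ∈ L ↔ x ++ rep w (N + 1) ++ y ∈ L)) →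
      ∃ (i : ι) (x y : List α) (k l : ℕ), 1 ≤ k ∧ 1 ≤ l ∧
      x ++ rep w k ++ y ∈ X i ∧ x ++ rep w l ++ y ∉ X i) :
    HL h L := by
  let Y : Unit → Language α := fun _ => L
  have := syn_finite Y (fun _ => hL)
  have hfib : ∀ m, HL h ({w | ev (syn Y) w = m} : Language α) := by
    intro m
    refine HL_crit (syn Y) X hreg hX ?_ m
    intro w hw
    apply hsep
    intro N
    by_contra hcon
    push Not at hcon
    apply hw
    refine ⟨N, ?_⟩
    rw [← ev_rep, ← ev_rep]
    exact (ev_syn_eq Y _ _).2 fun _ x y => hcon x y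
  have hfin := HL.biUnion (k := h) (Set.toFinite {m : (synCon Y).Quotient | ∃ w ∈ L, ev (syn Y) w = m})
    (L := fun m => ({w | ev (syn Y) w = m} : Language α)) (fun m _ => hfib m)
  refine hfin.congr fun w => ?_
  constructor
  · intro hw
    exact ⟨_, ⟨w, hw, rfl⟩, rfl⟩
  · rintro ⟨m, ⟨w', hw', rfl⟩, hw⟩
    have := ((ev_syn_eq Y w w').1 hw () [] []).2 (by simpa using hw')
    simpa using this

end Crest.Agent.R320.CritHL_204
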