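import Mathlib

/-!
# Row 320: the periodic separation criterion (Straubing), abstract form (helper204)
-/

set_option autoImplicit false
set_option linter.unusedSectionVars false
set_option linter.unusedSimpArgs false

namespace Crest.Agent.R320.Crit_204

universe u

/-- value of a word -/
def ev {α : Type u} {M : Type u} [Monoid M] (f : α → M) (w : List α) : M := (w.map f).prod

section basic
variable {α M : Type u} [Monoid M] (f : α → M)

@[simp] theorem ev_nil : ev f [] = 1 := rfl
@[simp] theorem ev_cons (a : α) (w : List α) : ev f (a :: w) = f a * ev f w := by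
  simp [ev]
@[simp] theorem ev_append (u v : List α) : ev f (u ++ v) = ev f u * ev f v := by
  simp [ev]
end basic

/-- aperiodic element -/
def Ap {M : Type u} [Monoid M] (x : M) : Prop := ∃ N : ℕ, x ^ N = x ^ (N + 1)

/-- product of languages -/
def mulL {α : Type u} (K L : Set (List α)) : Set (List α) := {w | ∃ u ∈ K, ∃ v ∈ L, w = u ++ v}

/-- a class of languages closed under Boolean operations and products -/
structure Good {α : Type u} (C : Set (List α) → Prop) : Prop where
  compl : ∀ {L : Set (List α)}, C L → C Lᶜ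
  union : ∀ {K L : Set (List α)}, C K → C L → C (K ∪ L)
  mul : ∀ {K L : Set (List α)}, C K → C L → C (mulL K L)
  letter : ∀ a : α, C {[a]}
  nil : C {[]}

namespace Good
variable {α : Type u} {C : Set (List α) → Prop}

theorem inter (h : Good C) {K L : Set (List α)} (hK : C K) (hL : C L) : C (K ∩ L) := by
  have := h.compl (h.union (h.compl hK) (h.compl hL))
  simpa [Set.compl_union] using this

theorem univ (h : Good C) : C Set.univ := by
  have := h.union h.nil (h.compl h.nil)
  rwa [Set.union_compl_self] at this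

theorem empty (h : Good C) : C ∅ := by
  have := h.compl h.univ
  rwa [Set.compl_univ] at this

theorem biUnion (h : Good C) {ι : Type*} {s : Set ι} (hs : s.Finite) {L : ι → Set (List α)}
    (hL : ∀ i ∈ s, C (L i)) : C {w | ∃ i ∈ s, w ∈ L i} := by
  induction s, hs using Set.Finite.induction_on with
  | empty =>
    have e : {w : List α | ∃ i ∈ (∅ : Set ι), w ∈ L i} = ∅ := by ext w; simp
    rw [e]; exact h.empty
  | @insert a s _ _ ih =>
    have e : {w : List α | ∃ i ∈ insert a s, w ∈ L i} = L a ∪ {w | ∃ i ∈ s, w ∈ L i} := by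
      ext w; simp
    rw [e]
    exact h.union (hL _ (Set.mem_insert _ _)) (ih fun i hi => hL i (Set.mem_insert_of_mem _ hi))

end Good

/-! ### idempotent powers -/

theorem exists_idem {M : Type u} [Monoid M] [Finite M] (x : M) :
    ∃ N : ℕ, 0 < N ∧ x ^ N * x ^ N = x ^ N := by
  obtain ⟨i, j, hij, h⟩ := Finite.exists_ne_map_eq_of_infinite (fun n : ℕ => x ^ n)
  wlog hlt : i < j generalizing i j
  · exact this j i hij.symm h.symm (lt_of_le_of_ne (not_lt.1 hlt) hij.symm)
  replace h : x ^ i = x ^ j := h
  obtain ⟨d, rfl⟩ := Nat.exists_eq_add_of_lt hlt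
  have h1 : ∀ n, i ≤ n → x ^ (n + (d + 1)) = x ^ n := by
    intro n hn
    obtain ⟨m, rfl⟩ := Nat.exists_eq_add_of_le hn
    rw [show i + m + (d + 1) = (i + d + 1) + m by ring, pow_add, ← h, ← pow_add]
  have h2 : ∀ k n, i ≤ n → x ^ (n + k * (d + 1)) = x ^ n := by
    intro k
    induction k with
    | zero => intro n _; simp
    | succ k ih =>
      intro n hn
      rw [show n + (k + 1) * (d + 1) = (n + k * (d + 1)) + (d + 1) by ring, h1 _ (by omega), ih n hn]
  refine ⟨(i + 1) * (d + 1), by positivity, ?_⟩
  rw [← pow_add]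
  exact h2 (i + 1) _ (by nlinarith)

theorem unit_idem {M : Type u} [Monoid M] {x : M} (hx : IsUnit x) (h : x * x = x) : x = 1 := by
  obtain ⟨y, rfl⟩ := hx
  have h' : y * y = y := by ext; simpa using h
  have : y = 1 := by simpa using h'
  simp [this]

theorem unit_ap {M : Type u} [Monoid M] {x : M} (hx : IsUnit x) (h : Ap x) : x = 1 := by
  obtain ⟨N, hN⟩ := h
  obtain ⟨y, rfl⟩ := hx
  have h' : y ^ N = y ^ (N + 1) := by ext; simpa using hN
  have : y = 1 := by
    rw [pow_succ] at h'
    simpa using h'
  simp [this]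

/-! ### local divisor -/

section divisor
variable {M : Type u} [Monoid M] (c : M)

/-- carrier of the local divisor -/
def LD : Type u := {m : M // (∃ x, m = c * x) ∧ (∃ y, m = y * c)}

instance [Finite M] : Finite (LD c) := by unfold LD; infer_instance

noncomputable def LD.pre (a : LD c) : M := a.2.2.choose
theorem LD.pre_spec (a : LD c) : a.1 = a.pre c * c := a.2.2.choose_spec

theorem LD.mul_aux (a : LD c) {y : M} (hy : a.1 = y * c) (b : LD c) : a.pre c * b.1 = y * b.1 := by
  obtain ⟨x, hx⟩ := b.2.1
  rw [hx, ← mul_assoc, ← LD.pre_spec, hy, mul_assoc]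

/-- unit element -/
def LD.e : LD c := ⟨c, ⟨1, by simp⟩, ⟨1, by simp⟩⟩

noncomputable instance : Monoid (LD c) where
  mul a b := ⟨a.pre c * b.1, by
    constructor
    · obtain ⟨x, hx⟩ := b.2.1
      obtain ⟨z, hz⟩ := a.2.1
      exact ⟨z * x, by rw [hx, ← mul_assoc, ← LD.pre_spec, hz, mul_assoc]⟩
    · obtain ⟨y, hy⟩ := b.2.2
      exact ⟨a.pre c * y, by rw [hy, mul_assoc]⟩⟩
  one := LD.e c
  mul_assoc a b d := by
    apply Subtype.ext
    change LD.pre c _ * d.1 = a.pre c * (b.pre c * d.1)
    rw [← mul_assoc]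
    apply LD.mul_aux
    change a.pre c * b.1 = _
    rw [LD.pre_spec c b, mul_assoc]
  one_mul a := by
    apply Subtype.ext
    exact (LD.mul_aux c (LD.e c) (y := 1) (by simp [LD.e]) a).trans (one_mul _)
  mul_one a := by
    apply Subtype.ext
    change a.pre c * c = a.1
    exact (LD.pre_spec c a).symm

theorem LD.val_one : (1 : LD c).1 = c := rfl
theorem LD.val_mul (a b : LD c) {y : M} (hy : a.1 = y * c) : (a * b).1 = y * b.1 :=
  LD.mul_aux c a hy b

theorem LD.val_mul' (a b : LD c) {x : M} (hx : b.1 = c * x) : (a * b).1 = a.1 * x := by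
  change a.pre c * b.1 = _
  rw [hx, ← mul_assoc, ← LD.pre_spec]

theorem LD.val_pow (a : LD c) {x : M} (hx : a.1 = c * x) (N : ℕ) : (a ^ N).1 = c * x ^ N := by
  induction N with
  | zero => simp [LD.val_one]
  | succ N ih => rw [pow_succ, LD.val_mul' c _ _ hx, ih, pow_succ, mul_assoc]

theorem LD.card_lt [Finite M] (hc : ¬ IsUnit c) : Nat.card (LD c) < Nat.card M := by
  refine Finite.card_subtype_lt (x := (1 : M)) ?_
  rintro ⟨⟨x, hx⟩, ⟨y, hy⟩⟩
  apply hc
  exact ⟨⟨c, x, hx.symm, by
    have : y = x := by
      calc y = y * (c * x) := by rw [← hx, mul_one]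
        _ = (y * c) * x := by rw [mul_assoc]
        _ = x := by rw [← hy, one_mul]
    rw [← this, ← hy]⟩, rfl⟩

/-- the letter map of the local divisor -/
def ldl (m : M) : LD c := ⟨c * m * c, ⟨m * c, by rw [mul_assoc]⟩, ⟨c * m, rfl⟩⟩

end divisor

/-! ### decomposition with respect to a letter -/

section dec
variable {α : Type u} (c : α)

/-- letters different from `c` -/
abbrev Bl : Type u := {a : α // a ≠ c}

/-- inclusion -/
def inc (v : List (Bl c)) : List α := v.map Subtype.val

/-- `v₁ c v₂ c ... v_k c` -/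
def join (vs : List (List (Bl c))) : List α := vs.flatMap fun v => inc c v ++ [c]

@[simp] theorem join_nil : join c [] = [] := rfl
@[simp] theorem join_cons (v : List (Bl c)) (vs : List (List (Bl c))) :
    join c (v :: vs) = inc c v ++ c :: join c vs := by simp [join]
theorem join_append (us vs : List (List (Bl c))) :
    join c (us ++ vs) = join c us ++ join c vs := by simp [join]
@[simp] theorem inc_nil : inc c [] = [] := rfl
@[simp] theorem inc_cons (b : Bl c) (v : List (Bl c)) : inc c (b :: v) = b.1 :: inc c v := rfl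
theorem inc_append (u v : List (Bl c)) : inc c (u ++ v) = inc c u ++ inc c v := by simp [inc]

theorem inc_inj {u v : List (Bl c)} (h : inc c u = inc c v) : u = v :=
  List.map_injective_iff.2 Subtype.val_injective h

theorem not_mem_inc (v : List (Bl c)) : c ∉ inc c v := by
  intro h
  obtain ⟨b, -, hb⟩ := List.mem_map.1 h
  exact b.2 hb

/-- first-`c` decomposition is unique -/
theorem inc_c_inj {u v : List (Bl c)} {x y : List α} (h : inc c u ++ c :: x = inc c v ++ c :: y) :
    u = v ∧ x = y := by
  induction u generalizing v with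
  | nil =>
    cases v with
    | nil => simpa using h
    | cons b v =>
      simp only [inc_nil, List.nil_append, inc_cons, List.cons_append, List.cons.injEq] at h
      exact absurd h.1.symm b.2
  | cons a u ih =>
    cases v with
    | nil =>
      simp only [inc_nil, List.nil_append, inc_cons, List.cons_append, List.cons.injEq] at h
      exact absurd h.1 a.2
    | cons b v =>
      simp only [inc_cons, List.cons_append, List.cons.injEq] at h
      obtain ⟨h1, h2⟩ := ih h.2
      exact ⟨by rw [Subtype.ext h.1, h1], h2⟩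

theorem join_inj {us vs : List (List (Bl c))} (h : join c us = join c vs) : us = vs := by
  induction us generalizing vs with
  | nil =>
    cases vs with
    | nil => rfl
    | cons v vs => simp at h
  | cons u us ih =>
    cases vs with
    | nil => simp at h
    | cons v vs =>
      rw [join_cons, join_cons] at h
      obtain ⟨h1, h2⟩ := inc_c_inj c h
      rw [h1, ih h2]

theorem exists_dec (w : List α) : ∃ (vs : List (List (Bl c))) (v : List (Bl c)),
    w = join c vs ++ inc c v := by
  induction w with
  | nil => exact ⟨[], [], rfl⟩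
  | cons a w ih =>
    obtain ⟨vs, v, hw⟩ := ih
    by_cases ha : a = c
    · exact ⟨[] :: vs, v, by simp [hw, ha]⟩
    · cases vs with
      | nil => exact ⟨[], ⟨a, ha⟩ :: v, by simp [hw]⟩
      | cons v' vs => exact ⟨(⟨a, ha⟩ :: v') :: vs, v, by simp [hw]⟩

theorem inc_of_not_mem {w : List α} (h : c ∉ w) : ∃ v : List (Bl c), w = inc c v := by
  obtain ⟨vs, v, hw⟩ := exists_dec c w
  cases vs with
  | nil => exact ⟨v, by simpa using hw⟩
  | cons v' vs => exact absurd (by rw [hw]; simp) h

end dec

/-! ### the unit case -/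

section unit
variable {α M T : Type u} [Monoid M] [Finite M] [Monoid T] [Finite T] {f : α → M} {g : α → T}

theorem isUnit_ev (h : ∀ a, IsUnit (f a)) (w : List α) : IsUnit (ev f w) := by
  induction w with
  | nil => simp
  | cons a w ih => rw [ev_cons]; exact (h a).mul ih

theorem exists_pow_word {A : Type u} [Monoid A] (f : α → A) (w : List α) (N : ℕ) :
    ev f (List.replicate N w).flatten = ev f w ^ N := by
  induction N with
  | zero => simp
  | succ N ih => rw [List.replicate_succ, List.flatten_cons, ev_append, ih, pow_succ']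

theorem unit_eq (h : ∀ a, IsUnit (f a)) (hap : ∀ w, Ap (ev g w) → Ap (ev f w))
    {w w' : List α} (hw : ev g w = ev g w') : ev f w = ev f w' := by
  obtain ⟨N, hN, hi⟩ := exists_idem ((ev f w, ev g w) : M × T)
  have h1 : ev f w ^ N * ev f w ^ N = ev f w ^ N := congrArg Prod.fst hi
  have h2 : ev g w ^ N * ev g w ^ N = ev g w ^ N := congrArg Prod.snd hi
  have hx : ev f w ^ N = 1 := unit_idem ((isUnit_ev h w).pow N) h1
  obtain ⟨n, rfl⟩ : ∃ n, N = n + 1 := ⟨N - 1, by omega⟩
  have h3 := hap ((List.replicate n w).flatten ++ w') (by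
    rw [ev_append, exists_pow_word, ← hw, ← pow_succ]
    exact ⟨1, by rw [pow_one, pow_two, h2]⟩)
  have h4 := unit_ap (isUnit_ev h _) h3
  rw [ev_append, exists_pow_word] at h4
  calc ev f w = ev f w * (ev f w ^ n * ev f w') := by rw [h4, mul_one]
    _ = ev f w ^ (n + 1) * ev f w' := by rw [pow_succ', mul_assoc]
    _ = ev f w' := by rw [hx, one_mul]

theorem unit_case {C : Set (List α) → Prop} (hC : Good C) (h : ∀ a, IsUnit (f a))
    (hap : ∀ w, Ap (ev g w) → Ap (ev f w)) (hg : ∀ t, C {w | ev g w = t}) (m : M) :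
    C {w | ev f w = m} := by
  have h1 := hC.biUnion (s := {t : T | ∃ w, ev g w = t ∧ ev f w = m}) (Set.toFinite _)
    (L := fun t => {w | ev g w = t}) (fun t _ => hg t)
  have e : {w | ev f w = m} =
      {w | ∃ t ∈ {t : T | ∃ w, ev g w = t ∧ ev f w = m}, w ∈ {w | ev g w = t}} := by
    ext w
    constructor
    · intro hw; exact ⟨ev g w, ⟨w, rfl, hw⟩, rfl⟩
    · rintro ⟨t, ⟨w', hw', hm⟩, hw⟩
      have hw : ev g w = t := hw
      change ev f w = m
      rw [← hm]
      exact unit_eq h hap (hw.trans hw'.symm)
  rw [e]; exact h1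

end unit

/-! ### the step -/

section step
variable {α M T : Type u} [Monoid M] [Finite M] [Monoid T] [Finite T] (f : α → M) (g : α → T)
  (c : α)

/-- alphabet of the local divisor step -/
def Tp : Type u := Set.range (fun v : List (Bl c) => (ev f (inc c v), ev g (inc c v)))

instance : Finite (Tp f g c) := by unfold Tp; infer_instance

/-- class of a block -/
def cls (v : List (Bl c)) : Tp f g c := ⟨_, v, rfl⟩

theorem cls_surj (p : Tp f g c) : ∃ v, cls f g c v = p := by
  obtain ⟨p, v, hv⟩ := p
  exact ⟨v, Subtype.ext hv⟩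

theorem cls_surj_list (W : List (Tp f g c)) :
    ∃ vs : List (List (Bl c)), W = vs.map (cls f g c) := by
  induction W with
  | nil => exact ⟨[], rfl⟩
  | cons p W ih =>
    obtain ⟨vs, hvs⟩ := ih
    obtain ⟨v, hv⟩ := cls_surj f g c p
    exact ⟨v :: vs, by simp [hv, hvs]⟩

/-- encoding -/
def E (K : Set (List (Tp f g c))) : Set (List α) :=
  {w | ∃ vs : List (List (Bl c)), w = join c vs ∧ vs.map (cls f g c) ∈ K}

theorem join_range (w : List α) : (∃ vs, w = join c vs) ↔ (w = [] ∨ ∃ u, w = u ++ [c]) := by
  constructor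
  · rintro ⟨vs, rfl⟩
    rcases List.eq_nil_or_concat vs with rfl | ⟨us, v, rfl⟩
    · left; rfl
    · right
      refine ⟨join c us ++ inc c v, ?_⟩
      simp [join]
  · rintro (rfl | ⟨u, rfl⟩)
    · exact ⟨[], rfl⟩
    · obtain ⟨vs, v, hu⟩ := exists_dec c u
      exact ⟨vs ++ [v], by simp [join, hu]⟩

variable {C : Set (List α) → Prop}

theorem E_univ (hC : Good C) : C (E f g c Set.univ) := by
  have e : E f g c Set.univ = {[]} ∪ mulL Set.univ {[c]} := by
    ext w
    constructor
    · rintro ⟨vs, hw, -⟩
      rcases (join_range c w).1 ⟨vs, hw⟩ with h | ⟨u, hu⟩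
      · left; exact h
      · right; exact ⟨u, trivial, [c], rfl, hu⟩
    · rintro (h | ⟨u, -, v, hv, hw⟩)
      · exact ⟨[], h, trivial⟩
      · have hv : v = [c] := hv
        subst hv
        obtain ⟨vs, hvs⟩ := (join_range c w).2 (Or.inr ⟨u, hw⟩)
        exact ⟨vs, hvs, trivial⟩
  rw [e]
  exact hC.union hC.nil (hC.mul hC.univ (hC.letter c))

theorem good_E (hC : Good C)
    (hcls : ∀ p : Tp f g c, C {w | ∃ v, w = inc c v ∧ cls f g c v = p}) :
    Good (fun K => C (E f g c K)) where
  compl := by
    intro K hK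
    have e : E f g c Kᶜ = (E f g c K)ᶜ ∩ E f g c Set.univ := by
      ext w
      constructor
      · rintro ⟨vs, hw, hK⟩
        refine ⟨?_, vs, hw, trivial⟩
        rintro ⟨vs', hw', hK'⟩
        have := join_inj c (hw.symm.trans hw')
        subst this
        exact hK hK'
      · rintro ⟨h1, vs, hw, -⟩
        exact ⟨vs, hw, fun h => h1 ⟨vs, hw, h⟩⟩
    change C (E f g c Kᶜ)
    rw [e]
    exact hC.inter (hC.compl hK) (E_univ f g c hC)
  union := by
    intro K L hK hL
    have e : E f g c (K ∪ L) = E f g c K ∪ E f g c L := by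
      ext w
      constructor
      · rintro ⟨vs, hw, h | h⟩
        · exact Or.inl ⟨vs, hw, h⟩
        · exact Or.inr ⟨vs, hw, h⟩
      · rintro (⟨vs, hw, h⟩ | ⟨vs, hw, h⟩)
        · exact ⟨vs, hw, Or.inl h⟩
        · exact ⟨vs, hw, Or.inr h⟩
    change C (E f g c (K ∪ L))
    rw [e]
    exact hC.union hK hL
  mul := by
    intro K L hK hL
    have e : E f g c (mulL K L) = mulL (E f g c K) (E f g c L) := by
      ext w
      constructor
      · rintro ⟨vs, hw, u, hu, v, hv, h⟩
        obtain ⟨us, vs', rfl, h1, h2⟩ := List.map_eq_append_iff.1 h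
        refine ⟨join c us, ⟨us, rfl, by rw [h1]; exact hu⟩, join c vs', ⟨vs', rfl, by rw [h2]; exact hv⟩, ?_⟩
        rw [hw, join_append]
      · rintro ⟨u, ⟨us, rfl, hu⟩, v, ⟨vs, rfl, hv⟩, rfl⟩
        exact ⟨us ++ vs, (join_append c us vs).symm, _, hu, _, hv, by simp⟩
    change C (E f g c (mulL K L))
    rw [e]
    exact hC.mul hK hL
  letter := by
    intro p
    have e : E f g c {[p]} = mulL {w | ∃ v, w = inc c v ∧ cls f g c v = p} {[c]} := by
      ext w
      constructor
      · rintro ⟨vs, hw, h⟩
        have h : vs.map (cls f g c) = [p] := h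
        obtain ⟨v, rfl, hv⟩ := List.map_eq_singleton_iff.1 h
        exact ⟨inc c v, ⟨v, rfl, hv⟩, [c], rfl, by simpa using hw⟩
      · rintro ⟨u, ⟨v, rfl, hv⟩, x, hx, rfl⟩
        have hx : x = [c] := hx
        subst hx
        exact ⟨[v], by simp, by simp [hv]⟩
    change C (E f g c {[p]})
    rw [e]
    exact hC.mul (hcls p) (hC.letter c)
  nil := by
    have e : E f g c {[]} = {[]} := by
      ext w
      constructor
      · rintro ⟨vs, hw, h⟩
        have h : vs.map (cls f g c) = [] := h
        have : vs = [] := List.map_eq_nil_iff.1 h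
        subst this
        exact hw
      · intro h
        exact ⟨[], h, rfl⟩
    change C (E f g c {[]})
    rw [e]
    exact hC.nil

theorem no_c (hC : Good C) : C {w | c ∉ w} := by
  have e : {w : List α | c ∉ w} = (mulL (mulL Set.univ {[c]}) Set.univ)ᶜ := by
    ext w
    constructor
    · rintro h ⟨u, ⟨x, -, y, hy, rfl⟩, v, -, rfl⟩
      have hy : y = [c] := hy
      subst hy
      exact h (by simp)
    · intro h hw
      obtain ⟨x, y, rfl⟩ := List.append_of_mem hw
      exact h ⟨x ++ [c], ⟨x, trivial, [c], rfl, rfl⟩, y, trivial, by simp⟩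
  rw [e]
  exact hC.compl (hC.mul (hC.mul hC.univ (hC.letter c)) hC.univ)

theorem good_B (hC : Good C) : Good (fun K : Set (List (Bl c)) => C {w | ∃ v ∈ K, w = inc c v}) where
  compl := by
    intro K hK
    have e : {w | ∃ v ∈ Kᶜ, w = inc c v} = {w | ∃ v ∈ K, w = inc c v}ᶜ ∩ {w | c ∉ w} := by
      ext w
      constructor
      · rintro ⟨v, hv, rfl⟩
        refine ⟨?_, not_mem_inc c v⟩
        rintro ⟨v', hv', h⟩
        rw [inc_inj c h] at hv
        exact hv hv'
      · rintro ⟨h1, h2⟩
        obtain ⟨v, rfl⟩ := inc_of_not_mem c h2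
        exact ⟨v, fun h => h1 ⟨v, h, rfl⟩, rfl⟩
    change C {w | ∃ v ∈ Kᶜ, w = inc c v}
    rw [e]
    exact hC.inter (hC.compl hK) (no_c c hC)
  union := by
    intro K L hK hL
    have e : {w | ∃ v ∈ K ∪ L, w = inc c v} = {w | ∃ v ∈ K, w = inc c v} ∪ {w | ∃ v ∈ L, w = inc c v} := by
      ext w
      constructor
      · rintro ⟨v, h | h, hw⟩
        · exact Or.inl ⟨v, h, hw⟩
        · exact Or.inr ⟨v, h, hw⟩
      · rintro (⟨v, h, hw⟩ | ⟨v, h, hw⟩)
        · exact ⟨v, Or.inl h, hw⟩
        · exact ⟨v, Or.inr h, hw⟩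
    change C {w | ∃ v ∈ K ∪ L, w = inc c v}
    rw [e]
    exact hC.union hK hL
  mul := by
    intro K L hK hL
    have e : {w | ∃ v ∈ mulL K L, w = inc c v} =
        mulL {w | ∃ v ∈ K, w = inc c v} {w | ∃ v ∈ L, w = inc c v} := by
      ext w
      constructor
      · rintro ⟨v, ⟨x, hx, y, hy, rfl⟩, rfl⟩
        exact ⟨_, ⟨x, hx, rfl⟩, _, ⟨y, hy, rfl⟩, inc_append c x y⟩
      · rintro ⟨_, ⟨x, hx, rfl⟩, _, ⟨y, hy, rfl⟩, rfl⟩
        exact ⟨x ++ y, ⟨x, hx, y, hy, rfl⟩, (inc_append c x y).symm⟩
    change C {w | ∃ v ∈ mulL K L, w = inc c v}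
    rw [e]
    exact hC.mul hK hL
  letter := by
    intro a
    have e : {w | ∃ v ∈ ({[a]} : Set (List (Bl c))), w = inc c v} = {[a.1]} := by
      ext w
      constructor
      · rintro ⟨v, hv, rfl⟩
        have hv : v = [a] := hv
        subst hv; rfl
      · intro h
        exact ⟨[a], rfl, h⟩
    change C {w | ∃ v ∈ ({[a]} : Set (List (Bl c))), w = inc c v}
    rw [e]
    exact hC.letter a.1
  nil := by
    have e : {w | ∃ v ∈ ({[]} : Set (List (Bl c))), w = inc c v} = {[]} := by
      ext w
      constructor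
      · rintro ⟨v, hv, rfl⟩
        have hv : v = [] := hv
        subst hv; rfl
      · intro h
        exact ⟨[], rfl, h⟩
    change C {w | ∃ v ∈ ({[]} : Set (List (Bl c))), w = inc c v}
    rw [e]
    exact hC.nil

/-- letter map into the local divisor -/
def psi (p : Tp f g c) : LD (f c) := ldl (f c) p.1.1

/-- letter map into `T` -/
def tau' (p : Tp f g c) : T := p.1.2 * g c

theorem ev_psi (vs : List (List (Bl c))) :
    (ev (psi f g c) (vs.map (cls f g c))).1 = f c * ev f (join c vs) := by
  induction vs with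
  | nil => simp [LD.val_one]
  | cons v vs ih =>
    rw [List.map_cons, ev_cons, LD.val_mul (f c) _ _ (y := f c * ev f (inc c v)) rfl, ih,
      join_cons, ev_append, ev_cons]
    simp only [mul_assoc]

theorem ev_tau' (vs : List (List (Bl c))) :
    ev (tau' f g c) (vs.map (cls f g c)) = ev g (join c vs) := by
  induction vs with
  | nil => simp
  | cons v vs ih =>
    rw [List.map_cons, ev_cons, ih, join_cons, ev_append, ev_cons]
    simp only [tau', cls, mul_assoc]

theorem step (hC : Good C)
    (hF : ∀ m, C {w | ∃ v, w = inc c v ∧ ev f (inc c v) = m})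
    (hP : ∀ q : LD (f c), C (E f g c {W | ev (psi f g c) W = q})) (m : M) :
    C {w | ev f w = m} := by
  have h1 := hC.biUnion (s := {i : M × LD (f c) × M | i.1 * i.2.1.1 * i.2.2 = m}) (Set.toFinite _)
    (L := fun i => mulL (mulL (mulL {w | ∃ v, w = inc c v ∧ ev f (inc c v) = i.1} {[c]})
      (E f g c {W | ev (psi f g c) W = i.2.1})) {w | ∃ v, w = inc c v ∧ ev f (inc c v) = i.2.2})
    (fun i _ => hC.mul (hC.mul (hC.mul (hF _) (hC.letter c)) (hP _)) (hF _))
  have h2 := hC.union (hF m) h1
  refine cast (congrArg C ?_) h2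
  ext w
  constructor
  · rintro (⟨v, rfl, hv⟩ | ⟨⟨p, q, r⟩, hi, _, ⟨_, ⟨_, ⟨v0, rfl, h0⟩, y, hy, rfl⟩, _, ⟨vs, rfl, hvs⟩, rfl⟩, _,
      ⟨v1, rfl, hv1⟩, rfl⟩)
    · exact hv
    · have hy : y = [c] := hy
      subst hy
      have hvs : ev (psi f g c) (vs.map (cls f g c)) = q := hvs
      have hq := ev_psi f g c vs
      rw [hvs] at hq
      have hi : p * q.1 * r = m := hi
      change ev f _ = m
      rw [ev_append, ev_append, ev_append, h0, hv1, ← hi, hq]
      simp [mul_assoc]
  · intro hw
    have hw : ev f w = m := hw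
    obtain ⟨vs, v, rfl⟩ := exists_dec c w
    cases vs with
    | nil =>
      left
      exact ⟨v, by simp, by simpa using hw⟩
    | cons v0 vs =>
      right
      refine ⟨⟨ev f (inc c v0), ev (psi f g c) (vs.map (cls f g c)), ev f (inc c v)⟩, ?_, ?_⟩
      · change _ * (ev (psi f g c) (vs.map (cls f g c))).1 * _ = m
        rw [ev_psi, ← hw, join_cons, ev_append, ev_append, ev_cons]
      · refine ⟨inc c v0 ++ [c] ++ join c vs, ⟨inc c v0 ++ [c], ⟨_, ⟨v0, rfl, rfl⟩, [c], rfl, rfl⟩,
          _, ⟨vs, rfl, rfl⟩, rfl⟩, _, ⟨v, rfl, rfl⟩, ?_⟩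
        simp

end step

theorem crit_aux (n : ℕ) : ∀ (k : ℕ) (α M T : Type u) [Finite α] [Monoid M] [Finite M] [Monoid T]
    [Finite T] (f : α → M) (g : α → T) (C : Set (List α) → Prop), Good C → Nat.card M ≤ n →
    Nat.card α ≤ k → (∀ t, C {w | ev g w = t}) → (∀ w, Ap (ev g w) → Ap (ev f w)) →
    ∀ m, C {w | ev f w = m} := by
  induction n with
  | zero =>
    intro k α M T _ _ _ _ _ f g C hC hM
    have : 0 < Nat.card M := Nat.card_pos
    omega
  | succ n ihn =>
    intro k
    induction k with
    | zero =>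
      intro α M T _ _ _ _ _ f g C hC hM hα hg hap m
      have : IsEmpty α := by
        rcases isEmpty_or_nonempty α with h | h
        · exact h
        · have : 0 < Nat.card α := Nat.card_pos
          omega
      exact unit_case hC (fun a => isEmptyElim a) hap hg m
    | succ k ihk =>
      intro α M T _ _ _ _ _ f g C hC hM hα hg hap m
      by_cases h : ∀ a, IsUnit (f a)
      · exact unit_case hC h hap hg m
      · push Not at h
        obtain ⟨c, hc⟩ := h
        have hcard : Nat.card (Bl c) < Nat.card α :=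
          Finite.card_subtype_lt (p := fun a => a ≠ c) (x := c) (by simp)
        have hBg : ∀ t, C {w | ∃ v ∈ {v : List (Bl c) | ev (fun b : Bl c => g b.1) v = t}, w = inc c v} := by
          intro t
          have e : {w | ∃ v ∈ {v : List (Bl c) | ev (fun b : Bl c => g b.1) v = t}, w = inc c v} =
              {w | ev g w = t} ∩ {w | c ∉ w} := by
            ext w
            constructor
            · rintro ⟨v, hv, rfl⟩
              refine ⟨?_, not_mem_inc c v⟩
              have hv : ev (fun b : Bl c => g b.1) v = t := hv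
              change ev g (inc c v) = t
              rw [← hv]; simp [ev, inc, Function.comp_def]
            · rintro ⟨h1, h2⟩
              obtain ⟨v, rfl⟩ := inc_of_not_mem c h2
              refine ⟨v, ?_, rfl⟩
              have h1 : ev g (inc c v) = t := h1
              change ev (fun b : Bl c => g b.1) v = t
              rw [← h1]; simp [ev, inc, Function.comp_def]
          rw [e]
          exact hC.inter (hg t) (no_c c hC)
        have hev : ∀ {A : Type u} [Monoid A] (f : α → A) (v : List (Bl c)),
            ev (fun b : Bl c => f b.1) v = ev f (inc c v) := by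
          intro A _ f v; simp [ev, inc, Function.comp_def]
        have hF' := ihk (Bl c) M T (fun b => f b.1) (fun b => g b.1) _ (good_B c hC) hM (by omega) hBg
          (by
            intro w hw
            rw [hev] at hw ⊢
            exact hap _ hw)
        have hF : ∀ m, C {w | ∃ v, w = inc c v ∧ ev f (inc c v) = m} := by
          intro m
          refine cast (congrArg C ?_) (hF' m)
          ext w
          constructor
          · rintro ⟨v, hv, rfl⟩
            exact ⟨v, rfl, by rw [← hev]; exact hv⟩
          · rintro ⟨v, rfl, hv⟩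
            exact ⟨v, by change ev _ v = m; rw [hev]; exact hv, rfl⟩
        have hcls : ∀ p : Tp f g c, C {w | ∃ v, w = inc c v ∧ cls f g c v = p} := by
          intro p
          refine cast (congrArg C ?_) (hC.inter (hF p.1.1) (hBg p.1.2))
          ext w
          constructor
          · rintro ⟨⟨v, rfl, hv⟩, v', hv', h'⟩
            have := inc_inj c h'
            subst this
            refine ⟨v, rfl, Subtype.ext (Prod.ext hv ?_)⟩
            have hv' : ev (fun b : Bl c => g b.1) v = p.1.2 := hv'
            rw [hev] at hv'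
            exact hv'
          · rintro ⟨v, rfl, rfl⟩
            exact ⟨⟨v, rfl, rfl⟩, v, by change ev _ v = _; rw [hev]; rfl, rfl⟩
        have hP := ihn (Nat.card (Tp f g c)) (Tp f g c) (LD (f c)) T (psi f g c) (tau' f g c) _
          (good_E f g c hC hcls) (by have := LD.card_lt (f c) hc; omega) le_rfl
          (by
            intro t
            refine cast (congrArg C ?_) (hC.inter (hg t) (E_univ f g c hC))
            ext w
            constructor
            · rintro ⟨h1, vs, rfl, -⟩
              exact ⟨vs, rfl, (ev_tau' f g c vs).trans h1⟩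
            · rintro ⟨vs, rfl, hvs⟩
              exact ⟨(ev_tau' f g c vs).symm.trans hvs, vs, rfl, trivial⟩)
          (by
            intro W hW
            obtain ⟨vs, rfl⟩ := cls_surj_list f g c W
            rw [ev_tau'] at hW
            obtain ⟨N, hN⟩ := hap _ hW
            refine ⟨N, Subtype.ext ?_⟩
            rw [LD.val_pow (f c) _ (ev_psi f g c vs), LD.val_pow (f c) _ (ev_psi f g c vs), hN])
        exact step f g c hC hF hP m

/-- **Periodic separation criterion, abstract form.** -/
theorem crit {α M T : Type u} [Finite α] [Monoid M] [Finite M] [Monoid T] [Finite T]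
    (f : α → M) (g : α → T) {C : Set (List α) → Prop} (hC : Good C)
    (hg : ∀ t, C {w | ev g w = t}) (hap : ∀ w, Ap (ev g w) → Ap (ev f w)) (m : M) :
    C {w | ev f w = m} :=
  crit_aux (Nat.card M) (Nat.card α) α M T f g C hC le_rfl le_rfl hg hap m

end Crest.Agent.R320.Crit_204
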