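import Mathlib

/-!
Row 320: periodic separation criterion (relative Schuetzenberger / Straubing theorem), by local divisors.
helper564, backup of 932 #12722.
-/

set_option autoImplicit false

namespace Crest.Agent.R320.Crit564

universe u v

/-- languages generated from letters and oracle fibres by Boolean operations and products -/
inductive SF {A : Type u} {T : Type v} (ρ : List A → T) : Set (List A) → Prop
  | letter (a : A) : SF ρ {[a]}
  | fibre (t : T) : SF ρ {w | ρ w = t}
  | compl {L : Set (List A)} : SF ρ L → SF ρ Lᶜ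
  | union {L M : Set (List A)} : SF ρ L → SF ρ M → SF ρ (L ∪ M)
  | mul {L M : Set (List A)} : SF ρ L → SF ρ M → SF ρ {w | ∃ u ∈ L, ∃ v ∈ M, w = u ++ v}

variable {A : Type u} {T : Type v} {ρ : List A → T}

theorem SF.inter {L M : Set (List A)} (hL : SF ρ L) (hM : SF ρ M) : SF ρ (L ∩ M) := by
  have := (hL.compl.union hM.compl).compl
  simpa using this

theorem SF.congr {L M : Set (List A)} (h : SF ρ M) (e : ∀ w, w ∈ L ↔ w ∈ M) : SF ρ L := by
  have : L = M := Set.ext e
  rw [this]; exact h

theorem SF.univ : SF ρ (Set.univ) := by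
  have := (SF.fibre (ρ := ρ) (ρ [])).union (SF.fibre (ρ := ρ) (ρ [])).compl
  simpa using this

theorem SF.empty : SF ρ (∅ : Set (List A)) := by
  have := (SF.univ (ρ := ρ)).compl
  simpa using this

theorem SF.biUnion {ι : Type*} {s : Set ι} (hs : s.Finite) {L : ι → Set (List A)}
    (h : ∀ i ∈ s, SF ρ (L i)) : SF ρ {w | ∃ i ∈ s, w ∈ L i} := by
  induction s, hs using Set.Finite.induction_on with
  | empty => exact SF.empty.congr (by simp)
  | @insert a s ha hs ih =>
    refine ((h a (by simp)).union (ih fun i hi => h i (by simp [hi]))).congr ?_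
    intro w
    simp

theorem SF.iUnion {ι : Type*} [Finite ι] {L : ι → Set (List A)}
    (h : ∀ i, SF ρ (L i)) : SF ρ {w | ∃ i, w ∈ L i} := by
  refine (SF.biUnion (Set.finite_univ (α := ι)) fun i _ => h i).congr ?_
  intro w; simp

/-- words over `S` -/
def Ov (S : Set A) (w : List A) : Prop := ∀ a ∈ w, a ∈ S

theorem Ov.nil (S : Set A) : Ov S ([] : List A) := by intro a ha; simp at ha

theorem ov_append {S : Set A} {u v : List A} : Ov S (u ++ v) ↔ Ov S u ∧ Ov S v := by
  simp [Ov, or_imp, forall_and]

theorem ov_cons {S : Set A} {a : A} {v : List A} : Ov S (a :: v) ↔ a ∈ S ∧ Ov S v := by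
  simp [Ov]

theorem SF.ov [Finite A] (S : Set A) : SF ρ {w | Ov S w} := by
  have h1 : SF ρ {w | ∃ a ∈ Sᶜ, w ∈ {w : List A | ∃ u ∈ {w : List A | ∃ u ∈ (Set.univ : Set (List A)),
      ∃ v ∈ ({[a]} : Set (List A)), w = u ++ v}, ∃ v ∈ (Set.univ : Set (List A)), w = u ++ v}} :=
    SF.biUnion (Set.toFinite _) fun a _ => ((SF.univ.mul (SF.letter a)).mul SF.univ)
  refine h1.compl.congr ?_
  intro w
  simp only [Set.mem_ofPred_eq, Set.mem_compl_iff, Set.mem_univ, true_and, Set.mem_singleton_iff,
    exists_eq_left, Ov]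
  constructor
  · rintro h ⟨a, ha, u, ⟨u', rfl⟩, v, rfl⟩
    exact ha (h a (by simp))
  · intro h a ha
    by_contra hn
    obtain ⟨s, t, rfl⟩ := List.append_of_mem ha
    exact h ⟨a, hn, s ++ [a], ⟨s, rfl⟩, t, by simp⟩

theorem not_ov_empty_cons (a : A) (w : List A) : ¬ Ov ∅ (a :: w) := fun h => h a (by simp)

theorem SF.nil [Finite A] : SF ρ ({[]} : Set (List A)) := by
  refine (SF.ov (ρ := ρ) (∅ : Set A)).congr ?_
  intro w
  cases w with
  | nil => exact ⟨fun _ => Ov.nil _, fun _ => rfl⟩
  | cons a w => exact ⟨fun h => by simp at h, fun h => absurd h (not_ov_empty_cons a w)⟩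

/-- value of a word -/
def P {M : Type*} [Monoid M] (f : A → M) (w : List A) : M := (w.map f).prod

section P
variable {M : Type*} [Monoid M] (f : A → M)

@[simp] theorem P_nil : P f [] = 1 := by simp [P]
@[simp] theorem P_append (u v : List A) : P f (u ++ v) = P f u * P f v := by simp [P]
theorem P_cons (a : A) (v : List A) : P f (a :: v) = f a * P f v := by simp [P]
@[simp] theorem P_single (a : A) : P f [a] = f a := by simp [P]

theorem P_flatten_replicate (n : ℕ) (w : List A) :
    P f (List.replicate n w).flatten = P f w ^ n := by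
  induction n with
  | zero => simp
  | succ n ih => rw [List.replicate_succ, List.flatten_cons, P_append, ih, pow_succ']

end P

/-! ### local divisor -/

section LD
variable {M : Type*} [Monoid M]

/-- local divisor `cM ∩ Mc` -/
def LD (c : M) : Type _ := {x : M // (∃ y, x = y * c) ∧ (∃ y, x = c * y)}

instance [Finite M] (c : M) : Finite (LD c) := by unfold LD; infer_instance

noncomputable def LD.mul' {c : M} (x x' : LD c) : LD c :=
  ⟨x.2.1.choose * x'.1, by
    have hx : x.1 = x.2.1.choose * c := x.2.1.choose_spec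
    obtain ⟨y', hy'⟩ := x'.2.1
    obtain ⟨z', hz'⟩ := x'.2.2
    obtain ⟨z, hz⟩ := x.2.2
    refine ⟨⟨x.2.1.choose * y', ?_⟩, ⟨z * z', ?_⟩⟩
    · rw [mul_assoc, ← hy']
    · calc x.2.1.choose * x'.1 = x.2.1.choose * (c * z') := by rw [← hz']
        _ = x.1 * z' := by rw [← mul_assoc, ← hx]
        _ = c * (z * z') := by rw [hz, mul_assoc]⟩

theorem LD.mul'_left {c : M} (x x' : LD c) {y : M} (h : x.1 = y * c) :
    (LD.mul' x x').1 = y * x'.1 := by
  have hx : x.1 = x.2.1.choose * c := x.2.1.choose_spec
  obtain ⟨z', hz'⟩ := x'.2.2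
  change x.2.1.choose * x'.1 = _
  rw [hz', ← mul_assoc, ← hx, h, mul_assoc]

theorem LD.mul'_right {c : M} (x x' : LD c) {y : M} (h : x'.1 = c * y) :
    (LD.mul' x x').1 = x.1 * y := by
  have hx : x.1 = x.2.1.choose * c := x.2.1.choose_spec
  change x.2.1.choose * x'.1 = _
  rw [h, ← mul_assoc, ← hx]

noncomputable instance (c : M) : Monoid (LD c) where
  mul := LD.mul'
  one := ⟨c, ⟨1, by simp⟩, ⟨1, by simp⟩⟩
  mul_assoc x x' x'' := by
    obtain ⟨y, hy⟩ := x.2.1
    obtain ⟨y', hy'⟩ := x'.2.1
    apply Subtype.ext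
    change (LD.mul' (LD.mul' x x') x'').1 = (LD.mul' x (LD.mul' x' x'')).1
    have h1 : (LD.mul' x x').1 = (y * y') * c := by
      rw [LD.mul'_left x x' hy, hy', mul_assoc]
    rw [LD.mul'_left _ x'' h1, LD.mul'_left x _ hy, LD.mul'_left x' x'' hy', mul_assoc]
  one_mul x := by
    apply Subtype.ext
    exact (LD.mul'_left (c := c) ⟨c, ⟨1, by simp⟩, ⟨1, by simp⟩⟩ x (y := 1) (by simp)).trans
      (one_mul _)
  mul_one x := by
    apply Subtype.ext
    exact (LD.mul'_right (c := c) x ⟨c, ⟨1, by simp⟩, ⟨1, by simp⟩⟩ (y := 1) (by simp)).trans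
      (mul_one _)

theorem LD.mul_left {c : M} (x x' : LD c) {y : M} (h : x.1 = y * c) :
    (x * x').1 = y * x'.1 := LD.mul'_left x x' h

theorem LD.mul_right {c : M} (x x' : LD c) {y : M} (h : x'.1 = c * y) :
    (x * x').1 = x.1 * y := LD.mul'_right x x' h

theorem LD.one_val {c : M} : (1 : LD c).1 = c := rfl

theorem LD.pow_val {c : M} (x : LD c) {y : M} (h : x.1 = c * y) (n : ℕ) :
    (x ^ n).1 = c * y ^ n := by
  induction n with
  | zero => simp [LD.one_val]
  | succ n ih => rw [pow_succ, LD.mul_right _ _ h, ih, pow_succ, mul_assoc]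

theorem LD.card_lt [Finite M] {c : M} (hc : ¬ IsUnit c) : Nat.card (LD c) < Nat.card M := by
  refine Finite.card_subtype_lt (x := (1 : M)) ?_
  rintro ⟨⟨y, hy⟩, -⟩
  exact hc (IsUnit.of_mul_eq_one_right _ hy.symm)

end LD

/-! ### block coding -/

section Code
variable {M : Type u} {T : Type u} [Monoid M] [Monoid T]
variable (f : A → M) (g : A → T) (c : A)

/-- decode a list of blocks -/
def dec (vs : List (List A)) : List A := (vs.map (· ++ [c])).flatten

@[simp] theorem dec_nil : dec c ([] : List (List A)) = [] := rfl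
@[simp] theorem dec_cons (v : List A) (vs : List (List A)) :
    dec c (v :: vs) = v ++ c :: dec c vs := by simp [dec]
@[simp] theorem dec_append (vs ws : List (List A)) :
    dec c (vs ++ ws) = dec c vs ++ dec c ws := by simp [dec]

theorem split_inj : ∀ (v w x y : List A), c ∉ v → c ∉ w → v ++ c :: x = w ++ c :: y →
    v = w ∧ x = y
  | [], [], x, y, _, _, h => by simpa using h
  | [], b :: w, x, y, _, h2, h => by
    simp only [List.nil_append, List.cons_append, List.cons.injEq] at h
    exact absurd h.1 (fun e => h2 (by simp [e]))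
  | b :: v, [], x, y, h1, _, h => by
    simp only [List.nil_append, List.cons_append, List.cons.injEq] at h
    exact absurd h.1 (fun e => h1 (by simp [e]))
  | a :: v, b :: w, x, y, h1, h2, h => by
    simp only [List.cons_append, List.cons.injEq] at h
    obtain ⟨h3, h4⟩ := split_inj v w x y (fun e => h1 (by simp [e])) (fun e => h2 (by simp [e])) h.2
    exact ⟨by rw [h.1, h3], h4⟩

theorem dec_inj : ∀ vs ws : List (List A), (∀ v ∈ vs, c ∉ v) → (∀ v ∈ ws, c ∉ v) →
    dec c vs = dec c ws → vs = ws
  | [], [], _, _, _ => rfl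
  | [], w :: ws, _, _, h => by simp at h
  | v :: vs, [], _, _, h => by simp at h
  | v :: vs, w :: ws, h1, h2, h => by
    rw [dec_cons, dec_cons] at h
    obtain ⟨h3, h4⟩ := split_inj c _ _ _ _ (h1 v (by simp)) (h2 w (by simp)) h
    rw [h3, dec_inj vs ws (fun v hv => h1 v (by simp [hv])) (fun v hv => h2 v (by simp [hv])) h4]

theorem exists_dec [DecidableEq A] : ∀ w : List A, ∃ vs v, (∀ v' ∈ vs, c ∉ v') ∧ c ∉ v ∧
    w = dec c vs ++ v
  | [] => ⟨[], [], by simp, by simp, by simp⟩
  | a :: w => by
    obtain ⟨vs, v, h1, h2, h3⟩ := exists_dec w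
    by_cases hac : a = c
    · refine ⟨[] :: vs, v, ?_, h2, ?_⟩
      · intro v' hv'
        rcases List.mem_cons.1 hv' with rfl | h
        · simp
        · exact h1 _ h
      · simp [hac, h3]
    · cases vs with
      | nil =>
        refine ⟨[], a :: v, by simp, ?_, by simp [h3]⟩
        simp [h2, Ne.symm hac]
      | cons v1 vs =>
        refine ⟨(a :: v1) :: vs, v, ?_, h2, by simp [h3]⟩
        intro v' hv'
        rcases List.mem_cons.1 hv' with rfl | h
        · have := h1 v1 (by simp)
          simp [this, Ne.symm hac]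
        · exact h1 _ (by simp [h])

/-- code of a block -/
def code (v : List A) : M × T := (P f v, P g v)

def f' (b : M × T) : LD (f c) :=
  ⟨f c * b.1 * f c, ⟨f c * b.1, rfl⟩, ⟨b.1 * f c, by rw [mul_assoc]⟩⟩

def g' (b : M × T) : T := b.2 * g c

theorem P_g' (vs : List (List A)) : P (g' g c) (vs.map (code f g)) = P g (dec c vs) := by
  induction vs with
  | nil => simp
  | cons v vs ih =>
    rw [List.map_cons, P_cons, ih, dec_cons, P_append, P_cons, ← mul_assoc]
    rfl

theorem P_f' (vs : List (List A)) :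
    (P (f' (T := T) f c) (vs.map (code f g))).1 = f c * P f (dec c vs) := by
  induction vs with
  | nil => simp [LD.one_val]
  | cons v vs ih =>
    rw [List.map_cons, P_cons,
      LD.mul_left (f' (T := T) f c (code f g v)) _ (y := f c * P f v) rfl, ih, dec_cons, P_append,
      P_cons]
    simp only [mul_assoc]

/-- inverse image of a language of codes -/
def Inv (S0 : Set A) (L' : Set (List (M × T))) : Set (List A) :=
  {w | ∃ vs : List (List A), (∀ v ∈ vs, Ov S0 v) ∧ w = dec c vs ∧ vs.map (code f g) ∈ L'}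

variable {f g c}

theorem inv_univ_sf [Finite A] {S0 : Set A} (hc : c ∉ S0) :
    SF (P g) (Inv f g c S0 (Set.univ : Set (List (M × T)))) := by
  classical
  have h1 : SF (P g) ({w | Ov (insert c S0) w} ∩ ({[]} ∪ {w | ∃ u ∈ (Set.univ : Set (List A)),
      ∃ v ∈ ({[c]} : Set (List A)), w = u ++ v})) :=
    (SF.ov _).inter (SF.nil.union (SF.univ.mul (SF.letter c)))
  refine h1.congr ?_
  intro w
  constructor
  · rintro ⟨vs, h1, rfl, -⟩
    refine ⟨?_, ?_⟩
    · clear * - h1
      induction vs with
      | nil => exact Ov.nil _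
      | cons v vs ih =>
        rw [dec_cons]
        change Ov _ _
        rw [ov_append, ov_cons]
        exact ⟨fun a ha => Or.inr (h1 v (by simp) a ha), by simp,
          ih fun v hv => h1 v (by simp [hv])⟩
    · rcases vs.eq_nil_or_concat with rfl | ⟨vs', v, rfl⟩
      · left; simp
      · right
        refine ⟨dec c vs' ++ v, trivial, [c], rfl, ?_⟩
        simp
  · rintro ⟨h1, h2⟩
    obtain ⟨vs, v, h3, h4, rfl⟩ := exists_dec c w
    have h5 : v = [] := by
      rcases v.eq_nil_or_concat with rfl | ⟨v', a, rfl⟩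
      · rfl
      · exfalso
        rcases h2 with h2 | ⟨u, -, z, hz, h2⟩
        · simp at h2
        · rw [Set.mem_singleton_iff] at hz
          subst hz
          have : a = c := by
            have := congrArg List.getLast? h2
            simpa using this
          exact h4 (by simp [this])
    subst h5
    refine ⟨vs, ?_, by simp, trivial⟩
    intro v hv a ha
    have hmem : a ∈ dec c vs ++ [] := by
      simp only [dec, List.append_nil, List.mem_flatten, List.mem_map]
      exact ⟨v ++ [c], ⟨v, hv, rfl⟩, by simp [ha]⟩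
    rcases h1 a hmem with h | h
    · exact absurd (h ▸ ha) (h3 v hv)
    · exact h

theorem inv_sf [Finite A] {S0 : Set A} (hc : c ∉ S0)
    (ih : ∀ m, SF (P g) {w | Ov S0 w ∧ P f w = m}) {L' : Set (List (M × T))}
    (h : SF (P (g' (M := M) g c)) L') : SF (P g) (Inv f g c S0 L') := by
  have hnot : ∀ {v : List A}, Ov S0 v → c ∉ v := fun hv h => hc (hv _ h)
  induction h with
  | letter b =>
    refine (((ih b.1).inter (SF.fibre b.2)).mul (SF.letter c)).congr ?_
    intro w
    constructor
    · rintro ⟨vs, h1, rfl, h2⟩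
      rw [Set.mem_singleton_iff, List.map_eq_singleton_iff] at h2
      obtain ⟨v, rfl, rfl⟩ := h2
      exact ⟨v, ⟨⟨h1 v (by simp), rfl⟩, rfl⟩, [c], rfl, by simp⟩
    · rintro ⟨u, ⟨⟨h1, h2⟩, h3⟩, v, hv, rfl⟩
      rw [Set.mem_singleton_iff] at hv
      subst hv
      refine ⟨[u], by simpa using h1, by simp, ?_⟩
      rw [Set.mem_singleton_iff]
      simp only [List.map_cons, List.map_nil, List.cons.injEq, and_true, code]
      exact Prod.ext h2 h3
  | fibre t =>
    refine ((inv_univ_sf (f := f) (g := g) hc).inter (SF.fibre t)).congr ?_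
    intro w
    constructor
    · rintro ⟨vs, h1, rfl, h2⟩
      refine ⟨⟨vs, h1, rfl, trivial⟩, ?_⟩
      rw [Set.mem_ofPred_eq] at h2 ⊢
      rw [← h2, P_g']
    · rintro ⟨⟨vs, h1, rfl, -⟩, h2⟩
      refine ⟨vs, h1, rfl, ?_⟩
      rw [Set.mem_ofPred_eq] at h2 ⊢
      rw [P_g', h2]
  | @compl L _ ih' =>
    refine ((inv_univ_sf (f := f) (g := g) hc).inter ih'.compl).congr ?_
    intro w
    constructor
    · rintro ⟨vs, h1, rfl, h2⟩
      refine ⟨⟨vs, h1, rfl, trivial⟩, ?_⟩
      rintro ⟨ws, h3, h4, h5⟩
      have := dec_inj c vs ws (fun v hv => hnot (h1 v hv)) (fun v hv => hnot (h3 v hv)) h4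
      subst this
      exact h2 h5
    · rintro ⟨⟨vs, h1, rfl, -⟩, h2⟩
      exact ⟨vs, h1, rfl, fun h => h2 ⟨vs, h1, rfl, h⟩⟩
  | union _ _ ih1 ih2 =>
    refine (ih1.union ih2).congr ?_
    intro w
    constructor
    · rintro ⟨vs, h1, h2, h3 | h3⟩
      · exact Or.inl ⟨vs, h1, h2, h3⟩
      · exact Or.inr ⟨vs, h1, h2, h3⟩
    · rintro (⟨vs, h1, h2, h3⟩ | ⟨vs, h1, h2, h3⟩)
      · exact ⟨vs, h1, h2, Or.inl h3⟩
      · exact ⟨vs, h1, h2, Or.inr h3⟩
  | mul _ _ ih1 ih2 =>
    refine (ih1.mul ih2).congr ?_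
    intro w
    constructor
    · rintro ⟨vs, h1, rfl, u, hu, v, hv, h3⟩
      rw [List.map_eq_append_iff] at h3
      obtain ⟨l1, l2, rfl, rfl, rfl⟩ := h3
      exact ⟨dec c l1, ⟨l1, fun v hv => h1 v (by simp [hv]), rfl, hu⟩, dec c l2,
        ⟨l2, fun v hv => h1 v (by simp [hv]), rfl, hv⟩, by simp⟩
    · rintro ⟨u, ⟨l1, h1, rfl, h2⟩, v, ⟨l2, h3, rfl, h4⟩, rfl⟩
      refine ⟨l1 ++ l2, ?_, by simp, _, h2, _, h4, by simp⟩
      intro v hv
      rcases List.mem_append.1 hv with h | h
      · exact h1 _ h
      · exact h3 _ h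

end Code

/-- aperiodic element -/
def Ap {M : Type*} [Monoid M] (x : M) : Prop := ∃ k, x ^ (k + 1) = x ^ k

theorem exists_idem {T : Type*} [Monoid T] [Finite T] (x : T) :
    ∃ N : ℕ, 0 < N ∧ x ^ N * x ^ N = x ^ N := by
  obtain ⟨i, j, hij, h⟩ : ∃ i j : ℕ, i < j ∧ x ^ i = x ^ j := by
    obtain ⟨i, j, hne, h⟩ := Finite.exists_ne_map_eq_of_infinite (fun n : ℕ => x ^ n)
    rcases lt_or_gt_of_ne hne with h1 | h1
    · exact ⟨i, j, h1, h⟩
    · exact ⟨j, i, h1, h.symm⟩
  obtain ⟨p, rfl⟩ : ∃ p, j = i + p := ⟨j - i, by omega⟩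
  have hp : 0 < p := by omega
  have h1 : ∀ t k, i ≤ k → x ^ (k + p * t) = x ^ k := by
    intro t
    induction t with
    | zero => intro k _; simp
    | succ t ih =>
      intro k hk
      have e : k + p * (t + 1) = (k + p) + p * t := by ring
      rw [e, ih (k + p) (by omega)]
      obtain ⟨d, rfl⟩ : ∃ d, k = d + i := ⟨k - i, by omega⟩
      rw [add_assoc, pow_add, ← h, ← pow_add]
  refine ⟨p * (i + 1), by positivity, ?_⟩
  rw [← pow_add]
  exact h1 (i + 1) (p * (i + 1)) (by nlinarith)

theorem group_case {M T : Type*} [Monoid M] [Finite M] [Monoid T] [Finite T] [Finite A]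
    (f : A → M) (g : A → T) (S : Set A)
    (hyp : ∀ w : List A, Ov S w → P g w * P g w = P g w → Ap (P f w))
    (hu : ∀ a ∈ S, IsUnit (f a)) {w w' : List A} (hw : Ov S w) (hw' : Ov S w')
    (h : P g w = P g w') : P f w = P f w' := by
  have hunit : ∀ w : List A, Ov S w → IsUnit (P f w) := by
    intro w hw
    induction w with
    | nil => simp
    | cons a w ih =>
      rw [ov_cons] at hw
      rw [P_cons]
      exact (hu a hw.1).mul (ih hw.2)
  have hone : ∀ w : List A, Ov S w → P g w * P g w = P g w → P f w = 1 := by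
    intro w hw h
    obtain ⟨k, hk⟩ := hyp w hw h
    have h1 := (hunit w hw).pow k
    rw [pow_succ] at hk
    exact h1.mul_left_cancel (by rw [hk, mul_one])
  have hov : ∀ (n : ℕ) (w : List A), Ov S w → Ov S (List.replicate n w).flatten := by
    intro n w hw
    induction n with
    | zero => simpa using Ov.nil S
    | succ n ih =>
      rw [List.replicate_succ, List.flatten_cons, ov_append]
      exact ⟨hw, ih⟩
  -- idempotent power
  obtain ⟨N, hN, hid⟩ : ∃ N : ℕ, 0 < N ∧ IsIdempotentElem (P g w ^ N) :=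
    exists_idem (P g w)
  obtain ⟨n, rfl⟩ : ∃ n, N = n + 1 := ⟨N - 1, by omega⟩
  have h1 : P f w ^ (n + 1) = 1 := by
    have := hone (List.replicate (n + 1) w).flatten (hov _ _ hw)
      (by rw [P_flatten_replicate]; exact hid)
    rwa [P_flatten_replicate] at this
  have h2 : P f w' * P f w ^ n = 1 := by
    have := hone (w' ++ (List.replicate n w).flatten) (ov_append.2 ⟨hw', hov _ _ hw⟩)
      (by
        rw [P_append, P_flatten_replicate, ← h, ← pow_succ']
        exact hid)
    rwa [P_append, P_flatten_replicate] at this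
  have h3 : IsUnit (P f w ^ n) := (hunit w hw).pow n
  rw [pow_succ'] at h1
  exact h3.mul_right_cancel (h1.trans h2.symm)

theorem main_aux (n : ℕ) : ∀ (M : Type u) [Monoid M] [Finite M], Nat.card M ≤ n →
    ∀ (T : Type u) [Monoid T] [Finite T] (s : ℕ) (A : Type u) [Finite A] (f : A → M) (g : A → T)
      (S : Set A), S.ncard ≤ s →
      (∀ w : List A, Ov S w → P g w * P g w = P g w → Ap (P f w)) →
      ∀ m, SF (P g) {w | Ov S w ∧ P f w = m} := by
  induction n with
  | zero =>
    intro M _ _ h
    exfalso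
    have : 0 < Nat.card M := Nat.card_pos
    omega
  | succ n IHn =>
    intro M _ _ hM T _ _ s
    induction s with
    | zero =>
      intro A _ f g S hS hyp m
      have hS' : S = ∅ := by
        rw [Nat.le_zero] at hS
        exact (Set.ncard_eq_zero (Set.toFinite S)).1 hS
      subst hS'
      by_cases hm : m = 1
      · refine SF.nil.congr ?_
        intro w
        cases w with
        | nil => exact ⟨fun _ => rfl, fun _ => ⟨Ov.nil _, by rw [hm]; simp⟩⟩
        | cons a w => exact ⟨fun h => absurd h.1 (not_ov_empty_cons a w), fun h => by simp at h⟩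
      · refine SF.empty.congr ?_
        intro w
        cases w with
        | nil => exact ⟨fun h => absurd h.2.symm (by simpa using hm), fun h => absurd h (by simp)⟩
        | cons a w => exact ⟨fun h => absurd h.1 (not_ov_empty_cons a w), fun h => absurd h (by simp)⟩
    | succ s IHs =>
      intro A _ f g S hS hyp m
      by_cases hu : ∀ a ∈ S, IsUnit (f a)
      · have h1 : SF (P g) ({w | Ov S w} ∩ {w | ∃ t ∈ {t | ∃ w', Ov S w' ∧ P f w' = m ∧ P g w' = t},
            w ∈ {w | P g w = t}}) :=
          (SF.ov S).inter (SF.biUnion (Set.toFinite _) fun t _ => SF.fibre t)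
        refine h1.congr ?_
        intro w
        constructor
        · rintro ⟨h1, h2⟩
          exact ⟨h1, P g w, ⟨w, h1, h2, rfl⟩, rfl⟩
        · rintro ⟨h1, t, ⟨w', h2, h3, h4⟩, h5⟩
          refine ⟨h1, ?_⟩
          rw [← h3]
          exact group_case f g S hyp hu h1 h2 (Eq.trans h5 h4.symm)
      · push_neg at hu
        obtain ⟨c, hcS, hc⟩ := hu
        classical
        set S0 : Set A := S \ {c} with hS0
        have hS0c : S0.ncard ≤ s := by
          have := Set.ncard_diff_singleton_of_mem hcS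
          rw [hS0]; omega
        have hc0 : c ∉ S0 := by simp [hS0]
        have hsub : ∀ {w : List A}, Ov S0 w → Ov S w := fun hw a ha => (hw a ha).1
        have ih0 : ∀ m, SF (P g) {w | Ov S0 w ∧ P f w = m} :=
          fun m => IHs A f g S0 hS0c (fun w hw => hyp w (hsub hw)) m
        -- the local divisor
        have hcard : Nat.card (LD (f c)) ≤ n := by
          have := LD.card_lt hc
          omega
        set S' : Set (M × T) := {b | ∃ v, Ov S0 v ∧ code f g v = b} with hS'
        have hpull : ∀ β : List (M × T), Ov S' β → ∃ vs : List (List A), (∀ v ∈ vs, Ov S0 v) ∧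
            vs.map (code f g) = β := by
          intro β
          induction β with
          | nil => intro _; exact ⟨[], by simp, rfl⟩
          | cons b β ih =>
            intro h
            rw [ov_cons] at h
            obtain ⟨v, hv, hvb⟩ := h.1
            obtain ⟨vs, h1, h2⟩ := ih h.2
            refine ⟨v :: vs, ?_, by simp [hvb, h2]⟩
            intro v' hv'
            rcases List.mem_cons.1 hv' with rfl | h
            · exact hv
            · exact h1 _ h
        have hdecS : ∀ vs : List (List A), (∀ v ∈ vs, Ov S0 v) → Ov S (dec c vs) := by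
          intro vs
          induction vs with
          | nil => intro _; exact Ov.nil _
          | cons v vs ih =>
            intro h
            rw [dec_cons, ov_append, ov_cons]
            exact ⟨hsub (h v (by simp)), hcS, ih fun v hv => h v (by simp [hv])⟩
        have ihL : ∀ x : LD (f c), SF (P (g' (M := M) g c)) {β | Ov S' β ∧ P (f' f c) β = x} := by
          refine fun x => IHn (LD (f c)) hcard T (S'.ncard) (M × T) (f' f c) (g' g c) S' le_rfl ?_ x
          intro β hβ hid
          obtain ⟨vs, h1, rfl⟩ := hpull β hβ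
          rw [P_g'] at hid
          obtain ⟨k, hk⟩ := hyp (dec c vs) (hdecS vs h1) hid
          refine ⟨k, ?_⟩
          apply Subtype.ext
          rw [LD.pow_val _ (P_f' f g c vs), LD.pow_val _ (P_f' f g c vs), hk]
        have hI : ∀ x : LD (f c), SF (P g) (Inv f g c S0 {β | Ov S' β ∧ P (f' f c) β = x}) :=
          fun x => inv_sf hc0 ih0 (ihL x)
        -- assemble
        have h1 : SF (P g) ({w | Ov S0 w ∧ P f w = m} ∪
            {w | ∃ q ∈ {q : M × LD (f c) × M | q.1 * q.2.1.1 * q.2.2 = m},
              w ∈ {w | ∃ u ∈ {w | ∃ u ∈ {w | ∃ u ∈ {w | Ov S0 w ∧ P f w = q.1}, ∃ v ∈ ({[c]} : Set (List A)),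
                w = u ++ v}, ∃ v ∈ Inv f g c S0 {β | Ov S' β ∧ P (f' f c) β = q.2.1}, w = u ++ v},
                ∃ v ∈ {w | Ov S0 w ∧ P f w = q.2.2}, w = u ++ v}}) := by
          refine (ih0 m).union (SF.biUnion (Set.toFinite _) fun q _ => ?_)
          exact ((((ih0 q.1).mul (SF.letter c)).mul (hI q.2.1)).mul (ih0 q.2.2))
        refine h1.congr ?_
        intro w
        constructor
        · rintro ⟨hw, hm⟩
          obtain ⟨vs, v, h3, h4, hwe⟩ := exists_dec c w
          have hovv : ∀ v' ∈ vs, Ov S0 v' := by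
            intro v' hv' a ha
            have hmem : a ∈ w := by
              rw [hwe]
              simp only [dec, List.mem_append, List.mem_flatten, List.mem_map]
              exact Or.inl ⟨v' ++ [c], ⟨v', hv', rfl⟩, by simp [ha]⟩
            refine ⟨hw a hmem, ?_⟩
            rintro rfl
            exact h3 v' hv' ha
          have hovl : Ov S0 v := by
            intro a ha
            refine ⟨hw a (by rw [hwe]; simp [ha]), ?_⟩
            rintro rfl
            exact h4 ha
          cases vs with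
          | nil =>
            left
            simp only [dec_nil, List.nil_append] at hwe
            subst hwe
            exact ⟨hovl, hm⟩
          | cons v0 vs =>
            right
            have hovs : ∀ v' ∈ vs, Ov S0 v' := fun v' hv' => hovv v' (by simp [hv'])
            refine ⟨(P f v0, P (f' f c) (vs.map (code f g)), P f v), ?_, ?_⟩
            · simp only [Set.mem_ofPred_eq]
              rw [P_f', ← hm, hwe]
              simp only [dec_cons, P_append, P_cons, mul_assoc]
            · refine ⟨v0 ++ [c] ++ dec c vs, ⟨v0 ++ [c], ⟨v0, ⟨hovv v0 (by simp), rfl⟩, [c], rfl,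
                rfl⟩, dec c vs, ⟨vs, hovs, rfl, ?_, rfl⟩, rfl⟩, v, ⟨hovl, rfl⟩, ?_⟩
              · intro b hb
                rw [List.mem_map] at hb
                obtain ⟨v', hv', rfl⟩ := hb
                exact ⟨v', hovs v' hv', rfl⟩
              · rw [hwe]; simp
        · rintro (⟨h1, h2⟩ | ⟨q, hq, u, ⟨u1, ⟨v0, ⟨h1, h2⟩, z, hz, rfl⟩, u2, ⟨vs, h3, rfl, h4, h5⟩,
            rfl⟩, v, ⟨h6, h7⟩, rfl⟩)
          · exact ⟨hsub h1, h2⟩
          · rw [Set.mem_singleton_iff] at hz
            subst hz
            refine ⟨?_, ?_⟩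
            · rw [ov_append, ov_append, ov_append, ov_cons]
              exact ⟨⟨⟨hsub h1, hcS, Ov.nil _⟩, hdecS vs h3⟩, hsub h6⟩
            · rw [← hq, ← h2, ← h7, ← h5, P_f']
              simp only [P_append, P_single, mul_assoc]

/-- relative Schuetzenberger theorem -/
theorem main {M T A : Type u} [Monoid M] [Finite M] [Monoid T] [Finite T] [Finite A]
    (f : A → M) (g : A → T)
    (hyp : ∀ w : List A, P g w * P g w = P g w → Ap (P f w)) (m : M) :
    SF (P g) {w | P f w = m} := by
  refine (main_aux _ M le_rfl T _ A f g Set.univ le_rfl (fun w _ => hyp w) m).congr ?_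
  intro w
  simp [Ov]

end Crest.Agent.R320.Crit564
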