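import Crest.Agent.R320.Hk2_851

/-!
# Row 320: the periodic separation criterion (helper666; statement of helper932 #12722)

Proof by local divisors, relative to an oracle morphism `τ`.
-/

set_option autoImplicit false

namespace Crest.Agent.R320.Crit_666

open Crest.Agent.R320.Hk_851

universe u

/-! ## local divisors -/

section LD

variable {M : Type u} [Monoid M] (c : M)

/-- the local divisor `c M ∩ M c` -/
def LD : Type u := {x : M // (∃ a, x = c * a) ∧ (∃ b, x = b * c)}

variable {c}

theorem LD.ext' {x y : LD c} (h : x.1 = y.1) : x = y := Subtype.ext h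

noncomputable instance : Mul (LD c) :=
  ⟨fun x y => ⟨x.2.2.choose * y.1, by
    obtain ⟨a, ha⟩ := y.2.1
    obtain ⟨a', ha'⟩ := x.2.1
    have hx := x.2.2.choose_spec
    refine ⟨a' * a, ?_⟩
    rw [ha, ← mul_assoc, ← hx, ha', mul_assoc], by
    obtain ⟨b, hb⟩ := y.2.2
    exact ⟨x.2.2.choose * b, by rw [hb, mul_assoc]⟩⟩⟩

theorem LD.mul_val (x y : LD c) (b : M) (hb : x.1 = b * c) : (x * y).1 = b * y.1 := by
  obtain ⟨a, ha⟩ := y.2.1
  have hx := x.2.2.choose_spec
  change x.2.2.choose * y.1 = b * y.1
  rw [ha, ← mul_assoc, ← mul_assoc, ← hx, hb]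

instance : One (LD c) := ⟨⟨c, ⟨1, (mul_one c).symm⟩, ⟨1, (one_mul c).symm⟩⟩⟩

theorem LD.one_val : (1 : LD c).1 = c := rfl

noncomputable instance : Monoid (LD c) where
  mul_assoc x y z := by
    obtain ⟨b, hb⟩ := x.2.2
    obtain ⟨b', hb'⟩ := y.2.2
    apply LD.ext'
    have h1 : (x * y).1 = (b * b') * c := by rw [LD.mul_val x y b hb, hb', mul_assoc]
    rw [LD.mul_val (x * y) z _ h1, LD.mul_val x (y * z) b hb, LD.mul_val y z b' hb', mul_assoc]
  one_mul x := by
    apply LD.ext'
    rw [LD.mul_val 1 x 1 (by rw [LD.one_val, one_mul]), one_mul]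
  mul_one x := by
    obtain ⟨b, hb⟩ := x.2.2
    apply LD.ext'
    rw [LD.mul_val x 1 b hb, LD.one_val, hb]

instance [Finite M] : Finite (LD c) := by unfold LD; infer_instance

/-- the letter `m ↦ c m c` -/
def LD.let' (c m : M) : LD c := ⟨c * m * c, ⟨m * c, by rw [mul_assoc]⟩, ⟨c * m, rfl⟩⟩

theorem LD.let_mul (m : M) (z : LD c) (q : M) (hz : z.1 = c * q) :
    (LD.let' c m * z).1 = c * ((m * c) * q) := by
  rw [LD.mul_val (LD.let' c m) z (c * m) rfl, hz]
  simp only [mul_assoc]

theorem LD.prod_mul (u : List M) (z : LD c) (q : M) (hz : z.1 = c * q) :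
    ((u.map (LD.let' c)).prod * z).1 = c * ((u.map (· * c)).prod * q) := by
  induction u with
  | nil => simpa using hz
  | cons m u ih =>
    rw [List.map_cons, List.prod_cons, List.map_cons, List.prod_cons, mul_assoc,
      LD.let_mul m _ _ ih, mul_assoc (m * c)]

theorem LD.prod_val (u : List M) :
    ((u.map (LD.let' c)).prod).1 = c * (u.map (· * c)).prod := by
  have := LD.prod_mul u (1 : LD c) 1 (by rw [LD.one_val, mul_one])
  simpa using this

theorem LD.pow_val (u : List M) (n : ℕ) :
    (((u.map (LD.let' c)).prod) ^ n).1 = c * ((u.map (· * c)).prod) ^ n := by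
  induction n with
  | zero => rw [pow_zero, pow_zero, LD.one_val, mul_one]
  | succ n ih => rw [pow_succ', pow_succ', LD.prod_mul u _ _ ih]

theorem LD.card_lt [Finite M] (hc : ¬ IsUnit c) : Nat.card (LD c) < Nat.card M := by
  apply Finite.card_subtype_lt (x := (1 : M))
  rintro ⟨⟨a, ha⟩, ⟨b, hb⟩⟩
  apply hc
  have hab : b = a := left_inv_eq_right_inv hb.symm ha.symm
  exact ⟨⟨c, a, ha.symm, by rw [← hab]; exact hb.symm⟩, rfl⟩

end LD

/-! ## the relative star-free class -/

/-- smallest class containing the fibres of `τ`, letters, the empty word, closed under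
complement, union, product -/
inductive SF {α T : Type u} [Monoid T] (τ : α → T) : Set (List α) → Prop
  | letter (a : α) : SF τ {w | w = [a]}
  | oracle (t : T) : SF τ {w | (w.map τ).prod = t}
  | one : SF τ {w | w = []}
  | compl (L : Set (List α)) : SF τ L → SF τ {w | w ∉ L}
  | union (L K : Set (List α)) : SF τ L → SF τ K → SF τ {w | w ∈ L ∨ w ∈ K}
  | mul (L K : Set (List α)) : SF τ L → SF τ K → SF τ {w | ∃ x y, x ∈ L ∧ y ∈ K ∧ w = x ++ y}

section SF

variable {α T : Type u} [Monoid T] {τ : α → T}

theorem SF.congr {L K : Set (List α)} (h : SF τ L) (e : ∀ w, w ∈ K ↔ w ∈ L) : SF τ K := by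
  have : K = L := Set.ext e
  rw [this]; exact h

theorem SF.inter {L K : Set (List α)} (hL : SF τ L) (hK : SF τ K) :
    SF τ {w | w ∈ L ∧ w ∈ K} := by
  refine (SF.compl _ (SF.union _ _ (SF.compl _ hL) (SF.compl _ hK))).congr fun w => ?_
  simp only [Set.mem_ofPred_eq]; tauto

theorem SF.empty : SF τ {_w | False} :=
  ((SF.one (τ := τ)).inter (SF.compl _ SF.one)).congr fun w => by
    simp only [Set.mem_ofPred_eq]; tauto

theorem SF.univ : SF τ {_w | True} :=
  (SF.compl _ SF.empty).congr fun w => by simp

theorem SF.exists_finset {ι : Type*} (s : Finset ι) {L : ι → Set (List α)}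
    (h : ∀ i ∈ s, SF τ (L i)) : SF τ {w | ∃ i ∈ s, w ∈ L i} := by
  classical
  induction s using Finset.induction_on with
  | empty => exact SF.empty.congr fun w => by simp
  | insert i s _ ih =>
    refine (SF.union _ _ (h i (Finset.mem_insert_self _ _))
      (ih fun j hj => h j (Finset.mem_insert_of_mem hj))).congr fun w => ?_
    simp

theorem SF.exists_fin {ι : Type*} [Finite ι] {L : ι → Set (List α)}
    (h : ∀ i, SF τ (L i)) : SF τ {w | ∃ i, w ∈ L i} := by
  have := Fintype.ofFinite ι
  exact (SF.exists_finset Finset.univ (fun i _ => h i)).congr fun w => by simp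

/-- words over the sub-alphabet `B` -/
theorem SF.sub [Finite α] (B : Set α) : SF τ {w | ∀ a ∈ w, a ∈ B} := by
  have h1 : SF τ {w | ∃ a : {a : α // a ∉ B}, w ∈ {w | ∃ x y, x ∈ {w | ∃ x y,
      x ∈ {_w : List α | True} ∧ y ∈ {w | w = [a.1]} ∧ w = x ++ y} ∧
      y ∈ {_w : List α | True} ∧ w = x ++ y}} :=
    SF.exists_fin fun a => SF.mul _ _ (SF.mul _ _ SF.univ (SF.letter a.1)) SF.univ
  refine (SF.compl _ h1).congr fun w => ?_
  simp only [Set.mem_ofPred_eq]
  constructor
  · rintro hw ⟨⟨a, ha⟩, x, y, ⟨x', y', -, rfl, rfl⟩, -, rfl⟩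
    exact ha (hw a (by simp))
  · intro hw a ha
    by_contra hB
    obtain ⟨x, y, rfl⟩ := List.append_of_mem ha
    exact hw ⟨⟨a, hB⟩, x ++ [a], y, ⟨x, [a], trivial, rfl, rfl⟩, trivial, by simp⟩

/-- `SF` is contained in every `HL h` which contains the fibres -/
theorem SF.toHL {h : ℕ} (hτ : ∀ t, HL h ({w | (w.map τ).prod = t} : Language α))
    {L : Set (List α)} (hL : SF τ L) : HL h (L : Language α) := by
  induction hL with
  | letter a =>
    exact (HL.word (α := α) (k := h) [a]).congr fun w => Iff.rfl
  | oracle t => exact hτ t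
  | one => exact (HL.word (α := α) (k := h) []).congr fun w => Iff.rfl
  | compl L _ ih => exact (HL.compl ih).congr fun w => Iff.rfl
  | union L K _ _ ih1 ih2 => exact (HL.add ih1 ih2).congr fun w => Iff.rfl
  | mul L K _ _ ih1 ih2 =>
    refine (HL.mul ih1 ih2).congr fun w => ?_
    rw [Language.mem_mul]
    constructor
    · rintro ⟨x, y, hx, hy, rfl⟩; exact ⟨x, hx, y, hy, rfl⟩
    · rintro ⟨x, hx, y, hy, rfl⟩; exact ⟨x, y, hx, hy, rfl⟩

end SF


/-! ## blocks -/

section Blocks

variable {α : Type u}

/-- `v₁ c v₂ c … v_k c` -/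
def join (c : α) (vs : List (List α)) : List α := (vs.map (· ++ [c])).flatten

theorem join_nil (c : α) : join c [] = [] := rfl

theorem join_cons (c : α) (v : List α) (vs : List (List α)) :
    join c (v :: vs) = v ++ c :: join c vs := by
  simp [join]

theorem join_append (c : α) (vs ws : List (List α)) :
    join c (vs ++ ws) = join c vs ++ join c ws := by
  simp [join]

theorem cons_inj {c : α} : ∀ {v v' x y : List α}, c ∉ v → c ∉ v' →
    v ++ c :: x = v' ++ c :: y → v = v' ∧ x = y
  | [], [], x, y, _, _, h => by simpa using h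
  | [], b :: v', x, y, _, h2, h => by
    simp only [List.nil_append, List.cons_append, List.cons.injEq] at h
    exact (h2 (by rw [h.1]; simp)).elim
  | a :: v, [], x, y, h1, _, h => by
    simp only [List.nil_append, List.cons_append, List.cons.injEq] at h
    exact (h1 (by rw [← h.1]; simp)).elim
  | a :: v, b :: v', x, y, h1, h2, h => by
    simp only [List.cons_append, List.cons.injEq] at h
    obtain ⟨h3, h4⟩ := cons_inj (v := v) (v' := v') (fun hh => h1 (List.mem_cons_of_mem _ hh))
      (fun hh => h2 (List.mem_cons_of_mem _ hh)) h.2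
    exact ⟨by rw [h.1, h3], h4⟩

theorem join_inj {c : α} : ∀ {vs ws : List (List α)}, (∀ v ∈ vs, c ∉ v) → (∀ v ∈ ws, c ∉ v) →
    join c vs = join c ws → vs = ws
  | [], [], _, _, _ => rfl
  | [], w :: ws, _, _, h => by
    rw [join_cons, join_nil] at h
    simp at h
  | v :: vs, [], _, _, h => by
    rw [join_cons, join_nil] at h
    simp at h
  | v :: vs, w :: ws, h1, h2, h => by
    rw [join_cons, join_cons] at h
    obtain ⟨h3, h4⟩ := cons_inj (h1 v (by simp)) (h2 w (by simp)) h
    rw [h3, join_inj (fun x hx => h1 x (by simp [hx])) (fun x hx => h2 x (by simp [hx])) h4]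

theorem exists_join (c : α) : ∀ (w : List α), ∃ vs r, w = join c vs ++ r ∧
    (∀ v ∈ vs, c ∉ v ∧ ∀ a ∈ v, a ∈ w) ∧ c ∉ r
  | [] => ⟨[], [], by simp [join_nil], by simp, by simp⟩
  | a :: w => by
    obtain ⟨vs, r, h1, h2, h3⟩ := exists_join c w
    by_cases hac : a = c
    · refine ⟨[] :: vs, r, ?_, ?_, h3⟩
      · rw [join_cons, hac, h1]; simp
      · intro v hv
        rcases List.mem_cons.1 hv with rfl | hv
        · simp
        · exact ⟨(h2 v hv).1, fun b hb => List.mem_cons_of_mem _ ((h2 v hv).2 b hb)⟩
    · cases vs with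
      | nil =>
        refine ⟨[], a :: r, ?_, by simp, ?_⟩
        · rw [h1]; simp [join_nil]
        · rw [List.mem_cons, not_or]; exact ⟨fun h => hac h.symm, h3⟩
      | cons v vs =>
        refine ⟨(a :: v) :: vs, r, ?_, ?_, h3⟩
        · rw [h1, join_cons, join_cons]; simp
        · intro x hx
          rcases List.mem_cons.1 hx with rfl | hx
          · have h4 := h2 v (by simp)
            refine ⟨?_, ?_⟩
            · rw [List.mem_cons, not_or]; exact ⟨fun h => hac h.symm, h4.1⟩
            · intro b hb
              rcases List.mem_cons.1 hb with rfl | hb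
              · simp
              · exact List.mem_cons_of_mem _ (h4.2 b hb)
          · have h4 := h2 x (by simp [hx])
            exact ⟨h4.1, fun b hb => List.mem_cons_of_mem _ (h4.2 b hb)⟩

theorem mem_join {c a : α} {vs : List (List α)} (h : a ∈ join c vs) :
    a = c ∨ ∃ v ∈ vs, a ∈ v := by
  unfold join at h
  rw [List.mem_flatten] at h
  obtain ⟨l, hl, ha⟩ := h
  rw [List.mem_map] at hl
  obtain ⟨v, hv, rfl⟩ := hl
  rw [List.mem_append] at ha
  rcases ha with ha | ha
  · exact Or.inr ⟨v, hv, ha⟩
  · exact Or.inl (by simpa using ha)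

theorem join_prod {M : Type u} [Monoid M] (φ : α → M) (c : α) (vs : List (List α)) :
    ((join c vs).map φ).prod = ((vs.map fun v => (v.map φ).prod).map (· * φ c)).prod := by
  induction vs with
  | nil => rfl
  | cons v vs ih =>
    rw [join_cons, List.map_append, List.prod_append, List.map_cons, List.prod_cons, ih,
      List.map_cons, List.map_cons, List.prod_cons, mul_assoc]

end Blocks

/-! ## substitution -/

section Sub

variable {α M T : Type u} [Monoid M] [Monoid T] (φ : α → M) (τ : α → T) (B : Set α) (c : α)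

/-- the pair of values of a block -/
def pr (v : List α) : M × T := ((v.map φ).prod, (v.map τ).prod)

/-- good block lists -/
def Good (vs : List (List α)) : Prop := ∀ v ∈ vs, ∀ a ∈ v, a ∈ B \ {c}

/-- new oracle -/
def tau2 (x : M × T) : T := x.2 * τ c

/-- words `v₁ c … v_k c` whose list of pairs lies in `L` -/
def Sub (L : Set (List (M × T))) : Set (List α) :=
  {s | ∃ vs, Good B c vs ∧ s = join c vs ∧ vs.map (pr φ τ) ∈ L}

variable {φ τ B c}

theorem Good.notMem {vs : List (List α)} (h : Good B c vs) : ∀ v ∈ vs, c ∉ v :=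
  fun v hv hc => (h v hv c hc).2 rfl

theorem tau2_prod (vs : List (List α)) :
    ((vs.map (pr φ τ)).map (tau2 (M := M) τ c)).prod = ((join c vs).map τ).prod := by
  rw [join_prod, List.map_map, List.map_map]
  rfl

theorem sf_good [Finite α] : SF τ {s | ∃ vs, Good B c vs ∧ s = join c vs ∧ c ∈ B} := by
  by_cases hcB : c ∈ B
  swap
  · exact SF.empty.congr fun w => by
      simp only [Set.mem_ofPred_eq]
      constructor
      · rintro ⟨_, _, _, h⟩; exact hcB h
      · exact False.elim
  have h1 : SF τ {w | w ∈ {w : List α | ∀ a ∈ w, a ∈ B} ∧ w ∈ {w | w ∈ {w : List α | w = []} ∨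
      w ∈ {w | ∃ x y, x ∈ {_w : List α | True} ∧ y ∈ {w | w = [c]} ∧ w = x ++ y}}} :=
    (SF.sub B).inter (SF.union _ _ SF.one (SF.mul _ _ SF.univ (SF.letter c)))
  refine h1.congr fun w => ?_
  simp only [Set.mem_ofPred_eq]
  constructor
  · rintro ⟨vs, hvs, rfl, _⟩
    refine ⟨?_, ?_⟩
    · intro a ha
      rcases mem_join ha with rfl | ⟨v, hv, hav⟩
      · exact hcB
      · exact (hvs v hv a hav).1
    · rcases List.eq_nil_or_concat vs with rfl | ⟨us, v, rfl⟩
      · left; rfl
      · right
        refine ⟨join c us ++ v, [c], trivial, rfl, ?_⟩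
        rw [List.concat_eq_append, join_append, join_cons, join_nil]; simp
  · rintro ⟨hB, hw⟩
    obtain ⟨vs, r, h1, h2, h3⟩ := exists_join c w
    have hr : r = [] := by
      rcases hw with hw | ⟨x, y, -, rfl, hw⟩
      · rw [hw] at h1
        exact (List.append_eq_nil_iff.1 h1.symm).2
      · rcases List.eq_nil_or_concat r with hr | ⟨r', a, hr⟩
        · exact hr
        · exfalso
          rw [hw, hr, List.concat_eq_append, ← List.append_assoc] at h1
          have := List.append_inj_right' h1 rfl
          rw [List.cons.injEq] at this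
          apply h3
          rw [hr, this.1]; simp
    refine ⟨vs, ?_, by rw [h1, hr, List.append_nil], hcB⟩
    intro v hv a ha
    refine ⟨hB a ((h2 v hv).2 a ha), ?_⟩
    rintro rfl
    exact (h2 v hv).1 ha

theorem sf_sub [Finite α] (hcB : c ∈ B)
    (hN : ∀ m, SF τ {w | (∀ a ∈ w, a ∈ B \ {c}) ∧ (w.map φ).prod = m})
    {L : Set (List (M × T))} (hL : SF (tau2 (M := M) τ c) L) : SF τ (Sub φ τ B c L) := by
  have hD : SF τ {s | ∃ vs, Good B c vs ∧ s = join c vs} :=
    (sf_good (τ := τ) (B := B) (c := c)).congr fun w => by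
      simp only [Set.mem_ofPred_eq]
      constructor
      · rintro ⟨vs, h1, h2⟩; exact ⟨vs, h1, h2, hcB⟩
      · rintro ⟨vs, h1, h2, _⟩; exact ⟨vs, h1, h2⟩
  induction hL with
  | letter x =>
    have h1 := SF.mul _ _ ((hN x.1).inter (SF.oracle (τ := τ) x.2)) (SF.letter (τ := τ) c)
    refine h1.congr fun w => ?_
    constructor
    · rintro ⟨vs, h1, h2, h3⟩
      have h3' : vs.map (pr φ τ) = [x] := h3
      rw [List.map_eq_singleton_iff] at h3'
      obtain ⟨v, rfl, hv⟩ := h3'
      refine ⟨v, [c], ⟨⟨h1 v (by simp), ?_⟩, ?_⟩, rfl, ?_⟩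
      · rw [← hv]; rfl
      · change (v.map τ).prod = x.2
        rw [← hv]; rfl
      · rw [h2, join_cons, join_nil]
    · rintro ⟨v, y, ⟨⟨h1, h2⟩, h3⟩, h4, rfl⟩
      have h4' : y = [c] := h4
      subst h4'
      refine ⟨[v], ?_, ?_, ?_⟩
      · intro u hu
        rw [List.mem_singleton] at hu
        rw [hu]; exact h1
      · rw [join_cons, join_nil]
      · change [v].map (pr φ τ) = [x]
        rw [List.map_cons, List.map_nil]
        congr 1
        exact Prod.ext h2 h3
  | oracle t =>
    refine (hD.inter (SF.oracle t)).congr fun w => ?_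
    constructor
    · rintro ⟨vs, h1, h2, h3⟩
      refine ⟨⟨vs, h1, h2⟩, ?_⟩
      change (w.map τ).prod = t
      rw [h2, ← tau2_prod (φ := φ)]; exact h3
    · rintro ⟨⟨vs, h1, h2⟩, h3⟩
      refine ⟨vs, h1, h2, ?_⟩
      change ((vs.map (pr φ τ)).map (tau2 (M := M) τ c)).prod = t
      rw [tau2_prod, ← h2]; exact h3
  | one =>
    refine SF.one.congr fun w => ?_
    constructor
    · rintro ⟨vs, h1, h2, h3⟩
      have h3' : vs.map (pr φ τ) = [] := h3
      rw [List.map_eq_nil_iff] at h3'
      change w = []
      rw [h2, h3']; rfl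
    · intro h
      have h' : w = [] := h
      exact ⟨[], by intro v hv; simp at hv, h', rfl⟩
  | compl L _ ih =>
    refine (hD.inter (SF.compl _ ih)).congr fun w => ?_
    constructor
    · rintro ⟨vs, h1, h2, h3⟩
      refine ⟨⟨vs, h1, h2⟩, ?_⟩
      rintro ⟨ws, g1, g2, g3⟩
      have : vs = ws := join_inj h1.notMem g1.notMem (by rw [← h2, ← g2])
      rw [← this] at g3
      exact h3 g3
    · rintro ⟨⟨vs, h1, h2⟩, h3⟩
      exact ⟨vs, h1, h2, fun h4 => h3 ⟨vs, h1, h2, h4⟩⟩
  | union L K _ _ ih1 ih2 =>
    refine (SF.union _ _ ih1 ih2).congr fun w => ?_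
    constructor
    · rintro ⟨vs, h1, h2, h3⟩
      rcases h3 with h3 | h3
      · exact Or.inl ⟨vs, h1, h2, h3⟩
      · exact Or.inr ⟨vs, h1, h2, h3⟩
    · rintro (⟨vs, h1, h2, h3⟩ | ⟨vs, h1, h2, h3⟩)
      · exact ⟨vs, h1, h2, Or.inl h3⟩
      · exact ⟨vs, h1, h2, Or.inr h3⟩
  | mul L K _ _ ih1 ih2 =>
    refine (SF.mul _ _ ih1 ih2).congr fun w => ?_
    constructor
    · rintro ⟨vs, h1, h2, x, y, hx, hy, h3⟩
      rw [List.map_eq_append_iff] at h3
      obtain ⟨v1, v2, rfl, rfl, rfl⟩ := h3
      refine ⟨join c v1, join c v2, ⟨v1, ?_, rfl, hx⟩, ⟨v2, ?_, rfl, hy⟩, ?_⟩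
      · exact fun v hv => h1 v (by simp [hv])
      · exact fun v hv => h1 v (by simp [hv])
      · rw [h2, join_append]
    · rintro ⟨x, y, ⟨v1, g1, g2, g3⟩, ⟨v2, k1, k2, k3⟩, rfl⟩
      refine ⟨v1 ++ v2, ?_, by rw [join_append, g2, k2], ?_⟩
      · intro v hv
        rcases List.mem_append.1 hv with hv | hv
        · exact g1 v hv
        · exact k1 v hv
      · exact ⟨_, _, g3, k3, by rw [List.map_append]⟩

end Sub

/-! ## the main induction -/

theorem rep_prod {α : Type u} {P : Type*} [Monoid P] (f : α → P) (w : List α) (n : ℕ) :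
    (((List.replicate n w).flatten).map f).prod = (w.map f).prod ^ n := by
  induction n with
  | zero => simp
  | succ n ih =>
    rw [List.replicate_succ, List.flatten_cons, List.map_append, List.prod_append, ih, pow_succ']

theorem exists_idem {T : Type u} [Monoid T] [Finite T] (t : T) :
    ∃ N, 1 ≤ N ∧ t ^ N * t ^ N = t ^ N := by
  obtain ⟨i, j, hij, h⟩ := Finite.exists_ne_map_eq_of_infinite (fun n : ℕ => t ^ n)
  wlog hlt : i < j generalizing i j
  · exact this j i hij.symm h.symm (lt_of_le_of_ne (not_lt.1 hlt) hij.symm)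
  have h' : t ^ i = t ^ j := h
  obtain ⟨d, rfl⟩ : ∃ d, j = i + d := ⟨j - i, by omega⟩
  have hd : 1 ≤ d := by omega
  have step : ∀ q k, t ^ (i + k + q * d) = t ^ (i + k) := by
    intro q
    induction q with
    | zero => intro k; simp
    | succ q ih =>
      intro k
      have e : i + k + (q + 1) * d = i + (k + d) + q * d := by ring
      rw [e, ih, show i + (k + d) = (i + d) + k by ring, pow_add, ← h', ← pow_add]
  refine ⟨(i + 1) * d, by nlinarith, ?_⟩
  have h1 : i ≤ (i + 1) * d := by nlinarith
  obtain ⟨k, hk⟩ := Nat.exists_eq_add_of_le h1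
  have h2 := step (i + 1) k
  rw [← hk] at h2
  rw [← pow_add]; exact h2

theorem main (n : ℕ) : ∀ (M : Type u) [Monoid M] [Finite M], Nat.card M ≤ n →
    ∀ (α T : Type u) [Finite α] [Monoid T] [Finite T] (φ : α → M) (τ : α → T) (k : ℕ)
      (B : Set α), B.ncard ≤ k →
      (∀ w : List α, (∀ a ∈ w, a ∈ B) → (w.map τ).prod * (w.map τ).prod = (w.map τ).prod →
        ∃ k, ((w.map φ).prod) ^ k = ((w.map φ).prod) ^ (k + 1)) →
      ∀ m, SF τ {w | (∀ a ∈ w, a ∈ B) ∧ (w.map φ).prod = m} := by
  induction n with
  | zero =>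
    intro M _ _ hM
    have : 0 < Nat.card M := Nat.card_pos
    omega
  | succ n ihn =>
    intro M _ _ hM α T _ _ _ φ τ k
    induction k with
    | zero =>
      intro B hB _ m
      have hB' : B = ∅ := by
        rw [← Set.ncard_eq_zero (Set.toFinite B)]; omega
      subst hB'
      by_cases hm : m = 1
      · refine SF.one.congr fun w => ?_
        simp only [Set.mem_ofPred_eq]
        constructor
        · rintro ⟨h1, -⟩
          exact List.eq_nil_iff_forall_not_mem.2 fun a ha => (h1 a ha).elim
        · rintro rfl; simp [hm]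
      · refine SF.empty.congr fun w => ?_
        simp only [Set.mem_ofPred_eq, iff_false, not_and]
        intro h1 h2
        have : w = [] := List.eq_nil_iff_forall_not_mem.2 fun a ha => (h1 a ha).elim
        rw [this] at h2
        exact hm (by rw [← h2]; rfl)
    | succ k ihk =>
      intro B hB hyp m
      by_cases hU : ∀ b ∈ B, IsUnit (φ b)
      · -- all letters are units
        have hunit : ∀ w : List α, (∀ a ∈ w, a ∈ B) → IsUnit (w.map φ).prod := by
          intro w hw
          induction w with
          | nil => simp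
          | cons a w ih =>
            rw [List.map_cons, List.prod_cons]
            exact (hU a (hw a (by simp))).mul (ih fun b hb => hw b (by simp [hb]))
        have key : ∀ w w' : List α, (∀ a ∈ w, a ∈ B) → (∀ a ∈ w', a ∈ B) →
            (w.map τ).prod = (w'.map τ).prod → (w.map φ).prod = (w'.map φ).prod := by
          intro w w' hw hw' e
          obtain ⟨N, hN, hid⟩ := exists_idem (((w.map τ).prod, (w.map φ).prod) : T × M)
          have hid1 : (w.map τ).prod ^ N * (w.map τ).prod ^ N = (w.map τ).prod ^ N :=
            congrArg Prod.fst hid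
          have hid2 : (w.map φ).prod ^ N * (w.map φ).prod ^ N = (w.map φ).prod ^ N :=
            congrArg Prod.snd hid
          obtain ⟨N', rfl⟩ : ∃ N', N = N' + 1 := ⟨N - 1, by omega⟩
          have hu : (w.map φ).prod ^ (N' + 1) = 1 := by
            have h1 := (hunit w hw).pow (N' + 1)
            exact h1.mul_left_cancel (by rw [hid2, mul_one])
          have hrep : ∀ {P : Type u} [Monoid P] (f : α → P),
              ((((List.replicate N' w).flatten ++ w').map f)).prod =
                (w.map f).prod ^ N' * (w'.map f).prod := by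
            intro P _ f
            rw [List.map_append, List.prod_append, rep_prod]
          obtain ⟨q, hq⟩ := hyp ((List.replicate N' w).flatten ++ w') (by
              intro a ha
              rcases List.mem_append.1 ha with ha | ha
              · rw [List.mem_flatten] at ha
                obtain ⟨l, hl, hal⟩ := ha
                rw [List.eq_of_mem_replicate hl] at hal
                exact hw a hal
              · exact hw' a ha) (by
              rw [hrep, ← e, ← pow_succ]; exact hid1)
          have hx := hunit ((List.replicate N' w).flatten ++ w') (by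
              intro a ha
              rcases List.mem_append.1 ha with ha | ha
              · rw [List.mem_flatten] at ha
                obtain ⟨l, hl, hal⟩ := ha
                rw [List.eq_of_mem_replicate hl] at hal
                exact hw a hal
              · exact hw' a ha)
          have hx1 : (((List.replicate N' w).flatten ++ w').map φ).prod = 1 := by
            have h2 := hx.pow q
            rw [pow_succ] at hq
            exact (h2.mul_left_cancel (by rw [mul_one]; exact hq)).symm
          rw [hrep] at hx1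
          rw [pow_succ] at hu
          exact ((hunit w hw).pow N').mul_left_cancel (hu.trans hx1.symm)
        have h1 : SF τ {w | ∃ t : {t : T // ∃ w0 : List α, (∀ a ∈ w0, a ∈ B) ∧
            (w0.map φ).prod = m ∧ (w0.map τ).prod = t}, w ∈ {w : List α | (w.map τ).prod = t.1}} :=
          SF.exists_fin fun t => SF.oracle t.1
        refine ((SF.sub B).inter h1).congr fun w => ?_
        simp only [Set.mem_ofPred_eq]
        constructor
        · rintro ⟨h2, h3⟩
          exact ⟨h2, ⟨⟨_, w, h2, h3, rfl⟩, rfl⟩⟩
        · rintro ⟨h2, ⟨⟨t, w0, g1, g2, g3⟩, h4⟩⟩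
          exact ⟨h2, (key w w0 h2 g1 (by rw [g3]; exact h4)).trans g2⟩
      · -- some letter is not a unit
        obtain ⟨c, hcB, hc⟩ : ∃ c ∈ B, ¬ IsUnit (φ c) := by
          by_contra h
          exact hU fun b hb => by_contra fun h' => h ⟨b, hb, h'⟩
        have hlt : (B \ {c}).ncard ≤ k := by
          have := Set.ncard_diff_singleton_lt_of_mem hcB (Set.toFinite B)
          omega
        have hN := ihk (B \ {c}) hlt (fun w hw => hyp w fun a ha => (hw a ha).1)
        have hcard : Nat.card (LD (φ c)) ≤ n := by
          have := LD.card_lt hc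
          omega
        have hnew := ihn (LD (φ c)) hcard (M × T) T (fun x => LD.let' (φ c) x.1)
          (tau2 (M := M) τ c) (Nat.card (M × T))
          {x | ∃ v : List α, (∀ a ∈ v, a ∈ B \ {c}) ∧ pr φ τ v = x} (by
            rw [← Set.ncard_univ]
            exact Set.ncard_le_ncard (Set.subset_univ _) (Set.toFinite _)) (by
          intro u hu hid
          have hvs : ∃ vs : List (List α), Good B c vs ∧ vs.map (pr φ τ) = u := by
            clear hid
            induction u with
            | nil => exact ⟨[], by intro v hv; simp at hv, rfl⟩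
            | cons x u ih =>
              obtain ⟨vs, h1, h2⟩ := ih fun a ha => hu a (by simp [ha])
              obtain ⟨v, h3, h4⟩ := hu x (by simp)
              refine ⟨v :: vs, ?_, by rw [List.map_cons, h4, h2]⟩
              intro w hw
              rcases List.mem_cons.1 hw with rfl | hw
              · exact h3
              · exact h1 w hw
          obtain ⟨vs, hg, rfl⟩ := hvs
          rw [tau2_prod] at hid
          obtain ⟨q, hq⟩ := hyp (join c vs) (by
            intro a ha
            rcases mem_join ha with rfl | ⟨v, hv, hav⟩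
            · exact hcB
            · exact (hg v hv a hav).1) hid
          refine ⟨q, ?_⟩
          have e1 : ((vs.map (pr φ τ)).map fun x => LD.let' (φ c) x.1) =
              (vs.map fun v => (v.map φ).prod).map (LD.let' (φ c)) := by
            rw [List.map_map, List.map_map]; rfl
          rw [e1]
          apply LD.ext'
          rw [LD.pow_val, LD.pow_val, ← join_prod, hq])
        have hsub := fun x => sf_sub (φ := φ) hcB hN (hnew x)
        have h1 : SF τ {w | ∃ p : {p : M × LD (φ c) × M // p.1 * p.2.1.1 * p.2.2 = m},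
            w ∈ {w | ∃ x y, x ∈ {w | ∃ x y, x ∈ {w | (∀ a ∈ w, a ∈ B \ {c}) ∧
              (w.map φ).prod = p.1.1} ∧ y ∈ {w | w = [c]} ∧ w = x ++ y} ∧
              y ∈ {w | ∃ x y, x ∈ Sub φ τ B c {w | (∀ a ∈ w, a ∈
                {x | ∃ v : List α, (∀ a ∈ v, a ∈ B \ {c}) ∧ pr φ τ v = x}) ∧
                (w.map fun x => LD.let' (φ c) x.1).prod = p.1.2.1} ∧
                y ∈ {w | (∀ a ∈ w, a ∈ B \ {c}) ∧ (w.map φ).prod = p.1.2.2} ∧
                w = x ++ y} ∧ w = x ++ y}} :=
          SF.exists_fin fun p => SF.mul _ _ (SF.mul _ _ (hN _) (SF.letter c))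
            (SF.mul _ _ (hsub _) (hN _))
        refine (SF.union _ _ (hN m) h1).congr fun w => ?_
        have hval : ∀ vs : List (List α),
            (((vs.map (pr φ τ)).map fun x => LD.let' (φ c) x.1).prod).1 =
              φ c * ((join c vs).map φ).prod := by
          intro vs
          have e1 : ((vs.map (pr φ τ)).map fun x => LD.let' (φ c) x.1) =
              (vs.map fun v => (v.map φ).prod).map (LD.let' (φ c)) := by
            rw [List.map_map, List.map_map]; rfl
          rw [e1, LD.prod_val, join_prod]
        constructor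
        · rintro ⟨hw, hm⟩
          by_cases hcw : c ∈ w
          · right
            obtain ⟨vs, r, h1, h2, h3⟩ := exists_join c w
            cases vs with
            | nil =>
              exfalso
              rw [join_nil, List.nil_append] at h1
              exact h3 (h1 ▸ hcw)
            | cons v vs =>
              have hv : ∀ u ∈ v :: vs, ∀ a ∈ u, a ∈ B \ {c} := by
                intro u hu a ha
                refine ⟨hw a ((h2 u hu).2 a ha), ?_⟩
                rintro rfl
                exact (h2 u hu).1 ha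
              have hr : ∀ a ∈ r, a ∈ B \ {c} := by
                intro a ha
                refine ⟨hw a (by rw [h1]; simp [ha]), ?_⟩
                rintro rfl
                exact h3 ha
              rw [join_cons] at h1
              have hval' := hval vs
              refine ⟨⟨((v.map φ).prod, ((vs.map (pr φ τ)).map fun x => LD.let' (φ c) x.1).prod,
                (r.map φ).prod), ?_⟩, v ++ [c], join c vs ++ r, ⟨v, [c], ⟨hv v (by simp), rfl⟩,
                rfl, rfl⟩, ⟨join c vs, r, ⟨vs, fun u hu => hv u (by simp [hu]), rfl, ?_, rfl⟩,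
                ⟨hr, rfl⟩, rfl⟩, ?_⟩
              · change (v.map φ).prod * (((vs.map (pr φ τ)).map
                  fun x => LD.let' (φ c) x.1).prod).1 * (r.map φ).prod = m
                rw [hval', ← hm, h1]
                simp [mul_assoc]
              · intro x hx
                rw [List.mem_map] at hx
                obtain ⟨u, hu, rfl⟩ := hx
                exact ⟨u, hv u (by simp [hu]), rfl⟩
              · rw [h1]; simp
          · left
            exact ⟨fun a ha => ⟨hw a ha, fun h => hcw (h ▸ ha)⟩, hm⟩
        · rintro (⟨hw, hm⟩ | ⟨⟨⟨m0, x, m1⟩, hp⟩, x1, y1, ⟨v, y2, ⟨hv, hv'⟩, hy2, rfl⟩,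
            ⟨s, r, ⟨vs, hg, rfl, hu, hx⟩, ⟨hr, hr'⟩, rfl⟩, rfl⟩)
          · exact ⟨fun a ha => (hw a ha).1, hm⟩
          · have hy2' : y2 = [c] := hy2
            subst hy2'
            refine ⟨?_, ?_⟩
            · intro a ha
              rcases List.mem_append.1 ha with ha | ha
              · rcases List.mem_append.1 ha with ha | ha
                · exact (hv a ha).1
                · rw [List.mem_singleton] at ha
                  rw [ha]; exact hcB
              · rcases List.mem_append.1 ha with ha | ha
                · rcases mem_join ha with rfl | ⟨u, hu', hau⟩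
                  · exact hcB
                  · exact (hg u hu' a hau).1
                · exact (hr a ha).1
            · have hval' := hval vs
              rw [hx] at hval'
              have hv2 : (v.map φ).prod = m0 := hv'
              have hr2 : (r.map φ).prod = m1 := hr'
              have hx2 : x.1 = φ c * ((join c vs).map φ).prod := hval'
              rw [← hp]
              change _ = m0 * x.1 * m1
              rw [hx2, ← hv2, ← hr2]
              simp [mul_assoc]


/-! ## the criterion -/

section Crit

variable {α : Type u} {ι : Type*} (X : ι → Language α)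

/-- joint syntactic congruence -/
def rel : Con (FreeMonoid α) where
  r w w' := ∀ i (x y : List α), (x ++ FreeMonoid.toList w ++ y ∈ X i ↔
    x ++ FreeMonoid.toList w' ++ y ∈ X i)
  iseqv := ⟨fun _ _ _ _ => Iff.rfl, fun h i x y => (h i x y).symm,
    fun h g i x y => (h i x y).trans (g i x y)⟩
  mul' := by
    intro w x y z h1 h2 i a b
    have e1 := h1 i a (FreeMonoid.toList y ++ b)
    have e2 := h2 i (a ++ FreeMonoid.toList x) b
    rw [FreeMonoid.toList_mul, FreeMonoid.toList_mul]
    simp only [List.append_assoc] at e1 e2 ⊢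
    exact e1.trans e2

/-- the oracle letters -/
def tq (a : α) : (rel X).Quotient := ((FreeMonoid.of a : FreeMonoid α) : (rel X).Quotient)

theorem tq_prod (w : List α) :
    (w.map (tq X)).prod = ((FreeMonoid.ofList w : FreeMonoid α) : (rel X).Quotient) := by
  induction w with
  | nil => rfl
  | cons a w ih => rw [List.map_cons, List.prod_cons, ih]; rfl

theorem tq_eq (w w' : List α) : (w.map (tq X)).prod = (w'.map (tq X)).prod ↔
    ∀ i (x y : List α), (x ++ w ++ y ∈ X i ↔ x ++ w' ++ y ∈ X i) := by
  rw [tq_prod, tq_prod, Con.eq]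
  rfl

theorem tq_surj (t : (rel X).Quotient) : ∃ w : List α, (w.map (tq X)).prod = t := by
  induction t using Con.induction_on with
  | _ w => exact ⟨FreeMonoid.toList w, by rw [tq_prod]; rfl⟩

theorem criterion [Finite α] {M : Type u} [Monoid M] [Finite M] (φ : α → M) (h : ℕ)
    [Finite ι] (hX : ∀ i, HL h (X i))
    (S : Type u) [Monoid S] [Finite S] (ψ : α → S) (P : ι → Set S)
    (hP : ∀ i w, w ∈ X i ↔ (w.map ψ).prod ∈ P i)
    (hsep : ∀ w : List α, (∀ n, ((w.map φ).prod) ^ n ≠ ((w.map φ).prod) ^ (n + 1)) →
      ∃ i x y k l, 1 ≤ k ∧ 1 ≤ l ∧ x ++ (List.replicate k w).flatten ++ y ∈ X i ∧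
        x ++ (List.replicate l w).flatten ++ y ∉ X i) (m : M) :
    HL h ({w | (w.map φ).prod = m} : Language α) := by
  classical
  have hS : ∀ w w' : List α, (w.map ψ).prod = (w'.map ψ).prod →
      (w.map (tq X)).prod = (w'.map (tq X)).prod := by
    intro w w' e
    rw [tq_eq]
    intro i x y
    rw [hP, hP]
    simp only [List.map_append, List.prod_append, e]
  have hfin : Finite (rel X).Quotient := by
    refine Finite.of_surjective (fun s : S => if hs : ∃ w : List α, (w.map ψ).prod = s then
      (hs.choose.map (tq X)).prod else 1) ?_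
    intro t
    obtain ⟨w, hw⟩ := tq_surj X t
    refine ⟨(w.map ψ).prod, ?_⟩
    have hs : ∃ w' : List α, (w'.map ψ).prod = (w.map ψ).prod := ⟨w, rfl⟩
    simp only [dif_pos hs]
    rw [hS _ _ hs.choose_spec, hw]
  have hfib : ∀ t : (rel X).Quotient,
      HL h ({w | (w.map (tq X)).prod = t} : Language α) := by
    intro t
    obtain ⟨w0, rfl⟩ := tq_surj X t
    have h1 : ∀ p : ι × S × S, HL h ({w | ∀ (hx : ∃ x : List α, (x.map ψ).prod = p.2.1)
        (hy : ∃ y : List α, (y.map ψ).prod = p.2.2),
        (hx.choose ++ w ++ hy.choose ∈ X p.1 ↔ hx.choose ++ w0 ++ hy.choose ∈ X p.1)} :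
        Language α) := by
      intro p
      by_cases hx : ∃ x : List α, (x.map ψ).prod = p.2.1
      swap
      · exact HL.top.congr fun w => ⟨fun _ => trivial, fun _ h => absurd h hx⟩
      by_cases hy : ∃ y : List α, (y.map ψ).prod = p.2.2
      swap
      · exact HL.top.congr fun w => ⟨fun _ => trivial, fun _ _ h => absurd h hy⟩
      have h2 := HL.rquot hy.choose (HL.lquot hx.choose (hX p.1))
      refine (HL.setOf_iff (p := fun w => hx.choose ++ (w ++ hy.choose) ∈ X p.1) h2
        (HL.const (hx.choose ++ w0 ++ hy.choose ∈ X p.1))).congr fun w => ?_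
      constructor
      · intro hw
        have := hw hx hy
        rw [List.append_assoc] at this
        exact this
      · intro hw _ _
        rw [List.append_assoc]
        exact hw
    refine (HL.iInter h1).congr fun w => ?_
    constructor
    · intro hw p hx hy
      exact (tq_eq X w w0).1 hw p.1 _ _
    · intro hw
      change (w.map (tq X)).prod = (w0.map (tq X)).prod
      rw [tq_eq]
      intro i x y
      have hx : ∃ x' : List α, (x'.map ψ).prod = (x.map ψ).prod := ⟨x, rfl⟩
      have hy : ∃ y' : List α, (y'.map ψ).prod = (y.map ψ).prod := ⟨y, rfl⟩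
      have h3 := hw (i, (x.map ψ).prod, (y.map ψ).prod) hx hy
      have h4 : ∀ v : List α, (hx.choose ++ v ++ hy.choose ∈ X i ↔ x ++ v ++ y ∈ X i) := by
        intro v
        rw [hP, hP]
        simp only [List.map_append, List.prod_append]
        rw [hx.choose_spec, hy.choose_spec]
      exact (h4 w).symm.trans (h3.trans (h4 w0))
  have hmain := main (Nat.card M) M le_rfl α (rel X).Quotient φ (tq X)
    (Set.univ : Set α).ncard Set.univ le_rfl (by
      intro w _ hid
      by_contra hcon
      have hcon' : ∀ n, ((w.map φ).prod) ^ n ≠ ((w.map φ).prod) ^ (n + 1) :=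
        fun n hn => hcon ⟨n, hn⟩
      obtain ⟨i, x, y, k, l, hk, hl, h1, h2⟩ := hsep w hcon'
      have hpow : ∀ k, 1 ≤ k → ((w.map (tq X)).prod) ^ k = (w.map (tq X)).prod := by
        intro k hk
        induction k, hk using Nat.le_induction with
        | base => exact pow_one _
        | succ k _ ih => rw [pow_succ, ih, hid]
      have h3 : ((List.replicate k w).flatten.map (tq X)).prod =
          ((List.replicate l w).flatten.map (tq X)).prod := by
        rw [rep_prod, rep_prod, hpow k hk, hpow l hl]
      exact h2 (((tq_eq X _ _).1 h3 i x y).1 h1)) m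
  refine (SF.toHL hfib hmain).congr fun w => ?_
  constructor
  · intro hw; exact ⟨fun a _ => trivial, hw⟩
  · intro hw; exact hw.2

end Crit

end Crest.Agent.R320.Crit_666
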