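import Mathlib

/-!
Row 320: relative Schuetzenberger theorem (932's periodic separation criterion), abstract form.
-/

set_option autoImplicit false

namespace Crest.Agent.R320.Crit792

universe u

/-- product of languages -/
def lmul {α : Type u} (L K : Set (List α)) : Set (List α) :=
  {w | ∃ x ∈ L, ∃ y ∈ K, x ++ y = w}

/-- a class of languages closed under complement, union, product, containing `{[]}` and letters -/
structure Cls {α : Type u} (C : Set (List α) → Prop) : Prop where
  compl : ∀ L, C L → C Lᶜ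
  union : ∀ L K, C L → C K → C (L ∪ K)
  mul : ∀ L K, C L → C K → C (lmul L K)
  letter : ∀ a : α, C {[a]}
  nil : C {[]}

namespace Cls

variable {α : Type u} {C : Set (List α) → Prop} (h : Cls C)
include h

theorem univ : C Set.univ := by
  have := h.union _ _ h.nil (h.compl _ h.nil)
  rwa [Set.union_compl_self] at this

theorem empty : C ∅ := by
  have := h.compl _ h.univ
  rwa [Set.compl_univ] at this

theorem inter (L K : Set (List α)) (hL : C L) (hK : C K) : C (L ∩ K) := by
  have := h.compl _ (h.union _ _ (h.compl _ hL) (h.compl _ hK))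
  rwa [Set.compl_union, compl_compl, compl_compl] at this

theorem diff (L K : Set (List α)) (hL : C L) (hK : C K) : C (L \ K) := by
  rw [Set.diff_eq]; exact h.inter _ _ hL (h.compl _ hK)

theorem biUnion {ι : Type*} (s : Finset ι) (f : ι → Set (List α)) (hf : ∀ i ∈ s, C (f i)) :
    C (⋃ i ∈ s, f i) := by
  classical
  induction s using Finset.induction_on with
  | empty => simpa using h.empty
  | insert a s ha ih =>
    rw [Finset.set_biUnion_insert]
    exact h.union _ _ (hf _ (Finset.mem_insert_self _ _))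
      (ih (fun i hi => hf i (Finset.mem_insert_of_mem hi)))

theorem iUnion {ι : Type*} [Finite ι] (f : ι → Set (List α)) (hf : ∀ i, C (f i)) :
    C (⋃ i, f i) := by
  classical
  haveI := Fintype.ofFinite ι
  have := h.biUnion Finset.univ f (fun i _ => hf i)
  simpa using this

theorem congr {L K : Set (List α)} (hL : C L) (e : ∀ w, w ∈ K ↔ w ∈ L) : C K := by
  have : K = L := Set.ext e
  rwa [this]

end Cls

/-- product of the images of the letters -/
def ev {α M : Type u} [Monoid M] (φ : α → M) (w : List α) : M := (w.map φ).prod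

section ev
variable {α M : Type u} [Monoid M] (φ : α → M)
@[simp] theorem ev_nil : ev φ [] = 1 := rfl
@[simp] theorem ev_cons (a : α) (w : List α) : ev φ (a :: w) = φ a * ev φ w := by simp [ev]
@[simp] theorem ev_append (v w : List α) : ev φ (v ++ w) = ev φ v * ev φ w := by simp [ev]
end ev

/-! ### local divisor -/

section loc
variable {M : Type u} [Monoid M]

/-- carrier of the local divisor at `c` -/
def Loc (c : M) : Type u := {x : M // (∃ a, x = c * a) ∧ (∃ b, x = b * c)}

variable {c : M}

noncomputable def Loc.l (x : Loc c) : M := Classical.choose x.2.2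
theorem Loc.l_spec (x : Loc c) : x.1 = x.l * c := Classical.choose_spec x.2.2

theorem Loc.mul_aux (x y : Loc c) {b : M} (hb : x.1 = b * c) : x.l * y.1 = b * y.1 := by
  obtain ⟨a, ha⟩ := y.2.1
  rw [ha, ← mul_assoc, ← mul_assoc, ← x.l_spec, ← hb]

noncomputable instance : Mul (Loc c) where
  mul x y := ⟨x.l * y.1, by
    constructor
    · obtain ⟨a, ha⟩ := y.2.1
      obtain ⟨a', ha'⟩ := x.2.1
      refine ⟨a' * a, ?_⟩
      rw [ha, ← mul_assoc, ← x.l_spec, ha', mul_assoc]
    · obtain ⟨b, hb⟩ := y.2.2
      exact ⟨x.l * b, by rw [hb, mul_assoc]⟩⟩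

theorem Loc.mul_val (x y : Loc c) : (x * y).1 = x.l * y.1 := rfl

theorem Loc.mul_val' (x y : Loc c) {b : M} (hb : x.1 = b * c) : (x * y).1 = b * y.1 := by
  rw [Loc.mul_val, Loc.mul_aux x y hb]

instance : One (Loc c) where
  one := ⟨c, ⟨1, by simp⟩, ⟨1, by simp⟩⟩

theorem Loc.one_val : (1 : Loc c).1 = c := rfl

noncomputable instance : Monoid (Loc c) where
  mul_assoc x y z := by
    apply Subtype.ext
    have h1 : (x * y).1 = (x.l * y.l) * c := by
      rw [Loc.mul_val, y.l_spec, mul_assoc]
    rw [Loc.mul_val' (x * y) z h1, Loc.mul_val x (y * z), Loc.mul_val y z, mul_assoc]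
  one_mul x := by
    apply Subtype.ext
    rw [Loc.mul_val' 1 x (b := 1) (by rw [Loc.one_val, one_mul]), one_mul]
  mul_one x := by
    apply Subtype.ext
    rw [Loc.mul_val, Loc.one_val, ← x.l_spec]

instance [Finite M] : Finite (Loc c) := inferInstanceAs (Finite {x : M // _})

theorem Loc.card_lt [Finite M] (hc : ¬ IsUnit c) : Nat.card (Loc c) < Nat.card M := by
  classical
  haveI := Fintype.ofFinite M
  have h : ¬ ((∃ a, (1 : M) = c * a) ∧ (∃ b, (1 : M) = b * c)) := by
    rintro ⟨⟨a, ha⟩, ⟨b, hb⟩⟩
    apply hc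
    have e : b = a := by
      calc b = b * (c * a) := by rw [← ha, mul_one]
        _ = (b * c) * a := by rw [mul_assoc]
        _ = a := by rw [← hb, one_mul]
    exact ⟨⟨c, a, ha.symm, by rw [← e]; exact hb.symm⟩, rfl⟩
  have := Fintype.card_subtype_lt (p := fun x : M => (∃ a, x = c * a) ∧ (∃ b, x = b * c)) h
  rw [← Nat.card_eq_fintype_card, ← Nat.card_eq_fintype_card] at this
  exact this

end loc

/-! ### block decomposition -/

section blocks
variable {α : Type u} (c : α)

def emb (bl : List (List α)) : List α := (bl.map (fun v => v ++ [c])).flatten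

@[simp] theorem emb_nil : emb c ([] : List (List α)) = [] := rfl
@[simp] theorem emb_cons (v : List α) (bl : List (List α)) :
    emb c (v :: bl) = v ++ c :: emb c bl := by simp [emb]
theorem emb_append (bl bl' : List (List α)) : emb c (bl ++ bl') = emb c bl ++ emb c bl' := by
  simp [emb]

theorem split_unique : ∀ (v v' r r' : List α), c ∉ v → c ∉ v' → v ++ c :: r = v' ++ c :: r' →
    v = v' ∧ r = r'
  | [], [], _, _, _, _, h => by simpa using h
  | [], a :: v', _, _, _, h2, h => by
    simp only [List.nil_append, List.cons_append, List.cons.injEq] at h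
    exact absurd (by simp [h.1]) h2
  | a :: v, [], _, _, h1, _, h => by
    simp only [List.nil_append, List.cons_append, List.cons.injEq] at h
    exact absurd (by simp [h.1]) h1
  | a :: v, a' :: v', r, r', h1, h2, h => by
    simp only [List.cons_append, List.cons.injEq] at h
    obtain ⟨e1, e2⟩ := split_unique v v' r r' (fun hh => h1 (by simp [hh]))
      (fun hh => h2 (by simp [hh])) h.2
    exact ⟨by rw [h.1, e1], e2⟩

theorem emb_inj : ∀ (bl bl' : List (List α)), (∀ v ∈ bl, c ∉ v) → (∀ v ∈ bl', c ∉ v) →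
    emb c bl = emb c bl' → bl = bl'
  | [], [], _, _, _ => rfl
  | [], v :: bl', _, _, h => by simp at h
  | v :: bl, [], _, _, h => by simp at h
  | v :: bl, v' :: bl', h1, h2, h => by
    simp only [emb_cons] at h
    have hv := h1 v (by simp)
    have hv' := h2 v' (by simp)
    obtain ⟨rfl, e⟩ := split_unique c _ _ _ _ hv hv' h
    rw [emb_inj bl bl' (fun v hv => h1 v (by simp [hv])) (fun v hv => h2 v (by simp [hv])) e]

/-- block lists over `B'` -/
def Val (B' : Set α) (bl : List (List α)) : Prop := ∀ v ∈ bl, ∀ a ∈ v, a ∈ B'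

theorem exists_emb (B' : Set α) (w : List α) (hw : ∀ a ∈ w, a ∈ B' ∨ a = c) (hc : c ∉ B') :
    ∃ bl v, Val B' bl ∧ (∀ a ∈ v, a ∈ B') ∧ w = emb c bl ++ v := by
  induction w with
  | nil => exact ⟨[], [], by simp [Val], by simp, rfl⟩
  | cons a w ih =>
    obtain ⟨bl, v, h1, h2, h3⟩ := ih (fun x hx => hw x (by simp [hx]))
    rcases hw a (by simp) with ha | ha
    · cases bl with
      | nil => exact ⟨[], a :: v, by simp [Val], by
          intro x hx; rcases List.mem_cons.1 hx with rfl | hx
          · exact ha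
          · exact h2 x hx, by simp [h3]⟩
      | cons b bl =>
        refine ⟨(a :: b) :: bl, v, ?_, h2, by simp [h3]⟩
        intro y hy x hx
        rcases List.mem_cons.1 hy with rfl | hy
        · rcases List.mem_cons.1 hx with rfl | hx
          · exact ha
          · exact h1 b (by simp) x hx
        · exact h1 y (by simp [hy]) x hx
    · subst ha
      refine ⟨[] :: bl, v, ?_, h2, by simp [h3]⟩
      intro y hy x hx
      rcases List.mem_cons.1 hy with rfl | hy
      · simp at hx
      · exact h1 y hy x hx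

theorem ev_emb {M : Type u} [Monoid M] (φ : α → M) (bl : List (List α)) :
    ev φ (emb c bl) = (bl.map (fun v => ev φ v * φ c)).prod := by
  induction bl with
  | nil => rfl
  | cons v bl ih => simp [ih, mul_assoc]

end blocks

/-! ### idempotent powers -/

theorem exists_idem_pow {T : Type u} [Monoid T] [Finite T] (x : T) :
    ∃ N, 0 < N ∧ x ^ N * x ^ N = x ^ N := by
  obtain ⟨i, j, hij, h⟩ := Finite.exists_ne_map_eq_of_infinite (fun n : ℕ => x ^ n)
  wlog hlt : i < j generalizing i j
  · exact this j i hij.symm h.symm (by omega)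
  obtain ⟨d, rfl⟩ : ∃ d, j = i + d := ⟨j - i, by omega⟩
  have hd : 0 < d := by omega
  have h1 : ∀ n, i ≤ n → x ^ (n + d) = x ^ n := by
    intro n hn
    obtain ⟨e, rfl⟩ : ∃ e, n = i + e := ⟨n - i, by omega⟩
    rw [show i + e + d = (i + d) + e by ring, pow_add, ← h, ← pow_add]
  have h2 : ∀ k n, i ≤ n → x ^ (n + k * d) = x ^ n := by
    intro k
    induction k with
    | zero => intro n _; simp
    | succ k ih =>
      intro n hn
      rw [show n + (k + 1) * d = (n + k * d) + d by ring, h1 _ (by omega), ih n hn]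
  refine ⟨(i + 1) * d, by positivity, ?_⟩
  rw [← pow_add]
  exact h2 (i + 1) _ (by nlinarith)

/-! ### the pulled back class -/

/-- languages over the alphabet of block labels, pulled back -/
def Pull {α D : Type u} (C : Set (List α) → Prop) (c : α) (B' : Set α) (lab : List α → D)
    (P : Set (List D)) : Prop :=
  C {w | ∃ bl, Val B' bl ∧ w = emb c bl ∧ bl.map lab ∈ P}

theorem Val.notMem {α : Type u} {B' : Set α} {c : α} (hc : c ∉ B') {bl : List (List α)}
    (h : Val B' bl) : ∀ v ∈ bl, c ∉ v := fun v hv hcv => hc (h v hv c hcv)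

theorem Val.append {α : Type u} {B' : Set α} {bl bl' : List (List α)}
    (h : Val B' bl) (h' : Val B' bl') : Val B' (bl ++ bl') := by
  intro v hv
  rcases List.mem_append.1 hv with hv | hv
  · exact h v hv
  · exact h' v hv

theorem pull_cls {α D : Type u} {C : Set (List α) → Prop} (h : Cls C) {c : α} {B' : Set α}
    (hc : c ∉ B') (lab : List α → D)
    (hE : C {w | ∃ bl, Val B' bl ∧ w = emb c bl})
    (hX : ∀ x : D, C {v | (∀ a ∈ v, a ∈ B') ∧ lab v = x}) : Cls (Pull C c B' lab) where
  compl P hP := by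
    refine h.congr (h.diff _ _ hE hP) ?_
    intro w
    constructor
    · rintro ⟨bl, h1, h2, h3⟩
      refine ⟨⟨bl, h1, h2⟩, ?_⟩
      rintro ⟨bl', h1', h2', h3'⟩
      have : bl = bl' := emb_inj c _ _ (h1.notMem hc) (h1'.notMem hc) (h2.symm.trans h2')
      exact h3 (this ▸ h3')
    · rintro ⟨⟨bl, h1, h2⟩, h3⟩
      exact ⟨bl, h1, h2, fun h4 => h3 ⟨bl, h1, h2, h4⟩⟩
  union P Q hP hQ := by
    refine h.congr (h.union _ _ hP hQ) ?_
    intro w
    constructor
    · rintro ⟨bl, h1, h2, h3 | h3⟩
      · exact Or.inl ⟨bl, h1, h2, h3⟩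
      · exact Or.inr ⟨bl, h1, h2, h3⟩
    · rintro (⟨bl, h1, h2, h3⟩ | ⟨bl, h1, h2, h3⟩)
      · exact ⟨bl, h1, h2, Or.inl h3⟩
      · exact ⟨bl, h1, h2, Or.inr h3⟩
  mul P Q hP hQ := by
    refine h.congr (h.mul _ _ hP hQ) ?_
    intro w
    constructor
    · rintro ⟨bl, h1, h2, p, hp, q, hq, h3⟩
      obtain ⟨l1, l2, rfl, e1, e2⟩ := List.map_eq_append_iff.1 h3.symm
      refine ⟨emb c l1, ⟨l1, fun v hv => h1 v (by simp [hv]), rfl, e1 ▸ hp⟩, emb c l2,
        ⟨l2, fun v hv => h1 v (by simp [hv]), rfl, e2 ▸ hq⟩, ?_⟩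
      rw [h2, emb_append]
    · rintro ⟨x, ⟨b1, h1, rfl, h3⟩, y, ⟨b2, h1', rfl, h3'⟩, rfl⟩
      exact ⟨b1 ++ b2, h1.append h1', (emb_append c b1 b2).symm, _, h3, _, h3', by simp⟩
  letter x := by
    refine h.congr (h.mul _ _ (hX x) (h.letter c)) ?_
    intro w
    constructor
    · rintro ⟨bl, h1, h2, h3⟩
      have h3' : bl.map lab = [x] := h3
      obtain ⟨v, rfl, hv⟩ := List.map_eq_singleton_iff.1 h3'
      exact ⟨v, ⟨h1 v (by simp), hv⟩, [c], rfl, by rw [h2]; simp⟩
    · rintro ⟨v, ⟨h1, h2⟩, y, hy, rfl⟩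
      have hy' : y = [c] := hy
      refine ⟨[v], ?_, by simp [hy'], ?_⟩
      · intro z hz
        simp only [List.mem_singleton] at hz
        exact hz ▸ h1
      · show List.map lab [v] = [x]
        simp [h2]
  nil := by
    refine h.congr h.nil ?_
    intro w
    constructor
    · rintro ⟨bl, h1, h2, h3⟩
      have h3' : bl.map lab = [] := h3
      rw [List.map_eq_nil_iff] at h3'
      subst h3'
      exact h2
    · intro hw
      have hw' : w = [] := hw
      exact ⟨[], by simp [Val], by simp [hw'], rfl⟩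

/-! ### words over a set of letters -/

theorem starB {α : Type u} [Finite α] {C : Set (List α) → Prop} (h : Cls C) (B : Set α) :
    C {w | ∀ a ∈ w, a ∈ B} := by
  have h1 : C (⋃ a : {a : α // a ∉ B}, lmul Set.univ (lmul {[a.1]} Set.univ)) :=
    h.iUnion _ (fun a => h.mul _ _ h.univ (h.mul _ _ (h.letter a.1) h.univ))
  refine h.congr (h.compl _ h1) ?_
  intro w
  simp only [Set.mem_setOf_eq, Set.mem_compl_iff, Set.mem_iUnion, not_exists]
  constructor
  · rintro h2 ⟨a, ha⟩ ⟨x, -, y, ⟨z, hz, t, -, rfl⟩, rfl⟩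
    have hz' : z = [a] := hz
    exact ha (h2 a (by simp [hz']))
  · intro h2 a ha
    by_contra hB
    obtain ⟨s, t, rfl⟩ := List.append_of_mem ha
    exact h2 ⟨a, hB⟩ ⟨s, trivial, a :: t, ⟨[a], rfl, t, trivial, rfl⟩, rfl⟩

/-! ### main theorem -/

section mainthm

variable {α M T : Type u} [Monoid M] [Monoid T]

theorem ev_flat_replicate (φ : α → M) (w : List α) (n : ℕ) :
    ev φ (List.replicate n w).flatten = ev φ w ^ n := by
  induction n with
  | zero => simp
  | succ n ih => rw [List.replicate_succ, List.flatten_cons, ev_append, ih, pow_succ']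

theorem mem_flat_replicate {w : List α} {n : ℕ} {a : α}
    (h : a ∈ (List.replicate n w).flatten) : a ∈ w := by
  rw [List.mem_flatten] at h
  obtain ⟨l, hl, ha⟩ := h
  rwa [List.eq_of_mem_replicate hl] at ha

theorem isUnit_ev (φ : α → M) (B : Set α) (hB : ∀ b ∈ B, IsUnit (φ b)) :
    ∀ w : List α, (∀ a ∈ w, a ∈ B) → IsUnit (ev φ w)
  | [], _ => by simp
  | a :: w, h => by
    rw [ev_cons]
    exact (hB a (h a (by simp))).mul (isUnit_ev φ B hB w (fun x hx => h x (by simp [hx])))

theorem unit_aper {g : M} (hg : IsUnit g) {j : ℕ} (h : g ^ j = g ^ (j + 1)) : g = 1 := by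
  rw [pow_succ] at h
  have := (hg.pow j).mul_left_cancel ((mul_one _).trans h)
  exact this.symm

theorem unit_case [Finite T] (φ : α → M) (τ : α → T) (B : Set α)
    (hB : ∀ b ∈ B, IsUnit (φ b))
    (hap : ∀ w : List α, (∀ a ∈ w, a ∈ B) → ev τ w * ev τ w = ev τ w →
      ∃ j, ev φ w ^ j = ev φ w ^ (j + 1))
    (w w' : List α) (hw : ∀ a ∈ w, a ∈ B) (hw' : ∀ a ∈ w', a ∈ B) (e : ev τ w = ev τ w') :
    ev φ w = ev φ w' := by
  obtain ⟨N, hN, hid⟩ := exists_idem_pow (ev τ w)
  obtain ⟨N, rfl⟩ : ∃ k, N = k + 1 := ⟨N - 1, by omega⟩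
  have key : ∀ u : List α, (∀ a ∈ u, a ∈ B) → ev τ u = ev τ w → ev φ u * ev φ w ^ N = 1 := by
    intro u hu eu
    have hm : ∀ a ∈ u ++ (List.replicate N w).flatten, a ∈ B := by
      intro a ha
      rcases List.mem_append.1 ha with ha | ha
      · exact hu a ha
      · exact hw a (mem_flat_replicate ha)
    have ht : ev τ (u ++ (List.replicate N w).flatten) = ev τ w ^ (N + 1) := by
      rw [ev_append, ev_flat_replicate, eu, pow_succ']
    obtain ⟨j, hj⟩ := hap _ hm (by rw [ht]; exact hid)
    have := unit_aper (isUnit_ev φ B hB _ hm) hj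
    rwa [ev_append, ev_flat_replicate] at this
  have h1 := key w hw rfl
  have h2 := key w' hw' e.symm
  exact ((isUnit_ev φ B hB w hw).pow N).mul_right_cancel (h1.trans h2.symm)

/-- label of a block list in the local divisor -/
noncomputable def psi (φ : α → M) (c : α) (x : M × T) : Loc (φ c) :=
  ⟨φ c * x.1 * φ c, ⟨x.1 * φ c, by rw [mul_assoc]⟩, ⟨φ c * x.1, rfl⟩⟩

theorem psi_val (φ : α → M) (τ : α → T) (c : α) (bl : List (List α)) :
    (ev (psi (T := T) φ c) (bl.map (fun v => (ev φ v, ev τ v)))).1 = φ c * ev φ (emb c bl) := by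
  induction bl with
  | nil => simp [Loc.one_val]
  | cons v bl ih =>
    rw [List.map_cons, ev_cons, Loc.mul_val' _ _ (b := φ c * ev φ v) rfl, ih]
    simp [mul_assoc]

theorem rho_val (φ : α → M) (τ : α → T) (c : α) (bl : List (List α)) :
    ev (fun x : M × T => x.2 * τ c) (bl.map (fun v => (ev φ v, ev τ v))) =
      ev τ (emb c bl) := by
  induction bl with
  | nil => simp
  | cons v bl ih =>
    rw [List.map_cons, ev_cons, ih]
    simp [mul_assoc]

theorem loc_pow {c g : M} (x : Loc c) (hx : x.1 = c * g) (j : ℕ) : (x ^ j).1 = c * g ^ j := by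
  induction j with
  | zero => simp [Loc.one_val]
  | succ j ih =>
    rw [pow_succ, Loc.mul_val, hx, ← mul_assoc, ← Loc.l_spec, ih, mul_assoc, ← pow_succ]

theorem exists_bl {D : Type u} (B' : Set α) (lab : List α → D) (W : List D)
    (hW : ∀ x ∈ W, ∃ v, (∀ a ∈ v, a ∈ B') ∧ lab v = x) : ∃ bl, Val B' bl ∧ bl.map lab = W := by
  induction W with
  | nil => exact ⟨[], by simp [Val], rfl⟩
  | cons x W ih =>
    obtain ⟨bl, h1, h2⟩ := ih (fun y hy => hW y (by simp [hy]))
    obtain ⟨v, h3, h4⟩ := hW x (by simp)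
    refine ⟨v :: bl, ?_, by simp [h2, h4]⟩
    intro z hz
    rcases List.mem_cons.1 hz with rfl | hz
    · exact h3
    · exact h1 z hz

theorem emb_mem {B' : Set α} {c : α} {bl : List (List α)} (h : Val B' bl) :
    ∀ a ∈ emb c bl, a ∈ B' ∨ a = c := by
  induction bl with
  | nil => simp
  | cons v bl ih =>
    intro a ha
    rw [emb_cons, List.mem_append, List.mem_cons] at ha
    rcases ha with ha | ha | ha
    · exact Or.inl (h v (by simp) a ha)
    · exact Or.inr ha
    · exact ih (fun y hy => h y (by simp [hy])) a ha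

end mainthm

open Classical in
theorem main (n : ℕ) : ∀ (M : Type u) [Monoid M] [Finite M], Nat.card M = n →
    ∀ (α T : Type u) [Finite α] [Monoid T] [Finite T] (C : Set (List α) → Prop) (_ : Cls C)
      (φ : α → M) (τ : α → T) (_ : ∀ t, C {w | ev τ w = t}) (k : ℕ) (B : Set α)
      (_ : B.ncard = k)
      (_ : ∀ w : List α, (∀ a ∈ w, a ∈ B) → ev τ w * ev τ w = ev τ w →
        ∃ j, ev φ w ^ j = ev φ w ^ (j + 1)) (m : M),
      C {w | (∀ a ∈ w, a ∈ B) ∧ ev φ w = m} := by
  induction n using Nat.strong_induction_on with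
  | _ n IH =>
    intro M _ _ hM α T _ _ _ C hC φ τ hT k
    induction k using Nat.strong_induction_on with
    | _ k IHk =>
      intro B hk hap m
      by_cases hB : ∀ b ∈ B, IsUnit (φ b)
      · -- all letters are units
        have h1 : C (⋃ t : {t : T // ∃ w : List α, (∀ a ∈ w, a ∈ B) ∧ ev φ w = m ∧ ev τ w = t},
            {w | ev τ w = t.1}) := hC.iUnion _ (fun t => hT t.1)
        refine hC.congr (hC.inter _ _ (starB hC B) h1) ?_
        intro w
        constructor
        · rintro ⟨h2, h3⟩
          exact ⟨h2, Set.mem_iUnion.2 ⟨⟨ev τ w, w, h2, h3, rfl⟩, rfl⟩⟩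
        · rintro ⟨h2, h3⟩
          obtain ⟨⟨t, w', h4, h5, h6⟩, h7⟩ := Set.mem_iUnion.1 h3
          have h7' : ev τ w = t := h7
          refine ⟨h2, ?_⟩
          rw [← h5]
          exact unit_case φ τ B hB hap w w' h2 h4 (h7'.trans h6.symm)
      · push Not at hB
        obtain ⟨c, hcB, hcu⟩ := hB
        set B' : Set α := B \ {c} with hB'
        have hcB' : c ∉ B' := by simp [hB']
        have hsub : ∀ a, a ∈ B' → a ∈ B := fun a ha => ha.1
        have hlt : B'.ncard < k := by
          rw [← hk]
          exact Set.ncard_diff_singleton_lt_of_mem hcB (Set.toFinite B)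
        have hmem : ∀ a, a ∈ B' ∨ a = c → a ∈ B := by
          rintro a (h | h)
          · exact hsub a h
          · exact h ▸ hcB
        have hsplit : ∀ a, a ∈ B → a ∈ B' ∨ a = c := by
          intro a ha
          by_cases hac : a = c
          · exact Or.inr hac
          · exact Or.inl ⟨ha, hac⟩
        have hX0 : ∀ p : M, C {w | (∀ a ∈ w, a ∈ B') ∧ ev φ w = p} := fun p =>
          IHk _ hlt B' rfl (fun w hw => hap w (fun a ha => hsub a (hw a ha))) p
        let lab : List α → M × T := fun v => (ev φ v, ev τ v)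
        have hX : ∀ x : M × T, C {v | (∀ a ∈ v, a ∈ B') ∧ lab v = x} := by
          intro x
          refine hC.congr (hC.inter _ _ (hX0 x.1) (hT x.2)) ?_
          intro w
          constructor
          · rintro ⟨h1, h2⟩
            exact ⟨⟨h1, congrArg Prod.fst h2⟩, congrArg Prod.snd h2⟩
          · rintro ⟨⟨h1, h2⟩, h3⟩
            exact ⟨h1, Prod.ext h2 h3⟩
        have hE : C {w | ∃ bl, Val B' bl ∧ w = emb c bl} := by
          refine hC.congr (hC.union _ _ hC.nil (hC.mul _ _ (starB hC B) (hC.letter c))) ?_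
          intro w
          constructor
          · rintro ⟨bl, h1, rfl⟩
            rcases List.eq_nil_or_concat bl with rfl | ⟨bl', v, rfl⟩
            · exact Or.inl rfl
            · right
              rw [List.concat_eq_append] at h1 ⊢
              refine ⟨emb c bl' ++ v, ?_, [c], rfl, by simp [emb_append]⟩
              intro a ha
              rcases List.mem_append.1 ha with ha | ha
              · exact hmem a (emb_mem (fun y hy => h1 y (by simp [hy])) a ha)
              · exact hsub a (h1 v (by simp) a ha)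
          · rintro (h1 | ⟨x, hx, y, hy, rfl⟩)
            · have h1' : w = [] := h1
              exact ⟨[], by simp [Val], by simp [h1']⟩
            · have hy' : y = [c] := hy
              obtain ⟨bl, v, h2, h3, h4⟩ :=
                exists_emb c B' x (fun a ha => hsplit a (hx a ha)) hcB'
              refine ⟨bl ++ [v], h2.append ?_, by simp [emb_append, h4, hy']⟩
              intro z hz
              simp only [List.mem_singleton] at hz
              exact hz ▸ h3
        have hD := pull_cls hC hcB' lab hE hX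
        -- the outer induction hypothesis
        have key := IH (Nat.card (Loc (φ c))) (hM ▸ Loc.card_lt hcu) (Loc (φ c)) rfl (M × T) T
          (Pull C c B' lab) hD (psi (T := T) φ c) (fun x => x.2 * τ c)
          (by
            intro t
            refine hC.congr (hC.inter _ _ hE (hT t)) ?_
            intro w
            constructor
            · rintro ⟨bl, h1, rfl, h3⟩
              have h3' : ev (fun x : M × T => x.2 * τ c) (bl.map lab) = t := h3
              exact ⟨⟨bl, h1, rfl⟩, (rho_val φ τ c bl).symm.trans h3'⟩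
            · rintro ⟨⟨bl, h1, rfl⟩, h2⟩
              exact ⟨bl, h1, rfl, (rho_val φ τ c bl).trans h2⟩)
          _ {x | ∃ v, (∀ a ∈ v, a ∈ B') ∧ lab v = x} rfl
          (by
            intro W hW hid
            obtain ⟨bl, h1, rfl⟩ := exists_bl B' lab W hW
            rw [rho_val φ τ c bl] at hid
            obtain ⟨j, hj⟩ := hap (emb c bl) (fun a ha => hmem a (emb_mem h1 a ha)) hid
            refine ⟨j, Subtype.ext ?_⟩
            rw [loc_pow _ (psi_val φ τ c bl), loc_pow _ (psi_val φ τ c bl), hj])
        have hZ : ∀ x : Loc (φ c), C {w | ∃ bl, Val B' bl ∧ w = emb c bl ∧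
            φ c * ev φ w = x.1} := by
          intro x
          refine hC.congr (key x) ?_
          intro w
          constructor
          · rintro ⟨bl, h1, rfl, h3⟩
            refine ⟨bl, h1, rfl, ?_, Subtype.ext ((psi_val φ τ c bl).trans h3)⟩
            intro y hy
            obtain ⟨v, hv, rfl⟩ := List.mem_map.1 hy
            exact ⟨v, h1 v hv, rfl⟩
          · rintro ⟨bl, h1, rfl, -, h3⟩
            exact ⟨bl, h1, rfl, (psi_val φ τ c bl).symm.trans (congrArg Subtype.val h3)⟩
        have hU : C (⋃ q : {q : M × Loc (φ c) × M // q.1 * q.2.1.1 * q.2.2 = m},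
            lmul {w | (∀ a ∈ w, a ∈ B') ∧ ev φ w = q.1.1}
              (lmul {[c]} (lmul {w | ∃ bl, Val B' bl ∧ w = emb c bl ∧
                φ c * ev φ w = q.1.2.1.1}
                {w | (∀ a ∈ w, a ∈ B') ∧ ev φ w = q.1.2.2}))) :=
          hC.iUnion _ (fun q => hC.mul _ _ (hX0 _) (hC.mul _ _ (hC.letter c)
            (hC.mul _ _ (hZ _) (hX0 _))))
        refine hC.congr (hC.union _ _ (hX0 m) hU) ?_
        intro w
        constructor
        · rintro ⟨h1, h2⟩
          obtain ⟨bl, v, h3, h4, rfl⟩ := exists_emb c B' w (fun a ha => hsplit a (h1 a ha)) hcB'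
          cases bl with
          | nil => exact Or.inl ⟨by simpa using h4, by simpa using h2⟩
          | cons v0 bl =>
            right
            have h3' : Val B' bl := fun y hy => h3 y (by simp [hy])
            refine Set.mem_iUnion.2 ⟨⟨(ev φ v0, ev (psi (T := T) φ c) (bl.map lab), ev φ v), ?_⟩,
              v0, ⟨h3 v0 (by simp), rfl⟩, c :: (emb c bl ++ v),
              ⟨[c], rfl, emb c bl ++ v, ⟨emb c bl, ⟨bl, h3', rfl, ?_⟩, v, ⟨h4, rfl⟩, rfl⟩, rfl⟩,
              by simp⟩
            · show ev φ v0 * (ev (psi (T := T) φ c) (bl.map lab)).1 * ev φ v = m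
              rw [psi_val φ τ c bl, ← h2]
              simp [mul_assoc]
            · exact (psi_val φ τ c bl).symm
        · rintro (⟨h1, h2⟩ | h1)
          · exact ⟨fun a ha => hsub a (h1 a ha), h2⟩
          · obtain ⟨⟨⟨p, x, q⟩, hq⟩, v0, ⟨h2, h3⟩, y, ⟨z, hz, t, ⟨e, ⟨bl, h4, rfl, h5⟩, v,
              ⟨h6, h7⟩, rfl⟩, rfl⟩, rfl⟩ := Set.mem_iUnion.1 h1
            have hz' : z = [c] := hz
            subst hz'
            simp only at h3 h5 h7 hq
            constructor
            · intro a ha
              simp only [List.mem_append, List.mem_singleton] at ha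
              rcases ha with ha | ha | ha | ha
              · exact hsub a (h2 a ha)
              · exact ha ▸ hcB
              · exact hmem a (emb_mem h4 a ha)
              · exact hsub a (h6 a ha)
            · rw [← hq, ← h3, ← h5, ← h7]
              simp [mul_assoc]

/-- **relative Schuetzenberger theorem** -/
theorem crit {α M T : Type u} [Monoid M] [Finite M] [Finite α] [Monoid T] [Finite T]
    {C : Set (List α) → Prop} (hC : Cls C) (φ : α → M) (τ : α → T)
    (hT : ∀ t, C {w | ev τ w = t})
    (hap : ∀ w : List α, ev τ w * ev τ w = ev τ w → ∃ j, ev φ w ^ j = ev φ w ^ (j + 1))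
    (m : M) : C {w | ev φ w = m} := by
  have := main _ M rfl α T C hC φ τ hT _ Set.univ rfl (fun w _ => hap w) m
  simpa using this

end Crest.Agent.R320.Crit792
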