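import Crest.Agent.R320.Fin_561

/-!
# Row 320: cut automata with right-legal languages (helper561)

`run p w` = state after reading `w` from `p`.  A level is a set `C` of cut states and right-legal
languages `R q` (words after which the state is `q`, whatever the cut state before was).
* `star_step` : relative star theorem (promise `X`), one star;
* `first_failure` : a language which is right on live words gives the exact live run language;
* `two_level` : two levels over a base in `HL k` give all run languages in `HL (k + 2)`.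
No finiteness of the right-legal words is needed.
-/

set_option autoImplicit false

namespace Crest.Agent.R320.Cut2_561

open Crest.RegLang Crest.Agent.R320.Hk_851

universe u v

variable {α : Type u} {Om : Type v} (step : Om → α → Om)

/-- state after reading `w` -/
def run (p : Om) (w : List α) : Om := w.foldl step p

theorem run_append (p : Om) (u w : List α) : run step p (u ++ w) = run step (run step p u) w := by
  simp [run]

/-- the word `w`, read from `p`, has a usable cut of the level `(C, R)` -/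
def Cut (C : Set Om) (R : Om → Language α) (p : Om) (w : List α) : Prop :=
  ∃ x Q y q, w = x ++ (Q ++ y) ∧ run step p x ∈ C ∧ Q ∈ R q

theorem Cut.append_right {C : Set Om} {R : Om → Language α} {p : Om} {u w : List α}
    (h : Cut step C R p u) : Cut step C R p (u ++ w) := by
  obtain ⟨x, Q, y, q, rfl, h1, h2⟩ := h
  exact ⟨x, Q, y ++ w, q, by simp, h1, h2⟩

theorem Cut.append_left {C : Set Om} {R : Om → Language α} {p : Om} {u w : List α}
    (h : Cut step C R (run step p u) w) : Cut step C R p (u ++ w) := by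
  obtain ⟨x, Q, y, q, rfl, h1, h2⟩ := h
  exact ⟨u ++ x, Q, y, q, by simp, by rwa [run_append], h2⟩

/-- **Relative star theorem.** `X` = promise, closed under prefixes and suffixes along the run. -/
theorem star_step [Finite Om] {k : ℕ} (C : Set Om) (R : Om → Language α)
    (hnil : ∀ q, [] ∉ R q) (hR : ∀ q, HL k (R q))
    (X : Om → List α → Prop)
    (X1 : ∀ p u w, X p (u ++ w) → X p u) (X2 : ∀ p u w, X p (u ++ w) → X (run step p u) w)
    (sound : ∀ p ∈ C, ∀ q, ∀ Q ∈ R q, X p Q → run step p Q = q)
    (base : ∀ p p', HL k {w | X p w ∧ ¬ Cut step C R p w ∧ run step p w = p'}) :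
    ∀ p p', ∃ L : Language α, HL (k + 1) L ∧ ∀ w, X p w → (w ∈ L ↔ run step p w = p') := by
  classical
  -- uncut languages
  let U : Om → Om → Language α := fun p p' => {w | X p w ∧ ¬ Cut step C R p w ∧ run step p w = p'}
  have hU : ∀ p p', HL k (U p p') := base
  -- the pieces
  let K : Language α := {w | ∃ q : Om, w ∈ ({w | ∃ c ∈ C, w ∈ R q * U q c} : Language α)}
  have hK : HL k K := HL.iUnion fun q => HL.biUnion (Set.toFinite C) fun c _ => (hR q).mul (hU q c)
  -- last piece
  let Z : Om → Language α := fun p' => {w | ∃ q : Om, w ∈ R q * U q p'}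
  have hZ : ∀ p', HL k (Z p') := fun p' => HL.iUnion fun q => (hR q).mul (hU q p')
  intro p p'
  let A : Language α := {w | ∃ c ∈ C, w ∈ U p c}
  have hA : HL k A := HL.biUnion (Set.toFinite C) fun c _ => hU p c
  let B : Language α := A * (KStar.kstar K * Z p')
  have hB : HL (k + 1) B := (hA.mono (Nat.le_succ k)).mul
      (hK.star.mul ((hZ p').mono (Nat.le_succ k)))
  let L : Language α := {w | w ∈ U p p' ∨ w ∈ B}
  have hL : HL (k + 1) L := HL.setOf_or ((hU p p').mono (Nat.le_succ k)) hB
  refine ⟨L, hL, ?_⟩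
  -- soundness of the tail: from a cut state, live
  have tail_sound : ∀ (l : List (List α)), (∀ y ∈ l, y ∈ K) → ∀ c ∈ C, ∀ z, z ∈ Z p' →
      X c (l.flatten ++ z) → run step c (l.flatten ++ z) = p' := by
    intro l
    induction l with
    | nil =>
      intro _ c hc z hz hX
      obtain ⟨q, hz⟩ := hz
      obtain ⟨Q, hQ, r, hr, rfl⟩ := Language.mem_mul.1 hz
      simp only [List.flatten_nil, List.nil_append] at hX ⊢
      rw [run_append, sound c hc q Q hQ (X1 _ _ _ hX)]
      exact hr.2.2
    | cons a l ih =>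
      intro hl c hc z hz hX
      obtain ⟨q, c', hc', ha⟩ := hl a List.mem_cons_self
      obtain ⟨Q, hQ, r, hr, rfl⟩ := Language.mem_mul.1 ha
      have e : ((Q ++ r) :: l).flatten ++ z = Q ++ (r ++ (l.flatten ++ z)) := by simp
      rw [e] at hX ⊢
      have h1 := sound c hc q Q hQ (X1 _ _ _ hX)
      have h2 := X2 _ _ _ hX
      rw [h1] at h2
      have h3 := X2 _ _ _ h2
      have h4 : run step q r = c' := hr.2.2
      rw [h4] at h3
      rw [run_append, h1, run_append, h4]
      exact ih (fun y hy => hl y (List.mem_cons_of_mem _ hy)) c' hc' z hz h3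
  -- completeness: a live word with a cut
  have first_cut : ∀ (q : Om) (w : List α), X q w → Cut step C R q w →
      ∃ x Q y q', w = x ++ (Q ++ y) ∧ (∃ c ∈ C, x ∈ U q c) ∧ Q ∈ R q' ∧ run step q x ∈ C := by
    intro q w hX hcut
    have hex : ∃ n : ℕ, ∃ x Q y q', w = x ++ (Q ++ y) ∧ run step q x ∈ C ∧ Q ∈ R q' ∧ x.length = n := by
      obtain ⟨x, Q, y, q', h1, h2, h3⟩ := hcut
      exact ⟨_, x, Q, y, q', h1, h2, h3, rfl⟩
    obtain ⟨x, Q, y, q', h1, h2, h3, h4⟩ := Nat.find_spec hex
    refine ⟨x, Q, y, q', h1, ⟨_, h2, ?_, ?_, rfl⟩, h3, h2⟩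
    · rw [h1] at hX; exact X1 _ _ _ hX
    · rintro ⟨x', Q', y', q'', e, h5, h6⟩
      have hlt : x'.length < Nat.find hex := by
        rw [← h4, e]
        have : Q' ≠ [] := fun h => hnil q'' (h ▸ h6)
        have := List.length_pos_of_ne_nil this
        simp only [List.length_append]
        omega
      exact Nat.find_min hex hlt ⟨x', Q', y' ++ (Q ++ y), q'', by rw [h1, e]; simp, h5, h6, rfl⟩
  have tail_complete : ∀ (n : ℕ) (q : Om) (y : List α), y.length ≤ n → X q y →
      ∀ Q ∈ R q, run step q y = p' → Q ++ y ∈ KStar.kstar K * Z p' := by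
    intro n
    induction n with
    | zero =>
      intro q y hy hX Q hQ hr
      have hy0 : y = [] := List.length_eq_zero_iff.1 (Nat.le_zero.1 hy)
      subst hy0
      refine Language.mem_mul.2 ⟨[], Language.nil_mem_kstar K, Q ++ [], ?_, rfl⟩
      refine ⟨q, Language.mem_mul.2 ⟨Q, hQ, [], ⟨hX, ?_, hr⟩, rfl⟩⟩
      rintro ⟨x, Q', y', q'', e, -, h6⟩
      have hn : Q' = [] := by
        have := congrArg List.length e
        simp only [List.length_nil, List.length_append] at this
        exact List.length_eq_zero_iff.1 (by omega)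
      exact hnil q'' (hn ▸ h6)
    | succ n ih =>
      intro q y hy hX Q hQ hr
      by_cases hc : Cut step C R q y
      · obtain ⟨x, Q', y', q', rfl, ⟨c, hc, hx⟩, hQ', hrc⟩ := first_cut q y hX hc
        have hX' : X (run step q x) (Q' ++ y') := X2 _ _ _ hX
        have hs : run step (run step q x) Q' = q' := sound _ hrc q' Q' hQ' (X1 _ _ _ hX')
        have hX'' : X q' y' := by have := X2 _ _ _ hX'; rwa [hs] at this
        have hlen : y'.length ≤ n := by
          have : Q' ≠ [] := fun h => hnil q' (h ▸ hQ')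
          have := List.length_pos_of_ne_nil this
          simp only [List.length_append] at hy
          omega
        have hr' : run step q' y' = p' := by
          rw [run_append, run_append, hs] at hr; exact hr
        obtain ⟨s, hs1, z, hz, e⟩ := Language.mem_mul.1 (ih q' y' hlen hX'' Q' hQ' hr')
        refine Language.mem_mul.2 ⟨(Q ++ x) ++ s, ?_, z, hz, ?_⟩
        · obtain ⟨l, rfl, hl⟩ := Language.mem_kstar.1 hs1
          refine Language.mem_kstar.2 ⟨(Q ++ x) :: l, by simp, ?_⟩
          intro a ha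
          rcases List.mem_cons.1 ha with rfl | ha
          · exact ⟨q, c, hc, Language.mem_mul.2 ⟨Q, hQ, x, hx, rfl⟩⟩
          · exact hl a ha
        · rw [← e]; simp
      · refine Language.mem_mul.2 ⟨[], Language.nil_mem_kstar K, Q ++ y, ?_, rfl⟩
        exact ⟨q, Language.mem_mul.2 ⟨Q, hQ, y, ⟨hX, hc, hr⟩, rfl⟩⟩
  intro w hX
  constructor
  · rintro (h | h)
    · exact h.2.2
    · obtain ⟨x, ⟨c, hc, hx⟩, t, ht, rfl⟩ := Language.mem_mul.1 h
      obtain ⟨s, hs, z, hz, rfl⟩ := Language.mem_mul.1 ht
      obtain ⟨l, rfl, hl⟩ := Language.mem_kstar.1 hs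
      have h1 : run step p x = c := hx.2.2
      rw [run_append, h1]
      have h2 := X2 _ _ _ hX
      rw [h1] at h2
      exact tail_sound l hl c hc z hz h2
  · intro hr
    by_cases hc : Cut step C R p w
    · obtain ⟨x, Q, y, q, rfl, hx, hQ, hrc⟩ := first_cut p w hX hc
      right
      have hX' : X (run step p x) (Q ++ y) := X2 _ _ _ hX
      have hs : run step (run step p x) Q = q := sound _ hrc q Q hQ (X1 _ _ _ hX')
      have hX'' : X q y := by have := X2 _ _ _ hX'; rwa [hs] at this
      have hr' : run step q y = p' := by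
        rw [run_append, run_append, hs] at hr; exact hr
      exact Language.mem_mul.2 ⟨x, hx, Q ++ y, tail_complete y.length q y le_rfl hX'' Q hQ hr', rfl⟩
    · left; exact ⟨hX, hc, hr⟩

/-- **First-failure lemma.** -/
theorem first_failure [Finite Om] {k : ℕ} (C : Set Om) (R : Om → Language α)
    (hnil : ∀ q, [] ∉ R q) (hR : ∀ q, HL k (R q))
    (h : ∀ p p', ∃ L : Language α, HL k L ∧ ∀ w, ¬ Cut step C R p w → (w ∈ L ↔ run step p w = p')) :
    ∀ p p', HL k {w | ¬ Cut step C R p w ∧ run step p w = p'} := by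
  intro p p'
  choose L hL hw using h
  -- words with a prefix x Q, x in L(p,c)
  have hF : HL k ({w | ∃ c ∈ C, w ∈ ({w | ∃ q : Om, w ∈ (L p c * R q) * (⊤ : Language α)} : Language α)} :
      Language α) :=
    HL.biUnion (Set.toFinite C) fun c _ => HL.iUnion fun q => ((hL p c).mul (hR q)).mul HL.top
  have hG := HL.setOf_and (hL p p') (HL.setOf_not hF)
  refine hG.congr fun w => ?_
  constructor
  · rintro ⟨hc, hr⟩
    refine ⟨(hw p p' w hc).2 hr, ?_⟩
    rintro ⟨c, hcC, q, hxx⟩
    obtain ⟨xQ, hxQ, y, -, rfl⟩ := Language.mem_mul.1 hxx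
    obtain ⟨x, hx1, Q, hQ, rfl⟩ := Language.mem_mul.1 hxQ
    have hxl : ¬ Cut step C R p x := fun h => hc (by
      rw [List.append_assoc]; exact h.append_right step)
    have hrx := (hw p c x hxl).1 hx1
    exact hc ⟨x, Q, y, q, by simp, hrx ▸ hcC, hQ⟩
  · rintro ⟨h1, h2⟩
    have hlive : ¬ Cut step C R p w := by
      intro hcut
      classical
      have hex : ∃ n : ℕ, ∃ x Q y q', w = x ++ (Q ++ y) ∧ run step p x ∈ C ∧ Q ∈ R q' ∧
          x.length = n := by
        obtain ⟨x, Q, y, q', h1, h2, h3⟩ := hcut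
        exact ⟨_, x, Q, y, q', h1, h2, h3, rfl⟩
      obtain ⟨x, Q, y, q', e1, e2, e3, e4⟩ := Nat.find_spec hex
      have hxl : ¬ Cut step C R p x := by
        rintro ⟨x', Q', y', q'', e, h5, h6⟩
        have hlt : x'.length < Nat.find hex := by
          rw [← e4, e]
          have : Q' ≠ [] := fun h => hnil q'' (h ▸ h6)
          have := List.length_pos_of_ne_nil this
          simp only [List.length_append]
          omega
        exact Nat.find_min hex hlt ⟨x', Q', y' ++ (Q ++ y), q'', by rw [e1, e]; simp, h5, h6, rfl⟩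
      refine h2 ⟨run step p x, e2, q', ?_⟩
      exact Language.mem_mul.2 ⟨x ++ Q, Language.mem_mul.2 ⟨x, (hw p _ x hxl).2 rfl, Q, e3, rfl⟩, y,
        trivial, by rw [e1]; simp⟩
    exact ⟨hlive, (hw p p' w hlive).1 h1⟩

/-- **Two levels over a base.** -/
theorem two_level [Finite Om] {k : ℕ} (C0 C1 : Set Om) (R0 R1 : Om → Language α)
    (hn0 : ∀ q, [] ∉ R0 q) (hn1 : ∀ q, [] ∉ R1 q)
    (hR0 : ∀ q, HL (k + 1) (R0 q)) (hR1 : ∀ q, HL k (R1 q))
    (sound0 : ∀ p ∈ C0, ∀ q, ∀ Q ∈ R0 q, run step p Q = q)
    (sound1 : ∀ p ∈ C1, ∀ q, ∀ Q ∈ R1 q, ¬ Cut step C0 R0 p Q → run step p Q = q)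
    (base : ∀ p p', HL k {w | ¬ Cut step C0 R0 p w ∧ ¬ Cut step C1 R1 p w ∧ run step p w = p'}) :
    ∀ p p', HL (k + 2) {w | run step p w = p'} := by
  have h1 := star_step step C1 R1 hn1 hR1 (fun p w => ¬ Cut step C0 R0 p w)
    (fun p u w h hc => h (hc.append_right step)) (fun p u w h hc => h (Cut.append_left step hc))
    sound1 base
  have h2 := first_failure step C0 R0 hn0 hR0 h1
  have h3 := star_step step C0 R0 hn0 hR0 (fun _ _ => True) (fun _ _ _ _ => trivial)
    (fun _ _ _ _ => trivial) (fun p hp q Q hQ _ => sound0 p hp q Q hQ)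
    (fun p p' => (h2 p p').congr fun w => ⟨fun h => h.2, fun h => ⟨trivial, h⟩⟩)
  intro p p'
  obtain ⟨L, hL, hw⟩ := h3 p p'
  exact hL.congr fun w => (hw w trivial).symm

end Crest.Agent.R320.Cut2_561
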