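import Crest.Agent.R320.CutAut_600

/-!
Row 320: completeness of cut automata and transfer of the inner scheme (helper600).

* `cut_of_zone` : a split `Q = P₁ ++ r ++ s` of the text behind a node, `L P₁ = some (value)`,
  `R r` defined, gives a cut.
* `not_uncut_of_complete` : if all long texts of the class have such splits for every value, every
  long word is cut.
* `bad_of_uncut` : along an uncut word every node with enough text behind it is bad.
* `transfer` : an inner automaton with the same distances whose zone maps determine the zone maps of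
  the outer one computes the outer one.
-/

set_option autoImplicit false

namespace Crest.Agent.R320.CutAut_600

open Crest.Agent.R320.Star_903 Crest.Agent.R320.Hgt1_903

variable {α V : Type*}

section
variable {n : ℕ} {Z : List α → Option (ℕ × (V → V))} {RF : List α → Prop} {B : ℕ}

theorem ZRule.lt_of_none (hZ : ZRule n Z) {P r : List α} {d : ℕ} {t : V → V}
    (hP : Z P = none) (h : Z (P ++ r) = some (d, t)) : P.length < d + n := by
  by_contra hcon
  have hcon : d + n ≤ P.length := not_lt.1 hcon
  have h1 := hZ.sharp _ d t h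
  rw [List.take_append_of_le_length hcon] at h1
  have h2 := hZ.mono _ (P.drop (d + n)) _ h1
  rw [List.take_append_drop, hP] at h2
  cases h2

/-- the certificate needs only the first `d + n` letters. -/
theorem ZRule.of_take (hZ : ZRule n Z) {Q : List α} {d m : ℕ} {t : V → V}
    (h : Z Q = some (d, t)) (hm : d + n ≤ m) : Z (Q.take m) = some (d, t) := by
  have h1 := hZ.sharp _ d t h
  have e : Q.take m = Q.take (d + n) ++ (Q.take m).drop (d + n) := by
    conv_lhs => rw [← List.take_append_drop (d + n) (Q.take m)]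
    rw [List.take_take, min_eq_left hm]
  rw [e]
  exact hZ.mono _ _ _ h1

theorem Uncut.suffix {Θ : Type*} {δ : Θ → α → Θ} {CutL : Θ → Prop} {D : ℕ}
    {ρ : List α → Option Θ} {θ : Θ} {u v : List α} (h : Uncut δ CutL D ρ θ (u ++ v)) :
    Uncut δ CutL D ρ (run δ θ u) v := by
  intro p r s e hc
  refine h (u ++ p) r s (by rw [← e]; simp [List.append_assoc]) ?_
  obtain ⟨h1, h2, h3⟩ := hc
  exact ⟨h1, by rw [Crest.Agent.R320.Star_903.run_append]; exact h2, h3⟩

/-- **a legal split behind a node is a cut.** -/
theorem cut_of_zone (hZ : ZRule n Z) (hR : RFc Z RF B) {L : List α → Option V}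
    {R : List α → Option (ℕ × V)} {D : ℕ} {P : {l : List α // l.length ≤ B}} {v : V}
    {w : List α} (hC : Cls Z RF B (some (P, v)) w) {d : ℕ} {t : V → V}
    (hd : Z (P.1 ++ w) = some (d, t)) {P₁ r s : List α}
    (hQ : (P.1 ++ w).drop d = P₁ ++ (r ++ s)) (hn : n ≤ P₁.length) (hZ1 : Z P₁ = none)
    (hL : L P₁ = some (t v)) (hr : r.length = D) (hRr : (R r).isSome) :
    ¬ Uncut (dlt Z B) (cutL L B) D (rho Z R B) (some (P, v)) w := by
  have hlt := hZ.lt_of_none hC.1 hd
  have hlen := hZ.len _ d t hd
  -- the prefix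
  have hw : P.1 ++ w = ((P.1 ++ w).take d ++ P₁) ++ (r ++ s) := by
    rw [List.append_assoc, ← hQ, List.take_append_drop]
  have hdl : ((P.1 ++ w).take d).length = d := by rw [List.length_take]; omega
  have hle : P.1.length ≤ ((P.1 ++ w).take d ++ P₁).length := by
    rw [List.length_append, hdl]; omega
  obtain ⟨p, hp⟩ : ∃ p, P.1 ++ p = (P.1 ++ w).take d ++ P₁ := by
    refine ⟨((P.1 ++ w).take d ++ P₁).drop P.1.length, ?_⟩
    have h1 : ((P.1 ++ w).take d ++ P₁).take P.1.length = P.1 := by
      have h2 : (P.1 ++ w).take P.1.length = P.1 := List.take_left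
      conv_rhs => rw [← h2, hw]
      rw [List.take_append_of_le_length hle]
    have h3 := List.take_append_drop P.1.length ((P.1 ++ w).take d ++ P₁)
    rw [h1] at h3
    exact h3
  have hwp : w = p ++ (r ++ s) := by
    have h1 : P.1 ++ w = P.1 ++ (p ++ (r ++ s)) := by
      rw [← List.append_assoc, hp]; exact hw
    exact List.append_cancel_left h1
  -- the state at the cut
  have hcert : Z (P.1 ++ p) = some (d, t) := by
    have h1 : (P.1 ++ w).take (d + P₁.length) = P.1 ++ p := by
      rw [hp]
      conv_lhs => rw [hw]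
      rw [← hdl, ← List.length_append, hdl, List.take_left]
    rw [← h1]
    exact hZ.of_take hd (by omega)
  have hF : RF (P.1 ++ (p ++ (r ++ s))) := by rw [← hwp]; exact hC.2
  have h1 := run_emb hZ hR p (r ++ s) P.1 v hC.1 hF
  have hdp : (P.1 ++ p).drop d = P₁ := by rw [hp, ← hdl, hdl, List.drop_left' hdl]
  have hrun : runs Z (P.1, v) p = (P₁, t v) := by
    rw [run_eq hZ hC.1 hcert, hdp, runs_none hZ P₁ [] (t v) (by rw [List.nil_append]; exact hZ1),
      List.nil_append]
  have hB : P₁.length ≤ B := by have := h1.2.2.2; rw [hrun] at this; exact this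
  intro hU
  refine hU p r s (by rw [hwp]; simp) ⟨hr, ?_, ?_⟩
  · have e0 : (some (P, v) : St α V B) = emb B (P.1, v) := (emb_of P.1 v P.2).symm
    rw [e0, h1.1, hrun, emb_of P₁ (t v) hB]
    exact hL
  · unfold rho
    rw [Option.isSome_map]
    exact hRr

/-- behind every long word there is a certified node near the start. -/
theorem node_near (hZ : ZRule n Z) (hR : RFc Z RF B) {P : {l : List α // l.length ≤ B}} {v : V}
    {w : List α} (hC : Cls Z RF B (some (P, v)) w) (hw : B < w.length) :
    ∃ d t, Z (P.1 ++ w) = some (d, t) ∧ d + n ≤ B + 1 := by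
  have hF := hC.2
  have h1 : RF ((P.1 ++ w).take (B + 1)) := by
    refine hR.pre _ ((P.1 ++ w).drop (B + 1)) ?_
    rw [List.take_append_drop]; exact hF
  have hl : ((P.1 ++ w).take (B + 1)).length = B + 1 := by
    rw [List.length_take, List.length_append]; omega
  have h2 := hR.bdd _ h1 (by omega)
  cases hq : Z ((P.1 ++ w).take (B + 1)) with
  | none => exact absurd hq h2
  | some q =>
    obtain ⟨d, t⟩ := q
    have h3 := hZ.mono _ ((P.1 ++ w).drop (B + 1)) _ hq
    rw [List.take_append_drop] at h3
    have h4 := hZ.len _ d t hq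
    exact ⟨d, t, h3, by omega⟩

/-- a text `Q` behind a node is complete: every value has a legal split. -/
def Complete (n : ℕ) (Z : List α → Option (ℕ × (V → V))) (L : List α → Option V)
    (R : List α → Option (ℕ × V)) (D : ℕ) (Q : List α) : Prop :=
  ∀ v, ∃ P₁ r s, Q = P₁ ++ (r ++ s) ∧ n ≤ P₁.length ∧ Z P₁ = none ∧ L P₁ = some v ∧
    r.length = D ∧ (R r).isSome

/-- **along an uncut word no text behind a certified node is complete.** -/
theorem not_complete_of_uncut (hZ : ZRule n Z) (hR : RFc Z RF B) {L : List α → Option V}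
    {R : List α → Option (ℕ × V)} {D : ℕ} {P : {l : List α // l.length ≤ B}} {v : V}
    {w : List α} (hC : Cls Z RF B (some (P, v)) w) {d : ℕ} {t : V → V}
    (hd : Z (P.1 ++ w) = some (d, t))
    (hU : Uncut (dlt Z B) (cutL L B) D (rho Z R B) (some (P, v)) w) :
    ¬ Complete n Z L R D ((P.1 ++ w).drop d) := by
  intro hc
  obtain ⟨P₁, r, s, h1, h2, h3, h4, h5, h6⟩ := hc (t v)
  exact cut_of_zone hZ hR hC hd h1 h2 h3 h4 h5 h6 hU

/-- long words of a class are cut if the long texts behind nodes are complete. -/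
theorem not_uncut_of_complete (hZ : ZRule n Z) (hR : RFc Z RF B) {L : List α → Option V}
    {R : List α → Option (ℕ × V)} {D M : ℕ} (C' : St α V B → List α → Prop)
    (hC : ∀ θ w, C' θ w → Cls Z RF B θ w)
    (hcomp : ∀ (P : {l : List α // l.length ≤ B}) (v : V) (w : List α) (d : ℕ) (t : V → V),
      C' (some (P, v)) w → Z (P.1 ++ w) = some (d, t) → M ≤ ((P.1 ++ w).drop d).length →
      Complete n Z L R D ((P.1 ++ w).drop d)) :
    ∀ θ w, C' θ w → M + B + 1 < w.length →
      ¬ Uncut (dlt Z B) (cutL L B) D (rho Z R B) θ w := by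
  intro θ w hc hw hU
  match θ, hc, hU with
  | some (P, v), hc, hU =>
    obtain ⟨d, t, h1, h2⟩ := node_near hZ hR (hC _ _ hc) (by omega)
    refine not_complete_of_uncut hZ hR (hC _ _ hc) h1 hU (hcomp P v w d t hc h1 ?_)
    rw [List.length_drop, List.length_append]; omega
  | none, hc, _ => exact hC _ _ hc

end

/-! ### transfer: same distances, zone maps of the inner automaton determine the outer ones -/

section Transfer
variable {V' : Type*} {n : ℕ} {Z : List α → Option (ℕ × (V → V))}
  {Z' : List α → Option (ℕ × (V' → V'))} {RF : List α → Prop} {B : ℕ}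

/-- `Z` and `Z'` are the same chain; `Rel t' t` relates the zone maps. -/
def Same (Rel : (V' → V') → (V → V) → Prop) (Z : List α → Option (ℕ × (V → V)))
    (Z' : List α → Option (ℕ × (V' → V'))) : Prop :=
  ∀ Q, (Z Q = none ∧ Z' Q = none) ∨
    ∃ d t t', Z Q = some (d, t) ∧ Z' Q = some (d, t') ∧ Rel t' t

/-- the runs along a word are related: one pair of maps `(T', T)` works for all values. -/
theorem runs_rel {Rel : (V' → V') → (V → V) → Prop} (hid : Rel id id)
    (hcomp : ∀ a' a b' b, Rel a' a → Rel b' b → Rel (b' ∘ a') (b ∘ a))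
    (hS : Same Rel Z Z') :
    ∀ (w P : List α), ∃ (P₁ : List α) (T : V → V) (T' : V' → V'), Rel T' T ∧
      (∀ v, runs Z (P, v) w = (P₁, T v)) ∧ (∀ v', runs Z' (P, v') w = (P₁, T' v')) := by
  intro w
  induction w with
  | nil => intro P; exact ⟨P, id, id, hid, fun _ => rfl, fun _ => rfl⟩
  | cons c w ih =>
    intro P
    rcases hS (P ++ [c]) with ⟨h1, h2⟩ | ⟨d, t, t', h1, h2, h3⟩
    · obtain ⟨P₁, T, T', hT, hv, hv'⟩ := ih (P ++ [c])
      refine ⟨P₁, T, T', hT, fun v => ?_, fun v' => ?_⟩
      · rw [runs_cons, stp_none h1, hv]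
      · rw [runs_cons, stp_none h2, hv']
    · obtain ⟨P₁, T, T', hT, hv, hv'⟩ := ih ((P ++ [c]).drop d)
      refine ⟨P₁, T ∘ t, T' ∘ t', hcomp _ _ _ _ h3 hT, fun v => ?_, fun v' => ?_⟩
      · rw [runs_cons, stp_some h1, hv]; rfl
      · rw [runs_cons, stp_some h2, hv']; rfl

/-- **TRANSFER.** -/
theorem transfer [Finite α] [Finite V] [Finite V'] [Nonempty V'] {m : ℕ}
    (hZ : ZRule n Z) (hZ' : ZRule n Z') (hR : RFc Z RF B) (hR' : RFc Z' RF B)
    {Rel : (V' → V') → (V → V) → Prop} (hid : Rel id id)
    (hcomp : ∀ a' a b' b, Rel a' a → Rel b' b → Rel (b' ∘ a') (b ∘ a))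
    (hdet : ∀ T' T₁ T₂, Rel T' T₁ → Rel T' T₂ → T₁ = T₂)
    (hS : Same Rel Z Z')
    (C : St α V B → List α → Prop) (C' : St α V' B → List α → Prop)
    (hC : ∀ θ w, C θ w → Cls Z RF B θ w)
    (hCC : ∀ P v w, C (some (P, v)) w → ∀ v', C' (some (P, v')) w)
    (hrc : RC m (dlt Z' B) C') : RC m (dlt Z B) C := by
  classical
  obtain ⟨R', hR1, hR2⟩ := hrc
  let Rn : St α V B → St α V B → Language α := fun θ θ' =>
    match θ, θ' with
    | some (P, v), some (P₁, v₁) =>
      {w | ∃ T' : V' → V', w ∈ ({w | (∃ T, Rel T' T ∧ T v = v₁) ∧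
        w ∈ ({w | ∀ v', w ∈ R' (some (P, v')) (some (P₁, T' v'))} : Language α)} : Language α)}
    | _, _ => (⊥ : Language α)
  refine ⟨Rn, ?_, ?_⟩
  · intro θ θ'
    match θ, θ' with
    | some (P, v), some (P₁, v₁) =>
      exact H.exists_fintype _ fun T' => H.inter (H.const m _)
        (H.forall_fintype _ fun v' => hR1 _ _)
    | some (P, v), none => exact H.const m False
    | none, some _ => exact H.const m False
    | none, none => exact H.const m False
  · intro θ w hc θ'
    match θ, hc with
    | none, hc => exact (hC _ _ hc).elim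
    | some (P, v), hc =>
      have hcl := hC _ _ hc
      obtain ⟨Q₁, T, T', hT, hv, hv'⟩ := runs_rel (Z := Z) (Z' := Z') hid hcomp hS w P.1
      have h1 := run_emb hZ hR w [] P.1 v hcl.1 (by simpa using hcl.2)
      have hQB : Q₁.length ≤ B := by have := h1.2.2.2; rw [hv] at this; exact this
      have hrun : run (dlt Z B) (some (P, v)) w = some (⟨Q₁, hQB⟩, T v) := by
        have e0 : (some (P, v) : St α V B) = emb B (P.1, v) := (emb_of P.1 v P.2).symm
        rw [e0, h1.1, hv, emb_of Q₁ (T v) hQB]
      have hZP' : Z' P.1 = none := by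
        rcases hS P.1 with ⟨_, h2⟩ | ⟨d, t, t', h2, _, _⟩
        · exact h2
        · rw [hcl.1] at h2; cases h2
      have hrun' : ∀ v', run (dlt Z' B) (some (P, v')) w = some (⟨Q₁, hQB⟩, T' v') := by
        intro v'
        have h2 := run_emb hZ' hR' w [] P.1 v' hZP' (by simpa using hcl.2)
        have e0 : (some (P, v') : St α V' B) = emb B (P.1, v') := (emb_of P.1 v' P.2).symm
        rw [e0, h2.1, hv', emb_of Q₁ (T' v') hQB]
      rw [hrun]
      match θ' with
      | none =>
        constructor
        · intro h; exact h.elim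
        · intro h; cases h
      | some (P₁, v₁) =>
        constructor
        · rintro ⟨T₁', ⟨T₁, hT₁, hTv⟩, hall⟩
          have hTT : ∀ v', T₁' v' = T' v' ∧ P₁ = ⟨Q₁, hQB⟩ := by
            intro v'
            have h2 := (hR2 _ w (hCC P v w hc v') _).1 (hall v')
            rw [hrun' v'] at h2
            have h3 := Option.some.inj h2
            exact ⟨(congrArg Prod.snd h3).symm, (congrArg Prod.fst h3).symm⟩
          obtain ⟨v0⟩ := (inferInstance : Nonempty V')
          have hT' : T₁' = T' := funext fun v' => (hTT v').1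
          rw [hT'] at hT₁
          have hTe := hdet _ _ _ hT₁ hT
          rw [← hTv, hTe, (hTT v0).2]
        · intro h
          have h3 := Option.some.inj h
          refine ⟨T', ⟨T, hT, (congrArg Prod.snd h3)⟩, fun v' => ?_⟩
          have h4 := (hR2 _ w (hCC P v w hc v') (some (P₁, T' v'))).2
          apply h4
          have h5 : (⟨Q₁, hQB⟩ : {l : List α // l.length ≤ B}) = P₁ := congrArg Prod.fst h3
          rw [hrun' v', h5]

end Transfer

end Crest.Agent.R320.CutAut_600
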