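import Crest.Agent.R320.Star_903

/-!
Row 320, joint of #12748 (4): ABSTRACT CHAIN RULE => CUT AUTOMATON (helper600).

`Z Q = some (d, t)`: the text `Q` starts at a node of the chain, the next node is at distance `d`,
the zone map is `t : V → V`; it is certified exactly when `d + n` letters are read.
Automaton state: (text since the last node, value at this node); dead state `none` beyond length `B`.
`L P = some v`: the place at distance `|P|` behind the node is left-legal with label `v`.
`R r = some (e, c)`: `r` (of length `D`) starts right-legal: next node at distance `e`, value `c`.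
Main results: `run_eq` (the run behind a certified node depends only on the text behind this node and
the value), `sound_at`, `rc_succ` (scheme exact on a class => height `n + 1` from the uncut words).
-/

set_option autoImplicit false

namespace Crest.Agent.R320.CutAut_600

open Crest.Agent.R320.Star_903 Crest.Agent.R320.Hgt1_903

variable {α V : Type*}

/-- right-looking chain rule with zone maps, window `n`. -/
structure ZRule (n : ℕ) (Z : List α → Option (ℕ × (V → V))) : Prop where
  len : ∀ Q d t, Z Q = some (d, t) → 0 < d ∧ d + n ≤ Q.length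
  mono : ∀ Q X r, Z Q = some r → Z (Q ++ X) = some r
  sharp : ∀ Q d t, Z Q = some (d, t) → Z (Q.take (d + n)) = some (d, t)

/-- one letter. -/
def stp (Z : List α → Option (ℕ × (V → V))) (s : List α × V) (c : α) : List α × V :=
  match Z (s.1 ++ [c]) with
  | some (d, t) => ((s.1 ++ [c]).drop d, t s.2)
  | none => (s.1 ++ [c], s.2)

/-- the unbounded run. -/
def runs (Z : List α → Option (ℕ × (V → V))) (s : List α × V) (w : List α) : List α × V :=
  w.foldl (stp Z) s

section
variable {n : ℕ} {Z : List α → Option (ℕ × (V → V))}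

@[simp] theorem runs_nil (s : List α × V) : runs Z s [] = s := rfl

theorem runs_append (s : List α × V) (u w : List α) :
    runs Z s (u ++ w) = runs Z (runs Z s u) w := by
  unfold runs; rw [List.foldl_append]

theorem runs_cons (s : List α × V) (c : α) (w : List α) :
    runs Z s (c :: w) = runs Z (stp Z s c) w := rfl

theorem stp_none {P : List α} {v : V} {c : α} (h : Z (P ++ [c]) = none) :
    stp Z (P, v) c = (P ++ [c], v) := by
  unfold stp; simp only [h]

theorem stp_some {P : List α} {v : V} {c : α} {d : ℕ} {t : V → V}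
    (h : Z (P ++ [c]) = some (d, t)) :
    stp Z (P, v) c = ((P ++ [c]).drop d, t v) := by
  unfold stp; simp only [h]

theorem ZRule.none_prefix (hZ : ZRule n Z) {P r : List α} (h : Z (P ++ r) = none) : Z P = none := by
  cases hP : Z P with
  | none => rfl
  | some q => rw [hZ.mono P r q hP] at h; cases h

theorem ZRule.none_short (hZ : ZRule n Z) {P : List α} (h : P.length ≤ n) : Z P = none := by
  cases hP : Z P with
  | none => rfl
  | some q =>
    obtain ⟨d, t⟩ := q
    have := hZ.len P d t hP
    omega

/-- no node certified: the text is stored. -/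
theorem runs_none (hZ : ZRule n Z) : ∀ (r P : List α) (v : V), Z (P ++ r) = none →
    runs Z (P, v) r = (P ++ r, v) := by
  intro r
  induction r with
  | nil => intro P v _; simp
  | cons c r ih =>
    intro P v h
    have e : P ++ c :: r = (P ++ [c]) ++ r := by simp
    have h1 : Z (P ++ [c]) = none := hZ.none_prefix (r := r) (by rw [← e]; exact h)
    rw [runs_cons, stp_none h1, ih (P ++ [c]) v (by rw [← e]; exact h), e]

/-- a node is certified: the run forgets the text before the node. -/
theorem run_eq (hZ : ZRule n Z) {P r : List α} {v : V} {d : ℕ} {t : V → V}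
    (hP : Z P = none) (h : Z (P ++ r) = some (d, t)) :
    runs Z (P, v) r = runs Z ([], t v) ((P ++ r).drop d) := by
  have hlen := hZ.len _ d t h
  rw [List.length_append] at hlen
  have hPm : P.length < d + n := by
    by_contra hcon
    have hcon : d + n ≤ P.length := not_lt.1 hcon
    have h1 := hZ.sharp _ d t h
    rw [List.take_append_of_le_length hcon] at h1
    have h2 := hZ.mono _ (P.drop (d + n)) _ h1
    rw [List.take_append_drop, hP] at h2
    cases h2
  -- split r at the place where the node is certified
  obtain ⟨k, hk⟩ : ∃ k, k + 1 = d + n - P.length := ⟨d + n - P.length - 1, by omega⟩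
  have hkr : k < r.length := by omega
  obtain ⟨c, hc⟩ : ∃ c, r[k]? = some c := ⟨r[k], List.getElem?_eq_getElem hkr⟩
  have hr : r = r.take k ++ c :: r.drop (k + 1) := by
    conv_lhs => rw [← List.take_append_drop k r]
    congr 1
    rw [List.drop_eq_getElem_cons hkr]
    congr 1
    rw [List.getElem?_eq_getElem hkr] at hc
    exact Option.some.inj hc
  set r0 := r.take k with hr0
  set r2 := r.drop (k + 1) with hr2
  have hl0 : r0.length = k := by rw [hr0, List.length_take]; omega
  have hsplit : P ++ r = (P ++ r0 ++ [c]) ++ r2 := by rw [hr]; simp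
  have hlP : (P ++ r0 ++ [c]).length = d + n := by simp [hl0]; omega
  have hcert : Z (P ++ r0 ++ [c]) = some (d, t) := by
    have h1 := hZ.sharp _ d t h
    rw [hsplit, ← hlP, List.take_left] at h1
    exact h1
  have hnone : Z (P ++ r0) = none := by
    cases hq : Z (P ++ r0) with
    | none => rfl
    | some q =>
      obtain ⟨d', t'⟩ := q
      have h1 := hZ.mono _ [c] _ hq
      rw [hcert] at h1
      have h2 := hZ.len _ d' t' hq
      have h3 : d = d' := congrArg Prod.fst (Option.some.inj h1)
      rw [List.length_append, hl0] at h2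
      omega
  have hA : runs Z (P, v) (r0 ++ [c]) = ((P ++ r0 ++ [c]).drop d, t v) := by
    rw [runs_append, runs_none hZ r0 P v hnone, runs_cons, runs_nil, stp_some hcert]
  have hB : runs Z ([], t v) ((P ++ r0 ++ [c]).drop d) = ((P ++ r0 ++ [c]).drop d, t v) := by
    rw [runs_none hZ _ [] (t v) ?_, List.nil_append]
    rw [List.nil_append]
    apply hZ.none_short
    rw [List.length_drop, hlP]; omega
  have hr' : r = (r0 ++ [c]) ++ r2 := by rw [List.append_assoc]; exact hr
  have hd : (P ++ r).drop d = (P ++ r0 ++ [c]).drop d ++ r2 := by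
    rw [hsplit, List.drop_append_of_le_length (by rw [hlP]; omega)]
  rw [hd, runs_append, hB, ← hA, ← runs_append, ← hr']

theorem stp_Z_none (hZ : ZRule n Z) {P : List α} {v : V} {c : α} (hP : Z P = none) :
    Z (stp Z (P, v) c).1 = none := by
  cases h : Z (P ++ [c]) with
  | none => rw [stp_none h]; exact h
  | some q =>
    obtain ⟨d, t⟩ := q
    rw [stp_some h]
    have hlen := hZ.len _ d t h
    apply hZ.none_short
    rw [List.length_drop]
    by_contra hcon
    have hle : d + n ≤ P.length := by
      rw [List.length_append, List.length_singleton] at hcon hlen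
      omega
    have h1 := hZ.sharp _ d t h
    rw [List.take_append_of_le_length hle] at h1
    have h2 := hZ.mono _ (P.drop (d + n)) _ h1
    rw [List.take_append_drop, hP] at h2
    cases h2

theorem stp_suffix {P : List α} {v : V} {c : α} : (stp Z (P, v) c).1 <:+ P ++ [c] := by
  cases h : Z (P ++ [c]) with
  | none => rw [stp_none h]
  | some q => obtain ⟨d, t⟩ := q; rw [stp_some h]; exact List.drop_suffix _ _

end

/-! ### the finite automaton -/

/-- states: `none` is dead. -/
abbrev St (α V : Type*) (B : ℕ) := Option ({l : List α // l.length ≤ B} × V)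

instance {B : ℕ} [Finite α] [Finite V] : Finite (St α V B) := by
  have : Finite {l : List α // l.length ≤ B} := by
    have h : {l : List α | l.length ≤ B}.Finite := by
      have : {l : List α | l.length < B + 1}.Finite := List.finite_length_lt α (B + 1)
      exact this.subset fun l hl => Nat.lt_succ_of_le hl
    exact h.to_subtype
  infer_instance

/-- truncation to the finite state set. -/
def emb (B : ℕ) (s : List α × V) : St α V B :=
  if h : s.1.length ≤ B then some (⟨s.1, h⟩, s.2) else none

/-- the transition function. -/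
def dlt (Z : List α → Option (ℕ × (V → V))) (B : ℕ) : St α V B → α → St α V B
  | none, _ => none
  | some (P, v), c => emb B (stp Z (P.1, v) c)

/-- the class of words which may be read: texts in `RF`. -/
def Cls (Z : List α → Option (ℕ × (V → V))) (RF : List α → Prop) (B : ℕ) :
    St α V B → List α → Prop
  | none, _ => False
  | some (P, _), w => Z P.1 = none ∧ RF (P.1 ++ w)

/-- left-legal states. -/
def cutL (L : List α → Option V) (B : ℕ) : St α V B → Prop
  | none => False
  | some (P, v) => L P.1 = some v

/-- the start state at a node with value `c`. -/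
def st0 (B : ℕ) (c : V) : St α V B := some (⟨[], Nat.zero_le _⟩, c)

/-- right reading. -/
def rho (Z : List α → Option (ℕ × (V → V))) (R : List α → Option (ℕ × V)) (B : ℕ)
    (r : List α) : Option (St α V B) :=
  (R r).map fun q => run (dlt Z B) (st0 B q.2) (r.drop q.1)

/-- hypotheses on the class of texts: factor-closed, bounded zones. -/
structure RFc (Z : List α → Option (ℕ × (V → V))) (RF : List α → Prop) (B : ℕ) : Prop where
  pre : ∀ u v, RF (u ++ v) → RF u
  suf : ∀ u v, RF (u ++ v) → RF v
  bdd : ∀ Q, RF Q → B < Q.length → Z Q ≠ none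

section
variable {n : ℕ} {Z : List α → Option (ℕ × (V → V))} {RF : List α → Prop} {B : ℕ}

theorem emb_of (P : List α) (v : V) (h : P.length ≤ B) :
    emb B (P, v) = some (⟨P, h⟩, v) := by
  unfold emb; simp [h]

/-- the finite run is the unbounded run on the class; the class is kept. -/
theorem run_emb (hZ : ZRule n Z) (hR : RFc Z RF B) :
    ∀ (w u P : List α) (v : V), Z P = none → RF (P ++ (w ++ u)) →
      run (dlt Z B) (emb B (P, v)) w = emb B (runs Z (P, v) w) ∧
      Z (runs Z (P, v) w).1 = none ∧ RF ((runs Z (P, v) w).1 ++ u) ∧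
      (runs Z (P, v) w).1.length ≤ B := by
  intro w
  induction w with
  | nil =>
    intro u P v hP hF
    have hF' : RF (P ++ u) := by simpa using hF
    refine ⟨rfl, hP, hF', ?_⟩
    by_contra hcon
    exact hR.bdd P (hR.pre P u hF') (not_le.1 hcon) hP
  | cons c w ih =>
    intro u P v hP hF
    have hPB : P.length ≤ B := by
      by_contra hcon
      exact hR.bdd P (hR.pre P _ hF) (not_le.1 hcon) hP
    have hst : Z (stp Z (P, v) c).1 = none := stp_Z_none hZ hP
    have hF2 : RF ((stp Z (P, v) c).1 ++ (w ++ u)) := by
      obtain ⟨y, hy⟩ := (stp_suffix : (stp Z (P, v) c).1 <:+ P ++ [c])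
      refine hR.suf y _ ?_
      rw [← List.append_assoc, hy]
      have e : P ++ [c] ++ (w ++ u) = P ++ (c :: w ++ u) := by simp
      rw [e]; exact hF
    have h := ih u (stp Z (P, v) c).1 (stp Z (P, v) c).2 hst hF2
    have e1 : run (dlt Z B) (emb B (P, v)) (c :: w)
        = run (dlt Z B) (emb B (stp Z (P, v) c)) w := by
      rw [emb_of P v hPB]; rfl
    rw [e1, runs_cons]
    exact h

theorem cls_pre (hR : RFc Z RF B) (θ : St α V B) (u v : List α) (h : Cls Z RF B θ (u ++ v)) :
    Cls Z RF B θ u := by
  match θ, h with
  | some (P, x), h =>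
    exact ⟨h.1, hR.pre (P.1 ++ u) v (by rw [List.append_assoc]; exact h.2)⟩

theorem cls_suf (hZ : ZRule n Z) (hR : RFc Z RF B) (θ : St α V B) (u v : List α)
    (h : Cls Z RF B θ (u ++ v)) : Cls Z RF B (run (dlt Z B) θ u) v := by
  match θ, h with
  | some (P, x), h =>
    have h1 := run_emb hZ hR u v P.1 x h.1 h.2
    have e : (some (P, x) : St α V B) = emb B (P.1, x) := (emb_of P.1 x P.2).symm
    rw [e, h1.1, show runs Z (P.1, x) u = ((runs Z (P.1, x) u).1, (runs Z (P.1, x) u).2) from rfl,
      emb_of _ _ h1.2.2.2]
    exact ⟨h1.2.1, h1.2.2.1⟩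

/-- **soundness of one junction** from exactness of the scheme at this junction. -/
theorem sound_at (hZ : ZRule n Z) (hR : RFc Z RF B) {P : {l : List α // l.length ≤ B}} {v : V}
    {r : List α} {e : ℕ} {c : V} (hC : Cls Z RF B (some (P, v)) r)
    (_he : e ≤ r.length)
    (hex : ∃ t, Z (P.1 ++ r) = some (P.1.length + e, t) ∧ t v = c) :
    run (dlt Z B) (some (P, v)) r = run (dlt Z B) (st0 B c) (r.drop e) := by
  obtain ⟨t, ht, rfl⟩ := hex
  have h1 := (run_emb hZ hR r [] P.1 v hC.1 (by simpa using hC.2)).1
  have e0 : (some (P, v) : St α V B) = emb B (P.1, v) := (emb_of P.1 v P.2).symm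
  have hd : (P.1 ++ r).drop (P.1.length + e) = r.drop e := by
    rw [List.drop_append, List.drop_eq_nil_of_le (by omega), List.nil_append]
    congr 1; omega
  have hrF : RF ([] ++ (r.drop e ++ [])) := by
    rw [List.nil_append, List.append_nil]
    refine hR.suf (P.1 ++ r.take e) _ ?_
    rw [List.append_assoc, List.take_append_drop]; exact hC.2
  have h2 := (run_emb hZ hR (r.drop e) [] [] (t v) (hZ.none_short (Nat.zero_le _)) hrF).1
  have e1 : (st0 B (t v) : St α V B) = emb B ([], t v) := (emb_of [] (t v) (Nat.zero_le _)).symm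
  rw [e0, h1, e1, h2, run_eq hZ hC.1 ht, hd]

/-- **MAIN**: a scheme `(L, R)` exact on a class `C'` of readable words gives the step of
`Star_903.nested`. -/
theorem rc_succ [Finite α] [Finite V] {m : ℕ} (hZ : ZRule n Z) (hR : RFc Z RF B)
    (C' : St α V B → List α → Prop)
    (hC : ∀ θ w, C' θ w → Cls Z RF B θ w)
    (hpre : ∀ θ u v, C' θ (u ++ v) → C' θ u)
    (hsuf : ∀ θ u v, C' θ (u ++ v) → C' (run (dlt Z B) θ u) v)
    (L : List α → Option V) (R : List α → Option (ℕ × V)) (D : ℕ) (hD : 0 < D)
    (hRD : ∀ r e c, R r = some (e, c) → e ≤ r.length)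
    (exact' : ∀ (P : {l : List α // l.length ≤ B}) (v : V) (r : List α) (e : ℕ) (c : V),
      C' (some (P, v)) r → L P.1 = some v → r.length = D → R r = some (e, c) →
      ∃ t, Z (P.1 ++ r) = some (P.1.length + e, t) ∧ t v = c)
    (hunc : RC m (dlt Z B) (fun θ w => C' θ w ∧ Uncut (dlt Z B) (cutL L B) D (rho Z R B) θ w)) :
    RC (m + 1) (dlt Z B) C' := by
  refine nested (dlt Z B) C' hpre hsuf (cutL L B) D hD (rho Z R B) ?_ hunc
  intro θ r θ' hc hL hlen hρ
  match θ, hc, hL with
  | some (P, v), hc, hL =>
    unfold rho at hρ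
    cases hq : R r with
    | none => rw [hq] at hρ; cases hρ
    | some q =>
      obtain ⟨e, c⟩ := q
      rw [hq] at hρ
      have hρ' : run (dlt Z B) (st0 B c) (r.drop e) = θ' := Option.some.inj hρ
      rw [← hρ']
      exact sound_at hZ hR (hC _ _ hc) (hRD r e c hq) (exact' P v r e c hc hL hlen hq)
  | none, hc, hL => exact hL.elim

/-- **one star**: if every word of the class of length `≥ M` is cut, the class is computed at
height `1`. -/
theorem rc_one [Finite α] [Finite V] (hZ : ZRule n Z) (hR : RFc Z RF B)
    (C' : St α V B → List α → Prop)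
    (hC : ∀ θ w, C' θ w → Cls Z RF B θ w)
    (hpre : ∀ θ u v, C' θ (u ++ v) → C' θ u)
    (hsuf : ∀ θ u v, C' θ (u ++ v) → C' (run (dlt Z B) θ u) v)
    (L : List α → Option V) (R : List α → Option (ℕ × V)) (D M : ℕ) (hD : 0 < D)
    (hRD : ∀ r e c, R r = some (e, c) → e ≤ r.length)
    (exact' : ∀ (P : {l : List α // l.length ≤ B}) (v : V) (r : List α) (e : ℕ) (c : V),
      C' (some (P, v)) r → L P.1 = some v → r.length = D → R r = some (e, c) →
      ∃ t, Z (P.1 ++ r) = some (P.1.length + e, t) ∧ t v = c)
    (hcut : ∀ θ w, C' θ w → M < w.length →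
      ¬ Uncut (dlt Z B) (cutL L B) D (rho Z R B) θ w) :
    RC 1 (dlt Z B) C' := by
  refine rc_succ (m := 0) hZ hR C' hC hpre hsuf L R D hD hRD exact' ?_
  refine RC.bounded 0 M fun θ w hw => ?_
  by_contra hcon
  exact hcut θ w hw.1 (not_le.1 hcon) hw.2

end

end Crest.Agent.R320.CutAut_600
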