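import Mathlib

/-!
# Row 320: cut systems (glue between position lemmas and the semigroup lemma), helper439

A text is a list.  An *anchor* is a position; `nxt` gives the distance from an anchor at
position `0` of a word to the next anchor, `Z` is the token map of a zone, `LL` reads a word
which ends at a cut (distance back to the active anchor, token there), `RR` reads a word which
starts at a cut (distance to the next anchor, token there).
-/

set_option autoImplicit false

namespace Crest.Agent.R320.CutSys_439

universe u v

variable {α : Type u} {V : Type v}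

/-- data of a cut system, no exactness yet -/
structure Pre (α : Type u) (V : Type v) where
  nxt : List α → Option ℕ
  Z : List α → V → V
  LL : List α → Option (ℕ × V)
  RR : List α → Option (ℕ × V)
  nxt_le : ∀ {u k}, nxt u = some k → k ≤ u.length
  nxt_append : ∀ {u k} (w : List α), nxt u = some k → nxt (u ++ w) = some k
  LL_le : ∀ {u d v}, LL u = some (d, v) → d ≤ u.length
  LL_append : ∀ {u d v} (w : List α), LL u = some (d, v) → LL (w ++ u) = some (d, v)
  RR_le : ∀ {u e c}, RR u = some (e, c) → e ≤ u.length
  RR_append : ∀ {u e c} (w : List α), RR u = some (e, c) → RR (u ++ w) = some (e, c)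

variable (S : Pre α V)

/-- noisy run along the anchors of `u` from anchor `a`, token `c`, to anchor `b`, token `v`;
all zones satisfy `G` (`G zone token`). -/
inductive Chain (G : List α → V → Prop) (u : List α) : ℕ → V → ℕ → V → Prop
  | refl (a : ℕ) (c : V) : Chain G u a c a c
  | step {a : ℕ} {c : V} {b : ℕ} {v : V} (k : ℕ) (hk : S.nxt (u.drop a) = some k)
      (hG : G ((u.drop a).take k) c)
      (h : Chain G u (a + k) (S.Z ((u.drop a).take k) c) b v) : Chain G u a c b v

variable {S}

theorem Chain.mono {G H : List α → V → Prop} (hGH : ∀ z c, G z c → H z c) {u : List α} {a : ℕ}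
    {c : V} {b : ℕ} {v : V} (h : Chain S G u a c b v) : Chain S H u a c b v := by
  induction h with
  | refl a c => exact .refl a c
  | step k hk hG _ ih => exact .step k hk (hGH _ _ hG) ih

theorem Chain.trans {G : List α → V → Prop} {u : List α} {a : ℕ} {c : V} {b : ℕ} {v : V}
    {b' : ℕ} {v' : V} (h : Chain S G u a c b v) (h' : Chain S G u b v b' v') :
    Chain S G u a c b' v' := by
  induction h with
  | refl a c => exact h'
  | step k hk hG _ ih => exact .step k hk hG (ih h')

theorem Chain.le {G : List α → V → Prop} {u : List α} {a : ℕ} {c : V} {b : ℕ} {v : V}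
    (h : Chain S G u a c b v) : a ≤ b := by
  induction h with
  | refl a c => exact le_rfl
  | step k hk hG _ ih => omega

/-- longer text on the right -/
theorem Chain.append {G : List α → V → Prop} {u : List α} {a : ℕ} {c : V} {b : ℕ} {v : V}
    (h : Chain S G u a c b v) (hb : b ≤ u.length) (w : List α) :
    Chain S G (u ++ w) a c b v := by
  induction h with
  | refl a c => exact .refl a c
  | @step a c b v k hk hG hc ih =>
    have hle := hc.le
    have ha : a ≤ u.length := by omega
    have e : (u ++ w).drop a = u.drop a ++ w := by
      rw [List.drop_append_of_le_length ha]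
    have hk' := S.nxt_le hk
    have e2 : ((u ++ w).drop a).take k = (u.drop a).take k := by
      rw [e, List.take_append_of_le_length hk']
    refine .step k ?_ ?_ ?_
    · rw [e]; exact S.nxt_append w hk
    · rw [e2]; exact hG
    · rw [e2]; exact ih hb

/-- more text on the left -/
theorem Chain.shift {G : List α → V → Prop} {u : List α} {a : ℕ} {c : V} {b : ℕ} {v : V}
    (h : Chain S G u a c b v) (w : List α) :
    Chain S G (w ++ u) (w.length + a) c (w.length + b) v := by
  induction h with
  | refl a c => exact .refl _ c
  | @step a c b v k hk hG hc ih =>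
    have e : (w ++ u).drop (w.length + a) = u.drop a := by
      rw [List.drop_append, List.drop_of_length_le (by omega), List.nil_append]
      congr 1; omega
    refine .step k ?_ ?_ ?_
    · rw [e]; exact hk
    · rw [e]; exact hG
    · rw [e, Nat.add_assoc]; exact ih

/-- determinism: two runs from the same anchor and token are comparable; to the same anchor they
have the same token -/
theorem Chain.det {G H : List α → V → Prop} {u : List α} {a : ℕ} {c : V} {b : ℕ} {v v' : V}
    (hpos : ∀ u k, S.nxt u = some k → 0 < k)
    (h : Chain S G u a c b v) (h' : Chain S H u a c b v') : v = v' := by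
  induction h with
  | refl a c =>
    cases h' with
    | refl => rfl
    | step k hk hG hc =>
      have := hc.le
      have := hpos _ _ hk
      omega
  | @step a c b v k hk hG hc ih =>
    cases h' with
    | refl =>
      have := hc.le
      have := hpos _ _ hk
      omega
    | step k' hk' hG' hc' =>
      rw [hk] at hk'
      obtain rfl := Option.some.inj hk'
      exact ih hc'

variable (S)

/-- the FULL language of the system: from a right-legal place to a left-legal place, the noisy
run along the chain being consistent, all zones of the chain which lie inside satisfying `G`. -/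
def K (G : List α → V → Prop) (u : List α) : Prop :=
  ∃ e c d v, S.RR u = some (e, c) ∧ S.LL u = some (d, v) ∧ e + d ≤ u.length ∧
    Chain S G u e c (u.length - d) v

/-- exactness at a junction `x | y` -/
def ExactAt (x y : List α) (d : ℕ) (v : V) (e : ℕ) (c : V) : Prop :=
  S.nxt (x.drop (x.length - d) ++ y) = some (d + e) ∧
    c = S.Z (x.drop (x.length - d) ++ y.take e) v

variable {S}

theorem K.len_pos {G : List α → V → Prop} {u : List α} (h : K S G u)
    (hLL : ∀ u d v, S.LL u = some (d, v) → 0 < d) : u ≠ [] := by
  obtain ⟨e, c, d, v, -, h2, h3, -⟩ := h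
  have := hLL _ _ _ h2
  rintro rfl
  simp at h3
  omega

/-- **Closure.**  If the junction `u1 | u2` is exact and its zone satisfies `G`, then
`u1, u2 ∈ K` implies `u1 ++ u2 ∈ K`. -/
theorem K.mul {G : List α → V → Prop} {u1 u2 : List α} (h1 : K S G u1) (h2 : K S G u2)
    (hex : ∀ d v e c, S.LL u1 = some (d, v) → S.RR u2 = some (e, c) →
      ExactAt S u1 u2 d v e c ∧ G (u1.drop (u1.length - d) ++ u2.take e) v) :
    K S G (u1 ++ u2) := by
  obtain ⟨e1, c1, d1, v1, hR1, hL1, hl1, hc1⟩ := h1
  obtain ⟨e2, c2, d2, v2, hR2, hL2, hl2, hc2⟩ := h2
  obtain ⟨⟨hn, hZ⟩, hG⟩ := hex d1 v1 e2 c2 hL1 hR2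
  have hd1 := S.LL_le hL1
  have he2 := S.RR_le hR2
  refine ⟨e1, c1, d2, v2, S.RR_append u2 hR1, S.LL_append u1 hL2, ?_, ?_⟩
  · rw [List.length_append]; omega
  · have hA := hc1.append (by omega : u1.length - d1 ≤ u1.length) u2
    have hB := hc2.shift u1
    have e0 : (u1 ++ u2).drop (u1.length - d1) = u1.drop (u1.length - d1) ++ u2 := by
      rw [List.drop_append_of_le_length (by omega)]
    have e1' : (u1.drop (u1.length - d1) ++ u2).take (d1 + e2) =
        u1.drop (u1.length - d1) ++ u2.take e2 := by
      rw [List.take_append]
      have hlen : (u1.drop (u1.length - d1)).length = d1 := by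
        rw [List.length_drop]; omega
      rw [List.take_of_length_le (by omega), hlen]
      congr 2; omega
    have hstep : Chain S G (u1 ++ u2) (u1.length - d1) v1 ((u1 ++ u2).length - d2) v2 := by
      refine .step (d1 + e2) ?_ ?_ ?_
      · rw [e0]; exact hn
      · rw [e0, e1']; exact hG
      · rw [e0, e1', ← hZ]
        have ea : u1.length - d1 + (d1 + e2) = u1.length + e2 := by omega
        have eb : (u1 ++ u2).length - d2 = u1.length + (u2.length - d2) := by
          rw [List.length_append]; omega
        rw [ea, eb]; exact hB
    exact hA.trans hstep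

/-- **Sound systems**: exact at every junction, `G` trivial. -/
theorem K.mul_sound (hex : ∀ x y d v e c, S.LL x = some (d, v) → S.RR y = some (e, c) →
      ExactAt S x y d v e c) {u1 u2 : List α} (h1 : K S (fun _ _ => True) u1)
    (h2 : K S (fun _ _ => True) u2) : K S (fun _ _ => True) (u1 ++ u2) :=
  h1.mul h2 fun d v e c hL hR => ⟨hex _ _ d v e c hL hR, trivial⟩

end Crest.Agent.R320.CutSys_439
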