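import Crest.Agent.R320.Hk1_851

/-!
# Row 320: the nested star theorem for cut automata (helper974)

A finite automaton `run θ w = w.foldl δ θ`; a cut is a place where the state satisfies `CutL` and the
next `D` letters `r` have `ρ r = some θ'`; soundness: then the state after `r` is `θ'`.
If the words which are uncut (from the true state) are computable at level `n`, then all words of the
class are computable at level `n + 1`.
-/

set_option autoImplicit false

namespace Crest.Agent.R320.Cut_974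

open Crest.RegLang Crest.Agent.R320.Hk_851

universe u v

variable {α : Type u} {Th : Type v}

/-- the run of the automaton -/
def run (δ : Th → α → Th) (θ : Th) (w : List α) : Th := w.foldl δ θ

theorem run_append (δ : Th → α → Th) (θ : Th) (u w : List α) :
    run δ θ (u ++ w) = run δ (run δ θ u) w := by
  simp [run, List.foldl_append]

/-- `w` occurs in the class `C` behind a past whose true state is `θ` -/
def Pos (δ : Th → α → Th) (C : Language α) (θ0 θ : Th) (w : List α) : Prop :=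
  ∃ u, u ++ w ∈ C ∧ run δ θ0 u = θ

/-- data of a cut automaton on a prefix closed class `C` -/
structure CutA (C : Language α) (δ : Th → α → Th) (θ0 : Th) where
  CutL : Th → Prop
  D : ℕ
  hD : 0 < D
  ρ : List α → Option Th
  pref : ∀ u w : List α, u ++ w ∈ C → u ∈ C
  sound : ∀ θ θ' r, Pos δ C θ0 θ r → CutL θ → r.length = D → ρ r = some θ' → run δ θ r = θ'

namespace CutA

variable {C : Language α} {δ : Th → α → Th} {θ0 : Th}

theorem pos_pref (A : CutA C δ θ0) {θ : Th} {u w : List α} (h : Pos δ C θ0 θ (u ++ w)) :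
    Pos δ C θ0 θ u := by
  obtain ⟨x, hx, e⟩ := h
  exact ⟨x, A.pref _ w (by rwa [List.append_assoc]), e⟩

theorem pos_suff {θ : Th} {u w : List α} (h : Pos δ C θ0 θ (u ++ w)) :
    Pos δ C θ0 (run δ θ u) w := by
  obtain ⟨x, hx, e⟩ := h
  exact ⟨x ++ u, by rwa [List.append_assoc], by rw [run_append, e]⟩

/-- `w` has a cut when it is read from `θ` -/
def Cut (A : CutA C δ θ0) (θ : Th) (w : List α) : Prop :=
  ∃ p r s, w = p ++ (r ++ s) ∧ r.length = A.D ∧ A.CutL (run δ θ p) ∧ (A.ρ r).isSome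

theorem Cut.append {A : CutA C δ θ0} {θ : Th} {w : List α} (h : A.Cut θ w) (z : List α) :
    A.Cut θ (w ++ z) := by
  obtain ⟨p, r, s, rfl, h1, h2, h3⟩ := h
  exact ⟨p, r, s ++ z, by simp, h1, h2, h3⟩

/-- the first cut -/
theorem Cut.first {A : CutA C δ θ0} {θ : Th} {w : List α} (h : A.Cut θ w) :
    ∃ p r s, w = p ++ (r ++ s) ∧ r.length = A.D ∧ A.CutL (run δ θ p) ∧ (A.ρ r).isSome ∧
      ¬ A.Cut θ p := by
  classical
  have hex : ∃ k, ∃ p r s, w = p ++ (r ++ s) ∧ r.length = A.D ∧ A.CutL (run δ θ p) ∧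
      (A.ρ r).isSome ∧ p.length = k := by
    obtain ⟨p, r, s, h1, h2, h3, h4⟩ := h
    exact ⟨p.length, p, r, s, h1, h2, h3, h4, rfl⟩
  obtain ⟨p, r, s, h1, h2, h3, h4, hk⟩ := Nat.find_spec hex
  refine ⟨p, r, s, h1, h2, h3, h4, fun hp => ?_⟩
  obtain ⟨p', r', s', e, g2, g3, g4⟩ := hp
  have hlt : p'.length < Nat.find hex := by
    rw [← hk, e]
    simp only [List.length_append]
    have := A.hD
    omega
  refine Nat.find_min hex hlt ⟨p', r', s' ++ (r ++ s), ?_, g2, g3, g4, rfl⟩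
  rw [h1, e]; simp

end CutA

open CutA

/-- hypothesis: the uncut words are computable at level `n` -/
def UncutRC (n : ℕ) {C : Language α} {δ : Th → α → Th} {θ0 : Th} (A : CutA C δ θ0) : Prop :=
  ∀ θ θ' : Th, ∃ U : Language α, HL n U ∧
    ∀ w, Pos δ C θ0 θ w → ¬ A.Cut θ w → (w ∈ U ↔ run δ θ w = θ')

variable {C : Language α} {δ : Th → α → Th} {θ0 : Th}

/-- windows of length `D` with a property -/
def Win (D : ℕ) (p : List α → Prop) : Language α := {r | r.length = D ∧ p r}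

/-- a constant proposition as a language -/
def Cst (p : Prop) : Language α := {_x | p}

theorem hl_windows [Finite α] {n D : ℕ} (p : List α → Prop) :
    HL n (Win D p) :=
  HL.finite ((List.finite_length_eq α D).subset fun _ h => h.1)

theorem hl_cst {n : ℕ} (p : Prop) : HL n (Cst p : Language α) := HL.const p

/-- exact language of the words with a cut -/
theorem cutLang [Finite α] [Finite Th] {n : ℕ} (A : CutA C δ θ0) (hU : UncutRC n A) (θ : Th) :
    ∃ L : Language α, HL n L ∧ ∀ w, Pos δ C θ0 θ w → (w ∈ L ↔ A.Cut θ w) := by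
  choose U hU1 hU2 using hU
  refine ⟨{w | ∃ θ', w ∈ (Cst (A.CutL θ') ⊓ U θ θ') *
    ((Win A.D fun r => (A.ρ r).isSome = true) * (⊤ : Language α))},
    HL.iUnion fun θ' => (((hl_cst _).inf (hU1 θ θ')).mul ((hl_windows _).mul HL.top)), ?_⟩
  intro w hw
  constructor
  · rintro ⟨θ', h⟩
    obtain ⟨p, ⟨hp1, hp2⟩, y, hy, rfl⟩ := Language.mem_mul.1 h
    obtain ⟨r, ⟨hr1, hr2⟩, s, -, rfl⟩ := Language.mem_mul.1 hy
    by_cases hc : A.Cut θ p
    · exact hc.append _
    · have e := (hU2 θ θ' p (A.pos_pref hw) hc).1 hp2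
      exact ⟨p, r, s, rfl, hr1, by rw [e]; exact hp1, hr2⟩
  · intro h
    obtain ⟨p, r, s, rfl, h2, h3, h4, h5⟩ := h.first
    refine ⟨run δ θ p, Language.mem_mul.2 ⟨p, ⟨h3, ?_⟩, r ++ s, ?_, rfl⟩⟩
    · exact (hU2 θ _ p (A.pos_pref hw) h5).2 rfl
    · exact Language.mem_mul.2 ⟨r, ⟨h2, h4⟩, s, trivial, rfl⟩

/-- exact languages of the uncut words with prescribed end state -/
theorem uncutLang [Finite α] [Finite Th] {n : ℕ} (A : CutA C δ θ0) (hU : UncutRC n A) (θ θ' : Th) :
    ∃ L : Language α, HL n L ∧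
      ∀ w, Pos δ C θ0 θ w → (w ∈ L ↔ (¬ A.Cut θ w ∧ run δ θ w = θ')) := by
  obtain ⟨L, hL1, hL2⟩ := cutLang A hU θ
  obtain ⟨U, hU1, hU2⟩ := hU θ θ'
  refine ⟨U \ L, hU1.sdiff hL1, fun w hw => ?_⟩
  change (w ∈ U ∧ ¬ w ∈ L) ↔ _
  rw [hL2 w hw]
  constructor
  · rintro ⟨h1, h2⟩; exact ⟨h2, (hU2 w hw h2).1 h1⟩
  · rintro ⟨h1, h2⟩; exact ⟨(hU2 w hw h1).2 h2, h1⟩

/-- **NESTED STAR THEOREM.** -/
theorem nested [Finite α] [Finite Th] {n : ℕ} (A : CutA C δ θ0) (hU : UncutRC n A) (θF : Th) :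
    ∃ L : Language α, HL (n + 1) L ∧ ∀ w, w ∈ C → (w ∈ L ↔ run δ θ0 w = θF) := by
  classical
  choose E hE1 hE2 using fun θ θ' => uncutLang A hU θ θ'
  -- the words between two consecutive cuts
  let K : Language α := {k | ∃ θ', k ∈ ({k | ∃ θ'', k ∈ (Win A.D fun r => A.ρ r = some θ') *
      (Cst (A.CutL θ'') ⊓ E θ' θ'')} : Language α)}
  have hK : HL n K := HL.iUnion fun θ' => HL.iUnion fun θ'' =>
    (hl_windows _).mul ((hl_cst _).inf (hE1 θ' θ''))
  have memK : ∀ k, k ∈ K ↔ ∃ θ' θ'' r p, k = r ++ p ∧ r.length = A.D ∧ A.ρ r = some θ' ∧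
      A.CutL θ'' ∧ p ∈ E θ' θ'' := by
    intro k
    constructor
    · rintro ⟨θ', θ'', h⟩
      obtain ⟨r, ⟨h1, h2⟩, p, ⟨h3, h4⟩, rfl⟩ := Language.mem_mul.1 h
      exact ⟨θ', θ'', r, p, rfl, h1, h2, h3, h4⟩
    · rintro ⟨θ', θ'', r, p, rfl, h1, h2, h3, h4⟩
      exact ⟨θ', θ'', Language.mem_mul.2 ⟨r, ⟨h1, h2⟩, p, ⟨h3, h4⟩, rfl⟩⟩
  -- the last piece
  let Z : Language α := {k | ∃ θ', k ∈ (Win A.D fun r => A.ρ r = some θ') * E θ' θF}
  have hZ : HL n Z := HL.iUnion fun θ' => (hl_windows _).mul (hE1 θ' θF)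
  have memZ : ∀ k, k ∈ Z ↔ ∃ θ' r p, k = r ++ p ∧ r.length = A.D ∧ A.ρ r = some θ' ∧
      p ∈ E θ' θF := by
    intro k
    constructor
    · rintro ⟨θ', h⟩
      obtain ⟨r, ⟨h1, h2⟩, p, h4, rfl⟩ := Language.mem_mul.1 h
      exact ⟨θ', r, p, rfl, h1, h2, h4⟩
    · rintro ⟨θ', r, p, rfl, h1, h2, h4⟩
      exact ⟨θ', Language.mem_mul.2 ⟨r, ⟨h1, h2⟩, p, h4, rfl⟩⟩
  -- the first piece
  let Y : Language α := {k | ∃ θ, k ∈ Cst (A.CutL θ) ⊓ E θ0 θ}
  have hY : HL n Y := HL.iUnion fun θ => (hl_cst _).inf (hE1 θ0 θ)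
  refine ⟨E θ0 θF + Y * (KStar.kstar K * Z), ?_, ?_⟩
  · exact ((hE1 θ0 θF).mono (Nat.le_succ n)).add
      ((hY.mono (Nat.le_succ n)).mul (hK.star.mul (hZ.mono (Nat.le_succ n))))
  intro w hwC
  have hpos0 : Pos δ C θ0 θ0 w := ⟨[], by simpa using hwC, rfl⟩
  -- soundness of a chain of pieces
  have snd : ∀ (S : List (List α)) (z : List α) (θ : Th), (∀ k ∈ S, k ∈ K) → z ∈ Z → A.CutL θ →
      Pos δ C θ0 θ (S.flatten ++ z) → run δ θ (S.flatten ++ z) = θF := by
    intro S
    induction S with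
    | nil =>
      intro z θ _ hz hc hp
      obtain ⟨θ', r, p, rfl, h1, h2, h3⟩ := (memZ _).1 hz
      simp only [List.flatten_nil, List.nil_append] at hp ⊢
      have e := A.sound θ θ' r (A.pos_pref hp) hc h1 h2
      have hp2 : Pos δ C θ0 θ' p := by
        have := pos_suff hp; rwa [e] at this
      rw [run_append, e]
      exact ((hE2 θ' θF p hp2).1 h3).2
    | cons k S ih =>
      intro z θ hS hz hc hp
      obtain ⟨θ', θ'', r, p, rfl, h1, h2, h3, h4⟩ := (memK _).1 (hS k (by simp))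
      simp only [List.flatten_cons, List.append_assoc] at hp ⊢
      have e := A.sound θ θ' r (A.pos_pref hp) hc h1 h2
      have hp2 : Pos δ C θ0 θ' (p ++ (S.flatten ++ z)) := by
        have := pos_suff hp; rwa [e] at this
      have e2 : run δ θ' p = θ'' := ((hE2 θ' θ'' p (A.pos_pref hp2)).1 h4).2
      have hp3 : Pos δ C θ0 θ'' (S.flatten ++ z) := by
        have := pos_suff hp2; rwa [e2] at this
      rw [run_append, e, run_append, e2]
      exact ih z θ'' (fun k hk => hS k (by simp [hk])) hz h3 hp3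
  -- completeness behind a cut
  have cmp : ∀ (m : ℕ) (r s : List α) (θ' : Th), s.length ≤ m → r.length = A.D → A.ρ r = some θ' →
      Pos δ C θ0 θ' s → run δ θ' s = θF → r ++ s ∈ KStar.kstar K * Z := by
    intro m
    induction m with
    | zero =>
      intro r s θ' hm hr hρ hp hrun
      have hs : s = [] := List.length_eq_zero_iff.1 (Nat.le_zero.1 hm)
      have hnc : ¬ A.Cut θ' s := by
        rintro ⟨p, r', s', e, g1, -, -⟩
        rw [hs] at e
        have := congrArg List.length e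
        simp only [List.length_nil, List.length_append] at this
        have := A.hD
        omega
      refine Language.mem_mul.2 ⟨[], Language.nil_mem_kstar K, r ++ s, (memZ _).2
        ⟨θ', r, s, rfl, hr, hρ, (hE2 θ' θF s hp).2 ⟨hnc, hrun⟩⟩, rfl⟩
    | succ m ih =>
      intro r s θ' hm hr hρ hp hrun
      by_cases hc : A.Cut θ' s
      · obtain ⟨p, r', s', rfl, h2, h3, h4, h5⟩ := hc.first
        obtain ⟨θ3, h6⟩ := Option.isSome_iff_exists.1 h4
        have hp1 : Pos δ C θ0 (run δ θ' p) (r' ++ s') := pos_suff hp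
        have e := A.sound _ θ3 r' (A.pos_pref hp1) h3 h2 h6
        have hp2 : Pos δ C θ0 θ3 s' := by
          have := pos_suff hp1; rwa [e] at this
        have hrun' : run δ θ3 s' = θF := by
          rw [run_append, run_append, e] at hrun; exact hrun
        have hlen : s'.length ≤ m := by
          simp only [List.length_append] at hm
          have := A.hD
          omega
        obtain ⟨x, hx, y, hy, exy⟩ := Language.mem_mul.1 (ih r' s' θ3 hlen h2 h6 hp2 hrun')
        obtain ⟨S, rfl, hS⟩ := Language.mem_kstar.1 hx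
        refine Language.mem_mul.2 ⟨(r ++ p) ++ S.flatten, ?_, y, hy, ?_⟩
        · refine Language.mem_kstar.2 ⟨(r ++ p) :: S, by simp, ?_⟩
          intro k hk
          rcases List.mem_cons.1 hk with rfl | hk
          · exact (memK _).2 ⟨θ', run δ θ' p, r, p, rfl, hr, hρ, h3,
              (hE2 θ' _ p (A.pos_pref hp)).2 ⟨h5, rfl⟩⟩
          · exact hS k hk
        · simp only [List.append_assoc]
          rw [exy]
      · refine Language.mem_mul.2 ⟨[], Language.nil_mem_kstar K, r ++ s, (memZ _).2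
          ⟨θ', r, s, rfl, hr, hρ, (hE2 θ' θF s hp).2 ⟨hc, hrun⟩⟩, rfl⟩
  constructor
  · rintro (h | h)
    · exact ((hE2 θ0 θF w hpos0).1 h).2
    · obtain ⟨p, ⟨θ, hp1, hp2⟩, y, hy, rfl⟩ := Language.mem_mul.1 h
      obtain ⟨x, hx, z, hz, rfl⟩ := Language.mem_mul.1 hy
      obtain ⟨S, rfl, hS⟩ := Language.mem_kstar.1 hx
      have e : run δ θ0 p = θ := ((hE2 θ0 θ p (A.pos_pref hpos0)).1 hp2).2
      have hps : Pos δ C θ0 θ (S.flatten ++ z) := by
        have := pos_suff hpos0; rwa [e] at this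
      rw [run_append, e]
      exact snd S z θ hS hz hp1 hps
  · intro hrun
    by_cases hc : A.Cut θ0 w
    · right
      obtain ⟨p, r, s, rfl, h2, h3, h4, h5⟩ := hc.first
      obtain ⟨θ3, h6⟩ := Option.isSome_iff_exists.1 h4
      have hp1 : Pos δ C θ0 (run δ θ0 p) (r ++ s) := pos_suff hpos0
      have e := A.sound _ θ3 r (A.pos_pref hp1) h3 h2 h6
      have hp2 : Pos δ C θ0 θ3 s := by
        have := pos_suff hp1; rwa [e] at this
      have hrun' : run δ θ3 s = θF := by
        rw [run_append, run_append, e] at hrun; exact hrun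
      refine Language.mem_mul.2 ⟨p, ⟨run δ θ0 p, h3, (hE2 θ0 _ p (A.pos_pref hpos0)).2 ⟨h5, rfl⟩⟩,
        r ++ s, cmp s.length r s θ3 le_rfl h2 h6 hp2 hrun', rfl⟩
    · left
      exact (hE2 θ0 θF w hpos0).2 ⟨hc, hrun⟩

/-- level one: if uncut words are short, everything is computable with one star. -/
theorem uncut_zero [Finite α] (A : CutA C δ θ0) (M : ℕ)
    (h : ∀ θ w, Pos δ C θ0 θ w → M ≤ w.length → A.Cut θ w) : UncutRC 0 A := by
  intro θ θ'
  refine ⟨{w | w.length < M ∧ run δ θ w = θ'}, HL.finite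
    ((List.finite_length_lt α M).subset fun _ h => h.1), fun w hw hc => ?_⟩
  constructor
  · rintro ⟨-, h2⟩; exact h2
  · intro h2
    refine ⟨?_, h2⟩
    by_contra hlt
    exact hc (h θ w hw (not_lt.1 hlt))

theorem star_one [Finite α] [Finite Th] (A : CutA C δ θ0) (M : ℕ)
    (h : ∀ θ w, Pos δ C θ0 θ w → M ≤ w.length → A.Cut θ w) (θF : Th) :
    ∃ L : Language α, HL 1 L ∧ ∀ w, w ∈ C → (w ∈ L ↔ run δ θ0 w = θF) :=
  nested A (uncut_zero A M h) θF

end Crest.Agent.R320.Cut_974
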