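import Crest.Agent.R320.Main_621
import Crest.Agent.R320.ExactR_237

/-!
# Row 320: `Main_621.Data` from a gadget, part 1: zones, scheme A (helper962)
-/

set_option autoImplicit false

namespace Crest.Agent.R320.D962

open Crest.Agent.R320.Hk_851 Crest.Agent.R320.Star_621 Crest.Agent.R320.Two_621
open Crest.RegLang

/-- words ending at their first wall at a place `≥ q` -/
def FW {α : Type} (Wo : List α → Prop) (q : ℕ) : Language α :=
  {Y | q ≤ Y.length ∧ Wo Y ∧ ∀ t, q ≤ t → t < Y.length → ¬ Wo (Y.take t)}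

theorem fw_le {α : Type} {Wo : List α → Prop} {q : ℕ} {Y Y' x x' : List α}
    (h : Y ∈ FW Wo q) (h' : Y' ∈ FW Wo q) (e : Y ++ x = Y' ++ x') :
    Y'.length ≤ Y.length := by
  by_contra hlt
  push Not at hlt
  refine h'.2.2 Y.length h.1 hlt ?_
  have : Y'.take Y.length = Y := by
    have h1 : (Y' ++ x').take Y.length = Y'.take Y.length :=
      List.take_append_of_le_length hlt.le
    rw [← h1, ← e, List.take_left]
  rw [this]; exact h.2.1

theorem fw_unique {α : Type} {Wo : List α → Prop} {q : ℕ} {Y Y' x x' : List α}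
    (h : Y ∈ FW Wo q) (h' : Y' ∈ FW Wo q) (e : Y ++ x = Y' ++ x') : Y = Y' ∧ x = x' := by
  have hl : Y.length = Y'.length := le_antisymm (fw_le h' h e.symm) (fw_le h h' e)
  exact List.append_inj e hl

theorem fw_exists {α : Type} {Wo : List α → Prop} {q : ℕ} {w : List α} {t : ℕ}
    (ht : t ≤ w.length) (hq : q ≤ t) (hW : Wo (w.take t)) :
    ∃ Y R, w = Y ++ R ∧ Y ∈ FW Wo q ∧ Y.length ≤ t := by
  classical
  have hex : ∃ s, s ≤ w.length ∧ q ≤ s ∧ Wo (w.take s) := ⟨t, ht, hq, hW⟩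
  obtain ⟨h1, h2, h3⟩ := Nat.find_spec hex
  have hmin := fun s => Nat.find_min hex (m := s)
  set s := Nat.find hex with hs
  have hst : s ≤ t := Nat.find_min' hex ⟨ht, hq, hW⟩
  have hl : (w.take s).length = s := by rw [List.length_take]; omega
  refine ⟨w.take s, w.drop s, (List.take_append_drop s w).symm, ⟨by rw [hl]; exact h2, h3, ?_⟩,
    by rw [hl]; exact hst⟩
  intro t' h4 h5 h6
  rw [hl] at h5
  rw [List.take_take, min_eq_left h5.le] at h6
  exact hmin t' h5 ⟨by omega, h4, h6⟩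

/-- All data of scheme A. -/
structure Par (α S : Type) [Monoid S] where
  f : α → S
  Wo : List α → Prop
  (n N p0 q0 q1 : ℕ)
  hloc : ∀ P Q : List α, n ≤ Q.length → (Wo (P ++ Q) ↔ Wo Q)
  lam : List α → Option (Tok S)
  rho : List α → Option (Tok S)
  nu : List α → Tok S
  hlen : ∀ P v, lam P = some v → P.length ≤ N
  sound : ∀ P Q v b, lam P = some v → rho Q = some b →
    b = act v ((P ++ Q).map f).prod + nu (P ++ Q)
  hp0 : 0 < p0
  hq0 : n + p0 ≤ q0
  hq1 : n + p0 ≤ q1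
  Bad : ℕ → Prop
  complete : ∀ u : List α, 2 * N ≤ u.length → ¬ Bad u.length → ∀ v, ∃ P Q, P ++ Q = u ∧
    lam P = some v ∧ (rho Q).isSome

namespace Par

variable {α S : Type} [Monoid S] (D : Par α S)

def ph (w : List α) : S := (w.map D.f).prod

theorem ph_append (u v : List α) : D.ph (u ++ v) = D.ph u * D.ph v := by
  simp [ph]

def Y1 : Language α := FW D.Wo (D.N + D.q0)
def R1 : Language α := FW D.Wo D.q1

def Eb (Y : List α) : Prop :=
  ∃ t, t ≤ Y.length ∧ D.q0 ≤ t ∧ t < D.q0 + 2 * D.N ∧ D.Wo (Y.take t)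

def Cr (Y : List α) : Prop := D.Eb Y ∨ D.Bad Y.length

def Z : Language α :=
  {z | ∃ X Y R, z = X ++ (Y ++ R) ∧ X.length = D.p0 ∧ Y ∈ D.Y1 ∧ R ∈ D.R1}

def Zc : Language α :=
  {z | ∃ X Y R, z = X ++ (Y ++ R) ∧ X.length = D.p0 ∧ Y ∈ D.Y1 ∧ D.Cr Y ∧ R ∈ D.R1}

def Zn : Language α :=
  {z | ∃ X Y, z = X ++ Y ∧ X.length = D.p0 ∧ Y ∈ D.Y1 ∧ ¬ D.Cr Y}

open Classical in
noncomputable def dY (y : List α) : Tok S :=
  if h : ∃ p : List α × List α, y = p.1 ++ p.2 ∧ p.1 ∈ D.Y1 then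
    act (D.nu (Classical.choose h).1) (D.ph (Classical.choose h).2) else 0

theorem dY_eq {Y R : List α} (h : Y ∈ D.Y1) : D.dY (Y ++ R) = act (D.nu Y) (D.ph R) := by
  classical
  have hex : ∃ p : List α × List α, Y ++ R = p.1 ++ p.2 ∧ p.1 ∈ D.Y1 := ⟨(Y, R), rfl, h⟩
  unfold dY
  rw [dif_pos hex]
  obtain ⟨h1, h2⟩ := Classical.choose_spec hex
  obtain ⟨e1, e2⟩ := fw_unique h h2 h1
  rw [← e1, ← e2]

noncomputable def dA (z : List α) : Tok S := D.dY (z.drop D.p0)

def LA (v : Tok S) : Language α :=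
  {w | ∃ X P, w = X ++ P ∧ X.length = D.p0 ∧ D.lam P = some (act v (D.ph X))}

noncomputable def psi : List α → Tok S → Tok S := aff D.ph D.dA

def RA (τ : Tok S) : Language α :=
  {Q | ∀ v P, P ∈ D.LA v → P ++ Q ∈ D.Z ∧ D.psi (P ++ Q) v = τ}

theorem code : Code D.Z := by
  constructor
  · rintro ⟨X, Y, R, h, hX, -, -⟩
    have := D.hp0
    have h1 := congrArg List.length h
    simp only [List.length_nil, List.length_append] at h1
    omega
  · rintro z z' x x' ⟨X, Y, R, rfl, hX, hY, hR⟩ ⟨X', Y', R', rfl, hX', hY', hR'⟩ e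
    simp only [List.append_assoc] at e
    obtain ⟨e1, e2⟩ := List.append_inj e (by rw [hX, hX'])
    obtain ⟨e3, e4⟩ := fw_unique hY hY' e2
    obtain ⟨e5, e6⟩ := fw_unique hR hR' e4
    rw [e1, e3, e5]

theorem soundA : Sound D.Z D.psi D.LA D.RA := by
  refine ⟨?_, ?_⟩
  · rintro ω ⟨X, P, h, hX, -⟩
    have := D.hp0
    have h1 := congrArg List.length h
    simp only [List.length_nil, List.length_append] at h1
    omega
  · intro ω τ P Q z x y hP hQ hz e
    obtain ⟨h1, h2⟩ := hQ ω P hP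
    have h3 := D.code.2 (P ++ Q) z x y h1 hz e
    exact ⟨h3, by rw [← h3]; exact h2.symm⟩

theorem psi_eq {X Y R : List α} (hX : X.length = D.p0) (hY : Y ∈ D.Y1) (v : Tok S) :
    D.psi (X ++ (Y ++ R)) v = act (act (act v (D.ph X)) (D.ph Y) + D.nu Y) (D.ph R) := by
  unfold psi aff dA
  rw [D.ph_append, D.ph_append, ← hX, List.drop_left, D.dY_eq hY, act_add, act_mul, act_mul]

theorem Y1_transfer {P Q P' : List α} (hY : P ++ Q ∈ D.Y1) (hE : ¬ D.Eb (P ++ Q))
    (hP : P.length ≤ D.N) (hP' : P'.length ≤ D.N) : P' ++ Q ∈ D.Y1 := by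
  obtain ⟨h1, h2, h3⟩ := hY
  have hq := D.hq0
  have hlen : (P ++ Q).length = P.length + Q.length := List.length_append
  have hlen' : (P' ++ Q).length = P'.length + Q.length := List.length_append
  have h4 : D.q0 + 2 * D.N ≤ P.length + Q.length := by
    by_contra hc
    push Not at hc
    exact hE ⟨(P ++ Q).length, le_rfl, by omega, by omega, by rw [List.take_length]; exact h2⟩
  refine ⟨by omega, ?_, ?_⟩
  · rw [D.hloc _ _ (by omega)] at h2 ⊢
    exact h2
  · intro t ht1 ht2 hW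
    rw [hlen'] at ht2
    have e1 : (P' ++ Q).take t = P' ++ Q.take (t - P'.length) := by
      rw [List.take_append, List.take_of_length_le (by omega)]
    have hl : (Q.take (t - P'.length)).length = t - P'.length := by
      rw [List.length_take]; omega
    rw [e1, D.hloc _ _ (by omega)] at hW
    have e2 : (P ++ Q).take (P.length + (t - P'.length)) = P ++ Q.take (t - P'.length) := by
      rw [List.take_append, List.take_of_length_le (by omega)]
      congr 2
      omega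
    have hW' : D.Wo ((P ++ Q).take (P.length + (t - P'.length))) := by
      rw [e2, D.hloc _ _ (by omega)]; exact hW
    by_cases hc : P.length + (t - P'.length) < D.q0 + 2 * D.N
    · exact hE ⟨_, by omega, by omega, hc, hW'⟩
    · exact h3 _ (by omega) (by omega) hW'

theorem compA {z : List α} (hz : z ∈ D.Z) (hc : z ∉ D.Zc) (v : Tok S) :
    Cut D.LA D.RA v z := by
  obtain ⟨X, Y, R, rfl, hX, hY, hR⟩ := hz
  have hC : ¬ D.Cr Y := fun h => hc ⟨X, Y, R, rfl, hX, hY, h, hR⟩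
  have hE : ¬ D.Eb Y := fun h => hC (Or.inl h)
  have hB : ¬ D.Bad Y.length := fun h => hC (Or.inr h)
  have h2N : 2 * D.N ≤ Y.length := by
    by_contra hcc
    push Not at hcc
    exact hE ⟨Y.length, le_rfl, by have := hY.1; omega, by omega,
      by rw [List.take_length]; exact hY.2.1⟩
  obtain ⟨P, Q, e, hP, hQ⟩ := D.complete Y h2N hB (act v (D.ph X))
  obtain ⟨b, hb⟩ := Option.isSome_iff_exists.1 hQ
  refine ⟨X ++ P, Q ++ R, act b (D.ph R), ?_, ⟨X, P, rfl, hX, hP⟩, ?_⟩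
  · rw [← e]; simp
  · rintro v' w ⟨X', P', rfl, hX', hP'⟩
    have e3 : X' ++ P' ++ (Q ++ R) = X' ++ ((P' ++ Q) ++ R) := by simp
    have hY' : P' ++ Q ∈ D.Y1 := by
      subst e
      exact D.Y1_transfer hY hE (D.hlen _ _ hP) (D.hlen _ _ hP')
    rw [e3]
    refine ⟨⟨X', P' ++ Q, R, rfl, hX', hY', hR⟩, ?_⟩
    rw [D.psi_eq hX' hY']
    have := D.sound P' Q _ b hP' hb
    rw [this]
    rfl

theorem sub {z : List α} (hz : z ∈ D.Zc) : z ∈ D.Z := by
  obtain ⟨X, Y, R, e, hX, hY, -, hR⟩ := hz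
  exact ⟨X, Y, R, e, hX, hY, hR⟩

end Par

end Crest.Agent.R320.D962
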