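import Crest.Agent.R320.D1_962

/-!
# Row 320: `Main_621.Data` from a gadget, part 2: scheme B (helper962)
-/

set_option autoImplicit false

namespace Crest.Agent.R320.D962

open Crest.Agent.R320.Hk_851 Crest.Agent.R320.Star_621 Crest.Agent.R320.Two_621
open Crest.RegLang Crest.Agent.R320

abbrev TT (S : Type) : Type := (Function.End (Option (Tok S)))ᵐᵒᵖ

namespace Par

variable {α S : Type} [Monoid S] (D : Par α S)

/-- letters of scheme B -/
def f' (a : α) : TT S := MulOpposite.op (Option.map fun v => act v (D.f a))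

def CutY (v : Tok S) (y : List α) : Prop :=
  ∃ P Q, y = P ++ Q ∧ D.lam P = some v ∧ ∃ τ, Q ∈ D.RA τ

open Classical in
noncomputable def th (y : List α) : TT S :=
  MulOpposite.op fun o => o.bind fun v =>
    if D.CutY v y then none else some (act v (D.ph y) + D.dY y)

theorem pr_f' (X : List α) :
    ExactR_237.pr D.f' X = MulOpposite.op (Option.map fun v => act v (D.ph X)) := by
  induction X with
  | nil =>
    apply MulOpposite.unop_injective
    funext o
    show o = Option.map (fun v => act v (D.ph [])) o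
    cases o with
    | none => rfl
    | some v =>
      show some v = some (act v (D.ph []))
      have : D.ph ([] : List α) = 1 := by simp [ph]
      rw [this, act_one]
  | cons a X ih =>
    have e : ExactR_237.pr D.f' (a :: X) = D.f' a * ExactR_237.pr D.f' X := by
      simp [ExactR_237.pr]
    rw [e, ih]
    apply MulOpposite.unop_injective
    funext o
    show Option.map (fun v => act v (D.ph X)) (Option.map (fun v => act v (D.f a)) o)
      = Option.map (fun v => act v (D.ph (a :: X))) o
    cases o with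
    | none => rfl
    | some v =>
      show some (act (act v (D.f a)) (D.ph X)) = some (act v (D.ph (a :: X)))
      have : D.ph (a :: X) = D.f a * D.ph X := by simp [ph]
      rw [this, act_mul]

theorem cut_iff {X y : List α} (hX : X.length = D.p0) (v : Tok S) :
    Cut D.LA D.RA v (X ++ y) ↔ D.CutY (act v (D.ph X)) y := by
  constructor
  · rintro ⟨P, Q, τ, e, ⟨X', P', rfl, hX', hP'⟩, hQ⟩
    rw [List.append_assoc] at e
    obtain ⟨e1, e2⟩ := List.append_inj e (by rw [hX, hX'])
    subst e1
    exact ⟨P', Q, e2, hP', τ, hQ⟩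
  · rintro ⟨P, Q, rfl, hP, τ, hQ⟩
    exact ⟨X ++ P, Q, τ, by simp, ⟨X, P, rfl, hX, hP⟩, hQ⟩

theorem step_eq {X y : List α} (hX : X.length = D.p0) :
    stepA D.psi D.LA D.RA (X ++ y) = ExactR_237.pr D.f' X * D.th y := by
  classical
  rw [D.pr_f']
  apply MulOpposite.unop_injective
  funext o
  cases o with
  | none => rfl
  | some v =>
    show (if Cut D.LA D.RA v (X ++ y) then none else some (D.psi (X ++ y) v))
      = (if D.CutY (act v (D.ph X)) y then none
          else some (act (act v (D.ph X)) (D.ph y) + D.dY y))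
    have e : D.psi (X ++ y) v = act (act v (D.ph X)) (D.ph y) + D.dY y := by
      unfold psi aff dA
      rw [D.ph_append, ← hX, List.drop_left, act_mul]
    by_cases h : Cut D.LA D.RA v (X ++ y)
    · rw [if_pos h, if_pos ((D.cut_iff hX v).1 h)]
    · rw [if_neg h, if_neg (fun h' => h ((D.cut_iff hX v).2 h')), e]

end Par

open Classical in
/-- All data of scheme B. -/
structure ParB {α S : Type} [Monoid S] (D : Par α S) where
  (K C0 : ℕ)
  c : ℕ → ℕ
  lam : ℕ → List α → Option (Tok (TT S))
  rho : ℕ → List α → TT S → Option (Tok (TT S))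
  nu : List α → TT S → Tok (TT S)
  hc0 : ∀ k < K, 0 < c k
  hcp : ∀ k < K, c k ≤ D.p0
  hq0' : 2 * D.p0 ≤ D.q0
  sound : ∀ k < K, ∀ (P Q : List α) (y : TT S) (v b : Tok (TT S)), P.length = c k →
    lam k P = some v → rho k Q y = some b →
    b = act v (ExactR_237.pr D.f' (P ++ Q) * y) + nu (P ++ Q) y
  complete : ∀ (u : List α) (y : TT S) (v : Tok (TT S)), (∀ k < K, c k ≤ u.length) →
    ∃ I : Finset ℕ, 3 * C0 + 2 ≤ I.card ∧ ∀ k ∈ I, k < K ∧ lam k (u.take (c k)) = some v ∧
      (rho k (u.drop (c k)) y).isSome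
  golomb : ∀ i j k l, i < K → j < K → k < K → l < K → i ≠ j → k ≠ l →
    |((c i : ℤ) - c j) - (c k - c l)| ≤ 2 * D.N → i = k ∧ j = l
  spoil : ∀ T, (∀ k < K, c k ≤ T) →
    (((Finset.range K) ×ˢ (Finset.range K)).filter
      (fun ab : ℕ × ℕ => ab.1 ≠ ab.2 ∧ D.Bad (T + c ab.1 - c ab.2))).card ≤ C0
  sep : ∀ (P : List α) (d : ℕ), D.Wo P → 0 < d → d ≤ 2 * (D.q0 + D.q1 + 2 * D.N) + D.p0 →
    ¬ D.Wo (P.take (P.length - d))

namespace ParB

variable {α S : Type} [Monoid S] {D : Par α S} (B : ParB D)

def LB (v : Tok (TT S)) : Language α :=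
  {P | ∃ k < B.K, P.length = B.c k ∧ B.lam k P = some v}

noncomputable def dB (z : List α) : Tok (TT S) := B.nu (z.take D.p0) (D.th (z.drop D.p0))

noncomputable def psi : List α → Tok (TT S) → Tok (TT S) :=
  aff (stepA (aff D.ph D.dA) D.LA D.RA) B.dB

def RB (τ : Tok (TT S)) : Language α :=
  {Q | ∀ ω P, P ∈ B.LB ω → (P ++ Q ∈ D.Zc ∧ B.psi (P ++ Q) ω = τ) ∨
    ∃ y ∈ D.Zn, y <+: P ++ Q}

theorem soundB : Sound D.Zc B.psi B.LB B.RB := by
  refine ⟨?_, ?_⟩
  · rintro ω ⟨k, hk, h, -⟩
    have := B.hc0 k hk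
    simp only [List.length_nil] at h
    omega
  · intro ω τ P Q z x y hP hQ hz e
    rcases hQ ω P hP with ⟨h1, h2⟩ | ⟨y', ⟨X', Y', rfl, hX', hY', hC'⟩, r, hr⟩
    · have h3 := D.code.2 (P ++ Q) z x y (D.sub h1) (D.sub hz) e
      exact ⟨h3, by rw [← h3]; exact h2.symm⟩
    · obtain ⟨X, Y, R, rfl, hX, hY, hC, hR⟩ := hz
      rw [← hr] at e
      simp only [List.append_assoc] at e
      obtain ⟨e1, e2⟩ := List.append_inj e (by rw [hX, hX'])
      obtain ⟨e3, -⟩ := fw_unique hY' hY e2
      exact absurd (e3 ▸ hC) hC'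

theorem psi_eq {X y : List α} (hX : X.length = D.p0) (v : Tok (TT S)) :
    B.psi (X ++ y) v = act v (ExactR_237.pr D.f' X * D.th y) + B.nu X (D.th y) := by
  have h := D.step_eq (X := X) (y := y) hX
  have e1 : (X ++ y).take D.p0 = X := by rw [← hX, List.take_left]
  have e2 : (X ++ y).drop D.p0 = y := by rw [← hX, List.drop_left]
  show act v (stepA D.psi D.LA D.RA (X ++ y)) +
    B.nu ((X ++ y).take D.p0) (D.th ((X ++ y).drop D.p0)) = _
  rw [h, e1, e2]

include B in
theorem wall_z {X Y R : List α} (hX : X.length = D.p0) (hY : Y ∈ D.Y1) (hR : R ∈ D.R1)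
    {s : ℕ} (hs : s ≤ (X ++ (Y ++ R)).length) (hW : D.Wo ((X ++ (Y ++ R)).take s))
    (h1 : D.p0 + D.N + D.q0 ≤ s) :
    s = D.p0 + Y.length ∨ s = (X ++ (Y ++ R)).length := by
  have hq := D.hq0
  have hq1 := D.hq1
  have hl : (X ++ (Y ++ R)).length = D.p0 + (Y.length + R.length) := by
    rw [List.length_append, List.length_append, hX]
  have hY1 := hY.1
  by_contra hcon
  push Not at hcon
  obtain ⟨hc1, hc2⟩ := hcon
  rw [hl] at hs hc2
  by_cases h2 : s < D.p0 + Y.length
  · have e : (X ++ (Y ++ R)).take s = X ++ Y.take (s - D.p0) := by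
      rw [List.take_append, List.take_of_length_le (by omega), hX, List.take_append,
        show s - D.p0 - Y.length = 0 by omega, List.take_zero, List.append_nil]
    rw [e, D.hloc _ _ (by rw [List.length_take]; omega)] at hW
    exact hY.2.2 (s - D.p0) (by omega) (by omega) hW
  · by_cases h3 : D.q1 ≤ s - (D.p0 + Y.length)
    · have e : (X ++ (Y ++ R)).take s = X ++ (Y ++ R.take (s - (D.p0 + Y.length))) := by
        rw [List.take_append, List.take_of_length_le (by omega), hX, List.take_append,
          List.take_of_length_le (by omega), show s - D.p0 - Y.length = s - (D.p0 + Y.length) by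
            omega]
      have hlt : (R.take (s - (D.p0 + Y.length))).length = s - (D.p0 + Y.length) := by
        rw [List.length_take]; omega
      rw [e, D.hloc _ _ (by rw [List.length_append]; omega), D.hloc _ _ (by omega)] at hW
      exact hR.2.2 _ h3 (by omega) hW
    · have h4 := B.sep _ (s - (D.p0 + Y.length)) hW (by omega) (by omega)
      have e : ((X ++ (Y ++ R)).take s).take
          (((X ++ (Y ++ R)).take s).length - (s - (D.p0 + Y.length))) = X ++ Y := by
        rw [List.length_take, hl, List.take_take, show min (min s (D.p0 + (Y.length + R.length)) -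
          (s - (D.p0 + Y.length))) s = D.p0 + Y.length by omega, ← List.append_assoc,
          ← hX, ← List.length_append, List.take_left]
      rw [e, D.hloc _ _ (by omega)] at h4
      exact h4 hY.2.1

include B in
theorem region {z : List α} {s s' : ℕ} (hs : s ≤ z.length) (hs' : s' ≤ z.length)
    (hW : D.Wo (z.take s)) (hW' : D.Wo (z.take s'))
    (h1 : D.q0 ≤ s) (h2 : s ≤ 2 * D.p0 + D.q0 + 2 * D.N)
    (h1' : D.q0 ≤ s') (h2' : s' ≤ 2 * D.p0 + D.q0 + 2 * D.N) : s = s' := by
  have hq := D.hq0
  have key : ∀ s s' : ℕ, s ≤ z.length → s' ≤ z.length → D.Wo (z.take s) → D.Wo (z.take s') →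
      D.q0 ≤ s → s' ≤ 2 * D.p0 + D.q0 + 2 * D.N → ¬ s < s' := by
    intro s s' hs hs' hW hW' h1 h2 hlt
    have h4 := B.sep _ (s' - s) hW' (by omega) (by omega)
    have e : (z.take s').take ((z.take s').length - (s' - s)) = z.take s := by
      rw [List.length_take, List.take_take, show min (min s' z.length - (s' - s)) s' = s by omega]
    rw [e] at h4
    exact h4 hW
  have a := key s s' hs hs' hW hW' h1 h2'
  have b := key s' s hs' hs hW' hW h1' h2
  omega

end ParB

end Crest.Agent.R320.D962
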