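import Crest.Agent.R320.Shared_621
import Crest.Agent.R320.WallU_228

/-!
# Row 320: blocks between left-looking walls are star free (helper644)
-/

set_option autoImplicit false

namespace Crest.Agent.R320.D2_644

open Crest.Agent.R320.Hk_851 Crest.Agent.R320.Star_621 Crest.Agent.R320.FewWalls_228
  Crest.Agent.R320.WallU_228 Crest.RegLang

universe u

variable {α : Type u}

/-- words ending at the first wall at a place `≥ z0` -/
def Fst (Wo : List α → Prop) (z0 : ℕ) : Language α :=
  {w | z0 ≤ w.length ∧ Wo w ∧ ∀ t, z0 ≤ t → t < w.length → ¬ Wo (w.take t)}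

/-- blocks: the second wall at a place `≥ z0` -/
def Zn (Wo : List α → Prop) (z0 : ℕ) : Language α :=
  {w | ∃ g R, w = g ++ R ∧ g ∈ Fst Wo z0 ∧ R ≠ [] ∧ Wo w ∧
    ∀ t, g.length < t → t < w.length → ¬ Wo (w.take t)}

theorem fst_unique {Wo : List α → Prop} {z0 : ℕ} {g g' x x' : List α} (h : g ∈ Fst Wo z0)
    (h' : g' ∈ Fst Wo z0) (e : g ++ x = g' ++ x') : g = g' := by
  have key : ∀ g g' x x' : List α, g ∈ Fst Wo z0 → g' ∈ Fst Wo z0 → g ++ x = g' ++ x' →
      ¬ g.length < g'.length := by
    intro g g' x x' h h' e hl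
    have : g'.take g.length = g := by
      have h1 : (g' ++ x').take g.length = g'.take g.length :=
        List.take_append_of_le_length (by omega)
      rw [← h1, ← e, List.take_left]
    exact h'.2.2 g.length h.1 hl (by rw [this]; exact h.2.1)
  have h1 := key g g' x x' h h' e
  have h2 := key g' g x' x h' h e.symm
  exact (List.append_inj e (by omega)).1

theorem code (Wo : List α → Prop) (z0 : ℕ) : Code (Zn Wo z0) := by
  constructor
  · rintro ⟨g, R, e, _, hR, _⟩
    exact hR (List.append_eq_nil_iff.1 e.symm).2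
  · have key : ∀ z z' x x' : List α, z ∈ Zn Wo z0 → z' ∈ Zn Wo z0 → z ++ x = z' ++ x' →
      ¬ z.length < z'.length := by
      rintro z z' x x' ⟨g, R, rfl, hg, hR, hW, hn⟩ ⟨g', R', rfl, hg', hR', hW', hn'⟩ e hl
      have hgg : g = g' := fst_unique (x := R ++ x) (x' := R' ++ x') hg hg'
        (by simpa using e)
      subst hgg
      have h0 : 0 < R.length := List.length_pos_iff.2 hR
      have : (g ++ R').take (g ++ R).length = g ++ R := by
        have h1 : ((g ++ R') ++ x').take (g ++ R).length = (g ++ R').take (g ++ R).length :=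
          List.take_append_of_le_length (by omega)
        rw [← h1, ← e, List.take_left]
      exact hn' (g ++ R).length (by rw [List.length_append]; omega) hl (by rw [this]; exact hW)
    intro z z' x x' h h' e
    have h1 := key z z' x x' h h' e
    have h2 := key z' z x' x h' h e.symm
    exact (List.append_inj e (by omega)).1

/-- words with a proper prefix in `L` -/
def PP (L : Language α) : Language α := {w | ∃ v r, w = v ++ r ∧ v ∈ L ∧ r ≠ []}

theorem HL_PP {k : ℕ} {L : Language α} (h : HL k L) : HL k (PP L) := by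
  have h1 : HL k ({w : List α | w ≠ []} : Language α) := by
    refine (HL.compl (HL.one (k := k))).congr fun w => ?_
    constructor
    · intro hw h2; exact hw h2
    · intro hw h2; exact hw h2
  refine (h.mul h1).congr fun w => ?_
  constructor
  · rintro ⟨v, r, rfl, hv, hr⟩
    exact Language.mem_mul.2 ⟨v, hv, r, hr, rfl⟩
  · intro hw
    obtain ⟨v, hv, r, hr, rfl⟩ := Language.mem_mul.1 hw
    exact ⟨v, r, rfl, hv, hr⟩

theorem fst_iff {Wo : List α → Prop} {z0 : ℕ} (w : List α) :
    w ∈ Fst Wo z0 ↔ (w ∈ ({w | z0 ≤ w.length ∧ Wo w} : Language α) ∧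
      w ∉ PP ({w | z0 ≤ w.length ∧ Wo w} : Language α)) := by
  constructor
  · rintro ⟨h1, h2, h3⟩
    refine ⟨⟨h1, h2⟩, ?_⟩
    rintro ⟨v, r, rfl, ⟨hv1, hv2⟩, hr⟩
    have h0 : 0 < r.length := List.length_pos_iff.2 hr
    exact h3 v.length hv1 (by rw [List.length_append]; omega) (by rw [List.take_left]; exact hv2)
  · rintro ⟨⟨h1, h2⟩, h3⟩
    refine ⟨h1, h2, fun t ht htw hW => h3 ⟨w.take t, w.drop t, by simp, ⟨?_, hW⟩, ?_⟩⟩
    · rw [List.length_take]; omega
    · intro h4
      have := congrArg List.length h4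
      simp at this
      omega

theorem zn_iff {Wo : List α → Prop} {z0 : ℕ} (w : List α) :
    w ∈ Zn Wo z0 ↔ ((w ∈ ({w | z0 ≤ w.length ∧ Wo w} : Language α) ∧
      w ∈ PP ({w | z0 ≤ w.length ∧ Wo w} : Language α)) ∧
      w ∉ PP ({w | w ∈ ({w | z0 ≤ w.length ∧ Wo w} : Language α) ∧
        w ∈ PP ({w | z0 ≤ w.length ∧ Wo w} : Language α)} : Language α)) := by
  constructor
  · rintro ⟨g, R, rfl, hg, hR, hW, hn⟩
    have h0 : 0 < R.length := List.length_pos_iff.2 hR
    refine ⟨⟨⟨?_, hW⟩, ⟨g, R, rfl, ⟨hg.1, hg.2.1⟩, hR⟩⟩, ?_⟩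
    · have := hg.1; rw [List.length_append]; omega
    · rintro ⟨v, r, e, ⟨⟨hv1, hv2⟩, ⟨v', r', e', ⟨hv3, hv4⟩, hr'⟩⟩, hr⟩
      have h1 : 0 < r.length := List.length_pos_iff.2 hr
      have h2 : 0 < r'.length := List.length_pos_iff.2 hr'
      have hle : (g ++ R).length = v.length + r.length := by rw [e, List.length_append]
      have hle' : v.length = v'.length + r'.length := by rw [e', List.length_append]
      have t1 : (g ++ R).take v.length = v := by rw [e, List.take_left]
      have t2 : (g ++ R).take v'.length = v' := by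
        rw [e, e', List.append_assoc, List.take_left]
      have hv5 : ¬ g.length < v.length := fun hlt =>
        hn v.length hlt (by omega) (by rw [t1]; exact hv2)
      have t3 : g.take v'.length = v' := by
        have h9 : (g ++ R).take v'.length = g.take v'.length :=
          List.take_append_of_le_length (by omega)
        rw [← h9]; exact t2
      exact hg.2.2 v'.length hv3 (by omega) (by rw [t3]; exact hv4)
  · classical
    rintro ⟨⟨⟨h1, h2⟩, ⟨v, r, rfl, ⟨hv1, hv2⟩, hr⟩⟩, h3⟩
    have hex : ∃ t, z0 ≤ t ∧ t < (v ++ r).length ∧ Wo ((v ++ r).take t) :=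
      ⟨v.length, hv1, by
        have : 0 < r.length := List.length_pos_iff.2 hr
        rw [List.length_append]; omega, by rw [List.take_left]; exact hv2⟩
    obtain ⟨a1, a2, a3⟩ := Nat.find_spec hex
    set t0 := Nat.find hex with ht0
    have hlt : ((v ++ r).take t0).length = t0 := by rw [List.length_take]; omega
    refine ⟨(v ++ r).take t0, (v ++ r).drop t0, by simp, ⟨by omega, a3, ?_⟩, ?_, h2, ?_⟩
    · intro t ht htt hW
      rw [hlt] at htt
      rw [List.take_take, Nat.min_eq_left (by omega)] at hW
      exact Nat.find_min hex htt ⟨ht, by omega, hW⟩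
    · intro h4
      have := congrArg List.length h4
      rw [List.length_drop] at this
      simp at this
      rw [List.length_append] at a2
      omega
    · intro t ht htt hW
      rw [hlt] at ht
      refine h3 ⟨(v ++ r).take t, (v ++ r).drop t, by simp, ⟨⟨?_, hW⟩,
        ⟨(v ++ r).take t0, ((v ++ r).take t).drop t0, ?_, ⟨by omega, a3⟩, ?_⟩⟩, ?_⟩
      · rw [List.length_take]; omega
      · have : ((v ++ r).take t).take t0 = (v ++ r).take t0 := by
          rw [List.take_take, Nat.min_eq_left (by omega)]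
        rw [← this, List.take_append_drop]
      · intro h4
        have := congrArg List.length h4
        rw [List.length_drop, List.length_take] at this
        simp only [List.length_nil] at this
        omega
      · intro h4
        have := congrArg List.length h4
        rw [List.length_drop] at this
        simp only [List.length_nil] at this
        omega

theorem HL_fst {k : ℕ} [Finite α] {Wo : List α → Prop} {z0 : ℕ}
    (hW : HL k ({w | Wo w} : Language α)) : HL k (Fst Wo z0) := by
  have h0 : HL k ({w | z0 ≤ w.length ∧ Wo w} : Language α) := HL.setOf_and (HL.length_ge z0) hW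
  exact (HL.setOf_and (p := fun w => w ∈ ({w | z0 ≤ w.length ∧ Wo w} : Language α)) h0
    (HL.setOf_not (HL_PP h0))).congr fun w => fst_iff w

theorem HL_zn {k : ℕ} [Finite α] {Wo : List α → Prop} {z0 : ℕ}
    (hW : HL k ({w | Wo w} : Language α)) : HL k (Zn Wo z0) := by
  have h0 : HL k ({w | z0 ≤ w.length ∧ Wo w} : Language α) := HL.setOf_and (HL.length_ge z0) hW
  have h1 : HL k ({w | w ∈ ({w | z0 ≤ w.length ∧ Wo w} : Language α) ∧
        w ∈ PP ({w | z0 ≤ w.length ∧ Wo w} : Language α)} : Language α) :=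
    HL.setOf_and (p := fun w => w ∈ ({w | z0 ≤ w.length ∧ Wo w} : Language α)) h0 (HL_PP h0)
  exact (HL.setOf_and h1 (HL.setOf_not (HL_PP h1))).congr fun w => zn_iff w

/-- the walls `Wo n S` are star free -/
theorem HL_wo {k : ℕ} [Finite α] {n : ℕ} {S : Set (List α)} :
    HL k ({w | Wo n S w} : Language α) := by
  have hfin : ({s | s.length ≤ n ∧ s.length = n ∧ s ∈ S} : Set (List α)).Finite :=
    (List.finite_length_le α n).subset fun s hs => hs.1
  refine (HL.suffix (HL.finite hfin)).congr fun w => ?_
  constructor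
  · rintro ⟨h1, h2⟩
    refine ⟨w.drop (w.length - n), ⟨?_, ?_, h2⟩, List.drop_suffix _ _⟩
    · rw [List.length_drop]; omega
    · rw [List.length_drop]; omega
  · rintro ⟨s, ⟨-, hs1, hs2⟩, ⟨p, rfl⟩⟩
    refine ⟨by rw [List.length_append]; omega, ?_⟩
    have : (p ++ s).length - n = p.length := by rw [List.length_append]; omega
    rw [this, List.drop_left]
    exact hs2

theorem nw_le {n : ℕ} {S : Set (List α)} (w : List α) (m : ℕ)
    (h : ∀ x y, m ≤ x → x < y → Wl n S w x → Wl n S w y → False) : nw n S w ≤ m + 1 := by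
  classical
  unfold nw
  have hsub : (Finset.range (w.length + 1)).filter (fun x => Wl n S w x) ⊆
      Finset.range m ∪ ((Finset.range (w.length + 1)).filter (fun x => Wl n S w x ∧ m ≤ x)) := by
    intro x hx
    rw [Finset.mem_filter] at hx
    rw [Finset.mem_union, Finset.mem_range, Finset.mem_filter]
    by_cases hm : x < m
    · exact Or.inl hm
    · exact Or.inr ⟨hx.1, hx.2, by omega⟩
  have hc : ((Finset.range (w.length + 1)).filter (fun x => Wl n S w x ∧ m ≤ x)).card ≤ 1 := by
    rw [Finset.card_le_one]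
    intro x hx y hy
    rw [Finset.mem_filter] at hx hy
    rcases lt_trichotomy x y with h1 | h1 | h1
    · exact (h x y hx.2.2 h1 hx.2.1 hy.2.1).elim
    · exact h1
    · exact (h y x hy.2.2 h1 hy.2.1 hx.2.1).elim
  calc _ ≤ _ := Finset.card_le_card hsub
    _ ≤ _ := Finset.card_union_le _ _
    _ ≤ m + 1 := by rw [Finset.card_range]; omega

theorem nw_fst {n : ℕ} {S : Set (List α)} {z0 : ℕ} {g : List α}
    (hg : g ∈ Fst (Wo n S) z0) (B : ℕ) (hB : B ≤ g.length) : nw n S (g.drop B) ≤ z0 + 1 := by
  refine nw_le _ _ fun x y hx hxy h1 h2 => ?_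
  rw [wl_drop hB] at h1 h2
  obtain ⟨a1, a2⟩ := wo_take.1 h1
  obtain ⟨b1, b2⟩ := wo_take.1 h2
  exact hg.2.2 (B + x + n) (by omega) (by omega) a2

theorem nw_gap {n : ℕ} (hn : 0 < n) {S : Set (List α)} {g R : List α}
    (h : ∀ t, g.length < t → t < (g ++ R).length → ¬ Wo n S ((g ++ R).take t)) :
    nw n S R ≤ 1 := by
  refine nw_le _ 0 fun x y hx hxy h1 h2 => ?_
  have e : (g ++ R).drop g.length = R := List.drop_left
  have hB : g.length ≤ (g ++ R).length := by rw [List.length_append]; omega
  rw [← e, wl_drop hB] at h1 h2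
  obtain ⟨a1, a2⟩ := wo_take.1 h1
  obtain ⟨b1, b2⟩ := wo_take.1 h2
  exact h (g.length + x + n) (by omega) (by omega) a2

theorem nw_rest {n : ℕ} {S : Set (List α)} {z0 : ℕ} {w : List α}
    (h : ∀ z ∈ Zn (Wo n S) z0, ¬ z <+: w) : nw n S w ≤ z0 + 1 := by
  classical
  refine nw_le _ _ fun x y hx hxy h1 h2 => ?_
  obtain ⟨a1, a2⟩ := wo_take.1 h1
  obtain ⟨b1, b2⟩ := wo_take.1 h2
  have hex : ∃ t, (z0 ≤ t ∧ t ≤ w.length ∧ Wo n S (w.take t)) ∧
      ∃ s, z0 ≤ s ∧ s < t ∧ Wo n S (w.take s) :=
    ⟨y + n, ⟨by omega, by omega, b2⟩, x + n, by omega, by omega, a2⟩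
  obtain ⟨⟨c1, c2, c3⟩, s, c4, c5, c6⟩ := Nat.find_spec hex
  set t := Nat.find hex with ht
  refine h (w.take t) ?_ (List.take_prefix _ _)
  have hl : (w.take t).length = t := by rw [List.length_take]; omega
  rw [zn_iff]
  refine ⟨⟨⟨by omega, c3⟩, ⟨w.take s, (w.take t).drop s, ?_, ⟨?_, c6⟩, ?_⟩⟩, ?_⟩
  · have : (w.take t).take s = w.take s := by rw [List.take_take, Nat.min_eq_left (by omega)]
    rw [← this, List.take_append_drop]
  · rw [List.length_take]; omega
  · intro h4
    have := congrArg List.length h4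
    rw [List.length_drop, hl] at this
    simp only [List.length_nil] at this
    omega
  · rintro ⟨v, r, e, ⟨⟨hv1, hv2⟩, ⟨v', r', e', ⟨hv3, hv4⟩, hr'⟩⟩, hr⟩
    have h5 : 0 < r.length := List.length_pos_iff.2 hr
    have h6 : 0 < r'.length := List.length_pos_iff.2 hr'
    have hle : (w.take t).length = v.length + r.length := by rw [e, List.length_append]
    have hle' : v.length = v'.length + r'.length := by rw [e', List.length_append]
    have t1 : w.take v.length = v := by
      have : (w.take t).take v.length = w.take v.length := by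
        rw [List.take_take, Nat.min_eq_left (by omega)]
      rw [← this, e, List.take_left]
    have t2 : w.take v'.length = v' := by
      have : (w.take t).take v'.length = w.take v'.length := by
        rw [List.take_take, Nat.min_eq_left (by omega)]
      rw [← this, e, e', List.append_assoc, List.take_left]
    exact Nat.find_min hex (m := v.length) (by omega)
      ⟨⟨hv1, by omega, by rw [t1]; exact hv2⟩, v'.length, hv3, by omega, by rw [t2]; exact hv4⟩

end Crest.Agent.R320.D2_644
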