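import Crest.Agent.R320.D2a_644
import Crest.Agent.R320.ExactU_815

/-!
# Row 320: zone map and height one facts of the block scheme (helper644)
-/

set_option autoImplicit false

namespace Crest.Agent.R320.D2_644

open Crest.Agent.R320.Hk_851 Crest.Agent.R320.Star_621 Crest.Agent.R320.FewWalls_228
  Crest.Agent.R320.WallU_228 Crest.RegLang Crest.Agent.R320.Two_621

universe u

variable {α S : Type u} [Monoid S]

/-- product -/
abbrev ph (f : α → S) (w : List α) : S := (w.map f).prod

theorem ph_append (f : α → S) (u v : List α) : ph f (u ++ v) = ph f u * ph f v := by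
  simp [ph]

/-- the walls of 228 with values -/
theorem walls644 (α : Type u) [Finite α] (W : ℕ) :
    ∃ (n : ℕ) (SS : Set (List α)), 0 < n ∧
      (∀ (P : List α) (d : ℕ), Wo n SS P → 0 < d → d ≤ W → ¬ Wo n SS (P.take (P.length - d))) ∧
      (∀ (r : ℕ) (M : Type u) [Monoid M] [Finite M] (φ : α → M) (s : M),
        HL 1 ({w | nw n SS w ≤ r ∧ (w.map φ).prod = s} : Language α)) := by
  obtain ⟨n, c, P, S, hn, hP, hS, hsep, hper⟩ :=
    Crest.Agent.R320.Mk263.marker (α := α) (W + 1) (by omega)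
  refine ⟨n, S, hn, ?_, fun r M _ _ φ s =>
    Crest.Agent.R320.FewVal_228.HL_few_value hn hP hper r φ s⟩
  intro Q d hQ hd hdW hT
  obtain ⟨h1, h2⟩ := hQ
  obtain ⟨h3, h4⟩ := hT
  have hl : (Q.take (Q.length - d)).length = Q.length - d := by rw [List.length_take]; omega
  rw [hl] at h3 h4
  rw [List.drop_take] at h4
  have e2 : Q.length - d - (Q.length - d - n) = n := by omega
  rw [e2] at h4
  have h5 : (Q.drop (Q.length - n)).take n ∈ S := by
    rw [List.take_of_length_le (by rw [List.length_drop]; omega)]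
    exact h2
  have := hsep Q (Q.length - d - n) (Q.length - n) (by omega) (by omega) h4 h5
  omega

/-- the zone map on the decomposition -/
def bl (f : α → S) (nu2 nu1 : List α → Tok S) (v : Tok S) (X Y R : List α) : Tok S :=
  act (act (act v (ph f X) + nu2 X) (ph f Y) + nu1 Y) (ph f R)

open Classical in
/-- the constant part of the zone map -/
noncomputable def dd (Wo : List α → Prop) (z0 p0 : ℕ) (f : α → S) (nu2 nu1 : List α → Tok S)
    (z : List α) : Tok S :=
  if h : ∃ g : List α, g ∈ Fst Wo z0 ∧ g <+: z then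
    act (act (nu2 (h.choose.take p0)) (ph f (h.choose.drop p0)) + nu1 (h.choose.drop p0))
      (ph f (z.drop h.choose.length))
  else 0

theorem aff_dd {Wo : List α → Prop} {z0 p0 : ℕ} {f : α → S} {nu2 nu1 : List α → Tok S}
    {g : List α} (hg : g ∈ Fst Wo z0) (R : List α) (v : Tok S) :
    aff (ph f) (dd Wo z0 p0 f nu2 nu1) (g ++ R) v
      = bl f nu2 nu1 v (g.take p0) (g.drop p0) R := by
  classical
  have h : ∃ g' : List α, g' ∈ Fst Wo z0 ∧ g' <+: g ++ R := ⟨g, hg, List.prefix_append _ _⟩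
  have hgg : h.choose = g := by
    obtain ⟨h1, r, h2⟩ := h.choose_spec
    exact fst_unique (x := r) (x' := R) h1 hg h2
  have hd : dd Wo z0 p0 f nu2 nu1 (g ++ R) =
      act (act (nu2 (g.take p0)) (ph f (g.drop p0)) + nu1 (g.drop p0)) (ph f R) := by
    unfold dd
    rw [dif_pos h, hgg, List.drop_left]
  unfold aff bl
  rw [hd]
  have e : ph f (g ++ R) = ph f (g.take p0) * ph f (g.drop p0) * ph f R := by
    rw [ph_append, ← ph_append f (g.take p0), List.take_append_drop]
  rw [e]
  simp only [act_add, act_mul, add_assoc]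

/-- letters with length -/
def fl (f : α → S) (M : ℕ) : α → S × Multiplicative (ULift.{u} (ZMod M)) :=
  fun a => (f a, Multiplicative.ofAdd ⟨1⟩)

theorem fl_prod (f : α → S) (M : ℕ) (w : List α) :
    (w.map (fl f M)).prod = (ph f w, Multiplicative.ofAdd ⟨(w.length : ZMod M)⟩) := by
  induction w with
  | nil => simp [ph, fl]; rfl
  | cons a w ih =>
    rw [List.map_cons, List.prod_cons, ih]
    refine Prod.ext ?_ ?_
    · simp [fl, ph]
    · show Multiplicative.ofAdd (⟨1⟩ : ULift (ZMod M)) * Multiplicative.ofAdd ⟨(w.length : ZMod M)⟩ = _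
      rw [← ofAdd_add]
      congr 1
      apply ULift.ext
      simp [add_comm]

section HLs

variable [Finite α] [Finite S] {n : ℕ} (hn : 0 < n) {SS : Set (List α)} {z0 p0 : ℕ}
  (hval : ∀ (r : ℕ) (M : Type u) [Monoid M] [Finite M] (φ : α → M) (s : M),
    HL 1 ({w | nw n SS w ≤ r ∧ (w.map φ).prod = s} : Language α))

include hval

theorem HL_class (f : α → S) (M : ℕ) [NeZero M] (B : ℕ) (hB : B ≤ z0) (x : List α)
    (hx : x.length = B) (s : S) (j : ZMod M) :
    HL 1 ({g | g ∈ Fst (Wo n SS) z0 ∧ g.take B = x ∧ ph f (g.drop B) = s ∧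
      ((g.drop B).length : ZMod M) = j} : Language α) := by
  have h1 : HL 1 ({w | nw n SS w ≤ z0 + 1 ∧
      (w.map (fl f M)).prod = (s, Multiplicative.ofAdd ⟨j⟩)} : Language α) := hval _ _ _ _
  have h2 := HL.setOf_and (p := fun w => w ∈ Fst (Wo n SS) z0) (HL_fst (k := 1) HL_wo)
    ((HL.word (k := 1) x).mul h1)
  refine h2.congr fun w => ?_
  constructor
  · rintro ⟨hw, h3, h4, h5⟩
    refine ⟨hw, Language.mem_mul.2 ⟨x, rfl, w.drop B, ⟨nw_fst hw B ?_, ?_⟩, ?_⟩⟩
    · exact le_trans hB hw.1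
    · rw [fl_prod, h4, h5]
    · rw [← h3, List.take_append_drop]
  · rintro ⟨hw, h3⟩
    obtain ⟨x', hx', r, ⟨hr1, hr2⟩, rfl⟩ := Language.mem_mul.1 h3
    have hx'' : x' = x := hx'
    subst hx''
    rw [fl_prod] at hr2
    have e1 : (x' ++ r).drop B = r := by rw [← hx, List.drop_left]
    have e2 : (x' ++ r).take B = x' := by rw [← hx, List.take_left]
    refine ⟨hw, e2, ?_, ?_⟩
    · rw [e1]; exact (Prod.mk.inj hr2).1
    · rw [e1]
      have := (Prod.mk.inj hr2).2
      exact congrArg ULift.down (Multiplicative.ofAdd.injective this)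

include hn

theorem HL_XT (f : α → S) (nu2 nu1 : List α → Tok S) (M A : ℕ) (hM : 0 < M)
    (hA : p0 + A ≤ z0)
    (nuF : ∀ Q Q' : List α, A ≤ Q.length → A ≤ Q'.length → Q.take A = Q'.take A →
      Q.length % M = Q'.length % M → ph f (Q.drop A) = ph f (Q'.drop A) → nu1 Q = nu1 Q')
    (v t : Tok S) :
    HL 1 ({z | z ∈ Zn (Wo n SS) z0 ∧
      aff (ph f) (dd (Wo n SS) z0 p0 f nu2 nu1) z v = t} : Language α) := by
  classical
  haveI : NeZero M := ⟨by omega⟩
  let B := p0 + A
  let C : (({x : List α // x.length = B} × S) × ZMod M) → Language α := fun i =>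
    {g | g ∈ Fst (Wo n SS) z0 ∧ g.take B = i.1.1.1 ∧ ph f (g.drop B) = i.1.2 ∧
      ((g.drop B).length : ZMod M) = i.2}
  let good : ((({x : List α // x.length = B} × S) × ZMod M) × S) → Prop := fun i =>
    ∃ g R, g ∈ C i.1 ∧ ph f R = i.2 ∧
      aff (ph f) (dd (Wo n SS) z0 p0 f nu2 nu1) (g ++ R) v = t
  haveI : Finite {x : List α // x.length = B} :=
    ((List.finite_length_le α B).subset (fun s (hs : s.length = B) => hs.le)).to_subtype
  have hinv : ∀ i (g g' : List α), g ∈ C i → g' ∈ C i →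
      g.take p0 = g'.take p0 ∧ ph f (g.drop p0) = ph f (g'.drop p0) ∧
      nu1 (g.drop p0) = nu1 (g'.drop p0) := by
    intro i g g' h h'
    obtain ⟨a1, a2, a3, a4⟩ := h
    obtain ⟨b1, b2, b3, b4⟩ := h'
    have l1 : B ≤ g.length := le_trans hA a1.1
    have l2 : B ≤ g'.length := le_trans hA b1.1
    have e0 : g.take B = g'.take B := by rw [a2, b2]
    have e1 : g.take p0 = g'.take p0 := by
      have := congrArg (List.take p0) e0
      rwa [List.take_take, List.take_take, Nat.min_eq_left (Nat.le_add_right _ _)] at this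
    have e2 : (g.drop p0).take A = (g'.drop p0).take A := by
      have := congrArg (List.drop p0) e0
      rw [List.drop_take, List.drop_take] at this
      simpa [B] using this
    have e3 : ph f ((g.drop p0).drop A) = ph f ((g'.drop p0).drop A) := by
      rw [List.drop_drop, List.drop_drop]
      show ph f (g.drop B) = ph f (g'.drop B)
      rw [a3, b3]
    refine ⟨e1, ?_, ?_⟩
    · rw [← List.take_append_drop A (g.drop p0), ← List.take_append_drop A (g'.drop p0),
        ph_append, ph_append, e2, e3]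
    · refine nuF _ _ ?_ ?_ e2 ?_ e3
      · rw [List.length_drop]; omega
      · rw [List.length_drop]; omega
      · have h5 : ((g.drop B).length : ZMod M) = ((g'.drop B).length : ZMod M) := by rw [a4, b4]
        rw [ZMod.natCast_eq_natCast_iff] at h5
        have h6 : (g.drop p0).length = A + (g.drop B).length := by
          rw [List.length_drop, List.length_drop]; omega
        have h7 : (g'.drop p0).length = A + (g'.drop B).length := by
          rw [List.length_drop, List.length_drop]; omega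
        rw [h6, h7]
        exact Nat.ModEq.add_left A h5
  refine (HL.iUnion fun i : {i // good i} =>
    HL.inf (HL_zn (k := 1) (Wo := Wo n SS) (z0 := z0) HL_wo)
      ((HL_class hval f M B hA i.1.1.1.1.1 i.1.1.1.1.2 i.1.1.1.2 i.1.1.2).mul
        (hval 1 S f i.1.2))).congr fun z => ?_
  constructor
  · rintro ⟨hz, he⟩
    obtain ⟨g, R, rfl, hg, hR, hW, hno⟩ := hz
    have l1 : B ≤ g.length := le_trans hA hg.1
    have hxl : (g.take B).length = B := by rw [List.length_take]; omega
    refine ⟨⟨(((⟨g.take B, hxl⟩, ph f (g.drop B)), ((g.drop B).length : ZMod M)), ph f R),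
      ⟨g, R, ⟨hg, rfl, rfl, rfl⟩, rfl, he⟩⟩, ⟨g, R, rfl, hg, hR, hW, hno⟩, ?_⟩
    exact Language.mem_mul.2 ⟨g, ⟨hg, rfl, rfl, rfl⟩, R, ⟨nw_gap hn hno, rfl⟩, rfl⟩
  · rintro ⟨⟨i, g0, R0, hg0, hR0, he0⟩, hz, hzm⟩
    obtain ⟨g, hg, R, ⟨-, hR⟩, rfl⟩ := Language.mem_mul.1 hzm
    refine ⟨hz, ?_⟩
    obtain ⟨i1, i2, i3⟩ := hinv i.1 g0 g hg0 hg
    rw [← he0, aff_dd hg.1, aff_dd hg0.1]
    unfold bl
    have hRR : ph f R = ph f R0 := by rw [hR0]; exact hR
    rw [i1, i2, i3, hRR]

end HLs

end Crest.Agent.R320.D2_644
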