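import Crest.Agent.R320.D2b_644

/-!
# Row 320: shift lemmas, bad blocks, spoil count (helper644)
-/

set_option autoImplicit false

namespace Crest.Agent.R320.D2_644

open Crest.Agent.R320.Hk_851 Crest.Agent.R320.Star_621 Crest.Agent.R320.FewWalls_228
  Crest.Agent.R320.WallU_228 Crest.RegLang Crest.Agent.R320.Two_621

universe u

variable {α S : Type u} [Monoid S]

theorem take_add (P Q : List α) (s : ℕ) : (P ++ Q).take (P.length + s) = P ++ Q.take s := by
  rw [List.take_append]
  simp

theorem wo_shift {n : ℕ} {SS : Set (List α)} {P P2 Q : List α} {s : ℕ} (h1 : n ≤ s)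
    (h2 : s ≤ Q.length) :
    Wo n SS ((P ++ Q).take (P.length + s)) ↔ Wo n SS ((P2 ++ Q).take (P2.length + s)) := by
  have hl : n ≤ (Q.take s).length := by rw [List.length_take]; omega
  rw [take_add, take_add, wo_append _ _ hl, wo_append _ _ hl]

theorem fst_shift {n : ℕ} {SS : Set (List α)} {z0 N : ℕ} {P P2 Q : List α}
    (hPQ : P ++ Q ∈ Fst (Wo n SS) z0) (hn : n ≤ Q.length) (h1 : P2.length ≤ P.length + N)
    (h2 : P.length ≤ P2.length + N) (h3 : z0 + N ≤ (P ++ Q).length)
    (h4 : ∀ t, z0 ≤ t + N → t < z0 → ¬ Wo n SS ((P ++ Q).take t))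
    (h6 : P2.length + n ≤ z0) : P2 ++ Q ∈ Fst (Wo n SS) z0 := by
  rw [List.length_append] at h3
  refine ⟨by rw [List.length_append]; omega, (wo_append P2 Q hn).2 ((wo_append P Q hn).1 hPQ.2.1),
    fun t ht htl hW => ?_⟩
  rw [List.length_append] at htl
  have e : t = P2.length + (t - P2.length) := by omega
  rw [e] at hW
  have hW' := (wo_shift (P := P2) (P2 := P) (s := t - P2.length) (by omega) (by omega)).1 hW
  by_cases h : z0 ≤ P.length + (t - P2.length)
  · exact hPQ.2.2 _ h (by rw [List.length_append]; omega) hW'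
  · exact h4 _ (by omega) (by omega) hW'

theorem zn_shift {n : ℕ} {SS : Set (List α)} {z0 : ℕ} {P P2 Q R : List α}
    (hR : R ≠ []) (hW : Wo n SS ((P ++ Q) ++ R))
    (hno : ∀ t, (P ++ Q).length < t → t < ((P ++ Q) ++ R).length →
      ¬ Wo n SS (((P ++ Q) ++ R).take t))
    (h2 : P2 ++ Q ∈ Fst (Wo n SS) z0) (hn : n ≤ Q.length) :
    (P2 ++ Q) ++ R ∈ Zn (Wo n SS) z0 := by
  refine ⟨P2 ++ Q, R, rfl, h2, hR, ?_, fun t ht htl hWt => ?_⟩
  · rw [List.append_assoc] at hW ⊢
    have hl : n ≤ (Q ++ R).length := by rw [List.length_append]; omega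
    exact (wo_append _ _ hl).2 ((wo_append _ _ hl).1 hW)
  · rw [List.append_assoc] at hWt
    rw [List.length_append] at ht
    rw [List.length_append, List.length_append] at htl
    have e : t = P2.length + (t - P2.length) := by omega
    rw [e] at hWt
    have hW' := (wo_shift (P := P2) (P2 := P) (s := t - P2.length) (by omega)
      (by rw [List.length_append]; omega)).1 hWt
    rw [← List.append_assoc] at hW'
    refine hno _ ?_ ?_ hW'
    · rw [List.length_append]; omega
    · rw [List.length_append, List.length_append]; omega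

/-- event mode -/
def EE (n : ℕ) (SS : Set (List α)) (z0 N : ℕ) (g : List α) : Prop :=
  g.length < z0 + N ∨ ∃ t, z0 ≤ t + N ∧ t < z0 ∧ Wo n SS (g.take t)

def Gb (n : ℕ) (SS : Set (List α)) (z0 N p0 : ℕ) (BadT : ℕ → Prop) : Language α :=
  {g | g ∈ Fst (Wo n SS) z0 ∧ (EE n SS z0 N g ∨ BadT (g.length - p0))}

def Gg (n : ℕ) (SS : Set (List α)) (z0 N p0 : ℕ) (BadT : ℕ → Prop) : Language α :=
  {g | g ∈ Fst (Wo n SS) z0 ∧ ¬ (EE n SS z0 N g ∨ BadT (g.length - p0))}

def Zc (n : ℕ) (SS : Set (List α)) (z0 N p0 : ℕ) (BadT : ℕ → Prop) : Language α :=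
  {z | z ∈ Zn (Wo n SS) z0 ∧ ∃ g ∈ Gb n SS z0 N p0 BadT, g <+: z}

def NG (n : ℕ) (SS : Set (List α)) (z0 N p0 : ℕ) (BadT : ℕ → Prop) : Language α :=
  {z | ∃ g ∈ Gg n SS z0 N p0 BadT, g <+: z}

theorem per_mod {BadT : ℕ → Prop} {M : ℕ} (per : ∀ T, BadT (T + M) ↔ BadT T) (a : ℕ) :
    BadT a ↔ BadT (a % M) := by
  have key : ∀ q r, BadT (r + M * q) ↔ BadT r := by
    intro q r
    induction q with
    | zero => simp
    | succ q ih => rw [Nat.mul_succ, ← Nat.add_assoc, per, ih]
  conv_lhs => rw [← Nat.mod_add_div a M]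
  exact key _ _

section HLs

variable [Finite α] [Finite S] {n : ℕ} {SS : Set (List α)} {z0 N p0 : ℕ}
  (hval : ∀ (r : ℕ) (M : Type u) [Monoid M] [Finite M] (φ : α → M) (s : M),
    HL 1 ({w | nw n SS w ≤ r ∧ (w.map φ).prod = s} : Language α))

include hval

theorem HL_Gb (f : α → S) {M : ℕ} (hM : 0 < M) {BadT : ℕ → Prop}
    (per : ∀ T, BadT (T + M) ↔ BadT T) (hp : p0 ≤ z0) :
    HL 1 (Gb n SS z0 N p0 BadT : Language α) := by
  classical
  have : NeZero M := ⟨by omega⟩
  have hF : HL 1 (Fst (Wo n SS) z0 : Language α) := HL_fst (k := 1) HL_wo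
  have hfin : ({v : List α | v.length ≤ z0 ∧ z0 ≤ v.length + N ∧ v.length < z0 ∧ Wo n SS v} :
      Set (List α)).Finite := (List.finite_length_le α z0).subset fun s hs => hs.1
  have h1 := HL.setOf_or (HL.length_lt (k := 1) (α := α) (z0 + N)) (HL.prefix (HL.finite hfin))
  let good : S × ZMod M → Prop := fun i => ∃ g0 : List α, g0 ∈ Fst (Wo n SS) z0 ∧
    ((g0.length : ℕ) : ZMod M) = i.2 ∧ BadT (g0.length - p0)
  have h2 := HL.iUnion fun i : {i // good i} =>
    hval (z0 + 1) _ (fl f M) (i.1.1, Multiplicative.ofAdd ⟨i.1.2⟩)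
  refine (HL.setOf_and (p := fun w => w ∈ Fst (Wo n SS) z0) hF (HL.setOf_or h1 h2)).congr
    fun w => ?_
  constructor
  · rintro ⟨hw, hor⟩
    refine ⟨hw, ?_⟩
    rcases hor with (h | ⟨t, ht1, ht2, ht3⟩) | h
    · exact Or.inl (Or.inl h)
    · have hl : (w.take t).length = t := by have := hw.1; rw [List.length_take]; omega
      exact Or.inl (Or.inr ⟨w.take t, ⟨by omega, by omega, by omega, ht3⟩, List.take_prefix _ _⟩)
    · refine Or.inr ⟨⟨(ph f w, (w.length : ZMod M)), w, hw, rfl, h⟩, ?_, ?_⟩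
      · exact nw_fst hw 0 (Nat.zero_le _)
      · exact fl_prod f M w
  · rintro ⟨hw, hor⟩
    refine ⟨hw, ?_⟩
    rcases hor with (h | ⟨v, ⟨hv0, hv1, hv2, hv3⟩, r, rfl⟩) | ⟨⟨i, g0, hg0, hi, hb⟩, _, h2⟩
    · exact Or.inl (Or.inl h)
    · exact Or.inl (Or.inr ⟨v.length, hv1, hv2, by rw [List.take_left]; exact hv3⟩)
    · refine Or.inr ?_
      rw [fl_prod] at h2
      have h3 : (w.length : ZMod M) = i.2 :=
        congrArg ULift.down (Multiplicative.ofAdd.injective (Prod.mk.inj h2).2)
      rw [← hi, ZMod.natCast_eq_natCast_iff] at h3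
      have l1 := hw.1
      have l2 := hg0.1
      have h4 : (w.length - p0) ≡ (g0.length - p0) [MOD M] := by
        apply Nat.ModEq.add_right_cancel' p0
        rw [Nat.sub_add_cancel (by omega), Nat.sub_add_cancel (by omega)]
        exact h3
      rw [per_mod per] at hb ⊢
      rw [show (w.length - p0) % M = (g0.length - p0) % M from h4]
      exact hb

theorem HL_Gg (f : α → S) {M : ℕ} (hM : 0 < M) {BadT : ℕ → Prop}
    (per : ∀ T, BadT (T + M) ↔ BadT T) (hp : p0 ≤ z0) :
    HL 1 (Gg n SS z0 N p0 BadT : Language α) := by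
  refine (HL.setOf_and (p := fun w => w ∈ Fst (Wo n SS) z0) (HL_fst (k := 1) HL_wo)
    (HL.setOf_not (HL_Gb (N := N) (p0 := p0) hval f hM per hp))).congr fun w => ?_
  constructor
  · rintro ⟨h1, h2⟩; exact ⟨h1, fun h => h2 h.2⟩
  · rintro ⟨h1, h2⟩; exact ⟨h1, fun h => h2 ⟨h1, h⟩⟩

theorem HL_NG (f : α → S) {M : ℕ} (hM : 0 < M) {BadT : ℕ → Prop}
    (per : ∀ T, BadT (T + M) ↔ BadT T) (hp : p0 ≤ z0) :
    HL 1 (NG n SS z0 N p0 BadT : Language α) := (HL_Gg hval f hM per hp).prefix

theorem HL_Zc (f : α → S) {M : ℕ} (hM : 0 < M) {BadT : ℕ → Prop}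
    (per : ∀ T, BadT (T + M) ↔ BadT T) (hp : p0 ≤ z0) :
    HL 1 (Zc n SS z0 N p0 BadT : Language α) :=
  HL.setOf_and (p := fun w => w ∈ Zn (Wo n SS) z0) (HL_zn (k := 1) HL_wo)
    (HL_Gb hval f hM per hp).prefix

end HLs

/-- separation on prefixes of one word -/
theorem sep_take {n : ℕ} {SS : Set (List α)} {W : ℕ}
    (hsep : ∀ (P : List α) (d : ℕ), Wo n SS P → 0 < d → d ≤ W → ¬ Wo n SS (P.take (P.length - d)))
    {z : List α} {a b : ℕ} (ha : a ≤ z.length) (hb : b ≤ z.length) (h1 : Wo n SS (z.take a))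
    (h2 : Wo n SS (z.take b)) (hab : b ≤ a + W) (hba : a ≤ b + W) : a = b := by
  have key : ∀ a b, a ≤ z.length → b ≤ z.length → Wo n SS (z.take a) → Wo n SS (z.take b) →
      b ≤ a + W → ¬ a < b := by
    intro a b ha hb h1 h2 hab hlt
    have hl : (z.take b).length = b := by rw [List.length_take]; omega
    refine hsep (z.take b) (b - a) h2 (by omega) (by omega) ?_
    have e : (z.take b).length - (b - a) = a := by omega
    rw [e, List.take_take, Nat.min_eq_left (by omega)]
    exact h1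
  have k1 := key a b ha hb h1 h2 hab
  have k2 := key b a hb ha h2 h1 hba
  omega

open Classical in
/-- **Spoil count.** -/
theorem spoil {n : ℕ} {SS : Set (List α)} {W z0 N p0 D C0 K : ℕ} {BadT : ℕ → Prop} {c : ℕ → ℕ}
    (hsep : ∀ (P : List α) (d : ℕ), Wo n SS P → 0 < d → d ≤ W → ¬ Wo n SS (P.take (P.length - d)))
    (hcD : ∀ k < K, c k + 1 ≤ D) (hD : D ≤ p0) (hW : 2 * D + 2 * N ≤ W)
    (hz : p0 + 2 * D + N + n + 1 ≤ z0)
    (gol : ∀ j k j' k', j < K → k < K → j' < K → k' < K → j ≠ k → j' ≠ k' → ¬ (j = j' ∧ k = k') →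
      c j + c k' + 2 * N < c j' + c k ∨ c j' + c k + 2 * N < c j + c k')
    (thin : ∀ T, (∀ k < K, c k ≤ T) →
      (((Finset.range K) ×ˢ (Finset.range K)).filter
        (fun p => p.1 ≠ p.2 ∧ BadT (T + c p.2 - c p.1))).card ≤ C0)
    {z : List α} (hzZ : z ∈ Zn (Wo n SS) z0) :
    ((Finset.range K).filter (fun k => ∃ k' < K, k' ≠ k ∧ ∃ P : List α, P.length = c k' + 1 ∧
      P ++ z.drop (c k + 1) ∉ NG n SS z0 N p0 BadT)).card ≤ 3 * C0 + 1 := by
  obtain ⟨g, R, rfl, hg, hR, hWz, hno⟩ := hzZ
  have hR0 : 0 < R.length := List.length_pos_iff.2 hR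
  have hgl := hg.1
  set z := g ++ R with hzdef
  have hzl : z.length = g.length + R.length := by rw [hzdef, List.length_append]
  have hwg : Wo n SS (z.take g.length) := by rw [hzdef, List.take_left]; exact hg.2.1
  have hwz : Wo n SS (z.take z.length) := by rw [List.take_length]; exact hWz
  have hfar : g.length + W < z.length := by
    by_contra hcon
    have := sep_take hsep (z := z) (a := g.length) (b := z.length) (by omega) le_rfl hwg hwz
      (by omega) (by omega)
    omega
  -- relevant walls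
  let T0 : Finset ℕ := (Finset.range (z.length + 1)).filter
    (fun t => z0 ≤ t + D ∧ Wo n SS (z.take t))
  have hT0 : T0.card ≤ 3 := by
    have hsub : T0 ⊆ {g.length, z.length} ∪ T0.filter (fun t => t < z0) := by
      intro t ht
      have ht' := ht
      rw [Finset.mem_filter, Finset.mem_range] at ht'
      obtain ⟨h1, h2, h3⟩ := ht'
      rw [Finset.mem_union, Finset.mem_insert, Finset.mem_singleton, Finset.mem_filter]
      by_cases h4 : t < z0
      · exact Or.inr ⟨ht, h4⟩
      · left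
        by_contra hne
        push Not at hne
        obtain ⟨hne1, hne2⟩ := hne
        rcases lt_or_gt_of_ne hne1 with h5 | h5
        · refine hg.2.2 t (by omega) h5 ?_
          have : z.take t = g.take t := by
            rw [hzdef]; exact List.take_append_of_le_length (by omega)
          rw [← this]; exact h3
        · exact hno t h5 (by omega) h3
    have hone : (T0.filter (fun t => t < z0)).card ≤ 1 := by
      rw [Finset.card_le_one]
      intro a ha b hb
      rw [Finset.mem_filter, Finset.mem_filter, Finset.mem_range] at ha hb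
      obtain ⟨⟨a1, a2, a3⟩, a4⟩ := ha
      obtain ⟨⟨b1, b2, b3⟩, b4⟩ := hb
      exact sep_take hsep (z := z) (by omega) (by omega) a3 b3 (by omega) (by omega)
    calc T0.card ≤ _ := Finset.card_le_card hsub
      _ ≤ _ := Finset.card_union_le _ _
      _ ≤ 2 + 1 := Nat.add_le_add (Finset.card_le_two) hone
      _ = 3 := rfl
  let JE : Finset ℕ := (Finset.range K).filter (fun k => ∃ k' < K, k' ≠ k ∧ ∃ t, t ≤ z.length ∧
    Wo n SS (z.take t) ∧ z0 + c k ≤ t + c k' + N ∧ t + c k' ≤ z0 + c k + N)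
  have hJE : JE.card ≤ 1 := by
    rw [Finset.card_le_one]
    intro a ha b hb
    rw [Finset.mem_filter, Finset.mem_range] at ha hb
    obtain ⟨a1, a', a2, a3, t, a4, a5, a6, a7⟩ := ha
    obtain ⟨b1, b', b2, b3, s, b4, b5, b6, b7⟩ := hb
    have d1 := hcD a a1
    have d2 := hcD a' a2
    have d3 := hcD b b1
    have d4 := hcD b' b2
    have hts : t = s := sep_take hsep (z := z) a4 b4 a5 b5 (by omega) (by omega)
    subst hts
    by_contra hne
    rcases gol a a' b b' a1 a2 b1 b2 (Ne.symm a3) (Ne.symm b3) (fun h => hne h.1) with h | h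
    · omega
    · omega
  have hsub : ((Finset.range K).filter (fun k => ∃ k' < K, k' ≠ k ∧ ∃ P : List α,
      P.length = c k' + 1 ∧ P ++ z.drop (c k + 1) ∉ NG n SS z0 N p0 BadT)) ⊆
      JE ∪ T0.biUnion (fun t => (((Finset.range K) ×ˢ (Finset.range K)).filter
        (fun p => p.1 ≠ p.2 ∧ BadT (t - p0 + c p.2 - c p.1))).image Prod.fst) := by
    intro k hk
    rw [Finset.mem_filter, Finset.mem_range] at hk
    obtain ⟨hkK, k', hk', hne, P, hP, hPN⟩ := hk
    have d1 := hcD k hkK
    have d2 := hcD k' hk'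
    have hzd : (z.drop (c k + 1)).length = z.length - (c k + 1) := List.length_drop
    set Q := z.drop (c k + 1) with hQ
    have hzt : z.take (c k + 1) ++ Q = z := List.take_append_drop _ _
    have hlt : (z.take (c k + 1)).length = c k + 1 := by rw [List.length_take]; omega
    -- transfer of walls
    have htr : ∀ s, n ≤ s → s ≤ Q.length →
        (Wo n SS ((P ++ Q).take (c k' + 1 + s)) ↔ Wo n SS (z.take (c k + 1 + s))) := by
      intro s h1 h2
      have := wo_shift (n := n) (SS := SS) (P := P) (P2 := z.take (c k + 1)) (Q := Q) h1 h2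
      rw [hzt, hP, hlt] at this
      exact this
    have hex : ∃ t, z0 ≤ t ∧ t ≤ (P ++ Q).length ∧ Wo n SS ((P ++ Q).take t) := by
      refine ⟨(P ++ Q).length, by rw [List.length_append]; omega, le_rfl, ?_⟩
      rw [List.length_append, hP]
      rw [htr Q.length (by omega) le_rfl]
      have : c k + 1 + Q.length = z.length := by omega
      rw [this]; exact hwz
    obtain ⟨t1, t2, t3⟩ := Nat.find_spec hex
    have tmin : ∀ s, s < Nat.find hex → ¬ (z0 ≤ s ∧ s ≤ (P ++ Q).length ∧
      Wo n SS ((P ++ Q).take s)) := fun s hs => Nat.find_min hex hs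
    set t := Nat.find hex with htdef
    have hPQl : (P ++ Q).length = c k' + 1 + Q.length := by rw [List.length_append, hP]
    have htl : ((P ++ Q).take t).length = t := by rw [List.length_take]; omega
    have hF : (P ++ Q).take t ∈ Fst (Wo n SS) z0 := by
      refine ⟨by omega, t3, fun s hs hst hWs => ?_⟩
      rw [htl] at hst
      rw [List.take_take, Nat.min_eq_left (by omega)] at hWs
      exact tmin s hst ⟨hs, by omega, hWs⟩
    have hbad : EE n SS z0 N ((P ++ Q).take t) ∨ BadT (t - p0) := by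
      by_contra hcon
      exact hPN ⟨(P ++ Q).take t, ⟨hF, by rw [htl]; exact hcon⟩, List.take_prefix _ _⟩
    -- position in the true frame
    have hpos : ∀ s, z0 ≤ s + N + D → s ≤ (P ++ Q).length → Wo n SS ((P ++ Q).take s) →
        s - (c k' + 1) + (c k + 1) ≤ z.length ∧
        Wo n SS (z.take (s - (c k' + 1) + (c k + 1))) := by
      intro s h1 h2 h3
      have e : s = c k' + 1 + (s - (c k' + 1)) := by omega
      have h4 := h3
      rw [e] at h4
      rw [htr _ (by omega) (by omega)] at h4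
      refine ⟨by omega, ?_⟩
      rw [Nat.add_comm] at h4
      exact h4
    rw [Finset.mem_union]
    rcases hbad with (hE | ⟨s, hs1, hs2, hs3⟩) | hB
    · left
      rw [htl] at hE
      obtain ⟨h5, h6⟩ := hpos t (by omega) t2 t3
      rw [Finset.mem_filter, Finset.mem_range]
      exact ⟨hkK, k', hk', hne, _, h5, h6, by omega, by omega⟩
    · left
      rw [List.take_take, Nat.min_eq_left (by omega)] at hs3
      obtain ⟨h5, h6⟩ := hpos s (by omega) (by omega) hs3
      rw [Finset.mem_filter, Finset.mem_range]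
      exact ⟨hkK, k', hk', hne, _, h5, h6, by omega, by omega⟩
    · right
      obtain ⟨h5, h6⟩ := hpos t (by omega) t2 t3
      rw [Finset.mem_biUnion]
      refine ⟨t - (c k' + 1) + (c k + 1), ?_, ?_⟩
      · rw [Finset.mem_filter, Finset.mem_range]
        exact ⟨by omega, by omega, h6⟩
      · rw [Finset.mem_image]
        refine ⟨(k, k'), ?_, rfl⟩
        rw [Finset.mem_filter, Finset.mem_product, Finset.mem_range, Finset.mem_range]
        refine ⟨⟨hkK, hk'⟩, Ne.symm hne, ?_⟩
        have e : t - (c k' + 1) + (c k + 1) - p0 + c k' - c k = t - p0 := by omega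
        show BadT (t - (c k' + 1) + (c k + 1) - p0 + c k' - c k)
        rw [e]; exact hB
  calc _ ≤ _ := Finset.card_le_card hsub
    _ ≤ _ := Finset.card_union_le _ _
    _ ≤ 1 + T0.card * C0 := by
        refine Nat.add_le_add hJE ?_
        refine Finset.card_biUnion_le_card_mul _ _ _ fun t ht => ?_
        refine le_trans Finset.card_image_le ?_
        rw [Finset.mem_filter, Finset.mem_range] at ht
        exact thin (t - p0) fun k hk => by have := hcD k hk; omega
    _ ≤ 3 * C0 + 1 := by nlinarith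

end Crest.Agent.R320.D2_644
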