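import Crest.Agent.R320.D2c_644

/-!
# Row 320: `Data2` (hence the row) from the gadget on all words (helper644)
-/

set_option autoImplicit false

namespace Crest.Agent.R320.D2_644

open Crest.Agent.R320.Hk_851 Crest.Agent.R320.Star_621 Crest.Agent.R320.FewWalls_228
  Crest.Agent.R320.WallU_228 Crest.RegLang Crest.Agent.R320.Two_621 Crest.Agent.R320.Shared_621

universe u

variable {α S : Type u} [Monoid S]

open Classical in
/-- the gadget on all words with its ruler -/
structure Gad (f : α → S) (C0 K : ℕ) where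
  N : ℕ
  A : ℕ
  Mp : ℕ
  hMp : 0 < Mp
  BadT : ℕ → Prop
  c : ℕ → ℕ
  lam : List α → Option (Tok S)
  rho : List α → Option (Tok S)
  nu : List α → Tok S
  mono : ∀ i j, i < j → j < K → c i < c j
  gol : ∀ j k j' k', j < K → k < K → j' < K → k' < K → j ≠ k → j' ≠ k' → ¬ (j = j' ∧ k = k') →
    c j + c k' + 2 * N < c j' + c k ∨ c j' + c k + 2 * N < c j + c k'
  thin : ∀ T, (∀ k < K, c k ≤ T) →
    (((Finset.range K) ×ˢ (Finset.range K)).filter
      (fun p => p.1 ≠ p.2 ∧ BadT (T + c p.2 - c p.1))).card ≤ C0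
  per : ∀ T, BadT (T + Mp) ↔ BadT T
  lamN : ∀ P v, lam P = some v → P.length ≤ N
  sound : ∀ P Q v r, A ≤ Q.length → lam P = some v → rho Q = some r →
    r = act v (ph f (P ++ Q)) + nu (P ++ Q)
  complete : ∀ u : List α, A ≤ u.length → ¬ BadT u.length → ∀ v, ∃ P Q, u = P ++ Q ∧
    lam P = some v ∧ (rho Q).isSome
  nuF : ∀ Q Q' : List α, A ≤ Q.length → A ≤ Q'.length → Q.take A = Q'.take A →
    Q.length % Mp = Q'.length % Mp → ph f (Q.drop A) = ph f (Q'.drop A) → nu Q = nu Q'

theorem data2_of_gad [Finite α] [Finite S] (f : α → S)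
    (hG : ∃ C0, ∀ K, Nonempty (Gad f C0 K)) :
    Data2 (fun w : List α => (w.map f).prod) := by
  classical
  obtain ⟨C0, hG⟩ := hG
  haveI : Fintype S := Fintype.ofFinite S
  haveI : Fintype (Tok S) := Fintype.ofFinite _
  obtain ⟨K, hK⟩ := Crest.Agent.R320.ExactU_815.exact_gadget α S (Tok S) f act (3 * C0 + 2)
  obtain ⟨G⟩ := hG K
  obtain ⟨lam2, rho2, nu2', hex, hco⟩ := hK (fun k => G.c k + 1)
    (fun i j hij hj => Nat.add_lt_add_right (G.mono i j hij hj) 1)
  set D := ∑ k ∈ Finset.range K, (G.c k + 1) with hD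
  have hcD : ∀ k < K, G.c k + 1 ≤ D := fun k hk =>
    Finset.single_le_sum (f := fun k => G.c k + 1) (fun i _ => Nat.zero_le _)
      (Finset.mem_range.2 hk)
  let p0 := D + 1
  obtain ⟨n, SS, hn, hsep, hval⟩ := walls644 α (2 * D + 2 * G.N)
  let z0 := p0 + 2 * D + 2 * G.N + n + G.A + G.N + 1
  let N := G.N
  have hN : G.N = N := rfl
  let nu2 : List α → Tok S := fun X => nu2' X 1
  let W := Wo n SS
  let d := dd (Wo n SS) z0 p0 f nu2 G.nu
  let psi := aff (ph f) d
  let Zb := Zc n SS z0 N p0 G.BadT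
  let LA : Tok S → Language α := fun v => {P | p0 ≤ P.length ∧ P.length ≤ p0 + N ∧
    G.lam (P.drop p0) = some (act v (ph f (P.take p0)) + nu2 (P.take p0))}
  let RA : Tok S → Language α := fun t => {Q | ∀ v P, P ∈ LA v →
    P ++ Q ∈ Zn (Wo n SS) z0 ∧ psi (P ++ Q) v = t}
  let LB : Tok S → Language α := fun v => {P | ∃ k, k < K ∧ P.length = G.c k + 1 ∧
    lam2 k P = some v}
  let RB : Tok S → Language α := fun t => {Q | ∃ k, k < K ∧
    (∀ (v : Tok S) (P : List α), P.length = G.c k + 1 → lam2 k P = some v →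
      P ++ Q ∈ Zb ∧ psi (P ++ Q) v = t) ∧
    ∀ k', k' < K → k' ≠ k → ∀ (P : List α), P.length = G.c k' + 1 →
      P ++ Q ∈ NG n SS z0 N p0 G.BadT}
  have hcode := code (Wo n SS) z0
  have hZ : HL 1 (Zn (Wo n SS) z0) := HL_zn (k := 1) HL_wo
  have hZb : HL 1 Zb := HL_Zc hval f G.hMp G.per (by omega)
  have hNG : HL 1 (NG n SS z0 N p0 G.BadT) := HL_NG hval f G.hMp G.per (by omega)
  have hXT : ∀ v t : Tok S, HL 1 ({z | z ∈ Zn (Wo n SS) z0 ∧ psi z v = t} : Language α) :=
    fun v t => HL_XT hn hval f nu2 G.nu G.Mp G.A G.hMp (by omega) G.nuF v t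
  have hfin : ∀ m : ℕ, Finite {P : List α // P.length ≤ m} := fun m =>
    (List.finite_length_le α m).to_subtype
  refine ⟨Zn (Wo n SS) z0, Zb, d, LA, RA, LB, RB, hcode, fun z hz => hz.1, hZ, hZb,
    ⟨?_, ?_⟩, ?_, ?_, ?_, ⟨?_, ?_⟩, ?_, ?_, ?_, ?_⟩
  · -- LA nonempty words
    intro v h
    have := h.1
    simp at this
  · -- sound A
    intro v t P Q z x y hP hQ hz e
    obtain ⟨h1, h2⟩ := hQ v P hP
    exact ⟨hcode.2 _ _ _ _ h1 hz e, by
      have := hcode.2 _ _ _ _ h1 hz e
      rw [← this]; exact h2.symm⟩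
  · intro v
    exact HL.finite ((List.finite_length_le α (p0 + N)).subset fun P hP => hP.2.1)
  · -- HL RA
    intro t
    haveI := hfin (p0 + N)
    refine (HL.iInter fun i : Tok S × {P : List α // P.length ≤ p0 + N} =>
      HL.setOf_imp (HL.const (k := 1) (α := α) (i.2.1 ∈ LA i.1))
        (HL.lquot i.2.1 (hXT i.1 t))).congr fun w => ?_
    constructor
    · intro hw i hi
      exact hw i.1 i.2.1 hi
    · intro hw v P hP
      exact hw (v, ⟨P, hP.2.1⟩) hP
  · -- completeness A
    rintro z ⟨g, R, rfl, hg, hR, hW, hno⟩ hzc v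
    have hgl := hg.1
    have hnb : ¬ (EE n SS z0 N g ∨ G.BadT (g.length - p0)) := fun h =>
      hzc ⟨⟨g, R, rfl, hg, hR, hW, hno⟩, g, ⟨hg, h⟩, List.prefix_append _ _⟩
    push Not at hnb
    obtain ⟨hE, hB⟩ := hnb
    unfold EE at hE
    push Not at hE
    obtain ⟨hE1, hE2⟩ := hE
    have hYl : (g.drop p0).length = g.length - p0 := List.length_drop
    obtain ⟨P', Q', hY, hlam, hrho⟩ := G.complete (g.drop p0) (by omega) (by rw [hYl]; exact hB)
      (act v (ph f (g.take p0)) + nu2 (g.take p0))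
    obtain ⟨r, hr⟩ := Option.isSome_iff_exists.1 hrho
    have hP'N := G.lamN _ _ hlam
    have hXl : (g.take p0).length = p0 := by rw [List.length_take]; omega
    have hgeq : g = (g.take p0 ++ P') ++ Q' := by
      rw [List.append_assoc, ← hY, List.take_append_drop]
    have hPQl : P'.length + Q'.length = g.length - p0 := by
      rw [← hYl, hY, List.length_append]
    have hg' : (g.take p0 ++ P') ++ Q' ∈ Fst (Wo n SS) z0 := by rw [← hgeq]; exact hg
    have hpsig : psi (g ++ R) v = act r (ph f R) := by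
      show aff (ph f) d (g ++ R) v = _
      rw [aff_dd hg]
      unfold bl
      rw [hY, G.sound P' Q' _ r (by omega) hlam hr]
    refine ⟨g.take p0 ++ P', Q' ++ R, psi (g ++ R) v, ?_, ?_, ?_⟩
    · rw [← List.append_assoc, ← hgeq]
    · refine ⟨by rw [List.length_append]; omega, by rw [List.length_append]; omega, ?_⟩
      have e1 : (g.take p0 ++ P').drop p0 = P' := List.drop_left' hXl
      have e2 : (g.take p0 ++ P').take p0 = g.take p0 := by
        rw [List.take_left' hXl]
      rw [e1, e2]; exact hlam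
    · intro v2 P2 hP2
      obtain ⟨a1, a2, a3⟩ := hP2
      have hlP : (g.take p0 ++ P').length = p0 + P'.length := by rw [List.length_append, hXl]
      have hF2 : P2 ++ Q' ∈ Fst (Wo n SS) z0 := by
        refine fst_shift (N := N) hg' (by omega) (by omega) (by omega) ?_ ?_ (by omega)
        · rw [← hgeq]; exact hE1
        · rw [← hgeq]; exact hE2
      have hZ2 : (P2 ++ Q') ++ R ∈ Zn (Wo n SS) z0 := by
        refine zn_shift (P := g.take p0 ++ P') hR ?_ ?_ hF2 (by omega)
        · rw [← hgeq]; exact hW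
        · rw [← hgeq]; exact hno
      rw [← List.append_assoc]
      refine ⟨hZ2, ?_⟩
      rw [hpsig]
      show aff (ph f) d ((P2 ++ Q') ++ R) v2 = _
      rw [aff_dd hF2]
      unfold bl
      have e1 : (P2 ++ Q').take p0 = P2.take p0 := List.take_append_of_le_length a1
      have e2 : (P2 ++ Q').drop p0 = P2.drop p0 ++ Q' := List.drop_append_of_le_length a1
      rw [e1, e2, ← G.sound (P2.drop p0) Q' _ r (by omega) a3 hr]
  · -- LB nonempty words
    rintro v ⟨k, hk, hl, _⟩
    simp at hl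
  · -- sound B
    rintro v t P Q z x y ⟨k, hk, hPl, hlam⟩ ⟨k0, hk0, hQ1, hQ2⟩ hz e
    have hkk : k = k0 := by
      by_contra hne
      obtain ⟨g, hg, r, hr⟩ := hQ2 k hk hne P hPl
      obtain ⟨hzZ, g', hg', r', hr'⟩ := hz
      have : g = g' := fst_unique (x := r ++ x) (x' := r' ++ y) hg.1 hg'.1 (by
        rw [← List.append_assoc, hr, e, ← hr', List.append_assoc])
      subst this
      exact hg.2 hg'.2
    subst hkk
    obtain ⟨h1, h2⟩ := hQ1 v P hPl hlam
    have h3 := hcode.2 _ _ _ _ h1.1 hz.1 e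
    exact ⟨h3, by rw [← h3]; exact h2.symm⟩
  · intro v
    refine HL.finite ((List.finite_length_le α D).subset ?_)
    rintro P ⟨k, hk, hl, _⟩
    have := hcD k hk
    show P.length ≤ D
    omega
  · -- HL RB
    intro t
    haveI := hfin D
    have h1 : ∀ k : Fin K, HL 1 ({Q | ∀ (v : Tok S) (P : List α), P.length = G.c k + 1 →
        lam2 k P = some v → P ++ Q ∈ Zb ∧ psi (P ++ Q) v = t} : Language α) := by
      intro k
      have hk := hcD k k.2
      refine (HL.iInter fun i : Tok S × {P : List α // P.length ≤ D} =>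
        HL.setOf_imp (HL.const (k := 1) (α := α) (i.2.1.length = G.c k + 1 ∧
          lam2 k i.2.1 = some i.1))
        (HL.lquot i.2.1 (HL.inf hZb (hXT i.1 t)))).congr fun w => ?_
      constructor
      · intro hw i hi
        obtain ⟨b1, b2⟩ := hw i.1 i.2.1 hi.1 hi.2
        exact ⟨b1, b1.1, b2⟩
      · intro hw v P hP1 hP2
        have := hw (v, ⟨P, by omega⟩) ⟨hP1, hP2⟩
        exact ⟨this.1, this.2.2⟩
    have h2 : ∀ k : Fin K, HL 1 ({Q | ∀ k', k' < K → k' ≠ (k : ℕ) → ∀ (P : List α),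
        P.length = G.c k' + 1 → P ++ Q ∈ NG n SS z0 N p0 G.BadT} : Language α) := by
      intro k
      refine (HL.iInter fun i : Fin K × {P : List α // P.length ≤ D} =>
        HL.setOf_imp (HL.const (k := 1) (α := α) ((i.1 : ℕ) ≠ (k : ℕ) ∧
          i.2.1.length = G.c i.1 + 1)) (HL.lquot i.2.1 hNG)).congr fun w => ?_
      constructor
      · intro hw i hi
        exact hw i.1 i.1.2 hi.1 i.2.1 hi.2
      · intro hw k' hk' hne P hP
        have := hcD k' hk'
        exact hw (⟨k', hk'⟩, ⟨P, by omega⟩) ⟨hne, hP⟩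
    refine (HL.iUnion fun k : Fin K => HL.inf (h1 k) (h2 k)).congr fun w => ?_
    constructor
    · rintro ⟨k, hk, b1, b2⟩
      exact ⟨⟨k, hk⟩, b1, b2⟩
    · rintro ⟨k, b1, b2⟩
      exact ⟨k, k.2, b1, b2⟩
  · -- completeness B
    rintro z hz v
    have hzZ := hz.1
    obtain ⟨I, hI, hIk⟩ := hco (z.take p0) 1 v (fun k hk => by
      obtain ⟨⟨g, R, rfl, hg, _⟩, _⟩ := hz
      have := hg.1
      have := hcD k hk
      rw [List.length_take, List.length_append]; omega)
    have hsp := spoil (BadT := G.BadT) (C0 := C0) (N := N) (W := 2 * D + 2 * G.N) (D := D)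
      (p0 := p0) hsep hcD (by omega) (by omega) (by omega) G.gol G.thin hzZ
    obtain ⟨k, hkI, hkJ⟩ : ∃ k ∈ I, k ∉ ((Finset.range K).filter (fun k => ∃ k' < K, k' ≠ k ∧
        ∃ P : List α, P.length = G.c k' + 1 ∧
        P ++ z.drop (G.c k + 1) ∉ NG n SS z0 N p0 G.BadT)) := by
      by_contra hcon
      push Not at hcon
      have := Finset.card_le_card (s := I) (fun x hx => hcon x hx)
      omega
    obtain ⟨hkK, hlam, hrho⟩ := hIk k hkI
    obtain ⟨b, hb⟩ := Option.isSome_iff_exists.1 hrho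
    have hck := hcD k hkK
    obtain ⟨⟨g, R, rfl, hg, hR, hW, hno⟩, g1, hg1, hg1z⟩ := hz
    have hgg : g1 = g := by
      obtain ⟨r, hr⟩ := hg1z
      exact fst_unique (x := r) (x' := R) hg1.1 hg hr
    subst hgg
    have hgl := hg.1
    have hgl2 : G.c k + 1 ≤ g1.length := by omega
    have et : (g1 ++ R).take (G.c k + 1) = g1.take (G.c k + 1) :=
      List.take_append_of_le_length hgl2
    have ed : (g1 ++ R).drop (G.c k + 1) = g1.drop (G.c k + 1) ++ R :=
      List.drop_append_of_le_length hgl2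
    have ep : (g1 ++ R).take p0 = g1.take p0 := List.take_append_of_le_length (by omega)
    have hPl : (g1.take (G.c k + 1)).length = G.c k + 1 := by rw [List.length_take]; omega
    have hlam' : lam2 k (g1.take (G.c k + 1)) = some v := by
      rw [ep, List.take_take, Nat.min_eq_left (by omega)] at hlam
      exact hlam
    have hQl : (g1.drop (G.c k + 1)).length = g1.length - (G.c k + 1) := List.length_drop
    have hsplit : g1.take (G.c k + 1) ++ g1.drop (G.c k + 1) = g1 := List.take_append_drop _ _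
    have hb' : rho2 k ((g1.drop (G.c k + 1)).take (p0 - (G.c k + 1))) 1 = some b := by
      rw [ep, List.drop_take] at hb
      exact hb
    -- value for every left word at place k
    have hmain : ∀ (v2 : Tok S) (P2 : List α), P2.length = G.c k + 1 → lam2 k P2 = some v2 →
        P2 ++ g1.drop (G.c k + 1) ∈ Fst (Wo n SS) z0 ∧
        act v2 (ph f ((P2 ++ g1.drop (G.c k + 1)).take p0)) +
          nu2 ((P2 ++ g1.drop (G.c k + 1)).take p0) = b ∧
        (P2 ++ g1.drop (G.c k + 1)).drop p0 = g1.drop p0 := by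
      intro v2 P2 hl2 hlam2
      have e1 : (P2 ++ g1.drop (G.c k + 1)).take p0 =
          P2 ++ (g1.drop (G.c k + 1)).take (p0 - (G.c k + 1)) := by
        have : p0 = P2.length + (p0 - (G.c k + 1)) := by omega
        conv_lhs => rw [this]
        exact take_add _ _ _
      have e2 : (P2 ++ g1.drop (G.c k + 1)).drop p0 = g1.drop p0 := by
        have : p0 = P2.length + (p0 - (G.c k + 1)) := by omega
        conv_lhs => rw [this]
        rw [← List.drop_drop, List.drop_left, List.drop_drop]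
        congr 1
        omega
      refine ⟨?_, ?_, e2⟩
      · refine fst_shift (N := 0) (P := g1.take (G.c k + 1)) (by rw [hsplit]; exact hg) (by omega)
          (by omega) (by omega) (by rw [hsplit]; omega) (fun t h1 h2 => by omega) (by omega)
      · have := hex k hkK P2 ((g1.drop (G.c k + 1)).take (p0 - (G.c k + 1))) 1 v2 b hl2 hlam2 hb'
        rw [this, e1, mul_one]
        rfl
    have hm0 := hmain v _ hPl hlam'
    rw [hsplit] at hm0
    refine ⟨(g1 ++ R).take (G.c k + 1), (g1 ++ R).drop (G.c k + 1), psi (g1 ++ R) v,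
      (List.take_append_drop _ _).symm, ⟨k, hkK, ?_, ?_⟩, ⟨k, hkK, ?_, ?_⟩⟩
    · rw [et]; exact hPl
    · rw [et]; exact hlam'
    · intro v2 P2 hl2 hlam2
      obtain ⟨c1, c2, c3⟩ := hmain v2 P2 hl2 hlam2
      rw [ed, ← List.append_assoc]
      have hZ2 : (P2 ++ g1.drop (G.c k + 1)) ++ R ∈ Zn (Wo n SS) z0 := by
        refine zn_shift (P := g1.take (G.c k + 1)) hR ?_ ?_ c1 (by omega)
        · rw [hsplit]; exact hW
        · rw [hsplit]; exact hno
      refine ⟨⟨hZ2, P2 ++ g1.drop (G.c k + 1), ⟨c1, ?_⟩, List.prefix_append _ _⟩, ?_⟩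
      · have hlen : (P2 ++ g1.drop (G.c k + 1)).length = g1.length := by
          rw [List.length_append]; omega
        rcases hg1.2 with (h | ⟨t, ht1, ht2, ht3⟩) | h
        · left; left; rw [hlen]; exact h
        · left; right
          refine ⟨t, ht1, ht2, ?_⟩
          have hs := wo_shift (n := n) (SS := SS) (P := g1.take (G.c k + 1)) (P2 := P2)
            (Q := g1.drop (G.c k + 1)) (s := t - (G.c k + 1)) (by omega) (by omega)
          rw [hsplit, hPl, hl2] at hs
          have et2 : G.c k + 1 + (t - (G.c k + 1)) = t := by omega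
          rw [et2] at hs
          exact hs.1 ht3
        · right; rw [hlen]; exact h
      · show aff (ph f) d _ v2 = aff (ph f) d _ v
        rw [aff_dd c1, aff_dd hg]
        unfold bl
        rw [c2, c3, hm0.2.1]
    · intro k' hk' hne P hP
      by_contra hcon
      exact hkJ (Finset.mem_filter.2 ⟨Finset.mem_range.2 hkK, k', hk', hne, P, hP, hcon⟩)
  · -- rest
    intro s
    have h1 := HL.setOf_not (HL.prefix hZ)
    have h2 := HL.setOf_and h1 (hval (z0 + 1) S f s)
    refine (HL.mono (by omega) h2).congr fun w => ?_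
    constructor
    · rintro ⟨hw, hs⟩
      exact ⟨fun ⟨z, hz, hzw⟩ => hw z hz hzw, nw_rest hw, hs⟩
    · rintro ⟨hw, _, hs⟩
      exact ⟨fun z hz hzw => hw ⟨z, hz, hzw⟩, hs⟩

/-- The row from the gadget. -/
theorem row_of_gad [Finite α]
    (hG : ∀ (S : Type u) [Monoid S] [Finite S] (f : α → S), ∃ C0, ∀ K, Nonempty (Gad f C0 K))
    (L : Language α) (hL : L.IsRegular) :
    ∃ e : GRegExp α, e.height ≤ 3 ∧ e.lang = L :=
  row2 (fun S _ _ f => data2_of_gad f (hG S f)) L hL

end Crest.Agent.R320.D2_644
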