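import Crest.Agent.R320.D2_962

/-!
# Row 320: `Main_621.Data` from a gadget, part 3: completeness of scheme B (helper962)
-/

set_option autoImplicit false

namespace Crest.Agent.R320.D962

open Crest.Agent.R320.Hk_851 Crest.Agent.R320.Star_621 Crest.Agent.R320.Two_621
open Crest.RegLang Crest.Agent.R320

namespace ParB

variable {α S : Type} [Monoid S] {D : Par α S} (B : ParB D)

/-- walls of a shifted text -/
theorem shift {z P' : List α} {k k' : ℕ} (hk : B.c k ≤ D.p0)
    (hP' : P'.length = B.c k') {s : ℕ} (hs : D.p0 + D.n ≤ s) (hsz : s ≤ z.length) :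
    D.Wo ((P' ++ z.drop (B.c k)).take (s + B.c k' - B.c k)) ↔ D.Wo (z.take s) := by
  have e1 : (P' ++ z.drop (B.c k)).take (s + B.c k' - B.c k)
      = P' ++ (z.drop (B.c k)).take (s - B.c k) := by
    rw [List.take_append, List.take_of_length_le (by omega)]
    congr 2
    omega
  have e2 : z.take s = z.take (B.c k) ++ (z.drop (B.c k)).take (s - B.c k) := by
    rw [← List.drop_take]
    have := List.take_append_drop (B.c k) (z.take s)
    rw [List.take_take, min_eq_left (by omega)] at this
    exact this.symm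
  have hl : ((z.drop (B.c k)).take (s - B.c k)).length = s - B.c k := by
    rw [List.length_take, List.length_drop]; omega
  rw [e1, e2, D.hloc _ _ (by omega), D.hloc _ _ (by omega)]

theorem compB {z : List α} (hz : z ∈ D.Zc) (v : Tok (TT S)) : Cut B.LB B.RB v z := by
  classical
  obtain ⟨X, Y, R, rfl, hX, hY, hC, hR⟩ := hz
  set z := X ++ (Y ++ R) with hzdef
  have hq := D.hq0
  have hq1 := D.hq1
  have hq0' := B.hq0'
  have hp0 := D.hp0
  have hY1 := hY.1
  have hR1 := hR.1
  have hlz : z.length = D.p0 + (Y.length + R.length) := by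
    rw [hzdef, List.length_append, List.length_append, hX]
  obtain ⟨I, hI, hIk⟩ := B.complete X (D.th (Y ++ R)) v (fun k hk => by
    rw [hX]; exact B.hcp k hk)
  -- the region wall
  obtain ⟨s0, hs0a, hs0b⟩ : ∃ s0, D.q0 ≤ s0 ∧ ∀ s, s ≤ z.length → D.Wo (z.take s) →
      D.q0 ≤ s → s ≤ 2 * D.p0 + D.q0 + 2 * D.N → s = s0 := by
    by_cases h : ∃ s, s ≤ z.length ∧ D.Wo (z.take s) ∧ D.q0 ≤ s ∧
        s ≤ 2 * D.p0 + D.q0 + 2 * D.N
    · obtain ⟨s0, h1, h2, h3, h4⟩ := h
      exact ⟨s0, h3, fun s g1 g2 g3 g4 => B.region g1 h1 g2 h2 g3 g4 h3 h4⟩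
    · push Not at h
      exact ⟨D.q0, le_rfl, fun s g1 g2 g3 g4 => absurd g4 (by have := h s g1 g2 g3; omega)⟩
  let Bs : ℕ → Finset (ℕ × ℕ) := fun T => ((Finset.range B.K) ×ˢ (Finset.range B.K)).filter
      (fun ab : ℕ × ℕ => ab.1 ≠ ab.2 ∧ D.Bad (T + B.c ab.1 - B.c ab.2))
  let Es : Finset (ℕ × ℕ) := ((Finset.range B.K) ×ˢ (Finset.range B.K)).filter
      (fun ab : ℕ × ℕ => ab.1 ≠ ab.2 ∧
        |((B.c ab.2 : ℤ) - B.c ab.1) - ((s0 : ℤ) - D.p0 - D.q0 - D.N)| ≤ D.N)
  have hEs : Es.card ≤ 1 := by
    rw [Finset.card_le_one]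
    rintro ⟨a, b⟩ h1 ⟨a', b'⟩ h2
    simp only [Es, Finset.mem_filter, Finset.mem_product, Finset.mem_range] at h1 h2
    obtain ⟨⟨ha, hb⟩, hab, h3⟩ := h1
    obtain ⟨⟨ha', hb'⟩, hab', h4⟩ := h2
    rw [abs_le] at h3 h4
    obtain ⟨e1, e2⟩ := B.golomb b a b' a' hb ha hb' ha' (Ne.symm hab) (Ne.symm hab')
      (by rw [abs_le]; constructor <;> linarith [h3.1, h3.2, h4.1, h4.2])
    rw [e1, e2]
  have hBs : ∀ T, D.p0 ≤ T → (Bs T).card ≤ B.C0 := fun T hT =>
    B.spoil T fun k hk => (B.hcp k hk).trans hT
  let Sp : Finset ℕ := (Es ∪ (Bs (s0 - D.p0) ∪ (Bs Y.length ∪ Bs (z.length - D.p0)))).image Prod.snd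
  have hSp : Sp.card ≤ 3 * B.C0 + 1 := by
    refine Finset.card_image_le.trans ((Finset.card_union_le _ _).trans ?_)
    have h1 := Finset.card_union_le (Bs (s0 - D.p0)) (Bs Y.length ∪ Bs (z.length - D.p0))
    have h2 := Finset.card_union_le (Bs Y.length) (Bs (z.length - D.p0))
    have h3 := hBs (s0 - D.p0) (by omega)
    have h4 := hBs Y.length (by omega)
    have h5 := hBs (z.length - D.p0) (by omega)
    omega
  obtain ⟨k, hkI, hkS⟩ : ∃ k ∈ I, k ∉ Sp := by
    by_contra hcon
    push Not at hcon
    have := Finset.card_le_card (fun k hk => hcon k hk : I ⊆ Sp)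
    omega
  obtain ⟨hkK, hl1, hr1⟩ := hIk k hkI
  obtain ⟨b, hb⟩ := Option.isSome_iff_exists.1 hr1
  have hck := B.hcp k hkK
  have hXs : X.take (B.c k) ++ X.drop (B.c k) = X := List.take_append_drop _ _
  have hlt : (X.take (B.c k)).length = B.c k := by rw [List.length_take]; omega
  have hzd : z.drop (B.c k) = X.drop (B.c k) ++ (Y ++ R) := by
    rw [hzdef, List.drop_append_of_le_length (by omega)]
  refine ⟨X.take (B.c k), z.drop (B.c k), b, ?_, ⟨k, hkK, hlt, hl1⟩, ?_⟩
  · rw [hzd, ← List.append_assoc, hXs]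
  · rintro ω P' ⟨k', hk', hP', hl'⟩
    by_cases hkk : k' = k
    · subst hkk
      left
      have e : P' ++ z.drop (B.c k') = (P' ++ X.drop (B.c k')) ++ (Y ++ R) := by
        rw [hzd, List.append_assoc]
      have hlX : (P' ++ X.drop (B.c k')).length = D.p0 := by
        rw [List.length_append, List.length_drop, hP', hX]; omega
      rw [e]
      refine ⟨⟨_, Y, R, rfl, hlX, hY, hC, hR⟩, ?_⟩
      rw [B.psi_eq hlX]
      exact (B.sound k' hk' P' (X.drop (B.c k')) (D.th (Y ++ R)) ω b hP' hl' hb).symm
    · right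
      have hck' := B.hcp k' hk'
      have hGl : (P' ++ z.drop (B.c k)).length = z.length + B.c k' - B.c k := by
        rw [List.length_append, List.length_drop, hP']; omega
      set G := P' ++ z.drop (B.c k) with hG
      have hWz : D.Wo (z.take z.length) := by
        rw [List.take_length, hzdef, D.hloc _ _ (by rw [List.length_append]; omega),
          D.hloc _ _ (by omega)]
        exact hR.2.1
      have hWG : D.Wo G := by
        have := (B.shift (k := k) (k' := k') hck hP' (s := z.length) (by omega) le_rfl).2 hWz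
        rw [← hG, ← hGl, List.take_length] at this
        exact this
      have hGd : (G.drop D.p0).length = z.length + B.c k' - B.c k - D.p0 := by
        rw [List.length_drop, hGl]
      have hWGd : D.Wo ((G.drop D.p0).take (G.drop D.p0).length) := by
        rw [List.take_length]
        rw [← List.take_append_drop D.p0 G, D.hloc _ _ (by omega)] at hWG
        exact hWG
      obtain ⟨Y', R', e, hY', -⟩ := fw_exists (Wo := D.Wo) (q := D.N + D.q0) le_rfl
        (by rw [hGd]; omega) hWGd
      have hGe : G = (G.take D.p0 ++ Y') ++ R' := by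
        rw [List.append_assoc, ← e, List.take_append_drop]
      have hlG : (G.take D.p0).length = D.p0 := by rw [List.length_take, hGl]; omega
      refine ⟨G.take D.p0 ++ Y', ⟨G.take D.p0, Y', rfl, hlG, hY', ?_⟩, ⟨R', hGe.symm⟩⟩
      intro hCr
      have hY'1 := hY'.1
      have hY'l : D.p0 + Y'.length ≤ G.length := by
        have := congrArg List.length hGe
        simp only [List.length_append] at this
        rw [hlG] at this; omega
      -- walls of `G` seen as walls of `z`
      have tr : ∀ t, t ≤ Y'.length → D.q0 ≤ t → D.Wo (Y'.take t) →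
          D.p0 + t + B.c k - B.c k' ≤ z.length ∧
            D.Wo (z.take (D.p0 + t + B.c k - B.c k')) := by
        intro t ht1 ht2 hW
        have h1 : D.p0 + t + B.c k - B.c k' ≤ z.length := by omega
        refine ⟨h1, ?_⟩
        rw [← B.shift (k := k) (k' := k') hck hP' (by omega) h1, ← hG]
        have e3 : D.p0 + t + B.c k - B.c k' + B.c k' - B.c k = D.p0 + t := by omega
        rw [e3, hGe, List.append_assoc, List.take_append, List.take_of_length_le (by omega), hlG,
          show D.p0 + t - D.p0 = t by omega, List.take_append_of_le_length ht1,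
          D.hloc _ _ (by rw [List.length_take]; omega)]
        exact hW
      apply hkS
      rcases hCr with ⟨t, ht1, ht2, ht3, hW⟩ | hBad
      · obtain ⟨h1, h2⟩ := tr t ht1 ht2 hW
        have h3 := hs0b _ h1 h2 (by omega) (by omega)
        refine Finset.mem_image.2 ⟨(k', k), Finset.mem_union_left _ ?_, rfl⟩
        simp only [Es, Finset.mem_filter, Finset.mem_product, Finset.mem_range]
        refine ⟨⟨hk', hkK⟩, hkk, ?_⟩
        rw [abs_le]
        constructor <;> omega
      · obtain ⟨h1, h2⟩ := tr Y'.length le_rfl (by omega) (by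
          rw [List.take_length]; exact hY'.2.1)
        have hmem : ∀ T, T + B.c k' - B.c k = Y'.length → (k', k) ∈ Bs T := by
          intro T hT
          simp only [Bs, Finset.mem_filter, Finset.mem_product, Finset.mem_range]
          exact ⟨⟨hk', hkK⟩, hkk, by rw [hT]; exact hBad⟩
        refine Finset.mem_image.2 ⟨(k', k), Finset.mem_union_right _ ?_, rfl⟩
        by_cases hr : D.p0 + Y'.length + B.c k - B.c k' ≤ 2 * D.p0 + D.q0 + 2 * D.N
        · have h3 := hs0b _ h1 h2 (by omega) hr
          exact Finset.mem_union_left _ (hmem _ (by omega))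
        · rcases B.wall_z hX hY hR h1 h2 (by omega) with h4 | h4
          · exact Finset.mem_union_right _ (Finset.mem_union_left _ (hmem _ (by omega)))
          · rw [← hzdef] at h4
            exact Finset.mem_union_right _ (Finset.mem_union_right _ (hmem _ (by omega)))

end ParB

end Crest.Agent.R320.D962
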