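import Crest.Agent.R320.Main_621
import Crest.Agent.R320.FewVal_228
import Crest.Agent.R320.ExactR_237
import Crest.Agent.R320.Reg_143

/-! Row 320: `Main_621.Data` from one all-words gadget (helper290), part 1: blocks. -/

set_option autoImplicit false

namespace Crest.Agent.R320.DA_290

open Crest.RegLang Crest.Agent.R320.Hk_851 Crest.Agent.R320.Star_621 Crest.Agent.R320.Two_621
open Crest.Agent.R320.FewWalls_228

variable {α : Type}

/-- wall whose window ends at `t` -/
def We (n : ℕ) (S : Set (List α)) (w : List α) (t : ℕ) : Prop := n ≤ t ∧ Wl n S w (t - n)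

variable {n : ℕ} {S : Set (List α)}

theorem We.le {w : List α} {t : ℕ} (h : We n S w t) : n ≤ t ∧ t ≤ w.length := by
  have := h.1; have h2 := h.2.1; omega

theorem we_take {w : List α} {t m : ℕ} (h : t ≤ m) : We n S (w.take m) t ↔ We n S w t := by
  unfold We Wl
  refine and_congr_right fun hn => ?_
  have e : ((w.take m).drop (t - n)).take n = (w.drop (t - n)).take n := by
    rw [List.drop_take, List.take_take, Nat.min_eq_left (by omega)]
  rw [e, List.length_take]
  refine and_congr_left fun _ => ?_
  omega

theorem we_left {P Q : List α} {t : ℕ} (h : t ≤ P.length) :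
    We n S (P ++ Q) t ↔ We n S P t := by
  have := we_take (n := n) (S := S) (w := P ++ Q) h
  rw [List.take_left] at this
  exact this.symm

theorem we_right {P Q : List α} {t : ℕ} (h : n ≤ t) :
    We n S (P ++ Q) (P.length + t) ↔ We n S Q t := by
  unfold We Wl
  have e : (P ++ Q).drop (P.length + t - n) = Q.drop (t - n) := by
    rw [show P.length + t - n = P.length + (t - n) by omega, ← List.drop_drop, List.drop_left]
  rw [e, List.length_append]
  constructor
  · rintro ⟨_, h2, h3⟩; exact ⟨h, by omega, h3⟩
  · rintro ⟨_, h2, h3⟩; exact ⟨by omega, by omega, h3⟩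

/-- right part of a block whose anchor is `d` letters to the left -/
def Blk (n : ℕ) (S : Set (List α)) (z d : ℕ) (Q : List α) : Prop :=
  We n S Q Q.length ∧ ∃ t < Q.length, z ≤ d + t ∧ We n S Q t ∧
    ∀ s < Q.length, z ≤ d + s → We n S Q s → s = t

theorem blk_append {z d : ℕ} {P Q : List α} (h : d + P.length + n ≤ z) :
    Blk n S z d (P ++ Q) ↔ Blk n S z (d + P.length) Q := by
  unfold Blk
  constructor
  · rintro ⟨h1, t, h2, h3, h4, h5⟩
    rw [List.length_append] at h1 h2 h5
    obtain ⟨t', rfl⟩ : ∃ t', t = P.length + t' := ⟨t - P.length, by omega⟩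
    refine ⟨(we_right (by omega)).1 h1, t', by omega, by omega, (we_right (by omega)).1 h4,
      fun s hs hz hw => ?_⟩
    have := h5 (P.length + s) (by omega) (by omega) ((we_right (by have := hw.1; omega)).2 hw)
    omega
  · rintro ⟨h1, t, h2, h3, h4, h5⟩
    rw [List.length_append]
    refine ⟨(we_right h1.1).2 h1, P.length + t, by omega, by omega, (we_right h4.1).2 h4,
      fun s hs hz hw => ?_⟩
    obtain ⟨s', rfl⟩ : ∃ t', s = P.length + t' := ⟨s - P.length, by omega⟩
    have := h5 s' (by omega) (by omega) ((we_right (by omega)).1 hw)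
    omega

theorem code_Z (n : ℕ) (S : Set (List α)) (z : ℕ) : Code ({X | Blk n S z 0 X} : Language α) := by
  constructor
  · rintro ⟨_, t, h, _⟩
    exact absurd h (Nat.not_lt_zero _)
  · have key : ∀ X X' x x' : List α, Blk n S z 0 X → Blk n S z 0 X' → X ++ x = X' ++ x' →
        ¬ X.length < X'.length := by
      intro X X' x x' ⟨h1, t, h2, h3, h4, _⟩ ⟨_, t', _, _, _, h5'⟩ he hl
      have e1 : X'.take X.length = X := by
        have h := congrArg (fun l => l.take X.length) he
        simp only [List.take_left] at h
        rw [List.take_append_of_le_length (by omega)] at h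
        exact h.symm
      have w1 : We n S X' X.length := by
        rw [← we_take (n := n) (S := S) (w := X') (le_refl X.length), e1]; exact h1
      have w2 : We n S X' t := by
        rw [← we_take (n := n) (S := S) (w := X') (by omega : t ≤ X.length), e1]; exact h4
      have a := h5' X.length hl (by omega) w1
      have b := h5' t (by omega) (by omega) w2
      omega
    intro X X' x x' hX hX' he
    have l1 := key X X' x x' hX hX' he
    have l2 := key X' X x' x hX' hX he.symm
    exact (List.append_inj he (by omega)).1

theorem nw_le {z a b : ℕ} {w : List α} (hn : 0 < n)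
    (h : ∀ s, We n S w s → z ≤ s → s = a ∨ s = b) : nw n S w ≤ z + 2 := by
  classical
  unfold nw
  refine (Finset.card_le_card (t := Finset.range z ∪ {a - n, b - n}) ?_).trans ?_
  · intro x hx
    rw [Finset.mem_filter] at hx
    have hw : We n S w (x + n) := ⟨by omega, by rw [Nat.add_sub_cancel]; exact hx.2⟩
    rw [Finset.mem_union, Finset.mem_range, Finset.mem_insert, Finset.mem_singleton]
    rcases Nat.lt_or_ge (x + n) z with h1 | h1
    · left; omega
    · right
      rcases h _ hw h1 with h2 | h2 <;> omega
  · refine (Finset.card_union_le _ _).trans ?_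
    rw [Finset.card_range]
    have := Finset.card_le_two (a := a - n) (b := b - n)
    omega

theorem blk_nw {z d : ℕ} {w : List α} (hn : 0 < n) (h : Blk n S z d w) : nw n S w ≤ z + 2 := by
  obtain ⟨h1, t, h2, h3, h4, h5⟩ := h
  refine nw_le hn (a := t) (b := w.length) fun s hs hz => ?_
  rcases Nat.lt_or_ge s w.length with hl | hl
  · exact Or.inl (h5 s hl (by omega) hs)
  · have := hs.le; right; omega

theorem rest_nw {z : ℕ} {w : List α} (hn : 0 < n)
    (h : ∀ X ∈ ({X | Blk n S z 0 X} : Language α), ¬ X <+: w) : nw n S w ≤ z + 2 := by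
  classical
  by_cases h0 : ∃ s, We n S w s ∧ z ≤ s
  · obtain ⟨ha, hb⟩ := Nat.find_spec h0
    set t := Nat.find h0 with ht
    have hmin : ∀ s, We n S w s → z ≤ s → t ≤ s := fun s h1 h2 => Nat.find_min' h0 ⟨h1, h2⟩
    have huniq : ∀ s, We n S w s → z ≤ s → s = t := by
      intro s hs hz
      by_contra hne
      have h1 : ∃ s, We n S w s ∧ t < s := ⟨s, hs, by have := hmin s hs hz; omega⟩
      obtain ⟨hc, hd⟩ := Nat.find_spec h1
      set t' := Nat.find h1 with ht'
      have hl := hc.le
      have hlen : (w.take t').length = t' := by rw [List.length_take]; omega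
      refine h (w.take t') ?_ (List.take_prefix _ _)
      show Blk n S z 0 (w.take t')
      refine ⟨?_, t, ?_, by omega, ?_, ?_⟩
      · rw [hlen]; exact (we_take le_rfl).2 hc
      · rw [hlen]; exact hd
      · exact (we_take hd.le).2 ha
      · intro s hs hz hw
        rw [hlen] at hs
        have hw' := (we_take hs.le).1 hw
        have h2 := hmin s hw' (by omega)
        by_contra hne
        exact absurd (Nat.find_min' h1 ⟨hw', by omega⟩) (by omega)
    exact nw_le hn (a := t) (b := t) fun s hs hz => Or.inl (huniq s hs hz)
  · push Not at h0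
    exact nw_le hn (a := 0) (b := 0) fun s hs hz => absurd hz (by have := h0 s hs; omega)

/-! ### regularity -/

open Crest.R320.Reg_143 in
theorem reg_end (hS : ∀ s ∈ S, s.length = n) [Finite α] :
    (lg fun u : List α => We n S u u.length).IsRegular := by
  have h1 : (lg fun v : List α => (v.take (n + 1)) ∈ S).IsRegular := isRegular_take (n + 1) (· ∈ S)
  refine isRegular_congr (isRegular_cat isRegular_true h1) fun w => ?_
  rw [mem_lg]
  constructor
  · rintro ⟨u, v, rfl, -, hv⟩
    have hl := hS _ hv
    rw [List.length_take] at hl
    have hvn : v.length = n := by omega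
    rw [List.take_of_length_le (by omega)] at hv
    refine ⟨by rw [List.length_append]; omega, by rw [List.length_append]; omega, ?_⟩
    rw [List.length_append, show u.length + v.length - n = u.length by omega, List.drop_left,
      List.take_of_length_le (by omega)]
    exact hv
  · rintro ⟨h2, h3, h4⟩
    refine ⟨w.take (w.length - n), w.drop (w.length - n), List.take_append_drop _ _, trivial, ?_⟩
    have hl : (w.drop (w.length - n)).length = n := by rw [List.length_drop]; omega
    rw [List.take_of_length_le (by omega)]
    rwa [List.take_of_length_le (by omega)] at h4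

end Crest.Agent.R320.DA_290
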