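import Crest.Agent.R320.DA1_290

/-! Row 320: `Main_621.Data` from one all-words gadget (helper290), part 2: regularity tools. -/

set_option autoImplicit false

namespace Crest.Agent.R320.DA_290

open Crest.RegLang Crest.Agent.R320.Hk_851 Crest.Agent.R320.Star_621 Crest.Agent.R320.Two_621
open Crest.Agent.R320.FewWalls_228 Crest.R320.Reg_143

variable {α : Type}

theorem reg_and {P Q : List α → Prop} (h1 : (lg P).IsRegular) (h2 : (lg Q).IsRegular) :
    (lg fun w => P w ∧ Q w).IsRegular :=
  isRegular_congr (h1.inf h2) fun _ => Iff.rfl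

theorem reg_or {P Q : List α → Prop} (h1 : (lg P).IsRegular) (h2 : (lg Q).IsRegular) :
    (lg fun w => P w ∨ Q w).IsRegular :=
  isRegular_congr (h1.add h2) fun _ => Iff.rfl

theorem reg_not {P : List α → Prop} (h1 : (lg P).IsRegular) :
    (lg fun w => ¬ P w).IsRegular :=
  isRegular_congr h1.compl fun _ => Iff.rfl

theorem reg_const (p : Prop) : (lg fun _ : List α => p).IsRegular := by
  by_cases h : p
  · exact isRegular_congr isRegular_true fun _ => by simp [h]
  · exact isRegular_congr (reg_not isRegular_true) fun _ => by simp [h]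

theorem reg_ex {ι : Type*} [Finite ι] {P : ι → List α → Prop}
    (h : ∀ i, (lg (P i)).IsRegular) : (lg fun w => ∃ i, P i w).IsRegular := by
  have h1 : RegP (fun w (_ : Fin 0 → ℕ) => ∃ i, P i w) :=
    RegP.exists_finite fun i => RegP.mem (h i)
  exact h1.close

theorem reg_all {ι : Type*} [Finite ι] {P : ι → List α → Prop}
    (h : ∀ i, (lg (P i)).IsRegular) : (lg fun w => ∀ i, P i w).IsRegular :=
  isRegular_congr (reg_not (reg_ex fun i => reg_not (h i))) fun w => by
    simp only [mem_lg]
    push Not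
    rfl

/-- functions with regular fibres -/
def RF {κ : Type*} (g : List α → κ) : Prop := ∀ k, (lg fun w => g w = k).IsRegular

theorem RF.comp {κ κ' : Type*} [Finite κ] {g : List α → κ} (h : RF g) (F : κ → κ') :
    RF (fun w => F (g w)) := by
  intro k'
  refine isRegular_congr (reg_ex (ι := {k : κ // F k = k'}) (P := fun k w => g w = k.1)
    fun k => h k.1) fun w => ?_
  rw [mem_lg]
  constructor
  · rintro ⟨k, hk⟩; show F (g w) = k'; rw [hk]; exact k.2
  · intro hw; exact ⟨⟨g w, hw⟩, rfl⟩

theorem RF.pred {κ : Type*} [Finite κ] {g : List α → κ} (h : RF g) (F : κ → Prop) :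
    (lg fun w => F (g w)).IsRegular := by
  refine isRegular_congr (reg_ex (ι := {k : κ // F k}) (P := fun k w => g w = k.1)
    fun k => h k.1) fun w => ?_
  rw [mem_lg]
  constructor
  · rintro ⟨k, hk⟩; rw [hk]; exact k.2
  · intro hw; exact ⟨⟨g w, hw⟩, rfl⟩

theorem RF.pair {κ κ' : Type*} {g : List α → κ} {g' : List α → κ'} (h : RF g) (h' : RF g') :
    RF (fun w => (g w, g' w)) := by
  rintro ⟨a, b⟩
  exact isRegular_congr (reg_and (h a) (h' b)) fun w => by simp [mem_lg, Prod.ext_iff]

theorem RF.pi {ι κ : Type*} [Finite ι] {g : ι → List α → κ} (h : ∀ i, RF (g i)) :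
    RF (fun w i => g i w) := by
  intro k
  exact isRegular_congr (reg_all (P := fun i w => g i w = k i) fun i => h i (k i)) fun w => by
    simp [mem_lg, funext_iff]

theorem RF.prop {P : List α → Prop} (h : (lg P).IsRegular) : RF P := by
  intro k
  by_cases hk : k
  · exact isRegular_congr h fun w => by simp [mem_lg, hk]
  · exact isRegular_congr (reg_not h) fun w => by simp [mem_lg, hk]

theorem reg_bdd [Finite α] {P : List α → Prop} (N : ℕ) (h : ∀ w, P w → w.length ≤ N) :
    (lg P).IsRegular := by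
  refine isRegular_congr (isRegular_take (N + 1) P) fun w => ?_
  rw [mem_lg]
  constructor
  · intro hw
    have := h _ hw
    rw [List.length_take] at this
    rwa [List.take_of_length_le (by omega)] at hw
  · intro hw
    rwa [List.take_of_length_le (by have := h _ hw; omega)]

theorem reg_len (P : ℕ → Prop) (M : ℕ) (hM : 0 < M) (hP : ∀ t, P (t + M) ↔ P t) :
    (lg fun w : List α => P w.length).IsRegular :=
  isRegular_length P 0 M hM fun t _ => hP t

theorem reg_len_ge (m : ℕ) : (lg fun w : List α => m ≤ w.length).IsRegular :=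
  isRegular_length (fun t => m ≤ t) m 1 Nat.one_pos fun t ht => by
    constructor <;> intro _ <;> omega

theorem reg_len_eq (m : ℕ) : (lg fun w : List α => w.length = m).IsRegular :=
  isRegular_length (fun t => t = m) (m + 1) 1 Nat.one_pos fun t ht => by
    constructor <;> intro _ <;> omega

/-- `P (w.drop m)` for long words -/
theorem reg_drop {P : List α → Prop} (m : ℕ) (h : (lg P).IsRegular) :
    (lg fun w => m ≤ w.length ∧ P (w.drop m)).IsRegular := by
  refine isRegular_congr (isRegular_cat (reg_len_eq m) h) fun w => ?_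
  rw [mem_lg]
  constructor
  · rintro ⟨u, v, rfl, hu, hv⟩
    refine ⟨by rw [List.length_append]; omega, ?_⟩
    rw [← hu, List.drop_left]; exact hv
  · rintro ⟨h1, h2⟩
    exact ⟨w.take m, w.drop m, List.take_append_drop _ _, by rw [List.length_take]; omega, h2⟩

variable {n : ℕ} {S : Set (List α)}

section
variable [Finite α] (hS : ∀ s ∈ S, s.length = n)
include hS

theorem rp_we {k : ℕ} (i : Fin k) : RegP (fun (w : List α) x => We n S w (x i)) :=
  (RegP.take (reg_end hS) i).congr fun w x hx => by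
    have : (w.take (x i)).length = x i := by rw [List.length_take]; have := hx i; omega
    rw [this, we_take le_rfl]

omit hS in
theorem rp_lt {k : ℕ} (i : Fin k) : RegP (fun (w : List α) x => x i < w.length) :=
  (RegP.drop (P := fun v : List α => 1 ≤ v.length) (reg_len_ge 1) i).congr fun w x hx => by
    rw [List.length_drop]; have := hx i; omega

omit hS in
theorem rp_ge {k : ℕ} (z d : ℕ) (i : Fin k) : RegP (fun (_ : List α) x => z ≤ d + x i) :=
  (RegP.take (P := fun v : List α => z - d ≤ v.length) (reg_len_ge (z - d)) i).congr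
    fun w x hx => by
      rw [List.length_take]; have := hx i; omega

/-- `t` is the only wall in `[z - d', |Q|)`, and `z - d ≤ t` -/
def Tw (n : ℕ) (S : Set (List α)) (z d d' : ℕ) (Q : List α) (t : ℕ) : Prop :=
  t < Q.length ∧ z ≤ d + t ∧ We n S Q t ∧ ∀ s ≤ Q.length, s < Q.length → z ≤ d' + s →
    We n S Q s → s = t

theorem rp_tw (z d d' : ℕ) : RegP (fun (w : List α) (x : Fin 1 → ℕ) => Tw n S z d d' w (x 0)) := by
  refine (rp_lt 0).and ((rp_ge z d 0).and ((rp_we hS 0).and (RegP.all' ?_)))
  exact (rp_lt 0).imp ((rp_ge z d' 0).imp ((rp_we hS 0).imp (RegP.eq 0 1)))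

theorem reg_tw (z d d' : ℕ) {A B : List α → Prop} (hA : (lg A).IsRegular)
    (hB : (lg B).IsRegular) :
    (lg fun w => We n S w w.length ∧ ∃ t ≤ w.length, Tw n S z d d' w t ∧ A (w.take t) ∧
      B (w.drop t)).IsRegular := by
  have h1 : RegP (fun (w : List α) (x : Fin 0 → ℕ) => ∃ t ≤ w.length, Tw n S z d d' w t ∧
      A (w.take t) ∧ B (w.drop t)) :=
    RegP.ex' (P := fun w _ t => Tw n S z d d' w t ∧ A (w.take t) ∧ B (w.drop t))
      ((rp_tw hS z d d').and ((RegP.take hA 0).and (RegP.drop hB 0)))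
  exact reg_and (reg_end hS) h1.close

theorem reg_blk (z d : ℕ) : (lg fun w => Blk n S z d w).IsRegular := by
  refine isRegular_congr (reg_tw hS z d d (isRegular_true) (isRegular_true)) fun w => ?_
  rw [mem_lg]
  constructor
  · rintro ⟨h1, t, h2, ⟨h3, h4, h5, h6⟩, -⟩
    exact ⟨h1, t, h3, h4, h5, fun s hs => h6 s hs.le hs⟩
  · rintro ⟨h1, t, h3, h4, h5, h6⟩
    exact ⟨h1, t, h3.le, ⟨h3, h4, h5, fun s _ hs => h6 s hs⟩, trivial, trivial⟩

/-- badness seen from a right word whose anchor is `d` letters to the left -/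
def BadR (n : ℕ) (S : Set (List α)) (z N1 p0 : ℕ) (BT : ℕ → Prop) (d : ℕ) (Q : List α) : Prop :=
  (∃ t ≤ Q.length, z ≤ d + N1 + t ∧ ¬ (z + N1 ≤ d + t) ∧ We n S Q t) ∨
  (∃ t ≤ Q.length, We n S Q t ∧ z ≤ d + t ∧
    (∀ s ≤ Q.length, s < t → We n S Q s → ¬ (z ≤ d + s)) ∧ BT (d + t - p0))

omit [Finite α] hS in
theorem badR_append {z N1 p0 d : ℕ} {BT : ℕ → Prop} {P Q : List α}
    (h : d + P.length + n + N1 ≤ z) :
    BadR n S z N1 p0 BT d (P ++ Q) ↔ BadR n S z N1 p0 BT (d + P.length) Q := by
  unfold BadR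
  refine or_congr ?_ ?_
  · constructor
    · rintro ⟨t, h1, h2, h3, h4⟩
      rw [List.length_append] at h1
      obtain ⟨t', rfl⟩ : ∃ t', t = P.length + t' := ⟨t - P.length, by omega⟩
      exact ⟨t', by omega, by omega, by omega, (we_right (by omega)).1 h4⟩
    · rintro ⟨t, h1, h2, h3, h4⟩
      exact ⟨P.length + t, by rw [List.length_append]; omega, by omega, by omega,
        (we_right h4.1).2 h4⟩
  · constructor
    · rintro ⟨t, h1, h2, h3, h4, h5⟩
      rw [List.length_append] at h1 h4
      obtain ⟨t', rfl⟩ : ∃ t', t = P.length + t' := ⟨t - P.length, by omega⟩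
      refine ⟨t', by omega, (we_right (by omega)).1 h2, by omega, fun s hs hst hw hz => ?_, ?_⟩
      · exact h4 (P.length + s) (by omega) (by omega) ((we_right hw.1).2 hw) (by omega)
      · rwa [show d + P.length + t' - p0 = d + (P.length + t') - p0 by omega]
    · rintro ⟨t, h1, h2, h3, h4, h5⟩
      refine ⟨P.length + t, by rw [List.length_append]; omega, (we_right h2.1).2 h2, by omega,
        fun s hs hst hw hz => ?_, ?_⟩
      · obtain ⟨s', rfl⟩ : ∃ t', s = P.length + t' := ⟨s - P.length, by omega⟩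
        rw [List.length_append] at hs
        exact h4 s' (by omega) (by omega) ((we_right (by omega)).1 hw) (by omega)
      · rwa [show d + (P.length + t) - p0 = d + P.length + t - p0 by omega]

theorem reg_badR (z N1 p0 d M : ℕ) (BT : ℕ → Prop) (hM : 0 < M) (hBT : ∀ t, BT (t + M) ↔ BT t) :
    (lg fun w => BadR n S z N1 p0 BT d w).IsRegular := by
  refine reg_or ?_ ?_
  · have h1 : RegP (fun (w : List α) (x : Fin 0 → ℕ) => ∃ t ≤ w.length, z ≤ d + N1 + t ∧
        ¬ (z + N1 ≤ d + t) ∧ We n S w t) :=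
      RegP.ex' (P := fun w _ t => z ≤ d + N1 + t ∧ ¬ (z + N1 ≤ d + t) ∧ We n S w t)
        ((rp_ge z (d + N1) 0).and ((rp_ge (z + N1) d 0).not.and (rp_we hS 0)))
    exact h1.close
  · have hB : (lg fun u : List α => BT (d + u.length - p0)).IsRegular :=
      isRegular_length (fun t => BT (d + t - p0)) p0 M hM fun t ht => by
        rw [show d + (t + M) - p0 = d + t - p0 + M by omega, hBT]
    have h1 : RegP (fun (w : List α) (x : Fin 0 → ℕ) => ∃ t ≤ w.length, We n S w t ∧ z ≤ d + t ∧
        (∀ s ≤ w.length, s < t → We n S w s → ¬ (z ≤ d + s)) ∧ BT (d + (w.take t).length - p0)) := by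
      refine RegP.ex' (P := fun w _ t => We n S w t ∧ z ≤ d + t ∧
        (∀ s ≤ w.length, s < t → We n S w s → ¬ (z ≤ d + s)) ∧ BT (d + (w.take t).length - p0))
        ((rp_we hS 0).and ((rp_ge z d 0).and (RegP.and (RegP.all' ?_) (RegP.take hB 0))))
      exact (RegP.lt 0 1).imp ((rp_we hS 0).imp (rp_ge z d 0).not)
    refine isRegular_congr h1.close fun w => ?_
    rw [mem_lg]
    constructor
    · rintro ⟨t, h2, h3, h4, h5, h6⟩
      rw [List.length_take, min_eq_left h2] at h6
      exact ⟨t, h2, h3, h4, h5, h6⟩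
    · rintro ⟨t, h2, h3, h4, h5, h6⟩
      refine ⟨t, h2, h3, h4, h5, ?_⟩
      rw [List.length_take, min_eq_left h2]
      exact h6

end

end Crest.Agent.R320.DA_290
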