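import Crest.Agent.R320.DA2_290

/-! Row 320: `Main_621.Data` from one all-words gadget (helper290), part 3: the two schemes. -/

set_option autoImplicit false

namespace Crest.Agent.R320.DA_290

open Crest.RegLang Crest.Agent.R320.Hk_851 Crest.Agent.R320.Star_621 Crest.Agent.R320.Two_621
open Crest.Agent.R320.FewWalls_228 Crest.R320.Reg_143

/-- transition monoid of the tokens of scheme A -/
abbrev Op (Mo : Type) [Monoid Mo] : Type := (Function.End (Option (Tok Mo)))ᵐᵒᵖ

structure Prm (α Mo : Type) [Monoid Mo] where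
  f : α → Mo
  n : ℕ
  S : Set (List α)
  W : ℕ
  z : ℕ
  p0 : ℕ
  N1 : ℕ
  Tm : ℕ
  Lam : ℕ
  BT : ℕ → Prop
  lam : List α → Option (Tok Mo)
  rho : List α → Option (Tok Mo)
  nu : List α → Tok Mo
  K : ℕ
  R : ℕ
  C0 : ℕ
  c : ℕ → ℕ
  lam2 : ℕ → List α → Option (Tok (Op Mo))
  rho2 : ℕ → List α → Op Mo → Option (Tok (Op Mo))
  nu2 : List α → Op Mo → Tok (Op Mo)

variable {α Mo : Type} [Monoid Mo]

namespace Prm

variable (p : Prm α Mo)

def ph (w : List α) : Mo := (w.map p.f).prod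

theorem ph_append (u w : List α) : p.ph (u ++ w) = p.ph u * p.ph w := by simp [ph]

def Z : Language α := {X | Blk p.n p.S p.z 0 X}

def Bd (d : ℕ) (Q : List α) : Prop := BadR p.n p.S p.z p.N1 p.p0 p.BT d Q

def Zc : Language α := {X | Blk p.n p.S p.z 0 X ∧ p.Bd 0 X}

def LA (v : Tok Mo) : Language α :=
  {P | ∃ X P', P = X ++ P' ∧ X.length = p.p0 ∧ p.lam P' = some (act v (p.ph X))}

def RA (τ : Tok Mo) : Language α :=
  {Q | We p.n p.S Q Q.length ∧ ∃ t ≤ Q.length, Tw p.n p.S p.z p.p0 (p.p0 + p.N1) Q t ∧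
    ∃ r, p.rho (Q.take t) = some r ∧ act r (p.ph (Q.drop t)) = τ}

def legal (u : List α) : Prop := ∃ P Q, P ++ Q = u ∧ (p.lam P).isSome ∧ (p.rho Q).isSome

open Classical in
noncomputable def nu1 (u : List α) : Tok Mo := if p.legal u then p.nu u else 0

open Classical in
noncomputable def dY (Y : List α) : Tok Mo :=
  if h : ∃ t, t ≤ Y.length ∧ Tw p.n p.S p.z p.p0 p.p0 Y t then
    act (p.nu1 (Y.take h.choose)) (p.ph (Y.drop h.choose)) else 0

noncomputable def dA (X : List α) : Tok Mo := p.dY (X.drop p.p0)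

def cutY (v : Tok Mo) (Y : List α) : Prop :=
  ∃ P Q τ, Y = P ++ Q ∧ p.lam P = some v ∧ Q ∈ p.RA τ

noncomputable def psY (Y : List α) (v : Tok Mo) : Tok Mo := act v (p.ph Y) + p.dY Y

open Classical in
noncomputable def yf (Y : List α) : Op Mo :=
  MulOpposite.op fun o => o.bind fun v => if p.cutY v Y then none else some (p.psY Y v)

def Jf (s : Mo) : Op Mo := MulOpposite.op fun o => o.map fun v => act v s

theorem Jf_one : Jf (1 : Mo) = 1 := by
  apply MulOpposite.unop_injective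
  funext o
  cases o with
  | none => rfl
  | some v => show some (act v 1) = some v; rw [act_one]

theorem Jf_mul (s t : Mo) : Jf (s * t) = Jf s * Jf t := by
  apply MulOpposite.unop_injective
  funext o
  cases o with
  | none => rfl
  | some v => show some (act v (s * t)) = some (act (act v s) t); rw [act_mul]

theorem Jf_prod (u : List α) : (u.map fun a => Jf (p.f a)).prod = Jf (p.ph u) := by
  induction u with
  | nil => exact Jf_one.symm
  | cons a u ih =>
    rw [List.map_cons, List.prod_cons, ih, ← Jf_mul]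
    congr 1

theorem tw_unique {n z d t t' : ℕ} {S : Set (List α)} {Y : List α} (h : Tw n S z d d Y t)
    (h' : Tw n S z d d Y t') : t = t' :=
  h'.2.2.2 t h.1.le h.1 h.2.1 h.2.2.1

theorem dY_eq {Y : List α} {t : ℕ} (h : Tw p.n p.S p.z p.p0 p.p0 Y t) :
    p.dY Y = act (p.nu1 (Y.take t)) (p.ph (Y.drop t)) := by
  classical
  unfold dY
  have hex : ∃ t, t ≤ Y.length ∧ Tw p.n p.S p.z p.p0 p.p0 Y t := ⟨t, h.1.le, h⟩
  rw [dif_pos hex, tw_unique hex.choose_spec.2 h]

/-- hypotheses -/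
structure Ok : Prop where
  hn : 0 < p.n
  sep : ∀ (w : List α) (x y : ℕ), x < y → Wl p.n p.S w x → Wl p.n p.S w y → x + p.W ≤ y
  hW : 2 * p.Lam + 2 * p.N1 + 2 ≤ p.W
  hz : p.p0 + p.N1 + p.n + p.Tm + 2 * p.Lam + 1 ≤ p.z
  hc0 : ∀ k < p.K, 0 < p.c k
  hcL : ∀ k < p.K, p.c k ≤ p.Lam
  hL : p.Lam < p.p0
  lamN : ∀ P v, p.lam P = some v → P.length ≤ p.N1
  snd : ∀ P Q v r, p.lam P = some v → p.rho Q = some r →
    r = act v (p.ph (P ++ Q)) + p.nu (P ++ Q)
  cmp : ∀ u, p.Tm ≤ u.length → ¬ p.BT u.length → ∀ v, ∃ P Q, P ++ Q = u ∧ p.lam P = some v ∧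
    (p.rho Q).isSome
  snd2 : ∀ k < p.K, ∀ (P Q : List α) (y : Op Mo) (v b : Tok (Op Mo)), P.length = p.c k →
    p.lam2 k P = some v → p.rho2 k Q y = some b →
    b = act v (((P ++ Q).map fun a => Jf (p.f a)).prod * y) + p.nu2 (P ++ Q) y
  cmp2 : ∀ (u : List α) (y : Op Mo) (v : Tok (Op Mo)), (∀ k < p.K, p.c k ≤ u.length) →
    ∃ I : Finset ℕ, p.R ≤ I.card ∧ ∀ k ∈ I, k < p.K ∧ p.lam2 k (u.take (p.c k)) = some v ∧
      (p.rho2 k (u.drop (p.c k)) y).isSome
  hR : 2 + 2 * p.C0 ≤ p.R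
  gol : ∀ i j k l, i < p.K → j < p.K → k < p.K → l < p.K → i ≠ j → k ≠ l →
    |((p.c i : ℤ) - p.c j) - (p.c k - p.c l)| ≤ 2 * p.N1 → i = k ∧ j = l
  spoil : ∀ T : ℕ, p.Tm ≤ T → p.Lam ≤ T → ∀ F : Finset (ℕ × ℕ), (∀ a ∈ F, a.1 < p.K ∧ a.2 < p.K ∧
    a.1 ≠ a.2 ∧ p.BT (T + p.c a.1 - p.c a.2)) → F.card ≤ p.C0

variable {p}

theorem Ok.wsep (h : p.Ok) {w : List α} {s t : ℕ} (hst : s < t) (hs : We p.n p.S w s)
    (ht : We p.n p.S w t) : s + p.W ≤ t := by
  have := h.sep w (s - p.n) (t - p.n) (by have := hs.1; omega) hs.2 ht.2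
  have := hs.1
  omega

theorem Ok.soundA (h : p.Ok) : Sound p.Z (aff p.ph p.dA) p.LA p.RA := by
  classical
  have hz := h.hz
  refine ⟨?_, ?_⟩
  · rintro v ⟨X, P', he, hX, -⟩
    have : X = [] := (List.append_eq_nil_iff.1 he.symm).1
    subst this
    have := h.hL
    simp only [List.length_nil] at hX
    omega
  · rintro v τ P Q X x y ⟨X0, P', rfl, hX0, hlam⟩ ⟨hQ1, t, htQ, hTw, r, hr, hτ⟩ hX he
    have hN := h.lamN _ _ hlam
    have hP : (X0 ++ P').length = p.p0 + P'.length := by rw [List.length_append, hX0]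
    have hb : Blk p.n p.S p.z 0 (X0 ++ P' ++ Q) := by
      rw [blk_append (by rw [hP]; omega)]
      refine ⟨hQ1, t, hTw.1, by have := hTw.2.1; omega, hTw.2.2.1, fun s hs hzs hw => ?_⟩
      exact hTw.2.2.2 s hs.le hs (by omega) hw
    have e1 : X0 ++ P' ++ Q = X := (code_Z p.n p.S p.z).2 _ _ x y hb hX he
    refine ⟨e1, ?_⟩
    subst e1
    have hdrop : (X0 ++ P' ++ Q).drop p.p0 = P' ++ Q := by
      rw [List.append_assoc, ← hX0, List.drop_left]
    have hTY : Tw p.n p.S p.z p.p0 p.p0 (P' ++ Q) (P'.length + t) := by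
      refine ⟨by rw [List.length_append]; have := hTw.1; omega, by have := hTw.2.1; omega,
        (we_right hTw.2.2.1.1).2 hTw.2.2.1, fun s _ hs hzs hw => ?_⟩
      rw [List.length_append] at hs
      obtain ⟨s', rfl⟩ : ∃ s', s = P'.length + s' := ⟨s - P'.length, by omega⟩
      have := hTw.2.2.2 s' (by omega) (by omega) (by omega) ((we_right (by omega)).1 hw)
      omega
    have htake : (P' ++ Q).take (P'.length + t) = P' ++ Q.take t := by
      rw [List.take_append, List.take_of_length_le (by omega)]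
      simp
    have hdr : (P' ++ Q).drop (P'.length + t) = Q.drop t := by
      rw [← List.drop_drop, List.drop_left]
    have hleg : p.legal (P' ++ Q.take t) := ⟨P', Q.take t, rfl, by rw [hlam]; rfl, by rw [hr]; rfl⟩
    have hs := h.snd P' (Q.take t) _ r hlam hr
    show τ = act v (p.ph (X0 ++ P' ++ Q)) + p.dY ((X0 ++ P' ++ Q).drop p.p0)
    rw [hdrop, p.dY_eq hTY, htake, hdr, nu1, if_pos hleg, ← hτ, hs, act_add, act_mul, act_mul,
      ← p.ph_append, ← p.ph_append]
    congr 3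
    have hh : X0 ++ (P' ++ Q.take t ++ Q.drop t) = X0 ++ P' ++ Q := by
      rw [List.append_assoc P', List.take_append_drop, ← List.append_assoc X0]
    exact hh

theorem Ok.compA (h : p.Ok) {X : List α} (hX : X ∈ p.Z) (hXc : X ∉ p.Zc) (v : Tok Mo) :
    Cut p.LA p.RA v X := by
  classical
  have hz := h.hz
  have hnb : ¬ p.Bd 0 X := fun hb => hXc ⟨hX, hb⟩
  obtain ⟨h1, t, h2, h3, h4, h5⟩ := hX
  unfold Bd BadR at hnb
  rw [not_or] at hnb
  obtain ⟨hE, hB⟩ := hnb
  have hE' : ∀ s ≤ X.length, p.z ≤ p.N1 + s → We p.n p.S X s → p.z + p.N1 ≤ s := by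
    intro s hs hzs hw
    by_contra hcon
    exact hE ⟨s, hs, by omega, by omega, hw⟩
  have htz : p.z + p.N1 ≤ t := hE' t h2.le (by omega) h4
  have hBT : ¬ p.BT (t - p.p0) := by
    intro hb
    refine hB ⟨t, h2.le, h4, h3, fun s hs hst hw hzs => ?_, by rwa [Nat.zero_add]⟩
    have := h5 s (by omega) hzs hw
    omega
  set X0 := X.take p.p0 with hX0
  have hX0l : X0.length = p.p0 := by rw [hX0, List.length_take]; omega
  set Y1 := (X.drop p.p0).take (t - p.p0) with hY1
  have hY1l : Y1.length = t - p.p0 := by rw [hY1, List.length_take, List.length_drop]; omega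
  set R := X.drop t with hR
  have hXe : X = X0 ++ (Y1 ++ R) := by
    have e : R = (X.drop p.p0).drop (t - p.p0) := by
      rw [List.drop_drop, hR]; congr 1; omega
    rw [e, hY1, List.take_append_drop, hX0, List.take_append_drop]
  obtain ⟨P', Q', hPQ, hl, hr⟩ := h.cmp Y1 (by omega) (by rwa [hY1l]) (act v (p.ph X0))
  obtain ⟨r, hr⟩ := Option.isSome_iff_exists.1 hr
  have hN := h.lamN _ _ hl
  have hlen : P'.length + Q'.length = t - p.p0 := by rw [← hY1l, ← hPQ, List.length_append]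
  have hXe2 : X = (X0 ++ P') ++ (Q' ++ R) := by rw [hXe, ← hPQ]; simp
  have hPl : (X0 ++ P').length = p.p0 + P'.length := by rw [List.length_append, hX0l]
  have hRl : R.length = X.length - t := by rw [hR, List.length_drop]
  refine ⟨X0 ++ P', Q' ++ R, act r (p.ph R), hXe2, ⟨X0, P', rfl, hX0l, hl⟩, ?_⟩
  have hw : ∀ s, p.n ≤ s → (We p.n p.S (Q' ++ R) s ↔ We p.n p.S X (p.p0 + P'.length + s)) := by
    intro s hs
    rw [hXe2, ← hPl]
    exact (we_right hs).symm
  have hQl : (Q' ++ R).length = Q'.length + (X.length - t) := by rw [List.length_append, hRl]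
  refine ⟨?_, Q'.length, by omega, ⟨by omega, by omega, ?_, ?_⟩, r, ?_, ?_⟩
  · rw [hw _ (by omega)]
    convert h1 using 1
    omega
  · rw [hw _ (by omega)]
    convert h4 using 1
    omega
  · intro s _ hs hzs hws
    have h6 := (hw s hws.1).1 hws
    have h7 := hE' _ (by omega) (by omega) h6
    have h8 := h5 _ (by omega) (by omega) h6
    omega
  · rw [List.take_left]; exact hr
  · rw [List.drop_left]

theorem Ok.step_eq (_h : p.Ok) {X0 Y : List α} (hX0 : X0.length = p.p0) :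
    stepA (aff p.ph p.dA) p.LA p.RA (X0 ++ Y) =
      (X0.map fun a => Jf (p.f a)).prod * p.yf Y := by
  classical
  rw [p.Jf_prod]
  apply MulOpposite.unop_injective
  funext o
  cases o with
  | none => rfl
  | some v =>
    have hcut : Cut p.LA p.RA v (X0 ++ Y) ↔ p.cutY (act v (p.ph X0)) Y := by
      constructor
      · rintro ⟨P, Q, τ, he, ⟨X', P', rfl, hX', hl⟩, hQ⟩
        rw [List.append_assoc] at he
        obtain ⟨e1, e2⟩ := List.append_inj he (by rw [hX0, hX'])
        subst e1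
        exact ⟨P', Q, τ, e2, hl, hQ⟩
      · rintro ⟨P, Q, τ, rfl, hl, hQ⟩
        exact ⟨X0 ++ P, Q, τ, by simp, ⟨X0, P, rfl, hX0, hl⟩, hQ⟩
    have hpsi : aff p.ph p.dA (X0 ++ Y) v = p.psY Y (act v (p.ph X0)) := by
      unfold aff psY dA
      rw [act_mul, ← p.ph_append, ← hX0, List.drop_left]
    show (if Cut p.LA p.RA v (X0 ++ Y) then none else some (aff p.ph p.dA (X0 ++ Y) v)) =
      (if p.cutY (act v (p.ph X0)) Y then none else some (p.psY Y (act v (p.ph X0))))
    rw [hpsi]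
    by_cases hc : Cut p.LA p.RA v (X0 ++ Y)
    · rw [if_pos hc, if_pos (hcut.1 hc)]
    · rw [if_neg hc, if_neg (fun h' => hc (hcut.2 h'))]

end Prm

end Crest.Agent.R320.DA_290
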