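import Crest.Agent.R320.DA3_290

/-! Row 320: `Main_621.Data` from one all-words gadget (helper290), part 4: scheme B. -/

set_option autoImplicit false

namespace Crest.Agent.R320.DA_290

open Crest.RegLang Crest.Agent.R320.Hk_851 Crest.Agent.R320.Star_621 Crest.Agent.R320.Two_621
open Crest.Agent.R320.FewWalls_228 Crest.R320.Reg_143

variable {α Mo : Type} [Monoid Mo]

namespace Prm

variable (p : Prm α Mo)

def LB (v : Tok (Op Mo)) : Language α := {P | ∃ k < p.K, P.length = p.c k ∧ p.lam2 k P = some v}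

def RB (τ : Tok (Op Mo)) : Language α :=
  {Q | ∃ k < p.K, (p.Bd (p.c k) Q ∧ ∀ k' < p.K, p.Bd (p.c k') Q → k' = k) ∧
    Blk p.n p.S p.z (p.c k) Q ∧
    p.rho2 k (Q.take (p.p0 - p.c k)) (p.yf (Q.drop (p.p0 - p.c k))) = some τ}

noncomputable def dB (X : List α) : Tok (Op Mo) := p.nu2 (X.take p.p0) (p.yf (X.drop p.p0))

variable {p}

theorem Ok.soundB (h : p.Ok) :
    Sound p.Zc (aff (stepA (aff p.ph p.dA) p.LA p.RA) p.dB) p.LB p.RB := by
  classical
  have hz := h.hz
  have hW := h.hW
  refine ⟨?_, ?_⟩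
  · rintro v ⟨k, hk, hl, -⟩
    have := h.hc0 k hk
    simp only [List.length_nil] at hl
    omega
  · rintro v τ P Q X x y ⟨k, hk, hPl, hlam⟩ ⟨j, hj, ⟨hbj, huj⟩, hblk, hr⟩ ⟨hX, hXb⟩ he
    have hck := h.hcL k hk
    have hcj := h.hcL j hj
    have hL := h.hL
    have he' : P ++ Q ++ x = X ++ y := he
    have hpre1 : ∀ s, s ≤ (P ++ Q).length → s ≤ X.length →
        (We p.n p.S (P ++ Q) s ↔ We p.n p.S X s) := by
      intro s h1 h2
      rw [← we_left (Q := x) h1, he', we_left h2]
    have hX2 := hX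
    obtain ⟨hX1, t, ht1, ht2, ht3, ht4⟩ := hX2
    have hA : t ≤ (P ++ Q).length := by
      by_contra hlt
      push Not at hlt
      have hb := hblk
      obtain ⟨hb1, t', hb2, hb3, hb4, -⟩ := hb
      have hw1 : We p.n p.S (P ++ Q) (P ++ Q).length := by
        rw [List.length_append]; exact (we_right hb1.1).2 hb1
      have hw2 := (hpre1 _ le_rfl (by omega)).1 hw1
      have hlt2 : (P ++ Q).length < p.z := by
        by_contra hge
        have := ht4 _ (by omega) (by omega) hw2
        omega
      have hg := h.wsep hb2 hb4 hb1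
      rw [List.length_append] at hlt2
      omega
    have hB : p.Bd 0 (P ++ Q) := by
      rcases hXb with ⟨t1, h1, h2, h3, h4⟩ | ⟨t1, h1, h2, h3, h4, h5⟩
      · have hle : t1 ≤ (P ++ Q).length := by
          by_contra hgt
          push Not at hgt
          have := h.wsep (by omega : t < t1) ht3 h4
          omega
        exact Or.inl ⟨t1, hle, h2, h3, (hpre1 _ hle h1).2 h4⟩
      · have hge : t1 ≤ t := by
          by_contra hgt
          push Not at hgt
          exact h4 t ht1.le hgt ht3 (by omega)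
        have e := ht4 t1 (by omega) (by omega) h2
        subst e
        refine Or.inr ⟨t1, hA, (hpre1 _ hA h1).2 h2, h3, fun s hs hst hw => ?_, h5⟩
        exact h4 s (by omega) hst ((hpre1 _ hs (by omega)).1 hw)
    have hBk : p.Bd (p.c k) Q := by
      have := (badR_append (by omega)).1 hB
      rwa [Nat.zero_add, hPl] at this
    have hkj := huj k hk hBk
    subst hkj
    have hbX : Blk p.n p.S p.z 0 (P ++ Q) := by
      rw [blk_append (by omega), Nat.zero_add, hPl]; exact hblk
    have e1 : P ++ Q = X := (code_Z p.n p.S p.z).2 _ _ x y hbX hX he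
    refine ⟨e1, ?_⟩
    subst e1
    have htake : (P ++ Q).take p.p0 = P ++ Q.take (p.p0 - p.c k) := by
      rw [List.take_append, hPl, List.take_of_length_le (by omega)]
    have hdrop : (P ++ Q).drop p.p0 = Q.drop (p.p0 - p.c k) := by
      rw [List.drop_append, hPl, List.drop_eq_nil_of_le (by omega), List.nil_append]
    have hs := h.snd2 k hk P _ _ v τ hPl hlam hr
    have hlen : (P ++ Q.take (p.p0 - p.c k)).length = p.p0 := by
      rw [← htake, List.length_take]
      have := hbX.2
      obtain ⟨t', ht', ht'', -⟩ := this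
      omega
    have hst := h.step_eq (X0 := P ++ Q.take (p.p0 - p.c k)) (Y := Q.drop (p.p0 - p.c k)) hlen
    rw [List.append_assoc, List.take_append_drop] at hst
    show τ = act v (stepA (aff p.ph p.dA) p.LA p.RA (P ++ Q)) +
      p.nu2 ((P ++ Q).take p.p0) (p.yf ((P ++ Q).drop p.p0))
    rw [hs, htake, hdrop, hst]

theorem Ok.amb (h : p.Ok) {X : List α} (_hX : Blk p.n p.S p.z 0 X) (A : Finset ℕ)
    (hA : ∀ i ∈ A, i < p.K ∧ ∃ j < p.K, j ≠ i ∧ p.Bd (p.c j) (X.drop (p.c i))) :
    A.card < p.R := by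
  classical
  have hz := h.hz
  have hW := h.hW
  have hL := h.hL
  -- events
  let E : Finset (ℕ × ℕ) := (Finset.range p.K ×ˢ Finset.range p.K).filter fun a =>
    a.1 ≠ a.2 ∧ ∃ s, We p.n p.S X s ∧ p.z ≤ s + p.c a.1 + p.N1 - p.c a.2 ∧ p.c a.2 ≤ s ∧
      s + p.c a.1 ≤ p.z + p.N1 + p.c a.2
  let F : ℕ → Finset (ℕ × ℕ) := fun s => (Finset.range p.K ×ˢ Finset.range p.K).filter fun a =>
    a.1 ≠ a.2 ∧ p.BT (s - p.p0 + p.c a.1 - p.c a.2)
  have hEc : E.card ≤ 1 := by
    rw [Finset.card_le_one]
    rintro ⟨j, i⟩ ha ⟨l, k⟩ hb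
    simp only [E, Finset.mem_filter, Finset.mem_product, Finset.mem_range] at ha hb
    obtain ⟨⟨hj, hi⟩, hne, s, hs, s1, s2, s3⟩ := ha
    obtain ⟨⟨hl, hk⟩, hne', s', hs', s1', s2', s3'⟩ := hb
    have c1 := h.hcL _ hj
    have c2 := h.hcL _ hi
    have c3 := h.hcL _ hl
    have c4 := h.hcL _ hk
    have hss : s = s' := by
      rcases lt_trichotomy s s' with hlt | heq | hgt
      · have := h.wsep hlt hs hs'; omega
      · exact heq
      · have := h.wsep hgt hs' hs; omega
    subst hss
    have := h.gol j i l k hj hi hl hk hne hne' (by rw [abs_le]; omega)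
    rw [this.1, this.2]
  have hFc : ∀ s, p.p0 + p.Tm + p.Lam ≤ s + 0 → (F s).card ≤ p.C0 := by
    intro s hs
    refine h.spoil (s - p.p0) (by omega) (by omega) _ ?_
    rintro ⟨j, i⟩ ha
    simp only [F, Finset.mem_filter, Finset.mem_product, Finset.mem_range] at ha
    exact ⟨ha.1.1, ha.1.2, ha.2.1, ha.2.2⟩
  -- the two candidate walls
  have key : ∃ w1 w2 : ℕ, p.p0 + p.Tm + p.Lam ≤ w1 ∧ p.p0 + p.Tm + p.Lam ≤ w2 ∧
      ∀ s δ : ℕ, δ ≤ 2 * p.Lam → We p.n p.S X s → p.z ≤ s + p.Lam - δ + 0 → δ ≤ s + p.Lam →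
        (∀ s' < s, We p.n p.S X s' → ¬ (p.z + δ ≤ s' + p.Lam)) → s = w1 ∨ s = w2 := by
    by_cases h1 : ∃ s, We p.n p.S X s ∧ p.z ≤ s + p.Lam ∧ s < p.z + p.Lam
    · obtain ⟨w1, hw1, hw1a, hw1b⟩ := h1
      by_cases h2 : ∃ s, We p.n p.S X s ∧ p.z + p.Lam ≤ s
      · obtain ⟨ha, hb⟩ := Nat.find_spec h2
        refine ⟨w1, Nat.find h2, by omega, by omega, fun s δ hδ hs hzs hds hmin => ?_⟩
        rcases Nat.lt_or_ge s (p.z + p.Lam) with hlt | hge
        · left
          rcases lt_trichotomy s w1 with h3 | h3 | h3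
          · have := h.wsep h3 hs hw1; omega
          · exact h3
          · have := h.wsep h3 hw1 hs; omega
        · right
          have h3 := Nat.find_min' h2 ⟨hs, hge⟩
          rcases Nat.lt_or_ge (Nat.find h2) s with h4 | h4
          · exact absurd (by omega) (hmin _ h4 ha)
          · omega
      · refine ⟨w1, w1, by omega, by omega, fun s δ hδ hs hzs hds hmin => ?_⟩
        left
        push Not at h2
        have hlt := h2 s hs
        rcases lt_trichotomy s w1 with h3 | h3 | h3
        · have := h.wsep h3 hs hw1; omega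
        · exact h3
        · have := h.wsep h3 hw1 hs; omega
    · push Not at h1
      by_cases h2 : ∃ s, We p.n p.S X s ∧ p.z + p.Lam ≤ s
      · obtain ⟨ha, hb⟩ := Nat.find_spec h2
        refine ⟨Nat.find h2, Nat.find h2, by omega, by omega, fun s δ hδ hs hzs hds hmin => ?_⟩
        left
        have hge := h1 s hs (by omega)
        have h3 := Nat.find_min' h2 ⟨hs, hge⟩
        rcases Nat.lt_or_ge (Nat.find h2) s with h4 | h4
        · exact absurd (by omega) (hmin _ h4 ha)
        · omega
      · push Not at h2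
        refine ⟨p.p0 + p.Tm + p.Lam, p.p0 + p.Tm + p.Lam, le_rfl, le_rfl,
          fun s δ hδ hs hzs hds hmin => ?_⟩
        have hge := h1 s hs (by omega)
        have := h2 s hs
        omega
  obtain ⟨w1, w2, hw1, hw2, hkey⟩ := key
  have hsub : A ⊆ (E ∪ (F w1 ∪ F w2)).image Prod.snd := by
    intro i hi
    obtain ⟨hiK, j, hj, hji, hbad⟩ := hA i hi
    have c1 := h.hcL _ hj
    have c2 := h.hcL _ hiK
    rw [Finset.mem_image]
    refine ⟨(j, i), ?_, rfl⟩
    have hXl : p.c i ≤ X.length := by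
      obtain ⟨-, t, a, b, -⟩ := _hX
      omega
    have htd : (X.take (p.c i)).length = p.c i := by rw [List.length_take]; omega
    have hconv : ∀ s, p.n ≤ s → (We p.n p.S (X.drop (p.c i)) s ↔ We p.n p.S X (p.c i + s)) := by
      intro s hs
      have := we_right (n := p.n) (S := p.S) (P := X.take (p.c i)) (Q := X.drop (p.c i)) hs
      rw [htd, List.take_append_drop] at this
      exact this.symm
    rcases hbad with ⟨t, h1, h2, h3, h4⟩ | ⟨t, h1, h2, h3, h4, h5⟩
    · apply Finset.mem_union_left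
      simp only [E, Finset.mem_filter, Finset.mem_product, Finset.mem_range]
      refine ⟨⟨hj, hiK⟩, hji, p.c i + t, (hconv t h4.1).1 h4, by omega, by omega, by omega⟩
    · apply Finset.mem_union_right
      have hs := (hconv t h2.1).1 h2
      have hw := hkey (p.c i + t) (p.Lam + p.c i - p.c j) (by omega) hs (by omega) (by omega)
        (fun s' hs' hw' hz' => by
          rcases Nat.lt_or_ge s' (p.c i + p.n) with h6 | h6
          · omega
          · have h7 : We p.n p.S (X.drop (p.c i)) (s' - p.c i) := by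
              rw [hconv _ (by omega), show p.c i + (s' - p.c i) = s' by omega]; exact hw'
            exact h4 (s' - p.c i) (by omega) (by omega) h7 (by omega))
      have hbt : p.BT (p.c i + t - p.p0 + p.c j - p.c i) := by
        rwa [show p.c i + t - p.p0 + p.c j - p.c i = p.c j + t - p.p0 by omega]
      rcases hw with hw | hw
      · apply Finset.mem_union_left
        simp only [F, Finset.mem_filter, Finset.mem_product, Finset.mem_range]
        exact ⟨⟨hj, hiK⟩, hji, hw ▸ hbt⟩
      · apply Finset.mem_union_right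
        simp only [F, Finset.mem_filter, Finset.mem_product, Finset.mem_range]
        exact ⟨⟨hj, hiK⟩, hji, hw ▸ hbt⟩
  have h1 := Finset.card_le_card hsub
  have h2 := Finset.card_image_le (s := E ∪ (F w1 ∪ F w2)) (f := Prod.snd)
  have h3 := Finset.card_union_le E (F w1 ∪ F w2)
  have h4 := Finset.card_union_le (F w1) (F w2)
  have h5 := hFc w1 (by omega)
  have h6 := hFc w2 (by omega)
  have h7 := h.hR
  omega

theorem Ok.compB (h : p.Ok) {X : List α} (hX : X ∈ p.Zc) (v : Tok (Op Mo)) :
    Cut p.LB p.RB v X := by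
  classical
  have hz := h.hz
  have hL := h.hL
  obtain ⟨hblk, hbad⟩ := hX
  have hXl : p.z < X.length := by
    obtain ⟨-, t, a, b, -⟩ := hblk
    omega
  obtain ⟨I, hI, hIk⟩ := h.cmp2 (X.take p.p0) (p.yf (X.drop p.p0)) v
    (fun k hk => by have := h.hcL k hk; rw [List.length_take]; omega)
  let A : Finset ℕ := (Finset.range p.K).filter fun i => ∃ j < p.K, j ≠ i ∧
    p.Bd (p.c j) (X.drop (p.c i))
  have hA := h.amb hblk A (fun i hi => by
    simp only [A, Finset.mem_filter, Finset.mem_range] at hi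
    exact hi)
  have hne : ∃ k ∈ I, k ∉ A := by
    by_contra hcon
    push Not at hcon
    have := Finset.card_le_card (fun k hk => hcon k hk : I ⊆ A)
    omega
  obtain ⟨k, hkI, hkA⟩ := hne
  obtain ⟨hk, hl, hr⟩ := hIk k hkI
  obtain ⟨τ, hr⟩ := Option.isSome_iff_exists.1 hr
  have hck := h.hcL k hk
  have htd : (X.take (p.c k)).length = p.c k := by rw [List.length_take]; omega
  refine ⟨X.take (p.c k), X.drop (p.c k), τ, (List.take_append_drop _ _).symm,
    ⟨k, hk, htd, ?_⟩, k, hk, ⟨?_, ?_⟩, ?_, ?_⟩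
  · rw [List.take_take, min_eq_left (by omega)] at hl
    exact hl
  · have h1 : p.Bd 0 (X.take (p.c k) ++ X.drop (p.c k)) := by rwa [List.take_append_drop]
    have := (badR_append (by omega)).1 h1
    rwa [Nat.zero_add, htd] at this
  · intro k' hk' hb
    by_contra hne
    apply hkA
    simp only [A, Finset.mem_filter, Finset.mem_range]
    exact ⟨hk, k', hk', hne, hb⟩
  · have h1 : Blk p.n p.S p.z 0 (X.take (p.c k) ++ X.drop (p.c k)) := by
      rwa [List.take_append_drop]
    have := (blk_append (by omega)).1 h1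
    rwa [Nat.zero_add, htd] at this
  · have e1 : (X.take p.p0).drop (p.c k) = (X.drop (p.c k)).take (p.p0 - p.c k) := List.drop_take
    have e2 : X.drop p.p0 = (X.drop (p.c k)).drop (p.p0 - p.c k) := by
      rw [List.drop_drop]; congr 1; omega
    rw [e1] at hr
    rw [← e2]
    exact hr

end Prm

end Crest.Agent.R320.DA_290
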