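import Crest.Agent.R320.DA4_290

/-! Row 320: `Main_621.Data` from one all-words gadget (helper290), part 5: heights, assembly. -/

set_option autoImplicit false

namespace Crest.Agent.R320.DA_290

open Crest.RegLang Crest.Agent.R320.Hk_851 Crest.Agent.R320.Star_621 Crest.Agent.R320.Two_621
open Crest.Agent.R320.FewWalls_228 Crest.R320.Reg_143

variable {α Mo : Type} [Monoid Mo]

namespace Prm

variable (p : Prm α Mo)

theorem nwA {τ : Tok Mo} (hn : 0 < p.n) {Q : List α} (hQ : Q ∈ p.RA τ) :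
    nw p.n p.S Q ≤ p.z + 2 := by
  obtain ⟨h1, t, -, h2, -⟩ := hQ
  refine nw_le hn (a := t) (b := Q.length) fun s hs hz => ?_
  rcases Nat.lt_or_ge s Q.length with h3 | h3
  · exact Or.inl (h2.2.2.2 s h3.le h3 (by omega) hs)
  · have := hs.le; right; omega

section
variable [Finite α] [Finite Mo] (hS : ∀ s ∈ p.S, s.length = p.n)
  (hrho : ∀ r, (lg fun Q => p.rho Q = some r).IsRegular)
  (hlamN : ∀ P v, p.lam P = some v → P.length ≤ p.N1)
  (hsnd : ∀ P Q v r, p.lam P = some v → p.rho Q = some r →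
    r = act v (p.ph (P ++ Q)) + p.nu (P ++ Q))

omit [Finite α] in
theorem reg_ph (P : Mo → Prop) : (lg fun w => P (p.ph w)).IsRegular :=
  isRegular_monoid p.f P

include hS hrho in
theorem reg_RA (τ : Tok Mo) : (lg fun w => w ∈ p.RA τ).IsRegular := by
  refine isRegular_congr (reg_ex (ι := Tok Mo) (P := fun r w => We p.n p.S w w.length ∧
    ∃ t ≤ w.length, Tw p.n p.S p.z p.p0 (p.p0 + p.N1) w t ∧ p.rho (w.take t) = some r ∧
      act r (p.ph (w.drop t)) = τ) fun r => reg_tw hS _ _ _ (hrho r)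
        (p.reg_ph fun s => act r s = τ)) fun w => ?_
  rw [mem_lg]
  constructor
  · rintro ⟨r, h1, t, h2, h3, h4, h5⟩
    exact ⟨h1, t, h2, h3, r, h4, h5⟩
  · rintro ⟨h1, t, h2, h3, r, h4, h5⟩
    exact ⟨r, h1, t, h2, h3, h4, h5⟩

omit [Finite Mo] in
include hlamN in
theorem reg_lam (v : Tok Mo) : (lg fun w => p.lam w = some v).IsRegular :=
  reg_bdd p.N1 fun w h => hlamN w v h

include hS hrho hlamN in
theorem reg_cutY (v : Tok Mo) : (lg fun w => p.cutY v w).IsRegular := by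
  refine isRegular_congr (reg_ex (ι := Tok Mo) (P := fun τ w => ∃ u x, u ++ x = w ∧
    p.lam u = some v ∧ x ∈ p.RA τ) fun τ => isRegular_cat (p.reg_lam hlamN v)
      (p.reg_RA hS hrho τ)) fun w => ?_
  rw [mem_lg]
  constructor
  · rintro ⟨τ, u, x, rfl, h1, h2⟩
    exact ⟨u, x, τ, rfl, h1, h2⟩
  · rintro ⟨u, x, τ, rfl, h1, h2⟩
    exact ⟨τ, u, x, rfl, h1, h2⟩

include hrho hlamN hsnd in
theorem rf_nu1 : RF p.nu1 := by
  classical
  intro g
  -- legal pairs with labels v, r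
  have hvr : ∀ v r, (lg fun w => ∃ u x, u ++ x = w ∧ p.lam u = some v ∧
      p.rho x = some r).IsRegular := fun v r => isRegular_cat (p.reg_lam hlamN v) (hrho r)
  have h1 : (lg fun w => ∃ vr : Tok Mo × Tok Mo, (∃ u x, u ++ x = w ∧ p.lam u = some vr.1 ∧
      p.rho x = some vr.2) ∧ vr.2 = act vr.1 (p.ph w) + g).IsRegular :=
    reg_ex fun vr => reg_and (hvr _ _) (p.reg_ph fun s => vr.2 = act vr.1 s + g)
  have h2 : (lg fun w => ∃ vr : Tok Mo × Tok Mo, ∃ u x, u ++ x = w ∧ p.lam u = some vr.1 ∧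
      p.rho x = some vr.2).IsRegular := reg_ex fun vr => hvr _ _
  refine isRegular_congr (reg_or h1 (reg_and (reg_not h2) (reg_const (0 = g)))) fun w => ?_
  rw [mem_lg]
  have hleg : (∃ vr : Tok Mo × Tok Mo, ∃ u x, u ++ x = w ∧ p.lam u = some vr.1 ∧
      p.rho x = some vr.2) ↔ p.legal w := by
    constructor
    · rintro ⟨vr, u, x, h, h3, h4⟩
      exact ⟨u, x, h, by rw [h3]; rfl, by rw [h4]; rfl⟩
    · rintro ⟨u, x, h, h3, h4⟩
      obtain ⟨v, hv⟩ := Option.isSome_iff_exists.1 h3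
      obtain ⟨r, hr⟩ := Option.isSome_iff_exists.1 h4
      exact ⟨(v, r), u, x, h, hv, hr⟩
  unfold nu1
  constructor
  · rintro (⟨vr, ⟨u, x, rfl, h3, h4⟩, h5⟩ | ⟨h3, h4⟩)
    · rw [if_pos (hleg.1 ⟨vr, u, x, rfl, h3, h4⟩)]
      have := hsnd _ _ _ _ h3 h4
      rw [h5] at this
      exact (add_left_cancel this).symm
    · rw [if_neg (fun h => h3 (hleg.2 h))]; exact h4
  · intro hg
    by_cases hl : p.legal w
    · rw [if_pos hl] at hg
      obtain ⟨vr, u, x, rfl, h3, h4⟩ := hleg.2 hl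
      exact Or.inl ⟨vr, ⟨u, x, rfl, h3, h4⟩, by rw [← hg]; exact hsnd _ _ _ _ h3 h4⟩
    · rw [if_neg hl] at hg
      exact Or.inr ⟨fun h => hl (hleg.1 h), hg⟩

include hS hrho hlamN hsnd in
theorem rf_dY : RF p.dY := by
  classical
  intro g
  have hA : ∀ u : Tok Mo, (lg fun w => p.nu1 w = u).IsRegular := fun u =>
    p.rf_nu1 hrho hlamN hsnd u
  have ht : ∀ {A B : List α → Prop}, (lg A).IsRegular → (lg B).IsRegular →
      (lg fun w => ∃ t ≤ w.length, Tw p.n p.S p.z p.p0 p.p0 w t ∧ A (w.take t) ∧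
        B (w.drop t)).IsRegular := fun {A B} hA hB =>
    (RegP.ex' (P := fun w (_ : Fin 0 → ℕ) t => Tw p.n p.S p.z p.p0 p.p0 w t ∧ A (w.take t) ∧
      B (w.drop t)) ((rp_tw hS _ _ _).and ((RegP.take hA 0).and (RegP.drop hB 0)))).close
  have h1 : (lg fun w => ∃ u : Tok Mo, ∃ t ≤ w.length, Tw p.n p.S p.z p.p0 p.p0 w t ∧
      p.nu1 (w.take t) = u ∧ act u (p.ph (w.drop t)) = g).IsRegular :=
    reg_ex fun u => ht (hA u) (p.reg_ph fun s => act u s = g)
  have h2 : (lg fun w => ∃ t ≤ w.length, Tw p.n p.S p.z p.p0 p.p0 w t ∧ True ∧ True).IsRegular :=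
    ht isRegular_true isRegular_true
  refine isRegular_congr (reg_or h1 (reg_and (reg_not h2) (reg_const (0 = g)))) fun w => ?_
  rw [mem_lg]
  constructor
  · rintro (⟨u, t, h3, h4, h5, h6⟩ | ⟨h3, h4⟩)
    · rw [p.dY_eq h4, h5]; exact h6
    · unfold dY
      rw [dif_neg (fun h => h3 ?_)]
      · exact h4
      · obtain ⟨t, ha, hb⟩ := h
        exact ⟨t, ha, hb, trivial, trivial⟩
  · intro hg
    by_cases hex : ∃ t, t ≤ w.length ∧ Tw p.n p.S p.z p.p0 p.p0 w t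
    · obtain ⟨t, ha, hb⟩ := hex
      rw [p.dY_eq hb] at hg
      exact Or.inl ⟨_, t, ha, hb, rfl, hg⟩
    · unfold dY at hg
      rw [dif_neg hex] at hg
      exact Or.inr ⟨fun ⟨t, ha, hb, _⟩ => hex ⟨t, ha, hb⟩, hg⟩

include hS hrho hlamN hsnd in
theorem rf_yf : RF p.yf := by
  classical
  haveI : Finite (Tok Mo → Prop) := inferInstance
  have h1 : RF (fun w => ((fun v => p.cutY v w), p.ph w, p.dY w)) := by
    refine RF.pair (RF.pi (g := fun v w => p.cutY v w) fun v => RF.prop (p.reg_cutY hS hrho hlamN v))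
      (RF.pair (fun s => p.reg_ph fun x => x = s) (p.rf_dY hS hrho hlamN hsnd))
  have h2 := h1.comp (fun k : (Tok Mo → Prop) × Mo × Tok Mo =>
    (MulOpposite.op fun o : Option (Tok Mo) => o.bind fun v =>
      if k.1 v then none else some (act v k.2.1 + k.2.2) : Op Mo))
  exact h2

include hS hrho hlamN hsnd in
theorem reg_RB (τ : Tok (Op Mo)) (M : ℕ) (hM : 0 < M) (hBT : ∀ t, p.BT (t + M) ↔ p.BT t)
    (hp0 : ∀ k < p.K, p.c k ≤ p.p0) (hz : p.p0 ≤ p.z) :
    (lg fun w => w ∈ p.RB τ).IsRegular := by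
  classical
  haveI : Finite (Function.End (Option (Tok Mo))) :=
    inferInstanceAs (Finite (Option (Tok Mo) → Option (Tok Mo)))
  haveI : Finite (Op Mo) := Finite.of_injective MulOpposite.unop MulOpposite.unop_injective
  have hb : ∀ k, (lg fun w => p.Bd (p.c k) w).IsRegular := fun k =>
    reg_badR hS p.z p.N1 p.p0 (p.c k) M p.BT hM hBT
  have key : ∀ k : Fin p.K, (lg fun w => (p.Bd (p.c k) w ∧
      ∀ k' : Fin p.K, p.Bd (p.c k') w → k' = k) ∧ Blk p.n p.S p.z (p.c k) w ∧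
      ∃ y : Op Mo, (p.p0 - p.c k ≤ w.length ∧ p.yf (w.drop (p.p0 - p.c k)) = y) ∧
        p.rho2 k (w.take (p.p0 - p.c k)) y = some τ).IsRegular := by
    intro k
    refine reg_and (reg_and (hb k) (reg_all fun k' => ?_)) (reg_and (reg_blk hS _ _) (reg_ex fun y => ?_))
    · refine isRegular_congr (reg_or (reg_not (hb k')) (reg_const (k' = k))) fun w => ?_
      rw [mem_lg]; tauto
    · exact reg_and (reg_drop _ (p.rf_yf hS hrho hlamN hsnd y))
        (isRegular_take _ fun l => p.rho2 k l y = some τ)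
  refine isRegular_congr (reg_ex key) fun w => ?_
  rw [mem_lg]
  constructor
  · rintro ⟨k, ⟨h1, h2⟩, h3, y, ⟨h4, h5⟩, h6⟩
    refine ⟨k, k.2, ⟨h1, fun k' hk' hb' => ?_⟩, h3, by rw [h5]; exact h6⟩
    exact congrArg Fin.val (h2 ⟨k', hk'⟩ hb')
  · rintro ⟨k, hk, ⟨h1, h2⟩, h3, h4⟩
    refine ⟨⟨k, hk⟩, ⟨h1, fun k' hb' => Fin.ext (h2 k' k'.2 hb')⟩, h3, _, ⟨?_, rfl⟩, h4⟩
    obtain ⟨-, t, a, b, -⟩ := h3
    have := hp0 k hk
    show p.p0 - p.c k ≤ w.length
    omega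

end

end Prm

end Crest.Agent.R320.DA_290
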