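import Crest.Agent.R320.DA5_290

/-! Row 320: `Main_621.Data` from one all-words gadget (helper290), part 6: the theorem. -/

set_option autoImplicit false

namespace Crest.Agent.R320.DA_290

open Crest.RegLang Crest.Agent.R320.Hk_851 Crest.Agent.R320.Star_621 Crest.Agent.R320.Two_621
open Crest.Agent.R320.FewWalls_228 Crest.R320.Reg_143

/-- the pure word gadget (all words, thin bad set of lengths) -/
def Gad (Mo : Type) [Monoid Mo] : Prop :=
  ∃ C0 : ℕ, ∀ K : ℕ, ∃ (N1 M Tm : ℕ) (c : ℕ → ℕ) (BT : ℕ → Prop),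
    (∀ i j, i < j → j < K → c i < c j) ∧
    (∀ i j k l, i < K → j < K → k < K → l < K → i ≠ j → k ≠ l →
      |((c i : ℤ) - c j) - (c k - c l)| ≤ 2 * N1 → i = k ∧ j = l) ∧
    (∀ T : ℕ, Tm ≤ T → (∀ k < K, c k ≤ T) → ∀ F : Finset (ℕ × ℕ),
      (∀ a ∈ F, a.1 < K ∧ a.2 < K ∧ a.1 ≠ a.2 ∧ BT (T + c a.1 - c a.2)) → F.card ≤ C0) ∧
    0 < M ∧ (∀ t, BT (t + M) ↔ BT t) ∧
    ∀ (α : Type) [Finite α] (f : α → Mo), ∃ (lam rho : List α → Option (Tok Mo))
        (nu : List α → Tok Mo),
      (∀ P v, lam P = some v → P.length ≤ N1) ∧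
      (∀ r, (lg fun Q => rho Q = some r).IsRegular) ∧
      (∀ P Q v r, lam P = some v → rho Q = some r →
        r = act v ((P ++ Q).map f).prod + nu (P ++ Q)) ∧
      (∀ u, Tm ≤ u.length → ¬ BT u.length → ∀ v, ∃ P Q, P ++ Q = u ∧ lam P = some v ∧
        (rho Q).isSome)

theorem data_of_gad {Mo : Type} [Monoid Mo] [Finite Mo] (hG : Gad Mo) {α : Type} [Finite α]
    (f : α → Mo) : Crest.Agent.R320.Main_621.Data (fun w : List α => (w.map f).prod) := by
  classical
  obtain ⟨C0, hG⟩ := hG
  haveI hfe : Finite (Function.End (Option (Tok Mo))) :=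
    inferInstanceAs (Finite (Option (Tok Mo) → Option (Tok Mo)))
  haveI hfo : Finite (Op Mo) := Finite.of_injective MulOpposite.unop MulOpposite.unop_injective
  haveI : Fintype (Op Mo) := Fintype.ofFinite _
  haveI : Finite (Tok (Op Mo)) := inferInstance
  haveI : Fintype (Tok (Op Mo)) := Fintype.ofFinite _
  obtain ⟨K, hK⟩ := Crest.Agent.R320.ExactR_237.exact_gadget α (Op Mo) (Tok (Op Mo))
    (fun a => Prm.Jf (f a)) act (2 + 2 * C0)
  obtain ⟨N1, M, Tm, c0, BT, hc, hgol, hspoil, hM, hBT, hgad⟩ := hG K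
  obtain ⟨lam, rho, nu, hlam, hrho, hsound, hcomp⟩ := hgad α f
  obtain ⟨lam2, rho2, nu2, hs2, hc2⟩ := hK (fun k => c0 k + 1)
    (fun i j hij hj => by have := hc i j hij hj; show c0 i + 1 < c0 j + 1; omega)
  let Lam : ℕ := (Finset.range K).sup c0 + 1
  have hLam : ∀ k < K, c0 k + 1 ≤ Lam := fun k hk => by
    have : c0 k ≤ (Finset.range K).sup c0 := Finset.le_sup (f := c0) (Finset.mem_range.2 hk)
    show c0 k + 1 ≤ (Finset.range K).sup c0 + 1
    omega
  obtain ⟨n, cc, Pd, S, hn, hPd, hS, hsep, hper, hHL⟩ :=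
    Crest.Agent.R320.FewVal_228.exists_walls α (2 * Lam + 2 * N1 + 2) (by omega)
  let p : Prm α Mo :=
    { f := f, n := n, S := S, W := 2 * Lam + 2 * N1 + 2
      z := (Lam + 1) + N1 + n + Tm + 2 * Lam + 1, p0 := Lam + 1, N1 := N1, Tm := Tm, Lam := Lam
      BT := BT, lam := lam, rho := rho, nu := nu, K := K, R := 2 + 2 * C0, C0 := C0
      c := fun k => c0 k + 1
      lam2 := lam2, rho2 := rho2, nu2 := nu2 }
  have hp : p.Ok :=
    { hn := hn
      sep := fun w x y hxy hx hy => hsep w x y hxy hx hy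
      hW := le_refl _
      hz := le_refl _
      hc0 := fun k _ => Nat.succ_pos _
      hcL := hLam
      hL := Nat.lt_succ_self _
      lamN := hlam
      snd := hsound
      cmp := hcomp
      snd2 := hs2
      cmp2 := hc2
      hR := le_refl _
      gol := fun i j k l hi hj hk hl hij hkl h => by
        refine hgol i j k l hi hj hk hl hij hkl ?_
        have h' : |(((c0 i + 1 : ℕ) : ℤ) - ((c0 j + 1 : ℕ) : ℤ)) -
          (((c0 k + 1 : ℕ) : ℤ) - ((c0 l + 1 : ℕ) : ℤ))| ≤ 2 * (N1 : ℤ) := h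
        rw [abs_le] at h' ⊢
        push_cast at h'
        omega
      spoil := fun T hT hL F hF => by
        refine hspoil T hT (fun k hk => by
          have := hLam k hk
          have hL' : Lam ≤ T := hL
          omega) F fun a ha => ?_
        obtain ⟨h1, h2, h3, h4⟩ := hF a ha
        have h4' : BT (T + (c0 a.1 + 1) - (c0 a.2 + 1)) := h4
        refine ⟨h1, h2, h3, ?_⟩
        rwa [show T + c0 a.1 - c0 a.2 = T + (c0 a.1 + 1) - (c0 a.2 + 1) by omega] }
  have few : ∀ {L : Language α}, L.IsRegular → (∀ w ∈ L, nw n S w ≤ p.z + 2) → HL 1 L := by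
    intro L hL hr
    refine (hHL L hL (p.z + 2)).congr fun w => ?_
    constructor
    · intro h
      exact (show w ∈ L ∧ nw n S w ≤ p.z + 2 from ⟨h, hr w h⟩)
    · intro h
      have h' : w ∈ L ∧ nw n S w ≤ p.z + 2 := h
      exact h'.1
  have hS' : ∀ s ∈ p.S, s.length = p.n := hS
  have fin : ∀ {L : Language α} (N : ℕ), (∀ w ∈ L, w.length ≤ N) → HL 1 L := by
    intro L N h
    exact HL.finite ((List.finite_length_le α N).subset fun w hw => h w hw)
  have hblk : Language.IsRegular (lg fun w : List α => Blk p.n p.S p.z 0 w) := reg_blk hS' _ _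
  have hbad : (lg fun w : List α => p.Bd 0 w).IsRegular :=
    reg_badR hS' p.z p.N1 p.p0 0 M p.BT hM hBT
  refine ⟨p.Z, p.Zc, p.dA, p.LA, p.RA, p.dB, p.LB, p.RB, code_Z _ _ _, fun z hz => hz.1,
    ?_, ?_, hp.soundA, ?_, ?_, fun z hz hzc v => hp.compA hz hzc v, hp.soundB, ?_, ?_,
    fun z hz v => hp.compB hz v, ?_⟩
  · exact few hblk fun w hw => blk_nw hn hw
  · exact few (reg_and hblk hbad) fun w hw => blk_nw hn hw.1
  · intro v
    refine fin (p.p0 + p.N1) ?_
    rintro P ⟨X, P', rfl, hX, hl⟩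
    have := hlam _ _ hl
    rw [List.length_append, hX]
    exact Nat.add_le_add_left this _
  · intro v
    exact few (p.reg_RA hS' hrho v) fun w hw => p.nwA hn hw
  · intro v
    refine fin p.Lam ?_
    rintro P ⟨k, hk, hl, -⟩
    rw [hl]
    exact hLam k hk
  · intro v
    refine few (p.reg_RB hS' hrho hlam hsound v M hM hBT ?_ ?_) ?_
    · intro k hk
      have h1 := hLam k hk
      show c0 k + 1 ≤ Lam + 1
      omega
    · show Lam + 1 ≤ (Lam + 1) + N1 + n + Tm + 2 * Lam + 1
      omega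
    · rintro Q ⟨k, hk, -, hb, -⟩
      exact blk_nw hn hb
  · intro s
    have h1 : HL 1 (lg fun w : List α => (¬ ∃ u v, u ++ v = w ∧ Blk p.n p.S p.z 0 u ∧ True) ∧
        p.ph w = s) := by
      refine few (reg_and (reg_not (isRegular_cat hblk isRegular_true))
        (p.reg_ph fun x => x = s)) ?_
      intro w hw
      refine rest_nw (z := p.z) hn ?_
      rintro X hX ⟨y, hy⟩
      exact hw.1 ⟨X, y, hy, hX, trivial⟩
    refine (h1.mono (by omega : 1 ≤ 3)).congr fun w => ?_
    constructor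
    · rintro ⟨h2, h3⟩
      refine ⟨?_, h3⟩
      rintro ⟨u, v, he, hu, -⟩
      exact h2 u hu ⟨v, he⟩
    · rintro ⟨h2, h3⟩
      refine ⟨fun z hz hpre => ?_, h3⟩
      obtain ⟨y, hy⟩ := hpre
      exact h2 ⟨z, y, hy, hz, trivial⟩

/-- the row over alphabets in `Type` from the gadgets -/
theorem row_of_gad (hG : ∀ (Mo : Type) [Monoid Mo] [Finite Mo], Gad Mo) {α : Type} [Finite α]
    (L : Language α) (hL : L.IsRegular) :
    ∃ e : Crest.RegLang.GRegExp α, e.height ≤ 3 ∧ e.lang = L :=
  Crest.Agent.R320.Main_621.row (fun Mo _ _ f => data_of_gad (hG Mo) f) L hL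

/-- regularity from the finite-state clause of the gadgets -/
theorem reg_of_inv {α Mo β : Type} [Monoid Mo] [Finite Mo] [Finite α] (f : α → Mo)
    (rho : List α → Option β) (N M : ℕ) (hM : 0 < M)
    (h : ∀ Q Q' : List α, N ≤ Q.length → N ≤ Q'.length → Q.take N = Q'.take N →
      Q.length % M = Q'.length % M → ((Q.drop N).map f).prod = ((Q'.drop N).map f).prod →
      rho Q = rho Q') (r : β) : (lg fun Q => rho Q = some r).IsRegular := by
  classical
  haveI : Finite {l : List α // l.length ≤ N} := (List.finite_length_le α N).to_subtype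
  haveI : NeZero M := ⟨by omega⟩
  let key : List α → {l : List α // l.length ≤ N} × Fin M × Mo := fun Q =>
    (⟨Q.take N, by rw [List.length_take]; omega⟩, ⟨Q.length % M, Nat.mod_lt _ hM⟩,
      ((Q.drop N).map f).prod)
  have hkey : RF (fun Q : List α => key Q) := by
    refine RF.pair (g := fun Q : List α => (⟨Q.take N, by rw [List.length_take]; omega⟩ :
      {l : List α // l.length ≤ N})) (g' := fun Q : List α => ((⟨Q.length % M, Nat.mod_lt _ hM⟩ :
      Fin M), ((Q.drop N).map f).prod)) ?_ (RF.pair ?_ ?_)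
    · intro l
      exact isRegular_congr (isRegular_take N fun x => x = l.1) fun w => by
        simp [mem_lg, Subtype.ext_iff]
    · intro i
      exact isRegular_congr (reg_len (fun t => t % M = i.1) M hM fun t => by simp) fun w => by
        simp [mem_lg, Fin.ext_iff]
    · intro s
      have h1 : (lg fun w : List α => (w.map f).prod = s).IsRegular :=
        isRegular_monoid f fun x => x = s
      refine isRegular_congr (reg_or (reg_drop N h1) (reg_and (reg_bdd (α := α)
        (P := fun w => w.length ≤ N) N fun w hw => hw) (reg_const ((1 : Mo) = s)))) fun w => ?_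
      rw [mem_lg]
      constructor
      · rintro (⟨h2, h3⟩ | ⟨h2, h3⟩)
        · exact h3
        · show ((w.drop N).map f).prod = s
          rw [List.drop_eq_nil_of_le h2]; simpa using h3
      · intro hw
        rcases Nat.lt_or_ge w.length N with h2 | h2
        · right
          refine ⟨h2.le, ?_⟩
          have hw' : ((w.drop N).map f).prod = s := hw
          rw [List.drop_eq_nil_of_le h2.le] at hw'
          simpa using hw'
        · exact Or.inl ⟨h2, hw⟩
  have h1 := hkey.pred (fun k => ∃ Q, key Q = k ∧ N ≤ Q.length ∧ rho Q = some r)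
  have h2 : (lg fun w : List α => w.length < N ∧ rho w = some r).IsRegular :=
    reg_bdd N fun w hw => hw.1.le
  refine isRegular_congr (reg_or h2 (reg_and (reg_len_ge N) h1)) fun w => ?_
  rw [mem_lg]
  constructor
  · rintro (⟨h3, h4⟩ | ⟨h3, Q, h4, h5, h6⟩)
    · exact h4
    · simp only [key, Prod.mk.injEq, Subtype.mk.injEq, Fin.mk.injEq] at h4
      rw [← h Q w h5 h3 h4.1 h4.2.1 h4.2.2]
      exact h6
  · intro hw
    rcases Nat.lt_or_ge w.length N with h3 | h3
    · exact Or.inl ⟨h3, hw⟩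
    · exact Or.inr ⟨h3, w, rfl, h3, hw⟩

end Crest.Agent.R320.DA_290
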