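import Crest.Agent.R320.Shared_621

/-!
# Row 320: blocks from left-looking walls, next-wall form (helper223)
-/

set_option autoImplicit false

namespace Crest.Agent.R320.DA_223

open Crest.Agent.R320.Hk_851 Crest.Agent.R320.Star_621 Crest.Agent.R320.Two_621
open Crest.RegLang

variable {α : Type}

/-- words with a proper prefix in `L` -/
def pp (L : Language α) : Language α := {w | ∃ V ∈ L, V <+: w ∧ V ≠ w}

/-- prefix-minimal words of `L` -/
def pmin (L : Language α) : Language α := {w | w ∈ L ∧ w ∉ pp L}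

theorem pref_comp {U V x y : List α} (h : U ++ x = V ++ y) : U <+: V ∨ V <+: U := by
  rcases le_total U.length V.length with h1 | h1
  · exact Or.inl (List.prefix_of_prefix_length_le ⟨x, h⟩ ⟨y, rfl⟩ h1)
  · exact Or.inr (List.prefix_of_prefix_length_le ⟨y, h.symm⟩ ⟨x, rfl⟩ h1)

theorem pmin_code {L : Language α} {U V x y : List α} (hU : U ∈ pmin L) (hV : V ∈ pmin L)
    (h : U ++ x = V ++ y) : U = V := by
  by_contra hne
  rcases pref_comp h with h1 | h1
  · exact hV.2 ⟨U, hU.1, h1, hne⟩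
  · exact hU.2 ⟨V, hV.1, h1, fun e => hne e.symm⟩

theorem exists_pmin {L : Language α} (V : List α) (hV : V ∈ L) : ∃ U ∈ pmin L, U <+: V := by
  induction hn : V.length using Nat.strong_induction_on generalizing V with
  | _ n ih =>
    by_cases h : V ∈ pp L
    · obtain ⟨V', h1, h2, h3⟩ := h
      have hl : V'.length < V.length := by
        rcases lt_or_eq_of_le h2.length_le with h4 | h4
        · exact h4
        · exact absurd (h2.eq_of_length h4) h3
      obtain ⟨U, hU, hU'⟩ := ih V'.length (hn ▸ hl) V' h1 rfl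
      exact ⟨U, hU, hU'.trans h2⟩
    · exact ⟨V, ⟨hV, h⟩, List.prefix_refl V⟩

theorem HL_pp [Finite α] {k : ℕ} {L : Language α} (h : HL k L) : HL k (pp L) := by
  refine (h.mul (HL.length_ge (k := k) (α := α) 1)).congr fun w => ?_
  constructor
  · rintro ⟨V, hV, ⟨b, rfl⟩, hne⟩
    refine Language.mem_mul.2 ⟨V, hV, b, ?_, rfl⟩
    show 1 ≤ b.length
    rcases b with _ | ⟨a, b⟩
    · exact absurd (by simp) hne
    · simp
  · intro hw
    obtain ⟨a, ha, b, hb, rfl⟩ := Language.mem_mul.1 hw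
    refine ⟨a, ha, ⟨b, rfl⟩, fun e => ?_⟩
    have hb' : 1 ≤ b.length := hb
    have := congrArg List.length e
    rw [List.length_append] at this
    omega

theorem HL_pmin [Finite α] {k : ℕ} {L : Language α} (h : HL k L) : HL k (pmin L) :=
  (h.inf (HL_pp h).compl).congr fun _ => Iff.rfl

/-- all data -/
structure Par (α S : Type) [Monoid S] where
  f : α → S
  n : ℕ
  Wo : List α → Prop
  W : ℕ
  p0 : ℕ
  N : ℕ
  z0 : ℕ
  K : ℕ
  Lam : ℕ
  c : ℕ → ℕ
  lam1 : List α → Option (Tok S)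
  rho1 : List α → Option (Tok S)
  nu1 : List α → Tok S
  BadN : ℕ → Prop
  lam2 : ℕ → List α → Option (Tok S)
  rho2 : ℕ → List α → Option (Tok S)
  nu2 : List α → Tok S
  R : ℕ
  C0 : ℕ
  loc : ∀ P Q : List α, n ≤ Q.length → (Wo (P ++ Q) ↔ Wo Q)
  wlen : ∀ P, Wo P → n ≤ P.length
  gap : ∀ (P : List α) (d : ℕ), Wo P → 0 < d → d ≤ W → ¬ Wo (P.take (P.length - d))
  p0_pos : 0 < p0
  z0_big : p0 + 4 * N + n + 2 * Lam + 1 ≤ z0
  W_big : 4 * N + 4 * Lam + z0 ≤ W
  g_len : ∀ P v, lam1 P = some v → P.length < N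
  g_snd : ∀ P Q v b, lam1 P = some v → rho1 Q = some b →
    b = act v ((P ++ Q).map f).prod + nu1 (P ++ Q)
  g_cmp : ∀ Y : List α, 2 * N ≤ Y.length → ¬ BadN Y.length → ∀ v, ∃ P Q, P ++ Q = Y ∧
    lam1 P = some v ∧ (rho1 Q).isSome
  c_pos : ∀ k, k < K → 0 < c k
  c_lt : ∀ k, k < K → c k ≤ p0 ∧ c k ≤ Lam
  e_snd : ∀ k < K, ∀ (P Q : List α) (v b : Tok S), P.length = c k → (P ++ Q).length = p0 →
    lam2 k P = some v → rho2 k Q = some b → b = act v ((P ++ Q).map f).prod + nu2 (P ++ Q)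
  e_cmp : ∀ (u : List α) (v : Tok S), u.length = p0 →
    ∃ I : Finset ℕ, R ≤ I.card ∧ ∀ k ∈ I, k < K ∧ lam2 k (u.take (c k)) = some v ∧
      (rho2 k (u.drop (c k))).isSome
  r_inj : ∀ a b a' b', a < K → b < K → a' < K → b' < K → a ≠ b → a' ≠ b' →
    ((c b : ℤ) - c a) - ((c b' : ℤ) - c a') ≤ 2 * N → 
    ((c b' : ℤ) - c a') - ((c b : ℤ) - c a) ≤ 2 * N → a = a' ∧ b = b'
  r_bad : ∀ T : ℕ, z0 ≤ T + p0 + Lam + N → ∀ s : Finset (ℕ × ℕ), (∀ ab ∈ s, ab.1 < K ∧
    ab.2 < K ∧ ab.1 ≠ ab.2 ∧ BadN (T + c ab.2 - c ab.1)) → s.card ≤ C0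
  R_big : 3 * C0 + 3 < R

namespace Par

variable {S : Type} [Monoid S] (A : Par α S)

def ph (w : List α) : S := (w.map A.f).prod

theorem ph_app (u w : List α) : A.ph (u ++ w) = A.ph u * A.ph w := by simp [ph]

def HW (z : ℕ) : Language α := {U | z ≤ U.length ∧ A.Wo U}
def H (z : ℕ) : Language α := pmin (A.HW z)
def HW2 : Language α := {w | w ∈ A.HW A.z0 ∧ w ∈ pp (A.HW A.z0)}
def Z : Language α := pmin A.HW2

theorem wlen' {P : List α} (h : A.Wo P) : A.n ≤ P.length := A.wlen P h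

theorem HL_HW [Finite α] (k z : ℕ) : HL k (A.HW z) := by
  have hfin : Set.Finite {s : List α | s.length = A.n ∧ A.Wo s} :=
    (List.finite_length_eq α A.n).subset fun s hs => hs.1
  refine (HL.setOf_and (HL.length_ge (k := k) (α := α) z)
    (HL.suffix (HL.finite (k := k) hfin))).congr fun w => ?_
  show (z ≤ w.length ∧ A.Wo w) ↔
    (z ≤ w.length ∧ ∃ v ∈ {s : List α | s.length = A.n ∧ A.Wo s}, v <:+ w)
  refine and_congr_right fun _ => ?_
  symm
  constructor
  · rintro ⟨v, ⟨h1, h2⟩, ⟨t, rfl⟩⟩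
    exact (A.loc t v h1.ge).2 h2
  · intro h
    have hn := A.wlen w h
    have hl : (w.drop (w.length - A.n)).length = A.n := by rw [List.length_drop]; omega
    refine ⟨w.drop (w.length - A.n), ⟨hl, ?_⟩, List.drop_suffix _ _⟩
    have := A.loc (w.take (w.length - A.n)) (w.drop (w.length - A.n)) hl.ge
    rw [List.take_append_drop] at this
    exact this.1 h

theorem HL_H [Finite α] (k z : ℕ) : HL k (A.H z) := HL_pmin (A.HL_HW k z)

theorem HL_Z [Finite α] (k : ℕ) : HL k A.Z :=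
  HL_pmin (((A.HL_HW k A.z0).inf (HL_pp (A.HL_HW k A.z0))).congr fun _ => Iff.rfl)

theorem code : Code A.Z := by
  refine ⟨fun h => ?_, fun z z' x x' h h' e => pmin_code h h' e⟩
  have h1 : A.z0 ≤ ([] : List α).length := h.1.1.1
  have := A.z0_big
  simp only [List.length_nil] at h1
  omega

/-- half block of a block -/
theorem half {X : List α} (hX : X ∈ A.Z) : ∃ U R, X = U ++ R ∧ U ∈ A.H A.z0 ∧ R ≠ [] := by
  obtain ⟨V, hV, hVX, hne⟩ := hX.1.2
  obtain ⟨U, hU, hUV⟩ := exists_pmin V hV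
  obtain ⟨R, hR⟩ := hUV.trans hVX
  refine ⟨U, R, hR.symm, hU, ?_⟩
  rintro rfl
  rw [List.append_nil] at hR
  subst hR
  exact hne (hVX.eq_of_length (le_antisymm hVX.length_le hUV.length_le))

/-- criterion for blocks -/
theorem mem_Z {U R : List α} (hU : U ∈ A.H A.z0) (hR : R ≠ []) (hW : A.Wo (U ++ R))
    (hmid : ∀ R', R' <+: R → R' ≠ R → R' ≠ [] → ¬ A.Wo (U ++ R')) : U ++ R ∈ A.Z := by
  have hl : A.z0 ≤ (U ++ R).length := by
    have h1 : A.z0 ≤ U.length := hU.1.1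
    rw [List.length_append]; omega
  refine ⟨⟨⟨hl, hW⟩, ⟨U, hU.1, List.prefix_append _ _, fun e => hR ?_⟩⟩, ?_⟩
  · have := congrArg List.length e
    rw [List.length_append] at this
    exact List.length_eq_zero_iff.1 (by omega)
  · rintro ⟨V, ⟨hV1, ⟨V', hV', hVV, hne'⟩⟩, hVX, hne⟩
    -- `U` is a prefix of `V'`
    have hcomp : U <+: V' := by
      have h1 : V' <+: U ++ R := hVV.trans hVX
      obtain ⟨y, hy⟩ := h1
      rcases pref_comp (U := U) (V := V') (x := R) (y := y) hy.symm with h | h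
      · exact h
      · by_cases e : V' = U
        · rw [e]
        · exact absurd ⟨V', hV', h, e⟩ hU.2
    obtain ⟨T, rfl⟩ := hcomp.trans hVV
    have hTR : T <+: R := (List.prefix_append_right_inj U).1 hVX
    refine hmid T hTR (fun e => hne (by rw [e])) ?_ hV1.2
    rintro rfl
    rw [List.append_nil] at hVV hne'
    exact hne' (hVV.eq_of_length (le_antisymm hVV.length_le hcomp.length_le))

theorem mid_Z {U R : List α} (hU : U ∈ A.H A.z0) (hX : U ++ R ∈ A.Z) {R' : List α}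
    (h1 : R' <+: R) (h2 : R' ≠ R) (h3 : R' ≠ []) : ¬ A.Wo (U ++ R') := by
  intro hW
  apply hX.2
  have hl : A.z0 ≤ U.length := hU.1.1
  refine ⟨U ++ R', ⟨⟨by rw [List.length_append]; omega, hW⟩, ⟨U, hU.1, List.prefix_append _ _,
    fun e => h3 ?_⟩⟩, (List.prefix_append_right_inj U).2 h1, fun e => h2 (List.append_cancel_left e)⟩
  have := congrArg List.length e
  rw [List.length_append] at this
  exact List.length_eq_zero_iff.1 (by omega)

open Classical in
/-- half block -/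
noncomputable def hb (X : List α) : List α :=
  if h : ∃ U, U ∈ A.H A.z0 ∧ U <+: X then h.choose else X

theorem hb_eq {U R : List α} (hU : U ∈ A.H A.z0) : A.hb (U ++ R) = U := by
  have h : ∃ V, V ∈ A.H A.z0 ∧ V <+: U ++ R := ⟨U, hU, List.prefix_append _ _⟩
  unfold hb
  rw [dif_pos h]
  obtain ⟨h1, ⟨y, hy⟩⟩ := h.choose_spec
  exact pmin_code h1 hU hy

/-- token noise of a block -/
noncomputable def d (X : List α) : Tok S :=
  act (act (A.nu2 ((A.hb X).take A.p0)) (A.ph ((A.hb X).drop A.p0)) + A.nu1 ((A.hb X).drop A.p0))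
    (A.ph (X.drop (A.hb X).length))

/-- value after the half block -/
noncomputable def hv (v : Tok S) (U : List α) : Tok S :=
  act (act v (A.ph (U.take A.p0)) + A.nu2 (U.take A.p0)) (A.ph (U.drop A.p0)) +
    A.nu1 (U.drop A.p0)

theorem psi_eq {U R : List α} (hU : U ∈ A.H A.z0) (v : Tok S) :
    aff A.ph A.d (U ++ R) v = act (A.hv v U) (A.ph R) := by
  unfold aff d hv
  rw [A.hb_eq hU, List.drop_left, A.ph_app]
  conv_lhs => rw [← List.take_append_drop A.p0 U]
  rw [A.ph_app]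
  simp only [List.take_append_drop, act_add, act_mul, mul_assoc, add_assoc]

def LA (v : Tok S) : Language α :=
  {P | A.p0 ≤ P.length ∧
    A.lam1 (P.drop A.p0) = some (act v (A.ph (P.take A.p0)) + A.nu2 (P.take A.p0))}

def LB (v : Tok S) : Language α := {P | ∃ k < A.K, P.length = A.c k ∧ A.lam2 k P = some v}

def RA (τ : Tok S) : Language α :=
  {Q | (∃ v, ∃ P ∈ A.LA v, P ++ Q ∈ A.Z) ∧
    ∀ v, ∀ P ∈ A.LA v, P ++ Q ∈ A.Z ∧ aff A.ph A.d (P ++ Q) v = τ}

theorem LA_len {v : Tok S} {P : List α} (h : P ∈ A.LA v) :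
    A.p0 ≤ P.length ∧ P.length < A.p0 + A.N := by
  obtain ⟨h1, h2⟩ := h
  have := A.g_len _ _ h2
  rw [List.length_drop] at this
  exact ⟨h1, by omega⟩

theorem soundA : Sound A.Z (aff A.ph A.d) A.LA A.RA := by
  refine ⟨fun v h => ?_, ?_⟩
  · have := (A.LA_len h).1
    have h2 := A.p0_pos
    simp only [List.length_nil] at this
    omega
  · intro v τ P Q z x y hP hQ hz e
    obtain ⟨h1, h2⟩ := hQ.2 v P hP
    have := A.code.2 _ _ _ _ h1 hz e
    exact ⟨this, by rw [← this]; exact h2.symm⟩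

/-- good half blocks -/
def GH : Language α :=
  {U | U ∈ A.H (A.z0 - A.N) ∧ A.z0 + A.N ≤ U.length ∧ ¬ A.BadN (U.length - A.p0)}

theorem GH_H {U : List α} (h : U ∈ A.GH) : U ∈ A.H A.z0 := by
  obtain ⟨⟨h1, h2⟩, h3, h4⟩ := h
  refine ⟨⟨by omega, h1.2⟩, ?_⟩
  rintro ⟨V, hV, hVU, hne⟩
  exact h2 ⟨V, ⟨le_trans (Nat.sub_le _ _) hV.1, hV.2⟩, hVU, hne⟩

/-- move a half block to another left part -/
theorem move_H {P P2 Q' : List α} {z z' : ℕ} (hU : P ++ Q' ∈ A.H z)
    (h1 : z' ≤ P2.length + Q'.length)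
    (h2 : P2.length + A.n ≤ z') (h3 : z + P2.length ≤ z' + P.length) (h4 : A.n ≤ Q'.length) :
    P2 ++ Q' ∈ A.H z' := by
  have hW : A.Wo Q' := (A.loc P Q' h4).1 hU.1.2
  refine ⟨⟨by rw [List.length_append]; exact h1, (A.loc P2 Q' h4).2 hW⟩, ?_⟩
  rintro ⟨V, ⟨hV1, hV2⟩, hVU, hne⟩
  have hPV : P2 <+: V := List.prefix_of_prefix_length_le (List.prefix_append _ _) hVU (by omega)
  obtain ⟨Q2, rfl⟩ := hPV
  have hQQ : Q2 <+: Q' := (List.prefix_append_right_inj P2).1 hVU
  rw [List.length_append] at hV1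
  have h5 : A.n ≤ Q2.length := by omega
  have hW2 : A.Wo Q2 := (A.loc P2 Q2 h5).1 hV2
  apply hU.2
  refine ⟨P ++ Q2, ⟨by rw [List.length_append]; omega, (A.loc P Q2 h5).2 hW2⟩,
    (List.prefix_append_right_inj P).2 hQQ, fun e => hne ?_⟩
  rw [List.append_cancel_left e]

/-- move a block -/
theorem move_Z {P P2 Q' R : List α} (hU : P ++ Q' ∈ A.H A.z0) (hU2 : P2 ++ Q' ∈ A.H A.z0)
    (hX : P ++ Q' ++ R ∈ A.Z) (hR : R ≠ []) (h4 : A.n ≤ Q'.length) : P2 ++ Q' ++ R ∈ A.Z := by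
  have key : ∀ T : List α, A.Wo (P ++ Q' ++ T) ↔ A.Wo (P2 ++ Q' ++ T) := by
    intro T
    have : A.n ≤ (Q' ++ T).length := by rw [List.length_append]; omega
    rw [List.append_assoc, List.append_assoc, A.loc P _ this, A.loc P2 _ this]
  refine A.mem_Z hU2 hR ((key R).1 hX.1.1.2) fun R' h1 h2 h3 h => ?_
  exact A.mid_Z hU hX h1 h2 h3 ((key R').2 h)

theorem compA {X U R : List α} (hX : X ∈ A.Z) (e : X = U ++ R) (hU : U ∈ A.GH) (v : Tok S) :
    Cut A.LA A.RA v X := by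
  subst e
  have hUH := A.GH_H hU
  obtain ⟨hU1, hU2, hU3⟩ := hU
  have hz := A.z0_big
  have hYl : (U.drop A.p0).length = U.length - A.p0 := List.length_drop
  obtain ⟨P', Q', hPQ, hl, hr⟩ := A.g_cmp (U.drop A.p0) (by rw [hYl]; omega) (by rw [hYl]; exact hU3)
    (act v (A.ph (U.take A.p0)) + A.nu2 (U.take A.p0))
  obtain ⟨b, hb⟩ := Option.isSome_iff_exists.1 hr
  have hPl := A.g_len _ _ hl
  have hX0l : (U.take A.p0).length = A.p0 := by rw [List.length_take]; omega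
  have hUe : U = (U.take A.p0 ++ P') ++ Q' := by
    rw [List.append_assoc, hPQ, List.take_append_drop]
  have hQl : Q'.length = U.length - A.p0 - P'.length := by
    have := congrArg List.length hPQ
    rw [List.length_append, hYl] at this
    omega
  have hR : R ≠ [] := by
    rintro rfl
    rw [List.append_nil] at hX
    obtain ⟨V, hV, hVU, hne⟩ := hX.1.2
    exact hUH.2 ⟨V, hV, hVU, hne⟩
  set P := U.take A.p0 ++ P' with hP
  have hPlen : P.length = A.p0 + P'.length := by rw [hP, List.length_append, hX0l]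
  have hPA : P ∈ A.LA v := by
    refine ⟨by omega, ?_⟩
    rw [hP, List.drop_append_of_le_length hX0l.ge, List.drop_of_length_le hX0l.le,
      List.nil_append, List.take_append_of_le_length hX0l.ge, List.take_of_length_le hX0l.le]
    exact hl
  have key : ∀ v2, ∀ P2 ∈ A.LA v2, P2 ++ (Q' ++ R) ∈ A.Z ∧
      aff A.ph A.d (P2 ++ (Q' ++ R)) v2 = act b (A.ph R) := by
    intro v2 P2 hP2
    obtain ⟨a1, a2⟩ := A.LA_len hP2
    have hU2' : P2 ++ Q' ∈ A.H A.z0 := by
      refine A.move_H (P := P) (z := A.z0 - A.N) (by rw [← hUe]; exact hU1)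
        ?_ ?_ ?_ ?_ <;> omega
    have hZ : P2 ++ Q' ++ R ∈ A.Z :=
      A.move_Z (P := P) (by rw [← hUe]; exact hUH) hU2' (by rw [← hUe]; exact hX) hR (by omega)
    rw [← List.append_assoc]
    refine ⟨hZ, ?_⟩
    rw [A.psi_eq hU2']
    congr 1
    have h3 := A.g_snd _ _ _ _ hP2.2 hb
    rw [h3]
    unfold hv
    rw [List.take_append_of_le_length a1, List.drop_append_of_le_length a1]
    rfl
  refine ⟨P, Q' ++ R, act b (A.ph R), ?_, hPA, ⟨⟨v, P, hPA, (key v P hPA).1⟩, key⟩⟩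
  rw [← List.append_assoc, ← hUe]

end Par

end Crest.Agent.R320.DA_223
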