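import Crest.Agent.R320.DA_223

/-!
# Row 320: scheme B (helper223)
-/

set_option autoImplicit false

namespace Crest.Agent.R320.DA_223

open Crest.Agent.R320.Hk_851 Crest.Agent.R320.Star_621 Crest.Agent.R320.Two_621
open Crest.RegLang

variable {α : Type}

namespace Par

variable {S : Type} [Monoid S] (A : Par α S)

/-- critical blocks -/
def Zc : Language α := {X | X ∈ A.Z ∧ ¬ ∀ v, Cut A.LA A.RA v X}

/-- words starting with a good half block -/
def GP : Language α := {w | ∃ V ∈ A.GH, V <+: w}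

def RB (τ : Tok S) : Language α :=
  {Q | ∃ k0 : Fin A.K, (∃ v, ∃ P ∈ A.LB v, P.length = A.c k0 ∧ P ++ Q ∈ A.Z) ∧
    (∀ v, ∀ P ∈ A.LB v, P.length = A.c k0 → P ++ Q ∈ A.Z ∧ aff A.ph A.d (P ++ Q) v = τ) ∧
    ∀ v, ∀ P ∈ A.LB v, P.length ≠ A.c k0 → P ++ Q ∈ A.GP}

theorem soundB : Sound A.Zc (aff A.ph A.d) A.LB A.RB := by
  refine ⟨?_, ?_⟩
  · rintro v ⟨k, hk, h, -⟩
    have := A.c_pos k hk
    simp only [List.length_nil] at h
    omega
  · rintro v τ P Q z x y hP ⟨k0, -, h2, h3⟩ hz e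
    by_cases hl : P.length = A.c k0
    · obtain ⟨h4, h5⟩ := h2 v P hP hl
      have := A.code.2 _ _ _ _ h4 hz.1 e
      exact ⟨this, by rw [← this]; exact h5.symm⟩
    · exfalso
      obtain ⟨V, hV, ⟨t, ht⟩⟩ := h3 v P hP hl
      obtain ⟨U, R, hzU, hU, hR⟩ := A.half hz.1
      have hVH := A.GH_H hV
      have hVU : V = U := by
        refine pmin_code hVH hU (x := t ++ x) (y := R ++ y) ?_
        rw [← List.append_assoc, ht, e, hzU, List.append_assoc]
      subst hVU
      exact hz.2 fun v => A.compA hz.1 hzU hV v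

/-- places spoiled by another candidate -/
def Spoiled (X : List α) (k : ℕ) : Prop :=
  ∃ k', k' < A.K ∧ A.c k' ≠ A.c k ∧ ∃ P : List α, P.length = A.c k' ∧
    P ++ X.drop (A.c k) ∉ A.GP

theorem compB {X : List α} (hX : X ∈ A.Z) (v : Tok S)
    (hsp : ∀ I : Finset ℕ, (∀ k ∈ I, k < A.K ∧ A.Spoiled X k) → I.card < A.R) :
    Cut A.LB A.RB v X := by
  obtain ⟨U, R, hXU, hU, hR⟩ := A.half hX
  have hz := A.z0_big
  have hUl : A.z0 ≤ U.length := hU.1.1
  have hX0 : (U.take A.p0).length = A.p0 := by rw [List.length_take]; omega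
  obtain ⟨I, hI, hIk⟩ := A.e_cmp (U.take A.p0) v hX0
  obtain ⟨k, hkI, hns⟩ : ∃ k ∈ I, ¬ A.Spoiled X k := by
    by_contra hcon
    push Not at hcon
    have := hsp I fun k hk => ⟨(hIk k hk).1, hcon k hk⟩
    omega
  obtain ⟨hk, hl, hr⟩ := hIk k hkI
  obtain ⟨b, hb⟩ := Option.isSome_iff_exists.1 hr
  obtain ⟨hcp, hcL⟩ := A.c_lt k hk
  have htt : (U.take A.p0).take (A.c k) = U.take (A.c k) := by
    rw [List.take_take, min_eq_left hcp]
  have hdt : (U.take A.p0).drop (A.c k) = (U.drop (A.c k)).take (A.p0 - A.c k) := by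
    rw [List.drop_take]
  rw [htt] at hl
  have hPl : (U.take (A.c k)).length = A.c k := by rw [List.length_take]; omega
  set P := U.take (A.c k) with hP
  set Q' := U.drop (A.c k) with hQ'
  have hUe : P ++ Q' = U := List.take_append_drop _ _
  have hQl : Q'.length = U.length - A.c k := List.length_drop
  have hXe : X = P ++ (Q' ++ R) := by rw [← List.append_assoc, hUe, hXU]
  have hXd : X.drop (A.c k) = Q' ++ R := by
    rw [hXe, ← hPl, List.drop_left]
  have hPB : P ∈ A.LB v := ⟨k, hk, hPl, hl⟩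
  -- same place
  have same : ∀ v2, ∀ P2 ∈ A.LB v2, P2.length = A.c k →
      P2 ++ (Q' ++ R) ∈ A.Z ∧ aff A.ph A.d (P2 ++ (Q' ++ R)) v2 =
        act (act b (A.ph (U.drop A.p0)) + A.nu1 (U.drop A.p0)) (A.ph R) := by
    rintro v2 P2 ⟨k2, hk2, hl2, hlam2⟩ hlen
    have hkk : k2 = k := by
      by_contra hne
      have := (A.r_inj k2 k k k2 hk2 hk hk hk2 hne (Ne.symm hne) (by omega) (by omega)).1
      exact hne this
    subst hkk
    have hU2 : P2 ++ Q' ∈ A.H A.z0 := by
      refine A.move_H (P := P) (z := A.z0) (by rw [hUe]; exact hU) ?_ ?_ ?_ ?_ <;> omega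
    have hZ : P2 ++ Q' ++ R ∈ A.Z :=
      A.move_Z (P := P) (by rw [hUe]; exact hU) hU2 (by rw [hUe, ← hXU]; exact hX) hR (by omega)
    rw [← List.append_assoc]
    refine ⟨hZ, ?_⟩
    rw [A.psi_eq hU2]
    congr 1
    have e1 : (P2 ++ Q').take A.p0 = P2 ++ (U.take A.p0).drop (A.c k2) := by
      rw [hdt, List.take_append, List.take_of_length_le (by omega), hlen]
    have e2 : (P2 ++ Q').drop A.p0 = U.drop A.p0 := by
      rw [List.drop_append, List.drop_of_length_le (by omega : P2.length ≤ A.p0),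
        List.nil_append, hQ', List.drop_drop]
      congr 1
      omega
    have h3 := A.e_snd k2 hk P2 ((U.take A.p0).drop (A.c k2)) v2 b hlen (by
      rw [List.length_append, List.length_drop, hX0]; omega) hlam2 hb
    unfold hv
    rw [e1, e2]
    rw [h3]
    rfl
  refine ⟨P, Q' ++ R, _, hXe, hPB, ⟨⟨k, hk⟩, ⟨v, P, hPB, hPl, (same v P hPB hPl).1⟩, same, ?_⟩⟩
  rintro v2 P2 ⟨k2, hk2, hl2, -⟩ hne
  by_contra hG
  exact hns ⟨k2, hk2, fun e => hne (by rw [hl2, e]), P2, hl2, by rw [hXd]; exact hG⟩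

end Par

end Crest.Agent.R320.DA_223
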