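import Crest.Agent.R320.DB_223

/-!
# Row 320: spoiling count (helper223)
-/

set_option autoImplicit false

namespace Crest.Agent.R320.DA_223

open Crest.Agent.R320.Hk_851 Crest.Agent.R320.Star_621 Crest.Agent.R320.Two_621
open Crest.RegLang

variable {α : Type}

namespace Par

variable {S : Type} [Monoid S] (A : Par α S)

theorem two_walls {X : List α} {s t : ℕ} (hst : s < t) (ht : t ≤ X.length)
    (h1 : A.Wo (X.take s)) (h2 : A.Wo (X.take t)) : A.W < t - s := by
  by_contra hcon
  have hl : (X.take t).length = t := by rw [List.length_take]; omega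
  apply A.gap (X.take t) (t - s) h2 (by omega) (by omega)
  rw [hl, List.take_take]
  have : min (t - (t - s)) t = s := by omega
  rw [this]; exact h1

theorem classify {U R : List α} (hX : U ++ R ∈ A.Z) (hU : U ∈ A.H A.z0) (hR : R ≠ []) :
    ∃ t0 : ℕ, ∀ t, A.z0 ≤ t + A.N + A.Lam → t ≤ (U ++ R).length → A.Wo ((U ++ R).take t) →
      t = t0 ∨ t = U.length ∨ t = (U ++ R).length := by
  classical
  have hUl : A.z0 ≤ U.length := hU.1.1
  have hWb := A.W_big
  have high : ∀ t, A.z0 ≤ t → t ≤ (U ++ R).length → A.Wo ((U ++ R).take t) →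
      t = U.length ∨ t = (U ++ R).length := by
    intro t h1 h2 h3
    by_contra hcon
    push Not at hcon
    obtain ⟨h4, h5⟩ := hcon
    rcases lt_or_gt_of_ne h4 with h6 | h6
    · rw [List.take_append_of_le_length h6.le] at h3
      refine hU.2 ⟨U.take t, ⟨by rw [List.length_take]; omega, h3⟩, List.take_prefix _ _, fun e => ?_⟩
      have := congrArg List.length e
      rw [List.length_take] at this
      omega
    · have e : (U ++ R).take t = U ++ R.take (t - U.length) := by
        rw [List.take_append, List.take_of_length_le h6.le]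
      rw [e] at h3
      rw [List.length_append] at h5 h2
      refine A.mid_Z hU hX (R' := R.take (t - U.length)) (List.take_prefix _ _) (fun e => ?_)
        (fun e => ?_) h3
      · have := congrArg List.length e
        rw [List.length_take] at this
        omega
      · have := congrArg List.length e
        rw [List.length_take, List.length_nil] at this
        omega
  by_cases h : ∃ t, A.z0 ≤ t + A.N + A.Lam ∧ t < A.z0 ∧ A.Wo ((U ++ R).take t)
  · obtain ⟨t0, h1, h2, h3⟩ := h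
    refine ⟨t0, fun t h4 h5 h6 => ?_⟩
    by_cases h7 : A.z0 ≤ t
    · exact Or.inr (high t h7 h5 h6)
    · left
      have hle : (U ++ R).length ≥ A.z0 := by rw [List.length_append]; omega
      rcases lt_trichotomy t t0 with h8 | h8 | h8
      · have := A.two_walls h8 (by omega) h6 h3
        omega
      · exact h8
      · have := A.two_walls h8 (by omega) h3 h6
        omega
  · refine ⟨U.length, fun t h4 h5 h6 => ?_⟩
    by_cases h7 : A.z0 ≤ t
    · exact Or.inr (high t h7 h5 h6)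
    · exact absurd ⟨t, h4, by omega, h6⟩ h

/-- (E) pair at the wall `s` -/
def EP (s : ℕ) (ab : ℕ × ℕ) : Prop :=
  ab.1 < A.K ∧ ab.2 < A.K ∧ ab.1 ≠ ab.2 ∧ A.z0 + A.c ab.1 ≤ s + A.c ab.2 + A.N ∧
    s + A.c ab.2 < A.z0 + A.N + A.c ab.1

/-- (B) pair at the wall `s` -/
def BP (s : ℕ) (ab : ℕ × ℕ) : Prop :=
  ab.1 < A.K ∧ ab.2 < A.K ∧ ab.1 ≠ ab.2 ∧ A.z0 ≤ s + A.N + A.Lam ∧
    A.BadN ((s - A.p0) + A.c ab.2 - A.c ab.1)

theorem spoiled_pair {U R : List α} (hX : U ++ R ∈ A.Z) (hU : U ∈ A.H A.z0) (hR : R ≠ [])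
    {t0 : ℕ} (ht0 : ∀ t, A.z0 ≤ t + A.N + A.Lam → t ≤ (U ++ R).length →
      A.Wo ((U ++ R).take t) → t = t0 ∨ t = U.length ∨ t = (U ++ R).length)
    {k : ℕ} (hk : k < A.K) (hs : A.Spoiled (U ++ R) k) :
    ∃ s, (s = t0 ∨ s = U.length ∨ s = (U ++ R).length) ∧
      ∃ k', A.EP s (k, k') ∨ A.BP s (k, k') := by
  obtain ⟨k', hk', hne, P, hPl, hG⟩ := hs
  have hUl : A.z0 ≤ U.length := hU.1.1
  have hz := A.z0_big
  have hWb := A.W_big
  obtain ⟨hc1, hc2⟩ := A.c_lt k hk
  obtain ⟨hc3, hc4⟩ := A.c_lt k' hk'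
  have hkk : k ≠ k' := fun e => hne (by rw [e])
  set X := U ++ R with hXdef
  have hXl : U.length < X.length := by
    rw [hXdef, List.length_append]
    have : 0 < R.length := List.length_pos_iff.2 hR
    omega
  have hgap : A.W < X.length - U.length := by
    refine A.two_walls hXl le_rfl ?_ ?_
    · rw [hXdef, List.take_left]; exact hU.1.2
    · rw [List.take_length]; exact hX.1.1.2
  -- transfer of walls
  have trans : ∀ V : List α, V <+: P ++ X.drop (A.c k) → A.z0 ≤ V.length + A.N → A.Wo V →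
      (V.length + A.c k - A.c k' ≤ X.length ∧ A.Wo (X.take (V.length + A.c k - A.c k'))) := by
    intro V hV hVl hW
    have hPV : P <+: V := List.prefix_of_prefix_length_le (List.prefix_append _ _) hV (by omega)
    obtain ⟨Q, rfl⟩ := hPV
    have hQ : Q <+: X.drop (A.c k) := (List.prefix_append_right_inj P).1 hV
    rw [List.length_append] at hVl ⊢
    have hQn : A.n ≤ Q.length := by omega
    have hQW : A.Wo Q := (A.loc P Q hQn).1 hW
    have hle := hQ.length_le
    rw [List.length_drop] at hle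
    have e1 : P.length + Q.length + A.c k - A.c k' = A.c k + Q.length := by omega
    rw [e1]
    refine ⟨by omega, ?_⟩
    have e2 : X.take (A.c k + Q.length) = X.take (A.c k) ++ Q := by
      rw [List.take_add, List.prefix_iff_eq_take.1 hQ]
      rw [List.length_take, List.length_drop]
      congr 2
      omega
    rw [e2]
    exact (A.loc _ _ hQn).2 hQW
  -- the candidate has a half block
  have hPX : P ++ X.drop (A.c k) ∈ A.HW A.z0 := by
    refine ⟨by rw [List.length_append, List.length_drop]; omega, ?_⟩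
    have h1 : A.n ≤ (X.drop (A.c k)).length := by rw [List.length_drop]; omega
    refine (A.loc _ _ h1).2 ?_
    have := (A.loc (X.take (A.c k)) _ h1)
    rw [List.take_append_drop] at this
    exact this.1 hX.1.1.2
  obtain ⟨U', hU', hU'P⟩ := exists_pmin _ hPX
  have hU'l : A.z0 ≤ U'.length := hU'.1.1
  obtain ⟨h1, h2⟩ := trans U' hU'P (by omega) hU'.1.2
  have hcl := ht0 _ (by omega) h1 h2
  have hnG : U' ∉ A.GH := fun h => hG ⟨U', h, hU'P⟩
  by_cases hc5 : U'.length < A.z0 + A.N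
  · exact ⟨_, hcl, k', Or.inl ⟨hk, hk', hkk, by simp only; omega, by simp only; omega⟩⟩
  by_cases hc6 : A.BadN (U'.length - A.p0)
  · refine ⟨_, hcl, k', Or.inr ⟨hk, hk', hkk, by omega, ?_⟩⟩
    simp only
    have : U'.length + A.c k - A.c k' - A.p0 + A.c k' - A.c k = U'.length - A.p0 := by omega
    rw [this]; exact hc6
  have hnH : U' ∉ A.H (A.z0 - A.N) := fun h => hnG ⟨h, by omega, hc6⟩
  have hHW : U' ∈ A.HW (A.z0 - A.N) := ⟨by omega, hU'.1.2⟩
  have : U' ∈ pp (A.HW (A.z0 - A.N)) := by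
    by_contra hcon
    exact hnH ⟨hHW, hcon⟩
  obtain ⟨V, hV, hVU, hVne⟩ := this
  have hVl : A.z0 - A.N ≤ V.length := hV.1
  have hVlt : V.length < A.z0 := by
    by_contra hcon
    exact hU'.2 ⟨V, ⟨by omega, hV.2⟩, hVU, hVne⟩
  obtain ⟨h3, h4⟩ := trans V (hVU.trans hU'P) (by omega) hV.2
  refine ⟨_, ht0 _ (by omega) h3 h4, k', Or.inl ⟨hk, hk', hkk, by simp only; omega, by
    simp only; omega⟩⟩

theorem card_EP (s : ℕ) (J : Finset (ℕ × ℕ)) (hJ : ∀ ab ∈ J, A.EP s ab) : J.card ≤ 1 := by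
  rw [Finset.card_le_one]
  rintro ⟨a, b⟩ h1 ⟨a', b'⟩ h2
  obtain ⟨p1, p2, p3, p4, p5⟩ := hJ _ h1
  obtain ⟨q1, q2, q3, q4, q5⟩ := hJ _ h2
  simp only at p1 p2 p3 p4 p5 q1 q2 q3 q4 q5
  obtain ⟨e1, e2⟩ := A.r_inj a b a' b' p1 p2 q1 q2 p3 q3 (by omega) (by omega)
  rw [e1, e2]

theorem card_BP (s : ℕ) (J : Finset (ℕ × ℕ)) (hJ : ∀ ab ∈ J, A.BP s ab) : J.card ≤ A.C0 := by
  rcases J.eq_empty_or_nonempty with rfl | ⟨ab, hab⟩
  · simp
  · have := (hJ ab hab).2.2.2.1
    exact A.r_bad (s - A.p0) (by omega) J fun ab h =>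
      ⟨(hJ ab h).1, (hJ ab h).2.1, (hJ ab h).2.2.1, (hJ ab h).2.2.2.2⟩

theorem spoil {X : List α} (hX : X ∈ A.Z) (I : Finset ℕ)
    (hI : ∀ k ∈ I, k < A.K ∧ A.Spoiled X k) : I.card < A.R := by
  classical
  obtain ⟨U, R, rfl, hU, hR⟩ := A.half hX
  obtain ⟨t0, ht0⟩ := A.classify hX hU hR
  have key : ∀ k ∈ I, ∃ s, (s = t0 ∨ s = U.length ∨ s = (U ++ R).length) ∧
      ∃ k', A.EP s (k, k') ∨ A.BP s (k, k') := fun k hk =>
    A.spoiled_pair hX hU hR ht0 (hI k hk).1 (hI k hk).2
  let G := Finset.range A.K ×ˢ Finset.range A.K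
  let E : ℕ → Finset ℕ := fun s => (G.filter (A.EP s)).image Prod.fst
  let B : ℕ → Finset ℕ := fun s => (G.filter (A.BP s)).image Prod.fst
  have hE : ∀ s, (E s).card ≤ 1 := fun s =>
    (Finset.card_image_le).trans (A.card_EP s _ fun ab h => (Finset.mem_filter.1 h).2)
  have hB : ∀ s, (B s).card ≤ A.C0 := fun s =>
    (Finset.card_image_le).trans (A.card_BP s _ fun ab h => (Finset.mem_filter.1 h).2)
  let F : ℕ → Finset ℕ := fun s => E s ∪ B s
  have hF : ∀ s, (F s).card ≤ 1 + A.C0 := fun s =>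
    (Finset.card_union_le _ _).trans (Nat.add_le_add (hE s) (hB s))
  have hsub : I ⊆ F t0 ∪ (F U.length ∪ F (U ++ R).length) := by
    intro k hk
    obtain ⟨s, hs, k', h⟩ := key k hk
    have hmem : k ∈ F s := by
      rcases h with h | h
      · exact Finset.mem_union_left _ (Finset.mem_image.2 ⟨(k, k'), Finset.mem_filter.2
          ⟨Finset.mem_product.2 ⟨Finset.mem_range.2 h.1, Finset.mem_range.2 h.2.1⟩, h⟩, rfl⟩)
      · exact Finset.mem_union_right _ (Finset.mem_image.2 ⟨(k, k'), Finset.mem_filter.2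
          ⟨Finset.mem_product.2 ⟨Finset.mem_range.2 h.1, Finset.mem_range.2 h.2.1⟩, h⟩, rfl⟩)
    rcases hs with rfl | rfl | rfl
    · exact Finset.mem_union_left _ hmem
    · exact Finset.mem_union_right _ (Finset.mem_union_left _ hmem)
    · exact Finset.mem_union_right _ (Finset.mem_union_right _ hmem)
  have h1 := Finset.card_le_card hsub
  have h2 := Finset.card_union_le (F t0) (F U.length ∪ F (U ++ R).length)
  have h3 := Finset.card_union_le (F U.length) (F (U ++ R).length)
  have h4 := hF t0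
  have h5 := hF U.length
  have h6 := hF (U ++ R).length
  have h7 := A.R_big
  omega

theorem cutB {X : List α} (hX : X ∈ A.Z) (v : Tok S) : Cut A.LB A.RB v X :=
  A.compB hX v fun I hI => A.spoil hX I hI

end Par

end Crest.Agent.R320.DA_223
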