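import Crest.Agent.R320.Main_621
import Crest.Agent.R320.ExactU_815

/-!
# Row 320: the concrete two wall schemes in 621's prefix code form (helper815)

Part 1: blocks, scheme A, scheme B, soundness and completeness, over an abstract left-looking wall
predicate, an abstract gadget for scheme A and the exact gadget for scheme B.
-/

set_option autoImplicit false

namespace Crest.Agent.R320.Dat_815

open Crest.Agent.R320.Hk_851 Crest.Agent.R320.Star_621 Crest.Agent.R320.Two_621

universe u

variable {α : Type u}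

/-- left-looking walls: `wp w e` = the text `w` has a wall at the place `e` -/
structure Walls (α : Type u) where
  n : ℕ
  W : ℕ
  wp : List α → ℕ → Prop
  le : ∀ w e, wp w e → e ≤ w.length
  pre : ∀ (u v : List α) (e : ℕ), e ≤ u.length → (wp (u ++ v) e ↔ wp u e)
  suf : ∀ (P Q : List α) (i : ℕ), n ≤ i → (wp (P ++ Q) (P.length + i) ↔ wp Q i)
  sep : ∀ w e e', wp w e → wp w e' → e < e' → e + W ≤ e'

/-- exactly two walls in `[h, |X|]`, namely `t` and the end -/
def TW (D : Walls α) (X : List α) (h t : ℕ) : Prop :=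
  D.wp X t ∧ h ≤ t ∧ t < X.length ∧ D.wp X X.length ∧
    ∀ e, h ≤ e → e < X.length → D.wp X e → e = t

variable {D : Walls α}

theorem TW.uniq {X : List α} {h t t' : ℕ} (h1 : TW D X h t) (h2 : TW D X h t') : t = t' :=
  h2.2.2.2.2 t h1.2.1 h1.2.2.1 h1.1

theorem TW.raise {X : List α} {h t z : ℕ} (h1 : TW D X h t) (h2 : h ≤ z) (h3 : z ≤ t) :
    TW D X z t :=
  ⟨h1.1, h3, h1.2.2.1, h1.2.2.2.1, fun e a b c => h1.2.2.2.2 e (h2.trans a) b c⟩

theorem tw_code_aux {X X' x x' : List α} {h t t' : ℕ} (h1 : TW D X h t) (h2 : TW D X' h t')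
    (e : X ++ x = X' ++ x') (hl : X.length < X'.length) : False := by
  have p : X <+: X' := List.prefix_of_prefix_length_le ⟨x, e⟩ ⟨x', rfl⟩ hl.le
  obtain ⟨y, rfl⟩ := p
  have h3 := h1.2.2.1
  have a := h2.2.2.2.2 t h1.2.1 (by omega) ((D.pre _ _ _ h1.2.2.1.le).2 h1.1)
  have b := h2.2.2.2.2 X.length (h1.2.1.trans h1.2.2.1.le) hl
    ((D.pre _ _ _ le_rfl).2 h1.2.2.2.1)
  omega

theorem tw_code {X X' x x' : List α} {h t t' : ℕ} (h1 : TW D X h t) (h2 : TW D X' h t')
    (e : X ++ x = X' ++ x') : X = X' := by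
  rcases lt_trichotomy X.length X'.length with hl | hl | hl
  · exact (tw_code_aux h1 h2 e hl).elim
  · exact (List.append_inj e hl).1
  · exact (tw_code_aux h2 h1 e.symm hl).elim

theorem tw_shift {P Q : List α} {h t : ℕ} (hn : D.n ≤ h) :
    TW D (P ++ Q) (P.length + h) (P.length + t) ↔ TW D Q h t := by
  unfold TW
  constructor
  · rintro ⟨a, b, c, d, e⟩
    have hb : h ≤ t := by omega
    rw [List.length_append] at c d e
    refine ⟨(D.suf P Q t (hn.trans hb)).1 a, hb, by omega, (D.suf P Q _ (by omega)).1 d,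
      fun i h1 h2 h3 => ?_⟩
    have := e (P.length + i) (by omega) (by omega) ((D.suf P Q i (by omega)).2 h3)
    omega
  · rintro ⟨a, b, c, d, e⟩
    refine ⟨(D.suf P Q t (by omega)).2 a, by omega, by rw [List.length_append]; omega, ?_, ?_⟩
    · rw [List.length_append]; exact (D.suf P Q _ (by omega)).2 d
    · intro i h1 h2 h3
      rw [List.length_append] at h2
      obtain ⟨j, rfl⟩ := Nat.exists_eq_add_of_le (show P.length ≤ i by omega)
      have := e j (by omega) (by omega) ((D.suf P Q j (by omega)).1 h3)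
      omega

theorem tw_up {P Q : List α} {h t z : ℕ} (hn : D.n ≤ h) (hT : TW D Q h t)
    (h1 : P.length + h ≤ z) (h2 : z ≤ P.length + t) : TW D (P ++ Q) z (P.length + t) :=
  ((tw_shift hn).2 hT).raise h1 h2

variable {S : Type u} [Monoid S]

/-- product of a word -/
def ph (φ : α → S) (w : List α) : S := (w.map φ).prod

@[simp] theorem ph_nil (φ : α → S) : ph φ [] = 1 := rfl
theorem ph_append (φ : α → S) (a b : List α) : ph φ (a ++ b) = ph φ a * ph φ b := by
  simp [ph]

/-- the monoid of scheme B -/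
abbrev TB (S : Type u) : Type u := (Function.End (Option (Tok S)))ᵐᵒᵖ

/-- all data -/
structure Par (α : Type u) (S : Type u) [Monoid S] where
  D : Walls α
  φ : α → S
  p0 : ℕ
  q : ℕ
  N1 : ℕ
  Bad : ℕ → Prop
  lam : List α → Option (Tok S)
  rho : List α → Option (Tok S)
  nu : List α → Tok S
  lam_le : ∀ p v, lam p = some v → p.length ≤ N1
  sound : ∀ p t v r, lam p = some v → rho t = some r → q ≤ t.length →
    r = act v (ph φ (p ++ t)) + nu (p ++ t)
  complete : ∀ w : List α, q ≤ w.length → ¬ Bad w.length → ∀ v, ∃ p t, p ++ t = w ∧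
    lam p = some v ∧ (rho t).isSome
  hn : D.n ≤ q
  hp0 : 0 < p0
  K : ℕ
  R : ℕ
  cc : ℕ → ℕ
  cc_pos : ∀ k, 0 < cc k
  cc_lt : ∀ k < K, cc k < p0
  lamB : ℕ → List α → Option (Tok (TB S))
  rhoB : ℕ → List α → TB S → Option (Tok (TB S))
  nuB : List α → TB S → Tok (TB S)

namespace Par

variable (p : Par α S)

def z : ℕ := p.p0 + p.q + p.N1

/-- the blocks -/
def Z : Language α := {X | ∃ t, TW p.D X p.z t}

/-- badness of a first wall `t` after the threshold `h` (anchor at `h - z`) with gadget length `T` -/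
def bd (X : List α) (h t T : ℕ) : Prop :=
  t < h + p.N1 ∨ (∃ e, h ≤ e + p.N1 ∧ e < h ∧ p.D.wp X e) ∨ p.Bad T

def Zc : Language α := {X | ∃ t, TW p.D X p.z t ∧ p.bd X p.z t (t - p.p0)}

theorem code : Code p.Z := by
  refine ⟨?_, ?_⟩
  · rintro ⟨t, ht⟩
    have := ht.2.2.1
    simp at this
  · rintro X X' x x' ⟨t, ht⟩ ⟨t', ht'⟩ e
    exact tw_code ht ht' e

theorem Zc_sub : ∀ X ∈ p.Zc, X ∈ p.Z := fun _ ⟨t, h, _⟩ => ⟨t, h⟩

def LA (v : Tok S) : Language α :=
  {P | p.p0 ≤ P.length ∧ p.lam (P.drop p.p0) = some (act v (ph p.φ (P.take p.p0)))}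

def RA (v : Tok S) : Language α :=
  {Q | ∃ t r, TW p.D Q p.q t ∧ p.q + p.N1 ≤ t ∧ p.rho (Q.take t) = some r ∧
    v = act r (ph p.φ (Q.drop t))}

open Classical in
noncomputable def dY (Y : List α) : Tok S :=
  if h : ∃ t, TW p.D Y (p.q + p.N1) t then
    act (p.nu (Y.take h.choose)) (ph p.φ (Y.drop h.choose)) else 0

theorem dY_eq {Y : List α} {t : ℕ} (h : TW p.D Y (p.q + p.N1) t) :
    p.dY Y = act (p.nu (Y.take t)) (ph p.φ (Y.drop t)) := by
  have hex : ∃ t, TW p.D Y (p.q + p.N1) t := ⟨t, h⟩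
  unfold dY
  rw [dif_pos hex, TW.uniq hex.choose_spec h]

noncomputable def dA (X : List α) : Tok S := p.dY (X.drop p.p0)

theorem z_le_tw {X : List α} {t : ℕ} (h : TW p.D X p.z t) : p.p0 ≤ X.length := by
  have := h.2.1; have := h.2.2.1; unfold z at *; omega

theorem tw_drop {X : List α} {t : ℕ} (h : TW p.D X p.z t) :
    TW p.D (X.drop p.p0) (p.q + p.N1) (t - p.p0) := by
  have h1 := p.z_le_tw h
  have h2 := h.2.1
  have hl : (X.take p.p0).length = p.p0 := by rw [List.length_take]; omega
  rw [← tw_shift (P := X.take p.p0) (by have := p.hn; omega), List.take_append_drop, hl]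
  have e : p.p0 + (t - p.p0) = t := by unfold z at h2; omega
  rw [e, ← Nat.add_assoc]
  exact h

theorem val {X : List α} {t : ℕ} (h : TW p.D X p.z t) (v : Tok S) :
    aff (ph p.φ) p.dA X v =
      act (act (act v (ph p.φ (X.take p.p0))) (ph p.φ ((X.drop p.p0).take (t - p.p0))) +
        p.nu ((X.drop p.p0).take (t - p.p0))) (ph p.φ ((X.drop p.p0).drop (t - p.p0))) := by
  unfold aff dA
  rw [p.dY_eq (p.tw_drop h), act_add, act_mul, act_mul, ← ph_append, ← ph_append,
    List.take_append_drop, List.take_append_drop]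

theorem soundA : Sound p.Z (aff (ph p.φ) p.dA) p.LA p.RA := by
  refine ⟨?_, ?_⟩
  · rintro v ⟨h, -⟩
    have := p.hp0
    simp at h
    omega
  · rintro v τ P Q X x y ⟨hP, hlam⟩ ⟨tQ, r, hTQ, htQ, hrho, rfl⟩ ⟨t, hX⟩ e
    have hj := p.lam_le _ _ hlam
    rw [List.length_drop] at hj
    have hup : TW p.D (P ++ Q) p.z (P.length + tQ) :=
      tw_up p.hn hTQ (by unfold z; omega) (by unfold z; omega)
    have hPQ : P ++ Q = X := tw_code hup hX e
    refine ⟨hPQ, ?_⟩
    subst hPQ
    rw [p.val hup v]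
    have hlt : tQ < Q.length := hTQ.2.2.1
    have e1 : (P ++ Q).take p.p0 = P.take p.p0 := List.take_append_of_le_length hP
    have e2 : (P ++ Q).drop p.p0 = P.drop p.p0 ++ Q := List.drop_append_of_le_length hP
    have e3 : P.length + tQ - p.p0 = (P.drop p.p0).length + tQ := by
      rw [List.length_drop]; omega
    rw [e1, e2, e3, List.take_length_add_append, List.drop_length_add_append]
    have hs := p.sound _ _ _ _ hlam hrho (by rw [List.length_take]; omega)
    rw [← hs]

theorem completeA (X : List α) (hX : X ∈ p.Z) (hc : X ∉ p.Zc) (v : Tok S) :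
    Cut p.LA p.RA v X := by
  obtain ⟨t, ht⟩ := hX
  have hb : ¬ p.bd X p.z t (t - p.p0) := fun h => hc ⟨t, ht, h⟩
  unfold bd at hb
  push Not at hb
  obtain ⟨h1, h2, h3⟩ := hb
  have hz := p.z_le_tw ht
  have htl := ht.2.2.1
  set Y := (X.drop p.p0).take (t - p.p0) with hY
  have hYl : Y.length = t - p.p0 := by
    rw [hY, List.length_take, List.length_drop]; omega
  obtain ⟨P', T', hPT, hlam, hrho⟩ := p.complete Y (by rw [hYl]; unfold z at h1; omega)
    (by rw [hYl]; exact h3) (act v (ph p.φ (X.take p.p0)))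
  have hj := p.lam_le _ _ hlam
  have hPTl : P'.length + T'.length = t - p.p0 := by
    rw [← hYl, ← hPT, List.length_append]
  obtain ⟨r, hr⟩ := Option.isSome_iff_exists.1 hrho
  have hX3 : X = X.take p.p0 ++ (P' ++ (T' ++ X.drop t)) := by
    rw [← List.append_assoc P', hPT, hY]
    conv_lhs => rw [← List.take_append_drop p.p0 X,
      ← List.take_append_drop (t - p.p0) (X.drop p.p0)]
    rw [List.drop_drop]
    congr 3
    unfold z at h1; omega
  have hl0 : (X.take p.p0).length = p.p0 := by rw [List.length_take]; omega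
  refine ⟨X.take p.p0 ++ P', T' ++ X.drop t, act r (ph p.φ (X.drop t)), ?_, ?_, ?_⟩
  · rw [List.append_assoc]; exact hX3
  · refine ⟨by rw [List.length_append]; omega, ?_⟩
    have e1 : (X.take p.p0 ++ P').drop p.p0 = P' := by
      conv_lhs => rw [← hl0]
      simp
    have e2 : (X.take p.p0 ++ P').take p.p0 = X.take p.p0 := by
      conv_lhs => rw [← hl0]
      simp
    rw [e1, e2]; exact hlam
  · refine ⟨T'.length, r, ?_, ?_, ?_, ?_⟩
    · have hlow : TW p.D X (p.p0 + P'.length + p.q) t := by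
        refine ⟨ht.1, by unfold z at h1; omega, ht.2.2.1, ht.2.2.2.1, fun e a b c => ?_⟩
        by_cases hez : p.z ≤ e
        · exact ht.2.2.2.2 e hez b c
        · exact absurd c (h2 e (by unfold z; omega) (by omega))
      have hpl : (X.take p.p0 ++ P').length = p.p0 + P'.length := by
        rw [List.length_append, hl0]
      rw [← tw_shift (P := X.take p.p0 ++ P') p.hn, hpl, List.append_assoc, ← hX3]
      have : p.p0 + P'.length + T'.length = t := by unfold z at h1; omega
      rw [this]; exact hlow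
    · unfold z at h1; omega
    · rw [List.take_left']
      · exact hr
      · rfl
    · rw [List.drop_left']
      rfl

/-! ## the zone maps of scheme A as products -/

/-- letters of scheme B -/
def g (a : α) : TB S := MulOpposite.op fun o : Option (Tok S) => o.map fun v => act v (p.φ a)

theorem pr_g (w : List α) : (w.map p.g).prod =
    MulOpposite.op fun o : Option (Tok S) => o.map fun v => act v (ph p.φ w) := by
  induction w with
  | nil =>
    apply MulOpposite.unop_injective
    funext o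
    cases o with
    | none => rfl
    | some v =>
      show some v = some (act v (ph p.φ []))
      rw [ph_nil, act_one]
  | cons a w ih =>
    rw [List.map_cons, List.prod_cons, ih]
    apply MulOpposite.unop_injective
    funext o
    cases o with
    | none => rfl
    | some v =>
      show some (act (act v (p.φ a)) (ph p.φ w)) = some (act v (ph p.φ (a :: w)))
      rw [act_mul]
      simp [ph]

def CutY (v : Tok S) (Y : List α) : Prop := ∃ P Q τ, Y = P ++ Q ∧ p.lam P = some v ∧ Q ∈ p.RA τ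

open Classical in
noncomputable def hB (Y : List α) : TB S := MulOpposite.op fun o : Option (Tok S) =>
  o.bind fun v => if p.CutY v Y then none else some (act v (ph p.φ Y) + p.dY Y)

theorem cut_iff {X : List α} (hX : p.p0 ≤ X.length) (v : Tok S) :
    Cut p.LA p.RA v X ↔ p.CutY (act v (ph p.φ (X.take p.p0))) (X.drop p.p0) := by
  constructor
  · rintro ⟨P, Q, τ, rfl, ⟨hP, hl⟩, hQ⟩
    refine ⟨P.drop p.p0, Q, τ, List.drop_append_of_le_length hP, ?_, hQ⟩
    rw [List.take_append_of_le_length hP]; exact hl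
  · rintro ⟨P, Q, τ, e, hl, hQ⟩
    have hl0 : (X.take p.p0).length = p.p0 := by rw [List.length_take]; omega
    refine ⟨X.take p.p0 ++ P, Q, τ, ?_, ⟨?_, ?_⟩, hQ⟩
    · rw [List.append_assoc, ← e, List.take_append_drop]
    · rw [List.length_append]; omega
    · have e1 : (X.take p.p0 ++ P).drop p.p0 = P := by
        conv_lhs => rw [← hl0]
        simp
      have e2 : (X.take p.p0 ++ P).take p.p0 = X.take p.p0 := by
        conv_lhs => rw [← hl0]
        simp
      rw [e1, e2]; exact hl

theorem step_eq {X : List α} (hX : p.p0 ≤ X.length) :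
    stepA (aff (ph p.φ) p.dA) p.LA p.RA X = ((X.take p.p0).map p.g).prod * p.hB (X.drop p.p0) := by
  classical
  rw [p.pr_g]
  apply MulOpposite.unop_injective
  funext o
  cases o with
  | none => rfl
  | some v =>
    show (if Cut p.LA p.RA v X then none else some (aff (ph p.φ) p.dA X v)) =
      (if p.CutY (act v (ph p.φ (X.take p.p0))) (X.drop p.p0) then none else
        some (act (act v (ph p.φ (X.take p.p0))) (ph p.φ (X.drop p.p0)) + p.dY (X.drop p.p0)))
    have e : aff (ph p.φ) p.dA X v =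
        act (act v (ph p.φ (X.take p.p0))) (ph p.φ (X.drop p.p0)) + p.dY (X.drop p.p0) := by
      unfold aff dA
      rw [act_mul, ← ph_append, List.take_append_drop]
    by_cases hc : Cut p.LA p.RA v X
    · rw [if_pos hc, if_pos ((p.cut_iff hX v).1 hc)]
    · rw [if_neg hc, if_neg (fun h => hc ((p.cut_iff hX v).2 h)), e]

/-! ## scheme B -/

def hk (k : ℕ) : ℕ := p.z - p.cc k

/-- candidate `k` is visible and bad in the right word `Q` -/
def VB (k : ℕ) (Q : List α) (t : ℕ) : Prop :=
  p.D.wp Q t ∧ p.hk k ≤ t ∧ (∀ e, p.hk k ≤ e → e < t → ¬ p.D.wp Q e) ∧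
    p.bd Q (p.hk k) t (t + p.cc k - p.p0)

def LB (w : Tok (TB S)) : Language α :=
  {P | ∃ k < p.K, P.length = p.cc k ∧ p.lamB k P = some w}

def RB (w : Tok (TB S)) : Language α :=
  {Q | ∃ k < p.K, (∃ t, TW p.D Q (p.hk k) t) ∧
    (∀ k' < p.K, k' ≠ k → ¬ ∃ t', p.VB k' Q t') ∧
    ∃ Q1 Q2, Q = Q1 ++ Q2 ∧ Q1.length + p.cc k = p.p0 ∧ p.rhoB k Q1 (p.hB Q2) = some w}

noncomputable def dB (X : List α) : Tok (TB S) := p.nuB (X.take p.p0) (p.hB (X.drop p.p0))

theorem bd_shift {P Q : List α} {k t T : ℕ} (hk : k < p.K) (hP : P.length = p.cc k)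
    (ht : p.z ≤ t) :
    p.bd (P ++ Q) p.z t T ↔ p.bd Q (p.hk k) (t - P.length) T := by
  have h1 := p.cc_lt k hk
  have h2 := p.hn
  unfold bd Par.hk
  have hz : p.z = p.p0 + p.q + p.N1 := rfl
  constructor
  · rintro (h | ⟨e, a, b, c⟩ | h)
    · left; omega
    · right; left
      obtain ⟨j, rfl⟩ := Nat.exists_eq_add_of_le (show P.length ≤ e by omega)
      exact ⟨j, by omega, by omega, (p.D.suf P Q j (by omega)).1 c⟩
    · right; right; exact h
  · rintro (h | ⟨e, a, b, c⟩ | h)
    · left; omega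
    · right; left
      exact ⟨P.length + e, by omega, by omega, (p.D.suf P Q e (by omega)).2 c⟩
    · right; right; exact h

theorem soundB (hspan : ∀ k < p.K, ∀ k' < p.K, p.cc k' ≤ p.cc k + p.D.W)
    (hB : ∀ k < p.K, ∀ (P Q : List α) (y : TB S) (v b : Tok (TB S)), P.length = p.cc k →
      p.lamB k P = some v → p.rhoB k Q y = some b →
        b = act v (((P ++ Q).map p.g).prod * y) + p.nuB (P ++ Q) y) :
    Sound p.Zc (aff (stepA (aff (ph p.φ) p.dA) p.LA p.RA) p.dB) p.LB p.RB := by
  have hz : p.z = p.p0 + p.q + p.N1 := rfl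
  have hn := p.hn
  refine ⟨?_, ?_⟩
  · rintro v ⟨k, hk, hl, -⟩
    have := p.cc_pos k
    simp at hl
    omega
  · rintro w τ P Q X x y ⟨k0, hk0, hPl, hlam⟩ ⟨k, hk, ⟨tq, hTQ⟩, hno, Q1, Q2, hQ12, hQ1, hrho⟩
      ⟨t, hX, hbad⟩ e
    have c1 := p.cc_lt k hk
    have c2 := p.cc_lt k0 hk0
    have htz := hX.2.1
    have htl := hX.2.2.1
    have hkk : k0 = k := by
      by_contra hne
      refine hno k0 hk0 hne ⟨t - P.length, ?_⟩
      have hhk : p.hk k = p.z - p.cc k := rfl
      have hhk0 : p.hk k0 = p.z - p.cc k0 := rfl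
      -- the true first wall is visible in `Q`
      have hvis : t ≤ P.length + Q.length := by
        by_contra hlt
        have a1 : p.D.wp (P ++ Q) (P.length + Q.length) := by
          refine (p.D.suf P Q _ ?_).2 hTQ.2.2.2.1
          have := hTQ.2.1; have := hTQ.2.2.1; omega
        have a2 : p.D.wp (P ++ Q ++ x) (P.length + Q.length) :=
          (p.D.pre _ _ _ (by rw [List.length_append])).2 a1
        rw [e] at a2
        have a3 := (p.D.pre _ _ _ (by omega)).1 a2
        have a4 := p.D.sep _ _ _ hTQ.1 hTQ.2.2.2.1 hTQ.2.2.1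
        have a5 := hTQ.2.1
        have a6 := hspan k0 hk0 k hk
        have a7 := hX.2.2.2.2 _ (by omega) (by omega) a3
        omega
      have key : ∀ i, p.D.n ≤ i → P.length + i ≤ X.length → i ≤ Q.length →
          (p.D.wp Q i ↔ p.D.wp X (P.length + i)) := by
        intro i hi h1 h2
        rw [← p.D.suf P Q i hi, ← p.D.pre (P ++ Q) x _ (by rw [List.length_append]; omega), e,
          p.D.pre X y _ h1]
      have ht0 : P.length + (t - P.length) = t := by omega
      refine ⟨?_, by omega, ?_, ?_⟩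
      · rw [key _ (by omega) (by omega) (by omega), ht0]; exact hX.1
      · intro i h1 h2 h3
        rw [key _ (by omega) (by omega) (by omega)] at h3
        have := hX.2.2.2.2 _ (by omega) (by omega) h3
        omega
      · have eT : t - P.length + p.cc k0 - p.p0 = t - p.p0 := by omega
        rw [eT]
        rcases hbad with h | ⟨i, h1, h2, h3⟩ | h
        · left; omega
        · right; left
          refine ⟨i - P.length, by omega, by omega, ?_⟩
          rw [key _ (by omega) (by omega) (by omega)]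
          have : P.length + (i - P.length) = i := by omega
          rw [this]; exact h3
        · right; right; exact h
    subst hkk
    have hhk0 : p.hk k0 = p.z - p.cc k0 := rfl
    have hup : TW p.D (P ++ Q) p.z (P.length + tq) := by
      have := hTQ.2.1
      exact tw_up (by omega) hTQ (by omega) (by omega)
    have hPQ : P ++ Q = X := tw_code hup hX e
    refine ⟨hPQ, ?_⟩
    subst hPQ
    have hX0 := p.z_le_tw hup
    have hb := hB k0 hk0 P Q1 _ w τ hPl hlam hrho
    have e1 : (P ++ Q).take p.p0 = P ++ Q1 := by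
      rw [hQ12, ← List.append_assoc]
      exact List.take_left' (by rw [List.length_append]; omega)
    have e2 : (P ++ Q).drop p.p0 = Q2 := by
      rw [hQ12, ← List.append_assoc]
      exact List.drop_left' (by rw [List.length_append]; omega)
    show τ = act w (stepA (aff (ph p.φ) p.dA) p.LA p.RA (P ++ Q)) + p.dB (P ++ Q)
    rw [p.step_eq hX0]
    unfold dB
    rw [e1, e2]
    exact hb

theorem completeB
    (hBc : ∀ (w : List α) (y : TB S) (v : Tok (TB S)), (∀ k < p.K, p.cc k ≤ w.length) →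
      ∃ I : Finset ℕ, p.R ≤ I.card ∧ ∀ k ∈ I, k < p.K ∧ p.lamB k (w.take (p.cc k)) = some v ∧
        (p.rhoB k (w.drop (p.cc k)) y).isSome)
    (hspoil : ∀ X t, TW p.D X p.z t → ∃ J : Finset ℕ, J.card < p.R ∧
      ∀ k < p.K, (∃ k' < p.K, k' ≠ k ∧ ∃ t', p.VB k' (X.drop (p.cc k)) t') → k ∈ J)
    (X : List α) (hX : X ∈ p.Zc) (v : Tok (TB S)) : Cut p.LB p.RB v X := by
  have hz : p.z = p.p0 + p.q + p.N1 := rfl
  have hn := p.hn
  obtain ⟨t, ht, hbad⟩ := hX
  have hX0 := p.z_le_tw ht
  have hl0 : (X.take p.p0).length = p.p0 := by rw [List.length_take]; omega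
  obtain ⟨I, hI, hI2⟩ := hBc (X.take p.p0) (p.hB (X.drop p.p0)) v (fun k hk => by
    rw [hl0]; exact (p.cc_lt k hk).le)
  obtain ⟨J, hJ, hJ2⟩ := hspoil X t ht
  obtain ⟨k, hkI, hkJ⟩ : ∃ k ∈ I, k ∉ J := by
    by_contra hcon
    push Not at hcon
    have : I.card ≤ J.card := Finset.card_le_card fun k hk => hcon k hk
    omega
  obtain ⟨hk, hlam, hrho⟩ := hI2 k hkI
  obtain ⟨b, hb⟩ := Option.isSome_iff_exists.1 hrho
  have c1 := p.cc_lt k hk
  have hhk : p.hk k = p.z - p.cc k := rfl
  have hPl : (X.take (p.cc k)).length = p.cc k := by rw [List.length_take]; omega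
  have htz := ht.2.1
  refine ⟨X.take (p.cc k), X.drop (p.cc k), b, (List.take_append_drop _ _).symm, ?_, ?_⟩
  · refine ⟨k, hk, hPl, ?_⟩
    rw [List.take_take, min_eq_left c1.le] at hlam
    exact hlam
  · refine ⟨k, hk, ⟨t - p.cc k, ?_⟩, ?_, ?_⟩
    · rw [← tw_shift (P := X.take (p.cc k)) (by omega), List.take_append_drop, hPl]
      have e1 : p.cc k + p.hk k = p.z := by omega
      have e2 : p.cc k + (t - p.cc k) = t := by omega
      rw [e1, e2]; exact ht
    · intro k' hk' hne hex
      exact hkJ (hJ2 k hk ⟨k', hk', hne, hex⟩)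
    · refine ⟨(X.take p.p0).drop (p.cc k), X.drop p.p0, ?_, ?_, hb⟩
      · conv_lhs => rw [← List.take_append_drop p.p0 X]
        rw [List.drop_append_of_le_length (by omega)]
      · rw [List.length_drop, hl0]; omega

end Par

end Crest.Agent.R320.Dat_815
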