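import Crest.Agent.R320.Dat_757

/-!
# Row 320: soundness and completeness of both schemes (helper757)
-/

set_option autoImplicit false

namespace Crest.Agent.R320.Dat_757

open Crest.Agent.R320.Hk_851 Crest.Agent.R320.Star_621 Crest.Agent.R320.Two_621
open Crest.Agent.R320.FewWalls_228

universe u

variable {α : Type u} {S : Type u} [Monoid S]

namespace Prm

variable {D : Prm α S}

theorem codeZ (h : D.Ok) : Code D.Z := by
  constructor
  · rintro ⟨t, s, h1, h2, h3⟩
    have := h.hn
    simp only [List.length_nil] at h3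
    omega
  · rintro w w' x x' ⟨t, s, h1⟩ ⟨t', s', h2⟩ he
    exact (h1.code h2 he).1

theorem aff_eq (h : D.Ok) {X : List α} {t : ℕ} (ht : Fst D.n D.Ws D.z X t) (v : Tok S) :
    aff D.φ D.d X v = act (act (act v (D.φ (X.take D.p0)) + D.nu2 (X.take D.p0))
      (D.φ ((X.take t).drop D.p0)) + D.nu ((X.take t).drop D.p0)) (D.φ (X.drop t)) := by
  have hz := h.hz
  have h1 := ht.1
  have e : X = X.take D.p0 ++ ((X.take t).drop D.p0 ++ X.drop t) := by
    have e1 : (X.take t).take D.p0 = X.take D.p0 := by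
      rw [List.take_take, min_eq_left (by omega)]
    have e2 := List.take_append_drop D.p0 (X.take t)
    rw [e1] at e2
    rw [← List.append_assoc, e2, List.take_append_drop]
  have e3 : D.φ X = D.φ (X.take D.p0) * (D.φ ((X.take t).drop D.p0) * D.φ (X.drop t)) := by
    conv_lhs => rw [e]
    rw [h.hφ, h.hφ]
  unfold aff d
  rw [D.tt_eq ht, e3]
  simp only [act_add, ← act_mul]
  abel

theorem soundA (h : D.Ok) : Sound D.Z (aff D.φ D.d) D.LA D.RA := by
  have hz := h.hz
  have hW := h.hW
  constructor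
  · rintro v ⟨h1, -⟩
    have := h.hp0
    simp only [List.length_nil] at h1
    omega
  · rintro v b P Q X x y ⟨hp, hl⟩ ⟨q, s, f1, f2, f3, f4, r, hr, hb⟩ ⟨t', s', hz'⟩ he
    have hpl : (P.drop D.p0).length ≤ D.N1 := h.hlam _ _ hl
    rw [List.length_drop] at hpl
    have hqn := f1.2.1.1
    have hZ : IsZ D.n D.Ws D.z (P ++ Q) (P.length + q) (P.length + s) :=
      (IsZ.right (by omega)).2 ⟨f1.mono (by omega) (by omega), f3, f4⟩
    obtain ⟨e1, -, -⟩ := hZ.code hz' he
    refine ⟨e1, ?_⟩
    rw [← e1, aff_eq h hZ.1]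
    have e2 : (P ++ Q).take D.p0 = P.take D.p0 := List.take_append_of_le_length hp
    have e3 : ((P ++ Q).take (P.length + q)).drop D.p0 = P.drop D.p0 ++ Q.take q := by
      rw [List.take_length_add_append, List.drop_append_of_le_length hp]
    have e4 : (P ++ Q).drop (P.length + q) = Q.drop q := by
      rw [← List.drop_drop, List.drop_left]
    rw [e2, e3, e4, hb]
    congr 1
    exact h.hs _ _ _ _ (by rw [List.length_take]; omega) hl hr

theorem compA (h : D.Ok) : ∀ X ∈ D.Z, X ∉ D.Zc → ∀ v, Cut D.LA D.RA v X := by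
  rintro X ⟨t, s, hZ⟩ hX v
  have hz := h.hz
  have hW := h.hW
  have hN := h.hN1
  have hnc : ¬ D.crit 0 X := fun hc => hX ⟨⟨t, s, hZ⟩, hc⟩
  have hE : ∀ x, D.z ≤ x + D.N1 → x < D.z + D.N1 → ¬ Wl D.n D.Ws X x := by
    intro x h1 h2 h3
    exact hnc ⟨t, by simpa using hZ.1, Or.inl ⟨x, by omega, by omega, h3⟩⟩
  have hB : ¬ D.Bad (t - D.p0) := by
    intro hb
    exact hnc ⟨t, by simpa using hZ.1, Or.inr (by simpa using hb)⟩
  have ht1 := hZ.1.1
  have ht2 : D.z + D.N1 ≤ t := by
    by_contra hlt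
    exact hE t (by omega) (by omega) hZ.1.2.1
  have htn := hZ.1.2.1.1
  have hYl : ((X.take t).drop D.p0).length = t - D.p0 := by
    rw [List.length_drop, List.length_take]; omega
  obtain ⟨p, q, hpq, hp, hq⟩ := h.hc ((X.take t).drop D.p0) (by omega) (by rw [hYl]; exact hB)
    (act v (D.φ (X.take D.p0)) + D.nu2 (X.take D.p0))
  obtain ⟨r, hr⟩ := Option.isSome_iff_exists.1 hq
  have hpN := h.hlam _ _ hp
  have hlen : p.length + q.length = t - D.p0 := by
    rw [← hYl, ← hpq, List.length_append]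
  have e1 : (X.take t).take D.p0 = X.take D.p0 := by
    rw [List.take_take, min_eq_left (by omega)]
  have e2 := List.take_append_drop D.p0 (X.take t)
  rw [e1, ← hpq] at e2
  have e : X = (X.take D.p0 ++ p) ++ (q ++ X.drop t) := by
    calc X = X.take t ++ X.drop t := (List.take_append_drop _ _).symm
      _ = (X.take D.p0 ++ (p ++ q)) ++ X.drop t := by rw [e2]
      _ = _ := by simp only [List.append_assoc]
  have hl0 : (X.take D.p0).length = D.p0 := by rw [List.length_take]; omega
  set P := X.take D.p0 ++ p with hP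
  set Q := q ++ X.drop t with hQ
  have hPl : P.length = D.p0 + p.length := by rw [hP, List.length_append, hl0]
  have hst : t + 1 ≤ s := hZ.2.1.1
  obtain ⟨s', rfl⟩ : ∃ s', s = P.length + s' := ⟨s - P.length, by omega⟩
  have htq : t = P.length + q.length := by omega
  refine ⟨P, Q, act r (D.φ (X.drop t)), e, ⟨by omega, ?_⟩, ?_⟩
  · have e3 : P.drop D.p0 = p := by
      rw [hP]
      have := List.drop_left (l₁ := X.take D.p0) (l₂ := p)
      rwa [hl0] at this
    have e4 : P.take D.p0 = X.take D.p0 := by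
      rw [hP]
      have := List.take_left (l₁ := X.take D.p0) (l₂ := p)
      rwa [hl0] at this
    rw [e3, e4]
    exact hp
  · refine ⟨q.length, s', ⟨by omega, ?_, ?_⟩, by omega, ?_, ?_, r, ?_, ?_⟩
    · have := hZ.1.2.1
      rw [e, htq] at this
      exact wl_right.1 this
    · intro x hx hx' hw
      have hw' : Wl D.n D.Ws X (P.length + x) := by
        rw [e]; exact wl_right.2 hw
      by_cases hc : P.length + x < D.z
      · exact hE _ (by omega) (by omega) hw'
      · exact hZ.1.2.2 _ (by omega) (by omega) hw'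
    · have := hZ.2.1
      rw [e, htq] at this
      have h2 := (Fst.right (n := D.n) (Ws := D.Ws) (a := P.length + q.length + 1) (p := P)
        (q := Q) (t := s') (by omega)).1 this
      rwa [show P.length + q.length + 1 - P.length = q.length + 1 by omega] at h2
    · have := hZ.2.2
      rw [e, List.length_append] at this
      omega
    · have : Q.take q.length = q := by rw [hQ]; exact List.take_left
      rw [this]; exact hr
    · have : Q.drop q.length = X.drop t := by rw [hQ]; exact List.drop_left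
      rw [this]

theorem soundB (h : D.Ok) : Sound D.Zc (aff D.φ D.d) D.LB D.RB := by
  have hz := h.hz
  have hW := h.hW
  constructor
  · rintro v ⟨k, hk, h1, -⟩
    have := h.hcK k hk
    simp only [List.length_nil] at h1
    omega
  · rintro v b P Q X x y ⟨k1, hk1, hPl, hl⟩ ⟨k, hk, hcr, huni, q, s, hzQ, r, hr, hb⟩
      ⟨⟨t1, s1, hzX⟩, t2, hf2, hcrit⟩ he
    have hck1 := h.hcK k1 hk1
    have hck := h.hcK k hk
    have e12 : t2 = t1 := (by simpa using hf2 : Fst D.n D.Ws D.z X t2).uniq hzX.1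
    subst e12
    have hqs : q + D.W ≤ s := h.hgap Q q s (by have := hzQ.2.1.1; omega) hzQ.1.2.1 hzQ.2.1.2.1
    have hqz := hzQ.1.1
    have hlenQ := hzQ.2.2
    have hlenPQ : (P ++ Q).length = D.c k1 + s + D.n := by
      rw [List.length_append]; omega
    have hw1 : Fst D.n D.Ws D.z (P ++ Q ++ x) t2 := by rw [he]; exact hzX.1.ext
    -- every wall of `Q` bounds `t2`
    have key : ∀ y', Wl D.n D.Ws Q y' → D.z ≤ D.c k1 + y' → t2 ≤ D.c k1 + y' := by
      intro y' hy' hzy
      by_contra hlt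
      refine hw1.2.2 (D.c k1 + y') hzy (by omega) ?_
      rw [wl_left (by rw [hlenPQ]; have := hy'.1; omega), ← hPl]
      exact wl_right.2 hy'
    have ht : t2 ≤ D.c k1 + s := by
      by_cases hc : D.z ≤ D.c k1 + q
      · have := key q hzQ.1.2.1 hc
        omega
      · exact key s hzQ.2.1.2.1 (by omega)
    have ht1 := hw1.1
    have hw2 : Fst D.n D.Ws D.z (P ++ Q) t2 := (Fst.left (by rw [hlenPQ]; omega)).1 hw1
    obtain ⟨t', rfl⟩ : ∃ t', t2 = P.length + t' := ⟨t2 - P.length, by omega⟩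
    have hw3 : Fst D.n D.Ws (D.z - D.c k1) Q t' := by
      rw [← hPl]; exact (Fst.right (by omega)).1 hw2
    have hcr1 : D.crit (D.c k1) Q := by
      refine ⟨t', hw3, ?_⟩
      rcases hcrit with ⟨x0, hx1, hx2, hx3⟩ | hB
      · left
        obtain ⟨x1, rfl⟩ : ∃ x1, x0 = P.length + x1 := ⟨x0 - P.length, by omega⟩
        refine ⟨x1, by omega, by omega, ?_⟩
        have h5 : Wl D.n D.Ws (P ++ Q ++ x) (P.length + x1) := by
          rw [he, wl_left hx3.1]; exact hx3
        rw [wl_left (by rw [hlenPQ]; omega)] at h5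
        exact wl_right.1 h5
      · right
        rwa [show t' + D.c k1 - D.p0 = P.length + t' + 0 - D.p0 by omega]
    have hkk := huni k1 hk1 hcr1
    subst hkk
    have hZ : IsZ D.n D.Ws D.z (P ++ Q) (P.length + q) (P.length + s) :=
      (IsZ.right (by omega)).2 (by rw [hPl]; exact hzQ)
    obtain ⟨e1, e2, -⟩ := hZ.code hzX he
    refine ⟨e1, ?_⟩
    rw [← e1, aff_eq h hZ.1]
    have hqle := hzQ.1.2.1.1
    have f1 : (P ++ Q).take D.p0 = P ++ Q.take (D.p0 - D.c k1) := by
      have := List.take_length_add_append (l₁ := P) (l₂ := Q) (D.p0 - D.c k1)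
      rwa [show P.length + (D.p0 - D.c k1) = D.p0 by omega] at this
    have f2 : ((P ++ Q).take (P.length + q)).drop D.p0 = (Q.take q).drop (D.p0 - D.c k1) := by
      rw [List.take_length_add_append]
      have : D.p0 = P.length + (D.p0 - D.c k1) := by omega
      conv_lhs => rw [this]
      rw [← List.drop_drop, List.drop_left]
    have f3 : (P ++ Q).drop (P.length + q) = Q.drop q := by
      rw [← List.drop_drop, List.drop_left]
    rw [f1, f2, f3, hb]
    have hrr := h.hs2 k1 hk1 P (Q.take (D.p0 - D.c k1)) v r hPl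
      (by rw [List.length_take]; omega) hl hr
    rw [hrr]

theorem compB (h : D.Ok) : ∀ X ∈ D.Zc, ∀ v, Cut D.LB D.RB v X := by
  classical
  rintro X ⟨⟨t, s, hZ⟩, t2, hf2, hcrit⟩ v
  have hz := h.hz
  have hW := h.hW
  have e12 : t2 = t := (by simpa using hf2 : Fst D.n D.Ws D.z X t2).uniq hZ.1
  subst e12
  have ht1 := hZ.1.1
  have hts := h.hgap X t2 s (by have := hZ.2.1.1; omega) hZ.1.2.1 hZ.2.1.2.1
  have hXl := hZ.2.2
  have hl0 : (X.take D.p0).length = D.p0 := by rw [List.length_take]; omega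
  obtain ⟨I, hI, hI2⟩ := h.hc2 (X.take D.p0) v hl0
  -- walls of X from z - p0 on
  obtain ⟨t0, ht0⟩ : ∃ t0, D.z ≤ t0 + D.p0 ∧ ∀ τ, D.z ≤ τ + D.p0 → Wl D.n D.Ws X τ →
      τ = t0 ∨ τ = t2 ∨ τ = s := by
    have hbig : ∀ τ, D.z ≤ τ → Wl D.n D.Ws X τ → τ = t2 ∨ τ = s := by
      intro τ h1 h2
      rcases lt_trichotomy τ t2 with h3 | h3 | h3
      · exact absurd h2 (hZ.1.2.2 τ h1 h3)
      · exact Or.inl h3
      · rcases lt_trichotomy τ s with h4 | h4 | h4
        · exact absurd h2 (hZ.2.1.2.2 τ (by omega) h4)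
        · exact Or.inr h4
        · have := h2.1
          omega
    by_cases hex : ∃ t0, D.z ≤ t0 + D.p0 ∧ t0 < D.z ∧ Wl D.n D.Ws X t0
    · obtain ⟨t0, g1, g2, g3⟩ := hex
      refine ⟨t0, g1, fun τ k1 k2 => ?_⟩
      by_cases hlt : τ < D.z
      · left
        rcases lt_trichotomy τ t0 with h3 | h3 | h3
        · have := h.hgap X τ t0 h3 k2 g3
          omega
        · exact h3
        · have := h.hgap X t0 τ h3 g3 k2
          omega
      · right
        exact hbig τ (by omega) k2
    · refine ⟨t2, by omega, fun τ k1 k2 => ?_⟩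
      right
      refine hbig τ ?_ k2
      by_contra hlt
      exact hex ⟨τ, k1, by omega, k2⟩
  let Sp : Finset ℕ := I.filter fun k => ∃ k' < D.K, k' ≠ k ∧ D.crit (D.c k') (X.drop (D.c k))
  let Bt : ℕ → Finset ℕ := fun τ => I.filter fun k =>
    ∃ k' < D.K, k' ≠ k ∧ D.Bad (τ + D.c k' - D.c k - D.p0)
  let Es : Finset ℕ := I.filter fun k => ∃ k' < D.K, k' ≠ k ∧ ∃ χ, Wl D.n D.Ws X χ ∧
    D.z + D.c k ≤ χ + D.c k' + D.N1 ∧ χ + D.c k' < D.z + D.c k + D.N1
  have hBt : ∀ τ, D.z ≤ τ + D.p0 → (Bt τ).card ≤ D.C0 := by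
    intro τ hτ
    refine h.hthin τ hτ _ fun k hk => ?_
    obtain ⟨k1, k2⟩ := Finset.mem_filter.1 hk
    exact ⟨(hI2 k k1).1, k2⟩
  have hEs : Es.card ≤ 1 := by
    refine Finset.card_le_one.2 fun k hk l hl => ?_
    obtain ⟨k1, k', k2, k3, χ, k4, k5, k6⟩ := Finset.mem_filter.1 hk
    obtain ⟨l1, l', l2, l3, χ', l4, l5, l6⟩ := Finset.mem_filter.1 hl
    have c1 := h.hcK k (hI2 k k1).1
    have c2 := h.hcK k' k2
    have c3 := h.hcK l (hI2 l l1).1
    have c4 := h.hcK l' l2
    have : χ = χ' := by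
      rcases lt_trichotomy χ χ' with h3 | h3 | h3
      · have := h.hgap X χ χ' h3 k4 l4
        omega
      · exact h3
      · have := h.hgap X χ' χ h3 l4 k4
        omega
    subst this
    exact h.hsp k k' l l' (hI2 k k1).1 k2 (hI2 l l1).1 l2 k3 l3 (by omega) (by omega)
  have hsub : Sp ⊆ Bt t0 ∪ Bt t2 ∪ Bt s ∪ Es := by
    intro k hk
    obtain ⟨k1, k', k2, k3, t', k4, k5⟩ := Finset.mem_filter.1 hk
    have c1 := h.hcK k (hI2 k k1).1
    have c2 := h.hcK k' k2
    have hsplit : X = X.take (D.c k) ++ X.drop (D.c k) := (List.take_append_drop _ _).symm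
    have hlk : (X.take (D.c k)).length = D.c k := by rw [List.length_take]; omega
    have hwall : ∀ y, Wl D.n D.Ws (X.drop (D.c k)) y → Wl D.n D.Ws X (D.c k + y) := by
      intro y hy
      rw [hsplit]
      have := (wl_right (p := X.take (D.c k))).2 hy
      rwa [hlk] at this
    have k41 := k4.1
    rcases k5 with ⟨x, x1, x2, x3⟩ | hB
    · refine Finset.mem_union_right _ (Finset.mem_filter.2 ⟨k1, k', k2, k3, D.c k + x,
        hwall x x3, by omega, by omega⟩)
    · refine Finset.mem_union_left _ ?_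
      have hB' : D.Bad (D.c k + t' + D.c k' - D.c k - D.p0) := by
        rwa [show D.c k + t' + D.c k' - D.c k - D.p0 = t' + D.c k' - D.p0 by omega]
      rcases ht0.2 (D.c k + t') (by omega) (hwall t' k4.2.1) with h3 | h3 | h3
      · rw [h3] at hB'
        exact Finset.mem_union_left _ (Finset.mem_union_left _
          (Finset.mem_filter.2 ⟨k1, k', k2, k3, hB'⟩))
      · rw [h3] at hB'
        exact Finset.mem_union_left _ (Finset.mem_union_right _
          (Finset.mem_filter.2 ⟨k1, k', k2, k3, hB'⟩))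
      · rw [h3] at hB'
        exact Finset.mem_union_right _ (Finset.mem_filter.2 ⟨k1, k', k2, k3, hB'⟩)
  have hcard : Sp.card ≤ 3 * D.C0 + 1 := by
    have a1 := Finset.card_le_card hsub
    have a2 := Finset.card_union_le (Bt t0 ∪ Bt t2 ∪ Bt s) Es
    have a3 := Finset.card_union_le (Bt t0 ∪ Bt t2) (Bt s)
    have a4 := Finset.card_union_le (Bt t0) (Bt t2)
    have b1 := hBt t0 ht0.1
    have b2 := hBt t2 (by omega)
    have b3 := hBt s (by omega)
    omega
  obtain ⟨k, hkI, hkS⟩ : ∃ k ∈ I, k ∉ Sp := by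
    by_contra hno
    push Not at hno
    have := Finset.card_le_card (show I ⊆ Sp from fun k hk => hno k hk)
    omega
  obtain ⟨hk, hlam, hrho⟩ := hI2 k hkI
  obtain ⟨r, hr⟩ := Option.isSome_iff_exists.1 hrho
  have c1 := h.hcK k hk
  have hsplit : X = X.take (D.c k) ++ X.drop (D.c k) := (List.take_append_drop _ _).symm
  have hlk : (X.take (D.c k)).length = D.c k := by rw [List.length_take]; omega
  have hZQ : IsZ D.n D.Ws (D.z - D.c k) (X.drop (D.c k)) (t2 - D.c k) (s - D.c k) := by
    have h0 : IsZ D.n D.Ws D.z (X.take (D.c k) ++ X.drop (D.c k))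
        ((X.take (D.c k)).length + (t2 - D.c k)) ((X.take (D.c k)).length + (s - D.c k)) := by
      rw [← hsplit, hlk, show D.c k + (t2 - D.c k) = t2 by omega,
        show D.c k + (s - D.c k) = s by omega]
      exact hZ
    have := (IsZ.right (by omega)).1 h0
    rwa [hlk] at this
  refine ⟨X.take (D.c k), X.drop (D.c k), _, hsplit, ⟨k, hk, hlk, ?_⟩,
    ⟨k, hk, ?_, ?_, t2 - D.c k, s - D.c k, hZQ, r, ?_, rfl⟩⟩
  · rw [← hlam, List.take_take, min_eq_left (by omega)]
  · refine ⟨t2 - D.c k, hZQ.1, ?_⟩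
    rcases hcrit with ⟨x0, x1, x2, x3⟩ | hB
    · left
      refine ⟨x0 - D.c k, by omega, by omega, ?_⟩
      rw [hsplit] at x3
      have h9 : x0 = (X.take (D.c k)).length + (x0 - D.c k) := by omega
      rw [h9] at x3
      have := wl_right.1 x3
      exact this
    · right
      rwa [show t2 - D.c k + D.c k - D.p0 = t2 + 0 - D.p0 by omega]
  · intro k' hk' hcr
    by_contra hne
    exact hkS (Finset.mem_filter.2 ⟨hkI, k', hk', hne, hcr⟩)
  · rw [← hr, List.drop_take]

end Prm

end Crest.Agent.R320.Dat_757
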