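import Crest.Agent.R320.Shared_621
import Crest.Agent.R320.FewVal_228

/-!
# Row 320: concrete zones, both schemes, natural chain rule, two-wall blocks (helper757)
-/

set_option autoImplicit false

namespace Crest.Agent.R320.Dat_757

open Crest.Agent.R320.Hk_851 Crest.Agent.R320.Star_621 Crest.Agent.R320.Two_621
open Crest.Agent.R320.FewWalls_228

universe u

variable {α : Type u} {n : ℕ} {Ws : Set (List α)}

theorem wl_left {w y : List α} {x : ℕ} (h : x + n ≤ w.length) :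
    Wl n Ws (w ++ y) x ↔ Wl n Ws w x := by
  unfold Wl
  rw [List.drop_append_of_le_length (by omega),
    List.take_append_of_le_length (by rw [List.length_drop]; omega)]
  simp only [List.length_append]
  constructor
  · rintro ⟨_, h2⟩; exact ⟨h, h2⟩
  · rintro ⟨_, h2⟩; exact ⟨by omega, h2⟩

theorem wl_right {p q : List α} {x : ℕ} :
    Wl n Ws (p ++ q) (p.length + x) ↔ Wl n Ws q x := by
  unfold Wl
  have h : (p ++ q).drop (p.length + x) = q.drop x := by
    rw [← List.drop_drop, List.drop_left]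
  rw [h]
  simp only [List.length_append]
  constructor <;> rintro ⟨a, b⟩ <;> exact ⟨by omega, b⟩

theorem wl_len {w : List α} {x : ℕ} (h : Wl n Ws w x) : x + n ≤ w.length := h.1

/-- `t` is the first wall at a place `≥ a` -/
def Fst (n : ℕ) (Ws : Set (List α)) (a : ℕ) (w : List α) (t : ℕ) : Prop :=
  a ≤ t ∧ Wl n Ws w t ∧ ∀ x, a ≤ x → x < t → ¬ Wl n Ws w x

theorem Fst.uniq {a : ℕ} {w : List α} {t t' : ℕ} (h : Fst n Ws a w t) (h' : Fst n Ws a w t') :
    t = t' := by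
  rcases lt_trichotomy t t' with hl | hl | hl
  · exact absurd h.2.1 (h'.2.2 t h.1 hl)
  · exact hl
  · exact absurd h'.2.1 (h.2.2 t' h'.1 hl)

theorem Fst.left {a : ℕ} {w y : List α} {t : ℕ} (h : t + n ≤ w.length) :
    Fst n Ws a (w ++ y) t ↔ Fst n Ws a w t := by
  unfold Fst
  constructor
  · rintro ⟨h1, h2, h3⟩
    exact ⟨h1, (wl_left h).1 h2, fun x hx hx' hw => h3 x hx hx' ((wl_left (by omega)).2 hw)⟩
  · rintro ⟨h1, h2, h3⟩
    exact ⟨h1, (wl_left h).2 h2, fun x hx hx' hw => h3 x hx hx' ((wl_left (by omega)).1 hw)⟩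

theorem Fst.ext {a : ℕ} {w y : List α} {t : ℕ} (h : Fst n Ws a w t) : Fst n Ws a (w ++ y) t :=
  (Fst.left h.2.1.1).2 h

theorem Fst.right {a : ℕ} {p q : List α} {t : ℕ} (hp : p.length ≤ a) :
    Fst n Ws a (p ++ q) (p.length + t) ↔ Fst n Ws (a - p.length) q t := by
  unfold Fst
  constructor
  · rintro ⟨h1, h2, h3⟩
    refine ⟨by omega, wl_right.1 h2, fun x hx hx' hw => ?_⟩
    exact h3 (p.length + x) (by omega) (by omega) (wl_right.2 hw)
  · rintro ⟨h1, h2, h3⟩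
    refine ⟨by omega, wl_right.2 h2, fun x hx hx' hw => ?_⟩
    obtain ⟨x', rfl⟩ : ∃ x', x = p.length + x' := ⟨x - p.length, by omega⟩
    exact h3 x' (by omega) (by omega) (wl_right.1 hw)

/-- the first wall from `a` on is also the first wall from `b` on -/
theorem Fst.mono {a b : ℕ} {w : List α} {t : ℕ} (h : Fst n Ws a w t) (h1 : a ≤ b) (h2 : b ≤ t) :
    Fst n Ws b w t :=
  ⟨h2, h.2.1, fun x hx hx' => h.2.2 x (by omega) hx'⟩

theorem exists_fst {a : ℕ} {w : List α} {x : ℕ} (hx : a ≤ x) (hw : Wl n Ws w x) :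
    ∃ t, t ≤ x ∧ Fst n Ws a w t := by
  classical
  have h : ∃ t, a ≤ t ∧ Wl n Ws w t := ⟨x, hx, hw⟩
  refine ⟨Nat.find h, Nat.find_min' h ⟨hx, hw⟩, (Nat.find_spec h).1, (Nat.find_spec h).2, ?_⟩
  intro y hy hy' hwy
  exact Nat.find_min h hy' ⟨hy, hwy⟩

/-- the shape of a zone: the first wall from `a` on, the next wall, the end -/
def IsZ (n : ℕ) (Ws : Set (List α)) (a : ℕ) (w : List α) (t s : ℕ) : Prop :=
  Fst n Ws a w t ∧ Fst n Ws (t + 1) w s ∧ w.length = s + n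

theorem IsZ.code {a : ℕ} {w w' x x' : List α} {t s t' s' : ℕ} (h : IsZ n Ws a w t s)
    (h' : IsZ n Ws a w' t' s') (he : w ++ x = w' ++ x') : w = w' ∧ t = t' ∧ s = s' := by
  have e1 : t = t' := by
    have h1 := h.1.ext (y := x)
    have h2 := h'.1.ext (y := x')
    rw [he] at h1
    exact h1.uniq h2
  subst e1
  have e2 : s = s' := by
    have h1 := h.2.1.ext (y := x)
    have h2 := h'.2.1.ext (y := x')
    rw [he] at h1
    exact h1.uniq h2
  subst e2
  refine ⟨?_, rfl, rfl⟩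
  have hl : w.length = w'.length := by rw [h.2.2, h'.2.2]
  exact (List.append_inj he hl).1

theorem IsZ.right {a : ℕ} {p q : List α} {t s : ℕ} (hp : p.length ≤ a) :
    IsZ n Ws a (p ++ q) (p.length + t) (p.length + s) ↔ IsZ n Ws (a - p.length) q t s := by
  unfold IsZ
  rw [Fst.right hp]
  constructor
  · rintro ⟨h1, h2, h3⟩
    refine ⟨h1, ?_, ?_⟩
    · have := (Fst.right (n := n) (Ws := Ws) (a := p.length + t + 1) (p := p) (q := q) (t := s)
        (by omega)).1 h2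
      rwa [show p.length + t + 1 - p.length = t + 1 by omega] at this
    · rw [List.length_append] at h3; omega
  · rintro ⟨h1, h2, h3⟩
    refine ⟨h1, ?_, ?_⟩
    · refine (Fst.right (n := n) (Ws := Ws) (a := p.length + t + 1) (p := p) (q := q) (t := s)
        (by omega)).2 ?_
      rwa [show p.length + t + 1 - p.length = t + 1 by omega]
    · rw [List.length_append]; omega

/-- the data of the two schemes -/
structure Prm (α : Type u) (S : Type u) [Monoid S] where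
  n : ℕ
  Ws : Set (List α)
  W : ℕ
  z : ℕ
  p0 : ℕ
  N1 : ℕ
  La : ℕ
  φ : List α → S
  lam : List α → Option (Tok S)
  rho : List α → Option (Tok S)
  nu : List α → Tok S
  Bad : ℕ → Prop
  K : ℕ
  c : ℕ → ℕ
  lam2 : ℕ → List α → Option (Tok S)
  rho2 : ℕ → List α → Option (Tok S)
  nu2 : List α → Tok S
  C0 : ℕ

variable {S : Type u} [Monoid S]

namespace Prm

variable (D : Prm α S)

/-- the zone that began `off` letters ago is bad, seen from here -/
def crit (off : ℕ) (w : List α) : Prop :=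
  ∃ t, Fst D.n D.Ws (D.z - off) w t ∧
    ((∃ x, D.z ≤ x + off + D.N1 ∧ x + off < D.z + D.N1 ∧ Wl D.n D.Ws w x) ∨
      D.Bad (t + off - D.p0))

def Z : Language α := {w | ∃ t s, IsZ D.n D.Ws D.z w t s}

def Zc : Language α := {w | (∃ t s, IsZ D.n D.Ws D.z w t s) ∧ D.crit 0 w}

open Classical in
noncomputable def tt (w : List α) : ℕ :=
  if h : ∃ t, Fst D.n D.Ws D.z w t then h.choose else 0

theorem tt_eq {w : List α} {t : ℕ} (h : Fst D.n D.Ws D.z w t) : D.tt w = t := by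
  have h' : ∃ t, Fst D.n D.Ws D.z w t := ⟨t, h⟩
  unfold tt
  rw [dif_pos h']
  exact h'.choose_spec.uniq h

/-- the noise of a zone -/
noncomputable def d (X : List α) : Tok S :=
  act (act (D.nu2 (X.take D.p0)) (D.φ ((X.take (D.tt X)).drop D.p0)) +
    D.nu ((X.take (D.tt X)).drop D.p0)) (D.φ (X.drop (D.tt X)))

def LA (v : Tok S) : Language α :=
  {P | D.p0 ≤ P.length ∧
    D.lam (P.drop D.p0) = some (act v (D.φ (P.take D.p0)) + D.nu2 (P.take D.p0))}

def RA (b : Tok S) : Language α :=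
  {Q | ∃ q s, Fst D.n D.Ws (D.z - D.p0 - D.N1) Q q ∧ D.z ≤ D.p0 + q ∧
    Fst D.n D.Ws (q + 1) Q s ∧ Q.length = s + D.n ∧
    ∃ r, D.rho (Q.take q) = some r ∧ b = act r (D.φ (Q.drop q))}

def LB (v : Tok S) : Language α :=
  {P | ∃ k < D.K, P.length = D.c k ∧ D.lam2 k P = some v}

def RB (b : Tok S) : Language α :=
  {Q | ∃ k < D.K, D.crit (D.c k) Q ∧ (∀ k' < D.K, D.crit (D.c k') Q → k' = k) ∧
    ∃ q s, IsZ D.n D.Ws (D.z - D.c k) Q q s ∧
    ∃ r, D.rho2 k (Q.take (D.p0 - D.c k)) = some r ∧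
      b = act (act r (D.φ ((Q.take q).drop (D.p0 - D.c k))) +
        D.nu ((Q.take q).drop (D.p0 - D.c k))) (D.φ (Q.drop q))}

structure Ok : Prop where
  hn : 0 < D.n
  hgap : ∀ (w : List α) (x y : ℕ), x < y → Wl D.n D.Ws w x → Wl D.n D.Ws w y → x + D.W ≤ y
  hW : 2 * D.p0 + 2 * D.N1 + D.n < D.W
  hz : 2 * D.p0 + D.N1 + D.La ≤ D.z
  hp0 : 0 < D.p0
  hN1 : 0 < D.N1
  h1 : D.φ [] = 1
  hφ : ∀ u v, D.φ (u ++ v) = D.φ u * D.φ v
  hlam : ∀ p v, D.lam p = some v → p.length ≤ D.N1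
  hs : ∀ p q v b, D.La ≤ q.length → D.lam p = some v → D.rho q = some b →
    b = act v (D.φ (p ++ q)) + D.nu (p ++ q)
  hc : ∀ u : List α, D.La ≤ u.length → ¬ D.Bad u.length → ∀ v, ∃ p q, p ++ q = u ∧
    D.lam p = some v ∧ (D.rho q).isSome
  hs2 : ∀ k < D.K, ∀ (P Q : List α) (v b : Tok S), P.length = D.c k →
    Q.length = D.p0 - D.c k → D.lam2 k P = some v → D.rho2 k Q = some b →
    b = act v (D.φ (P ++ Q)) + D.nu2 (P ++ Q)
  hc2 : ∀ (u : List α) (v : Tok S), u.length = D.p0 →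
    ∃ I : Finset ℕ, 3 * D.C0 + 2 ≤ I.card ∧ ∀ k ∈ I, k < D.K ∧
      D.lam2 k (u.take (D.c k)) = some v ∧ (D.rho2 k (u.drop (D.c k))).isSome
  hcK : ∀ k < D.K, 0 < D.c k ∧ D.c k ≤ D.p0
  hsp : ∀ k k' l l' : ℕ, k < D.K → k' < D.K → l < D.K → l' < D.K → k' ≠ k → l' ≠ l →
    D.c k + D.c l' < D.c k' + D.c l + 2 * D.N1 → D.c k' + D.c l < D.c k + D.c l' + 2 * D.N1 →
    k = l
  hthin : ∀ τ : ℕ, D.z ≤ τ + D.p0 → ∀ J : Finset ℕ,
    (∀ k ∈ J, k < D.K ∧ ∃ k' < D.K, k' ≠ k ∧ D.Bad (τ + D.c k' - D.c k - D.p0)) → J.card ≤ D.C0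

end Prm

end Crest.Agent.R320.Dat_757
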