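import Crest.Agent.R320.HLI_8
import Crest.Agent.R320.ExactR_237

/-!
# Row 320: `Data2` (621) from ONE gadget `GadA` (helper8)
-/

set_option autoImplicit false

namespace Crest.Agent.R320.Dat_8

open Crest.RegLang Crest.Agent.R320.Hk_851 Crest.Agent.R320.FW_8 Crest.Agent.R320.FewWalls_228
  Crest.Agent.R320.WallU_228 Crest.Agent.R320.Star_621 Crest.Agent.R320.Two_621
  Crest.Agent.R320.Inst_8 Crest.Agent.R320.HLI_8 Crest.Agent.R320.Shared_621

/-- the scheme-1 gadget together with its ruler -/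
def GadA {α S : Type} [Monoid S] (f : α → S) : Prop :=
  ∃ C0 : ℕ, ∀ K : ℕ, ∃ (c : ℕ → ℕ) (N1 zmin : ℕ) (Bad : ℕ → Prop)
    (lamA : Tok S → Language α) (nuA : List α → Tok S),
    (∀ i j, i < j → j < K → c i < c j) ∧ (∀ k < K, 0 < c k) ∧
    (∀ k < K, ∀ k' < K, ∀ l < K, ∀ l' < K, k' ≠ k → l' ≠ l →
      c k + c l' ≤ c l + c k' + 2 * N1 → c l + c k' ≤ c k + c l' + 2 * N1 → k = l) ∧
    (∀ T, (∀ k < K, c k ≤ T) → ∃ J : Finset ℕ, J.card ≤ C0 ∧
      ∀ k < K, ∀ k' < K, k' ≠ k → Bad (T + c k' - c k) → k ∈ J) ∧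
    (∀ v, ∀ P ∈ lamA v, P.length ≤ N1) ∧
    (∀ Y : List α, zmin ≤ Y.length → ¬ Bad Y.length → ∀ w, ∃ P Q, Y = P ++ Q ∧ P ∈ lamA w ∧
      ∀ w' P', P' ∈ lamA w' →
        act w' ((P' ++ Q).map f).prod + nuA (P' ++ Q) = act w (Y.map f).prod + nuA Y) ∧
    (∀ x, Language.IsRegular ({Y | nuA Y = x} : Language α)) ∧
    Language.IsRegular ({Y | Bad Y.length} : Language α)

theorem prod_regular {α M : Type*} [Monoid M] [Finite M] (φ : α → M) (s : M) :
    Language.IsRegular ({w | (w.map φ).prod = s} : Language α) := by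
  classical
  haveI := Fintype.ofFinite M
  have key : ∀ (w : List α) (m : M), w.foldl (fun (m : M) b => m * φ b) m =
      m * (w.map φ).prod := by
    intro w
    induction w with
    | nil => intro m; simp
    | cons a w ih => intro m; simp [ih, mul_assoc]
  let D : DFA α M := ⟨fun m b => m * φ b, 1, {s}⟩
  have hD : D.accepts = ({w | (w.map φ).prod = s} : Language α) := by
    ext w
    rw [DFA.mem_accepts]
    show w.foldl (fun (m : M) b => m * φ b) 1 = s ↔ (w.map φ).prod = s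
    rw [key, one_mul]
  obtain ⟨σ, hσ, D', hD'⟩ : ∃ σ : Type, ∃ _ : Fintype σ, ∃ D' : DFA α σ,
      D'.accepts = D.accepts := by
    let e := Fintype.equivFin M
    refine ⟨Fin (Fintype.card M), inferInstance, D.reindex e, ?_⟩
    exact DFA.accepts_reindex D e
  exact ⟨σ, hσ, D', hD'.trans hD⟩

theorem data2 {α S : Type} [Finite α] [Monoid S] [Finite S] (f : α → S) (hG : GadA f) :
    Data2 (fun w : List α => (w.map f).prod) := by
  classical
  obtain ⟨C0, hG⟩ := hG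
  haveI := Fintype.ofFinite S
  obtain ⟨K, hK⟩ := ExactR_237.exact_gadget α S (Tok S) f act (3 * C0 + 2)
  obtain ⟨c, N1, zmin, Bad, lamA, nuA, hmono, hpos, hruler, hthin, hlen, hA, hregA, hregB⟩ := hG K
  obtain ⟨lamB, rho, nu, hs, hcB⟩ := hK c hmono
  -- constants
  obtain ⟨p0, hK0, hp0⟩ : ∃ p0, 0 < p0 ∧ ∀ k < K, c k ≤ p0 := by
    refine ⟨∑ k ∈ Finset.range K, c k + 1, by omega, fun k hk => ?_⟩
    exact (Finset.single_le_sum (f := c) (fun _ _ => Nat.zero_le _)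
      (Finset.mem_range.2 hk)).trans (Nat.le_succ _)
  let ph : List α → S := fun w => (w.map f).prod
  have hm : ∀ a b, ph (a ++ b) = ph a * ph b := by intro a b; simp [ph]
  obtain ⟨n, cc, P, Sw, hn, hP, loc, hgap, -, -, hfew⟩ :=
    walls_full (α := α) (2 * p0 + 2 * N1)
  set W : List α → Prop := Wo n Sw with hW
  set z1 : ℕ := zmin + n + 2 * N1 + 2 * p0 + 1 with hz1
  set g : ℕ := n with hg
  let nuB : List α → Tok S := fun X => nu X 1
  have hWn : ∀ P, W P → n ≤ P.length := fun P h => h.1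
  -- heights
  have hHW : ∀ k, HL k ({P | W P} : Language α) := fun k => HL_Wo Sw
  have hreg : ∀ (L : Language α), L.IsRegular → ∀ s : S, ∀ r : ℕ,
      HL 1 ({w | w ∈ L ∧ ph w = s ∧ nw n Sw w ≤ r} : Language α) := by
    intro L hL s r
    refine (hfew _ (hL.inf (prod_regular f s)) r).congr fun w => ?_
    exact ⟨fun h => ⟨⟨h.1, h.2.1⟩, h.2.2⟩, fun h => ⟨h.1.1, h.1.2, h.2⟩⟩
  have hreg0 : ∀ s : S, ∀ r : ℕ, HL 1 ({w | ph w = s ∧ nw n Sw w ≤ r} : Language α) :=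
    fun s r => hfew _ (prod_regular f s) r
  have hFW : ∀ k g', HL k (FW W g') := fun k g' => HL_FW (hHW k)
  have hY : ∀ b s, HL 1 ({Y | Y ∈ FW W z1 ∧ nuA Y = b ∧ ph Y = s} : Language α) := by
    intro b s
    refine ((hFW 1 z1).inf (hreg _ (hregA b) s (z1 + 1))).congr fun Y => ?_
    exact ⟨fun h => ⟨h.1, h.2.1, h.2.2, nw_FW h.1⟩, fun h => ⟨h.1, h.2.1, h.2.2.1⟩⟩
  have hYc : HL 1 ({Y | Y ∈ FW W z1 ∧ Cr W z1 N1 Bad Y} : Language α) := by
    refine ((hFW 1 z1).inf ((HL_E (z1 := z1) (N1 := N1) (hHW 1)).sup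
      (hfew _ hregB (z1 + 1)))).congr fun Y => ?_
    constructor
    · rintro ⟨h1, h2 | h2⟩
      · exact ⟨h1, Or.inl h2⟩
      · exact ⟨h1, Or.inr ⟨h2, nw_FW h1⟩⟩
    · rintro ⟨h1, h2 | ⟨h2, -⟩⟩
      · exact ⟨h1, Or.inl h2⟩
      · exact ⟨h1, Or.inr h2⟩
  have hYnc : HL 1 ({Y | Y ∈ FW W z1 ∧ ¬ Cr W z1 N1 Bad Y} : Language α) := by
    refine ((hFW 1 z1).inf hYc.compl).congr fun Y => ?_
    exact ⟨fun h => ⟨h.1, fun h2 => h.2 h2.2⟩, fun h => ⟨h.1, fun h2 => h.2 ⟨h.1, h2⟩⟩⟩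
  have hr : ∀ s, HL 1 ({r | r ∈ FW W g ∧ ph r = s} : Language α) := by
    intro s
    refine ((hFW 1 g).inf (hreg0 s (g + 1))).congr fun Y => ?_
    exact ⟨fun h => ⟨h.1, h.2, nw_FW h.1⟩, fun h => ⟨h.1, h.2.1⟩⟩
  have hfib : ∀ v τ, HL 1 ({z | z ∈ ZZ W p0 z1 g ∧
      aff ph (dd W p0 z1 ph nuB nuA) z v = τ} : Language α) := by
    intro v τ
    refine HL_Zq hm (fun _ => True) (ZZ W p0 z1 g) (fun z => ?_) (fun b s => ?_) hr v τ
    · exact ⟨fun ⟨X, Y, r, h1, h2, h3, h4⟩ => ⟨X, Y, r, h1, h2, h3, h4, trivial⟩,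
        fun ⟨X, Y, r, h1, h2, h3, h4, _⟩ => ⟨X, Y, r, h1, h2, h3, h4⟩⟩
    · exact (hY b s).congr fun Y => ⟨fun h => ⟨h.1, h.2.2⟩, fun h => ⟨h.1, trivial, h.2⟩⟩
  have hfibc : ∀ v τ, HL 1 ({z | z ∈ Zc W p0 z1 g (Cr W z1 N1 Bad) ∧
      aff ph (dd W p0 z1 ph nuB nuA) z v = τ} : Language α) := by
    intro v τ
    refine HL_Zq hm (Cr W z1 N1 Bad) (Zc W p0 z1 g (Cr W z1 N1 Bad)) (fun z => Iff.rfl)
      (fun b s => ?_) hr v τ
    refine ((hY b s).inf hYc).congr fun Y => ?_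
    exact ⟨fun h => ⟨⟨h.1, h.2.2⟩, h.1, h.2.1⟩, fun h => ⟨h.1.1, h.2.2, h.1.2⟩⟩
  have hZZ : HL 1 (ZZ W p0 z1 g) := by
    refine HL_all (p0 := p0) (z1 := z1) (W := W) (g := g) (fun _ => True) _ (fun z => ?_) ?_
      (hFW 1 g)
    · exact ⟨fun ⟨X, Y, r, h1, h2, h3, h4⟩ => ⟨X, Y, r, h1, h2, h3, h4, trivial⟩,
        fun ⟨X, Y, r, h1, h2, h3, h4, _⟩ => ⟨X, Y, r, h1, h2, h3, h4⟩⟩
    · exact (hFW 1 z1).congr fun Y => ⟨fun h => h.1, fun h => ⟨h, trivial⟩⟩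
  have hZc : HL 1 (Zc W p0 z1 g (Cr W z1 N1 Bad)) :=
    HL_all (p0 := p0) (z1 := z1) (W := W) (g := g) (Cr W z1 N1 Bad) _ (fun z => Iff.rfl) hYc
      (hFW 1 g)
  have hNC : HL 1 (NC W p0 z1 (Cr W z1 N1 Bad)) := HL_NC hYnc
  have hlenfin : ∀ v, (lamA v : Set (List α)).Finite := fun v =>
    (List.finite_length_le α N1).subset fun P hP => hlen v P hP
  have hLAf := LA_fin (ph := ph) (nuB := nuB) (p0 := p0) hlenfin
  have hLBf : ∀ v, (LB K c lamB v : Set (List α)).Finite := fun v => LB_fin v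
  have hcode := code (W := W) (p0 := p0) (z1 := z1) (g := g) (by omega)
  refine ⟨ZZ W p0 z1 g, Zc W p0 z1 g (Cr W z1 N1 Bad), dd W p0 z1 ph nuB nuA,
    LA ph nuB p0 lamA, RR (ZZ W p0 z1 g) 0 (aff ph (dd W p0 z1 ph nuB nuA)) (LA ph nuB p0 lamA),
    LB K c lamB, RR (Zc W p0 z1 g (Cr W z1 N1 Bad)) (NC W p0 z1 (Cr W z1 N1 Bad))
        (aff ph (dd W p0 z1 ph nuB nuA)) (LB K c lamB),
    hcode, zc_sub, hZZ, hZc, ?_, fun v => HL.finite (hLAf v),
    fun v => HL_RR hfib HL.zero hLAf v, ?_, ?_, fun v => HL.finite (hLBf v),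
    fun v => HL_RR hfibc hNC hLBf v, ?_, ?_⟩
  · refine sound hcode.2 ?_ ?_
    · rintro v ⟨X, P', h1, h2, -⟩
      have := congrArg List.length h1
      rw [List.length_nil, List.length_append] at this
      omega
    · intro w z x y h
      exact absurd h (Language.notMem_zero w)
  · intro z h1 h2 v
    exact compA (n := n) loc hm (by omega) hlen (fun Y h3 h4 w => hA Y (by omega) h4 w) h1 h2 v
  · refine sound (fun z z' x x' h1 h2 => hcode.2 z z' x x' (zc_sub z h1) (zc_sub z' h2)) ?_ ?_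
    · rintro v ⟨k, hk, h1, -⟩
      have := hpos k hk
      rw [List.length_nil] at h1
      omega
    · intro w z x y h1 h2 h3
      exact nc_disj h1 h2 h3
  · intro z h2 v
    refine compB (n := n) (Wg := 2 * p0 + 2 * N1) loc hgap hm (by omega) le_rfl hn hp0 le_rfl
      (by omega) hruler hthin ?_ h2 v
    intro X hX v
    obtain ⟨I, hI, hI2⟩ := hcB X 1 v (fun k hk => (hp0 k hk).trans hX.ge)
    refine ⟨I, by omega, fun k hk => ?_⟩
    obtain ⟨h3, h4, h5⟩ := hI2 k hk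
    refine ⟨h3, h4, fun P' v' hP' hl' => ?_⟩
    obtain ⟨b, hb⟩ := Option.isSome_iff_exists.1 h5
    have hXk : (X.take (c k)).length = c k := by
      rw [List.length_take]; have := hp0 k h3; omega
    have e1 := hs k h3 P' (X.drop (c k)) 1 v' b hP' hl' hb
    have e2 := hs k h3 (X.take (c k)) (X.drop (c k)) 1 v b hXk h4 hb
    rw [List.take_append_drop] at e2
    rw [mul_one] at e1 e2
    show act v' (ph (P' ++ X.drop (c k))) + nu (P' ++ X.drop (c k)) 1 =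
      act v (ph X) + nu X 1
    exact e1.symm.trans e2
  · intro s
    refine HL.mono (by omega : 1 ≤ 3) ?_
    refine (hZZ.prefix.compl.inf (hreg0 s (p0 + z1 + g))).congr fun w => ?_
    constructor
    · rintro ⟨h1, h2⟩
      exact ⟨fun ⟨v, hv, hv2⟩ => h1 v hv hv2, h2, nw_rest (by omega) le_rfl h1⟩
    · rintro ⟨h1, h2, -⟩
      exact ⟨fun z hz hz2 => h1 ⟨z, hz, hz2⟩, h2⟩

end Crest.Agent.R320.Dat_8
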