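import Crest.Agent.R320.Main_621
import Crest.Agent.R320.ExactR_237
import Crest.Agent.R320.FewVal_228

/-!
Row 320 (helper222): concrete instance of `Main_621.Data`, part 1: blocks, scheme A and scheme B on
words, from the digit gadget (852's G1), 237's exact gadget and a spoil count.
Chain rule of helper621: `t(a)` = first wall at distance `≥ z`, block end = next wall after `t(a)`.
-/

set_option autoImplicit false

namespace Crest.Agent.R320.Data_222

open Crest.Agent.R320.Hk_851 Crest.Agent.R320.Star_621 Crest.Agent.R320.Two_621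
  Crest.Agent.R320.Main_621 Crest.Agent.R320.FewWalls_228

variable {α : Type}

/-- wall of `w` at place `t` (left-looking) -/
def Pl (n : ℕ) (S : Set (List α)) (w : List α) (t : ℕ) : Prop := n ≤ t ∧ Wl n S w (t - n)

theorem Pl.le {n : ℕ} {S : Set (List α)} {w : List α} {t : ℕ} (h : Pl n S w t) :
    t ≤ w.length := by
  obtain ⟨h1, h2, -⟩ := h
  omega

theorem pl_left {n : ℕ} {S : Set (List α)} {P Q : List α} {t : ℕ} (ht : t ≤ P.length) :
    Pl n S (P ++ Q) t ↔ Pl n S P t := by
  unfold Pl Wl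
  constructor
  · rintro ⟨h1, h2, h3⟩
    refine ⟨h1, by omega, ?_⟩
    rwa [List.drop_append_of_le_length (by omega), List.take_append_of_le_length
      (by rw [List.length_drop]; omega)] at h3
  · rintro ⟨h1, h2, h3⟩
    refine ⟨h1, by rw [List.length_append]; omega, ?_⟩
    rwa [List.drop_append_of_le_length (by omega), List.take_append_of_le_length
      (by rw [List.length_drop]; omega)]

theorem pl_right {n : ℕ} {S : Set (List α)} {P Q : List α} {t : ℕ} (ht : n ≤ t) :
    Pl n S (P ++ Q) (P.length + t) ↔ Pl n S Q t := by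
  unfold Pl Wl
  have e : P.length + t - n = P.length + (t - n) := by omega
  rw [e, List.drop_append, List.length_append]
  have e2 : P.drop (P.length + (t - n)) = [] := List.drop_eq_nil_of_le (by omega)
  rw [e2, List.nil_append, Nat.add_sub_cancel_left]
  constructor
  · rintro ⟨h1, h2, h3⟩
    exact ⟨ht, by omega, h3⟩
  · rintro ⟨h1, h2, h3⟩
    exact ⟨by omega, by omega, h3⟩

/-- configuration of the chain -/
structure Cf (α : Type) where
  n : ℕ
  S : Set (List α)
  W : ℕ
  p : ℕ
  N1 : ℕ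
  q : ℕ
  z : ℕ
  BT : ℕ → Prop
  hn : 0 < n
  hp : 0 < p
  hz : z = p + N1 + q
  hq : n ≤ q
  hW : 2 * (p + N1) + 2 ≤ W
  gap : ∀ (w : List α) (x y : ℕ), x < y → Wl n S w x → Wl n S w y → x + W ≤ y

variable (C : Cf α)

theorem Cf.pgap {w : List α} {s t : ℕ} (hst : s < t) (h1 : Pl C.n C.S w s) (h2 : Pl C.n C.S w t) :
    s + C.W ≤ t := by
  have := C.gap w (s - C.n) (t - C.n) (by have := h1.1; omega) h1.2 h2.2
  have := h1.1
  omega

/-- `t` is the first wall of `Q` at distance `≥ z` from the point `κ` letters before `Q` -/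
def Fst (κ : ℕ) (Q : List α) (t : ℕ) : Prop :=
  C.z ≤ κ + t ∧ Pl C.n C.S Q t ∧ ∀ s, C.z ≤ κ + s → s < t → ¬ Pl C.n C.S Q s

/-- `e` is the next wall after `t` -/
def Nxt (Q : List α) (t e : ℕ) : Prop :=
  t < e ∧ Pl C.n C.S Q e ∧ ∀ s, t < s → s < e → ¬ Pl C.n C.S Q s

def Blk (κ : ℕ) (Q : List α) : Prop := ∃ t, Fst C κ Q t ∧ Nxt C Q t Q.length

def EE (κ : ℕ) (Q : List α) : Prop :=
  ∃ s, Pl C.n C.S Q s ∧ C.z ≤ κ + s + C.N1 ∧ κ + s < C.z + C.N1

def BadC (κ : ℕ) (Q : List α) : Prop :=
  ∃ t, Fst C κ Q t ∧ (EE C κ Q ∨ C.BT (κ + t - C.p))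

def Z : Language α := {X | Blk C 0 X}
def Zc : Language α := {X | Blk C 0 X ∧ BadC C 0 X}

variable {C}

theorem Fst.unique {κ : ℕ} {Q : List α} {t t' : ℕ} (h : Fst C κ Q t) (h' : Fst C κ Q t') :
    t = t' := by
  rcases lt_trichotomy t t' with hl | hl | hl
  · exact absurd h.2.1 (h'.2.2 t h.1 hl)
  · exact hl
  · exact absurd h'.2.1 (h.2.2 t' h'.1 hl)

theorem Nxt.unique {Q : List α} {t e e' : ℕ} (h : Nxt C Q t e) (h' : Nxt C Q t e') : e = e' := by
  rcases lt_trichotomy e e' with hl | hl | hl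
  · exact absurd h.2.1 (h'.2.2 e h.1 hl)
  · exact hl
  · exact absurd h'.2.1 (h.2.2 e' h'.1 hl)

theorem fst_left {κ : ℕ} {Q R : List α} {t : ℕ} (ht : t ≤ Q.length) :
    Fst C κ (Q ++ R) t ↔ Fst C κ Q t := by
  unfold Fst
  rw [pl_left ht]
  constructor
  · rintro ⟨h1, h2, h3⟩
    exact ⟨h1, h2, fun s a b c => h3 s a b ((pl_left (by omega)).2 c)⟩
  · rintro ⟨h1, h2, h3⟩
    exact ⟨h1, h2, fun s a b c => h3 s a b ((pl_left (by omega)).1 c)⟩

theorem nxt_left {Q R : List α} {t e : ℕ} (he : e ≤ Q.length) :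
    Nxt C (Q ++ R) t e ↔ Nxt C Q t e := by
  unfold Nxt
  rw [pl_left he]
  constructor
  · rintro ⟨h1, h2, h3⟩
    exact ⟨h1, h2, fun s a b c => h3 s a b ((pl_left (by omega)).2 c)⟩
  · rintro ⟨h1, h2, h3⟩
    exact ⟨h1, h2, fun s a b c => h3 s a b ((pl_left (by omega)).1 c)⟩

theorem fst_right {κ : ℕ} {P Q : List α} {t : ℕ} (hκ : C.n + κ + P.length ≤ C.z) :
    Fst C κ (P ++ Q) (P.length + t) ↔ Fst C (κ + P.length) Q t := by
  unfold Fst
  constructor
  · rintro ⟨h1, h2, h3⟩
    refine ⟨by omega, (pl_right (by omega)).1 h2, fun s a b c => ?_⟩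
    exact h3 (P.length + s) (by omega) (by omega) ((pl_right (by omega)).2 c)
  · rintro ⟨h1, h2, h3⟩
    refine ⟨by omega, (pl_right (by omega)).2 h2, fun s a b c => ?_⟩
    obtain ⟨s', rfl⟩ : ∃ s', s = P.length + s' := ⟨s - P.length, by omega⟩
    exact h3 s' (by omega) (by omega) ((pl_right (by omega)).1 c)

theorem nxt_right {P Q : List α} {t e : ℕ} (ht : C.n ≤ t) :
    Nxt C (P ++ Q) (P.length + t) (P.length + e) ↔ Nxt C Q t e := by
  unfold Nxt
  constructor
  · rintro ⟨h1, h2, h3⟩
    refine ⟨by omega, (pl_right (by omega)).1 h2, fun s a b c => ?_⟩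
    exact h3 (P.length + s) (by omega) (by omega) ((pl_right (by omega)).2 c)
  · rintro ⟨h1, h2, h3⟩
    refine ⟨by omega, (pl_right (by omega)).2 h2, fun s a b c => ?_⟩
    obtain ⟨s', rfl⟩ : ∃ s', s = P.length + s' := ⟨s - P.length, by omega⟩
    exact h3 s' (by omega) (by omega) ((pl_right (by omega)).1 c)

theorem blk_right {κ : ℕ} {P Q : List α} (hκ : C.n + κ + P.length ≤ C.z) :
    Blk C κ (P ++ Q) ↔ Blk C (κ + P.length) Q := by
  unfold Blk
  constructor
  · rintro ⟨t, h1, h2⟩
    have ht := h1.1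
    obtain ⟨t', rfl⟩ : ∃ t', t = P.length + t' := ⟨t - P.length, by omega⟩
    rw [fst_right hκ] at h1
    rw [List.length_append, nxt_right (by omega)] at h2
    exact ⟨t', h1, h2⟩
  · rintro ⟨t, h1, h2⟩
    have ht := h1.1
    refine ⟨P.length + t, (fst_right hκ).2 h1, ?_⟩
    rw [List.length_append, nxt_right (by omega)]
    exact h2

theorem ee_right {κ : ℕ} {P Q : List α} (hκ : C.n + κ + P.length + C.N1 ≤ C.z) :
    EE C κ (P ++ Q) ↔ EE C (κ + P.length) Q := by
  unfold EE
  constructor
  · rintro ⟨s, h1, h2, h3⟩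
    obtain ⟨s', rfl⟩ : ∃ s', s = P.length + s' := ⟨s - P.length, by omega⟩
    exact ⟨s', (pl_right (by omega)).1 h1, by omega, by omega⟩
  · rintro ⟨s, h1, h2, h3⟩
    exact ⟨P.length + s, (pl_right (by omega)).2 h1, by omega, by omega⟩

theorem badC_right {κ : ℕ} {P Q : List α} (hκ : C.n + κ + P.length + C.N1 ≤ C.z) :
    BadC C κ (P ++ Q) ↔ BadC C (κ + P.length) Q := by
  unfold BadC
  rw [ee_right hκ]
  constructor
  · rintro ⟨t, h1, h2⟩
    have ht := h1.1
    obtain ⟨t', rfl⟩ : ∃ t', t = P.length + t' := ⟨t - P.length, by omega⟩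
    rw [fst_right (by omega)] at h1
    refine ⟨t', h1, ?_⟩
    have e : κ + (P.length + t') - C.p = κ + P.length + t' - C.p := by omega
    rwa [e] at h2
  · rintro ⟨t, h1, h2⟩
    refine ⟨P.length + t, (fst_right (by omega)).2 h1, ?_⟩
    have e : κ + (P.length + t) - C.p = κ + P.length + t - C.p := by omega
    rwa [e]

theorem blk_len {κ : ℕ} {Q : List α} (h : Blk C κ Q) : C.z < κ + Q.length := by
  obtain ⟨t, h1, h2⟩ := h
  have := h1.1
  have := h2.1
  omega

theorem code : Code (Z C) := by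
  constructor
  · intro h
    have := blk_len (show Blk C 0 [] from h)
    simp at this
  · intro z z' x x' hz hz' e
    obtain ⟨t, h1, h2⟩ := (show Blk C 0 z from hz)
    obtain ⟨t', h1', h2'⟩ := (show Blk C 0 z' from hz')
    have a1 : Fst C 0 (z ++ x) t := (fst_left (h1.2.1.le)).2 h1
    have a1' : Fst C 0 (z ++ x) t' := by rw [e]; exact (fst_left (h1'.2.1.le)).2 h1'
    have ht := a1.unique a1'
    subst ht
    have a2 : Nxt C (z ++ x) t z.length := (nxt_left le_rfl).2 h2
    have a2' : Nxt C (z ++ x) t z'.length := by rw [e]; exact (nxt_left le_rfl).2 h2'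
    have hl := a2.unique a2'
    exact (List.append_inj e hl).1

open Classical in
/-- the first qualifying wall of a block -/
noncomputable def tX (C : Cf α) (κ : ℕ) (X : List α) : ℕ :=
  if h : ∃ t, Fst C κ X t then h.choose else 0

theorem tX_eq {κ : ℕ} {X : List α} {t : ℕ} (h : Fst C κ X t) : tX C κ X = t := by
  unfold tX
  rw [dif_pos ⟨t, h⟩]
  exact (Exists.choose_spec (⟨t, h⟩ : ∃ t, Fst C κ X t)).unique h

/-! ### scheme A -/

section A

variable {S : Type} [Monoid S] (f : α → S) (lam rho : List α → Option (Tok S))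
  (nu : List α → Tok S)

def ph (w : List α) : S := (w.map f).prod

theorem ph_app (u v : List α) : ph f (u ++ v) = ph f u * ph f v := by simp [ph]

/-- noise of scheme A -/
noncomputable def dA (C : Cf α) (X : List α) : Tok S :=
  act (nu ((X.take (tX C 0 X)).drop C.p)) (ph f (X.drop (tX C 0 X)))

def LA (C : Cf α) (v : Tok S) : Language α :=
  {P | C.p ≤ P.length ∧ lam (P.drop C.p) = some (act v (ph f (P.take C.p)))}

def RA (C : Cf α) (τ : Tok S) : Language α :=
  {Q | ∃ t r, rho (Q.take t) = some r ∧ τ = act r (ph f (Q.drop t)) ∧ C.q + C.N1 ≤ t ∧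
    Pl C.n C.S Q t ∧ (∀ s, C.q ≤ s → s < t → ¬ Pl C.n C.S Q s) ∧ Nxt C Q t Q.length}

variable {f lam rho nu}

/-- facts about the digit gadget -/
structure G1ok (f : α → S) (lam rho : List α → Option (Tok S)) (nu : List α → Tok S)
    (N1 : ℕ) (BT : ℕ → Prop) : Prop where
  short : ∀ P v, lam P = some v → P.length < N1
  sound : ∀ P Q v v', lam P = some v → rho Q = some v' →
    v' = act v ((P ++ Q).map f).prod + nu (P ++ Q)
  complete : ∀ X : List α, ¬ BT X.length → ∀ v, ∃ P Q, P ++ Q = X ∧ lam P = some v ∧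
    (rho Q).isSome

theorem LA_len (hG : G1ok f lam rho nu C.N1 C.BT) {v : Tok S} {P : List α}
    (h : P ∈ LA f lam C v) : C.p ≤ P.length ∧ P.length < C.p + C.N1 := by
  obtain ⟨h1, h2⟩ := h
  have := hG.short _ _ h2
  rw [List.length_drop] at this
  exact ⟨h1, by omega⟩

theorem A_junction (hG : G1ok f lam rho nu C.N1 C.BT) {v τ : Tok S} {P Q : List α}
    (hP : P ∈ LA f lam C v) (hQ : Q ∈ RA f rho C τ) :
    P ++ Q ∈ Z C ∧ τ = aff (ph f) (dA f nu C) (P ++ Q) v := by
  obtain ⟨l1, l2⟩ := LA_len hG hP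
  obtain ⟨h1, h2⟩ := hP
  obtain ⟨t, r, hr, rfl, ht, hpl, hno, hnx⟩ := hQ
  have hz := C.hz
  have hq := C.hq
  have hF : Fst C 0 (P ++ Q) (P.length + t) := by
    refine ⟨by omega, (pl_right (by omega)).2 hpl, fun s a b c => ?_⟩
    obtain ⟨s', rfl⟩ : ∃ s', s = P.length + s' := ⟨s - P.length, by omega⟩
    exact hno s' (by omega) (by omega) ((pl_right (by omega)).1 c)
  refine ⟨⟨P.length + t, hF, ?_⟩, ?_⟩
  · rw [List.length_append, nxt_right (by omega)]
    exact hnx
  · unfold aff dA
    rw [tX_eq hF]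
    have e1 : (P ++ Q).drop (P.length + t) = Q.drop t := by
      rw [List.drop_append]
      simp [List.drop_eq_nil_of_le]
    have e2 : ((P ++ Q).take (P.length + t)).drop C.p = P.drop C.p ++ Q.take t := by
      have : (P ++ Q).take (P.length + t) = P ++ Q.take t := by
        rw [List.take_append]
        simp [List.take_of_length_le]
      rw [this, List.drop_append_of_le_length l1]
    rw [e1, e2, hG.sound _ _ _ _ h2 hr, act_add, act_mul, act_mul]
    congr 2
    show _ = ph f (P ++ Q)
    have e3 : ((P.drop C.p ++ Q.take t).map f).prod = ph f (P.drop C.p ++ Q.take t) := rfl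
    rw [e3, ← ph_app, ← ph_app]
    congr 1
    rw [List.append_assoc, List.take_append_drop, ← List.append_assoc, List.take_append_drop]

theorem A_sound (hG : G1ok f lam rho nu C.N1 C.BT) :
    Sound (Z C) (aff (ph f) (dA f nu C)) (LA f lam C) (RA f rho C) := by
  constructor
  · intro ω h
    have h1 := (LA_len hG h).1
    have h2 := C.hp
    rw [List.length_nil] at h1
    omega
  · intro ω τ P Q z x y hP hQ hz e
    obtain ⟨h1, h2⟩ := A_junction hG hP hQ
    have := code.2 _ _ x y h1 hz e
    subst this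
    exact ⟨rfl, h2⟩

theorem A_complete (hG : G1ok f lam rho nu C.N1 C.BT) {z : List α} (hz : z ∈ Z C)
    (hzc : z ∉ Zc C) (v : Tok S) : Cut (LA f lam C) (RA f rho C) v z := by
  obtain ⟨t, h1, h2⟩ := (show Blk C 0 z from hz)
  have hE : ¬ EE C 0 z := fun h => hzc ⟨hz, t, h1, Or.inl h⟩
  have hB : ¬ C.BT (0 + t - C.p) := fun h => hzc ⟨hz, t, h1, Or.inr h⟩
  have hz' := C.hz
  have hq := C.hq
  have htz : C.z + C.N1 ≤ t := by
    by_contra hlt
    exact hE ⟨t, h1.2.1, by have := h1.1; omega, by omega⟩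
  have htl := h1.2.1.le
  have hlen : ((z.take t).drop C.p).length = 0 + t - C.p := by
    rw [List.length_drop, List.length_take]
    omega
  obtain ⟨P', Q', e, hl, hr⟩ := hG.complete ((z.take t).drop C.p) (by rw [hlen]; exact hB)
    (act v (ph f (z.take C.p)))
  obtain ⟨r, hr⟩ := Option.isSome_iff_exists.1 hr
  have hP'1 := hG.short _ _ hl
  have hlen' : P'.length + Q'.length = t - C.p := by
    rw [← List.length_append, e, hlen]; omega
  have hp1 : (z.take C.p).length = C.p := by rw [List.length_take]; omega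
  have ez : z = (z.take C.p ++ P') ++ (Q' ++ z.drop t) := by
    have : z.take C.p ++ (P' ++ Q') = z.take t := by
      rw [e]
      have h3 : z.take C.p = (z.take t).take C.p := by
        rw [List.take_take, min_eq_left (by omega)]
      rw [h3, List.take_append_drop]
    calc z = z.take t ++ z.drop t := (List.take_append_drop t z).symm
      _ = _ := by rw [← this]; simp
  refine ⟨z.take C.p ++ P', Q' ++ z.drop t, act r (ph f (z.drop t)), ez, ?_, ?_⟩
  · refine ⟨by rw [List.length_append, hp1]; omega, ?_⟩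
    have e1 : (z.take C.p ++ P').drop C.p = P' := by
      have := List.drop_left (l₁ := z.take C.p) (l₂ := P')
      rwa [hp1] at this
    have e2 : (z.take C.p ++ P').take C.p = z.take C.p := by
      have := List.take_left (l₁ := z.take C.p) (l₂ := P')
      rwa [hp1] at this
    rw [e1, e2]
    exact hl
  · have hPl : (z.take C.p ++ P').length = C.p + P'.length := by rw [List.length_append, hp1]
    refine ⟨Q'.length, r, ?_, ?_, by omega, ?_, ?_, ?_⟩
    · rw [List.take_left]; exact hr
    · rw [List.drop_left]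
    · have : Pl C.n C.S ((z.take C.p ++ P') ++ (Q' ++ z.drop t))
          ((z.take C.p ++ P').length + Q'.length) := by
        rw [← ez, hPl]
        have : C.p + P'.length + Q'.length = t := by omega
        rw [this]; exact h1.2.1
      exact (pl_right (by omega)).1 this
    · intro s hs1 hs2 hs
      have h3 : Pl C.n C.S ((z.take C.p ++ P') ++ (Q' ++ z.drop t))
          ((z.take C.p ++ P').length + s) := (pl_right (by omega)).2 hs
      rw [← ez, hPl] at h3
      by_cases h4 : C.z ≤ C.p + P'.length + s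
      · exact h1.2.2 _ (by omega) (by omega) h3
      · exact hE ⟨_, h3, by omega, by omega⟩
    · have h3 : Nxt C ((z.take C.p ++ P') ++ (Q' ++ z.drop t))
          ((z.take C.p ++ P').length + Q'.length)
          ((z.take C.p ++ P').length + (Q' ++ z.drop t).length) := by
        have e3 : (z.take C.p ++ P').length + Q'.length = t := by rw [hPl]; omega
        have e4 : (z.take C.p ++ P').length + (Q' ++ z.drop t).length = z.length := by
          rw [← List.length_append, ← ez]
        rw [e3, e4, ← ez]; exact h2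
      exact (nxt_right (by omega)).1 h3

end A

end Crest.Agent.R320.Data_222
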