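import Crest.Agent.R320.Ruler2_537
import Crest.Agent.R320.Ruler_265

/-!
Row 320: wall sets of words, translation lemmas for 260's threshold chain, ruler existence.
-/

set_option autoImplicit false

namespace Crest.Agent.R320.Data604

open Crest.Agent.R320.ThrChain260 Crest.Agent.R320.Ruler2_537

variable {P : Par}

/-- wall set of a word under a right-looking rule -/
def WS {α : Type*} (R : List α → Prop) (U : List α) : ℤ → Prop :=
  fun t => 0 ≤ t ∧ R (U.drop t.toNat)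

theorem isN_trans {Wl Wl' : ℤ → Prop} {a b d : ℤ} (hz : P.p0 + P.S ≤ P.z)
    (h : ∀ t, a + P.p0 ≤ t → t ≤ b → (Wl t ↔ Wl' (t + d)))
    (hb : IsN P Wl a b) : IsN P Wl' (a + d) (b + d) := by
  have hq : ∀ t, a + P.p0 ≤ t → t ≤ b → (Qual P Wl a t ↔ Qual P Wl' (a + d) (t + d)) := by
    intro t h1 h2
    unfold Qual
    have e : t + d - (a + d) - P.z = t - a - P.z := by ring
    rw [e, h t h1 h2]
  have hN := P.hN
  have hge := qual_ge hb.1
  refine ⟨(hq b (by linarith) le_rfl).1 hb.1, ?_⟩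
  intro t' ht' hq'
  have hge' := qual_ge hq'
  have e : t' = (t' - d) + d := by ring
  rw [e] at hq'
  exact hb.2 (t' - d) (by linarith) ((hq (t' - d) (by linarith) (by linarith)).2 hq')

theorem legal_trans {Wl Wl' : ℤ → Prop} {x d : ℤ} (hz : P.p0 + P.S ≤ P.z)
    (h : ∀ t, x ≤ t → Wl' (t + d) → Wl t) (hl : Legal P Wl x) : Legal P Wl' (x + d) := by
  intro t ht hb
  have hxt : x + d ≤ t := by
    by_contra hc
    have := left_lt (P := P) hz (not_le.mp hc)
    linarith [hb.2]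
  have e : t - d - x + P.p0 - P.z = t - (x + d) + P.p0 - P.z := by ring
  have e2 : t - d + d = t := by ring
  apply hl (t - d) (h (t - d) (by linarith) (by rwa [e2]))
  rw [e]
  exact hb

theorem isB_trans {Wl Wl' : ℤ → Prop} {x b d : ℤ} (hz : P.p0 + P.S ≤ P.z)
    (h : ∀ t, x ≤ t → t ≤ b → (Wl t ↔ Wl' (t + d)))
    (hb : IsB P Wl x b) : IsB P Wl' (x + d) (b + d) := by
  have hq : ∀ t, x ≤ t → t ≤ b → (QualR P Wl x t ↔ QualR P Wl' (x + d) (t + d)) := by
    intro t h1 h2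
    unfold QualR
    have e : t + d - (x + d) + P.p0 - P.z = t - x + P.p0 - P.z := by ring
    rw [e, h t h1 h2]
  have hge := qualR_ge hz hb.1
  refine ⟨(hq b hge le_rfl).1 hb.1, ?_⟩
  intro t' ht' hq'
  have hge' := qualR_ge hz hq'
  have e : t' = (t' - d) + d := by ring
  rw [e] at hq'
  exact hb.2 (t' - d) (by linarith) ((hq (t' - d) (by linarith) (by linarith)).2 hq')

theorem e_trans {Wl Wl' : ℤ → Prop} {a d : ℤ} (hz : P.p0 + P.S ≤ P.z)
    (h : ∀ t, a + P.p0 ≤ t → t ≤ a + P.z + P.S → Wl t → Wl' (t + d)) (he : E P Wl a) :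
    E P Wl' (a + d) := by
  obtain ⟨t, ht, h1⟩ := he
  have h2 := abs_le.1 h1
  have s1 := s_ge (P := P) ((t - a - P.z) % P.M)
  have s2 := s_le (P := P) ((t - a - P.z) % P.M)
  have e : t + d - (a + d) - P.z = t - a - P.z := by ring
  exact ⟨t + d, h t (by linarith [h2.1]) (by linarith [h2.2]) ht, by rw [e]; exact h1⟩

/-- the wall set of an appended word -/
theorem ws_append {α : Type*} {R : List α → Prop} {u r : List α} {t : ℤ} (ht : 0 ≤ t) :
    WS R r t ↔ WS R (u ++ r) (t + u.length) := by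
  unfold WS
  have e : (t + (u.length : ℤ)).toNat = u.length + t.toNat := by omega
  rw [e]
  have e2 : (u ++ r).drop (u.length + t.toNat) = r.drop t.toNat := by simp [List.drop_append]
  rw [e2]
  constructor
  · rintro ⟨_, h⟩; exact ⟨by positivity, h⟩
  · rintro ⟨_, h⟩; exact ⟨ht, h⟩

theorem ws_drop {α : Type*} {R : List α → Prop} {U : List α} {n : ℕ} {t : ℤ} (ht : 0 ≤ t) :
    WS R (U.drop n) t ↔ WS R U (t + n) := by
  unfold WS
  have e : (t + (n : ℤ)).toNat = n + t.toNat := by omega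
  rw [e, List.drop_drop]
  constructor
  · rintro ⟨_, h⟩; exact ⟨by positivity, h⟩
  · rintro ⟨_, h⟩; exact ⟨ht, h⟩

/-- local rule -/
structure Loc {α : Type*} (R : List α → Prop) (n : ℕ) : Prop where
  loc : ∀ Q, R Q ↔ R (Q.take n)
  len : ∀ Q, R Q → n ≤ Q.length

theorem ws_take {α : Type*} {R : List α → Prop} {n : ℕ} (hR : Loc R n) {U : List α} {l : ℕ}
    {t : ℤ} (h : t.toNat + n ≤ l) : WS R (U.take l) t ↔ WS R U t := by
  unfold WS
  rw [hR.loc ((U.take l).drop t.toNat), hR.loc (U.drop t.toNat), List.drop_take, List.take_take,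
    min_eq_left (by omega)]

theorem ws_of_take {α : Type*} {R : List α → Prop} {n : ℕ} (hR : Loc R n) (hn : 0 < n)
    {U : List α} {l : ℕ} {t : ℤ} (h : WS R (U.take l) t) :
    t + n ≤ l ∧ WS R U t := by
  have h1 := hR.len _ h.2
  rw [List.length_drop, List.length_take] at h1
  have h0 := h.1
  have h2 : t.toNat + n ≤ l := by omega
  exact ⟨by omega, (ws_take hR h2).1 h⟩

theorem ws_len {α : Type*} {R : List α → Prop} {n : ℕ} (hR : Loc R n) (hn : 0 < n)
    {U : List α} {t : ℤ} (h : WS R U t) : t + n ≤ U.length := by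
  have h1 := hR.len _ h.2
  rw [List.length_drop] at h1
  have h0 := h.1
  omega

theorem ws_gap {α : Type*} {R : List α → Prop} {W : ℕ}
    (hsep : ∀ Q d, R Q → 0 < d → d ≤ W → ¬ R (Q.drop d)) (U : List α) :
    ∀ t t', WS R U t → WS R U t' → t < t' → (W : ℤ) < t' - t := by
  intro t t' h h' hlt
  by_contra hc
  have h0 := h.1
  have h0' := h'.1
  apply hsep (U.drop t.toNat) (t' - t).toNat h.2 (by omega) (by omega)
  rw [List.drop_drop]
  have : t.toNat + (t' - t).toNat = t'.toNat := by omega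
  rw [this]
  exact h'.2

/-- parameters of the chain -/
theorem exists_par (M N1 L p0 : ℕ) (hM : 0 < M) :
    ∃ S : ℕ, ∀ z : ℕ, ∃ P : Par, P.M = M ∧ P.z = z ∧ P.N1 = N1 ∧ P.S = S ∧ P.L = L ∧
      P.p0 = p0 := by
  refine ⟨(2 * (N1 + L) + 1) * M + N1, fun z => ?_⟩
  refine ⟨⟨M, z, p0, N1, ((2 * (N1 + L) + 1) * M + N1 : ℕ), L,
    fun r => (2 * (N1 + L) + 1) * (r % M), by exact_mod_cast hM, by positivity, by positivity,
    ?_, ?_⟩, rfl, rfl, rfl, rfl, rfl, rfl⟩
  · intro r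
    have hM' : (0 : ℤ) < M := by exact_mod_cast hM
    have p1 := Int.emod_nonneg r hM'.ne'
    have p2 := Int.emod_lt_of_pos r hM'
    have h1 : (0 : ℤ) ≤ (2 * (N1 + L) + 1) := by positivity
    rw [abs_of_nonneg (by positivity)]
    push_cast
    have := mul_le_mul_of_nonneg_left p2.le h1
    linarith
  · intro r r' h0 h1 h0' h1' hne
    have e1 : r % (M : ℤ) = r := Int.emod_eq_of_lt h0 h1
    have e2 : r' % (M : ℤ) = r' := Int.emod_eq_of_lt h0' h1'
    rw [e1, e2, ← mul_sub, abs_mul, abs_of_pos (by positivity)]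
    have h3 : 1 ≤ |r - r'| := Int.one_le_abs (sub_ne_zero.2 hne)
    have h1 : (0 : ℤ) ≤ (2 * (N1 + L) + 1) := by positivity
    have := mul_le_mul_of_nonneg_left h3 h1
    linarith

/-- the ruler: marks `c j`, `j < K` -/
theorem exists_ruler2 (K M D : ℕ) (hM : 2 ^ (K + 1) ≤ M) (ms : Finset ℤ)
    (hms : ∀ m ∈ ms, (2 : ℤ) ^ (K + 2) + 1 ≤ m) :
    ∃ (L : ℕ) (c : ℕ → ℕ), (∀ i j, i < j → c i < c j) ∧ (∀ j < K, c j ≤ L) ∧
      ∀ (P : Par) (mi : ℕ → ℤ) (r : ℕ), P.M = M → P.L = L → (∀ i < r, mi i ∈ ms) →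
        Ruler2 P D mi r ((Finset.range K).image (fun j => (c j : ℤ))) := by
  classical
  have hM0 : (0 : ℤ) < M := by
    have h1 : 0 < 2 ^ (K + 1) := by positivity
    have h2 : 0 < M := lt_of_lt_of_le h1 hM
    exact_mod_cast h2
  have hms0 : ∀ m ∈ ms, 0 < m := by
    intro m hm
    have := hms m hm
    have h1 : (0 : ℤ) < 2 ^ (K + 2) := by positivity
    linarith
  have hMz : (2 : ℤ) ^ (K + 1) ≤ M := by exact_mod_cast hM
  obtain ⟨k0, hk0, hres, hk1, hk2⟩ := Crest.Agent.R320.Ruler265.exists_K M hM0 ms hms0 (2 * D)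
  obtain ⟨k, rfl⟩ := Int.eq_ofNat_of_zero_le hk0.le
  have hkpos : 0 < k := by exact_mod_cast hk0
  have hmark : ∀ j, ((2 ^ j * k : ℕ) : ℤ) = Crest.Agent.R320.Ruler265.mark (k : ℤ) j := by
    intro j; unfold Crest.Agent.R320.Ruler265.mark; push_cast; ring
  refine ⟨2 ^ K * k, fun j => 2 ^ j * k, ?_, ?_, ?_⟩
  · intro i j hij
    exact Nat.mul_lt_mul_of_pos_right (Nat.pow_lt_pow_right (by norm_num) hij) hkpos
  · intro j hj
    exact Nat.mul_le_mul_right _ (Nat.pow_le_pow_right (by norm_num) hj.le)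
  · intro P mi r hPM hPL hmi
    have hmem : ∀ c, c ∈ (Finset.range K).image (fun j => ((2 ^ j * k : ℕ) : ℤ)) →
        ∃ j < K, c = Crest.Agent.R320.Ruler265.mark (k : ℤ) j := by
      intro c hc
      obtain ⟨j, hj, rfl⟩ := Finset.mem_image.1 hc
      exact ⟨j, Finset.mem_range.1 hj, hmark j⟩
    refine ⟨⟨?_, ?_, ?_⟩, ?_, ?_⟩
    · intro c hc c' hc'
      obtain ⟨j, hj, rfl⟩ := hmem c hc
      obtain ⟨j', hj', rfl⟩ := hmem c' hc'
      rw [hPL]
      have h1 := Crest.Agent.R320.Ruler265.diff_lt hj hj'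
      have e : Crest.Agent.R320.Ruler265.mark (k : ℤ) j - Crest.Agent.R320.Ruler265.mark (k : ℤ) j'
          = ((2 : ℤ) ^ j - 2 ^ j') * k := by unfold Crest.Agent.R320.Ruler265.mark; ring
      rw [e, abs_mul, abs_of_pos hk0]
      push_cast
      exact mul_le_mul_of_nonneg_right h1.le hk0.le
    · intro c hc c' hc' hne
      obtain ⟨j, hj, rfl⟩ := hmem c hc
      obtain ⟨j', hj', rfl⟩ := hmem c' hc'
      rw [hPM]
      exact Crest.Agent.R320.Ruler265.modM'_ne hMz hk1 hj hj' (fun h => hne (by rw [h]))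
    · intro c₁ h1 c₂ h2 c₃ h3 c₄ h4 hne hne' hd
      obtain ⟨a, ha, rfl⟩ := hmem c₁ h1
      obtain ⟨b, hb, rfl⟩ := hmem c₂ h2
      obtain ⟨c, hc, rfl⟩ := hmem c₃ h3
      obtain ⟨d, hd', rfl⟩ := hmem c₄ h4
      rw [hPM] at hd
      obtain ⟨r1, r2⟩ := Crest.Agent.R320.Ruler265.modM' hMz hk1 ha hb hc hd'
        (fun h => hne (by rw [h])) hd
      exact ⟨by rw [r1], by rw [r2]⟩
    · intro c₁ h1 c₂ h2 c₃ h3 c₄ h4 hne hne' hd
      obtain ⟨a, ha, rfl⟩ := hmem c₁ h1
      obtain ⟨b, hb, rfl⟩ := hmem c₂ h2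
      obtain ⟨c, hc, rfl⟩ := hmem c₃ h3
      obtain ⟨d, hd', rfl⟩ := hmem c₄ h4
      have hab : a ≠ b := fun h => hne (by rw [h])
      obtain ⟨r1, r2⟩ := Crest.Agent.R320.Ruler265.intervalRes (Res := 2 * (D : ℤ)) hres hk0
        (a := a) (b := b) hab (c := c) (d := d)
        (y := Crest.Agent.R320.Ruler265.mark (k : ℤ) a - Crest.Agent.R320.Ruler265.mark (k : ℤ) b)
        (by simp) hd
      exact ⟨by rw [r1], by rw [r2]⟩
    · intro i hi c₁ h1 c₂ h2 c₃ h3 c₄ h4 hne hne' t hd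
      obtain ⟨a, ha, rfl⟩ := hmem c₁ h1
      obtain ⟨b, hb, rfl⟩ := hmem c₂ h2
      obtain ⟨c, hc, rfl⟩ := hmem c₃ h3
      obtain ⟨d, hd', rfl⟩ := hmem c₄ h4
      rw [hPM] at hd
      set x1 := Crest.Agent.R320.Ruler265.mark (k : ℤ) a -
        Crest.Agent.R320.Ruler265.mark (k : ℤ) b with hx1
      set x2 := Crest.Agent.R320.Ruler265.mark (k : ℤ) c -
        Crest.Agent.R320.Ruler265.mark (k : ℤ) d with hx2
      have hmi' := hms _ (hmi i hi)
      have hmi0 : 0 < mi i := hms0 _ (hmi i hi)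
      have hmM : (M : ℤ) ≤ mi i * M := by nlinarith
      have hab := abs_lt.1 hd
      have key : ∃ y, (y - x1) % (mi i * M) < M ∧ (y - x2) % (mi i * M) < M := by
        rcases le_or_gt 0 (x1 - x2 - t * (mi i * M)) with h0 | h0
        · refine ⟨x1, by simpa using hM0, ?_⟩
          have e : x1 - x2 = (x1 - x2 - t * (mi i * M)) + t * (mi i * M) := by ring
          rw [e, Int.add_mul_emod_self_right, Int.emod_eq_of_lt h0 (by linarith [hab.2])]
          exact hab.2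
        · refine ⟨x2, ?_, by simpa using hM0⟩
          have e : x2 - x1 = -(x1 - x2 - t * (mi i * M)) + (-t) * (mi i * M) := by ring
          rw [e, Int.add_mul_emod_self_right,
            Int.emod_eq_of_lt (by linarith) (by linarith [hab.1])]
          linarith [hab.1]
      obtain ⟨y, hy1, hy2⟩ := key
      obtain ⟨r1, r2⟩ := Crest.Agent.R320.Ruler265.modm hMz hmi' (hk2 _ (hmi i hi)) ha hb hc hd'
        (fun h => hne (by rw [h])) hy1 hy2
      exact ⟨by rw [r1], by rw [r2]⟩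

end Crest.Agent.R320.Data604
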