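import Crest.Agent.R320.Two_621
import Crest.Agent.R320.Hk2_851

/-!
# Row 320: reduction of the row to the combinatorial data of two nested wall schemes (helper621)
-/

set_option autoImplicit false

namespace Crest.Agent.R320.Main_621

open Crest.Agent.R320.Hk_851 Crest.Agent.R320.Star_621 Crest.Agent.R320.Two_621
open Crest.RegLang

universe u

variable {α : Type u}

/-- the combinatorial data: zones `Z`, critical zones `Zc`, outer scheme `dA LA RA` sound on all
zones and complete off `Zc`, inner scheme `dB LB RB` sound and complete on `Zc`. -/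
def Data {S : Type u} [Monoid S] (ph : List α → S) : Prop :=
  ∃ (Z Zc : Language α) (dA : List α → Tok S) (LA RA : Tok S → Language α)
    (dB : List α → Tok (Function.End (Option (Tok S)))ᵐᵒᵖ)
    (LB RB : Tok (Function.End (Option (Tok S)))ᵐᵒᵖ → Language α),
    Code Z ∧ (∀ z ∈ Zc, z ∈ Z) ∧ HL 1 Z ∧ HL 1 Zc ∧
    Sound Z (aff ph dA) LA RA ∧ (∀ v, HL 1 (LA v)) ∧ (∀ v, HL 1 (RA v)) ∧
    (∀ z ∈ Z, z ∉ Zc → ∀ v, Cut LA RA v z) ∧
    Sound Zc (aff (stepA (aff ph dA) LA RA) dB) LB RB ∧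
    (∀ v, HL 1 (LB v)) ∧ (∀ v, HL 1 (RB v)) ∧
    (∀ z ∈ Zc, ∀ v, Cut LB RB v z) ∧
    (∀ s : S, HL 3 ({w | (∀ z ∈ Z, ¬ z <+: w) ∧ ph w = s} : Language α))

theorem split {S : Type u} [Monoid S] (ph : List α → S) {Z : Language α}
    (h0 : [] ∉ Z) (h1 : ph [] = 1) (hm : ∀ a b, ph (a ++ b) = ph a * ph b) :
    ∀ w : List α, ∃ a b t, a ++ b = w ∧ TP Z ph a t ∧ ph a = t ∧ ∀ z ∈ Z, ¬ z <+: b := by
  intro w
  induction hn : w.length using Nat.strong_induction_on generalizing w with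
  | _ n ih =>
    by_cases hz : ∃ z ∈ Z, z <+: w
    · obtain ⟨z, hz, y, rfl⟩ := hz
      have hne : z ≠ [] := fun e => h0 (e ▸ hz)
      have hl : 0 < z.length := List.length_pos_iff.2 hne
      obtain ⟨a, b, t, rfl, ht, he, hb⟩ := ih y.length (by
        rw [← hn, List.length_append]; omega) y rfl
      exact ⟨z ++ a, b, ph z * t, by simp, TP.cons hz ht, by rw [hm, he], hb⟩
    · push Not at hz
      exact ⟨[], w, 1, rfl, TP.nil, h1, hz⟩

theorem TP.val {S : Type u} [Monoid S] {ph : List α → S} {Z : Language α}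
    (h1 : ph [] = 1) (hm : ∀ a b, ph (a ++ b) = ph a * ph b) {w : List α} {t : S}
    (h : TP Z ph w t) : ph w = t := by
  induction h with
  | nil => exact h1
  | cons _ _ ih => rw [hm, ih]

theorem of_data {S : Type u} [Monoid S] [Finite S] {ph : List α → S}
    (h1 : ph [] = 1) (hm : ∀ a b, ph (a ++ b) = ph a * ph b) (hD : Data ph) (s : S) :
    HL 3 ({w | ph w = s} : Language α) := by
  obtain ⟨Z, Zc, dA, LA, RA, dB, LB, RB, hC, hsub, hZ, hZc, hSA, hLA, hRA, hcomp, hSB, hLB,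
    hRB, hcut, hrest⟩ := hD
  have key := two_level ph hC hsub hZ hZc dA LA RA hSA hLA hRA hcomp dB LB RB hSB hLB hRB hcut
  refine (HL.iUnion fun p : {p : S × S // p.1 * p.2 = s} =>
    (key p.1.1).mul (hrest p.1.2)).congr fun w => ?_
  constructor
  · intro hw
    obtain ⟨a, b, t, rfl, ht, he, hb⟩ := split ph hC.1 h1 hm w
    refine ⟨⟨(ph a, ph b), ?_⟩, ?_⟩
    · rw [← hm]; exact hw
    · refine Language.mem_mul.2 ⟨a, ?_, b, ⟨hb, rfl⟩, rfl⟩
      show TP Z ph a (ph a)
      rw [he]; exact ht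
  · rintro ⟨⟨p, hp⟩, hw⟩
    obtain ⟨a, ha, b, ⟨-, hb⟩, rfl⟩ := Language.mem_mul.1 hw
    show ph (a ++ b) = s
    rw [hm, TP.val h1 hm ha, hb]; exact hp

/-- The row from the data. -/
theorem row [Finite α]
    (hD : ∀ (S : Type u) [Monoid S] [Finite S] (f : α → S),
      Data (fun w : List α => (w.map f).prod))
    (L : Language α) (hL : L.IsRegular) :
    ∃ e : GRegExp α, e.height ≤ 3 ∧ e.lang = L :=
  of_monoid (fun S _ _ f s => of_data (by simp) (by intro a b; simp) (hD S f) s) L hL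

end Crest.Agent.R320.Main_621
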