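import Crest.Agent.R320.FewVal_228
import Crest.Agent.R320.Main_621
import Crest.Agent.R320.Exact_808

/-!
# Row 320: from the grid gadget (helper693) to the data of `Main_621.row` -- part 1: zones
-/

set_option autoImplicit false

namespace Crest.Agent.R320.Data_881

open Crest.Agent.R320.Hk_851 Crest.Agent.R320.Star_621 Crest.Agent.R320.Two_621

universe u v

variable {α : Type u}

/-- left-looking wall property at the end of a word -/
structure Walls (Wo : List α → Prop) (n W : ℕ) : Prop where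
  len : ∀ Q, Wo Q → n ≤ Q.length
  loc : ∀ P Q, n ≤ Q.length → (Wo (P ++ Q) ↔ Wo Q)
  sep : ∀ (X : List α) (s t : ℕ), s < t → t ≤ X.length → Wo (X.take s) → Wo (X.take t) → s + W ≤ t

/-- `e` is the first wall of `X` at or after `z` -/
def Fw (Wo : List α → Prop) (X : List α) (z e : ℕ) : Prop :=
  z ≤ e ∧ e ≤ X.length ∧ Wo (X.take e) ∧ ∀ t, z ≤ t → t < e → ¬ Wo (X.take t)

theorem Fw.unique {Wo : List α → Prop} {X : List α} {z e e' : ℕ} (h : Fw Wo X z e)
    (h' : Fw Wo X z e') : e = e' := by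
  obtain ⟨a1, a2, a3, a4⟩ := h
  obtain ⟨b1, b2, b3, b4⟩ := h'
  rcases lt_trichotomy e e' with h | h | h
  · exact absurd a3 (b4 e a1 h)
  · exact h
  · exact absurd b3 (a4 e' b1 h)

theorem Fw.exists {Wo : List α → Prop} {X : List α} {z t : ℕ} (h1 : z ≤ t) (h2 : t ≤ X.length)
    (h3 : Wo (X.take t)) : ∃ e, e ≤ t ∧ Fw Wo X z e := by
  classical
  have hex : ∃ e, z ≤ e ∧ e ≤ X.length ∧ Wo (X.take e) := ⟨t, h1, h2, h3⟩
  refine ⟨Nat.find hex, Nat.find_min' hex ⟨h1, h2, h3⟩, ?_⟩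
  obtain ⟨a, b, c⟩ := Nat.find_spec hex
  refine ⟨a, b, c, fun s hs hlt hW => ?_⟩
  exact Nat.find_min hex hlt ⟨hs, by omega, hW⟩

/-- walls of a prefix -/
theorem Fw.of_prefix {Wo : List α → Prop} {X Y : List α} {z e : ℕ} (h : Fw Wo X z e)
    : Fw Wo (X ++ Y) z e := by
  obtain ⟨a1, a2, a3, a4⟩ := h
  refine ⟨a1, by rw [List.length_append]; omega, ?_, fun t h1 h2 h3 => a4 t h1 h2 ?_⟩
  · rwa [List.take_append_of_le_length a2]
  · rwa [List.take_append_of_le_length (by omega)] at h3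

theorem Fw.to_prefix {Wo : List α → Prop} {X Y : List α} {z e : ℕ} (h : Fw Wo (X ++ Y) z e)
    (he : e ≤ X.length) : Fw Wo X z e := by
  obtain ⟨a1, a2, a3, a4⟩ := h
  refine ⟨a1, he, ?_, fun t h1 h2 h3 => a4 t h1 h2 ?_⟩
  · rwa [List.take_append_of_le_length he] at a3
  · rwa [List.take_append_of_le_length (by omega)]

/-- the zones: `[a, N⁺(a))`, `N(a)` the first wall at or after `z`, `N⁺(a)` the first wall at or
after `N(a) + g` -/
def ZZ (Wo : List α → Prop) (z g : ℕ) : Language α :=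
  {X | ∃ e, e < X.length ∧ Fw Wo X z e ∧ Fw Wo X (e + g) X.length}

theorem ZZ_eq {Wo : List α → Prop} {z g : ℕ} {X X' x x' : List α} (h : X ∈ ZZ Wo z g)
    (h' : X' ∈ ZZ Wo z g) (he : X ++ x = X' ++ x') : X = X' := by
  obtain ⟨e, h1, h2, h3⟩ := h
  obtain ⟨e', h1', h2', h3'⟩ := h'
  have a := (h2.of_prefix (Y := x))
  rw [he] at a
  have b := (h2'.of_prefix (Y := x'))
  have ee := a.unique b
  subst ee
  have a := (h3.of_prefix (Y := x))
  rw [he] at a
  have b := (h3'.of_prefix (Y := x'))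
  have ll := a.unique b
  exact List.append_inj_left he ll

theorem ZZ_code {Wo : List α → Prop} {z g : ℕ} : Code (ZZ Wo z g) := by
  refine ⟨?_, fun X X' x x' h h' he => ZZ_eq h h' he⟩
  rintro ⟨e, h, -⟩
  simp at h

/-- walls behind a prefix -/
theorem Walls.shift {Wo : List α → Prop} {n W : ℕ} (hW : Walls Wo n W) {P Q : List α} {t : ℕ}
    (ht : n ≤ t) (htQ : t ≤ Q.length) : Wo ((P ++ Q).take (P.length + t)) ↔ Wo (Q.take t) := by
  rw [List.take_length_add_append]
  exact hW.loc _ _ (by rw [List.length_take]; omega)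

theorem Walls.ge {Wo : List α → Prop} {n W : ℕ} (hW : Walls Wo n W) {Q : List α} {t : ℕ}
    (h : Wo (Q.take t)) : n ≤ t := by
  have := hW.len _ h
  rw [List.length_take] at this
  omega

/-- first wall behind a prefix -/
theorem Fw.shift {Wo : List α → Prop} {n W : ℕ} (hW : Walls Wo n W) {P Q : List α} {y e : ℕ}
    (hy : n ≤ y) : Fw Wo (P ++ Q) (P.length + y) (P.length + e) ↔ Fw Wo Q y e := by
  constructor
  · rintro ⟨a1, a2, a3, a4⟩
    rw [List.length_append] at a2
    refine ⟨by omega, by omega, (hW.shift (by omega) (by omega)).1 a3, fun t h1 h2 h3 => ?_⟩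
    exact a4 (P.length + t) (by omega) (by omega) ((hW.shift (by omega) (by omega)).2 h3)
  · rintro ⟨a1, a2, a3, a4⟩
    refine ⟨by omega, by rw [List.length_append]; omega, (hW.shift (by omega) (by omega)).2 a3,
      fun t h1 h2 h3 => ?_⟩
    obtain ⟨s, rfl⟩ := Nat.exists_eq_add_of_le (show P.length ≤ t by omega)
    exact a4 s (by omega) (by omega) ((hW.shift (by omega) (by omega)).1 h3)

theorem Fw.shift' {Wo : List α → Prop} {n W : ℕ} (hW : Walls Wo n W) {P Q : List α} {y e : ℕ}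
    (hy : P.length + n ≤ y) (h : Fw Wo (P ++ Q) y e) :
    ∃ e', e = P.length + e' ∧ Fw Wo Q (y - P.length) e' := by
  obtain ⟨y', rfl⟩ := Nat.exists_eq_add_of_le (show P.length ≤ y by omega)
  obtain ⟨e', rfl⟩ := Nat.exists_eq_add_of_le (show P.length ≤ e from by have := h.1; omega)
  refine ⟨e', rfl, ?_⟩
  rw [Nat.add_sub_cancel_left]
  exact (Fw.shift hW (by omega)).1 h

end Crest.Agent.R320.Data_881
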