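import Crest.Agent.R320.Data1_222

/-!
Row 320 (helper222): concrete instance of `Main_621.Data`, part 2: scheme B (exact gadget of helper237)
-/

set_option autoImplicit false

namespace Crest.Agent.R320.Data_222

open Crest.Agent.R320.Hk_851 Crest.Agent.R320.Star_621 Crest.Agent.R320.Two_621
  Crest.Agent.R320.Main_621 Crest.Agent.R320.FewWalls_228

variable {α : Type} {C : Cf α} {S : Type} [Monoid S]

abbrev MB (S : Type) [Monoid S] : Type := (Function.End (Option (Tok S)))ᵐᵒᵖ

/-- letter map of scheme B -/
def gam (f : α → S) (a : α) : MB S := MulOpposite.op fun o => o.map fun v => act v (f a)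

theorem gam_prod (f : α → S) (w : List α) (o : Option (Tok S)) :
    (w.map (gam f)).prod.unop o = o.map (fun v => act v (ph f w)) := by
  induction w generalizing o with
  | nil =>
    have : (fun v : Tok S => act v (ph f ([] : List α))) = id := by
      funext v
      show act v (1 : S) = v
      exact act_one v
    rw [this, Option.map_id]
    rfl
  | cons a w ih =>
    have e : ((a :: w).map (gam f)).prod = gam f a * (w.map (gam f)).prod := by simp
    rw [e, MulOpposite.unop_mul]
    show (w.map (gam f)).prod.unop ((gam f a).unop o) = _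
    rw [ih]
    show Option.map _ (Option.map _ o) = _
    rw [Option.map_map]
    congr 1
    funext v
    show act (act v (f a)) (ph f w) = act v (ph f (a :: w))
    rw [act_mul]
    rfl

variable (f : α → S) (lam rho : List α → Option (Tok S)) (nu : List α → Tok S)

/-- a cut of scheme A in the part `Y` right of `a + p` -/
def CutY (C : Cf α) (u : Tok S) (Y : List α) : Prop :=
  ∃ P Q τ, Y = P ++ Q ∧ lam P = some u ∧ Q ∈ RA f rho C τ

noncomputable def dY (C : Cf α) (Y : List α) : Tok S :=
  act (nu (Y.take (tX C C.p Y))) (ph f (Y.drop (tX C C.p Y)))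

open Classical in
noncomputable def hY (C : Cf α) (Y : List α) : MB S :=
  MulOpposite.op fun o => o.bind fun u =>
    if CutY f lam rho C u Y then none else some (act u (ph f Y) + dY f nu C Y)

theorem cut_iff {X : List α} (hX : C.p ≤ X.length) (v : Tok S) :
    Cut (LA f lam C) (RA f rho C) v X ↔
      CutY f lam rho C (act v (ph f (X.take C.p))) (X.drop C.p) := by
  have hp1 : (X.take C.p).length = C.p := by rw [List.length_take]; omega
  constructor
  · rintro ⟨P, Q, τ, rfl, hP, hQ⟩
    obtain ⟨h1, h2⟩ := hP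
    refine ⟨P.drop C.p, Q, τ, ?_, ?_, hQ⟩
    · rw [List.drop_append_of_le_length h1]
    · rw [List.take_append_of_le_length h1]
      exact h2
  · rintro ⟨P, Q, τ, e, hP, hQ⟩
    refine ⟨X.take C.p ++ P, Q, τ, ?_, ?_, hQ⟩
    · rw [List.append_assoc, ← e, List.take_append_drop]
    · refine ⟨by rw [List.length_append, hp1]; omega, ?_⟩
      have e1 : (X.take C.p ++ P).drop C.p = P := by
        have := List.drop_left (l₁ := X.take C.p) (l₂ := P)
        rwa [hp1] at this
      have e2 : (X.take C.p ++ P).take C.p = X.take C.p := by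
        have := List.take_left (l₁ := X.take C.p) (l₂ := P)
        rwa [hp1] at this
      rw [e1, e2]
      exact hP

theorem dA_eq {X : List α} (hX : Blk C 0 X) : dA f nu C X = dY f nu C (X.drop C.p) := by
  obtain ⟨t, h1, -⟩ := hX
  have hz := C.hz
  have hq := C.hq
  have ht := h1.1
  have htl := h1.2.1.le
  have hp1 : (X.take C.p).length = C.p := by rw [List.length_take]; omega
  obtain ⟨t', rfl⟩ : ∃ t', t = C.p + t' := ⟨t - C.p, by omega⟩
  have h2 : Fst C C.p (X.drop C.p) t' := by
    have h3 : Fst C 0 (X.take C.p ++ X.drop C.p) ((X.take C.p).length + t') := by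
      rw [List.take_append_drop, hp1]; exact h1
    have h4 := (fst_right (by rw [hp1]; omega)).1 h3
    rwa [hp1, Nat.zero_add] at h4
  unfold dA dY
  rw [tX_eq h1, tX_eq h2, List.drop_take, List.drop_drop, Nat.add_sub_cancel_left]

theorem th_eq {X : List α} (hX : Blk C 0 X) :
    stepA (aff (ph f) (dA f nu C)) (LA f lam C) (RA f rho C) X =
      ((X.take C.p).map (gam f)).prod * hY f lam rho nu C (X.drop C.p) := by
  classical
  have hlen := blk_len hX
  have hz := C.hz
  apply MulOpposite.unop_injective
  rw [MulOpposite.unop_mul]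
  funext o
  show _ = (hY f lam rho nu C (X.drop C.p)).unop (((X.take C.p).map (gam f)).prod.unop o)
  rw [gam_prod]
  cases o with
  | none => rfl
  | some v =>
    show (if Cut (LA f lam C) (RA f rho C) v X then none
        else some (aff (ph f) (dA f nu C) X v)) =
      (if CutY f lam rho C (act v (ph f (X.take C.p))) (X.drop C.p) then none
        else some (act (act v (ph f (X.take C.p))) (ph f (X.drop C.p)) +
          dY f nu C (X.drop C.p)))
    have hc := cut_iff (C := C) f lam rho (X := X) (by omega) v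
    by_cases h : Cut (LA f lam C) (RA f rho C) v X
    · rw [if_pos h, if_pos (hc.1 h)]
    · rw [if_neg h, if_neg (fun h' => h (hc.2 h'))]
      congr 1
      unfold aff
      rw [dA_eq f nu hX, act_mul, ← ph_app, List.take_append_drop]

/-- the ruler and the exact gadget -/
structure GB (C : Cf α) (f : α → S) where
  K : ℕ
  c : ℕ → ℕ
  R0 : ℕ
  lamB : ℕ → List α → Option (Tok (MB S))
  rhoB : ℕ → List α → MB S → Option (Tok (MB S))
  nuB : List α → MB S → Tok (MB S)
  hc0 : ∀ k < K, 0 < c k
  hcp : ∀ k < K, c k ≤ C.p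
  hpq : 2 * C.p ≤ C.q
  exact : ∀ k < K, ∀ (P Q : List α) (y : MB S) (v b : Tok (MB S)), P.length = c k →
    lamB k P = some v → rhoB k Q y = some b →
    b = act v (((P ++ Q).map (gam f)).prod * y) + nuB (P ++ Q) y
  complete : ∀ (u : List α) (y : MB S) (v : Tok (MB S)), (∀ k < K, c k ≤ u.length) →
    ∃ I : Finset ℕ, 3 * R0 + 2 ≤ I.card ∧ ∀ k ∈ I, k < K ∧ lamB k (u.take (c k)) = some v ∧
      (rhoB k (u.drop (c k)) y).isSome
  wide : ∀ i j i' j', i < K → j < K → i' < K → j' < K → i ≠ j → i' ≠ j' →
    c j + c i' < c j' + c i + 2 * C.N1 → c j' + c i < c j + c i' + 2 * C.N1 → i = i'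
  cnt : ∀ T, (∀ i < K, c i ≤ T) → ∃ J : Finset ℕ, J.card ≤ R0 ∧
    ∀ i < K, ∀ j < K, j ≠ i → C.BT (T + c j - c i) → i ∈ J

variable {f} (G : GB C f)

def LB (v : Tok (MB S)) : Language α :=
  {P | ∃ k < G.K, P.length = G.c k ∧ G.lamB k P = some v}

def RB (τ : Tok (MB S)) : Language α :=
  {Q | ∃ k < G.K, (∀ k' < G.K, BadC C (G.c k') Q → k' = k) ∧ BadC C (G.c k) Q ∧
    Blk C (G.c k) Q ∧
    G.rhoB k (Q.take (C.p - G.c k)) (hY f lam rho nu C (Q.drop (C.p - G.c k))) = some τ}

noncomputable def dB (X : List α) : Tok (MB S) :=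
  G.nuB (X.take C.p) (hY f lam rho nu C (X.drop C.p))

theorem B_sound : Sound (Zc C)
    (aff (stepA (aff (ph f) (dA f nu C)) (LA f lam C) (RA f rho C)) (dB lam rho nu G))
    (LB G) (RB lam rho nu G) := by
  constructor
  · rintro ω ⟨k, hk, h1, -⟩
    have := G.hc0 k hk
    rw [List.length_nil] at h1
    omega
  · intro ω τ P Q z x y hP hQ hz e
    obtain ⟨k0, hk0, hPl, hlam⟩ := hP
    obtain ⟨k, hk, huniq, hbad, hblk, hrho⟩ := hQ
    obtain ⟨hzZ, hzB⟩ := hz
    obtain ⟨t0, hF0, hN0⟩ := hzZ
    have hcz := C.hz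
    have hcq := C.hq
    have hcW := C.hW
    have hck := G.hcp k hk
    have hck0 := G.hcp k0 hk0
    have ht0 := hF0.1
    have ht0l := hF0.2.1.le
    -- `t0` is visible
    have hvis : t0 ≤ (P ++ Q).length := by
      by_contra hlt
      rw [List.length_append] at hlt
      obtain ⟨t, hF, hN⟩ := hblk
      have htk := hF.1
      have w1 : Pl C.n C.S (P ++ Q) (P.length + t) := (pl_right (by omega)).2 hF.2.1
      have w2 : Pl C.n C.S (P ++ Q) (P.length + Q.length) :=
        (pl_right (by have := hN.1; omega)).2 hN.2.1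
      have h3 := C.pgap (by have := hN.1; omega : P.length + t < P.length + Q.length) w1 w2
      have w3 : Pl C.n C.S z (P.length + Q.length) := by
        have : Pl C.n C.S (P ++ Q ++ x) (P.length + Q.length) :=
          (pl_left (by rw [List.length_append])).2 w2
        rw [e] at this
        exact (pl_left (by omega)).1 this
      exact hF0.2.2 _ (by omega) (by omega) w3
    have hF1 : Fst C 0 (P ++ Q) t0 := by
      have : Fst C 0 (P ++ Q ++ x) t0 := by rw [e]; exact (fst_left ht0l).2 hF0
      exact (fst_left hvis).1 this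
    have hB1 : BadC C 0 (P ++ Q) := by
      obtain ⟨t1, hF, hor⟩ := hzB
      have := hF.unique hF0
      subst this
      refine ⟨t1, hF1, ?_⟩
      rcases hor with ⟨s, hs1, hs2, hs3⟩ | h
      · left
        have hst : s ≤ t1 := by
          by_contra hlt
          have := C.pgap (by omega : t1 < s) hF.2.1 hs1
          omega
        refine ⟨s, ?_, hs2, hs3⟩
        have : Pl C.n C.S (P ++ Q ++ x) s := by rw [e]; exact (pl_left (by omega)).2 hs1
        exact (pl_left (by omega)).1 this
      · right; exact h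
    have hB2 : BadC C (G.c k0) Q := by
      have := (badC_right (by omega)).1 hB1
      rwa [Nat.zero_add, hPl] at this
    have hkk := huniq k0 hk0 hB2
    subst hkk
    have hZ : P ++ Q ∈ Z C := by
      show Blk C 0 (P ++ Q)
      rw [blk_right (by omega), Nat.zero_add, hPl]
      exact hblk
    have hzz : P ++ Q = z := code.2 _ _ x y hZ ⟨t0, hF0, hN0⟩ e
    refine ⟨hzz, ?_⟩
    have hex := G.exact k0 hk0 P (Q.take (C.p - G.c k0)) _ ω τ hPl hlam hrho
    rw [← hzz]
    unfold aff dB
    rw [show stepA (fun z f_1 => act f_1 (ph f z) + dA f nu C z) (LA f lam C) (RA f rho C)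
      (P ++ Q) = _ from th_eq f lam rho nu (X := P ++ Q) hZ]
    have e1 : (P ++ Q).take C.p = P ++ Q.take (C.p - G.c k0) := by
      rw [List.take_append, List.take_of_length_le (by omega), hPl]
    have e2 : (P ++ Q).drop C.p = Q.drop (C.p - G.c k0) := by
      rw [List.drop_append, List.drop_eq_nil_of_le (by omega), List.nil_append, hPl]
    rw [e1, e2]
    exact hex

/-- at most `3 R0 + 1` places are spoiled -/
theorem spoil {X : List α} (hX : Blk C 0 X) :
    ∃ J : Finset ℕ, J.card ≤ 3 * G.R0 + 1 ∧ ∀ k < G.K, ∀ k' < G.K, k' ≠ k →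
      BadC C (G.c k') (X.drop (G.c k)) → k ∈ J := by
  classical
  obtain ⟨t0, hF0, hN0⟩ := hX
  have hcz := C.hz
  have hcq := C.hq
  have hcW := C.hW
  have hpq := G.hpq
  have ht0 := hF0.1
  have ht0l := hF0.2.1.le
  -- the wall shortly before `z`
  obtain ⟨s1, hs1, hs2⟩ : ∃ s1, C.z ≤ s1 + C.p ∧
      ∀ s, Pl C.n C.S X s → C.z ≤ s + C.p → s < C.z → s = s1 := by
    by_cases h : ∃ s, Pl C.n C.S X s ∧ C.z ≤ s + C.p ∧ s < C.z
    · obtain ⟨s, a, b, c⟩ := h
      refine ⟨s, b, fun s' a' b' c' => ?_⟩
      rcases lt_trichotomy s s' with hl | hl | hl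
      · have := C.pgap hl a a'; omega
      · exact hl.symm
      · have := C.pgap hl a' a; omega
    · exact ⟨C.z, by omega, fun s a b c => absurd ⟨s, a, b, c⟩ h⟩
  have hcT : ∀ s, C.z ≤ s + C.p → ∀ i < G.K, G.c i ≤ s - C.p := by
    intro s hs i hi
    have := G.hcp i hi
    omega
  obtain ⟨J1, hJ1, hJ1'⟩ := G.cnt (s1 - C.p) (hcT s1 hs1)
  obtain ⟨J2, hJ2, hJ2'⟩ := G.cnt (t0 - C.p) (hcT t0 (by omega))
  obtain ⟨J3, hJ3, hJ3'⟩ := G.cnt (X.length - C.p) (hcT X.length (by omega))
  let J0 : Finset ℕ := (Finset.range G.K).filter fun k =>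
    ∃ k' < G.K, k' ≠ k ∧ EE C (G.c k') (X.drop (G.c k))
  have hJ0 : J0.card ≤ 1 := by
    rw [Finset.card_le_one]
    intro a ha b hb
    rw [Finset.mem_filter, Finset.mem_range] at ha hb
    obtain ⟨ha, a', ha', hne, sa, pa, qa, ra⟩ := ha
    obtain ⟨hb, b', hb', hne', sb, pb, qb, rb⟩ := hb
    have c1 := G.hcp a ha
    have c2 := G.hcp b hb
    have c3 := G.hcp a' ha'
    have c4 := G.hcp b' hb'
    have la : (X.take (G.c a)).length = G.c a := by rw [List.length_take]; omega
    have lb : (X.take (G.c b)).length = G.c b := by rw [List.length_take]; omega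
    have wa : Pl C.n C.S X (G.c a + sa) := by
      have := (pl_right (P := X.take (G.c a)) (by omega : C.n ≤ sa)).2 pa
      rwa [List.take_append_drop, la] at this
    have wb : Pl C.n C.S X (G.c b + sb) := by
      have := (pl_right (P := X.take (G.c b)) (by omega : C.n ≤ sb)).2 pb
      rwa [List.take_append_drop, lb] at this
    have hs : G.c a + sa = G.c b + sb := by
      rcases lt_trichotomy (G.c a + sa) (G.c b + sb) with hl | hl | hl
      · have := C.pgap hl wa wb; omega
      · exact hl
      · have := C.pgap hl wb wa; omega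
    exact G.wide a a' b b' ha ha' hb hb' hne.symm hne'.symm (by omega) (by omega)
  refine ⟨J0 ∪ (J1 ∪ (J2 ∪ J3)), ?_, ?_⟩
  · have h1 := Finset.card_union_le J0 (J1 ∪ (J2 ∪ J3))
    have h2 := Finset.card_union_le J1 (J2 ∪ J3)
    have h3 := Finset.card_union_le J2 J3
    omega
  · intro k hk k' hk' hne hbad
    obtain ⟨t, hF, hor⟩ := hbad
    have c1 := G.hcp k hk
    have c2 := G.hcp k' hk'
    have la : (X.take (G.c k)).length = G.c k := by rw [List.length_take]; omega
    rw [Finset.mem_union, Finset.mem_union, Finset.mem_union]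
    rcases hor with h | h
    · left
      rw [Finset.mem_filter, Finset.mem_range]
      exact ⟨hk, k', hk', hne, h⟩
    · right
      have htk := hF.1
      have wt : Pl C.n C.S X (G.c k + t) := by
        have := (pl_right (P := X.take (G.c k)) (by omega : C.n ≤ t)).2 hF.2.1
        rwa [List.take_append_drop, la] at this
      have hval : G.c k' + t - C.p = (G.c k + t - C.p) + G.c k' - G.c k := by omega
      rw [hval] at h
      by_cases hz1 : G.c k + t < C.z
      · left
        have := hs2 _ wt (by omega) hz1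
        rw [this] at h
        exact hJ1' k hk k' hk' hne h
      · right
        by_cases hz2 : G.c k + t ≤ t0
        · left
          have : G.c k + t = t0 := by
            by_contra hne2
            exact hF0.2.2 _ (by omega) (by omega) wt
          rw [this] at h
          exact hJ2' k hk k' hk' hne h
        · right
          have : G.c k + t = X.length := by
            by_contra hne2
            have := wt.le
            exact hN0.2.2 _ (by omega) (by omega) wt
          rw [this] at h
          exact hJ3' k hk k' hk' hne h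

theorem B_complete {z : List α} (hz : z ∈ Zc C) (v : Tok (MB S)) :
    Cut (LB G) (RB lam rho nu G) v z := by
  classical
  obtain ⟨hzZ, hzB⟩ := hz
  obtain ⟨J, hJ, hJ'⟩ := spoil G hzZ
  have hlen := blk_len hzZ
  have hcz := C.hz
  have hcq := C.hq
  have hu : (z.take C.p).length = C.p := by rw [List.length_take]; omega
  obtain ⟨I, hI, hI'⟩ := G.complete (z.take C.p) (hY f lam rho nu C (z.drop C.p)) v
    (fun k hk => by rw [hu]; exact G.hcp k hk)
  obtain ⟨k, hkI, hkJ⟩ : ∃ k ∈ I, k ∉ J := by
    by_contra hcon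
    push Not at hcon
    have := Finset.card_le_card (show I ⊆ J from hcon)
    omega
  obtain ⟨hk, hl, hr⟩ := hI' k hkI
  obtain ⟨τ, hr⟩ := Option.isSome_iff_exists.1 hr
  have hck := G.hcp k hk
  have hPl : (z.take (G.c k)).length = G.c k := by rw [List.length_take]; omega
  have e0 : z.take (G.c k) ++ z.drop (G.c k) = z := List.take_append_drop _ _
  refine ⟨z.take (G.c k), z.drop (G.c k), τ, e0.symm, ?_, ?_⟩
  · refine ⟨k, hk, hPl, ?_⟩
    rwa [List.take_take, min_eq_left hck] at hl
  · refine ⟨k, hk, ?_, ?_, ?_, ?_⟩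
    · intro k' hk' hb
      by_contra hne
      exact hkJ (hJ' k hk k' hk' hne hb)
    · have := (badC_right (C := C) (κ := 0) (P := z.take (G.c k)) (Q := z.drop (G.c k))
        (by omega)).1 (by rw [e0]; exact hzB)
      rwa [Nat.zero_add, hPl] at this
    · have := (blk_right (C := C) (κ := 0) (P := z.take (G.c k)) (Q := z.drop (G.c k))
        (by omega)).1 (by rw [e0]; exact hzZ)
      rwa [Nat.zero_add, hPl] at this
    · have e1 : (z.drop (G.c k)).take (C.p - G.c k) = (z.take C.p).drop (G.c k) := by
        rw [List.drop_take]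
      have e2 : (z.drop (G.c k)).drop (C.p - G.c k) = z.drop C.p := by
        rw [List.drop_drop]; congr 1; omega
      rw [e1, e2]
      exact hr

end Crest.Agent.R320.Data_222
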