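import Crest.Agent.R320.Data1_881

/-!
# Row 320: from the grid gadget (helper693) to the data of `Main_621.row` -- part 2: languages
-/

set_option autoImplicit false

namespace Crest.Agent.R320.Data_881

open Crest.Agent.R320.Hk_851 Crest.Agent.R320.Star_621 Crest.Agent.R320.Two_621
open Crest.Agent.R320.FewWalls_228

universe u v

variable {α : Type u}

/-- number of walls -/
noncomputable def cw (Wo : List α → Prop) (X : List α) : ℕ := by
  classical
  exact ((Finset.range (X.length + 1)).filter (fun t => Wo (X.take t))).card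

/-- language facts of the walls -/
structure WL (Wo : List α → Prop) : Prop where
  hl : ∀ k, HL k ({X | Wo X} : Language α)
  few : ∀ (M : Type u) [Monoid M] [Finite M] (g : α → M) (s : M) (r : ℕ),
    HL 1 ({X | cw Wo X ≤ r ∧ (X.map g).prod = s} : Language α)

theorem HL.ex {ι : Type*} [Finite ι] {k : ℕ} {L : ι → List α → Prop}
    (h : ∀ i, HL k ({w | L i w} : Language α)) : HL k ({w | ∃ i, L i w} : Language α) :=
  (HL.iUnion (k := k) (L := fun i => ({w | L i w} : Language α)) h).congr fun w => Iff.rfl

theorem HL.all {ι : Type*} [Finite ι] {k : ℕ} {L : ι → List α → Prop}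
    (h : ∀ i, HL k ({w | L i w} : Language α)) : HL k ({w | ∀ i, L i w} : Language α) :=
  (HL.iInter (k := k) (L := fun i => ({w | L i w} : Language α)) h).congr fun w => Iff.rfl

theorem HL.exlt {k m : ℕ} {L : ℕ → List α → Prop}
    (h : ∀ i, i < m → HL k ({w | L i w} : Language α)) :
    HL k ({w | ∃ i, i < m ∧ L i w} : Language α) := by
  refine (HL.ex (L := fun (i : Fin m) w => L i w) fun i => h i i.2).congr fun w => ?_
  constructor
  · rintro ⟨i, hi, hw⟩; exact ⟨⟨i, hi⟩, hw⟩
  · rintro ⟨i, hw⟩; exact ⟨i, i.2, hw⟩

theorem HL.alllt {k m : ℕ} {L : ℕ → List α → Prop}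
    (h : ∀ i, i < m → HL k ({w | L i w} : Language α)) :
    HL k ({w | ∀ i, i < m → L i w} : Language α) := by
  refine (HL.all (L := fun (i : Fin m) w => L i w) fun i => h i i.2).congr fun w => ?_
  constructor
  · intro hw i; exact hw i i.2
  · intro hw i hi; exact hw ⟨i, hi⟩

theorem HL.cat {k : ℕ} {p q : List α → Prop} (hp : HL k ({w | p w} : Language α))
    (hq : HL k ({w | q w} : Language α)) :
    HL k ({w | ∃ a b, w = a ++ b ∧ p a ∧ q b} : Language α) := by
  refine (hp.mul hq).congr fun w => ?_
  constructor
  · rintro ⟨a, b, rfl, ha, hb⟩; exact Language.mem_mul.2 ⟨a, ha, b, hb, rfl⟩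
  · intro h; obtain ⟨a, ha, b, hb, rfl⟩ := Language.mem_mul.1 h; exact ⟨a, b, rfl, ha, hb⟩

/-- a condition on the first `t` letters -/
theorem HL.tk [Finite α] {k : ℕ} (t : ℕ) (p : List α → Prop) :
    HL k ({w | t ≤ w.length ∧ p (w.take t)} : Language α) := by
  have h1 : HL k ({w | w.length = t ∧ p w} : Language α) :=
    HL.finite ((List.finite_length_eq α t).subset fun v hv => hv.1)
  refine (HL.cat (q := fun _ => True) h1 HL.top).congr fun w => ?_
  constructor
  · rintro ⟨h1, h2⟩
    exact ⟨w.take t, w.drop t, (List.take_append_drop t w).symm,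
      ⟨by rw [List.length_take]; omega, h2⟩, trivial⟩
  · rintro ⟨a, b, rfl, ⟨ha, hp⟩, -⟩
    refine ⟨by rw [List.length_append]; omega, ?_⟩
    subst ha
    rwa [List.take_left]

/-- words of length `M` -/
def LM (α : Type u) (M : ℕ) : Language α := {w | w.length = M}

theorem HL.lenMod [Finite α] (M r : ℕ) :
    HL 1 ({w | w.length % M = r} : Language α) := by
  have h1 : HL 1 (KStar.kstar (LM α M)) := (HL.length_eq (k := 0) M).star
  by_cases hr : r < M
  · refine (HL.cat (p := fun w => w ∈ KStar.kstar (LM α M))
      (q := fun w => w.length = r) h1 (HL.length_eq r)).congr fun w => ?_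
    constructor
    · intro hw
      have key : ∀ (q : ℕ) (u : List α), u.length = M * q →
          u ∈ KStar.kstar (LM α M) := by
        intro q
        induction q with
        | zero =>
          intro u hu
          have : u = [] := List.length_eq_zero_iff.1 (by simpa using hu)
          subst this
          exact Language.nil_mem_kstar _
        | succ q ih =>
          intro u hu
          have e := List.take_append_drop M u
          have h2 := ih (u.drop M) (by rw [List.length_drop, hu, Nat.mul_succ]; omega)
          obtain ⟨L, hL, hL2⟩ := Language.mem_kstar.1 h2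
          refine Language.mem_kstar.2 ⟨u.take M :: L, by rw [List.flatten_cons, ← hL, e], ?_⟩
          intro y hy
          rcases List.mem_cons.1 hy with rfl | hy
          · show (u.take M).length = M
            rw [List.length_take, hu, Nat.mul_succ]; omega
          · exact hL2 y hy
      refine ⟨w.take (M * (w.length / M)), w.drop (M * (w.length / M)),
        (List.take_append_drop _ w).symm, key (w.length / M) _ ?_, ?_⟩
      · rw [List.length_take]
        exact min_eq_left (Nat.mul_div_le _ _)
      · rw [List.length_drop]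
        have := Nat.div_add_mod w.length M
        have hw' : w.length % M = r := hw
        omega
    · rintro ⟨a, b, rfl, ha, hb⟩
      obtain ⟨L, rfl, hL2⟩ := Language.mem_kstar.1 ha
      show (L.flatten ++ b).length % M = r
      have : M ∣ L.flatten.length := by
        clear ha
        induction L with
        | nil => simp
        | cons y L ih =>
          rw [List.flatten_cons, List.length_append]
          have h3 : y.length = M := hL2 y (by simp)
          rw [h3]
          exact (Nat.dvd_add_right (dvd_refl M)).2 (ih fun y hy => hL2 y (by simp [hy]))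
      obtain ⟨q, hq⟩ := this
      rw [List.length_append, hq, Nat.mul_add_mod, Nat.mod_eq_of_lt (by rw [hb]; exact hr), hb]
  · by_cases hM : M = 0
    · subst hM
      exact (HL.length_eq (k := 1) r).congr fun w => by
        show w.length % 0 = r ↔ w.length = r
        rw [Nat.mod_zero]
    · refine (HL.bot (k := 1) (α := α)).congr fun w => ?_
      constructor
      · intro hw
        exact absurd (show w.length % M = r from hw) (by
          have := Nat.mod_lt w.length (Nat.pos_of_ne_zero hM); omega)
      · intro hw; exact absurd hw (Set.notMem_empty w)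

section

variable {Wo : List α → Prop}

/-- words ending at their first wall at or after `y` -/
def FE (Wo : List α → Prop) (y : ℕ) (X : List α) : Prop := Fw Wo X y X.length

theorem HL.FE [Finite α] (hw : WL Wo) (y k : ℕ) : HL k ({X | FE Wo y X} : Language α) := by
  have h1 : HL k ({v | Wo v ∧ y ≤ v.length} : Language α) := (hw.hl k).setOf_and (HL.length_ge y)
  have h2 := HL.cat h1 (HL.length_ge (k := k) (α := α) 1)
  refine (h1.setOf_and h2.setOf_not).congr fun X => ?_
  constructor
  · rintro ⟨a1, -, a3, a4⟩
    rw [List.take_length] at a3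
    refine ⟨⟨a3, a1⟩, ?_⟩
    rintro ⟨a, b, rfl, ⟨b1, b2⟩, b3⟩
    refine a4 a.length b2 ?_ ?_
    · rw [List.length_append]; have : 1 ≤ b.length := b3; omega
    · rwa [List.take_left]
  · rintro ⟨⟨a1, a2⟩, a3⟩
    refine ⟨a2, le_refl _, by rwa [List.take_length], fun t h1 h2 h3 => a3 ?_⟩
    refine ⟨X.take t, X.drop t, (List.take_append_drop t X).symm, ⟨h3, ?_⟩, ?_⟩
    · rw [List.length_take]; omega
    · show 1 ≤ (X.drop t).length
      rw [List.length_drop]; omega

theorem FE.cw {n W y : ℕ} (hW : Walls Wo n W) {X : List α} (h : FE Wo y X) : cw Wo X ≤ y + 1 := by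
  classical
  unfold Data_881.cw
  have : (Finset.range (X.length + 1)).filter (fun t => Wo (X.take t)) ⊆
      Finset.range y ∪ {X.length} := by
    intro t ht
    rw [Finset.mem_filter, Finset.mem_range] at ht
    rw [Finset.mem_union, Finset.mem_range, Finset.mem_singleton]
    by_contra hc
    push Not at hc
    exact h.2.2.2 t hc.1 (by omega) ht.2
  refine (Finset.card_le_card this).trans ((Finset.card_union_le _ _).trans ?_)
  simp

/-- zones split into a first and a second part -/
theorem ZZ_split {n W z g : ℕ} (hW : Walls Wo n W) (hg : 0 < g) (hng : n ≤ g) {X : List α} :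
    X ∈ ZZ Wo z g ↔ ∃ a b, X = a ++ b ∧ FE Wo z a ∧ FE Wo g b := by
  constructor
  · rintro ⟨e, h1, h2, h3⟩
    have hl : (X.take e).length = e := by rw [List.length_take]; omega
    have hX := (List.take_append_drop e X)
    refine ⟨X.take e, X.drop e, hX.symm, ?_, ?_⟩
    · show Fw Wo (X.take e) z (X.take e).length
      rw [hl]
      refine Fw.to_prefix (Y := X.drop e) (by rwa [hX]) (by omega)
    · have hdl : (X.drop e).length = X.length - e := List.length_drop ..
      have h4 : Fw Wo (X.take e ++ X.drop e) ((X.take e).length + g)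
          ((X.take e).length + (X.drop e).length) := by
        rw [hX, hl]
        have e1 : e + (X.drop e).length = X.length := by omega
        rw [e1]
        exact h3
      exact (Fw.shift hW hng).1 h4
  · rintro ⟨a, b, rfl, ha, hb⟩
    have ha' : Fw Wo (a ++ b) z a.length := Fw.of_prefix ha
    have hb' := (Fw.shift (P := a) hW hng).2 hb
    refine ⟨a.length, ?_, ha', ?_⟩
    · have := hb.1
      rw [List.length_append]; omega
    · rw [List.length_append]; exact hb'

theorem HL.ZZ [Finite α] {n W z g : ℕ} (hW : Walls Wo n W) (hg : 0 < g) (hng : n ≤ g)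
    (hw : WL Wo) (k : ℕ) : HL k (ZZ Wo z g) :=
  (HL.cat (HL.FE hw z k) (HL.FE hw g k)).congr fun _ => ZZ_split hW hg hng

theorem cw_drop {n W : ℕ} (hW : Walls Wo n W) {P Q : List α} : cw Wo Q ≤ cw Wo (P ++ Q) := by
  classical
  unfold cw
  refine Finset.card_le_card_of_injOn (fun t => P.length + t) ?_ ?_
  · intro t ht
    rw [Finset.mem_coe, Finset.mem_filter, Finset.mem_range] at ht ⊢
    refine ⟨?_, (hW.shift (hW.ge ht.2) (by omega)).2 ht.2⟩
    show P.length + t < (P ++ Q).length + 1
    rw [List.length_append]; omega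
  · intro a _ b _ h
    simpa using h

theorem HL.fewS {S : Type u} [Monoid S] [Finite S] (hw : WL Wo) (f : α → S) {p : List α → Prop}
    (hp : HL 1 ({X | p X} : Language α)) (r : ℕ) (hr : ∀ X, p X → cw Wo X ≤ r) (s : S) :
    HL 1 ({X | p X ∧ (X.map f).prod = s} : Language α) := by
  refine (hp.setOf_and (hw.few S f s r)).congr fun X => ?_
  constructor
  · rintro ⟨a, b⟩; exact ⟨a, hr X a, b⟩
  · rintro ⟨a, b, c⟩; exact ⟨a, c⟩

/-- finite-state functions on words with few walls -/
theorem HL.fs [Finite α] {S : Type u} [Monoid S] [Finite S] {n W : ℕ} (hW : Walls Wo n W)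
    (hw : WL Wo) (f : α → S) {A Mp : ℕ} (hMp : 0 < Mp) {Y : Type*} (g : List α → Y)
    (hg : ∀ Q Q' : List α, A ≤ Q.length → A ≤ Q'.length → Q.take A = Q'.take A →
      Q.length % Mp = Q'.length % Mp → ((Q.drop A).map f).prod = ((Q'.drop A).map f).prod →
      g Q = g Q') {p : List α → Prop}
    (hp : HL 1 ({X | p X} : Language α)) (r : ℕ) (hr : ∀ X, p X → cw Wo X ≤ r)
    (hA : ∀ X, p X → A ≤ X.length) (y : Y) :
    HL 1 ({X | p X ∧ g X = y} : Language α) := by
  have : Finite {v : List α // v.length = A} := (List.finite_length_eq α A).to_subtype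
  have key : HL 1 ({X | ∃ v : {v : List α // v.length = A}, ∃ ρ : Fin Mp, ∃ s : S,
      (∃ Q : List α, A ≤ Q.length ∧ Q.take A = v ∧ Q.length % Mp = ρ ∧
        ((Q.drop A).map f).prod = s ∧ g Q = y) ∧
      ((∃ a b, X = a ++ b ∧ a = v ∧ (cw Wo b ≤ r ∧ (b.map f).prod = s)) ∧
        X.length % Mp = ρ)} : Language α) := by
    refine HL.ex fun v => HL.ex fun ρ => HL.ex fun s => (HL.const _).setOf_and
      ((HL.cat (p := fun a => a = v) ?_ (hw.few S f s r)).setOf_and (HL.lenMod Mp ρ))
    exact (HL.word (v : List α)).congr fun w => Iff.rfl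
  refine (hp.setOf_and key).congr fun X => ?_
  constructor
  · rintro ⟨h1, h2⟩
    have hXA := hA X h1
    refine ⟨h1, ⟨X.take A, by rw [List.length_take]; omega⟩, ⟨X.length % Mp, Nat.mod_lt _ hMp⟩,
      ((X.drop A).map f).prod, ⟨X, hXA, rfl, rfl, rfl, h2⟩,
      ⟨X.take A, X.drop A, (List.take_append_drop A X).symm, rfl, ?_, rfl⟩, rfl⟩
    refine le_trans ?_ (hr X h1)
    have := cw_drop hW (P := X.take A) (Q := X.drop A)
    rwa [List.take_append_drop] at this
  · rintro ⟨h1, v, ρ, s, ⟨Q, q1, q2, q3, q4, q5⟩, ⟨a, b, rfl, rfl, -, h3⟩, h4⟩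
    refine ⟨h1, ?_⟩
    rw [← q5]
    have hv : (v : List α).length = A := v.2
    have e1 : ((v : List α) ++ b).take A = v := by
      have := List.take_left (l₁ := (v : List α)) (l₂ := b)
      rwa [hv] at this
    have e2 : ((v : List α) ++ b).drop A = b := by
      have := List.drop_left (l₁ := (v : List α)) (l₂ := b)
      rwa [hv] at this
    refine hg _ _ (hA _ h1) q1 ?_ (h4.trans q3.symm) ?_
    · rw [q2, e1]
    · rw [q4, e2, h3]

end

end Crest.Agent.R320.Data_881
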