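import Crest.Agent.R320.Data2_881

/-!
# Row 320: from the grid gadget (helper693) to the data of `Main_621.row` -- part 3: scheme A
-/

set_option autoImplicit false

namespace Crest.Agent.R320.Data_881

open Crest.Agent.R320.Hk_851 Crest.Agent.R320.Star_621 Crest.Agent.R320.Two_621

universe u v

variable {α : Type u} {S : Type u} [Monoid S]

/-- value of a word -/
abbrev ph (f : α → S) (w : List α) : S := (w.map f).prod

theorem ph_app (f : α → S) (a b : List α) : ph f (a ++ b) = ph f a * ph f b := by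
  simp [ph]

open Classical in
/-- the gadget of scheme A with its ruler -/
structure Gad (f : α → S) (C0 K : ℕ) where
  N : ℕ
  A : ℕ
  Mp : ℕ
  hMp : 0 < Mp
  BadT : ℕ → Prop
  c : ℕ → ℕ
  mono : StrictMono c
  lam : List α → Option (Tok S)
  rho : List α → Option (Tok S)
  nu : List α → Tok S
  gol : ∀ j k j' k', j < K → k < K → j' < K → k' < K → j ≠ k → j' ≠ k' → (j, k) ≠ (j', k') →
    c j + c k' + 2 * N < c j' + c k ∨ c j' + c k + 2 * N < c j + c k'
  thin : ∀ T, (∀ k < K, c k ≤ T) → ((Finset.range K ×ˢ Finset.range K).filter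
    (fun p : ℕ × ℕ => p.1 ≠ p.2 ∧ BadT (T + c p.2 - c p.1))).card ≤ C0
  per : ∀ T, BadT (T + Mp) ↔ BadT T
  lamN : ∀ P v, lam P = some v → P.length ≤ N
  sound : ∀ P Q v r, lam P = some v → rho Q = some r → r = act v (ph f (P ++ Q)) + nu (P ++ Q)
  complete : ∀ u : List α, A ≤ u.length → ¬ BadT u.length → ∀ v, ∃ P Q, u = P ++ Q ∧
    lam P = some v ∧ (rho Q).isSome = true
  rhoF : ∀ Q Q' : List α, A ≤ Q.length → A ≤ Q'.length → Q.take A = Q'.take A →
    Q.length % Mp = Q'.length % Mp → ph f (Q.drop A) = ph f (Q'.drop A) → rho Q = rho Q'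
  nuF : ∀ Q Q' : List α, A ≤ Q.length → A ≤ Q'.length → Q.take A = Q'.take A →
    Q.length % Mp = Q'.length % Mp → ph f (Q.drop A) = ph f (Q'.drop A) → nu Q = nu Q'

/-- inequalities -/
structure Prm {f : α → S} {C0 K : ℕ} (G : Gad f C0 K) (n W p0 z g : ℕ) : Prop where
  hn : 0 < n
  p0pos : 0 < p0
  hc : ∀ k, k < K → G.c k ≤ p0
  hz : 3 * p0 + 2 * G.N + G.A + n + 1 ≤ z
  hWW : 4 * p0 + 4 * G.N + 1 ≤ W
  hg : 2 * p0 + 2 * G.N + n + 1 ≤ g

section

variable {f : α → S} {C0 K : ℕ} (G : Gad f C0 K) (Wo : List α → Prop) (n W p0 z g : ℕ)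

/-- left parts -/
def LA (v : Tok S) : Language α :=
  {P | p0 ≤ P.length ∧ G.lam (P.drop p0) = some (act v (ph f (P.take p0)))}

/-- right parts -/
def RA (τ : Tok S) : Language α :=
  {Q | ∃ r : Tok S, ∃ s : S, act r s = τ ∧ ∃ a b, Q = a ++ b ∧
    ((FE Wo (z - p0 - G.N) a ∧ z ≤ p0 + a.length) ∧ G.rho a = some r) ∧ (FE Wo g b ∧ ph f b = s)}

open Classical in
/-- noise on the part right of `a + p0` -/
noncomputable def dH (Y : List α) : Tok S :=
  if h : ∃ e, Fw Wo Y (z - p0) e then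
    act (G.nu (Y.take h.choose)) (ph f (Y.drop h.choose)) else 0

theorem dH_eq {a b : List α} (h : FE Wo (z - p0) a) :
    dH G Wo p0 z (a ++ b) = act (G.nu a) (ph f b) := by
  have h1 : Fw Wo (a ++ b) (z - p0) a.length := Fw.of_prefix h
  have hex : ∃ e, Fw Wo (a ++ b) (z - p0) e := ⟨_, h1⟩
  have h2 := hex.choose_spec.unique h1
  unfold dH
  rw [dif_pos hex, h2, List.take_left, List.drop_left]

variable {G Wo n W p0 z g}

theorem junction (hW : Walls Wo n W) (hP : Prm G n W p0 z g) {P a : List α}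
    (h1 : p0 ≤ P.length) (h2 : P.length ≤ p0 + G.N) (h3 : FE Wo (z - p0 - G.N) a)
    (h4 : z ≤ p0 + a.length) : FE Wo z (P ++ a) := by
  have hz := hP.hz
  have h5 := (Fw.shift (P := P) hW (by omega)).2 h3
  obtain ⟨b1, b2, b3, b4⟩ := h5
  refine ⟨by rw [List.length_append]; omega, le_rfl, ?_, fun t t1 t2 => ?_⟩
  · rw [List.length_append]; exact b3
  · rw [List.length_append] at t2
    exact b4 t (by omega) t2

theorem soundA (hW : Walls Wo n W) (hP : Prm G n W p0 z g) :
    Sound (ZZ Wo z g) (aff (ph f) fun X => dH G Wo p0 z (X.drop p0)) (LA G p0)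
      (RA G Wo p0 z g) := by
  have hz := hP.hz
  have hg := hP.hg
  refine ⟨fun v h => ?_, ?_⟩
  · have h1 : p0 ≤ ([] : List α).length := h.1
    have := hP.p0pos
    simp at h1; omega
  rintro v τ P Q X x y ⟨l1, l2⟩ ⟨r, s, hrs, a, b, rfl, ⟨⟨a1, a2⟩, a3⟩, b1, b2⟩ hX hXe
  have l3 := G.lamN _ _ l2
  rw [List.length_drop] at l3
  have j1 : FE Wo z (P ++ a) := junction hW hP l1 (by omega) a1 a2
  have hPQ : P ++ (a ++ b) ∈ ZZ Wo z g :=
    (ZZ_split hW (by omega) (by omega)).2 ⟨P ++ a, b, by simp, j1, b1⟩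
  have he : P ++ (a ++ b) = X := ZZ_eq hPQ hX hXe
  refine ⟨he, ?_⟩
  subst he
  have e1 : (P ++ (a ++ b)).drop p0 = (P.drop p0 ++ a) ++ b := by
    rw [List.drop_append_of_le_length l1, List.append_assoc]
  have hl : (P.take p0).length = p0 := by rw [List.length_take]; omega
  have j2 : FE Wo (z - p0) (P.drop p0 ++ a) := by
    have e2 : P ++ a = P.take p0 ++ (P.drop p0 ++ a) := by
      rw [← List.append_assoc, List.take_append_drop]
    have j3 : Fw Wo (P.take p0 ++ (P.drop p0 ++ a)) z (P ++ a).length := by rw [← e2]; exact j1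
    obtain ⟨e', h5, h6⟩ := Fw.shift' hW (by omega) j3
    rw [hl] at h5 h6
    have : e' = (P.drop p0 ++ a).length := by
      rw [List.length_append, List.length_drop]
      rw [List.length_append] at h5
      omega
    rw [this] at h6
    exact h6
  have hs := G.sound _ _ _ _ l2 a3
  show τ = act v (ph f (P ++ (a ++ b))) + dH G Wo p0 z ((P ++ (a ++ b)).drop p0)
  rw [e1, dH_eq G Wo p0 z j2, ← hrs, hs, act_add, act_mul, act_mul, b2]
  congr 2
  have e3 : P ++ (a ++ b) = P.take p0 ++ ((P.drop p0 ++ a) ++ b) := by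
    rw [← e1, ← List.take_append_of_le_length l1 (l₂ := a ++ b), List.take_append_drop]
  rw [e3]
  simp only [ph_app, b2, mul_assoc]

/-- failure modes -/
def EB (Wo : List α → Prop) (BadT : ℕ → Prop) (N p0 z : ℕ) (X : List α) : Prop :=
  (∃ t, t ≤ X.length ∧ Wo (X.take t) ∧ z ≤ t + N ∧ t ≤ z + N) ∨
    ∃ e, Fw Wo X z e ∧ BadT (e - p0)

theorem completeA (hW : Walls Wo n W) (hP : Prm G n W p0 z g) {X : List α}
    (hX : X ∈ ZZ Wo z g) (hEB : ¬ EB Wo G.BadT G.N p0 z X) (v : Tok S) :
    Cut (LA G p0) (RA G Wo p0 z g) v X := by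
  have hz := hP.hz
  have hg := hP.hg
  obtain ⟨X1, X2, rfl, h1, h2⟩ := (ZZ_split hW (by omega) (by omega)).1 hX
  have hfw : Fw Wo (X1 ++ X2) z X1.length := Fw.of_prefix h1
  have hE : ∀ t, t ≤ X1.length → Wo (X1.take t) → z ≤ t + G.N → t ≤ z + G.N → False := by
    intro t t1 t2 t3 t4
    refine hEB (Or.inl ⟨t, by rw [List.length_append]; omega, ?_, t3, t4⟩)
    rwa [List.take_append_of_le_length t1]
  have hB : ¬ G.BadT (X1.length - p0) := fun h => hEB (Or.inr ⟨_, hfw, h⟩)
  have h11 := h1.1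
  have hul : (X1.drop p0).length = X1.length - p0 := List.length_drop ..
  obtain ⟨P', a, e1, e2, e3⟩ := G.complete (X1.drop p0) (by omega) (by rwa [hul])
    (act v (ph f (X1.take p0)))
  have l3 := G.lamN _ _ e2
  have hl : (X1.take p0).length = p0 := by rw [List.length_take]; omega
  have hX1 : X1 = (X1.take p0 ++ P') ++ a := by
    rw [List.append_assoc, ← e1, List.take_append_drop]
  have hlen : X1.length = p0 + P'.length + a.length := by
    conv_lhs => rw [hX1]
    rw [List.length_append, List.length_append, hl]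
  obtain ⟨r, hr⟩ := Option.isSome_iff_exists.1 e3
  refine ⟨X1.take p0 ++ P', a ++ X2, act r (ph f X2), ?_, ?_, ?_⟩
  · rw [← List.append_assoc, ← hX1]
  · refine ⟨by rw [List.length_append]; omega, ?_⟩
    rw [List.drop_append_of_le_length (by omega), List.take_append_of_le_length (by omega)]
    have : (X1.take p0).drop p0 = [] := List.drop_eq_nil_of_le (by omega)
    rw [this, List.nil_append, List.take_take, min_self]
    exact e2
  · have hend : X1.length > z + G.N := by
      by_contra hc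
      push Not at hc
      exact hE X1.length le_rfl (by rw [List.take_length]; have := h1.2.2.1; rwa [List.take_length] at this) (by omega) hc
    refine ⟨r, ph f X2, rfl, a, X2, rfl, ⟨⟨?_, by omega⟩, hr⟩, h2, rfl⟩
    have hwall : ∀ t, n ≤ t → t ≤ a.length → (Wo (a.take t) ↔
        Wo (X1.take (p0 + P'.length + t))) := by
      intro t t1 t2
      have := hW.shift (P := X1.take p0 ++ P') (Q := a) t1 t2
      rw [← hX1, List.length_append, hl] at this
      exact this.symm
    refine ⟨by omega, le_rfl, ?_, fun t t1 t2 t3 => ?_⟩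
    · rw [hwall _ (by omega) le_rfl, ← hlen]
      exact h1.2.2.1
    · rw [hwall _ (by omega) (by omega)] at t3
      by_cases hc : z ≤ p0 + P'.length + t
      · exact h1.2.2.2 _ hc (by omega) t3
      · exact hE _ (by omega) t3 (by omega) (by omega)

theorem HL.LA [Finite α] (v : Tok S) (k : ℕ) : HL k (LA G p0 v) := by
  refine HL.finite ((List.finite_length_le α (p0 + G.N)).subset ?_)
  rintro P ⟨h1, h2⟩
  have := G.lamN _ _ h2
  rw [List.length_drop] at this
  show P.length ≤ p0 + G.N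
  omega

theorem HL.RA [Finite α] [Finite S] (hW : Walls Wo n W) (hw : WL Wo) (hP : Prm G n W p0 z g)
    (τ : Tok S) : HL 1 (RA G Wo p0 z g τ) := by
  have hz := hP.hz
  have : Finite (Tok S) := inferInstanceAs (Finite (S → ZMod 2))
  refine HL.ex fun r => HL.ex fun s => (HL.const _).setOf_and (HL.cat
    (p := fun a => (Data_881.FE Wo (z - p0 - G.N) a ∧ z ≤ p0 + a.length) ∧ G.rho a = some r)
    (q := fun b => Data_881.FE Wo g b ∧ ph f b = s) ?_ ?_)
  · refine HL.fs hW hw f G.hMp G.rho G.rhoF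
      (p := fun a => Data_881.FE Wo (z - p0 - G.N) a ∧ z ≤ p0 + a.length) ?_ (z - p0 - G.N + 1)
      (fun X hX => FE.cw hW hX.1) (fun X hX => by have := hX.2; omega) _
    refine (HL.FE hw _ 1).setOf_and ((HL.length_ge (z - p0)).congr fun w => ?_)
    show z ≤ p0 + w.length ↔ z - p0 ≤ w.length
    omega
  · exact HL.fewS hw f (HL.FE hw g 1) (g + 1) (fun X hX => FE.cw hW hX) s

end

end Crest.Agent.R320.Data_881
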