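import Crest.Agent.R320.Data3_881

/-!
# Row 320: from the grid gadget (helper693) to the data of `Main_621.row` -- part 4: scheme B
-/

set_option autoImplicit false

namespace Crest.Agent.R320.Data_881

open Crest.Agent.R320.Hk_851 Crest.Agent.R320.Star_621 Crest.Agent.R320.Two_621

universe u v

variable {α : Type u} {S : Type u} [Monoid S]

/-- the monoid of scheme B -/
abbrev GM (S : Type u) : Type u := (Function.End (Option (Tok S)))ᵐᵒᵖ

/-- a letter as an element of `GM` -/
def gl (s : S) : GM S := MulOpposite.op fun o => o.map fun v => act v s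

theorem gl_mul (s t : S) : gl (s * t) = gl s * gl t := by
  apply MulOpposite.unop_injective
  refine funext fun o => ?_
  show o.map (fun v => act v (s * t)) = (o.map fun v => act v s).map fun v => act v t
  rw [Option.map_map]
  congr 1
  funext v
  exact (act_mul v s t).symm

theorem gl_one : gl (1 : S) = 1 := by
  apply MulOpposite.unop_injective
  refine funext fun o => ?_
  show o.map (fun v => act v (1 : S)) = o
  cases o with
  | none => rfl
  | some v => exact congrArg some (act_one v)

/-- letters of scheme B -/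
abbrev AB (α S : Type u) : Type u := α ⊕ GM S

def gb (f : α → S) : AB α S → GM S
  | .inl a => gl (f a)
  | .inr m => m

/-- value of a word over `AB` -/
def phB (f : α → S) (w : List (AB α S)) : GM S := (w.map (gb f)).prod

theorem phB_app (f : α → S) (a b : List (AB α S)) : phB f (a ++ b) = phB f a * phB f b := by
  simp [phB]

theorem phB_inl (f : α → S) (w : List α) : phB f (w.map Sum.inl) = gl (ph f w) := by
  induction w with
  | nil =>
    show (1 : GM S) = gl (1 : S)
    exact gl_one.symm
  | cons a w ih =>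
    have e : (List.map Sum.inl (a :: w) : List (AB α S)) = [Sum.inl a] ++ w.map Sum.inl := by simp
    have e2 : ph f [a] = f a := by simp [ph]
    have e3 : phB f [Sum.inl a] = gl (f a) := by simp [phB, gb]
    rw [e, phB_app, ih, e3]
    show _ = gl (ph f ([a] ++ w))
    rw [ph_app, gl_mul, e2]

section

variable {f : α → S} {C0 K : ℕ} (G : Gad f C0 K) (Wo : List α → Prop) (n W p0 z g : ℕ)

/-- cut on the part behind `a + p0` -/
def CutH (v : Tok S) (Y : List α) : Prop :=
  ∃ a b τ, Y = a ++ b ∧ G.lam a = some v ∧ b ∈ RA G Wo p0 z g τ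

open Classical in
/-- action of the part behind `a + p0` -/
noncomputable def HY (Y : List α) : GM S :=
  MulOpposite.op fun o => o.bind fun v =>
    if CutH G Wo p0 z g v Y then none else some (act v (ph f Y) + dH G Wo p0 z Y)

variable {G Wo n W p0 z g}

theorem cut_iff {X Y : List α} (hX : X.length = p0) {v : Tok S} :
    Cut (LA G p0) (RA G Wo p0 z g) v (X ++ Y) ↔ CutH G Wo p0 z g (act v (ph f X)) Y := by
  subst hX
  constructor
  · rintro ⟨P, Q, τ, he, ⟨h1, h2⟩, h3⟩
    have e1 : P.take X.length = X := by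
      have := congrArg (List.take X.length) he
      rw [List.take_left, List.take_append_of_le_length h1] at this
      exact this.symm
    refine ⟨P.drop X.length, Q, τ, ?_, ?_, h3⟩
    · have := congrArg (List.drop X.length) he
      rwa [List.drop_left, List.drop_append_of_le_length h1] at this
    · rw [h2, e1]
  · rintro ⟨a, b, τ, rfl, h2, h3⟩
    refine ⟨X ++ a, b, τ, by simp, ⟨by simp, ?_⟩, h3⟩
    rw [List.drop_left, List.take_left, h2]

theorem stepA_eq {X Y : List α} (hX : X.length = p0) :
    stepA (aff (ph f) fun X => dH G Wo p0 z (X.drop p0)) (LA G p0) (RA G Wo p0 z g) (X ++ Y) =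
      phB f (X.map Sum.inl ++ [Sum.inr (HY G Wo p0 z g Y)]) := by
  classical
  rw [phB_app, phB_inl]
  have e : phB f [Sum.inr (HY G Wo p0 z g Y)] = HY G Wo p0 z g Y := by simp [phB, gb]
  rw [e]
  apply MulOpposite.unop_injective
  refine funext fun o => ?_
  cases o with
  | none => rfl
  | some v =>
    show (if Cut (LA G p0) (RA G Wo p0 z g) v (X ++ Y) then none else
      some (aff (ph f) (fun X => dH G Wo p0 z (X.drop p0)) (X ++ Y) v)) =
      (if CutH G Wo p0 z g (act v (ph f X)) Y then none else
        some (act (act v (ph f X)) (ph f Y) + dH G Wo p0 z Y))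
    refine if_congr (cut_iff hX) rfl ?_
    congr 1
    show act v (ph f (X ++ Y)) + dH G Wo p0 z ((X ++ Y).drop p0) = _
    subst hX
    rw [List.drop_left, ph_app, act_mul]

variable (G Wo n W p0 z g)

/-- badness of the candidate `j`, seen from the right -/
def bad (j : ℕ) (Q : List α) : Prop :=
  (∃ t, t ≤ Q.length ∧ Wo (Q.take t) ∧ z ≤ t + G.c j + G.N ∧ t + G.c j ≤ z + G.N) ∨
    ∃ e, Fw Wo Q (z - G.c j) e ∧ G.BadT (e + G.c j - p0)

/-- legal right words for the candidate `k` -/
def legB (k : ℕ) (Q : List α) : Prop :=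
  Q ∈ ZZ Wo (z - G.c k) g ∧ ∀ j, j < K → j ≠ k → ¬ bad G Wo p0 z j Q

/-- left parts of scheme B -/
def LB (lam2 : List (AB α S) → Option (Tok (GM S))) (w : Tok (GM S)) : Language α :=
  {P | ∃ j, j < K ∧ P.length = G.c j ∧ lam2 (P.map Sum.inl) = some w}

/-- right parts of scheme B -/
def RB (rho2 : List (AB α S) → Option (Tok (GM S))) (w : Tok (GM S)) : Language α :=
  {Q | ∃ k, k < K ∧ legB G Wo p0 z g k Q ∧ ∃ m : GM S, ∃ a b, Q = a ++ b ∧ a.length = p0 - G.c k ∧
    rho2 (a.map Sum.inl ++ [Sum.inr m]) = some w ∧ HY G Wo p0 z g b = m}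

variable {G Wo n W p0 z g}

/-- walls of a text seen from a cut place -/
theorem bad_iff (hW : Walls Wo n W) (hP : Prm G n W p0 z g) {P Q : List α} {j : ℕ} (hj : j < K)
    (hPl : P.length ≤ p0) :
    bad G Wo p0 z j Q ↔
      (∃ t, t ≤ (P ++ Q).length ∧ Wo ((P ++ Q).take t) ∧
        z + P.length ≤ t + G.c j + G.N ∧ t + G.c j ≤ z + G.N + P.length) ∨
      ∃ e, Fw Wo (P ++ Q) (z + P.length - G.c j) e ∧ G.BadT (e + G.c j - p0 - P.length) := by
  have hz := hP.hz
  have hc := hP.hc j hj
  unfold bad
  refine or_congr ?_ ?_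
  · constructor
    · rintro ⟨t, t1, t2, t3, t4⟩
      refine ⟨P.length + t, by rw [List.length_append]; omega, ?_, by omega, by omega⟩
      exact (hW.shift (hW.ge t2) t1).2 t2
    · rintro ⟨t, t1, t2, t3, t4⟩
      rw [List.length_append] at t1
      obtain ⟨s, rfl⟩ := Nat.exists_eq_add_of_le (show P.length ≤ t by omega)
      exact ⟨s, by omega, (hW.shift (by omega) (by omega)).1 t2, by omega, by omega⟩
  · have e1 : z + P.length - G.c j = P.length + (z - G.c j) := by omega
    rw [e1]
    constructor
    · rintro ⟨e, h1, h2⟩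
      refine ⟨P.length + e, (Fw.shift hW (by omega)).2 h1, ?_⟩
      have : P.length + e + G.c j - p0 - P.length = e + G.c j - p0 := by omega
      rwa [this]
    · rintro ⟨e, h1, h2⟩
      obtain ⟨s, rfl⟩ := Nat.exists_eq_add_of_le (show P.length ≤ e from by have := h1.1; omega)
      refine ⟨s, (Fw.shift hW (by omega)).1 h1, ?_⟩
      have : P.length + s + G.c j - p0 - P.length = s + G.c j - p0 := by omega
      rwa [this] at h2

theorem soundB (hW : Walls Wo n W) (hP : Prm G n W p0 z g) (hc0 : ∀ j, j < K → 0 < G.c j)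
    {lam2 rho2 : List (AB α S) → Option (Tok (GM S))} {nu2 : List (AB α S) → Tok (GM S)}
    (h2 : ∀ (p q : List (AB α S)) (v b : Tok (GM S)), p.length + q.length = p0 + 1 →
      lam2 p = some v → rho2 q = some b → b = act v (phB f (p ++ q)) + nu2 (p ++ q))
    {Zc : Language α} (hZ : ∀ X ∈ Zc, X ∈ ZZ Wo z g) (hZc : ∀ X ∈ Zc, EB Wo G.BadT G.N p0 z X) :
    Sound Zc (aff (stepA (aff (ph f) fun X => dH G Wo p0 z (X.drop p0)) (LA G p0)
        (RA G Wo p0 z g))
      fun X => nu2 ((X.take p0).map Sum.inl ++ [Sum.inr (HY G Wo p0 z g (X.drop p0))]))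
      (LB G lam2) (RB G Wo p0 z g rho2) := by
  have hz := hP.hz
  have hg := hP.hg
  constructor
  · rintro w ⟨j, j1, j2, -⟩
    have := hc0 j j1
    simp at j2; omega
  rintro w τ P Q X x y ⟨j, j1, j2, j3⟩ ⟨k, k1, ⟨k2, k3⟩, m, a, b, rfl, a1, a2, rfl⟩ hX hXe
  have hcj := hP.hc j j1
  have hck := hP.hc k k1
  have hPl : P.length ≤ p0 := by omega
  -- the end of the right word
  have hQlen : z - G.c k + g ≤ (a ++ b).length ∧ Wo ((a ++ b).take (a ++ b).length) := by
    obtain ⟨e, e1, e2, e3⟩ := k2
    have := e2.1; have := e3.1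
    exact ⟨by omega, e3.2.2.1⟩
  have hjk : j = k := by
    by_contra hne
    refine k3 j j1 hne ((bad_iff hW hP (P := P) j1 hPl).2 ?_)
    obtain ⟨e, e1, e2, e3⟩ := hZ X hX
    have hXx : Fw Wo (P ++ (a ++ b) ++ x) z e := by rw [hXe]; exact e2.of_prefix
    have hend : Wo ((P ++ (a ++ b)).take (P.length + (a ++ b).length)) :=
      (hW.shift (hW.ge hQlen.2) le_rfl).2 hQlen.2
    have hee : e ≤ (P ++ (a ++ b)).length := by
      by_contra hc
      push Not at hc
      refine hXx.2.2.2 (P.length + (a ++ b).length) (by omega) ?_ ?_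
      · rw [List.length_append (as := P)] at hc; exact hc
      · rw [List.take_append_of_le_length (by rw [List.length_append (as := P)])]
        exact hend
    rcases hZc X hX with ⟨t, t1, t2, t3, t4⟩ | ⟨e', e1', e2'⟩
    · left
      have htl : t ≤ (P ++ (a ++ b)).length := by
        rw [List.length_append (as := P)]; omega
      refine ⟨t, htl, ?_, by omega, by omega⟩
      have h5 : Wo ((X ++ y).take t) := by rwa [List.take_append_of_le_length t1]
      rw [← hXe, List.take_append_of_le_length htl] at h5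
      exact h5
    · right
      have : e' = e := e1'.unique e2
      subst this
      refine ⟨e', ?_, ?_⟩
      · have e5 : z + P.length - G.c j = z := by omega
        rw [e5]
        exact hXx.to_prefix hee
      · have e5 : e' + G.c j - p0 - P.length = e' - p0 := by omega
        rw [e5]; exact e2'
  subst hjk
  -- the zone
  have hPQ : P ++ (a ++ b) ∈ ZZ Wo z g := by
    obtain ⟨e, e1, e2, e3⟩ := k2
    have e4 := (Fw.shift (P := P) hW (by omega)).2 e2
    have e5 := (Fw.shift (P := P) hW (by have := e2.1; omega)).2 e3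
    have e6 : P.length + (z - G.c j) = z := by omega
    rw [e6] at e4
    refine ⟨P.length + e, by rw [List.length_append]; omega, e4, ?_⟩
    rw [List.length_append (as := P), add_assoc]
    exact e5
  have he : P ++ (a ++ b) = X := ZZ_eq hPQ (hZ X hX) hXe
  refine ⟨he, ?_⟩
  subst he
  have hl : (P ++ a).length = p0 := by rw [List.length_append]; omega
  have e1 : P ++ (a ++ b) = (P ++ a) ++ b := (List.append_assoc _ _ _).symm
  have h3 := h2 (P.map Sum.inl) (a.map Sum.inl ++ [Sum.inr (HY G Wo p0 z g b)]) w τ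
    (by simp only [List.length_map, List.length_append, List.length_singleton]; omega) j3 a2
  show τ = act w (stepA _ _ _ (P ++ (a ++ b))) + nu2 (((P ++ (a ++ b)).take p0).map Sum.inl ++
    [Sum.inr (HY G Wo p0 z g ((P ++ (a ++ b)).drop p0))])
  rw [e1, stepA_eq hl, h3]
  have e2 : (P ++ a ++ b).take p0 = P ++ a := by rw [← hl, List.take_left]
  have e3 : (P ++ a ++ b).drop p0 = b := by rw [← hl, List.drop_left]
  rw [e2, e3]
  simp only [List.map_append, List.append_assoc]

end

end Crest.Agent.R320.Data_881
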