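import Crest.Agent.R320.Data4_881

/-!
# Row 320: from the grid gadget (helper693) to the data of `Main_621.row` -- part 5: spoiling
-/

set_option autoImplicit false

namespace Crest.Agent.R320.Data_881

open Crest.Agent.R320.Hk_851 Crest.Agent.R320.Star_621 Crest.Agent.R320.Two_621

universe u v

variable {α : Type u} {S : Type u} [Monoid S]
variable {f : α → S} {C0 K : ℕ} {G : Gad f C0 K} {Wo : List α → Prop} {n W p0 z g : ℕ}

open Classical in
/-- at most `1 + 2 * C0` pairs are spoiled -/
theorem spoil (hW : Walls Wo n W) (hP : Prm G n W p0 z g) {X : List α} (hX : X ∈ ZZ Wo z g) :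
    ((Finset.range K ×ˢ Finset.range K).filter (fun p : ℕ × ℕ => p.1 ≠ p.2 ∧
      bad G Wo p0 z p.2 (X.drop (G.c p.1)))).card ≤ 1 + 2 * C0 := by
  have hz := hP.hz
  have hWW := hP.hWW
  have hlen : z ≤ X.length := by
    obtain ⟨e, e1, e2, e3⟩ := hX
    have := e2.1; omega
  obtain ⟨t0, ht0, ht0'⟩ : ∃ t0, z ≤ t0 + G.N + p0 ∧ ∀ t, t ≤ X.length → Wo (X.take t) →
      z ≤ t + G.N + p0 → t ≤ z + G.N + p0 → t = t0 := by
    by_cases h : ∃ t, t ≤ X.length ∧ Wo (X.take t) ∧ z ≤ t + G.N + p0 ∧ t ≤ z + G.N + p0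
    · obtain ⟨t, t1, t2, t3, t4⟩ := h
      refine ⟨t, t3, fun s s1 s2 s3 s4 => ?_⟩
      rcases lt_trichotomy s t with h | h | h
      · have := hW.sep X s t h t1 s2 t2; omega
      · exact h
      · have := hW.sep X t s h s1 t2 s2; omega
    · exact ⟨z, by omega, fun t t1 t2 t3 t4 => absurd ⟨t, t1, t2, t3, t4⟩ h⟩
  obtain ⟨t1, ht1, ht1'⟩ : ∃ t1, z ≤ t1 ∧ ∀ e, Fw Wo X (z + p0 + 1) e → e = t1 := by
    by_cases h : ∃ e, Fw Wo X (z + p0 + 1) e
    · obtain ⟨e, he⟩ := h
      exact ⟨e, by have := he.1; omega, fun e' he' => he'.unique he⟩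
    · exact ⟨z, le_rfl, fun e he => absurd ⟨e, he⟩ h⟩
  let E : Finset (ℕ × ℕ) := (Finset.range K ×ˢ Finset.range K).filter (fun p : ℕ × ℕ =>
    p.1 ≠ p.2 ∧ z + G.c p.1 ≤ t0 + G.c p.2 + G.N ∧ t0 + G.c p.2 ≤ z + G.N + G.c p.1)
  have hE : E.card ≤ 1 := by
    rw [Finset.card_le_one]
    intro p hp q hq
    simp only [E, Finset.mem_filter, Finset.mem_product, Finset.mem_range] at hp hq
    by_contra hne
    have := G.gol p.1 p.2 q.1 q.2 hp.1.1 hp.1.2 hq.1.1 hq.1.2 hp.2.1 hq.2.1 hne
    omega
  let B : ℕ → Finset (ℕ × ℕ) := fun t => (Finset.range K ×ˢ Finset.range K).filter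
    (fun p : ℕ × ℕ => p.1 ≠ p.2 ∧ G.BadT ((t - p0) + G.c p.2 - G.c p.1))
  have hB0 : (B t0).card ≤ C0 := G.thin (t0 - p0) fun k hk => by
    have := hP.hc k hk; omega
  have hB1 : (B t1).card ≤ C0 := G.thin (t1 - p0) fun k hk => by
    have := hP.hc k hk; omega
  have hsub : (Finset.range K ×ˢ Finset.range K).filter (fun p : ℕ × ℕ => p.1 ≠ p.2 ∧
      bad G Wo p0 z p.2 (X.drop (G.c p.1))) ⊆ E ∪ (B t0 ∪ B t1) := by
    rintro ⟨j, k⟩ hp
    simp only [Finset.mem_filter, Finset.mem_product, Finset.mem_range] at hp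
    obtain ⟨⟨hj, hk⟩, hne, hb⟩ := hp
    have hcj := hP.hc j hj
    have hck := hP.hc k hk
    have hl : (X.take (G.c j)).length = G.c j := by rw [List.length_take]; omega
    have hb2 := (bad_iff hW hP (P := X.take (G.c j)) hk (by omega)).1 hb
    rw [List.take_append_drop, hl] at hb2
    simp only [E, B, Finset.mem_union, Finset.mem_filter, Finset.mem_product, Finset.mem_range]
    rcases hb2 with ⟨t, a1, a2, a3, a4⟩ | ⟨e, a1, a2⟩
    · left
      have : t = t0 := ht0' t a1 a2 (by omega) (by omega)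
      subst this
      exact ⟨⟨hj, hk⟩, hne, a3, a4⟩
    · right
      have he := a1.1
      by_cases hc : e ≤ z + p0
      · left
        have : e = t0 := ht0' e a1.2.1 a1.2.2.1 (by omega) (by omega)
        subst this
        refine ⟨⟨hj, hk⟩, hne, ?_⟩
        have e5 : e + G.c k - p0 - G.c j = e - p0 + G.c k - G.c j := by omega
        rwa [e5] at a2
      · right
        have : e = t1 := ht1' e ⟨by omega, a1.2.1, a1.2.2.1, fun t s1 s2 => a1.2.2.2 t (by omega) s2⟩
        subst this
        refine ⟨⟨hj, hk⟩, hne, ?_⟩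
        have e5 : e + G.c k - p0 - G.c j = e - p0 + G.c k - G.c j := by omega
        rwa [e5] at a2
  refine (Finset.card_le_card hsub).trans ((Finset.card_union_le _ _).trans ?_)
  have := Finset.card_union_le (B t0) (B t1)
  omega

theorem completeB (hW : Walls Wo n W) (hP : Prm G n W p0 z g)
    {lam2 rho2 : List (AB α S) → Option (Tok (GM S))}
    (h2 : ∀ (u : List (AB α S)) (w : Tok (GM S)), u.length = p0 + 1 → ∃ J : Finset ℕ,
      (∀ j ∈ J, j < K) ∧ 1 + 2 * C0 < J.card ∧
      ∀ j ∈ J, lam2 (u.take (G.c j)) = some w ∧ (rho2 (u.drop (G.c j))).isSome = true)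
    {X : List α} (hX : X ∈ ZZ Wo z g) (w : Tok (GM S)) :
    Cut (LB G lam2) (RB G Wo p0 z g rho2) w X := by
  classical
  have hz := hP.hz
  have hlen : z ≤ X.length := by
    obtain ⟨e, e1, e2, e3⟩ := hX
    have := e2.1; omega
  obtain ⟨J, J1, J2, J3⟩ := h2 ((X.take p0).map Sum.inl ++ [Sum.inr (HY G Wo p0 z g (X.drop p0))]) w
    (by simp; omega)
  obtain ⟨j, hjJ, hj⟩ : ∃ j ∈ J, ∀ k, k < K → k ≠ j → ¬ bad G Wo p0 z k (X.drop (G.c j)) := by
    by_contra hc
    push Not at hc
    choose! k k1 k2 k3 using hc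
    have hinj : J.card ≤ ((Finset.range K ×ˢ Finset.range K).filter (fun p : ℕ × ℕ => p.1 ≠ p.2 ∧
        bad G Wo p0 z p.2 (X.drop (G.c p.1)))).card := by
      refine Finset.card_le_card_of_injOn (fun j => (j, k j)) ?_ ?_
      · intro j hj
        have hj' : j ∈ J := hj
        simp only [Finset.coe_filter, Finset.mem_product, Finset.mem_range, Set.mem_setOf_eq]
        exact ⟨⟨J1 j hj', k1 j hj'⟩, (k2 j hj').symm, k3 j hj'⟩
      · intro a _ b _ h
        exact congrArg Prod.fst h
    have := spoil hW hP hX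
    omega
  have hjK := J1 j hjJ
  have hcj := hP.hc j hjK
  obtain ⟨l1, l2⟩ := J3 j hjJ
  have hl : (X.take (G.c j)).length = G.c j := by rw [List.length_take]; omega
  have hlp : (X.take p0).length = p0 := by rw [List.length_take]; omega
  have e1 : ((X.take p0).map Sum.inl ++ [Sum.inr (HY G Wo p0 z g (X.drop p0))] :
      List (AB α S)).take (G.c j) = (X.take (G.c j)).map Sum.inl := by
    rw [List.take_append_of_le_length (by rw [List.length_map]; omega), ← List.map_take,
      List.take_take, min_eq_left hcj]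
  have e2 : ((X.take p0).map Sum.inl ++ [Sum.inr (HY G Wo p0 z g (X.drop p0))] :
      List (AB α S)).drop (G.c j) = ((X.drop (G.c j)).take (p0 - G.c j)).map Sum.inl ++
        [Sum.inr (HY G Wo p0 z g (X.drop p0))] := by
    rw [List.drop_append_of_le_length (by rw [List.length_map]; omega), ← List.map_drop,
      List.drop_take]
  rw [e1] at l1
  rw [e2] at l2
  obtain ⟨τ, hτ⟩ := Option.isSome_iff_exists.1 l2
  refine ⟨X.take (G.c j), X.drop (G.c j), τ, (List.take_append_drop _ _).symm,
    ⟨j, hjK, hl, l1⟩, ⟨j, hjK, ⟨?_, hj⟩, _, (X.drop (G.c j)).take (p0 - G.c j),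
      X.drop p0, ?_, ?_, hτ, rfl⟩⟩
  · obtain ⟨e, b1, b2, b3⟩ := hX
    rw [← List.take_append_drop (G.c j) X] at b2 b3
    have hz2 := b2.1
    obtain ⟨e', c1, c2⟩ := Fw.shift' hW (by omega) b2
    obtain ⟨e'', c3, c4⟩ := Fw.shift' hW (by omega) b3
    rw [hl] at c1 c2 c3 c4
    rw [List.take_append_drop] at c3
    have c5 : e'' = (X.drop (G.c j)).length := by rw [List.length_drop]; omega
    subst c5
    refine ⟨e', by omega, c2, ?_⟩
    have c6 : e + g - G.c j = e' + g := by omega
    rwa [c6] at c4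
  · have : X.drop p0 = (X.drop (G.c j)).drop (p0 - G.c j) := by
      rw [List.drop_drop]; congr 1; omega
    rw [this, List.take_append_drop]
  · rw [List.length_take, List.length_drop]; omega

/-- few walls in a word without a zone as a prefix -/
theorem cw_tail (hg : 0 < g) {w : List α} (h : ∀ X ∈ ZZ Wo z g, ¬ X <+: w) :
    cw Wo w ≤ z + g := by
  classical
  unfold cw
  by_cases hz : ∃ e, Fw Wo w z e
  · obtain ⟨e, he⟩ := hz
    have hsub : (Finset.range (w.length + 1)).filter (fun t => Wo (w.take t)) ⊆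
        Finset.range z ∪ Finset.Ico e (e + g) := by
      intro t ht
      rw [Finset.mem_filter, Finset.mem_range] at ht
      rw [Finset.mem_union, Finset.mem_range, Finset.mem_Ico]
      by_contra hc
      have h1 : z ≤ t := by omega
      have h2 : e ≤ t := by
        by_contra h3
        exact he.2.2.2 t h1 (by omega) ht.2
      have h3 : e + g ≤ t := by omega
      obtain ⟨e2, -, h5⟩ := Fw.exists h3 (by omega) ht.2
      have he2 := h5.1
      have he3 := h5.2.1
      have hl : (w.take e2).length = e2 := by rw [List.length_take]; omega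
      refine h (w.take e2) ⟨e, by omega, ?_, ?_⟩ (List.take_prefix _ _)
      · refine Fw.to_prefix (Y := w.drop e2) (by rwa [List.take_append_drop]) (by omega)
      · rw [hl]
        refine Fw.to_prefix (Y := w.drop e2) (by rwa [List.take_append_drop]) (by omega)
    refine (Finset.card_le_card hsub).trans ((Finset.card_union_le _ _).trans ?_)
    simp
  · have hsub : (Finset.range (w.length + 1)).filter (fun t => Wo (w.take t)) ⊆
        Finset.range z := by
      intro t ht
      rw [Finset.mem_filter, Finset.mem_range] at ht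
      rw [Finset.mem_range]
      by_contra hc
      obtain ⟨e, -, he⟩ := Fw.exists (Wo := Wo) (X := w) (z := z) (t := t) (by omega) (by omega) ht.2
      exact hz ⟨e, he⟩
    refine (Finset.card_le_card hsub).trans ?_
    simp

end Crest.Agent.R320.Data_881
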