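import Crest.Agent.R320.Blk_2

/-!
# Row 320: regularity of the families of the two schemes (helper2)
-/

set_option autoImplicit false

namespace Crest.Agent.R320.DataA_2

open Crest.Agent.R320.FewWalls_228 Crest.R320.Reg_143 Crest.Agent.R320.Blk_2
open Crest.Agent.R320.Two_621 Crest.Agent.R320.Star_621

variable {α : Type} {n : ℕ} {W : Set (List α)} {S : Type} [Monoid S]

/-- the finite-state clause -/
def Fs (f : α → S) (La Pm : ℕ) (Φ : List α → Prop) : Prop :=
  ∀ u u' : List α, La ≤ u.length → La ≤ u'.length → u.take La = u'.take La →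
    u.length % Pm = u'.length % Pm → ((u.drop La).map f).prod = ((u'.drop La).map f).prod →
    Φ u → Φ u'

theorem reg_const {β : Type*} [Finite β] (p : Prop) : (lg fun _ : List β => p).IsRegular := by
  have h := RegP.close (α := β) (RegP.const (k := 0) p)
  exact h

theorem reg_fs [Finite α] [Finite S] (f : α → S) {La Pm : ℕ} (hPm : 0 < Pm)
    {Φ : List α → Prop} (h : Fs f La Pm Φ) :
    (lg fun u : List α => La ≤ u.length ∧ Φ u).IsRegular := by
  classical
  haveI : Finite {l : List α // l.length ≤ La} := (List.finite_length_le α La).to_subtype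
  let ι := {l : List α // l.length ≤ La} × Fin Pm × S
  let good : ι → Prop := fun i => ∃ u0 : List α, La ≤ u0.length ∧ u0.take La = i.1.1 ∧
    u0.length % Pm = i.2.1.1 ∧ ((u0.drop La).map f).prod = i.2.2 ∧ Φ u0
  have h1 : RegP (α := α) (k := 0) (fun w _ => ∃ i : ι, good i ∧ w.take La = i.1.1 ∧
      w.length % Pm = i.2.1.1 ∧ ∃ x ≤ w.length, x = La ∧ ((w.drop x).map f).prod = i.2.2) := by
    refine RegP.exists_finite fun i => ?_
    refine RegP.and (RegP.const _) (RegP.and ?_ (RegP.and ?_ ?_))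
    · exact RegP.mem (isRegular_take La fun v => v = i.1.1)
    · exact RegP.mem (isRegular_length (fun m => m % Pm = i.2.1.1) 0 Pm hPm
        (fun m _ => by simp))
    · refine RegP.ex' (P := fun w _ x => x = La ∧ ((w.drop x).map f).prod = i.2.2) ?_
      refine RegP.and ?_ (RegP.drop (isRegular_monoid f fun m => m = i.2.2) 0)
      refine (RegP.take (k := 1) (isRegular_length (β := α) (fun m => m = La) (La + 1) 1 one_pos
        (fun m hm => by omega)) 0).congr fun w x hx => ?_
      have := hx 0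
      rw [List.length_take]
      omega
  refine isRegular_congr h1.close fun w => ?_
  rw [mem_lg]
  constructor
  · rintro ⟨i, ⟨u0, a1, a2, a3, a4, a5⟩, b1, b2, x, hx, rfl, b3⟩
    exact ⟨hx, h u0 w a1 hx (a2.trans b1.symm) (a3.trans b2.symm) (a4.trans b3.symm) a5⟩
  · rintro ⟨hl, hΦ⟩
    exact ⟨(⟨w.take La, by simp⟩, ⟨w.length % Pm, Nat.mod_lt _ hPm⟩, ((w.drop La).map f).prod),
      ⟨w, hl, rfl, rfl, rfl, hΦ⟩, rfl, rfl, La, hl, rfl, rfl⟩

/-- bounded words -/
theorem reg_bd [Finite α] (N : ℕ) (Φ : List α → Prop) (h : ∀ u, Φ u → u.length ≤ N) :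
    (lg Φ).IsRegular := by
  refine isRegular_congr (isRegular_take (β := α) (N + 1) fun v => v.length ≤ N ∧ Φ v)
    fun w => ?_
  rw [mem_lg]
  constructor
  · rintro ⟨h1, h2⟩
    rw [List.length_take] at h1
    rwa [List.take_of_length_le (by omega)] at h2
  · intro h1
    have := h w h1
    rw [List.take_of_length_le (by omega)]
    exact ⟨this, h1⟩

theorem reg_lt {k : ℕ} [Finite α] (θ : ℕ) (i : Fin k) :
    RegP (fun (w : List α) (x : Fin k → ℕ) => x i < θ) :=
  ((reg_ge θ i).not).congr fun w x _ => by simp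

theorem reg_eqc {k : ℕ} [Finite α] (θ : ℕ) (i : Fin k) :
    RegP (fun (w : List α) (x : Fin k → ℕ) => x i = θ) :=
  ((reg_ge θ i).and (reg_lt (θ + 1) i)).congr fun w x _ => by omega

/-- words without block prefix have few walls -/
theorem exists_block {θ a b : ℕ} {w : List α} (ha : θ ≤ a) (hab : a < b)
    (h1 : Wl n W w a) (h2 : Wl n W w b) : ∃ t l, Blk n W θ (w.take (l + n)) t l ∧ l ≤ b := by
  classical
  have e1 : ∃ x, θ ≤ x ∧ Wl n W w x := ⟨a, ha, h1⟩
  set t := Nat.find e1 with ht
  have t1 := Nat.find_spec e1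
  rw [← ht] at t1
  have hta : t ≤ a := Nat.find_min' e1 ⟨ha, h1⟩
  have e2 : ∃ x, t < x ∧ Wl n W w x := ⟨b, by omega, h2⟩
  set l := Nat.find e2 with hl
  have l1 := Nat.find_spec e2
  rw [← hl] at l1
  have hlb : l ≤ b := Nat.find_min' e2 ⟨by omega, h2⟩
  have hlen : l + n ≤ w.length := l1.2.1
  have key : ∀ x, Wl n W (w.take (l + n)) x ↔ (x ≤ l ∧ Wl n W w x) := by
    intro x
    have e : w = w.take (l + n) ++ w.drop (l + n) := (List.take_append_drop _ _).symm
    have hl' : (w.take (l + n)).length = l + n := by rw [List.length_take]; omega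
    constructor
    · intro h
      have hx : x + n ≤ (w.take (l + n)).length := h.1
      rw [hl'] at hx
      refine ⟨by omega, ?_⟩
      rw [e]
      exact (wl_left (by rw [hl']; exact hx)).2 h
    · rintro ⟨hx, h⟩
      rw [e] at h
      exact (wl_left (by rw [hl']; omega)).1 h
  refine ⟨t, l, ⟨t1.1, l1.1, (key t).2 ⟨by omega, t1.2⟩, (key l).2 ⟨le_rfl, l1.2⟩,
    by rw [List.length_take]; omega, ?_⟩, hlb⟩
  intro x hx hw
  obtain ⟨hxl, hw'⟩ := (key x).1 hw
  by_contra hne
  push Not at hne
  have hxt : t < x := by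
    rcases Nat.lt_or_ge t x with h | h
    · exact h
    · exfalso
      have : t ≤ x := Nat.find_min' e1 ⟨hx, hw'⟩
      omega
  have : l ≤ x := Nat.find_min' e2 ⟨hxt, hw'⟩
  omega

theorem nw_rest {θ : ℕ} {w : List α} (h : ∀ y t l, ¬ Blk n W θ (w.take y) t l) :
    nw n W w ≤ θ + 1 := by
  classical
  by_contra hc
  push Not at hc
  unfold nw at hc
  set F := (Finset.range (w.length + 1)).filter (fun x => Wl n W w x) with hF
  have h1 : (F.filter fun x => θ ≤ x).card + (F.filter fun x => ¬ θ ≤ x).card = F.card :=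
    Finset.card_filter_add_card_filter_not _
  have h2 : (F.filter fun x => ¬ θ ≤ x).card ≤ θ := by
    have : (F.filter fun x => ¬ θ ≤ x) ⊆ Finset.range θ := by
      intro x hx
      rw [Finset.mem_filter] at hx
      rw [Finset.mem_range]
      omega
    simpa using Finset.card_le_card this
  have h3 : 1 < (F.filter fun x => θ ≤ x).card := by omega
  obtain ⟨a, ha, b, hb, hab⟩ := Finset.one_lt_card.1 h3
  rw [Finset.mem_filter, hF, Finset.mem_filter] at ha hb
  rcases Nat.lt_or_gt_of_ne hab with hlt | hlt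
  · obtain ⟨t, l, h5, _⟩ := exists_block ha.2 hlt ha.1.2 hb.1.2
    exact h _ _ _ h5
  · obtain ⟨t, l, h5, _⟩ := exists_block hb.2 hlt hb.1.2 ha.1.2
    exact h _ _ _ h5

end Crest.Agent.R320.DataA_2
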