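import Crest.Agent.R320.DataZ_332
import Crest.Agent.R320.ExactR_237

/-!
# Row 320: the data of `Main_621` from a gadget on words (helper332)
-/

set_option autoImplicit false

namespace Crest.Agent.R320.Data_332

open Crest.Agent.R320.Hk_851 Crest.Agent.R320.Star_621 Crest.Agent.R320.Two_621
  Crest.Agent.R320.Main_621 Crest.Agent.R320.ExactR_237

variable {α : Type}

/-- gadget 1 on words, all contents: sound everywhere, complete off a thin set of lengths.
`R0` is chosen before `K`. -/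
def G1 {α S : Type} [Monoid S] (f : α → S) (R0 K : ℕ) : Prop :=
  ∃ (lam rho : List α → Option (Tok S)) (nu1 : List α → Tok S) (N1 : ℕ) (BadT : ℕ → Prop)
    (c : ℕ → ℕ),
    (∀ P Q v b, lam P = some v → rho Q = some b →
      b = act v (pr f (P ++ Q)) + nu1 (P ++ Q)) ∧
    (∀ P v, lam P = some v → P.length < N1) ∧
    (∀ Y, N1 ≤ Y.length → ¬ BadT Y.length → ∀ v, ∃ P Q, Y = P ++ Q ∧ lam P = some v ∧
      (rho Q).isSome) ∧
    (∀ x, Language.IsRegular ({Y | nu1 Y = x} : Language α)) ∧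
    (Language.IsRegular ({Y | BadT Y.length} : Language α)) ∧
    (∀ i j, i < j → j < K → c i < c j) ∧
    (∀ i < K, ∀ i' < K, ∀ j < K, ∀ j' < K, i ≠ i' → j ≠ j' →
      ((c i : ℤ) - c i' - (c j - c j')) < 2 * N1 → -(2 * N1 : ℤ) < ((c i : ℤ) - c i' - (c j - c j')) →
      i = j) ∧
    (∀ T : ℤ, ∀ s : Finset ℕ, (∀ k ∈ s, k < K ∧ ∃ k' < K, k' ≠ k ∧
      ∃ T' : ℕ, (T' : ℤ) = T + c k' - c k ∧ BadT T') → s.card ≤ R0)

section a

variable {n W z0 p0 : ℕ} {Wo : List α → Prop} {S : Type} [Monoid S] (f : α → S)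
  (lam rho : List α → Option (Tok S)) (nu1 : List α → Tok S) (N1 : ℕ)

/-- token at the place `p0` of the zone to the token at its end; `d` letters are cut off -/
def Ps (Wo : List α → Prop) (z0 p0 : ℕ) (f : α → S) (nu1 : List α → Tok S) (Q : List α)
    (v w : Tok S) : Prop :=
  ∃ t, IsF Wo z0 p0 Q t ∧ w = act (act v (pr f (Q.take t)) + nu1 (Q.take t)) (pr f (Q.drop t))

open Classical in
noncomputable def dN (Wo : List α → Prop) (z0 p0 : ℕ) (f : α → S) (nu1 : List α → Tok S)
    (Q : List α) : Tok S :=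
  if h : ∃ t, IsF Wo z0 p0 Q t then act (nu1 (Q.take h.choose)) (pr f (Q.drop h.choose)) else 0

theorem dN_eq {Q : List α} {t : ℕ} (h : IsF Wo z0 p0 Q t) :
    dN Wo z0 p0 f nu1 Q = act (nu1 (Q.take t)) (pr f (Q.drop t)) := by
  unfold dN
  have hex : ∃ t, IsF Wo z0 p0 Q t := ⟨t, h⟩
  rw [dif_pos hex]
  rw [hex.choose_spec.uniq h]

/-- zone noise of scheme A -/
noncomputable def dA (Wo : List α → Prop) (z0 p0 : ℕ) (f : α → S) (nu1 : List α → Tok S)
    (z : List α) : Tok S := dN Wo z0 p0 f nu1 (z.drop p0)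

/-- left words of scheme A -/
def LA (p0 : ℕ) (f : α → S) (lam : List α → Option (Tok S)) (v : Tok S) : Language α :=
  {P | ∃ X P1, P = X ++ P1 ∧ X.length = p0 ∧ lam P1 = some (act v (pr f X))}

/-- right words of scheme A (semantic) -/
def RA (Wo : List α → Prop) (z0 p0 : ℕ) (f : α → S) (lam : List α → Option (Tok S))
    (nu1 : List α → Tok S) (w : Tok S) : Language α :=
  {Q | ∀ x, ∀ p ∈ LA p0 f lam x, ZR Wo z0 0 (p ++ Q) ∧
    aff (fun u => pr f u) (dA Wo z0 p0 f nu1) (p ++ Q) x = w}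

theorem soundA (hp : 0 < p0) : Sound ({z | ZR Wo z0 0 z} : Language α)
    (aff (fun u => pr f u) (dA Wo z0 p0 f nu1)) (LA p0 f lam) (RA Wo z0 p0 f lam nu1) := by
  refine ⟨?_, ?_⟩
  · rintro w ⟨X, P1, h1, h2, _⟩
    have := congrArg List.length h1
    rw [List.length_append, List.length_nil] at this
    omega
  · intro w t P Q z x y hP hQ hz he
    obtain ⟨h1, h2⟩ := hQ w P hP
    have e := ZR.code.2 _ _ _ _ h1 hz he
    exact ⟨e, by rw [← h2, e]⟩

/-- badness read `d` letters behind the anchor -/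
def BR (Wo : List α → Prop) (z0 p0 N1 : ℕ) (BadT : ℕ → Prop) (d : ℕ) (Q : List α) : Prop :=
  (∃ t ≤ Q.length, z0 ≤ d + t + N1 ∧ d + t < z0 + N1 ∧ Wo (Q.take t)) ∨
  (∃ t, IsF Wo z0 d Q t ∧ BadT (d + t - p0))

theorem BR.app (H : Walls n W Wo) {BadT : ℕ → Prop} {P Q : List α}
    (hz : P.length + n + N1 ≤ z0) :
    BR Wo z0 p0 N1 BadT 0 (P ++ Q) ↔ BR Wo z0 p0 N1 BadT P.length Q := by
  constructor
  · rintro (⟨t, h1, h2, h3, h4⟩ | ⟨t, h1, h2⟩)
    · left
      rw [List.length_append] at h1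
      have e : t = P.length + (t - P.length) := by omega
      rw [e] at h4
      exact ⟨t - P.length, by omega, by omega, by omega,
        (H.tk (by omega) (by omega)).1 h4⟩
    · right
      have ht : z0 ≤ t := by have := h1.2.1; omega
      have e : t = P.length + (t - P.length) := by omega
      rw [e] at h1 h2
      have h1' := (IsF.app H (by omega)).1 h1
      rw [Nat.zero_add] at h1' h2
      exact ⟨t - P.length, h1', h2⟩
  · rintro (⟨t, h1, h2, h3, h4⟩ | ⟨t, h1, h2⟩)
    · left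
      exact ⟨P.length + t, by rw [List.length_append]; omega, by omega, by omega,
        (H.tk (by omega) (by omega)).2 h4⟩
    · right
      have hz2 := h1.2.1
      exact ⟨P.length + t, (IsF.app H (by omega)).2 (by rw [Nat.zero_add]; exact h1),
        by rw [Nat.zero_add]; exact h2⟩

/-- moving the anchor inside the window when no wall end is in the band -/
theorem ZR.move {d d' : ℕ} {Q : List α} (h : ZR Wo z0 d Q)
    (hb : ¬ ∃ t ≤ Q.length, z0 ≤ d + t + N1 ∧ d + t < z0 + N1 ∧ Wo (Q.take t))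
    (h1 : d ≤ d' + N1) (h2 : d' ≤ d + N1) :
    ∃ t, IsF Wo z0 d Q t ∧ IsF Wo z0 d' Q t ∧ ZR Wo z0 d' Q := by
  obtain ⟨t, hF, ht, hW, hn⟩ := h
  have hF' : IsF Wo z0 d' Q t := by
    obtain ⟨a1, a2, a3, a4⟩ := hF
    refine ⟨a1, ?_, a3, ?_⟩
    · by_contra hc
      exact hb ⟨t, a1, by omega, by omega, a3⟩
    · intro t' ht' hz hw
      by_cases hc : z0 ≤ d + t'
      · exact a4 t' ht' hc hw
      · exact hb ⟨t', by omega, by omega, by omega, hw⟩
  exact ⟨t, hF, hF', t, hF', ht, hW, hn⟩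

/-- the window clause: words with anchor inside are zones with the same value -/
theorem complA (H : Walls n W Wo) (BadT : ℕ → Prop)
    (hS : ∀ P Q v b, lam P = some v → rho Q = some b →
      b = act v (pr f (P ++ Q)) + nu1 (P ++ Q))
    (hL : ∀ P v, lam P = some v → P.length < N1)
    (hC : ∀ Y : List α, N1 ≤ Y.length → ¬ BadT Y.length → ∀ v, ∃ P Q, Y = P ++ Q ∧
      lam P = some v ∧ (rho Q).isSome)
    (hz0 : p0 + N1 + n + N1 ≤ z0) (z : List α) (hz : ZR Wo z0 0 z)
    (hb : ¬ BR Wo z0 p0 N1 BadT 0 z) (v : Tok S) :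
    Cut (LA p0 f lam) (RA Wo z0 p0 f lam nu1) v z := by
  have hz' := hz
  obtain ⟨t, hF, ht, hW, hn⟩ := hz
  have hzt : z0 ≤ t := by have := hF.2.1; omega
  set X := z.take p0 with hX
  set Y := (z.take t).drop p0 with hY
  have hXl : X.length = p0 := by rw [hX, List.length_take]; omega
  have hYl : Y.length = t - p0 := by
    rw [hY, List.length_drop, List.length_take]; omega
  have hzeq : z = X ++ Y ++ z.drop t := by
    have e1 : X ++ Y = z.take t := by
      have : z.take p0 = (z.take t).take p0 := by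
        rw [List.take_take, Nat.min_eq_left (by omega)]
      rw [hX, hY, this, List.take_append_drop]
    rw [e1, List.take_append_drop]
  have hnb : ¬ BadT Y.length := by
    intro hbt
    refine hb (Or.inr ⟨t, hF, ?_⟩)
    rw [Nat.zero_add, ← hYl]; exact hbt
  obtain ⟨P1, Q1, hYe, hl, hr⟩ := hC Y (by omega) hnb (act v (pr f X))
  obtain ⟨r, hr⟩ := Option.isSome_iff_exists.1 hr
  have hP1 := hL _ _ hl
  set Q := Q1 ++ z.drop t with hQ
  have hzPQ : z = (X ++ P1) ++ Q := by
    rw [hQ, ← List.append_assoc, List.append_assoc X P1 Q1, ← hYe]; exact hzeq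
  have hPl : (X ++ P1).length = p0 + P1.length := by rw [List.length_append, hXl]
  have hzPQ' := hzPQ
  have hZ1 : ZR Wo z0 (X ++ P1).length Q := by
    rw [← ZR.app H (by omega), ← hzPQ]; exact hz'
  have hB1 : ¬ BR Wo z0 p0 N1 BadT (X ++ P1).length Q := by
    rw [← BR.app N1 H (by omega), ← hzPQ]; exact hb
  have hQ1l : Q1.length + P1.length = t - p0 := by
    rw [← hYl, hYe, List.length_append, Nat.add_comm]
  -- the first wall of `Q`
  have hFQ : IsF Wo z0 (X ++ P1).length Q Q1.length := by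
    have h0 : IsF Wo z0 0 ((X ++ P1) ++ Q) ((X ++ P1).length + Q1.length) := by
      rw [← hzPQ, hPl, show p0 + P1.length + Q1.length = t by omega]; exact hF
    have := (IsF.app H (by omega)).1 h0
    rwa [Nat.zero_add] at this
  refine ⟨X ++ P1, Q, act r (pr f (z.drop t)), hzPQ, ⟨X, P1, rfl, hXl, hl⟩, ?_⟩
  rintro x p ⟨X', P1', rfl, hX'l, hl'⟩
  have hP1' := hL _ _ hl'
  have hpl : (X' ++ P1').length = p0 + P1'.length := by rw [List.length_append, hX'l]
  obtain ⟨t2, hFa, hFb, hZ2⟩ := ZR.move N1 (d' := (X' ++ P1').length) hZ1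
    (fun h => hB1 (Or.inl h)) (by omega) (by omega)
  have ht2 : t2 = Q1.length := hFa.uniq hFQ
  subst ht2
  refine ⟨(ZR.app H (by omega)).2 hZ2, ?_⟩
  have hFp : IsF Wo z0 p0 (P1' ++ Q) (P1'.length + Q1.length) := by
    refine (IsF.app H (by omega)).2 ?_
    rw [← hpl]; exact hFb
  have hd : (X' ++ P1' ++ Q).drop p0 = P1' ++ Q := by
    rw [List.append_assoc, List.drop_append, List.drop_eq_nil_of_le (by omega), hX'l,
      Nat.sub_self, List.drop_zero, List.nil_append]
  have htk : (P1' ++ Q).take (P1'.length + Q1.length) = P1' ++ Q1 := by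
    rw [List.take_length_add_append, hQ, List.take_left]
  have hdr : (P1' ++ Q).drop (P1'.length + Q1.length) = z.drop t := by
    rw [List.drop_length_add_append, hQ, List.drop_left]
  have hval := hS P1' Q1 _ _ hl' hr
  show act x (pr f (X' ++ P1' ++ Q)) + dA Wo z0 p0 f nu1 (X' ++ P1' ++ Q) = _
  unfold dA
  rw [hd, dN_eq f nu1 hFp, htk, hdr, hval]
  rw [act_add, act_mul, act_mul]
  congr 2
  rw [hQ, List.append_assoc, pr_append, ← List.append_assoc P1' Q1, pr_append f (P1' ++ Q1)]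

end a

end Crest.Agent.R320.Data_332
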