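import Crest.Agent.R320.Main_621

/-!
# Row 320: zones (natural chain rule, block end = next wall), scheme A from an abstract gadget (helper614)
-/

set_option autoImplicit false

namespace Crest.Agent.R320.DataU_614

open Crest.Agent.R320.Hk_851 Crest.Agent.R320.Star_621 Crest.Agent.R320.Two_621

universe u v

variable {α : Type u}

/-- left-looking wall rule with window `n` and gaps `> W` -/
structure Wall (Wo : List α → Prop) (n W : ℕ) : Prop where
  loc : ∀ P Q : List α, n ≤ Q.length → (Wo (P ++ Q) ↔ Wo Q)
  len : ∀ Q, Wo Q → n ≤ Q.length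
  gap : ∀ (Q : List α) (s t : ℕ), s < t → t ≤ Q.length → t ≤ s + W →
    Wo (Q.take s) → Wo (Q.take t) → False

/-- `u` = first wall `≥ z` -/
def FW (Wo : List α → Prop) (z : ℕ) (Q : List α) (u : ℕ) : Prop :=
  z ≤ u ∧ u ≤ Q.length ∧ Wo (Q.take u) ∧ ∀ t, z ≤ t → t < u → ¬ Wo (Q.take t)

/-- `Q` ends at the first wall after the first wall `u ≥ z` -/
def ZU (Wo : List α → Prop) (z : ℕ) (Q : List α) (u : ℕ) : Prop :=
  FW Wo z Q u ∧ u < Q.length ∧ Wo Q ∧ ∀ t, u < t → t < Q.length → ¬ Wo (Q.take t)

theorem FW.uniq {Wo : List α → Prop} {z : ℕ} {Q : List α} {u v : ℕ} (h : FW Wo z Q u)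
    (h' : FW Wo z Q v) : u = v := by
  rcases lt_trichotomy u v with h1 | h1 | h1
  · exact absurd h.2.2.1 (h'.2.2.2 u h.1 h1)
  · exact h1
  · exact absurd h'.2.2.1 (h.2.2.2 v h'.1 h1)

theorem FW.ext {Wo : List α → Prop} {z : ℕ} {Q : List α} {u : ℕ} (h : FW Wo z Q u)
    (R : List α) : FW Wo z (Q ++ R) u := by
  obtain ⟨h1, h2, h3, h4⟩ := h
  refine ⟨h1, by rw [List.length_append]; omega, ?_, ?_⟩
  · rw [List.take_append_of_le_length h2]; exact h3
  · intro t ht htu
    rw [List.take_append_of_le_length (by omega)]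
    exact h4 t ht htu

theorem FW.restrict {Wo : List α → Prop} {z : ℕ} {Q R : List α} {u : ℕ}
    (h : FW Wo z (Q ++ R) u) (hu : u ≤ Q.length) : FW Wo z Q u := by
  obtain ⟨h1, h2, h3, h4⟩ := h
  refine ⟨h1, hu, ?_, ?_⟩
  · rwa [List.take_append_of_le_length hu] at h3
  · intro t ht htu
    have := h4 t ht htu
    rwa [List.take_append_of_le_length (by omega)] at this

theorem ZU.uniq {Wo : List α → Prop} {z : ℕ} {Q : List α} {u v : ℕ} (h : ZU Wo z Q u)
    (h' : ZU Wo z Q v) : u = v := h.1.uniq h'.1

theorem ZU.pre {Wo : List α → Prop} {z : ℕ} {Q Q' x y : List α} {u v : ℕ} (h : ZU Wo z Q u)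
    (h' : ZU Wo z Q' v) (e : Q ++ x = Q' ++ y) : Q = Q' := by
  have huv : u = v := by
    have h1 := h.1.ext x
    rw [e] at h1
    exact h1.uniq (h'.1.ext y)
  subst huv
  have hlen : Q.length = Q'.length := by
    rcases lt_trichotomy Q.length Q'.length with h1 | h1 | h1
    · exfalso
      refine h'.2.2.2 Q.length h.2.1 h1 ?_
      have : Q'.take Q.length = Q := by
        have := congrArg (List.take Q.length) e
        rw [List.take_left, List.take_append_of_le_length h1.le] at this
        exact this.symm
      rw [this]; exact h.2.2.1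
    · exact h1
    · exfalso
      refine h.2.2.2 Q'.length h'.2.1 h1 ?_
      have : Q.take Q'.length = Q' := by
        have := congrArg (List.take Q'.length) e
        rw [List.take_left, List.take_append_of_le_length h1.le] at this
        exact this
      rw [this]; exact h'.2.2.1
  exact List.append_inj_left e hlen

/-- zones -/
def Zn (Wo : List α → Prop) (p0 z : ℕ) : Language α :=
  {X | p0 ≤ X.length ∧ ∃ u, ZU Wo z (X.drop p0) u}

theorem code_Zn (Wo : List α → Prop) (p0 z : ℕ) : Code (Zn Wo p0 z) := by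
  constructor
  · rintro ⟨-, u, -, h, -⟩
    simp at h
  · rintro X X' x x' ⟨h1, u, hu⟩ ⟨h1', u', hu'⟩ e
    have e1 := congrArg (List.drop p0) e
    rw [List.drop_append_of_le_length h1, List.drop_append_of_le_length h1'] at e1
    have e2 := hu.pre hu' e1
    have hlen : X.length = X'.length := by
      have := congrArg List.length e2
      rw [List.length_drop, List.length_drop] at this
      omega
    exact List.append_inj_left e hlen

/-- abstract gadget for scheme A -/
structure GadA {S : Type u} {V : Type v} [AddCommGroup V] (ph : List α → S)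
    (ac : V → S → V) (N : ℕ) (Bad : ℕ → Prop) (lam rho : List α → Option V)
    (nu : List α → V) : Prop where
  len : ∀ p v, lam p = some v → p.length ≤ N
  sound : ∀ p q v r, lam p = some v → rho q = some r → r = ac v (ph (p ++ q)) + nu (p ++ q)
  compl : ∀ Y : List α, 2 * N ≤ Y.length → ¬ Bad Y.length →
    ∀ v, ∃ p q, p ++ q = Y ∧ lam p = some v ∧ (rho q).isSome

section A

variable {S : Type u} [Monoid S] (ph : List α → S) (Wo : List α → Prop) (p0 z n N : ℕ)
  (lam rho : List α → Option (Tok S)) (nu : List α → Tok S)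

open Classical in
/-- noise of the part behind `p0` -/
noncomputable def dY (U : List α) : Tok S :=
  if h : ∃ u, ZU Wo z U u then act (nu (U.take h.choose)) (ph (U.drop h.choose)) else 0

noncomputable def dA (X : List α) : Tok S := dY ph Wo z nu (X.drop p0)

/-- zone map of the part behind `p0` -/
noncomputable def mY (U : List α) (w : Tok S) : Tok S := act w (ph U) + dY ph Wo z nu U

def LA (v : Tok S) : Language α :=
  {P | p0 ≤ P.length ∧ lam (P.drop p0) = some (act v (ph (P.take p0)))}

def RA (τ : Tok S) : Language α :=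
  {Q | ∃ u r, z ≤ u ∧ u < Q.length ∧ Wo (Q.take u) ∧ Wo Q ∧
    (∀ t, n ≤ t → t < Q.length → Wo (Q.take t) → t = u ∨ t + N < z) ∧
    rho (Q.take u) = some r ∧ τ = act r (ph (Q.drop u))}

/-- wall in the band -/
def EE (Q : List α) : Prop := ∃ s, s ≤ Q.length ∧ Wo (Q.take s) ∧ z ≤ s + N ∧ s ≤ z + N

variable {ph Wo p0 z n N lam rho nu}

theorem dY_eq {U : List α} {u : ℕ} (h : ZU Wo z U u) :
    dY ph Wo z nu U = act (nu (U.take u)) (ph (U.drop u)) := by
  have hex : ∃ u, ZU Wo z U u := ⟨u, h⟩
  have e : hex.choose = u := hex.choose_spec.uniq h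
  unfold dY
  rw [dif_pos hex, e]

theorem aff_eq (hm : ∀ a b, ph (a ++ b) = ph a * ph b) (X : List α) (v : Tok S) :
    aff ph (dA ph Wo p0 z nu) X v = mY ph Wo z nu (X.drop p0) (act v (ph (X.take p0))) := by
  unfold aff mY dA
  rw [act_mul, ← hm, List.take_append_drop]

/-- the junction lemma -/
theorem zu_of {W : ℕ} (hW : Wall Wo n W) (hz : n + N ≤ z) {p Q : List α} (hp : p.length ≤ N)
    {u : ℕ} (h1 : z ≤ u) (h2 : u < Q.length) (h3 : Wo (Q.take u)) (h4 : Wo Q)
    (h5 : ∀ t, n ≤ t → t < Q.length → Wo (Q.take t) → t = u ∨ t + N < z) :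
    ZU Wo z (p ++ Q) (p.length + u) := by
  have key : ∀ s, n ≤ s → s ≤ Q.length → (Wo ((p ++ Q).take (p.length + s)) ↔ Wo (Q.take s)) := by
    intro s hs hs'
    rw [List.take_append, List.take_of_length_le (by omega), Nat.add_sub_cancel_left]
    exact hW.loc p _ (by rw [List.length_take]; omega)
  refine ⟨⟨by omega, by rw [List.length_append]; omega, (key u (by omega) h2.le).2 h3, ?_⟩,
    by rw [List.length_append]; omega, (hW.loc p Q (by omega)).2 h4, ?_⟩
  · intro t ht htu hw
    obtain ⟨s, rfl⟩ : ∃ s, t = p.length + s := ⟨t - p.length, by omega⟩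
    rcases h5 s (by omega) (by omega) ((key s (by omega) (by omega)).1 hw) with h | h
    · omega
    · omega
  · intro t ht htu hw
    rw [List.length_append] at htu
    obtain ⟨s, rfl⟩ : ∃ s, t = p.length + s := ⟨t - p.length, by omega⟩
    rcases h5 s (by omega) (by omega) ((key s (by omega) (by omega)).1 hw) with h | h
    · omega
    · omega

theorem soundA {W : ℕ} {Bad : ℕ → Prop} (hW : Wall Wo n W)
    (hG : GadA ph (act : Tok S → S → Tok S) N Bad lam rho nu) (hz : n + N ≤ z) (hp0 : 0 < p0)
    (hm : ∀ a b, ph (a ++ b) = ph a * ph b) :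
    Sound (Zn Wo p0 z) (aff ph (dA ph Wo p0 z nu)) (LA ph p0 lam) (RA ph Wo z n N rho) := by
  constructor
  · rintro v ⟨h, -⟩
    simp at h
    omega
  · rintro v τ P Q X x y ⟨hP, hl⟩ ⟨u, r, h1, h2, h3, h4, h5, hr, rfl⟩ hX e
    have hlen := hG.len _ _ hl
    have hzu := zu_of hW hz hlen h1 h2 h3 h4 h5
    have hd : (P ++ Q).drop p0 = P.drop p0 ++ Q := List.drop_append_of_le_length hP
    have hmem : P ++ Q ∈ Zn Wo p0 z :=
      ⟨by rw [List.length_append]; omega, _, by rw [hd]; exact hzu⟩
    have hPQ : P ++ Q = X := (code_Zn Wo p0 z).2 _ _ x y hmem hX e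
    refine ⟨hPQ, ?_⟩
    subst hPQ
    rw [aff_eq hm, hd, List.take_append_of_le_length hP]
    unfold mY
    rw [dY_eq hzu]
    have e1 : (P.drop p0 ++ Q).take ((P.drop p0).length + u) = P.drop p0 ++ Q.take u := by
      rw [List.take_append, List.take_of_length_le (by omega), Nat.add_sub_cancel_left]
    have e2 : (P.drop p0 ++ Q).drop ((P.drop p0).length + u) = Q.drop u := by
      rw [List.drop_append, List.drop_eq_nil_of_le (by omega), List.nil_append,
        Nat.add_sub_cancel_left]
    rw [e1, e2, hG.sound _ _ _ _ hl hr, act_add, act_mul, ← hm, List.append_assoc,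
      List.take_append_drop]

theorem complA {W : ℕ} {Bad : ℕ → Prop} (hW : Wall Wo n W)
    (hG : GadA ph (act : Tok S → S → Tok S) N Bad lam rho nu) (hz : n + N ≤ z) (hz2 : 2 * N ≤ z)
    {X : List α} {u : ℕ} (hX : p0 ≤ X.length) (hu : ZU Wo z (X.drop p0) u)
    (hE : ¬ EE Wo z N (X.drop p0)) (hB : ¬ Bad u) (v : Tok S) :
    Cut (LA ph p0 lam) (RA ph Wo z n N rho) v X := by
  set U := X.drop p0 with hU
  have huU : u ≤ U.length := hu.2.1.le
  have hY : (U.take u).length = u := by rw [List.length_take]; omega
  obtain ⟨p, q, hpq, hl, hr⟩ := hG.compl (U.take u) (by rw [hY]; have := hu.1.1; omega)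
    (by rw [hY]; exact hB) (act v (ph (X.take p0)))
  have hlen := hG.len _ _ hl
  have hpqlen : p.length + q.length = u := by
    rw [← List.length_append, hpq, hY]
  obtain ⟨r, hr'⟩ := Option.isSome_iff_exists.1 hr
  have hzu : z + N < u := by
    by_contra hc
    exact hE ⟨u, huU, hu.1.2.2.1, by have := hu.1.1; omega, by omega⟩
  have hUe : p ++ (q ++ U.drop u) = U := by
    rw [← List.append_assoc, hpq, List.take_append_drop]
  have hX0 : (X.take p0).length = p0 := by rw [List.length_take]; omega
  have key : ∀ s, n ≤ s → s ≤ (q ++ U.drop u).length →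
      (Wo (U.take (p.length + s)) ↔ Wo ((q ++ U.drop u).take s)) := by
    intro s hs hs'
    have e0 : U.take (p.length + s) = p ++ (q ++ U.drop u).take s := by
      conv_lhs => rw [← hUe]
      rw [List.take_append, List.take_of_length_le (by omega), Nat.add_sub_cancel_left]
    rw [e0]
    exact hW.loc p _ (by rw [List.length_take]; omega)
  have hQl : (q ++ U.drop u).length = U.length - p.length := by
    have := congrArg List.length hUe
    rw [List.length_append] at this
    omega
  refine ⟨X.take p0 ++ p, q ++ U.drop u, act r (ph ((q ++ U.drop u).drop q.length)), ?_, ?_, ?_⟩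
  · rw [List.append_assoc, hUe, hU, List.take_append_drop]
  · refine ⟨by rw [List.length_append, hX0]; omega, ?_⟩
    have e1 : (X.take p0 ++ p).drop p0 = p := by
      rw [List.drop_append, List.drop_eq_nil_of_le (by omega), hX0, Nat.sub_self, List.drop_zero,
        List.nil_append]
    have e2 : (X.take p0 ++ p).take p0 = X.take p0 := by
      rw [List.take_append_of_le_length (by omega), List.take_take, min_self]
    rw [e1, e2]; exact hl
  · refine ⟨q.length, r, by omega, by rw [hQl]; have := hu.2.1; omega, ?_, ?_, ?_, ?_, rfl⟩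
    · rw [← key q.length (by omega) (by rw [List.length_append]; omega), hpqlen]
      exact hu.1.2.2.1
    · have := key (q ++ U.drop u).length (by rw [hQl]; have := hu.2.1; omega) le_rfl
      rw [List.take_length] at this
      rw [← this, hQl, show p.length + (U.length - p.length) = U.length by omega, List.take_length]
      exact hu.2.2.1
    · intro t ht1 ht2 hw
      have hw' := (key t ht1 ht2.le).2 hw
      rw [hQl] at ht2
      by_cases hs : p.length + t < z
      · right
        by_contra hc
        exact hE ⟨p.length + t, by omega, hw', by omega, by omega⟩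
      · left
        rcases lt_trichotomy (p.length + t) u with h | h | h
        · exact absurd hw' (hu.1.2.2.2 _ (by omega) h)
        · omega
        · exact absurd hw' (hu.2.2.2 _ h (by omega))
    · rw [List.take_left]; exact hr'

end A

end Crest.Agent.R320.DataU_614
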