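import Crest.Agent.R320.DataDef_839

/-!
# Row 320: prefix code and scheme A of `DataDef_839` (helper839)
-/

set_option autoImplicit false

namespace Crest.Agent.R320.Data_839

open Crest.Agent.R320.Hk_851 Crest.Agent.R320.Star_621 Crest.Agent.R320.Two_621
open Crest.Agent.R320.FewWalls_228 Crest.Agent.R320.ExactR_237

variable {α : Type} {n : ℕ} {Sw : Set (List α)}

theorem take_add (A Q : List α) (s : ℕ) : (A ++ Q).take (A.length + s) = A ++ Q.take s := by
  rw [List.take_append]
  simp

theorem drop_add (A Q : List α) (s : ℕ) : (A ++ Q).drop (A.length + s) = Q.drop s := by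
  rw [List.drop_append]
  simp

theorem WL_append {A P : List α} (h : n ≤ P.length) : WL n Sw (A ++ P) ↔ WL n Sw P := by
  unfold WL
  have e : (A ++ P).length - n = A.length + (P.length - n) := by
    rw [List.length_append]; omega
  rw [e, drop_add, List.length_append]
  constructor
  · rintro ⟨_, h2⟩; exact ⟨h, h2⟩
  · rintro ⟨_, h2⟩; exact ⟨by omega, h2⟩

theorem WL_shift {A Q : List α} {s : ℕ} (hs : n ≤ s) (hsQ : s ≤ Q.length) :
    WL n Sw ((A ++ Q).take (A.length + s)) ↔ WL n Sw (Q.take s) := by
  rw [take_add]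
  exact WL_append (by rw [List.length_take]; omega)

theorem take_eq {Q Q' x x' : List α} (h : Q ++ x = Q' ++ x') {s : ℕ} (h1 : s ≤ Q.length)
    (h2 : s ≤ Q'.length) : Q.take s = Q'.take s := by
  rw [← List.take_append_of_le_length (l₂ := x) h1, h, List.take_append_of_le_length h2]

theorem ZT.lt {z : ℕ} {X : List α} {t : ℕ} (h : ZT n Sw z X t) : t < X.length := h.2.1

theorem ZT_unique {z : ℕ} {Q Q' x x' : List α} {t t' : ℕ} (h : Q ++ x = Q' ++ x')
    (h1 : ZT n Sw z Q t) (h2 : ZT n Sw z Q' t') : Q = Q' ∧ t = t' := by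
  obtain ⟨a1, a2, a3, a4, a5, a6⟩ := h1
  obtain ⟨b1, b2, b3, b4, b5, b6⟩ := h2
  have key : ∀ s, s ≤ Q.length → s ≤ Q'.length → (WL n Sw (Q.take s) ↔ WL n Sw (Q'.take s)) :=
    fun s hs hs' => by rw [take_eq h hs hs']
  have ht : t = t' := by
    rcases lt_trichotomy t t' with hlt | he | hlt
    · exact absurd ((key t (by omega) (by omega)).1 a3) (b4 t a1 hlt)
    · exact he
    · exact absurd ((key t' (by omega) (by omega)).2 b3) (a4 t' b1 hlt)
  subst ht
  have hl : Q.length = Q'.length := by
    rcases lt_trichotomy Q.length Q'.length with hlt | he | hlt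
    · have := (key Q.length le_rfl hlt.le).1 (by rw [List.take_length]; exact a5)
      exact absurd this (b6 _ a2 hlt)
    · exact he
    · have := (key Q'.length hlt.le le_rfl).2 (by rw [List.take_length]; exact b5)
      exact absurd this (a6 _ b2 hlt)
  exact ⟨List.append_inj_left h hl, rfl⟩

theorem ZT_shift {A Q : List α} {z t : ℕ} (hz : n ≤ z) :
    ZT n Sw (A.length + z) (A ++ Q) (A.length + t) ↔ ZT n Sw z Q t := by
  unfold ZT
  have hl : (A ++ Q).length = A.length + Q.length := List.length_append
  constructor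
  · rintro ⟨a1, a2, a3, a4, a5, a6⟩
    have a1' : z ≤ t := by omega
    have a2' : t < Q.length := by omega
    refine ⟨a1', a2', (WL_shift (by omega) a2'.le).1 a3, fun s hs hst hw => ?_, ?_,
      fun s hs hst hw => ?_⟩
    · exact a4 (A.length + s) (by omega) (by omega) ((WL_shift (by omega) (by omega)).2 hw)
    · exact (WL_append (by omega)).1 a5
    · exact a6 (A.length + s) (by omega) (by omega) ((WL_shift (by omega) (by omega)).2 hw)
  · rintro ⟨a1, a2, a3, a4, a5, a6⟩
    refine ⟨by omega, by omega, (WL_shift (by omega) a2.le).2 a3, fun s hs hst hw => ?_, ?_,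
      fun s hs hst hw => ?_⟩
    · obtain ⟨s', rfl⟩ : ∃ s', s = A.length + s' := ⟨s - A.length, by omega⟩
      exact a4 s' (by omega) (by omega) ((WL_shift (by omega) (by omega)).1 hw)
    · exact (WL_append (by omega)).2 a5
    · obtain ⟨s', rfl⟩ : ∃ s', s = A.length + s' := ⟨s - A.length, by omega⟩
      exact a6 s' (by omega) (by omega) ((WL_shift (by omega) (by omega)).1 hw)

theorem code_ZZ (z : ℕ) : Code (ZZ n Sw z) := by
  refine ⟨?_, ?_⟩
  · rintro ⟨t, h⟩
    have := h.lt
    simp at this
  · rintro a b x x' ⟨t, h1⟩ ⟨t', h2⟩ h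
    exact (ZT_unique h h1 h2).1

section A

variable {S : Type} [Monoid S] {f : α → S}

theorem pr_append (u v : List α) : pr f (u ++ v) = pr f u * pr f v := by
  simp [pr]

theorem gA_eq {z t : ℕ} {nu : List α → Tok S} {Y : List α} (h : ZT n Sw z Y t) :
    gA f n Sw z nu Y = act (nu (Y.take t)) (pr f (Y.drop t)) := by
  have hex : ∃ t, ZT n Sw z Y t := ⟨t, h⟩
  unfold gA
  rw [dif_pos hex]
  have := (ZT_unique (x := []) (x' := []) rfl h (Classical.choose_spec hex)).2
  rw [← this]

theorem soundA {p q N1 : ℕ} {lam rho : List α → Option (Tok S)} {nu : List α → Tok S}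
    (hn : n ≤ q) (hp : 0 < p) (hlam : ∀ P v, lam P = some v → P.length ≤ N1)
    (hs : ∀ P Q v r, lam P = some v → rho Q = some r →
      r = act v (pr f (P ++ Q)) + nu (P ++ Q)) :
    Sound (ZZ n Sw (p + (N1 + q))) (aff (pr f) (dA f n Sw p (N1 + q) nu)) (LA f p lam)
      (RA f n Sw q N1 rho) := by
  refine ⟨?_, ?_⟩
  · rintro ω ⟨h1, -⟩
    simp at h1; omega
  · rintro v r P Q z x y ⟨hp1, hl⟩ ⟨t, r1, h1, h2, h3, h4⟩ ⟨t', hz⟩ he
    have ho := hlam _ _ hl
    rw [List.length_drop] at ho
    set o := P.length - p with hod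
    have hZ : ZT n Sw (q + N1 - o) Q t := by
      obtain ⟨a1, a2, a3, a4, a5, a6⟩ := h1
      refine ⟨by omega, a2, a3, fun s hs1 hs2 => ?_, a5, a6⟩
      by_cases h : s < q + N1
      · exact h2 s (by omega) h
      · exact a4 s (by omega) hs2
    have hZ0 : ZT n Sw (p + (N1 + q)) (P ++ Q) (P.length + t) := by
      have := (ZT_shift (A := P) (z := q + N1 - o) (by omega)).2 hZ
      rwa [show P.length + (q + N1 - o) = p + (N1 + q) by omega] at this
    obtain ⟨e1, e2⟩ := ZT_unique he hZ0 hz
    refine ⟨e1, ?_⟩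
    subst e1
    have hd : (P ++ Q).drop p = P.drop p ++ Q := by
      rw [List.drop_append_of_le_length hp1]
    have hZ1 : ZT n Sw (N1 + q) (P.drop p ++ Q) ((P.drop p).length + t) := by
      have := (ZT_shift (A := P.drop p) (z := q + N1 - o) (by omega)).2 hZ
      rwa [show (P.drop p).length + (q + N1 - o) = N1 + q by
        rw [List.length_drop]; omega] at this
    unfold aff dA
    rw [hd, gA_eq hZ1, take_add, drop_add, h4, hs _ _ _ _ hl h3, act_add, act_mul, act_mul]
    congr 2
    rw [pr_append (P.drop p), ← mul_assoc, ← mul_assoc, ← pr_append (P.take p),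
      List.take_append_drop, mul_assoc, ← pr_append (Q.take t), List.take_append_drop,
      ← pr_append]

theorem completeA {p q N1 Tm : ℕ} {lam rho : List α → Option (Tok S)} {Bad : ℕ → Prop}
    (hn : n ≤ q) (hT : Tm ≤ q) (hlam : ∀ P v, lam P = some v → P.length ≤ N1)
    (hc : ∀ u : List α, Tm ≤ u.length → ¬ Bad u.length → ∀ v, ∃ P Q, P ++ Q = u ∧
      lam P = some v ∧ (rho Q).isSome)
    {z : List α} (hz : z ∈ ZZ n Sw (p + (N1 + q)))
    (hb : ¬ Bd n Sw (p + (N1 + q)) N1 p Bad 0 z) (v : Tok S) :
    Cut (LA f p lam) (RA f n Sw q N1 rho) v z := by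
  obtain ⟨t, ht⟩ := hz
  obtain ⟨a1, a2, a3, a4, a5, a6⟩ := ht
  unfold Bd at hb
  push Not at hb
  obtain ⟨hE, hB⟩ := hb
  have hlen : ((z.take t).drop p).length = t - p := by
    rw [List.length_drop, List.length_take]; omega
  have hBad : ¬ Bad (t - p) := by
    have := hB t a2.le (by omega) a3 (fun s hs1 hs2 => a4 s (by omega) hs2)
    simpa using this
  obtain ⟨P', Q', e, hl, hr⟩ := hc ((z.take t).drop p) (by rw [hlen]; omega)
    (by rw [hlen]; exact hBad) (act v (pr f (z.take p)))
  obtain ⟨r1, hr1⟩ := Option.isSome_iff_exists.1 hr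
  have ho := hlam _ _ hl
  have hlt : z.take t = z.take p ++ (P' ++ Q') := by
    rw [e]
    conv_lhs => rw [← List.take_append_drop p (z.take t)]
    rw [List.take_take, Nat.min_eq_left (by omega)]
  have hzz : z = (z.take p ++ P') ++ (Q' ++ z.drop t) := by
    conv_lhs => rw [← List.take_append_drop t z, hlt]
    simp
  have hlp : (z.take p).length = p := by rw [List.length_take]; omega
  have hQ' : Q'.length = t - p - P'.length := by
    have := congrArg List.length e
    rw [List.length_append, hlen] at this; omega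
  have hPl : (z.take p ++ P').length = p + P'.length := by rw [List.length_append, hlp]
  have htN : p + (N1 + q) + N1 < t := by
    by_contra hcon
    exact absurd (hE t a2.le a3 (by omega)) (by omega)
  -- the zone seen from the cut
  have hZ : ZT n Sw (N1 + q - P'.length) (Q' ++ z.drop t) Q'.length := by
    have h0 : ZT n Sw (p + (N1 + q)) ((z.take p ++ P') ++ (Q' ++ z.drop t)) t := by
      rw [← hzz]; exact ⟨a1, a2, a3, a4, a5, a6⟩
    have h1 : ZT n Sw ((z.take p ++ P').length + (N1 + q - P'.length))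
        ((z.take p ++ P') ++ (Q' ++ z.drop t)) ((z.take p ++ P').length + Q'.length) := by
      rw [hPl, show p + P'.length + (N1 + q - P'.length) = p + (N1 + q) by omega,
        show p + P'.length + Q'.length = t by omega]
      exact h0
    exact (ZT_shift (by omega)).1 h1
  refine ⟨z.take p ++ P', Q' ++ z.drop t, act r1 (pr f (z.drop t)), hzz, ?_, ?_⟩
  · refine ⟨by rw [hPl]; omega, ?_⟩
    have h1 : (z.take p ++ P').take p = z.take p := by
      rw [List.take_append_of_le_length (by omega), List.take_take, Nat.min_self]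
    have h2 : (z.take p ++ P').drop p = P' := by
      rw [List.drop_append, hlp]
      simp [hlp]
    rw [h1, h2]; exact hl
  · refine ⟨Q'.length, r1, ?_, ?_, ?_, ?_⟩
    · obtain ⟨b1, b2, b3, b4, b5, b6⟩ := hZ
      exact ⟨by omega, b2, b3, fun s hs1 hs2 => b4 s (by omega) hs2, b5, b6⟩
    · intro s hs1 hs2 hw
      have hsl : s ≤ (Q' ++ z.drop t).length := by
        rw [List.length_append]; omega
      have h1 := (WL_shift (A := z.take p ++ P') (by omega) hsl).2 hw
      rw [← hzz, hPl] at h1
      have hle : p + P'.length + s ≤ z.length := by omega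
      exact absurd (hE (p + P'.length + s) hle h1 (by omega)) (by omega)
    · rw [List.take_append_of_le_length le_rfl, List.take_length]; exact hr1
    · rw [List.drop_append_of_le_length le_rfl, List.drop_length]; simp

end A

end Crest.Agent.R320.Data_839
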