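import Mathlib

/-!
# Row 320: zones between natural walls, offsets (helper858)
-/

set_option autoImplicit false

namespace Crest.Agent.R320.Data_858

variable {α : Type}

structure Walls (Wo : List α → Prop) (n W : ℕ) : Prop where
  len : ∀ Q, Wo Q → n ≤ Q.length
  loc : ∀ P Q : List α, n ≤ Q.length → (Wo (P ++ Q) ↔ Wo Q)
  sep : ∀ X R : List α, Wo X → Wo (X ++ R) → R ≠ [] → W ≤ R.length

/-- `U` = up to the first wall at distance at least `z - c` -/
def Fw (Wo : List α → Prop) (z c : ℕ) (U : List α) : Prop :=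
  z ≤ c + U.length ∧ Wo U ∧ ∀ i, i < U.length → z ≤ c + i → ¬ Wo (U.take i)

/-- `tl` = from the wall at the end of `U` to the next wall -/
def Nx (Wo : List α → Prop) (U tl : List α) : Prop :=
  tl ≠ [] ∧ Wo (U ++ tl) ∧ ∀ i, 0 < i → i < tl.length → ¬ Wo (U ++ tl.take i)

def Zn (Wo : List α → Prop) (z c : ℕ) (Q : List α) : Prop :=
  ∃ U tl, Q = U ++ tl ∧ Fw Wo z c U ∧ Nx Wo U tl

variable {Wo : List α → Prop} {n W z : ℕ}

theorem take_of_prefix {U U' R R' : List α} (e : U ++ R = U' ++ R') (h : U.length ≤ U'.length) :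
    U'.take U.length = U := by
  have h1 : (U ++ R).take U.length = U := by simp
  rw [e, List.take_append_of_le_length h] at h1
  exact h1

theorem fw_unique {c : ℕ} {U U' R R' : List α} (h : Fw Wo z c U) (h' : Fw Wo z c U')
    (e : U ++ R = U' ++ R') : U = U' := by
  rcases lt_trichotomy U.length U'.length with hl | hl | hl
  · exact absurd (by rw [take_of_prefix e hl.le]; exact h.2.1) (h'.2.2 U.length hl h.1)
  · exact (List.append_inj e hl).1
  · exact absurd (by rw [take_of_prefix e.symm hl.le]; exact h'.2.1) (h.2.2 U'.length hl h'.1)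

theorem nx_unique {U tl tl' R R' : List α} (h : Nx Wo U tl) (h' : Nx Wo U tl')
    (e : tl ++ R = tl' ++ R') : tl = tl' := by
  rcases lt_trichotomy tl.length tl'.length with hl | hl | hl
  · exact absurd (by rw [take_of_prefix e hl.le]; exact h.2.1)
      (h'.2.2 tl.length (List.length_pos_iff.2 h.1) hl)
  · exact (List.append_inj e hl).1
  · exact absurd (by rw [take_of_prefix e.symm hl.le]; exact h'.2.1)
      (h.2.2 tl'.length (List.length_pos_iff.2 h'.1) hl)

theorem zn_unique {c : ℕ} {U tl U' tl' R R' : List α} (h : Fw Wo z c U) (h1 : Nx Wo U tl)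
    (h' : Fw Wo z c U') (h1' : Nx Wo U' tl') (e : U ++ tl ++ R = U' ++ tl' ++ R') :
    U = U' ∧ tl = tl' := by
  rw [List.append_assoc, List.append_assoc] at e
  have e1 := fw_unique h h' e
  subst e1
  exact ⟨rfl, nx_unique h1 h1' (List.append_cancel_left e)⟩

theorem fw_shift (hW : Walls Wo n W) {c : ℕ} {P U : List α} (hz : c + P.length + n ≤ z) :
    Fw Wo z c (P ++ U) ↔ Fw Wo z (c + P.length) U := by
  unfold Fw
  rw [List.length_append]
  constructor
  · rintro ⟨h1, h2, h3⟩
    refine ⟨by omega, (hW.loc P U (by omega)).1 h2, fun i hi hz' hw => ?_⟩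
    refine h3 (P.length + i) (by omega) (by omega) ?_
    rw [List.take_append, List.take_of_length_le (by omega), Nat.add_sub_cancel_left]
    exact (hW.loc P _ (by rw [List.length_take]; omega)).2 hw
  · rintro ⟨h1, h2, h3⟩
    refine ⟨by omega, (hW.loc P U (by omega)).2 h2, fun i hi hz' hw => ?_⟩
    rw [List.take_append, List.take_of_length_le (by omega)] at hw
    exact h3 (i - P.length) (by omega) (by omega)
      ((hW.loc P _ (by rw [List.length_take]; omega)).1 hw)

theorem nx_shift (hW : Walls Wo n W) {P U tl : List α} (hn : n ≤ U.length) :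
    Nx Wo (P ++ U) tl ↔ Nx Wo U tl := by
  unfold Nx
  have e : ∀ t : List α, Wo (P ++ U ++ t) ↔ Wo (U ++ t) := fun t => by
    rw [List.append_assoc]
    exact hW.loc P (U ++ t) (by rw [List.length_append]; omega)
  simp only [e]

theorem zn_shift (hW : Walls Wo n W) {c : ℕ} {P Q : List α} (hz : c + P.length + n ≤ z) :
    Zn Wo z c (P ++ Q) ↔ Zn Wo z (c + P.length) Q := by
  constructor
  · rintro ⟨U, tl, e, h1, h2⟩
    have hl : P.length ≤ U.length := by have := h1.1; omega
    obtain ⟨U1, rfl⟩ : ∃ U1, U = P ++ U1 := by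
      have h3 := take_of_prefix e hl
      exact ⟨U.drop P.length, by conv_lhs => rw [← List.take_append_drop P.length U, h3]⟩
    rw [List.append_assoc] at e
    have e2 := List.append_cancel_left e
    have h1' := (fw_shift hW hz).1 h1
    exact ⟨U1, tl, e2, h1', (nx_shift hW (by have := h1'.1; omega)).1 h2⟩
  · rintro ⟨U, tl, rfl, h1, h2⟩
    exact ⟨P ++ U, tl, by simp, (fw_shift hW hz).2 h1, (nx_shift hW (by have := h1.1; omega)).2 h2⟩

/-- the zone is bad: a wall near `z`, or bad length -/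
def Bd (Wo : List α → Prop) (z N1 p0 : ℕ) (Bad : ℕ → Prop) (c : ℕ) (U : List α) : Prop :=
  (∃ i, i ≤ U.length ∧ Wo (U.take i) ∧ z ≤ c + i + N1 ∧ c + i ≤ z + N1) ∨
    Bad (c + U.length - p0)

def BA (Wo : List α → Prop) (z N1 p0 : ℕ) (Bad : ℕ → Prop) (c : ℕ) (Q : List α) : Prop :=
  ∃ U R, Q = U ++ R ∧ Fw Wo z c U ∧ Bd Wo z N1 p0 Bad c U

theorem bd_shift (hW : Walls Wo n W) {N1 p0 : ℕ} {Bad : ℕ → Prop} {c : ℕ} {P U : List α}
    (hz : c + P.length + n + N1 ≤ z) :
    Bd Wo z N1 p0 Bad c (P ++ U) ↔ Bd Wo z N1 p0 Bad (c + P.length) U := by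
  unfold Bd
  rw [List.length_append, ← Nat.add_assoc]
  refine or_congr ?_ Iff.rfl
  constructor
  · rintro ⟨i, h1, h2, h3, h4⟩
    rw [List.take_append, List.take_of_length_le (by omega)] at h2
    exact ⟨i - P.length, by omega,
      (hW.loc P _ (by rw [List.length_take]; omega)).1 h2, by omega, by omega⟩
  · rintro ⟨i, h1, h2, h3, h4⟩
    refine ⟨P.length + i, by omega, ?_, by omega, by omega⟩
    rw [List.take_append, List.take_of_length_le (by omega), Nat.add_sub_cancel_left]
    exact (hW.loc P _ (by rw [List.length_take]; omega)).2 h2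

theorem ba_shift (hW : Walls Wo n W) {N1 p0 : ℕ} {Bad : ℕ → Prop} {c : ℕ} {P Q : List α}
    (hz : c + P.length + n + N1 ≤ z) :
    BA Wo z N1 p0 Bad c (P ++ Q) ↔ BA Wo z N1 p0 Bad (c + P.length) Q := by
  constructor
  · rintro ⟨U, R, e, h1, h2⟩
    have hl : P.length ≤ U.length := by have := h1.1; omega
    obtain ⟨U1, rfl⟩ : ∃ U1, U = P ++ U1 := by
      have h3 := take_of_prefix e hl
      exact ⟨U.drop P.length, by conv_lhs => rw [← List.take_append_drop P.length U, h3]⟩
    rw [List.append_assoc] at e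
    exact ⟨U1, R, List.append_cancel_left e, (fw_shift hW (by omega)).1 h1, (bd_shift hW hz).1 h2⟩
  · rintro ⟨U, R, rfl, h1, h2⟩
    exact ⟨P ++ U, R, by simp, (fw_shift hW (by omega)).2 h1, (bd_shift hW hz).2 h2⟩

/-- a wall beyond `z` shows the first wall -/
theorem fw_exists {c : ℕ} {Q : List α} (h1 : Wo Q) (h2 : z ≤ c + Q.length) :
    ∃ U R, Q = U ++ R ∧ Fw Wo z c U := by
  classical
  have hex : ∃ i, z ≤ c + i ∧ Wo (Q.take i) := ⟨Q.length, h2, by rw [List.take_length]; exact h1⟩
  have hs := Nat.find_spec hex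
  have hle : Nat.find hex ≤ Q.length := Nat.find_min' hex ⟨h2, by rw [List.take_length]; exact h1⟩
  refine ⟨Q.take (Nat.find hex), Q.drop (Nat.find hex), (List.take_append_drop _ _).symm, ?_, hs.2,
    ?_⟩
  · rw [List.length_take, Nat.min_eq_left hle]; exact hs.1
  · intro i hi hz hw
    rw [List.length_take, Nat.min_eq_left hle] at hi
    rw [List.take_take, Nat.min_eq_left hi.le] at hw
    exact Nat.find_min hex hi ⟨hz, hw⟩

/-- **uniqueness of the offset**: if the right word `Q` is a whole zone tail for the offset `c'`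
then the first wall for the offset `c` is visible in `Q`. -/
theorem visible (hW : Walls Wo n W) {c c' : ℕ} {Q : List α} (hQ : Zn Wo z c' Q)
    (hc : c' ≤ c + W) : ∃ U R, Q = U ++ R ∧ Fw Wo z c U := by
  obtain ⟨U, tl, rfl, h1, h2⟩ := hQ
  refine fw_exists h2.2.1 ?_
  have h3 := hW.sep U tl h1.2.1 h2.2.1 h2.1
  have := h1.1
  rw [List.length_append]
  omega

end Crest.Agent.R320.Data_858
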