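import Crest.Agent.R320.DataA_2

/-!
# Row 320: the two schemes on blocks, soundness and completeness (helper2)
-/

set_option autoImplicit false

namespace Crest.Agent.R320.DataB_2

open Crest.Agent.R320.FewWalls_228 Crest.R320.Reg_143 Crest.Agent.R320.Blk_2
open Crest.Agent.R320.Two_621 Crest.Agent.R320.Star_621 Crest.Agent.R320.DataA_2
open Crest.Agent.R320.ExactR_237 (pr)

variable {α S : Type} [Monoid S]

/-- parameters -/
structure Par (α S : Type) [Monoid S] where
  f : α → S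
  n : ℕ
  W : Set (List α)
  z0 : ℕ
  p0 : ℕ
  N1 : ℕ
  La : ℕ
  K : ℕ
  c : ℕ → ℕ
  Bad : ℕ → Prop
  lam : List α → Option (Tok S)
  rho : List α → Option (Tok S)
  nu : List α → Tok S

/-- the monoid of the inner scheme -/
abbrev TB (S : Type) : Type := (Function.End (Option (Tok S)))ᵐᵒᵖ

namespace Par

variable (p : Par α S)

def ph (w : List α) : S := (w.map p.f).prod

theorem ph_append (u v : List α) : p.ph (u ++ v) = p.ph u * p.ph v := by
  simp [ph]

def Z : Language α := {w | ∃ t l, Blk p.n p.W p.z0 w t l}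

noncomputable def tz (w : List α) : ℕ := sInf {x | p.z0 ≤ x ∧ Wl p.n p.W w x}

theorem tz_eq {w : List α} {t l : ℕ} (h : Blk p.n p.W p.z0 w t l) : p.tz w = t := by
  have h1 : p.tz w ≤ t := Nat.sInf_le ⟨h.1, h.2.2.1⟩
  have h2 : p.tz w ∈ {x | p.z0 ≤ x ∧ Wl p.n p.W w x} := Nat.sInf_mem ⟨t, h.1, h.2.2.1⟩
  rcases h.2.2.2.2.2 _ h2.1 h2.2 with h3 | h3
  · exact h3
  · have := h.2.1
    omega

noncomputable def psiR (R : List α) (T : ℕ) (v : Tok S) : Tok S :=
  act (act v (p.ph (R.take T)) + p.nu (R.take T)) (p.ph (R.drop T))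

noncomputable def dA (z : List α) : Tok S :=
  act (p.nu ((z.drop p.p0).take (p.tz z - p.p0))) (p.ph ((z.drop p.p0).drop (p.tz z - p.p0)))

theorem aff_eq (z : List α) (v : Tok S) :
    aff p.ph p.dA z v = p.psiR (z.drop p.p0) (p.tz z - p.p0) (act v (p.ph (z.take p.p0))) := by
  unfold aff psiR dA
  rw [act_add, act_mul, act_mul, ← p.ph_append, ← p.ph_append, List.take_append_drop,
    List.take_append_drop]

def LA (v : Tok S) : Language α :=
  {P | p.p0 ≤ P.length ∧ p.lam (P.drop p.p0) = some (act v (p.ph (P.take p.p0)))}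

def RA (τ : Tok S) : Language α :=
  {Q | ∃ t l, Blk p.n p.W (p.z0 - p.p0 - p.N1) Q t l ∧ p.z0 - p.p0 ≤ t ∧
    ∃ y, p.rho (Q.take t) = some y ∧ act y (p.ph (Q.drop t)) = τ}

def CutR (v : Tok S) (R : List α) : Prop :=
  ∃ P Q τ, R = P ++ Q ∧ p.lam P = some v ∧ Q ∈ p.RA τ

theorem cut_iff {v : Tok S} {z : List α} (hz : p.p0 ≤ z.length) :
    Cut p.LA p.RA v z ↔ p.CutR (act v (p.ph (z.take p.p0))) (z.drop p.p0) := by
  constructor
  · rintro ⟨P, Q, τ, rfl, ⟨h1, h2⟩, h3⟩
    refine ⟨P.drop p.p0, Q, τ, by rw [List.drop_append_of_le_length h1], ?_, h3⟩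
    rw [List.take_append_of_le_length h1]
    exact h2
  · rintro ⟨P, Q, τ, h1, h2, h3⟩
    have hl : (z.take p.p0).length = p.p0 := by rw [List.length_take]; omega
    refine ⟨z.take p.p0 ++ P, Q, τ, ?_, ⟨?_, ?_⟩, h3⟩
    · rw [List.append_assoc, ← h1, List.take_append_drop]
    · rw [List.length_append]; omega
    · rw [List.drop_append, List.take_append]
      rw [hl, Nat.sub_self, List.drop_zero, List.take_zero, List.append_nil,
        List.drop_eq_nil_of_le (by omega), List.nil_append, List.take_of_length_le (by omega)]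
      exact h2

open Classical in
noncomputable def hB (R : List α) (T : ℕ) : TB S :=
  MulOpposite.op fun o : Option (Tok S) =>
    o.bind fun v => if p.CutR v R then none else some (p.psiR R T v)

def gB (a : α) : TB S := MulOpposite.op fun o : Option (Tok S) => o.map fun v => act v (p.f a)

theorem pr_gB (X : List α) :
    pr p.gB X = MulOpposite.op fun o : Option (Tok S) => o.map fun v => act v (p.ph X) := by
  induction X with
  | nil =>
    unfold pr ph
    simp only [List.map_nil, List.prod_nil]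
    apply MulOpposite.unop_injective
    funext o
    cases o with
    | none => rfl
    | some v => simp [act_one]; rfl
  | cons a X ih =>
    have e : pr p.gB (a :: X) = p.gB a * pr p.gB X := by simp [pr]
    rw [e, ih]
    apply MulOpposite.unop_injective
    funext o
    have e2 : p.ph (a :: X) = p.f a * p.ph X := by simp [ph]
    cases o with
    | none => rfl
    | some v =>
      show some (act (act v (p.f a)) (p.ph X)) = some (act v (p.ph (a :: X)))
      rw [act_mul, e2]

theorem stepA_eq {z : List α} (hz : p.p0 ≤ z.length) :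
    stepA (aff p.ph p.dA) p.LA p.RA z =
      pr p.gB (z.take p.p0) * p.hB (z.drop p.p0) (p.tz z - p.p0) := by
  classical
  rw [pr_gB]
  apply MulOpposite.unop_injective
  funext o
  cases o with
  | none => rfl
  | some v =>
    show (if Cut p.LA p.RA v z then none else some (aff p.ph p.dA z v)) =
      if p.CutR (act v (p.ph (z.take p.p0))) (z.drop p.p0) then none else
        some (p.psiR (z.drop p.p0) (p.tz z - p.p0) (act v (p.ph (z.take p.p0))))
    rw [aff_eq]
    by_cases h : Cut p.LA p.RA v z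
    · rw [if_pos h, if_pos ((p.cut_iff hz).1 h)]
    · rw [if_neg h, if_neg fun h' => h ((p.cut_iff hz).2 h')]

def Zc : Language α := {w | ∃ t l, Blk p.n p.W p.z0 w t l ∧
  ((∃ x, p.z0 ≤ x + p.N1 ∧ x < p.z0 + p.N1 ∧ Wl p.n p.W w x) ∨ p.Bad (t - p.p0))}

/-- candidate `k` has a bad zone -/
def Cand (k : ℕ) (Q : List α) : Prop :=
  (∃ x, p.z0 - p.c k ≤ x + p.N1 ∧ x < p.z0 - p.c k + p.N1 ∧ Wl p.n p.W Q x) ∨
  (∃ t, p.z0 - p.c k ≤ t ∧ Wl p.n p.W Q t ∧
    (∀ x, p.z0 - p.c k ≤ x → x < t → ¬ Wl p.n p.W Q x) ∧ p.Bad (t + p.c k - p.p0))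

variable (lamB : ℕ → List α → Option (Tok (TB S)))
  (rhoB : ℕ → List α → TB S → Option (Tok (TB S))) (nuB : List α → TB S → Tok (TB S))

def LB (ω : Tok (TB S)) : Language α := {P | ∃ k < p.K, P.length = p.c k ∧ lamB k P = some ω}

def RB (τ : Tok (TB S)) : Language α :=
  {Q | ∃ k < p.K, ∃ t l, Blk p.n p.W (p.z0 - p.c k) Q t l ∧
    (∀ k' < p.K, k' ≠ k → ¬ p.Cand k' Q) ∧
    rhoB k (Q.take (p.p0 - p.c k)) (p.hB (Q.drop (p.p0 - p.c k)) (t + p.c k - p.p0)) = some τ}

noncomputable def dB (z : List α) : Tok (TB S) :=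
  nuB (z.take p.p0) (p.hB (z.drop p.p0) (p.tz z - p.p0))

/-- hypotheses -/
structure Ok : Prop where
  p0pos : 0 < p.p0
  cpos : ∀ k < p.K, 0 < p.c k
  cle : ∀ k < p.K, p.c k ≤ p.p0
  hz0 : 3 * p.p0 + 2 * p.N1 + p.La ≤ p.z0
  sep : ∀ (w : List α) (x y : ℕ), x < y → Wl p.n p.W w x → Wl p.n p.W w y →
    x + (2 * p.p0 + 2 * p.N1 + 1) ≤ y
  len : ∀ P v, p.lam P = some v → P.length ≤ p.N1
  exact : ∀ P Q v r, p.lam P = some v → p.rho Q = some r → p.La ≤ Q.length →
    r = act v (p.ph (P ++ Q)) + p.nu (P ++ Q)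
  complete : ∀ u : List α, p.La ≤ u.length → ¬ p.Bad u.length → ∀ v, ∃ P Q, P ++ Q = u ∧
    p.lam P = some v ∧ (p.rho Q).isSome

variable {p}

theorem Blk_len {z : List α} {t l : ℕ} (h : Blk p.n p.W p.z0 z t l) (ho : p.Ok) :
    p.p0 ≤ z.length := by
  have := h.2.2.1.1
  have := h.1
  have := ho.hz0
  omega

theorem code (ho : p.Ok) : Code p.Z := by
  refine ⟨?_, ?_⟩
  · rintro ⟨t, l, h⟩
    have := Blk_len h ho
    have := ho.p0pos
    simp only [List.length_nil] at *
    omega
  · rintro z z' x x' ⟨t, l, h⟩ ⟨t', l', h'⟩ e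
    exact h.code h' e

theorem soundA (ho : p.Ok) : Sound p.Z (aff p.ph p.dA) p.LA p.RA := by
  refine ⟨?_, ?_⟩
  · rintro ω ⟨h1, _⟩
    have := ho.p0pos
    simp only [List.length_nil] at h1
    omega
  · rintro ω τ P Q z x y ⟨hP1, hP2⟩ ⟨t, l, hB1, ht, r, hr, hτ⟩ ⟨tz', lz', hz⟩ e
    have hP' := ho.len _ _ hP2
    rw [List.length_drop] at hP'
    have hz0 := ho.hz0
    have hB2 : Blk p.n p.W (p.z0 - P.length) Q t l := by
      obtain ⟨a1, a2, a3, a4, a5, a6⟩ := hB1
      exact ⟨by omega, a2, a3, a4, a5, fun x hx hw => a6 x (by omega) hw⟩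
    have hB3 := Blk.shift (P := P) (by omega) hB2
    have hPQ : P ++ Q = z := hB3.code hz (by simpa using e)
    refine ⟨hPQ, ?_⟩
    have htz : p.tz z = P.length + t := by rw [← hPQ]; exact p.tz_eq hB3
    have htl : t ≤ Q.length := by have := hB1.2.2.1.1; omega
    rw [aff_eq, htz, ← hPQ, List.drop_append_of_le_length hP1, List.take_append_of_le_length hP1]
    unfold psiR
    have e1 : P.length + t - p.p0 = (P.drop p.p0).length + t := by
      rw [List.length_drop]; omega
    rw [e1, List.take_length_add_append, List.drop_length_add_append]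
    rw [← hτ, ← ho.exact _ _ _ _ hP2 hr (by rw [List.length_take]; omega)]

theorem completeA (ho : p.Ok) : ∀ z ∈ p.Z, z ∉ p.Zc → ∀ v, Cut p.LA p.RA v z := by
  rintro z ⟨t, l, hz⟩ hzc v
  have hz0 := ho.hz0
  have hn1 : ∀ x, p.z0 ≤ x + p.N1 → x < p.z0 + p.N1 → ¬ Wl p.n p.W z x := by
    intro x h1 h2 h3
    exact hzc ⟨t, l, hz, Or.inl ⟨x, h1, h2, h3⟩⟩
  have hn2 : ¬ p.Bad (t - p.p0) := fun h => hzc ⟨t, l, hz, Or.inr h⟩
  obtain ⟨a1, a2, a3, a4, a5, a6⟩ := hz
  have hz : Blk p.n p.W p.z0 z t l := ⟨a1, a2, a3, a4, a5, a6⟩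
  have htl : t + p.n ≤ z.length := a3.1
  have ht2 : p.z0 + p.N1 ≤ t := by
    by_contra hc
    exact hn1 t (by omega) (by omega) a3
  rw [p.cut_iff (Blk_len hz ho)]
  have hY : ((z.drop p.p0).take (t - p.p0)).length = t - p.p0 := by
    rw [List.length_take, List.length_drop]; omega
  obtain ⟨P, Q, e, hP, hQ⟩ := ho.complete ((z.drop p.p0).take (t - p.p0))
    (by rw [hY]; omega) (by rw [hY]; exact hn2) (act v (p.ph (z.take p.p0)))
  have hPl := ho.len _ _ hP
  obtain ⟨r, hr⟩ := Option.isSome_iff_exists.1 hQ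
  have hPQ : P.length + Q.length = t - p.p0 := by
    rw [← hY, ← e, List.length_append]
  have hR : z.drop p.p0 = P ++ (Q ++ z.drop t) := by
    have : z.drop p.p0 = (z.drop p.p0).take (t - p.p0) ++ (z.drop p.p0).drop (t - p.p0) :=
      (List.take_append_drop _ _).symm
    rw [this, List.drop_drop, ← e, show p.p0 + (t - p.p0) = t by omega, List.append_assoc]
  have hzz : z = (z.take p.p0 ++ P) ++ (Q ++ z.drop t) := by
    rw [List.append_assoc, ← hR, List.take_append_drop]
  have hPP : (z.take p.p0 ++ P).length = p.p0 + P.length := by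
    rw [List.length_append, List.length_take]; omega
  have hB := hz
  rw [hzz] at hB
  have hB2 := hB.unshift (by rw [hPP]; omega)
  rw [hPP] at hB2
  have hq : t - (p.p0 + P.length) = Q.length := by omega
  refine ⟨P, Q ++ z.drop t, act r (p.ph (z.drop t)), hR, hP, t - (p.p0 + P.length),
    l - (p.p0 + P.length), ?_, by omega, r, ?_, ?_⟩
  · obtain ⟨b1, b2, b3, b4, b5, b6⟩ := hB2
    refine ⟨by omega, b2, b3, b4, b5, fun x hx hw => ?_⟩
    by_cases hc : p.z0 - (p.p0 + P.length) ≤ x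
    · exact b6 x hc hw
    · exfalso
      have hw' : Wl p.n p.W z ((z.take p.p0 ++ P).length + x) := by
        have h := (wl_right (n := p.n) (S := p.W) (u := z.take p.p0 ++ P)
          (v := Q ++ z.drop t) (x := x)).2 hw
        rwa [← hzz] at h
      rw [hPP] at hw'
      exact hn1 _ (by omega) (by omega) hw'
  · rw [hq, List.take_left']
    · exact hr
    · rfl
  · rw [hq, List.drop_left']
    rfl

end Par

end Crest.Agent.R320.DataB_2
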