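import Crest.Agent.R320.DataG_276

/-!
# Row 320: the inner (promise) scheme for the data of `Main_621` (helper276)
-/

set_option autoImplicit false

namespace Crest.Agent.R320.DataG_276

open Crest.Agent.R320.Hk_851 Crest.Agent.R320.Star_621 Crest.Agent.R320.Two_621

universe u

variable {α : Type u} {S : Type u} [Monoid S]

/-- the monoid of the inner scheme -/
abbrev MM (S : Type u) : Type u := (Function.End (Option (Tok S)))ᵐᵒᵖ

/-- letters of the inner scheme -/
def fM (f : α → S) (a : α) : MM S :=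
  MulOpposite.op (fun o : Option (Tok S) => o.map fun v => act v (f a))

/-- value of a word -/
def phf (f : α → S) (w : List α) : S := (w.map f).prod

theorem phf_append (f : α → S) (a b : List α) : phf f (a ++ b) = phf f a * phf f b := by
  simp [phf]

theorem phf_nil (f : α → S) : phf f [] = 1 := by simp [phf]

theorem pr_fM (f : α → S) (X : List α) :
    (X.map (fM f)).prod = MulOpposite.op (fun o : Option (Tok S) =>
      o.map fun v => act v (phf f X)) := by
  induction X with
  | nil =>
    rw [List.map_nil, List.prod_nil]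
    apply MulOpposite.unop_injective
    funext o
    show o = o.map fun v => act v (phf f [])
    cases o with
    | none => rfl
    | some v => rw [Option.map_some, phf_nil, act_one]
  | cons a X ih =>
    rw [List.map_cons, List.prod_cons, ih]
    apply MulOpposite.unop_injective
    funext o
    show (o.map fun v => act v (f a)).map (fun v => act v (phf f X)) =
      o.map fun v => act v (phf f (a :: X))
    cases o with
    | none => rfl
    | some v =>
      simp only [Option.map_some]
      rw [act_mul]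
      rfl

variable {Wo : List α → Prop} {n W z p0 N L0 : ℕ} {BadT : ℕ → Prop} {f : α → S}
  {lam rho : List α → Option (Tok S)} {nu : List α → Tok S}

/-- noise of the outer scheme read on the rest of the zone -/
noncomputable def dR (Wo : List α → Prop) (z p0 : ℕ) (f : α → S)
    (nu : List α → Tok S) (R : List α) : Tok S :=
  act (nu (R.take (bk Wo (z - p0) R))) (phf f (R.drop (bk Wo (z - p0) R)))

open Classical in
/-- what the rest of the zone does -/
noncomputable def yR (Wo : List α → Prop) (z p0 N : ℕ) (f : α → S)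
    (lam : List α → Option (Tok S)) (nu : List α → Tok S) (R : List α) : MM S :=
  MulOpposite.op (fun o : Option (Tok S) => o.bind fun u =>
    if (∃ P' Q τ, R = P' ++ Q ∧ P'.length ≤ N ∧ lam P' = some u ∧
        Q ∈ RA Wo z p0 N (phf f) lam nu τ) then none
    else some (act u (phf f R) + dR Wo z p0 f nu R))

theorem blk_drop (hloc : ∀ P Q : List α, n ≤ Q.length → (Wo (P ++ Q) ↔ Wo Q))
    (X R : List α) (hX : X.length = p0) (hz : p0 + n ≤ z) (b : ℕ) :
    Blk Wo z (X ++ R) (p0 + b) ↔ Blk Wo (z - p0) R b := by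
  have tk : ∀ s, (X ++ R).take (p0 + s) = X ++ R.take s := by
    intro s
    rw [List.take_append, hX]
    simp [List.take_of_length_le, hX]
  have tr : ∀ s, n ≤ s → s ≤ R.length → (Wo ((X ++ R).take (p0 + s)) ↔ Wo (R.take s)) := by
    intro s hs hs'
    rw [tk, hloc X _ (by rw [List.length_take]; omega)]
  have hl : (X ++ R).length = p0 + R.length := by rw [List.length_append, hX]
  constructor
  · rintro ⟨h1, h2, h3, h4, h5⟩
    rw [hl] at h2
    refine ⟨by omega, by omega, (tr b (by omega) (by omega)).1 h3, ?_, ?_⟩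
    · exact (hloc X R (by omega)).1 h4
    · intro t ht1 ht2 ht3
      have := h5 (p0 + t) (by omega) (by rw [hl]; omega) ((tr t (by omega) (by omega)).2 ht3)
      omega
  · rintro ⟨h1, h2, h3, h4, h5⟩
    refine ⟨by omega, by rw [hl]; omega, (tr b (by omega) (by omega)).2 h3, ?_, ?_⟩
    · exact (hloc X R (by omega)).2 h4
    · intro t ht1 ht2 ht3
      rw [hl] at ht2
      obtain ⟨s, rfl⟩ : ∃ s, t = p0 + s := ⟨t - p0, by omega⟩
      have := h5 s (by omega) (by omega) ((tr s (by omega) (by omega)).1 ht3)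
      omega

theorem bk_drop (hloc : ∀ P Q : List α, n ≤ Q.length → (Wo (P ++ Q) ↔ Wo Q))
    {w : List α} {b : ℕ} (hz : p0 + n ≤ z) (h : Blk Wo z w b) :
    bk Wo z w = b ∧ bk Wo (z - p0) (w.drop p0) = b - p0 := by
  refine ⟨bk_eq h, bk_eq ?_⟩
  have h1 := h.1
  have h2 := h.2.1
  have hl : (w.take p0).length = p0 := by rw [List.length_take]; omega
  rw [← blk_drop hloc (w.take p0) (w.drop p0) hl hz, List.take_append_drop]
  have : p0 + (b - p0) = b := by omega
  rw [this]; exact h

theorem dA_eq (hloc : ∀ P Q : List α, n ≤ Q.length → (Wo (P ++ Q) ↔ Wo Q))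
    {w : List α} {b : ℕ} (hz : p0 + n ≤ z) (h : Blk Wo z w b) :
    dA Wo z p0 (phf f) nu w = dR Wo z p0 f nu (w.drop p0) := by
  obtain ⟨h1, h2⟩ := bk_drop hloc hz h
  have hb1 := h.1
  unfold dA dR
  rw [h1, h2, List.drop_take, List.drop_drop]
  congr 3
  omega

theorem stepA_eq (hloc : ∀ P Q : List α, n ≤ Q.length → (Wo (P ++ Q) ↔ Wo Q))
    {w : List α} {b : ℕ} (hz : p0 + n ≤ z) (h : Blk Wo z w b) :
    stepA (aff (phf f) (dA Wo z p0 (phf f) nu)) (LA p0 N (phf f) lam)
      (RA Wo z p0 N (phf f) lam nu) w =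
      ((w.take p0).map (fM f)).prod * yR Wo z p0 N f lam nu (w.drop p0) := by
  classical
  have hb1 := h.1
  have hb2 := h.2.1
  have hl : (w.take p0).length = p0 := by rw [List.length_take]; omega
  rw [pr_fM]
  apply MulOpposite.unop_injective
  funext o
  show (stepA (aff (phf f) (dA Wo z p0 (phf f) nu)) (LA p0 N (phf f) lam)
      (RA Wo z p0 N (phf f) lam nu) w).unop o =
    (yR Wo z p0 N f lam nu (w.drop p0)).unop (o.map fun v => act v (phf f (w.take p0)))
  cases o with
  | none => rfl
  | some v =>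
    have hcut : Cut (LA p0 N (phf f) lam) (RA Wo z p0 N (phf f) lam nu) v w ↔
        ∃ P' Q τ, w.drop p0 = P' ++ Q ∧ P'.length ≤ N ∧
          lam P' = some (act v (phf f (w.take p0))) ∧ Q ∈ RA Wo z p0 N (phf f) lam nu τ := by
      constructor
      · rintro ⟨P, Q, τ, rfl, ⟨h1, h2, h3⟩, hQ⟩
        refine ⟨P.drop p0, Q, τ, ?_, ?_, ?_, hQ⟩
        · rw [List.drop_append_of_le_length h1]
        · rw [List.length_drop]; omega
        · rw [List.take_append_of_le_length h1]; exact h3
      · rintro ⟨P', Q, τ, h1, h2, h3, hQ⟩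
        refine ⟨w.take p0 ++ P', Q, τ, ?_, ⟨?_, ?_, ?_⟩, hQ⟩
        · rw [List.append_assoc, ← h1, List.take_append_drop]
        · rw [List.length_append]; omega
        · rw [List.length_append]; omega
        · rw [List.drop_append_of_le_length (by omega), List.take_append_of_le_length (by omega),
            List.take_take, min_self, List.drop_of_length_le (by omega), List.nil_append]
          exact h3
    have hval : aff (phf f) (dA Wo z p0 (phf f) nu) w v =
        act (act v (phf f (w.take p0))) (phf f (w.drop p0)) + dR Wo z p0 f nu (w.drop p0) := by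
      unfold aff
      rw [dA_eq hloc hz h, act_mul, ← phf_append, List.take_append_drop]
    show (if Cut (LA p0 N (phf f) lam) (RA Wo z p0 N (phf f) lam nu) v w then none
        else some (aff (phf f) (dA Wo z p0 (phf f) nu) w v)) =
      (if (∃ P' Q τ, w.drop p0 = P' ++ Q ∧ P'.length ≤ N ∧
          lam P' = some (act v (phf f (w.take p0))) ∧ Q ∈ RA Wo z p0 N (phf f) lam nu τ) then none
        else some (act (act v (phf f (w.take p0))) (phf f (w.drop p0)) +
          dR Wo z p0 f nu (w.drop p0)))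
    rw [hval]
    simp only [hcut]

section inner

variable (Wo z p0 N BadT f lam nu)
variable (K : ℕ) (c : ℕ → ℕ) (lamB : ℕ → List α → Option (Tok (MM S)))
  (nuB : List α → MM S → Tok (MM S))

/-- the inner zone map -/
noncomputable def thB (w : List α) : MM S :=
  stepA (aff (phf f) (dA Wo z p0 (phf f) nu)) (LA p0 N (phf f) lam)
      (RA Wo z p0 N (phf f) lam nu) w

/-- noise of the inner scheme -/
noncomputable def dB (w : List α) : Tok (MM S) :=
  nuB (w.take p0) (yR Wo z p0 N f lam nu (w.drop p0))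

/-- left words of the inner scheme -/
def LB (v : Tok (MM S)) : Language α :=
  {P | ∃ k < K, P.length = c k ∧ lamB k P = some v}

/-- comparable with a bad zone -/
def Cmp (u : List α) : Prop := ∃ x w' y, w' ∈ ZC Wo z N p0 BadT ∧ u ++ x = w' ++ y

/-- right words of the inner scheme (semantic) -/
def RB (τ : Tok (MM S)) : Language α :=
  {Q | ∀ v P, P ∈ LB K c lamB v → Cmp Wo z p0 N BadT (P ++ Q) →
    (P ++ Q ∈ ZC Wo z N p0 BadT ∧
      aff (thB Wo z p0 N f lam nu) (dB Wo z p0 N f lam nu nuB) (P ++ Q) v = τ)}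

end inner

variable {K : ℕ} {c : ℕ → ℕ} {lamB : ℕ → List α → Option (Tok (MM S))}
  {rhoB : ℕ → List α → MM S → Option (Tok (MM S))}
  {nuB : List α → MM S → Tok (MM S)}

theorem ZC_sub {w : List α} (h : w ∈ ZC Wo z N p0 BadT) : w ∈ ZZ Wo z := by
  obtain ⟨b, hb, -⟩ := h
  exact ⟨b, hb⟩

theorem sound_B (hc0 : ∀ k < K, 0 < c k) :
    Sound (ZC Wo z N p0 BadT) (aff (thB Wo z p0 N f lam nu) (dB Wo z p0 N f lam nu nuB))
      (LB K c lamB) (RB Wo z p0 N BadT f lam nu K c lamB nuB) := by
  refine ⟨?_, ?_⟩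
  · rintro ω ⟨k, hk, h, -⟩
    have := hc0 k hk
    simp at h; omega
  · intro ω τ P Q w x y hP hQ hw e
    obtain ⟨h1, h2⟩ := hQ ω P hP ⟨x, w, y, hw, e⟩
    have h3 : P ++ Q = w := (code_ZZ Wo z).2 _ _ _ _ (ZC_sub h1) (ZC_sub hw) e
    exact ⟨h3, by rw [← h2, h3]⟩

theorem blk_same (hloc : ∀ P Q : List α, n ≤ Q.length → (Wo (P ++ Q) ↔ Wo Q))
    {P P2 Q : List α} (hl : P2.length = P.length) (hz : P.length + n ≤ z) {b : ℕ}
    (h : Blk Wo z (P ++ Q) b) : Blk Wo z (P2 ++ Q) b := by
  have h1 := h.1
  have e : b = P.length + (b - P.length) := by omega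
  rw [e] at h ⊢
  rw [blk_drop hloc P Q rfl hz] at h
  rw [← hl] at h hz ⊢
  exact (blk_drop hloc P2 Q rfl hz _).2 h

theorem complete_B (hloc : ∀ P Q : List α, n ≤ Q.length → (Wo (P ++ Q) ↔ Wo Q))
    (hz : p0 + n ≤ z) (hcp : ∀ k < K, c k ≤ p0)
    (hsB : ∀ k < K, ∀ (P Q : List α) (y : MM S) (v b : Tok (MM S)), P.length = c k →
      lamB k P = some v → rhoB k Q y = some b →
        b = act v (((P ++ Q).map (fM f)).prod * y) + nuB (P ++ Q) y)
    {w : List α} (hw : w ∈ ZC Wo z N p0 BadT) (v : Tok (MM S)) {k : ℕ} (hk : k < K)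
    (hlam : lamB k ((w.take p0).take (c k)) = some v)
    (hrho : (rhoB k ((w.take p0).drop (c k)) (yR Wo z p0 N f lam nu (w.drop p0))).isSome)
    (hsp : ∀ k2 < K, ∀ P2 : List α, P2.length = c k2 →
      Cmp Wo z p0 N BadT (P2 ++ w.drop (c k)) → k2 = k) :
    Cut (LB K c lamB) (RB Wo z p0 N BadT f lam nu K c lamB nuB) v w := by
  obtain ⟨b, hb, hbad⟩ := id hw
  have hb1 := hb.1
  have hb2 := hb.2.1
  have hck := hcp k hk
  obtain ⟨r, hr⟩ := Option.isSome_iff_exists.1 hrho
  have hPl : (w.take (c k)).length = c k := by rw [List.length_take]; omega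
  refine ⟨w.take (c k), w.drop (c k), r, (List.take_append_drop _ _).symm, ?_, ?_⟩
  · refine ⟨k, hk, hPl, ?_⟩
    rw [List.take_take, min_eq_left hck] at hlam
    exact hlam
  · intro v2 P2 hP2 hcmp
    obtain ⟨k2, hk2, hl2, hlam2⟩ := hP2
    have hkk := hsp k2 hk2 P2 hl2 hcmp
    subst hkk
    have hB2 : Blk Wo z (P2 ++ w.drop (c k2)) b := by
      refine blk_same hloc (P := w.take (c k2)) (by rw [hl2, hPl]) (by omega) ?_
      rw [List.take_append_drop]; exact hb
    obtain ⟨x, w', y, hw', e⟩ := hcmp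
    have e1 : P2 ++ w.drop (c k2) = w' :=
      (code_ZZ Wo z).2 _ _ _ _ ⟨b, hB2⟩ (ZC_sub hw') e
    refine ⟨e1 ▸ hw', ?_⟩
    have hlw : (P2 ++ w.drop (c k2)).take p0 = P2 ++ (w.take p0).drop (c k2) := by
      rw [List.take_append, List.take_of_length_le (by omega), List.drop_take, hl2]
    have hdw : (P2 ++ w.drop (c k2)).drop p0 = w.drop p0 := by
      rw [List.drop_append, List.drop_of_length_le (by omega), List.nil_append, List.drop_drop, hl2]
      congr 1
      omega
    unfold aff thB dB
    rw [stepA_eq hloc hz hB2, hlw, hdw]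
    exact (hsB k2 hk2 _ _ _ _ _ hl2 hlam2 hr).symm

end Crest.Agent.R320.DataG_276
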