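import Crest.Agent.R320.DataA_332

/-!
# Row 320: scheme B (promise ruler) relative to the critical zones (helper332)
-/

set_option autoImplicit false

namespace Crest.Agent.R320.Data_332

open Crest.Agent.R320.Hk_851 Crest.Agent.R320.Star_621 Crest.Agent.R320.Two_621
  Crest.Agent.R320.Main_621 Crest.Agent.R320.ExactR_237

variable {α : Type}

section b

variable {n W z0 p0 : ℕ} {Wo : List α → Prop} {S : Type} [Monoid S] (f : α → S)
  (lam rho : List α → Option (Tok S)) (nu1 : List α → Tok S) (N1 : ℕ) (BadT : ℕ → Prop)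

/-- inner monoid -/
abbrev TT (S : Type) : Type := (Function.End (Option (Tok S)))ᵐᵒᵖ

/-- letters of the inner monoid -/
def fB (f : α → S) (a : α) : TT S :=
  MulOpposite.op fun o : Option (Tok S) => o.map fun v => act v (f a)

theorem pr_fB (X : List α) (o : Option (Tok S)) :
    (pr (fB f) X).unop o = o.map fun v => act v (pr f X) := by
  induction X generalizing o with
  | nil =>
    have h : pr (fB f) ([] : List α) = 1 := rfl
    have h' : pr f ([] : List α) = 1 := rfl
    rw [h, h']
    cases o with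
    | none => rfl
    | some v => show some v = some (act v 1); rw [act_one]
  | cons a X ih =>
    have h : pr (fB f) (a :: X) = fB f a * pr (fB f) X := rfl
    have h' : pr f (a :: X) = f a * pr f X := rfl
    rw [h, h', MulOpposite.unop_mul]
    show (pr (fB f) X).unop ((fB f a).unop o) = _
    rw [ih]
    cases o with
    | none => rfl
    | some v =>
      show some (act (act v (f a)) (pr f X)) = some (act v (f a * pr f X))
      rw [act_mul]

/-- a token at the place `p0` is cut in the rest `Q` of the zone -/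
def Cut0 (lam : List α → Option (Tok S)) (RR : Tok S → Language α) (v : Tok S) (Q : List α) :
    Prop := ∃ P1 Q1 w, Q = P1 ++ Q1 ∧ lam P1 = some v ∧ Q1 ∈ RR w

open Classical in
/-- the flow of scheme A on the rest of the zone behind `p0` -/
noncomputable def yB (Wo : List α → Prop) (z0 p0 : ℕ) (f : α → S) (nu1 : List α → Tok S)
    (lam : List α → Option (Tok S)) (RR : Tok S → Language α) (Q : List α) : TT S :=
  MulOpposite.op fun o : Option (Tok S) => o.bind fun v =>
    if Cut0 lam RR v Q then none else some (act v (pr f Q) + dN Wo z0 p0 f nu1 Q)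

theorem cut_iff {RR : Tok S → Language α} {X Q : List α} (hX : X.length = p0) (v : Tok S) :
    Cut (LA p0 f lam) RR v (X ++ Q) ↔ Cut0 lam RR (act v (pr f X)) Q := by
  constructor
  · rintro ⟨P, Q1, w, he, ⟨X', P1, rfl, hX', hl⟩, hQ⟩
    rw [List.append_assoc] at he
    have h1 := List.append_inj he (by rw [hX, hX'])
    obtain ⟨rfl, h2⟩ := h1
    exact ⟨P1, Q1, w, h2, hl, hQ⟩
  · rintro ⟨P1, Q1, w, h2, hl, hQ⟩
    exact ⟨X ++ P1, Q1, w, by rw [h2, List.append_assoc], ⟨X, P1, rfl, hX, hl⟩, hQ⟩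

theorem stepA_eq {RR : Tok S → Language α} {X Q : List α} (hX : X.length = p0) :
    stepA (aff (fun u => pr f u) (dA Wo z0 p0 f nu1)) (LA p0 f lam) RR (X ++ Q) =
      pr (fB f) X * yB Wo z0 p0 f nu1 lam RR Q := by
  classical
  apply MulOpposite.unop_injective
  funext o
  rw [MulOpposite.unop_mul]
  show _ = (yB Wo z0 p0 f nu1 lam RR Q).unop ((pr (fB f) X).unop o)
  rw [pr_fB]
  cases o with
  | none => rfl
  | some v =>
    have hd : (X ++ Q).drop p0 = Q := by rw [← hX, List.drop_left]
    show (if Cut (LA p0 f lam) RR v (X ++ Q) then none else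
        some (act v (pr f (X ++ Q)) + dA Wo z0 p0 f nu1 (X ++ Q))) =
      (if Cut0 lam RR (act v (pr f X)) Q then none else
        some (act (act v (pr f X)) (pr f Q) + dN Wo z0 p0 f nu1 Q))
    unfold dA
    rw [hd, pr_append, act_mul]
    exact if_congr (cut_iff f lam hX v) rfl rfl

/-- left words of scheme B -/
def LB {V : Type} (K : ℕ) (c : ℕ → ℕ) (lamB : ℕ → List α → Option V) (v : V) : Language α :=
  {P | ∃ k < K, P.length = c k ∧ lamB k P = some v}

/-- right words of scheme B -/
def RB {V T : Type} (Wo : List α → Prop) (z0 p0 N1 : ℕ) (BadT : ℕ → Prop) (K : ℕ) (c : ℕ → ℕ)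
    (rhoB : ℕ → List α → T → Option V) (y : List α → T) (w : V) : Language α :=
  {Q | ∃ k < K, BR Wo z0 p0 N1 BadT (c k) Q ∧ ZR Wo z0 (c k) Q ∧
    (∀ k' < K, BR Wo z0 p0 N1 BadT (c k') Q → k' = k) ∧
    rhoB k (Q.take (p0 - c k)) (y (Q.drop (p0 - c k))) = some w}

theorem soundB (H : Walls n W Wo) {T : Type} [Monoid T] (g : α → T) (y : List α → T)
    (th : List α → T) (K : ℕ) (c : ℕ → ℕ) (hc0 : ∀ k < K, 0 < c k) (hcp : ∀ k < K, c k ≤ p0)
    (hth : ∀ z, ZR Wo z0 0 z → th z = pr g (z.take p0) * y (z.drop p0))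
    (lamB : ℕ → List α → Option (Tok T)) (rhoB : ℕ → List α → T → Option (Tok T))
    (nuB : List α → T → Tok T)
    (hS : ∀ k < K, ∀ (P Q : List α) (y : T) (v b : Tok T), P.length = c k →
          lamB k P = some v → rhoB k Q y = some b → b = act v (pr g (P ++ Q) * y) + nuB (P ++ Q) y)
    (hz0 : p0 + n + N1 ≤ z0) (hW : p0 + N1 ≤ W) :
    Sound ({z | ZR Wo z0 0 z ∧ BR Wo z0 p0 N1 BadT 0 z} : Language α)
      (aff th (fun z => nuB (z.take p0) (y (z.drop p0))))
      (LB K c lamB) (RB Wo z0 p0 N1 BadT K c rhoB y) := by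
  refine ⟨?_, ?_⟩
  · rintro w ⟨k, hk, h1, _⟩
    have := hc0 k hk
    rw [List.length_nil] at h1
    omega
  · rintro w t P Q z x yy ⟨k1, hk1, hP, hl⟩ ⟨k, hk, hB, hZ, hu, hr⟩ ⟨hz, hzB⟩ he
    have hp1 := hcp k1 hk1
    have hp := hcp k hk
    -- the anchor of `P ++ Q` is bad
    have hPQ : BR Wo z0 p0 N1 BadT 0 (P ++ Q) := by
      rcases List.append_eq_append_iff.1 he with ⟨a, h1, h2⟩ | ⟨a, h1, h2⟩
      · -- `z = (P ++ Q) ++ a`
        obtain ⟨tk, hF, htk, hWQ, hn⟩ := hZ
        have hgap := H.gap Q tk Q.length htk le_rfl hF.2.2.1 (by rw [List.take_length]; exact hWQ)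
        have hFz := hF.2.1
        subst h1
        rcases hzB with ⟨t', h1', h2', h3', h4'⟩ | ⟨t', h1', h2'⟩
        · left
          have hle : t' ≤ (P ++ Q).length := by rw [List.length_append]; omega
          rw [List.take_append_of_le_length hle] at h4'
          exact ⟨t', hle, h2', h3', h4'⟩
        · right
          have hle : t' ≤ (P ++ Q).length := by
            by_contra hc
            refine h1'.2.2.2 (P ++ Q).length (by omega)
              (by rw [List.length_append]; omega) ?_
            rw [List.take_left]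
            exact (H.loc P Q (by omega)).2 hWQ
          exact ⟨t', h1'.res hle, h2'⟩
      · -- `P ++ Q = z ++ a`
        rw [h1]
        rcases hzB with ⟨t', h1', h2', h3', h4'⟩ | ⟨t', h1', h2'⟩
        · left
          refine ⟨t', by rw [List.length_append]; omega, h2', h3', ?_⟩
          rwa [List.take_append_of_le_length h1']
        · right
          exact ⟨t', h1'.ext, h2'⟩
    have hk1k : k1 = k := hu k1 hk1 (by
      rw [← hP]; exact (BR.app N1 H (by omega)).1 hPQ)
    subst hk1k
    have hZ' : ZR Wo z0 0 (P ++ Q) := (ZR.app H (by omega)).2 (by rw [hP]; exact hZ)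
    have e := ZR.code.2 _ _ _ _ hZ' hz he
    refine ⟨e, ?_⟩
    subst e
    have htake : (P ++ Q).take p0 = P ++ Q.take (p0 - c k1) := by
      rw [List.take_append, hP, List.take_of_length_le (by rw [hP]; exact hp1)]
    have hdrop : (P ++ Q).drop p0 = Q.drop (p0 - c k1) := by
      rw [List.drop_append, hP, List.drop_eq_nil_of_le (by rw [hP]; exact hp1), List.nil_append]
    show t = act w (th (P ++ Q)) + nuB ((P ++ Q).take p0) (y ((P ++ Q).drop p0))
    rw [hth _ hZ', htake, hdrop]
    exact hS k1 hk1 P _ _ w t hP hl hr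

theorem complB (H : Walls n W Wo) {T : Type} [Monoid T] (g : α → T) (y : List α → T)
    (K R : ℕ) (c : ℕ → ℕ) (hcp : ∀ k < K, c k ≤ p0)
    (lamB : ℕ → List α → Option (Tok T)) (rhoB : ℕ → List α → T → Option (Tok T))
    (hC : ∀ (u : List α) (y : T) (v : Tok T), (∀ k < K, c k ≤ u.length) →
          ∃ I : Finset ℕ, R ≤ I.card ∧ ∀ k ∈ I, k < K ∧ lamB k (u.take (c k)) = some v ∧
            (rhoB k (u.drop (c k)) y).isSome)
    (hz0 : p0 + n + N1 ≤ z0) (z : List α) (hz : ZR Wo z0 0 z) (hzB : BR Wo z0 p0 N1 BadT 0 z)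
    (hamb : ∀ s : Finset ℕ, (∀ k ∈ s, k < K ∧ ∃ k' < K, k' ≠ k ∧
      BR Wo z0 p0 N1 BadT (c k') (z.drop (c k))) → s.card < R) (v : Tok T) :
    Cut (LB K c lamB) (RB Wo z0 p0 N1 BadT K c rhoB y) v z := by
  classical
  have hzl : z0 < z.length := by
    obtain ⟨t, hF, ht, _⟩ := hz
    have := hF.2.1
    omega
  obtain ⟨I, hI, hIk⟩ := hC (z.take p0) (y (z.drop p0)) v
    (fun k hk => by rw [List.length_take]; exact le_min (hcp k hk) (by have := hcp k hk; omega))
  have hne : ∃ k ∈ I, ¬ ∃ k' < K, k' ≠ k ∧ BR Wo z0 p0 N1 BadT (c k') (z.drop (c k)) := by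
    by_contra hcon
    push Not at hcon
    have := hamb I (fun k hk => ⟨(hIk k hk).1, by
      obtain ⟨k', h1, h2, h3⟩ := hcon k hk
      exact ⟨k', h1, h2, h3⟩⟩)
    omega
  obtain ⟨k, hkI, hkamb⟩ := hne
  obtain ⟨hk, hl, hr⟩ := hIk k hkI
  obtain ⟨b, hb⟩ := Option.isSome_iff_exists.1 hr
  have hle : c k ≤ p0 := hcp k hk
  have hlen : (z.take (c k)).length = c k := by
    rw [List.length_take]; omega
  refine ⟨z.take (c k), z.drop (c k), b, (List.take_append_drop _ _).symm,
    ⟨k, hk, hlen, ?_⟩, k, hk, ?_, ?_, ?_, ?_⟩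
  · rwa [List.take_take, min_eq_left hle] at hl
  · have := (BR.app N1 H (z0 := z0) (P := z.take (c k)) (Q := z.drop (c k)) (BadT := BadT) (p0 := p0)
      (by omega)).1 (by rw [List.take_append_drop]; exact hzB)
    rwa [hlen] at this
  · have := (ZR.app H (z0 := z0) (P := z.take (c k)) (Q := z.drop (c k)) (by omega)).1
      (by rw [List.take_append_drop]; exact hz)
    rwa [hlen] at this
  · intro k' hk' hB
    by_contra hne
    exact hkamb ⟨k', hk', hne, hB⟩
  · have e1 : (z.take p0).drop (c k) = (z.drop (c k)).take (p0 - c k) := List.drop_take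
    have e2 : z.drop p0 = (z.drop (c k)).drop (p0 - c k) := by
      rw [List.drop_drop, Nat.add_sub_cancel' hle]
    rw [← e1, ← e2]
    exact hb

end b

end Crest.Agent.R320.Data_332
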