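import Crest.Agent.R320.DataA_614
import Crest.Agent.R320.ExactU_614

/-!
# Row 320: scheme B (promise ruler) on the zones of `DataA_614` (helper614)
-/

set_option autoImplicit false

namespace Crest.Agent.R320.DataU_614

open Crest.Agent.R320.Hk_851 Crest.Agent.R320.Star_621 Crest.Agent.R320.Two_621
open Crest.Agent.R320.ExactU_614 (pr)

universe u v

variable {α : Type u}

/-- monoid of maps of the tokens of scheme A -/
abbrev TT (S : Type v) : Type v := (Function.End (Option (Tok S)))ᵐᵒᵖ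

def tr {S : Type v} [Monoid S] (s : S) : TT S :=
  MulOpposite.op (fun o : Option (Tok S) => o.map (fun v => act v s))

theorem tr_one {S : Type v} [Monoid S] : tr (1 : S) = 1 := by
  apply MulOpposite.unop_injective
  funext o
  cases o with
  | none => rfl
  | some v => show some (act v 1) = some v; rw [act_one]

theorem tr_mul {S : Type v} [Monoid S] (s t : S) : tr (s * t) = tr s * tr t := by
  apply MulOpposite.unop_injective
  funext o
  cases o with
  | none => rfl
  | some v => show some (act v (s * t)) = some (act (act v s) t); rw [act_mul]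

theorem pr_tr {S : Type v} [Monoid S] (f : α → S) (X : List α) :
    pr (fun a => tr (f a)) X = tr ((X.map f).prod) := by
  unfold pr
  induction X with
  | nil => simp [tr_one]
  | cons a X ih => rw [List.map_cons, List.prod_cons, ih, List.map_cons, List.prod_cons, tr_mul]

section B

variable {S : Type u} [Monoid S] (ph : List α → S) (Wo : List α → Prop) (p0 z n N : ℕ)
  (lam rho : List α → Option (Tok S)) (nu : List α → Tok S)

def CutY (w : Tok S) (U : List α) : Prop :=
  ∃ p Q τ, U = p ++ Q ∧ lam p = some w ∧ Q ∈ RA ph Wo z n N rho τ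

open Classical in
noncomputable def stepY (U : List α) : TT S :=
  MulOpposite.op fun o => o.bind fun w =>
    if CutY ph Wo z n N lam rho w U then none else some (mY ph Wo z nu U w)

/-- bad text behind `p0` -/
def BadT (Bad : ℕ → Prop) (Q : List α) : Prop :=
  ∃ u, FW Wo z Q u ∧ (EE Wo z N Q ∨ Bad u)

def Zc (Bad : ℕ → Prop) : Language α :=
  {X | X ∈ Zn Wo p0 z ∧ BadT Wo z N Bad (X.drop p0)}

def LB (K : ℕ) (c : ℕ → ℕ) (lamB : ℕ → List α → Option (Tok (TT S))) (v : Tok (TT S)) :
    Language α :=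
  {P | ∃ k < K, P.length = c k ∧ lamB k P = some v}

def RB (Bad : ℕ → Prop) (K : ℕ) (c : ℕ → ℕ)
    (rhoB : ℕ → List α → TT S → Option (Tok (TT S))) (τ : Tok (TT S)) : Language α :=
  {Q | ∃ k < K, ∃ u, p0 - c k ≤ Q.length ∧ ZU Wo z (Q.drop (p0 - c k)) u ∧
    (∀ k' < K, BadT Wo z N Bad (Q.drop (p0 - c k')) → k' = k) ∧
    rhoB k (Q.take (p0 - c k)) (stepY ph Wo z n N lam rho nu (Q.drop (p0 - c k))) = some τ}

noncomputable def dB (nuB : List α → TT S → Tok (TT S)) (X : List α) : Tok (TT S) :=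
  nuB (X.take p0) (stepY ph Wo z n N lam rho nu (X.drop p0))

variable {ph Wo p0 z n N lam rho nu}

theorem cut_iff {X : List α} (hX : p0 ≤ X.length) (v : Tok S) :
    Cut (LA ph p0 lam) (RA ph Wo z n N rho) v X ↔
      CutY ph Wo z n N lam rho (act v (ph (X.take p0))) (X.drop p0) := by
  constructor
  · rintro ⟨P, Q, τ, rfl, ⟨hP, hl⟩, hQ⟩
    refine ⟨P.drop p0, Q, τ, ?_, ?_, hQ⟩
    · rw [List.drop_append_of_le_length hP]
    · rw [List.take_append_of_le_length hP]; exact hl
  · rintro ⟨p, Q, τ, e, hl, hQ⟩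
    have hX0 : (X.take p0).length = p0 := by rw [List.length_take]; omega
    refine ⟨X.take p0 ++ p, Q, τ, ?_, ⟨by rw [List.length_append]; omega, ?_⟩, hQ⟩
    · rw [List.append_assoc, ← e, List.take_append_drop]
    · have e1 : (X.take p0 ++ p).drop p0 = p := by
        rw [List.drop_append, List.drop_eq_nil_of_le (by omega), hX0, Nat.sub_self,
          List.drop_zero, List.nil_append]
      have e2 : (X.take p0 ++ p).take p0 = X.take p0 := by
        rw [List.take_append_of_le_length (by omega), List.take_take, min_self]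
      rw [e1, e2]; exact hl

theorem stepA_eq (hm : ∀ a b, ph (a ++ b) = ph a * ph b) {X : List α} (hX : p0 ≤ X.length) :
    stepA (aff ph (dA ph Wo p0 z nu)) (LA ph p0 lam) (RA ph Wo z n N rho) X =
      tr (ph (X.take p0)) * stepY ph Wo z n N lam rho nu (X.drop p0) := by
  classical
  apply MulOpposite.unop_injective
  funext o
  cases o with
  | none => rfl
  | some v =>
    by_cases h : Cut (LA ph p0 lam) (RA ph Wo z n N rho) v X
    · have h' := (cut_iff hX v).1 h
      rw [stepA_cut h]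
      symm
      show (if CutY ph Wo z n N lam rho (act v (ph (X.take p0))) (X.drop p0) then none else
        some (mY ph Wo z nu (X.drop p0) (act v (ph (X.take p0))))) = none
      rw [if_pos h']
    · have h' : ¬ CutY ph Wo z n N lam rho (act v (ph (X.take p0))) (X.drop p0) :=
        fun hh => h ((cut_iff hX v).2 hh)
      rw [stepA_uncut h]
      symm
      show (if CutY ph Wo z n N lam rho (act v (ph (X.take p0))) (X.drop p0) then none else
        some (mY ph Wo z nu (X.drop p0) (act v (ph (X.take p0))))) = some _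
      rw [if_neg h', aff_eq hm]

theorem EE.ext {Q : List α} (h : EE Wo z N Q) (R : List α) : EE Wo z N (Q ++ R) := by
  obtain ⟨s, h1, h2, h3, h4⟩ := h
  exact ⟨s, by rw [List.length_append]; omega,
    by rw [List.take_append_of_le_length h1]; exact h2, h3, h4⟩

theorem BadT.ext {Bad : ℕ → Prop} {Q : List α} (h : BadT Wo z N Bad Q) (R : List α) :
    BadT Wo z N Bad (Q ++ R) := by
  obtain ⟨u, hu, h⟩ := h
  exact ⟨u, hu.ext R, h.imp (fun h => h.ext R) id⟩

theorem BadT.restrict {W : ℕ} {Bad : ℕ → Prop} {Q R : List α} (hW : Wall Wo n W) (hN : N ≤ W)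
    (h : BadT Wo z N Bad (Q ++ R)) {u : ℕ} (hu : FW Wo z (Q ++ R) u) (hle : u ≤ Q.length) :
    BadT Wo z N Bad Q := by
  obtain ⟨u', hu', h⟩ := h
  obtain rfl := hu'.uniq hu
  refine ⟨u', hu'.restrict hle, ?_⟩
  rcases h with ⟨s, h1, h2, h3, h4⟩ | h
  · by_cases hs : s ≤ Q.length
    · exact Or.inl ⟨s, hs, by rwa [List.take_append_of_le_length hs] at h2, h3, h4⟩
    · exfalso
      exact hW.gap (Q ++ R) u' s (by omega) h1 (by have := hu.1; omega) hu.2.2.1 h2
  · exact Or.inr h

theorem soundB {W : ℕ} {Bad : ℕ → Prop} (hW : Wall Wo n W) (hz : n + N ≤ z) (hN : N ≤ W)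
    (hp : p0 ≤ W) (hm : ∀ a b, ph (a ++ b) = ph a * ph b)
    {K : ℕ} {c : ℕ → ℕ} (hc0 : ∀ k < K, 0 < c k) (hc : ∀ k < K, c k ≤ p0)
    {f' : α → TT S} (hf : ∀ X, pr f' X = tr (ph X))
    {lamB : ℕ → List α → Option (Tok (TT S))} {rhoB : ℕ → List α → TT S → Option (Tok (TT S))}
    {nuB : List α → TT S → Tok (TT S)}
    (hS : ∀ k < K, ∀ (P Q : List α) (y : TT S) (v b : Tok (TT S)), P.length = c k →
      lamB k P = some v → rhoB k Q y = some b → b = act v (pr f' (P ++ Q) * y) + nuB (P ++ Q) y) :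
    Sound (Zc Wo p0 z N Bad)
      (aff (stepA (aff ph (dA ph Wo p0 z nu)) (LA ph p0 lam) (RA ph Wo z n N rho))
        (dB ph Wo p0 z n N lam rho nu nuB))
      (LB K c lamB) (RB ph Wo p0 z n N lam rho nu Bad K c rhoB) := by
  constructor
  · rintro v ⟨k, hk, h, -⟩
    have := hc0 k hk
    simp at h
    omega
  · rintro v τ P Q X x y ⟨k0, hk0, hPl, hlam⟩ ⟨k1, hk1, u1, hQ1, hz1, huniq, hrho⟩
      ⟨⟨hX, u0, hu0⟩, hbad⟩ e
    have hck0 := hc k0 hk0
    have hck1 := hc k1 hk1
    have hg : z + W < (Q.drop (p0 - c k1)).length := by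
      by_contra hcc
      exact hW.gap (Q.drop (p0 - c k1)) u1 (Q.drop (p0 - c k1)).length hz1.2.1 le_rfl
        (by have := hz1.1.1; omega) hz1.1.2.2.1 (by rw [List.take_length]; exact hz1.2.2.1)
    have hQlen : (Q.drop (p0 - c k1)).length = Q.length - (p0 - c k1) := List.length_drop
    have hs0 : p0 - c k0 + z < Q.length := by omega
    have hQlen0 : (Q.drop (p0 - c k0)).length = Q.length - (p0 - c k0) := List.length_drop
    have hw1 : Wo Q := by
      have := hW.loc (Q.take (p0 - c k1)) (Q.drop (p0 - c k1)) (by omega)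
      rw [List.take_append_drop] at this
      exact this.2 hz1.2.2.1
    have hw0 : Wo (Q.drop (p0 - c k0)) := by
      have := hW.loc (Q.take (p0 - c k0)) (Q.drop (p0 - c k0)) (by omega)
      rw [List.take_append_drop] at this
      exact this.1 hw1
    have e1 : X.drop p0 ++ y = Q.drop (p0 - c k0) ++ x := by
      have := congrArg (List.drop p0) e
      rw [List.append_assoc, List.drop_append, List.drop_eq_nil_of_le (by omega),
        List.nil_append, hPl, List.drop_append_of_le_length (by omega),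
        List.drop_append_of_le_length hX] at this
      exact this.symm
    have hFW := hu0.1.ext y
    rw [e1] at hFW
    have hule : u0 ≤ (Q.drop (p0 - c k0)).length := by
      by_contra hcc
      refine hFW.2.2.2 (Q.drop (p0 - c k0)).length (by omega) (by omega) ?_
      rw [List.take_left]; exact hw0
    have hb1 := hbad.ext y
    rw [e1] at hb1
    have hb2 := BadT.restrict hW hN hb1 hFW hule
    obtain rfl := huniq k0 hk0 hb2
    have e2 : X.drop p0 = Q.drop (p0 - c k0) := hu0.pre hz1 e1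
    have hPQ : P ++ Q = X := by
      refine List.append_inj_left e ?_
      have := congrArg List.length e2
      rw [List.length_drop, List.length_drop] at this
      rw [List.length_append, hPl]; omega
    refine ⟨hPQ, ?_⟩
    have e3 : X.take p0 = P ++ Q.take (p0 - c k0) := by
      rw [← hPQ, List.take_append, List.take_of_length_le (by omega), hPl]
    show τ = act v (stepA (aff ph (dA ph Wo p0 z nu)) (LA ph p0 lam) (RA ph Wo z n N rho) X) +
      nuB (X.take p0) (stepY ph Wo z n N lam rho nu (X.drop p0))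
    rw [stepA_eq hm hX, ← hf, e3, e2]
    exact hS k0 hk0 P _ _ v τ hPl hlam hrho

theorem complB {Bad : ℕ → Prop} {K R : ℕ} {c : ℕ → ℕ} (hc : ∀ k < K, c k ≤ p0)
    {lamB : ℕ → List α → Option (Tok (TT S))} {rhoB : ℕ → List α → TT S → Option (Tok (TT S))}
    (hC : ∀ (w : List α) (y : TT S) (v : Tok (TT S)), (∀ k < K, c k ≤ w.length) →
      ∃ I : Finset ℕ, R ≤ I.card ∧ ∀ k ∈ I, k < K ∧ lamB k (w.take (c k)) = some v ∧
        (rhoB k (w.drop (c k)) y).isSome)
    {Sp : List α → Finset ℕ}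
    (hSp : ∀ X ∈ Zc Wo p0 z N Bad, (Sp X).card < R ∧ ∀ k < K, ∀ k' < K, k' ≠ k →
      BadT Wo z N Bad (X.drop (c k + (p0 - c k'))) → k ∈ Sp X)
    {X : List α} (hX : X ∈ Zc Wo p0 z N Bad) (v : Tok (TT S)) :
    Cut (LB K c lamB) (RB ph Wo p0 z n N lam rho nu Bad K c rhoB) v X := by
  obtain ⟨hcard, hmem⟩ := hSp X hX
  obtain ⟨⟨hXl, u, hu⟩, hbad⟩ := hX
  have hX0 : (X.take p0).length = p0 := by rw [List.length_take]; omega
  obtain ⟨I, hI, h⟩ := hC (X.take p0) (stepY ph Wo z n N lam rho nu (X.drop p0)) v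
    (fun k hk => by rw [hX0]; exact hc k hk)
  obtain ⟨k, hkI, hkS⟩ : ∃ k ∈ I, k ∉ Sp X := by
    by_contra hcon
    push Not at hcon
    have := Finset.card_le_card (show I ⊆ Sp X from fun k hk => hcon k hk)
    omega
  obtain ⟨hk, hl, hr⟩ := h k hkI
  obtain ⟨τ, hτ⟩ := Option.isSome_iff_exists.1 hr
  have hck := hc k hk
  have e1 : (X.drop (c k)).drop (p0 - c k) = X.drop p0 := by
    rw [List.drop_drop, show c k + (p0 - c k) = p0 by omega]
  refine ⟨X.take (c k), X.drop (c k), τ, (List.take_append_drop _ _).symm,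
    ⟨k, hk, by rw [List.length_take]; omega, ?_⟩, ⟨k, hk, u, ?_, ?_, ?_, ?_⟩⟩
  · rw [List.take_take, min_eq_left hck] at hl
    exact hl
  · rw [List.length_drop]; omega
  · rw [e1]; exact hu
  · intro k' hk' hb
    by_contra hne
    rw [List.drop_drop] at hb
    exact hkS (hmem k hk k' hk' hne hb)
  · rw [e1, ← List.drop_take]
    exact hτ

/-- transfer of walls -/
theorem wall_drop {W : ℕ} (hW : Wall Wo n W) {X : List α} {o s : ℕ} (hs : n ≤ s)
    (hl : o + s ≤ X.length) : Wo ((X.drop o).take s) ↔ Wo (X.take (o + s)) := by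
  have e : X.take (o + s) = X.take o ++ (X.drop o).take s := by rw [List.take_add]
  rw [e]
  exact (hW.loc _ _ (by rw [List.length_take, List.length_drop]; omega)).symm

open Classical in
theorem spoil {W T0 C0 : ℕ} {Bad : ℕ → Prop} (hW : Wall Wo n W) (hz : n + N ≤ z)
    (hW2 : 2 * p0 + 2 * N ≤ W) {K : ℕ} {c : ℕ → ℕ} (hc : ∀ k < K, c k ≤ p0)
    (hT0 : T0 + p0 ≤ z)
    (ruler : ∀ a b a' b', a < K → b < K → a' < K → b' < K → a ≠ b → a' ≠ b' →
      c a + c b' ≤ c a' + c b + 2 * N → c a' + c b ≤ c a + c b' + 2 * N → a = a' ∧ b = b')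
    (thin : ∀ T, T0 ≤ T → ((Finset.range K ×ˢ Finset.range K).filter
      (fun ab : ℕ × ℕ => ab.1 ≠ ab.2 ∧ Bad (T + c ab.2 - c ab.1))).card ≤ C0)
    {X : List α} (hX : X ∈ Zn Wo p0 z) :
    ∃ Sp : Finset ℕ, Sp.card < 2 * C0 + 2 ∧ ∀ k < K, ∀ k' < K, k' ≠ k →
      BadT Wo z N Bad (X.drop (c k + (p0 - c k'))) → k ∈ Sp := by
  obtain ⟨hXl, u0, hu0⟩ := hX
  have hXlen : p0 + z + W < X.length := by
    have hg : z + W < (X.drop p0).length := by
      by_contra hcc
      exact hW.gap (X.drop p0) u0 (X.drop p0).length hu0.2.1 le_rfl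
        (by have := hu0.1.1; omega) hu0.1.2.2.1 (by rw [List.take_length]; exact hu0.2.2.1)
    rw [List.length_drop] at hg
    omega
  have hex1 : ∃ t, z ≤ t ∧ t ≤ X.length ∧ Wo (X.take t) := by
    refine ⟨p0 + u0, by have := hu0.1.1; omega, ?_, ?_⟩
    · have := hu0.1.2.1
      rw [List.length_drop] at this
      omega
    · have h2 := hu0.1.2.1
      rw [List.length_drop] at h2
      exact (wall_drop hW (by have := hu0.1.1; omega) (by omega)).1 hu0.1.2.2.1
  obtain ⟨g1, hg1, hg1m⟩ : ∃ g1, (z ≤ g1 ∧ g1 ≤ X.length ∧ Wo (X.take g1)) ∧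
      ∀ t, t < g1 → z ≤ t → t ≤ X.length → ¬ Wo (X.take t) :=
    ⟨Nat.find hex1, Nat.find_spec hex1, fun t ht h1 h2 h3 => Nat.find_min hex1 ht ⟨h1, h2, h3⟩⟩
  obtain ⟨g2, hg2, hg2m⟩ : ∃ g2, g1 ≤ g2 ∧ ∀ g, g1 < g → g ≤ X.length → Wo (X.take g) →
      (g2 = g ∨ (g1 < g2 ∧ g2 < g ∧ g2 ≤ X.length ∧ Wo (X.take g2))) := by
    by_cases hex2 : ∃ t, g1 < t ∧ t ≤ X.length ∧ Wo (X.take t)
    · refine ⟨Nat.find hex2, (Nat.find_spec hex2).1.le, ?_⟩
      intro g h1 h2 h3
      have hle := Nat.find_min' hex2 ⟨h1, h2, h3⟩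
      obtain ⟨h4, h5, h6⟩ := Nat.find_spec hex2
      rcases Nat.lt_or_ge (Nat.find hex2) g with h | h
      · exact Or.inr ⟨h4, h, h5, h6⟩
      · exact Or.inl (le_antisymm hle h)
    · exact ⟨g1, le_rfl, fun g h1 h2 h3 => absurd ⟨g, h1, h2, h3⟩ hex2⟩
  have hfirst : ∀ o u, o ≤ 2 * p0 → FW Wo z (X.drop o) u → o + u = g1 ∨ o + u = g2 := by
    intro o u ho hu
    obtain ⟨h1, h2, h3, h4⟩ := hu
    rw [List.length_drop] at h2
    have hw := (wall_drop hW (X := X) (o := o) (s := u) (by omega) (by omega)).1 h3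
    have hge : g1 ≤ o + u := by
      by_contra hcc
      exact hg1m (o + u) (by omega) (by omega) (by omega) hw
    rcases Nat.eq_or_lt_of_le hge with h | h
    · exact Or.inl h.symm
    · right
      have hno : ∀ t, o + z ≤ t → t < o + u → ¬ Wo (X.take t) := by
        intro t ht1 ht2 ht3
        obtain ⟨s, rfl⟩ : ∃ s, t = o + s := ⟨t - o, by omega⟩
        exact h4 s (by omega) (by omega) ((wall_drop hW (by omega) (by omega)).2 ht3)
      rcases hg2m (o + u) h (by omega) hw with h5 | ⟨h5, h6, h7, h8⟩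
      · exact h5.symm
      · exfalso
        have : g1 + W < g2 := by
          by_contra hcc
          exact hW.gap X g1 g2 h5 h7 (by omega) hg1.2.2 h8
        exact hno g2 (by omega) h6 h8
  set PS := (Finset.range K ×ˢ Finset.range K).filter (fun ab : ℕ × ℕ => ab.1 ≠ ab.2 ∧
    BadT Wo z N Bad (X.drop (c ab.1 + (p0 - c ab.2)))) with hPS
  set EP := (Finset.range K ×ˢ Finset.range K).filter (fun ab : ℕ × ℕ => ab.1 ≠ ab.2 ∧
    EE Wo z N (X.drop (c ab.1 + (p0 - c ab.2)))) with hEP
  set B1 := (Finset.range K ×ˢ Finset.range K).filter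
      (fun ab : ℕ × ℕ => ab.1 ≠ ab.2 ∧ Bad (g1 - p0 + c ab.2 - c ab.1)) with hB1
  set B2 := (Finset.range K ×ˢ Finset.range K).filter
      (fun ab : ℕ × ℕ => ab.1 ≠ ab.2 ∧ Bad (g2 - p0 + c ab.2 - c ab.1)) with hB2
  have hc1 : B1.card ≤ C0 := thin (g1 - p0) (by omega)
  have hc2 : B2.card ≤ C0 := thin (g2 - p0) (by omega)
  have hcE : EP.card ≤ 1 := by
    rw [Finset.card_le_one]
    rintro ⟨a, b⟩ hab ⟨a', b'⟩ hab'
    rw [hEP, Finset.mem_filter, Finset.mem_product, Finset.mem_range, Finset.mem_range] at hab hab'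
    obtain ⟨⟨ha, hb⟩, hne, s, h1, h2, h3, h4⟩ := hab
    obtain ⟨⟨ha', hb'⟩, hne', s', h1', h2', h3', h4'⟩ := hab'
    simp only at ha hb hne h1 h2 ha' hb' hne' h1' h2'
    have k1 := hc a ha
    have k2 := hc b hb
    have k3 := hc a' ha'
    have k4 := hc b' hb'
    rw [List.length_drop] at h1 h1'
    have w1 := (wall_drop hW (X := X) (o := c a + (p0 - c b)) (s := s) (by omega) (by omega)).1 h2
    have w2 := (wall_drop hW (X := X) (o := c a' + (p0 - c b')) (s := s') (by omega)
      (by omega)).1 h2'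
    have heq : c a + (p0 - c b) + s = c a' + (p0 - c b') + s' := by
      rcases lt_trichotomy (c a + (p0 - c b) + s) (c a' + (p0 - c b') + s') with h | h | h
      · exact (hW.gap X _ _ h (by omega) (by omega) w1 w2).elim
      · exact h
      · exact (hW.gap X _ _ h (by omega) (by omega) w2 w1).elim
    obtain ⟨r1, r2⟩ := ruler a b a' b' ha hb ha' hb' hne hne' (by omega) (by omega)
    rw [r1, r2]
  have hsub : PS ⊆ EP ∪ (B1 ∪ B2) := by
    rintro ⟨a, b⟩ hab
    rw [hPS, Finset.mem_filter] at hab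
    obtain ⟨hp, hne, u, hu, hor⟩ := hab
    have hp' := hp
    rw [Finset.mem_product, Finset.mem_range, Finset.mem_range] at hp'
    simp only at hp' hne hu hor
    have k1 := hc a hp'.1
    have k2 := hc b hp'.2
    rw [Finset.mem_union, Finset.mem_union]
    rcases hor with h | h
    · left
      rw [hEP, Finset.mem_filter]
      exact ⟨hp, hne, h⟩
    · right
      rcases hfirst _ u (by omega) hu with h5 | h5
      · left
        rw [hB1, Finset.mem_filter]
        refine ⟨hp, hne, ?_⟩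
        have : g1 - p0 + c b - c a = u := by omega
        show Bad (g1 - p0 + c b - c a)
        rw [this]; exact h
      · right
        rw [hB2, Finset.mem_filter]
        refine ⟨hp, hne, ?_⟩
        have : g2 - p0 + c b - c a = u := by omega
        show Bad (g2 - p0 + c b - c a)
        rw [this]; exact h
  refine ⟨PS.image Prod.fst, ?_, ?_⟩
  · have h1 := Finset.card_image_le (s := PS) (f := Prod.fst)
    have h2 := Finset.card_le_card hsub
    have h3 := Finset.card_union_le EP (B1 ∪ B2)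
    have h4 := Finset.card_union_le B1 B2
    omega
  · intro k hk k' hk' hne hb
    rw [Finset.mem_image]
    refine ⟨(k, k'), ?_, rfl⟩
    rw [hPS, Finset.mem_filter, Finset.mem_product, Finset.mem_range, Finset.mem_range]
    exact ⟨⟨hk, hk'⟩, Ne.symm hne, hb⟩

end B

end Crest.Agent.R320.DataU_614
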