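import Crest.Agent.R320.DataA_858
import Crest.Agent.R320.Main_621

/-!
# Row 320: the two schemes over natural walls (helper858)
-/

set_option autoImplicit false

namespace Crest.Agent.R320.Data_858

open Crest.Agent.R320.Star_621 Crest.Agent.R320.Two_621

/-- the word gadget (scheme 1) -/
structure Gad {S V α : Type} [Monoid S] [AddCommGroup V] (act : V → S → V) (f : α → S)
    (N1 T0 : ℕ) (Bad : ℕ → Prop) (lam rho : List α → Option V) (nu : List α → V) : Prop where
  short : ∀ P v, lam P = some v → P.length ≤ N1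
  sound : ∀ P Q v r, lam P = some v → rho Q = some r →
    r = act v (((P ++ Q).map f).prod) + nu (P ++ Q)
  compl : ∀ u : List α, T0 ≤ u.length → ¬ Bad u.length → ∀ v, ∃ P Q, P ++ Q = u ∧
    lam P = some v ∧ (rho Q).isSome

section

variable {α S : Type} [Monoid S] (f : α → S) (Wo : List α → Prop) (z p0 N1 : ℕ)
  (lam rho : List α → Option (Tok S)) (nu : List α → Tok S)

def LA (v : Tok S) : Language α :=
  {P | ∃ X P1, P = X ++ P1 ∧ X.length = p0 ∧ lam P1 = some (act v (X.map f).prod)}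

def RA (t : Tok S) : Language α :=
  {Q | ∃ Q1 Q2 r, Q = Q1 ++ Q2 ∧ (∀ d, p0 ≤ d → d ≤ p0 + N1 → Fw Wo z d Q1) ∧ Nx Wo Q1 Q2 ∧
    rho Q1 = some r ∧ t = act r (Q2.map f).prod}

open Classical in
noncomputable def dA' (Z' : List α) : Tok S :=
  if h : ∃ Y tl, Z' = Y ++ tl ∧ Fw Wo z p0 Y ∧ Nx Wo Y tl then
    act (nu h.choose) ((h.choose_spec.choose).map f).prod else 0

noncomputable def dA (w : List α) : Tok S := dA' f Wo z p0 nu (w.drop p0)

open Classical in
noncomputable def rst (Z' : List α) : Tok S → Option (Tok S) := fun u =>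
  if (∃ P1 Q' t, Z' = P1 ++ Q' ∧ lam P1 = some u ∧ Q' ∈ RA f Wo z p0 N1 rho t) then none
  else some (act u (Z'.map f).prod + dA' f Wo z p0 nu Z')

def TH (s : S) (r : Tok S → Option (Tok S)) : (Function.End (Option (Tok S)))ᵐᵒᵖ :=
  MulOpposite.op (fun o : Option (Tok S) => o.bind fun v => r (act v s))

def ZZ : Language α := {w | Zn Wo z 0 w}

def ZC (Bad : ℕ → Prop) : Language α := {w | Zn Wo z 0 w ∧ BA Wo z N1 p0 Bad 0 w}

variable {f Wo z p0 N1 lam rho nu}

theorem dA'_eq {Y tl : List α} (h1 : Fw Wo z p0 Y) (h2 : Nx Wo Y tl) :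
    dA' f Wo z p0 nu (Y ++ tl) = act (nu Y) (tl.map f).prod := by
  have h : ∃ Y' tl', Y ++ tl = Y' ++ tl' ∧ Fw Wo z p0 Y' ∧ Nx Wo Y' tl' := ⟨Y, tl, rfl, h1, h2⟩
  unfold dA'
  rw [dif_pos h]
  obtain ⟨e, h3, h4⟩ := h.choose_spec.choose_spec
  obtain ⟨e1, e2⟩ := zn_unique (R := []) (R' := []) h1 h2 h3 h4 (by simpa using e)
  exact (congrArg₂ (fun (a b : List α) => act (nu a) (b.map f).prod) e1 e2).symm

theorem code (hz : 0 < z) : Code (ZZ Wo z : Language α) := by
  refine ⟨?_, ?_⟩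
  · rintro ⟨U, tl, e, h1, h2⟩
    have := h1.1
    have e2 : U = [] := (List.append_eq_nil_iff.1 e.symm).1
    rw [e2] at this; simp at this; omega
  · rintro w w' x x' ⟨U, tl, rfl, h1, h2⟩ ⟨U', tl', rfl, h1', h2'⟩ e
    obtain ⟨e1, e2⟩ := zn_unique h1 h2 h1' h2' e
    rw [e1, e2]

variable {n W T0 : ℕ} {Bad : ℕ → Prop}

theorem soundA (hW : Walls Wo n W) (hG : Gad (act (T := S)) f N1 T0 Bad lam rho nu)
    (hp : 0 < p0) (hz : p0 + N1 + n ≤ z) :
    Sound (ZZ Wo z) (aff (fun w : List α => (w.map f).prod) (dA f Wo z p0 nu))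
      (LA f p0 lam) (RA f Wo z p0 N1 rho) := by
  refine ⟨?_, ?_⟩
  · rintro v ⟨X, P1, e, h1, -⟩
    have e2 : X = [] := (List.append_eq_nil_iff.1 e.symm).1
    rw [e2] at h1; simp at h1; omega
  · rintro v t P Q w x y ⟨X, P1, rfl, hX, hl⟩ ⟨Q1, Q2, r, rfl, hF, hN, hr, rfl⟩
      ⟨U, tl, rfl, h1, h2⟩ e
    have hs := hG.short _ _ hl
    have hF1 := hF (p0 + P1.length) (by omega) (by omega)
    have hF2 : Fw Wo z p0 (P1 ++ Q1) := (fw_shift hW (by omega)).2 hF1
    have hF0 : Fw Wo z 0 (X ++ (P1 ++ Q1)) := by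
      refine (fw_shift hW (by omega)).2 ?_
      rw [hX, Nat.zero_add]; exact hF2
    have hlen : n ≤ Q1.length := by have := hF1.1; omega
    have hN0 : Nx Wo (P1 ++ Q1) Q2 := (nx_shift hW hlen).2 hN
    have hN1 : Nx Wo (X ++ (P1 ++ Q1)) Q2 :=
      (nx_shift hW (by rw [List.length_append]; omega)).2 hN0
    obtain ⟨e1, e2⟩ := zn_unique (R := x) (R' := y) hF0 hN1 h1 h2 (by
      simpa [List.append_assoc] using e)
    refine ⟨by rw [← e1, ← e2]; simp, ?_⟩
    have es := hG.sound _ _ _ _ hl hr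
    rw [← e1, ← e2]
    unfold aff dA
    have ed : (X ++ (P1 ++ Q1) ++ Q2).drop p0 = (P1 ++ Q1) ++ Q2 := by
      rw [List.append_assoc, ← hX, List.drop_left]
    rw [ed, dA'_eq hF2 hN0, es, act_add, act_mul, act_mul]
    congr 2
    simp [mul_assoc]

theorem complA (hW : Walls Wo n W) (hG : Gad (act (T := S)) f N1 T0 Bad lam rho nu)
    (hz : p0 + N1 + n + T0 ≤ z) {w : List α} (hw : w ∈ (ZZ Wo z : Language α))
    (hn : w ∉ (ZC Wo z p0 N1 Bad : Language α)) (v : Tok S) :
    Cut (LA f p0 lam) (RA f Wo z p0 N1 rho) v w := by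
  obtain ⟨U, tl, rfl, h1, h2⟩ := hw
  have hnb : ¬ Bd Wo z N1 p0 Bad 0 U := fun hb =>
    hn ⟨⟨U, tl, rfl, h1, h2⟩, ⟨U, tl, rfl, h1, hb⟩⟩
  unfold Bd at hnb
  push Not at hnb
  obtain ⟨hE, hB⟩ := hnb
  have hU : p0 ≤ U.length := by have := h1.1; omega
  have hUz : z + N1 < U.length := by
    by_contra hc
    have := h1.1
    exact absurd (hE U.length le_rfl (by rw [List.take_length]; exact h1.2.1) (by omega))
      (by omega)
  obtain ⟨P1, Q1, e, hl, hr⟩ := hG.compl (U.drop p0) (by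
    rw [List.length_drop]; omega) (by
    rw [List.length_drop]
    simpa using hB) (act v ((U.take p0).map f).prod)
  obtain ⟨r, hr⟩ := Option.isSome_iff_exists.1 hr
  have hs := hG.short _ _ hl
  have eU : U = U.take p0 ++ (P1 ++ Q1) := by rw [e, List.take_append_drop]
  have hXl : (U.take p0).length = p0 := by rw [List.length_take]; omega
  have hUl : U.length = p0 + (P1.length + Q1.length) := by
    conv_lhs => rw [eU]
    rw [List.length_append, List.length_append, hXl]
  have hQn : n ≤ Q1.length := by omega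
  have hWQ : Wo Q1 := by
    have h3 := h1.2.1
    rw [eU, ← List.append_assoc] at h3
    exact (hW.loc _ Q1 hQn).1 h3
  have hNQ : Nx Wo Q1 tl := by
    have h3 := h2
    rw [eU, ← List.append_assoc] at h3
    exact (nx_shift hW hQn).1 h3
  refine ⟨U.take p0 ++ P1, Q1 ++ tl, act r (tl.map f).prod, ?_, ⟨U.take p0, P1, rfl, hXl, hl⟩,
    ⟨Q1, tl, r, rfl, ?_, hNQ, hr, rfl⟩⟩
  · conv_lhs => rw [eU]
    simp
  · intro d hd1 hd2
    refine ⟨by omega, hWQ, fun i hi hzi hw => ?_⟩
    have hpos : U.take (p0 + P1.length + i) = U.take p0 ++ P1 ++ Q1.take i := by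
      conv_lhs => rw [eU, ← List.append_assoc]
      rw [List.take_append, List.take_of_length_le (by
        rw [List.length_append, hXl]; omega)]
      congr 1
      congr 1
      rw [List.length_append, hXl]; omega
    have hw' : Wo (U.take (p0 + P1.length + i)) := by
      rw [hpos]
      exact (hW.loc _ _ (by rw [List.length_take]; omega)).2 hw
    by_cases hc : z ≤ p0 + P1.length + i
    · exact h1.2.2 _ (by omega) (by omega) hw'
    · exact absurd (hE (p0 + P1.length + i) (by omega) hw' (by omega)) (by omega)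

theorem stepA_eq {X Z' : List α} (hX : X.length = p0) :
    stepA (aff (fun w : List α => (w.map f).prod) (dA f Wo z p0 nu)) (LA f p0 lam)
      (RA f Wo z p0 N1 rho) (X ++ Z') =
      TH (X.map f).prod (rst f Wo z p0 N1 lam rho nu Z') := by
  classical
  unfold stepA TH
  congr 1
  funext o
  cases o with
  | none => rfl
  | some v =>
    show (if _ then _ else _) = rst f Wo z p0 N1 lam rho nu Z' (act v (X.map f).prod)
    unfold rst
    refine ite_congr (propext ?_) (fun _ => rfl) (fun _ => ?_)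
    · constructor
      · rintro ⟨P, Q, t, e, ⟨X', P1, rfl, hX', hl⟩, hQ⟩
        rw [List.append_assoc] at e
        obtain ⟨e1, e2⟩ := List.append_inj e (hX.trans hX'.symm)
        subst e1
        exact ⟨P1, Q, t, e2, hl, hQ⟩
      · rintro ⟨P1, Q, t, e, hl, hQ⟩
        exact ⟨X ++ P1, Q, t, by rw [e, List.append_assoc], ⟨X, P1, rfl, hX, hl⟩, hQ⟩
    · unfold aff dA
      show some (act v ((X ++ Z').map f).prod + dA' f Wo z p0 nu ((X ++ Z').drop p0)) = _
      rw [← hX, List.drop_left, act_mul, List.map_append, List.prod_append]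

end

end Crest.Agent.R320.Data_858
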