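import Crest.Agent.R320.DataB_2

/-!
# Row 320: the inner scheme on bad blocks (helper2)
-/

set_option autoImplicit false

namespace Crest.Agent.R320.DataB_2

open Crest.Agent.R320.FewWalls_228 Crest.R320.Reg_143 Crest.Agent.R320.Blk_2
open Crest.Agent.R320.Two_621 Crest.Agent.R320.Star_621 Crest.Agent.R320.DataA_2
open Crest.Agent.R320.ExactR_237 (pr)

variable {α S : Type} [Monoid S]

namespace Par

variable {p : Par α S}
variable {lamB : ℕ → List α → Option (Tok (TB S))}
  {rhoB : ℕ → List α → TB S → Option (Tok (TB S))} {nuB : List α → TB S → Tok (TB S)}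

theorem soundB (ho : p.Ok)
    (hB : ∀ k < p.K, ∀ (P Q : List α) (y : TB S) (v b : Tok (TB S)), P.length = p.c k →
      lamB k P = some v → rhoB k Q y = some b → b = act v (pr p.gB (P ++ Q) * y) + nuB (P ++ Q) y) :
    Sound p.Zc (aff (stepA (aff p.ph p.dA) p.LA p.RA) (p.dB nuB)) (p.LB lamB) (p.RB rhoB) := by
  refine ⟨?_, ?_⟩
  · rintro ω ⟨k, hk, h1, _⟩
    have := ho.cpos k hk
    simp only [List.length_nil] at h1
    omega
  · rintro ω τ P Q z x y ⟨k0, hk0, hP1, hP2⟩ ⟨k, hk, t, l, hBl, hun, hrho⟩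
      ⟨tz', lz', hz, hbad⟩ e
    have hz0 := ho.hz0
    have hc0 := ho.cle k0 hk0
    have hc := ho.cle k hk
    have hQl : l + p.n = Q.length := hBl.2.2.2.2.1
    have hPQl : (P ++ Q).length = p.c k0 + Q.length := by rw [List.length_append, hP1]
    have hll : t + (2 * p.p0 + 2 * p.N1 + 1) ≤ l := ho.sep Q t l hBl.2.1 hBl.2.2.1 hBl.2.2.2.1
    have ht1 := hBl.1
    -- walls of the text
    have w1 : ∀ u, Wl p.n p.W Q u → Wl p.n p.W (z ++ y) (p.c k0 + u) := by
      intro u hu
      have h1 : Wl p.n p.W (P ++ Q) (P.length + u) := wl_right.2 hu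
      have h2 : Wl p.n p.W (P ++ Q ++ x) (P.length + u) := (wl_left h1.1).2 h1
      rw [e, hP1] at h2
      exact h2
    have w2 : ∀ u, Wl p.n p.W z u → p.c k0 ≤ u → u + p.n ≤ p.c k0 + Q.length →
        Wl p.n p.W Q (u - p.c k0) := by
      intro u hu h1 h2
      have h3 : Wl p.n p.W (z ++ y) u := (wl_left hu.1).2 hu
      rw [← e] at h3
      have h4 := (wl_left (by rw [hPQl]; exact h2)).1 h3
      have h5 := (wl_right' (by rw [hP1]; exact h1)).1 h4
      rwa [hP1] at h5
    have hzl : lz' + p.n = z.length := hz.2.2.2.2.1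
    have htz : tz' ≤ p.c k0 + l := by
      by_contra hcon
      have h1 := w1 l hBl.2.2.2.1
      have h2 := (wl_left (by have := hz.2.1; omega)).1 h1
      have h3 := hz.2.2.2.2.2 _ (by omega) h2
      have := hz.2.1
      omega
    have hzt : p.z0 ≤ tz' := hz.1
    have hcand : p.Cand k0 Q := by
      rcases hbad with ⟨x0, a1, a2, a3⟩ | hb
      · left
        refine ⟨x0 - p.c k0, by omega, by omega, w2 x0 a3 (by omega) (by omega)⟩
      · right
        refine ⟨tz' - p.c k0, by omega, w2 tz' hz.2.2.1 (by omega) (by omega), ?_, ?_⟩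
        · intro x0 b1 b2 b3
          have h1 := w1 x0 b3
          have h2 := (wl_left (by have := hz.2.1; omega)).1 h1
          have h3 := hz.2.2.2.2.2 _ (by omega) h2
          have := hz.2.1
          omega
        · rw [show tz' - p.c k0 + p.c k0 - p.p0 = tz' - p.p0 by omega]
          exact hb
    have hkk : k0 = k := by
      by_contra hne
      exact hun k0 hk0 hne hcand
    subst hkk
    have hB3 := Blk.shift (P := P) (θ := p.z0) (by omega) (by rw [hP1]; exact hBl)
    have hPQ : P ++ Q = z := hB3.code hz (by simpa using e)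
    refine ⟨hPQ, ?_⟩
    have htz2 : p.tz z = p.c k0 + t := by rw [← hPQ, ← hP1]; exact p.tz_eq hB3
    have e1 : z.take p.p0 = P ++ Q.take (p.p0 - p.c k0) := by
      rw [← hPQ, List.take_append, hP1, List.take_of_length_le (by omega)]
    have e2 : z.drop p.p0 = Q.drop (p.p0 - p.c k0) := by
      rw [← hPQ, List.drop_append, hP1, List.drop_eq_nil_of_le (by omega), List.nil_append]
    have h1 := hB k0 hk P _ _ _ _ hP1 hP2 hrho
    show τ = act ω (stepA (aff p.ph p.dA) p.LA p.RA z) + p.dB nuB z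
    unfold dB
    rw [p.stepA_eq (Blk_len hz ho), htz2, e1, e2,
      show p.c k0 + t - p.p0 = t + p.c k0 - p.p0 by omega]
    exact h1

open Classical in
/-- the spoiling count -/
theorem spoiled (ho : p.Ok) {C0 : ℕ}
    (hgol : ∀ i j k l, i < p.K → j < p.K → k < p.K → l < p.K → i ≠ j → k ≠ l →
      (i, j) ≠ (k, l) →
      p.c i + p.c l + 4 * p.N1 < p.c k + p.c j ∨ p.c k + p.c j + 4 * p.N1 < p.c i + p.c l)
    (hspoil : ∀ T, p.La ≤ T → p.p0 ≤ T → ((Finset.range p.K ×ˢ Finset.range p.K).filter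
      (fun q : ℕ × ℕ => q.1 ≠ q.2 ∧ p.Bad (T + p.c q.2 - p.c q.1))).card ≤ C0)
    {z : List α} {t l : ℕ} (hz : Blk p.n p.W p.z0 z t l) :
    ((Finset.range p.K).filter (fun k => ∃ k' < p.K, k' ≠ k ∧ p.Cand k' (z.drop (p.c k)))).card ≤
      1 + 3 * C0 := by
  have hz0 := ho.hz0
  let PE : Finset (ℕ × ℕ) := (Finset.range p.K ×ˢ Finset.range p.K).filter
    (fun q : ℕ × ℕ => q.1 ≠ q.2 ∧ ∃ X, Wl p.n p.W z X ∧
      p.z0 + p.c q.1 ≤ X + p.c q.2 + p.N1 ∧ X + p.c q.2 < p.z0 + p.c q.1 + p.N1)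
  let TT : Finset ℕ := (Finset.range (z.length + 1)).filter
    (fun X => Wl p.n p.W z X ∧ p.z0 ≤ X + p.p0)
  let PB : ℕ → Finset (ℕ × ℕ) := fun X => (Finset.range p.K ×ˢ Finset.range p.K).filter
    (fun q : ℕ × ℕ => q.1 ≠ q.2 ∧ p.Bad (X - p.p0 + p.c q.2 - p.c q.1))
  have hPE : PE.card ≤ 1 := by
    rw [Finset.card_le_one]
    rintro ⟨i, j⟩ h1 ⟨k, l'⟩ h2
    rw [Finset.mem_filter, Finset.mem_product, Finset.mem_range, Finset.mem_range] at h1 h2
    obtain ⟨⟨hi, hj⟩, hij, X, a1, a2, a3⟩ := h1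
    obtain ⟨⟨hk, hl⟩, hkl, X', b1, b2, b3⟩ := h2
    simp only at hi hj hij a2 a3 hk hl hkl b2 b3
    have ci := ho.cle i hi
    have cj := ho.cle j hj
    have ck := ho.cle k hk
    have cl := ho.cle l' hl
    by_contra hne
    have hXX : X = X' := by
      rcases Nat.lt_trichotomy X X' with h | h | h
      · have := ho.sep z X X' h a1 b1; omega
      · exact h
      · have := ho.sep z X' X h b1 a1; omega
    subst hXX
    rcases hgol i j k l' hi hj hk hl hij hkl hne with h | h <;> omega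
  have hTT : TT.card ≤ 3 := by
    have hsub : TT ⊆ (TT.filter fun X => X < p.z0) ∪ {t, l} := by
      intro X hX
      rw [Finset.mem_union]
      by_cases hc : X < p.z0
      · left; rw [Finset.mem_filter]; exact ⟨hX, hc⟩
      · right
        rw [Finset.mem_filter] at hX
        rw [Finset.mem_insert, Finset.mem_singleton]
        exact hz.2.2.2.2.2 X (by omega) hX.2.1
    have h1 : (TT.filter fun X => X < p.z0).card ≤ 1 := by
      rw [Finset.card_le_one]
      intro X hX X' hX'
      rw [Finset.mem_filter, Finset.mem_filter] at hX hX'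
      rcases Nat.lt_trichotomy X X' with h | h | h
      · have := ho.sep z X X' h hX.1.2.1 hX'.1.2.1; omega
      · exact h
      · have := ho.sep z X' X h hX'.1.2.1 hX.1.2.1; omega
    refine (Finset.card_le_card hsub).trans ((Finset.card_union_le _ _).trans ?_)
    have h2 : ({t, l} : Finset ℕ).card ≤ 2 := Finset.card_le_two
    omega
  have hcov : (Finset.range p.K).filter
      (fun k => ∃ k' < p.K, k' ≠ k ∧ p.Cand k' (z.drop (p.c k))) ⊆
      PE.image Prod.fst ∪ TT.biUnion (fun X => (PB X).image Prod.fst) := by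
    intro k hk
    rw [Finset.mem_filter, Finset.mem_range] at hk
    obtain ⟨hkK, k', hk', hne, hcand⟩ := hk
    have ck := ho.cle k hkK
    have ck' := ho.cle k' hk'
    have hdr : ∀ x, Wl p.n p.W (z.drop (p.c k)) x → Wl p.n p.W z (p.c k + x) := by
      intro x hx
      have hl : (z.take (p.c k)).length = p.c k := by
        rw [List.length_take]
        have := Blk_len hz ho
        omega
      have h := (wl_right (n := p.n) (S := p.W) (u := z.take (p.c k))
        (v := z.drop (p.c k)) (x := x)).2 hx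
      rwa [List.take_append_drop, hl] at h
    rw [Finset.mem_union]
    rcases hcand with ⟨x, a1, a2, a3⟩ | ⟨x, a1, a2, a3, a4⟩
    · left
      rw [Finset.mem_image]
      refine ⟨(k, k'), ?_, rfl⟩
      rw [Finset.mem_filter, Finset.mem_product, Finset.mem_range, Finset.mem_range]
      exact ⟨⟨hkK, hk'⟩, fun h => hne h.symm, p.c k + x, hdr x a3, by simp only; omega,
        by simp only; omega⟩
    · right
      rw [Finset.mem_biUnion]
      have h1 := hdr x a2
      refine ⟨p.c k + x, ?_, ?_⟩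
      · rw [Finset.mem_filter, Finset.mem_range]
        exact ⟨by have := h1.1; omega, h1, by omega⟩
      · rw [Finset.mem_image]
        refine ⟨(k, k'), ?_, rfl⟩
        rw [Finset.mem_filter, Finset.mem_product, Finset.mem_range, Finset.mem_range]
        refine ⟨⟨hkK, hk'⟩, fun h => hne h.symm, ?_⟩
        show p.Bad (p.c k + x - p.p0 + p.c k' - p.c k)
        rw [show p.c k + x - p.p0 + p.c k' - p.c k = x + p.c k' - p.p0 by omega]
        exact a4
  refine (Finset.card_le_card hcov).trans ((Finset.card_union_le _ _).trans ?_)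
  have h1 : (PE.image Prod.fst).card ≤ 1 := Finset.card_image_le.trans hPE
  have h2 : (TT.biUnion (fun X => (PB X).image Prod.fst)).card ≤ 3 * C0 := by
    refine (Finset.card_biUnion_le_card_mul TT _ C0 ?_).trans (Nat.mul_le_mul_right _ hTT)
    intro X hX
    rw [Finset.mem_filter] at hX
    exact Finset.card_image_le.trans (hspoil (X - p.p0) (by omega) (by omega))
  omega

open Classical in
theorem completeB (ho : p.Ok) {C0 : ℕ}
    (hgol : ∀ i j k l, i < p.K → j < p.K → k < p.K → l < p.K → i ≠ j → k ≠ l →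
      (i, j) ≠ (k, l) →
      p.c i + p.c l + 4 * p.N1 < p.c k + p.c j ∨ p.c k + p.c j + 4 * p.N1 < p.c i + p.c l)
    (hspoil : ∀ T, p.La ≤ T → p.p0 ≤ T → ((Finset.range p.K ×ˢ Finset.range p.K).filter
      (fun q : ℕ × ℕ => q.1 ≠ q.2 ∧ p.Bad (T + p.c q.2 - p.c q.1))).card ≤ C0)
    (hcB : ∀ (u : List α) (y : TB S) (v : Tok (TB S)), (∀ k < p.K, p.c k ≤ u.length) →
      ∃ I : Finset ℕ, 3 * C0 + 2 ≤ I.card ∧ ∀ k ∈ I, k < p.K ∧ lamB k (u.take (p.c k)) = some v ∧
        (rhoB k (u.drop (p.c k)) y).isSome) :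
    ∀ z ∈ p.Zc, ∀ v, Cut (p.LB lamB) (p.RB rhoB) v z := by
  rintro z ⟨t, l, hz, -⟩ v
  have hz0 := ho.hz0
  have hlz := Blk_len hz ho
  have hX : (z.take p.p0).length = p.p0 := by rw [List.length_take]; omega
  obtain ⟨I, hI, hIk⟩ := hcB (z.take p.p0) (p.hB (z.drop p.p0) (t - p.p0)) v
    (fun k hk => by rw [hX]; exact ho.cle k hk)
  have hsp := spoiled ho hgol hspoil hz
  obtain ⟨k, hkI, hkn⟩ : ∃ k ∈ I, k ∉ (Finset.range p.K).filter
      (fun k => ∃ k' < p.K, k' ≠ k ∧ p.Cand k' (z.drop (p.c k))) := by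
    by_contra hc
    push Not at hc
    have := Finset.card_le_card (fun k hk => hc k hk)
    omega
  obtain ⟨hkK, h1, h2⟩ := hIk k hkI
  have ck := ho.cle k hkK
  have hun : ∀ k' < p.K, k' ≠ k → ¬ p.Cand k' (z.drop (p.c k)) := by
    intro k' hk' hne hcd
    exact hkn (Finset.mem_filter.2 ⟨Finset.mem_range.2 hkK, k', hk', hne, hcd⟩)
  obtain ⟨b, hb⟩ := Option.isSome_iff_exists.1 h2
  have hPl : (z.take (p.c k)).length = p.c k := by rw [List.length_take]; omega
  have hB := hz
  rw [← List.take_append_drop (p.c k) z] at hB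
  have hB2 := hB.unshift (by rw [hPl]; omega)
  rw [hPl] at hB2
  have ht := hz.1
  refine ⟨z.take (p.c k), z.drop (p.c k), b, (List.take_append_drop _ _).symm,
    ⟨k, hkK, hPl, ?_⟩, k, hkK, t - p.c k, l - p.c k, hB2, hun, ?_⟩
  · rw [List.take_take, min_eq_left ck] at h1
    exact h1
  · rw [← hb]
    have e1 : (z.drop (p.c k)).take (p.p0 - p.c k) = (z.take p.p0).drop (p.c k) := by
      rw [List.drop_take]
    have e2 : (z.drop (p.c k)).drop (p.p0 - p.c k) = z.drop p.p0 := by
      rw [List.drop_drop, show p.c k + (p.p0 - p.c k) = p.p0 by omega]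
    rw [e1, e2, show t - p.c k + p.c k - p.p0 = t - p.p0 by omega]

end Par

end Crest.Agent.R320.DataB_2
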