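import Crest.Agent.R320.DataA_332

/-!
# Row 320: the spoiled places of a bad zone are few (helper332)
-/

set_option autoImplicit false

namespace Crest.Agent.R320.Data_332

variable {α : Type}

theorem count {n W z0 p0 N1 : ℕ} {Wo : List α → Prop} (H : Walls n W Wo) (BadT : ℕ → Prop)
    (K R0 : ℕ) (c : ℕ → ℕ) (hcp : ∀ k < K, c k ≤ p0)
    (hsp : ∀ i < K, ∀ i' < K, ∀ j < K, ∀ j' < K, i ≠ i' → j ≠ j' →
      ((c i : ℤ) - c i' - (c j - c j')) < 2 * N1 → -(2 * N1 : ℤ) < ((c i : ℤ) - c i' - (c j - c j')) →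
      i = j)
    (hT : ∀ T : ℤ, ∀ s : Finset ℕ, (∀ k ∈ s, k < K ∧ ∃ k' < K, k' ≠ k ∧
      ∃ T' : ℕ, (T' : ℤ) = T + c k' - c k ∧ BadT T') → s.card ≤ R0)
    (hz0 : 4 * (p0 + N1) + n ≤ z0) (hW : 4 * (p0 + N1) + 1 ≤ W)
    (z : List α) (hz : ZR Wo z0 0 z) (s : Finset ℕ)
    (hs : ∀ k ∈ s, k < K ∧ ∃ k' < K, k' ≠ k ∧ BR Wo z0 p0 N1 BadT (c k') (z.drop (c k))) :
    s.card < 2 * R0 + 2 := by
  classical
  obtain ⟨t0, hF0, ht0, hWz, hn0⟩ := hz
  have hzt : z0 ≤ t0 := by have := hF0.2.1; omega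
  -- shift of prefixes
  have hsh : ∀ k < K, ∀ t, n ≤ t → t ≤ (z.drop (c k)).length →
      (Wo ((z.drop (c k)).take t) ↔ Wo (z.take (c k + t))) := by
    intro k hk t h1 h2
    have hck := hcp k hk
    have hl : (z.take (c k)).length = c k := by rw [List.length_take]; omega
    have := H.tk (P := z.take (c k)) (Q := z.drop (c k)) h1 h2
    rw [List.take_append_drop, hl] at this
    exact this.symm
  -- first wall end at least `z0 - p0`
  have hexa : ∃ t, z0 ≤ t + p0 ∧ Wo (z.take t) ∧ t ≤ z.length :=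
    ⟨t0, by omega, hF0.2.2.1, hF0.1⟩
  obtain ⟨a, ⟨ha1, ha2, ha3⟩, hamin⟩ : ∃ a, (z0 ≤ a + p0 ∧ Wo (z.take a) ∧ a ≤ z.length) ∧
      ∀ t, (z0 ≤ t + p0 ∧ Wo (z.take t) ∧ t ≤ z.length) → a ≤ t :=
    ⟨Nat.find hexa, Nat.find_spec hexa, fun t ht => Nat.find_min' hexa ht⟩
  obtain ⟨b, hb⟩ : ∃ b, ∀ t, (a < t ∧ Wo (z.take t) ∧ t ≤ z.length) →
      b ≤ t ∧ a < b ∧ Wo (z.take b) ∧ b ≤ z.length := by
    by_cases hexb : ∃ t, a < t ∧ Wo (z.take t) ∧ t ≤ z.length
    · refine ⟨Nat.find hexb, fun t ht => ⟨Nat.find_min' hexb ht, ?_⟩⟩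
      exact Nat.find_spec hexb
    · exact ⟨0, fun t ht => absurd ⟨t, ht⟩ hexb⟩
  have hab : ∀ k < K, ∀ k' < K, ∀ t, IsF Wo z0 (c k') (z.drop (c k)) t →
      c k + t = a ∨ c k + t = b := by
    intro k hk k' hk' t hF
    have hck := hcp k hk
    have hck' := hcp k' hk'
    obtain ⟨h1, h2, h3, h4⟩ := hF
    have h1' := h1
    rw [List.length_drop] at h1
    have hw : Wo (z.take (c k + t)) := (hsh k hk t (by omega) h1').1 h3
    by_cases hca : c k + t ≤ a
    · left
      have := hamin (c k + t) ⟨by omega, hw, by omega⟩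
      omega
    · right
      obtain ⟨hb1, hb2, hb3, hb4⟩ := hb (c k + t) ⟨by omega, hw, by omega⟩
      have hg := H.gap z a b hb2 hb4 ha2 hb3
      by_contra hne
      have hlt : b < c k + t := by omega
      refine h4 (b - c k) (by omega) (by omega) ?_
      refine (hsh k hk (b - c k) (by omega) (by rw [List.length_drop]; omega)).2 ?_
      rw [show c k + (b - c k) = b by omega]
      exact hb3
  -- three classes
  let PE : ℕ → Prop := fun k => ∃ k' < K, k' ≠ k ∧ ∃ y, z0 + c k ≤ y + c k' + N1 ∧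
    y + c k' < z0 + c k + N1 ∧ y ≤ z.length ∧ Wo (z.take y)
  let PT : ℕ → ℕ → Prop := fun x k => k < K ∧ ∃ k' < K, k' ≠ k ∧
    ∃ T' : ℕ, (T' : ℤ) = ((x : ℤ) - p0) + c k' - c k ∧ BadT T'
  have hcov : ∀ k ∈ s, (PE k) ∨ (PT a k) ∨ (PT b k) := by
    intro k hks
    obtain ⟨hk, k', hk', hne, hB⟩ := hs k hks
    have hck := hcp k hk
    have hck' := hcp k' hk'
    rcases hB with ⟨t, h1, h2, h3, h4⟩ | ⟨t, h1, h2⟩
    · left
      have h1' := h1
      rw [List.length_drop] at h1
      exact ⟨k', hk', hne, c k + t, by omega, by omega, by omega,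
        (hsh k hk t (by omega) h1').1 h4⟩
    · right
      have hz2 := h1.2.1
      have hT' : ∀ x, c k + t = x → PT x k := by
        intro x hx
        refine ⟨hk, k', hk', hne, c k' + t - p0, ?_, h2⟩
        subst hx
        push_cast [show p0 ≤ c k' + t by omega]
        ring
      rcases hab k hk k' hk' t h1 with h | h
      · exact Or.inl (hT' a h)
      · exact Or.inr (hT' b h)
  have hPE : (s.filter fun k => PE k).card ≤ 1 := by
    rw [Finset.card_le_one]
    intro i hi j hj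
    rw [Finset.mem_filter] at hi hj
    have hiK := (hs i hi.1).1
    have hjK := (hs j hj.1).1
    obtain ⟨i', hi', hine, y, a1, a2, a3, a4⟩ := hi.2
    obtain ⟨j', hj', hjne, y', b1, b2, b3, b4⟩ := hj.2
    have c1 := hcp i hiK
    have c2 := hcp j hjK
    have c3 := hcp i' hi'
    have c4 := hcp j' hj'
    have hyy : y = y' := by
      rcases lt_trichotomy y y' with h | h | h
      · have := H.gap z y y' h b3 a4 b4; omega
      · exact h
      · have := H.gap z y' y h a3 b4 a4; omega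
    subst hyy
    exact hsp i hiK i' hi' j hjK j' hj' (Ne.symm hine) (Ne.symm hjne) (by omega) (by omega)
  have hPT : ∀ x, (s.filter fun k => PT x k).card ≤ R0 := by
    intro x
    refine hT ((x : ℤ) - p0) _ ?_
    intro k hk
    rw [Finset.mem_filter] at hk
    exact hk.2
  have hsub : s ⊆ (s.filter fun k => PE k) ∪ ((s.filter fun k => PT a k) ∪
      (s.filter fun k => PT b k)) := by
    intro k hk
    rw [Finset.mem_union, Finset.mem_union, Finset.mem_filter, Finset.mem_filter,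
      Finset.mem_filter]
    rcases hcov k hk with h | h | h
    · exact Or.inl ⟨hk, h⟩
    · exact Or.inr (Or.inl ⟨hk, h⟩)
    · exact Or.inr (Or.inr ⟨hk, h⟩)
  have h1 := Finset.card_le_card hsub
  have h2 := Finset.card_union_le (s.filter fun k => PE k) ((s.filter fun k => PT a k) ∪
      (s.filter fun k => PT b k))
  have h3 := Finset.card_union_le (s.filter fun k => PT a k) (s.filter fun k => PT b k)
  have h4 := hPT a
  have h5 := hPT b
  omega

end Crest.Agent.R320.Data_332
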