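import Crest.Agent.R320.DataB_858
import Crest.Agent.R320.ExactT_580

/-!
# Row 320: the inner scheme (helper858)
-/

set_option autoImplicit false

namespace Crest.Agent.R320.Data_858

open Crest.Agent.R320.Star_621 Crest.Agent.R320.Two_621

/-- the monoid of the inner scheme -/
abbrev TT (S : Type) : Type := (Function.End (Option (Tok S)))ᵐᵒᵖ

/-- the ruler gadget (scheme 2) -/
structure Gad2 {S α : Type} [Monoid S] (f : α → S) (K R : ℕ) (c : ℕ → ℕ)
    (lam2 : ℕ → List α → Option (Tok (TT S)))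
    (rho2 : ℕ → List α → (Tok S → Option (Tok S)) → Option (Tok (TT S)))
    (nu2 : List α → (Tok S → Option (Tok S)) → Tok (TT S)) : Prop where
  sound : ∀ k < K, ∀ (P Q : List α) (y : Tok S → Option (Tok S)) (v b : Tok (TT S)),
    P.length = c k → lam2 k P = some v → rho2 k Q y = some b →
      b = act v (TH ((P ++ Q).map f).prod y) + nu2 (P ++ Q) y
  compl : ∀ (u : List α) (y : Tok S → Option (Tok S)) (v : Tok (TT S)),
    (∀ k < K, c k ≤ u.length) → ∃ I : Finset ℕ, R ≤ I.card ∧ ∀ k ∈ I, k < K ∧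
      lam2 k (u.take (c k)) = some v ∧ (rho2 k (u.drop (c k)) y).isSome

section

variable {α S : Type} [Monoid S] (f : α → S) (Wo : List α → Prop) (z p0 N1 : ℕ) (Bad : ℕ → Prop)
  (lam rho : List α → Option (Tok S)) (nu : List α → Tok S) (K : ℕ) (c : ℕ → ℕ)
  (lam2 : ℕ → List α → Option (Tok (TT S)))
  (rho2 : ℕ → List α → (Tok S → Option (Tok S)) → Option (Tok (TT S)))
  (nu2 : List α → (Tok S → Option (Tok S)) → Tok (TT S))

def LB (v : Tok (TT S)) : Language α :=
  {P | ∃ k < K, P.length = c k ∧ lam2 k P = some v}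

def RB (t : Tok (TT S)) : Language α :=
  {Q | ∃ k < K, Zn Wo z (c k) Q ∧ BA Wo z N1 p0 Bad (c k) Q ∧
    (∀ j < K, j ≠ k → ¬ BA Wo z N1 p0 Bad (c j) Q) ∧
    ∃ X1 Z', Q = X1 ++ Z' ∧ c k + X1.length = p0 ∧
      rho2 k X1 (rst f Wo z p0 N1 lam rho nu Z') = some t}

noncomputable def dB (w : List α) : Tok (TT S) :=
  nu2 (w.take p0) (rst f Wo z p0 N1 lam rho nu (w.drop p0))

variable {f Wo z p0 N1 Bad lam rho nu K c lam2 rho2 nu2} {n W T0 R : ℕ}

theorem soundB (hW : Walls Wo n W) (hG : Gad2 f K R c lam2 rho2 nu2)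
    (hc0 : ∀ k < K, 0 < c k) (hcp : ∀ k < K, c k ≤ p0) (hp : p0 ≤ W)
    (hz : p0 + N1 + n ≤ z) :
    Sound (ZC Wo z p0 N1 Bad)
      (aff (stepA (aff (fun w : List α => (w.map f).prod) (dA f Wo z p0 nu)) (LA f p0 lam)
        (RA f Wo z p0 N1 rho)) (dB f Wo z p0 N1 lam rho nu nu2))
      (LB K c lam2) (RB f Wo z p0 N1 Bad lam rho nu K c rho2) := by
  refine ⟨?_, ?_⟩
  · rintro v ⟨k, hk, h1, -⟩
    have := hc0 k hk
    simp at h1; omega
  · rintro v t P Q w x y ⟨k, hk, hP, hl⟩ ⟨k', hk', hZ, hBk, hun, X1, Z', rfl, hX1, hr⟩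
      ⟨hw, hwb⟩ e
    have hcpk := hcp k hk
    have hcpk' := hcp k' hk'
    -- the first wall for the offset `c k` is visible in `Q`
    have hvis : ∃ U R, X1 ++ Z' = U ++ R ∧ Fw Wo z (c k) U := visible hW hZ (by omega)
    obtain ⟨U, R', eU, hU⟩ := hvis
    have hU0 : Fw Wo z 0 (P ++ U) := by
      refine (fw_shift hW (by omega)).2 ?_
      rw [Nat.zero_add, hP]; exact hU
    obtain ⟨Uw, Rw, ew, hFw, hBw⟩ := hwb
    have e1 : (P ++ U) ++ (R' ++ x) = Uw ++ (Rw ++ y) := by
      calc (P ++ U) ++ (R' ++ x) = P ++ (U ++ R') ++ x := by simp [List.append_assoc]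
        _ = w ++ y := by rw [← eU]; exact e
        _ = Uw ++ (Rw ++ y) := by rw [ew, List.append_assoc]
    have e2 := fw_unique hU0 hFw e1
    have hB0 : Bd Wo z N1 p0 Bad (c k) U := by
      rw [← e2] at hBw
      have := (bd_shift hW (by omega)).1 hBw
      rwa [Nat.zero_add, hP] at this
    have hkk : k = k' := by
      by_contra hne
      exact hun k hk hne ⟨U, R', eU, hU, hB0⟩
    subst hkk
    have hPQ : Zn Wo z 0 (P ++ (X1 ++ Z')) := by
      refine (zn_shift hW (by omega)).2 ?_
      rw [Nat.zero_add, hP]; exact hZ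
    have ezw : P ++ (X1 ++ Z') = w := by
      have h0k := hc0 k hk
      have hcode := (code (Wo := Wo) (z := z) (by omega)).2 _ _ x y hPQ hw
      exact hcode e
    refine ⟨ezw, ?_⟩
    have hPX : (P ++ X1).length = p0 := by rw [List.length_append]; omega
    have ew2 : w = (P ++ X1) ++ Z' := by rw [← ezw, List.append_assoc]
    rw [ew2]
    have h9 := stepA_eq (f := f) (Wo := Wo) (z := z) (N1 := N1) (lam := lam) (rho := rho)
      (nu := nu) (Z' := Z') hPX
    show t = act v (stepA (aff (fun w : List α => (w.map f).prod) (dA f Wo z p0 nu)) (LA f p0 lam)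
        (RA f Wo z p0 N1 rho) (P ++ X1 ++ Z')) +
      nu2 ((P ++ X1 ++ Z').take p0) (rst f Wo z p0 N1 lam rho nu ((P ++ X1 ++ Z').drop p0))
    rw [h9]
    have et : ((P ++ X1) ++ Z').take p0 = P ++ X1 := by rw [← hPX, List.take_left]
    have ed : ((P ++ X1) ++ Z').drop p0 = Z' := by rw [← hPX, List.drop_left]
    rw [et, ed]
    exact hG.sound k hk P X1 _ v t hP hl hr

theorem sep_take (hW : Walls Wo n W) {w : List α} {i j : ℕ} (hi : Wo (w.take i))
    (hj : Wo (w.take j)) (hij : i < j) (hjl : j ≤ w.length) : W ≤ j - i := by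
  have e : w.take j = w.take i ++ (w.drop i).take (j - i) := by
    conv_lhs => rw [← List.take_append_drop i w]
    rw [List.take_append, List.take_of_length_le (by rw [List.length_take]; omega)]
    congr 1
    congr 1
    rw [List.length_take]; omega
  rw [e] at hj
  have h := hW.sep _ _ hi hj (by
    intro h0
    have := congrArg List.length h0
    rw [List.length_take, List.length_drop] at this
    simp at this
    omega)
  rw [List.length_take, List.length_drop] at h
  omega

theorem three (hW : Walls Wo n W) (hp : p0 + N1 < W) {U tl : List α} (hF : Fw Wo z 0 U)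
    (hN : Nx Wo U tl) : ∃ a, z ≤ a + p0 + N1 ∧ ∀ pos, pos ≤ (U ++ tl).length →
      z ≤ pos + p0 + N1 → Wo ((U ++ tl).take pos) →
        pos = a ∨ pos = U.length ∨ pos = (U ++ tl).length := by
  have key : ∀ pos, pos ≤ (U ++ tl).length → z ≤ pos → Wo ((U ++ tl).take pos) →
      pos = U.length ∨ pos = (U ++ tl).length := by
    intro pos h1 h2 h3
    rcases lt_trichotomy pos U.length with h | h | h
    · rw [List.take_append_of_le_length h.le] at h3
      exact absurd h3 (hF.2.2 pos h (by omega))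
    · exact Or.inl h
    · right
      by_contra hne
      rw [List.length_append] at h1 hne
      rw [List.take_append, List.take_of_length_le h.le] at h3
      exact hN.2.2 (pos - U.length) (by omega) (by omega) h3
  by_cases h : ∃ a, a < z ∧ a ≤ (U ++ tl).length ∧ z ≤ a + p0 + N1 ∧ Wo ((U ++ tl).take a)
  · obtain ⟨a, ha1, ha2, ha3, ha4⟩ := h
    refine ⟨a, ha3, fun pos h1 h2 h3 => ?_⟩
    by_cases hz : z ≤ pos
    · exact Or.inr (key pos h1 hz h3)
    · left
      rcases lt_trichotomy pos a with h | h | h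
      · have := sep_take hW h3 ha4 h ha2
        omega
      · exact h
      · have := sep_take hW ha4 h3 h h1
        omega
  · refine ⟨(U ++ tl).length, by have := hF.1; rw [List.length_append]; omega,
      fun pos h1 h2 h3 => ?_⟩
    by_cases hz : z ≤ pos
    · exact Or.inr (key pos h1 hz h3)
    · exact absurd ⟨pos, by omega, h1, h2, h3⟩ h

open Classical in
theorem complB (hW : Walls Wo n W) {C0 : ℕ} (hG : Gad2 f K (3 * (C0 + 1) + 1) c lam2 rho2 nu2)
    (hcp : ∀ k < K, c k ≤ p0) (hz : 3 * p0 + N1 + n ≤ z) (hp : p0 + N1 < W)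
    (gol : ∀ j k j' k', j < K → k < K → j' < K → k' < K → j ≠ k → j' ≠ k' →
      c k + c j' ≤ c j + c k' + 2 * N1 → c j + c k' ≤ c k + c j' + 2 * N1 → j = j' ∧ k = k')
    (thin : ∀ T, p0 ≤ T → (((Finset.range K) ×ˢ (Finset.range K)).filter
      (fun ab : ℕ × ℕ => ab.1 ≠ ab.2 ∧ Bad (T + c ab.1 - c ab.2))).card ≤ C0)
    {w : List α} (hw : w ∈ (ZC Wo z p0 N1 Bad : Language α)) (v : Tok (TT S)) :
    Cut (LB K c lam2) (RB f Wo z p0 N1 Bad lam rho nu K c rho2) v w := by
  have hwz : Zn Wo z 0 w := hw.1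
  have hwb : BA Wo z N1 p0 Bad 0 w := hw.2
  obtain ⟨U, tl, ew, hF, hN⟩ := hw.1
  have hUz := hF.1
  have hwl : w.length = U.length + tl.length := by rw [ew, List.length_append]
  have hXl : (w.take p0).length = p0 := by rw [List.length_take]; omega
  obtain ⟨I, hI, hI2⟩ := hG.compl (w.take p0) (rst f Wo z p0 N1 lam rho nu (w.drop p0)) v
    (fun k hk => by rw [hXl]; exact hcp k hk)
  obtain ⟨a, ha1, ha2⟩ := three hW hp hF hN
  rw [← ew] at ha2
  let SPp : ℕ → Finset (ℕ × ℕ) := fun pos => ((Finset.range K) ×ˢ (Finset.range K)).filter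
    (fun ab : ℕ × ℕ => ab.1 ≠ ab.2 ∧ ((z + c ab.2 ≤ c ab.1 + pos + N1 ∧
      c ab.1 + pos ≤ z + c ab.2 + N1) ∨ Bad (pos - p0 + c ab.1 - c ab.2)))
  have hcard : ∀ pos, 2 * p0 ≤ pos → (SPp pos).card ≤ C0 + 1 := by
    intro pos hpos
    have h1 : SPp pos ⊆ (((Finset.range K) ×ˢ (Finset.range K)).filter
        (fun ab : ℕ × ℕ => ab.1 ≠ ab.2 ∧ Bad ((pos - p0) + c ab.1 - c ab.2))) ∪
        (((Finset.range K) ×ˢ (Finset.range K)).filter
        (fun ab : ℕ × ℕ => ab.1 ≠ ab.2 ∧ (z + c ab.2 ≤ c ab.1 + pos + N1 ∧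
          c ab.1 + pos ≤ z + c ab.2 + N1))) := by
      intro ab hab
      rw [Finset.mem_filter] at hab
      rw [Finset.mem_union, Finset.mem_filter, Finset.mem_filter]
      rcases hab with ⟨h1, h2, h3 | h3⟩
      · exact Or.inr ⟨h1, h2, h3⟩
      · exact Or.inl ⟨h1, h2, h3⟩
    refine (Finset.card_le_card h1).trans ((Finset.card_union_le _ _).trans ?_)
    refine Nat.add_le_add (thin _ (by omega)) ?_
    rw [Finset.card_le_one]
    rintro ⟨j, k⟩ h2 ⟨j', k'⟩ h3
    rw [Finset.mem_filter, Finset.mem_product, Finset.mem_range, Finset.mem_range] at h2 h3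
    obtain ⟨⟨h21, h22⟩, h23, h24, h25⟩ := h2
    obtain ⟨⟨h31, h32⟩, h33, h34, h35⟩ := h3
    simp only at h21 h22 h23 h24 h25 h31 h32 h33 h34 h35
    obtain ⟨e1, e2⟩ := gol j k j' k' h21 h22 h31 h32 h23 h33 (by omega) (by omega)
    rw [e1, e2]
  let SP : Finset (ℕ × ℕ) := SPp a ∪ SPp U.length ∪ SPp w.length
  have hSP : SP.card ≤ 3 * (C0 + 1) := by
    refine (Finset.card_union_le _ _).trans ?_
    have h1 := Finset.card_union_le (SPp a) (SPp U.length)
    have h2 := hcard a (by omega)
    have h3 := hcard U.length (by omega)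
    have h4 := hcard w.length (by omega)
    omega
  have hmem : ∀ j k, j < K → k < K → j ≠ k → BA Wo z N1 p0 Bad (c j) (w.drop (c k)) →
      (j, k) ∈ SP := by
    rintro j k hj hk hjk ⟨U', R', e, hF', hB'⟩
    have hcj := hcp j hj
    have hck := hcp k hk
    have hz' := hF'.1
    have hl : (w.drop (c k)).length = U'.length + R'.length := by rw [e, List.length_append]
    rw [List.length_drop] at hl
    have htk : ∀ i, i ≤ U'.length → w.take (c k + i) = w.take (c k) ++ U'.take i := by
      intro i hi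
      conv_lhs => rw [← List.take_append_drop (c k) w, e]
      rw [List.take_append, List.take_of_length_le (by rw [List.length_take]; omega),
        List.take_append_of_le_length (by rw [List.length_take]; omega)]
      congr 1
      congr 1
      rw [List.length_take]; omega
    have hgo : ∀ i, i ≤ U'.length → Wo (U'.take i) → z ≤ c j + i + N1 →
        ((z + c k ≤ c j + (c k + i) + N1 ∧ c j + (c k + i) ≤ z + c k + N1) ∨
          Bad ((c k + i) - p0 + c j - c k)) → (j, k) ∈ SP := by
      intro i hi hwi hzi hcase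
      have hpos := ha2 (c k + i) (by omega) (by omega) (by
        rw [htk i hi]
        exact (hW.loc _ _ (by rw [List.length_take]; omega)).2 hwi)
      have hm : ∀ pos, pos = c k + i → (j, k) ∈ SPp pos := by
        rintro pos rfl
        rw [Finset.mem_filter, Finset.mem_product, Finset.mem_range, Finset.mem_range]
        exact ⟨⟨hj, hk⟩, hjk, hcase⟩
      rw [Finset.mem_union, Finset.mem_union]
      rcases hpos with h | h | h
      · exact Or.inl (Or.inl (hm a h.symm))
      · exact Or.inl (Or.inr (hm _ h.symm))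
      · exact Or.inr (hm _ h.symm)
    rcases hB' with ⟨i, hi1, hi2, hi3, hi4⟩ | hB'
    · exact hgo i hi1 hi2 hi3 (Or.inl ⟨by omega, by omega⟩)
    · refine hgo U'.length le_rfl (by rw [List.take_length]; exact hF'.2.1) (by omega) (Or.inr ?_)
      have e3 : c k + U'.length - p0 + c j - c k = c j + U'.length - p0 := by omega
      rw [e3]; exact hB'
  have hex : ∃ k ∈ I, ∀ j < K, j ≠ k → ¬ BA Wo z N1 p0 Bad (c j) (w.drop (c k)) := by
    by_contra hcon
    push Not at hcon
    choose! g hg1 hg2 hg3 using hcon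
    have hle : I.card ≤ SP.card := by
      refine Finset.card_le_card_of_injOn (fun k => (g k, k)) ?_ ?_
      · intro k hk
        exact hmem _ _ (hg1 k hk) (hI2 k hk).1 (hg2 k hk) (hg3 k hk)
      · intro k _ k' _ h
        exact (Prod.mk.inj h).2
    omega
  obtain ⟨k, hkI, hkk⟩ := hex
  obtain ⟨hkK, hl, hr⟩ := hI2 k hkI
  obtain ⟨t, ht⟩ := Option.isSome_iff_exists.1 hr
  have hck := hcp k hkK
  have hPl : (w.take (c k)).length = c k := by rw [List.length_take]; omega
  have e0 : w.take (c k) ++ w.drop (c k) = w := List.take_append_drop _ _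
  refine ⟨w.take (c k), w.drop (c k), t, e0.symm, ⟨k, hkK, hPl, ?_⟩,
    ⟨k, hkK, ?_, ?_, hkk, (w.take p0).drop (c k), w.drop p0, ?_, ?_, ht⟩⟩
  · rw [List.take_take, Nat.min_eq_left hck] at hl
    exact hl
  · have h5 := (zn_shift hW (c := 0) (P := w.take (c k)) (Q := w.drop (c k)) (z := z) (by
      rw [hPl]; omega)).1 (by rw [e0]; exact hwz)
    rwa [Nat.zero_add, hPl] at h5
  · have h5 := (ba_shift hW (c := 0) (P := w.take (c k)) (Q := w.drop (c k)) (z := z)
      (N1 := N1) (p0 := p0) (Bad := Bad) (by rw [hPl]; omega)).1 (by rw [e0]; exact hwb)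
    rwa [Nat.zero_add, hPl] at h5
  · conv_lhs => rw [← List.take_append_drop p0 w]
    rw [List.drop_append_of_le_length (by rw [hXl]; exact hck)]
  · rw [List.length_drop, hXl]; omega

end

end Crest.Agent.R320.Data_858
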