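import Crest.Agent.R320.Main_621
import Crest.Agent.R320.FewVal_228
import Crest.Agent.R320.ExactR_237

/-!
# Row 320: definitions for `Main_621.Data` from one abstract all-words gadget (helper839)

Left-looking walls `WL` (the last `n` letters lie in `Sw`), zones `ZZ z0` = block up to the wall after
the first wall `>= z0`, scheme A = abstract gadget (`lam`, `rho`, `nu`, window `[p, p + N1]`),
scheme B = exact gadget in the first `p` letters under the promise `Bd`.
-/

set_option autoImplicit false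

namespace Crest.Agent.R320.Data_839

open Crest.Agent.R320.Hk_851 Crest.Agent.R320.Star_621 Crest.Agent.R320.Two_621
open Crest.Agent.R320.FewWalls_228 Crest.Agent.R320.ExactR_237

variable {α : Type}

/-- a left-looking wall at the end of `P` -/
def WL (n : ℕ) (Sw : Set (List α)) (P : List α) : Prop :=
  n ≤ P.length ∧ P.drop (P.length - n) ∈ Sw

/-- `t` = first wall `≥ z` of `X`, and `X` ends at the next wall -/
def ZT (n : ℕ) (Sw : Set (List α)) (z : ℕ) (X : List α) (t : ℕ) : Prop :=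
  z ≤ t ∧ t < X.length ∧ WL n Sw (X.take t) ∧ (∀ s, z ≤ s → s < t → ¬ WL n Sw (X.take s)) ∧
    WL n Sw X ∧ ∀ s, t < s → s < X.length → ¬ WL n Sw (X.take s)

def ZZ (n : ℕ) (Sw : Set (List α)) (z : ℕ) : Language α := {X | ∃ t, ZT n Sw z X t}

/-- the text `Q` seen from `c` letters behind an anchor: the zone of this anchor is bad -/
def Bd (n : ℕ) (Sw : Set (List α)) (z0 N1 p : ℕ) (Bad : ℕ → Prop) (c : ℕ) (Q : List α) : Prop :=
  (∃ s, s ≤ Q.length ∧ WL n Sw (Q.take s) ∧ z0 ≤ s + c + N1 ∧ s + c ≤ z0 + N1) ∨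
  (∃ t, t ≤ Q.length ∧ z0 ≤ t + c ∧ WL n Sw (Q.take t) ∧
    (∀ s, z0 ≤ s + c → s < t → ¬ WL n Sw (Q.take s)) ∧ Bad (t + c - p))

def ZC (n : ℕ) (Sw : Set (List α)) (z0 N1 p : ℕ) (Bad : ℕ → Prop) : Language α :=
  {z | z ∈ ZZ n Sw z0 ∧ Bd n Sw z0 N1 p Bad 0 z}

variable {S : Type} [Monoid S] (f : α → S)

def LA (p : ℕ) (lam : List α → Option (Tok S)) (v : Tok S) : Language α :=
  {P | p ≤ P.length ∧ lam (P.drop p) = some (act v (pr f (P.take p)))}

def RA (n : ℕ) (Sw : Set (List α)) (q N1 : ℕ) (rho : List α → Option (Tok S)) (r : Tok S) :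
    Language α :=
  {Q | ∃ t r1, ZT n Sw (q + N1) Q t ∧ (∀ s, q ≤ s → s < q + N1 → ¬ WL n Sw (Q.take s)) ∧
    rho (Q.take t) = some r1 ∧ r = act r1 (pr f (Q.drop t))}

open Classical in
noncomputable def gA (n : ℕ) (Sw : Set (List α)) (z : ℕ) (nu : List α → Tok S) (Y : List α) : Tok S :=
  if h : ∃ t, ZT n Sw z Y t then
    act (nu (Y.take (Classical.choose h))) (pr f (Y.drop (Classical.choose h))) else 0

noncomputable def dA (n : ℕ) (Sw : Set (List α)) (p z : ℕ) (nu : List α → Tok S) (X : List α) : Tok S :=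
  gA f n Sw z nu (X.drop p)

/-! ### scheme B -/

abbrev TB (S : Type) [Monoid S] : Type := (Function.End (Option (Tok S)))ᵐᵒᵖ

/-- letters and tail maps act on `S ⊕ TB` -/
abbrev MM (S : Type) [Monoid S] : Type := (Function.End (S ⊕ TB S))ᵐᵒᵖ

def fM (a : α) : MM S := MulOpposite.op (fun x => match x with
  | Sum.inl s => Sum.inl (s * f a)
  | Sum.inr t => Sum.inr t)

def yM (Th : S → TB S) : MM S := MulOpposite.op (fun x => match x with
  | Sum.inl s => Sum.inr (Th s)
  | Sum.inr t => Sum.inr t)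

def actM (v : Tok (TB S)) (m : MM S) : Tok (TB S) :=
  match m.unop (Sum.inl 1 : S ⊕ TB S) with
  | Sum.inl _ => 0
  | Sum.inr t => act v t

open Classical in
/-- the zone behaviour as a function of the product of the first `p` letters -/
noncomputable def ThY (th : List α → TB S) (p : ℕ) (Y : List α) (s : S) : TB S :=
  if h : ∃ X : List α, X.length = p ∧ pr f X = s then th (Classical.choose h ++ Y) else 1

def LB (K : ℕ) (c : ℕ → ℕ) (lamB : ℕ → List α → Option (Tok (TB S))) (v : Tok (TB S)) : Language α :=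
  {P | ∃ k < K, P.length = c k + 1 ∧ lamB k P = some v}

def RB (n : ℕ) (Sw : Set (List α)) (z0 N1 p K : ℕ) (c : ℕ → ℕ) (Bad : ℕ → Prop)
    (rhoB : ℕ → List α → MM S → Option (Tok (TB S))) (Th : List α → S → TB S) (r : Tok (TB S)) :
    Language α :=
  {Q | ∃ k < K, Bd n Sw z0 N1 p Bad (c k + 1) Q ∧
    (∀ k' < K, Bd n Sw z0 N1 p Bad (c k' + 1) Q → k' = k) ∧ (∃ t, ZT n Sw (z0 - (c k + 1)) Q t) ∧
    rhoB k (Q.take (p - (c k + 1))) (yM (Th (Q.drop (p - (c k + 1))))) = some r}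

noncomputable def dB (p : ℕ) (nuB : List α → MM S → Tok (TB S)) (Th : List α → S → TB S) (z : List α) :
    Tok (TB S) := nuB (z.take p) (yM (Th (z.drop p)))

/-! ### the gadget hypothesis -/

/-- abstract all-words gadget (693 / 638) -/
def Gadget (S : Type) [Monoid S] (V : Type) [AddCommGroup V] (act : V → S → V) : Prop :=
  ∃ C0 : ℕ, ∀ K : ℕ, ∃ (N1 : ℕ) (c : ℕ → ℕ) (Bad : ℕ → Prop) (M Tm : ℕ),
    (∀ i j, i < j → j < K → c i < c j) ∧
    (∀ i j k l, i < K → j < K → k < K → l < K → i ≠ j → k ≠ l →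
      |((c i : ℤ) - c j) - ((c k : ℤ) - c l)| ≤ 2 * N1 → i = k ∧ j = l) ∧
    (∀ (T : ℤ) (I : Finset (ℕ × ℕ)), (∀ x ∈ I, x.1 < K ∧ x.2 < K ∧ x.1 ≠ x.2 ∧
      Bad ((T + c x.1 - c x.2).toNat)) → I.card ≤ C0) ∧
    0 < M ∧ (∀ T, Bad (T + M) ↔ Bad T) ∧
    ∀ (α : Type) [Finite α] (f : α → S), ∃ (lam rho : List α → Option V) (nu : List α → V),
      (∀ P v, lam P = some v → P.length ≤ N1) ∧
      (∀ r, Language.IsRegular ({Q | rho Q = some r} : Language α)) ∧
      (∀ x, Language.IsRegular ({u | nu u = x} : Language α)) ∧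
      (∀ P Q v r, lam P = some v → rho Q = some r → r = act v (pr f (P ++ Q)) + nu (P ++ Q)) ∧
      (∀ u, Tm ≤ u.length → ¬ Bad u.length → ∀ v, ∃ P Q, P ++ Q = u ∧ lam P = some v ∧
        (rho Q).isSome)

end Crest.Agent.R320.Data_839
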