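import Crest.Agent.R320.Main_621

/-!
# Row 320: the data of `Main_621` from walls and a zone gadget (helper276)

Left-looking walls `Wo`, zones = words which end at the second wall at places `≥ z`.
-/

set_option autoImplicit false

namespace Crest.Agent.R320.DataG_276

open Crest.Agent.R320.Hk_851 Crest.Agent.R320.Star_621 Crest.Agent.R320.Two_621

universe u

variable {α : Type u}

/-- `w` is a block: the only wall in `[z, |w|)` is `b`, and `|w|` is a wall. -/
def Blk (Wo : List α → Prop) (z : ℕ) (w : List α) (b : ℕ) : Prop :=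
  z ≤ b ∧ b < w.length ∧ Wo (w.take b) ∧ Wo w ∧
    ∀ t, z ≤ t → t < w.length → Wo (w.take t) → t = b

theorem Blk.unique {Wo : List α → Prop} {z : ℕ} {w : List α} {b b' : ℕ}
    (h : Blk Wo z w b) (h' : Blk Wo z w b') : b = b' :=
  (h'.2.2.2.2 b h.1 h.2.1 h.2.2.1)

theorem Blk.code {Wo : List α → Prop} {z : ℕ} {w w' x x' : List α} {b b' : ℕ}
    (h : Blk Wo z w b) (h' : Blk Wo z w' b') (e : w ++ x = w' ++ x') : w = w' := by
  have key : ∀ {w w' x x' : List α} {b b' : ℕ}, Blk Wo z w b → Blk Wo z w' b' →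
      w ++ x = w' ++ x' → w.length < w'.length → False := by
    intro w w' x x' b b' h h' e hl
    have e1 : ∀ t, t ≤ w.length → w.take t = w'.take t := by
      intro t ht
      have := congrArg (List.take t) e
      rwa [List.take_append_of_le_length ht, List.take_append_of_le_length (by omega)] at this
    have h1 := h'.2.2.2.2 b h.1 (lt_trans h.2.1 hl) ((e1 b h.2.1.le) ▸ h.2.2.1)
    have h2 := h'.2.2.2.2 w.length (le_trans h.1 h.2.1.le) hl (by
      rw [← e1 w.length le_rfl, List.take_length]; exact h.2.2.2.1)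
    have := h.2.1
    omega
  rcases lt_trichotomy w.length w'.length with hl | hl | hl
  · exact (key h h' e hl).elim
  · exact (List.append_inj e hl).1
  · exact (key h' h e.symm hl).elim

open Classical in
/-- the inner wall of a block -/
noncomputable def bk (Wo : List α → Prop) (z : ℕ) (w : List α) : ℕ :=
  if h : ∃ b, Blk Wo z w b then h.choose else 0

theorem bk_eq {Wo : List α → Prop} {z : ℕ} {w : List α} {b : ℕ} (h : Blk Wo z w b) :
    bk Wo z w = b := by
  have hex : ∃ b, Blk Wo z w b := ⟨b, h⟩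
  unfold bk
  rw [dif_pos hex]
  exact hex.choose_spec.unique h

/-- the zones -/
def ZZ (Wo : List α → Prop) (z : ℕ) : Language α := {w | ∃ b, Blk Wo z w b}

theorem code_ZZ (Wo : List α → Prop) (z : ℕ) : Code (ZZ Wo z) := by
  refine ⟨?_, ?_⟩
  · rintro ⟨b, hb⟩
    have := hb.2.1
    simp at this
  · rintro w w' x x' ⟨b, hb⟩ ⟨b', hb'⟩ e
    exact hb.code hb' e

/-- bad zones -/
def ZC (Wo : List α → Prop) (z N : ℕ) (p0 : ℕ) (BadT : ℕ → Prop) : Language α :=
  {w | ∃ b, Blk Wo z w b ∧ ((∃ t, z ≤ t + N ∧ t ≤ z + N ∧ t ≤ w.length ∧ Wo (w.take t)) ∨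
    BadT (b - p0))}

section A

variable {S : Type u} [Monoid S]

/-- gadget on the words `Y` -/
structure GadW (ph : List α → S) (N L0 : ℕ) (BadT : ℕ → Prop)
    (lam rho : List α → Option (Tok S)) (nu : List α → Tok S) : Prop where
  len : ∀ P v, lam P = some v → P.length ≤ N
  exact : ∀ P Q v r, lam P = some v → rho Q = some r → r = act v (ph (P ++ Q)) + nu (P ++ Q)
  complete : ∀ u, L0 ≤ u.length → ¬ BadT u.length → ∀ v, ∃ P Q, u = P ++ Q ∧
    lam P = some v ∧ (rho Q).isSome

/-- noise of the outer scheme -/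
noncomputable def dA (Wo : List α → Prop) (z p0 : ℕ) (ph : List α → S)
    (nu : List α → Tok S) (w : List α) : Tok S :=
  act (nu ((w.take (bk Wo z w)).drop p0)) (ph (w.drop (bk Wo z w)))

/-- left words of the outer scheme -/
def LA (p0 N : ℕ) (ph : List α → S) (lam : List α → Option (Tok S)) (v : Tok S) : Language α :=
  {P | p0 ≤ P.length ∧ P.length ≤ p0 + N ∧
    lam (P.drop p0) = some (act v (ph (P.take p0)))}

/-- right words of the outer scheme (semantic) -/
def RA (Wo : List α → Prop) (z p0 N : ℕ) (ph : List α → S) (lam : List α → Option (Tok S))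
    (nu : List α → Tok S) (τ : Tok S) : Language α :=
  {Q | ∀ v P, P ∈ LA p0 N ph lam v → P ++ Q ∈ ZZ Wo z ∧
    aff ph (dA Wo z p0 ph nu) (P ++ Q) v = τ}

variable {Wo : List α → Prop} {n W z p0 N L0 : ℕ} {BadT : ℕ → Prop} {ph : List α → S}
  {lam rho : List α → Option (Tok S)} {nu : List α → Tok S}

theorem sound_A (hp0 : 0 < p0) :
    Sound (ZZ Wo z) (aff ph (dA Wo z p0 ph nu)) (LA p0 N ph lam) (RA Wo z p0 N ph lam nu) := by
  refine ⟨?_, ?_⟩
  · rintro ω ⟨h, -⟩
    simp at h; omega
  · intro ω τ P Q w x y hP hQ hw e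
    obtain ⟨h1, h2⟩ := hQ ω P hP
    have h3 : P ++ Q = w := (code_ZZ Wo z).2 _ _ _ _ h1 hw e
    exact ⟨h3, by rw [← h2, h3]⟩

/-- replacing the left part of a good zone gives a zone. -/
theorem blk_replace (hloc : ∀ P Q : List α, n ≤ Q.length → (Wo (P ++ Q) ↔ Wo Q))
    {P P2 Q1 E : List α} (hz : p0 + N + n ≤ z)
    (hP : p0 ≤ P.length) (hP' : P.length ≤ p0 + N)
    (hP2 : p0 ≤ P2.length) (hP2' : P2.length ≤ p0 + N)
    (hB : Blk Wo z (P ++ (Q1 ++ E)) (P.length + Q1.length))
    (hE : ¬ ∃ t, z ≤ t + N ∧ t ≤ z + N ∧ t ≤ (P ++ (Q1 ++ E)).length ∧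
      Wo ((P ++ (Q1 ++ E)).take t)) :
    Blk Wo z (P2 ++ (Q1 ++ E)) (P2.length + Q1.length) := by
  obtain ⟨h1, h2, h3, h4, h5⟩ := hB
  simp only [List.length_append] at h1 h2 hE
  have tk : ∀ (A : List α) (s : ℕ), (A ++ (Q1 ++ E)).take (A.length + s) =
      A ++ (Q1 ++ E).take s := by
    intro A s
    rw [List.take_append]
    simp [List.take_of_length_le]
  have big : z + N < P.length + Q1.length := by
    by_contra hlt
    exact hE ⟨P.length + Q1.length, by omega, by omega, by omega, h3⟩
  have trans : ∀ s, n ≤ s → s ≤ (Q1 ++ E).length →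
      (Wo ((P2 ++ (Q1 ++ E)).take (P2.length + s)) ↔
        Wo ((P ++ (Q1 ++ E)).take (P.length + s))) := by
    intro s hs hs'
    rw [tk, tk, hloc P2 _ (by rw [List.length_take]; omega),
      hloc P _ (by rw [List.length_take]; omega)]
  have hlE : (Q1 ++ E).length = Q1.length + E.length := List.length_append
  refine ⟨by omega, by simp only [List.length_append]; omega, ?_, ?_, ?_⟩
  · exact (trans Q1.length (by omega) (by omega)).2 h3
  · have := trans (Q1 ++ E).length (by omega) le_rfl
    rw [tk, tk, List.take_length] at this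
    exact this.2 h4
  · intro t ht1 ht2 ht3
    rw [List.length_append, hlE] at ht2
    obtain ⟨s, rfl⟩ : ∃ s, t = P2.length + s := ⟨t - P2.length, by omega⟩
    have h6 := (trans s (by omega) (by omega)).1 ht3
    have h7 : z ≤ P.length + s := by
      by_contra hlt
      exact hE ⟨P.length + s, by omega, by omega, by omega, h6⟩
    have h8 := h5 (P.length + s) h7 (by simp only [List.length_append]; omega) h6
    omega

theorem complete_A (hph : ∀ a b, ph (a ++ b) = ph a * ph b)
    (hloc : ∀ P Q : List α, n ≤ Q.length → (Wo (P ++ Q) ↔ Wo Q))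
    (G : GadW ph N L0 BadT lam rho nu) (hz : p0 + N + n + L0 ≤ z)
    {w : List α} (hw : w ∈ ZZ Wo z) (hw' : w ∉ ZC Wo z N p0 BadT) (v : Tok S) :
    Cut (LA p0 N ph lam) (RA Wo z p0 N ph lam nu) v w := by
  obtain ⟨b, hb⟩ := hw
  have hE : ¬ ∃ t, z ≤ t + N ∧ t ≤ z + N ∧ t ≤ w.length ∧ Wo (w.take t) := by
    intro h; exact hw' ⟨b, hb, Or.inl h⟩
  have hT : ¬ BadT (b - p0) := by
    intro h; exact hw' ⟨b, hb, Or.inr h⟩
  have hb1 := hb.1
  have hb2 := hb.2.1
  have hYl : ((w.take b).drop p0).length = b - p0 := by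
    rw [List.length_drop, List.length_take]; omega
  obtain ⟨P', Q', hY, hl, hr⟩ := G.complete ((w.take b).drop p0) (by rw [hYl]; omega)
    (by rw [hYl]; exact hT) (act v (ph (w.take p0)))
  have hPl := G.len _ _ hl
  have hXl : (w.take p0).length = p0 := by rw [List.length_take]; omega
  have ew : w = (w.take p0 ++ P') ++ (Q' ++ w.drop b) := by
    have e1 : w.take p0 ++ (w.take b).drop p0 = w.take b := by
      have : w.take p0 = (w.take b).take p0 := by rw [List.take_take, min_eq_left (by omega)]
      rw [this, List.take_append_drop]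
    calc w = w.take b ++ w.drop b := (List.take_append_drop b w).symm
      _ = (w.take p0 ++ (P' ++ Q')) ++ w.drop b := by rw [← hY, e1]
      _ = _ := by simp
  have hQl : P'.length + Q'.length = b - p0 := by
    rw [← List.length_append, ← hY, hYl]
  obtain ⟨r, hr⟩ := Option.isSome_iff_exists.1 hr
  refine ⟨w.take p0 ++ P', Q' ++ w.drop b, act r (ph (w.drop b)), ew, ?_, ?_⟩
  · refine ⟨by rw [List.length_append]; omega, by rw [List.length_append]; omega, ?_⟩
    rw [List.drop_append_of_le_length (by omega), List.take_append_of_le_length (by omega)]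
    rw [List.take_take, min_self, List.drop_of_length_le (by omega), List.nil_append]
    exact hl
  · intro v2 P2 hP2
    obtain ⟨h1, h2, h3⟩ := hP2
    have hB : Blk Wo z ((w.take p0 ++ P') ++ (Q' ++ w.drop b))
        ((w.take p0 ++ P').length + Q'.length) := by
      rw [← ew]
      have : (w.take p0 ++ P').length + Q'.length = b := by
        rw [List.length_append]; omega
      rw [this]; exact hb
    have hnew := blk_replace hloc (P2 := P2) (by omega) (by rw [List.length_append]; omega)
      (by rw [List.length_append]; omega) h1 h2 hB (by rw [← ew]; exact hE)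
    refine ⟨⟨_, hnew⟩, ?_⟩
    have hbk := bk_eq hnew
    unfold aff dA
    rw [hbk]
    have e1 : (P2 ++ (Q' ++ w.drop b)).take (P2.length + Q'.length) = P2 ++ Q' := by
      rw [← List.append_assoc, List.take_append_of_le_length (by simp),
        List.take_of_length_le (by simp)]
    have e2 : (P2 ++ (Q' ++ w.drop b)).drop (P2.length + Q'.length) = w.drop b := by
      rw [← List.append_assoc, ← List.length_append, List.drop_left]
    have e3 : (P2 ++ Q').drop p0 = P2.drop p0 ++ Q' := by
      rw [List.drop_append_of_le_length h1]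
    rw [e1, e2, e3, G.exact _ _ _ _ h3 hr]
    have e4 : P2 ++ (Q' ++ w.drop b) = P2.take p0 ++ (P2.drop p0 ++ Q') ++ w.drop b := by
      rw [← List.append_assoc (P2.take p0), List.take_append_drop, List.append_assoc]
    rw [e4, hph, hph, act_add, act_mul, act_mul, mul_assoc]

end A

end Crest.Agent.R320.DataG_276
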