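import Crest.Agent.R320.Reg_143
import Crest.Agent.R320.FewVal_228
import Crest.Agent.R320.Main_621

/-!
# Row 320: heights of the languages of the two-scheme data (helper653)

Left-looking walls (`WE`: end of a window of helper228's walls), blocks `Blk z X t` (exactly one
wall `t` in `[z, |X|)`, and `|X|` is a wall); all languages of `Main_621.Data` built from them are
regular and have few walls, hence of height at most `1`.
-/

set_option autoImplicit false

namespace Crest.Agent.R320.DataHL_653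

open Crest.Agent.R320.Hk_851 Crest.R320.Reg_143 Crest.Agent.R320.FewWalls_228

universe u

variable {α : Type u}

/-- wall, read at the end of its window -/
def WE (n : ℕ) (Sw : Set (List α)) (X : List α) (t : ℕ) : Prop :=
  n ≤ t ∧ Wl n Sw X (t - n)

theorem WE.ub {n : ℕ} {Sw : Set (List α)} {X : List α} {t : ℕ} (h : WE n Sw X t) :
    t ≤ X.length := by
  have h1 := h.1
  have h2 := h.2.1
  omega

/-- block: exactly one wall `t` in `[z, |X|)`, and `|X|` is a wall -/
def Blk (n : ℕ) (Sw : Set (List α)) (z : ℕ) (X : List α) (t : ℕ) : Prop :=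
  WE n Sw X t ∧ z ≤ t ∧ t < X.length ∧ WE n Sw X X.length ∧
    ∀ t', z ≤ t' → t' < X.length → WE n Sw X t' → t' = t

/-! ### regularity -/

theorem regWE [Finite α] (n : ℕ) (Sw : Set (List α)) {k : ℕ} (i : Fin k) :
    RegP (α := α) (fun w x => WE n Sw w (x i)) := by
  refine (RegP.ex' (P := fun w x y => x i = y + n ∧ (w.drop y).take n ∈ Sw)
    ((RegP.addc n 0 i.succ).and (RegP.drop (P := fun u => u.take n ∈ Sw)
      (isRegular_take n (fun u => u ∈ Sw)) 0))).congr fun w x hx => ?_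
  have hi := hx i
  constructor
  · rintro ⟨h1, h2, h3⟩
    exact ⟨x i - n, by omega, by omega, h3⟩
  · rintro ⟨y, hy, h1, h2⟩
    refine ⟨by omega, ?_, ?_⟩
    · rw [h1]; rw [h1] at hi; omega
    · have : x i - n = y := by omega
      rw [this]; exact h2

/-- ultimately periodic condition on a position -/
theorem regPos (P : ℕ → Prop) (N m : ℕ) (hm : 0 < m)
    (hP : ∀ t, N ≤ t → (P (t + m) ↔ P t)) {k : ℕ} (i : Fin k) :
    RegP (α := α) (fun _ x => P (x i)) := by
  refine (RegP.take (P := fun u => P u.length) (isRegular_length P N m hm hP) i).congr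
    fun w x hx => ?_
  rw [List.length_take, min_eq_left (hx i)]

theorem regLen {k : ℕ} (i : Fin k) : RegP (α := α) (fun w x => x i < w.length) := by
  refine (RegP.drop (P := fun u => 0 < u.length)
    (isRegular_length (fun t => 0 < t) 1 1 one_pos fun t ht => by omega) i).congr
    fun w x hx => ?_
  rw [List.length_drop]
  omega

theorem regEnd [Finite α] (n : ℕ) (Sw : Set (List α)) {k : ℕ} :
    RegP (α := α) (k := k) (fun w _ => WE n Sw w w.length) := by
  refine (RegP.ex' (P := fun w _ y => ¬ y < w.length ∧ WE n Sw w y)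
    ((regLen 0).not.and (regWE n Sw 0))).congr fun w x hx => ?_
  constructor
  · intro h; exact ⟨w.length, le_rfl, by omega, h⟩
  · rintro ⟨y, hy, h1, h2⟩
    have : y = w.length := by omega
    rw [← this]; exact h2

theorem regBlk [Finite α] (n : ℕ) (Sw : Set (List α)) (z : ℕ) {k : ℕ} (i : Fin k) :
    RegP (α := α) (fun w x => Blk n Sw z w (x i)) := by
  refine ((regWE n Sw i).and ((regPos (fun t => z ≤ t) z 1 one_pos (fun t ht => by omega) i).and
    ((regLen i).and ((regEnd n Sw).and (RegP.all' (P := fun w x y => z ≤ y → y < w.length →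
      WE n Sw w y → y = x i)
      ((regPos (fun t => z ≤ t) z 1 one_pos (fun t ht => by omega) 0).imp
        ((regLen 0).imp ((regWE n Sw 0).imp (RegP.eq 0 i.succ))))))))).congr fun w x hx => ?_
  unfold Blk
  constructor
  · rintro ⟨h1, h2, h3, h4, h5⟩
    exact ⟨h1, h2, h3, h4, fun y _ => h5 y⟩
  · rintro ⟨h1, h2, h3, h4, h5⟩
    exact ⟨h1, h2, h3, h4, fun y a b c => h5 y b.le a b c⟩

theorem isRegular_dropc {P : List α → Prop} (hP : (lg P).IsRegular) (c : ℕ) :
    (lg fun w : List α => P (w.drop c)).IsRegular := by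
  have h : RegP (α := α) (k := 0) (fun w _ => (∃ y ≤ w.length, y = c ∧ P (w.drop y)) ∨
      (w.length < c ∧ P [])) := by
    refine (RegP.ex' (P := fun w _ y => y = c ∧ P (w.drop y))
      ((regPos (fun t => t = c) (c + 1) 1 one_pos (fun t ht => by omega) 0).and
        (RegP.drop hP 0))).or ?_
    exact (RegP.mem (P := fun w => w.length < c)
      (isRegular_length (fun t => t < c) c 1 one_pos fun t ht => by omega)).and (RegP.const _)
  refine isRegular_congr h.close fun w => ?_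
  rw [mem_lg]
  constructor
  · rintro (⟨y, _, hy, h3⟩ | ⟨h1, h2⟩)
    · rw [← hy]; exact h3
    · rw [List.drop_eq_nil_of_le h1.le]; exact h2
  · intro h
    by_cases hc : c ≤ w.length
    · exact Or.inl ⟨c, hc, rfl, h⟩
    · refine Or.inr ⟨by omega, ?_⟩
      rw [List.drop_eq_nil_of_le (by omega)] at h
      exact h

/-! ### few walls -/

theorem few {n : ℕ} {Sw : Set (List α)} {X : List α} {z a b : ℕ}
    (h : ∀ t, z ≤ t → WE n Sw X t → t = a ∨ t = b) : nw n Sw X ≤ z + 2 := by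
  classical
  unfold nw
  have hsub : ((Finset.range (X.length + 1)).filter (fun x => Wl n Sw X x)) ⊆
      insert (a - n) (insert (b - n) (Finset.range z)) := by
    intro x hx
    rw [Finset.mem_filter] at hx
    rw [Finset.mem_insert, Finset.mem_insert, Finset.mem_range]
    by_cases hz : z ≤ x + n
    · have hw : WE n Sw X (x + n) := ⟨by omega, by rw [Nat.add_sub_cancel]; exact hx.2⟩
      rcases h _ hz hw with h1 | h1
      · left; omega
      · right; left; omega
    · right; right; omega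
  refine (Finset.card_le_card hsub).trans ?_
  refine (Finset.card_insert_le _ _).trans ?_
  have := Finset.card_insert_le (b - n) (Finset.range z)
  rw [Finset.card_range] at this
  omega

theorem Blk.few {n : ℕ} {Sw : Set (List α)} {X : List α} {z t : ℕ} (h : Blk n Sw z X t) :
    nw n Sw X ≤ z + 2 := by
  refine DataHL_653.few (a := t) (b := X.length) fun t' h1 h2 => ?_
  rcases Nat.lt_or_ge t' X.length with h3 | h3
  · exact Or.inl (h.2.2.2.2 t' h1 h3 h2)
  · exact Or.inr (le_antisymm h2.ub h3)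

/-! ### the languages -/

section langs

variable (n : ℕ) (Sw : Set (List α))

/-- the blocks -/
def ZZ (z : ℕ) : Language α := {X | ∃ t, Blk n Sw z X t}

/-- badness of an accepted wall `t`, anchor `c` letters before the text, in the text `Q` -/
def BadAt (z N1 p0 : ℕ) (Bad : ℕ → Prop) (c : ℕ) (Q : List α) (t : ℕ) : Prop :=
  (∃ e, WE n Sw Q e ∧ z ≤ e + c + N1 ∧ e + c < z + N1) ∨ Bad (t + c - p0)

/-- bad blocks -/
def ZC (z N1 p0 : ℕ) (Bad : ℕ → Prop) : Language α :=
  {X | ∃ t, Blk n Sw z X t ∧ BadAt n Sw z N1 p0 Bad 0 X t}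

/-- right-legal words of the outer scheme -/
def RA {S V : Type*} [Monoid S] (z N1 p0 : ℕ) (f : α → S) (act : V → S → V)
    (rho : List α → Option V) (τ : V) : Language α :=
  {Q | ∃ t, Blk n Sw (z - p0) Q t ∧ (∀ e, z ≤ e + p0 + N1 → e + p0 < z → ¬ WE n Sw Q e) ∧
    ∃ b, rho (Q.take t) = some b ∧ τ = act b (((Q.drop t).map f).prod)}

/-- the anchor `c` letters before the text is a bad candidate -/
def Cand (z N1 p0 : ℕ) (Bad : ℕ → Prop) (c : ℕ) (Q : List α) : Prop :=
  ∃ t, (WE n Sw Q t ∧ z - c ≤ t ∧ ∀ t', z - c ≤ t' → t' < t → ¬ WE n Sw Q t') ∧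
    BadAt n Sw z N1 p0 Bad c Q t

/-- right-legal words of the promise scheme -/
def RB {Y V : Type*} (z N1 p0 : ℕ) (Bad : ℕ → Prop) (K : ℕ) (c : ℕ → ℕ)
    (rho : ℕ → List α → Y → Option V) (y : List α → Y) (τ : V) : Language α :=
  {Q | ∃ k < K, Cand n Sw z N1 p0 Bad (c k) Q ∧ (∀ j < K, Cand n Sw z N1 p0 Bad (c j) Q → j = k) ∧
    (∃ t, Blk n Sw (z - c k) Q t) ∧
    rho k (Q.take (p0 - c k)) (y (Q.drop (p0 - c k))) = some τ}

variable {n Sw}

theorem lg_ex {P : List α → ℕ → Prop}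
    (h : RegP (α := α) (k := 1) (fun w x => P w (x 0))) (hb : ∀ w t, P w t → t ≤ w.length) :
    (lg fun w => ∃ t, P w t).IsRegular := by
  have h2 : RegP (α := α) (k := 0) (fun w _ => ∃ t ≤ w.length, P w t) :=
    RegP.ex' (P := fun w _ t => P w t) h
  refine isRegular_congr h2.close fun w => ?_
  rw [mem_lg]
  constructor
  · rintro ⟨t, _, ht⟩; exact ⟨t, ht⟩
  · rintro ⟨t, ht⟩; exact ⟨t, hb w t ht, ht⟩

theorem reg_ZZ [Finite α] (z : ℕ) : (ZZ n Sw z).IsRegular :=
  lg_ex (P := fun w t => Blk n Sw z w t) (regBlk n Sw z 0) fun _ _ h => h.1.ub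

theorem regBadAt [Finite α] (z N1 p0 M : ℕ) (Bad : ℕ → Prop) (hM : 0 < M)
    (hB : ∀ T, Bad (T + M) ↔ Bad T) (c : ℕ) {k : ℕ} (i : Fin k) :
    RegP (α := α) (fun w x => BadAt n Sw z N1 p0 Bad c w (x i)) := by
  refine ((RegP.ex' (P := fun w _ e => WE n Sw w e ∧ (z ≤ e + c + N1 ∧ e + c < z + N1))
    ((regWE n Sw 0).and (regPos (fun e => z ≤ e + c + N1 ∧ e + c < z + N1) (z + N1) 1 one_pos
      (fun t ht => by omega) 0))).or
    (regPos (fun t => Bad (t + c - p0)) p0 M hM (fun t ht => by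
      have : t + M + c - p0 = (t + c - p0) + M := by omega
      rw [this, hB]) i)).congr fun w x hx => ?_
  unfold BadAt
  constructor
  · rintro (⟨e, h1, h2, h3⟩ | h)
    · exact Or.inl ⟨e, h1.ub, h1, h2, h3⟩
    · exact Or.inr h
  · rintro (⟨e, _, h1, h2, h3⟩ | h)
    · exact Or.inl ⟨e, h1, h2, h3⟩
    · exact Or.inr h

theorem reg_ZC [Finite α] (z N1 p0 M : ℕ) (Bad : ℕ → Prop) (hM : 0 < M)
    (hB : ∀ T, Bad (T + M) ↔ Bad T) : (ZC n Sw z N1 p0 Bad).IsRegular :=
  lg_ex (P := fun w t => Blk n Sw z w t ∧ BadAt n Sw z N1 p0 Bad 0 w t)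
    ((regBlk n Sw z 0).and (regBadAt z N1 p0 M Bad hM hB 0 0)) fun _ _ h => h.1.1.ub

theorem reg_Cand [Finite α] (z N1 p0 M : ℕ) (Bad : ℕ → Prop) (hM : 0 < M)
    (hB : ∀ T, Bad (T + M) ↔ Bad T) (c : ℕ) :
    (lg fun Q => Cand n Sw z N1 p0 Bad c Q).IsRegular := by
  refine lg_ex (P := fun Q t => (WE n Sw Q t ∧ z - c ≤ t ∧
    ∀ t', z - c ≤ t' → t' < t → ¬ WE n Sw Q t') ∧ BadAt n Sw z N1 p0 Bad c Q t)
    (RegP.and ?_ (regBadAt z N1 p0 M Bad hM hB c 0)) fun _ _ h => h.1.1.ub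
  refine ((regWE n Sw 0).and ((regPos (fun t => z - c ≤ t) z 1 one_pos
    (fun t ht => by omega) 0).and (RegP.all' (P := fun w x y => z - c ≤ y → y < x 0 →
      ¬ WE n Sw w y)
      ((regPos (fun t => z - c ≤ t) z 1 one_pos (fun t ht => by omega) 0).imp
        ((RegP.lt 0 (Fin.succ 0)).imp (regWE n Sw 0).not))))).congr fun w x hx => ?_
  constructor
  · rintro ⟨h1, h2, h3⟩
    exact ⟨h1, h2, fun y _ => h3 y⟩
  · rintro ⟨h1, h2, h3⟩
    exact ⟨h1, h2, fun y a b => h3 y (b.le.trans (hx 0)) a b⟩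

theorem reg_RA [Finite α] {S V : Type*} [Monoid S] [Finite S] [Finite V] (z N1 p0 : ℕ)
    (f : α → S) (act : V → S → V) (rho : List α → Option V)
    (hrho : ∀ b, (lg fun Q => rho Q = some b).IsRegular) (τ : V) :
    (RA n Sw z N1 p0 f act rho τ).IsRegular := by
  refine lg_ex (P := fun Q t => Blk n Sw (z - p0) Q t ∧
    (∀ e, z ≤ e + p0 + N1 → e + p0 < z → ¬ WE n Sw Q e) ∧
    ∃ b, rho (Q.take t) = some b ∧ τ = act b (((Q.drop t).map f).prod)) ?_
    fun _ _ h => h.1.1.ub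
  refine ((regBlk n Sw (z - p0) 0).and ((RegP.all' (P := fun w _ e =>
      (z ≤ e + p0 + N1 ∧ e + p0 < z) → ¬ WE n Sw w e)
      ((regPos (fun e => z ≤ e + p0 + N1 ∧ e + p0 < z) z 1 one_pos (fun t ht => by omega) 0).imp
        (regWE n Sw 0).not)).and
      (RegP.exists_finite (ι := V) (P := fun b Q (x : Fin 1 → ℕ) => rho (Q.take (x 0)) = some b ∧
        τ = act b (((Q.drop (x 0)).map f).prod)) fun b =>
        (RegP.take (hrho b) 0).and (RegP.drop (P := fun Q => τ = act b ((Q.map f).prod))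
          (isRegular_monoid f fun s => τ = act b s) 0)))).congr fun w x hx => ?_
  constructor
  · rintro ⟨h1, h2, h3⟩
    exact ⟨h1, fun e _ h => h2 e h.1 h.2, h3⟩
  · rintro ⟨h1, h2, h3⟩
    exact ⟨h1, fun e a b hw => h2 e hw.ub ⟨a, b⟩ hw, h3⟩

theorem reg_RB [Finite α] {Y V : Type*} [Finite Y] (z N1 p0 M : ℕ) (Bad : ℕ → Prop)
    (hM : 0 < M) (hB : ∀ T, Bad (T + M) ↔ Bad T) (K : ℕ) (c : ℕ → ℕ)
    (rho : ℕ → List α → Y → Option V) (y : List α → Y)
    (hy : ∀ g, (lg fun Q => y Q = g).IsRegular) (τ : V) :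
    (RB n Sw z N1 p0 Bad K c rho y τ).IsRegular := by
  have key : ∀ k : Fin K, (lg fun Q => Cand n Sw z N1 p0 Bad (c k) Q ∧
      (∀ j : Fin K, Cand n Sw z N1 p0 Bad (c j) Q → (j : ℕ) = k) ∧
      (∃ t, Blk n Sw (z - c k) Q t) ∧
      ∃ g : Y, y (Q.drop (p0 - c k)) = g ∧ rho k (Q.take (p0 - c k)) g = some τ).IsRegular := by
    intro k
    have h : RegP (α := α) (k := 0) (fun Q _ => Cand n Sw z N1 p0 Bad (c k) Q ∧
      (∀ j : Fin K, Cand n Sw z N1 p0 Bad (c j) Q → (j : ℕ) = k) ∧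
      (∃ t, Blk n Sw (z - c k) Q t) ∧
      ∃ g : Y, y (Q.drop (p0 - c k)) = g ∧ rho k (Q.take (p0 - c k)) g = some τ) := by
      refine (RegP.mem (reg_Cand z N1 p0 M Bad hM hB (c k))).and ((RegP.forall_finite
        (P := fun (j : Fin K) Q _ => Cand n Sw z N1 p0 Bad (c j) Q → (j : ℕ) = k) fun j =>
          (RegP.mem (reg_Cand z N1 p0 M Bad hM hB (c j))).imp (RegP.const _)).and
        ((RegP.mem (reg_ZZ (z - c k))).and (RegP.exists_finite
          (P := fun (g : Y) Q _ => y (Q.drop (p0 - c k)) = g ∧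
            rho k (Q.take (p0 - c k)) g = some τ) fun g =>
          (RegP.mem (P := fun Q => y (Q.drop (p0 - c k)) = g)
            (isRegular_dropc (P := fun Q => y Q = g) (hy g) (p0 - c k))).and
          (RegP.mem (P := fun Q => rho k (Q.take (p0 - c k)) g = some τ)
            (isRegular_take (p0 - c k) fun Q => rho k Q g = some τ)))))
    exact isRegular_congr h.close fun w => Iff.rfl
  have h2 : RegP (α := α) (k := 0) (fun Q _ => ∃ k : Fin K, Cand n Sw z N1 p0 Bad (c k) Q ∧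
      (∀ j : Fin K, Cand n Sw z N1 p0 Bad (c j) Q → (j : ℕ) = k) ∧
      (∃ t, Blk n Sw (z - c k) Q t) ∧
      ∃ g : Y, y (Q.drop (p0 - c k)) = g ∧ rho k (Q.take (p0 - c k)) g = some τ) :=
    RegP.exists_finite (fun k => RegP.mem (key k))
  refine isRegular_congr h2.close fun Q => ?_
  rw [mem_lg]
  constructor
  · rintro ⟨k, h1, h2, h3, g, h4, h5⟩
    exact ⟨k, k.2, h1, fun j hj hc => h2 ⟨j, hj⟩ hc, h3, by rw [h4]; exact h5⟩
  · rintro ⟨k, hk, h1, h2, h3, h4⟩
    exact ⟨⟨k, hk⟩, h1, fun j hc => h2 j j.2 hc, h3, _, rfl, h4⟩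

theorem reg_rest [Finite α] {S : Type*} [Monoid S] [Finite S] (z : ℕ) (f : α → S) (s : S) :
    (lg fun w => (∀ X ∈ ZZ n Sw z, ¬ X <+: w) ∧ (w.map f).prod = s).IsRegular := by
  have h : RegP (α := α) (k := 0) (fun w _ => (∀ y ≤ w.length, ¬ w.take y ∈ ZZ n Sw z) ∧
      (w.map f).prod = s) :=
    (RegP.all' (P := fun w _ y => ¬ w.take y ∈ ZZ n Sw z)
      (RegP.take (P := fun u => u ∈ ZZ n Sw z) (reg_ZZ z) 0).not).and
      (RegP.mem (isRegular_monoid f fun m => m = s))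
  refine isRegular_congr h.close fun w => ?_
  rw [mem_lg]
  constructor
  · rintro ⟨h1, h2⟩
    refine ⟨fun X hX hp => ?_, h2⟩
    have := h1 X.length hp.length_le
    rw [← List.prefix_iff_eq_take.1 hp] at this
    exact this hX
  · rintro ⟨h1, h2⟩
    exact ⟨fun y _ hy => h1 _ hy (List.take_prefix _ _), h2⟩

/-! ### few walls, heights -/

theorem WE.take {X : List α} {t m : ℕ} (h : WE n Sw X t) (hm : t ≤ m) : WE n Sw (X.take m) t := by
  have hub := h.ub
  obtain ⟨h1, h2, h3⟩ := h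
  refine ⟨h1, ?_, ?_⟩
  · rw [List.length_take]; omega
  · rw [List.drop_take, List.take_take, min_eq_left (by omega)]; exact h3

theorem WE.of_take {X : List α} {t m : ℕ} (h : WE n Sw (X.take m) t) : WE n Sw X t := by
  have hub := h.ub
  obtain ⟨h1, h2, h3⟩ := h
  rw [List.length_take] at hub h2
  refine ⟨h1, by omega, ?_⟩
  rw [List.drop_take, List.take_take, min_eq_left (by omega)] at h3
  exact h3

theorem few_rest {z : ℕ} {w : List α} (h : ∀ X ∈ ZZ n Sw z, ¬ X <+: w) : nw n Sw w ≤ z + 2 := by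
  classical
  by_cases h1 : ∃ t, z ≤ t ∧ WE n Sw w t
  · refine few (a := Nat.find h1) (b := Nat.find h1) fun t ht hw => ?_
    by_contra hne
    have hne' : t ≠ Nat.find h1 := fun e => hne (Or.inl e)
    have hlt : Nat.find h1 < t := lt_of_le_of_ne (Nat.find_min' h1 ⟨ht, hw⟩) (Ne.symm hne')
    have h2 : ∃ t, Nat.find h1 < t ∧ WE n Sw w t := ⟨t, hlt, hw⟩
    have hs := Nat.find_spec h1
    have hs2 := Nat.find_spec h2
    have hub := hs2.2.ub
    have hl : (w.take (Nat.find h2)).length = Nat.find h2 := by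
      rw [List.length_take]; omega
    refine h (w.take (Nat.find h2)) ⟨Nat.find h1, hs.2.take hs2.1.le, hs.1, ?_, ?_, ?_⟩
      (List.take_prefix _ _)
    · rw [hl]; exact hs2.1
    · rw [hl]; exact hs2.2.take le_rfl
    · intro t' h3 h4 h5
      rw [hl] at h4
      have h6 := h5.of_take
      by_contra h7
      have h8 : Nat.find h1 < t' := lt_of_le_of_ne (Nat.find_min' h1 ⟨h3, h6⟩) (Ne.symm h7)
      exact Nat.find_min h2 h4 ⟨h8, h6⟩
  · refine few (a := 0) (b := 0) fun t ht hw => (h1 ⟨t, ht, hw⟩).elim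

variable (hfew : ∀ (L : Language α), L.IsRegular → ∀ r, HL 1 ({w | w ∈ L ∧ nw n Sw w ≤ r} : Language α))
include hfew

theorem HL_of {L : Language α} (hL : L.IsRegular) {r : ℕ} (h : ∀ w ∈ L, nw n Sw w ≤ r) :
    HL 1 L :=
  (hfew L hL r).congr fun w => ⟨fun hw => ⟨hw, h w hw⟩, fun hw => hw.1⟩

theorem HL_ZZ [Finite α] (z : ℕ) : HL 1 (ZZ n Sw z) :=
  HL_of hfew (reg_ZZ z) (r := z + 2) fun _ ⟨_, h⟩ => h.few

theorem HL_ZC [Finite α] (z N1 p0 M : ℕ) (Bad : ℕ → Prop) (hM : 0 < M)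
    (hB : ∀ T, Bad (T + M) ↔ Bad T) : HL 1 (ZC n Sw z N1 p0 Bad) :=
  HL_of hfew (reg_ZC z N1 p0 M Bad hM hB) (r := z + 2) fun _ ⟨_, h⟩ => h.1.few

theorem HL_RA [Finite α] {S V : Type*} [Monoid S] [Finite S] [Finite V] (z N1 p0 : ℕ)
    (f : α → S) (act : V → S → V) (rho : List α → Option V)
    (hrho : ∀ b, (lg fun Q => rho Q = some b).IsRegular) (τ : V) :
    HL 1 (RA n Sw z N1 p0 f act rho τ) :=
  HL_of hfew (reg_RA z N1 p0 f act rho hrho τ) (r := z - p0 + 2) fun _ ⟨_, h⟩ => h.1.few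

theorem HL_RB [Finite α] {Y V : Type*} [Finite Y] (z N1 p0 M : ℕ) (Bad : ℕ → Prop)
    (hM : 0 < M) (hB : ∀ T, Bad (T + M) ↔ Bad T) (K : ℕ) (c : ℕ → ℕ)
    (rho : ℕ → List α → Y → Option V) (y : List α → Y)
    (hy : ∀ g, (lg fun Q => y Q = g).IsRegular) (τ : V) :
    HL 1 (RB n Sw z N1 p0 Bad K c rho y τ) :=
  HL_of hfew (reg_RB z N1 p0 M Bad hM hB K c rho y hy τ) (r := z + 2)
    fun _ ⟨k, _, _, _, ⟨_, h⟩, _⟩ => h.few.trans (by omega)

theorem HL_rest [Finite α] {S : Type*} [Monoid S] [Finite S] (z : ℕ) (f : α → S) (s : S) :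
    HL 1 ({w | (∀ X ∈ ZZ n Sw z, ¬ X <+: w) ∧ (w.map f).prod = s} : Language α) :=
  HL_of hfew (reg_rest z f s) (r := z + 2) fun _ h => few_rest h.1

end langs

end Crest.Agent.R320.DataHL_653
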