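import Mathlib

/-!
# Row 320: blocks between outer walls (helper179)

`W P` : the word `P` ends in a wall (left-looking, window `n`).  The block starting at an anchor ends
at the wall after the first wall at a place `≥ z0` (621's trick).  `IsT o Q s` : the accepted wall of
the text whose anchor is `o` letters before `Q` is the place `s` of `Q`.
-/

set_option autoImplicit false

namespace Crest.Agent.R320.DataJ_179

variable {α : Type*}

/-- left-looking wall rule with window `n` and gap `g` -/
structure Walls (W : List α → Prop) (n g : ℕ) : Prop where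
  loc : ∀ P Q : List α, n ≤ Q.length → (W (P ++ Q) ↔ W Q)
  len : ∀ P : List α, W P → n ≤ P.length
  gap : ∀ (w : List α) (s t : ℕ), s < t → t ≤ w.length → W (w.take s) → W (w.take t) → s + g < t

variable (W : List α → Prop) (z0 : ℕ)

/-- accepted wall of the text, anchor `o` letters before `Q` -/
def IsT (o : ℕ) (Q : List α) (s : ℕ) : Prop :=
  z0 ≤ o + s ∧ s ≤ Q.length ∧ W (Q.take s) ∧ ∀ s' < s, z0 ≤ o + s' → ¬ W (Q.take s')

/-- `Q` is the rest of a block, the anchor is `o` letters before `Q` -/
def IsZ (o : ℕ) (Q : List α) : Prop :=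
  ∃ t, IsT W z0 o Q t ∧ t < Q.length ∧ W Q ∧ ∀ s, t < s → s < Q.length → ¬ W (Q.take s)

variable {W z0}

theorem IsT.unique {o : ℕ} {Q : List α} {s t : ℕ} (hs : IsT W z0 o Q s) (ht : IsT W z0 o Q t) :
    s = t := by
  rcases lt_trichotomy s t with h | h | h
  · exact absurd hs.2.2.1 (ht.2.2.2 s h hs.1)
  · exact h
  · exact absurd ht.2.2.1 (hs.2.2.2 t h ht.1)

theorem IsT.ext {o : ℕ} {Q x : List α} {s : ℕ} (hs : IsT W z0 o Q s) : IsT W z0 o (Q ++ x) s := by
  obtain ⟨h1, h2, h3, h4⟩ := hs
  refine ⟨h1, by rw [List.length_append]; omega, ?_, ?_⟩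
  · rw [List.take_append_of_le_length h2]; exact h3
  · intro s' hs' hz
    rw [List.take_append_of_le_length (by omega)]
    exact h4 s' hs' hz

theorem IsT.res {o : ℕ} {Q x : List α} {s : ℕ} (hs : IsT W z0 o (Q ++ x) s) (h : s ≤ Q.length) :
    IsT W z0 o Q s := by
  obtain ⟨h1, h2, h3, h4⟩ := hs
  refine ⟨h1, h, ?_, ?_⟩
  · rw [List.take_append_of_le_length h] at h3; exact h3
  · intro s' hs' hz
    have := h4 s' hs' hz
    rwa [List.take_append_of_le_length (by omega)] at this

/-- no two blocks are comparable -/
theorem code {z z' x x' : List α} (hz : IsZ W z0 0 z) (hz' : IsZ W z0 0 z')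
    (h : z ++ x = z' ++ x') : z = z' := by
  obtain ⟨t, ht, htl, hW, hn⟩ := hz
  obtain ⟨t', ht', htl', hW', hn'⟩ := hz'
  have e : t = t' := by
    have h1 : IsT W z0 0 (z ++ x) t := ht.ext
    have h2 : IsT W z0 0 (z ++ x) t' := by rw [h]; exact ht'.ext
    exact h1.unique h2
  subst e
  rcases lt_trichotomy z.length z'.length with hl | hl | hl
  · exfalso
    have e2 : z'.take z.length = z := by
      have := congrArg (List.take z.length) h
      rw [List.take_append_of_le_length (le_refl _), List.take_append_of_le_length hl.le,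
        List.take_length] at this
      exact this.symm
    have := hn' z.length htl hl
    rw [e2] at this
    exact this hW
  · exact (List.append_inj h hl).1
  · exfalso
    have e2 : z.take z'.length = z' := by
      have := congrArg (List.take z'.length) h
      rw [List.take_append_of_le_length hl.le, List.take_append_of_le_length (le_refl _),
        List.take_length] at this
      exact this
    have := hn z'.length htl' hl
    rw [e2] at this
    exact this hW'

section shift

variable {n g : ℕ} (hW : Walls W n g)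

include hW

theorem wall_take {P Q : List α} {s : ℕ} (h1 : P.length + n ≤ s) (h2 : s ≤ P.length + Q.length) :
    W ((P ++ Q).take s) ↔ W (Q.take (s - P.length)) := by
  rw [List.take_append, List.take_of_length_le (by omega)]
  exact hW.loc _ _ (by rw [List.length_take]; omega)

theorem isT_append {P Q : List α} {t : ℕ} (hP : P.length + n ≤ z0) (ht : P.length ≤ t) :
    IsT W z0 0 (P ++ Q) t ↔ IsT W z0 P.length Q (t - P.length) := by
  constructor
  · rintro ⟨h1, h2, h3, h4⟩
    rw [List.length_append] at h2
    refine ⟨by omega, by omega, ?_, ?_⟩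
    · exact (wall_take hW (by omega) (by omega)).1 h3
    · intro s' hs' hz hw
      refine h4 (s' + P.length) (by omega) (by omega) ?_
      rw [wall_take hW (by omega) (by omega), Nat.add_sub_cancel]
      exact hw
  · rintro ⟨h1, h2, h3, h4⟩
    refine ⟨by omega, by rw [List.length_append]; omega, ?_, ?_⟩
    · exact (wall_take hW (by omega) (by omega)).2 h3
    · intro s' hs' hz hw
      refine h4 (s' - P.length) (by omega) (by omega) ?_
      exact (wall_take hW (by omega) (by omega)).1 hw

theorem isZ_append {P Q : List α} (hP : P.length + n ≤ z0) :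
    IsZ W z0 0 (P ++ Q) ↔ IsZ W z0 P.length Q := by
  constructor
  · rintro ⟨t, ht, h1, h2, h3⟩
    have htz : z0 ≤ t := by have := ht.1; omega
    rw [List.length_append] at h1
    refine ⟨t - P.length, (isT_append hW hP (by omega)).1 ht, by omega, ?_, ?_⟩
    · exact (hW.loc _ _ (by omega)).1 h2
    · intro s hs1 hs2 hw
      refine h3 (s + P.length) (by omega) (by rw [List.length_append]; omega) ?_
      rw [wall_take hW (by omega) (by omega), Nat.add_sub_cancel]
      exact hw
  · rintro ⟨t, ht, h1, h2, h3⟩
    have htz : z0 ≤ P.length + t := ht.1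
    refine ⟨P.length + t, (isT_append hW hP (by omega)).2 (by
      rw [Nat.add_sub_cancel_left]; exact ht), by rw [List.length_append]; omega, ?_, ?_⟩
    · exact (hW.loc _ _ (by omega)).2 h2
    · intro s hs1 hs2 hw
      rw [List.length_append] at hs2
      refine h3 (s - P.length) (by omega) (by omega) ?_
      exact (wall_take hW (by omega) (by omega)).1 hw

end shift

open Classical in
/-- the place of the accepted wall -/
noncomputable def tt (W : List α → Prop) (z0 o : ℕ) (Q : List α) : ℕ :=
  if h : ∃ t, IsT W z0 o Q t then h.choose else 0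

theorem tt_eq {o : ℕ} {Q : List α} {t : ℕ} (h : IsT W z0 o Q t) : tt W z0 o Q = t := by
  have hex : ∃ t, IsT W z0 o Q t := ⟨t, h⟩
  unfold tt
  rw [dif_pos hex]
  exact hex.choose_spec.unique h

/-- there is a wall in the band `[z0 - N1, z0 + N1)` -/
def EB (W : List α → Prop) (z0 N1 o : ℕ) (Q : List α) : Prop :=
  ∃ s, s ≤ Q.length ∧ z0 ≤ o + s + N1 ∧ o + s < z0 + N1 ∧ W (Q.take s)

/-- the anchor is not bad -/
def Good (W : List α → Prop) (z0 N1 p0 : ℕ) (BadT : ℕ → Prop) (o : ℕ) (Q : List α) : Prop :=
  (∃ t, IsT W z0 o Q t ∧ ¬ BadT (o + t - p0)) ∧ ¬ EB W z0 N1 o Q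

section shift2

variable {n g N1 p0 : ℕ} {BadT : ℕ → Prop} (hW : Walls W n g)

include hW

theorem EB_append {P Q : List α} (hP : P.length + n + N1 ≤ z0) :
    EB W z0 N1 0 (P ++ Q) ↔ EB W z0 N1 P.length Q := by
  constructor
  · rintro ⟨s, h1, h2, h3, h4⟩
    rw [List.length_append] at h1
    refine ⟨s - P.length, by omega, by omega, by omega, ?_⟩
    exact (wall_take hW (by omega) (by omega)).1 h4
  · rintro ⟨s, h1, h2, h3, h4⟩
    refine ⟨s + P.length, by rw [List.length_append]; omega, by omega, by omega, ?_⟩
    rw [wall_take hW (by omega) (by omega), Nat.add_sub_cancel]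
    exact h4

theorem Good_append {P Q : List α} (hP : P.length + n + N1 ≤ z0) :
    Good W z0 N1 p0 BadT 0 (P ++ Q) ↔ Good W z0 N1 p0 BadT P.length Q := by
  unfold Good
  rw [EB_append hW hP]
  have : (∃ t, IsT W z0 0 (P ++ Q) t ∧ ¬ BadT (0 + t - p0)) ↔
      (∃ t, IsT W z0 P.length Q t ∧ ¬ BadT (P.length + t - p0)) := by
    constructor
    · rintro ⟨t, ht, hb⟩
      have htz : z0 ≤ t := by have := ht.1; omega
      refine ⟨t - P.length, (isT_append hW (by omega) (by omega)).1 ht, ?_⟩
      rw [show P.length + (t - P.length) - p0 = 0 + t - p0 by omega]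
      exact hb
    · rintro ⟨t, ht, hb⟩
      refine ⟨P.length + t, (isT_append hW (by omega) (by omega)).2 (by
        rw [Nat.add_sub_cancel_left]; exact ht), ?_⟩
      rw [Nat.zero_add]
      exact hb
  rw [this]

omit hW in
/-- a bad block stays bad when the text is cut behind the accepted wall -/
theorem not_good_of_comparable {z w x y : List α} (hz : IsZ W z0 0 z)
    (hbad : ¬ Good W z0 N1 p0 BadT 0 z) (h : w ++ x = z ++ y) :
    ¬ Good W z0 N1 p0 BadT 0 w := by
  rintro ⟨⟨t, ht, hb⟩, hE⟩
  obtain ⟨t', ht', htl', -, -⟩ := hz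
  have e : t = t' := by
    have h1 : IsT W z0 0 (w ++ x) t := ht.ext
    have h2 : IsT W z0 0 (w ++ x) t' := by rw [h]; exact ht'.ext
    exact h1.unique h2
  subst e
  apply hbad
  refine ⟨⟨t, ht', hb⟩, ?_⟩
  rintro ⟨s, h1, h2, h3, h4⟩
  apply hE
  have htw := ht.2.1
  by_cases hs : s ≤ t
  · refine ⟨s, by omega, h2, h3, ?_⟩
    have e1 : w.take s = z.take s := by
      have := congrArg (List.take s) h
      rwa [List.take_append_of_le_length (by omega),
        List.take_append_of_le_length (by omega)] at this
    rw [e1]; exact h4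
  · have := ht.1
    exact ⟨t, htw, by omega, by omega, ht.2.2.1⟩

end shift2

end Crest.Agent.R320.DataJ_179
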