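import Crest.Agent.R320.DataJ1_179
import Crest.Agent.R320.Two_621

/-!
# Row 320: the outer scheme from a zone gadget (semantic right parts), helper179
-/

set_option autoImplicit false

namespace Crest.Agent.R320.DataJ_179

open Crest.Agent.R320.Hk_851 Crest.Agent.R320.Star_621 Crest.Agent.R320.Two_621

variable {α : Type*} {S : Type*} [Monoid S]

section exch

variable {W : List α → Prop} {z0 N1 : ℕ}

theorem isT_exch {o o' : ℕ} {Q : List α} {s : ℕ} (h1 : o ≤ o' + N1) (h2 : o' ≤ o + N1)
    (ht : IsT W z0 o Q s) (hE : ¬ EB W z0 N1 o Q) : IsT W z0 o' Q s := by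
  obtain ⟨a1, a2, a3, a4⟩ := ht
  have key : ∀ r, r ≤ Q.length → W (Q.take r) → z0 ≤ o + r + N1 → z0 + N1 ≤ o + r := by
    intro r hr hw hz
    by_contra hc
    exact hE ⟨r, hr, hz, by omega, hw⟩
  have b1 := key s a2 a3 (by omega)
  refine ⟨by omega, a2, a3, fun s' hs' hz hw => ?_⟩
  have b2 := key s' (by omega) hw (by omega)
  exact a4 s' hs' (by omega) hw

theorem isZ_exch {o o' : ℕ} {Q : List α} (h1 : o ≤ o' + N1) (h2 : o' ≤ o + N1)
    (hz : IsZ W z0 o Q) (hE : ¬ EB W z0 N1 o Q) : IsZ W z0 o' Q := by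
  obtain ⟨t, ht, h⟩ := hz
  exact ⟨t, isT_exch h1 h2 ht hE, h⟩

end exch

variable (W : List α → Prop) (z0 p0 N1 : ℕ) (BadT : ℕ → Prop) (ph : List α → S)
  (lam : List α → Option (Tok S)) (nu : List α → Tok S)

/-- blocks -/
def ZZ : Language α := {z | IsZ W z0 0 z}

/-- bad blocks -/
def ZC : Language α := {z | IsZ W z0 0 z ∧ ¬ Good W z0 N1 p0 BadT 0 z}

/-- noise of the part behind the first `p0` letters -/
noncomputable def dY (Y : List α) : Tok S :=
  act (nu (Y.take (tt W z0 p0 Y))) (ph (Y.drop (tt W z0 p0 Y)))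

/-- noise of a block -/
noncomputable def dA (z : List α) : Tok S := dY W z0 p0 ph nu (z.drop p0)

/-- token map of a block -/
noncomputable def psA (z : List α) (v : Tok S) : Tok S := aff ph (dA W z0 p0 ph nu) z v

/-- left parts -/
def LA (v : Tok S) : Language α :=
  {P | p0 ≤ P.length ∧ lam (P.drop p0) = some (act v (ph (P.take p0)))}

/-- right parts, semantic -/
def RA (τ : Tok S) : Language α :=
  {Q | (∃ v : Tok S, ∃ P, P ∈ LA p0 ph lam v ∧ IsZ W z0 0 (P ++ Q)) ∧
    ∀ v : Tok S, ∀ P, P ∈ LA p0 ph lam v → IsZ W z0 0 (P ++ Q) ∧ psA W z0 p0 ph nu (P ++ Q) v = τ}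

theorem code_ZZ (hz0 : 0 < z0) : Code (ZZ W z0) := by
  refine ⟨?_, fun z z' x x' hz hz' h => code hz hz' h⟩
  rintro ⟨t, ht, htl, -⟩
  simp at htl

theorem soundA (hp0 : 0 < p0) :
    Sound (ZZ W z0) (psA W z0 p0 ph nu) (LA p0 ph lam) (RA W z0 p0 ph lam nu) := by
  refine ⟨fun ω h => ?_, ?_⟩
  · have h1 : p0 ≤ ([] : List α).length := h.1
    simp at h1; omega
  · intro ω τ P Q z x y hP hQ hz h
    obtain ⟨h1, h2⟩ := hQ.2 ω P hP
    have e : P ++ Q = z := code h1 hz h
    exact ⟨e, by rw [← e]; exact h2.symm⟩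

variable {W z0 p0 N1 BadT ph lam nu}

theorem psA_split (hm : ∀ a b, ph (a ++ b) = ph a * ph b) {X Y1 Y2 : List α} (hX : X.length = p0)
    (ht : IsT W z0 p0 (Y1 ++ Y2) Y1.length) (v : Tok S) :
    psA W z0 p0 ph nu (X ++ (Y1 ++ Y2)) v =
      act (act (act v (ph X)) (ph Y1) + nu Y1) (ph Y2) := by
  have e1 : (X ++ (Y1 ++ Y2)).drop p0 = Y1 ++ Y2 := by
    rw [← hX, List.drop_left]
  unfold psA aff dA dY
  rw [e1, tt_eq ht, List.take_left, List.drop_left, act_add, hm, hm, act_mul, act_mul]

theorem completeA {n g : ℕ} (hW : Walls W n g) (hm : ∀ a b, ph (a ++ b) = ph a * ph b)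
    (hlam : ∀ P v, lam P = some v → P.length ≤ N1) (hz0 : p0 + N1 + n + N1 ≤ z0)
    (hC : ∀ Y : List α, z0 ≤ Y.length + p0 → ¬ BadT Y.length → ∀ v, ∃ P Q, Y = P ++ Q ∧
      lam P = some v ∧ ∀ P' v', lam P' = some v' →
        act v' (ph (P' ++ Q)) + nu (P' ++ Q) = act v (ph Y) + nu Y)
    {z : List α} (hz : IsZ W z0 0 z) (hg : Good W z0 N1 p0 BadT 0 z) (v : Tok S) :
    Cut (LA p0 ph lam) (RA W z0 p0 ph lam nu) v z := by
  obtain ⟨⟨t, ht, hb⟩, hE⟩ := hg
  have htz : z0 ≤ t := by have := ht.1; omega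
  have htl := ht.2.1
  have htN : z0 + N1 ≤ t := by
    by_contra hc
    exact hE ⟨t, htl, by omega, by omega, ht.2.2.1⟩
  set X := z.take p0 with hX
  have hXl : X.length = p0 := by rw [hX, List.length_take]; omega
  set Y := (z.take t).drop p0 with hY
  have hYl : Y.length = t - p0 := by rw [hY, List.length_drop, List.length_take]; omega
  set Y2 := z.drop t with hY2
  have hXY : X ++ Y = z.take t := by
    rw [hX, hY]
    have : z.take p0 = (z.take t).take p0 := by rw [List.take_take, min_eq_left (by omega)]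
    rw [this, List.take_append_drop]
  have hzz : X ++ (Y ++ Y2) = z := by
    rw [← List.append_assoc, hXY, hY2, List.take_append_drop]
  obtain ⟨P', Q1, hPQ, hl, hsem⟩ := hC Y (by omega) (by rw [hYl]; simpa using hb)
    (act v (ph X))
  have hP'l := hlam _ _ hl
  have hQ1l : Q1.length = t - p0 - P'.length := by
    have := congrArg List.length hPQ
    rw [List.length_append] at this
    omega
  have hzPQ : z = (X ++ P') ++ (Q1 ++ Y2) := by
    rw [← hzz, hPQ]; simp only [List.append_assoc]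
  refine ⟨X ++ P', Q1 ++ Y2, psA W z0 p0 ph nu z v, hzPQ, ?_, ?_, ?_⟩
  · refine ⟨by rw [List.length_append]; omega, ?_⟩
    rw [← hXl, List.drop_left, List.take_left]
    exact hl
  · refine ⟨v, X ++ P', ?_, ?_⟩
    · refine ⟨by rw [List.length_append]; omega, ?_⟩
      rw [← hXl, List.drop_left, List.take_left]
      exact hl
    · rw [← hzPQ]; exact hz
  · intro v'' P'' hP''
    obtain ⟨h1, h2⟩ := hP''
    set X'' := P''.take p0 with hX''
    set P3 := P''.drop p0 with hP3
    have hP'' : P'' = X'' ++ P3 := (List.take_append_drop p0 P'').symm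
    have hX''l : X''.length = p0 := by rw [hX'', List.length_take]; omega
    have hP3l := hlam _ _ h2
    have hPl : (X ++ P').length = p0 + P'.length := by rw [List.length_append, hXl]
    have hP''l : P''.length = p0 + P3.length := by rw [hP'', List.length_append, hX''l]
    -- transfer to the offset form
    have z1 : IsZ W z0 (X ++ P').length (Q1 ++ Y2) := by
      rw [← isZ_append hW (by omega), ← hzPQ]; exact hz
    have E1 : ¬ EB W z0 N1 (X ++ P').length (Q1 ++ Y2) := by
      rw [← EB_append hW (by omega), ← hzPQ]; exact hE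
    have t1 : IsT W z0 (X ++ P').length (Q1 ++ Y2) Q1.length := by
      have := (isT_append (z0 := z0) hW (P := X ++ P') (Q := Q1 ++ Y2) (t := t) (by omega) (by omega)).1
        (by rw [← hzPQ]; exact ht)
      rwa [show t - (X ++ P').length = Q1.length by omega] at this
    have z2 : IsZ W z0 P''.length (Q1 ++ Y2) := isZ_exch (by omega) (by omega) z1 E1
    have t2 : IsT W z0 P''.length (Q1 ++ Y2) Q1.length := isT_exch (by omega) (by omega) t1 E1
    refine ⟨(isZ_append hW (by omega)).2 z2, ?_⟩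
    -- values
    have t3 : ∀ (A B : List α), A.length = p0 → B.length ≤ N1 →
        IsT W z0 (A ++ B).length (Q1 ++ Y2) Q1.length →
        IsT W z0 p0 ((B ++ Q1) ++ Y2) (B ++ Q1).length := by
      intro A B hA hB hT
      have h3 : IsT W z0 0 (A ++ ((B ++ Q1) ++ Y2)) (p0 + (B ++ Q1).length) := by
        have e : A ++ ((B ++ Q1) ++ Y2) = (A ++ B) ++ (Q1 ++ Y2) := by
          simp only [List.append_assoc]
        rw [e, isT_append (z0 := z0) hW (by rw [List.length_append]; omega)
          (by simp only [List.length_append]; omega)]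
        rwa [show p0 + (B ++ Q1).length - (A ++ B).length = Q1.length by
          simp only [List.length_append]; omega]
      have h4 := (isT_append (z0 := z0) hW (P := A) (by omega) (by omega)).1 h3
      rw [hA, Nat.add_sub_cancel_left] at h4
      exact h4
    have e1 : P'' ++ (Q1 ++ Y2) = X'' ++ ((P3 ++ Q1) ++ Y2) := by
      rw [hP'']; simp only [List.append_assoc]
    have e2 : z = X ++ ((P' ++ Q1) ++ Y2) := by
      rw [hzPQ]; simp only [List.append_assoc]
    rw [e1, e2, psA_split hm hX''l (t3 X'' P3 hX''l hP3l (by rw [← hP'']; exact t2)),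
      psA_split hm hXl (t3 X P' hXl hP'l t1)]
    congr 1
    have := hsem P3 _ h2
    rw [hPQ] at this
    exact this

end Crest.Agent.R320.DataJ_179
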