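import Crest.Agent.R320.Main_621
import Crest.Agent.R320.FewVal_228

/-!
# Row 320: zones cut at the second wall, a prefix code (helper332)
-/

set_option autoImplicit false

namespace Crest.Agent.R320.Data_332

open Crest.Agent.R320.Hk_851 Crest.Agent.R320.Star_621 Crest.Agent.R320.FewWalls_228

variable {α : Type}

/-- left-looking walls on all words -/
structure Walls (n W : ℕ) (Wo : List α → Prop) : Prop where
  loc : ∀ P Q : List α, n ≤ Q.length → (Wo (P ++ Q) ↔ Wo Q)
  gap : ∀ (U : List α) (s t : ℕ), s < t → t ≤ U.length → Wo (U.take s) → Wo (U.take t) → s + W ≤ t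
  len : ∀ U, Wo U → n ≤ U.length
  fin : HL 0 ({w | Wo w} : Language α)
  few : ∀ (L G : Language α) (r : ℕ), L.IsRegular → HL 1 G →
    (∀ w ∈ G, ∀ t ≤ w.length, Wo (w.take t) → t < r ∨ t = w.length) →
    HL 1 ({w | w ∈ G ∧ w ∈ L} : Language α)

theorem exists_walls [Finite α] (W : ℕ) (hW : 1 ≤ W) :
    ∃ (n : ℕ) (Wo : List α → Prop), Walls n W Wo := by
  classical
  obtain ⟨n, c, P, S, hn, hP, hS, hsep, hper, hfew⟩ :=
    Crest.Agent.R320.FewVal_228.exists_walls α W hW
  have hkey : ∀ (w : List α) (t : ℕ), t ≤ w.length →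
      ((n ≤ (w.take t).length ∧ (w.take t).drop ((w.take t).length - n) ∈ S) ↔
        (n ≤ t ∧ Wl n S w (t - n))) := by
    intro w t ht
    unfold Wl
    rw [List.length_take, Nat.min_eq_left ht, List.drop_take]
    constructor
    · rintro ⟨h1, h2⟩
      refine ⟨h1, by omega, ?_⟩
      rwa [show t - (t - n) = n by omega] at h2
    · rintro ⟨h1, h2, h3⟩
      refine ⟨h1, ?_⟩
      rwa [show t - (t - n) = n by omega]
  refine ⟨n, fun U => n ≤ U.length ∧ U.drop (U.length - n) ∈ S, ?_, ?_, fun U h => h.1, ?_, ?_⟩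
  · intro P Q hQ
    have e : (P ++ Q).drop ((P ++ Q).length - n) = Q.drop (Q.length - n) := by
      rw [List.length_append, List.drop_append, List.drop_eq_nil_of_le (by omega),
        List.nil_append]
      congr 1
      omega
    rw [e, List.length_append]
    constructor
    · rintro ⟨_, h⟩; exact ⟨hQ, h⟩
    · rintro ⟨_, h⟩; exact ⟨by omega, h⟩
  · intro U s t hst ht hs ht'
    have h1 := (hkey U s (by omega)).1 hs
    have h2 := (hkey U t ht).1 ht'
    have := hsep U (s - n) (t - n) (by omega) h1.2 h2.2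
    omega
  · have hfin : S.Finite := (List.finite_length_eq α n).subset fun s hs => hS s hs
    refine (HL.suffix (HL.finite (k := 0) hfin)).congr fun w => ?_
    constructor
    · rintro ⟨h1, h2⟩
      exact ⟨_, h2, List.drop_suffix _ _⟩
    · rintro ⟨v, hv, u, rfl⟩
      have hl : v.length = n := hS v hv
      refine ⟨by rw [List.length_append]; omega, ?_⟩
      have : (u ++ v).drop ((u ++ v).length - n) = v := by
        rw [List.length_append, List.drop_append, List.drop_eq_nil_of_le (by omega),
          List.nil_append]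
        have : u.length + v.length - n - u.length = 0 := by omega
        rw [this, List.drop_zero]
      rw [this]; exact hv
  · intro L G r hL hG hr
    refine (hG.inf (hfew L hL (r + 1))).congr fun w => ?_
    symm
    constructor
    · rintro ⟨h1, h2, _⟩; exact ⟨h1, h2⟩
    · rintro ⟨h1, h2⟩
      refine ⟨h1, h2, ?_⟩
      unfold nw
      have hsub : ((Finset.range (w.length + 1)).filter (fun x => Wl n S w x)) ⊆
          insert (w.length - n) (Finset.range r) := by
        intro x hx
        rw [Finset.mem_filter] at hx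
        rw [Finset.mem_insert, Finset.mem_range]
        have hx1 := hx.2.1
        rcases hr w h1 (x + n) hx1 ((hkey w (x + n) hx1).2
          ⟨by omega, by rw [Nat.add_sub_cancel]; exact hx.2⟩) with h | h
        · right; omega
        · left; omega
      exact (Finset.card_le_card hsub).trans ((Finset.card_insert_le _ _).trans
        (by rw [Finset.card_range]))

section zones

variable {n W z0 : ℕ} {Wo : List α → Prop}

/-- first wall end at distance at least `z0` from the anchor `d` letters to the left -/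
def IsF (Wo : List α → Prop) (z0 d : ℕ) (Q : List α) (t : ℕ) : Prop :=
  t ≤ Q.length ∧ z0 ≤ d + t ∧ Wo (Q.take t) ∧ ∀ t' < t, z0 ≤ d + t' → ¬ Wo (Q.take t')

theorem IsF.uniq {d : ℕ} {Q : List α} {t t' : ℕ} (h : IsF Wo z0 d Q t) (h' : IsF Wo z0 d Q t') :
    t = t' := by
  rcases lt_trichotomy t t' with hl | he | hl
  · exact absurd h.2.2.1 (h'.2.2.2 t hl h.2.1)
  · exact he
  · exact absurd h'.2.2.1 (h.2.2.2 t' hl h'.2.1)

theorem IsF.ext {d : ℕ} {Q R : List α} {t : ℕ} (h : IsF Wo z0 d Q t) :
    IsF Wo z0 d (Q ++ R) t := by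
  obtain ⟨h1, h2, h3, h4⟩ := h
  refine ⟨by rw [List.length_append]; omega, h2, ?_, ?_⟩
  · rwa [List.take_append_of_le_length h1]
  · intro t' ht' hz
    rw [List.take_append_of_le_length (by omega)]
    exact h4 t' ht' hz

theorem IsF.res {d : ℕ} {Q R : List α} {t : ℕ} (h : IsF Wo z0 d (Q ++ R) t)
    (ht : t ≤ Q.length) : IsF Wo z0 d Q t := by
  obtain ⟨h1, h2, h3, h4⟩ := h
  refine ⟨ht, h2, ?_, ?_⟩
  · rwa [List.take_append_of_le_length ht] at h3
  · intro t' ht' hz
    have := h4 t' ht' hz
    rwa [List.take_append_of_le_length (by omega)] at this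

/-- walls behind a prefix -/
theorem Walls.tk (H : Walls n W Wo) {P Q : List α} {t : ℕ} (h1 : n ≤ t) (h2 : t ≤ Q.length) :
    Wo ((P ++ Q).take (P.length + t)) ↔ Wo (Q.take t) := by
  rw [List.take_length_add_append]
  exact H.loc P _ (by rw [List.length_take]; omega)

theorem IsF.app (H : Walls n W Wo) {d : ℕ} {P Q : List α} {t : ℕ} (hz : d + P.length + n ≤ z0) :
    IsF Wo z0 d (P ++ Q) (P.length + t) ↔ IsF Wo z0 (d + P.length) Q t := by
  unfold IsF
  rw [List.length_append]
  constructor
  · rintro ⟨h1, h2, h3, h4⟩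
    refine ⟨by omega, by omega, (H.tk (by omega) (by omega)).1 h3, ?_⟩
    intro t' ht' hz' hw
    exact h4 (P.length + t') (by omega) (by omega) ((H.tk (by omega) (by omega)).2 hw)
  · rintro ⟨h1, h2, h3, h4⟩
    refine ⟨by omega, by omega, (H.tk (by omega) (by omega)).2 h3, ?_⟩
    intro t' ht' hz' hw
    have e : t' = P.length + (t' - P.length) := by omega
    rw [e] at hw
    exact h4 (t' - P.length) (by omega) (by omega) ((H.tk (by omega) (by omega)).1 hw)

/-- `Q` is the rest of a zone whose anchor is `d` letters to the left -/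
def ZR (Wo : List α → Prop) (z0 d : ℕ) (Q : List α) : Prop :=
  ∃ t, IsF Wo z0 d Q t ∧ t < Q.length ∧ Wo Q ∧ ∀ t', t < t' → t' < Q.length → ¬ Wo (Q.take t')

theorem ZR.app (H : Walls n W Wo) {P Q : List α} (hz : P.length + n ≤ z0) :
    ZR Wo z0 0 (P ++ Q) ↔ ZR Wo z0 P.length Q := by
  constructor
  · rintro ⟨t, h1, h2, h3, h4⟩
    rw [List.length_append] at h2
    have ht : z0 ≤ t := by have := h1.2.1; omega
    have e : t = P.length + (t - P.length) := by omega
    rw [e] at h1
    have h1' := (IsF.app H (by omega)).1 h1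
    rw [Nat.zero_add] at h1'
    refine ⟨t - P.length, h1', by omega, (H.loc P Q (by omega)).1 h3, ?_⟩
    intro t' ht1 ht2 hw
    exact h4 (P.length + t') (by omega) (by rw [List.length_append]; omega)
      ((H.tk (by omega) (by omega)).2 hw)
  · rintro ⟨t, h1, h2, h3, h4⟩
    have hz2 := h1.2.1
    refine ⟨P.length + t, (IsF.app H (by omega)).2 (by rw [Nat.zero_add]; exact h1),
      by rw [List.length_append]; omega, (H.loc P Q (by omega)).2 h3, ?_⟩
    intro t' ht1 ht2 hw
    rw [List.length_append] at ht2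
    have e : t' = P.length + (t' - P.length) := by omega
    rw [e] at hw
    exact h4 (t' - P.length) (by omega) (by omega) ((H.tk (by omega) (by omega)).1 hw)

theorem ZR.code : Code ({z | ZR Wo z0 0 z} : Language α) := by
  have key : ∀ z r : List α, ZR Wo z0 0 z → ZR Wo z0 0 (z ++ r) → r = [] := by
    rintro z r ⟨t, h1, h2, h3, h4⟩ ⟨t', h1', h2', h3', h4'⟩
    have e := (h1.ext (R := r)).uniq h1'
    subst e
    by_contra hne
    have hl : 0 < r.length := List.length_pos_iff.2 hne
    refine h4' z.length h2 (by rw [List.length_append]; omega) ?_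
    rw [List.take_left]
    exact h3
  refine ⟨?_, ?_⟩
  · rintro ⟨t, _, h, _⟩
    simp at h
  · intro z z' x x' hz hz' he
    rcases List.append_eq_append_iff.1 he with ⟨a, h1, h2⟩ | ⟨a, h1, h2⟩
    · subst h1
      rw [key z a hz hz', List.append_nil]
    · subst h1
      rw [key z' a hz' hz, List.append_nil]

end zones

end Crest.Agent.R320.Data_332
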