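import Crest.Agent.R320.Asm2_505

/-!
# Row 320: affine decoding for `two_levels` / `two_levels2` (helper505)
-/

set_option autoImplicit false

namespace Crest.Agent.R320.Asm_505

universe u v

variable {α : Type u}

/-- affine threads: differences of runs are runs of the linear part -/
theorem Run_affine {V : Type*} [AddCommGroup V] (A : List α → V → V)
    (hA : ∀ z a b, A z (a + b) = A z a + A z b) (D : List α → V) (l : List (List α)) :
    ∀ v, Run (fun z x => A z x + D z) v l = Run A v l + Run (fun z x => A z x + D z) 0 l := by
  have add : ∀ (l : List (List α)) (a b : V), Run A (a + b) l = Run A a l + Run A b l := by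
    intro l
    induction l with
    | nil => intro a b; rfl
    | cons z l ih => intro a b; simp only [Run_cons, hA, ih]
  have zero : ∀ z, A z 0 = 0 := by
    intro z
    have := hA z 0 0
    simpa using this
  induction l with
  | nil => intro v; simp [Run]
  | cons z l ih =>
    intro v
    simp only [Run_cons]
    rw [ih (A z v + D z), ih (A z 0 + D z), add, zero, zero_add, add_assoc]

theorem dec_affine {V : Type*} [AddCommGroup V] (A : List α → V → V)
    (hA : ∀ z a b, A z (a + b) = A z a + A z b) (D : List α → V) (l l' : List (List α))
    (h : ∀ x, Run (fun z x => A z x + D z) x l = Run (fun z x => A z x + D z) x l') (x : V) :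
    Run A x l = Run A x l' := by
  have h0 := h 0
  have h1 := h x
  rw [Run_affine A hA D l, Run_affine A hA D l', h0] at h1
  exact add_right_cancel h1

/-- scheme 1: tokens in a faithful module of the monoid -/
theorem dec_one {V S : Type*} [AddCommGroup V] [Monoid S] (φ : α → S) (act : V → S → V)
    (hadd : ∀ s a b, act (a + b) s = act a s + act b s) (hone : ∀ v, act v 1 = v)
    (hmul : ∀ v s t, act v (s * t) = act (act v s) t)
    (hfaith : ∀ s t, (∀ v, act v s = act v t) → s = t) (D : List α → V) (l l' : List (List α))
    (h : ∀ x, Run (fun z x => act x (z.map φ).prod + D z) x l =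
      Run (fun z x => act x (z.map φ).prod + D z) x l') :
    (l.flatten.map φ).prod = (l'.flatten.map φ).prod := by
  have key : ∀ (l : List (List α)) (v : V),
      Run (fun z x => act x (z.map φ).prod) v l = act v (l.flatten.map φ).prod := by
    intro l
    induction l with
    | nil => intro v; simp [Run, hone]
    | cons z l ih =>
      intro v
      rw [Run_cons, ih]
      simp only [List.flatten_cons, List.map_append, List.prod_append, hmul]
  refine hfaith _ _ fun v => ?_
  rw [← key l v, ← key l' v]
  exact dec_affine (fun z x => act x (z.map φ).prod) (fun z a b => hadd _ a b) D l l' h v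

/-- scheme 2: tokens in the permutation-type module of arbitrary maps `τ z : Ω → Ω` -/
theorem dec_two {Ω : Type v} (τ : List α → Ω → Ω) (D : List α → (Ω →₀ ZMod 2))
    (l l' : List (List α))
    (h : ∀ x, Run (fun z x => Finsupp.mapDomain (τ z) x + D z) x l =
      Run (fun z x => Finsupp.mapDomain (τ z) x + D z) x l') (x : Ω) :
    Run τ x l = Run τ x l' := by
  have key : ∀ (l : List (List α)) (v : Ω →₀ ZMod 2),
      Run (fun z x => Finsupp.mapDomain (τ z) x) v l =
        Finsupp.mapDomain (fun x => Run τ x l) v := by
    intro l
    induction l with
    | nil =>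
      intro v
      change v = Finsupp.mapDomain (fun x => x) v
      exact Finsupp.mapDomain_id.symm
    | cons z l ih =>
      intro v
      rw [Run_cons, ih]
      rw [← Finsupp.mapDomain_comp]
      rfl
  have h1 := dec_affine (fun z x => Finsupp.mapDomain (τ z) x)
    (fun z a b => Finsupp.mapDomain_add) D l l' h (Finsupp.single x 1)
  rw [key, key, Finsupp.mapDomain_single, Finsupp.mapDomain_single] at h1
  exact Finsupp.single_left_injective (one_ne_zero) h1

/-- the module of `dec_two` is finite -/
instance finite_tokens {Ω : Type v} [Finite Ω] : Finite (Ω →₀ ZMod 2) := by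
  exact Finite.of_equiv _ Finsupp.equivFunOnFinite.symm

/-- the regular module of a finite monoid: faithful, right action -/
theorem exists_faithful (S : Type u) [Monoid S] [Finite S] :
    ∃ act : (S →₀ ZMod 2) → S → (S →₀ ZMod 2),
      (∀ s a b, act (a + b) s = act a s + act b s) ∧ (∀ v, act v 1 = v) ∧
      (∀ v s t, act v (s * t) = act (act v s) t) ∧
      (∀ s t, (∀ v, act v s = act v t) → s = t) := by
  refine ⟨fun v s => Finsupp.mapDomain (fun x => x * s) v, ?_, ?_, ?_, ?_⟩
  · intro s a b; exact Finsupp.mapDomain_add
  · intro v
    simp only [mul_one]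
    exact Finsupp.mapDomain_id
  · intro v s t
    have e : (fun x : S => x * (s * t)) = (fun x => x * t) ∘ (fun x => x * s) := by
      funext x
      simp [mul_assoc]
    change Finsupp.mapDomain (fun x => x * (s * t)) v =
      Finsupp.mapDomain (fun x => x * t) (Finsupp.mapDomain (fun x => x * s) v)
    rw [e, Finsupp.mapDomain_comp]
  · intro s t h
    have := h (Finsupp.single 1 1)
    simp only [Finsupp.mapDomain_single, one_mul] at this
    exact Finsupp.single_left_injective (one_ne_zero) this

end Crest.Agent.R320.Asm_505
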