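import Crest.Agent.R320.Main_621
import Crest.Agent.R320.ExactR_237

/-!
# Row 320: concrete instance of `Main_621.Data` (helper20): definitions

Chain rule: `N(a)` = first (left-looking) wall at distance `≥ zz` of the anchor, the zone ends at the
NEXT wall.  Scheme A = gadget 1 (helper693 / 638, no small walls) on `Y = [a + p0, N(a))`,
scheme B = exact gadget (ExactR_237) on `X = [a, a + p0)` with the promise ruler `c`.
-/

set_option autoImplicit false

namespace Crest.Agent.R320.Inst20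

open Crest.Agent.R320.Hk_851 Crest.Agent.R320.Star_621 Crest.Agent.R320.Two_621

/-- left-looking wall rule: a wall at the end of a word is decided by its last `n` letters. -/
structure Walls (α : Type) where
  Wo : List α → Prop
  n : ℕ
  W : ℕ
  n0 : 0 < n
  loc : ∀ P Q : List α, n ≤ Q.length → (Wo (P ++ Q) ↔ Wo Q)
  len : ∀ Q : List α, Wo Q → n ≤ Q.length
  gap : ∀ (Q : List α) (d : ℕ), Wo Q → 0 < d → d ≤ W → ¬ Wo (Q.take (Q.length - d))

/-- gadget 1 on words, unknown total length; complete off `Bad` lengths. -/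
structure Gad1 {α S V : Type} [AddCommGroup V] (phi : List α → S) (act : V → S → V)
    (N1 : ℕ) (Bad : ℤ → Prop) where
  lam : List α → Option V
  rho : List α → Option V
  nu : List α → V
  lamlen : ∀ p v, lam p = some v → p.length < N1
  sound : ∀ p q v r, lam p = some v → rho q = some r → r = act v (phi (p ++ q)) + nu (p ++ q)
  compl : ∀ u : List α, N1 ≤ u.length → ¬ Bad (u.length : ℤ) →
    ∀ v, ∃ p q, u = p ++ q ∧ lam p = some v ∧ ∃ r, rho q = some r
  reg : ∀ r, Language.IsRegular ({q | rho q = some r} : Language α)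

section Defs

variable {α S : Type} [Monoid S] (w : Walls α) (f : α → S) (zz p0 N1 : ℕ) (Bad : ℤ → Prop)

/-- words of length `≥ c` whose end is the first wall at a position `≥ c`. -/
def FZ (c : ℕ) : Language α :=
  {z | c ≤ z.length ∧ w.Wo z ∧ ∀ t, c ≤ t → t < z.length → ¬ w.Wo (z.take t)}

/-- zones -/
def Z : Language α := {z | ∃ z1 z2, z = z1 ++ z2 ∧ z1 ∈ FZ w zz ∧ z2 ∈ FZ w w.n}

def BadZ (z1 : List α) : Prop :=
  (∃ t, zz - N1 ≤ t ∧ t < zz + N1 ∧ t ≤ z1.length ∧ w.Wo (z1.take t)) ∨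
    Bad ((z1.length : ℤ) - p0)

/-- critical zones -/
def Zc : Language α :=
  {z | ∃ z1 z2, z = z1 ++ z2 ∧ z1 ∈ FZ w zz ∧ z2 ∈ FZ w w.n ∧ BadZ w zz p0 N1 Bad z1}

def ph (u : List α) : S := (u.map f).prod

variable {Bad}
variable (G : Gad1 (V := Tok S) (ph f) act N1 Bad)

def Q1leg (Q1 : List α) : Prop :=
  zz - p0 ≤ Q1.length ∧ w.Wo Q1 ∧ ∀ t, zz - p0 - N1 ≤ t → t < Q1.length → ¬ w.Wo (Q1.take t)

def LA (v : Tok S) : Language α :=
  {P | p0 ≤ P.length ∧ G.lam (P.drop p0) = some (act v (ph f (P.take p0)))}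

def RA (τ : Tok S) : Language α :=
  {Q | ∃ Q1 Q2 b, Q = Q1 ++ Q2 ∧ Q1leg w zz p0 N1 Q1 ∧ Q2 ∈ FZ w w.n ∧ G.rho Q1 = some b ∧
    τ = act b (ph f Q2)}

open Classical in
/-- noise of the part behind `a + p0` -/
noncomputable def dY (Y : List α) : Tok S :=
  if h : ∃ Y1 Y2, Y = Y1 ++ Y2 ∧ Y1 ∈ FZ w (zz - p0) ∧ Y2 ∈ FZ w w.n then
    act (G.nu h.choose) (ph f h.choose_spec.choose) else 0

noncomputable def dA (z : List α) : Tok S := dY w f zz p0 N1 G (z.drop p0)

def CutY (v : Tok S) (Y : List α) : Prop :=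
  ∃ p Q τ, Y = p ++ Q ∧ G.lam p = some v ∧ Q ∈ RA w f zz p0 N1 G τ

abbrev TT (S : Type) : Type := (Function.End (Option (Tok S)))ᵐᵒᵖ

open Classical in
noncomputable def stepY (Y : List α) : TT S :=
  MulOpposite.op fun o => o.bind fun v =>
    if CutY w f zz p0 N1 G v Y then none
    else some (act v (ph f Y) + dY w f zz p0 N1 G Y)

def theta (s : S) : TT S := MulOpposite.op fun o => o.bind fun v => some (act v s)

/-- candidate `k` (anchor `c k` letters before `Q`) is bad, seen from `Q` -/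
def badK (Bad : ℤ → Prop) (c : ℕ → ℕ) (k : ℕ) (Q : List α) : Prop :=
  ∃ t, t ≤ Q.length ∧ zz ≤ t + c k ∧ w.Wo (Q.take t) ∧
    (∀ t' < t, zz ≤ t' + c k → ¬ w.Wo (Q.take t')) ∧
    ((∃ t' ≤ t, zz - N1 ≤ t' + c k ∧ t' + c k < zz + N1 ∧ w.Wo (Q.take t')) ∨
      Bad (((t + c k : ℕ) : ℤ) - p0))

variable (K : ℕ) (c : ℕ → ℕ) (lam2 : ℕ → List α → Option (Tok (TT S)))
  (rho2 : ℕ → List α → TT S → Option (Tok (TT S))) (nu2 : List α → TT S → Tok (TT S))

def LB (v : Tok (TT S)) : Language α := {P | ∃ k < K, P.length = c k ∧ lam2 k P = some v}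

def RB (τ : Tok (TT S)) : Language α :=
  {Q | ∃ k < K, badK w zz p0 N1 Bad c k Q ∧ (∀ k' < K, badK w zz p0 N1 Bad c k' Q → k' = k) ∧
    (∃ Q1 Q2, Q = Q1 ++ Q2 ∧ Q1 ∈ FZ w (zz - c k) ∧ Q2 ∈ FZ w w.n) ∧
    rho2 k (Q.take (p0 - c k)) (stepY w f zz p0 N1 G (Q.drop (p0 - c k))) = some τ}

noncomputable def dB (z : List α) : Tok (TT S) :=
  nu2 (z.take p0) (stepY w f zz p0 N1 G (z.drop p0))

end Defs

end Crest.Agent.R320.Inst20
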