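import Mathlib
import Crest.Agent.R320.Zone132_898

/-!
Row 320, HALF 1: concrete chain rule and bad zones of the two-scheme chain (132 #12664),
read on a text `t` that starts at an anchor.
-/

set_option autoImplicit false

namespace Crest.Agent.R320.Def_237

open Crest.Agent.R320.Zone132_898 (Rule)

/-- parameters of the chain -/
structure Par (α : Type*) where
  /-- outer walls -/
  Ro : Rule α
  /-- small walls -/
  Rs : Rule α
  /-- comb modulus -/
  q : ℕ
  /-- start of the comb -/
  p0 : ℕ
  /-- length of the window of scheme 1 -/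
  N1 : ℕ
  /-- thresholds, measured from the anchor -/
  th : ℕ → ℕ
  /-- number of the last level -/
  m : ℕ
  /-- levels, measured from `p0` -/
  A : ℕ → ℕ
  /-- moduli of the names -/
  Ms : Finset ℕ
  /-- product of the moduli -/
  PM : ℕ

namespace Par
variable {α : Type*} (D : Par α)

/-- the outer wall at `w` qualifies -/
def Qual (t : List α) (w : ℕ) : Prop := D.Ro.R (t.drop w) ∧ D.th (w % D.q) ≤ w

open Classical in
/-- the distance of the next anchor (0 if not visible) -/
noncomputable def N (t : List α) : ℕ := if h : ∃ w, D.Qual t w then Nat.find h else 0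

/-- (E): an outer wall near its threshold -/
def E (t : List α) : Prop :=
  ∃ w, D.Ro.R (t.drop w) ∧ D.th (w % D.q) ≤ w + D.N1 ∧ w ≤ D.th (w % D.q) + D.N1

/-- (B): a modulus divides the clock value -/
def Bb (t : List α) : Prop := ∃ p ∈ D.Ms, p ∣ (D.N t - D.p0) / D.q

/-- (D): a small wall near a level -/
def Dd (t : List α) : Prop :=
  ∃ k ≤ D.m, ∃ w, D.Rs.R (t.drop w) ∧ D.p0 + D.A k ≤ w + D.q * D.PM ∧
    w < D.p0 + D.A k + D.q * D.PM

/-- the zone is bad -/
def Bad (t : List α) : Prop := D.E t ∨ D.Bb t ∨ D.Dd t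

theorem N_eq {t : List α} {w : ℕ} (h : D.Qual t w) (hmin : ∀ w' < w, ¬ D.Qual t w') :
    D.N t = w := by
  classical
  have hex : ∃ w, D.Qual t w := ⟨w, h⟩
  unfold N
  rw [dif_pos hex, Nat.find_eq_iff]
  exact ⟨h, fun n hn => hmin n hn⟩

theorem N_spec {t : List α} (h : ∃ w, D.Qual t w) :
    D.Qual t (D.N t) ∧ ∀ w' < D.N t, ¬ D.Qual t w' := by
  classical
  have : D.N t = Nat.find h := by unfold N; rw [dif_pos h]
  rw [this]
  exact ⟨Nat.find_spec h, fun w' hw => Nat.find_min h hw⟩

end Par

end Crest.Agent.R320.Def_237
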