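import Crest.Agent.R320.Main_621
import Crest.Agent.R320.ExactR_237
import Crest.Agent.R320.FewVal_228

/-!
# Row 320: the data of `Main_621` from a wall-free gadget (helper240)
-/

set_option autoImplicit false

namespace Crest.Agent.R320.Def_240

open Crest.Agent.R320.Hk_851 Crest.Agent.R320.Star_621 Crest.Agent.R320.Two_621

/-- monoid of the inner scheme -/
abbrev TT (S : Type) : Type := (Function.End (Option (Tok S)))ᵐᵒᵖ

/-- wall END at position `t` -/
def EW {α : Type} (n : ℕ) (Sw : Set (List α)) (w : List α) (t : ℕ) : Prop :=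
  n ≤ t ∧ t ≤ w.length ∧ (w.drop (t - n)).take n ∈ Sw

/-- all parameters -/
structure Par (α S : Type) [Monoid S] where
  f : α → S
  n : ℕ
  W : ℕ
  Sw : Set (List α)
  zu : ℕ
  p0 : ℕ
  N1 : ℕ
  K : ℕ
  R : ℕ
  c : ℕ → ℕ
  BadT : ℕ → Prop
  lam : List α → Option (Tok S)
  rho : List α → Option (Tok S)
  nu : List α → Tok S
  lamB : ℕ → List α → Option (Tok (TT S))
  rhoB : ℕ → List α → TT S → Option (Tok (TT S))
  nuB : List α → TT S → Tok (TT S)

variable {α S : Type} [Monoid S] (p : Par α S)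

namespace Par

def ph (w : List α) : S := (w.map p.f).prod

theorem ph_append (u v : List α) : p.ph (u ++ v) = p.ph u * p.ph v := by
  simp [ph]

/-- wall end -/
def E (w : List α) (t : ℕ) : Prop := EW p.n p.Sw w t

/-- the first wall end at or behind `zu` -/
def IsT (U : List α) (t : ℕ) : Prop := p.E U t ∧ p.zu ≤ t ∧ ∀ s, p.E U s → p.zu ≤ s → t ≤ s

noncomputable def tt (U : List α) : ℕ := sInf {t | p.E U t ∧ p.zu ≤ t}

/-- text from `a + p0` which ends at the second wall behind `zu` -/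
def UU (U : List α) : Prop :=
  ∃ t, p.IsT U t ∧ t < U.length ∧ p.E U U.length ∧ ∀ s, p.E U s → t < s → s = U.length

def BD (U : List α) : Prop :=
  (∃ s, p.E U s ∧ p.zu ≤ s + p.N1 ∧ s ≤ p.zu + p.N1) ∨ (∃ t, p.IsT U t ∧ p.BadT t)

def Z : Language α := {X | p.UU (X.drop p.p0)}

def Zc : Language α := {X | p.UU (X.drop p.p0) ∧ p.BD (X.drop p.p0)}

noncomputable def dU (U : List α) : Tok S :=
  act (p.nu (U.take (p.tt U))) (p.ph (U.drop (p.tt U)))

noncomputable def dA (X : List α) : Tok S := p.dU (X.drop p.p0)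

def LA (v : Tok S) : Language α :=
  {P | p.p0 ≤ P.length ∧ p.lam (P.drop p.p0) = some (act v (p.ph (P.take p.p0)))}

def RA (b : Tok S) : Language α :=
  {Q | p.UU Q ∧ (∀ s, p.E Q s → s + p.N1 < p.zu ∨ p.zu ≤ s) ∧
    ∃ r, p.rho (Q.take (p.tt Q)) = some r ∧ b = act r (p.ph (Q.drop (p.tt Q)))}

def fB (a : α) : TT S := MulOpposite.op fun o => o.bind fun v => some (act v (p.f a))

def cutU (v : Tok S) (U : List α) : Prop :=
  ∃ P Q b, U = P ++ Q ∧ p.lam P = some v ∧ Q ∈ p.RA b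

open Classical in
noncomputable def yy (U : List α) : TT S :=
  MulOpposite.op fun o => o.bind fun v =>
    if p.cutU v U then none else some (act v (p.ph U) + p.dU U)

/-- place number `k` -/
def e (k : ℕ) : ℕ := 1 + p.c k

def LB (v : Tok (TT S)) : Language α :=
  {P | ∃ k < p.K, P.length = p.e k ∧ p.lamB k P = some v}

def RB (b : Tok (TT S)) : Language α :=
  {Q | ∃ k < p.K, p.UU (Q.drop (p.p0 - p.e k)) ∧
    (∀ k' < p.K, p.BD (Q.drop (p.p0 - p.e k')) → k' = k) ∧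
    p.rhoB k (Q.take (p.p0 - p.e k)) (p.yy (Q.drop (p.p0 - p.e k))) = some b}

noncomputable def dB (X : List α) : Tok (TT S) := p.nuB (X.take p.p0) (p.yy (X.drop p.p0))

/-- what has to be known about the parameters -/
structure Ok : Prop where
  npos : 0 < p.n
  sep : ∀ (w : List α) (x y : ℕ), x < y → p.E w x → p.E w y → x + p.W ≤ y
  few : ∀ (L : Language α), L.IsRegular → ∀ r,
    HL 1 ({w | w ∈ L ∧ FewWalls_228.nw p.n p.Sw w ≤ r} : Language α)
  hz : p.n + p.N1 + p.p0 < p.zu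
  hW : 2 * (p.N1 + p.p0) < p.W
  hc : ∀ k < p.K, p.e k ≤ p.p0
  -- gadget
  gS : ∀ P Q v r, p.lam P = some v → p.rho Q = some r →
    r = act v (p.ph (P ++ Q)) + p.nu (P ++ Q)
  gL : ∀ P v, p.lam P = some v → P.length ≤ p.N1
  gC : ∀ Y : List α, p.zu ≤ Y.length → ¬ p.BadT Y.length → ∀ v, ∃ P Q, Y = P ++ Q ∧
    p.lam P = some v ∧ (p.rho Q).isSome
  gD : ∀ k k' l l', k < p.K → k' < p.K → l < p.K → l' < p.K → k ≠ k' → l ≠ l' →
    (p.c k : ℤ) - p.c k' - (p.c l - p.c l') ≤ 2 * p.N1 →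
    (p.c l : ℤ) - p.c l' - (p.c k - p.c k') ≤ 2 * p.N1 → k = l ∧ k' = l'
  gT : ∃ R0, 1 + 3 * R0 < p.R ∧ ∀ T : ℕ, p.p0 ≤ T → ∀ J : Finset ℕ,
    (∀ k ∈ J, k < p.K ∧ ∃ k' < p.K, k' ≠ k ∧ p.BadT (T + p.c k' - p.c k)) → J.card ≤ R0
  rR : ∀ b, Language.IsRegular ({Q | p.rho Q = some b} : Language α)
  rN : ∀ x, Language.IsRegular ({Y | p.nu Y = x} : Language α)
  rT : Language.IsRegular ({Y | p.BadT Y.length} : Language α)
  -- inner gadget
  bS : ∀ k < p.K, ∀ (P Q : List α) (y : TT S) (v b : Tok (TT S)), P.length = p.e k →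
    p.lamB k P = some v → p.rhoB k Q y = some b →
    b = act v ((( P ++ Q).map p.fB).prod * y) + p.nuB (P ++ Q) y
  bC : ∀ (u : List α) (y : TT S) (v : Tok (TT S)), (∀ k < p.K, p.e k ≤ u.length) →
    ∃ I : Finset ℕ, p.R ≤ I.card ∧ ∀ k ∈ I, k < p.K ∧ p.lamB k (u.take (p.e k)) = some v ∧
      (p.rhoB k (u.drop (p.e k)) y).isSome

end Par

end Crest.Agent.R320.Def_240
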