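import Crest.Agent.R320.Asm_505
import Crest.Agent.R320.FewVal_228
import Crest.Agent.R320.ExactR_237

/-!
# Row 320, all words: zone code with natural chain rule, two schemes, shared tokens (helper30)

Walls = wall ends (left-looking): `E u` = the word `u` ends with a marker. Zone: `t` = first wall end
`>= z`, the zone ends at the next wall end after `t`. Scheme 1 = any gadget without small walls
(`lam rho nu`, modes (E) and (B)), scheme 2 = exact gadget on the first `p0` letters with a ruler.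
-/

set_option autoImplicit false

namespace Crest.Agent.R320.Def_30

open Crest.RegLang Crest.Agent.R320.Hk_851 Crest.Agent.R320.Asm_505

structure Dt (α S V : Type) [Monoid S] [AddCommGroup V] where
  n : ℕ
  S0 : Set (List α)
  f : α → S
  act : V → S → V
  z : ℕ
  p0 : ℕ
  N1 : ℕ
  K : ℕ
  c : ℕ → ℕ
  Bad : ℕ → Prop
  lam : List α → Option V
  rho : List α → Option V
  nu : List α → V
  lam2 : ℕ → List α → Option V
  rho2 : ℕ → List α → Option V
  nu2 : List α → V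

variable {α S V : Type} [Monoid S] [AddCommGroup V] (D : Dt α S V)

namespace Dt

/-- product -/
def pr (w : List α) : S := (w.map D.f).prod

theorem pr_append (u v : List α) : D.pr (u ++ v) = D.pr u * D.pr v := by
  simp [pr]

/-- the word ends with a marker -/
def E (u : List α) : Prop := D.n ≤ u.length ∧ u.drop (u.length - D.n) ∈ D.S0

/-- `t` is the first wall end `>= h` of `w` -/
def Fst (h : ℕ) (w : List α) (t : ℕ) : Prop :=
  h ≤ t ∧ t ≤ w.length ∧ D.E (w.take t) ∧ ∀ y, h ≤ y → y < t → ¬ D.E (w.take y)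

/-- zones with threshold `h` -/
def U (h : ℕ) : Language α := {w | ∃ t, D.Fst h w t ∧ D.Fst (t + 1) w w.length}

/-- the accepted wall end -/
noncomputable def tt (w : List α) : ℕ := sInf {t | D.z ≤ t ∧ t ≤ w.length ∧ D.E (w.take t)}

/-- zone map -/
noncomputable def eps (w : List α) (v : V) : V :=
  D.act (D.act (D.act v (D.pr (w.take D.p0)) + D.nu2 (w.take D.p0))
      (D.pr ((w.take (D.tt w)).drop D.p0)) + D.nu ((w.take (D.tt w)).drop D.p0))
    (D.pr (w.drop (D.tt w)))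

/-- bad zones -/
def B : Language α := {w | w ∈ D.U D.z ∧
  ((∃ y, D.z ≤ y + D.N1 ∧ y < D.z + D.N1 ∧ y ≤ w.length ∧ D.E (w.take y)) ∨
    D.Bad (D.tt w - D.p0))}

def P1 (v : V) : Language α := {P | D.p0 ≤ P.length ∧
  D.lam (P.drop D.p0) = some (D.act v (D.pr (P.take D.p0)) + D.nu2 (P.take D.p0))}

def R1 (b : V) : Language α := {Q | ∃ t r, D.Fst (D.z - D.p0 - D.N1) Q t ∧ D.z ≤ D.p0 + t ∧
  D.Fst (t + 1) Q Q.length ∧ D.rho (Q.take t) = some r ∧ D.act r (D.pr (Q.drop t)) = b}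

/-- candidate `j` of a cut place (text `Q` on the right) is bad, its accepted wall end is `t` -/
def cb (j : ℕ) (Q : List α) (t : ℕ) : Prop := D.Fst (D.z - D.c j) Q t ∧
  (t + D.c j < D.z + D.N1 ∨
    (∃ y, D.z ≤ y + D.c j + D.N1 ∧ y + D.c j < D.z ∧ D.E (Q.take y)) ∨
    D.Bad (t + D.c j - D.p0))

def P2 (v : V) : Language α := {P | ∃ j, j < D.K ∧ P.length = D.c j ∧ D.lam2 j P = some v}

def R2 (b : V) : Language α := {Q | ∃ j t r, j < D.K ∧ D.cb j Q t ∧
  (∀ i t', i < D.K → i ≠ j → ¬ D.cb i Q t') ∧ D.Fst (t + 1) Q Q.length ∧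
  D.rho2 j (Q.take (D.p0 - D.c j)) = some r ∧
  D.act (D.act r (D.pr ((Q.take t).drop (D.p0 - D.c j))) +
    D.nu ((Q.take t).drop (D.p0 - D.c j))) (D.pr (Q.drop t)) = b}

/-- hypotheses of soundness and completeness -/
structure Ok (W L La C0 : ℕ) : Prop where
  hn : 0 < D.n
  sep : ∀ (w : List α) (y y' : ℕ), y < y' → y' ≤ w.length → D.E (w.take y) → D.E (w.take y') →
    y + W ≤ y'
  hW : 2 * L + 2 * D.N1 + 2 ≤ W
  cpos : ∀ j, j < D.K → 0 < D.c j
  cL : ∀ j, j < D.K → D.c j ≤ L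
  Lp : L ≤ D.p0
  ppos : 0 < D.p0
  hz : D.p0 + D.N1 + D.n + La + L + 1 ≤ D.z
  act_mul : ∀ v s t, D.act (D.act v s) t = D.act v (s * t)
  lam_len : ∀ p v, D.lam p = some v → p.length ≤ D.N1
  snd1 : ∀ p q v r, D.lam p = some v → D.rho q = some r → La ≤ q.length →
    r = D.act v (D.pr (p ++ q)) + D.nu (p ++ q)
  cmp1 : ∀ u, La ≤ u.length → ¬ D.Bad u.length → ∀ v, ∃ p q, p ++ q = u ∧ D.lam p = some v ∧
    ∃ r, D.rho q = some r
  snd2 : ∀ j, j < D.K → ∀ P Q v b, P.length = D.c j → D.lam2 j P = some v →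
    D.rho2 j Q = some b → b = D.act v (D.pr (P ++ Q)) + D.nu2 (P ++ Q)
  cmp2 : ∀ (u : List α) (v : V), (∀ k, k < D.K → D.c k ≤ u.length) → ∃ I : Finset ℕ,
    2 + 2 * C0 ≤ I.card ∧ ∀ k ∈ I, k < D.K ∧ D.lam2 k (u.take (D.c k)) = some v ∧
      ∃ r, D.rho2 k (u.drop (D.c k)) = some r
  spaced : ∀ i j k l, i < D.K → j < D.K → k < D.K → l < D.K → i ≠ j → k ≠ l → (i, j) ≠ (k, l) →
    D.c i + D.c l + 2 * D.N1 < D.c k + D.c j ∨ D.c k + D.c j + 2 * D.N1 < D.c i + D.c l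
  count : ∀ T, La ≤ T → ∀ s : Finset (ℕ × ℕ), (∀ p ∈ s, p.1 < D.K ∧ p.2 < D.K ∧ p.1 ≠ p.2 ∧
    D.Bad (T + D.c p.2 - D.c p.1)) → s.card ≤ C0

end Dt

end Crest.Agent.R320.Def_30
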