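import Crest.Agent.R320.One_423

/-!
# Row 320: concrete two-wall block tails (helper423)
-/

set_option autoImplicit false

namespace Crest.Agent.R320.Def_423

open Crest.Agent.R320.Hk_851 Crest.Agent.R320.Asm_505 Crest.Agent.R320.Sch2_423
  Crest.Agent.R320.One_423

universe u v w

variable {α : Type u}

/-- `t` is the first wall of `Y` at a place `≥ c` -/
def FW (Wl : List α → Prop) (c : ℕ) (Y : List α) (t : ℕ) : Prop :=
  c ≤ t ∧ t ≤ Y.length ∧ Wl (Y.take t) ∧ ∀ s, c ≤ s → s < t → ¬ Wl (Y.take s)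

/-- block tails: first wall at a place `≥ Zt`, then the next wall -/
def UT (Wl : List α → Prop) (Zt : ℕ) : Set (List α) :=
  {Y | ∃ t, FW Wl Zt Y t ∧ FW Wl (t + 1) Y Y.length}

/-- bad block tails -/
def BT (Wl : List α → Prop) (Zt N1 : ℕ) (BadN : ℕ → Prop) : Set (List α) :=
  {Y | ∃ t, FW Wl Zt Y t ∧ FW Wl (t + 1) Y Y.length ∧
    ((∃ s, Zt < s + N1 ∧ s < Zt + N1 ∧ s ≤ Y.length ∧ Wl (Y.take s)) ∨ BadN t)}

/-- right words of scheme 1 -/
def RR {S : Type v} {V : Type w} (Wl : List α → Prop) (Zt N1 : ℕ) (φ : List α → S)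
    (act : V → S → V) (rho : List α → Option V) (b : V) : Language α :=
  {Q | ∃ t, Zt ≤ t ∧ FW Wl (Zt + 1 - N1) Q t ∧ FW Wl (t + 1) Q Q.length ∧
    ∃ r, rho (Q.take t) = some r ∧ act r (φ (Q.drop t)) = b}

/-- candidate clocks of scheme 2 -/
def Cnd (Wl : List α → Prop) (Zt N1 : ℕ) (BadN : ℕ → Prop) (p0 : ℕ) (x : ℕ) (q : List α) : Prop :=
  (¬ ∃ t, FW Wl (p0 - x + Zt) q t) ∨
  (∃ s, p0 - x + Zt < s + N1 ∧ s < p0 - x + Zt + N1 ∧ s ≤ q.length ∧ Wl (q.take s)) ∨
  (∃ t, FW Wl (p0 - x + Zt) q t ∧ BadN (t - (p0 - x)))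

/-- left-looking wall rule -/
structure Wall (Wl : List α → Prop) (n gap : ℕ) : Prop where
  n_pos : 0 < n
  loc : ∀ U W : List α, n ≤ W.length → (Wl (U ++ W) ↔ Wl W)
  gap : ∀ (Y : List α) (s t : ℕ), s ≤ Y.length → t ≤ Y.length → n ≤ s → s < t →
    Wl (Y.take s) → Wl (Y.take t) → s + gap < t

theorem FW.uniq {Wl : List α → Prop} {c : ℕ} {Y : List α} {t t' : ℕ} (h : FW Wl c Y t)
    (h' : FW Wl c Y t') : t = t' := by
  rcases lt_trichotomy t t' with hl | hl | hl
  · exact absurd h.2.2.1 (h'.2.2.2 t h.1 hl)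
  · exact hl
  · exact absurd h'.2.2.1 (h.2.2.2 t' h'.1 hl)

/-- first walls are stable under extension -/
theorem FW.ext {Wl : List α → Prop} {c : ℕ} {Y Y' : List α} {t : ℕ} (h : FW Wl c Y t)
    (hp : Y <+: Y') : FW Wl c Y' t := by
  obtain ⟨r, rfl⟩ := hp
  have h2 := h.2.1
  refine ⟨h.1, by rw [List.length_append]; omega, ?_, ?_⟩
  · rw [List.take_append_of_le_length h2]; exact h.2.2.1
  · intro s hs1 hs2
    rw [List.take_append_of_le_length (by omega)]
    exact h.2.2.2 s hs1 hs2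

/-- restriction to a prefix which still contains the wall -/
theorem FW.restr {Wl : List α → Prop} {c : ℕ} {Y Y' : List α} {t : ℕ} (h : FW Wl c Y' t)
    (hp : Y <+: Y') (ht : t ≤ Y.length) : FW Wl c Y t := by
  obtain ⟨r, rfl⟩ := hp
  refine ⟨h.1, ht, ?_, ?_⟩
  · have := h.2.2.1
    rwa [List.take_append_of_le_length ht] at this
  · intro s hs1 hs2
    have := h.2.2.2 s hs1 hs2
    rwa [List.take_append_of_le_length (by omega)] at this

theorem FW.exists_of_wall {Wl : List α → Prop} {c : ℕ} {Y : List α} {s : ℕ} (h1 : c ≤ s)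
    (h2 : s ≤ Y.length) (h3 : Wl (Y.take s)) : ∃ t, FW Wl c Y t ∧ t ≤ s := by
  classical
  have hex : ∃ t, c ≤ t ∧ t ≤ Y.length ∧ Wl (Y.take t) := ⟨s, h1, h2, h3⟩
  refine ⟨Nat.find hex, ⟨(Nat.find_spec hex).1, (Nat.find_spec hex).2.1,
    (Nat.find_spec hex).2.2, ?_⟩, Nat.find_min' hex ⟨h1, h2, h3⟩⟩
  intro s' hs1 hs2 hw
  exact Nat.find_min hex hs2 ⟨hs1, by have := (Nat.find_spec hex).2.1; omega, hw⟩

/-- shift by a left word: walls of `P ++ Q` at places `|P| + s`, `s ≥ n`, are walls of `Q` -/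
theorem Wall.shift {Wl : List α → Prop} {n gap : ℕ} (hW : Wall Wl n gap) (P Q : List α) {s : ℕ}
    (hs : n ≤ s) (hq : s ≤ Q.length) : Wl ((P ++ Q).take (P.length + s)) ↔ Wl (Q.take s) := by
  rw [List.take_append]
  rw [List.take_of_length_le (l := P) (by omega)]
  have : P.length + s - P.length = s := by omega
  rw [this]
  exact hW.loc _ _ (by rw [List.length_take]; omega)

theorem Wall.FW_shift {Wl : List α → Prop} {n gap : ℕ} (hW : Wall Wl n gap) (P Q : List α)
    {c t : ℕ} (hc : n ≤ c) : FW Wl (P.length + c) (P ++ Q) (P.length + t) ↔ FW Wl c Q t := by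
  constructor
  · rintro ⟨h1, h2, h3, h4⟩
    rw [List.length_append] at h2
    refine ⟨by omega, by omega, (hW.shift P Q (by omega) (by omega)).1 h3, ?_⟩
    intro s hs1 hs2 hw
    exact h4 (P.length + s) (by omega) (by omega) ((hW.shift P Q (by omega) (by omega)).2 hw)
  · rintro ⟨h1, h2, h3, h4⟩
    refine ⟨by omega, by rw [List.length_append]; omega,
      (hW.shift P Q (by omega) (by omega)).2 h3, ?_⟩
    intro s hs1 hs2 hw
    obtain ⟨s', rfl⟩ : ∃ s', s = P.length + s' := ⟨s - P.length, by omega⟩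
    exact h4 s' (by omega) (by omega) ((hW.shift P Q (by omega) (by omega)).1 hw)

theorem UT_code (Wl : List α → Prop) (Zt : ℕ) : TCode (UT Wl Zt) := by
  refine ⟨?_, ?_⟩
  · rintro ⟨t, h1, h2⟩
    have := h2.1
    simp at this
  · rintro y ⟨t, h1, h2⟩ y' ⟨t', h1', h2'⟩ hp
    have h3 : t = t' := (h1.ext hp).uniq h1'
    subst h3
    have h4 : y.length = y'.length := (h2.ext hp).uniq h2'
    exact hp.eq_of_length h4

theorem BT_sub (Wl : List α → Prop) (Zt N1 : ℕ) (BadN : ℕ → Prop) :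
    BT Wl Zt N1 BadN ⊆ UT Wl Zt := fun _ ⟨t, h1, h2, _⟩ => ⟨t, h1, h2⟩

open Classical in
/-- the first wall place -/
noncomputable def tt (Wl : List α → Prop) (Zt : ℕ) (Y : List α) : ℕ :=
  if h : ∃ t, FW Wl Zt Y t then h.choose else 0

theorem tt_eq {Wl : List α → Prop} {Zt : ℕ} {Y : List α} {t : ℕ} (h : FW Wl Zt Y t) :
    tt Wl Zt Y = t := by
  have hex : ∃ t, FW Wl Zt Y t := ⟨t, h⟩
  unfold tt
  rw [dif_pos hex]
  exact hex.choose_spec.uniq h

/-- the noise of scheme 1 -/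
noncomputable def nu1 {S : Type v} {V : Type w} (Wl : List α → Prop) (Zt : ℕ) (φ : List α → S)
    (act : V → S → V) (nuG : List α → V) (Y : List α) : V :=
  act (nuG (Y.take (tt Wl Zt Y))) (φ (Y.drop (tt Wl Zt Y)))

section
variable {S : Type v} {V : Type w} [Monoid S] [AddCommGroup V]

/-- scheme 1: soundness and completeness on tails -/
theorem scheme1_data {Wl : List α → Prop} {n gap Zt N1 : ℕ} (hW : Wall Wl n gap)
    (hN : 0 < N1) (hZ : n + N1 ≤ Zt) (φ : List α → S) (hφ : ∀ u v, φ (u ++ v) = φ u * φ v)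
    (act : V → S → V) (act_mul : ∀ v s t, act (act v s) t = act v (s * t))
    (act_add : ∀ v w s, act (v + w) s = act v s + act w s)
    (lam rho : List α → Option V) (nuG : List α → V) (BadN : ℕ → Prop)
    (g_len : ∀ P v, lam P = some v → P.length < N1)
    (g_sound : ∀ P Q v v', lam P = some v → rho Q = some v' →
      v' = act v (φ (P ++ Q)) + nuG (P ++ Q))
    (g_comp : ∀ X : List α, ¬ BadN X.length → ∀ v, ∃ P Q, P ++ Q = X ∧ lam P = some v ∧
      (rho Q).isSome) :
    (∀ P Q v b, lam P = some v → Q ∈ RR Wl Zt N1 φ act rho b →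
      P ++ Q ∈ UT Wl Zt ∧ act v (φ (P ++ Q)) + nu1 Wl Zt φ act nuG (P ++ Q) = b) ∧
    (∀ Y ∈ UT Wl Zt, Y ∉ BT Wl Zt N1 BadN → ∀ v, ∃ P Q, Y = P ++ Q ∧ lam P = some v ∧
      Q ∈ RR Wl Zt N1 φ act rho (act v (φ Y) + nu1 Wl Zt φ act nuG Y)) := by
  have hlabel : ∀ (Y : List α) (t : ℕ), FW Wl Zt Y t → ∀ v,
      act (act v (φ (Y.take t)) + nuG (Y.take t)) (φ (Y.drop t)) =
        act v (φ Y) + nu1 Wl Zt φ act nuG Y := by
    intro Y t ht v
    unfold nu1
    rw [tt_eq ht, act_add, act_mul, ← hφ, List.take_append_drop]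
  constructor
  · rintro P Q v b hP ⟨t, h0, h1, h2, r, hr, hb⟩
    have hPl := g_len P v hP
    have e1 : FW Wl Zt (P ++ Q) (P.length + t) := by
      have h3 := (hW.FW_shift P Q (c := Zt + 1 - N1) (t := t) (by omega)).2 h1
      refine ⟨by omega, h3.2.1, h3.2.2.1, fun s hs1 hs2 => h3.2.2.2 s (by omega) hs2⟩
    have e2 : FW Wl (P.length + t + 1) (P ++ Q) (P ++ Q).length := by
      rw [List.length_append]
      exact (hW.FW_shift P Q (c := t + 1) (t := Q.length) (by omega)).2 h2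
    refine ⟨⟨_, e1, e2⟩, ?_⟩
    rw [← hlabel _ _ e1 v]
    have h4 : (P ++ Q).take (P.length + t) = P ++ Q.take t := by
      rw [List.take_append, List.take_of_length_le (l := P) (by omega)]
      congr 2
      omega
    have h5 : (P ++ Q).drop (P.length + t) = Q.drop t := by
      rw [List.drop_append, List.drop_eq_nil_of_le (as := P) (by omega), List.nil_append]
      congr 1
      omega
    rw [h4, h5, ← g_sound P (Q.take t) v r hP hr]
    exact hb
  · rintro Y ⟨t, h1, h2⟩ hnB v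
    have hnE : ∀ s, Zt < s + N1 → s < Zt + N1 → s ≤ Y.length → ¬ Wl (Y.take s) := by
      intro s a b c d
      exact hnB ⟨t, h1, h2, Or.inl ⟨s, a, b, c, d⟩⟩
    have hnBad : ¬ BadN t := fun h => hnB ⟨t, h1, h2, Or.inr h⟩
    have ht : Zt + N1 ≤ t := by
      by_contra hcon
      exact hnE t (by have := h1.1; omega) (by omega) h1.2.1 h1.2.2.1
    have htl : (Y.take t).length = t := by
      rw [List.length_take]; have := h1.2.1; omega
    obtain ⟨P, Q1, hPQ, hP, hQ⟩ := g_comp (Y.take t) (by rw [htl]; exact hnBad) v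
    obtain ⟨r, hr⟩ := Option.isSome_iff_exists.1 hQ
    have hPl := g_len P v hP
    have hlen : P.length + Q1.length = t := by
      rw [← htl, ← hPQ, List.length_append]
    obtain ⟨D, hD⟩ : ∃ D, D = Y.drop t := ⟨_, rfl⟩
    have hY : Y = P ++ (Q1 ++ D) := by
      rw [hD, ← List.append_assoc, hPQ, List.take_append_drop]
    refine ⟨P, Q1 ++ D, hY, hP, Q1.length, by omega, ?_, ?_, r, ?_, ?_⟩
    · have h3 : FW Wl (Zt + 1 - N1 + P.length) Y t := by
        refine ⟨by omega, h1.2.1, h1.2.2.1, ?_⟩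
        intro s hs1 hs2
        by_cases hsZ : Zt ≤ s
        · exact h1.2.2.2 s hsZ hs2
        · exact hnE s (by omega) (by omega) (by have := h1.2.1; omega)
      rw [Nat.add_comm _ P.length, ← hlen] at h3
      rw [hY] at h3
      exact (hW.FW_shift P (Q1 ++ D) (by omega)).1 h3
    · have h3 : FW Wl (P.length + (Q1.length + 1)) Y (P.length + (Q1 ++ D).length) := by
        have h4 : Y.length = P.length + (Q1 ++ D).length := by
          rw [hY, List.length_append]
        rw [← h4]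
        have h5 : t + 1 = P.length + (Q1.length + 1) := by omega
        rw [← h5]
        exact h2
      rw [hY] at h3
      exact (hW.FW_shift P _ (by omega)).1 h3
    · rw [List.take_left' rfl]; exact hr
    · rw [List.drop_left' rfl, ← hlabel Y t h1 v, hD]
      congr 1
      have := g_sound P Q1 v r hP hr
      rw [hPQ] at this
      exact this

end

end Crest.Agent.R320.Def_423
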