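import Crest.Agent.R320.Asm_505
import Crest.Agent.R320.ExactR_237

/-!
Row 320, helper871: definitions of the instantiation of `Asm_505.two_levels` on all words
(left-looking walls, zones which end at the wall after the first wall `≥ z1`).
-/

set_option autoImplicit false

namespace Crest.Agent.R320.Main871

open Crest.Agent.R320.Asm_505

variable {α : Type}

/-- left-looking walls -/
structure Walls (Wo : List α → Prop) (n W : ℕ) : Prop where
  loc : ∀ A P : List α, n ≤ P.length → (Wo (A ++ P) ↔ Wo P)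
  len : ∀ P : List α, Wo P → n ≤ P.length
  gap : ∀ (w : List α) (s t : ℕ), s < t → t ≤ w.length → Wo (w.take s) → Wo (w.take t) → s + W ≤ t

/-- two walls: `t` is the only wall in `[lo, |X|)`, and `|X|` is a wall -/
def TW (Wo : List α → Prop) (lo : ℕ) (X : List α) (t : ℕ) : Prop :=
  lo ≤ t ∧ t < X.length ∧ Wo (X.take t) ∧ Wo X ∧
    ∀ s, lo ≤ s → s < X.length → Wo (X.take s) → s = t

/-- zones -/
def UU (Wo : List α → Prop) (z1 : ℕ) : Language α := {X | ∃ t, TW Wo z1 X t}

/-- bad zones -/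
def BB (Wo : List α → Prop) (z1 p0 N : ℕ) (Bad : ℕ → Prop) : Language α :=
  {X | ∃ t, TW Wo z1 X t ∧
    ((∃ s, z1 ≤ s + N ∧ s ≤ z1 + N ∧ s ≤ X.length ∧ Wo (X.take s)) ∨ Bad (t - p0))}

/-- first wall `≥ z1` -/
noncomputable def fw (Wo : List α → Prop) (z1 : ℕ) (X : List α) : ℕ :=
  sInf {t | z1 ≤ t ∧ Wo (X.take t)}

section one
variable {S V : Type} [Monoid S] [AddCommGroup V]

/-- the map of the part behind `p0`, with reference wall at distance `j` -/
def tY (act : V → S → V) (φ : List α → S) (nu : List α → V) (Y : List α) (j : ℕ) (v : V) : V :=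
  act (act v (φ (Y.take j)) + nu (Y.take j)) (φ (Y.drop j))

noncomputable def eps1 (Wo : List α → Prop) (z1 p0 : ℕ) (act : V → S → V) (φ : List α → S)
    (nu : List α → V) (z : List α) (v : V) : V :=
  tY act φ nu (z.drop p0) (fw Wo z1 z - p0) (act v (φ (z.take p0)))

def P1 (p0 : ℕ) (act : V → S → V) (φ : List α → S) (lam : List α → Option V) (v : V) :
    Language α :=
  {p | p0 ≤ p.length ∧ lam (p.drop p0) = some (act v (φ (p.take p0)))}

def R1 (Wo : List α → Prop) (z1 p0 N : ℕ) (act : V → S → V) (φ : List α → S)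
    (rho : List α → Option V) (y : V) : Language α :=
  {q | ∃ s r, TW Wo (z1 - p0 - N) q s ∧ z1 ≤ p0 + s ∧ rho (q.take s) = some r ∧
    act r (φ (q.drop s)) = y}

end one

/-- status of the hypothesis `c` (distance back to the anchor) read from the right word -/
def BadH (Wo : List α → Prop) (z1 p0 N : ℕ) (Bad : ℕ → Prop) (c : ℕ) (q : List α) : Prop :=
  ∃ s, z1 ≤ c + s ∧ s ≤ q.length ∧ Wo (q.take s) ∧
    (∀ s', z1 ≤ c + s' → s' < s → ¬ Wo (q.take s')) ∧
    ((∃ s', z1 ≤ c + s' + N ∧ c + s' ≤ z1 + N ∧ s' ≤ q.length ∧ Wo (q.take s')) ∨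
      Bad (c + s - p0))

section two
variable {S V G V₂ : Type} [Monoid S] [AddCommGroup V]

def P2 (K : ℕ) (c : ℕ → ℕ) (lam₂ : ℕ → List α → Option V₂) (g : V₂) : Language α :=
  {p | ∃ k < K, p.length = c k ∧ lam₂ k p = some g}

def R2 (Wo : List α → Prop) (z1 p0 N : ℕ) (Bad : ℕ → Prop) (K : ℕ) (c : ℕ → ℕ)
    (tau : List α → ℕ → G) (rho₂ : ℕ → List α → G → Option V₂) (h : V₂) : Language α :=
  {q | ∃ k < K, ∃ s, TW Wo (z1 - c k) q s ∧ BadH Wo z1 p0 N Bad (c k) q ∧
    (∀ k' < K, k' ≠ k → ¬ BadH Wo z1 p0 N Bad (c k') q) ∧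
    rho₂ k (q.take (p0 - c k)) (tau (q.drop (p0 - c k)) (c k + s - p0)) = some h}

end two

end Crest.Agent.R320.Main871
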