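import Mathlib

/-!
# Row 320: the concrete block code and the two schemes (helper915)

Left-looking walls `Wo` (a wall sits at the END of a word, decided by the last `n` letters), natural
chain rule `first wall at distance ≥ z`, scheme 1 = a gadget `lam, rho, nu1` for words of unknown
length (693 / 638) in the part right of `p0`, scheme 2 = exact gadget (237) on the first `p0`
letters with the promise ruler `c`.
-/

set_option autoImplicit false

namespace Crest.Agent.R320.Def_915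

/-- all data -/
structure Par (α V S : Type) where
  φ : List α → S
  act : V → S → V
  Wo : List α → Prop
  n : ℕ
  z : ℕ
  p0 : ℕ
  N1 : ℕ
  lam : List α → Option V
  rho : List α → Option V
  nu1 : List α → V
  BadT : ℕ → Prop
  K : ℕ
  c : ℕ → ℕ
  lam2 : ℕ → List α → Option V
  rho2 : ℕ → List α → Option V
  nu2 : List α → V

variable {α V S : Type} [AddCommGroup V] [Monoid S]

/-- blocks: words ending at the first wall at distance `≥ z` -/
def Par.XX (p : Par α V S) : Set (List α) :=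
  {X | p.z ≤ X.length ∧ p.Wo X ∧ ∀ t, p.z ≤ t → t < X.length → ¬ p.Wo (X.take t)}

/-- the transport through a block (noise of both gadgets) -/
def Par.T (p : Par α V S) (v : V) (X : List α) : V :=
  p.act (p.act v (p.φ (X.take p.p0)) + p.nu2 (X.take p.p0)) (p.φ (X.drop p.p0)) +
    p.nu1 (X.drop p.p0)

def Par.LP1 (p : Par α V S) (P : List α) (v : V) : Prop :=
  p.p0 ≤ P.length ∧ P.length ≤ p.p0 + p.N1 ∧
    p.lam (P.drop p.p0) = some (p.act v (p.φ (P.take p.p0)) + p.nu2 (P.take p.p0))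

def Par.Leg1 (p : Par α V S) (Q : List α) : Prop :=
  p.z ≤ Q.length + p.p0 ∧ p.Wo Q ∧
    ∀ t, p.z ≤ t + p.p0 + p.N1 → t < Q.length → ¬ p.Wo (Q.take t)

open Classical in
noncomputable def Par.R1 (p : Par α V S) (Q : List α) : Option V :=
  if p.Leg1 Q then p.rho Q else none

/-- bad blocks -/
def Par.Bad (p : Par α V S) (X : List α) : Prop :=
  X.length < p.z + p.N1 ∨ (∃ t, p.z ≤ t + p.N1 ∧ t < p.z ∧ p.Wo (X.take t)) ∨
    p.BadT (X.length - p.p0)

/-- `Q.take t` ends at the first wall at distance `≥ z` from a start `o` letters left of `Q` -/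
def Par.IsF (p : Par α V S) (o : ℕ) (Q : List α) (t : ℕ) : Prop :=
  p.z ≤ t + o ∧ t ≤ Q.length ∧ p.Wo (Q.take t) ∧ ∀ s, p.z ≤ s + o → s < t → ¬ p.Wo (Q.take s)

/-- the block starting `o` letters left of `Q` is bad -/
def Par.BadAt (p : Par α V S) (o : ℕ) (Q : List α) : Prop :=
  ∃ t, p.IsF o Q t ∧ (t + o < p.z + p.N1 ∨
    (∃ s, p.z ≤ s + o + p.N1 ∧ s + o < p.z ∧ p.Wo (Q.take s)) ∨ p.BadT (t + o - p.p0))

def Par.LP2 (p : Par α V S) (P : List α) (v : V) : Prop :=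
  ∃ k < p.K, P.length = p.c k ∧ p.lam2 k P = some v

/-- right legal for scheme 2, with value `b` behind the next full block -/
def Par.RR2 (p : Par α V S) (Q : List α) (b : V) : Prop :=
  ∃ k < p.K, (∀ k' < p.K, p.BadAt (p.c k') Q ↔ k' = k) ∧ ∃ t r, p.IsF (p.c k) Q t ∧
    Q.drop t ∈ p.XX ∧ p.rho2 k ((Q.take t).take (p.p0 - p.c k)) = some r ∧
    b = p.T (p.act r (p.φ ((Q.take t).drop (p.p0 - p.c k))) +
      p.nu1 ((Q.take t).drop (p.p0 - p.c k))) (Q.drop t)

open Classical in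
noncomputable def Par.R2 (p : Par α V S) (Q : List α) : Option V :=
  if h : ∃ b, p.RR2 Q b then some h.choose else none

/-- everything needed for soundness and completeness -/
structure Par.Ok (p : Par α V S) (N2 C0 R : ℕ) : Prop where
  φ_app : ∀ u v, p.φ (u ++ v) = p.φ u * p.φ v
  wo_app : ∀ P Q : List α, p.n ≤ Q.length → (p.Wo (P ++ Q) ↔ p.Wo Q)
  wo_len : ∀ P : List α, p.Wo P → p.n ≤ P.length
  hn : 0 < p.n
  /-- walls are more than `2 (N1 + p0)` apart -/
  gap : ∀ (P : List α) (d : ℕ), p.Wo P → 0 < d → d ≤ 2 * (p.N1 + p.p0) →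
    ¬ p.Wo (P.take (P.length - d))
  hz : 4 * (p.p0 + p.N1) + p.n + N2 ≤ p.z
  sound1 : ∀ P Q v b, p.lam P = some v → p.rho Q = some b →
    b = p.act v (p.φ (P ++ Q)) + p.nu1 (P ++ Q)
  compl1 : ∀ u : List α, N2 ≤ u.length → ¬ p.BadT u.length → ∀ v, ∃ P Q, P ++ Q = u ∧
    P.length ≤ p.N1 ∧ p.lam P = some v ∧ (p.rho Q).isSome
  hc : ∀ k < p.K, p.c k ≤ p.p0
  /-- ruler with resolution `2 N1` -/
  ruler : ∀ a b a' b', a < p.K → b < p.K → a' < p.K → b' < p.K → a ≠ b → a' ≠ b' →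
    p.c a + p.c b' ≤ p.c a' + p.c b + 2 * p.N1 → p.c a' + p.c b ≤ p.c a + p.c b' + 2 * p.N1 →
    a = a' ∧ b = b'
  /-- `BadT` is thin for the ruler -/
  thin : ∀ T, N2 + p.p0 ≤ T → ∀ I : Finset (ℕ × ℕ),
    (∀ ab ∈ I, ab.1 < p.K ∧ ab.2 < p.K ∧ ab.1 ≠ ab.2 ∧ p.BadT (T + p.c ab.1 - p.c ab.2)) →
    I.card ≤ C0
  hR : 2 + 2 * C0 ≤ R
  sound2 : ∀ k < p.K, ∀ P Q v b, P.length = p.c k → p.lam2 k P = some v → p.rho2 k Q = some b →
    b = p.act v (p.φ (P ++ Q)) + p.nu2 (P ++ Q)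
  compl2 : ∀ (u : List α) (v : V), u.length = p.p0 → ∃ I : Finset ℕ, R ≤ I.card ∧ ∀ k ∈ I,
    k < p.K ∧ p.lam2 k (u.take (p.c k)) = some v ∧ (p.rho2 k (u.drop (p.c k))).isSome

end Crest.Agent.R320.Def_915
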