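import Mathlib

set_option autoImplicit false

namespace Crest.Agent.R320.DigRuler_258

/-- the thin bad set of the digit gadget -/
def BadT (Ms : Finset ℕ) (M b m n : ℕ) : Prop :=
  (∃ k ∈ Ms, k ∣ n) ∨ ∃ j < m, (n / b ^ j) % b < M ∨ b ≤ (n / b ^ j) % b + M

/-- powers of two are a Golomb ruler -/
theorem two_pow_golomb {a b c d : ℕ} (hab : a ≠ b)
    (h : (2:ℤ) ^ a - 2 ^ b = 2 ^ c - 2 ^ d) : a = c ∧ b = d := by
  have h' : (2:ℕ) ^ a + 2 ^ d = 2 ^ c + 2 ^ b := by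
    have : (2:ℤ) ^ a + 2 ^ d = 2 ^ c + 2 ^ b := by linarith
    exact_mod_cast this
  -- wlog comparisons
  have key : ∀ p q r s : ℕ, p < q → (2:ℕ) ^ p + 2 ^ q = 2 ^ r + 2 ^ s → r ≤ s → p = r ∧ q = s := by
    intro p q r s hpq hE hrs
    have hpos : ∀ n : ℕ, 0 < (2:ℕ) ^ n := fun n => by positivity
    have h2 : (2:ℕ) ^ p < 2 ^ q := Nat.pow_lt_pow_right (by norm_num) hpq
    have h3 : (2:ℕ) ^ r ≤ 2 ^ s := Nat.pow_le_pow_right (by norm_num) hrs
    have hs : s = q := by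
      rcases lt_trichotomy s q with hlt | heq | hgt
      · have : (2:ℕ) ^ (s + 1) ≤ 2 ^ q := Nat.pow_le_pow_right (by norm_num) hlt
        rw [pow_succ] at this
        have := hpos p
        omega
      · exact heq
      · have : (2:ℕ) ^ (q + 1) ≤ 2 ^ s := Nat.pow_le_pow_right (by norm_num) hgt
        rw [pow_succ] at this
        have := hpos r
        omega
    subst hs
    have : (2:ℕ) ^ p = 2 ^ r := by omega
    exact ⟨Nat.pow_right_injective (le_refl 2) this, rfl⟩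
  rcases lt_trichotomy a d with hlt | heq | hgt
  · rcases le_total c b with hcb | hbc
    · obtain ⟨h1, h2⟩ := key a d c b hlt h' hcb
      exact ⟨h1, h2.symm⟩
    · obtain ⟨h1, h2⟩ := key a d b c hlt (by omega) hbc
      exact absurd h1 hab
  · subst heq
    rcases lt_trichotomy c b with h1 | h1 | h1
    · obtain ⟨h2, h3⟩ := key c b a a h1 (by omega) le_rfl
      omega
    · subst h1
      have : (2:ℕ) ^ a = 2 ^ c := by omega
      have := Nat.pow_right_injective (le_refl 2) this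
      exact absurd this hab
    · obtain ⟨h2, h3⟩ := key b c a a h1 (by omega) le_rfl
      omega
  · rcases le_total c b with hcb | hbc
    · obtain ⟨h1, h2⟩ := key d a c b hgt (by omega) hcb
      exact absurd h2 hab
    · obtain ⟨h1, h2⟩ := key d a b c hgt (by omega) hbc
      exact ⟨h2, h1.symm⟩

theorem geom_bound (b : ℕ) (hb : 2 ≤ b) (j : ℕ) :
    b ^ j ≤ ∑ i ∈ Finset.range (j + 1), b ^ i ∧ ∑ i ∈ Finset.range (j + 1), b ^ i ≤ 2 * b ^ j := by
  induction j with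
  | zero => simp
  | succ j ih =>
      rw [Finset.sum_range_succ]
      have h1 : b ^ (j + 1) = b ^ j * b := pow_succ b j
      have h2 : b ^ j * 2 ≤ b ^ j * b := Nat.mul_le_mul_left _ hb
      constructor
      · omega
      · have := ih.2
        omega

theorem geom_split (b j m : ℕ) (hj : j < m) :
    ∃ s : ℕ, ∑ i ∈ Finset.range m, b ^ i = ∑ i ∈ Finset.range (j + 1), b ^ i + b ^ (j + 1) * s := by
  induction m with
  | zero => omega
  | succ m ih =>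
      rcases Nat.lt_succ_iff_lt_or_eq.mp hj with h | h
      · obtain ⟨s, hs⟩ := ih h
        refine ⟨s + b ^ (m - (j + 1)), ?_⟩
        have : b ^ m = b ^ (j + 1) * b ^ (m - (j + 1)) := by
          rw [← pow_add]; congr 1; omega
        rw [Finset.sum_range_succ, hs, this]; ring
      · subst h
        exact ⟨0, by simp⟩

theorem bad_near {M b j n : ℕ} (hb : 0 < b)
    (h : (n / b ^ j) % b < M ∨ b ≤ (n / b ^ j) % b + M) :
    ∃ q : ℤ, |(n : ℤ) - q * (b : ℤ) ^ (j + 1)| ≤ (M : ℤ) * (b : ℤ) ^ j := by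
  have hB : 0 < b ^ j := Nat.pow_pos hb
  set B := b ^ j with hBdef
  have h1 : B * (n / B) + n % B = n := Nat.div_add_mod n B
  have h2 : b * (n / B / b) + (n / B) % b = n / B := Nat.div_add_mod (n / B) b
  have hr : n % B < B := Nat.mod_lt _ hB
  have hd : (n / B) % b < b := Nat.mod_lt _ hb
  set r := n % B with hrdef
  set d := (n / B) % b with hddef
  set u := n / B / b with hudef
  have hn : (n : ℤ) = (B : ℤ) * ((b : ℤ) * u + d) + r := by
    have : n = B * (b * u + d) + r := by rw [h2]; exact h1.symm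
    exact_mod_cast this
  have hpow : ((b : ℤ)) ^ (j + 1) = (B : ℤ) * b := by
    rw [hBdef]; push_cast; ring
  have hpow' : ((b : ℤ)) ^ j = (B : ℤ) := by rw [hBdef]; push_cast; ring
  have hrZ : (r : ℤ) < B := by exact_mod_cast hr
  have hr0 : (0 : ℤ) ≤ r := by positivity
  have hBZ : (0 : ℤ) < B := by exact_mod_cast hB
  rcases h with h | h
  · refine ⟨u, ?_⟩
    rw [hpow, hpow', hn]
    have hdM : (d : ℤ) + 1 ≤ M := by exact_mod_cast h
    have hd0 : (0 : ℤ) ≤ d := by positivity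
    have e : (B : ℤ) * ((b : ℤ) * u + d) + r - u * (B * b) = B * d + r := by ring
    rw [e, abs_of_nonneg (by positivity)]
    nlinarith
  · refine ⟨u + 1, ?_⟩
    rw [hpow, hpow', hn]
    have hdM : (b : ℤ) ≤ d + M := by exact_mod_cast h
    have hdb : (d : ℤ) + 1 ≤ b := by exact_mod_cast hd
    have e : (B : ℤ) * ((b : ℤ) * u + d) + r - (u + 1) * (B * b) = -(B * (b - d) - r) := by ring
    rw [e, abs_neg, abs_of_nonneg (by nlinarith)]
    nlinarith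

theorem abs_diff_lt {K a b : ℕ} (ha : a < K) (hb : b < K) : |(2:ℤ) ^ a - 2 ^ b| < 2 ^ K := by
  have h1 : (2:ℤ) ^ a < 2 ^ K := pow_lt_pow_right₀ (by norm_num) ha
  have h2 : (2:ℤ) ^ b < 2 ^ K := pow_lt_pow_right₀ (by norm_num) hb
  have h3 : (0:ℤ) < 2 ^ a := by positivity
  have h4 : (0:ℤ) < 2 ^ b := by positivity
  rw [abs_lt]; constructor <;> linarith

theorem k_uniq {W k K0 D : ℤ} (hD : |D| < W) (hk : W < k) (h1 : k ∣ K0 * D) (h2 : k ∣ K0 - 1) :
    D = 0 := by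
  have h3 : k ∣ D := by
    have h4 : k ∣ (K0 - 1) * D := Dvd.dvd.mul_right h2 D
    have h5 : D = K0 * D - (K0 - 1) * D := by ring
    rw [h5]; exact dvd_sub h1 h4
  exact Int.eq_zero_of_abs_lt_dvd h3 (lt_trans hD hk)

theorem dig_Q0 {W M b B G D Q : ℤ} (hW : 1 ≤ W) (hM : 0 < M) (hB : 0 < B) (g1 : B ≤ G)
    (g2 : G ≤ 2 * B) (hb : 16 * W * M < b) (hD : |D| < W)
    (hmain : |4 * M * G * D + Q * (B * b)| ≤ 2 * (M * B)) : Q = 0 := by
  by_contra hQne
  have hG0 : 0 ≤ G := le_trans hB.le g1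
  have hMB : 0 < M * B := mul_pos hM hB
  have hb0 : 0 < b := by
    have : 0 < 16 * W * M := by positivity
    linarith
  have hBb : 0 < B * b := mul_pos hB hb0
  have h1 : 1 ≤ |Q| := Int.one_le_abs hQne
  have h2 : B * b ≤ |Q * (B * b)| := by
    rw [abs_mul, abs_of_nonneg hBb.le]
    calc B * b = 1 * (B * b) := by ring
      _ ≤ |Q| * (B * b) := mul_le_mul_of_nonneg_right h1 hBb.le
  have hGD : |4 * M * G * D| ≤ 8 * (M * B) * W := by
    have hMG : 0 ≤ 4 * M * G := by positivity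
    rw [abs_mul, abs_of_nonneg hMG]
    have h3 : 4 * M * G ≤ 8 * (M * B) := by
      calc 4 * M * G ≤ 4 * M * (2 * B) := mul_le_mul_of_nonneg_left g2 (by positivity)
        _ = 8 * (M * B) := by ring
    exact mul_le_mul h3 hD.le (abs_nonneg D) (by positivity)
  have h4 : |Q * (B * b)| ≤ 2 * (M * B) + |4 * M * G * D| := by
    have h5 := abs_sub (4 * M * G * D + Q * (B * b)) (4 * M * G * D)
    have e3 : 4 * M * G * D + Q * (B * b) - 4 * M * G * D = Q * (B * b) := by ring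
    rw [e3] at h5
    linarith
  have h6 : B * (16 * W * M) < B * b := mul_lt_mul_of_pos_left hb hB
  have h7 : M * B ≤ (M * B) * W := by
    calc M * B = (M * B) * 1 := by ring
      _ ≤ (M * B) * W := mul_le_mul_of_nonneg_left hW hMB.le
  have h8 : B * (16 * W * M) = 16 * ((M * B) * W) := by ring
  rw [h8] at h6
  linarith

theorem dig_uniq {W M b B G t D q1 q2 n1 n2 K0 : ℤ} (hW : 1 ≤ W) (hM : 0 < M) (hB : 0 < B)
    (g1 : B ≤ G) (g2 : G ≤ 2 * B) (hb : 16 * W * M < b) (hD : |D| < W)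
    (e : n2 - n1 = K0 * D) (ht : K0 = 4 * M * G + B * b * t)
    (h1 : |n1 - q1 * (B * b)| ≤ M * B) (h2 : |n2 - q2 * (B * b)| ≤ M * B) : D = 0 := by
  have hmain : |4 * M * G * D + (t * D - (q2 - q1)) * (B * b)| ≤ 2 * (M * B) := by
    have e2 : 4 * M * G * D + (t * D - (q2 - q1)) * (B * b)
        = (n2 - q2 * (B * b)) - (n1 - q1 * (B * b)) := by
      have h3 : K0 * D = (4 * M * G + B * b * t) * D := by rw [ht]
      linear_combination (-1) * h3 + (-1) * e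
    rw [e2]
    have h4 := abs_sub (n2 - q2 * (B * b)) (n1 - q1 * (B * b))
    linarith
  have hQ0 := dig_Q0 hW hM hB g1 g2 hb hD hmain
  rw [hQ0, zero_mul, add_zero] at hmain
  by_contra hDne
  have h3 : 1 ≤ |D| := Int.one_le_abs hDne
  have hG0 : 0 ≤ G := le_trans hB.le g1
  have hMG : 0 ≤ 4 * M * G := by positivity
  rw [abs_mul, abs_of_nonneg hMG] at hmain
  have hMB : 0 < M * B := mul_pos hM hB
  have h4 : 4 * (M * B) ≤ 4 * M * G := by
    calc 4 * (M * B) = 4 * M * B := by ring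
      _ ≤ 4 * M * G := mul_le_mul_of_nonneg_left g1 (by positivity)
  have h5 : 4 * M * G * 1 ≤ 4 * M * G * |D| := mul_le_mul_of_nonneg_left h3 hMG
  linarith

theorem abs_D {K a b c d : ℕ} (ha : a < K) (hb : b < K) (hc : c < K) (hd : d < K) :
    |((2:ℤ) ^ a - 2 ^ b) - (2 ^ c - 2 ^ d)| < 2 ^ (K + 1) := by
  have a1 := abs_diff_lt ha hb
  have a2 := abs_diff_lt hc hd
  have a3 := abs_sub ((2:ℤ) ^ a - 2 ^ b) ((2:ℤ) ^ c - 2 ^ d)
  rw [pow_succ]
  linarith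

theorem e_lem {T : ℤ} {K0 a b c d n1 n2 : ℕ}
    (h1 : (n1 : ℤ) = T - (((2 ^ a * K0 : ℕ) : ℤ) - ((2 ^ b * K0 : ℕ) : ℤ)))
    (h2 : (n2 : ℤ) = T - (((2 ^ c * K0 : ℕ) : ℤ) - ((2 ^ d * K0 : ℕ) : ℤ))) :
    (n2 : ℤ) - n1 = (K0 : ℤ) * (((2:ℤ) ^ a - 2 ^ b) - (2 ^ c - 2 ^ d)) := by
  rw [h1, h2]; push_cast; ring

set_option maxHeartbeats 1000000 in
open Classical in
theorem dig_ruler (K m M b N1 : ℕ) (Ms : Finset ℕ) (hM : 0 < M)
    (hk : ∀ k ∈ Ms, 2 ^ (K + 1) < k ∧ Nat.Coprime k b) (hb : 2 ^ (K + 5) * M < b) :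
    ∃ c : ℕ → ℕ, StrictMono c ∧
      (∀ a b' a2 b2 : ℕ, a < K → b' < K → a2 < K → b2 < K → a ≠ b' →
        |((c a : ℤ) - c b') - ((c a2 : ℤ) - c b2)| ≤ 2 * (N1 : ℤ) → a = a2 ∧ b' = b2) ∧
      (∀ T : ℤ, (((Finset.range K) ×ˢ (Finset.range K)).filter (fun p : ℕ × ℕ => p.1 ≠ p.2 ∧
        ∃ n : ℕ, (n : ℤ) = T - ((c p.1 : ℤ) - c p.2) ∧ BadT Ms M b m n)).card ≤ Ms.card + m) := by
  have hb2 : 2 ≤ b := by
    have : 2 ^ (K + 5) * M ≥ 2 := by
      calc 2 ≤ 2 ^ (K + 5) * 1 := by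
            have : 2 ^ 1 ≤ 2 ^ (K + 5) := Nat.pow_le_pow_right (by norm_num) (by omega)
            omega
        _ ≤ 2 ^ (K + 5) * M := Nat.mul_le_mul_left _ hM
    omega
  have hb0 : 0 < b := by omega
  set P := ∏ k ∈ Ms, k with hP
  have hPpos : 0 < P := Finset.prod_pos (fun k hkk => Nat.lt_of_le_of_lt (Nat.zero_le _) (hk k hkk).1)
  have hcop : Nat.Coprime P (b ^ m) := by
    apply Nat.Coprime.pow_right
    exact Nat.Coprime.prod_left (fun k hkk => (hk k hkk).2)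
  obtain ⟨x, hx1, hx2⟩ := Nat.chineseRemainder hcop 1 (4 * M * ∑ i ∈ Finset.range m, b ^ i)
  set K0 := x + P * b ^ m * (2 * N1 + 1) with hK0
  have hK0gt : 2 * N1 < K0 := by
    have h1 : 1 ≤ P * b ^ m := Nat.mul_pos hPpos (Nat.pow_pos hb0)
    have h2 : 1 * (2 * N1 + 1) ≤ P * b ^ m * (2 * N1 + 1) := Nat.mul_le_mul_right _ h1
    omega
  have hK0pos : 0 < K0 := by omega
  have hkmod : ∀ k ∈ Ms, (k : ℤ) ∣ (K0 : ℤ) - 1 := by
    intro k hkk
    have h1 : (P : ℤ) ∣ (x : ℤ) - 1 := by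
      have := (Nat.modEq_iff_dvd.mp hx1.symm)
      simpa using this
    have h2 : (k : ℤ) ∣ (P : ℤ) := by
      exact_mod_cast Finset.dvd_prod_of_mem (fun k => k) hkk
    have h3 : (K0 : ℤ) - 1 = ((x : ℤ) - 1) + P * (b ^ m * (2 * N1 + 1)) := by
      rw [hK0]; push_cast; ring
    rw [h3]
    exact dvd_add (h2.trans h1) (h2.trans (Dvd.intro _ rfl))
  have hbmod : ∀ j < m, ∃ t : ℤ, (K0 : ℤ) = 4 * M * ((∑ i ∈ Finset.range (j + 1), b ^ i : ℕ) : ℤ)
      + (b : ℤ) ^ (j + 1) * t := by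
    intro j hj
    obtain ⟨s, hs⟩ := geom_split b j m hj
    have h1 : ((b ^ m : ℕ) : ℤ) ∣ (x : ℤ) - ((4 * M * ∑ i ∈ Finset.range m, b ^ i : ℕ) : ℤ) :=
      Nat.modEq_iff_dvd.mp hx2.symm
    obtain ⟨y, hy⟩ := h1
    have hbm : (b : ℤ) ^ m = (b : ℤ) ^ (j + 1) * (b : ℤ) ^ (m - (j + 1)) := by
      rw [← pow_add]; congr 1; omega
    refine ⟨4 * M * s + (b : ℤ) ^ (m - (j + 1)) * (y + P * (2 * N1 + 1)), ?_⟩
    have hx : (x : ℤ) = ((4 * M * ∑ i ∈ Finset.range m, b ^ i : ℕ) : ℤ) + ((b ^ m : ℕ) : ℤ) * y := by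
      linarith
    rw [hs] at hx
    rw [hK0]
    push_cast at hx ⊢
    rw [hx, hbm]
    ring
  -- the pair determined by a small combination
  have huniq : ∀ a b' a2 b2 : ℕ, a ≠ b' →
      ((2:ℤ) ^ a - 2 ^ b') - (2 ^ a2 - 2 ^ b2) = 0 → a = a2 ∧ b' = b2 := by
    intro a b' a2 b2 hne h
    exact two_pow_golomb hne (by linarith)
  refine ⟨fun l => 2 ^ l * K0, ?_, ?_, ?_⟩
  · intro i j hij
    have : 2 ^ i < 2 ^ j := Nat.pow_lt_pow_right (by norm_num) hij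
    exact Nat.mul_lt_mul_of_pos_right this hK0pos
  · intro a b' a2 b2 ha hb' ha2 hb2' hne h
    apply huniq a b' a2 b2 hne
    by_contra hD
    set D := ((2:ℤ) ^ a - 2 ^ b') - (2 ^ a2 - 2 ^ b2) with hDdef
    have e : ((((2 ^ a * K0 : ℕ)) : ℤ) - ((2 ^ b' * K0 : ℕ) : ℤ)) - (((2 ^ a2 * K0 : ℕ) : ℤ) - ((2 ^ b2 * K0 : ℕ) : ℤ)) = K0 * D := by
      rw [hDdef]; push_cast; ring
    have h' : |(K0 : ℤ) * D| ≤ 2 * (N1 : ℤ) := by
      rw [← e]; exact h
    rw [abs_mul, Nat.abs_cast] at h'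
    have h1 : 1 ≤ |D| := Int.one_le_abs hD
    have h2 : (2 * (N1 : ℤ)) < K0 := by exact_mod_cast hK0gt
    nlinarith [abs_nonneg D]
  · intro T
    -- events
    let Sk : ℕ → Finset (ℕ × ℕ) := fun k =>
      ((Finset.range K) ×ˢ (Finset.range K)).filter (fun p : ℕ × ℕ => p.1 ≠ p.2 ∧
        ∃ n : ℕ, (n : ℤ) = T - (((2 ^ p.1 * K0 : ℕ) : ℤ) - ((2 ^ p.2 * K0 : ℕ) : ℤ)) ∧ k ∣ n)
    let Sj : ℕ → Finset (ℕ × ℕ) := fun j =>
      ((Finset.range K) ×ˢ (Finset.range K)).filter (fun p : ℕ × ℕ => p.1 ≠ p.2 ∧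
        ∃ n : ℕ, (n : ℤ) = T - (((2 ^ p.1 * K0 : ℕ) : ℤ) - ((2 ^ p.2 * K0 : ℕ) : ℤ)) ∧
          ((n / b ^ j) % b < M ∨ b ≤ (n / b ^ j) % b + M))
    have hsub : (((Finset.range K) ×ˢ (Finset.range K)).filter (fun p : ℕ × ℕ => p.1 ≠ p.2 ∧
        ∃ n : ℕ, (n : ℤ) = T - (((2 ^ p.1 * K0 : ℕ) : ℤ) - ((2 ^ p.2 * K0 : ℕ) : ℤ)) ∧ BadT Ms M b m n))
        ⊆ (Ms.biUnion Sk) ∪ ((Finset.range m).biUnion Sj) := by
      intro p hp
      rw [Finset.mem_filter] at hp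
      obtain ⟨hp1, hne, n, hn, hbad⟩ := hp
      rw [Finset.mem_union]
      rcases hbad with ⟨k, hkk, hdvd⟩ | ⟨j, hj, hdig⟩
      · left
        rw [Finset.mem_biUnion]
        exact ⟨k, hkk, Finset.mem_filter.mpr ⟨hp1, hne, n, hn, hdvd⟩⟩
      · right
        rw [Finset.mem_biUnion]
        exact ⟨j, Finset.mem_range.mpr hj, Finset.mem_filter.mpr ⟨hp1, hne, n, hn, hdig⟩⟩
    have hSk : ∀ k ∈ Ms, (Sk k).card ≤ 1 := by
      intro k hkk
      rw [Finset.card_le_one]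
      rintro ⟨pa, pb⟩ hp ⟨qa, qb⟩ hq
      obtain ⟨hp1, hpne, n1, hn1, hd1⟩ := Finset.mem_filter.mp hp
      obtain ⟨hq1, hqne, n2, hn2, hd2⟩ := Finset.mem_filter.mp hq
      obtain ⟨hpa, hpb⟩ := Finset.mem_product.mp hp1
      obtain ⟨hqa, hqb⟩ := Finset.mem_product.mp hq1
      have hpa' := Finset.mem_range.mp hpa
      have hpb' := Finset.mem_range.mp hpb
      have hqa' := Finset.mem_range.mp hqa
      have hqb' := Finset.mem_range.mp hqb
      have e := e_lem hn1 hn2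
      have hd1' : (k : ℤ) ∣ n1 := by exact_mod_cast hd1
      have hd2' : (k : ℤ) ∣ n2 := by exact_mod_cast hd2
      have h1 : (k : ℤ) ∣ (K0 : ℤ) * (((2:ℤ) ^ pa - 2 ^ pb) - (2 ^ qa - 2 ^ qb)) := by
        rw [← e]; exact dvd_sub hd2' hd1'
      have a4 : ((2:ℤ) ^ (K + 1)) < k := by exact_mod_cast (hk k hkk).1
      have h5 := k_uniq (abs_D hpa' hpb' hqa' hqb') a4 h1 (hkmod k hkk)
      obtain ⟨h6, h7⟩ := huniq pa pb qa qb hpne h5
      exact Prod.ext h6 h7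
    have hSj : ∀ j ∈ Finset.range m, (Sj j).card ≤ 1 := by
      intro j hj
      rw [Finset.mem_range] at hj
      rw [Finset.card_le_one]
      rintro ⟨pa, pb⟩ hp ⟨qa, qb⟩ hq
      obtain ⟨hp1, hpne, n1, hn1, hd1⟩ := Finset.mem_filter.mp hp
      obtain ⟨hq1, hqne, n2, hn2, hd2⟩ := Finset.mem_filter.mp hq
      obtain ⟨hpa, hpb⟩ := Finset.mem_product.mp hp1
      obtain ⟨hqa, hqb⟩ := Finset.mem_product.mp hq1
      have hpa' := Finset.mem_range.mp hpa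
      have hpb' := Finset.mem_range.mp hpb
      have hqa' := Finset.mem_range.mp hqa
      have hqb' := Finset.mem_range.mp hqb
      have e := e_lem hn1 hn2
      obtain ⟨q1, hq1⟩ := bad_near hb0 hd1
      obtain ⟨q2, hq2⟩ := bad_near hb0 hd2
      obtain ⟨t, ht⟩ := hbmod j hj
      obtain ⟨g1, g2⟩ := geom_bound b hb2 j
      have hB : (0:ℤ) < (b : ℤ) ^ j := pow_pos (by exact_mod_cast hb0) j
      have g1' : (b : ℤ) ^ j ≤ ((∑ i ∈ Finset.range (j + 1), b ^ i : ℕ) : ℤ) := by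
        exact_mod_cast g1
      have g2' : ((∑ i ∈ Finset.range (j + 1), b ^ i : ℕ) : ℤ) ≤ 2 * (b : ℤ) ^ j := by
        exact_mod_cast g2
      rw [pow_succ (b : ℤ) j] at hq1 hq2 ht
      have hMZ : (0 : ℤ) < M := by exact_mod_cast hM
      have hbZ : 16 * ((2:ℤ) ^ (K + 1)) * M < b := by
        have h5 : (2:ℤ) ^ (K + 5) = 16 * 2 ^ (K + 1) := by
          rw [show K + 5 = (K + 1) + 4 by omega, pow_add]; ring
        rw [← h5]; exact_mod_cast hb
      have hW : (1:ℤ) ≤ 2 ^ (K + 1) := one_le_pow₀ (by norm_num)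
      have hD0 := dig_uniq hW hMZ hB g1' g2' hbZ (abs_D hpa' hpb' hqa' hqb') e ht hq1 hq2
      obtain ⟨h6, h7⟩ := huniq pa pb qa qb hpne hD0
      exact Prod.ext h6 h7
    calc _ ≤ ((Ms.biUnion Sk) ∪ ((Finset.range m).biUnion Sj)).card := Finset.card_le_card hsub
      _ ≤ (Ms.biUnion Sk).card + ((Finset.range m).biUnion Sj).card := Finset.card_union_le _ _
      _ ≤ Ms.card * 1 + (Finset.range m).card * 1 :=
          Nat.add_le_add (Finset.card_biUnion_le_card_mul _ _ _ hSk)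
            (Finset.card_biUnion_le_card_mul _ _ _ hSj)
      _ = Ms.card + m := by simp

end Crest.Agent.R320.DigRuler_258
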