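import Crest.Agent.R320.UG2_219

/-!
# Row 320: the digit gadget (852 #13483) over 219's `ugadget2`

All words, all lengths, no walls, no run hypothesis.  Boundaries `n % b^j`.
-/

set_option autoImplicit false

namespace Crest.Agent.R320.Dig_161

open Crest.Agent.R320

/-! ### number theory of the digits -/

theorem mod_pow_le (n b j : ℕ) : n % b ^ j ≤ n % b ^ (j + 1) := by
  have h : (n % b ^ (j + 1)) % b ^ j = n % b ^ j := by
    rw [Nat.mod_mod_of_dvd]
    exact pow_dvd_pow b (Nat.le_succ j)
  rw [← h]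
  exact Nat.mod_le _ _

theorem mod_low {o o' b i j : ℕ} (h : b ^ i ∣ o') (hj : j ≤ i) : (o + o') % b ^ j = o % b ^ j := by
  have h1 : b ^ j ∣ o' := dvd_trans (pow_dvd_pow b hj) h
  obtain ⟨k, rfl⟩ := h1
  rw [Nat.add_mul_mod_self_left]

theorem mod_high {o o' b i j : ℕ} (hb : 0 < b) (ho : 2 * (o / b ^ i) < b) (h : b ^ i ∣ o')
    (h' : 2 * ((o' / b ^ i) % b) < b) (hj : i < j) :
    (o + o') % b ^ j = o + o' % b ^ j := by
  obtain ⟨a', rfl⟩ := h
  have hB : 0 < b ^ i := pow_pos hb i
  rw [Nat.mul_div_cancel_left _ hB] at h'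
  obtain ⟨k, rfl⟩ : ∃ k, j = i + (k + 1) := ⟨j - i - 1, by omega⟩
  have e1 : b ^ i * a' % b ^ (i + (k + 1)) = b ^ i * (a' % b ^ (k + 1)) := by
    rw [pow_add b i (k + 1), Nat.mul_mod_mul_left]
  have hlt : o + b ^ i * a' % b ^ (i + (k + 1)) < b ^ (i + (k + 1)) := by
    rw [e1, pow_add b i (k + 1)]
    have ho2 : o < b ^ i * (o / b ^ i + 1) := by
      have := Nat.div_add_mod o (b ^ i)
      have h2 := Nat.mod_lt o hB
      rw [Nat.mul_add, Nat.mul_one]; omega
    have hr : (a' % b ^ (k + 1)) % b = a' % b := by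
      rw [Nat.mod_mod_of_dvd]
      exact dvd_pow_self b (Nat.succ_ne_zero k)
    have hq : (a' % b ^ (k + 1)) / b < b ^ k := by
      rw [Nat.div_lt_iff_lt_mul hb, ← pow_succ]
      exact Nat.mod_lt _ (pow_pos hb _)
    have hd := Nat.div_add_mod (a' % b ^ (k + 1)) b
    rw [hr] at hd
    have h3 : b * ((a' % b ^ (k + 1)) / b) + b ≤ b ^ (k + 1) := by
      calc b * ((a' % b ^ (k + 1)) / b) + b = b * ((a' % b ^ (k + 1)) / b + 1) := by ring
        _ ≤ b * b ^ k := Nat.mul_le_mul_left _ hq
        _ = b ^ (k + 1) := by ring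
    have h4 : o / b ^ i + 1 + a' % b ^ (k + 1) ≤ b ^ (k + 1) := by omega
    calc o + b ^ i * (a' % b ^ (k + 1)) < b ^ i * (o / b ^ i + 1) + b ^ i * (a' % b ^ (k + 1)) := by
          omega
      _ = b ^ i * (o / b ^ i + 1 + a' % b ^ (k + 1)) := by ring
      _ ≤ b ^ i * b ^ (k + 1) := Nat.mul_le_mul_left _ h4
  rw [Nat.add_mod, ← Nat.mod_eq_of_lt hlt]
  conv_rhs => rw [Nat.add_mod, Nat.mod_mod]

/-! ### segments -/

section seg

variable {A S : Type*} [Monoid S] (φ : List A → S)

/-- content of the block `j` of `X` -/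
def sg (b : ℕ) (X : List A) (j : ℕ) : S :=
  φ ((X.take (X.length % b ^ (j + 1))).drop (X.length % b ^ j))

/-- all contents -/
def zs (b m : ℕ) (X : List A) : List S := (List.range m).map (sg φ b X)

/-- the rest -/
def ys (b m : ℕ) (X : List A) : S := φ (X.drop (X.length % b ^ m))

variable {φ}

theorem prod_take (hφ : ∀ u v, φ (u ++ v) = φ u * φ v) {b : ℕ} (hb : 0 < b) (X : List A) (k : ℕ) :
    φ (X.take (X.length % b ^ k)) = φ [] * ((List.range k).map (sg φ b X)).prod := by
  induction k with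
  | zero => simp [Nat.mod_one]
  | succ k ih =>
    rw [List.range_succ, List.map_append, List.prod_append, ← mul_assoc, ← ih]
    simp only [List.map_cons, List.map_nil, List.prod_cons, List.prod_nil, mul_one]
    rw [sg, ← hφ]
    congr 1
    have h := mod_pow_le X.length b k
    conv_lhs => rw [← List.take_append_drop (X.length % b ^ k) (X.take (X.length % b ^ (k + 1)))]
    rw [List.take_take, min_eq_left h]

theorem prod_all (hφ : ∀ u v, φ (u ++ v) = φ u * φ v) {b : ℕ} (hb : 0 < b) (m : ℕ) (X : List A) :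
    φ [] * (zs φ b m X).prod * ys φ b m X = φ X := by
  rw [zs, ← prod_take hφ hb, ys, ← hφ, List.take_append_drop]

theorem length_zs (b m : ℕ) (X : List A) : (zs φ b m X).length = m := by simp [zs]

theorem take_zs {b m i : ℕ} {P Q : List A} (hi : i ≤ m) (h : b ^ i ∣ Q.length) :
    (List.range i).map (sg φ b P) = (zs φ b m (P ++ Q)).take i := by
  rw [zs, ← List.map_take, List.take_range, min_eq_left hi]
  apply List.map_congr_left
  intro j hj
  rw [List.mem_range] at hj
  rw [sg, sg, List.length_append, mod_low h (show j + 1 ≤ i by omega), mod_low h (show j ≤ i by omega)]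
  congr 2
  rw [List.take_append_of_le_length (Nat.mod_le _ _)]

theorem drop_zs {b m i : ℕ} {P Q : List A} (hb : 0 < b) (ho : 2 * (P.length / b ^ i) < b)
    (h : b ^ i ∣ Q.length) (h' : 2 * ((Q.length / b ^ i) % b) < b) :
    ((List.range m).drop (i + 1)).map (sg φ b Q) = (zs φ b m (P ++ Q)).drop (i + 1) := by
  rw [zs, ← List.map_drop]
  apply List.map_congr_left
  intro j hj
  have hj' : i < j := by
    rw [List.mem_drop_iff_getElem] at hj
    obtain ⟨k, hk, hkj⟩ := hj
    simp at hkj
    omega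
  rw [sg, sg, List.length_append, mod_high hb ho h h' (show i < j + 1 by omega),
    mod_high hb ho h h' hj']
  congr 1
  rw [List.take_length_add_append, List.drop_length_add_append]

theorem ys_eq {b m i : ℕ} {P Q : List A} (hb : 0 < b) (ho : 2 * (P.length / b ^ i) < b)
    (h : b ^ i ∣ Q.length) (h' : 2 * ((Q.length / b ^ i) % b) < b) (hi : i < m) :
    ys φ b m Q = ys φ b m (P ++ Q) := by
  rw [ys, ys, List.length_append, mod_high hb ho h h' hi, List.drop_length_add_append]

end seg


/-! ### the window of cut places -/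

theorem window {M b n m i t0 : ℕ} (hM : 0 < M) (hco : Nat.Coprime M b) (hb : 4 * M + 8 ≤ b)
    (hd1 : M + 2 ≤ (n / b ^ i) % b) (hd2 : (n / b ^ i) % b + M + 2 ≤ b) :
    ∃ o, o ≤ n ∧ o % M = t0 % M ∧ b ^ i ≤ o ∧ o < b ^ (i + 1) ∧ 2 * (o / b ^ i) < b ∧
      b ^ i ∣ n - o ∧ 2 * (((n - o) / b ^ i) % b) < b := by
  have hb0 : 0 < b := by omega
  have hB : 0 < b ^ i := pow_pos hb0 i
  obtain ⟨d, hd⟩ : ∃ d, d = (n / b ^ i) % b := ⟨_, rfl⟩
  rw [← hd] at hd1 hd2
  have hcoB : Nat.Coprime M (b ^ i) := Nat.Coprime.pow_right i hco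
  obtain ⟨s, hs1, hs⟩ : ∃ s, 1 ≤ s ∧ ∀ y, s ≤ y → y < s + M → 2 * y < b ∧ y ≤ d ∧ 2 * (d - y) < b := by
    by_cases h : 2 * d < b
    · exact ⟨1, le_refl _, fun y h1 h2 => by omega⟩
    · exact ⟨d - b / 2 + 1, by omega, fun y h1 h2 => by omega⟩
  obtain ⟨k, hk1, hk2⟩ := Nat.chineseRemainder hcoB t0 (n % b ^ i)
  obtain ⟨o, ho1, ho2, ho3⟩ := Names_570.exists_shift k (n % b ^ i + b ^ i * s) (M * b ^ i)
    (Nat.mul_pos hM hB)
  have hoM : o % M = t0 % M := by
    rw [Names_570.mod_of_dvd_mod (Dvd.intro _ rfl) ho3]; exact hk1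
  have hoB : o % b ^ i = n % b ^ i := by
    rw [Names_570.mod_of_dvd_mod (Dvd.intro_left _ rfl) ho3, hk2, Nat.mod_mod]
  obtain ⟨y, hy⟩ : ∃ y, y = o / b ^ i := ⟨_, rfl⟩
  have hoy : o = b ^ i * y + n % b ^ i := by
    rw [hy, ← hoB]; exact (Nat.div_add_mod o (b ^ i)).symm
  have hy1 : s ≤ y := by
    have : b ^ i * s ≤ b ^ i * y := by omega
    exact Nat.le_of_mul_le_mul_left this hB
  have hy2 : y < s + M := by
    have : b ^ i * y < b ^ i * (s + M) := by
      rw [Nat.mul_add, mul_comm (b ^ i) M]; omega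
    exact Nat.lt_of_mul_lt_mul_left this
  obtain ⟨c1, c2, c3⟩ := hs y hy1 hy2
  have hmod := Nat.mod_lt n hB
  have hn := Nat.div_add_mod n (b ^ i)
  have hq := Nat.div_add_mod (n / b ^ i) b
  rw [← hd] at hq
  have hyn : y ≤ n / b ^ i := by
    have : 0 ≤ b * (n / b ^ i / b) := Nat.zero_le _
    omega
  have hno : n - o = b ^ i * (n / b ^ i - y) := by
    rw [Nat.mul_sub]; omega
  refine ⟨o, ?_, hoM, ?_, ?_, ?_, ?_, ?_⟩
  · have := Nat.mul_le_mul_left (b ^ i) hyn
    omega
  · calc b ^ i = b ^ i * 1 := (mul_one _).symm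
      _ ≤ b ^ i * y := Nat.mul_le_mul_left _ (by omega)
      _ ≤ o := le_of_le_of_eq (Nat.le_add_right _ _) hoy.symm
  · calc o < b ^ i * y + b ^ i := by omega
      _ = b ^ i * (y + 1) := by ring
      _ ≤ b ^ i * b := Nat.mul_le_mul_left _ (by omega)
      _ = b ^ (i + 1) := (pow_succ b i).symm
  · rw [← hy]; exact c1
  · rw [hno]; exact Dvd.intro _ rfl
  · rw [hno, Nat.mul_div_cancel_left _ hB]
    have e : n / b ^ i - y = (d - y) + b * (n / b ^ i / b) := by omega
    rw [e, Nat.add_mul_mod_self_left, Nat.mod_eq_of_lt (by omega)]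
    exact c3

/-! ### the gadget -/

/-- `n` violates one of the conditions -/
def Bd (Ms : Finset ℕ) (w b m : ℕ) (n : ℕ) : Prop :=
  (∃ p ∈ Ms, p ∣ n) ∨ ∃ j < m, (n / b ^ j) % b < w ∨ b < (n / b ^ j) % b + w

theorem core (S V : Type*) [Monoid S] [Finite S] [AddCommGroup V] [Finite V] (act : V → S → V) :
    ∃ m r : ℕ, 0 < m ∧ ∀ B : ℕ, ∃ Ms : Finset ℕ, Ms.card ≤ r ∧ (∀ p ∈ Ms, p.Prime ∧ B < p) ∧
      ∀ M, M = ∏ p ∈ Ms, p → ∀ b, Nat.Coprime M b → 4 * M + 8 ≤ b →
      ∀ {A : Type*} (φ : List A → S), (∀ u v, φ (u ++ v) = φ u * φ v) →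
      ∃ (lam rho : List A → Option V) (nu : List A → V),
        (∀ p v, lam p = some v → p.length < b ^ m) ∧
        (∀ p q v c, lam p = some v → rho q = some c → c = act v (φ (p ++ q)) + nu (p ++ q)) ∧
        (∀ u, ¬ Bd Ms (M + 2) b m u.length → ∀ v, ∃ p q, p ++ q = u ∧ lam p = some v ∧
          (rho q).isSome) ∧
        (∀ q q', b ^ m ≤ q.length → b ^ m ≤ q'.length → q.take (b ^ m) = q'.take (b ^ m) →
          q.length % (M * b ^ m) = q'.length % (M * b ^ m) →
          φ (q.drop (b ^ m)) = φ (q'.drop (b ^ m)) → rho q = rho q' ∧ nu q = nu q') := by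
  classical
  obtain ⟨m, r, hm, hU⟩ := UG219.ugadget2 S V act
  refine ⟨m, r, hm, fun B => ?_⟩
  obtain ⟨Ms, L, R, D, hcard, hp, hLper, hRper, hRcong, hsound, hcomp⟩ := hU B
  refine ⟨Ms, hcard, hp, ?_⟩
  intro M hMM b hco hb A φ hφ
  rw [← hMM] at hLper hRper hcomp
  have hM : 0 < M := by rw [hMM]; exact Finset.prod_pos (fun p h => (hp p h).1.pos)
  have hb0 : 0 < b := by omega
  have hb1 : 1 < b := by omega
  have hLper' : ∀ i x zl t k, L i x zl (t + M * k) = L i x zl t := by
    intro i x zl t k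
    induction k with
    | zero => simp
    | succ k ih => rw [Nat.mul_succ, ← add_assoc, hLper, ih]
  have hRper' : ∀ vw t k, R vw (t + M * k) = R vw t := by
    intro vw t k
    induction k with
    | zero => simp
    | succ k ih => rw [Nat.mul_succ, ← add_assoc, hRper, ih]
  have hLmod : ∀ i x zl t, L i x zl (t % M) = L i x zl t := by
    intro i x zl t
    conv_rhs => rw [← Nat.mod_add_div t M]
    rw [hLper']
  have hRmod : ∀ vw t, R vw (t % M) = R vw t := by
    intro vw t
    conv_rhs => rw [← Nat.mod_add_div t M]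
    rw [hRper']
  let vw : List A → ℕ → Option (List S × S) := fun Q i =>
    if b ^ i ∣ Q.length ∧ 2 * ((Q.length / b ^ i) % b) < b then
      some (((List.range m).drop (i + 1)).map (sg φ b Q), ys φ b m Q) else none
  let lam : List A → Option V := fun P =>
    if P.length ≠ 0 ∧ Nat.log b P.length < m ∧ 2 * (P.length / b ^ (Nat.log b P.length)) < b then
      L (Nat.log b P.length) (φ []) ((List.range (Nat.log b P.length)).map (sg φ b P)) P.length
    else none
  let rho : List A → Option V := fun Q => R (vw Q) Q.length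
  let nu : List A → V := fun X => D (X.length % M + M) (φ []) (zs φ b m X) (ys φ b m X)
  refine ⟨lam, rho, nu, ?_, ?_, ?_, ?_⟩
  · intro p v h
    by_cases hc : p.length ≠ 0 ∧ Nat.log b p.length < m ∧
        2 * (p.length / b ^ (Nat.log b p.length)) < b
    · have h1 := Nat.lt_pow_succ_log_self hb1 p.length
      exact lt_of_lt_of_le h1 (Nat.pow_le_pow_right hb0 hc.2.1)
    · simp only [lam, if_neg hc] at h
      exact absurd h (by simp)
  · intro p q v c h1 h2
    by_cases hc : p.length ≠ 0 ∧ Nat.log b p.length < m ∧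
        2 * (p.length / b ^ (Nat.log b p.length)) < b
    · simp only [lam, if_pos hc] at h1
      obtain ⟨i, hi⟩ : ∃ i, i = Nat.log b p.length := ⟨_, rfl⟩
      rw [← hi] at h1 hc
      obtain ⟨-, him, ho⟩ := hc
      -- normalised clocks
      obtain ⟨t', ht'1, ht'2⟩ : ∃ t', t' % M = q.length % M ∧
          p.length % M + t' = (p.length + q.length) % M + M := by
        have a1 := Nat.mod_lt p.length hM
        have a2 := Nat.mod_lt q.length hM
        by_cases hlt : p.length % M + q.length % M < M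
        · refine ⟨q.length % M + M, by rw [Nat.add_mod_right, Nat.mod_mod], ?_⟩
          rw [Nat.add_mod, Nat.mod_eq_of_lt hlt]; omega
        · refine ⟨q.length % M, Nat.mod_mod _ _, ?_⟩
          have e1 : (p.length % M + q.length % M) % M = p.length % M + q.length % M - M := by
            rw [Nat.mod_eq_sub_mod (by omega),
              Nat.mod_eq_of_lt (by omega : p.length % M + q.length % M - M < M)]
          rw [Nat.add_mod, e1]; omega
      have h1' : L i (φ []) ((List.range i).map (sg φ b p)) (p.length % M) = some v := by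
        rw [hLmod]; exact h1
      have h2' : R (vw q) t' = some c := by
        rw [← hRmod, ht'1, hRmod]; exact h2
      have key := hsound i (p.length % M) t' (φ []) ((List.range i).map (sg φ b p)) (φ [])
        (zs φ b m (p ++ q)) (ys φ b m (p ++ q)) (vw q) v c him (length_zs b m _) ?_ h1' h2'
      · rw [key, prod_all hφ hb0, ht'2]
        show _ = act v (φ (p ++ q)) + D ((p ++ q).length % M + M) (φ []) (zs φ b m (p ++ q))
          (ys φ b m (p ++ q))
        rw [List.length_append]
      · intro x hx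
        by_cases hv : b ^ i ∣ q.length ∧ 2 * ((q.length / b ^ i) % b) < b
        · simp only [vw, if_pos hv, Option.some.injEq] at hx
          refine ⟨rfl, take_zs him.le hv.1, ?_⟩
          rw [← hx, drop_zs hb0 ho hv.1 hv.2, ys_eq hb0 ho hv.1 hv.2 him]
        · simp only [vw, if_neg hv] at hx
          exact absurd hx (by simp)
    · simp only [lam, if_neg hc] at h1
      exact absurd h1 (by simp)
  · intro u hu v
    have hu1 : ∀ p ∈ Ms, ¬ p ∣ u.length := fun p h1 h2 => hu (Or.inl ⟨p, h1, h2⟩)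
    have hu2 : ∀ j < m, M + 2 ≤ (u.length / b ^ j) % b ∧ (u.length / b ^ j) % b + M + 2 ≤ b := by
      intro j hj
      constructor
      · by_contra hc; exact hu (Or.inr ⟨j, hj, Or.inl (by omega)⟩)
      · by_contra hc; exact hu (Or.inr ⟨j, hj, Or.inr (by omega)⟩)
    have hMu : M ≤ u.length + 1 := by
      have h0 := (hu2 0 hm).1
      rw [pow_zero, Nat.div_one] at h0
      have := Nat.mod_le u.length b
      omega
    obtain ⟨i, him, hci⟩ := hcomp u.length (φ []) (zs φ b m u) (ys φ b m u) v (length_zs b m _) hu1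
    obtain ⟨t0, -, -, ht0, hL, hR⟩ := hci 0 (by omega)
    obtain ⟨o, ho1, ho2, ho3, ho4, ho5, ho6, ho7⟩ := window (t0 := t0) (m := m) hM hco hb
      (hu2 i him).1 (hu2 i him).2
    have hlen : (u.take o).length = o := by rw [List.length_take]; omega
    have hlen' : (u.drop o).length = u.length - o := by rw [List.length_drop]
    have hlog : Nat.log b o = i := Nat.log_eq_of_pow_le_of_lt_pow ho3 ho4
    have ho0 : o ≠ 0 := by have := pow_pos hb0 i; omega
    have hv : b ^ i ∣ (u.drop o).length ∧ 2 * (((u.drop o).length / b ^ i) % b) < b := by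
      rw [hlen']; exact ⟨ho6, ho7⟩
    have ho5' : 2 * ((u.take o).length / b ^ i) < b := by rw [hlen]; exact ho5
    have hvw : vw (u.drop o) i = some ((zs φ b m u).drop (i + 1), ys φ b m u) := by
      simp only [vw, if_pos hv]
      rw [drop_zs hb0 ho5' hv.1 hv.2, ys_eq hb0 ho5' hv.1 hv.2 him, List.take_append_drop]
    have hzl : (List.range i).map (sg φ b (u.take o)) = (zs φ b m u).take i := by
      rw [take_zs him.le hv.1, List.take_append_drop]
    refine ⟨u.take o, u.drop o, List.take_append_drop _ _, ?_, ?_⟩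
    · simp only [lam, hlen, hlog]
      rw [if_pos ⟨ho0, him, ho5⟩, hzl, ← hLmod, ho2, hLmod]
      exact hL
    · obtain ⟨c, hc⟩ := hR (vw (u.drop o)) hvw
      have e : (u.length - o) % M = (u.length - t0) % M := by
        have h1 : (u.length - o) + o = (u.length - t0) + t0 := by omega
        have h2 : (u.length - o) + o ≡ (u.length - t0) + t0 [MOD M] := by rw [h1]
        exact Nat.ModEq.add_right_cancel (show o ≡ t0 [MOD M] from ho2) h2
      show (R (vw (u.drop o)) (u.drop o).length).isSome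
      rw [hlen', ← hRmod, e, hRmod, hc]
      rfl
  · intro q q' hq hq' htake hlen hdrop
    have hmodb : ∀ j ≤ m, q.length % b ^ j = q'.length % b ^ j := fun j hj =>
      Names_570.mod_of_dvd_mod (dvd_mul_of_dvd_right (pow_dvd_pow b hj) _) hlen
    have hmodM : q.length % M = q'.length % M := Names_570.mod_of_dvd_mod (Dvd.intro _ rfl) hlen
    have hseg : ∀ j < m, sg φ b q j = sg φ b q' j := by
      intro j hj
      rw [sg, sg, hmodb j hj.le, hmodb (j + 1) hj]
      congr 2
      have hle : q'.length % b ^ (j + 1) ≤ b ^ m := by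
        have h1 := Nat.mod_lt q'.length (pow_pos hb0 (j + 1))
        have h2 : b ^ (j + 1) ≤ b ^ m := Nat.pow_le_pow_right hb0 hj
        omega
      calc q.take (q'.length % b ^ (j + 1)) = (q.take (b ^ m)).take (q'.length % b ^ (j + 1)) := by
            rw [List.take_take, min_eq_left hle]
        _ = (q'.take (b ^ m)).take (q'.length % b ^ (j + 1)) := by rw [htake]
        _ = q'.take (q'.length % b ^ (j + 1)) := by rw [List.take_take, min_eq_left hle]
    have hys : ys φ b m q = ys φ b m q' := by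
      rw [ys, ys, hmodb m le_rfl]
      have hle : q'.length % b ^ m ≤ b ^ m := (Nat.mod_lt _ (pow_pos hb0 m)).le
      have e : ∀ x : List A, b ^ m ≤ x.length → x.drop (q'.length % b ^ m) =
          (x.take (b ^ m)).drop (q'.length % b ^ m) ++ x.drop (b ^ m) := by
        intro x hx
        conv_lhs => rw [← List.take_append_drop (b ^ m) x]
        rw [List.drop_append_of_le_length (by rw [List.length_take]; omega)]
      rw [e q hq, e q' hq', hφ, hφ, htake, hdrop]
    have hvw : ∀ i < m, vw q i = vw q' i := by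
      intro i hi
      have h1 : (b ^ i ∣ q.length ∧ 2 * ((q.length / b ^ i) % b) < b) ↔
          (b ^ i ∣ q'.length ∧ 2 * ((q'.length / b ^ i) % b) < b) := by
        have e : ∀ n : ℕ, (n / b ^ i) % b = (n % b ^ (i + 1)) / b ^ i := by
          intro n
          rw [pow_succ, Nat.mod_mul_right_div_self]
        rw [Nat.dvd_iff_mod_eq_zero, Nat.dvd_iff_mod_eq_zero, e, e, hmodb i hi.le, hmodb (i + 1) hi]
      have h2 : ((List.range m).drop (i + 1)).map (sg φ b q) =
          ((List.range m).drop (i + 1)).map (sg φ b q') := by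
        apply List.map_congr_left
        intro j hj
        exact hseg j (List.mem_range.1 (List.mem_of_mem_drop hj))
      simp only [vw, h1, h2, hys]
    have hzs : zs φ b m q = zs φ b m q' := by
      rw [zs, zs]
      apply List.map_congr_left
      intro j hj
      exact hseg j (List.mem_range.1 hj)
    constructor
    · show R (vw q) q.length = R (vw q') q'.length
      rw [← hRmod, hmodM, hRmod]
      exact hRcong _ _ _ hvw
    · show D (q.length % M + M) (φ []) (zs φ b m q) (ys φ b m q) =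
        D (q'.length % M + M) (φ []) (zs φ b m q') (ys φ b m q')
      rw [hmodM, hzs, hys]

end Crest.Agent.R320.Dig_161
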