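import Crest.Agent.R320.S1_5

/-!
Row 320: (S1b) of helper5 #13143, run-proof version (all words): if no small wall is near the two ends
of the hole windows, the right data do not depend on the candidate clock.  (helper406)
-/

set_option autoImplicit false

namespace Crest.Agent.R320.DoubtRun_406

open Crest.Agent.R320.S1_5

variable {α S V Wt Nm : Type*}

/-- value of the factor `[a,b)` -/
def fv [Monoid S] (φ : α → S) (U : List α) (a b : ℕ) : S := ph φ ((U.drop a).take (b - a))

theorem fv_mul [Monoid S] (φ : α → S) (U : List α) {a b c : ℕ} (h1 : a ≤ b) (h2 : b ≤ c) :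
    fv φ U a c = fv φ U a b * fv φ U b c := by
  unfold fv
  rw [← ph_append]
  congr 1
  obtain ⟨k, rfl⟩ := Nat.exists_eq_add_of_le h1
  obtain ⟨l, rfl⟩ := Nat.exists_eq_add_of_le h2
  have e1 : a + k + l - a = k + l := by omega
  have e2 : a + k - a = k := by omega
  have e3 : a + k + l - (a + k) = l := by omega
  rw [e1, e2, e3, List.take_add, List.drop_drop]

theorem fv_congr [Monoid S] (φ : α → S) (U : List α) {a b n : ℕ}
    (h : ∀ i, i < n → U[a + i]? = U[b + i]?) : fv φ U a (a + n) = fv φ U b (b + n) := by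
  unfold fv
  congr 1
  have e1 : a + n - a = n := by omega
  have e2 : b + n - b = n := by omega
  rw [e1, e2]
  apply List.ext_getElem?
  intro i
  by_cases hi : i < n
  · rw [List.getElem?_take_of_lt hi, List.getElem?_take_of_lt hi, List.getElem?_drop,
      List.getElem?_drop]
    exact h i hi
  · push Not at hi
    rw [List.getElem?_eq_none (by rw [List.length_take]; omega),
      List.getElem?_eq_none (by rw [List.length_take]; omega)]

/-- the text has period `P` on `[a,b)` -/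
def Per (U : List α) (P a b : ℕ) : Prop := ∀ i, a ≤ i → i < b → U[i]? = U[i + P]?

theorem fv_block [Monoid S] (φ : α → S) (U : List α) {P a : ℕ} (j : ℕ)
    (h : Per U P a (a + P * j)) : fv φ U (a + P * j) (a + P * j + P) = fv φ U a (a + P) := by
  induction j with
  | zero => simp
  | succ j ih =>
    rw [← ih (fun i h1 h2 => h i h1 (by rw [Nat.mul_succ]; omega))]
    refine fv_congr φ U fun i hi => ?_
    have h1 := h (a + P * j + i) (by omega) (by rw [Nat.mul_succ]; omega)
    rw [h1]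
    congr 1
    rw [Nat.mul_succ]
    omega

theorem fv_pow [Monoid S] (φ : α → S) (U : List α) {P a : ℕ} (n : ℕ)
    (h : Per U P a (a + P * n)) : fv φ U a (a + P * n) = (fv φ U a (a + P)) ^ n := by
  induction n with
  | zero => simp [fv, ph]
  | succ n ih =>
    have h' : Per U P a (a + P * n) := fun i h1 h2 => h i h1 (by rw [Nat.mul_succ]; omega)
    rw [pow_succ, ← ih h', ← fv_block φ U n h', Nat.mul_succ, ← Nat.add_assoc]
    exact fv_mul φ U (by omega) (by omega)

theorem pow_per [Monoid S] {k0 x : ℕ} (hx : ∀ z : S, z ^ (k0 + x) = z ^ k0) (z : S) (k : ℕ) :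
    z ^ (k0 + x * k) = z ^ k0 := by
  induction k with
  | zero => simp
  | succ k ih =>
    have : k0 + x * (k + 1) = (k0 + x) + x * k := by rw [Nat.mul_succ]; omega
    rw [this, pow_add, hx, ← pow_add, ih]

theorem fv_left [Monoid S] (φ : α → S) (U : List α) {P k0 x : ℕ}
    (hx : ∀ z : S, z ^ (k0 + x) = z ^ k0) {a b k : ℕ}
    (h : Per U P a (a + P * (x * k) + P * k0)) (hb : a + P * (x * k) + P * k0 ≤ b) :
    fv φ U (a + P * (x * k)) b = fv φ U a b := by
  have e : a + P * (x * k) + P * k0 = a + P * (k0 + x * k) := by ring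
  have h1 : Per U P a (a + P * (k0 + x * k)) := by rw [← e]; exact h
  have h2 : Per U P (a + P * (x * k)) (a + P * (x * k) + P * k0) :=
    fun i i1 i2 => h i (by omega) i2
  rw [fv_mul φ U (by omega : a ≤ a + P * (x * k) + P * k0) hb,
    fv_mul φ U (by omega : a + P * (x * k) ≤ a + P * (x * k) + P * k0) hb,
    fv_pow φ U k0 h2, fv_block φ U (x * k) (fun i i1 i2 => h i i1 (by omega)), e,
    fv_pow φ U _ h1, pow_per hx]

theorem fv_right [Monoid S] (φ : α → S) (U : List α) {P k0 x : ℕ}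
    (hx : ∀ z : S, z ^ (k0 + x) = z ^ k0) {a b k : ℕ} (hab : a ≤ b)
    (h : Per U P b (b + P * k0 + P * (x * k))) :
    fv φ U a (b + P * k0 + P * (x * k)) = fv φ U a (b + P * k0) := by
  have e : b + P * k0 + P * (x * k) = b + P * (k0 + x * k) := by ring
  have h1 : Per U P b (b + P * (k0 + x * k)) := by rw [← e]; exact h
  have h2 : Per U P b (b + P * k0) := fun i i1 i2 => h i i1 (by omega)
  rw [fv_mul φ U hab (by omega : b ≤ b + P * k0 + P * (x * k)),
    fv_mul φ U hab (by omega : b ≤ b + P * k0), fv_pow φ U k0 h2, e, fv_pow φ U _ h1,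
    pow_per hx]

/-- one end may be moved -/
def SimL (U : List α) (P k0 x h h' : ℕ) : Prop :=
  ∃ k, h' = h + P * (x * k) ∧ P * k0 ≤ h ∧ Per U P (h - P * k0) (h' + P * k0)

def Sim (U : List α) (P k0 x h h' : ℕ) : Prop :=
  h = h' ∨ SimL U P k0 x h h' ∨ SimL U P k0 x h' h

theorem SimL.left [Monoid S] (φ : α → S) {U : List α} {P k0 x : ℕ}
    (hx : ∀ z : S, z ^ (k0 + x) = z ^ k0) {h h' b : ℕ} (hs : SimL U P k0 x h h')
    (hb : h' + P * k0 ≤ b) : fv φ U h' b = fv φ U h b := by
  obtain ⟨k, rfl, h2, h3⟩ := hs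
  exact fv_left φ U hx (fun i i1 i2 => h3 i (by omega) i2) hb

theorem SimL.right [Monoid S] (φ : α → S) {U : List α} {P k0 x : ℕ}
    (hx : ∀ z : S, z ^ (k0 + x) = z ^ k0) {h h' a : ℕ} (hs : SimL U P k0 x h h')
    (ha : a + P * k0 ≤ h) : fv φ U a h' = fv φ U a h := by
  obtain ⟨k, rfl, h2, h3⟩ := hs
  obtain ⟨b, rfl⟩ : ∃ b, h = b + P * k0 := ⟨h - P * k0, by omega⟩
  exact fv_right φ U hx (by omega) (fun i i1 i2 => h3 i (by omega) (by omega))

theorem Sim.left [Monoid S] (φ : α → S) {U : List α} {P k0 x : ℕ}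
    (hx : ∀ z : S, z ^ (k0 + x) = z ^ k0) {h h' b : ℕ} (hs : Sim U P k0 x h h')
    (hb : h + P * k0 ≤ b) (hb' : h' + P * k0 ≤ b) : fv φ U h' b = fv φ U h b := by
  rcases hs with rfl | hs | hs
  · rfl
  · exact hs.left φ hx hb'
  · exact (hs.left φ hx hb).symm

theorem Sim.right [Monoid S] (φ : α → S) {U : List α} {P k0 x : ℕ}
    (hx : ∀ z : S, z ^ (k0 + x) = z ^ k0) {h h' a : ℕ} (hs : Sim U P k0 x h h')
    (ha : a + P * k0 ≤ h) (ha' : a + P * k0 ≤ h') : fv φ U a h' = fv φ U a h := by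
  rcases hs with rfl | hs | hs
  · rfl
  · exact hs.right φ hx ha
  · exact (hs.right φ hx ha').symm

/-- the hole end is the same or both are in a wall free stretch. -/
theorem hp_cases (Ws : List α → Prop) (G D : ℕ) (U : List α) {κ κ' w : ℕ} (h1 : κ ≤ κ' + w)
    (h2 : κ' ≤ κ + w)
    (hc1 : ∀ t, t ≤ U.length → Ws (U.take t) → κ ≤ t + w → t ≤ κ + w → False)
    (hc2 : ∀ t, t ≤ U.length → Ws (U.take t) → κ + G ≤ t + w → t ≤ κ + G + w → False) :
    hp Ws G D U κ' = hp Ws G D U κ ∨ (hp Ws G D U κ = κ + D ∧ hp Ws G D U κ' = κ' + D ∧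
      ∀ t, t ≤ U.length → κ ≤ t + w → t ≤ κ + G + w → ¬ Ws (U.take t)) := by
  classical
  by_cases h : ∃ t, κ ≤ t ∧ t ≤ κ + G ∧ t ≤ U.length ∧ Ws (U.take t)
  · left
    obtain ⟨a1, a2, a3, a4⟩ := Nat.find_spec h
    have b1 : κ + w < Nat.find h := by
      by_contra hn
      exact hc1 _ a3 a4 (by omega) (by omega)
    have b2 : Nat.find h + w < κ + G := by
      by_contra hn
      exact hc2 _ a3 a4 (by omega) (by omega)
    have h' : ∃ t, κ' ≤ t ∧ t ≤ κ' + G ∧ t ≤ U.length ∧ Ws (U.take t) :=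
      ⟨Nat.find h, by omega, by omega, a3, a4⟩
    obtain ⟨c1, c2, c3, c4⟩ := Nat.find_spec h'
    have d1 : Nat.find h' ≤ Nat.find h := Nat.find_min' h' ⟨by omega, by omega, a3, a4⟩
    have d2 : κ ≤ Nat.find h' := by
      by_contra hn
      exact hc1 _ c3 c4 (by omega) (by omega)
    have d3 : Nat.find h ≤ Nat.find h' := Nat.find_min' h ⟨d2, by omega, c3, c4⟩
    unfold hp
    rw [dif_pos h, dif_pos h']
    omega
  · right
    have key : ∀ t, t ≤ U.length → κ ≤ t + w → t ≤ κ + G + w → ¬ Ws (U.take t) := by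
      intro t h3 h4 h5 h6
      by_cases h7 : t < κ
      · exact hc1 t h3 h6 h4 (by omega)
      · by_cases h8 : κ + G < t
        · exact hc2 t h3 h6 (by omega) h5
        · exact h ⟨t, by omega, by omega, h3, h6⟩
    have h' : ¬ ∃ t, κ' ≤ t ∧ t ≤ κ' + G ∧ t ≤ U.length ∧ Ws (U.take t) := by
      rintro ⟨t, c1, c2, c3, c4⟩
      exact key t c3 (by omega) (by omega) c4
    refine ⟨?_, ?_, key⟩
    · unfold hp; rw [dif_neg h]
    · unfold hp; rw [dif_neg h']

section main

variable [Monoid S] [AddCommGroup V] [AddCommGroup Wt] {p : Par α S V Wt Nm}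

/-- **(S1b), all words.** -/
theorem hdoubt_run (h : Ok p) (Y : List α) (w Pd x k0 c : ℕ)
    (hx : ∀ z : S, z ^ (k0 + x) = z ^ k0) (hMq : Pd * x ∣ p.Mq)
    (hcw : ∀ i om om', p.cell i om → p.cell i om' → p.Mq * om ≤ p.Mq * om' + w)
    (hcr : ∀ i om, p.cell i om → p.Mq * om + p.ns + w ≤ p.B (i + 1))
    (hD1 : 2 * w + Pd * k0 + c ≤ p.D) (hD2 : p.D + 2 * w + Pd * k0 + c ≤ p.G)
    (hclean : ∀ j, 1 ≤ j → j ≤ p.m → ∀ t, t ≤ Y.length → p.Ws (Y.take t) →
      ¬ (p.B j ≤ t + w ∧ t ≤ p.B j + w) ∧ ¬ (p.B j + p.G ≤ t + w ∧ t ≤ p.B j + p.G + w))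
    (hlen : p.B p.m + p.G + w + Pd * k0 ≤ Y.length)
    (hper : ∀ i, c ≤ i → i + c ≤ Y.length → (∀ t, i ≤ t + c → t ≤ i + c → ¬ p.Ws (Y.take t)) →
      Y[i]? = Y[i + Pd]?) :
    ∀ i < p.m, ∀ om om', p.cell i om → p.cell i om' → p.Mq * om ≤ Y.length →
      ph p.φ ((Y.drop (p.Mq * om)).drop (H p (Y.drop (p.Mq * om)) (p.Mq * om') (i + 1))) =
        ph p.φ ((Y.drop (p.Mq * om)).drop (H p (Y.drop (p.Mq * om)) (p.Mq * om) (i + 1))) ∧
      wt p (Y.drop (p.Mq * om)) (p.Mq * om') (i + 1) p.m =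
        wt p (Y.drop (p.Mq * om)) (p.Mq * om) (i + 1) p.m := by
  intro i hi om om' hc hc' hom
  set U := Y.drop (p.Mq * om) with hU
  have hUl : U.length = Y.length - p.Mq * om := by rw [hU, List.length_drop]
  have w1 := hcw i om om' hc hc'
  have w2 := hcw i om' om hc' hc
  have r1 := hcr i om hc
  have r2 := hcr i om' hc'
  -- walls of U
  have hwall : ∀ t, p.ns ≤ t → t ≤ U.length → (p.Ws (U.take t) ↔ p.Ws (Y.take (p.Mq * om + t))) := by
    intro t h1 h2
    have e : Y.take (p.Mq * om + t) = Y.take (p.Mq * om) ++ U.take t := by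
      rw [List.take_add]
    rw [e]
    exact (h.loc _ _ (by rw [List.length_take]; omega)).symm
  -- the holes
  have hmono : ∀ j, i + 1 ≤ j → p.B (i + 1) ≤ p.B j := fun j hj => h.B_mono hj
  have hBm : ∀ j, j ≤ p.m → p.B j ≤ p.B p.m := fun j hj => h.B_mono hj
  have hsim : ∀ j, i + 1 ≤ j → j ≤ p.m →
      Sim U Pd k0 x (H p U (p.Mq * om) j) (H p U (p.Mq * om') j) ∧
      (H p U (p.Mq * om') j ≤ p.B j - p.Mq * om + p.G + w) ∧
      (p.B j - p.Mq * om ≤ H p U (p.Mq * om') j + w) ∧
      (H p U (p.Mq * om) j ≠ H p U (p.Mq * om') j →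
        H p U (p.Mq * om) j = p.B j - p.Mq * om + p.D ∧
        H p U (p.Mq * om') j = p.B j - p.Mq * om' + p.D) := by
    intro j h1 h2
    have m1 := hmono j h1
    have m2 := hBm j h2
    set κ := p.B j - p.Mq * om with hκ
    set κ' := p.B j - p.Mq * om' with hκ'
    have k1 : κ ≤ κ' + w := by omega
    have k2 : κ' ≤ κ + w := by omega
    have b1 := hp_bounds p.Ws p.G p.D U κ' h.hD
    refine ⟨?_, ?_, ?_, ?_⟩
    rotate_left
    · show hp _ _ _ _ _ ≤ _
      rw [← hκ']; omega
    · show _ ≤ hp _ _ _ _ _ + _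
      rw [← hκ']; omega
    all_goals
      have hcs := hp_cases p.Ws p.G p.D U k1 k2
        (fun t t1 t2 t3 t4 => (hclean j (by omega) h2 (p.Mq * om + t) (by omega)
          ((hwall t (by omega) t1).1 t2)).1 ⟨by omega, by omega⟩)
        (fun t t1 t2 t3 t4 => (hclean j (by omega) h2 (p.Mq * om + t) (by omega)
          ((hwall t (by omega) t1).1 t2)).2 ⟨by omega, by omega⟩)
    · intro hne
      rcases hcs with hcs | ⟨hcs1, hcs2, -⟩
      · exact absurd hcs.symm hne
      · exact ⟨hcs1, hcs2⟩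
    · rcases hcs with hcs | ⟨hcs1, hcs2, hcs3⟩
      · exact Or.inl hcs.symm
      · right
        have hH1 : H p U (p.Mq * om) j = κ + p.D := hcs1
        have hH2 : H p U (p.Mq * om') j = κ' + p.D := hcs2
        rw [hH1, hH2]
        -- periodic stretch
        have hPer : Per U Pd (κ + p.D - w - Pd * k0) (κ + p.D + w + Pd * k0) := by
          intro i' i1 i2
          have e1 : U[i']? = Y[p.Mq * om + i']? := by rw [hU, List.getElem?_drop]
          have e2 : U[i' + Pd]? = Y[p.Mq * om + i' + Pd]? := by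
            rw [hU, List.getElem?_drop, Nat.add_assoc]
          rw [e1, e2]
          refine hper _ (by omega) (by omega) (fun t t1 t2 t3 => ?_)
          obtain ⟨t', rfl⟩ : ∃ t', t = p.Mq * om + t' := ⟨t - p.Mq * om, by omega⟩
          exact hcs3 t' (by omega) (by omega) (by omega)
            ((hwall t' (by omega) (by omega)).2 t3)
        obtain ⟨q, hq⟩ := hMq
        rcases le_total om om' with hle | hle
        · right
          obtain ⟨d, rfl⟩ := Nat.exists_eq_add_of_le hle
          have e : p.Mq * (om + d) = p.Mq * om + Pd * (x * (q * d)) := by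
            rw [Nat.mul_add]; congr 1; rw [hq]; ring
          refine ⟨q * d, by omega, by omega, fun i' i1 i2 => hPer i' (by omega) (by omega)⟩
        · left
          obtain ⟨d, rfl⟩ := Nat.exists_eq_add_of_le hle
          have e : p.Mq * (om' + d) = p.Mq * om' + Pd * (x * (q * d)) := by
            rw [Nat.mul_add]; congr 1; rw [hq]; ring
          refine ⟨q * d, by omega, by omega, fun i' i1 i2 => hPer i' (by omega) (by omega)⟩
  have hb0 : ∀ j, H p U (p.Mq * om) j ≤ p.B j - p.Mq * om + p.G ∧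
      p.B j - p.Mq * om ≤ H p U (p.Mq * om) j := by
    intro j
    have b1 := hp_bounds p.Ws p.G p.D U (p.B j - p.Mq * om) h.hD
    exact ⟨b1.2, b1.1⟩
  constructor
  · obtain ⟨s1, s2, s3, s4⟩ := hsim (i + 1) le_rfl (by omega)
    obtain ⟨s5, s6⟩ := hb0 (i + 1)
    have m1 := hBm (i + 1) (by omega)
    have hd : ∀ a, a ≤ U.length → ph p.φ (U.drop a) = fv p.φ U a U.length := by
      intro a ha
      unfold fv
      rw [List.take_of_length_le (by rw [List.length_drop])]
    rw [hd _ (by omega), hd _ (by omega)]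
    exact s1.left p.φ hx (by omega) (by omega)
  · unfold wt
    refine Finset.sum_congr rfl fun j hj => ?_
    obtain ⟨j1, j2⟩ := Finset.mem_Ico.1 hj
    obtain ⟨s1, s2, s3, s4⟩ := hsim j j1 (by omega)
    obtain ⟨s1', s2', s3', s4'⟩ := hsim (j + 1) (by omega) (by omega)
    obtain ⟨s5, s6⟩ := hb0 j
    obtain ⟨s5', s6'⟩ := hb0 (j + 1)
    have m0 := hmono j j1
    have m1 := h.B0 j
    have e : ∀ l, ph p.φ (seg p U l j) = fv p.φ U (H p U l j) (H p U l (j + 1)) := by
      intro l
      unfold seg fv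
      rw [List.drop_take]
    rw [e, e]
    congr 1
    -- move the right end, then the left end
    have t1 : fv p.φ U (H p U (p.Mq * om') j) (H p U (p.Mq * om') (j + 1)) =
        fv p.φ U (H p U (p.Mq * om') j) (H p U (p.Mq * om) (j + 1)) := by
      by_cases hne : H p U (p.Mq * om) (j + 1) = H p U (p.Mq * om') (j + 1)
      · rw [hne]
      · obtain ⟨u1, u2⟩ := s4' hne
        exact s1'.right p.φ hx (by omega) (by omega)
    have t2 : fv p.φ U (H p U (p.Mq * om') j) (H p U (p.Mq * om) (j + 1)) =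
        fv p.φ U (H p U (p.Mq * om) j) (H p U (p.Mq * om) (j + 1)) := by
      by_cases hne : H p U (p.Mq * om) j = H p U (p.Mq * om') j
      · rw [hne]
      · obtain ⟨u1, u2⟩ := s4 hne
        exact s1.left p.φ hx (by omega) (by omega)
    rw [t1, t2]

end main

end Crest.Agent.R320.DoubtRun_406
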