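import Crest.Agent.R320.S1_5

/-!
Row 320, leaf (S1b) of helper5: if no small wall is within `w` of a level boundary and small walls
are dense, the right data of scheme 1 do not depend on the candidate of the clock.
-/

set_option autoImplicit false

namespace Crest.Agent.R320.Doubt_108

open Crest.Agent.R320.S1_5

variable {α S V Wt Nm : Type*} [Monoid S] [AddCommGroup V] [AddCommGroup Wt]
variable {p : Par α S V Wt Nm}

/-- first walls from two nearby starting points agree -/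
theorem hp_eq (Ws : List α → Prop) (G D : ℕ) (U : List α) {k k' s0 : ℕ}
    (h0 : k ≤ s0) (h0' : k' ≤ s0) (h1 : s0 ≤ k + G) (h1' : s0 ≤ k' + G) (hl : s0 ≤ U.length)
    (hw : Ws (U.take s0))
    (hc : ∀ t, t ≤ U.length → Ws (U.take t) → k ≤ t → k' ≤ t)
    (hc' : ∀ t, t ≤ U.length → Ws (U.take t) → k' ≤ t → k ≤ t) :
    hp Ws G D U k = hp Ws G D U k' := by
  classical
  have e1 : ∃ t, k ≤ t ∧ t ≤ k + G ∧ t ≤ U.length ∧ Ws (U.take t) := ⟨s0, h0, h1, hl, hw⟩
  have e2 : ∃ t, k' ≤ t ∧ t ≤ k' + G ∧ t ≤ U.length ∧ Ws (U.take t) := ⟨s0, h0', h1', hl, hw⟩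
  unfold hp
  rw [dif_pos e1, dif_pos e2]
  have m1 : Nat.find e1 ≤ s0 := Nat.find_min' e1 ⟨h0, h1, hl, hw⟩
  have m2 : Nat.find e2 ≤ s0 := Nat.find_min' e2 ⟨h0', h1', hl, hw⟩
  apply le_antisymm
  · obtain ⟨a, b, c, d⟩ := Nat.find_spec e2
    exact Nat.find_min' e1 ⟨hc' _ c d a, by omega, c, d⟩
  · obtain ⟨a, b, c, d⟩ := Nat.find_spec e1
    exact Nat.find_min' e2 ⟨hc _ c d a, by omega, c, d⟩

/-- hole ends from two candidates of the clock agree -/
theorem H_eq (h : Ok p) (Y : List α) (w : ℕ)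
    (hcw : ∀ i om om', p.cell i om → p.cell i om' → p.Mq * om ≤ p.Mq * om' + w)
    (hcr : ∀ i om, p.cell i om → p.Mq * om + p.ns + w ≤ p.B (i + 1))
    (hclean : ∀ j, 1 ≤ j → j ≤ p.m → ∀ t ≤ Y.length, p.Ws (Y.take t) → p.B j ≤ t + w →
      t ≤ p.B j + w → False)
    (hdense : ∀ j, 1 ≤ j → j ≤ p.m → ∃ t, p.B j ≤ t ∧ t + w ≤ p.B j + p.G ∧ t ≤ Y.length ∧
      p.Ws (Y.take t))
    {i om om' j : ℕ} (hc : p.cell i om) (hc' : p.cell i om') (hY : p.Mq * om ≤ Y.length)
    (hij : i + 1 ≤ j) (hj : j ≤ p.m) :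
    H p (Y.drop (p.Mq * om)) (p.Mq * om') j = H p (Y.drop (p.Mq * om)) (p.Mq * om) j := by
  have hB := h.B_mono hij
  have a1 := hcr i om hc
  have a1' := hcr i om' hc'
  have a2 := hcw i om om' hc hc'
  have a3 := hcw i om' om hc' hc
  generalize p.Mq * om = l at *
  generalize p.Mq * om' = l' at *
  -- walls of the rest are walls of `Y`
  have hwall : ∀ t, p.ns ≤ t → t ≤ (Y.drop l).length →
      (p.Ws ((Y.drop l).take t) ↔ p.Ws (Y.take (l + t))) := by
    intro t h1 h2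
    have e : Y.take (l + t) = Y.take l ++ (Y.drop l).take t := by
      rw [List.take_add]
    rw [e]
    exact (h.loc _ _ (by rw [List.length_take]; omega)).symm
  obtain ⟨t0, b1, b2, b3, b4⟩ := hdense j (by omega) hj
  have b5 : p.B j + w < t0 := by
    by_contra hcon
    exact hclean j (by omega) hj t0 b3 b4 (by omega) (by omega)
  have hlen : (Y.drop l).length = Y.length - l := List.length_drop
  unfold H
  refine hp_eq p.Ws p.G p.D (Y.drop l) (s0 := t0 - l) (by omega) (by omega) (by omega) (by omega)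
    (by omega) ?_ ?_ ?_
  · rw [hwall (t0 - l) (by omega) (by omega)]
    rwa [show l + (t0 - l) = t0 by omega]
  · intro t c1 c2 c3
    by_contra c4
    have c5 := (hwall t (by omega) c1).1 c2
    exact hclean j (by omega) hj (l + t) (by omega) c5 (by omega) (by omega)
  · intro t c1 c2 c3
    by_contra c4
    have c5 := (hwall t (by omega) c1).1 c2
    exact hclean j (by omega) hj (l + t) (by omega) c5 (by omega) (by omega)

/-- **(S1b)**: the hypothesis `hdoubt` of `Ok.complete`. -/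
theorem hdoubt_of_clean (h : Ok p) (Y : List α) (w : ℕ)
    (hcw : ∀ i om om', p.cell i om → p.cell i om' → p.Mq * om ≤ p.Mq * om' + w)
    (hcr : ∀ i om, p.cell i om → p.Mq * om + p.ns + w ≤ p.B (i + 1))
    (hclean : ∀ j, 1 ≤ j → j ≤ p.m → ∀ t ≤ Y.length, p.Ws (Y.take t) → p.B j ≤ t + w →
      t ≤ p.B j + w → False)
    (hdense : ∀ j, 1 ≤ j → j ≤ p.m → ∃ t, p.B j ≤ t ∧ t + w ≤ p.B j + p.G ∧ t ≤ Y.length ∧
      p.Ws (Y.take t)) :
    ∀ i < p.m, ∀ om om', p.cell i om → p.cell i om' → p.Mq * om ≤ Y.length →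
      ph p.φ ((Y.drop (p.Mq * om)).drop (H p (Y.drop (p.Mq * om)) (p.Mq * om') (i + 1))) =
        ph p.φ ((Y.drop (p.Mq * om)).drop (H p (Y.drop (p.Mq * om)) (p.Mq * om) (i + 1))) ∧
      wt p (Y.drop (p.Mq * om)) (p.Mq * om') (i + 1) p.m =
        wt p (Y.drop (p.Mq * om)) (p.Mq * om) (i + 1) p.m := by
  intro i hi om om' hc hc' hY
  refine ⟨?_, ?_⟩
  · rw [H_eq h Y w hcw hcr hclean hdense hc hc' hY le_rfl (by omega)]
  · unfold wt
    refine Finset.sum_congr rfl fun j hj => ?_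
    obtain ⟨j1, j2⟩ := Finset.mem_Ico.1 hj
    unfold seg
    rw [H_eq h Y w hcw hcr hclean hdense hc hc' hY (show i + 1 ≤ j + 1 by omega) (by omega),
      H_eq h Y w hcw hcr hclean hdense hc hc' hY j1 (by omega)]

end Crest.Agent.R320.Doubt_108
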