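import Crest.Agent.R320.S1_5

/-!
Row 320 (helper174): leaf S1b of `S1_5` in the run-proof form.  Mode (D) off (no small wall within
`w` of a level boundary `B j` or of `B j + G`) implies that the right data of scheme 1 do not depend
on the candidate of the clock, also when there is no small wall in `[B j, B j + G]` (then the text is
`Pd`-periodic there and `Pd * e ∣ Mq`).
-/

set_option autoImplicit false

namespace Crest.Agent.R320.Doubt_174

open Crest.Agent.R320.S1_5

variable {α S V Wt Nm : Type*}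

section pr
variable [Monoid S] (φ : α → S)

/-- value of the factor `[a, b)` -/
def pr (U : List α) (a b : ℕ) : S := ph φ ((U.take b).drop a)

theorem pr_mul (U : List α) {a b c : ℕ} (h1 : a ≤ b) (h2 : b ≤ c) :
    pr φ U a b * pr φ U b c = pr φ U a c := by
  unfold pr
  rw [← ph_append]
  congr 1
  have e1 : (U.take b).drop a = ((U.take c).take b).drop a := by
    rw [List.take_take, min_eq_left h2]
  rw [e1]
  generalize U.take c = X
  have e2 : X.drop b = (X.drop a).drop (b - a) := by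
    rw [List.drop_drop]; congr 1; omega
  have e3 : (X.take b).drop a = (X.drop a).take (b - a) := by
    rw [List.drop_take]
  rw [e2, e3, List.take_append_drop]

theorem pr_shift (U : List α) {a P : ℕ} (h : ∀ x, a ≤ x → x < a + P → U[x]? = U[x + P]?) :
    pr φ U a (a + P) = pr φ U (a + P) (a + P + P) := by
  unfold pr
  congr 1
  apply List.ext_getElem?
  intro i
  rw [List.getElem?_drop, List.getElem?_drop, List.getElem?_take, List.getElem?_take]
  by_cases hi : i < P
  · rw [if_pos (by omega), if_pos (by omega), h (a + i) (by omega) (by omega)]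
    congr 1
    omega
  · rw [if_neg (by omega), if_neg (by omega)]

theorem pr_pow (U : List α) {P a b : ℕ} (hper : ∀ x, a ≤ x → x < b → U[x]? = U[x + P]?) :
    ∀ n, a + n * P ≤ b → (pr φ U a (a + n * P) = pr φ U a (a + P) ^ n) ∧
      pr φ U (a + n * P) (a + n * P + P) = pr φ U a (a + P) := by
  intro n
  induction n with
  | zero =>
    intro _
    refine ⟨?_, by simp⟩
    simp only [Nat.zero_mul, Nat.add_zero, pow_zero]
    unfold pr
    rw [List.drop_eq_nil_of_le (by rw [List.length_take]; omega)]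
    simp [ph]
  | succ n ih =>
    intro hn
    have e : a + (n + 1) * P = a + n * P + P := by ring
    rw [e] at hn ⊢
    obtain ⟨h1, h2⟩ := ih (by omega)
    refine ⟨?_, ?_⟩
    · rw [← pr_mul φ U (a := a) (b := a + n * P) (by omega) (by omega), h1, h2, pow_succ]
    · rw [← pr_shift φ U (fun x hx1 hx2 => hper x (by omega) (by omega)), h2]

theorem pow_eq {s : S} {N e : ℕ} (hS : ∀ n, N ≤ n → s ^ (n + e) = s ^ n) (k : ℕ) :
    ∀ n, N ≤ n → s ^ (n + e * k) = s ^ n := by
  induction k with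
  | zero => intro n _; simp
  | succ k ih =>
    intro n hn
    have : n + e * (k + 1) = (n + e * k) + e := by ring
    rw [this, hS _ (by omega), ih n hn]

/-- periodic region `[a0, b0)`; two ends deep inside it, congruent modulo `P * e` -/
theorem ends_le (U : List α) {P e N a0 b0 h h' : ℕ} (hS : ∀ s : S, ∀ n, N ≤ n → s ^ (n + e) = s ^ n)
    (hper : ∀ x, a0 ≤ x → x < b0 → U[x]? = U[x + P]?) {k : ℕ} (hk : h' = h + P * e * k)
    (h1 : a0 + N * P ≤ h) (h2 : h' + N * P ≤ b0) :
    (∀ b, b0 ≤ b → pr φ U h b = pr φ U h' b) ∧ (∀ a, a ≤ a0 → pr φ U a h = pr φ U a h') := by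
  constructor
  · intro b hb
    have q1 := pr_pow φ U (a := h) (b := b0) (P := P) (fun x hx1 hx2 => hper x (by omega) hx2)
    have q2 := pr_pow φ U (a := h') (b := b0) (P := P) (fun x hx1 hx2 => hper x (by omega) hx2)
    have e1 : h + (N + e * k) * P = h' + N * P := by rw [hk]; ring
    have e2 : h + (e * k) * P = h' := by rw [hk]; ring
    have z1 := (q1 (N + e * k) (by rw [e1]; exact h2)).1
    have z2 := (q1 (e * k) (by rw [e2]; omega)).2
    have z3 := (q2 N h2).1
    rw [e1] at z1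
    rw [e2] at z2
    rw [← pr_mul φ U (a := h) (b := h' + N * P) (by rw [← e1]; omega) (by omega),
      ← pr_mul φ U (a := h') (b := h' + N * P) (by omega) (by omega), z1, z3, z2,
      pow_eq (hS _) k N le_rfl]
  · intro a ha
    obtain ⟨g, hg⟩ : ∃ g, h = g + N * P := ⟨h - N * P, by omega⟩
    have q1 := pr_pow φ U (a := g) (b := b0) (P := P) (fun x hx1 hx2 => hper x (by omega) hx2)
    have e1 : g + (N + e * k) * P = h' := by rw [hk, hg]; ring
    have z1 := (q1 (N + e * k) (by rw [e1]; omega)).1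
    have z2 := (q1 N (by rw [← hg]; have : h ≤ h' := by rw [hk]; omega
                         omega)).1
    rw [e1] at z1
    rw [← hg] at z2
    rw [← pr_mul φ U (a := a) (b := g) (c := h) (by omega) (by omega),
      ← pr_mul φ U (a := a) (b := g) (c := h') (by omega) (by rw [← e1]; omega), z1, z2,
      pow_eq (hS _) k N le_rfl]

/-- two equivalent hole ends -/
def Eqv (U : List α) (B0 B1 h h' : ℕ) : Prop :=
  (B0 ≤ h ∧ h ≤ B1 ∧ B0 ≤ h' ∧ h' ≤ B1) ∧ (∀ b, B1 ≤ b → pr φ U h b = pr φ U h' b) ∧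
    (∀ a, a ≤ B0 → pr φ U a h = pr φ U a h')

theorem hp_eqv (Ws : List α → Prop) {G D : ℕ} (U : List α) {k k' w c N e Pd : ℕ}
    (hS : ∀ s : S, ∀ n, N ≤ n → s ^ (n + e) = s ^ n)
    (hw1 : k' ≤ k + w) (hw2 : k ≤ k' + w)
    (hcong : (∃ r, k' = k + Pd * e * r) ∨ (∃ r, k = k' + Pd * e * r))
    (hD1 : c + w + N * Pd ≤ D) (hD2 : D + w + N * Pd + c ≤ G)
    (hclean : ∀ t ≤ U.length, (k ≤ t ∨ k' ≤ t) → Ws (U.take t) →
      ¬ (k ≤ t + w ∧ t ≤ k + w) ∧ ¬ (k + G ≤ t + w ∧ t ≤ k + G + w))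
    (hper : (∀ t, k ≤ t → t ≤ k + G → t ≤ U.length → ¬ Ws (U.take t)) →
      ∀ x, k + c ≤ x → x + c < k + G → U[x]? = U[x + Pd]?) :
    Eqv φ U k (k + G) (hp Ws G D U k) (hp Ws G D U k') := by
  classical
  have key : ∀ t, t ≤ U.length → Ws (U.take t) →
      ((k ≤ t ∧ t ≤ k + G) ↔ (k' ≤ t ∧ t ≤ k' + G)) := by
    intro t h1 h2
    constructor
    · rintro ⟨h3, h4⟩
      obtain ⟨h5, h6⟩ := hclean t h1 (Or.inl h3) h2
      omega
    · rintro ⟨h3, h4⟩
      obtain ⟨h5, h6⟩ := hclean t h1 (Or.inr h3) h2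
      omega
  by_cases hw : ∃ t, k ≤ t ∧ t ≤ k + G ∧ t ≤ U.length ∧ Ws (U.take t)
  · have hw' : ∃ t, k' ≤ t ∧ t ≤ k' + G ∧ t ≤ U.length ∧ Ws (U.take t) := by
      obtain ⟨t, a, b, c1, d⟩ := hw
      obtain ⟨a', b'⟩ := (key t c1 d).1 ⟨a, b⟩
      exact ⟨t, a', b', c1, d⟩
    have e1 : hp Ws G D U k = hp Ws G D U k' := by
      unfold hp
      rw [dif_pos hw, dif_pos hw']
      apply le_antisymm
      · apply Nat.find_min'
        obtain ⟨a, b, c1, d⟩ := Nat.find_spec hw'
        obtain ⟨a', b'⟩ := (key _ c1 d).2 ⟨a, b⟩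
        exact ⟨a', b', c1, d⟩
      · apply Nat.find_min'
        obtain ⟨a, b, c1, d⟩ := Nat.find_spec hw
        obtain ⟨a', b'⟩ := (key _ c1 d).1 ⟨a, b⟩
        exact ⟨a', b', c1, d⟩
    have hb := hp_bounds Ws G D U k (by omega)
    exact ⟨⟨hb.1, hb.2, by rw [← e1]; exact hb.1, by rw [← e1]; exact hb.2⟩,
      fun b _ => by rw [e1], fun a _ => by rw [e1]⟩
  · have hw' : ¬ ∃ t, k' ≤ t ∧ t ≤ k' + G ∧ t ≤ U.length ∧ Ws (U.take t) := by
      rintro ⟨t, a, b, c1, d⟩
      obtain ⟨a', b'⟩ := (key t c1 d).2 ⟨a, b⟩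
      exact hw ⟨t, a', b', c1, d⟩
    have hper' := hper (fun t a b c1 d => hw ⟨t, a, b, c1, d⟩)
    have e1 : hp Ws G D U k = k + D := by unfold hp; rw [dif_neg hw]
    have e2 : hp Ws G D U k' = k' + D := by unfold hp; rw [dif_neg hw']
    rw [e1, e2]
    have hper2 : ∀ x, k + c ≤ x → x < k + G - c → U[x]? = U[x + Pd]? :=
      fun x h1 h2 => hper' x h1 (by omega)
    rcases hcong with ⟨r, hr⟩ | ⟨r, hr⟩
    · obtain ⟨q1, q2⟩ := ends_le φ U (h := k + D) (h' := k' + D) (k := r) hS hper2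
        (by rw [hr]; ring) (by omega) (by omega)
      exact ⟨by omega, fun b hb => q1 b (by omega), fun a ha => q2 a (by omega)⟩
    · obtain ⟨q1, q2⟩ := ends_le φ U (h := k' + D) (h' := k + D) (k := r) hS hper2
        (by rw [hr]; ring) (by omega) (by omega)
      exact ⟨by omega, fun b hb => (q1 b (by omega)).symm, fun a ha => (q2 a (by omega)).symm⟩

end pr

section main
variable [Monoid S] [AddCommGroup V] [AddCommGroup Wt] {p : Par α S V Wt Nm}

/-- **S1b, run-proof**: `hdoubt` of `Ok.complete`. -/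
theorem hdoubt_all (h : Ok p) (Y : List α) (w c N e Pd : ℕ)
    (hS : ∀ s : S, ∀ n, N ≤ n → s ^ (n + e) = s ^ n) (hPd : Pd * e ∣ p.Mq)
    (hcw : ∀ i om om', p.cell i om → p.cell i om' → p.Mq * om ≤ p.Mq * om' + w)
    (hD1 : c + w + N * Pd ≤ p.D) (hD2 : p.D + w + N * Pd + c ≤ p.G)
    (hlen : p.B p.m + p.G ≤ Y.length)
    (hclean : ∀ j, 1 ≤ j → j ≤ p.m → ∀ t ≤ Y.length, p.Ws (Y.take t) →
      ¬ (p.B j ≤ t + w ∧ t ≤ p.B j + w) ∧ ¬ (p.B j + p.G ≤ t + w ∧ t ≤ p.B j + p.G + w))
    (hper : ∀ j, 1 ≤ j → j ≤ p.m → (∀ t, p.B j ≤ t → t ≤ p.B j + p.G → ¬ p.Ws (Y.take t)) →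
      ∀ x, p.B j + c ≤ x → x + c < p.B j + p.G → Y[x]? = Y[x + Pd]?) :
    ∀ i < p.m, ∀ om om', p.cell i om → p.cell i om' → p.Mq * om ≤ Y.length →
      ph p.φ ((Y.drop (p.Mq * om)).drop (H p (Y.drop (p.Mq * om)) (p.Mq * om') (i + 1))) =
        ph p.φ ((Y.drop (p.Mq * om)).drop (H p (Y.drop (p.Mq * om)) (p.Mq * om) (i + 1))) ∧
      wt p (Y.drop (p.Mq * om)) (p.Mq * om') (i + 1) p.m =
        wt p (Y.drop (p.Mq * om)) (p.Mq * om) (i + 1) p.m := by
  intro i hi om om' hc hc' hq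
  set q0 := p.Mq * om with hq0
  set q1 := p.Mq * om' with hq1
  set U := Y.drop q0 with hU
  have hUl : U.length = Y.length - q0 := by rw [hU, List.length_drop]
  have hR0 := h.cellR i om hc
  have hR1 := h.cellR i om' hc'
  rw [← hq0] at hR0
  rw [← hq1] at hR1
  have hw1 := hcw i om om' hc hc'
  have hw2 := hcw i om' om hc' hc
  rw [← hq0, ← hq1] at hw1 hw2
  have hPl : (Y.take q0).length = q0 := by rw [List.length_take]; omega
  have hYe : Y.take q0 ++ U = Y := List.take_append_drop _ _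
  have htr : ∀ t, p.ns ≤ t → q0 + t ≤ Y.length → (p.Ws (Y.take (q0 + t)) ↔ p.Ws (U.take t)) := by
    intro t h1 h2
    have e1 : Y.take (q0 + t) = Y.take q0 ++ U.take t := by
      rw [hU, List.take_add]
    rw [e1]
    exact h.loc _ _ (by rw [List.length_take]; omega)
  have hBm : ∀ j, j ≤ p.m → p.B j + p.G ≤ Y.length := by
    intro j hj
    have := h.B_mono hj
    omega
  have E : ∀ j, i + 1 ≤ j → j ≤ p.m →
      Eqv p.φ U (p.B j - q0) (p.B j - q0 + p.G) (H p U q0 j) (H p U q1 j) := by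
    intro j hj hjm
    have hBj := h.B_mono hj
    have hBl := hBm j hjm
    obtain ⟨q, hqq⟩ := hPd
    refine hp_eqv p.φ p.Ws U (w := w) (c := c) (N := N) (e := e) (Pd := Pd) hS (by omega) (by omega)
      ?_ hD1 hD2 ?_ ?_
    · rcases le_total om om' with hle | hle
      · right
        obtain ⟨d, rfl⟩ := Nat.exists_eq_add_of_le hle
        refine ⟨q * d, ?_⟩
        have e1 : q1 = q0 + Pd * e * (q * d) := by
          rw [hq1, hq0, mul_add, ← mul_assoc, ← hqq]
        omega
      · left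
        obtain ⟨d, rfl⟩ := Nat.exists_eq_add_of_le hle
        refine ⟨q * d, ?_⟩
        have e1 : q0 = q1 + Pd * e * (q * d) := by
          rw [hq1, hq0, mul_add, ← mul_assoc, ← hqq]
        omega
    · intro t ht hkt hWt
      have hns : p.ns ≤ t := by omega
      have hW2 := (htr t hns (by omega)).2 hWt
      obtain ⟨c1, c2⟩ := hclean j (by omega) hjm (q0 + t) (by omega) hW2
      constructor
      · rintro ⟨a1, a2⟩; exact c1 ⟨by omega, by omega⟩
      · rintro ⟨a1, a2⟩; exact c2 ⟨by omega, by omega⟩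
    · intro hno x hx1 hx2
      have := hper j (by omega) hjm (by
        intro t ht1 ht2 hWt
        obtain ⟨t', rfl⟩ : ∃ t', t = q0 + t' := ⟨t - q0, by omega⟩
        exact hno t' (by omega) (by omega) (by omega) ((htr t' (by omega) (by omega)).1 hWt))
        (q0 + x) (by omega) (by omega)
      rw [hU, List.getElem?_drop, List.getElem?_drop, this]
      congr 1
      omega
  constructor
  · obtain ⟨b1, b2, b3⟩ := E (i + 1) le_rfl (by omega)
    have e1 : ∀ x, ph p.φ (U.drop x) = pr p.φ U x U.length := by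
      intro x
      unfold pr
      rw [List.take_length]
    rw [e1, e1]
    refine (b2 U.length ?_).symm
    have := hBm (i + 1) (by omega)
    omega
  · unfold wt
    refine Finset.sum_congr rfl fun j hj => ?_
    obtain ⟨hj1, hj2⟩ := Finset.mem_Ico.1 hj
    obtain ⟨b1, b2, b3⟩ := E j hj1 (by omega)
    obtain ⟨c1, c2, c3⟩ := E (j + 1) (by omega) (by omega)
    have hB := h.B0 j
    have hBj := h.B_mono hj1
    have e1 : ∀ l, ph p.φ (seg p U l j) = pr p.φ U (H p U l j) (H p U l (j + 1)) := fun l => rfl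
    rw [e1, e1, b2 _ (by omega), c3 _ (by omega)]

end main

end Crest.Agent.R320.Doubt_174
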