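import Mathlib

/-!
# Row 320: marker rule on ALL words (813 #12712 (1)); no run-free hypothesis

`marker_rule`: for a finite alphabet and `1 ≤ W` there are a window `n`, a depth `D`, a period
`P > 0` and a right-looking rule `R : List α → Prop` with
* `R Q ↔ R (Q.take n)` and `R Q → n ≤ Q.length` (a word starting at `x` sees exactly the walls `≥ x`
  whose window fits, a word ending at `x` exactly the walls `≤ x - n`);
* two walls are more than `W` apart;
* if there is no wall at `0, .., G-1` (windows inside `Q`), then on `[D, G - D)` the word has period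
  `P` (one period for the whole stretch).
Proof: walls are the strict radius-`W` minima of non-periodic names of length `W! + 1`;
no Fine-Wilf is needed because the common period is `W!`.
-/

set_option autoImplicit false

namespace Crest.Agent.R320.MarkAll_757

variable {α : Type*}

/-- the name of length `l` at position `j` -/
def nm (l : ℕ) (Q : List α) (j : ℕ) : List α := (Q.drop j).take l

/-- `v` has a period `≤ W` -/
def Per (W : ℕ) (v : List α) : Prop :=
  ∃ p, 1 ≤ p ∧ p ≤ W ∧ ∀ i, i + p < v.length → v[i]? = v[i + p]?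

/-- the right-looking rule: the name at `W` is not periodic and is a strict minimum of the rank `f`
among the non periodic names at distance `≤ W` -/
def Rule (f : List α → ℕ) (W l : ℕ) (Q : List α) : Prop :=
  2 * W + l ≤ Q.length ∧ ¬ Per W (nm l Q W) ∧
    ∀ j, j ≤ 2 * W → j ≠ W → ¬ Per W (nm l Q j) → f (nm l Q W) < f (nm l Q j)

theorem nm_length {l : ℕ} {Q : List α} {j : ℕ} (h : j + l ≤ Q.length) :
    (nm l Q j).length = l := by
  simp only [nm, List.length_take, List.length_drop]
  omega

theorem nm_get {l : ℕ} {Q : List α} {j i : ℕ} (hi : i < l) :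
    (nm l Q j)[i]? = Q[j + i]? := by
  simp only [nm, List.getElem?_take, List.getElem?_drop, hi, if_true]

theorem nm_drop (l : ℕ) (Q : List α) (d j : ℕ) : nm l (Q.drop d) j = nm l Q (d + j) := by
  simp only [nm, List.drop_drop]

theorem nm_take {l n : ℕ} (Q : List α) {j : ℕ} (h : j + l ≤ n) :
    nm l (Q.take n) j = nm l Q j := by
  simp only [nm, List.drop_take, List.take_take]
  congr 1
  omega

theorem rule_take (f : List α → ℕ) (W l : ℕ) (Q : List α) :
    Rule f W l Q ↔ Rule f W l (Q.take (2 * W + l)) := by
  have e : ∀ j, j ≤ 2 * W → nm l (Q.take (2 * W + l)) j = nm l Q j := fun j hj =>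
    nm_take Q (by omega)
  have eW := e W (by omega)
  constructor
  · rintro ⟨h1, h2, h3⟩
    refine ⟨?_, by rwa [eW], ?_⟩
    · rw [List.length_take]; omega
    · intro j hj hjW hP
      rw [e j hj] at hP ⊢
      rw [eW]
      exact h3 j hj hjW hP
  · rintro ⟨h1, h2, h3⟩
    rw [List.length_take] at h1
    refine ⟨by omega, by rwa [eW] at h2, ?_⟩
    intro j hj hjW hP
    have := h3 j hj hjW (by rwa [e j hj])
    rwa [e j hj, eW] at this

theorem rule_gap (f : List α → ℕ) (W l : ℕ) (Q : List α) (d : ℕ) (hd : 0 < d) (hdW : d ≤ W)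
    (h : Rule f W l Q) : ¬ Rule f W l (Q.drop d) := by
  rintro ⟨-, h2', h3'⟩
  obtain ⟨-, h2, h3⟩ := h
  rw [nm_drop] at h2' h3'
  have a := h3 (d + W) (by omega) (by omega) h2'
  have b := h3' (W - d) (by omega) (by omega)
    (by rw [nm_drop, show d + (W - d) = W by omega]; exact h2)
  rw [nm_drop, show d + (W - d) = W by omega] at b
  omega

/-- two equal names at distance `d ≤ W` are periodic -/
theorem per_of_eq {l W : ℕ} {Q : List α} {c d : ℕ} (hd : 0 < d) (hdW : d ≤ W)
    (he : nm l Q c = nm l Q (c + d)) : Per W (nm l Q c) := by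
  refine ⟨d, hd, hdW, ?_⟩
  intro i hi
  have hl : (nm l Q c).length ≤ l := by
    simp only [nm, List.length_take]; omega
  have h1 : (nm l Q c)[i + d]? = Q[c + (i + d)]? := nm_get (by omega)
  have h2 : (nm l Q (c + d))[i]? = Q[c + d + i]? := nm_get (by omega)
  rw [h1]
  rw [← he] at h2
  rw [h2]
  congr 1
  omega

theorem wall_near (f : List α → ℕ) (W l : ℕ)
    (hinj : ∀ u v : List α, u.length = l → v.length = l → f u = f v → u = v)
    (Q : List α) (G : ℕ) (hG : 2 * W + l + G ≤ Q.length) (k : ℕ) :
    ∀ c, ¬ Per W (nm l Q c) → f (nm l Q c) ≤ k → W + W * k ≤ c → c + W * k < G + W →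
      ∃ i, i < G ∧ Rule f W l (Q.drop i) := by
  induction k with
  | zero =>
    intro c hP hf h1 h2
    by_contra hno
    push Not at hno
    have hi : c - W < G := by omega
    have := hno (c - W) hi
    apply this
    have hnm : ∀ j, nm l (Q.drop (c - W)) j = nm l Q (c - W + j) := fun j => nm_drop l Q _ j
    have hc : c - W + W = c := by omega
    refine ⟨by rw [List.length_drop]; omega, by rw [hnm, hc]; exact hP, ?_⟩
    intro j hj hjW hPj
    rw [hnm, hnm, hc]
    rw [hnm] at hPj
    by_contra hlt
    have h0 : f (nm l Q (c - W + j)) = f (nm l Q c) := by omega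
    have hlen1 : (nm l Q (c - W + j)).length = l := nm_length (by omega)
    have hlen2 : (nm l Q c).length = l := nm_length (by omega)
    have heq := hinj _ _ hlen1 hlen2 h0
    rcases Nat.lt_or_gt_of_ne hjW with h | h
    · have : nm l Q (c - W + j) = nm l Q (c - W + j + (W - j)) := by
        rw [show c - W + j + (W - j) = c by omega]; exact heq
      exact hPj (per_of_eq (by omega) (by omega) this)
    · have : nm l Q c = nm l Q (c + (j - W)) := by
        rw [show c + (j - W) = c - W + j by omega]; exact heq.symm
      exact hP (per_of_eq (by omega) (by omega) this)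
  | succ k ih =>
    intro c hP hf h1 h2
    have hmul : W * (k + 1) = W * k + W := by ring
    by_contra hno
    push Not at hno
    have hi : c - W < G := by omega
    have hnR := hno (c - W) hi
    apply hnR
    have hnm : ∀ j, nm l (Q.drop (c - W)) j = nm l Q (c - W + j) := fun j => nm_drop l Q _ j
    have hc : c - W + W = c := by omega
    refine ⟨by rw [List.length_drop]; omega, by rw [hnm, hc]; exact hP, ?_⟩
    intro j hj hjW hPj
    rw [hnm, hnm, hc]
    rw [hnm] at hPj
    by_contra hlt
    have hlen1 : (nm l Q (c - W + j)).length = l := nm_length (by omega)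
    have hlen2 : (nm l Q c).length = l := nm_length (by omega)
    rcases Nat.lt_or_ge (f (nm l Q (c - W + j))) (f (nm l Q c)) with hl | hg
    · obtain ⟨i, hiG, hR⟩ := ih (c - W + j) hPj (by omega) (by omega) (by omega)
      exact hno i hiG hR
    · have h0 : f (nm l Q (c - W + j)) = f (nm l Q c) := by omega
      have heq := hinj _ _ hlen1 hlen2 h0
      rcases Nat.lt_or_gt_of_ne hjW with h | h
      · have : nm l Q (c - W + j) = nm l Q (c - W + j + (W - j)) := by
          rw [show c - W + j + (W - j) = c by omega]; exact heq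
        exact hPj (per_of_eq (by omega) (by omega) this)
      · have : nm l Q c = nm l Q (c + (j - W)) := by
          rw [show c + (j - W) = c - W + j by omega]; exact heq.symm
        exact hP (per_of_eq (by omega) (by omega) this)

theorem per_mul {v : List α} {p : ℕ} (h : ∀ i, i + p < v.length → v[i]? = v[i + p]?) (k : ℕ) :
    ∀ i, i + k * p < v.length → v[i]? = v[i + k * p]? := by
  induction k with
  | zero => intro i _; simp
  | succ k ih =>
    intro i hi
    have hm : (k + 1) * p = k * p + p := by ring
    rw [hm] at hi ⊢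
    rw [ih i (by omega), h (i + k * p) (by omega), Nat.add_assoc]

/-- an injective rank on the names of length `l` with values below a bound -/
theorem exists_rank [Finite α] (l : ℕ) : ∃ (K : ℕ) (f : List α → ℕ),
    (∀ u v : List α, u.length = l → v.length = l → f u = f v → u = v) ∧ ∀ v, f v ≤ K := by
  classical
  haveI := Fintype.ofFinite α
  let V := List.Vector α l
  let e : V ≃ Fin (Fintype.card V) := Fintype.equivFin V
  refine ⟨Fintype.card V, fun v => if h : v.length = l then (e ⟨v, h⟩).val else 0, ?_, ?_⟩
  · intro u v hu hv h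
    simp only [hu, hv, dif_pos] at h
    have h2 := e.injective (Fin.ext h)
    exact congrArg Subtype.val h2
  · intro v
    by_cases h : v.length = l
    · simp only [h, dif_pos]
      exact (e ⟨v, h⟩).isLt.le
    · simp [h]

/-- **Marker rule on all words.** -/
theorem marker_rule [Finite α] (W : ℕ) (hW : 1 ≤ W) :
    ∃ (n D P : ℕ) (R : List α → Prop), 0 < P ∧
      (∀ Q, R Q ↔ R (Q.take n)) ∧ (∀ Q, R Q → n ≤ Q.length) ∧
      (∀ Q d, R Q → 0 < d → d ≤ W → ¬ R (Q.drop d)) ∧
      ∀ (Q : List α) (G : ℕ), n + G ≤ Q.length → (∀ i, i < G → ¬ R (Q.drop i)) →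
        ∀ i, D ≤ i → i + D < G → Q[i]? = Q[i + P]? := by
  classical
  obtain ⟨K, f, hinj, hK⟩ := exists_rank (α := α) (W.factorial + 1)
  refine ⟨2 * W + (W.factorial + 1), W + W * K, W.factorial, Rule f W (W.factorial + 1),
    Nat.factorial_pos W, rule_take f W _, fun Q h => h.1, ?_, ?_⟩
  · intro Q d h hd hdW
    exact rule_gap f W _ Q d hd hdW h
  · intro Q G hG hno i hD hi
    have hper : Per W (nm (W.factorial + 1) Q i) := by
      by_contra hP
      obtain ⟨j, hj, hR⟩ := wall_near f W _ hinj Q G hG K i hP (hK _) hD (by omega)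
      exact hno j hj hR
    obtain ⟨p, hp1, hpW, hp⟩ := hper
    have hdvd : p ∣ W.factorial := Nat.dvd_factorial hp1 hpW
    obtain ⟨k, hk⟩ := hdvd
    have hlen : (nm (W.factorial + 1) Q i).length = W.factorial + 1 := nm_length (by omega)
    have h1 := per_mul hp k 0 (by rw [hlen]; rw [hk, Nat.mul_comm p k]; omega)
    rw [Nat.zero_add, Nat.mul_comm k p, ← hk] at h1
    rw [nm_get (by omega), nm_get (by omega)] at h1
    simpa using h1

end Crest.Agent.R320.MarkAll_757
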