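import Mathlib

/-!
Row 320: scheme 1 (names + comb + levels + random noise) on words, left-looking small walls.
No promise on the text is needed for soundness.  `Y` is the part of a block right of `a + p0`.
-/

set_option autoImplicit false

namespace Crest.Agent.R320.S1_5

variable {α S V Wt Nm : Type*}

/-- value of a word -/
def ph [Monoid S] (φ : α → S) (w : List α) : S := (w.map φ).prod

theorem ph_append [Monoid S] (φ : α → S) (u v : List α) : ph φ (u ++ v) = ph φ u * ph φ v := by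
  simp [ph]

theorem ph_split [Monoid S] (φ : α → S) (Y : List α) {a b : ℕ} (h : a ≤ b) :
    ph φ Y = ph φ (Y.take a) * ph φ ((Y.take b).drop a) * ph φ (Y.drop b) := by
  rw [← ph_append, ← ph_append]
  congr 1
  have h1 : Y.take a = (Y.take b).take a := by rw [List.take_take, min_eq_left h]
  rw [h1, List.take_append_drop, List.take_append_drop]

open Classical in
/-- hole end: first small wall in `[k, k + G]`, otherwise `k + D`. -/
noncomputable def hp (Ws : List α → Prop) (G D : ℕ) (U : List α) (k : ℕ) : ℕ :=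
  if h : ∃ t, k ≤ t ∧ t ≤ k + G ∧ t ≤ U.length ∧ Ws (U.take t) then Nat.find h else k + D

theorem hp_bounds (Ws : List α → Prop) (G D : ℕ) (U : List α) (k : ℕ) (hD : D ≤ G) :
    k ≤ hp Ws G D U k ∧ hp Ws G D U k ≤ k + G := by
  classical
  unfold hp
  split_ifs with h
  · exact ⟨(Nat.find_spec h).1, (Nat.find_spec h).2.1⟩
  · omega

theorem hp_congr (Ws : List α → Prop) (G D : ℕ) {U U' : List α} {k k' l : ℕ} (hk : k' = l + k)
    (h : ∀ t, k ≤ t → t ≤ k + G →
      ((t ≤ U.length ∧ Ws (U.take t)) ↔ (l + t ≤ U'.length ∧ Ws (U'.take (l + t))))) :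
    hp Ws G D U' k' = l + hp Ws G D U k := by
  classical
  subst hk
  unfold hp
  by_cases h1 : ∃ t, k ≤ t ∧ t ≤ k + G ∧ t ≤ U.length ∧ Ws (U.take t)
  · have h2 : ∃ t, l + k ≤ t ∧ t ≤ l + k + G ∧ t ≤ U'.length ∧ Ws (U'.take t) := by
      obtain ⟨t, a, b, c⟩ := h1
      exact ⟨l + t, by omega, by omega, (h t a b).1 c⟩
    rw [dif_pos h1, dif_pos h2]
    apply le_antisymm
    · apply Nat.find_min' h2
      obtain ⟨a, b, c⟩ := Nat.find_spec h1
      exact ⟨by omega, by omega, (h _ a b).1 c⟩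
    · obtain ⟨a, b, c⟩ := Nat.find_spec h2
      obtain ⟨s, hs⟩ : ∃ s, Nat.find h2 = l + s := ⟨Nat.find h2 - l, by omega⟩
      rw [hs] at a b c ⊢
      have := Nat.find_min' h1 (m := s) ⟨by omega, by omega, (h s (by omega) (by omega)).2 c⟩
      omega
  · have h2 : ¬ ∃ t, l + k ≤ t ∧ t ≤ l + k + G ∧ t ≤ U'.length ∧ Ws (U'.take t) := by
      rintro ⟨t, a, b, c⟩
      obtain ⟨s, rfl⟩ : ∃ s, t = l + s := ⟨t - l, by omega⟩
      exact h1 ⟨s, by omega, by omega, (h s (by omega) (by omega)).2 c⟩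
    rw [dif_neg h1, dif_neg h2]
    omega

/-- the left word sees the hole end. -/
theorem hp_left (Ws : List α → Prop) (G D : ℕ) (P Q : List α) {k : ℕ} (hk : k + G ≤ P.length) :
    hp Ws G D (P ++ Q) k = hp Ws G D P k := by
  have := hp_congr Ws G D (U := P) (U' := P ++ Q) (k := k) (k' := k) (l := 0) (by omega)
    (fun t _ h2 => by
      have h3 : t ≤ P.length := by omega
      rw [zero_add, List.take_append_of_le_length h3, List.length_append]
      constructor
      · rintro ⟨_, h⟩; exact ⟨by omega, h⟩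
      · rintro ⟨_, h⟩; exact ⟨h3, h⟩)
  rw [this, zero_add]

/-- the right word sees the hole end. -/
theorem hp_right (Ws : List α → Prop) (ns : ℕ)
    (hloc : ∀ U W : List α, ns ≤ W.length → (Ws (U ++ W) ↔ Ws W)) (G D : ℕ) (P Q : List α) {k : ℕ}
    (hk : ns ≤ k) : hp Ws G D (P ++ Q) (P.length + k) = P.length + hp Ws G D Q k := by
  refine hp_congr Ws G D rfl (fun t h1 _ => ?_)
  have e : (P ++ Q).take (P.length + t) = P ++ Q.take t := by
    rw [List.take_append]
    simp [List.take_of_length_le]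
  rw [e, List.length_append]
  constructor
  · rintro ⟨h2, h3⟩
    refine ⟨by omega, (hloc _ _ ?_).2 h3⟩
    rw [List.length_take]; omega
  · rintro ⟨h2, h3⟩
    refine ⟨by omega, (hloc _ _ ?_).1 h3⟩
    rw [List.length_take]; omega

section scheme

variable [Monoid S] [AddCommGroup V] [AddCommGroup Wt]

/-- parameters of scheme 1 -/
structure Par (α S V Wt Nm : Type*) where
  φ : α → S
  act : V → S → V
  Ws : List α → Prop
  ns : ℕ
  G : ℕ
  D : ℕ
  Mq : ℕ
  m : ℕ
  B : ℕ → ℕ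
  cell : ℕ → ℕ → Prop
  e : ℕ → S → Wt
  F : S → Wt → V
  LC : Nm → ℕ → Prop
  RC : Nm → ℕ → Prop
  lv : Nm → ℕ
  gg : Nm → S
  wl : Nm → Wt
  hh : Nm → S
  wr : Nm → Wt
  vv : Nm → V
  bb : Nm → V

variable (p : Par α S V Wt Nm)

/-- hole end `j` of a word which starts at clock `l` -/
noncomputable def H (U : List α) (l j : ℕ) : ℕ := hp p.Ws p.G p.D U (p.B j - l)

/-- segment `j` -/
noncomputable def seg (U : List α) (l j : ℕ) : List α := (U.take (H p U l (j + 1))).drop (H p U l j)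

/-- weight of the segments `j ∈ [a, b)` -/
noncomputable def wt (U : List α) (l a b : ℕ) : Wt :=
  ∑ j ∈ Finset.Ico a b, p.e j (ph p.φ (seg p U l j))

/-- left-legal with name `c` -/
def LL (P : List α) (c : Nm) : Prop :=
  ∃ om, P.length = p.Mq * om ∧ p.cell (p.lv c) om ∧ p.LC c om ∧
    ph p.φ (P.take (H p P 0 (p.lv c))) = p.gg c ∧ wt p P 0 0 (p.lv c) = p.wl c

/-- right-legal with name `c`: the right data agree with the name for all candidates of the clock -/
def RR (Q : List α) (c : Nm) : Prop :=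
  p.RC c (Q.length / p.Mq) ∧ p.lv c < p.m ∧ ∀ om, p.cell (p.lv c) om →
    ph p.φ (Q.drop (H p Q (p.Mq * om) (p.lv c + 1))) = p.hh c ∧
    wt p Q (p.Mq * om) (p.lv c + 1) p.m = p.wr c

/-- standing assumptions -/
structure Ok : Prop where
  hD : p.D ≤ p.G
  hM : 0 < p.Mq
  loc : ∀ U W : List α, p.ns ≤ W.length → (p.Ws (U ++ W) ↔ p.Ws W)
  B0 : ∀ j, p.B j + p.G ≤ p.B (j + 1)
  cellL : ∀ i om, p.cell i om → p.B i + p.G ≤ p.Mq * om
  cellR : ∀ i om, p.cell i om → p.Mq * om + p.ns ≤ p.B (i + 1)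
  good : ∀ c z, p.F (p.gg c * z * p.hh c) (p.wl c + p.e (p.lv c) z + p.wr c) +
    p.act (p.vv c) (p.gg c * z * p.hh c) = p.bb c
  names : ∀ c c' d d' o o' q q', p.LC c o → p.RC c' o' → p.LC d q → p.RC d' q' → o + o' = q + q' →
    (c = c' ∧ d = d') ∨ (p.vv c = p.vv d ∧ p.bb c' = p.bb d')

variable {p}

theorem Ok.B_mono (h : Ok p) {i j : ℕ} (hij : i ≤ j) : p.B i ≤ p.B j := by
  induction hij with
  | refl => exact le_rfl
  | step _ ih => exact ih.trans ((Nat.le_add_right _ _).trans (h.B0 _))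

theorem Ok.H_left (h : Ok p) {P Q : List α} {i om j : ℕ} (hl : P.length = p.Mq * om)
    (hc : p.cell i om) (hj : j ≤ i) : H p (P ++ Q) 0 j = H p P 0 j := by
  refine hp_left _ _ _ _ _ ?_
  have h1 := h.cellL i om hc
  have h2 := h.B_mono hj
  omega

theorem Ok.H_right (h : Ok p) {P Q : List α} {i om j : ℕ} (hl : P.length = p.Mq * om)
    (hc : p.cell i om) (hj : i + 1 ≤ j) :
    H p (P ++ Q) 0 j = P.length + H p Q (p.Mq * om) j := by
  have h1 := h.cellR i om hc
  have h2 := h.B_mono hj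
  have h3 : p.B j - 0 = P.length + (p.B j - p.Mq * om) := by omega
  unfold H
  rw [h3]
  exact hp_right _ p.ns h.loc _ _ _ _ (by omega)

theorem Ok.seg_left (h : Ok p) {P Q : List α} {i om j : ℕ} (hl : P.length = p.Mq * om)
    (hc : p.cell i om) (hj : j < i) : seg p (P ++ Q) 0 j = seg p P 0 j := by
  unfold seg
  rw [h.H_left hl hc (by omega : j + 1 ≤ i), h.H_left hl hc (by omega : j ≤ i)]
  have h1 := (hp_bounds p.Ws p.G p.D P (p.B (j + 1) - 0) h.hD).2
  have h2 := h.cellL i om hc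
  have h3 := h.B_mono (by omega : j + 1 ≤ i)
  rw [List.take_append_of_le_length]
  show hp _ _ _ _ _ ≤ _
  omega

theorem Ok.seg_right (h : Ok p) {P Q : List α} {i om j : ℕ} (hl : P.length = p.Mq * om)
    (hc : p.cell i om) (hj : i + 1 ≤ j) :
    seg p (P ++ Q) 0 j = seg p Q (p.Mq * om) j := by
  unfold seg
  rw [h.H_right hl hc (by omega : i + 1 ≤ j + 1), h.H_right hl hc hj]
  rw [List.take_append, List.drop_append]
  simp [List.take_of_length_le, List.drop_eq_nil_of_le]

/-- data of the whole part `Y` at a legal place: the product and the weight. -/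
theorem Ok.data (h : Ok p) {P Q : List α} {c : Nm} (hL : LL p P c) (hR : RR p Q c) :
    ∃ z : S, ph p.φ (P ++ Q) = p.gg c * z * p.hh c ∧
      wt p (P ++ Q) 0 0 p.m = p.wl c + p.e (p.lv c) z + p.wr c := by
  obtain ⟨om, hl, hc, -, hg, hw⟩ := hL
  obtain ⟨-, hm, hr⟩ := hR
  obtain ⟨hh, hwr⟩ := hr om hc
  refine ⟨ph p.φ (seg p (P ++ Q) 0 (p.lv c)), ?_, ?_⟩
  · have hle : H p (P ++ Q) 0 (p.lv c) ≤ H p (P ++ Q) 0 (p.lv c + 1) := by
      have h1 := (hp_bounds p.Ws p.G p.D (P ++ Q) (p.B (p.lv c) - 0) h.hD).2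
      have h2 := (hp_bounds p.Ws p.G p.D (P ++ Q) (p.B (p.lv c + 1) - 0) h.hD).1
      have h3 := h.B0 (p.lv c)
      show hp _ _ _ _ _ ≤ hp _ _ _ _ _
      omega
    rw [ph_split p.φ (P ++ Q) hle]
    congr 1
    · congr 1
      rw [h.H_left hl hc le_rfl, ← hg, List.take_append_of_le_length]
      have h1 := (hp_bounds p.Ws p.G p.D P (p.B (p.lv c) - 0) h.hD).2
      have h2 := h.cellL _ om hc
      show hp _ _ _ _ _ ≤ _
      omega
    · rw [h.H_right hl hc le_rfl, ← hh, List.drop_append]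
      simp [List.drop_eq_nil_of_le]
  · have e1 : wt p (P ++ Q) 0 0 p.m = wt p (P ++ Q) 0 0 (p.lv c) +
        (p.e (p.lv c) (ph p.φ (seg p (P ++ Q) 0 (p.lv c))) + wt p (P ++ Q) 0 (p.lv c + 1) p.m) := by
      unfold wt
      rw [← Finset.sum_Ico_consecutive _ (Nat.zero_le (p.lv c)) hm.le,
        Finset.sum_eq_sum_Ico_succ_bot hm]
    have e2 : wt p (P ++ Q) 0 0 (p.lv c) = p.wl c := by
      rw [← hw]
      unfold wt
      refine Finset.sum_congr rfl fun j hj => ?_
      rw [h.seg_left hl hc (Finset.mem_Ico.1 hj).2]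
    have e3 : wt p (P ++ Q) 0 (p.lv c + 1) p.m = p.wr c := by
      rw [← hwr]
      unfold wt
      refine Finset.sum_congr rfl fun j hj => ?_
      rw [h.seg_right hl hc (Finset.mem_Ico.1 hj).1]
    rw [e1, e2, e3]
    abel

/-- the value prescribed at a junction `(c|c')` of `Y` -/
def val (p : Par α S V Wt Nm) (Y : List α) (c c' : Nm) : V :=
  p.bb c' - p.act (p.vv c) (ph p.φ Y)

/-- matched junctions prescribe `F (type Y)`. -/
theorem Ok.val_same (h : Ok p) {P Q : List α} {c : Nm} (hL : LL p P c) (hR : RR p Q c) :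
    val p (P ++ Q) c c = p.F (ph p.φ (P ++ Q)) (wt p (P ++ Q) 0 0 p.m) := by
  obtain ⟨z, h1, h2⟩ := h.data hL hR
  unfold val
  rw [h1, h2, ← h.good c z]
  abel

/-- UNIQUENESS: all junctions of one word prescribe the same noise. -/
theorem Ok.unique (h : Ok p) {P Q P' Q' : List α} (e : P ++ Q = P' ++ Q') {c c' d d' : Nm}
    (hL : LL p P c) (hR : RR p Q c') (hL' : LL p P' d) (hR' : RR p Q' d') :
    val p (P ++ Q) c c' = val p (P' ++ Q') d d' := by
  have hL0 := hL
  have hL0' := hL'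
  obtain ⟨om, hl, hc, hlc, -, -⟩ := hL
  obtain ⟨om', hl', hc', hlc', -, -⟩ := hL'
  have hlen : ∀ {A B : List α} {o : ℕ}, A.length = p.Mq * o → (A ++ B).length / p.Mq =
      o + B.length / p.Mq := by
    intro A B o hA
    rw [List.length_append, hA, Nat.mul_add_div h.hM]
  have hT : om + Q.length / p.Mq = om' + Q'.length / p.Mq := by
    rw [← hlen hl (B := Q), ← hlen hl' (B := Q'), e]
  rcases h.names c c' d d' om _ om' _ hlc hR.1 hlc' hR'.1 hT with ⟨rfl, rfl⟩ | ⟨h1, h2⟩
  · rw [h.val_same hL0 hR, h.val_same hL0' hR', e]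
  · unfold val
    rw [h1, h2, e]

open Classical in
/-- the noise of `Y` -/
noncomputable def nu (p : Par α S V Wt Nm) (Y : List α) : V :=
  if h : ∃ x : V, ∃ P Q c c', P ++ Q = Y ∧ LL p P c ∧ RR p Q c' ∧ x = val p Y c c' then h.choose
  else 0

/-- SOUNDNESS of scheme 1 (every text, every clock total). -/
theorem Ok.sound (h : Ok p) {P Q : List α} {c c' : Nm} (hL : LL p P c) (hR : RR p Q c') :
    p.act (p.vv c) (ph p.φ (P ++ Q)) + nu p (P ++ Q) = p.bb c' := by
  have hex : ∃ x : V, ∃ P' Q' d d', P' ++ Q' = P ++ Q ∧ LL p P' d ∧ RR p Q' d' ∧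
      x = val p (P ++ Q) d d' := ⟨_, P, Q, c, c', rfl, hL, hR, rfl⟩
  have hn : nu p (P ++ Q) = val p (P ++ Q) c c' := by
    unfold nu
    rw [dif_pos hex]
    obtain ⟨P', Q', d, d', e, h1, h2, h3⟩ := hex.choose_spec
    rw [h3]
    have := h.unique e.symm hL hR h1 h2
    rw [this, ← e]
  rw [hn]
  unfold val
  abel

/-- COMPLETENESS of scheme 1: if the right data do not depend on the candidate of the clock
(no small wall in doubt) and names are available at the total, every token is cut. -/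
theorem Ok.complete (h : Ok p) (Y : List α) (v : V)
    (hF : ∃ i < p.m, ∀ g x k : S, g * x * k = ph p.φ Y → ∀ z : S,
      p.F (g * z * k) (wt p Y 0 0 p.m - p.e i x + p.e i z) + p.act v (g * z * k) =
        p.F (ph p.φ Y) (wt p Y 0 0 p.m) + p.act v (ph p.φ Y))
    (hN : ∀ i < p.m, ∀ (g : S) (wl : Wt) (k : S) (wr : Wt) (b : V),
      (∀ z, p.F (g * z * k) (wl + p.e i z + wr) + p.act v (g * z * k) = b) →
      ∃ c om, p.lv c = i ∧ p.gg c = g ∧ p.wl c = wl ∧ p.hh c = k ∧ p.wr c = wr ∧ p.vv c = v ∧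
        p.cell i om ∧ p.LC c om ∧ p.RC c (Y.length / p.Mq - om) ∧ p.Mq * om ≤ Y.length)
    (hdoubt : ∀ i < p.m, ∀ om om', p.cell i om → p.cell i om' → p.Mq * om ≤ Y.length →
      ph p.φ ((Y.drop (p.Mq * om)).drop (H p (Y.drop (p.Mq * om)) (p.Mq * om') (i + 1))) =
        ph p.φ ((Y.drop (p.Mq * om)).drop (H p (Y.drop (p.Mq * om)) (p.Mq * om) (i + 1))) ∧
      wt p (Y.drop (p.Mq * om)) (p.Mq * om') (i + 1) p.m =
        wt p (Y.drop (p.Mq * om)) (p.Mq * om) (i + 1) p.m) :
    ∃ P Q c, P ++ Q = Y ∧ LL p P c ∧ RR p Q c ∧ p.vv c = v := by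
  obtain ⟨i, hi, hF⟩ := hF
  -- actual data of level i
  set g := ph p.φ (Y.take (H p Y 0 i)) with hg
  set x := ph p.φ (seg p Y 0 i) with hx
  set k := ph p.φ (Y.drop (H p Y 0 (i + 1))) with hk
  have hle : H p Y 0 i ≤ H p Y 0 (i + 1) := by
    have h1 := (hp_bounds p.Ws p.G p.D Y (p.B i - 0) h.hD).2
    have h2 := (hp_bounds p.Ws p.G p.D Y (p.B (i + 1) - 0) h.hD).1
    have h3 := h.B0 i
    show hp _ _ _ _ _ ≤ hp _ _ _ _ _
    omega
  have hs : g * x * k = ph p.φ Y := (ph_split p.φ Y hle).symm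
  have hw : wt p Y 0 0 p.m = wt p Y 0 0 i + p.e i x + wt p Y 0 (i + 1) p.m := by
    unfold wt
    rw [← Finset.sum_Ico_consecutive _ (Nat.zero_le i) hi.le, Finset.sum_eq_sum_Ico_succ_bot hi,
      add_assoc]
  obtain ⟨c, om, h1, h2, h3, h4, h5, h6, h7, h8, h9, h10⟩ :=
    hN i hi g (wt p Y 0 0 i) k (wt p Y 0 (i + 1) p.m)
      (p.F (ph p.φ Y) (wt p Y 0 0 p.m) + p.act v (ph p.φ Y)) (by
        intro z
        have := hF g x k hs z
        rw [← this]
        congr 2
        rw [hw]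
        abel)
  have hPl : (Y.take (p.Mq * om)).length = p.Mq * om := by
    rw [List.length_take]; omega
  have hYe : Y.take (p.Mq * om) ++ Y.drop (p.Mq * om) = Y := List.take_append_drop _ _
  refine ⟨Y.take (p.Mq * om), Y.drop (p.Mq * om), c, hYe, ?_, ?_, h6⟩
  · refine ⟨om, hPl, by rw [h1]; exact h7, h8, ?_, ?_⟩
    · rw [h1, h2, hg]
      have e1 : H p (Y.take (p.Mq * om)) 0 i = H p Y 0 i := by
        have := h.H_left (P := Y.take (p.Mq * om)) (Q := Y.drop (p.Mq * om)) hPl h7 (le_refl i)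
        rw [hYe] at this
        exact this.symm
      rw [e1, List.take_take, min_eq_left]
      have h1' := (hp_bounds p.Ws p.G p.D Y (p.B i - 0) h.hD).2
      have h2' := h.cellL _ om h7
      show hp _ _ _ _ _ ≤ _
      omega
    · rw [h1, h3]
      unfold wt
      refine Finset.sum_congr rfl fun j hj => ?_
      have := h.seg_left (P := Y.take (p.Mq * om)) (Q := Y.drop (p.Mq * om)) hPl h7
        (Finset.mem_Ico.1 hj).2
      rw [hYe] at this
      rw [this]
  · refine ⟨?_, by rw [h1]; exact hi, ?_⟩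
    · have : (Y.drop (p.Mq * om)).length / p.Mq = Y.length / p.Mq - om := by
        rw [List.length_drop, Nat.sub_mul_div]
      rw [this]; exact h9
    · intro om' hc'
      rw [h1] at hc' ⊢
      obtain ⟨d1, d2⟩ := hdoubt i hi om om' h7 hc' h10
      rw [d1, d2, h4, h5]
      constructor
      · have := h.H_right (P := Y.take (p.Mq * om)) (Q := Y.drop (p.Mq * om)) hPl h7
          (le_refl (i + 1))
        rw [hYe, hPl] at this
        rw [hk, this, List.drop_drop]
      · unfold wt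
        refine Finset.sum_congr rfl fun j hj => ?_
        have := h.seg_right (P := Y.take (p.Mq * om)) (Q := Y.drop (p.Mq * om)) hPl h7
          (Finset.mem_Ico.1 hj).1
        rw [hYe] at this
        rw [this]

end scheme

end Crest.Agent.R320.S1_5
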