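import Mathlib
import Crest.Agent.R320.S1_5
import Crest.Agent.R320.MarkAll_757

/-!
Row 320, helper527: the leaf (S1b) of `S1_5` on ALL texts.  If no small wall is in one of the two
thin bands at a level (mode (D) off) then the right data of scheme 1 do not depend on the
candidate of the clock, also when the window of the level lies inside a run: the two hole ends
differ by a multiple of the period of the run and of the period of the monoid.
-/

set_option autoImplicit false

namespace Crest.Agent.R320.Doubt_527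

open Crest.Agent.R320.S1_5

variable {α S V Wt Nm : Type*}

/-- `u` has period `P` -/
def Per (P : ℕ) (u : List α) : Prop := ∀ i, i + P < u.length → u[i]? = u[i + P]?

theorem Per.add {P : ℕ} {u : List α} (h : Per P u) (c : ℕ) : ∀ i, i + P * c < u.length →
    u[i]? = u[i + P * c]? := by
  induction c with
  | zero => intro i _; simp
  | succ c ih =>
    intro i hi
    rw [Nat.mul_succ] at hi
    rw [ih i (by omega), h (i + P * c) (by omega), Nat.mul_succ, Nat.add_assoc]

theorem Per.take_drop {P : ℕ} {u : List α} (h : Per P u) (c : ℕ) (hc : P * (c + 1) ≤ u.length) :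
    (u.drop (P * c)).take P = u.take P := by
  apply List.ext_getElem?
  intro i
  rw [List.getElem?_take, List.getElem?_take, List.getElem?_drop]
  rw [Nat.mul_succ] at hc
  split_ifs with hi
  · rw [h.add c i (by omega), Nat.add_comm]
  · rfl

theorem Per.pow [Monoid S] (φ : α → S) {P : ℕ} {u : List α} (h : Per P u) (n : ℕ)
    (hn : P * n ≤ u.length) : ph φ u = ph φ (u.take P) ^ n * ph φ (u.drop (P * n)) := by
  induction n with
  | zero => simp
  | succ n ih =>
    have h1 : P * n ≤ u.length := by rw [Nat.mul_succ] at hn; omega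
    rw [ih h1, pow_succ, mul_assoc]
    congr 1
    have h2 : u.drop (P * n) = (u.drop (P * n)).take P ++ u.drop (P * (n + 1)) := by
      rw [Nat.mul_succ, ← List.drop_drop, List.take_append_drop]
    rw [h2, ph_append, h.take_drop n hn]

theorem pow_stab [Monoid S] {k0 e : ℕ} (hS : ∀ s : S, ∀ k, k0 ≤ k → s ^ (k + e) = s ^ k) (s : S)
    (c : ℕ) : s ^ (k0 + e * c) = s ^ k0 := by
  induction c with
  | zero => simp
  | succ c ih => rw [Nat.mul_succ, ← Nat.add_assoc, hS s _ (Nat.le_add_right _ _), ih]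

theorem Per.core [Monoid S] (φ : α → S) {P : ℕ} {u : List α} (h : Per P u) {k0 e : ℕ}
    (hS : ∀ s : S, ∀ k, k0 ≤ k → s ^ (k + e) = s ^ k) (c : ℕ)
    (hc : P * (k0 + e * c) ≤ u.length) : ph φ u = ph φ (u.drop (P * (e * c))) := by
  have hd : Per P (u.drop (P * (e * c))) := by
    intro i hi
    rw [List.length_drop] at hi
    rw [List.getElem?_drop, List.getElem?_drop, h (P * (e * c) + i) (by omega), Nat.add_assoc]
  have hx : P * k0 ≤ (u.drop (P * (e * c))).length := by
    rw [List.length_drop]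
    rw [Nat.mul_add] at hc
    omega
  rw [h.pow φ (k0 + e * c) hc, pow_stab hS, hd.pow φ k0 hx, List.drop_drop]
  have e1 : P * (e * c) + P * k0 = P * (k0 + e * c) := by ring
  rw [e1]
  rcases Nat.eq_zero_or_pos k0 with hk | hk
  · subst hk; simp
  · congr 3
    have := h.take_drop (e * c) (by
      refine le_trans ?_ hc
      apply Nat.mul_le_mul_left
      omega)
    exact this.symm

theorem split3 (Z : List α) {x y z : ℕ} (h1 : x ≤ y) (h2 : y ≤ z) (h3 : y ≤ Z.length) :
    (Z.take z).drop x = (Z.take y).drop x ++ (Z.take z).drop y := by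
  have e1 : Z.take z = Z.take y ++ (Z.take z).drop y := by
    have : Z.take y = (Z.take z).take y := by rw [List.take_take, min_eq_left h2]
    rw [this, List.take_append_drop]
  conv_lhs => rw [e1]
  rw [List.drop_append_of_le_length]
  rw [List.length_take]; omega

section shift

variable [Monoid S] (φ : α → S) {k0 e P : ℕ}
  (hS : ∀ s : S, ∀ k, k0 ≤ k → s ^ (k + e) = s ^ k)

include hS

/-- the left end of a segment moves inside a run -/
theorem shiftL {Z : List α} {a b g h h' c : ℕ}
    (hp : ∀ i, a ≤ i → i + P < b → Z[i]? = Z[i + P]?) (hb : b ≤ Z.length) (ha : a ≤ h)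
    (hk : h' + P * k0 ≤ b) (hh : h' = h + P * (e * c)) (hg : b ≤ g) :
    ph φ ((Z.take g).drop h) = ph φ ((Z.take g).drop h') := by
  rw [split3 Z (show h ≤ b by omega) hg hb, split3 Z (show h' ≤ b by omega) hg hb, ph_append,
    ph_append]
  congr 1
  have hlen : ((Z.take b).drop h).length = b - h := by
    rw [List.length_drop, List.length_take]; omega
  have hper : Per P ((Z.take b).drop h) := by
    intro i hi
    rw [hlen] at hi
    rw [List.getElem?_drop, List.getElem?_drop, List.getElem?_take, List.getElem?_take,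
      if_pos (by omega), if_pos (by omega), hp (h + i) (by omega) (by omega), Nat.add_assoc]
  rw [hper.core φ hS c (by rw [hlen, Nat.mul_add]; omega), List.drop_drop, hh]

/-- the right end of a segment moves inside a run -/
theorem shiftR {Z : List α} {a b g h h' c : ℕ}
    (hp : ∀ i, a ≤ i → i + P < b → Z[i]? = Z[i + P]?) (hb : b ≤ Z.length)
    (hk : a + P * k0 ≤ h) (hh : h' = h + P * (e * c)) (hg : g ≤ a) (hb' : h' ≤ b) :
    ph φ ((Z.take h').drop g) = ph φ ((Z.take h).drop g) := by
  rw [split3 Z hg (show a ≤ h' by omega) (by omega), split3 Z hg (show a ≤ h by omega) (by omega),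
    ph_append, ph_append]
  congr 1
  have hlen : ((Z.take h').drop a).length = h' - a := by
    rw [List.length_drop, List.length_take]; omega
  have hper : Per P ((Z.take h').drop a) := by
    intro i hi
    rw [hlen] at hi
    rw [List.getElem?_drop, List.getElem?_drop, List.getElem?_take, List.getElem?_take,
      if_pos (by omega), if_pos (by omega), hp (a + i) (by omega) (by omega), Nat.add_assoc]
  rw [hper.core φ hS c (by rw [hlen, Nat.mul_add]; omega)]
  congr 1
  apply List.ext_getElem?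
  intro i
  rw [List.getElem?_drop]
  by_cases hi : a + i < h
  · rw [← Nat.add_comm i, ← hper.add (e * c) i (by rw [hlen]; omega), List.getElem?_drop,
      List.getElem?_drop, List.getElem?_take, List.getElem?_take, if_pos (by omega), if_pos hi]
  · rw [List.getElem?_eq_none (by rw [hlen]; omega), List.getElem?_eq_none]
    rw [List.length_drop, List.length_take]; omega

end shift

/-- the hole end of a level seen with two candidates of the clock -/
theorem hp_cases (Ws : List α → Prop) (G D : ℕ) {Z : List α} {k k' w : ℕ} (h1 : k ≤ k' + w)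
    (h2 : k' ≤ k + w)
    (hc1 : ∀ t, t ≤ Z.length → Ws (Z.take t) → k ≤ t + w → t ≤ k + w → False)
    (hc2 : ∀ t, t ≤ Z.length → Ws (Z.take t) → k + G ≤ t + w → t ≤ k + G + w → False) :
    hp Ws G D Z k' = hp Ws G D Z k ∨
      (hp Ws G D Z k = k + D ∧ hp Ws G D Z k' = k' + D ∧
        ∀ t, k ≤ t + w → t ≤ k + G + w → t ≤ Z.length → ¬ Ws (Z.take t)) := by
  classical
  unfold hp
  by_cases e1 : ∃ t, k ≤ t ∧ t ≤ k + G ∧ t ≤ Z.length ∧ Ws (Z.take t)
  · have e2 : ∃ t, k' ≤ t ∧ t ≤ k' + G ∧ t ≤ Z.length ∧ Ws (Z.take t) := by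
      obtain ⟨t, a, b, c, d⟩ := e1
      refine ⟨t, ?_, ?_, c, d⟩
      · by_contra hh
        exact hc1 t c d (by omega) (by omega)
      · by_contra hh
        exact hc2 t c d (by omega) (by omega)
    left
    rw [dif_pos e1, dif_pos e2]
    apply le_antisymm
    · obtain ⟨a, b, c, d⟩ := Nat.find_spec e1
      refine Nat.find_min' e2 ⟨?_, ?_, c, d⟩
      · by_contra hh
        exact hc1 _ c d (by omega) (by omega)
      · by_contra hh
        exact hc2 _ c d (by omega) (by omega)
    · obtain ⟨a, b, c, d⟩ := Nat.find_spec e2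
      refine Nat.find_min' e1 ⟨?_, ?_, c, d⟩
      · by_contra hh
        exact hc1 _ c d (by omega) (by omega)
      · by_contra hh
        exact hc2 _ c d (by omega) (by omega)
  · have e3 : ∀ t, k ≤ t + w → t ≤ k + G + w → t ≤ Z.length → ¬ Ws (Z.take t) := by
      intro t a b c d
      by_cases f1 : t ≤ k + w
      · exact hc1 t c d a f1
      · by_cases f2 : k + G ≤ t + w
        · exact hc2 t c d f2 b
        · exact e1 ⟨t, by omega, by omega, c, d⟩
    have e2 : ¬ ∃ t, k' ≤ t ∧ t ≤ k' + G ∧ t ≤ Z.length ∧ Ws (Z.take t) := by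
      rintro ⟨t, a, b, c, d⟩
      exact e3 t (by omega) (by omega) c d
    right
    rw [dif_neg e1, dif_neg e2]
    exact ⟨rfl, rfl, e3⟩

section main

variable [Monoid S] [AddCommGroup V] [AddCommGroup Wt] {p : Par α S V Wt Nm}

/-- what is known about one level seen from `Z` at two clocks -/
def Lv (Z : List α) (k0 e P c : ℕ) (a b h h' : ℕ) : Prop :=
  h' = h ∨ ((h' = h + P * (e * c) ∨ h = h' + P * (e * c)) ∧ b ≤ Z.length ∧
    a + P * k0 ≤ h ∧ a + P * k0 ≤ h' ∧ h + P * k0 ≤ b ∧ h' + P * k0 ≤ b ∧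
    ∀ i, a ≤ i → i + P < b → Z[i]? = Z[i + P]?)

theorem Lv.left (φ : α → S) {Z : List α} {k0 e P c a b h h' g : ℕ}
    (hS : ∀ s : S, ∀ k, k0 ≤ k → s ^ (k + e) = s ^ k)
    (hL : Lv Z k0 e P c a b h h') (hg : b ≤ g) :
    ph φ ((Z.take g).drop h') = ph φ ((Z.take g).drop h) := by
  rcases hL with rfl | ⟨h1, h2, h3, h4, h5, h6, h7⟩
  · rfl
  · rcases h1 with h1 | h1
    · exact (shiftL φ hS h7 h2 (by omega) h6 h1 hg).symm
    · exact shiftL φ hS h7 h2 (by omega) h5 h1 hg

theorem Lv.right (φ : α → S) {Z : List α} {k0 e P c a b h h' g : ℕ}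
    (hS : ∀ s : S, ∀ k, k0 ≤ k → s ^ (k + e) = s ^ k)
    (hL : Lv Z k0 e P c a b h h') (hg : g ≤ a) :
    ph φ ((Z.take h').drop g) = ph φ ((Z.take h).drop g) := by
  rcases hL with rfl | ⟨h1, h2, h3, h4, h5, h6, h7⟩
  · rfl
  · rcases h1 with h1 | h1
    · exact shiftR φ hS h7 h2 h3 h1 hg (by omega)
    · exact (shiftR φ hS h7 h2 h4 h1 hg (by omega)).symm

/-- **(S1b) on all texts**: the right data do not depend on the candidate of the clock. -/
theorem hdoubt_all (h : Ok p) (Y : List α) {w k0 e P D1 : ℕ}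
    (hS : ∀ s : S, ∀ k, k0 ≤ k → s ^ (k + e) = s ^ k) (hMq : P * e ∣ p.Mq)
    (hD : D1 + P * k0 ≤ p.D) (hG : p.D + D1 + P * k0 ≤ p.G)
    (hB : ∀ j, p.B j + p.G + 2 * w ≤ p.B (j + 1))
    (hcw : ∀ i om om', p.cell i om → p.cell i om' → p.Mq * om ≤ p.Mq * om' + w)
    (hcr : ∀ i om, p.cell i om → p.Mq * om + p.ns + w + 1 ≤ p.B (i + 1))
    (hlen : p.B p.m + p.G + w ≤ Y.length)
    (hcl1 : ∀ j, 1 ≤ j → j ≤ p.m → ∀ t, t ≤ Y.length → p.Ws (Y.take t) → p.B j ≤ t + w →
      t ≤ p.B j + w → False)
    (hcl2 : ∀ j, 1 ≤ j → j ≤ p.m → ∀ t, t ≤ Y.length → p.Ws (Y.take t) → p.B j + p.G ≤ t + w →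
      t ≤ p.B j + p.G + w → False)
    (hper : ∀ a b, p.ns < a → b ≤ Y.length → (∀ t, a ≤ t → t ≤ b → ¬ p.Ws (Y.take t)) →
      ∀ y, a + D1 ≤ y → y + P + D1 ≤ b → Y[y]? = Y[y + P]?) :
    ∀ i < p.m, ∀ om om', p.cell i om → p.cell i om' → p.Mq * om ≤ Y.length →
      ph p.φ ((Y.drop (p.Mq * om)).drop (H p (Y.drop (p.Mq * om)) (p.Mq * om') (i + 1))) =
        ph p.φ ((Y.drop (p.Mq * om)).drop (H p (Y.drop (p.Mq * om)) (p.Mq * om) (i + 1))) ∧
      wt p (Y.drop (p.Mq * om)) (p.Mq * om') (i + 1) p.m =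
        wt p (Y.drop (p.Mq * om)) (p.Mq * om) (i + 1) p.m := by
  intro i hi om om' hc hc' hom
  set l := p.Mq * om with hl
  set l' := p.Mq * om' with hl'
  set Z := Y.drop l with hZ
  have hZl : Z.length = Y.length - l := List.length_drop
  have r1 := hcr i om hc
  have r2 := hcr i om' hc'
  have r3 := hcw i om om' hc hc'
  have r4 := hcw i om' om hc' hc
  -- walls of Z
  have hW : ∀ t, p.ns ≤ t → t ≤ Z.length → (p.Ws (Z.take t) ↔ p.Ws (Y.take (l + t))) := by
    intro t ht1 ht2
    rw [List.take_add]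
    refine (h.loc _ _ ?_).symm
    rw [List.length_take]; omega
  obtain ⟨q, hq⟩ := hMq
  -- the levels
  have hlev : ∀ j, i + 1 ≤ j → j ≤ p.m → ∃ c, Lv Z k0 e P c (p.B j - l - w + D1)
      (p.B j - l + p.G + w - D1) (H p Z l j) (H p Z l' j) := by
    intro j hj1 hj2
    have s1 : p.B (i + 1) ≤ p.B j := h.B_mono hj1
    have s2 : p.B j ≤ p.B p.m := h.B_mono hj2
    rcases hp_cases p.Ws p.G p.D (Z := Z) (k := p.B j - l) (k' := p.B j - l') (w := w)
      (by omega) (by omega)
      (fun t a b c d => hcl1 j (by omega) hj2 (l + t) (by omega)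
        ((hW t (by omega) a).1 b) (by omega) (by omega))
      (fun t a b c d => hcl2 j (by omega) hj2 (l + t) (by omega)
        ((hW t (by omega) a).1 b) (by omega) (by omega)) with h1 | ⟨h1, h2, h3⟩
    · exact ⟨0, Or.inl h1⟩
    · have hsh : ∃ c, p.B j - l' = p.B j - l + P * (e * c) ∨
          p.B j - l = p.B j - l' + P * (e * c) := by
        rcases le_total om om' with ho | ho
        · refine ⟨q * (om' - om), Or.inr ?_⟩
          have : l' = l + P * (e * (q * (om' - om))) := by
            obtain ⟨x, rfl⟩ := Nat.exists_eq_add_of_le ho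
            rw [hl', hl, Nat.add_sub_cancel_left, hq]; ring
          omega
        · refine ⟨q * (om - om'), Or.inl ?_⟩
          have : l = l' + P * (e * (q * (om - om'))) := by
            obtain ⟨x, rfl⟩ := Nat.exists_eq_add_of_le ho
            rw [hl', hl, Nat.add_sub_cancel_left, hq]; ring
          omega
      obtain ⟨c, hc0⟩ := hsh
      have hH : H p Z l j = p.B j - l + p.D := h1
      have hH' : H p Z l' j = p.B j - l' + p.D := h2
      refine ⟨c, Or.inr ⟨?_, ?_, ?_, ?_, ?_, ?_, ?_⟩⟩
      · rw [hH, hH']; omega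
      · omega
      · rw [hH]; omega
      · rw [hH']; omega
      · rw [hH]; omega
      · rw [hH']; omega
      · intro y hy1 hy2
        rw [hZ, List.getElem?_drop, List.getElem?_drop, ← Nat.add_assoc]
        refine hper (p.B j - w) (p.B j + p.G + w) (by omega) (by omega) ?_ (l + y) (by omega)
          (by omega)
        intro t ht1 ht2 ht3
        obtain ⟨x, rfl⟩ : ∃ x, t = l + x := ⟨t - l, by omega⟩
        exact h3 x (by omega) (by omega) (by omega) ((hW x (by omega) (by omega)).2 ht3)
  have hb : ∀ x j, p.B j - x ≤ H p Z x j ∧ H p Z x j ≤ p.B j - x + p.G := fun x j =>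
    hp_bounds p.Ws p.G p.D Z (p.B j - x) h.hD
  constructor
  · obtain ⟨c, hc0⟩ := hlev (i + 1) le_rfl hi
    have s2 : p.B (i + 1) ≤ p.B p.m := h.B_mono hi
    have := hc0.left p.φ hS (g := Z.length) (by omega)
    rwa [List.take_length] at this
  · unfold wt
    refine Finset.sum_congr rfl fun j hj => ?_
    obtain ⟨hj1, hj2⟩ := Finset.mem_Ico.1 hj
    obtain ⟨c, hc0⟩ := hlev j hj1 hj2.le
    obtain ⟨c', hc1⟩ := hlev (j + 1) (by omega) hj2
    have t1 := hB j
    have t2 := (hb l j).2
    have t3 := (hb l' (j + 1)).1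
    have s1 : p.B (i + 1) ≤ p.B j := h.B_mono hj1
    congr 1
    unfold seg
    rw [hc0.left p.φ hS (by omega), hc1.right p.φ hS (by omega)]

end main

end Crest.Agent.R320.Doubt_527
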