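import Crest.Agent.R320.S1_5

/-!
Row 320, leaf (S1b) of helper5's #13143 on ALL words (helper769): the right data of scheme 1 do not
depend on the candidate of the clock, unless a small wall lies within `w` of a level boundary `B j`
or of `B j + G`.  In a wall-free hole the text is periodic and the hole end moves inside the run by
a multiple of `Mq`.
-/

set_option autoImplicit false

namespace Crest.Agent.R320.Doubt_769

open Crest.Agent.R320.S1_5

variable {α S V Wt Nm : Type*}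

theorem exists_pow_stable (S : Type*) [Monoid S] [Finite S] :
    ∃ N0 E : ℕ, 0 < N0 ∧ 0 < E ∧ ∀ s : S, ∀ n, N0 ≤ n → s ^ (n + E) = s ^ n := by
  classical
  have h : ∀ s : S, ∃ i e : ℕ, 0 < e ∧ s ^ (i + e) = s ^ i := by
    intro s
    obtain ⟨i, j, hne, hij⟩ := Finite.exists_ne_map_eq_of_infinite (fun n : ℕ => s ^ n)
    rcases lt_or_gt_of_ne hne with hlt | hlt
    · exact ⟨i, j - i, by omega, by rw [Nat.add_sub_cancel' hlt.le]; exact hij.symm⟩
    · exact ⟨j, i - j, by omega, by rw [Nat.add_sub_cancel' hlt.le]; exact hij⟩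
  choose i e he h using h
  haveI := Fintype.ofFinite S
  refine ⟨∑ s, i s + 1, ∏ s, e s, Nat.succ_pos _, Finset.prod_pos fun s _ => he s,
    fun s n hn => ?_⟩
  have h1 : i s ≤ n :=
    (Finset.single_le_sum (f := i) (fun _ _ => Nat.zero_le _) (Finset.mem_univ s)).trans
      (by omega)
  obtain ⟨k, hk⟩ : e s ∣ ∏ s, e s := Finset.dvd_prod_of_mem _ (Finset.mem_univ s)
  rw [hk]
  have key : ∀ m, i s ≤ m → s ^ (m + e s) = s ^ m := by
    intro m hm
    obtain ⟨d, rfl⟩ := Nat.exists_eq_add_of_le hm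
    rw [show i s + d + e s = (i s + e s) + d by omega, pow_add, h s, ← pow_add]
  clear hk
  induction k with
  | zero => simp
  | succ k ih => rw [Nat.mul_succ, ← add_assoc, key _ (by omega), ih]

theorem pow_stable_mul [Monoid S] {N0 E : ℕ} (hE : ∀ s : S, ∀ n, N0 ≤ n → s ^ (n + E) = s ^ n)
    (s : S) (k : ℕ) : s ^ (N0 + E * k) = s ^ N0 := by
  induction k with
  | zero => simp
  | succ k ih => rw [Nat.mul_succ, ← add_assoc, hE _ _ (by omega), ih]

/-- value of the letters of `Y` on `[a, b)` -/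
def pv [Monoid S] (φ : α → S) (Y : List α) (a b : ℕ) : S := ph φ ((Y.take b).drop a)

theorem pv_add [Monoid S] (φ : α → S) (Y : List α) {a b c : ℕ} (hab : a ≤ b) (hbc : b ≤ c) :
    pv φ Y a c = pv φ Y a b * pv φ Y b c := by
  unfold pv
  rw [← ph_append]
  congr 1
  have h1 : Y.take b = (Y.take c).take b := by rw [List.take_take, min_eq_left hbc]
  rw [h1]
  generalize Y.take c = Z
  conv_lhs => rw [← List.take_append_drop b Z]
  rw [List.drop_append]
  congr 1
  rw [List.drop_drop]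
  by_cases hb : b ≤ Z.length
  · rw [List.length_take, min_eq_left hb]
    congr 1
    omega
  · rw [List.drop_eq_nil_of_le (by omega), List.drop_eq_nil_of_le (by omega)]

/-- the letters of `Y` on `[lo, hi)` have period `q` -/
def PerOn (Y : List α) (q lo hi : ℕ) : Prop := ∀ i, lo ≤ i → i + q < hi → Y[i]? = Y[i + q]?

theorem PerOn.shift {Y : List α} {q lo hi : ℕ} (h : PerOn Y q lo hi) {a : ℕ} (ha : lo ≤ a)
    (h2 : a + q + q ≤ hi) : (Y.take (a + q + q)).drop (a + q) = (Y.take (a + q)).drop a := by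
  apply List.ext_getElem?
  intro i
  rw [List.getElem?_drop, List.getElem?_drop, List.getElem?_take, List.getElem?_take]
  by_cases hi : i < q
  · rw [if_pos (by omega), if_pos (by omega), h (a + i) (by omega) (by omega)]
    congr 1
    omega
  · rw [if_neg (by omega), if_neg (by omega)]

theorem PerOn.pv_shift [Monoid S] (φ : α → S) {Y : List α} {q lo hi : ℕ} (h : PerOn Y q lo hi)
    {a : ℕ} (ha : lo ≤ a) (k : ℕ) (h2 : a + q * k + q ≤ hi) :
    pv φ Y (a + q * k) (a + q * k + q) = pv φ Y a (a + q) := by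
  induction k with
  | zero => simp
  | succ k ih =>
    rw [Nat.mul_succ, ← add_assoc] at h2 ⊢
    rw [← ih (by omega)]
    unfold pv
    rw [h.shift (a := a + q * k) (by omega) (by omega)]

theorem PerOn.pv_pow [Monoid S] (φ : α → S) {Y : List α} {q lo hi : ℕ} (h : PerOn Y q lo hi)
    {a : ℕ} (ha : lo ≤ a) (n : ℕ) (h2 : a + q * n ≤ hi) :
    pv φ Y a (a + q * n) = pv φ Y a (a + q) ^ n := by
  induction n with
  | zero =>
    unfold pv
    simp [ph]
  | succ n ih =>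
    rw [Nat.mul_succ, ← add_assoc] at h2 ⊢
    rw [pv_add φ Y (b := a + q * n) (by omega) (by omega), ih (by omega),
      h.pv_shift φ ha n (by omega), pow_succ]

/-- moving the left end of a segment inside a run -/
theorem moveL [Monoid S] (φ : α → S) {N0 E : ℕ} (hN : 0 < N0)
    (hE : ∀ s : S, ∀ n, N0 ≤ n → s ^ (n + E) = s ^ n)
    {Y : List α} {q lo hi : ℕ} (h : PerOn Y q lo hi) {a k x : ℕ} (ha : lo ≤ a)
    (h1 : a + q * (E * k) + q * N0 ≤ hi) (h2 : a + q * (E * k) + q * N0 ≤ x) :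
    pv φ Y (a + q * (E * k)) x = pv φ Y a x := by
  have e1 : a + q * (E * k) + q * N0 = a + q * (N0 + E * k) := by ring
  have h3 : pv φ Y (a + q * (E * k)) (a + q * (E * k) + q) = pv φ Y a (a + q) := by
    refine h.pv_shift φ ha _ ?_
    have : q * 1 ≤ q * N0 := Nat.mul_le_mul_left q hN
    omega
  rw [pv_add φ Y (a := a + q * (E * k)) (b := a + q * (E * k) + q * N0) (c := x) (by omega)
      (by omega),
    pv_add φ Y (a := a) (b := a + q * (E * k) + q * N0) (c := x) (by omega) (by omega),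
    h.pv_pow φ (a := a + q * (E * k)) (by omega) N0 h1, h3]
  congr 1
  rw [e1, h.pv_pow φ ha _ (by omega), pow_stable_mul hE]

/-- moving the right end of a segment inside a run -/
theorem moveR [Monoid S] (φ : α → S) {N0 E : ℕ}
    (hE : ∀ s : S, ∀ n, N0 ≤ n → s ^ (n + E) = s ^ n)
    {Y : List α} {q lo hi : ℕ} (h : PerOn Y q lo hi) {b k x : ℕ} (hx : x + q * N0 ≤ b)
    (hl : lo + q * N0 ≤ b) (h1 : b + q * (E * k) ≤ hi) :
    pv φ Y x (b + q * (E * k)) = pv φ Y x b := by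
  obtain ⟨c, rfl⟩ : ∃ c, b = c + q * N0 := ⟨b - q * N0, by omega⟩
  have e1 : c + q * N0 + q * (E * k) = c + q * (N0 + E * k) := by ring
  rw [e1] at h1 ⊢
  have e2 : q * (N0 + E * k) = q * N0 + q * (E * k) := by ring
  rw [pv_add φ Y (a := x) (b := c) (c := c + q * (N0 + E * k)) (by omega) (by omega),
    pv_add φ Y (a := x) (b := c) (c := c + q * N0) (by omega) (by omega),
    h.pv_pow φ (by omega) _ h1, h.pv_pow φ (by omega) _ (by omega), pow_stable_mul hE]

/-- symmetric forms -/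
theorem moveL' [Monoid S] (φ : α → S) {N0 E : ℕ} (hN : 0 < N0)
    (hE : ∀ s : S, ∀ n, N0 ≤ n → s ^ (n + E) = s ^ n)
    {Y : List α} {q lo hi : ℕ} (h : PerOn Y q lo hi) {a a' k x : ℕ}
    (hk : a' = a + q * (E * k) ∨ a = a' + q * (E * k)) (ha : lo ≤ a) (ha' : lo ≤ a')
    (h1 : a + q * N0 ≤ hi) (h1' : a' + q * N0 ≤ hi) (h2 : a + q * N0 ≤ x)
    (h2' : a' + q * N0 ≤ x) : pv φ Y a' x = pv φ Y a x := by
  rcases hk with rfl | rfl
  · exact moveL φ hN hE h ha h1' h2'
  · exact (moveL φ hN hE h ha' h1 h2).symm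

theorem moveR' [Monoid S] (φ : α → S) {N0 E : ℕ}
    (hE : ∀ s : S, ∀ n, N0 ≤ n → s ^ (n + E) = s ^ n)
    {Y : List α} {q lo hi : ℕ} (h : PerOn Y q lo hi) {b b' k x : ℕ}
    (hk : b' = b + q * (E * k) ∨ b = b' + q * (E * k)) (hx : x + q * N0 ≤ b)
    (hx' : x + q * N0 ≤ b') (hl : lo + q * N0 ≤ b) (hl' : lo + q * N0 ≤ b') (h1 : b ≤ hi)
    (h1' : b' ≤ hi) : pv φ Y x b' = pv φ Y x b := by
  rcases hk with rfl | rfl
  · exact moveR φ hE h hx hl h1'
  · exact (moveR φ hE h hx' hl' h1).symm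

/-- hole ends of two candidates -/
theorem hp_dich (Ws : List α → Prop) (G D w : ℕ) (Y : List α) (b k : ℕ) (hw : 2 * w ≤ G)
    (hk1 : k ≤ b + w) (hk2 : b ≤ k + w)
    (hclean : ∀ t ≤ Y.length, Ws (Y.take t) →
      ¬ (b ≤ t + w ∧ t ≤ b + w) ∧ ¬ (b + G ≤ t + w ∧ t ≤ b + G + w)) :
    hp Ws G D Y k = hp Ws G D Y b ∨
      ((∀ t ≤ Y.length, b ≤ t + w → t ≤ b + G + w → ¬ Ws (Y.take t)) ∧
        hp Ws G D Y b = b + D ∧ hp Ws G D Y k = k + D) := by
  classical
  have hiff : ∀ t, (k ≤ t ∧ t ≤ k + G ∧ t ≤ Y.length ∧ Ws (Y.take t)) ↔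
      (b ≤ t ∧ t ≤ b + G ∧ t ≤ Y.length ∧ Ws (Y.take t)) := by
    intro t
    constructor
    · rintro ⟨h1, h2, h3, h4⟩
      obtain ⟨h5, h6⟩ := hclean t h3 h4
      refine ⟨?_, ?_, h3, h4⟩ <;> omega
    · rintro ⟨h1, h2, h3, h4⟩
      obtain ⟨h5, h6⟩ := hclean t h3 h4
      refine ⟨?_, ?_, h3, h4⟩ <;> omega
  by_cases h : ∃ t, b ≤ t ∧ t ≤ b + G ∧ t ≤ Y.length ∧ Ws (Y.take t)
  · left
    have h' : ∃ t, k ≤ t ∧ t ≤ k + G ∧ t ≤ Y.length ∧ Ws (Y.take t) := by
      obtain ⟨t, ht⟩ := h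
      exact ⟨t, (hiff t).2 ht⟩
    unfold hp
    rw [dif_pos h, dif_pos h']
    apply le_antisymm
    · exact Nat.find_min' h' ((hiff _).2 (Nat.find_spec h))
    · exact Nat.find_min' h ((hiff _).1 (Nat.find_spec h'))
  · right
    have h' : ¬ ∃ t, k ≤ t ∧ t ≤ k + G ∧ t ≤ Y.length ∧ Ws (Y.take t) := by
      rintro ⟨t, ht⟩
      exact h ⟨t, (hiff t).1 ht⟩
    refine ⟨?_, ?_, ?_⟩
    · intro t h3 h1 h2 h4
      obtain ⟨h5, h6⟩ := hclean t h3 h4
      exact h ⟨t, by omega, by omega, h3, h4⟩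
    · unfold hp
      rw [dif_neg h]
    · unfold hp
      rw [dif_neg h']

section

variable [Monoid S] [AddCommGroup V] [AddCommGroup Wt] {p : Par α S V Wt Nm}

/-- **mode (D) off, all words**: the hypothesis `hdoubt` of `Ok.complete`. -/
theorem hdoubt_all (h : Ok p) (Y : List α) (w g0 gP N0 E : ℕ) (hN : 0 < N0)
    (hE : ∀ s : S, ∀ n, N0 ≤ n → s ^ (n + E) = s ^ n)
    (hMq : ∀ q, 0 < q → q ≤ gP → q * E ∣ p.Mq)
    (hcw : ∀ i om om', p.cell i om → p.cell i om' → p.Mq * om ≤ p.Mq * om' + w)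
    (hcr : ∀ i om, p.cell i om → p.Mq * om + p.ns + w ≤ p.B (i + 1))
    (hper : ∀ a b, a ≤ b → b ≤ Y.length → (∀ t, a ≤ t → t ≤ b → ¬ p.Ws (Y.take t)) →
      ∃ q, 0 < q ∧ q ≤ gP ∧ ∀ i, a + g0 ≤ i → i + q + g0 < b → Y[i]? = Y[i + q]?)
    (hD1 : g0 + 2 * w + N0 * gP ≤ p.D) (hD2 : p.D + g0 + 2 * w + N0 * gP ≤ p.G)
    (hlen : p.B p.m + p.G + w ≤ Y.length)
    (hclean : ∀ j, 1 ≤ j → j ≤ p.m → ∀ t ≤ Y.length, p.Ws (Y.take t) →
      ¬ (p.B j ≤ t + w ∧ t ≤ p.B j + w) ∧ ¬ (p.B j + p.G ≤ t + w ∧ t ≤ p.B j + p.G + w)) :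
    ∀ i < p.m, ∀ om om', p.cell i om → p.cell i om' → p.Mq * om ≤ Y.length →
      ph p.φ ((Y.drop (p.Mq * om)).drop (H p (Y.drop (p.Mq * om)) (p.Mq * om') (i + 1))) =
        ph p.φ ((Y.drop (p.Mq * om)).drop (H p (Y.drop (p.Mq * om)) (p.Mq * om) (i + 1))) ∧
      wt p (Y.drop (p.Mq * om)) (p.Mq * om') (i + 1) p.m =
        wt p (Y.drop (p.Mq * om)) (p.Mq * om) (i + 1) p.m := by
  intro i hi om om' hc hc' hom
  set l := p.Mq * om with hl
  -- the claimed hole ends in the coordinates of `Y`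
  have hPl : (Y.take l).length = l := by rw [List.length_take]; omega
  have hYe : Y.take l ++ Y.drop l = Y := List.take_append_drop _ _
  have hns : ∀ o, p.cell i o → ∀ j, i + 1 ≤ j → p.Mq * o + p.ns + w ≤ p.B j := by
    intro o ho j hj
    exact (hcr i o ho).trans (h.B_mono hj)
  have hH : ∀ o, p.cell i o → ∀ j, i + 1 ≤ j →
      l + H p (Y.drop l) (p.Mq * o) j = hp p.Ws p.G p.D Y (l + (p.B j - p.Mq * o)) := by
    intro o ho j hj
    have h1 := hns o ho j hj
    have := hp_right p.Ws p.ns h.loc p.G p.D (Y.take l) (Y.drop l) (k := p.B j - p.Mq * o)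
      (by omega)
    rw [hYe, hPl] at this
    rw [this]
    rfl
  have hHt : ∀ j, i + 1 ≤ j → l + H p (Y.drop l) l j = hp p.Ws p.G p.D Y (p.B j) := by
    intro j hj
    have h1 := hns om hc j hj
    rw [hl, hH om hc j hj]
    congr 1
    omega
  -- dichotomy
  have hdich : ∀ j, i + 1 ≤ j → j ≤ p.m →
      hp p.Ws p.G p.D Y (l + (p.B j - p.Mq * om')) = hp p.Ws p.G p.D Y (p.B j) ∨
      (∃ q k, 0 < q ∧ q ≤ gP ∧ PerOn Y q (p.B j + g0 - w) (p.B j + p.G + w - g0) ∧
        hp p.Ws p.G p.D Y (p.B j) = p.B j + p.D ∧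
        (hp p.Ws p.G p.D Y (l + (p.B j - p.Mq * om')) = p.B j + p.D + q * (E * k) ∨
         p.B j + p.D = hp p.Ws p.G p.D Y (l + (p.B j - p.Mq * om')) + q * (E * k)) ∧
        hp p.Ws p.G p.D Y (l + (p.B j - p.Mq * om')) ≤ p.B j + p.D + w ∧
        p.B j + p.D ≤ hp p.Ws p.G p.D Y (l + (p.B j - p.Mq * om')) + w) := by
    intro j hj hjm
    have h1 := hns om hc j hj
    have h2 := hns om' hc' j hj
    have h3 := hcw i om om' hc hc'
    have h4 := hcw i om' om hc' hc
    have hb : p.B j + p.G + w ≤ Y.length := by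
      have := h.B_mono hjm
      omega
    rcases hp_dich p.Ws p.G p.D w Y (p.B j) (l + (p.B j - p.Mq * om')) (by omega) (by omega)
      (by omega) (hclean j (by omega) hjm) with h5 | ⟨h5, h6, h7⟩
    · exact Or.inl h5
    · right
      obtain ⟨q, hq0, hq, hqp⟩ := hper (p.B j - w) (p.B j + p.G + w) (by omega) hb (by
        intro t ht1 ht2
        exact h5 t (by omega) (by omega) ht2)
      obtain ⟨c, hcM⟩ := hMq q hq0 hq
      rw [h6, h7]
      rcases le_total om' om with hle | hle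
      · refine ⟨q, c * (om - om'), hq0, hq, ?_, rfl, Or.inl ?_, by omega, by omega⟩
        · intro t ht1 ht2
          exact hqp t (by omega) (by omega)
        · have e1 : q * (E * (c * (om - om'))) = p.Mq * (om - om') := by rw [hcM]; ring
          have e2 : p.Mq * (om - om') = p.Mq * om - p.Mq * om' := Nat.mul_sub _ _ _
          have e3 : p.Mq * om' ≤ p.Mq * om := Nat.mul_le_mul_left _ hle
          rw [e1, e2]
          omega
      · refine ⟨q, c * (om' - om), hq0, hq, ?_, rfl, Or.inr ?_, by omega, by omega⟩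
        · intro t ht1 ht2
          exact hqp t (by omega) (by omega)
        · have e1 : q * (E * (c * (om' - om))) = p.Mq * (om' - om) := by rw [hcM]; ring
          have e2 : p.Mq * (om' - om) = p.Mq * om' - p.Mq * om := Nat.mul_sub _ _ _
          have e3 : p.Mq * om ≤ p.Mq * om' := Nat.mul_le_mul_left _ hle
          rw [e1, e2]
          omega
  -- bounds for hole ends
  have hb1 : ∀ k, k ≤ hp p.Ws p.G p.D Y k ∧ hp p.Ws p.G p.D Y k ≤ k + p.G :=
    fun k => hp_bounds p.Ws p.G p.D Y k h.hD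
  have hqN : ∀ q, q ≤ gP → q * N0 ≤ N0 * gP := by
    intro q hq
    rw [mul_comm N0 gP]
    exact Nat.mul_le_mul_right _ hq
  -- moving a left end
  have hL : ∀ j, i + 1 ≤ j → j ≤ p.m → ∀ x, p.B j + p.G ≤ x + w →
      pv p.φ Y (hp p.Ws p.G p.D Y (l + (p.B j - p.Mq * om'))) x =
        pv p.φ Y (hp p.Ws p.G p.D Y (p.B j)) x := by
    intro j hj hjm x hx
    rcases hdich j hj hjm with h1 | ⟨q, k, hq0, hq, hP, h2, h3, h4, h5⟩
    · rw [h1]
    · have h6 := hqN q hq
      have h7 := hns om' hc' j hj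
      rw [h2]
      refine moveL' p.φ hN hE hP (k := k) h3 ?_ ?_ ?_ ?_ ?_ ?_ <;> omega
  have hR : ∀ j, i + 1 ≤ j → j ≤ p.m → ∀ x, x ≤ p.B j →
      pv p.φ Y x (hp p.Ws p.G p.D Y (l + (p.B j - p.Mq * om'))) =
        pv p.φ Y x (hp p.Ws p.G p.D Y (p.B j)) := by
    intro j hj hjm x hx
    rcases hdich j hj hjm with h1 | ⟨q, k, hq0, hq, hP, h2, h3, h4, h5⟩
    · rw [h1]
    · have h6 := hqN q hq
      have h7 := hns om' hc' j hj
      rw [h2]
      refine moveR' p.φ hE hP (k := k) h3 ?_ ?_ ?_ ?_ ?_ ?_ <;> omega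
  constructor
  · rw [List.drop_drop, List.drop_drop, hH om' hc' (i + 1) le_rfl, hHt (i + 1) le_rfl]
    have h8 : ∀ a, Y.drop a = (Y.take Y.length).drop a := by
      intro a; rw [List.take_length]
    rw [h8, h8 (hp p.Ws p.G p.D Y (p.B (i + 1)))]
    have h9 : p.B (i + 1) ≤ p.B p.m := h.B_mono (by omega)
    exact hL (i + 1) le_rfl (by omega) Y.length (by omega)
  · unfold wt
    refine Finset.sum_congr rfl fun j hj => ?_
    have hj1 : i + 1 ≤ j := (Finset.mem_Ico.1 hj).1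
    have hj2 : j < p.m := (Finset.mem_Ico.1 hj).2
    have hseg : ∀ o, seg p (Y.drop l) (p.Mq * o) j =
        (Y.take (l + H p (Y.drop l) (p.Mq * o) (j + 1))).drop
          (l + H p (Y.drop l) (p.Mq * o) j) := by
      intro o
      unfold seg
      rw [List.take_drop, List.drop_drop]
    have e1 := hseg om'
    have e2 := hseg om
    rw [hH om' hc' j hj1, hH om' hc' (j + 1) (by omega)] at e1
    rw [← hl] at e2
    rw [hHt j hj1, hHt (j + 1) (by omega)] at e2
    rw [e1, e2]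
    congr 1
    have h10 := h.B0 j
    have h11 := (hb1 (l + (p.B (j + 1) - p.Mq * om'))).1
    have h12 := (hb1 (p.B j)).2
    have h3 := hcw i om om' hc hc'
    have h4 := hcw i om' om hc' hc
    have h13 := hns om' hc' (j + 1) (by omega)
    exact (hL j hj1 hj2.le _ (by omega)).trans (hR (j + 1) (by omega) hj2 _ (by omega))

end

end Crest.Agent.R320.Doubt_769
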