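import Mathlib

/-!
Row 320 (S0495), piece (4) of the lead's list: 860's lemma.  On walls with all gaps in `{L, L+1}` a
`z₁`-chain and a `z₂`-chain, `z₂ = z₁ + 2 L + ⌊L/2⌋`, cannot both be critical (`Bad`) on a long common
stretch.  Everything is a statement on a predicate `Wl : ℤ → Prop` ("there is a wall at this place").

* `drift`: the two chains in parallel.
* `piece`: every stretch `[u, u + PP]` contains a clean element of one of the two chains.
* `poor`: fewer than `m + 1` clean elements for both chains is impossible on `2 m + 1` pieces.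
-/

set_option autoImplicit false

namespace Crest.Agent.R320.Drift_714

/-- `b` is the first wall at or after `t`. -/
def IsFirst (Wl : ℤ → Prop) (t b : ℤ) : Prop := Wl b ∧ t ≤ b ∧ ∀ y, Wl y → t ≤ y → b ≤ y

/-- Rigid walls (all gaps are `L` or `L + 1`) on `[lo, hi]`. -/
structure Rigid (Wl : ℤ → Prop) (L lo hi : ℤ) : Prop where
  sep : ∀ x y, Wl x → Wl y → lo ≤ x → x < y → y ≤ hi → x + L ≤ y
  nxt : ∀ x, Wl x → lo ≤ x → x + L + 1 ≤ hi → Wl (x + L) ∨ Wl (x + L + 1)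

/-- `a` is critical for the step `z`: some wall is within `N` of `a + z`. -/
def Bad (Wl : ℤ → Prop) (z N a : ℤ) : Prop := ∃ w, Wl w ∧ |w - (a + z)| ≤ N

variable {Wl : ℤ → Prop} {L N z₁ z₂ lo hi : ℤ}

theorem dist_aux (R : Rigid Wl L lo hi) (hL : 1 ≤ L) : ∀ (n : ℕ) (x y : ℤ), Wl x → Wl y → lo ≤ x →
    x ≤ y → y ≤ hi → y - x ≤ n → ∃ k : ℕ, (k : ℤ) * L ≤ y - x ∧ y - x ≤ (k : ℤ) * L + k := by
  intro n
  induction n with
  | zero =>
    intro x y _ _ _ hxy _ h
    refine ⟨0, ?_, ?_⟩ <;> push_cast at * <;> linarith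
  | succ n ih =>
    intro x y hx hy hlo hxy hhi h
    rcases eq_or_lt_of_le hxy with e | hlt
    · exact ⟨0, by simp [e], by simp [e]⟩
    have h1 := R.sep x y hx hy hlo hlt hhi
    by_cases hy' : y = x + L
    · exact ⟨1, by simp [hy'], by simp [hy']⟩
    have h2 : x + L + 1 ≤ y := by omega
    rcases R.nxt x hx hlo (by omega) with hw | hw
    · obtain ⟨k, hk1, hk2⟩ := ih (x + L) y hw hy (by omega) (by omega) hhi
        (by push_cast at h; omega)
      refine ⟨k + 1, ?_, ?_⟩ <;> push_cast <;> nlinarith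
    · obtain ⟨k, hk1, hk2⟩ := ih (x + L + 1) y hw hy (by omega) (by omega) hhi
        (by push_cast at h; omega)
      refine ⟨k + 1, ?_, ?_⟩ <;> push_cast <;> nlinarith

theorem dist_le (R : Rigid Wl L lo hi) (hL : 1 ≤ L) {x y : ℤ} (hx : Wl x) (hy : Wl y)
    (hlo : lo ≤ x) (hxy : x ≤ y) (hhi : y ≤ hi) {c : ℕ} (hc : y - x ≤ c * L) :
    ∃ k : ℕ, k ≤ c ∧ (k : ℤ) * L ≤ y - x ∧ y - x ≤ (k : ℤ) * L + k := by
  obtain ⟨k, h1, h2⟩ := dist_aux R hL (y - x).toNat x y hx hy hlo hxy hhi (by omega)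
  refine ⟨k, ?_, h1, h2⟩
  by_contra hk
  have : (c : ℤ) + 1 ≤ k := by exact_mod_cast (not_le.mp hk)
  nlinarith

/-- Two critical walls are never within `3 L` of each other. -/
theorem near (hN : 0 ≤ N) (hL : 4 * N + 40 ≤ L) (hz : z₂ = z₁ + 2 * L + L / 2) (hz1 : N ≤ z₁)
    (R : Rigid Wl L lo hi) {a b : ℤ} (ha : Wl a) (hb : Wl b) (hla : lo ≤ a) (hlb : lo ≤ b)
    (hha : a + z₁ + L ≤ hi) (hhb : b + z₂ + L ≤ hi) (ba : Bad Wl z₁ N a) (bb : Bad Wl z₂ N b)
    (h3 : |b - a| ≤ 3 * L) : False := by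
  obtain ⟨w, hw, hw'⟩ := ba
  obtain ⟨v, hv, hv'⟩ := bb
  rw [abs_le] at hw' hv' h3
  have hL1 : 1 ≤ L := by omega
  have e2 : 0 ≤ L / 2 := by omega
  rcases le_total a b with hab | hab <;> rcases le_total w v with hwv | hwv
  · obtain ⟨k, hk, k1, k2⟩ := dist_le R hL1 ha hb hla hab (by omega) (c := 3) (by push_cast; omega)
    obtain ⟨l, hl, l1, l2⟩ := dist_le R hL1 hw hv (by omega) hwv (by omega) (c := 6)
      (by push_cast; omega)
    interval_cases k <;> interval_cases l <;> push_cast at * <;> omega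
  · obtain ⟨k, hk, k1, k2⟩ := dist_le R hL1 ha hb hla hab (by omega) (c := 3) (by push_cast; omega)
    obtain ⟨l, hl, l1, l2⟩ := dist_le R hL1 hv hw (by omega) hwv (by omega) (c := 6)
      (by push_cast; omega)
    interval_cases k <;> interval_cases l <;> push_cast at * <;> omega
  · obtain ⟨k, hk, k1, k2⟩ := dist_le R hL1 hb ha hlb hab (by omega) (c := 3) (by push_cast; omega)
    obtain ⟨l, hl, l1, l2⟩ := dist_le R hL1 hw hv (by omega) hwv (by omega) (c := 6)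
      (by push_cast; omega)
    interval_cases k <;> interval_cases l <;> push_cast at * <;> omega
  · obtain ⟨k, hk, k1, k2⟩ := dist_le R hL1 hb ha hlb hab (by omega) (c := 3) (by push_cast; omega)
    obtain ⟨l, hl, l1, l2⟩ := dist_le R hL1 hv hw (by omega) hwv (by omega) (c := 6)
      (by push_cast; omega)
    interval_cases k <;> interval_cases l <;> push_cast at * <;> omega

theorem exists_wall (R : Rigid Wl L lo hi) (hL : 1 ≤ L) : ∀ (n : ℕ) (x t : ℤ), Wl x → lo ≤ x →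
    x ≤ t → t + L ≤ hi → t - x ≤ n → ∃ y, Wl y ∧ t ≤ y ∧ y ≤ t + L := by
  intro n
  induction n with
  | zero =>
    intro x t hx _ hxt _ h
    exact ⟨x, hx, by push_cast at h; omega, by omega⟩
  | succ n ih =>
    intro x t hx hlo hxt hhi h
    rcases eq_or_lt_of_le hxt with e | hlt
    · exact ⟨x, hx, by omega, by omega⟩
    rcases R.nxt x hx hlo (by omega) with hw | hw
    · by_cases hc : t ≤ x + L
      · exact ⟨x + L, hw, hc, by omega⟩
      · exact ih (x + L) t hw (by omega) (by omega) hhi (by push_cast at h; omega)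
    · by_cases hc : t ≤ x + L + 1
      · exact ⟨x + L + 1, hw, hc, by omega⟩
      · exact ih (x + L + 1) t hw (by omega) (by omega) hhi (by push_cast at h; omega)

/-- A chain step is between `z` and `z + L`. -/
theorem step (R : Rigid Wl L lo hi) (hL : 1 ≤ L) {a z b : ℤ} (hz : 0 ≤ z) (ha : Wl a)
    (hlo : lo ≤ a) (hhi : a + z + L ≤ hi) (h : IsFirst Wl (a + z) b) :
    a + z ≤ b ∧ b ≤ a + z + L := by
  refine ⟨h.2.1, ?_⟩
  obtain ⟨y, hy, h1, h2⟩ := exists_wall R hL z.toNat a (a + z) ha hlo (by omega) hhi (by omega)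
  exact (h.2.2 y hy h1).trans h2

/-- 860's lemma: a `z₁`-chain and a `z₂`-chain which are both critical at `K + 1` parallel steps. -/
theorem drift (hN : 0 ≤ N) (hL : 4 * N + 40 ≤ L) (hz : z₂ = z₁ + 2 * L + L / 2) (hz1 : N ≤ z₁)
    (R : Rigid Wl L lo hi) (a b : ℕ → ℤ) (K : ℕ) (wa : Wl (a 0)) (wb : Wl (b 0))
    (la : lo ≤ a 0) (lb : lo ≤ b 0)
    (ha : ∀ k ≤ K, a k + z₁ + L ≤ hi) (hb : ∀ k ≤ K, b k + z₂ + L ≤ hi)
    (ca : ∀ k < K, IsFirst Wl (a k + z₁) (a (k + 1)))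
    (cb : ∀ k < K, IsFirst Wl (b k + z₂) (b (k + 1)))
    (ba : ∀ k ≤ K, Bad Wl z₁ N (a k)) (bb : ∀ k ≤ K, Bad Wl z₂ N (b k))
    (h0 : b 0 - a 0 < -(3 * L)) (hK : a 0 - b 0 ≤ K * L) : False := by
  have hL1 : 1 ≤ L := by omega
  have key : ∀ k : ℕ, k ≤ K → Wl (a k) ∧ Wl (b k) ∧ lo ≤ a k ∧ lo ≤ b k ∧
      b k - a k < -(3 * L) ∧ b 0 - a 0 + k * L ≤ b k - a k := by
    intro k
    induction k with
    | zero => intro _; exact ⟨wa, wb, la, lb, h0, by simp⟩
    | succ k ih =>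
      intro hk
      obtain ⟨h1, h2, h3, h4, h5, h6⟩ := ih (by omega)
      have sa := step R hL1 (by omega) h1 h3 (ha k (by omega)) (ca k (by omega))
      have sb := step R hL1 (by omega) h2 h4 (hb k (by omega)) (cb k (by omega))
      refine ⟨(ca k (by omega)).1, (cb k (by omega)).1, by omega, by omega, ?_, ?_⟩
      · by_contra hcon
        refine near hN hL hz hz1 R (ca k (by omega)).1 (cb k (by omega)).1 (by omega) (by omega)
          (ha (k + 1) hk) (hb (k + 1) hk) (ba (k + 1) hk) (bb (k + 1) hk) ?_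
        rw [abs_le]
        constructor <;> omega
      · push_cast
        have : (k : ℤ) * L + L ≤ b (k + 1) - a (k + 1) - (b 0 - a 0) := by omega
        linarith
  obtain ⟨-, -, -, -, h5, h6⟩ := key K le_rfl
  omega

/-- Number of parallel steps used in a piece. -/
def KK (L z₁ : ℤ) : ℕ := (z₁ / L).toNat + 6

/-- Length of a piece. -/
def PP (L z₁ z₂ : ℤ) : ℤ := (KK L z₁ + 2) * (z₂ + L) + 4 * L

theorem exists_ge (R : Rigid Wl L lo hi) (hL : 1 ≤ L) {z u : ℤ} (hz : 1 ≤ z) (a : ℕ → ℤ)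
    (wa : Wl (a 0)) (la : lo ≤ a 0) (h0 : a 0 ≤ u) (hu : u + z + L ≤ hi)
    (ca : ∀ k, a k + z + L ≤ hi → IsFirst Wl (a k + z) (a (k + 1))) :
    ∃ k, Wl (a k) ∧ lo ≤ a k ∧ u ≤ a k ∧ a k ≤ u + z + L := by
  by_contra hcon
  push Not at hcon
  have key : ∀ k : ℕ, Wl (a k) ∧ lo ≤ a k ∧ a k < u ∧ a 0 + k ≤ a k := by
    intro k
    induction k with
    | zero =>
      refine ⟨wa, la, ?_, by simp⟩
      by_contra hc
      have := hcon 0 wa la (by omega)
      omega
    | succ k ih =>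
      obtain ⟨h1, h2, h3, h4⟩ := ih
      have c := ca k (by omega)
      have s := step R hL (by omega) h1 h2 (by omega) c
      refine ⟨c.1, by omega, ?_, by push_cast; omega⟩
      by_contra hc
      have := hcon (k + 1) c.1 (by omega) (by omega)
      omega
  have := (key (u - a 0).toNat).2.2
  omega

/-- The chain stays on walls and moves by at most `k (z + L)` in `k` steps. -/
theorem run (R : Rigid Wl L lo hi) (hL : 1 ≤ L) {z : ℤ} (hz : 1 ≤ z) (a : ℕ → ℤ) (K : ℕ)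
    (wa : Wl (a 0)) (la : lo ≤ a 0) (hK : a 0 + (K + 1) * (z + L) ≤ hi)
    (ca : ∀ k, a k + z + L ≤ hi → IsFirst Wl (a k + z) (a (k + 1))) :
    ∀ k : ℕ, k ≤ K → Wl (a k) ∧ a 0 ≤ a k ∧ a k ≤ a 0 + k * (z + L) ∧ a k + z + L ≤ hi := by
  intro k
  induction k with
  | zero =>
    intro _
    refine ⟨wa, le_rfl, by simp, ?_⟩
    have : (0 : ℤ) ≤ K * (z + L) := by positivity
    nlinarith
  | succ k ih =>
    intro hk
    obtain ⟨h1, h2, h3, h4⟩ := ih (by omega)
    have c := ca k h4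
    have s := step R hL (by omega) h1 (by omega) h4 c
    have e : a (k + 1) ≤ a 0 + ((k : ℤ) + 1) * (z + L) := by nlinarith
    refine ⟨c.1, by omega, by push_cast; exact e, ?_⟩
    have hk' : ((k : ℤ) + 1) ≤ K := by exact_mod_cast hk
    have : ((k : ℤ) + 1) * (z + L) ≤ K * (z + L) :=
      mul_le_mul_of_nonneg_right hk' (by omega)
    nlinarith

theorem K_spec (hL : 1 ≤ L) (hz : 0 ≤ z₁) : 5 * L + z₁ ≤ (KK L z₁ : ℤ) * L := by
  unfold KK
  have h1 : 0 ≤ z₁ / L := Int.ediv_nonneg hz (by omega)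
  have h2 := Int.lt_ediv_add_one_mul_self z₁ (show 0 < L by omega)
  push_cast
  rw [Int.toNat_of_nonneg h1]
  nlinarith

/-- Every piece `[u, u + PP]` contains a clean element of one of the two chains. -/
theorem piece (hN : 0 ≤ N) (hL : 4 * N + 40 ≤ L) (hz : z₂ = z₁ + 2 * L + L / 2) (hz1 : N ≤ z₁)
    (hz1' : 1 ≤ z₁) (R : Rigid Wl L lo hi) (a b : ℕ → ℤ) (wa : Wl (a 0)) (wb : Wl (b 0))
    (la : lo ≤ a 0) (lb : lo ≤ b 0)
    (ca : ∀ k, a k + z₁ + L ≤ hi → IsFirst Wl (a k + z₁) (a (k + 1)))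
    (cb : ∀ k, b k + z₂ + L ≤ hi → IsFirst Wl (b k + z₂) (b (k + 1)))
    (u : ℤ) (hau : a 0 ≤ u) (hbu : b 0 ≤ u) (hu : u + PP L z₁ z₂ + z₂ + L ≤ hi)
    (ba : ∀ k, u ≤ a k → a k ≤ u + PP L z₁ z₂ → Bad Wl z₁ N (a k))
    (bb : ∀ k, u ≤ b k → b k ≤ u + PP L z₁ z₂ → Bad Wl z₂ N (b k)) : False := by
  have hL1 : 1 ≤ L := by omega
  have e2 : 0 ≤ L / 2 := by omega
  obtain ⟨K, hKdef⟩ : ∃ K : ℕ, K = KK L z₁ := ⟨_, rfl⟩
  have hKs : 5 * L + z₁ ≤ (K : ℤ) * L := by
    rw [hKdef]; exact K_spec hL1 (by omega)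
  have hP : PP L z₁ z₂ = (K + 2) * (z₂ + L) + 4 * L := by simp [PP, hKdef]
  have hK0 : (0 : ℤ) ≤ K * (z₂ + L) := by
    have : (0 : ℤ) ≤ K := by positivity
    exact mul_nonneg this (by omega)
  have hK1 : (K : ℤ) * (z₁ + L) ≤ K * (z₂ + L) :=
    mul_le_mul_of_nonneg_left (by omega) (by positivity)
  have hP' : PP L z₁ z₂ = K * (z₂ + L) + 2 * z₂ + 6 * L := by rw [hP]; ring
  obtain ⟨i, i1, i2, i3, i4⟩ := exists_ge R hL1 (z := z₂) (u := u) (by omega) b wb lb hbu
    (by omega) cb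
  obtain ⟨j, j1, j2, j3, j4⟩ := exists_ge R hL1 (z := z₁) (u := b i + 3 * L + 1) (by omega) a wa la
    (by omega) (by omega) ca
  have ra := run R hL1 (z := z₁) hz1' (fun k => a (j + k)) K j1 j2
    (by
      have : ((K : ℤ) + 1) * (z₁ + L) = K * (z₁ + L) + z₁ + L := by ring
      simp only [Nat.add_zero]
      rw [this]; omega)
    (fun k hk => ca (j + k) hk)
  have rb := run R hL1 (z := z₂) (by omega) (fun k => b (i + k)) K i1 i2
    (by
      have : ((K : ℤ) + 1) * (z₂ + L) = K * (z₂ + L) + z₂ + L := by ring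
      simp only [Nat.add_zero]
      rw [this]; omega)
    (fun k hk => cb (i + k) hk)
  simp only [Nat.add_zero] at ra rb
  have boundA : ∀ k : ℕ, k ≤ K → ((k : ℤ)) * (z₁ + L) ≤ K * (z₁ + L) := fun k hk =>
    mul_le_mul_of_nonneg_right (by exact_mod_cast hk) (by omega)
  have boundB : ∀ k : ℕ, k ≤ K → ((k : ℤ)) * (z₂ + L) ≤ K * (z₂ + L) := fun k hk =>
    mul_le_mul_of_nonneg_right (by exact_mod_cast hk) (by omega)
  refine drift hN hL hz hz1 R (fun k => a (j + k)) (fun k => b (i + k)) K j1 i1 j2 i2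
    (fun k hk => (ra k hk).2.2.2) (fun k hk => (rb k hk).2.2.2)
    (fun k hk => ca (j + k) (ra k hk.le).2.2.2) (fun k hk => cb (i + k) (rb k hk.le).2.2.2)
    (fun k hk => ba (j + k) ?_ ?_) (fun k hk => bb (i + k) ?_ ?_) ?_ ?_
  · have := (ra k hk).2.1; omega
  · have h1 := (ra k hk).2.2.1
    have h2 := boundA k hk
    omega
  · have := (rb k hk).2.1; omega
  · have h1 := (rb k hk).2.2.1
    have h2 := boundB k hk
    omega
  · simp only [Nat.add_zero]; omega
  · simp only [Nat.add_zero]; omega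

/-- Pigeonhole form: on `2 m + 1` consecutive pieces it is impossible that each of the two chains
has at most `m` clean elements. -/
theorem poor (hN : 0 ≤ N) (hL : 4 * N + 40 ≤ L) (hz : z₂ = z₁ + 2 * L + L / 2) (hz1 : N ≤ z₁)
    (hz1' : 1 ≤ z₁) (R : Rigid Wl L lo hi) (a b : ℕ → ℤ) (wa : Wl (a 0)) (wb : Wl (b 0))
    (la : lo ≤ a 0) (lb : lo ≤ b 0)
    (ca : ∀ k, a k + z₁ + L ≤ hi → IsFirst Wl (a k + z₁) (a (k + 1)))
    (cb : ∀ k, b k + z₂ + L ≤ hi → IsFirst Wl (b k + z₂) (b (k + 1)))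
    (m : ℕ) (u : ℤ) (hau : a 0 ≤ u) (hbu : b 0 ≤ u)
    (hu : u + (2 * m + 1) * (PP L z₁ z₂ + 1) + z₂ + L ≤ hi)
    (CA CB : Finset ℤ) (hCA : CA.card ≤ m) (hCB : CB.card ≤ m)
    (ba : ∀ k, u ≤ a k → a k < u + (2 * m + 1) * (PP L z₁ z₂ + 1) →
      ¬ Bad Wl z₁ N (a k) → a k ∈ CA)
    (bb : ∀ k, u ≤ b k → b k < u + (2 * m + 1) * (PP L z₁ z₂ + 1) →
      ¬ Bad Wl z₂ N (b k) → b k ∈ CB) : False := by
  classical
  set P := PP L z₁ z₂ with hP
  have hP0 : 0 ≤ P := by
    rw [hP, PP]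
    have : (0 : ℤ) ≤ (KK L z₁ + 2) := by positivity
    have e2 : 0 ≤ L / 2 := by omega
    have := mul_nonneg this (show (0 : ℤ) ≤ z₂ + L by omega)
    omega
  have H : ∀ i : Fin (2 * m + 1), ∃ x ∈ CA ∪ CB,
      u + (i : ℕ) * (P + 1) ≤ x ∧ x < u + ((i : ℕ) + 1) * (P + 1) := by
    intro i
    by_contra hcon
    push Not at hcon
    have hi1 : ((i : ℕ) : ℤ) + 1 ≤ 2 * m + 1 := by
      have := i.2
      exact_mod_cast this
    have hi2 : (((i : ℕ) : ℤ) + 1) * (P + 1) ≤ (2 * m + 1) * (P + 1) :=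
      mul_le_mul_of_nonneg_right hi1 (by omega)
    have hi0 : (0 : ℤ) ≤ ((i : ℕ) : ℤ) * (P + 1) := mul_nonneg (by positivity) (by omega)
    have hi3 : (((i : ℕ) : ℤ) + 1) * (P + 1) = ((i : ℕ) : ℤ) * (P + 1) + P + 1 := by ring
    refine piece hN hL hz hz1 hz1' R a b wa wb la lb ca cb (u + (i : ℕ) * (P + 1)) (by omega)
      (by omega) (by omega) ?_ ?_
    · intro k k1 k2
      by_contra hb
      have hm := ba k (by omega) (by omega) hb
      have := hcon (a k) (Finset.mem_union_left _ hm) k1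
      omega
    · intro k k1 k2
      by_contra hb
      have hm := bb k (by omega) (by omega) hb
      have := hcon (b k) (Finset.mem_union_right _ hm) k1
      omega
  choose f hf1 hf2 hf3 using H
  have inj : Function.Injective f := by
    intro i j hij
    by_contra hne
    rcases lt_or_gt_of_ne (fun h : (i : ℕ) = j => hne (Fin.ext h)) with h | h
    · have h' : ((i : ℕ) : ℤ) + 1 ≤ (j : ℕ) := by exact_mod_cast h
      have := mul_le_mul_of_nonneg_right h' (show (0 : ℤ) ≤ P + 1 by omega)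
      have := hf3 i
      have := hf2 j
      rw [hij] at *
      omega
    · have h' : ((j : ℕ) : ℤ) + 1 ≤ (i : ℕ) := by exact_mod_cast h
      have := mul_le_mul_of_nonneg_right h' (show (0 : ℤ) ≤ P + 1 by omega)
      have := hf3 j
      have := hf2 i
      rw [hij] at *
      omega
  have h1 : (Finset.univ.image f).card = 2 * m + 1 := by
    rw [Finset.card_image_of_injective _ inj]; simp
  have h2 : Finset.univ.image f ⊆ CA ∪ CB := by
    intro x hx
    obtain ⟨i, -, rfl⟩ := Finset.mem_image.mp hx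
    exact hf1 i
  have h3 := Finset.card_le_card h2
  have h4 := Finset.card_union_le CA CB
  omega

end Crest.Agent.R320.Drift_714
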