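import Crest.Agent.R320.End_712

/-!
# Row 320: the join of the two schemes with the top (helper712)
-/

set_option autoImplicit false

namespace Crest.Agent.R320.End_712

open Crest.RegLang Crest.Agent.R320.Hk_851 Crest.Agent.R320.Half1_180
  Crest.Agent.R320.FewWalls_228 Crest.Agent.R320.WallU_228 Crest.Agent.R320.Sc2n_937

universe u

variable {α : Type u}

theorem join [Finite α] {M V : Type*} [Monoid M] [Finite M] [AddCommGroup V] [Finite V]
    (f : α → M) (act : V → M → V)
    (act_zero : ∀ s, act 0 s = 0) (act_one : ∀ v, act v 1 = v)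
    (act_mul : ∀ v s s', act (act v s) s' = act v (s * s'))
    (act_sub : ∀ v v' s, act v s - act v' s = act (v - v') s)
    (faithful : ∀ s s', (∀ v, act v s = act v s') → s = s')
    (g : Geo α) (S : Set (List α)) (hWo : ∀ w, g.Wo w ↔ Wo g.n S w)
    (hgap : ∀ P Q : List α, g.Wo P → g.Wo (P ++ Q) → Q ≠ [] → 2 * g.p0 + 2 * g.N1 < Q.length)
    (hfew : ∀ (L : Language α), L.IsRegular → ∀ r,
      HL 1 ({w | w ∈ L ∧ nw g.n S w ≤ r} : Language α))
    (lam rho : List α → Option V) (nu1 nu2 : List α → V) (BadT : ℕ → Prop) (Pm La : ℕ)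
    (hPm : 0 < Pm)
    (hlen : ∀ P v, lam P = some v → P.length ≤ g.N1)
    (hex1 : ∀ P Q u b, lam P = some u → rho Q = some b →
      b = act u ((P ++ Q).map f).prod + nu1 (P ++ Q))
    (hcomp : ∀ Y : List α, g.z ≤ Y.length + g.p0 → ¬ BadT Y.length → ∀ u, ∃ P Q, Y = P ++ Q ∧
      lam P = some u ∧ (rho Q).isSome)
    (hnu : ∀ X Y, La ≤ X.length → La ≤ Y.length → SameKey f La Pm X Y → nu1 X = nu1 Y)
    (hBadT : ∀ T, BadT (T + Pm) ↔ BadT T)
    (K C0 : ℕ) (c : ℕ → ℕ) (hc : ∀ k, k < K → c k ≤ g.p0)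
    (hsp : ∀ k k' l l', k < K → k' < K → l < K → l' < K → k' ≠ k → l' ≠ l →
      c k + c l' < c l + c k' + 2 * g.N1 → c l + c k' < c k + c l' + 2 * g.N1 → k = l)
    (hthin : ∀ τ, g.z ≤ τ + g.p0 → ∀ J : Finset ℕ, (∀ k ∈ J, k < K ∧
      ∃ k', k' < K ∧ k' ≠ k ∧ BadT (τ + c k' - c k - g.p0)) → J.card ≤ C0)
    (lam2 rho2 : ℕ → List α → Option V)
    (hex2 : ∀ k, k < K → ∀ (P Q : List α) v u, P.length = c k → Q.length = g.p0 - c k →
      lam2 k P = some v → rho2 k Q = some u → u = act v ((P ++ Q).map f).prod + nu2 (P ++ Q))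
    (hI : ∀ X : List α, g.p0 ≤ X.length → ∀ v, ∃ I : Finset ℕ, 2 * C0 + 2 ≤ I.card ∧
      ∀ k ∈ I, k < K ∧ lam2 k (X.take (c k)) = some v ∧
        (rho2 k ((X.take g.p0).drop (c k))).isSome)
    (s : M) : HL 3 ({w | (w.map f).prod = s} : Language α) := by
  classical
  set pre : List α → V → V := fun X v => act v (X.map f).prod + nu2 X with hpre
  set post : V → List α → V := fun u Y => act u (Y.map f).prod + nu1 Y with hpost
  set T : V → List α → V := fun v X => g.T pre post v X with hTdef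
  have hgz := g.hz
  have hgq := g.hq
  have hgN := g.hN
  have hXXiff : ∀ X, g.XX X ↔ (g.z ≤ X.length ∧ Wo g.n S X ∧
      ∀ t, g.z ≤ t → t < X.length → ¬ Wo g.n S (X.take t)) := by
    intro X
    unfold Geo.XX
    constructor
    · rintro ⟨h1, h2, h3⟩
      exact ⟨h1, (hWo _).1 h2, fun t a b h => h3 t a b ((hWo _).2 h)⟩
    · rintro ⟨h1, h2, h3⟩
      exact ⟨h1, (hWo _).2 h2, fun t a b h => h3 t a b ((hWo _).1 h)⟩
  -- the prefix code
  have hPF : PF {X | g.XX X} := by
    refine ⟨fun X hX e => ?_, fun X hX Y hY h => ?_⟩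
    · have h1 : g.z ≤ X.length := hX.1
      rw [e] at h1
      simp only [List.length_nil] at h1
      omega
    · obtain ⟨t, ht⟩ := h
      exact g.prefix_code hX hY (R := t) (R' := []) (by rw [ht, List.append_nil])
  -- the key of a block decides everything
  set K0 : ℕ := g.z + g.N1 + g.p0 + La with hK0
  have hkeyT : ∀ v X Y, K0 ≤ X.length → K0 ≤ Y.length → SameKey f K0 Pm X Y → T v X = T v Y := by
    intro v X Y hX hY h
    obtain ⟨h1, h2, h3⟩ := h
    have e0 : X.take g.p0 = Y.take g.p0 := by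
      have := congrArg (fun l => l.take g.p0) h1
      simpa [List.take_take, Nat.min_eq_left (show g.p0 ≤ K0 by omega)] using this
    have e1 : ∀ Z : List α, K0 ≤ Z.length → Z.drop g.p0 =
        (Z.take K0).drop g.p0 ++ Z.drop K0 := by
      intro Z hZ
      conv_lhs => rw [← List.take_append_drop K0 Z]
      rw [List.drop_append_of_le_length]
      rw [List.length_take]; omega
    have e2 : ((X.drop g.p0).map f).prod = ((Y.drop g.p0).map f).prod := by
      rw [e1 X hX, e1 Y hY, h1, List.map_append, List.map_append, List.prod_append,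
        List.prod_append, h3]
    have e3 : nu1 (X.drop g.p0) = nu1 (Y.drop g.p0) := by
      refine hnu _ _ ?_ ?_ ⟨?_, ?_, ?_⟩
      · rw [List.length_drop]; omega
      · rw [List.length_drop]; omega
      · have : ∀ Z : List α, (Z.drop g.p0).take La = ((Z.take K0).drop g.p0).take La := by
          intro Z
          rw [List.drop_take, List.take_take, Nat.min_eq_left (by omega)]
        exact (this X).trans ((congrArg (fun l => (l.drop g.p0).take La) h1).trans (this Y).symm)
      · rw [List.length_drop, List.length_drop]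
        have a1 : X.length ≡ Y.length [MOD Pm] := h2
        exact Nat.ModEq.sub_right (by omega) (by omega) a1
      · have : ∀ Z : List α, K0 ≤ Z.length → (Z.drop g.p0).drop La =
            (Z.take K0).drop (g.p0 + La) ++ Z.drop K0 := by
          intro Z hZ
          rw [List.drop_drop]
          conv_lhs => rw [← List.take_append_drop K0 Z]
          rw [List.drop_append_of_le_length]
          rw [List.length_take]; omega
        rw [this X hX, this Y hY, h1, List.map_append, List.map_append, List.prod_append,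
          List.prod_append, h3]
    show post (pre (X.take g.p0) v) (X.drop g.p0) = post (pre (Y.take g.p0) v) (Y.drop g.p0)
    rw [hpost, hpre]
    simp only
    rw [e0, e2, e3]
  have hkeyE : ∀ X Y, K0 ≤ X.length → K0 ≤ Y.length → SameKey f K0 Pm X Y →
      (g.BadX BadT X ↔ g.BadX BadT Y) := by
    have hper : ∀ q T, BadT (T + Pm * q) ↔ BadT T := by
      intro q
      induction q with
      | zero => intro T; simp
      | succ q ih => intro T; rw [Nat.mul_succ, ← Nat.add_assoc, hBadT, ih]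
    have hmod : ∀ T, BadT T ↔ BadT (T % Pm) := by
      intro T
      conv_lhs => rw [← Nat.mod_add_div T Pm]
      exact hper _ _
    have one : ∀ X Y : List α, K0 ≤ X.length → K0 ≤ Y.length → X.take K0 = Y.take K0 →
        g.E X → g.E Y := by
      intro X Y hX hY h1 hE
      obtain ⟨t, ht, hw, ha, hb⟩ := hE
      refine ⟨t, by omega, ?_, ha, hb⟩
      have e : Y.take t = X.take t := by
        have := congrArg (fun l => l.take t) h1
        simp only [List.take_take, Nat.min_eq_left (show t ≤ K0 by omega)] at this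
        exact this.symm
      rw [e]; exact hw
    intro X Y hX hY h
    obtain ⟨h1, h2, h3⟩ := h
    have e : BadT (X.length - g.p0) ↔ BadT (Y.length - g.p0) := by
      rw [hmod (X.length - g.p0), hmod (Y.length - g.p0)]
      have a1 : X.length ≡ Y.length [MOD Pm] := h2
      have a2 : X.length - g.p0 ≡ Y.length - g.p0 [MOD Pm] :=
        Nat.ModEq.sub_right (by omega) (by omega) a1
      rw [show (X.length - g.p0) % Pm = (Y.length - g.p0) % Pm from a2]
    unfold Geo.BadX
    rw [e]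
    constructor
    · rintro (h | h)
      · exact Or.inl (one X Y hX hY h1 h)
      · exact Or.inr h
    · rintro (h | h)
      · exact Or.inl (one Y X hY hX h1.symm h)
      · exact Or.inr h
  -- height one facts
  have hBadT1 : ∀ v v', HL 1 ({X | (g.XX X ∧ g.BadX BadT X) ∧ T v X = v'} : Language α) := by
    intro v v'
    refine (HL_key f K0 hPm g.z hfew (fun X => g.BadX BadT X ∧ T v X = v') ?_).congr fun w => ?_
    · intro X Y hX hY h
      show (g.BadX BadT X ∧ T v X = v') ↔ (g.BadX BadT Y ∧ T v Y = v')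
      rw [hkeyE X Y hX hY h, hkeyT v X Y hX hY h]
    · constructor
      · rintro ⟨⟨h1, h2⟩, h3⟩; exact ⟨(hXXiff _).1 h1, h2, h3⟩
      · rintro ⟨h1, h2, h3⟩; exact ⟨⟨(hXXiff _).2 h1, h2⟩, h3⟩
  have hBadH : HL 1 ({X | g.XX X ∧ g.BadX BadT X} : Language α) := by
    refine (HL_key f K0 hPm g.z hfew (fun X => g.BadX BadT X) hkeyE).congr fun w => ?_
    constructor
    · rintro ⟨h1, h2⟩; exact ⟨(hXXiff _).1 h1, h2⟩
    · rintro ⟨h1, h2⟩; exact ⟨(hXXiff _).2 h1, h2⟩
  have hGoodH : HL 1 ({X | g.XX X ∧ ¬ g.BadX BadT X} : Language α) := by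
    refine (HL_key f K0 hPm g.z hfew (fun X => ¬ g.BadX BadT X) ?_).congr fun w => ?_
    · intro X Y hX hY h
      exact not_congr (hkeyE X Y hX hY h)
    · constructor
      · rintro ⟨h1, h2⟩; exact ⟨(hXXiff _).1 h1, h2⟩
      · rintro ⟨h1, h2⟩; exact ⟨(hXXiff _).2 h1, h2⟩
  have hAllT : ∀ v v', HL 1 ({X | g.XX X ∧ T v X = v'} : Language α) := by
    intro v v'
    refine (HL_key f K0 hPm g.z hfew (fun X => T v X = v') ?_).congr fun w => ?_
    · intro X Y hX hY h
      show (T v X = v') ↔ (T v Y = v')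
      rw [hkeyT v X Y hX hY h]
    · constructor
      · rintro ⟨h1, h2⟩; exact ⟨(hXXiff _).1 h1, h2⟩
      · rintro ⟨h1, h2⟩; exact ⟨(hXXiff _).2 h1, h2⟩
  have hlenP1 : ∀ v P, g.LP1 pre lam v P → P.length ≤ g.p0 + g.N1 := by
    intro v P hP
    have := hlen _ _ hP.2
    rw [List.length_drop] at this
    omega
  have hlenP2 : ∀ v P, Geo.LP2 K c lam2 v P → P.length ≤ g.p0 := by
    rintro v P ⟨k, hk, h1, -⟩
    rw [h1]; exact hc k hk
  have hfin : ∀ (p : List α → Prop) (N k : ℕ), (∀ P, p P → P.length ≤ N) →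
      HL k ({P | p P} : Language α) := by
    intro p N k hp
    exact HL.finite ((List.finite_length_le α N).subset fun P hP => hp P hP)
  have hXXH : HL 1 ({X | g.XX X} : Language α) :=
    (HL_XX (k := 1) g.n g.z S).congr fun w => hXXiff w
  -- scheme 1
  have hs1 : ∀ v b P Q, g.LP1 pre lam v P → g.RQ1 rho b Q → g.XX (P ++ Q) ∧ T v (P ++ Q) = b :=
    fun v b P Q h1 h2 => g.sound1 pre post hlen hex1 h1 h2
  have hc1 : ∀ X, g.XX X → ¬ g.BadX BadT X → ∀ v, ∃ P Q b, X = P ++ Q ∧ g.LP1 pre lam v P ∧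
      g.RQ1 rho b Q := by
    intro X hX hB v
    refine g.complete1 pre hlen hX (fun h => hB (Or.inl h)) ?_ v
    have hXl := hX.1
    refine hcomp (X.drop g.p0) ?_ ?_
    · rw [List.length_drop]; omega
    · rw [List.length_drop]; exact fun h => hB (Or.inr h)
  -- scheme 2
  have hs2 : ∀ v b X P Q R R', g.XX X → g.BadX BadT X → Geo.LP2 K c lam2 v P →
      g.RQ2 pre post BadT K c rho2 b Q → P ++ Q ++ R = X ++ R' →
      ∃ X2, g.XX X2 ∧ P ++ Q = X ++ X2 ∧ T (T v X) X2 = b :=
    fun v b X P Q R R' h1 h2 h3 h4 h5 => g.sound2 pre post hc hex2 h1 h2 h3 h4 h5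
  have hc2 : ∀ X X2, g.XX X → g.XX X2 → ∀ v, ∃ P Q b, P ++ Q = X ++ X2 ∧
      Geo.LP2 K c lam2 v P ∧ g.RQ2 pre post BadT K c rho2 b Q := by
    intro X X2 hX hX2 v
    have hXl := hX.1
    exact g.complete2 pre post hc hgap hsp hthin hX hX2 v (hI X (by omega) v)
  -- the semantic hull of the right words of scheme 2
  have hull : ∀ b Q, g.RQ2 pre post BadT K c rho2 b Q → ∀ v P, Geo.LP2 K c lam2 v P →
      P ++ Q ∈ q2 g.XX (g.BadX BadT) T v b := by
    intro b Q hQ v P hP
    obtain ⟨k0, hk0, hPl, hl⟩ := hP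
    obtain ⟨k, hk, l, hend, hgood, hX2, hrest⟩ := id hQ
    have hck := hc k0 hk0
    by_cases hkk : k0 = k
    · subst hkk
      have hend' : g.CEnd Q P.length l := by rw [hPl]; exact hend
      have hX := g.xx_of_cend (P := P) (by rw [hPl]; exact hck) hend'
      by_cases hB : g.BadX BadT (P ++ Q.take l)
      · obtain ⟨X2, hXX2, e, hT2⟩ := hs2 v b _ P Q [] (Q.drop l) hX hB ⟨k0, hk0, hPl, hl⟩ hQ
          (by rw [List.append_nil, List.append_assoc, List.take_append_drop])
        by_cases hB2 : g.BadX BadT X2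
        · exact Or.inl ⟨_, X2, ⟨hX, hB⟩, ⟨hXX2, hB2⟩, e, hT2⟩
        · exact Or.inr (Or.inr ⟨_, X2, ⟨hX, hB⟩, ⟨hXX2, hB2⟩, by rw [← e]⟩)
      · refine Or.inr (Or.inl ⟨_, ⟨hX, hB⟩, ⟨Q.drop l, ?_⟩⟩)
        rw [List.append_assoc, List.take_append_drop]
    · obtain ⟨l', hend', hg'⟩ := hgood k0 hk0 hkk
      have hend'' : g.CEnd Q P.length l' := by rw [hPl]; exact hend'
      have hX := g.xx_of_cend (P := P) (by rw [hPl]; exact hck) hend''
      refine Or.inr (Or.inl ⟨P ++ Q.take l', ⟨hX, fun hB => hg' ?_⟩, ⟨Q.drop l', ?_⟩⟩)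
      · have := g.cbad_of_bad (P := P) (by rw [hPl]; exact hck) hend'' hB
        rw [hPl] at this
        exact this
      · rw [List.append_assoc, List.take_append_drop]
  have hBadsub : ({X | g.XX X ∧ g.BadX BadT X} : Set (List α)) ⊆ {X | g.XX X} :=
    fun X hX => hX.1
  -- tails
  have htail : ∀ s, HL (1 + 2) (Lg (fun E => E ∈ Tail {X | g.XX X} ∧ (E.map f).prod = s)) := by
    intro s
    have hreg : Language.IsRegular ({w | (w.map f).prod = s} : Language α) := by
      refine reg_of_key f 0 one_pos _ fun X Y h => ?_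
      have h3 := h.2.2
      simp only [List.drop_zero] at h3
      show (X.map f).prod = s ↔ (Y.map f).prod = s
      rw [h3]
    have hT1 : HL 1 ({E | ∀ X, g.XX X → ¬ X <+: E} : Language α) := by
      refine (HL.prefix hXXH).compl.congr fun w => ?_
      constructor
      · rintro h ⟨X, hX, hp⟩; exact h X hX hp
      · intro h X hX hp; exact h ⟨X, hX, hp⟩
    have hnw : ∀ E : List α, (∀ X, g.XX X → ¬ X <+: E) → nw g.n S E ≤ g.z + 1 := by
      intro E hE
      refine nw_le g.z E fun t ht htl hw => ?_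
      have hex : ∃ t, g.z ≤ t ∧ t < E.length ∧ Wo g.n S (E.take t) := ⟨t, ht, htl, hw⟩
      obtain ⟨a1, a2, a3⟩ := Nat.find_spec hex
      have hlt : (E.take (Nat.find hex)).length = Nat.find hex := by
        rw [List.length_take]; omega
      refine hE (E.take (Nat.find hex)) ((hXXiff _).2 ⟨by omega, a3, ?_⟩) (List.take_prefix _ _)
      intro t' ht' htl' hw'
      rw [hlt] at htl'
      rw [List.take_take, Nat.min_eq_left (by omega)] at hw'
      exact Nat.find_min hex htl' ⟨ht', by omega, hw'⟩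
    refine HL.mono (show 1 ≤ 1 + 2 by omega)
      ((hT1.setOf_and (hfew _ hreg (g.z + 1))).congr fun w => ?_)
    constructor
    · rintro ⟨h1, h2⟩
      have h1' : ∀ X, g.XX X → ¬ X <+: w := fun X hX => h1 X hX
      exact ⟨h1', h2, hnw w h1'⟩
    · rintro ⟨h1, h2, -⟩
      exact ⟨fun X hX => h1 X hX, h2⟩
  refine top2 (k := 1) f act act_zero act_one act_mul faithful {X | g.XX X}
    {X | g.XX X ∧ ¬ g.BadX BadT X} {X | g.XX X ∧ g.BadX BadT X} hPF ?_ (fun X v => T v X) ?_
    (fun v => ({P | g.LP1 pre lam v P} : Language α))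
    (fun b => ({Q | ∀ v P, g.LP1 pre lam v P → P ++ Q ∈
      ({X | g.XX X ∧ T v X = b} : Language α)} : Language α))
    (fun v => hfin _ _ _ (hlenP1 v))
    (fun b => HL.mono (show 1 ≤ 1 + 1 by omega)
      (HL_quot (g.p0 + g.N1) (fun v P => g.LP1 pre lam v P) hlenP1
        (fun v => {X | g.XX X ∧ T v X = b}) (fun v => hAllT v b)))
    ?_ ?_ hBadH
    (fun v => ({P | Geo.LP2 K c lam2 v P} : Language α))
    (fun b => ({Q | ∀ v P, Geo.LP2 K c lam2 v P → P ++ Q ∈ q2 g.XX (g.BadX BadT) T v b}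
      : Language α))
    (fun v => hfin _ _ _ (hlenP2 v))
    (fun b => HL_quot g.p0 (fun v P => Geo.LP2 K c lam2 v P) hlenP2
        (fun v => q2 g.XX (g.BadX BadT) T v b)
        (fun v => HL_q2 g.XX (g.BadX BadT) T hBadT1 hGoodH hBadH v b))
    hBadT1 ?_ ?_ htail s
  · -- XX = Good ∪ Bad
    ext X
    constructor
    · intro hX
      by_cases hB : g.BadX BadT X
      · exact Or.inr ⟨hX, hB⟩
      · exact Or.inl ⟨hX, hB⟩
    · rintro (h | h)
      · exact h.1
      · exact h.1
  · -- affine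
    intro X hX v v'
    show post (pre (X.take g.p0) v) (X.drop g.p0) - post (pre (X.take g.p0) v') (X.drop g.p0) = _
    rw [hpost, hpre]
    simp only
    rw [add_sub_add_right_eq_sub, act_sub, add_sub_add_right_eq_sub, act_sub, act_mul,
      ← List.prod_append, ← List.map_append, List.take_append_drop]
  · -- sound 1
    intro v v' P Q hP hQ
    exact hQ v P hP
  · -- complete 1
    intro X hX v
    obtain ⟨P, Q, b, e, h1, h2⟩ := hc1 X hX.1 hX.2 v
    have h3 := hs1 v b P Q h1 h2
    rw [← e] at h3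
    refine ⟨P, Q, e, h1, ?_⟩
    intro v'' P'' hP''
    show g.XX (P'' ++ Q) ∧ T v'' (P'' ++ Q) = T v X
    rw [h3.2]
    exact hs1 v'' b P'' Q hP'' h2
  · -- sound 2
    intro v v' P Q R hP hQ hw
    rw [← List.append_assoc] at hw
    rcases hQ v P hP with ⟨Y1, Y2, hY1, hY2, e, hT2⟩ | ⟨X, hX, ⟨t, ht⟩⟩ | ⟨Y1, X, hY1, hX, ⟨t, ht⟩⟩
    · rw [e, List.append_assoc] at hw
      obtain ⟨-, hw1⟩ := bs_tail hPF hBadsub hY1.1 hw
      obtain ⟨-, hw2⟩ := bs_tail hPF hBadsub hY2.1 hw1
      refine ⟨?_, hw2⟩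
      rw [e]
      refine Tr.cons hY1.1 ?_
      have := Tr.single (XX := {X | g.XX X}) (t := fun X v => T v X) (x := T v Y1) hY2.1
      rw [hT2] at this
      exact this
    · rw [← ht, List.append_assoc] at hw
      exact absurd (bs_tail hPF hBadsub hX.1 hw).1.2 hX.2
    · rw [← ht, List.append_assoc, List.append_assoc] at hw
      have hw1 := (bs_tail hPF hBadsub hY1.1 hw).2
      exact absurd (bs_tail hPF hBadsub hX.1 hw1).1.2 hX.2
  · -- complete 2
    intro Y1 hY1 Y2 hY2 v
    obtain ⟨P, Q, b, e, h1, h2⟩ := hc2 Y1 Y2 hY1.1 hY2.1 v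
    obtain ⟨X2, hX2, e2, hT2⟩ := hs2 v b Y1 P Q [] Y2 hY1.1 hY1.2 h1 h2
      (by rw [List.append_nil, e])
    have e3 : X2 = Y2 := by
      rw [e] at e2
      exact (List.append_cancel_left e2).symm
    subst e3
    refine ⟨P, Q, e.symm, h1, ?_⟩
    intro v'' P'' hP''
    show P'' ++ Q ∈ q2 g.XX (g.BadX BadT) T v'' (T (T v Y1) X2)
    rw [hT2]
    exact hull b Q h2 v'' P'' hP''

end Crest.Agent.R320.End_712
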