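import Crest.Agent.R320.Top5_110
import Crest.Agent.R320.WallU_228
import Crest.Agent.R320.Reg_852

/-!
# Row 320: H1 - H4 of `Top5_110.top_sem` for the natural chain rule on ALL words (helper847)

`XX` : blocks = first left-looking wall at a place `≥ z`.  `Bad` : a wall in `[z - N1, z + N1)` or
`BadT (|u| - p0)`.  All languages are regular and have few walls, hence height 1.
-/

set_option autoImplicit false

namespace Crest.Agent.R320.HZ847

open Crest.RegLang Crest.Agent.R320.Hk_851 Crest.Agent.R320.Code110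
  Crest.Agent.R320.FewWalls_228 Crest.Agent.R320.WallU_228 Crest.Agent.R320.Reg_852

universe u v

variable {α : Type u}

/-- blocks -/
def XX (n : ℕ) (S : Set (List α)) (z : ℕ) : Language α :=
  {u | z ≤ u.length ∧ Wo n S u ∧ ∀ t, z ≤ t → t < u.length → ¬ Wo n S (u.take t)}

/-- bad blocks -/
def Bad (n : ℕ) (S : Set (List α)) (z p0 N1 : ℕ) (BadT : ℕ → Prop) : Language α :=
  {u | u ∈ XX n S z ∧ ((∃ t, z ≤ t + N1 ∧ t < z + N1 ∧ t ≤ u.length ∧ Wo n S (u.take t)) ∨
    BadT (u.length - p0))}

theorem bad_sub {n : ℕ} {S : Set (List α)} {z p0 N1 : ℕ} {BadT : ℕ → Prop} :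
    ∀ u ∈ Bad n S z p0 N1 BadT, u ∈ XX n S z := fun _ h => h.1

theorem xx_pc {n : ℕ} {S : Set (List α)} {z : ℕ} (hz : 0 < z) : PC (XX n S z) where
  ne := fun h => by
    have : z ≤ ([] : List α).length := h.1
    simp at this; omega
  pf := by
    rintro u hu v hv ⟨w, rfl⟩
    by_contra hne
    have hw : 0 < w.length := by
      rcases Nat.eq_zero_or_pos w.length with h | h
      · exact (hne (by rw [List.length_eq_zero_iff.1 h, List.append_nil])).elim
      · exact h
    have := hv.2.2 u.length hu.1 (by rw [List.length_append]; omega)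
    rw [List.take_left] at this
    exact this hu.2.1

theorem nw_le {n : ℕ} {S : Set (List α)} {z : ℕ} {u : List α}
    (h : ∀ t, z ≤ t → t < u.length → ¬ Wo n S (u.take t)) : nw n S u ≤ z + 1 := by
  classical
  unfold nw
  have : ((Finset.range (u.length + 1)).filter (fun x => Wl n S u x)) ⊆
      insert (u.length - n) (Finset.range z) := by
    intro x hx
    rw [Finset.mem_filter] at hx
    rw [Finset.mem_insert, Finset.mem_range]
    obtain ⟨h1, h2⟩ := wo_take.1 hx.2
    by_cases h3 : x < z
    · exact Or.inr h3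
    · left
      by_contra hne
      exact h (x + n) (by omega) (by omega) h2
  refine (Finset.card_le_card this).trans ?_
  refine (Finset.card_insert_le _ _).trans ?_
  rw [Finset.card_range]

section reg

theorem reg_iUnion {ι : Type*} [Finite ι] {L : ι → Language α} (h : ∀ i, (L i).IsRegular) :
    Language.IsRegular ({w | ∃ i, w ∈ L i} : Language α) := by
  classical
  have := Fintype.ofFinite ι
  let U : Finset ι → Language α := fun s => {w | ∃ i ∈ s, w ∈ L i}
  have key : ∀ s : Finset ι, (U s).IsRegular := by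
    intro s
    induction s using Finset.induction_on with
    | empty =>
      have e : U ∅ = (0 : Language α) := by
        ext w
        constructor
        · rintro ⟨i, hi, -⟩
          simp at hi
        · intro h; exact h.elim
      rw [e]
      exact isRegular_zero
    | insert a s ha ih =>
      have e : U (insert a s) = L a + U s := by
        ext w
        constructor
        · rintro ⟨i, hi, hw⟩
          rcases Finset.mem_insert.1 hi with rfl | hi
          · exact Or.inl hw
          · exact Or.inr ⟨i, hi, hw⟩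
        · rintro (hw | ⟨i, hi, hw⟩)
          · exact ⟨a, Finset.mem_insert_self _ _, hw⟩
          · exact ⟨i, Finset.mem_insert_of_mem hi, hw⟩
      rw [e]
      exact (h a).add ih
  have h1 := key Finset.univ
  have e : U Finset.univ = ({w | ∃ i, w ∈ L i} : Language α) := by
    ext w
    exact ⟨fun ⟨i, _, h⟩ => ⟨i, h⟩, fun ⟨i, h⟩ => ⟨i, Finset.mem_univ _, h⟩⟩
  rw [← e]
  exact h1

theorem hreg {k : ℕ} {L : Language α} (h : HL k L) : L.IsRegular :=
  Crest.Agent.R320.Reg_852.HL.isRegular h

/-- eventually periodic length conditions are regular -/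
theorem reg_length {La Pm : ℕ} (hPm : 0 < Pm) (Pd : ℕ → Prop)
    (h : ∀ t, La ≤ t → (Pd (t + Pm) ↔ Pd t)) :
    Language.IsRegular ({w | Pd w.length} : Language α) := by
  let nxt : Fin (La + Pm) → Fin (La + Pm) := fun i =>
    if hi : i.1 + 1 < La + Pm then ⟨i.1 + 1, hi⟩ else ⟨La, by omega⟩
  let D : DFA α (Fin (La + Pm)) := ⟨fun q _ => nxt q, ⟨0, by omega⟩, {q | Pd q.1}⟩
  have key : ∀ w : List α, ∀ j, (Pd ((D.eval w).1 + j) ↔ Pd (w.length + j)) := by
    intro w
    induction w using List.reverseRecOn with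
    | nil => intro j; exact Iff.rfl
    | append_singleton w a ih =>
      intro j
      have e : D.eval (w ++ [a]) = nxt (D.eval w) := by
        rw [DFA.eval_append_singleton]
      rw [e, List.length_append, List.length_singleton]
      by_cases hi : (D.eval w).1 + 1 < La + Pm
      · have : nxt (D.eval w) = ⟨(D.eval w).1 + 1, hi⟩ := dif_pos hi
        rw [this]
        have h1 := ih (1 + j)
        simp only [← Nat.add_assoc] at h1
        exact h1
      · have : nxt (D.eval w) = ⟨La, by omega⟩ := dif_neg hi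
        rw [this]
        have h1 := ih (1 + j)
        simp only [← Nat.add_assoc] at h1
        have h2 : (D.eval w).1 + 1 = La + Pm := by
          have := (D.eval w).2
          omega
        rw [h2] at h1
        rw [← h1]
        have h3 := h (La + j) (by omega)
        have h4 : La + j + Pm = La + Pm + j := by omega
        rw [h4] at h3
        exact h3.symm
  refine Language.isRegular_iff.mpr ⟨Fin (La + Pm), inferInstance, D, ?_⟩
  ext w
  rw [DFA.mem_accepts]
  show Pd (D.eval w).1 ↔ Pd w.length
  have := key w 0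
  simpa using this

theorem reg_phi {M : Type*} [Monoid M] [Finite M] {φ : List α → M} (h0 : φ [] = 1)
    (hφ : ∀ u w, φ (u ++ w) = φ u * φ w) (s : M) :
    Language.IsRegular ({w | φ w = s} : Language α) := by
  have e : ∀ w : List α, (w.map (fun a => φ [a])).prod = φ w := by
    intro w
    induction w with
    | nil => simp [h0]
    | cons a w ih =>
      rw [List.map_cons, List.prod_cons, ih, ← hφ]
      rfl
  have := isRegular_prod (fun a : α => φ [a]) s
  have e2 : ({w | φ w = s} : Language α) = {w | (w.map (fun a => φ [a])).prod = s} := by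
    ext w
    show φ w = s ↔ _ = s
    rw [e]
  rw [e2]
  exact this

end reg

section hl
variable [Finite α] {n : ℕ} {S : Set (List α)}

theorem hl_wo : HL 0 ({v | Wo n S v} : Language α) := by
  have hf : {s : List α | s ∈ S ∧ s.length = n}.Finite :=
    (List.finite_length_eq α n).subset fun s hs => hs.2
  refine (HL.finite (k := 0) hf).suffix.congr fun v => ?_
  constructor
  · rintro ⟨h1, h2⟩
    refine ⟨v.drop (v.length - n), ⟨h2, ?_⟩, List.drop_suffix _ _⟩
    rw [List.length_drop]; omega
  · rintro ⟨s, ⟨h1, h2⟩, t, rfl⟩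
    refine ⟨by rw [List.length_append]; omega, ?_⟩
    have : (t ++ s).length - n = t.length := by rw [List.length_append]; omega
    rw [this, List.drop_left]
    exact h1

theorem hl_A (z : ℕ) : HL 0 ({v | z ≤ v.length ∧ Wo n S v} : Language α) :=
  HL.setOf_and (HL.length_ge z) hl_wo

theorem hl_XX (z : ℕ) : HL 0 (XX n S z) := by
  have h1 := (hl_A (n := n) (S := S) z).mul (HL.length_ge (α := α) 1)
  refine ((hl_A (n := n) (S := S) z).sdiff h1).congr fun u => ?_
  constructor
  · rintro ⟨h2, h3, h4⟩
    refine ⟨⟨h2, h3⟩, ?_⟩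
    intro hu
    obtain ⟨a, ha, b, hb, rfl⟩ := Language.mem_mul.1 hu
    have hb' : 1 ≤ b.length := hb
    have := h4 a.length ha.1 (by rw [List.length_append]; omega)
    rw [List.take_left] at this
    exact this ha.2
  · rintro ⟨⟨h2, h3⟩, h4⟩
    refine ⟨h2, h3, ?_⟩
    intro t ht1 ht2 hw
    apply h4
    refine Language.mem_mul.2 ⟨u.take t, ⟨?_, hw⟩, u.drop t, ?_, List.take_append_drop _ _⟩
    · rw [List.length_take]; omega
    · show 1 ≤ (u.drop t).length
      rw [List.length_drop]; omega

theorem hl_E (z N1 : ℕ) : HL 0 ({u | ∃ t, z ≤ t + N1 ∧ t < z + N1 ∧ t ≤ u.length ∧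
    Wo n S (u.take t)} : Language α) := by
  have hf : {s : List α | (z ≤ s.length + N1 ∧ s.length < z + N1) ∧ Wo n S s}.Finite :=
    (List.finite_length_le α (z + N1)).subset fun s hs => by
      have := hs.1.2
      show s.length ≤ _
      omega
  refine (HL.finite (k := 0) hf).prefix.congr fun v => ?_
  constructor
  · rintro ⟨t, h1, h2, h3, h4⟩
    have hl : (v.take t).length = t := by rw [List.length_take]; omega
    exact ⟨v.take t, ⟨⟨by omega, by omega⟩, h4⟩, List.take_prefix _ _⟩
  · rintro ⟨s, ⟨⟨h1, h2⟩, h3⟩, t, rfl⟩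
    refine ⟨s.length, h1, h2, by rw [List.length_append]; omega, ?_⟩
    rw [List.take_left]
    exact h3

theorem hl_tail (z : ℕ) : HL 0 ({w | ∀ u ∈ XX n S z, ¬ u <+: w} : Language α) := by
  refine (hl_XX (n := n) (S := S) z).prefix.compl.congr fun w => ?_
  constructor
  · rintro h ⟨v, hv, h2⟩
    exact h v hv h2
  · intro h u hu h2
    exact h ⟨u, hu, h2⟩

theorem tail_no_wall {z : ℕ} {w : List α} (h : ∀ u ∈ XX n S z, ¬ u <+: w) :
    ∀ t, z ≤ t → t ≤ w.length → ¬ Wo n S (w.take t) := by
  intro t
  induction t using Nat.strong_induction_on with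
  | _ t ih =>
    intro h1 h2 h3
    have hl : (w.take t).length = t := by rw [List.length_take]; omega
    refine h (w.take t) ⟨by omega, h3, ?_⟩ (List.take_prefix _ _)
    intro t' ht1 ht2
    rw [List.take_take, min_eq_left (by omega)]
    exact ih t' (by omega) ht1 (by omega)

/-- `Few` : the clause of `walls_full` -/
def Few (n : ℕ) (S : Set (List α)) : Prop :=
  ∀ (L : Language α), L.IsRegular → ∀ r, HL 1 ({w | w ∈ L ∧ nw n S w ≤ r} : Language α)

theorem Few.hl (hF : Few n S) {L : Language α} (hL : L.IsRegular) (r : ℕ)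
    (h : ∀ w ∈ L, nw n S w ≤ r) : HL 1 L :=
  (hF L hL r).congr fun w => ⟨fun hw => ⟨hw, h w hw⟩, fun hw => hw.1⟩

theorem H2 (hF : Few n S) {z p0 N1 La Pm : ℕ} (hPm : 0 < Pm) {BadT : ℕ → Prop}
    (hB : ∀ t, La ≤ t → (BadT (t + Pm) ↔ BadT t)) : HL 1 (Bad n S z p0 N1 BadT) := by
  have hrg : Language.IsRegular (Bad n S z p0 N1 BadT) := by
    have h1 : Language.IsRegular (XX n S z) := hreg (hl_XX (n := n) (S := S) z)
    have h2 := hreg (hl_E (n := n) (S := S) z N1)
    have h3 : Language.IsRegular ({w | BadT (w.length - p0)} : Language α) := by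
      refine reg_length (La := La + p0) hPm (fun t => BadT (t - p0)) ?_
      intro t ht
      have := hB (t - p0) (by omega)
      have e : t + Pm - p0 = t - p0 + Pm := by omega
      show BadT (t + Pm - p0) ↔ _
      rw [e]
      exact this
    exact h1.inf (h2.add h3)
  refine hF.hl hrg (z + 1) ?_
  intro w hw
  exact nw_le hw.1.2.2

/-- the token map -/
def T {M V : Type*} [AddCommGroup V] (φ : List α → M) (act : V → M → V) (nu1 nu2 : List α → V)
    (p0 : ℕ) (u : List α) (v : V) : V :=
  act (act v (φ (u.take p0)) + nu2 (u.take p0)) (φ (u.drop p0)) + nu1 (u.drop p0)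

theorem H3 (hF : Few n S) {M V : Type*} [Monoid M] [Finite M] [AddCommGroup V] [Finite V]
    {φ : List α → M} {act : V → M → V} {nu1 nu2 : List α → V} {z p0 : ℕ}
    (h0 : φ [] = 1) (hφ : ∀ u w, φ (u ++ w) = φ u * φ w) (hp : p0 ≤ z)
    (hnu : ∀ c, Language.IsRegular ({w | nu1 w = c} : Language α)) (x y : V) :
    HL 1 (ZT (XX n S z) (T φ act nu1 nu2 p0) x y) := by
  classical
  let I := {X : List α // X.length = p0}
  haveI : Finite I := (List.finite_length_eq α p0).to_subtype
  let PA : M → Language α := fun s => {w | φ w = s}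
  let PB : V → Language α := fun c => {w | nu1 w = c}
  let LQ : I × M × V → Language α := fun i =>
    (({i.1.1} : Language α) * (PA i.2.1 ⊓ PB i.2.2))
  let LL : I × M × V → Language α := fun i =>
    {w | act (act x (φ i.1.1) + nu2 i.1.1) i.2.1 + i.2.2 = y ∧ w ∈ LQ i}
  have h1 : ∀ i, (LL i).IsRegular := by
    intro i
    by_cases hi : act (act x (φ i.1.1) + nu2 i.1.1) i.2.1 + i.2.2 = y
    · have e : LL i = LQ i := by
        ext w
        exact ⟨fun h => h.2, fun h => ⟨hi, h⟩⟩
      rw [e]
      exact Crest.Agent.R320.Reg_852.IsRegular.mul (hreg (HL.word (k := 0) i.1.1)) ((reg_phi h0 hφ _).inf (hnu _))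
    · have e : LL i = 0 := by
        ext w
        exact ⟨fun h => (hi h.1).elim, fun h => h.elim⟩
      rw [e]
      exact isRegular_zero
  have h2 := reg_iUnion h1
  have hrg : Language.IsRegular (ZT (XX n S z) (T φ act nu1 nu2 p0) x y) := by
    have e : ZT (XX n S z) (T φ act nu1 nu2 p0) x y =
        XX n S z ⊓ ({w | ∃ i, w ∈ LL i} : Language α) := by
      ext u
      constructor
      · rintro ⟨hu, hT⟩
        refine ⟨hu, ?_⟩
        have hl : (u.take p0).length = p0 := by
          have := hu.1
          rw [List.length_take]; omega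
        refine ⟨(⟨u.take p0, hl⟩, φ (u.drop p0), nu1 (u.drop p0)), hT, ?_⟩
        exact Language.mem_mul.2 ⟨u.take p0, rfl, u.drop p0, ⟨rfl, rfl⟩,
          List.take_append_drop _ _⟩
      · rintro ⟨hu, ⟨⟨X, hX⟩, s, c⟩, hy, hw⟩
        refine ⟨hu, ?_⟩
        obtain ⟨a, ha, b, ⟨hb1, hb2⟩, rfl⟩ := Language.mem_mul.1 hw
        have ha' : a = X := ha
        subst ha'
        have hb1' : φ b = s := hb1
        have hb2' : nu1 b = c := hb2
        subst hb1' hb2'
        show T φ act nu1 nu2 p0 (a ++ b) x = y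
        unfold T
        rw [List.take_left' hX, List.drop_left' hX]
        exact hy
    rw [e]
    exact (hreg (hl_XX (n := n) (S := S) z)).inf h2
  exact hF.hl hrg (z + 1) fun w hw => nw_le hw.1.2.2

theorem H4 (hF : Few n S) {M : Type*} [Monoid M] [Finite M] {φ : List α → M} {z : ℕ}
    (h0 : φ [] = 1) (hφ : ∀ u w, φ (u ++ w) = φ u * φ w) (s : M) :
    HL 1 ({w | (∀ u ∈ XX n S z, ¬ u <+: w) ∧ φ w = s} : Language α) := by
  have hrg : Language.IsRegular
      ({w | (∀ u ∈ XX n S z, ¬ u <+: w) ∧ φ w = s} : Language α) :=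
    (hreg (hl_tail (n := n) (S := S) z)).inf (reg_phi h0 hφ s)
  exact hF.hl hrg (z + 1) fun w hw => nw_le fun t h1 h2 => tail_no_wall hw.1 t h1 (by omega)

end hl

theorem hT {M V : Type*} [Monoid M] [AddCommGroup V] {φ : List α → M} {act : V → M → V}
    {nu1 nu2 : List α → V} {p0 : ℕ} (hφ : ∀ u w, φ (u ++ w) = φ u * φ w)
    (hact1 : ∀ v, act v 1 = v) (hactm : ∀ v s t, act v (s * t) = act (act v s) t)
    (hacts : ∀ v w s, act v s - act w s = act (v - w) s) (u : List α) (v v' : V) :
    T φ act nu1 nu2 p0 u v - T φ act nu1 nu2 p0 u v' = act (v - v') (φ u) := by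
  unfold T
  have e : φ u = φ (u.take p0) * φ (u.drop p0) := by rw [← hφ, List.take_append_drop]
  rw [add_sub_add_right_eq_sub, hacts, add_sub_add_right_eq_sub, hacts, ← hactm, ← e]

end Crest.Agent.R320.HZ847
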