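import Mathlib

/-!
# Row 320: ruler for the digit gadget (helper65)

`BadD Ms M m b n` : some prime of `Ms` divides `n` or some digit of `n` in base `b` is near `0` or `b`.
`ruler` : places `c l = 2 ^ l * K0`, wide Golomb, every `T` spoils at most `r + m` ordered pairs.
-/

set_option autoImplicit false

namespace Crest.Agent.R320.Sp_65

/-- the bad lengths -/
def BadD (Ms : Finset ℕ) (M m b : ℕ) (n : ℕ) : Prop :=
  (∃ k ∈ Ms, k ∣ n) ∨ ∃ j < m, ¬ (M ≤ n / b ^ j % b ∧ n / b ^ j % b + M + 1 ≤ b)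

/-- integer form -/
def ZBad (Ms : Finset ℕ) (M m b : ℕ) (n : ℤ) : Prop :=
  (∃ k ∈ Ms, (k : ℤ) ∣ n) ∨ ∃ j < m, ∃ e : ℤ, |e| ≤ M * b ^ j ∧ ((b : ℤ) ^ (j + 1)) ∣ n - e

theorem zbad_of_bad {Ms : Finset ℕ} {M m b : ℕ} (hb : 0 < b) {n : ℕ} (h : BadD Ms M m b n) :
    ZBad Ms M m b (n : ℤ) := by
  rcases h with ⟨k, hk, h⟩ | ⟨j, hj, h⟩
  · exact Or.inl ⟨k, hk, by exact_mod_cast h⟩
  · refine Or.inr ⟨j, hj, ?_⟩
    set d := n / b ^ j % b with hd
    have hdb : d < b := Nat.mod_lt _ hb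
    have hbj : 0 < b ^ j := pow_pos hb j
    -- n = (n / b^j / b) * b^(j+1) + d * b^j + n % b^j
    have h1 : n = (n / b ^ j / b) * b ^ (j + 1) + (d * b ^ j + n % b ^ j) := by
      have e1 := Nat.div_add_mod n (b ^ j)
      have e2 := Nat.div_add_mod (n / b ^ j) b
      have e3 : n / b ^ j = b * (n / b ^ j / b) + d := by rw [hd]; omega
      calc n = b ^ j * (n / b ^ j) + n % b ^ j := e1.symm
        _ = b ^ j * (b * (n / b ^ j / b) + d) + n % b ^ j := by rw [← e3]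
        _ = _ := by ring
    have hr : n % b ^ j < b ^ j := Nat.mod_lt _ hbj
    by_cases hlow : d < M
    · refine ⟨((d * b ^ j + n % b ^ j : ℕ) : ℤ), ?_, ⟨((n / b ^ j / b : ℕ) : ℤ), ?_⟩⟩
      · rw [abs_of_nonneg (by positivity)]
        have : d * b ^ j + n % b ^ j ≤ M * b ^ j := by
          have : (d + 1) * b ^ j ≤ M * b ^ j := Nat.mul_le_mul_right _ hlow
          nlinarith
        exact_mod_cast this
      · have h2 : (n : ℤ) = ((n / b ^ j / b : ℕ) : ℤ) * (b : ℤ) ^ (j + 1) +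
            ((d * b ^ j + n % b ^ j : ℕ) : ℤ) := by exact_mod_cast h1
        linarith
    · have hhigh : b < d + M + 1 := by
        by_contra hc
        exact h ⟨not_lt.1 hlow, not_lt.1 hc⟩
      refine ⟨((d * b ^ j + n % b ^ j : ℕ) : ℤ) - (b : ℤ) ^ (j + 1), ?_,
        ⟨((n / b ^ j / b : ℕ) : ℤ) + 1, ?_⟩⟩
      · have h3 : d * b ^ j + n % b ^ j < b ^ (j + 1) := by
          have : (d + 1) * b ^ j ≤ b * b ^ j := Nat.mul_le_mul_right _ hdb
          rw [pow_succ]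
          nlinarith
        have h4 : b ^ (j + 1) ≤ d * b ^ j + n % b ^ j + M * b ^ j := by
          have h5 : b * b ^ j ≤ (d + M) * b ^ j := Nat.mul_le_mul_right _ (by omega)
          have h6 : (d + M) * b ^ j = d * b ^ j + M * b ^ j := by ring
          rw [pow_succ']
          linarith [Nat.zero_le (n % b ^ j)]
        have h3' : ((d * b ^ j + n % b ^ j : ℕ) : ℤ) < (b : ℤ) ^ (j + 1) := by exact_mod_cast h3
        have h4' : (b : ℤ) ^ (j + 1) ≤ ((d * b ^ j + n % b ^ j : ℕ) : ℤ) + M * b ^ j := by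
          exact_mod_cast h4
        rw [abs_le]
        constructor <;> linarith [show (0:ℤ) ≤ (M:ℤ) * (b:ℤ) ^ j by positivity]
      · have h2 : (n : ℤ) = ((n / b ^ j / b : ℕ) : ℤ) * (b : ℤ) ^ (j + 1) +
            ((d * b ^ j + n % b ^ j : ℕ) : ℤ) := by exact_mod_cast h1
        linarith

theorem badD_period {Ms : Finset ℕ} {M m b : ℕ} (hM : ∀ k ∈ Ms, k ∣ M) (hb : 0 < b) (n : ℕ) :
    BadD Ms M m b (n + M * b ^ m) ↔ BadD Ms M m b n := by
  unfold BadD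
  have h1 : (∃ k ∈ Ms, k ∣ n + M * b ^ m) ↔ ∃ k ∈ Ms, k ∣ n := by
    constructor
    · rintro ⟨k, hk, h⟩
      exact ⟨k, hk, (Nat.dvd_add_left (Dvd.dvd.mul_right (hM k hk) _)).1 h⟩
    · rintro ⟨k, hk, h⟩
      exact ⟨k, hk, (Nat.dvd_add_left (Dvd.dvd.mul_right (hM k hk) _)).2 h⟩
  have h2 : ∀ j < m, (n + M * b ^ m) / b ^ j % b = n / b ^ j % b := by
    intro j hj
    have e : M * b ^ m = b ^ j * (b * (M * b ^ (m - j - 1))) := by
      have : b ^ m = b ^ j * (b * b ^ (m - j - 1)) := by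
        rw [← pow_succ', ← pow_add]; congr 1; omega
      rw [this]; ring
    rw [e, Nat.add_mul_div_left _ _ (pow_pos hb j), Nat.add_mul_mod_self_left]
  constructor
  · rintro (h | ⟨j, hj, h⟩)
    · exact Or.inl (h1.1 h)
    · exact Or.inr ⟨j, hj, by rwa [h2 j hj] at h⟩
  · rintro (h | ⟨j, hj, h⟩)
    · exact Or.inl (h1.2 h)
    · exact Or.inr ⟨j, hj, by rwa [h2 j hj]⟩

/-- powers of two -/
theorem pow_sum_inj {a b c d : ℕ} (hab : a ≤ b) (hcd : c ≤ d)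
    (h : 2 ^ a + 2 ^ b = 2 ^ c + 2 ^ d) : a = c ∧ b = d := by
  have key : ∀ a b c d : ℕ, a ≤ b → c ≤ d → 2 ^ a + 2 ^ b = 2 ^ c + 2 ^ d → ¬ b < d := by
    intro a b c d hab _ h hlt
    have h1 : 2 ^ a ≤ 2 ^ b := Nat.pow_le_pow_right (by norm_num) hab
    have h2 : 2 ^ (b + 1) ≤ 2 ^ d := Nat.pow_le_pow_right (by norm_num) hlt
    have h3 : 0 < 2 ^ c := by positivity
    rw [pow_succ] at h2
    omega
  have hbd : b = d := le_antisymm (not_lt.1 (key c d a b hcd hab h.symm)) (not_lt.1 (key a b c d hab hcd h))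
  subst hbd
  exact ⟨Nat.pow_right_injective le_rfl (by simpa using h), rfl⟩

theorem golomb {i j k l : ℕ} (hij : i ≠ j) (h : (2:ℤ) ^ j - 2 ^ i = 2 ^ l - 2 ^ k) :
    i = k ∧ j = l := by
  have h' : 2 ^ j + 2 ^ k = 2 ^ l + 2 ^ i := by
    have : (2:ℤ) ^ j + 2 ^ k = 2 ^ l + 2 ^ i := by linarith
    exact_mod_cast this
  rcases le_total j k with h1 | h1 <;> rcases le_total l i with h2 | h2
  · obtain ⟨a, b⟩ := pow_sum_inj h1 h2 h'; exact ⟨b.symm, a⟩
  · rw [Nat.add_comm (2 ^ l)] at h'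
    obtain ⟨a, b⟩ := pow_sum_inj h1 h2 h'; exact (hij a.symm).elim
  · rw [Nat.add_comm (2 ^ j)] at h'
    obtain ⟨a, b⟩ := pow_sum_inj h1 h2 h'; exact (hij b.symm).elim
  · rw [Nat.add_comm (2 ^ j), Nat.add_comm (2 ^ l)] at h'
    obtain ⟨a, b⟩ := pow_sum_inj h1 h2 h'; exact ⟨a.symm, b⟩

/-- one condition is met by at most one multiple -/
theorem near {T K0 Q w κ B a a' e e' : ℤ} (he : |e| ≤ w) (he' : |e'| ≤ w)
    (h : Q ∣ (T + a * K0) - e) (h' : Q ∣ (T + a' * K0) - e') (hK : Q ∣ K0 - κ)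
    (hκ : 2 * w < κ) (hB : |a - a'| ≤ B) (hQ : B * κ + 2 * w < Q) : a = a' := by
  by_contra hne
  have h1 : Q ∣ (a - a') * κ - (e - e') := by
    have h2 : Q ∣ ((T + a * K0) - e) - ((T + a' * K0) - e') - (a - a') * (K0 - κ) :=
      dvd_sub (dvd_sub h h') (Dvd.dvd.mul_left hK _)
    have e : ((T + a * K0) - e) - ((T + a' * K0) - e') - (a - a') * (K0 - κ) =
      (a - a') * κ - (e - e') := by ring
    rwa [e] at h2
  have hw : 0 ≤ w := le_trans (abs_nonneg e) he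
  have hκ0 : 0 < κ := by linarith
  have hone : 1 ≤ |a - a'| := Int.one_le_abs (sub_ne_zero.2 hne)
  have h3 : |e - e'| ≤ 2 * w := by
    have := abs_sub e e'
    have h4 := abs_le.1 he
    have h5 := abs_le.1 he'
    rw [abs_le]; constructor <;> linarith [h4.1, h4.2, h5.1, h5.2]
  have h4 : |(a - a') * κ| = |a - a'| * κ := by rw [abs_mul, abs_of_pos hκ0]
  have h5 : κ ≤ |(a - a') * κ| := by rw [h4]; nlinarith
  have h6 : |(a - a') * κ| ≤ B * κ := by rw [h4]; nlinarith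
  have h7 : (a - a') * κ - (e - e') ≠ 0 := by
    intro h0
    have : |(a - a') * κ| = |e - e'| := by rw [sub_eq_zero.1 h0]
    linarith
  have h8 := Int.le_of_dvd (abs_pos.2 h7) ((dvd_abs _ _).2 h1)
  have h9 : |(a - a') * κ - (e - e')| ≤ |(a - a') * κ| + |e - e'| := abs_sub _ _
  linarith

/-- κ_j -/
def kap (M b : ℕ) (j : ℕ) : ℕ := 4 * M * ∑ i ∈ Finset.range (j + 1), b ^ i

theorem geom_le {b : ℕ} (hb : 2 ≤ b) (j : ℕ) : ∑ i ∈ Finset.range (j + 1), b ^ i ≤ 2 * b ^ j := by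
  induction j with
  | zero => simp
  | succ j ih =>
    rw [Finset.sum_range_succ]
    have : 2 * b ^ j ≤ b ^ (j + 1) := by rw [pow_succ']; exact Nat.mul_le_mul_right _ hb
    omega

theorem kap_mod {M b j m : ℕ} (hj : j < m) :
    ((b : ℤ) ^ (j + 1)) ∣ ((4 * M * ∑ i ∈ Finset.range m, b ^ i : ℕ) : ℤ) - (kap M b j : ℕ) := by
  have h1 : ∑ i ∈ Finset.range m, b ^ i = ∑ i ∈ Finset.range (j + 1), b ^ i +
      ∑ i ∈ Finset.Ico (j + 1) m, b ^ i := (Finset.sum_range_add_sum_Ico _ hj).symm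
  have h2 : b ^ (j + 1) ∣ ∑ i ∈ Finset.Ico (j + 1) m, b ^ i := by
    apply Finset.dvd_sum
    intro i hi
    exact pow_dvd_pow _ (Finset.mem_Ico.1 hi).1
  obtain ⟨q, hq⟩ := h2
  refine ⟨(4 * M * q : ℕ), ?_⟩
  rw [h1, hq]
  unfold kap
  push_cast
  ring

/-- **THE RULER** -/
theorem ruler (Ms : Finset ℕ) (M m b K N1 : ℕ) (hM : 0 < M)
    (hMs : ∀ k ∈ Ms, 2 ^ (K + 2) < k ∧ k ∣ M) (hcop : Nat.Coprime b M)
    (hb : 2 ^ (K + 6) * M < b) :
    ∃ c : ℕ → ℕ, StrictMono c ∧ (∀ i j, i < j → c i + N1 < c j) ∧ (∀ i, N1 < c i) ∧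
      (∀ i j k l, i ≠ j → (i ≠ k ∨ j ≠ l) →
        (N1 : ℤ) < |((c j : ℤ) - c i) - (c l - c k)|) ∧
      (∀ (T : ℤ) (F : Finset (ℕ × ℕ)), (∀ p ∈ F, p.1 < K ∧ p.2 < K ∧ p.1 ≠ p.2 ∧
        ZBad Ms M m b (T + c p.2 - c p.1)) → F.card ≤ Ms.card + m) := by
  classical
  have hb0 : 0 < b := by omega
  have hcop' : Nat.Coprime M (b ^ m) := (Nat.Coprime.pow_left m hcop).symm
  obtain ⟨x, hx1, hx2⟩ := Nat.chineseRemainder hcop' 1 (4 * M * ∑ i ∈ Finset.range m, b ^ i)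
  set K0 := x + M * b ^ m * (N1 + 1) with hK0
  have hMb : 0 < M * b ^ m := Nat.mul_pos hM (pow_pos hb0 m)
  have hK0N : N1 < K0 := by
    have : N1 + 1 ≤ M * b ^ m * (N1 + 1) := Nat.le_mul_of_pos_left _ hMb
    omega
  have hK1 : (M : ℤ) ∣ (K0 : ℤ) - 1 := by
    have h1 : (M : ℤ) ∣ (x : ℤ) - 1 := by
      have := (Nat.modEq_iff_dvd.1 hx1.symm)
      simpa using this
    rw [hK0]
    push_cast
    have e : (x : ℤ) + M * b ^ m * (N1 + 1) - 1 = (x - 1) + M * (b ^ m * (N1 + 1)) := by ring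
    rw [e]
    exact dvd_add h1 (Dvd.intro _ rfl)
  have hK2 : ((b : ℤ) ^ m) ∣ (K0 : ℤ) - ((4 * M * ∑ i ∈ Finset.range m, b ^ i : ℕ) : ℤ) := by
    have h1 := (Nat.modEq_iff_dvd.1 hx2.symm)
    rw [hK0]
    push_cast at h1 ⊢
    have e : (x : ℤ) + M * b ^ m * (N1 + 1) - 4 * M * ∑ i ∈ Finset.range m, (b : ℤ) ^ i =
      (x - 4 * M * ∑ i ∈ Finset.range m, (b : ℤ) ^ i) + b ^ m * (M * (N1 + 1)) := by ring
    rw [e]
    exact dvd_add h1 (Dvd.intro _ rfl)
  have hstep : ∀ i j, i < j → 2 ^ i * K0 + N1 < 2 ^ j * K0 := by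
    intro i j hij
    have h1 : 2 ^ (i + 1) ≤ 2 ^ j := Nat.pow_le_pow_right (by norm_num) hij
    have h2 : 2 ^ (i + 1) * K0 ≤ 2 ^ j * K0 := Nat.mul_le_mul_right _ h1
    have h3 : 2 ^ (i + 1) * K0 = 2 ^ i * K0 + 2 ^ i * K0 := by rw [pow_succ]; ring
    have h4 : K0 ≤ 2 ^ i * K0 := Nat.le_mul_of_pos_left _ (by positivity)
    omega
  refine ⟨fun l => 2 ^ l * K0, fun i j hij => by have := hstep i j hij; simp only; omega,
    hstep, ?_, ?_, ?_⟩
  · intro i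
    have h4 : K0 ≤ 2 ^ i * K0 := Nat.le_mul_of_pos_left _ (by positivity)
    show N1 < 2 ^ i * K0
    omega
  · intro i j k l hij hne
    have hδ : ((2:ℤ) ^ j - 2 ^ i) - (2 ^ l - 2 ^ k) ≠ 0 := by
      intro h0
      obtain ⟨h1, h2⟩ := golomb hij (sub_eq_zero.1 h0)
      rcases hne with h | h
      · exact h h1
      · exact h h2
    have e : (((2 ^ j * K0 : ℕ) : ℤ) - (2 ^ i * K0 : ℕ)) - ((2 ^ l * K0 : ℕ) - (2 ^ k * K0 : ℕ)) =
        (((2:ℤ) ^ j - 2 ^ i) - (2 ^ l - 2 ^ k)) * K0 := by push_cast; ring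
    rw [e, abs_mul]
    have h1 := Int.one_le_abs hδ
    have h2 : |(K0 : ℤ)| = K0 := abs_of_nonneg (by positivity)
    rw [h2]
    have h3 : (N1 : ℤ) < K0 := by exact_mod_cast hK0N
    nlinarith
  · intro T F hF
    -- the bad pairs of each condition
    let A : ℕ → Finset (ℕ × ℕ) := fun k => F.filter fun p =>
      (k : ℤ) ∣ (T + ((2 ^ p.2 * K0 : ℕ) : ℤ) - (2 ^ p.1 * K0 : ℕ))
    let G : ℕ → Finset (ℕ × ℕ) := fun j => F.filter fun p => ∃ e : ℤ, |e| ≤ M * b ^ j ∧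
      ((b : ℤ) ^ (j + 1)) ∣ (T + ((2 ^ p.2 * K0 : ℕ) : ℤ) - (2 ^ p.1 * K0 : ℕ)) - e
    have hsub : F ⊆ (Ms.biUnion A) ∪ ((Finset.range m).biUnion G) := by
      intro p hp
      obtain ⟨_, _, _, h⟩ := hF p hp
      rcases h with ⟨k, hk, h⟩ | ⟨j, hj, h⟩
      · exact Finset.mem_union_left _ (Finset.mem_biUnion.2 ⟨k, hk, Finset.mem_filter.2 ⟨hp, h⟩⟩)
      · exact Finset.mem_union_right _ (Finset.mem_biUnion.2
          ⟨j, Finset.mem_range.2 hj, Finset.mem_filter.2 ⟨hp, h⟩⟩)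
    have hdiff : ∀ p ∈ F, ∀ q ∈ F,
        |((2:ℤ) ^ p.2 - 2 ^ p.1) - (2 ^ q.2 - 2 ^ q.1)| ≤ 2 ^ (K + 1) := by
      intro p hp q hq
      obtain ⟨h1, h2, _, _⟩ := hF p hp
      obtain ⟨h3, h4, _, _⟩ := hF q hq
      have hpow : ∀ i, i < K → (0:ℤ) < 2 ^ i ∧ (2:ℤ) ^ i ≤ 2 ^ K := fun i hi =>
        ⟨by positivity, pow_le_pow_right₀ (by norm_num) hi.le⟩
      have a1 := hpow _ h1
      have a2 := hpow _ h2
      have a3 := hpow _ h3
      have a4 := hpow _ h4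
      rw [pow_succ, abs_le]
      constructor <;> linarith [a1.1, a1.2, a2.1, a2.2, a3.1, a3.2, a4.1, a4.2]
    have hform : ∀ p : ℕ × ℕ, (T + ((2 ^ p.2 * K0 : ℕ) : ℤ) - (2 ^ p.1 * K0 : ℕ)) =
        T + ((2:ℤ) ^ p.2 - 2 ^ p.1) * K0 := by intro p; push_cast; ring
    have hA : ∀ k ∈ Ms, (A k).card ≤ 1 := by
      intro k hk
      rw [Finset.card_le_one]
      intro p hp q hq
      obtain ⟨hp1, hp2⟩ := Finset.mem_filter.1 hp
      obtain ⟨hq1, hq2⟩ := Finset.mem_filter.1 hq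
      rw [hform] at hp2 hq2
      obtain ⟨hk1, hk2⟩ := hMs k hk
      have hkM : (k : ℤ) ∣ (K0 : ℤ) - 1 := (Int.natCast_dvd_natCast.2 hk2).trans hK1
      have hkk : (2:ℤ) ^ (K + 1) * 1 + 2 * 0 < k := by
        have h1 : 2 ^ (K + 1) < k := lt_of_le_of_lt (Nat.pow_le_pow_right (by norm_num) (by omega)) hk1
        have : ((2 ^ (K + 1) : ℕ) : ℤ) < k := by exact_mod_cast h1
        push_cast at this
        linarith
      have := near (e := 0) (e' := 0) (w := 0) (by simp) (by simp)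
        (by rw [sub_zero]; exact hp2) (by rw [sub_zero]; exact hq2) hkM (by norm_num)
        (hdiff p hp1 q hq1) hkk
      obtain ⟨h1, h2⟩ := golomb (hF p hp1).2.2.1 this
      exact Prod.ext h1 h2
    have hG : ∀ j ∈ Finset.range m, (G j).card ≤ 1 := by
      intro j hj
      rw [Finset.mem_range] at hj
      rw [Finset.card_le_one]
      intro p hp q hq
      obtain ⟨hp1, e, he, hp2⟩ := Finset.mem_filter.1 hp
      obtain ⟨hq1, e', he', hq2⟩ := Finset.mem_filter.1 hq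
      rw [hform] at hp2 hq2
      have hbj : (0:ℤ) < (b:ℤ) ^ j := by positivity
      have hkM : ((b : ℤ) ^ (j + 1)) ∣ (K0 : ℤ) - (kap M b j : ℕ) := by
        have h1 : ((b : ℤ) ^ (j + 1)) ∣ (K0 : ℤ) - ((4 * M * ∑ i ∈ Finset.range m, b ^ i : ℕ) : ℤ) :=
          (pow_dvd_pow _ hj).trans hK2
        have h2 := dvd_add h1 (kap_mod (M := M) (b := b) hj)
        have e : (K0 : ℤ) - ((4 * M * ∑ i ∈ Finset.range m, b ^ i : ℕ) : ℤ) +
          (((4 * M * ∑ i ∈ Finset.range m, b ^ i : ℕ) : ℤ) - (kap M b j : ℕ)) =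
            (K0 : ℤ) - (kap M b j : ℕ) := by ring
        rwa [e] at h2
      have hκ : 2 * ((M : ℤ) * b ^ j) < (kap M b j : ℕ) := by
        have h1 : b ^ j ≤ ∑ i ∈ Finset.range (j + 1), b ^ i :=
          Finset.single_le_sum (f := fun i => b ^ i) (fun i _ => Nat.zero_le _)
            (Finset.mem_range.2 (Nat.lt_succ_self j))
        have h2 : 2 * (M * b ^ j) < kap M b j := by
          unfold kap
          have h3 : 4 * M * b ^ j ≤ 4 * M * ∑ i ∈ Finset.range (j + 1), b ^ i :=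
            Nat.mul_le_mul_left _ h1
          have h4 : 0 < M * b ^ j := Nat.mul_pos hM (pow_pos hb0 j)
          nlinarith
        exact_mod_cast h2
      have hQ : (2:ℤ) ^ (K + 1) * (kap M b j : ℕ) + 2 * ((M : ℤ) * b ^ j) < (b:ℤ) ^ (j + 1) := by
        have h1 : kap M b j ≤ 8 * M * b ^ j := by
          unfold kap
          have hb2 : 2 ≤ b := by
            have : 2 ^ (K + 6) * 1 ≤ 2 ^ (K + 6) * M := Nat.mul_le_mul_left _ hM
            have h64 : 2 ^ 6 ≤ 2 ^ (K + 6) := Nat.pow_le_pow_right (by norm_num) (by omega)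
            omega
          have := geom_le hb2 j
          nlinarith
        have h2 : 2 ^ (K + 1) * kap M b j + 2 * (M * b ^ j) < b ^ (j + 1) := by
          have h3 : 2 ^ (K + 1) * kap M b j ≤ 2 ^ (K + 1) * (8 * M * b ^ j) :=
            Nat.mul_le_mul_left _ h1
          have h4 : 2 ^ (K + 6) * M * b ^ j < b * b ^ j := Nat.mul_lt_mul_of_pos_right hb (pow_pos hb0 j)
          have h5 : 2 ^ (K + 6) = 2 ^ (K + 1) * 32 := by
            rw [show K + 6 = (K + 1) + 5 by omega, pow_add]; norm_num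
          have h6 : 1 ≤ 2 ^ (K + 1) := Nat.one_le_two_pow
          have h7 : 0 < M * b ^ j := Nat.mul_pos hM (pow_pos hb0 j)
          rw [pow_succ' b j]
          rw [h5] at h4
          have h8 : M * b ^ j ≤ 2 ^ (K + 1) * (M * b ^ j) := Nat.le_mul_of_pos_left _ (by omega)
          nlinarith
        exact_mod_cast h2
      have := near he he' hp2 hq2 hkM hκ (hdiff p hp1 q hq1) hQ
      obtain ⟨h1, h2⟩ := golomb (hF p hp1).2.2.1 this
      exact Prod.ext h1 h2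
    calc F.card ≤ ((Ms.biUnion A) ∪ ((Finset.range m).biUnion G)).card := Finset.card_le_card hsub
      _ ≤ (Ms.biUnion A).card + ((Finset.range m).biUnion G).card := Finset.card_union_le _ _
      _ ≤ Ms.card * 1 + (Finset.range m).card * 1 :=
          Nat.add_le_add (Finset.card_biUnion_le_card_mul _ _ _ hA)
            (Finset.card_biUnion_le_card_mul _ _ _ hG)
      _ = Ms.card + m := by simp

end Crest.Agent.R320.Sp_65
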