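import Mathlib

/-!
# Row 320: the wide ruler for the gadget "positional digits of T + CRT names" (helper495)

`Bad n` : some modulus divides `n`, or some base `b` digit of `n` is within `M` of `0` or `b`.
The ruler `c l = 2 ^ l * K` has any prescribed resolution and spoils at most `Ms.card + m` pairs.
-/

set_option autoImplicit false

namespace Crest.Agent.R320.Spoil852_495

open Finset

def Bad (Ms : Finset ℕ) (m M b n : ℕ) : Prop :=
  (∃ k ∈ Ms, k ∣ n) ∨ ∃ t < m, ¬ (M ≤ (n / b ^ t) % b ∧ (n / b ^ t) % b + M + 1 ≤ b)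

/-- sums of two powers of two -/
theorem pow2_sum {a b c d : ℕ} (h : 2 ^ a + 2 ^ b = 2 ^ c + 2 ^ d) :
    (a = c ∧ b = d) ∨ (a = d ∧ b = c) := by
  wlog hab : a ≤ b generalizing a b with H
  · rcases H (a := b) (b := a) (by omega) (by omega) with h' | h'
    · exact Or.inr ⟨h'.2, h'.1⟩
    · exact Or.inl ⟨h'.2, h'.1⟩
  wlog hcd : c ≤ d generalizing c d with H
  · rcases H (c := d) (d := c) (by omega) (by omega) with h' | h'
    · exact Or.inr h'
    · exact Or.inl h'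
  -- now b and d are the larger ones
  have hb : b = d := by
    by_contra hne
    rcases Nat.lt_or_gt_of_ne hne with hlt | hlt
    · have h1 : 2 ^ a ≤ 2 ^ b := Nat.pow_le_pow_right (by norm_num) hab
      have h2 : 2 ^ (b + 1) ≤ 2 ^ d := Nat.pow_le_pow_right (by norm_num) hlt
      have h3 : 0 < 2 ^ c := by positivity
      rw [pow_succ] at h2
      omega
    · have h1 : 2 ^ c ≤ 2 ^ d := Nat.pow_le_pow_right (by norm_num) hcd
      have h2 : 2 ^ (d + 1) ≤ 2 ^ b := Nat.pow_le_pow_right (by norm_num) hlt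
      have h3 : 0 < 2 ^ a := by positivity
      rw [pow_succ] at h2
      omega
  subst hb
  have : 2 ^ a = 2 ^ c := by omega
  exact Or.inl ⟨Nat.pow_right_injective (le_refl 2) this, rfl⟩

theorem diff_ne {i j k l : ℕ} (hij : i ≠ j) (hne : (i, j) ≠ (k, l)) :
    ((2 : ℤ) ^ j - 2 ^ i) - (2 ^ l - 2 ^ k) ≠ 0 := by
  intro h
  have h1 : (2 : ℤ) ^ j + 2 ^ k = 2 ^ l + 2 ^ i := by linarith
  have h2 : (2 : ℕ) ^ j + 2 ^ k = 2 ^ l + 2 ^ i := by exact_mod_cast h1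
  rcases pow2_sum h2 with ⟨a, b⟩ | ⟨a, b⟩
  · exact hne (by rw [a, b])
  · exact hij a.symm

theorem diff_lt {K0 i j k l : ℕ} (hi : i < K0) (hj : j < K0) (hk : k < K0) (hl : l < K0) :
    |((2 : ℤ) ^ j - 2 ^ i) - (2 ^ l - 2 ^ k)| < 2 ^ (K0 + 1) := by
  have key : ∀ x, x < K0 → (0 : ℤ) < 2 ^ x ∧ (2 : ℤ) ^ x * 2 ≤ 2 ^ K0 := by
    intro x hx
    refine ⟨by positivity, ?_⟩
    rw [← pow_succ]
    exact pow_le_pow_right₀ (by norm_num) hx
  have e : (2 : ℤ) ^ (K0 + 1) = 2 ^ K0 * 2 := pow_succ _ _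
  rw [abs_lt, e]
  have a := key i hi; have b := key j hj; have c := key k hk; have d := key l hl
  constructor <;> linarith [a.1, a.2, b.1, b.2, c.1, c.2, d.1, d.2]

/-- the divisor condition pins the pair -/
theorem mod_pin {k K : ℤ} (K0 : ℕ) (hk : (2 : ℤ) ^ (K0 + 1) < k) (hK : k ∣ K - 1) {D : ℤ}
    (hD : |D| < 2 ^ (K0 + 1)) (h : k ∣ D * K) : D = 0 := by
  have h1 : k ∣ D := by
    have : D = D * K - D * (K - 1) := by ring
    rw [this]
    exact dvd_sub h (Dvd.dvd.mul_left hK D)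
  by_contra hne
  have h2 := Int.le_of_dvd (abs_pos.2 hne) ((dvd_abs k D).2 h1)
  linarith

theorem geom_bound (b t : ℕ) (hb : 2 ≤ b) :
    b ^ t ≤ ∑ s ∈ range (t + 1), b ^ s ∧ ∑ s ∈ range (t + 1), b ^ s ≤ 2 * b ^ t := by
  induction t with
  | zero => simp
  | succ t ih =>
    rw [sum_range_succ]
    constructor
    · omega
    · have : 2 * b ^ t ≤ b ^ (t + 1) := by rw [pow_succ]; nlinarith [Nat.pow_pos (n := t) (show 0 < b by omega)]
      omega

/-- near a multiple of `b ^ (t+1)` -/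
theorem digit_near {M b t n : ℕ} (hb : 0 < b) (h : ¬ (M ≤ (n / b ^ t) % b ∧ (n / b ^ t) % b + M + 1 ≤ b)) :
    ∃ u : ℤ, |(n : ℤ) - u * b ^ (t + 1)| ≤ M * b ^ t := by
  have hq : 0 < b ^ t := Nat.pow_pos hb
  set q := b ^ t with hqd
  set d := (n / q) % b with hd
  have hdb : d < b := Nat.mod_lt _ hb
  have e1 : n = q * (n / q) + n % q := (Nat.div_add_mod n q).symm
  have e2 : n / q = b * (n / q / b) + d := (Nat.div_add_mod (n / q) b).symm
  have hr : n % q < q := Nat.mod_lt _ hq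
  set A := n / q / b with hA
  have hn : (n : ℤ) = q * (b * A + d) + (n % q : ℕ) := by
    have : n = q * (b * A + d) + n % q := by rw [← e2]; exact e1
    exact_mod_cast this
  have hpow : ((b : ℤ)) ^ (t + 1) = q * b := by rw [pow_succ, hqd]; push_cast; ring
  have hqc : ((b : ℤ)) ^ t = q := by rw [hqd]; push_cast; ring
  have hr' : ((n % q : ℕ) : ℤ) < q := by exact_mod_cast hr
  have hr0 : (0 : ℤ) ≤ ((n % q : ℕ) : ℤ) := Int.natCast_nonneg _
  have hq' : (0 : ℤ) < q := by exact_mod_cast hq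
  have hc : d < M ∨ b ≤ d + M := by
    by_cases h1 : M ≤ d
    · right; by_contra h2; exact h ⟨h1, by omega⟩
    · left; omega
  rcases hc with hc | hc
  · refine ⟨A, ?_⟩
    rw [hpow, hqc, hn]
    have hc' : (d : ℤ) + 1 ≤ M := by exact_mod_cast hc
    have hd0 : (0 : ℤ) ≤ d := Int.natCast_nonneg _
    rw [abs_le]
    constructor <;> nlinarith
  · refine ⟨A + 1, ?_⟩
    rw [hpow, hqc, hn]
    have hc' : (b : ℤ) ≤ d + M := by exact_mod_cast hc
    have hdb' : (d : ℤ) + 1 ≤ b := by exact_mod_cast hdb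
    rw [abs_le]
    constructor <;> nlinarith

/-- the digit condition pins the pair -/
theorem digit_pin {M b t K0 : ℕ} {K : ℤ} (hM : 0 < M) (hb : 2 ^ (K0 + 5) * M ≤ b)
    (hK : (b : ℤ) ^ (t + 1) ∣ K - 4 * M * ∑ s ∈ range (t + 1), (b : ℤ) ^ s) {D : ℤ}
    (hD : |D| < 2 ^ (K0 + 1)) (h : ∃ u : ℤ, |D * K - u * b ^ (t + 1)| ≤ 2 * M * b ^ t) : D = 0 := by
  by_contra hne
  have h2K : 1 ≤ 2 ^ K0 := Nat.one_le_two_pow
  have hb2 : 2 ≤ b := by
    have : 2 ^ (K0 + 5) = 32 * 2 ^ K0 := by rw [pow_add]; ring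
    rw [this] at hb
    nlinarith
  obtain ⟨g1, g2⟩ := geom_bound b t hb2
  obtain ⟨u, hu⟩ := h
  obtain ⟨v, hv⟩ := hK
  set R : ℤ := ∑ s ∈ range (t + 1), (b : ℤ) ^ s with hR
  have g1' : (b : ℤ) ^ t ≤ R := by rw [hR]; exact_mod_cast g1
  have g2' : R ≤ 2 * (b : ℤ) ^ t := by rw [hR]; exact_mod_cast g2
  set q : ℤ := (b : ℤ) ^ t with hq
  have hqpos : 0 < q := by rw [hq]; positivity
  have hpow : (b : ℤ) ^ (t + 1) = b * q := by rw [pow_succ, hq]; ring
  have hKe : K = 4 * M * R + b * q * v := by rw [hpow] at hv; linarith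
  rw [hpow, hKe] at hu
  have e : D * (4 * M * R + b * q * v) - u * (b * q) = D * (4 * M * R) - (u - D * v) * (b * q) := by ring
  rw [e] at hu
  set w := u - D * v with hw
  have hM' : (0 : ℤ) < M := by exact_mod_cast hM
  have hb' : (2 : ℤ) ^ (K0 + 5) * M ≤ b := by exact_mod_cast hb
  have e5 : (2 : ℤ) ^ (K0 + 5) = 16 * 2 ^ (K0 + 1) := by rw [pow_add, pow_add]; ring
  have hP : (2 : ℤ) ≤ 2 ^ (K0 + 1) := by
    have : (1 : ℤ) ≤ 2 ^ K0 := one_le_pow₀ (by norm_num)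
    rw [pow_succ]; linarith
  set Pw : ℤ := 2 ^ (K0 + 1) with hPw
  have hD1 : 1 ≤ |D| := Int.one_le_abs hne
  have hMq : 0 < (M : ℤ) * q := mul_pos hM' hqpos
  -- lower bound on |D * (4 M R)|
  have hMR1 : 4 * (M * q) ≤ 4 * M * R := by nlinarith
  have hMR2 : 4 * M * R ≤ 8 * (M * q) := by nlinarith
  have hlow : 4 * (M * q) ≤ |D * (4 * M * R)| := by
    rw [abs_mul, abs_of_nonneg (show (0 : ℤ) ≤ 4 * M * R by nlinarith)]
    nlinarith
  have hup : |D * (4 * M * R)| ≤ Pw * (8 * (M * q)) := by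
    rw [abs_mul, abs_of_nonneg (show (0 : ℤ) ≤ 4 * M * R by nlinarith)]
    have : |D| ≤ Pw := le_of_lt hD
    nlinarith [abs_nonneg D]
  by_cases hw0 : w = 0
  · rw [hw0] at hu
    simp only [zero_mul, sub_zero] at hu
    nlinarith
  · have hw1 : 1 ≤ |w| := Int.one_le_abs hw0
    have hbq : 16 * Pw * (M * q) ≤ b * q := by
      have : 16 * Pw * M ≤ b := by rw [← e5]; exact hb'
      nlinarith
    have hwb : b * q ≤ |w * (b * q)| := by
      have hbq0 : (0 : ℤ) ≤ b * q := by nlinarith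
      rw [abs_mul, abs_of_nonneg hbq0]
      nlinarith
    have htri : |w * (b * q)| ≤ |D * (4 * M * R)| + |D * (4 * M * R) - w * (b * q)| := by
      have : w * (b * q) = D * (4 * M * R) - (D * (4 * M * R) - w * (b * q)) := by ring
      calc |w * (b * q)| = |D * (4 * M * R) - (D * (4 * M * R) - w * (b * q))| := by rw [← this]
        _ ≤ _ := abs_sub _ _
    nlinarith

theorem exists_K (m M b : ℕ) (hM : 0 < M) (hb : 0 < b) (hcop : Nat.Coprime M b) (N1 : ℕ) :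
    ∃ K : ℕ, N1 < K ∧ (M : ℤ) ∣ K - 1 ∧
      ∀ t < m, (b : ℤ) ^ (t + 1) ∣ K - 4 * M * ∑ s ∈ range (t + 1), (b : ℤ) ^ s := by
  have hco : Nat.Coprime M (b ^ m) := Nat.Coprime.pow_right m hcop
  obtain ⟨k, hk1, hk2⟩ := Nat.chineseRemainder hco 1 (4 * M * ∑ s ∈ range m, b ^ s)
  refine ⟨k + M * b ^ m * (N1 + 1), ?_, ?_, ?_⟩
  · have : 1 ≤ M * b ^ m := Nat.mul_pos hM (Nat.pow_pos hb)
    nlinarith
  · have h1 : (M : ℤ) ∣ (k : ℤ) - 1 := by
      have := (Nat.modEq_iff_dvd.1 hk1.symm)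
      simpa using this
    have e : ((k + M * b ^ m * (N1 + 1) : ℕ) : ℤ) - 1 = ((k : ℤ) - 1) + M * (b ^ m * (N1 + 1)) := by
      push_cast; ring
    rw [e]
    exact dvd_add h1 (dvd_mul_right _ _)
  · intro t ht
    have h2 : (b : ℤ) ^ m ∣ (k : ℤ) - 4 * M * ∑ s ∈ range m, (b : ℤ) ^ s := by
      have := (Nat.modEq_iff_dvd.1 hk2.symm)
      push_cast at this
      exact this
    have h3 : (b : ℤ) ^ (t + 1) ∣ (b : ℤ) ^ m := pow_dvd_pow _ (by omega)
    have h4 : (b : ℤ) ^ (t + 1) ∣ ∑ s ∈ range m, (b : ℤ) ^ s - ∑ s ∈ range (t + 1), (b : ℤ) ^ s := by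
      rw [← Finset.sum_range_add_sum_Ico (fun s => (b : ℤ) ^ s) (show t + 1 ≤ m by omega)]
      rw [add_sub_cancel_left]
      refine Finset.dvd_sum fun s hs => ?_
      exact pow_dvd_pow _ (Finset.mem_Ico.1 hs).1
    have e : ((k + M * b ^ m * (N1 + 1) : ℕ) : ℤ) - 4 * M * ∑ s ∈ range (t + 1), (b : ℤ) ^ s =
        ((k : ℤ) - 4 * M * ∑ s ∈ range m, (b : ℤ) ^ s) + (M * (N1 + 1)) * (b : ℤ) ^ m +
          4 * M * (∑ s ∈ range m, (b : ℤ) ^ s - ∑ s ∈ range (t + 1), (b : ℤ) ^ s) := by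
      push_cast; ring
    rw [e]
    exact dvd_add (dvd_add (h3.trans h2) (h3.mul_left _)) (h4.mul_left _)

open Classical in
/-- **The wide ruler.** -/
theorem ruler (K0 m M b : ℕ) (Ms : Finset ℕ) (hMs : ∀ k ∈ Ms, 2 ^ (K0 + 2) ≤ k ∧ k ∣ M)
    (hM : 0 < M) (hcop : Nat.Coprime M b) (hb : 2 ^ (K0 + 5) * M ≤ b) (N1 : ℕ) :
    ∃ c : ℕ → ℕ, (∀ i j, i < j → c i < c j) ∧
      (∀ i j k l, i < K0 → j < K0 → k < K0 → l < K0 → i ≠ j → (i, j) ≠ (k, l) →
        c i + c l + N1 < c k + c j ∨ c k + c j + N1 < c i + c l) ∧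
      ∀ T : ℕ, (∀ i < K0, c i ≤ T) →
        ((range K0 ×ˢ range K0).filter
          (fun p => p.1 ≠ p.2 ∧ Bad Ms m M b (T + c p.2 - c p.1))).card ≤ Ms.card + m := by
  have hb0 : 0 < b := lt_of_lt_of_le (Nat.mul_pos (by positivity) hM) hb
  obtain ⟨K, hKN, hK1, hK2⟩ := exists_K m M b hM hb0 hcop N1
  refine ⟨fun l => 2 ^ l * K, ?_, ?_, ?_⟩
  · intro i j hij
    have : 2 ^ i < 2 ^ j := Nat.pow_lt_pow_right (by norm_num) hij
    exact Nat.mul_lt_mul_of_pos_right this (by omega)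
  · intro i j k l hi hj hk hl hij hne
    have hD := diff_ne hij hne
    set D : ℤ := ((2 : ℤ) ^ j - 2 ^ i) - (2 ^ l - 2 ^ k) with hDd
    have hKp : (N1 : ℤ) < K := by exact_mod_cast hKN
    have hN0 : (0 : ℤ) ≤ N1 := Int.natCast_nonneg _
    rcases lt_or_gt_of_ne hD with h | h
    · right
      have : D * K ≤ -K := by nlinarith
      have h2 : ((2 ^ k * K + 2 ^ j * K + N1 : ℕ) : ℤ) < ((2 ^ i * K + 2 ^ l * K : ℕ) : ℤ) := by
        push_cast
        rw [hDd] at this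
        nlinarith
      exact_mod_cast h2
    · left
      have : (K : ℤ) ≤ D * K := by nlinarith
      have h2 : ((2 ^ i * K + 2 ^ l * K + N1 : ℕ) : ℤ) < ((2 ^ k * K + 2 ^ j * K : ℕ) : ℤ) := by
        push_cast
        rw [hDd] at this
        nlinarith
      exact_mod_cast h2
  · intro T hT
    have hcast : ∀ i j, i < K0 → (((T + 2 ^ j * K - 2 ^ i * K : ℕ)) : ℤ) =
        T + (2 ^ j - 2 ^ i) * K := by
      intro i j hi
      have h1 := hT i hi
      simp only at h1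
      rw [Nat.cast_sub (by omega)]
      push_cast; ring
    have hpin1 : ∀ k ∈ Ms, ((range K0 ×ˢ range K0).filter
        (fun p => p.1 ≠ p.2 ∧ k ∣ (T + 2 ^ p.2 * K - 2 ^ p.1 * K))).card ≤ 1 := by
      intro k hk
      rw [Finset.card_le_one]
      rintro ⟨i, j⟩ h1 ⟨i', j'⟩ h2
      simp only [Finset.mem_filter, Finset.mem_product, Finset.mem_range] at h1 h2
      by_contra hne
      obtain ⟨⟨hi, hj⟩, hij, hd⟩ := h1
      obtain ⟨⟨hi', hj'⟩, hij', hd'⟩ := h2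
      have a1 : (k : ℤ) ∣ T + (2 ^ j - 2 ^ i) * K := by
        rw [← hcast i j hi]; exact_mod_cast hd
      have a2 : (k : ℤ) ∣ T + (2 ^ j' - 2 ^ i') * K := by
        rw [← hcast i' j' hi']; exact_mod_cast hd'
      have a3 : (k : ℤ) ∣ (((2 : ℤ) ^ j - 2 ^ i) - (2 ^ j' - 2 ^ i')) * K := by
        have := dvd_sub a1 a2
        have e : (T + (2 ^ j - 2 ^ i) * (K : ℤ)) - (T + (2 ^ j' - 2 ^ i') * K) =
          (((2 : ℤ) ^ j - 2 ^ i) - (2 ^ j' - 2 ^ i')) * K := by ring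
        rwa [e] at this
      have hk' : (2 : ℤ) ^ (K0 + 1) < k := by
        have h3 := (hMs k hk).1
        have h4 : (2 : ℤ) ^ (K0 + 2) ≤ k := by exact_mod_cast h3
        have h5 : (2 : ℤ) ^ (K0 + 2) = 2 ^ (K0 + 1) * 2 := pow_succ _ _
        have h6 : (0 : ℤ) < 2 ^ (K0 + 1) := by positivity
        linarith
      have hkK : (k : ℤ) ∣ K - 1 := (Int.natCast_dvd_natCast.2 (hMs k hk).2).trans hK1
      exact diff_ne hij hne (mod_pin K0 hk' hkK (diff_lt hi hj hi' hj') a3)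
    have hpin2 : ∀ t ∈ range m, ((range K0 ×ˢ range K0).filter
        (fun p => p.1 ≠ p.2 ∧ ¬ (M ≤ ((T + 2 ^ p.2 * K - 2 ^ p.1 * K) / b ^ t) % b ∧
          ((T + 2 ^ p.2 * K - 2 ^ p.1 * K) / b ^ t) % b + M + 1 ≤ b))).card ≤ 1 := by
      intro t ht
      rw [Finset.card_le_one]
      rintro ⟨i, j⟩ h1 ⟨i', j'⟩ h2
      simp only [Finset.mem_filter, Finset.mem_product, Finset.mem_range] at h1 h2
      by_contra hne
      obtain ⟨⟨hi, hj⟩, hij, hd⟩ := h1
      obtain ⟨⟨hi', hj'⟩, hij', hd'⟩ := h2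
      obtain ⟨u, hu⟩ := digit_near hb0 hd
      obtain ⟨u', hu'⟩ := digit_near hb0 hd'
      rw [hcast i j hi] at hu
      rw [hcast i' j' hi'] at hu'
      refine diff_ne hij hne (digit_pin hM hb (hK2 t (Finset.mem_range.1 ht))
        (diff_lt hi hj hi' hj') ⟨u - u', ?_⟩)
      rw [abs_le] at hu hu' ⊢
      constructor <;> nlinarith [hu.1, hu.2, hu'.1, hu'.2]
    have hsub : ((range K0 ×ˢ range K0).filter
        (fun p => p.1 ≠ p.2 ∧ Bad Ms m M b (T + 2 ^ p.2 * K - 2 ^ p.1 * K))) ⊆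
        (Ms.biUnion fun k => (range K0 ×ˢ range K0).filter
          (fun p => p.1 ≠ p.2 ∧ k ∣ (T + 2 ^ p.2 * K - 2 ^ p.1 * K))) ∪
        ((range m).biUnion fun t => (range K0 ×ˢ range K0).filter
          (fun p => p.1 ≠ p.2 ∧ ¬ (M ≤ ((T + 2 ^ p.2 * K - 2 ^ p.1 * K) / b ^ t) % b ∧
          ((T + 2 ^ p.2 * K - 2 ^ p.1 * K) / b ^ t) % b + M + 1 ≤ b))) := by
      intro p hp
      rw [Finset.mem_filter] at hp
      obtain ⟨hp1, hp2, hp3⟩ := hp
      rw [Finset.mem_union]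
      rcases hp3 with ⟨k, hk, hkd⟩ | ⟨t, ht, htd⟩
      · left
        rw [Finset.mem_biUnion]
        exact ⟨k, hk, Finset.mem_filter.2 ⟨hp1, hp2, hkd⟩⟩
      · right
        rw [Finset.mem_biUnion]
        exact ⟨t, Finset.mem_range.2 ht, Finset.mem_filter.2 ⟨hp1, hp2, htd⟩⟩
    refine (Finset.card_le_card hsub).trans ((Finset.card_union_le _ _).trans ?_)
    refine Nat.add_le_add ?_ ?_
    · refine (Finset.card_biUnion_le).trans ?_
      refine (Finset.sum_le_card_nsmul _ _ 1 hpin1).trans ?_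
      simp
    · refine (Finset.card_biUnion_le).trans ?_
      refine (Finset.sum_le_card_nsmul _ _ 1 hpin2).trans ?_
      simp

end Crest.Agent.R320.Spoil852_495
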