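import Crest.Agent.R320.Top5_110
import Crest.Agent.R320.C12_790
import Crest.Agent.R320.HZ_847
import Crest.Agent.R320.G1_604
import Crest.Agent.R320.Spoil852_495
import Crest.Agent.R320.WallU_228
import Crest.Agent.R320.ExactR_237
import Crest.Agent.R320.RegDep_10
import Crest.Agent.R320.Block_467
import Crest.Agent.R320.Sp_65

/-!
# Row 320: THE END (helper403): S0495 from landed pieces

`top_sem` (110) + joint (790) + heights (847) + gadget 1 (604) + ruler (495) + walls (228)
+ exact gadget (237).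
-/

set_option autoImplicit false

namespace Crest.Agent.R320.End_403

open Crest.RegLang Crest.Agent.R320.Hk_851 Crest.Agent.R320.Code110

universe u

/-- value of a word -/
def ph {α : Type u} {S : Type} [Monoid S] (φ : α → S) (w : List α) : S := (w.map φ).prod

theorem ph_append {α : Type u} {S : Type} [Monoid S] (φ : α → S) (u w : List α) :
    ph φ (u ++ w) = ph φ u * ph φ w := by simp [ph]

theorem main {α : Type u} [Finite α] (S V : Type) [Monoid S] [Finite S] [AddCommGroup V] [Finite V]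
    (act : V → S → V) (hadd : ∀ v v' s, act (v + v') s = act v s + act v' s)
    (hone : ∀ v, act v 1 = v) (hmul : ∀ v s t, act v (s * t) = act (act v s) t)
    (hfaith : ∀ s t : S, (∀ v, act v s = act v t) → s = t) (φ : α → S) (s : S) :
    HL 3 ({w | (w.map φ).prod = s} : Language α) := by
  classical
  have := Fintype.ofFinite S
  have := Fintype.ofFinite V
  obtain ⟨m, r, hg⟩ := Crest.Agent.R320.G1_604.g1 S V act
  set C0 := r + m with hC0
  obtain ⟨K, hE⟩ := Crest.Agent.R320.ExactR_237.exact_gadget S S V id act (2 + 2 * C0)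
  obtain ⟨Ms, M, hcard, hMs, hM, hg⟩ := hg (2 ^ (K + 2))
  set b := 2 ^ (K + 6) * M + 1 with hb
  have hpow : 64 ≤ 2 ^ (K + 6) := by
    calc 64 = 2 ^ 6 := by norm_num
      _ ≤ 2 ^ (K + 6) := Nat.pow_le_pow_right (by norm_num) (by omega)
  have hbig : 4 * M + 4 < b := by nlinarith
  have hcop : Nat.Coprime b M := by
    have h1 : Nat.gcd (2 ^ (K + 6) * M + 1) M = 1 := by
      have h2 : Nat.gcd (2 ^ (K + 6) * M + 1) M ∣ 1 := by
        have h3 := Nat.gcd_dvd_left (2 ^ (K + 6) * M + 1) M
        have h4 := Nat.gcd_dvd_right (2 ^ (K + 6) * M + 1) M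
        exact (Nat.dvd_add_right (h4.mul_left _)).1 h3
      exact Nat.dvd_one.1 h2
    exact h1
  have hb0 : 0 < b := by omega
  obtain ⟨lam, rho, nu, g1, g2, g3, g4⟩ := hg b hbig hcop S id
  set N1 := b ^ m with hN1
  have hb5 : 2 ^ (K + 5) * M ≤ b := by
    have : 2 ^ (K + 6) = 2 * 2 ^ (K + 5) := by ring
    rw [hb, this]; nlinarith
  obtain ⟨c, hc1, hc2, hc3⟩ := Crest.Agent.R320.Spoil852_495.ruler K m M b Ms
    (fun k hk => ⟨(hMs k hk).1.le, (hMs k hk).2.2⟩) hM (Nat.coprime_comm.1 hcop) hb5 (2 * N1)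
  set p0 := c K with hp0
  have hcK : ∀ k < K, c k ≤ p0 := fun k hk => (hc1 k K hk).le
  obtain ⟨lam2, rho2, nu2, e1, e2⟩ := hE c (fun i j hij _ => hc1 i j hij)
  obtain ⟨n, cc, P, Sw, hn, hP, hloc, hgap, -, -, hfew⟩ :=
    Crest.Agent.R320.WallU_228.walls_full (α := α) (2 * p0 + 2 * N1)
  -- the data on words over `α`
  have hlenm : ∀ w : List α, (w.map φ).length = w.length := fun w => List.length_map _
  have hphm : ∀ w : List α, ((w.map φ).map id).prod = ph φ w := fun w => by
    rw [List.map_id]; rfl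
  set BadT : ℕ → Prop := Crest.Agent.R320.Spoil852_495.Bad Ms m M b with hBT
  let lamW : List α → Option V := fun P => lam (P.map φ)
  let rhoW : List α → Option V := fun P => rho (P.map φ)
  let nu1 : List α → V := fun P => nu (P.map φ)
  let lam2W : ℕ → List α → Option V := fun k P => lam2 k (P.map φ)
  let rho2W : ℕ → List α → Option V := fun k P => rho2 k (P.map φ) 1
  let nu2W : List α → V := fun P => nu2 (P.map φ) 1
  have G1 : ∀ P v, lamW P = some v → P.length ≤ N1 := fun P v h => by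
    have := g1 _ _ h
    rw [hlenm] at this
    exact this.le
  have G2 : ∀ P Q v b, lamW P = some v → rhoW Q = some b →
      b = act v (ph φ (P ++ Q)) + nu1 (P ++ Q) := fun P Q v b h1 h2 => by
    have := g2 _ _ _ _ h1 h2
    rw [← List.map_append, hphm] at this
    exact this
  have G3 : ∀ u : List α, 0 ≤ u.length → ¬ BadT u.length → ∀ v, ∃ P Q, u = P ++ Q ∧
      lamW P = some v ∧ (rhoW Q).isSome := fun u _ hu v => by
    rw [hBT] at hu
    unfold Crest.Agent.R320.Spoil852_495.Bad at hu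
    push Not at hu
    obtain ⟨P, Q, hPQ, h1, h2⟩ := g3 (u.map φ) (by rw [hlenm]; exact hu.1)
      (by rw [hlenm]; exact hu.2) v
    obtain ⟨P', Q', e, rfl, rfl⟩ := List.map_eq_append_iff.1 hPQ.symm
    exact ⟨P', Q', e, h1, h2⟩
  have hwalls : Crest.Agent.R320.C12_790.Walls (Crest.Agent.R320.WallU_228.Wo n Sw) n
      (2 * p0 + 2 * N1) := by
    refine ⟨hloc, ?_⟩
    intro w s t hst htw hs ht
    by_contra hle
    have hl : (w.take t).length = t := by rw [List.length_take]; omega
    refine hgap (w.take t) (t - s) ht (by omega) (by omega) ?_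
    rw [hl, show t - (t - s) = s by omega, List.take_take, min_eq_left hst.le]
    exact hs
  set z := 2 * p0 + 2 * N1 + n + p0 + 1 with hz
  have hper : ∀ t, 0 ≤ t → (BadT (t + M * b ^ m) ↔ BadT t) := fun t _ => by
    have := Crest.Agent.R320.Sp_65.badD_period (Ms := Ms) (M := M) (m := m) (b := b)
      (fun k hk => (hMs k hk).2.2) hb0 t
    exact this
  have hbadeq : ∀ u : List α, u ∈ Crest.Agent.R320.HZ847.Bad n Sw z p0 N1 BadT ↔
      u ∈ Crest.Agent.R320.C12_790.Bad (Crest.Agent.R320.WallU_228.Wo n Sw) z N1 p0 BadT := by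
    intro u
    constructor
    · rintro ⟨h1, h2 | h2⟩
      · refine ⟨h1, Or.inl ?_⟩
        obtain ⟨t, h3, h4, h5, h6⟩ := h2
        by_cases hc : t < z
        · exact Or.inr ⟨t, h3, hc, h6⟩
        · left
          by_contra hcon
          exact h1.2.2 t (by omega) (by omega) h6
      · exact ⟨h1, Or.inr h2⟩
    · rintro ⟨h1, h2 | h2⟩
      · have h0 : z ≤ u.length := h1.1
        refine ⟨h1, Or.inl ?_⟩
        rcases h2 with h2 | ⟨t, h3, h4, h5⟩
        · refine ⟨u.length, by omega, h2, le_rfl, ?_⟩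
          rw [List.take_length]
          exact h1.2.1
        · exact ⟨t, h3, by omega, by omega, h5⟩
      · exact ⟨h1, Or.inr h2⟩
  have hXXeq : Crest.Agent.R320.HZ847.XX n Sw z =
      Crest.Agent.R320.C12_790.XX (Crest.Agent.R320.WallU_228.Wo n Sw) z := rfl
  have hnureg : ∀ x, Language.IsRegular ({w | nu1 w = x} : Language α) := fun x => by
    refine Crest.Agent.R320.RegDep_10.regular_fibre (ph φ) (by simp [ph]) (ph_append φ) (b ^ m)
      (M * b ^ m) (Nat.mul_pos hM (pow_pos hb0 m)) nu1 ?_ x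
    intro u u' a1 a2 a3 a4 a5
    refine (g4 (u.map φ) (u'.map φ) (by rw [hlenm]; exact a1) (by rw [hlenm]; exact a2) ?_ ?_ ?_).2
    · rw [← List.map_take, ← List.map_take, a3]
    · rw [hlenm, hlenm]; exact a5
    · rw [← List.map_drop, ← List.map_drop, hphm, hphm]; exact a4
  refine HL.congr (Crest.Agent.R320.Top5_110.top_sem (α := α) (S := S) (V := V) (φ := ph φ) (act := act)
    (XX := Crest.Agent.R320.C12_790.XX (Crest.Agent.R320.WallU_228.Wo n Sw) z)
    (Bad := Crest.Agent.R320.C12_790.Bad (Crest.Agent.R320.WallU_228.Wo n Sw) z N1 p0 BadT)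
    (T := Crest.Agent.R320.C12_790.TM (ph φ) act nu2W nu1 p0)
    (by simp [ph]) (ph_append φ) hone hmul hfaith
    (Crest.Agent.R320.C12_790.pc (by omega)) (fun u hu => hu.1)
    (fun u _ v v' => Crest.Agent.R320.C12_790.hT (ph_append φ) hmul hadd u v v')
    ((Crest.Agent.R320.HZ847.hl_XX (n := n) (S := Sw) z).mono (by norm_num))
    ((Crest.Agent.R320.HZ847.H2 hfew (La := 0) (Nat.mul_pos hM (pow_pos hb0 m)) hper).congr
      (fun w => (hbadeq w).symm))
    (fun x y => Crest.Agent.R320.HZ847.H3 hfew (by simp [ph]) (ph_append φ) (by omega) hnureg x y)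
    (fun s => (Crest.Agent.R320.HZ847.H4 (z := z) hfew (by simp [ph]) (ph_append φ) s).mono
      (by norm_num))
    (N1 := 0) (N2 := 1)
    (L1 := Crest.Agent.R320.C12_790.L1 (ph φ) act nu2W p0 lamW)
    (L2 := Crest.Agent.R320.C12_790.L2 K c lam2W)
    (fun v => Crest.Agent.R320.C12_790.f1 G1 v)
    (fun v => Crest.Agent.R320.C12_790.f2 hcK v)
    (Crest.Agent.R320.C12_790.c1 (N0 := 0) hwalls (by omega) G1 G2 G3)
    (Crest.Agent.R320.C12_790.c2 (C0 := C0) (rho2 := rho2W) hwalls (Tm := p0) (by omega) (by omega)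
      le_rfl hcK ?_ ?_ ?_ ?_ ?_) s) (fun w => Iff.rfl)
  · intro k hk k' hk' h
    rcases lt_trichotomy k k' with hlt | heq | hlt
    · have := hc1 k k' hlt; omega
    · exact heq
    · have := hc1 k' k hlt; omega
  · intro a a' d e ha hb' hd he hne hne' h1 h2
    by_contra hcon
    have hne2 : (a, a') ≠ (d, e) := fun h => hcon ⟨(Prod.mk.inj h).1, (Prod.mk.inj h).2⟩
    rcases hc2 a a' d e ha hb' hd he hne hne2 with h | h
    · omega
    · omega
  · intro T hT F hF
    have h1 := hc3 T (fun i hi => (hcK i hi).trans hT)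
    refine (Finset.card_le_card ?_).trans (h1.trans (by omega))
    intro q hq
    obtain ⟨q1, q2, q3, q4⟩ := hF q hq
    exact Finset.mem_filter.2 ⟨Finset.mem_product.2 ⟨Finset.mem_range.2 q1, Finset.mem_range.2 q2⟩,
      q3, q4⟩
  · intro k hk P Q v x hP h1 h2
    have := e1 k hk (P.map φ) (Q.map φ) 1 v x (by rw [hlenm]; exact hP) h1 h2
    rw [mul_one, ← List.map_append] at this
    have h3 : Crest.Agent.R320.ExactR_237.pr id (List.map φ (P ++ Q)) = ph φ (P ++ Q) := hphm _
    rw [h3] at this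
    exact this
  · intro u v hu
    obtain ⟨I, hI1, hI2⟩ := e2 (u.map φ) 1 v (fun k hk => by rw [hlenm, hu]; exact hcK k hk)
    refine ⟨I, by omega, fun k hk => ?_⟩
    obtain ⟨h1, h2, h3⟩ := hI2 k hk
    refine ⟨h1, ?_, ?_⟩
    · show lam2 k ((u.take (c k)).map φ) = some v
      rw [List.map_take]; exact h2
    · show (rho2 k ((u.drop (c k)).map φ) 1).isSome
      rw [List.map_drop]; exact h3

/-- a copy of `Fin k` without arithmetic -/
def Cp (k : ℕ) : Type := Fin k

theorem exists_copy (S : Type u) [Monoid S] [Finite S] :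
    ∃ (T : Type) (_ : Monoid T) (_ : Finite T), Nonempty (S ≃* T) := by
  obtain ⟨k, ⟨e⟩⟩ := Finite.exists_equiv_fin S
  let e' : Cp k ≃ S := e.symm
  let i1 : Monoid (Cp k) := e'.monoid
  exact ⟨Cp k, i1, inferInstanceAs (Finite (Fin k)), ⟨(e'.mulEquiv).symm⟩⟩

theorem final {α : Type u} [Finite α] (L : Language α) (hL : L.IsRegular) :
    ∃ e : GRegExp α, e.height ≤ 3 ∧ e.lang = L := by
  refine of_monoid (k := 3) (fun S _ _ φ s => ?_) L hL
  obtain ⟨T, i1, i2, ⟨E⟩⟩ := exists_copy S
  obtain ⟨act, hadd, hone, hmul, hfaith⟩ := Crest.Agent.R320.Blk467.exists_module T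
  have := main (α := α) T (T → ZMod 2) act hadd hone hmul hfaith (fun a => E (φ a)) (E s)
  refine this.congr fun w => ?_
  have h1 : (w.map (fun a => E (φ a))).prod = E ((w.map φ).prod) := by
    rw [map_list_prod, List.map_map]
    rfl
  show (w.map φ).prod = s ↔ (w.map (fun a => E (φ a))).prod = E s
  rw [h1, E.injective.eq_iff]

end Crest.Agent.R320.End_403
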