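import Crest.Agent.R320.SemTop_727
import Crest.Agent.R320.Sc2n_937

/-!
Row 320, helper532: joint of 727's semantic top with 937's block form of the two wall schemes
(natural chain rule, all words).
-/

set_option autoImplicit false

namespace Crest.Agent.R320.End_532

open Crest.RegLang Crest.Agent.R320.Hk_851 Crest.Agent.R320.Blk467 Crest.Agent.R320.SemTop_727
open Crest.Agent.R320.Sc2n_937

universe u v

variable {α : Type u} {V : Type v}

/-- the semantic scheme of 937's block scheme. -/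
def sch (g : Geo α) (pre : List α → V → V) (post : V → List α → V) (K : ℕ) (c : ℕ → ℕ)
    (lam : List α → Option V) (lam2 : ℕ → List α → Option V) : Sch α V where
  XX := {X | g.XX X}
  T := g.T pre post
  L1 := fun x => {P | g.LP1 pre lam x P}
  L2 := fun x => {P | Geo.LP2 K c lam2 x P}

variable {g : Geo α} {pre : List α → V → V} {post : V → List α → V} {K : ℕ} {c : ℕ → ℕ}
  {lam rho : List α → Option V} {lam2 rho2 : ℕ → List α → Option V} {BadT : ℕ → Prop}

theorem good_of (hlen : ∀ P v, lam P = some v → P.length ≤ g.N1)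
    (hex : ∀ P Q u b, lam P = some u → rho Q = some b → b = post u (P ++ Q))
    (hc : ∀ Y : List α, g.q0 ≤ Y.length → ¬ BadT Y.length → ∀ u : V,
      ∃ P Q, Y = P ++ Q ∧ lam P = some u ∧ (rho Q).isSome)
    {X : List α} (hX : g.XX X) (hB : ¬ g.BadX BadT X) :
    X ∈ (sch g pre post K c lam lam2).Good := by
  have hz := g.hz
  have hXz := hX.1
  have hE : ¬ g.E X := fun h => hB (Or.inl h)
  have hT : ¬ BadT (X.length - g.p0) := fun h => hB (Or.inr h)
  refine ⟨hX, fun x => ?_⟩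
  obtain ⟨P, Q, b, hPQ, hP, hQ⟩ := g.complete1 pre (rho := rho) hlen hX hE
    (hc (X.drop g.p0) (by rw [List.length_drop]; omega) (by rwa [List.length_drop])) x
  have hs := g.sound1 pre post hlen hex hP hQ
  refine ⟨P, hP, Q, ?_, hPQ.symm⟩
  intro x' P' hP'
  have hs' := g.sound1 pre post hlen hex hP' hQ
  refine ⟨hs'.1, ?_⟩
  show g.T pre post x' (P' ++ Q) = g.T pre post x X
  rw [hs'.2, hPQ, hs.2]

theorem bad_of (hlen : ∀ P v, lam P = some v → P.length ≤ g.N1)
    (hex : ∀ P Q u b, lam P = some u → rho Q = some b → b = post u (P ++ Q))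
    (hc : ∀ Y : List α, g.q0 ≤ Y.length → ¬ BadT Y.length → ∀ u : V,
      ∃ P Q, Y = P ++ Q ∧ lam P = some u ∧ (rho Q).isSome)
    {X : List α} (hX : X ∈ (sch g pre post K c lam lam2).Bad) : g.BadX BadT X := by
  by_contra hB
  exact hX.2 (good_of hlen hex hc hX.1 hB)

theorem hC2 {C0 : ℕ} (hlen : ∀ P v, lam P = some v → P.length ≤ g.N1)
    (hex : ∀ P Q u b, lam P = some u → rho Q = some b → b = post u (P ++ Q))
    (hc1 : ∀ Y : List α, g.q0 ≤ Y.length → ¬ BadT Y.length → ∀ u : V,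
      ∃ P Q, Y = P ++ Q ∧ lam P = some u ∧ (rho Q).isSome)
    (hc : ∀ k, k < K → c k ≤ g.p0)
    (hex2 : ∀ k, k < K → ∀ P Q v u, P.length = c k → Q.length = g.p0 - c k →
      lam2 k P = some v → rho2 k Q = some u → u = pre (P ++ Q) v)
    (hgap : ∀ P Q : List α, g.Wo P → g.Wo (P ++ Q) → Q ≠ [] → 2 * g.p0 + 2 * g.N1 < Q.length)
    (hsp : ∀ k k' l l', k < K → k' < K → l < K → l' < K → k' ≠ k → l' ≠ l →
      c k + c l' < c l + c k' + 2 * g.N1 → c l + c k' < c k + c l' + 2 * g.N1 → k = l)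
    (hthin : ∀ τ, g.z ≤ τ + g.p0 → ∀ J : Finset ℕ, (∀ k ∈ J, k < K ∧
      ∃ k', k' < K ∧ k' ≠ k ∧ BadT (τ + c k' - c k - g.p0)) → J.card ≤ C0)
    (hI : ∀ (X0 : List α) (v : V), X0.length = g.p0 → ∃ I : Finset ℕ, 2 * C0 + 2 ≤ I.card ∧
      ∀ k ∈ I, k < K ∧ lam2 k (X0.take (c k)) = some v ∧ (rho2 k (X0.drop (c k))).isSome) :
    ∀ X1 ∈ (sch g pre post K c lam lam2).Bad, ∀ X2 ∈ (sch g pre post K c lam lam2).Bad, ∀ x,
      ∃ P ∈ (sch g pre post K c lam lam2).L2 x,
        ∃ Q ∈ (sch g pre post K c lam lam2).R2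
          ((sch g pre post K c lam lam2).T ((sch g pre post K c lam lam2).T x X1) X2),
          P ++ Q = X1 ++ X2 := by
  intro X1 hX1 X2 hX2 x
  have hz := g.hz
  have hb1 := bad_of hlen hex hc1 hX1
  have h1z : g.z ≤ X1.length := hX1.1.1
  obtain ⟨I, hI1, hI2⟩ := hI (X1.take g.p0) x (by rw [List.length_take]; omega)
  obtain ⟨P, Q, b, hPQ, hP, hQ⟩ := g.complete2 pre post (BadT := BadT) (lam2 := lam2)
    (rho2 := rho2) hc hgap hsp hthin hX1.1 hX2.1 x ⟨I, hI1, fun k hk => by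
      obtain ⟨h1, h2, h3⟩ := hI2 k hk
      refine ⟨h1, ?_, h3⟩
      rw [List.take_take, min_eq_left (hc k h1)] at h2
      exact h2⟩
  have hval : ∀ {x' : V} {P' Y1 Y2 : List α}, Geo.LP2 K c lam2 x' P' → g.XX Y1 → g.BadX BadT Y1 →
      P' ++ Q = Y1 ++ Y2 → g.T pre post (g.T pre post x' Y1) Y2 = b := by
    intro x' P' Y1 Y2 hP' hY1 hbY h
    obtain ⟨Z, hZ, e1, e2⟩ := g.sound2 pre post hc hex2 (R := []) (R' := Y2) hY1 hbY hP' hQ
      (by rw [List.append_nil]; exact h)
    have : Z = Y2 := by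
      rw [h] at e1
      exact (List.append_cancel_left e1).symm
    rw [← this]; exact e2
  have hb : b = g.T pre post (g.T pre post x X1) X2 := (hval hP hX1.1 hb1 hPQ).symm
  refine ⟨P, hP, Q, ?_, hPQ⟩
  intro x' P' hP'
  obtain ⟨j, hj, hPl, hl⟩ := hP'
  obtain ⟨k, hk, l, hend, hgood, hXl, -⟩ := hQ
  by_cases hjk : j = k
  · subst hjk
    have hxx : g.XX (P' ++ Q.take l) := g.xx_of_cend (by rw [hPl]; exact hc j hj)
      (by rw [hPl]; exact hend)
    by_cases hG : (P' ++ Q.take l) ∈ (sch g pre post K c lam lam2).Good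
    · right; left
      exact ⟨_, hG, ⟨Q.drop l, by rw [List.append_assoc, List.take_append_drop]⟩⟩
    · have hB1 : (P' ++ Q.take l) ∈ (sch g pre post K c lam lam2).Bad := ⟨hxx, hG⟩
      by_cases hG2 : (Q.drop l) ∈ (sch g pre post K c lam lam2).Good
      · right; right
        refine ⟨_, hB1, _, hG2, ⟨[], ?_⟩⟩
        rw [List.append_nil, List.append_assoc, List.take_append_drop]
      · left
        have e : P' ++ Q = (P' ++ Q.take l) ++ Q.drop l := by
          rw [List.append_assoc, List.take_append_drop]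
        refine ⟨_, hB1, Q.drop l, ⟨hXl, hG2⟩, e, ?_⟩
        show g.T pre post (g.T pre post x' (P' ++ Q.take l)) (Q.drop l) =
          g.T pre post (g.T pre post x X1) X2
        rw [← hb]
        exact hval ⟨j, hj, hPl, hl⟩ hxx (bad_of hlen hex hc1 hB1) e
  · right; left
    obtain ⟨l', hend', hnb⟩ := hgood j hj hjk
    have hxx : g.XX (P' ++ Q.take l') := g.xx_of_cend (by rw [hPl]; exact hc j hj)
      (by rw [hPl]; exact hend')
    refine ⟨P' ++ Q.take l', good_of hlen hex hc1 hxx ?_,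
      ⟨Q.drop l', by rw [List.append_assoc, List.take_append_drop]⟩⟩
    intro hbad
    apply hnb
    have := g.cbad_of_bad (by rw [hPl]; exact hc j hj) (by rw [hPl]; exact hend') hbad
    rwa [hPl] at this

theorem finite_le (α : Type u) [Finite α] (N : ℕ) {s : Set (List α)}
    (h : ∀ P ∈ s, P.length ≤ N) : s.Finite :=
  (List.finite_length_le α N).subset h

/-- **Joint.** -/
theorem joint [Finite α] {S : Type*} [Monoid S] [Finite S] [AddCommGroup V] [Finite V]
    (act : V → S → V) (hadd : ∀ a b s, act (a + b) s = act a s + act b s)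
    (hone : ∀ v, act v 1 = v) (hmul : ∀ v s t, act v (s * t) = act (act v s) t)
    (hfaith : ∀ s t, (∀ v, act v s = act v t) → s = t) (φ : α → S)
    (g : Geo α) (nu1 nu2 : List α → V) (K : ℕ) (c : ℕ → ℕ)
    (lam rho : List α → Option V) (lam2 rho2 : ℕ → List α → Option V) (BadT : ℕ → Prop) (C0 : ℕ)
    (hlen : ∀ P v, lam P = some v → P.length ≤ g.N1)
    (hex : ∀ P Q u b, lam P = some u → rho Q = some b →
      b = act u (((P ++ Q).map φ).prod) + nu1 (P ++ Q))
    (hc1 : ∀ Y : List α, g.q0 ≤ Y.length → ¬ BadT Y.length → ∀ u : V,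
      ∃ P Q, Y = P ++ Q ∧ lam P = some u ∧ (rho Q).isSome)
    (hc : ∀ k, k < K → c k ≤ g.p0)
    (hex2 : ∀ k, k < K → ∀ P Q v u, P.length = c k → Q.length = g.p0 - c k →
      lam2 k P = some v → rho2 k Q = some u → u = act v (((P ++ Q).map φ).prod) + nu2 (P ++ Q))
    (hgap : ∀ P Q : List α, g.Wo P → g.Wo (P ++ Q) → Q ≠ [] → 2 * g.p0 + 2 * g.N1 < Q.length)
    (hsp : ∀ k k' l l', k < K → k' < K → l < K → l' < K → k' ≠ k → l' ≠ l →
      c k + c l' < c l + c k' + 2 * g.N1 → c l + c k' < c k + c l' + 2 * g.N1 → k = l)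
    (hthin : ∀ τ, g.z ≤ τ + g.p0 → ∀ J : Finset ℕ, (∀ k ∈ J, k < K ∧
      ∃ k', k' < K ∧ k' ≠ k ∧ BadT (τ + c k' - c k - g.p0)) → J.card ≤ C0)
    (hI : ∀ (X0 : List α) (v : V), X0.length = g.p0 → ∃ I : Finset ℕ, 2 * C0 + 2 ≤ I.card ∧
      ∀ k ∈ I, k < K ∧ lam2 k (X0.take (c k)) = some v ∧ (rho2 k (X0.drop (c k))).isSome)
    (hz0 : 0 < g.z)
    (hfib : ∀ x y : V, HL 1 ({X | g.XX X ∧ act (act x ((X.take g.p0).map φ).prod + nu2 (X.take g.p0))
        ((X.drop g.p0).map φ).prod + nu1 (X.drop g.p0) = y} : Language α))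
    (htail : ∀ s, HL 3 ({w | (∀ X, g.XX X → ¬ X <+: w) ∧ (w.map φ).prod = s} : Language α))
    (s : S) : HL 3 ({w | (w.map φ).prod = s} : Language α) := by
  set pre : List α → V → V := fun X v => act v ((X.map φ).prod) + nu2 X with hpre
  set post : V → List α → V := fun v Y => act v ((Y.map φ).prod) + nu1 Y with hpost
  refine top (k := 1) act hadd hone hmul hfaith φ
    (fun X => act (nu2 (X.take g.p0)) ((X.drop g.p0).map φ).prod + nu1 (X.drop g.p0))
    (sch g pre post K c lam lam2) ?_ ?_ ?_ ?_ ?_ ?_ ?_ s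
  · intro v X
    show act (act v ((X.take g.p0).map φ).prod + nu2 (X.take g.p0)) ((X.drop g.p0).map φ).prod +
      nu1 (X.drop g.p0) = _
    rw [hadd, ← hmul, ← List.prod_append, ← List.map_append, List.take_append_drop, add_assoc]
  · refine ⟨?_, ?_⟩
    · intro h
      have : g.z ≤ 0 := h.1
      omega
    · rintro X hX Y hY ⟨R, hR⟩
      exact g.prefix_code hX hY (R := R) (R' := []) (by rw [hR, List.append_nil])
  · intro x y
    exact hfib x y
  · intro x
    refine finite_le α (g.p0 + g.N1) fun P hP => ?_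
    have := hlen _ _ hP.2
    rw [List.length_drop] at this
    omega
  · intro x
    refine finite_le α g.p0 fun P hP => ?_
    obtain ⟨k, hk, h1, -⟩ := hP
    rw [h1]; exact hc k hk
  · exact hC2 hlen hex hc1 hc hex2 hgap hsp hthin hI
  · intro s
    exact htail s

end Crest.Agent.R320.End_532
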