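import Crest.Agent.R320.Hk2_851

/-!
# Row 320, helper294: universe adaptor for the last file.

If for every `n`, every finite monoid `S : Type` and every `φ : Fin n → S` all fibres
`{w | (w.map φ).prod = s}` have generalized star height at most `k`, then every regular language over a
finite alphabet in any universe has generalized star height at most `k`.
-/

set_option autoImplicit false

namespace Crest.Agent.R320.Univ_294

open Crest Crest.RegLang

universe u v

/-- rename the letters of an expression along a bijection -/
def ren {β : Type u} {α : Type v} (f : β → α) : GRegExp β → GRegExp α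
  | .zero => .zero
  | .eps => .eps
  | .char a => .char (f a)
  | .union P Q => .union (ren f P) (ren f Q)
  | .cat P Q => .cat (ren f P) (ren f Q)
  | .not P => .not (ren f P)
  | .star P => .star (ren f P)

theorem height_ren {β : Type u} {α : Type v} (f : β → α) (e : GRegExp β) :
    (ren f e).height = e.height := by
  induction e with
  | zero => rfl
  | eps => rfl
  | char a => rfl
  | union P Q hP hQ => simp only [ren, GRegExp.height, hP, hQ]
  | cat P Q hP hQ => simp only [ren, GRegExp.height, hP, hQ]
  | not P hP => simp only [ren, GRegExp.height, hP]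
  | star P hP => simp only [ren, GRegExp.height, hP]

theorem lang_ren {β : Type u} {α : Type v} (f : β ≃ α) (e : GRegExp β) :
    ∀ w : List β, w.map f ∈ (ren f e).lang ↔ w ∈ e.lang := by
  induction e with
  | zero => intro w; simp [ren, GRegExp.lang]
  | eps => intro w; simp [ren, GRegExp.lang, Language.mem_one]
  | char a =>
    intro w
    simp only [ren, GRegExp.lang]
    change w.map f = [f a] ↔ w = [a]
    constructor
    · intro h
      exact List.map_injective_iff.2 f.injective (by simpa using h)
    · rintro rfl; rfl
  | union P Q hP hQ =>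
    intro w
    simp only [ren, GRegExp.lang, Language.mem_add, hP, hQ]
  | cat P Q hP hQ =>
    intro w
    simp only [ren, GRegExp.lang, Language.mem_mul]
    constructor
    · rintro ⟨a, ha, b, hb, hab⟩
      refine ⟨a.map f.symm, ?_, b.map f.symm, ?_, ?_⟩
      · rw [← hP]; simpa using ha
      · rw [← hQ]; simpa using hb
      · apply List.map_injective_iff.2 f.injective
        simpa using hab
    · rintro ⟨a, ha, b, hb, rfl⟩
      exact ⟨a.map f, (hP a).2 ha, b.map f, (hQ b).2 hb, by simp⟩
  | not P hP =>
    intro w
    simp only [ren, GRegExp.lang]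
    exact not_congr (hP w)
  | star P hP =>
    intro w
    simp only [ren, GRegExp.lang, Language.mem_kstar]
    constructor
    · rintro ⟨L, hL, hmem⟩
      refine ⟨L.map (fun x => x.map f.symm), ?_, ?_⟩
      · apply List.map_injective_iff.2 f.injective
        rw [hL, List.map_flatten, List.map_map]
        congr 1
        conv_lhs => rw [← List.map_id L]
        refine List.map_congr_left fun x _ => ?_
        simp
      · intro y hy
        obtain ⟨x, hx, rfl⟩ := List.mem_map.1 hy
        rw [← hP]
        simpa using hmem x hx
    · rintro ⟨L, rfl, hmem⟩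
      refine ⟨L.map (fun x => x.map f), ?_, ?_⟩
      · rw [List.map_flatten]
      · intro y hy
        obtain ⟨x, hx, rfl⟩ := List.mem_map.1 hy
        exact (hP x).2 (hmem x hx)

/-- the adaptor, any height -/
theorem of_type0 (k : ℕ)
    (h : ∀ (n : ℕ) (S : Type) [Monoid S] [Finite S] (φ : Fin n → S) (s : S),
      ∃ e : GRegExp (Fin n), e.height ≤ k ∧ e.lang = ({w | (w.map φ).prod = s} : Language (Fin n)))
    (α : Type u) [Finite α] (L : Language α) (hL : L.IsRegular) :
    ∃ e : GRegExp α, e.height ≤ k ∧ e.lang = L := by
  classical
  obtain ⟨n, ⟨g⟩⟩ := Finite.exists_equiv_fin α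
  set f : Fin n ≃ α := g.symm with hf
  -- the transported language
  set L' : Language (Fin n) := {w | w.map f ∈ L} with hL'
  have hreg : L'.IsRegular := by
    obtain ⟨σ, hσ, M, hM⟩ := hL
    refine ⟨σ, hσ, M.comap f, ?_⟩
    rw [DFA.accepts_comap, hM]
    rfl
  obtain ⟨e, he, hel⟩ := Crest.Agent.R320.Hk_851.of_monoid (k := k)
    (fun S _ _ φ s => h n S φ s) L' hreg
  refine ⟨ren f e, by rw [height_ren]; exact he, ?_⟩
  ext w
  have h1 := lang_ren f e (w.map f.symm)
  rw [hel] at h1
  have h2 : (w.map f.symm).map f = w := by
    rw [List.map_map]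
    conv_rhs => rw [← List.map_id w]
    refine List.map_congr_left fun x _ => ?_
    simp
  rw [h2] at h1
  refine h1.trans ?_
  change (w.map f.symm).map f ∈ L ↔ w ∈ L
  rw [h2]

/-- the literal form of S0495 -/
theorem s0495_of_type0
    (h : ∀ (n : ℕ) (S : Type) [Monoid S] [Finite S] (φ : Fin n → S) (s : S),
      Crest.Agent.R320.Hk_851.HL 3 ({w | (w.map φ).prod = s} : Language (Fin n)))
    (α : Type*) [Finite α] (L : Language α) (hL : L.IsRegular) :
    ∃ e : Crest.RegLang.GRegExp α, e.height ≤ 3 ∧ e.lang = L :=
  of_type0 3 h α L hL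

/-- the same from alphabets in `Type` -/
theorem s0495_of_types
    (h : ∀ (β : Type) [Finite β] (S : Type) [Monoid S] [Finite S] (φ : β → S) (s : S),
      Crest.Agent.R320.Hk_851.HL 3 ({w | (w.map φ).prod = s} : Language β))
    (α : Type*) [Finite α] (L : Language α) (hL : L.IsRegular) :
    ∃ e : Crest.RegLang.GRegExp α, e.height ≤ 3 ∧ e.lang = L :=
  of_type0 3 (fun n S _ _ φ s => h (Fin n) S φ s) α L hL

/-- the same from a statement about all regular languages over `Fin n` -/
theorem s0495_of_regular0
    (h : ∀ (n : ℕ) (L : Language (Fin n)), L.IsRegular →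
      ∃ e : Crest.RegLang.GRegExp (Fin n), e.height ≤ 3 ∧ e.lang = L)
    (α : Type*) [Finite α] (L : Language α) (hL : L.IsRegular) :
    ∃ e : Crest.RegLang.GRegExp α, e.height ≤ 3 ∧ e.lang = L := by
  refine of_type0 3 (fun n S _ _ φ s => h n _ ?_) α L hL
  classical
  have := Fintype.ofFinite S
  refine ⟨S, inferInstance, { step := fun x a => x * φ a, start := 1, accept := {s} }, ?_⟩
  ext w
  have key : ∀ (w : List (Fin n)) (x : S),
      ({ step := fun x a => x * φ a, start := 1, accept := {s} } : DFA (Fin n) S).evalFrom x w =
        x * (w.map φ).prod := by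
    intro w
    induction w with
    | nil => intro x; simp
    | cons a w ih =>
      intro x
      change ({ step := fun x a => x * φ a, start := 1, accept := {s} } : DFA (Fin n) S).evalFrom
        (x * φ a) w = _
      rw [ih]; simp [mul_assoc]
  rw [DFA.mem_accepts]
  change DFA.evalFrom _ 1 w ∈ ({s} : Set S) ↔ _
  rw [key, one_mul]
  rfl

end Crest.Agent.R320.Univ_294
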