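import Crest.Agent.R320.Top5_110
import Crest.Agent.R320.Joint_47
import Crest.Agent.R320.P4N_211
import Crest.Agent.R320.WallU_228
import Crest.Agent.R320.ExactR_237
import Crest.Agent.R320.Bridge_975
import Crest.Agent.R320.Two_621
import Crest.Agent.R320.Univ_294

/-!
# Row 320: the whole row from the closed gadget `Bridge_975.UGI` of the token system (helper564)
-/

set_option autoImplicit false

namespace Crest.Agent.R320.End_564

open Crest.Agent.R320.Hk_851 Crest.Agent.R320.Code110
open Crest.Agent.R320.Joint_47 (LW Zn Zn_prefix)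
open Crest.Agent.R320.Two_621 (Tok)
open Crest.Agent.R320.ExactR_237 (pr pr_append)
open Crest.Agent.R320.CompR_11 (Pieces)

variable {A S : Type}

theorem zn_eq (Wo : List A → Prop) (z : ℕ) : Zn Wo z = P4N_211.XX Wo z := rfl

theorem take_eq_of_short {K : ℕ} {X X' : List A} (h : X.take K = X'.take K) (hX : X.length < K) :
    X = X' := by
  have h1 := congrArg List.length h
  rw [List.length_take, List.length_take] at h1
  rw [List.take_of_length_le (by omega), List.take_of_length_le (by omega)] at h
  exact h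

theorem long_of_take {K : ℕ} {X X' : List A} (h : X.take K = X'.take K) (hX : K ≤ X.length) :
    K ≤ X'.length := by
  have h1 := congrArg List.length h
  rw [List.length_take, List.length_take] at h1
  omega

theorem take_take_eq {K k : ℕ} {X X' : List A} (h : X.take K = X'.take K) (hk : k ≤ K) :
    X.take k = X'.take k := by
  have := congrArg (List.take k) h
  rwa [List.take_take, List.take_take, min_eq_left hk] at this

/-- the fibres of one monoid from the gadget -/
theorem fibre [Monoid S] [Finite S]
    (hU : Bridge_975.UGI (Two_621.act : Tok S → S → Tok S)) [Finite A] (f : A → S) (s : S) :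
    HL 3 ({w | (w.map f).prod = s} : Language A) := by
  classical
  have := Fintype.ofFinite S
  obtain ⟨C0, hC⟩ := hU
  obtain ⟨K, hK⟩ := ExactR_237.exact_gadget A S (Tok S) f Two_621.act (2 * C0 + 2)
  obtain ⟨N1, Pm, La, c, BadT, hPm, hinc, hgol, hper, hcnt, hW⟩ := hC K
  obtain ⟨lam2, rho2, nu2', hS2, hC2⟩ := hK c hinc
  obtain ⟨lam, rho, nu1, hlen, -, hsound, hcompl, hloc⟩ := Bridge_975.words_reg hPm (hW A f)
  let p0 : ℕ := (Finset.range K).sup c
  have hcp : ∀ k, k < K → c k ≤ p0 := fun k hk => Finset.le_sup (Finset.mem_range.2 hk)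
  obtain ⟨n, cc, P, Sw, hn, hP, wapp, wsep, wpcs, -, -⟩ :=
    WallU_228.walls_full (α := A) (2 * (N1 + p0) + 1)
  set Wo : List A → Prop := WallU_228.Wo n Sw with hWo
  have wlen : ∀ X, Wo X → n ≤ X.length := fun X h => h.1
  have hLW : LW n (2 * (N1 + p0) + 1) Wo := by
    refine ⟨wlen, wapp, ?_⟩
    intro X s t hst ht h1 h2
    by_contra hcon
    have := wsep (X.take t) (t - s) h2 (by omega) (by omega)
    rw [List.length_take, min_eq_left ht, List.take_take,
      show min (t - (t - s)) t = s by omega] at this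
    exact this h1
  let z : ℕ := 3 * p0 + n + N1 + 1 + (N1 + La)
  have hz1 : p0 + (N1 + La) ≤ z := by simp only [z]; omega
  have hz2 : p0 + n + N1 + 1 ≤ z := by simp only [z]; omega
  have hz3 : 3 * p0 + n + N1 + 1 ≤ z := by simp only [z]; omega
  have hz0 : 0 < z := by simp only [z]; omega
  let nu2 : List A → Tok S := fun X => nu2' X 1
  let T : List A → Tok S → Tok S := fun X v => Joint_47.T f Two_621.act p0 nu2 nu1 v X
  let XX : Language A := Zn Wo z
  let Bad : Language A := {X | X ∈ Zn Wo z ∧ Joint_47.Bad Wo z N1 p0 BadT X}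
  let φ : List A → S := fun w => (w.map f).prod
  have hφ : ∀ u w, φ (u ++ w) = φ u * φ w := by
    intro u w; simp [φ]
  -- spoil count
  have hT : ∀ T : ℕ, (∀ k, k < K → c k ≤ T) → ∀ I : Finset ℕ,
      (∀ k ∈ I, k < K ∧ ∃ k', k' < K ∧ k' ≠ k ∧ BadT (T + c k' - c k)) → I.card ≤ C0 := by
    intro T hTc I hI
    have hle : La ≤ T + La * Pm := by nlinarith [Nat.le_mul_of_pos_right La hPm]
    refine le_trans ?_ (hcnt (T + La * Pm) hle)
    choose! g hg using fun k (hk : k ∈ I) => (hI k hk).2
    refine Finset.card_le_card_of_injOn (fun k => (k, g k)) ?_ ?_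
    · intro k hk
      have hk' : k ∈ I := hk
      obtain ⟨h1, h2, h3⟩ := hg k hk'
      have hkK := (hI k hk').1
      have := hTc k hkK
      simp only [Finset.coe_filter, Finset.mem_product, Finset.mem_range, Set.mem_setOf_eq]
      refine ⟨⟨hkK, h1⟩, fun h => h2 h.symm, ?_⟩
      rw [show T + La * Pm + c (g k) - c k = (T + c (g k) - c k) + La * Pm by omega,
        Bridge_975.bad_add hper]
      exact h3
    · intro a _ b _ hab
      simp only [Prod.mk.injEq] at hab
      exact hab.1
  have hres : ∀ i i' j j', i < K → i' < K → j < K → j' < K → i' ≠ i → j' ≠ j →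
      c i + c j' < c j + c i' + 2 * N1 → c j + c i' < c i + c j' + 2 * N1 → i = j := by
    intro i i' j j' hi hi' hj hj' hne hne' h1 h2
    by_contra hij
    rcases hgol i i' j j' hi hi' hj hj' (fun h => hne h.symm)
      (fun h => hij (Prod.mk.inj h).1) with h | h <;> omega
  have hPC : PC XX := by
    refine ⟨fun h => ?_, fun u hu v hv huv => Zn_prefix hu hv huv (List.prefix_refl v)⟩
    have := h.1
    simp at this
    omega
  have hBX : ∀ u ∈ Bad, u ∈ XX := fun u hu => hu.1
  -- heights
  have H3 : ∀ x y, HL 1 (ZT XX T x y) := by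
    intro x y
    refine P4N_211.hXT' (φ := φ) hφ wapp wlen wpcs (fun X => T X x) (p0 + La) Pm (p0 + La) hPm ?_ y
    intro X X' h1 h2 h3
    by_cases hX : X.length < p0 + La
    · rw [take_eq_of_short h1 hX]
    · have hX' := long_of_take h1 (by omega)
      have e1 : X.take p0 = X'.take p0 := take_take_eq h1 (by omega)
      have e2 : (X.drop p0).take La = (X'.drop p0).take La := by
        have := congrArg (List.drop p0) h1
        rwa [List.drop_take, List.drop_take, show p0 + La - p0 = La by omega] at this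
      have e3 : (((X.drop p0).drop La).map f).prod = (((X'.drop p0).drop La).map f).prod := by
        rw [List.drop_drop, List.drop_drop]; exact h3
      have e4 : nu1 (X.drop p0) = nu1 (X'.drop p0) := by
        refine (hloc _ _ (by rw [List.length_drop]; omega) (by rw [List.length_drop]; omega)
          e2 ?_ e3).2
        rw [List.length_drop, List.length_drop]
        have h2' : (X.length - p0) + p0 ≡ (X'.length - p0) + p0 [MOD Pm] := by
          rw [show X.length - p0 + p0 = X.length by omega,
            show X'.length - p0 + p0 = X'.length by omega]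
          exact h2
        exact Nat.ModEq.add_right_cancel' p0 h2'
      have e5 : pr f (X.drop p0) = pr f (X'.drop p0) := by
        rw [← List.take_append_drop La (X.drop p0), ← List.take_append_drop La (X'.drop p0),
          pr_append, pr_append, e2]
        congr 1
      change Joint_47.T f Two_621.act p0 nu2 nu1 x X = Joint_47.T f Two_621.act p0 nu2 nu1 x X'
      unfold Joint_47.T
      rw [e1, e4, e5]
  have H1 : HL 1 XX := by
    have h := P4N_211.hXT' (φ := φ) (z := z) hφ wapp wlen wpcs (fun _ : List A => ()) 0 Pm 0 hPm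
      (fun _ _ _ _ _ => rfl) ()
    refine h.congr fun w => ⟨fun h => ⟨h, rfl⟩, fun h => h.1⟩
  have H2 : HL 1 Bad := by
    have h := P4N_211.hXT' (φ := φ) (z := z) hφ wapp wlen wpcs
      (fun X : List A => Joint_47.Bad Wo z N1 p0 BadT X) (z + N1) Pm 0 hPm ?_ True
    · refine h.congr fun w => ⟨fun h => ⟨h.1, eq_true h.2⟩, fun h => ⟨h.1, of_eq_true h.2⟩⟩
    · intro X X' h1 h2 _
      by_cases hX : X.length < z + N1
      · rw [take_eq_of_short h1 hX]
      · have hX' := long_of_take h1 (by omega)
        have hb : BadT (X.length - p0) ↔ BadT (X'.length - p0) := by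
          have key : ∀ a b : ℕ, a ≤ b → a % Pm = b % Pm → (BadT a ↔ BadT b) := by
            intro a b hab hmod
            obtain ⟨k, hk⟩ := (Nat.modEq_iff_dvd' hab).1 hmod
            have : b = a + k * Pm := by rw [Nat.mul_comm k]; omega
            rw [this, Bridge_975.bad_add hper]
          have hm : (X.length - p0) ≡ (X'.length - p0) [MOD Pm] := by
            have h2' : (X.length - p0) + p0 ≡ (X'.length - p0) + p0 [MOD Pm] := by
              rw [show X.length - p0 + p0 = X.length by omega,
                show X'.length - p0 + p0 = X'.length by omega]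
              exact h2
            exact Nat.ModEq.add_right_cancel' p0 h2'
          rcases le_total (X.length - p0) (X'.length - p0) with h | h
          · exact key _ _ h hm
          · exact (key _ _ h hm.symm).symm
        have hw : (∃ t, z - N1 ≤ t ∧ t < z + N1 ∧ t ≤ X.length ∧ Wo (X.take t)) ↔
            (∃ t, z - N1 ≤ t ∧ t < z + N1 ∧ t ≤ X'.length ∧ Wo (X'.take t)) := by
          constructor
          · rintro ⟨t, a, b, d, e⟩
            exact ⟨t, a, b, by omega, by rw [← take_take_eq h1 b.le]; exact e⟩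
          · rintro ⟨t, a, b, d, e⟩
            exact ⟨t, a, b, by omega, by rw [take_take_eq h1 b.le]; exact e⟩
        exact propext (or_congr hw hb)
  have H4 : ∀ s, HL 3 ({w | (∀ u ∈ XX, ¬ u <+: w) ∧ φ w = s} : Language A) := fun s =>
    (P4N_211.hNP (φ := φ) (z := z) hφ wapp wlen wpcs s).mono (by norm_num)
  -- labels
  let L1 : Tok S → Language A := fun v => {P | Joint_47.L1 f Two_621.act p0 nu2 lam v P}
  let L2 : Tok S → Language A := fun v => {P | Joint_47.L2 K c lam2 v P}
  have F1 : ∀ v, {p | p ∈ L1 v}.Finite := by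
    intro v
    refine (List.finite_length_le A (p0 + N1)).subset ?_
    rintro P ⟨h1, h2⟩
    have := hlen _ _ h2
    rw [List.length_drop] at this
    simp only [Set.mem_setOf_eq]
    omega
  have F2 : ∀ v, {p | p ∈ L2 v}.Finite := by
    intro v
    refine (List.finite_length_le A p0).subset ?_
    rintro P ⟨k, h1, h2, h3⟩
    have := hcp k h1
    simp only [Set.mem_setOf_eq]
    omega
  refine Top5_110.top_sem (φ := φ) (act := Two_621.act) (XX := XX) (Bad := Bad) (T := T)
    (N1 := 0) (N2 := 1) (L1 := L1) (L2 := L2) (by simp [φ]) hφ (fun v => Two_621.act_one v)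
    (fun v s t => (Two_621.act_mul v s t).symm) (fun s t h => Two_621.act_faithful h) hPC hBX ?_
    H1 H2 H3 H4 F1 F2 ?_ ?_ s
  · intro u _ v v'
    have e : φ u = pr f (u.take p0) * pr f (u.drop p0) := by
      rw [← pr_append, List.take_append_drop]; rfl
    change Joint_47.T f Two_621.act p0 nu2 nu1 v u - Joint_47.T f Two_621.act p0 nu2 nu1 v' u = _
    unfold Joint_47.T
    rw [e, ← Two_621.act_mul]
    funext x
    simp only [Two_621.act, Pi.sub_apply, Pi.add_apply]
    ring
  · intro u hu hnb x t ht
    rw [pow_zero, Language.mem_one] at ht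
    subst ht
    obtain ⟨p, q, hpq, hp, -, hq⟩ := Joint_47.complete1 f Two_621.act p0 nu2 nu1 hLW hsound hlen
      (fun Y h1 h2 v => by
        obtain ⟨P, Q, h3, h4, h5⟩ := hcompl Y h1 h2 v
        exact ⟨P, Q, h3.symm, h4, h5⟩) hz1 hz2 hu (fun h => hnb ⟨hu, h⟩) x
    refine ⟨p, q, T u x, by rw [List.append_nil]; exact hpq, hp, ?_⟩
    intro x' p' hp'
    left
    obtain ⟨h1, h2⟩ := hq x' p' hp'
    exact ⟨T u x, Language.mem_mul.2 ⟨p' ++ q, ⟨h1, h2⟩, [], ⟨rfl, rfl⟩, by simp⟩⟩
  · intro u hu x t ht
    rw [pow_one] at ht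
    obtain ⟨p, q, hpq, hp, -, hq⟩ := Joint_47.complete2 f Two_621.act p0 nu1 hLW hS2
      (fun u y v h => hC2 u y v h) hinc hcp hres hT (by omega) hz3 hu.1 ht.1 hu.2 x
    refine ⟨p, q, T t (T u x), hpq, hp, ?_⟩
    intro x' p' hp'
    rcases hq x' p' hp' with ⟨a, ha, hab, he, hv⟩ | ⟨a, ha, hab, he⟩
    · left
      change p' ++ q ∈ Exactly Bad T 2 x' (T t (T u x))
      refine ⟨T u x, Language.mem_mul.2 ⟨a, ⟨⟨ha, hab⟩, hv⟩, t, ?_, he.symm⟩⟩
      exact ⟨T t (T u x), Language.mem_mul.2 ⟨t, ⟨ht, rfl⟩, [], ⟨rfl, rfl⟩, by simp⟩⟩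
    · right
      left
      exact ⟨a, ha, fun h => hab h.2, he⟩

/-- **the whole row from the closed gadget** -/
theorem row (hU : ∀ (S : Type) [Monoid S] [Finite S],
      Bridge_975.UGI (Two_621.act : Tok S → S → Tok S))
    (α : Type*) [Finite α] (L : Language α) (hL : L.IsRegular) :
    ∃ e : Crest.RegLang.GRegExp α, e.height ≤ 3 ∧ e.lang = L :=
  Univ_294.s0495_of_type0 (fun _ S _ _ φ s => fibre (hU S) φ s) α L hL

end Crest.Agent.R320.End_564
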