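import Crest.Agent.R320.Hk2_851

/-!
# Row 320: universe transfer (helper582)

`final` : the statement of S0495 for every finite alphabet of every universe from the fibres of
`w ↦ ∏ φ(w_i)` for alphabets and monoids in `Type`.
-/

set_option autoImplicit false

namespace Crest.Agent.R320.Univ_582

open Crest.RegLang Crest.Agent.R320.Hk_851

universe u v

variable {α : Type u} {β : Type v}

/-- rename the letters -/
def ren (f : β → α) : GRegExp β → GRegExp α
  | .zero => .zero
  | .eps => .eps
  | .char b => .char (f b)
  | .union P Q => .union (ren f P) (ren f Q)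
  | .cat P Q => .cat (ren f P) (ren f Q)
  | .not P => .not (ren f P)
  | .star P => .star (ren f P)

theorem ren_height (f : β → α) : ∀ e : GRegExp β, (ren f e).height = e.height
  | .zero => rfl
  | .eps => rfl
  | .char _ => rfl
  | .union P Q => by simp only [ren, GRegExp.height, ren_height f P, ren_height f Q]
  | .cat P Q => by simp only [ren, GRegExp.height, ren_height f P, ren_height f Q]
  | .not P => by simp only [ren, GRegExp.height, ren_height f P]
  | .star P => by simp only [ren, GRegExp.height, ren_height f P]

theorem mem_ren (f : β ≃ α) : ∀ (e : GRegExp β) (w : List β),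
    w.map f ∈ (ren f e).lang ↔ w ∈ e.lang
  | .zero, w => Iff.rfl
  | .eps, w => by
    change w.map f ∈ (1 : Language α) ↔ w ∈ (1 : Language β)
    rw [Language.mem_one, Language.mem_one]
    simp
  | .char b, w => by
    change w.map f = [f b] ↔ w = [b]
    constructor
    · intro h
      have h2 : w.map f = [b].map f := by simpa using h
      exact List.map_injective_iff.2 f.injective h2
    · rintro rfl; rfl
  | .union P Q, w => by
    change w.map f ∈ (ren f P).lang + (ren f Q).lang ↔ w ∈ P.lang + Q.lang
    rw [Language.mem_add, Language.mem_add, mem_ren f P, mem_ren f Q]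
  | .cat P Q, w => by
    change w.map f ∈ (ren f P).lang * (ren f Q).lang ↔ w ∈ P.lang * Q.lang
    rw [Language.mem_mul, Language.mem_mul]
    constructor
    · rintro ⟨a, ha, b, hb, h⟩
      obtain ⟨a', b', rfl, h1, h2⟩ := List.map_eq_append_iff.1 h.symm
      subst h1 h2
      exact ⟨a', (mem_ren f P _).1 ha, b', (mem_ren f Q _).1 hb, rfl⟩
    · rintro ⟨a, ha, b, hb, rfl⟩
      exact ⟨a.map f, (mem_ren f P _).2 ha, b.map f, (mem_ren f Q _).2 hb, by simp⟩
  | .not P, w => not_congr (mem_ren f P w)
  | .star P, w => by
    change w.map f ∈ KStar.kstar (ren f P).lang ↔ w ∈ KStar.kstar P.lang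
    rw [Language.mem_kstar, Language.mem_kstar]
    constructor
    · rintro ⟨S, h, hS⟩
      refine ⟨S.map (List.map f.symm), ?_, ?_⟩
      · have h2 : (w.map f).map f.symm = S.flatten.map f.symm := by rw [h]
        rw [List.map_map, f.symm_comp_self, List.map_id] at h2
        rw [h2, List.map_flatten]
      · intro y hy
        obtain ⟨x, hx, rfl⟩ := List.mem_map.1 hy
        refine (mem_ren f P _).1 ?_
        rw [List.map_map, f.self_comp_symm, List.map_id]
        exact hS x hx
    · rintro ⟨S, rfl, hS⟩
      refine ⟨S.map (List.map f), by rw [List.map_flatten], ?_⟩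
      intro y hy
      obtain ⟨x, hx, rfl⟩ := List.mem_map.1 hy
      exact (mem_ren f P _).2 (hS x hx)

theorem transfer {k : ℕ} (f : β ≃ α) {L : Language α}
    (h : HL k ({w | w.map f ∈ L} : Language β)) : HL k L := by
  obtain ⟨e, h1, h2⟩ := h
  refine ⟨ren f e, by rw [ren_height]; exact h1, ?_⟩
  ext w
  have hw : (w.map f.symm).map f = w := by rw [List.map_map, f.self_comp_symm, List.map_id]
  rw [← hw, mem_ren f e, h2]
  exact Iff.rfl

theorem reg_comap (f : β → α) {L : Language α} (hL : L.IsRegular) :
    Language.IsRegular ({w | w.map f ∈ L} : Language β) := by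
  obtain ⟨σ, hσ, M, rfl⟩ := hL
  exact ⟨σ, hσ, M.comap f, by rw [DFA.accepts_comap]; rfl⟩

/-- all alphabets from the alphabets in `Type` -/
theorem of_type {k : ℕ}
    (h : ∀ (β : Type) [Finite β] (L : Language β), L.IsRegular → HL k L)
    (α : Type u) [Finite α] (L : Language α) (hL : L.IsRegular) : HL k L := by
  obtain ⟨n, ⟨e⟩⟩ := Finite.exists_equiv_fin α
  exact transfer e.symm (h (Fin n) _ (reg_comap e.symm hL))

/-- **final form**: fibres for alphabets and monoids in `Type`. -/
theorem final {k : ℕ}
    (h : ∀ (β : Type) [Finite β] (S : Type) [Monoid S] [Finite S] (φ : β → S) (s : S),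
      HL k ({w | (w.map φ).prod = s} : Language β))
    (α : Type u) [Finite α] (L : Language α) (hL : L.IsRegular) :
    ∃ e : Crest.RegLang.GRegExp α, e.height ≤ k ∧ e.lang = L :=
  of_type (fun β _ L hL => of_monoid (fun S _ _ φ s => h β S φ s) L hL) α L hL

end Crest.Agent.R320.Univ_582
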