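import Crest.Agent.R320.TopSem_442
import Crest.Agent.R320.Joint_47
import Crest.Agent.R320.P4N_211
import Crest.Agent.R320.WallU_228
import Crest.Agent.R320.Univ_582
import Crest.Agent.R320.Two_621

/-!
# Row 320: end-to-end join of landed files (helper684)

`Gad f` = the scheme-1 gadget (693's grids / 852's digits / 638) with its ruler, as ONE hypothesis.
`row : (forall beta S f, Gad f) -> S0495`.
-/

set_option autoImplicit false

namespace Crest.Agent.R320.End_684

open Crest.Agent.R320.Hk_851
open Crest.Agent.R320.Two_621 (Tok)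

/-- the scheme-1 gadget + ruler -/
def Gad {A S : Type} [Monoid S] (f : A → S) : Prop :=
  ∃ R1 : ℕ, ∀ K : ℕ, ∃ (N1 N0 M K1 : ℕ) (c : ℕ → ℕ) (BadT : ℕ → Prop)
    (lam rho : List A → Option (Tok S)) (nu1 : List A → Tok S), 0 < M ∧
    (∀ i j, i < j → j < K → c i < c j) ∧
    (∀ i i' j j', i < K → i' < K → j < K → j' < K → i' ≠ i → j' ≠ j →
      c i + c j' < c j + c i' + 2 * N1 → c j + c i' < c i + c j' + 2 * N1 → i = j) ∧
    (∀ T : ℕ, (∀ k, k < K → c k ≤ T) → ∀ I : Finset ℕ,
      (∀ k ∈ I, k < K ∧ ∃ k', k' < K ∧ k' ≠ k ∧ BadT (T + c k' - c k)) → I.card ≤ R1) ∧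
    (∀ P Q v r, lam P = some v → rho Q = some r →
      r = Two_621.act v ((P ++ Q).map f).prod + nu1 (P ++ Q)) ∧
    (∀ P v, lam P = some v → P.length ≤ N1) ∧
    (∀ Y : List A, N0 ≤ Y.length → ¬ BadT Y.length →
      ∀ v, ∃ P Q, Y = P ++ Q ∧ lam P = some v ∧ (rho Q).isSome) ∧
    (∀ Y Y' : List A, K1 ≤ Y.length → K1 ≤ Y'.length → Y.take K1 = Y'.take K1 →
      Y.length % M = Y'.length % M → (Y.map f).prod = (Y'.map f).prod → nu1 Y = nu1 Y') ∧
    (∀ T T' : ℕ, K1 ≤ T → K1 ≤ T' → T % M = T' % M → (BadT T → BadT T'))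

theorem prod_app {A S : Type} [Monoid S] (f : A → S) (u v : List A) :
    ((u ++ v).map f).prod = (u.map f).prod * (v.map f).prod := by
  rw [List.map_append, List.prod_append]

theorem take_eq_cases {A : Type} {K : ℕ} {X X' : List A} (h : X.take K = X'.take K) :
    X = X' ∨ (K ≤ X.length ∧ K ≤ X'.length) := by
  have hl := congrArg List.length h
  rw [List.length_take, List.length_take] at hl
  rcases le_or_gt K X.length with h1 | h1
  · right; omega
  · left
    rw [List.take_of_length_le h1.le, List.take_of_length_le (by omega)] at h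
    exact h

theorem mod_sub {a b p M : ℕ} (h : a % M = b % M) (ha : p ≤ a) (hb : p ≤ b) :
    (a - p) % M = (b - p) % M := by
  have h1 : (a - p) + p ≡ (b - p) + p [MOD M] := by
    rw [Nat.sub_add_cancel ha, Nat.sub_add_cancel hb]; exact h
  exact Nat.ModEq.add_right_cancel' p h1

theorem all_monoids {A S : Type} [Finite A] [Monoid S] [Finite S] (f : A → S) (h : Gad f) (s : S) :
    HL 3 ({w | (w.map f).prod = s} : Language A) := by
  classical
  have : Fintype S := Fintype.ofFinite S
  obtain ⟨R1, hG⟩ := h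
  obtain ⟨K, hK⟩ := ExactR_237.exact_gadget A S (Tok S) f Two_621.act (2 * R1 + 2)
  obtain ⟨N1, N0, M, K1, c, BadT, lam, rho, nu1, hM, hinc, hres, hT, hS, hL, hC, hnu, hBT⟩ := hG K
  obtain ⟨lam2, rho2, nu2', hS2, hC2⟩ := hK c hinc
  -- constants
  obtain ⟨p0, hp0⟩ : ∃ p0, ∀ k, k < K → c k ≤ p0 := by
    refine ⟨∑ k ∈ Finset.range K, c k, fun k hk => ?_⟩
    exact Finset.single_le_sum (f := c) (fun _ _ => Nat.zero_le _) (Finset.mem_range.2 hk)
  obtain ⟨n, Wo, loc, len, gap, R, B, pcs⟩ := WallU_228.walls (α := A) (2 * (N1 + p0) + 1)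
  let z := 3 * p0 + n + N1 + N0 + 1
  have hLW : Joint_47.LW n (2 * (N1 + p0) + 1) Wo :=
    { len := len
      app := loc
      gap := by
        intro X s t hst ht hs htt
        by_contra hlt
        rw [not_le] at hlt
        have hl : (X.take t).length = t := by rw [List.length_take]; omega
        refine gap (X.take t) (t - s) htt (by omega) (by omega) ?_
        rw [hl, List.take_take]
        have : min (t - (t - s)) t = s := by omega
        rw [this]
        exact hs }
  let nu2 : List A → Tok S := fun X => nu2' X 1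
  let T : Tok S → List A → Tok S := Joint_47.T f Two_621.act p0 nu2 nu1
  let XX : Set (List A) := Joint_47.Zn Wo z
  let Bad : Set (List A) := {X | X ∈ XX ∧ Joint_47.Bad Wo z N1 p0 BadT X}
  let LP1 : Tok S → Set (List A) := fun v => {P | Joint_47.L1 f Two_621.act p0 nu2 lam v P}
  let LP2 : Tok S → Set (List A) := fun v => {P | Joint_47.L2 K c lam2 v P}
  let KK := p0 + K1 + z + N1 + 1
  have hTkey : ∀ v, ∀ X X' : List A, X.take KK = X'.take KK → X.length % M = X'.length % M →
      ((X.drop p0).map f).prod = ((X'.drop p0).map f).prod → T v X = T v X' := by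
    intro v X X' h1 h2 h3
    rcases take_eq_cases h1 with rfl | ⟨h4, h5⟩
    · rfl
    have e1 : X.take p0 = X'.take p0 := by
      have := congrArg (List.take p0) h1
      rwa [List.take_take, List.take_take, min_eq_left (by show p0 ≤ p0 + K1 + z + N1 + 1; omega)] at this
    have e2 : (X.drop p0).take K1 = (X'.drop p0).take K1 := by
      have := congrArg (fun l => (List.drop p0 l).take K1) h1
      simp only [List.drop_take, List.take_take] at this
      rwa [min_eq_left (by show K1 ≤ p0 + K1 + z + N1 + 1 - p0; omega)] at this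
    have e3 : nu1 (X.drop p0) = nu1 (X'.drop p0) := by
      refine hnu _ _ ?_ ?_ e2 ?_ h3
      · rw [List.length_drop]; omega
      · rw [List.length_drop]; omega
      · rw [List.length_drop, List.length_drop]
        exact mod_sub h2 (by omega) (by omega)
    show Two_621.act (Two_621.act v (ExactR_237.pr f (X.take p0)) + nu2 (X.take p0))
        (ExactR_237.pr f (X.drop p0)) + nu1 (X.drop p0) =
      Two_621.act (Two_621.act v (ExactR_237.pr f (X'.take p0)) + nu2 (X'.take p0))
        (ExactR_237.pr f (X'.drop p0)) + nu1 (X'.drop p0)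
    have e4 : ExactR_237.pr f (X.drop p0) = ExactR_237.pr f (X'.drop p0) := h3
    rw [e1, e3, e4]
  have hBkey : ∀ X X' : List A, X.take KK = X'.take KK → X.length % M = X'.length % M →
      Joint_47.Bad Wo z N1 p0 BadT X → Joint_47.Bad Wo z N1 p0 BadT X' := by
    intro X X' h1 h2 hb
    rcases take_eq_cases h1 with rfl | ⟨h4, h5⟩
    · exact hb
    rcases hb with ⟨t, t1, t2, t3, t4⟩ | hb
    · left
      refine ⟨t, t1, t2, by omega, ?_⟩
      have := congrArg (List.take t) h1
      rw [List.take_take, List.take_take, min_eq_left (by show t ≤ p0 + K1 + z + N1 + 1; omega)] at this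
      rw [← this]; exact t4
    · right
      refine hBT _ _ (by omega) (by omega) (mod_sub h2 (by omega) (by omega)) hb
  have hφ : ∀ u v : List A, ((u ++ v).map f).prod = (u.map f).prod * (v.map f).prod := prod_app f
  have hXX : P4N_211.XX Wo z = XX := rfl
  refine TopSem_442.top_sem f Two_621.act (fun a b s => Two_621.act_add a b s)
    (fun v => Two_621.act_one v) (fun v s t => (Two_621.act_mul v s t).symm)
    (fun s t h => Two_621.act_faithful h)
    (fun X => Two_621.act (nu2 (X.take p0)) ((X.drop p0).map f).prod + nu1 (X.drop p0)) T ?_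
    XX Bad ?_ (fun X h => h.1) LP1 LP2 ?_ ?_ ?_ ?_ ?_ ?_ ?_ s
  · -- hT
    intro v X
    show Two_621.act (Two_621.act v (ExactR_237.pr f (X.take p0)) + nu2 (X.take p0))
        (ExactR_237.pr f (X.drop p0)) + nu1 (X.drop p0) = _
    have e : (X.map f).prod = ((X.take p0).map f).prod * ((X.drop p0).map f).prod := by
      rw [← hφ, List.take_append_drop]
    rw [e, ← Two_621.act_mul, Two_621.act_add, add_assoc]
    rfl
  · -- PCode
    refine ⟨fun h => ?_, fun X hX Y hY hXY => Joint_47.Zn_prefix hX hY hXY (List.prefix_refl Y)⟩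
    have h0 : 3 * p0 + n + N1 + N0 + 1 ≤ ([] : List A).length := h.1
    rw [List.length_nil] at h0
    omega
  · -- LP1 finite
    intro v
    refine (List.finite_length_le A (p0 + N1)).subset ?_
    rintro P ⟨h1, h2⟩
    have := hL _ _ h2
    rw [List.length_drop] at this
    show P.length ≤ p0 + N1
    omega
  · intro v
    refine (List.finite_length_le A p0).subset ?_
    rintro P ⟨k, hk, h1, h2⟩
    show P.length ≤ p0
    rw [h1]; exact hp0 k hk
  · intro v v'
    exact P4N_211.hXT' (φ := fun w : List A => (w.map f).prod) hφ loc len pcs (T v) KK M p0 hM (hTkey v) v'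
  · intro v v'
    have := P4N_211.hXT' (V := Prop × Tok S) (z := z) (φ := fun w : List A => (w.map f).prod) hφ loc len pcs
      (fun X => (Joint_47.Bad Wo z N1 p0 BadT X, T v X)) KK M p0 hM (by
        intro X X' h1 h2 h3
        refine Prod.ext ?_ (hTkey v X X' h1 h2 h3)
        exact propext ⟨hBkey X X' h1 h2, hBkey X' X h1.symm h2.symm⟩) (True, v')
    refine this.congr fun X => ?_
    constructor
    · rintro ⟨⟨h1, h2⟩, h3⟩
      refine ⟨h1, ?_⟩
      show (Joint_47.Bad Wo z N1 p0 BadT X, T v X) = (True, v')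
      rw [h3, eq_true h2]
    · rintro ⟨h1, h2⟩
      have e1 : Joint_47.Bad Wo z N1 p0 BadT X = True := congrArg Prod.fst h2
      have e2 : T v X = v' := congrArg Prod.snd h2
      exact ⟨⟨h1, by rw [e1]; trivial⟩, e2⟩
  · intro s
    exact (P4N_211.hNP (S := S) (φ := fun w : List A => (w.map f).prod) hφ loc len pcs s).mono (by omega)
  · -- c1
    intro X hX hb v
    obtain ⟨p, q, h1, h2, -, h3⟩ := Joint_47.complete1 f Two_621.act p0 nu2 nu1 hLW hS hL hC
      (z := z) (by show p0 + N0 ≤ 3 * p0 + n + N1 + N0 + 1; omega)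
      (by show p0 + n + N1 + 1 ≤ 3 * p0 + n + N1 + N0 + 1; omega) hX (fun h => hb ⟨hX, h⟩) v
    exact ⟨p, q, h1.symm, h2, fun v' P' hP' => h3 v' P' hP'⟩
  · -- c2
    intro X hX X' hX' v
    obtain ⟨p, q, h1, h2, -, h3⟩ := Joint_47.complete2 (f := f) (act := Two_621.act) (p0 := p0)
      (nu1 := nu1) hLW hS2 hC2 hinc hp0 hres hT
      (by omega) (z := z) (by show 3 * p0 + n + N1 + 1 ≤ 3 * p0 + n + N1 + N0 + 1; omega)
      hX.1 hX'.1 hX.2 v
    refine ⟨p, q, h1.symm, h2, fun v' P' hP' => ?_⟩
    rcases h3 v' P' hP' with ⟨a, a1, a2, a3, a4⟩ | ⟨a, a1, a2, a3⟩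
    · left
      refine ⟨a, ⟨a1, a2⟩, X', hX', a3, ?_⟩
      show T (T v' a) X' = T (T v X) X'
      have : T v' a = T v X := a4
      rw [this]
    · right; left
      exact ⟨a, a1, fun h => a2 h.2, a3⟩

/-- **the row from the gadget** -/
theorem row (h : ∀ (β : Type) [Finite β] (S : Type) [Monoid S] [Finite S] (f : β → S), Gad f)
    {α : Type*} [Finite α] (L : Language α) (hL : L.IsRegular) :
    ∃ e : Crest.RegLang.GRegExp α, e.height ≤ 3 ∧ e.lang = L :=
  Univ_582.final (k := 3) (fun β _ S _ _ φ s => all_monoids φ (h β S φ) s) α L hL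

end Crest.Agent.R320.End_684
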