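import Crest.Agent.R320.Top5_110
import Crest.Agent.R320.Joint_47
import Crest.Agent.R320.P4N_211
import Crest.Agent.R320.WallU_228
import Crest.Agent.R320.Fin_869

/-!
# Row 320: end-to-end join (helper710)

`G1` = scheme-1 gadget with ruler (literal hypothesis); `of_G1` : the frozen statement from `G1`.
Uses 110's `top_sem`, 47's `complete1/complete2`, 211's heights, 228's walls, 237's exact gadget,
869's universe adaptor.
-/

set_option autoImplicit false

namespace Crest.Agent.R320.End_710

open Crest.Agent.R320.Hk_851 Crest.Agent.R320.Code110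
open Crest.Agent.R320.ExactR_237 (pr pr_append)
open Crest.Agent.R320.Two_621 (Tok)

/-- scheme-1 gadget with ruler -/
def G1 (S V : Type) [Monoid S] [AddCommGroup V] (act : V → S → V) : Prop :=
  ∃ R1 : ℕ, ∀ K : ℕ, ∃ (N1 N0 B Md p0 : ℕ) (c : ℕ → ℕ) (BadT : ℕ → Prop), 0 < Md ∧
    (∀ i j, i < j → j < K → c i < c j) ∧ (∀ k, k < K → c k ≤ p0) ∧
    (∀ i i' j j', i < K → i' < K → j < K → j' < K → i' ≠ i → j' ≠ j →
      c i + c j' < c j + c i' + 2 * N1 → c j + c i' < c i + c j' + 2 * N1 → i = j) ∧
    (∀ T : ℕ, (∀ k, k < K → c k ≤ T) → ∀ I : Finset ℕ,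
      (∀ k ∈ I, k < K ∧ ∃ k', k' < K ∧ k' ≠ k ∧ BadT (T + c k' - c k)) → I.card ≤ R1) ∧
    (∀ t, N0 ≤ t → (BadT (t + Md) ↔ BadT t)) ∧
    ∀ (A : Type) [Finite A] (f : A → S), ∃ (lam rho : List A → Option V) (nu : List A → V),
      (∀ P Q v r, lam P = some v → rho Q = some r →
        r = act v (pr f (P ++ Q)) + nu (P ++ Q)) ∧
      (∀ P v, lam P = some v → P.length ≤ N1) ∧
      (∀ Y : List A, N0 ≤ Y.length → ¬ BadT Y.length →
        ∀ v, ∃ P Q, Y = P ++ Q ∧ lam P = some v ∧ (rho Q).isSome) ∧
      (∀ Y Y' : List A, Y.take B = Y'.take B → Y.length % Md = Y'.length % Md →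
        pr f (Y.drop B) = pr f (Y'.drop B) → nu Y = nu Y')

theorem periodic {Q : ℕ → Prop} {N0 Md : ℕ} (h : ∀ t, N0 ≤ t → (Q (t + Md) ↔ Q t)) :
    ∀ j t, N0 ≤ t → (Q (t + Md * j) ↔ Q t) := by
  intro j
  induction j with
  | zero => intro t _; simp
  | succ j ih =>
    intro t ht
    have e : t + Md * (j + 1) = t + Md * j + Md := by ring
    rw [e, h _ (by omega)]
    exact ih t ht

theorem periodic_mod {Q : ℕ → Prop} {N0 Md : ℕ} (h : ∀ t, N0 ≤ t → (Q (t + Md) ↔ Q t))
    {s t : ℕ} (hs : N0 ≤ s) (ht : N0 ≤ t) (hst : s % Md = t % Md) : Q s ↔ Q t := by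
  wlog hle : s ≤ t generalizing s t
  · exact (this ht hs hst.symm (by omega)).symm
  obtain ⟨j, hj⟩ := (Nat.modEq_iff_dvd' hle).1 hst
  have e : t = s + Md * j := by omega
  rw [e]
  exact (periodic h j s hs).symm

theorem eq_of_take {A : Type} {K : ℕ} {X X' : List A} (h : X.take K = X'.take K)
    (hl : X.length < K) : X = X' := by
  have h1 : X.take K = X := List.take_of_length_le hl.le
  have h2 : (X'.take K).length = X.length := by rw [← h, h1]
  rw [List.length_take] at h2
  have h3 : X'.take K = X' := List.take_of_length_le (by omega)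
  rw [← h1, h, h3]

theorem len_of_take {A : Type} {K : ℕ} {X X' : List A} (h : X.take K = X'.take K)
    (hl : K ≤ X.length) : K ≤ X'.length := by
  by_contra hc
  have := eq_of_take h.symm (by omega)
  rw [this] at hc
  exact hc hl

theorem sub_mod {a b p Md : ℕ} (ha : p ≤ a) (hb : p ≤ b) (h : a % Md = b % Md) :
    (a - p) % Md = (b - p) % Md := by
  have h1 : (a - p) + p ≡ (b - p) + p [MOD Md] := by
    have e1 : a - p + p = a := by omega
    have e2 : b - p + p = b := by omega
    rw [e1, e2]
    exact h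
  exact Nat.ModEq.add_right_cancel' p h1

section

variable {A S V : Type} [Finite A] [Monoid S] [Finite S] [AddCommGroup V] [Finite V]

/-- **the join for one alphabet** -/
theorem main (f : A → S) (act : V → S → V)
    (hact1 : ∀ v, act v 1 = v) (hactm : ∀ v s t, act v (s * t) = act (act v s) t)
    (hadd : ∀ v w s, act (v + w) s = act v s + act w s)
    (hfaith : ∀ s t : S, (∀ v, act v s = act v t) → s = t)
    (hG : G1 S V act) (s : S) :
    HL 3 ({w | (w.map f).prod = s} : Language A) := by
  classical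
  have := Fintype.ofFinite S
  have := Fintype.ofFinite V
  obtain ⟨R1, hG⟩ := hG
  obtain ⟨K, hK⟩ := ExactR_237.exact_gadget A S V f act (2 * R1 + 2)
  obtain ⟨N1, N0, B, Md, p0, c, BadT, hMd, hinc, hcp, hres, hTT, hper, hG⟩ := hG K
  obtain ⟨lam, rho, nu1, hS, hL, hC, hnu⟩ := hG A f
  obtain ⟨lam2, rho2, nu2', hS2, hC2⟩ := hK c hinc
  obtain ⟨n, cc, P, Sw, hn, hP, hloc, hgap, hpcs, -, -⟩ :=
    WallU_228.walls_full (α := A) (2 * (N1 + p0) + 1)
  set Wo : List A → Prop := WallU_228.Wo n Sw with hWo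
  have hlen : ∀ P : List A, Wo P → n ≤ P.length := fun P h => h.1
  have hW : Joint_47.LW n (2 * (N1 + p0) + 1) Wo := by
    refine ⟨hlen, hloc, ?_⟩
    intro X s t hst htl h1 h2
    by_contra hc
    have := hgap (X.take t) (t - s) h2 (by omega) (by omega)
    rw [List.length_take, min_eq_left htl, List.take_take] at this
    have e : min (t - (t - s)) t = s := by omega
    rw [e] at this
    exact this h1
  set z : ℕ := 3 * p0 + n + N1 + 1 + N0 with hz
  set XX : Language A := Joint_47.Zn Wo z with hXX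
  set Bd : Language A := {X | X ∈ XX ∧ Joint_47.Bad Wo z N1 p0 BadT X} with hBd
  set nu2 : List A → V := fun X => nu2' X 1 with hnu2
  set T : List A → V → V := fun X v => Joint_47.T f act p0 nu2 nu1 v X with hT
  have h0 : pr f ([] : List A) = 1 := by simp [pr]
  have hm : ∀ u w : List A, pr f (u ++ w) = pr f u * pr f w := fun u w => pr_append f u w
  -- prefix code
  have hPC : PC XX := by
    refine ⟨?_, ?_⟩
    · intro h
      have := h.1
      simp at this
      omega
    · intro u hu v hv huv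
      exact Joint_47.Zn_prefix hu hv huv (List.prefix_refl v)
  have hTd : ∀ u ∈ XX, ∀ v v', T u v - T u v' = act (v - v') (pr f u) := by
    intro u _ v v'
    have hsub : ∀ a b s, act (a - b) s = act a s - act b s := by
      intro a b s
      have := hadd (a - b) b s
      rw [sub_add_cancel] at this
      rw [this]; abel
    have e : pr f u = pr f (u.take p0) * pr f (u.drop p0) := by
      rw [← hm, List.take_append_drop]
    simp only [hT, Joint_47.T]
    rw [e, hactm, hsub, hsub, hadd, hadd]
    abel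
  -- heights
  set KK : ℕ := z + N1 + p0 + B + N0 + 1 with hKK
  have hlenk : ∀ X X' : List A, X.take KK = X'.take KK → (X = X' ∨
      (KK ≤ X.length ∧ KK ≤ X'.length)) := by
    intro X X' h
    rcases lt_or_ge X.length KK with hl | hl
    · exact Or.inl (eq_of_take h hl)
    · exact Or.inr ⟨hl, len_of_take h hl⟩
  have hBadkey : ∀ X X' : List A, X.take KK = X'.take KK → X.length % Md = X'.length % Md →
      (Joint_47.Bad Wo z N1 p0 BadT X ↔ Joint_47.Bad Wo z N1 p0 BadT X') := by
    intro X X' h1 h2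
    rcases hlenk X X' h1 with rfl | ⟨hl, hl'⟩
    · exact Iff.rfl
    · unfold Joint_47.Bad
      have e1 : (∃ t, z - N1 ≤ t ∧ t < z + N1 ∧ t ≤ X.length ∧ Wo (X.take t)) ↔
          (∃ t, z - N1 ≤ t ∧ t < z + N1 ∧ t ≤ X'.length ∧ Wo (X'.take t)) := by
        have key : ∀ t, t < z + N1 → X.take t = X'.take t := by
          intro t ht
          have := congrArg (List.take t) h1
          rw [List.take_take, List.take_take, min_eq_left (by omega)] at this
          exact this
        constructor
        · rintro ⟨t, h3, h4, h5, h6⟩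
          exact ⟨t, h3, h4, by omega, by rw [← key t h4]; exact h6⟩
        · rintro ⟨t, h3, h4, h5, h6⟩
          exact ⟨t, h3, h4, by omega, by rw [key t h4]; exact h6⟩
      have e2 : BadT (X.length - p0) ↔ BadT (X'.length - p0) :=
        periodic_mod hper (by omega) (by omega) (sub_mod (by omega) (by omega) h2)
      rw [e1, e2]
  have H1 : HL 1 XX := by
    refine (P4N_211.hXT (φ := pr f) hm hloc hlen hpcs (fun _ => ()) 0 1 one_pos
      (fun _ _ _ _ _ => rfl) () (z := z)).congr fun w => ?_
    exact ⟨fun h => ⟨h, rfl⟩, fun h => h.1⟩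
  have H2 : HL 1 Bd := by
    refine (P4N_211.hXT (φ := pr f) hm hloc hlen hpcs
      (fun X => Joint_47.Bad Wo z N1 p0 BadT X) KK Md hMd
      (fun X X' h1 h2 _ => propext (hBadkey X X' h1 h2)) True (z := z)).congr fun w => ?_
    exact ⟨fun h => ⟨h.1, eq_true h.2⟩, fun h => ⟨h.1, of_eq_true h.2⟩⟩
  have H3 : ∀ x y, HL 1 (ZT XX T x y) := by
    intro x y
    refine (P4N_211.hXT' (φ := pr f) hm hloc hlen hpcs (fun X => T X x) KK Md (p0 + B) hMd
      ?_ y (z := z)).congr fun w => ?_
    · intro X X' h1 h2 h3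
      rcases hlenk X X' h1 with rfl | ⟨hl, hl'⟩
      · rfl
      · have e1 : X.take p0 = X'.take p0 := by
          have := congrArg (List.take p0) h1
          rw [List.take_take, List.take_take, min_eq_left (by omega)] at this
          exact this
        have e2 : (X.drop p0).take B = (X'.drop p0).take B := by
          have := congrArg (List.take (p0 + B)) h1
          rw [List.take_take, List.take_take, min_eq_left (by omega)] at this
          rw [List.take_drop, List.take_drop, this]
        have e3 : pr f ((X.drop p0).drop B) = pr f ((X'.drop p0).drop B) := by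
          rw [List.drop_drop, List.drop_drop]
          exact h3
        have e4 : pr f (X.drop p0) = pr f (X'.drop p0) := by
          rw [← List.take_append_drop B (X.drop p0), ← List.take_append_drop B (X'.drop p0),
            hm, hm, e2, e3]
        have e5 : nu1 (X.drop p0) = nu1 (X'.drop p0) := by
          refine hnu _ _ e2 ?_ e3
          rw [List.length_drop, List.length_drop]
          exact sub_mod (by omega) (by omega) h2
        simp only [hT, Joint_47.T]
        rw [e1, e4, e5]
    · exact Iff.rfl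
  have H4 : ∀ s, HL 3 ({w | (∀ u ∈ XX, ¬ u <+: w) ∧ pr f w = s} : Language A) := by
    intro s
    exact (P4N_211.hNP (φ := pr f) hm hloc hlen hpcs s (z := z)).mono (by norm_num)
  -- left languages
  set L1 : V → Language A := fun v => {P | Joint_47.L1 f act p0 nu2 lam v P} with hL1
  set L2 : V → Language A := fun v => {P | Joint_47.L2 K c lam2 v P} with hL2
  have F1 : ∀ v, {p | p ∈ L1 v}.Finite := by
    intro v
    refine (List.finite_length_le A (p0 + N1)).subset ?_
    rintro p ⟨hp1, hp2⟩
    have := hL _ _ hp2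
    rw [List.length_drop] at this
    show p.length ≤ p0 + N1
    omega
  have F2 : ∀ v, {p | p ∈ L2 v}.Finite := by
    intro v
    refine (List.finite_length_le A p0).subset ?_
    rintro p ⟨k, hk, hp, -⟩
    show p.length ≤ p0
    rw [hp]
    exact hcp k hk
  have C1 : ∀ u ∈ XX, u ∉ Bd → ∀ x, ∀ t ∈ XX ^ 0, ∃ p q y, u ++ t = p ++ q ∧ p ∈ L1 x ∧
      q ∈ Rsem XX XX T 0 L1 y := by
    intro u hu hub x t ht
    have ht' : t = [] := by
      rw [pow_zero] at ht
      exact ht
    subst ht'
    have hb : ¬ Joint_47.Bad Wo z N1 p0 BadT u := fun h => hub ⟨hu, h⟩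
    obtain ⟨p, q, hpq, hp, -, hsem⟩ := Joint_47.complete1 f act p0 nu2 nu1 hW hS hL hC
      (show p0 + N0 ≤ z by omega) (show p0 + n + N1 + 1 ≤ z by omega) hu hb x
    refine ⟨p, q, T u x, by rw [List.append_nil]; exact hpq, hp, ?_⟩
    intro x' p' hp'
    obtain ⟨h1, h2⟩ := hsem x' p' hp'
    left
    refine ⟨T u x, ?_⟩
    exact Language.mem_mul.2 ⟨p' ++ q, ⟨h1, h2⟩, [], ⟨rfl, rfl⟩, List.append_nil _⟩
  have C2 : ∀ u ∈ Bd, ∀ x, ∀ t ∈ Bd ^ 1, ∃ p q y, u ++ t = p ++ q ∧ p ∈ L2 x ∧
      q ∈ Rsem XX Bd T 1 L2 y := by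
    intro u hu x t ht
    rw [pow_one] at ht
    obtain ⟨p, q, hpq, hp, -, hsem⟩ := Joint_47.complete2 f act p0 nu1 hW
      (c := c) (K := K) (R1 := R1) (N1 := N1) (z := z) (BadT := BadT)
      hS2 hC2 hinc hcp hres hTT (by omega) (by omega) hu.1 ht.1 hu.2 x
    refine ⟨p, q, T t (T u x), hpq, hp, ?_⟩
    intro x' p' hp'
    rcases hsem x' p' hp' with ⟨a, ha, hab, hpa, hTa⟩ | ⟨a, ha, hab, hpa⟩
    · left
      refine ⟨T u x, ?_⟩
      refine Language.mem_mul.2 ⟨a, ⟨⟨ha, hab⟩, hTa⟩, t, ?_, hpa.symm⟩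
      refine ⟨T t (T u x), ?_⟩
      exact Language.mem_mul.2 ⟨t, ⟨ht, rfl⟩, [], ⟨rfl, rfl⟩, List.append_nil _⟩
    · right
      left
      exact ⟨a, ha, fun h => hab h.2, hpa⟩
  have key := Top5_110.top_sem (φ := pr f) (act := act) (XX := XX) (Bad := Bd) (T := T)
    h0 hm hact1 hactm hfaith hPC (fun u hu => hu.1) hTd H1 H2 H3 H4 F1 F2 C1 C2 s
  exact key

end

/-- **the values** from `G1` for the token modules -/
theorem values (hG : ∀ (S : Type) [Monoid S] [Finite S],
      G1 S (Tok S) Two_621.act) (n : ℕ) (S : Type) [Monoid S] [Finite S] (f : Fin n → S) (s : S) :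
    HL 3 ({w | (w.map f).prod = s} : Language (Fin n)) := by
  have : Finite (Tok S) := by unfold Tok; infer_instance
  exact main f Two_621.act (fun v => Two_621.act_one v) (fun v s t => (Two_621.act_mul v s t).symm)
    (fun v w s => Two_621.act_add v w s) (fun s t h => Two_621.act_faithful h) (hG S) s

/-- **the frozen statement** from `G1` -/
theorem of_G1 (hG : ∀ (S : Type) [Monoid S] [Finite S], G1 S (Tok S) Two_621.act)
    (α : Type*) [Finite α] (L : Language α) (hL : L.IsRegular) :
    ∃ e : Crest.RegLang.GRegExp α, e.height ≤ 3 ∧ e.lang = L :=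
  Fin_869.template (values hG) α L hL

end Crest.Agent.R320.End_710
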