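import Crest.Agent.R320.Top_180
import Crest.Agent.R320.Sc2n_937
import Crest.Agent.R320.WallU_228
import Crest.Agent.R320.Hk2_851

/-!
# Row 320: languages of height one for the block code (helper712)

Keys of words, regularity of key languages, blocks with few walls, finite left quotients.
-/

set_option autoImplicit false

namespace Crest.Agent.R320.End_712

open Crest.RegLang Crest.Agent.R320.Hk_851 Crest.Agent.R320.Half1_180
  Crest.Agent.R320.FewWalls_228 Crest.Agent.R320.WallU_228

universe u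

variable {α : Type u}

/-- words with the same key -/
def SameKey {S : Type*} [Monoid S] (f : α → S) (K Pm : ℕ) (X Y : List α) : Prop :=
  X.take K = Y.take K ∧ X.length % Pm = Y.length % Pm ∧
    ((X.drop K).map f).prod = ((Y.drop K).map f).prod

theorem SameKey.append {S : Type*} [Monoid S] {f : α → S} {K Pm : ℕ} {X Y : List α}
    (h : SameKey f K Pm X Y) (Z : List α) : SameKey f K Pm (X ++ Z) (Y ++ Z) := by
  obtain ⟨h1, h2, h3⟩ := h
  have hl := congrArg List.length h1
  simp only [List.length_take] at hl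
  rcases Nat.lt_or_ge X.length K with hX | hX
  · have hY : Y.length < K := by omega
    rw [List.take_of_length_le (by omega), List.take_of_length_le (by omega)] at h1
    subst h1
    exact ⟨rfl, rfl, rfl⟩
  · have hY : K ≤ Y.length := by omega
    refine ⟨?_, ?_, ?_⟩
    · rw [List.take_append_of_le_length hX, List.take_append_of_le_length hY, h1]
    · rw [List.length_append, List.length_append, Nat.add_mod, h2, ← Nat.add_mod]
    · rw [List.drop_append_of_le_length hX, List.drop_append_of_le_length hY, List.map_append,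
        List.map_append, List.prod_append, List.prod_append, h3]

theorem reg_of_key [Finite α] {S : Type*} [Monoid S] [Finite S] (f : α → S) (K : ℕ) {Pm : ℕ}
    (hPm : 0 < Pm) (L : Language α) (h : ∀ X Y, SameKey f K Pm X Y → (X ∈ L ↔ Y ∈ L)) :
    L.IsRegular := by
  rw [Language.isRegular_iff_finite_range_leftQuotient]
  let κ : List α → List α × ℕ × S := fun X =>
    (X.take K, X.length % Pm, ((X.drop K).map f).prod)
  have hfin : (Set.range κ).Finite := by
    refine Set.Finite.subset ((List.finite_length_le α K).prod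
      ((Set.finite_lt_nat Pm).prod (Set.finite_univ (α := S)))) ?_
    rintro _ ⟨X, rfl⟩
    refine ⟨?_, Nat.mod_lt _ hPm, trivial⟩
    show (X.take K).length ≤ K
    rw [List.length_take]; omega
  have hsub : Set.range L.leftQuotient ⊆
      (fun q => L.leftQuotient (Function.invFun κ q)) '' Set.range κ := by
    rintro _ ⟨X, rfl⟩
    refine ⟨κ X, ⟨X, rfl⟩, ?_⟩
    have e : κ (Function.invFun κ (κ X)) = κ X := Function.invFun_eq ⟨X, rfl⟩
    have e1 := congrArg Prod.fst e
    have e2 := congrArg (fun p => p.2.1) e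
    have e3 := congrArg (fun p => p.2.2) e
    have hk : SameKey f K Pm (Function.invFun κ (κ X)) X := ⟨e1, e2, e3⟩
    show L.leftQuotient (Function.invFun κ (κ X)) = L.leftQuotient X
    ext Z
    exact h _ _ (hk.append Z)
  exact (hfin.image _).subset hsub

/-- few walls -/
theorem nw_le {n : ℕ} {S : Set (List α)} (z : ℕ) (u : List α)
    (hu : ∀ t, z ≤ t → t < u.length → ¬ Wo n S (u.take t)) : nw n S u ≤ z + 1 := by
  classical
  unfold nw
  have hsub : ((Finset.range (u.length + 1)).filter (fun x => Wl n S u x)) ⊆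
      Finset.range z ∪ {u.length - n} := by
    intro x hx
    rw [Finset.mem_filter] at hx
    obtain ⟨h1, h2⟩ := wo_take.1 hx.2
    rw [Finset.mem_union, Finset.mem_range, Finset.mem_singleton]
    by_contra hc
    push Not at hc
    exact hu (x + n) (by omega) (by omega) h2
  refine (Finset.card_le_card hsub).trans ((Finset.card_union_le _ _).trans ?_)
  simp

/-- the wall condition is of height 0 -/
theorem HL_wo [Finite α] {k : ℕ} (n : ℕ) (S : Set (List α)) :
    HL k ({w | Wo n S w} : Language α) := by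
  have hfin : ({v : List α | v.length = n ∧ v ∈ S}).Finite :=
    (List.finite_length_eq α n).subset fun v hv => hv.1
  refine (HL.suffix (k := k) (HL.finite hfin)).congr fun w => ?_
  constructor
  · rintro ⟨h1, h2⟩
    exact ⟨w.drop (w.length - n), ⟨by rw [List.length_drop]; omega, h2⟩, List.drop_suffix _ _⟩
  · rintro ⟨v, ⟨h1, h2⟩, h3⟩
    obtain ⟨t, rfl⟩ := h3
    refine ⟨by rw [List.length_append]; omega, ?_⟩
    have e : (t ++ v).length - n = t.length := by rw [List.length_append]; omega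
    rw [e, List.drop_left]
    exact h2

/-- no wall inside -/
theorem HL_nowall [Finite α] {k : ℕ} (n z : ℕ) (S : Set (List α)) :
    HL k ({w | ∀ t, z ≤ t → t < w.length → ¬ Wo n S (w.take t)} : Language α) := by
  have h1 : HL k ({w | z ≤ w.length ∧ Wo n S w} : Language α) :=
    HL.setOf_and (HL.length_ge z) (HL_wo n S)
  have h2 := (h1.mul (HL.length_ge (α := α) 1)).compl
  refine h2.congr fun w => ?_
  constructor
  · intro hw hmem
    obtain ⟨a, ⟨ha1, ha2⟩, b, hb, rfl⟩ := Language.mem_mul.1 hmem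
    have hb' : 1 ≤ b.length := hb
    refine hw a.length ha1 (by rw [List.length_append]; omega) ?_
    rw [List.take_left]
    exact ha2
  · intro hw t ht htl hwo
    apply hw
    refine Language.mem_mul.2 ⟨w.take t, ⟨?_, hwo⟩, w.drop t, ?_, List.take_append_drop _ _⟩
    · rw [List.length_take]; omega
    · show 1 ≤ (w.drop t).length
      rw [List.length_drop]; omega

theorem HL_XX [Finite α] {k : ℕ} (n z : ℕ) (S : Set (List α)) :
    HL k ({X | z ≤ X.length ∧ Wo n S X ∧
      ∀ t, z ≤ t → t < X.length → ¬ Wo n S (X.take t)} : Language α) :=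
  HL.setOf_and (HL.length_ge z) (HL.setOf_and (HL_wo n S) (HL_nowall n z S))

theorem HL_key [Finite α] {M : Type*} [Monoid M] [Finite M] (f : α → M) (K : ℕ) {Pm : ℕ}
    (hPm : 0 < Pm) {n : ℕ} {S : Set (List α)} (z : ℕ)
    (hfew : ∀ (L : Language α), L.IsRegular → ∀ r, HL 1 ({w | w ∈ L ∧ nw n S w ≤ r} : Language α))
    (p : List α → Prop)
    (hp : ∀ X Y, K ≤ X.length → K ≤ Y.length → SameKey f K Pm X Y → (p X ↔ p Y)) :
    HL 1 ({X | (z ≤ X.length ∧ Wo n S X ∧
      ∀ t, z ≤ t → t < X.length → ¬ Wo n S (X.take t)) ∧ p X} : Language α) := by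
  have hreg : Language.IsRegular ({X | p X} : Language α) := by
    refine reg_of_key f K hPm _ fun X Y h => ?_
    have hl := congrArg List.length h.1
    simp only [List.length_take] at hl
    rcases Nat.lt_or_ge X.length K with hX | hX
    · have hY : Y.length < K := by omega
      have h1 := h.1
      rw [List.take_of_length_le (by omega), List.take_of_length_le (by omega)] at h1
      rw [h1]
    · exact hp X Y hX (by omega) h
  refine ((HL_XX (k := 1) n z S).setOf_and (hfew _ hreg (z + 1))).congr fun w => ?_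
  constructor
  · rintro ⟨h1, h2⟩
    exact ⟨h1, h2, nw_le z w h1.2.2⟩
  · rintro ⟨h1, h2, -⟩
    exact ⟨h1, h2⟩

/-- finitely many left quotients -/
theorem HL_quot [Finite α] {V : Type*} [Finite V] {k : ℕ} (N : ℕ) (LP : V → List α → Prop)
    (hlen : ∀ v P, LP v P → P.length ≤ N) (q : V → Language α) (hq : ∀ v, HL k (q v)) :
    HL k ({Q | ∀ v P, LP v P → P ++ Q ∈ q v} : Language α) := by
  have h1 : ∀ v, HL k ({Q | ∀ P ∈ {P | LP v P}, Q ∈ ({Q | P ++ Q ∈ q v} : Language α)}
      : Language α) := fun v =>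
    HL.biInter ((List.finite_length_le α N).subset fun P hP => hlen v P hP)
      fun P _ => HL.lquot P (hq v)
  refine (HL.iInter h1).congr fun w => ?_
  constructor
  · intro hw v P hP
    exact hw v P hP
  · intro hw v P hP
    exact hw v P hP

theorem bs_tail {XX Bad : Set (List α)} (h : PF XX) (hB : Bad ⊆ XX) {X w : List α} (hX : X ∈ XX)
    (hw : Bs Bad (X ++ w)) : X ∈ Bad ∧ Bs Bad w := by
  rcases Bs.inv h hB hw with e | ⟨Y, hY, w', e, hw'⟩
  · exact absurd (List.append_eq_nil_iff.1 e).1 (h.1 X hX)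
  · obtain ⟨h1, h2⟩ := PF.eq h hX (hB hY) e
    subst h1; subst h2
    exact ⟨hY, hw'⟩

section join

open Crest.Agent.R320.Sc2n_937

variable (g : Geo α) {M V : Type*} [Monoid M]

/-- words with two bad blocks of the right value, or a good block among the first two -/
def q2 (XX : List α → Prop) (Bd : List α → Prop) (T : V → List α → V) (v b : V) : Language α :=
  {w | (∃ Y1 Y2, (XX Y1 ∧ Bd Y1) ∧ (XX Y2 ∧ Bd Y2) ∧ w = Y1 ++ Y2 ∧ T (T v Y1) Y2 = b) ∨
    (∃ X, (XX X ∧ ¬ Bd X) ∧ X <+: w) ∨
    ∃ Y1 X, (XX Y1 ∧ Bd Y1) ∧ (XX X ∧ ¬ Bd X) ∧ Y1 ++ X <+: w}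

theorem HL_q2 [Finite V] {k : ℕ} (XX Bd : List α → Prop) (T : V → List α → V)
    (h1 : ∀ v v', HL k ({X | (XX X ∧ Bd X) ∧ T v X = v'} : Language α))
    (h2 : HL k ({X | XX X ∧ ¬ Bd X} : Language α)) (h3 : HL k ({X | XX X ∧ Bd X} : Language α))
    (v b : V) : HL k (q2 XX Bd T v b) := by
  have hA := HL.iUnion fun v'' : V => (h1 v v'').mul (h1 v'' b)
  have hB := HL.prefix h2
  have hC := HL.prefix (h3.mul h2)
  refine (hA.setOf_or (hB.setOf_or hC)).congr fun w => ?_
  constructor
  · rintro (⟨Y1, Y2, hY1, hY2, rfl, e⟩ | ⟨X, hX, hp⟩ | ⟨Y1, X, hY1, hX, hp⟩)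
    · exact Or.inl ⟨T v Y1, Language.mem_mul.2 ⟨Y1, ⟨hY1, rfl⟩, Y2, ⟨hY2, e⟩, rfl⟩⟩
    · exact Or.inr (Or.inl ⟨X, hX, hp⟩)
    · exact Or.inr (Or.inr ⟨Y1 ++ X, Language.mem_mul.2 ⟨Y1, hY1, X, hX, rfl⟩, hp⟩)
  · rintro (⟨v'', h⟩ | ⟨X, hX, hp⟩ | ⟨w', hw', hp⟩)
    · obtain ⟨Y1, ⟨hY1, e1⟩, Y2, ⟨hY2, e2⟩, rfl⟩ := Language.mem_mul.1 h
      refine Or.inl ⟨Y1, Y2, hY1, hY2, rfl, ?_⟩
      rw [e1, e2]
    · exact Or.inr (Or.inl ⟨X, hX, hp⟩)
    · obtain ⟨Y1, hY1, X, hX, rfl⟩ := Language.mem_mul.1 hw'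
      exact Or.inr (Or.inr ⟨Y1, X, hY1, hX, hp⟩)

end join

end Crest.Agent.R320.End_712
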