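import Crest.Agent.R320.Top5_110
import Crest.Agent.R320.Joint_47
import Crest.Agent.R320.P4N_211
import Crest.Agent.R320.WallU_228
import Crest.Agent.R320.Two_621
import Crest.Agent.R320.Univ_294

/-!
# Row 320: end-to-end joint (helper747)

`Gad` (the wall-free gadget on all words + wide ruler) `⟹` height 3 for every finite monoid, from
110's `top_sem`, 47's `complete1` / `complete2`, 237's exact gadget, 211's P4, 228's walls.
-/

set_option autoImplicit false

namespace Crest.Agent.R320.End_747

open Crest.Agent.R320.Hk_851 Crest.Agent.R320.Code110 Crest.Agent.R320.Top5_110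
open Crest.Agent.R320.ExactR_237 (pr pr_append)

/-- The gadget (693 / 852 / 638) as one proposition. -/
def Gad (S V : Type) [Monoid S] [AddCommGroup V] (act : V → S → V) : Prop :=
  ∃ R1 : ℕ, ∀ K : ℕ, ∃ (N1 La Pm : ℕ) (c : ℕ → ℕ) (Bad : ℕ → Prop),
    0 < Pm ∧ (∀ i j, i < j → j < K → c i < c j) ∧
    (∀ i i' j j', i < K → i' < K → j < K → j' < K → i' ≠ i → j' ≠ j →
      c i + c j' < c j + c i' + 2 * N1 → c j + c i' < c i + c j' + 2 * N1 → i = j) ∧
    (∀ T, La ≤ T → (Bad (T + Pm) ↔ Bad T)) ∧
    (∀ T, La ≤ T → (∀ k, k < K → c k ≤ T) → ∀ I : Finset ℕ,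
      (∀ k ∈ I, k < K ∧ ∃ k', k' < K ∧ k' ≠ k ∧ Bad (T + c k' - c k)) → I.card ≤ R1) ∧
    ∀ (A : Type) [Finite A] (f : A → S), ∃ (lam rho : List A → Option V) (nu : List A → V),
      (∀ p v, lam p = some v → p.length ≤ N1) ∧
      (∀ p q v r, lam p = some v → rho q = some r → La ≤ q.length →
        r = act v (pr f (p ++ q)) + nu (p ++ q)) ∧
      (∀ u : List A, La ≤ u.length → ¬ Bad u.length → ∀ v, ∃ p q, u = p ++ q ∧ lam p = some v ∧
        (rho q).isSome) ∧
      (∀ q q' : List A, La ≤ q.length → La ≤ q'.length → q.take La = q'.take La →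
        q.length % Pm = q'.length % Pm → pr f (q.drop La) = pr f (q'.drop La) → nu q = nu q')

theorem periodic_mod {Bad : ℕ → Prop} {Pm La : ℕ}
    (hper : ∀ T, La ≤ T → (Bad (T + Pm) ↔ Bad T)) {a b : ℕ} (ha : La ≤ a) (hb : La ≤ b)
    (h : a % Pm = b % Pm) : Bad a ↔ Bad b := by
  have key : ∀ k a, La ≤ a → (Bad (a + Pm * k) ↔ Bad a) := by
    intro k
    induction k with
    | zero => intro a _; simp
    | succ k ih =>
      intro a ha
      have e : a + Pm * (k + 1) = (a + Pm * k) + Pm := by ring
      rw [e, hper _ (by omega), ih a ha]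
  rcases le_total a b with hab | hab
  · obtain ⟨k, hk⟩ : Pm ∣ b - a := (Nat.modEq_iff_dvd' hab).1 h
    have : b = a + Pm * k := by omega
    rw [this, key k a ha]
  · obtain ⟨k, hk⟩ : Pm ∣ a - b := (Nat.modEq_iff_dvd' hab).1 h.symm
    have : a = b + Pm * k := by omega
    rw [this, key k b hb]

theorem finite_short {A : Type} [Finite A] (B : ℕ) (L : List A → Prop)
    (h : ∀ w, L w → w.length ≤ B) : {w | L w}.Finite :=
  (List.finite_length_le A B).subset fun w hw => h w hw

theorem main (hG : ∀ (S V : Type) [Monoid S] [Finite S] [AddCommGroup V] [Finite V]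
      (act : V → S → V), Gad S V act)
    (A : Type) [Finite A] (S : Type) [Monoid S] [Finite S] (f : A → S) (s : S) :
    HL 3 ({w | (w.map f).prod = s} : Language A) := by
  classical
  have : Fintype S := Fintype.ofFinite S
  let V : Type := S → ZMod 2
  have : Fintype V := Fintype.ofFinite V
  let act : V → S → V := Two_621.act
  have act_mul : ∀ v s t, act v (s * t) = act (act v s) t := fun v s t =>
    (Two_621.act_mul v s t).symm
  have act_one : ∀ v, act v 1 = v := fun v => Two_621.act_one v
  have act_add : ∀ v w s, act (v + w) s = act v s + act w s := fun v w s =>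
    Two_621.act_add v w s
  have act_sub : ∀ v w s, act (v - w) s = act v s - act w s := fun v w s => rfl
  have faith : ∀ s t : S, (∀ v, act v s = act v t) → s = t := fun s t h =>
    Two_621.act_faithful h
  obtain ⟨R1, hG1⟩ := hG S V act
  obtain ⟨K, hK⟩ := ExactR_237.exact_gadget A S V f act (2 * R1 + 2)
  obtain ⟨N1, La, Pm, c, BadG, hPm, hinc, hres, hper, hthin, hgad⟩ := hG1 K
  obtain ⟨lam2, rho2, nu2', hS2, hC2⟩ := hK c hinc
  obtain ⟨lam, rho, nu1, hlen, hsound, hcompl, hloc⟩ := hgad A f
  -- constants
  let p0 : ℕ := (Finset.range K).sup c + 1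
  have hcp : ∀ k, k < K → c k ≤ p0 := fun k hk =>
    (Finset.le_sup (f := c) (Finset.mem_range.2 hk)).trans (Nat.le_succ _)
  obtain ⟨n, Wo, loc, len, gap, R, B, pcs⟩ := WallU_228.walls (α := A) (2 * (N1 + p0) + 1)
  let N0 : ℕ := La + p0 + N1
  let z : ℕ := 3 * p0 + n + N1 + 1 + (p0 + N0)
  let BadT : ℕ → Prop := fun T => La + p0 ≤ T ∧ BadG T
  let nu2 : List A → V := fun X => nu2' X 1
  have hW : Joint_47.LW n (2 * (N1 + p0) + 1) Wo :=
    { len := len
      app := loc
      gap := by
        intro X s t hst ht h1 h2
        by_contra hcon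
        have hl : (X.take t).length = t := by rw [List.length_take]; omega
        refine gap (X.take t) (t - s) h2 (by omega) (by omega) ?_
        rw [hl, List.take_take, show min (t - (t - s)) t = s by omega]
        exact h1 }
  let rho' : List A → Option V := fun q => if La ≤ q.length then rho q else none
  have hrho' : ∀ q r, rho' q = some r → La ≤ q.length ∧ rho q = some r := by
    intro q r h
    simp only [rho'] at h
    split_ifs at h with h1
    exact ⟨h1, h⟩
  have hS : ∀ P Q v r, lam P = some v → rho' Q = some r →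
      r = act v (pr f (P ++ Q)) + nu1 (P ++ Q) := by
    intro P Q v r h1 h2
    obtain ⟨h3, h4⟩ := hrho' Q r h2
    exact hsound P Q v r h1 h4 h3
  have hC : ∀ Y : List A, N0 ≤ Y.length → ¬ BadT Y.length →
      ∀ v, ∃ P Q, Y = P ++ Q ∧ lam P = some v ∧ (rho' Q).isSome := by
    intro Y hY hb v
    obtain ⟨P, Q, h1, h2, h3⟩ := hcompl Y (by simp only [N0] at hY; omega)
      (fun h => hb ⟨by simp only [N0] at hY; omega, h⟩) v
    refine ⟨P, Q, h1, h2, ?_⟩
    have hl := hlen P v h2
    have hl2 : Y.length = P.length + Q.length := by rw [h1, List.length_append]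
    simp only [rho']
    rw [if_pos (by simp only [N0] at hY; omega)]
    exact h3
  let XX : Language A := Joint_47.Zn Wo z
  let BB : Language A := {X | X ∈ Joint_47.Zn Wo z ∧ Joint_47.Bad Wo z N1 p0 BadT X}
  let T : List A → V → V := fun X v => Joint_47.T f act p0 nu2 nu1 v X
  have hzp : 0 < z := by simp only [z]; omega
  have hPC : PC XX :=
    { ne := P4N_211.nil_not_mem hzp
      pf := fun u hu v hv h => Joint_47.Zn_prefix hu hv h (List.prefix_refl v) }
  have hφ : ∀ u w : List A, ((u ++ w).map f).prod = (u.map f).prod * (w.map f).prod := by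
    intro u w; simp
  -- zone map: locality
  have keyT : ∀ (x : V) (X X' : List A), X.take (p0 + La) = X'.take (p0 + La) →
      X.length % Pm = X'.length % Pm →
      ((X.drop (p0 + La)).map f).prod = ((X'.drop (p0 + La)).map f).prod → T X x = T X' x := by
    intro x X X' h1 h2 h3
    by_cases hX : p0 + La ≤ X.length
    · have hX' : p0 + La ≤ X'.length := by
        have := congrArg List.length h1
        rw [List.length_take, List.length_take] at this
        omega
      have e1 : X.take p0 = X'.take p0 := by
        have := congrArg (List.take p0) h1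
        rwa [List.take_take, List.take_take, min_eq_left (by omega)] at this
      have e2 : (X.drop p0).take La = (X'.drop p0).take La := by
        have := congrArg (List.drop p0) h1
        rwa [List.drop_take, List.drop_take, Nat.add_sub_cancel_left] at this
      have e3 : (X.drop p0).drop La = X.drop (p0 + La) := by rw [List.drop_drop]
      have e3' : (X'.drop p0).drop La = X'.drop (p0 + La) := by rw [List.drop_drop]
      have e4 : pr f (X.drop p0) = pr f (X'.drop p0) := by
        rw [← List.take_append_drop La (X.drop p0), ← List.take_append_drop La (X'.drop p0),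
          pr_append, pr_append, e2, e3, e3']
        simp only [pr]
        rw [h3]
      have e5 : nu1 (X.drop p0) = nu1 (X'.drop p0) := by
        refine hloc _ _ ?_ ?_ e2 ?_ ?_
        · rw [List.length_drop]; omega
        · rw [List.length_drop]; omega
        · rw [List.length_drop, List.length_drop]
          exact (Nat.ModEq.add_right_cancel' p0 (by
            rw [Nat.sub_add_cancel (by omega), Nat.sub_add_cancel (by omega)]
            exact h2))
        · rw [e3, e3']
          simp only [pr]
          rw [h3]
      simp only [T, Joint_47.T]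
      rw [e1, e4, e5]
    · have hX' : ¬ p0 + La ≤ X'.length := by
        have := congrArg List.length h1
        rw [List.length_take, List.length_take] at this
        omega
      rw [List.take_of_length_le (by omega), List.take_of_length_le (by omega)] at h1
      rw [h1]
  have hXT : ∀ x y, HL 1 (ZT XX T x y) := by
    intro x y
    refine (P4N_211.hXT' (φ := fun w : List A => (w.map f).prod) (z := z) hφ loc len pcs (fun X => T X x) (p0 + La) Pm (p0 + La) hPm
      (keyT x) y).congr fun w => Iff.rfl
  have hXX : HL 1 XX := by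
    refine (P4N_211.hXT (φ := fun w : List A => (w.map f).prod) (z := z) hφ loc len pcs (fun _ => ()) 0 1 one_pos
      (fun _ _ _ _ _ => rfl) ()).congr fun w => ?_
    exact ⟨fun h => ⟨h, rfl⟩, fun h => h.1⟩
  have hBB : HL 1 BB := by
    let D : ℕ := z + N1 + La + p0 + p0
    have key : ∀ X X' : List A, X.take D = X'.take D → X.length % Pm = X'.length % Pm →
        Joint_47.Bad Wo z N1 p0 BadT X → Joint_47.Bad Wo z N1 p0 BadT X' := by
      intro X X' h1 h2 h3
      by_cases hX : D ≤ X.length
      · have hX' : D ≤ X'.length := by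
          have := congrArg List.length h1
          rw [List.length_take, List.length_take] at this
          omega
        rcases h3 with ⟨t, a1, a2, a3, a4⟩ | ⟨a1, a2⟩
        · refine Or.inl ⟨t, a1, a2, by simp only [D] at hX'; omega, ?_⟩
          have : X.take t = X'.take t := by
            have := congrArg (List.take t) h1
            rwa [List.take_take, List.take_take,
              min_eq_left (by simp only [D]; omega)] at this
          rwa [← this]
        · refine Or.inr ⟨by simp only [D] at hX'; omega, ?_⟩
          refine (periodic_mod hper (by omega) (by simp only [D] at hX'; omega) ?_).1 a2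
          exact (Nat.ModEq.add_right_cancel' p0 (by
            simp only [D] at hX hX'
            rw [Nat.sub_add_cancel (by omega), Nat.sub_add_cancel (by omega)]
            exact h2))
      · have hX' : ¬ D ≤ X'.length := by
          have := congrArg List.length h1
          rw [List.length_take, List.length_take] at this
          omega
        rw [List.take_of_length_le (by omega), List.take_of_length_le (by omega)] at h1
        rw [← h1]
        exact h3
    refine (P4N_211.hXT (φ := fun w : List A => (w.map f).prod) (z := z) hφ loc len pcs (fun X => Joint_47.Bad Wo z N1 p0 BadT X) D Pm hPm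
      (fun X X' h1 h2 _ => propext ⟨key X X' h1 h2, key X' X h1.symm h2.symm⟩)
      True).congr fun w => ?_
    exact ⟨fun h => ⟨h.1, eq_true h.2⟩, fun h => ⟨h.1, of_eq_true h.2⟩⟩
  have hNP : ∀ s, HL 3 ({w | (∀ u ∈ XX, ¬ u <+: w) ∧ (w.map f).prod = s} : Language A) :=
    fun s => ((P4N_211.hNP (φ := fun w : List A => (w.map f).prod) (z := z) hφ loc len pcs s).mono (by norm_num)).congr fun w => Iff.rfl
  refine top_sem (φ := fun w : List A => (w.map f).prod) (act := act) (XX := XX) (Bad := BB)
    (T := T) (by simp) hφ act_one act_mul faith hPC (fun u hu => hu.1) ?_ hXX hBB hXT hNP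
    (N1 := 0) (N2 := 1)
    (L1 := fun v => {P | Joint_47.L1 f act p0 nu2 lam v P})
    (L2 := fun v => {P | Joint_47.L2 K c lam2 v P}) ?_ ?_ ?_ ?_ s
  · -- difference of the zone maps
    intro u _ v v'
    have e : ∀ v, T u v = act v ((u.map f).prod) + (act (nu2 (u.take p0)) (pr f (u.drop p0)) +
        nu1 (u.drop p0)) := by
      intro v
      have e1 : (u.map f).prod = pr f (u.take p0) * pr f (u.drop p0) := by
        rw [← pr_append, List.take_append_drop]; rfl
      simp only [T, Joint_47.T]
      rw [act_add, e1, act_mul, add_assoc]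
    rw [e, e, act_sub]
    abel
  · -- finite left words 1
    intro v
    refine finite_short (p0 + N1) _ ?_
    rintro P ⟨h1, h2⟩
    have := hlen _ _ h2
    rw [List.length_drop] at this
    omega
  · intro v
    refine finite_short p0 _ ?_
    rintro P ⟨k, h1, h2, h3⟩
    rw [h2]
    exact hcp k h1
  · -- completeness 1
    intro u hu hnb x t ht
    have ht0 : t = [] := by
      rw [pow_zero] at ht
      exact ht
    subst ht0
    obtain ⟨p, q, h1, h2, h3, h4⟩ := Joint_47.complete1 f act p0 nu2 nu1 hW hS hlen hC
      (by simp only [z]; omega) (by simp only [z]; omega) hu (fun h => hnb ⟨hu, h⟩) x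
    refine ⟨p, q, T u x, by rw [List.append_nil]; exact h1, h2, ?_⟩
    intro x' p' hp'
    obtain ⟨a1, a2⟩ := h4 x' p' hp'
    refine Or.inl ⟨T u x, Language.mem_mul.2 ⟨p' ++ q, ⟨a1, a2⟩, [], ⟨rfl, rfl⟩, by simp⟩⟩
  · -- completeness 2
    intro u hu x t ht
    rw [pow_one] at ht
    obtain ⟨p, q, h1, h2, h3, h4⟩ := Joint_47.complete2 (N0 := 0) f act p0 nu1 hW
      (fun k hk => hS2 k hk) hC2 hinc hcp hres
      (fun T' _ hT' I hI => by
        by_cases hLa : La ≤ T'
        · exact hthin T' hLa hT' I (fun k hk => by
            obtain ⟨a1, k', a2, a3, a4⟩ := hI k hk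
            exact ⟨a1, k', a2, a3, a4.2⟩)
        · have : I = ∅ := by
            rw [Finset.eq_empty_iff_forall_notMem]
            intro k hk
            obtain ⟨a1, k', a2, a3, a4, a5⟩ := hI k hk
            have := hcp k' a2
            omega
          rw [this]; simp)
      (by omega) (by simp only [z]; omega) hu.1 ht.1 hu.2 x
    refine ⟨p, q, T t (T u x), h1, h2, ?_⟩
    intro x' p' hp'
    rcases h4 x' p' hp' with ⟨a, b1, b2, b3, b4⟩ | ⟨a, b1, b2, b3⟩
    · refine Or.inl ?_
      show p' ++ q ∈ Exactly BB T 2 x' (T t (T u x))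
      refine ⟨T u x, Language.mem_mul.2 ⟨a, ⟨⟨b1, b2⟩, b4⟩, t, ?_, b3.symm⟩⟩
      exact ⟨T t (T u x), Language.mem_mul.2 ⟨t, ⟨ht, rfl⟩, [], ⟨rfl, rfl⟩, by simp⟩⟩
    · refine Or.inr ?_
      show p' ++ q ∈ Off XX BB 1
      exact Or.inl ⟨a, b1, fun h => b2 h.2, b3⟩

end Crest.Agent.R320.End_747
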