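import Mathlib

/-!
# Row 320: ruler and spoil count for the positional digit gadget (852 #13483 / 593 G1)

`BadT n`: some modulus of `Ms` divides `n`, or one of the `m` lowest digits of `n` in base `b` is
within `M` of `0` or of `b`.  The ruler `x k = U * 2 ^ k`, `U = (4 M + 1) (1 + b + .. + b ^ (m-1)) +
b ^ m * (M * D)`, spoils at most one pair per modulus and one pair per digit.
-/

set_option autoImplicit false

namespace Crest.Agent.R320.Spoil_398

/-- thin set of totals -/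
def BadT (Ms : Finset ℕ) (M b m n : ℕ) : Prop :=
  (∃ k ∈ Ms, k ∣ n) ∨ ∃ j < m, (n / b ^ j) % b < M ∨ b ≤ (n / b ^ j) % b + M

/-- repunit -/
def rep (b j : ℕ) : ℕ := ∑ i ∈ Finset.range j, b ^ i

theorem rep_succ (b j : ℕ) : rep b (j + 1) = rep b j + b ^ j := by
  rw [rep, Finset.sum_range_succ]; rfl

theorem rep_le {b : ℕ} (hb : 2 ≤ b) (j : ℕ) : rep b j ≤ b ^ j := by
  induction j with
  | zero => simp [rep]
  | succ j ih =>
    rw [rep_succ, pow_succ]
    nlinarith [Nat.pow_pos (n := j) (show 0 < b by omega)]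

theorem pow_le_rep (b j : ℕ) : b ^ j ≤ rep b (j + 1) := by
  rw [rep_succ]; omega

theorem rep_dvd (b : ℕ) {j m : ℕ} (h : j ≤ m) : (b : ℤ) ^ j ∣ (rep b m : ℤ) - rep b j := by
  induction m with
  | zero =>
    have : j = 0 := by omega
    subst this; simp
  | succ m ih =>
    rcases Nat.lt_or_ge m j with h1 | h1
    · have : j = m + 1 := by omega
      subst this; simp
    · rw [rep_succ]
      push_cast
      have h2 : (b : ℤ) ^ j ∣ (b : ℤ) ^ m := pow_dvd_pow _ h1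
      have h3 := ih h1
      have := dvd_add h3 h2
      rwa [show (rep b m : ℤ) - rep b j + (b : ℤ) ^ m = (rep b m : ℤ) + (b : ℤ) ^ m - rep b j by
        ring] at this

theorem rep_mod {b M : ℕ} (hb : (M : ℤ) ∣ (b : ℤ) - 1) (m : ℕ) :
    (M : ℤ) ∣ (rep b m : ℤ) - m := by
  induction m with
  | zero => simp [rep]
  | succ m ih =>
    rw [rep_succ]
    push_cast
    have h1 : (M : ℤ) ∣ (b : ℤ) ^ m - 1 := by
      have := sub_dvd_pow_sub_pow (b : ℤ) 1 m
      rw [one_pow] at this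
      exact hb.trans this
    have := dvd_add ih h1
    rwa [show (rep b m : ℤ) - m + ((b : ℤ) ^ m - 1) = (rep b m : ℤ) + (b : ℤ) ^ m - (m + 1) by
      ring] at this

/-- Golomb property of the powers of two. -/
theorem golomb {a b c d : ℕ} (hab : a ≠ b)
    (h : (2 : ℤ) ^ a - 2 ^ b = 2 ^ c - 2 ^ d) : a = c ∧ b = d := by
  have h' : 2 ^ a + 2 ^ d = 2 ^ c + 2 ^ b := by
    have : (2 : ℤ) ^ a + 2 ^ d = 2 ^ c + 2 ^ b := by linarith
    exact_mod_cast this
  have key : ∀ {p q : ℕ}, p < q → ∀ {r s : ℕ}, r ≤ s → 2 ^ p + 2 ^ q = 2 ^ r + 2 ^ s →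
      p = r ∧ q = s := by
    intro p q hpq r s hrs he
    have hp : 2 ^ p < 2 ^ q := Nat.pow_lt_pow_right (by norm_num) hpq
    have hr : 2 ^ r ≤ 2 ^ s := Nat.pow_le_pow_right (by norm_num) hrs
    have hq : q = s := by
      rcases Nat.lt_trichotomy q s with h1 | h1 | h1
      · exfalso
        have : 2 ^ (q + 1) ≤ 2 ^ s := Nat.pow_le_pow_right (by norm_num) h1
        have h0 : 0 < 2 ^ r := by positivity
        rw [pow_succ] at this
        omega
      · exact h1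
      · exfalso
        have : 2 ^ (s + 1) ≤ 2 ^ q := Nat.pow_le_pow_right (by norm_num) h1
        have h0 : 0 < 2 ^ p := by positivity
        rw [pow_succ] at this
        omega
    subst hq
    have h3 : 2 ^ p = 2 ^ r := by omega
    exact ⟨Nat.pow_right_injective (le_refl 2) h3, rfl⟩
  have eqcase : ∀ {p r s : ℕ}, r < s → 2 ^ p + 2 ^ p = 2 ^ r + 2 ^ s → False := by
    intro p r s hrs he
    have h1 := key hrs (le_refl p) he.symm
    omega
  rcases Nat.lt_trichotomy a d with h1 | h1 | h1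
  · rcases Nat.le_total c b with h2 | h2
    · exact (key h1 h2 h')
        |> fun ⟨x, y⟩ => ⟨x, y.symm⟩
    · have := key h1 h2 (by rw [h', add_comm])
      omega
  · subst h1
    rcases Nat.lt_trichotomy c b with h2 | h2 | h2
    · exact (eqcase h2 h').elim
    · subst h2
      have h3 : 2 ^ a = 2 ^ c := by omega
      exact (hab (Nat.pow_right_injective (le_refl 2) h3)).elim
    · exact (eqcase h2 (by rw [h', add_comm])).elim
  · rcases Nat.le_total c b with h2 | h2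
    · have := key h1 h2 (by rw [add_comm, h'])
      omega
    · have := key h1 h2 (by rw [add_comm, h', add_comm])
      exact ⟨by omega, by omega⟩

/-- a bad digit puts the number near a multiple of `b ^ (j+1)` -/
theorem near_of_digit {b M j n : ℕ} (hb : 0 < b)
    (h : (n / b ^ j) % b < M ∨ b ≤ (n / b ^ j) % b + M) :
    ∃ q r : ℤ, (n : ℤ) = (b : ℤ) ^ (j + 1) * q + r ∧ -(M * (b : ℤ) ^ j) ≤ r ∧
      r < M * (b : ℤ) ^ j := by
  have hbj : 0 < b ^ j := Nat.pow_pos hb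
  set D := n / b ^ j with hD
  set dg := D % b with hdg
  have e1 : b ^ j * D + n % b ^ j = n := Nat.div_add_mod n (b ^ j)
  have e2 : b * (D / b) + dg = D := Nat.div_add_mod D b
  have e3 : n % b ^ j < b ^ j := Nat.mod_lt _ hbj
  have e4 : dg < b := Nat.mod_lt _ hb
  have e : (n : ℤ) = (b : ℤ) ^ (j + 1) * (D / b : ℕ) + ((b : ℤ) ^ j * dg + (n % b ^ j : ℕ)) := by
    have : (n : ℤ) = ((b ^ j * (b * (D / b) + dg) + n % b ^ j : ℕ) : ℤ) := by
      rw [e2, e1]
    rw [this]; push_cast; ring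
  have hbjz : (0 : ℤ) < (b : ℤ) ^ j := by exact_mod_cast hbj
  have e3z : ((n % b ^ j : ℕ) : ℤ) < (b : ℤ) ^ j := by exact_mod_cast e3
  have e3n : (0 : ℤ) ≤ ((n % b ^ j : ℕ) : ℤ) := by positivity
  rcases h with h | h
  · refine ⟨(D / b : ℕ), (b : ℤ) ^ j * dg + (n % b ^ j : ℕ), e, ?_, ?_⟩
    · have : (0 : ℤ) ≤ (b : ℤ) ^ j * dg := by positivity
      have : (0 : ℤ) ≤ (M : ℤ) * (b : ℤ) ^ j := by positivity
      linarith [this]
    · have h1 : (dg : ℤ) + 1 ≤ M := by exact_mod_cast h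
      nlinarith
  · refine ⟨(D / b : ℕ) + 1, (b : ℤ) ^ j * dg + (n % b ^ j : ℕ) - (b : ℤ) ^ (j + 1), ?_, ?_, ?_⟩
    · rw [e]; ring
    · have h1 : (b : ℤ) ≤ dg + M := by exact_mod_cast h
      rw [pow_succ]
      nlinarith
    · have h1 : (dg : ℤ) + 1 ≤ b := by exact_mod_cast e4
      have h2 : (0 : ℤ) ≤ (M : ℤ) * (b : ℤ) ^ j := by positivity
      rw [pow_succ]
      nlinarith

variable {Ms : Finset ℕ} {K M b m D : ℕ}

/-- the unit of the ruler -/
def U (M b m D : ℕ) : ℕ := (4 * M + 1) * rep b m + b ^ m * (M * D)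

theorem two_pow_diff {a c : ℕ} (ha : a < K) (hc : c < K) :
    |(2 : ℤ) ^ a - 2 ^ c| < 2 ^ K := by
  have h1 : (2 : ℤ) ^ a < 2 ^ K := pow_lt_pow_right₀ (by norm_num) ha
  have h2 : (2 : ℤ) ^ c < 2 ^ K := pow_lt_pow_right₀ (by norm_num) hc
  have h3 : (0 : ℤ) < 2 ^ a := by positivity
  have h4 : (0 : ℤ) < 2 ^ c := by positivity
  rw [abs_lt]; constructor <;> linarith

/-- one pair per modulus -/
theorem prime_pair {p : ℕ} (hp : p.Prime) (hpM : p ∣ M) (hpK : 2 ^ (K + 1) < p) (hpm : m < p)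
    (hm : 0 < m) (hb1 : (M : ℤ) ∣ (b : ℤ) - 1) {t : ℤ} {e e' : ℤ}
    (he : |e| < 2 ^ K) (he' : |e'| < 2 ^ K)
    (h : (p : ℤ) ∣ t + U M b m D * e) (h' : (p : ℤ) ∣ t + U M b m D * e') : e = e' := by
  have hpz : (p : ℤ) ∣ (M : ℤ) := by exact_mod_cast hpM
  have h1 : (p : ℤ) ∣ (U M b m D : ℤ) * (e - e') := by
    have := dvd_sub h h'
    rwa [show (t + U M b m D * e) - (t + U M b m D * e') = (U M b m D : ℤ) * (e - e') by
      ring] at this
  have hU : ¬ (p : ℤ) ∣ (U M b m D : ℤ) := by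
    intro hd
    have h2 : (p : ℤ) ∣ (rep b m : ℤ) - m := hpz.trans (rep_mod hb1 m)
    have h3 : (p : ℤ) ∣ (m : ℤ) := by
      have e1 : (m : ℤ) = (U M b m D : ℤ) - ((rep b m : ℤ) - m) -
          (M : ℤ) * (4 * rep b m + b ^ m * D) := by
        simp only [U]; push_cast; ring
      rw [e1]
      exact dvd_sub (dvd_sub hd h2) (hpz.trans (dvd_mul_right _ _))
    have h4 : p ∣ m := by exact_mod_cast h3
    have := Nat.le_of_dvd hm h4
    omega
  have hpp : Prime (p : ℤ) := Nat.prime_iff_prime_int.1 hp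
  rcases hpp.dvd_or_dvd h1 with h2 | h2
  · exact (hU h2).elim
  · by_contra hne
    have h3 : e - e' ≠ 0 := sub_ne_zero.2 hne
    have h4 := Int.le_of_dvd (abs_pos.2 h3) ((dvd_abs _ _).2 h2)
    have h5 : |e - e'| ≤ |e| + |e'| := abs_sub e e'
    have h6 : (2 : ℤ) ^ (K + 1) < p := by exact_mod_cast hpK
    rw [pow_succ] at h6
    linarith

/-- one pair per digit -/
theorem digit_pair {j : ℕ} (hj : j < m) (hM : 0 < M) (hb : (4 * M + 1) * 2 ^ (K + 4) < b)
    {t : ℤ} {e e' : ℤ} (he : |e| < 2 ^ K) (he' : |e'| < 2 ^ K)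
    {q r q' r' : ℤ}
    (h : t + U M b m D * e = (b : ℤ) ^ (j + 1) * q + r) (h1 : -(M * (b : ℤ) ^ j) ≤ r)
    (h2 : r < M * (b : ℤ) ^ j)
    (h' : t + U M b m D * e' = (b : ℤ) ^ (j + 1) * q' + r') (h1' : -(M * (b : ℤ) ^ j) ≤ r')
    (h2' : r' < M * (b : ℤ) ^ j) : e = e' := by
  by_contra hne
  have hb2 : 2 ≤ b := by
    have : 1 ≤ 2 ^ (K + 4) := Nat.one_le_two_pow
    nlinarith
  have hbj : (0 : ℤ) < (b : ℤ) ^ j := by positivity
  set f : ℤ := e - e' with hf
  have hf0 : f ≠ 0 := sub_ne_zero.2 hne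
  have hf1 : 1 ≤ |f| := Int.one_le_abs hf0
  have hf2 : |f| < 2 ^ (K + 1) := by
    have h5 : |f| ≤ |e| + |e'| := abs_sub e e'
    rw [pow_succ]; linarith
  set R : ℤ := (rep b (j + 1) : ℤ) with hR
  have hR1 : (b : ℤ) ^ j ≤ R := by
    rw [hR]; exact_mod_cast pow_le_rep b j
  have hR2 : R ≤ 2 * (b : ℤ) ^ j := by
    have e1 : rep b (j + 1) = rep b j + b ^ j := rep_succ b j
    have e2 := rep_le hb2 j
    have : rep b (j + 1) ≤ 2 * b ^ j := by omega
    rw [hR]; exact_mod_cast this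
  -- the difference modulo `b ^ (j+1)`
  have hdv : (b : ℤ) ^ (j + 1) ∣ (4 * M + 1) * R * f - (r - r') := by
    obtain ⟨c, hc⟩ := rep_dvd b (show j + 1 ≤ m from hj)
    obtain ⟨c2, hc2⟩ : (b : ℤ) ^ (j + 1) ∣ (b : ℤ) ^ m := pow_dvd_pow _ hj
    have e1 : (U M b m D : ℤ) * f = (b : ℤ) ^ (j + 1) * (q - q') + (r - r') := by
      rw [hf]; linear_combination h - h'
    have e2 : (U M b m D : ℤ) = (4 * M + 1) * (R + (b : ℤ) ^ (j + 1) * c) +
        (b : ℤ) ^ (j + 1) * c2 * (M * D) := by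
      have : (rep b m : ℤ) = R + (b : ℤ) ^ (j + 1) * c := by rw [hR]; linarith
      simp only [U]
      push_cast
      rw [this, hc2]
    refine ⟨(q - q') - ((4 * M + 1) * c + c2 * (M * D)) * f, ?_⟩
    rw [e2] at e1
    linear_combination e1
  have hbz : ((4 * M + 1 : ℤ)) * 2 ^ (K + 4) < b := by exact_mod_cast hb
  have hrr : |r - r'| < 2 * M * (b : ℤ) ^ j := by
    rw [abs_lt]; constructor <;> linarith
  have hk1 : (4 * M + 1 : ℤ) * (b : ℤ) ^ j ≤ |(4 * M + 1) * R * f| := by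
    rw [abs_mul, abs_of_nonneg (show (0 : ℤ) ≤ (4 * M + 1) * R by positivity)]
    have : (4 * M + 1 : ℤ) * (b : ℤ) ^ j ≤ (4 * M + 1) * R := by
      apply mul_le_mul_of_nonneg_left hR1; positivity
    nlinarith [show (0 : ℤ) ≤ (4 * M + 1) * R by positivity]
  have hk2 : |(4 * M + 1) * R * f| ≤ (4 * M + 1) * (2 * (b : ℤ) ^ j) * 2 ^ (K + 1) := by
    rw [abs_mul, abs_of_nonneg (show (0 : ℤ) ≤ (4 * M + 1) * R by positivity)]
    apply mul_le_mul
    · apply mul_le_mul_of_nonneg_left hR2; positivity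
    · exact hf2.le
    · positivity
    · positivity
  have hlt : |(4 * M + 1) * R * f - (r - r')| < (b : ℤ) ^ (j + 1) := by
    have h5 : |(4 * M + 1) * R * f - (r - r')| ≤ |(4 * M + 1) * R * f| + |r - r'| := abs_sub _ _
    have h6 : (4 * M + 1 : ℤ) * (2 * (b : ℤ) ^ j) * 2 ^ (K + 1) + 2 * M * (b : ℤ) ^ j <
        (b : ℤ) ^ (j + 1) := by
      have h7 : ((4 * M + 1 : ℤ) * 2 ^ (K + 4)) * (b : ℤ) ^ j < b * (b : ℤ) ^ j :=
        mul_lt_mul_of_pos_right hbz hbj
      have h8 : (1 : ℤ) ≤ 2 ^ K := one_le_pow₀ (by norm_num)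
      have h9 : (b : ℤ) ^ (j + 1) = b * (b : ℤ) ^ j := by ring
      have h10 : (2 : ℤ) ^ (K + 4) = 16 * 2 ^ K := by ring
      have h11 : (2 : ℤ) ^ (K + 1) = 2 * 2 ^ K := by ring
      rw [h9]
      rw [h10] at h7
      rw [h11]
      have h12 : (0 : ℤ) ≤ M := by positivity
      have h13 : 2 * (M : ℤ) * (b : ℤ) ^ j ≤ (4 * M + 1) * (12 * 2 ^ K) * (b : ℤ) ^ j := by
        apply mul_le_mul_of_nonneg_right _ hbj.le
        nlinarith
      nlinarith
    linarith
  have hz : (4 * M + 1) * R * f - (r - r') = 0 := by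
    by_contra hnz
    have := Int.le_of_dvd (abs_pos.2 hnz) ((dvd_abs _ _).2 hdv)
    linarith
  have hz' : (4 * M + 1) * R * f = r - r' := by linarith
  rw [hz'] at hk1
  have : (0 : ℤ) ≤ (M : ℤ) * (b : ℤ) ^ j := by positivity
  nlinarith

open Classical in
/-- **Ruler and spoil count.**  `x k = U * 2 ^ k` is increasing, its differences are more than `D`
apart, and for every total `T ≥ x K` at most `Ms.card + m` ordered pairs `a ≠ b` of ruler elements
make `T + x a - x b` a bad total. -/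
theorem exists_ruler (hM : 0 < M) (hm : 0 < m)
    (hMs : ∀ p ∈ Ms, p.Prime ∧ p ∣ M ∧ 2 ^ (K + 1) < p ∧ m < p)
    (hb1 : (M : ℤ) ∣ (b : ℤ) - 1) (hb : (4 * M + 1) * 2 ^ (K + 4) < b) (D : ℕ) :
    ∃ x : ℕ → ℕ, StrictMono x ∧ (∀ k, D < x k) ∧
      (∀ a b' c d, a ≠ b' → |((x a : ℤ) - x b') - ((x c : ℤ) - x d)| ≤ D → a = c ∧ b' = d) ∧
      ∀ T, x K ≤ T → ((Finset.range K ×ˢ Finset.range K).filter
        fun ab => ab.1 ≠ ab.2 ∧ BadT Ms M b m (T + x ab.1 - x ab.2)).card ≤ Ms.card + m := by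
  have hb2 : 2 ≤ b := by
    have : 1 ≤ 2 ^ (K + 4) := Nat.one_le_two_pow
    nlinarith
  have hbm : 0 < b ^ m := Nat.pow_pos (by omega)
  have hUD : D < U M b m D := by
    have h1 : 1 ≤ rep b m := by
      obtain ⟨m', rfl⟩ : ∃ m', m = m' + 1 := ⟨m - 1, by omega⟩
      exact (Nat.pow_pos (by omega)).trans_le (pow_le_rep b m')
    have h2 : D ≤ b ^ m * (M * D) := by
      have h3 : D ≤ M * D := Nat.le_mul_of_pos_left D hM
      exact h3.trans (Nat.le_mul_of_pos_left _ hbm)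
    have h4 : 1 ≤ (4 * M + 1) * rep b m := Nat.mul_pos (by omega) h1
    simp only [U]; omega
  have hU0 : 0 < U M b m D := by omega
  refine ⟨fun k => U M b m D * 2 ^ k, ?_, ?_, ?_, ?_⟩
  · intro i j hij
    exact Nat.mul_lt_mul_of_pos_left (Nat.pow_lt_pow_right (by norm_num) hij) hU0
  · intro k
    exact hUD.trans_le (Nat.le_mul_of_pos_right _ (by positivity))
  · intro a b' c d hab h
    push_cast at h
    have e1 : (U M b m D : ℤ) * 2 ^ a - U M b m D * 2 ^ b' - (U M b m D * 2 ^ c -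
        U M b m D * 2 ^ d) = U M b m D * ((2 ^ a - 2 ^ b') - (2 ^ c - 2 ^ d)) := by ring
    rw [e1, abs_mul, abs_of_nonneg (show (0 : ℤ) ≤ (U M b m D : ℤ) by positivity)] at h
    apply golomb hab
    by_contra hne
    have h3 : ((2 : ℤ) ^ a - 2 ^ b') - (2 ^ c - 2 ^ d) ≠ 0 := sub_ne_zero.2 hne
    have h4 := Int.one_le_abs h3
    have h5 : (D : ℤ) < (U M b m D : ℤ) := by exact_mod_cast hUD
    nlinarith
  · intro T hT
    have hcast : ∀ a b' : ℕ, b' < K → ((T + U M b m D * 2 ^ a - U M b m D * 2 ^ b' : ℕ) : ℤ) =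
        (T : ℤ) + U M b m D * ((2 : ℤ) ^ a - 2 ^ b') := by
      intro a b' hb'
      have h1 : U M b m D * 2 ^ b' ≤ T := by
        refine le_trans ?_ hT
        exact Nat.mul_le_mul_left _ (Nat.pow_le_pow_right (by norm_num) hb'.le)
      rw [Nat.cast_sub (by omega)]
      push_cast; ring
    set F := (Finset.range K ×ˢ Finset.range K).filter
        fun ab => ab.1 ≠ ab.2 ∧ BadT Ms M b m (T + U M b m D * 2 ^ ab.1 - U M b m D * 2 ^ ab.2)
      with hF
    set F1 : ℕ → Finset (ℕ × ℕ) := fun p => (Finset.range K ×ˢ Finset.range K).filter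
        fun ab => ab.1 ≠ ab.2 ∧ p ∣ (T + U M b m D * 2 ^ ab.1 - U M b m D * 2 ^ ab.2) with hF1
    set F2 : ℕ → Finset (ℕ × ℕ) := fun j => (Finset.range K ×ˢ Finset.range K).filter
        fun ab => ab.1 ≠ ab.2 ∧
          (((T + U M b m D * 2 ^ ab.1 - U M b m D * 2 ^ ab.2) / b ^ j) % b < M ∨
            b ≤ ((T + U M b m D * 2 ^ ab.1 - U M b m D * 2 ^ ab.2) / b ^ j) % b + M) with hF2
    have hsub : F ⊆ Ms.biUnion F1 ∪ (Finset.range m).biUnion F2 := by
      intro ab hab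
      rw [hF, Finset.mem_filter] at hab
      obtain ⟨h1, h2, h3⟩ := hab
      rcases h3 with ⟨p, hp, h3⟩ | ⟨j, hj, h3⟩
      · refine Finset.mem_union_left _ (Finset.mem_biUnion.2 ⟨p, hp, ?_⟩)
        rw [hF1]; exact Finset.mem_filter.2 ⟨h1, h2, h3⟩
      · refine Finset.mem_union_right _ (Finset.mem_biUnion.2 ⟨j, Finset.mem_range.2 hj, ?_⟩)
        rw [hF2]; exact Finset.mem_filter.2 ⟨h1, h2, h3⟩
    have hc1 : ∀ p ∈ Ms, (F1 p).card ≤ 1 := by
      intro p hp
      rw [Finset.card_le_one]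
      rintro ⟨a, b'⟩ h1 ⟨c, d⟩ h2
      rw [hF1, Finset.mem_filter, Finset.mem_product, Finset.mem_range, Finset.mem_range] at h1 h2
      obtain ⟨⟨ha, hb'⟩, hab, hd1⟩ := h1
      obtain ⟨⟨hc, hd⟩, hcd, hd2⟩ := h2
      have hd1z : (p : ℤ) ∣ (T : ℤ) + U M b m D * ((2 : ℤ) ^ a - 2 ^ b') := by
        rw [← hcast a b' hb']; exact_mod_cast hd1
      have hd2z : (p : ℤ) ∣ (T : ℤ) + U M b m D * ((2 : ℤ) ^ c - 2 ^ d) := by
        rw [← hcast c d hd]; exact_mod_cast hd2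
      obtain ⟨q1, q2, q3, q4⟩ := hMs p hp
      have := prime_pair q1 q2 q3 q4 hm hb1 (two_pow_diff ha hb') (two_pow_diff hc hd) hd1z hd2z
      obtain ⟨rfl, rfl⟩ := golomb hab this
      rfl
    have hc2 : ∀ j ∈ Finset.range m, (F2 j).card ≤ 1 := by
      intro j hj
      rw [Finset.card_le_one]
      rintro ⟨a, b'⟩ h1 ⟨c, d⟩ h2
      rw [hF2, Finset.mem_filter, Finset.mem_product, Finset.mem_range, Finset.mem_range] at h1 h2
      obtain ⟨⟨ha, hb'⟩, hab, hd1⟩ := h1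
      obtain ⟨⟨hc, hd⟩, hcd, hd2⟩ := h2
      obtain ⟨q, r, e1, e2, e3⟩ := near_of_digit (by omega : 0 < b) hd1
      obtain ⟨q', r', e1', e2', e3'⟩ := near_of_digit (by omega : 0 < b) hd2
      rw [hcast a b' hb'] at e1
      rw [hcast c d hd] at e1'
      have := digit_pair (Finset.mem_range.1 hj) hM hb (two_pow_diff ha hb')
        (two_pow_diff hc hd) e1 e2 e3 e1' e2' e3'
      obtain ⟨rfl, rfl⟩ := golomb hab this
      rfl
    calc F.card ≤ (Ms.biUnion F1 ∪ (Finset.range m).biUnion F2).card := Finset.card_le_card hsub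
      _ ≤ (Ms.biUnion F1).card + ((Finset.range m).biUnion F2).card := Finset.card_union_le _ _
      _ ≤ Ms.card * 1 + (Finset.range m).card * 1 :=
          Nat.add_le_add (Finset.card_biUnion_le_card_mul _ _ _ hc1)
            (Finset.card_biUnion_le_card_mul _ _ _ hc2)
      _ = Ms.card + m := by simp

end Crest.Agent.R320.Spoil_398
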