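import Crest.Agent.R320.G1Loc_808
import Crest.Agent.R320.Spoil_398

/-!
# Row 320: `Gad1` of helper963 from 808's digit gadget and 398's ruler (helper928)
-/

set_option autoImplicit false

namespace Crest.Agent.R320.Gad_928

open Finset Crest.Agent.R320.Spoil_398

/-- 963's hypothesis, literally -/
def Gad1 (S V : Type) [Monoid S] [AddCommGroup V] (act : V → S → V) : Prop :=
  ∃ C0 : ℕ, ∀ K : ℕ, ∃ (N1 La Per : ℕ) (c : ℕ → ℕ) (Bad : ℕ → Prop), 0 < Per ∧ 0 < N1 ∧
    (∀ i j, i < j → j < K → c i < c j) ∧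
    (∀ k k' l l', k < K → k' < K → l < K → l' < K → k' ≠ k → l' ≠ l →
      c k + c l' < c l + c k' + 2 * N1 → c l + c k' < c k + c l' + 2 * N1 → k = l) ∧
    (∀ T, (∀ k < K, c k ≤ T) → La ≤ T → ∀ F : Finset (ℕ × ℕ),
      (∀ p ∈ F, p.1 < K ∧ p.2 < K ∧ p.1 ≠ p.2 ∧ Bad (T + c p.2 - c p.1)) → F.card ≤ C0) ∧
    (∀ T, La ≤ T → (Bad (T + Per) ↔ Bad T)) ∧
    ∀ (α : Type) (f : α → S), ∃ (lam rho : List α → Option V) (nu : List α → V),
      (∀ P Q v b, lam P = some v → rho Q = some b →
        b = act v ((P ++ Q).map f).prod + nu (P ++ Q)) ∧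
      (∀ P v, lam P = some v → P.length ≤ N1) ∧
      (∀ Y, La ≤ Y.length → ¬ Bad Y.length → ∀ v, ∃ P Q, Y = P ++ Q ∧ lam P = some v ∧
        (rho Q).isSome) ∧
      (∀ u u', La ≤ u.length → La ≤ u'.length → u.take La = u'.take La →
        ((u.drop La).map f).prod = ((u'.drop La).map f).prod →
        u.length % Per = u'.length % Per → nu u = nu u')

/-- distinct primes above any bound -/
theorem exists_primes (k B : ℕ) : ∃ q : Fin k → ℕ, (∀ j, (q j).Prime) ∧ (∀ j, B < q j) ∧
    Function.Injective q := by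
  refine ⟨fun j => Nat.nth Nat.Prime (B + 1 + j), fun j => Nat.prime_nth_prime _, ?_, ?_⟩
  · intro j
    have h : B + 1 + (j : ℕ) ≤ Nat.nth Nat.Prime (B + 1 + (j : ℕ)) :=
      (Nat.nth_strictMono Nat.infinite_setOf_prime).le_apply
    exact lt_of_lt_of_le (by omega) h
  · intro i j h
    have h := (Nat.nth_strictMono Nat.infinite_setOf_prime).injective h
    apply Fin.ext
    omega

theorem badT_period {Ms : Finset ℕ} {M b m : ℕ} (hMs : ∀ k ∈ Ms, k ∣ M) (hb : 0 < b) (n : ℕ) :
    BadT Ms M b (m + 1) (n + b ^ m * M * b) ↔ BadT Ms M b (m + 1) n := by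
  have h1 : ∀ k ∈ Ms, (k ∣ n + b ^ m * M * b ↔ k ∣ n) := by
    intro k hk
    have : k ∣ b ^ m * M * b := ((hMs k hk).mul_left _).mul_right _
    exact (Nat.dvd_add_iff_left this).symm
  have h2 : ∀ j < m + 1, ((n + b ^ m * M * b) / b ^ j) % b = (n / b ^ j) % b := by
    intro j hj
    obtain ⟨i, rfl⟩ : ∃ i, m = j + i := ⟨m - j, by omega⟩
    have e : b ^ (j + i) * M * b = b ^ j * (b ^ i * M * b) := by rw [pow_add]; ring
    rw [e, Nat.add_mul_div_left _ _ (Nat.pow_pos hb), Nat.add_mul_mod_self_right]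
  unfold BadT
  constructor
  · rintro (⟨k, hk, h⟩ | ⟨j, hj, h⟩)
    · exact Or.inl ⟨k, hk, (h1 k hk).1 h⟩
    · rw [h2 j hj] at h
      exact Or.inr ⟨j, hj, h⟩
  · rintro (⟨k, hk, h⟩ | ⟨j, hj, h⟩)
    · exact Or.inl ⟨k, hk, (h1 k hk).2 h⟩
    · rw [← h2 j hj] at h
      exact Or.inr ⟨j, hj, h⟩

theorem gad1 (S V : Type) [Monoid S] [Finite S] [AddCommGroup V] [Finite V]
    (act : V → S → V) : Gad1 S V act := by
  classical
  obtain ⟨m, k, H⟩ := Crest.Agent.R320.G1Loc_808.gadget_loc S V act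
  refine ⟨k + (m + 1), fun K => ?_⟩
  obtain ⟨q, hqp, hqB, hqi⟩ := exists_primes k (2 ^ (K + 1) + m + 2)
  set M := ∏ j, q j with hM
  have hMpos : 0 < M := Finset.prod_pos fun j _ => (hqp j).pos
  set t := (4 * M + 1) * 2 ^ (K + 4) + 4 * M + 4 with ht
  set b := 1 + M * t with hb
  have htb : t < b := by
    have : t ≤ M * t := Nat.le_mul_of_pos_left t hMpos
    omega
  have hdvd : ∀ j, q j ∣ M := fun j => Finset.dvd_prod_of_mem q (Finset.mem_univ j)
  have hcop : ∀ j, Nat.Coprime b (q j) := by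
    intro j
    obtain ⟨r, hr⟩ := hdvd j
    rw [hb, hr, mul_assoc]
    rw [Nat.coprime_add_mul_left_left]
    exact Nat.coprime_one_left _
  have hb0 : 0 < b := by omega
  let Ms : Finset ℕ := Finset.univ.image q
  have hMsc : Ms.card ≤ k := by
    refine (Finset.card_image_le).trans ?_
    rw [Finset.card_univ, Fintype.card_fin]
  have hMsm : ∀ p ∈ Ms, ∃ j, q j = p := by
    intro p hp
    obtain ⟨j, _, h⟩ := Finset.mem_image.1 hp
    exact ⟨j, h⟩
  have hMsd : ∀ p ∈ Ms, p ∣ M := by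
    intro p hp
    obtain ⟨j, rfl⟩ := hMsm p hp
    exact hdvd j
  obtain ⟨x, hx1, hx2, hx3, hx4⟩ := exists_ruler (Ms := Ms) (K := K) (M := M) (b := b)
    (m := m + 1) hMpos (Nat.succ_pos m) (by
      intro p hp
      obtain ⟨j, rfl⟩ := hMsm p hp
      have h1 := hqB j
      have h0 : 0 < 2 ^ (K + 1) := Nat.pow_pos (by norm_num)
      refine ⟨hqp j, hdvd j, ?_, ?_⟩
      · exact lt_of_le_of_lt (by rw [add_assoc]; exact Nat.le_add_right _ _) h1
      · refine lt_of_le_of_lt ?_ h1
        rw [add_assoc]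
        exact (by omega : m + 1 ≤ m + 2).trans (Nat.le_add_left _ _))
    (by
      refine ⟨(t : ℤ), ?_⟩
      rw [hb]
      push_cast
      ring) (by omega) (2 * b ^ m)
  have hN1 : 0 < b ^ m := Nat.pow_pos hb0
  refine ⟨b ^ m, b ^ m + x K, b ^ m * M * b, x, BadT Ms M b (m + 1), ?_, hN1, ?_, ?_, ?_, ?_, ?_⟩
  · exact Nat.mul_pos (Nat.mul_pos hN1 hMpos) hb0
  · intro i j hij _
    exact hx1 hij
  · intro a a' l l' _ _ _ _ ha hl h1 h2
    refine (hx3 a a' l l' (Ne.symm ha) ?_).1
    rw [abs_le]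
    constructor <;> omega
  · intro T _ hT F hF
    have hsub : F.image Prod.swap ⊆ ((Finset.range K ×ˢ Finset.range K).filter
        fun ab => ab.1 ≠ ab.2 ∧ BadT Ms M b (m + 1) (T + x ab.1 - x ab.2)) := by
      intro p hp
      obtain ⟨r, hr, rfl⟩ := Finset.mem_image.1 hp
      obtain ⟨h1, h2, h3, h4⟩ := hF r hr
      rw [Finset.mem_filter, Finset.mem_product, Finset.mem_range, Finset.mem_range]
      exact ⟨⟨h2, h1⟩, Ne.symm h3, h4⟩
    have h5 := Finset.card_le_card hsub
    rw [Finset.card_image_of_injective _ Prod.swap_injective] at h5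
    have h6 := hx4 T (by omega)
    omega
  · intro T _
    exact badT_period hMsd hb0 T
  · intro α f
    obtain ⟨lam, rho, nu, h1, h2, h3, h4⟩ := H q
      (fun j => (hqp j).odd_of_ne_two (by have := hqB j; have := Nat.one_le_two_pow (n := K + 1); omega))
      (fun i j hij => (Nat.coprime_primes (hqp i) (hqp j)).2 fun h => hij (hqi h))
      b (by omega) hcop α (fun w => (w.map f).prod) (by intro u v; simp)
    refine ⟨lam, rho, nu, ?_, ?_, ?_, ?_⟩
    · intro P Q v c hP hQ
      exact h2 P Q v c hP hQ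
    · intro P v hP
      exact (h1 P v hP).le
    · intro Y _ hY v
      obtain ⟨P, Q, e1, e2, e3⟩ := h3 Y (by
        intro j hj
        exact hY (Or.inl ⟨q j, Finset.mem_image_of_mem q (Finset.mem_univ j), hj⟩)) (by
        intro j hj
        by_contra hc
        apply hY
        refine Or.inr ⟨j, by omega, ?_⟩
        by_contra hc'
        push Not at hc'
        exact hc ⟨hc'.1, hc'.2⟩) v
      exact ⟨P, Q, e1, e2, e3⟩
    · intro u u' hu hu' htk hpr hmod
      refine (h4 u u' ?_ ?_ ?_).2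
      · have e : ∀ w : List α, w.take (b ^ m) = (w.take (b ^ m + x K)).take (b ^ m) := by
          intro w
          rw [List.take_take, min_eq_left (Nat.le_add_right _ _)]
        rw [e u, e u', htk]
      · have e : ∀ w : List α, ((w.drop (b ^ m)).map f).prod =
            (((w.take (b ^ m + x K)).drop (b ^ m)).map f).prod *
              ((w.drop (b ^ m + x K)).map f).prod := by
          intro w
          rw [← List.prod_append, ← List.map_append]
          congr 2
          rw [List.drop_take, Nat.add_sub_cancel_left, ← List.drop_drop, List.take_append_drop]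
        show ((u.drop (b ^ m)).map f).prod = ((u'.drop (b ^ m)).map f).prod
        rw [e u, e u', htk, hpr]
      · exact Nat.ModEq.of_mul_right b hmod

end Crest.Agent.R320.Gad_928
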