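import Crest.Agent.R320.GeoT_978
import Crest.Agent.R320.Fib_298
import Crest.Agent.R320.WallU_228
import Crest.Agent.R320.ExactR_237
import Crest.Agent.R320.Bridge_975
import Crest.Agent.R320.Univ_582
import Crest.Agent.R320.Two_621

/-!
# Row 320, end to end: `UGI` (the U-gadget, `Bridge_975.UGI`) implies star height three (helper978)
-/

set_option autoImplicit false

namespace Crest.Agent.R320.End_978

open Finset Crest.Agent.R320.Code110 Crest.Agent.R320.GeoT_978 Crest.Agent.R320.Hk_851
open Crest.Agent.R320.WallU_228 Crest.Agent.R320.FewWalls_228 Crest.Agent.R320.Bridge_975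

section walls

variable {α : Type} [Finite α] {n : ℕ} {Sw : Set (List α)} {z : ℕ}

/-- no wall at places in `[z, |w|)` : at most `z + 1` walls -/
theorem nw_le (w : List α) (h : ∀ t, z ≤ t → t < w.length → ¬ Wo n Sw (w.take t)) :
    nw n Sw w ≤ z + 1 := by
  classical
  unfold nw
  have hsub : ((Finset.range (w.length + 1)).filter (fun x => Wl n Sw w x)) ⊆
      (Finset.range z) ∪ {w.length - n} := by
    intro x hx
    rw [mem_filter] at hx
    obtain ⟨h1, h2⟩ := wo_take.1 hx.2
    rw [mem_union, mem_range, mem_singleton]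
    by_cases hxz : x < z
    · exact Or.inl hxz
    · right
      by_contra hne
      exact h (x + n) (by omega) (by omega) h2
  calc _ ≤ ((Finset.range z) ∪ {w.length - n}).card := card_le_card hsub
    _ ≤ (Finset.range z).card + ({w.length - n} : Finset ℕ).card := card_union_le _ _
    _ = z + 1 := by rw [card_range, card_singleton]

variable {Wo' : List α → Prop} {k : ℕ}

/-- blocks of the natural rule -/
def XX (Wo' : List α → Prop) (z : ℕ) : Language α :=
  {X | z ≤ X.length ∧ Wo' X ∧ ∀ t, z ≤ t → t < X.length → ¬ Wo' (X.take t)}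

theorem HL_Wo (hloc : ∀ P Q : List α, n ≤ Q.length → (Wo' (P ++ Q) ↔ Wo' Q))
    (hlen : ∀ Q : List α, Wo' Q → n ≤ Q.length) : HL k ({X | Wo' X} : Language α) := by
  have h1 : HL k ({Q : List α | Q.length = n ∧ Wo' Q} : Language α) :=
    HL.finite ((List.finite_length_eq α n).subset fun v hv => hv.1)
  refine (HL.mul (HL.top (α := α)) h1).congr fun w => ?_
  constructor
  · intro hw
    have hn : n ≤ w.length := hlen w hw
    refine Language.mem_mul.2 ⟨w.take (w.length - n), trivial, w.drop (w.length - n), ?_,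
      List.take_append_drop _ _⟩
    have hl : (w.drop (w.length - n)).length = n := by
      rw [List.length_drop]; omega
    refine ⟨hl, ?_⟩
    have := (hloc (w.take (w.length - n)) (w.drop (w.length - n)) (by omega)).1
    rw [List.take_append_drop] at this
    exact this hw
  · intro hw
    obtain ⟨P, -, Q, ⟨hQ, hQ'⟩, rfl⟩ := Language.mem_mul.1 hw
    exact (hloc P Q (by omega)).2 hQ'

theorem HL_XX (hloc : ∀ P Q : List α, n ≤ Q.length → (Wo' (P ++ Q) ↔ Wo' Q))
    (hlen : ∀ Q : List α, Wo' Q → n ≤ Q.length) (z : ℕ) : HL k (XX Wo' z : Language α) := by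
  have h1 : HL k ({X | z ≤ X.length ∧ Wo' X} : Language α) :=
    HL.setOf_and (HL.length_ge z) (HL_Wo hloc hlen)
  have h2 := HL.mul h1 (HL.length_ge (α := α) (k := k) 1)
  refine (h1.inf h2.compl).congr fun w => ?_
  constructor
  · rintro ⟨hw1, hw2, hw3⟩
    refine ⟨⟨hw1, hw2⟩, fun hc => ?_⟩
    obtain ⟨P, ⟨hP1, hP2⟩, Q, hQ, rfl⟩ := Language.mem_mul.1 hc
    have hQ1 : 1 ≤ Q.length := hQ
    refine hw3 P.length hP1 (by rw [List.length_append]; omega) ?_
    rw [List.take_left]
    exact hP2
  · rintro ⟨⟨hw1, hw2⟩, hc⟩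
    refine ⟨hw1, hw2, fun t ht1 ht2 ht3 => hc ?_⟩
    refine Language.mem_mul.2 ⟨w.take t, ⟨?_, ht3⟩, w.drop t, ?_, List.take_append_drop _ _⟩
    · rw [List.length_take]; omega
    · show 1 ≤ (w.drop t).length
      rw [List.length_drop]; omega

omit [Finite α] in
theorem no_block {w : List α} (h : ∀ X ∈ XX Wo' z, ¬ X <+: w) :
    ∀ t, z ≤ t → t ≤ w.length → ¬ Wo' (w.take t) := by
  intro t
  induction t using Nat.strong_induction_on with
  | _ t ih =>
    intro h1 h2 h3
    refine h (w.take t) ⟨?_, h3, ?_⟩ (List.take_prefix _ _)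
    · rw [List.length_take]; omega
    · intro s hs1 hs2
      rw [List.length_take] at hs2
      have hst : s < t := by omega
      rw [List.take_take, min_eq_left (by omega : s ≤ t)]
      exact ih s hst hs1 (by omega)

theorem HL_rest (hloc : ∀ P Q : List α, n ≤ Q.length → (Wo' (P ++ Q) ↔ Wo' Q))
    (hlen : ∀ Q : List α, Wo' Q → n ≤ Q.length) (z : ℕ) :
    HL k ({w | ∀ X ∈ XX Wo' z, ¬ X <+: w} : Language α) := by
  have h1 := (HL_XX (k := k) hloc hlen z).prefix.compl
  refine h1.congr fun w => ?_
  constructor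
  · rintro hw ⟨v, hv, hvw⟩
    exact hw v hv hvw
  · intro hw X hX hp
    exact hw ⟨X, hX, hp⟩

end walls

open Classical in
/-- one alphabet, one monoid -/
theorem fibre (α S : Type) [Finite α] [Monoid S] [Finite S] (f : α → S)
    (hU : UGI (V := Two_621.Tok S) (Two_621.act (T := S))) (s : S) :
    HL 3 ({w | (w.map f).prod = s} : Language α) := by
  let V := Two_621.Tok S
  haveI : Fintype S := Fintype.ofFinite S
  haveI : Fintype V := Fintype.ofFinite V
  obtain ⟨C0, hU⟩ := hU
  obtain ⟨K, hE⟩ := ExactR_237.exact_gadget α S V f (Two_621.act (T := S)) (2 + 2 * C0)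
  obtain ⟨N1, Pm, La, c, BadT, hPm, hc, hgol, hper, hcount, hW⟩ := hU K
  obtain ⟨lam1, rho1, nu1, g1L, g1s, g1c, g1f⟩ := hW α f
  obtain ⟨lam2, rho2, nu2, e1, e2⟩ := hE c hc
  let p0 : ℕ := (range K).sup c
  have hcp : ∀ k < K, c k ≤ p0 := fun k hk => Finset.le_sup (f := c) (mem_range.2 hk)
  obtain ⟨n, c', P, Sw, hn, hP, hloc, hsep, -, -, hfew⟩ :=
    walls_full (α := α) (2 * p0 + 2 * N1)
  let z : ℕ := p0 + N1 + n + p0 + La + 1
  let D : G α S V :=
    { φ := fun w => (w.map f).prod
      act := Two_621.act (T := S)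
      Wo := Wo n Sw
      n := n
      W := 2 * p0 + 2 * N1
      z := z
      p0 := p0
      N1 := N1
      La := La
      loc := hloc
      gap := by
        intro X s t hst ht hs ht'
        by_contra hlt
        have := hsep (X.take t) (t - s) ht' (by omega) (by omega)
        apply this
        rw [List.length_take, Nat.min_eq_left ht, List.take_take]
        rw [show min (t - (t - s)) t = s by omega]
        exact hs
      hz := Nat.lt_succ_self _
      hW := le_rfl
      L := lam1
      R := rho1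
      nu1 := nu1
      BadT := BadT
      g1s := fun P Q v b h1 h2 h3 => g1s P Q v b h1 h2 h3
      g1L := g1L
      g1c := g1c
      K := K
      c := c
      hcp := hcp
      golomb := hgol
      C0 := C0
      count := hcount
      lam2 := lam2
      rho2 := fun k Q => rho2 k Q 1
      nu2 := fun u => nu2 u 1
      e1 := by
        intro k hk P Q v b h1 h2 h3
        have := e1 k hk P Q 1 v b h1 h2 h3
        rw [mul_one] at this
        exact this
      e2 := fun u v hu => e2 u 1 v hu }
  have hlen : ∀ Q : List α, Wo n Sw Q → n ≤ Q.length := fun Q h => h.1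
  have hXXreg : (XX (Wo n Sw) z).IsRegular := Reg_236.HL.isRegular (HL_XX (k := 0) hloc hlen z)
  have hblk : ∀ L : Language α, L.IsRegular → (∀ w ∈ L, w ∈ XX (Wo n Sw) z) → HL 1 L := by
    intro L hL hsub
    refine (hfew L hL (z + 1)).congr fun w => ?_
    exact ⟨fun h => ⟨h, nw_le w (hsub w h).2.2⟩, fun h => h.1⟩
  have hnu : ∀ y, Language.IsRegular ({Y | nu1 Y = y} : Language α) := by
    intro y
    refine reg_of_local f La Pm hPm (fun Y => nu1 Y = y) ?_
    intro q q2 a1 a2 a3 a4 a5
    rw [(g1f q q2 a1 a2 a3 a4 a5).2]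
  have hperk : ∀ j T, BadT (T + Pm * j) ↔ BadT T := by
    intro j
    induction j with
    | zero => intro T; rw [Nat.mul_zero, Nat.add_zero]
    | succ j ih => intro T; rw [Nat.mul_succ, ← Nat.add_assoc, hper, ih]
  have hmod : ∀ a b, a % Pm = b % Pm → (BadT a ↔ BadT b) := by
    intro a b hab
    rw [← Nat.mod_add_div a Pm, ← Nat.mod_add_div b Pm, hperk, hperk, hab]
  have hBreg : Language.IsRegular ({X | D.BadX X} : Language α) := by
    refine reg_of_local f (z + N1) Pm hPm (fun X => D.BadX X) ?_
    intro q q2 a1 a2 a3 a4 _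
    have key : ∀ q q2 : List α, z + N1 ≤ q.length → z + N1 ≤ q2.length →
        q.take (z + N1) = q2.take (z + N1) → q.length ≡ q2.length [MOD Pm] →
        D.BadX q → D.BadX q2 := by
      intro q q2 a1 a2 a3 a4 h
      rcases h with ⟨t, ht1, ht2, ht3, ht4⟩ | h
      · left
        have ht4' : t < z + N1 := ht4
        refine ⟨t, by omega, ?_, ht3, ht4⟩
        have e1 : q.take t = (q.take (z + N1)).take t := by
          rw [List.take_take, Nat.min_eq_left ht4'.le]
        have e2 : q2.take t = (q2.take (z + N1)).take t := by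
          rw [List.take_take, Nat.min_eq_left ht4'.le]
        rw [e2, ← a3, ← e1]
        exact ht2
      · right
        refine (hmod _ _ ?_).1 h
        have hp0 : p0 ≤ q.length := by omega
        have hp0' : p0 ≤ q2.length := by omega
        have h3 : (q.length - p0) + p0 ≡ (q2.length - p0) + p0 [MOD Pm] := by
          rw [Nat.sub_add_cancel hp0, Nat.sub_add_cancel hp0']
          exact a4
        exact Nat.ModEq.add_right_cancel' p0 h3
    exact ⟨key q q2 a1 a2 a3 a4, key q2 q a2 a1 a3.symm a4.symm⟩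
  have hpz : p0 ≤ z := by omega
  have H1 : HL 1 D.XX := hblk _ hXXreg fun w hw => hw
  have H2 : HL 1 D.Bad := by
    refine (hblk (XX (Wo n Sw) z ⊓ ({X | D.BadX X} : Language α)) (hXXreg.inf hBreg)
      fun w hw => hw.1).congr fun w => ?_
    exact Iff.rfl
  have H3 : ∀ x y, HL 1 (ZT D.XX D.T x y) := by
    intro x y
    have h1 := Fib_298.isRegular_TT (Two_621.act (T := S)) f p0
      (fun v X0 => Two_621.act v (X0.map f).prod + nu2 X0 1) nu1 hnu x y
    refine (hblk _ (hXXreg.inf h1) fun w hw => hw.1).congr fun w => ?_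
    constructor
    · rintro ⟨hw1, hw2⟩
      exact ⟨hw1, hpz.trans hw1.1, hw2⟩
    · rintro ⟨hw1, -, hw2⟩
      exact ⟨hw1, hw2⟩
  have H4 : ∀ s : S, HL 3 ({w | (∀ u ∈ D.XX, ¬ u <+: w) ∧ D.φ w = s} : Language α) := by
    intro s
    have h1 : Language.IsRegular (({w | ∀ X ∈ XX (Wo n Sw) z, ¬ X <+: w} : Language α) ⊓
        ({w | (w.map f).prod = s} : Language α)) :=
      (Reg_236.HL.isRegular (HL_rest (k := 0) hloc hlen z)).inf (Fib_298.isRegular_fib f s)
    refine ((hfew _ h1 (z + 1)).mono (by norm_num)).congr fun w => ?_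
    constructor
    · rintro ⟨hw1, hw2⟩
      refine ⟨⟨hw1, hw2⟩, nw_le w fun t ht1 ht2 => no_block hw1 t ht1 ht2.le⟩
    · rintro ⟨⟨hw1, hw2⟩, -⟩
      exact ⟨hw1, hw2⟩
  exact Top5_110.top_sem (XX := D.XX) (Bad := D.Bad) (T := D.T) (φ := D.φ) (act := D.act)
    (by simp [D]) (by intro u w; simp [D]) Two_621.act_one
    (fun v s t => (Two_621.act_mul v s t).symm) (fun s t h => Two_621.act_faithful h)
    D.pc (fun u hu => hu.1)
    (by
      intro u hu v v'
      have hT : ∀ w, D.T u w = Two_621.act w (D.φ u) +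
          (Two_621.act (D.nu2 (u.take D.p0)) (D.φ (u.drop D.p0)) + D.nu1 (u.drop D.p0)) := by
        intro w
        have h0 : D.T u w = Two_621.act (Two_621.act w (D.φ (u.take D.p0)) + D.nu2 (u.take D.p0))
          (D.φ (u.drop D.p0)) + D.nu1 (u.drop D.p0) := rfl
        have h1 : D.φ u = D.φ (u.take D.p0) * D.φ (u.drop D.p0) := by
          show (u.map f).prod = ((u.take D.p0).map f).prod * ((u.drop D.p0).map f).prod
          rw [← List.prod_append, ← List.map_append, List.take_append_drop]
        rw [h0, Two_621.act_add, Two_621.act_mul, h1, add_assoc]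
      rw [hT, hT, add_sub_add_right_eq_sub]
      funext x
      rfl)
    H1 H2 H3 H4 D.F1 D.F2 D.C1 D.C2 s

/-- **the row from the closed gadget** -/
theorem row (hU : ∀ (S : Type) [Monoid S] [Finite S],
      UGI (V := Two_621.Tok S) (Two_621.act (T := S)))
    (α : Type*) [Finite α] (L : Language α) (hL : L.IsRegular) :
    ∃ e : Crest.RegLang.GRegExp α, e.height ≤ 3 ∧ e.lang = L :=
  Univ_582.final (fun β _ S _ _ φ s => fibre β S φ (hU S) s) α L hL

end Crest.Agent.R320.End_978
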