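import Crest.Agent.R320.Engine_150

/-!
# Row 320: read-off and top (helper150)
-/

set_option autoImplicit false
set_option linter.unusedSectionVars false

namespace Crest.Agent.R320.Engine_150

open Crest.RegLang Crest.Agent.R320.Hk_851

universe u v w

variable {α : Type u}

section ReadOff

variable {V : Type v} {W : Type w} [AddCommGroup W] {σ : Seg α} {Φ : List α → Prop}

theorem Reach.uniq {act : List α → V → V} {s Y : List α} {v a a' : V}
    (h : Reach σ Φ act s v Y a) (h' : Reach σ Φ act s v Y a') : a = a' := by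
  have h1 := h.det h' le_rfl
  cases h1 with
  | refl => rfl
  | cons e1 _ e3 =>
    have hl := e3.suffix.length_le
    have hv := σ.vis _ _ e1
    have hp := σ.pos _ _ e1
    rw [List.length_drop] at hl
    omega

/-- the action with noise. -/
def nact (ρ : (V → V) → W →+ W) (act : List α → V → V) (ν : List α → W) : List α → W → W :=
  fun s x => ρ (act s) x + ν s

variable (ρ : (V → V) → W →+ W) (hρ1 : ∀ x, ρ id x = x)
  (hρ2 : ∀ f g x, ρ (g ∘ f) x = ρ g (ρ f x)) (act : List α → V → V) (ν : List α → W)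

include hρ1 hρ2 in
theorem exists_lin {U : Type*} {act3 : List α → U → U} {s Y : List α} {x x' : U}
    (h : Reach σ Φ act3 s x Y x') : ∃ (m : V → V) (c : W),
      (∀ v, Reach σ Φ act s v Y (m v)) ∧
      (∀ t, Reach σ Φ (nact ρ act ν) s t Y (ρ m t + c)) := by
  induction h with
  | refl s v =>
    refine ⟨id, 0, fun v => Reach.refl _ _, fun t => ?_⟩
    rw [hρ1, add_zero]
    exact Reach.refl _ _
  | @cons s v T Y v' h1 h2 h3 ih =>
    obtain ⟨m, c, e1, e2⟩ := ih
    refine ⟨m ∘ act s, ρ m (ν s) + c, fun v => Reach.cons h1 h2 (e1 _), fun t => ?_⟩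
    refine Reach.cons h1 h2 ?_
    have := e2 (nact ρ act ν s t)
    have e : ρ m (nact ρ act ν s t) + c = ρ (m ∘ act s) t + (ρ m (ν s) + c) := by
      simp only [nact, map_add, hρ2, add_assoc]
    rwa [e] at this

include hρ1 hρ2 in
theorem tr_readoff (w0 : W) (hw0 : Function.Injective fun m => ρ m w0) (v v' : V) (y : List α)
    (w : List α) :
    w ∈ Tr σ Φ act v v' y ↔ ∃ x : W × W × (V → V), (x.2.1 - x.1 = ρ x.2.2 w0 ∧ x.2.2 v = v') ∧
      w ∈ Tr σ Φ (nact ρ act ν) 0 x.1 y ∧ w ∈ Tr σ Φ (nact ρ act ν) w0 x.2.1 y := by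
  constructor
  · intro h
    obtain ⟨m, c, e1, e2⟩ := exists_lin ρ hρ1 hρ2 act ν h
    refine ⟨(ρ m 0 + c, ρ m w0 + c, m), ⟨?_, (e1 v).uniq h⟩, e2 0, e2 w0⟩
    simp
  · rintro ⟨⟨a, b, m⟩, ⟨h1, h2⟩, h3, h4⟩
    obtain ⟨m', c, e1, e2⟩ := exists_lin ρ hρ1 hρ2 act ν h3
    have ha : ρ m' 0 + c = a := (e2 0).uniq h3
    have hb : ρ m' w0 + c = b := (e2 w0).uniq h4
    have : m' = m := by
      apply hw0
      change ρ m' w0 = ρ m w0
      change b - a = ρ m w0 at h1
      rw [← h1, ← ha, ← hb]; simp
    subst this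
    change m' v = v' at h2
    rw [← h2]
    exact e1 v

variable [Finite V] [Finite W] {k : ℕ}

include hρ1 hρ2 in
/-- **Read-off**: the noisy actions are enough. -/
theorem hl_readoff (w0 : W) (hw0 : Function.Injective fun m => ρ m w0)
    (h : ∀ x x' (y : List α), y.length = σ.n → HL k (Tr σ Φ (nact ρ act ν) x x' y))
    (v v' : V) (y : List α) (hy : y.length = σ.n) : HL k (Tr σ Φ act v v' y) := by
  have h1 := HL.iUnion (k := k) (fun x : W × W × (V → V) =>
    (HL.const (α := α) (k := k) (x.2.1 - x.1 = ρ x.2.2 w0 ∧ x.2.2 v = v')).inf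
      ((h 0 x.1 y hy).inf (h w0 x.2.1 y hy)))
  refine h1.congr fun w => ?_
  exact tr_readoff ρ hρ1 hρ2 act ν w0 hw0 v v' y w

end ReadOff

theorem finite_std (V : Type v) [Finite V] : Finite ((V → V) →₀ ZMod 2) :=
  Finite.of_injective (fun f => (f : (V → V) → ZMod 2)) DFunLike.coe_injective

/-- the standard module `(V → V) → ZMod 2`. -/
noncomputable def rhoStd {V : Type v} [Finite V] : (V → V) → ((V → V) →₀ ZMod 2) →+ ((V → V) →₀ ZMod 2) :=
  fun g => Finsupp.mapDomain.addMonoidHom (fun f => g ∘ f)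

theorem rhoStd_id {V : Type v} [Finite V] (x : (V → V) →₀ ZMod 2) : rhoStd id x = x := by
  simp only [rhoStd, Finsupp.mapDomain.addMonoidHom_apply]
  exact Finsupp.mapDomain_id

theorem rhoStd_comp {V : Type v} [Finite V] (f g : V → V) (x : (V → V) →₀ ZMod 2) :
    rhoStd (g ∘ f) x = rhoStd g (rhoStd f x) := by
  simp only [rhoStd, Finsupp.mapDomain.addMonoidHom_apply]
  rw [← Finsupp.mapDomain_comp]
  rfl

theorem rhoStd_inj {V : Type v} [Finite V] :
    Function.Injective fun m : V → V => rhoStd m (Finsupp.single id (1 : ZMod 2)) := by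
  intro m m' h
  simp only [rhoStd, Finsupp.mapDomain.addMonoidHom_apply, Finsupp.mapDomain_single] at h
  have := Finsupp.single_left_injective (one_ne_zero) h
  simpa using this

section Top

variable {S : Type v} [Monoid S] (φ : α → S) (σ : Seg α)

/-- zone map of a morphism. -/
noncomputable def zact : List α → S → S := fun s v =>
  match σ.step s with
  | some T => v * ((s.take T).map φ).prod
  | none => v

theorem zact_loc : σ.Loc (zact φ σ) := by
  intro s T r h
  funext v
  have hv := σ.vis _ _ h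
  simp only [zact, h, σ.ext _ _ r h]
  rw [List.take_append_of_le_length (by omega)]

theorem Reach.prod {Φ : List α → Prop} {s Y : List α} {v v' : S}
    (h : Reach σ Φ (zact φ σ) s v Y v') : v * (s.map φ).prod = v' * (Y.map φ).prod := by
  induction h with
  | refl s v => rfl
  | @cons s v T Y v' h1 h2 h3 ih =>
    rw [← ih]
    simp only [zact, h1]
    conv_lhs => rw [← List.take_append_drop T s, List.map_append, List.prod_append]
    rw [mul_assoc]

theorem exists_stop {V : Type v} (act : List α → V → V) : ∀ (n : ℕ) (s : List α) (v : V),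
    s.length ≤ n → ∃ Y v', Reach σ (fun _ => True) act s v Y v' ∧ σ.step Y = none ∧
      (σ.n ≤ s.length → σ.n ≤ Y.length) := by
  intro n
  induction n with
  | zero =>
    intro s v hs
    refine ⟨s, v, Reach.refl _ _, ?_, fun h => h⟩
    by_contra h
    obtain ⟨T, hT⟩ := Option.ne_none_iff_exists'.1 h
    have := σ.vis _ _ hT
    have := σ.npos
    omega
  | succ n ih =>
    intro s v hs
    by_cases h : σ.step s = none
    · exact ⟨s, v, Reach.refl _ _, h, fun h => h⟩
    · obtain ⟨T, hT⟩ := Option.ne_none_iff_exists'.1 h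
      have h1 := σ.vis _ _ hT
      have h2 := σ.pos _ _ hT
      obtain ⟨Y, v', h3, h4, h5⟩ := ih (s.drop T) (act s v) (by rw [List.length_drop]; omega)
      refine ⟨Y, v', Reach.cons hT trivial h3, h4, fun _ => h5 ?_⟩
      rw [List.length_drop]; omega

variable [Finite α] [Finite S] {k : ℕ}

/-- words where the chain cannot make a step. -/
def Stop (g : S) : Language α := {Y | σ.step Y = none ∧ (Y.map φ).prod = g}

/-- **Top**: from transfer languages to fibres of morphisms. -/
theorem top_step (hstop : ∀ g, HL k (Stop φ σ g))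
    (hTr : ∀ v v' (y : List α), y.length = σ.n →
      HL k (Tr σ (fun _ => True) (zact φ σ) v v' y)) (g : S) :
    HL k ({w | (w.map φ).prod = g} : Language α) := by
  have h1 : HL k ({w : List α | w.length < σ.n ∧ (w.map φ).prod = g} : Language α) :=
    HL.finite ((List.finite_length_lt α σ.n).subset fun w hw => hw.1)
  have h2 := HL.iUnion (k := k) (fun x : S × S => HL.biUnion (k := k)
    (List.finite_length_eq α σ.n)
    (L := fun y => (Tr σ (fun _ => True) (zact φ σ) 1 x.1 y * (Stop φ σ x.2 ⊓ Px y)) ⊓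
      ({_w | x.1 * x.2 = g} : Set (List α)))
    (fun y hy => ((hTr 1 x.1 y hy).mul ((hstop x.2).inf (hl_Px y))).inf (HL.const _)))
  refine (h1.setOf_or h2).congr fun w => ?_
  constructor
  · intro hw
    by_cases hn : w.length < σ.n
    · exact Or.inl ⟨hn, hw⟩
    · right
      obtain ⟨Y, v', h3, h4, h5⟩ := exists_stop σ (zact φ σ) w.length w 1 le_rfl
      have hY := h5 (by omega)
      have h6 := Reach.prod φ σ h3
      obtain ⟨w1, rfl⟩ := h3.suffix
      refine ⟨(v', (Y.map φ).prod), Y.take σ.n, by simp [hY], Language.mem_mul.2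
        ⟨w1, ?_, Y, ⟨⟨h4, rfl⟩, List.take_prefix _ _⟩, rfl⟩, ?_⟩
      · refine h3.res (fun s T r h => rfl) (zact_loc φ σ) _ _ (Y.drop σ.n) ?_
          (List.take_append_drop _ _).symm (by rw [List.length_take]; omega)
        rw [List.append_assoc, List.take_append_drop]
      · change v' * (Y.map φ).prod = g
        rw [← h6, one_mul]
        exact hw
  · rintro (⟨-, hw⟩ | ⟨⟨v', g'⟩, y, hy, hw, hg⟩)
    · exact hw
    · obtain ⟨w1, h3, Y, ⟨⟨h4, h4'⟩, r, rfl⟩, rfl⟩ := Language.mem_mul.1 hw
      have h5 := Reach.ext (fun s T r h => rfl) (zact_loc φ σ) h3 r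
      rw [List.append_assoc] at h5
      have h6 := Reach.prod φ σ h5
      change ((w1 ++ (y ++ r)).map φ).prod = g
      rw [one_mul] at h6
      rw [h6, h4']
      exact hg

end Top

/-- the property proved level by level. -/
def PP (σ : Seg α) (k : ℕ) (Φ : List α → Prop) : Prop :=
  ∀ (V : Type u) [Finite V] (act : List α → V → V), σ.Loc act → ∀ (v v' : V) (y : List α),
    y.length = σ.n → HL k (Tr σ Φ act v v' y)

/-- level data for one zone map. -/
structure LevelData [Finite α] (σ : Seg α) (k : ℕ) (Φ Bad : List α → Prop) {V : Type u}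
    [Finite V] (act : List α → V → V) where
  ν : List α → ((V → V) →₀ ZMod 2)
  locν : σ.Loc ν
  S : Scheme σ Φ Bad (nact rhoStd act ν)
  hLL : ∀ v, HL k (LLl S v)
  hR : ∀ b (z : List α), z.length = σ.n → HL k (Rl S b z)

theorem nact_loc {V : Type v} {W : Type w} [AddCommGroup W] {σ : Seg α}
    (ρ : (V → V) → W →+ W) {act : List α → V → V} {ν : List α → W} (ha : σ.Loc act)
    (hν : σ.Loc ν) : σ.Loc (nact ρ act ν) := by
  intro s T r h
  funext x
  simp only [nact, ha s T r h, hν s T r h]

theorem PP_succ [Finite α] {σ : Seg α} {k : ℕ} {Φ Bad : List α → Prop} (hΦ : σ.Loc Φ)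
    (hB : σ.Loc Bad) (hBΦ : ∀ s, Bad s → Φ s) (hNQ : HL k (NQ σ Φ))
    (hD : ∀ (V : Type u) [Finite V] (act : List α → V → V), σ.Loc act →
      Nonempty (LevelData σ k Φ Bad act))
    (h : PP σ k Bad) : PP σ (k + 1) Φ := by
  intro V _ act hact v v' y hy
  obtain ⟨D⟩ := hD V act hact
  have : Finite ((V → V) →₀ ZMod 2) := finite_std V
  refine hl_readoff rhoStd rhoStd_id rhoStd_comp act D.ν (Finsupp.single id (1 : ZMod 2))
    rhoStd_inj (fun x x' y hy => ?_) v v' y hy
  exact level_step D.S hΦ hB (nact_loc _ hact D.locν) hBΦ D.hLL D.hR hNQ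
    (fun v v' y hy => h _ _ (nact_loc _ hact D.locν) v v' y hy) x x' y hy

/-- level 0: no zone is allowed. -/
theorem PP_zero (σ : Seg α) : PP σ 0 (fun _ => False) := by
  intro V _ act _ v v' y hy
  by_cases hv : v = v'
  · subst hv
    refine (HL.one (k := 0) (α := α)).congr fun w => ?_
    constructor
    · intro h
      have h' : Reach σ (fun _ => False) act (w ++ y) v y v := h
      generalize hs : w ++ y = s at h'
      cases h' with
      | refl =>
        have := congrArg List.length hs
        rw [List.length_append] at this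
        have h0 : w = [] := List.length_eq_zero_iff.1 (by omega)
        exact h0
      | cons _ h2 _ => exact h2.elim
    · intro h
      have : w = [] := h
      subst this
      exact Reach.refl _ _
  · refine (HL.bot (k := 0) (α := α)).congr fun w => ⟨fun h => ?_, fun h => h.elim⟩
    have h' : Reach σ (fun _ => False) act (w ++ y) v y v' := h
    generalize hs : w ++ y = s at h'
    cases h' with
    | refl => exact (hv rfl).elim
    | cons _ h2 _ => exact h2.elim

/-- **Row 320 from level data**: it is enough to have, for every finite monoid and morphism, a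
segmentation with stop languages of height `3` and level data for
`False ≤ Bad₂ ≤ Bad₁ ≤ True`. -/
theorem main [Finite α]
    (H : ∀ (S : Type u) [Monoid S] [Finite S] (φ : α → S), ∃ σ : Seg α,
      (∀ g, HL 3 (Stop φ σ g)) ∧ ∃ B1 B2 : List α → Prop, σ.Loc B1 ∧ σ.Loc B2 ∧
        (∀ s, B2 s → B1 s) ∧ HL 0 (NQ σ B2) ∧ HL 1 (NQ σ B1) ∧
        (∀ (V : Type u) [Finite V] (act : List α → V → V), σ.Loc act →
          Nonempty (LevelData σ 0 B2 (fun _ => False) act)) ∧
        (∀ (V : Type u) [Finite V] (act : List α → V → V), σ.Loc act →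
          Nonempty (LevelData σ 1 B1 B2 act)) ∧
        Nonempty (LevelData σ 2 (fun _ => True) B1 (zact φ σ)))
    (L : Language α) (hL : L.IsRegular) : HL 3 L := by
  refine of_monoid (fun S _ _ φ g => ?_) L hL
  obtain ⟨σ, hstop, B1, B2, hB1, hB2, h21, hN2, hN1, hD0, hD1, ⟨D2⟩⟩ := H S φ
  refine top_step φ σ hstop ?_ g
  have P1 : PP σ 1 B2 := PP_succ (k := 0) hB2 (fun _ _ _ _ => rfl) (fun _ h => h.elim) hN2 hD0
    (PP_zero σ)
  have P2 : PP σ 2 B1 := PP_succ (k := 1) hB1 hB2 h21 hN1 hD1 P1
  intro v v' y hy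
  have : Finite ((S → S) →₀ ZMod 2) := finite_std S
  refine hl_readoff rhoStd rhoStd_id rhoStd_comp (zact φ σ) D2.ν
    (Finsupp.single id (1 : ZMod 2)) rhoStd_inj (fun x x' y hy => ?_) v v' y hy
  refine level_step D2.S (fun _ _ _ _ => rfl) hB1 (nact_loc _ (zact_loc φ σ) D2.locν)
    (fun _ _ => trivial) D2.hLL D2.hR ?_
    (fun v v' y hy => P2 _ _ (nact_loc _ (zact_loc φ σ) D2.locν) v v' y hy) x x' y hy
  refine (HL.bot (k := 2) (α := α)).congr fun w => ⟨?_, fun h => h.elim⟩
  rintro ⟨T, -, -, h⟩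
  exact (h trivial).elim

end Crest.Agent.R320.Engine_150
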