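import Crest.Agent.R320.Hk2_851

/-!
# Row 320: the level step (helper150)

Right-looking segmentation processes, chains of zones, junction schemes, and the theorem
"a scheme which is exact on `Φ`-zones and complete on `Φ`-and-not-`Bad` zones turns
height `k` for chains of `Bad` zones into height `k + 1` for chains of `Φ` zones".
-/

set_option autoImplicit false
set_option linter.unusedSectionVars false

namespace Crest.Agent.R320.Engine_150

open Crest.RegLang Crest.Agent.R320.Hk_851

universe u v

variable {α : Type u}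

theorem drop_len_add (Y s : List α) (T : ℕ) : (Y ++ s).drop (Y.length + T) = s.drop T := by
  simp [List.drop_append]

/-- A right-looking segmentation: `step s = some T` means that the zone which starts the word `s`
has length `T`; this is visible in the first `T + n` letters. -/
structure Seg (α : Type u) where
  n : ℕ
  step : List α → Option ℕ
  npos : 1 ≤ n
  pos : ∀ s T, step s = some T → 1 ≤ T
  vis : ∀ s T, step s = some T → T + n ≤ s.length
  ext : ∀ s T r, step s = some T → step (s ++ r) = some T
  res : ∀ s T r, step (s ++ r) = some T → T + n ≤ s.length → step s = some T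

/-- `f` only depends on the visible zone. -/
def Seg.Loc {β : Type*} (σ : Seg α) (f : List α → β) : Prop :=
  ∀ s T r, σ.step s = some T → f (s ++ r) = f s

/-- the chain of zones from `s`, token `v`, all zones in `Φ`, reaches the suffix `Y` with token
`v'`. -/
inductive Reach {V : Type v} (σ : Seg α) (Φ : List α → Prop) (act : List α → V → V) :
    List α → V → List α → V → Prop
  | refl (s : List α) (v : V) : Reach σ Φ act s v s v
  | cons {s : List α} {v : V} {T : ℕ} {Y : List α} {v' : V} :
      σ.step s = some T → Φ s → Reach σ Φ act (s.drop T) (act s v) Y v' → Reach σ Φ act s v Y v'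

section Reach

variable {V : Type v} {σ : Seg α} {Φ : List α → Prop} {act : List α → V → V}

theorem Reach.suffix {s Y : List α} {v v' : V} (h : Reach σ Φ act s v Y v') : Y <:+ s := by
  induction h with
  | refl s v => exact List.suffix_refl s
  | cons h1 h2 h3 ih => exact ih.trans (List.drop_suffix _ _)

theorem Reach.mono {Ψ : List α → Prop} (hΨ : ∀ s, Φ s → Ψ s) {s Y : List α} {v v' : V}
    (h : Reach σ Φ act s v Y v') : Reach σ Ψ act s v Y v' := by
  induction h with
  | refl s v => exact Reach.refl s v
  | cons h1 h2 h3 ih => exact Reach.cons h1 (hΨ _ h2) ih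

theorem Reach.trans {s Y Z : List α} {v v' v'' : V} (h : Reach σ Φ act s v Y v')
    (h' : Reach σ Φ act Y v' Z v'') : Reach σ Φ act s v Z v'' := by
  induction h with
  | refl s v => exact h'
  | cons h1 h2 h3 ih => exact Reach.cons h1 h2 (ih h')

theorem Reach.ext (hΦ : σ.Loc Φ) (hact : σ.Loc act) {s Y : List α} {v v' : V}
    (h : Reach σ Φ act s v Y v') (r : List α) : Reach σ Φ act (s ++ r) v (Y ++ r) v' := by
  induction h with
  | refl s v => exact Reach.refl _ v
  | @cons s v T Y v' h1 h2 h3 ih =>
    have hT : T ≤ s.length := by have := σ.vis s T h1; omega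
    refine Reach.cons (σ.ext s T r h1) ((hΦ s T r h1).symm ▸ h2) ?_
    rw [hact s T r h1, List.drop_append_of_le_length hT]
    exact ih

theorem Reach.res (hΦ : σ.Loc Φ) (hact : σ.Loc act) {S Z : List α} {v v' : V}
    (h : Reach σ Φ act S v Z v') : ∀ (s Y r : List α), S = s ++ r → Z = Y ++ r → σ.n ≤ Y.length →
      Reach σ Φ act s v Y v' := by
  induction h with
  | refl S v =>
    intro s Y r h1 h2 _
    have : s = Y := List.append_cancel_right (h1.symm.trans h2)
    exact this ▸ Reach.refl s v
  | @cons S v T Z v' h1 h2 h3 ih =>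
    intro s Y r hS hZ hn
    subst hS hZ
    have hl := h3.suffix.length_le
    rw [List.length_append, List.length_drop, List.length_append] at hl
    have hv := σ.vis _ _ h1
    rw [List.length_append] at hv
    have hT : T + σ.n ≤ s.length := by omega
    have h1' := σ.res s T r h1 hT
    refine Reach.cons h1' ((hΦ s T r h1') ▸ h2) ?_
    have := ih (s.drop T) Y r (by
      rw [List.drop_append_of_le_length (by omega)]) rfl hn
    rwa [hact s T r h1'] at this

theorem Reach.det {s Y Z : List α} {v v' v'' : V} (h : Reach σ Φ act s v Y v')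
    (h' : Reach σ Φ act s v Z v'') (hl : Z.length ≤ Y.length) : Reach σ Φ act Y v' Z v'' := by
  induction h with
  | refl s v => exact h'
  | @cons s v T Y v' h1 h2 h3 ih =>
    cases h' with
    | refl =>
      have hl' := h3.suffix.length_le
      have hv := σ.vis _ _ h1
      have hp := σ.pos _ _ h1
      rw [List.length_drop] at hl'
      omega
    | cons h1' h2' h3' =>
      rw [h1] at h1'
      obtain rfl := Option.some.inj h1'
      exact ih h3' hl

end Reach

/-- transfer language: `w` such that the chain from `w ++ y` reaches exactly `y`. -/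
def Tr {V : Type v} (σ : Seg α) (Φ : List α → Prop) (act : List α → V → V) (v v' : V)
    (y : List α) : Language α := {w | Reach σ Φ act (w ++ y) v y v'}

/-- junction scheme with promise `Φ`, complete outside `Bad`. -/
structure Scheme {V : Type v} (σ : Seg α) (Φ Bad : List α → Prop) (act : List α → V → V) where
  /-- `LL v Y`: the piece `Y` (from the anchor to the cut) is left-legal for the token `v`. -/
  LL : V → List α → Prop
  /-- `R b T s`: the suffix `s` (from the cut) is right-legal, the zone ends after `T` letters, with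
  token `b`. -/
  R : V → ℕ → List α → Prop
  LLn : ∀ v Y, LL v Y → σ.n ≤ Y.length
  Rvis : ∀ b T s, R b T s → T + σ.n ≤ s.length
  Rext : ∀ b T s r, R b T s → R b T (s ++ r)
  Rres : ∀ b T s r, R b T (s ++ r) → T + σ.n ≤ s.length → R b T s
  exact : ∀ v b T Y s, LL v Y → R b T s → ∃ T0, σ.step (Y ++ s) = some T0 ∧
    (Φ (Y ++ s) → T0 = Y.length + T ∧ act (Y ++ s) v = b)
  complete : ∀ s T0 v, σ.step s = some T0 → Φ s → ¬ Bad s →
    ∃ Y s' b T, s = Y ++ s' ∧ LL v Y ∧ R b T s'

section Level

variable {V : Type v} {σ : Seg α} {Φ Bad : List α → Prop} {act : List α → V → V}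
  (S : Scheme σ Φ Bad act)

/-- from the anchor to the first cut. -/
def Pre (v : V) : Language α := {w | ∃ Y v', Reach σ Bad act w v Y v' ∧ S.LL v' Y}

/-- from a cut to the next cut. -/
def Kw : Language α := {w | ∃ b T, S.R b T w ∧ w.drop T ∈ Pre S b}

/-- from the last cut to the anchor `y`. -/
def Suf (v' : V) (y : List α) : Language α :=
  {t | ∃ b T, S.R b T (t ++ y) ∧ Reach σ Bad act ((t ++ y).drop T) b y v'}

/-- the level language. -/
def XX (v v' : V) (y : List α) : Language α :=
  Tr σ Bad act v v' y + Pre S v * (KStar.kstar (Kw S) * Suf S v' y)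

/-- the chain meets a zone outside `Φ` before its last `l` letters. -/
def Fail (σ : Seg α) (Φ : List α → Prop) (act : List α → V → V) (v : V) (l : ℕ) (u : List α) :
    Prop := ∃ s' v'' T, Reach σ Φ act u v s' v'' ∧ σ.step s' = some T ∧ ¬ Φ s' ∧ l < s'.length

theorem Fail.of_reach {v v' : V} {l : ℕ} {u Y : List α} (h : Reach σ Φ act u v Y v')
    (h' : Fail σ Φ act v' l Y) : Fail σ Φ act v l u := by
  obtain ⟨s', v'', T, h1, h2, h3, h4⟩ := h'
  exact ⟨s', v'', T, h.trans h1, h2, h3, h4⟩

variable (hΦ : σ.Loc Φ) (hB : σ.Loc Bad) (hact : σ.Loc act) (hBΦ : ∀ s, Bad s → Φ s)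

include hΦ hB hact hBΦ in
theorem sound_aux (v' : V) (y : List α) (hy : y.length = σ.n) (t : List α) (ht : t ∈ Suf S v' y) :
    ∀ (ws : List (List α)), (∀ w ∈ ws, w ∈ Kw S) → ∀ (Y : List α) (v : V), S.LL v Y →
      Reach σ Φ act (Y ++ (ws.flatten ++ (t ++ y))) v y v' ∨
        Fail σ Φ act v σ.n (Y ++ (ws.flatten ++ (t ++ y))) := by
  intro ws
  induction ws with
  | nil =>
    intro _ Y v hY
    obtain ⟨b, T, h1, h2⟩ := ht
    simp only [List.flatten_nil, List.nil_append]
    obtain ⟨T0, e1, e2⟩ := S.exact v b T Y (t ++ y) hY h1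
    have hT := S.Rvis _ _ _ h1
    have hYn := S.LLn _ _ hY
    have hnp := σ.npos
    by_cases hp : Φ (Y ++ (t ++ y))
    · left
      obtain ⟨rfl, e3⟩ := e2 hp
      refine Reach.cons e1 hp ?_
      rw [e3, drop_len_add]
      exact h2.mono hBΦ
    · right
      refine ⟨_, v, T0, Reach.refl _ _, e1, hp, ?_⟩
      simp only [List.length_append] at hT ⊢
      omega
  | cons w ws ih =>
    intro hws Y v hY
    obtain ⟨b, T, h1, Y', v1, h3, h4⟩ := hws w (by simp)
    have hws' : ∀ w ∈ ws, w ∈ Kw S := fun x hx => hws x (by simp [hx])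
    set r : List α := ws.flatten ++ (t ++ y) with hr
    have e0 : (w :: ws).flatten ++ (t ++ y) = w ++ r := by simp [hr]
    rw [e0]
    have h1' := S.Rext _ _ _ r h1
    obtain ⟨T0, e1, e2⟩ := S.exact v b T Y (w ++ r) hY h1'
    have hT := S.Rvis _ _ _ h1
    have hYn := S.LLn _ _ hY
    have hnp := σ.npos
    by_cases hp : Φ (Y ++ (w ++ r))
    · obtain ⟨rfl, e3⟩ := e2 hp
      have hstep : ∀ {Z : List α} {z : V}, Reach σ Φ act ((w ++ r).drop T) b Z z →
          Reach σ Φ act (Y ++ (w ++ r)) v Z z := by
        intro Z z hz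
        refine Reach.cons e1 hp ?_
        rw [e3, drop_len_add]
        exact hz
      have h3' : Reach σ Φ act ((w ++ r).drop T) b (Y' ++ r) v1 := by
        rw [List.drop_append_of_le_length (by omega)]
        exact (h3.mono hBΦ).ext hΦ hact r
      have h5 := hstep h3'
      rcases ih hws' Y' v1 h4 with h6 | h6
      · exact Or.inl (h5.trans h6)
      · exact Or.inr (Fail.of_reach h5 h6)
    · right
      refine ⟨_, v, T0, Reach.refl _ _, e1, hp, ?_⟩
      have hyr : σ.n ≤ r.length := by rw [hr]; simp only [List.length_append]; omega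
      simp only [List.length_append] at hT hyr ⊢
      omega

include hΦ hB hact hBΦ in
theorem sound (v v' : V) (y : List α) (hy : y.length = σ.n) (w : List α)
    (hw : w ∈ XX S v v' y) :
    Reach σ Φ act (w ++ y) v y v' ∨ Fail σ Φ act v σ.n (w ++ y) := by
  rcases hw with hw | hw
  · exact Or.inl (Reach.mono hBΦ hw)
  · obtain ⟨p, ⟨Y, v1, hp1, hp2⟩, q, hq, rfl⟩ := Language.mem_mul.1 hw
    obtain ⟨k, hk, t, ht, rfl⟩ := Language.mem_mul.1 hq
    obtain ⟨ws, rfl, hws⟩ := Language.mem_kstar.1 hk
    have h1 := (hp1.mono hBΦ).ext hΦ hact (ws.flatten ++ t ++ y)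
    have e : p ++ (ws.flatten ++ t ++ y) = p ++ (ws.flatten ++ t) ++ y := by simp
    rw [e] at h1
    have e2 : Y ++ (ws.flatten ++ t ++ y) = Y ++ (ws.flatten ++ (t ++ y)) := by simp
    rw [e2] at h1
    rcases sound_aux S hΦ hB hact hBΦ v' y hy t ht ws hws Y v1 hp2 with h6 | h6
    · exact Or.inl (h1.trans h6)
    · exact Or.inr (Fail.of_reach h1 h6)

include hΦ hB hact hBΦ in
theorem comp (v' : V) (y : List α) (hy : y.length = σ.n) {s : List α} {v : V} {Z : List α} {z : V}
    (h : Reach σ Φ act s v Z z) (hZ : Z = y) (hz : z = v') :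
    ∀ w, s = w ++ y → w ∈ XX S v v' y := by
  induction h with
  | refl s v =>
    subst hZ hz
    intro w hw
    have : w = [] := by
      have := congrArg List.length hw
      rw [List.length_append] at this
      exact List.length_eq_zero_iff.1 (by omega)
    subst this
    exact Or.inl (Reach.refl _ _)
  | @cons s v T Z z h1 h2 h3 ih =>
    intro w hw
    subst hw
    have hv := σ.vis _ _ h1
    have hlen := h3.suffix.length_le
    rw [List.length_drop, hZ] at hlen
    rw [List.length_append] at hv hlen
    have hTw : T ≤ w.length := by omega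
    have ih' := ih hZ hz (w.drop T) (List.drop_append_of_le_length hTw)
    by_cases hbad : Bad (w ++ y)
    · rcases ih' with ih' | ih'
      · refine Or.inl (Reach.cons h1 hbad ?_)
        rw [List.drop_append_of_le_length hTw]
        exact ih'
      · refine Or.inr ?_
        obtain ⟨p, ⟨Y, v1, hp1, hp2⟩, q, hq, hpq⟩ := Language.mem_mul.1 ih'
        refine Language.mem_mul.2 ⟨w.take T ++ p, ⟨Y, v1, ?_, hp2⟩, q, hq, ?_⟩
        · have hpn : σ.n ≤ p.length := (S.LLn _ _ hp2).trans hp1.suffix.length_le
          have e : w ++ y = (w.take T ++ p) ++ (q ++ y) := by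
            rw [List.append_assoc, ← List.append_assoc p q y, hpq, ← List.append_assoc,
              List.take_append_drop]
          have hlt : (w.take T).length = T := by rw [List.length_take]; omega
          have h1' : σ.step (w.take T ++ p) = some T := by
            refine σ.res _ T (q ++ y) (e ▸ h1) ?_
            rw [List.length_append, hlt]; omega
          refine Reach.cons h1' ?_ ?_
          · have := hB _ T (q ++ y) h1'
            rw [← e] at this
            exact this ▸ hbad
          · have ha := hact _ T (q ++ y) h1'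
            rw [← e] at ha
            rw [← ha, List.drop_left' hlt]
            exact hp1
        · rw [List.append_assoc, hpq, List.take_append_drop]
    · obtain ⟨Y, s', b, T', e, hY, hR⟩ := S.complete _ T v h1 h2 hbad
      obtain ⟨T0, e1, e2⟩ := S.exact v b T' Y s' hY hR
      rw [← e, h1] at e1
      obtain rfl := Option.some.inj e1
      rw [← e] at e2
      obtain ⟨e3, e4⟩ := e2 h2
      have hRv := S.Rvis _ _ _ hR
      have hlen2 : w.length + y.length = Y.length + s'.length := by
        rw [← List.length_append, e, List.length_append]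
      -- `Y` is a prefix of `w`, `s' = t ++ y`
      obtain ⟨t, rfl⟩ : ∃ t, w = Y ++ t := by
        have : Y <+: w := List.prefix_of_prefix_length_le (e ▸ List.prefix_append Y s')
          (List.prefix_append w y) (by omega)
        obtain ⟨t, ht⟩ := this
        exact ⟨t, ht.symm⟩
      have es : s' = t ++ y := by
        rw [List.append_assoc] at e
        exact (List.append_cancel_left e).symm
      subst es
      refine Or.inr (Language.mem_mul.2 ⟨Y, ⟨Y, v, Reach.refl _ _, hY⟩, t, ?_, rfl⟩)
      have hdr : (Y ++ t).drop T = t.drop T' := by rw [e3, drop_len_add]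
      rw [hdr, e4] at ih'
      have hT't : T' ≤ t.length := by
        rw [List.length_append] at hRv; omega
      rcases ih' with ih' | ih'
      · refine Language.mem_mul.2 ⟨[], Language.nil_mem_kstar _, t, ⟨b, T', hR, ?_⟩, rfl⟩
        rw [List.drop_append_of_le_length hT't]
        exact ih'
      · obtain ⟨p, hp, q, hq, hpq⟩ := Language.mem_mul.1 ih'
        obtain ⟨k, hk, x, hx, rfl⟩ := Language.mem_mul.1 hq
        refine Language.mem_mul.2 ⟨(t.take T' ++ p) ++ k, ?_, x, hx, ?_⟩
        · have hlt : (t.take T').length = T' := by rw [List.length_take]; omega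
          obtain ⟨ws, rfl, hws⟩ := Language.mem_kstar.1 hk
          refine Language.mem_kstar.2 ⟨(t.take T' ++ p) :: ws, by simp, ?_⟩
          intro z hz
          rcases List.mem_cons.1 hz with rfl | hz
          · refine ⟨b, T', ?_, ?_⟩
            · obtain ⟨Y2, v2, hp1, hp2⟩ := hp
              have hpn : σ.n ≤ p.length := (S.LLn _ _ hp2).trans hp1.suffix.length_le
              refine S.Rres b T' _ (ws.flatten ++ x ++ y) ?_ ?_
              · have e : t ++ y = (t.take T' ++ p) ++ (ws.flatten ++ x ++ y) := by
                  calc t ++ y = (t.take T' ++ t.drop T') ++ y := by rw [List.take_append_drop]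
                    _ = _ := by rw [← hpq]; simp
                exact e ▸ hR
              · rw [List.length_append, hlt]; omega
            · rw [List.drop_left' hlt]
              exact hp
          · exact hws z hz
        · calc (t.take T' ++ p) ++ k ++ x = t.take T' ++ (p ++ (k ++ x)) := by simp
            _ = t := by rw [hpq, List.take_append_drop]

/-- a visible zone outside `Φ`, with its lookahead. -/
def NQ (σ : Seg α) (Φ : List α → Prop) : Language α :=
  {q | ∃ T, σ.step q = some T ∧ q.length = T + σ.n ∧ ¬ Φ q}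

/-- words with prefix `y`. -/
def Px (y : List α) : Language α := {u | y <+: u}

/-- left-legal pieces. -/
def LLl (v : V) : Language α := {Y | S.LL v Y}

/-- the words from a right-legal cut to the end of the zone, when `z` follows. -/
def Rl (b : V) (z : List α) : Language α := {r | S.R b r.length (r ++ z)}

/-- `x` such that `x ++ y` starts with `z`. -/
def Pxy (z y : List α) : Language α := {x | x ++ y ∈ Px z}

/-- words whose chain meets a zone outside `Φ`. -/
def FF (v : V) : Language α :=
  {u | ∃ v'' : V, ∃ y ∈ {y : List α | y.length = σ.n},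
    u ∈ XX S v v'' y * ((NQ σ Φ ⊓ Px y) * (⊤ : Language α))}

include hΦ hB hact hBΦ in
theorem fail_iff (v : V) (u : List α) : Fail σ Φ act v σ.n u ↔ u ∈ FF S v := by
  constructor
  · rintro ⟨s', v'', T, h1, h2, h3, h4⟩
    have hv := σ.vis _ _ h2
    obtain ⟨u1, rfl⟩ := h1.suffix
    have hy : (s'.take σ.n).length = σ.n := by rw [List.length_take]; omega
    have hq : (s'.take (T + σ.n)).length = T + σ.n := by rw [List.length_take]; omega
    have e1 : s' = s'.take σ.n ++ s'.drop σ.n := (List.take_append_drop _ _).symm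
    have e2 : s' = s'.take (T + σ.n) ++ s'.drop (T + σ.n) := (List.take_append_drop _ _).symm
    have h5 : Reach σ Φ act (u1 ++ s'.take σ.n) v (s'.take σ.n) v'' :=
      h1.res hΦ hact _ _ (s'.drop σ.n) (by rw [List.append_assoc, ← e1]) e1 (by omega)
    have h6 := comp S hΦ hB hact hBΦ v'' _ hy h5 rfl rfl u1 rfl
    have h7 : σ.step (s'.take (T + σ.n)) = some T :=
      σ.res _ T (s'.drop (T + σ.n)) (e2 ▸ h2) (by omega)
    have h8 : ¬ Φ (s'.take (T + σ.n)) := by
      have := hΦ _ T (s'.drop (T + σ.n)) h7
      rw [← e2] at this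
      exact this ▸ h3
    refine ⟨v'', _, hy, Language.mem_mul.2 ⟨u1, h6, s', Language.mem_mul.2
      ⟨s'.take (T + σ.n), ⟨⟨T, h7, hq, h8⟩, ?_⟩, s'.drop (T + σ.n), trivial, e2.symm⟩, rfl⟩⟩
    exact List.take_prefix_take_left (by omega)
  · rintro ⟨v'', y, hy, hu⟩
    have hy' : y.length = σ.n := hy
    obtain ⟨u1, h1, x, hx, rfl⟩ := Language.mem_mul.1 hu
    obtain ⟨q, ⟨⟨T, h2, h3, h4⟩, q', rfl⟩, r, -, rfl⟩ := Language.mem_mul.1 hx
    have hT := σ.pos _ _ h2
    rcases sound S hΦ hB hact hBΦ v v'' y hy' u1 h1 with h | h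
    · have h5 := h.ext hΦ hact (q' ++ r)
      refine ⟨y ++ (q' ++ r), v'', T, ?_, ?_, ?_, ?_⟩
      · simpa [List.append_assoc] using h5
      · have := σ.ext _ _ r h2
        simpa [List.append_assoc] using this
      · have := hΦ _ _ r h2
        rw [List.append_assoc] at this
        exact this ▸ h4
      · simp only [List.length_append] at h3 ⊢
        omega
    · obtain ⟨s', v3, T', h5, h6, h7, h8⟩ := h
      have h9 := h5.ext hΦ hact (q' ++ r)
      refine ⟨s' ++ (q' ++ r), v3, T', ?_, σ.ext _ _ _ h6, (hΦ _ _ _ h6).symm ▸ h7, ?_⟩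
      · simpa [List.append_assoc] using h9
      · rw [List.length_append]; omega

include hΦ hB hact hBΦ in
theorem tr_iff (v v' : V) (y : List α) (hy : y.length = σ.n) (w : List α) :
    w ∈ Tr σ Φ act v v' y ↔ w ∈ XX S v v' y ∧ ¬ (w ++ y ∈ FF S v) := by
  rw [← fail_iff S hΦ hB hact hBΦ]
  constructor
  · intro h
    refine ⟨comp S hΦ hB hact hBΦ v' y hy h rfl rfl w rfl, ?_⟩
    rintro ⟨s', v'', T, h1, h2, h3, h4⟩
    have h5 := h1.det h (by omega)
    cases h5 with
    | refl => omega
    | cons _ h6 _ => exact h3 h6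
  · rintro ⟨h1, h2⟩
    exact (sound S hΦ hB hact hBΦ v v' y hy w h1).resolve_right h2

section Height

variable [Finite α] [Finite V] {k : ℕ}

omit [Finite α] in
theorem hl_Px (y : List α) : HL k (Px y) := by
  refine ((HL.word (k := k) y).mul HL.top).congr fun u => ?_
  constructor
  · rintro ⟨t, rfl⟩
    exact Language.mem_mul.2 ⟨y, rfl, t, trivial, rfl⟩
  · intro h
    obtain ⟨a, ha, t, -, rfl⟩ := Language.mem_mul.1 h
    have : a = y := ha
    exact this ▸ ⟨t, rfl⟩

variable (hLL : ∀ v, HL k (LLl S v))
  (hR : ∀ b (z : List α), z.length = σ.n → HL k (Rl S b z))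
  (hNQ : HL k (NQ σ Φ))
  (hBad : ∀ v v' (y : List α), y.length = σ.n → HL k (Tr σ Bad act v v' y))

include hB hact hLL hBad in
theorem hl_Pre (v : V) : HL k (Pre S v) := by
  have h := HL.iUnion (k := k) (fun v' : V => HL.biUnion (k := k)
    (List.finite_length_eq α σ.n)
    (L := fun y => Tr σ Bad act v v' y * (LLl S v' ⊓ Px y))
    (fun y hy => (hBad v v' y hy).mul ((hLL v').inf (hl_Px y))))
  refine h.congr fun w => ?_
  constructor
  · rintro ⟨Y, v', h1, h2⟩
    have hYn := S.LLn _ _ h2
    obtain ⟨w1, rfl⟩ := h1.suffix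
    refine ⟨v', Y.take σ.n, by simp [hYn], Language.mem_mul.2 ⟨w1, ?_, Y,
      ⟨h2, List.take_prefix _ _⟩, rfl⟩⟩
    exact h1.res hB hact _ _ (Y.drop σ.n) (by rw [List.append_assoc, List.take_append_drop])
      (List.take_append_drop _ _).symm (by rw [List.length_take]; omega)
  · rintro ⟨v', y, hy, hw⟩
    obtain ⟨w1, h1, Y, ⟨h2, r, rfl⟩, rfl⟩ := Language.mem_mul.1 hw
    refine ⟨y ++ r, v', ?_, h2⟩
    have := Reach.ext hB hact h1 r
    rwa [List.append_assoc] at this

include hB hact hLL hR hBad in
theorem hl_Kw : HL k (Kw S) := by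
  have h := HL.iUnion (k := k) (fun b : V => HL.biUnion (k := k)
    (List.finite_length_eq α σ.n)
    (L := fun z => Rl S b z * (Pre S b ⊓ Px z))
    (fun z hz => (hR b z hz).mul ((hl_Pre S hB hact hLL hBad b).inf (hl_Px z))))
  refine h.congr fun w => ?_
  constructor
  · rintro ⟨b, T, h1, h2⟩
    have hv := S.Rvis _ _ _ h1
    have hl : (w.drop T).length = w.length - T := List.length_drop
    have hlt : (w.take T).length = T := by rw [List.length_take]; omega
    refine ⟨b, (w.drop T).take σ.n, by simp; omega, Language.mem_mul.2 ⟨w.take T, ?_, w.drop T,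
      ⟨h2, List.take_prefix _ _⟩, List.take_append_drop _ _⟩⟩
    change S.R b (w.take T).length (w.take T ++ (w.drop T).take σ.n)
    rw [hlt]
    refine S.Rres b T _ ((w.drop T).drop σ.n) ?_ ?_
    · rw [List.append_assoc, List.take_append_drop, List.take_append_drop]
      exact h1
    · rw [List.length_append, hlt, List.length_take]; omega
  · rintro ⟨b, z, hz, hw⟩
    obtain ⟨r, h1, x, ⟨h2, r', rfl⟩, rfl⟩ := Language.mem_mul.1 hw
    refine ⟨b, r.length, ?_, ?_⟩
    · have := S.Rext _ _ _ r' h1
      rwa [List.append_assoc] at this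
    · rw [List.drop_left]
      exact h2

include hR hBad in
theorem hl_Suf (v' : V) (y : List α) (hy : y.length = σ.n) : HL k (Suf S v' y) := by
  have h := HL.iUnion (k := k) (fun b : V => HL.biUnion (k := k)
    (List.finite_length_eq α σ.n)
    (L := fun z => Rl S b z * (Pxy z y ⊓ Tr σ Bad act b v' y))
    (fun z hz => (hR b z hz).mul ((show HL k (Pxy z y) from HL.rquot y (hl_Px z)).inf (hBad b v' y hy))))
  refine h.congr fun t => ?_
  constructor
  · rintro ⟨b, T, h1, h2⟩
    have hv := S.Rvis _ _ _ h1
    rw [List.length_append] at hv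
    have hT : T ≤ t.length := by omega
    have hlt : (t.take T).length = T := by rw [List.length_take]; omega
    rw [List.drop_append_of_le_length hT] at h2
    refine ⟨b, (t.drop T ++ y).take σ.n, by simp; omega, Language.mem_mul.2 ⟨t.take T, ?_,
      t.drop T, ⟨List.take_prefix _ _, h2⟩, List.take_append_drop _ _⟩⟩
    change S.R b (t.take T).length (t.take T ++ (t.drop T ++ y).take σ.n)
    rw [hlt]
    refine S.Rres b T _ ((t.drop T ++ y).drop σ.n) ?_ ?_
    · rw [List.append_assoc, List.take_append_drop, ← List.append_assoc, List.take_append_drop]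
      exact h1
    · rw [List.length_append, hlt, List.length_take, List.length_append]; omega
  · rintro ⟨b, z, hz, hw⟩
    obtain ⟨r, h1, x, ⟨⟨r', hr'⟩, h3⟩, rfl⟩ := Language.mem_mul.1 hw
    refine ⟨b, r.length, ?_, ?_⟩
    · have := S.Rext _ _ _ r' h1
      rwa [List.append_assoc, hr', ← List.append_assoc] at this
    · rw [List.append_assoc, List.drop_left]
      exact h3

include hB hact hLL hR hBad in
theorem hl_XX (v v' : V) (y : List α) (hy : y.length = σ.n) : HL (k + 1) (XX S v v' y) :=
  ((hBad v v' y hy).mono (Nat.le_succ k)).add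
    (((hl_Pre S hB hact hLL hBad v).mono (Nat.le_succ k)).mul
      ((hl_Kw S hB hact hLL hR hBad).star.mul
        ((hl_Suf S hR hBad v' y hy).mono (Nat.le_succ k))))

include hΦ hB hact hBΦ hLL hR hNQ hBad in
/-- **Level step.** -/
theorem level_step (v v' : V) (y : List α) (hy : y.length = σ.n) :
    HL (k + 1) (Tr σ Φ act v v' y) := by
  have hF : HL (k + 1) (FF S v) := HL.iUnion fun v'' => HL.biUnion (List.finite_length_eq α σ.n)
    fun y hy => (hl_XX S hB hact hLL hR hBad v v'' y hy).mul
      (((hNQ.inf (hl_Px y)).mono (Nat.le_succ k)).mul HL.top)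
  refine ((hl_XX S hB hact hLL hR hBad v v' y hy).setOf_and
    ((HL.rquot y hF).setOf_not)).congr fun w => ?_
  exact tr_iff S hΦ hB hact hBΦ v v' y hy w

end Height

end Level

end Crest.Agent.R320.Engine_150
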