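import Mathlib

/-!
Row 320, piece (4) in the eps-rigid form (helper37, post 12925): walls on the integers whose
consecutive gaps lie in `[L, L + h]`; two chains with step `z` and `z + 2L + L/2` cannot both be
critical on a long common stretch.  The exactly rigid case is `h = 1`.
-/

set_option autoImplicit false

namespace Crest.Agent.R320.EpsTwo_37

/-- On `[lo, hi]` consecutive walls have gaps in `[L, L + h]`. -/
structure EpsRigid (Wl : ℤ → Prop) (L h lo hi : ℤ) : Prop where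
  sep : ∀ u v, Wl u → Wl v → lo ≤ u → u < v → v ≤ hi → u + L ≤ v
  nxt : ∀ u, Wl u → lo ≤ u → u + L + h ≤ hi → ∃ v, Wl v ∧ u + L ≤ v ∧ v ≤ u + L + h

variable {Wl : ℤ → Prop} {L h lo hi : ℤ}

/-- Distances of walls lie in `[k L, k (L + h)]`. -/
theorem dist_form (H : EpsRigid Wl L h lo hi) (hL : 0 < L) (hh : 0 ≤ h) :
    ∀ n : ℕ, ∀ u v, Wl u → Wl v → lo ≤ u → u ≤ v → v ≤ hi → (v - u).toNat ≤ n →
      ∃ k : ℕ, (k : ℤ) * L ≤ v - u ∧ v - u ≤ k * (L + h) := by
  intro n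
  induction n with
  | zero =>
    intro u v _ _ _ huv _ hn
    have : v = u := by omega
    subst this
    exact ⟨0, by simp, by simp⟩
  | succ n ih =>
    intro u v hu hv hlo huv hhi hn
    rcases eq_or_lt_of_le huv with h0 | h0
    · subst h0
      exact ⟨0, by simp, by simp⟩
    · by_cases h1 : v ≤ u + L + h
      · refine ⟨1, ?_, ?_⟩
        · have := H.sep u v hu hv hlo h0 hhi
          simp; omega
        · simp; omega
      · obtain ⟨w, hw, hw1, hw2⟩ := H.nxt u hu hlo (by omega)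
        obtain ⟨k, hk1, hk2⟩ := ih w v hw hv (by omega) (by omega) hhi (by omega)
        refine ⟨k + 1, ?_, ?_⟩
        · push_cast
          nlinarith
        · push_cast
          nlinarith

/-- Symmetric form: `|v - u|` lies in `[k L, k (L + h)]`. -/
theorem dist_abs (H : EpsRigid Wl L h lo hi) (hL : 0 < L) (hh : 0 ≤ h) {u v : ℤ}
    (hu : Wl u) (hv : Wl v) (hu1 : lo ≤ u) (hu2 : u ≤ hi) (hv1 : lo ≤ v) (hv2 : v ≤ hi) :
    ∃ k : ℕ, (k : ℤ) * L ≤ |v - u| ∧ |v - u| ≤ k * (L + h) := by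
  rcases le_total u v with h1 | h1
  · rw [abs_of_nonneg (by omega)]
    exact dist_form H hL hh _ u v hu hv hu1 h1 hv2 le_rfl
  · rw [abs_of_nonpos (by omega)]
    have := dist_form H hL hh _ v u hv hu hv1 h1 hu2 le_rfl
    simpa using this

/-- Two critical anchors are never within `3 L` of each other. -/
theorem far {l N z a b w v : ℤ} (H : EpsRigid Wl (2 * l) h lo hi) (hh : 0 ≤ h) (hN : 0 ≤ N)
    (hs : 5 * h + 2 * N < l)
    (ha : Wl a) (hb : Wl b) (hw : Wl w) (hv : Wl v)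
    (ha1 : lo ≤ a) (ha2 : a ≤ hi) (hb1 : lo ≤ b) (hb2 : b ≤ hi)
    (hw1 : lo ≤ w) (hw2 : w ≤ hi) (hv1 : lo ≤ v) (hv2 : v ≤ hi)
    (haw : |w - (a + z)| ≤ N) (hbv : |v - (b + z + 5 * l)| ≤ N) :
    6 * l < |b - a| := by
  have hl : 0 < l := by omega
  by_contra hcon
  push Not at hcon
  obtain ⟨k, hk1, hk2⟩ := dist_abs H (by omega) hh ha hb ha1 ha2 hb1 hb2
  obtain ⟨k', hk1', hk2'⟩ := dist_abs H (by omega) hh hw hv hw1 hw2 hv1 hv2
  have hk : k ≤ 3 := by
    by_contra h4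
    have h4' : (4 : ℤ) ≤ (k : ℤ) := by exact_mod_cast (by omega : 4 ≤ k)
    nlinarith
  have e1 := abs_le.1 haw
  have e2 := abs_le.1 hbv
  have hvw : |v - w| ≤ 11 * l + 2 * N := by
    rw [abs_le]
    have := abs_le.1 hcon
    constructor <;> omega
  have hk' : k' ≤ 5 := by
    by_contra h4
    have h4' : (6 : ℤ) ≤ (k' : ℤ) := by exact_mod_cast (by omega : 6 ≤ k')
    nlinarith
  rcases abs_cases (b - a) with ⟨c1, c2⟩ | ⟨c1, c2⟩ <;>
  rcases abs_cases (v - w) with ⟨c3, c4⟩ | ⟨c3, c4⟩ <;>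
  rw [c1] at hk1 hk2 <;> rw [c3] at hk1' hk2' <;>
  interval_cases k <;> interval_cases k' <;> push_cast at * <;> omega

/-- One chain step: the near wall `w` of `a`, and the next anchor is `w` or the wall after it. -/
def CritStep (Wl : ℤ → Prop) (L h N z a w a' : ℤ) : Prop :=
  Wl a ∧ Wl w ∧ |w - (a + z)| ≤ N ∧ (a' = w ∨ (w + L ≤ a' ∧ a' ≤ w + L + h))

/-- **Two-chain lemma, eps-rigid form.** If `b 0 < a 0` and both chains are critical for `K` joint
steps, then `K * L < a 0 - b 0`. -/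
theorem two_chains {l N z : ℤ} (H : EpsRigid Wl (2 * l) h lo hi) (hh : 0 ≤ h) (hN : 0 ≤ N)
    (hs : 5 * h + 2 * N < l) (K : ℕ) (hK : 0 < K) (a b w v : ℕ → ℤ)
    (hin : ∀ i < K, lo ≤ a i ∧ a i ≤ hi ∧ lo ≤ b i ∧ b i ≤ hi ∧ lo ≤ w i ∧ w i ≤ hi ∧
      lo ≤ v i ∧ v i ≤ hi)
    (ha : ∀ i < K, CritStep Wl (2 * l) h N z (a i) (w i) (a (i + 1)))
    (hb : ∀ i < K, CritStep Wl (2 * l) h N (z + 5 * l) (b i) (v i) (b (i + 1)))
    (h0 : b 0 < a 0) : (K : ℤ) * (2 * l) < a 0 - b 0 := by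
  have hl : 0 < l := by omega
  have key : ∀ i < K, b i - a i < - (6 * l) ∧ (i : ℤ) * (2 * l) ≤ (b i - a i) - (b 0 - a 0) := by
    intro i
    induction i with
    | zero =>
      intro hi0
      obtain ⟨x1, x2, x3, x4, x5, x6, x7, x8⟩ := hin 0 hi0
      obtain ⟨y1, y2, y3, -⟩ := ha 0 hi0
      obtain ⟨t1, t2, t3, -⟩ := hb 0 hi0
      have := far (z := z) H hh hN hs y1 t1 y2 t2 x1 x2 x3 x4 x5 x6 x7 x8 y3
        (by rw [show b 0 + z + 5 * l = b 0 + (z + 5 * l) by ring]; exact t3)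
      rw [abs_of_nonpos (by omega)] at this
      exact ⟨by omega, by simp⟩
    | succ i ih =>
      intro hi1
      obtain ⟨g1, g2⟩ := ih (by omega)
      obtain ⟨x1, x2, x3, x4, x5, x6, x7, x8⟩ := hin (i + 1) hi1
      obtain ⟨y1, y2, y3, -⟩ := ha (i + 1) hi1
      obtain ⟨t1, t2, t3, -⟩ := hb (i + 1) hi1
      have hfar := far (z := z) H hh hN hs y1 t1 y2 t2 x1 x2 x3 x4 x5 x6 x7 x8 y3
        (by rw [show b (i + 1) + z + 5 * l = b (i + 1) + (z + 5 * l) by ring]; exact t3)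
      obtain ⟨-, -, p3, p4⟩ := ha i (by omega)
      obtain ⟨-, -, q3, q4⟩ := hb i (by omega)
      have p3' := abs_le.1 p3
      have q3' := abs_le.1 q3
      have hch : 2 * l ≤ (b (i + 1) - a (i + 1)) - (b i - a i) ∧
          (b (i + 1) - a (i + 1)) - (b i - a i) ≤ 8 * l := by
        rcases p4 with p4 | p4 <;> rcases q4 with q4 | q4 <;> constructor <;> omega
      refine ⟨?_, ?_⟩
      · rcases abs_cases (b (i + 1) - a (i + 1)) with ⟨c1, c2⟩ | ⟨c1, c2⟩ <;> rw [c1] at hfar <;>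
          omega
      · push_cast
        nlinarith [hch.1]
  obtain ⟨g1, g2⟩ := key (K - 1) (by omega)
  have : ((K - 1 : ℕ) : ℤ) = K - 1 := by push_cast [Nat.cast_sub (show 1 ≤ K from hK)]; ring
  rw [this] at g2
  nlinarith

end Crest.Agent.R320.EpsTwo_37
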