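import Mathlib

/-!
Counting lemma for the noise of the exact gadget (row 320, items (6) and (7)): a function
`F : X → V` such that for every token datum at least one of `m` demand sets is met.
`x0` is a point, `D i` (`i < m`) are pairwise disjoint sets of at most `C` points not containing
`x0`; `F` is good at `i` when `F p = t (F x0) p` for all `p ∈ D i`. The number of `F` that are bad
for all `i < m` is at most `(1 - q^(-C))^m` of all functions, `q = |V|`; a union bound gives an `F`
good somewhere for every datum.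
-/

set_option autoImplicit false

namespace Crest.Agent.R320.Exact606

open Finset

section Count

variable {X V : Type*} [Fintype X] [DecidableEq X] [Fintype V]

/-- `F` meets all the demands of the set `D i`. -/
def Good (x0 : X) (D : ℕ → Finset X) (t : V → X → V) (i : ℕ) (F : X → V) : Prop :=
  ∀ p ∈ D i, F p = t (F x0) p

open scoped Classical in
/-- The functions that are bad at every index below `m`. -/
noncomputable def badSet (x0 : X) (D : ℕ → Finset X) (t : V → X → V) (m : ℕ) : Finset (X → V) :=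
  univ.filter (fun F : X → V => ∀ i < m, ¬ Good x0 D t i F)

open scoped Classical in
theorem card_badSet_le_good (x0 : X) (D : ℕ → Finset X) (t : V → X → V) (C m : ℕ)
    (hx : ∀ i < m + 1, x0 ∉ D i) (hC : (D m).card ≤ C)
    (hd : ∀ i < m, Disjoint (D i) (D m)) (hV : 0 < Fintype.card V) :
    (badSet x0 D t m).card ≤
      ((badSet x0 D t m).filter (fun F => Good x0 D t m F)).card * (Fintype.card V) ^ C := by
  have hinj : (badSet x0 D t m).card ≤
      (((badSet x0 D t m).filter (fun F => Good x0 D t m F)) ×ˢ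
        (univ : Finset ({p // p ∈ D m} → V))).card := by
    refine Finset.card_le_card_of_injOn
      (fun F => ((fun p => if p ∈ D m then t (F x0) p else F p), fun p => F p.1)) ?_ ?_
    · intro F hF
      have hF' : ∀ i < m, ¬ Good x0 D t i F := by
        simpa [badSet] using hF
      have hx0 : x0 ∉ D m := hx m (Nat.lt_succ_self m)
      simp only [Finset.coe_product, Finset.coe_filter, Finset.coe_univ, Set.mem_prod,
        Set.mem_ofPred_eq, Set.mem_univ, and_true]
      refine ⟨?_, ?_⟩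
      · simp only [badSet, Finset.mem_filter, Finset.mem_univ, true_and]
        intro i hi hg
        apply hF' i hi
        intro p hp
        have h1 := hg p hp
        have hpm : p ∉ D m := fun hpm => (Finset.disjoint_left.mp (hd i hi)) hp hpm
        simp only [if_neg hx0, if_neg hpm] at h1
        exact h1
      · intro p hp
        simp only [if_pos hp, if_neg hx0]
    · intro F hF F' hF' h
      simp only [Prod.mk.injEq] at h
      obtain ⟨h1, h2⟩ := h
      funext p
      by_cases hp : p ∈ D m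
      · exact congrFun h2 ⟨p, hp⟩
      · have := congrFun h1 p
        simpa [if_neg hp] using this
  refine hinj.trans ?_
  rw [Finset.card_product]
  refine Nat.mul_le_mul_left _ ?_
  rw [Finset.card_univ, Fintype.card_fun, Fintype.card_coe]
  exact Nat.pow_le_pow_right hV hC

open scoped Classical in
theorem card_badSet_succ (x0 : X) (D : ℕ → Finset X) (t : V → X → V) (C m : ℕ)
    (hx : ∀ i < m + 1, x0 ∉ D i) (hC : (D m).card ≤ C)
    (hd : ∀ i < m, Disjoint (D i) (D m)) (hV : 0 < Fintype.card V) :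
    ((badSet x0 D t (m + 1)).card : ℝ) * ((Fintype.card V : ℝ) ^ C) ≤
      ((badSet x0 D t m).card : ℝ) * ((Fintype.card V : ℝ) ^ C - 1) := by
  have h1 := card_badSet_le_good x0 D t C m hx hC hd hV
  have h2 := Finset.card_filter_add_card_filter_not (s := badSet x0 D t m)
    (fun F => Good x0 D t m F)
  have h3 : (badSet x0 D t m).filter (fun F => ¬ Good x0 D t m F) = badSet x0 D t (m + 1) := by
    ext F
    simp only [badSet, Finset.mem_filter, Finset.mem_univ, true_and]
    constructor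
    · rintro ⟨ha, hb⟩ i hi
      rcases Nat.lt_succ_iff_lt_or_eq.mp hi with h | h
      · exact ha i h
      · subst h; exact hb
    · intro h
      exact ⟨fun i hi => h i (Nat.lt_succ_of_lt hi), h m (Nat.lt_succ_self m)⟩
  rw [h3] at h2
  have h1' : ((badSet x0 D t m).card : ℝ) ≤
      (((badSet x0 D t m).filter (fun F => Good x0 D t m F)).card : ℝ) *
        (Fintype.card V : ℝ) ^ C := by exact_mod_cast h1
  have h2' : (((badSet x0 D t m).filter (fun F => Good x0 D t m F)).card : ℝ) +
      ((badSet x0 D t (m + 1)).card : ℝ) = ((badSet x0 D t m).card : ℝ) := by exact_mod_cast h2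
  have h4 : (0 : ℝ) ≤ (Fintype.card V : ℝ) ^ C := by positivity
  nlinarith

theorem card_badSet_le (x0 : X) (D : ℕ → Finset X) (t : V → X → V) (C : ℕ)
    (hV : 0 < Fintype.card V) (m : ℕ)
    (hx : ∀ i < m, x0 ∉ D i) (hC : ∀ i < m, (D i).card ≤ C)
    (hd : ∀ i < m, ∀ j < m, i ≠ j → Disjoint (D i) (D j)) :
    ((badSet x0 D t m).card : ℝ) * ((Fintype.card V : ℝ) ^ C) ^ m ≤
      (Fintype.card (X → V) : ℝ) * ((Fintype.card V : ℝ) ^ C - 1) ^ m := by
  classical
  induction m with
  | zero =>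
    simp only [pow_zero, mul_one]
    exact_mod_cast Finset.card_le_univ _
  | succ m ih =>
    have ih' := ih (fun i hi => hx i (Nat.lt_succ_of_lt hi))
      (fun i hi => hC i (Nat.lt_succ_of_lt hi))
      (fun i hi j hj hij => hd i (Nat.lt_succ_of_lt hi) j (Nat.lt_succ_of_lt hj) hij)
    have hs := card_badSet_succ x0 D t C m hx (hC m (Nat.lt_succ_self m))
      (fun i hi => hd i (Nat.lt_succ_of_lt hi) m (Nat.lt_succ_self m) (Nat.ne_of_lt hi)) hV
    have hq : (1 : ℝ) ≤ (Fintype.card V : ℝ) ^ C :=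
      one_le_pow₀ (by exact_mod_cast hV)
    have hq0 : (0 : ℝ) ≤ (Fintype.card V : ℝ) ^ C - 1 := by linarith
    have hqp : (0 : ℝ) ≤ ((Fintype.card V : ℝ) ^ C) ^ m := by positivity
    calc ((badSet x0 D t (m + 1)).card : ℝ) * ((Fintype.card V : ℝ) ^ C) ^ (m + 1)
        = (((badSet x0 D t (m + 1)).card : ℝ) * ((Fintype.card V : ℝ) ^ C)) *
            ((Fintype.card V : ℝ) ^ C) ^ m := by ring
      _ ≤ (((badSet x0 D t m).card : ℝ) * ((Fintype.card V : ℝ) ^ C - 1)) *
            ((Fintype.card V : ℝ) ^ C) ^ m := mul_le_mul_of_nonneg_right hs hqp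
      _ = (((badSet x0 D t m).card : ℝ) * ((Fintype.card V : ℝ) ^ C) ^ m) *
            ((Fintype.card V : ℝ) ^ C - 1) := by ring
      _ ≤ ((Fintype.card (X → V) : ℝ) * ((Fintype.card V : ℝ) ^ C - 1) ^ m) *
            ((Fintype.card V : ℝ) ^ C - 1) := mul_le_mul_of_nonneg_right ih' hq0
      _ = _ := by ring

/-- **Union bound.** -/
theorem exists_good {Θ : Type*} [Fintype Θ] (x0 : Θ → X) (D : Θ → ℕ → Finset X)
    (t : Θ → V → X → V) (C m : ℕ) (hV : 0 < Fintype.card V)
    (hx : ∀ τ, ∀ i < m, x0 τ ∉ D τ i) (hC : ∀ τ, ∀ i < m, (D τ i).card ≤ C)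
    (hd : ∀ τ, ∀ i < m, ∀ j < m, i ≠ j → Disjoint (D τ i) (D τ j))
    (hbig : (Fintype.card Θ : ℝ) * ((Fintype.card V : ℝ) ^ C - 1) ^ m <
      ((Fintype.card V : ℝ) ^ C) ^ m) :
    ∃ F : X → V, ∀ τ, ∃ i < m, Good (x0 τ) (D τ) (t τ) i F := by
  classical
  by_contra hcon
  push Not at hcon
  have hcover : (univ : Finset (X → V)) ⊆
      (univ : Finset Θ).biUnion (fun τ => badSet (x0 τ) (D τ) (t τ) m) := by
    intro F _
    obtain ⟨τ, hτ⟩ := hcon F
    simp only [Finset.mem_biUnion, Finset.mem_univ, true_and]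
    exact ⟨τ, by simpa [badSet] using hτ⟩
  have h1 : (Fintype.card (X → V) : ℝ) ≤
      ∑ τ : Θ, ((badSet (x0 τ) (D τ) (t τ) m).card : ℝ) := by
    have := (Finset.card_le_card hcover).trans Finset.card_biUnion_le
    rw [Finset.card_univ] at this
    exact_mod_cast this
  have hqp : (0 : ℝ) < ((Fintype.card V : ℝ) ^ C) ^ m := by
    have : (0 : ℝ) < Fintype.card V := by exact_mod_cast hV
    positivity
  have hXV : (0 : ℝ) < (Fintype.card (X → V) : ℝ) := by
    rw [Fintype.card_fun]
    have : (0 : ℝ) < Fintype.card V := by exact_mod_cast hV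
    push_cast
    positivity
  have h2 : (Fintype.card (X → V) : ℝ) * ((Fintype.card V : ℝ) ^ C) ^ m ≤
      (Fintype.card Θ : ℝ) *
        ((Fintype.card (X → V) : ℝ) * ((Fintype.card V : ℝ) ^ C - 1) ^ m) := by
    calc (Fintype.card (X → V) : ℝ) * ((Fintype.card V : ℝ) ^ C) ^ m
        ≤ (∑ τ : Θ, ((badSet (x0 τ) (D τ) (t τ) m).card : ℝ)) *
            ((Fintype.card V : ℝ) ^ C) ^ m := mul_le_mul_of_nonneg_right h1 hqp.le
      _ = ∑ τ : Θ, ((badSet (x0 τ) (D τ) (t τ) m).card : ℝ) *
            ((Fintype.card V : ℝ) ^ C) ^ m := by rw [Finset.sum_mul]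
      _ ≤ ∑ _τ : Θ, (Fintype.card (X → V) : ℝ) * ((Fintype.card V : ℝ) ^ C - 1) ^ m :=
          Finset.sum_le_sum (fun τ _ => card_badSet_le (x0 τ) (D τ) (t τ) C hV m (hx τ) (hC τ)
            (hd τ))
      _ = _ := by rw [Finset.sum_const, Finset.card_univ, nsmul_eq_mul]
  nlinarith

end Count

/-- Exponentials beat polynomials: the number of blocks. -/
theorem exists_m (a q : ℕ) (C : ℕ) (hq : 0 < q) :
    ∃ m0 : ℕ, ∀ m ≥ m0, (a : ℝ) * (m : ℝ) ^ 2 * ((q : ℝ) ^ C - 1) ^ m < ((q : ℝ) ^ C) ^ m := by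
  have hQ : (1 : ℝ) ≤ (q : ℝ) ^ C := one_le_pow₀ (by exact_mod_cast hq)
  set Q : ℝ := (q : ℝ) ^ C with hQd
  have hQ0 : 0 < Q := by linarith
  have hr0 : 0 ≤ (Q - 1) / Q := div_nonneg (by linarith) hQ0.le
  have hr1 : (Q - 1) / Q < 1 := by rw [div_lt_one hQ0]; linarith
  have ht := tendsto_pow_const_mul_const_pow_of_abs_lt_one 2
    (r := (Q - 1) / Q) (by rw [abs_of_nonneg hr0]; exact hr1)
  have ht2 : Filter.Tendsto (fun n : ℕ => (a : ℝ) * ((n : ℝ) ^ 2 * ((Q - 1) / Q) ^ n))
      Filter.atTop (nhds ((a : ℝ) * 0)) := ht.const_mul _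
  rw [mul_zero] at ht2
  have hev := ht2.eventually (gt_mem_nhds (show (0 : ℝ) < 1 by norm_num))
  obtain ⟨m0, hm0⟩ := Filter.eventually_atTop.mp hev
  refine ⟨m0, fun m hm => ?_⟩
  have h := hm0 m hm
  have hQm : 0 < Q ^ m := pow_pos hQ0 m
  rw [div_pow] at h
  have h2 : (a : ℝ) * ((m : ℝ) ^ 2 * ((Q - 1) ^ m / Q ^ m)) =
      ((a : ℝ) * (m : ℝ) ^ 2 * (Q - 1) ^ m) / Q ^ m := by ring
  rw [h2, div_lt_one hQm] at h
  exact h

end Crest.Agent.R320.Exact606
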