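import Crest.Agent.R320.ExactR_237

/-!
# Row 320: the exact gadget with the number of places linear in the redundancy (893 #13622 (b)),
and the choice of the redundancy (893 #13622 (d)).  helper107
-/

open Finset

namespace Crest.Agent.R320.ExactL_107

open Crest.Agent.R320.ExactR_237

/-- **Exact gadget**, `K = K0 * (R + 1)` places, `K0` independent of the redundancy `R`. -/
theorem exact_gadget_lin (A S V : Type) [Monoid S] [Fintype S] [Fintype V] [AddCommGroup V]
    (f : A → S) (act : V → S → V) :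
    ∃ K0 : ℕ, 0 < K0 ∧ ∀ R : ℕ, ∀ c : ℕ → ℕ,
      (∀ i j, i < j → j < K0 * (R + 1) → c i < c j) →
      ∃ (lam : ℕ → List A → Option V) (rho : ℕ → List A → S → Option V) (nu : List A → S → V),
        (∀ k < K0 * (R + 1), ∀ (P Q : List A) (y : S) (v b : V), P.length = c k →
          lam k P = some v → rho k Q y = some b → b = act v (pr f (P ++ Q) * y) + nu (P ++ Q) y) ∧
        (∀ (u : List A) (y : S) (v : V), (∀ k < K0 * (R + 1), c k ≤ u.length) →
          ∃ I : Finset ℕ, R ≤ I.card ∧ ∀ k ∈ I, k < K0 * (R + 1) ∧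
            lam k (u.take (c k)) = some v ∧ (rho k (u.drop (c k)) y).isSome) := by
  classical
  obtain ⟨m, N, nuS, F, hm, hN, hgood⟩ := core S V act
  have : NeZero N := ⟨hN⟩
  refine ⟨m * Fintype.card (Nm S V N), Nat.mul_pos hm Fintype.card_pos, ?_⟩
  intro R
  let κ : Type := Nm S V N × Fin (R + 1)
  set q : ℕ := Fintype.card κ with hqdef
  have hq : 0 < q := Fintype.card_pos
  have hK : m * Fintype.card (Nm S V N) * (R + 1) = m * q := by
    have h1 : q = Fintype.card (Nm S V N) * (R + 1) := by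
      show Fintype.card (Nm S V N × Fin (R + 1)) = _
      rw [Fintype.card_prod (Nm S V N) (Fin (R + 1)), Fintype.card_fin]
    rw [h1, mul_assoc]
  rw [hK]
  let E : κ ≃ Fin q := Fintype.equivFin κ
  -- name of place number k
  let nm : ℕ → Nm S V N := fun k => (E.symm ⟨k % q, Nat.mod_lt k hq⟩).1
  refine fun c hc => ⟨fun k P => lam f act N nuS F q c (nm k) k P,
    fun k Q y => rho f act m N nuS F q c (nm k) k Q y,
    fun u y => nz f m N nuS F q c u y, ?_, ?_⟩
  · intro k hk P Q y v b hP h1 h2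
    exact sound f act m N nuS F q c hq hc (nm k) P Q k hk hP y v b h1 h2
  · intro u y v hlen
    obtain ⟨i, him, a, ha⟩ := complete f act m N nuS F q c hq hc hgood u y v
    let g : Fin (R + 1) → ℕ := fun r => i * q + (E (a, r) : ℕ)
    have hdiv : ∀ r, g r / q = i := by
      intro r
      have h := (E (a, r)).2
      show (i * q + (E (a, r) : ℕ)) / q = i
      rw [Nat.mul_comm, Nat.mul_add_div hq, Nat.div_eq_of_lt h, Nat.add_zero]
    have hmod : ∀ r, g r % q = (E (a, r) : ℕ) := by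
      intro r
      have h := (E (a, r)).2
      show (i * q + (E (a, r) : ℕ)) % q = _
      rw [Nat.mul_comm, Nat.mul_add_mod, Nat.mod_eq_of_lt h]
    have hlt : ∀ r, g r < m * q := by
      intro r
      have h := (E (a, r)).2
      have h1 : (i + 1) * q ≤ m * q := Nat.mul_le_mul_right q him
      have h2 : (i + 1) * q = i * q + q := by ring
      show i * q + (E (a, r) : ℕ) < m * q
      omega
    have hnm : ∀ r, nm (g r) = a := by
      intro r
      show (E.symm ⟨g r % q, Nat.mod_lt (g r) hq⟩).1 = a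
      have h1 : (⟨g r % q, Nat.mod_lt (g r) hq⟩ : Fin q) = E (a, r) := Fin.ext (hmod r)
      rw [h1, Equiv.symm_apply_apply]
    refine ⟨univ.image g, ?_, ?_⟩
    · rw [Finset.card_image_of_injective]
      · simp
      · intro r r' h
        have h1 : (E (a, r) : ℕ) = (E (a, r') : ℕ) := by
          rw [← hmod r, ← hmod r', h]
        have h2 := E.injective (Fin.ext h1)
        exact (Prod.mk.inj h2).2
    · intro k hk
      obtain ⟨r, _, rfl⟩ := Finset.mem_image.1 hk
      refine ⟨hlt r, ?_⟩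
      have h := ha (g r) (hdiv r) (hlt r) (hlen _ (hlt r))
      show lam f act N nuS F q c (nm (g r)) (g r) _ = some v ∧
        (rho f act m N nuS F q c (nm (g r)) (g r) _ y).isSome
      rw [hnm r]
      exact h

/-- a line times a logarithm: `2 ^ n` beats `a * n + b`, quantitatively. -/
theorem lin_lt_two_pow (a b : ℕ) : ∃ n0 : ℕ, ∀ n, n0 ≤ n → a * n + b ≤ 2 ^ n := by
  have key : ∀ n : ℕ, n * n ≤ 4 * 2 ^ n := by
    intro n
    induction n with
    | zero => simp
    | succ n ih =>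
      rcases Nat.lt_or_ge n 3 with h | h
      · interval_cases n <;> norm_num
      · have h1 : (n + 1) * (n + 1) ≤ 2 * (n * n) := by nlinarith
        calc (n + 1) * (n + 1) ≤ 2 * (n * n) := h1
          _ ≤ 2 * (4 * 2 ^ n) := Nat.mul_le_mul_left 2 ih
          _ = 4 * 2 ^ (n + 1) := by ring
  refine ⟨4 * a + 4 * b + 1, fun n hn => ?_⟩
  have h1 := key n
  have h2 : 4 * (a * n + b) ≤ n * n := by nlinarith
  omega

/-- (d): the redundancy can be chosen with the number of places linear in it: any bound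
`Q0 K ≤ C * (K + 1) ^ e` (polynomial ruler) is good enough. -/
theorem choose_R (r0 K0 C e : ℕ) (Q0 : ℕ → ℕ) (hQ : ∀ K, Q0 K ≤ C * (K + 1) ^ e) :
    ∃ R : ℕ, 2 + 2 * r0 * (Nat.log 2 (Q0 (K0 * (R + 1))) + 1) ≤ R := by
  -- take `R + 1 = 2 ^ n`
  set c := Nat.log 2 C + 1 with hc
  set k := Nat.log 2 (K0 + 1) + 1 with hk
  have hC : C < 2 ^ c := Nat.lt_pow_succ_log_self (by norm_num) C
  have hK : K0 + 1 < 2 ^ k := Nat.lt_pow_succ_log_self (by norm_num) (K0 + 1)
  obtain ⟨n0, hn0⟩ := lin_lt_two_pow (2 * r0 * e) (2 * r0 * (c + k * e + 1) + 3)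
  refine ⟨2 ^ n0 - 1, ?_⟩
  have hpos : 1 ≤ 2 ^ n0 := Nat.one_le_two_pow
  have hR : 2 ^ n0 - 1 + 1 = 2 ^ n0 := by omega
  rw [hR]
  have h1 : Q0 (K0 * 2 ^ n0) ≤ 2 ^ (c + (k + n0) * e) := by
    calc Q0 (K0 * 2 ^ n0) ≤ C * (K0 * 2 ^ n0 + 1) ^ e := hQ _
      _ ≤ C * ((K0 + 1) * 2 ^ n0) ^ e :=
          Nat.mul_le_mul_left _ (Nat.pow_le_pow_left (by nlinarith) e)
      _ ≤ 2 ^ c * (2 ^ k * 2 ^ n0) ^ e :=
          Nat.mul_le_mul hC.le (Nat.pow_le_pow_left (Nat.mul_le_mul_right _ hK.le) e)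
      _ = 2 ^ (c + (k + n0) * e) := by
          rw [← pow_add, ← pow_mul, ← pow_add]
  have h2 : Nat.log 2 (Q0 (K0 * 2 ^ n0)) ≤ c + (k + n0) * e := by
    calc Nat.log 2 (Q0 (K0 * 2 ^ n0)) ≤ Nat.log 2 (2 ^ (c + (k + n0) * e)) :=
          Nat.log_mono_right h1
      _ = c + (k + n0) * e := Nat.log_pow (by norm_num) _
  have h3 := hn0 n0 le_rfl
  have h4 : 2 * r0 * (Nat.log 2 (Q0 (K0 * 2 ^ n0)) + 1) ≤ 2 * r0 * (c + (k + n0) * e + 1) :=
    Nat.mul_le_mul_left _ (by omega)
  have h5 : 2 * r0 * (c + (k + n0) * e + 1)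
      = 2 * r0 * e * n0 + 2 * r0 * (c + k * e + 1) := by ring
  omega

end Crest.Agent.R320.ExactL_107
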