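import Crest.Agent.R320.Exact_355

set_option autoImplicit false

/-!
The exact gadget on words of a fixed length `bd m` which is cut into `m` blocks at the fixed
places `bd 0 = 0 ≤ bd 1 ≤ .. ≤ bd m`.  Every name `n` may be cut at EVERY place `c` of its own block
`[bd (idx n), bd (idx n + 1)]`, so a name may have as many copies as one likes.
-/

namespace Crest.Agent.R320.ExactW_355

open Crest.Agent.R320.Gadget_355 Crest.Agent.R320.Exact_355

variable {α S V : Type*}

/-- block `j` of a word (places counted from the left end). -/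
def seg (bd : ℕ → ℕ) (j : ℕ) (P : List α) : List α := (P.drop (bd j)).take (bd (j + 1) - bd j)

/-- block `j` of a suffix `Q` of a word of length `p0` (places counted from the right end). -/
def segR (bd : ℕ → ℕ) (p0 j : ℕ) (Q : List α) : List α :=
  (Q.drop (bd j - (p0 - Q.length))).take (bd (j + 1) - bd j)

theorem seg_append_left (bd : ℕ → ℕ) (hbd : Monotone bd) {i j : ℕ} (hj : j < i) (P Q : List α)
    (hP : bd i ≤ P.length) : seg bd j (P ++ Q) = seg bd j P := by
  unfold seg
  have h1 : bd (j + 1) ≤ bd i := hbd hj
  have h2 : bd j ≤ bd (j + 1) := hbd (Nat.le_succ j)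
  rw [List.drop_append_of_le_length (by omega), List.take_append_of_le_length]
  rw [List.length_drop]; omega

theorem seg_append_right (bd : ℕ → ℕ) (hbd : Monotone bd) {i j p0 : ℕ} (hj : i < j) (P Q : List α)
    (hP : P.length ≤ bd (i + 1)) (hlen : (P ++ Q).length = p0) :
    seg bd j (P ++ Q) = segR bd p0 j Q := by
  unfold seg segR
  have h1 : bd (i + 1) ≤ bd j := hbd hj
  have h3 : P.length + Q.length = p0 := by rw [← hlen, List.length_append]
  have h4 : p0 - Q.length = P.length := by omega
  rw [h4]
  congr 1
  rw [List.drop_append]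
  have h5 : P.drop (bd j) = [] := List.drop_eq_nil_of_le (by omega)
  rw [h5, List.nil_append]

/-- all blocks -/
def blocks (φ : List α → S) (bd : ℕ → ℕ) (m : ℕ) (X : List α) : List S :=
  (List.range m).map (fun j => φ (seg bd j X))

theorem blocks_prod [Monoid S] (φ : List α → S) (h1 : φ [] = 1)
    (hmul : ∀ u w, φ (u ++ w) = φ u * φ w) (bd : ℕ → ℕ) (hbd : Monotone bd) (h0 : bd 0 = 0)
    (m : ℕ) (X : List α) : (blocks φ bd m X).prod = φ (X.take (bd m)) := by
  induction m with
  | zero => simp [blocks, h0, h1]
  | succ m ih =>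
    have h2 : blocks φ bd (m + 1) X = blocks φ bd m X ++ [φ (seg bd m X)] := by
      simp [blocks, List.range_succ]
    rw [h2, List.prod_append, ih, List.prod_singleton, ← hmul]
    congr 1
    unfold seg
    have h3 : bd m ≤ bd (m + 1) := hbd (Nat.le_succ m)
    conv_rhs => rw [show bd (m + 1) = bd m + (bd (m + 1) - bd m) by omega, List.take_add]

theorem exact_words (α S V : Type*) [Monoid S] [AddCommGroup V] [Finite S] [Finite V]
    (act : V → S → V) (φ : List α → S) (h1 : φ [] = 1) (hmul : ∀ u w, φ (u ++ w) = φ u * φ w) :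
    ∃ (m K : ℕ) (idx : Fin K → ℕ) (lab rlab : Fin K → V), 0 < m ∧ (∀ n, idx n < m) ∧
      ∀ bd : ℕ → ℕ, Monotone bd → bd 0 = 0 →
        ∃ (LP RQ : Fin K → List α → Prop) (nu : List α → V),
          (∀ n P Q, bd (idx n) ≤ P.length → P.length ≤ bd (idx n + 1) →
            (P ++ Q).length = bd m → LP n P → RQ n Q →
              rlab n = act (lab n) (φ (P ++ Q)) + nu (P ++ Q)) ∧
          (∀ (X : List α) (v : V), X.length = bd m → ∃ n, lab n = v ∧
            ∀ c, bd (idx n) ≤ c → c ≤ bd (idx n + 1) → LP n (X.take c) ∧ RQ n (X.drop c)) := by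
  obtain ⟨m, K, idx, Lf, Rt, lab, rlab, nu, hm, hidx, hs, hc⟩ := exact_names S V act
  refine ⟨m, K, idx, lab, rlab, hm, hidx, ?_⟩
  intro bd hbd h0
  -- the lists of blocks before and behind the hidden block
  have hsplit : ∀ (n : Fin K) (P Q : List α), bd (idx n) ≤ P.length → P.length ≤ bd (idx n + 1) →
      (P ++ Q).length = bd m →
      blocks φ bd m (P ++ Q) =
        (List.range (idx n)).map (fun j => φ (seg bd j P)) ++ φ (seg bd (idx n) (P ++ Q)) ::
          (List.range' (idx n + 1) (m - idx n - 1)).map (fun j => φ (segR bd (bd m) j Q)) := by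
    intro n P Q hP1 hP2 hlen
    have hn := hidx n
    have hr : List.range m = List.range (idx n) ++ idx n :: List.range' (idx n + 1) (m - idx n - 1) := by
      have e1 : m = idx n + (1 + (m - idx n - 1)) := by omega
      conv_lhs => rw [e1, List.range_eq_range', ← List.range'_append_1]
      rw [List.range_eq_range']
      congr 1
      rw [Nat.zero_add, Nat.add_comm 1, List.range'_succ]
    unfold blocks
    rw [hr, List.map_append, List.map_cons]
    congr 1
    · apply List.map_congr_left
      intro j hj
      rw [List.mem_range] at hj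
      rw [seg_append_left bd hbd hj P Q hP1]
    · congr 1
      apply List.map_congr_left
      intro j hj
      rw [List.mem_range'_1] at hj
      rw [seg_append_right bd hbd (by omega) P Q hP2 hlen]
  refine ⟨fun n P => Lf n ((List.range (idx n)).map (fun j => φ (seg bd j P))),
    fun n Q => Rt n ((List.range' (idx n + 1) (m - idx n - 1)).map (fun j => φ (segR bd (bd m) j Q))),
    fun X => nu (blocks φ bd m X), ?_, ?_⟩
  · intro n P Q hP1 hP2 hlen hL hR
    have e := hsplit n P Q hP1 hP2 hlen
    have := hs n _ _ (φ (seg bd (idx n) (P ++ Q))) (by simp) (by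
      rw [← e]; simp [blocks]) hL hR
    rw [← e, blocks_prod φ h1 hmul bd hbd h0] at this
    rw [this]
    have h2 : (P ++ Q).take (bd m) = P ++ Q := List.take_of_length_le (by omega)
    rw [h2]
  · intro X v hX
    obtain ⟨n, pre, post, z, h2, h3, h4, h5, h6⟩ := hc (blocks φ bd m X) v (by simp [blocks])
    refine ⟨n, h6, ?_⟩
    intro c hc1 hc2
    have hle : bd (idx n + 1) ≤ bd m := hbd (hidx n)
    have hXs : X.take c ++ X.drop c = X := List.take_append_drop c X
    have e := hsplit n (X.take c) (X.drop c) (by rw [List.length_take]; omega)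
      (by rw [List.length_take]; omega) (by rw [hXs]; exact hX)
    rw [hXs] at e
    rw [h2] at e
    have e2 := List.append_inj e (by simp [h3])
    have e3 := (List.cons.inj e2.2).2
    constructor
    · show Lf n ((List.range (idx n)).map (fun j => φ (seg bd j (X.take c))))
      rw [← e2.1]; exact h4
    · show Rt n ((List.range' (idx n + 1) (m - idx n - 1)).map
        (fun j => φ (segR bd (bd m) j (X.drop c))))
      rw [← e3]; exact h5

end Crest.Agent.R320.ExactW_355
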