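import Mathlib

/-!
Row 320 (S0495), item (6): 237's exact gadget (post 12538), self-contained.

`exact_gadget`: for every finite monoid `S`, every multiplicative reading `φ : List α → S`, every finite
abelian group `V` of tokens with an arbitrary action `act : V → S → V`, there is `n0` such that for every
`n ≥ n0` there are partial labels `lam` (left parts), `rho` (right parts) and a noise `nu` with
* exactness: `rho q = act (lam p) (φ (p ++ q)) + nu (p ++ q)` whenever both are defined and `|p| + |q| = n`;
* every token `v` is cut at a proper split of every word of length `n`.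
-/

set_option autoImplicit false
set_option linter.unusedSectionVars false
set_option linter.style.haveILetI false

namespace Crest.Agent.R320.Exact136

section RF

open Classical

variable {X V : Type*} [Fintype X] [Fintype V]

/-- overwrite `F` by `h` on `D` -/
noncomputable def ow (D : Finset X) (h F : X → V) : X → V := fun p => if p ∈ D then h p else F p

theorem ow_mem {D : Finset X} {h F : X → V} {p : X} (hp : p ∈ D) : ow D h F p = h p := by
  simp [ow, hp]

theorem ow_not_mem {D : Finset X} {h F : X → V} {p : X} (hp : p ∉ D) : ow D h F p = F p := by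
  simp [ow, hp]

theorem step (D : Finset X) (C : ℕ) (hC : D.card ≤ C) (hV : 0 < Fintype.card V)
    (P : (X → V) → Prop) (tgt : (X → V) → X → V)
    (hP : ∀ F h, P F → P (ow D h F)) (ht : ∀ F h, tgt (ow D h F) = tgt F) :
    (Finset.univ.filter fun F : X → V => P F ∧ ∃ p ∈ D, F p ≠ tgt F p).card * (Fintype.card V) ^ C
      ≤ (Finset.univ.filter fun F : X → V => P F).card * ((Fintype.card V) ^ C - 1) := by
  set A := Finset.univ.filter fun F : X → V => P F with hA
  set B := Finset.univ.filter fun F : X → V => P F ∧ ∀ p ∈ D, F p = tgt F p with hB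
  set q := Fintype.card V with hq
  have hBA : B ⊆ A := by
    intro F hF
    simp only [hB, hA, Finset.mem_filter, Finset.mem_univ, true_and] at hF ⊢
    exact hF.1
  have hdiff : (Finset.univ.filter fun F : X → V => P F ∧ ∃ p ∈ D, F p ≠ tgt F p) = A \ B := by
    ext F
    simp only [hB, hA, Finset.mem_filter, Finset.mem_univ, true_and, Finset.mem_sdiff, not_and,
      not_forall]
    constructor
    · rintro ⟨h1, p, hp, hne⟩
      exact ⟨h1, fun _ => ⟨p, hp, hne⟩⟩
    · rintro ⟨h1, h2⟩
      obtain ⟨p, hp, hne⟩ := h2 h1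
      exact ⟨h1, p, hp, hne⟩
  have hcard : A.card ≤ B.card * q ^ D.card := by
    have : (B ×ˢ (Finset.univ : Finset (D → V))).card = B.card * q ^ D.card := by
      rw [Finset.card_product, Finset.card_univ, Fintype.card_fun, Fintype.card_coe]
    rw [← this]
    refine Finset.card_le_card_of_injOn (fun F => (ow D (tgt F) F, fun p : D => F p)) ?_ ?_
    · intro F hF
      have hF' : P F := by simpa [hA] using hF
      simp only [Finset.coe_product, Set.mem_prod, Finset.mem_coe, Finset.mem_univ, and_true, hB,
        Finset.mem_filter, true_and]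
      refine ⟨hP F _ hF', ?_⟩
      intro p hp
      rw [ht, ow_mem hp]
    · intro F _ G _ hFG
      simp only [Prod.mk.injEq] at hFG
      obtain ⟨h1, h2⟩ := hFG
      funext p
      by_cases hp : p ∈ D
      · exact congrFun h2 ⟨p, hp⟩
      · have := congrFun h1 p
        rwa [ow_not_mem hp, ow_not_mem hp] at this
  have hcard2 : A.card ≤ B.card * q ^ C :=
    hcard.trans (Nat.mul_le_mul_left _ (Nat.pow_le_pow_right hV hC))
  rw [hdiff, Finset.card_sdiff_of_subset hBA, Nat.sub_mul, Nat.mul_sub, Nat.mul_one]
  omega

theorem rf {ι T : Type*} [Fintype ι] [Fintype T] (b : T → X) (D : T → ι → Finset X)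
    (dem : T → V → X → V) (C : ℕ) (hC : ∀ t i, (D t i).card ≤ C)
    (hb : ∀ t i, b t ∉ D t i) (hD : ∀ t i j, i ≠ j → Disjoint (D t i) (D t j))
    (hV : 0 < Fintype.card V)
    (hbig : Fintype.card T * ((Fintype.card V) ^ C - 1) ^ Fintype.card ι
      < ((Fintype.card V) ^ C) ^ Fintype.card ι) :
    ∃ F : X → V, ∀ t, ∃ i, ∀ p ∈ D t i, F p = dem t (F (b t)) p := by
  set q := Fintype.card V with hq
  let Bad : T → Finset ι → Finset (X → V) := fun t I =>
    Finset.univ.filter fun F : X → V => ∀ i ∈ I, ∃ p ∈ D t i, F p ≠ dem t (F (b t)) p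
  have key : ∀ t (I : Finset ι), (Bad t I).card * (q ^ C) ^ I.card
      ≤ Fintype.card (X → V) * (q ^ C - 1) ^ I.card := by
    intro t I
    induction I using Finset.induction_on with
    | empty => simp [Bad]
    | insert j I hj ih =>
      have hEq : Bad t (insert j I) = Finset.univ.filter fun F : X → V =>
          (∀ i ∈ I, ∃ p ∈ D t i, F p ≠ dem t (F (b t)) p) ∧
            ∃ p ∈ D t j, F p ≠ dem t (F (b t)) p := by
        ext F
        simp only [Bad, Finset.mem_filter, Finset.mem_univ, true_and, Finset.mem_insert,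
          forall_eq_or_imp]
        exact and_comm
      have hs : (Bad t (insert j I)).card * q ^ C ≤ (Bad t I).card * (q ^ C - 1) := by
        rw [hEq]
        convert step (D t j) C (hC t j) hV
          (fun F => ∀ i ∈ I, ∃ p ∈ D t i, F p ≠ dem t (F (b t)) p)
          (fun F => dem t (F (b t)))
          (by
            intro F h hF i hi
            obtain ⟨p, hp, hne⟩ := hF i hi
            refine ⟨p, hp, ?_⟩
            have hij : i ≠ j := by rintro rfl; exact hj hi
            have hpj : p ∉ D t j := fun hpj =>
              (Finset.disjoint_left.mp (hD t i j hij)) hp hpj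
            rw [ow_not_mem hpj, ow_not_mem (hb t j)]
            exact hne)
          (by
            intro F h
            show dem t (ow (D t j) h F (b t)) = dem t (F (b t))
            rw [ow_not_mem (hb t j)])
      rw [Finset.card_insert_of_notMem hj]
      generalize (Bad t (insert j I)).card = x at hs ⊢
      generalize (Bad t I).card = y at hs ih
      generalize Fintype.card (X → V) = N at ih ⊢
      generalize q ^ C = a at hs ih ⊢
      calc x * a ^ (I.card + 1) = (x * a) * a ^ I.card := by ring
        _ ≤ (y * (a - 1)) * a ^ I.card := Nat.mul_le_mul_right _ hs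
        _ = (a - 1) * (y * a ^ I.card) := by ring
        _ ≤ (a - 1) * (N * (a - 1) ^ I.card) := Nat.mul_le_mul_left _ ih
        _ = N * (a - 1) ^ (I.card + 1) := by ring
  by_contra hcon
  push Not at hcon
  have hcov : (Finset.univ : Finset (X → V)) ⊆
      Finset.univ.biUnion fun t : T => Bad t Finset.univ := by
    intro F _
    obtain ⟨t, ht⟩ := hcon F
    simp only [Finset.mem_biUnion, Finset.mem_univ, true_and, Bad, Finset.mem_filter]
    refine ⟨t, fun i _ => ?_⟩
    obtain ⟨p, hp, hne⟩ := ht i
    exact ⟨p, hp, hne⟩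
  have h1 : Fintype.card (X → V) ≤ ∑ t : T, (Bad t Finset.univ).card := by
    calc Fintype.card (X → V) = (Finset.univ : Finset (X → V)).card := Finset.card_univ.symm
      _ ≤ _ := Finset.card_le_card hcov
      _ ≤ _ := Finset.card_biUnion_le
  have h2 : Fintype.card (X → V) * (q ^ C) ^ Fintype.card ι
      ≤ Fintype.card (X → V) * (Fintype.card T * (q ^ C - 1) ^ Fintype.card ι) := by
    calc Fintype.card (X → V) * (q ^ C) ^ Fintype.card ι
        ≤ (∑ t : T, (Bad t Finset.univ).card) * (q ^ C) ^ Fintype.card ι :=
          Nat.mul_le_mul_right _ h1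
      _ = ∑ t : T, (Bad t Finset.univ).card * (q ^ C) ^ Fintype.card ι := Finset.sum_mul ..
      _ ≤ ∑ _t : T, Fintype.card (X → V) * (q ^ C - 1) ^ Fintype.card ι := by
          refine Finset.sum_le_sum fun t _ => ?_
          have := key t Finset.univ
          rwa [Finset.card_univ] at this
      _ = _ := by rw [Finset.sum_const, Finset.card_univ, smul_eq_mul]; ring
  have h3 : 0 < Fintype.card (X → V) := by
    rw [Fintype.card_fun]; exact Nat.pow_pos hV
  have := Nat.le_of_mul_le_mul_left h2 h3
  omega

end RF

theorem exists_prime_big (c K q C : ℕ) (hq : 0 < q) :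
    ∃ p : ℕ, p.Prime ∧ K ≤ p ∧ c * p ^ 2 * (q ^ C - 1) ^ p < (q ^ C) ^ p := by
  have ha : 0 < q ^ C := Nat.pow_pos hq
  set a := q ^ C with ha'
  have haR : (0 : ℝ) < (a : ℝ) := by exact_mod_cast ha
  set r : ℝ := ((a - 1 : ℕ) : ℝ) / a with hr
  have hr0 : 0 ≤ r := by positivity
  have hr1 : r < 1 := by
    rw [hr, div_lt_one haR]
    exact_mod_cast Nat.sub_lt ha one_pos
  have habs : |r| < 1 := by rwa [abs_of_nonneg hr0]
  have ht := (tendsto_pow_const_mul_const_pow_of_abs_lt_one 2 habs).const_mul (c : ℝ)
  rw [mul_zero] at ht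
  have hev := ht.eventually (gt_mem_nhds (show (0 : ℝ) < 1 by norm_num))
  obtain ⟨N, hN⟩ := Filter.eventually_atTop.mp hev
  obtain ⟨p, hp, hpp⟩ := Nat.exists_infinite_primes (max N K)
  refine ⟨p, hpp, (le_max_right _ _).trans hp, ?_⟩
  have h1 := hN p ((le_max_left _ _).trans hp)
  have h2 : (c : ℝ) * p ^ 2 * ((a - 1 : ℕ) : ℝ) ^ p < (a : ℝ) ^ p := by
    have hap : (0 : ℝ) < (a : ℝ) ^ p := by positivity
    have h3 : (c : ℝ) * ((p : ℝ) ^ 2 * r ^ p) * (a : ℝ) ^ p
        = (c : ℝ) * p ^ 2 * ((a - 1 : ℕ) : ℝ) ^ p := by
      rw [hr, div_pow]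
      field_simp
    rw [← h3]
    calc (c : ℝ) * ((p : ℝ) ^ 2 * r ^ p) * (a : ℝ) ^ p < 1 * (a : ℝ) ^ p :=
          mul_lt_mul_of_pos_right h1 hap
      _ = _ := one_mul _
  exact_mod_cast h2

/-- 237's random noise: function of the total type, a good phase for every type and token. -/
theorem exists_F {S V : Type*} [Monoid S] [Finite S] [AddCommGroup V] [Finite V]
    (act : V → S → V) :
    ∃ (p : ℕ) (_ : p.Prime) (nu : S → ZMod p) (F : S → ZMod p × ZMod p → V),
      ∀ (s : S) (w : ZMod p × ZMod p) (v : V), ∃ i : ZMod p, ∀ g x h : S, g * x * h = s →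
        ∀ z : S, F (g * z * h) (w - (nu x, i * nu x) + (nu z, i * nu z)) + act v (g * z * h)
          = F s w + act v s := by
  classical
  haveI := Fintype.ofFinite S
  haveI := Fintype.ofFinite V
  set C := Fintype.card (S × S × S × S) with hC
  have hV : 0 < Fintype.card V := Fintype.card_pos
  obtain ⟨p, hp, hK, hbig⟩ := exists_prime_big (Fintype.card S * Fintype.card V)
    (Fintype.card S) (Fintype.card V) C hV
  haveI : Fact p.Prime := ⟨hp⟩
  have hemb : Nonempty (S ↪ ZMod p) := by
    apply Function.Embedding.nonempty_of_card_le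
    rw [ZMod.card]; exact hK
  obtain ⟨nu⟩ := hemb
  let e : ZMod p → S → ZMod p × ZMod p := fun i z => (nu z, i * nu z)
  let D : ((S × (ZMod p × ZMod p)) × V) → ZMod p → Finset (S × (ZMod p × ZMod p)) := fun t i =>
    ((Finset.univ : Finset (S × S × S × S)).filter
      (fun y => y.1 * y.2.1 * y.2.2.1 = t.1.1 ∧ y.2.2.2 ≠ y.2.1)).image
      (fun y => (y.1 * y.2.2.2 * y.2.2.1, t.1.2 - e i y.2.1 + e i y.2.2.2))
  have hmain := rf (X := S × (ZMod p × ZMod p)) (V := V) (ι := ZMod p)
    (T := (S × (ZMod p × ZMod p)) × V) (fun t => t.1) D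
    (fun t c y => c + act t.2 t.1.1 - act t.2 y.1) C
    (by
      intro t i
      refine Finset.card_image_le.trans ?_
      refine (Finset.card_filter_le _ _).trans ?_
      rw [Finset.card_univ])
    (by
      intro t i hmem
      simp only [D, Finset.mem_image, Finset.mem_filter, Finset.mem_univ, true_and] at hmem
      obtain ⟨⟨g, x, h, z⟩, ⟨_, hne⟩, heq⟩ := hmem
      have h2 := congrArg (fun y => y.2.1) heq
      simp only [e, Prod.fst_add, Prod.fst_sub] at h2
      have h3 : nu z = nu x := by linear_combination h2
      exact hne (nu.injective h3))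
    (by
      intro t i j hij
      rw [Finset.disjoint_left]
      intro y hy1 hy2
      simp only [D, Finset.mem_image, Finset.mem_filter, Finset.mem_univ, true_and] at hy1 hy2
      obtain ⟨⟨g, x, h, z⟩, ⟨_, hne⟩, heq⟩ := hy1
      obtain ⟨⟨g', x', h', z'⟩, ⟨_, hne'⟩, heq'⟩ := hy2
      have h0 := heq.trans heq'.symm
      have h1 := congrArg (fun y => y.2.1) h0
      have h2 := congrArg (fun y => y.2.2) h0
      simp only [e, Prod.fst_add, Prod.fst_sub, Prod.snd_add, Prod.snd_sub] at h1 h2
      have h3 : (i - j) * (nu z - nu x) = 0 := by linear_combination h2 - j * h1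
      rcases mul_eq_zero.mp h3 with h4 | h4
      · exact hij (sub_eq_zero.mp h4)
      · exact hne (nu.injective (sub_eq_zero.mp h4)))
    hV
    (by
      rw [Fintype.card_prod, Fintype.card_prod, Fintype.card_prod, ZMod.card]
      calc _ = Fintype.card S * Fintype.card V * p ^ 2 * (Fintype.card V ^ C - 1) ^ p := by ring
        _ < _ := hbig)
  obtain ⟨F, hF⟩ := hmain
  refine ⟨p, hp, nu, fun s w => F (s, w), ?_⟩
  intro s w v
  obtain ⟨i, hi⟩ := hF ((s, w), v)
  refine ⟨i, ?_⟩
  intro g x h hs z
  by_cases hzx : z = x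
  · subst hzx
    rw [hs, sub_add_cancel]
  · have := hi (g * z * h, w - e i x + e i z) (by
      simp only [D, Finset.mem_image, Finset.mem_filter, Finset.mem_univ, true_and]
      exact ⟨(g, x, h, z), ⟨hs, hzx⟩, rfl⟩)
    simp only [e] at this
    dsimp only
    rw [this]
    abel

/-! ### word level -/

section Words

variable {α S : Type*}

/-- block `j` of `u` (blocks of length `l`) -/
def blk (l j : ℕ) (u : List α) : List α := (u.drop (j * l)).take l

theorem blk_left {l j : ℕ} {p q : List α} (h : (j + 1) * l ≤ p.length) :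
    blk l j (p ++ q) = blk l j p := by
  unfold blk
  have h1 : j * l ≤ p.length := le_trans (Nat.mul_le_mul_right _ (Nat.le_succ j)) h
  rw [List.drop_append_of_le_length h1, List.take_append_of_le_length]
  rw [List.length_drop]
  have : (j + 1) * l = j * l + l := by ring
  omega

/-- block `j` of `p ++ q` read in `q`, where `t = |p|`. -/
def blkR (l t j : ℕ) (q : List α) : List α := (q.drop (j * l - t)).take l

theorem blk_right {l j : ℕ} {p q : List α} (h : p.length ≤ j * l) :
    blk l j (p ++ q) = blkR l p.length j q := by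
  unfold blk blkR
  rw [List.drop_append]
  rw [List.drop_eq_nil_of_le h, List.nil_append]

end Words

/-- The exact gadget of 237 (post 12538): both clocks exact (the total length `n` is known). -/
theorem exact_gadget {α S V : Type*} [Monoid S] [Finite S] [AddCommGroup V] [Finite V]
    (act : V → S → V) (φ : List α → S) (hφ : ∀ u v, φ (u ++ v) = φ u * φ v) :
    ∃ n0 : ℕ, ∀ n ≥ n0, ∃ (lam rho : List α → Option V) (nu : List α → V),
      (∀ p q v r, p.length + q.length = n → lam p = some v → rho q = some r →
        r = act v (φ (p ++ q)) + nu (p ++ q)) ∧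
      (∀ u v, u.length = n → ∃ p q, u = p ++ q ∧ p ≠ [] ∧ q ≠ [] ∧ lam p = some v ∧
        ∃ r, rho q = some r) := by
  classical
  obtain ⟨m, hm, nuS, F, hF⟩ := exists_F (S := S) (V := V) act
  haveI : Fact m.Prime := ⟨hm⟩
  haveI := Fintype.ofFinite S
  haveI := Fintype.ofFinite V
  haveI : NeZero m := ⟨hm.ne_zero⟩
  let W := ZMod m × ZMod m
  let e : ℕ → S → W := fun j z => (nuS z, (j : ZMod m) * nuS z)
  let Ctx := S × W × S × W × V
  let K := Fintype.card Ctx
  let o : Ctx ≃ Fin K := Fintype.equivFin Ctx
  let l := K + 1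
  have hl : 0 < l := Nat.succ_pos _
  refine ⟨m * l, fun n hn => ?_⟩
  -- value of a context at level `i`
  let val : ℕ → Ctx → S → V := fun i c z =>
    F (c.1 * z * c.2.2.1) (c.2.1 + e i z + c.2.2.2.1) + act c.2.2.2.2 (c.1 * z * c.2.2.1)
  let good : ℕ → Ctx → Prop := fun i c => ∀ z, val i c z = val i c 1
  let wL : ℕ → List α → W := fun i p => ∑ j ∈ Finset.range i, e j (φ (blk l j p))
  let wR : ℕ → ℕ → List α → W := fun t i q => ∑ j ∈ Finset.Ico (i + 1) m, e j (φ (blkR l t j q))
  let okL : List α → Ctx → Prop := fun p c =>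
    p.length / l < m ∧ p.length % l = (o c : ℕ) + 1 ∧ good (p.length / l) c ∧
      c.1 = φ (p.take (p.length / l * l)) ∧ c.2.1 = wL (p.length / l) p
  let okR : ℕ → List α → Ctx → Prop := fun t q c =>
    t / l < m ∧ t % l = (o c : ℕ) + 1 ∧ good (t / l) c ∧
      c.2.2.1 = φ (q.drop ((t / l + 1) * l - t)) ∧ c.2.2.2.1 = wR t (t / l) q
  let lam : List α → Option V := fun p =>
    if h : ∃ c, okL p c then some (h.choose.2.2.2.2) else none
  let rho : List α → Option V := fun q =>
    if h : ∃ c, okR (n - q.length) q c then some (val ((n - q.length) / l) h.choose 1) else none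
  let wt : List α → W := fun u => ∑ j ∈ Finset.range m, e j (φ (blk l j u))
  have ouniq : ∀ (x : ℕ) (c c' : Ctx), x = (o c : ℕ) + 1 → x = (o c' : ℕ) + 1 → c = c' := by
    intro x c c' h1 h2
    have : (o c : ℕ) = (o c' : ℕ) := by omega
    exact o.injective (Fin.ext this)
  -- decomposition of total type
  have hdec : ∀ p q : List α, p.length + q.length = n → p.length / l < m →
      0 < p.length % l →
      φ (p ++ q) = φ (p.take (p.length / l * l)) * φ (blk l (p.length / l) (p ++ q)) *
        φ (q.drop ((p.length / l + 1) * l - p.length)) ∧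
      wt (p ++ q) = wL (p.length / l) p + e (p.length / l) (φ (blk l (p.length / l) (p ++ q)))
        + wR p.length (p.length / l) q := by
    intro p q hpq hi hr
    set t := p.length with ht
    set i := t / l with hi'
    have hdm : l * i + t % l = t := Nat.div_add_mod t l
    have hml : t % l < l := Nat.mod_lt _ hl
    have hil : i * l ≤ t := by rw [Nat.mul_comm]; omega
    have hil' : t < (i + 1) * l := by
      have : (i + 1) * l = l * i + l := by ring
      omega
    constructor
    · rw [← hφ, ← hφ]
      congr 1
      have h1 : p.take (i * l) = (p ++ q).take (i * l) := by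
        rw [List.take_append_of_le_length (by omega)]
      have h2 : q.drop ((i + 1) * l - t) = (p ++ q).drop ((i + 1) * l) := by
        have h0 : p.drop ((i + 1) * l) = [] := List.drop_eq_nil_of_le hil'.le
        rw [List.drop_append, h0, List.nil_append]
      rw [h1, h2]
      unfold blk
      have h3 : (i + 1) * l = i * l + l := by ring
      rw [h3, ← List.drop_drop, List.append_assoc, List.take_append_drop,
        List.take_append_drop]
    · have hsplit : wt (p ++ q) = (∑ j ∈ Finset.range i, e j (φ (blk l j (p ++ q))))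
          + e i (φ (blk l i (p ++ q)))
          + ∑ j ∈ Finset.Ico (i + 1) m, e j (φ (blk l j (p ++ q))) := by
        show ∑ j ∈ Finset.range m, e j (φ (blk l j (p ++ q))) = _
        rw [← Finset.sum_range_succ, Finset.sum_range_add_sum_Ico _ (by omega)]
      rw [hsplit]
      congr 1
      · congr 1
        refine Finset.sum_congr rfl fun j hj => ?_
        rw [Finset.mem_range] at hj
        rw [blk_left]
        calc (j + 1) * l ≤ i * l := Nat.mul_le_mul_right _ hj
          _ ≤ p.length := hil
      · refine Finset.sum_congr rfl fun j hj => ?_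
        rw [Finset.mem_Ico] at hj
        rw [blk_right]
        calc p.length ≤ (i + 1) * l := hil'.le
          _ ≤ j * l := Nat.mul_le_mul_right _ hj.1
  refine ⟨lam, rho, fun u => F (φ u) (wt u), ?_, ?_⟩
  · intro p q v r hpq hl1 hr1
    have hnq : n - q.length = p.length := by omega
    by_cases hc : ∃ c, okL p c
    swap
    · simp only [lam, dif_neg hc] at hl1
      exact absurd hl1 (by simp)
    by_cases hc' : ∃ c, okR (n - q.length) q c
    swap
    · simp only [rho, dif_neg hc'] at hr1
      exact absurd hr1 (by simp)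
    simp only [lam, dif_pos hc, Option.some.injEq] at hl1
    simp only [rho, dif_pos hc', Option.some.injEq] at hr1
    have hs := hc.choose_spec
    have hs' := hc'.choose_spec
    set c := hc.choose with hcdef
    set c' := hc'.choose with hcdef'
    rw [hnq] at hs' hr1
    obtain ⟨a1, a2, a3, a4, a5⟩ := hs
    obtain ⟨b1, b2, b3, b4, b5⟩ := hs'
    have hcc : c = c' := ouniq _ _ _ a2 b2
    rw [← hcc] at b3 b4 b5 hr1
    obtain ⟨d1, d2⟩ := hdec p q hpq a1 (by omega)
    rw [← a4, ← b4] at d1
    rw [← a5, ← b5] at d2
    rw [← hr1, ← b3 (φ (blk l (p.length / l) (p ++ q)))]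
    show F _ _ + act _ _ = _
    rw [← d1, ← d2, hl1, add_comm]
  · intro u v hu
    obtain ⟨i, hi⟩ := hF (φ u) (wt u) v
    have hiv : ((i.val : ℕ) : ZMod m) = i := ZMod.natCast_zmod_val i
    have him : i.val < m := ZMod.val_lt i
    set k := i.val with hk
    -- the true context
    let c : Ctx := (φ (u.take (k * l)), wL k u, φ (u.drop ((k + 1) * l)),
      ∑ j ∈ Finset.Ico (k + 1) m, e j (φ (blk l j u)), v)
    have hoc : (o c : ℕ) + 1 < l := by
      have := (o c).isLt
      show _ < K + 1
      omega
    set t := k * l + ((o c : ℕ) + 1) with ht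
    have hkl : (k + 1) * l = k * l + l := by ring
    have htl : t < (k + 1) * l := by omega
    have hkm : (k + 1) * l ≤ m * l := Nat.mul_le_mul_right _ him
    have htn : t < n := by omega
    have hdiv : t / l = k := by
      rw [ht, Nat.mul_comm, Nat.mul_add_div hl, Nat.div_eq_of_lt hoc, add_zero]
    have hmod : t % l = (o c : ℕ) + 1 := by
      rw [ht, Nat.mul_comm, Nat.mul_add_mod, Nat.mod_eq_of_lt hoc]
    obtain ⟨p, q, hupq, hpt⟩ : ∃ p q, u = p ++ q ∧ p.length = t :=
      ⟨u.take t, u.drop t, (List.take_append_drop t u).symm, by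
        rw [List.length_take]; omega⟩
    have hlen : p.length + q.length = n := by
      rw [← hu, hupq, List.length_append]
    have hnq : n - q.length = p.length := by omega
    have hgood : good k c := by
      have hx : φ (u.take (k * l)) * φ (blk l k u) * φ (u.drop ((k + 1) * l)) = φ u := by
        rw [← hφ, ← hφ]
        congr 1
        unfold blk
        rw [hkl, ← List.drop_drop, List.append_assoc, List.take_append_drop,
          List.take_append_drop]
      have hw : wt u = wL k u + e k (φ (blk l k u)) +
          ∑ j ∈ Finset.Ico (k + 1) m, e j (φ (blk l j u)) := by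
        show ∑ j ∈ Finset.range m, e j (φ (blk l j u)) = _
        rw [← Finset.sum_range_add_sum_Ico _ (show k + 1 ≤ m by omega), Finset.sum_range_succ]
      have hall : ∀ z, val k c z = F (φ u) (wt u) + act v (φ u) := by
        intro z
        have h1 := hi _ _ _ hx z
        rw [← h1]
        show F _ (wL k u + e k z + ∑ j ∈ Finset.Ico (k + 1) m, e j (φ (blk l j u))) + _ = _
        congr 2
        rw [hw]
        simp only [e]
        rw [hiv]
        abel
      intro z
      rw [hall z, hall 1]
    have hokL : okL p c := by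
      refine ⟨by rw [hpt, hdiv]; exact him, by rw [hpt, hmod], by rw [hpt, hdiv]; exact hgood,
        ?_, ?_⟩
      · rw [hpt, hdiv]
        show φ (u.take (k * l)) = _
        rw [hupq, List.take_append_of_le_length (by omega)]
      · rw [hpt, hdiv]
        show wL k u = wL k p
        refine Finset.sum_congr rfl fun j hj => ?_
        rw [Finset.mem_range] at hj
        rw [hupq, blk_left]
        calc (j + 1) * l ≤ k * l := Nat.mul_le_mul_right _ hj
          _ ≤ p.length := by omega
    have hokR : okR p.length q c := by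
      refine ⟨by rw [hpt, hdiv]; exact him, by rw [hpt, hmod], by rw [hpt, hdiv]; exact hgood,
        ?_, ?_⟩
      · rw [hpt, hdiv]
        show φ (u.drop ((k + 1) * l)) = _
        have h0 : p.drop ((k + 1) * l) = [] := List.drop_eq_nil_of_le (by omega)
        rw [hupq, List.drop_append, h0, List.nil_append, hpt]
      · rw [hpt, hdiv]
        show ∑ j ∈ Finset.Ico (k + 1) m, e j (φ (blk l j u)) = _
        refine Finset.sum_congr rfl fun j hj => ?_
        rw [Finset.mem_Ico] at hj
        rw [hupq, blk_right, hpt]
        calc p.length ≤ (k + 1) * l := by omega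
          _ ≤ j * l := Nat.mul_le_mul_right _ hj.1
    refine ⟨p, q, hupq, ?_, ?_, ?_, ?_⟩
    · rintro rfl
      rw [List.length_nil] at hpt
      omega
    · rintro rfl
      rw [List.length_nil] at hlen
      omega
    · have hc : ∃ c, okL p c := ⟨c, hokL⟩
      simp only [lam, dif_pos hc, Option.some.injEq]
      have := ouniq _ _ _ hc.choose_spec.2.1 hokL.2.1
      rw [this]
    · have hc : ∃ c, okR (n - q.length) q c := by rw [hnq]; exact ⟨c, hokR⟩
      simp only [rho, dif_pos hc]
      exact ⟨_, rfl⟩

end Crest.Agent.R320.Exact136
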