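import Mathlib

/-!
# R320 / Exact_374: the exact gadget (helper237, post #12538), complete word form

`S` finite monoid, `V` finite additive commutative group, `act : V → S → V` ANY function
(no law of the action is used), `phi` a morphism from words to `S`.  For all large `n` there are
partial labels `lam` (of the left word) and `rho` (of the right word) and a noise `nu` (of the whole
word of length `n`) such that

* soundness: `rho q = act (lam p) (phi (p ++ q)) + nu (p ++ q)` whenever both labels are defined;
* completeness: in every word `u` of length `n` every `v : V` is `lam p` of a legal split `u = p ++ q`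
  with `p`, `q` nonempty.

Both sides know the length of the whole word (exact clocks).  The noise is
`nu u = F (phi u, w u)` where `w u` is a weighted sum of the block products and `F` is a random
function (counting lemma `random_function`).
-/

namespace Crest.Agent.R320.Exact_374

open Finset

/-! ## The random function lemma -/

/-- Counting for one test: `m` pairwise disjoint demand sets of size at most `C`, not containing the
base point; the number of functions violating the demand on each of them is at most
`(1 - q ^ (-C)) ^ m` of all. -/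
theorem count_bad {X V : Type*} [Fintype X] [DecidableEq X] [Fintype V] [DecidableEq V] [Nonempty V]
    (b : X) (C : ℕ) (dem : X → V → V) (D : ℕ → Finset X) :
    ∀ m : ℕ, (∀ i < m, b ∉ D i) → (∀ i < m, (D i).card ≤ C) →
      (∀ i < m, ∀ j < m, i ≠ j → Disjoint (D i) (D j)) →
      (Fintype.card V ^ C) ^ m *
        (univ.filter fun F : X → V => ∀ i < m, ∃ p ∈ D i, F p ≠ dem p (F b)).card
      ≤ (Fintype.card V ^ C - 1) ^ m * Fintype.card V ^ Fintype.card X := by
  classical
  intro m
  induction m with
  | zero =>
    intro _ _ _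
    simp
  | succ m ih =>
    intro hb hC hD
    have ih' := ih (fun i hi => hb i (by omega)) (fun i hi => hC i (by omega))
      (fun i hi j hj hij => hD i (by omega) j (by omega) hij)
    set A := univ.filter fun F : X → V => ∀ i < m, ∃ p ∈ D i, F p ≠ dem p (F b) with hA
    set B := A.filter fun F : X → V => ∀ p ∈ D m, F p = dem p (F b) with hB
    have hA' : (univ.filter fun F : X → V => ∀ i < m + 1, ∃ p ∈ D i, F p ≠ dem p (F b))
        = A.filter fun F : X → V => ¬ ∀ p ∈ D m, F p = dem p (F b) := by
      ext F
      simp only [hA, mem_filter, mem_univ, true_and]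
      constructor
      · intro h
        refine ⟨fun i hi => h i (by omega), ?_⟩
        intro hall
        obtain ⟨p, hp, hne⟩ := h m (by omega)
        exact hne (hall p hp)
      · rintro ⟨h1, h2⟩ i hi
        rcases Nat.lt_succ_iff_lt_or_eq.mp hi with h | h
        · exact h1 i h
        · subst h
          by_contra hcon
          exact h2 (fun p hp => by
            by_contra hne
            exact hcon ⟨p, hp, hne⟩)
    have hsum : B.card + (A.filter fun F : X → V => ¬ ∀ p ∈ D m, F p = dem p (F b)).card
        = A.card := by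
      rw [hB]
      exact Finset.card_filter_add_card_filter_not (s := A)
        (fun F : X → V => ∀ p ∈ D m, F p = dem p (F b))
    -- the correction map
    let upd : (X → V) → (X → V) := fun F p => if p ∈ D m then dem p (F b) else F p
    have hbm : b ∉ D m := hb m (by omega)
    have hupd_b : ∀ F, upd F b = F b := fun F => by simp [upd, hbm]
    have himg : A.image upd ⊆ B := by
      intro G hG
      obtain ⟨F, hF, rfl⟩ := mem_image.mp hG
      have hF' : ∀ i < m, ∃ p ∈ D i, F p ≠ dem p (F b) := by
        simpa [hA] using hF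
      simp only [hB, hA, mem_filter, mem_univ, true_and]
      refine ⟨?_, ?_⟩
      · intro i hi
        obtain ⟨p, hp, hne⟩ := hF' i hi
        refine ⟨p, hp, ?_⟩
        have hpm : p ∉ D m := by
          have := hD i (by omega) m (by omega) (by omega)
          exact Finset.disjoint_left.mp this hp
        have h1 : upd F p = F p := by simp [upd, hpm]
        rw [h1, hupd_b]
        exact hne
      · intro p hp
        have h1 : upd F p = dem p (F b) := by simp [upd, hp]
        rw [h1, hupd_b]
    have hfib : ∀ G ∈ A.image upd, (A.filter fun F => upd F = G).card ≤ Fintype.card V ^ C := by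
      intro G _
      have h1 : (A.filter fun F => upd F = G).card ≤ (univ : Finset (D m → V)).card := by
        apply Finset.card_le_card_of_injOn (fun F => fun p : D m => F p.1)
        · intro F _
          exact Finset.mem_coe.mpr (mem_univ _)
        · intro F hF F' hF' heq
          have hF1 : upd F = G := (mem_filter.mp (Finset.mem_coe.mp hF)).2
          have hF2 : upd F' = G := (mem_filter.mp (Finset.mem_coe.mp hF')).2
          funext p
          by_cases hp : p ∈ D m
          · exact congrFun heq ⟨p, hp⟩
          · have e1 : upd F p = F p := by simp [upd, hp]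
            have e2 : upd F' p = F' p := by simp [upd, hp]
            rw [← e1, ← e2, hF1, hF2]
      have h2 : (univ : Finset (D m → V)).card = Fintype.card V ^ (D m).card := by
        rw [Finset.card_univ, Fintype.card_fun, Fintype.card_coe]
      rw [h2] at h1
      exact h1.trans (Nat.pow_le_pow_right Fintype.card_pos (hC m (by omega)))
    have hAB : A.card ≤ Fintype.card V ^ C * B.card := by
      have h1 := Finset.card_le_mul_card_image A (Fintype.card V ^ C) hfib
      exact h1.trans (Nat.mul_le_mul_left _ (Finset.card_le_card himg))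
    rw [hA']
    set A1 := (A.filter fun F : X → V => ¬ ∀ p ∈ D m, F p = dem p (F b)).card with hA1
    have hQ : 1 ≤ Fintype.card V ^ C := Nat.one_le_iff_ne_zero.mpr (by positivity)
    obtain ⟨Q', hQ'⟩ : ∃ Q', Fintype.card V ^ C = Q' + 1 := ⟨Fintype.card V ^ C - 1, by omega⟩
    rw [hQ'] at hAB ih' ⊢
    have hsub : Q' + 1 - 1 = Q' := by omega
    rw [hsub] at ih' ⊢
    have hstep : (Q' + 1) * A1 ≤ Q' * A.card := by
      have h3 : (Q' + 1) * A1 + (Q' + 1) * B.card = (Q' + 1) * A.card := by
        rw [← hsum]; ring
      nlinarith [h3, hAB]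
    calc (Q' + 1) ^ (m + 1) * A1 = (Q' + 1) ^ m * ((Q' + 1) * A1) := by ring
      _ ≤ (Q' + 1) ^ m * (Q' * A.card) := Nat.mul_le_mul_left _ hstep
      _ = Q' * ((Q' + 1) ^ m * A.card) := by ring
      _ ≤ Q' * (Q' ^ m * Fintype.card V ^ Fintype.card X) := Nat.mul_le_mul_left _ ih'
      _ = Q' ^ (m + 1) * Fintype.card V ^ Fintype.card X := by ring

/-- The random function lemma (union bound over all tests). -/
theorem random_function {X V T : Type*} [Fintype X] [DecidableEq X] [Fintype V] [Nonempty V]
    [Fintype T] (b : T → X) (C m : ℕ) (D : T → ℕ → Finset X) (dem : T → X → V → V)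
    (hb : ∀ t, ∀ i < m, b t ∉ D t i) (hC : ∀ t, ∀ i < m, (D t i).card ≤ C)
    (hD : ∀ t, ∀ i < m, ∀ j < m, i ≠ j → Disjoint (D t i) (D t j))
    (hlt : Fintype.card T * (Fintype.card V ^ C - 1) ^ m < (Fintype.card V ^ C) ^ m) :
    ∃ F : X → V, ∀ t, ∃ i < m, ∀ p ∈ D t i, F p = dem t p (F (b t)) := by
  classical
  by_contra hcon
  have hcon' : ∀ F : X → V, ∃ t, ∀ i < m, ∃ p ∈ D t i, F p ≠ dem t p (F (b t)) := by
    intro F
    by_contra h
    apply hcon
    refine ⟨F, fun t => ?_⟩
    by_contra h2
    apply h
    refine ⟨t, fun i hi => ?_⟩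
    by_contra h3
    apply h2
    refine ⟨i, hi, fun p hp => ?_⟩
    by_contra h4
    exact h3 ⟨p, hp, h4⟩
  let Bad : T → Finset (X → V) := fun t =>
    univ.filter fun F : X → V => ∀ i < m, ∃ p ∈ D t i, F p ≠ dem t p (F (b t))
  have hcover : (univ : Finset (X → V)) ⊆ univ.biUnion Bad := by
    intro F _
    obtain ⟨t, ht⟩ := hcon' F
    exact mem_biUnion.mpr ⟨t, mem_univ _, mem_filter.mpr ⟨mem_univ _, ht⟩⟩
  have h1 : Fintype.card V ^ Fintype.card X ≤ ∑ t : T, (Bad t).card := by
    have h2 := (Finset.card_le_card hcover).trans Finset.card_biUnion_le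
    rwa [Finset.card_univ, Fintype.card_fun] at h2
  have h3 : ∀ t, (Fintype.card V ^ C) ^ m * (Bad t).card
      ≤ (Fintype.card V ^ C - 1) ^ m * Fintype.card V ^ Fintype.card X := fun t =>
    count_bad (b t) C (dem t) (D t) m (hb t) (hC t) (hD t)
  have h4 : (Fintype.card V ^ C) ^ m * Fintype.card V ^ Fintype.card X
      ≤ Fintype.card T * ((Fintype.card V ^ C - 1) ^ m * Fintype.card V ^ Fintype.card X) := by
    calc (Fintype.card V ^ C) ^ m * Fintype.card V ^ Fintype.card X
        ≤ (Fintype.card V ^ C) ^ m * ∑ t : T, (Bad t).card := Nat.mul_le_mul_left _ h1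
      _ = ∑ t : T, (Fintype.card V ^ C) ^ m * (Bad t).card := by rw [Finset.mul_sum]
      _ ≤ ∑ _t : T, (Fintype.card V ^ C - 1) ^ m * Fintype.card V ^ Fintype.card X :=
          Finset.sum_le_sum fun t _ => h3 t
      _ = Fintype.card T * ((Fintype.card V ^ C - 1) ^ m * Fintype.card V ^ Fintype.card X) := by
          rw [Finset.sum_const, Finset.card_univ, smul_eq_mul]
  have hpos : 0 < Fintype.card V ^ Fintype.card X := by positivity
  rw [← mul_assoc] at h4
  have h5 := Nat.le_of_mul_le_mul_right h4 hpos
  omega

/-- A large prime beating a polynomial. -/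
theorem exists_prime_large (A Q N : ℕ) (hQ : 1 ≤ Q) :
    ∃ p, p.Prime ∧ N ≤ p ∧ A * (p * p) * (Q - 1) ^ p < Q ^ p := by
  have hQr : (0 : ℝ) < Q := by exact_mod_cast hQ
  have hr : |((Q - 1 : ℕ) : ℝ) / Q| < 1 := by
    rw [abs_of_nonneg (by positivity), div_lt_one hQr]
    exact_mod_cast (by omega : Q - 1 < Q)
  have h1 := (tendsto_pow_const_mul_const_pow_of_abs_lt_one 2 hr).const_mul (A : ℝ)
  rw [mul_zero] at h1
  have h2 := h1.eventually (gt_mem_nhds (zero_lt_one' ℝ))
  obtain ⟨n0, hn0⟩ := Filter.eventually_atTop.mp h2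
  obtain ⟨p, hp1, hp⟩ := Nat.exists_infinite_primes (max n0 N)
  refine ⟨p, hp, (le_max_right _ _).trans hp1, ?_⟩
  have h3 := hn0 p ((le_max_left _ _).trans hp1)
  rw [div_pow] at h3
  have hQp : (0 : ℝ) < (Q : ℝ) ^ p := by positivity
  have h4 : (A : ℝ) * ((p : ℝ) * p) * ((Q - 1 : ℕ) : ℝ) ^ p < (Q : ℝ) ^ p := by
    have h5 : (A : ℝ) * ((p : ℝ) ^ 2 * (((Q - 1 : ℕ) : ℝ) ^ p / (Q : ℝ) ^ p))
        = ((A : ℝ) * ((p : ℝ) * p) * ((Q - 1 : ℕ) : ℝ) ^ p) / (Q : ℝ) ^ p := by ring
    rw [h5, div_lt_one hQp] at h3
    exact h3
  exact_mod_cast h4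

/-! ## The good function -/

/-- Existence of the noise function: for every `(s, w, v)` some level `i < m` is good. -/
theorem exists_good {S V : Type*} [Fintype S] [AddCommGroup V] [Fintype V] (act : V → S → V) :
    ∃ (m : ℕ) (W : Type) (_ : AddCommGroup W) (_ : Fintype W) (e : ℕ → S → W) (F : S → W → V),
      ∀ (s : S) (w : W) (v : V), ∃ i < m, ∀ x z : S, x ≠ z → ∀ s' : S,
        F s' (w - e i x + e i z) + act v s' = F s w + act v s := by
  classical
  obtain ⟨p, hp, hKp, hlt⟩ := exists_prime_large (Fintype.card S * Fintype.card V)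
    (Fintype.card V ^ (Fintype.card S ^ 3)) (Fintype.card S)
    (Nat.one_le_iff_ne_zero.mpr (by positivity))
  have : Fact p.Prime := ⟨hp⟩
  let code : S → ZMod p := fun z => ((Fintype.equivFin S z : ℕ) : ZMod p)
  have hcode : Function.Injective code := by
    intro x y hxy
    have h1 : ((Fintype.equivFin S x : ℕ) : ZMod p) = ((Fintype.equivFin S y : ℕ) : ZMod p) := hxy
    rw [ZMod.natCast_eq_natCast_iff', Nat.mod_eq_of_lt (lt_of_lt_of_le (Fin.is_lt _) hKp),
      Nat.mod_eq_of_lt (lt_of_lt_of_le (Fin.is_lt _) hKp)] at h1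
    exact (Fintype.equivFin S).injective (Fin.ext h1)
  let e : ℕ → S → ZMod p × ZMod p := fun i z => (code z, code z * (i : ZMod p))
  have he : ∀ i j x z x' z', i < p → j < p → x ≠ z →
      e i z - e i x = e j z' - e j x' → i = j := by
    intro i j x z x' z' hi hj hxz heq
    have h1 : code z - code x = code z' - code x' := congrArg Prod.fst heq
    have h2 : code z * (i : ZMod p) - code x * (i : ZMod p)
        = code z' * (j : ZMod p) - code x' * (j : ZMod p) := congrArg Prod.snd heq
    have h3 : code z - code x ≠ 0 := fun h => hxz (hcode (sub_eq_zero.mp h)).symm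
    have h4 : (code z - code x) * (i : ZMod p) = (code z - code x) * (j : ZMod p) := by
      rw [sub_mul, h2, h1, sub_mul]
    have h5 := mul_left_cancel₀ h3 h4
    rw [ZMod.natCast_eq_natCast_iff', Nat.mod_eq_of_lt hi, Nat.mod_eq_of_lt hj] at h5
    exact h5
  let D : S × (ZMod p × ZMod p) × V → ℕ → Finset (S × (ZMod p × ZMod p)) := fun t i =>
    (univ.filter fun a : S × S × S => a.2.1 ≠ a.2.2).image
      fun a => (a.1, t.2.1 - e i a.2.1 + e i a.2.2)
  let dem : S × (ZMod p × ZMod p) × V → S × (ZMod p × ZMod p) → V → V := fun t x y =>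
    y + act t.2.2 t.1 - act t.2.2 x.1
  have hcardT : Fintype.card (S × (ZMod p × ZMod p) × V)
      = Fintype.card S * Fintype.card V * (p * p) := by
    rw [Fintype.card_prod, Fintype.card_prod, Fintype.card_prod, ZMod.card]
    ring
  obtain ⟨F, hF⟩ := random_function (X := S × (ZMod p × ZMod p)) (V := V)
    (T := S × (ZMod p × ZMod p) × V) (fun t => (t.1, t.2.1)) (Fintype.card S ^ 3) p D dem
    (by
      intro t i hi hmem
      obtain ⟨a, ha, heq⟩ := mem_image.mp hmem
      have hne : a.2.1 ≠ a.2.2 := (mem_filter.mp ha).2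
      have h1 : t.2.1 - e i a.2.1 + e i a.2.2 = t.2.1 := congrArg Prod.snd heq
      have h2 : e i a.2.2 - e i a.2.1 = 0 := by
        have h3 : t.2.1 + (e i a.2.2 - e i a.2.1) = t.2.1 + 0 := by
          rw [add_zero]; nth_rewrite 2 [← h1]; abel
        exact add_left_cancel h3
      have h4 : code a.2.2 - code a.2.1 = 0 := congrArg Prod.fst h2
      exact hne (hcode (sub_eq_zero.mp h4)).symm)
    (by
      intro t i hi
      refine (Finset.card_image_le).trans ((Finset.card_filter_le _ _).trans ?_)
      rw [Finset.card_univ, Fintype.card_prod, Fintype.card_prod]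
      exact le_of_eq (by ring))
    (by
      intro t i hi j hj hij
      rw [Finset.disjoint_left]
      intro y hy hy'
      obtain ⟨a, ha, heq⟩ := mem_image.mp hy
      obtain ⟨a', ha', heq'⟩ := mem_image.mp hy'
      have hne : a.2.1 ≠ a.2.2 := (mem_filter.mp ha).2
      have h1 : t.2.1 - e i a.2.1 + e i a.2.2 = t.2.1 - e j a'.2.1 + e j a'.2.2 := by
        have h2 := congrArg Prod.snd heq
        have h3 := congrArg Prod.snd heq'
        exact h2.trans h3.symm
      have h2 : e i a.2.2 - e i a.2.1 = e j a'.2.2 - e j a'.2.1 := by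
        have h3 : t.2.1 + (e i a.2.2 - e i a.2.1) = t.2.1 + (e j a'.2.2 - e j a'.2.1) := by
          have e1 : t.2.1 + (e i a.2.2 - e i a.2.1) = t.2.1 - e i a.2.1 + e i a.2.2 := by abel
          have e2 : t.2.1 + (e j a'.2.2 - e j a'.2.1) = t.2.1 - e j a'.2.1 + e j a'.2.2 := by abel
          rw [e1, e2, h1]
        exact add_left_cancel h3
      exact hij (he i j a.2.1 a.2.2 a'.2.1 a'.2.2 hi hj hne h2))
    (by
      rw [hcardT]
      exact hlt)
  refine ⟨p, ZMod p × ZMod p, inferInstance, inferInstance, e, fun s w => F (s, w), ?_⟩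
  intro s w v
  obtain ⟨i, hi, hgood⟩ := hF (s, w, v)
  refine ⟨i, hi, fun x z hxz s' => ?_⟩
  have hmem : (s', w - e i x + e i z) ∈ D (s, w, v) i :=
    mem_image.mpr ⟨(s', x, z), mem_filter.mpr ⟨mem_univ _, hxz⟩, rfl⟩
  have h1 := hgood _ hmem
  have h2 : F (s', w - e i x + e i z) = F (s, w) + act v s - act v s' := h1
  show F (s', w - e i x + e i z) + act v s' = F (s, w) + act v s
  rw [h2]; abel

/-! ## Words -/

/-- The weighted sum of the products of the first `i` blocks of length `l`. -/
def wt {α S W : Type*} [AddCommMonoid W] (phi : List α → S) (e : ℕ → S → W) (l i : ℕ)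
    (u : List α) : W :=
  ∑ j ∈ range i, e j (phi ((u.drop (j * l)).take l))

/-- The weighted sum of the products of the blocks `i + 1, ..., m - 1`, read in the right word
`q = u.drop t`. -/
def wtR {α S W : Type*} [AddCommMonoid W] (phi : List α → S) (e : ℕ → S → W) (l m i t : ℕ)
    (q : List α) : W :=
  ∑ j ∈ Ico (i + 1) m, e j (phi ((q.drop (j * l - t)).take l))

theorem split_prod {α S : Type*} [Mul S] (phi : List α → S)
    (hphi : ∀ p q, phi (p ++ q) = phi p * phi q) (l i o : ℕ) (p q : List α)
    (hp : p.length = i * l + o) (ho : o ≤ l) :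
    phi (p ++ q) = phi (p.take (i * l)) * phi (((p ++ q).drop (i * l)).take l)
      * phi (q.drop (l - o)) := by
  have h1 : p.take (i * l) = (p ++ q).take (i * l) := by
    rw [List.take_append_of_le_length (by omega)]
  have h2 : q.drop (l - o) = ((p ++ q).drop (i * l)).drop l := by
    rw [List.drop_drop, List.drop_append, List.drop_eq_nil_of_le (as := p) (by omega), List.nil_append]
    congr 1
    omega
  rw [h1, h2, ← hphi, ← hphi, List.append_assoc, List.take_append_drop, List.take_append_drop]

theorem split_wt {α S W : Type*} [AddCommMonoid W] (phi : List α → S) (e : ℕ → S → W)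
    (l m i o : ℕ) (p q : List α)
    (hp : p.length = i * l + o) (ho : o ≤ l) (him : i < m) :
    wt phi e l m (p ++ q) = wt phi e l i p + e i (phi (((p ++ q).drop (i * l)).take l))
      + wtR phi e l m i (i * l + o) q := by
  have h1 : wt phi e l i p = ∑ j ∈ range i, e j (phi (((p ++ q).drop (j * l)).take l)) := by
    unfold wt
    apply Finset.sum_congr rfl
    intro j hj
    have hj' : j + 1 ≤ i := by simpa using hj
    have h3 : (j + 1) * l ≤ i * l := Nat.mul_le_mul_right l hj'
    have h4 : (j + 1) * l = j * l + l := by ring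
    rw [List.drop_append_of_le_length (by omega), List.take_append_of_le_length]
    rw [List.length_drop]
    omega
  have h2 : wtR phi e l m i (i * l + o) q
      = ∑ j ∈ Ico (i + 1) m, e j (phi (((p ++ q).drop (j * l)).take l)) := by
    unfold wtR
    apply Finset.sum_congr rfl
    intro j hj
    have hj' : i + 1 ≤ j := (Finset.mem_Ico.mp hj).1
    have h3 : (i + 1) * l ≤ j * l := Nat.mul_le_mul_right l hj'
    have h4 : (i + 1) * l = i * l + l := by ring
    rw [List.drop_append (l₁ := p), List.drop_eq_nil_of_le (as := p) (by omega), List.nil_append, hp]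
  rw [h1, h2]
  unfold wt
  rw [Finset.range_eq_Ico, ← Finset.sum_Ico_consecutive _ (Nat.zero_le i) him.le,
    Finset.sum_eq_sum_Ico_succ_bot him, ← Finset.range_eq_Ico, add_assoc]

theorem uniq_div (l i i' a a' : ℕ) (ha : a < l) (ha' : a' < l) (h : i * l + a = i' * l + a') :
    i = i' ∧ a = a' := by
  have h1 : (i * l + a) / l = i := by
    rw [Nat.add_comm, Nat.add_mul_div_right _ _ (by omega), Nat.div_eq_of_lt ha, zero_add]
  have h2 : (i' * l + a') / l = i' := by
    rw [Nat.add_comm, Nat.add_mul_div_right _ _ (by omega), Nat.div_eq_of_lt ha', zero_add]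
  have h3 : i = i' := by rw [← h1, ← h2, h]
  subst h3
  exact ⟨rfl, by omega⟩

/-- **The exact gadget** (helper237, #12538). -/
theorem exact_gadget {α S V : Type*} [Mul S] [Fintype S] [AddCommGroup V] [Fintype V]
    (act : V → S → V) (phi : List α → S) (hphi : ∀ p q, phi (p ++ q) = phi p * phi q) :
    ∃ n0 : ℕ, ∀ n ≥ n0, ∃ (lam rho : List α → Option V) (nu : List α → V),
      (∀ p q v r, (p ++ q).length = n → lam p = some v → rho q = some r →
        r = act v (phi (p ++ q)) + nu (p ++ q)) ∧
      (∀ u : List α, u.length = n → ∀ v : V, ∃ p q, u = p ++ q ∧ p ≠ [] ∧ q ≠ [] ∧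
        lam p = some v ∧ ∃ r, rho q = some r) := by
  classical
  obtain ⟨m, W, _, _, e, F, hF⟩ := exists_good act
  have hm : 0 < m := by
    obtain ⟨i, hi, -⟩ := hF (phi []) 0 0
    omega
  let Ctx := S × W × S × W × V
  refine ⟨m * (Fintype.card Ctx + 2), fun n hn => ?_⟩
  set l := n / m with hl
  have hl1 : Fintype.card Ctx + 2 ≤ l := by
    rw [hl, Nat.le_div_iff_mul_le hm, Nat.mul_comm]
    exact hn
  have hml : m * l ≤ n := Nat.mul_div_le n m
  let o : Ctx → ℕ := fun c => (Fintype.equivFin Ctx c : ℕ) + 1
  have ho1 : ∀ c, 1 ≤ o c := fun c => by simp [o]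
  have ho2 : ∀ c, o c < l := fun c => by
    have := (Fintype.equivFin Ctx c).is_lt
    simp only [o]
    omega
  have hoinj : ∀ c c', o c = o c' → c = c' := fun c c' h => by
    simp only [o] at h
    exact (Fintype.equivFin Ctx).injective (Fin.ext (by omega))
  have huniq : ∀ i i' c c', i * l + o c = i' * l + o c' → i = i' ∧ c = c' := by
    intro i i' c c' h
    obtain ⟨h1, h2⟩ := uniq_div l i i' (o c) (o c') (ho2 c) (ho2 c') h
    exact ⟨h1, hoinj c c' h2⟩
  let val : ℕ → Ctx → S → V := fun i c z =>
    F (c.1 * z * c.2.2.1) (c.2.1 + e i z + c.2.2.2.1) + act c.2.2.2.2 (c.1 * z * c.2.2.1)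
  let Good : ℕ → Ctx → Prop := fun i c => ∀ z z', val i c z = val i c z'
  let LL : List α → ℕ × Ctx → Prop := fun p ic =>
    p.length = ic.1 * l + o ic.2 ∧ ic.1 < m ∧ Good ic.1 ic.2 ∧
      phi (p.take (ic.1 * l)) = ic.2.1 ∧ wt phi e l ic.1 p = ic.2.2.1
  let RL : List α → ℕ × Ctx → Prop := fun q ic =>
    q.length + (ic.1 * l + o ic.2) = n ∧ ic.1 < m ∧ Good ic.1 ic.2 ∧
      phi (q.drop (l - o ic.2)) = ic.2.2.2.1 ∧
      wtR phi e l m ic.1 (ic.1 * l + o ic.2) q = ic.2.2.2.2.1
  have hLLu : ∀ p ic ic', LL p ic → LL p ic' → ic = ic' := by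
    intro p ic ic' h h'
    have h1 := huniq ic.1 ic'.1 ic.2 ic'.2 (by rw [← h.1, ← h'.1])
    exact Prod.ext h1.1 h1.2
  let lam : List α → Option V := fun p =>
    if h : ∃ ic, LL p ic then some (Classical.choose h).2.2.2.2.2 else none
  let rho : List α → Option V := fun q =>
    if h : ∃ ic, RL q ic then
      some (val (Classical.choose h).1 (Classical.choose h).2 (phi [])) else none
  refine ⟨lam, rho, fun u => F (phi u) (wt phi e l m u), ?_, ?_⟩
  · intro p q v r hlen hv hr
    by_cases hL : ∃ ic, LL p ic
    · by_cases hR : ∃ ic, RL q ic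
      · have hv0 : lam p = some (Classical.choose hL).2.2.2.2.2 := dif_pos hL
        have hr0 : rho q = some (val (Classical.choose hR).1 (Classical.choose hR).2 (phi [])) :=
          dif_pos hR
        have hv' : some (Classical.choose hL).2.2.2.2.2 = some v := by rw [← hv, ← hv0]
        have hr' : some (val (Classical.choose hR).1 (Classical.choose hR).2 (phi [])) = some r := by
          rw [← hr, ← hr0]
        have hLs := Classical.choose_spec hL
        have hRs := Classical.choose_spec hR
        generalize Classical.choose hL = ic at hv' hLs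
        generalize Classical.choose hR = ic' at hr' hRs
        obtain ⟨i, c⟩ := ic
        obtain ⟨i', c'⟩ := ic'
        obtain ⟨a1, a2, a3, a4, a5⟩ := hLs
        obtain ⟨b1, b2, b3, b4, b5⟩ := hRs
        simp only at a1 a2 a3 a4 a5 b1 b2 b3 b4 b5 hv' hr'
        have h1 : i * l + o c = i' * l + o c' := by
          rw [List.length_append] at hlen
          omega
        obtain ⟨rfl, rfl⟩ := huniq i i' c c' h1
        have hs := split_prod phi hphi l i (o c) p q a1 (ho2 c).le
        have hw := split_wt phi e l m i (o c) p q a1 (ho2 c).le a2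
        rw [a4, b4] at hs
        rw [a5, b5] at hw
        have hv'' : c.2.2.2.2 = v := Option.some.inj hv'
        have hr'' : val i c (phi []) = r := Option.some.inj hr'
        have h2 := a3 (phi []) (phi (((p ++ q).drop (i * l)).take l))
        rw [← hr'', h2]
        show F (c.1 * _ * c.2.2.1) (c.2.1 + e i _ + c.2.2.2.1) + act c.2.2.2.2 (c.1 * _ * c.2.2.1)
          = act v (phi (p ++ q)) + F (phi (p ++ q)) (wt phi e l m (p ++ q))
        rw [hw, hs, hv'', add_comm]
      · exfalso
        have : rho q = none := dif_neg hR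
        rw [this] at hr
        exact absurd hr (by simp)
    · exfalso
      have : lam p = none := dif_neg hL
      rw [this] at hv
      exact absurd hv (by simp)
  · intro u hu v
    obtain ⟨i, him, hgood⟩ := hF (phi u) (wt phi e l m u) v
    have hil : (i + 1) * l ≤ m * l := Nat.mul_le_mul_right l him
    have hil' : (i + 1) * l = i * l + l := by ring
    -- the actual context, read off at the split `i * l + 1`, then transported
    let c : Ctx := (phi (u.take (i * l)), wt phi e l i (u.take (i * l)),
      phi (u.drop ((i + 1) * l)),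
      ∑ j ∈ Ico (i + 1) m, e j (phi ((u.drop (j * l)).take l)), v)
    have hot : i * l + o c < n := by
      have := ho2 c
      omega
    set t := i * l + o c with ht
    have hpl : (u.take t).length = t := by
      rw [List.length_take, hu]; omega
    have hql : (u.drop t).length = n - t := by
      rw [List.length_drop, hu]
    have hpq : u.take t ++ u.drop t = u := List.take_append_drop t u
    have hc1 : phi ((u.take t).take (i * l)) = c.1 := by
      show _ = phi (u.take (i * l))
      rw [List.take_take, Nat.min_eq_left (by omega)]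
    have hc2 : wt phi e l i (u.take t) = c.2.1 := by
      show _ = wt phi e l i (u.take (i * l))
      unfold wt
      apply Finset.sum_congr rfl
      intro j hj
      have hj' : j + 1 ≤ i := by simpa using hj
      have h3 : (j + 1) * l ≤ i * l := Nat.mul_le_mul_right l hj'
      have h4 : (j + 1) * l = j * l + l := by ring
      rw [List.drop_take, List.drop_take, List.take_take, List.take_take,
        Nat.min_eq_left (by omega), Nat.min_eq_left (by omega)]
    have hc3 : phi ((u.drop t).drop (l - o c)) = c.2.2.1 := by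
      show _ = phi (u.drop ((i + 1) * l))
      rw [List.drop_drop]
      congr 2
      have := ho2 c
      omega
    have hc4 : wtR phi e l m i t (u.drop t) = c.2.2.2.1 := by
      show _ = ∑ j ∈ Ico (i + 1) m, e j (phi ((u.drop (j * l)).take l))
      unfold wtR
      apply Finset.sum_congr rfl
      intro j hj
      have hj' : i + 1 ≤ j := (Finset.mem_Ico.mp hj).1
      have h3 : (i + 1) * l ≤ j * l := Nat.mul_le_mul_right l hj'
      rw [List.drop_drop]
      have h5 : t + (j * l - t) = j * l := by
        have := ho2 c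
        omega
      rw [h5]
    have hs := split_prod phi hphi l i (o c) (u.take t) (u.drop t) (by rw [hpl]) (ho2 c).le
    have hw := split_wt phi e l m i (o c) (u.take t) (u.drop t) (by rw [hpl]) (ho2 c).le him
    rw [hpq] at hs hw
    rw [hc1, hc3] at hs
    rw [hc2, ← ht, hc4] at hw
    have hGood : Good i c := by
      have key : ∀ z, val i c z = F (phi u) (wt phi e l m u) + act v (phi u) := by
        intro z
        show F (c.1 * z * c.2.2.1) (c.2.1 + e i z + c.2.2.2.1) + act v (c.1 * z * c.2.2.1)
          = F (phi u) (wt phi e l m u) + act v (phi u)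
        by_cases hz : phi ((u.drop (i * l)).take l) = z
        · rw [← hz, ← hs, ← hw]
        · have h1 := hgood _ z hz (c.1 * z * c.2.2.1)
          rw [← h1]
          congr 2
          rw [hw]
          abel
      intro z z'
      rw [key z, key z']
    have hLL : LL (u.take t) (i, c) := ⟨hpl, him, hGood, hc1, hc2⟩
    have hRL : RL (u.drop t) (i, c) := ⟨by rw [hql]; omega, him, hGood, hc3, hc4⟩
    refine ⟨u.take t, u.drop t, hpq.symm, ?_, ?_, ?_, ?_⟩
    · intro h
      rw [h, List.length_nil] at hpl
      have := ho1 c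
      omega
    · intro h
      rw [h, List.length_nil] at hql
      omega
    · have hex : ∃ ic, LL (u.take t) ic := ⟨_, hLL⟩
      have h1 : lam (u.take t) = some (Classical.choose hex).2.2.2.2.2 := dif_pos hex
      rw [h1, hLLu _ _ _ (Classical.choose_spec hex) hLL]
    · have hex : ∃ ic, RL (u.drop t) ic := ⟨_, hRL⟩
      exact ⟨_, dif_pos hex⟩

/-- The exact gadget for a morphism `FreeMonoid α →* S` into a finite monoid of endomorphisms of a
finite abelian group (tokens act from the right: `v ↦ f (phi u) v`). -/
theorem exact_gadget_free {α S V : Type*} [Monoid S] [Fintype S] [AddCommGroup V] [Fintype V]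
    (act : V → S → V) (f : FreeMonoid α →* S) :
    ∃ n0 : ℕ, ∀ n ≥ n0, ∃ (lam rho : List α → Option V) (nu : List α → V),
      (∀ p q v r, (p ++ q).length = n → lam p = some v → rho q = some r →
        r = act v (f (FreeMonoid.ofList (p ++ q))) + nu (p ++ q)) ∧
      (∀ u : List α, u.length = n → ∀ v : V, ∃ p q, u = p ++ q ∧ p ≠ [] ∧ q ≠ [] ∧
        lam p = some v ∧ ∃ r, rho q = some r) :=
  exact_gadget act (fun l => f (FreeMonoid.ofList l)) fun p q => by
    rw [FreeMonoid.ofList_append, map_mul]

end Crest.Agent.R320.Exact_374
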