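import Mathlib

/-!
# Row 320, item (6): the exact gadget (237, post 12538), complete word form

For every finite monoid `S`, multiplicative `φ : List A → S`, finite additive commutative group
`V` and ARBITRARY function `act : S → V → V` there is `n0` such that for all `n ≥ n0` there are
partial labels `lam` (of left parts), `rho` (of right parts) and a noise `nu` (of whole units of
length `n`), exact at every legal junction, such that in every unit every token is cut.
-/

namespace Crest.Agent.R320.Exact412

open Finset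

/-- Union bound core: pairwise disjoint demand sets; the number of functions which violate all of
them is at most `(1 - 1/N)^|I|` of all functions. -/
theorem count_bad {P V ι : Type*} [Fintype P] [DecidableEq P] [Fintype V] [DecidableEq V]
    [DecidableEq ι] (N : ℕ) (D : ι → Finset P) (dem : P → V) (I : Finset ι)
    (hD : ∀ i ∈ I, ∀ j ∈ I, i ≠ j → Disjoint (D i) (D j))
    (hN : ∀ i ∈ I, Fintype.card V ^ (D i).card ≤ N) :
    N ^ I.card *
      ((univ : Finset (P → V)).filter fun F => ∀ i ∈ I, ∃ x ∈ D i, F x ≠ dem x).card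
      ≤ (N - 1) ^ I.card * Fintype.card V ^ Fintype.card P := by
  classical
  induction I using Finset.induction_on with
  | empty => simp
  | @insert i I hi ih =>
    have ih' := ih (fun a ha b hb => hD a (mem_insert_of_mem ha) b (mem_insert_of_mem hb))
      (fun a ha => hN a (mem_insert_of_mem ha))
    set X := (univ : Finset (P → V)).filter fun F => ∀ i ∈ I, ∃ x ∈ D i, F x ≠ dem x with hX
    set Y := X.filter fun F => ∀ x ∈ D i, F x = dem x with hY
    set Z := (univ : Finset (P → V)).filter
      fun F => ∀ j ∈ insert i I, ∃ x ∈ D j, F x ≠ dem x with hZ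
    have hZX : Z = X.filter fun F => ¬ ∀ x ∈ D i, F x = dem x := by
      ext F
      simp only [hZ, hX, mem_filter, mem_univ, true_and, mem_insert, forall_eq_or_imp]
      constructor
      · rintro ⟨h1, h2⟩
        refine ⟨h2, ?_⟩
        push Not
        exact h1
      · rintro ⟨h1, h2⟩
        refine ⟨?_, h1⟩
        push Not at h2
        exact h2
    have hsum : Y.card + Z.card = X.card := by
      rw [hZX, hY]
      exact Finset.card_filter_add_card_filter_not _
    have hXY : X.card ≤ N * Y.card := by
      refine Finset.card_le_mul_card_image_of_maps_to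
        (f := fun (F : P → V) (x : P) => if x ∈ D i then dem x else F x) ?_ N ?_
      · intro F hF
        simp only [hX, mem_filter, mem_univ, true_and] at hF
        simp only [hY, hX, mem_filter, mem_univ, true_and]
        refine ⟨?_, ?_⟩
        · intro j hj
          obtain ⟨x, hx, hne⟩ := hF j hj
          refine ⟨x, hx, ?_⟩
          have hij : i ≠ j := by rintro rfl; exact hi hj
          have hdis := hD i (mem_insert_self _ _) j (mem_insert_of_mem hj) hij
          have hxi : x ∉ D i := fun h => (Finset.disjoint_left.mp hdis) h hx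
          simp only [hxi, if_false]
          exact hne
        · intro x hx
          simp only [hx, if_true]
      · intro G _
        refine le_trans ?_ (hN i (mem_insert_self _ _))
        have hc : Fintype.card V ^ (D i).card = (univ : Finset ((D i) → V)).card := by
          rw [card_univ, Fintype.card_fun, Fintype.card_coe]
        rw [hc]
        refine Finset.card_le_card_of_injOn (fun (F : P → V) (x : D i) => F x.1)
          (fun _ _ => mem_univ _) ?_
        intro F1 h1 F2 h2 heq
        simp only [coe_filter, Set.mem_ofPred_eq] at h1 h2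
        funext x
        by_cases hx : x ∈ D i
        · exact congrFun heq ⟨x, hx⟩
        · have e1 := congrFun h1.2 x
          have e2 := congrFun h2.2 x
          simp only [hx, if_false] at e1 e2
          rw [e1, e2]
    have hstep : N * Z.card ≤ (N - 1) * X.card := by
      rcases Nat.eq_zero_or_pos N with h0 | h0
      · subst h0; simp
      · obtain ⟨M, rfl⟩ : ∃ M, N = M + 1 := ⟨N - 1, by omega⟩
        simp only [Nat.add_sub_cancel]
        nlinarith
    rw [card_insert_of_notMem hi, pow_succ, pow_succ]
    calc N ^ I.card * N * Z.card = N ^ I.card * (N * Z.card) := by ring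
      _ ≤ N ^ I.card * ((N - 1) * X.card) := Nat.mul_le_mul_left _ hstep
      _ = (N - 1) * (N ^ I.card * X.card) := by ring
      _ ≤ (N - 1) * ((N - 1) ^ I.card * Fintype.card V ^ Fintype.card P) :=
          Nat.mul_le_mul_left _ ih'
      _ = (N - 1) ^ I.card * (N - 1) * Fintype.card V ^ Fintype.card P := by ring

/-- A large prime beats a quadratic factor. -/
theorem exists_prime_bound (C N M : ℕ) (hN : 1 ≤ N) :
    ∃ p : ℕ, p.Prime ∧ M ≤ p ∧ C * p ^ 2 * (N - 1) ^ p < N ^ p := by
  have hr : |((N : ℝ) - 1) / N| < 1 := by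
    have hN' : (1 : ℝ) ≤ N := by exact_mod_cast hN
    rw [abs_of_nonneg (div_nonneg (by linarith) (by linarith)), div_lt_one (by linarith)]
    linarith
  have ht := tendsto_pow_const_mul_const_pow_of_abs_lt_one 2 hr
  have ht2 := ht.const_mul (C : ℝ)
  rw [mul_zero] at ht2
  have hev := (ht2.eventually (gt_mem_nhds (show (0 : ℝ) < 1 by norm_num)))
  rw [Filter.eventually_atTop] at hev
  obtain ⟨n1, hn1⟩ := hev
  obtain ⟨p, hp1, hp2⟩ := Nat.exists_infinite_primes (max n1 M)
  refine ⟨p, hp2, le_trans (le_max_right _ _) hp1, ?_⟩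
  have h := hn1 p (le_trans (le_max_left _ _) hp1)
  have hN' : (0 : ℝ) < N := by exact_mod_cast hN
  have hNp : (0 : ℝ) < (N : ℝ) ^ p := pow_pos hN' p
  rw [div_pow] at h
  have h2 : (C : ℝ) * (p : ℝ) ^ 2 * ((N : ℝ) - 1) ^ p < (N : ℝ) ^ p := by
    have h3 : (C : ℝ) * ((p : ℝ) ^ 2 * (((N : ℝ) - 1) ^ p / (N : ℝ) ^ p))
        = ((C : ℝ) * (p : ℝ) ^ 2 * ((N : ℝ) - 1) ^ p) / (N : ℝ) ^ p := by
      field_simp
    rw [h3, div_lt_one hNp] at h
    exact h
  have h4 : (((C * p ^ 2 * (N - 1) ^ p : ℕ)) : ℝ) < ((N ^ p : ℕ) : ℝ) := by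
    push_cast [Nat.cast_sub hN]
    exact h2
  exact_mod_cast h4

/-- The random function of the total type: for every state `(s, w)` and token `v` some phase
`i < p` is good. -/
theorem exists_F {S V : Type*} [Fintype S] [DecidableEq S] [Fintype V] [DecidableEq V]
    [AddCommGroup V] (act : S → V → V) :
    ∃ (p : ℕ) (_ : p.Prime) (ι : S → ZMod p), Function.Injective ι ∧
      ∃ F : S × (ZMod p × ZMod p) → V, ∀ (s : S) (w : ZMod p × ZMod p) (v : V),
        ∃ i : ℕ, i < p ∧ ∀ (s' x z : S), x ≠ z →
          F (s', w + (ι z - ι x, (i : ZMod p) * (ι z - ι x)))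
            = F (s, w) + act s v - act s' v := by
  classical
  set K := Fintype.card S * (Fintype.card S * Fintype.card S) with hK
  set N := Fintype.card V ^ K with hN
  have hVpos : 0 < Fintype.card V := Fintype.card_pos_iff.mpr ⟨0⟩
  have hN1 : 1 ≤ N := Nat.one_le_pow _ _ hVpos
  obtain ⟨p, hp, hpS, hpb⟩ := exists_prime_bound
    (Fintype.card S * Fintype.card V * Fintype.card V) N (Fintype.card S) hN1
  have : Fact p.Prime := ⟨hp⟩
  have hcard : Fintype.card S ≤ Fintype.card (ZMod p) := by rw [ZMod.card]; exact hpS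
  obtain ⟨ι⟩ := Function.Embedding.nonempty_of_card_le hcard
  refine ⟨p, hp, ι, ι.injective, ?_⟩
  let D : (ZMod p × ZMod p) → ZMod p → Finset (S × (ZMod p × ZMod p)) := fun w i =>
    ((univ : Finset (S × (S × S))).filter fun y => y.2.1 ≠ y.2.2).image
      fun y => (y.1, w + (ι y.2.2 - ι y.2.1, i * (ι y.2.2 - ι y.2.1)))
  have hDcard : ∀ w i, (D w i).card ≤ K := by
    intro w i
    refine le_trans Finset.card_image_le (le_trans (Finset.card_filter_le _ _) ?_)
    rw [card_univ, Fintype.card_prod, Fintype.card_prod]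
  have hDdis : ∀ w i j, i ≠ j → Disjoint (D w i) (D w j) := by
    intro w i j hij
    rw [Finset.disjoint_left]
    intro y h1 h2
    simp only [D, mem_image, mem_filter, mem_univ, true_and] at h1 h2
    obtain ⟨a, ha, rfl⟩ := h1
    obtain ⟨b, hb, hab⟩ := h2
    simp only [Prod.mk.injEq, add_right_inj] at hab
    obtain ⟨_, h1, h2⟩ := hab
    apply hij
    rw [h1] at h2
    have hne : ι a.2.2 - ι a.2.1 ≠ 0 := by
      rw [sub_ne_zero]
      intro h
      exact ha (ι.injective h).symm
    exact (mul_right_cancel₀ hne h2).symm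
  let Bad : (S × (ZMod p × ZMod p)) × (V × V) → Finset (S × (ZMod p × ZMod p) → V) := fun T =>
    (univ : Finset (S × (ZMod p × ZMod p) → V)).filter
      fun F => ∀ i ∈ (univ : Finset (ZMod p)), ∃ x ∈ D T.1.2 i,
        F x ≠ T.2.2 + act T.1.1 T.2.1 - act x.1 T.2.1
  have hBad : ∀ T, N ^ p * (Bad T).card ≤
      (N - 1) ^ p * Fintype.card V ^ Fintype.card (S × (ZMod p × ZMod p)) := by
    intro T
    have := count_bad (P := S × (ZMod p × ZMod p)) (V := V) (ι := ZMod p) N (D T.1.2)
      (fun x => T.2.2 + act T.1.1 T.2.1 - act x.1 T.2.1) univ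
      (fun i _ j _ hij => hDdis _ i j hij)
      (fun i _ => Nat.pow_le_pow_right hVpos (hDcard _ i))
    rw [card_univ, ZMod.card] at this
    have hB : Bad T = (univ : Finset (S × (ZMod p × ZMod p) → V)).filter
        (fun F => ∀ i ∈ (univ : Finset (ZMod p)), ∃ x ∈ D T.1.2 i,
          F x ≠ T.2.2 + act T.1.1 T.2.1 - act x.1 T.2.1) := by
      ext F
      simp only [Bad, mem_filter]
    rw [hB]
    convert this using 3
    ext F
    simp only [mem_filter]
  have hlt : ((univ : Finset ((S × (ZMod p × ZMod p)) × (V × V))).biUnion Bad).card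
      < (univ : Finset (S × (ZMod p × ZMod p) → V)).card := by
    have h1 : N ^ p * ((univ : Finset ((S × (ZMod p × ZMod p)) × (V × V))).biUnion Bad).card
        ≤ (Fintype.card S * Fintype.card V * Fintype.card V * p ^ 2) *
          ((N - 1) ^ p * Fintype.card V ^ Fintype.card (S × (ZMod p × ZMod p))) := by
      calc N ^ p * ((univ : Finset ((S × (ZMod p × ZMod p)) × (V × V))).biUnion Bad).card
          ≤ N ^ p * ∑ T : (S × (ZMod p × ZMod p)) × (V × V), (Bad T).card :=
            Nat.mul_le_mul_left _ Finset.card_biUnion_le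
        _ = ∑ T : (S × (ZMod p × ZMod p)) × (V × V), N ^ p * (Bad T).card :=
            Finset.mul_sum _ _ _
        _ ≤ ∑ _T : (S × (ZMod p × ZMod p)) × (V × V),
              (N - 1) ^ p * Fintype.card V ^ Fintype.card (S × (ZMod p × ZMod p)) :=
            Finset.sum_le_sum fun T _ => hBad T
        _ = _ := by
            rw [Finset.sum_const, card_univ, smul_eq_mul]
            congr 1
            simp only [Fintype.card_prod, ZMod.card]
            ring
    rw [card_univ, Fintype.card_fun]
    have h2 : (Fintype.card S * Fintype.card V * Fintype.card V * p ^ 2) *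
          ((N - 1) ^ p * Fintype.card V ^ Fintype.card (S × (ZMod p × ZMod p)))
          < N ^ p * Fintype.card V ^ Fintype.card (S × (ZMod p × ZMod p)) := by
      have h3 : 0 < Fintype.card V ^ Fintype.card (S × (ZMod p × ZMod p)) := pow_pos hVpos _
      have h4 := Nat.mul_lt_mul_of_pos_right hpb h3
      linarith
    exact Nat.lt_of_mul_lt_mul_left (lt_of_le_of_lt h1 h2)
  obtain ⟨F, hF1, hF2⟩ : ∃ F ∈ (univ : Finset (S × (ZMod p × ZMod p) → V)),
      F ∉ ((univ : Finset ((S × (ZMod p × ZMod p)) × (V × V))).biUnion Bad) := by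
    by_contra hcon
    push Not at hcon
    exact absurd (Finset.card_le_card (fun F hF => hcon F hF)) (not_le.mpr hlt)
  refine ⟨F, fun s w v => ?_⟩
  have h := hF2
  simp only [Bad, mem_biUnion, mem_filter, mem_univ, true_and, not_exists, forall_true_left] at h
  have h' := h ((s, w), (v, F (s, w)))
  push Not at h'
  obtain ⟨i, hi⟩ := h'
  refine ⟨i.val, ZMod.val_lt i, fun s' x z hxz => ?_⟩
  rw [ZMod.natCast_zmod_val]
  refine hi (s', w + (ι z - ι x, i * (ι z - ι x))) ?_
  simp only [D, mem_image, mem_filter, mem_univ, true_and]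
  exact ⟨(s', (x, z)), hxz, rfl⟩

/-- **The exact gadget** (237, post 12538). -/
theorem exact_gadget {A S V : Type*} [Monoid S] [Fintype S] [AddCommGroup V] [Fintype V]
    (φ : List A → S) (hφ : ∀ x y, φ (x ++ y) = φ x * φ y) (act : S → V → V) :
    ∃ n0 : ℕ, ∀ n, n0 ≤ n → ∃ (L R : List A → V → Prop) (nu : List A → V),
      (∀ p q a b, (p ++ q).length = n → L p a → R q b →
        b = act (φ (p ++ q)) a + nu (p ++ q)) ∧
      (∀ p a a', L p a → L p a' → a = a') ∧
      (∀ q b b', R q b → R q b' → b = b') ∧
      (∀ u v, u.length = n → ∃ p q b, p ++ q = u ∧ 0 < p.length ∧ 0 < q.length ∧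
        L p v ∧ R q b) := by
  classical
  obtain ⟨m, hm, ι, hι, F, hF⟩ := exists_F (S := S) (V := V) act
  have hm0 : NeZero m := ⟨hm.ne_zero⟩
  let W := ZMod m × ZMod m
  let Ctx := (S × W) × (S × W) × V
  let K := Fintype.card Ctx
  let enc : Ctx ≃ Fin K := Fintype.equivFin Ctx
  let o : Ctx → ℕ := fun c => (enc c).val + 1
  have ho1 : ∀ c, 0 < o c := fun c => Nat.succ_pos _
  have hoK : ∀ c, o c < K + 1 := fun c => by
    have := (enc c).isLt
    show (enc c).val + 1 < K + 1
    omega
  have hoinj : ∀ c c', o c = o c' → c = c' := fun c c' h => by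
    have h' : (enc c).val + 1 = (enc c').val + 1 := h
    exact enc.injective (Fin.ext (by omega))
  let l := K + 1
  have hl : l = K + 1 := rfl
  let e : ℕ → S → W := fun j z => (ι z, (j : ZMod m) * ι z)
  -- products and weights
  let blk : List A → ℕ → S := fun u j => φ ((u.drop (j * l)).take l)
  let WL : List A → ℕ → W := fun u i => ∑ j ∈ range i, e j (blk u j)
  let blkR : List A → ℕ → ℕ → S := fun q t j => φ ((q.drop (j * l - t)).take l)
  let WR : List A → ℕ → ℕ → W := fun q t i => ∑ j ∈ Ico (i + 1) m, e j (blkR q t j)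
  let val : ℕ → Ctx → S → V := fun i c z =>
    F (c.1.1 * z * c.2.1.1, c.1.2 + e i z + c.2.1.2) + act (c.1.1 * z * c.2.1.1) c.2.2
  let good : ℕ → Ctx → Prop := fun i c => ∀ z, val i c z = val i c 1
  let nu : List A → V := fun u => F (φ u, WL u m)
  refine ⟨m * l, fun n hn => ?_⟩
  let L : List A → V → Prop := fun p v => ∃ (c : Ctx) (i : ℕ), i < m ∧ p.length = i * l + o c ∧
    good i c ∧ φ (p.take (i * l)) = c.1.1 ∧ WL p i = c.1.2 ∧ c.2.2 = v
  let R : List A → V → Prop := fun q b => ∃ (c : Ctx) (i t : ℕ), i < m ∧ t = i * l + o c ∧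
    q.length + t = n ∧
    good i c ∧ φ (q.drop ((i + 1) * l - t)) = c.2.1.1 ∧ WR q t i = c.2.1.2 ∧ val i c 1 = b
  -- position determines level and context
  have hpos : ∀ (c c' : Ctx) (i i' : ℕ), i * l + o c = i' * l + o c' → i = i' ∧ c = c' := by
    intro c c' i i' h
    have h1 := hoK c
    have h2 := hoK c'
    have hlt : o c < l := h1
    have hlt' : o c' < l := h2
    have hdiv : (i * l + o c) / l = i := by
      rw [Nat.add_comm, Nat.add_mul_div_right _ _ (by omega : 0 < l), Nat.div_eq_of_lt hlt,
        Nat.zero_add]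
    have hdiv' : (i' * l + o c') / l = i' := by
      rw [Nat.add_comm, Nat.add_mul_div_right _ _ (by omega : 0 < l), Nat.div_eq_of_lt hlt',
        Nat.zero_add]
    have hii : i = i' := by rw [← hdiv, ← hdiv', h]
    subst hii
    exact ⟨rfl, hoinj _ _ (by omega)⟩
  -- decomposition of the unit at level i
  have hdec : ∀ (u : List A) (i : ℕ),
      φ u = φ (u.take (i * l)) * blk u i * φ (u.drop ((i + 1) * l)) := by
    intro u i
    have h1 : u = u.take (i * l) ++ ((u.drop (i * l)).take l ++ u.drop ((i + 1) * l)) := by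
      have h2 : u.drop ((i + 1) * l) = (u.drop (i * l)).drop l := by
        rw [List.drop_drop]; congr 1; ring
      rw [h2, List.take_append_drop, List.take_append_drop]
    conv_lhs => rw [h1]
    rw [hφ, hφ, ← mul_assoc]
  have hdecW : ∀ (u : List A) (i : ℕ), i < m →
      WL u m = WL u i + e i (blk u i) + ∑ j ∈ Ico (i + 1) m, e j (blk u j) := by
    intro u i hi
    show ∑ j ∈ range m, e j (blk u j) = ∑ j ∈ range i, e j (blk u j) + e i (blk u i) + _
    rw [← Finset.sum_range_succ, Finset.range_eq_Ico, Finset.range_eq_Ico,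
      Finset.sum_Ico_consecutive _ (Nat.zero_le _) (by omega)]
  -- what left and right see
  have hleft1 : ∀ (p q : List A) (k : ℕ), k ≤ p.length → (p ++ q).take k = p.take k := by
    intro p q k hk
    rw [List.take_append_of_le_length hk]
  have hleft2 : ∀ (p q : List A) (i : ℕ), i * l ≤ p.length → WL (p ++ q) i = WL p i := by
    intro p q i hi
    refine Finset.sum_congr rfl fun j hj => ?_
    have hj' : j < i := Finset.mem_range.mp hj
    have hjl : (j + 1) * l ≤ i * l := Nat.mul_le_mul_right _ hj'
    have hjl2 : j * l + l ≤ p.length := by nlinarith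
    have : blk (p ++ q) j = blk p j := by
      show φ (((p ++ q).drop (j * l)).take l) = φ ((p.drop (j * l)).take l)
      rw [List.drop_append_of_le_length (by omega), List.take_append_of_le_length]
      rw [List.length_drop]
      omega
    rw [this]
  have hright1 : ∀ (p q : List A) (k : ℕ), p.length ≤ k →
      (p ++ q).drop k = q.drop (k - p.length) := by
    intro p q k hk
    rw [List.drop_append, List.drop_eq_nil_of_le hk, List.nil_append]
  have hright2 : ∀ (p q : List A) (i : ℕ), p.length ≤ (i + 1) * l →
      ∑ j ∈ Ico (i + 1) m, e j (blk (p ++ q) j) = WR q p.length i := by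
    intro p q i hi
    refine Finset.sum_congr rfl fun j hj => ?_
    have hj' : i + 1 ≤ j := (Finset.mem_Ico.mp hj).1
    have hjl : (i + 1) * l ≤ j * l := Nat.mul_le_mul_right _ hj'
    have : blk (p ++ q) j = blkR q p.length j := by
      show φ (((p ++ q).drop (j * l)).take l) = φ ((q.drop (j * l - p.length)).take l)
      rw [hright1 p q _ (by omega)]
    rw [this]
  refine ⟨L, R, nu, ?_, ?_, ?_, ?_⟩
  · rintro p q a b hlen ⟨c, i, him, hpl, hgood, hg, hwl, hv⟩
      ⟨c', i', t, _, ht, hqt, _, hh, hwr, hb⟩
    rw [List.length_append] at hlen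
    have htp : t = p.length := by omega
    subst htp
    obtain ⟨rfl, rfl⟩ := hpos c c' i i' (by omega)
    have hil : i * l ≤ p.length := by omega
    have hil' : p.length ≤ (i + 1) * l := by
      have := hoK c
      have h3 : (i + 1) * l = i * l + l := by ring
      omega
    have h1 := hdec (p ++ q) i
    rw [hleft1 p q _ hil, hg, hright1 p q _ hil', hh] at h1
    have h2 := hdecW (p ++ q) i him
    rw [hleft2 p q i hil, hwl, hright2 p q i hil', hwr] at h2
    have h3 := hgood (blk (p ++ q) i)
    rw [← hb, ← h3]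
    show F (c.1.1 * blk (p ++ q) i * c.2.1.1, c.1.2 + e i (blk (p ++ q) i) + c.2.1.2) +
      act (c.1.1 * blk (p ++ q) i * c.2.1.1) c.2.2 =
      act (φ (p ++ q)) a + F (φ (p ++ q), WL (p ++ q) m)
    rw [h1, h2, hv, add_comm]
  · rintro p a a' ⟨c, i, _, hpl, _, _, _, hv⟩ ⟨c', i', _, hpl', _, _, _, hv'⟩
    obtain ⟨rfl, rfl⟩ := hpos c c' i i' (by omega)
    rw [← hv, ← hv']
  · rintro q b b' ⟨c, i, t, _, ht, hqt, _, _, _, hb⟩ ⟨c', i', t', _, ht', hqt', _, _, _, hb'⟩
    obtain ⟨rfl, rfl⟩ := hpos c c' i i' (by omega)
    rw [← hb, ← hb']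
  · intro u v hu
    obtain ⟨i, him, hi⟩ := hF (φ u) (WL u m) v
    let c : Ctx := ((φ (u.take (i * l)), WL u i),
      (φ (u.drop ((i + 1) * l)), ∑ j ∈ Ico (i + 1) m, e j (blk u j)), v)
    have hval : ∀ z, val i c z = F (φ u, WL u m) + act (φ u) v := by
      intro z
      show F (φ (u.take (i * l)) * z * φ (u.drop ((i + 1) * l)),
          WL u i + e i z + ∑ j ∈ Ico (i + 1) m, e j (blk u j)) +
        act (φ (u.take (i * l)) * z * φ (u.drop ((i + 1) * l))) v = _
      by_cases hz : blk u i = z
      · rw [← hz, ← hdec u i, ← hdecW u i him]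
      · have h1 := hi (φ (u.take (i * l)) * z * φ (u.drop ((i + 1) * l))) (blk u i) z hz
        have h2 : WL u i + e i z + ∑ j ∈ Ico (i + 1) m, e j (blk u j)
            = WL u m + (ι z - ι (blk u i), (i : ZMod m) * (ι z - ι (blk u i))) := by
          rw [hdecW u i him]
          have h3 : e i z = e i (blk u i)
              + (ι z - ι (blk u i), (i : ZMod m) * (ι z - ι (blk u i))) := by
            show (ι z, (i : ZMod m) * ι z) = (ι (blk u i), (i : ZMod m) * ι (blk u i)) + _
            ext <;> simp [mul_sub]
          rw [h3]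
          abel
        rw [h2, h1]
        abel
    have hgood : good i c := fun z => by rw [hval z, hval 1]
    have htn : i * l + o c < n := by
      have h1 := hoK c
      have h2 : (i + 1) * l ≤ m * l := Nat.mul_le_mul_right _ him
      have h3 : (i + 1) * l = i * l + l := by ring
      omega
    have ho := ho1 c
    have hplen : (u.take (i * l + o c)).length = i * l + o c := by
      rw [List.length_take]; omega
    refine ⟨u.take (i * l + o c), u.drop (i * l + o c), val i c 1, List.take_append_drop _ _,
      by omega, by rw [List.length_drop]; omega, ?_, ?_⟩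
    · refine ⟨c, i, him, hplen, hgood, ?_, ?_, rfl⟩
      · rw [List.take_take, min_eq_left (by omega)]
      · have := hleft2 (u.take (i * l + o c)) (u.drop (i * l + o c)) i (by omega)
        rw [List.take_append_drop] at this
        exact this.symm
    · refine ⟨c, i, i * l + o c, him, rfl, by rw [List.length_drop]; omega, hgood, ?_, ?_, rfl⟩
      · rw [List.drop_drop]
        have h1 := hoK c
        have h3 : (i + 1) * l = i * l + l := by ring
        have h4 : i * l + o c + ((i + 1) * l - (i * l + o c)) = (i + 1) * l := by omega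
        rw [h4]
      · have h1 := hoK c
        have h3 : (i + 1) * l = i * l + l := by ring
        have := hright2 (u.take (i * l + o c)) (u.drop (i * l + o c)) i (by omega)
        rw [List.take_append_drop, hplen] at this
        exact this.symm

end Crest.Agent.R320.Exact412
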