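import Mathlib
import Crest.Agent.R320.ExactCnt_606

/-!
Item (6) of the plan for row 320: the exact gadget (both clocks exact), for every finite monoid `S`
acting (in any way) on a finite abelian group `V` of tokens.

Given the number of letters `n` of the zone (known to both sides) and a large enough set `J` of
allowed cut positions, there are relations `L p v` (the left word `p` cuts the token `v`) and
`R q b` (the right word `q` carries the label `b`) and a noise `nu` with: `L`, `R` are functional,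
cuts lie in `J`, the label is exact at every legal junction of every word of length `n`
(`b = nu u + v . phi u`), and in every word of length `n` every token is cut.
-/

set_option autoImplicit false
set_option linter.unusedSectionVars false
set_option linter.style.haveILetI false

namespace Crest.Agent.R320.Exact606

open Finset

section Noise

variable {S V : Type*} [Fintype S] [DecidableEq S] [Fintype V] [AddCommGroup V]

/-- **The noise function**: a finite group `W` of weights `e i z` and `F : S → W → V` such that for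
every total type `(s, w)` and every token `v` some block index `i < m` is good. -/
theorem exists_noise [Nonempty S] (act : V → S → V) :
    ∃ (m : ℕ) (P : ℕ) (_ : NeZero P) (e : ℕ → S → ZMod P × ZMod P) (F : S → ZMod P × ZMod P → V),
      0 < m ∧
      ∀ (s : S) (w : ZMod P × ZMod P) (v : V), ∃ i < m, ∀ (s' z x : S), z ≠ x →
        F s' (w - e i x + e i z) + act v s' = F s w + act v s := by
  classical
  have hVpos : 0 < Fintype.card V := Fintype.card_pos
  have hSpos : 0 < Fintype.card S := Fintype.card_pos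
  obtain ⟨m0, hm0⟩ := exists_m (4 * Fintype.card S * Fintype.card V) (Fintype.card V)
    (Fintype.card S ^ 3) hVpos
  set m : ℕ := max m0 (Fintype.card S) with hm
  have hmpos : 0 < m := lt_of_lt_of_le hSpos (le_max_right _ _)
  have hmS : Fintype.card S ≤ m := le_max_right _ _
  obtain ⟨P, hPp, hmP, hP2⟩ := Nat.exists_prime_lt_and_le_two_mul m (by omega)
  haveI : Fact P.Prime := ⟨hPp⟩
  haveI hNZ : NeZero P := ⟨hPp.ne_zero⟩
  -- index
  let idx : S → ZMod P := fun z => ((Fintype.equivFin S z : ℕ) : ZMod P)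
  have hcast : ∀ a b : ℕ, a < P → b < P → ((a : ZMod P) = (b : ZMod P)) → a = b := by
    intro a b ha hb h
    have := (ZMod.natCast_eq_natCast_iff' a b P).mp h
    rwa [Nat.mod_eq_of_lt ha, Nat.mod_eq_of_lt hb] at this
  have hidx : ∀ z x : S, idx z = idx x → z = x := by
    intro z x h
    have h1 : (Fintype.equivFin S z : ℕ) = (Fintype.equivFin S x : ℕ) := by
      apply hcast _ _ _ _ h
      · exact lt_of_lt_of_le (Fintype.equivFin S z).2 (hmS.trans hmP.le)
      · exact lt_of_lt_of_le (Fintype.equivFin S x).2 (hmS.trans hmP.le)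
    exact (Fintype.equivFin S).injective (Fin.ext h1)
  let e : ℕ → S → ZMod P × ZMod P := fun i z => (idx z, (i : ZMod P) * idx z)
  let X := S × (ZMod P × ZMod P)
  let Θ := S × (ZMod P × ZMod P) × V
  let x0 : Θ → X := fun τ => (τ.1, τ.2.1)
  let D : Θ → ℕ → Finset X := fun τ i =>
    ((univ : Finset (S × S × S)).filter (fun y => y.2.1 ≠ y.2.2)).image
      (fun y => (y.1, τ.2.1 - e i y.2.2 + e i y.2.1))
  let t : Θ → V → X → V := fun τ a p => a + act τ.2.2 τ.1 - act τ.2.2 p.1
  have hx : ∀ τ : Θ, ∀ i < m, x0 τ ∉ D τ i := by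
    intro τ i _ h
    simp only [D, Finset.mem_image, Finset.mem_filter, Finset.mem_univ, true_and] at h
    obtain ⟨y, hy, h⟩ := h
    have h2 : τ.2.1 - e i y.2.2 + e i y.2.1 = τ.2.1 := (Prod.ext_iff.mp h).2
    have h3 : e i y.2.1 = e i y.2.2 := by
      have := congrArg (fun w => w - τ.2.1 + e i y.2.2) h2
      simpa [sub_add_eq_add_sub] using this
    exact hy (hidx _ _ (Prod.ext_iff.mp h3).1)
  have hC : ∀ τ : Θ, ∀ i < m, (D τ i).card ≤ Fintype.card S ^ 3 := by
    intro τ i _
    refine Finset.card_image_le.trans ((Finset.card_filter_le _ _).trans ?_)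
    rw [Finset.card_univ, Fintype.card_prod, Fintype.card_prod]
    apply le_of_eq
    ring
  have hd : ∀ τ : Θ, ∀ i < m, ∀ j < m, i ≠ j → Disjoint (D τ i) (D τ j) := by
    intro τ i hi j hj hij
    rw [Finset.disjoint_left]
    intro p hp hp'
    simp only [D, Finset.mem_image, Finset.mem_filter, Finset.mem_univ, true_and] at hp hp'
    obtain ⟨y, hy, h⟩ := hp
    obtain ⟨y', hy', h'⟩ := hp'
    have h2 : τ.2.1 - e i y.2.2 + e i y.2.1 = τ.2.1 - e j y'.2.2 + e j y'.2.1 :=
      (Prod.ext_iff.mp (h.trans h'.symm)).2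
    have ha : idx y.2.1 - idx y.2.2 = idx y'.2.1 - idx y'.2.2 := by
      have := (Prod.ext_iff.mp h2).1
      simp only [Prod.fst_add, Prod.fst_sub, e] at this
      linear_combination this
    have hb : (i : ZMod P) * (idx y.2.1 - idx y.2.2) =
        (j : ZMod P) * (idx y'.2.1 - idx y'.2.2) := by
      have := (Prod.ext_iff.mp h2).2
      simp only [Prod.snd_add, Prod.snd_sub, e] at this
      linear_combination this
    rw [← ha] at hb
    have hne : idx y.2.1 - idx y.2.2 ≠ 0 := fun h0 => hy (hidx _ _ (sub_eq_zero.mp h0))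
    have hij' := mul_right_cancel₀ hne hb
    exact hij (hcast i j (hi.trans hmP) (hj.trans hmP) hij')
  have hbig : (Fintype.card Θ : ℝ) *
      ((Fintype.card V : ℝ) ^ (Fintype.card S ^ 3) - 1) ^ m <
      ((Fintype.card V : ℝ) ^ (Fintype.card S ^ 3)) ^ m := by
    refine lt_of_le_of_lt ?_ (hm0 m (le_max_left _ _))
    have hq : (0 : ℝ) ≤ ((Fintype.card V : ℝ) ^ (Fintype.card S ^ 3) - 1) ^ m := by
      apply pow_nonneg
      have : (1 : ℝ) ≤ (Fintype.card V : ℝ) ^ (Fintype.card S ^ 3) :=
        one_le_pow₀ (by exact_mod_cast hVpos)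
      linarith
    refine mul_le_mul_of_nonneg_right ?_ hq
    have hcard : Fintype.card Θ = Fintype.card S * ((P * P) * Fintype.card V) := by
      simp only [Θ, Fintype.card_prod, ZMod.card]
    rw [hcard]
    push_cast
    have hP2' : (P : ℝ) ≤ 2 * (m : ℝ) := by exact_mod_cast hP2
    have hP0 : (0 : ℝ) ≤ (P : ℝ) := by positivity
    have hPP : (P : ℝ) * P ≤ 4 * (m : ℝ) ^ 2 := by nlinarith
    have hSV : (0 : ℝ) ≤ (Fintype.card S : ℝ) * (Fintype.card V : ℝ) := by positivity
    nlinarith [mul_le_mul_of_nonneg_left hPP hSV]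
  obtain ⟨F, hF⟩ := exists_good (X := X) (V := V) x0 D t (Fintype.card S ^ 3) m hVpos hx hC hd hbig
  refine ⟨m, P, hNZ, e, fun s w => F (s, w), hmpos, ?_⟩
  intro s w v
  obtain ⟨i, hi, hg⟩ := hF (s, w, v)
  refine ⟨i, hi, fun s' z x hzx => ?_⟩
  have hmem : ((s', w - e i x + e i z) : X) ∈ D (s, w, v) i := by
    simp only [D, Finset.mem_image, Finset.mem_filter, Finset.mem_univ, true_and]
    exact ⟨(s', z, x), hzx, rfl⟩
  have h := hg _ hmem
  simp only [t, x0] at h
  change F (s', w - e i x + e i z) + act v s' = F (s, w) + act v s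
  rw [h]
  abel

end Noise

section Words

variable {A : Type*}

/-- The letters of `u` at positions in `[a, b)`. -/
def seg (u : List A) (a b : ℕ) : List A := (u.drop a).take (b - a)

theorem seg_take (u : List A) {a b x : ℕ} (hbx : b ≤ x) : seg (u.take x) a b = seg u a b := by
  unfold seg
  rw [List.drop_take, List.take_take]
  congr 1
  omega

theorem seg_drop (u : List A) {a x : ℕ} (b : ℕ) (hxa : x ≤ a) :
    seg (u.drop x) (a - x) (b - x) = seg u a b := by
  unfold seg
  rw [List.drop_drop]
  have h1 : x + (a - x) = a := by omega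
  have h2 : b - x - (a - x) = b - a := by omega
  rw [h1, h2]

theorem seg_split (u : List A) {a b c : ℕ} (hab : a ≤ b) (hbc : b ≤ c) :
    seg u a c = seg u a b ++ seg u b c := by
  unfold seg
  have h1 : c - a = (b - a) + (c - b) := by omega
  have h2 : u.drop b = (u.drop a).drop (b - a) := by
    rw [List.drop_drop]; congr 1; omega
  rw [h1, List.take_add, h2]

theorem seg_full (u : List A) : seg u 0 u.length = u := by
  simp [seg]

variable {S V : Type*} [Monoid S] [Fintype S] [DecidableEq S] [Fintype V] [AddCommGroup V]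

/-- Contexts `(g, wl, h, wr, v)`. -/
abbrev Ctx (S V W : Type*) := S × W × S × W × V

/-- The context `c` is good at level `i` with label `b`. -/
def CtxGood {W : Type*} [Add W] (act : V → S → V) (e : ℕ → S → W) (F : S → W → V) (i : ℕ)
    (c : Ctx S V W) (b : V) : Prop :=
  ∀ z : S, F (c.1 * z * c.2.2.1) (c.2.1 + e i z + c.2.2.2.1) +
    act c.2.2.2.2 (c.1 * z * c.2.2.1) = b

/-- Left weight below level `i`. -/
def wLeft {W : Type*} [AddCommMonoid W] (φ : List A → S) (e : ℕ → S → W) (B : ℕ → ℕ)
    (p : List A) (i : ℕ) : W :=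
  ∑ k ∈ range i, e k (φ (seg p (B k) (B (k + 1))))

/-- Right weight above level `i`, read on the right word that starts at `x`. -/
def wRight {W : Type*} [AddCommMonoid W] (φ : List A → S) (e : ℕ → S → W) (B : ℕ → ℕ) (m : ℕ)
    (x : ℕ) (q : List A) (i : ℕ) : W :=
  ∑ k ∈ Ico (i + 1) m, e k (φ (seg q (B k - x) (B (k + 1) - x)))

/-- Left legality. -/
def Lrel {W : Type*} [AddCommMonoid W] (act : V → S → V) (φ : List A → S) (e : ℕ → S → W)
    (F : S → W → V) (B : ℕ → ℕ) (m : ℕ) (pos : ℕ → Ctx S V W → ℕ) (p : List A) (v : V) : Prop :=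
  ∃ i < m, ∃ c : Ctx S V W, p.length = pos i c ∧ c.2.2.2.2 = v ∧ (∃ b, CtxGood act e F i c b) ∧
    φ (seg p 0 (B i)) = c.1 ∧ wLeft φ e B p i = c.2.1

/-- Right legality. -/
def Rrel {W : Type*} [AddCommMonoid W] (act : V → S → V) (φ : List A → S) (e : ℕ → S → W)
    (F : S → W → V) (B : ℕ → ℕ) (m n : ℕ) (pos : ℕ → Ctx S V W → ℕ) (q : List A) (b : V) : Prop :=
  ∃ i < m, ∃ c : Ctx S V W, q.length ≤ n ∧ n - q.length = pos i c ∧ CtxGood act e F i c b ∧
    φ (seg q (B (i + 1) - (n - q.length)) (n - (n - q.length))) = c.2.2.1 ∧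
    wRight φ e B m (n - q.length) q i = c.2.2.2.1

/-- The total weight. -/
def wTot {W : Type*} [AddCommMonoid W] (φ : List A → S) (e : ℕ → S → W) (B : ℕ → ℕ) (m : ℕ)
    (u : List A) : W :=
  ∑ k ∈ range m, e k (φ (seg u (B k) (B (k + 1))))

theorem wTot_split {W : Type*} [AddCommMonoid W] (φ : List A → S) (e : ℕ → S → W) (B : ℕ → ℕ)
    (m : ℕ) (u : List A) {i : ℕ} (hi : i < m) :
    wTot φ e B m u = (∑ k ∈ range i, e k (φ (seg u (B k) (B (k + 1))))) +
      e i (φ (seg u (B i) (B (i + 1)))) +
      ∑ k ∈ Ico (i + 1) m, e k (φ (seg u (B k) (B (k + 1)))) := by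
  unfold wTot
  rw [← Finset.sum_range_succ, Finset.sum_range_add_sum_Ico _ (by omega : i + 1 ≤ m)]

theorem phi_split (φ : List A → S) (hφ : ∀ p q, φ (p ++ q) = φ p * φ q) (u : List A) {a b : ℕ}
    (hab : a ≤ b) (hb : b ≤ u.length) :
    φ u = φ (seg u 0 a) * φ (seg u a b) * φ (seg u b u.length) := by
  conv_lhs => rw [← seg_full u, seg_split u (Nat.zero_le a) (hab.trans hb), hφ,
    seg_split u hab hb, hφ]
  rw [mul_assoc]

theorem left_data {W : Type*} [AddCommMonoid W] (φ : List A → S) (e : ℕ → S → W) (B : ℕ → ℕ)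
    (hB : Monotone B) (u : List A) {x i : ℕ} (hx : B i ≤ x) :
    φ (seg (u.take x) 0 (B i)) = φ (seg u 0 (B i)) ∧
      wLeft φ e B (u.take x) i = ∑ k ∈ range i, e k (φ (seg u (B k) (B (k + 1)))) := by
  refine ⟨by rw [seg_take u hx], ?_⟩
  unfold wLeft
  refine Finset.sum_congr rfl (fun k hk => ?_)
  rw [seg_take u ((hB (by have := Finset.mem_range.mp hk; omega)).trans hx)]

theorem right_data {W : Type*} [AddCommMonoid W] (φ : List A → S) (e : ℕ → S → W) (B : ℕ → ℕ)
    (hB : Monotone B) (m n : ℕ) (u : List A) {x i : ℕ} (hx : x ≤ B (i + 1)) :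
    φ (seg (u.drop x) (B (i + 1) - x) (n - x)) = φ (seg u (B (i + 1)) n) ∧
      wRight φ e B m x (u.drop x) i =
        ∑ k ∈ Ico (i + 1) m, e k (φ (seg u (B k) (B (k + 1)))) := by
  refine ⟨by rw [seg_drop u _ hx], ?_⟩
  unfold wRight
  refine Finset.sum_congr rfl (fun k hk => ?_)
  rw [seg_drop u _ (hx.trans (hB (Finset.mem_Ico.mp hk).1))]

/-- **The exact gadget, abstract block form.** -/
theorem exact_blocks {W : Type*} [AddCommGroup W] (act : V → S → V) (φ : List A → S)
    (hφ : ∀ p q, φ (p ++ q) = φ p * φ q) (e : ℕ → S → W) (F : S → W → V) (m n : ℕ)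
    (hF : ∀ (s : S) (w : W) (v : V), ∃ i < m, ∀ (s' z x : S), z ≠ x →
        F s' (w - e i x + e i z) + act v s' = F s w + act v s)
    (B : ℕ → ℕ) (hB : Monotone B) (hBm : B m = n)
    (pos : ℕ → Ctx S V W → ℕ)
    (hpos : ∀ i < m, ∀ c, B i ≤ pos i c ∧ pos i c ≤ B (i + 1))
    (hinj : ∀ i < m, ∀ c, ∀ i' < m, ∀ c', pos i c = pos i' c' → i = i' ∧ c = c') :
    (∀ p v v', Lrel act φ e F B m pos p v → Lrel act φ e F B m pos p v' → v = v') ∧
    (∀ q b b', Rrel act φ e F B m n pos q b → Rrel act φ e F B m n pos q b' → b = b') ∧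
    (∀ p q v b, p.length + q.length = n → Lrel act φ e F B m pos p v →
      Rrel act φ e F B m n pos q b →
        b = F (φ (p ++ q)) (wTot φ e B m (p ++ q)) + act v (φ (p ++ q))) ∧
    (∀ u : List A, u.length = n → ∀ v : V, ∃ x ≤ n, Lrel act φ e F B m pos (u.take x) v ∧
      ∃ b, Rrel act φ e F B m n pos (u.drop x) b) := by
  refine ⟨?_, ?_, ?_, ?_⟩
  · rintro p v v' ⟨i, hi, c, h1, h2, -, -, -⟩ ⟨i', hi', c', h1', h2', -, -, -⟩
    obtain ⟨rfl, rfl⟩ := hinj i hi c i' hi' c' (h1.symm.trans h1')
    exact h2.symm.trans h2'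
  · rintro q b b' ⟨i, hi, c, h0, h1, h2, -, -⟩ ⟨i', hi', c', h0', h1', h2', -, -⟩
    obtain ⟨rfl, rfl⟩ := hinj i hi c i' hi' c' (h1.symm.trans h1')
    exact (h2 1).symm.trans (h2' 1)
  · rintro p q v b hn ⟨i, hi, c, h1, h2, -, h3, h4⟩ ⟨i', hi', c', h0', h1', h2', h3', h4'⟩
    have hnq : n - q.length = p.length := by omega
    rw [hnq] at h1' h3' h4'
    obtain ⟨rfl, rfl⟩ := hinj i hi c i' hi' c' (h1.symm.trans h1')
    have hp : p = (p ++ q).take p.length := by simp
    have hq : q = (p ++ q).drop p.length := by simp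
    have hlen : (p ++ q).length = n := by simp [hn]
    have hL := left_data φ e B hB (p ++ q) (x := p.length) (i := i) (by rw [h1]; exact (hpos i hi c).1)
    have hR := right_data φ e B hB m n (p ++ q) (x := p.length) (i := i)
      (by rw [h1]; exact (hpos i hi c).2)
    rw [← hp] at hL
    rw [← hq] at hR
    have hBi : B i ≤ B (i + 1) := hB (Nat.le_succ i)
    have hBn : B (i + 1) ≤ n := by rw [← hBm]; exact hB hi
    have hs := phi_split φ hφ (p ++ q) hBi (by rw [hlen]; exact hBn)
    rw [hlen, ← hL.1, ← hR.1, h3, h3'] at hs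
    have hw := wTot_split φ e B m (p ++ q) hi
    rw [← hL.2, ← hR.2, h4, h4'] at hw
    have hgood := h2' (φ (seg (p ++ q) (B i) (B (i + 1))))
    rw [← hs, ← hw, h2] at hgood
    exact hgood.symm
  · intro u hu v
    obtain ⟨i, hi, hg⟩ := hF (φ u) (wTot φ e B m u) v
    have hBi : B i ≤ B (i + 1) := hB (Nat.le_succ i)
    have hBn : B (i + 1) ≤ n := by rw [← hBm]; exact hB hi
    set g := φ (seg u 0 (B i)) with hgdef
    set h := φ (seg u (B (i + 1)) n) with hhdef
    set zi := φ (seg u (B i) (B (i + 1))) with hzdef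
    set wl := ∑ k ∈ range i, e k (φ (seg u (B k) (B (k + 1)))) with hwl
    set wr := ∑ k ∈ Ico (i + 1) m, e k (φ (seg u (B k) (B (k + 1)))) with hwr
    have hs : φ u = g * zi * h := by
      have := phi_split φ hφ u hBi (by rw [hu]; exact hBn)
      rw [hu] at this
      exact this
    have hw : wTot φ e B m u = wl + e i zi + wr := wTot_split φ e B m u hi
    let c : Ctx S V W := (g, wl, h, wr, v)
    have hc : CtxGood act e F i c (F (φ u) (wTot φ e B m u) + act v (φ u)) := by
      intro z
      show F (g * z * h) (wl + e i z + wr) + act v (g * z * h) = _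
      by_cases hz : z = zi
      · rw [hz, ← hs, ← hw]
      · have h5 := hg (g * z * h) z zi hz
        rw [← h5]
        congr 2
        rw [hw]
        abel
    have hx := hpos i hi c
    have hxn : pos i c ≤ n := hx.2.trans hBn
    have hL := left_data φ e B hB u (x := pos i c) (i := i) hx.1
    have hR := right_data φ e B hB m n u (x := pos i c) (i := i) hx.2
    have hlt : (u.take (pos i c)).length = pos i c := by
      rw [List.length_take, hu]; exact min_eq_left hxn
    have hld : (u.drop (pos i c)).length = n - pos i c := by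
      rw [List.length_drop, hu]
    have hnn : n - (u.drop (pos i c)).length = pos i c := by rw [hld]; omega
    refine ⟨pos i c, hxn, ⟨i, hi, c, hlt, rfl, ⟨_, hc⟩, hL.1, hL.2⟩,
      ⟨_, i, hi, c, by rw [hld]; omega, hnn, hc, ?_, ?_⟩⟩
    · rw [hnn]; exact hR.1
    · rw [hnn]; exact hR.2

/-- **The exact gadget (237 #12538)** with prescribed cut positions `J`. -/
theorem exact_gadget (act : V → S → V) :
    ∃ M : ℕ, ∀ {A : Type*} (φ : List A → S), (∀ p q, φ (p ++ q) = φ p * φ q) →
      ∀ (n : ℕ) (J : Finset ℕ), (∀ j ∈ J, j ≤ n) → M ≤ J.card →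
      ∃ (L R : List A → V → Prop) (nu : List A → V),
        (∀ p v v', L p v → L p v' → v = v') ∧
        (∀ q b b', R q b → R q b' → b = b') ∧
        (∀ p v, L p v → p.length ∈ J) ∧
        (∀ q b, R q b → q.length ≤ n ∧ n - q.length ∈ J) ∧
        (∀ p q v b, p.length + q.length = n → L p v → R q b →
          b = nu (p ++ q) + act v (φ (p ++ q))) ∧
        (∀ u : List A, u.length = n → ∀ v : V, ∃ x ≤ n, L (u.take x) v ∧ ∃ b, R (u.drop x) b) := by
  classical
  obtain ⟨m, P, hNZ, e, F, hmpos, hF⟩ := exists_noise (S := S) (V := V) act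
  haveI := hNZ
  let K := Fintype.card (Ctx S V (ZMod P × ZMod P))
  have hKpos : 0 < K := Fintype.card_pos
  refine ⟨m * K, ?_⟩
  intro A φ hφ n J hJ hM
  let j := J.orderEmbOfCardLe hM
  have hjJ : ∀ r, j r ∈ J := fun r => J.orderEmbOfCardLe_mem hM r
  let f : ℕ → ℕ := fun r => if h : r < m * K then j ⟨r, h⟩ else n
  have hfmono : Monotone f := by
    intro a b hab
    simp only [f]
    by_cases hb : b < m * K
    · have ha : a < m * K := lt_of_le_of_lt hab hb
      rw [dif_pos ha, dif_pos hb]
      exact j.monotone hab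
    · rw [dif_neg hb]
      by_cases ha : a < m * K
      · rw [dif_pos ha]; exact hJ _ (hjJ _)
      · rw [dif_neg ha]
  let B : ℕ → ℕ := fun i => if i = 0 then 0 else f (i * K)
  have hBmono : Monotone B := by
    intro a b hab
    simp only [B]
    by_cases ha : a = 0
    · rw [if_pos ha]; exact Nat.zero_le _
    · have hb : b ≠ 0 := by omega
      rw [if_neg ha, if_neg hb]
      exact hfmono (Nat.mul_le_mul_right K hab)
  have hBm : B m = n := by
    simp only [B, f]
    rw [if_neg (by omega), dif_neg (lt_irrefl _)]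
  let code : Ctx S V (ZMod P × ZMod P) → ℕ := fun c => (Fintype.equivFin _ c : ℕ)
  have hcode : ∀ c, code c < K := fun c => (Fintype.equivFin _ c).2
  let pos : ℕ → Ctx S V (ZMod P × ZMod P) → ℕ := fun i c => f (i * K + code c)
  have hlt : ∀ i < m, ∀ c, i * K + code c < m * K := by
    intro i hi c
    have h1 := hcode c
    have h2 : (i + 1) * K ≤ m * K := Nat.mul_le_mul_right K hi
    have h3 : (i + 1) * K = i * K + K := by ring
    omega
  have hpos : ∀ i < m, ∀ c, B i ≤ pos i c ∧ pos i c ≤ B (i + 1) := by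
    intro i hi c
    constructor
    · simp only [B, pos]
      by_cases h0 : i = 0
      · rw [if_pos h0]; exact Nat.zero_le _
      · rw [if_neg h0]; exact hfmono (Nat.le_add_right _ _)
    · simp only [B, pos]
      rw [if_neg (Nat.succ_ne_zero i)]
      apply hfmono
      have h1 := hcode c
      have h3 : (i + 1) * K = i * K + K := by ring
      omega
  have hinj : ∀ i < m, ∀ c, ∀ i' < m, ∀ c', pos i c = pos i' c' → i = i' ∧ c = c' := by
    intro i hi c i' hi' c' h
    simp only [pos, f] at h
    rw [dif_pos (hlt i hi c), dif_pos (hlt i' hi' c')] at h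
    have h2 : i * K + code c = i' * K + code c' := by
      have := j.injective h
      exact congrArg Fin.val this
    have hc := hcode c
    have hc' := hcode c'
    have hii : i = i' := by
      have e1 : (i * K + code c) / K = i := by
        rw [Nat.mul_comm, Nat.mul_add_div hKpos, Nat.div_eq_of_lt hc, add_zero]
      have e2 : (i' * K + code c') / K = i' := by
        rw [Nat.mul_comm, Nat.mul_add_div hKpos, Nat.div_eq_of_lt hc', add_zero]
      rw [← e1, ← e2, h2]
    subst hii
    refine ⟨rfl, ?_⟩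
    have h3 : code c = code c' := by omega
    exact (Fintype.equivFin _).injective (Fin.ext h3)
  obtain ⟨h1, h2, h3, h4⟩ := exact_blocks act φ hφ e F m n hF B hBmono hBm pos hpos hinj
  refine ⟨Lrel act φ e F B m pos, Rrel act φ e F B m n pos,
    fun u => F (φ u) (wTot φ e B m u), h1, h2, ?_, ?_, h3, h4⟩
  · rintro p v ⟨i, hi, c, hp, -⟩
    rw [hp]
    simp only [pos, f]
    rw [dif_pos (hlt i hi c)]
    exact hjJ _
  · rintro q b ⟨i, hi, c, h0, hq, -⟩
    refine ⟨h0, ?_⟩
    rw [hq]
    simp only [pos, f]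
    rw [dif_pos (hlt i hi c)]
    exact hjJ _

end Words

end Crest.Agent.R320.Exact606
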