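import Crest.Agent.R320.Hgt1_903

/-! First-failure lemma: a promise scheme (sound and complete only on words whose run has not failed
before the end) gives exact languages. -/

set_option autoImplicit false

namespace Crest.Agent.R320.FF1_903

open Crest.RegLang Crest.Agent.R320.Hgt1_903

variable {α : Type*} {σ : Type*}

/-- `run w` = state after reading `w` (any function of the word), `dead` = failure states.
`Live⁺ w`: no proper prefix is dead; `Live w`: no prefix is dead. -/
def LiveP (run : List α → σ) (dead : σ → Prop) (w : List α) : Prop :=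
  ∀ u v, u ++ v = w → v ≠ [] → ¬ dead (run u)

def Live (run : List α → σ) (dead : σ → Prop) (w : List α) : Prop :=
  ∀ u v, u ++ v = w → ¬ dead (run u)

theorem Live.liveP {run : List α → σ} {dead : σ → Prop} {w : List α}
    (h : Live run dead w) : LiveP run dead w := fun u v e _ => h u v e

theorem Live.prefix {run : List α → σ} {dead : σ → Prop} {u v : List α}
    (h : Live run dead (u ++ v)) : Live run dead u :=
  fun x y e => h x (y ++ v) (by rw [← List.append_assoc, e])

/-- the minimal dead prefix. -/
theorem exists_first {run : List α → σ} {dead : σ → Prop} {w : List α}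
    (h : ¬ Live run dead w) : ∃ u v, u ++ v = w ∧ dead (run u) ∧ LiveP run dead u := by
  classical
  have hex : ∃ k, ∃ u v, u ++ v = w ∧ dead (run u) ∧ u.length = k := by
    unfold Live at h
    push Not at h
    obtain ⟨u, v, e, hd⟩ := h
    exact ⟨u.length, u, v, e, hd, rfl⟩
  obtain ⟨u, v, e, hd, hk⟩ := Nat.find_spec hex
  refine ⟨u, v, e, hd, fun x y exy hy hdx => ?_⟩
  have hlt : x.length < Nat.find hex := by
    rw [← hk, ← exy, List.length_append]
    have := List.length_pos_of_ne_nil hy
    omega
  exact Nat.find_min hex hlt ⟨x, y ++ v, by rw [← List.append_assoc, exy, e], hdx, rfl⟩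

/-- Exactness of the live language. -/
theorem live_H {n : ℕ} (run : List α → σ) (dead : σ → Prop) (D : Language α) (hD : H n D)
    (hsol : ∀ w, LiveP run dead w → (w ∈ D ↔ dead (run w))) :
    H n ({w | Live run dead w} : Language α) := by
  refine H.congr (H.not (H.cat hD (H.univ n))) fun w => ?_
  change (¬ ∃ u v, u ++ v = w ∧ u ∈ D ∧ v ∈ (⊤ : Language α)) ↔ Live run dead w
  constructor
  · intro h
    by_contra hl
    obtain ⟨u, v, e, hd, hp⟩ := exists_first hl
    exact h ⟨u, v, e, (hsol u hp).2 hd, trivial⟩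
  · rintro h ⟨u, v, rfl, hu, -⟩
    exact h u v rfl ((hsol u h.prefix.liveP).1 hu)

/-- Exact languages `{w | Live w ∧ run w = s}` from a promise solution. -/
theorem live_state_H {n : ℕ} [Finite σ] (run : List α → σ) (dead : σ → Prop)
    (R : σ → Language α) (hR : ∀ s, H n (R s))
    (hsol : ∀ w, LiveP run dead w → ∀ s, (w ∈ R s ↔ run w = s)) (s : σ) :
    H n ({w | Live run dead w ∧ run w = s} : Language α) := by
  have hD : H n ({w | ∃ t, w ∈ ({w | dead t ∧ w ∈ R t} : Language α)} : Language α) :=
    H.exists_fintype _ fun t => H.inter (H.const n (dead t)) (hR t)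
  have hl := live_H run dead _ hD (fun w hw => by
    change (∃ t, dead t ∧ w ∈ R t) ↔ dead (run w)
    constructor
    · rintro ⟨t, ht, h⟩
      rw [(hsol w hw t).1 h]; exact ht
    · intro h
      exact ⟨run w, h, (hsol w hw _).2 rfl⟩)
  refine H.congr (H.inter hl (hR s)) fun w => ?_
  change (Live run dead w ∧ w ∈ R s) ↔ (Live run dead w ∧ run w = s)
  constructor
  · rintro ⟨h, h'⟩; exact ⟨h, (hsol w h.liveP s).1 h'⟩
  · rintro ⟨h, h'⟩; exact ⟨h, (hsol w h.liveP s).2 h'⟩

/-- `Live⁺` words with a prescribed state (the last letter may be the failure). -/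
theorem liveP_state_H {n : ℕ} [Finite σ] (run : List α → σ) (dead : σ → Prop)
    (R : σ → Language α) (hR : ∀ s, H n (R s))
    (hsol : ∀ w, LiveP run dead w → ∀ s, (w ∈ R s ↔ run w = s)) (s : σ) :
    H n ({w | LiveP run dead w ∧ run w = s} : Language α) := by
  have hD : H n ({w | ∃ t, w ∈ ({w | dead t ∧ w ∈ R t} : Language α)} : Language α) :=
    H.exists_fintype _ fun t => H.inter (H.const n (dead t)) (hR t)
  have hne : H n ({w : List α | ¬ w ∈ ({[]} : Language α)} : Language α) := (H.word n []).not
  refine H.congr (H.inter (H.not (H.cat hD hne)) (hR s)) fun w => ?_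
  change ((¬ ∃ u v, u ++ v = w ∧ (∃ t, dead t ∧ u ∈ R t) ∧ ¬ v ∈ ({[]} : Set (List α))) ∧ w ∈ R s)
    ↔ (LiveP run dead w ∧ run w = s)
  have key : (¬ ∃ u v, u ++ v = w ∧ (∃ t, dead t ∧ u ∈ R t) ∧ ¬ v ∈ ({[]} : Set (List α))) ↔
      LiveP run dead w := by
    constructor
    · intro h u v e hv hd
      -- minimal dead prefix of u
      have hnl : ¬ Live run dead u := fun hl => hl u [] (List.append_nil u) hd
      obtain ⟨x, y, exy, hdx, hpx⟩ := exists_first hnl
      refine h ⟨x, y ++ v, by rw [← List.append_assoc, exy, e],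
        ⟨run x, hdx, (hsol x hpx _).2 rfl⟩, ?_⟩
      intro h0
      have h1 : y ++ v = [] := h0
      exact hv (List.append_eq_nil_iff.1 h1).2
    · rintro h ⟨u, v, e, ⟨t, ht, hu⟩, hv⟩
      have hv' : v ≠ [] := fun h0 => hv h0
      have hup : LiveP run dead u := by
        intro x y exy _ hdx
        exact h x (y ++ v) (by rw [← List.append_assoc, exy, e])
          (fun h0 => hv' (List.append_eq_nil_iff.1 h0).2) hdx
      have : run u = t := (hsol u hup t).1 hu
      exact h u v e hv' (this ▸ ht)
  constructor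
  · rintro ⟨h, h'⟩
    have hp := key.1 h
    exact ⟨hp, (hsol w hp s).1 h'⟩
  · rintro ⟨h, h'⟩
    exact ⟨key.2 h, (hsol w h s).2 h'⟩

end Crest.Agent.R320.FF1_903
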