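import Crest.Agent.R320.Reg_461

/-!
# Row 320: the FO theorem over `HL k` (helper461)

`Inv k a b R` : the relation `R : List α → (ι → ℕ) → Prop` on positions (`a` names the left end,
`b` the right end of the word) is a finite Boolean combination of conditions on the order of the
positions and on the `τ`-types of the factors between them, for one finite congruence `τ` whose
classes are in `HL k`. The class is closed under Boolean operations, reindexing and
quantification over positions, and contains all atoms `w[x_i, x_j) ∈ L` with `HL k L`.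
Hence every language defined by a first-order formula with such atoms is in `HL k`.
-/

set_option autoImplicit false

namespace Crest.Agent.R320.FO_461

open Crest.RegLang Crest.Agent.R320.Hk_851

universe u

variable {α : Type u} {k : ℕ}

/-- a finite congruence with classes in `HL k` which separates the empty word -/
structure Good (k : ℕ) {T : Type*} (τ : List α → T) : Prop where
  comp : ∀ u u' v v', τ u = τ u' → τ v = τ v' → τ (u ++ v) = τ (u' ++ v')
  fib : ∀ t, HL k {w | τ w = t}
  sep : ∀ w, τ w = τ [] → w = []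

theorem Good.empty : Good k (fun w : List α => (w = [] : Prop)) where
  comp u u' v v' h1 h2 := by
    have h1' : (u = []) = (u' = []) := h1
    have h2' : (v = []) = (v' = []) := h2
    change (u ++ v = []) = (u' ++ v' = [])
    rw [List.append_eq_nil_iff, List.append_eq_nil_iff, h1', h2']
  fib t := by
    have h := HL.setOf_iff (α := α) (k := k) (p := fun w => w = []) (q := fun _ => t)
      (HL.one.congr fun w => Iff.rfl) (HL.const t)
    exact h.congr fun w => (eq_iff_iff : ((w = []) = t) ↔ _)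
  sep w h := by
    have h' : (w = []) = (([] : List α) = []) := h
    rw [h']

theorem Good.prod {T T' : Type*} {τ : List α → T} {τ' : List α → T'} (h : Good k τ)
    (h' : Good k τ') : Good k (fun w => (τ w, τ' w)) where
  comp u u' v v' h1 h2 := by
    have h1' := Prod.ext_iff.1 h1
    have h2' := Prod.ext_iff.1 h2
    exact Prod.ext (h.comp u u' v v' h1'.1 h2'.1) (h'.comp u u' v v' h1'.2 h2'.2)
  fib t := by
    refine ((h.fib t.1).inf (h'.fib t.2)).congr fun w => ?_
    exact Prod.ext_iff
  sep w hw := h.sep w (Prod.ext_iff.1 hw).1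

/-- a class as a language -/
def cls {T : Type*} (τ : List α → T) (t : T) : Language α := {w | τ w = t}

/-- the Schuetzenberger product -/
def schu {T : Type*} (τ : List α → T) (w : List α) : T × Set (T × T) :=
  (τ w, {p | ∃ u v, u ++ v = w ∧ τ u = p.1 ∧ τ v = p.2})

theorem schu_sub {T : Type*} {τ : List α → T} (h : Good k τ) {u u' v v' : List α}
    (h1 : schu τ u = schu τ u') (h2 : schu τ v = schu τ v') :
    (schu τ (u ++ v)).2 ⊆ (schu τ (u' ++ v')).2 := by
  have e1 := Prod.ext_iff.1 h1
  have e2 := Prod.ext_iff.1 h2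
  rintro ⟨s, t⟩ ⟨x, y, hxy, hx, hy⟩
  rcases List.append_eq_append_iff.1 hxy with ⟨c, hc1, hc2⟩ | ⟨c, hc1, hc2⟩
  · -- u = x ++ c, y = c ++ v
    have hm : ((τ x, τ c) : T × T) ∈ (schu τ u).2 := ⟨x, c, hc1.symm, rfl, rfl⟩
    rw [e1.2] at hm
    obtain ⟨x', c', hx', hx1, hc'⟩ := hm
    refine ⟨x', c' ++ v', by rw [← hx']; simp, hx1.trans hx, ?_⟩
    rw [← hy, hc2]
    exact h.comp _ _ _ _ hc' e2.1.symm
  · -- x = u ++ c, v = c ++ y
    have hm : ((τ c, τ y) : T × T) ∈ (schu τ v).2 := ⟨c, y, hc2.symm, rfl, rfl⟩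
    rw [e2.2] at hm
    obtain ⟨c', y', hy', hc', hy1⟩ := hm
    refine ⟨u' ++ c', y', by rw [← hy']; simp, ?_, hy1.trans hy⟩
    rw [← hx, hc1]
    exact h.comp _ _ _ _ e1.1.symm hc'

theorem Good.schu {T : Type*} [Finite T] {τ : List α → T} (h : Good k τ) :
    Good k (FO_461.schu τ) where
  comp u u' v v' h1 h2 := by
    refine Prod.ext (h.comp _ _ _ _ (Prod.ext_iff.1 h1).1 (Prod.ext_iff.1 h2).1) ?_
    exact Set.Subset.antisymm (schu_sub h h1 h2) (schu_sub h h1.symm h2.symm)
  fib t := by
    have h2 : HL k {w : List α | ∀ p : T × T, w ∈ ({w | w ∈ cls τ p.1 * cls τ p.2 ↔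
        p ∈ t.2} : Language α)} :=
      HL.iInter fun p => HL.setOf_iff ((h.fib p.1 : HL k (cls τ p.1)).mul
        (h.fib p.2 : HL k (cls τ p.2))) (HL.const _)
    refine ((h.fib t.1).inf h2).congr fun w => ?_
    constructor
    · intro hw
      have hw' : FO_461.schu τ w = t := hw
      refine ⟨(Prod.ext_iff.1 hw').1, fun p => ?_⟩
      change (w ∈ cls τ p.1 * cls τ p.2) ↔ p ∈ t.2
      rw [← hw', Language.mem_mul]
      constructor
      · rintro ⟨a, ha, b, hb, hab⟩; exact ⟨a, b, hab, ha, hb⟩
      · rintro ⟨a, b, hab, ha, hb⟩; exact ⟨a, ha, b, hb, hab⟩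
    · rintro ⟨h1, h3⟩
      refine Prod.ext h1 ?_
      ext p
      have := h3 p
      change (w ∈ cls τ p.1 * cls τ p.2) ↔ p ∈ t.2 at this
      rw [← this, Language.mem_mul]
      constructor
      · rintro ⟨a, b, hab, ha, hb⟩; exact ⟨a, ha, b, hb, hab⟩
      · rintro ⟨a, ha, b, hb, hab⟩; exact ⟨a, b, hab, ha, hb⟩
  sep w hw := h.sep w (Prod.ext_iff.1 hw).1

/-- syntactic congruence -/
theorem exists_good {L : Language α} (hL : HL k L) :
    ∃ (T : Type u) (_ : Finite T) (τ : List α → T), Good k τ ∧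
      ∀ u v, τ u = τ v → (u ∈ L → v ∈ L) := by
  have hfin := TQ_finite (HL.isRegular hL)
  have hft : Finite (TQ L) := hfin
  let τ : List α → Set (TQ L) := fun w => {Z | w ∈ Z.1}
  have hc : ∀ u u' v v', τ u = τ u' → τ v = τ v' → τ (u ++ v) ⊆ τ (u' ++ v') := by
    intro u u' v v' h1 h2 Z hZ
    obtain ⟨Z, p, q, rfl⟩ := Z
    have h3 : p ++ (u ++ v) ++ q ∈ L := hZ
    have h4 : (⟨{w | p ++ w ++ (v ++ q) ∈ L}, p, v ++ q, rfl⟩ : TQ L) ∈ τ u := by
      change p ++ u ++ (v ++ q) ∈ L
      simpa [List.append_assoc] using h3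
    rw [h1] at h4
    have h5 : p ++ u' ++ (v ++ q) ∈ L := h4
    have h6 : (⟨{w | (p ++ u') ++ w ++ q ∈ L}, p ++ u', q, rfl⟩ : TQ L) ∈ τ v := by
      change (p ++ u') ++ v ++ q ∈ L
      simpa [List.append_assoc] using h5
    rw [h2] at h6
    have h7 : (p ++ u') ++ v' ++ q ∈ L := h6
    change p ++ (u' ++ v') ++ q ∈ L
    simpa [List.append_assoc] using h7
  have hHL : ∀ Z : TQ L, HL k Z.1 := by
    rintro ⟨Z, p, q, rfl⟩
    refine ((hL.rquot q).lquot p).congr fun w => Iff.rfl
  refine ⟨Set (TQ L) × ULift Prop, inferInstance, fun w => (τ w, ⟨w = []⟩), ?_, ?_⟩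
  · refine ⟨?_, ?_, ?_⟩
    · intro u u' v v' h1 h2
      have e1 := Prod.ext_iff.1 h1
      have e2 := Prod.ext_iff.1 h2
      refine Prod.ext (Set.Subset.antisymm (hc _ _ _ _ e1.1 e2.1)
        (hc _ _ _ _ e1.1.symm e2.1.symm)) ?_
      have a1 : (u = []) = (u' = []) := congrArg ULift.down e1.2
      have a2 : (v = []) = (v' = []) := congrArg ULift.down e2.2
      refine congrArg ULift.up ?_
      change (u ++ v = []) = (u' ++ v' = [])
      rw [List.append_eq_nil_iff, List.append_eq_nil_iff, a1, a2]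
    · rintro ⟨t, ⟨c⟩⟩
      have h1 : HL k {w : List α | ∀ Z : TQ L, w ∈ ({w | (w ∈ Z.1) ↔ Z ∈ t} : Language α)} :=
        HL.iInter fun Z => HL.setOf_iff (hHL Z) (HL.const _)
      refine (h1.inf (Good.empty.fib c)).congr fun w => ?_
      constructor
      · intro hw
        have e := Prod.ext_iff.1 (hw : ((τ w, ⟨w = []⟩) : Set (TQ L) × ULift Prop) = (t, ⟨c⟩))
        refine ⟨fun Z => ?_, congrArg ULift.down e.2⟩
        have e1 : τ w = t := e.1
        have e2 : Z ∈ τ w ↔ Z ∈ t := by rw [e1]
        exact e2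
      · rintro ⟨h2, h3⟩
        refine Prod.ext ?_ (congrArg ULift.up h3)
        ext Z
        exact h2 Z
    · intro w hw
      have e := congrArg ULift.down (Prod.ext_iff.1 hw).2
      have e' : (w = []) = (([] : List α) = []) := e
      rw [e']
  · intro u v huv hu
    have e : τ u = τ v := (Prod.ext_iff.1 huv).1
    have h1 : (⟨{w | ([] : List α) ++ w ++ [] ∈ L}, [], [], rfl⟩ : TQ L) ∈ τ u := by
      change ([] : List α) ++ u ++ [] ∈ L
      simpa using hu
    rw [e] at h1
    have h2 : ([] : List α) ++ v ++ [] ∈ L := h1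
    simpa using h2

/-- the factor `w[a, b)` -/
def seg (w : List α) (a b : ℕ) : List α := (w.drop a).take (b - a)

theorem seg_append {w : List α} {a b c : ℕ} (h1 : a ≤ b) (h2 : b ≤ c) :
    seg w a b ++ seg w b c = seg w a c := by
  unfold seg
  have e : c - a = (b - a) + (c - b) := by omega
  rw [e, List.take_add, List.drop_drop]
  have e2 : a + (b - a) = b := by omega
  rw [e2]

theorem seg_self (w : List α) (a : ℕ) : seg w a a = [] := by simp [seg]

theorem seg_length {w : List α} {a b : ℕ} (h : b ≤ w.length) : (seg w a b).length = b - a := by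
  simp only [seg, List.length_take, List.length_drop]
  omega

theorem seg_full (w : List α) : seg w 0 w.length = w := by simp [seg]

/-- valid assignments: `a` is the left end, `b` the right end -/
def Val {ι : Type*} (a b : ι) (w : List α) (x : ι → ℕ) : Prop :=
  x a = 0 ∧ x b = w.length ∧ ∀ i, x i ≤ w.length

/-- same order and same types of factors -/
def Same {ι : Type*} {T : Type*} (τ : List α → T) (w : List α) (x : ι → ℕ) (w' : List α)
    (x' : ι → ℕ) : Prop :=
  (∀ i j, x i ≤ x j ↔ x' i ≤ x' j) ∧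
    ∀ i j, x i ≤ x j → τ (seg w (x i) (x j)) = τ (seg w' (x' i) (x' j))

theorem Same.symm {ι : Type*} {T : Type*} {τ : List α → T} {w w' : List α} {x x' : ι → ℕ}
    (h : Same τ w x w' x') : Same τ w' x' w x :=
  ⟨fun i j => (h.1 i j).symm, fun i j hij => (h.2 i j ((h.1 i j).2 hij)).symm⟩

/-- add a position -/
def ext {ι : Type*} (x : ι → ℕ) (y : ℕ) : Option ι → ℕ := fun o => o.elim y x

theorem extend {ι : Type*} [Finite ι] {T : Type*} {τ : List α → T} (hτ : Good k τ)
    {a b : ι} {w w' : List α} {x x' : ι → ℕ} (hv : Val a b w x) (hv' : Val a b w' x')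
    (h : Same (schu τ) w x w' x') {y : ℕ} (hy : y ≤ w.length) :
    ∃ y', y' ≤ w'.length ∧ Same τ w (ext x y) w' (ext x' y') := by
  classical
  have := Fintype.ofFinite ι
  obtain ⟨i, hi, hi'⟩ := Finset.exists_max_image (Finset.univ.filter fun i => x i ≤ y) x
    ⟨a, by simp [hv.1]⟩
  obtain ⟨j, hj, hj'⟩ := Finset.exists_min_image (Finset.univ.filter fun i => y ≤ x i) x
    ⟨b, by simp [hv.2.1, hy]⟩
  simp only [Finset.mem_filter, Finset.mem_univ, true_and] at hi hi' hj hj'
  have hij : x i ≤ x j := hi.trans hj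
  have hij' : x' i ≤ x' j := (h.1 i j).1 hij
  have e := h.2 i j hij
  have hm : ((τ (seg w (x i) y), τ (seg w y (x j))) : T × T) ∈ (schu τ (seg w (x i) (x j))).2 :=
    ⟨_, _, seg_append hi hj, rfl, rfl⟩
  rw [e] at hm
  obtain ⟨u, v, huv, hu, hv1⟩ := hm
  have hlen : u.length + v.length = x' j - x' i := by
    rw [← List.length_append, huv, seg_length (hv'.2.2 j)]
  have hyj : x' i + u.length ≤ x' j := by omega
  have hU : seg w' (x' i) (x' i + u.length) = u := by
    have h1 := seg_append (w := w') (a := x' i) (b := x' i + u.length) (c := x' j) (by omega) hyj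
    rw [← huv] at h1
    refine (List.append_inj h1 ?_).1
    rw [seg_length (hyj.trans (hv'.2.2 j))]
    omega
  have hV : seg w' (x' i + u.length) (x' j) = v := by
    have h1 := seg_append (w := w') (a := x' i) (b := x' i + u.length) (c := x' j) (by omega) hyj
    rw [← huv, hU] at h1
    exact (List.append_inj h1 rfl).2
  have hu' : τ (seg w (x i) y) = τ (seg w' (x' i) (x' i + u.length)) := by rw [hU]; exact hu.symm
  have hv2 : τ (seg w y (x j)) = τ (seg w' (x' i + u.length) (x' j)) := by rw [hV]; exact hv1.symm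
  have base : ∀ l m, x l ≤ x m → τ (seg w (x l) (x m)) = τ (seg w' (x' l) (x' m)) :=
    fun l m hlm => (Prod.ext_iff.1 (h.2 l m hlm)).1
  -- order facts
  have ol : ∀ l, x l ≤ y ↔ x' l ≤ x' i + u.length := by
    intro l
    constructor
    · intro hl
      exact ((h.1 l i).1 (hi' l hl)).trans (Nat.le_add_right _ _)
    · intro hl
      by_contra hn
      have h1 : x j ≤ x l := hj' l (by omega)
      have h2 : x' j ≤ x' l := (h.1 j l).1 h1
      have h3 : x' l = x' j := le_antisymm (hl.trans hyj) h2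
      have h4 : x l ≤ x j := (h.1 l j).2 h3.le
      have h5 : x' i + u.length = x' j := by omega
      have h6 : τ (seg w y (x j)) = τ [] := by rw [hv2, h5, seg_self]
      have h7 := hτ.sep _ h6
      have h8 := seg_length (a := y) (hv.2.2 j)
      rw [h7] at h8
      simp only [List.length_nil] at h8
      omega
  have or' : ∀ l, y ≤ x l ↔ x' i + u.length ≤ x' l := by
    intro l
    constructor
    · intro hl
      exact hyj.trans ((h.1 j l).1 (hj' l hl))
    · intro hl
      by_contra hn
      have h1 : x l ≤ x i := hi' l (by omega)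
      have h2 : x' l ≤ x' i := (h.1 l i).1 h1
      have h3 : x' l = x' i := le_antisymm h2 (by omega)
      have h4 : x i ≤ x l := (h.1 i l).2 h3.ge
      have h5 : x' i + u.length = x' i := by omega
      have h6 : τ (seg w (x i) y) = τ [] := by rw [hu', h5, seg_self]
      have h7 := hτ.sep _ h6
      have h8 := seg_length (a := x i) hy
      rw [h7] at h8
      simp only [List.length_nil] at h8
      omega
  refine ⟨x' i + u.length, hyj.trans (hv'.2.2 j), ?_, ?_⟩
  · rintro (_ | l) (_ | m)
    · simp [ext]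
    · exact or' m
    · exact ol l
    · exact h.1 l m
  · rintro (_ | l) (_ | m) hlm
    · change τ (seg w y y) = τ (seg w' (x' i + u.length) (x' i + u.length))
      rw [seg_self, seg_self]
    · -- y ≤ x m
      have hm' : y ≤ x m := hlm
      have h1 : x j ≤ x m := hj' m hm'
      change τ (seg w y (x m)) = τ (seg w' (x' i + u.length) (x' m))
      rw [← seg_append hj h1, ← seg_append hyj ((h.1 j m).1 h1)]
      exact hτ.comp _ _ _ _ hv2 (base j m h1)
    · have hl' : x l ≤ y := hlm
      have h1 : x l ≤ x i := hi' l hl'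
      change τ (seg w (x l) y) = τ (seg w' (x' l) (x' i + u.length))
      rw [← seg_append h1 hi, ← seg_append ((h.1 l i).1 h1) (Nat.le_add_right _ _)]
      exact hτ.comp _ _ _ _ (base l i h1) hu'
    · exact base l m hlm

/-- first-order relations on positions, with factor predicates from `HL k` -/
def FO (k : ℕ) {ι : Type} (a b : ι) (R : List α → (ι → ℕ) → Prop) : Prop :=
  ∃ (T : Type u) (_ : Finite T) (τ : List α → T), Good k τ ∧
    ∀ w w' x x', Val a b w x → Val a b w' x' → Same τ w x w' x' → (R w x → R w' x')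

variable {ι : Type} {a b : ι} {R S : List α → (ι → ℕ) → Prop}

theorem FO.congr (h : FO k a b S) (e : ∀ w x, Val a b w x → (R w x ↔ S w x)) : FO k a b R := by
  obtain ⟨T, hT, τ, h1, h2⟩ := h
  exact ⟨T, hT, τ, h1, fun w w' x x' hv hv' hs hr =>
    (e w' x' hv').2 (h2 w w' x x' hv hv' hs ((e w x hv).1 hr))⟩

theorem FO.not (h : FO k a b R) : FO k a b (fun w x => ¬ R w x) := by
  obtain ⟨T, hT, τ, h1, h2⟩ := h
  exact ⟨T, hT, τ, h1, fun w w' x x' hv hv' hs hr hr' => hr (h2 w' w x' x hv' hv hs.symm hr')⟩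

theorem same_fst {T T' : Type*} {τ : List α → T} {τ' : List α → T'} {w w' : List α}
    {x x' : ι → ℕ} (h : Same (fun w => (τ w, τ' w)) w x w' x') : Same τ w x w' x' :=
  ⟨h.1, fun i j hij => (Prod.ext_iff.1 (h.2 i j hij)).1⟩

theorem same_snd {T T' : Type*} {τ : List α → T} {τ' : List α → T'} {w w' : List α}
    {x x' : ι → ℕ} (h : Same (fun w => (τ w, τ' w)) w x w' x') : Same τ' w x w' x' :=
  ⟨h.1, fun i j hij => (Prod.ext_iff.1 (h.2 i j hij)).2⟩

theorem FO.and (h : FO k a b R) (h' : FO k a b S) : FO k a b (fun w x => R w x ∧ S w x) := by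
  obtain ⟨T, hT, τ, h1, h2⟩ := h
  obtain ⟨T', hT', τ', h1', h2'⟩ := h'
  exact ⟨T × T', inferInstance, _, h1.prod h1', fun w w' x x' hv hv' hs hr =>
    ⟨h2 w w' x x' hv hv' (same_fst hs) hr.1, h2' w w' x x' hv hv' (same_snd hs) hr.2⟩⟩

theorem FO.or (h : FO k a b R) (h' : FO k a b S) : FO k a b (fun w x => R w x ∨ S w x) :=
  ((h.not.and h'.not).not).congr fun _ _ _ => or_iff_not_and_not

theorem FO.imp (h : FO k a b R) (h' : FO k a b S) : FO k a b (fun w x => R w x → S w x) :=
  (h.not.or h').congr fun _ _ _ => imp_iff_not_or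

theorem FO.iff (h : FO k a b R) (h' : FO k a b S) : FO k a b (fun w x => R w x ↔ S w x) :=
  ((h.imp h').and (h'.imp h)).congr fun _ _ _ => iff_iff_implies_and_implies

theorem good_trivial : ∃ (T : Type u) (_ : Finite T) (τ : List α → T), Good k τ := by
  obtain ⟨T, hT, τ, h, _⟩ := exists_good (HL.top (α := α) (k := k))
  exact ⟨T, hT, τ, h⟩

theorem FO.const (p : Prop) : FO k a b (fun (_ : List α) _ => p) := by
  obtain ⟨T, hT, τ, h⟩ := good_trivial (α := α) (k := k)
  exact ⟨T, hT, τ, h, fun _ _ _ _ _ _ _ hr => hr⟩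

/-- order atoms -/
theorem FO.le (i j : ι) : FO k a b (fun (_ : List α) x => x i ≤ x j) := by
  obtain ⟨T, hT, τ, h⟩ := good_trivial (α := α) (k := k)
  exact ⟨T, hT, τ, h, fun _ _ _ _ _ _ hs hr => (hs.1 i j).1 hr⟩

theorem FO.lt (i j : ι) : FO k a b (fun (_ : List α) x => x i < x j) :=
  (FO.le j i).not.congr fun _ _ _ => not_le.symm

theorem FO.eq (i j : ι) : FO k a b (fun (_ : List α) x => x i = x j) :=
  ((FO.le i j).and (FO.le j i)).congr fun _ _ _ => le_antisymm_iff

/-- factor atoms -/
theorem FO.fac {L : Language α} (hL : HL k L) (i j : ι) :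
    FO k a b (fun w x => x i ≤ x j ∧ seg w (x i) (x j) ∈ L) := by
  obtain ⟨T, hT, τ, h, h'⟩ := exists_good hL
  exact ⟨T, hT, τ, h, fun _ _ _ _ _ _ hs hr =>
    ⟨(hs.1 i j).1 hr.1, h' _ _ (hs.2 i j hr.1) hr.2⟩⟩

/-- reindexing -/
theorem FO.comap {κ : Type} (f : ι → κ) (h : FO k a b R) :
    FO k (f a) (f b) (fun w x => R w (x ∘ f)) := by
  obtain ⟨T, hT, τ, h1, h2⟩ := h
  refine ⟨T, hT, τ, h1, fun w w' x x' hv hv' hs hr => ?_⟩
  exact h2 w w' _ _ ⟨hv.1, hv.2.1, fun i => hv.2.2 _⟩ ⟨hv'.1, hv'.2.1, fun i => hv'.2.2 _⟩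
    ⟨fun i j => hs.1 _ _, fun i j hij => hs.2 _ _ hij⟩ hr

/-- quantification over a position -/
theorem FO.ex [Finite ι] {R : List α → (Option ι → ℕ) → Prop} (h : FO k (some a) (some b) R) :
    FO k a b (fun w x => ∃ y, y ≤ w.length ∧ R w (ext x y)) := by
  obtain ⟨T, hT, τ, h1, h2⟩ := h
  refine ⟨T × Set (T × T), inferInstance, _, h1.schu, fun w w' x x' hv hv' hs hr => ?_⟩
  obtain ⟨y, hy, hr⟩ := hr
  obtain ⟨y', hy', hs'⟩ := extend h1 hv hv' hs hy
  refine ⟨y', hy', h2 w w' _ _ ?_ ?_ hs' hr⟩
  · refine ⟨hv.1, hv.2.1, ?_⟩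
    rintro (_ | i)
    · exact hy
    · exact hv.2.2 i
  · refine ⟨hv'.1, hv'.2.1, ?_⟩
    rintro (_ | i)
    · exact hy'
    · exact hv'.2.2 i

theorem FO.all [Finite ι] {R : List α → (Option ι → ℕ) → Prop} (h : FO k (some a) (some b) R) :
    FO k a b (fun w x => ∀ y, y ≤ w.length → R w (ext x y)) := by
  refine h.not.ex.not.congr fun w x _ => ?_
  constructor
  · rintro h1 ⟨y, hy, h2⟩
    exact h2 (h1 y hy)
  · intro h1 y hy
    by_contra h2
    exact h1 ⟨y, hy, h2⟩

/-- finite unions and intersections -/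
theorem FO.exFin {κ : Type*} [Finite κ] {R : κ → List α → (ι → ℕ) → Prop}
    (h : ∀ c, FO k a b (R c)) : FO k a b (fun w x => ∃ c, R c w x) := by
  classical
  have := Fintype.ofFinite κ
  have key : ∀ s : Finset κ, FO k a b (fun w x => ∃ c ∈ s, R c w x) := by
    intro s
    induction s using Finset.induction_on with
    | empty => exact (FO.const False).congr fun w x _ => by simp
    | insert c s _ ih =>
      exact ((h c).or ih).congr fun w x _ => by simp
  exact (key Finset.univ).congr fun w x _ => by simp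

theorem FO.allFin {κ : Type*} [Finite κ] {R : κ → List α → (ι → ℕ) → Prop}
    (h : ∀ c, FO k a b (R c)) : FO k a b (fun w x => ∀ c, R c w x) :=
  (FO.exFin fun c => (h c).not).not.congr fun w x _ => by simp

/-- **the FO theorem**: languages defined by first-order formulas with factor predicates from
`HL k` are in `HL k`; `false` names the left end, `true` the right end -/
theorem FO.lang {R : List α → (Bool → ℕ) → Prop} (h : FO k false true R) :
    HL k {w | R w (fun c => if c then w.length else 0)} := by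
  obtain ⟨T, hT, τ, h1, h2⟩ := h
  have hv : ∀ w : List α, Val false true w (fun c => if c then w.length else 0) := by
    intro w
    refine ⟨by simp, by simp, ?_⟩
    rintro (_ | _) <;> simp
  have hs : ∀ w w' : List α, τ w = τ w' →
      Same τ w (fun c : Bool => if c then w.length else 0) w'
        (fun c : Bool => if c then w'.length else 0) := by
    intro w w' hw
    have hn : w = [] ↔ w' = [] := by
      constructor
      · intro h3; rw [h3] at hw; exact h1.sep _ hw.symm
      · intro h3; rw [h3] at hw; exact h1.sep _ hw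
    have hn' : w.length = 0 ↔ w'.length = 0 := by
      rw [List.length_eq_zero_iff, List.length_eq_zero_iff]; exact hn
    constructor
    · rintro (_ | _) (_ | _) <;> simp [hn]
    · rintro (_ | _) (_ | _) hle
      · simp [seg_self]
      · simpa [seg_full] using hw
      · simp only [↓reduceIte, Bool.false_eq_true] at hle
        have h3 : w = [] := List.length_eq_zero_iff.1 (Nat.le_zero.1 hle)
        have h4 : w' = [] := hn.1 h3
        simp [h3, h4]
      · simp [seg_self]
  have h3 : HL k {w : List α | ∃ t : T, w ∈ ({w | τ w = t ∧ ∃ v, τ v = t ∧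
      R v (fun c => if c then v.length else 0)} : Language α)} :=
    HL.iUnion fun t => (h1.fib t).setOf_and (HL.const _)
  refine h3.congr fun w => ?_
  constructor
  · intro hw
    exact ⟨τ w, rfl, w, rfl, hw⟩
  · rintro ⟨t, ht, v, hv1, hv2⟩
    exact h2 v w _ _ (hv v) (hv w) (hs v w (hv1.trans ht.symm)) hv2

end Crest.Agent.R320.FO_461
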