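import Mathlib

/-!
# Finite-state functions of a word (helper479): a calculus for regularity
-/

set_option autoImplicit false

namespace Crest.Agent.R320.FS_479

universe u v

variable {α : Type u}

/-- run of an automaton -/
def rn {Q : Type*} (δ : Q → α → Q) (q : Q) (w : List α) : Q := w.foldl δ q

theorem rn_append {Q : Type*} (δ : Q → α → Q) (q : Q) (x y : List α) :
    rn δ q (x ++ y) = rn δ (rn δ q x) y := List.foldl_append

/-- finite-state function of a word -/
def FS {X : Type*} (g : List α → X) : Prop :=
  ∃ (N : ℕ) (δ : Fin N → α → Fin N) (q0 : Fin N) (out : Fin N → X), ∀ w, g w = out (rn δ q0 w)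

variable {X Y : Type*}

theorem FS.of_auto {Q : Type*} [Finite Q] (δ : Q → α → Q) (q0 : Q) (out : Q → X)
    {g : List α → X} (h : ∀ w, g w = out (rn δ q0 w)) : FS g := by
  obtain ⟨N, ⟨e⟩⟩ := Finite.exists_equiv_fin Q
  refine ⟨N, fun i a => e (δ (e.symm i) a), e q0, fun i => out (e.symm i), fun w => ?_⟩
  have key : ∀ (w : List α) (q : Q), rn (fun i a => e (δ (e.symm i) a)) (e q) w = e (rn δ q w) := by
    intro w
    induction w with
    | nil => intro q; rfl
    | cons a w ih =>
      intro q
      show rn _ (e (δ (e.symm (e q)) a)) w = e (rn δ (δ q a) w)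
      rw [ih]; simp
  rw [h, key]; simp

theorem FS.of_step {Q : Type*} [Finite Q] {F : List α → Q}
    (h : ∀ u u' a, F u = F u' → F (u ++ [a]) = F (u' ++ [a])) : FS F := by
  classical
  refine FS.of_auto (fun q a => if hq : ∃ u, F u = q then F (hq.choose ++ [a]) else q) (F []) id
    fun w => ?_
  induction w using List.reverseRecOn with
  | nil => rfl
  | append_singleton w a ih =>
    rw [rn_append]
    show F (w ++ [a]) = _
    have : rn (fun q a => if hq : ∃ u, F u = q then F (hq.choose ++ [a]) else q) (F []) w = F w := by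
      simpa using ih.symm
    rw [this]
    show F (w ++ [a]) = if hq : ∃ u, F u = F w then F (hq.choose ++ [a]) else F w
    have hq : ∃ u, F u = F w := ⟨w, rfl⟩
    rw [dif_pos hq]
    exact h _ _ _ hq.choose_spec.symm

theorem FS.comp {g : List α → X} (h : FS g) (k : X → Y) : FS (fun w => k (g w)) := by
  obtain ⟨N, δ, q0, out, e⟩ := h
  exact ⟨N, δ, q0, fun i => k (out i), fun w => by show k (g w) = k _; rw [e]⟩

theorem FS.congr {g g' : List α → X} (h : FS g) (e : ∀ w, g' w = g w) : FS g' := by
  obtain ⟨N, δ, q0, out, e'⟩ := h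
  exact ⟨N, δ, q0, out, fun w => by rw [e, e']⟩

theorem FS.iff {p q : List α → Prop} (h : FS p) (e : ∀ w, q w ↔ p w) : FS q :=
  h.congr fun w => propext (e w)

theorem FS.pair {g : List α → X} {g' : List α → Y} (h : FS g) (h' : FS g') :
    FS (fun w => (g w, g' w)) := by
  obtain ⟨N, δ, q0, out, e⟩ := h
  obtain ⟨N', δ', q0', out', e'⟩ := h'
  refine FS.of_auto (Q := Fin N × Fin N') (fun q a => (δ q.1 a, δ' q.2 a)) (q0, q0')
    (fun q => (out q.1, out' q.2)) fun w => ?_
  have key : ∀ (w : List α) (q : Fin N × Fin N'),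
      rn (fun (q : Fin N × Fin N') a => (δ q.1 a, δ' q.2 a)) q w = (rn δ q.1 w, rn δ' q.2 w) := by
    intro w
    induction w with
    | nil => intro q; rfl
    | cons a w ih =>
      intro q
      show rn _ (δ q.1 a, δ' q.2 a) w = _
      rw [ih]; rfl
  rw [key, e, e']

theorem FS.and {p q : List α → Prop} (hp : FS p) (hq : FS q) : FS (fun w => p w ∧ q w) :=
  (hp.pair hq).comp fun x => x.1 ∧ x.2

theorem FS.or {p q : List α → Prop} (hp : FS p) (hq : FS q) : FS (fun w => p w ∨ q w) :=
  (hp.pair hq).comp fun x => x.1 ∨ x.2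

theorem FS.not {p : List α → Prop} (hp : FS p) : FS (fun w => ¬ p w) := hp.comp fun x => ¬ x

theorem FS.eq {g : List α → X} (h : FS g) (x : X) : FS (fun w => g w = x) := h.comp fun y => y = x

theorem FS.const (x : X) : FS (fun _ : List α => x) :=
  FS.of_auto (Q := Unit) (fun q _ => q) () (fun _ => x) fun _ => rfl

theorem FS.pi {ι : Type*} [Finite ι] {Z : ι → Type*} {g : (i : ι) → List α → Z i}
    (h : ∀ i, FS (g i)) : FS (fun w i => g i w) := by
  classical
  choose N δ q0 out e using h
  refine FS.of_auto (Q := (i : ι) → Fin (N i)) (fun q a i => δ i (q i) a) (fun i => q0 i)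
    (fun q i => out i (q i)) fun w => ?_
  have key : ∀ (w : List α) (q : (i : ι) → Fin (N i)),
      rn (fun (q : (i : ι) → Fin (N i)) a i => δ i (q i) a) q w = fun i => rn (δ i) (q i) w := by
    intro w
    induction w with
    | nil => intro q; rfl
    | cons a w ih =>
      intro q
      show rn _ (fun i => δ i (q i) a) w = _
      rw [ih]; rfl
  rw [key]
  funext i
  exact e i w

theorem FS.exists {ι : Type*} [Finite ι] {p : ι → List α → Prop} (h : ∀ i, FS (p i)) :
    FS (fun w => ∃ i, p i w) := (FS.pi h).comp fun x => ∃ i, x i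

theorem FS.forall {ι : Type*} [Finite ι] {p : ι → List α → Prop} (h : ∀ i, FS (p i)) :
    FS (fun w => ∀ i, p i w) := (FS.pi h).comp fun x => ∀ i, x i

theorem FS.existsLt {K : ℕ} {p : ℕ → List α → Prop} (h : ∀ i, FS (p i)) :
    FS (fun w => ∃ i < K, p i w) :=
  (FS.exists (ι := Fin K) fun i => h i.1).iff fun w =>
    ⟨fun ⟨i, hi, hp⟩ => ⟨⟨i, hi⟩, hp⟩, fun ⟨i, hp⟩ => ⟨i.1, i.2, hp⟩⟩

theorem FS.forallLt {K : ℕ} {p : ℕ → List α → Prop} (h : ∀ i, FS (p i)) :
    FS (fun w => ∀ i < K, p i w) :=
  (FS.forall (ι := Fin K) fun i => h i.1).iff fun w =>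
    ⟨fun hp i => hp i.1 i.2, fun hp i hi => hp ⟨i, hi⟩⟩

theorem FS.prod {S : Type*} [Monoid S] [Finite S] (f : α → S) :
    FS (fun w : List α => (w.map f).prod) :=
  FS.of_step fun u u' a h => by simp only [List.map_append, List.prod_append, h]

theorem FS.shift {g : List α → X} (h : FS g) (p : List α) : FS (fun w => g (p ++ w)) := by
  obtain ⟨N, δ, q0, out, e⟩ := h
  exact ⟨N, δ, rn δ q0 p, out, fun w => by show g (p ++ w) = _; rw [e, rn_append]⟩

theorem FS.take [Finite α] (N : ℕ) : FS (fun w : List α => w.take N) := by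
  have : Finite {l : List α // l.length ≤ N} := (List.finite_length_le α N).to_subtype
  have h := FS.of_step (α := α) (F := fun w => (⟨w.take N, by simp⟩ : {l : List α // l.length ≤ N}))
    (fun u u' a h => by
      have h' : u.take N = u'.take N := congrArg Subtype.val h
      apply Subtype.ext
      show (u ++ [a]).take N = (u' ++ [a]).take N
      rcases Nat.lt_or_ge u.length N with hu | hu
      · have h1 : (u'.take N).length < N := by rw [← h']; simp; omega
        have h2 : u'.length < N := by rw [List.length_take] at h1; omega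
        rw [List.take_of_length_le hu.le, List.take_of_length_le h2.le] at h'
        rw [h']
      · have h1 : (u'.take N).length = N := by rw [← h']; simp; omega
        have h2 : N ≤ u'.length := by rw [List.length_take] at h1; omega
        rw [List.take_append_of_le_length hu, List.take_append_of_le_length h2, h'])
  exact h.comp Subtype.val

theorem FS.lenle (k : ℕ) : FS (fun w : List α => k ≤ w.length) := by
  have h := FS.of_step (α := α) (F := fun w => (⟨min w.length k, by omega⟩ : Fin (k + 1)))
    (fun u u' a h => by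
      have h' : min u.length k = min u'.length k := congrArg Fin.val h
      apply Fin.ext
      simp only [List.length_append, List.length_singleton]
      omega)
  exact (h.comp fun i => k ≤ i.val).iff fun w => by
    show k ≤ w.length ↔ k ≤ min w.length k
    omega

theorem FS.drop {g : List α → X} (hg : FS g) (N : ℕ) : FS (fun w : List α => g (w.drop N)) := by
  obtain ⟨M, δ, q0, out, e⟩ := hg
  have h := FS.of_step (α := α) (F := fun w => ((⟨min w.length N, by omega⟩ : Fin (N + 1)),
      rn δ q0 (w.drop N)))
    (fun u u' a h => by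
      have h1 : min u.length N = min u'.length N := congrArg (fun x => x.1.val) h
      have h2 : rn δ q0 (u.drop N) = rn δ q0 (u'.drop N) := congrArg (fun x => x.2) h
      apply Prod.ext
      · apply Fin.ext
        simp only [List.length_append, List.length_singleton]
        omega
      · show rn δ q0 ((u ++ [a]).drop N) = rn δ q0 ((u' ++ [a]).drop N)
        rcases Nat.lt_or_ge u.length N with hu | hu
        · have hu' : u'.length < N := by omega
          rw [List.drop_eq_nil_of_le (by simp; omega), List.drop_eq_nil_of_le (by simp; omega)]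
        · have hu' : N ≤ u'.length := by omega
          rw [List.drop_append_of_le_length hu, List.drop_append_of_le_length hu', rn_append,
            rn_append, h2])
  exact (h.comp fun x => out x.2).congr fun w => e _

/-- cutting a word in two -/
theorem FS.cut {g : List α → X} {h : List α → Y} (hg : FS g) (hh : FS h) (r : X → Y → Prop) :
    FS (fun w => ∃ a b, a ++ b = w ∧ r (g a) (h b)) := by
  obtain ⟨N, δ, q0, out, e⟩ := hg
  obtain ⟨M, δ', q0', out', e'⟩ := hh
  set F : List α → Fin N × Set (Fin N × Fin M) := fun w =>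
    (rn δ q0 w, {x | ∃ a b, a ++ b = w ∧ x = (rn δ q0 a, rn δ' q0' b)}) with hF
  have hs : ∀ (w : List α) (c : α), (F (w ++ [c])).2 =
      {x | (∃ y ∈ (F w).2, x = (y.1, δ' y.2 c)) ∨ x = (δ (F w).1 c, q0')} := by
    intro w c
    ext x
    constructor
    · rintro ⟨a, b, hab, rfl⟩
      rcases List.eq_nil_or_concat b with rfl | ⟨b', d, rfl⟩
      · right
        rw [List.append_nil] at hab
        subst hab
        show (rn δ q0 (w ++ [c]), rn δ' q0' []) = (δ (rn δ q0 w) c, q0')
        rw [rn_append]; rfl
      · left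
        rw [List.concat_eq_append, ← List.append_assoc] at hab
        obtain ⟨h1, h2⟩ := List.append_inj' hab rfl
        have h3 : d = c := by simpa using h2
        subst h3
        refine ⟨(rn δ q0 a, rn δ' q0' b'), ⟨a, b', h1, rfl⟩, ?_⟩
        rw [List.concat_eq_append, rn_append]; rfl
    · rintro (⟨y, ⟨a, b, hab, rfl⟩, rfl⟩ | rfl)
      · refine ⟨a, b ++ [c], by rw [← List.append_assoc, hab], ?_⟩
        rw [rn_append]; rfl
      · refine ⟨w ++ [c], [], by simp, ?_⟩
        rw [rn_append]; rfl
  have h := FS.of_step (α := α) (F := F) (fun u u' c huu => by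
    apply Prod.ext
    · show rn δ q0 (u ++ [c]) = rn δ q0 (u' ++ [c])
      have : rn δ q0 u = rn δ q0 u' := congrArg Prod.fst huu
      rw [rn_append, rn_append, this]
    · rw [hs, hs, huu])
  refine (h.comp fun x => ∃ y ∈ x.2, r (out y.1) (out' y.2)).iff fun w => ?_
  constructor
  · rintro ⟨a, b, hab, hr⟩
    exact ⟨_, ⟨a, b, hab, rfl⟩, by rw [← e, ← e']; exact hr⟩
  · rintro ⟨y, ⟨a, b, hab, rfl⟩, hr⟩
    exact ⟨a, b, hab, by rw [e, e']; exact hr⟩

/-- a condition on a prefix -/
theorem FS.pre {p : List α → Prop} (hp : FS p) : FS (fun w => ∃ a b, a ++ b = w ∧ p a) :=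
  (FS.cut hp (FS.const (α := α) ()) fun x _ => x).iff fun _ => Iff.rfl

theorem FS.reg {p : List α → Prop} (hp : FS p) : Language.IsRegular ({w | p w} : Language α) := by
  obtain ⟨N, δ, q0, out, e⟩ := hp
  refine ⟨Fin N, inferInstance, ⟨δ, q0, {q | out q}⟩, ?_⟩
  ext w
  show out (rn δ q0 w) ↔ p w
  rw [e]

theorem FS.of_reg {p : List α → Prop} (h : Language.IsRegular ({w | p w} : Language α)) : FS p := by
  obtain ⟨σ, _, M, hM⟩ := h
  refine FS.of_auto M.step M.start (fun q => q ∈ M.accept) fun w => propext ?_
  have : w ∈ M.accepts ↔ w ∈ ({w | p w} : Language α) := by rw [hM]; exact Iff.rfl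
  exact this.symm

theorem FS.of_fibres [Finite X] {g : List α → X}
    (h : ∀ x, Language.IsRegular ({w | g w = x} : Language α)) : FS g := by
  classical
  have h1 := FS.pi (α := α) (ι := X) (g := fun x w => g w = x) fun x => FS.of_reg (h x)
  refine (h1.comp fun P => if hP : ∃ x, P x then hP.choose else g []).congr fun w => ?_
  have hP : ∃ x, g w = x := ⟨_, rfl⟩
  show g w = if hP : ∃ x, g w = x then hP.choose else g []
  rw [dif_pos hP]
  exact hP.choose_spec

end Crest.Agent.R320.FS_479
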