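import Mathlib

/-!
Row 320, helper601.

`regular_of_class_drop` : a property of words which depends only on the first `A` letters, the
length modulo `M0` and the product of the REST of the word (after the first `A` letters) is regular.

`nu_fs` : from a gadget `(lam, rho, nu)` with a finite-state clause for `rho` only, a noise `nu'`
with the same soundness and a finite-state clause.
-/

set_option autoImplicit false

namespace Crest.Agent.R320.FS_601

universe u

theorem take_snoc {α : Type u} (A : ℕ) (u : List α) (a : α) :
    (u ++ [a]).take A = if (u.take A).length < A then u.take A ++ [a] else u.take A := by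
  by_cases h : u.length < A
  · rw [List.take_of_length_le (l := u) (by omega), if_pos h, List.take_of_length_le (by simp; omega)]
  · have h1 : (u.take A).length = A := by rw [List.length_take]; omega
    rw [if_neg (by omega), List.take_append_of_le_length (by omega)]

theorem drop_snoc {α : Type u} (A : ℕ) (u : List α) (a : α) :
    (u ++ [a]).drop A = if (u.take A).length < A then [] else u.drop A ++ [a] := by
  by_cases h : u.length < A
  · rw [List.take_of_length_le (l := u) (by omega), if_pos h, List.drop_of_length_le (by simp; omega)]
  · have h1 : (u.take A).length = A := by rw [List.length_take]; omega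
    rw [if_neg (by omega), List.drop_append_of_le_length (by omega)]

/-- finite-state properties are regular -/
theorem regular_of_class_drop {α : Type u} [Finite α] {S : Type*} [Monoid S] [Finite S]
    (φ : α → S) (A M0 : ℕ) (hM : 0 < M0) (f : List α → Prop)
    (hf : ∀ u u' : List α, A ≤ u.length → A ≤ u'.length → u.take A = u'.take A →
      u.length % M0 = u'.length % M0 →
      ((u.drop A).map φ).prod = ((u'.drop A).map φ).prod → (f u ↔ f u')) :
    Language.IsRegular ({u | f u} : Language α) := by
  classical
  have : NeZero M0 := ⟨by omega⟩
  have hfin : Finite {l : List α // l.length ≤ A} := List.finite_length_le α A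
  let σ := {l : List α // l.length ≤ A} × ZMod M0 × S
  have : Fintype σ := Fintype.ofFinite σ
  let st : List α → σ := fun u =>
    (⟨u.take A, by rw [List.length_take]; omega⟩, (u.length : ZMod M0), ((u.drop A).map φ).prod)
  let M : DFA α σ :=
    { step := fun q a =>
        (if h : q.1.1.length < A then ⟨q.1.1 ++ [a], by simp; omega⟩ else q.1,
          q.2.1 + 1, if q.1.1.length < A then 1 else q.2.2 * φ a)
      start := st []
      accept := {q | ∃ u, f u ∧ st u = q} }
  have hev : ∀ u, M.eval u = st u := by
    intro u
    induction u using List.reverseRecOn with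
    | nil => rfl
    | append_singleton u a ih =>
      rw [DFA.eval_append_singleton, ih]
      refine Prod.ext ?_ (Prod.ext ?_ ?_)
      · apply Subtype.ext
        show (if h : (u.take A).length < A then (⟨u.take A ++ [a], by simp at h ⊢; omega⟩ :
          {l : List α // l.length ≤ A}) else ⟨u.take A, by rw [List.length_take]; omega⟩).1
          = (u ++ [a]).take A
        rw [take_snoc]
        split_ifs <;> rfl
      · show (u.length : ZMod M0) + 1 = (((u ++ [a]).length : ℕ) : ZMod M0)
        simp
      · show (if (u.take A).length < A then 1 else ((u.drop A).map φ).prod * φ a)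
          = (((u ++ [a]).drop A).map φ).prod
        rw [drop_snoc]
        split_ifs <;> simp
  refine Language.isRegular_iff.2 ⟨σ, inferInstance, M, ?_⟩
  ext u
  rw [DFA.mem_accepts, hev]
  constructor
  · rintro ⟨u', h1, h2⟩
    have e1 : u'.take A = u.take A := congrArg (fun q : σ => q.1.1) h2
    have e2 : (u'.length : ZMod M0) = (u.length : ZMod M0) := congrArg (fun q : σ => q.2.1) h2
    have e3 : ((u'.drop A).map φ).prod = ((u.drop A).map φ).prod :=
      congrArg (fun q : σ => q.2.2) h2
    have e2' : u'.length % M0 = u.length % M0 := (ZMod.natCast_eq_natCast_iff' _ _ _).1 e2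
    have e4 := congrArg List.length e1
    rw [List.length_take, List.length_take] at e4
    by_cases h : u.length < A
    · rw [List.take_of_length_le (by omega), List.take_of_length_le (by omega)] at e1
      rw [← e1]; exact h1
    · exact (hf u' u (by omega) (by omega) e1 e2' e3).1 h1
  · intro h
    exact ⟨u, h, rfl⟩

/-- a finite-state noise from a finite-state `rho`. -/
theorem nu_fs {α : Type u} {S V : Type*} [Monoid S] [AddCommGroup V] (act : V → S → V)
    (φ : α → S) (N A M0 : ℕ) (lam rho : List α → Option V) (nu : List α → V)
    (hlam : ∀ P v, lam P = some v → P.length < N)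
    (hrho : ∀ Q b, rho Q = some b → A ≤ Q.length)
    (hs : ∀ P Q v b, lam P = some v → rho Q = some b →
      b = act v ((P ++ Q).map φ).prod + nu (P ++ Q))
    (hfs : ∀ Q Q' : List α, A ≤ Q.length → A ≤ Q'.length → Q.take A = Q'.take A →
      ((Q.drop A).map φ).prod = ((Q'.drop A).map φ).prod →
      Q.length % M0 = Q'.length % M0 → rho Q = rho Q') :
    ∃ nu' : List α → V,
      (∀ P Q v b, lam P = some v → rho Q = some b →
        b = act v ((P ++ Q).map φ).prod + nu' (P ++ Q)) ∧
      ∀ u u' : List α, N + A ≤ u.length → N + A ≤ u'.length →
        u.take (N + A) = u'.take (N + A) → u.length % M0 = u'.length % M0 →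
        ((u.drop (N + A)).map φ).prod = ((u'.drop (N + A)).map φ).prod → nu' u = nu' u' := by
  classical
  let C : List α → Prop := fun u => ∃ P Q v b, u = P ++ Q ∧ lam P = some v ∧ rho Q = some b
  refine ⟨fun u => if C u then nu u else 0, ?_, ?_⟩
  · intro P Q v b h1 h2
    have hC : C (P ++ Q) := ⟨P, Q, v, b, rfl, h1, h2⟩
    simp only [if_pos hC]
    exact hs P Q v b h1 h2
  · intro u u' hu hu' ht hl hp
    -- transfer of one cut
    have key : ∀ u u' : List α, N + A ≤ u.length → N + A ≤ u'.length →
        u.take (N + A) = u'.take (N + A) → u.length % M0 = u'.length % M0 →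
        ((u.drop (N + A)).map φ).prod = ((u'.drop (N + A)).map φ).prod → C u →
        C u' ∧ nu u = nu u' := by
      intro u u' hu hu' ht hl hp hC
      obtain ⟨P, Q, v, b, rfl, h1, h2⟩ := hC
      have hPN := hlam P v h1
      rw [List.length_append] at hu hl
      obtain ⟨E, hE⟩ : ∃ E, E = N + A - P.length := ⟨_, rfl⟩
      have hEA : A ≤ E := by omega
      have hNE : N + A = P.length + E := by omega
      have e1 : (P ++ Q).take (N + A) = P ++ Q.take E := by
        rw [hNE, List.take_length_add_append]
      have e2 : (P ++ Q).drop (N + A) = Q.drop E := by
        rw [hNE, List.drop_length_add_append]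
      obtain ⟨Q', hQ'⟩ : ∃ Q', u' = P ++ Q' := by
        refine ⟨u'.drop P.length, ?_⟩
        have e3 : u'.take P.length = P := by
          have := congrArg (List.take P.length) ht
          rw [e1, List.take_take, Nat.min_eq_left (by omega)] at this
          rw [← this, List.take_append_of_le_length le_rfl, List.take_length]
        conv_lhs => rw [← List.take_append_drop P.length u', e3]
      subst hQ'
      rw [List.length_append] at hu' hl
      have e1' : (P ++ Q').take (N + A) = P ++ Q'.take E := by
        rw [hNE, List.take_length_add_append]
      have e2' : (P ++ Q').drop (N + A) = Q'.drop E := by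
        rw [hNE, List.drop_length_add_append]
      rw [e1, e1'] at ht
      have ht' : Q.take E = Q'.take E := List.append_cancel_left ht
      rw [e2, e2'] at hp
      have d : ∀ R : List α, E ≤ R.length → R.drop A = (R.take E).drop A ++ R.drop E := by
        intro R hR
        conv_lhs => rw [← List.take_append_drop E R]
        rw [List.drop_append_of_le_length (by rw [List.length_take]; omega)]
      have hr : rho Q = rho Q' := by
        apply hfs Q Q' (by omega) (by omega)
        · have := congrArg (List.take A) ht'
          rw [List.take_take, List.take_take, Nat.min_eq_left hEA] at this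
          exact this
        · rw [d Q (by omega), d Q' (by omega), List.map_append, List.prod_append, List.map_append,
            List.prod_append, ht', hp]
        · have h3 : (P.length + Q.length) % M0 = (P.length + Q'.length) % M0 := hl
          exact Nat.ModEq.add_left_cancel' P.length h3
      have hphi : ((P ++ Q).map φ).prod = ((P ++ Q').map φ).prod := by
        rw [← List.take_append_drop E Q, ← List.take_append_drop E Q', ht']
        simp only [List.map_append, List.prod_append]
        rw [hp]
      refine ⟨⟨P, Q', v, b, rfl, h1, hr ▸ h2⟩, ?_⟩
      have a1 := hs P Q v b h1 h2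
      have a2 := hs P Q' v b h1 (hr ▸ h2)
      rw [hphi] at a1
      exact add_left_cancel (a1.symm.trans a2)
    by_cases hC : C u
    · obtain ⟨hC', he⟩ := key u u' hu hu' ht hl hp hC
      simp only [if_pos hC, if_pos hC']
      exact he
    · have hC' : ¬ C u' := fun h => hC (key u' u hu' hu ht.symm hl.symm hp.symm h).1
      simp only [if_neg hC, if_neg hC']

end Crest.Agent.R320.FS_601
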