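import Crest.Agent.R320.Main_621

/-!
# Row 320: both schemes on the same tokens (helper621)

`Data2`: the outer scheme `LA RA` and the inner scheme `LB RB` cut the same tokens, moved by the same
zone maps `v ↦ v.φ(z) + d(z)`.  No transition monoid is needed.
-/

set_option autoImplicit false

namespace Crest.Agent.R320.Shared_621

open Crest.Agent.R320.Hk_851 Crest.Agent.R320.Star_621 Crest.Agent.R320.Two_621
open Crest.Agent.R320.Main_621 Crest.RegLang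

universe u v

variable {α : Type u} {Ω : Type v}

theorem flow_mono {Z Zc : Language α} {psi : List α → Ω → Ω} (hsub : ∀ z ∈ Zc, z ∈ Z)
    {ω ω' : Ω} {w : List α} (h : Flow Zc psi ω w ω') : Flow Z psi ω w ω' := by
  induction h with
  | nil ω => exact Flow.nil ω
  | cons hz _ ih => exact Flow.cons (hsub _ hz) ih

theorem uflow_sub {Z Zc : Language α} {psi : List α → Ω → Ω} {Lf Rt : Ω → Language α}
    (hcomp : ∀ z ∈ Z, z ∉ Zc → ∀ v, Cut Lf Rt v z) {ω ω' : Ω} {w : List α}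
    (h : UFlow Z psi Lf Rt ω w ω') : Flow Zc psi ω w ω' := by
  induction h with
  | nil ω => exact Flow.nil ω
  | @cons z w ω ω' hz hc _ ih =>
    refine Flow.cons ?_ ih
    by_contra hn
    exact hc (hcomp z hz hn ω)

/-- the set whose star is taken, with any family `U` in place of the uncut flows -/
def KU (U : Ω → Ω → Language α) (Lf Rt : Ω → Language α) : Language α :=
  {w | ∃ τ σ, ∃ Q ∈ Rt τ, ∃ u ∈ U τ σ, ∃ P ∈ Lf σ, Q ++ (u ++ P) = w}

theorem tail_soundU {Z : Language α} {psi : List α → Ω → Ω} {Lf Rt : Ω → Language α}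
    {U : Ω → Ω → Language α} (hU : ∀ ω ω' w, w ∈ U ω ω' → Flow Z psi ω w ω')
    (hC : Code Z) (hS : Sound Z psi Lf Rt) (ω' : Ω) (L : List (List α))
    (hL : ∀ y ∈ L, y ∈ KU U Lf Rt) (Q' u' : List α) (τ' : Ω) (hQ' : Q' ∈ Rt τ')
    (hu' : u' ∈ U τ' ω') :
    ∀ (σ : Ω) (P : List α), P ∈ Lf σ → ZS Z (P ++ (L.flatten ++ (Q' ++ u'))) →
      Flow Z psi σ (P ++ (L.flatten ++ (Q' ++ u'))) ω' := by
  have key : ∀ (σ τ : Ω) (P Q x : List α), P ∈ Lf σ → Q ∈ Rt τ → ZS Z (P ++ (Q ++ x)) →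
      (P ++ Q ∈ Z ∧ τ = psi (P ++ Q) σ) ∧ ZS Z x := by
    intro σ τ P Q x hP hQ hz
    generalize hw : P ++ (Q ++ x) = w at hz
    cases hz with
    | nil =>
      have : P = [] := (List.append_eq_nil_iff.1 hw).1
      exact absurd (this ▸ hP) (hS.1 σ)
    | @cons z y hz' hy =>
      have h1 : P ++ Q ++ x = z ++ y := by rw [List.append_assoc]; exact hw
      obtain ⟨h2, h3⟩ := hS.2 σ τ P Q z x y hP hQ hz' h1
      subst h2
      have : x = y := List.append_cancel_left h1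
      subst this
      exact ⟨⟨hz', h3⟩, hy⟩
  induction L with
  | nil =>
    intro σ P hP hz
    simp only [List.flatten_nil, List.nil_append] at hz ⊢
    obtain ⟨⟨h1, h2⟩, h3⟩ := key σ τ' P Q' u' hP hQ' hz
    rw [← List.append_assoc]
    exact Flow.cons h1 (h2 ▸ hU _ _ _ hu')
  | cons y L ih =>
    intro σ P hP hz
    obtain ⟨τ, σ', Q, hQ, u, hu, P', hP', rfl⟩ := hL y (by simp)
    have e : P ++ ((((Q ++ (u ++ P')) :: L).flatten) ++ (Q' ++ u'))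
        = P ++ (Q ++ (u ++ (P' ++ (L.flatten ++ (Q' ++ u'))))) := by simp
    rw [e] at hz ⊢
    obtain ⟨⟨h1, h2⟩, h3⟩ := key σ τ P Q _ hP hQ hz
    have h4 := Flow.strip hC (hU _ _ _ hu) h3
    have h5 := ih (fun z hz => hL z (by simp [hz])) σ' P' hP' h4
    rw [← List.append_assoc]
    exact Flow.cons h1 (h2 ▸ (hU _ _ _ hu).append h5)

/-- **Star theorem, general middle parts.** -/
theorem starU [Finite Ω] {h : ℕ} {Z : Language α} {psi : List α → Ω → Ω}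
    {Lf Rt : Ω → Language α} {U : Ω → Ω → Language α}
    (hC : Code Z) (hS : Sound Z psi Lf Rt)
    (hZ : HL (h + 1) (KStar.kstar Z : Language α))
    (hL : ∀ ω, HL h (Lf ω)) (hR : ∀ ω, HL h (Rt ω))
    (hU1 : ∀ ω ω' w, UFlow Z psi Lf Rt ω w ω' → w ∈ U ω ω')
    (hU2 : ∀ ω ω' w, w ∈ U ω ω' → Flow Z psi ω w ω')
    (hU : ∀ ω ω', HL h (U ω ω')) (ω ω' : Ω) :
    HL (h + 1) ({w | Flow Z psi ω w ω'} : Language α) := by
  have cat : ∀ {L M : Language α} {k : ℕ}, HL k L → HL k M →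
      HL k ({w | ∃ a ∈ L, ∃ b ∈ M, a ++ b = w} : Language α) := by
    intro L M k h1 h2
    exact (h1.mul h2).congr fun w => Language.mem_mul.symm
  have hK : HL h (KU U Lf Rt) := by
    refine (HL.iUnion fun τ => HL.iUnion fun σ =>
      cat (hR τ) (cat (hU τ σ) (hL σ))).congr fun w => ?_
    constructor
    · rintro ⟨τ, σ, Q, hQ, u, hu, P, hP, rfl⟩
      exact ⟨τ, σ, Q, hQ, u ++ P, ⟨u, hu, P, hP, rfl⟩, rfl⟩
    · rintro ⟨τ, σ, Q, hQ, _, ⟨u, hu, P, hP, rfl⟩, rfl⟩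
      exact ⟨τ, σ, Q, hQ, u, hu, P, hP, rfl⟩
  have hLast : HL h ({w | ∃ τ, w ∈ ({w | ∃ a ∈ Rt τ, ∃ b ∈ U τ ω', a ++ b = w} : Language α)} :
      Language α) := HL.iUnion fun τ => cat (hR τ) (hU τ ω')
  have hFirst : HL h ({w | ∃ σ, w ∈ ({w | ∃ a ∈ U ω σ, ∃ b ∈ Lf σ, a ++ b = w} : Language α)} :
      Language α) := HL.iUnion fun σ => cat (hU ω σ) (hL σ)
  have m := Nat.le_succ h
  refine (((hU ω ω').mono m).sup (hZ.inf (cat (hFirst.mono m)
    (cat hK.star (hLast.mono m))))).congr fun w => ?_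
  constructor
  · intro hw
    have hzs := zs_iff.1 (Flow.zs hw)
    rcases tail_complete hS hw with hu | ⟨f, ⟨σ, u, hu, P, hP, rfl⟩, L, hL', r,
      ⟨τ, Q, hQ, u', hu', rfl⟩, rfl⟩
    · exact Or.inl (hU1 _ _ _ hu)
    · refine Or.inr ⟨hzs, u ++ P, ⟨σ, u, hU1 _ _ _ hu, P, hP, rfl⟩, L.flatten ++ (Q ++ u'),
        ⟨L.flatten, ⟨L, rfl, ?_⟩, Q ++ u', ⟨τ, Q, hQ, u', hU1 _ _ _ hu', rfl⟩, rfl⟩, rfl⟩
      intro y hy
      obtain ⟨τ, σ, Q, hQ, u, hu, P, hP, rfl⟩ := hL' y hy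
      exact ⟨τ, σ, Q, hQ, u, hU1 _ _ _ hu, P, hP, rfl⟩
  · rintro (hu | ⟨hzs, _, ⟨σ, u, hu, P, hP, rfl⟩, _, ⟨_, ⟨L, rfl, hL'⟩, _,
      ⟨τ, Q, hQ, u', hu', rfl⟩, rfl⟩, rfl⟩)
    · exact hU2 _ _ _ hu
    · have h1 := zs_iff.2 hzs
      rw [List.append_assoc] at h1
      have h2 := Flow.strip hC (hU2 _ _ _ hu) h1
      have h3 := tail_soundU hU2 hC hS ω' L hL' Q u' τ hQ hu' σ P hP h2
      show Flow Z psi ω (u ++ P ++ (L.flatten ++ (Q ++ u'))) ω'
      rw [List.append_assoc]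
      exact (hU2 _ _ _ hu).append h3

/-- the combinatorial data, both schemes on the same tokens -/
def Data2 {S : Type u} [Monoid S] (ph : List α → S) : Prop :=
  ∃ (Z Zc : Language α) (d : List α → Tok S) (LA RA LB RB : Tok S → Language α),
    Code Z ∧ (∀ z ∈ Zc, z ∈ Z) ∧ HL 1 Z ∧ HL 1 Zc ∧
    Sound Z (aff ph d) LA RA ∧ (∀ v, HL 1 (LA v)) ∧ (∀ v, HL 1 (RA v)) ∧
    (∀ z ∈ Z, z ∉ Zc → ∀ v, Cut LA RA v z) ∧
    Sound Zc (aff ph d) LB RB ∧ (∀ v, HL 1 (LB v)) ∧ (∀ v, HL 1 (RB v)) ∧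
    (∀ z ∈ Zc, ∀ v, Cut LB RB v z) ∧
    (∀ s : S, HL 3 ({w | (∀ z ∈ Z, ¬ z <+: w) ∧ ph w = s} : Language α))

theorem two_shared {S : Type u} [Monoid S] [Finite S] {h : ℕ} {Z Zc : Language α}
    (ph : List α → S) (hC : Code Z) (hsub : ∀ z ∈ Zc, z ∈ Z)
    (hZ : HL h Z) (hZc : HL h Zc)
    (d : List α → Tok S) (LA RA LB RB : Tok S → Language α)
    (hSA : Sound Z (aff ph d) LA RA)
    (hLA : ∀ v, HL h (LA v)) (hRA : ∀ v, HL h (RA v))
    (hcomp : ∀ z ∈ Z, z ∉ Zc → ∀ v, Cut LA RA v z)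
    (hSB : Sound Zc (aff ph d) LB RB)
    (hLB : ∀ v, HL h (LB v)) (hRB : ∀ v, HL h (RB v))
    (hcut : ∀ z ∈ Zc, ∀ v, Cut LB RB v z) (s : S) :
    HL (h + 2) ({w | TP Z ph w s} : Language α) := by
  have hCc : Code Zc := ⟨fun hn => hC.1 (hsub _ hn), fun z z' x x' h1 h2 =>
    hC.2 z z' x x' (hsub _ h1) (hsub _ h2)⟩
  have hFB := star_complete hCc hSB hZc hLB hRB hcut
  have m1 := Nat.le_succ h
  have hFA : ∀ f g, HL (h + 1 + 1) ({w | Flow Z (aff ph d) f w g} : Language α) :=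
    starU (U := fun f g => ({w | Flow Zc (aff ph d) f w g} : Language α)) hC hSA
      ((hZ.mono m1).star) (fun v => (hLA v).mono m1) (fun v => (hRA v).mono m1)
      (fun f g w hw => uflow_sub hcomp hw) (fun f g w hw => flow_mono hsub hw) hFB
  exact read hC ph d hFA s

theorem of_data2 {S : Type u} [Monoid S] [Finite S] {ph : List α → S}
    (h1 : ph [] = 1) (hm : ∀ a b, ph (a ++ b) = ph a * ph b) (hD : Data2 ph) (s : S) :
    HL 3 ({w | ph w = s} : Language α) := by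
  obtain ⟨Z, Zc, d, LA, RA, LB, RB, hC, hsub, hZ, hZc, hSA, hLA, hRA, hcomp, hSB, hLB,
    hRB, hcut, hrest⟩ := hD
  have key := two_shared ph hC hsub hZ hZc d LA RA LB RB hSA hLA hRA hcomp hSB hLB hRB hcut
  refine (HL.iUnion fun p : {p : S × S // p.1 * p.2 = s} =>
    (key p.1.1).mul (hrest p.1.2)).congr fun w => ?_
  constructor
  · intro hw
    obtain ⟨a, b, t, rfl, ht, he, hb⟩ := split ph hC.1 h1 hm w
    refine ⟨⟨(ph a, ph b), ?_⟩, ?_⟩
    · rw [← hm]; exact hw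
    · refine Language.mem_mul.2 ⟨a, ?_, b, ⟨hb, rfl⟩, rfl⟩
      show TP Z ph a (ph a)
      rw [he]; exact ht
  · rintro ⟨⟨p, hp⟩, hw⟩
    obtain ⟨a, ha, b, ⟨-, hb⟩, rfl⟩ := Language.mem_mul.1 hw
    show ph (a ++ b) = s
    rw [hm, TP.val h1 hm ha, hb]; exact hp

/-- The row from the data with shared tokens. -/
theorem row2 [Finite α]
    (hD : ∀ (S : Type u) [Monoid S] [Finite S] (f : α → S),
      Data2 (fun w : List α => (w.map f).prod))
    (L : Language α) (hL : L.IsRegular) :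
    ∃ e : GRegExp α, e.height ≤ 3 ∧ e.lang = L :=
  of_monoid (fun S _ _ f s => of_data2 (by simp) (by intro a b; simp) (hD S f) s) L hL

end Crest.Agent.R320.Shared_621
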