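import Crest.Agent.R320.WallU_228
import Crest.Agent.R320.Shared_621

/-!
# Row 320: blocks `α^p0 · FW z1 · FW g` of left-looking walls (helper8)
-/

set_option autoImplicit false

namespace Crest.Agent.R320.FW_8

open Crest.RegLang Crest.Agent.R320.Hk_851 Crest.Agent.R320.FewWalls_228
  Crest.Agent.R320.WallU_228 Crest.Agent.R320.Star_621 Crest.Agent.R320.Two_621

universe u

variable {α : Type u}

/-- first wall at a place `≥ g`, nothing behind it -/
def FW (W : List α → Prop) (g : ℕ) : Language α :=
  {Y | g ≤ Y.length ∧ W Y ∧ ∀ s, g ≤ s → s < Y.length → ¬ W (Y.take s)}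

theorem FW_code {W : List α → Prop} {g : ℕ} {Y Y' x x' : List α} (h : Y ∈ FW W g)
    (h' : Y' ∈ FW W g) (e : Y ++ x = Y' ++ x') : Y = Y' := by
  obtain ⟨h1, h2, h3⟩ := h
  obtain ⟨h1', h2', h3'⟩ := h'
  rcases lt_trichotomy Y.length Y'.length with hl | hl | hl
  · exfalso
    apply h3' _ h1 hl
    have : Y'.take Y.length = Y := by
      have h4 := congrArg (List.take Y.length) e
      rw [List.take_left, List.take_append_of_le_length hl.le] at h4
      exact h4.symm
    rw [this]; exact h2
  · exact (List.append_inj e hl).1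
  · exfalso
    apply h3 _ h1' hl
    have : Y.take Y'.length = Y' := by
      have h4 := congrArg (List.take Y'.length) e
      rw [List.take_left, List.take_append_of_le_length hl.le] at h4
      exact h4
    rw [this]; exact h2'

theorem HL_Wo [Finite α] {n k : ℕ} (S : Set (List α)) :
    HL k ({P | Wo n S P} : Language α) := by
  have hf : ({s : List α | s ∈ S ∧ s.length = n}).Finite :=
    (List.finite_length_eq α n).subset fun s h => h.2
  refine ((HL.top (α := α)).mul (HL.finite hf)).congr fun w => ?_
  constructor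
  · rintro ⟨h1, h2⟩
    refine Language.mem_mul.2 ⟨w.take (w.length - n), trivial, w.drop (w.length - n),
      ⟨h2, ?_⟩, List.take_append_drop _ _⟩
    rw [List.length_drop]; omega
  · intro h
    obtain ⟨a, -, b, ⟨hb1, hb2⟩, rfl⟩ := Language.mem_mul.1 h
    refine ⟨by rw [List.length_append]; omega, ?_⟩
    rw [List.length_append, hb2, Nat.add_sub_cancel, List.drop_left]
    exact hb1

theorem HL_FW [Finite α] {k g : ℕ} {W : List α → Prop} (hW : HL k ({P | W P} : Language α)) :
    HL k (FW W g) := by
  have h1 : HL k ({Y | g ≤ Y.length ∧ W Y} : Language α) := (HL.length_ge g).setOf_and hW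
  refine (h1.sdiff (h1.mul (HL.length_ge 1))).congr fun w => ?_
  constructor
  · rintro ⟨h1, h2, h3⟩
    refine ⟨⟨h1, h2⟩, fun h => ?_⟩
    obtain ⟨a, ⟨ha1, ha2⟩, b, hb, rfl⟩ := Language.mem_mul.1 h
    have hb' : 1 ≤ b.length := hb
    refine h3 a.length ha1 (by rw [List.length_append]; omega) ?_
    rw [List.take_left]; exact ha2
  · rintro ⟨⟨h1, h2⟩, h3⟩
    refine ⟨h1, h2, fun s hs hs2 hw => h3 ?_⟩
    refine Language.mem_mul.2 ⟨w.take s, ⟨?_, hw⟩, w.drop s, ?_, List.take_append_drop _ _⟩
    · rw [List.length_take]; omega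
    · show 1 ≤ (w.drop s).length
      rw [List.length_drop]; omega

/-- words of `FW` have few walls -/
theorem nw_FW {n g : ℕ} {S : Set (List α)} {Y : List α} (h : Y ∈ FW (Wo n S) g) :
    nw n S Y ≤ g + 1 := by
  classical
  unfold nw
  have hsub : (Finset.range (Y.length + 1)).filter (fun x => Wl n S Y x) ⊆
      Finset.range g ∪ {Y.length - n} := by
    intro x hx
    rw [Finset.mem_filter] at hx
    obtain ⟨h1, h2⟩ := wo_take.1 hx.2
    rw [Finset.mem_union, Finset.mem_range, Finset.mem_singleton]
    by_contra hcon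
    push Not at hcon
    exact h.2.2 (x + n) (by omega) (by omega) h2
  refine (Finset.card_le_card hsub).trans ((Finset.card_union_le _ _).trans ?_)
  simp

/-- words without wall at places `≥ g` have few walls -/
theorem nw_free {n g : ℕ} {S : Set (List α)} {Y : List α}
    (h : ∀ s, g ≤ s → s < Y.length → ¬ Wo n S (Y.take s)) :
    nw n S Y ≤ g + 1 := by
  classical
  unfold nw
  have hsub : (Finset.range (Y.length + 1)).filter (fun x => Wl n S Y x) ⊆
      Finset.range g ∪ {Y.length - n} := by
    intro x hx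
    rw [Finset.mem_filter] at hx
    obtain ⟨h1, h2⟩ := wo_take.1 hx.2
    rw [Finset.mem_union, Finset.mem_range, Finset.mem_singleton]
    by_contra hcon
    push Not at hcon
    exact h (x + n) (by omega) (by omega) h2
  refine (Finset.card_le_card hsub).trans ((Finset.card_union_le _ _).trans ?_)
  simp

/-- a wall at a place `≥ g` gives a factor in `FW` -/
theorem exists_FW {W : List α → Prop} {g s : ℕ} {u : List α} (h1 : g ≤ s) (h2 : s ≤ u.length)
    (h3 : W (u.take s)) : ∃ t, g ≤ t ∧ t ≤ s ∧ u.take t ∈ FW W g := by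
  classical
  have hex : ∃ t, g ≤ t ∧ t ≤ u.length ∧ W (u.take t) := ⟨s, h1, h2, h3⟩
  have hle := Nat.find_min' hex ⟨h1, h2, h3⟩
  obtain ⟨h4, h5, h6⟩ := Nat.find_spec hex
  refine ⟨Nat.find hex, h4, hle, ?_, h6, ?_⟩
  · rw [List.length_take]; omega
  · intro x hx hx2 hw
    rw [List.length_take] at hx2
    have hx3 : x < Nat.find hex := by omega
    apply Nat.find_min hex hx3
    refine ⟨hx, by omega, ?_⟩
    rw [List.take_take, min_eq_left hx3.le] at hw
    exact hw

end Crest.Agent.R320.FW_8
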