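import Mathlib

/-!
# Row 320: the spoil count of the ruler (helper576)

`wall` = the walls of a word, spaced; natural chain rule (first wall `≥ z`).
-/

set_option autoImplicit false

namespace Crest.Agent.R320.Fa_576

open Finset Classical

theorem spoil (K z p0 N1 C1 : ℕ) (c : ℕ → ℕ) (wall : ℕ → Prop) (BZ : ℤ → Prop)
    (hgap : ∀ s t, wall s → wall t → s < t → s + (2 * (p0 + N1) + 1) ≤ t)
    (hc : ∀ k < K, c k ≤ p0)
    (hgol : ∀ i j i' j' : ℕ, i ≠ j → i' ≠ j' → (i, j) ≠ (i', j') →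
        ((2 * N1 : ℕ) : ℤ) < |((c i : ℤ) - c j) - (c i' - c j')|)
    (hthin : ∀ T : ℤ, ((range K ×ˢ range K).filter
      (fun q => q.1 ≠ q.2 ∧ BZ (T + c q.1 - c q.2))).card ≤ C1) :
    ((range K).filter fun k => ∃ k' < K, k' ≠ k ∧
      ((∃ u, wall u ∧ z + c k ≤ u + c k' + N1 ∧ u + c k' < z + c k + N1) ∨
       (∃ t, wall t ∧ z + c k ≤ t + c k' ∧ (∀ s, z + c k ≤ s + c k' → s < t → ¬ wall s) ∧
        BZ ((t : ℤ) - p0 + c k' - c k)))).card ≤ 1 + 2 * C1 := by
  set A : Finset (ℕ × ℕ) := (range K ×ˢ range K).filter (fun q => q.1 ≠ q.2 ∧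
    ∃ u, wall u ∧ z + c q.2 ≤ u + c q.1 + N1 ∧ u + c q.1 < z + c q.2 + N1) with hA
  set PB : ℕ × ℕ → ℕ → Prop := fun q t => wall t ∧ z + c q.2 ≤ t + c q.1 ∧
    (∀ s, z + c q.2 ≤ s + c q.1 → s < t → ¬ wall s) ∧ BZ ((t : ℤ) - p0 + c q.1 - c q.2) with hPB
  set B1 : Finset (ℕ × ℕ) := (range K ×ˢ range K).filter (fun q => q.1 ≠ q.2 ∧
    ∃ t, PB q t ∧ t ≤ z + p0) with hB1
  set B2 : Finset (ℕ × ℕ) := (range K ×ˢ range K).filter (fun q => q.1 ≠ q.2 ∧
    ∃ t, PB q t ∧ z + p0 < t) with hB2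
  have cA : A.card ≤ 1 := by
    rw [Finset.card_le_one]
    intro q hq q' hq'
    rw [hA, mem_filter, mem_product, mem_range, mem_range] at hq hq'
    obtain ⟨⟨a1, a2⟩, a3, u, u1, u2, u3⟩ := hq
    obtain ⟨⟨b1, b2⟩, b3, u', v1, v2, v3⟩ := hq'
    by_contra hne
    have e1 := hc _ a1
    have e2 := hc _ a2
    have e3 := hc _ b1
    have e4 := hc _ b2
    have huu : u = u' := by
      rcases lt_trichotomy u u' with h | h | h
      · have := hgap u u' u1 v1 h; omega
      · exact h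
      · have := hgap u' u v1 u1 h; omega
    subst huu
    have := hgol q.1 q.2 q'.1 q'.2 a3 b3 (by
      intro h; apply hne
      exact Prod.ext (Prod.ext_iff.1 h).1 (Prod.ext_iff.1 h).2)
    rw [lt_abs] at this
    push_cast at this
    omega
  have cB : ∀ (B : Finset (ℕ × ℕ)) (Cd : ℕ → Prop),
      (∀ q ∈ B, q.1 < K ∧ q.2 < K ∧ q.1 ≠ q.2 ∧ ∃ t, PB q t ∧ Cd t) →
      (∀ q ∈ B, ∀ q' ∈ B, ∀ t t', PB q t → Cd t → PB q' t' → Cd t' → t = t') → B.card ≤ C1 := by
    intro B Cd h1 h2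
    rcases B.eq_empty_or_nonempty with h | ⟨q0, hq0⟩
    · rw [h]; simp
    · obtain ⟨-, -, -, t0, ht0, hc0⟩ := h1 q0 hq0
      refine le_trans (Finset.card_le_card ?_) (hthin ((t0 : ℤ) - p0))
      intro q hq
      obtain ⟨a1, a2, a3, t, ht, hct⟩ := h1 q hq
      have := h2 q0 hq0 q hq t0 t ht0 hc0 ht hct
      subst this
      rw [mem_filter, mem_product, mem_range, mem_range]
      exact ⟨⟨a1, a2⟩, a3, ht.2.2.2⟩
  have c1 : B1.card ≤ C1 := by
    apply cB B1 (fun t => t ≤ z + p0)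
    · intro q hq
      rw [hB1, mem_filter, mem_product, mem_range, mem_range] at hq
      exact ⟨hq.1.1, hq.1.2, hq.2.1, hq.2.2⟩
    · intro q hq q' hq' t t' ht hct ht' hct'
      rw [hB1, mem_filter, mem_product, mem_range, mem_range] at hq hq'
      have e1 := hc _ hq.1.1
      have e2 := hc _ hq.1.2
      have e3 := hc _ hq'.1.1
      have e4 := hc _ hq'.1.2
      obtain ⟨w1, w2, -, -⟩ := ht
      obtain ⟨v1, v2, -, -⟩ := ht'
      rcases lt_trichotomy t t' with h | h | h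
      · have := hgap t t' w1 v1 h; omega
      · exact h
      · have := hgap t' t v1 w1 h; omega
  have c2 : B2.card ≤ C1 := by
    apply cB B2 (fun t => z + p0 < t)
    · intro q hq
      rw [hB2, mem_filter, mem_product, mem_range, mem_range] at hq
      exact ⟨hq.1.1, hq.1.2, hq.2.1, hq.2.2⟩
    · intro q hq q' hq' t t' ht hct ht' hct'
      rw [hB2, mem_filter, mem_product, mem_range, mem_range] at hq hq'
      have e1 := hc _ hq.1.1
      have e2 := hc _ hq.1.2
      have e3 := hc _ hq'.1.1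
      have e4 := hc _ hq'.1.2
      obtain ⟨w1, w2, w3, -⟩ := ht
      obtain ⟨v1, v2, v3, -⟩ := ht'
      have hct : z + p0 < t := hct
      have hct' : z + p0 < t' := hct'
      rcases lt_trichotomy t t' with h | h | h
      · exact absurd w1 (v3 t (by omega) h)
      · exact h
      · exact absurd v1 (w3 t' (by omega) h)
  calc _ ≤ ((A ∪ (B1 ∪ B2)).image Prod.snd).card := by
        apply Finset.card_le_card
        intro k hk
        rw [mem_filter, mem_range] at hk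
        obtain ⟨hk, k', hk', hne, h⟩ := hk
        rw [mem_image]
        refine ⟨(k', k), ?_, rfl⟩
        rw [mem_union, mem_union, hA, hB1, hB2, mem_filter, mem_filter, mem_filter, mem_product,
          mem_range, mem_range]
        rcases h with h | ⟨t, h1, h2, h3, h4⟩
        · exact Or.inl ⟨⟨hk', hk⟩, hne, h⟩
        · rcases Nat.lt_or_ge (z + p0) t with ht | ht
          · exact Or.inr (Or.inr ⟨⟨hk', hk⟩, hne, t, ⟨h1, h2, h3, h4⟩, ht⟩)
          · exact Or.inr (Or.inl ⟨⟨hk', hk⟩, hne, t, ⟨h1, h2, h3, h4⟩, ht⟩)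
    _ ≤ (A ∪ (B1 ∪ B2)).card := Finset.card_image_le
    _ ≤ A.card + (B1.card + B2.card) :=
        (Finset.card_union_le _ _).trans (Nat.add_le_add_left (Finset.card_union_le _ _) _)
    _ ≤ 1 + 2 * C1 := by omega

end Crest.Agent.R320.Fa_576
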