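import Crest.Agent.R320.Hk1_851

/-!
# Row 320 (S0495), item (10) of the blueprint: runs, bottom half

* `pow_periodic`: `{x^k : P k}` is in `H_1` for every ultimately periodic `P`;
* `pow_monoid`: `{x^k : phi(x^k) = s}` is in `H_1` for every finite monoid;
* `run_monoid`: `{w : w is a factor of x^omega, phi(w) = s}` is in `H_1`
  (words of the form `suffix of x ++ x^k ++ prefix of x`);
* `run_all`: the same for all periods `x` of length at most `b` at once, with a family
  of values depending on `x`;
* `runFree`: words without `x^e`, `x ≠ []`, `|x| ≤ b`, are in `H_0`;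
* `trunc_prod`: truncation of exponents does not change the value.
-/

set_option autoImplicit false

namespace Crest.Agent.R320.RunH1_632

open Crest.RegLang Crest.Agent.R320.Hk_851

universe u

variable {α : Type u}

/-- `x^k` as a word. -/
def rep (x : List α) (k : ℕ) : List α := (List.replicate k x).flatten

@[simp] theorem rep_zero (x : List α) : rep x 0 = [] := rfl

theorem rep_succ (x : List α) (k : ℕ) : rep x (k + 1) = x ++ rep x k := by
  simp [rep, List.replicate_succ]

theorem rep_add (x : List α) (j k : ℕ) : rep x (j + k) = rep x j ++ rep x k := by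
  rw [rep, rep, rep, List.replicate_add, List.flatten_append]

theorem rep_mul (x : List α) (j k : ℕ) : rep (rep x j) k = rep x (j * k) := by
  induction k with
  | zero => rfl
  | succ k ih => rw [rep_succ, ih, ← rep_add, Nat.mul_succ, Nat.add_comm]

theorem length_rep (x : List α) (k : ℕ) : (rep x k).length = k * x.length := by
  induction k with
  | zero => simp
  | succ k ih => rw [rep_succ, List.length_append, ih, Nat.succ_mul, Nat.add_comm]

theorem prod_rep {S : Type*} [Monoid S] (φ : α → S) (x : List α) (k : ℕ) :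
    ((rep x k).map φ).prod = ((x.map φ).prod) ^ k := by
  induction k with
  | zero => simp
  | succ k ih => rw [rep_succ, List.map_append, List.prod_append, ih, pow_succ']

/-- the star of one word -/
theorem mem_kstar_singleton (x w : List α) :
    w ∈ (KStar.kstar ({x} : Language α)) ↔ ∃ k, w = rep x k := by
  rw [Language.mem_kstar]
  constructor
  · rintro ⟨L, rfl, hL⟩
    refine ⟨L.length, ?_⟩
    have : L = List.replicate L.length x :=
      List.eq_replicate_of_mem fun y hy => Set.mem_singleton_iff.1 (hL y hy)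
    rw [rep, ← this]
  · rintro ⟨k, rfl⟩
    refine ⟨List.replicate k x, rfl, fun y hy => ?_⟩
    exact Set.mem_singleton_iff.2 (List.eq_of_mem_replicate hy)

/-- `{x^k : P k}` is in `H_1` when `P` is ultimately periodic -/
theorem pow_periodic {n : ℕ} (x : List α) (P : ℕ → Prop) (N p : ℕ) (hp : 0 < p)
    (hP : ∀ k, N ≤ k → (P (k + p) ↔ P k)) :
    HL (n + 1) ({w | ∃ k, P k ∧ w = rep x k} : Language α) := by
  have hP' : ∀ t k, N ≤ k → (P (k + p * t) ↔ P k) := by
    intro t
    induction t with
    | zero => intro k _; simp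
    | succ t ih =>
      intro k hk
      rw [Nat.mul_succ, ← Nat.add_assoc, hP _ (by omega), ih k hk]
  have h1 : HL (n + 1) ({w | ∃ k ∈ {k | k < N ∧ P k}, w ∈ ({rep x k} : Language α)} : Language α) :=
    HL.biUnion ((Set.finite_lt_nat N).subset fun k hk => hk.1) fun k _ => HL.word _
  have h2 : HL (n + 1) ({w | ∃ r ∈ {r | r < p ∧ P (N + r)},
      w ∈ (({rep x (N + r)} : Language α) * KStar.kstar ({rep x p} : Language α))} : Language α) :=
    HL.biUnion ((Set.finite_lt_nat p).subset fun k hk => hk.1) fun k _ =>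
      (HL.word _).mul (HL.word _).star
  refine (h1.add h2).congr fun w => ?_
  constructor
  · rintro ⟨k, hk, rfl⟩
    by_cases hN : k < N
    · exact Or.inl ⟨k, ⟨hN, hk⟩, rfl⟩
    · right
      have hk' : k = N + (k - N) % p + p * ((k - N) / p) := by
        have := Nat.mod_add_div (k - N) p
        omega
      refine ⟨(k - N) % p, ⟨Nat.mod_lt _ hp, ?_⟩, ?_⟩
      · rw [hk'] at hk
        exact (hP' _ _ (Nat.le_add_right _ _)).1 hk
      · refine Language.mem_mul.2 ⟨_, rfl, rep (rep x p) ((k - N) / p),
          (mem_kstar_singleton _ _).2 ⟨_, rfl⟩, ?_⟩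
        rw [rep_mul, ← rep_add, ← hk']
  · rintro (⟨k, ⟨-, hk⟩, hw⟩ | ⟨r, ⟨-, hr⟩, hw⟩)
    · exact ⟨k, hk, hw⟩
    · obtain ⟨a, ha, b, hb, rfl⟩ := Language.mem_mul.1 hw
      obtain ⟨t, rfl⟩ := (mem_kstar_singleton _ _).1 hb
      have ha' : a = rep x (N + r) := ha
      subst ha'
      refine ⟨N + r + p * t, (hP' t _ (Nat.le_add_right _ _)).2 hr, ?_⟩
      rw [rep_mul, ← rep_add]

/-- powers of an element of a finite monoid are ultimately periodic -/
theorem pow_ult_periodic {S : Type*} [Monoid S] [Finite S] (a : S) :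
    ∃ N p : ℕ, 0 < p ∧ ∀ k, N ≤ k → a ^ (k + p) = a ^ k := by
  obtain ⟨i, j, hij, h⟩ := Finite.exists_ne_map_eq_of_infinite (fun n : ℕ => a ^ n)
  wlog hlt : i < j generalizing i j
  · exact this j i hij.symm h.symm (lt_of_le_of_ne (not_lt.1 hlt) hij.symm)
  refine ⟨i, j - i, by omega, fun k hk => ?_⟩
  have h1 : k + (j - i) = j + (k - i) := by omega
  have h2 : k = i + (k - i) := by omega
  have h' : a ^ i = a ^ j := h
  rw [h1, pow_add, ← h', ← pow_add, ← h2]

/-- one common threshold and period for all elements of a finite monoid -/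
theorem pow_ult_periodic_all (S : Type*) [Monoid S] [Finite S] :
    ∃ N p : ℕ, 0 < p ∧ ∀ (a : S) (k : ℕ), N ≤ k → a ^ (k + p) = a ^ k := by
  classical
  have := Fintype.ofFinite S
  choose N p hp h using fun a : S => pow_ult_periodic a
  refine ⟨Finset.univ.sup N, Finset.univ.prod p, Finset.prod_pos fun a _ => hp a,
    fun a k hk => ?_⟩
  have hN : N a ≤ k := le_trans (Finset.le_sup (f := N) (Finset.mem_univ a)) hk
  obtain ⟨c, hc⟩ : p a ∣ Finset.univ.prod p := Finset.dvd_prod_of_mem p (Finset.mem_univ a)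
  rw [hc]
  clear hc
  induction c with
  | zero => simp
  | succ c ih => rw [Nat.mul_succ, ← Nat.add_assoc, h a _ (by omega), ih]

/-- `{x^k : phi(x^k) = s}` -/
def powL {S : Type*} [Monoid S] (φ : α → S) (x : List α) (s : S) : Language α :=
  {w | ∃ k, w = rep x k ∧ (w.map φ).prod = s}

theorem pow_monoid {n : ℕ} {S : Type*} [Monoid S] [Finite S] (φ : α → S) (x : List α) (s : S) :
    HL (n + 1) (powL φ x s) := by
  obtain ⟨N, p, hp, h⟩ := pow_ult_periodic ((x.map φ).prod)
  refine (pow_periodic (n := n) x (fun k => ((x.map φ).prod) ^ k = s) N p hp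
    (fun k hk => by rw [h k hk])).congr fun w => ?_
  constructor
  · rintro ⟨k, rfl, hs⟩; exact ⟨k, by rwa [← prod_rep], rfl⟩
  · rintro ⟨k, hs, rfl⟩; exact ⟨k, rfl, by rwa [prod_rep]⟩

/-- `w` is `suffix of x ++ x^k ++ prefix of x` (so `|x|` is a period of `w`) -/
def InRun (x w : List α) : Prop := ∃ u k v, u <:+ x ∧ v <+: x ∧ w = u ++ rep x k ++ v

/-- **The run language**: words inside a run of `x` with a given value are in `H_1`. -/
theorem run_monoid {n : ℕ} {S : Type*} [Monoid S] [Finite S] (φ : α → S) (x : List α) (s : S) :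
    HL (n + 1) ({w | InRun x w ∧ (w.map φ).prod = s} : Language α) := by
  have hu : {u : List α | u <:+ x}.Finite :=
    (x.tails.finite_toSet).subset fun u hu => by simpa using hu
  have hv : {v : List α | v <+: x}.Finite :=
    (x.inits.finite_toSet).subset fun u hu => by simpa using hu
  have h := HL.biUnion (k := n + 1) hu
    (L := fun u => ({w | ∃ v ∈ {v : List α | v <+: x}, w ∈
      ({w | ∃ g ∈ {g : S | (u.map φ).prod * g * (v.map φ).prod = s}, w ∈
        (({u} : Language α) * powL φ x g * ({v} : Language α))} : Language α)} : Language α))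
    (fun u _ => HL.biUnion hv fun v _ => HL.biUnion (Set.toFinite _) fun g _ =>
      ((HL.word u).mul (pow_monoid φ x g)).mul (HL.word v))
  refine h.congr fun w => ?_
  constructor
  · rintro ⟨⟨u, k, v, hu, hv, rfl⟩, hs⟩
    refine ⟨u, hu, v, hv, (rep x k |>.map φ).prod, ?_, ?_⟩
    · simpa [List.map_append, List.prod_append, mul_assoc] using hs
    · exact Language.mem_mul.2 ⟨u ++ rep x k,
        Language.mem_mul.2 ⟨u, rfl, rep x k, ⟨k, rfl, rfl⟩, rfl⟩, v, rfl, rfl⟩
  · rintro ⟨u, hu, v, hv, g, hg, hw⟩
    obtain ⟨a, ha, v', hv', rfl⟩ := Language.mem_mul.1 hw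
    obtain ⟨u', hu', r, ⟨k, rfl, hr⟩, rfl⟩ := Language.mem_mul.1 ha
    have e1 : v' = v := hv'
    have e2 : u' = u := hu'
    subst e1 e2
    refine ⟨⟨u', k, v', hu, hv, rfl⟩, ?_⟩
    have hg' : (u'.map φ).prod * g * (v'.map φ).prod = s := hg
    rw [List.map_append, List.map_append, List.prod_append, List.prod_append, hr, hg']

/-- the same for all periods of length at most `b` at once -/
theorem run_all [Finite α] {n b : ℕ} {S : Type*} [Monoid S] [Finite S] (φ : α → S)
    (P : List α → S → Prop) :
    HL (n + 1) ({w | ∃ x, x ≠ [] ∧ x.length ≤ b ∧ InRun x w ∧ P x (w.map φ).prod}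
      : Language α) := by
  have hx : {x : List α | x ≠ [] ∧ x.length ≤ b}.Finite :=
    (List.finite_length_le α b).subset fun x hx => hx.2
  have h := HL.biUnion (k := n + 1) hx
    (L := fun x => ({w | ∃ s ∈ {s : S | P x s}, w ∈
      ({w | InRun x w ∧ (w.map φ).prod = s} : Language α)} : Language α))
    (fun x _ => HL.biUnion (Set.toFinite _) fun s _ => run_monoid φ x s)
  refine h.congr fun w => ?_
  constructor
  · rintro ⟨x, h1, h2, h3, h4⟩
    exact ⟨x, ⟨h1, h2⟩, _, h4, h3, rfl⟩
  · rintro ⟨x, ⟨h1, h2⟩, s, hs, h3, h4⟩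
    have h4' : (w.map φ).prod = s := h4
    subst h4'
    exact ⟨x, h1, h2, h3, hs⟩

/-- words without an `e`-th power of a nonempty word of length at most `b` -/
def RunFree (e b : ℕ) (w : List α) : Prop :=
  ∀ x : List α, x ≠ [] → x.length ≤ b → ¬ (rep x e <:+: w)

theorem runFree [Finite α] {k : ℕ} (e b : ℕ) : HL k ({w | RunFree e b w} : Language α) := by
  have hx : {x : List α | x ≠ [] ∧ x.length ≤ b}.Finite :=
    (List.finite_length_le α b).subset fun x hx => hx.2
  have h := (HL.biUnion (k := k) hx
    (L := fun x => ({w | ∃ v ∈ ({rep x e} : Language α), v <:+: w} : Language α))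
    (fun x _ => (HL.word (rep x e)).infix)).compl
  refine h.congr fun w => ?_
  constructor
  · rintro hw ⟨x, ⟨h1, h2⟩, v, hv, hvw⟩
    have hv' : v = rep x e := hv
    subst hv'
    exact hw x h1 h2 hvw
  · intro hw x h1 h2 h3
    exact hw ⟨x, ⟨h1, h2⟩, _, rfl, h3⟩

theorem RunFree.infix {e b : ℕ} {v w : List α} (h : RunFree e b w) (hv : v <:+: w) :
    RunFree e b v := fun x h1 h2 h3 => h x h1 h2 (h3.trans hv)

/-- truncating an exponent by a multiple of the common period does not change the value -/
theorem trunc_prod (S : Type*) [Monoid S] [Finite S] :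
    ∃ N p : ℕ, 0 < p ∧ ∀ (φ : α → S) (l r x : List α) (j t : ℕ), N ≤ j →
      ((l ++ rep x (j + p * t) ++ r).map φ).prod = ((l ++ rep x j ++ r).map φ).prod := by
  obtain ⟨N, p, hp, h⟩ := pow_ult_periodic_all S
  refine ⟨N, p, hp, fun φ l r x j t hj => ?_⟩
  have h2 : ∀ t (a : S), a ^ (j + p * t) = a ^ j := by
    intro t a
    induction t with
    | zero => simp
    | succ t ih => rw [Nat.mul_succ, ← Nat.add_assoc, h a _ (by omega), ih]
  simp only [List.map_append, List.prod_append, prod_rep, h2]

end Crest.Agent.R320.RunH1_632
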