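import Crest.Agent.R320.Shared_621
import Crest.Agent.R320.LWallAll_922
import Crest.Agent.R320.RunH1_632

/-!
# Row 320: the languages of the block code are of height `≤ 1` (helper739)

Left-looking walls `Wo` (`LW n Wo`), words without proper wall `NW`, products of `r` such words `Few r`;
values in finite monoids on `Few r` words; block code `IsZ`.
-/

set_option autoImplicit false

namespace Crest.Agent.R320.Fam_739

open Crest.RegLang Crest.Agent.R320.Hk_851 Crest.Agent.R320.Core1_922

universe u v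

variable {α : Type u}

/-- no proper wall -/
def NW (Wo : List α → Prop) (U : List α) : Prop := ∀ t < U.length, ¬ Wo (U.take t)

/-- product of at most `r` words without proper wall -/
def Few (Wo : List α → Prop) : ℕ → List α → Prop
  | 0, U => U = []
  | r + 1, U => ∃ A B, U = A ++ B ∧ NW Wo A ∧ Few Wo r B

/-- first wall at a place `≥ z` -/
def Fst (Wo : List α → Prop) (z : ℕ) (X : List α) (t : ℕ) : Prop :=
  z ≤ t ∧ Wo (X.take t) ∧ ∀ s, z ≤ s → s < t → ¬ Wo (X.take s)

/-- blocks: exactly one proper wall at a place `≥ z`, and a wall at the end -/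
def IsZ (Wo : List α → Prop) (z : ℕ) (X : List α) : Prop :=
  Wo X ∧ ∃ t < X.length, Fst Wo z X t ∧ ∀ s, t < s → s < X.length → ¬ Wo (X.take s)

/-- the end of `Y` is its first wall at a place `≥ z` -/
def FE (Wo : List α → Prop) (z : ℕ) (Y : List α) : Prop :=
  Wo Y ∧ z ≤ Y.length ∧ ∀ s, z ≤ s → s < Y.length → ¬ Wo (Y.take s)

variable {Wo : List α → Prop} {n : ℕ}

theorem Fst.unique {z : ℕ} {X : List α} {t t' : ℕ} (h : Fst Wo z X t) (h' : Fst Wo z X t') :
    t = t' := by
  rcases lt_trichotomy t t' with h1 | h1 | h1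
  · exact absurd h.2.1 (h'.2.2 t h.1 h1)
  · exact h1
  · exact absurd h'.2.1 (h.2.2 t' h'.1 h1)

theorem fst_iff_fe {z : ℕ} {X : List α} {t : ℕ} (ht : t ≤ X.length) :
    Fst Wo z X t ↔ FE Wo z (X.take t) := by
  have hl : (X.take t).length = t := by rw [List.length_take]; omega
  unfold Fst FE
  rw [hl]
  constructor
  · rintro ⟨h1, h2, h3⟩
    refine ⟨h2, h1, fun s hs hst => ?_⟩
    rw [List.take_take, min_eq_left hst.le]
    exact h3 s hs hst
  · rintro ⟨h1, h2, h3⟩
    refine ⟨h2, h1, fun s hs hst => ?_⟩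
    have := h3 s hs hst
    rwa [List.take_take, min_eq_left hst.le] at this

theorem hl_Wo [Finite α] (hW : LW n Wo) (k : ℕ) : HL k ({X | Wo X} : Language α) := by
  have hf : {Q : List α | Q.length = n ∧ Wo Q}.Finite :=
    (List.finite_length_eq α n).subset fun Q h => h.1
  refine ((HL.finite (k := k) hf).suffix).congr fun X => ?_
  constructor
  · intro h
    have hn := hW.len X h
    have e : X.take (X.length - n) ++ X.drop (X.length - n) = X := List.take_append_drop _ _
    refine ⟨X.drop (X.length - n), ⟨by rw [List.length_drop]; omega, ?_⟩, List.drop_suffix _ _⟩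
    refine (hW.app (X.take (X.length - n)) _ (by rw [List.length_drop]; omega)).1 ?_
    rw [e]; exact h
  · rintro ⟨Q, ⟨h1, h2⟩, P, rfl⟩
    exact (hW.app P Q h1.ge).2 h2

theorem hl_ltPre [Finite α] {k : ℕ} {L : Language α} (hL : HL k L) :
    HL k ({w | ∃ t < w.length, w.take t ∈ L} : Language α) := by
  refine (hL.mul (HL.length_ge (α := α) 1)).congr fun w => ?_
  rw [Language.mem_mul]
  constructor
  · rintro ⟨t, ht, h⟩
    exact ⟨_, h, w.drop t, by show 1 ≤ (w.drop t).length; rw [List.length_drop]; omega,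
      List.take_append_drop _ _⟩
  · rintro ⟨A, hA, B, hB, rfl⟩
    have hB' : 1 ≤ B.length := hB
    refine ⟨A.length, by rw [List.length_append]; omega, ?_⟩
    rwa [List.take_left']
    rfl

theorem hl_lePre [Finite α] {k : ℕ} {L : Language α} (hL : HL k L) :
    HL k ({w | ∃ t ≤ w.length, w.take t ∈ L} : Language α) := by
  refine (hL.mul (HL.top (α := α))).congr fun w => ?_
  rw [Language.mem_mul]
  constructor
  · rintro ⟨t, ht, h⟩
    exact ⟨_, h, w.drop t, trivial, List.take_append_drop _ _⟩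
  · rintro ⟨A, hA, B, hB, rfl⟩
    refine ⟨A.length, by rw [List.length_append]; omega, ?_⟩
    rwa [List.take_left']
    rfl

theorem hl_NW [Finite α] (hW : LW n Wo) (k : ℕ) : HL k ({U | NW Wo U} : Language α) := by
  refine (hl_ltPre (hl_Wo hW k)).compl.congr fun w => ?_
  show (∀ t < w.length, ¬ Wo (w.take t)) ↔ ¬ ∃ t < w.length, w.take t ∈ ({X | Wo X} : Language α)
  constructor
  · rintro h ⟨t, ht, h'⟩; exact h t ht h'
  · intro h t ht h'; exact h ⟨t, ht, h'⟩

theorem hl_FE [Finite α] (hW : LW n Wo) (k z : ℕ) : HL k ({Y | FE Wo z Y} : Language α) := by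
  have h1 : HL k ({Y | Wo Y ∧ z ≤ Y.length} : Language α) :=
    (hl_Wo hW k).setOf_and (HL.length_ge z)
  refine (h1.inf (hl_ltPre h1).compl).congr fun Y => ?_
  show FE Wo z Y ↔ (Wo Y ∧ z ≤ Y.length) ∧
    ¬ ∃ t < Y.length, (Wo (Y.take t) ∧ z ≤ (Y.take t).length)
  unfold FE
  constructor
  · rintro ⟨a, b, c⟩
    refine ⟨⟨a, b⟩, ?_⟩
    rintro ⟨t, ht, h2, h3⟩
    rw [List.length_take] at h3
    exact c t (by omega) ht h2
  · rintro ⟨⟨a, b⟩, c⟩
    refine ⟨a, b, fun s hs hst h => c ⟨s, hst, h, ?_⟩⟩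
    rw [List.length_take]; omega

theorem hl_IsZ [Finite α] (hW : LW n Wo) (k z : ℕ) : HL k ({X | IsZ Wo z X} : Language α) := by
  have h1 : HL k ({X | Wo X ∧ ∃ t < X.length, X.take t ∈ ({Y | FE Wo z Y} : Language α)} :
      Language α) := (hl_Wo hW k).setOf_and (hl_ltPre (hl_FE hW k z))
  refine (h1.inf (hl_ltPre h1).compl).congr fun X => ?_
  show IsZ Wo z X ↔ (Wo X ∧ ∃ t < X.length, FE Wo z (X.take t)) ∧
    ¬ ∃ s < X.length, (Wo (X.take s) ∧ ∃ t < (X.take s).length, FE Wo z ((X.take s).take t))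
  constructor
  · rintro ⟨a, t, ht, h2, h3⟩
    refine ⟨⟨a, t, ht, (fst_iff_fe ht.le).1 h2⟩, ?_⟩
    rintro ⟨s, hs, h4, t', ht', h5⟩
    rw [List.length_take] at ht'
    rw [List.take_take, min_eq_left (by omega : t' ≤ s)] at h5
    have h6 := (fst_iff_fe (by omega : t' ≤ X.length)).2 h5
    have := h2.unique h6
    subst this
    exact h3 s (by omega) hs h4
  · rintro ⟨⟨a, t, ht, h2⟩, h3⟩
    refine ⟨a, t, ht, (fst_iff_fe ht.le).2 h2, fun s hts hs h4 => h3 ⟨s, hs, h4, t, ?_, ?_⟩⟩
    · rw [List.length_take]; omega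
    · rwa [List.take_take, min_eq_left hts.le]

theorem NW.nil : NW Wo [] := fun t ht => absurd ht (by simp)

theorem NW.suffix (hW : LW n Wo) {A C : List α} (h : NW Wo (A ++ C)) : NW Wo C := by
  intro t ht hw
  have hn := hW.len _ hw
  refine h (A.length + t) (by rw [List.length_append]; omega) ?_
  have e : (A ++ C).take (A.length + t) = A ++ C.take t := by
    rw [List.take_append]; simp [List.take_of_length_le]
  rw [e]
  exact (hW.app A _ hn).2 hw

theorem Few.mono {r : ℕ} {U : List α} (h : Few Wo r U) : Few Wo (r + 1) U :=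
  ⟨[], U, rfl, NW.nil, h⟩

theorem Few.mono' {r s : ℕ} (hrs : r ≤ s) {U : List α} (h : Few Wo r U) : Few Wo s U := by
  induction hrs with
  | refl => exact h
  | step _ ih => exact ih.mono

theorem Few.suffix (hW : LW n Wo) {r : ℕ} : ∀ {A B : List α}, Few Wo r (A ++ B) → Few Wo r B := by
  induction r with
  | zero =>
    intro A B h
    exact (List.append_eq_nil_iff.1 h).2
  | succ r ih =>
    rintro A B ⟨A', B', e, h1, h2⟩
    rcases List.append_eq_append_iff.1 e with ⟨C, rfl, rfl⟩ | ⟨C, rfl, rfl⟩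
    · exact ⟨C, B', rfl, h1.suffix hW, h2⟩
    · exact (ih h2).mono

theorem Few.append {r s : ℕ} : ∀ {A B : List α}, Few Wo r A → Few Wo s B →
    Few Wo (r + s) (A ++ B) := by
  induction r with
  | zero =>
    intro A B h1 h2
    have : A = [] := h1
    subst this
    rw [Nat.zero_add]; exact h2
  | succ r ih =>
    rintro A B ⟨A1, A2, rfl, h1, h2⟩ h3
    rw [Nat.succ_add]
    exact ⟨A1, A2 ++ B, by simp, h1, ih h2 h3⟩

theorem Few.of_nw {U : List α} (h : NW Wo U) : Few Wo 1 U := ⟨U, [], by simp, h, rfl⟩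

theorem few_of_length (h1 : ∀ a : α, NW Wo [a]) : ∀ U : List α, Few Wo U.length U := by
  intro U
  induction U with
  | nil => rfl
  | cons a U ih => exact ⟨[a], U, rfl, h1 a, ih⟩

theorem few_of_fe (hW : LW n Wo) (h1 : ∀ a : α, NW Wo [a]) {z : ℕ} {Y : List α}
    (h : ∀ s, z ≤ s → s < Y.length → ¬ Wo (Y.take s)) : Few Wo (z + 1) Y := by
  have e : Y.take z ++ Y.drop z = Y := List.take_append_drop _ _
  rw [← e]
  refine Few.append ?_ (Few.of_nw ?_)
  · refine (few_of_length h1 (Y.take z)).mono' ?_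
    rw [List.length_take]; omega
  · intro t ht hw
    rw [List.length_drop] at ht
    have hn := hW.len _ hw
    refine h (z + t) (by omega) (by omega) ?_
    have e2 : Y.take (z + t) = Y.take z ++ (Y.drop z).take t := List.take_add
    rw [e2]
    exact (hW.app _ _ hn).2 hw

/-- a text without inner walls is `u ++ x^k ++ v` -/
def Tmp (Wo : List α → Prop) (B W : ℕ) : Prop :=
  ∀ X : List α, (∀ t < X.length, ¬ Wo (X.take t)) →
        ∃ (u x v : List α) (k : ℕ), u.length ≤ B ∧ x.length ≤ W ∧ v.length ≤ B ∧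
          X = u ++ (List.replicate k x).flatten ++ v

theorem nw_val [Finite α] (hW : LW n Wo) {B W : ℕ} (hT : Tmp Wo B W) {M : Type v} [Monoid M]
    [Finite M] (g : α → M) (m : M) :
    HL 1 ({U | NW Wo U ∧ (U.map g).prod = m} : Language α) := by
  have hf : {q : List α × List α × List α | q.1.length ≤ B ∧ q.2.1.length ≤ W ∧
      q.2.2.length ≤ B}.Finite := by
    refine (((List.finite_length_le α B).prod
      ((List.finite_length_le α W).prod (List.finite_length_le α B)))).subset ?_
    rintro ⟨a, b, c⟩ ⟨h1, h2, h3⟩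
    exact ⟨h1, h2, h3⟩
  have h1 := HL.biUnion (k := 1) hf
    (L := fun q => ({w | ∃ s : {s : M // (q.1.map g).prod * s * (q.2.2.map g).prod = m},
      w ∈ (({q.1} : Language α) * RunH1_632.powL g q.2.1 s.1) * ({q.2.2} : Language α)} :
        Language α))
    (fun q _ => HL.iUnion fun s => ((HL.word q.1).mul
      (RunH1_632.pow_monoid (n := 0) g q.2.1 s.1)).mul (HL.word q.2.2))
  refine ((hl_NW hW 1).inf h1).congr fun w => ?_
  constructor
  · rintro ⟨a, b⟩
    refine ⟨a, ?_⟩
    obtain ⟨x, y, z, k, hx, hy, hz, e⟩ := hT w a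
    refine ⟨(x, y, z), ⟨hx, hy, hz⟩, ⟨((RunH1_632.rep y k).map g).prod, ?_⟩, ?_⟩
    · rw [← b, e]; simp [RunH1_632.rep, mul_assoc]
    · rw [Language.mem_mul]
      refine ⟨x ++ RunH1_632.rep y k, ?_, z, rfl, e.symm⟩
      rw [Language.mem_mul]
      exact ⟨x, rfl, RunH1_632.rep y k, ⟨k, rfl, rfl⟩, rfl⟩
  · rintro ⟨a, ⟨x, y, z⟩, ⟨hx, hy, hz⟩, ⟨s, hs⟩, hw⟩
    refine ⟨a, ?_⟩
    rw [Language.mem_mul] at hw
    obtain ⟨c, hc, d, hd, rfl⟩ := hw
    rw [Language.mem_mul] at hc
    obtain ⟨c1, hc1, c2, ⟨k, -, hk⟩, rfl⟩ := hc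
    have e1 : c1 = x := hc1
    have e2 : d = z := hd
    subst e1 e2
    rw [List.map_append, List.map_append, List.prod_append, List.prod_append, hk]
    exact hs

theorem few_val [Finite α] (hW : LW n Wo) {B W : ℕ} (hT : Tmp Wo B W) {M : Type v} [Monoid M]
    [Finite M] (g : α → M) (r : ℕ) (m : M) :
    HL 1 ({U | Few Wo r U ∧ (U.map g).prod = m} : Language α) := by
  induction r generalizing m with
  | zero =>
    refine ((HL.word ([] : List α)).setOf_and (HL.const ((1 : M) = m))).congr fun w => ?_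
    constructor
    · rintro ⟨h1, h2⟩
      have : w = [] := h1
      subst this
      exact ⟨rfl, by simpa using h2⟩
    · rintro ⟨h1, h2⟩
      have : w = [] := h1
      subst this
      exact ⟨rfl, by simpa using h2⟩
  | succ r ih =>
    refine (HL.iUnion fun p : {p : M × M // p.1 * p.2 = m} =>
      (nw_val hW hT g p.1.1).mul (ih p.1.2)).congr fun w => ?_
    constructor
    · rintro ⟨⟨A, B', rfl, h1, h2⟩, h3⟩
      refine ⟨⟨((A.map g).prod, (B'.map g).prod), by rw [← h3]; simp⟩, ?_⟩
      exact Language.mem_mul.2 ⟨A, ⟨h1, rfl⟩, B', ⟨h2, rfl⟩, rfl⟩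
    · rintro ⟨⟨p, hp⟩, hw⟩
      obtain ⟨A, ⟨a1, a2⟩, B', ⟨b1, b2⟩, rfl⟩ := Language.mem_mul.1 hw
      refine ⟨⟨A, B', rfl, a1, b1⟩, ?_⟩
      rw [List.map_append, List.prod_append, a2, b2]; exact hp

/-- finite-state functions: they see a bounded prefix, the product of the rest and the length modulo. -/
def FS {S : Type v} [Monoid S] {β : Type*} (f : α → S) (F : List α → β) : Prop :=
  ∃ N P : ℕ, 0 < P ∧ ∀ Q Q' : List α, N ≤ Q.length → N ≤ Q'.length → Q.take N = Q'.take N →
    Q.length % P = Q'.length % P → ((Q.drop N).map f).prod = ((Q'.drop N).map f).prod →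
    F Q = F Q'

theorem FS.prod {S : Type v} [Monoid S] {β γ : Type*} {f : α → S} {F : List α → β}
    {G : List α → γ} (hF : FS f F) (hG : FS f G) : FS f (fun w => (F w, G w)) := by
  obtain ⟨N, P, hP, h⟩ := hF
  obtain ⟨N', P', hP', h'⟩ := hG
  have key : ∀ (N N' : ℕ), N ≤ N' → ∀ Q Q' : List α, N' ≤ Q.length → N' ≤ Q'.length →
      Q.take N' = Q'.take N' → ((Q.drop N').map f).prod = ((Q'.drop N').map f).prod →
      N ≤ Q.length ∧ N ≤ Q'.length ∧ Q.take N = Q'.take N ∧
        ((Q.drop N).map f).prod = ((Q'.drop N).map f).prod := by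
    intro N N' hN Q Q' h1 h2 h3 h4
    have e : ∀ Q : List α, Q.drop N = (Q.take N').drop N ++ Q.drop N' := by
      intro Q
      conv_lhs => rw [← List.take_append_drop N' Q]
      rw [List.drop_append]
      congr 1
      rw [List.length_take]
      by_cases hQ : N' ≤ Q.length
      · rw [min_eq_left hQ, Nat.sub_eq_zero_of_le hN, List.drop_zero]
      · rw [List.drop_eq_nil_of_le (by omega : Q.length ≤ N')]; simp
    refine ⟨by omega, by omega, ?_, ?_⟩
    · have := congrArg (List.take N) h3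
      rwa [List.take_take, List.take_take, min_eq_left hN] at this
    · rw [e Q, e Q', h3, List.map_append, List.map_append, List.prod_append, List.prod_append, h4]
  refine ⟨max N N', P * P', Nat.mul_pos hP hP', fun Q Q' h1 h2 h3 h4 h5 => ?_⟩
  obtain ⟨a1, a2, a3, a4⟩ := key N (max N N') (le_max_left _ _) Q Q' h1 h2 h3 h5
  obtain ⟨b1, b2, b3, b4⟩ := key N' (max N N') (le_max_right _ _) Q Q' h1 h2 h3 h5
  have m1 : Q.length % P = Q'.length % P := by
    have := congrArg (· % P) h4
    simpa [Nat.mod_mul_right_mod] using this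
  have m2 : Q.length % P' = Q'.length % P' := by
    have := congrArg (· % P') h4
    simpa [Nat.mod_mul_left_mod] using this
  show (F Q, G Q) = (F Q', G Q')
  rw [h Q Q' a1 a2 a3 m1 a4, h' Q Q' b1 b2 b3 m2 b4]

theorem FS.ph {S : Type v} [Monoid S] (f : α → S) : FS f (fun w => (w.map f).prod) :=
  ⟨0, 1, one_pos, fun Q Q' _ _ _ _ h => by simpa using h⟩

theorem prod_pair {S : Type v} [Monoid S] (f : α → S) (P : ℕ) (V : List α) :
    (V.map (fun a => (f a, (Multiplicative.ofAdd (1 : ZMod P))))).prod =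
      ((V.map f).prod, Multiplicative.ofAdd ((V.length : ℕ) : ZMod P)) := by
  induction V with
  | nil => simp; rfl
  | cons a V ih =>
    rw [List.map_cons, List.prod_cons, ih]
    simp only [List.map_cons, List.prod_cons, List.length_cons, Prod.mk_mul_mk]
    congr 1
    rw [← ofAdd_add]
    push_cast
    rw [add_comm]

/-- the words of `Few r` with value `m` -/
def FewV {M : Type*} [Monoid M] (Wo : List α → Prop) (r : ℕ) (g : α → M) (m : M) : Language α :=
  {U | Few Wo r U ∧ (U.map g).prod = m}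

theorem few_fs [Finite α] (hW : LW n Wo) {B W : ℕ} (hT : Tmp Wo B W) {S : Type v} [Monoid S]
    [Finite S] {f : α → S} {β : Type*} {F : List α → β} (hF : FS f F) (r : ℕ) (b : β) :
    HL 1 ({U | Few Wo r U ∧ F U = b} : Language α) := by
  obtain ⟨N, P, hP, h⟩ := hF
  have : NeZero P := ⟨hP.ne'⟩
  let g : α → S × Multiplicative (ZMod P) := fun a => (f a, Multiplicative.ofAdd (1 : ZMod P))
  have : Finite (Multiplicative (ZMod P)) := inferInstanceAs (Finite (ZMod P))
  have hfew : HL 1 ({U | Few Wo r U} : Language α) := by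
    refine (HL.iUnion fun m : S => few_val hW hT f r m).congr fun w => ?_
    exact ⟨fun h => ⟨_, h, rfl⟩, fun ⟨_, h, _⟩ => h⟩
  have hs : {U : List α | U.length ≤ N ∧ F U = b}.Finite :=
    (List.finite_length_le α N).subset fun U h => h.1
  have hl := HL.biUnion (k := 1) (List.finite_length_eq α N)
    (L := fun q => ({w | ∃ m : {m : S × Multiplicative (ZMod P) //
        ∃ V0 : List α, (V0.map g).prod = m ∧ F (q ++ V0) = b},
      w ∈ ({q} : Language α) * FewV Wo r g m.1} : Language α))
    (fun q _ => HL.iUnion fun m => (HL.word q).mul (few_val hW hT g r m.1))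
  refine (hfew.inf ((HL.finite hs).sup hl)).congr fun w => ?_
  constructor
  · rintro ⟨h1, h2⟩
    refine ⟨h1, ?_⟩
    by_cases hN : w.length ≤ N
    · exact Or.inl ⟨hN, h2⟩
    · push Not at hN
      refine Or.inr ⟨w.take N, by show (w.take N).length = N; rw [List.length_take]; omega,
        ⟨((w.drop N).map g).prod, w.drop N, rfl, by rw [List.take_append_drop]; exact h2⟩, ?_⟩
      refine Language.mem_mul.2 ⟨w.take N, rfl, w.drop N, ⟨?_, rfl⟩, List.take_append_drop _ _⟩
      refine Few.suffix hW (A := w.take N) ?_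
      rw [List.take_append_drop]; exact h1
  · rintro ⟨h1, h2 | h2⟩
    · exact ⟨h1, h2.2⟩
    · obtain ⟨q, hq, ⟨m, V0, hV0, hb⟩, hw⟩ := h2
      have hq' : q.length = N := hq
      refine ⟨h1, ?_⟩
      obtain ⟨q', hq'', V, ⟨-, hV⟩, rfl⟩ := Language.mem_mul.1 hw
      have e : q' = q := hq''
      subst e
      rw [← hb]
      have hm : (V.map g).prod = (V0.map g).prod := hV.trans hV0.symm
      rw [prod_pair, prod_pair] at hm
      simp only [Prod.mk.injEq] at hm
      have hlen : V.length % P = V0.length % P := by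
        have := (ZMod.natCast_eq_natCast_iff _ _ _).1 (Multiplicative.ofAdd.injective hm.2)
        exact this
      refine h _ _ (by rw [List.length_append]; omega) (by rw [List.length_append]; omega)
        ?_ ?_ ?_
      · rw [List.take_left' hq', List.take_left' hq']
      · rw [List.length_append, List.length_append, Nat.add_mod, hlen, ← Nat.add_mod]
      · rw [List.drop_left' hq', List.drop_left' hq']; exact hm.1

end Crest.Agent.R320.Fam_739
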