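import Crest.Agent.R320.FewVal_228

/-!
# Row 320: height of the languages of a wall scheme on all words (helper857)

`EW n S w` : the last `n` letters of `w` form a wall.  `Min D` = words of `D` without proper prefix
in `D`, `Nxt D` = words of `D` with a proper prefix in `D`.
`dep` : a property which depends only on the first `A` letters, on the value in a finite monoid and
on the length modulo `M` has height one on words with few walls.
-/

set_option autoImplicit false

namespace Crest.Agent.R320.Fam_857

open Crest.Agent.R320.Hk_851 Crest.Agent.R320.FewWalls_228 Crest.Agent.R320.FewVal_228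

universe u

variable {α : Type u} {k : ℕ}

/-- nonempty words -/
def Ne : Language α := {w | w ≠ []}

theorem HL_Ne : HL k (Ne : Language α) := by
  have h := (HL.one (α := α) (k := k)).compl
  refine h.congr fun w => ?_
  constructor
  · intro hw h1
    exact hw h1
  · intro hw h1
    exact hw h1

/-- some proper prefix lies in `D` -/
def PP (D : Language α) : Language α := D * Ne

theorem mem_PP {D : Language α} {w : List α} : w ∈ PP D ↔ ∃ t < w.length, w.take t ∈ D := by
  constructor
  · intro h
    obtain ⟨a, ha, b, hb, rfl⟩ := Language.mem_mul.1 h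
    refine ⟨a.length, ?_, by simpa using ha⟩
    have : 0 < b.length := List.length_pos_iff.2 hb
    rw [List.length_append]; omega
  · rintro ⟨t, ht, h⟩
    refine Language.mem_mul.2 ⟨w.take t, h, w.drop t, ?_, List.take_append_drop t w⟩
    intro e
    have := congrArg List.length e
    rw [List.length_drop, List.length_nil] at this
    omega

/-- minimal words -/
def Min (D : Language α) : Language α := {w | w ∈ D ∧ w ∉ PP D}

/-- words of `D` which are not minimal -/
def Nxt (D : Language α) : Language α := {w | w ∈ D ∧ w ∈ PP D}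

theorem HL_PP {D : Language α} (h : HL k D) : HL k (PP D) := h.mul HL_Ne

theorem HL_Min {D : Language α} (h : HL k D) : HL k (Min D) :=
  (h.inf (HL_PP h).compl).congr fun _ => Iff.rfl

theorem HL_Nxt {D : Language α} (h : HL k D) : HL k (Nxt D) :=
  (h.inf (HL_PP h)).congr fun _ => Iff.rfl

theorem min_prefix {D : Language α} {a b x y : List α} (ha : a ∈ Min D) (hb : b ∈ Min D)
    (h : a ++ x = b ++ y) : a = b := by
  have hcase : ∀ {a b x y : List α}, a ∈ Min D → b ∈ Min D → a ++ x = b ++ y →
      a.length ≤ b.length → a = b := by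
    intro a b x y ha hb h hl
    have h1 : a = b.take a.length := by
      have := congrArg (List.take a.length) h
      rw [List.take_left, List.take_append_of_le_length hl] at this
      exact this
    by_contra hne
    have hlt : a.length < b.length := by
      rcases Nat.lt_or_ge a.length b.length with h | h
      · exact h
      · exact absurd (by rw [h1, List.take_of_length_le h]) hne
    exact hb.2 (mem_PP.2 ⟨a.length, hlt, h1 ▸ ha.1⟩)
  rcases Nat.le_total a.length b.length with hl | hl
  · exact hcase ha hb h hl
  · exact (hcase hb ha h.symm hl).symm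

/-- the last `n` letters form a wall -/
def EW (n : ℕ) (S : Set (List α)) (w : List α) : Prop := n ≤ w.length ∧ w.drop (w.length - n) ∈ S

theorem EW_append {n : ℕ} {S : Set (List α)} {P Q : List α} (h : n ≤ Q.length) :
    EW n S (P ++ Q) ↔ EW n S Q := by
  unfold EW
  have e : (P ++ Q).length - n = P.length + (Q.length - n) := by
    rw [List.length_append]; omega
  rw [e, ← List.drop_drop, List.drop_left, List.length_append]
  constructor
  · rintro ⟨_, h2⟩; exact ⟨h, h2⟩
  · rintro ⟨_, h2⟩; exact ⟨by omega, h2⟩

theorem EW_take_iff {n : ℕ} {S : Set (List α)} {w : List α} {t : ℕ} (ht : t ≤ w.length)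
    (hn : n ≤ t) : EW n S (w.take t) ↔ Wl n S w (t - n) := by
  unfold EW Wl
  rw [List.length_take, Nat.min_eq_left ht, List.drop_take]
  have e : t - (t - n) = n := by omega
  rw [e]
  constructor
  · rintro ⟨_, h2⟩; exact ⟨by omega, h2⟩
  · rintro ⟨_, h2⟩; exact ⟨hn, h2⟩

/-- words of length `≥ q` which end in a wall -/
def DD (n : ℕ) (S : Set (List α)) (q : ℕ) : Language α := {w | q ≤ w.length ∧ EW n S w}

theorem HL_EW [Finite α] (n : ℕ) (S : Set (List α)) (hS : ∀ s ∈ S, s.length = n) :
    HL k ({w | EW n S w} : Language α) := by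
  have h0 : HL k (S : Language α) := HL.finite ((List.finite_length_eq α n).subset fun s hs => hS s hs)
  refine h0.suffix.congr fun w => ?_
  constructor
  · rintro ⟨h1, h2⟩
    exact ⟨_, h2, w.take (w.length - n), List.take_append_drop _ w⟩
  · rintro ⟨v, hv, x, rfl⟩
    have hl := hS v hv
    refine ⟨by rw [List.length_append]; omega, ?_⟩
    have e : (x ++ v).length - n = x.length := by rw [List.length_append]; omega
    rw [e, List.drop_left]
    exact hv

theorem HL_DD [Finite α] (n : ℕ) (S : Set (List α)) (hS : ∀ s ∈ S, s.length = n) (q : ℕ) :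
    HL k (DD n S q) := (HL.length_ge q).inf (HL_EW n S hS)

open Classical in
/-- a word all of whose proper prefixes of length `≥ q` have at most one wall has few walls -/
theorem nw_le_of {n : ℕ} {S : Set (List α)} {w : List α} {q : ℕ} {F : Finset ℕ}
    (h : ∀ t ≤ w.length, q ≤ t → EW n S (w.take t) → t ∈ F) : nw n S w ≤ q + F.card := by
  unfold nw
  have hsub : ((Finset.range (w.length + 1)).filter (fun x => Wl n S w x)) ⊆
      Finset.range q ∪ F.image (fun t => t - n) := by
    intro x hx
    rw [Finset.mem_filter] at hx
    rw [Finset.mem_union, Finset.mem_range, Finset.mem_image]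
    by_cases hq : x + n < q
    · left; omega
    · right
      refine ⟨x + n, h _ hx.2.1 (by omega) ?_, by omega⟩
      rw [EW_take_iff hx.2.1 (by omega), Nat.add_sub_cancel]
      exact hx.2
  refine (Finset.card_le_card hsub).trans ((Finset.card_union_le _ _).trans ?_)
  rw [Finset.card_range]
  exact Nat.add_le_add_left Finset.card_image_le _

theorem nw_min {n : ℕ} {S : Set (List α)} {w : List α} {q : ℕ} (h : w ∈ Min (DD n S q)) :
    nw n S w ≤ q + 1 := by
  refine nw_le_of (F := {w.length}) fun t ht hq he => ?_
  rw [Finset.mem_singleton]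
  by_contra hne
  exact h.2 (mem_PP.2 ⟨t, by omega, by
    refine ⟨?_, he⟩
    rw [List.length_take]; omega⟩)

theorem nw_nomin {n : ℕ} {S : Set (List α)} {w : List α} {q : ℕ} (h : w ∉ PP (DD n S q)) :
    nw n S w ≤ q + 1 := by
  refine nw_le_of (F := {w.length}) fun t ht hq he => ?_
  rw [Finset.mem_singleton]
  by_contra hne
  exact h (mem_PP.2 ⟨t, by omega, by
    refine ⟨?_, he⟩
    rw [List.length_take]; omega⟩)

theorem nw_nonxt {n : ℕ} {S : Set (List α)} {w : List α} {q : ℕ}
    (h : w ∉ PP (Nxt (DD n S q))) : nw n S w ≤ q + 2 := by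
  classical
  by_cases hex : ∃ t ≤ w.length, q ≤ t ∧ EW n S (w.take t)
  · obtain ⟨h1, h2, h3⟩ := Nat.find_spec hex
    set t0 := Nat.find hex with ht0
    refine (nw_le_of (F := {t0, w.length}) fun t ht hq he => ?_).trans
      (Nat.add_le_add_left Finset.card_le_two _)
    rw [Finset.mem_insert, Finset.mem_singleton]
    by_contra hne
    push Not at hne
    have hle : t0 ≤ t := Nat.find_min' hex ⟨ht, hq, he⟩
    refine h (mem_PP.2 ⟨t, by omega, ⟨?_, he⟩, mem_PP.2 ⟨t0, ?_, ?_, ?_⟩⟩)
    · rw [List.length_take]; omega
    · rw [List.length_take]; omega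
    · rw [List.take_take, List.length_take]; omega
    · rw [List.take_take, Nat.min_eq_left hle]; exact h3
  · refine (nw_le_of (F := ∅) fun t ht hq he => (hex ⟨t, ht, hq, he⟩).elim).trans (by simp)

theorem nw_take {n : ℕ} {S : Set (List α)} (w : List α) (m : ℕ) :
    nw n S (w.take m) ≤ nw n S w := by
  classical
  unfold nw
  refine Finset.card_le_card fun x hx => ?_
  rw [Finset.mem_filter] at hx ⊢
  obtain ⟨h1, h2⟩ := wl_take hx.2
  exact ⟨by rw [Finset.mem_range]; have := h1.1; omega, h1⟩

theorem nw_drop {n : ℕ} {S : Set (List α)} (w : List α) (m : ℕ) :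
    nw n S (w.drop m) ≤ nw n S w := by
  classical
  rcases Nat.lt_or_ge w.length m with hm | hm
  · rw [List.drop_eq_nil_of_le hm.le]
    unfold nw
    refine Finset.card_le_card fun x hx => ?_
    rw [Finset.mem_filter] at hx ⊢
    have h1 := hx.2.1
    have h2 := hx.2.2
    simp only [List.length_nil] at h1
    have hx0 : x = 0 := by omega
    have hn0 : n = 0 := by omega
    subst hx0
    subst hn0
    refine ⟨by rw [Finset.mem_range]; omega, by omega, ?_⟩
    simpa using h2
  · unfold nw
    refine Finset.card_le_card_of_injOn (fun x => m + x) ?_ (fun a _ b _ h => by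
      simpa using h)
    intro x hx
    have hx' := (Finset.mem_filter.1 (Finset.mem_coe.1 hx)).2
    have h1 := (wl_drop hm).1 hx'
    refine Finset.mem_coe.2 (Finset.mem_filter.2 ⟨?_, h1⟩)
    have h3 : m + x + n ≤ w.length := h1.1
    exact Finset.mem_range.2 (show m + x < w.length + 1 by omega)

theorem nw_left {n : ℕ} {S : Set (List α)} (a b : List α) : nw n S a ≤ nw n S (a ++ b) := by
  have := nw_take (n := n) (S := S) (a ++ b) a.length
  rwa [List.take_left] at this

theorem nw_right {n : ℕ} {S : Set (List α)} (a b : List α) : nw n S b ≤ nw n S (a ++ b) := by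
  have := nw_drop (n := n) (S := S) (a ++ b) a.length
  rwa [List.drop_left] at this

theorem prod_len (w : List α) (M : ℕ) :
    (w.map (fun _ => Multiplicative.ofAdd (1 : ZMod M))).prod =
      Multiplicative.ofAdd ((w.length : ℕ) : ZMod M) := by
  induction w with
  | nil => simp
  | cons a w ih =>
    rw [List.map_cons, List.prod_cons, ih, List.length_cons, ← ofAdd_add]
    congr 1
    push_cast
    ring

/-- **Dependency lemma.** -/
theorem dep [Finite α] {n c P : ℕ} {S : Set (List α)} (hn : 0 < n) (hP : 0 < P)
    (hper : PerOff n c P S) (r A M : ℕ) (hM : 0 < M) {G : Type*} [Monoid G] [Finite G]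
    (φ : α → G) (p : List α → Prop)
    (hp : ∀ w w' : List α, w.take A = w'.take A → (w.map φ).prod = (w'.map φ).prod →
      w.length % M = w'.length % M → p w → p w') :
    HL 1 ({w | nw n S w ≤ r ∧ p w} : Language α) := by
  classical
  have : NeZero M := ⟨hM.ne'⟩
  have : Finite {u : List α // u.length ≤ A} := (List.finite_length_le α A).to_subtype
  let f : α → G × Multiplicative (ZMod M) := fun a => (φ a, Multiplicative.ofAdd 1)
  have hf : ∀ w : List α, (w.map f).prod =
      ((w.map φ).prod, Multiplicative.ofAdd ((w.length : ℕ) : ZMod M)) := by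
    intro w
    rw [← prod_len w M]
    induction w with
    | nil => rfl
    | cons a w ih => rw [List.map_cons, List.prod_cons, ih]; rfl
  have hpre : ∀ u : List α, HL 1 ({w | w.take A = u} : Language α) := by
    intro u
    by_cases hu : u.length = A
    · refine ((HL.word (k := 1) u).prefix).congr fun w => ?_
      constructor
      · intro h
        exact ⟨u, rfl, by rw [← show w.take A = u from h]; exact List.take_prefix _ _⟩
      · rintro ⟨v, hv, y, rfl⟩
        have hv' : v = u := hv
        subst hv'
        show (v ++ y).take A = v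
        rw [← hu, List.take_left]
    · refine (HL.finite (s := {w : List α | w.take A = u}) ?_)
      refine (List.finite_length_le α A).subset fun w hw => ?_
      by_contra hlen
      have hlen' : ¬ w.length ≤ A := hlen
      apply hu
      rw [← show w.take A = u from hw, List.length_take]
      omega
  refine (HL.iUnion (k := 1) (ι := {u : List α // u.length ≤ A} × (G × Multiplicative (ZMod M)))
    (L := fun i => {w | (w.take A = i.1.1 ∧ (nw n S w ≤ r ∧ (w.map f).prod = i.2)) ∧
      ∃ w0 : List α, w0.take A = i.1.1 ∧ (w0.map f).prod = i.2 ∧ p w0}) fun i => ?_).congr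
      fun w => ?_
  · exact ((hpre i.1.1).inf (HL_few_value hn hP hper r f i.2)).inf (HL.const _)
  · constructor
    · rintro ⟨h1, h2⟩
      exact ⟨(⟨w.take A, by rw [List.length_take]; omega⟩, (w.map f).prod),
        ⟨rfl, h1, rfl⟩, w, rfl, rfl, h2⟩
    · rintro ⟨i, ⟨h1, h2, h3⟩, w0, h4, h5, h6⟩
      refine ⟨h2, hp w0 w (h4.trans h1.symm) ?_ ?_ h6⟩
      · have := h5.trans h3.symm
        rw [hf, hf] at this
        exact congrArg Prod.fst this
      · have := h5.trans h3.symm
        rw [hf, hf] at this
        have h7 := congrArg Prod.snd this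
        have h8 : ((w0.length : ℕ) : ZMod M) = ((w.length : ℕ) : ZMod M) := h7
        exact (ZMod.natCast_eq_natCast_iff' _ _ _).1 h8

end Crest.Agent.R320.Fam_857
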