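import Mathlib

set_option autoImplicit false

namespace Crest.Agent.R320.Mk263

variable {α : Type*}

/-- positions marked by the list of blocks `l` (tail first), mutual distance at least `W` -/
def Mk (W : ℕ) {m : ℕ} : List (Fin m → α) → (ℤ → α) → ℤ → Prop
  | [], _, _ => False
  | b :: l, f, x => Mk W l f x ∨
      ((∀ i : Fin m, f (x + (i : ℕ)) = b i) ∧ ∀ y : ℤ, |y - x| < W → ¬ Mk W l f y)

theorem Mk_shift (W : ℕ) {m : ℕ} (l : List (Fin m → α)) (f : ℤ → α) (c x : ℤ) :
    Mk W l (fun z => f (z + c)) x ↔ Mk W l f (x + c) := by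
  induction l generalizing x with
  | nil => simp [Mk]
  | cons b l ih =>
    simp only [Mk, ih]
    constructor
    · rintro (h | ⟨h1, h2⟩)
      · exact Or.inl h
      · refine Or.inr ⟨fun i => ?_, fun y hy => ?_⟩
        · have := h1 i
          rw [← this]; congr 1; ring
        · have := h2 (y - c) (by rw [show y - c - x = y - (x + c) by ring]; exact hy)
          rwa [sub_add_cancel] at this
    · rintro (h | ⟨h1, h2⟩)
      · exact Or.inl h
      · refine Or.inr ⟨fun i => ?_, fun y hy => ?_⟩
        · have := h1 i
          rw [← this]; congr 1; ring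
        · exact h2 (y + c) (by rw [show y + c - (x + c) = y - x by ring]; exact hy)

theorem Mk_local (W : ℕ) {m : ℕ} (l : List (Fin m → α)) (f g : ℤ → α) (x : ℤ)
    (h : ∀ z : ℤ, x - (l.length * W : ℕ) ≤ z → z < x + m + (l.length * W : ℕ) → f z = g z) :
    Mk W l f x ↔ Mk W l g x := by
  induction l generalizing x with
  | nil => simp [Mk]
  | cons b l ih =>
    have hl : ((b :: l).length * W : ℕ) = l.length * W + W := by
      simp [Nat.add_mul]
    rw [hl] at h
    push_cast at h
    have key : ∀ y : ℤ, |y - x| ≤ W → (Mk W l f y ↔ Mk W l g y) := by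
      intro y hy
      rw [abs_le] at hy
      apply ih
      intro z hz1 hz2
      push_cast at hz1 hz2
      apply h z <;> omega
    simp only [Mk]
    rw [key x (by simp)]
    have e1 : (∀ i : Fin m, f (x + (i : ℕ)) = b i) ↔ (∀ i : Fin m, g (x + (i : ℕ)) = b i) := by
      apply forall_congr'
      intro i
      rw [h (x + (i : ℕ)) (by have := i.2; push_cast at *; nlinarith [Nat.zero_le (l.length * W), Nat.zero_le W, (by positivity : (0:ℤ) ≤ (l.length : ℤ) * W)])
        (by have := i.2; push_cast at *; nlinarith [(by positivity : (0:ℤ) ≤ (l.length : ℤ) * W), (by positivity : (0:ℤ) ≤ (W : ℤ)), (by exact_mod_cast this : ((i : ℕ) : ℤ) < m)])]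
    have e2 : (∀ y : ℤ, |y - x| < W → ¬ Mk W l f y) ↔ (∀ y : ℤ, |y - x| < W → ¬ Mk W l g y) := by
      apply forall_congr'
      intro y
      constructor
      · intro h3 hy h4; exact h3 hy ((key y hy.le).2 h4)
      · intro h3 hy h4; exact h3 hy ((key y hy.le).1 h4)
    rw [e1, e2]

/-- `b` has no period `d` with `1 ≤ d < W` -/
def Aper (W : ℕ) {m : ℕ} (b : Fin m → α) : Prop :=
  ∀ d : ℕ, 1 ≤ d → d < W → ∃ (i : ℕ) (h : i + d < m), b ⟨i, by omega⟩ ≠ b ⟨i + d, h⟩

theorem Mk_gap (W : ℕ) {m : ℕ} (l : List (Fin m → α)) (hl : ∀ b ∈ l, Aper W b) (f : ℤ → α)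
    (x y : ℤ) (hx : Mk W l f x) (hy : Mk W l f y) (hxy : x < y) : x + W ≤ y := by
  induction l with
  | nil => exact absurd hx (by simp [Mk])
  | cons b l ih =>
    have ih' := ih (fun b hb => hl b (List.mem_cons_of_mem _ hb))
    by_contra hcon
    rw [not_le] at hcon
    simp only [Mk] at hx hy
    rcases hx with hx | ⟨hx1, hx2⟩
    · rcases hy with hy | ⟨hy1, hy2⟩
      · have := ih' hx hy; omega
      · exact hy2 x (by rw [abs_lt]; constructor <;> omega) hx
    · rcases hy with hy | ⟨hy1, hy2⟩
      · exact hx2 y (by rw [abs_lt]; constructor <;> omega) hy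
      · obtain ⟨d, hd⟩ : ∃ d : ℕ, y = x + d := ⟨(y - x).toNat, by omega⟩
        obtain ⟨i, h, hne⟩ := hl b (List.mem_cons_self) d (by omega) (by omega)
        apply hne
        have h1 := hy1 ⟨i, by omega⟩
        have h2 := hx1 ⟨i + d, h⟩
        rw [← h1, ← h2]
        congr 1
        push_cast
        omega

theorem Mk_cover (W : ℕ) (hW : 1 ≤ W) {m : ℕ} (l : List (Fin m → α)) (f : ℤ → α)
    (x : ℤ) (b : Fin m → α) (hb : b ∈ l) (h : ∀ i : Fin m, f (x + (i : ℕ)) = b i) :
    ∃ y : ℤ, |y - x| < W ∧ Mk W l f y := by
  induction l with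
  | nil => simp at hb
  | cons c l ih =>
    by_cases hex : ∃ y : ℤ, |y - x| < W ∧ Mk W l f y
    · obtain ⟨y, hy1, hy2⟩ := hex
      exact ⟨y, hy1, Or.inl hy2⟩
    · rcases List.mem_cons.1 hb with rfl | hb
      · refine ⟨x, by simpa using (by omega : 0 < W), Or.inr ⟨h, ?_⟩⟩
        intro y hy hy2
        exact hex ⟨y, hy, hy2⟩
      · exact absurd (ih hb) hex

/-- extension of a word to a function on `ℤ` -/
def ext (a0 : α) (u : List α) : ℤ → α := fun z => u.getD z.toNat a0

theorem ext_factor (a0 : α) (u : List α) (x n : ℕ) (z : ℤ) (h0 : 0 ≤ z) (h1 : z < n) :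
    ext a0 ((u.drop x).take n) z = ext a0 u (z + x) := by
  unfold ext
  have e : (z + x).toNat = x + z.toNat := by omega
  rw [e, List.getD_eq_getElem?_getD, List.getD_eq_getElem?_getD, List.getElem?_take,
    List.getElem?_drop]
  rw [if_pos (by omega)]

theorem marker [Finite α] (W : ℕ) (hW : 1 ≤ W) :
    ∃ (n c P : ℕ) (S : Set (List α)), 0 < n ∧ 0 < P ∧ (∀ s ∈ S, s.length = n) ∧
      (∀ (u : List α) (x y : ℕ), x < y → y + n ≤ u.length →
        (u.drop x).take n ∈ S → (u.drop y).take n ∈ S → x + W ≤ y) ∧
      (∀ u : List α, (∀ x, x + n ≤ u.length → (u.drop x).take n ∉ S) →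
        ∀ x, c ≤ x → x + c ≤ u.length → u[x]? = u[x + P]?) := by
  classical
  rcases isEmpty_or_nonempty α with hα | ⟨⟨a0⟩⟩
  · refine ⟨1, 0, 1, ∅, Nat.one_pos, Nat.one_pos, by simp, by simp, ?_⟩
    intro u _ x _ _
    have : u = [] := by
      cases u with
      | nil => rfl
      | cons a u => exact (hα.false a).elim
    subst this
    simp
  set P : ℕ := W.factorial with hP
  set m : ℕ := P + 1 with hm
  have : Fintype α := Fintype.ofFinite α
  set l : List (Fin m → α) := (Finset.univ.filter (fun b : Fin m → α => Aper W b)).toList with hl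
  have hlA : ∀ b ∈ l, Aper W b := by
    intro b hb
    rw [hl, Finset.mem_toList, Finset.mem_filter] at hb
    exact hb.2
  set K : ℕ := l.length * W with hK
  set n : ℕ := m + 2 * K with hn
  set S : Set (List α) := {s | s.length = n ∧ Mk W l (ext a0 s) (K : ℤ)} with hS
  have key : ∀ (u : List α) (x : ℕ), x + n ≤ u.length →
      ((u.drop x).take n ∈ S ↔ Mk W l (ext a0 u) ((x + K : ℕ) : ℤ)) := by
    intro u x hx
    have hlen : ((u.drop x).take n).length = n := by simp; omega
    rw [hS, Set.mem_ofPred_eq]
    have e1 : Mk W l (ext a0 ((u.drop x).take n)) (K : ℤ) ↔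
        Mk W l (fun z => ext a0 u (z + (x : ℤ))) (K : ℤ) := by
      apply Mk_local
      intro z hz1 hz2
      rw [← hK] at hz1 hz2
      apply ext_factor
      · omega
      · push_cast [hn]; omega
    rw [e1, Mk_shift]
    constructor
    · rintro ⟨_, h⟩
      rw [show ((x + K : ℕ) : ℤ) = (K : ℤ) + x by push_cast; ring]; exact h
    · intro h
      refine ⟨hlen, ?_⟩
      rwa [show ((x + K : ℕ) : ℤ) = (K : ℤ) + x by push_cast; ring] at h
  refine ⟨n, n + K + W, P, S, by omega, Nat.factorial_pos W, fun s hs => hs.1, ?_, ?_⟩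
  · intro u x y hxy hy hSx hSy
    rw [key u x (by omega)] at hSx
    rw [key u y hy] at hSy
    have := Mk_gap W l hlA (ext a0 u) _ _ hSx hSy (by push_cast; omega)
    push_cast at this
    omega
  · intro u hu x hx1 hx2
    -- block at x
    set b : Fin m → α := fun i => ext a0 u ((x : ℤ) + (i : ℕ)) with hb
    have hnot : ¬ Aper W b := by
      intro hA
      have hbl : b ∈ l := by
        rw [hl, Finset.mem_toList, Finset.mem_filter]
        exact ⟨Finset.mem_univ _, hA⟩
      obtain ⟨y, hy1, hy2⟩ := Mk_cover W hW l (ext a0 u) x b hbl (fun i => rfl)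
      rw [abs_lt] at hy1
      obtain ⟨x', hx'⟩ : ∃ x' : ℕ, y = ((x' + K : ℕ) : ℤ) := ⟨(y - K).toNat, by push_cast; omega⟩
      have hle : x' + n ≤ u.length := by
        push_cast at hx'
        omega
      exact hu x' hle ((key u x' hle).2 (hx' ▸ hy2))
    unfold Aper at hnot
    push Not at hnot
    obtain ⟨d, hd1, hd2, hper⟩ := hnot
    -- period d inside the block
    have hdP : d ∣ P := Nat.dvd_factorial (by omega) hd2.le
    obtain ⟨q, hq⟩ := hdP
    have hstep : ∀ j : ℕ, j ≤ q → ext a0 u ((x : ℤ)) = ext a0 u ((x : ℤ) + (j * d : ℕ)) := by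
      intro j
      induction j with
      | zero => intro _; simp
      | succ j ih =>
        intro hj
        rw [ih (by omega)]
        have hjd : j * d + d ≤ P := by
          rw [hq]
          calc j * d + d = (j + 1) * d := by ring
            _ ≤ q * d := Nat.mul_le_mul_right d hj
            _ = d * q := by ring
        have := hper (j * d) (by omega)
        simp only [hb] at this
        rw [this]
        congr 1
        push_cast
        ring
    have hfin := hstep q le_rfl
    have hqd : q * d = P := by rw [hq]; ring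
    rw [hqd] at hfin
    unfold ext at hfin
    have t1 : ((x : ℤ)).toNat = x := by omega
    have t2 : ((x : ℤ) + (P : ℕ)).toNat = x + P := by omega
    rw [t1, t2] at hfin
    have l1 : x < u.length := by omega
    have l2 : x + P < u.length := by omega
    rw [List.getD_eq_getElem?_getD, List.getD_eq_getElem?_getD,
      List.getElem?_eq_getElem l1, List.getElem?_eq_getElem l2] at hfin
    rw [List.getElem?_eq_getElem l1, List.getElem?_eq_getElem l2]
    simpa using hfin

/-- run-freeness at scale `P` (no `e`-th power of a nonempty word of length at most `P`) -/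
def RF (e P : ℕ) (Q : List α) : Prop :=
  ∀ x : List α, x ≠ [] → x.length ≤ P → ¬ (List.replicate e x).flatten <:+: Q

theorem replicate_flatten_getElem? (x : List α) (P e i : ℕ) (hx : x.length = P) (hi : i < e * P) :
    (List.replicate e x).flatten[i]? = x[i % P]? := by
  induction e generalizing i with
  | zero => simp at hi
  | succ e ih =>
    rw [List.replicate_succ, List.flatten_cons]
    by_cases h : i < P
    · rw [List.getElem?_append_left (by omega), Nat.mod_eq_of_lt h]
    · rw [List.getElem?_append_right (by omega), hx, ih (i - P) (by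
        have : (e + 1) * P = e * P + P := by ring
        omega), Nat.mod_eq_sub_mod (by omega : P ≤ i)]

/-- a stretch with period `P` and length `e * P` is an `e`-th power -/
theorem power_of_period (e P : ℕ) (u : List α) (hlen : u.length = e * P)
    (hper : ∀ x, x + P < u.length → u[x]? = u[x + P]?) :
    u = (List.replicate e (u.take P)).flatten := by
  rcases Nat.eq_zero_or_pos e with rfl | he
  · simp only [Nat.zero_mul, List.length_eq_zero_iff] at hlen
    subst hlen; simp
  rcases Nat.eq_zero_or_pos P with rfl | hP
  · simp only [Nat.mul_zero, List.length_eq_zero_iff] at hlen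
    subst hlen
    simp
  have hPl : P ≤ u.length := by
    rw [hlen]; exact Nat.le_mul_of_pos_left P he
  have ht : (u.take P).length = P := by simp; exact hPl
  have hmod : ∀ i, i < u.length → u[i]? = u[i % P]? := by
    intro i
    induction i using Nat.strong_induction_on with
    | _ i ih =>
      intro hi
      by_cases h : i < P
      · rw [Nat.mod_eq_of_lt h]
      · have h1 := hper (i - P) (by omega)
        rw [Nat.sub_add_cancel (by omega)] at h1
        rw [← h1, ih (i - P) (by omega) (by omega), Nat.mod_eq_sub_mod (by omega : P ≤ i)]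
  apply List.ext_getElem?
  intro i
  by_cases hi : i < u.length
  · rw [replicate_flatten_getElem? (u.take P) P e i ht (by omega), hmod i hi,
      List.getElem?_take, if_pos (Nat.mod_lt i hP)]
  · rw [List.getElem?_eq_none (by omega), List.getElem?_eq_none]
    simp [ht]
    omega

/-- **Right-looking marker rule** (item (2a) of the board): window `n`, distinct marks at distance
more than `W`, and one mark in every `G` places of a word without `e`-th powers of words of
length at most `P`. -/
theorem rule [Finite α] (W e : ℕ) :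
    ∃ (n G P : ℕ) (R : List α → Prop), 0 < G ∧
      (∀ Q, R Q ↔ R (Q.take n)) ∧ (∀ Q, R Q → n ≤ Q.length) ∧
      (∀ (Q : List α) (d : ℕ), R Q → 0 < d → d ≤ W → ¬ R (Q.drop d)) ∧
      (∀ Q : List α, RF e P Q → G + n ≤ Q.length → ∃ i < G, R (Q.drop i)) := by
  obtain ⟨n, c, P, S, hn, hP, hS, hgap, hcov⟩ := marker (α := α) (W + 1) (by omega)
  refine ⟨n, 2 * c + e * P + P + n + 1, P, fun Q => Q.take n ∈ S, by omega, ?_, ?_, ?_, ?_⟩
  · intro Q
    simp only [List.take_take, min_self]
  · intro Q hQ
    have := hS _ hQ
    simp at this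
    exact this
  · intro Q d hQ hd1 hd2 hQ'
    have h1 : ((Q.drop d).take n).length = n := hS _ hQ'
    simp at h1
    have := hgap Q 0 d hd1 (by omega) (by simpa using hQ) hQ'
    omega
  · intro Q hRF hlen
    by_contra hno
    push Not at hno
    set u := Q.take (2 * c + e * P + P + n + 1 + n - 1) with hu
    have hul : u.length = 2 * c + e * P + P + n + 1 + n - 1 := by
      rw [hu, List.length_take]; omega
    have hper := hcov u (by
      intro x hx
      have h1 := hno x (by omega)
      have h2 : (u.drop x).take n = (Q.drop x).take n := by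
        rw [hu, List.drop_take, List.take_take]
        congr 1
        omega
      rw [h2]; exact h1)
    set v := (u.drop c).take (e * P) with hv
    have hvl : v.length = e * P := by
      rw [hv, List.length_take, List.length_drop]; omega
    have hvv := power_of_period e P v hvl (by
      intro x hx
      rw [hvl] at hx
      rw [hv, List.getElem?_take, List.getElem?_take, if_pos (by omega), if_pos hx,
        List.getElem?_drop, List.getElem?_drop, ← Nat.add_assoc]
      exact hper (c + x) (by omega) (by omega))
    have hinf : v <:+: Q := by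
      rw [hv, hu]
      exact ((List.take_prefix _ _).isInfix.trans (List.drop_suffix _ _).isInfix).trans
        (List.take_prefix _ _).isInfix
    rcases Nat.eq_zero_or_pos e with he | he
    · have hQl : 0 < Q.length := by omega
      obtain ⟨a, _⟩ := List.exists_mem_of_length_pos hQl
      exact hRF [a] (by simp) (by simp; omega) (by rw [he]; simp)
    · have hPv : P ≤ v.length := by
        rw [hvl]; exact Nat.le_mul_of_pos_left P he
      refine hRF (v.take P) ?_ ?_ (hvv ▸ hinf)
      · intro h0
        have h2 : (v.take P).length = 0 := by rw [h0]; rfl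
        rw [List.length_take] at h2
        omega
      · simp

end Crest.Agent.R320.Mk263
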