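import Crest.Agent.R320.FewVal_228
import Crest.Agent.R320.Reg_852
import Crest.Agent.R320.Marker_263

/-!
# Row 320, P4: blocks of the natural left-looking rule (helper358)

`S` a set of words of length `n` (`Mk263.marker`); a wall is a position `t` such that the `n` letters
before `t` form a word of `S`; a block is a word ending in its first wall `t ≥ z`.
* `XX_pc` prefix code, `XX_hl0` star free;
* `hl1_XX` : `L` regular → `{X | X ∈ XX ∧ X ∈ L}` has height one;
* `hl1_NB` : `L` regular → `{r | no prefix of r in XX ∧ r ∈ L}` has height one;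
* `reg_of_key` : regular if membership depends on first `K` letters, length mod `M`, product of the rest;
* `hXT`, `hNP` : the fibres of the zone map of the two gadgets.
-/

set_option autoImplicit false

namespace Crest.Agent.R320.Fib_358

open Crest.RegLang Crest.Agent.R320.Hk_851 Crest.Agent.R320.FewWalls_228

universe u

variable {α : Type u}

/-- position `|w|` is a wall -/
def EndW (n : ℕ) (S : Set (List α)) (w : List α) : Prop :=
  n ≤ w.length ∧ w.drop (w.length - n) ∈ S

/-- blocks -/
def XX (n z : ℕ) (S : Set (List α)) : Set (List α) :=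
  {X | z ≤ X.length ∧ EndW n S X ∧ ∀ t, z ≤ t → t < X.length → ¬ EndW n S (X.take t)}

theorem nil_notMem {n z : ℕ} {S : Set (List α)} (hn : 0 < n) : [] ∉ XX n z S := by
  rintro ⟨_, ⟨h, _⟩, _⟩
  simp at h
  omega

theorem XX_pc {n z : ℕ} {S : Set (List α)} : ∀ X ∈ XX n z S, ∀ Y, X ++ Y ∈ XX n z S → Y = [] := by
  rintro X ⟨h1, h2, h3⟩ Y ⟨g1, g2, g3⟩
  by_contra hY
  have hl : 0 < Y.length := List.length_pos_iff.2 hY
  apply g3 X.length h1 (by rw [List.length_append]; omega)
  rw [List.take_append_of_le_length le_rfl, List.take_length]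
  exact h2

/-- an end wall behind `z` gives a block prefix -/
theorem exists_prefix {n z : ℕ} {S : Set (List α)} (w : List α) (t : ℕ) (hz : z ≤ t)
    (ht : t ≤ w.length) (h : EndW n S (w.take t)) : ∃ X ∈ XX n z S, X <+: w := by
  classical
  have hex : ∃ t, z ≤ t ∧ t ≤ w.length ∧ EndW n S (w.take t) := ⟨t, hz, ht, h⟩
  obtain ⟨h1, h2, h3⟩ := Nat.find_spec hex
  refine ⟨w.take (Nat.find hex), ⟨?_, h3, ?_⟩, List.take_prefix _ _⟩
  · rw [List.length_take]; omega
  · intro s hs hs' hw
    rw [List.length_take] at hs'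
    rw [List.take_take, min_eq_left (by omega)] at hw
    exact Nat.find_min hex (m := s) (by omega) ⟨hs, by omega, hw⟩

theorem wl_endW {n : ℕ} {S : Set (List α)} {w : List α} {x : ℕ} (h : Wl n S w x) :
    EndW n S (w.take (x + n)) := by
  obtain ⟨h1, h2⟩ := h
  refine ⟨by rw [List.length_take]; omega, ?_⟩
  rw [List.length_take, min_eq_left h1, List.drop_take]
  rw [show x + n - n = x by omega, show x + n - x = n by omega]
  exact h2

theorem nw_XX {n z : ℕ} {S : Set (List α)} {X : List α} (hX : X ∈ XX n z S) :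
    nw n S X ≤ z + 1 := by
  classical
  unfold nw
  have hsub : (Finset.range (X.length + 1)).filter (fun x => Wl n S X x) ⊆
      insert (X.length - n) (Finset.range z) := by
    intro x hx
    rw [Finset.mem_filter] at hx
    rw [Finset.mem_insert, Finset.mem_range]
    by_contra hcon
    push Not at hcon
    have h1 := hx.2.1
    exact hX.2.2 (x + n) (by omega) (by omega) (wl_endW hx.2)
  refine (Finset.card_le_card hsub).trans ((Finset.card_insert_le _ _).trans ?_)
  rw [Finset.card_range]

theorem nw_NB {n z : ℕ} {S : Set (List α)} {w : List α} (hw : ∀ X ∈ XX n z S, ¬ X <+: w) :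
    nw n S w ≤ z + 1 := by
  classical
  unfold nw
  have hsub : (Finset.range (w.length + 1)).filter (fun x => Wl n S w x) ⊆ Finset.range z := by
    intro x hx
    rw [Finset.mem_filter] at hx
    rw [Finset.mem_range]
    by_contra hcon
    push Not at hcon
    have h1 := hx.2.1
    obtain ⟨X, hX, hp⟩ := exists_prefix (z := z) w (x + n) (by omega) h1 (wl_endW hx.2)
    exact hw X hX hp
  refine (Finset.card_le_card hsub).trans ?_
  rw [Finset.card_range]
  omega

theorem endW_hl0 [Finite α] {n : ℕ} {S : Set (List α)} (hS : ∀ s ∈ S, s.length = n) :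
    HL 0 ({w | EndW n S w} : Language α) := by
  have hf : S.Finite := (List.finite_length_eq α n).subset fun s hs => hS s hs
  refine ((HL.top (k := 0)).mul (HL.finite hf)).congr fun w => ?_
  constructor
  · rintro ⟨h1, h2⟩
    exact Language.mem_mul.2 ⟨w.take (w.length - n), trivial, w.drop (w.length - n), h2,
      List.take_append_drop _ _⟩
  · intro h
    obtain ⟨a, -, s, hs, rfl⟩ := Language.mem_mul.1 h
    have := hS s hs
    refine ⟨by rw [List.length_append]; omega, ?_⟩
    rw [List.length_append, show a.length + s.length - n = a.length by omega, List.drop_left]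
    exact hs

theorem XX_hl0 [Finite α] {n z : ℕ} {S : Set (List α)} (hS : ∀ s ∈ S, s.length = n) :
    HL 0 (XX n z S : Language α) := by
  have h1 := endW_hl0 (α := α) hS
  have h2 : HL 0 ({w | z ≤ w.length ∧ EndW n S w} : Language α) :=
    (HL.length_ge z).setOf_and h1
  have h3 : HL 0 ({w | ∃ t, z ≤ t ∧ t < w.length ∧ EndW n S (w.take t)} : Language α) := by
    refine (h2.mul (HL.length_ge 1)).congr fun w => ?_
    constructor
    · rintro ⟨t, ht1, ht2, ht3⟩
      refine Language.mem_mul.2 ⟨w.take t, ⟨by rw [List.length_take]; omega, ht3⟩, w.drop t, ?_,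
        List.take_append_drop _ _⟩
      show 1 ≤ (w.drop t).length
      rw [List.length_drop]; omega
    · intro h
      obtain ⟨a, ha, b, hb, rfl⟩ := Language.mem_mul.1 h
      have hb' : 1 ≤ b.length := hb
      refine ⟨a.length, ha.1, by rw [List.length_append]; omega, ?_⟩
      rw [List.take_append_of_le_length le_rfl, List.take_length]
      exact ha.2
  refine (h2.setOf_and h3.setOf_not).congr fun w => ?_
  constructor
  · rintro ⟨a, b, c⟩
    exact ⟨⟨a, b⟩, fun ⟨t, t1, t2, t3⟩ => c t t1 t2 t3⟩
  · rintro ⟨⟨a, b⟩, c⟩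
    exact ⟨a, b, fun t t1 t2 t3 => c ⟨t, t1, t2, t3⟩⟩

theorem NB_hl0 [Finite α] {n z : ℕ} {S : Set (List α)} (hS : ∀ s ∈ S, s.length = n) :
    HL 0 ({w | ∀ X ∈ XX n z S, ¬ X <+: w} : Language α) := by
  refine ((XX_hl0 (z := z) hS).prefix.setOf_not).congr fun w => ?_
  constructor
  · rintro h ⟨X, hX, hp⟩
    exact h X hX hp
  · intro h X hX hp
    exact h ⟨X, hX, hp⟩

section
variable {n c P z : ℕ} {S : Set (List α)}

theorem hl1_XX [Finite α] (hn : 0 < n) (hP : 0 < P) (hS : ∀ s ∈ S, s.length = n)
    (hper : PerOff n c P S) {L : Language α} (hL : L.IsRegular) :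
    HL 1 ({X | X ∈ XX n z S ∧ X ∈ L} : Language α) := by
  have h1 := FewVal_228.HL_few hn hP hper (z + 1) hL
  have h2 : HL 1 (XX n z S : Language α) := (XX_hl0 hS).mono (Nat.zero_le _)
  refine (h2.inf h1).congr fun w => ?_
  constructor
  · rintro ⟨a, b⟩; exact ⟨a, b, nw_XX a⟩
  · rintro ⟨a, b, _⟩; exact ⟨a, b⟩

theorem hl1_NB [Finite α] (hn : 0 < n) (hP : 0 < P) (hS : ∀ s ∈ S, s.length = n)
    (hper : PerOff n c P S) {L : Language α} (hL : L.IsRegular) :
    HL 1 ({X | (∀ Y ∈ XX n z S, ¬ Y <+: X) ∧ X ∈ L} : Language α) := by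
  have h1 := FewVal_228.HL_few hn hP hper (z + 1) hL
  have h2 : HL 1 ({w | ∀ X ∈ XX n z S, ¬ X <+: w} : Language α) :=
    (NB_hl0 hS).mono (Nat.zero_le _)
  refine (h2.inf h1).congr fun w => ?_
  constructor
  · rintro ⟨a, b⟩; exact ⟨a, b, nw_NB a⟩
  · rintro ⟨a, b, _⟩; exact ⟨a, b⟩
end

/-- the same first `K` letters, the same length mod `M`, the same product behind -/
def SameKey {G : Type*} (φ : List α → G) (K M : ℕ) (X Y : List α) : Prop :=
  K ≤ X.length ∧ K ≤ Y.length ∧ X.take K = Y.take K ∧ X.length % M = Y.length % M ∧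
    φ (X.drop K) = φ (Y.drop K)

theorem reg_of_key [Finite α] {G : Type*} [Monoid G] [Finite G] (φ : List α → G)
    (hφ : ∀ u v, φ (u ++ v) = φ u * φ v) (K M : ℕ) (hM : 0 < M) {L : Language α}
    (h : ∀ X Y, SameKey φ K M X Y → X ∈ L → Y ∈ L) : L.IsRegular := by
  classical
  let D := {b : List α // b.length ≤ K} × Fin (K + 1) × Fin M × G
  have : Finite {b : List α // b.length ≤ K} := (List.finite_length_le α K).to_subtype
  let d : List α → D := fun w => (⟨w.take K, by rw [List.length_take]; omega⟩,
    ⟨min w.length K, by omega⟩, ⟨w.length % M, Nat.mod_lt _ hM⟩, φ (w.drop K))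
  have key : ∀ w w', d w = d w' → ∀ y, w ++ y ∈ L → w' ++ y ∈ L := by
    intro w w' hd y hy
    have e1 : w.take K = w'.take K := congrArg (fun q : D => q.1.1) hd
    have e2 : min w.length K = min w'.length K := congrArg (fun q : D => q.2.1.1) hd
    have e3 : w.length % M = w'.length % M := congrArg (fun q : D => q.2.2.1.1) hd
    have e4 : φ (w.drop K) = φ (w'.drop K) := congrArg (fun q : D => q.2.2.2) hd
    by_cases hK : w.length < K
    · have hK' : w'.length < K := by omega
      rw [List.take_of_length_le (by omega), List.take_of_length_le (by omega)] at e1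
      rw [← e1]; exact hy
    · have hK' : K ≤ w'.length := by omega
      refine h _ _ ⟨by rw [List.length_append]; omega, by rw [List.length_append]; omega,
        ?_, ?_, ?_⟩ hy
      · rw [List.take_append_of_le_length (by omega), List.take_append_of_le_length hK', e1]
      · rw [List.length_append, List.length_append, Nat.add_mod, e3, ← Nat.add_mod]
      · rw [List.drop_append_of_le_length (by omega), List.drop_append_of_le_length hK', hφ, hφ, e4]
  apply Language.IsRegular.of_finite_range_leftQuotient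
  refine (Set.finite_range (fun x : D => if hx : ∃ w, d w = x then
    L.leftQuotient hx.choose else (⊥ : Language α))).subset ?_
  rintro _ ⟨w, rfl⟩
  refine ⟨d w, ?_⟩
  have hx : ∃ w', d w' = d w := ⟨w, rfl⟩
  show (if hx : ∃ w', d w' = d w then L.leftQuotient hx.choose else (⊥ : Language α)) = _
  rw [dif_pos hx]
  ext y
  rw [Language.mem_leftQuotient, Language.mem_leftQuotient]
  exact ⟨key _ _ hx.choose_spec y, key _ _ hx.choose_spec.symm y⟩

/-- the zone map of the two gadgets -/
def TT {G V : Type*} [AddCommGroup V] (φ : List α → G) (act : V → G → V) (p0 : ℕ)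
    (nu1 nu2 : List α → V) (v : V) (X : List α) : V :=
  act (act v (φ (X.take p0)) + nu2 (X.take p0)) (φ (X.drop p0)) + nu1 (X.drop p0)

theorem TT_key {G V : Type*} [Monoid G] [AddCommGroup V] (φ : List α → G)
    (hφ : ∀ u v, φ (u ++ v) = φ u * φ v) (act : V → G → V) (p0 K1 M : ℕ) (nu1 nu2 : List α → V)
    (hk : ∀ X Y, SameKey φ K1 M X Y → nu1 X = nu1 Y) (v v' : V) (X Y : List α)
    (h : SameKey φ (p0 + K1) M X Y) (hX : TT φ act p0 nu1 nu2 v X = v') :
    TT φ act p0 nu1 nu2 v Y = v' := by
  obtain ⟨h1, h2, h3, h4, h5⟩ := h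
  have e1 : X.take p0 = Y.take p0 := by
    have := congrArg (List.take p0) h3
    rwa [List.take_take, List.take_take, min_eq_left (by omega)] at this
  have e2 : (X.drop p0).take K1 = (Y.drop p0).take K1 := by
    have := congrArg (List.drop p0) h3
    rwa [List.drop_take, List.drop_take, show p0 + K1 - p0 = K1 by omega] at this
  have e3 : φ ((X.drop p0).drop K1) = φ ((Y.drop p0).drop K1) := by
    rw [List.drop_drop, List.drop_drop]; exact h5
  have e4 : φ (X.drop p0) = φ (Y.drop p0) := by
    rw [← List.take_append_drop K1 (X.drop p0), ← List.take_append_drop K1 (Y.drop p0), hφ, hφ,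
      e2, e3]
  have e5 : (X.drop p0).length % M = (Y.drop p0).length % M := by
    rw [List.length_drop, List.length_drop]
    have : (X.length - p0) ≡ (Y.length - p0) [MOD M] := by
      apply Nat.ModEq.add_right_cancel' p0
      rw [Nat.sub_add_cancel (by omega), Nat.sub_add_cancel (by omega)]
      exact h4
    exact this
  have e6 : nu1 (X.drop p0) = nu1 (Y.drop p0) :=
    hk _ _ ⟨by rw [List.length_drop]; omega, by rw [List.length_drop]; omega, e2, e5, e3⟩
  rw [← hX]
  unfold TT
  rw [e1, e4, e6]

section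
variable {n c P z : ℕ} {S : Set (List α)}

/-- fibres of the zone map on the blocks -/
theorem hXT [Finite α] {G V : Type*} [Monoid G] [Finite G] [AddCommGroup V] (hn : 0 < n)
    (hP : 0 < P) (hS : ∀ s ∈ S, s.length = n) (hper : PerOff n c P S) (φ : List α → G)
    (hφ : ∀ u v, φ (u ++ v) = φ u * φ v) (act : V → G → V) (p0 K1 M : ℕ) (hM : 0 < M)
    (nu1 nu2 : List α → V) (hk : ∀ X Y, SameKey φ K1 M X Y → nu1 X = nu1 Y) (v v' : V) :
    HL 1 ({X | X ∈ XX n z S ∧ TT φ act p0 nu1 nu2 v X = v'} : Language α) :=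
  hl1_XX hn hP hS hper (L := {X | TT φ act p0 nu1 nu2 v X = v'})
    (reg_of_key φ hφ (p0 + K1) M hM fun X Y h hX =>
      TT_key φ hφ act p0 K1 M nu1 nu2 hk v v' X Y h hX)

/-- fibres of the morphism on the rest words -/
theorem hNP [Finite α] {G : Type*} [Monoid G] [Finite G] (hn : 0 < n) (hP : 0 < P)
    (hS : ∀ s ∈ S, s.length = n) (hper : PerOff n c P S) (φ : List α → G)
    (hφ : ∀ u v, φ (u ++ v) = φ u * φ v) (s : G) :
    HL 1 ({X | (∀ Y ∈ XX n z S, ¬ Y <+: X) ∧ φ X = s} : Language α) :=
  hl1_NB hn hP hS hper (L := {X | φ X = s})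
    (reg_of_key φ hφ 0 1 Nat.one_pos fun X Y h hX => by
      have := h.2.2.2.2
      rw [List.drop_zero, List.drop_zero] at this
      show φ Y = s
      rw [← this]; exact hX)
end

end Crest.Agent.R320.Fib_358
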