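import Crest.Agent.R320.Fa_576
import Crest.Agent.R320.SemTop_727
import Crest.Agent.R320.Fib_358

/-!
# Row 320: the natural block code, scheme 1 complete off (E), (B), scheme 2 complete (helper576)
-/

set_option autoImplicit false

namespace Crest.Agent.R320.Fb_576

open Crest.RegLang Crest.Agent.R320.Hk_851 Crest.Agent.R320.Blk467
open Crest.Agent.R320.Fib_358 Crest.Agent.R320.FewWalls_228 Crest.Agent.R320.SemTop_727

universe u v

variable {α : Type u} {n z : ℕ} {S : Set (List α)}

theorem drop_len (P R : List α) (k : ℕ) : (P ++ R).drop (P.length + k) = R.drop k := by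
  simp [List.drop_append]

theorem take_len (P R : List α) (k : ℕ) : (P ++ R).take (P.length + k) = P ++ R.take k := by
  simp [List.take_append]

theorem loc (P R : List α) (h : n ≤ R.length) : EndW n S (P ++ R) ↔ EndW n S R := by
  unfold EndW
  rw [List.length_append, show P.length + R.length - n = P.length + (R.length - n) by omega,
    drop_len]
  constructor
  · rintro ⟨-, h2⟩; exact ⟨h, h2⟩
  · rintro ⟨-, h2⟩; exact ⟨by omega, h2⟩

theorem at_len (P Q : List α) {s : ℕ} (hn : n ≤ s) (hs : s ≤ Q.length) :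
    EndW n S ((P ++ Q).take (P.length + s)) ↔ EndW n S (Q.take s) := by
  rw [take_len, loc]
  rw [List.length_take]; omega

theorem shift (P P' Q : List α) {s t : ℕ} (h1 : P.length + n ≤ s) (h2 : s ≤ P.length + Q.length)
    (h3 : s + P'.length = t + P.length) :
    EndW n S ((P ++ Q).take s) ↔ EndW n S ((P' ++ Q).take t) := by
  obtain ⟨k, rfl⟩ : ∃ k, s = P.length + k := ⟨s - P.length, by omega⟩
  obtain rfl : t = P'.length + k := by omega
  rw [at_len P Q (by omega) (by omega), at_len P' Q (by omega) (by omega)]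

/-- no wall near `z` -/
def NoE (N1 n z : ℕ) (S : Set (List α)) (X : List α) : Prop :=
  ∀ u, z ≤ u + N1 → u < z + N1 → u ≤ X.length → ¬ EndW n S (X.take u)

theorem xx_shift {P P' Q : List α} {N1 : ℕ} (h : P ++ Q ∈ XX n z S) (hE : NoE N1 n z S (P ++ Q))
    (h1 : P.length + N1 + n ≤ z) (h2 : P'.length + N1 + n ≤ z) (h3 : P'.length ≤ P.length + N1)
    (h4 : P.length ≤ P'.length + N1) : P' ++ Q ∈ XX n z S := by
  obtain ⟨a1, a2, a3⟩ := h
  have hlen : z + N1 ≤ (P ++ Q).length := by
    by_contra hcon
    push Not at hcon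
    exact hE (P ++ Q).length (by omega) hcon le_rfl (by rwa [List.take_length])
  rw [List.length_append] at a1 hlen
  refine ⟨by rw [List.length_append]; omega, ?_, ?_⟩
  · rw [loc _ _ (by omega)] at a2 ⊢; exact a2
  · intro t ht ht' hw
    rw [List.length_append] at ht'
    have hw' : EndW n S ((P ++ Q).take (t + P.length - P'.length)) :=
      (shift P' P Q (by omega) (by omega) (by omega)).1 hw
    rcases Nat.lt_or_ge (t + P.length - P'.length) (z + N1) with hlt | hge
    · exact hE _ (by omega) hlt (by rw [List.length_append]; omega) hw'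
    · exact a3 _ (by omega) (by rw [List.length_append]; omega) hw'

theorem xx_subst {P P' Q : List α} (h : P ++ Q ∈ XX n z S) (hl : P'.length = P.length)
    (h1 : P.length + n ≤ z) : P' ++ Q ∈ XX n z S := by
  obtain ⟨a1, a2, a3⟩ := h
  rw [List.length_append] at a1
  refine ⟨by rw [List.length_append]; omega, ?_, ?_⟩
  · rw [loc _ _ (by omega)] at a2 ⊢; exact a2
  · intro t ht ht' hw
    rw [List.length_append] at ht'
    exact a3 t ht (by rw [List.length_append]; omega)
      ((shift P' P Q (by omega) (by omega) (by omega)).1 hw)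

section

variable {G : Type*} {V : Type v} [Monoid G] [AddCommGroup V]

/-- the data of the two schemes -/
def DD (ph : List α → G) (act : V → G → V) (p0 n z : ℕ) (S : Set (List α))
    (nu1 nu2 : List α → V) (lam1 lam2 : List α → Option V) : Sch α V where
  XX := XX n z S
  T := TT ph act p0 nu1 nu2
  L1 x := {P | p0 ≤ P.length ∧
    lam1 (P.drop p0) = some (act x (ph (P.take p0)) + nu2 (P.take p0))}
  L2 x := {P | lam2 P = some x}

variable {ph : List α → G} {act : V → G → V} {p0 N1 : ℕ} {nu1 nu2 : List α → V}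
  {lam1 rho1 lam2 rho2 : List α → Option V} {BadT : ℕ → Prop} {Lm : ℕ}

theorem good_of
    (hs1 : ∀ P Q v b, lam1 P = some v → rho1 Q = some b → b = act v (ph (P ++ Q)) + nu1 (P ++ Q))
    (hl1 : ∀ P v, lam1 P = some v → P.length < N1)
    (hcomp : ∀ Y : List α, Lm ≤ Y.length → ¬ BadT Y.length → ∀ v, ∃ P Q, Y = P ++ Q ∧
      lam1 P = some v ∧ (rho1 Q).isSome)
    (hz : p0 + 2 * N1 + n + Lm ≤ z) {X : List α} (hX : X ∈ XX n z S) (hE : NoE N1 n z S X)
    (hB : ¬ BadT (X.length - p0)) :
    X ∈ (DD ph act p0 n z S nu1 nu2 lam1 lam2).Good := by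
  refine ⟨hX, fun x => ?_⟩
  have hXl := hX.1
  obtain ⟨P1, Q, hY, hP1, hQ⟩ := hcomp (X.drop p0) (by rw [List.length_drop]; omega)
    (by rwa [List.length_drop]) (act x (ph (X.take p0)) + nu2 (X.take p0))
  obtain ⟨b, hb⟩ := Option.isSome_iff_exists.1 hQ
  have hX' : X = X.take p0 ++ P1 ++ Q := by
    rw [List.append_assoc, ← hY, List.take_append_drop]
  have htl : (X.take p0).length = p0 := by rw [List.length_take]; omega
  have hTx : ∀ (U P1' : List α) (x' : V), U.length = p0 →
      lam1 P1' = some (act x' (ph U) + nu2 U) →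
      TT ph act p0 nu1 nu2 x' (U ++ P1' ++ Q) = b := by
    intro U P1' x' hU hl
    have e1 : (U ++ P1' ++ Q).take p0 = U := by
      rw [List.append_assoc, ← hU, List.take_left]
    have e2 : (U ++ P1' ++ Q).drop p0 = P1' ++ Q := by
      rw [List.append_assoc, ← hU, List.drop_left]
    unfold TT
    rw [e1, e2]
    exact (hs1 P1' Q _ b hl hb).symm
  refine ⟨X.take p0 ++ P1, ⟨?_, ?_⟩, Q, ?_, hX'.symm⟩
  · rw [List.length_append]; omega
  · have e1 : (X.take p0 ++ P1).take p0 = X.take p0 := by
      conv_lhs => rw [← htl]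
      rw [htl]
      rw [List.take_append_of_le_length (by omega), List.take_take, min_self]
    have e2 : (X.take p0 ++ P1).drop p0 = P1 := by
      have := List.drop_left (l₁ := X.take p0) (l₂ := P1)
      rwa [htl] at this
    rw [e1, e2]; exact hP1
  · intro x'' P'' hP''
    obtain ⟨g1, g2⟩ := hP''
    have hlt := hl1 _ _ g2
    rw [List.length_drop] at hlt
    have hlt0 := hl1 _ _ hP1
    have hsplit : P'' = P''.take p0 ++ P''.drop p0 := (List.take_append_drop _ _).symm
    constructor
    · have hXX : X.take p0 ++ P1 ++ Q ∈ XX n z S := by rw [← hX']; exact hX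
      have hEE : NoE N1 n z S (X.take p0 ++ P1 ++ Q) := by rw [← hX']; exact hE
      have hpl : (X.take p0 ++ P1).length = p0 + P1.length := by rw [List.length_append, htl]
      exact xx_shift hXX hEE (by omega) (by omega) (by omega) (by omega)
    · show TT ph act p0 nu1 nu2 x'' (P'' ++ Q) = TT ph act p0 nu1 nu2 x X
      have a1 : TT ph act p0 nu1 nu2 x X = b := by
        conv_lhs => rw [hX']
        exact hTx _ _ _ htl hP1
      rw [a1, hsplit]
      exact hTx _ _ _ (by rw [List.length_take]; omega) g2

end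

end Crest.Agent.R320.Fb_576
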