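import Crest.Agent.R320.Fb_576

/-!
# Row 320: scheme 2 complete on two bad blocks (semantic right words) (helper576)
-/

set_option autoImplicit false

namespace Crest.Agent.R320.Fb_576

open Crest.RegLang Crest.Agent.R320.Hk_851 Crest.Agent.R320.Blk467
open Crest.Agent.R320.Fib_358 Crest.Agent.R320.FewWalls_228 Crest.Agent.R320.SemTop_727

universe u v

variable {α : Type u} {n z : ℕ} {S : Set (List α)}
variable {G : Type*} {V : Type v} [Monoid G] [AddCommGroup V]
variable {ph : List α → G} {act : V → G → V} {p0 N1 : ℕ} {nu1 nu2 : List α → V}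
  {lam1 rho1 lam2 rho2 : List α → Option V} {BZ : ℤ → Prop} {Lm K Nsp : ℕ} {c : ℕ → ℕ}

open Classical in
theorem hC2
    (hs1 : ∀ P Q v b, lam1 P = some v → rho1 Q = some b → b = act v (ph (P ++ Q)) + nu1 (P ++ Q))
    (hl1 : ∀ P v, lam1 P = some v → P.length < N1)
    (hcomp : ∀ Y : List α, Lm ≤ Y.length → ¬ BZ (Y.length : ℤ) → ∀ v, ∃ P Q, Y = P ++ Q ∧
      lam1 P = some v ∧ (rho1 Q).isSome)
    (hs2 : ∀ P Q v b, P.length + Q.length = p0 → lam2 P = some v → rho2 Q = some b →
      b = act v (ph (P ++ Q)) + nu2 (P ++ Q))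
    (hl2 : ∀ P v, lam2 P = some v → ∃ j < K, P.length = c j)
    (hcomp2 : ∀ (u : List α) (v : V), u.length = p0 → ∃ J : Finset ℕ, Nsp < J.card ∧
      ∀ j ∈ J, j < K ∧ lam2 (u.take (c j)) = some v ∧ (rho2 (u.drop (c j))).isSome = true)
    (hcp : ∀ k < K, c k ≤ p0)
    (hsp : ∀ w : List α, ((Finset.range K).filter fun k => ∃ k' < K, k' ≠ k ∧
      ((∃ u, (u ≤ w.length ∧ EndW n S (w.take u)) ∧ z + c k ≤ u + c k' + N1 ∧
          u + c k' < z + c k + N1) ∨
       (∃ t, (t ≤ w.length ∧ EndW n S (w.take t)) ∧ z + c k ≤ t + c k' ∧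
        (∀ s, z + c k ≤ s + c k' → s < t → ¬ (s ≤ w.length ∧ EndW n S (w.take s))) ∧
        BZ ((t : ℤ) - p0 + c k' - c k)))).card ≤ Nsp)
    (hz : 2 * p0 + 2 * N1 + n + Lm ≤ z) :
    ∀ X1 ∈ (DD ph act p0 n z S nu1 nu2 lam1 lam2).Bad,
    ∀ X2 ∈ (DD ph act p0 n z S nu1 nu2 lam1 lam2).Bad, ∀ x,
    ∃ P ∈ (DD ph act p0 n z S nu1 nu2 lam1 lam2).L2 x,
    ∃ Q ∈ (DD ph act p0 n z S nu1 nu2 lam1 lam2).R2
      ((DD ph act p0 n z S nu1 nu2 lam1 lam2).T
        ((DD ph act p0 n z S nu1 nu2 lam1 lam2).T x X1) X2),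
      P ++ Q = X1 ++ X2 := by
  intro X1 h1 X2 h2 x
  have hX1 : X1 ∈ XX n z S := h1.1
  have hX2 : X2 ∈ XX n z S := h2.1
  have hz1 := hX1.1
  have hz2 := hX2.1
  obtain ⟨J, hJ, hJ2⟩ := hcomp2 (X1.take p0) x (by rw [List.length_take]; omega)
  have hspw := hsp (X1 ++ X2)
  obtain ⟨k, hkJ, hkSp⟩ := Finset.exists_mem_notMem_of_card_lt_card (lt_of_le_of_lt hspw hJ)
  obtain ⟨hkK, hlam, hrho⟩ := hJ2 k hkJ
  obtain ⟨b, hb⟩ := Option.isSome_iff_exists.1 hrho
  have hckp := hcp k hkK
  rw [List.take_take, min_eq_left hckp] at hlam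
  have htl : (X1.take (c k)).length = c k := by rw [List.length_take]; omega
  have hw : X1 ++ X2 = X1.take (c k) ++ (X1.drop (c k) ++ X2) := by
    rw [← List.append_assoc, List.take_append_drop]
  have hRl : (X1.drop (c k) ++ X2).length = X1.length - c k + X2.length := by
    rw [List.length_append, List.length_drop]
  refine ⟨X1.take (c k), hlam, X1.drop (c k) ++ X2, ?_, hw.symm⟩
  intro x' P' hP'
  obtain ⟨k', hk'K, hlk'⟩ := hl2 P' x' hP'
  have hckp' := hcp k' hk'K
  by_cases hkk : k' = k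
  · subst hkk
    have hX1' : P' ++ X1.drop (c k') ∈ XX n z S := by
      refine xx_subst (P := X1.take (c k')) ?_ (by omega) (by omega)
      rw [List.take_append_drop]; exact hX1
    have e1 : (P' ++ X1.drop (c k')).take p0 = P' ++ (X1.take p0).drop (c k') := by
      obtain ⟨r, hr⟩ : ∃ r, p0 = P'.length + r := ⟨p0 - P'.length, by omega⟩
      conv_lhs => rw [hr]
      rw [take_len, List.drop_take, show p0 - c k' = r by omega]
    have e2 : (P' ++ X1.drop (c k')).drop p0 = X1.drop p0 := by
      obtain ⟨r, hr⟩ : ∃ r, p0 = P'.length + r := ⟨p0 - P'.length, by omega⟩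
      conv_lhs => rw [hr]
      rw [drop_len, List.drop_drop, show c k' + r = p0 by omega]
    have hT' : TT ph act p0 nu1 nu2 x' (P' ++ X1.drop (c k')) = TT ph act p0 nu1 nu2 x X1 := by
      unfold TT
      rw [e1, e2]
      have f1 := hs2 P' ((X1.take p0).drop (c k')) x' b
        (by rw [List.length_drop, List.length_take]; omega) hP' hb
      have f2 := hs2 (X1.take (c k')) ((X1.take p0).drop (c k')) x b
        (by rw [List.length_drop, List.length_take, List.length_take]; omega) hlam hb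
      have f3 : X1.take (c k') ++ (X1.take p0).drop (c k') = X1.take p0 := by
        conv_rhs => rw [← List.take_append_drop (c k') (X1.take p0)]
        rw [List.take_take, min_eq_left hckp]
      rw [f3] at f2
      rw [← f1, ← f2]
    by_cases hbad : P' ++ X1.drop (c k') ∈ (DD ph act p0 n z S nu1 nu2 lam1 lam2).Bad
    · left
      refine ⟨_, hbad, X2, h2, by rw [List.append_assoc], ?_⟩
      show TT ph act p0 nu1 nu2 (TT ph act p0 nu1 nu2 x' (P' ++ X1.drop (c k'))) X2 =
        TT ph act p0 nu1 nu2 (TT ph act p0 nu1 nu2 x X1) X2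
      rw [hT']
    · right; left
      refine ⟨P' ++ X1.drop (c k'), ?_, ⟨X2, by rw [List.append_assoc]⟩⟩
      by_contra hg
      exact hbad ⟨hX1', hg⟩
  · obtain ⟨X', hX', hpre⟩ := exists_prefix (n := n) (z := z) (S := S)
      (P' ++ (X1.drop (c k) ++ X2)) (P' ++ (X1.drop (c k) ++ X2)).length
      (by rw [List.length_append]; omega) le_rfl (by
        rw [List.take_length, loc _ _ (by omega), loc _ _ (by omega)]
        exact hX2.2.1)
    by_cases hg : X' ∈ (DD ph act p0 n z S nu1 nu2 lam1 lam2).Good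
    · right; left; exact ⟨X', hg, hpre⟩
    exfalso
    apply hkSp
    rw [Finset.mem_filter, Finset.mem_range]
    refine ⟨hkK, k', hk'K, hkk, ?_⟩
    have hX'z := hX'.1
    have hX'l : X'.length ≤ P'.length + (X1.drop (c k) ++ X2).length := by
      have := hpre.length_le
      rwa [List.length_append] at this
    have htake : ∀ u ≤ X'.length, X'.take u = (P' ++ (X1.drop (c k) ++ X2)).take u := by
      intro u hu
      obtain ⟨r, hr⟩ := hpre
      rw [← hr, List.take_append_of_le_length hu]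
    have hwl : (X1 ++ X2).length = c k + (X1.drop (c k) ++ X2).length := by
      rw [hRl, List.length_append]; omega
    have htr : ∀ u, u ≤ X'.length → p0 + n ≤ u → (EndW n S (X'.take u) ↔
        EndW n S ((X1 ++ X2).take (u + c k - c k'))) := by
      intro u hu hu2
      rw [htake u hu, hw]
      exact shift P' (X1.take (c k)) _ (by omega) (by omega) (by omega)
    by_cases hE : NoE N1 n z S X'
    · right
      have hB : BZ ((X'.length - p0 : ℕ) : ℤ) := by
        by_contra hB
        exact hg (good_of (BadT := fun t => BZ (t : ℤ)) hs1 hl1 hcomp (by omega) hX' hE hB)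
      refine ⟨X'.length + c k - c k', ⟨by omega, ?_⟩, by omega, ?_, ?_⟩
      · rw [← htr _ le_rfl (by omega), List.take_length]; exact hX'.2.1
      · intro s hs1' hs2' hs3
        have hu : s + c k' - c k < X'.length := by omega
        refine hX'.2.2 (s + c k' - c k) (by omega) hu ?_
        rw [htr _ hu.le (by omega), show s + c k' - c k + c k - c k' = s by omega]
        exact hs3.2
      · have : ((X'.length + c k - c k' : ℕ) : ℤ) - p0 + c k' - c k
            = ((X'.length - p0 : ℕ) : ℤ) := by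
          rw [Nat.cast_sub (by omega), Nat.cast_sub (by omega)]
          push_cast; ring
        rw [this]; exact hB
    · left
      unfold NoE at hE
      push Not at hE
      obtain ⟨u, u1, u2, u3, u4⟩ := hE
      refine ⟨u + c k - c k', ⟨by omega, ?_⟩, by omega, by omega⟩
      rw [← htr u u3 (by omega)]; exact u4

end Crest.Agent.R320.Fb_576
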