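import Crest.Agent.R320.Grid_899
import Crest.Agent.R320.Fib_358

/-!
# Row 320: the grid gadget with a finite-state noise (helper576)
-/

set_option autoImplicit false

namespace Crest.Agent.R320.Fd_576

open Crest.Agent.R320.Grid_899 Crest.Agent.R320.Fib_358

theorem gadget_key (S V : Type*) [Monoid S] [Finite S] [AddCommGroup V] [Finite V]
    (act : V → S → V) :
    ∃ (k m : ℕ), ∀ q : Fin k → ℕ, (∀ j, Odd (q j)) →
      Pairwise (fun i j => Nat.Coprime (q i) (q j)) → ∀ κ : ℕ,
      ∀ (α : Type*) (phi : List α → S), (∀ u v, phi (u ++ v) = phi u * phi v) →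
      ∃ (lam rho : List α → Option V) (nu : List α → V),
        (∀ P v, lam P = some v → P.length < Am (∏ j, q j) κ m) ∧
        (∀ P Q v b, lam P = some v → rho Q = some b → b = act v (phi (P ++ Q)) + nu (P ++ Q)) ∧
        (∀ u : List α, 2 * Am (∏ j, q j) κ (m + 1) ≤ u.length → (∀ j, ¬ q j ∣ u.length) →
          (∀ j, 1 ≤ j → j ≤ m →
            (∏ j, q j) * G κ (j - 1) ≤ (u.length - Am (∏ j, q j) κ j) % G κ j ∧
            (u.length - Am (∏ j, q j) κ j) % G κ j + (∏ j, q j) * G κ (j - 1) ≤ G κ j) →
          ∀ v, ∃ P Q, u = P ++ Q ∧ lam P = some v ∧ (rho Q).isSome) ∧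
        (∀ X Y, SameKey phi (2 * Am (∏ j, q j) κ (m + 1)) ((∏ j, q j) * G κ m) X Y →
          nu X = nu Y) := by
  classical
  obtain ⟨k, m, H⟩ := grid_gadget_reg S V act
  refine ⟨k, m, fun q hq hc κ α phi hphi => ?_⟩
  obtain ⟨lam, rho, nu, h1, h2, h3, h4, h5⟩ := H q hq hc κ α phi hphi
  have hAm : Am (∏ j, q j) κ m ≤ Am (∏ j, q j) κ (m + 1) := Am_succ_ge m
  generalize Am (∏ j, q j) κ (m + 1) = A at *
  let C : List α → ℕ × V × V → Prop := fun u t =>
    t.1 ≤ u.length ∧ lam (u.take t.1) = some t.2.1 ∧ rho (u.drop t.1) = some t.2.2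
  have hval : ∀ u t, C u t → t.2.2 - act t.2.1 (phi u) = nu u := by
    rintro u ⟨p, v, b⟩ ⟨a1, a2, a3⟩
    have := h3 _ _ _ _ a2 a3
    rw [List.take_append_drop] at this
    simp only at this ⊢
    rw [this]; abel
  refine ⟨lam, rho, fun u => if ∃ t, C u t then nu u else 0, fun P v h => (h1 P v h).1, ?_, h4, ?_⟩
  · intro P Q v b hP hQ
    have hC : ∃ t, C (P ++ Q) t :=
      ⟨(P.length, v, b), by simp, by simpa using hP, by simpa using hQ⟩
    show b = act v (phi (P ++ Q)) + (if ∃ t, C (P ++ Q) t then nu (P ++ Q) else 0)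
    rw [if_pos hC]
    exact h3 P Q v b hP hQ
  · have key : ∀ X Y, SameKey phi (2 * A) ((∏ j, q j) * G κ m) X Y → ∀ t, C X t → C Y t := by
      rintro X Y ⟨l1, l2, l3, l4, l5⟩ ⟨p, v, b⟩ ⟨a1, a2, a3⟩
      simp only at a1 a2 a3
      have hp : p < A := by
        have := (h1 _ _ a2).1
        rw [List.length_take] at this
        omega
      have ex : X = X.take (2 * A) ++ X.drop (2 * A) := (List.take_append_drop _ _).symm
      have ey : Y = X.take (2 * A) ++ Y.drop (2 * A) := by
        rw [l3]; exact (List.take_append_drop _ _).symm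
      have ul : (X.take (2 * A)).length = 2 * A := by rw [List.length_take]; omega
      generalize X.take (2 * A) = U at *
      generalize X.drop (2 * A) = X' at *
      generalize Y.drop (2 * A) = Y' at *
      subst ex ey
      rw [List.length_append] at l1 l2 l4 a1
      rw [List.length_append] at l4
      refine ⟨by simp only [List.length_append]; omega, ?_, ?_⟩
      · show lam ((U ++ Y').take p) = some v
        rw [List.take_append_of_le_length (by omega)] at a2 ⊢
        exact a2
      · show rho ((U ++ Y').drop p) = some b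
        rw [← a3]
        symm
        rw [List.drop_append_of_le_length (by omega), List.drop_append_of_le_length (by omega)]
        have dl : (U.drop p).length = 2 * A - p := by rw [List.length_drop, ul]
        apply h5
        · rw [List.length_append]; omega
        · rw [List.length_append]; omega
        · rw [List.take_append_of_le_length (by omega), List.take_append_of_le_length (by omega)]
        · rw [List.drop_append_of_le_length (by omega), List.drop_append_of_le_length (by omega),
            hphi, hphi, l5]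
        · rw [List.length_append, List.length_append]
          apply Nat.ModEq.add_right_cancel' p
          rw [show (U.drop p).length + X'.length + p = U.length + X'.length by omega,
            show (U.drop p).length + Y'.length + p = U.length + Y'.length by omega]
          exact l4
    intro X Y hXY
    have hYX : SameKey phi (2 * A) ((∏ j, q j) * G κ m) Y X :=
      ⟨hXY.2.1, hXY.1, hXY.2.2.1.symm, hXY.2.2.2.1.symm, hXY.2.2.2.2.symm⟩
    have hph : phi X = phi Y := by
      rw [← List.take_append_drop (2 * A) X, ← List.take_append_drop (2 * A) Y, hphi, hphi,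
        hXY.2.2.1, hXY.2.2.2.2]
    show (if ∃ t, C X t then nu X else 0) = (if ∃ t, C Y t then nu Y else 0)
    by_cases hX : ∃ t, C X t
    · obtain ⟨t, ht⟩ := hX
      have hY := key X Y hXY t ht
      rw [if_pos ⟨t, ht⟩, if_pos ⟨t, hY⟩, ← hval X t ht, ← hval Y t hY, hph]
    · have hY : ¬ ∃ t, C Y t := fun ⟨t, ht⟩ => hX ⟨t, key Y X hYX t ht⟩
      rw [if_neg hX, if_neg hY]

end Crest.Agent.R320.Fd_576
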