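import Mathlib
import Crest.Agent.R320.Exact_808

/-!
Row 320 (helper596), CORE-4: scheme 2 in pure form.

* `exact_ruler` : the exact gadget (808) with `Nsp + 1` copies of every context on a ruler `c`.
* `scheme2` : the promise scheme. `Bdr d Q` = the anchor `d` letters before `Q` is bad, the right side
  is legal iff exactly one mark of the ruler is possible.
-/

set_option autoImplicit false

namespace Crest.Agent.R320.Sch2_596

open Finset Crest.Agent.R320.Exact808

universe u1 u2 u3

/-- the exact gadget on a ruler, `Nsp + 1` copies of each context. -/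
theorem exact_ruler (S : Type u1) (V : Type u2) [Monoid S] [Finite S] [AddCommGroup V] [Finite V] :
    ∃ m k : ℕ, 0 < m * k ∧ ∀ (α : Type u3) (φ : List α → S), (∀ u v, φ (u ++ v) = φ u * φ v) →
      ∀ (Nsp : ℕ) (c : ℕ → ℕ) (p0 : ℕ), StrictMono c →
      (∀ j, j < m * (k * (Nsp + 1)) → c j ≤ p0) →
      ∃ lam : List α → Option V,
        (∀ p v, lam p = some v → ∃ j < m * (k * (Nsp + 1)), p.length = c j) ∧
        ∀ act : V → S → V, ∃ (rho : List α → Option V) (nu : List α → V),
        (∀ (p q : List α) (v b : V), p.length + q.length = p0 → lam p = some v → rho q = some b →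
          b = act v (φ (p ++ q)) + nu (p ++ q)) ∧
        (∀ (u : List α) (v : V), u.length = p0 → ∃ J : Finset ℕ, Nsp < J.card ∧
          ∀ j ∈ J, j < m * (k * (Nsp + 1)) ∧ lam (u.take (c j)) = some v ∧
            (rho (u.drop (c j))).isSome = true) := by
  classical
  obtain ⟨m, k, hmk⟩ := exact_gadget.{u1, u2, u3} S V
  -- positivity of `m` and `k`
  have hpos : 0 < m * k := by
    obtain ⟨lam, hlam⟩ := hmk (PUnit : Type u3) (fun _ => (1 : S)) (fun _ _ => by simp)
      (fun _ => 0) (fun _ => none) (fun _ _ _ => le_rfl) rfl (by simp)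
    obtain ⟨rho, nu, _, h2⟩ := hlam (fun v _ => v)
    obtain ⟨i, hi, c, _⟩ := h2 [] 0 rfl
    have : 0 < k := lt_of_le_of_lt (Nat.zero_le _) c.2
    exact Nat.mul_pos (by omega) this
  refine ⟨m, k, hpos, ?_⟩
  have hm : 0 < m := Nat.pos_of_mul_pos_right hpos |> fun _ => by
    rcases Nat.eq_zero_or_pos m with h | h
    · subst h; simp at hpos
    · exact h
  have hk : 0 < k := by
    rcases Nat.eq_zero_or_pos k with h | h
    · subst h; simp at hpos
    · exact h
  intro α φ hφ Nsp c p0 hc hp0
  set K := k * (Nsp + 1) with hK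
  have hKpos : 0 < K := Nat.mul_pos hk (Nat.succ_pos _)
  let B : ℕ → ℕ := fun i => if i = 0 then 0 else if i < m then c (i * K) else p0
  have hB : Monotone B := by
    intro i j hij
    simp only [B]
    rcases Nat.eq_zero_or_pos i with h0 | h0
    · subst h0; simp
    · have hj0 : j ≠ 0 := by omega
      rw [if_neg (by omega), if_neg hj0]
      by_cases h1 : j < m
      · rw [if_pos (by omega), if_pos h1]
        exact hc.monotone (Nat.mul_le_mul_right _ hij)
      · rw [if_neg h1]
        by_cases h2 : i < m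
        · rw [if_pos h2]
          exact hp0 _ ((Nat.mul_lt_mul_right hKpos).2 h2)
        · rw [if_neg h2]
  have hB0 : B 0 = 0 := by simp [B]
  have hBm : B m = p0 := by
    simp only [B]
    rw [if_neg (by omega), if_neg (lt_irrefl _)]
  have hdm : ∀ j, (j % K) / (Nsp + 1) < k := by
    intro j
    rw [Nat.div_lt_iff_lt_mul (Nat.succ_pos _)]
    exact Nat.mod_lt _ hKpos
  let ctx : ℕ → Option (ℕ × Fin k) := fun x =>
    if h : ∃ j, j < m * K ∧ c j = x then
      some (h.choose / K, ⟨(h.choose % K) / (Nsp + 1), hdm _⟩) else none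
  have hctx1 : ∀ j, j < m * K → ctx (c j) = some (j / K, ⟨(j % K) / (Nsp + 1), hdm _⟩) := by
    intro j hj
    have h : ∃ j', j' < m * K ∧ c j' = c j := ⟨j, hj, rfl⟩
    have h2 : h.choose = j := hc.injective h.choose_spec.2
    simp only [ctx]
    rw [dif_pos h]
    simp only [h2]
  have hctx2 : ∀ x i d, ctx x = some (i, d) → ∃ j, j < m * K ∧ c j = x ∧ i = j / K := by
    intro x i d hx
    simp only [ctx] at hx
    split_ifs at hx with h
    refine ⟨h.choose, h.choose_spec.1, h.choose_spec.2, ?_⟩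
    simp only [Option.some.injEq, Prod.mk.injEq] at hx
    exact hx.1.symm
  have hctx : ∀ x i d, ctx x = some (i, d) → i < m ∧ B i ≤ x ∧ x ≤ B (i + 1) := by
    intro x i d hx
    obtain ⟨j, hj, hjx, hij⟩ := hctx2 x i d hx
    have him : i < m := by
      rw [hij]; exact (Nat.div_lt_iff_lt_mul hKpos).2 hj
    refine ⟨him, ?_, ?_⟩
    · simp only [B]
      split_ifs with h1
      · exact Nat.zero_le _
      · rw [← hjx]
        apply hc.monotone
        rw [hij]
        exact Nat.div_mul_le_self j K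
    · simp only [B]
      rw [if_neg (by omega)]
      split_ifs with h1
      · rw [← hjx]
        apply hc.monotone
        rw [hij]
        exact (Nat.lt_div_mul_add hKpos (a := j)).le.trans (by rw [Nat.add_mul, Nat.one_mul])
      · rw [← hjx]
        exact hp0 j hj
  obtain ⟨lam, hlam⟩ := hmk α φ hφ B ctx hB hB0 hctx
  refine ⟨fun p => if ∃ j, j < m * K ∧ p.length = c j then lam p else none, ?_, ?_⟩
  · intro p v hp
    beta_reduce at hp
    split_ifs at hp with h
    exact h
  · intro act
    obtain ⟨rho, nu, h1, h2⟩ := hlam act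
    rw [hBm] at h1 h2
    refine ⟨rho, nu, ?_, ?_⟩
    · intro p q v b hl hp hq
      beta_reduce at hp
      split_ifs at hp with h
      exact h1 p q v b hl hp hq
    · intro u v hu
      obtain ⟨i, him, d, hd⟩ := h2 u v hu
      refine ⟨(range (Nsp + 1)).image (fun t => i * K + d * (Nsp + 1) + t), ?_, ?_⟩
      · rw [Finset.card_image_of_injective _ (fun a b h => Nat.add_left_cancel h),
          Finset.card_range]
        exact Nat.lt_succ_self _
      · intro j hj
        obtain ⟨t, ht, rfl⟩ := Finset.mem_image.1 hj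
        rw [Finset.mem_range] at ht
        have hr : (d : ℕ) * (Nsp + 1) + t < K := by
          have : (d : ℕ) + 1 ≤ k := d.2
          calc (d : ℕ) * (Nsp + 1) + t < (d : ℕ) * (Nsp + 1) + (Nsp + 1) := by omega
            _ = ((d : ℕ) + 1) * (Nsp + 1) := by ring
            _ ≤ k * (Nsp + 1) := Nat.mul_le_mul_right _ this
        have hjm : i * K + d * (Nsp + 1) + t < m * K := by
          calc i * K + d * (Nsp + 1) + t < i * K + K := by omega
            _ = (i + 1) * K := by ring
            _ ≤ m * K := Nat.mul_le_mul_right _ him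
        have hmod : (i * K + d * (Nsp + 1) + t) % K = d * (Nsp + 1) + t := by
          rw [add_assoc, Nat.mul_add_mod', Nat.mod_eq_of_lt hr]
        have hdiv : (i * K + d * (Nsp + 1) + t) / K = i := by
          rw [add_assoc, mul_comm i K, Nat.mul_add_div hKpos, Nat.div_eq_of_lt hr, add_zero]
        have hdd : ((i * K + d * (Nsp + 1) + t) % K) / (Nsp + 1) = d := by
          rw [hmod, mul_comm (d : ℕ), Nat.mul_add_div (Nat.succ_pos _), Nat.div_eq_of_lt ht, add_zero]
        have hcx : ctx (c (i * K + d * (Nsp + 1) + t)) = some (i, d) := by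
          rw [hctx1 _ hjm]
          simp only [Option.some.injEq, Prod.mk.injEq]
          exact ⟨hdiv, Fin.ext hdd⟩
        obtain ⟨h3, h4⟩ := hd _ hcx
        refine ⟨hjm, ?_, h4⟩
        beta_reduce
        rw [if_pos, h3]
        refine ⟨_, hjm, ?_⟩
        rw [List.length_take, hu, Nat.min_eq_left (hp0 _ hjm)]

/-- **Scheme 2** (the promise scheme with a ruler). -/
theorem scheme2 (S : Type u1) (V : Type u2) [Monoid S] [Finite S] [AddCommGroup V] [Finite V] :
    ∃ m k : ℕ, 0 < m * k ∧ ∀ (α : Type u3) (φ : List α → S), (∀ u v, φ (u ++ v) = φ u * φ v) →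
      ∀ (Nsp : ℕ) (c : ℕ → ℕ) (p0 : ℕ), StrictMono c →
      (∀ j, j < m * (k * (Nsp + 1)) → c j ≤ p0) →
      ∀ (Bdr : ℕ → List α → Prop) (Nr : ℕ → List α → ℕ) (act : List α → V → S → V),
      ∃ (L R : List α → Option V) (nu : List α → V),
        (∀ P v, L P = some v → ∃ j < m * (k * (Nsp + 1)), P.length = c j) ∧
        (∀ Q b, R Q = some b → ∃ j < m * (k * (Nsp + 1)), Bdr (c j) Q ∧
          p0 ≤ c j + (Q.take (Nr (c j) Q)).length ∧
          ∀ j' < m * (k * (Nsp + 1)), Bdr (c j') Q → j' = j) ∧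
        (∀ Q Q' : List α, (∀ j < m * (k * (Nsp + 1)), (Bdr (c j) Q ↔ Bdr (c j) Q')) →
          (∀ j < m * (k * (Nsp + 1)), Bdr (c j) Q → Q.take (Nr (c j) Q) = Q'.take (Nr (c j) Q')) →
          R Q = R Q') ∧
        (∀ P Q v b, L P = some v → R Q = some b → Bdr P.length Q →
          b = act ((P ++ Q.take (Nr P.length Q)).drop p0) v
              (φ ((P ++ Q.take (Nr P.length Q)).take p0)) + nu (P ++ Q.take (Nr P.length Q))) ∧
        (∀ (Z X : List α) (v : V), p0 ≤ Z.length → p0 ≤ X.length →
          (∀ j < m * (k * (Nsp + 1)), Bdr (c j) (Z.drop (c j))) →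
          (∀ j < m * (k * (Nsp + 1)),
            Z.take (c j) ++ (Z.drop (c j)).take (Nr (c j) (Z.drop (c j))) = X) →
          (∃ Sp : Finset ℕ, Sp.card ≤ Nsp ∧ ∀ j < m * (k * (Nsp + 1)), j ∉ Sp →
            ∀ j' < m * (k * (Nsp + 1)), Bdr (c j') (Z.drop (c j)) → j' = j) →
          ∃ j < m * (k * (Nsp + 1)), L (Z.take (c j)) = some v ∧
            (R (Z.drop (c j))).isSome = true) := by
  classical
  obtain ⟨m, k, hpos, hmk⟩ := exact_ruler.{u1, u2, u3} S V
  refine ⟨m, k, hpos, ?_⟩
  intro α φ hφ Nsp c p0 hc hp0 Bdr Nr act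
  set Nt := m * (k * (Nsp + 1)) with hNt
  obtain ⟨lam, hlam1, hlam2⟩ := hmk α φ hφ Nsp c p0 hc hp0
  choose rho nu hs hcomp using fun Y => hlam2 (act Y)
  let Uq : List α → ℕ → Prop := fun Q j => j < Nt ∧ Bdr (c j) Q ∧
    p0 ≤ c j + (Q.take (Nr (c j) Q)).length ∧ ∀ j' < Nt, Bdr (c j') Q → j' = j
  have hUq : ∀ Q j j', Uq Q j → Uq Q j' → j = j' := fun Q j j' h h' => h'.2.2.2 j h.1 h.2.1
  let R : List α → Option V := fun Q => if h : ∃ j, Uq Q j then
    rho ((Q.take (Nr (c h.choose) Q)).drop (p0 - c h.choose))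
      ((Q.take (Nr (c h.choose) Q)).take (p0 - c h.choose)) else none
  have hR : ∀ Q j, Uq Q j → R Q = rho ((Q.take (Nr (c j) Q)).drop (p0 - c j))
      ((Q.take (Nr (c j) Q)).take (p0 - c j)) := by
    intro Q j hj
    have h : ∃ j, Uq Q j := ⟨j, hj⟩
    have h2 : h.choose = j := hUq Q _ _ h.choose_spec hj
    simp only [R]
    rw [dif_pos h, h2]
  have hR2 : ∀ Q b, R Q = some b → ∃ j, Uq Q j := by
    intro Q b hb
    simp only [R] at hb
    split_ifs at hb with h
    exact h
  refine ⟨lam, R, fun X => nu (X.drop p0) (X.take p0), hlam1, ?_, ?_, ?_, ?_⟩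
  · intro Q b hb
    obtain ⟨j, h1, h2, h3, h4⟩ := hR2 Q b hb
    exact ⟨j, h1, h2, h3, h4⟩
  · intro Q Q' h1 h2
    have key : ∀ j, Uq Q j ↔ Uq Q' j := by
      intro j
      constructor
      · rintro ⟨a1, a2, a3, a4⟩
        refine ⟨a1, (h1 j a1).1 a2, ?_, fun j' hj' hb => a4 j' hj' ((h1 j' hj').2 hb)⟩
        rwa [← h2 j a1 a2]
      · rintro ⟨a1, a2, a3, a4⟩
        have a2' := (h1 j a1).2 a2
        refine ⟨a1, a2', ?_, fun j' hj' hb => a4 j' hj' ((h1 j' hj').1 hb)⟩
        rwa [h2 j a1 a2']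
    by_cases h : ∃ j, Uq Q j
    · obtain ⟨j, hj⟩ := h
      rw [hR Q j hj, hR Q' j ((key j).1 hj), h2 j hj.1 hj.2.1]
    · have h' : ¬ ∃ j, Uq Q' j := fun ⟨j, hj⟩ => h ⟨j, (key j).2 hj⟩
      simp only [R]
      rw [dif_neg h, dif_neg h']
  · intro P Q v b hP hQ hbad
    obtain ⟨j0, hj0, hPl⟩ := hlam1 P v hP
    obtain ⟨j, hj⟩ := hR2 Q b hQ
    have hjj : j0 = j := hj.2.2.2 j0 hj0 (by rwa [← hPl])
    subst hjj
    rw [hR Q j0 hj] at hQ
    rw [hPl]
    have hle := hp0 j0 hj0
    have e1 : (P ++ Q.take (Nr (c j0) Q)).take p0 =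
        P ++ (Q.take (Nr (c j0) Q)).take (p0 - c j0) := by
      rw [List.take_append, hPl, List.take_of_length_le (by omega)]
    have e2 : (P ++ Q.take (Nr (c j0) Q)).drop p0 = (Q.take (Nr (c j0) Q)).drop (p0 - c j0) := by
      rw [List.drop_append, hPl, List.drop_of_length_le (by omega), List.nil_append]
    beta_reduce
    rw [e1, e2]
    refine hs _ P _ v b ?_ hP hQ
    have := hj.2.2.1
    rw [List.length_take, Nat.min_eq_left (by omega)]
    omega
  · rintro Z X v hZ hX hbad hblk ⟨Sp, hSp1, hSp2⟩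
    obtain ⟨J, hJ1, hJ2⟩ := hcomp (X.drop p0) (Z.take p0) v (by
      rw [List.length_take, Nat.min_eq_left hZ])
    have hex : ∃ j ∈ J, j ∉ Sp := by
      by_contra hcon
      push Not at hcon
      have := Finset.card_le_card (show J ⊆ Sp from hcon)
      omega
    obtain ⟨j, hjJ, hjS⟩ := hex
    obtain ⟨hj, hl, hr⟩ := hJ2 j hjJ
    have hle := hp0 j hj
    refine ⟨j, hj, ?_, ?_⟩
    · rwa [List.take_take, Nat.min_eq_left hle] at hl
    · have hXb := hblk j hj
      set body := (Z.drop (c j)).take (Nr (c j) (Z.drop (c j))) with hbody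
      have htl : (Z.take (c j)).length = c j := by
        rw [List.length_take, Nat.min_eq_left (by omega)]
      have hXl : X.length = c j + body.length := by
        rw [← hXb, List.length_append, htl]
      have hU : Uq (Z.drop (c j)) j :=
        ⟨hj, hbad j hj, by rw [← hbody]; omega, fun j' hj' hb => hSp2 j hj hjS j' hj' hb⟩
      rw [hR _ j hU, ← hbody]
      have e2 : X.drop p0 = body.drop (p0 - c j) := by
        rw [← hXb, List.drop_append, htl, List.drop_of_length_le (by omega), List.nil_append]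
      have e1 : (Z.take p0).drop (c j) = body.take (p0 - c j) := by
        rw [List.drop_take, hbody, List.take_take, Nat.min_eq_left]
        rw [hbody, List.length_take] at hXl
        have := Nat.min_le_left (Nr (c j) (Z.drop (c j))) (Z.drop (c j)).length
        omega
      rw [e2, e1] at hr
      exact hr

end Crest.Agent.R320.Sch2_596
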