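import Mathlib

/-!
# Row 320: thinness and ruler of the grid gadget 693 #13203 (4) (helper243)

`BadG` = bad totals of the gadget: a modulus divides `T`, or `T - Am j` is within `M * Gam^(j-1)`
of a multiple of `Gam^j`.  There is a ruler `c` (spaced, Golomb at any resolution) such that for
every `T` at most `Ms.card + m` ordered pairs of the ruler shift `T` into `BadG`, independently of
the number `K` of elements of the ruler.
-/

set_option autoImplicit false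

namespace Crest.Agent.R320.Thin243

open Finset

/-- bad totals of the grid gadget -/
def BadG (Ms : Finset ℕ) (M Gam m : ℕ) (Am : ℕ → ℤ) (T : ℤ) : Prop :=
  (∃ p ∈ Ms, (p : ℤ) ∣ T) ∨
    ∃ j, 1 ≤ j ∧ j ≤ m ∧ ∃ n : ℤ, |T - Am j - n * (Gam : ℤ) ^ j| ≤ (M : ℤ) * (Gam : ℤ) ^ (j - 1)

theorem sidon {a b c d : ℕ} (h1 : a ≤ b) (h2 : c ≤ d) (h : 2 ^ a + 2 ^ b = 2 ^ c + 2 ^ d) :
    a = c ∧ b = d := by
  have key : ∀ {a b c d : ℕ}, a ≤ b → c ≤ d → 2 ^ a + 2 ^ b = 2 ^ c + 2 ^ d → ¬ b < d := by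
    intro a b c d h1 h2 h hlt
    have e1 : 2 ^ a ≤ 2 ^ b := Nat.pow_le_pow_right (by norm_num) h1
    have e2 : 2 ^ (b + 1) ≤ 2 ^ d := Nat.pow_le_pow_right (by norm_num) hlt
    have e3 : 0 < 2 ^ c := by positivity
    rw [pow_succ] at e2
    omega
  have hbd : b = d := by
    rcases lt_trichotomy b d with h3 | h3 | h3
    · exact (key h1 h2 h h3).elim
    · exact h3
    · exact (key h2 h1 h.symm h3).elim
  subst hbd
  have : 2 ^ a = 2 ^ c := by omega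
  exact ⟨Nat.pow_right_injective le_rfl this, rfl⟩

theorem two_diff {i j i' j' : ℕ} (hij : i ≠ j)
    (h : (2 : ℤ) ^ i - 2 ^ j = 2 ^ i' - 2 ^ j') : i = i' ∧ j = j' := by
  have e : (2 : ℤ) ^ i + 2 ^ j' = 2 ^ i' + 2 ^ j := by linarith
  have e' : 2 ^ i + 2 ^ j' = 2 ^ i' + 2 ^ j := by exact_mod_cast e
  rcases le_total i j' with h1 | h1 <;> rcases le_total i' j with h2 | h2
  · have := sidon h1 h2 e'
    exact ⟨this.1, this.2.symm⟩
  · have := sidon h1 h2 (by rw [e', add_comm])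
    exact (hij this.1).elim
  · have := sidon h1 h2 (by rw [add_comm, e'])
    exact (hij this.2).elim
  · have := sidon h1 h2 (by rw [add_comm, e', add_comm])
    exact ⟨this.2, this.1.symm⟩

/-- partial sums of the cells -/
def sm (M Gam : ℕ) : ℕ → ℕ
  | 0 => 0
  | j + 1 => sm M Gam j + M * Gam ^ j

theorem sm_le (M Gam : ℕ) (h : 2 ≤ Gam) (j : ℕ) : sm M Gam (j + 1) ≤ 2 * (M * Gam ^ j) := by
  induction j with
  | zero => simp [sm]; omega
  | succ j ih =>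
    rw [sm]
    have e : 2 * (M * Gam ^ j) ≤ M * Gam ^ (j + 1) := by
      rw [pow_succ]
      nlinarith [Nat.zero_le (M * Gam ^ j)]
    omega

theorem sm_ge (M Gam j : ℕ) : M * Gam ^ j ≤ sm M Gam (j + 1) := by
  rw [sm]; omega

theorem sm_dvd (M Gam : ℕ) {j m : ℕ} (h : j ≤ m) :
    ((Gam : ℤ) ^ j) ∣ (sm M Gam m : ℤ) - sm M Gam j := by
  induction m, h using Nat.le_induction with
  | base => simp
  | succ m hm ih =>
    have e : ((sm M Gam (m + 1) : ℕ) : ℤ) - sm M Gam j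
        = ((sm M Gam m : ℤ) - sm M Gam j) + M * (Gam : ℤ) ^ m := by
      rw [sm]; push_cast; ring
    rw [e]
    exact dvd_add ih (Dvd.dvd.mul_left (pow_dvd_pow _ hm) _)

/-- small differences of powers of two -/
theorem delta_lt {K i j i' j' : ℕ} (h1 : i < K) (h2 : j < K) (h3 : i' < K) (h4 : j' < K) :
    |((2 : ℤ) ^ i - 2 ^ j) - (2 ^ i' - 2 ^ j')| < 2 ^ (K + 1) := by
  have hk : ∀ {t : ℕ}, t < K → (2 : ℤ) ^ t < 2 ^ K := fun h =>
    pow_lt_pow_right₀ (by norm_num) h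
  have hp : ∀ t : ℕ, (0 : ℤ) < 2 ^ t := fun t => by positivity
  have a1 := hk h1
  have a2 := hk h2
  have a3 := hk h3
  have a4 := hk h4
  have b1 := hp i
  have b2 := hp j
  have b3 := hp i'
  have b4 := hp j'
  rw [pow_succ, abs_lt]
  constructor <;> linarith

section
variable {Ms : Finset ℕ} {M Gam m K X : ℕ}

/-- one modulus spoils at most one pair -/
theorem one_mod {p : ℕ} (hbig : 2 ^ (K + 2) < p) (hX : (p : ℤ) ∣ (X : ℤ) - 1)
    {T : ℤ} {i j i' j' : ℕ} (h1 : i < K) (h2 : j < K) (h3 : i' < K) (h4 : j' < K) (hij : i ≠ j)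
    (ha : (p : ℤ) ∣ T + X * 2 ^ i - X * 2 ^ j) (hb : (p : ℤ) ∣ T + X * 2 ^ i' - X * 2 ^ j') :
    i = i' ∧ j = j' := by
  set δ : ℤ := ((2 : ℤ) ^ i - 2 ^ j) - (2 ^ i' - 2 ^ j') with hδ
  have h5 : (p : ℤ) ∣ δ := by
    have e : δ = (T + X * 2 ^ i - X * 2 ^ j) - (T + X * 2 ^ i' - X * 2 ^ j') - (X - 1) * δ := by
      rw [hδ]; ring
    rw [e]
    exact dvd_sub (dvd_sub ha hb) (Dvd.dvd.mul_right hX _)
  have h6 : |δ| < (p : ℤ) := by
    refine (delta_lt h1 h2 h3 h4).trans ?_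
    have : (2 : ℤ) ^ (K + 2) < p := by exact_mod_cast hbig
    have e : (2 : ℤ) ^ (K + 1) ≤ 2 ^ (K + 2) := pow_le_pow_right₀ (by norm_num) (by omega)
    linarith
  have h7 : δ = 0 := Int.eq_zero_of_abs_lt_dvd h5 h6
  exact two_diff hij (by rw [hδ] at h7; linarith)

/-- one grid spoils at most one pair -/
theorem one_grid {j₀ : ℕ} (hM : 0 < M) (hG2 : M * 2 ^ (K + 6) < Gam)
    (hX : ((Gam : ℤ) ^ (j₀ + 1)) ∣ (X : ℤ) - 4 * sm M Gam (j₀ + 1))
    {T A : ℤ} {i j i' j' : ℕ} (h1 : i < K) (h2 : j < K) (h3 : i' < K) (h4 : j' < K) (hij : i ≠ j)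
    {n n' : ℤ}
    (ha : |T + X * 2 ^ i - X * 2 ^ j - A - n * (Gam : ℤ) ^ (j₀ + 1)| ≤ (M : ℤ) * (Gam : ℤ) ^ j₀)
    (hb : |T + X * 2 ^ i' - X * 2 ^ j' - A - n' * (Gam : ℤ) ^ (j₀ + 1)| ≤ (M : ℤ) * (Gam : ℤ) ^ j₀) :
    i = i' ∧ j = j' := by
  set δ : ℤ := ((2 : ℤ) ^ i - 2 ^ j) - (2 ^ i' - 2 ^ j') with hδ
  have hGpos : 2 ≤ Gam := by
    have : 2 ^ 6 ≤ 2 ^ (K + 6) := Nat.pow_le_pow_right (by norm_num) (by omega)
    nlinarith
  obtain ⟨t, ht⟩ := hX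
  set G : ℤ := (Gam : ℤ) ^ (j₀ + 1) with hG
  set s : ℤ := (sm M Gam (j₀ + 1) : ℤ) with hs
  set B : ℤ := (M : ℤ) * (Gam : ℤ) ^ j₀ with hB
  have hsB : B ≤ s := by
    rw [hB, hs]; exact_mod_cast sm_ge M Gam j₀
  have hsB2 : s ≤ 2 * B := by
    rw [hB, hs]; exact_mod_cast sm_le M Gam hGpos j₀
  have hBpos : 0 < B := by
    rw [hB]
    have : (0 : ℤ) < Gam := by exact_mod_cast (by omega : 0 < Gam)
    have hM' : (0 : ℤ) < M := by exact_mod_cast hM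
    positivity
  have hGB : B * 2 ^ (K + 6) < G := by
    have e : (M : ℤ) * 2 ^ (K + 6) < Gam := by exact_mod_cast hG2
    have hg : (0 : ℤ) < (Gam : ℤ) ^ j₀ := by
      have : (0 : ℤ) < Gam := by exact_mod_cast (by omega : 0 < Gam)
      positivity
    have e1 : B * 2 ^ (K + 6) = ((M : ℤ) * 2 ^ (K + 6)) * (Gam : ℤ) ^ j₀ := by rw [hB]; ring
    have e2 : G = (Gam : ℤ) * (Gam : ℤ) ^ j₀ := by rw [hG, pow_succ]; ring
    rw [e1, e2]
    exact mul_lt_mul_of_pos_right e hg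
  have hδlt : |δ| < 2 ^ (K + 1) := delta_lt h1 h2 h3 h4
  -- `4 s δ` is within `2 B` of a multiple of `G`
  have hkey : |4 * s * δ - (n - n' - t * δ) * G| ≤ 2 * B := by
    have e : 4 * s * δ - (n - n' - t * δ) * G
        = (T + X * 2 ^ i - X * 2 ^ j - A - n * G) - (T + X * 2 ^ i' - X * 2 ^ j' - A - n' * G) := by
      have hXe : (X : ℤ) = 4 * s + G * t := by linarith
      rw [hδ, hXe]; ring
    rw [e]
    calc _ ≤ _ := abs_sub _ _
      _ ≤ 2 * B := by linarith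
  by_cases hδ0 : δ = 0
  · exact two_diff hij (by rw [hδ] at hδ0; linarith)
  exfalso
  have h1δ : 1 ≤ |δ| := Int.one_le_abs hδ0
  set N : ℤ := n - n' - t * δ with hN
  have habs : |4 * s * δ| = 4 * s * |δ| := by
    rw [abs_mul, abs_of_nonneg (by linarith : (0 : ℤ) ≤ 4 * s)]
  have hlow : 4 * s ≤ 4 * s * |δ| := le_mul_of_one_le_right (by linarith) h1δ
  by_cases hN0 : N = 0
  · rw [hN0, zero_mul, sub_zero, habs] at hkey
    linarith
  · have h1N : 1 ≤ |N| := Int.one_le_abs hN0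
    have hGpos' : 0 < G := lt_trans (by positivity) hGB
    have hNG : G ≤ |N * G| := by
      rw [abs_mul, abs_of_pos hGpos']
      exact le_mul_of_one_le_left hGpos'.le h1N
    have h8 : |N * G| ≤ |4 * s * δ| + 2 * B := by
      have h := abs_sub_abs_le_abs_sub (N * G) (4 * s * δ)
      rw [abs_sub_comm (N * G) (4 * s * δ)] at h
      linarith
    rw [habs] at h8
    have h9 : 4 * s * |δ| ≤ 8 * B * 2 ^ (K + 1) :=
      mul_le_mul (by linarith) hδlt.le (abs_nonneg _) (by linarith)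
    have h12 : B * (2 : ℤ) ^ (K + 6) = 64 * (B * 2 ^ K) := by rw [pow_add]; norm_num; ring
    have h13 : 8 * B * (2 : ℤ) ^ (K + 1) = 16 * (B * 2 ^ K) := by rw [pow_succ]; ring
    have h14 : B ≤ B * 2 ^ K := le_mul_of_one_le_right hBpos.le (one_le_pow₀ (by norm_num))
    rw [h13] at h9
    rw [h12] at hGB
    linarith

end

theorem thin (K D : ℕ) (Ms : Finset ℕ) (M Gam m : ℕ) (hp : ∀ p ∈ Ms, p.Prime)
    (hbig : ∀ p ∈ Ms, 2 ^ (K + 2) < p) (hG : ∃ k, Gam = 2 ^ k) (hG2 : M * 2 ^ (K + 6) < Gam)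
    (hM : 0 < M) :
    ∃ c : ℕ → ℕ, StrictMono c ∧ (∀ i, D < c i) ∧ (∀ i j, i < j → c i + D < c j) ∧
      (∀ i j i' j', i ≠ j → i' ≠ j' → (i, j) ≠ (i', j') →
        (D : ℤ) < |((c i : ℤ) - c j) - (c i' - c j')|) ∧
      ∀ (Am : ℕ → ℤ) (T : ℤ), by
        classical
        exact ((range K ×ˢ range K).filter
          (fun q => q.1 ≠ q.2 ∧ BadG Ms M Gam m Am (T + c q.1 - c q.2))).card ≤ Ms.card + m := by
  classical
  obtain ⟨k, rfl⟩ := hG
  set P : ℕ := ∏ p ∈ Ms, p with hP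
  have hPpos : 0 < P := Finset.prod_pos fun p h => (hp p h).pos
  have hcop : Nat.Coprime ((2 ^ k) ^ m) P := by
    apply Nat.Coprime.pow_left
    apply Nat.Coprime.pow_left
    refine Nat.Coprime.prod_right fun p h => ?_
    rw [Nat.coprime_primes Nat.prime_two (hp p h)]
    have := hbig p h
    have h2 : 2 ^ 2 ≤ 2 ^ (K + 2) := Nat.pow_le_pow_right (by norm_num) (by omega)
    omega
  obtain ⟨X₀, hX₁, hX₂⟩ := Nat.chineseRemainder hcop (4 * sm M (2 ^ k) m) 1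
  set X : ℕ := X₀ + (D + 1) * ((2 ^ k) ^ m * P) with hX
  have hGmpos : 0 < (2 ^ k) ^ m := by positivity
  have hXD : D < X := by
    have : 1 ≤ (2 ^ k) ^ m * P := Nat.mul_pos hGmpos hPpos
    have h2 : D + 1 ≤ (D + 1) * ((2 ^ k) ^ m * P) := Nat.le_mul_of_pos_right _ this
    omega
  have hXp : ∀ p ∈ Ms, (p : ℤ) ∣ (X : ℤ) - 1 := by
    intro p h
    have hpP : (p : ℤ) ∣ (P : ℤ) := by exact_mod_cast Finset.dvd_prod_of_mem _ h
    have h1 : (P : ℤ) ∣ (1 : ℕ) - (X₀ : ℤ) := (Nat.modEq_iff_dvd.1 hX₂)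
    have e : (X : ℤ) - 1 = -(((1 : ℕ) : ℤ) - X₀) + (D + 1) * ((2 ^ k) ^ m) * P := by
      rw [hX]; push_cast; ring
    rw [e]
    exact dvd_add ((dvd_neg).2 (hpP.trans h1)) (Dvd.dvd.mul_left hpP _)
  have hXG : ∀ j, j ≤ m → (((2 ^ k : ℕ) : ℤ) ^ j) ∣ (X : ℤ) - 4 * sm M (2 ^ k) j := by
    intro j hj
    have h1 : (((2 ^ k) ^ m : ℕ) : ℤ) ∣ ((4 * sm M (2 ^ k) m : ℕ) : ℤ) - (X₀ : ℤ) :=
      Nat.modEq_iff_dvd.1 hX₁
    have h2 : (((2 ^ k : ℕ) : ℤ) ^ j) ∣ (((2 ^ k) ^ m : ℕ) : ℤ) := by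
      push_cast
      exact pow_dvd_pow _ hj
    have h3 := sm_dvd M (2 ^ k) hj
    have e : (X : ℤ) - 4 * sm M (2 ^ k) j
        = -(((4 * sm M (2 ^ k) m : ℕ) : ℤ) - X₀) + 4 * ((sm M (2 ^ k) m : ℤ) - sm M (2 ^ k) j)
          + ((D + 1) * P) * (((2 ^ k) ^ m : ℕ) : ℤ) := by
      rw [hX]; push_cast; ring
    rw [e]
    exact dvd_add (dvd_add ((dvd_neg).2 (h2.trans h1)) (Dvd.dvd.mul_left h3 _))
      (Dvd.dvd.mul_left h2 _)
  refine ⟨fun i => X * 2 ^ i, ?_, ?_, ?_, ?_, ?_⟩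
  · intro i j hij
    have : 2 ^ i < 2 ^ j := Nat.pow_lt_pow_right (by norm_num) hij
    have hX0 : 0 < X := by omega
    exact Nat.mul_lt_mul_of_pos_left this hX0
  · intro i
    have : 1 ≤ 2 ^ i := Nat.one_le_two_pow
    show D < X * 2 ^ i
    nlinarith
  · intro i j hij
    have h1 : 2 ^ i + 1 ≤ 2 ^ j := Nat.pow_lt_pow_right (by norm_num) hij
    show X * 2 ^ i + D < X * 2 ^ j
    have : X * (2 ^ i + 1) ≤ X * 2 ^ j := Nat.mul_le_mul_left _ h1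
    nlinarith
  · intro i j i' j' hij hij' hne
    have hδ : ((2 : ℤ) ^ i - 2 ^ j) - (2 ^ i' - 2 ^ j') ≠ 0 := by
      intro h0
      have := two_diff hij (by linarith : (2 : ℤ) ^ i - 2 ^ j = 2 ^ i' - 2 ^ j')
      exact hne (by rw [this.1, this.2])
    have h1 := Int.one_le_abs hδ
    have e : (((X * 2 ^ i : ℕ) : ℤ) - (X * 2 ^ j : ℕ)) - (((X * 2 ^ i' : ℕ) : ℤ) - (X * 2 ^ j' : ℕ))
        = X * (((2 : ℤ) ^ i - 2 ^ j) - (2 ^ i' - 2 ^ j')) := by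
      push_cast; ring
    show (D : ℤ) < |(((X * 2 ^ i : ℕ) : ℤ) - (X * 2 ^ j : ℕ)) -
      (((X * 2 ^ i' : ℕ) : ℤ) - (X * 2 ^ j' : ℕ))|
    rw [e, abs_mul, abs_of_nonneg (by positivity : (0 : ℤ) ≤ (X : ℤ))]
    have hXD' : (D : ℤ) < X := by exact_mod_cast hXD
    nlinarith
  · intro Am T
    have hsub : (range K ×ˢ range K).filter
          (fun q => q.1 ≠ q.2 ∧ BadG Ms M (2 ^ k) m Am (T + ((X * 2 ^ q.1 : ℕ) : ℤ) - ((X * 2 ^ q.2 : ℕ) : ℤ)))
        ⊆ (Ms.biUnion fun p => (range K ×ˢ range K).filter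
              (fun q => q.1 ≠ q.2 ∧ (p : ℤ) ∣ T + X * 2 ^ q.1 - X * 2 ^ q.2)) ∪
          ((range m).biUnion fun j => (range K ×ˢ range K).filter
              (fun q => q.1 ≠ q.2 ∧ ∃ n : ℤ,
                |T + X * 2 ^ q.1 - X * 2 ^ q.2 - Am (j + 1) - n * (((2 ^ k : ℕ) : ℤ)) ^ (j + 1)|
                  ≤ (M : ℤ) * ((2 ^ k : ℕ) : ℤ) ^ j)) := by
      intro q hq
      rw [mem_filter] at hq
      obtain ⟨hq1, hq2, hq3⟩ := hq
      rw [mem_union, mem_biUnion, mem_biUnion]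
      rcases hq3 with ⟨p, hpm, hd⟩ | ⟨j, hj1, hj2, n, hn⟩
      · left
        refine ⟨p, hpm, mem_filter.2 ⟨hq1, hq2, ?_⟩⟩
        have e : T + ((X * 2 ^ q.1 : ℕ) : ℤ) - ((X * 2 ^ q.2 : ℕ) : ℤ)
            = T + X * 2 ^ q.1 - X * 2 ^ q.2 := by push_cast; ring
        rwa [e] at hd
      · right
        obtain ⟨j, rfl⟩ : ∃ j', j = j' + 1 := ⟨j - 1, by omega⟩
        refine ⟨j, mem_range.2 (by omega), mem_filter.2 ⟨hq1, hq2, n, ?_⟩⟩
        have e : T + ((X * 2 ^ q.1 : ℕ) : ℤ) - ((X * 2 ^ q.2 : ℕ) : ℤ)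
            = T + X * 2 ^ q.1 - X * 2 ^ q.2 := by push_cast; ring
        rw [e, Nat.add_sub_cancel] at hn
        exact hn
    refine (card_le_card hsub).trans ((card_union_le _ _).trans ?_)
    have c1 : (Ms.biUnion fun p => (range K ×ˢ range K).filter
              (fun q => q.1 ≠ q.2 ∧ (p : ℤ) ∣ T + X * 2 ^ q.1 - X * 2 ^ q.2)).card ≤ Ms.card * 1 := by
      refine card_biUnion_le_card_mul _ _ _ fun p h => ?_
      rw [card_le_one]
      intro a ha b hb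
      rw [mem_filter, mem_product, mem_range, mem_range] at ha hb
      have := one_mod (hbig p h) (hXp p h) ha.1.1 ha.1.2 hb.1.1 hb.1.2 ha.2.1 ha.2.2 hb.2.2
      exact Prod.ext this.1 this.2
    have c2 : ((range m).biUnion fun j => (range K ×ˢ range K).filter
              (fun q => q.1 ≠ q.2 ∧ ∃ n : ℤ,
                |T + X * 2 ^ q.1 - X * 2 ^ q.2 - Am (j + 1) - n * (((2 ^ k : ℕ) : ℤ)) ^ (j + 1)|
                  ≤ (M : ℤ) * ((2 ^ k : ℕ) : ℤ) ^ j)).card ≤ (range m).card * 1 := by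
      refine card_biUnion_le_card_mul _ _ _ fun j h => ?_
      rw [mem_range] at h
      rw [card_le_one]
      intro a ha b hb
      rw [mem_filter, mem_product, mem_range, mem_range] at ha hb
      obtain ⟨⟨ha1, ha2⟩, ha3, n, ha4⟩ := ha
      obtain ⟨⟨hb1, hb2⟩, hb3, n', hb4⟩ := hb
      have := one_grid hM hG2 (hXG (j + 1) (by omega)) ha1 ha2 hb1 hb2 ha3 ha4 hb4
      exact Prod.ext this.1 this.2
    rw [card_range] at c2
    omega

end Crest.Agent.R320.Thin243
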