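import Crest.Agent.R320.Fc_576
import Crest.Agent.R320.Fd_576
import Crest.Agent.R320.Thin_243
import Crest.Agent.R320.Sch2_596
import Crest.Agent.R320.Hk2_851

/-!
# Row 320: star height three (helper576)

Final assembly: `SemTop_727.top` with the natural block code (walls of `FewVal_228`), scheme 1 =
grid gadget (`Grid_899`), scheme 2 = exact gadget on a ruler (`Sch2_596`, `Thin_243`).
-/

set_option autoImplicit false

namespace Crest.Agent.R320.Fe_576

open Crest.RegLang Crest.Agent.R320.Hk_851 Crest.Agent.R320.Blk467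
open Crest.Agent.R320.Fib_358 Crest.Agent.R320.FewWalls_228 Crest.Agent.R320.SemTop_727
open Crest.Agent.R320.Fb_576

universe u

/-- `k` distinct primes above a bound -/
theorem exists_primes (k B : ℕ) : ∃ (Ms : Finset ℕ) (q : Fin k → ℕ), Ms.card = k ∧
    (∀ p ∈ Ms, p.Prime) ∧ (∀ p ∈ Ms, B < p) ∧ (∀ j, q j ∈ Ms) ∧ Function.Injective q := by
  have h1 : ({p : ℕ | p.Prime} \ {p | p ≤ B}).Infinite :=
    Nat.infinite_setOf_prime.diff (Set.finite_le_nat B)
  obtain ⟨Ms, hs, hc⟩ := h1.exists_subset_card_eq k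
  refine ⟨Ms, fun j => Ms.orderEmbOfFin hc j, hc, fun p hp => (hs hp).1, fun p hp => ?_,
    fun j => Finset.orderEmbOfFin_mem _ _ _, fun a b h => (Ms.orderEmbOfFin hc).injective h⟩
  have := (hs hp).2
  simp only [Set.mem_setOf_eq, not_le] at this
  exact this

theorem clear_of {T A M g : ℕ} {Mi : ℕ} (hMi : Mi = M) (hA : A ≤ T) {Gj : ℕ} (hG : 0 < Gj)
    (h : ∀ i : ℤ, ¬ |(T : ℤ) - A - i * (Gj : ℤ)| ≤ (M : ℤ) * g) :
    Mi * g ≤ (T - A) % Gj ∧ (T - A) % Gj + Mi * g ≤ Gj := by
  subst hMi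
  have hdm := Nat.div_add_mod (T - A) Gj
  have hlt := Nat.mod_lt (T - A) hG
  set d := (T - A) / Gj with hd
  set r := (T - A) % Gj with hr
  have hcast : ((T : ℤ) - A) = (Gj : ℤ) * d + r := by
    have : ((T - A : ℕ) : ℤ) = (T : ℤ) - A := Nat.cast_sub hA
    rw [← this, ← hdm]; push_cast; ring
  constructor
  · by_contra hcon
    push Not at hcon
    apply h d
    rw [hcast, show (Gj : ℤ) * d + r - d * Gj = r by ring, abs_of_nonneg (by positivity)]
    exact_mod_cast hcon.le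
  · by_contra hcon
    push Not at hcon
    apply h (d + 1)
    rw [hcast, show (Gj : ℤ) * d + r - (d + 1) * Gj = (r : ℤ) - Gj by ring, abs_sub_comm,
      abs_of_nonneg (by have : (r : ℤ) < Gj := by exact_mod_cast hlt
                        linarith)]
    have : (Gj : ℤ) < r + Mi * g := by exact_mod_cast hcon
    linarith

theorem height (α : Type u) [Finite α] (Gm : Type u) [Monoid Gm] [Finite Gm] (φ : α → Gm)
    (s : Gm) : HL 3 ({w | (w.map φ).prod = s} : Language α) := by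
  classical
  obtain ⟨act, hadd, hone, hmul, hfaith⟩ := exists_module Gm
  have hph : ∀ u v : List α, ((u ++ v).map φ).prod = (u.map φ).prod * (v.map φ).prod := by
    intro u v; simp
  set ph : List α → Gm := fun w => (w.map φ).prod with hphd
  have hph' : ∀ u v : List α, ph (u ++ v) = ph u * ph v := hph
  obtain ⟨k1, m1, H1⟩ := Fd_576.gadget_key Gm (Gm → ZMod 2) act
  obtain ⟨m2, k2, -, H2⟩ := Sch2_596.exact_ruler Gm (Gm → ZMod 2)
  set C1 := k1 + m1 with hC1
  set Nsp := 1 + 2 * C1 with hNsp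
  set K := m2 * (k2 * (Nsp + 1)) with hK
  obtain ⟨Ms, q, hMc, hMp, hMb, hqM, hqi⟩ := exists_primes k1 (2 ^ (K + 2))
  set M := ∏ j, q j with hM
  have hMpos : 0 < M := Finset.prod_pos fun j _ => (hMp _ (hqM j)).pos
  set κ := M * 2 ^ (K + 6) with hκ
  have h2 : 4 ≤ 2 ^ (K + 2) := by
    calc 4 = 2 ^ 2 := by norm_num
      _ ≤ 2 ^ (K + 2) := Nat.pow_le_pow_right (by norm_num) (by omega)
  have hodd : ∀ j, Odd (q j) := fun j =>
    (hMp _ (hqM j)).odd_of_ne_two (by have := hMb _ (hqM j); omega)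
  have hcop : Pairwise (fun i j => Nat.Coprime (q i) (q j)) := fun i j hij =>
    (Nat.coprime_primes (hMp _ (hqM i)) (hMp _ (hqM j))).2 fun h => hij (hqi h)
  obtain ⟨lam1, rho1, nu1, hl1, hs1, hc1, hk1⟩ := H1 q hodd hcop κ α ph hph'
  rw [← hM] at hl1 hc1 hk1
  set N1 := Grid_899.Am M κ m1 with hN1
  obtain ⟨c, hcm, -, -, hgol, hthin⟩ := Thin243.thin K (2 * N1) Ms M (2 ^ κ) m1 hMp hMb ⟨κ, rfl⟩
    Nat.lt_two_pow_self hMpos
  set p0 := c K with hp0
  have hcp : ∀ k < K, c k ≤ p0 := fun k hk => hcm.monotone hk.le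
  obtain ⟨lam2, hl2, H2'⟩ := H2 α ph hph' Nsp c p0 hcm hcp
  obtain ⟨rho2, nu2, hs2, hc2⟩ := H2' act
  obtain ⟨n, cc, P, S, hn, hP, hSl, hgap, hper, -⟩ :=
    FewVal_228.exists_walls α (2 * (p0 + N1) + 1) (by omega)
  set Lm := 2 * Grid_899.Am M κ (m1 + 1) with hLm
  set z := 2 * p0 + 2 * N1 + n + Lm with hz
  set BZ : ℤ → Prop := Thin243.BadG Ms M (2 ^ κ) m1 (fun j => (Grid_899.Am M κ j : ℤ)) with hBZ
  have hcomp : ∀ Y : List α, Lm ≤ Y.length → ¬ BZ (Y.length : ℤ) → ∀ v, ∃ P Q, Y = P ++ Q ∧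
      lam1 P = some v ∧ (rho1 Q).isSome := by
    intro Y hY hB
    refine hc1 Y hY ?_ ?_
    · intro j hj
      exact hB (Or.inl ⟨q j, hqM j, by exact_mod_cast hj⟩)
    · intro j hj1 hj2
      have hAle : Grid_899.Am M κ j ≤ Y.length := by
        have : Grid_899.Am M κ j ≤ Grid_899.Am M κ (m1 + 1) := Grid_899.Am_mono (by omega)
        omega
      refine clear_of (M := M) rfl hAle (Grid_899.G_pos j) ?_
      intro i hi
      apply hB
      refine Or.inr ⟨j, hj1, hj2, i, ?_⟩
      have e1 : ((2 ^ κ : ℕ) : ℤ) ^ j = (Grid_899.G κ j : ℤ) := by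
        have : (2 ^ κ) ^ j = Grid_899.G κ j := (pow_mul 2 κ j).symm
        rw [← this]; exact (Nat.cast_pow _ _).symm
      have e2 : ((2 ^ κ : ℕ) : ℤ) ^ (j - 1) = (Grid_899.G κ (j - 1) : ℤ) := by
        have : (2 ^ κ) ^ (j - 1) = Grid_899.G κ (j - 1) := (pow_mul 2 κ (j - 1)).symm
        rw [← this]; exact (Nat.cast_pow _ _).symm
      rw [e1, e2]
      exact hi
  have hwgap : ∀ (w : List α) (s t : ℕ), (s ≤ w.length ∧ EndW n S (w.take s)) →
      (t ≤ w.length ∧ EndW n S (w.take t)) → s < t → s + (2 * (p0 + N1) + 1) ≤ t := by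
    rintro w s t ⟨s1, s2, s3⟩ ⟨t1, t2, t3⟩ hst
    rw [List.length_take, min_eq_left s1] at s2 s3
    rw [List.length_take, min_eq_left t1] at t2 t3
    have a1 : Wl n S w (s - n) := by
      refine ⟨by omega, ?_⟩
      rw [List.drop_take, show s - (s - n) = n by omega] at s3
      exact s3
    have a2 : Wl n S w (t - n) := by
      refine ⟨by omega, ?_⟩
      rw [List.drop_take, show t - (t - n) = n by omega] at t3
      exact t3
    have := hgap w (s - n) (t - n) (by omega) a1 a2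
    omega
  have hthin' : ∀ T : ℤ, ((Finset.range K ×ˢ Finset.range K).filter
      (fun q => q.1 ≠ q.2 ∧ BZ (T + c q.1 - c q.2))).card ≤ C1 := by
    intro T
    have := hthin (fun j => (Grid_899.Am M κ j : ℤ)) T
    rw [hMc] at this
    refine le_trans (le_of_eq ?_) this
    congr!
  let D := DD ph act p0 n z S nu1 nu2 lam1 lam2
  have hC2 := hC2 (act := act) (z := z) (S := S) (n := n) (BZ := BZ) (Lm := Lm) (K := K)
    (Nsp := Nsp) (c := c) (N1 := N1) hs1 hl1 hcomp
    (fun P Q v b h a b' => hs2 P Q v b h a b') hl2 hc2 hcp (fun w => by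
      refine le_trans (le_of_eq ?_) (Fa_576.spoil K z p0 N1 C1 c
        (fun u => u ≤ w.length ∧ EndW n S (w.take u)) BZ (hwgap w) hcp hgol ?_)
      · congr!
      · intro T
        refine le_trans (le_of_eq ?_) (hthin' T)
        congr!) le_rfl
  have hT : ∀ v X, D.T v X = act v (X.map φ).prod +
      (act (nu2 (X.take p0)) (ph (X.drop p0)) + nu1 (X.drop p0)) := by
    intro v X
    show act (act v (ph (X.take p0)) + nu2 (X.take p0)) (ph (X.drop p0)) + nu1 (X.drop p0) = _
    rw [hadd, ← hmul, ← hph', List.take_append_drop, add_assoc]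
  have hpc : PCode D.XX := by
    refine ⟨nil_notMem hn, fun X hX Y hY hXY => ?_⟩
    obtain ⟨r, rfl⟩ := hXY
    have := XX_pc X hX r hY
    rw [this, List.append_nil]
  refine top (k := 1) act hadd hone hmul hfaith φ
    (fun X => act (nu2 (X.take p0)) (ph (X.drop p0)) + nu1 (X.drop p0)) D hT hpc ?_ ?_ ?_ hC2 ?_ s
  · intro x y
    exact hXT hn hP hSl hper ph hph' act p0 _ (M * Grid_899.G κ m1)
      (Nat.mul_pos hMpos (Grid_899.G_pos m1)) nu1 nu2 hk1 x y
  · intro x
    refine (List.finite_length_le α (p0 + N1)).subset ?_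
    rintro P ⟨h1, h2⟩
    have := hl1 _ _ h2
    rw [List.length_drop] at this
    show P.length ≤ p0 + N1
    omega
  · intro x
    refine (List.finite_length_le α p0).subset ?_
    intro P hP
    obtain ⟨j, hj, hj2⟩ := hl2 P x hP
    show P.length ≤ p0
    rw [hj2]; exact hcp j hj
  · intro a
    exact (hNP hn hP hSl hper ph hph' a).mono (by omega)

theorem result (α : Type u) [Finite α] (L : Language α) (hL : L.IsRegular) :
    ∃ e : GRegExp α, e.height ≤ 3 ∧ e.lang = L :=
  of_monoid (fun S _ _ f s => height α S f s) L hL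

end Crest.Agent.R320.Fe_576
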