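import Crest.Agent.R320.Pump_360

/-!
# Row 320: words with few counted positions are bounded products of powers (helper383)

706 #12838 (C3).  A position `t` of `w` is UNCOUNTED iff the window `w[t, t + R0]` exists and has
a period `≤ p0`, COUNTED iff the window exists and has no period `≤ p0`.  A word with at most `m`
counted positions is a product of at most `2 m + 2` pieces `f ++ x ^ k` with `|f| ≤ R0 + p0!`,
`|x| ≤ p0!`.
-/

set_option autoImplicit false

namespace Crest.Agent.R320.Few_383

open Crest.Agent.R320.Pump_360

universe u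

variable {α : Type u}

/-- the window `Q[0, R0]` exists and has a period `≤ p0` -/
def Unc (p0 R0 : ℕ) (Q : List α) : Prop :=
  R0 < Q.length ∧ ∃ p, 0 < p ∧ p ≤ p0 ∧ ∀ i, i + p ≤ R0 → Q[i]? = Q[i + p]?

/-- the window exists and has no period `≤ p0` -/
def Cnt (p0 R0 : ℕ) (Q : List α) : Prop := R0 < Q.length ∧ ¬ Unc p0 R0 Q

/-- at most `m` counted positions -/
def Few (p0 R0 m : ℕ) (w : List α) : Prop :=
  ∀ T : Finset ℕ, (∀ t ∈ T, Cnt p0 R0 (w.drop t)) → T.card ≤ m

theorem Few.mono {p0 R0 m m' : ℕ} {w : List α} (h : Few p0 R0 m w) (hm : m ≤ m') :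
    Few p0 R0 m' w := fun T hT => (h T hT).trans hm

theorem few_of_card (p0 R0 m : ℕ) (w : List α)
    [DecidablePred fun t => Cnt p0 R0 (w.drop t)]
    (h : ((Finset.range w.length).filter fun t => Cnt p0 R0 (w.drop t)).card ≤ m) :
    Few p0 R0 m w := by
  intro T hT
  refine (Finset.card_le_card ?_).trans h
  intro t ht
  have h1 := hT t ht
  refine Finset.mem_filter.2 ⟨Finset.mem_range.2 ?_, h1⟩
  have h2 := h1.1
  rw [List.length_drop] at h2
  omega

theorem Few.drop {p0 R0 m : ℕ} {w : List α} (h : Few p0 R0 m w) (s : ℕ) :
    Few p0 R0 m (w.drop s) := by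
  intro T hT
  have h1 := h (T.map ⟨fun t => s + t, fun a b hab => by simpa using hab⟩) ?_
  · rwa [Finset.card_map] at h1
  · intro t ht
    obtain ⟨a, ha, rfl⟩ := Finset.mem_map.1 ht
    have := hT a ha
    rw [List.drop_drop] at this
    exact this

/-- after a counted position one less is left -/
theorem Few.drop_succ {p0 R0 m : ℕ} {w : List α} (h : Few p0 R0 (m + 1) w) {s : ℕ}
    (hs : Cnt p0 R0 (w.drop s)) : Few p0 R0 m (w.drop (s + 1)) := by
  intro T hT
  have h1 := h (insert s (T.map ⟨fun t => s + 1 + t, fun a b hab => by simpa using hab⟩)) ?_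
  · rw [Finset.card_insert_of_notMem, Finset.card_map] at h1
    · omega
    · intro hmem
      obtain ⟨a, -, ha⟩ := Finset.mem_map.1 hmem
      simp only [Function.Embedding.coeFn_mk] at ha
      omega
  · intro t ht
    rcases Finset.mem_insert.1 ht with rfl | ht
    · exact hs
    · obtain ⟨a, ha, rfl⟩ := Finset.mem_map.1 ht
      have := hT a ha
      rw [List.drop_drop] at this
      exact this

theorem per_mul {Q : List α} {p R0 : ℕ} (h : ∀ i, i + p ≤ R0 → Q[i]? = Q[i + p]?) (k : ℕ) :
    ∀ i, i + k * p ≤ R0 → Q[i]? = Q[i + k * p]? := by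
  induction k with
  | zero => intro i _; rw [Nat.zero_mul, Nat.add_zero]
  | succ k ih =>
    intro i hi
    rw [Nat.succ_mul] at hi ⊢
    rw [ih i (by omega), h (i + k * p) (by omega)]
    congr 1
    omega

/-- the common period `p0!` -/
theorem Unc.head {p0 R0 : ℕ} {Q : List α} (hR : p0.factorial ≤ R0) (h : Unc p0 R0 Q) :
    Q[0]? = Q[p0.factorial]? := by
  obtain ⟨-, p, hp, hp', h1⟩ := h
  obtain ⟨k, hk⟩ := Nat.dvd_factorial hp hp'
  have h2 := per_mul h1 k 0 (by rw [Nat.zero_add, Nat.mul_comm, ← hk]; exact hR)
  rw [Nat.zero_add, Nat.mul_comm, ← hk] at h2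
  exact h2

theorem pw_of_per (P : ℕ) : ∀ (q : ℕ) (w : List α),
    (∀ t < q * P, w[t]? = w[t + P]?) → w = pw (w.take P) q ++ w.drop (q * P) := by
  intro q
  induction q with
  | zero => intro w _; rw [pw_zero, Nat.zero_mul, List.drop_zero, List.nil_append]
  | succ q ih =>
    intro w h
    have h1 : (w.drop P).take P = w.take P := by
      apply List.ext_getElem?
      intro i
      by_cases hi : i < P
      · rw [List.getElem?_take_of_lt hi, List.getElem?_take_of_lt hi, List.getElem?_drop,
          Nat.add_comm P i]
        refine (h i ?_).symm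
        rw [Nat.succ_mul]
        omega
      · rw [List.getElem?_eq_none (by rw [List.length_take]; omega),
          List.getElem?_eq_none (by rw [List.length_take]; omega)]
    have h2 := ih (w.drop P) (by
      intro t ht
      rw [List.getElem?_drop, List.getElem?_drop]
      have := h (P + t) (by rw [Nat.succ_mul]; omega)
      rw [this]
      congr 1
      omega)
    rw [h1, List.drop_drop] at h2
    rw [pw_succ, List.append_assoc]
    have h3 : (q + 1) * P = P + q * P := by rw [Nat.succ_mul]; omega
    rw [h3, ← h2, List.take_append_drop]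

/-- all positions `< s` uncounted and the last window inside: a power, then a short rest -/
theorem run_of_unc {p0 R0 : ℕ} (hR : p0.factorial ≤ R0) (w : List α) (s : ℕ)
    (hs : s + R0 ≤ w.length) (h : ∀ t < s, ¬ Cnt p0 R0 (w.drop t)) :
    w = pw (w.take p0.factorial) (s / p0.factorial) ++
      w.drop (s / p0.factorial * p0.factorial) := by
  apply pw_of_per
  intro t ht
  have h0 : t < s := lt_of_lt_of_le ht (Nat.div_mul_le_self _ _)
  have h1 : R0 < (w.drop t).length := by rw [List.length_drop]; omega
  have h2 : Unc p0 R0 (w.drop t) := by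
    by_contra hc
    exact h t h0 ⟨h1, hc⟩
  have h3 := h2.head hR
  rw [List.getElem?_drop, List.getElem?_drop, Nat.add_zero] at h3
  exact h3

/-- (C3) of 706: few counted positions = bounded product of powers -/
theorem few_val {p0 R0 : ℕ} (hR : p0.factorial ≤ R0) : ∀ (m : ℕ) (w : List α),
    Few p0 R0 m w →
    ∃ l : List (List α × List α × ℕ), l.length ≤ 2 * m + 2 ∧
      (∀ t ∈ l, t.1.length ≤ R0 + p0.factorial ∧ t.2.1.length ≤ p0.factorial) ∧
      w = val l := by
  have hP : 0 < p0.factorial := Nat.factorial_pos p0
  -- no counted position at all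
  have hnone : ∀ w : List α, (∀ t, ¬ Cnt p0 R0 (w.drop t)) →
      ∃ l : List (List α × List α × ℕ), l.length ≤ 2 ∧
      (∀ t ∈ l, t.1.length ≤ R0 + p0.factorial ∧ t.2.1.length ≤ p0.factorial) ∧
      w = val l := by
    intro w hw
    by_cases hlen : w.length ≤ R0
    · refine ⟨[(w, [], 0)], by simp, ?_, ?_⟩
      · intro t ht
        rw [List.mem_singleton.1 ht]
        exact ⟨by simp only; omega, by simp⟩
      · rw [val_cons, val_nil]
        simp [pw_zero]
    · have hn : w.length - R0 + R0 ≤ w.length := by omega
      have h1 := run_of_unc hR w (w.length - R0) hn (fun t _ => hw t)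
      set q := (w.length - R0) / p0.factorial with hq
      refine ⟨[([], w.take p0.factorial, q), (w.drop (q * p0.factorial), [], 0)],
        by simp, ?_, ?_⟩
      · intro t ht
        rcases List.mem_cons.1 ht with rfl | ht
        · refine ⟨by simp, ?_⟩
          simp only [List.length_take]
          omega
        · rw [List.mem_singleton.1 ht]
          refine ⟨?_, by simp⟩
          simp only [List.length_drop]
          have h2 := Nat.div_add_mod (w.length - R0) p0.factorial
          have h3 := Nat.mod_lt (w.length - R0) hP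
          rw [← hq, Nat.mul_comm] at h2
          omega
      · rw [val_cons, val_cons, val_nil]
        simp only [pw_zero, List.nil_append, List.append_nil]
        exact h1
  intro m
  induction m with
  | zero =>
    intro w hw
    refine hnone w fun t ht => ?_
    have := hw {t} (fun a ha => by rw [Finset.mem_singleton.1 ha]; exact ht)
    rw [Finset.card_singleton] at this
    omega
  | succ m ih =>
    intro w hw
    by_cases hex : ∃ t, Cnt p0 R0 (w.drop t)
    · classical
      obtain ⟨s, hs, hmin⟩ : ∃ s, Cnt p0 R0 (w.drop s) ∧ ∀ t < s, ¬ Cnt p0 R0 (w.drop t) :=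
        ⟨Nat.find hex, Nat.find_spec hex, fun t ht => Nat.find_min hex ht⟩
      have hlen := hs.1
      rw [List.length_drop] at hlen
      have h1 := run_of_unc hR w s (by omega) hmin
      obtain ⟨l, hl1, hl2, hl3⟩ := ih _ (hw.drop_succ hs)
      set q := s / p0.factorial with hq
      have h2 := Nat.div_add_mod s p0.factorial
      have h3 := Nat.mod_lt s hP
      rw [← hq, Nat.mul_comm] at h2
      have h4 : w.drop (q * p0.factorial) =
          (w.drop (q * p0.factorial)).take (s + 1 - q * p0.factorial) ++ w.drop (s + 1) := by
        have h5 : w.drop (s + 1) =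
            (w.drop (q * p0.factorial)).drop (s + 1 - q * p0.factorial) := by
          rw [List.drop_drop]
          congr 1
          omega
        rw [h5, List.take_append_drop]
      refine ⟨([], w.take p0.factorial, q) ::
        ((w.drop (q * p0.factorial)).take (s + 1 - q * p0.factorial), [], 0) :: l, ?_, ?_, ?_⟩
      · simp only [List.length_cons]
        omega
      · intro t ht
        rcases List.mem_cons.1 ht with rfl | ht
        · refine ⟨by simp, ?_⟩
          simp only [List.length_take]
          omega
        rcases List.mem_cons.1 ht with rfl | ht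
        · refine ⟨?_, by simp⟩
          simp only [List.length_take]
          omega
        · exact hl2 t ht
      · rw [val_cons, val_cons, ← hl3]
        simp only [pw_zero, List.nil_append, List.append_nil]
        rw [← h4]
        exact h1
    · obtain ⟨l, hl1, hl2, hl3⟩ := hnone w (fun t ht => hex ⟨t, ht⟩)
      exact ⟨l, by omega, hl2, hl3⟩

end Crest.Agent.R320.Few_383
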