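import Crest.Agent.R320.Reg_852
import Crest.Agent.R320.CompR_11

/-!
# Row 320: the block code of the natural chain on all words (helper989)

`XX Wo z` = words which end in a wall at a place `≥ z` and have no earlier wall at a place `≥ z`
(left-looking walls `Wo`).  Star-free, prefix code, and every zone is made of boundedly many pieces,
so that zone maps which read only a bounded prefix, the length modulo `Pm` and the product have
height one: `hl_XT`, `hl_NB` (= `hXT`, `hNP` of 163's top).
-/

set_option autoImplicit false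

namespace Crest.Agent.R320.Few_989

open Crest.RegLang Crest.Agent.R320.Hk_851 Crest.Agent.R320.Pump_360 Crest.Agent.R320.CompR_11

universe u

variable {α : Type u}

/-- the block code -/
def XX (Wo : List α → Prop) (z : ℕ) : Set (List α) :=
  {X | Wo X ∧ z ≤ X.length ∧ ∀ t, z ≤ t → t < X.length → ¬ Wo (X.take t)}

/-- left-looking rule of window `n` -/
structure IsW (Wo : List α → Prop) (n : ℕ) : Prop where
  loc : ∀ P Q : List α, n ≤ Q.length → (Wo (P ++ Q) ↔ Wo Q)
  len : ∀ P : List α, Wo P → n ≤ P.length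

theorem nil_notMem {Wo : List α → Prop} {z : ℕ} (hz : 0 < z) : ([] : List α) ∉ XX Wo z := by
  rintro ⟨-, h, -⟩
  simp at h; omega

theorem pcode {Wo : List α → Prop} {z : ℕ} {X : List α} (hX : X ∈ XX Wo z) (Y : List α)
    (hY : X ++ Y ∈ XX Wo z) : Y = [] := by
  by_contra h
  have hl : 0 < Y.length := List.length_pos_of_ne_nil h
  refine hY.2.2 X.length hX.2.1 (by simp; omega) ?_
  rw [List.take_left']
  · exact hX.1
  · rfl

theorem hlW [Finite α] {k : ℕ} {Wo : List α → Prop} {n : ℕ} (hW : IsW Wo n) :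
    HL k ({X | Wo X} : Language α) := by
  have h1 : HL k ({v : List α | v.length = n ∧ Wo v} : Language α) :=
    HL.finite ((List.finite_length_eq α n).subset fun v hv => hv.1)
  refine h1.suffix.congr fun w => ?_
  constructor
  · intro hw
    have hw' : Wo w := hw
    have hl := hW.len w hw'
    refine ⟨w.drop (w.length - n), ⟨?_, ?_⟩, List.drop_suffix _ _⟩
    · rw [List.length_drop]; omega
    · have := hW.loc (w.take (w.length - n)) (w.drop (w.length - n))
        (by rw [List.length_drop]; omega)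
      rw [List.take_append_drop] at this
      exact this.1 hw'
  · rintro ⟨v, ⟨hv1, hv2⟩, P, rfl⟩
    exact (hW.loc P v (by omega)).2 hv2

theorem hlXX [Finite α] {k : ℕ} {Wo : List α → Prop} {n : ℕ} (hW : IsW Wo n) (z : ℕ) :
    HL k (XX Wo z : Language α) := by
  have h1 : HL k ({X | Wo X ∧ z ≤ X.length} : Language α) :=
    HL.setOf_and (hlW hW) (HL.length_ge z)
  have h2 := h1.mul (HL.length_ge (α := α) (k := k) 1)
  refine (h1.inf h2.compl).congr fun w => ?_
  constructor
  · rintro ⟨a, b, c⟩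
    refine ⟨⟨a, b⟩, ?_⟩
    rintro ⟨x, ⟨hx1, hx2⟩, y, hy, rfl⟩
    have hy' : 1 ≤ y.length := hy
    refine c x.length hx2 (by simp only [List.length_append]; omega) ?_
    rw [List.take_left']
    · exact hx1
    · rfl
  · rintro ⟨⟨a, b⟩, c⟩
    refine ⟨a, b, fun t h1 h2 h3 => c ⟨w.take t, ⟨h3, ?_⟩, w.drop t, ?_, List.take_append_drop _ _⟩⟩
    · rw [List.length_take]; omega
    · show 1 ≤ (w.drop t).length
      rw [List.length_drop]; omega

theorem exists_prefix {Wo : List α → Prop} {z : ℕ} {r : List α} {t : ℕ} (h1 : z ≤ t)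
    (h2 : t ≤ r.length) (h3 : Wo (r.take t)) : ∃ X ∈ XX Wo z, X <+: r := by
  classical
  have hex : ∃ t, z ≤ t ∧ t ≤ r.length ∧ Wo (r.take t) := ⟨t, h1, h2, h3⟩
  obtain ⟨a, b, c⟩ := Nat.find_spec hex
  refine ⟨r.take (Nat.find hex), ⟨c, ?_, fun s hs1 hs2 hs3 => ?_⟩, List.take_prefix _ _⟩
  · rw [List.length_take]; omega
  · rw [List.length_take] at hs2
    rw [List.take_take, min_eq_left (by omega)] at hs3
    exact Nat.find_min hex (m := s) (by omega) ⟨hs1, by omega, hs3⟩

theorem pieces_drop {Wo : List α → Prop} {n z R B : ℕ} (hW : IsW Wo n)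
    (hP : ∀ u : List α, (∀ t < u.length, ¬ Wo (u.take t)) → Pieces R B u) {X : List α}
    (h : ∀ t, z ≤ t → t < X.length → ¬ Wo (X.take t)) :
    Pieces (R + 1) (max B z) X := by
  have h1 : ∀ t < (X.drop z).length, ¬ Wo ((X.drop z).take t) := by
    intro t ht hw
    have hn := hW.len _ hw
    rw [List.length_drop] at ht
    refine h (z + t) (by omega) (by omega) ?_
    rw [List.take_add]
    exact (hW.loc _ _ hn).2 hw
  obtain ⟨l, hl1, hl2, hl3⟩ := hP _ h1
  refine ⟨(X.take z, [], 0) :: l, by simp; omega, ?_, ?_⟩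
  · intro t ht
    rcases List.mem_cons.1 ht with rfl | ht
    · refine ⟨?_, by simp⟩
      show (X.take z).length ≤ _
      rw [List.length_take]
      exact (min_le_left _ _).trans (le_max_right _ _)
    · exact ⟨(hl2 t ht).1.trans (le_max_left _ _), (hl2 t ht).2.trans (le_max_left _ _)⟩
  · rw [val_cons]
    show X = X.take z ++ pw [] 0 ++ val l
    rw [← hl3, pw_zero, List.append_nil, List.take_append_drop]

theorem phi_prod {S : Type*} [Monoid S] {φ : List α → S} (h1 : φ [] = 1)
    (h2 : ∀ u v, φ (u ++ v) = φ u * φ v) (w : List α) : φ w = (w.map fun a => φ [a]).prod := by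
  induction w with
  | nil => simpa using h1
  | cons a w ih =>
    rw [List.map_cons, List.prod_cons, ← ih, ← h2]; rfl

theorem reg_phi {S : Type*} [Monoid S] [Finite S] {φ : List α → S} (h1 : φ [] = 1)
    (h2 : ∀ u v, φ (u ++ v) = φ u * φ v) (s : S) : Language.IsRegular ({w | φ w = s} : Language α) := by
  have := Reg_852.isRegular_prod (fun a => φ [a]) s
  have e : ({w | φ w = s} : Language α) = ({w | (w.map fun a => φ [a]).prod = s} : Language α) := by
    ext w
    show φ w = s ↔ (w.map fun a => φ [a]).prod = s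
    rw [← phi_prod h1 h2]
  rw [e]; exact this

/-- words without a block prefix, with given product -/
theorem hl_NB [Finite α] {Wo : List α → Prop} {n z R B : ℕ} (hW : IsW Wo n)
    (hP : ∀ u : List α, (∀ t < u.length, ¬ Wo (u.take t)) → Pieces R B u)
    {S : Type*} [Monoid S] [Finite S] {φ : List α → S} (h1 : φ [] = 1)
    (h2 : ∀ u v, φ (u ++ v) = φ u * φ v) (s : S) :
    HL 1 ({r | (∀ X ∈ XX Wo z, ¬ X <+: r) ∧ φ r = s} : Language α) := by
  have h3 : HL 0 ({r | ∀ X ∈ XX Wo z, ¬ X <+: r} : Language α) := by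
    refine (hlXX hW z).prefix.compl.congr fun w => ?_
    constructor
    · rintro h ⟨v, hv, hvw⟩; exact h v hv hvw
    · intro h X hX hXw; exact h ⟨X, hX, hXw⟩
  have h4 := Language.IsRegular.inf (Reg_852.HL.isRegular h3) (reg_phi h1 h2 s)
  refine RegBd_11.reg_pieces h4 (R + 1) (max B z) fun w hw => ?_
  refine pieces_drop hW hP fun t ht1 ht2 ht3 => ?_
  obtain ⟨X, hX, hXw⟩ := exists_prefix (z := z) ht1 ht2.le ht3
  exact hw.1 X hX hXw

/-- zone maps which read a bounded prefix, the product and the length modulo `Pm` -/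
theorem hl_XT [Finite α] {Wo : List α → Prop} {n z R B : ℕ} (hW : IsW Wo n)
    (hP : ∀ u : List α, (∀ t < u.length, ¬ Wo (u.take t)) → Pieces R B u)
    {S : Type*} [Monoid S] [Finite S] {φ : List α → S} (h1 : φ [] = 1)
    (h2 : ∀ u v, φ (u ++ v) = φ u * φ v) {V : Type*} (T : V → List α → V) {z1 Pm : ℕ}
    (hz : z1 ≤ z) (hPm : 0 < Pm)
    (key : ∀ X X' : List α, z1 ≤ X.length → z1 ≤ X'.length → X.take z1 = X'.take z1 →
      X.length % Pm = X'.length % Pm → φ (X.drop z1) = φ (X'.drop z1) → ∀ v, T v X = T v X')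
    (v v' : V) : HL 1 ({X | X ∈ XX Wo z ∧ T v X = v'} : Language α) := by
  classical
  haveI : NeZero Pm := ⟨by omega⟩
  let S' := S × Multiplicative (ZMod Pm)
  let ψ : List α → S' := fun w => (φ w, Multiplicative.ofAdd ((w.length : ℕ) : ZMod Pm))
  have hψ1 : ψ [] = 1 := by
    show (φ [], Multiplicative.ofAdd (((0 : ℕ)) : ZMod Pm)) = 1
    rw [h1]; simp
  have hψ2 : ∀ u v, ψ (u ++ v) = ψ u * ψ v := by
    intro u v
    show (φ (u ++ v), Multiplicative.ofAdd (((u ++ v).length : ℕ) : ZMod Pm)) =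
      (φ u * φ v, Multiplicative.ofAdd ((u.length : ℕ) : ZMod Pm) *
        Multiplicative.ofAdd ((v.length : ℕ) : ZMod Pm))
    rw [h2, List.length_append, Nat.cast_add, ofAdd_add]
  haveI : Finite (Multiplicative (ZMod Pm)) := inferInstanceAs (Finite (ZMod Pm))
  haveI : Finite S' := inferInstanceAs (Finite (S × Multiplicative (ZMod Pm)))
  let sing : List α → Language α := fun u => {u}
  let fib : S' → Language α := fun τ => {w | ψ w = τ}
  let piece : List α × S' → Language α := fun τ => {X | X ∈ XX Wo z ∧ X ∈ sing τ.1 * fib τ.2}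
  have hpiece : ∀ τ, HL 1 (piece τ) := by
    intro τ
    have h4 : Language.IsRegular ((XX Wo z : Language α) ⊓ (sing τ.1 * fib τ.2)) :=
      Language.IsRegular.inf (Reg_852.HL.isRegular (hlXX (k := 0) hW z))
        (Reg_852.IsRegular.mul (Reg_852.HL.isRegular (HL.word (k := 0) τ.1)) (reg_phi hψ1 hψ2 τ.2))
    exact RegBd_11.reg_pieces h4 (R + 1) (max B z) fun w hw => pieces_drop hW hP hw.1.2.2
  let D : Set (List α × S') := {τ | τ.1.length = z1 ∧ ∃ U : List α, ψ U = τ.2 ∧ T v (τ.1 ++ U) = v'}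
  have hD : D.Finite := by
    refine ((List.finite_length_eq α z1).prod (Set.finite_univ (α := S'))).subset ?_
    rintro ⟨a, b⟩ h
    exact ⟨h.1, trivial⟩
  refine (HL.biUnion hD fun τ _ => hpiece τ).congr fun X => ?_
  constructor
  · rintro ⟨hX, hT⟩
    have hl : z1 ≤ X.length := hz.trans hX.2.1
    show ∃ τ ∈ D, X ∈ piece τ
    refine ⟨(X.take z1, ψ (X.drop z1)), ⟨?_, X.drop z1, rfl, ?_⟩, hX, ?_⟩
    · show (X.take z1).length = z1
      rw [List.length_take]; omega
    · show T v (X.take z1 ++ X.drop z1) = v'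
      rw [List.take_append_drop]; exact hT
    · exact ⟨X.take z1, rfl, X.drop z1, rfl, List.take_append_drop _ _⟩
  · intro h
    have h' : ∃ τ ∈ D, X ∈ piece τ := h
    obtain ⟨τ, ⟨hτ1, U, hU1, hU2⟩, hX, a, ha, b, hb, hab⟩ := h'
    have ha' : a = τ.1 := ha
    have hb' : ψ b = τ.2 := hb
    have hab' : a ++ b = X := hab
    refine ⟨hX, ?_⟩
    rw [← hU2, ← hab', ha']
    have hψ : ψ b = ψ U := hb'.trans hU1.symm
    have e1 : φ b = φ U := congrArg Prod.fst hψ
    have e2 : ((b.length : ℕ) : ZMod Pm) = ((U.length : ℕ) : ZMod Pm) :=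
      Multiplicative.ofAdd.injective (congrArg Prod.snd hψ)
    have e3 : b.length % Pm = U.length % Pm := (ZMod.natCast_eq_natCast_iff' _ _ _).1 e2
    apply key
    · rw [List.length_append]; omega
    · rw [List.length_append]; omega
    · rw [List.take_left' hτ1, List.take_left' hτ1]
    · rw [List.length_append, List.length_append, Nat.add_mod, e3, ← Nat.add_mod]
    · rw [List.drop_left' hτ1, List.drop_left' hτ1]; exact e1

end Crest.Agent.R320.Few_989
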