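import Crest.Agent.R320.Top5_467
import Crest.Agent.R320.C2_545

/-!
# Row 320: semantic top (helper545)
-/

set_option autoImplicit false

namespace Crest.Agent.R320.Top_545

open Crest.RegLang Crest.Agent.R320.Hk_851 Crest.Agent.R320.Blk467 Crest.Agent.R320.Top5_467
  Crest.Agent.R320.C2_545

variable {α V : Type} [Finite V]

/-- HL of `{Q | ∀ x, ∀ P ∈ L x, P ++ Q ∈ M}` -/
theorem HL_quot {k : ℕ} (L : V → Set (List α)) (hL : ∀ v, (L v).Finite)
    (M : V → Language α) (hM : ∀ v, HL k (M v)) :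
    HL k ({Q | ∀ x, ∀ P ∈ L x, P ++ Q ∈ M x} : Language α) :=
  HL.iInter (L := fun x => ({Q | ∀ P ∈ L x, P ++ Q ∈ M x} : Language α)) fun x =>
    HL.biInter (L := fun P => ({Q | P ++ Q ∈ M x} : Language α)) (hL x) fun P _ => (hM x).lquot P

theorem HL_R1 {k : ℕ} {C : Set (List α)} {T : V → List α → V} {L1 : V → Set (List α)}
    (hL1 : ∀ v, (L1 v).Finite)
    (hfib : ∀ x y, HL k ({X | X ∈ C ∧ T x X = y} : Language α)) (y : V) :
    HL k (R1 C T L1 y : Language α) :=
  (HL_quot L1 hL1 (fun x => ({X | X ∈ C ∧ T x X = y} : Language α)) (fun x => hfib x y)).congr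
    fun w => Iff.rfl

theorem HL_Good {k : ℕ} {C : Set (List α)} {T : V → List α → V} {L1 : V → Set (List α)}
    (hL1 : ∀ v, (L1 v).Finite) (hC : HL k (C : Language α))
    (hfib : ∀ x y, HL k ({X | X ∈ C ∧ T x X = y} : Language α)) :
    HL k (Good C T L1 : Language α) := by
  let A : V → Language α := fun x => L1 x
  let B : V → Language α := fun y => R1 C T L1 y
  let E : V → V → Language α := fun x y => {X | X ∈ C ∧ T x X = y}
  have h1 : HL k ({X | ∀ x : V, X ∈ ({X | ∃ y : V, X ∈ (E x y ⊓ (A x * B y))} : Language α)} :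
      Language α) := by
    refine HL.iInter (L := fun x => ({X | ∃ y : V, X ∈ (E x y ⊓ (A x * B y))} : Language α))
      fun x => ?_
    refine HL.iUnion (L := fun y => (E x y ⊓ (A x * B y))) fun y => ?_
    exact (hfib x y).inf ((HL.finite (hL1 x)).mul (HL_R1 hL1 hfib y))
  refine (hC.inf h1).congr fun w => ?_
  constructor
  · rintro ⟨hw, h⟩
    refine ⟨hw, fun x => ?_⟩
    obtain ⟨P, hP, Q, hQ, e⟩ := h x
    exact ⟨T x w, ⟨hw, rfl⟩, Language.mem_mul.2 ⟨P, hP, Q, hQ, e⟩⟩
  · rintro ⟨hw, h⟩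
    refine ⟨hw, fun x => ?_⟩
    obtain ⟨y, ⟨_, h2⟩, h3⟩ := h x
    obtain ⟨P, hP, Q, hQ, e⟩ := Language.mem_mul.1 h3
    exact ⟨P, hP, Q, by rw [h2]; exact hQ, e⟩

theorem HL_Bad {k : ℕ} {C : Set (List α)} {T : V → List α → V} {L1 : V → Set (List α)}
    (hL1 : ∀ v, (L1 v).Finite) (hC : HL k (C : Language α))
    (hfib : ∀ x y, HL k ({X | X ∈ C ∧ T x X = y} : Language α)) :
    HL k (Bad C T L1 : Language α) :=
  (hC.inf (HL_Good hL1 hC hfib).compl).congr fun w => Iff.rfl

theorem HL_R2 {k : ℕ} {C : Set (List α)} {T : V → List α → V} {L1 L2 : V → Set (List α)}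
    (hL1 : ∀ v, (L1 v).Finite) (hL2 : ∀ v, (L2 v).Finite) (hC : HL k (C : Language α))
    (hfib : ∀ x y, HL k ({X | X ∈ C ∧ T x X = y} : Language α)) (y : V) :
    HL k (R2 C T L1 L2 y : Language α) := by
  let D : V → V → Language α := fun a b => (Bad C T L1 : Language α) ⊓
    ({X | X ∈ C ∧ T a X = b} : Language α)
  have hD : ∀ a b, HL k (D a b) := fun a b => (HL_Bad hL1 hC hfib).inf (hfib a b)
  let M : V → Language α := fun x =>
    ({w | ∃ a : V, w ∈ (D x a * D a y : Language α)} : Language α) ⊔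
      ({w | ∃ X ∈ (Good C T L1 : Language α), X <+: w} : Language α)
  have hM : ∀ x, HL k (M x) := fun x =>
    (HL.iUnion (L := fun a => (D x a * D a y : Language α)) fun a => (hD x a).mul (hD a y)).sup
      (HL_Good hL1 hC hfib).prefix
  refine (HL_quot L2 hL2 M hM).congr fun w => ?_
  constructor
  · intro h x P hP
    rcases h x P hP with ⟨X1, h1, X2, h2, e, e2⟩ | h
    · left
      exact ⟨T x X1, Language.mem_mul.2 ⟨X1, ⟨h1, h1.1, rfl⟩, X2, ⟨h2, h2.1, e2⟩, e.symm⟩⟩
    · right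
      exact h
  · intro h x P hP
    rcases h x P hP with ⟨a, h⟩ | h
    · left
      obtain ⟨X1, h1, X2, h2, e⟩ := Language.mem_mul.1 h
      have e1 : T x X1 = a := h1.2.2
      exact ⟨X1, h1.1, X2, h2.1, e.symm, by rw [e1]; exact h2.2.2⟩
    · right
      exact h

/-- **semantic top**: only fibres, tail and the completeness of scheme 2 are left -/
theorem sem_top {S : Type} [Monoid S] [Finite S] (φ : α → S) [AddCommGroup V]
    (act : V → S → V)
    (hadd : ∀ a b s, act (a + b) s = act a s + act b s)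
    (hone : ∀ v, act v 1 = v) (hmul : ∀ v s t, act v (s * t) = act (act v s) t)
    (hfaith : ∀ s t, (∀ v, act v s = act v t) → s = t)
    (nu : List α → V) (T : V → List α → V)
    (hT : ∀ v X, T v X = act v (X.map φ).prod + nu X) (C : Set (List α)) (hC : PCode C)
    (L1 L2 : V → Set (List α)) (hL1 : ∀ v, (L1 v).Finite) (hL2 : ∀ v, (L2 v).Finite)
    (hHC : HL 1 (C : Language α))
    (hfib : ∀ x y, HL 1 ({X | X ∈ C ∧ T x X = y} : Language α))
    (htail : ∀ s, HL 3 ({w | (∀ X ∈ C, ¬ X <+: w) ∧ (w.map φ).prod = s} : Language α))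
    (hc2 : ∀ X1 ∈ Bad C T L1, ∀ X2 ∈ Bad C T L1, ∀ x, ∃ P ∈ L2 x,
      ∃ Q ∈ R2 C T L1 L2 (T (T x X1) X2), P ++ Q = X1 ++ X2)
    (s : S) : HL 3 ({w | (w.map φ).prod = s} : Language α) := by
  have hTe : T = fun v X => act v (X.map φ).prod + nu X := by funext v X; exact hT v X
  refine top5 φ act hadd hone hmul hfaith nu C (Bad C T L1) hC (fun X hX => hX.1)
    (fun v => (L1 v : Language α)) (fun y => (R1 C T L1 y : Language α))
    (fun v => (L2 v : Language α)) (fun y => (R2 C T L1 L2 y : Language α))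
    ?_ ?_ ?_ ?_ (HL_Bad hL1 hHC hfib) (fun v => HL.finite (hL2 v))
    (fun v => HL_R2 hL1 hL2 hHC hfib v) (fun v => HL.finite (hL1 v))
    (fun v => (HL_R1 hL1 hfib v).mono (by omega)) ?_ htail s
  · intro v b P Q hP hQ
    obtain ⟨h1, h2⟩ := hQ v P hP
    exact ⟨h1, by rw [← hT]; exact h2⟩
  · intro X hX hb v
    have hg : X ∈ Good C T L1 := by
      by_contra h
      exact hb ⟨hX, h⟩
    obtain ⟨P, hP, Q, hQ, e⟩ := hg.2 v
    exact ⟨P, Q, e, hP, by rw [← hT]; exact hQ⟩
  · intro v b P Q r hP hQ hs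
    rcases hQ v P hP with ⟨X1, h1, X2, h2, e, e2⟩ | ⟨X, hX, hp⟩
    · refine ⟨[X1, X2], ?_, by simp [e], ?_⟩
      · intro Y hY
        simp only [List.mem_cons, List.not_mem_nil, or_false] at hY
        rcases hY with rfl | rfl
        · exact h1
        · exact h2
      · simp only [List.foldl_cons, List.foldl_nil]
        rw [← hT, ← hT]
        exact e2
    · exfalso
      obtain ⟨l, hl, e⟩ := hs
      have hXp : X <+: P ++ Q ++ r := hp.trans (List.prefix_append _ _)
      cases l with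
      | nil =>
        rw [List.flatten_nil] at e
        rw [← e] at hXp
        exact hC.1 ((List.prefix_nil.1 hXp) ▸ hX.1)
      | cons Y l' =>
        have hY := hl Y (by simp)
        rw [List.flatten_cons] at e
        have hYp : Y <+: P ++ Q ++ r := ⟨l'.flatten, e⟩
        have hXY : X = Y := by
          rcases List.prefix_or_prefix_of_prefix hXp hYp with h1 | h1
          · exact hC.2 X hX.1 Y hY.1 h1
          · exact (hC.2 Y hY.1 X hX.1 h1).symm
        subst hXY
        exact hY.2 hX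
  · intro X hX X' hX' v
    obtain ⟨P, hP, Q, hQ, e⟩ := hc2 X hX X' hX' v
    exact ⟨P, Q, e, hP, by rw [← hT, ← hT]; exact hQ⟩
  · intro v v'
    refine (((HL_Bad hL1 hHC hfib).inf (hfib v v')).mono (l := 2) (by omega)).congr fun w => ?_
    constructor
    · rintro ⟨h1, h2⟩
      exact ⟨h1, h1.1, by rw [hT]; exact h2⟩
    · rintro ⟨h1, _, h2⟩
      exact ⟨h1, by rw [← hT]; exact h2⟩

end Crest.Agent.R320.Top_545
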