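import Crest.Agent.R320.WallU_228
import Crest.Agent.R320.Top_545

/-!
# Row 320: the fibres and the tail of the block code are in `HL 1` (helper545)
-/

set_option autoImplicit false

namespace Crest.Agent.R320.Fib_545

open Crest.RegLang Crest.Agent.R320.Hk_851 Crest.Agent.R320.FewWalls_228
  Crest.Agent.R320.WallU_228 Crest.Agent.R320.Blk467 Crest.Agent.R320.C2_545

variable {α : Type}

theorem HL_wo [Finite α] {k : ℕ} (n : ℕ) (S : Set (List α)) :
    HL k ({P | Wo n S P} : Language α) := by
  have hf : ({u | u ∈ S ∧ u.length = n} : Set (List α)).Finite :=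
    (List.finite_length_eq α n).subset fun u hu => hu.2
  let F : Language α := ({u | u ∈ S ∧ u.length = n} : Set (List α))
  have hF : HL k F := HL.finite hf
  refine ((HL.top (k := k)).mul (M := F) hF).congr fun w => ?_
  constructor
  · rintro ⟨h1, h2⟩
    refine Language.mem_mul.2 ⟨w.take (w.length - n), trivial, w.drop (w.length - n), ⟨h2, ?_⟩,
      List.take_append_drop _ _⟩
    rw [List.length_drop]; omega
  · intro h
    obtain ⟨P, _, u, ⟨hu1, hu2⟩, rfl⟩ := Language.mem_mul.1 h
    refine ⟨by rw [List.length_append]; omega, ?_⟩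
    have e : (P ++ u).length - n = P.length := by rw [List.length_append]; omega
    rw [e, List.drop_left]
    exact hu1

theorem HL_XX [Finite α] {k : ℕ} (n z : ℕ) (S : Set (List α)) :
    HL k (XX (Wo n S) z : Language α) := by
  let A : Language α := {P | z ≤ P.length}
  let W : Language α := {P | Wo n S P}
  let B : Language α := {Y | 1 ≤ Y.length}
  have hA : HL k A := HL.length_ge z
  have hW : HL k W := HL_wo n S
  have hB : HL k B := HL.length_ge 1
  refine ((hA.inf hW).inf (((hA.inf hW).mul hB).compl)).congr fun w => ?_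
  constructor
  · rintro ⟨h1, h2, h3⟩
    refine ⟨⟨h1, h2⟩, fun h => ?_⟩
    obtain ⟨P, ⟨hP1, hP2⟩, Y, hY, rfl⟩ := Language.mem_mul.1 h
    have hY' : 1 ≤ Y.length := hY
    refine h3 P.length hP1 (by rw [List.length_append]; omega) ?_
    rw [List.take_left]; exact hP2
  · rintro ⟨⟨h1, h2⟩, h3⟩
    refine ⟨h1, h2, fun t ht1 ht2 hw => h3 ?_⟩
    refine Language.mem_mul.2 ⟨w.take t, ⟨?_, hw⟩, w.drop t, ?_, List.take_append_drop _ _⟩
    · show z ≤ (w.take t).length
      rw [List.length_take]; omega
    · show 1 ≤ (w.drop t).length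
      rw [List.length_drop]; omega

theorem pcode_XX (n z : ℕ) (hz : 0 < z) (S : Set (List α)) : PCode (XX (Wo n S) z) := by
  refine ⟨?_, ?_⟩
  · intro h
    have := h.1
    simp at this
    omega
  · rintro X ⟨hX1, hX2, hX3⟩ Y ⟨hY1, hY2, hY3⟩ hXY
    obtain ⟨r, rfl⟩ := hXY
    cases r with
    | nil => simp
    | cons a r =>
      exfalso
      refine hY3 X.length hX1 (by simp) ?_
      rw [List.take_left]; exact hX2

theorem nw_le_of_tail {n z : ℕ} {S : Set (List α)} (u : List α)
    (h : ∀ t, z ≤ t → t < u.length → ¬ Wo n S (u.take t)) : nw n S u ≤ z + 1 := by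
  classical
  unfold nw
  calc _ ≤ (insert (u.length - n) (Finset.range z)).card := by
        refine Finset.card_le_card fun x hx => ?_
        rw [Finset.mem_filter] at hx
        obtain ⟨h1, h2⟩ := wo_take.1 hx.2
        rw [Finset.mem_insert, Finset.mem_range]
        by_contra hne
        push Not at hne
        refine h (x + n) (by omega) ?_ h2
        rcases Nat.lt_or_ge (x + n) u.length with h' | h'
        · exact h'
        · exact absurd (by omega) hne.1
    _ ≤ z + 1 := by
        refine (Finset.card_insert_le _ _).trans ?_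
        rw [Finset.card_range]

theorem nw_suffix {n : ℕ} {S : Set (List α)} (u Y : List α) : nw n S Y ≤ nw n S (u ++ Y) := by
  classical
  unfold nw
  refine Finset.card_le_card_of_injOn (fun x => x + u.length) ?_ ?_
  · intro x hx
    rw [Finset.mem_coe, Finset.mem_filter] at hx ⊢
    obtain ⟨h1, h2, h3⟩ := hx
    rw [Finset.mem_range] at h1 ⊢
    show x + u.length < _ ∧ x + u.length + n ≤ _ ∧ _
    refine ⟨by rw [List.length_append]; omega, by rw [List.length_append]; omega, ?_⟩
    have : (u ++ Y).drop (x + u.length) = Y.drop x := by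
      rw [Nat.add_comm, ← List.drop_drop, List.drop_left]
    rw [this]; exact h3
  · intro a _ b _ h
    simpa using h

/-- walls in the sense of `XX` -/
theorem nw_XX {n z : ℕ} {S : Set (List α)} {X : List α} (h : X ∈ XX (Wo n S) z) :
    nw n S X ≤ z + 1 := nw_le_of_tail X h.2.2

theorem first_wall {n z : ℕ} {S : Set (List α)} {w : List α}
    (h : ∀ X ∈ XX (Wo n S) z, ¬ X <+: w) : ∀ t, z ≤ t → t ≤ w.length → ¬ Wo n S (w.take t) := by
  intro t
  induction t using Nat.strong_induction_on with
  | _ t ih =>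
    intro h1 h2 h3
    refine h (w.take t) ⟨by rw [List.length_take]; omega, h3, ?_⟩ (List.take_prefix _ _)
    intro t' a1 a2
    rw [List.length_take] at a2
    rw [List.take_take, min_eq_left (by omega)]
    exact ih t' (by omega) a1 (by omega)

theorem HL_tail [Finite α] {n c P z : ℕ} {S : Set (List α)} (hn : 0 < n) (hP : 0 < P)
    (hper : PerOff n c P S) {M : Type} [Monoid M] [Finite M] (φ : α → M) (s : M) :
    HL 1 ({w | (∀ X ∈ XX (Wo n S) z, ¬ X <+: w) ∧ (w.map φ).prod = s} : Language α) := by
  have h1 : HL 1 ({w | nw n S w ≤ z + 1 ∧ (w.map φ).prod = s} : Language α) :=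
    Crest.Agent.R320.FewVal_228.HL_few_value hn hP hper (z + 1) φ s
  have h2 : HL 1 (({w | ∃ X ∈ (XX (Wo n S) z : Language α), X <+: w} : Language α)ᶜ) :=
    (HL_XX (k := 1) n z S).prefix.compl
  refine (h2.inf h1).congr fun w => ?_
  constructor
  · rintro ⟨h, hs⟩
    refine ⟨fun ⟨X, hX, hp⟩ => h X hX hp, ?_, hs⟩
    exact nw_le_of_tail w fun t a1 a2 => first_wall h t a1 (by omega)
  · rintro ⟨h, _, hs⟩
    exact ⟨fun X hX hp => h ⟨X, hX, hp⟩, hs⟩

/-- a function of the words of length `≥ A` which only depends on the first `A` letters and on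
the value of the rest in a finite monoid has fibres in `HL 1` on the code -/
theorem HL_fibre [Finite α] {n c P z : ℕ} {S : Set (List α)} (hn : 0 < n) (hP : 0 < P)
    (hper : PerOff n c P S) {M : Type} [Monoid M] [Finite M] (g : α → M) {A : ℕ} (hA : A ≤ z)
    {V : Type} (F : List α → V)
    (hF : ∀ u Y Y' : List α, u.length = A → (Y.map g).prod = (Y'.map g).prod →
      F (u ++ Y) = F (u ++ Y')) (y : V) :
    HL 1 ({X | X ∈ XX (Wo n S) z ∧ F X = y} : Language α) := by
  classical
  have hfu : (Set.univ : Set M).Finite := Set.toFinite _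
  have hfin : ({p : List α × M | p.1.length = A ∧ ∃ Y, (Y.map g).prod = p.2 ∧
      F (p.1 ++ Y) = y}).Finite :=
    ((List.finite_length_eq α A).prod hfu).subset fun p hp => ⟨hp.1, trivial⟩
  let B : List α → Language α := fun u => ({u} : Set (List α))
  let R : M → Language α := fun m => {w | nw n S w ≤ z + 1 ∧ (w.map g).prod = m}
  have h1 : HL 1 ({w | ∃ p ∈ {p : List α × M | p.1.length = A ∧ ∃ Y, (Y.map g).prod = p.2 ∧
      F (p.1 ++ Y) = y}, w ∈ (B p.1 * R p.2 : Language α)} : Language α) := by
    refine HL.biUnion hfin (L := fun p => (B p.1 * R p.2 : Language α)) fun p _ => ?_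
    exact (HL.word p.1).mul (Crest.Agent.R320.FewVal_228.HL_few_value hn hP hper (z + 1) g p.2)
  refine ((HL_XX (k := 1) n z S).inf h1).congr fun w => ?_
  constructor
  · rintro ⟨hw, hy⟩
    have hl : z ≤ w.length := hw.1
    refine ⟨hw, (w.take A, ((w.drop A).map g).prod), ⟨by simp; omega, w.drop A, rfl, ?_⟩, ?_⟩
    · rw [List.take_append_drop]; exact hy
    · refine Language.mem_mul.2 ⟨w.take A, rfl, w.drop A, ⟨?_, rfl⟩, List.take_append_drop _ _⟩
      have h := nw_XX hw
      have h2 := nw_suffix (n := n) (S := S) (w.take A) (w.drop A)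
      rw [List.take_append_drop] at h2
      omega
  · rintro ⟨hw, ⟨u, m⟩, ⟨hu, Y, hY, hFY⟩, hm⟩
    refine ⟨hw, ?_⟩
    obtain ⟨u', hu', Y', ⟨_, hY'⟩, e⟩ := Language.mem_mul.1 hm
    have hu'' : u' = u := hu'
    subst hu''
    rw [← e, ← hFY]
    exact hF u' Y' Y hu (by rw [hY]; exact hY')

end Crest.Agent.R320.Fib_545
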