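import Crest.Agent.R320.BddReg_746
import Crest.Agent.R320.Reg_236

/-!
# Row 320: heights of the block fibres (left-looking walls on all words, natural chain rule)

Blocks `XX z Wo`: words of length `≥ z` which end in a wall and have no earlier wall at a place
`≥ z`.  For every zone map of the form
`T v X = act (act v (φ X0) + nu2 X0) (φ Y) + nu1 Y`, `X = X0 ++ Y`, `|X0| = p0`, with regular
noise fibres `{Y | nu1 Y = b}`, the languages `{X ∈ XX | T v X = v'}` and the block-free words of
value `s` have height at most one.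
-/

set_option autoImplicit false

namespace Crest.Agent.R320.Fib_64

open Crest.RegLang Crest.Agent.R320.Hk_851 Crest.Agent.R320.BddReg_746

universe u

variable {α : Type u}

/-- the language of a predicate -/
def mk (p : List α → Prop) : Language α := {w | p w}

theorem mem_mk (p : List α → Prop) (w : List α) : w ∈ mk p ↔ p w := Iff.rfl

theorem isReg {k : ℕ} {L : Language α} (h : HL k L) : L.IsRegular := Reg_236.HL.isRegular h

/-- the block code -/
def XX (z : ℕ) (Wo : List α → Prop) : Set (List α) :=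
  {X | z ≤ X.length ∧ Wo X ∧ ∀ j, z ≤ j → j < X.length → ¬ Wo (X.take j)}

theorem nil_notMem {z : ℕ} {Wo : List α → Prop} (hz : 0 < z) : [] ∉ XX z Wo := by
  rintro ⟨h, -⟩
  simp at h
  omega

theorem prefix_code {z : ℕ} {Wo : List α → Prop} {X Y : List α} (hX : X ∈ XX z Wo)
    (hXY : X ++ Y ∈ XX z Wo) : Y = [] := by
  by_contra hY
  have h1 : 0 < Y.length := List.length_pos_iff.2 hY
  have h2 := hXY.2.2 X.length hX.1 (by rw [List.length_append]; omega)
  apply h2
  rw [List.take_left]
  exact hX.2.1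

/-- least wall at a place `≥ z` gives a block prefix -/
theorem exists_prefix {z : ℕ} {Wo : List α → Prop} {r : List α} {j : ℕ} (hj : z ≤ j)
    (hjr : j ≤ r.length) (hw : Wo (r.take j)) : ∃ X ∈ XX z Wo, X <+: r := by
  classical
  have hex : ∃ j, z ≤ j ∧ j ≤ r.length ∧ Wo (r.take j) := ⟨j, hj, hjr, hw⟩
  obtain ⟨h1, h2, h3⟩ := Nat.find_spec hex
  refine ⟨r.take (Nat.find hex), ⟨?_, h3, ?_⟩, List.take_prefix _ _⟩
  · rw [List.length_take]; omega
  · intro i hi hil hwi
    rw [List.length_take] at hil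
    rw [List.take_take, min_eq_left (by omega)] at hwi
    exact Nat.find_min hex (show i < Nat.find hex by omega) ⟨hi, by omega, hwi⟩

section

variable {n B : ℕ} {Wo : List α → Prop}

theorem mem_PN_cons {B R : ℕ} (hB : 1 ≤ B) {a : α} {X : List α}
    (hX : X ∈ (PN B R : Language α)) : a :: X ∈ (PN B (R + 1) : Language α) := by
  change a :: X ∈ (Pc B * PN B R : Language α)
  rw [Language.mem_mul]
  exact ⟨[a], ⟨[a], [], 0, by simpa using hB, by simp, by simp⟩, X, hX, rfl⟩

theorem nil_mem_PN (B : ℕ) : ∀ R, ([] : List α) ∈ (PN B R : Language α)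
  | 0 => rfl
  | R + 1 => by
    change [] ∈ (Pc B * PN B R : Language α)
    rw [Language.mem_mul]
    exact ⟨[], nil_mem_Pc B, [], nil_mem_PN B R, rfl⟩

/-- words without a wall at a place in `[z, |X|)` are products of `z + 2` pieces -/
theorem mem_PN (hB : 1 ≤ B)
    (hloc : ∀ P Q : List α, n ≤ Q.length → (Wo (P ++ Q) ↔ Wo Q))
    (hlen : ∀ Q, Wo Q → n ≤ Q.length)
    (hbd : ∀ X : List α, (∀ j, j < X.length → ¬ Wo (X.take j)) →
      ∃ (u x v : List α) (k : ℕ), X = u ++ pw x k ++ v ∧ u.length ≤ B ∧ x.length ≤ B ∧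
        v.length ≤ B) :
    ∀ (z : ℕ) (X : List α), (∀ j, z ≤ j → j < X.length → ¬ Wo (X.take j)) →
      X ∈ (PN B (z + 2) : Language α) := by
  intro z
  induction z with
  | zero =>
    intro X hX
    obtain ⟨u, x, v, k, rfl, h1, h2, h3⟩ := hbd X (fun j hj => hX j (Nat.zero_le j) hj)
    change _ ∈ (Pc B * (Pc B * 1) : Language α)
    rw [Language.mem_mul]
    refine ⟨u ++ pw x k, ⟨u, x, k, h1, h2, rfl⟩, v, ?_, by simp⟩
    rw [mul_one]
    exact ⟨v, [], 0, h3, by simp, by simp⟩
  | succ z ih =>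
    intro X hX
    match X, hX with
    | [], _ => exact nil_mem_PN B _
    | a :: X, hX =>
      refine mem_PN_cons hB (ih X ?_)
      intro j hj hjl hw
      have h1 := hlen _ hw
      have h2 := (hloc [a] (X.take j) h1).2 hw
      apply hX (j + 1) (by omega) (by simp; omega)
      simpa using h2

theorem wall_HL [Finite α] (hloc : ∀ P Q : List α, n ≤ Q.length → (Wo (P ++ Q) ↔ Wo Q))
    (hlen : ∀ Q, Wo Q → n ≤ Q.length) : HL 0 ({X | Wo X} : Language α) := by
  have h1 : HL 0 (mk fun Q : List α => Q.length = n ∧ Wo Q) :=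
    HL.finite ((List.finite_length_eq α n).subset fun v hv => hv.1)
  refine ((HL.top (α := α) (k := 0)).mul h1).congr fun w => Iff.symm ?_
  rw [Language.mem_mul]
  refine Iff.intro ?_ ?_
  · rintro ⟨P, -, Q, ⟨h1, h2⟩, rfl⟩
    exact (hloc P Q (le_of_eq h1.symm)).2 h2
  · intro (h : Wo w)
    have hl := hlen w h
    refine ⟨w.take (w.length - n), trivial, w.drop (w.length - n), ⟨?_, ?_⟩,
      List.take_append_drop _ _⟩
    · rw [List.length_drop]; omega
    · rw [← hloc (w.take (w.length - n)) _ (by rw [List.length_drop]; omega),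
        List.take_append_drop]
      exact h

theorem XX_HL [Finite α] (z : ℕ) (hloc : ∀ P Q : List α, n ≤ Q.length → (Wo (P ++ Q) ↔ Wo Q))
    (hlen : ∀ Q, Wo Q → n ≤ Q.length) : HL 0 (XX z Wo : Language α) := by
  have hW := wall_HL hloc hlen
  have h1 : HL 0 (mk fun P : List α => z ≤ P.length ∧ Wo P) :=
    (HL.length_ge z).setOf_and hW
  have h2 : HL 0 (mk fun P : List α => 1 ≤ P.length) := HL.length_ge 1
  have h3 : HL 0 ((mk fun P : List α => z ≤ P.length ∧ Wo P) *
      (mk fun P : List α => 1 ≤ P.length))ᶜ := (h1.mul h2).compl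
  refine (h1.inf h3).congr fun w => ?_
  refine Iff.intro ?_ ?_
  · rintro ⟨a1, a2, a3⟩
    refine ⟨⟨a1, a2⟩, ?_⟩
    intro hm
    obtain ⟨P, ⟨b1, b2⟩, Q, b3, rfl⟩ := Language.mem_mul.1 hm
    have b3' : 1 ≤ Q.length := b3
    apply a3 P.length b1 (by rw [List.length_append]; omega)
    rw [List.take_left]
    exact b2
  · rintro ⟨⟨a1, a2⟩, a3⟩
    refine ⟨a1, a2, ?_⟩
    intro j hj hjl hw
    apply a3
    refine Language.mem_mul.2 ⟨w.take j, ⟨?_, hw⟩, w.drop j, ?_, List.take_append_drop _ _⟩
    · rw [List.length_take]; omega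
    · change 1 ≤ (w.drop j).length
      rw [List.length_drop]; omega

end

/-! ### regularity helpers -/

theorem reg_and {p q : List α → Prop} (hp : Language.IsRegular ({w | p w} : Language α))
    (hq : Language.IsRegular ({w | q w} : Language α)) :
    Language.IsRegular ({w | p w ∧ q w} : Language α) := hp.inf hq

theorem reg_or {p q : List α → Prop} (hp : Language.IsRegular ({w | p w} : Language α))
    (hq : Language.IsRegular ({w | q w} : Language α)) :
    Language.IsRegular ({w | p w ∨ q w} : Language α) := hp.add hq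

theorem reg_congr {L M : Language α} (h : L.IsRegular) (e : ∀ w, w ∈ L ↔ w ∈ M) :
    M.IsRegular := by
  have : L = M := by ext w; exact e w
  rwa [← this]

theorem reg_biUnion {ι : Type*} {s : Set ι} (hs : s.Finite) {L : ι → Language α}
    (h : ∀ i ∈ s, (L i).IsRegular) : Language.IsRegular ({w | ∃ i ∈ s, w ∈ L i} : Language α) := by
  induction s, hs using Set.Finite.induction_on with
  | empty =>
    refine reg_congr (isReg (HL.bot (α := α) (k := 0))) fun w => ?_
    constructor
    · intro h; exact h.elim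
    · rintro ⟨i, hi, -⟩; exact hi.elim
  | @insert a s ha hs ih =>
    have h1 := ih (fun i hi => h i (Set.mem_insert_of_mem _ hi))
    have h2 := h a (Set.mem_insert _ _)
    refine reg_congr (reg_or h2 h1) fun w => ?_
    constructor
    · rintro (h' | ⟨i, hi, h'⟩)
      · exact ⟨a, Set.mem_insert _ _, h'⟩
      · exact ⟨i, Set.mem_insert_of_mem _ hi, h'⟩
    · rintro ⟨i, hi, h'⟩
      rcases Set.mem_insert_iff.1 hi with rfl | hi
      · exact Or.inl h'
      · exact Or.inr ⟨i, hi, h'⟩

theorem reg_value {S : Type*} [Monoid S] [Finite S] (f : α → S) (s : S) :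
    Language.IsRegular ({w | (w.map f).prod = s} : Language α) := by
  refine Language.IsRegular.of_finite_range_leftQuotient
    ((Set.finite_range (fun m : S => ({x | m * (x.map f).prod = s} : Language α))).subset ?_)
  rintro _ ⟨w, rfl⟩
  refine ⟨(w.map f).prod, ?_⟩
  ext x
  change (w.map f).prod * (x.map f).prod = s ↔ ((w ++ x).map f).prod = s
  rw [List.map_append, List.prod_append]

section

variable {S V : Type*} [Monoid S] [Finite S] [Finite V] [AddCommGroup V]

/-- the zone map: noise `nu2` of scheme 2 on the first `p0` letters, noise `nu1` of scheme 1 on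
the rest -/
def TT (f : α → S) (act : V → S → V) (p0 : ℕ) (nu1 nu2 : List α → V) (v : V) (X : List α) : V :=
  act (act v ((X.take p0).map f).prod + nu2 (X.take p0)) ((X.drop p0).map f).prod +
    nu1 (X.drop p0)

theorem reg_TT [Finite α] (f : α → S) (act : V → S → V) (p0 : ℕ) (nu1 nu2 : List α → V)
    (hnu : ∀ b, Language.IsRegular ({Y | nu1 Y = b} : Language α)) (v v' : V) :
    Language.IsRegular ({X | p0 ≤ X.length ∧ TT f act p0 nu1 nu2 v X = v'} : Language α) := by
  have key : ∀ c : V,
      Language.IsRegular ({Y | act c ((Y.map f).prod) + nu1 Y = v'} : Language α) := by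
    intro c
    have h := reg_biUnion (s := {q : S × V | act c q.1 + q.2 = v'}) (Set.toFinite _)
      (L := fun q => (mk fun Y => (Y.map f).prod = q.1 ∧ nu1 Y = q.2))
      (fun q _ => reg_and (reg_value f q.1) (hnu q.2))
    refine reg_congr h fun Y => ?_
    constructor
    · rintro ⟨⟨s, b⟩, hq, h1, h2⟩
      have h1' : (Y.map f).prod = s := h1
      have h2' : nu1 Y = b := h2
      change act c ((Y.map f).prod) + nu1 Y = v'
      rw [h1', h2']
      exact hq
    · intro h
      exact ⟨((Y.map f).prod, nu1 Y), h, rfl, rfl⟩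
  have h := reg_biUnion (s := {X0 : List α | X0.length = p0}) (List.finite_length_eq α p0)
    (L := fun X0 => (({X0} : Language α) *
      (mk fun Y => act (act v ((X0.map f).prod) + nu2 X0) ((Y.map f).prod) + nu1 Y = v')))
    (fun X0 _ => Reg_236.isRegular_mul (isReg (HL.word (k := 0) X0))
      (key (act v ((X0.map f).prod) + nu2 X0)))
  refine reg_congr h fun X => ?_
  constructor
  · rintro ⟨X0, hX0, hm⟩
    have hX0' : X0.length = p0 := hX0
    rw [Language.mem_mul] at hm
    obtain ⟨A, hA, Y, hY, rfl⟩ := hm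
    have hA' : A = X0 := hA
    subst hA'
    have hY' : act (act v ((A.map f).prod) + nu2 A) ((Y.map f).prod) + nu1 Y = v' := hY
    refine ⟨by rw [List.length_append]; omega, ?_⟩
    unfold TT
    rw [← hX0', List.take_left, List.drop_left]
    exact hY'
  · rintro ⟨h1, h2⟩
    refine ⟨X.take p0, ?_, ?_⟩
    · change (X.take p0).length = p0
      rw [List.length_take]; omega
    · rw [Language.mem_mul]
      exact ⟨X.take p0, rfl, X.drop p0, h2, List.take_append_drop _ _⟩

variable {n B : ℕ} {Wo : List α → Prop}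

/-- (XT) the fibres of the zone map on blocks have height `≤ 1` -/
theorem hXT [Finite α]
    (hloc : ∀ P Q : List α, n ≤ Q.length → (Wo (P ++ Q) ↔ Wo Q))
    (hlen : ∀ Q, Wo Q → n ≤ Q.length)
    (hbd : ∀ X : List α, (∀ j, j < X.length → ¬ Wo (X.take j)) →
      ∃ (u x v : List α) (k : ℕ), X = u ++ pw x k ++ v ∧ u.length ≤ B ∧ x.length ≤ B ∧
        v.length ≤ B)
    (f : α → S) (act : V → S → V) (z p0 : ℕ) (hz : p0 ≤ z) (nu1 nu2 : List α → V)
    (hnu : ∀ b, Language.IsRegular ({Y | nu1 Y = b} : Language α)) (v v' : V) :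
    HL 1 ({X | X ∈ XX z Wo ∧ TT f act p0 nu1 nu2 v X = v'} : Language α) := by
  have h1 : Language.IsRegular ({X | X ∈ XX z Wo ∧ (p0 ≤ X.length ∧
      TT f act p0 nu1 nu2 v X = v')} : Language α) :=
    reg_and (isReg (XX_HL z hloc hlen)) (reg_TT f act p0 nu1 nu2 hnu v v')
  have h2 : Language.IsRegular ({X | X ∈ XX z Wo ∧ TT f act p0 nu1 nu2 v X = v'} :
      Language α) := reg_congr h1 fun X => by
    constructor
    · rintro ⟨a, b, c⟩; exact ⟨a, c⟩
    · rintro ⟨a, c⟩
      refine ⟨a, ?_, c⟩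
      have := a.1
      omega
  refine HL_one_of_regular h2 (max B 1) (z + 2) ?_
  rintro X ⟨hX, -⟩
  refine mem_PN (le_max_right _ _) hloc hlen ?_ z X (fun j hj hjl => hX.2.2 j hj hjl)
  intro X hX
  obtain ⟨u, x, v, k, h0, h1, h2, h3⟩ := hbd X hX
  exact ⟨u, x, v, k, h0, h1.trans (le_max_left _ _), h2.trans (le_max_left _ _),
    h3.trans (le_max_left _ _)⟩

/-- (NP) the block-free words of a given value have height `≤ 1` -/
theorem hNP [Finite α]
    (hloc : ∀ P Q : List α, n ≤ Q.length → (Wo (P ++ Q) ↔ Wo Q))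
    (hlen : ∀ Q, Wo Q → n ≤ Q.length)
    (hbd : ∀ X : List α, (∀ j, j < X.length → ¬ Wo (X.take j)) →
      ∃ (u x v : List α) (k : ℕ), X = u ++ pw x k ++ v ∧ u.length ≤ B ∧ x.length ≤ B ∧
        v.length ≤ B)
    (f : α → S) (z : ℕ) (s : S) :
    HL 1 ({r | (∀ X ∈ XX z Wo, ¬ X <+: r) ∧ (r.map f).prod = s} : Language α) := by
  have h1 : HL 0 ({r | ∃ v ∈ (XX z Wo : Language α), v <+: r} : Language α) :=
    (XX_HL z hloc hlen).prefix
  have h2 : Language.IsRegular ({r | (¬ ∃ v ∈ (XX z Wo : Language α), v <+: r) ∧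
      (r.map f).prod = s} : Language α) :=
    reg_and (isReg h1.setOf_not) (reg_value f s)
  have h3 : Language.IsRegular ({r | (∀ X ∈ XX z Wo, ¬ X <+: r) ∧ (r.map f).prod = s} :
      Language α) := reg_congr h2 fun r => by
    constructor
    · rintro ⟨a, b⟩
      exact ⟨fun X hX hp => a ⟨X, hX, hp⟩, b⟩
    · rintro ⟨a, b⟩
      exact ⟨fun ⟨X, hX, hp⟩ => a X hX hp, b⟩
  refine HL_one_of_regular h3 (max B 1) (z + 2) ?_
  rintro r ⟨hr, -⟩
  refine mem_PN (le_max_right _ _) hloc hlen ?_ z r ?_
  · intro X hX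
    obtain ⟨u, x, v, k, h0, h1, h2, h3⟩ := hbd X hX
    exact ⟨u, x, v, k, h0, h1.trans (le_max_left _ _), h2.trans (le_max_left _ _),
      h3.trans (le_max_left _ _)⟩
  · intro j hj hjl hw
    obtain ⟨X, hX, hp⟩ := exists_prefix hj hjl.le hw
    exact hr X hX hp

end

end Crest.Agent.R320.Fib_64
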