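import Crest.Agent.R320.Hgt1_903

/-! Row 320, runs: languages of the powers of one word, and of the factors of `x^ω`, with a prescribed value
in a finite monoid, are in `H 1` (helper729's remark, post 12622). -/

set_option autoImplicit false

namespace Crest.Agent.R320.RunLang_910

open Crest.RegLang Crest.Agent.R320.Hgt1_903

variable {α : Type*}

/-- `x` repeated `k` times. -/
def rep (x : List α) (k : ℕ) : List α := (List.replicate k x).flatten

@[simp] theorem rep_zero (x : List α) : rep x 0 = [] := rfl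

theorem rep_succ (x : List α) (k : ℕ) : rep x (k + 1) = x ++ rep x k := by
  simp [rep, List.replicate_succ]

theorem rep_one (x : List α) : rep x 1 = x := by
  rw [rep_succ, rep_zero, List.append_nil]

theorem rep_add (x : List α) (k l : ℕ) : rep x (k + l) = rep x k ++ rep x l := by
  induction k with
  | zero => simp
  | succ k ih => rw [Nat.succ_add, rep_succ, ih, rep_succ, List.append_assoc]

theorem rep_succ' (x : List α) (k : ℕ) : rep x (k + 1) = rep x k ++ x := by
  rw [rep_add, rep_one]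

theorem rep_mul (x : List α) (k l : ℕ) : rep (rep x k) l = rep x (k * l) := by
  induction l with
  | zero => simp
  | succ l ih => rw [rep_succ, ih, Nat.mul_succ, Nat.add_comm, rep_add]

theorem length_rep (x : List α) (k : ℕ) : (rep x k).length = k * x.length := by
  induction k with
  | zero => simp
  | succ k ih => rw [rep_succ, List.length_append, ih, Nat.succ_mul, Nat.add_comm]

/-- the star of one word -/
theorem mem_kstar_word (y w : List α) :
    w ∈ KStar.kstar ({y} : Language α) ↔ ∃ k, w = rep y k := by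
  rw [Language.mem_kstar]
  constructor
  · rintro ⟨L, rfl, hL⟩
    refine ⟨L.length, ?_⟩
    have : L = List.replicate L.length y := List.eq_replicate_iff.2
      ⟨rfl, fun z hz => Set.mem_singleton_iff.1 (hL z hz)⟩
    rw [rep, ← this]
  · rintro ⟨k, rfl⟩
    refine ⟨List.replicate k y, rfl, fun z hz => ?_⟩
    exact Set.mem_singleton_iff.2 (List.eq_of_mem_replicate hz)

/-- `x^(r + e*j)`, `j : ℕ` -/
theorem H_arith (x : List α) (r e : ℕ) :
    H 1 ({w | ∃ j, w = rep x (r + e * j)} : Language α) := by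
  refine H.congr ((H.word 1 (rep x r)).mul (H.star (H.word 0 (rep x e)))) fun w => ?_
  rw [Language.mem_mul]
  constructor
  · rintro ⟨u, hu, v, hv, rfl⟩
    obtain ⟨j, rfl⟩ := (mem_kstar_word _ _).1 hv
    rw [Set.mem_singleton_iff.1 hu]
    exact ⟨j, by rw [rep_add, rep_mul]⟩
  · rintro ⟨j, rfl⟩
    exact ⟨rep x r, rfl, rep x (e * j), (mem_kstar_word _ _).2 ⟨j, by rw [rep_mul]⟩,
      (rep_add _ _ _).symm⟩

/-- exponents in an ultimately periodic set -/
theorem H_ultper (x : List α) (P : ℕ → Prop) (N e : ℕ) (he : 0 < e)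
    (hP : ∀ k, N ≤ k → (P (k + e) ↔ P k)) :
    H 1 ({w | ∃ k, P k ∧ w = rep x k} : Language α) := by
  classical
  have hP' : ∀ k j, N ≤ k → (P (k + e * j) ↔ P k) := by
    intro k j hk
    induction j with
    | zero => simp
    | succ j ih =>
      rw [Nat.mul_succ, ← Nat.add_assoc, hP _ (hk.trans (Nat.le_add_right _ _)), ih]
  refine H.congr (H.union
    (H.exists_finset ((Finset.range N).filter P) (fun k => ({rep x k} : Language α))
      fun k _ => H.word 1 _)
    (H.exists_finset ((Finset.Ico N (N + e)).filter P)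
      (fun r => ({w | ∃ j, w = rep x (r + e * j)} : Language α)) fun r _ => H_arith x r e))
    fun w => ?_
  change ((∃ k ∈ (Finset.range N).filter P, w ∈ ({rep x k} : Set (List α))) ∨
    (∃ r ∈ (Finset.Ico N (N + e)).filter P, ∃ j, w = rep x (r + e * j))) ↔
    ∃ k, P k ∧ w = rep x k
  constructor
  · rintro (⟨k, hk, hw⟩ | ⟨r, hr, j, rfl⟩)
    · exact ⟨k, (Finset.mem_filter.1 hk).2, Set.mem_singleton_iff.1 hw⟩
    · obtain ⟨h1, h2⟩ := Finset.mem_filter.1 hr
      exact ⟨r + e * j, (hP' r j (Finset.mem_Ico.1 h1).1).2 h2, rfl⟩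
  · rintro ⟨k, hk, rfl⟩
    by_cases hkN : k < N
    · left
      exact ⟨k, Finset.mem_filter.2 ⟨Finset.mem_range.2 hkN, hk⟩, Set.mem_singleton_iff.2 rfl⟩
    · right
      push Not at hkN
      refine ⟨N + (k - N) % e, ?_, (k - N) / e, ?_⟩
      · refine Finset.mem_filter.2 ⟨Finset.mem_Ico.2 ⟨Nat.le_add_right _ _,
          Nat.add_lt_add_left (Nat.mod_lt _ he) _⟩, ?_⟩
        rw [← hP' (N + (k - N) % e) ((k - N) / e) (Nat.le_add_right _ _)]
        have : N + (k - N) % e + e * ((k - N) / e) = k := by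
          rw [Nat.add_assoc, Nat.mod_add_div]; omega
        rwa [this]
      · have : N + (k - N) % e + e * ((k - N) / e) = k := by
          rw [Nat.add_assoc, Nat.mod_add_div]; omega
        rw [this]

/-- powers in a finite monoid are ultimately periodic -/
theorem exists_pow_period {M : Type*} [Monoid M] [Finite M] (m : M) :
    ∃ N e : ℕ, 0 < e ∧ ∀ k, N ≤ k → m ^ (k + e) = m ^ k := by
  obtain ⟨a, b, hab, h⟩ := Finite.exists_ne_map_eq_of_infinite (fun k : ℕ => m ^ k)
  wlog hlt : a < b generalizing a b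
  · exact this b a hab.symm h.symm (lt_of_le_of_ne (not_lt.1 hlt) hab.symm)
  refine ⟨a, b - a, Nat.sub_pos_of_lt hlt, fun k hk => ?_⟩
  have e1 : k + (b - a) = (k - a) + b := by omega
  have e2 : k = (k - a) + a := by omega
  rw [e1, pow_add]
  conv_rhs => rw [e2, pow_add]
  change m ^ a = m ^ b at h
  rw [h]

/-- value of a word -/
def val {M : Type*} [Monoid M] (f : α → M) (w : List α) : M := (w.map f).prod

theorem val_append {M : Type*} [Monoid M] (f : α → M) (u v : List α) :
    val f (u ++ v) = val f u * val f v := by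
  simp [val]

theorem val_rep {M : Type*} [Monoid M] (f : α → M) (x : List α) (k : ℕ) :
    val f (rep x k) = val f x ^ k := by
  induction k with
  | zero => simp [val]
  | succ k ih => rw [rep_succ, val_append, ih, pow_succ']

/-- the words `u x^k v` with value `s` -/
theorem H_uxv {M : Type*} [Monoid M] [Finite M] (f : α → M) (s : M) (u x v : List α) :
    H 1 ({w | (∃ k, w = u ++ rep x k ++ v) ∧ val f w = s} : Language α) := by
  obtain ⟨N, e, he, hp⟩ := exists_pow_period (val f x)
  have key := H_ultper x (fun k => val f u * val f x ^ k * val f v = s) N e he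
    (fun k hk => by rw [hp k hk])
  refine H.congr (H.cat (H.cat (H.word 1 u) key) (H.word 1 v)) fun w => ?_
  constructor
  · rintro ⟨a, b, rfl, ⟨c, d, rfl, hc, ⟨k, hk, rfl⟩⟩, hb⟩
    rw [Set.mem_singleton_iff.1 hb, Set.mem_singleton_iff.1 hc]
    refine ⟨⟨k, rfl⟩, ?_⟩
    rw [val_append, val_append, val_rep]
    exact hk
  · rintro ⟨⟨k, rfl⟩, hs⟩
    refine ⟨u ++ rep x k, v, rfl, ⟨u, rep x k, rfl, rfl, ⟨k, ?_, rfl⟩⟩, rfl⟩
    rw [val_append, val_append, val_rep] at hs
    exact hs

/-- a factor of `A ++ B` -/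
theorem infix_append_cases {w A B : List α} (h : w <:+: A ++ B) :
    w <:+: A ∨ w <:+: B ∨ ∃ u v, w = u ++ v ∧ u <:+ A ∧ v <+: B := by
  obtain ⟨s, t, h⟩ := h
  rw [List.append_assoc] at h
  rcases List.append_eq_append_iff.1 h with ⟨c, hA, hwt⟩ | ⟨c, hs, hB⟩
  · -- A = s ++ c, w ++ t = c ++ B
    rcases List.append_eq_append_iff.1 hwt with ⟨d, hc, ht⟩ | ⟨d, hw, hB⟩
    · left
      exact ⟨s, d, by rw [hA, hc, List.append_assoc]⟩
    · right; right
      exact ⟨c, d, hw, ⟨s, hA.symm⟩, ⟨t, hB.symm⟩⟩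
  · -- s = A ++ c, B = c ++ (w ++ t)
    right; left
    exact ⟨c, t, by rw [hB, List.append_assoc]⟩

/-- a prefix of `x^k` -/
theorem prefix_rep {v x : List α} {k : ℕ} (h : v <+: rep x k) :
    ∃ j v', v = rep x j ++ v' ∧ v' <+: x := by
  induction k generalizing v with
  | zero =>
    refine ⟨0, [], ?_, List.nil_prefix⟩
    have : v = [] := List.prefix_nil.1 h
    simp [this]
  | succ k ih =>
    rw [rep_succ] at h
    obtain ⟨t, ht⟩ := h
    rcases List.append_eq_append_iff.1 ht with ⟨c, hx, -⟩ | ⟨c, hv, hr⟩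
    · exact ⟨0, v, by simp, ⟨c, hx.symm⟩⟩
    · obtain ⟨j, v', rfl, hv'⟩ := ih ⟨t, hr.symm⟩
      exact ⟨j + 1, v', by rw [hv, rep_succ, List.append_assoc], hv'⟩

/-- factors of powers of `x`: short ones, or `u x^j v` with `u` a suffix and `v` a prefix of `x` -/
theorem infix_rep_iff (x w : List α) :
    (∃ k, w <:+: rep x k) ↔
      (w <:+: x ∨ ∃ u v, u <:+ x ∧ v <+: x ∧ ∃ j, w = u ++ rep x j ++ v) := by
  constructor
  · rintro ⟨k, hk⟩
    induction k with
    | zero =>
      left
      have : w = [] := List.infix_nil.1 hk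
      rw [this]; exact List.nil_infix
    | succ k ih =>
      rw [rep_succ] at hk
      rcases infix_append_cases hk with h | h | ⟨u, v, rfl, hu, hv⟩
      · exact Or.inl h
      · exact ih h
      · obtain ⟨j, v', rfl, hv'⟩ := prefix_rep hv
        exact Or.inr ⟨u, v', hu, hv', j, by rw [List.append_assoc]⟩
  · rintro (h | ⟨u, v, ⟨a, ha⟩, ⟨b, hb⟩, j, rfl⟩)
    · exact ⟨1, by rwa [rep_one]⟩
    · refine ⟨j + 1 + 1, a, b, ?_⟩
      rw [rep_succ, rep_succ', ← List.append_assoc, ← List.append_assoc, ← List.append_assoc, ha]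
      rw [List.append_assoc, List.append_assoc, List.append_assoc, hb]

/-- factors of powers of `x` with a given value -/
theorem H_run {M : Type*} [Monoid M] [Finite M] (f : α → M) (s : M) (x : List α) :
    H 1 ({w | (∃ k, w <:+: rep x k) ∧ val f w = s} : Language α) := by
  classical
  have h1 : H 1 ({w | w <:+: x ∧ val f w = s} : Language α) := by
    apply H.finite
    refine (List.finite_toSet (x.sublists)).subset ?_
    rintro w ⟨hw, -⟩
    exact List.mem_sublists.2 hw.sublist
  have h2 : H 1 ({w | ∃ u ∈ (x.sublists).toFinset, w ∈ ({w | ∃ v ∈ (x.sublists).toFinset,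
      w ∈ ({w | (u <:+ x ∧ v <+: x) ∧ ((∃ j, w = u ++ rep x j ++ v) ∧ val f w = s)} :
        Language α)} : Language α)} : Language α) := by
    refine H.exists_finset _ _ fun u _ => H.exists_finset _ _ fun v _ => ?_
    exact H.inter (H.const 1 (u <:+ x ∧ v <+: x)) (H_uxv f s u x v)
  refine H.congr (H.union h1 h2) fun w => ?_
  constructor
  · rintro (⟨hw, hs⟩ | ⟨u, -, v, -, ⟨hu, hv⟩, ⟨j, hj⟩, hs⟩)
    · exact ⟨(infix_rep_iff x w).2 (Or.inl hw), hs⟩
    · exact ⟨(infix_rep_iff x w).2 (Or.inr ⟨u, v, hu, hv, j, hj⟩), hs⟩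
  · rintro ⟨hw, hs⟩
    rcases (infix_rep_iff x w).1 hw with h | ⟨u, v, hu, hv, j, hj⟩
    · exact Or.inl ⟨h, hs⟩
    · refine Or.inr ⟨u, ?_, v, ?_, ⟨hu, hv⟩, ⟨j, hj⟩, hs⟩
      · exact List.mem_toFinset.2 (List.mem_sublists.2 hu.sublist)
      · exact List.mem_toFinset.2 (List.mem_sublists.2 hv.sublist)

/-- factors of `x^ω`, some `x` with `|x| ≤ b`, with a given value -/
theorem H_runs [Finite α] {M : Type*} [Monoid M] [Finite M] (f : α → M) (s : M) (b : ℕ) :
    H 1 ({w | (∃ x : List α, x.length ≤ b ∧ ∃ k, w <:+: rep x k) ∧ val f w = s} :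
      Language α) := by
  classical
  have hfin : Set.Finite {x : List α | x.length ≤ b} := List.finite_length_le α b
  refine H.congr (H.exists_finset hfin.toFinset
    (fun x => ({w | (∃ k, w <:+: rep x k) ∧ val f w = s} : Language α)) fun x _ => H_run f s x)
    fun w => ?_
  constructor
  · rintro ⟨x, hx, h, hs⟩
    exact ⟨⟨x, hfin.mem_toFinset.1 hx, h⟩, hs⟩
  · rintro ⟨⟨x, hx, h⟩, hs⟩
    exact ⟨x, hfin.mem_toFinset.2 hx, h, hs⟩

/-- the same with the length modulo `e` prescribed as well -/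
theorem H_runs_mod [Finite α] {M : Type*} [Monoid M] [Finite M] (f : α → M) (s : M) (b e r : ℕ)
    (he : 0 < e) :
    H 1 ({w | (∃ x : List α, x.length ≤ b ∧ ∃ k, w <:+: rep x k) ∧ val f w = s ∧
      w.length % e = r % e} : Language α) := by
  have : NeZero e := ⟨he.ne'⟩
  have : Finite (Multiplicative (ZMod e)) := inferInstanceAs (Finite (ZMod e))
  have hval : ∀ w : List α, val (fun a => (f a, Multiplicative.ofAdd (1 : ZMod e))) w =
      (val f w, Multiplicative.ofAdd ((w.length : ℕ) : ZMod e)) := by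
    intro w
    induction w with
    | nil => simp only [val, List.map_nil, List.prod_nil, List.length_nil, Nat.cast_zero, ofAdd_zero]; rfl
    | cons a w ih =>
      have h1 : ∀ {N : Type _} [Monoid N] (g : α → N), val g (a :: w) = g a * val g w := by
        intro N _ g; simp [val]
      rw [h1, ih, h1]
      refine Prod.ext rfl ?_
      change Multiplicative.ofAdd (1 : ZMod e) * Multiplicative.ofAdd ((w.length : ℕ) : ZMod e) = _
      rw [← ofAdd_add, List.length_cons, Nat.cast_succ, add_comm]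
  refine H.congr (H_runs (M := M × Multiplicative (ZMod e))
    (fun a => (f a, Multiplicative.ofAdd (1 : ZMod e)))
    (s, Multiplicative.ofAdd ((r : ℕ) : ZMod e)) b) fun w => ?_
  change ((∃ x : List α, x.length ≤ b ∧ ∃ k, w <:+: rep x k) ∧ val _ w = _) ↔
    ((∃ x : List α, x.length ≤ b ∧ ∃ k, w <:+: rep x k) ∧ val f w = s ∧ w.length % e = r % e)
  rw [hval, Prod.mk.injEq]
  refine and_congr_right fun _ => and_congr_right fun _ => ?_
  rw [Multiplicative.ofAdd.injective.eq_iff, ZMod.natCast_eq_natCast_iff']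

end Crest.Agent.R320.RunLang_910
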