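import Crest.Agent.R320.LWallAll_922
import Crest.Agent.R320.RunLang_910
import Crest.Agent.R320.Hk2_851
import Crest.Agent.R320.Block_467

/-!
# Row 320, P4 for the natural chain (helper81)

Blocks `XX Wo z` = words ending at the first wall at a place `≥ z`, tails `NP Wo z` = words
without such a wall.  All key-determined sets of blocks (tails) have height one: the key of `X` is
(first `K` letters, value of the rest in a finite monoid, length mod `e`).
-/

set_option autoImplicit false

namespace Crest.Agent.R320.Fib_81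

open Crest.RegLang Crest.Agent.R320.Hk_851 Crest.Agent.R320.RunLang_910
open Crest.Agent.R320.Core1_922

universe u

variable {α : Type u}

/-- `u ++ (factor of x^∞) ++ v`, bounded `u, x, v` -/
def Cov (B b : ℕ) (Z : List α) : Prop :=
  ∃ u m v : List α, u.length ≤ B ∧ v.length ≤ B ∧
    (∃ x : List α, x.length ≤ b ∧ ∃ k, m <:+: rep x k) ∧ Z = u ++ m ++ v

theorem Cov.drop {B b : ℕ} {Z : List α} (h : Cov B b Z) (j : ℕ) : Cov B b (Z.drop j) := by
  obtain ⟨u, m, v, hu, hv, ⟨x, hx, k, hk⟩, rfl⟩ := h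
  refine ⟨u.drop j, m.drop (j - u.length), v.drop (j - (u ++ m).length), ?_, ?_,
    ⟨x, hx, k, ?_⟩, ?_⟩
  · rw [List.length_drop]; omega
  · rw [List.length_drop]; omega
  · exact (List.drop_suffix _ _).isInfix.trans hk
  · rw [List.drop_append, List.drop_append]

/-- run words with value `s` -/
def RunL {M : Type*} [Monoid M] (f : α → M) (b : ℕ) (s : M) : Language α :=
  {w | (∃ x : List α, x.length ≤ b ∧ ∃ k, w <:+: rep x k) ∧ val f w = s}

theorem cov_HL [Finite α] {M : Type*} [Monoid M] [Finite M] (f : α → M) (s : M) (B b : ℕ) :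
    HL 1 ({Z | Cov B b Z ∧ (Z.map f).prod = s} : Language α) := by
  classical
  have hfin : ({q : List α × List α × M | q.1.length ≤ B ∧ q.2.1.length ≤ B ∧
      (q.1.map f).prod * q.2.2 * (q.2.1.map f).prod = s} : Set _).Finite := by
    refine (((List.finite_length_le α B).prod ((List.finite_length_le α B).prod
      (Set.finite_univ (α := M))))).subset ?_
    rintro ⟨u, v, t⟩ ⟨h1, h2, -⟩
    exact ⟨h1, h2, trivial⟩
  have h := HL.biUnion (k := 1) hfin
    (L := fun q => ({q.1} : Language α) * RunL f b q.2.2 * ({q.2.1} : Language α))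
    (fun q _ => ((HL.word q.1).mul (show HL 1 (RunL f b q.2.2) from H_runs f q.2.2 b)).mul
      (HL.word q.2.1))
  refine h.congr fun Z => ?_
  constructor
  · rintro ⟨⟨u, m, v, hu, hv, hm, rfl⟩, hs⟩
    refine ⟨(u, v, val f m), ⟨hu, hv, ?_⟩, ?_⟩
    · rw [List.map_append, List.map_append, List.prod_append, List.prod_append] at hs
      exact hs
    · exact Language.mem_mul.2 ⟨u ++ m, Language.mem_mul.2 ⟨u, rfl, m, ⟨hm, rfl⟩, rfl⟩, v, rfl, rfl⟩
  · rintro ⟨⟨u, v, t⟩, ⟨hu, hv, hs⟩, hZ⟩
    obtain ⟨um, hum, v', hv', rfl⟩ := Language.mem_mul.1 hZ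
    obtain ⟨u', hu', m, ⟨hm, hmt⟩, rfl⟩ := Language.mem_mul.1 hum
    have e1 : u' = u := hu'
    have e2 : v' = v := hv'
    subst e1 e2
    refine ⟨⟨u', m, v', hu, hv, hm, rfl⟩, ?_⟩
    rw [List.map_append, List.map_append, List.prod_append, List.prod_append]
    have : (m.map f).prod = t := hmt
    rw [this]
    exact hs

/-- the prefix of length `K` and the value of the rest -/
theorem key_HL [Finite α] {M : Type*} [Monoid M] [Finite M] (f : α → M) (B b K : ℕ)
    {C : Language α} (hC : HL 1 C) (hcov : ∀ X ∈ C, Cov B b X) (p : List α) (s : M) :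
    HL 1 ({X | X ∈ C ∧ X.take K = p ∧ ((X.drop K).map f).prod = s} : Language α) := by
  by_cases hp : p.length = K
  · refine (hC.setOf_and ((HL.word p).mul (cov_HL f s B b))).congr fun X => ?_
    constructor
    · rintro ⟨hX, h1, h2⟩
      exact ⟨hX, Language.mem_mul.2 ⟨p, rfl, X.drop K, ⟨(hcov X hX).drop K, h2⟩,
        by rw [← h1, List.take_append_drop]⟩⟩
    · rintro ⟨hX, h⟩
      obtain ⟨p', hp', Z, ⟨-, hZ⟩, rfl⟩ := Language.mem_mul.1 h
      have e : p' = p := hp'
      subst e
      refine ⟨hX, ?_, ?_⟩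
      · rw [← hp, List.take_left]
      · rw [← hp, List.drop_left]; exact hZ
  · refine HL.finite ((Set.finite_singleton p).subset ?_)
    rintro X ⟨-, h1, -⟩
    have h2 : X.length ≤ K := by
      by_contra hlt
      push Not at hlt
      apply hp
      rw [← h1, List.length_take]; omega
    rw [List.take_of_length_le h2] at h1
    exact h1

/-- **key theorem**, finite monoid form -/
theorem HL_of_key [Finite α] {M : Type*} [Monoid M] [Finite M] (f : α → M) (B b K : ℕ)
    {C : Language α} (hC : HL 1 C) (hcov : ∀ X ∈ C, Cov B b X) (L : Language α)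
    (hLC : ∀ X ∈ L, X ∈ C)
    (hkey : ∀ X ∈ C, ∀ Y ∈ C, X.take K = Y.take K →
      ((X.drop K).map f).prod = ((Y.drop K).map f).prod → X ∈ L → Y ∈ L) : HL 1 L := by
  have hfin : ({q : List α × M | q.1.length ≤ K ∧ ∃ Y ∈ L, Y.take K = q.1 ∧
      ((Y.drop K).map f).prod = q.2} : Set _).Finite := by
    refine ((List.finite_length_le α K).prod (Set.finite_univ (α := M))).subset ?_
    rintro ⟨u, t⟩ ⟨h1, -⟩
    exact ⟨h1, trivial⟩
  refine (HL.biUnion (k := 1) hfin (L := fun q => ({X | X ∈ C ∧ X.take K = q.1 ∧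
    ((X.drop K).map f).prod = q.2} : Language α))
    (fun q _ => key_HL f B b K hC hcov q.1 q.2)).congr fun X => ?_
  constructor
  · intro hX
    exact ⟨(X.take K, ((X.drop K).map f).prod), ⟨by rw [List.length_take]; omega, X, hX, rfl, rfl⟩,
      hLC X hX, rfl, rfl⟩
  · rintro ⟨⟨p, s⟩, ⟨-, Y, hY, h1, h2⟩, hX, h3, h4⟩
    exact hkey Y (hLC Y hY) X hX (h1.trans h3.symm) (h2.trans h4.symm) hY

theorem prod_len {M : Type*} [Monoid M] (f : α → M) (e : ℕ) (w : List α) :
    (w.map fun a => (f a, Multiplicative.ofAdd (1 : ZMod e))).prod =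
      ((w.map f).prod, Multiplicative.ofAdd (w.length : ZMod e)) := by
  induction w with
  | nil => simp; rfl
  | cons a w ih =>
    rw [List.map_cons, List.prod_cons, ih, List.map_cons, List.prod_cons, Prod.mk_mul_mk]
    congr 1
    rw [← ofAdd_add, List.length_cons]
    congr 1
    push_cast
    ring

/-- **key theorem**, with the length mod `e` -/
theorem HL_of_key_mod [Finite α] {M : Type*} [Monoid M] [Finite M] (f : α → M) (B b K e : ℕ)
    (he : 0 < e) {C : Language α} (hC : HL 1 C) (hcov : ∀ X ∈ C, Cov B b X) (L : Language α)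
    (hLC : ∀ X ∈ L, X ∈ C)
    (hkey : ∀ X ∈ C, ∀ Y ∈ C, X.take K = Y.take K →
      ((X.drop K).map f).prod = ((Y.drop K).map f).prod → X.length % e = Y.length % e →
      X ∈ L → Y ∈ L) : HL 1 L := by
  have : NeZero e := ⟨he.ne'⟩
  have : Finite (Multiplicative (ZMod e)) := inferInstanceAs (Finite (ZMod e))
  refine HL_of_key (fun a => (f a, Multiplicative.ofAdd (1 : ZMod e))) B b K hC hcov L hLC ?_
  intro X hX Y hY h1 h2 hXL
  rw [prod_len, prod_len, Prod.mk.injEq] at h2
  refine hkey X hX Y hY h1 h2.1 ?_ hXL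
  have h3 : ((X.drop K).length : ZMod e) = ((Y.drop K).length : ZMod e) :=
    Multiplicative.ofAdd.injective h2.2
  rw [ZMod.natCast_eq_natCast_iff] at h3
  have h4 : (X.take K).length = (Y.take K).length := by rw [h1]
  have h5 : ∀ Z : List α, Z.length = (Z.take K).length + (Z.drop K).length := fun Z => by
    rw [← List.length_append, List.take_append_drop]
  have h6 : X.length ≡ Y.length [MOD e] := by
    rw [h5 X, h5 Y, h4]
    exact Nat.ModEq.add_left _ h3
  exact h6

/-! ## Blocks and tails of the natural chain -/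

/-- blocks: the first wall at a place `≥ z` is at the end -/
def XX (Wo : List α → Prop) (z : ℕ) : Set (List α) :=
  {X | z ≤ X.length ∧ Wo X ∧ ∀ t, z ≤ t → t < X.length → ¬ Wo (X.take t)}

/-- tails: no wall at a place `≥ z` -/
def NP (Wo : List α → Prop) (z : ℕ) : Set (List α) :=
  {X | ∀ t, z ≤ t → t ≤ X.length → ¬ Wo (X.take t)}

variable {Wo : List α → Prop} {n z : ℕ}

theorem wall_HL [Finite α] (h : LW n Wo) (z : ℕ) :
    HL 0 ({Y | z ≤ Y.length ∧ Wo Y} : Language α) := by
  have h1 : HL 0 ({Q | Q.length = n ∧ Wo Q} : Language α) :=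
    HL.finite ((List.finite_length_eq α n).subset fun Q hQ => hQ.1)
  refine ((HL.length_ge z).setOf_and (HL.top.mul h1)).congr fun Y => ?_
  constructor
  · rintro ⟨hz, hY⟩
    have hn := h.len Y hY
    refine ⟨hz, Language.mem_mul.2 ⟨Y.take (Y.length - n), trivial, Y.drop (Y.length - n),
      ⟨?_, ?_⟩, List.take_append_drop _ _⟩⟩
    · rw [List.length_drop]; omega
    · rw [← h.app (Y.take (Y.length - n)) (Y.drop (Y.length - n))
        (by rw [List.length_drop]; omega), List.take_append_drop]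
      exact hY
  · rintro ⟨hz, hY⟩
    obtain ⟨P, -, Q, ⟨hQ, hW⟩, rfl⟩ := Language.mem_mul.1 hY
    exact ⟨hz, (h.app P Q hQ.ge).2 hW⟩

theorem NP_HL [Finite α] (h : LW n Wo) (z : ℕ) : HL 0 (NP Wo z : Language α) := by
  refine (((wall_HL h z).mul HL.top).compl).congr fun X => ?_
  constructor
  · intro hX hm
    obtain ⟨Y, ⟨hz, hY⟩, R, -, rfl⟩ := Language.mem_mul.1 hm
    refine hX Y.length hz (by simp) ?_
    rw [List.take_left]; exact hY
  · intro hX t hz ht hW
    exact hX (Language.mem_mul.2 ⟨X.take t, ⟨by rw [List.length_take]; omega, hW⟩, X.drop t,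
      trivial, List.take_append_drop _ _⟩)

theorem XX_HL [Finite α] (h : LW n Wo) (z : ℕ) : HL 0 (XX Wo z : Language α) := by
  refine ((wall_HL h z).setOf_and (((wall_HL h z).mul (HL.length_ge 1)).compl)).congr fun X => ?_
  constructor
  · rintro ⟨hz, hW, hX⟩
    refine ⟨⟨hz, hW⟩, fun hm => ?_⟩
    obtain ⟨Y, ⟨hz', hY⟩, R, hR, rfl⟩ := Language.mem_mul.1 hm
    have hR' : 1 ≤ R.length := hR
    refine hX Y.length hz' (by rw [List.length_append]; omega) ?_
    rw [List.take_left]; exact hY
  · rintro ⟨⟨hz, hW⟩, hX⟩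
    refine ⟨hz, hW, fun t hzt ht hWt => hX (Language.mem_mul.2 ⟨X.take t,
      ⟨by rw [List.length_take]; omega, hWt⟩, X.drop t, ?_, List.take_append_drop _ _⟩)⟩
    change 1 ≤ (X.drop t).length
    rw [List.length_drop]; omega

theorem cov_of_gap {B W : ℕ} (h : LW n Wo)
    (hB : ∀ X : List α, (∀ t < X.length, ¬ Wo (X.take t)) →
        ∃ (u x v : List α) (k : ℕ), u.length ≤ B ∧ x.length ≤ W ∧ v.length ≤ B ∧
          X = u ++ (List.replicate k x).flatten ++ v)
    {X : List α} (hX : ∀ t, z ≤ t → t < X.length → ¬ Wo (X.take t)) : Cov (z + B) W X := by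
  obtain ⟨u, x, v, k, hu, hx, hv, he⟩ := hB (X.drop z) (by
    intro t ht hW
    rw [List.length_drop] at ht
    have hn := h.len _ hW
    rw [List.length_take] at hn
    refine hX (z + t) (Nat.le_add_right _ _) (by omega) ?_
    have e : X.take (z + t) = X.take z ++ (X.drop z).take t := by
      rw [List.take_add]
    rw [e, h.app _ _ (by rw [List.length_take, List.length_drop]; omega)]
    exact hW)
  refine ⟨X.take z ++ u, rep x k, v, ?_, by omega, ⟨x, hx, k, List.infix_rfl⟩, ?_⟩
  · rw [List.length_append, List.length_take]; omega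
  · rw [List.append_assoc, List.append_assoc, ← List.append_assoc u]
    change X = X.take z ++ ((u ++ (List.replicate k x).flatten) ++ v)
    rw [← he, List.take_append_drop]

theorem XX_pcode (hz : 0 < z) : Crest.Agent.R320.Blk467.PCode (XX Wo z) := by
  refine ⟨fun h => ?_, fun X hX Y hY hp => ?_⟩
  · have := h.1; simp at this; omega
  · by_contra hne
    have hlt : X.length < Y.length := by
      rcases Nat.lt_or_ge X.length Y.length with h | h
      · exact h
      · exact (hne (hp.eq_of_length_le h)).elim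
    refine hY.2.2 X.length hX.1 hlt ?_
    rw [← List.prefix_iff_eq_take.1 hp]
    exact hX.2.1

theorem NP_iff (w : List α) : (∀ X ∈ XX Wo z, ¬ X <+: w) ↔ w ∈ NP Wo z := by
  classical
  constructor
  · intro h t hzt ht hW
    have hex : ∃ t, z ≤ t ∧ t ≤ w.length ∧ Wo (w.take t) := ⟨t, hzt, ht, hW⟩
    obtain ⟨h1, h2, h3⟩ := Nat.find_spec hex
    refine h (w.take (Nat.find hex)) ⟨by rw [List.length_take]; omega, h3, ?_⟩
      (List.take_prefix _ _)
    intro s hs hs' hWs
    rw [List.length_take] at hs'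
    rw [List.take_take, min_eq_left (by omega)] at hWs
    exact Nat.find_min hex (by omega : s < Nat.find hex) ⟨hs, by omega, hWs⟩
  · intro h X hX hp
    refine h X.length hX.1 hp.length_le ?_
    rw [← List.prefix_iff_eq_take.1 hp]
    exact hX.2.1

/-- key-determined sets of blocks -/
theorem HL_blocks [Finite α] {M : Type*} [Monoid M] [Finite M] (f : α → M) {B W : ℕ} (K e : ℕ)
    (he : 0 < e) (h : LW n Wo)
    (hB : ∀ X : List α, (∀ t < X.length, ¬ Wo (X.take t)) →
        ∃ (u x v : List α) (k : ℕ), u.length ≤ B ∧ x.length ≤ W ∧ v.length ≤ B ∧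
          X = u ++ (List.replicate k x).flatten ++ v)
    (L : Language α) (hLC : ∀ X ∈ L, X ∈ XX Wo z)
    (hkey : ∀ X ∈ XX Wo z, ∀ Y ∈ XX Wo z, X.take K = Y.take K →
      ((X.drop K).map f).prod = ((Y.drop K).map f).prod → X.length % e = Y.length % e →
      X ∈ L → Y ∈ L) : HL 1 L :=
  HL_of_key_mod f (z + B) W K e he (C := (XX Wo z : Language α))
    ((XX_HL h z).mono (Nat.zero_le 1)) (fun X hX => cov_of_gap h hB hX.2.2) L hLC hkey

/-- key-determined sets of tails -/
theorem HL_tails [Finite α] {M : Type*} [Monoid M] [Finite M] (f : α → M) {B W : ℕ} (K e : ℕ)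
    (he : 0 < e) (h : LW n Wo)
    (hB : ∀ X : List α, (∀ t < X.length, ¬ Wo (X.take t)) →
        ∃ (u x v : List α) (k : ℕ), u.length ≤ B ∧ x.length ≤ W ∧ v.length ≤ B ∧
          X = u ++ (List.replicate k x).flatten ++ v)
    (L : Language α) (hLC : ∀ X ∈ L, X ∈ NP Wo z)
    (hkey : ∀ X ∈ NP Wo z, ∀ Y ∈ NP Wo z, X.take K = Y.take K →
      ((X.drop K).map f).prod = ((Y.drop K).map f).prod → X.length % e = Y.length % e →
      X ∈ L → Y ∈ L) : HL 1 L :=
  HL_of_key_mod f (z + B) W K e he (C := (NP Wo z : Language α))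
    ((NP_HL h z).mono (Nat.zero_le 1)) (fun X hX => cov_of_gap h hB
      fun t h1 h2 => hX t h1 h2.le) L hLC hkey

/-- the tails with a prescribed product (`hNP` / `htail`) -/
theorem HL_tail_prod [Finite α] {M : Type*} [Monoid M] [Finite M] (f : α → M) {B W : ℕ}
    (h : LW n Wo)
    (hB : ∀ X : List α, (∀ t < X.length, ¬ Wo (X.take t)) →
        ∃ (u x v : List α) (k : ℕ), u.length ≤ B ∧ x.length ≤ W ∧ v.length ≤ B ∧
          X = u ++ (List.replicate k x).flatten ++ v) (s : M) :
    HL 1 ({w | (∀ X ∈ XX Wo z, ¬ X <+: w) ∧ (w.map f).prod = s} : Language α) := by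
  refine HL_tails (z := z) f 0 1 one_pos h hB _ (fun X hX => (NP_iff X).1 hX.1) ?_
  intro X hX Y hY _ h2 _ hXL
  refine ⟨(NP_iff Y).2 hY, ?_⟩
  rw [List.drop_zero, List.drop_zero] at h2
  rw [← h2]; exact hXL.2

end Crest.Agent.R320.Fib_81
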