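import Crest.Agent.R320.Top5_120
import Crest.Agent.R320.Sc2n_937
import Crest.Agent.R320.P4_933
import Crest.Agent.R320.RegCongr_253

set_option autoImplicit false

/-! Row 320: join of the top theorem (120) and the two schemes (937), hypotheses abstract. -/

namespace Crest.Agent.R320.Fin_709

open Crest.Agent.R320.Hk_851 Crest.Agent.R320.Blk467 Crest.Agent.R320.Sc2n_937

section cong

variable {α S : Type} [Monoid S] (φ : α → S)

def Sim (B P : ℕ) (q q' : List α) : Prop :=
  B ≤ q.length ∧ B ≤ q'.length ∧ q.take B = q'.take B ∧ q.length % P = q'.length % P ∧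
    ((q.drop B).map φ).prod = ((q'.drop B).map φ).prod

variable {φ}

theorem Sim.mono {B B' P : ℕ} {q q' : List α} (h : Sim φ B P q q') (hb : B' ≤ B) :
    Sim φ B' P q q' := by
  obtain ⟨h1, h2, h3, h4, h5⟩ := h
  have key : ∀ u : List α, B ≤ u.length → ((u.drop B').map φ).prod =
      (((u.take B).drop B').map φ).prod * ((u.drop B).map φ).prod := by
    intro u hu
    rw [← List.prod_append, ← List.map_append]
    congr 2
    conv_lhs => rw [← List.take_append_drop B u]
    rw [List.drop_append_of_le_length (by rw [List.length_take]; omega)]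
  refine ⟨by omega, by omega, ?_, h4, ?_⟩
  · have := congrArg (List.take B') h3
    rwa [List.take_take, List.take_take, min_eq_left hb] at this
  · rw [key q h1, key q' h2, h3, h5]

theorem Sim.drop {B P c : ℕ} {q q' : List α} (h : Sim φ B P q q') (hc : c ≤ B) :
    Sim φ (B - c) P (q.drop c) (q'.drop c) := by
  obtain ⟨h1, h2, h3, h4, h5⟩ := h
  refine ⟨by rw [List.length_drop]; omega, by rw [List.length_drop]; omega, ?_, ?_, ?_⟩
  · have := congrArg (List.drop c) h3
    rwa [List.drop_take, List.drop_take] at this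
  · rw [List.length_drop, List.length_drop]
    have e1 : c + (q.length - c) = q.length := by omega
    have e2 : c + (q'.length - c) = q'.length := by omega
    have : c + (q.length - c) ≡ c + (q'.length - c) [MOD P] := by
      rw [e1, e2]; exact h4
    exact Nat.ModEq.add_left_cancel' c this
  · rw [List.drop_drop, List.drop_drop, show c + (B - c) = B by omega]; exact h5

theorem Sim.symm {B P : ℕ} {q q' : List α} (h : Sim φ B P q q') : Sim φ B P q' q :=
  ⟨h.2.1, h.1, h.2.2.1.symm, h.2.2.2.1.symm, h.2.2.2.2.symm⟩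

theorem Sim.phi {B P : ℕ} {q q' : List α} (h : Sim φ B P q q') :
    (q.map φ).prod = (q'.map φ).prod := by
  have := (h.mono (Nat.zero_le _)).2.2.2.2
  simpa using this

theorem Sim.take {B P c : ℕ} {q q' : List α} (h : Sim φ B P q q') (hc : c ≤ B) :
    q.take c = q'.take c := (h.mono hc).2.2.1

variable {V : Type} [AddCommGroup V] (act : V → S → V) (lam rho : List α → Option V)
  (nu : List α → V)

open Classical in
/-- the noise of scheme 1, zero where it is not used -/
noncomputable def nu' (Y : List α) : V :=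
  if ∃ P Q v r, Y = P ++ Q ∧ lam P = some v ∧ rho Q = some r then nu Y else 0

variable {act lam rho nu}

theorem nu'_eq {P Q : List α} {v r : V} (hl : lam P = some v) (hr : rho Q = some r) :
    nu' lam rho nu (P ++ Q) = nu (P ++ Q) := by
  unfold nu'
  rw [if_pos ⟨P, Q, v, r, rfl, hl, hr⟩]

theorem nu'_congr {N1 A B Pm : ℕ} (hlen : ∀ P v, lam P = some v → P.length ≤ N1)
    (hA : ∀ Q Q' : List α, Sim φ A Pm Q Q' → rho Q = rho Q')
    (hs : ∀ P Q v b, lam P = some v → rho Q = some b →
      b = act v ((P ++ Q).map φ).prod + nu (P ++ Q))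
    (hB : N1 + A ≤ B) {Y Y' : List α} (h : Sim φ B Pm Y Y') :
    nu' lam rho nu Y = nu' lam rho nu Y' := by
  have tr : ∀ {Y Y' : List α}, Sim φ B Pm Y Y' → ∀ {P Q v r}, Y = P ++ Q → lam P = some v →
      rho Q = some r → ∃ Q', Y' = P ++ Q' ∧ rho Q' = some r := by
    intro Y Y' h P Q v r e hl hr
    have h1 := hlen P v hl
    have h2 : Sim φ (B - P.length) Pm (Y.drop P.length) (Y'.drop P.length) := h.drop (by omega)
    have h3 : Y.drop P.length = Q := by rw [e, List.drop_left]
    rw [h3] at h2
    refine ⟨Y'.drop P.length, ?_, ?_⟩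
    · have h4 := h.take (c := P.length) (by omega)
      rw [e, List.take_left] at h4
      conv_lhs => rw [← List.take_append_drop P.length Y', ← h4]
    · rw [← hA _ _ (h2.mono (by omega))]; exact hr
  unfold nu'
  by_cases hY : ∃ P Q v r, Y = P ++ Q ∧ lam P = some v ∧ rho Q = some r
  · obtain ⟨P, Q, v, r, e, hl, hr⟩ := hY
    obtain ⟨Q', e', hr'⟩ := tr h e hl hr
    rw [if_pos ⟨P, Q, v, r, e, hl, hr⟩, if_pos ⟨P, Q', v, r, e', hl, hr'⟩]
    have a1 := hs P Q v r hl hr
    have a2 := hs P Q' v r hl hr'
    rw [← e] at a1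
    rw [← e'] at a2
    rw [h.phi] at a1
    have := a1.symm.trans a2
    exact add_left_cancel this
  · have hY' : ¬ ∃ P Q v r, Y' = P ++ Q ∧ lam P = some v ∧ rho Q = some r := by
      rintro ⟨P, Q, v, r, e, hl, hr⟩
      obtain ⟨Q', e', hr'⟩ := tr h.symm e hl hr
      exact hY ⟨P, Q', v, r, e', hl, hr'⟩
    rw [if_neg hY, if_neg hY']

end cong

end Crest.Agent.R320.Fin_709
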