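import Crest.Agent.R320.GridG_19
import Crest.Agent.R320.GridRuler_257

/-!
# Row 320, helper102: grid gadget + ruler as one black box (for the last assembly)
-/

set_option autoImplicit false

namespace Crest.Agent.R320.Fin_102

open Crest.Agent.R320

/-- gadget box -/
theorem box (S V : Type) [Monoid S] [Finite S] [AddCommGroup V] [Finite V] (act : V → S → V) :
    ∃ C0 : ℕ, ∀ K : ℕ, ∃ (N L La p0 : ℕ) (x : ℕ → ℕ) (BT : ℕ → Prop), 0 < L ∧
      (∀ i j, i < j → x i < x j) ∧ (∀ k, k < K → x k ≤ p0) ∧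
      (∀ a b c d, a ≠ b → x a + x d < x b + x c + 4 * N → x b + x c < x a + x d + 4 * N →
        a = c ∧ b = d) ∧
      (∀ T, p0 ≤ T → ∃ F : Finset (ℕ × ℕ), F.card ≤ C0 ∧ ∀ a b, a < K → b < K →
        a ≠ b → BT (T + x a - x b) → (a, b) ∈ F) ∧
      (∀ T, BT (T + L) ↔ BT T) ∧
      ∀ (α : Type) (φ : List α → S), (∀ u v, φ (u ++ v) = φ u * φ v) →
        ∃ (lam rho : List α → Option V) (nu : List α → V),
          (∀ p v, lam p = some v → p.length < N) ∧
          (∀ p q v r, lam p = some v → rho q = some r → r = act v (φ (p ++ q)) + nu (p ++ q)) ∧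
          (∀ u : List α, 2 * N ≤ u.length → ¬ BT u.length → ∀ v, ∃ p q, p ++ q = u ∧
            lam p = some v ∧ ∃ r, rho q = some r) ∧
          (∀ Y Y' : List α, La ≤ Y.length → La ≤ Y'.length → Y.take La = Y'.take La →
            Y.length ≡ Y'.length [MOD L] → φ Y = φ Y' → nu Y = nu Y') := by
  classical
  obtain ⟨m, r, h⟩ := GridG_19.grid.{0} S V act
  refine ⟨r + m, fun K => ?_⟩
  obtain ⟨Ms, hcard, hpr, hG⟩ := h (4 ^ K)
  have hM0 : 0 < ∏ q ∈ Ms, q := Finset.prod_pos fun q hq => (hpr q hq).1.pos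
  have hdv : ∀ k ∈ Ms, k ∣ ∏ q ∈ Ms, q := fun k hk => Finset.dvd_prod_of_mem _ hk
  generalize (∏ q ∈ Ms, q) = M at hG hM0 hdv
  obtain ⟨Γ, hΓe⟩ : ∃ Γ : ℕ, Γ = M * (16 * 4 ^ K) + 1 := ⟨_, rfl⟩
  have hΓp : 0 < Γ := by omega
  let G : ℕ → ℕ := fun k => Γ ^ k
  have hGp : ∀ k, 0 < G k := fun k => pow_pos hΓp k
  have hGd : ∀ a b, a ≤ b → G a ∣ G b := fun a b h => pow_dvd_pow _ h
  have hΓ : Nat.Coprime M Γ := by
    rw [hΓe]
    exact (Nat.coprime_mul_right_add_right M 1 (16 * 4 ^ K)).2 (Nat.coprime_one_right M) |> fun h => by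
      simpa [Nat.mul_comm] using h
  have hcop : ∀ k, Nat.Coprime M (G k) := fun k => Nat.Coprime.pow_right k hΓ
  let A : ℕ → ℕ := GridG_19.Am G M 1
  let N : ℕ := A m + M
  obtain ⟨U, hU1, hU2, hU3, hU4⟩ := GridRuler_257.ruler K m Ms M G A N hM0
    (fun k hk => ⟨hdv k hk, (hpr k hk).2.le⟩) (hGp 0)
    (fun j => hGd j (j+1) (Nat.le_succ j))
    (fun j => by
      show 16 * 4 ^ K * (M * Γ ^ j) ≤ Γ ^ (j+1)
      have h1 : 16 * 4 ^ K * M ≤ Γ := by rw [hΓe, Nat.mul_comm M]; omega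
      calc 16 * 4 ^ K * (M * Γ ^ j) = (16 * 4 ^ K * M) * Γ ^ j := by ring
        _ ≤ Γ * Γ ^ j := Nat.mul_le_mul_right _ h1
        _ = Γ ^ (j+1) := by ring)
    (hcop m)
  have hUle : ∀ k, k < K → U * 4 ^ k ≤ U * 4 ^ K := fun k hk =>
    Nat.mul_le_mul_left _ (Nat.pow_le_pow_right (by norm_num) hk.le)
  refine ⟨N, M * G m, GridG_19.Ac G M 1 m, U * 4 ^ K, fun i => U * 4 ^ i,
    fun T => GridRuler_257.BadZ Ms m M G A (T : ℤ), Nat.mul_pos hM0 (hGp m), ?_, ?_, ?_, ?_, ?_, ?_⟩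
  · intro i j hij
    have := hU2 i j hij
    show U * 4 ^ i < U * 4 ^ j
    omega
  · intro k hk; exact hUle k hk
  · intro a b c d hab h1 h2
    rcases hU3 a b c d hab with h3 | h3
    · exact h3
    · exfalso
      simp only at h1 h2
      rcases lt_abs.1 h3 with h4 | h4 <;> omega
  · intro T hT
    refine ⟨((Finset.range K ×ˢ Finset.range K).filter fun ab => ab.1 ≠ ab.2 ∧
      GridRuler_257.BadZ Ms m M G A ((T : ℤ) + (U * 4 ^ ab.1 : ℕ) - (U * 4 ^ ab.2 : ℕ))), ?_, ?_⟩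
    · refine (hU4 T _ ?_).trans (by omega)
      intro ab hab
      rw [Finset.mem_filter, Finset.mem_product, Finset.mem_range, Finset.mem_range] at hab
      exact ⟨hab.1.1, hab.1.2, hab.2.1, hab.2.2⟩
    · intro a b ha hb hab hB
      rw [Finset.mem_filter, Finset.mem_product, Finset.mem_range, Finset.mem_range]
      refine ⟨⟨ha, hb⟩, hab, ?_⟩
      have e : ((T + U * 4 ^ a - U * 4 ^ b : ℕ) : ℤ) = (T:ℤ) + (U * 4 ^ a : ℕ) - (U * 4 ^ b : ℕ) := by
        have := (hUle b hb).trans hT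
        omega
      rw [← e]; exact hB
  · intro T
    have := GridRuler_257.BadZ_period (A := A) (m := m) hdv (fun j => hGd j (j+1) (Nat.le_succ j)) (T : ℤ)
    show GridRuler_257.BadZ Ms m M G A ((T + M * G m : ℕ) : ℤ) ↔ _
    rw [Nat.cast_add]
    exact this
  · intro α φ hφ
    obtain ⟨lam, rho, nu, g1, g2, g3, g4, g5⟩ := hG G 1 hGp hGd hcop α φ hφ
    refine ⟨lam, rho, nu, ?_, ?_, ?_, ?_⟩
    · intro p v hp
      have := (g2 p v hp).2
      show p.length < A m + M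
      have e : A m = GridG_19.Am G M 1 m := rfl
      omega
    · intro p q v r h1 h2; exact g1 p q v r h1 h2
    · intro u hu hB v
      have hu' : 2 * (A m + M) ≤ u.length := hu
      have hAm : ∀ j, j ≤ m → A j ≤ A m := fun j hj => GridG_19.Am_mono G M 1 hj
      have hc := GridRuler_257.clear_of_not_bad (A := A) (m := m) (M := M) (Ms := Ms) hGp
        (T := u.length) (fun j _ hj => by have := hAm j hj; omega) hB
      have e : A m = GridG_19.Am G M 1 m := rfl
      obtain ⟨P, Q, h1, h2, h3⟩ := g4 u (by omega) (by omega) hc.1 (by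
        rintro ⟨k, hk, hh⟩
        have h5 := hc.2 (k+1) (by omega) (by omega)
        rw [Nat.add_sub_cancel] at h5
        have e2 : A (k+1) = GridG_19.Am G M 1 (k+1) := rfl
        rw [e2] at h5
        omega) v
      exact ⟨P, Q, h1, h2, Option.isSome_iff_exists.1 h3⟩
    · exact g5

end Crest.Agent.R320.Fin_102
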