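import Crest.Agent.R320.FewWalls_228
import Crest.Agent.R320.RegBd_11
import Crest.Agent.R320.Hk2_851

/-!
# Row 320: the outer wall rule on ALL words, in final form (helper480)

One rule `R` (window `n`), walls `≥ W` apart, and: every regular language whose words have at most
`r` walls has generalized star height at most one.  Right-looking (`outer_rule`) and left-looking
(`outer_rule_left`) forms.
-/

set_option autoImplicit false

namespace Crest.Agent.R320.OutRule_480

open Crest.RegLang Crest.Agent.R320.Hk_851 Crest.Agent.R320.Pump_360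
  Crest.Agent.R320.FewWalls_228

universe u

variable {α : Type u}

/-- right-looking form: wall at `x` iff `R (w.drop x)` -/
theorem outer_rule [Finite α] (W : ℕ) :
    ∃ (n : ℕ) (R : List α → Prop), 0 < n ∧ (∀ Q, R Q ↔ R (Q.take n)) ∧
      (∀ Q, R Q → n ≤ Q.length) ∧
      (∀ Q d, R Q → 0 < d → R (Q.drop d) → W ≤ d) ∧
      (∀ (r : ℕ) (L : Language α), L.IsRegular →
        (∀ w ∈ L, ∀ F : Finset ℕ, (∀ x ∈ F, R (w.drop x)) → F.card ≤ r) → HL 1 L) := by
  classical
  obtain ⟨n, c, P, S, hn, hP, hS, hsep, hper⟩ := Mk263.marker (α := α) (max W 1) (le_max_right _ _)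
  refine ⟨n, fun Q => n ≤ Q.length ∧ Q.take n ∈ S, hn, ?_, fun Q h => h.1, ?_, ?_⟩
  · intro Q
    simp only [List.length_take, List.take_take, Nat.min_self]
    constructor
    · rintro ⟨h1, h2⟩; exact ⟨by omega, h2⟩
    · rintro ⟨h1, h2⟩; exact ⟨by omega, h2⟩
  · rintro Q d ⟨h1, h2⟩ hd ⟨h3, h4⟩
    rw [List.length_drop] at h3
    have := hsep Q 0 d hd (by omega) (by simpa using h2) h4
    have hw := le_max_left W 1
    omega
  · intro r L hL hr
    obtain ⟨M, E, hM, hp⟩ := RegBd_11.reg_pump hL
    refine HL_one_of_few_walls (n := n) (c := c) (P := P) (S := S) hn hP hper r ?_ E M hM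
      (fun u x v k _ hk => hp u x v k hk)
    intro w hw
    unfold nw
    refine hr w hw _ ?_
    intro x hx
    rw [Finset.mem_filter] at hx
    obtain ⟨_, h1, h2⟩ := hx
    refine ⟨?_, h2⟩
    rw [List.length_drop]; omega

/-- left-looking form: wall at `x` iff `Wo (w.take x)` -/
theorem outer_rule_left [Finite α] (W : ℕ) :
    ∃ (n : ℕ) (Wo : List α → Prop), 0 < n ∧ (∀ P, Wo P → n ≤ P.length) ∧
      (∀ P Q : List α, n ≤ Q.length → (Wo (P ++ Q) ↔ Wo Q)) ∧
      (∀ (P : List α) (d : ℕ), Wo P → 0 < d → d ≤ P.length → Wo (P.take (P.length - d)) → W ≤ d) ∧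
      (∀ (r : ℕ) (L : Language α), L.IsRegular →
        (∀ w ∈ L, ∀ F : Finset ℕ, (∀ x ∈ F, x ≤ w.length ∧ Wo (w.take x)) → F.card ≤ r) →
        HL 1 L) := by
  classical
  obtain ⟨n, R, hn, h1, h2, h3, h4⟩ := outer_rule (α := α) W
  refine ⟨n, fun P => R P.reverse, hn, ?_, ?_, ?_, ?_⟩
  · intro P hP
    have := h2 _ hP
    rwa [List.length_reverse] at this
  · intro P Q hQ
    simp only
    rw [h1 (P ++ Q).reverse, h1 Q.reverse, List.reverse_append,
      List.take_append_of_le_length (by rw [List.length_reverse]; exact hQ)]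
  · intro P d hP hd hdl hR
    refine h3 P.reverse d hP hd ?_
    rw [List.drop_reverse]; exact hR
  · intro r L hL hr
    have hL' : (L.reverse).IsRegular := hL.reverse
    have key : HL 1 L.reverse := by
      refine h4 r L.reverse hL' ?_
      intro w hw F hF
      rw [Language.mem_reverse] at hw
      have hinj : Set.InjOn (fun x => w.length - x) (F : Set ℕ) := by
        intro x hx y hy hxy
        have hx' := h2 _ (hF x hx)
        have hy' := h2 _ (hF y hy)
        rw [List.length_drop] at hx' hy'
        simp only at hxy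
        omega
      rw [← Finset.card_image_of_injOn hinj]
      refine hr w.reverse hw _ ?_
      intro y hy
      rw [Finset.mem_image] at hy
      obtain ⟨x, hx, rfl⟩ := hy
      refine ⟨by rw [List.length_reverse]; omega, ?_⟩
      have hx' := h2 _ (hF x hx)
      rw [List.length_drop] at hx'
      have e : (w.reverse.take (w.length - x)).reverse = w.drop x := by
        rw [List.reverse_take, List.reverse_reverse, List.length_reverse]
        congr 1
        omega
      simp only [e]
      exact hF x hx
    have := key.reverse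
    rwa [Language.reverse_reverse] at this

end Crest.Agent.R320.OutRule_480
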