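import Crest.Agent.R320.Top_270
import Crest.Agent.R320.Sc2n_937
import Crest.Agent.R320.P4_933
import Crest.Agent.R320.ExactR_237
import Crest.Agent.R320.OutRule_480
import Crest.Agent.R320.Two_621

/-! Row 320: final joint (helper12): `GadP` (scheme-1 gadget with its ruler) gives `HL 3`. -/

set_option autoImplicit false

namespace Crest.Agent.R320.Fin_12

open Crest.RegLang Crest.Agent.R320.Hk_851 Crest.Agent.R320.Code110 Crest.Agent.R320.Sc2n_937
open Crest.Agent.R320.Top270

/-- the gadget -/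
def GadP (S V : Type) [Monoid S] [AddCommGroup V] (act : V → S → V) : Prop :=
  ∃ C0 : ℕ, ∀ K : ℕ, ∃ (N1 : ℕ) (c : ℕ → ℕ) (Bad : ℕ → Prop), 0 < N1 ∧
    (∀ i j, i < j → c i < c j) ∧
    (∀ k k' l l', k < K → k' < K → l < K → l' < K → k' ≠ k → l' ≠ l →
      c k + c l' < c l + c k' + 2 * N1 → c l + c k' < c k + c l' + 2 * N1 → k = l) ∧
    (∀ T : ℕ, c K ≤ T → ∀ J : Finset ℕ, (∀ k ∈ J, k < K ∧ ∃ k', k' < K ∧ k' ≠ k ∧
        Bad (T + c k' - c k)) → J.card ≤ C0) ∧
    ∀ (A : Type) [Finite A] (f : A → S), ∃ (lam rho : List A → Option V) (nu : List A → V),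
      (∀ P v, lam P = some v → P.length ≤ N1) ∧
      (∀ P Q u b, lam P = some u → rho Q = some b →
        b = act u ((P ++ Q).map f).prod + nu (P ++ Q)) ∧
      (∀ X : List A, 2 * N1 ≤ X.length → ¬ Bad X.length → ∀ v, ∃ P Q, X = P ++ Q ∧
        lam P = some v ∧ (rho Q).isSome) ∧
      (∀ y, Language.IsRegular ({X | nu X = y} : Language A))

section joint

variable {A V : Type} (g : Geo A) (pre : List A → V → V) (post : V → List A → V)

/-- the block code as a language -/
def ZZ : Language A := {X | g.XX X}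

theorem ZZ_PC (hz : 0 < g.z) : PC (ZZ g) := by
  refine ⟨fun h => ?_, fun u hu v hv h => ?_⟩
  · have h1 : g.z ≤ ([] : List A).length := h.1
    simp at h1
    omega
  · obtain ⟨r, rfl⟩ := h
    exact g.prefix_code (R := r) (R' := []) hu hv (by simp)

theorem badA_bad {lam rho : List A → Option V} {BadT : ℕ → Prop}
    (hlen : ∀ P v, lam P = some v → P.length ≤ g.N1)
    (hex : ∀ P Q u b, lam P = some u → rho Q = some b → b = post u (P ++ Q))
    (hcomp : ∀ X : List A, g.z + g.N1 ≤ X.length → ¬ BadT (X.length - g.p0) → ∀ u,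
      ∃ P Q, X.drop g.p0 = P ++ Q ∧ lam P = some u ∧ (rho Q).isSome)
    {X : List A}
    (hX : X ∈ BadA (ZZ g) (fun X v => g.T pre post v X) (fun v => {P | g.LP1 pre lam v P})) :
    g.BadX BadT X := by
  obtain ⟨hXX, x, hx⟩ := hX
  by_contra hb
  apply hx
  have hE : ¬ g.E X := fun h => hb (Or.inl h)
  have hT : ¬ BadT (X.length - g.p0) := fun h => hb (Or.inr h)
  have hXX' : g.XX X := hXX
  have hbig : g.z + g.N1 ≤ X.length := by
    by_contra hlt
    apply hE
    have hz := g.hz
    have hN := g.hN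
    have := hXX'.1
    refine ⟨X.length, le_rfl, ?_, by omega, by omega⟩
    rw [List.take_length]; exact hXX'.2.1
  obtain ⟨P, Q, b, he, hP, hQ⟩ := g.complete1 pre hlen hXX' hE (hcomp X hbig hT) x
  refine ⟨P, Q, b, he, hP, ?_⟩
  intro x' p' hp'
  left
  have h1 := g.sound1 pre post hlen hex (v := x') (P := p') (Q := Q) hp' hQ
  refine ⟨b, Language.mem_mul.2 ⟨p' ++ Q, ⟨h1.1, h1.2⟩, [], ⟨rfl, rfl⟩, by simp⟩⟩

theorem c2 {lam rho : List A → Option V} {BadT : ℕ → Prop}
    (hlen : ∀ P v, lam P = some v → P.length ≤ g.N1)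
    (hex : ∀ P Q u b, lam P = some u → rho Q = some b → b = post u (P ++ Q))
    (hcomp : ∀ X : List A, g.z + g.N1 ≤ X.length → ¬ BadT (X.length - g.p0) → ∀ u,
      ∃ P Q, X.drop g.p0 = P ++ Q ∧ lam P = some u ∧ (rho Q).isSome)
    {K : ℕ} {c : ℕ → ℕ} {lam2 rho2 : ℕ → List A → Option V}
    (hc : ∀ k, k < K → c k ≤ g.p0)
    (hex2 : ∀ k, k < K → ∀ P Q v u, P.length = c k → Q.length = g.p0 - c k →
      lam2 k P = some v → rho2 k Q = some u → u = pre (P ++ Q) v)
    {C0 : ℕ}
    (hgap : ∀ P Q : List A, g.Wo P → g.Wo (P ++ Q) → Q ≠ [] → 2 * g.p0 + 2 * g.N1 < Q.length)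
    (hsp : ∀ k k' l l', k < K → k' < K → l < K → l' < K → k' ≠ k → l' ≠ l →
      c k + c l' < c l + c k' + 2 * g.N1 → c l + c k' < c k + c l' + 2 * g.N1 → k = l)
    (hthin : ∀ τ, g.z ≤ τ + g.p0 → ∀ J : Finset ℕ, (∀ k ∈ J, k < K ∧
      ∃ k', k' < K ∧ k' ≠ k ∧ BadT (τ + c k' - c k - g.p0)) → J.card ≤ C0)
    (hI : ∀ X : List A, g.XX X → ∀ v, ∃ I : Finset ℕ, 2 * C0 + 2 ≤ I.card ∧ ∀ k ∈ I, k < K ∧
      lam2 k (X.take (c k)) = some v ∧ (rho2 k ((X.take g.p0).drop (c k))).isSome) :
    let τ : List A → V → V := fun X v => g.T pre post v X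
    let L1 : V → Language A := fun v => {P | g.LP1 pre lam v P}
    let L2 : V → Language A := fun v => {P | Geo.LP2 K c lam2 v P}
    ∀ u ∈ BadA (ZZ g) τ L1, ∀ x, ∀ t ∈ BadA (ZZ g) τ L1, ∃ p q y, u ++ t = p ++ q ∧ p ∈ L2 x ∧
      q ∈ Rsem (ZZ g) (BadA (ZZ g) τ L1) τ 1 L2 y := by
  intro τ L1 L2 u hu x t ht
  have hu' : g.XX u := hu.1
  have ht' : g.XX t := ht.1
  obtain ⟨P, Q, b, he, hP, hQ⟩ := g.complete2 pre post hc hgap hsp hthin hu' ht' x (hI u hu' x)
  refine ⟨P, Q, b, he.symm, hP, ?_⟩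
  intro x' p' hp'
  obtain ⟨k0, hk0, hPl, hl⟩ := hp'
  obtain ⟨k, hk, l, hend, hgood, hX2, -⟩ := id hQ
  have hex0 : ∃ l0, g.CEnd Q (c k0) l0 := by
    by_cases hkk : k0 = k
    · subst hkk; exact ⟨l, hend⟩
    · obtain ⟨l', h1, -⟩ := hgood k0 hk0 hkk
      exact ⟨l', h1⟩
  obtain ⟨l0, hl0⟩ := hex0
  have hck := hc k0 hk0
  have hXX : g.XX (p' ++ Q.take l0) :=
    g.xx_of_cend (by rw [hPl]; exact hck) (by rw [hPl]; exact hl0)
  by_cases hbad : (p' ++ Q.take l0) ∈ BadA (ZZ g) τ L1
  · have hbX := badA_bad g pre post hlen hex hcomp hbad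
    obtain ⟨X2, h1, h2, h3⟩ := g.sound2 pre post (BadT := BadT) (R := []) (R' := Q.drop l0) hc hex2
      hXX hbX (⟨k0, hk0, hPl, hl⟩ : Geo.LP2 K c lam2 x' p') hQ (by simp)
    by_cases hbad2 : X2 ∈ BadA (ZZ g) τ L1
    · left
      rw [h2]
      refine ⟨τ (p' ++ Q.take l0) x', Language.mem_mul.2 ⟨_, ⟨hbad, rfl⟩, X2, ?_, rfl⟩⟩
      refine ⟨b, Language.mem_mul.2 ⟨X2, ⟨hbad2, h3⟩, [], ⟨rfl, rfl⟩, by simp⟩⟩
    · right
      rw [h2]
      right
      refine Language.mem_mul.2 ⟨_, hXX, X2, ⟨X2, h1, hbad2, List.prefix_rfl⟩, rfl⟩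
  · right
    left
    refine ⟨p' ++ Q.take l0, hXX, hbad, ?_⟩
    exact List.prefix_append_right_inj p' |>.2 (List.take_prefix _ _)

end joint

/-! ### regularity -/

theorem rcongr {A : Type} {L M : Language A} (h : L.IsRegular) (e : ∀ w, w ∈ L ↔ w ∈ M) :
    M.IsRegular := by
  have : L = M := Set.ext e
  rw [← this]; exact h

theorem isRegular_iUnion {A ι : Type} [Finite ι] {L : ι → Language A}
    (h : ∀ i, (L i).IsRegular) : Language.IsRegular ({w | ∃ i, w ∈ L i} : Language A) := by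
  classical
  have := Fintype.ofFinite ι
  have key : ∀ s : Finset ι, Language.IsRegular ({w | ∃ i ∈ s, w ∈ L i} : Language A) := by
    intro s
    induction s using Finset.induction_on with
    | empty =>
      refine rcongr Crest.Agent.R320.Reg_852.isRegular_zero fun w => ?_
      constructor
      · intro hw; exact hw.elim
      · rintro ⟨i, hi, -⟩; simp at hi
    | insert a s ha ih =>
      refine rcongr ((h a).add ih) fun w => ?_
      constructor
      · rintro (hw | ⟨i, hi, hw⟩)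
        · exact ⟨a, Finset.mem_insert_self _ _, hw⟩
        · exact ⟨i, Finset.mem_insert_of_mem hi, hw⟩
      · rintro ⟨i, hi, hw⟩
        rcases Finset.mem_insert.1 hi with rfl | hi
        · exact Or.inl hw
        · exact Or.inr ⟨i, hi, hw⟩
  refine rcongr (key Finset.univ) fun w => ?_
  constructor
  · rintro ⟨i, -, hw⟩; exact ⟨i, hw⟩
  · rintro ⟨i, hw⟩; exact ⟨i, Finset.mem_univ _, hw⟩

/-- words whose first `p0` letters are `P` and whose rest lies in `L` -/
theorem reg_pre {A : Type} [Finite A] (p0 : ℕ) {L : {P : List A // P.length = p0} → Language A}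
    (h : ∀ P, (L P).IsRegular) :
    Language.IsRegular ({X | ∃ h : (X.take p0).length = p0, X.drop p0 ∈ L ⟨X.take p0, h⟩} :
      Language A) := by
  have : Finite {P : List A // P.length = p0} := (List.finite_length_eq A p0).to_subtype
  have h1 : ∀ P : {P : List A // P.length = p0},
      (({P.1} : Language A) * L P).IsRegular := fun P =>
    Crest.Agent.R320.Reg_852.IsRegular.mul
      (Crest.Agent.R320.Reg_852.HL.isRegular (HL.finite (k := 0) (Set.finite_singleton P.1))) (h P)
  refine rcongr (isRegular_iUnion h1) fun X => ?_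
  constructor
  · rintro ⟨⟨P, hP⟩, hX⟩
    obtain ⟨a, ha, b, hb, rfl⟩ := Language.mem_mul.1 hX
    have ha' : a = P := ha
    subst ha'
    have e1 : (a ++ b).take p0 = a := by rw [← hP, List.take_left]
    have e2 : (a ++ b).drop p0 = b := by rw [← hP, List.drop_left]
    refine ⟨by rw [e1]; exact hP, ?_⟩
    rw [e2]
    have e3 : (⟨(a ++ b).take p0, by rw [e1]; exact hP⟩ : {P : List A // P.length = p0}) = ⟨a, hP⟩ :=
      Subtype.ext e1
    rw [e3]; exact hb
  · rintro ⟨h3, h4⟩
    exact ⟨⟨X.take p0, h3⟩, Language.mem_mul.2 ⟨X.take p0, rfl, X.drop p0, h4,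
      List.take_append_drop _ _⟩⟩

/-- **the joint** -/
theorem hl3_of_gad {A S : Type} [Finite A] [Monoid S] [Finite S] (f : A → S)
    (hG : GadP S (S → ZMod 2) Crest.Agent.R320.Two_621.act) (s : S) :
    HL 3 ({w | (w.map f).prod = s} : Language A) := by
  classical
  have := Fintype.ofFinite S
  obtain ⟨C0, hG⟩ := hG
  obtain ⟨K, hK⟩ := ExactR_237.exact_gadget A S (S → ZMod 2) f
    (Crest.Agent.R320.Two_621.act) (2 * C0 + 2)
  obtain ⟨N1, c, Bad, hN1, hcm, hsp, hthin, hg⟩ := hG K
  obtain ⟨lam, rho, nu, hlen, hex, hcomp, hreg⟩ := hg A f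
  obtain ⟨lam2, rho2, nu2, hs2, hc2⟩ := hK c (fun i j h _ => hcm i j h)
  obtain ⟨n, Wo, hn, hWl, hloc, hgapW, hfew⟩ :=
    OutRule_480.outer_rule_left (α := A) (2 * c K + 2 * N1 + 1)
  set act : (S → ZMod 2) → S → (S → ZMod 2) := Crest.Agent.R320.Two_621.act with hact
  set p0 := c K with hp0
  have hck : ∀ k, k < K → c k ≤ p0 := fun k hk => (hcm k K hk).le
  let g : Geo A :=
    { Wo := Wo, n := n, z := p0 + N1 + (n + 2 * p0 + 2 * N1), p0 := p0,
      q0 := n + 2 * p0 + 2 * N1, N1 := N1, loc := hloc, hz := rfl, hq := by omega,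
      hN := hN1, hqp := by omega }
  let pre : List A → (S → ZMod 2) → (S → ZMod 2) := fun P v => act v (P.map f).prod + nu2 P 1
  let post : (S → ZMod 2) → List A → (S → ZMod 2) := fun u Y => act u (Y.map f).prod + nu Y
  have hgz : 0 < g.z := by show 0 < p0 + N1 + (n + 2 * p0 + 2 * N1); omega
  have hXl : ∀ X : List A, g.XX X → p0 ≤ X.length := fun X hX => by
    have : p0 + N1 + (n + 2 * p0 + 2 * N1) ≤ X.length := hX.1
    omega
  -- one block or a rest has few walls
  have few : ∀ w : List A, (∀ t, g.z ≤ t → t < w.length → ¬ Wo (w.take t)) →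
      ∀ F : Finset ℕ, (∀ x ∈ F, x ≤ w.length ∧ Wo (w.take x)) → F.card ≤ g.z + 1 := by
    intro w hw F hF
    have hsub : F ⊆ insert w.length (Finset.range g.z) := by
      intro x hx
      obtain ⟨h1, h2⟩ := hF x hx
      rw [Finset.mem_insert, Finset.mem_range]
      rcases Nat.lt_or_ge x g.z with h | h
      · exact Or.inr h
      · left
        by_contra hne
        exact hw x h (by omega) h2
    refine (Finset.card_le_card hsub).trans ((Finset.card_insert_le _ _).trans ?_)
    rw [Finset.card_range]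
  have regZ : Language.IsRegular (ZZ g) := by
    refine rcongr (Crest.Agent.R320.Reg_852.HL.isRegular
      (P4_933.hl_XX0 (k := 0) (z := g.z) hloc hWl)) fun X => ?_
    constructor
    · rintro ⟨h1, h2, h3⟩; exact ⟨h2, h1, fun t h4 h5 => h3 t h5 h4⟩
    · rintro ⟨h2, h1, h3⟩; exact ⟨h1, h2, fun t h4 h5 => h3 t h5 h4⟩
  have hZ : HL 1 (ZZ g) := hfew (g.z + 1) _ regZ fun w hw => few w hw.2.2
  refine Top270.top (V := (S → ZMod 2)) (S := S) (α := A) (fun w => (w.map f).prod) (by simp)
    (fun u v => by simp) act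
    (fun v w s => Crest.Agent.R320.Two_621.act_add v w s)
    (fun v => Crest.Agent.R320.Two_621.act_one v)
    (fun v s t => (Crest.Agent.R320.Two_621.act_mul v s t).symm)
    (fun s t h => Crest.Agent.R320.Two_621.act_faithful h)
    (Zb := ZZ g) (ZZ_PC g hgz) (τ := fun X v => g.T pre post v X)
    (fun X => act (nu2 (X.take p0) 1) ((X.drop p0).map f).prod + nu (X.drop p0))
    ?_ hZ ?_ ?_
    (L1 := fun v => {P | g.LP1 pre lam v P}) (L2 := fun v => {P | Geo.LP2 K c lam2 v P})
    ?_ ?_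
    (c2 g pre post (rho := rho) (BadT := Bad) (rho2 := fun k Q => rho2 k Q 1) (C0 := C0)
      hlen ?_ ?_ hck ?_ ?_ hsp ?_ ?_) s
  · -- zone map
    intro X _ v
    show act (act v ((X.take p0).map f).prod + nu2 (X.take p0) 1) ((X.drop p0).map f).prod
      + nu (X.drop p0) = _
    have e1 : (X.map f).prod = ((X.take p0).map f).prod * ((X.drop p0).map f).prod := by
      rw [← List.prod_append, ← List.map_append, List.take_append_drop]
    rw [e1]
    have e2 : ∀ (a b : S → ZMod 2) (t : S), act (a + b) t = act a t + act b t :=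
      fun a b t => Crest.Agent.R320.Two_621.act_add a b t
    have e3 : ∀ (a : S → ZMod 2) (s t : S), act (act a s) t = act a (s * t) :=
      fun a s t => Crest.Agent.R320.Two_621.act_mul a s t
    rw [e2, e3, add_assoc]
  · -- blocks with given value
    intro x y
    have hr : Language.IsRegular ({X | X ∈ ZZ g ∧ g.T pre post x X = y} : Language A) := by
      have h1 := reg_pre (A := A) p0
        (L := fun P => ({Y | post (pre P.1 x) Y = y} : Language A)) (fun P => by
          have h2 : ∀ q : S × (S → ZMod 2), Language.IsRegular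
              ({Y | (act (pre P.1 x) q.1 + q.2 = y) ∧ (Y.map f).prod = q.1 ∧ nu Y = q.2} :
                Language A) := by
            intro q
            by_cases hq : act (pre P.1 x) q.1 + q.2 = y
            · refine rcongr ((Crest.Agent.R320.Reg_852.isRegular_prod f q.1).inf (hreg q.2))
                fun w => ?_
              exact ⟨fun h => ⟨hq, h.1, h.2⟩, fun h => ⟨h.2.1, h.2.2⟩⟩
            · refine rcongr Crest.Agent.R320.Reg_852.isRegular_zero fun w => ?_
              exact ⟨fun h => h.elim, fun h => (hq h.1).elim⟩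
          refine rcongr (isRegular_iUnion h2) fun Y => ?_
          constructor
          · rintro ⟨q, h3, h4, h5⟩
            show act (pre P.1 x) (Y.map f).prod + nu Y = y
            rw [h4, h5]; exact h3
          · intro h
            exact ⟨((Y.map f).prod, nu Y), h, rfl, rfl⟩)
      refine rcongr (regZ.inf h1) fun X => ?_
      constructor
      · rintro ⟨h2, h3, h4⟩; exact ⟨h2, h4⟩
      · rintro ⟨h2, h4⟩
        have := hXl X h2
        exact ⟨h2, by rw [List.length_take]; omega, h4⟩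
    exact hfew (g.z + 1) _ hr fun w hw => few w hw.1.2.2
  · -- rests
    intro s
    have h1 : Language.IsRegular ({u | P4_933.NB Wo g.z u} : Language A) :=
      Crest.Agent.R320.Reg_852.HL.isRegular (P4_933.hl_NB0 (k := 0) hloc hWl)
    have h2 := h1.inf (Crest.Agent.R320.Reg_852.isRegular_prod f s)
    have hmem : ∀ r : List A, (∀ X ∈ ZZ g, ¬ X <+: r) ↔ P4_933.NB Wo g.z r := by
      intro r
      rw [P4_933.NB_iff]
      constructor
      · rintro h P hP ⟨h3, h4, h5⟩
        exact h P ⟨h4, h3, fun t h6 h7 => h5 t h7 h6⟩ hP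
      · rintro h X ⟨h4, h3, h5⟩ hX
        exact h X hX ⟨h3, h4, fun t h6 h7 => h5 t h7 h6⟩
    refine hfew (g.z + 1) _ (rcongr h2 fun w => ?_) fun w hw => few w ?_
    · constructor
      · rintro ⟨h3, h4⟩; exact ⟨(hmem w).2 h3, h4⟩
      · rintro ⟨h3, h4⟩; exact ⟨(hmem w).1 h3, h4⟩
    · intro t ht htl
      exact (hmem w).1 hw.1 t htl.le ht
  · -- finite L1
    intro x
    refine (List.finite_length_le A (p0 + N1)).subset fun P hP => ?_
    have h1 := hlen _ _ hP.2
    rw [List.length_drop] at h1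
    show P.length ≤ p0 + N1
    have : g.p0 = p0 := rfl
    omega
  · -- finite L2
    intro x
    refine (List.finite_length_le A p0).subset fun P hP => ?_
    obtain ⟨k, hk, h1, -⟩ := hP
    show P.length ≤ p0
    rw [h1]; exact hck k hk
  · intro P Q u b h1 h2
    exact hex P Q u b h1 h2
  · -- completeness of the gadget
    intro X hX hb u
    have hX' : p0 + N1 + (n + 2 * p0 + 2 * N1) + N1 ≤ X.length := hX
    have hb' : ¬ Bad (X.length - p0) := hb
    exact hcomp (X.drop p0) (by rw [List.length_drop]; omega)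
      (by rw [List.length_drop]; exact hb') u
  · -- exactness of the exact gadget
    intro k hk P Q v u hP _ h1 h2
    have := hs2 k hk P Q 1 v u hP h1 h2
    rw [mul_one] at this
    exact this
  · -- gaps
    intro P Q h1 h2 hQ
    have hQ' : 0 < Q.length := List.length_pos_iff.2 hQ
    have := hgapW (P ++ Q) Q.length h2 hQ' (by rw [List.length_append]; omega) (by
      rw [List.length_append, Nat.add_sub_cancel, List.take_left]; exact h1)
    show 2 * p0 + 2 * N1 < Q.length
    omega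
  · -- thinness
    intro τ hτ J hJ
    have hτ' : p0 + N1 + (n + 2 * p0 + 2 * N1) ≤ τ + p0 := hτ
    refine hthin (τ - p0) (by omega) J fun k hk => ?_
    obtain ⟨h1, k', h2, h3, h4⟩ := hJ k hk
    refine ⟨h1, k', h2, h3, ?_⟩
    have h5 := hck k h1
    have e : τ - p0 + c k' - c k = τ + c k' - c k - g.p0 := by
      show τ - p0 + c k' - c k = τ + c k' - c k - p0
      omega
    rw [e]; exact h4
  · -- completeness of the exact gadget
    intro X hX v
    have hXl' := hXl X hX
    obtain ⟨I, hI1, hI2⟩ := hc2 (X.take p0) 1 v (fun k hk => by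
      rw [List.length_take]; have := hck k hk; omega)
    refine ⟨I, hI1, fun k hk => ?_⟩
    obtain ⟨h1, h2, h3⟩ := hI2 k hk
    refine ⟨h1, ?_, h3⟩
    rw [List.take_take, Nat.min_eq_left (hck k h1)] at h2
    exact h2

end Crest.Agent.R320.Fin_12
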