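import Crest.Agent.R320.Joint_192
import Crest.Agent.R320.SemTop_727
import Crest.Agent.R320.P4_933
import Crest.Agent.R320.Reg_236

/-!
# Row 320: from the joint data `Joint_192.Dat.Ok` to `HL 3` (helper192)
-/

set_option autoImplicit false

namespace Crest.Agent.R320.Fin1_192

open Crest.RegLang Crest.Agent.R320.Hk_851 Crest.Agent.R320.Blk467
open Crest.Agent.R320.SemTop_727 Crest.Agent.R320.Joint_192 Crest.Agent.R320.BddReg_746

variable {α : Type}

/-! ### regular functions -/

theorem reg_empty : Language.IsRegular ({w | False} : Language α) := by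
  refine ⟨Unit, inferInstance, ⟨fun _ _ => (), (), ∅⟩, ?_⟩
  ext w
  exact ⟨fun h => h.elim, fun h => h.elim⟩

theorem reg_word [Finite α] (t : List α) : Language.IsRegular ({w | w = t} : Language α) := by
  have h : HL 0 ({w | w = t} : Language α) :=
    HL.finite ((Set.finite_singleton t).subset fun w hw => hw)
  exact Crest.Agent.R320.Reg_852.HL.isRegular h

theorem reg_congr {L M : Language α} (h : L.IsRegular) (e : ∀ w, w ∈ L ↔ w ∈ M) :
    M.IsRegular := by
  have : L = M := Set.ext e
  rwa [← this]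

theorem reg_biUnion {ι : Type} {s : Set ι} (hs : s.Finite) (L : ι → Language α)
    (h : ∀ i ∈ s, (L i).IsRegular) : Language.IsRegular ({w | ∃ i ∈ s, w ∈ L i} : Language α) := by
  induction s, hs using Set.Finite.induction_on with
  | empty => exact reg_congr reg_empty fun w => ⟨fun h => h.elim, fun ⟨i, hi, _⟩ => hi.elim⟩
  | @insert a s _ _ ih =>
    have h1 := ih fun i hi => h i (Set.mem_insert_of_mem _ hi)
    have h2 := h a (Set.mem_insert _ _)
    refine reg_congr (h2.add h1) fun w => ?_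
    constructor
    · rintro (hw | ⟨i, hi, hw⟩)
      · exact ⟨a, Set.mem_insert _ _, hw⟩
      · exact ⟨i, Set.mem_insert_of_mem _ hi, hw⟩
    · rintro ⟨i, hi, hw⟩
      rcases Set.mem_insert_iff.1 hi with rfl | hi
      · exact Or.inl hw
      · exact Or.inr ⟨i, hi, hw⟩

theorem reg_val [Finite α] {S : Type} [Monoid S] [Finite S] (φ : α → S) (M0 : ℕ) (hM : 0 < M0)
    (f : List α → Prop) (hf : ∀ u u' : List α, u.length % M0 = u'.length % M0 →
      (u.map φ).prod = (u'.map φ).prod → (f u ↔ f u')) :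
    Language.IsRegular ({u | f u} : Language α) :=
  Crest.Agent.R320.P4_933.regular_of_class φ 0 M0 hM f fun u u' _ _ _ h1 h2 => hf u u' h1 h2

/-- prefix of fixed length, then a regular condition -/
theorem reg_prefix [Finite α] (p : ℕ) (F : List α → List α → Prop)
    (hF : ∀ t, t.length = p → Language.IsRegular ({R | F t R} : Language α)) :
    Language.IsRegular ({X | p ≤ X.length ∧ F (X.take p) (X.drop p)} : Language α) := by
  have h := reg_biUnion (s := {t : List α | t.length = p}) (List.finite_length_eq α p)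
    (fun t => toL ({w | w = t}) * toL ({R | F t R}))
    (fun t ht => Crest.Agent.R320.Reg_236.isRegular_mul (L := toL ({w | w = t}))
      (K := toL ({R | F t R})) (reg_word t) (hF t ht))
  refine reg_congr h fun w => ?_
  constructor
  · rintro ⟨t, ht, hw⟩
    obtain ⟨a, ha, b, hb, rfl⟩ := Language.mem_mul.1 hw
    have ha' : a = t := ha
    subst ha'
    have hl : a.length = p := ht
    subst hl
    refine ⟨by simp, ?_⟩
    rw [List.take_left, List.drop_left]
    exact hb
  · rintro ⟨h1, h2⟩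
    exact ⟨w.take p, by simp [List.length_take, h1],
      Language.mem_mul.2 ⟨w.take p, rfl, w.drop p, h2, List.take_append_drop _ _⟩⟩

/-- two finite valued regular functions -/
theorem reg_pair {β γ : Type} [Finite β] [Finite γ] (f : List α → β) (g : List α → γ)
    (hf : ∀ b, Language.IsRegular ({u | f u = b} : Language α))
    (hg : ∀ c, Language.IsRegular ({u | g u = c} : Language α)) (P : β → γ → Prop) :
    Language.IsRegular ({u | P (f u) (g u)} : Language α) := by
  have h := reg_biUnion (s := {p : β × γ | P p.1 p.2}) (Set.toFinite _)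
    (fun p => toL ({u | f u = p.1}) ⊓ toL ({u | g u = p.2}))
    (fun p _ => Language.IsRegular.inf (L1 := toL ({u | f u = p.1})) (L2 := toL ({u | g u = p.2}))
      (hf p.1) (hg p.2))
  refine reg_congr h fun w => ?_
  constructor
  · rintro ⟨p, hp, h1, h2⟩
    have h1' : f w = p.1 := h1
    have h2' : g w = p.2 := h2
    show P (f w) (g w)
    rw [h1', h2']; exact hp
  · intro hw
    exact ⟨(f w, g w), hw, rfl, rfl⟩

/-! ### the top -/

theorem of_ok [Finite α] {S V : Type} [Monoid S] [Finite S] [AddCommGroup V] [Finite V]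
    (act : V → S → V) (hadd : ∀ a b s, act (a + b) s = act a s + act b s)
    (hone : ∀ v, act v 1 = v) (hmul : ∀ v s t, act v (s * t) = act (act v s) t)
    (hfaith : ∀ s t, (∀ v, act v s = act v t) → s = t) (φ : α → S)
    (D : Dat α V S) (h : D.Ok) (hφ : D.φ = fun X => (X.map φ).prod) (hact : D.act = act)
    (hDadd : D.add = fun a b => a + b) (hlen : ∀ P, D.Wo P → D.n ≤ P.length) {B R : ℕ}
    (free : ∀ u : List α, (∀ t < u.length, ¬ D.Wo (u.take t)) → u ∈ (PN B R : Language α))
    (hreg : ∀ y, Language.IsRegular ({Y | D.nu1 Y = y} : Language α)) (s : S) :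
    HL 3 ({w | (w.map φ).prod = s} : Language α) := by
  have hz := h.zbig
  have hT : ∀ v X, D.T v X = act v (X.map φ).prod +
      (act (D.nu2 (X.take D.p0)) ((X.drop D.p0).map φ).prod + D.nu1 (X.drop D.p0)) := by
    intro v X
    unfold Dat.T
    rw [hDadd, hact, hφ]
    show act (act v ((X.take D.p0).map φ).prod + D.nu2 (X.take D.p0))
      ((X.drop D.p0).map φ).prod + D.nu1 (X.drop D.p0) = _
    rw [hadd, ← hmul, ← List.prod_append, ← List.map_append, List.take_append_drop, add_assoc]
  have hregφ : ∀ c : S, Language.IsRegular ({u | (u.map φ).prod = c} : Language α) := fun c =>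
    reg_val φ 1 one_pos (fun u => (u.map φ).prod = c) fun u u' _ h2 => by rw [h2]
  let E : Sch α V := ⟨D.Z, D.T, D.L1, D.L2⟩
  have hgood : ∀ X, D.Good X → X ∈ E.Good := by
    rintro X ⟨h1, h2⟩
    refine ⟨h1, fun x => ?_⟩
    obtain ⟨P, hP, Q, e, hQ⟩ := h2 x
    exact ⟨P, hP, Q, fun x' P' hP' => hQ x' P' hP', e⟩
  refine SemTop_727.top (k := 1) act hadd hone hmul hfaith φ _ E hT ?_ ?_ ?_ ?_ ?_ ?_ s
  · -- prefix code
    refine ⟨?_, ?_⟩
    · rintro ⟨h1, -, -⟩
      simp at h1; omega
    · rintro X ⟨h1, h2, h3⟩ Y ⟨h4, h5, h6⟩ ⟨t, rfl⟩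
      rcases Nat.eq_zero_or_pos t.length with h0 | h0
      · rw [List.length_eq_zero_iff.1 h0, List.append_nil]
      · exfalso
        refine h6 X.length h1 (by rw [List.length_append]; omega) ?_
        rw [List.take_left]; exact h2
  · -- fibres
    intro x y
    have hf : Language.IsRegular ({X | D.p0 ≤ X.length ∧
        (act (D.add (D.act x (D.φ (X.take D.p0))) (D.nu2 (X.take D.p0))) ((X.drop D.p0).map φ).prod
          + D.nu1 (X.drop D.p0) = y)} : Language α) := by
      refine reg_prefix D.p0 (fun t R =>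
        act (D.add (D.act x (D.φ t)) (D.nu2 t)) (R.map φ).prod + D.nu1 R = y) fun t _ => ?_
      exact reg_pair (fun R : List α => (R.map φ).prod) D.nu1 hregφ hreg
        (fun b c => act (D.add (D.act x (D.φ t)) (D.nu2 t)) b + c = y)
    refine (Crest.Agent.R320.P4_933.hl_XX (z := D.z) h.loc hlen free
      (f := fun X => D.p0 ≤ X.length ∧
        (act (D.add (D.act x (D.φ (X.take D.p0))) (D.nu2 (X.take D.p0))) ((X.drop D.p0).map φ).prod
          + D.nu1 (X.drop D.p0) = y)) hf).congr fun w => ?_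
    have hTw : D.T x w = act (D.add (D.act x (D.φ (w.take D.p0))) (D.nu2 (w.take D.p0)))
        ((w.drop D.p0).map φ).prod + D.nu1 (w.drop D.p0) := by
      unfold Dat.T
      simp only [hact, hDadd, hφ]
    refine Iff.symm ?_
    constructor
    · rintro ⟨⟨h1, h2, h3⟩, h4, h5⟩
      exact ⟨⟨h2, h1, fun t ht ht' => h3 t ht' ht⟩, hTw.trans h5⟩
    · rintro ⟨⟨h1, h2, h3⟩, h4⟩
      exact ⟨⟨h2, h1, fun t ht ht' => h3 t ht' ht⟩, by omega, hTw.symm.trans h4⟩
  · intro x
    exact (List.finite_length_le α (D.p0 + D.N1)).subset fun P hP => (Dat.L1_len h hP).2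
  · intro x
    refine (List.finite_length_le α D.Lam).subset ?_
    rintro P ⟨k, hk, h1, -⟩
    have := h.cle k hk
    show P.length ≤ D.Lam
    omega
  · intro X1 hX1 X2 hX2 x
    obtain ⟨P, hP, Q, e, -, hQ⟩ := Dat.cut2 h hX1.1 hX2.1 x
    refine ⟨P, hP, Q, fun x' P' hP' => ?_, e⟩
    rcases hQ x' P' hP' with ⟨X, hXZ, eX, hTX⟩ | ⟨X, hX, hpre⟩
    · by_cases hg : X ∈ E.Good
      · exact Or.inr (Or.inl ⟨X, hg, ⟨X2, eX⟩⟩)
      · refine Or.inl ⟨X, ⟨hXZ, hg⟩, X2, hX2, eX.symm, ?_⟩
        show D.T (D.T x' X) X2 = D.T (D.T x X1) X2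
        rw [hTX]
    · exact Or.inr (Or.inl ⟨X, hgood X hX, hpre⟩)
  · intro s
    have h1 := Crest.Agent.R320.P4_933.hl_NB (z := D.z) h.loc hlen free
      (f := fun u => (u.map φ).prod = s) (hregφ s)
    refine HL.congr (HL.mono (by omega) h1) fun w => Iff.symm ?_
    constructor
    · rintro ⟨h2, h3⟩
      refine ⟨fun X hX hpre => ?_, h3⟩
      exact (Crest.Agent.R320.P4_933.NB_iff D.Wo D.z w).1 h2 X hpre
        ⟨hX.2.1, hX.1, fun t ht ht' => hX.2.2 t ht' ht⟩
    · rintro ⟨h2, h3⟩
      refine ⟨(Crest.Agent.R320.P4_933.NB_iff D.Wo D.z w).2 fun P hpre hP => ?_, h3⟩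
      exact h2 P ⟨hP.2.1, hP.1, fun t ht ht' => hP.2.2 t ht' ht⟩ hpre

end Crest.Agent.R320.Fin1_192
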