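import Crest.Agent.R320.Top5_110
import Crest.Agent.R320.ExactR_237
import Crest.Agent.R320.WallU_228

/-!
Row 320, helper370: the two schemes over the natural block code, word level.
-/

set_option autoImplicit false

namespace Crest.Agent.R320.Fin1_370

open Crest.Agent.R320.Hk_851 Crest.Agent.R320.Code110

variable {α : Type}

/-- blocks: the first wall at a place `≥ z` is at the end -/
def XX (Wo : List α → Prop) (z : ℕ) : Language α :=
  {X | Wo X ∧ z ≤ X.length ∧ ∀ t, z ≤ t → t < X.length → ¬ Wo (X.take t)}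

theorem XX_pc {Wo : List α → Prop} {z : ℕ} (hz : 0 < z) : PC (XX Wo z) := by
  refine ⟨?_, ?_⟩
  · rintro ⟨_, h, _⟩
    simp at h
    omega
  · rintro u ⟨hu1, hu2, hu3⟩ v ⟨hv1, hv2, hv3⟩ ⟨r, rfl⟩
    rcases Nat.eq_zero_or_pos r.length with h | h
    · rw [List.length_eq_zero_iff.1 h, List.append_nil]
    · exfalso
      refine hv3 u.length hu2 (by rw [List.length_append]; omega) ?_
      rw [List.take_left]
      exact hu1

section
variable {Wo : List α → Prop} {n : ℕ} (hW : ∀ P Q : List α, n ≤ Q.length → (Wo (P ++ Q) ↔ Wo Q))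
include hW

theorem wo_take (P R : List α) {s : ℕ} (h1 : n ≤ s) (h2 : s ≤ R.length) :
    Wo ((P ++ R).take (P.length + s)) ↔ Wo (R.take s) := by
  have e : (P ++ R).take (P.length + s) = P ++ R.take s := by
    rw [List.take_append, List.take_of_length_le (by omega)]
    congr 2
    omega
  rw [e]
  exact hW P _ (by rw [List.length_take]; omega)

/-- walls of `P ++ R` and of `P' ++ R` correspond -/
theorem wo_shift (P P' R : List α) {t t' : ℕ} (h : t + P'.length = t' + P.length)
    (h1 : P.length + n ≤ t) (h2 : t ≤ P.length + R.length) :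
    Wo ((P ++ R).take t) ↔ Wo ((P' ++ R).take t') := by
  obtain ⟨s, rfl⟩ : ∃ s, t = P.length + s := ⟨t - P.length, by omega⟩
  obtain rfl : t' = P'.length + s := by omega
  rw [wo_take hW P R (by omega) (by omega), wo_take hW P' R (by omega) (by omega)]

end

/-- the bad blocks -/
def Bad (Wo : List α → Prop) (z N p0 : ℕ) (BT : ℕ → Prop) : Language α :=
  {X | X ∈ XX Wo z ∧ ((∃ s, z ≤ s + N ∧ s ≤ z + N ∧ s ≤ X.length ∧ Wo (X.take s)) ∨
    BT (X.length - p0))}

section
variable {S V : Type} [Monoid S] [AddCommGroup V] (φ : List α → S) (act : V → S → V)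
  (p0 : ℕ) (nu2 nu1 : List α → V)

/-- the zone map -/
def T (X : List α) (v : V) : V :=
  act (act v (φ (X.take p0)) + nu2 (X.take p0)) (φ (X.drop p0)) + nu1 (X.drop p0)

/-- left language of scheme 1 -/
def L1 (N : ℕ) (lam : List α → Option V) (v : V) : Language α :=
  {P | p0 ≤ P.length ∧ P.length ≤ p0 + N ∧
    lam (P.drop p0) = some (act v (φ (P.take p0)) + nu2 (P.take p0))}

/-- left language of scheme 2 -/
def L2 (K : ℕ) (c : ℕ → ℕ) (lam2 : ℕ → List α → Option V) (v : V) : Language α :=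
  {P | ∃ k < K, P.length = c k ∧ lam2 k P = some v}

theorem exactly_one {Z : Language α} {τ : List α → V → V} {x y : V} {u : List α} (hu : u ∈ Z)
    (h : τ u x = y) : u ∈ Exactly Z τ 1 x y :=
  ⟨y, Language.mem_mul.2 ⟨u, ⟨hu, h⟩, [], ⟨rfl, rfl⟩, by simp⟩⟩

theorem exactly_two {Z : Language α} {τ : List α → V → V} {x : V} {u u' : List α} (hu : u ∈ Z)
    (hu' : u' ∈ Z) : u ++ u' ∈ Exactly Z τ 2 x (τ u' (τ u x)) :=
  ⟨τ u x, Language.mem_mul.2 ⟨u, ⟨hu, rfl⟩, u', exactly_one hu' rfl, rfl⟩⟩

/-- **C1** -/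
theorem C1 {Wo : List α → Prop} {n z N : ℕ} {BT : ℕ → Prop}
    (hW : ∀ P Q : List α, n ≤ Q.length → (Wo (P ++ Q) ↔ Wo Q))
    (hz : p0 + 2 * N + n < z)
    (hφ : ∀ u w, φ (u ++ w) = φ u * φ w)
    (hactm : ∀ v s t, act v (s * t) = act (act v s) t)
    {lam rho : List α → Option V} {T0 : ℕ} (hT0 : p0 + T0 + N ≤ z)
    (hlen : ∀ P v, lam P = some v → P.length ≤ N)
    (hsound : ∀ P Q v r, T0 ≤ Q.length → lam P = some v → rho Q = some r →
      r = act v (φ (P ++ Q)) + nu1 (P ++ Q))
    (hcomp : ∀ u : List α, T0 ≤ u.length → ¬ BT u.length → ∀ v, ∃ P Q, u = P ++ Q ∧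
      lam P = some v ∧ (rho Q).isSome)
    (u : List α) (hu : u ∈ XX Wo z) (hnb : u ∉ Bad Wo z N p0 BT) (x : V) (t : List α)
    (ht : t ∈ (XX Wo z) ^ 0) :
    ∃ p q y, u ++ t = p ++ q ∧ p ∈ L1 φ act p0 nu2 N lam x ∧
      q ∈ Rsem (XX Wo z) (XX Wo z) (T φ act p0 nu2 nu1) 0 (L1 φ act p0 nu2 N lam) y := by
  have ht' : t = [] := by simpa using ht
  subst ht'
  obtain ⟨hu1, hu2, hu3⟩ := hu
  have hE : ∀ s, z ≤ s + N → s ≤ z + N → s ≤ u.length → ¬ Wo (u.take s) := by
    intro s h1 h2 h3 h4
    exact hnb ⟨⟨hu1, hu2, hu3⟩, Or.inl ⟨s, h1, h2, h3, h4⟩⟩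
  have hul : z + N < u.length := by
    by_contra h
    exact hE u.length (by omega) (by omega) le_rfl (by rw [List.take_length]; exact hu1)
  have hB : ¬ BT (u.length - p0) := fun h => hnb ⟨⟨hu1, hu2, hu3⟩, Or.inr h⟩
  obtain ⟨P1, Q1, e, hP, hQ⟩ := hcomp (u.drop p0) (by rw [List.length_drop]; omega)
    (by rw [List.length_drop]; exact hB) (act x (φ (u.take p0)) + nu2 (u.take p0))
  obtain ⟨r, hr⟩ := Option.isSome_iff_exists.1 hQ
  have hP1 := hlen _ _ hP
  have elen : u.length - p0 = P1.length + Q1.length := by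
    have := congrArg List.length e
    rw [List.length_drop, List.length_append] at this
    exact this
  have hut : (u.take p0).length = p0 := by rw [List.length_take]; omega
  refine ⟨u.take p0 ++ P1, Q1, r, ?_, ⟨?_, ?_, ?_⟩, ?_⟩
  · rw [List.append_assoc, ← e, List.take_append_drop, List.append_nil]
  · rw [List.length_append]; omega
  · rw [List.length_append]; omega
  · rw [List.drop_left' hut, List.take_left' hut]
    exact hP
  · intro x' p' hp'
    obtain ⟨h1, h2, h3⟩ := hp'
    left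
    have hu' : u = (u.take p0 ++ P1) ++ Q1 := by
      rw [List.append_assoc, ← e, List.take_append_drop]
    have hlp : (u.take p0 ++ P1).length = p0 + P1.length := by
      rw [List.length_append, hut]
    have hmem : p' ++ Q1 ∈ XX Wo z := by
      refine ⟨?_, ?_, ?_⟩
      · rw [hW p' Q1 (by omega), ← hW (u.take p0 ++ P1) Q1 (by omega), ← hu']
        exact hu1
      · rw [List.length_append]; omega
      · intro t ht1 ht2 ht3
        rw [List.length_append] at ht2
        have h5 := (wo_shift hW p' (u.take p0 ++ P1) Q1 (t := t)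
          (t' := t + (u.take p0 ++ P1).length - p'.length) (by omega) (by omega) (by omega)).1 ht3
        rw [← hu'] at h5
        rcases Nat.lt_or_ge (t + (u.take p0 ++ P1).length - p'.length) z with h6 | h6
        · exact hE _ (by omega) (by omega) (by omega) h5
        · exact hu3 _ h6 (by omega) h5
    refine exactly_one hmem ?_
    have hdp : p'.drop p0 ++ Q1 = (p' ++ Q1).drop p0 := by
      rw [List.drop_append_of_le_length h1]
    have htp : p'.take p0 = (p' ++ Q1).take p0 := by
      rw [List.take_append_of_le_length h1]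
    have h7 := hsound _ _ _ _ (by omega) h3 hr
    unfold T
    rw [← hdp, ← htp]
    exact h7.symm

end

end Crest.Agent.R320.Fin1_370
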