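import Crest.Agent.R320.Inst_448

/-!
# Row 320: `hcc1`, `hcc2` of 120's `top5` from the concrete schemes of `Inst_448` (helper448)
-/

set_option autoImplicit false
set_option linter.unusedSectionVars false

namespace Crest.Agent.R320.Inst_448

variable {α V S : Type*} [Monoid S] [AddCommGroup V]
variable {φ : List α → S} {act : V → S → V} {Wo : List α → Prop} {n W z N1 Nm p0 K R0 : ℕ}
  {BadT : ℕ → Prop} {lam rho : List α → Option V} {nu : List α → V} {c : ℕ → ℕ}
  {lam2 rho2 : ℕ → List α → Option V} {nu2 : List α → V}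

/-- bad blocks -/
def BB (Wo : List α → Prop) (z N1 p0 : ℕ) (BadT : ℕ → Prop) : Set (List α) :=
  {X | X ∈ XX z Wo ∧ BadAt Wo z N1 p0 BadT 0 X X.length}

theorem hcc1 (hW : Wall n W Wo) (hG : G1 φ act N1 Nm BadT lam rho nu)
    (hz : p0 + N1 + n ≤ z) (hNm : p0 + Nm ≤ z) {X : List α} (hX : X ∈ XX z Wo)
    (hb : X ∉ BB Wo z N1 p0 BadT) (v : V) :
    ∃ P Q, P ++ Q = X ∧ LP1 φ act p0 lam nu2 P v ∧
      ∀ x, ∀ P', LP1 φ act p0 lam nu2 P' x → P' ++ Q ∈ XX z Wo ∧
        T φ act p0 nu nu2 x (P' ++ Q) = T φ act p0 nu nu2 v X := by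
  obtain ⟨P, Q, h1, -, h2, h3⟩ := complete1 (nu2 := nu2) hW hG hz hNm hX
    (fun h => hb ⟨hX, h⟩) v
  obtain ⟨b, hb'⟩ := Option.isSome_iff_exists.1 h3
  refine ⟨P, Q, h1.symm, h2, fun x P' hP' => ?_⟩
  obtain ⟨e1, e2⟩ := s1 hW hG hz hP' hb'
  obtain ⟨-, e3⟩ := s1 hW hG hz h2 hb'
  rw [h1]
  exact ⟨e1, e2.trans e3.symm⟩

/-- the semantic form of `RR2` -/
theorem rr2_sem (hW : Wall n W Wo) (hG2 : G2 φ act K p0 R0 c lam2 rho2 nu2)
    (hz : p0 + N1 + n ≤ z) {Q : List α} {b : V}
    (hQ : RR2 φ act Wo z N1 p0 K BadT nu c rho2 nu2 Q b) {P : List α} {v : V}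
    (hP : LP2 K c lam2 P v) :
    (∃ X' ∈ BB Wo z N1 p0 BadT, ∃ Y' ∈ XX z Wo, X' ++ Y' = P ++ Q ∧
      T φ act p0 nu nu2 (T φ act p0 nu nu2 v X') Y' = b) ∨
    (∃ X' ∈ XX z Wo, X' ∉ BB Wo z N1 p0 BadT ∧ X' <+: P ++ Q) := by
  obtain ⟨k0, hk0, hPl, hl0⟩ := hP
  have hcl := hG2.cle k0 hk0
  obtain ⟨k, s, v2, hk, h1, h2, h3, h4, h5, rfl⟩ := hQ
  have htk : ∀ s', (P ++ Q).take (P.length + s') = P ++ Q.take s' := by
    intro s'
    rw [List.take_append]; simp
  have key : ∀ s', Nx Wo z P.length Q s' → P ++ Q.take s' ∈ XX z Wo := by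
    intro s' hs'
    have h := take_mem_XX ((nx_append hW P Q s' (by omega)).1 hs').1
    rwa [htk] at h
  have keyb : ∀ s', Nx Wo z P.length Q s' →
      (BadAt Wo z N1 p0 BadT P.length Q s' ↔ P ++ Q.take s' ∈ BB Wo z N1 p0 BadT) := by
    intro s' hs'
    have e' : (P ++ Q.take s').length = P.length + s' := by
      rw [List.length_append, List.length_take]
      have := hs'.2.1
      omega
    rw [bad_append hW P Q s' (by omega) hs'.2.1, bad_take, htk]
    unfold BB
    constructor
    · intro h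
      refine ⟨key s' hs', ?_⟩
      rw [e']; exact h
    · rintro ⟨-, h⟩
      rw [e'] at h; exact h
  have hpre : ∀ s', P ++ Q.take s' <+: P ++ Q := fun s' =>
    ⟨Q.drop s', by rw [List.append_assoc, List.take_append_drop]⟩
  by_cases hkk : k0 = k
  · left
    subst hkk
    rw [← hPl] at h1 h2 h5
    have hs1 := h1.1
    have hs2 := h1.2.1
    refine ⟨P ++ Q.take s, (keyb s h1).1 h2, Q.drop s, h3, ?_, ?_⟩
    · rw [List.append_assoc, List.take_append_drop]
    · congr 1
      have e1 : (P ++ Q.take s).take p0 = P ++ Q.take (p0 - P.length) := by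
        rw [List.take_append, List.take_of_length_le (by omega : P.length ≤ p0), List.take_take,
          min_eq_left (by omega)]
      have e2 : (P ++ Q.take s).drop p0 = (Q.take s).drop (p0 - P.length) := by
        rw [List.drop_append, List.drop_of_length_le (by omega : P.length ≤ p0), List.nil_append]
      have hv2 := hG2.sound k0 hk0 P (Q.take (p0 - P.length)) v v2 hPl hl0 h5
      conv_lhs => unfold T
      rw [e1, e2, ← hv2, hPl]
  · right
    obtain ⟨s', e1, e2⟩ := h4 k0 hk0 hkk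
    rw [← hPl] at e1 e2
    exact ⟨_, key s' e1, fun h => e2 ((keyb s' e1).2 h), hpre s'⟩

open Classical in
/-- completeness of scheme 2 on a bad block -/
theorem cc2 (hW : Wall n W Wo)
    (hG2 : G2 φ act K p0 R0 c lam2 rho2 nu2)
    (hz : p0 + N1 + n ≤ z)
    (hSP : ∀ w : List α,
      ((Finset.range K).filter (Spoiled Wo z N1 p0 BadT K c w)).card ≤ R0)
    {X X2 : List α} (hX : X ∈ XX z Wo) (hb : BadAt Wo z N1 p0 BadT 0 X X.length)
    (hX2 : X2 ∈ XX z Wo) (v : V) :
    ∃ P Q, X ++ X2 = P ++ Q ∧ LP2 K c lam2 P v ∧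
      ∃ b, RR2 φ act Wo z N1 p0 K BadT nu c rho2 nu2 Q b := by
  have hXl := hX.1
  have hul : (X.take p0).length = p0 := by rw [List.length_take]; omega
  obtain ⟨I, hI, hI'⟩ := hG2.complete (X.take p0) hul v
  obtain ⟨k, hkI, hks⟩ : ∃ k ∈ I, ¬ Spoiled Wo z N1 p0 BadT K c (X ++ X2) k := by
    by_contra hcon
    push Not at hcon
    have hsub : I ⊆ (Finset.range K).filter (Spoiled Wo z N1 p0 BadT K c (X ++ X2)) := by
      intro k hk
      exact Finset.mem_filter.2 ⟨Finset.mem_range.2 (hI' k hk).1, hcon k hk⟩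
    have := Finset.card_le_card hsub
    have := hSP (X ++ X2)
    omega
  obtain ⟨hk, hlam, hrho⟩ := hI' k hkI
  have hck := hG2.cle k hk
  have hPl : (X.take (c k)).length = c k := by rw [List.length_take]; omega
  have hdrop : (X ++ X2).drop (c k) = X.drop (c k) ++ X2 :=
    List.drop_append_of_le_length (by omega)
  have hPQ : X.take (c k) ++ (X ++ X2).drop (c k) = X ++ X2 := by
    rw [hdrop, ← List.append_assoc, List.take_append_drop]
  set Q := (X ++ X2).drop (c k) with hQdef
  have hQl : Q.length = X.length - c k + X2.length := by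
    rw [hdrop, List.length_append, List.length_drop]
  have htX : (X ++ X2).take X.length = X := by
    rw [List.take_append_of_le_length le_rfl, List.take_length]
  refine ⟨X.take (c k), Q, hPQ.symm, ⟨k, hk, hPl, ?_⟩, ?_⟩
  · rw [List.take_take, min_eq_left (by omega)] at hlam
    exact hlam
  obtain ⟨v2, hv2⟩ := Option.isSome_iff_exists.1 hrho
  refine ⟨_, k, X.length - c k, v2, hk, ?_, ?_, ?_, ?_, ?_, rfl⟩
  · have h0 : Nx Wo z 0 (X ++ X2) X.length := by
      refine ⟨by omega, by rw [List.length_append]; omega, ?_, ?_⟩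
      · rw [htX]; exact hX.2.1
      · intro s' hs' hz' hcon
        rw [List.take_append_of_le_length (by omega)] at hcon
        exact hX.2.2 s' (by omega) hs' hcon
    have := (nx_append hW (z := z) (X.take (c k)) Q (X.length - c k) (by omega)).2
    rw [hPQ, hPl] at this
    apply this
    have e : c k + (X.length - c k) = X.length := by omega
    rw [e]
    exact ⟨h0, by omega⟩
  · have := (bad_append (p0 := p0) (BadT := BadT) (N1 := N1) (z := z) hW (X.take (c k)) Q
      (X.length - c k) (by omega) (by omega)).2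
    rw [hPQ, hPl] at this
    apply this
    have e : c k + (X.length - c k) = X.length := by omega
    rw [e, bad_take, htX]
    exact hb
  · have : Q.drop (X.length - c k) = X2 := by
      rw [hdrop, List.drop_left' (by rw [List.length_drop])]
    rw [this]
    exact hX2
  · intro k' hk' hne
    have hck' := hG2.cle k' hk'
    have hQW : Wo Q := by
      rw [hdrop]
      exact (hW.loc _ _ (hW.len _ hX2.2.1)).2 hX2.2.1
    have hX2l := hX2.1
    have hexs : ∃ s, z ≤ s + c k' ∧ s ≤ Q.length ∧ Wo (Q.take s) :=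
      ⟨Q.length, by omega, le_rfl, by rw [List.take_length]; exact hQW⟩
    obtain ⟨h1, h2, h3⟩ := Nat.find_spec hexs
    have hNx : Nx Wo z (c k') Q (Nat.find hexs) := by
      refine ⟨h1, h2, h3, ?_⟩
      intro s' hs' hz' hcon
      exact Nat.find_min hexs hs' ⟨hz', by omega, hcon⟩
    refine ⟨_, hNx, ?_⟩
    intro hbad
    exact hks ⟨k', hk', hne, _, hNx, hbad⟩
  · have : Q.take (p0 - c k) = (X.take p0).drop (c k) := by
      rw [hdrop, List.drop_take, List.take_append_of_le_length]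
      rw [List.length_drop]; omega
    rw [this]
    exact hv2

theorem hcc2 (hW : Wall n W Wo)
    (hG2 : G2 φ act K p0 R0 c lam2 rho2 nu2)
    (hz : p0 + N1 + n ≤ z)
    (hSP : ∀ w : List α,
      (open Classical in (Finset.range K).filter (Spoiled Wo z N1 p0 BadT K c w)).card ≤ R0)
    {X Y : List α} (hX : X ∈ BB Wo z N1 p0 BadT) (hY : Y ∈ BB Wo z N1 p0 BadT) (v : V) :
    ∃ P Q, P ++ Q = X ++ Y ∧ LP2 K c lam2 P v ∧ ∀ x, ∀ P', LP2 K c lam2 P' x →
      (∃ X' ∈ BB Wo z N1 p0 BadT, ∃ Y' ∈ XX z Wo, X' ++ Y' = P' ++ Q ∧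
        T φ act p0 nu nu2 (T φ act p0 nu nu2 x X') Y' =
          T φ act p0 nu nu2 (T φ act p0 nu nu2 v X) Y) ∨
      (∃ X' ∈ XX z Wo, X' ∉ BB Wo z N1 p0 BadT ∧ X' <+: P' ++ Q) := by
  obtain ⟨P, Q, hPQ, hP, b, hb⟩ := cc2 (φ := φ) (act := act) (nu := nu) (rho2 := rho2)
    (nu2 := nu2) hW hG2 hz hSP hX.1 hX.2 hY.1 v
  refine ⟨P, Q, hPQ.symm, hP, ?_⟩
  -- the value `b` is the true one
  have hbT : b = T φ act p0 nu nu2 (T φ act p0 nu nu2 v X) Y := by
    rcases rr2_sem hW hG2 hz hb hP with ⟨X', hX', Y', hY', e, ht⟩ | ⟨X', hX', hnb, hpre⟩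
    · rw [← hPQ] at e
      have hXX' : X' = X := by
        rcases List.append_eq_append_iff.1 e with ⟨a, ha1, ha2⟩ | ⟨a, ha1, ha2⟩
        · have : X' ++ a ∈ XX z Wo := by rw [← ha1]; exact hX.1
          have := prefix_code hX'.1 this
          rw [this, List.append_nil] at ha1
          exact ha1.symm
        · have : X ++ a ∈ XX z Wo := by rw [← ha1]; exact hX'.1
          have := prefix_code hX.1 this
          rw [this, List.append_nil] at ha1
          exact ha1
      rw [hXX'] at e ht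
      rw [List.append_cancel_left e] at ht
      exact ht.symm
    · exfalso
      rw [← hPQ] at hpre
      have hX'X : X' = X := by
        rcases List.prefix_or_prefix_of_prefix hpre (List.prefix_append X Y) with h | h
        · obtain ⟨a, ha⟩ := h
          have := prefix_code hX' (by rw [ha]; exact hX.1 : X' ++ a ∈ XX z Wo)
          rw [this, List.append_nil] at ha
          exact ha
        · obtain ⟨a, ha⟩ := h
          have := prefix_code hX.1 (by rw [ha]; exact hX' : X ++ a ∈ XX z Wo)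
          rw [this, List.append_nil] at ha
          exact ha.symm
      rw [hX'X] at hnb
      exact hnb hX
  intro x P' hP'
  rcases rr2_sem hW hG2 hz hb hP' with ⟨X', hX', Y', hY', e, ht⟩ | h
  · left
    exact ⟨X', hX', Y', hY', e, ht.trans hbT⟩
  · right
    exact h

end Crest.Agent.R320.Inst_448
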