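import Mathlib

/-!
# Row 320: the thin ruler for helper693's grid gadget (pure arithmetic)

`BadZ T`: some modulus of `Ms` divides `T`, or `T - Am (j+1)` is within `c j` of a multiple of
`G (j+1)` for some `j < m`.  There is a ruler `x` with `K` marks (resolution `2 N`) such that for
every `T` at most `card Ms + m` ordered pairs `a ≠ b` have `BadZ (T - (x a - x b))`; the bound does
not depend on `K`.
-/

set_option autoImplicit false

namespace Crest.Agent.R320.GridRuler_692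

open Finset

def BadZ (Ms : Finset ℕ) (m : ℕ) (G c Am : ℕ → ℕ) (T : ℤ) : Prop :=
  (∃ k ∈ Ms, (k : ℤ) ∣ T) ∨ ∃ j < m, ¬ ((c j : ℤ) ≤ (T - Am (j + 1)) % (G (j + 1) : ℤ) ∧
    (T - Am (j + 1)) % (G (j + 1) : ℤ) < (G (j + 1) : ℤ) - c j)

theorem pow_sidon {a b c d : ℕ} (hab : a ≠ b)
    (h : (2:ℤ)^a - 2^b = 2^c - 2^d) : a = c ∧ b = d := by
  have h1 : (2:ℕ)^a + 2^d = 2^c + 2^b := by
    have : (2:ℤ)^a + 2^d = 2^c + 2^b := by linarith
    exact_mod_cast this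
  have key : ∀ {x y z t : ℕ}, x ≤ y → z ≤ t → (2:ℕ)^x + 2^y = 2^z + 2^t → x = z ∧ y = t := by
    intro x y z t hxy hzt h
    have lt_aux : ∀ {x y z t : ℕ}, x ≤ y → z ≤ t → (2:ℕ)^x + 2^y = 2^z + 2^t → y < t →
        z = x + 1 - 1 ∧ False ∨ (x = y ∧ t = y + 1 ∧ False) := by
      intro x y z t hxy hzt h hyt
      exfalso
      have h1 : (2:ℕ)^x ≤ 2^y := Nat.pow_le_pow_right (by norm_num) hxy
      have h2 : (2:ℕ)^(y+1) ≤ 2^t := Nat.pow_le_pow_right (by norm_num) hyt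
      have h3 : (2:ℕ)^(y+1) = 2 * 2^y := by ring
      have h4 : 0 < (2:ℕ)^z := by positivity
      omega
    rcases lt_trichotomy y t with hlt | heq | hgt
    · rcases lt_aux hxy hzt h hlt with ⟨_, hf⟩ | ⟨_, _, hf⟩ <;> exact hf.elim
    · subst heq
      have : (2:ℕ)^x = 2^z := by omega
      exact ⟨Nat.pow_right_injective (le_refl 2) this, rfl⟩
    · rcases lt_aux hzt hxy h.symm hgt with ⟨_, hf⟩ | ⟨_, _, hf⟩ <;> exact hf.elim
  rcases le_total a d with had | hda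
  · rcases le_total c b with hcb | hbc
    · obtain ⟨e1, e2⟩ := key had hcb h1
      exact ⟨e1, e2.symm⟩
    · obtain ⟨e1, e2⟩ := key had hbc (by omega)
      exact absurd e1 hab
  · rcases le_total c b with hcb | hbc
    · obtain ⟨e1, e2⟩ := key hda hcb (by omega)
      exact absurd e2 hab
    · obtain ⟨e1, e2⟩ := key hda hbc (by omega)
      exact ⟨e2, e1.symm⟩

/-- being near a multiple of `g`, in coordinates -/
theorem band_coord {g w y : ℤ} (hg : 0 < g) (h : ¬ (w ≤ y % g ∧ y % g < g - w)) :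
    ∃ q ρ : ℤ, y = q * g + ρ ∧ -w ≤ ρ ∧ ρ < w ∨ w ≤ 0 := by
  have e := Int.mul_ediv_add_emod y g
  have h0 := Int.emod_nonneg y hg.ne'
  have h1 := Int.emod_lt_of_pos y hg
  by_cases hw : y % g < w
  · refine ⟨y / g, y % g, Or.inl ⟨by linarith [mul_comm g (y / g)], by linarith, hw⟩⟩
  · push Not at hw
    have h2 : g - w ≤ y % g := by
      by_contra hc
      push Not at hc
      exact h ⟨hw, hc⟩
    by_cases hw0 : w ≤ 0
    · exact ⟨0, 0, Or.inr hw0⟩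
    · refine ⟨y / g + 1, y % g - g, Or.inl ⟨by linarith [mul_comm g (y / g)], by linarith,
        by linarith⟩⟩

variable {K M m : ℕ} {G c Am : ℕ → ℕ} {Ms : Finset ℕ}

set_option maxHeartbeats 4000000 in
theorem grid_ruler (K M m : ℕ) (G c Am : ℕ → ℕ) (Ms : Finset ℕ)
    (hMs : ∀ k ∈ Ms, k ∣ M ∧ 4 * 2 ^ K < k) (hcop : Nat.Coprime M (G m))
    (hM : 0 < M) (hG : 0 < G m)
    (hdvd : ∀ i j, i ≤ j → j ≤ m → G i ∣ G j) (hc : ∀ i, G i ∣ c i) (hcpos : ∀ i, 0 < c i)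
    (hgrow : ∀ j < m, 16 * 2 ^ K * (∑ i ∈ range (j + 1), c i) < G (j + 1)) (N : ℕ) :
    ∃ x : ℕ → ℕ, (∀ a b, a < b → x a < x b) ∧
      (∀ a b c' d, a < K → b < K → c' < K → d < K → a ≠ b →
        |((x a : ℤ) - x b) - ((x c' : ℤ) - x d)| ≤ 2 * N → a = c' ∧ b = d) ∧
      ∀ T : ℤ, ∀ F : Finset (ℕ × ℕ),
        (∀ p ∈ F, p.1 < K ∧ p.2 < K ∧ p.1 ≠ p.2 ∧
          BadZ Ms m G c Am (T - ((x p.1 : ℤ) - x p.2))) → F.card ≤ Ms.card + m := by
  classical
  obtain ⟨X0, hX0M, hX0G⟩ := Nat.chineseRemainder hcop 1 (4 * ∑ i ∈ range m, c i)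
  set X : ℕ := X0 + (2 * N + 1) * (M * G m) with hX
  have hMG : 0 < M * G m := Nat.mul_pos hM hG
  have hXN : 2 * N < X := by
    have : 2 * N + 1 ≤ (2 * N + 1) * (M * G m) := Nat.le_mul_of_pos_right _ hMG
    omega
  have hXM : (M : ℤ) ∣ (X : ℤ) - 1 := by
    have h1 : (M : ℤ) ∣ (X0 : ℤ) - 1 := by
      have := (Nat.modEq_iff_dvd.1 hX0M)
      have h2 := dvd_neg.2 this
      simpa using h2
    have h2 : (X : ℤ) - 1 = ((X0 : ℤ) - 1) + M * ((2 * N + 1) * G m) := by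
      rw [hX]; push_cast; ring
    rw [h2]
    exact dvd_add h1 (dvd_mul_right _ _)
  have hXG : ∀ j < m, (G (j + 1) : ℤ) ∣ (X : ℤ) - 4 * ∑ i ∈ range (j + 1), (c i : ℤ) := by
    intro j hj
    have hdj : (G (j + 1) : ℤ) ∣ (G m : ℤ) := by exact_mod_cast hdvd (j + 1) m (by omega) le_rfl
    have h1 : (G m : ℤ) ∣ (X0 : ℤ) - 4 * ∑ i ∈ range m, (c i : ℤ) := by
      have := (Nat.modEq_iff_dvd.1 hX0G)
      have h2 := dvd_neg.2 this
      have e : -(((4 * ∑ i ∈ range m, c i : ℕ) : ℤ) - (X0 : ℤ)) =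
        (X0 : ℤ) - 4 * ∑ i ∈ range m, (c i : ℤ) := by push_cast; ring
      rw [e] at h2
      exact h2
    have h3 : (G (j + 1) : ℤ) ∣ ∑ i ∈ range m, (c i : ℤ) - ∑ i ∈ range (j + 1), (c i : ℤ) := by
      have hsplit : ∑ i ∈ range m, (c i : ℤ) =
          ∑ i ∈ range (j + 1), (c i : ℤ) + ∑ i ∈ Ico (j + 1) m, (c i : ℤ) := by
        rw [range_eq_Ico, range_eq_Ico, sum_Ico_consecutive _ (Nat.zero_le _) (by omega)]
      rw [hsplit, add_sub_cancel_left]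
      refine dvd_sum fun i hi => ?_
      have hi' := mem_Ico.1 hi
      have h4 : G (j + 1) ∣ c i := (hdvd (j + 1) i hi'.1 (by omega)).trans (hc i)
      exact_mod_cast h4
    have h5 : (X : ℤ) - 4 * ∑ i ∈ range (j + 1), (c i : ℤ) =
        ((X0 : ℤ) - 4 * ∑ i ∈ range m, (c i : ℤ)) +
        4 * (∑ i ∈ range m, (c i : ℤ) - ∑ i ∈ range (j + 1), (c i : ℤ)) +
        G m * ((2 * N + 1) * M) := by
      rw [hX]; push_cast; ring
    rw [h5]
    exact dvd_add (dvd_add (hdj.trans h1) (Dvd.dvd.mul_left h3 _)) (hdj.trans (dvd_mul_right _ _))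
  -- the marks
  have hpow : ∀ a, a < K → (0 : ℤ) < 2 ^ a ∧ (2 : ℤ) ^ a ≤ 2 ^ K := fun a ha =>
    ⟨by positivity, pow_le_pow_right₀ (by norm_num) ha.le⟩
  refine ⟨fun a => X * 2 ^ a, ?_, ?_, ?_⟩
  · intro a b hab
    exact Nat.mul_lt_mul_of_pos_left (Nat.pow_lt_pow_right (by norm_num) hab) (by omega)
  · intro a b c' d ha hb hc' hd hab h
    have e : (((X * 2 ^ a : ℕ) : ℤ) - ((X * 2 ^ b : ℕ) : ℤ)) -
        (((X * 2 ^ c' : ℕ) : ℤ) - ((X * 2 ^ d : ℕ) : ℤ)) =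
        X * (((2 : ℤ) ^ a - 2 ^ b) - (2 ^ c' - 2 ^ d)) := by push_cast; ring
    rw [e, abs_mul, Nat.abs_cast] at h
    by_contra hcon
    have hne : ((2 : ℤ) ^ a - 2 ^ b) - (2 ^ c' - 2 ^ d) ≠ 0 := fun h0 =>
      hcon (pow_sidon hab (by linarith))
    have h1 : 1 ≤ |((2 : ℤ) ^ a - 2 ^ b) - (2 ^ c' - 2 ^ d)| := Int.one_le_abs hne
    have h2 : (2 * N : ℤ) < X := by exact_mod_cast hXN
    nlinarith
  · intro T F hF
    -- uniqueness for one modulus
    have uniq1 : ∀ k ∈ Ms, ∀ p ∈ F, ∀ p' ∈ F,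
        (k : ℤ) ∣ T - (((X * 2 ^ p.1 : ℕ) : ℤ) - ((X * 2 ^ p.2 : ℕ) : ℤ)) →
        (k : ℤ) ∣ T - (((X * 2 ^ p'.1 : ℕ) : ℤ) - ((X * 2 ^ p'.2 : ℕ) : ℤ)) → p = p' := by
      intro k hk p hp p' hp' h h'
      obtain ⟨a1, a2, a3, _⟩ := hF p hp
      obtain ⟨b1, b2, b3, _⟩ := hF p' hp'
      obtain ⟨hkM, hk4⟩ := hMs k hk
      have hd := dvd_sub h' h
      set δ : ℤ := ((2 : ℤ) ^ p.1 - 2 ^ p.2) - (2 ^ p'.1 - 2 ^ p'.2) with hδ
      have e : (T - (((X * 2 ^ p'.1 : ℕ) : ℤ) - ((X * 2 ^ p'.2 : ℕ) : ℤ))) -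
          (T - (((X * 2 ^ p.1 : ℕ) : ℤ) - ((X * 2 ^ p.2 : ℕ) : ℤ))) = X * δ := by
        rw [hδ]; push_cast; ring
      rw [e] at hd
      have hkX : (k : ℤ) ∣ (X : ℤ) - 1 := (by exact_mod_cast hkM : (k : ℤ) ∣ (M : ℤ)).trans hXM
      have h3 : (k : ℤ) ∣ δ := by
        have e2 : δ = X * δ - (X - 1) * δ := by ring
        rw [e2]
        exact dvd_sub hd (Dvd.dvd.mul_right hkX δ)
      have g1 := hpow _ a1
      have g2 := hpow _ a2
      have g3 := hpow _ b1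
      have g4 := hpow _ b2
      have h4 : |δ| < k := by
        have hk4' : (4 : ℤ) * 2 ^ K < k := by exact_mod_cast hk4
        rw [abs_lt]
        constructor <;> linarith [g1.1, g1.2, g2.1, g2.2, g3.1, g3.2, g4.1, g4.2]
      have h5 : δ = 0 := Int.eq_zero_of_abs_lt_dvd h3 h4
      obtain ⟨e1, e2⟩ := pow_sidon a3 (show (2 : ℤ) ^ p.1 - 2 ^ p.2 = 2 ^ p'.1 - 2 ^ p'.2 by
        linarith)
      exact Prod.ext e1 e2
    -- uniqueness for one band
    have uniq2 : ∀ j < m, ∀ p ∈ F, ∀ p' ∈ F,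
        ¬ ((c j : ℤ) ≤ (T - (((X * 2 ^ p.1 : ℕ) : ℤ) - ((X * 2 ^ p.2 : ℕ) : ℤ)) - Am (j + 1)) %
            (G (j + 1) : ℤ) ∧
          (T - (((X * 2 ^ p.1 : ℕ) : ℤ) - ((X * 2 ^ p.2 : ℕ) : ℤ)) - Am (j + 1)) %
            (G (j + 1) : ℤ) < (G (j + 1) : ℤ) - c j) →
        ¬ ((c j : ℤ) ≤ (T - (((X * 2 ^ p'.1 : ℕ) : ℤ) - ((X * 2 ^ p'.2 : ℕ) : ℤ)) - Am (j + 1)) %
            (G (j + 1) : ℤ) ∧
          (T - (((X * 2 ^ p'.1 : ℕ) : ℤ) - ((X * 2 ^ p'.2 : ℕ) : ℤ)) - Am (j + 1)) %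
            (G (j + 1) : ℤ) < (G (j + 1) : ℤ) - c j) → p = p' := by
      intro j hj p hp p' hp' h h'
      obtain ⟨a1, a2, a3, _⟩ := hF p hp
      obtain ⟨b1, b2, b3, _⟩ := hF p' hp'
      have hGp : (0 : ℤ) < G (j + 1) := by
        have := hgrow j hj
        exact_mod_cast (by omega : 0 < G (j + 1))
      have hcj : (0 : ℤ) < c j := by exact_mod_cast hcpos j
      obtain ⟨q, ρ, ⟨hq1, hq2, hq3⟩ | hbad⟩ := band_coord hGp h
      swap
      · exact absurd hbad (by omega)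
      obtain ⟨q', ρ', ⟨hq1', hq2', hq3'⟩ | hbad⟩ := band_coord hGp h'
      swap
      · exact absurd hbad (by omega)
      set δ : ℤ := ((2 : ℤ) ^ p.1 - 2 ^ p.2) - (2 ^ p'.1 - 2 ^ p'.2) with hδ
      have e : X * δ = (q' - q) * G (j + 1) + (ρ' - ρ) := by
        have : X * δ = (T - (((X * 2 ^ p'.1 : ℕ) : ℤ) - ((X * 2 ^ p'.2 : ℕ) : ℤ)) - Am (j + 1)) -
          (T - (((X * 2 ^ p.1 : ℕ) : ℤ) - ((X * 2 ^ p.2 : ℕ) : ℤ)) - Am (j + 1)) := by
          rw [hδ]; push_cast; ring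
        rw [this, hq1, hq1']; ring
      obtain ⟨y, hy⟩ := hXG j hj
      set s : ℤ := ∑ i ∈ range (j + 1), (c i : ℤ) with hs
      have hsc : (c j : ℤ) ≤ s := by
        rw [hs]
        exact single_le_sum (f := fun i => (c i : ℤ)) (fun i _ => by positivity)
          (mem_range.2 (Nat.lt_succ_self j))
      have e2 : 4 * s * δ = (q' - q - y * δ) * G (j + 1) + (ρ' - ρ) := by
        have hXs : (X : ℤ) = 4 * s + G (j + 1) * y := by linarith
        rw [hXs] at e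
        linear_combination e
      have hgr : (16 : ℤ) * 2 ^ K * s < G (j + 1) := by
        have := hgrow j hj
        rw [hs]
        exact_mod_cast this
      have g1 := hpow _ a1
      have g2 := hpow _ a2
      have g3 := hpow _ b1
      have g4 := hpow _ b2
      have hδb : |δ| ≤ 2 * 2 ^ K := by
        rw [abs_le]
        constructor <;> linarith [g1.1, g1.2, g2.1, g2.2, g3.1, g3.2, g4.1, g4.2]
      have hs0 : 0 < s := by linarith
      have hK1 : (1 : ℤ) ≤ 2 ^ K := one_le_pow₀ (by norm_num)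
      have hq0 : q' - q - y * δ = 0 := by
        by_contra hne
        have h1 : 1 ≤ |q' - q - y * δ| := Int.one_le_abs hne
        have h2 : (G (j + 1) : ℤ) ≤ |(q' - q - y * δ) * G (j + 1)| := by
          rw [abs_mul, abs_of_pos hGp]
          nlinarith
        have h3 : (q' - q - y * δ) * G (j + 1) = 4 * s * δ - (ρ' - ρ) := by linarith
        rw [h3] at h2
        have h4 : |4 * s * δ - (ρ' - ρ)| ≤ |4 * s * δ| + |ρ' - ρ| := abs_sub _ _
        have h5 : |4 * s * δ| ≤ 8 * 2 ^ K * s := by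
          rw [abs_mul, abs_of_pos (by linarith : (0 : ℤ) < 4 * s)]
          nlinarith
        have h6 : |ρ' - ρ| ≤ 2 * s := by
          rw [abs_le]
          constructor <;> linarith
        nlinarith
      rw [hq0, zero_mul, zero_add] at e2
      have hδ0 : δ = 0 := by
        by_contra hne
        have h1 : 1 ≤ |δ| := Int.one_le_abs hne
        have h2 : |4 * s * δ| = 4 * s * |δ| := by
          rw [abs_mul, abs_of_pos (by linarith : (0 : ℤ) < 4 * s)]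
        have h6 : |ρ' - ρ| ≤ 2 * s := by
          rw [abs_le]
          constructor <;> linarith
        rw [← e2, h2] at h6
        nlinarith
      obtain ⟨e1, e2⟩ := pow_sidon a3 (show (2 : ℤ) ^ p.1 - 2 ^ p.2 = 2 ^ p'.1 - 2 ^ p'.2 by
        linarith)
      exact Prod.ext e1 e2
    -- counting
    set F1 : ℕ → Finset (ℕ × ℕ) := fun k => F.filter fun p =>
      (k : ℤ) ∣ T - (((X * 2 ^ p.1 : ℕ) : ℤ) - ((X * 2 ^ p.2 : ℕ) : ℤ)) with hF1
    set F2 : ℕ → Finset (ℕ × ℕ) := fun j => F.filter fun p =>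
        ¬ ((c j : ℤ) ≤ (T - (((X * 2 ^ p.1 : ℕ) : ℤ) - ((X * 2 ^ p.2 : ℕ) : ℤ)) - Am (j + 1)) %
            (G (j + 1) : ℤ) ∧
          (T - (((X * 2 ^ p.1 : ℕ) : ℤ) - ((X * 2 ^ p.2 : ℕ) : ℤ)) - Am (j + 1)) %
            (G (j + 1) : ℤ) < (G (j + 1) : ℤ) - c j) with hF2
    have hsub : F ⊆ Ms.biUnion F1 ∪ (range m).biUnion F2 := by
      intro p hp
      obtain ⟨_, _, _, hb⟩ := hF p hp
      rcases hb with ⟨k, hk, hd⟩ | ⟨j, hj, hb⟩
      · exact mem_union_left _ (mem_biUnion.2 ⟨k, hk, mem_filter.2 ⟨hp, hd⟩⟩)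
      · exact mem_union_right _ (mem_biUnion.2 ⟨j, mem_range.2 hj, mem_filter.2 ⟨hp, hb⟩⟩)
    refine (card_le_card hsub).trans ((card_union_le _ _).trans (Nat.add_le_add ?_ ?_))
    · refine card_biUnion_le.trans ?_
      calc ∑ k ∈ Ms, (F1 k).card ≤ ∑ _k ∈ Ms, 1 := by
            refine sum_le_sum fun k hk => card_le_one.2 ?_
            intro p hp p' hp'
            have hp := mem_filter.1 hp
            have hp' := mem_filter.1 hp'
            exact uniq1 k hk p hp.1 p' hp'.1 hp.2 hp'.2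
        _ = Ms.card := by simp
    · refine card_biUnion_le.trans ?_
      calc ∑ j ∈ range m, (F2 j).card ≤ ∑ _j ∈ range m, 1 := by
            refine sum_le_sum fun j hj => card_le_one.2 ?_
            intro p hp p' hp'
            have hp := mem_filter.1 hp
            have hp' := mem_filter.1 hp'
            exact uniq2 j (mem_range.1 hj) p hp.1 p' hp'.1 hp.2 hp'.2
        _ = m := by simp

end Crest.Agent.R320.GridRuler_692
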