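import Crest.Agent.R320.GridG_19
import Crest.Agent.R320.GridRuler_692

/-! Row 320, helper477: constants and gadget 1 with its ruler. -/

set_option autoImplicit false

namespace Crest.Agent.R320.Fin1_477

open Finset

/-- bad totals -/
def BadN (Ms : Finset ℕ) (G : ℕ → ℕ) (m : ℕ) (T : ℕ) : Prop :=
  (∃ q ∈ Ms, q ∣ T) ∨ GridG_19.BadG G (∏ q ∈ Ms, q) 0 m T

theorem sum_G (κ j : ℕ) (hκ : 1 ≤ κ) : ∑ i ∈ range (j + 1), 2 ^ (κ * i) ≤ 2 * 2 ^ (κ * j) := by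
  induction j with
  | zero => simp
  | succ j ih =>
    rw [Finset.sum_range_succ]
    have h1 : 2 * 2 ^ (κ * j) ≤ 2 ^ (κ * (j + 1)) := by
      have : 2 ^ (κ * (j + 1)) = 2 ^ κ * 2 ^ (κ * j) := by rw [← pow_add]; congr 1; ring
      rw [this]
      have h2 : 2 ^ 1 ≤ 2 ^ κ := Nat.pow_le_pow_right (by norm_num) hκ
      exact Nat.mul_le_mul_right _ (by simpa using h2)
    omega

theorem bad_int {Ms : Finset ℕ} {G : ℕ → ℕ} {m T : ℕ}
    (hT : GridG_19.Am G (∏ q ∈ Ms, q) 0 m ≤ T) (h : BadN Ms G m T) :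
    GridRuler_692.BadZ Ms m G (fun i => (∏ q ∈ Ms, q) * G i) (GridG_19.Am G (∏ q ∈ Ms, q) 0)
      (T : ℤ) := by
  rcases h with ⟨q, hq, hd⟩ | ⟨k, hk, hb⟩
  · exact Or.inl ⟨q, hq, by exact_mod_cast hd⟩
  · right
    refine ⟨k, hk, ?_⟩
    have h1 : GridG_19.Am G (∏ q ∈ Ms, q) 0 (k + 1) ≤ T :=
      (GridG_19.Am_mono G _ 0 (by omega)).trans hT
    rintro ⟨h2, h3⟩
    have e : ((T : ℤ) - (GridG_19.Am G (∏ q ∈ Ms, q) 0 (k + 1) : ℤ)) =
        ((T - GridG_19.Am G (∏ q ∈ Ms, q) 0 (k + 1) : ℕ) : ℤ) := by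
      push_cast [Nat.cast_sub h1]; ring
    rw [e, ← Int.natCast_mod] at h2 h3
    simp only at h2 h3
    rcases hb with hb | hb
    · have : ((∏ q ∈ Ms, q) * G k) ≤
          (T - GridG_19.Am G (∏ q ∈ Ms, q) 0 (k + 1)) % G (k + 1) := by exact_mod_cast h2
      omega
    · have : ((T - GridG_19.Am G (∏ q ∈ Ms, q) 0 (k + 1)) % G (k + 1) : ℕ) +
          ((∏ q ∈ Ms, q) * G k) < G (k + 1) := by
        have h4 : (((T - GridG_19.Am G (∏ q ∈ Ms, q) 0 (k + 1)) % G (k + 1) : ℕ) : ℤ) +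
          (((∏ q ∈ Ms, q) * G k : ℕ) : ℤ) < (G (k + 1) : ℤ) := by linarith
        exact_mod_cast h4
      omega

theorem bad_per {Ms : Finset ℕ} {G : ℕ → ℕ} {m T T' : ℕ} (hd : ∀ a b, a ≤ b → G a ∣ G b)
    (hT : GridG_19.Am G (∏ q ∈ Ms, q) 0 m ≤ T) (hT' : GridG_19.Am G (∏ q ∈ Ms, q) 0 m ≤ T')
    (h : T % ((∏ q ∈ Ms, q) * G m) = T' % ((∏ q ∈ Ms, q) * G m)) :
    BadN Ms G m T ↔ BadN Ms G m T' := by
  have key : ∀ {T T' : ℕ}, GridG_19.Am G (∏ q ∈ Ms, q) 0 m ≤ T →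
      GridG_19.Am G (∏ q ∈ Ms, q) 0 m ≤ T' → T ≡ T' [MOD ((∏ q ∈ Ms, q) * G m)] →
      BadN Ms G m T → BadN Ms G m T' := by
    intro T T' hT hT' h hb
    rcases hb with ⟨q, hq, hq'⟩ | ⟨k, hk, hb⟩
    · left
      refine ⟨q, hq, ?_⟩
      have h1 : T ≡ T' [MOD q] := h.of_dvd ((Finset.dvd_prod_of_mem _ hq).mul_right _)
      exact (h1.dvd_iff (dvd_refl q)).1 hq'
    · right
      refine ⟨k, hk, ?_⟩
      have h1 : GridG_19.Am G (∏ q ∈ Ms, q) 0 (k + 1) ≤ T :=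
        (GridG_19.Am_mono G _ 0 (by omega)).trans hT
      have h1' : GridG_19.Am G (∏ q ∈ Ms, q) 0 (k + 1) ≤ T' :=
        (GridG_19.Am_mono G _ 0 (by omega)).trans hT'
      have h2 : T ≡ T' [MOD G (k + 1)] := h.of_dvd ((hd (k + 1) m (by omega)).mul_left _)
      have h3 : T - GridG_19.Am G (∏ q ∈ Ms, q) 0 (k + 1) ≡
          T' - GridG_19.Am G (∏ q ∈ Ms, q) 0 (k + 1) [MOD G (k + 1)] := by
        refine Nat.ModEq.add_right_cancel' (GridG_19.Am G (∏ q ∈ Ms, q) 0 (k + 1)) ?_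
        rw [Nat.sub_add_cancel h1, Nat.sub_add_cancel h1']
        exact h2
      unfold Nat.ModEq at h3
      rw [h3] at hb
      exact hb
  exact ⟨key hT hT' h, key hT' hT h.symm⟩

/-- **Gadget 1 with its ruler.** -/
theorem gadget1 (S V : Type) [Monoid S] [Finite S] [AddCommGroup V] [Finite V]
    (act : V → S → V) :
    ∃ C0 : ℕ, ∀ K : ℕ, ∃ (N1 L0 M0 : ℕ) (Bad : ℕ → Prop) (x : ℕ → ℕ),
      0 < M0 ∧ 0 < N1 ∧ N1 ≤ L0 ∧
      (∀ a b, a < b → x a < x b) ∧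
      (∀ a b c d, a < K → b < K → c < K → d < K → a ≠ b →
        |((x a : ℤ) - x b) - ((x c : ℤ) - x d)| ≤ 2 * N1 → a = c ∧ b = d) ∧
      (∀ T : ℤ, ∀ F : Finset (ℕ × ℕ), (∀ p ∈ F, p.1 < K ∧ p.2 < K ∧ p.1 ≠ p.2 ∧
        ∃ n : ℕ, (n : ℤ) = T - ((x p.1 : ℤ) - x p.2) ∧ L0 ≤ n ∧ Bad n) → F.card ≤ C0) ∧
      (∀ T T', L0 ≤ T → L0 ≤ T' → T % M0 = T' % M0 → (Bad T ↔ Bad T')) ∧
      ∀ (α : Type) (φ : List α → S), (∀ u v, φ (u ++ v) = φ u * φ v) →
        ∃ (lam rho : List α → Option V) (nu : List α → V),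
          (∀ P Q v b, lam P = some v → rho Q = some b → b = act v (φ (P ++ Q)) + nu (P ++ Q)) ∧
          (∀ P v, lam P = some v → P.length ≤ N1) ∧
          (∀ Y : List α, L0 ≤ Y.length → ¬ Bad Y.length →
            ∀ v, ∃ P Q, P ++ Q = Y ∧ lam P = some v ∧ (rho Q).isSome) ∧
          (∀ Y Y' : List α, L0 ≤ Y.length → L0 ≤ Y'.length → Y.take L0 = Y'.take L0 →
            Y.length % M0 = Y'.length % M0 → φ Y = φ Y' → nu Y = nu Y') := by
  classical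
  obtain ⟨m, r, H⟩ := GridG_19.grid S V act
  refine ⟨r + m, fun K => ?_⟩
  obtain ⟨Ms, hcard, hpr, H2⟩ := H (4 * 2 ^ K)
  set M := ∏ q ∈ Ms, q with hM
  have hM0 : 0 < M := Finset.prod_pos fun q hq => (hpr q hq).1.pos
  have h2K : 0 < 2 ^ K := by positivity
  let κ := 32 * 2 ^ K * M
  have hκ : 1 ≤ κ := by
    have : 0 < 32 * 2 ^ K * M := by positivity
    exact this
  let G : ℕ → ℕ := fun i => 2 ^ (κ * i)
  have hG0 : ∀ k, 0 < G k := fun k => by positivity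
  have hGd : ∀ a b, a ≤ b → G a ∣ G b := fun a b h =>
    Nat.pow_dvd_pow 2 (Nat.mul_le_mul_left κ h)
  have hodd : Nat.Coprime M 2 := by
    rw [hM]
    refine Nat.Coprime.prod_left fun q hq => ?_
    rw [Nat.coprime_primes (hpr q hq).1 Nat.prime_two]
    have := (hpr q hq).2
    have h1 : 1 ≤ 2 ^ K := h2K
    omega
  have hcop : ∀ k, Nat.Coprime M (G k) := fun k => Nat.Coprime.pow_right _ hodd
  let c : ℕ → ℕ := fun i => M * G i
  set AmF := GridG_19.Am G M 0 with hAm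
  let N1 := AmF m + 1
  have hgrow : ∀ j < m, 16 * 2 ^ K * (∑ i ∈ range (j + 1), c i) < G (j + 1) := by
    intro j _
    have e : ∑ i ∈ range (j + 1), c i = M * ∑ i ∈ range (j + 1), 2 ^ (κ * i) := by
      rw [Finset.mul_sum]
    rw [e]
    have h1 := sum_G κ j hκ
    have h2 : G (j + 1) = 2 ^ κ * 2 ^ (κ * j) := by
      show 2 ^ (κ * (j + 1)) = _
      rw [← pow_add]; congr 1; ring
    rw [h2]
    have h3 : κ < 2 ^ κ := Nat.lt_two_pow_self
    calc 16 * 2 ^ K * (M * ∑ i ∈ range (j + 1), 2 ^ (κ * i))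
        ≤ 16 * 2 ^ K * (M * (2 * 2 ^ (κ * j))) := by gcongr
      _ = κ * 2 ^ (κ * j) := by show _ = 32 * 2 ^ K * M * 2 ^ (κ * j); ring
      _ < 2 ^ κ * 2 ^ (κ * j) := by
        exact Nat.mul_lt_mul_of_pos_right h3 (by positivity)
  obtain ⟨x, hx1, hx2, hx3⟩ := GridRuler_692.grid_ruler K M m G c AmF Ms
    (fun k hk => ⟨Finset.dvd_prod_of_mem _ hk, (hpr k hk).2⟩) (hcop m) hM0 (hG0 m)
    (fun i j hij _ => hGd i j hij) (fun i => dvd_mul_left _ _) (fun i => Nat.mul_pos hM0 (hG0 i))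
    hgrow N1
  let L0 := 2 * AmF m + M + GridG_19.Ac G M 0 m + 1
  refine ⟨N1, L0, M * G m, BadN Ms G m, x, Nat.mul_pos hM0 (hG0 m), Nat.succ_pos _, ?_, hx1, hx2,
    ?_, ?_, ?_⟩
  · show AmF m + 1 ≤ 2 * AmF m + M + GridG_19.Ac G M 0 m + 1
    omega
  · intro T F hF
    refine (hx3 T F fun p hp => ?_).trans (Nat.add_le_add_right hcard m)
    obtain ⟨h1, h2, h3, n, hn, hL, hb⟩ := hF p hp
    refine ⟨h1, h2, h3, ?_⟩
    rw [← hn]
    exact bad_int (by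
      show AmF m ≤ n
      have : 2 * AmF m + M + GridG_19.Ac G M 0 m + 1 ≤ n := hL
      omega) hb
  · intro T T' hT hT' h
    have h1 : 2 * AmF m + M + GridG_19.Ac G M 0 m + 1 ≤ T := hT
    have h2 : 2 * AmF m + M + GridG_19.Ac G M 0 m + 1 ≤ T' := hT'
    exact bad_per hGd (by show AmF m ≤ T; omega) (by show AmF m ≤ T'; omega) h
  · intro α φ hφ
    obtain ⟨lam, rho, nu, h1, h2, h3, h4, h5⟩ := H2 G 0 hG0 hGd hcop α φ hφ
    refine ⟨lam, rho, nu, h1, ?_, ?_, ?_⟩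
    · intro P v hP
      have := (h2 P v hP).2
      show P.length ≤ AmF m + 1
      exact le_trans this.le (Nat.le_succ _)
    · intro Y hY hb v
      have hY' : 2 * AmF m + M + GridG_19.Ac G M 0 m + 1 ≤ Y.length := hY
      refine h4 Y (by show 2 * AmF m ≤ _; omega) (by show M ≤ _; omega) ?_ ?_ v
      · intro q hq hd
        exact hb (Or.inl ⟨q, hq, hd⟩)
      · intro hg
        exact hb (Or.inr hg)
    · intro Y Y' hY hY' ht hl hp
      have hY1 : 2 * AmF m + M + GridG_19.Ac G M 0 m + 1 ≤ Y.length := hY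
      have hY1' : 2 * AmF m + M + GridG_19.Ac G M 0 m + 1 ≤ Y'.length := hY'
      refine h5 Y Y' (by omega) (by omega) ?_ hl hp
      have e : ∀ Z : List α, Z.take (GridG_19.Ac G M 0 m) =
          (Z.take L0).take (GridG_19.Ac G M 0 m) := by
        intro Z
        rw [List.take_take]
        congr 1
        exact (Nat.min_eq_left (by
          show GridG_19.Ac G M 0 m ≤ 2 * AmF m + M + GridG_19.Ac G M 0 m + 1
          omega)).symm
      rw [e Y, e Y', ht]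

end Crest.Agent.R320.Fin1_477
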