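import Crest.Agent.R320.JointSem_814
import Crest.Agent.R320.Fib_298
import Crest.Agent.R320.Top5_110

/-!
Row 320 (helper660): 814's semantic joint + 298's heights + 110's `top_sem` = height 3, from
abstract walls / gadgets / spoil count.
-/

set_option autoImplicit false

namespace Crest.Agent.R320.Fin_660

open Crest.Agent.R320.Hk_851 Crest.Agent.R320.Code110
open Crest.Agent.R320

theorem top814 {α S V : Type} [Finite α] [Monoid S] [Finite S] [AddCommGroup V] [Finite V]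
    {Wo : List α → Prop} {n W B z p0 N N0 K R : ℕ}
    (hWU : Fib_298.WallU Wo n B)
    (hW : JointSem_814.Walls n W Wo)
    (f : α → S) (act : V → S → V)
    (hadd : ∀ a b s, act (a + b) s = act a s + act b s)
    (hone : ∀ v, act v 1 = v) (hmul : ∀ v s t, act v (s * t) = act (act v s) t)
    (hfaith : ∀ s t, (∀ v, act v s = act v t) → s = t)
    (nu1 nu2 : List α → V)
    (hnu : ∀ y, Language.IsRegular ({Y | nu1 Y = y} : Language α))
    {lam rho : List α → Option V} {BadT : ℕ → Prop}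
    (hz : p0 + N + n ≤ z) (hN0 : p0 + N0 ≤ z) (hz0 : 0 < z)
    (hlam : ∀ p v, lam p = some v → p.length ≤ N)
    (hsound : ∀ p q v r, lam p = some v → rho q = some r →
      r = act v ((p ++ q).map f).prod + nu1 (p ++ q))
    (hcompl : ∀ u, N0 ≤ u.length → ¬ BadT u.length → ∀ v, ∃ p q, p ++ q = u ∧
      lam p = some v ∧ (rho q).isSome)
    {c : ℕ → ℕ} {lam2 rho2 : ℕ → List α → Option V} (hcp : ∀ k < K, c k ≤ p0)
    (hex : ∀ k < K, ∀ (P Q : List α) (v b : V), P.length = c k → lam2 k P = some v →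
      rho2 k Q = some b → b = act v ((P ++ Q).map f).prod + nu2 (P ++ Q))
    (hco : ∀ (u : List α) (v : V), (∀ k < K, c k ≤ u.length) →
      ∃ I : Finset ℕ, R ≤ I.card ∧ ∀ k ∈ I, k < K ∧ lam2 k (u.take (c k)) = some v ∧
        (rho2 k (u.drop (c k))).isSome)
    (hspoil : ∀ U : List α, 2 * z ≤ U.length → ∃ J : Finset ℕ, J.card < R ∧
      ∀ k < K, JointSem_814.Spoiled Wo z p0 N K c BadT U k → k ∈ J)
    (s : S) : HL 3 ({w | (w.map f).prod = s} : Language α) := by
  let φ : List α → S := fun w => (w.map f).prod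
  let TT : V → List α → V := JointSem_814.T p0 φ act nu1 nu2
  let τ : List α → V → V := fun u x => TT x u
  let XX : Language α := (JointSem_814.XX Wo z : Set (List α))
  let L1 : V → Language α := fun v => (JointSem_814.L1 p0 φ act nu2 lam v : Set (List α))
  let L2 : V → Language α := fun v => (JointSem_814.L2 K c lam2 v : Set (List α))
  let Gd : Language α := (JointSem_814.Good Wo z TT (JointSem_814.L1 p0 φ act nu2 lam) :
    Set (List α))
  let Bd : Language α := (JointSem_814.Bad Wo z TT (JointSem_814.L1 p0 φ act nu2 lam) :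
    Set (List α))
  have hφ0 : φ [] = 1 := rfl
  have hφ : ∀ u w, φ (u ++ w) = φ u * φ w := by
    intro u w
    show ((u ++ w).map f).prod = (u.map f).prod * (w.map f).prod
    rw [List.map_append, List.prod_append]
  have hX : PC XX := by
    refine ⟨?_, ?_⟩
    · intro h
      have h1 : z ≤ ([] : List α).length := h.2.1
      simp at h1
      omega
    · intro u hu v hv huv
      exact JointSem_814.XX_code hu hv huv
  have hXeq : ∀ w : List α, w ∈ XX ↔ w ∈ Fib_298.XX Wo z := by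
    intro w
    constructor
    · rintro ⟨a, b, c⟩; exact ⟨b, a, c⟩
    · rintro ⟨a, b, c⟩; exact ⟨b, a, c⟩
  have hn : n ≤ z := by omega
  have H1 : ∀ {k : ℕ}, HL k XX := fun {k} => (Fib_298.HL_XX (k := k) hWU z).congr hXeq
  have H3 : ∀ x y, HL 1 (ZT XX τ x y) := by
    intro x y
    refine (Fib_298.hfib hWU hn act f p0 (by omega)
      (fun v X0 => act v (X0.map f).prod + nu2 X0) nu1 hnu x y).congr fun w => ?_
    constructor
    · rintro ⟨a, b⟩; exact ⟨(hXeq w).1 a, b⟩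
    · rintro ⟨a, b⟩; exact ⟨(hXeq w).2 a, b⟩
  have F1 : ∀ v, {p | p ∈ L1 v}.Finite := by
    intro v
    refine (List.finite_length_le α (p0 + N)).subset ?_
    rintro P ⟨h1, h2⟩
    have h3 := hlam _ _ h2
    rw [List.length_drop] at h3
    show P.length ≤ p0 + N
    omega
  have F2 : ∀ v, {p | p ∈ L2 v}.Finite := by
    intro v
    refine (List.finite_length_le α p0).subset ?_
    rintro P ⟨k, hk, h1, h2⟩
    show P.length ≤ p0
    rw [h1]
    exact hcp k hk
  let R1 : V → Language α := fun y =>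
    (JointSem_814.R1 Wo z TT (JointSem_814.L1 p0 φ act nu2 lam) y : Set (List α))
  have hR1 : ∀ y, HL 1 (R1 y) := by
    intro y
    refine (HL.iInter fun x => HL.biInter (F1 x) fun P _ => HL.lquot P (H3 x y)).congr
      fun w => ?_
    exact Iff.rfl
  have hGd : HL 1 Gd := by
    refine ((H1 (k := 1)).inf (HL.iInter fun x => HL.iUnion fun y =>
      (H3 x y).inf ((HL.finite (F1 x)).mul (hR1 y)))).congr fun w => ?_
    constructor
    · rintro ⟨h1, h2⟩
      refine ⟨h1, fun x => ?_⟩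
      obtain ⟨P, hP, Q, hQ, e⟩ := h2 x
      exact ⟨TT x w, ⟨h1, rfl⟩, Language.mem_mul.2 ⟨P, hP, Q, hQ, e⟩⟩
    · rintro ⟨h1, h2⟩
      refine ⟨h1, fun x => ?_⟩
      obtain ⟨y, ⟨_, h4⟩, h5⟩ := h2 x
      obtain ⟨P, hP, Q, hQ, e⟩ := Language.mem_mul.1 h5
      have h4' : TT x w = y := h4
      refine ⟨P, hP, Q, ?_, e⟩
      rw [h4']
      exact hQ
  have H2 : HL 1 Bd := by
    refine ((H1 (k := 1)).inf hGd.compl).congr fun w => ?_
    exact Iff.rfl
  have H4 : ∀ s, HL 3 ({w | (∀ u ∈ XX, ¬ u <+: w) ∧ φ w = s} : Language α) := by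
    intro s
    refine ((Fib_298.rest hWU hn f s).mono (by norm_num)).congr fun w => ?_
    constructor
    · rintro ⟨a, b⟩
      exact ⟨fun X hX => a X ((hXeq X).2 hX), b⟩
    · rintro ⟨a, b⟩
      exact ⟨fun X hX => a X ((hXeq X).1 hX), b⟩
  have hT : ∀ u ∈ XX, ∀ v v', τ u v - τ u v' = act (v - v') (φ u) := by
    intro u hu v v'
    have hsub : ∀ a b t, act (a - b) t = act a t - act b t := by
      intro a b t
      have := hadd (a - b) b t
      rw [sub_add_cancel] at this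
      rw [this, add_sub_cancel_right]
    show (act (act v (φ (u.take p0)) + nu2 (u.take p0)) (φ (u.drop p0)) + nu1 (u.drop p0)) -
      (act (act v' (φ (u.take p0)) + nu2 (u.take p0)) (φ (u.drop p0)) + nu1 (u.drop p0)) = _
    rw [hadd, hadd, ← hmul, ← hmul, ← hφ, List.take_append_drop, hsub]
    abel
  have hBX : ∀ u ∈ Bd, u ∈ XX := fun u hu => hu.1
  have C1 : ∀ u ∈ XX, u ∉ Bd → ∀ x, ∀ t ∈ XX ^ 0, ∃ p q y, u ++ t = p ++ q ∧ p ∈ L1 x ∧
      q ∈ Rsem XX XX τ 0 L1 y := by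
    intro u hu hub x t ht
    rw [pow_zero, Language.mem_one] at ht
    subst ht
    have hg : u ∈ Gd := by
      by_contra hcon
      exact hub ⟨hu, hcon⟩
    obtain ⟨-, h2⟩ := hg
    obtain ⟨P, hP, Q, hQ, e⟩ := h2 x
    refine ⟨P, Q, TT x u, by rw [List.append_nil, e], hP, ?_⟩
    intro x' p hp
    left
    have h3 := hQ x' p hp
    refine ⟨TT x u, Language.mem_mul.2 ⟨p ++ Q, ⟨h3.1, h3.2⟩, [], ⟨rfl, rfl⟩, by simp⟩⟩
  have C2 : ∀ u ∈ Bd, ∀ x, ∀ t ∈ Bd ^ 1, ∃ p q y, u ++ t = p ++ q ∧ p ∈ L2 x ∧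
      q ∈ Rsem XX Bd τ 1 L2 y := by
    intro u hu x t ht
    rw [pow_one] at ht
    obtain ⟨P, hP, Q, hQ, e⟩ := JointSem_814.compl2 (W := W) (z := z) (p0 := p0) (φ := φ)
      (act := act) (nu1 := nu1) (nu2 := nu2) (lam := lam) hW hz hN0 hlam hsound hcompl hcp hex
      hco hspoil (hu.1) ht x
    refine ⟨P, Q, TT (TT x u) t, e.symm, hP, ?_⟩
    intro x' p hp
    rcases hQ x' p hp with ⟨X1, h1, X2, h2, e2, h3⟩ | ⟨X, h1, h2⟩ | ⟨X1, h1, X2, h2, h3⟩
    · left
      refine ⟨TT x' X1, Language.mem_mul.2 ⟨X1, ⟨h1, rfl⟩, X2, ?_, e2.symm⟩⟩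
      exact ⟨_, Language.mem_mul.2 ⟨X2, ⟨h2, h3⟩, [], ⟨rfl, rfl⟩, by simp⟩⟩
    · right
      left
      exact ⟨X, h1.1, fun hb => hb.2 h1, h2⟩
    · right
      right
      obtain ⟨r, hr⟩ := h3
      refine Language.mem_mul.2 ⟨X1, h1.1, X2 ++ r, ⟨X2, h2.1, fun hb => hb.2 h2, ⟨r, rfl⟩⟩, ?_⟩
      rw [← List.append_assoc, hr]
  exact Top5_110.top_sem (XX := XX) (Bad := Bd) (T := τ) hφ0 hφ hone hmul hfaith hX hBX hT
    (H1 (k := 1)) H2 H3 H4 (N1 := 0) (N2 := 1) F1 F2 C1 C2 s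

end Crest.Agent.R320.Fin_660
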