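import Crest.Agent.R320.LWallAll_922
import Crest.Agent.R320.RegBd_11
import Crest.Agent.R320.Hk2_851
import Crest.Agent.R320.Reg_852
import Crest.Agent.R320.Zone132b_898

/-!
# Row 320, left-looking blocks on ALL words: heights of the block fibres (helper676)

`XX Wo z` : blocks = words of length `≥ z` that end in a wall and have no shorter such prefix.
* `XX_code`    : prefix code;
* `hl_XX`      : `XX` is star-free;
* `hl_fibre`   : `{X ∈ XX | L X}` is `HL 1` for every regular `L`;
* `hl_nb`      : `{r | no prefix in XX, L r}` is `HL 1` for every regular `L`;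
* `regular_inv` : predicates of a bounded prefix, the type and the length mod `M`.
-/

set_option autoImplicit false

namespace Crest.Agent.R320.Fin1_676

open Crest.Agent.R320.Hk_851 Crest.Agent.R320.Core1_922 Crest.Agent.R320.Pump_360

variable {α : Type} [Finite α] {n W B z : ℕ} {Wo : List α → Prop}

/-- the block code -/
def XX (Wo : List α → Prop) (z : ℕ) : Set (List α) :=
  {X | z ≤ X.length ∧ Wo X ∧ ∀ t, z ≤ t → t < X.length → ¬ Wo (X.take t)}

theorem XX_code {X Y : List α} (hX : X ∈ XX Wo z) (hY : Y ∈ XX Wo z) (h : X <+: Y) : X = Y := by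
  obtain ⟨r, rfl⟩ := h
  by_contra hne
  have hr : r ≠ [] := by
    rintro rfl; simp at hne
  have hpos : 0 < r.length := List.length_pos_of_ne_nil hr
  apply hY.2.2 X.length hX.1 (by rw [List.length_append]; omega)
  rw [List.take_left]
  exact hX.2.1

theorem hl_wall (hW : LW n Wo) : HL 0 ({X | Wo X} : Language α) := by
  have hfin : ({Q : List α | Q.length ≤ n ∧ Wo Q} : Set (List α)).Finite :=
    (List.finite_length_le α n).subset fun Q h => h.1
  refine (HL.suffix (HL.finite (k := 0) hfin)).congr fun w => ?_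
  refine Iff.symm ?_
  constructor
  · rintro ⟨v, ⟨h1, h2⟩, u, rfl⟩
    exact (hW.app u v (hW.len v h2)).2 h2
  · intro h
    have hn := hW.len w h
    refine ⟨w.drop (w.length - n), ⟨?_, ?_⟩, List.drop_suffix _ _⟩
    · rw [List.length_drop]; omega
    · have h3 := hW.app (w.take (w.length - n)) (w.drop (w.length - n))
        (by rw [List.length_drop]; omega)
      rw [List.take_append_drop] at h3
      exact h3.1 h

theorem hl_XX (hW : LW n Wo) : HL 0 ((XX Wo z : Set (List α)) : Language α) := by
  have h0 : HL 0 ({X | z ≤ X.length ∧ Wo X} : Language α) :=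
    HL.setOf_and (HL.length_ge z) (hl_wall hW)
  have h1 := h0.mul (HL.length_ge (α := α) (k := 0) 1)
  refine (h0.inf h1.compl).congr fun w => ?_
  refine Iff.symm ?_
  constructor
  · rintro ⟨⟨h2, h3⟩, h4⟩
    refine ⟨h2, h3, fun t ht htl hWo => h4 ?_⟩
    refine Language.mem_mul.2 ⟨w.take t, ⟨?_, hWo⟩, w.drop t, ?_, List.take_append_drop _ _⟩
    · rw [List.length_take]; omega
    · change 1 ≤ (w.drop t).length
      rw [List.length_drop]; omega
  · rintro ⟨h2, h3, h4⟩
    refine ⟨⟨h2, h3⟩, fun h5 => ?_⟩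
    obtain ⟨Y, ⟨h6, h7⟩, Y', h8, rfl⟩ := Language.mem_mul.1 h5
    refine h4 Y.length h6 ?_ ?_
    · rw [List.length_append]
      change 1 ≤ Y'.length at h8
      omega
    · rw [List.take_left]; exact h7

/-- a word without a block prefix -/
def NB (Wo : List α → Prop) (z : ℕ) (r : List α) : Prop := ∀ X ∈ XX Wo z, ¬ X <+: r

theorem nb_iff (r : List α) : NB Wo z r ↔ ∀ t, z ≤ t → t ≤ r.length → ¬ Wo (r.take t) := by
  classical
  constructor
  · intro h t ht htl hWo
    have hex : ∃ t, z ≤ t ∧ t ≤ r.length ∧ Wo (r.take t) := ⟨t, ht, htl, hWo⟩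
    obtain ⟨h1, h2, h3⟩ := Nat.find_spec hex
    refine h (r.take (Nat.find hex)) ⟨?_, h3, ?_⟩ (List.take_prefix _ _)
    · rw [List.length_take]; omega
    · intro s hs hsl hWs
      rw [List.length_take] at hsl
      rw [List.take_take, Nat.min_eq_left (by omega)] at hWs
      exact Nat.find_min hex (m := s) (by omega) ⟨hs, by omega, hWs⟩
  · rintro h X hX ⟨u, rfl⟩
    apply h X.length hX.1 (by rw [List.length_append]; omega)
    rw [List.take_left]; exact hX.2.1

theorem hl_nb0 (hW : LW n Wo) : HL 0 ({r | NB Wo z r} : Language α) := by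
  refine (HL.prefix (hl_XX (z := z) hW)).compl.congr fun w => ?_
  constructor
  · rintro h ⟨X, hX, hp⟩
    exact h X hX hp
  · rintro h X hX hp
    exact h ⟨X, hX, hp⟩

/-- the pieces hypothesis of `walls_all_left` -/
def Pc (Wo : List α → Prop) (W B : ℕ) : Prop :=
  ∀ X : List α, (∀ t < X.length, ¬ Wo (X.take t)) →
    ∃ (u x v : List α) (k : ℕ), u.length ≤ B ∧ x.length ≤ W ∧ v.length ≤ B ∧
      X = u ++ (List.replicate k x).flatten ++ v

theorem pieces_of (hW : LW n Wo) (hPc : Pc Wo W B) (w : List α)
    (h : ∀ t, z ≤ t → t < w.length → ¬ Wo (w.take t)) :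
    ∃ l : List (List α × List α × ℕ), l.length ≤ 3 ∧
      (∀ t ∈ l, t.1.length ≤ z + B + W ∧ t.2.1.length ≤ z + B + W) ∧ w = val l := by
  obtain ⟨u, x, v, k, hu, hx, hv, he⟩ := hPc (w.drop z) (by
    intro t ht hWo
    rw [List.length_drop] at ht
    have hn := hW.len _ hWo
    have h1 := (hW.app (w.take z) ((w.drop z).take t) hn).2 hWo
    rw [← List.take_add] at h1
    exact h (z + t) (by omega) (by omega) h1)
  refine ⟨[(w.take z, [], 0), (u, x, k), (v, [], 0)], by simp, ?_, ?_⟩
  · intro t ht
    simp only [List.mem_cons, List.not_mem_nil, or_false] at ht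
    rcases ht with rfl | rfl | rfl
    · simp only [List.length_take, List.length_nil]; omega
    · simp only; omega
    · simp only [List.length_nil]; omega
  · rw [val_cons, val_cons, val_cons, val_nil]
    have h0 : pw ([] : List α) 0 = [] := rfl
    rw [h0]
    simp only [List.append_nil]
    have e : w = w.take z ++ w.drop z := (List.take_append_drop _ _).symm
    conv_lhs => rw [e, he]
    simp [pw]

theorem hl_fibre (hW : LW n Wo) (hPc : Pc Wo W B) {L : List α → Prop}
    (hL : Language.IsRegular ({X | L X} : Language α)) :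
    HL 1 ({X | X ∈ XX Wo z ∧ L X} : Language α) := by
  have hreg : Language.IsRegular ({X | X ∈ XX Wo z ∧ L X} : Language α) :=
    Language.IsRegular.inf (Reg_852.HL.isRegular (hl_XX (z := z) hW)) hL
  refine RegBd_11.reg_pieces hreg 3 (z + B + W) fun w hw => ?_
  exact pieces_of hW hPc w hw.1.2.2

theorem hl_nb (hW : LW n Wo) (hPc : Pc Wo W B) {L : List α → Prop}
    (hL : Language.IsRegular ({X | L X} : Language α)) :
    HL 1 ({r | NB Wo z r ∧ L r} : Language α) := by
  have hreg : Language.IsRegular ({r | NB Wo z r ∧ L r} : Language α) :=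
    Language.IsRegular.inf (Reg_852.HL.isRegular (hl_nb0 (z := z) hW)) hL
  refine RegBd_11.reg_pieces hreg 3 (z + B + W) fun w hw => ?_
  exact pieces_of hW hPc w fun t h1 h2 => (nb_iff w).1 hw.1 t h1 h2.le

end Crest.Agent.R320.Fin1_676
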