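import Crest.Agent.R320.Fin0_709

set_option autoImplicit false

/-! Row 320: join of the top theorem (120) and the two schemes (937). -/

namespace Crest.Agent.R320.Fin_709

open Crest.Agent.R320.Hk_851 Crest.Agent.R320.Blk467 Crest.Agent.R320.Sc2n_937

variable {α S V : Type} [Finite α] [Monoid S] [Finite S] [AddCommGroup V] [Finite V]

theorem join (act : V → S → V)
    (hadd : ∀ a b s, act (a + b) s = act a s + act b s)
    (hone : ∀ v, act v 1 = v) (hmul : ∀ v s t, act v (s * t) = act (act v s) t)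
    (hfaith : ∀ s t, (∀ v, act v s = act v t) → s = t)
    (φ : α → S) (g : Geo α)
    (lenW : ∀ P, g.Wo P → g.n ≤ P.length)
    {B0 R0 : ℕ} (free : ∀ u : List α, (∀ t < u.length, ¬ g.Wo (u.take t)) →
      u ∈ (Crest.Agent.R320.BddReg_746.PN B0 R0 : Language α))
    (lam rho : List α → Option V) (nu : List α → V) {A Pm : ℕ} (hPm : 0 < Pm)
    (hlen : ∀ P v, lam P = some v → P.length ≤ g.N1)
    (hA : ∀ Q Q' : List α, Sim φ A Pm Q Q' → rho Q = rho Q')
    (hs : ∀ P Q v b, lam P = some v → rho Q = some b →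
      b = act v ((P ++ Q).map φ).prod + nu (P ++ Q))
    (BadT : ℕ → Prop) (hper : ∀ t, BadT (t + Pm) ↔ BadT t)
    (hcomp : ∀ u : List α, g.z ≤ u.length + g.p0 → ¬ BadT u.length → ∀ v,
      ∃ P Q, u = P ++ Q ∧ lam P = some v ∧ (rho Q).isSome)
    (lam2 rho2 : ℕ → List α → Option V) (nu2 : List α → V) {K C0 : ℕ} (c : ℕ → ℕ)
    (hc : ∀ k, k < K → c k ≤ g.p0)
    (hex2 : ∀ k, k < K → ∀ P Q v u, P.length = c k → Q.length = g.p0 - c k →
      lam2 k P = some v → rho2 k Q = some u → u = act v ((P ++ Q).map φ).prod + nu2 (P ++ Q))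
    (hgap : ∀ P Q : List α, g.Wo P → g.Wo (P ++ Q) → Q ≠ [] → 2 * g.p0 + 2 * g.N1 < Q.length)
    (hsp : ∀ k k' l l', k < K → k' < K → l < K → l' < K → k' ≠ k → l' ≠ l →
      c k + c l' < c l + c k' + 2 * g.N1 → c l + c k' < c k + c l' + 2 * g.N1 → k = l)
    (hthin : ∀ τ, g.z ≤ τ + g.p0 → ∀ J : Finset ℕ, (∀ k ∈ J, k < K ∧
      ∃ k', k' < K ∧ k' ≠ k ∧ BadT (τ + c k' - c k - g.p0)) → J.card ≤ C0)
    (hI : ∀ (u : List α) (v : V), u.length = g.p0 → ∃ I : Finset ℕ, 2 * C0 + 2 ≤ I.card ∧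
      ∀ k ∈ I, k < K ∧ lam2 k (u.take (c k)) = some v ∧ (rho2 k (u.drop (c k))).isSome)
    (s : S) : HL 3 ({w | (w.map φ).prod = s} : Language α) := by
  classical
  let pre : List α → V → V := fun X v => act v (X.map φ).prod + nu2 X
  let post : V → List α → V := fun u Y => act u (Y.map φ).prod + nu' lam rho nu Y
  let nuT : List α → V := fun X =>
    act (nu2 (X.take g.p0)) ((X.drop g.p0).map φ).prod + nu' lam rho nu (X.drop g.p0)
  have hT : ∀ v X, g.T pre post v X = act v (X.map φ).prod + nuT X := by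
    intro v X
    show act (act v ((X.take g.p0).map φ).prod + nu2 (X.take g.p0)) ((X.drop g.p0).map φ).prod +
      nu' lam rho nu (X.drop g.p0) = act v (X.map φ).prod + (act (nu2 (X.take g.p0))
        ((X.drop g.p0).map φ).prod + nu' lam rho nu (X.drop g.p0))
    rw [hadd, ← hmul, ← List.prod_append, ← List.map_append, List.take_append_drop, add_assoc]
  let C : Set (List α) := {X | g.XX X}
  let Bad : Set (List α) := {X | g.XX X ∧ g.BadX BadT X}
  let L1 : V → Set (List α) := fun v => {P | g.LP1 pre lam v P}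
  let L2 : V → Set (List α) := fun v => {P | Geo.LP2 K c lam2 v P}
  have hz := g.hz
  have hN := g.hN
  have hperm : ∀ a, BadT a ↔ BadT (a % Pm) := by
    have h1 : ∀ k r, BadT (r + Pm * k) ↔ BadT r := by
      intro k
      induction k with
      | zero => intro r; simp
      | succ k ih => intro r; rw [Nat.mul_succ, ← Nat.add_assoc, hper, ih]
    intro a
    conv_lhs => rw [← Nat.mod_add_div a Pm]
    exact h1 _ _
  set BB : ℕ := g.z + 2 * g.N1 + A + g.p0 with hBB
  have hreg : ∀ p : List α → Prop, (∀ q q', Sim φ BB Pm q q' → p q → p q') →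
      Language.IsRegular ({u | p u} : Language α) := fun p hp =>
    Crest.Agent.R320.RegCongr_253.regular_of_congr φ BB Pm hPm _
      fun q q' h1 h2 h3 h4 h5 h => hp q q' ⟨h1, h2, h3, h4, h5⟩ h
  have hval : ∀ q q' : List α, Sim φ BB Pm q q' → ∀ x,
      act x (q.map φ).prod + nuT q = act x (q'.map φ).prod + nuT q' := by
    intro q q' h x
    have h1 : Sim φ (BB - g.p0) Pm (q.drop g.p0) (q'.drop g.p0) := h.drop (by omega)
    show act x (q.map φ).prod + (act (nu2 (q.take g.p0)) ((q.drop g.p0).map φ).prod +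
      nu' lam rho nu (q.drop g.p0)) = act x (q'.map φ).prod +
      (act (nu2 (q'.take g.p0)) ((q'.drop g.p0).map φ).prod + nu' lam rho nu (q'.drop g.p0))
    rw [h.phi, h.take (c := g.p0) (by omega), h1.phi,
      nu'_congr (N1 := g.N1) (A := A) (B := BB - g.p0) hlen hA hs (by omega) h1]
  have hbadc : ∀ q q' : List α, Sim φ BB Pm q q' → g.BadX BadT q → g.BadX BadT q' := by
    rintro q q' h (⟨t, ht, hw, h1, h2⟩ | hb)
    · left
      refine ⟨t, ?_, ?_, h1, h2⟩
      · have := h.2.1; omega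
      · rw [← h.take (c := t) (by omega)]; exact hw
    · right
      rw [hperm] at hb ⊢
      have h1 : Sim φ (BB - g.p0) Pm (q.drop g.p0) (q'.drop g.p0) := h.drop (by omega)
      have h2 := h1.2.2.2.1
      rw [List.length_drop, List.length_drop] at h2
      rw [← h2]; exact hb
  have hXXf : ∀ (f : List α → Prop), (∀ q q', Sim φ BB Pm q q' → f q → f q') →
      HL 1 ({X | g.XX X ∧ f X} : Language α) := by
    intro f hf
    refine (Crest.Agent.R320.P4_933.hl_XX (Wo := g.Wo) (z := g.z) (n := g.n) g.loc lenW free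
      (hreg f hf)).congr fun X => ?_
    constructor
    · rintro ⟨⟨h1, h2, h3⟩, h4⟩
      exact ⟨⟨h2, h1, fun t ht htl => h3 t htl ht⟩, h4⟩
    · rintro ⟨⟨h1, h2, h3⟩, h4⟩
      exact ⟨⟨h2, h1, fun t ht htl => h3 t htl ht⟩, h4⟩
  have hexp : ∀ P Q u b, lam P = some u → rho Q = some b → b = post u (P ++ Q) := by
    intro P Q u b hl hr
    show b = act u ((P ++ Q).map φ).prod + nu' lam rho nu (P ++ Q)
    rw [nu'_eq hl hr]
    exact hs P Q u b hl hr
  refine Crest.Agent.R320.Top5_120.top5 act hadd hone hmul hfaith φ nuT C Bad ?_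
    (fun X hX => hX.1) L1 L2 ?_ ?_ ?_ ?_ ?_ ?_ ?_ s
  · -- prefix code
    constructor
    · rintro ⟨h, -⟩
      simp at h
      omega
    · rintro X hX Y hY ⟨R, e⟩
      exact g.prefix_code (R := R) (R' := []) hX hY (by simpa using e)
  · intro v
    refine (List.finite_length_le α (g.p0 + g.N1)).subset ?_
    rintro P ⟨h1, h2⟩
    have := hlen _ _ h2
    rw [List.length_drop] at this
    show P.length ≤ g.p0 + g.N1
    omega
  · intro v
    refine (List.finite_length_le α g.p0).subset ?_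
    rintro P ⟨k, hk, h1, h2⟩
    show P.length ≤ g.p0
    rw [h1]; exact hc k hk
  · intro x y
    exact hXXf (fun X => act x (X.map φ).prod + nuT X = y) (fun q q' h hq => by
      rw [← hval q q' h x]; exact hq)
  · intro x y
    refine (hXXf (fun X => g.BadX BadT X ∧ act x (X.map φ).prod + nuT X = y)
      (fun q q' h hq => ⟨hbadc q q' h hq.1, by rw [← hval q q' h x]; exact hq.2⟩)).congr
      fun X => ?_
    constructor
    · rintro ⟨⟨h1, h2⟩, h3⟩; exact ⟨h1, h2, h3⟩
    · rintro ⟨h1, h2, h3⟩; exact ⟨⟨h1, h2⟩, h3⟩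
  · intro s
    refine (Crest.Agent.R320.P4_933.hl_NB (Wo := g.Wo) (z := g.z) (n := g.n) g.loc lenW free
      (hreg (fun u => (u.map φ).prod = s) (fun q q' h hq => by
        rw [← h.phi]; exact hq))).congr fun w => ?_
    constructor
    · rintro ⟨h1, h2⟩
      refine ⟨(Crest.Agent.R320.P4_933.NB_iff g.Wo g.z w).2 ?_, h2⟩
      rintro X hp ⟨h3, h4, h5⟩
      exact h1 X ⟨h4, h3, fun t hzt ht => h5 t ht hzt⟩ hp
    · rintro ⟨h1, h2⟩
      refine ⟨?_, h2⟩
      rintro X ⟨h3, h4, h5⟩ hp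
      exact (Crest.Agent.R320.P4_933.NB_iff g.Wo g.z w).1 h1 X hp
        ⟨h4, h3, fun t ht hzt => h5 t hzt ht⟩
  · -- scheme 1
    intro X hX hXb v
    have hE : ¬ g.E X := fun h => hXb ⟨hX, Or.inl h⟩
    have hB : ¬ BadT (X.length - g.p0) := fun h => hXb ⟨hX, Or.inr h⟩
    have hXz := hX.1
    obtain ⟨P, Q, b, e, hP, hQ⟩ := g.complete1 pre hlen hX hE (fun u => by
      obtain ⟨P, Q, h1, h2, h3⟩ := hcomp (X.drop g.p0) (by rw [List.length_drop]; omega)
        (by rw [List.length_drop]; exact hB) u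
      exact ⟨P, Q, h1, h2, h3⟩) v
    refine ⟨P, Q, e.symm, hP, fun x P' hP' => ?_⟩
    have h1 := g.sound1 pre post hlen hexp hP' hQ
    have h2 := g.sound1 pre post hlen hexp hP hQ
    refine ⟨h1.1, ?_⟩
    rw [← hT, ← hT, h1.2, e, h2.2]
  · -- scheme 2
    rintro X ⟨hX, hXb⟩ Y ⟨hY, hYb⟩ v
    have hXz := hX.1
    obtain ⟨P, Q, b, e, hP, hQ⟩ := g.complete2 pre post (BadT := BadT) (K := K) (c := c)
      (lam2 := lam2) (rho2 := rho2) (C0 := C0) hc hgap hsp hthin hX hY v (by
        obtain ⟨I, hI1, hI2⟩ := hI (X.take g.p0) v (by rw [List.length_take]; omega)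
        refine ⟨I, hI1, fun k hk => ?_⟩
        obtain ⟨h1, h2, h3⟩ := hI2 k hk
        have h4 := hc k h1
        refine ⟨h1, ?_, h3⟩
        rwa [List.take_take, min_eq_left h4] at h2)
    have hex2' : ∀ k, k < K → ∀ P Q v u, P.length = c k → Q.length = g.p0 - c k →
        lam2 k P = some v → rho2 k Q = some u → u = pre (P ++ Q) v := hex2
    obtain ⟨X2, hX2, e2, hb⟩ := g.sound2 pre post (BadT := BadT) hc hex2' hX hXb hP hQ
      (R := []) (R' := Y) (by simpa using e)
    have e3 : X2 = Y := List.append_cancel_left (e2.symm.trans e)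
    subst e3
    refine ⟨P, Q, e, hP, fun x P' hP' => ?_⟩
    have hblk : ∃ l', g.CEnd Q P'.length l' := by
      obtain ⟨k, hk, l, hend, hgood, -⟩ := hQ
      obtain ⟨k', hk', hPl', -⟩ := hP'
      by_cases hkk : k' = k
      · subst hkk
        exact ⟨l, by rw [hPl']; exact hend⟩
      · obtain ⟨l', h1, -⟩ := hgood k' hk' hkk
        exact ⟨l', by rw [hPl']; exact h1⟩
    obtain ⟨l', hl'⟩ := hblk
    have hPp : P'.length ≤ g.p0 := by
      obtain ⟨k', hk', hPl', -⟩ := hP'
      rw [hPl']; exact hc k' hk'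
    have hXX := g.xx_of_cend hPp hl'
    by_cases hbad' : g.BadX BadT (P' ++ Q.take l')
    · left
      obtain ⟨X2', hX2', e', hb'⟩ := g.sound2 pre post (BadT := BadT) hc hex2' hXX hbad' hP' hQ
        (R := []) (R' := Q.drop l') (by simp)
      refine ⟨P' ++ Q.take l', ⟨hXX, hbad'⟩, X2', hX2', e'.symm, ?_⟩
      rw [← hT, ← hT, ← hT, ← hT, hb', hb]
    · right
      exact ⟨P' ++ Q.take l', hXX, fun h => hbad' h.2, ⟨Q.drop l', by simp⟩⟩

end Crest.Agent.R320.Fin_709
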