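import Crest.Agent.R320.Top5_120
import Crest.Agent.R320.Sc2n_937

/-!
Row 320, helper87: join of the block schemes (937) with the semantic top (120).
-/

set_option autoImplicit false

namespace Crest.Agent.R320.Fin1_87

open Crest.RegLang Crest.Agent.R320.Hk_851 Crest.Agent.R320.Blk467 Crest.Agent.R320.Sc2n_937

section

variable {α S V : Type} [Monoid S] [AddCommGroup V] (act : V → S → V) (φ : α → S)

def pre (nu2 : List α → V) (X : List α) (v : V) : V := act v (X.map φ).prod + nu2 X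

def post (nu1 : List α → V) (v : V) (Y : List α) : V := act v (Y.map φ).prod + nu1 Y

def nu (nu1 nu2 : List α → V) (p0 : ℕ) (X : List α) : V :=
  act (nu2 (X.take p0)) ((X.drop p0).map φ).prod + nu1 (X.drop p0)

theorem T_eq (hadd : ∀ a b s, act (a + b) s = act a s + act b s)
    (hmul : ∀ v s t, act v (s * t) = act (act v s) t) (nu1 nu2 : List α → V)
    (g : Geo α) (v : V) (X : List α) :
    g.T (pre act φ nu2) (post act φ nu1) v X =
      act v (X.map φ).prod + nu act φ nu1 nu2 g.p0 X := by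
  have e : (X.map φ).prod = ((X.take g.p0).map φ).prod * ((X.drop g.p0).map φ).prod := by
    rw [← List.prod_append, ← List.map_append, List.take_append_drop]
  unfold Geo.T pre post nu
  rw [hadd, e, hmul, add_assoc]

theorem comb [Finite α] [Finite S] [Finite V]
    (hadd : ∀ a b s, act (a + b) s = act a s + act b s)
    (hone : ∀ v, act v 1 = v) (hmul : ∀ v s t, act v (s * t) = act (act v s) t)
    (hfaith : ∀ s t, (∀ v, act v s = act v t) → s = t)
    (nu1 nu2 : List α → V) (g : Geo α) (BadT : ℕ → Prop)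
    (lam rho : List α → Option V) (K C0 : ℕ) (c : ℕ → ℕ) (lam2 rho2 : ℕ → List α → Option V)
    (hz0 : 0 < g.z)
    (hlen : ∀ P v, lam P = some v → P.length ≤ g.N1)
    (hs1 : ∀ P Q u b, lam P = some u → rho Q = some b → b = post act φ nu1 u (P ++ Q))
    (hc1 : ∀ Y : List α, g.z ≤ Y.length + g.p0 → ¬ BadT Y.length → ∀ u,
      ∃ P Q, Y = P ++ Q ∧ lam P = some u ∧ (rho Q).isSome)
    (hcp : ∀ k, k < K → c k ≤ g.p0)
    (hs2 : ∀ k, k < K → ∀ P Q v u, P.length = c k → Q.length = g.p0 - c k →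
      lam2 k P = some v → rho2 k Q = some u → u = pre act φ nu2 (P ++ Q) v)
    (hc2 : ∀ (u : List α) (v : V), u.length = g.p0 → ∃ I : Finset ℕ, 2 * C0 + 2 ≤ I.card ∧
      ∀ k ∈ I, k < K ∧ lam2 k (u.take (c k)) = some v ∧ (rho2 k (u.drop (c k))).isSome)
    (hgap : ∀ P Q : List α, g.Wo P → g.Wo (P ++ Q) → Q ≠ [] → 2 * g.p0 + 2 * g.N1 < Q.length)
    (hsp : ∀ k k' l l', k < K → k' < K → l < K → l' < K → k' ≠ k → l' ≠ l →
      c k + c l' < c l + c k' + 2 * g.N1 → c l + c k' < c k + c l' + 2 * g.N1 → k = l)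
    (hthin : ∀ τ, g.z ≤ τ + g.p0 → ∀ J : Finset ℕ, (∀ k ∈ J, k < K ∧
      ∃ k', k' < K ∧ k' ≠ k ∧ BadT (τ + c k' - c k - g.p0)) → J.card ≤ C0)
    (hCT : ∀ x y, HL 1 ({X | X ∈ ({X | g.XX X} : Set (List α)) ∧
      act x (X.map φ).prod + nu act φ nu1 nu2 g.p0 X = y} : Language α))
    (hBT : ∀ x y, HL 1 ({X | X ∈ ({X | g.XX X ∧ g.BadX BadT X} : Set (List α)) ∧
      act x (X.map φ).prod + nu act φ nu1 nu2 g.p0 X = y} : Language α))
    (htail : ∀ s, HL 1 ({w | (∀ X ∈ ({X | g.XX X} : Set (List α)), ¬ X <+: w) ∧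
      (w.map φ).prod = s} : Language α))
    (s : S) : HL 3 ({w | (w.map φ).prod = s} : Language α) := by
  have hT := T_eq act φ hadd hmul nu1 nu2 g
  refine Top5_120.top5 act hadd hone hmul hfaith φ (nu act φ nu1 nu2 g.p0) {X | g.XX X}
    {X | g.XX X ∧ g.BadX BadT X} ?_ (fun X h => h.1)
    (fun v => {P | g.LP1 (pre act φ nu2) lam v P}) (fun v => {P | Geo.LP2 K c lam2 v P})
    ?_ ?_ hCT hBT htail ?_ ?_ s
  · refine ⟨fun h => ?_, ?_⟩
    · have := h.1
      simp at this
      omega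
    · rintro X hX Y hY ⟨R, hR⟩
      exact g.prefix_code (R := R) (R' := []) hX hY (by rw [hR, List.append_nil])
  · intro v
    refine (List.finite_length_le α (g.p0 + g.N1)).subset ?_
    rintro P ⟨h1, h2⟩
    have := hlen _ _ h2
    rw [List.length_drop] at this
    show P.length ≤ g.p0 + g.N1
    omega
  · intro v
    refine (List.finite_length_le α g.p0).subset ?_
    rintro P ⟨k, hk, h1, h2⟩
    show P.length ≤ g.p0
    rw [h1]
    exact hcp k hk
  · intro X hX hXb v
    have hX' : g.XX X := hX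
    have hnb : ¬ g.BadX BadT X := fun h => hXb ⟨hX, h⟩
    have hXz := hX'.1
    obtain ⟨P, Q, b, hPQ, hP, hQ⟩ := g.complete1 (pre act φ nu2) (lam := lam) (rho := rho) hlen hX'
      (fun h => hnb (Or.inl h))
      (hc1 (X.drop g.p0) (by rw [List.length_drop]; omega)
        (fun h => hnb (Or.inr (by rwa [List.length_drop] at h)))) v
    refine ⟨P, Q, hPQ.symm, hP, ?_⟩
    intro x P' hP'
    obtain ⟨h1, h2⟩ := g.sound1 (pre act φ nu2) (post act φ nu1) hlen hs1 hP' hQ
    obtain ⟨h3, h4⟩ := g.sound1 (pre act φ nu2) (post act φ nu1) hlen hs1 hP hQ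
    refine ⟨h1, ?_⟩
    rw [← hPQ] at h4
    rw [← hT, ← hT, h2, h4]
  · intro X hX Y hY v
    obtain ⟨hX1, hX2⟩ := hX
    obtain ⟨hY1, hY2⟩ := hY
    have hXz := hX1.1
    have hzz := g.hz
    obtain ⟨I, hI1, hI2⟩ := hc2 (X.take g.p0) v (by rw [List.length_take]; omega)
    obtain ⟨P, Q, b, hPQ, hP, hQ⟩ := g.complete2 (pre act φ nu2) (post act φ nu1)
      (BadT := BadT) (K := K) (c := c) (lam2 := lam2) (rho2 := rho2) (C0 := C0)
      hcp hgap hsp hthin hX1 hY1 v ⟨I, hI1, fun k hk => by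
        obtain ⟨h1, h2, h3⟩ := hI2 k hk
        refine ⟨h1, ?_, h3⟩
        rw [List.take_take, Nat.min_eq_left (hcp k h1)] at h2
        exact h2⟩
    have hb : b = g.T (pre act φ nu2) (post act φ nu1)
        (g.T (pre act φ nu2) (post act φ nu1) v X) Y := by
      obtain ⟨X2, h1, h2, h3⟩ := g.sound2 (pre act φ nu2) (post act φ nu1) (R := []) (R' := Y)
        hcp hs2 hX1 hX2 hP hQ (by rw [List.append_nil, hPQ])
      rw [hPQ] at h2
      have := List.append_cancel_left h2
      rw [this]; exact h3.symm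
    refine ⟨P, Q, hPQ, hP, ?_⟩
    intro x P' hP'
    obtain ⟨k1, hk1, hk2, hk3⟩ := hP'
    have hQ' := hQ
    obtain ⟨k, hk, l, hend, hgood, hX2', u, hr, hb'⟩ := hQ'
    by_cases hkk : k1 = k
    · subst hkk
      have hXX : g.XX (P' ++ Q.take l) :=
        g.xx_of_cend (by rw [hk2]; exact hcp k1 hk1) (by rw [hk2]; exact hend)
      by_cases hbad : g.BadX BadT (P' ++ Q.take l)
      · left
        obtain ⟨X2, h1, h2, h3⟩ := g.sound2 (pre act φ nu2) (post act φ nu1) (R := [])
          (R' := Q.drop l) (X := P' ++ Q.take l) (P := P')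
          hcp hs2 hXX hbad ⟨k1, hk1, hk2, hk3⟩ hQ
          (by rw [List.append_nil, List.append_assoc, List.take_append_drop])
        refine ⟨P' ++ Q.take l, ⟨hXX, hbad⟩, X2, h1, h2.symm, ?_⟩
        rw [← hT, ← hT, ← hT, ← hT, h3, hb]
      · right
        exact ⟨P' ++ Q.take l, hXX, fun h => hbad h.2,
          ⟨Q.drop l, by rw [List.append_assoc, List.take_append_drop]⟩⟩
    · right
      obtain ⟨l', he', hg'⟩ := hgood k1 hk1 hkk
      have hXX : g.XX (P' ++ Q.take l') :=
        g.xx_of_cend (by rw [hk2]; exact hcp k1 hk1) (by rw [hk2]; exact he')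
      refine ⟨P' ++ Q.take l', hXX, fun h => hg' ?_,
        ⟨Q.drop l', by rw [List.append_assoc, List.take_append_drop]⟩⟩
      have := g.cbad_of_bad (BadT := BadT) (P := P') (Q := Q) (l := l')
        (by rw [hk2]; exact hcp k1 hk1) (by rw [hk2]; exact he') h.2
      rw [hk2] at this
      exact this

end

end Crest.Agent.R320.Fin1_87
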