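import Crest.Agent.R320.Top_550

/-!
# Row 320: finite-state predicates are regular (helper987)
-/

set_option autoImplicit false

namespace Crest.Agent.R320.Fin1_987

open Crest.Agent.R320.Hk_851 Crest.Agent.R320.Top_550 Crest.Agent.R320.Reg_819

variable {α : Type}

/-- a predicate which only sees a prefix, a product and the length modulo `M` is regular -/
theorem reg_key [Finite α] {S : Type} [Monoid S] [Finite S] (f : α → S) (A M : ℕ) (hM : 0 < M)
    (p : List α → Prop)
    (h : ∀ Y Y' : List α, A ≤ Y.length → A ≤ Y'.length → Y.take A = Y'.take A →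
      pr f (Y.drop A) = pr f (Y'.drop A) → Y.length % M = Y'.length % M → (p Y → p Y')) :
    Language.IsRegular ({Y | p Y} : Language α) := by
  classical
  haveI : NeZero M := ⟨hM.ne'⟩
  haveI : Finite (Multiplicative (ZMod M)) := inferInstanceAs (Finite (ZMod M))
  let g : α → Multiplicative (ZMod M) := fun _ => Multiplicative.ofAdd 1
  have hg : ∀ w : List α, pr g w = Multiplicative.ofAdd (w.length : ZMod M) := by
    intro w
    induction w with
    | nil => simp [pr]
    | cons a w ih =>
      have : pr g (a :: w) = g a * pr g w := by simp [pr]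
      rw [this, ih]
      simp only [g, List.length_cons]
      rw [← ofAdd_add]
      push_cast
      rw [add_comm]
  have hshort : Language.IsRegular ({Y | Y.length < A ∧ p Y} : Language α) :=
    HL.regular (k := 0) (HL.finite ((List.finite_length_lt α A).subset fun w hw => hw.1))
  have hlong : Language.IsRegular ({Y | ∃ i ∈ {i : List α × S × Multiplicative (ZMod M) |
      i.1.length = A ∧ ∃ Z, pr f Z = i.2.1 ∧ pr g Z = i.2.2 ∧ p (i.1 ++ Z)},
      Y ∈ ((({i.1} : Language α) * (lg (fun Z => pr f Z = i.2.1) ⊓
        lg (fun Z => pr g Z = i.2.2)) : Language α))} : Language α) := by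
    refine reg_biUnion (Set.Finite.subset ((List.finite_length_eq α A).prod
      (Set.toFinite (Set.univ : Set (S × Multiplicative (ZMod M)))))
      (fun i hi => ⟨hi.1, Set.mem_univ _⟩)) ?_
    intro i _
    refine reg_mul ?_ ((reg_pr f i.2.1).inf (reg_pr g i.2.2))
    exact HL.regular (k := 0) (HL.finite (Set.finite_singleton i.1))
  refine reg_congr (hshort.add hlong) fun Y => ?_
  constructor
  · intro hY
    by_cases hl : Y.length < A
    · exact Or.inl ⟨hl, hY⟩
    · right
      refine ⟨(Y.take A, pr f (Y.drop A), pr g (Y.drop A)), ⟨?_, Y.drop A, rfl, rfl, ?_⟩, ?_⟩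
      · simp only [List.length_take]; omega
      · simp only [List.take_append_drop]; exact hY
      · exact Language.mem_mul.2 ⟨Y.take A, rfl, Y.drop A, ⟨rfl, rfl⟩, List.take_append_drop _ _⟩
  · rintro (⟨_, hY⟩ | ⟨⟨U, s, r⟩, ⟨hU, Z, hZ1, hZ2, hZ3⟩, hY⟩)
    · exact hY
    · obtain ⟨U', hU', Z', ⟨hZ1', hZ2'⟩, rfl⟩ := Language.mem_mul.1 hY
      have hUU : U' = U := hU'
      subst hUU
      simp only at hU hZ1 hZ2 hZ3
      have e1 : pr f Z' = s := hZ1'
      have e2 : pr g Z' = r := hZ2'
      refine h (U' ++ Z) (U' ++ Z') ?_ ?_ ?_ ?_ ?_ hZ3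
      · rw [List.length_append]; omega
      · rw [List.length_append]; omega
      · rw [← hU, List.take_left, List.take_left]
      · rw [← hU, List.drop_left, List.drop_left, hZ1, e1]
      · have e3 : ((Z.length : ℕ) : ZMod M) = ((Z'.length : ℕ) : ZMod M) := by
          have := hZ2.trans e2.symm
          rw [hg, hg] at this
          exact Multiplicative.ofAdd.injective this
        have e4 := (ZMod.natCast_eq_natCast_iff' _ _ M).1 e3
        rw [List.length_append, List.length_append, Nat.add_mod, e4, ← Nat.add_mod]

end Crest.Agent.R320.Fin1_987
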