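import Crest.Agent.R320.Fin_150

/-! # Row 320: constants (helper150) -/

set_option autoImplicit false
set_option linter.unusedVariables false

namespace Crest.Agent.R320.Fin_150

open Crest.RegLang Crest.Agent.R320.Hk_851 Crest.Agent.R320.Blk467 Crest.Agent.R320.Grid_899

theorem exists_primes (k B : ℕ) : ∃ q : Fin k → ℕ, (∀ j, (q j).Prime) ∧ (∀ j, B < q j) ∧
    Function.Injective q := by
  refine ⟨fun j => Nat.nth Nat.Prime (B + 1 + j), fun j => Nat.prime_nth_prime _, fun j => ?_, ?_⟩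
  · have h : B + 1 + (j : ℕ) ≤ Nat.nth Nat.Prime (B + 1 + (j : ℕ)) :=
      (Nat.nth_strictMono Nat.infinite_setOf_prime).le_apply
    exact lt_of_lt_of_le (by omega) h
  · intro i j h
    have h' := (Nat.nth_strictMono Nat.infinite_setOf_prime).injective h
    exact Fin.ext (by omega)

/-- natural form of the bad totals -/
def BadN {k : ℕ} (q : Fin k → ℕ) (κ m T : ℕ) : Prop :=
  (∃ j, q j ∣ T) ∨ ∃ j, 1 ≤ j ∧ j ≤ m ∧
    ¬ ((∏ j, q j) * G κ (j - 1) ≤ (T - Am (∏ j, q j) κ j) % G κ j ∧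
      (T - Am (∏ j, q j) κ j) % G κ j + (∏ j, q j) * G κ (j - 1) ≤ G κ j)

theorem bad_cast {k : ℕ} (q : Fin k → ℕ) (κ m T : ℕ) (hT : ∀ j, j ≤ m → Am (∏ j, q j) κ j ≤ T)
    (h : BadN q κ m T) :
    Thin963.BadT (Finset.univ.image q) m (fun i => ((G κ i : ℕ) : ℤ))
      (fun i => (((∏ j, q j) * G κ i : ℕ) : ℤ)) (fun i => ((Am (∏ j, q j) κ i : ℕ) : ℤ)) (T : ℤ) := by
  rcases h with ⟨j, hj⟩ | ⟨j, h1, h2, h3⟩
  · exact Or.inl ⟨q j, by simp, by exact_mod_cast hj⟩
  · right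
    obtain ⟨i, rfl⟩ : ∃ i, j = i + 1 := ⟨j - 1, by omega⟩
    rw [Nat.add_sub_cancel] at h3
    set M := ∏ j, q j with hM
    refine ⟨i, by omega, ?_⟩
    have hge := hT (i + 1) h2
    set r := (T - Am M κ (i + 1)) % G κ (i + 1) with hr
    have hGpos : 0 < G κ (i + 1) := G_pos _
    have hrl : r < G κ (i + 1) := Nat.mod_lt _ hGpos
    have hdm := Nat.div_add_mod (T - Am M κ (i + 1)) (G κ (i + 1))
    rw [← hr] at hdm
    have hz : (T : ℤ) - (Am M κ (i + 1) : ℕ) =
        (G κ (i + 1) : ℕ) * (((T - Am M κ (i + 1)) / G κ (i + 1) : ℕ) : ℤ) + (r : ℤ) := by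
      have h7 := congrArg (Nat.cast : ℕ → ℤ) hdm
      rw [Nat.cast_add, Nat.cast_mul, Nat.cast_sub hge] at h7
      exact h7.symm
    by_cases h4 : M * G κ i ≤ r
    · have h5 : G κ (i + 1) < r + M * G κ i := by
        by_contra h6
        exact h3 ⟨h4, by omega⟩
      refine ⟨(G κ (i + 1) : ℕ) - (r : ℤ), ?_, ?_⟩
      · rw [abs_of_nonneg (by
          have : (r : ℤ) < (G κ (i + 1) : ℕ) := by exact_mod_cast hrl
          linarith)]
        have : ((G κ (i + 1) : ℕ) : ℤ) < (r : ℤ) + (M * G κ i : ℕ) := by exact_mod_cast h5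
        linarith
      · refine ⟨(((T - Am M κ (i + 1)) / G κ (i + 1) : ℕ) : ℤ) + 1, ?_⟩
        change (T : ℤ) - (Am M κ (i + 1) : ℕ) + ((G κ (i + 1) : ℕ) - (r : ℤ)) = _
        rw [hz]; ring
    · refine ⟨-(r : ℤ), ?_, ?_⟩
      · rw [abs_neg, abs_of_nonneg (by positivity)]
        have : (r : ℤ) < (M * G κ i : ℕ) := by exact_mod_cast (by omega : r < M * G κ i)
        linarith
      · refine ⟨(((T - Am M κ (i + 1)) / G κ (i + 1) : ℕ) : ℤ), ?_⟩
        change (T : ℤ) - (Am M κ (i + 1) : ℕ) + -(r : ℤ) = _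
        rw [hz]; ring

theorem growth (K m M κ : ℕ) (hM : 0 < M) (hκ : 2 ^ (K + 4) * (m * M) ≤ 2 ^ κ) (i : ℕ) (hi : i < m) :
    (2 : ℤ) ^ (K + 4) * ∑ j ∈ Finset.range (i + 1), ((M * G κ j : ℕ) : ℤ) ≤
      ((G κ (i + 1) : ℕ) : ℤ) := by
  have h1 : ∑ j ∈ Finset.range (i + 1), M * G κ j ≤ (i + 1) * (M * G κ i) := by
    have := Finset.sum_le_card_nsmul (Finset.range (i + 1)) (fun j => M * G κ j) (M * G κ i) (by
      intro j hj
      have hj' : j ≤ i := by have := Finset.mem_range.1 hj; omega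
      exact Nat.mul_le_mul_left _ (Nat.le_of_dvd (G_pos _) (G_dvd hj')))
    simpa using this
  have h2 : 2 ^ (K + 4) * ∑ j ∈ Finset.range (i + 1), M * G κ j ≤ G κ (i + 1) := by
    calc 2 ^ (K + 4) * ∑ j ∈ Finset.range (i + 1), M * G κ j
        ≤ 2 ^ (K + 4) * ((i + 1) * (M * G κ i)) := Nat.mul_le_mul_left _ h1
      _ ≤ 2 ^ (K + 4) * (m * (M * G κ i)) :=
          Nat.mul_le_mul_left _ (Nat.mul_le_mul_right _ (by omega))
      _ = (2 ^ (K + 4) * (m * M)) * G κ i := by ring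
      _ ≤ 2 ^ κ * G κ i := Nat.mul_le_mul_right _ hκ
      _ = G κ (i + 1) := by unfold G; rw [← pow_add]; congr 1; ring
  have h3 : ((2 ^ (K + 4) * ∑ j ∈ Finset.range (i + 1), M * G κ j : ℕ) : ℤ) ≤
      ((G κ (i + 1) : ℕ) : ℤ) := by exact_mod_cast h2
  push_cast at h3 ⊢
  exact h3

theorem fin (α : Type) [Finite α] (S : Type) [Monoid S] [Finite S] (f : α → S) (s : S) :
    HL 3 ({w | (w.map f).prod = s} : Language α) := by
  classical
  obtain ⟨act, hadd, hone, hmul, hfaith⟩ := exists_module S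
  haveI : Fintype S := Fintype.ofFinite S
  obtain ⟨k, m, HG⟩ := grid_gadget_reg S (S → ZMod 2) act
  obtain ⟨K, HE⟩ := ExactR_237.exact_gadget α S (S → ZMod 2) f act (2 * (k + m) + 2)
  obtain ⟨q, hq1, hq2, hq3⟩ := exists_primes k (2 ^ (K + 1) + 2)
  have hodd : ∀ j, Odd (q j) := fun j => (hq1 j).odd_of_ne_two (by
    have h := hq2 j
    have h' : 0 < 2 ^ (K + 1) := by positivity
    intro h2
    rw [h2] at h
    exact absurd h (by omega))
  have hcop : Pairwise (fun i j => Nat.Coprime (q i) (q j)) := fun i j hij =>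
    (Nat.coprime_primes (hq1 i) (hq1 j)).2 fun h => hij (hq3 h)
  set M := ∏ j, q j with hM
  have hMpos : 0 < M := Finset.prod_pos fun j _ => (hq1 j).pos
  set κ := 2 ^ (K + 4) * (m * M) with hκ
  have hκ2 : 2 ^ (K + 4) * (m * M) ≤ 2 ^ κ := by rw [← hκ]; exact (Nat.lt_two_pow_self).le
  have hphi : ∀ u v : List α, ((u ++ v).map f).prod = (u.map f).prod * (v.map f).prod := by
    intro u v; simp
  obtain ⟨lam, rho, nu, h1, -, h3, h4, h5⟩ := HG q hodd hcop κ α (fun w => (w.map f).prod) hphi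
  set A := Am M κ (m + 1) with hA
  have hAm : ∀ j, j ≤ m + 1 → Am M κ j ≤ A := by
    have hmono : Monotone (Am M κ) := monotone_nat_of_le_succ fun i => by
      show Am M κ i ≤ Am M κ i + G κ i + M * G κ i
      omega
    intro j hj
    exact hmono hj
  obtain ⟨X, hX1, hX2, hX3⟩ := Thin963.thin K m (Finset.univ.image q)
    (fun i => ((G κ i : ℕ) : ℤ)) (fun i => ((M * G κ i : ℕ) : ℤ))
    (fun i => ((Am M κ i : ℕ) : ℤ))
    (by
      intro p hp
      obtain ⟨j, -, rfl⟩ := Finset.mem_image.1 hp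
      exact ⟨hq1 j, by have := hq2 j; omega⟩)
    (by
      intro p hp
      obtain ⟨j, -, rfl⟩ := Finset.mem_image.1 hp
      have : Nat.Coprime (q j) (G κ m) := by
        unfold G
        exact Nat.Coprime.pow_right _ ((Nat.coprime_two_right).2 (hodd j))
      exact_mod_cast Nat.isCoprime_iff_coprime.2 this)
    (by exact_mod_cast G_pos m)
    (by
      intro i j hij
      exact_mod_cast (G_dvd hij : G κ i ∣ G κ j))
    (by intro i; exact_mod_cast Nat.mul_pos hMpos (G_pos i))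
    (by intro i; exact_mod_cast Dvd.intro_left M rfl)
    (by intro i hi; exact growth K m M κ hMpos hκ2 i hi)
    (2 * ((A : ℤ) + 1) + 1)
  obtain ⟨x, rfl⟩ : ∃ x : ℕ, X = x := ⟨X.toNat, (Int.toNat_of_nonneg hX2.le).symm⟩
  have hxA : 2 * (A + 1) + 1 ≤ x := by exact_mod_cast hX1
  have hxpos : 0 < x := by omega
  obtain ⟨lam2, rho2, nu2, g1, g2⟩ := HE (fun j => x * 2 ^ j) (fun i j hij _ =>
    Nat.mul_lt_mul_of_pos_left (Nat.pow_lt_pow_right (by norm_num) hij) hxpos)
  refine join act hadd hone hmul hfaith f lam rho nu A (M * G κ m)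
    (Nat.mul_pos hMpos (G_pos m)) (BadN q κ m)
    (fun P v h => lt_of_lt_of_le (h1 P v h).1 (hAm m (by omega))) h3 h5 ?_ K (k + m)
    (fun j => x * 2 ^ j) (x * 2 ^ K)
    (fun j hj => Nat.mul_le_mul_left _ (Nat.pow_le_pow_right (by norm_num) hj.le)) ?_ ?_
    lam2 (fun i Q => rho2 i Q 1) (fun Q => nu2 Q 1) ?_ ?_ s
  · intro u hu hb v
    refine h4 u hu (fun j hj => hb (Or.inl ⟨j, hj⟩)) (fun j hj1 hj2 => ?_) v
    by_contra hc
    exact hb (Or.inr ⟨j, hj1, hj2, hc⟩)
  · intro a a' l l' _ _ _ _ haa hll e1 e2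
    have e1' : (x : ℤ) * 2 ^ a + x * 2 ^ l' < x * 2 ^ l + x * 2 ^ a' + 2 * (A + 1) := by
      exact_mod_cast e1
    have e2' : (x : ℤ) * 2 ^ l + x * 2 ^ a' < x * 2 ^ a + x * 2 ^ l' + 2 * (A + 1) := by
      exact_mod_cast e2
    have hxA' : 2 * ((A : ℤ) + 1) < x := by
      have : ((2 * (A + 1) + 1 : ℕ) : ℤ) ≤ x := by exact_mod_cast hxA
      push_cast at this
      linarith
    have hz : ((2 : ℤ) ^ a - 2 ^ a') - (2 ^ l - 2 ^ l') = 0 := by
      set d : ℤ := ((2 : ℤ) ^ a - 2 ^ a') - (2 ^ l - 2 ^ l') with hd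
      have u1 : (x : ℤ) * d < x := by rw [hd]; linarith
      have u2 : -(x : ℤ) < (x : ℤ) * d := by rw [hd]; linarith
      have hx0 : (0 : ℤ) < x := by exact_mod_cast hxpos
      have u3 : d < 1 := by
        by_contra h; push Not at h; nlinarith
      have u4 : -1 < d := by
        by_contra h; push Not at h; nlinarith
      omega
    exact (G369.pow_diff (fun h => haa h.symm) (fun h => hll h.symm) (sub_eq_zero.1 hz)).1
  · intro τ hτ J hJ
    choose! p hp using fun a (ha : a ∈ J) => (hJ a ha).2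
    have hcard := hX3 ((τ : ℤ) - (x * 2 ^ K : ℕ))
    have hle : J.card ≤ (((Finset.range K) ×ˢ (Finset.range K)).filter (fun p' => p'.1 ≠ p'.2 ∧
        Thin963.BadT (Finset.univ.image q) m (fun i => ((G κ i : ℕ) : ℤ))
          (fun i => ((M * G κ i : ℕ) : ℤ)) (fun i => ((Am M κ i : ℕ) : ℤ))
          ((τ : ℤ) - (x * 2 ^ K : ℕ) + x * 2 ^ p'.1 - x * 2 ^ p'.2))).card := by
      refine Finset.card_le_card_of_injOn (fun a => (p a, a)) ?_ ?_
      · intro a ha
        have ha' : a ∈ J := ha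
        obtain ⟨k1, k2, k3⟩ := hp a ha'
        have hka := (hJ a ha').1
        simp only [Finset.coe_filter, Set.mem_setOf_eq, Finset.mem_product, Finset.mem_range]
        refine ⟨⟨k1, hka⟩, k2, ?_⟩
        have ca : x * 2 ^ a ≤ x * 2 ^ K :=
          Nat.mul_le_mul_left _ (Nat.pow_le_pow_right (by norm_num) hka.le)
        have hT : A ≤ τ + x * 2 ^ (p a) - x * 2 ^ a - x * 2 ^ K := by omega
        have := bad_cast q κ m _ (fun j hj => (hAm j (by omega)).trans hT) k3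
        have ecast : ((τ + x * 2 ^ (p a) - x * 2 ^ a - x * 2 ^ K : ℕ) : ℤ) =
            (τ : ℤ) - (x * 2 ^ K : ℕ) + x * 2 ^ (p a) - x * 2 ^ a := by
          rw [Nat.cast_sub (by omega), Nat.cast_sub (by omega)]
          push_cast
          ring
        rw [ecast] at this
        exact this
      · intro a _ b _ hab
        exact (Prod.ext_iff.1 hab).2
    refine hle.trans (le_trans (by convert hcard) ?_)
    have : (Finset.univ.image q).card ≤ k := by
      refine Finset.card_image_le.trans ?_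
      simp
    omega
  · intro i hi P Q v b hP hl hr
    have := g1 i hi P Q 1 v b hP hl hr
    rw [mul_one] at this
    exact this
  · intro u v hu
    exact g2 u 1 v hu

/-- S0495, all universes -/
theorem row {α : Type*} [Finite α] (L : Language α) (hL : L.IsRegular) :
    ∃ e : Crest.RegLang.GRegExp α, e.height ≤ 3 ∧ e.lang = L :=
  Univ_582.final (k := 3) (fun β _ S _ _ φ s => fin β S φ s) α L hL

end Crest.Agent.R320.Fin_150
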