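import Crest.Agent.R320.Fin1_192
import Crest.Agent.R320.Grid_899
import Crest.Agent.R320.Thin_963
import Crest.Agent.R320.ExactR_237
import Crest.Agent.R320.LWallAll_922

/-!
# Row 320: constants and join (helper192)
-/

set_option autoImplicit false

namespace Crest.Agent.R320.Fin2_192

open Crest.RegLang Crest.Agent.R320.Hk_851 Crest.Agent.R320.Blk467
open Crest.Agent.R320.SemTop_727 Crest.Agent.R320.Joint_192 Crest.Agent.R320.BddReg_746
open Crest.Agent.R320.Fin1_192

variable {α : Type}

/-! ### the noise is regular -/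

section noise
variable [Finite α] {S V : Type} [Monoid S] [Finite S] [AddCommGroup V] [Finite V]
  (act : V → S → V) (φ : α → S) (lam rho : List α → Option V) (nu : List α → V)

/-- the text has a legal cut -/
def Leg (u : List α) : Prop := ∃ P Q v b, u = P ++ Q ∧ lam P = some v ∧ rho Q = some b

open Classical in
noncomputable def nu' (u : List α) : V := if Leg lam rho u then nu u else 0

theorem rho_reg (N' M0 : ℕ) (hM0 : 0 < M0)
    (hR : ∀ Q b, rho Q = some b → N' ≤ Q.length)
    (hF : ∀ Q Q' : List α, N' ≤ Q.length → N' ≤ Q'.length → Q.take N' = Q'.take N' →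
      ((Q.drop N').map φ).prod = ((Q'.drop N').map φ).prod → Q.length ≡ Q'.length [MOD M0] →
      rho Q = rho Q') (b : V) : Language.IsRegular ({Q | rho Q = some b} : Language α) := by
  have h := reg_prefix N' (fun t R => rho (t ++ R) = some b) (fun t ht => by
    refine reg_val φ M0 hM0 (fun R => rho (t ++ R) = some b) fun R R' h1 h2 => ?_
    have e : rho (t ++ R) = rho (t ++ R') := by
      refine hF _ _ (by simp [ht]) (by simp [ht]) ?_ ?_ ?_
      · rw [← ht, List.take_left, List.take_left]
      · rw [← ht, List.drop_left, List.drop_left]; exact h2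
      · rw [List.length_append, List.length_append]
        exact Nat.ModEq.add_left _ h1
    show rho (t ++ R) = some b ↔ rho (t ++ R') = some b
    rw [e])
  refine reg_congr h fun w => ?_
  constructor
  · rintro ⟨h1, h2⟩
    have h2' : rho (w.take N' ++ w.drop N') = some b := h2
    rw [List.take_append_drop] at h2'
    exact h2'
  · intro hw
    have hw' : rho w = some b := hw
    refine ⟨hR w b hw', ?_⟩
    show rho (w.take N' ++ w.drop N') = some b
    rw [List.take_append_drop]
    exact hw'

theorem nu_reg (N : ℕ) (hL : ∀ P v, lam P = some v → P.length < N)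
    (hS : ∀ P Q v b, lam P = some v → rho Q = some b →
      b = act v ((P ++ Q).map φ).prod + nu (P ++ Q))
    (hrho : ∀ b, Language.IsRegular ({Q | rho Q = some b} : Language α)) (x : V) :
    Language.IsRegular ({Y | nu' lam rho nu Y = x} : Language α) := by
  classical
  have hregφ : ∀ c : S, Language.IsRegular ({u | (u.map φ).prod = c} : Language α) := fun c =>
    reg_val φ 1 one_pos (fun u => (u.map φ).prod = c) fun u u' _ h2 => by rw [h2]
  have hA : ∀ x : V, Language.IsRegular
      ({u | ∃ P Q v b, u = P ++ Q ∧ lam P = some v ∧ rho Q = some b ∧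
        b - act v (u.map φ).prod = x} : Language α) := by
    intro x
    have h := reg_biUnion (ι := List α × V × V × S)
      (s := {i | lam i.1 = some i.2.1 ∧ i.2.2.1 - act i.2.1 i.2.2.2 = x})
      (by
        refine ((List.finite_length_lt α N).prod
          (Set.finite_univ (α := V × V × S))).subset ?_
        rintro ⟨P, v, b, s⟩ ⟨h1, -⟩
        exact ⟨hL P v h1, trivial⟩)
      (fun i => (toL ({w | w = i.1}) * toL ({Q | rho Q = some i.2.2.1})) ⊓
        toL ({u | (u.map φ).prod = i.2.2.2}))
      (fun i _ => Language.IsRegular.inf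
        (L1 := toL ({w | w = i.1}) * toL ({Q | rho Q = some i.2.2.1}))
        (L2 := toL ({u | (u.map φ).prod = i.2.2.2}))
        (Crest.Agent.R320.Reg_236.isRegular_mul (L := toL ({w | w = i.1}))
          (K := toL ({Q | rho Q = some i.2.2.1})) (reg_word _) (hrho _)) (hregφ _))
    refine reg_congr h fun w => ?_
    constructor
    · rintro ⟨⟨P, v, b, s⟩, ⟨h1, h2⟩, h3, h4⟩
      obtain ⟨a, ha, c, hc, e⟩ := Language.mem_mul.1 h3
      have ha' : a = P := ha
      have h4' : (w.map φ).prod = s := h4
      subst ha'
      refine ⟨a, c, v, b, e.symm, h1, hc, ?_⟩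
      rw [h4']; exact h2
    · rintro ⟨P, Q, v, b, e, h1, h2, h3⟩
      refine ⟨⟨P, v, b, (w.map φ).prod⟩, ⟨h1, h3⟩, ?_, rfl⟩
      exact Language.mem_mul.2 ⟨P, rfl, Q, h2, e.symm⟩
  have hAv : ∀ u, Leg lam rho u → ∀ x, ((∃ P Q v b, u = P ++ Q ∧ lam P = some v ∧
      rho Q = some b ∧ b - act v (u.map φ).prod = x) ↔ nu u = x) := by
    rintro u ⟨P0, Q0, v0, b0, e0, h1, h2⟩ x
    constructor
    · rintro ⟨P, Q, v, b, rfl, h3, h4, h5⟩
      rw [← h5, hS P Q v b h3 h4]; abel
    · intro hx
      refine ⟨P0, Q0, v0, b0, e0, h1, h2, ?_⟩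
      rw [← hx, hS P0 Q0 v0 b0 h1 h2, e0]; abel
  have hLeg : Language.IsRegular ({u | Leg lam rho u} : Language α) := by
    refine reg_congr (reg_biUnion (ι := V) (s := Set.univ) (Set.toFinite _) _
      (fun x _ => hA x)) fun w => ?_
    constructor
    · rintro ⟨x, -, P, Q, v, b, e, h1, h2, -⟩
      exact ⟨P, Q, v, b, e, h1, h2⟩
    · rintro ⟨P, Q, v, b, e, h1, h2⟩
      exact ⟨_, trivial, P, Q, v, b, e, h1, h2, rfl⟩
  by_cases hx : x = 0
  · refine reg_congr ((hA x).add hLeg.compl) fun w => ?_
    constructor
    · rintro (hw | hw)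
      · have hl : Leg lam rho w := by
          obtain ⟨P, Q, v, b, e, h1, h2, -⟩ := hw
          exact ⟨P, Q, v, b, e, h1, h2⟩
        show nu' lam rho nu w = x
        unfold nu'
        rw [if_pos hl]
        exact (hAv w hl x).1 hw
      · show nu' lam rho nu w = x
        unfold nu'
        rw [if_neg (show ¬ Leg lam rho w from hw), hx]
    · intro hw
      have hw' : nu' lam rho nu w = x := hw
      by_cases hl : Leg lam rho w
      · left
        unfold nu' at hw'
        rw [if_pos hl] at hw'
        exact (hAv w hl x).2 hw'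
      · right; exact hl
  · refine reg_congr (hA x) fun w => ?_
    constructor
    · intro hw
      have hl : Leg lam rho w := by
        obtain ⟨P, Q, v, b, e, h1, h2, -⟩ := hw
        exact ⟨P, Q, v, b, e, h1, h2⟩
      show nu' lam rho nu w = x
      unfold nu'
      rw [if_pos hl]
      exact (hAv w hl x).1 hw
    · intro hw
      have hw' : nu' lam rho nu w = x := hw
      by_cases hl : Leg lam rho w
      · unfold nu' at hw'
        rw [if_pos hl] at hw'
        exact (hAv w hl x).2 hw'
      · unfold nu' at hw'
        rw [if_neg hl] at hw'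
        exact (hx hw'.symm).elim

end noise

end Crest.Agent.R320.Fin2_192
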