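import Crest.Agent.R320.Fin1_370

/-!
Row 320, helper370: scheme 2 over the natural block code, word level.
-/

set_option autoImplicit false

namespace Crest.Agent.R320.Fin1_370

open Crest.Agent.R320.Hk_851 Crest.Agent.R320.Code110

variable {α : Type} {S V : Type} [Monoid S] [AddCommGroup V]

open Classical in
/-- **C2** -/
theorem C2 (φ : List α → S) (act : V → S → V)
  (p0 : ℕ) (nu2 nu1 : List α → V) {Wo : List α → Prop} {n z N Wg : ℕ} {BT : ℕ → Prop}
    (hW : ∀ P Q : List α, n ≤ Q.length → (Wo (P ++ Q) ↔ Wo Q))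
    (hgap : ∀ (P : List α) (d : ℕ), Wo P → 0 < d → d ≤ Wg → ¬ Wo (P.take (P.length - d)))
    (hWg : 2 * (p0 + N) ≤ Wg) {K T0 C0 R : ℕ} {c : ℕ → ℕ} (hc : ∀ k < K, c k ≤ p0)
    (hz : 3 * p0 + 2 * N + n + T0 < z)
    (hres : ∀ i j k l, i < K → j < K → k < K → l < K → i ≠ j → k ≠ l →
      c i + c l ≤ c k + c j + 2 * N → c k + c j ≤ c i + c l + 2 * N → i = k ∧ j = l)
    (hcount : ∀ T, T0 ≤ T → ((Finset.range K ×ˢ Finset.range K).filter
      (fun ab => ab.1 ≠ ab.2 ∧ BT (T + c ab.1 - c ab.2))).card ≤ C0)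
    {lam2 rho2 : ℕ → List α → Option V}
    (hs2 : ∀ k < K, ∀ (P Q : List α) (v b : V), P.length = c k → lam2 k P = some v →
      rho2 k Q = some b → b = act v (φ (P ++ Q)) + nu2 (P ++ Q))
    (hc2 : ∀ (u : List α) (v : V), (∀ k < K, c k ≤ u.length) →
      ∃ I : Finset ℕ, 2 + 2 * C0 ≤ I.card ∧ ∀ k ∈ I, k < K ∧ lam2 k (u.take (c k)) = some v ∧
        (rho2 k (u.drop (c k))).isSome)
    (u : List α) (hu : u ∈ Bad Wo z N p0 BT) (x : V) (t : List α)
    (ht : t ∈ (Bad Wo z N p0 BT) ^ 1) :
    ∃ p q y, u ++ t = p ++ q ∧ p ∈ L2 K c lam2 x ∧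
      q ∈ Rsem (XX Wo z) (Bad Wo z N p0 BT) (T φ act p0 nu2 nu1) 1 (L2 K c lam2) y := by
  have ht' : t ∈ Bad Wo z N p0 BT := by simpa using ht
  have htX := ht'.1
  obtain ⟨huX, huB⟩ := id hu
  obtain ⟨hu1, hu2, hu3⟩ := id huX
  obtain ⟨ht1, ht2, ht3⟩ := id htX
  set U := u ++ t with hU
  have hUl : U.length = u.length + t.length := by rw [hU, List.length_append]
  have hUW : Wo U := (hW u t (by omega)).2 ht1
  have hX1 : (u.take p0).length = p0 := by rw [List.length_take]; omega
  obtain ⟨I, hI, hI2⟩ := hc2 (u.take p0) x (by intro k hk; rw [hX1]; exact hc k hk)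
  -- the two candidate walls
  have hex1 : ∃ w, z - p0 ≤ w ∧ Wo (U.take w) := ⟨U.length, by omega, by
    rw [List.take_length]; exact hUW⟩
  obtain ⟨a1, ⟨ha1, ha1W⟩, ha1min⟩ : ∃ a1, (z - p0 ≤ a1 ∧ Wo (U.take a1)) ∧
      ∀ w, z - p0 ≤ w → Wo (U.take w) → a1 ≤ w :=
    ⟨Nat.find hex1, Nat.find_spec hex1, fun w h1 h2 => Nat.find_min' hex1 ⟨h1, h2⟩⟩
  have ha1U : a1 ≤ U.length := ha1min _ (by omega) (by rw [List.take_length]; exact hUW)
  obtain ⟨a2, ha2⟩ : ∃ a2, ∀ w, a1 < w → Wo (U.take w) → (a1 < a2 ∧ Wo (U.take a2) ∧ a2 ≤ w) := by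
    by_cases h : ∃ w, a1 < w ∧ Wo (U.take w)
    · exact ⟨Nat.find h, fun w h1 h2 => ⟨(Nat.find_spec h).1, (Nat.find_spec h).2,
        Nat.find_min' h ⟨h1, h2⟩⟩⟩
    · exact ⟨0, fun w h1 h2 => (h ⟨w, h1, h2⟩).elim⟩
  -- gaps
  have hgapU : ∀ s s', s < s' → s' ≤ U.length → Wo (U.take s) → Wo (U.take s') → Wg < s' - s := by
    intro s s' h1 h2 h3 h4
    by_contra h5
    have := hgap (U.take s') (s' - s) h4 (by omega) (by omega)
    apply this
    rw [List.length_take, List.take_take]
    rw [show min (min s' U.length - (s' - s)) s' = s by omega]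
    exact h3
  -- the spoiled places
  let PE : Finset (ℕ × ℕ) := (Finset.range K ×ˢ Finset.range K).filter
    (fun ab => ab.1 ≠ ab.2 ∧ ∃ s', s' ≤ U.length ∧ Wo (U.take s') ∧
      z ≤ s' + c ab.1 - c ab.2 + N ∧ s' + c ab.1 - c ab.2 ≤ z + N)
  let PB : ℕ → Finset (ℕ × ℕ) := fun T => (Finset.range K ×ˢ Finset.range K).filter
    (fun ab => ab.1 ≠ ab.2 ∧ T0 ≤ T ∧ BT (T + c ab.1 - c ab.2))
  have hPE : PE.card ≤ 1 := by
    rw [Finset.card_le_one]
    rintro ⟨a, b⟩ hab ⟨a', b'⟩ hab'
    simp only [PE, Finset.mem_filter, Finset.mem_product, Finset.mem_range] at hab hab'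
    obtain ⟨⟨hA, hB⟩, hne, s, hs1, hs2', hs3, hs4⟩ := hab
    obtain ⟨⟨hA', hB'⟩, hne', s', hs1', hs2'', hs3', hs4'⟩ := hab'
    have k1 := hc a hA
    have k2 := hc b hB
    have k3 := hc a' hA'
    have k4 := hc b' hB'
    have hss : s = s' := by
      rcases lt_trichotomy s s' with h | h | h
      · have := hgapU s s' h hs1' hs2' hs2''
        omega
      · exact h
      · have := hgapU s' s h hs1 hs2'' hs2'
        omega
    subst hss
    obtain ⟨e1, e2⟩ := hres a b a' b' hA hB hA' hB' hne hne' (by omega) (by omega)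
    rw [e1, e2]
  have hPB : ∀ T, (PB T).card ≤ C0 := by
    intro T
    by_cases hT : T0 ≤ T
    · refine le_trans (Finset.card_le_card ?_) (hcount T hT)
      intro ab hab
      simp only [PB, Finset.mem_filter] at hab ⊢
      exact ⟨hab.1, hab.2.1, hab.2.2.2⟩
    · have : PB T = ∅ := by
        simp only [PB, Finset.filter_eq_empty_iff]
        intro ab _ h
        exact hT h.2.1
      rw [this]
      simp
  let Sp : Finset ℕ := (PE ∪ (PB (a1 - p0) ∪ PB (a2 - p0))).image Prod.snd
  have hSp : Sp.card < I.card := by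
    have h1 : Sp.card ≤ (PE ∪ (PB (a1 - p0) ∪ PB (a2 - p0))).card := Finset.card_image_le
    have h2 := Finset.card_union_le PE (PB (a1 - p0) ∪ PB (a2 - p0))
    have h3 := Finset.card_union_le (PB (a1 - p0)) (PB (a2 - p0))
    have h4 := hPB (a1 - p0)
    have h5 := hPB (a2 - p0)
    omega
  obtain ⟨k, hkI, hkS⟩ : ∃ k ∈ I, k ∉ Sp := by
    by_contra h
    push Not at h
    exact absurd (Finset.card_le_card (fun k hk => h k hk)) (by omega)
  obtain ⟨hkK, hlk, hrk⟩ := hI2 k hkI
  have hck := hc k hkK
  obtain ⟨b, hb⟩ := Option.isSome_iff_exists.1 hrk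
  have hdt : (u.take p0).drop (c k) = (u.drop (c k)).take (p0 - c k) := by
    rw [List.drop_take]
  have htt : (u.take p0).take (c k) = u.take (c k) := by
    rw [List.take_take, min_eq_left hck]
  have hutk : (u.take (c k)).length = c k := by rw [List.length_take]; omega
  have hudk : (u.drop (c k)).length = u.length - c k := List.length_drop
  refine ⟨u.take (c k), u.drop (c k) ++ t,
    T φ act p0 nu2 nu1 t (act b (φ (u.drop p0)) + nu1 (u.drop p0)), ?_, ⟨k, hkK, hutk, ?_⟩, ?_⟩
  · rw [← List.append_assoc, List.take_append_drop]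
  · rw [← htt]; exact hlk
  intro x' p' hp'
  obtain ⟨k', hk'K, hp'l, hl'⟩ := hp'
  have hck' := hc k' hk'K
  have hUe : U = u.take (c k) ++ (u.drop (c k) ++ t) := by
    rw [← List.append_assoc, List.take_append_drop]
  have hRl : (u.drop (c k) ++ t).length = u.length - c k + t.length := by
    rw [List.length_append, hudk]
  by_cases hkk : k' = k
  · left
    subst hkk
    have hul' : (p' ++ u.drop (c k')).length = u.length := by
      rw [List.length_append, hudk, hp'l]; omega
    have hsh : ∀ s, c k' + n ≤ s → s ≤ u.length →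
        (Wo ((p' ++ u.drop (c k')).take s) ↔ Wo (u.take s)) := by
      intro s h1 h2
      have := wo_shift hW p' (u.take (c k')) (u.drop (c k')) (t := s) (t' := s)
        (by rw [hutk, hp'l]) (by rw [hp'l]; exact h1) (by rw [hp'l, hudk]; omega)
      rwa [List.take_append_drop] at this
    have hXX : p' ++ u.drop (c k') ∈ XX Wo z := by
      refine ⟨?_, by rw [hul']; exact hu2, ?_⟩
      · have := hsh u.length (by omega) le_rfl
        rw [List.take_length] at this
        rw [List.take_of_length_le (by rw [hul'])] at this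
        exact this.2 hu1
      · intro s h1 h2 h3
        rw [hul'] at h2
        exact hu3 s h1 h2 ((hsh s (by omega) (by omega)).1 h3)
    have hBad : p' ++ u.drop (c k') ∈ Bad Wo z N p0 BT := by
      refine ⟨hXX, ?_⟩
      rw [hul']
      rcases huB with ⟨s, h1, h2, h3, h4⟩ | h
      · exact Or.inl ⟨s, h1, h2, h3, (hsh s (by omega) h3).2 h4⟩
      · exact Or.inr h
    have hTv : T φ act p0 nu2 nu1 (p' ++ u.drop (c k')) x' =
        act b (φ (u.drop p0)) + nu1 (u.drop p0) := by
      have e1 : (p' ++ u.drop (c k')).take p0 = p' ++ (u.take p0).drop (c k') := by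
        rw [hdt, List.take_append, List.take_of_length_le (by omega), hp'l]
      have e2 : (p' ++ u.drop (c k')).drop p0 = u.drop p0 := by
        rw [List.drop_append, List.drop_eq_nil_of_le (by omega), List.nil_append, hp'l,
          List.drop_drop]
        congr 1
        omega
      have h := hs2 k' hkK p' ((u.take p0).drop (c k')) x' b hp'l hl' hb
      unfold T
      rw [e1, e2, ← h]
    rw [← List.append_assoc]
    have h := exactly_two (τ := T φ act p0 nu2 nu1) (x := x') hBad ht'
    rw [hTv] at h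
    exact h
  · right
    left
    have hq : (p' ++ (u.drop (c k) ++ t)).length = c k' + (u.length - c k + t.length) := by
      rw [List.length_append, hp'l, hRl]
    have hqW : Wo (p' ++ (u.drop (c k) ++ t)) := by
      rw [← List.append_assoc]
      exact (hW _ t (by omega)).2 ht1
    have hex : ∃ m, z ≤ m ∧ Wo ((p' ++ (u.drop (c k) ++ t)).take m) :=
      ⟨(p' ++ (u.drop (c k) ++ t)).length, by omega, by rw [List.take_length]; exact hqW⟩
    obtain ⟨m, ⟨hm1, hm2⟩, hmin⟩ : ∃ m, (z ≤ m ∧ Wo ((p' ++ (u.drop (c k) ++ t)).take m)) ∧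
        ∀ w, z ≤ w → Wo ((p' ++ (u.drop (c k) ++ t)).take w) → m ≤ w :=
      ⟨Nat.find hex, Nat.find_spec hex, fun w h1 h2 => Nat.find_min' hex ⟨h1, h2⟩⟩
    have hmle : m ≤ (p' ++ (u.drop (c k) ++ t)).length :=
      hmin _ (by omega) (by rw [List.take_length]; exact hqW)
    have hXl : ((p' ++ (u.drop (c k) ++ t)).take m).length = m := by
      rw [List.length_take]; omega
    -- shift to `U`
    have hsh : ∀ s s', s + c k = s' + c k' → c k' + n ≤ s → s ≤ (p' ++ (u.drop (c k) ++ t)).length →
        (Wo ((p' ++ (u.drop (c k) ++ t)).take s) ↔ Wo (U.take s')) := by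
      intro s s' h0 h1 h2
      have := wo_shift hW p' (u.take (c k)) (u.drop (c k) ++ t) (t := s) (t' := s')
        (by rw [hutk, hp'l]; exact h0) (by rw [hp'l]; exact h1)
        (by rw [hp'l, hRl]; omega)
      rwa [← hUe] at this
    refine ⟨(p' ++ (u.drop (c k) ++ t)).take m, ⟨hm2, by rw [hXl]; exact hm1, ?_⟩, ?_,
      List.take_prefix _ _⟩
    · intro s h1 h2 h3
      rw [hXl] at h2
      rw [List.take_take, min_eq_left (by omega)] at h3
      exact absurd (hmin s h1 h3) (by omega)
    · rintro ⟨-, hbad⟩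
      apply hkS
      rw [hXl] at hbad
      have hpair : (k', k) ∈ Finset.range K ×ˢ Finset.range K := by
        rw [Finset.mem_product, Finset.mem_range, Finset.mem_range]
        exact ⟨hk'K, hkK⟩
      refine Finset.mem_image.2 ⟨(k', k), ?_, rfl⟩
      rcases hbad with ⟨s, h1, h2, h3, h4⟩ | h
      · rw [Finset.mem_union]
        left
        simp only [PE]
        rw [Finset.mem_filter]
        rw [List.take_take, min_eq_left h3] at h4
        refine ⟨hpair, hkk, s + c k - c k', ?_, ?_, ?_, ?_⟩
        · omega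
        · exact (hsh s (s + c k - c k') (by omega) (by omega) (by omega)).1 h4
        · show z ≤ s + c k - c k' + c k' - c k + N
          omega
        · show s + c k - c k' + c k' - c k ≤ z + N
          omega
      · rw [Finset.mem_union, Finset.mem_union]
        right
        have hwW : Wo (U.take (m + c k - c k')) :=
          (hsh m (m + c k - c k') (by omega) (by omega) hmle).1 hm2
        have hge := ha1min (m + c k - c k') (by omega) hwW
        rcases Nat.eq_or_lt_of_le hge with he | hlt
        · left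
          simp only [PB]
          rw [Finset.mem_filter]
          refine ⟨hpair, hkk, by omega, ?_⟩
          show BT (a1 - p0 + c k' - c k)
          have : a1 - p0 + c k' - c k = m - p0 := by omega
          rw [this]
          exact h
        · right
          obtain ⟨h5, h6, h7⟩ := ha2 _ hlt hwW
          have he : a2 = m + c k - c k' := by
            by_contra hne
            have hlt2 : a2 < m + c k - c k' := by omega
            have hg := hgapU a1 a2 h5 (by omega) ha1W h6
            have h8 := (hsh (a2 + c k' - c k) a2 (by omega) (by omega) (by omega)).2 h6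
            exact absurd (hmin _ (by omega) h8) (by omega)
          simp only [PB]
          rw [Finset.mem_filter]
          refine ⟨hpair, hkk, by omega, ?_⟩
          show BT (a2 - p0 + c k' - c k)
          have : a2 - p0 + c k' - c k = m - p0 := by omega
          rw [this]
          exact h

end Crest.Agent.R320.Fin1_370
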