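import Crest.Agent.R320.Fin_52

/-!
# Row 320 (helper52): the row from one arithmetic gadget, assembly
-/

set_option autoImplicit false
set_option maxHeartbeats 1000000

namespace Crest.Agent.R320.Fin_52

open Crest.RegLang Crest.Agent.R320.Hk_851 Crest.Agent.R320.Blk467 Crest.Agent.R320.FewVal_228
open Crest.Agent.R320.Sc2n_937 Crest.Agent.R320.SemTop_727 Crest.Agent.R320.ExactR_237
open Crest.Agent.R320.FewWalls_228

section Walls

variable {α : Type}

/-- left-looking walls -/
def Wo (n : ℕ) (Sw : Set (List α)) (w : List α) : Prop := n ≤ w.length ∧ lastn n w ∈ Sw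

theorem wo_loc {n : ℕ} {Sw : Set (List α)} (P Q : List α) (h : n ≤ Q.length) :
    Wo n Sw (P ++ Q) ↔ Wo n Sw Q := by
  unfold Wo lastn
  rw [List.length_append]
  have e : (P ++ Q).drop (P.length + Q.length - n) = Q.drop (Q.length - n) := by
    have : P.length + Q.length - n = P.length + (Q.length - n) := by omega
    rw [this, ← List.drop_drop, List.drop_left]
  rw [e]
  constructor
  · rintro ⟨_, h2⟩; exact ⟨h, h2⟩
  · rintro ⟨_, h2⟩; exact ⟨by omega, h2⟩

theorem wo_take_iff {n : ℕ} {Sw : Set (List α)} {w : List α} {t : ℕ} (h : t ≤ w.length)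
    (ht : n ≤ t) : Wo n Sw (w.take t) ↔ Wl n Sw w (t - n) := by
  unfold Wo Wl lastn
  have e : (w.take t).length = t := by rw [List.length_take]; omega
  rw [e]
  have e2 : (w.take t).drop (t - n) = (w.drop (t - n)).take n := by
    rw [List.drop_take]; congr 1; omega
  rw [e2]
  constructor
  · rintro ⟨_, h2⟩; exact ⟨by omega, h2⟩
  · rintro ⟨_, h2⟩; exact ⟨ht, h2⟩

theorem wo_gap {n W : ℕ} {Sw : Set (List α)}
    (hsep : ∀ (w : List α) (x y : ℕ), x < y → Wl n Sw w x → Wl n Sw w y → x + W ≤ y)
    (P Q : List α) (h1 : Wo n Sw P) (h2 : Wo n Sw (P ++ Q)) (hQ : Q ≠ []) : W ≤ Q.length := by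
  have hq : 0 < Q.length := List.length_pos_iff.2 hQ
  have hn : n ≤ P.length := h1.1
  have a1 : Wl n Sw (P ++ Q) (P.length - n) := by
    refine (wo_take_iff (by rw [List.length_append]; omega) hn).1 ?_
    rw [List.take_left]; exact h1
  have a2 : Wl n Sw (P ++ Q) ((P ++ Q).length - n) := by
    refine (wo_take_iff le_rfl (by rw [List.length_append]; omega)).1 ?_
    rw [List.take_length]; exact h2
  rw [List.length_append] at a2
  have := hsep _ _ _ (by omega) a1 a2
  omega

/-- few walls -/
theorem nw_le {n z : ℕ} {Sw : Set (List α)} {w : List α}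
    (h : ∀ t, z ≤ t → t < w.length → ¬ Wo n Sw (w.take t)) : nw n Sw w ≤ z + 1 := by
  classical
  unfold nw
  refine (Finset.card_le_card (t := insert (w.length - n) (Finset.range z)) ?_).trans
    ((Finset.card_insert_le _ _).trans (by rw [Finset.card_range]))
  intro x hx
  rw [Finset.mem_filter] at hx
  obtain ⟨_, h1, h2⟩ := hx
  rw [Finset.mem_insert, Finset.mem_range]
  by_contra hc
  push Not at hc
  have h3 : x + n < w.length := by
    rcases Nat.lt_or_ge (x + n) w.length with h | h
    · exact h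
    · exfalso; apply hc.1; omega
  refine h (x + n) (by omega) h3 ((wo_take_iff h3.le (by omega)).2 ?_)
  rw [Nat.add_sub_cancel]
  exact ⟨h1, h2⟩

end Walls

section Codes

variable {α : Type} (g : Geo α)

theorem xx_iff_lang {X : List α} (hn : ∀ w, g.Wo w → g.n ≤ w.length) :
    g.XX X ↔ (g.z ≤ X.length ∧ g.Wo X) ∧
      ¬ (X ∈ (lg fun w => g.z ≤ w.length ∧ g.Wo w) * (lg fun w : List α => 1 ≤ w.length)) := by
  constructor
  · rintro ⟨h1, h2, h3⟩
    refine ⟨⟨h1, h2⟩, ?_⟩
    intro h
    obtain ⟨a, ⟨ha1, ha2⟩, b, hb, rfl⟩ := Language.mem_mul.1 h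
    have hb' : 1 ≤ b.length := hb
    refine h3 a.length ha1 (by rw [List.length_append]; omega) ?_
    rw [List.take_left]; exact ha2
  · rintro ⟨⟨h1, h2⟩, h3⟩
    refine ⟨h1, h2, ?_⟩
    intro t ht htl hw
    apply h3
    refine Language.mem_mul.2 ⟨X.take t, ⟨by rw [List.length_take]; omega, hw⟩, X.drop t, ?_,
      List.take_append_drop _ _⟩
    show 1 ≤ (X.drop t).length
    rw [List.length_drop]; omega

/-- a word without block prefix has no late wall -/
theorem nopre {w : List α} (h : ∀ X, g.XX X → ¬ X <+: w) :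
    ∀ t, g.z ≤ t → t ≤ w.length → ¬ g.Wo (w.take t) := by
  classical
  intro t
  induction t using Nat.strong_induction_on with
  | _ t ih =>
    intro h1 h2 h3
    refine h (w.take t) ⟨by rw [List.length_take]; omega, h3, ?_⟩ (List.take_prefix _ _)
    intro t' h4 h5
    rw [List.length_take] at h5
    rw [List.take_take, Nat.min_eq_left (by omega)]
    exact ih t' (by omega) h4 (by omega)

/-- the first block -/
theorem exists_block {w : List α} (h1 : g.z ≤ w.length) (h2 : g.Wo w) :
    ∃ X, g.XX X ∧ X <+: w := by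
  by_contra hc
  push Not at hc
  exact nopre g hc w.length h1 le_rfl (by rw [List.take_length]; exact h2)

end Codes

end Crest.Agent.R320.Fin_52
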