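import Crest.Agent.R320.Fin_58

/-!
# Row 320: scheme 2 and the two-scheme theorem for left-looking walls (helper58)
-/

set_option autoImplicit false

namespace Crest.Agent.R320.Fin_58

open Crest.RegLang Crest.Agent.R320.Hk_851 Crest.Agent.R320.Level_297 Crest.Agent.R320.ExactR_237

namespace Dat

variable {α M V : Type} [Monoid M] [AddCommGroup V] (D : Dat α M V)

def LL2 (P : List α) (v : V) : Prop := ∃ k < D.K, P.length = D.c k ∧ D.lam2 k P = some v

def RR2 (Q : List α) (b : V) : Prop :=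
  ∃ k < D.K, ∃ t, D.Blk (D.c k) t Q ∧ ¬ D.Good (D.c k) Q ∧
    (∀ j < D.K, j ≠ k → D.Good (D.c j) Q) ∧
    ∃ b', D.rho2 k (Q.take (D.p0 - D.c k)) = some b' ∧
      b = D.act (D.act b' (pr D.f ((Q.take t).drop (D.p0 - D.c k))) +
        D.nu1 ((Q.take t).drop (D.p0 - D.c k))) (pr D.f (Q.drop t))

theorem Good.shift {P Q : List α} (hP : P.length ≤ D.p0) (h : D.Good P.length Q) :
    D.Good 0 (P ++ Q) := by
  obtain ⟨t, h1, h2⟩ := h
  exact ⟨_, h1.shift D (by omega), h2.shift D (by omega) h1⟩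

theorem good_not_XB {Q : List α} (h : D.Good 0 Q) {l : ℕ} (hl : l ≤ Q.length)
    (hx : Q.take l ∈ D.XB) : False := by
  obtain ⟨⟨t, hB⟩, hnG⟩ := hx
  obtain ⟨t', hF, h1, h2, h3⟩ := h
  have hF1 := hB.first D
  have hF2 := hF1.ext D (Q.drop l)
  rw [List.take_append_drop] at hF2
  have e := hF.uniq D hF2
  subst e
  refine hnG ⟨t', hF1, h1, fun i hi hi' => ?_, h3⟩
  have h4 := hF1.2.1
  rw [List.length_take] at h4
  rw [List.take_take, min_eq_left (by omega)]
  exact h2 i hi hi'

theorem exact_two {P Q : List α} {v b : V} {d : ℕ} (hd : d ≤ Q.length) (hL : D.LL2 P v)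
    (hR : D.RR2 (Q.take d) b) (hD : ¬ D.Good 0 (P ++ Q)) :
    P ++ Q.take d ∈ D.XB ∧ D.T (P ++ Q.take d) v = b := by
  obtain ⟨k, hk, hP, hlam⟩ := hL
  obtain ⟨k', hk', t, hB, hnG, hoth, b', hb', rfl⟩ := hR
  have hz := D.hz
  have hck := D.hcp k hk
  have hkk : k = k' := by
    by_contra hne
    have h1 := (hoth k hk hne).ext D (Q.drop d)
    rw [List.take_append_drop, ← hP] at h1
    exact hD (h1.shift D (by omega))
  subst hkk
  set Q' := Q.take d with hQ'
  rw [← hP] at hB
  have hB' := hB.shift D (by omega)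
  refine ⟨⟨⟨_, hB'⟩, ?_⟩, ?_⟩
  · intro hg
    apply hD
    have h1 := hg.ext D (Q.drop d)
    rw [List.append_assoc, hQ', List.take_append_drop] at h1
    exact h1
  · have ht := D.tt_eq (hB'.first D)
    have e0 := hB.1
    have e1 : (P ++ Q').take D.p0 = P ++ Q'.take (D.p0 - D.c k) := by
      rw [List.take_append, List.take_of_length_le (by omega), hP]
    have e2 : ((P ++ Q').take (P.length + t)).drop D.p0 = (Q'.take t).drop (D.p0 - D.c k) := by
      rw [List.take_length_add_append, List.drop_append, List.drop_eq_nil_of_le (by omega), hP,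
        List.nil_append]
    have e3 : (P ++ Q').drop (P.length + t) = Q'.drop t := by
      rw [List.drop_length_add_append]
    unfold T
    rw [ht, e1, e2, e3, ← D.exact2 k hk P _ v b' hP hlam hb']

theorem card_lt {X : List α} {t : ℕ} (hB : D.Blk 0 t X) (I : Finset ℕ) (hI : D.R ≤ I.card)
    (hIK : ∀ k ∈ I, k < D.K) :
    ∃ k ∈ I, ∀ j < D.K, j ≠ k → D.Good (D.c j) (X.drop (D.c k)) := by
  classical
  have hz := D.hz
  have hW := D.hW
  obtain ⟨h1, h2, h3, h4, h5⟩ := hB
  -- length
  have hlen : D.W < X.length - t := by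
    by_contra hlt
    have := D.gap X (X.length - t) h4 (by omega) (by omega)
    have e : X.length - (X.length - t) = t := by omega
    rw [e] at this
    exact this h3
  -- three walls
  obtain ⟨w, hw⟩ : ∃ w : ℕ, ∀ x, D.z ≤ x + D.p0 + D.N1 → x ≤ X.length → D.Wo (X.take x) →
      x = w ∨ x = t ∨ x = X.length := by
    by_cases hex : ∃ w, D.z ≤ w + D.p0 + D.N1 ∧ w < D.z ∧ D.Wo (X.take w)
    · obtain ⟨w, hw1, hw2, hw3⟩ := hex
      refine ⟨w, fun x hx hx' hxw => ?_⟩
      by_cases hxz : x < D.z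
      · left
        have key : ∀ a b : ℕ, a < b → b < D.z → D.z ≤ a + D.p0 + D.N1 → D.Wo (X.take a) →
            D.Wo (X.take b) → False := by
          intro a b hab hb ha hwa hwb
          have hbl : (X.take b).length = b := by rw [List.length_take]; omega
          refine D.gap (X.take b) (b - a) hwb (by omega) (by omega) ?_
          rw [hbl, List.take_take, min_eq_left (by omega)]
          have e : b - (b - a) = a := by omega
          rw [e]; exact hwa
        rcases lt_trichotomy x w with hlt | heq | hgt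
        · exact (key x w hlt hw2 hx hxw hw3).elim
        · exact heq
        · exact (key w x hgt hxz hw1 hw3 hxw).elim
      · right
        by_contra hne
        push Not at hne
        exact h5 x (by omega) (by omega) hne.1 hxw
    · refine ⟨0, fun x hx hx' hxw => ?_⟩
      right
      by_cases hxz : x < D.z
      · exact (hex ⟨x, hx, hxz, hxw⟩).elim
      · by_contra hne
        push Not at hne
        exact h5 x (by omega) (by omega) hne.1 hxw
  -- for one wall
  have hone : ∀ x : ℕ, ∃ E : Finset (ℕ × ℕ), E.card ≤ 1 + D.C0 ∧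
      ∀ i j, i < D.K → j < D.K → i ≠ j →
        ((x + D.c j ≤ D.z + D.c i + D.N1 ∧ D.z + D.c i ≤ x + D.c j + D.N1) ∨
          (2 * D.p0 ≤ x ∧ D.Bad (x - D.p0 + D.c j - D.c i))) → (i, j) ∈ E := by
    intro x
    obtain ⟨e, he⟩ : ∃ e : ℕ × ℕ, ∀ i j, i < D.K → j < D.K → i ≠ j →
        (x + D.c j ≤ D.z + D.c i + D.N1 ∧ D.z + D.c i ≤ x + D.c j + D.N1) → (i, j) = e := by
      by_cases hex : ∃ i j, i < D.K ∧ j < D.K ∧ i ≠ j ∧
        (x + D.c j ≤ D.z + D.c i + D.N1 ∧ D.z + D.c i ≤ x + D.c j + D.N1)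
      · obtain ⟨i, j, hi, hj, hij, hc1, hc2⟩ := hex
        refine ⟨(i, j), fun i' j' hi' hj' hij' hc' => ?_⟩
        by_contra hne
        have hne' : i' ≠ i ∨ j' ≠ j := by
          by_contra hcon
          push Not at hcon
          exact hne (by rw [hcon.1, hcon.2])
        have := D.gol i' j' i j hi' hj' hi hj hij' hij hne'
        omega
      · refine ⟨(0, 0), fun i' j' hi' hj' hij' hc' => ?_⟩
        exact (hex ⟨i', j', hi', hj', hij', hc'⟩).elim
    by_cases hx : 2 * D.p0 ≤ x
    · obtain ⟨E, hE1, hE2⟩ := D.thin (x - D.p0) (by omega)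
      refine ⟨insert e E, (Finset.card_insert_le _ _).trans (by omega), ?_⟩
      rintro i j hi hj hij (h | h)
      · rw [he i j hi hj hij h]; exact Finset.mem_insert_self _ _
      · exact Finset.mem_insert_of_mem (hE2 i j hi hj hij h.2)
    · refine ⟨{e}, by rw [Finset.card_singleton]; omega, ?_⟩
      rintro i j hi hj hij (h | h)
      · rw [he i j hi hj hij h]; exact Finset.mem_singleton_self _
      · exact (hx h.1).elim
  obtain ⟨E1, hE1, hE1'⟩ := hone w
  obtain ⟨E2, hE2, hE2'⟩ := hone t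
  obtain ⟨E3, hE3, hE3'⟩ := hone X.length
  let E : Finset (ℕ × ℕ) := E1 ∪ (E2 ∪ E3)
  have hEc : E.card ≤ 3 * (1 + D.C0) := by
    refine (Finset.card_union_le _ _).trans ?_
    have := Finset.card_union_le E2 E3
    omega
  -- spoiled
  have hsp : ∀ k j, k < D.K → j < D.K → j ≠ k → ¬ D.Good (D.c j) (X.drop (D.c k)) → (k, j) ∈ E := by
    intro k j hk hj hjk hng
    have hck := D.hcp k hk
    have hcj := D.hcp j hj
    set Q := X.drop (D.c k) with hQ
    have hQl : Q.length = X.length - D.c k := by rw [hQ, List.length_drop]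
    have hPl : (X.take (D.c k)).length = D.c k := by rw [List.length_take]; omega
    have hXs : X = X.take (D.c k) ++ Q := (List.take_append_drop _ _).symm
    have htk : ∀ i, D.n ≤ i → i ≤ Q.length → (D.Wo (Q.take i) ↔ D.Wo (X.take (D.c k + i))) := by
      intro i hi hi'
      have := D.wo_shift (P := X.take (D.c k)) (Q := Q) hi hi'
      rw [← hXs, hPl] at this
      exact this.symm
    have hex : ∃ i, D.z ≤ i + D.c j ∧ i ≤ Q.length ∧ D.Wo (Q.take i) := by
      refine ⟨Q.length, by omega, le_rfl, ?_⟩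
      rw [htk _ (by omega) le_rfl]
      have e : D.c k + Q.length = X.length := by omega
      rw [e, List.take_length]
      exact h4
    obtain ⟨g1, g2, g3⟩ := Nat.find_spec hex
    set τ := Nat.find hex with hτ
    have hF : D.First (D.c j) τ Q := by
      refine ⟨g1, g2, g3, fun i hi hit hwi => ?_⟩
      exact Nat.find_min hex hit ⟨hi, by omega, hwi⟩
    have hxw : D.Wo (X.take (D.c k + τ)) := (htk τ (by omega) g2).1 g3
    have hin : ∀ x, D.z ≤ x + D.p0 + D.N1 → x ≤ X.length → D.Wo (X.take x) →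
        ((x + D.c j ≤ D.z + D.c k + D.N1 ∧ D.z + D.c k ≤ x + D.c j + D.N1) ∨
          (2 * D.p0 ≤ x ∧ D.Bad (x - D.p0 + D.c j - D.c k))) → (k, j) ∈ E := by
      intro x hx1 hx2 hx3 hx4
      rcases hw x hx1 hx2 hx3 with rfl | rfl | rfl
      · exact Finset.mem_union_left _ (hE1' k j hk hj hjk.symm hx4)
      · exact Finset.mem_union_right _ (Finset.mem_union_left _ (hE2' k j hk hj hjk.symm hx4))
      · exact Finset.mem_union_right _ (Finset.mem_union_right _ (hE3' k j hk hj hjk.symm hx4))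
    by_cases ha : D.z + D.N1 ≤ τ + D.c j
    · by_cases hb : ∀ i, D.z ≤ i + D.c j + D.N1 → i + D.c j < D.z → ¬ D.Wo (Q.take i)
      · by_cases hc : D.Bad (τ + D.c j - D.p0)
        · refine hin (D.c k + τ) (by omega) (by omega) hxw (Or.inr ⟨by omega, ?_⟩)
          have e : D.c k + τ - D.p0 + D.c j - D.c k = τ + D.c j - D.p0 := by omega
          rw [e]; exact hc
        · exact (hng ⟨τ, hF, ha, hb, hc⟩).elim
      · push Not at hb
        obtain ⟨i, hi1, hi2, hi3⟩ := hb
        refine hin (D.c k + i) (by omega) (by omega) ?_ (Or.inl ⟨by omega, by omega⟩)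
        exact (htk i (by omega) (by omega)).1 hi3
    · exact hin (D.c k + τ) (by omega) (by omega) hxw (Or.inl ⟨by omega, by omega⟩)
  by_contra hcon
  push Not at hcon
  have hsub : I ⊆ E.image Prod.fst := by
    intro k hk
    obtain ⟨j, hj, hjk, hng⟩ := hcon k hk
    exact Finset.mem_image.2 ⟨(k, j), hsp k j (hIK k hk) hj hjk hng, rfl⟩
  have h6 := Finset.card_le_card hsub
  have h7 := Finset.card_image_le (s := E) (f := Prod.fst)
  have h8 := D.hR
  omega

theorem complete_two {X : List α} (hX : X ∈ D.XB) (v : V) :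
    ∃ P Q b, X = P ++ Q ∧ D.LL2 P v ∧ D.RR2 Q b := by
  obtain ⟨⟨t, hB⟩, hnG⟩ := hX
  have hz := D.hz
  have hX0 : (X.take D.p0).length = D.p0 := by
    have := hB.1
    have := hB.2.1
    rw [List.length_take]; omega
  obtain ⟨I, hI, hIp⟩ := D.comp2 (X.take D.p0) v hX0
  obtain ⟨k, hkI, hk⟩ := D.card_lt hB I hI (fun k hk => (hIp k hk).1)
  obtain ⟨hkK, hlam, hrho⟩ := hIp k hkI
  obtain ⟨b', hb'⟩ := Option.isSome_iff_exists.1 hrho
  have hck := D.hcp k hkK
  obtain ⟨h1, h2, h3, h4, h5⟩ := hB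
  have hPl : (X.take (D.c k)).length = D.c k := by rw [List.length_take]; omega
  set Q := X.drop (D.c k) with hQ
  have hQl : Q.length = X.length - D.c k := by rw [hQ, List.length_drop]
  have hXs : X = X.take (D.c k) ++ Q := (List.take_append_drop _ _).symm
  have htk : ∀ i, D.n ≤ i → i ≤ Q.length → (D.Wo (Q.take i) ↔ D.Wo (X.take (D.c k + i))) := by
    intro i hi hi'
    have := D.wo_shift (P := X.take (D.c k)) (Q := Q) hi hi'
    rw [← hXs, hPl] at this
    exact this.symm
  refine ⟨X.take (D.c k), Q, _, hXs, ⟨k, hkK, hPl, ?_⟩, k, hkK, t - D.c k, ⟨by omega, by omega, ?_,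
    ?_, ?_⟩, ?_, hk, b', ?_, rfl⟩
  · rw [List.take_take, min_eq_left hck] at hlam
    exact hlam
  · rw [htk _ (by omega) (by omega)]
    have e : D.c k + (t - D.c k) = t := by omega
    rw [e]; exact h3
  · have := htk Q.length (by omega) le_rfl
    rw [List.take_length] at this
    rw [this]
    have e : D.c k + Q.length = X.length := by omega
    rw [e, List.take_length]
    exact h4
  · intro i hi hi' hne
    rw [htk _ (by omega) (by omega)]
    exact h5 _ (by omega) (by omega) (by omega)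
  · intro hg
    apply hnG
    rw [hXs]
    refine Good.shift D (by omega) ?_
    rw [hPl]; exact hg
  · have e : (X.take D.p0).drop (D.c k) = Q.take (D.p0 - D.c k) := by
      rw [hQ, List.drop_take]
    rw [← e]; exact hb'

/-! ### the schemes -/

/-- scheme 1 -/
def S1 : Scheme D.rule D.ruleB where
  LL := D.LL1
  RL Q d b := 0 < d ∧ d ≤ Q.length ∧ D.RR1 (Q.take d) b
  Dead := (⊥ : Language α)
  sub := by
    rintro Q ⟨l, F⟩ h
    obtain ⟨h1, h2, h3⟩ := (nxOf_iff D.codeXB D.T).1 h
    exact (nxOf_iff D.codeXX D.T).2 ⟨h1, h2.1, h3⟩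
  LLn := fun P v _ => Nat.zero_le _
  RLpos := by
    rintro Q d b ⟨h1, h2, _⟩
    omega
  RLext := by
    rintro Q s d b ⟨h1, h2, h3⟩
    refine ⟨h1, by rw [List.length_append]; omega, ?_⟩
    rw [List.take_append_of_le_length h2]; exact h3
  RLcut := by
    rintro Q s d b ⟨h1, h2, h3⟩ hl
    have hl' : d ≤ Q.length := hl
    rw [List.take_append_of_le_length hl'] at h3
    exact ⟨h1, hl', h3⟩
  Dext := fun Q s h => h.elim
  Dnone := fun Q h => h.elim
  exact := by
    rintro P v Q d b hL ⟨h1, h2, h3⟩ _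
    obtain ⟨h4, h5⟩ := D.exact_one hL h3
    refine ⟨D.T (P ++ Q.take d), ?_, h5⟩
    have e : (P ++ Q).take (P.length + d) = P ++ Q.take d := List.take_length_add_append ..
    refine (nxOf_iff D.codeXX D.T).2 ⟨by rw [List.length_append]; omega, ?_, ?_⟩
    · rw [e]; exact h4
    · rw [e]
  complete := by
    intro Q l F h
    obtain ⟨h1, h2, h3⟩ := (nxOf_iff D.codeXX D.T).1 h
    by_cases hg : D.Good 0 (Q.take l)
    · right
      intro v
      obtain ⟨P, Q', b, e, hL, hR⟩ := D.complete_one h2 hg v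
      have hQ'pos : 0 < Q'.length := by
        obtain ⟨t, _, ht, _⟩ := hR
        omega
      refine ⟨P, Q' ++ Q.drop l, Q'.length, b, ?_, hL, hQ'pos, ?_, ?_⟩
      · rw [← List.append_assoc, ← e, List.take_append_drop]
      · rw [List.length_append]; omega
      · rw [List.take_left]; exact hR
    · left
      exact (nxOf_iff D.codeXB D.T).2 ⟨h1, ⟨h2, hg⟩, h3⟩

/-- scheme 2 -/
def S2 : Scheme D.ruleB (emptyRule α V 0) where
  LL := D.LL2
  RL Q d b := 0 < d ∧ d ≤ Q.length ∧ D.RR2 (Q.take d) b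
  Dead := {Q | D.Good 0 Q}
  sub := by
    intro Q x h
    exact absurd h (by simp [emptyRule])
  LLn := fun P v _ => Nat.zero_le _
  RLpos := by
    rintro Q d b ⟨h1, h2, _⟩
    omega
  RLext := by
    rintro Q s d b ⟨h1, h2, h3⟩
    refine ⟨h1, by rw [List.length_append]; omega, ?_⟩
    rw [List.take_append_of_le_length h2]; exact h3
  RLcut := by
    rintro Q s d b ⟨h1, h2, h3⟩ hl
    have hl' : d ≤ Q.length := hl
    rw [List.take_append_of_le_length hl'] at h3
    exact ⟨h1, hl', h3⟩
  Dext := fun Q s h => Good.ext D h s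
  Dnone := by
    intro Q h
    refine (nxOf_none D.T).2 fun l hl hx => ?_
    exact D.good_not_XB h hl hx
  exact := by
    rintro P v Q d b hL ⟨h1, h2, h3⟩ hD
    obtain ⟨h4, h5⟩ := D.exact_two h2 hL h3 hD
    refine ⟨D.T (P ++ Q.take d), ?_, h5⟩
    have e : (P ++ Q).take (P.length + d) = P ++ Q.take d := List.take_length_add_append ..
    refine (nxOf_iff D.codeXB D.T).2 ⟨by rw [List.length_append]; omega, ?_, ?_⟩
    · rw [e]; exact h4
    · rw [e]
  complete := by
    intro Q l F h
    obtain ⟨h1, h2, h3⟩ := (nxOf_iff D.codeXB D.T).1 h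
    right
    intro v
    obtain ⟨P, Q', b, e, hL, hR⟩ := D.complete_two h2 v
    have hQ'pos : 0 < Q'.length := by
      obtain ⟨k, _, t, hB, _⟩ := hR
      have := hB.2.1
      omega
    refine ⟨P, Q' ++ Q.drop l, Q'.length, b, ?_, hL, hQ'pos, ?_, ?_⟩
    · rw [← List.append_assoc, ← e, List.take_append_drop]
    · rw [List.length_append]; omega
    · rw [List.take_left]; exact hR

theorem run_affine (hone : ∀ v, D.act v 1 = v) {y Q : List α} {F : V → V}
    (h : Run D.rule y F Q) : ∃ c, ∀ v, F v = D.act v (pr D.f y) + c := by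
  induction h with
  | nil Q => exact ⟨0, fun v => by simp [pr, hone]⟩
  | @cons u y Q g F h1 _ ih =>
    obtain ⟨c, hc⟩ := ih
    obtain ⟨h2, h3, h4⟩ := (nxOf_iff D.codeXX D.T).1 h1
    rw [List.take_left] at h3 h4
    have hz := D.hz
    obtain ⟨t, hB⟩ := h3
    have ht := D.tt_eq (hB.first D)
    have hb1 := hB.1
    have hb2 := hB.2.1
    have hu : u = u.take D.p0 ++ ((u.take t).drop D.p0 ++ u.drop t) := by
      have e1 : u = u.take t ++ u.drop t := (List.take_append_drop _ _).symm
      have e2 : u.take t = (u.take t).take D.p0 ++ (u.take t).drop D.p0 :=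
        (List.take_append_drop _ _).symm
      have e3 : (u.take t).take D.p0 = u.take D.p0 := by
        rw [List.take_take, min_eq_left (by omega)]
      rw [e3] at e2
      calc u = u.take t ++ u.drop t := e1
        _ = (u.take D.p0 ++ (u.take t).drop D.p0) ++ u.drop t := by rw [← e2]
        _ = _ := by rw [List.append_assoc]
    have hp : pr D.f u = pr D.f (u.take D.p0) * (pr D.f ((u.take t).drop D.p0) *
        pr D.f (u.drop t)) := by
      conv_lhs => rw [hu]
      rw [pr_append, pr_append]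
    refine ⟨D.act (D.act (D.act (D.nu2 (u.take D.p0)) (pr D.f ((u.take t).drop D.p0)) +
      D.nu1 ((u.take t).drop D.p0)) (pr D.f (u.drop t))) (pr D.f y) + c, fun v => ?_⟩
    show F (g v) = _
    rw [hc, h4]
    unfold T
    rw [ht, pr_append, hp]
    simp only [D.hadd, D.hmul]
    abel

/-- **the two-scheme theorem for this instance** -/
theorem main [Finite α] [Finite V] [Finite M] (hone : ∀ v, D.act v 1 = v) (σ : (V → V) → M)
    (hσ : ∀ s c, σ (fun v => D.act v s + c) = s)
    (hLL2 : ∀ v, HL 1 ({P | D.LL2 P v} : Language α))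
    (hRR2 : ∀ b, HL 1 ({Q | 0 < Q.length ∧ D.RR2 Q b} : Language α))
    (hD2 : HL 2 ({Q | D.Good 0 Q} : Language α))
    (hLL1 : ∀ v, HL 2 ({P | D.LL1 P v} : Language α))
    (hRR1 : ∀ b, HL 2 ({Q | 0 < Q.length ∧ D.RR1 Q b} : Language α))
    (hN : ∀ s, HL 3 ({Q | (∀ l ≤ Q.length, Q.take l ∉ D.XX) ∧ (Q.map D.f).prod = s} : Language α))
    (s : M) : HL 3 ({w | (w.map D.f).prod = s} : Language α) := by
  have hNe : Nonempty V := ⟨0⟩
  refine two_schemes (k := 1) D.f D.rule D.ruleB D.ruleB id ⟨rfl, ?_, ?_⟩ D.S1 D.S2 σ ?_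
    ?_ ?_ hD2 ?_ ?_ HL.bot ?_ s
  · intro Q l f2 h
    exact ⟨f2, h, fun F => rfl⟩
  · intro Q l f1 h
    exact ⟨f1, h⟩
  · intro y F Q h
    obtain ⟨c, hc⟩ := D.run_affine hone h
    have : F = fun v => D.act v (pr D.f y) + c := funext hc
    rw [this, hσ]
    rfl
  · intro v; exact hLL2 v
  · intro b x hx
    have hx' : x = [] := List.length_eq_zero_iff.1 hx
    subst hx'
    refine (hRR2 b).congr fun w => ?_
    show (0 < w.length ∧ w.length ≤ (w ++ []).length ∧ D.RR2 ((w ++ []).take w.length) b) ↔ _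
    rw [List.append_nil, List.take_length]
    exact ⟨fun h => ⟨h.1, h.2.2⟩, fun h => ⟨h.1, le_rfl, h.2⟩⟩
  · intro v; exact hLL1 v
  · intro b x hx
    have hx' : x = [] := List.length_eq_zero_iff.1 hx
    subst hx'
    refine (hRR1 b).congr fun w => ?_
    show (0 < w.length ∧ w.length ≤ (w ++ []).length ∧ D.RR1 ((w ++ []).take w.length) b) ↔ _
    rw [List.append_nil, List.take_length]
    exact ⟨fun h => ⟨h.1, h.2.2⟩, fun h => ⟨h.1, le_rfl, h.2⟩⟩
  · intro s
    refine (hN s).congr fun w => ?_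
    show (nxOf D.XX D.T w = none ∧ _) ↔ _
    rw [nxOf_none]
    exact Iff.rfl

end Dat

end Crest.Agent.R320.Fin_58
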