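import Crest.Agent.R320.JointSem_814
import Crest.Agent.R320.GridRuler_314

/-!
Row 320 (helper660): 814's spoil count `hspoil` from 314's ruler and the wall gaps.
-/

set_option autoImplicit false

namespace Crest.Agent.R320.Fin2_660

open Crest.Agent.R320 Crest.Agent.R320.GridRuler314

theorem pair_unique {X N a b c d : ℕ} (hX : 2 * N < X) (hab : a ≠ b) {y : ℤ}
    (h1 : |(xm X a - xm X b) - y| ≤ N) (h2 : |(xm X c - xm X d) - y| ≤ N) : a = c ∧ b = d := by
  have h3 : |(xm X a - xm X b) - (xm X c - xm X d)| ≤ 2 * N := by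
    rw [abs_le] at *
    constructor <;> linarith [h1.1, h1.2, h2.1, h2.2]
  rw [xm_diff] at h3
  by_contra hne
  have h4 : ((2 : ℤ) ^ a - 2 ^ b) - (2 ^ c - 2 ^ d) ≠ 0 := fun h => hne (coef_zero hab h)
  have h5 : 1 ≤ |((2 : ℤ) ^ a - 2 ^ b) - (2 ^ c - 2 ^ d)| := Int.one_le_abs h4
  rw [abs_mul, Nat.abs_cast] at h3
  have h6 : (2 * N : ℤ) < X := by exact_mod_cast hX
  nlinarith

theorem hspoil {α : Type} {Wo : List α → Prop} {n W z p0 N N0 K X m : ℕ} {Ms : Finset ℕ}
    {G cc : ℕ → ℕ} {A : ℕ → ℤ} {Bad : ℕ → Prop}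
    (hW : JointSem_814.Walls n W Wo)
    (hcp : ∀ k < K, 2 ^ k * X ≤ p0)
    (hWbig : 2 * p0 + 2 * N < W) (hX : 2 * N < X)
    (hBad : ∀ T : ℕ, N0 ≤ T → Bad T → BadT Ms m G cc A (T : ℤ))
    (hzN : p0 + N0 ≤ z) (hzn : p0 + N + n ≤ z)
    (hr : ∀ (T0 : ℤ), ∃ P : Finset (ℕ × ℕ), P.card ≤ Ms.card + m ∧
        ∀ a b, a < K → b < K → a ≠ b → BadT Ms m G cc A (T0 - (xm X a - xm X b)) →
          (a, b) ∈ P)
    {R : ℕ} (hR : 1 + 2 * (Ms.card + m) < R) (U : List α) :
    ∃ J : Finset ℕ, J.card < R ∧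
      ∀ k < K, JointSem_814.Spoiled Wo z p0 N K (fun a => 2 ^ a * X) Bad U k → k ∈ J := by
  classical
  have hx : ∀ a : ℕ, ((2 ^ a * X : ℕ) : ℤ) = xm X a := by
    intro a; unfold xm; push_cast; ring
  -- first kind
  obtain ⟨JA, hJA, hA⟩ : ∃ J : Finset ℕ, J.card ≤ 1 ∧ ∀ k < K, ∀ k' < K, k' ≠ k →
      ∀ s, s ≤ U.length → Wo (U.take s) → z + 2 ^ k * X ≤ s + 2 ^ k' * X + N →
        s + 2 ^ k' * X < z + N + 2 ^ k * X → k ∈ J := by
    by_cases h : ∃ k < K, ∃ k' < K, k' ≠ k ∧ ∃ s, s ≤ U.length ∧ Wo (U.take s) ∧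
        z + 2 ^ k * X ≤ s + 2 ^ k' * X + N ∧ s + 2 ^ k' * X < z + N + 2 ^ k * X
    · obtain ⟨k, hk, k', hk', hne, s, hs, hws, h1, h2⟩ := h
      refine ⟨{k}, by simp, ?_⟩
      intro l hl l' hl' hne' s' hs' hws' h1' h2'
      have c1 := hcp k hk
      have c2 := hcp k' hk'
      have c3 := hcp l hl
      have c4 := hcp l' hl'
      have hss : s = s' := by
        rcases lt_trichotomy s s' with h | h | h
        · exact (hW.gap U s s' h (by omega) hs' hws hws').elim
        · exact h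
        · exact (hW.gap U s' s h (by omega) hs hws' hws).elim
      subst hss
      have e1 : |(xm X k - xm X k') - ((s : ℤ) - z)| ≤ N := by
        rw [← hx, ← hx, abs_le]
        constructor <;> push_cast <;> zify at h1 h2 <;> linarith
      have e2 : |(xm X l - xm X l') - ((s : ℤ) - z)| ≤ N := by
        rw [← hx, ← hx, abs_le]
        constructor <;> push_cast <;> zify at h1' h2' <;> linarith
      have := (pair_unique hX (Ne.symm hne) e1 e2).1
      simp [this]
    · refine ⟨∅, by simp, ?_⟩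
      intro k hk k' hk' hne s hs hws h1 h2
      exact (h ⟨k, hk, k', hk', hne, s, hs, hws, h1, h2⟩).elim
  -- second kind: the block end is one of two walls
  obtain ⟨s1, s2, hB⟩ : ∃ s1 s2 : ℕ, ∀ k < K, ∀ k' < K, ∀ s, s ≤ U.length → Wo (U.take s) →
      z + 2 ^ k * X ≤ s + 2 ^ k' * X →
      (∀ t, t < s → Wo (U.take t) → t + 2 ^ k' * X < z + 2 ^ k * X) → s = s1 ∨ s = s2 := by
    by_cases h : ∃ t, z ≤ t + p0 ∧ t ≤ U.length ∧ Wo (U.take t)
    · set s1 := Nat.find h with hs1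
      obtain ⟨a1, a2, a3⟩ := Nat.find_spec h
      rw [← hs1] at a1 a2 a3
      by_cases h' : ∃ t, s1 < t ∧ t ≤ U.length ∧ Wo (U.take t)
      · set s2 := Nat.find h' with hs2
        obtain ⟨b1, b2, b3⟩ := Nat.find_spec h'
        rw [← hs2] at b1 b2 b3
        refine ⟨s1, s2, ?_⟩
        intro k hk k' hk' s hs hws h1 h2
        have c1 := hcp k hk
        have c2 := hcp k' hk'
        have hle : s1 ≤ s := Nat.find_min' h ⟨by omega, hs, hws⟩
        rcases hle.eq_or_lt with e | e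
        · exact Or.inl e.symm
        · right
          have hle2 : s2 ≤ s := Nat.find_min' h' ⟨e, hs, hws⟩
          rcases hle2.eq_or_lt with e2 | e2
          · exact e2.symm
          · have h3 := h2 s2 e2 b3
            exact (hW.gap U s1 s2 b1 (by omega) b2 a3 b3).elim
      · refine ⟨s1, 0, ?_⟩
        intro k hk k' hk' s hs hws h1 h2
        have c1 := hcp k hk
        have c2 := hcp k' hk'
        have hle : s1 ≤ s := Nat.find_min' h ⟨by omega, hs, hws⟩
        rcases hle.eq_or_lt with e | e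
        · exact Or.inl e.symm
        · exact (h' ⟨s, e, hs, hws⟩).elim
    · refine ⟨0, 0, ?_⟩
      intro k hk k' hk' s hs hws h1 h2
      have c1 := hcp k hk
      have c2 := hcp k' hk'
      exact (h ⟨s, by omega, hs, hws⟩).elim
  obtain ⟨P1, hP1, hP1'⟩ := hr ((s1 : ℤ) - p0)
  obtain ⟨P2, hP2, hP2'⟩ := hr ((s2 : ℤ) - p0)
  refine ⟨JA ∪ (P1.image Prod.fst ∪ P2.image Prod.fst), ?_, ?_⟩
  · have h1 := Finset.card_union_le JA (P1.image Prod.fst ∪ P2.image Prod.fst)
    have h2 := Finset.card_union_le (P1.image Prod.fst) (P2.image Prod.fst)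
    have h3 : (P1.image Prod.fst).card ≤ P1.card := Finset.card_image_le
    have h4 : (P2.image Prod.fst).card ≤ P2.card := Finset.card_image_le
    omega
  · intro k hk hsp
    obtain ⟨k', hk', hne, hh⟩ := hsp
    rcases hh with ⟨s, hs, hws, h1, h2⟩ | ⟨s, hs, hws, h1, h2, h3⟩
    · exact Finset.mem_union_left _ (hA k hk k' hk' hne s hs hws h1 h2)
    · have h1' : z + 2 ^ k * X ≤ s + 2 ^ k' * X := h1
      have c1 := hcp k hk
      have c2 := hcp k' hk'
      have h4 := hBad _ (by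
        show N0 ≤ s + 2 ^ k' * X - 2 ^ k * X - p0
        omega) h3
      have e : ((s + 2 ^ k' * X - 2 ^ k * X - p0 : ℕ) : ℤ) =
          ((s : ℤ) - p0) - (xm X k - xm X k') := by
        rw [← hx, ← hx]
        omega
      rw [e] at h4
      rcases hB k hk k' hk' s hs hws h1' h2 with rfl | rfl
      · have := hP1' k k' hk hk' (Ne.symm hne) h4
        exact Finset.mem_union_right _ (Finset.mem_union_left _
          (Finset.mem_image.2 ⟨_, this, rfl⟩))
      · have := hP2' k k' hk hk' (Ne.symm hne) h4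
        exact Finset.mem_union_right _ (Finset.mem_union_right _
          (Finset.mem_image.2 ⟨_, this, rfl⟩))

end Crest.Agent.R320.Fin2_660
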