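import Crest.Agent.R320.Names_570
import Crest.Agent.R320.RandF_808

/-!
Row 320, helper19: 693's grid gadget (post 13203) on words: scheme 1 without small walls, all
contents, all totals.
-/

set_option autoImplicit false
set_option linter.unusedSectionVars false

namespace Crest.Agent.R320.GridG_19

open Finset

/-! ### grid geometry -/

/-- start of the range of boundary `k` (`G` grid sizes, `M` name period, `A0` start). -/
def Am (G : ℕ → ℕ) (M A0 : ℕ) : ℕ → ℕ
  | 0 => A0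
  | k + 1 => Am G M A0 k + G k + M * G k

/-- start of the cell of level `k` -/
def Ac (G : ℕ → ℕ) (M A0 k : ℕ) : ℕ := Am G M A0 k + G k

theorem Am_succ (G : ℕ → ℕ) (M A0 k : ℕ) : Am G M A0 (k + 1) = Ac G M A0 k + M * G k := rfl

theorem Am_mono (G : ℕ → ℕ) (M A0 : ℕ) {i j : ℕ} (h : i ≤ j) : Am G M A0 i ≤ Am G M A0 j := by
  induction h with
  | refl => exact le_rfl
  | step _ ih => rw [Am_succ]; unfold Ac; omega

/-- boundary `k` of a zone of length `T` -/
def bt (G : ℕ → ℕ) (M A0 k T : ℕ) : ℕ := Am G M A0 k + (T - Am G M A0 k) % G k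

/-- distance of boundary `k` from the end, seen from the right at level `i`. -/
def dr (G : ℕ → ℕ) (M A0 i k o' : ℕ) : ℕ := G k * ((Ac G M A0 i + o' - Am G M A0 k) / G k)

section geom

variable {G : ℕ → ℕ} {M A0 : ℕ}

theorem bt_ge (k T : ℕ) : Am G M A0 k ≤ bt G M A0 k T := Nat.le_add_right _ _

theorem bt_lt (hG : ∀ k, 0 < G k) (k T : ℕ) : bt G M A0 k T < Ac G M A0 k := by
  unfold bt Ac
  have := Nat.mod_lt (T - Am G M A0 k) (hG k)
  omega

theorem bt_mono (hG : ∀ k, 0 < G k) (k T : ℕ) : bt G M A0 k T ≤ bt G M A0 (k + 1) T := by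
  have h1 := bt_lt (M := M) (A0 := A0) hG k T
  have h2 := bt_ge (G := G) (M := M) (A0 := A0) (k + 1) T
  rw [Am_succ] at h2
  omega

theorem bt_mono' (hG : ∀ k, 0 < G k) (T : ℕ) {i j : ℕ} (h : i ≤ j) :
    bt G M A0 i T ≤ bt G M A0 j T := by
  induction h with
  | refl => exact le_rfl
  | step _ ih => exact ih.trans (bt_mono hG _ _)

/-- the left side knows the boundaries up to its level. -/
theorem bt_left {k i o o' : ℕ} (hd : ∀ a b, a ≤ b → G a ∣ G b) (hki : k ≤ i)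
    (ho : Ac G M A0 i ≤ o) (ho' : G i ∣ o') : bt G M A0 k (o + o') = bt G M A0 k o := by
  unfold bt
  obtain ⟨t, ht⟩ := (hd k i hki).trans ho'
  have h1 := Am_mono G M A0 hki
  have h2 : Am G M A0 k ≤ o := by unfold Ac at ho; omega
  have h3 : o + o' - Am G M A0 k = (o - Am G M A0 k) + G k * t := by omega
  rw [h3, Nat.add_mul_mod_self_left]

/-- the right side knows the boundaries beyond its level. -/
theorem bt_right {k i o o' : ℕ} (_hG : ∀ k, 0 < G k) (hki : i < k)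
    (ho : Ac G M A0 i ≤ o) (ho2 : o < Ac G M A0 i + M * G i) (ho' : Am G M A0 k ≤ o')
    (hleg : (Ac G M A0 i + M * G i + o' - Am G M A0 k) / G k =
      (Ac G M A0 i + o' - Am G M A0 k) / G k) :
    bt G M A0 k (o + o') + dr G M A0 i k o' = o + o' ∧ dr G M A0 i k o' ≤ o' ∧
      o ≤ bt G M A0 k (o + o') := by
  have h1 : Am G M A0 (i + 1) ≤ Am G M A0 k := Am_mono G M A0 hki
  rw [Am_succ] at h1
  have h2 : (o + o' - Am G M A0 k) / G k = (Ac G M A0 i + o' - Am G M A0 k) / G k := by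
    apply le_antisymm
    · rw [← hleg]
      exact Nat.div_le_div_right (by omega)
    · exact Nat.div_le_div_right (by omega)
  have h3 : bt G M A0 k (o + o') + dr G M A0 i k o' = o + o' := by
    unfold bt dr
    rw [← h2]
    have := Nat.mod_add_div (o + o' - Am G M A0 k) (G k)
    omega
  have h4 := bt_ge (G := G) (M := M) (A0 := A0) k (o + o')
  refine ⟨h3, by omega, by omega⟩

end geom

/-! ### words -/

section words

variable {α : Type*}

/-- the factor `[a, b)`. -/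
def seg (Y : List α) (a b : ℕ) : List α := (Y.drop a).take (b - a)

theorem seg_left {P Q : List α} {a b : ℕ} (hab : a ≤ b) (hb : b ≤ P.length) :
    seg (P ++ Q) a b = seg P a b := by
  unfold seg
  rw [List.drop_append_of_le_length (by omega),
    List.take_append_of_le_length (by rw [List.length_drop]; omega)]

theorem drop_app {P Q : List α} {s : ℕ} : (P ++ Q).drop (P.length + s) = Q.drop s := by
  simp [List.drop_append]

theorem seg_right {P Q : List α} {a b : ℕ} :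
    seg (P ++ Q) (P.length + a) (P.length + b) = seg Q a b := by
  unfold seg
  rw [show (P ++ Q).drop (P.length + a) = Q.drop a by simp [List.drop_append],
    Nat.add_sub_add_left]

theorem seg_split {Y : List α} {a b : ℕ} (hab : a ≤ b) :
    Y.take a ++ seg Y a b ++ Y.drop b = Y := by
  have : Y.drop b = (Y.drop a).drop (b - a) := by
    rw [List.drop_drop]; congr 1; omega
  unfold seg
  rw [this, List.append_assoc, List.take_append_drop, List.take_append_drop]

end words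

/-! ### the gadget -/

/-- contexts -/
abbrev Ctx (m : ℕ) (S W V : Type*) := Fin m × S × W × S × W × V

/-- The data of the gadget. -/
structure Dat (α S V W : Type*) where
  φ : List α → S
  act : V → S → V
  m : ℕ
  e : ℕ → S → W
  F : S → W → V
  G : ℕ → ℕ
  M : ℕ
  A0 : ℕ
  LN : ℕ → Option (Ctx m S W V)
  RN : ℕ → Option (Ctx m S W V)

variable {α S V W : Type*} [Monoid S] [AddCommGroup V] [AddCommGroup W] (D : Dat α S V W)

/-- end value of a name. -/
def Dat.bb (c : Ctx D.m S W V) : V :=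
  D.F (c.2.1 * 1 * c.2.2.2.1) (c.2.2.1 + D.e c.1 1 + c.2.2.2.2.1) +
    D.act c.2.2.2.2.2 (c.2.1 * 1 * c.2.2.2.1)

/-- good names. -/
def Dat.ok (c : Ctx D.m S W V) : Prop :=
  ∀ z, D.F (c.2.1 * z * c.2.2.2.1) (c.2.2.1 + D.e c.1 z + c.2.2.2.2.1) +
    D.act c.2.2.2.2.2 (c.2.1 * z * c.2.2.2.1) = D.bb c

/-- boundary -/
def Dat.b (k T : ℕ) : ℕ := bt D.G D.M D.A0 k T

/-- cell start -/
def Dat.A (k : ℕ) : ℕ := Ac D.G D.M D.A0 k

/-- weight of a zone. -/
def Dat.ww (Y : List α) : W :=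
  ∑ k ∈ range D.m, D.e k (D.φ (seg Y (D.b k Y.length) (D.b (k + 1) Y.length)))

/-- left legality for a name. -/
def Dat.LL (c : Ctx D.m S W V) (P : List α) : Prop :=
  D.LN P.length = some c ∧ D.ok c ∧ D.A c.1 ≤ P.length ∧ P.length < D.A c.1 + D.M * D.G c.1 ∧
  c.2.1 = D.φ (P.take (D.b c.1 P.length)) ∧
  c.2.2.1 = ∑ k ∈ range (c.1 : ℕ), D.e k (D.φ (seg P (D.b k P.length) (D.b (k + 1) P.length)))

/-- position of boundary `k` in the right word -/
def Dat.q (i k : ℕ) (Q : List α) : ℕ := Q.length - dr D.G D.M D.A0 i k Q.length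

/-- right legality for a name. -/
def Dat.RR (c : Ctx D.m S W V) (Q : List α) : Prop :=
  D.RN Q.length = some c ∧ D.ok c ∧ D.G c.1 ∣ Q.length ∧ Am D.G D.M D.A0 D.m ≤ Q.length ∧
  (∀ k, (c.1 : ℕ) < k → k ≤ D.m →
    (Ac D.G D.M D.A0 c.1 + D.M * D.G c.1 + Q.length - Am D.G D.M D.A0 k) / D.G k =
      (Ac D.G D.M D.A0 c.1 + Q.length - Am D.G D.M D.A0 k) / D.G k) ∧
  c.2.2.2.1 = D.φ (Q.drop (D.q c.1 (c.1 + 1) Q)) ∧
  c.2.2.2.2.1 = ∑ k ∈ Ico ((c.1 : ℕ) + 1) D.m,
    D.e k (D.φ (seg Q (D.q c.1 k Q) (D.q c.1 (k + 1) Q)))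

/-- The geometric hypotheses. -/
structure Geo (D : Dat α S V W) : Prop where
  hφ : ∀ u v, D.φ (u ++ v) = D.φ u * D.φ v
  hG : ∀ k, 0 < D.G k
  hd : ∀ a b, a ≤ b → D.G a ∣ D.G b

variable {D}

theorem b_right (hD : Geo D) {P Q : List α} {c : Ctx D.m S W V} (h1 : D.A c.1 ≤ P.length)
    (h2 : P.length < D.A c.1 + D.M * D.G c.1) (hR : D.RR c Q) {k : ℕ} (hk : (c.1 : ℕ) < k)
    (hkm : k ≤ D.m) :
    D.b k (P ++ Q).length = P.length + D.q c.1 k Q ∧ P.length ≤ D.b k (P ++ Q).length := by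
  obtain ⟨-, -, -, h3, h4, -⟩ := hR
  have h5 := Am_mono D.G D.M D.A0 hkm
  obtain ⟨h6, h7, h8⟩ := bt_right (G := D.G) (M := D.M) (A0 := D.A0) hD.hG hk h1 h2
    (by omega : Am D.G D.M D.A0 k ≤ Q.length) (h4 k hk hkm)
  rw [List.length_append]
  unfold Dat.b Dat.q
  constructor
  · omega
  · exact h8

/-- reading a matched junction. -/
theorem read (hD : Geo D) {P Q : List α} {c : Ctx D.m S W V} (hL : D.LL c P) (hR : D.RR c Q) :
    ∃ z, D.φ (P ++ Q) = c.2.1 * z * c.2.2.2.1 ∧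
      D.ww (P ++ Q) = c.2.2.1 + D.e c.1 z + c.2.2.2.2.1 := by
  obtain ⟨-, -, h1, h2, hg, hwl⟩ := hL
  have hR0 := hR
  obtain ⟨-, -, hG, hlen, hleg, hh, hwr⟩ := hR
  have hi : (c.1 : ℕ) < D.m := c.1.2
  have hbl : ∀ k, k ≤ (c.1 : ℕ) → D.b k (P ++ Q).length = D.b k P.length := by
    intro k hk
    rw [List.length_append]
    exact bt_left hD.hd hk h1 hG
  have hbP : ∀ k, k ≤ (c.1 : ℕ) → D.b k P.length ≤ P.length := by
    intro k hk
    have h3 := bt_mono' (G := D.G) (M := D.M) (A0 := D.A0) hD.hG P.length hk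
    have h4 := bt_lt (G := D.G) (M := D.M) (A0 := D.A0) hD.hG c.1 P.length
    show bt D.G D.M D.A0 k P.length ≤ _
    have h5 : Ac D.G D.M D.A0 c.1 ≤ P.length := h1
    omega
  have hm1 : D.b c.1 (P ++ Q).length ≤ D.b (c.1 + 1) (P ++ Q).length := bt_mono hD.hG _ _
  refine ⟨D.φ (seg (P ++ Q) (D.b c.1 (P ++ Q).length) (D.b (c.1 + 1) (P ++ Q).length)), ?_, ?_⟩
  · have h6 := seg_split (Y := P ++ Q) hm1
    conv_lhs => rw [← h6]
    rw [hD.hφ, hD.hφ, hg, hh]
    congr 1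
    · congr 1
      rw [hbl _ le_rfl, List.take_append_of_le_length (hbP _ le_rfl)]
    · rw [(b_right hD h1 h2 hR0 (Nat.lt_succ_self _) hi).1]
      rw [drop_app]
  · unfold Dat.ww
    rw [← Finset.sum_range_add_sum_Ico _ (show (c.1 : ℕ) + 1 ≤ D.m from hi),
      Finset.sum_range_succ, hwl, hwr]
    congr 1
    · congr 1
      refine Finset.sum_congr rfl fun k hk => ?_
      have hk' := Finset.mem_range.1 hk
      rw [hbl k hk'.le, hbl (k + 1) hk',
        seg_left (show D.b k P.length ≤ D.b (k + 1) P.length from bt_mono hD.hG _ _)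
          (hbP (k + 1) hk')]
    · refine Finset.sum_congr rfl fun k hk => ?_
      obtain ⟨hk1, hk2⟩ := Finset.mem_Ico.1 hk
      rw [(b_right hD h1 h2 hR0 (by omega : (c.1 : ℕ) < k) (by omega)).1,
        (b_right hD h1 h2 hR0 (by omega : (c.1 : ℕ) < k + 1) (by omega)).1, seg_right]


open Classical in
/-- left label. -/
noncomputable def Dat.Lf (D : Dat α S V W) (P : List α) : Option V :=
  if h : ∃ c, D.LL c P then some h.choose.2.2.2.2.2 else none

open Classical in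
/-- right label. -/
noncomputable def Dat.Rf (D : Dat α S V W) (Q : List α) : Option V :=
  if h : ∃ c, D.RR c Q then some (D.bb h.choose) else none

theorem Lf_some {P : List α} {v : V} (h : D.Lf P = some v) : ∃ c, D.LL c P ∧ c.2.2.2.2.2 = v := by
  classical
  unfold Dat.Lf at h
  split_ifs at h with h1
  · rw [Option.some.injEq] at h
    exact ⟨_, h1.choose_spec, h⟩

theorem Rf_some {Q : List α} {r : V} (h : D.Rf Q = some r) : ∃ c, D.RR c Q ∧ r = D.bb c := by
  classical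
  unfold Dat.Rf at h
  split_ifs at h with h1
  · rw [Option.some.injEq] at h
    exact ⟨_, h1.choose_spec, h.symm⟩

theorem Lf_of {P : List α} {c : Ctx D.m S W V} (h : D.LL c P) :
    D.Lf P = some c.2.2.2.2.2 := by
  classical
  have h1 : ∃ c, D.LL c P := ⟨c, h⟩
  unfold Dat.Lf
  rw [dif_pos h1]
  have h2 := h1.choose_spec.1
  rw [h.1, Option.some.injEq] at h2
  rw [← h2]

theorem Rf_of {Q : List α} {c : Ctx D.m S W V} (h : D.RR c Q) : (D.Rf Q).isSome := by
  classical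
  unfold Dat.Rf
  rw [dif_pos ⟨c, h⟩]
  rfl

/-- The name system. -/
structure Names (D : Dat α S V W) (good : ℕ → Prop) (v0 r0 : ℕ → V) : Prop where
  n1 : ∀ o o' c c', good (o + o') → D.LN o = some c → D.RN o' = some c' → c = c'
  n2 : ∀ T, good T → D.M ≤ T → ∀ c, ∃ t, t ≤ T ∧ D.LN t = some c ∧ D.RN (T - t) = some c
  n3 : ∀ o o' c c', ¬ good (o + o') → D.LN o = some c → D.RN o' = some c' →
    c.2.2.2.2.2 = v0 ((o + o') % D.M) ∧ D.bb c' = r0 ((o + o') % D.M)
  pL : ∀ t, D.LN (t + D.M) = D.LN t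
  pR : ∀ t, D.RN (t + D.M) = D.RN t
  gp : ∀ T T', T ≡ T' [MOD D.M] → (good T ↔ good T')
  M0 : 0 < D.M
  cop : ∀ k, Nat.Coprime D.M (D.G k)

theorem per {β : Type*} {M : ℕ} {f : ℕ → β} (h : ∀ t, f (t + M) = f t) {a b : ℕ}
    (hab : a ≡ b [MOD M]) : f a = f b := by
  have h1 : ∀ k t, f (t + k * M) = f t := by
    intro k
    induction k with
    | zero => intro t; simp
    | succ k ih => intro t; rw [Nat.succ_mul, ← add_assoc, h, ih]
  have h2 : ∀ t, f t = f (t % M) := by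
    intro t
    conv_lhs => rw [← Nat.mod_add_div t M, mul_comm]
    exact h1 _ _
  rw [h2 a, h2 b, hab]

theorem exists_in_interval (A n k : ℕ) (hn : 0 < n) : ∃ o, A ≤ o ∧ o < A + n ∧ o ≡ k [MOD n] := by
  refine ⟨A + (k + (n - A % n)) % n, Nat.le_add_right _ _, ?_, ?_⟩
  · have := Nat.mod_lt (k + (n - A % n)) hn
    omega
  · have h1 : A + (k + (n - A % n)) % n ≡ A + (k + (n - A % n)) [MOD n] :=
      Nat.ModEq.add_left _ (Nat.mod_modEq _ _)
    refine h1.trans ?_
    have h2 := Nat.mod_add_div A n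
    have h3 := Nat.mod_lt A hn
    have h4 : A + (k + (n - A % n)) = k + n * (A / n + 1) := by
      rw [mul_add, mul_one]; omega
    rw [h4]
    exact (Nat.modEq_iff_dvd' (Nat.le_add_right _ _)).2 (by simp) |>.symm

/-- bad totals -/
def BadG (G : ℕ → ℕ) (M A0 m : ℕ) (T : ℕ) : Prop :=
  ∃ k, k < m ∧ ((T - Am G M A0 (k + 1)) % G (k + 1) < M * G k ∨
    G (k + 1) ≤ (T - Am G M A0 (k + 1)) % G (k + 1) + M * G k)

/-- the noise. -/
noncomputable def Dat.nu (D : Dat α S V W) (good : ℕ → Prop) (v0 r0 : ℕ → V) (Y : List α) : V :=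
  open Classical in
  if good Y.length then D.F (D.φ Y) (D.ww Y) else
    r0 (Y.length % D.M) - D.act (v0 (Y.length % D.M)) (D.φ Y)

theorem sound {good : ℕ → Prop} {v0 r0 : ℕ → V} (hD : Geo D) (hN : Names D good v0 r0)
    {P Q : List α} {v r : V} (hP : D.Lf P = some v) (hQ : D.Rf Q = some r) :
    r = D.act v (D.φ (P ++ Q)) + D.nu good v0 r0 (P ++ Q) := by
  classical
  obtain ⟨c, hL, hv⟩ := Lf_some hP
  obtain ⟨c', hR, hr⟩ := Rf_some hQ
  have hlen : (P ++ Q).length = P.length + Q.length := List.length_append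
  unfold Dat.nu
  by_cases hg : good (P ++ Q).length
  · rw [if_pos hg]
    have hcc := hN.n1 _ _ _ _ (by rw [← hlen]; exact hg) hL.1 hR.1
    subst hcc
    obtain ⟨z, h1, h2⟩ := read hD hL hR
    have h3 := hL.2.1 z
    rw [← h1, ← h2, hv] at h3
    rw [hr, ← h3, add_comm]
  · rw [if_neg hg]
    obtain ⟨h1, h2⟩ := hN.n3 _ _ _ _ (by rw [← hlen]; exact hg) hL.1 hR.1
    rw [hr, h2, ← hlen, ← hv, h1, ← hlen]
    abel

theorem complete {good : ℕ → Prop} {v0 r0 : ℕ → V} (hD : Geo D) (hN : Names D good v0 r0)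
    (hF : ∀ s w v, ∃ i < D.m, ∀ g x h, g * x * h = s → ∀ z,
      D.F (g * z * h) (w - D.e i x + D.e i z) + D.act v (g * z * h) = D.F s w + D.act v s)
    (Y : List α) (hY : 2 * Am D.G D.M D.A0 D.m ≤ Y.length) (hMY : D.M ≤ Y.length)
    (hg : good Y.length) (hB : ¬ BadG D.G D.M D.A0 D.m Y.length) (v : V) :
    ∃ P Q, P ++ Q = Y ∧ D.Lf P = some v ∧ (D.Rf Q).isSome := by
  classical
  set T := Y.length with hT
  obtain ⟨i, him, hi⟩ := hF (D.φ Y) (D.ww Y) v
  have hm1 : D.b i T ≤ D.b (i + 1) T := bt_mono hD.hG _ _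
  set g := D.φ (Y.take (D.b i T)) with hgdef
  set z0 := D.φ (seg Y (D.b i T) (D.b (i + 1) T)) with hz0
  set h := D.φ (Y.drop (D.b (i + 1) T)) with hhdef
  set wl := ∑ k ∈ range i, D.e k (D.φ (seg Y (D.b k T) (D.b (k + 1) T))) with hwldef
  set wr := ∑ k ∈ Ico (i + 1) D.m, D.e k (D.φ (seg Y (D.b k T) (D.b (k + 1) T))) with hwrdef
  have hprod : D.φ Y = g * z0 * h := by
    have h6 := seg_split (Y := Y) hm1
    conv_lhs => rw [← h6]
    rw [hD.hφ, hD.hφ]
  have hww : D.ww Y = wl + D.e i z0 + wr := by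
    unfold Dat.ww
    rw [← Finset.sum_range_add_sum_Ico _ (show i + 1 ≤ D.m from him), Finset.sum_range_succ]
  -- the context
  let c : Ctx D.m S W V := (⟨i, him⟩, g, wl, h, wr, v)
  have hz : ∀ z, D.F (g * z * h) (wl + D.e i z + wr) + D.act v (g * z * h) =
      D.F (D.φ Y) (D.ww Y) + D.act v (D.φ Y) := by
    intro z
    rw [← hi g z0 h hprod.symm z, hww]
    congr 2
    abel
  have hok : D.ok c := fun z => (hz z).trans (hz 1).symm
  -- the place
  obtain ⟨t0, ht0, hl0, hr0⟩ := hN.n2 T hg hMY c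
  obtain ⟨x, hx1, hx2⟩ := Nat.chineseRemainder (hN.cop i) t0 T
  obtain ⟨o, ho1, ho2, ho3⟩ := exists_in_interval (D.A i) (D.M * D.G i) x
    (Nat.mul_pos hN.M0 (hD.hG i))
  have hoM : o ≡ t0 [MOD D.M] := (ho3.of_dvd (Dvd.intro _ rfl)).trans hx1
  have hoG : o ≡ T [MOD D.G i] := (ho3.of_dvd (Dvd.intro_left _ rfl)).trans hx2
  have hmon : Am D.G D.M D.A0 (i + 1) ≤ Am D.G D.M D.A0 D.m := Am_mono _ _ _ him
  have hom : o < Am D.G D.M D.A0 (i + 1) := by
    rw [Am_succ]; exact ho2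
  have hoT : o ≤ T := by omega
  have hGd : D.G i ∣ T - o := (Nat.modEq_iff_dvd' hoT).1 hoG
  set P := Y.take o with hP
  set Q := Y.drop o with hQ
  have hPQ : P ++ Q = Y := List.take_append_drop _ _
  have hPl : P.length = o := by rw [hP, List.length_take]; omega
  have hQl : Q.length = T - o := by rw [hQ, List.length_drop]
  have hLN : D.LN o = some c := by rw [per hN.pL hoM]; exact hl0
  have hRN : D.RN (T - o) = some c := by
    have h1 : T - o ≡ T - t0 [MOD D.M] := by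
      have h2 : (T - o) + o ≡ (T - t0) + o [MOD D.M] := by
        rw [Nat.sub_add_cancel hoT]
        have h3 : (T - t0) + t0 ≡ (T - t0) + o [MOD D.M] := Nat.ModEq.add_left _ hoM.symm
        rw [Nat.sub_add_cancel ht0] at h3
        exact h3
      exact Nat.ModEq.add_right_cancel' _ h2
    rw [per hN.pR h1]; exact hr0
  -- grid condition
  have hleg : ∀ k, i < k → k ≤ D.m →
      (Ac D.G D.M D.A0 i + D.M * D.G i + (T - o) - Am D.G D.M D.A0 k) / D.G k =
      (Ac D.G D.M D.A0 i + (T - o) - Am D.G D.M D.A0 k) / D.G k := by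
    intro k hk hkm
    obtain ⟨k', rfl⟩ : ∃ k', k = k' + 1 := ⟨k - 1, by omega⟩
    have h1 : ¬ ((T - Am D.G D.M D.A0 (k' + 1)) % D.G (k' + 1) < D.M * D.G k' ∨
        D.G (k' + 1) ≤ (T - Am D.G D.M D.A0 (k' + 1)) % D.G (k' + 1) + D.M * D.G k') :=
      fun h => hB ⟨k', by omega, h⟩
    push Not at h1
    obtain ⟨h1, h2⟩ := h1
    have h3 : D.M * D.G i ≤ D.M * D.G k' :=
      Nat.mul_le_mul_left _ (Nat.le_of_dvd (hD.hG _) (hD.hd _ _ (by omega)))
    have h4 := Am_mono D.G D.M D.A0 hkm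
    have h5 := Nat.mod_add_div (T - Am D.G D.M D.A0 (k' + 1)) (D.G (k' + 1))
    set a := (T - Am D.G D.M D.A0 (k' + 1)) % D.G (k' + 1) with ha
    set q := (T - Am D.G D.M D.A0 (k' + 1)) / D.G (k' + 1) with hq
    have ho1' : Ac D.G D.M D.A0 i ≤ o := ho1
    have ho2' : o < Ac D.G D.M D.A0 i + D.M * D.G i := ho2
    have e1 : (Ac D.G D.M D.A0 i + D.M * D.G i + (T - o) - Am D.G D.M D.A0 (k' + 1)) /
        D.G (k' + 1) = q := by
      rw [Nat.div_eq_iff (hD.hG _)]
      rw [mul_comm (D.G (k' + 1)) q] at h5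
      constructor
      · omega
      · have := hD.hG (k' + 1)
        omega
    have e2 : (Ac D.G D.M D.A0 i + (T - o) - Am D.G D.M D.A0 (k' + 1)) / D.G (k' + 1) = q := by
      rw [Nat.div_eq_iff (hD.hG _)]
      rw [mul_comm (D.G (k' + 1)) q] at h5
      constructor
      · omega
      · have := hD.hG (k' + 1)
        omega
    rw [e1, e2]
  have hAo : Ac D.G D.M D.A0 i ≤ o := ho1
  have hbl : ∀ k, k ≤ i → D.b k T = D.b k P.length := by
    intro k hk
    have h1 := bt_left (A0 := D.A0) (M := D.M) hD.hd hk hAo hGd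
    rw [Nat.add_sub_cancel' hoT] at h1
    rw [hPl]
    exact h1
  have hbP : ∀ k, k ≤ i → D.b k P.length ≤ P.length := by
    intro k hk
    have h3 := bt_mono' (G := D.G) (M := D.M) (A0 := D.A0) hD.hG P.length hk
    have h4 := bt_lt (G := D.G) (M := D.M) (A0 := D.A0) hD.hG i P.length
    show bt D.G D.M D.A0 k P.length ≤ _
    omega
  have hbr : ∀ k, i < k → k ≤ D.m → D.b k T = P.length + D.q i k Q := by
    intro k hk hkm
    have h5 := Am_mono D.G D.M D.A0 hkm
    obtain ⟨h6, h7, h8⟩ := bt_right (G := D.G) (M := D.M) (A0 := D.A0) (o' := T - o) hD.hG hk ho1 ho2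
      (by omega) (hleg k hk hkm)
    rw [Nat.add_sub_cancel' hoT] at h6
    unfold Dat.b Dat.q
    rw [hPl, hQl]
    omega
  refine ⟨P, Q, hPQ, ?_, ?_⟩
  · refine Lf_of (c := c) ⟨by rw [hPl]; exact hLN, hok, by rw [hPl]; exact ho1,
      by rw [hPl]; exact ho2, ?_, ?_⟩
    · show g = _
      rw [hgdef, hbl i le_rfl]
      show _ = D.φ (P.take (D.b i P.length))
      rw [hP, List.take_take, min_eq_left]
      have := hbP i le_rfl
      rw [hPl] at this
      rw [← hP, hPl]; exact this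
    · show wl = _
      rw [hwldef]
      refine Finset.sum_congr rfl fun k hk => ?_
      have hk' := Finset.mem_range.1 hk
      have e1 := seg_left (P := P) (Q := Q)
        (show D.b k P.length ≤ D.b (k + 1) P.length from bt_mono hD.hG _ _) (hbP (k + 1) hk')
      rw [hPQ] at e1
      rw [hbl k hk'.le, hbl (k + 1) hk', e1]
  · refine Rf_of (c := c) ⟨by rw [hQl]; exact hRN, hok, by rw [hQl]; exact hGd, by rw [hQl]; omega,
      by rw [hQl]; exact hleg, ?_, ?_⟩
    · show h = D.φ (Q.drop (D.q i (i + 1) Q))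
      rw [hhdef, hbr (i + 1) (Nat.lt_succ_self i) him, ← hPQ, drop_app]
    · show wr = _
      rw [hwrdef]
      refine Finset.sum_congr rfl fun k hk => ?_
      obtain ⟨hk1, hk2⟩ := Finset.mem_Ico.1 hk
      have hk1' : i + 1 ≤ k := hk1
      have hk2' : k < D.m := hk2
      have e1 := seg_right (P := P) (Q := Q) (a := D.q i k Q) (b := D.q i (k + 1) Q)
      rw [hPQ] at e1
      rw [hbr k (by omega) (by omega), hbr (k + 1) (by omega) (by omega), e1]

theorem Lf_len {P : List α} {v : V} (h : D.Lf P = some v) :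
    D.A0 ≤ P.length ∧ P.length < Am D.G D.M D.A0 D.m := by
  obtain ⟨c, hL, -⟩ := Lf_some h
  have h1 := Am_mono D.G D.M D.A0 (show (c.1 : ℕ) + 1 ≤ D.m from c.1.2)
  have h2 := Am_mono D.G D.M D.A0 (Nat.zero_le (c.1 : ℕ))
  have h3 := hL.2.2.1
  have h4 := hL.2.2.2.1
  unfold Dat.A Ac at h3 h4
  rw [Am_succ] at h1
  unfold Ac at h1
  constructor
  · have h5 : Am D.G D.M D.A0 0 = D.A0 := rfl
    omega
  · omega

theorem Rf_len {Q : List α} {r : V} (h : D.Rf Q = some r) :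
    Am D.G D.M D.A0 D.m ≤ Q.length := by
  obtain ⟨c, hR, -⟩ := Rf_some h
  exact hR.2.2.2.1

theorem nu_fin {good : ℕ → Prop} {v0 r0 : ℕ → V} (hD : Geo D) (hN : Names D good v0 r0)
    {Y Y' : List α} (h1 : Ac D.G D.M D.A0 D.m ≤ Y.length) (h2 : Ac D.G D.M D.A0 D.m ≤ Y'.length)
    (h3 : Y.take (Ac D.G D.M D.A0 D.m) = Y'.take (Ac D.G D.M D.A0 D.m))
    (h4 : Y.length ≡ Y'.length [MOD D.M * D.G D.m]) (h5 : D.φ Y = D.φ Y') :
    D.nu good v0 r0 Y = D.nu good v0 r0 Y' := by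
  classical
  have hM : Y.length ≡ Y'.length [MOD D.M] := h4.of_dvd (Dvd.intro _ rfl)
  have hbe : ∀ k, k ≤ D.m → D.b k Y.length = D.b k Y'.length := by
    intro k hk
    have h6 := Am_mono D.G D.M D.A0 hk
    have h7 : Y.length ≡ Y'.length [MOD D.G k] :=
      h4.of_dvd ((hD.hd k _ hk).trans (Dvd.intro_left _ rfl))
    unfold Dat.b bt
    congr 1
    unfold Ac at h1 h2
    have h8 : (Y.length - Am D.G D.M D.A0 k) + Am D.G D.M D.A0 k ≡
        (Y'.length - Am D.G D.M D.A0 k) + Am D.G D.M D.A0 k [MOD D.G k] := by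
      rw [Nat.sub_add_cancel (by omega), Nat.sub_add_cancel (by omega)]
      exact h7
    exact Nat.ModEq.add_right_cancel' _ h8
  have hw : D.ww Y = D.ww Y' := by
    unfold Dat.ww
    refine Finset.sum_congr rfl fun k hk => ?_
    have hk' := Finset.mem_range.1 hk
    rw [hbe k hk'.le, hbe (k + 1) hk']
    congr 2
    have h9 : D.b (k + 1) Y'.length ≤ Ac D.G D.M D.A0 D.m := by
      have h10 := bt_mono' (G := D.G) (M := D.M) (A0 := D.A0) hD.hG Y'.length
        (show k + 1 ≤ D.m from hk')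
      have h11 := bt_lt (G := D.G) (M := D.M) (A0 := D.A0) hD.hG D.m Y'.length
      show bt D.G D.M D.A0 (k + 1) Y'.length ≤ _
      omega
    have h12 : D.b k Y'.length ≤ D.b (k + 1) Y'.length := bt_mono hD.hG _ _
    have e : ∀ X : List α, Ac D.G D.M D.A0 D.m ≤ X.length →
        seg X (D.b k Y'.length) (D.b (k + 1) Y'.length) =
        seg (X.take (Ac D.G D.M D.A0 D.m)) (D.b k Y'.length) (D.b (k + 1) Y'.length) := by
      intro X hX
      have := seg_left (P := X.take (Ac D.G D.M D.A0 D.m)) (Q := X.drop (Ac D.G D.M D.A0 D.m))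
        h12 (by rw [List.length_take]; omega)
      rw [List.take_append_drop] at this
      exact this
    rw [e Y h1, e Y' h2, h3]
  unfold Dat.nu
  rw [hw, h5]
  have hgg : good Y.length ↔ good Y'.length := hN.gp _ _ hM
  have hmm : Y.length % D.M = Y'.length % D.M := hM
  by_cases hg : good Y.length
  · rw [if_pos hg, if_pos (hgg.1 hg)]
  · rw [if_neg hg, if_neg (fun h => hg (hgg.2 h)), hmm]

universe u

/-- **693's grid gadget.** -/
theorem grid (S V : Type) [Monoid S] [Finite S] [AddCommGroup V] [Finite V] (act : V → S → V) :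
    ∃ m r : ℕ, ∀ B : ℕ, ∃ Ms : Finset ℕ, Ms.card ≤ r ∧ (∀ q ∈ Ms, q.Prime ∧ B < q) ∧
      ∀ (G : ℕ → ℕ) (A0 : ℕ), (∀ k, 0 < G k) → (∀ a b, a ≤ b → G a ∣ G b) →
        (∀ k, Nat.Coprime (∏ q ∈ Ms, q) (G k)) →
        ∀ (α : Type u) (φ : List α → S), (∀ u v, φ (u ++ v) = φ u * φ v) →
        ∃ (lam rho : List α → Option V) (nu : List α → V),
          (∀ P Q v b, lam P = some v → rho Q = some b →
            b = act v (φ (P ++ Q)) + nu (P ++ Q)) ∧
          (∀ P v, lam P = some v → A0 ≤ P.length ∧ P.length < Am G (∏ q ∈ Ms, q) A0 m) ∧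
          (∀ Q b, rho Q = some b → Am G (∏ q ∈ Ms, q) A0 m ≤ Q.length) ∧
          (∀ Y : List α, 2 * Am G (∏ q ∈ Ms, q) A0 m ≤ Y.length → (∏ q ∈ Ms, q) ≤ Y.length →
            (∀ q ∈ Ms, ¬ q ∣ Y.length) → ¬ BadG G (∏ q ∈ Ms, q) A0 m Y.length →
            ∀ v, ∃ P Q, P ++ Q = Y ∧ lam P = some v ∧ (rho Q).isSome) ∧
          (∀ Y Y' : List α, Ac G (∏ q ∈ Ms, q) A0 m ≤ Y.length →
            Ac G (∏ q ∈ Ms, q) A0 m ≤ Y'.length →
            Y.take (Ac G (∏ q ∈ Ms, q) A0 m) = Y'.take (Ac G (∏ q ∈ Ms, q) A0 m) →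
            Y.length ≡ Y'.length [MOD (∏ q ∈ Ms, q) * G m] → φ Y = φ Y' → nu Y = nu Y') := by
  classical
  haveI := Fintype.ofFinite S
  haveI := Fintype.ofFinite V
  obtain ⟨m, N, e, F, hNpos, hF⟩ := RandF808.exists_noise S V act
  haveI : NeZero N := ⟨hNpos.ne'⟩
  let W := ZMod N × ZMod N
  let bbf : Ctx m S W V → V := fun c =>
    F (c.2.1 * 1 * c.2.2.2.1) (c.2.2.1 + e c.1 1 + c.2.2.2.2.1) +
      act c.2.2.2.2.2 (c.2.1 * 1 * c.2.2.2.1)
  let col : Ctx m S W V → V × V := fun c => (c.2.2.2.2.2, bbf c)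
  haveI : Finite (Ctx m S W V) := by unfold Ctx; infer_instance
  obtain ⟨r, hr⟩ := Names_570.exists_names col
  refine ⟨m, r, fun B => ?_⟩
  obtain ⟨Ms, nmL, nmR, hcard, hpr, hpL, hpR, hA, hB, hC⟩ := hr B
  refine ⟨Ms, hcard, hpr, fun G A0 hG hd hcop α φ hφ => ?_⟩
  have hM0 : 0 < ∏ q ∈ Ms, q := Finset.prod_pos fun q hq => (hpr q hq).1.pos
  let D : Dat α S V W := ⟨φ, act, m, e, F, G, ∏ q ∈ Ms, q, A0, nmL, nmR⟩
  let good : ℕ → Prop := fun T => ∀ q ∈ Ms, ¬ q ∣ T
  have hgp : ∀ T T', T ≡ T' [MOD ∏ q ∈ Ms, q] → (good T ↔ good T') := by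
    intro T T' h
    have h1 : ∀ q ∈ Ms, (q ∣ T ↔ q ∣ T') := fun q hq =>
      (h.of_dvd (Finset.dvd_prod_of_mem _ hq)).dvd_iff (dvd_refl q)
    exact ⟨fun h2 q hq h3 => h2 q hq ((h1 q hq).2 h3), fun h2 q hq h3 => h2 q hq ((h1 q hq).1 h3)⟩
  -- representatives of the values
  have hn3 : ∀ ρ : ℕ, ∃ v0 r0 : V, ∀ o o' c c', (o + o') % (∏ q ∈ Ms, q) = ρ → ¬ good (o + o') →
      nmL o = some c → nmR o' = some c' → c.2.2.2.2.2 = v0 ∧ bbf c' = r0 := by
    intro ρ
    by_cases hex : ∃ o o' c c', (o + o') % (∏ q ∈ Ms, q) = ρ ∧ ¬ good (o + o') ∧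
      nmL o = some c ∧ nmR o' = some c'
    · obtain ⟨o, o', c, c', h1, h2, h3, h4⟩ := hex
      refine ⟨c.2.2.2.2.2, bbf c', ?_⟩
      intro p p' d d' g1 g2 g3 g4
      -- shift both totals to a common one
      set M := ∏ q ∈ Ms, q with hM
      have key : ∀ x y : ℕ, ∃ y', y' ≡ y [MOD M] ∧ x % M + y' = (x + y) % M + M := by
        intro x y
        have hx := Nat.mod_lt x hM0
        refine ⟨(x + y) % M + M - x % M, ?_, by omega⟩
        have e1 : ((x + y) % M + M - x % M) + x % M ≡ y + x % M [MOD M] := by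
          rw [Nat.sub_add_cancel (by omega)]
          have e2 : (x + y) % M + M ≡ x + y [MOD M] := by
            have : (x + y) % M + M ≡ (x + y) % M + 0 [MOD M] :=
              Nat.ModEq.add_left _ ((Nat.modEq_zero_iff_dvd).2 dvd_rfl)
            rw [add_zero] at this
            exact this.trans (Nat.mod_modEq _ _)
          refine e2.trans ?_
          rw [add_comm x y]
          exact Nat.ModEq.add_left _ (Nat.mod_modEq _ _).symm
        exact Nat.ModEq.add_right_cancel' _ e1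
      obtain ⟨y1, a1, a2⟩ := key o o'
      obtain ⟨y2, b1, b2⟩ := key p p'
      rw [h1] at a2
      rw [g1] at b2
      have hL1 : nmL (o % M) = some c := by rw [← h3]; exact per hpL (Nat.mod_modEq _ _)
      have hL2 : nmL (p % M) = some d := by rw [← g3]; exact per hpL (Nat.mod_modEq _ _)
      have hR1 : nmR y1 = some c' := by rw [← h4]; exact per hpR a1
      have hR2 : nmR y2 = some d' := by rw [← g4]; exact per hpR b1
      have hng : ¬ good (o % M + y1) := by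
        intro h5
        apply h2
        refine (hgp _ _ ?_).1 h5
        exact Nat.ModEq.add (Nat.mod_modEq _ _) a1
      have hex2 : ∃ q ∈ Ms, q ∣ o % M + y1 := by
        by_contra h5
        push Not at h5
        exact hng h5
      rcases hC _ _ _ _ _ _ _ _ (a2.trans b2.symm) hex2 hL1 hR1 hL2 hR2 with ⟨e1, e2⟩ | ⟨e1, e2, e3⟩
      · rw [e1, e2]; exact ⟨rfl, rfl⟩
      · have e4 : c.2.2.2.2.2 = c'.2.2.2.2.2 ∧ bbf c = bbf c' := by
          have := e3
          simp only [col, Prod.mk.injEq] at this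
          exact this
        rw [← e1, ← e2]
        exact ⟨e4.1.symm, e4.2⟩
    · refine ⟨0, 0, ?_⟩
      intro o o' c c' h1 h2 h3 h4
      exact absurd ⟨o, o', c, c', h1, h2, h3, h4⟩ hex
  choose v0 r0 h0 using hn3
  have hDg : Geo D := ⟨hφ, hG, hd⟩
  have hDn : Names D good v0 r0 := by
    refine ⟨?_, ?_, ?_, hpL, hpR, hgp, hM0, hcop⟩
    · intro o o' c c' h1 h2 h3
      exact hA o o' c c' h1 h2 h3
    · intro T hT hMT c
      obtain ⟨t, -, -, h1, h2, h3⟩ := hB T c 0 hT (by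
        have : D.M = ∏ q ∈ Ms, q := rfl
        omega)
      exact ⟨t, h1, h2, h3⟩
    · intro o o' c c' h1 h2 h3
      exact h0 _ o o' c c' rfl h1 h2 h3
  refine ⟨D.Lf, D.Rf, D.nu good v0 r0, ?_, ?_, ?_, ?_, ?_⟩
  · intro P Q v b h1 h2
    exact sound hDg hDn h1 h2
  · intro P v h1
    exact Lf_len h1
  · intro Q b h1
    exact Rf_len h1
  · intro Y h1 h2 h3 h4 v
    exact complete hDg hDn hF Y h1 h2 h3 h4 v
  · intro Y Y' h1 h2 h3 h4 h5
    exact nu_fin hDg hDn h1 h2 h3 h4 h5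

end Crest.Agent.R320.GridG_19
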