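import Crest.Agent.R320.Fin1_676
import Crest.Agent.R320.Joint_47
import Crest.Agent.R320.SemTop_727
import Crest.Agent.R320.GridG_19
import Crest.Agent.R320.Thin_963

/-!
# Row 320, final assembly (helper676)
-/

set_option autoImplicit false

namespace Crest.Agent.R320.Fin2_676

open Crest.Agent.R320.Hk_851 Crest.Agent.R320.GridG_19 Crest.Agent.R320.ExactR_237

/-- growth of the grid -/
theorem grow (K M : ℕ) (i : ℕ) :
    2 ^ (K + 4) * ∑ j ∈ Finset.range (i + 1), (M * 2 ^ ((K + 5 + M) * j)) * 2 ≤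
      2 ^ ((K + 5 + M) * (i + 1)) := by
  have hM : M + 1 ≤ 2 ^ M := Nat.lt_two_pow_self
  have hκ : 2 ^ (K + 5) * M + 1 ≤ 2 ^ (K + 5 + M) := by
    rw [pow_add 2 (K + 5) M]
    have h1 : 1 ≤ 2 ^ (K + 5) := Nat.one_le_two_pow
    calc 2 ^ (K + 5) * M + 1 ≤ 2 ^ (K + 5) * M + 2 ^ (K + 5) := by omega
      _ = 2 ^ (K + 5) * (M + 1) := by ring
      _ ≤ 2 ^ (K + 5) * 2 ^ M := Nat.mul_le_mul_left _ hM
  have h25 : 2 ^ (K + 5) = 2 ^ (K + 4) * 2 := by rw [← pow_succ]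
  induction i with
  | zero =>
    simp only [zero_add, Finset.range_one, Finset.sum_singleton, mul_zero, pow_zero, mul_one]
    have : 2 ^ (K + 4) * (M * 2) = 2 ^ (K + 5) * M := by rw [h25]; ring
    omega
  | succ i ih =>
    rw [Finset.sum_range_succ, mul_add]
    have e1 : 2 ^ (K + 4) * (M * 2 ^ ((K + 5 + M) * (i + 1)) * 2) =
        2 ^ ((K + 5 + M) * (i + 1)) * (2 ^ (K + 5) * M) := by rw [h25]; ring
    rw [e1]
    calc _ ≤ 2 ^ ((K + 5 + M) * (i + 1)) + 2 ^ ((K + 5 + M) * (i + 1)) * (2 ^ (K + 5) * M) :=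
          Nat.add_le_add_right ih _
      _ = 2 ^ ((K + 5 + M) * (i + 1)) * (2 ^ (K + 5) * M + 1) := by ring
      _ ≤ 2 ^ ((K + 5 + M) * (i + 1)) * 2 ^ (K + 5 + M) := Nat.mul_le_mul_left _ hκ
      _ = 2 ^ ((K + 5 + M) * (i + 1 + 1)) := by rw [← pow_add]; congr 1

/-- the grid -/
def Gr (K M : ℕ) (j : ℕ) : ℕ := 2 ^ ((K + 5 + M) * j)

/-- bad totals -/
def BT (Ms : Finset ℕ) (K m T : ℕ) : Prop :=
  (∃ q ∈ Ms, q ∣ T) ∨ (Am (Gr K (∏ q ∈ Ms, q)) (∏ q ∈ Ms, q) 0 m ≤ T ∧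
    BadG (Gr K (∏ q ∈ Ms, q)) (∏ q ∈ Ms, q) 0 m T)

theorem bt_cast {Ms : Finset ℕ} {K m T : ℕ} (h : BT Ms K m T) :
    Thin963.BadT Ms m (fun j => (Gr K (∏ q ∈ Ms, q) j : ℤ))
      (fun j => ((∏ q ∈ Ms, q : ℕ) : ℤ) * (Gr K (∏ q ∈ Ms, q) j : ℤ))
      (fun j => (Am (Gr K (∏ q ∈ Ms, q)) (∏ q ∈ Ms, q) 0 j : ℤ)) (T : ℤ) := by
  set M := ∏ q ∈ Ms, q with hM
  rcases h with ⟨q, hq, hd⟩ | ⟨hA, k, hk, h⟩
  · exact Or.inl ⟨q, hq, by exact_mod_cast hd⟩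
  · right
    refine ⟨k, hk, ?_⟩
    have hA' : Am (Gr K M) M 0 (k + 1) ≤ T := (Am_mono _ _ _ hk).trans hA
    set D := T - Am (Gr K M) M 0 (k + 1) with hD
    have hTD : (T : ℤ) - (Am (Gr K M) M 0 (k + 1) : ℤ) = (D : ℤ) := by
      rw [hD]; omega
    have hG : 0 < Gr K M (k + 1) := by unfold Gr; positivity
    set g := Gr K M (k + 1) with hg
    have hdm := Nat.div_add_mod D g
    have hlt := Nat.mod_lt D hG
    have hdm' : (D : ℤ) = (g : ℤ) * ((D / g : ℕ) : ℤ) + ((D % g : ℕ) : ℤ) := by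
      exact_mod_cast hdm.symm
    rcases h with h | h
    · refine ⟨-((D % g : ℕ) : ℤ), ?_, ?_⟩
      · rw [abs_neg, abs_of_nonneg (by positivity)]
        have h' : D % g ≤ M * Gr K M k := h.le
        change ((D % g : ℕ) : ℤ) ≤ (M : ℤ) * (Gr K M k : ℤ)
        exact_mod_cast h'
      · change (g : ℤ) ∣ _
        rw [hTD]
        exact ⟨((D / g : ℕ) : ℤ), by linarith⟩
    · refine ⟨(g : ℤ) - ((D % g : ℕ) : ℤ), ?_, ?_⟩
      · rw [abs_of_nonneg (by omega)]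
        have h' : g ≤ D % g + M * Gr K M k := h
        have h'' : (g : ℤ) ≤ ((D % g : ℕ) : ℤ) + (M : ℤ) * (Gr K M k : ℤ) := by exact_mod_cast h'
        linarith
      · change (g : ℤ) ∣ _
        rw [hTD]
        exact ⟨((D / g : ℕ) : ℤ) + 1, by linarith⟩

/-- the ruler -/
theorem ruler (K m r : ℕ) (Ms : Finset ℕ) (hcard : Ms.card ≤ r)
    (hMs : ∀ q ∈ Ms, q.Prime ∧ 2 ^ (K + 1) < q) (N0 : ℕ) :
    ∃ x : ℕ, N0 ≤ x ∧ 0 < x ∧ ∀ T : ℕ, (∀ k, k < K → x * 2 ^ k ≤ T) → ∀ I : Finset ℕ,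
      (∀ k ∈ I, k < K ∧ ∃ k', k' < K ∧ k' ≠ k ∧ BT Ms K m (T + x * 2 ^ k' - x * 2 ^ k)) →
      I.card ≤ r + m := by
  classical
  set M := ∏ q ∈ Ms, q with hM
  have hM0 : 0 < M := Finset.prod_pos fun q hq => (hMs q hq).1.pos
  have hcop : ∀ q ∈ Ms, ∀ k, Nat.Coprime q (Gr K M k) := by
    intro q hq k
    refine Nat.Coprime.pow_right _ ((Nat.coprime_primes (hMs q hq).1 Nat.prime_two).2 ?_)
    have h1 := (hMs q hq).2
    have h2 : 2 ≤ 2 ^ (K + 1) := by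
      calc 2 = 2 ^ 1 := rfl
        _ ≤ 2 ^ (K + 1) := Nat.pow_le_pow_right (by norm_num) (by omega)
    omega
  have hG : ∀ k, 0 < Gr K M k := fun k => by unfold Gr; positivity
  obtain ⟨X, hX0, hXpos, hX⟩ := Thin963.thin K m Ms (fun j => (Gr K M j : ℤ))
    (fun j => (M : ℤ) * (Gr K M j : ℤ)) (fun j => (Am (Gr K M) M 0 j : ℤ))
    (fun q hq => ⟨(hMs q hq).1, (hMs q hq).2.le⟩)
    (fun q hq => Nat.isCoprime_iff_coprime.2 (hcop q hq m))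
    (by exact_mod_cast hG m)
    (fun i j hij => by
      have : Gr K M i ∣ Gr K M j := pow_dvd_pow 2 (Nat.mul_le_mul_left _ hij)
      exact_mod_cast this)
    (fun i => by have := hG i; positivity)
    (fun i => Dvd.intro_left _ rfl)
    (fun i _ => by
      have h1 := grow K M i
      have h2 : 2 ^ (K + 4) * ∑ j ∈ Finset.range (i + 1), (M * Gr K M j) ≤ Gr K M (i + 1) := by
        refine le_trans (Nat.mul_le_mul_left _ (Finset.sum_le_sum fun j _ => ?_)) h1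
        change M * 2 ^ ((K + 5 + M) * j) ≤ _
        omega
      exact_mod_cast h2) (N0 : ℤ)
  obtain ⟨x, rfl⟩ := Int.eq_ofNat_of_zero_le hXpos.le
  refine ⟨x, by exact_mod_cast hX0, by exact_mod_cast hXpos, fun T hT I hI => ?_⟩
  have hch : ∀ k : ℕ, ∃ k' : ℕ, k ∈ I → k' < K ∧ k' ≠ k ∧ BT Ms K m (T + x * 2 ^ k' - x * 2 ^ k) := by
    intro k
    by_cases hk : k ∈ I
    · obtain ⟨_, k', h1, h2, h3⟩ := hI k hk
      exact ⟨k', fun _ => ⟨h1, h2, h3⟩⟩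
    · exact ⟨0, fun h => absurd h hk⟩
  choose f hf using hch
  refine le_trans ?_ ((hX (T : ℤ)).trans (Nat.add_le_add_right hcard m))
  refine Finset.card_le_card_of_injOn (fun k => (f k, k)) (fun k hk => ?_)
    (fun a _ b _ h => (Prod.mk.injEq _ _ _ _ ▸ h).2)
  have hk' : k ∈ I := hk
  obtain ⟨h1, h2, h3⟩ := hf k hk'
  have h4 := (hI k hk').1
  have h5 := bt_cast h3
  have h6 := hT k h4
  simp only [Finset.coe_filter, Finset.mem_product, Finset.mem_range, Set.mem_ofPred_eq]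
  refine ⟨⟨h1, h4⟩, h2, ?_⟩
  have e : ((T + x * 2 ^ (f k) - x * 2 ^ k : ℕ) : ℤ) = (T : ℤ) + (x : ℤ) * 2 ^ (f k) - (x : ℤ) * 2 ^ k := by
    rw [Nat.cast_sub (by omega)]
    push_cast
    ring
  rw [e] at h5
  exact h5

end Crest.Agent.R320.Fin2_676
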