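import Crest.Agent.R320.Fin1_709
import Crest.Agent.R320.Grid_899
import Crest.Agent.R320.Thin_963
import Crest.Agent.R320.ExactR_237
import Crest.Agent.R320.LWallAll_922
import Crest.Agent.R320.Two_621

set_option autoImplicit false

/-! Row 320: the constants. -/

namespace Crest.Agent.R320.Fin_709

open Crest.Agent.R320.Hk_851 Crest.Agent.R320.Sc2n_937

theorem exists_primes (k B : ℕ) :
    ∃ q : Fin k → ℕ, Function.Injective q ∧ ∀ j, (q j).Prime ∧ B ≤ q j := by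
  have hinf : Set.Infinite {p : ℕ | p.Prime ∧ B ≤ p} := by
    apply Set.infinite_of_forall_exists_gt
    intro a
    obtain ⟨p, hp, hpr⟩ := Nat.exists_infinite_primes (max (a + 1) B)
    exact ⟨p, ⟨hpr, le_trans (le_max_right _ _) hp⟩, lt_of_lt_of_le (Nat.lt_succ_self a)
      (le_trans (le_max_left _ _) hp)⟩
  let e := hinf.natEmbedding
  refine ⟨fun j => (e j.1).1, ?_, fun j => (e j.1).2⟩
  intro i j h
  have h1 : e i.1 = e j.1 := Subtype.ext h
  exact Fin.ext (e.injective h1)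

theorem growth (K m Ms κ : ℕ) (h : 2 ^ (K + 4) * ((m + 1) * Ms) ≤ 2 ^ κ) (i : ℕ) (hi : i < m) :
    2 ^ (K + 4) * ∑ j ∈ Finset.range (i + 1), Ms * 2 ^ (κ * j) ≤ 2 ^ (κ * (i + 1)) := by
  have h1 : ∑ j ∈ Finset.range (i + 1), Ms * 2 ^ (κ * j) ≤ (i + 1) * (Ms * 2 ^ (κ * i)) := by
    refine (Finset.sum_le_card_nsmul _ _ (Ms * 2 ^ (κ * i)) ?_).trans ?_
    · intro j hj
      have : j ≤ i := by have := Finset.mem_range.1 hj; omega
      exact Nat.mul_le_mul_left _ (Nat.pow_le_pow_right (by norm_num) (Nat.mul_le_mul_left _ this))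
    · simp
  have h2 : 2 ^ (κ * (i + 1)) = 2 ^ κ * 2 ^ (κ * i) := by
    rw [← pow_add]; congr 1; ring
  rw [h2]
  calc 2 ^ (K + 4) * ∑ j ∈ Finset.range (i + 1), Ms * 2 ^ (κ * j)
      ≤ 2 ^ (K + 4) * ((i + 1) * (Ms * 2 ^ (κ * i))) := Nat.mul_le_mul_left _ h1
    _ = 2 ^ (K + 4) * ((i + 1) * Ms) * 2 ^ (κ * i) := by ring
    _ ≤ 2 ^ (K + 4) * ((m + 1) * Ms) * 2 ^ (κ * i) :=
        Nat.mul_le_mul_right _ (Nat.mul_le_mul_left _ (Nat.mul_le_mul_right _ (by omega)))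
    _ ≤ 2 ^ κ * 2 ^ (κ * i) := Nat.mul_le_mul_right _ h

theorem levels {G c a n : ℕ} (hG : 0 < G) (hn : a ≤ n)
    (h : ¬ ∃ e : ℤ, |e| ≤ (c : ℤ) ∧ (G : ℤ) ∣ (n : ℤ) - a + e) :
    c ≤ (n - a) % G ∧ (n - a) % G + c ≤ G := by
  set r := (n - a) % G with hr
  have hlt : r < G := Nat.mod_lt _ hG
  have e1 : (n : ℤ) - a = (G : ℤ) * ((n - a) / G : ℕ) + r := by
    have h1 := Nat.div_add_mod (n - a) G
    have h2 : ((n - a : ℕ) : ℤ) = (n : ℤ) - a := by push_cast [hn]; ring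
    rw [← h2, hr]
    exact_mod_cast h1.symm
  constructor
  · by_contra hc
    apply h
    refine ⟨-(r : ℤ), ?_, ?_⟩
    · rw [abs_neg, abs_of_nonneg (by positivity)]; push Not at hc; exact_mod_cast hc.le
    · rw [e1]; exact ⟨((n - a) / G : ℕ), by ring⟩
  · by_contra hc
    apply h
    refine ⟨(G : ℤ) - r, ?_, ?_⟩
    · rw [abs_of_nonneg (by have : (r : ℤ) < G := by exact_mod_cast hlt
                            linarith)]
      push Not at hc
      have : (G : ℤ) < r + c := by exact_mod_cast hc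
      linarith
    · rw [e1]; exact ⟨((n - a) / G : ℕ) + 1, by ring⟩

/-- **Row 320 on a small alphabet.** -/
theorem fin (α : Type) [Finite α] (S : Type) [Monoid S] [Finite S] (φ : α → S) (s : S) :
    HL 3 ({w | (w.map φ).prod = s} : Language α) := by
  classical
  have := Fintype.ofFinite S
  obtain ⟨k, m, H⟩ := Crest.Agent.R320.Grid_899.grid_gadget_reg S
    (Crest.Agent.R320.Two_621.Tok S) Crest.Agent.R320.Two_621.act
  obtain ⟨K, HK⟩ := Crest.Agent.R320.ExactR_237.exact_gadget α S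
    (Crest.Agent.R320.Two_621.Tok S) φ Crest.Agent.R320.Two_621.act (2 * (k + m) + 2)
  obtain ⟨q, hqi, hqp⟩ := exists_primes k (2 ^ (K + 1) + 3)
  have hodd : ∀ j, Odd (q j) := fun j => (hqp j).1.odd_of_ne_two (by
    have := (hqp j).2
    have h2 : 1 ≤ 2 ^ (K + 1) := Nat.one_le_two_pow
    omega)
  have hcop : Pairwise (fun i j => Nat.Coprime (q i) (q j)) := fun i j hij =>
    (Nat.coprime_primes (hqp i).1 (hqp j).1).2 fun h => hij (hqi h)
  set Ms : ℕ := ∏ j, q j with hMs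
  have hMpos : 0 < Ms := Finset.prod_pos fun j _ => (hqp j).1.pos
  set κ : ℕ := 2 ^ (K + 4) * ((m + 1) * Ms) with hκ
  have hκ2 : 2 ^ (K + 4) * ((m + 1) * Ms) ≤ 2 ^ κ := (Nat.lt_two_pow_self).le
  obtain ⟨lam, rho, nu, h1, h2, h3, h4, h5⟩ := H q hodd hcop κ α
    (fun w => (w.map φ).prod) (by intro u v; simp)
  let Gn : ℕ → ℕ := Crest.Agent.R320.Grid_899.G κ
  let An : ℕ → ℕ := Crest.Agent.R320.Grid_899.Am Ms κ
  have hGpos : ∀ i, 0 < Gn i := fun i => Crest.Agent.R320.Grid_899.G_pos i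
  have hGeq : ∀ i, Gn i = 2 ^ (κ * i) := fun i => rfl
  set N1 : ℕ := An (m + 1) + 1 with hN1
  obtain ⟨X, hX0, hXpos, hthin0⟩ := Crest.Agent.R320.Thin963.thin K m
    (Finset.univ.image q) (fun i => (Gn i : ℤ)) (fun i => ((Ms * Gn i : ℕ) : ℤ))
    (fun i => (An i : ℤ))
    (by
      intro p hp
      obtain ⟨j, -, rfl⟩ := Finset.mem_image.1 hp
      exact ⟨(hqp j).1, by have := (hqp j).2; omega⟩)
    (by
      intro p hp
      obtain ⟨j, -, rfl⟩ := Finset.mem_image.1 hp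
      apply Nat.isCoprime_iff_coprime.2
      rw [hGeq]
      exact Nat.Coprime.pow_right _ (Nat.coprime_two_right.2 (hodd j)))
    (by exact_mod_cast hGpos m)
    (by
      intro i j hij
      exact_mod_cast (pow_dvd_pow 2 (Nat.mul_le_mul_left κ hij) : 2 ^ (κ * i) ∣ 2 ^ (κ * j)))
    (by
      intro i
      exact_mod_cast Nat.mul_pos hMpos (hGpos i))
    (by
      intro i
      exact_mod_cast (Dvd.intro_left Ms rfl : Gn i ∣ Ms * Gn i))
    (by
      intro i hi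
      have := growth K m Ms κ hκ2 i hi
      exact_mod_cast this)
    ((2 * N1 + 1 : ℕ) : ℤ)
  obtain ⟨x, rfl⟩ : ∃ x : ℕ, X = (x : ℤ) := ⟨X.toNat, (Int.toNat_of_nonneg hXpos.le).symm⟩
  have hx0 : 2 * N1 + 1 ≤ x := by exact_mod_cast hX0
  have hcard : (Finset.univ.image q).card ≤ k := by
    refine Finset.card_image_le.trans ?_
    simp
  let c : ℕ → ℕ := fun j => x * 2 ^ j
  have hcmono : ∀ i j, i < j → c i < c j := fun i j hij =>
    Nat.mul_lt_mul_of_pos_left (Nat.pow_lt_pow_right (by norm_num) hij) (by omega)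
  obtain ⟨lam2, rho2, nu2, g1, g2⟩ := HK c fun i j hij _ => hcmono i j hij
  set p0 : ℕ := c K with hp0
  obtain ⟨n, Gw, B, Wo, hLW, hsepW, -, -, hfree⟩ :=
    Crest.Agent.R320.LWallAll_922.walls_all_left α (2 * p0 + 2 * N1 + 1) (by omega)
  let g : Geo α :=
    { Wo := Wo, n := n, z := p0 + N1 + (n + 2 * p0 + 2 * N1), p0 := p0,
      q0 := n + 2 * p0 + 2 * N1, N1 := N1, loc := hLW.app, hz := rfl, hq := by omega,
      hN := by omega, hqp := by omega }
  let BadT : ℕ → Prop := fun t => Crest.Agent.R320.Thin963.BadT (Finset.univ.image q) m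
    (fun i => (Gn i : ℤ)) (fun i => ((Ms * Gn i : ℕ) : ℤ)) (fun i => (An i : ℤ)) (t : ℤ)
  have hck : ∀ k, k < K → c k ≤ p0 := fun k hk => (hcmono k K hk).le
  refine join (S := S) (V := Crest.Agent.R320.Two_621.Tok S) Crest.Agent.R320.Two_621.act
    Crest.Agent.R320.Two_621.act_add Crest.Agent.R320.Two_621.act_one
    (fun v s t => (Crest.Agent.R320.Two_621.act_mul v s t).symm)
    (fun s t h => Crest.Agent.R320.Two_621.act_faithful h) φ g hLW.len
    (B0 := max B (2 * p0 + 2 * N1 + 1)) (R0 := 2) ?_ lam rho nu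
    (A := An (m + 1)) (Pm := Ms * Gn m) (Nat.mul_pos hMpos (hGpos m)) ?_ ?_ h3 BadT ?_ ?_
    lam2 (fun k Q => rho2 k Q 1) (fun X => nu2 X 1) (K := K) (C0 := k + m) c hck ?_ ?_ ?_ ?_ ?_ s
  · -- wall-free words
    intro u hu
    obtain ⟨a, b, d, j, ha, hb, hd, rfl⟩ := hfree u hu
    refine Language.mem_mul.2 ⟨a ++ (List.replicate j b).flatten, ⟨a, b, j, ?_, ?_, rfl⟩, d,
      Language.mem_mul.2 ⟨d, ⟨d, [], 0, ?_, ?_, ?_⟩, [], rfl, ?_⟩, ?_⟩
    · exact ha.trans (le_max_left _ _)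
    · exact hb.trans (le_max_right _ _)
    · exact hd.trans (le_max_left _ _)
    · simp
    · simp [Crest.Agent.R320.BddReg_746.pw]
    · simp
    · simp
  · intro P v hP
    have a1 : P.length < Crest.Agent.R320.Grid_899.Am Ms κ m := (h1 P v hP).1
    have a2 := Crest.Agent.R320.Grid_899.Am_succ_ge (Ms := Ms) (κ := κ) m
    show P.length ≤ An (m + 1) + 1
    show P.length ≤ Crest.Agent.R320.Grid_899.Am Ms κ (m + 1) + 1
    omega
  · intro Q Q' h
    exact h5 Q Q' h.1 h.2.1 h.2.2.1 h.2.2.2.2 h.2.2.2.1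
  · -- periodicity
    intro t
    have hd1 : ∀ j, (q j : ℤ) ∣ ((Ms * Gn m : ℕ) : ℤ) := fun j => by
      exact_mod_cast (Dvd.dvd.mul_right (Finset.dvd_prod_of_mem q (Finset.mem_univ j)) _)
    have hd2 : ∀ i, i < m → (Gn (i + 1) : ℤ) ∣ ((Ms * Gn m : ℕ) : ℤ) := fun i hi => by
      exact_mod_cast (Dvd.dvd.mul_left
        (pow_dvd_pow 2 (Nat.mul_le_mul_left κ (by omega : i + 1 ≤ m)) :
          2 ^ (κ * (i + 1)) ∣ 2 ^ (κ * m)) _)
    show Crest.Agent.R320.Thin963.BadT _ _ _ _ _ ((t + Ms * Gn m : ℕ) : ℤ) ↔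
      Crest.Agent.R320.Thin963.BadT _ _ _ _ _ (t : ℤ)
    unfold Crest.Agent.R320.Thin963.BadT
    rw [Nat.cast_add]
    constructor
    · rintro (⟨p, hp, h⟩ | ⟨i, hi, e, he, h⟩)
      · left
        obtain ⟨j, -, rfl⟩ := Finset.mem_image.1 hp
        exact ⟨q j, hp, (dvd_add_left (hd1 j)).1 h⟩
      · right
        refine ⟨i, hi, e, he, ?_⟩
        have h' := dvd_sub h (hd2 i hi)
        have e1 : (t : ℤ) + ((Ms * Gn m : ℕ) : ℤ) - (An (i + 1) : ℤ) + e -
          ((Ms * Gn m : ℕ) : ℤ) = (t : ℤ) - (An (i + 1) : ℤ) + e := by ring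
        rw [e1] at h'
        exact h'
    · rintro (⟨p, hp, h⟩ | ⟨i, hi, e, he, h⟩)
      · left
        obtain ⟨j, -, rfl⟩ := Finset.mem_image.1 hp
        exact ⟨q j, hp, (dvd_add_left (hd1 j)).2 h⟩
      · right
        refine ⟨i, hi, e, he, ?_⟩
        have h' := dvd_add h (hd2 i hi)
        have e1 : (t : ℤ) - (An (i + 1) : ℤ) + e + ((Ms * Gn m : ℕ) : ℤ) =
          (t : ℤ) + ((Ms * Gn m : ℕ) : ℤ) - (An (i + 1) : ℤ) + e := by ring
        rw [e1] at h'
        exact h'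
  · -- completeness of scheme 1
    intro u hu hbad v
    have hu' : p0 + N1 + (n + 2 * p0 + 2 * N1) ≤ u.length + p0 := hu
    have hul : 2 * An (m + 1) ≤ u.length := by omega
    refine h4 u hul ?_ ?_ v
    · intro j hj
      apply hbad
      left
      exact ⟨q j, Finset.mem_image_of_mem q (Finset.mem_univ j), by exact_mod_cast hj⟩
    · intro j hj1 hjm
      have hA := Crest.Agent.R320.Grid_899.Am_mono (Ms := Ms) (κ := κ) (i := j) (j := m + 1)
        (by omega)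
      have hA' : An j ≤ An (m + 1) := hA
      obtain ⟨i, rfl⟩ : ∃ i, j = i + 1 := ⟨j - 1, by omega⟩
      refine levels (G := Gn (i + 1)) (c := Ms * Gn i) (a := An (i + 1)) (hGpos (i + 1))
        (show An (i + 1) ≤ u.length by omega) ?_
      rintro ⟨e, he, hd⟩
      apply hbad
      right
      exact ⟨i, by omega, e, he, hd⟩
  · -- exactness of scheme 2
    intro k hk P Q v u hP _ hl hr
    have := g1 k hk P Q 1 v u hP hl hr
    rw [mul_one] at this
    exact this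
  · -- gap of the walls
    intro P Q hP hPQ hQ
    have hQl : 0 < Q.length := List.length_pos_iff.2 hQ
    have := hsepW (P ++ Q) P.length (P ++ Q).length (by simp; omega) le_rfl
      (by rw [List.take_left]; exact hP) (by rw [List.take_length]; exact hPQ)
    rw [List.length_append] at this
    show 2 * p0 + 2 * N1 < Q.length
    omega
  · -- the ruler
    intro a a' b b' _ _ _ _ haa hbb e1 e2
    have e1' : x * 2 ^ a + x * 2 ^ b' < x * 2 ^ b + x * 2 ^ a' + 2 * N1 := e1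
    have e2' : x * 2 ^ b + x * 2 ^ a' < x * 2 ^ a + x * 2 ^ b' + 2 * N1 := e2
    refine (Crest.Agent.R320.G369.pow_diff (i := a) (j := a') (i' := b) (j' := b')
      (Ne.symm haa) (Ne.symm hbb) ?_).1
    have f1 : (x : ℤ) * ((2 ^ a + 2 ^ b') - (2 ^ b + 2 ^ a')) < 2 * N1 := by
      have : ((x * 2 ^ a + x * 2 ^ b' : ℕ) : ℤ) < ((x * 2 ^ b + x * 2 ^ a' + 2 * N1 : ℕ) : ℤ) := by
        exact_mod_cast e1'
      push_cast at this
      linarith
    have f2 : (x : ℤ) * ((2 ^ b + 2 ^ a') - (2 ^ a + 2 ^ b')) < 2 * N1 := by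
      have : ((x * 2 ^ b + x * 2 ^ a' : ℕ) : ℤ) < ((x * 2 ^ a + x * 2 ^ b' + 2 * N1 : ℕ) : ℤ) := by
        exact_mod_cast e2'
      push_cast at this
      linarith
    have hx0' : (2 * (N1 : ℤ) + 1) ≤ x := by exact_mod_cast hx0
    have hxp : (0 : ℤ) < x := by exact_mod_cast (by omega : 0 < x)
    set D : ℤ := (2 ^ a + 2 ^ b') - (2 ^ b + 2 ^ a') with hD
    have hD0 : D = 0 := by
      rcases lt_trichotomy D 0 with h | h | h
      · exfalso
        have h' : 1 ≤ -D := by omega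
        have : (x : ℤ) * 1 ≤ x * (-D) := mul_le_mul_of_nonneg_left h' hxp.le
        have e3 : (x : ℤ) * (-D) = x * ((2 ^ b + 2 ^ a') - (2 ^ a + 2 ^ b')) := by rw [hD]; ring
        linarith
      · exact h
      · exfalso
        have h' : 1 ≤ D := by omega
        have : (x : ℤ) * 1 ≤ x * D := mul_le_mul_of_nonneg_left h' hxp.le
        linarith
    linarith
  · -- thin
    intro τ hτ J hJ
    have hτ' : p0 + N1 + (n + 2 * p0 + 2 * N1) ≤ τ + p0 := hτ
    refine le_trans ?_ ((hthin0 ((τ : ℤ) - p0)).trans (Nat.add_le_add_right hcard m))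
    refine le_trans (Finset.card_le_card ?_) (Finset.card_image_le (f := Prod.snd))
    intro a ha
    obtain ⟨haK, a', ha'K, hne, hb⟩ := hJ a ha
    have h1' := hck a haK
    have h2' := hck a' ha'K
    refine Finset.mem_image.2 ⟨(a', a), ?_, rfl⟩
    rw [Finset.mem_filter]
    refine ⟨Finset.mem_product.2 ⟨Finset.mem_range.2 ha'K, Finset.mem_range.2 haK⟩, hne, ?_⟩
    have e1 : ((τ + c a' - c a - p0 : ℕ) : ℤ) = (τ : ℤ) - p0 + x * 2 ^ a' - x * 2 ^ a := by
      have e2 : ((τ + c a' - c a - p0 : ℕ) : ℤ) = (τ : ℤ) + (c a' : ℤ) - (c a : ℤ) - (p0 : ℤ) := by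
        omega
      rw [e2]
      show (τ : ℤ) + ((x * 2 ^ a' : ℕ) : ℤ) - ((x * 2 ^ a : ℕ) : ℤ) - (p0 : ℤ) = _
      push_cast
      ring
    show Crest.Agent.R320.Thin963.BadT _ _ _ _ _ ((τ : ℤ) - p0 + x * 2 ^ a' - x * 2 ^ a)
    rw [← e1]
    exact hb
  · intro u v hu
    obtain ⟨I, hI1, hI2⟩ := g2 u 1 v fun k hk => by rw [hu]; exact hck k hk
    exact ⟨I, hI1, hI2⟩

end Crest.Agent.R320.Fin_709
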