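import Mathlib
import Crest.Agent.R320.Names_755
import Crest.Agent.R320.Exact_136

/-!
# Row 320: scheme-1 gadget for words of all lengths (helper852)

Levels = positional digits of the total length, names = CRT names (755), noise = random function (136).
-/

set_option autoImplicit false

namespace Crest.Agent.R320.G1_852

open Finset

/-- product of a word -/
def pr {α S : Type*} [Monoid S] (f : α → S) (l : List α) : S := (l.map f).prod

theorem pr_append {α S : Type*} [Monoid S] (f : α → S) (p q : List α) :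
    pr f (p ++ q) = pr f p * pr f q := by simp [pr]

/-- letters `[a, c)` -/
def seg {α : Type*} (X : List α) (a c : ℕ) : List α := (X.drop a).take (c - a)

theorem mod_low {b i j o o' : ℕ} (hj : j ≤ i) (h : b ^ i ∣ o') :
    (o + o') % b ^ j = o % b ^ j := by
  obtain ⟨u, rfl⟩ := (pow_dvd_pow b hj).trans h
  simp [Nat.add_mul_mod_self_left]

theorem mod_high {b i j o o' : ℕ} (hb : 0 < b) (hj : i < j) (h : b ^ i ∣ o')
    (h1 : 2 * (o / b ^ i) < b) (h2 : 2 * (o' / b ^ i % b) < b) :
    (o + o') % b ^ j = o + o' % b ^ j := by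
  obtain ⟨u, rfl⟩ := h
  have hbi : 0 < b ^ i := by positivity
  rw [Nat.mul_div_cancel_left _ hbi] at h2
  obtain ⟨d, rfl⟩ : ∃ d, j = i + (d + 1) := ⟨j - i - 1, by omega⟩
  have e1 : b ^ (i + (d + 1)) = b ^ i * b ^ (d + 1) := pow_add _ _ _
  have e2 : b ^ i * u % b ^ (i + (d + 1)) = b ^ i * (u % b ^ (d + 1)) := by
    rw [e1, Nat.mul_mod_mul_left]
  have e3 : u % b ^ (d + 1) % b = u % b := Nat.mod_mod_of_dvd _ (by
    rw [pow_succ]; exact Dvd.intro_left _ rfl)
  set x := u % b ^ (d + 1) with hx
  have hxlt : x < b ^ (d + 1) := Nat.mod_lt _ (by positivity)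
  have hx1 : b * (x / b) + u % b = x := by rw [← e3]; exact Nat.div_add_mod x b
  have hx2 : x / b < b ^ d := by
    rw [Nat.div_lt_iff_lt_mul hb, ← pow_succ]; exact hxlt
  have hx3 : x + b ≤ b ^ (d + 1) + u % b := by
    have : b * (x / b + 1) ≤ b * b ^ d := Nat.mul_le_mul_left _ hx2
    rw [pow_succ, mul_comm (b ^ d) b]
    nlinarith
  have ho : o < b ^ i * (o / b ^ i + 1) := by
    have := Nat.lt_mul_div_succ o hbi
    simpa using this
  have hlt : o + b ^ i * x < b ^ (i + (d + 1)) := by
    rw [e1]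
    have h4 : o / b ^ i + 1 + x ≤ b ^ (d + 1) := by omega
    have h5 : b ^ i * (o / b ^ i + 1 + x) ≤ b ^ i * b ^ (d + 1) := Nat.mul_le_mul_left _ h4
    nlinarith
  rw [Nat.add_mod, e2]
  have : o % b ^ (i + (d + 1)) = o := Nat.mod_eq_of_lt (by omega)
  rw [this]
  exact Nat.mod_eq_of_lt hlt

theorem seg_left {α : Type*} {P Q : List α} {a c : ℕ} (h : c ≤ P.length) :
    seg (P ++ Q) a c = seg P a c := by
  unfold seg
  by_cases hac : a ≤ c
  · rw [List.drop_append_of_le_length (by omega), List.take_append_of_le_length (by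
      simp; omega)]
  · have : c - a = 0 := by omega
    simp [this]

theorem seg_right {α : Type*} {P Q : List α} {a c : ℕ} :
    seg (P ++ Q) (P.length + a) (P.length + c) = seg Q a c := by
  unfold seg
  rw [List.drop_append, show P.length + c - (P.length + a) = c - a by omega,
    List.drop_eq_nil_of_le (by omega)]
  simp

theorem pr_split {α S : Type*} [Monoid S] (f : α → S) (X : List α) {a c : ℕ} (h : a ≤ c) :
    pr f (X.take a) * pr f (seg X a c) * pr f (X.drop c) = pr f X := by
  rw [← pr_append, ← pr_append]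
  congr 1
  unfold seg
  have h1 : X.take a ++ (X.drop a).take (c - a) = X.take c := by
    rw [← List.take_add]
    congr 1
    omega
  rw [h1, List.take_append_drop]

section
variable {α : Type*} {S : Type} [Monoid S] (p : ℕ) (nu0 : S → ZMod p) (f : α → S) (b : ℕ)

/-- weight of content `z` at level `j` -/
def E (j : ℕ) (z : S) : ZMod p × ZMod p := (nu0 z, (j : ZMod p) * nu0 z)

/-- sum of the weights of the blocks in `r` -/
def wt (X : List α) (r : Finset ℕ) : ZMod p × ZMod p :=
  ∑ j ∈ r, E p nu0 j (pr f (seg X (X.length % b ^ j) (X.length % b ^ (j + 1))))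

theorem mod_mono (n : ℕ) {i j : ℕ} (h : i ≤ j) : n % b ^ i ≤ n % b ^ j := by
  rw [← Nat.mod_mod_of_dvd n (pow_dvd_pow b h)]
  exact Nat.mod_le _ _

variable {p nu0 f b}

theorem wt_low {P Q : List α} {i : ℕ} (h : b ^ i ∣ Q.length) :
    wt p nu0 f b (P ++ Q) (range i) = wt p nu0 f b P (range i) := by
  unfold wt
  refine Finset.sum_congr rfl ?_
  intro j hj
  rw [Finset.mem_range] at hj
  rw [List.length_append, mod_low (i := i) (by omega) h, mod_low (i := i) (by omega) h,
    seg_left (Nat.mod_le _ _)]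

theorem wt_high {P Q : List α} {i : ℕ} (hb : 0 < b) (h : b ^ i ∣ Q.length)
    (h1 : 2 * (P.length / b ^ i) < b) (h2 : 2 * (Q.length / b ^ i % b) < b) :
    wt p nu0 f b (P ++ Q) (Ico (i + 1) p) = wt p nu0 f b Q (Ico (i + 1) p) := by
  unfold wt
  refine Finset.sum_congr rfl ?_
  intro j hj
  rw [Finset.mem_Ico] at hj
  rw [List.length_append, mod_high hb (by omega) h h1 h2, mod_high hb (by omega) h h1 h2,
    seg_right]

theorem wt_split (X : List α) {i : ℕ} (hi : i < p) :
    wt p nu0 f b X (range p) = wt p nu0 f b X (range i) +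
      E p nu0 i (pr f (seg X (X.length % b ^ i) (X.length % b ^ (i + 1)))) +
      wt p nu0 f b X (Ico (i + 1) p) := by
  unfold wt
  rw [← Finset.sum_range_succ]
  simp only [Finset.range_eq_Ico]
  rw [Finset.sum_Ico_consecutive _ (by omega) (by omega)]

end

/-- raw names: level, left product, left weight, right product, right weight, token, label -/
abbrev Raw (p : ℕ) (S V : Type) :=
  Fin p × S × (ZMod p × ZMod p) × S × (ZMod p × ZMod p) × V × V

theorem exists_interval {b M : ℕ} (hM : 0 < M) (hc : Nat.Coprime b M) (i be t lo : ℕ) :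
    ∃ y, lo ≤ y ∧ y < lo + M ∧ be + b ^ i * y ≡ t [MOD M] := by
  have hc' : Nat.Coprime (b ^ i) M := Nat.Coprime.pow_left i hc
  obtain ⟨u, hu⟩ : ∃ u, b ^ i * u ≡ 1 [MOD M] := by
    by_cases h1 : M = 1
    · exact ⟨0, by subst h1; exact Nat.modEq_one⟩
    · obtain ⟨m, hm⟩ := Nat.exists_mul_mod_eq_one_of_coprime hc' (by omega)
      exact ⟨m, by rw [Nat.ModEq, hm.2, Nat.mod_eq_of_lt (by omega)]⟩
  -- want y ≡ u * (t - be) mod M
  let y0 := u * (t + (M - 1) * be)
  refine ⟨lo + (y0 + (M - 1) * lo) % M, by omega, by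
    have := Nat.mod_lt (y0 + (M - 1) * lo) hM
    omega, ?_⟩
  have h1 : lo + (y0 + (M - 1) * lo) % M ≡ y0 [MOD M] := by
    have h2 : lo + (y0 + (M - 1) * lo) % M ≡ lo + (y0 + (M - 1) * lo) [MOD M] :=
      Nat.ModEq.add_left _ (Nat.mod_modEq _ _)
    refine h2.trans ?_
    have h3 : lo + (y0 + (M - 1) * lo) = y0 + M * lo := by
      obtain ⟨k, rfl⟩ : ∃ k, M = k + 1 := ⟨M - 1, by omega⟩
      simp; ring
    rw [h3]
    exact Nat.ModEq.symm (by simp [Nat.ModEq])
  have h4 : be + b ^ i * (lo + (y0 + (M - 1) * lo) % M) ≡ be + b ^ i * y0 [MOD M] :=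
    Nat.ModEq.add_left _ (Nat.ModEq.mul_left _ h1)
  refine h4.trans ?_
  have h5 : be + b ^ i * y0 = be + (b ^ i * u) * (t + (M - 1) * be) := by
    simp only [y0]; ring
  rw [h5]
  have h6 : be + (b ^ i * u) * (t + (M - 1) * be) ≡ be + 1 * (t + (M - 1) * be) [MOD M] :=
    Nat.ModEq.add_left _ (Nat.ModEq.mul_right _ hu)
  refine h6.trans ?_
  have h7 : be + 1 * (t + (M - 1) * be) = t + M * be := by
    obtain ⟨k, rfl⟩ : ∃ k, M = k + 1 := ⟨M - 1, by omega⟩
    simp; ring
  rw [h7]
  simp [Nat.ModEq]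

/-- **Scheme-1 gadget**: unknown total length, arbitrary content. -/
theorem gadget {S V : Type} [Monoid S] [Finite S] [AddCommGroup V] [Finite V]
    (act : V → S → V) :
    ∃ m r : ℕ, ∀ Bd : ℕ, ∃ (Ms : Finset ℕ) (M : ℕ), Ms.card ≤ r ∧
      (∀ k ∈ Ms, Bd < k ∧ k.Prime ∧ k ∣ M) ∧ 0 < M ∧
      ∀ b : ℕ, 0 < b → Nat.Coprime b M → ∀ (α : Type) (f : α → S),
      ∃ (lam rho : List α → Option V) (nu : List α → V),
        (∀ P v, lam P = some v → P.length < b ^ m) ∧
        (∀ P Q v v', lam P = some v → rho Q = some v' →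
          v' = act v (pr f (P ++ Q)) + nu (P ++ Q)) ∧
        (∀ X : List α, (∀ k ∈ Ms, ¬ k ∣ X.length) →
          (∀ j < m, M ≤ X.length / b ^ j % b ∧ X.length / b ^ j % b + M < b) →
          ∀ v, ∃ P Q, X = P ++ Q ∧ lam P = some v ∧ ∃ v', rho Q = some v') ∧
        (∀ Q Q' : List α, Q.take (b ^ m) = Q'.take (b ^ m) →
          pr f (Q.drop (b ^ m)) = pr f (Q'.drop (b ^ m)) →
          Q.length % (M * b ^ m) = Q'.length % (M * b ^ m) → rho Q = rho Q' ∧ nu Q = nu Q') := by
  classical
  obtain ⟨p, hp, nu0, F, hF⟩ := Exact136.exists_F act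
  have _ : Fact p.Prime := ⟨hp⟩
  let N := {c : Raw p S V // ∀ z : S,
    F (c.2.1 * z * c.2.2.2.1) (c.2.2.1 + E p nu0 c.1 z + c.2.2.2.2.1) +
      act c.2.2.2.2.2.1 (c.2.1 * z * c.2.2.2.1) = c.2.2.2.2.2.2}
  obtain ⟨r, hr⟩ := Names755.names N (V × V) (fun c => (c.1.2.2.2.2.2.1, c.1.2.2.2.2.2.2))
  refine ⟨p, r, fun Bd => ?_⟩
  obtain ⟨Ms, M, nmL, nmR, hcard, hMs, hM, hLp, hRp, hagree, hcomp, hcol⟩ := hr Bd
  refine ⟨Ms, M, hcard, hMs, hM, ?_⟩
  intro b hb hcop α f
  have hLM : ∀ t s, t ≡ s [MOD M] → nmL t = nmL s := by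
    have key : ∀ t k, nmL (t + M * k) = nmL t := by
      intro t k
      induction k with
      | zero => rfl
      | succ k ih => rw [Nat.mul_succ, ← Nat.add_assoc, hLp, ih]
    intro t s h
    rw [← Nat.mod_add_div t M, ← Nat.mod_add_div s M, key, key, h]
  have hRM : ∀ t s, t ≡ s [MOD M] → nmR t = nmR s := by
    have key : ∀ t k, nmR (t + M * k) = nmR t := by
      intro t k
      induction k with
      | zero => rfl
      | succ k ih => rw [Nat.mul_succ, ← Nat.add_assoc, hRp, ih]
    intro t s h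
    rw [← Nat.mod_add_div t M, ← Nat.mod_add_div s M, key, key, h]
  let condL : List α → N → Prop := fun P c =>
    P.length < b ^ (c.1.1.1 + 1) ∧ 2 * (P.length / b ^ c.1.1.1) < b ∧
      pr f (P.take (P.length % b ^ c.1.1.1)) = c.1.2.1 ∧
      wt p nu0 f b P (range c.1.1.1) = c.1.2.2.1
  let condR : List α → N → Prop := fun Q c =>
    b ^ c.1.1.1 ∣ Q.length ∧ 2 * (Q.length / b ^ c.1.1.1 % b) < b ∧
      pr f (Q.drop (Q.length % b ^ (c.1.1.1 + 1))) = c.1.2.2.2.1 ∧
      wt p nu0 f b Q (Ico (c.1.1.1 + 1) p) = c.1.2.2.2.2.1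
  let lam : List α → Option V := fun P => (nmL P.length).bind fun c =>
    if condL P c then some c.1.2.2.2.2.2.1 else none
  let rho : List α → Option V := fun Q => (nmR Q.length).bind fun c =>
    if condR Q c then some c.1.2.2.2.2.2.2 else none
  let pairAt : ℕ → N × N → Prop := fun n cc => ∃ t t', nmL t = some cc.1 ∧ nmR t' = some cc.2 ∧
    t + t' ≡ n [MOD M]
  let nu : List α → V := fun X =>
    if ∀ k ∈ Ms, ¬ k ∣ X.length then F (pr f X) (wt p nu0 f b X (range p))
    else if h : ∃ cc, pairAt X.length cc then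
      (h.choose).2.1.2.2.2.2.2.2 - act (h.choose).1.1.2.2.2.2.2.1 (pr f X)
    else 0
  have hlam : ∀ P v, lam P = some v ↔ ∃ c, nmL P.length = some c ∧ condL P c ∧
      c.1.2.2.2.2.2.1 = v := by
    intro P v
    simp only [lam, Option.bind_eq_some_iff]
    refine exists_congr fun c => and_congr_right fun _ => ?_
    split_ifs with h
    · simp [h]
    · simp [h]
  have hrho : ∀ Q v, rho Q = some v ↔ ∃ c, nmR Q.length = some c ∧ condR Q c ∧
      c.1.2.2.2.2.2.2 = v := by
    intro P v
    simp only [rho, Option.bind_eq_some_iff]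
    refine exists_congr fun c => and_congr_right fun _ => ?_
    split_ifs with h
    · simp [h]
    · simp [h]
  refine ⟨lam, rho, nu, ?_, ?_, ?_, ?_⟩
  · -- bound
    intro P v h
    obtain ⟨c, -, hc, -⟩ := (hlam P v).1 h
    exact lt_of_lt_of_le hc.1 (Nat.pow_le_pow_right hb c.1.1.2)
  · -- soundness
    intro P Q v v' h h'
    obtain ⟨c, hc, hcL, rfl⟩ := (hlam P v).1 h
    obtain ⟨c', hc', hcR, rfl⟩ := (hrho Q v').1 h'
    by_cases hk : ∀ k ∈ Ms, ¬ k ∣ (P ++ Q).length
    · have hcc : c = c' := hagree _ _ _ _ hc hc' (by simpa using hk)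
      subst hcc
      simp only [nu, if_pos hk]
      obtain ⟨⟨i, g, wl, hh, wr, v, bb⟩, hgood⟩ := c
      obtain ⟨hL1, hL2, hL3, hL4⟩ := hcL
      obtain ⟨hR1, hR2, hR3, hR4⟩ := hcR
      simp only at hL1 hL2 hL3 hL4 hR1 hR2 hR3 hR4 hgood ⊢
      have hwt := wt_split (p := p) (nu0 := nu0) (f := f) (b := b) (P ++ Q) i.2
      rw [wt_low hR1, hL4, wt_high hb hR1 hL2 hR2, hR4] at hwt
      have hs := pr_split f (P ++ Q) (mod_mono (b := b) (P ++ Q).length (Nat.le_succ i.1))
      have e1 : (P ++ Q).length % b ^ i.1 = P.length % b ^ i.1 := by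
        rw [List.length_append]; exact mod_low le_rfl hR1
      have e2 : (P ++ Q).length % b ^ (i.1 + 1) = P.length + Q.length % b ^ (i.1 + 1) := by
        rw [List.length_append]; exact mod_high hb (Nat.lt_succ_self _) hR1 hL2 hR2
      have e3 : pr f ((P ++ Q).take ((P ++ Q).length % b ^ i.1)) = g := by
        rw [e1, List.take_append_of_le_length (Nat.mod_le _ _), hL3]
      have e4 : pr f ((P ++ Q).drop ((P ++ Q).length % b ^ (i.1 + 1))) = hh := by
        rw [e2, List.drop_append, List.drop_eq_nil_of_le (Nat.le_add_right _ _)]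
        simpa using hR3
      rw [Nat.succ_eq_add_one, e3, e4] at hs
      have hz := hgood (pr f (seg (P ++ Q) ((P ++ Q).length % b ^ i.1)
        ((P ++ Q).length % b ^ (i.1 + 1))))
      rw [hs, ← hwt] at hz
      rw [← hz, add_comm]
    · have hex : ∃ cc, pairAt (P ++ Q).length cc :=
        ⟨(c, c'), P.length, Q.length, hc, hc', by rw [List.length_append]⟩
      simp only [nu, if_neg hk, dif_pos hex]
      obtain ⟨t, t', ht, ht', hmod⟩ := hex.choose_spec
      have hk' : ∃ k ∈ Ms, k ∣ P.length + Q.length := by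
        push Not at hk
        simpa using hk
      have hcolor : c.1.2.2.2.2.2.1 = (hex.choose).1.1.2.2.2.2.2.1 ∧
          c'.1.2.2.2.2.2.2 = (hex.choose).2.1.2.2.2.2.2.2 := by
        -- shift to equal sums
        have hmod' : t + t' ≡ P.length + Q.length [MOD M] := by simpa using hmod
        obtain ⟨A, A', hA⟩ : ∃ A A', P.length + (Q.length + M * A) = t + (t' + M * A') := by
          rcases le_total (P.length + Q.length) (t + t') with hle | hle
          · obtain ⟨A, hA⟩ := (Nat.modEq_iff_dvd' hle).1 hmod'.symm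
            exact ⟨A, 0, by omega⟩
          · obtain ⟨A, hA⟩ := (Nat.modEq_iff_dvd' hle).1 hmod'
            exact ⟨0, A, by omega⟩
        have h1 : nmR (Q.length + M * A) = some c' := by
          rw [hRM _ Q.length (by simp [Nat.ModEq])]; exact hc'
        have h2 : nmR (t' + M * A') = some (hex.choose).2 := by
          rw [hRM _ t' (by simp [Nat.ModEq])]; exact ht'
        obtain ⟨k, hkM, hkd⟩ := hk'
        have h3 := hcol _ _ _ _ _ _ _ _ hc h1 ht h2 hA ⟨k, hkM, by
          rw [← Nat.add_assoc]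
          exact Dvd.dvd.add hkd (Dvd.dvd.mul_right (hMs k hkM).2.2 _)⟩
        exact ⟨(Prod.ext_iff.1 h3.1).1, (Prod.ext_iff.1 h3.2).2⟩
      rw [hcolor.1, hcolor.2]
      abel
  · -- completeness
    intro X hk hdig v
    set n := X.length with hn
    obtain ⟨i', hi'⟩ := hF (pr f X) (wt p nu0 f b X (range p)) v
    set i := i'.val with hi
    have hip : i < p := ZMod.val_lt i'
    have hcast : ((i : ℕ) : ZMod p) = i' := ZMod.natCast_zmod_val i'
    obtain ⟨hd1, hd2⟩ := hdig i hip
    set d := n / b ^ i % b with hd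
    set be := n % b ^ i with hbe
    set be' := n % b ^ (i + 1) with hbe'
    have hbi : 0 < b ^ i := by positivity
    have hbelt : be < b ^ i := Nat.mod_lt _ hbi
    have hbe'eq : be' = be + b ^ i * d := by
      rw [hbe', pow_succ, Nat.mod_mul]
    have hsplit := pr_split f X (mod_mono (b := b) n (Nat.le_succ i))
    have hw := wt_split (p := p) (nu0 := nu0) (f := f) (b := b) X hip
    have hgood := hi' _ _ _ hsplit
    let c : N := ⟨(⟨i, hip⟩, pr f (X.take be), wt p nu0 f b X (range i), pr f (X.drop be'),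
      wt p nu0 f b X (Ico (i + 1) p), v,
      F (pr f X) (wt p nu0 f b X (range p)) + act v (pr f X)), by
        intro z
        simp only
        rw [← hgood z]
        congr 2
        rw [hw, ← hcast]
        simp only [E, Nat.succ_eq_add_one]
        abel⟩
    obtain ⟨t, htM, ht, ht'⟩ := hcomp n hk c
    obtain ⟨y, hy1, hy2, hy3⟩ := exists_interval hM hcop i be t ((d + 1 - M) / 2)
    have hyd : y ≤ d := by omega
    have hy2b : 2 * y < b := by omega
    have hdy : 2 * (d - y) < b := by omega
    set o := be + b ^ i * y with ho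
    have hmul : b ^ i * y ≤ b ^ i * d := Nat.mul_le_mul_left _ hyd
    have hobe' : o ≤ be' := by omega
    have hbe'n : be' ≤ n := Nat.mod_le _ _
    have hPl : (X.take o).length = o := by
      rw [List.length_take]; omega
    have hQl : (X.drop o).length = n - o := by rw [List.length_drop]
    have hXe : X.take o ++ X.drop o = X := List.take_append_drop _ _
    have hbi1 : be' < b ^ (i + 1) := Nat.mod_lt _ (by positivity)
    have hodiv : o / b ^ i = y := by
      rw [ho, Nat.add_mul_div_left _ _ hbi, Nat.div_eq_of_lt hbelt, zero_add]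
    have homod : o % b ^ i = be := by
      rw [ho, Nat.add_mul_mod_self_left, Nat.mod_eq_of_lt hbelt]
    have hndm : n = be + b ^ i * (n / b ^ i) := by
      rw [hbe]; exact (Nat.mod_add_div n (b ^ i)).symm
    have hyn : y ≤ n / b ^ i := by
      refine hyd.trans ?_
      exact Nat.mod_le _ _
    have hno : n - o = b ^ i * (n / b ^ i - y) := by
      rw [Nat.mul_sub]; omega
    have hdvd : b ^ i ∣ (X.drop o).length := by
      rw [hQl, hno]; exact Dvd.intro _ rfl
    have hR2 : 2 * ((X.drop o).length / b ^ i % b) < b := by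
      rw [hQl, hno, Nat.mul_div_cancel_left _ hbi]
      have h1 : n / b ^ i = b * (n / b ^ i / b) + d := by
        rw [hd]; exact (Nat.div_add_mod _ _).symm
      have h2 : n / b ^ i - y = (d - y) + b * (n / b ^ i / b) := by omega
      rw [h2, Nat.add_mul_mod_self_left, Nat.mod_eq_of_lt (by omega)]
      exact hdy
    have hL2 : 2 * ((X.take o).length / b ^ i) < b := by rw [hPl, hodiv]; exact hy2b
    refine ⟨X.take o, X.drop o, hXe.symm, ?_, ?_⟩
    · rw [hlam]
      refine ⟨c, ?_, ⟨?_, hL2, ?_, ?_⟩, rfl⟩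
      · rw [hPl, hLM _ _ hy3]; exact ht
      · rw [hPl]; exact lt_of_le_of_lt hobe' hbi1
      · show pr f ((X.take o).take ((X.take o).length % b ^ i)) = pr f (X.take be)
        rw [hPl, homod, List.take_take, min_eq_left (by omega)]
      · show wt p nu0 f b (X.take o) (range i) = wt p nu0 f b X (range i)
        conv_rhs => rw [← hXe]
        rw [wt_low hdvd]
    · refine ⟨c.1.2.2.2.2.2.2, ?_⟩
      rw [hrho]
      refine ⟨c, ?_, ⟨hdvd, hR2, ?_, ?_⟩, rfl⟩
      · rw [hQl]
        apply ht'
        have h1 : o + (n - o) = n := by omega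
        have h2 : t + (n - o) ≡ o + (n - o) [MOD M] := Nat.ModEq.add_right _ hy3.symm
        rw [h1] at h2
        exact h2
      · show pr f ((X.drop o).drop ((X.drop o).length % b ^ (i + 1))) = pr f (X.drop be')
        have h1 : be' = o + (X.drop o).length % b ^ (i + 1) := by
          have h2 := mod_high hb (Nat.lt_succ_self i) hdvd hL2 hR2
          rw [hPl, hQl] at h2
          rw [hQl, ← h2, hbe']
          congr 1
          omega
        rw [List.drop_drop, ← h1]
      · show wt p nu0 f b (X.drop o) (Ico (i + 1) p) = wt p nu0 f b X (Ico (i + 1) p)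
        conv_rhs => rw [← hXe]
        rw [wt_high hb hdvd hL2 hR2]
  · -- finite state
    intro Q Q' htake hdrop hlen
    -- length facts
    set B := b ^ p with hB
    have hBpos : 0 < B := by positivity
    have hprdrop : ∀ t, t ≤ B → pr f (Q.drop t) = pr f (Q'.drop t) := by
      intro t ht
      have h1 : ∀ R : List α, R.drop t = (R.take B).drop t ++ R.drop B := by
        intro R
        conv_lhs => rw [← List.take_append_drop B R]
        by_cases hR : B ≤ R.length
        · rw [List.drop_append_of_le_length (by rw [List.length_take]; omega)]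
        · have : R.drop B = [] := List.drop_eq_nil_of_le (by omega)
          rw [this]; simp
      rw [h1 Q, h1 Q', pr_append, pr_append, htake, hdrop]
    have hseg : ∀ a c, c ≤ B → seg Q a c = seg Q' a c := by
      intro a c hc
      have h1 : ∀ R : List α, seg R a c = seg (R.take B) a c := by
        intro R
        unfold seg
        by_cases hac : a ≤ c
        · rw [List.drop_take, List.take_take]
          congr 1
          omega
        · have : c - a = 0 := by omega
          simp [this]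
      rw [h1 Q, h1 Q', htake]
    have hmodM : Q.length ≡ Q'.length [MOD M] := by
      have h1 : Q.length ≡ Q'.length [MOD M * B] := hlen
      exact Nat.ModEq.of_mul_right _ h1
    have hmodB : ∀ j ≤ p, Q.length % b ^ j = Q'.length % b ^ j := by
      intro j hj
      have h1 : Q.length ≡ Q'.length [MOD M * B] := hlen
      have h2 : Q.length ≡ Q'.length [MOD B] := Nat.ModEq.of_mul_left _ h1
      exact h2.of_dvd (pow_dvd_pow b hj)
    have hle : ∀ (n : ℕ) {j : ℕ}, j ≤ p → n % b ^ j ≤ B := by
      intro n j hj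
      refine (Nat.mod_lt _ (by positivity)).le.trans ?_
      exact Nat.pow_le_pow_right hb hj
    have hwt : ∀ r : Finset ℕ, (∀ j ∈ r, j < p) → wt p nu0 f b Q r = wt p nu0 f b Q' r := by
      intro r hr
      unfold wt
      refine Finset.sum_congr rfl ?_
      intro j hj
      have hjp := hr j hj
      rw [hmodB j (by omega), hmodB (j + 1) (by omega), hseg _ _ (hle _ (by omega))]
    have hprQ : pr f Q = pr f Q' := by simpa using hprdrop 0 (Nat.zero_le _)
    have hcR : ∀ c : N, condR Q c ↔ condR Q' c := by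
      intro c
      have hi : c.1.1.1 < p := c.1.1.2
      have e1 : b ^ c.1.1.1 ∣ Q.length ↔ b ^ c.1.1.1 ∣ Q'.length := by
        rw [Nat.dvd_iff_mod_eq_zero, Nat.dvd_iff_mod_eq_zero, hmodB _ hi.le]
      have e2 : Q.length / b ^ c.1.1.1 % b = Q'.length / b ^ c.1.1.1 % b := by
        have h3 := hmodB (c.1.1.1 + 1) hi
        have h4 : ∀ n : ℕ, n / b ^ c.1.1.1 % b = n % b ^ (c.1.1.1 + 1) / b ^ c.1.1.1 := by
          intro n
          rw [pow_succ, Nat.mod_mul_right_div_self]
        rw [h4, h4, h3]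
      have e3 : pr f (Q.drop (Q.length % b ^ (c.1.1.1 + 1))) =
          pr f (Q'.drop (Q'.length % b ^ (c.1.1.1 + 1))) := by
        rw [hmodB _ hi]
        exact hprdrop _ (hle _ hi)
      have e4 := hwt (Ico (c.1.1.1 + 1) p) (fun j hj => (Finset.mem_Ico.1 hj).2)
      simp only [condR]
      rw [e1, e2, e3, e4]
    refine ⟨?_, ?_⟩
    · simp only [rho]
      rw [hRM _ _ hmodM]
      congr 1
      funext c
      simp only [hcR c]
    · have hk : (∀ k ∈ Ms, ¬ k ∣ Q.length) ↔ (∀ k ∈ Ms, ¬ k ∣ Q'.length) := by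
        refine forall₂_congr fun k hk => ?_
        have hkM := (hMs k hk).2.2
        have h1 : Q.length % k = Q'.length % k := hmodM.of_dvd hkM
        rw [Nat.dvd_iff_mod_eq_zero, Nat.dvd_iff_mod_eq_zero, h1]
      have hpair : pairAt Q.length = pairAt Q'.length := by
        funext cc
        simp only [pairAt, eq_iff_iff]
        refine exists_congr fun t => exists_congr fun t' => and_congr_right fun _ =>
          and_congr_right fun _ => ?_
        exact ⟨fun h => h.trans hmodM, fun h => h.trans hmodM.symm⟩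
      simp only [nu]
      by_cases h : ∀ k ∈ Ms, ¬ k ∣ Q.length
      · rw [if_pos h, if_pos (hk.1 h), hprQ, hwt (range p) (fun j hj => Finset.mem_range.1 hj)]
      · rw [if_neg h, if_neg (fun h' => h (hk.2 h'))]
        simp only [hpair, hprQ]

end Crest.Agent.R320.G1_852
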