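import Crest.Agent.R320.WallU_228
import Crest.Agent.R320.Reg_236

/-!
# Row 320, P4: heights of the fibres and of the tail in the block form (helper928)

`XX Wo Ok` = words which end at the first wall with the clock condition `Ok` (natural rule
`Ok t := z ≤ t`, threshold rule `Ok t := thr (t % Mp) ≤ t`).  Every regular language of blocks, and
every regular language of words without a block as a prefix, has height one.
-/

set_option autoImplicit false

namespace Crest.Agent.R320.P4_928

open Crest.RegLang Crest.Agent.R320.Hk_851 Crest.Agent.R320.FewWalls_228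
  Crest.Agent.R320.WallU_228

universe u

variable {α : Type u}

/-- a language from a predicate -/
def setL (p : List α → Prop) : Language α := {w | p w}

theorem mem_setL {p : List α → Prop} {w : List α} : w ∈ setL p ↔ p w := Iff.rfl

/-- a language which depends on a finite key computed from left to right is regular -/
theorem isRegular_of_key {κ : Type u} [Finite κ] (k : List α → κ) (step : κ → α → κ)
    (hk : ∀ u x, k (u ++ [x]) = step (k u) x) {L : Language α}
    (hL : ∀ u u', k u = k u' → u ∈ L → u' ∈ L) : L.IsRegular := by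
  have := Fintype.ofFinite κ
  let D : DFA α κ := ⟨step, k [], {q | ∃ u ∈ L, k u = q}⟩
  have he : ∀ u, D.eval u = k u := by
    intro u
    induction u using List.reverseRecOn with
    | nil => rfl
    | append_singleton u x ih => rw [DFA.eval_append_singleton, ih, hk]
  refine Language.isRegular_iff.mpr ⟨κ, inferInstance, D, ?_⟩
  ext w
  rw [DFA.mem_accepts, he]
  constructor
  · rintro ⟨u, hu, h⟩
    exact hL u w h hu
  · intro h
    exact ⟨w, h, rfl⟩

/-- the key `(take K, length mod M, value)` -/
theorem reg_key [Finite α] {S : Type} [Monoid S] [Finite S] (f : α → S) (K M : ℕ) (hM : 0 < M)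
    {L : Language α}
    (h : ∀ u u' : List α, K ≤ u.length → K ≤ u'.length → u.take K = u'.take K →
      u.length % M = u'.length % M → (u.map f).prod = (u'.map f).prod → u ∈ L → u' ∈ L) :
    L.IsRegular := by
  classical
  let B := {b : List α // b.length ≤ K}
  have : Finite B := (List.finite_length_le α K).to_subtype
  let k : List α → B × Fin M × S := fun u =>
    (⟨u.take K, by rw [List.length_take]; omega⟩, ⟨u.length % M, Nat.mod_lt _ hM⟩,
      (u.map f).prod)
  let step : B × Fin M × S → α → B × Fin M × S := fun q x =>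
    (if hq : q.1.1.length < K then ⟨q.1.1 ++ [x], by rw [List.length_append]; simpa using hq⟩
      else q.1, ⟨(q.2.1.1 + 1) % M, Nat.mod_lt _ hM⟩, q.2.2 * f x)
  refine isRegular_of_key k step ?_ ?_
  · intro u x
    show (_, _, _) = (_, _, _)
    refine Prod.ext ?_ (Prod.ext ?_ ?_)
    · by_cases hq : (u.take K).length < K
      · have e : (step (k u) x).1 = ⟨u.take K ++ [x], by
            rw [List.length_append]; simpa using hq⟩ := dif_pos hq
        refine Eq.trans ?_ e.symm
        apply Subtype.ext
        rw [List.length_take] at hq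
        show (u ++ [x]).take K = u.take K ++ [x]
        rw [List.take_of_length_le (by rw [List.length_append]; simp; omega),
          List.take_of_length_le (by omega)]
      · have e : (step (k u) x).1 = (k u).1 := dif_neg hq
        refine Eq.trans ?_ e.symm
        apply Subtype.ext
        rw [List.length_take] at hq
        show (u ++ [x]).take K = u.take K
        rw [List.take_append_of_le_length (by omega)]
    · apply Fin.ext
      show (u ++ [x]).length % M = (u.length % M + 1) % M
      rw [List.length_append, List.length_singleton]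
      simp [Nat.add_mod]
    · show ((u ++ [x]).map f).prod = (u.map f).prod * f x
      simp
  · intro u u' hk hu
    have h1 : u.take K = u'.take K := congrArg (fun q : B × Fin M × S => q.1.1) hk
    have h2 : u.length % M = u'.length % M := congrArg (fun q : B × Fin M × S => q.2.1.1) hk
    have h3 : (u.map f).prod = (u'.map f).prod := congrArg (fun q : B × Fin M × S => q.2.2) hk
    rcases Nat.lt_or_ge u.length K with hl | hl
    · have h4 : (u.take K).length = (u'.take K).length := by rw [h1]
      rw [List.length_take, List.length_take] at h4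
      have h5 : u'.length < K := by omega
      rw [List.take_of_length_le hl.le, List.take_of_length_le h5.le] at h1
      exact h1 ▸ hu
    · have h4 : (u.take K).length = (u'.take K).length := by rw [h1]
      rw [List.length_take, List.length_take] at h4
      exact h u u' hl (by omega) h1 h2 h3 hu

/-- values in a finite monoid -/
theorem reg_value [Finite α] {S : Type} [Monoid S] [Finite S] (f : α → S) (s : S) :
    Language.IsRegular ({w | (w.map f).prod = s} : Language α) := by
  refine reg_key f 0 1 Nat.one_pos ?_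
  intro u u' _ _ _ _ h hu
  exact h.symm.trans hu

theorem reg_biUnion {ι : Type*} (s : Finset ι) (L : ι → Language α)
    (h : ∀ i ∈ s, (L i).IsRegular) : Language.IsRegular ({w | ∃ i ∈ s, w ∈ L i} : Language α) := by
  classical
  induction s using Finset.induction_on with
  | empty =>
    have : setL (fun w => ∃ i ∈ (∅ : Finset ι), w ∈ L i) = 0 := by
      ext w
      constructor
      · rintro ⟨i, hi, _⟩
        exact absurd hi (Finset.notMem_empty i)
      · intro hw
        exact absurd hw (Language.notMem_zero w)
    have h0 : (0 : Language α).IsRegular := Crest.Agent.R320.Reg_236.isRegular_zero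
    rw [← this] at h0
    exact h0
  | insert a s ha ih =>
    have : setL (fun w => ∃ i ∈ insert a s, w ∈ L i) =
        L a + setL (fun w => ∃ i ∈ s, w ∈ L i) := by
      ext w
      rw [Language.mem_add]
      constructor
      · rintro ⟨i, hi, hw⟩
        rcases Finset.mem_insert.1 hi with rfl | hi
        · exact Or.inl hw
        · exact Or.inr ⟨i, hi, hw⟩
      · rintro (hw | ⟨i, hi, hw⟩)
        · exact ⟨a, Finset.mem_insert_self _ _, hw⟩
        · exact ⟨i, Finset.mem_insert_of_mem hi, hw⟩
    have h2 : (L a + setL (fun w => ∃ i ∈ s, w ∈ L i)).IsRegular :=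
      (h a (Finset.mem_insert_self _ _)).add
        (ih fun i hi => h i (Finset.mem_insert_of_mem hi))
    rw [← this] at h2
    exact h2

theorem reg_iUnion {ι : Type*} [Finite ι] (L : ι → Language α)
    (h : ∀ i, (L i).IsRegular) : Language.IsRegular ({w | ∃ i, w ∈ L i} : Language α) := by
  classical
  have := Fintype.ofFinite ι
  have := reg_biUnion Finset.univ L fun i _ => h i
  simpa using this

/-- the block code -/
def XX (Wo : List α → Prop) (Ok : ℕ → Prop) : Set (List α) :=
  {X | Wo X ∧ Ok X.length ∧ ∀ t < X.length, Ok t → ¬ Wo (X.take t)}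

/-- the code is a prefix code -/
theorem XX_code {Wo : List α → Prop} {Ok : ℕ → Prop} {X Y : List α} (hX : X ∈ XX Wo Ok)
    (hY : Y ∈ XX Wo Ok) (h : X <+: Y) : X = Y := by
  obtain ⟨Z, rfl⟩ := h
  rcases Nat.eq_zero_or_pos Z.length with h0 | h0
  · rw [List.length_eq_zero_iff.1 h0, List.append_nil]
  · exfalso
    refine hY.2.2 X.length (by rw [List.length_append]; omega) hX.2.1 ?_
    rw [List.take_left]
    exact hX.1

/-- a word with a qualified wall has a block as a prefix -/
theorem exists_block {Wo : List α → Prop} {Ok : ℕ → Prop} {w : List α} {t : ℕ}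
    (ht : t ≤ w.length) (hOk : Ok t) (hW : Wo (w.take t)) :
    ∃ X ∈ XX Wo Ok, X <+: w ∧ X.length ≤ t := by
  classical
  have hex : ∃ t, t ≤ w.length ∧ Ok t ∧ Wo (w.take t) := ⟨t, ht, hOk, hW⟩
  obtain ⟨h1, h2, h3⟩ := Nat.find_spec hex
  have hl : (w.take (Nat.find hex)).length = Nat.find hex := by
    rw [List.length_take]; omega
  refine ⟨w.take (Nat.find hex), ⟨h3, ?_, ?_⟩, List.take_prefix _ _, ?_⟩
  · rw [hl]; exact h2
  · intro s hs hOs hWs
    rw [hl] at hs
    rw [List.take_take, min_eq_left hs.le] at hWs
    exact Nat.find_min hex hs ⟨by omega, hOs, hWs⟩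
  · rw [hl]
    exact Nat.find_min' hex ⟨ht, hOk, hW⟩

section HL

variable [Finite α] {n : ℕ} {S : Set (List α)} {Ok : ℕ → Prop} {hi : ℕ}

theorem HL_Wo {k : ℕ} : HL k ({X | Wo n S X} : Language α) := by
  have hfin : ({Q | Q.length = n ∧ Q ∈ S} : Set (List α)).Finite :=
    (List.finite_length_eq α n).subset fun Q h => h.1
  refine (HL.suffix (HL.finite hfin)).congr fun w => ?_
  constructor
  · rintro ⟨h1, h2⟩
    exact ⟨w.drop (w.length - n), ⟨by rw [List.length_drop]; omega, h2⟩, List.drop_suffix _ _⟩
  · rintro ⟨v, ⟨h1, h2⟩, ⟨t, rfl⟩⟩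
    refine ⟨by rw [List.length_append]; omega, ?_⟩
    have : (t ++ v).length - n = t.length := by rw [List.length_append]; omega
    rw [this, List.drop_left]
    exact h2

theorem HL_Ok (hOk : ∀ t, hi ≤ t → Ok t) {k : ℕ} : HL k ({X | Ok X.length} : Language α) := by
  have hfin : ({X | ¬ Ok X.length} : Set (List α)).Finite :=
    (List.finite_length_lt α hi).subset fun X h => by
      by_contra hc
      exact h (hOk _ (by simpa using hc))
  refine (HL.compl (HL.finite hfin)).congr fun w => ?_
  constructor
  · intro h h'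
    exact h' h
  · intro h
    by_contra hc
    exact h hc

/-- the code is star free -/
theorem HL_XX (hOk : ∀ t, hi ≤ t → Ok t) {k : ℕ} : HL k (XX (Wo n S) Ok : Language α) := by
  have hA : HL k ({X | Wo n S X ∧ Ok X.length} : Language α) :=
    HL.setOf_and HL_Wo (HL_Ok hOk)
  have hN : HL k ({X | 1 ≤ X.length} : Language α) := HL.length_ge 1
  refine (HL.sdiff hA (HL.mul hA hN)).congr fun w => ?_
  constructor
  · rintro ⟨h1, h2, h3⟩
    refine ⟨⟨h1, h2⟩, ?_⟩
    intro h
    obtain ⟨a, ⟨ha1, ha2⟩, b, hb, rfl⟩ := Language.mem_mul.1 h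
    have hb' : 1 ≤ b.length := hb
    refine h3 a.length (by rw [List.length_append]; omega) ha2 ?_
    rw [List.take_left]
    exact ha1
  · rintro ⟨⟨h1, h2⟩, h3⟩
    refine ⟨h1, h2, ?_⟩
    intro t ht hOt hW
    apply h3
    have hl : (w.take t).length = t := by rw [List.length_take]; omega
    refine Language.mem_mul.2 ⟨w.take t, ⟨hW, by rw [hl]; exact hOt⟩, w.drop t, ?_,
      List.take_append_drop _ _⟩
    show 1 ≤ (w.drop t).length
    rw [List.length_drop]
    omega

/-- the tail is star free -/
theorem HL_tail (hOk : ∀ t, hi ≤ t → Ok t) {k : ℕ} :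
    HL k ({w | ∀ X ∈ XX (Wo n S) Ok, ¬ X <+: w} : Language α) := by
  refine (HL.compl (HL.prefix (HL_XX (n := n) (S := S) hOk))).congr fun w => ?_
  constructor
  · rintro h ⟨v, hv, hp⟩
    exact h v hv hp
  · intro h X hX hp
    exact h ⟨X, hX, hp⟩

theorem nw_XX (hOk : ∀ t, hi ≤ t → Ok t) {w : List α} (hw : w ∈ XX (Wo n S) Ok) :
    nw n S w ≤ hi + 1 := by
  classical
  unfold nw
  have hsub : ((Finset.range (w.length + 1)).filter (fun x => Wl n S w x)) ⊆
      Finset.range hi ∪ {w.length - n} := by
    intro x hx
    rw [Finset.mem_filter] at hx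
    obtain ⟨h1, h2⟩ := wo_take.1 hx.2
    rw [Finset.mem_union, Finset.mem_range, Finset.mem_singleton]
    rcases Nat.lt_or_ge (x + n) w.length with h | h
    · left
      by_contra hc
      exact hw.2.2 (x + n) h (hOk _ (by omega)) h2
    · right
      omega
  refine (Finset.card_le_card hsub).trans ((Finset.card_union_le _ _).trans ?_)
  rw [Finset.card_range, Finset.card_singleton]

theorem nw_tail (hOk : ∀ t, hi ≤ t → Ok t) {w : List α}
    (hw : ∀ X ∈ XX (Wo n S) Ok, ¬ X <+: w) : nw n S w ≤ hi + 1 := by
  classical
  unfold nw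
  have hsub : ((Finset.range (w.length + 1)).filter (fun x => Wl n S w x)) ⊆
      Finset.range hi := by
    intro x hx
    rw [Finset.mem_filter] at hx
    obtain ⟨h1, h2⟩ := wo_take.1 hx.2
    rw [Finset.mem_range]
    by_contra hc
    obtain ⟨X, hX, hp, _⟩ := exists_block (Ok := Ok) h1 (hOk _ (by omega)) h2
    exact hw X hX hp
  refine (Finset.card_le_card hsub).trans ?_
  rw [Finset.card_range]
  omega

end HL

section main

variable [Finite α] {n c P : ℕ} {S : Set (List α)} {Ok : ℕ → Prop} {hi : ℕ}

/-- regular languages of blocks have height one -/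
theorem HL_block (hn : 0 < n) (hP : 0 < P) (hper : PerOff n c P S)
    (hOk : ∀ t, hi ≤ t → Ok t) {L : Language α} (hL : L.IsRegular) :
    HL 1 ({w | w ∈ L ∧ w ∈ XX (Wo n S) Ok} : Language α) := by
  have h1 : Language.IsRegular (L ⊓ (XX (Wo n S) Ok : Language α)) :=
    hL.inf (Crest.Agent.R320.Reg_236.HL.isRegular (k := 0) (HL_XX hOk))
  exact (Crest.Agent.R320.FewVal_228.HL_of_few hn hP hper (hi + 1) h1
    fun w hw => nw_XX hOk hw.2).congr fun w => Iff.rfl

/-- regular languages of words without a block as a prefix have height one -/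
theorem HL_tail_reg (hn : 0 < n) (hP : 0 < P) (hper : PerOff n c P S)
    (hOk : ∀ t, hi ≤ t → Ok t) {L : Language α} (hL : L.IsRegular) :
    HL 1 ({w | w ∈ L ∧ ∀ X ∈ XX (Wo n S) Ok, ¬ X <+: w} : Language α) := by
  have h1 : Language.IsRegular
      (L ⊓ ({w | ∀ X ∈ XX (Wo n S) Ok, ¬ X <+: w} : Language α)) :=
    hL.inf (Crest.Agent.R320.Reg_236.HL.isRegular (k := 0) (HL_tail hOk))
  exact (Crest.Agent.R320.FewVal_228.HL_of_few hn hP hper (hi + 1) h1
    fun w hw => nw_tail hOk hw.2).congr fun w => Iff.rfl

end main

/-- regularity of the fibres of the two-gadget zone map (118's one token form) -/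
theorem reg_T [Finite α] {G V : Type} [Monoid G] [Finite G] [Add V] [Finite V]
    (f : α → G) (act : V → G → V) (nu1 nu2 : List α → V) (p0 : ℕ)
    (hnu : ∀ d, Language.IsRegular ({Y | nu1 Y = d} : Language α)) (x y : V) :
    Language.IsRegular ({X | act (act x ((X.take p0).map f).prod + nu2 (X.take p0))
      ((X.drop p0).map f).prod + nu1 (X.drop p0) = y} : Language α) := by
  classical
  let B := {b : List α // b.length = p0}
  have : Finite B := (List.finite_length_eq α p0).to_subtype
  set T : List α → V := fun X => act (act x ((X.take p0).map f).prod + nu2 (X.take p0))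
      ((X.drop p0).map f).prod + nu1 (X.drop p0) with hT
  have hshort : Language.IsRegular (setL fun X => X.length < p0 ∧ T X = y) :=
    Crest.Agent.R320.Reg_236.HL.isRegular (k := 0) (HL.finite
      ((List.finite_length_lt α p0).subset fun X h => h.1))
  let Lg : B × G × V → Language α := fun i =>
    {i.1.1} * ((setL fun Y => (Y.map f).prod = i.2.1) ⊓ (setL fun Y => nu1 Y = i.2.2))
  let Lc : B × G × V → Language α := fun i =>
    if act (act x ((i.1.1).map f).prod + nu2 i.1.1) i.2.1 + i.2.2 = y then Lg i else 0
  have hlong : Language.IsRegular (setL fun X => ∃ i : B × G × V, X ∈ Lc i) := by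
    apply reg_iUnion
    intro i
    show (if act (act x ((i.1.1).map f).prod + nu2 i.1.1) i.2.1 + i.2.2 = y then Lg i
      else 0).IsRegular
    split_ifs
    · exact Crest.Agent.R320.Reg_236.isRegular_mul
        (Crest.Agent.R320.Reg_236.HL.isRegular (k := 0) (HL.word _))
        ((reg_value f _).inf (hnu _))
    · exact Crest.Agent.R320.Reg_236.isRegular_zero
  have : setL (fun X => T X = y) = setL (fun X => X.length < p0 ∧ T X = y) +
      setL (fun X => ∃ i : B × G × V, X ∈ Lc i) := by
    ext X
    rw [Language.mem_add]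
    constructor
    · intro hX
      rcases Nat.lt_or_ge X.length p0 with hl | hl
      · exact Or.inl ⟨hl, hX⟩
      · right
        refine ⟨(⟨X.take p0, by rw [List.length_take]; omega⟩, ((X.drop p0).map f).prod,
          nu1 (X.drop p0)), ?_⟩
        have h1 : act (act x ((X.take p0).map f).prod + nu2 (X.take p0))
            ((X.drop p0).map f).prod + nu1 (X.drop p0) = y := hX
        show X ∈ (if act (act x ((X.take p0).map f).prod + nu2 (X.take p0))
            ((X.drop p0).map f).prod + nu1 (X.drop p0) = y then Lg _ else 0)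
        rw [if_pos h1]
        exact Language.mem_mul.2 ⟨X.take p0, rfl, X.drop p0, ⟨rfl, rfl⟩,
          List.take_append_drop _ _⟩
    · rintro (⟨_, hX⟩ | ⟨⟨⟨b, hb⟩, g, d⟩, hX⟩)
      · exact hX
      · show T X = y
        have hX' : X ∈ (if act (act x ((b).map f).prod + nu2 b) g + d = y then
          Lg (⟨b, hb⟩, g, d) else 0) := hX
        split_ifs at hX' with hc
        · obtain ⟨a, ha, Y, ⟨hY1, hY2⟩, rfl⟩ := Language.mem_mul.1 hX'
          have ha' : a = b := ha
          subst ha'
          have hY1' : (Y.map f).prod = g := hY1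
          have hY2' : nu1 Y = d := hY2
          have e1 : (a ++ Y).take p0 = a := by rw [← hb, List.take_left]
          have e2 : (a ++ Y).drop p0 = Y := by rw [← hb, List.drop_left]
          rw [hT]
          simp only [e1, e2, hY1', hY2']
          exact hc
        · exact absurd hX' (Language.notMem_zero _)
  have h2 := hshort.add hlong
  rw [← this] at h2
  exact h2

/-- **P4**: walls on all words and everything about heights of the block form -/
theorem p4 (α : Type u) [Finite α] (W : ℕ) :
    ∃ (n : ℕ) (Wo : List α → Prop), 0 < n ∧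
      (∀ P Q : List α, n ≤ Q.length → (Wo (P ++ Q) ↔ Wo Q)) ∧
      (∀ P : List α, Wo P → n ≤ P.length) ∧
      (∀ (P : List α) (d : ℕ), Wo P → 0 < d → d ≤ W → ¬ Wo (P.take (P.length - d))) ∧
      ∀ (Ok : ℕ → Prop) (hi : ℕ), (∀ t, hi ≤ t → Ok t) →
        (∀ k, HL k (XX Wo Ok : Language α)) ∧
        (∀ L : Language α, L.IsRegular → HL 1 ({w | w ∈ L ∧ w ∈ XX Wo Ok} : Language α)) ∧
        (∀ L : Language α, L.IsRegular →
          HL 1 ({w | w ∈ L ∧ ∀ X ∈ XX Wo Ok, ¬ X <+: w} : Language α)) ∧
        (∀ (G : Type) [Monoid G] [Finite G] (f : α → G) (g : G),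
          HL 1 ({w | (∀ X ∈ XX Wo Ok, ¬ X <+: w) ∧ (w.map f).prod = g} : Language α)) ∧
        (∀ (G V : Type) [Monoid G] [Finite G] [Add V] [Finite V] (f : α → G) (act : V → G → V)
          (nu1 nu2 : List α → V) (p0 : ℕ),
          (∀ d, Language.IsRegular ({Y | nu1 Y = d} : Language α)) → ∀ x y : V,
          HL 1 ({X | X ∈ XX Wo Ok ∧ act (act x ((X.take p0).map f).prod + nu2 (X.take p0))
            ((X.drop p0).map f).prod + nu1 (X.drop p0) = y} : Language α)) := by
  obtain ⟨n, c, P, S, hn, hP, hS, hsep, hper⟩ :=
    Crest.Agent.R320.Mk263.marker (α := α) (W + 1) (by omega)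
  refine ⟨n, Wo n S, hn, fun P Q h => wo_append P Q h, fun P h => h.1, ?_, ?_⟩
  · intro Q d hQ hd hdW hT
    obtain ⟨h1, h2⟩ := hQ
    obtain ⟨h3, h4⟩ := hT
    have hl : (Q.take (Q.length - d)).length = Q.length - d := by rw [List.length_take]; omega
    rw [hl] at h3 h4
    rw [List.drop_take] at h4
    have e2 : Q.length - d - (Q.length - d - n) = n := by omega
    rw [e2] at h4
    have h5 : (Q.drop (Q.length - n)).take n ∈ S := by
      rw [List.take_of_length_le (by rw [List.length_drop]; omega)]
      exact h2
    have := hsep Q (Q.length - d - n) (Q.length - n) (by omega) (by omega) h4 h5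
    omega
  · intro Ok hi hOk
    have hb : ∀ L : Language α, L.IsRegular →
        HL 1 ({w | w ∈ L ∧ w ∈ XX (Wo n S) Ok} : Language α) :=
      fun L hL => HL_block hn hP hper hOk hL
    have ht : ∀ L : Language α, L.IsRegular →
        HL 1 ({w | w ∈ L ∧ ∀ X ∈ XX (Wo n S) Ok, ¬ X <+: w} : Language α) :=
      fun L hL => HL_tail_reg hn hP hper hOk hL
    refine ⟨fun k => HL_XX hOk, hb, ht, ?_, ?_⟩
    · intro G _ _ f g
      exact (ht _ (reg_value f g)).congr fun w => ⟨fun h => ⟨h.2, h.1⟩, fun h => ⟨h.2, h.1⟩⟩
    · intro G V _ _ _ _ f act nu1 nu2 p0 hnu x y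
      exact (hb _ (reg_T f act nu1 nu2 p0 hnu x y)).congr
        fun w => ⟨fun h => ⟨h.2, h.1⟩, fun h => ⟨h.2, h.1⟩⟩

end Crest.Agent.R320.P4_928
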