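import Crest.Agent.R320.GridRuler_314

/-!
Row 320: the SPOIL leaf (ruler) in the positional digit form of 852 / lead #13673.
-/

set_option autoImplicit false

namespace Crest.Agent.R320.Sp314

open Finset Crest.Agent.R320.Golomb314 Crest.Agent.R320.GridRuler314

/-- thin set of lengths for the digit gadget -/
def Bad (Ms : Finset ℕ) (M m b : ℕ) (n : ℕ) : Prop :=
  (∃ k ∈ Ms, k ∣ n) ∨ ∃ j < m, ¬ (M ≤ n / b ^ j % b ∧ n / b ^ j % b + M + 1 ≤ b)

theorem near_of_digit {M b j n : ℕ} (hb : 0 < b) (h : ¬ (M ≤ n / b ^ j % b ∧ n / b ^ j % b + M + 1 ≤ b)) :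
    ∃ t : ℤ, |(n : ℤ) - t * ((b ^ (j + 1) : ℕ) : ℤ)| ≤ ((M * b ^ j : ℕ) : ℤ) := by
  set B := b ^ j with hB
  have hB0 : 0 < B := by positivity
  set d := n / B % b with hd
  set q := n / B / b with hq
  set r := n % B with hr
  have hdb : d < b := Nat.mod_lt _ hb
  have hrB : r < B := Nat.mod_lt _ hB0
  have h1 : n = (q * b + d) * B + r := by
    have e1 : n = B * (n / B) + r := (Nat.div_add_mod n B).symm
    have e2 : n / B = b * q + d := (Nat.div_add_mod (n / B) b).symm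
    rw [e2] at e1
    rw [e1]; ring
  have hbj : b ^ (j + 1) = b * B := by rw [pow_succ, hB]; ring
  rw [hbj]
  by_cases hdM : d < M
  · refine ⟨q, ?_⟩
    have e : (n : ℤ) - q * ((b * B : ℕ) : ℤ) = ((d * B + r : ℕ) : ℤ) := by
      rw [h1]; push_cast; ring
    rw [e, Nat.abs_cast]
    have h2 : d * B + r ≤ M * B := by
      have : (d + 1) * B ≤ M * B := Nat.mul_le_mul_right _ hdM
      nlinarith
    exact_mod_cast h2
  · have h3 : b < d + M + 1 := by
      by_contra hcon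
      exact h ⟨not_lt.1 hdM, not_lt.1 hcon⟩
    refine ⟨q + 1, ?_⟩
    have h4 : d * B + r ≤ b * B := by
      have : (d + 1) * B ≤ b * B := Nat.mul_le_mul_right _ hdb
      nlinarith
    have h5 : b * B ≤ d * B + r + M * B := by
      have : b * B ≤ (d + M) * B := Nat.mul_le_mul_right _ (by omega)
      nlinarith
    have e : (n : ℤ) - ((q : ℤ) + 1) * ((b * B : ℕ) : ℤ) = ((d * B + r : ℕ) : ℤ) - ((b * B : ℕ) : ℤ) := by
      rw [h1]; push_cast; ring
    rw [e, abs_le]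
    have h4' : ((d * B + r : ℕ) : ℤ) ≤ ((b * B : ℕ) : ℤ) := by exact_mod_cast h4
    have h5' : ((b * B : ℕ) : ℤ) ≤ ((d * B + r : ℕ) : ℤ) + ((M * B : ℕ) : ℤ) := by exact_mod_cast h5
    have h6 : (0 : ℤ) ≤ ((M * B : ℕ) : ℤ) := Int.natCast_nonneg _
    constructor <;> linarith

theorem badT_of_bad {Ms : Finset ℕ} {M m b n : ℕ} (hb : 0 < b) (h : Bad Ms M m b n) :
    BadT Ms m (fun i => b ^ i) (fun i => M * b ^ i) (fun _ => 0) (n : ℤ) := by
  rcases h with ⟨k, hk, hd⟩ | ⟨j, hj, hdig⟩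
  · exact Or.inl ⟨k, hk, by exact_mod_cast hd⟩
  · obtain ⟨t, ht⟩ := near_of_digit hb hdig
    refine Or.inr ⟨j + 1, by omega, by omega, t, ?_⟩
    simpa using ht

theorem sum_pow_le {b : ℕ} (hb : 2 ≤ b) (i : ℕ) : ∑ j ∈ range i, b ^ j ≤ b ^ i := by
  induction i with
  | zero => simp
  | succ i ih =>
    rw [Finset.sum_range_succ, pow_succ]
    nlinarith [Nat.zero_le (b ^ i)]

/-- **the spoil leaf** -/
theorem spoil (K N1 m M b : ℕ) (Ms : Finset ℕ) (hM : 0 < M)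
    (hMs : ∀ k ∈ Ms, 2 ^ (K + 1) < k ∧ k ∣ M) (hcop : Nat.Coprime b M)
    (hb : 2 ^ (K + 5) * M ≤ b) :
    ∃ c : ℕ → ℕ, StrictMono c ∧ N1 < c 0 ∧ (∀ i j, i < j → c i + 4 * N1 < c j) ∧
      (∀ i j, i ≠ j → (4 * N1 : ℤ) < |(c i : ℤ) - c j|) ∧
      (∀ i j k l, i ≠ j → |((c i : ℤ) - c j) - ((c k : ℤ) - c l)| ≤ 4 * N1 → i = k ∧ j = l) ∧
      (∀ T : ℤ, ∃ P : Finset (ℕ × ℕ), P.card ≤ Ms.card + m ∧ ∀ i j n : ℕ, i < K → j < K → i ≠ j →
        (n : ℤ) = T - ((c i : ℤ) - c j) → Bad Ms M m b n → (i, j) ∈ P) ∧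
      ∀ T : ℕ, (∀ i < K, c i ≤ T) →
        ∃ P : Finset (ℕ × ℕ), P.card ≤ Ms.card + m ∧ ∀ i < K, ∀ j < K, i ≠ j →
          Bad Ms M m b (T + c j - c i) → (i, j) ∈ P := by
  classical
  have hb0 : 0 < b := lt_of_lt_of_le (by positivity) hb
  have hb2 : 2 ≤ b := by
    have h1 : 2 ≤ 2 ^ (K + 5) := by
      calc 2 = 2 ^ 1 := by norm_num
        _ ≤ 2 ^ (K + 5) := Nat.pow_le_pow_right (by norm_num) (by omega)
    nlinarith
  have hc : Nat.Coprime ((fun i => b ^ i) m) (∏ q ∈ Ms, q) := by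
    refine Nat.Coprime.prod_right fun q hq => ?_
    exact Nat.Coprime.pow_left _ (Nat.Coprime.coprime_dvd_right (hMs q hq).2 hcop)
  obtain ⟨X, h1, h2, -, -, h5⟩ := grid_ruler (4 * N1 + N1) K m Ms (fun i => b ^ i)
    (fun i => M * b ^ i) (fun i => by positivity) (fun i => Dvd.intro_left _ rfl)
    (fun i => pow_dvd_pow _ (Nat.le_succ i)) (by positivity) (by
      intro i hi him
      rw [← Finset.mul_sum]
      obtain ⟨i', rfl⟩ : ∃ i', i = i' + 1 := ⟨i - 1, by omega⟩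
      have e1 : ∑ j ∈ range (i' + 1), b ^ j ≤ 2 * b ^ i' := by
        rw [Finset.sum_range_succ]
        have := sum_pow_le hb2 i'
        omega
      calc 2 ^ (K + 4) * (M * ∑ j ∈ range (i' + 1), b ^ j)
          ≤ 2 ^ (K + 4) * (M * (2 * b ^ i')) := by gcongr
        _ = (2 ^ (K + 5) * M) * b ^ i' := by ring
        _ ≤ b * b ^ i' := by gcongr
        _ = b ^ (i' + 1) := by ring) hc (fun q hq => (hMs q hq).1)
  have hX0 : 0 < X := by omega
  have hcast : ∀ i, ((2 ^ i * X : ℕ) : ℤ) = xm X i := by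
    intro i; unfold xm; push_cast; ring
  have hmono : StrictMono (fun i => 2 ^ i * X) := by
    intro i j hij
    exact Nat.mul_lt_mul_of_pos_right (Nat.pow_lt_pow_right (by norm_num) hij) hX0
  refine ⟨fun i => 2 ^ i * X, hmono, ?_, ?_, ?_, ?_, ?_, ?_⟩
  · simp only [pow_zero, one_mul]; omega
  · intro i j hij
    have e1 : 2 ^ (i + 1) * X ≤ 2 ^ j * X :=
      Nat.mul_le_mul_right _ (Nat.pow_le_pow_right (by norm_num) hij)
    have e2 : X ≤ 2 ^ i * X := Nat.le_mul_of_pos_left _ (by positivity)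
    have e3 : 2 ^ (i + 1) * X = 2 ^ i * X + 2 ^ i * X := by ring
    show 2 ^ i * X + 4 * N1 < 2 ^ j * X
    omega
  · intro i j hij
    show (4 * N1 : ℤ) < |((2 ^ i * X : ℕ) : ℤ) - ((2 ^ j * X : ℕ) : ℤ)|
    rw [hcast, hcast]
    have := h2 i j hij
    push_cast at this
    linarith [Int.natCast_nonneg N1]
  · intro i j k l hij h
    have h' : |(xm X i - xm X j) - (xm X k - xm X l)| ≤ 4 * N1 := by
      rw [← hcast, ← hcast, ← hcast, ← hcast]; exact h
    rw [xm_diff, abs_mul, Nat.abs_cast] at h'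
    refine coef_zero hij ?_
    by_contra hne
    have h3 := Int.one_le_abs hne
    have h4 : (4 * N1 + N1 : ℤ) < X := by exact_mod_cast h1
    nlinarith [Int.natCast_nonneg N1]
  · intro T
    obtain ⟨P, hP1, hP2⟩ := h5 (fun _ => 0) T
    refine ⟨P, hP1, fun i j n hi hj hij hn hbad => hP2 i j hi hj hij ?_⟩
    have := badT_of_bad hb0 hbad
    rw [hn] at this
    simpa [hcast] using this
  · intro T hT
    obtain ⟨P, hP1, hP2⟩ := h5 (fun _ => 0) T
    refine ⟨P, hP1, fun i hi j hj hij hbad => hP2 i j hi hj hij ?_⟩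
    have hle : 2 ^ i * X ≤ T := hT i hi
    have := badT_of_bad hb0 hbad
    have e : ((T + 2 ^ j * X - 2 ^ i * X : ℕ) : ℤ) = (T : ℤ) - (xm X i - xm X j) := by
      rw [← hcast, ← hcast, Nat.cast_sub (by omega)]
      push_cast; ring
    rw [e] at this
    exact this

end Crest.Agent.R320.Sp314
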