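import Crest.Agent.R320.Fin_774
import Crest.Agent.R320.P4_928
import Crest.Agent.R320.Block_467
import Crest.Agent.R320.Sp_314
import Crest.Agent.R320.G1_852
import Crest.Agent.R320.ExactR_237

/-!
# Row 320: the final join (helper774)
-/

set_option autoImplicit false

namespace Crest.Agent.R320.Fin2_774

open Crest.Agent.R320.Hk_851 Crest.Agent.R320.Code110 Crest.Agent.R320.Fin_774

theorem reg_drop {α : Type} [Finite α] {S : Type} [Monoid S] [Finite S] (f : α → S) (K M : ℕ)
    (hM : 0 < M) {L : Language α}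
    (h : ∀ u u' : List α, u.take K = u'.take K →
      ((u.drop K).map f).prod = ((u'.drop K).map f).prod →
      u.length % M = u'.length % M → u ∈ L → u' ∈ L) :
    L.IsRegular := by
  classical
  let B := {b : List α // b.length ≤ K}
  have : Finite B := (List.finite_length_le α K).to_subtype
  let k : List α → B × Fin M × S := fun u =>
    (⟨u.take K, by rw [List.length_take]; omega⟩, ⟨u.length % M, Nat.mod_lt _ hM⟩,
      ((u.drop K).map f).prod)
  let step : B × Fin M × S → α → B × Fin M × S := fun q x =>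
    (if hq : q.1.1.length < K then ⟨q.1.1 ++ [x], by rw [List.length_append]; simpa using hq⟩
      else q.1, ⟨(q.2.1.1 + 1) % M, Nat.mod_lt _ hM⟩,
      if q.1.1.length < K then q.2.2 else q.2.2 * f x)
  refine Crest.Agent.R320.P4_928.isRegular_of_key k step ?_ ?_
  · intro u x
    show (_, _, _) = (_, _, _)
    refine Prod.ext ?_ (Prod.ext ?_ ?_)
    · by_cases hq : (u.take K).length < K
      · have e : (step (k u) x).1 = ⟨u.take K ++ [x], by
            rw [List.length_append]; simpa using hq⟩ := dif_pos hq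
        refine Eq.trans ?_ e.symm
        apply Subtype.ext
        rw [List.length_take] at hq
        show (u ++ [x]).take K = u.take K ++ [x]
        rw [List.take_of_length_le (by rw [List.length_append]; simp; omega),
          List.take_of_length_le (by omega)]
      · have e : (step (k u) x).1 = (k u).1 := dif_neg hq
        refine Eq.trans ?_ e.symm
        apply Subtype.ext
        rw [List.length_take] at hq
        show (u ++ [x]).take K = u.take K
        rw [List.take_append_of_le_length (by omega)]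
    · apply Fin.ext
      show (u ++ [x]).length % M = (u.length % M + 1) % M
      rw [List.length_append, List.length_singleton]
      simp [Nat.add_mod]
    · show (((u ++ [x]).drop K).map f).prod =
        if (u.take K).length < K then ((u.drop K).map f).prod else ((u.drop K).map f).prod * f x
      by_cases hq : (u.take K).length < K
      · rw [if_pos hq]
        rw [List.length_take] at hq
        rw [List.drop_of_length_le (by rw [List.length_append]; simp; omega),
          List.drop_of_length_le (by omega)]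
      · rw [if_neg hq]
        rw [List.length_take] at hq
        rw [List.drop_append_of_le_length (by omega)]
        simp
  · intro u u' hk hu
    have h1 : u.take K = u'.take K := congrArg (fun q : B × Fin M × S => q.1.1) hk
    have h2 : u.length % M = u'.length % M := congrArg (fun q : B × Fin M × S => q.2.1.1) hk
    have h3 : ((u.drop K).map f).prod = ((u'.drop K).map f).prod :=
      congrArg (fun q : B × Fin M × S => q.2.2) hk
    exact h u u' h1 h3 h2 hu


theorem mod_sub {a b p M : ℕ} (ha : p ≤ a) (hb : p ≤ b) (h : a % M = b % M) :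
    (a - p) % M = (b - p) % M := by
  have h1 : a ≡ b [MOD M] := h
  have h2 : (a - p) + p ≡ (b - p) + p [MOD M] := by
    rw [Nat.sub_add_cancel ha, Nat.sub_add_cancel hb]; exact h1
  exact Nat.ModEq.add_right_cancel' _ h2

/-- the bad set of lengths is periodic -/
theorem bad_per {Ms : Finset ℕ} {M m b x y : ℕ} (hk : ∀ k ∈ Ms, k ∣ M)
    (h : x % (M * b ^ m) = y % (M * b ^ m)) (hx : Sp314.Bad Ms M m b x) :
    Sp314.Bad Ms M m b y := by
  have hmod : x ≡ y [MOD (M * b ^ m)] := h
  rcases hx with ⟨k, hkm, hkx⟩ | ⟨j, hj, hd⟩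
  · left
    refine ⟨k, hkm, ?_⟩
    have h1 : x ≡ y [MOD k] := hmod.of_dvd (Dvd.dvd.mul_right (hk k hkm) _)
    exact (h1.dvd_iff dvd_rfl).1 hkx
  · right
    refine ⟨j, hj, ?_⟩
    have h1 : x ≡ y [MOD (b ^ j * b)] := by
      refine hmod.of_dvd (Dvd.dvd.mul_left ?_ _)
      rw [← pow_succ]
      exact pow_dvd_pow b hj
    have h2 : x / b ^ j % b = y / b ^ j % b := by
      have h3 : ∀ t : ℕ, t / b ^ j % b = t % (b ^ j * b) / b ^ j := by
        intro t
        rw [Nat.mod_mul_right_div_self]
      rw [h3, h3, h1]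
    rw [← h2]; exact hd

theorem fin (α : Type) [Finite α] (S : Type) [Monoid S] [Finite S] (φ : α → S) (s : S) :
    HL 3 ({w | (w.map φ).prod = s} : Language α) := by
  classical
  have := Fintype.ofFinite S
  obtain ⟨act, hadd, hone, hmul, hfaith⟩ := Blk467.exists_module S
  obtain ⟨m, r, hG⟩ := G1_852.gadget (S := S) (V := S → ZMod 2) act
  obtain ⟨K, hE⟩ := Crest.Agent.R320.ExactR_237.exact_gadget α S (S → ZMod 2) φ act (2 + 2 * (r + m))
  obtain ⟨Ms, M, hcard, hMs, hM, hG1⟩ := hG (2 ^ (K + 1))
  set b : ℕ := 2 ^ (K + 5) * M + 1 with hb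
  have hbc : Nat.Coprime b M := by
    rw [hb, Nat.coprime_iff_gcd_eq_one]
    simp [Nat.add_comm, Nat.mul_comm]
  obtain ⟨lam, rho, nu, g1, g2, g3, g4⟩ := hG1 b (by omega) hbc α φ
  set N : ℕ := b ^ m with hN
  obtain ⟨c, hcm, hc0, hc1, hc2, hc3, -, hc5⟩ := Sp314.spoil K N m M b Ms hM
    (fun k hk => ⟨(hMs k hk).1, (hMs k hk).2.2⟩) hbc (by omega)
  set p0 : ℕ := c K with hp0
  have hcle : ∀ k < K, c k ≤ p0 := fun k hk => (hcm hk).le
  obtain ⟨lam2, rho2, nu2, e2, e3⟩ := hE c (fun i j hij _ => hcm hij)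
  obtain ⟨n, Wo, hn, hloc, hlen, hsep, hP4⟩ := P4_928.p4 α (2 * (p0 + N) + 2)
  set z : ℕ := 4 * p0 + 2 * N + n + 1 with hz
  let d : Dat α S (S → ZMod 2) :=
    { f := φ, act := act, Wo := Wo, n := n, W := 2 * (p0 + N) + 2, z := z, p0 := p0, N := N, La := 0
      C0 := r + m, BadT := Sp314.Bad Ms M m b, lam := lam, rho := rho, nu1 := nu, K := K, c := c
      lam2 := lam2, rho2 := fun k Q => rho2 k Q 1, nu2 := fun u => nu2 u 1 }
  have hd : d.Ok := by
    constructor
    · exact hloc
    · exact hsep
    · show 4 * p0 + 2 * N + n + 0 ≤ z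
      omega
    · exact hn
    · show 2 * (p0 + N) + 2 ≤ 2 * (p0 + N) + 2
      exact le_rfl
    · intro p v h
      exact (g1 p v h).le
    · intro p q v r h1 h2 _
      exact g2 p q v r h1 h2
    · intro u _ hu v
      have hu' : ¬ Sp314.Bad Ms M m b u.length := hu
      obtain ⟨P, Q, h1, h2, v', h3⟩ := g3 u (fun k hk hd => hu' (Or.inl ⟨k, hk, hd⟩)) (by
        intro j hj
        by_contra hh
        refine hu' (Or.inr ⟨j, hj, ?_⟩)
        intro h; exact hh ⟨h.1, by omega⟩) v
      exact ⟨P, Q, h1.symm, h2, by rw [show d.rho Q = rho Q from rfl, h3]; rfl⟩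
    · exact hcle
    · intro k _ l _ h
      exact hcm.injective h
    · intro k hk P Q v b' hP _ h1 h2
      have := e2 k hk P Q 1 v b' hP h1 h2
      rw [mul_one] at this
      exact this
    · intro u v hu
      obtain ⟨I, hI, hI2⟩ := e3 u 1 v (fun k hk => by rw [hu]; exact hcle k hk)
      exact ⟨I, hI, hI2⟩
    · intro i _ j _ k _ l _ hij hkl hne
      have hij' : d.c i = c i := rfl
      show c i + c l + 2 * N < c k + c j ∨ c k + c j + 2 * N < c i + c l
      by_contra hh
      have h1 : |((c i : ℤ) - c j) - ((c k : ℤ) - c l)| ≤ 4 * N := by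
        rw [abs_le]; constructor <;> omega
      exact hne (hc3 i j k l hij h1)
    · intro T _ hT
      obtain ⟨P, hP, hP2⟩ := hc5 T (fun i hi => (hcle i hi).trans hT)
      refine (Finset.card_le_card (t := P) ?_).trans (hP.trans (by
        show Ms.card + m ≤ r + m
        omega))
      rintro ⟨i, j⟩ hij
      rw [Finset.mem_filter, Finset.mem_product, Finset.mem_range, Finset.mem_range] at hij
      exact hP2 i hij.1.1 j hij.1.2 hij.2.1 hij.2.2
  obtain ⟨hX0, hXreg, hTreg, hTphi, hXT⟩ := hP4 (fun t => z ≤ t) z (fun t h => h)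
  have eX : ∀ w, w ∈ d.XX ↔ w ∈ P4_928.XX Wo (fun t => z ≤ t) := by
    intro w
    constructor
    · rintro ⟨h1, h2, h3⟩
      exact ⟨h2, h1, fun t ht hzt => h3 t hzt ht⟩
    · rintro ⟨h1, h2, h3⟩
      exact ⟨h2, h1, fun t hzt ht => h3 t ht hzt⟩
  have hMb : 0 < M * b ^ m := Nat.mul_pos hM (Nat.pow_pos (by omega))
  have hnu : ∀ x, Language.IsRegular ({Y | nu Y = x} : Language α) := by
    intro x
    refine reg_drop φ (b ^ m) (M * b ^ m) hMb ?_
    intro u u' h1 h2 h3 hu
    have := (g4 u u' h1 h2 h3).2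
    show nu u' = x
    rw [← this]; exact hu
  have H1 : HL 1 d.XX := (hX0 1).congr eX
  have H3 : ∀ x y, HL 1 (ZT d.XX d.T x y) := by
    intro x y
    refine (hXT S (S → ZMod 2) φ act nu (fun u => nu2 u 1) p0 hnu x y).congr fun w => ?_
    constructor
    · rintro ⟨h1, h2⟩; exact ⟨(eX w).1 h1, h2⟩
    · rintro ⟨h1, h2⟩; exact ⟨(eX w).2 h1, h2⟩
  have H2 : HL 1 d.Bad := by
    have hreg : Language.IsRegular ({w | d.z ≤ w.length ∧ (d.BE w ∨ d.BadT (w.length - d.p0))} : Language α) := by
      refine P4_928.reg_key φ (z + N) (M * b ^ m) hMb ?_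
      intro u u' h1 h2 h3 h4 _ hu
      obtain ⟨hzu, hu⟩ := hu
      refine ⟨show z ≤ u'.length by omega, ?_⟩
      rcases hu with (⟨t, a1, a2, a3⟩ | h) | h
      · left; left
        refine ⟨t, a1, a2, ?_⟩
        have a2' : t < z := a2
        have e1 : u.take t = u'.take t := by
          have := congrArg (List.take t) h3
          rwa [List.take_take, List.take_take, min_eq_left (by omega)] at this
        rw [← e1]; exact a3
      · exfalso
        have : u.length < z + N := h
        omega
      · right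
        refine bad_per (fun k hk => (hMs k hk).2.2) ?_ h
        exact mod_sub (p := p0) (show p0 ≤ u.length by omega) (show p0 ≤ u'.length by omega) h4
    refine (hXreg _ hreg).congr fun w => ?_
    constructor
    · rintro ⟨h1, h2⟩; exact ⟨⟨h1.1, h2⟩, (eX w).1 h1⟩
    · rintro ⟨h1, h2⟩; exact ⟨(eX w).2 h2, h1.2⟩
  have H4 : ∀ s, HL 3 ({w | (∀ u ∈ d.XX, ¬ u <+: w) ∧ d.ph w = s} : Language α) := by
    intro s
    refine ((hTphi S φ s).mono (by norm_num)).congr fun w => ?_
    constructor
    · rintro ⟨h1, h2⟩; exact ⟨fun X hX => h1 X ((eX X).2 hX), h2⟩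
    · rintro ⟨h1, h2⟩; exact ⟨fun X hX => h1 X ((eX X).1 hX), h2⟩
  have F1 : ∀ v, {p | p ∈ d.L1 v}.Finite := fun v =>
    (List.finite_length_le α (p0 + N)).subset fun p hp => hp.2.1
  have F2 : ∀ v, {p | p ∈ d.L2 v}.Finite := fun v =>
    (List.finite_length_le α p0).subset fun p hp => by
      obtain ⟨k, hk, h1, -⟩ := hp
      show p.length ≤ p0
      rw [h1]; exact hcle k hk
  refine Top5_110.top_sem (φ := d.ph) (act := act) (XX := d.XX) (Bad := d.Bad) (T := d.T)
    (N1 := 0) (N2 := 1) (L1 := d.L1) (L2 := d.L2) rfl d.ph_append hone hmul hfaith (pc hd)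
    (fun u hu => hu.1) ?_ H1 H2 H3 H4 F1 F2 (c1 hd) (c2 hd) s
  intro u hu v v'
  have hph : d.ph u = d.ph (u.take d.p0) * d.ph (u.drop d.p0) := by
    rw [← d.ph_append, List.take_append_drop]
  have hsub : ∀ (x y : S → ZMod 2) (t : S), act (x - y) t = act x t - act y t := by
    intro x y t
    have := hadd (x - y) y t
    rw [sub_add_cancel] at this
    rw [this]; simp
  rw [hph, hmul, hsub, hsub]
  show (act (act v _ + _) _ + _) - (act (act v' _ + _) _ + _) = _
  rw [hadd, hadd]
  abel

end Crest.Agent.R320.Fin2_774
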