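import Crest.Agent.R320.Fin_933

/-!
# Row 320 (helper933): `fin` = all hypotheses of `Top5_870.top` from `Inst946.Ok`
-/

set_option autoImplicit false

namespace Crest.Agent.R320.Fin_933

open Crest.RegLang Crest.Agent.R320.Hk_851 Crest.Agent.R320.BddReg_746 Crest.Agent.R320.P4_933
open Crest.R320.Inst946

universe u

variable {α V S : Type u} [AddCommGroup V] [Monoid S]
variable {D : Par α V S} {f : α → S} {A M0 B R : ℕ}

theorem hl_R1 [Finite α] [Finite S] (hfs : Fs D f A M0) (hw : Wl D B R) (b : V) :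
    HL 1 ({Q | D.R1 Q = some b} : Language α) := by
  have h1 : Language.IsRegular ({u : List α | D.rho u = some b} : Language α) :=
    regular_of_class' f A M0 hfs.M0pos _ fun u u' h1 h2 h3 h4 h5 => by
      rw [hfs.rho u u' h1 h2 h3 h4 h5]
  have h2 : Language.IsRegular ({u : List α | D.q + D.N1 ≤ u.length} : Language α) :=
    Crest.Agent.R320.Reg_852.HL.isRegular (HL.length_ge (k := 0) (D.q + D.N1))
  have h3 : Language.IsRegular ({u : List α | D.q + D.N1 ≤ u.length ∧ D.rho u = some b} :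
      Language α) := h2.inf h1
  refine (hl_XX (z := D.q) hw.loc hw.len hw.free h3).congr fun Q => ?_
  show D.R1 Q = some b ↔ _
  unfold Par.R1
  constructor
  · intro h
    split_ifs at h with hc
    obtain ⟨c1, c2, c3⟩ := hc
    exact ⟨⟨c1, by omega, fun t ht hq => c3 t hq ht⟩, c2, h⟩
  · rintro ⟨⟨c1, _, c3⟩, c2, h⟩
    rw [if_pos ⟨c1, c2, fun t hq ht => c3 t ht hq⟩]
    exact h

theorem reg_head [Finite α] [Finite S] (hfs : Fs D f A M0) (hφ : D.φ = fun w => (w.map f).prod)
    (k m : ℕ) (y v1 : V) :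
    Language.IsRegular ({P : List α | D.rho2 k (P.take m) = some y ∧
      D.act y (D.φ (P.drop m)) + D.nu1 (P.drop m) = v1} : Language α) := by
  have h1 : Language.IsRegular ({P : List α | D.rho2 k (P.take m) = some y} : Language α) :=
    regular_of_class' f m 1 one_pos _ fun u u' _ _ h3 _ _ => by rw [h3]
  have h2 : Language.IsRegular ({P : List α | D.act y (D.φ (P.drop m)) + D.nu1 (P.drop m) = v1} :
      Language α) :=
    regular_of_class' f (m + A) M0 hfs.M0pos _ fun u u' h1 h2 h3 h4 h5 => by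
      obtain ⟨_, a2, a3, a4, a5, a6, a7⟩ := shift h1 h2 h3 h4 h5
      have hn := hfs.nu _ _ a2 a3 a4 a5 a6
      simp only [hφ, a7, hn]
  exact h1.inf h2

theorem hl_XXT [Finite α] [Finite S] (hfs : Fs D f A M0) (hw : Wl D B R)
    (hφ : D.φ = fun w => (w.map f).prod) (v v' : V) :
    HL 1 ({X | X ∈ D.XX ∧ D.T v X = v'} : Language α) := by
  refine (hl_XX (z := D.z) hw.loc hw.len hw.free (reg_T hfs hφ v v')).congr fun w => ?_
  constructor
  · rintro ⟨h1, h2⟩; exact ⟨(mem_XX w).1 h1, h2⟩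
  · rintro ⟨h1, h2⟩; exact ⟨(mem_XX w).2 h1, h2⟩

/-- the good first parts of right words of scheme 2 -/
def HD (D : Par α V S) (k : ℕ) (y v1 : V) : Language α :=
  {P | D.FE (D.z - D.c k) P P.length ∧ (D.rho2 k (P.take (D.p0 - D.c k)) = some y ∧
      D.act y (D.φ (P.drop (D.p0 - D.c k))) + D.nu1 (P.drop (D.p0 - D.c k)) = v1)}

def TL (D : Par α V S) (v1 b : V) : Language α := {X | X ∈ D.XX ∧ D.T v1 X = b}

def CD (D : Par α V S) (k : ℕ) : Language α := {Q | D.cand k Q}

def UN (D : Par α V S) (k : ℕ) : Language α := {Q | ∀ k', k' < D.K → D.cand k' Q → k' = k}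

theorem hl_UN [Finite α] [Finite S] (hfs : Fs D f A M0) (hw : Wl D B R) (k : ℕ) :
    HL 1 (UN D k) := by
  have h := HL.biInter (k := 1) ((Set.finite_lt_nat D.K).subset
    (fun k' (h : k' ∈ {k' : ℕ | k' < D.K ∧ k' ≠ k}) => h.1))
    (L := fun k' => ({Q | ¬ D.cand k' Q} : Language α))
    fun k' _ => (hl_cand hfs hw k').setOf_not
  refine h.congr fun Q => ?_
  constructor
  · intro h k' hk' hc
    exact hk'.2 (h k' hk'.1 hc)
  · intro h k' hk' hc
    by_contra hne
    exact h k' ⟨hk', hne⟩ hc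

theorem hl_R2 [Finite α] [Finite S] [Finite V] (hfs : Fs D f A M0) (hw : Wl D B R)
    (hφ : D.φ = fun w => (w.map f).prod) (b : V) :
    HL 1 ({Q | D.R2 Q = some b} : Language α) := by
  have key : HL 1 ({Q | ∃ k ∈ {k : ℕ | k < D.K}, Q ∈ (CD D k ⊓ UN D k) ⊓
      ({Q | ∃ y : V, Q ∈ ({Q | ∃ v1 : V, Q ∈ HD D k y v1 * TL D v1 b} : Language α)} :
        Language α)} : Language α) := by
    refine HL.biUnion (Set.finite_lt_nat D.K) fun k _ => ?_
    refine ((hl_cand hfs hw k).inf (hl_UN hfs hw k)).inf ?_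
    refine HL.iUnion fun y => HL.iUnion fun v1 => ?_
    exact (hl_FE hw (D.z - D.c k) (reg_head hfs hφ k (D.p0 - D.c k) y v1)).mul
      (hl_XXT hfs hw hφ v1 b)
  refine key.congr fun Q => ?_
  show D.R2 Q = some b ↔ _
  rw [Ok.R2_iff]
  have hz : D.z = D.p0 + D.q + D.N1 := rfl
  constructor
  · rintro ⟨k, e, y, h1, h2, h3, ⟨g1, g2, g3, g4⟩, h5, h6, h7⟩
    have hl : (Q.take e).length = e := by rw [List.length_take]; omega
    refine ⟨k, h1, ⟨h2, h3⟩, y, _, Language.mem_mul.2 ⟨Q.take e, ⟨⟨le_rfl, by rw [hl]; exact g2,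
      ?_, ?_⟩, ?_, rfl⟩, Q.drop e, ⟨h5, h7.symm⟩, List.take_append_drop _ _⟩⟩
    · rw [List.take_length]; exact g3
    · intro t ht ht'
      rw [hl] at ht'
      rw [List.take_take, min_eq_left (by omega)]
      exact g4 t ht ht'
    · rw [List.take_take, min_eq_left (by omega)]; exact h6
  · rintro ⟨k, h1, ⟨h2, h3⟩, y, v1, h⟩
    obtain ⟨P, ⟨⟨-, g2, g3, g4⟩, h6, h8⟩, X2, ⟨h5, h7⟩, rfl⟩ := Language.mem_mul.1 h
    rw [List.take_length] at g3
    have hk' : k < D.K := h1
    refine ⟨k, P.length, y, hk', h2, h3, ⟨by simp, g2, ?_, ?_⟩, ?_, ?_, ?_⟩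
    · rw [List.take_left]; exact g3
    · intro t ht ht'
      rw [List.take_append_of_le_length ht'.le]
      exact g4 t ht ht'
    · rw [List.drop_left]; exact h5
    · rw [List.take_append_of_le_length (by omega)]; exact h6
    · rw [List.drop_left, List.take_left, h8, h7]

theorem nb_of_short {P : List α} (h : P.length < D.z) :
    Top5_870.NB (fun X => X ∈ D.XX) P := by
  rintro x y rfl ⟨-, h2, -⟩
  simp only [List.length_append] at h
  omega

/-- **JOINT** -/
theorem fin [Finite α] [Finite S] [Finite V] (hok : Ok D) (hφ : D.φ = fun w => (w.map f).prod)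
    (act_one : ∀ v, D.act v 1 = v) (faithful : ∀ g h, (∀ v, D.act v g = D.act v h) → g = h)
    (hfs : Fs D f A M0) (hw : Wl D B R) (s : S) :
    HL 3 ({w | (w.map f).prod = s} : Language α) := by
  have hz : D.z = D.p0 + D.q + D.N1 := rfl
  have hq0 := hok.q0
  have h := Top5_870.top (XX := fun X => X ∈ D.XX) (T := D.T) D.φ hok.φ_mul
    (by rw [hφ]; simp) D.act act_one (fun v g h => (hok.act_mul v g h).symm) faithful
    (fun x y h1 h2 => hok.prefix_code x h2 y h1) hok.nil_not_mem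
    (fun v v' => hl_XXT hfs hw hφ v v')
    (fun g => by
      have h2 := hl_NB (z := D.z) hw.loc hw.len hw.free (reg_phi (D := D) (f := f) hφ g)
      refine h2.congr fun w => ?_
      constructor
      · rintro ⟨a1, a2⟩
        refine ⟨(NB_iff _ _ _).2 ?_, a2⟩
        rintro P ⟨Q, rfl⟩ hP
        exact a1 P Q rfl ((mem_XX P).2 hP)
      · rintro ⟨a1, a2⟩
        refine ⟨?_, a2⟩
        rintro P Q rfl hP
        exact (NB_iff _ _ _).1 a1 P ⟨Q, rfl⟩ ((mem_XX P).1 hP))
    (fun v v' X => by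
      rw [hok.hT v X, hok.hT v' X, add_sub_add_right_eq_sub, sub_eq_iff_eq_add, ← hok.act_add,
        sub_add_cancel])
    (fun v P => D.LP1 P v) (fun v P => D.LP2 P v) D.R1 D.R2
    (fun v => (List.finite_length_le α (D.p0 + D.N1)).subset fun P hP => hP.2.1)
    (fun v => (List.finite_length_le α D.p0).subset fun P hP => by
      obtain ⟨k, hk, hl, -⟩ := hP
      have := hok.c_lt k hk
      show P.length ≤ D.p0
      omega)
    (fun v P hP => nb_of_short (by have := hP.2.1; omega))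
    (fun v P hP => nb_of_short (by
      obtain ⟨k, hk, hl, -⟩ := hP
      have := hok.c_lt k hk
      omega))
    (fun b => hl_R1 hfs hw b) (fun b => hl_R2 hfs hw hφ b)
    (by
      unfold Par.R1
      rw [if_neg]
      rintro ⟨-, h2, -⟩
      simp only [List.length_nil] at h2
      omega)
    (by
      rcases hR : D.R2 [] with _ | b
      · rfl
      · exfalso
        rw [Ok.R2_iff] at hR
        obtain ⟨k, e, y, h1, -, -, ⟨g1, g2, -, -⟩, -⟩ := hR
        have := hok.c_lt k h1
        simp only [List.length_nil] at g1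
        omega)
    (fun v P Q b h1 h2 => hok.s1 P v Q b h1 h2)
    (fun v P Q b h1 h2 hun => by
      obtain ⟨Q1, X2, e1, -, e3, e4, e5⟩ := hok.s2 P v Q b h1 h2 (by
        rintro X hX ⟨y, hy⟩ P' Q' rfl hl hLP hR
        have hpre : P <+: P' := by
          refine List.prefix_of_prefix_length_le (l₃ := P ++ Q) ⟨Q, rfl⟩ ?_ hl
          exact ⟨Q' ++ y, by rw [← hy]; simp⟩
        obtain ⟨P'', rfl⟩ := hpre
        have e : Q = P'' ++ Q' ++ y := by
          have h3 : P ++ (P'' ++ Q' ++ y) = P ++ Q := by rw [← hy]; simp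
          exact (List.append_cancel_left h3).symm
        have h4 := hun P'' Q' y e (nb_of_short (by have := hLP.2.1; omega)) hLP
        rw [h4] at hR
        exact absurd hR (by simp))
      exact ⟨P ++ Q1, X2, e3, e4, by rw [e1]; simp, e5⟩)
    (fun X1 X2 v h1 h2 => by
      rcases hok.cc X1 h1 X2 h2 v with ⟨P, Q, a1, a2, a3⟩ | ⟨P, Q, a1, -, a2, a3⟩
      · exact Or.inl ⟨P, Q, a1, a2, fun h => by rw [h] at a3; exact absurd a3 (by simp)⟩
      · exact Or.inr ⟨P, Q, a1, a2, fun h => by rw [h] at a3; exact absurd a3 (by simp)⟩)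
    s
  rw [hφ] at h
  exact h

end Crest.Agent.R320.Fin_933
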