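import Crest.Agent.R320.Fin391b_391

set_option autoImplicit false

namespace Crest.Agent.R320.Fin391_391

open Finset Crest.RegLang Crest.Agent.R320.Hk_851 Crest.Agent.R320.Grid_899
  Crest.Agent.R320.Fin391a_391 Crest.Agent.R320.Fin391b_391

set_option maxHeartbeats 1000000 in
theorem fin (α : Type) [Finite α] (S : Type) [Monoid S] [Finite S] (φ : α → S) (s : S) :
    HL 3 ({w | (w.map φ).prod = s} : Language α) := by
  classical
  haveI := Fintype.ofFinite S
  obtain ⟨act, hadd, hone, hmul, hfaith⟩ := Blk467.exists_module S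
  obtain ⟨k, m, hgrid⟩ := grid_gadget_reg S (S → ZMod 2) act
  obtain ⟨K, hK⟩ := ExactR_237.exact_gadget α S (S → ZMod 2) φ act (2 * (k + m) + 2)
  obtain ⟨q, hq, hqi⟩ := exists_primes k (2 ^ (K + 1))
  have hodd : ∀ j, Odd (q j) := fun j => (hq j).1.odd_of_ne_two (by have := (hq j).2.2; omega)
  have hcop : Pairwise (fun i j => Nat.Coprime (q i) (q j)) := fun i j hij =>
    (Nat.coprime_primes (hq i).1 (hq j).1).2 fun h => hij (hqi h)
  obtain ⟨κ, hκ1, hκ⟩ := growth K (∏ j, q j)
  obtain ⟨lam, rho, nu1, hlen, hrl, hsound, hcompl, hreg⟩ := hgrid q hodd hcop κ α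
    (fun w => (w.map φ).prod) (fun u v => by simp)
  set M : ℕ := ∏ j, q j with hM
  have hM0 : 0 < M := Finset.prod_pos fun j _ => (hq j).1.pos
  have hAm : ∀ i j, i ≤ j → Am M κ i ≤ Am M κ j := by
    intro i j hij
    induction hij with
    | refl => exact le_rfl
    | step _ ih => exact ih.trans (by simp only [Am]; omega)
  set A : ℕ := Am M κ (m + 1) with hA
  set N1 : ℕ := A + 1 with hN1
  have hlen1 : ∀ P v, lam P = some v → P.length ≤ A := fun P v h =>
    ((hlen P v h).1.le).trans (hAm m (m + 1) (by omega))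
  set Ms : Finset ℕ := Finset.univ.image q with hMs
  have hMsM : ∀ p ∈ Ms, p ∣ M := by
    intro p hp
    obtain ⟨j, -, rfl⟩ := Finset.mem_image.1 hp
    exact Finset.dvd_prod_of_mem q (Finset.mem_univ j)
  have hMscard : Ms.card ≤ k := by
    refine Finset.card_image_le.trans ?_
    simp
  obtain ⟨X, hX0, hXpos, hthin0⟩ := Thin963.thin K m Ms (fun i => (G κ i : ℤ))
    (fun i => ((M * G κ i : ℕ) : ℤ)) (fun i => (Am M κ i : ℤ))
    (by
      intro p hp
      obtain ⟨j, -, rfl⟩ := Finset.mem_image.1 hp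
      exact ⟨(hq j).1, by exact_mod_cast (hq j).2.1⟩)
    (by
      intro p hp
      obtain ⟨j, -, rfl⟩ := Finset.mem_image.1 hp
      have h1 : Nat.Coprime (q j) (G κ m) := by
        unfold G
        exact Nat.Coprime.pow_right _ (Nat.Coprime.symm ((Nat.coprime_primes Nat.prime_two
          (hq j).1).2 (by have := (hq j).2.2; omega)))
      exact Nat.isCoprime_iff_coprime.2 h1)
    (by exact_mod_cast G_pos m)
    (fun i j hij => by exact_mod_cast G_dvd hij)
    (fun i => by exact_mod_cast Nat.mul_pos hM0 (G_pos i))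
    (fun i => by exact_mod_cast Dvd.intro_left _ rfl)
    (fun i _ => by exact_mod_cast hκ i)
    (2 * N1 + 1)
  obtain ⟨Xn, rfl⟩ := Int.eq_ofNat_of_zero_le hXpos.le
  have hXn : 2 * N1 ≤ Xn := by
    have : ((2 * N1 + 1 : ℕ) : ℤ) ≤ (Xn : ℤ) := by push_cast; exact_mod_cast hX0
    have := Int.ofNat_le.1 this
    omega
  have hXn0 : 0 < Xn := by omega
  set c : ℕ → ℕ := fun j => Xn * 2 ^ j with hc
  have hcmono : ∀ i j, i < j → c i < c j := fun i j hij =>
    Nat.mul_lt_mul_of_pos_left (Nat.pow_lt_pow_right (by norm_num) hij) hXn0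
  set p0 : ℕ := c K with hp0
  have hcp : ∀ i, i < K → c i ≤ p0 := fun i hi => (hcmono i K hi).le
  obtain ⟨lam2, rho2, nu2, hex2, hco2⟩ := hK c (fun i j hij _ => hcmono i j hij)
  obtain ⟨n, G', B, Wo, hLW, hgapW, -, -, hfree⟩ := LWallAll_922.walls_all_left α
    (2 * p0 + 2 * N1 + 1) (by omega)
  let g : Sc2n_937.Geo α :=
    { Wo := Wo, n := n, z := p0 + N1 + (n + 2 * p0 + 2 * A + 2), p0 := p0,
      q0 := n + 2 * p0 + 2 * A + 2, N1 := N1, loc := hLW.app, hz := rfl, hq := by omega,
      hN := by omega, hqp := by omega }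
  have hgz : g.z = p0 + N1 + (n + 2 * p0 + 2 * A + 2) := rfl
  set nuX : List α → (S → ZMod 2) := fun X => nu2 X 1 with hnuX
  set nuY : List α → (S → ZMod 2) := nuL lam rho nu1 with hnuY
  let pre : List α → (S → ZMod 2) → (S → ZMod 2) := fun X v => act v (X.map φ).prod + nuX X
  let post : (S → ZMod 2) → List α → (S → ZMod 2) := fun u Y => act u (Y.map φ).prod + nuY Y
  set nu : List α → (S → ZMod 2) := nuA φ act p0 nuX nuY with hnu
  let BT : ℕ → Prop := fun n => Thin963.BadT Ms m (fun i => (G κ i : ℤ))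
    (fun i => ((M * G κ i : ℕ) : ℤ)) (fun i => (Am M κ i : ℤ)) (n : ℤ)
  let rho2' : ℕ → List α → Option (S → ZMod 2) := fun k Q => rho2 k Q 1
  have hT : ∀ v X, g.T pre post v X = act v (X.map φ).prod + nu X := by
    intro v X
    change act (act v ((X.take p0).map φ).prod + nuX (X.take p0)) ((X.drop p0).map φ).prod +
      nuY (X.drop p0) = _
    rw [hadd, ← hmul, ← List.prod_append, ← List.map_append, List.take_append_drop, add_assoc]
    rfl
  have hsoundY : ∀ P Q u b, lam P = some u → rho Q = some b → b = post u (P ++ Q) := by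
    intro P Q u b hl hr
    change b = act u ((P ++ Q).map φ).prod + nuL lam rho nu1 (P ++ Q)
    rw [nuL_of_legal hl hr]
    exact hsound P Q u b hl hr
  have hex2' : ∀ k, k < K → ∀ P Q v u, P.length = c k → Q.length = g.p0 - c k →
      lam2 k P = some v → rho2' k Q = some u → u = pre (P ++ Q) v := by
    intro k hk P Q v u hP _ hl hr
    have := hex2 k hk P Q 1 v u hP hl hr
    rw [mul_one] at this
    exact this
  set C : Set (List α) := {X | g.XX X} with hC
  set Bad : Set (List α) := {X | g.XX X ∧ g.BadX BT X} with hBad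
  have hPC : Blk467.PCode C := by
    refine ⟨?_, ?_⟩
    · intro h
      have h1 : g.z ≤ ([] : List α).length := h.1
      rw [hgz] at h1
      simp at h1
    · rintro Y hY Z hZ ⟨R, e⟩
      exact g.prefix_code (R := R) (R' := []) hY hZ (by rw [e, List.append_nil])
  have hlenN : ∀ P v, lam P = some v → P.length ≤ g.N1 := fun P v h =>
    (hlen1 P v h).trans (by change A ≤ N1; omega)
  have hfree' := free_PN hfree
  -- the key of a block
  set B0 : ℕ := g.z + N1 + p0 + A + A with hB0
  have hkeyY : ∀ Y Y' : List α, B0 - p0 ≤ Y.length → B0 - p0 ≤ Y'.length →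
      Y.take (B0 - p0) = Y'.take (B0 - p0) → Y.length ≡ Y'.length [MOD M * G κ m] →
      ((Y.drop (B0 - p0)).map φ).prod = ((Y'.drop (B0 - p0)).map φ).prod → nuY Y = nuY Y' := by
    intro Y Y' h1 h2 h3 h4 h5
    have e : B0 - p0 = (B0 - p0 - A) + A := by omega
    rw [e] at h1 h2 h3 h5
    exact nuL_key φ act (Nm := B0 - p0 - A) (A := A) (P0 := M * G κ m)
      (fun P v h => (hlen1 P v h).trans (by omega)) hsound hreg h1 h2 h3 h4 h5
  have hkey : ∀ q q' : List α, B0 ≤ q.length → B0 ≤ q'.length → q.take B0 = q'.take B0 →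
      q.length % (M * G κ m) = q'.length % (M * G κ m) →
      ((q.drop B0).map φ).prod = ((q'.drop B0).map φ).prod →
      nu q = nu q' ∧ (q.map φ).prod = (q'.map φ).prod := by
    intro q q' h1 h2 h3 h4 h5
    exact nuA_key φ act (by omega) hkeyY h1 h2 h3 h4 h5
  have hkeyB : ∀ q q' : List α, B0 ≤ q.length → B0 ≤ q'.length → q.take B0 = q'.take B0 →
      q.length % (M * G κ m) = q'.length % (M * G κ m) → g.BadX BT q → g.BadX BT q' := by
    intro q q' h1 h2 h3 h4 h
    rcases h with ⟨t, ht, hw, h5, h6⟩ | h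
    · left
      have h7 : t ≤ B0 := by
        have : t < g.z + N1 := h6
        omega
      refine ⟨t, by omega, ?_, h5, h6⟩
      have e : (q.take B0).take t = (q'.take B0).take t := by rw [h3]
      rw [List.take_take, List.take_take, Nat.min_eq_left h7] at e
      rw [← e]
      exact hw
    · right
      refine badT_congr hMsM ?_ h
      have h8 : ((q.length : ℤ) - q'.length) % ((M * G κ m : ℕ) : ℤ) = 0 := by
        have : (q.length : ℤ) ≡ q'.length [ZMOD ((M * G κ m : ℕ) : ℤ)] :=
          (Int.natCast_modEq_iff).2 h4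
        exact Int.emod_eq_zero_of_dvd (Int.modEq_iff_dvd.1 this.symm)
      have e1 : ((q.length - g.p0 : ℕ) : ℤ) = q.length - p0 := by
        rw [Nat.cast_sub (by change p0 ≤ _; omega)]
      have e2 : ((q'.length - g.p0 : ℕ) : ℤ) = q'.length - p0 := by
        rw [Nat.cast_sub (by change p0 ≤ _; omega)]
      rw [e1, e2]
      have e3 : (q.length : ℤ) - p0 - (q'.length - p0) = q.length - q'.length := by ring
      rw [e3]
      exact Int.dvd_of_emod_eq_zero h8
  have hP0 : 0 < M * G κ m := Nat.mul_pos hM0 (G_pos m)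
  have hXX : ∀ X, X ∈ C ↔ P4_933.XX Wo g.z X := by
    intro X
    constructor
    · rintro ⟨h1, h2, h3⟩
      exact ⟨h2, h1, fun t h4 h5 => h3 t h5 h4⟩
    · rintro ⟨h1, h2, h3⟩
      exact ⟨h2, h1, fun t h4 h5 => h3 t h5 h4⟩
  refine Top5_120.top5 act hadd hone hmul hfaith φ nu C Bad hPC (fun X h => h.1)
    (fun v => {P | g.LP1 pre lam v P}) (fun v => {P | Sc2n_937.Geo.LP2 K c lam2 v P})
    ?_ ?_ ?_ ?_ ?_ ?_ ?_ s
  · intro v
    refine (List.finite_length_lt α (p0 + A + 1)).subset ?_
    rintro P ⟨h1, h2⟩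
    have h3 := hlen1 _ _ h2
    rw [List.length_drop] at h3
    have h4 : p0 ≤ P.length := h1
    have h5 : P.length - p0 ≤ A := h3
    change P.length < p0 + A + 1
    omega
  · intro v
    refine (List.finite_length_lt α (p0 + 1)).subset ?_
    rintro P ⟨k, h1, h2, h3⟩
    have := hcp k h1
    change P.length < p0 + 1
    omega
  · intro x y
    refine (P4_933.hl_XX (z := g.z) hLW.app hLW.len hfree'
      (f := fun X => act x (X.map φ).prod + nu X = y) ?_).congr fun X => ?_
    · refine RegCongr_253.regular_of_congr φ B0 (M * G κ m) hP0 _ ?_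
      intro q q' h1 h2 h3 h4 h5 h6
      obtain ⟨e1, e2⟩ := hkey q q' h1 h2 h3 h4 h5
      change act x (q'.map φ).prod + nu q' = y
      rw [← e1, ← e2]
      exact h6
    · exact and_congr_left fun _ => hXX X
  · intro x y
    refine (P4_933.hl_XX (z := g.z) hLW.app hLW.len hfree'
      (f := fun X => g.BadX BT X ∧ act x (X.map φ).prod + nu X = y) ?_).congr fun X => ?_
    · refine RegCongr_253.regular_of_congr φ B0 (M * G κ m) hP0 _ ?_
      intro q q' h1 h2 h3 h4 h5 h6
      obtain ⟨e1, e2⟩ := hkey q q' h1 h2 h3 h4 h5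
      refine ⟨hkeyB q q' h1 h2 h3 h4 h6.1, ?_⟩
      change act x (q'.map φ).prod + nu q' = y
      rw [← e1, ← e2]
      exact h6.2
    · constructor
      · rintro ⟨⟨h1, h2⟩, h3⟩
        exact ⟨(hXX X).1 h1, h2, h3⟩
      · rintro ⟨h1, h2, h3⟩
        exact ⟨⟨(hXX X).2 h1, h2⟩, h3⟩
  · intro s
    refine (P4_933.hl_NB (z := g.z) hLW.app hLW.len hfree'
      (f := fun X => (X.map φ).prod = s) ?_).congr fun X => ?_
    · refine RegCongr_253.regular_of_congr φ 0 1 Nat.one_pos _ ?_
      intro q q' h1 h2 h3 h4 h5 h6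
      rw [List.drop_zero, List.drop_zero] at h5
      change (q'.map φ).prod = s
      rw [← h5]
      exact h6
    · refine and_congr_left fun _ => ?_
      rw [P4_933.NB_iff]
      constructor
      · intro h P hP hX
        exact h P ((hXX P).2 hX) hP
      · intro h P hP hX
        exact h P hX ((hXX P).1 hP)
  · -- scheme 1
    intro Y hY hYb v
    have hY' : g.XX Y := hY
    have hnE : ¬ g.E Y := fun h => hYb ⟨hY', Or.inl h⟩
    have hnB : ¬ BT (Y.length - g.p0) := fun h => hYb ⟨hY', Or.inr h⟩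
    have hYz : g.z ≤ Y.length := hY'.1
    have hYl : (Y.drop g.p0).length = Y.length - g.p0 := List.length_drop ..
    have hgp : g.p0 = p0 := rfl
    have hbig : 2 * A ≤ Y.length - g.p0 := by rw [hgp]; omega
    obtain ⟨b1, b2⟩ := band (m := m) (M := M) (κ := κ) (T := Y.length - g.p0)
      (fun j hj => (hAm j (m + 1) (by omega)).trans (by omega)) hnB
    obtain ⟨P, Q, b, e, hP, hQ⟩ := g.complete1 pre hlenN hY' hnE (rho := rho) (fun u => by
      refine hcompl (Y.drop g.p0) (by rw [hYl]; exact hbig) ?_ ?_ u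
      · intro j
        rw [hYl]
        exact b1 _ (Finset.mem_image_of_mem q (Finset.mem_univ j))
      · intro j h1 h2
        rw [hYl]
        exact b2 j h1 h2) v
    refine ⟨P, Q, e.symm, hP, ?_⟩
    have h0 := g.sound1 pre post hlenN hsoundY hP hQ
    intro x P' hP'
    have h1 := g.sound1 pre post hlenN hsoundY hP' hQ
    refine ⟨h1.1, ?_⟩
    rw [← hT, ← hT, h1.2, e, h0.2]
  · -- scheme 2
    rintro Y ⟨hY, hYb⟩ Z ⟨hZ, hZb⟩ v
    have hgapg : ∀ P Q : List α, g.Wo P → g.Wo (P ++ Q) → Q ≠ [] →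
        2 * g.p0 + 2 * g.N1 < Q.length := by
      intro P Q h1 h2 h3
      have h4 : 0 < Q.length := List.length_pos_iff.2 h3
      have := hgapW (P ++ Q) P.length (P ++ Q).length (by rw [List.length_append]; omega) le_rfl
        (by rw [List.take_left]; exact h1) (by rw [List.take_length]; exact h2)
      rw [List.length_append] at this
      change 2 * p0 + 2 * N1 < Q.length
      omega
    obtain ⟨P, Q, b, e, hP, hQ⟩ := g.complete2 pre post (BadT := BT) (K := K) (c := c)
      (lam2 := lam2) (rho2 := rho2') (C0 := k + m) hcp hgapg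
      (fun a a' l l' _ _ _ _ h1 _ h3 h4 => hsp hXn h1 h3 h4)
      (fun τ hτ J hJ => by
        refine (hthin Xn rfl hthin0 (p0 := p0) hcp τ ?_ J hJ).trans (by omega)
        have : g.z ≤ τ + p0 := hτ
        omega)
      hY hZ v (by
        obtain ⟨I, hI1, hI2⟩ := hco2 (Y.take p0) 1 v (fun a ha => by
          rw [List.length_take]
          have := hcp a ha
          have : g.z ≤ Y.length := hY.1
          omega)
        refine ⟨I, hI1, fun a ha => ?_⟩
        obtain ⟨h1, h2, h3⟩ := hI2 a ha
        refine ⟨h1, ?_, h3⟩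
        rw [List.take_take, Nat.min_eq_left (hcp a h1)] at h2
        exact h2)
    refine ⟨P, Q, e, hP, ?_⟩
    -- value of the true pair
    have hval : g.T pre post (g.T pre post v Y) Z = b := by
      obtain ⟨X2, h1, h2, h3⟩ := g.sound2 pre post (BadT := BT) (K := K) (c := c)
        (lam2 := lam2) (rho2 := rho2') hcp hex2' hY hYb hP hQ (R := []) (R' := Z)
        (by rw [List.append_nil, e])
      rw [e] at h2
      have h4 := List.append_cancel_left h2
      rw [h4]
      exact h3
    intro x P' hP'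
    have hWQ : g.Wo Q ∧ g.z ≤ Q.length := by
      obtain ⟨a, ha, l, hl, -, hx, -⟩ := hQ
      have h1 : (Q.drop l).length ≤ Q.length := by rw [List.length_drop]; omega
      have h2 : g.z ≤ (Q.drop l).length := hx.1
      refine ⟨?_, by omega⟩
      have h3 := (g.loc (Q.take l) (Q.drop l) (by
        have : g.n ≤ g.z := by change n ≤ g.z; omega
        omega)).2 hx.2.1
      rwa [List.take_append_drop] at h3
    have hfirst : ∃ t, g.z ≤ t ∧ t ≤ (P' ++ Q).length ∧ g.Wo ((P' ++ Q).take t) := by
      refine ⟨(P' ++ Q).length, by rw [List.length_append]; omega, le_rfl, ?_⟩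
      rw [List.take_length]
      refine (g.loc P' Q ?_).2 hWQ.1
      have : g.n ≤ g.z := by change n ≤ g.z; omega
      omega
    let t0 := Nat.find hfirst
    have ht0 : g.z ≤ t0 ∧ t0 ≤ (P' ++ Q).length ∧ g.Wo ((P' ++ Q).take t0) := Nat.find_spec hfirst
    have hX' : g.XX ((P' ++ Q).take t0) := by
      have hl : ((P' ++ Q).take t0).length = t0 := by rw [List.length_take]; omega
      refine ⟨by rw [hl]; exact ht0.1, ht0.2.2, ?_⟩
      intro t h1 h2 h3
      rw [hl] at h2
      rw [List.take_take, Nat.min_eq_left h2.le] at h3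
      exact Nat.find_min hfirst h2 ⟨h1, by omega, h3⟩
    by_cases hb : g.BadX BT ((P' ++ Q).take t0)
    · left
      obtain ⟨X2, h1, h2, h3⟩ := g.sound2 pre post (BadT := BT) (K := K) (c := c)
        (lam2 := lam2) (rho2 := rho2') hcp hex2' hX' hb hP' hQ (R := [])
        (R' := (P' ++ Q).drop t0) (by rw [List.append_nil, List.take_append_drop])
      refine ⟨_, ⟨hX', hb⟩, X2, h1, h2.symm, ?_⟩
      rw [← hT, ← hT, ← hT, ← hT, h3, hval]
    · right
      exact ⟨_, hX', fun h => hb h.2, List.take_prefix _ _⟩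

end Crest.Agent.R320.Fin391_391
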