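import Mathlib

/-!
Row 320, TEAM U, leaf U4 of helper638 (#13273): the spoiling count of the digit clocks
(pure arithmetic).  The ruler is `x a = 16 * 2^a * (sum of all scales)`.
-/

set_option autoImplicit false

namespace Crest.Agent.R320.Spoil_189

open Finset

def PP (R M0 M1 l : ℕ) : ℕ := (R*M0) * (R*M1)^l

def Bad (R M0 M1 m rho : ℕ) (Ms Ms1 : Finset ℕ) (n : ℕ) : Prop :=
  (n % (R*M0) < M0 ∨ R*M0 ≤ n % (R*M0) + M0) ∨ (∃ k ∈ Ms, k ∣ n) ∨
  ∃ l < m, ((n / PP R M0 M1 l) % (R*M1) < M1 ∨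
      R*M1 ≤ (n / PP R M0 M1 l) % (R*M1) + M1) ∨
    rho ≤ (Ms1.filter (· ∣ n / PP R M0 M1 l)).card

theorem two_pow_inj {a b : ℕ} (h : 2 ^ a = 2 ^ b) : a = b := Nat.pow_right_injective le_rfl h

theorem pow2_aux : ∀ a b c d : ℕ, 2^a + 2^d = 2^c + 2^b → (a = c ∧ b = d) ∨ (a = b ∧ c = d) := by
  intro a
  induction a with
  | zero =>
    intro b c d h
    rcases d with _ | d <;> rcases b with _ | b <;> rcases c with _ | c
    · left; exact ⟨rfl, rfl⟩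
    · exfalso
      have h1 := Nat.one_le_two_pow (n := c)
      simp only [pow_succ, pow_zero] at h; omega
    · exfalso
      have h1 := Nat.one_le_two_pow (n := b)
      simp only [pow_succ, pow_zero] at h; omega
    · exfalso
      simp only [pow_succ, pow_zero] at h
      have h1 := Nat.one_le_two_pow (n := b)
      have h2 := Nat.one_le_two_pow (n := c)
      omega
    · exfalso
      have h1 := Nat.one_le_two_pow (n := d)
      simp only [pow_succ, pow_zero] at h; omega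
    · right
      refine ⟨rfl, ?_⟩
      apply two_pow_inj
      simp only [pow_zero] at h
      omega
    · left
      refine ⟨rfl, ?_⟩
      apply two_pow_inj
      simp only [pow_zero] at h
      omega
    · exfalso
      simp only [pow_succ, pow_zero] at h; omega
  | succ a ih =>
    intro b c d h
    rcases d with _ | d <;> rcases b with _ | b <;> rcases c with _ | c
    · exfalso
      have h1 := Nat.one_le_two_pow (n := a)
      simp only [pow_succ, pow_zero] at h; omega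
    · left
      refine ⟨?_, rfl⟩
      apply two_pow_inj
      simp only [pow_zero] at h
      omega
    · right
      refine ⟨?_, rfl⟩
      apply two_pow_inj
      simp only [pow_zero] at h
      omega
    · exfalso
      simp only [pow_succ, pow_zero] at h; omega
    · exfalso
      have h1 := Nat.one_le_two_pow (n := a)
      have h2 := Nat.one_le_two_pow (n := d)
      simp only [pow_succ, pow_zero] at h; omega
    · exfalso
      simp only [pow_succ, pow_zero] at h; omega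
    · exfalso
      simp only [pow_succ, pow_zero] at h; omega
    · have h' : 2^a + 2^d = 2^c + 2^b := by
        simp only [pow_succ] at h; omega
      rcases ih b c d h' with ⟨h1, h2⟩ | ⟨h1, h2⟩
      · left; exact ⟨by omega, by omega⟩
      · right; exact ⟨by omega, by omega⟩

theorem pow2_int (a b c d : ℕ) (h : (2:ℤ)^a - 2^b - 2^c + 2^d = 0) :
    (a = c ∧ b = d) ∨ (a = b ∧ c = d) := by
  apply pow2_aux
  have : (2:ℤ)^a + 2^d = 2^c + 2^b := by linarith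
  exact_mod_cast this

theorem core (P q s U δ z e : ℤ) (hP : 1 ≤ P) (hs : 0 < s) (hU1 : s ≤ U) (hU2 : U ≤ 2 * s)
    (hq : 1024 * P ≤ q) (hd1 : δ ≤ 2 * P) (hd2 : -(2 * P) ≤ δ)
    (he : 16 * δ * U - q * s * z = e) (he1 : e ≤ 2 * s) (he2 : -(2 * s) ≤ e) : δ = 0 := by
  have hU0 : 0 < U := by linarith
  have hb1 : δ * U ≤ 4 * P * s := by
    have h1 : δ * U ≤ 2 * P * U := mul_le_mul_of_nonneg_right hd1 hU0.le
    have h2 : 2 * P * U ≤ 2 * P * (2 * s) := mul_le_mul_of_nonneg_left hU2 (by linarith)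
    linarith
  have hb2 : -(4 * P * s) ≤ δ * U := by
    have h1 : -(2 * P) * U ≤ δ * U := mul_le_mul_of_nonneg_right hd2 hU0.le
    have h2 : 2 * P * U ≤ 2 * P * (2 * s) := mul_le_mul_of_nonneg_left hU2 (by linarith)
    linarith
  have hPs : s ≤ P * s := by
    have := mul_le_mul_of_nonneg_right hP hs.le
    linarith
  have hqs : 1024 * (P * s) ≤ q * s := by
    have := mul_le_mul_of_nonneg_right hq hs.le
    linarith
  have hqs0 : 0 < q * s := by linarith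
  have hz : z = 0 := by
    rcases lt_trichotomy z 0 with hz | hz | hz
    · exfalso
      have h1 : z ≤ -1 := by omega
      have h2 : q * s * z ≤ q * s * (-1) := mul_le_mul_of_nonneg_left h1 hqs0.le
      nlinarith
    · exact hz
    · exfalso
      have h1 : 1 ≤ z := by omega
      have h2 : q * s * 1 ≤ q * s * z := mul_le_mul_of_nonneg_left h1 hqs0.le
      nlinarith
  rw [hz, mul_zero, sub_zero] at he
  rcases lt_trichotomy δ 0 with hd | hd | hd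
  · exfalso
    have h1 : δ ≤ -1 := by omega
    have h2 : δ * U ≤ (-1) * U := mul_le_mul_of_nonneg_right h1 hU0.le
    have h3 : 16 * δ * U = 16 * (δ * U) := by ring
    linarith
  · exact hd
  · exfalso
    have h1 : 1 ≤ δ := by omega
    have h2 : 1 * U ≤ δ * U := mul_le_mul_of_nonneg_right h1 hU0.le
    have h3 : 16 * δ * U = 16 * (δ * U) := by ring
    linarith

theorem key (K : ℕ) (q s L H T : ℤ) (hs : 0 < s) (hL0 : 0 ≤ L) (hL : L ≤ s)
    (hq : 2^(K+10) ≤ q) (hH : q * s ∣ H) {a b c d : ℕ} (ha : a < K) (hb : b < K) (hc : c < K)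
    (hd : d < K) (z1 z2 : ℤ)
    (h1 : |T + 16*2^a*(L+s+H) - 16*2^b*(L+s+H) - q*s*z1| ≤ s)
    (h2 : |T + 16*2^c*(L+s+H) - 16*2^d*(L+s+H) - q*s*z2| ≤ s) :
    (a = c ∧ b = d) ∨ (a = b ∧ c = d) := by
  obtain ⟨w, rfl⟩ := hH
  apply pow2_int
  have hp : ∀ n, n < K → (1:ℤ) ≤ 2^n ∧ (2:ℤ)^n ≤ 2^K := fun n hn =>
    ⟨one_le_pow₀ (by norm_num), pow_le_pow_right₀ (by norm_num) hn.le⟩
  have a1 := hp a ha
  have b1 := hp b hb
  have c1 := hp c hc
  have d1 := hp d hd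
  have hP : (1:ℤ) ≤ 2^K := one_le_pow₀ (by norm_num)
  have hq' : 1024 * (2:ℤ)^K ≤ q := by
    have : (2:ℤ)^(K+10) = 1024 * 2^K := by rw [pow_add]; norm_num; ring
    linarith
  rw [abs_le] at h1 h2
  refine core (2^K) q s (L + s) _ (z1 - z2 - 16 * ((2:ℤ)^a - 2^b - 2^c + 2^d) * w)
    ((T + 16*2^a*(L+s+q*s*w) - 16*2^b*(L+s+q*s*w) - q*s*z1) -
      (T + 16*2^c*(L+s+q*s*w) - 16*2^d*(L+s+q*s*w) - q*s*z2)) hP hs (by linarith) (by linarith)
      hq' ?_ ?_ ?_ ?_ ?_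
  · linarith [a1.2, d1.2, b1.1, c1.1]
  · linarith [a1.1, d1.1, b1.2, c1.2]
  · ring
  · linarith [h1.2, h2.1]
  · linarith [h1.1, h2.2]

theorem div_lemma (N s0 k : ℕ) (h : k ∣ N / s0) (hs0 : 0 < s0) :
    ∃ z : ℤ, |(N:ℤ) - (k:ℤ) * (s0:ℤ) * z| ≤ (s0:ℤ) := by
  obtain ⟨w, hw⟩ := h
  refine ⟨w, ?_⟩
  have h1 := Nat.div_add_mod N s0
  have h2 := Nat.mod_lt N hs0
  rw [hw] at h1
  have h3 : (N:ℤ) - (k:ℤ) * (s0:ℤ) * w = ((N % s0 : ℕ) : ℤ) := by
    have : (N:ℤ) = s0 * (k * w) + ((N % s0 : ℕ):ℤ) := by exact_mod_cast h1.symm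
    rw [this]
    push_cast
    have : (s0 * (k * w) + (N:ℤ) % s0) - (k:ℤ) * s0 * w = (N:ℤ) % s0 := by ring
    exact this
  rw [h3, abs_of_nonneg (by positivity)]
  exact_mod_cast h2.le

theorem digit_lemma (N s0 R M : ℕ) (hs0 : 0 < s0) (hM : 0 < M) (hR : 0 < R)
    (h : (N / s0) % (R*M) < M ∨ R*M ≤ (N / s0) % (R*M) + M) :
    ∃ z : ℤ, |(N:ℤ) - (R:ℤ) * ((s0 * M : ℕ):ℤ) * z| ≤ ((s0 * M : ℕ):ℤ) := by
  have h1 := Nat.div_add_mod N s0
  have h2 := Nat.mod_lt N hs0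
  have h3 := Nat.div_add_mod (N / s0) (R*M)
  have h4 := Nat.mod_lt (N / s0) (Nat.mul_pos hR hM)
  set r := N % s0
  set D := N / s0
  set w := D / (R*M)
  set ρ := D % (R*M)
  have e1 : (N:ℤ) = s0 * D + r := by exact_mod_cast h1.symm
  have e2 : (D:ℤ) = R * M * w + ρ := by exact_mod_cast h3.symm
  have r0 : (0:ℤ) ≤ r := by positivity
  have r1 : (r:ℤ) + 1 ≤ s0 := by exact_mod_cast h2
  have s1 : (0:ℤ) ≤ s0 := by positivity
  rcases h with h | h
  · refine ⟨w, ?_⟩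
    have hρ : (ρ:ℤ) + 1 ≤ M := by exact_mod_cast h
    have hρ0 : (0:ℤ) ≤ ρ := by positivity
    have e3 : (N:ℤ) - (R:ℤ) * ((s0 * M : ℕ):ℤ) * w = s0 * ρ + r := by
      rw [e1, e2]; push_cast; ring
    have e4 : (s0:ℤ) * (ρ + 1) ≤ s0 * M := mul_le_mul_of_nonneg_left hρ s1
    have e5 : (0:ℤ) ≤ s0 * ρ := mul_nonneg s1 hρ0
    rw [e3, abs_le]
    push_cast
    constructor <;> nlinarith
  · refine ⟨w + 1, ?_⟩
    have hρ : (R:ℤ) * M ≤ ρ + M := by exact_mod_cast h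
    have hρ1 : (ρ:ℤ) + 1 ≤ R * M := by exact_mod_cast h4
    have e3 : (N:ℤ) - (R:ℤ) * ((s0 * M : ℕ):ℤ) * (w + 1) = s0 * (ρ - R * M) + r := by
      rw [e1, e2]; push_cast; ring
    have e4 : (s0:ℤ) * (-M) ≤ s0 * (ρ - R * M) := mul_le_mul_of_nonneg_left (by linarith) s1
    have e5 : (s0:ℤ) * (ρ - R * M) ≤ s0 * (-1) := mul_le_mul_of_nonneg_left (by linarith) s1
    have e6 : (0:ℤ) ≤ s0 * M := by positivity
    rw [e3, abs_le]
    push_cast
    constructor <;> linarith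

theorem thin (K Sig q s L H : ℕ) (hSig : Sig = L + s + H) (hs : 0 < s) (hL : L ≤ s)
    (hq : 2^(K+10) ≤ q) (hH : q * s ∣ H) (C : ℕ → Prop)
    (hC : ∀ N, C N → ∃ z : ℤ, |(N:ℤ) - (q:ℤ) * (s:ℤ) * z| ≤ (s:ℤ)) (T : ℕ)
    (hT : 16*2^K*Sig ≤ T) {a b c d : ℕ} (ha : a < K) (hb : b < K) (hc : c < K) (hd : d < K)
    (h1 : C (T + 16*2^a*Sig - 16*2^b*Sig)) (h2 : C (T + 16*2^c*Sig - 16*2^d*Sig)) :
    (a = c ∧ b = d) ∨ (a = b ∧ c = d) := by
  obtain ⟨z1, hz1⟩ := hC _ h1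
  obtain ⟨z2, hz2⟩ := hC _ h2
  have hle : ∀ b, b < K → 16*2^b*Sig ≤ T := fun b hb => le_trans
    (Nat.mul_le_mul_right _ (Nat.mul_le_mul_left _ (Nat.pow_le_pow_right (by norm_num) hb.le))) hT
  have c1 : ((T + 16*2^a*Sig - 16*2^b*Sig : ℕ) : ℤ) =
      T + 16*2^a*((L:ℤ)+s+H) - 16*2^b*((L:ℤ)+s+H) := by
    rw [Nat.cast_sub (le_trans (hle b hb) (Nat.le_add_right _ _)), hSig]
    push_cast; ring
  have c2 : ((T + 16*2^c*Sig - 16*2^d*Sig : ℕ) : ℤ) =
      T + 16*2^c*((L:ℤ)+s+H) - 16*2^d*((L:ℤ)+s+H) := by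
    rw [Nat.cast_sub (le_trans (hle d hd) (Nat.le_add_right _ _)), hSig]
    push_cast; ring
  rw [c1] at hz1
  rw [c2] at hz2
  exact key K q s L H T (by exact_mod_cast hs) (by positivity) (by exact_mod_cast hL)
    (by exact_mod_cast hq) (by exact_mod_cast hH) ha hb hc hd z1 z2 hz1 hz2


theorem PP_succ (R M0 M1 l : ℕ) : PP R M0 M1 (l+1) = PP R M0 M1 l * (R*M1) := by
  unfold PP; rw [pow_succ]; ring

theorem PP_dvd (R M0 M1 : ℕ) {i j : ℕ} (h : i ≤ j) : PP R M0 M1 i ∣ PP R M0 M1 j := by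
  unfold PP; exact Nat.mul_dvd_mul_left _ (pow_dvd_pow _ h)

theorem PP_pos {R M0 M1 : ℕ} (hR : 0 < R) (h0 : 0 < M0) (h1 : 0 < M1) (l : ℕ) :
    0 < PP R M0 M1 l := by
  unfold PP; positivity

def Lo (Mp R M0 M1 l : ℕ) : ℕ :=
  1 + Mp + Mp*M0 + ∑ j ∈ range l, Mp * PP R M0 M1 j * (1 + M1)

theorem Lo_le (Mp R M0 M1 : ℕ) (hMp : 1024 ≤ Mp) (hR : 1024 ≤ R) (h0 : 1024 ≤ M0)
    (h1 : 1024 ≤ M1) : ∀ l, Lo Mp R M0 M1 l ≤ Mp * PP R M0 M1 l := by
  intro l
  induction l with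
  | zero =>
    have e : Mp * PP R M0 M1 0 = R * (Mp * M0) := by unfold PP; ring
    have e1 : Mp ≤ Mp * M0 := Nat.le_mul_of_pos_right _ (by omega)
    have e2 : 1024 * (Mp * M0) ≤ R * (Mp * M0) := Nat.mul_le_mul_right _ hR
    have e3 : Lo Mp R M0 M1 0 = 1 + Mp + Mp * M0 := by unfold Lo; simp
    rw [e, e3]
    omega
  | succ l ih =>
    have e : Lo Mp R M0 M1 (l+1) = Lo Mp R M0 M1 l + Mp * PP R M0 M1 l * (1 + M1) := by
      unfold Lo; rw [sum_range_succ]; ring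
    have e1 : 2 + M1 ≤ R * M1 := by
      have : 1024 * M1 ≤ R * M1 := Nat.mul_le_mul_right _ hR
      omega
    rw [e, PP_succ]
    calc Lo Mp R M0 M1 l + Mp * PP R M0 M1 l * (1 + M1)
        ≤ Mp * PP R M0 M1 l + Mp * PP R M0 M1 l * (1 + M1) := Nat.add_le_add_right ih _
      _ = Mp * PP R M0 M1 l * (2 + M1) := by ring
      _ ≤ Mp * PP R M0 M1 l * (R * M1) := Nat.mul_le_mul_left _ e1
      _ = Mp * (PP R M0 M1 l * (R * M1)) := by ring

theorem Lo_split (Mp R M0 M1 : ℕ) {l m : ℕ} (h : l < m) :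
    Lo Mp R M0 M1 m = Lo Mp R M0 M1 l + Mp * PP R M0 M1 l +
      (Mp * PP R M0 M1 l * M1 + ∑ j ∈ Ico (l+1) m, Mp * PP R M0 M1 j * (1 + M1)) := by
  unfold Lo
  rw [← Finset.sum_range_add_sum_Ico _ h.le, Finset.sum_eq_sum_Ico_succ_bot h]
  ring

theorem Hi_dvd (Mp R M0 M1 l m : ℕ) :
    R * (Mp * PP R M0 M1 l * M1) ∣ ∑ j ∈ Ico (l+1) m, Mp * PP R M0 M1 j * (1 + M1) := by
  refine Finset.dvd_sum fun j hj => ?_
  have hj1 : l + 1 ≤ j := (Finset.mem_Ico.1 hj).1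
  have h1 : R * (Mp * PP R M0 M1 l * M1) = Mp * PP R M0 M1 (l+1) := by rw [PP_succ]; ring
  rw [h1]
  exact Dvd.dvd.mul_right (Nat.mul_dvd_mul_left _ (PP_dvd R M0 M1 hj1)) _

theorem Hi0_dvd (Mp R M0 M1 m : ℕ) :
    R * (Mp * M0) ∣ ∑ j ∈ range m, Mp * PP R M0 M1 j * (1 + M1) := by
  refine Finset.dvd_sum fun j _ => ?_
  have h1 : R * (Mp * M0) = Mp * PP R M0 M1 0 := by unfold PP; ring
  rw [h1]
  exact Dvd.dvd.mul_right (Nat.mul_dvd_mul_left _ (PP_dvd R M0 M1 (Nat.zero_le j))) _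

open scoped Classical in
/-- the pairs `a ≠ b` for which the value `N (a, b)` satisfies `C` -/
noncomputable def FF (K : ℕ) (N : ℕ × ℕ → ℕ) (C : ℕ → Prop) : Finset (ℕ × ℕ) :=
  (range K ×ˢ range K).filter (fun ab => ab.1 ≠ ab.2 ∧ C (N ab))

open scoped Classical in
theorem mem_FF {K : ℕ} {N : ℕ × ℕ → ℕ} {C : ℕ → Prop} {ab : ℕ × ℕ} :
    ab ∈ FF K N C ↔ (ab.1 < K ∧ ab.2 < K) ∧ ab.1 ≠ ab.2 ∧ C (N ab) := by
  simp only [FF, Finset.mem_filter, Finset.mem_product, Finset.mem_range]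

theorem card_le_one' (K : ℕ) (N : ℕ × ℕ → ℕ) (C : ℕ → Prop)
    (h : ∀ a b c d, a < K → b < K → c < K → d < K → C (N (a, b)) → C (N (c, d)) →
      (a = c ∧ b = d) ∨ (a = b ∧ c = d)) :
    (FF K N C).card ≤ 1 := by
  rw [Finset.card_le_one]
  rintro ⟨a, b⟩ h1 ⟨c, d⟩ h2
  rw [mem_FF] at h1 h2
  rcases h a b c d h1.1.1 h1.1.2 h2.1.1 h2.1.2 h1.2.2 h2.2.2 with ⟨e1, e2⟩ | ⟨e1, _⟩
  · rw [e1, e2]
  · exact absurd e1 h1.2.1

open scoped Classical in
theorem spoil (m r K Mp R M0 M1 rho : ℕ) (Ms Ms1 : Finset ℕ) (hMp : 2^(K+10) ≤ Mp)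
    (hR : 2^(K+10) ≤ R) (h0 : 2^(K+10) ≤ M0) (h1 : 2^(K+10) ≤ M1)
    (hMs : ∀ k ∈ Ms, 2^(K+10) ≤ k ∧ k ∣ M0) (hMs1 : ∀ k ∈ Ms1, 2^(K+10) ≤ k ∧ k ∣ M1)
    (hc : Ms.card ≤ r) (hc1 : Ms1.card ≤ 32*rho) (hrho : 0 < rho) :
    ∃ (x : ℕ → ℕ) (T0 : ℕ),
      (∀ a b c d, a < K → b < K → c < K → d < K →
        (Mp:ℤ) ∣ ((x a:ℤ) - x b) - (x c - x d) → (a = c ∧ b = d) ∨ (a = b ∧ c = d)) ∧
      ∀ T, T0 ≤ T →
        (((Finset.range K ×ˢ Finset.range K).filter (fun ab => ab.1 ≠ ab.2 ∧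
          Bad R M0 M1 m rho Ms Ms1 ((T + x ab.1 - x ab.2) / Mp))).card ≤ 2 + r + 34*m) := by
  have hK : 1024 ≤ 2^(K+10) := by
    rw [pow_add]
    have := Nat.one_le_two_pow (n := K)
    norm_num
    omega
  have gMp : 1024 ≤ Mp := hK.trans hMp
  have gR : 1024 ≤ R := hK.trans hR
  have g0 : 1024 ≤ M0 := hK.trans h0
  have g1 : 1024 ≤ M1 := hK.trans h1
  have pMp : 0 < Mp := by omega
  have pR : 0 < R := by omega
  have p0 : 0 < M0 := by omega
  have p1 : 0 < M1 := by omega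
  have pPP : ∀ l, 0 < PP R M0 M1 l := PP_pos pR p0 p1
  have hLo := Lo_le Mp R M0 M1 gMp gR g0 g1
  set Sig := Lo Mp R M0 M1 m with hSig
  refine ⟨fun a => 16*2^a*Sig, 16*2^K*Sig, ?_, ?_⟩
  · intro a b c d ha hb hc' hd hdvd
    -- Golomb modulo Mp
    obtain ⟨z, hz⟩ := hdvd
    have hS : Sig = 0 + 1 + (Mp + Mp*M0 + ∑ j ∈ range m, Mp * PP R M0 M1 j * (1 + M1)) := by
      rw [hSig]; unfold Lo; ring
    have hH : Mp * 1 ∣ (Mp + Mp*M0 + ∑ j ∈ range m, Mp * PP R M0 M1 j * (1 + M1)) := by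
      rw [mul_one]
      refine Nat.dvd_add (Nat.dvd_add (dvd_refl _) (Dvd.intro _ rfl))
        (Finset.dvd_sum fun j _ => ?_)
      rw [mul_assoc]
      exact Dvd.intro _ rfl
    set H := (Mp + Mp*M0 + ∑ j ∈ range m, Mp * PP R M0 M1 j * (1 + M1))
    have hx : ∀ a : ℕ, ((16*2^a*Sig : ℕ) : ℤ) = 16*2^a*((0:ℤ)+1+(H:ℤ)) := fun a => by
      rw [hS]; push_cast; ring
    simp only [hx] at hz
    refine key K (Mp:ℤ) 1 0 (H:ℤ) (-(16*2^a*((0:ℤ)+1+(H:ℤ)) - 16*2^b*((0:ℤ)+1+(H:ℤ))))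
      one_pos le_rfl zero_le_one (by exact_mod_cast hMp)
      (by exact_mod_cast hH) ha hb hc' hd 0 (-z) ?_ ?_
    · have e : -(16*2^a*((0:ℤ)+1+(H:ℤ)) - 16*2^b*((0:ℤ)+1+(H:ℤ))) + 16*2^a*((0:ℤ)+1+(H:ℤ)) -
          16*2^b*((0:ℤ)+1+(H:ℤ)) - (Mp:ℤ)*1*0 = 0 := by ring
      rw [e]; norm_num
    · have e : -(16*2^a*((0:ℤ)+1+(H:ℤ)) - 16*2^b*((0:ℤ)+1+(H:ℤ))) + 16*2^c*((0:ℤ)+1+(H:ℤ)) -
          16*2^d*((0:ℤ)+1+(H:ℤ)) - (Mp:ℤ)*1*(-z) = 0 := by linear_combination (-1) * hz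
      rw [e]; norm_num
  · intro T hT
    set N : ℕ × ℕ → ℕ := fun ab => T + 16*2^ab.1*Sig - 16*2^ab.2*Sig with hN
    set F : (ℕ → Prop) → Finset (ℕ × ℕ) := FF K N with hF
    -- the four kinds of thin conditions
    have hk : ∀ k ∈ Ms, (F (fun n => k ∣ n / Mp)).card ≤ 1 := by
      intro k hkM
      refine card_le_one' K N (fun n => k ∣ n / Mp) fun a b c d ha hb hc' hd e1 e2 => ?_
      refine thin K Sig k Mp 1 (Mp*M0 + ∑ j ∈ range m, Mp * PP R M0 M1 j * (1 + M1)) ?_ pMp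
        (by omega) (hMs k hkM).1 ?_ (fun n => k ∣ n / Mp) (fun n hn => div_lemma n Mp k hn pMp)
        T hT ha hb hc' hd e1 e2
      · rw [hSig]; unfold Lo; ring
      · have hd0 : k * Mp ∣ Mp * M0 := by
          rw [mul_comm k Mp]; exact Nat.mul_dvd_mul_left _ (hMs k hkM).2
        refine Nat.dvd_add hd0 (Nat.dvd_trans ?_ (Hi0_dvd Mp R M0 M1 m))
        exact Dvd.dvd.mul_left hd0 R
    have h00 : (F (fun n => (n / Mp) % (R*M0) < M0 ∨ R*M0 ≤ (n / Mp) % (R*M0) + M0)).card ≤ 1 := by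
      refine card_le_one' K N _ fun a b c d ha hb hc' hd e1 e2 => ?_
      refine thin K Sig R (Mp*M0) (1 + Mp) (∑ j ∈ range m, Mp * PP R M0 M1 j * (1 + M1)) ?_
        (Nat.mul_pos pMp p0) ?_ hR (Hi0_dvd Mp R M0 M1 m)
        (fun n => (n / Mp) % (R*M0) < M0 ∨ R*M0 ≤ (n / Mp) % (R*M0) + M0)
        (fun n hn => digit_lemma n Mp R M0 pMp p0 pR hn) T hT ha hb hc' hd e1 e2
      · rw [hSig]; unfold Lo; ring
      · have : Mp * 1024 ≤ Mp * M0 := Nat.mul_le_mul_left _ g0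
        omega
    have hD : ∀ l < m, (F (fun n => ((n / Mp) / PP R M0 M1 l) % (R*M1) < M1 ∨
        R*M1 ≤ ((n / Mp) / PP R M0 M1 l) % (R*M1) + M1)).card ≤ 1 := by
      intro l hl
      refine card_le_one' K N _ fun a b c d ha hb hc' hd e1 e2 => ?_
      have hs0 : 0 < Mp * PP R M0 M1 l := Nat.mul_pos pMp (pPP l)
      refine thin K Sig R (Mp * PP R M0 M1 l * M1) (Lo Mp R M0 M1 l + Mp * PP R M0 M1 l)
        (∑ j ∈ Ico (l+1) m, Mp * PP R M0 M1 j * (1 + M1)) ?_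
        (Nat.mul_pos hs0 p1) ?_ hR (Hi_dvd Mp R M0 M1 l m)
        (fun n => ((n / Mp) / PP R M0 M1 l) % (R*M1) < M1 ∨
          R*M1 ≤ ((n / Mp) / PP R M0 M1 l) % (R*M1) + M1)
        (fun n hn => digit_lemma n (Mp * PP R M0 M1 l) R M1 hs0 p1 pR
          (by simpa only [Nat.div_div_eq_div_mul] using hn)) T hT ha hb hc' hd e1 e2
      · rw [hSig, Lo_split Mp R M0 M1 hl]; ring
      · have e3 : Mp * PP R M0 M1 l * 1024 ≤ Mp * PP R M0 M1 l * M1 := Nat.mul_le_mul_left _ g1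
        have e4 := hLo l
        omega
    have hE1 : ∀ l < m, ∀ k ∈ Ms1, (F (fun n => k ∣ (n / Mp) / PP R M0 M1 l)).card ≤ 1 := by
      intro l hl k hkM
      refine card_le_one' K N _ fun a b c d ha hb hc' hd e1 e2 => ?_
      have hs0 : 0 < Mp * PP R M0 M1 l := Nat.mul_pos pMp (pPP l)
      refine thin K Sig k (Mp * PP R M0 M1 l) (Lo Mp R M0 M1 l)
        (Mp * PP R M0 M1 l * M1 + ∑ j ∈ Ico (l+1) m, Mp * PP R M0 M1 j * (1 + M1)) ?_
        hs0 (hLo l) (hMs1 k hkM).1 ?_ (fun n => k ∣ (n / Mp) / PP R M0 M1 l)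
        (fun n hn => div_lemma n (Mp * PP R M0 M1 l) k
          (by simpa only [Nat.div_div_eq_div_mul] using hn) hs0) T hT ha hb hc' hd e1 e2
      · rw [hSig, Lo_split Mp R M0 M1 hl]
      · have hd0 : k * (Mp * PP R M0 M1 l) ∣ Mp * PP R M0 M1 l * M1 := by
          rw [mul_comm k]; exact Nat.mul_dvd_mul_left _ (hMs1 k hkM).2
        refine Nat.dvd_add hd0 (Nat.dvd_trans ?_ (Hi_dvd Mp R M0 M1 l m))
        exact Dvd.dvd.mul_left hd0 R
    have hE : ∀ l < m, (F (fun n => rho ≤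
        (Ms1.filter (· ∣ (n / Mp) / PP R M0 M1 l)).card)).card ≤ 32 := by
      intro l hl
      set G := F (fun n => rho ≤ (Ms1.filter (· ∣ (n / Mp) / PP R M0 M1 l)).card) with hG
      have e1 : G.card * rho ≤ ∑ ab ∈ G, (Ms1.filter (· ∣ (N ab / Mp) / PP R M0 M1 l)).card := by
        rw [← smul_eq_mul]
        refine Finset.card_nsmul_le_sum G _ rho fun ab hab => ?_
        rw [hG, hF] at hab
        exact (mem_FF.1 hab).2.2
      have e2 : ∑ ab ∈ G, (Ms1.filter (· ∣ (N ab / Mp) / PP R M0 M1 l)).card =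
          ∑ k ∈ Ms1, (G.filter (fun ab => k ∣ (N ab / Mp) / PP R M0 M1 l)).card := by
        simp only [Finset.card_filter]
        exact Finset.sum_comm
      have e3 : ∑ k ∈ Ms1, (G.filter (fun ab => k ∣ (N ab / Mp) / PP R M0 M1 l)).card ≤
          ∑ _k ∈ Ms1, 1 := by
        refine Finset.sum_le_sum fun k hkM => ?_
        refine le_trans (Finset.card_le_card ?_) (hE1 l hl k hkM)
        intro ab hab
        rw [Finset.mem_filter] at hab
        rw [hG, hF] at hab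
        have h5 := mem_FF.1 hab.1
        rw [hF]
        exact mem_FF.2 ⟨h5.1, h5.2.1, hab.2⟩
      have e4 : G.card * rho ≤ 32 * rho := by
        calc G.card * rho ≤ _ := e1
          _ = _ := e2
          _ ≤ _ := e3
          _ = Ms1.card := by simp
          _ ≤ 32 * rho := hc1
      exact Nat.le_of_mul_le_mul_right e4 hrho
    -- union bound
    have hsub : F (fun n => Bad R M0 M1 m rho Ms Ms1 (n / Mp)) ⊆
        (F (fun n => (n / Mp) % (R*M0) < M0 ∨ R*M0 ≤ (n / Mp) % (R*M0) + M0) ∪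
          Ms.biUnion (fun k => F (fun n => k ∣ n / Mp))) ∪
        (range m).biUnion (fun l =>
          F (fun n => ((n / Mp) / PP R M0 M1 l) % (R*M1) < M1 ∨
            R*M1 ≤ ((n / Mp) / PP R M0 M1 l) % (R*M1) + M1) ∪
          F (fun n => rho ≤ (Ms1.filter (· ∣ (n / Mp) / PP R M0 M1 l)).card)) := by
      intro ab hab
      have h5 := mem_FF.1 hab
      obtain ⟨h6, h7, h8⟩ := h5
      rw [Finset.mem_union, Finset.mem_union]
      rcases h8 with h8 | ⟨k, hkM, h8⟩ | ⟨l, hl, h8 | h8⟩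
      · left; left
        exact mem_FF.2 ⟨h6, h7, h8⟩
      · left; right
        exact Finset.mem_biUnion.2 ⟨k, hkM, mem_FF.2 ⟨h6, h7, h8⟩⟩
      · right
        refine Finset.mem_biUnion.2 ⟨l, Finset.mem_range.2 hl, Finset.mem_union.2 (Or.inl ?_)⟩
        exact mem_FF.2 ⟨h6, h7, h8⟩
      · right
        refine Finset.mem_biUnion.2 ⟨l, Finset.mem_range.2 hl, Finset.mem_union.2 (Or.inr ?_)⟩
        exact mem_FF.2 ⟨h6, h7, h8⟩
    have hfin : (F (fun n => Bad R M0 M1 m rho Ms Ms1 (n / Mp))).card ≤ 2 + r + 34 * m := by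
      refine le_trans (Finset.card_le_card hsub) ?_
      refine le_trans (Finset.card_union_le _ _) ?_
      have b1 := Finset.card_union_le
        (F (fun n => (n / Mp) % (R*M0) < M0 ∨ R*M0 ≤ (n / Mp) % (R*M0) + M0))
        (Ms.biUnion (fun k => F (fun n => k ∣ n / Mp)))
      have b2 : (Ms.biUnion (fun k => F (fun n => k ∣ n / Mp))).card ≤ Ms.card * 1 :=
        Finset.card_biUnion_le_card_mul _ _ _ hk
      have b3 : ((range m).biUnion (fun l =>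
          F (fun n => ((n / Mp) / PP R M0 M1 l) % (R*M1) < M1 ∨
            R*M1 ≤ ((n / Mp) / PP R M0 M1 l) % (R*M1) + M1) ∪
          F (fun n => rho ≤ (Ms1.filter (· ∣ (n / Mp) / PP R M0 M1 l)).card))).card ≤
          (range m).card * 33 := by
        refine Finset.card_biUnion_le_card_mul _ _ _ fun l hl => ?_
        refine le_trans (Finset.card_union_le _ _) ?_
        have := hD l (Finset.mem_range.1 hl)
        have := hE l (Finset.mem_range.1 hl)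
        omega
      rw [Finset.card_range] at b3
      omega
    have heq : ((Finset.range K ×ˢ Finset.range K).filter (fun ab => ab.1 ≠ ab.2 ∧
          Bad R M0 M1 m rho Ms Ms1 ((T + 16*2^ab.1*Sig - 16*2^ab.2*Sig) / Mp))) =
        F (fun n => Bad R M0 M1 m rho Ms Ms1 (n / Mp)) := by
      ext ab
      rw [hF, mem_FF, Finset.mem_filter, Finset.mem_product, Finset.mem_range, Finset.mem_range]
    rw [heq]
    exact hfin

end Crest.Agent.R320.Spoil_189
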