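import Crest.Agent.R320.Thin_963
import Crest.Agent.R320.Grid_899
import Crest.Agent.R320.Spoil_189
import Crest.Agent.R320.Sc2n_937

set_option autoImplicit false

namespace Crest.Agent.R320.Fin391a_391

open Finset Crest.Agent.R320.Grid_899

/-- `k` odd primes above `N` -/
theorem exists_primes (k N : ℕ) : ∃ q : Fin k → ℕ, (∀ j, (q j).Prime ∧ N ≤ q j ∧ 3 ≤ q j) ∧
    Function.Injective q := by
  have h0 : ∀ n, n ≤ Nat.nth Nat.Prime n := fun n =>
    (Nat.nth_strictMono Nat.infinite_setOf_prime).le_apply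
  refine ⟨fun j => Nat.nth Nat.Prime (N + 3 + j), fun j => ⟨Nat.prime_nth_prime _,
    le_trans (by omega) (h0 _), le_trans (by omega) (h0 _)⟩, ?_⟩
  intro a b h
  have := Nat.nth_injective Nat.infinite_setOf_prime h
  exact Fin.ext (by omega)

theorem sum_le {κ : ℕ} (hκ : 1 ≤ κ) (M i : ℕ) :
    ∑ j ∈ Finset.range (i + 1), M * G κ j ≤ 2 * (M * G κ i) := by
  induction i with
  | zero => rw [Finset.sum_range_one]; omega
  | succ i ih =>
    rw [Finset.sum_range_succ]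
    have h1 : 2 * G κ i ≤ G κ (i + 1) := by
      unfold G
      calc 2 * 2 ^ (κ * i) = 2 ^ (κ * i + 1) := by rw [pow_succ]; ring
        _ ≤ 2 ^ (κ * (i + 1)) := Nat.pow_le_pow_right (by norm_num) (by rw [mul_add]; omega)
    have h2 : 2 * (M * G κ i) ≤ M * G κ (i + 1) := by
      calc 2 * (M * G κ i) = M * (2 * G κ i) := by ring
        _ ≤ _ := Nat.mul_le_mul_left _ h1
    omega

theorem growth (K M : ℕ) : ∃ κ : ℕ, 1 ≤ κ ∧ ∀ i,
    2 ^ (K + 4) * ∑ j ∈ Finset.range (i + 1), M * G κ j ≤ G κ (i + 1) := by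
  refine ⟨K + 5 + M, by omega, fun i => ?_⟩
  have h1 := sum_le (κ := K + 5 + M) (by omega) M i
  have h2 : M ≤ 2 ^ M := Nat.lt_two_pow_self.le
  calc 2 ^ (K + 4) * ∑ j ∈ Finset.range (i + 1), M * G (K + 5 + M) j
      ≤ 2 ^ (K + 4) * (2 * (M * G (K + 5 + M) i)) := Nat.mul_le_mul_left _ h1
    _ = 2 ^ (K + 5) * M * G (K + 5 + M) i := by rw [show K + 5 = K + 4 + 1 from rfl, pow_succ]; ring
    _ ≤ 2 ^ (K + 5) * 2 ^ M * G (K + 5 + M) i :=
        Nat.mul_le_mul_right _ (Nat.mul_le_mul_left _ h2)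
    _ = G (K + 5 + M) (i + 1) := by
        unfold G
        rw [← pow_add, ← pow_add]
        congr 1
        ring

theorem hsp {X N1 : ℕ} (hX : 2 * N1 ≤ X) {k k' l l' : ℕ} (h1 : k' ≠ k)
    (h3 : X * 2 ^ k + X * 2 ^ l' < X * 2 ^ l + X * 2 ^ k' + 2 * N1)
    (h4 : X * 2 ^ l + X * 2 ^ k' < X * 2 ^ k + X * 2 ^ l' + 2 * N1) : k = l := by
  have e : 2 ^ k + 2 ^ l' = 2 ^ l + 2 ^ k' := by
    rcases Nat.lt_trichotomy (2 ^ k + 2 ^ l') (2 ^ l + 2 ^ k') with h | h | h
    · exfalso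
      have := Nat.mul_le_mul_left X (Nat.succ_le_of_lt h)
      rw [Nat.succ_eq_add_one] at this
      have e1 : X * (2 ^ k + 2 ^ l' + 1) = X * 2 ^ k + X * 2 ^ l' + X := by ring
      have e2 : X * (2 ^ l + 2 ^ k') = X * 2 ^ l + X * 2 ^ k' := by ring
      omega
    · exact h
    · exfalso
      have := Nat.mul_le_mul_left X (Nat.succ_le_of_lt h)
      rw [Nat.succ_eq_add_one] at this
      have e1 : X * (2 ^ l + 2 ^ k' + 1) = X * 2 ^ l + X * 2 ^ k' + X := by ring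
      have e2 : X * (2 ^ k + 2 ^ l') = X * 2 ^ k + X * 2 ^ l' := by ring
      omega
  rcases Spoil_189.pow2_aux k k' l l' e with ⟨h, _⟩ | ⟨h, _⟩
  · exact h
  · exact absurd h.symm h1

open scoped Classical in
/-- thin set, in the form of 937 -/
theorem hthin {Ms : Finset ℕ} {m K C0 p0 : ℕ} {Gz cz Az : ℕ → ℤ} {X : ℤ} (Xn : ℕ) (hXn : (Xn : ℤ) = X)
    (h : ∀ T : ℤ, (((Finset.range K) ×ˢ (Finset.range K)).filter (fun p => p.1 ≠ p.2 ∧
        Thin963.BadT Ms m Gz cz Az (T + X * 2^p.1 - X * 2^p.2))).card ≤ C0)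
    (hp0 : ∀ k, k < K → Xn * 2 ^ k ≤ p0)
    (τ : ℕ) (hτ : 2 * p0 ≤ τ) (J : Finset ℕ) (hJ : ∀ k ∈ J, k < K ∧
      ∃ k', k' < K ∧ k' ≠ k ∧
        Thin963.BadT Ms m Gz cz Az ((τ + Xn * 2 ^ k' - Xn * 2 ^ k - p0 : ℕ) : ℤ)) : J.card ≤ C0 := by
  classical
  refine le_trans ?_ (h (τ - p0))
  refine le_trans (Finset.card_le_card ?_) (Finset.card_image_le (f := Prod.snd))
  intro k hk
  obtain ⟨hkK, k', hk'K, hne, hb⟩ := hJ k hk
  refine Finset.mem_image.2 ⟨(k', k), Finset.mem_filter.2 ⟨Finset.mem_product.2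
    ⟨Finset.mem_range.2 hk'K, Finset.mem_range.2 hkK⟩, hne, ?_⟩, rfl⟩
  have h1 := hp0 k hkK
  have e : ((τ + Xn * 2 ^ k' - Xn * 2 ^ k - p0 : ℕ) : ℤ) = (τ : ℤ) - p0 + X * 2 ^ k' - X * 2 ^ k := by
    rw [← hXn]
    have h2 : Xn * 2 ^ k ≤ τ + Xn * 2 ^ k' := by omega
    have h3 : p0 ≤ τ + Xn * 2 ^ k' - Xn * 2 ^ k := by omega
    rw [Nat.cast_sub h3, Nat.cast_sub h2]
    push_cast
    ring
  rw [e] at hb
  exact hb

/-- completeness condition of the grid gadget from `¬ BadT` -/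
theorem band {Ms : Finset ℕ} {m M κ T : ℕ}
    (hT : ∀ j, j ≤ m → Am M κ j ≤ T)
    (h : ¬ Thin963.BadT Ms m (fun i => (G κ i : ℤ)) (fun i => ((M * G κ i : ℕ) : ℤ))
      (fun i => (Am M κ i : ℤ)) (T : ℤ)) :
    (∀ q ∈ Ms, ¬ q ∣ T) ∧ ∀ j, 1 ≤ j → j ≤ m →
      M * G κ (j - 1) ≤ (T - Am M κ j) % G κ j ∧
      (T - Am M κ j) % G κ j + M * G κ (j - 1) ≤ G κ j := by
  unfold Thin963.BadT at h
  push_neg at h
  obtain ⟨h1, h2⟩ := h
  refine ⟨fun q hq hd => h1 q hq (by exact_mod_cast hd), fun j hj hjm => ?_⟩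
  obtain ⟨i, rfl⟩ : ∃ i, j = i + 1 := ⟨j - 1, by omega⟩
  have hA := hT (i + 1) hjm
  have hG : 0 < G κ (i + 1) := G_pos _
  have e0 := Nat.div_add_mod (T - Am M κ (i + 1)) (G κ (i + 1))
  have hlt := Nat.mod_lt (T - Am M κ (i + 1)) hG
  set r := (T - Am M κ (i + 1)) % G κ (i + 1) with hr
  set d := (T - Am M κ (i + 1)) / G κ (i + 1) with hd
  have e1 : (T : ℤ) - Am M κ (i + 1) = G κ (i + 1) * d + r := by
    have : T = Am M κ (i + 1) + (G κ (i + 1) * d + r) := by omega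
    rw [this]; push_cast; ring
  rw [Nat.add_sub_cancel]
  constructor
  · by_contra hc
    refine h2 i (by omega) (-(r : ℤ)) ?_ ?_
    · rw [abs_neg, Nat.abs_cast]
      exact_mod_cast (by omega : r ≤ M * G κ i)
    · rw [e1]
      exact ⟨d, by ring⟩
  · by_contra hc
    refine h2 i (by omega) ((G κ (i + 1) : ℤ) - r) ?_ ?_
    · rw [abs_of_nonneg (by omega)]
      push_cast
      have : G κ (i + 1) ≤ M * G κ i + r := by omega
      have h5 : ((G κ (i + 1) : ℕ) : ℤ) ≤ ((M * G κ i + r : ℕ) : ℤ) := by exact_mod_cast this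
      push_cast at h5
      omega
    · rw [e1]
      exact ⟨d + 1, by ring⟩

theorem badT_congr {Ms : Finset ℕ} {m M κ : ℕ} (hM : ∀ q ∈ Ms, q ∣ M) {T T' : ℤ}
    (h : ((M * G κ m : ℕ) : ℤ) ∣ T - T') {cz Az : ℕ → ℤ}
    (hb : Thin963.BadT Ms m (fun i => (G κ i : ℤ)) cz Az T) :
    Thin963.BadT Ms m (fun i => (G κ i : ℤ)) cz Az T' := by
  rcases hb with ⟨q, hq, hd⟩ | ⟨i, hi, e, he, hd⟩
  · left
    refine ⟨q, hq, ?_⟩
    have h1 : (q : ℤ) ∣ T - T' := by
      refine dvd_trans ?_ h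
      exact_mod_cast (hM q hq).trans (Dvd.intro _ rfl)
    have := dvd_sub hd h1
    simpa using this
  · right
    refine ⟨i, hi, e, he, ?_⟩
    have h1 : ((G κ (i + 1) : ℕ) : ℤ) ∣ T - T' := by
      refine dvd_trans ?_ h
      exact_mod_cast (G_dvd (κ := κ) (show i + 1 ≤ m from hi)).trans (Dvd.intro_left _ rfl)
    have := dvd_sub hd h1
    have e2 : T - Az (i + 1) + e - (T - T') = T' - Az (i + 1) + e := by ring
    rw [← e2]
    exact this

/-- transfer of a legal split -/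
theorem transfer {α S V : Type*} {phi : List α → S} {lam rho : List α → Option V} {A Nm P0 : ℕ}
    (hmul : ∀ a b c d : List α, phi a = phi c → phi b = phi d → phi (a ++ b) = phi (c ++ d))
    (hlen : ∀ P v, lam P = some v → P.length ≤ Nm)
    (hreg : ∀ Q Q' : List α, A ≤ Q.length → A ≤ Q'.length → Q.take A = Q'.take A →
      phi (Q.drop A) = phi (Q'.drop A) → Q.length ≡ Q'.length [MOD P0] → rho Q = rho Q')
    {Y Y' : List α} (hY : Nm + A ≤ Y.length) (hY' : Nm + A ≤ Y'.length)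
    (ht : Y.take (Nm + A) = Y'.take (Nm + A)) (hm : Y.length ≡ Y'.length [MOD P0])
    (hd : phi (Y.drop (Nm + A)) = phi (Y'.drop (Nm + A))) {P Q : List α} {v b : V}
    (e : Y = P ++ Q) (hl : lam P = some v) (hr : rho Q = some b) :
    ∃ Q', Y' = P ++ Q' ∧ rho Q' = some b := by
  have hP := hlen P v hl
  have e1 : Y'.take P.length = P := by
    have h1 : (Y.take (Nm + A)).take P.length = (Y'.take (Nm + A)).take P.length := by rw [ht]
    rw [List.take_take, List.take_take, Nat.min_eq_left (by omega), e, List.take_left] at h1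
    exact h1.symm
  have eQ : Q = Y.drop P.length := by rw [e, List.drop_left]
  have key : ∀ Z : List α, ((Z.drop P.length).take A) = ((Z.take (Nm + A)).drop P.length).take A := by
    intro Z
    rw [List.drop_take, List.take_take, Nat.min_eq_left (by omega)]
  have key2 : ∀ Z : List α, Nm + A ≤ Z.length →
      (Z.drop P.length).drop A = (Z.take (Nm + A)).drop (P.length + A) ++ Z.drop (Nm + A) := by
    intro Z hZ
    rw [List.drop_drop]
    conv_lhs => rw [← List.take_append_drop (Nm + A) Z]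
    rw [List.drop_append_of_le_length (by rw [List.length_take]; omega)]
  refine ⟨Y'.drop P.length, ?_, ?_⟩
  · conv_lhs => rw [← List.take_append_drop P.length Y', e1]
  · rw [← hr, eQ]
    refine (hreg _ _ ?_ ?_ ?_ ?_ ?_).symm
    · rw [List.length_drop]; omega
    · rw [List.length_drop]; omega
    · rw [key Y, ht]; exact (key Y').symm
    · rw [key2 _ hY, key2 _ hY', ht]
      exact hmul _ _ _ _ rfl hd
    · rw [List.length_drop, List.length_drop]
      have h1 : Y.length = (Y.length - P.length) + P.length := by omega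
      have h2 : Y'.length = (Y'.length - P.length) + P.length := by omega
      rw [h1, h2] at hm
      exact Nat.ModEq.add_right_cancel' _ hm

end Crest.Agent.R320.Fin391a_391
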