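import Crest.Agent.R320.Fin391a_391
import Crest.Agent.R320.Top5_120
import Crest.Agent.R320.ExactR_237
import Crest.Agent.R320.LWallAll_922
import Crest.Agent.R320.P4_933
import Crest.Agent.R320.RegCongr_253

set_option autoImplicit false

namespace Crest.Agent.R320.Fin391b_391

open Finset Crest.RegLang Crest.Agent.R320.Hk_851 Crest.Agent.R320.Grid_899
  Crest.Agent.R320.Fin391a_391

section

variable {α S V : Type} [Monoid S] [AddCommGroup V]

/-- noise of gadget 1, zero without a legal split -/
noncomputable def nuL (lam rho : List α → Option V) (nu1 : List α → V) (Y : List α) : V :=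
  open scoped Classical in
  if ∃ P Q v b, Y = P ++ Q ∧ lam P = some v ∧ rho Q = some b then nu1 Y else 0

theorem nuL_of_legal {lam rho : List α → Option V} {nu1 : List α → V} {P Q : List α} {v b : V}
    (hl : lam P = some v) (hr : rho Q = some b) : nuL lam rho nu1 (P ++ Q) = nu1 (P ++ Q) := by
  unfold nuL
  exact if_pos ⟨P, Q, v, b, rfl, hl, hr⟩

variable (f : α → S) (act : V → S → V)

theorem nuL_key {lam rho : List α → Option V} {nu1 : List α → V} {A Nm P0 : ℕ}
    (hlen : ∀ P v, lam P = some v → P.length ≤ Nm)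
    (hs : ∀ P Q v b, lam P = some v → rho Q = some b →
      b = act v ((P ++ Q).map f).prod + nu1 (P ++ Q))
    (hreg : ∀ Q Q' : List α, A ≤ Q.length → A ≤ Q'.length → Q.take A = Q'.take A →
      ((Q.drop A).map f).prod = ((Q'.drop A).map f).prod → Q.length ≡ Q'.length [MOD P0] →
      rho Q = rho Q')
    {Y Y' : List α} (hY : Nm + A ≤ Y.length) (hY' : Nm + A ≤ Y'.length)
    (ht : Y.take (Nm + A) = Y'.take (Nm + A)) (hm : Y.length ≡ Y'.length [MOD P0])
    (hd : ((Y.drop (Nm + A)).map f).prod = ((Y'.drop (Nm + A)).map f).prod) :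
    nuL lam rho nu1 Y = nuL lam rho nu1 Y' := by
  have hmul : ∀ a b c d : List α, (a.map f).prod = (c.map f).prod → (b.map f).prod = (d.map f).prod →
      ((a ++ b).map f).prod = ((c ++ d).map f).prod := by
    intro a b c d h1 h2
    rw [List.map_append, List.map_append, List.prod_append, List.prod_append, h1, h2]
  have hYY : (Y.map f).prod = (Y'.map f).prod := by
    rw [← List.take_append_drop (Nm + A) Y, ← List.take_append_drop (Nm + A) Y', ht]
    exact hmul _ _ _ _ rfl hd
  by_cases h : ∃ P Q v b, Y = P ++ Q ∧ lam P = some v ∧ rho Q = some b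
  · obtain ⟨P, Q, v, b, e, hl, hr⟩ := h
    obtain ⟨Q', e', hr'⟩ := transfer (phi := fun w => (w.map f).prod) hmul hlen hreg hY hY' ht hm hd e
      hl hr
    have h1 := hs P Q v b hl hr
    have h2 := hs P Q' v b hl hr'
    rw [e, e', nuL_of_legal hl hr, nuL_of_legal hl hr']
    rw [← e] at h1 ⊢
    rw [← e'] at h2 ⊢
    rw [hYY] at h1
    exact add_left_cancel (h1.symm.trans h2)
  · have h' : ¬ ∃ P Q v b, Y' = P ++ Q ∧ lam P = some v ∧ rho Q = some b := by
      rintro ⟨P, Q, v, b, e, hl, hr⟩
      obtain ⟨Q', e', hr'⟩ := transfer (phi := fun w => (w.map f).prod) hmul hlen hreg hY' hY ht.symm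
        hm.symm hd.symm e hl hr
      exact h ⟨P, Q', v, b, e', hl, hr'⟩
    unfold nuL
    rw [if_neg h, if_neg h']

/-- zone noise -/
noncomputable def nuA (p0 : ℕ) (nu2 nu1 : List α → V) (X : List α) : V :=
  act (nu2 (X.take p0)) ((X.drop p0).map f).prod + nu1 (X.drop p0)

/-- all data of a block depend on the key -/
theorem nuA_key {p0 B0 P0 : ℕ} {nu2 nu1 : List α → V} (hp0 : p0 ≤ B0)
    (h1 : ∀ Y Y' : List α, B0 - p0 ≤ Y.length → B0 - p0 ≤ Y'.length →
      Y.take (B0 - p0) = Y'.take (B0 - p0) → Y.length ≡ Y'.length [MOD P0] →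
      ((Y.drop (B0 - p0)).map f).prod = ((Y'.drop (B0 - p0)).map f).prod → nu1 Y = nu1 Y')
    {q q' : List α} (hq : B0 ≤ q.length) (hq' : B0 ≤ q'.length) (ht : q.take B0 = q'.take B0)
    (hm : q.length % P0 = q'.length % P0)
    (hd : ((q.drop B0).map f).prod = ((q'.drop B0).map f).prod) :
    nuA f act p0 nu2 nu1 q = nuA f act p0 nu2 nu1 q' ∧ (q.map f).prod = (q'.map f).prod := by
  have ht0 : q.take p0 = q'.take p0 := by
    have h : (q.take B0).take p0 = (q'.take B0).take p0 := by rw [ht]
    rwa [List.take_take, List.take_take, Nat.min_eq_left hp0] at h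
  have ed : ∀ Z : List α, (Z.drop p0).drop (B0 - p0) = Z.drop B0 := by
    intro Z; rw [List.drop_drop]; congr 1; omega
  have et : ∀ Z : List α, (Z.drop p0).take (B0 - p0) = (Z.take B0).drop p0 := by
    intro Z; rw [List.drop_take]
  have hpr : ((q.drop p0).map f).prod = ((q'.drop p0).map f).prod := by
    rw [← List.take_append_drop (B0 - p0) (q.drop p0), ← List.take_append_drop (B0 - p0) (q'.drop p0),
      ed, ed, et, et, ht, List.map_append, List.map_append, List.prod_append, List.prod_append, hd]
  have hn : nu1 (q.drop p0) = nu1 (q'.drop p0) := by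
    refine h1 _ _ ?_ ?_ ?_ ?_ ?_
    · rw [List.length_drop]; omega
    · rw [List.length_drop]; omega
    · rw [et, et, ht]
    · rw [List.length_drop, List.length_drop]
      have h2 : q.length = (q.length - p0) + p0 := by omega
      have h3 : q'.length = (q'.length - p0) + p0 := by omega
      have h4 : q.length ≡ q'.length [MOD P0] := hm
      rw [h2, h3] at h4
      exact Nat.ModEq.add_right_cancel' _ h4
    · rw [ed, ed, hd]
  constructor
  · unfold nuA
    rw [ht0, hpr, hn]
  · rw [← List.take_append_drop B0 q, ← List.take_append_drop B0 q', ht, List.map_append,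
      List.map_append, List.prod_append, List.prod_append, hd]

end

/-- wall-free words are products of two pieces -/
theorem free_PN {α : Type} {Wo : List α → Prop} {B W : ℕ}
    (h : ∀ X : List α, (∀ t < X.length, ¬ Wo (X.take t)) →
        ∃ (u x v : List α) (k : ℕ), u.length ≤ B ∧ x.length ≤ W ∧ v.length ≤ B ∧
          X = u ++ (List.replicate k x).flatten ++ v)
    (X : List α) (hX : ∀ t < X.length, ¬ Wo (X.take t)) :
    X ∈ (BddReg_746.PN (max B W) 2 : Language α) := by
  obtain ⟨u, x, v, k, h1, h2, h3, rfl⟩ := h X hX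
  refine Language.mem_mul.2 ⟨u ++ (List.replicate k x).flatten, ⟨u, x, k, by omega, by omega, rfl⟩,
    v, ?_, rfl⟩
  refine Language.mem_mul.2 ⟨v, ⟨v, [], 0, by omega, by simp, by simp⟩, [], ?_, by simp⟩
  exact rfl

end Crest.Agent.R320.Fin391b_391
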