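import Crest.Agent.R320.Fin1_370

/-!
Row 320, helper370: heights of the languages of the natural block code (H1..H4 of `top_sem`).
-/

set_option autoImplicit false

namespace Crest.Agent.R320.Fin1_370

open Crest.Agent.R320.Hk_851 Crest.Agent.R320.Code110

variable {α : Type} {S : Type} [Monoid S]

/-- the finite key of a word -/
def key (f : α → S) (La Pm : ℕ) (u : List α) : List α × ℕ × S :=
  (u.take La, u.length % Pm, ((u.drop La).map f).prod)

theorem regular_of_key [Finite α] [Finite S] (f : α → S) (La Pm : ℕ) (hPm : 0 < Pm)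
    (Q : List α → Prop) (hQ : ∀ u u', key f La Pm u = key f La Pm u' → (Q u → Q u')) :
    Language.IsRegular ({u | Q u} : Language α) := by
  classical
  haveI : Finite {l : List α // l.length ≤ La} := (List.finite_length_le α La).to_subtype
  let σ := {l : List α // l.length ≤ La} × Fin Pm × S
  haveI : Fintype σ := Fintype.ofFinite σ
  let k : List α → σ := fun u => (⟨u.take La, by rw [List.length_take]; omega⟩,
    ⟨u.length % Pm, Nat.mod_lt _ hPm⟩, ((u.drop La).map f).prod)
  let step : σ → α → σ := fun s x =>
    if h : s.1.1.length < La then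
      (⟨s.1.1 ++ [x], by rw [List.length_append, List.length_singleton]; omega⟩,
        ⟨(s.2.1.1 + 1) % Pm, Nat.mod_lt _ hPm⟩, s.2.2)
    else (s.1, ⟨(s.2.1.1 + 1) % Pm, Nat.mod_lt _ hPm⟩, s.2.2 * f x)
  have hk : ∀ u x, k (u ++ [x]) = step (k u) x := by
    intro u x
    have hmod : (u ++ [x]).length % Pm = (u.length % Pm + 1) % Pm := by
      rw [List.length_append, List.length_singleton, Nat.mod_add_mod]
    by_cases h : u.length < La
    · have h1 : (k u).1.1.length < La := by
        show (u.take La).length < La
        rw [List.length_take]; omega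
      simp only [step, dif_pos h1]
      refine Prod.ext (Subtype.ext ?_) (Prod.ext (Fin.ext hmod) ?_)
      · show (u ++ [x]).take La = u.take La ++ [x]
        rw [List.take_of_length_le (by rw [List.length_append, List.length_singleton]; omega),
          List.take_of_length_le (by omega)]
      · show (((u ++ [x]).drop La).map f).prod = ((u.drop La).map f).prod
        rw [List.drop_eq_nil_of_le (by rw [List.length_append, List.length_singleton]; omega),
          List.drop_eq_nil_of_le (by omega)]
    · have h1 : ¬ (k u).1.1.length < La := by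
        show ¬ (u.take La).length < La
        rw [List.length_take]; omega
      simp only [step, dif_neg h1]
      refine Prod.ext (Subtype.ext ?_) (Prod.ext (Fin.ext hmod) ?_)
      · show (u ++ [x]).take La = u.take La
        rw [List.take_append_of_le_length (by omega)]
      · show (((u ++ [x]).drop La).map f).prod = ((u.drop La).map f).prod * f x
        rw [List.drop_append_of_le_length (by omega), List.map_append, List.prod_append]
        simp
  let D : DFA α σ := ⟨step, k [], {s | ∃ u, k u = s ∧ Q u}⟩
  have hD : ∀ w, D.eval w = k w := by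
    intro w
    induction w using List.reverseRecOn with
    | nil => rfl
    | append_singleton w x ih =>
      rw [DFA.eval_append_singleton, ih, hk]
  refine ⟨σ, inferInstance, D, ?_⟩
  ext w
  rw [DFA.mem_accepts, hD]
  constructor
  · rintro ⟨u, h1, h2⟩
    refine hQ u w ?_ h2
    have e1 := congrArg (fun s : σ => s.1.1) h1
    have e2 := congrArg (fun s : σ => s.2.1.1) h1
    have e3 := congrArg (fun s : σ => s.2.2) h1
    exact Prod.ext e1 (Prod.ext e2 e3)
  · intro h
    exact ⟨w, rfl, h⟩

/-- a key of a short word determines it -/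
theorem key_short {f : α → S} {La Pm : ℕ} {u u' : List α} (h : key f La Pm u = key f La Pm u')
    (hu : u.length < La) : u' = u := by
  have h1 : u.take La = u'.take La := congrArg Prod.fst h
  rw [List.take_of_length_le (by omega)] at h1
  have h2 := congrArg List.length h1
  rw [List.length_take] at h2
  rw [List.take_of_length_le (by omega)] at h1
  exact h1.symm

theorem key_long {f : α → S} {La Pm : ℕ} {u u' : List α} (h : key f La Pm u = key f La Pm u')
    (hu : La ≤ u.length) : La ≤ u'.length := by
  have h1 : u.take La = u'.take La := congrArg Prod.fst h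
  have h2 := congrArg List.length h1
  rw [List.length_take, List.length_take] at h2
  omega

section walls
variable [Finite α] {n z : ℕ} {W : Set (List α)}

abbrev Wo (n : ℕ) (W : Set (List α)) : List α → Prop := Crest.Agent.R320.WallU_228.Wo n W

theorem HL_Wo (k : ℕ) : HL k ({X | Wo n W X} : Language α) := by
  have hfin : ({v | v ∈ W ∧ v.length = n} : Set (List α)).Finite :=
    (List.finite_length_eq α n).subset fun v hv => hv.2
  refine (HL.finite (k := k) hfin).suffix.congr fun w => ?_
  constructor
  · rintro ⟨h1, h2⟩
    exact ⟨_, ⟨h2, by rw [List.length_drop]; omega⟩, List.drop_suffix _ _⟩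
  · rintro ⟨v, ⟨h1, h2⟩, ⟨r, rfl⟩⟩
    refine ⟨by rw [List.length_append]; omega, ?_⟩
    have e : (r ++ v).length - n = r.length := by rw [List.length_append]; omega
    rw [e, List.drop_left]
    exact h1

theorem HL_noWall (k : ℕ) :
    HL k ({X | ∀ t, z ≤ t → t < X.length → ¬ Wo n W (X.take t)} : Language α) := by
  let A1 : Language α := {Y | Wo n W Y ∧ z ≤ Y.length}
  let A2 : Language α := {Z | 1 ≤ Z.length}
  have h1 : HL k (A1 * A2) :=
    (HL.setOf_and (HL_Wo k) (HL.length_ge z)).mul (HL.length_ge 1)
  refine h1.compl.congr fun w => ?_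
  constructor
  · intro h h2
    obtain ⟨Y, ⟨hY1, hY2⟩, Z, hZ, rfl⟩ := Language.mem_mul.1 h2
    have hZ' : 1 ≤ Z.length := hZ
    refine h Y.length hY2 (by rw [List.length_append]; omega) ?_
    rw [List.take_left]
    exact hY1
  · intro h t h1 h2 h3
    apply h
    refine Language.mem_mul.2 ⟨w.take t, ⟨h3, by rw [List.length_take]; omega⟩, w.drop t, ?_,
      List.take_append_drop _ _⟩
    show 1 ≤ (w.drop t).length
    rw [List.length_drop]; omega

theorem HL_XX (k : ℕ) : HL k (XX (Wo n W) z) :=
  (HL.setOf_and (HL_Wo k) (HL.setOf_and (HL.length_ge z) (HL_noWall k))).congr fun _ => Iff.rfl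

theorem few (X : List α) (h : ∀ t, z ≤ t → t < X.length → ¬ Wo n W (X.take t)) :
    Crest.Agent.R320.FewWalls_228.nw n W X ≤ z + 1 := by
  classical
  unfold Crest.Agent.R320.FewWalls_228.nw
  refine le_trans (Finset.card_le_card (t := insert (X.length - n) (Finset.range z)) ?_) ?_
  · intro x hx
    rw [Finset.mem_filter] at hx
    obtain ⟨h1, h2⟩ := Crest.Agent.R320.WallU_228.wo_take.1 hx.2
    rw [Finset.mem_insert, Finset.mem_range]
    by_contra hcon
    push Not at hcon
    exact h (x + n) (by omega) (by omega) h2
  · refine le_trans (Finset.card_insert_le _ _) ?_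
    rw [Finset.card_range]

theorem HL_E (k N : ℕ) : HL k ({X | ∃ s, z ≤ s + N ∧ s ≤ z + N ∧ s ≤ X.length ∧
    Wo n W (X.take s)} : Language α) := by
  have hfin : ({s | z ≤ s + N ∧ s ≤ z + N} : Set ℕ).Finite :=
    (Set.finite_Iic (z + N)).subset fun s hs => hs.2
  let A1 : ℕ → Language α := fun s => {Y | Wo n W Y ∧ Y.length = s}
  refine (HL.biUnion (k := k) hfin (L := fun s => A1 s * (⊤ : Language α))
    (fun s _ => (HL.setOf_and (HL_Wo k) (HL.length_eq s)).mul HL.top)).congr fun w => ?_
  constructor
  · rintro ⟨s, h1, h2, h3, h4⟩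
    exact ⟨s, ⟨h1, h2⟩, Language.mem_mul.2 ⟨w.take s, ⟨h4, by rw [List.length_take]; omega⟩,
      w.drop s, Set.mem_univ (w.drop s), List.take_append_drop _ _⟩⟩
  · rintro ⟨s, ⟨h1, h2⟩, h3⟩
    obtain ⟨Y, ⟨hY1, hY2⟩, Z, -, rfl⟩ := Language.mem_mul.1 h3
    subst hY2
    refine ⟨Y.length, h1, h2, by rw [List.length_append]; omega, ?_⟩
    rw [List.take_left]
    exact hY1

end walls

end Crest.Agent.R320.Fin1_370
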