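import Crest.Agent.R320.Fin2_52

/-!
# Row 320 (helper52): the row from one arithmetic gadget, main assembly
-/

set_option autoImplicit false
set_option maxHeartbeats 1000000

namespace Crest.Agent.R320.Fin_52

open Crest.RegLang Crest.Agent.R320.Hk_851 Crest.Agent.R320.Blk467 Crest.Agent.R320.FewVal_228
open Crest.Agent.R320.Sc2n_937 Crest.Agent.R320.SemTop_727 Crest.Agent.R320.ExactR_237
open Crest.Agent.R320.FewWalls_228

theorem main (S : Type) [Monoid S] [Finite S] (A : Type) [Finite A] (f : A → S)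
    (hU : ∀ (act : (S → ZMod 2) → S → (S → ZMod 2)), UH S (S → ZMod 2) act) (s : S) :
    HL 3 ({w | (w.map f).prod = s} : Language A) := by
  classical
  haveI := Fintype.ofFinite S
  obtain ⟨act, hadd, hone, hmul, hfaith⟩ := exists_module S
  obtain ⟨C0, hC0⟩ := hU act
  obtain ⟨K, hK⟩ := exact_gadget A S (S → ZMod 2) f act (2 * C0 + 2)
  obtain ⟨N1, Pm, La, c, BadT, hN1, hPm, hcm, hsp, hthin, hgad⟩ := hC0 K
  obtain ⟨lam2, rho2, nu2, hex2, hcomp2⟩ := hK c hcm
  obtain ⟨lam, rho, nu1, hlen, hex, hcomp, hfs⟩ := hgad A f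
  obtain ⟨p0, hp0⟩ : ∃ p0 : ℕ, ∀ k < K, c k ≤ p0 :=
    ⟨∑ k ∈ Finset.range K, c k, fun k hk =>
      Finset.single_le_sum (f := c) (fun _ _ => Nat.zero_le _) (Finset.mem_range.2 hk)⟩
  obtain ⟨n, cc, P, Sw, hn, hP, hSw, hsep, hper, hHL⟩ :=
    exists_walls A (2 * p0 + 2 * N1 + 1) (by omega)
  let g : Geo A :=
    { Wo := Wo n Sw, n := n, z := p0 + N1 + (n + p0 + La), p0 := p0, q0 := n + p0 + La, N1 := N1,
      loc := fun P Q h => wo_loc P Q h, hz := rfl, hq := by omega, hN := hN1, hqp := by omega }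
  let pre : List A → (S → ZMod 2) → (S → ZMod 2) := fun X0 v => act v (X0.map f).prod + nu2 X0 1
  let post : (S → ZMod 2) → List A → (S → ZMod 2) := fun u Y => act u (Y.map f).prod + nu1 Y
  let D : Sch A (S → ZMod 2) :=
    { XX := {X | g.XX X}, T := fun v X => g.T pre post v X,
      L1 := fun v => {P | g.LP1 pre lam v P}, L2 := fun v => {P | Geo.LP2 K c lam2 v P} }
  have hWo0 : ∀ w : List A, g.Wo w → n ≤ w.length := fun w h => h.1
  -- exactness of gadget 2 on words of length p0
  have hex2' : ∀ k, k < K → ∀ P Q v u, P.length = c k → Q.length = g.p0 - c k →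
      lam2 k P = some v → (fun k Q => rho2 k Q 1) k Q = some u → u = pre (P ++ Q) v := by
    intro k hk P Q v u hPl _ h1 h2
    have := hex2 k hk P Q 1 v u hPl h1 h2
    rw [this, mul_one]
    rfl
  have hex' : ∀ P Q u b, lam P = some u → rho Q = some b → b = post u (P ++ Q) := hex
  -- zone map
  have hT : ∀ v X, D.T v X = act v (X.map f).prod +
      (act (nu2 (X.take p0) 1) ((X.drop p0).map f).prod + nu1 (X.drop p0)) := by
    intro v X
    show act (act v ((X.take p0).map f).prod + nu2 (X.take p0) 1) ((X.drop p0).map f).prod +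
      nu1 (X.drop p0) = _
    rw [hadd, ← hmul, ← List.prod_append, ← List.map_append, List.take_append_drop, add_assoc]
  -- prefix code
  have hC : PCode D.XX := by
    refine ⟨?_, ?_⟩
    · intro h
      have h1 : g.z ≤ ([] : List A).length := h.1
      have h2 : g.z = p0 + N1 + (n + p0 + La) := rfl
      rw [List.length_nil] at h1
      omega
    · rintro X hX Y hY ⟨R, hR⟩
      exact g.prefix_code (R := R) (R' := []) hX hY (by rw [List.append_nil]; exact hR)
  -- good blocks
  have hGood : ∀ X, g.XX X → ¬ g.BadX BadT X → X ∈ D.Good := by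
    intro X hX hb
    have hb' : ¬ g.E X ∧ ¬ BadT (X.length - g.p0) := ⟨fun h => hb (Or.inl h), fun h => hb (Or.inr h)⟩
    have hXz : p0 + N1 + (n + p0 + La) ≤ X.length := hX.1
    refine ⟨hX, fun x => ?_⟩
    obtain ⟨P, Q, b, e, h1, h2⟩ := g.complete1 pre (lam := lam) (rho := rho) hlen hX hb'.1
      (by
        intro u
        obtain ⟨P, Q, e, h1, h2⟩ := hcomp (X.drop g.p0) (by
          rw [List.length_drop]
          show La ≤ X.length - p0
          omega) (by rw [List.length_drop]; exact hb'.2) u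
        exact ⟨P, Q, e, h1, h2⟩) x
    have hs := g.sound1 pre post hlen hex' h1 h2
    rw [← e] at hs
    refine ⟨P, h1, Q, ?_, e.symm⟩
    have hs2 : D.T x X = b := hs.2
    rw [hs2]
    intro x' P' hP'
    exact g.sound1 pre post hlen hex' hP' h2
  -- finiteness of the left languages
  have hL1 : ∀ x, (D.L1 x).Finite := by
    intro x
    refine (List.finite_length_le A (p0 + N1)).subset ?_
    intro P hP
    have h1 := hlen _ _ hP.2
    rw [List.length_drop] at h1
    have h2 : p0 ≤ P.length := hP.1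
    have h3 : g.p0 = p0 := rfl
    show P.length ≤ p0 + N1
    have h4 : P.length - p0 ≤ N1 := h1
    omega
  have hL2 : ∀ x, (D.L2 x).Finite := by
    intro x
    refine (List.finite_length_le A p0).subset ?_
    rintro P ⟨k, hk, hPl, -⟩
    show P.length ≤ p0
    rw [hPl]; exact hp0 k hk
  -- scheme 2
  have hC2 : ∀ X1 ∈ D.Bad, ∀ X2 ∈ D.Bad, ∀ x, ∃ P ∈ D.L2 x, ∃ Q ∈ D.R2 (D.T (D.T x X1) X2),
      P ++ Q = X1 ++ X2 := by
    intro X1 hX1 X2 hX2 x
    have hX1z : p0 + N1 + (n + p0 + La) ≤ X1.length := hX1.1.1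
    have hX2z : p0 + N1 + (n + p0 + La) ≤ X2.length := hX2.1.1
    have hB1 : g.BadX BadT X1 := by
      by_contra h
      exact hX1.2 (hGood X1 hX1.1 h)
    obtain ⟨P, Q, b, e, h1, h2⟩ := g.complete2 pre post (BadT := BadT) (K := K) (c := c)
      (lam2 := lam2) (rho2 := fun k Q => rho2 k Q 1) (C0 := C0) hp0
      (by
        intro P Q a1 a2 a3
        have := wo_gap hsep P Q a1 a2 a3
        show 2 * p0 + 2 * N1 < Q.length
        omega)
      hsp
      (by
        intro τ hτ J hJ
        have hτ' : p0 + N1 + (n + p0 + La) ≤ τ + p0 := hτ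
        refine hthin (τ - p0) (by omega) J ?_
        intro k hk
        obtain ⟨hkK, k', hk'K, hne, hb⟩ := hJ k hk
        refine ⟨hkK, k', hk'K, hne, ?_⟩
        have e1 : τ - p0 + c k' - c k = τ + c k' - c k - g.p0 := by
          show τ - p0 + c k' - c k = τ + c k' - c k - p0
          omega
        rw [e1]; exact hb)
      hX1.1 hX2.1 x
      (by
        obtain ⟨I, hI, hI2⟩ := hcomp2 (X1.take p0) 1 x (by
          intro k hk
          rw [List.length_take]
          have := hp0 k hk
          omega)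
        refine ⟨I, hI, ?_⟩
        intro k hk
        obtain ⟨a1, a2, a3⟩ := hI2 k hk
        have := hp0 k a1
        refine ⟨a1, ?_, a3⟩
        rw [List.take_take, Nat.min_eq_left this] at a2
        exact a2)
    have hs := g.sound2 pre post (BadT := BadT) (K := K) (c := c) (lam2 := lam2)
      (rho2 := fun k Q => rho2 k Q 1) hp0 hex2' (R := []) (R' := X2) hX1.1 hB1 h1 h2
      (by rw [List.append_nil]; exact e)
    obtain ⟨X2', hX2', e2, hb⟩ := hs
    have e3 : X2' = X2 := List.append_cancel_left (e2.symm.trans e)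
    subst e3
    have hb' : D.T (D.T x X1) X2' = b := hb
    rw [hb']
    refine ⟨P, h1, Q, ?_, e⟩
    intro x' P' hP'
    -- length of Q
    have hPl : P.length ≤ p0 := by
      obtain ⟨k, hk, hPl, -⟩ := h1
      rw [hPl]; exact hp0 k hk
    have hQl : P.length + Q.length = X1.length + X2'.length := by
      rw [← List.length_append, e, List.length_append]
    have hWQ : g.Wo Q := by
      have hw : g.Wo (P ++ Q) := by
        rw [e]; exact (wo_loc X1 X2' (by omega)).2 hX2.1.2.1
      exact (wo_loc P Q (by omega)).1 hw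
    obtain ⟨X, hX, R', hR'⟩ := exists_block g (w := P' ++ Q) (by
      rw [List.length_append]
      show p0 + N1 + (n + p0 + La) ≤ P'.length + Q.length
      omega) ((wo_loc P' Q (by omega)).2 hWQ)
    by_cases hXb : g.BadX BadT X
    · obtain ⟨Y2, hY2, e4, hb4⟩ := g.sound2 pre post (BadT := BadT) (K := K) (c := c)
        (lam2 := lam2) (rho2 := fun k Q => rho2 k Q 1) hp0 hex2' (R := []) (R' := R') hX hXb hP' h2
        (by rw [List.append_nil]; exact hR'.symm)
      by_cases hXG : X ∈ D.Good
      · exact Or.inr (Or.inl ⟨X, hXG, R', hR'⟩)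
      · by_cases hYG : Y2 ∈ D.Good
        · exact Or.inr (Or.inr ⟨X, ⟨hX, hXG⟩, Y2, hYG, ⟨[], by rw [List.append_nil, e4]⟩⟩)
        · exact Or.inl ⟨X, ⟨hX, hXG⟩, Y2, ⟨hY2, hYG⟩, e4, hb4⟩
    · exact Or.inr (Or.inl ⟨X, hGood X hX hXb, R', hR'⟩)
  -- regularity
  have rWZ : (lg fun w : List A => g.z ≤ w.length ∧ g.Wo w).IsRegular := by
    have h1 : HL 0 (lg fun w : List A => g.z ≤ w.length) := HL.length_ge _
    have h2 : HL 0 ((⊤ : Language A) * (lg fun w : List A => w.length = n ∧ w ∈ Sw)) :=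
      HL.top.mul (HL.finite ((List.finite_length_eq A n).subset fun w hw => hw.1))
    have h3 := Crest.Agent.R320.Reg_852.HL.isRegular (h1.inf h2)
    have e : (lg fun w : List A => g.z ≤ w.length ∧ g.Wo w) = (lg fun w : List A => g.z ≤ w.length) ⊓
        ((⊤ : Language A) * (lg fun w : List A => w.length = n ∧ w ∈ Sw)) := by
      ext w
      constructor
      · rintro ⟨a1, a2, a3⟩
        refine ⟨a1, Language.mem_mul.2 ⟨w.take (w.length - n), trivial, lastn n w, ⟨?_, a3⟩, ?_⟩⟩
        · unfold lastn; rw [List.length_drop]; omega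
        · exact List.take_append_drop _ _
      · rintro ⟨a1, a2⟩
        obtain ⟨a, -, b, ⟨hb1, hb2⟩, rfl⟩ := Language.mem_mul.1 a2
        refine ⟨a1, by rw [List.length_append]; omega, ?_⟩
        unfold lastn
        rw [List.length_append, hb1, Nat.add_sub_cancel, List.drop_left]
        exact hb2
    rw [e]; exact h3
  have rXX : (lg fun w : List A => g.XX w).IsRegular := by
    have h1 : (lg fun w : List A => 1 ≤ w.length).IsRegular :=
      Crest.Agent.R320.Reg_852.HL.isRegular (HL.length_ge (k := 0) 1)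
    have h2 := rWZ.inf (Crest.Agent.R320.Reg_852.IsRegular.mul rWZ h1).compl
    have e : (lg fun w : List A => g.XX w) = (lg fun w : List A => g.z ≤ w.length ∧ g.Wo w) ⊓
        ((lg fun w : List A => g.z ≤ w.length ∧ g.Wo w) * (lg fun w : List A => 1 ≤ w.length))ᶜ := by
      ext w
      exact xx_iff_lang g hWo0
    rw [e]; exact h2
  have hfib : ∀ x y, HL 1 (D.fib x y) := by
    intro x y
    haveI : Finite {a : List A // a.length = p0} := (List.finite_length_eq A p0).to_subtype
    have r1 : ∀ X0 : {a : List A // a.length = p0},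
        (({X0.1} : Language A) * (lg fun Y => La ≤ Y.length ∧ post (pre X0.1 x) Y = y)).IsRegular := by
      intro X0
      refine Crest.Agent.R320.Reg_852.IsRegular.mul
        (Crest.Agent.R320.Reg_852.HL.isRegular (HL.word (k := 0) X0.1)) ?_
      refine reg_fs f Pm La hPm (fun Y => post (pre X0.1 x) Y = y) ?_
      intro Q Q' a1 a2 a3 a4 a5
      have e1 := hfs Q Q' a1 a2 a3 a4 a5
      have e2 : (Q.map f).prod = (Q'.map f).prod := by
        rw [← List.take_append_drop La Q, ← List.take_append_drop La Q', List.map_append,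
          List.map_append, List.prod_append, List.prod_append, a3, a5]
      show act _ (Q.map f).prod + nu1 Q = y ↔ act _ (Q'.map f).prod + nu1 Q' = y
      rw [e1, e2]
    have r2 := rXX.inf (reg_iUnion r1)
    refine (hHL _ r2 (g.z + 1)).congr fun w => ?_
    constructor
    · rintro ⟨h1, h2⟩
      have h1z : p0 + N1 + (n + p0 + La) ≤ w.length := h1.1
      refine ⟨⟨h1, ⟨⟨w.take p0, by rw [List.length_take]; omega⟩, Language.mem_mul.2
        ⟨w.take p0, rfl, w.drop p0, ⟨?_, h2⟩, List.take_append_drop _ _⟩⟩⟩, nw_le h1.2.2⟩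
      rw [List.length_drop]; omega
    · rintro ⟨⟨h1, ⟨X0, hX0⟩, h2⟩, -⟩
      obtain ⟨a, ha, b, ⟨-, hb⟩, rfl⟩ := Language.mem_mul.1 h2
      have ha' : a = X0 := ha
      subst ha'
      refine ⟨h1, ?_⟩
      show act (act x (((a ++ b).take p0).map f).prod + nu2 ((a ++ b).take p0) 1)
        (((a ++ b).drop p0).map f).prod + nu1 ((a ++ b).drop p0) = y
      rw [← hX0, List.take_left, List.drop_left]
      exact hb
  have htail : ∀ s, HL (1 + 2) ({w | (∀ X ∈ D.XX, ¬ X <+: w) ∧ (w.map f).prod = s} :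
      Language A) := by
    intro s
    have r1 := (Crest.Agent.R320.Reg_852.IsRegular.mul rXX
      (Crest.Agent.R320.Reg_852.HL.isRegular (HL.top (k := 0)))).compl.inf
      (reg_fibre f (fun x => x = s))
    refine HL.mono (by omega) ((hHL _ r1 (g.z + 1)).congr fun w => ?_)
    constructor
    · rintro ⟨h1, h2⟩
      refine ⟨⟨?_, h2⟩, nw_le fun t a1 a2 => nopre g h1 t a1 a2.le⟩
      intro h
      obtain ⟨a, ha, b, -, rfl⟩ := Language.mem_mul.1 h
      exact h1 a ha ⟨b, rfl⟩
    · rintro ⟨⟨h1, h2⟩, -⟩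
      refine ⟨?_, h2⟩
      rintro X hX ⟨R, rfl⟩
      exact h1 (Language.mem_mul.2 ⟨X, hX, R, trivial, rfl⟩)
  exact SemTop_727.top act hadd hone hmul hfaith f _ D hT hC hfib hL1 hL2 hC2 htail s

end Crest.Agent.R320.Fin_52
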