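import Crest.Agent.R320.Fin2_676

/-!
# Row 320, final assembly, part 2 (helper676)
-/

set_option autoImplicit false

namespace Crest.Agent.R320.Fin3_676

open Crest.Agent.R320.Hk_851 Crest.Agent.R320.GridG_19 Crest.Agent.R320.ExactR_237
  Crest.Agent.R320.Fin1_676 Crest.Agent.R320.Fin2_676

theorem reg_prod {α S : Type} [Finite α] [Monoid S] [Finite S] (f : α → S) (s : S) :
    Language.IsRegular ({w | (w.map f).prod = s} : Language α) := by
  have h := Zone132b_898.isRegular_of_inv (α := α) (S := S) (fun w => (w.map f).prod)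
    (fun u v => by simp) 0 1 one_pos (fun _ t _ => t = s)
  simpa using h

/-- the fibres of the zone map are regular on long words -/
theorem reg_T {α S V : Type} [Finite α] [Monoid S] [Finite S] (f : α → S) (T : List α → V)
    (L0 N : ℕ) (hN : 0 < N)
    (hinv : ∀ X X' : List α, L0 ≤ X.length → L0 ≤ X'.length → X.take L0 = X'.take L0 →
      pr f (X.drop L0) = pr f (X'.drop L0) → X.length % N = X'.length % N → T X = T X')
    (y : V) : ∃ L : List α → Prop, Language.IsRegular ({X | L X} : Language α) ∧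
      ∀ X : List α, L0 ≤ X.length → (L X ↔ T X = y) := by
  refine ⟨fun X => ∃ X' : List α, L0 ≤ X'.length ∧ X'.take L0 = X.take L0 ∧
    pr f (X'.drop L0) = pr f (X.drop L0) ∧ X'.length % N = X.length % N ∧ T X' = y, ?_, ?_⟩
  · exact Zone132b_898.isRegular_of_inv (α := α) (S := S) (pr f) (fun u v => pr_append f u v) L0 N
      hN (fun a s r => ∃ X' : List α, L0 ≤ X'.length ∧ X'.take L0 = a ∧
        pr f (X'.drop L0) = s ∧ X'.length % N = r ∧ T X' = y)
  · intro X hX
    constructor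
    · rintro ⟨X', h1, h2, h3, h4, h5⟩
      rw [← hinv X' X h1 hX h2 h3 h4]
      exact h5
    · intro h
      exact ⟨X, hX, rfl, rfl, rfl, h⟩

theorem fin (α : Type) [Finite α] (S : Type) [Monoid S] [Finite S] (f : α → S) (s : S) :
    HL 3 ({w | (w.map f).prod = s} : Language α) := by
  classical
  haveI := Fintype.ofFinite S
  obtain ⟨act, hadd, hone, hmul, hfaith⟩ := Blk467.exists_module S
  -- gadget 1
  obtain ⟨m, r, hgrid⟩ := grid S (S → ZMod 2) act
  -- gadget 2
  obtain ⟨K, hK⟩ := exact_gadget α S (S → ZMod 2) f act (2 * (r + m) + 2)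
  obtain ⟨Ms, hcard, hMs, hG1⟩ := hgrid (2 ^ (K + 1))
  set M := ∏ q ∈ Ms, q with hM
  have hM0 : 0 < M := Finset.prod_pos fun q hq => (hMs q hq).1.pos
  have hcop : Nat.Coprime M 2 := by
    refine Nat.Coprime.prod_left fun q hq => ?_
    refine (Nat.coprime_primes (hMs q hq).1 Nat.prime_two).2 ?_
    have h1 := (hMs q hq).2
    have h2 : 2 ≤ 2 ^ (K + 1) := by
      calc 2 = 2 ^ 1 := rfl
        _ ≤ 2 ^ (K + 1) := Nat.pow_le_pow_right (by norm_num) (by omega)
    omega
  obtain ⟨lam, rho, nu1, hS, hL, hR, hC, hnu⟩ := hG1 (Gr K M) 0 (fun k => by unfold Gr; positivity)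
    (fun a b hab => pow_dvd_pow 2 (Nat.mul_le_mul_left _ hab))
    (fun k => Nat.Coprime.pow_right _ hcop) α (pr f) (fun u v => pr_append f u v)
  set N1 := Am (Gr K M) M 0 m with hN1
  set A1 := Ac (Gr K M) M 0 m with hA1
  -- the ruler
  obtain ⟨x, hx1, hx0, hruler⟩ := ruler K m r Ms hcard (fun q hq => ⟨(hMs q hq).1, (hMs q hq).2⟩)
    (2 * N1 + 1)
  let c : ℕ → ℕ := fun k => x * 2 ^ k
  have hinc : ∀ i j, i < j → j < K → c i < c j := fun i j hij _ =>
    Nat.mul_lt_mul_of_pos_left (Nat.pow_lt_pow_right (by norm_num) hij) hx0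
  obtain ⟨lam2, rho2, nu2, hS2, hC2⟩ := hK c hinc
  set p0 := x * 2 ^ K with hp0
  have hcp : ∀ k, k < K → c k ≤ p0 := fun k hk =>
    Nat.mul_le_mul_left _ (Nat.pow_le_pow_right (by norm_num) hk.le)
  -- the walls
  obtain ⟨n, Gw, B, Wo, hLW, hgap, -, -, hpc⟩ :=
    LWallAll_922.walls_all_left α (2 * (N1 + p0) + 1) (by omega)
  have hW47 : Joint_47.LW n (2 * (N1 + p0) + 1) Wo := by
    refine ⟨hLW.len, hLW.app, fun X s t h1 h2 h3 h4 => ?_⟩
    have := hgap X s t h1 h2 h3 h4
    omega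
  set z := 3 * p0 + n + N1 + 1 + (2 * N1 + M) + (p0 + A1) with hz
  let nu2' : List α → (S → ZMod 2) := fun X => nu2 X 1
  have hC' : ∀ Y : List α, 2 * N1 + M ≤ Y.length → ¬ BT Ms K m Y.length →
      ∀ v, ∃ P Q, Y = P ++ Q ∧ lam P = some v ∧ (rho Q).isSome := by
    intro Y hY hb v
    obtain ⟨P, Q, h1, h2, h3⟩ := hC Y (by omega) (by omega)
      (fun q hq hd => hb (Or.inl ⟨q, hq, hd⟩))
      (fun h => hb (Or.inr ⟨by rw [← hM]; omega, h⟩)) v
    exact ⟨P, Q, h1.symm, h2, h3⟩
  have hgood : ∀ X : List α, X ∈ Joint_47.Zn Wo z → ¬ Joint_47.Bad Wo z N1 p0 (BT Ms K m) X →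
      ∀ v, ∃ p q, X = p ++ q ∧ Joint_47.L1 f act p0 nu2' lam v p ∧ q ≠ [] ∧
      ∀ x' p', Joint_47.L1 f act p0 nu2' lam x' p' → p' ++ q ∈ Joint_47.Zn Wo z ∧
        Joint_47.T f act p0 nu2' nu1 x' (p' ++ q) = Joint_47.T f act p0 nu2' nu1 v X :=
    fun X hX hb v => Joint_47.complete1 f act p0 nu2' nu1 hW47 hS (fun P v h => (hL P v h).2.le)
      hC' (by omega) (by omega) hX hb v
  have hres : ∀ i i' j j', i < K → i' < K → j < K → j' < K → i' ≠ i → j' ≠ j →
      c i + c j' < c j + c i' + 2 * N1 → c j + c i' < c i + c j' + 2 * N1 → i = j := by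
    intro i i' j j' _ _ _ _ h1 h2 h3 h4
    by_contra hne
    have key : (2 : ℤ) ^ i - 2 ^ i' = 2 ^ j - 2 ^ j' := by
      by_contra hd
      have h5 : 1 ≤ |((2 : ℤ) ^ i + 2 ^ j') - (2 ^ j + 2 ^ i')| :=
        Int.one_le_abs (fun h => hd (by linarith))
      have h6 : |(x : ℤ) * (((2 : ℤ) ^ i + 2 ^ j') - (2 ^ j + 2 ^ i'))| < 2 * N1 := by
        have h3' : (x : ℤ) * 2 ^ i + x * 2 ^ j' < x * 2 ^ j + x * 2 ^ i' + 2 * N1 := by
          exact_mod_cast h3
        have h4' : (x : ℤ) * 2 ^ j + x * 2 ^ i' < x * 2 ^ i + x * 2 ^ j' + 2 * N1 := by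
          exact_mod_cast h4
        rw [abs_lt]
        constructor <;> linarith
      rw [abs_mul, abs_of_nonneg (by positivity : (0 : ℤ) ≤ (x : ℤ))] at h6
      have h7 : (x : ℤ) * 1 ≤ (x : ℤ) * |((2 : ℤ) ^ i + 2 ^ j') - (2 ^ j + 2 ^ i')| :=
        mul_le_mul_of_nonneg_left h5 (by positivity)
      have h8 : (2 * N1 + 1 : ℤ) ≤ (x : ℤ) := by exact_mod_cast hx1
      linarith
    exact hne (G369.pow_diff (Ne.symm h1) (Ne.symm h2) key).1
  have hjoint2 := fun (u u1 : List α) (hu : u ∈ Joint_47.Zn Wo z) (hu1 : u1 ∈ Joint_47.Zn Wo z)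
      (hbad : Joint_47.Bad Wo z N1 p0 (BT Ms K m) u) (v : S → ZMod 2) =>
    Joint_47.complete2 (A := α) (S := S) (V := S → ZMod 2) f act p0 nu1 (n := n)
      (W := 2 * (N1 + p0) + 1) (N1 := N1) (z := z) (K := K) (R1 := r + m) (Wo := Wo)
      (BadT := BT Ms K m) hW47 (c := c) (lam2 := lam2) (rho2 := rho2) (nu2' := nu2)
      hS2 hC2 hinc hcp hres hruler (by omega) (by omega) hu hu1 hbad v
  -- the data for the top
  let D : SemTop_727.Sch α (S → ZMod 2) :=
    { XX := XX Wo z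
      T := fun v X => Joint_47.T f act p0 nu2' nu1 v X
      L1 := fun v => {P | Joint_47.L1 f act p0 nu2' lam v P}
      L2 := fun v => {P | Joint_47.L2 K c lam2 v P} }
  have hG47 : ∀ X, X ∈ Joint_47.Zn Wo z → ¬ Joint_47.Bad Wo z N1 p0 (BT Ms K m) X →
      X ∈ D.Good := by
    intro X hX hb
    refine ⟨hX, fun v => ?_⟩
    obtain ⟨p, q, h1, h2, -, h3⟩ := hgood X hX hb v
    exact ⟨p, h2, q, fun x' P' hP' => h3 x' P' hP', h1.symm⟩
  have hCode : Blk467.PCode D.XX := by
    refine ⟨fun h => ?_, fun X hX Y hY h => XX_code hX hY h⟩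
    have h1 : z ≤ ([] : List α).length := h.1
    simp only [List.length_nil] at h1
    omega
  have hTnu : ∀ v X, D.T v X = act v (X.map f).prod +
      (act (nu2' (X.take p0)) (pr f (X.drop p0)) + nu1 (X.drop p0)) := by
    intro v X
    change act (act v (pr f (X.take p0)) + nu2' (X.take p0)) (pr f (X.drop p0)) +
      nu1 (X.drop p0) = _
    have e : (X.map f).prod = pr f (X.take p0) * pr f (X.drop p0) := by
      rw [← pr_append, List.take_append_drop]
      rfl
    rw [e, hadd, hmul, add_assoc]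
  have hPc : Pc Wo (2 * (N1 + p0) + 1) B := hpc
  have hNpos : 0 < M * Gr K M m := by
    have : 0 < Gr K M m := by unfold Gr; positivity
    positivity
  have hinv : ∀ (v : S → ZMod 2) (X X' : List α), p0 + A1 ≤ X.length → p0 + A1 ≤ X'.length →
      X.take (p0 + A1) = X'.take (p0 + A1) →
      pr f (X.drop (p0 + A1)) = pr f (X'.drop (p0 + A1)) →
      X.length % (M * Gr K M m) = X'.length % (M * Gr K M m) → D.T v X = D.T v X' := by
    intro v X X' h1 h2 h3 h4 h5
    have e1 : X.take p0 = X'.take p0 := by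
      have := congrArg (List.take p0) h3
      rwa [List.take_take, List.take_take, min_eq_left (by omega)] at this
    have e2 : (X.drop p0).take A1 = (X'.drop p0).take A1 := by
      have := congrArg (List.drop p0) h3
      rwa [List.drop_take, List.drop_take, Nat.add_sub_cancel_left] at this
    have e3 : pr f (X.drop p0) = pr f (X'.drop p0) := by
      rw [← List.take_append_drop A1 (X.drop p0), ← List.take_append_drop A1 (X'.drop p0),
        pr_append, pr_append, e2, List.drop_drop, List.drop_drop, h4]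
    have e4 : nu1 (X.drop p0) = nu1 (X'.drop p0) := by
      refine hnu _ _ (by rw [List.length_drop]; omega) (by rw [List.length_drop]; omega) e2 ?_ e3
      rw [List.length_drop, List.length_drop]
      refine Nat.ModEq.add_right_cancel' p0 ?_
      rw [Nat.sub_add_cancel (by omega), Nat.sub_add_cancel (by omega)]
      exact h5
    change act (act v (pr f (X.take p0)) + nu2' (X.take p0)) (pr f (X.drop p0)) +
      nu1 (X.drop p0) = act (act v (pr f (X'.take p0)) + nu2' (X'.take p0))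
        (pr f (X'.drop p0)) + nu1 (X'.drop p0)
    rw [e1, e3, e4]
  refine SemTop_727.top (k := 1) act hadd hone hmul hfaith f
    (fun X => act (nu2' (X.take p0)) (pr f (X.drop p0)) + nu1 (X.drop p0)) D hTnu hCode
    (fun v y => ?_) (fun v => ?_) (fun v => ?_) (fun X1 hX1 X2 hX2 v => ?_) (fun t => ?_) s
  · obtain ⟨L, hL1, hL2⟩ := reg_T f (D.T v) (p0 + A1) (M * Gr K M m) hNpos (hinv v) y
    refine (hl_fibre (z := z) hLW hPc hL1).congr fun w => ?_
    constructor
    · rintro ⟨h1, h2⟩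
      exact ⟨h1, (hL2 w (by have := h1.1; omega)).2 h2⟩
    · rintro ⟨h1, h2⟩
      exact ⟨h1, (hL2 w (by have := h1.1; omega)).1 h2⟩
  · refine (List.finite_length_le α (p0 + N1)).subset fun P hP => ?_
    have h1 := (hL _ _ hP.2).2
    rw [List.length_drop] at h1
    change P.length ≤ p0 + N1
    omega
  · refine (List.finite_length_le α p0).subset fun P hP => ?_
    obtain ⟨k, hk, h1, -⟩ := hP
    change P.length ≤ p0
    rw [h1]
    exact hcp k hk
  · have hb1 : Joint_47.Bad Wo z N1 p0 (BT Ms K m) X1 := by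
      by_contra h
      exact hX1.2 (hG47 X1 hX1.1 h)
    obtain ⟨p, q, h1, h2, -, h3⟩ := hjoint2 X1 X2 hX1.1 hX2.1 hb1 v
    refine ⟨p, h2, q, fun x' P' hP' => ?_, h1.symm⟩
    rcases h3 x' P' hP' with ⟨a, ha, hab, he, hT⟩ | ⟨a, ha, hab, he⟩
    · by_cases hg : a ∈ D.Good
      · exact Or.inr (Or.inl ⟨a, hg, he ▸ List.prefix_append _ _⟩)
      · refine Or.inl ⟨a, ⟨ha, hg⟩, X2, hX2, he, ?_⟩
        change D.T (D.T x' a) X2 = D.T (D.T v X1) X2
        have hT' : D.T x' a = D.T v X1 := hT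
        rw [hT']
    · exact Or.inr (Or.inl ⟨a, hG47 a ha hab, he⟩)
  · refine HL.mono (by norm_num : 1 ≤ 1 + 2) ?_
    exact hl_nb (z := z) hLW hPc (reg_prod f t)

end Crest.Agent.R320.Fin3_676
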