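import Crest.Agent.R320.Names_755
import Crest.Agent.R320.Noise_513

/-! Row 320, gadget (G1) of 852 #13483 in the literal form of lead #13673:
levels = positional digits in base `b`, names = CRT (755). -/

namespace Crest.Agent.R320.G1_76

variable {A S V W : Type}

/-- value of a word -/
def ph [Monoid S] (f : A → S) (X : List A) : S := (X.map f).prod

theorem ph_append [Monoid S] (f : A → S) (X Y : List A) :
    ph f (X ++ Y) = ph f X * ph f Y := by
  simp [ph]

/-- block `j` -/
def bt (b : ℕ) (X : List A) (j : ℕ) : List A :=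
  (X.take (X.length % b ^ (j + 1))).drop (X.length % b ^ j)

theorem bt_left {b i : ℕ} {P Q : List A} (hd : b ^ i ∣ Q.length) {j : ℕ} (hj : j < i) :
    bt b (P ++ Q) j = bt b P j := by
  have h1 : (P ++ Q).length % b ^ (j + 1) = P.length % b ^ (j + 1) := by
    rw [List.length_append]
    obtain ⟨c, hc⟩ := (pow_dvd_pow b hj : b ^ (j + 1) ∣ b ^ i).trans hd
    rw [hc, Nat.add_mul_mod_self_left]
  have h2 : (P ++ Q).length % b ^ j = P.length % b ^ j := by
    rw [List.length_append]
    obtain ⟨c, hc⟩ := (pow_dvd_pow b hj.le : b ^ j ∣ b ^ i).trans hd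
    rw [hc, Nat.add_mul_mod_self_left]
  unfold bt
  rw [h1, h2, List.take_append_of_le_length (Nat.mod_le _ _)]

theorem take_left {b i : ℕ} {P Q : List A} (hd : b ^ i ∣ Q.length) :
    (P ++ Q).take ((P ++ Q).length % b ^ i) = P.take (P.length % b ^ i) := by
  have h2 : (P ++ Q).length % b ^ i = P.length % b ^ i := by
    rw [List.length_append]
    obtain ⟨c, hc⟩ := hd
    rw [hc, Nat.add_mul_mod_self_left]
  rw [h2, List.take_append_of_le_length (Nat.mod_le _ _)]

/-- no carry -/
theorem nocarry {b i o o' : ℕ} (hb : 0 < b) (h1 : 2 * (o / b ^ i) < b) (h1' : o < b ^ (i + 1))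
    (hd : b ^ i ∣ o') (h2 : 2 * (o' / b ^ i % b) < b) {j : ℕ} (hj : i < j) :
    (o + o') % b ^ j = o + o' % b ^ j := by
  have hbi : 0 < b ^ i := pow_pos hb i
  have hbj : 0 < b ^ j := pow_pos hb j
  have _ := h1'
  -- o + o' % b^(i+1) < b^(i+1)
  have key : o + o' % b ^ (i + 1) < b ^ (i + 1) := by
    have e1 : o' % b ^ (i + 1) = b ^ i * (o' / b ^ i % b) := by
      rw [Nat.mod_pow_succ, Nat.mod_eq_zero_of_dvd hd, zero_add]
    have e2 : o < b ^ i * (o / b ^ i + 1) := by
      have := Nat.lt_mul_div_succ o hbi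
      simpa using this
    rw [e1, pow_succ]
    calc o + b ^ i * (o' / b ^ i % b) < b ^ i * (o / b ^ i + 1) + b ^ i * (o' / b ^ i % b) := by
          omega
      _ = b ^ i * (o / b ^ i + 1 + o' / b ^ i % b) := by ring
      _ ≤ b ^ i * b := Nat.mul_le_mul_left _ (by omega)
  -- lift to j
  have hdj : b ^ (i + 1) ∣ b ^ j := pow_dvd_pow b hj
  have key2 : o + o' % b ^ j < b ^ j := by
    obtain ⟨c, hc⟩ := hdj
    have hcpos : 0 < c := by
      rcases Nat.eq_zero_or_pos c with h | h
      · rw [h, mul_zero] at hc; omega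
      · exact h
    have e3 : o' % b ^ j = o' % b ^ (i + 1) + b ^ (i + 1) * (o' / b ^ (i + 1) % c) := by
      rw [hc, Nat.mod_mul]
    have hlt : o' / b ^ (i + 1) % c < c := Nat.mod_lt _ hcpos
    rw [e3, hc]
    calc o + (o' % b ^ (i + 1) + b ^ (i + 1) * (o' / b ^ (i + 1) % c))
        < b ^ (i + 1) + b ^ (i + 1) * (o' / b ^ (i + 1) % c) := by omega
      _ = b ^ (i + 1) * (o' / b ^ (i + 1) % c + 1) := by ring
      _ ≤ b ^ (i + 1) * c := Nat.mul_le_mul_left _ hlt
  rw [Nat.add_mod, Nat.mod_eq_of_lt (lt_of_le_of_lt (Nat.le_add_right _ _) key2 : o < b ^ j), Nat.mod_eq_of_lt key2]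

theorem bt_right {b i : ℕ} {P Q : List A}
    (hn : ∀ j, i < j → (P ++ Q).length % b ^ j = P.length + Q.length % b ^ j)
    {j : ℕ} (hj : i < j) : bt b (P ++ Q) j = bt b Q j := by
  unfold bt
  rw [hn (j + 1) (by omega), hn j hj, List.take_length_add_append, List.drop_length_add_append]

theorem drop_right {b i : ℕ} {P Q : List A}
    (hn : ∀ j, i < j → (P ++ Q).length % b ^ j = P.length + Q.length % b ^ j) :
    (P ++ Q).drop ((P ++ Q).length % b ^ (i + 1)) = Q.drop (Q.length % b ^ (i + 1)) := by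
  rw [hn (i + 1) (by omega), List.drop_length_add_append]

theorem mod_le_mod {b : ℕ} (n i : ℕ) : n % b ^ i ≤ n % b ^ (i + 1) := by
  rw [Nat.mod_pow_succ]; omega

theorem split_word [Monoid S] (f : A → S) (b : ℕ) (X : List A) (i : ℕ) :
    ph f (X.take (X.length % b ^ i)) * ph f (bt b X i) * ph f (X.drop (X.length % b ^ (i + 1)))
      = ph f X := by
  rw [← ph_append, ← ph_append]
  congr 1
  unfold bt
  have h := mod_le_mod (b := b) X.length i
  have h1 : X.take (X.length % b ^ i) ++
      (X.take (X.length % b ^ (i + 1))).drop (X.length % b ^ i)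
      = X.take (X.length % b ^ (i + 1)) := by
    have := List.take_append_drop (X.length % b ^ i) (X.take (X.length % b ^ (i + 1)))
    rw [List.take_take, min_eq_left h] at this
    exact this
  rw [h1, List.take_append_drop]

section W
variable [AddCommGroup W] [Monoid S] {m : ℕ} (e : Fin m → S → W) (f : A → S) (b : ℕ)

/-- weight left of level `i` -/
def wl (P : List A) (i : Fin m) : W := ∑ j : Fin m, if j < i then e j (ph f (bt b P j)) else 0

/-- weight right of level `i` -/
def wr (Q : List A) (i : Fin m) : W := ∑ j : Fin m, if i < j then e j (ph f (bt b Q j)) else 0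

/-- total weight -/
def wt (X : List A) : W := ∑ j : Fin m, e j (ph f (bt b X j))

theorem wt_split (X : List A) (i : Fin m) :
    wl e f b X i + e i (ph f (bt b X i)) + wr e f b X i = wt e f b X := by
  unfold wl wr wt
  have h : e i (ph f (bt b X i)) = ∑ j : Fin m, if j = i then e j (ph f (bt b X j)) else 0 := by
    rw [Finset.sum_ite_eq' Finset.univ i]; simp
  rw [h, ← Finset.sum_add_distrib, ← Finset.sum_add_distrib]
  apply Finset.sum_congr rfl
  intro j _
  rcases lt_trichotomy j i with h1 | h1 | h1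
  · rw [if_pos h1, if_neg h1.ne, if_neg h1.not_gt]; simp
  · subst h1; simp
  · rw [if_neg h1.not_gt, if_neg h1.ne', if_pos h1]; simp

theorem wl_left {P Q : List A} {i : Fin m} (hd : b ^ (i : ℕ) ∣ Q.length) :
    wl e f b (P ++ Q) i = wl e f b P i := by
  unfold wl
  apply Finset.sum_congr rfl
  intro j _
  split_ifs with h
  · rw [bt_left hd (by exact_mod_cast h)]
  · rfl

theorem wr_right {P Q : List A} {i : Fin m}
    (hn : ∀ j, (i : ℕ) < j → (P ++ Q).length % b ^ j = P.length + Q.length % b ^ j) :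
    wr e f b (P ++ Q) i = wr e f b Q i := by
  unfold wr
  apply Finset.sum_congr rfl
  intro j _
  split_ifs with h
  · rw [bt_right hn (by exact_mod_cast h)]
  · rfl

end W

theorem per_mul {N : Type} {g : ℕ → Option N} {M : ℕ} (h : ∀ t, g (t + M) = g t) (t k : ℕ) :
    g (t + M * k) = g t := by
  induction k with
  | zero => simp
  | succ k ih => rw [Nat.mul_succ, ← add_assoc, h, ih]

theorem per_mod {N : Type} {g : ℕ → Option N} {M : ℕ} (h : ∀ t, g (t + M) = g t) {t t' : ℕ}
    (htt : t % M = t' % M) : g t = g t' := by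
  have h1 : g t = g (t % M) := by
    conv_lhs => rw [← Nat.mod_add_div t M]
    rw [per_mul h]
  have h2 : g t' = g (t' % M) := by
    conv_lhs => rw [← Nat.mod_add_div t' M]
    rw [per_mul h]
  rw [h1, h2, htt]

theorem exists_place {b M : ℕ} (hM : 0 < M) (hc : Nat.Coprime b M) (i be t y0 : ℕ) :
    ∃ y, y0 ≤ y ∧ y < y0 + M ∧ (be + b ^ i * y) % M = t % M := by
  have : NeZero M := ⟨hM.ne'⟩
  have hc' : Nat.Coprime (b ^ i) M := hc.pow_left i
  let u : (ZMod M)ˣ := ZMod.unitOfCoprime (b ^ i) hc'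
  have hu : (u : ZMod M) = ((b ^ i : ℕ) : ZMod M) := ZMod.coe_unitOfCoprime _ hc'
  let Y : ZMod M := ↑u⁻¹ * ((t : ZMod M) - (be : ZMod M))
  refine ⟨y0 + (Y - (y0 : ZMod M)).val, by omega, ?_, ?_⟩
  · have := ZMod.val_lt (Y - (y0 : ZMod M)); omega
  · have h : ((be + b ^ i * (y0 + (Y - (y0 : ZMod M)).val) : ℕ) : ZMod M) = (t : ZMod M) := by
      push_cast
      rw [ZMod.natCast_zmod_val]
      have h3 : (y0 : ZMod M) + (Y - (y0 : ZMod M)) = Y := by ring
      rw [h3]
      have h4 : (b : ZMod M) ^ i * Y = (t : ZMod M) - (be : ZMod M) := by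
        have h5 : (b : ZMod M) ^ i = (u : ZMod M) := by rw [hu]; push_cast; rfl
        rw [h5]
        simp only [Y]
        rw [← mul_assoc, Units.mul_inv, one_mul]
      rw [h4]; ring
    exact (ZMod.natCast_eq_natCast_iff' _ _ _).1 h

/-! ### finite-state facts -/

theorem take_take_eq {X Y : List A} {L k : ℕ} (h : X.take L = Y.take L) (hk : k ≤ L) :
    X.take k = Y.take k := by
  have h1 : X.take k = (X.take L).take k := by rw [List.take_take, min_eq_left hk]
  have h2 : Y.take k = (Y.take L).take k := by rw [List.take_take, min_eq_left hk]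
  rw [h1, h2, h]

theorem bt_eq {b L : ℕ} (hb : 0 < b) {X Y : List A} (h : X.take L = Y.take L) {j : ℕ}
    (hj : b ^ (j + 1) ≤ L) (h1 : X.length % b ^ (j + 1) = Y.length % b ^ (j + 1)) :
    bt b X j = bt b Y j := by
  have h0 : X.length % b ^ j = Y.length % b ^ j := by
    have hd : b ^ j ∣ b ^ (j + 1) := pow_dvd_pow b (Nat.le_succ j)
    rw [← Nat.mod_mod_of_dvd X.length hd, ← Nat.mod_mod_of_dvd Y.length hd, h1]
  unfold bt
  rw [h1, h0, take_take_eq h]
  exact le_trans (Nat.mod_lt _ (pow_pos hb _)).le hj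

theorem ph_drop_eq [Monoid S] (f : A → S) {L k : ℕ} {X Y : List A} (h : X.take L = Y.take L)
    (hX : L ≤ X.length) (hY : L ≤ Y.length) (hd : ph f (X.drop L) = ph f (Y.drop L))
    (hk : k ≤ L) : ph f (X.drop k) = ph f (Y.drop k) := by
  have e1 : ∀ Z : List A, L ≤ Z.length → Z.drop k = (Z.take L).drop k ++ Z.drop L := by
    intro Z hZ
    conv_lhs => rw [← List.take_append_drop L Z]
    rw [List.drop_append_of_le_length]
    rw [List.length_take]; omega
  rw [e1 X hX, e1 Y hY, ph_append, ph_append, h, hd]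

theorem g1 (S V : Type) [Monoid S] [Finite S] [AddCommGroup V] [Finite V] (act : V → S → V) :
    ∃ m r : ℕ, ∀ Bd : ℕ, ∃ (Ms : Finset ℕ) (M : ℕ), Ms.card ≤ r ∧
      (∀ k ∈ Ms, Bd < k ∧ k.Prime ∧ k ∣ M) ∧ 0 < M ∧
      ∀ b : ℕ, 4 * M + 4 < b → Nat.Coprime b M → ∀ (A : Type) (f : A → S),
        ∃ (lam rho : List A → Option V) (nu : List A → V),
          (∀ P v, lam P = some v → P.length < b ^ m) ∧
          (∀ P Q v v', lam P = some v → rho Q = some v' →
            v' = act v ((P ++ Q).map f).prod + nu (P ++ Q)) ∧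
          (∀ X, (∀ k ∈ Ms, ¬ k ∣ X.length) →
            (∀ j < m, M ≤ X.length / b ^ j % b ∧ X.length / b ^ j % b + M + 1 ≤ b) →
            ∀ v, ∃ P Q, P ++ Q = X ∧ lam P = some v ∧ (rho Q).isSome) ∧
          (∀ Q Q', b ^ m ≤ Q.length → b ^ m ≤ Q'.length → Q.take (b ^ m) = Q'.take (b ^ m) →
            Q.length % (M * b ^ m) = Q'.length % (M * b ^ m) →
            ((Q.drop (b ^ m)).map f).prod = ((Q'.drop (b ^ m)).map f).prod →
            rho Q = rho Q' ∧ nu Q = nu Q') := by
  classical
  obtain ⟨W, _, _, m, e, F, hF⟩ := Noise513.explicit_noise S V act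
  -- names
  let val0 : Fin m × S × W × S × W × V → V := fun c =>
    F (c.2.1 * 1 * c.2.2.2.1) (c.2.2.1 + e c.1 1 + c.2.2.2.2.1)
      + act c.2.2.2.2.2 (c.2.1 * 1 * c.2.2.2.1)
  let Good : Fin m × S × W × S × W × V → Prop := fun c => ∀ z : S,
    F (c.2.1 * z * c.2.2.2.1) (c.2.2.1 + e c.1 z + c.2.2.2.2.1)
      + act c.2.2.2.2.2 (c.2.1 * z * c.2.2.2.1) = val0 c
  let N := {c : Fin m × S × W × S × W × V // Good c}
  obtain ⟨r, hr⟩ := Names755.names N (V × V) (fun c => (c.1.2.2.2.2.2, val0 c.1))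
  refine ⟨m, r, fun Bd => ?_⟩
  obtain ⟨Ms, M, nmL, nmR, hcard, hMs, hM, hpL, hpR, hname, hcomp, hcol⟩ := hr Bd
  refine ⟨Ms, M, hcard, hMs, hM, fun b hb hcop A f => ?_⟩
  have hb0 : 0 < b := by omega
  let condL : List A → N → Prop := fun P c =>
    P.length < b ^ ((c.1.1 : ℕ) + 1) ∧ 2 * (P.length / b ^ (c.1.1 : ℕ)) < b ∧
      c.1.2.1 = ph f (P.take (P.length % b ^ (c.1.1 : ℕ))) ∧ c.1.2.2.1 = wl e f b P c.1.1
  let condR : List A → N → Prop := fun Q c =>
    b ^ (c.1.1 : ℕ) ∣ Q.length ∧ 2 * (Q.length / b ^ (c.1.1 : ℕ) % b) < b ∧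
      c.1.2.2.2.1 = ph f (Q.drop (Q.length % b ^ ((c.1.1 : ℕ) + 1))) ∧
      c.1.2.2.2.2.1 = wr e f b Q c.1.1
  let lam : List A → Option V := fun P =>
    (nmL P.length).bind fun c => if condL P c then some c.1.2.2.2.2.2 else none
  let rho : List A → Option V := fun Q =>
    (nmR Q.length).bind fun c => if condR Q c then some (val0 c.1) else none
  let PC : ℕ → V × V → Prop := fun n p => ∃ t t' c c', (t + t') % M = n % M ∧
    nmL t = some c ∧ nmR t' = some c' ∧ c.1.2.2.2.2.2 = p.1 ∧ val0 c'.1 = p.2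
  let cf : ℕ → V × V := fun n => if h : ∃ p, PC n p then h.choose else 0
  let nu : List A → V := fun X =>
    if (∃ k ∈ Ms, k ∣ X.length) then
      (cf (X.length % M)).2 - act (cf (X.length % M)).1 (ph f X)
    else F (ph f X) (wt e f b X)
  have hlamI : ∀ P v, lam P = some v → ∃ c, nmL P.length = some c ∧ condL P c ∧
      c.1.2.2.2.2.2 = v := by
    intro P v h
    simp only [lam] at h
    obtain ⟨c, hc, h2⟩ := Option.bind_eq_some_iff.1 h
    split_ifs at h2 with h3
    exact ⟨c, hc, h3, by simpa using h2⟩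
  have hrhoI : ∀ Q v, rho Q = some v → ∃ c, nmR Q.length = some c ∧ condR Q c ∧
      val0 c.1 = v := by
    intro P v h
    simp only [rho] at h
    obtain ⟨c, hc, h2⟩ := Option.bind_eq_some_iff.1 h
    split_ifs at h2 with h3
    exact ⟨c, hc, h3, by simpa using h2⟩
  refine ⟨lam, rho, nu, ?_, ?_, ?_, ?_⟩
  · intro P v h
    obtain ⟨c, -, hc, -⟩ := hlamI P v h
    exact lt_of_lt_of_le hc.1 (Nat.pow_le_pow_right hb0 c.1.1.2)
  · -- soundness
    intro P Q v v' hP hQ
    obtain ⟨c, hc, hcP, hv⟩ := hlamI P v hP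
    obtain ⟨c', hc', hcQ, hv'⟩ := hrhoI Q v' hQ
    change v' = act v (ph f (P ++ Q)) + nu (P ++ Q)
    by_cases hk : ∃ k ∈ Ms, k ∣ (P ++ Q).length
    · -- spoiled by names
      have hnu : nu (P ++ Q) = (cf ((P ++ Q).length % M)).2
          - act (cf ((P ++ Q).length % M)).1 (ph f (P ++ Q)) := by
        simp only [nu]; rw [if_pos hk]
      have hex : ∃ p, PC ((P ++ Q).length % M) p := by
        refine ⟨(v, v'), P.length, Q.length, c, c', ?_, hc, hc', hv, hv'⟩
        rw [List.length_append, Nat.mod_mod]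
      have hcf : cf ((P ++ Q).length % M) = hex.choose := by
        simp only [cf]; rw [dif_pos hex]
      obtain ⟨t, t', d, d', htt, hd, hd', h1, h2⟩ := hex.choose_spec
      rw [← hcf] at h1 h2
      rw [Nat.mod_mod] at htt
      -- equalise totals
      have hu : t + t' + M * ((P ++ Q).length / M) = (P ++ Q).length + M * ((t + t') / M) := by
        have a1 := Nat.mod_add_div (t + t') M
        have a2 := Nat.mod_add_div (P ++ Q).length M
        omega
      obtain ⟨k, hkM, hkd⟩ := hk
      have hc2 := hcol P.length (Q.length + M * ((t + t') / M)) t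
        (t' + M * ((P ++ Q).length / M)) c c' d d' hc (by rw [per_mul hpR]; exact hc') hd
        (by rw [per_mul hpR]; exact hd')
        (by
          have := List.length_append (as := P) (bs := Q)
          omega)
        ⟨k, hkM, by
          have e1 : P.length + (Q.length + M * ((t + t') / M))
              = (P ++ Q).length + M * ((t + t') / M) := by
            rw [List.length_append]; ring
          rw [e1]
          exact dvd_add hkd (Dvd.dvd.mul_right (hMs k hkM).2.2 _)⟩
      have c1 : c.1.2.2.2.2.2 = d.1.2.2.2.2.2 := congrArg Prod.fst hc2.1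
      have c2 : val0 c'.1 = val0 d'.1 := congrArg Prod.snd hc2.2
      rw [hnu, ← h1, ← h2, ← c1, ← c2, hv, hv']
      abel
    · have hnu : nu (P ++ Q) = F (ph f (P ++ Q)) (wt e f b (P ++ Q)) := by
        simp only [nu]; rw [if_neg hk]
      have hcc : c = c' := hname P.length Q.length c c' hc hc' (by
        intro k hkM hkd
        exact hk ⟨k, hkM, by rw [List.length_append]; exact hkd⟩)
      subst hcc
      obtain ⟨a1, a2, a3, a4⟩ := hcP
      obtain ⟨b1, b2, b3, b4⟩ := hcQ
      have hn : ∀ j, (c.1.1 : ℕ) < j → (P ++ Q).length % b ^ j = P.length + Q.length % b ^ j := by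
        intro j hj
        rw [List.length_append]
        exact nocarry hb0 a2 a1 b1 b2 hj
      have hs := split_word f b (P ++ Q) (c.1.1 : ℕ)
      rw [take_left b1, drop_right hn, ← a3, ← b3] at hs
      have hw := wt_split e f b (P ++ Q) c.1.1
      rw [wl_left e f b b1, wr_right e f b hn, ← a4, ← b4] at hw
      have hg := c.2 (ph f (bt b (P ++ Q) (c.1.1 : ℕ)))
      rw [hs, hw, hv, hv'] at hg
      rw [hnu, ← hg, add_comm]
  · -- completeness
    intro X hXk hXd v
    obtain ⟨i, hi⟩ := hF (ph f X) (wt e f b X) v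
    have hs := split_word f b X (i : ℕ)
    have hw := wt_split e f b X i
    have hgood : Good (i, ph f (X.take (X.length % b ^ (i : ℕ))), wl e f b X i,
        ph f (X.drop (X.length % b ^ ((i : ℕ) + 1))), wr e f b X i, v) := by
      have h1 := hi _ _ _ hs
      have h2 : ∀ z : S, wt e f b X - e i (ph f (bt b X i)) + e i z
          = wl e f b X i + e i z + wr e f b X i := by
        intro z; rw [← hw]; abel
      intro z
      have hz := h1 z
      have h1' := h1 1
      rw [h2] at hz h1'
      simp only [val0]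
      rw [hz, h1']
    obtain ⟨t, ht, hnl, hnr⟩ := hcomp X.length hXk ⟨_, hgood⟩
    obtain ⟨hd1, hd2⟩ := hXd i i.2
    set n := X.length with hn
    set di := n / b ^ (i : ℕ) % b with hdi
    obtain ⟨y, hy1, hy2, hy3⟩ := exists_place hM hcop (i : ℕ) (n % b ^ (i : ℕ)) t
      ((di - M + 1) / 2)
    have hbi : 0 < b ^ (i : ℕ) := pow_pos hb0 _
    have hydi : y ≤ di := by omega
    have hy2b : 2 * y < b := by omega
    have hy2c : 2 * (di - y) < b := by omega
    have hle : y ≤ n / b ^ (i : ℕ) := le_trans hydi (Nat.mod_le _ _)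
    set o := n % b ^ (i : ℕ) + b ^ (i : ℕ) * y with ho
    have hbe : n % b ^ (i : ℕ) < b ^ (i : ℕ) := Nat.mod_lt _ hbi
    have hnn : n = n % b ^ (i : ℕ) + b ^ (i : ℕ) * (n / b ^ (i : ℕ)) :=
      (Nat.mod_add_div n (b ^ (i : ℕ))).symm
    have hon : o ≤ n := by
      rw [ho]
      conv_rhs => rw [hnn]
      exact Nat.add_le_add_left (Nat.mul_le_mul_left _ hle) _
    have hPl : (X.take o).length = o := by rw [List.length_take]; exact min_eq_left hon
    have hQl : (X.drop o).length = b ^ (i : ℕ) * (n / b ^ (i : ℕ) - y) := by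
      rw [List.length_drop, ← hn, Nat.mul_sub]
      conv_lhs => rw [hnn]
      rw [ho]
      omega
    have hPQ : X.take o ++ X.drop o = X := List.take_append_drop o X
    have hod : o / b ^ (i : ℕ) = y := by
      rw [ho, Nat.add_mul_div_left _ _ hbi, Nat.div_eq_of_lt hbe, zero_add]
    have a1 : (X.take o).length < b ^ ((i : ℕ) + 1) := by
      rw [hPl, ho, pow_succ]
      calc n % b ^ (i : ℕ) + b ^ (i : ℕ) * y < b ^ (i : ℕ) + b ^ (i : ℕ) * y := by omega
        _ = b ^ (i : ℕ) * (y + 1) := by ring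
        _ ≤ b ^ (i : ℕ) * b := Nat.mul_le_mul_left _ (by omega)
    have a2 : 2 * ((X.take o).length / b ^ (i : ℕ)) < b := by rw [hPl, hod]; exact hy2b
    have b1 : b ^ (i : ℕ) ∣ (X.drop o).length := by rw [hQl]; exact Dvd.intro _ rfl
    have hqd : (X.drop o).length / b ^ (i : ℕ) % b = di - y := by
      rw [hQl, Nat.mul_div_cancel_left _ hbi]
      have h1 := Nat.mod_add_div (n / b ^ (i : ℕ)) b
      rw [← hdi] at h1
      have h2 : n / b ^ (i : ℕ) - y = (di - y) + b * (n / b ^ (i : ℕ) / b) := by omega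
      rw [h2, Nat.add_mul_mod_self_left, Nat.mod_eq_of_lt (by omega)]
    have b2 : 2 * ((X.drop o).length / b ^ (i : ℕ) % b) < b := by rw [hqd]; exact hy2c
    have hnc : ∀ j, (i : ℕ) < j →
        (X.take o ++ X.drop o).length % b ^ j = (X.take o).length + (X.drop o).length % b ^ j := by
      intro j hj
      rw [List.length_append]
      exact nocarry hb0 a2 a1 b1 b2 hj
    refine ⟨X.take o, X.drop o, hPQ, ?_, ?_⟩
    · have e0 : nmL (X.take o).length = nmL t := per_mod hpL (by rw [hPl]; exact hy3)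
      have e1 := take_left (P := X.take o) (Q := X.drop o) b1
      have e2 := wl_left e f b (P := X.take o) (Q := X.drop o) (i := i) b1
      rw [hPQ] at e1 e2
      simp only [lam]
      rw [e0, hnl]
      simp only [Option.bind_some]
      rw [if_pos]
      refine ⟨a1, a2, ?_, ?_⟩
      · exact congrArg (ph f) e1
      · exact e2
    · have e0 : nmR (X.drop o).length = some ⟨_, hgood⟩ := by
        apply hnr
        have h1 : o + (X.drop o).length = n := by rw [List.length_drop, ← hn]; omega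
        have h2 : (t + (X.drop o).length) % M = (o + (X.drop o).length) % M := by
          rw [Nat.add_mod, ← hy3, ← Nat.add_mod]
        show (t + (X.drop o).length) % M = n % M
        rw [h2, h1]
      have e1 := drop_right (P := X.take o) (Q := X.drop o) hnc
      have e2 := wr_right e f b (P := X.take o) (Q := X.drop o) (i := i) hnc
      rw [hPQ] at e1 e2
      simp only [rho]
      rw [e0]
      simp only [Option.bind_some]
      rw [if_pos]
      · rfl
      · refine ⟨b1, b2, ?_, ?_⟩
        · exact congrArg (ph f) e1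
        · exact e2
  · -- finite state
    intro Q Q' hl hl' htk hmod hdr
    have hmM : Q.length % M = Q'.length % M := by
      have hd : M ∣ M * b ^ m := Dvd.intro _ rfl
      rw [← Nat.mod_mod_of_dvd Q.length hd, ← Nat.mod_mod_of_dvd Q'.length hd, hmod]
    have hmb : ∀ j, j ≤ m → Q.length % b ^ j = Q'.length % b ^ j := by
      intro j hj
      have hd : b ^ j ∣ M * b ^ m := Dvd.dvd.mul_left (pow_dvd_pow b hj) _
      rw [← Nat.mod_mod_of_dvd Q.length hd, ← Nat.mod_mod_of_dvd Q'.length hd, hmod]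
    have hdr' : ph f (Q.drop (b ^ m)) = ph f (Q'.drop (b ^ m)) := hdr
    have hbt : ∀ j : Fin m, bt b Q j = bt b Q' j := by
      intro j
      exact bt_eq hb0 htk (Nat.pow_le_pow_right hb0 j.2) (hmb _ j.2)
    have hph : ph f Q = ph f Q' := by
      have := ph_drop_eq f htk hl hl' hdr' (Nat.zero_le _)
      simpa using this
    constructor
    · have e0 : nmR Q.length = nmR Q'.length := per_mod hpR hmM
      simp only [rho]
      rw [e0]
      congr 1
      funext c
      have hci : condR Q c ↔ condR Q' c := by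
        have k1 : b ^ (c.1.1 : ℕ) ∣ Q.length ↔ b ^ (c.1.1 : ℕ) ∣ Q'.length := by
          rw [Nat.dvd_iff_mod_eq_zero, Nat.dvd_iff_mod_eq_zero, hmb _ c.1.1.2.le]
        have k2 : Q.length / b ^ (c.1.1 : ℕ) % b = Q'.length / b ^ (c.1.1 : ℕ) % b := by
          rw [← Nat.mod_mul_right_div_self, ← Nat.mod_mul_right_div_self, ← pow_succ,
            hmb _ c.1.1.2]
        have k3 : ph f (Q.drop (Q.length % b ^ ((c.1.1 : ℕ) + 1)))
            = ph f (Q'.drop (Q'.length % b ^ ((c.1.1 : ℕ) + 1))) := by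
          rw [hmb _ c.1.1.2]
          exact ph_drop_eq f htk hl hl' hdr'
            (le_trans (Nat.mod_lt _ (pow_pos hb0 _)).le (Nat.pow_le_pow_right hb0 c.1.1.2))
        have k4 : wr e f b Q c.1.1 = wr e f b Q' c.1.1 := by
          unfold wr
          apply Finset.sum_congr rfl
          intro j _
          rw [hbt j]
        simp only [condR]
        rw [k1, k2, k3, k4]
      by_cases h : condR Q c
      · rw [if_pos h, if_pos (hci.1 h)]
      · rw [if_neg h, if_neg (fun h' => h (hci.2 h'))]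
    · have hk : (∃ k ∈ Ms, k ∣ Q.length) ↔ (∃ k ∈ Ms, k ∣ Q'.length) := by
        have : ∀ k ∈ Ms, (k ∣ Q.length ↔ k ∣ Q'.length) := by
          intro k hkM
          have hd : k ∣ M := (hMs k hkM).2.2
          rw [Nat.dvd_iff_mod_eq_zero, Nat.dvd_iff_mod_eq_zero,
            ← Nat.mod_mod_of_dvd Q.length hd, ← Nat.mod_mod_of_dvd Q'.length hd, hmM]
        constructor
        · rintro ⟨k, h1, h2⟩; exact ⟨k, h1, (this k h1).1 h2⟩
        · rintro ⟨k, h1, h2⟩; exact ⟨k, h1, (this k h1).2 h2⟩
      have hwt : wt e f b Q = wt e f b Q' := by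
        unfold wt
        apply Finset.sum_congr rfl
        intro j _
        rw [hbt j]
      simp only [nu]
      rw [hmM, hph, hwt]
      by_cases h : ∃ k ∈ Ms, k ∣ Q.length
      · rw [if_pos h, if_pos (hk.1 h)]
      · rw [if_neg h, if_neg (fun h' => h (hk.2 h'))]

end Crest.Agent.R320.G1_76
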