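import Mathlib

/-!
# Ruler and spoil count for the digit gadget G1 (lead #13673)

`Bad n` : some `k` of `Ms` divides `n`, or one of the first `m` digits of `n` in base `b`
is outside `[M, b - 1 - M]`.  The ruler is `c l = 2 ^ l * K0` with `K0 = 1` mod `M` and
`K0 = 4 M (1 + b + .. + b^(m-1))` mod `b^m`.
-/

namespace Crest.Agent.R320.Sp_673

def Bad (Ms : Finset ℕ) (M b m : ℕ) (n : ℕ) : Prop :=
  (∃ k ∈ Ms, k ∣ n) ∨ ∃ j < m, ¬ (M ≤ n / b ^ j % b ∧ n / b ^ j % b + M + 1 ≤ b)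

theorem two_pow_add_aux {a b c d : ℕ} (hab : a ≤ b) (hcd : c ≤ d)
    (h : (2 : ℕ) ^ a + 2 ^ b = 2 ^ c + 2 ^ d) : a = c ∧ b = d := by
  have h1 : (2 : ℕ) ^ a ≤ 2 ^ b := Nat.pow_le_pow_right (by norm_num) hab
  have h2 : (2 : ℕ) ^ c ≤ 2 ^ d := Nat.pow_le_pow_right (by norm_num) hcd
  have pa : 0 < (2 : ℕ) ^ a := by positivity
  have pc : 0 < (2 : ℕ) ^ c := by positivity
  have hbd : b = d := by
    rcases lt_trichotomy b d with hlt | heq | hgt
    · have h3 : (2 : ℕ) ^ (b + 1) ≤ 2 ^ d := Nat.pow_le_pow_right (by norm_num) hlt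
      rw [pow_succ] at h3
      omega
    · exact heq
    · have h3 : (2 : ℕ) ^ (d + 1) ≤ 2 ^ b := Nat.pow_le_pow_right (by norm_num) hgt
      rw [pow_succ] at h3
      omega
  subst hbd
  have h4 : (2 : ℕ) ^ a = 2 ^ c := by omega
  exact ⟨Nat.pow_right_injective (le_refl 2) h4, rfl⟩

theorem two_pow_add {a b c d : ℕ}
    (h : (2 : ℕ) ^ a + 2 ^ b = 2 ^ c + 2 ^ d) : (a = c ∧ b = d) ∨ (a = d ∧ b = c) := by
  rcases le_total a b with hab | hab <;> rcases le_total c d with hcd | hcd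
  · exact Or.inl (two_pow_add_aux hab hcd h)
  · have := two_pow_add_aux hab hcd (by omega)
    exact Or.inr ⟨this.1, this.2⟩
  · have := two_pow_add_aux hab hcd (by omega)
    exact Or.inr ⟨this.2, this.1⟩
  · have := two_pow_add_aux hab hcd (by omega)
    exact Or.inl ⟨this.2, this.1⟩

theorem diff_inj {i j i' j' : ℕ} (h1 : i ≠ j) (_h2 : i' ≠ j')
    (h : ((2 : ℤ) ^ j - 2 ^ i) = 2 ^ j' - 2 ^ i') : i = i' ∧ j = j' := by
  have h3 : (2 : ℤ) ^ j + 2 ^ i' = 2 ^ j' + 2 ^ i := by linarith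
  have h4 : (2 : ℕ) ^ j + 2 ^ i' = 2 ^ j' + 2 ^ i := by exact_mod_cast h3
  rcases two_pow_add h4 with h | h
  · exact ⟨h.2.symm, h.1⟩
  · exact absurd h.1.symm h1

theorem diff_lt {K i j i' j' : ℕ} (hi : i < K) (hj : j < K) (hi' : i' < K) (hj' : j' < K) :
    |((2 : ℤ) ^ j - 2 ^ i) - (2 ^ j' - 2 ^ i')| < 2 * 2 ^ K := by
  have key : ∀ x : ℕ, x < K → (0 : ℤ) < 2 ^ x ∧ (2 : ℤ) ^ x * 2 ≤ 2 ^ K := by
    intro x hx
    refine ⟨by positivity, ?_⟩
    have : (2 : ℤ) ^ (x + 1) ≤ 2 ^ K := pow_le_pow_right₀ (by norm_num) hx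
    rwa [pow_succ] at this
  have a1 := key i hi
  have a2 := key j hj
  have a3 := key i' hi'
  have a4 := key j' hj'
  rw [abs_lt]
  constructor <;> linarith [a1.1, a1.2, a2.1, a2.2, a3.1, a3.2, a4.1, a4.2]

/-- a bad digit puts `n` near a multiple of `b^(j+1)`. -/
theorem bad_near {M b j n : ℕ} (hMb : M ≤ b)
    (h : ¬ (M ≤ n / b ^ j % b ∧ n / b ^ j % b + M + 1 ≤ b)) (hb : 0 < b) :
    ∃ q : ℤ, |(n : ℤ) - q * b ^ (j + 1)| ≤ (b : ℤ) ^ j * M := by
  set β := b ^ j with hβ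
  have hβ0 : 0 < β := by positivity
  set D := n / β % b with hD
  have hDb : D < b := Nat.mod_lt _ hb
  have e1 : n % (β * b) = n % β + β * D := Nat.mod_mul
  have e2 : n % (β * b) + (β * b) * (n / (β * b)) = n := Nat.mod_add_div n (β * b)
  have e3 : n % β < β := Nat.mod_lt _ hβ0
  have hz : ((b : ℤ) ^ (j + 1)) = ((β * b : ℕ) : ℤ) := by rw [hβ]; push_cast; ring
  have hz2 : ((b : ℤ) ^ j) = (β : ℤ) := by rw [hβ]; push_cast; ring
  rw [hz, hz2]
  by_cases hc : M ≤ D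
  · have hc2 : b < D + M + 1 := by
      by_contra hcon
      exact h ⟨hc, by omega⟩
    refine ⟨(n / (β * b) : ℕ) + 1, ?_⟩
    have e4 : β * (b - M) ≤ β * D := Nat.mul_le_mul_left _ (by omega)
    have e5 : n % (β * b) < β * b := Nat.mod_lt _ (by positivity)
    have e6 : (β : ℤ) * (b - M) ≤ β * D := by
      have : ((b - M : ℕ) : ℤ) = (b : ℤ) - M := by push_cast [Nat.cast_sub hMb]; ring
      rw [← this]; exact_mod_cast e4
    have e7 : ((n % (β * b) : ℕ) : ℤ) = (n % β : ℕ) + β * D := by rw [e1]; push_cast; ring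
    have e8 : ((n % (β * b) : ℕ) : ℤ) + ((β : ℤ) * b) * ((n / (β * b) : ℕ) : ℤ) = n := by
      exact_mod_cast e2
    have e9 : ((n % (β * b) : ℕ) : ℤ) < (β : ℤ) * b := by exact_mod_cast e5
    have e10 : (0 : ℤ) ≤ ((n % β : ℕ) : ℤ) := by positivity
    rw [abs_le]
    push_cast at *
    constructor <;> nlinarith
  · push_neg at hc
    refine ⟨(n / (β * b) : ℕ), ?_⟩
    have e4 : β * (D + 1) ≤ β * M := Nat.mul_le_mul_left _ (by omega)
    have e6 : (β : ℤ) * (D + 1) ≤ β * M := by exact_mod_cast e4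
    have e7 : ((n % (β * b) : ℕ) : ℤ) = (n % β : ℕ) + β * D := by rw [e1]; push_cast; ring
    have e8 : ((n % (β * b) : ℕ) : ℤ) + ((β : ℤ) * b) * ((n / (β * b) : ℕ) : ℤ) = n := by
      exact_mod_cast e2
    have e9 : ((n % β : ℕ) : ℤ) < (β : ℤ) := by exact_mod_cast e3
    have e10 : (0 : ℤ) ≤ ((n % (β * b) : ℕ) : ℤ) := by positivity
    rw [abs_le]
    push_cast at *
    constructor <;> nlinarith


def sg (b n : ℕ) : ℕ := ∑ l ∈ Finset.range n, b ^ l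

theorem sg_mod {b j m : ℕ} (hj : j < m) : ∃ t : ℕ, sg b m = sg b (j + 1) + b ^ (j + 1) * t := by
  induction m with
  | zero => omega
  | succ m ih =>
    rcases Nat.lt_succ_iff_lt_or_eq.mp hj with h | h
    · obtain ⟨t, ht⟩ := ih h
      obtain ⟨u, hu⟩ := Nat.exists_eq_add_of_le (Nat.succ_le_of_lt h)
      refine ⟨t + b ^ u, ?_⟩
      have e : sg b (m + 1) = sg b m + b ^ m := by simp [sg, Finset.sum_range_succ]
      have e2 : b ^ m = b ^ (j + 1) * b ^ u := by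
        rw [← pow_add]; congr 1
      rw [e, ht, e2]; ring
    · subst h
      exact ⟨0, by simp⟩

theorem sg_ge (b j : ℕ) : b ^ j ≤ sg b (j + 1) := by
  simp [sg, Finset.sum_range_succ]

theorem sg_le {b : ℕ} (hb : 2 ≤ b) (j : ℕ) : sg b (j + 1) ≤ 2 * b ^ j := by
  induction j with
  | zero => simp [sg]
  | succ j ih =>
    have e : sg b (j + 1 + 1) = sg b (j + 1) + b ^ (j + 1) := by
      simp [sg, Finset.sum_range_succ]
    rw [e]
    have : 2 * b ^ j ≤ b ^ (j + 1) := by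
      rw [pow_succ, mul_comm]; exact Nat.mul_le_mul_left _ hb
    omega

theorem digit_unique {K M b m j0 K0 : ℕ} (hM : 0 < M) (hb : 32 * M * 2 ^ K ≤ b) (hj0 : j0 < m)
    (hK0 : ∃ t : ℕ, K0 = 4 * M * sg b m + b ^ m * t) {T d d' q q' : ℤ}
    (hd : |d - d'| < 2 * 2 ^ K)
    (h1 : |T + K0 * d - q * (b : ℤ) ^ (j0 + 1)| ≤ (b : ℤ) ^ j0 * M)
    (h2 : |T + K0 * d' - q' * (b : ℤ) ^ (j0 + 1)| ≤ (b : ℤ) ^ j0 * M) : d = d' := by
  by_contra hne
  obtain ⟨t0, ht0⟩ := hK0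
  obtain ⟨t1, ht1⟩ := sg_mod (b := b) hj0
  obtain ⟨u, hu⟩ := Nat.exists_eq_add_of_le (Nat.succ_le_of_lt hj0)
  have hbm : b ^ m = b ^ (j0 + 1) * b ^ u := by rw [← pow_add]; congr 1
  have hp : 0 < (2 : ℕ) ^ K := by positivity
  have hb2 : 2 ≤ b := by nlinarith
  set σ : ℤ := ((sg b (j0 + 1) : ℕ) : ℤ) with hσ
  set β : ℤ := (b : ℤ) ^ j0 with hβ
  have hβ0 : 0 < β := by positivity
  have hσ1 : β ≤ σ := by rw [hβ, hσ]; exact_mod_cast sg_ge b j0
  have hσ2 : σ ≤ 2 * β := by rw [hβ, hσ]; exact_mod_cast sg_le hb2 j0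
  have hM' : (1 : ℤ) ≤ M := by exact_mod_cast hM
  have hp' : (1 : ℤ) ≤ 2 ^ K := by exact_mod_cast hp
  have hb' : 32 * (M : ℤ) * 2 ^ K ≤ b := by exact_mod_cast hb
  -- K0 = 4 M σ + B t
  have hK : ∃ t : ℤ, (K0 : ℤ) = 4 * M * σ + β * b * t := by
    refine ⟨4 * M * t1 + (b : ℤ) ^ u * t0, ?_⟩
    rw [ht0, ht1, hbm]
    push_cast
    rw [hσ, hβ]
    ring
  obtain ⟨t, ht⟩ := hK
  have hBz : (b : ℤ) ^ (j0 + 1) = β * b := by rw [hβ, pow_succ]
  rw [hBz] at h1 h2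
  set x : ℤ := d - d' with hx
  have hx0 : x ≠ 0 := sub_ne_zero.mpr hne
  have hx1 : 1 ≤ |x| := Int.one_le_abs hx0
  set Q : ℤ := q - q' - t * x with hQ
  have h3 : |4 * M * σ * x - Q * (β * b)| ≤ 2 * (β * M) := by
    have e : 4 * M * σ * x - Q * (β * b)
        = (T + K0 * d - q * (β * b)) - (T + K0 * d' - q' * (β * b)) := by
      rw [hQ, ht, hx]; ring
    rw [e]
    calc _ ≤ |T + K0 * d - q * (β * b)| + |T + K0 * d' - q' * (β * b)| := abs_sub _ _
      _ ≤ 2 * (β * M) := by linarith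
  have h4 : |4 * (M : ℤ) * σ * x| = 4 * M * σ * |x| := by
    rw [abs_mul, abs_of_nonneg]
    have : 0 ≤ σ := by linarith
    positivity
  by_cases hQ0 : Q = 0
  · rw [hQ0, zero_mul, sub_zero, h4] at h3
    have h5 : 4 * (M : ℤ) * σ * 1 ≤ 4 * M * σ * |x| := by
      apply mul_le_mul_of_nonneg_left hx1
      have : 0 ≤ σ := by linarith
      positivity
    have h6 : (M : ℤ) * β ≤ M * σ := mul_le_mul_of_nonneg_left hσ1 (by linarith)
    have h7 : 0 < (M : ℤ) * β := by positivity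
    nlinarith
  · have hQ1 : 1 ≤ |Q| := Int.one_le_abs hQ0
    have hβb : 0 ≤ β * b := by positivity
    have h5 : β * b ≤ |Q * (β * b)| := by
      rw [abs_mul, abs_of_nonneg hβb]
      nlinarith
    have h6 : |Q * (β * b)| ≤ |4 * M * σ * x| + 2 * (β * M) := by
      have e : Q * (β * b) = 4 * M * σ * x - (4 * M * σ * x - Q * (β * b)) := by ring
      calc |Q * (β * b)| = |4 * M * σ * x - (4 * M * σ * x - Q * (β * b))| := by rw [← e]
        _ ≤ |4 * M * σ * x| + |4 * M * σ * x - Q * (β * b)| := abs_sub _ _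
        _ ≤ _ := by linarith
    rw [h4] at h6
    have h7 : 4 * (M : ℤ) * σ * |x| ≤ 4 * M * (2 * β) * (2 * 2 ^ K) := by
      apply mul_le_mul _ hd.le (abs_nonneg _) (by positivity)
      apply mul_le_mul_of_nonneg_left hσ2
      positivity
    have h8 : β * b ≤ β * (16 * M * 2 ^ K + 2 * M) := by
      have h81 := h5.trans h6
      have h82 : β * (16 * (M : ℤ) * 2 ^ K + 2 * M)
          = 4 * M * (2 * β) * (2 * 2 ^ K) + 2 * (β * M) := by ring
      rw [h82]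
      linarith
    have h9 : (b : ℤ) ≤ 16 * M * 2 ^ K + 2 * M := le_of_mul_le_mul_left h8 hβ0
    have h10 : (M : ℤ) * 1 ≤ M * 2 ^ K := mul_le_mul_of_nonneg_left hp' (by linarith)
    linarith

theorem prime_unique {K k K0 : ℕ} (hk : 2 * 2 ^ K ≤ k) (hK0 : ∃ s : ℤ, (K0 : ℤ) = 1 + k * s)
    {T d d' : ℤ} (hd : |d - d'| < 2 * 2 ^ K) (h1 : (k : ℤ) ∣ T + K0 * d)
    (h2 : (k : ℤ) ∣ T + K0 * d') : d = d' := by
  obtain ⟨s, hs⟩ := hK0
  have h3 : (k : ℤ) ∣ K0 * (d - d') := by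
    have := dvd_sub h1 h2
    have e : T + K0 * d - (T + K0 * d') = K0 * (d - d') := by ring
    rwa [e] at this
  have h4 : (k : ℤ) ∣ d - d' := by
    have e : d - d' = K0 * (d - d') - k * (s * (d - d')) := by rw [hs]; ring
    rw [e]
    exact dvd_sub h3 (dvd_mul_right _ _)
  have h5 : |d - d'| < k := by
    have : (2 * 2 ^ K : ℤ) ≤ k := by exact_mod_cast hk
    linarith
  have := Int.eq_zero_of_abs_lt_dvd h4 h5
  linarith

theorem card_le_one_of_unique {F : Finset (ℕ × ℕ)}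
    (h : ∀ p ∈ F, ∀ q ∈ F, p = q) : F.card ≤ 1 :=
  Finset.card_le_one.mpr h

/-- The ruler and the spoil count. -/
theorem spoil (K N1 m M b : ℕ) (Ms : Finset ℕ) (hM : 0 < M)
    (hMs : ∀ k ∈ Ms, 2 * 2 ^ K ≤ k ∧ k ∣ M) (hb : 32 * M * 2 ^ K ≤ b)
    (hcop : Nat.Coprime b M) :
    ∃ c : ℕ → ℕ, (∀ i j, i < j → c i + 4 * N1 < c j) ∧
      (∀ i j i' j', i < K → j < K → i' < K → j' < K → i ≠ j → i' ≠ j' → ¬ (i = i' ∧ j = j') →
        (4 * N1 : ℤ) < |((c i : ℤ) - c j) - ((c i' : ℤ) - c j')|) ∧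
      ∀ (T : ℤ) (F : Finset (ℕ × ℕ)),
        (∀ p ∈ F, p.1 < K ∧ p.2 < K ∧ p.1 ≠ p.2 ∧
          ∃ n : ℕ, (n : ℤ) = T + c p.2 - c p.1 ∧ Bad Ms M b m n) →
        F.card ≤ Ms.card + m := by
  classical
  have hp : 0 < (2 : ℕ) ^ K := by positivity
  have hb0 : 0 < b := by nlinarith
  have hMb : M ≤ b := by nlinarith
  have hcop2 : Nat.Coprime (b ^ m) M := hcop.pow_left m
  obtain ⟨k0, hk1, hk2⟩ := Nat.chineseRemainder hcop2 (4 * M * sg b m) 1
  -- K0 := k0 + M b^m (4 N1 + 4 M sg + 2)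
  set Z : ℕ := 4 * N1 + 4 * M * sg b m + 2 with hZ
  set K0 : ℕ := k0 + M * b ^ m * Z with hK0def
  have hMb1 : 1 ≤ M * b ^ m := Nat.succ_le_of_lt (by positivity)
  have hKge : Z ≤ K0 := by
    have : 1 * Z ≤ M * b ^ m * Z := Nat.mul_le_mul_right _ hMb1
    omega
  have hKa : ∃ t : ℕ, K0 = 4 * M * sg b m + b ^ m * t := by
    have h1 : 4 * M * sg b m ≡ K0 [MOD b ^ m] := by
      have : K0 ≡ k0 [MOD b ^ m] := by
        rw [hK0def]
        have e : M * b ^ m * Z = b ^ m * (M * Z) := by ring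
        rw [e]
        simp [Nat.ModEq]
      exact (this.trans hk1).symm
    have h2 : 4 * M * sg b m ≤ K0 := by omega
    obtain ⟨t, ht⟩ := (Nat.modEq_iff_dvd' h2).mp h1
    exact ⟨t, by omega⟩
  have hKb : ∀ k ∈ Ms, ∃ s : ℤ, (K0 : ℤ) = 1 + k * s := by
    intro k hk
    have h1 : (1 : ℕ) ≡ K0 [MOD M] := by
      have : K0 ≡ k0 [MOD M] := by
        rw [hK0def]
        have e : M * b ^ m * Z = M * (b ^ m * Z) := by ring
        rw [e]
        simp [Nat.ModEq]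
      exact (this.trans hk2).symm
    have h2 : (1 : ℕ) ≡ K0 [MOD k] := h1.of_dvd (hMs k hk).2
    obtain ⟨t, ht⟩ := (Nat.modEq_iff_dvd' (by omega : 1 ≤ K0)).mp h2
    refine ⟨t, ?_⟩
    have : K0 = 1 + k * t := by omega
    exact_mod_cast this
  refine ⟨fun l => 2 ^ l * K0, ?_, ?_, ?_⟩
  · intro i j hij
    have h1 : (2 : ℕ) ^ (i + 1) ≤ 2 ^ j := Nat.pow_le_pow_right (by norm_num) hij
    have h2 : (2 : ℕ) ^ (i + 1) * K0 ≤ 2 ^ j * K0 := Nat.mul_le_mul_right _ h1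
    have h3 : 1 * K0 ≤ 2 ^ i * K0 := Nat.mul_le_mul_right _ (Nat.one_le_two_pow)
    have h4 : (2 : ℕ) ^ (i + 1) * K0 = 2 ^ i * K0 + 2 ^ i * K0 := by rw [pow_succ]; ring
    show 2 ^ i * K0 + 4 * N1 < 2 ^ j * K0
    omega
  · intro i j i' j' hi hj hi' hj' hij hij' hne
    have e : (((fun l => 2 ^ l * K0) i : ℕ) : ℤ) - (((fun l => 2 ^ l * K0) j : ℕ) : ℤ)
        - ((((fun l => 2 ^ l * K0) i' : ℕ) : ℤ) - (((fun l => 2 ^ l * K0) j' : ℕ) : ℤ))
        = (K0 : ℤ) * (((2 : ℤ) ^ i - 2 ^ j) - (2 ^ i' - 2 ^ j')) := by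
      push_cast; ring
    rw [e, abs_mul]
    have hx : ((2 : ℤ) ^ i - 2 ^ j) - (2 ^ i' - 2 ^ j') ≠ 0 := by
      intro h0
      have := diff_inj hij.symm hij'.symm (by linarith : (2 : ℤ) ^ i - 2 ^ j = 2 ^ i' - 2 ^ j')
      exact hne ⟨this.2, this.1⟩
    have hx1 := Int.one_le_abs hx
    have hKz : (4 * N1 : ℤ) < K0 := by
      have : 4 * N1 < K0 := by omega
      exact_mod_cast this
    rw [abs_of_nonneg (by positivity : (0 : ℤ) ≤ K0)]
    nlinarith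
  · intro T F hF
    have hsub : F ⊆ (Ms.biUnion (fun k => F.filter (fun p =>
          (k : ℤ) ∣ T + K0 * ((2 : ℤ) ^ p.2 - 2 ^ p.1)))) ∪
        ((Finset.range m).biUnion (fun j => F.filter (fun p => ∃ q : ℤ,
          |T + K0 * ((2 : ℤ) ^ p.2 - 2 ^ p.1) - q * (b : ℤ) ^ (j + 1)| ≤ (b : ℤ) ^ j * M))) := by
      intro p hpF
      obtain ⟨hp1, hp2, hp3, n, hn, hbad⟩ := hF p hpF
      have hn' : (n : ℤ) = T + K0 * ((2 : ℤ) ^ p.2 - 2 ^ p.1) := by
        rw [hn]; push_cast; ring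
      rw [Finset.mem_union]
      rcases hbad with ⟨k, hk, hkn⟩ | ⟨j, hj, hjn⟩
      · left
        rw [Finset.mem_biUnion]
        refine ⟨k, hk, Finset.mem_filter.mpr ⟨hpF, ?_⟩⟩
        rw [← hn']
        exact_mod_cast hkn
      · right
        rw [Finset.mem_biUnion]
        refine ⟨j, Finset.mem_range.mpr hj, Finset.mem_filter.mpr ⟨hpF, ?_⟩⟩
        obtain ⟨q, hq⟩ := bad_near hMb hjn hb0
        exact ⟨q, by rw [← hn']; exact hq⟩
    have huniq : ∀ p ∈ F, ∀ p' ∈ F,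
        ((2 : ℤ) ^ p.2 - 2 ^ p.1) = (2 : ℤ) ^ p'.2 - 2 ^ p'.1 → p = p' := by
      intro p hp p' hp' h
      have := diff_inj (hF p hp).2.2.1 (hF p' hp').2.2.1 h
      exact Prod.ext this.1 this.2
    have hdl : ∀ p ∈ F, ∀ p' ∈ F,
        |((2 : ℤ) ^ p.2 - 2 ^ p.1) - ((2 : ℤ) ^ p'.2 - 2 ^ p'.1)| < 2 * 2 ^ K := by
      intro p hp p' hp'
      exact diff_lt (hF p hp).1 (hF p hp).2.1 (hF p' hp').1 (hF p' hp').2.1
    calc F.card ≤ _ := Finset.card_le_card hsub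
      _ ≤ _ := Finset.card_union_le _ _
      _ ≤ Ms.card + m := by
        apply Nat.add_le_add
        · refine (Finset.card_biUnion_le).trans ?_
          calc _ ≤ ∑ _k ∈ Ms, 1 := by
                apply Finset.sum_le_sum
                intro k hk
                apply Finset.card_le_one.mpr
                intro p hp p' hp'
                rw [Finset.mem_filter] at hp hp'
                exact huniq p hp.1 p' hp'.1
                  (prime_unique (hMs k hk).1 (hKb k hk) (hdl p hp.1 p' hp'.1) hp.2 hp'.2)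
            _ = Ms.card := by simp
        · refine (Finset.card_biUnion_le).trans ?_
          calc _ ≤ ∑ _k ∈ Finset.range m, 1 := by
                apply Finset.sum_le_sum
                intro j hj
                apply Finset.card_le_one.mpr
                intro p hp p' hp'
                rw [Finset.mem_filter] at hp hp'
                obtain ⟨q, hq⟩ := hp.2
                obtain ⟨q', hq'⟩ := hp'.2
                exact huniq p hp.1 p' hp'.1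
                  (digit_unique hM hb (Finset.mem_range.mp hj) hKa (hdl p hp.1 p' hp'.1) hq hq')
            _ = m := by simp

open Classical in
/-- filter form, `T : ℕ` above all marks. -/
theorem spoil_filter (K N1 m M b : ℕ) (Ms : Finset ℕ) (hM : 0 < M)
    (hMs : ∀ k ∈ Ms, 2 * 2 ^ K ≤ k ∧ k ∣ M) (hb : 32 * M * 2 ^ K ≤ b)
    (hcop : Nat.Coprime b M) :
    ∃ c : ℕ → ℕ, (∀ i j, i < j → c i + 4 * N1 < c j) ∧
      (∀ i j i' j', i < K → j < K → i' < K → j' < K → i ≠ j → i' ≠ j' → ¬ (i = i' ∧ j = j') →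
        (4 * N1 : ℤ) < |((c i : ℤ) - c j) - ((c i' : ℤ) - c j')|) ∧
      (∀ T : ℤ, ((Finset.range K ×ˢ Finset.range K).filter (fun p => p.1 ≠ p.2 ∧
          ∃ n : ℕ, (n : ℤ) = T + c p.2 - c p.1 ∧ Bad Ms M b m n)).card ≤ Ms.card + m) ∧
      (∀ T : ℕ, (∀ i < K, c i ≤ T) → ((Finset.range K ×ˢ Finset.range K).filter
        (fun p => p.1 ≠ p.2 ∧ Bad Ms M b m (T + c p.2 - c p.1))).card ≤ Ms.card + m) := by
  obtain ⟨c, h1, h2, h3⟩ := spoil K N1 m M b Ms hM hMs hb hcop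
  refine ⟨c, h1, h2, ?_, ?_⟩
  · intro T
    apply h3 T
    intro p hp
    rw [Finset.mem_filter, Finset.mem_product, Finset.mem_range, Finset.mem_range] at hp
    exact ⟨hp.1.1, hp.1.2, hp.2.1, hp.2.2⟩
  · intro T hT
    apply h3 T
    intro p hp
    rw [Finset.mem_filter, Finset.mem_product, Finset.mem_range, Finset.mem_range] at hp
    refine ⟨hp.1.1, hp.1.2, hp.2.1, T + c p.2 - c p.1, ?_, hp.2.2⟩
    have := hT p.1 hp.1.1
    omega

end Crest.Agent.R320.Sp_673
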