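import Crest.Agent.R320.Fin3_52
import Crest.Agent.R320.G1_76
import Crest.Agent.R320.Sp_673
import Crest.Agent.R320.LetMap_922

/-!
# Row 320 (helper52): the gadget hypothesis `UH` from `G1_76.g1` and `Sp_673.spoil`, and the row
-/

set_option autoImplicit false

namespace Crest.Agent.R320.Fin_52

open Crest.RegLang Crest.Agent.R320.Hk_851

theorem uh (S V : Type) [Monoid S] [Finite S] [AddCommGroup V] [Finite V] (act : V → S → V) :
    UH S V act := by
  classical
  obtain ⟨m, r, hg⟩ := Crest.Agent.R320.G1_76.g1 S V act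
  refine ⟨r + m, fun K => ?_⟩
  obtain ⟨Ms, M, hcard, hMs, hM, hb⟩ := hg (2 * 2 ^ K)
  have hpK : 0 < 2 ^ K := by positivity
  obtain ⟨b, hbdef⟩ : ∃ b, b = M * (64 * 2 ^ K) + 1 := ⟨_, rfl⟩
  have hM1 : 1 ≤ M := hM
  have hMK : M ≤ M * 2 ^ K := Nat.le_mul_of_pos_right _ hpK
  have hb1 : 4 * M + 4 < b := by
    have e : M * (64 * 2 ^ K) = 64 * (M * 2 ^ K) := by ring
    rw [hbdef, e]; omega
  have hb2 : 32 * M * 2 ^ K ≤ b := by
    have e : M * (64 * 2 ^ K) = 64 * (M * 2 ^ K) := by ring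
    have e2 : 32 * M * 2 ^ K = 32 * (M * 2 ^ K) := by ring
    rw [hbdef, e, e2]; omega
  have hcop : Nat.Coprime b M := by
    rw [hbdef]
    simp
  have hbm : 0 < b ^ m := Nat.pow_pos (by omega)
  obtain ⟨c, hc1, hc2, hc3⟩ := Crest.Agent.R320.Sp_673.spoil K (b ^ m) m M b Ms hM
    (fun k hk => ⟨(hMs k hk).1.le, (hMs k hk).2.2⟩) hb2 hcop
  have hcs : ∀ k < K, c k ≤ ∑ k ∈ Finset.range K, c k := fun k hk =>
    Finset.single_le_sum (f := c) (fun _ _ => Nat.zero_le _) (Finset.mem_range.2 hk)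
  refine ⟨b ^ m, M * b ^ m, b ^ m + ∑ k ∈ Finset.range K, c k, c,
    Crest.Agent.R320.Sp_673.Bad Ms M b m, hbm, Nat.mul_pos hM hbm, ?_, ?_, ?_, ?_⟩
  · intro i j hij _
    have := hc1 i j hij
    omega
  · intro k k' l l' hk hk' hl hl' hne hne' h1 h2
    by_contra hkl
    have h3 := hc2 k k' l l' hk hk' hl hl' (Ne.symm hne) (Ne.symm hne') (fun h => hkl h.1)
    rw [lt_abs] at h3
    rcases h3 with h3 | h3 <;> omega
  · intro T hT J hJ
    choose! g hg2 using fun k (hk : k ∈ J) => (hJ k hk).2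
    have hinj : Set.InjOn (fun k => (k, g k)) (J : Set ℕ) := by
      intro a _ b _ h
      exact congrArg Prod.fst h
    have h1 := hc3 (T : ℤ) (J.image fun k => (k, g k)) (by
      intro p hp
      obtain ⟨k, hk, rfl⟩ := Finset.mem_image.1 hp
      obtain ⟨a1, a2, a3⟩ := hg2 k hk
      have a4 := (hJ k hk).1
      have a5 := hcs k a4
      refine ⟨a4, a1, Ne.symm a2, T + c (g k) - c k, ?_, a3⟩
      show ((T + c (g k) - c k : ℕ) : ℤ) = (T : ℤ) + c (g k) - c k
      omega)
    rw [Finset.card_image_of_injOn hinj] at h1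
    omega
  · intro A f
    obtain ⟨lam, rho, nu, g1, g2, g3, g4⟩ := hb b hb1 hcop A f
    refine ⟨lam, rho, nu, fun P v h => (g1 P v h).le, g2, ?_, ?_⟩
    · intro X _ hX v
      unfold Crest.Agent.R320.Sp_673.Bad at hX
      push Not at hX
      obtain ⟨P, Q, e, h1, h2⟩ := g3 X hX.1 hX.2 v
      exact ⟨P, Q, e.symm, h1, h2⟩
    · intro Q Q' h1 h2 h3 h4 h5
      have hle : b ^ m ≤ b ^ m + ∑ k ∈ Finset.range K, c k := Nat.le_add_right _ _
      have e1 : Q.take (b ^ m) = Q'.take (b ^ m) := by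
        have := congrArg (List.take (b ^ m)) h3
        rwa [List.take_take, List.take_take, Nat.min_eq_left hle] at this
      have e2 : ∀ R : List A, (R.drop (b ^ m)) =
          ((R.take (b ^ m + ∑ k ∈ Finset.range K, c k)).drop (b ^ m)) ++
            R.drop (b ^ m + ∑ k ∈ Finset.range K, c k) := by
        intro R
        rw [List.drop_take, Nat.add_sub_cancel_left, ← List.drop_drop, List.take_append_drop]
      refine (g4 Q Q' (by omega) (by omega) e1 h4 ?_).2
      rw [e2 Q, e2 Q', h3, List.map_append, List.map_append, List.prod_append, List.prod_append,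
        h5]

theorem hl3 (S : Type) [Monoid S] [Finite S] (A : Type) [Finite A] (f : A → S) (s : S) :
    HL 3 ({w | (w.map f).prod = s} : Language A) :=
  main S A f (fun act => uh S (S → ZMod 2) act) s

/-- **The row.** -/
theorem row (α : Type*) [Finite α] (L : Language α) (hL : L.IsRegular) :
    ∃ e : Crest.RegLang.GRegExp α, e.height ≤ 3 ∧ e.lang = L :=
  Crest.Agent.R320.LetMap_922.of_fin_result
    (fun n L hL => of_monoid (fun S _ _ f s => hl3 S (Fin n) f s) L hL) α L hL

end Crest.Agent.R320.Fin_52
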