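import Crest.Agent.R320.TopSem_442
import Crest.Agent.R320.Joint47_487
import Crest.Agent.R320.Fib_835
import Crest.Agent.R320.G1_852
import Crest.Agent.R320.Sp_21
import Crest.Agent.R320.Univ_582

/-!
# Row 320: final assembly (helper796)

442's semantic top + 47's joint + 835's block languages + 852's digit gadget + 21's ruler +
237's exact gadget + 582's universe bookkeeping.
-/

set_option autoImplicit false

namespace Crest.Agent.R320.Fin796_487

open Crest.RegLang Crest.Agent.R320.Hk_851 Crest.Agent.R320.Joint47_487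
open Crest.Agent.R320.ExactR_237 (pr pr_append)

section loc

variable {A S V : Type} [Monoid S] [AddCommGroup V]

theorem take_of_take {X X' : List A} {c d : ℕ} (hd : d ≤ c) (h : X.take c = X'.take c) :
    X.take d = X'.take d := by
  have h1 : (X.take c).take d = (X'.take c).take d := by rw [h]
  rwa [List.take_take, List.take_take, min_eq_left hd] at h1

theorem pr_drop_of {X X' : List A} {c d : ℕ} (f : A → S) (hd : d ≤ c)
    (h : X.take c = X'.take c) (hp : pr f (X.drop c) = pr f (X'.drop c)) :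
    pr f (X.drop d) = pr f (X'.drop d) := by
  have key : ∀ Y : List A, Y.drop d = (Y.take c).drop d ++ Y.drop c := by
    intro Y
    have h1 : (Y.take c).drop d = (Y.drop d).take (c - d) := List.drop_take
    have h2 : Y.drop c = (Y.drop d).drop (c - d) := by
      rw [List.drop_drop]; congr 1; omega
    rw [h1, h2, List.take_append_drop]
  rw [key X, key X', pr_append, pr_append, h, hp]

theorem len_eq_of_take {X X' : List A} {c : ℕ} (h : X.take c = X'.take c) :
    min c X.length = min c X'.length := by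
  have := congrArg List.length h
  rwa [List.length_take, List.length_take] at this

end loc

/-- lengths modulo: digits -/
theorem bad_congr {m M b : ℕ} {Ms : Finset ℕ} (hMs : ∀ k ∈ Ms, k ∣ M) {x y : ℕ}
    (h : x % (M * b ^ m) = y % (M * b ^ m)) : Sp_21.Bad m M b Ms x → Sp_21.Bad m M b Ms y := by
  rintro (⟨k, hk, hd⟩ | ⟨j, hj, hn⟩)
  · left
    refine ⟨k, hk, ?_⟩
    have h1 : k ∣ M * b ^ m := Dvd.dvd.mul_right (hMs k hk) _
    have h2 : x % k = y % k := Nat.ModEq.of_dvd h1 h
    rw [Nat.dvd_iff_mod_eq_zero] at hd ⊢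
    rw [← h2]; exact hd
  · right
    refine ⟨j, hj, ?_⟩
    have h1 : b ^ (j + 1) ∣ M * b ^ m := Dvd.dvd.mul_left (pow_dvd_pow b (by omega)) _
    have h2 : x % b ^ (j + 1) = y % b ^ (j + 1) := Nat.ModEq.of_dvd h1 h
    have key : ∀ t : ℕ, t / b ^ j % b = t % b ^ (j + 1) / b ^ j := by
      intro t
      rw [pow_succ, Nat.mod_mul_right_div_self]
    rw [key y, ← h2, ← key x]
    exact hn


section main

variable {A S V : Type} [Monoid S] [AddCommGroup V]

/-- everything about a block which is read: prefix, value of the rest, length modulo -/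
theorem fin_family [Finite A] [Finite S] {Wo : List A → Prop} {n B W z : ℕ}
    (hW : Fib_835.Walls Wo n B W) (hn : 0 < n) (f : A → S) (c m : ℕ) (hm : 0 < m)
    (P : List A → Prop)
    (hP : ∀ X ∈ Fib_835.XX Wo z, ∀ X' ∈ Fib_835.XX Wo z, X.take c = X'.take c →
      pr f (X.drop c) = pr f (X'.drop c) → X.length % m = X'.length % m → P X → P X') :
    HL 1 ({X | X ∈ Fib_835.XX Wo z ∧ P X} : Language A) := by
  have h1 := (Fib_835.cl_XX hW hn z).fin_mod f c m hm (fun l s r =>
    ∃ X ∈ Fib_835.XX Wo z, X.take c = l ∧ ((X.drop c).map f).prod = s ∧ X.length % m = r ∧ P X)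
  refine HL.congr (k := 1) h1 fun w => ?_
  constructor
  · rintro ⟨hw, hp⟩
    exact ⟨hw, w, hw, rfl, rfl, rfl, hp⟩
  · rintro ⟨hw, X, hX, e1, e2, e3, hp⟩
    exact ⟨hw, hP X hX w hw e1 e2 e3 hp⟩

end main

theorem solved (A : Type) [Finite A] (S : Type) [Monoid S] [Finite S] (f : A → S) (s : S) :
    HL 3 ({w | (w.map f).prod = s} : Language A) := by
  classical
  obtain ⟨act, hadd, hone, hmul, hfaith⟩ := Blk467.exists_module S
  have : Fintype S := Fintype.ofFinite S
  let V := S → ZMod 2
  have : Fintype V := Fintype.ofFinite V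
  obtain ⟨m, r, hg⟩ := G1_852.gadget (S := S) (V := V) act
  obtain ⟨K, hK⟩ := ExactR_237.exact_gadget A S V f act (2 * (r + m) + 2)
  obtain ⟨Ms, M, hcard, hMs, hM, hb⟩ := hg (2 ^ (K + 1))
  set b : ℕ := (2 ^ (K + 4) + 2) * M + 1 with hbdef
  have hb0 : 0 < b := by omega
  have hcop : Nat.Coprime b M := by
    rw [hbdef]
    have h1 : Nat.gcd ((2 ^ (K + 4) + 2) * M + 1) M = 1 := by
      rw [Nat.gcd_comm]
      simp
    exact h1
  obtain ⟨lam, rho, nu1, g1, g2, g3, g4⟩ := hb b hb0 hcop A f
  set N1 : ℕ := b ^ m with hN1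
  have hN1pos : 0 < N1 := Nat.pow_pos hb0
  obtain ⟨c, hc1, hc2, hc3⟩ := Sp_21.spoil K N1 m M b Ms hM
    (fun k hk => ⟨(hMs k hk).2.2, (hMs k hk).1.le⟩) hcop (by omega)
  have hcinc : ∀ i j, i < j → c i < c j := fun i j h => by have := hc1 i j h; omega
  obtain ⟨lam2, rho2, nu2, e1, e2⟩ := hK c (fun i j h _ => hcinc i j h)
  set p0 : ℕ := c K with hp0
  have hcp : ∀ k, k < K → c k ≤ p0 := fun k hk => (hcinc k K hk).le
  obtain ⟨Wo, n, B, hn, hW⟩ := Fib_835.exists_walls A (2 * (N1 + p0) + 1) (by omega)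
  set z : ℕ := 3 * p0 + n + N1 + 1 with hz
  let BadT : ℕ → Prop := Sp_21.Bad m M b Ms
  have hLW : LW n (2 * (N1 + p0) + 1) Wo := by
    refine ⟨hW.len, hW.loc, ?_⟩
    intro X s t h1 h2 h3 h4
    by_contra h5
    exact hW.gap X s t h1 (by omega) h2 h3 h4
  let nu2' : List A → V := fun X => nu2 X 1
  let TT : V → List A → V := T f act p0 nu2' nu1
  let XX : Set (List A) := Zn Wo z
  let BB : Set (List A) := {X | X ∈ Zn Wo z ∧ Bad Wo z N1 p0 BadT X}
  have hXXe : XX = Fib_835.XX Wo z := rfl
  have hm' : 0 < M * b ^ m := Nat.mul_pos hM (Nat.pow_pos hb0)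
  set cc : ℕ := z + N1 + p0 with hcc
  -- locality of the zone map
  have hTloc : ∀ v : V, ∀ X ∈ XX, ∀ X' ∈ XX, X.take cc = X'.take cc →
      pr f (X.drop cc) = pr f (X'.drop cc) →
      X.length % (M * b ^ m) = X'.length % (M * b ^ m) → TT v X = TT v X' := by
    intro v X hX X' hX' h1 h2 h3
    have hz1 : z ≤ X.length := hX.1
    have hz2 : z ≤ X'.length := hX'.1
    have a1 : X.take p0 = X'.take p0 := take_of_take (by omega) h1
    have a2 : pr f (X.drop p0) = pr f (X'.drop p0) := pr_drop_of f (by omega) h1 h2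
    have a3 : nu1 (X.drop p0) = nu1 (X'.drop p0) := by
      refine (g4 (X.drop p0) (X'.drop p0) ?_ ?_ ?_).2
      · have b1 : X.take (p0 + b ^ m) = X'.take (p0 + b ^ m) := take_of_take (by omega) h1
        have b2 : ∀ Y : List A, (Y.drop p0).take (b ^ m) = (Y.take (p0 + b ^ m)).drop p0 := by
          intro Y
          rw [List.drop_take]; congr 1; omega
        rw [b2, b2, b1]
      · rw [List.drop_drop, List.drop_drop]
        exact pr_drop_of f (by omega) h1 h2
      · rw [List.length_drop, List.length_drop]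
        have e : ∀ x : ℕ, z ≤ x → (x - p0) + p0 = x := fun x hx => by omega
        have h4 : (X.length - p0) + p0 ≡ (X'.length - p0) + p0 [MOD (M * b ^ m)] := by
          rw [e _ hz1, e _ hz2]; exact h3
        exact Nat.ModEq.add_right_cancel' p0 h4
    show T f act p0 nu2' nu1 v X = T f act p0 nu2' nu1 v X'
    unfold T
    rw [a1, a2, a3]
  have hBloc : ∀ X ∈ XX, ∀ X' ∈ XX, X.take cc = X'.take cc →
      pr f (X.drop cc) = pr f (X'.drop cc) →
      X.length % (M * b ^ m) = X'.length % (M * b ^ m) →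
      Bad Wo z N1 p0 BadT X → Bad Wo z N1 p0 BadT X' := by
    intro X hX X' hX' h1 h2 h3 hbad
    have hz1 : z ≤ X.length := hX.1
    have hz2 : z ≤ X'.length := hX'.1
    rcases hbad with ⟨t, t1, t2, t3, t4⟩ | hB
    · left
      have hl := len_eq_of_take h1
      refine ⟨t, t1, t2, by omega, ?_⟩
      rw [← take_of_take (by omega) h1]
      exact t4
    · right
      refine bad_congr (fun k hk => (hMs k hk).2.2) ?_ hB
      have e : ∀ x : ℕ, z ≤ x → (x - p0) + p0 = x := fun x hx => by omega
      have h4 : (X.length - p0) + p0 ≡ (X'.length - p0) + p0 [MOD (M * b ^ m)] := by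
        rw [e _ hz1, e _ hz2]; exact h3
      exact Nat.ModEq.add_right_cancel' p0 h4
  refine TopSem_442.top_sem f act hadd hone hmul hfaith
    (fun X => act (nu2' (X.take p0)) (pr f (X.drop p0)) + nu1 (X.drop p0)) TT ?_ XX BB ?_ ?_
    (fun v => {P | L1 f act p0 nu2' lam v P}) (fun v => {P | L2 K c lam2 v P}) ?_ ?_ ?_ ?_ ?_ ?_ ?_ s
  · -- affine form
    intro v X
    show act (act v (pr f (X.take p0)) + nu2' (X.take p0)) (pr f (X.drop p0)) + nu1 (X.drop p0) = _
    have h1 : (X.map f).prod = pr f (X.take p0) * pr f (X.drop p0) := by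
      rw [← pr_append, List.take_append_drop]; rfl
    rw [h1, hmul, hadd, add_assoc]
  · -- prefix code
    refine ⟨?_, ?_⟩
    · intro h
      have := h.1
      simp only [List.length_nil] at this
      omega
    · intro X hX Y hY hXY
      exact Zn_prefix hX hY hXY (List.prefix_refl Y)
  · exact fun X hX => hX.1
  · -- finiteness of left words
    intro v
    refine (List.finite_length_le A (p0 + N1)).subset ?_
    rintro P ⟨h1, h2⟩
    have h3 := g1 _ _ h2
    rw [List.length_drop] at h3
    show P.length ≤ p0 + N1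
    omega
  · intro v
    refine (List.finite_length_le A p0).subset ?_
    rintro P ⟨k, hk, h1, -⟩
    show P.length ≤ p0
    rw [h1]; exact hcp k hk
  · intro v v'
    exact fin_family hW hn f cc (M * b ^ m) hm' (fun X => TT v X = v')
      (fun X hX X' hX' h1 h2 h3 h => by rw [← hTloc v X hX X' hX' h1 h2 h3]; exact h)
  · intro v v'
    refine HL.congr (fin_family (z := z) hW hn f cc (M * b ^ m) hm'
      (fun X => Bad Wo z N1 p0 BadT X ∧ TT v X = v')
      (fun X hX X' hX' h1 h2 h3 h => ⟨hBloc X hX X' hX' h1 h2 h3 h.1, by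
        rw [← hTloc v X hX X' hX' h1 h2 h3]; exact h.2⟩)) fun w => ?_
    exact ⟨fun h => ⟨h.1.1, h.1.2, h.2⟩, fun h => ⟨⟨h.1, h.2.1⟩, h.2.2⟩⟩
  · -- tail
    intro s
    refine HL.congr (k := 3) (HL.mono (k := 1) (by omega) (Fib_835.cl_NX hW hn z S f s)) fun w => ?_
    exact and_congr_left fun _ => (Fib_835.mem_NX w).symm
  · -- scheme 1
    intro X hX hXB v
    have hb' : ¬ Bad Wo z N1 p0 BadT X := fun h => hXB ⟨hX, h⟩
    obtain ⟨p, q, hpq, hL, -, hall⟩ := complete1 f act p0 nu2' nu1 (N0 := 0) (N1 := N1) hLW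
      (lam := lam) (rho := rho) (fun P Q v r h1 h2 => g2 P Q v r h1 h2)
      (fun P v h => (g1 P v h).le)
      (fun Y _ hY v => by
        have hY' : ¬ Sp_21.Bad m M b Ms Y.length := hY
        unfold Sp_21.Bad at hY'
        push Not at hY'
        obtain ⟨P, Q, hPQ, h1, v', h2⟩ := g3 Y hY'.1 (fun j hj => by
          have := hY'.2 j hj; omega) v
        exact ⟨P, Q, hPQ, h1, by rw [h2]; rfl⟩)
      (by omega) (by omega) hX hb' v
    exact ⟨p, q, hpq.symm, hL, fun v' P' hP' => hall v' P' hP'⟩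
  · -- scheme 2
    intro X hX X' hX' v
    obtain ⟨p, q, hpq, hL, -, hall⟩ := complete2 f act p0 nu1 (R1 := r + m) (K := K) (N1 := N1)
      (z := z) (BadT := BadT) hLW (c := c) (lam2 := lam2) (rho2 := rho2) (nu2' := nu2)
      (fun k hk P Q y v b h1 h2 h3 => e1 k hk P Q y v b h1 h2 h3)
      (fun u y v h => e2 u y v h) (fun i j h _ => hcinc i j h) hcp
      (by
        intro i i' j j' _ _ _ _ h1 h2 h3 h4
        by_contra hij
        rcases hc2 i i' j j' (Ne.symm h1) (Ne.symm h2) (fun h => hij (Prod.ext_iff.1 h).1) with h | h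
        · omega
        · omega)
      (by
        intro T hT I hI
        choose! g hgK hgne hgB using fun k hk => (hI k hk).2
        have h1 := hc3 T hT (I.image fun k => (k, g k)) (by
          intro p hp
          obtain ⟨k, hk, rfl⟩ := Finset.mem_image.1 hp
          exact ⟨(hI k hk).1, hgK k hk, (hgne k hk).symm, hgB k hk⟩)
        rw [Finset.card_image_of_injective _ (fun a b h => (Prod.ext_iff.1 h).1)] at h1
        omega)
      (by omega) (by omega) hX.1 hX'.1 hX.2 v
    refine ⟨p, q, hpq.symm, hL, fun v' P' hP' => ?_⟩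
    rcases hall v' P' hP' with ⟨a, ha, hab, hpa, hTa⟩ | ⟨a, ha, hab, hap⟩
    · left
      refine ⟨a, ⟨ha, hab⟩, X', hX', hpa, ?_⟩
      show TT (TT v' a) X' = TT (TT v X) X'
      have : TT v' a = TT v X := hTa
      rw [this]
    · right; left
      exact ⟨a, ha, fun h => hab h.2, hap⟩

end Crest.Agent.R320.Fin796_487
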