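import Crest.Agent.R320.NestInf_163

/-!
# Row 320: P1 TOP (helper163)

Prefix code `XX`, one token system `V`, two cut schemes: scheme 1 sound on every text, scheme 2 sound
whenever the block is not cut by scheme 1 (its right words reach over one more full block), every block
(followed by one more block) is cut by one of them for every token.  All data of height `≤ 1`.
Then `{w | φ w = s}` has height `≤ 3`.
-/

set_option autoImplicit false

namespace Crest.Agent.R320.Top5_163

open Crest.RegLang Crest.Agent.R320.Hgt1_903 Crest.Agent.R320.Three_427 Crest.Agent.R320.NestInf_163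

variable {α V S : Type*}

/-- no prefix of `r` is a block -/
def NP (XX : Set (List α)) (r : List α) : Prop := ∀ X ∈ XX, ¬ X <+: r

open Classical in
/-- state = (text since the last block end, token) -/
noncomputable def stp (XX : Set (List α)) (T : V → List α → V) (p : List α × V) (c : α) :
    List α × V :=
  if p.1 ++ [c] ∈ XX then ([], T p.2 (p.1 ++ [c])) else (p.1 ++ [c], p.2)

theorem NP.left {XX : Set (List α)} {u w : List α} (h : NP XX (u ++ w)) : NP XX u :=
  fun X hX hp => h X hX (hp.trans (List.prefix_append u w))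

theorem run_np {XX : Set (List α)} {T : V → List α → V} (v : V) :
    ∀ (w u : List α), NP XX (u ++ w) → run (stp XX T) w (u, v) = (u ++ w, v) := by
  intro w
  induction w with
  | nil => intro u _; simp [run]
  | cons c w ih =>
    intro u h
    have e : u ++ c :: w = (u ++ [c]) ++ w := by simp
    have h1 : u ++ [c] ∉ XX := fun h2 => h _ h2 ⟨w, e.symm⟩
    have h2 : run (stp XX T) (c :: w) (u, v) = run (stp XX T) w (u ++ [c], v) := by
      unfold run
      rw [List.foldl_cons]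
      congr 1
      unfold stp
      rw [if_neg h1]
    rw [h2, e]
    rw [e] at h
    exact ih _ h

/-- a proper prefix of a block has no block as prefix -/
theorem np_of_block {XX : Set (List α)} (hPC : ∀ X ∈ XX, ∀ Y, X ++ Y ∈ XX → Y = []) {P Q : List α}
    (h : P ++ Q ∈ XX) (hQ : Q ≠ []) : NP XX P := by
  rintro X hX ⟨t, rfl⟩
  rw [List.append_assoc] at h
  have := hPC X hX _ h
  exact hQ (List.append_eq_nil_iff.1 this).2

theorem run_block {XX : Set (List α)} (hPC : ∀ X ∈ XX, ∀ Y, X ++ Y ∈ XX → Y = [])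
    {T : V → List α → V} (v : V) {u w : List α} (h : u ++ w ∈ XX) (hw : w ≠ []) :
    run (stp XX T) w (u, v) = ([], T v (u ++ w)) := by
  rcases List.eq_nil_or_concat w with h0 | ⟨w', c, rfl⟩
  · exact absurd h0 hw
  rw [List.concat_eq_append] at h ⊢
  have e : u ++ (w' ++ [c]) = (u ++ w') ++ [c] := by simp
  have hn : NP XX (u ++ w') := by
    rw [e] at h
    exact np_of_block hPC h (by simp)
  rw [run_append, run_np v w' u hn]
  have : run (stp XX T) [c] (u ++ w', v) = stp XX T (u ++ w', v) c := rfl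
  rw [this]
  unfold stp
  rw [e] at h
  rw [if_pos h, e]

/-- the two cut systems -/
def lv (LP1 LP2 : List α → V → Prop) (R1 R2 : List α → Option V) (d : V) (j : ℕ) :
    Lvl (List α × V) α :=
  if j = 0 then ⟨fun p => LP1 p.1 p.2, fun Q => (R1 Q).isSome, fun Q => ([], (R1 Q).getD d)⟩
  else ⟨fun p => LP2 p.1 p.2, fun Q => (R2 Q).isSome, fun Q => ([], (R2 Q).getD d)⟩

theorem lv0 (LP1 LP2 : List α → V → Prop) (R1 R2 : List α → Option V) (d : V) :
    lv LP1 LP2 R1 R2 d 0 =
      ⟨fun p => LP1 p.1 p.2, fun Q => (R1 Q).isSome, fun Q => ([], (R1 Q).getD d)⟩ := rfl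

theorem lv1 (LP1 LP2 : List α → V → Prop) (R1 R2 : List α → Option V) (d : V) :
    lv LP1 LP2 R1 R2 d 1 =
      ⟨fun p => LP2 p.1 p.2, fun Q => (R2 Q).isSome, fun Q => ([], (R2 Q).getD d)⟩ := rfl

/-- parse: no block as prefix, or one block first -/
theorem parse (XX : Set (List α)) (w : List α) : NP XX w ∨ ∃ X r, X ∈ XX ∧ X ++ r = w := by
  by_cases h : NP XX w
  · exact Or.inl h
  · unfold NP at h
    push Not at h
    obtain ⟨X, hX, r, hr⟩ := h
    exact Or.inr ⟨X, r, hX, hr⟩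

section Core

variable {XX : Set (List α)} (hnil : [] ∉ XX) (hPC : ∀ X ∈ XX, ∀ Y, X ++ Y ∈ XX → Y = [])
  {T : V → List α → V} {LP1 LP2 : List α → V → Prop} {R1 R2 : List α → Option V}
  (hR1 : ∀ Q b, R1 Q = some b → Q ≠ []) (hR2 : ∀ Q b, R2 Q = some b → Q ≠ [])
  (s1 : ∀ P v Q b, LP1 P v → R1 Q = some b → P ++ Q ∈ XX ∧ T v (P ++ Q) = b)
  (s2 : ∀ P v Q b, LP2 P v → R2 Q = some b →
    (∀ X ∈ XX, X <+: P ++ Q → ∀ P' Q', X = P' ++ Q' → P.length ≤ P'.length → LP1 P' v →
      (R1 Q').isSome → False) →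
    ∃ Q1 X2, Q = Q1 ++ X2 ∧ Q1 ≠ [] ∧ P ++ Q1 ∈ XX ∧ X2 ∈ XX ∧ T (T v (P ++ Q1)) X2 = b)
  (cc : ∀ X ∈ XX, ∀ X2 ∈ XX, ∀ v, (∃ P Q, X = P ++ Q ∧ LP1 P v ∧ (R1 Q).isSome) ∨
    (∃ P Q, X ++ X2 = P ++ Q ∧ P.length < X.length ∧ LP2 P v ∧ (R2 Q).isSome))

include hPC hR1 s1 in
theorem sound0 (d : V) (p : List α × V) (Q : List α) (hC : LP1 p.1 p.2) (hR : (R1 Q).isSome) :
    run (stp XX T) Q p = ([], (R1 Q).getD d) := by
  obtain ⟨b, hb⟩ := Option.isSome_iff_exists.1 hR
  obtain ⟨u, v⟩ := p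
  obtain ⟨h1, h2⟩ := s1 u v Q b hC hb
  rw [run_block hPC v h1 (hR1 Q b hb), h2, hb]
  rfl

include hnil hPC hR1 s2 in
theorem sound1 (d : V) (p : List α × V) (Q : List α) (hC : LP2 p.1 p.2) (hR : (R2 Q).isSome)
    (hl : Live (stp XX T) (lv LP1 LP2 R1 R2 d) 1 p Q) :
    run (stp XX T) Q p = ([], (R2 Q).getD d) := by
  obtain ⟨b, hb⟩ := Option.isSome_iff_exists.1 hR
  obtain ⟨u, v⟩ := p
  obtain ⟨Q1, X2, rfl, hQ1, h1, h2, h3⟩ := s2 u v Q b hC hb (by
    rintro X hX ⟨t, ht⟩ P' Q' rfl hlen hL hRR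
    have hp : u <+: P' := by
      refine List.prefix_of_prefix_length_le ⟨Q, rfl⟩ ⟨Q' ++ t, ?_⟩ hlen
      rw [← ht, List.append_assoc]
    obtain ⟨x, rfl⟩ := hp
    have e : x ++ (Q' ++ t) = Q := by
      have : u ++ (x ++ (Q' ++ t)) = u ++ Q := by rw [← ht]; simp [List.append_assoc]
      exact List.append_cancel_left this
    have hQ' : Q' ≠ [] := by
      obtain ⟨b', hb'⟩ := Option.isSome_iff_exists.1 hRR
      exact hR1 _ _ hb'
    refine hl 0 (by omega) x (Q' ++ t) e ?_
    rw [lv0]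
    refine ⟨?_, Q', t, rfl, hRR⟩
    rw [run_np v x u (np_of_block hPC hX hQ')]
    exact hL)
  have hX2 : X2 ≠ [] := fun h0 => hnil (h0 ▸ h2)
  rw [run_append, run_block hPC v h1 hQ1]
  rw [run_block (u := []) hPC _ (by simpa using h2) hX2, hb]
  simp only [List.nil_append, Option.getD_some]
  rw [h3]

include hPC hR1 cc in
/-- a fully live word contains at most one block -/
theorem live_parse (d : V) (v : V) (w : List α)
    (hl : Live (stp XX T) (lv LP1 LP2 R1 R2 d) 2 ([], v) w) :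
    NP XX w ∨ ∃ X r, X ∈ XX ∧ X ++ r = w ∧ NP XX r := by
  rcases parse XX w with h | ⟨X, r, hX, rfl⟩
  · exact Or.inl h
  · rcases parse XX r with h | ⟨X2, t, hX2, rfl⟩
    · exact Or.inr ⟨X, r, hX, rfl, h⟩
    · exfalso
      rcases cc X hX X2 hX2 v with ⟨P, Q, rfl, hP, hQ⟩ | ⟨P, Q, e, hlen, hP, hQ⟩
      · have hQ' : Q ≠ [] := by
          obtain ⟨b', hb'⟩ := Option.isSome_iff_exists.1 hQ
          exact hR1 _ _ hb'
        refine hl 0 (by omega) P (Q ++ (X2 ++ t)) (by simp [List.append_assoc]) ?_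
        rw [lv0]
        refine ⟨?_, Q, X2 ++ t, rfl, hQ⟩
        rw [run_np v P [] (by simpa using np_of_block hPC hX hQ')]
        simpa using hP
      · have hp : P <+: X := List.prefix_of_prefix_length_le ⟨Q, e.symm⟩ ⟨X2, rfl⟩ hlen.le
        obtain ⟨x, rfl⟩ := hp
        have hx : x ≠ [] := by
          rintro rfl
          simp at hlen
        refine hl 1 (by omega) P (Q ++ t) ?_ ?_
        · rw [← List.append_assoc, ← e]; simp [List.append_assoc]
        · rw [lv1]
          refine ⟨?_, Q, t, rfl, hQ⟩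
          rw [run_np v P [] (by simpa using np_of_block hPC hX hx)]
          simpa using hP

end Core

section Base

/-- words with a usable cut (of a level with cut languages `C`, right-legal words `R`) in the first or
second unit -/
def DD (XX : Set (List α)) (T : V → List α → V) (C : V → Language α) (R : Language α) (v : V) :
    Language α :=
  {w | w ∈ ({w | ∃ x t, x ++ t = w ∧ x ∈ C v ∧ t ∈ ({t | ∃ Q t', Q ++ t' = t ∧ Q ∈ R ∧
      t' ∈ (⊤ : Language α)} : Language α)} : Language α) ∨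
    w ∈ ({w | ∃ v', w ∈ ({w | ∃ X t, X ++ t = w ∧ X ∈ ({X | X ∈ XX ∧ T v X = v'} : Language α) ∧
      t ∈ ({t | ∃ x t', x ++ t' = t ∧ x ∈ C v' ∧ t' ∈ ({t | ∃ Q t', Q ++ t' = t ∧ Q ∈ R ∧
        t' ∈ (⊤ : Language α)} : Language α)} : Language α)} : Language α)} : Language α)}

theorem DD_height [Finite V] {XX : Set (List α)} {T : V → List α → V} {C : V → Language α}
    {R : Language α} {n : ℕ} (hXT : ∀ v v', H n ({X | X ∈ XX ∧ T v X = v'} : Language α))
    (hC : ∀ v, H n (C v)) (hR : H n R) (v : V) : H n (DD XX T C R v) := by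
  have h1 : H n ({t | ∃ Q t', Q ++ t' = t ∧ Q ∈ R ∧ t' ∈ (⊤ : Language α)} : Language α) :=
    H.cat hR (H.univ n)
  exact H.union (H.cat (hC v) h1)
    (H.exists_fintype _ fun v' => H.cat (hXT v v') (H.cat (hC v') h1))

theorem usable_dd {XX : Set (List α)} (hnil : [] ∉ XX)
    (hPC : ∀ X ∈ XX, ∀ Y, X ++ Y ∈ XX → Y = []) {T : V → List α → V}
    (l : Lvl (List α × V) α) (v : V) (w : List α)
    (hw : NP XX w ∨ ∃ X r, X ∈ XX ∧ X ++ r = w ∧ NP XX r) :
    (∃ x y, x ++ y = w ∧ Usable l (run (stp XX T) x ([], v)) y) ↔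
      w ∈ DD XX T (fun v => {x | NP XX x ∧ l.C (x, v)}) {Q | l.R Q} v := by
  constructor
  · rintro ⟨x, y, rfl, hC, Q, t, rfl, hQ⟩
    rcases hw with hw | ⟨X, r, hX, e, hr⟩
    · left
      have hx : NP XX x := hw.left
      rw [run_np v x [] (by simpa using hx)] at hC
      exact ⟨x, Q ++ t, rfl, ⟨hx, by simpa using hC⟩, Q, t, rfl, hQ, trivial⟩
    · rcases lt_or_ge x.length X.length with hlt | hge
      · left
        have hp : x <+: X := List.prefix_of_prefix_length_le ⟨_, rfl⟩ ⟨r, e⟩ hlt.le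
        obtain ⟨z, rfl⟩ := hp
        have hz : z ≠ [] := by
          rintro rfl
          simp at hlt
        have hx : NP XX x := np_of_block hPC hX hz
        rw [run_np v x [] (by simpa using hx)] at hC
        exact ⟨x, Q ++ t, rfl, ⟨hx, by simpa using hC⟩, Q, t, rfl, hQ, trivial⟩
      · right
        have hp : X <+: x := List.prefix_of_prefix_length_le ⟨r, e⟩ ⟨_, rfl⟩ hge
        obtain ⟨z, rfl⟩ := hp
        have e' : r = z ++ (Q ++ t) := by
          rw [List.append_assoc] at e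
          exact List.append_cancel_left e
        have hz : NP XX z := by
          rw [e'] at hr
          exact hr.left
        have hX0 : X ≠ [] := fun h0 => hnil (h0 ▸ hX)
        rw [run_append, run_block (u := []) hPC v (by simpa using hX) hX0,
          run_np _ z [] (by simpa using hz)] at hC
        refine ⟨T v X, X, z ++ (Q ++ t), by simp [List.append_assoc], ⟨hX, rfl⟩, z, Q ++ t, rfl,
          ⟨hz, by simpa using hC⟩, Q, t, rfl, hQ, trivial⟩
  · rintro (⟨x, _, rfl, ⟨hx, hC⟩, Q, t, rfl, hQ, -⟩ |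
      ⟨v', X, _, rfl, ⟨hX, rfl⟩, x, _, rfl, ⟨hx, hC⟩, Q, t, rfl, hQ, -⟩)
    · refine ⟨x, Q ++ t, rfl, ?_, Q, t, rfl, hQ⟩
      rw [run_np v x [] (by simpa using hx)]
      simpa using hC
    · have hX0 : X ≠ [] := fun h0 => hnil (h0 ▸ hX)
      refine ⟨X ++ x, Q ++ t, by simp [List.append_assoc], ?_, Q, t, rfl, hQ⟩
      rw [run_append, run_block (u := []) hPC v (by simpa using hX) hX0,
          run_np _ x [] (by simpa using hx)]
      simpa using hC

/-- words with at most one block whose final state is in `F` -/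
def AA (XX : Set (List α)) (T : V → List α → V) (F : Set (List α × V)) (v : V) : Language α :=
  {w | w ∈ ({r | NP XX r ∧ (r, v) ∈ F} : Language α) ∨
    w ∈ ({w | ∃ v', w ∈ ({w | ∃ X t, X ++ t = w ∧ X ∈ ({X | X ∈ XX ∧ T v X = v'} : Language α) ∧
      t ∈ ({r | NP XX r ∧ (r, v') ∈ F} : Language α)} : Language α)} : Language α)}

theorem AA_height [Finite V] {XX : Set (List α)} {T : V → List α → V} {F : Set (List α × V)}
    {n : ℕ} (hXT : ∀ v v', H n ({X | X ∈ XX ∧ T v X = v'} : Language α))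
    (hF : ∀ v', H n ({r | NP XX r ∧ (r, v') ∈ F} : Language α)) (v : V) : H n (AA XX T F v) :=
  H.union (hF v) (H.exists_fintype _ fun v' => H.cat (hXT v v') (hF v'))

theorem mem_AA {XX : Set (List α)} (hnil : [] ∉ XX)
    (hPC : ∀ X ∈ XX, ∀ Y, X ++ Y ∈ XX → Y = []) {T : V → List α → V} {F : Set (List α × V)}
    {v : V} {w : List α} :
    w ∈ AA XX T F v ↔ (NP XX w ∨ ∃ X r, X ∈ XX ∧ X ++ r = w ∧ NP XX r) ∧
      run (stp XX T) w ([], v) ∈ F := by
  constructor
  · rintro (⟨hw, hF⟩ | ⟨v', X, r, rfl, ⟨hX, rfl⟩, hr, hF⟩)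
    · refine ⟨Or.inl hw, ?_⟩
      rw [run_np v w [] (by simpa using hw)]
      simpa using hF
    · have hX0 : X ≠ [] := fun h0 => hnil (h0 ▸ hX)
      refine ⟨Or.inr ⟨X, r, hX, rfl, hr⟩, ?_⟩
      rw [run_append, run_block (u := []) hPC v (by simpa using hX) hX0,
        run_np _ r [] (by simpa using hr)]
      simpa using hF
  · rintro ⟨hw | ⟨X, r, hX, rfl, hr⟩, hF⟩
    · rw [run_np v w [] (by simpa using hw)] at hF
      exact Or.inl ⟨hw, by simpa using hF⟩
    · have hX0 : X ≠ [] := fun h0 => hnil (h0 ▸ hX)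
      rw [run_append, run_block (u := []) hPC v (by simpa using hX) hX0,
        run_np _ r [] (by simpa using hr)] at hF
      exact Or.inr ⟨T v X, X, r, rfl, ⟨hX, rfl⟩, hr, by simpa using hF⟩

theorem base [Finite V] {XX : Set (List α)} (hnil : [] ∉ XX)
    (hPC : ∀ X ∈ XX, ∀ Y, X ++ Y ∈ XX → Y = [])
    {T : V → List α → V} {LP1 LP2 : List α → V → Prop} {R1 R2 : List α → Option V}
    (hR1 : ∀ Q b, R1 Q = some b → Q ≠ [])
    (cc : ∀ X ∈ XX, ∀ X2 ∈ XX, ∀ v, (∃ P Q, X = P ++ Q ∧ LP1 P v ∧ (R1 Q).isSome) ∨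
      (∃ P Q, X ++ X2 = P ++ Q ∧ P.length < X.length ∧ LP2 P v ∧ (R2 Q).isSome))
    (hNP : H 1 ({r | NP XX r} : Language α))
    (hXT : ∀ v v', H 1 ({X | X ∈ XX ∧ T v X = v'} : Language α))
    (hL1 : ∀ v, H 1 ({P | LP1 P v} : Language α)) (hL2 : ∀ v, H 1 ({P | LP2 P v} : Language α))
    (hQ1 : ∀ b, H 1 ({Q | R1 Q = some b} : Language α))
    (hQ2 : ∀ b, H 1 ({Q | R2 Q = some b} : Language α)) (d : V) (F : Set (List α × V))
    (hF : ∀ v', H 1 ({r | NP XX r ∧ (r, v') ∈ F} : Language α)) (v : V) :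
    H 1 ({w | Live (stp XX T) (lv LP1 LP2 R1 R2 d) 2 ([], v) w ∧
      run (stp XX T) w ([], v) ∈ F} : Language α) := by
  have hi1 : H 1 ({Q | (R1 Q).isSome} : Language α) := by
    refine H.congr (H.exists_fintype _ fun b => hQ1 b) fun w => ?_
    exact (Option.isSome_iff_exists).symm
  have hi2 : H 1 ({Q | (R2 Q).isSome} : Language α) := by
    refine H.congr (H.exists_fintype _ fun b => hQ2 b) fun w => ?_
    exact (Option.isSome_iff_exists).symm
  have hD1 := DD_height (T := T) (C := fun v => {x | NP XX x ∧ LP1 x v})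
    (R := {Q | (R1 Q).isSome}) hXT (fun v => H.inter hNP (hL1 v)) hi1 v
  have hD2 := DD_height (T := T) (C := fun v => {x | NP XX x ∧ LP2 x v})
    (R := {Q | (R2 Q).isSome}) hXT (fun v => H.inter hNP (hL2 v)) hi2 v
  refine H.congr (H.inter (AA_height hXT hF v) (H.inter hD1.not hD2.not)) fun w => ?_
  constructor
  · rintro ⟨hA, h1, h2⟩
    obtain ⟨hw, hFw⟩ := (mem_AA hnil hPC).1 hA
    refine ⟨?_, hFw⟩
    intro j hj x y e hu
    rcases Nat.lt_succ_iff_lt_or_eq.1 hj with h3 | rfl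
    · have : j = 0 := by omega
      subst this
      exact h1 ((usable_dd (T := T) hnil hPC (lv LP1 LP2 R1 R2 d 0) v w hw).1 ⟨x, y, e, hu⟩)
    · exact h2 ((usable_dd (T := T) hnil hPC (lv LP1 LP2 R1 R2 d 1) v w hw).1 ⟨x, y, e, hu⟩)
  · rintro ⟨hl, hFw⟩
    have hw := live_parse hPC hR1 cc d v w hl
    refine ⟨(mem_AA hnil hPC).2 ⟨hw, hFw⟩, ?_, ?_⟩
    · intro hD
      obtain ⟨x, y, e, hu⟩ := (usable_dd (T := T) hnil hPC (lv LP1 LP2 R1 R2 d 0) v w hw).2 hD
      exact hl 0 (by omega) x y e hu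
    · intro hD
      obtain ⟨x, y, e, hu⟩ := (usable_dd (T := T) hnil hPC (lv LP1 LP2 R1 R2 d 1) v w hw).2 hD
      exact hl 1 (by omega) x y e hu

end Base

/-- the token transport is affine with linear part `φ w` -/
theorem transport [AddCommGroup V] [Monoid S] {φ : List α → S}
    (hφ1 : φ [] = 1) (hφ : ∀ u v, φ (u ++ v) = φ u * φ v) {act : V → S → V}
    (act_mul : ∀ v s s', act (act v s) s' = act v (s * s'))
    (act_add : ∀ v w s, act (v + w) s = act v s + act w s)
    {XX : Set (List α)} {T : V → List α → V} {ν : List α → V}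
    (hT : ∀ X ∈ XX, ∀ v, T v X = act v (φ X) + ν X) :
    ∀ (w u : List α), ∃ (κ : V) (u' : List α), ∀ v : V, (run (stp XX T) w (u, v)).1 = u' ∧
      act (run (stp XX T) w (u, v)).2 (φ u') = act v (φ (u ++ w)) + κ := by
  intro w
  induction w with
  | nil =>
    intro u
    refine ⟨0, u, fun v => ⟨rfl, ?_⟩⟩
    rw [List.append_nil, add_zero]
    rfl
  | cons c w ih =>
    intro u
    by_cases h : u ++ [c] ∈ XX
    · obtain ⟨κ, u', hu⟩ := ih []
      refine ⟨act (ν (u ++ [c])) (φ w) + κ, u', fun v => ?_⟩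
      have h2 : run (stp XX T) (c :: w) (u, v) = run (stp XX T) w ([], T v (u ++ [c])) := by
        unfold run
        rw [List.foldl_cons]
        congr 1
        unfold stp
        rw [if_pos h]
      rw [h2]
      refine ⟨(hu _).1, ?_⟩
      rw [(hu _).2, hT _ h, List.nil_append, act_add, act_mul, ← hφ, add_assoc]
      congr 3
      simp
    · obtain ⟨κ, u', hu⟩ := ih (u ++ [c])
      refine ⟨κ, u', fun v => ?_⟩
      have h2 : run (stp XX T) (c :: w) (u, v) = run (stp XX T) w (u ++ [c], v) := by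
        unfold run
        rw [List.foldl_cons]
        congr 1
        unfold stp
        rw [if_neg h]
      rw [h2]
      refine ⟨(hu _).1, ?_⟩
      rw [(hu _).2]
      congr 3
      simp

/-- **P1 TOP.** -/
theorem top [Finite V] [AddCommGroup V] [Monoid S] [Finite S] (φ : List α → S)
    (hφ1 : φ [] = 1) (hφ : ∀ u v, φ (u ++ v) = φ u * φ v) (act : V → S → V)
    (act_mul : ∀ v s s', act (act v s) s' = act v (s * s'))
    (act_add : ∀ v w s, act (v + w) s = act v s + act w s)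
    (faith : ∀ s s', (∀ v, act v s = act v s') → s = s')
    (XX : Set (List α)) (hnil : [] ∉ XX) (hPC : ∀ X ∈ XX, ∀ Y, X ++ Y ∈ XX → Y = [])
    (T : V → List α → V) (ν : List α → V) (hT : ∀ X ∈ XX, ∀ v, T v X = act v (φ X) + ν X)
    (LP1 LP2 : List α → V → Prop) (R1 R2 : List α → Option V)
    (hR1 : ∀ Q b, R1 Q = some b → Q ≠ []) (hR2 : ∀ Q b, R2 Q = some b → Q ≠ [])
    (s1 : ∀ P v Q b, LP1 P v → R1 Q = some b → P ++ Q ∈ XX ∧ T v (P ++ Q) = b)
    (s2 : ∀ P v Q b, LP2 P v → R2 Q = some b →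
      (∀ X ∈ XX, X <+: P ++ Q → ∀ P' Q', X = P' ++ Q' → P.length ≤ P'.length → LP1 P' v →
        (R1 Q').isSome → False) →
      ∃ Q1 X2, Q = Q1 ++ X2 ∧ Q1 ≠ [] ∧ P ++ Q1 ∈ XX ∧ X2 ∈ XX ∧ T (T v (P ++ Q1)) X2 = b)
    (cc : ∀ X ∈ XX, ∀ X2 ∈ XX, ∀ v, (∃ P Q, X = P ++ Q ∧ LP1 P v ∧ (R1 Q).isSome) ∨
      (∃ P Q, X ++ X2 = P ++ Q ∧ P.length < X.length ∧ LP2 P v ∧ (R2 Q).isSome))
    (hXT : ∀ v v', H 1 ({X | X ∈ XX ∧ T v X = v'} : Language α))
    (hNP : ∀ s, H 1 ({r | (∀ X ∈ XX, ¬ X <+: r) ∧ φ r = s} : Language α))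
    (hL1 : ∀ v, H 1 ({P | LP1 P v} : Language α)) (hL2 : ∀ v, H 1 ({P | LP2 P v} : Language α))
    (hQ1 : ∀ b, H 1 ({Q | R1 Q = some b} : Language α))
    (hQ2 : ∀ b, H 1 ({Q | R2 Q = some b} : Language α)) (s : S) :
    H 3 ({w | φ w = s} : Language α) := by
  have hNP0 : H 1 ({r | NP XX r} : Language α) := by
    refine H.congr (H.exists_fintype _ fun s => hNP s) fun w => ?_
    exact ⟨fun ⟨_, h, _⟩ => h, fun h => ⟨φ w, h, rfl⟩⟩
  have act0 : ∀ s, act 0 s = 0 := by
    intro s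
    have := act_add 0 0 s
    rw [add_zero] at this
    exact left_eq_add.1 this
  -- the runs
  have hrun : ∀ (v0 v' : V) (s' : S), H 3 ({w | run (stp XX T) w ([], v0) ∈
      {p : List α × V | p.2 = v' ∧ φ p.1 = s'}} : Language α) := by
    intro v0 v' s'
    refine nested_infinite (stp XX T) (lv LP1 LP2 R1 R2 0) 2 1 ([], v0) _ ?_ ?_ ?_ ?_ ?_
    · intro j hj Q hQ
      rcases Nat.lt_succ_iff_lt_or_eq.1 hj with h3 | rfl
      · have : j = 0 := by omega
        subst this
        obtain ⟨b, hb⟩ := Option.isSome_iff_exists.1 (show (R1 Q).isSome from hQ)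
        exact hR1 Q b hb
      · obtain ⟨b, hb⟩ := Option.isSome_iff_exists.1 (show (R2 Q).isSome from hQ)
        exact hR2 Q b hb
    · intro j hj
      refine (Set.finite_range fun b : V => (([] : List α), b)).subset ?_
      rintro ω ⟨Q, hQ, rfl⟩
      rcases Nat.lt_succ_iff_lt_or_eq.1 hj with h3 | rfl
      · have : j = 0 := by omega
        subst this
        exact ⟨_, rfl⟩
      · exact ⟨_, rfl⟩
    · intro j hj ω
      obtain ⟨u, b⟩ := ω
      have key : ∀ R : List α → Option V, (∀ b, H 1 ({Q | R Q = some b} : Language α)) →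
          H 1 ({Q | (R Q).isSome ∧ (([] : List α), (R Q).getD 0) = (u, b)} : Language α) := by
        intro R hR
        refine H.congr (H.inter (H.const 1 (u = [])) (hR b)) fun w => ?_
        constructor
        · rintro ⟨h1, h2⟩
          change u = [] at h1
          change R w = some b at h2
          subst h1
          change (R w).isSome = true ∧ _
          rw [h2]
          exact ⟨rfl, rfl⟩
        · rintro ⟨h1, h2⟩
          obtain ⟨b', hb'⟩ := Option.isSome_iff_exists.1 h1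
          rw [hb', Option.getD_some, Prod.mk.injEq] at h2
          refine ⟨h2.1.symm, ?_⟩
          change R w = some b
          rw [hb', h2.2]
      rcases Nat.lt_succ_iff_lt_or_eq.1 hj with h3 | rfl
      · have : j = 0 := by omega
        subst this
        exact key R1 hQ1
      · exact key R2 hQ2
    · intro j hj p Q hC hQ hl
      rcases Nat.lt_succ_iff_lt_or_eq.1 hj with h3 | rfl
      · have : j = 0 := by omega
        subst this
        exact sound0 hPC hR1 s1 0 p Q hC hQ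
      · exact sound1 hnil hPC hR1 s2 0 p Q hC hQ hl
    · intro p hp F hF
      have hp' : ∃ b, p = ([], b) := by
        rcases hp with rfl | ⟨j, hj, Q, hQ, rfl⟩
        · exact ⟨_, rfl⟩
        · rcases Nat.lt_succ_iff_lt_or_eq.1 hj with h3 | rfl
          · have : j = 0 := by omega
            subst this
            exact ⟨_, rfl⟩
          · exact ⟨_, rfl⟩
      obtain ⟨b, rfl⟩ := hp'
      refine base hnil hPC hR1 cc hNP0 hXT hL1 hL2 hQ1 hQ2 0 F ?_ b
      intro v''
      rcases hF with rfl | ⟨j, hj, rfl⟩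
      · refine H.congr (H.inter (H.const 1 (v'' = v')) (hNP s')) fun w => ?_
        exact ⟨fun ⟨h1, h2, h3⟩ => ⟨h2, h1, h3⟩, fun ⟨h1, h2, h3⟩ => ⟨h2, h1, h3⟩⟩
      · rcases Nat.lt_succ_iff_lt_or_eq.1 hj with h3 | rfl
        · have : j = 0 := by omega
          subst this
          exact H.inter hNP0 (hL1 v'')
        · exact H.inter hNP0 (hL2 v'')
  -- read-off
  refine H.congr (H.forall_fintype (fun v0 : V => ({w | ∃ v' : V, w ∈ ({w | ∃ v'' : V,
    w ∈ ({w | ∃ s' : S, w ∈ ({w | w ∈ ({w | run (stp XX T) w ([], v0) ∈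
      {p : List α × V | p.2 = v' ∧ φ p.1 = s'}} : Language α) ∧
      w ∈ ({w | w ∈ ({w | run (stp XX T) w ([], 0) ∈
        {p : List α × V | p.2 = v'' ∧ φ p.1 = s'}} : Language α) ∧
        w ∈ ({_w | act v' s' - act v'' s' = act v0 s} : Language α)} : Language α)} : Language α)}
          : Language α)} : Language α)} : Language α)) fun v0 =>
    H.exists_fintype _ fun v' => H.exists_fintype _ fun v'' => H.exists_fintype _ fun s' =>
      H.inter (hrun v0 v' s') (H.inter (hrun 0 v'' s') (H.const 3 _))) fun w => ?_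
  obtain ⟨κ, u', hu⟩ := transport hφ1 hφ act_mul act_add hT w []
  constructor
  · intro h
    refine faith _ _ fun v0 => ?_
    obtain ⟨v', v'', s', ⟨h1, h2⟩, ⟨h3, h4⟩, h5⟩ := h v0
    change act v' s' - act v'' s' = act v0 s at h5
    rw [(hu v0).1] at h2
    have e1 := (hu v0).2
    have e2 := (hu 0).2
    rw [h1, h2] at e1
    rw [h3, h2, act0, zero_add] at e2
    rw [e1, e2, List.nil_append, add_sub_cancel_right] at h5
    exact h5
  · intro h v0
    change φ w = s at h
    refine ⟨_, _, φ u', ⟨rfl, by rw [(hu v0).1]⟩, ⟨rfl, by rw [(hu 0).1]⟩, ?_⟩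
    change act (run (stp XX T) w ([], v0)).2 (φ u') - act (run (stp XX T) w ([], 0)).2 (φ u') =
      act v0 s
    rw [(hu v0).2, (hu 0).2, act0, zero_add, List.nil_append, add_sub_cancel_right, h]

end Crest.Agent.R320.Top5_163
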