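import Crest.Agent.R320.P4_111
import Crest.Agent.R320.Sc2n_937
import Crest.Agent.R320.TopSem_474
import Crest.Agent.R320.Top5_163

/-! Row 320: glue of 937's block form with 474's semantic top and 163's top (helper111). -/

set_option autoImplicit false

namespace Crest.Agent.R320.FinA_111

open Crest.Agent.R320.Hk_851 Crest.Agent.R320.P4_111 Crest.Agent.R320.Sc2n_937
open Crest.Agent.R320.TopSem_474 (Sem1 Sem2 Ok1 Ok2 Late Two CC)

universe u v

theorem isRegular_key' {α : Type u} [Finite α] {M : Type v} [Monoid M] [Finite M] (φ : α → M)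
    (K Mo : ℕ) (hMo : 0 < Mo) (Pd : List α → ℕ → M → Prop) :
    Language.IsRegular
      ({w | Pd (w.take K) (w.length % Mo) ((w.drop K).map φ).prod} : Language α) := by
  classical
  let B := {b : List α // b.length ≤ K}
  haveI : Finite B := (List.finite_length_le α K).to_subtype
  let step : B × Fin Mo × M → α → B × Fin Mo × M := fun q a =>
    (⟨(q.1.1 ++ [a]).take K, by rw [List.length_take]; omega⟩,
      ⟨(q.2.1.1 + 1) % Mo, Nat.mod_lt _ hMo⟩, if q.1.1.length < K then q.2.2 else q.2.2 * φ a)
  let s0 : B × Fin Mo × M := (⟨[], Nat.zero_le _⟩, ⟨0 % Mo, Nat.mod_lt _ hMo⟩, 1)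
  have key : ∀ w : List α, w.foldl step s0 =
      (⟨w.take K, by rw [List.length_take]; omega⟩, ⟨w.length % Mo, Nat.mod_lt _ hMo⟩,
        ((w.drop K).map φ).prod) := by
    intro w
    induction w using List.reverseRecOn with
    | nil => simp [s0]
    | append_singleton w a ih =>
      rw [List.foldl_append, ih]
      simp only [List.foldl_cons, List.foldl_nil, step]
      refine Prod.ext ?_ (Prod.ext ?_ ?_)
      · exact Subtype.ext (take_snoc K w a)
      · apply Fin.ext
        simp [Nat.add_mod]
      · show (if (w.take K).length < K then ((w.drop K).map φ).prod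
            else ((w.drop K).map φ).prod * φ a) = (((w ++ [a]).drop K).map φ).prod
        rw [List.length_take]
        by_cases h : w.length < K
        · rw [if_pos (by omega), List.drop_eq_nil_of_le h.le,
            List.drop_eq_nil_of_le (by rw [List.length_append]; simp; omega)]
        · rw [if_neg (by omega), List.drop_append_of_le_length (by omega)]
          simp
  have h := isRegular_foldl step s0 {q | Pd q.1.1 q.2.1.1 q.2.2}
  have e : ({w | w.foldl step s0 ∈ {q : B × Fin Mo × M | Pd q.1.1 q.2.1.1 q.2.2}} : Language α) =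
      ({w | Pd (w.take K) (w.length % Mo) ((w.drop K).map φ).prod} : Language α) := by
    ext w
    show Pd (w.foldl step s0).1.1 (w.foldl step s0).2.1.1 (w.foldl step s0).2.2 ↔ _
    rw [key w]
    exact Iff.rfl
  rw [← e]
  exact h

/-- a function of the word which depends only on the key has regular fibres -/
theorem isRegular_det {α : Type u} [Finite α] {M : Type v} [Monoid M] [Finite M] (φ : α → M)
    (K Mo : ℕ) (hMo : 0 < Mo) (P : List α → Prop)
    (hdet : ∀ X X' : List α, X.take K = X'.take K → X.length % Mo = X'.length % Mo →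
      ((X.drop K).map φ).prod = ((X'.drop K).map φ).prod → P X → P X') :
    Language.IsRegular ({w | P w} : Language α) := by
  have h := isRegular_key' φ K Mo hMo fun u r s => ∃ X : List α, X.take K = u ∧
    X.length % Mo = r ∧ ((X.drop K).map φ).prod = s ∧ P X
  have e : ({w | ∃ X : List α, X.take K = w.take K ∧
    X.length % Mo = w.length % Mo ∧ ((X.drop K).map φ).prod = ((w.drop K).map φ).prod ∧ P X} :
      Language α) = ({w | P w} : Language α) := by
    ext w
    constructor
    · rintro ⟨X, h1, h2, h3, h4⟩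
      exact hdet X w h1 h2 h3 h4
    · intro hw
      exact ⟨w, rfl, rfl, rfl, hw⟩
  rw [← e]
  exact h

section glue

variable {A V : Type*} (g : Geo A) (pre : List A → V → V) (post : V → List A → V)

/-- all the hypotheses of 937 in one place -/
structure Hyp (lam rho : List A → Option V) (BadT : ℕ → Prop) (K : ℕ) (c : ℕ → ℕ)
    (lam2 rho2 : ℕ → List A → Option V) (C0 : ℕ) : Prop where
  hlen : ∀ P v, lam P = some v → P.length ≤ g.N1
  hex : ∀ P Q u b, lam P = some u → rho Q = some b → b = post u (P ++ Q)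
  hcomp : ∀ Y : List A, ¬ BadT Y.length → ∀ u, ∃ P Q, Y = P ++ Q ∧ lam P = some u ∧ (rho Q).isSome
  hc : ∀ k, k < K → c k ≤ g.p0
  hex2 : ∀ k, k < K → ∀ P Q v u, P.length = c k → Q.length = g.p0 - c k →
    lam2 k P = some v → rho2 k Q = some u → u = pre (P ++ Q) v
  hgap : ∀ P Q : List A, g.Wo P → g.Wo (P ++ Q) → Q ≠ [] → 2 * g.p0 + 2 * g.N1 < Q.length
  hsp : ∀ k k' l l', k < K → k' < K → l < K → l' < K → k' ≠ k → l' ≠ l →
    c k + c l' < c l + c k' + 2 * g.N1 → c l + c k' < c k + c l' + 2 * g.N1 → k = l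
  hthin : ∀ τ, g.z ≤ τ + g.p0 → ∀ J : Finset ℕ, (∀ k ∈ J, k < K ∧
    ∃ k', k' < K ∧ k' ≠ k ∧ BadT (τ + c k' - c k - g.p0)) → J.card ≤ C0
  hI : ∀ X : List A, g.p0 ≤ X.length → ∀ v, ∃ I : Finset ℕ, 2 * C0 + 2 ≤ I.card ∧ ∀ k ∈ I, k < K ∧
    lam2 k (X.take (c k)) = some v ∧ (rho2 k ((X.take g.p0).drop (c k))).isSome

variable {g pre post}

theorem cc_of {lam rho : List A → Option V} {BadT : ℕ → Prop} {K : ℕ} {c : ℕ → ℕ}
    {lam2 rho2 : ℕ → List A → Option V} {C0 : ℕ}
    (h : Hyp g pre post lam rho BadT K c lam2 rho2 C0) :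
    CC ({X | g.XX X}) (fun v X => g.T pre post v X)
      (fun P v => g.LP1 pre lam v P) (fun P v => Geo.LP2 K c lam2 v P) := by
  classical
  have hz := g.hz
  have hq := g.hq
  have hN := g.hN
  have sem1 : ∀ (b : V) (Q : List A), g.RQ1 rho b Q →
      Sem1 ({X | g.XX X}) (fun v X => g.T pre post v X) (fun P v => g.LP1 pre lam v P) Q := by
    intro b Q hQ
    refine ⟨b, ?_, ?_⟩
    · intro hnil
      have := hQ.2.1
      rw [hnil, List.length_nil] at this
      omega
    · intro P v hP
      exact g.sound1 pre post h.hlen h.hex hP hQ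
  have cut1 : ∀ X, g.XX X → ¬ g.BadX BadT X → ∀ v, ∃ P Q, X = P ++ Q ∧ g.LP1 pre lam v P ∧
      Sem1 ({X | g.XX X}) (fun v X => g.T pre post v X) (fun P v => g.LP1 pre lam v P) Q := by
    intro X hX hb v
    obtain ⟨P, Q, b, h1, h2, h3⟩ := g.complete1 pre h.hlen hX (fun hE => hb (Or.inl hE))
      (fun u => h.hcomp (X.drop g.p0) (by
        rw [List.length_drop]; exact fun hB => hb (Or.inr hB)) u) v
    exact ⟨P, Q, h1, h2, sem1 b Q h3⟩
  intro X hX X2 hX2 v
  by_cases hb : g.BadX BadT X
  · right
    obtain ⟨P, Q, b, h1, h2, h3⟩ := g.complete2 pre post h.hc h.hgap h.hsp h.hthin hX hX2 v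
      (h.hI X (by have := hX.1; omega) v)
    have h2' := h2
    obtain ⟨k0, hk0, hPl, hl0⟩ := h2'
    refine ⟨P, Q, h1.symm, ?_, h2, b, ?_, ?_⟩
    · have := h.hc k0 hk0
      have := hX.1
      omega
    · intro hnil
      obtain ⟨k, hk, l, hend, hgood, hXd, _⟩ := h3
      have := hXd.1
      rw [hnil] at this
      simp at this
      omega
    · intro P' v' hP'
      have hP'' := hP'
      obtain ⟨k', hk', hPl', hl'⟩ := hP''
      -- the first block of P' ++ Q
      obtain ⟨l, hend⟩ : ∃ l, g.CEnd Q (c k') l := by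
        obtain ⟨k, hk, l, hend, hgood, hXd, _⟩ := h3
        by_cases hkk : k' = k
        · subst hkk; exact ⟨l, hend⟩
        · obtain ⟨l', h5, _⟩ := hgood k' hk' hkk
          exact ⟨l', h5⟩
      have hcp := h.hc k' hk'
      have hX' : g.XX (P' ++ Q.take l) :=
        g.xx_of_cend (by rw [hPl']; exact hcp) (by rw [hPl']; exact hend)
      by_cases hb' : g.BadX BadT (P' ++ Q.take l)
      · right
        obtain ⟨X2', h5, h6, h7⟩ := g.sound2 pre post (R := []) (R' := Q.drop l) h.hc h.hex2 hX' hb'
          hP' h3 (by rw [List.append_nil, List.append_assoc, List.take_append_drop])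
        refine ⟨Q.take l, X2', ?_, ?_, hX', h5, h7⟩
        · rw [List.append_assoc] at h6
          exact List.append_cancel_left h6
        · intro hnil
          have h8 := hX'.1
          rw [hnil, List.append_nil] at h8
          omega
      · left
        obtain ⟨P1, Q1, h5, h6, h7⟩ := cut1 _ hX' hb' v'
        refine ⟨P' ++ Q.take l, hX', ⟨Q.drop l, by
          rw [List.append_assoc, List.take_append_drop]⟩, P1, Q1, h5, ?_, h6, h7⟩
        have := h6.1
        omega
  · left
    obtain ⟨P, Q, h1, h2, h3⟩ := cut1 X hX hb v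
    exact ⟨P, Q, h1, h2, h3⟩

end glue

end Crest.Agent.R320.FinA_111
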