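import Crest.Agent.R320.Grid_899
import Crest.Agent.R320.Thin_963

/-!
Row 320, helper113: constants of the grid gadget and of its ruler.
-/

set_option autoImplicit false

namespace Crest.Agent.R320.FinA_113

open Finset Crest.Agent.R320.Grid_899

/-- distinct large primes -/
noncomputable def qq (B : ℕ) (k : ℕ) (j : Fin k) : ℕ := Nat.nth Nat.Prime (B + j)

theorem qq_prime (B k : ℕ) (j : Fin k) : (qq B k j).Prime := Nat.prime_nth_prime _

theorem qq_ge (B k : ℕ) (j : Fin k) : B ≤ qq B k j := by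
  have h : StrictMono (Nat.nth Nat.Prime) := Nat.nth_strictMono Nat.infinite_setOf_prime
  have := h.le_apply (x := B + (j : ℕ))
  unfold qq
  omega

theorem qq_inj (B k : ℕ) : Function.Injective (qq B k) := by
  intro i j h
  have h1 : StrictMono (Nat.nth Nat.Prime) := Nat.nth_strictMono Nat.infinite_setOf_prime
  have := h1.injective h
  ext
  omega

/-- bad totals -/
def Bad (k m : ℕ) (q : Fin k → ℕ) (κ : ℕ) (T : ℤ) : Prop :=
  Thin963.BadT (univ.image q) m (fun i => (G κ i : ℤ)) (fun i => ((∏ j, q j) * G κ i : ℕ))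
    (fun i => (Am (∏ j, q j) κ i : ℤ)) T

theorem sum_G (κ i : ℕ) (hκ : 1 ≤ κ) : ∑ j ∈ range (i + 1), G κ j ≤ 2 * G κ i := by
  induction i with
  | zero => simp [G]
  | succ i ih =>
    rw [sum_range_succ]
    have h1 : 2 * G κ i ≤ G κ (i + 1) := by
      unfold G
      rw [mul_add, mul_one, pow_add, mul_comm]
      exact Nat.mul_le_mul_left _ (by
        calc 2 = 2 ^ 1 := by norm_num
          _ ≤ 2 ^ κ := Nat.pow_le_pow_right (by norm_num) hκ)
    omega

open Classical in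
theorem ruler (k m K : ℕ) : ∃ (q : Fin k → ℕ) (κ : ℕ), (∀ j, Odd (q j)) ∧
    Pairwise (fun i j => Nat.Coprime (q i) (q j)) ∧ (∀ j, 0 < q j) ∧
    ∀ N0 : ℕ, ∃ X : ℕ, N0 ≤ X ∧ 0 < X ∧ ∀ T : ℤ,
      (((range K) ×ˢ (range K)).filter (fun p => p.1 ≠ p.2 ∧
        Bad k m q κ (T + X * 2 ^ p.1 - X * 2 ^ p.2))).card ≤ k + m := by
  set q := qq (2 ^ (K + 1) + 3) k with hq
  have hpr : ∀ j, (q j).Prime := qq_prime _ _
  have hge : ∀ j, 2 ^ (K + 1) + 3 ≤ q j := qq_ge _ _
  have h2K : 0 < 2 ^ K := by positivity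
  have hodd : ∀ j, Odd (q j) := fun j => (hpr j).odd_of_ne_two (by
    have := hge j
    have : 0 < 2 ^ (K + 1) := by positivity
    generalize 2 ^ (K + 1) = w at *
    omega)
  have hpos : ∀ j, 0 < q j := fun j => (hpr j).pos
  set P := ∏ j, q j with hP
  have hPpos : 0 < P := Finset.prod_pos fun j _ => hpos j
  set κ := K + 5 + P with hκ
  refine ⟨q, κ, hodd, ?_, hpos, ?_⟩
  · intro i j hij
    exact (Nat.coprime_primes (hpr i) (hpr j)).2 fun h => hij (qq_inj _ _ h)
  · intro N0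
    have hgrow : ∀ i < m, (2 : ℤ) ^ (K + 4) * ∑ j ∈ range (i + 1), ((P * G κ j : ℕ) : ℤ) ≤
        (G κ (i + 1) : ℤ) := by
      intro i _
      have h1 : ∑ j ∈ range (i + 1), P * G κ j ≤ P * (2 * G κ i) := by
        rw [← mul_sum]
        exact Nat.mul_le_mul_left _ (sum_G κ i (by omega))
      have h2 : 2 ^ (K + 4) * (P * (2 * G κ i)) ≤ G κ (i + 1) := by
        have h3 : P ≤ 2 ^ P := Nat.lt_two_pow_self.le
        have e : G κ (i + 1) = 2 ^ (K + 5) * (2 ^ P * G κ i) := by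
          unfold G
          rw [mul_add, mul_one, hκ, ← pow_add, ← pow_add]
          congr 1
          ring
        have e2 : 2 ^ (K + 4) * (P * (2 * G κ i)) = 2 ^ (K + 5) * (P * G κ i) := by ring
        rw [e, e2]
        exact Nat.mul_le_mul_left _ (Nat.mul_le_mul_right _ h3)
      have h4 : 2 ^ (K + 4) * ∑ j ∈ range (i + 1), P * G κ j ≤ G κ (i + 1) :=
        (Nat.mul_le_mul_left _ h1).trans h2
      exact_mod_cast h4
    obtain ⟨X, h1, h2, h3⟩ := Thin963.thin K m (univ.image q) (fun i => (G κ i : ℤ))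
      (fun i => ((P * G κ i : ℕ) : ℤ)) (fun i => (Am P κ i : ℤ))
      (by
        intro p hp
        obtain ⟨j, -, rfl⟩ := mem_image.1 hp
        exact ⟨hpr j, (Nat.le_add_right _ 3).trans (hge j)⟩)
      (by
        intro p hp
        obtain ⟨j, -, rfl⟩ := mem_image.1 hp
        show IsCoprime ((q j : ℕ) : ℤ) ((G κ m : ℕ) : ℤ)
        rw [Nat.isCoprime_iff_coprime]
        unfold G
        exact ((Nat.coprime_primes (hpr j) Nat.prime_two).2
          (by
            have := hge j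
            generalize 2 ^ (K + 1) = w at *
            omega)).pow_right _)
      (by
        show (0 : ℤ) < (G κ m : ℕ)
        exact_mod_cast G_pos (κ := κ) m)
      (by
        intro i j hij
        show ((G κ i : ℕ) : ℤ) ∣ ((G κ j : ℕ) : ℤ)
        exact_mod_cast G_dvd hij)
      (by
        intro i
        show (0 : ℤ) < ((P * G κ i : ℕ) : ℤ)
        exact_mod_cast Nat.mul_pos hPpos (G_pos i))
      (by
        intro i
        show ((G κ i : ℕ) : ℤ) ∣ ((P * G κ i : ℕ) : ℤ)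
        exact_mod_cast Dvd.intro_left P rfl)
      hgrow (N0 : ℤ)
    obtain ⟨X', rfl⟩ := Int.eq_ofNat_of_zero_le h2.le
    refine ⟨X', by exact_mod_cast h1, by exact_mod_cast h2, fun T => ?_⟩
    have hcard : (univ.image q).card ≤ k := by
      refine card_image_le.trans ?_
      simp
    refine (le_trans (le_of_eq ?_) (h3 T)).trans (by omega)
    rfl

/-- totals which are not bad satisfy the hypotheses of 899's gadget -/
theorem good_of {k m : ℕ} {q : Fin k → ℕ} {κ n : ℕ}
    (hn : Am (∏ j, q j) κ (m + 1) ≤ n) (hmono : ∀ i ≤ m + 1, Am (∏ j, q j) κ i ≤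
      Am (∏ j, q j) κ (m + 1)) (h : ¬ Bad k m q κ (n : ℤ)) :
    (∀ j, ¬ q j ∣ n) ∧ ∀ j, 1 ≤ j → j ≤ m →
      (∏ j, q j) * G κ (j - 1) ≤ (n - Am (∏ j, q j) κ j) % G κ j ∧
      (n - Am (∏ j, q j) κ j) % G κ j + (∏ j, q j) * G κ (j - 1) ≤ G κ j := by
  unfold Bad Thin963.BadT at h
  push Not at h
  obtain ⟨h1, h2⟩ := h
  refine ⟨fun j hj => h1 (q j) (mem_image_of_mem _ (mem_univ _)) (by exact_mod_cast hj), ?_⟩
  intro j hj1 hjm
  obtain ⟨i, rfl⟩ : ∃ i, j = i + 1 := ⟨j - 1, by omega⟩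
  rw [Nat.add_sub_cancel]
  have hA := hmono (i + 1) (by omega)
  have hdm := Nat.div_add_mod (n - Am (∏ j, q j) κ (i + 1)) (G κ (i + 1))
  have hlt := Nat.mod_lt (n - Am (∏ j, q j) κ (i + 1)) (G_pos (κ := κ) (i + 1))
  set r := (n - Am (∏ j, q j) κ (i + 1)) % G κ (i + 1) with hr
  set y := (n - Am (∏ j, q j) κ (i + 1)) / G κ (i + 1) with hy
  have hnz : (n : ℤ) - Am (∏ j, q j) κ (i + 1) = G κ (i + 1) * y + r := by
    have : ((n - Am (∏ j, q j) κ (i + 1) : ℕ) : ℤ) = (n : ℤ) - Am (∏ j, q j) κ (i + 1) := by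
      push_cast [hA.trans hn]; ring
    rw [← this, ← hdm]
    push_cast
    ring
  constructor
  · by_contra hc
    push Not at hc
    refine h2 i (by omega) (-(r : ℤ)) ?_ ?_
    · rw [abs_neg, abs_of_nonneg (by positivity)]
      exact_mod_cast hc.le
    · rw [hnz]
      exact ⟨y, by ring⟩
  · by_contra hc
    push Not at hc
    refine h2 i (by omega) ((G κ (i + 1) : ℤ) - r) ?_ ?_
    · rw [abs_of_nonneg (by
        have : (r : ℤ) < G κ (i + 1) := by exact_mod_cast hlt
        omega)]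
      have : (G κ (i + 1) : ℤ) < r + ((∏ j, q j) * G κ i : ℕ) := by exact_mod_cast hc
      omega
    · rw [hnz]
      exact ⟨y + 1, by ring⟩

end Crest.Agent.R320.FinA_113
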