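import Crest.Agent.R320.Top5_120
import Crest.Agent.R320.Sc2n_937
import Crest.Agent.R320.Grid_899
import Crest.Agent.R320.Thin_963
import Crest.Agent.R320.ExactR_237
import Crest.Agent.R320.LWallAll_922
import Crest.Agent.R320.P4_933
import Crest.Agent.R320.Two_621

set_option autoImplicit false

namespace Crest.Agent.R320.FinA_117

open Crest.RegLang Crest.Agent.R320.Hk_851

variable {α : Type}

theorem drop_snoc (A : ℕ) (u : List α) (a : α) :
    (u ++ [a]).drop A = if u.length < A then [] else u.drop A ++ [a] := by
  by_cases h : u.length < A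
  · rw [if_pos h, List.drop_of_length_le (by simp; omega)]
  · rw [if_neg h, List.drop_append_of_le_length (by omega)]

/-- finite-state properties are regular (value of the part behind the prefix of length `A`) -/
theorem regular_of_class' [Finite α] {S : Type} [Monoid S] [Finite S] (φ : α → S) (A M0 : ℕ)
    (hM : 0 < M0) (f : List α → Prop)
    (hf : ∀ u u' : List α, A ≤ u.length → A ≤ u'.length → u.take A = u'.take A →
      u.length % M0 = u'.length % M0 → ((u.drop A).map φ).prod = ((u'.drop A).map φ).prod →
      (f u → f u')) :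
    Language.IsRegular ({u | f u} : Language α) := by
  classical
  haveI : NeZero M0 := ⟨by omega⟩
  have hfin : Finite {l : List α // l.length ≤ A} := List.finite_length_le α A
  let σ := {l : List α // l.length ≤ A} × ZMod M0 × S
  haveI : Fintype σ := Fintype.ofFinite σ
  let st : List α → σ := fun u =>
    (⟨u.take A, by rw [List.length_take]; omega⟩, (u.length : ZMod M0), ((u.drop A).map φ).prod)
  let M : DFA α σ :=
    { step := fun q a =>
        (if h : q.1.1.length < A then ⟨q.1.1 ++ [a], by simp; omega⟩ else q.1,
          q.2.1 + 1, if q.1.1.length < A then 1 else q.2.2 * φ a)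
      start := st []
      accept := {q | ∃ u, f u ∧ st u = q} }
  have hev : ∀ u, M.eval u = st u := by
    intro u
    induction u using List.reverseRecOn with
    | nil => rfl
    | append_singleton u a ih =>
      rw [DFA.eval_append_singleton, ih]
      refine Prod.ext ?_ (Prod.ext ?_ ?_)
      · apply Subtype.ext
        show (if h : (u.take A).length < A then (⟨u.take A ++ [a], by simp at h ⊢; omega⟩ :
          {l : List α // l.length ≤ A}) else ⟨u.take A, by rw [List.length_take]; omega⟩).1
          = (u ++ [a]).take A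
        rw [Crest.Agent.R320.P4_933.take_snoc]
        split_ifs <;> rfl
      · show (u.length : ZMod M0) + 1 = (((u ++ [a]).length : ℕ) : ZMod M0)
        simp
      · show (if (u.take A).length < A then (1 : S) else ((u.drop A).map φ).prod * φ a) =
          (((u ++ [a]).drop A).map φ).prod
        rw [drop_snoc]
        by_cases h : u.length < A
        · rw [if_pos (by rw [List.length_take]; omega), if_pos h]; simp
        · rw [if_neg (by rw [List.length_take]; omega), if_neg h]; simp
  refine Language.isRegular_iff.2 ⟨σ, inferInstance, M, ?_⟩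
  ext u
  rw [DFA.mem_accepts, hev]
  constructor
  · rintro ⟨u', h1, h2⟩
    have e1 : u'.take A = u.take A := congrArg (fun q : σ => q.1.1) h2
    have e2 : (u'.length : ZMod M0) = (u.length : ZMod M0) := congrArg (fun q : σ => q.2.1) h2
    have e3 : ((u'.drop A).map φ).prod = ((u.drop A).map φ).prod :=
      congrArg (fun q : σ => q.2.2) h2
    have e2' : u'.length % M0 = u.length % M0 := (ZMod.natCast_eq_natCast_iff' _ _ _).1 e2
    have e4 := congrArg List.length e1
    rw [List.length_take, List.length_take] at e4
    by_cases h : u.length < A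
    · rw [List.take_of_length_le (by omega), List.take_of_length_le (by omega)] at e1
      rw [← e1]; exact h1
    · exact hf u' u (by omega) (by omega) e1 e2' e3 h1
  · intro h
    exact ⟨u, h, rfl⟩

/-- noise read off from the labels -/
noncomputable def nuOf {S V : Type} [AddCommGroup V] (act : V → S → V)
    (ph : List α → S) (lam rho : List α → Option V) (u : List α) : V := by
  classical
  exact if h : ∃ x : V, ∃ P Q v b, u = P ++ Q ∧ lam P = some v ∧ rho Q = some b ∧
      x = b - act v (ph u) then h.choose else 0

theorem nuOf_spec {S V : Type} [AddCommGroup V] {act : V → S → V}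
    {ph : List α → S} {lam rho : List α → Option V} {nu : List α → V}
    (hs : ∀ P Q v b, lam P = some v → rho Q = some b → b = act v (ph (P ++ Q)) + nu (P ++ Q))
    (P Q : List α) (v b : V) (h1 : lam P = some v) (h2 : rho Q = some b) :
    b = act v (ph (P ++ Q)) + nuOf act ph lam rho (P ++ Q) := by
  classical
  have h : ∃ x : V, ∃ P' Q' v b, P ++ Q = P' ++ Q' ∧ lam P' = some v ∧ rho Q' = some b ∧
      x = b - act v (ph (P ++ Q)) := ⟨_, P, Q, v, b, rfl, h1, h2, rfl⟩
  have e : nuOf act ph lam rho (P ++ Q) = h.choose := by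
    unfold nuOf; rw [dif_pos h]
  obtain ⟨P', Q', v', b', e1, e2, e3, e4⟩ := h.choose_spec
  rw [e, e4]
  have h5 := hs P' Q' v' b' e2 e3
  rw [← e1] at h5
  have h6 := hs P Q v b h1 h2
  rw [h5, h6]
  abel

theorem nuOf_iff {S V : Type} [AddCommGroup V] {act : V → S → V}
    {ph : List α → S} {lam rho : List α → Option V} {nu : List α → V}
    (hs : ∀ P Q v b, lam P = some v → rho Q = some b → b = act v (ph (P ++ Q)) + nu (P ++ Q))
    (u u' : List α)
    (h : ∀ P Q v b, u = P ++ Q → lam P = some v → rho Q = some b →
      ∃ Q', u' = P ++ Q' ∧ rho Q' = some b)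
    (h' : ∀ P Q v b, u' = P ++ Q → lam P = some v → rho Q = some b →
      ∃ Q', u = P ++ Q' ∧ rho Q' = some b)
    (hph : ph u = ph u') :
    nuOf act ph lam rho u = nuOf act ph lam rho u' := by
  classical
  by_cases hu : ∃ P Q v b, u = P ++ Q ∧ lam P = some v ∧ rho Q = some b
  · obtain ⟨P, Q, v, b, rfl, h1, h2⟩ := hu
    obtain ⟨Q', rfl, h3⟩ := h P Q v b rfl h1 h2
    have e1 := nuOf_spec hs P Q v b h1 h2
    have e2 := nuOf_spec hs P Q' v b h1 h3
    rw [hph] at e1
    rw [e1] at e2
    exact add_left_cancel e2
  · have hu' : ¬ ∃ P Q v b, u' = P ++ Q ∧ lam P = some v ∧ rho Q = some b := by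
      rintro ⟨P, Q, v, b, e, h1, h2⟩
      obtain ⟨Q', e', h3⟩ := h' P Q v b e h1 h2
      exact hu ⟨P, Q', v, b, e', h1, h3⟩
    unfold nuOf
    rw [dif_neg, dif_neg]
    · rintro ⟨x, P, Q, v, b, e, h1, h2, -⟩
      exact hu' ⟨P, Q, v, b, e, h1, h2⟩
    · rintro ⟨x, P, Q, v, b, e, h1, h2, -⟩
      exact hu ⟨P, Q, v, b, e, h1, h2⟩

end Crest.Agent.R320.FinA_117
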