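import Crest.Agent.R320.Asm_505
import Crest.Agent.R320.ExactR_237
import Crest.Agent.R320.WallU_228
import Crest.Agent.R320.Block_467

/-!
# Row 320: final assembly, part A: zones, scheme 1 (helper13)
-/

set_option autoImplicit false

namespace Crest.Agent.R320.Fin_13

open Crest.RegLang Crest.Agent.R320.Hk_851 Crest.Agent.R320.Asm_505

variable {α : Type}

/-- wall rule -/
structure WD (Wo : List α → Prop) (n W : ℕ) : Prop where
  pos : 0 < n
  loc : ∀ P Q : List α, n ≤ Q.length → (Wo (P ++ Q) ↔ Wo Q)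
  len : ∀ P : List α, Wo P → n ≤ P.length
  sep : ∀ (P : List α) (d : ℕ), Wo P → 0 < d → d ≤ W → ¬ Wo (P.take (P.length - d))

def Wt (Wo : List α → Prop) (X : List α) (t : ℕ) : Prop := t ≤ X.length ∧ Wo (X.take t)

variable {Wo : List α → Prop} {n W : ℕ}

theorem Wt.n_le (h : WD Wo n W) {X : List α} {t : ℕ} (ht : Wt Wo X t) : n ≤ t := by
  have := h.len _ ht.2
  rw [List.length_take] at this
  omega

theorem wt_app (h : WD Wo n W) (P Q : List α) {t : ℕ} (ht : n ≤ t) :
    Wt Wo (P ++ Q) (P.length + t) ↔ Wt Wo Q t := by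
  unfold Wt
  rw [List.length_append]
  have e : (P ++ Q).take (P.length + t) = P ++ Q.take t := by
    rw [List.take_append]; simp
  constructor
  · rintro ⟨h1, h2⟩
    have h3 : t ≤ Q.length := by omega
    rw [e, h.loc _ _ (by rw [List.length_take]; omega)] at h2
    exact ⟨h3, h2⟩
  · rintro ⟨h1, h2⟩
    refine ⟨by omega, ?_⟩
    rw [e, h.loc _ _ (by rw [List.length_take]; omega)]
    exact h2

theorem wt_pre (P Q : List α) {t : ℕ} (ht : t ≤ P.length) :
    Wt Wo (P ++ Q) t ↔ Wt Wo P t := by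
  unfold Wt
  rw [List.length_append, List.take_append_of_le_length ht]
  constructor
  · rintro ⟨_, h2⟩; exact ⟨ht, h2⟩
  · rintro ⟨_, h2⟩; exact ⟨by omega, h2⟩

theorem wt_sep (h : WD Wo n W) {X : List α} {s t : ℕ} (hs : Wt Wo X s) (ht : Wt Wo X t)
    (hst : s < t) : s + W < t := by
  by_contra hc
  have h1 := h.sep (X.take t) (t - s) ht.2 (by omega) (by omega)
  apply h1
  rw [List.length_take, List.take_take]
  have : min (min t X.length - (t - s)) t = s := by
    have := ht.1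
    omega
  rw [this]
  exact hs.2

/-- `N` and `|X|` are exactly the walls at places `≥ h`, `N < |X|` -/
def Zn (Wo : List α → Prop) (h : ℕ) (X : List α) (N : ℕ) : Prop :=
  h ≤ N ∧ N < X.length ∧ Wt Wo X N ∧ Wt Wo X X.length ∧
    ∀ t, h ≤ t → t < X.length → Wt Wo X t → t = N

def UU (Wo : List α → Prop) (h : ℕ) : Language α := {X | ∃ N, Zn Wo h X N}

theorem Zn.uniq {h : ℕ} {X : List α} {N N' : ℕ} (h1 : Zn Wo h X N) (h2 : Zn Wo h X N') : N = N' :=
  h2.2.2.2.2 N h1.1 h1.2.1 h1.2.2.1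

theorem zn_app (H : WD Wo n W) (P Q : List α) {h N : ℕ} (hn : n ≤ h) :
    Zn Wo (P.length + h) (P ++ Q) (P.length + N) ↔ Zn Wo h Q N := by
  unfold Zn
  rw [List.length_append]
  constructor
  · rintro ⟨h1, h2, h3, h4, h5⟩
    have hN : h ≤ N := by omega
    refine ⟨hN, by omega, (wt_app H P Q (by omega)).1 h3, (wt_app H P Q (by omega)).1 h4, ?_⟩
    intro t ht1 ht2 ht3
    have := h5 (P.length + t) (by omega) (by omega) ((wt_app H P Q (by omega)).2 ht3)
    omega
  · rintro ⟨h1, h2, h3, h4, h5⟩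
    refine ⟨by omega, by omega, (wt_app H P Q (by omega)).2 h3, (wt_app H P Q (by omega)).2 h4, ?_⟩
    intro t ht1 ht2 ht3
    obtain ⟨u, rfl⟩ := Nat.exists_eq_add_of_le (le_trans (Nat.le_add_right _ _) ht1)
    have := h5 u (by omega) (by omega) ((wt_app H P Q (by omega)).1 ht3)
    omega

theorem zn_pc {h : ℕ} {X X' : List α} {N N' : ℕ} (h1 : Zn Wo h X N) (h2 : Zn Wo h X' N')
    (hp : X <+: X') : X = X' ∧ N = N' := by
  obtain ⟨E, rfl⟩ := hp
  have a1 : Wt Wo (X ++ E) N := (wt_pre X E h1.2.1.le).2 h1.2.2.1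
  have a2 : Wt Wo (X ++ E) X.length := (wt_pre X E le_rfl).2 h1.2.2.2.1
  have l1 := h1.2.1
  have l0 := h1.1
  have hl : (X ++ E).length = X.length + E.length := List.length_append
  have b1 : N = N' := h2.2.2.2.2 N h1.1 (by omega) a1
  by_cases hE : E = []
  · subst hE; exact ⟨by simp, b1⟩
  · exfalso
    have : 0 < E.length := List.length_pos_iff.2 hE
    have b2 := h2.2.2.2.2 X.length (by omega) (by omega) a2
    omega

theorem pc_UU {h : ℕ} : PC (UU Wo h) := by
  refine ⟨?_, ?_⟩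
  · rintro ⟨N, h1, h2, _⟩
    simp at h2
  · rintro z ⟨N, h1⟩ z' ⟨N', h2⟩ hp
    exact (zn_pc h1 h2 hp).1

theorem zn_up {h h' : ℕ} {X : List α} {N : ℕ} (h1 : Zn Wo h X N) (h2 : h ≤ h') (h3 : h' ≤ N) :
    Zn Wo h' X N :=
  ⟨h3, h1.2.1, h1.2.2.1, h1.2.2.2.1, fun t ht => h1.2.2.2.2 t (h2.trans ht)⟩

theorem zn_down {h h' : ℕ} {X : List α} {N : ℕ} (h1 : Zn Wo h X N) (h2 : h' ≤ h)
    (h3 : ∀ t, h' ≤ t → t < h → ¬ Wt Wo X t) : Zn Wo h' X N := by
  refine ⟨h2.trans h1.1, h1.2.1, h1.2.2.1, h1.2.2.2.1, fun t ht1 ht2 ht3 => ?_⟩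
  by_cases hh : t < h
  · exact absurd ht3 (h3 t ht1 hh)
  · exact h1.2.2.2.2 t (by omega) ht2 ht3

/-- first wall at a place `≥ h` -/
noncomputable def fwl (Wo : List α → Prop) (h : ℕ) (D : List α) : ℕ :=
  sInf {t | h ≤ t ∧ Wt Wo D t}

theorem fwl_eq {h : ℕ} {D : List α} {N : ℕ} (h1 : Zn Wo h D N) : fwl Wo h D = N := by
  have hm : N ∈ {t | h ≤ t ∧ Wt Wo D t} := ⟨h1.1, h1.2.2.1⟩
  have h2 : fwl Wo h D ∈ {t | h ≤ t ∧ Wt Wo D t} := Nat.sInf_mem ⟨N, hm⟩
  have h3 : fwl Wo h D ≤ N := Nat.sInf_le hm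
  exact h1.2.2.2.2 _ h2.1 (lt_of_le_of_lt h3 h1.2.1) h2.2

/-! ### scheme 1 -/

variable {S V : Type} [Monoid S] [AddCommGroup V]

/-- the map of the tail `D = X.drop p` of a zone, `h = z - p` -/
noncomputable def tl (Wo : List α → Prop) (act : V → S → V) (φ : List α → S) (nu : List α → V)
    (h : ℕ) (D : List α) (v : V) : V :=
  act v (φ D) + act (nu (D.take (fwl Wo h D))) (φ (D.drop (fwl Wo h D)))

noncomputable def eps1 (Wo : List α → Prop) (act : V → S → V) (φ : List α → S) (nu : List α → V)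
    (p h : ℕ) (X : List α) (v : V) : V :=
  tl Wo act φ nu h (X.drop p) (act v (φ (X.take p)))

def P1 (act : V → S → V) (φ : List α → S) (lam : List α → Option V) (p : ℕ) (v : V) : Language α :=
  {P | p ≤ P.length ∧ lam (P.drop p) = some (act v (φ (P.take p)))}

/-- semantic right words -/
def R1 (Wo : List α → Prop) (act : V → S → V) (φ : List α → S) (lam : List α → Option V)
    (nu : List α → V) (p h : ℕ) (y : V) : Language α :=
  {q | ∀ x, ∀ P ∈ P1 act φ lam p x, P ++ q ∈ UU Wo (p + h) ∧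
    eps1 Wo act φ nu p h (P ++ q) x = y}

theorem s1_core (H : WD Wo n W) {act : V → S → V} {φ : List α → S}
    (hφ : ∀ u v, φ (u ++ v) = φ u * φ v)
    (hadd : ∀ a b s, act (a + b) s = act a s + act b s)
    (hmul : ∀ v s t, act v (s * t) = act (act v s) t)
    {lam rho : List α → Option V} {nu : List α → V} {N1 p h : ℕ}
    (hlen : ∀ P v, lam P = some v → P.length < N1)
    (hs : ∀ P Q v b, lam P = some v → rho Q = some b → b = act v (φ (P ++ Q)) + nu (P ++ Q))
    (hh : n + N1 ≤ h)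
    {P Q : List α} {x b : V} {N' : ℕ} (hP : P ∈ P1 act φ lam p x)
    (hQ : Zn Wo (h - N1) Q N') (hN' : h ≤ N') (hb : rho (Q.take N') = some b) :
    P ++ Q ∈ UU Wo (p + h) ∧
      eps1 Wo act φ nu p h (P ++ Q) x = act b (φ (Q.drop N')) := by
  obtain ⟨hp, hl⟩ := hP
  have ho := hlen _ _ hl
  rw [List.length_drop] at ho
  have z1 := (zn_app H P Q (h := h - N1) (N := N') (by omega)).2 hQ
  have z2 : Zn Wo (p + h) (P ++ Q) (P.length + N') := zn_up z1 (by omega) (by omega)
  refine ⟨⟨_, z2⟩, ?_⟩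
  have e1 : (P ++ Q).take p = P.take p := List.take_append_of_le_length hp
  have e2 : (P ++ Q).drop p = P.drop p ++ Q := List.drop_append_of_le_length hp
  have z3 : Zn Wo h (P.drop p ++ Q) ((P.drop p).length + N') := by
    have a1 := (zn_app H (P.drop p) Q (h := h - N1) (N := N') (by omega)).2 hQ
    refine zn_up a1 ?_ (by omega)
    rw [List.length_drop]; omega
  have e3 : fwl Wo h (P.drop p ++ Q) = (P.drop p).length + N' := fwl_eq z3
  have e4 : (P.drop p ++ Q).take ((P.drop p).length + N') = P.drop p ++ Q.take N' := by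
    rw [List.take_append]; simp
  have e5 : (P.drop p ++ Q).drop ((P.drop p).length + N') = Q.drop N' := by
    rw [← List.drop_drop, List.drop_left]
  unfold eps1 tl
  rw [e1, e2, e3, e4, e5]
  have e6 := hs _ _ _ _ hl hb
  have e7 : φ (P.drop p ++ Q) = φ (P.drop p ++ Q.take N') * φ (Q.drop N') := by
    rw [← hφ]; congr 1
    rw [List.append_assoc, List.take_append_drop]
  rw [e6, hadd, e7, hmul]

end Crest.Agent.R320.Fin_13
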