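import Crest.Agent.R320.Top5_120
import Crest.Agent.R320.Sc2n_937
import Crest.Agent.R320.ExactR_237

/-!
# Row 320: the two completeness statements of `Top5_120.top5` from the block form of the two
wall schemes (`Sc2n_937`), the exact gadget (`ExactR_237`) and an abstract U-gadget (helper142)
-/

set_option autoImplicit false

namespace Crest.Agent.R320.FinA_142

open Crest.RegLang Crest.Agent.R320.Hk_851 Crest.Agent.R320.Blk467

variable {α : Type*} {S V : Type*} [Monoid S] [AddCommGroup V]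

def pre (act : V → S → V) (φ : α → S) (nu2 : List α → V) (X : List α) (v : V) : V :=
  act v (X.map φ).prod + nu2 X

def post (act : V → S → V) (φ : α → S) (nu1 : List α → V) (v : V) (Y : List α) : V :=
  act v (Y.map φ).prod + nu1 Y

def nu (act : V → S → V) (φ : α → S) (nu1 nu2 : List α → V) (p0 : ℕ) (X : List α) : V :=
  act (nu2 (X.take p0)) ((X.drop p0).map φ).prod + nu1 (X.drop p0)

variable (act : V → S → V) (φ : α → S) (nu1 nu2 : List α → V) (g : Sc2n_937.Geo α)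

theorem T_eq (hadd : ∀ a b s, act (a + b) s = act a s + act b s)
    (hmul : ∀ v s t, act v (s * t) = act (act v s) t) (v : V) (X : List α) :
    g.T (pre act φ nu2) (post act φ nu1) v X =
      act v (X.map φ).prod + nu act φ nu1 nu2 g.p0 X := by
  have h : (X.map φ).prod = ((X.take g.p0).map φ).prod * ((X.drop g.p0).map φ).prod := by
    rw [← List.prod_append, ← List.map_append, List.take_append_drop]
  unfold Sc2n_937.Geo.T pre post nu
  rw [h, hmul, hadd, add_assoc]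

/-- blocks -/
def CC : Set (List α) := {X | g.XX X}

/-- bad blocks -/
def BB (BadT : ℕ → Prop) : Set (List α) := {X | g.XX X ∧ g.BadX BadT X}

theorem pcode : PCode (CC g) := by
  refine ⟨?_, ?_⟩
  · intro h
    have h1 : g.z ≤ 0 := h.1
    have := g.hz
    have := g.hN
    omega
  · intro X hX Y hY h
    obtain ⟨R, hR⟩ := h
    exact g.prefix_code (R := R) (R' := []) hX hY (by rw [hR, List.append_nil])

def L1 (lam : List α → Option V) (v : V) : Set (List α) :=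
  {P | g.LP1 (pre act φ nu2) lam v P}

theorem L1_fin [Finite α] {lam : List α → Option V}
    (hlen : ∀ P v, lam P = some v → P.length ≤ g.N1) (v : V) :
    (L1 act φ nu2 g lam v).Finite := by
  refine (List.finite_length_le α (g.p0 + g.N1)).subset ?_
  intro P hP
  obtain ⟨h1, h2⟩ := hP
  have := hlen _ _ h2
  simp only [List.length_drop] at this
  show P.length ≤ g.p0 + g.N1
  omega

def L2 (K : ℕ) (c : ℕ → ℕ) (lam2 : ℕ → List α → Option V) (v : V) : Set (List α) :=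
  {P | Sc2n_937.Geo.LP2 K c lam2 v P}

theorem L2_fin [Finite α] {K : ℕ} {c : ℕ → ℕ} {lam2 : ℕ → List α → Option V}
    (hc : ∀ k, k < K → c k ≤ g.p0) (v : V) : (L2 K c lam2 v).Finite := by
  refine (List.finite_length_le α g.p0).subset ?_
  rintro P ⟨k, hk, h1, -⟩
  show P.length ≤ g.p0
  rw [h1]; exact hc k hk

theorem hcc1 (hadd : ∀ a b s, act (a + b) s = act a s + act b s)
    (hmul : ∀ v s t, act v (s * t) = act (act v s) t)
    {BadT : ℕ → Prop} {lam rho : List α → Option V}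
    (hlen : ∀ P v, lam P = some v → P.length ≤ g.N1)
    (hex : ∀ P Q u b, lam P = some u → rho Q = some b →
      b = act u ((P ++ Q).map φ).prod + nu1 (P ++ Q))
    (hcomp : ∀ Y : List α, g.N1 + g.q0 ≤ Y.length → ¬ BadT Y.length → ∀ v, ∃ P Q,
      P ++ Q = Y ∧ lam P = some v ∧ (rho Q).isSome) :
    ∀ X ∈ CC g, X ∉ BB g BadT → ∀ v, ∃ P Q, P ++ Q = X ∧ P ∈ L1 act φ nu2 g lam v ∧
      ∀ x, ∀ P' ∈ L1 act φ nu2 g lam x, P' ++ Q ∈ CC g ∧
        act x ((P' ++ Q).map φ).prod + nu act φ nu1 nu2 g.p0 (P' ++ Q) =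
          act v (X.map φ).prod + nu act φ nu1 nu2 g.p0 X := by
  intro X hX hXB v
  have hX' : g.XX X := hX
  have hnb : ¬ g.BadX BadT X := fun h => hXB ⟨hX', h⟩
  have hE : ¬ g.E X := fun h => hnb (Or.inl h)
  have hT : ¬ BadT (X.length - g.p0) := fun h => hnb (Or.inr h)
  have hz := g.hz
  have hXz := hX'.1
  have hdl : (X.drop g.p0).length = X.length - g.p0 := List.length_drop
  obtain ⟨P, Q, b, hPQ, hP, hQ⟩ := g.complete1 (pre act φ nu2) hlen hX' hE (fun u => by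
    obtain ⟨P, Q, h1, h2, h3⟩ := hcomp (X.drop g.p0) (by omega) (by rw [hdl]; exact hT) u
    exact ⟨P, Q, h1.symm, h2, h3⟩) v
  have key : ∀ x P', P' ∈ L1 act φ nu2 g lam x →
      g.XX (P' ++ Q) ∧ g.T (pre act φ nu2) (post act φ nu1) x (P' ++ Q) = b := fun x P' hP' =>
    g.sound1 (pre act φ nu2) (post act φ nu1) hlen (fun P Q u b h1 h2 => hex P Q u b h1 h2) hP' hQ
  refine ⟨P, Q, hPQ.symm, hP, fun x P' hP' => ?_⟩
  obtain ⟨h1, h2⟩ := key x P' hP'
  obtain ⟨-, h3⟩ := key v P hP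
  rw [← hPQ] at h3
  refine ⟨h1, ?_⟩
  rw [T_eq act φ nu1 nu2 g hadd hmul] at h2 h3
  rw [h2, h3]

theorem hcc2 (hadd : ∀ a b s, act (a + b) s = act a s + act b s)
    (hmul : ∀ v s t, act v (s * t) = act (act v s) t)
    {BadT : ℕ → Prop} {K : ℕ} {c : ℕ → ℕ} {lam2 rho2 : ℕ → List α → Option V}
    {C0 : ℕ}
    (hc : ∀ k, k < K → c k ≤ g.p0)
    (hgap : ∀ P Q : List α, g.Wo P → g.Wo (P ++ Q) → Q ≠ [] → 2 * g.p0 + 2 * g.N1 < Q.length)
    (hsp : ∀ k k' l l', k < K → k' < K → l < K → l' < K → k' ≠ k → l' ≠ l →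
      c k + c l' < c l + c k' + 2 * g.N1 → c l + c k' < c k + c l' + 2 * g.N1 → k = l)
    (hthin : ∀ τ, g.z ≤ τ + g.p0 → ∀ J : Finset ℕ, (∀ k ∈ J, k < K ∧
      ∃ k', k' < K ∧ k' ≠ k ∧ BadT (τ + c k' - c k - g.p0)) → J.card ≤ C0)
    (hex2 : ∀ k, k < K → ∀ P Q v u, P.length = c k → Q.length = g.p0 - c k →
      lam2 k P = some v → rho2 k Q = some u → u = pre act φ nu2 (P ++ Q) v)
    (hI : ∀ X0 : List α, X0.length = g.p0 → ∀ v, ∃ I : Finset ℕ, 2 * C0 + 2 ≤ I.card ∧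
      ∀ k ∈ I, k < K ∧ lam2 k (X0.take (c k)) = some v ∧ (rho2 k (X0.drop (c k))).isSome) :
    ∀ X ∈ BB g BadT, ∀ Y ∈ BB g BadT, ∀ v, ∃ P Q, P ++ Q = X ++ Y ∧ P ∈ L2 K c lam2 v ∧
      ∀ x, ∀ P' ∈ L2 K c lam2 x,
        (∃ X' ∈ BB g BadT, ∃ Y' ∈ CC g, X' ++ Y' = P' ++ Q ∧
          act (act x (X'.map φ).prod + nu act φ nu1 nu2 g.p0 X') (Y'.map φ).prod +
              nu act φ nu1 nu2 g.p0 Y' =
            act (act v (X.map φ).prod + nu act φ nu1 nu2 g.p0 X) (Y.map φ).prod +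
              nu act φ nu1 nu2 g.p0 Y) ∨
        (∃ X' ∈ CC g, X' ∉ BB g BadT ∧ X' <+: P' ++ Q) := by
  intro X hX Y hY v
  obtain ⟨hX1, hX2⟩ := hX
  obtain ⟨hY1, -⟩ := hY
  have hz := g.hz
  have hXz := hX1.1
  have hl0 : (X.take g.p0).length = g.p0 := by rw [List.length_take]; omega
  obtain ⟨P, Q, b, hPQ, hP, hQ⟩ := g.complete2 (pre act φ nu2) (post act φ nu1) (BadT := BadT) hc
    hgap hsp hthin hX1 hY1 v (by
      obtain ⟨I, h1, h2⟩ := hI (X.take g.p0) hl0 v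
      refine ⟨I, h1, fun k hk => ?_⟩
      obtain ⟨h3, h4, h5⟩ := h2 k hk
      refine ⟨h3, ?_, h5⟩
      rw [List.take_take, Nat.min_eq_left (hc k h3)] at h4
      exact h4)
  have snd : ∀ (x : V) (X' P' R' : List α), g.XX X' → g.BadX BadT X' →
      P' ∈ L2 K c lam2 x → P' ++ Q = X' ++ R' →
      ∃ X2, g.XX X2 ∧ P' ++ Q = X' ++ X2 ∧
        g.T (pre act φ nu2) (post act φ nu1) (g.T (pre act φ nu2) (post act φ nu1) x X') X2 = b :=
    fun x X' P' R' h1 h2 h3 h4 => g.sound2 (pre act φ nu2) (post act φ nu1) hc hex2 h1 h2 h3 hQ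
      (R := []) (R' := R') (by rw [List.append_nil]; exact h4)
  obtain ⟨X2, -, e1, e2⟩ := snd v X P Y hX1 hX2 hP hPQ
  have e3 : X2 = Y := List.append_cancel_left (e1.symm.trans hPQ)
  subst e3
  refine ⟨P, Q, hPQ, hP, fun x P' hP' => ?_⟩
  obtain ⟨k', hk', hl', hlam'⟩ := hP'
  obtain ⟨k, hk, l, hend, hgood, hXl, u, hr, hb⟩ := hQ
  by_cases hkk : k' = k
  · subst hkk
    have hXX : g.XX (P' ++ Q.take l) :=
      g.xx_of_cend (by rw [hl']; exact hc _ hk') (by rw [hl']; exact hend)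
    by_cases hbd : g.BadX BadT (P' ++ Q.take l)
    · left
      obtain ⟨X3, h3, h4, h5⟩ := snd x (P' ++ Q.take l) P' (Q.drop l) hXX hbd ⟨k', hk', hl', hlam'⟩
        (by rw [List.append_assoc, List.take_append_drop])
      refine ⟨P' ++ Q.take l, ⟨hXX, hbd⟩, X3, h3, h4.symm, ?_⟩
      rw [← T_eq act φ nu1 nu2 g hadd hmul, ← T_eq act φ nu1 nu2 g hadd hmul,
        ← T_eq act φ nu1 nu2 g hadd hmul, ← T_eq act φ nu1 nu2 g hadd hmul, h5, e2]
    · right
      exact ⟨P' ++ Q.take l, hXX, fun h => hbd h.2, ⟨Q.drop l, by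
        rw [List.append_assoc, List.take_append_drop]⟩⟩
  · right
    obtain ⟨l', he', hg'⟩ := hgood k' hk' hkk
    have hXX : g.XX (P' ++ Q.take l') :=
      g.xx_of_cend (by rw [hl']; exact hc _ hk') (by rw [hl']; exact he')
    refine ⟨P' ++ Q.take l', hXX, fun h => hg' ?_, ⟨Q.drop l', by
        rw [List.append_assoc, List.take_append_drop]⟩⟩
    have := g.cbad_of_bad (BadT := BadT) (P := P') (Q := Q) (l := l')
      (by rw [hl']; exact hc _ hk') (by rw [hl']; exact he') h.2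
    rw [hl'] at this
    exact this

end Crest.Agent.R320.FinA_142
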