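import Crest.Agent.R320.Thin_963
import Crest.Agent.R320.GridG_19
import Crest.Agent.R320.Golomb_369

/-! # Row 320: the ruler in natural numbers for 19's `BadG` (helper172) -/

set_option autoImplicit false

namespace Crest.Agent.R320.FinA_172

open Crest.Agent.R320.GridG_19

theorem Am_le_of_le (G : ℕ → ℕ) (M A0 : ℕ) {i m : ℕ} (h : i ≤ m) : Am G M A0 i ≤ Am G M A0 m :=
  Am_mono G M A0 h

/-- 19's bad totals are 963's bad totals -/
theorem toThin (Ms : Finset ℕ) (G : ℕ → ℕ) (hG : ∀ k, 0 < G k) (M A0 m T : ℕ)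
    (hT : Am G M A0 m ≤ T)
    (h : (∃ q ∈ Ms, q ∣ T) ∨ BadG G M A0 m T) :
    Thin963.BadT Ms m (fun i => (G i : ℤ)) (fun i => ((M * G i : ℕ) : ℤ))
      (fun i => (Am G M A0 i : ℤ)) (T : ℤ) := by
  rcases h with ⟨q, hq, hd⟩ | ⟨k, hk, h⟩
  · exact Or.inl ⟨q, hq, by exact_mod_cast hd⟩
  · right
    have hAk : Am G M A0 (k + 1) ≤ T := (Am_mono G M A0 (by omega)).trans hT
    set D := T - Am G M A0 (k + 1) with hD
    have hDe : (T : ℤ) - (Am G M A0 (k + 1) : ℤ) = (D : ℤ) := by omega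
    have hlt := Nat.mod_lt D (hG (k + 1))
    have hdm := Nat.div_add_mod D (G (k + 1))
    refine ⟨k, hk, ?_⟩
    rcases h with h | h
    · refine ⟨-((D % G (k + 1) : ℕ) : ℤ), ?_, ?_⟩
      · rw [abs_neg, Nat.abs_cast]
        show ((D % G (k + 1) : ℕ) : ℤ) ≤ ((M * G k : ℕ) : ℤ)
        exact_mod_cast h.le
      · show (G (k + 1) : ℤ) ∣ (T : ℤ) - (Am G M A0 (k + 1) : ℤ) + -((D % G (k + 1) : ℕ) : ℤ)
        rw [hDe]
        refine ⟨((D / G (k + 1) : ℕ) : ℤ), ?_⟩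
        have : (D : ℤ) = (G (k + 1) : ℤ) * ((D / G (k + 1) : ℕ) : ℤ) + ((D % G (k + 1) : ℕ) : ℤ) := by
          exact_mod_cast hdm.symm
        linarith
    · refine ⟨(G (k + 1) : ℤ) - ((D % G (k + 1) : ℕ) : ℤ), ?_, ?_⟩
      · have h1 : (0 : ℤ) ≤ (G (k + 1) : ℤ) - ((D % G (k + 1) : ℕ) : ℤ) := by
          have : D % G (k + 1) ≤ G (k + 1) := hlt.le
          have : ((D % G (k + 1) : ℕ) : ℤ) ≤ (G (k + 1) : ℤ) := by exact_mod_cast this
          linarith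
        rw [abs_of_nonneg h1]
        have : ((G (k + 1) : ℕ) : ℤ) ≤ ((D % G (k + 1) : ℕ) : ℤ) + ((M * G k : ℕ) : ℤ) := by
          exact_mod_cast h
        linarith
      · show (G (k + 1) : ℤ) ∣ (T : ℤ) - (Am G M A0 (k + 1) : ℤ) +
          ((G (k + 1) : ℤ) - ((D % G (k + 1) : ℕ) : ℤ))
        rw [hDe]
        refine ⟨((D / G (k + 1) : ℕ) : ℤ) + 1, ?_⟩
        have : (D : ℤ) = (G (k + 1) : ℤ) * ((D / G (k + 1) : ℕ) : ℤ) + ((D % G (k + 1) : ℕ) : ℤ) := by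
          exact_mod_cast hdm.symm
        linarith

/-- the ruler -/
theorem ruler (K m : ℕ) (Ms : Finset ℕ) (hMs : ∀ q ∈ Ms, q.Prime ∧ 2 ^ (K + 1) < q) (N0 : ℕ)
    (g : ℕ) (hg : g = 2 ^ (K + 5) * (∏ q ∈ Ms, q) + 1) :
    ∃ X : ℕ, 0 < X ∧ N0 ≤ X ∧
      ∀ (p0 τ : ℕ), (∀ k, k < K → X * 2 ^ k ≤ p0) →
        2 * p0 + Am (fun i => g ^ i) (∏ q ∈ Ms, q) 0 m ≤ τ →
        ∀ J : Finset ℕ, (∀ k ∈ J, k < K ∧ ∃ k', k' < K ∧ k' ≠ k ∧
          ((∃ q ∈ Ms, q ∣ τ + X * 2 ^ k' - X * 2 ^ k - p0) ∨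
            BadG (fun i => g ^ i) (∏ q ∈ Ms, q) 0 m (τ + X * 2 ^ k' - X * 2 ^ k - p0))) →
          J.card ≤ Ms.card + m := by
  classical
  set M := ∏ q ∈ Ms, q with hM
  have hM0 : 0 < M := Finset.prod_pos fun q hq => (hMs q hq).1.pos
  have hg0 : 0 < g := by omega
  have hg2 : 2 ≤ g := by
    have : 0 < 2 ^ (K + 5) * M := by positivity
    omega
  have hcopM : Nat.Coprime M g := by
    rw [hg, Nat.coprime_mul_right_add_right]
    exact Nat.coprime_one_right _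
  have hsum : ∀ i, ∑ j ∈ Finset.range (i + 1), g ^ j ≤ 2 * g ^ i := by
    intro i
    induction i with
    | zero => simp
    | succ i ih =>
      rw [Finset.sum_range_succ]
      have : 2 * g ^ i ≤ g ^ (i + 1) := by
        rw [pow_succ, mul_comm]; exact Nat.mul_le_mul_left _ hg2
      omega
  obtain ⟨X, hX1, hX2, hX3⟩ := Thin963.thin K m Ms (fun i => ((g ^ i : ℕ) : ℤ))
    (fun i => ((M * g ^ i : ℕ) : ℤ)) (fun i => (Am (fun i => g ^ i) M 0 i : ℤ))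
    (fun q hq => ⟨(hMs q hq).1, (hMs q hq).2.le⟩)
    (fun q hq => by
      have : Nat.Coprime q (g ^ m) :=
        Nat.Coprime.pow_right _ (Nat.Coprime.coprime_dvd_left (Finset.dvd_prod_of_mem _ hq) hcopM)
      exact Nat.isCoprime_iff_coprime.2 this)
    (by positivity)
    (fun i j hij => by
      have : g ^ i ∣ g ^ j := pow_dvd_pow _ hij
      exact_mod_cast this)
    (fun i => by positivity)
    (fun i => by
      have : g ^ i ∣ M * g ^ i := Dvd.intro_left _ rfl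
      exact_mod_cast this)
    (fun i hi => by
      have h1 : 2 ^ (K + 4) * ∑ j ∈ Finset.range (i + 1), M * g ^ j ≤ g ^ (i + 1) := by
        rw [← Finset.mul_sum]
        calc 2 ^ (K + 4) * (M * ∑ j ∈ Finset.range (i + 1), g ^ j)
            ≤ 2 ^ (K + 4) * (M * (2 * g ^ i)) :=
              Nat.mul_le_mul_left _ (Nat.mul_le_mul_left _ (hsum i))
          _ = (2 ^ (K + 5) * M) * g ^ i := by rw [pow_succ 2 (K + 4)]; ring
          _ ≤ g * g ^ i := Nat.mul_le_mul_right _ (by omega)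
          _ = g ^ (i + 1) := by rw [pow_succ, mul_comm]
      have h2 : ((2 ^ (K + 4) * ∑ j ∈ Finset.range (i + 1), M * g ^ j : ℕ) : ℤ) ≤
        ((g ^ (i + 1) : ℕ) : ℤ) := by exact_mod_cast h1
      push_cast at h2 ⊢
      exact h2) (N0 : ℤ)
  obtain ⟨Y, rfl⟩ : ∃ Y : ℕ, X = (Y : ℤ) := ⟨X.toNat, (Int.toNat_of_nonneg hX2.le).symm⟩
  refine ⟨Y, by exact_mod_cast hX2, by exact_mod_cast hX1, ?_⟩
  intro p0 τ hp0 hτ J hJ
  have hch : ∀ k : ℕ, ∃ k' : ℕ, k ∈ J → (k' < K ∧ k' ≠ k ∧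
      ((∃ q ∈ Ms, q ∣ τ + Y * 2 ^ k' - Y * 2 ^ k - p0) ∨
            BadG (fun i => g ^ i) M 0 m (τ + Y * 2 ^ k' - Y * 2 ^ k - p0))) := by
    intro k
    by_cases hk : k ∈ J
    · obtain ⟨_, k', h⟩ := hJ k hk
      exact ⟨k', fun _ => h⟩
    · exact ⟨0, fun h => absurd h hk⟩
  choose f hf using hch
  refine le_trans ?_ (hX3 ((τ : ℤ) - p0))
  refine Finset.card_le_card_of_injOn (fun k => (f k, k)) ?_ ?_
  · intro k hk
    have hk' : k ∈ J := hk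
    obtain ⟨h1, h2, h3⟩ := hf k hk'
    have hkK := (hJ k hk').1
    rw [Finset.mem_coe, Finset.mem_filter, Finset.mem_product, Finset.mem_range, Finset.mem_range]
    refine ⟨⟨h1, hkK⟩, h2, ?_⟩
    have e1 := hp0 k hkK
    have e2 := toThin Ms (fun i => g ^ i) (fun i => by positivity) M 0 m
      (τ + Y * 2 ^ (f k) - Y * 2 ^ k - p0) (by omega) h3
    have e3 : ((τ + Y * 2 ^ (f k) - Y * 2 ^ k - p0 : ℕ) : ℤ) =
        (τ : ℤ) - p0 + Y * 2 ^ (f k) - Y * 2 ^ k := by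
      have : Y * 2 ^ k ≤ τ + Y * 2 ^ (f k) := by omega
      have h5 : p0 ≤ τ + Y * 2 ^ (f k) - Y * 2 ^ k := by omega
      rw [Nat.cast_sub h5, Nat.cast_sub this]
      push_cast
      ring
    rw [e3] at e2
    exact e2
  · intro a _ b _ h
    exact (Prod.mk.inj h).2

/-- wide Golomb clause -/
theorem golomb {X N1 : ℕ} (hX : 2 * N1 ≤ X) (k k' l l' : ℕ) (hkk : k' ≠ k)
    (hll : l' ≠ l)
    (h1 : X * 2 ^ k + X * 2 ^ l' < X * 2 ^ l + X * 2 ^ k' + 2 * N1)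
    (h2 : X * 2 ^ l + X * 2 ^ k' < X * 2 ^ k + X * 2 ^ l' + 2 * N1) : k = l := by
  have h3 : ((X : ℤ) * (((2 : ℤ) ^ k - 2 ^ k') - (2 ^ l - 2 ^ l'))) < X := by
    have : ((X : ℤ) * 2 ^ k + X * 2 ^ l') < X * 2 ^ l + X * 2 ^ k' + 2 * N1 := by exact_mod_cast h1
    have h4 : ((2 * N1 : ℕ) : ℤ) ≤ X := by exact_mod_cast hX
    push_cast at h4
    nlinarith
  have h4 : -(X : ℤ) < ((X : ℤ) * (((2 : ℤ) ^ k - 2 ^ k') - (2 ^ l - 2 ^ l'))) := by
    have : ((X : ℤ) * 2 ^ l + X * 2 ^ k') < X * 2 ^ k + X * 2 ^ l' + 2 * N1 := by exact_mod_cast h2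
    have h4 : ((2 * N1 : ℕ) : ℤ) ≤ X := by exact_mod_cast hX
    push_cast at h4
    nlinarith
  have h5 : (X : ℤ) ∣ ((X : ℤ) * (((2 : ℤ) ^ k - 2 ^ k') - (2 ^ l - 2 ^ l'))) := Dvd.intro _ rfl
  have h6 := Int.eq_zero_of_abs_lt_dvd h5 (abs_lt.2 ⟨h4, h3⟩)
  have hX0 : (X : ℤ) ≠ 0 := by
    rintro h0
    rw [h0] at h3
    simp at h3
  have h7 : ((2 : ℤ) ^ k - 2 ^ k') - (2 ^ l - 2 ^ l') = 0 := by
    rcases mul_eq_zero.1 h6 with h | h
    · exact absurd h hX0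
    · exact h
  have h8 := Crest.Agent.R320.G369.pow_diff (i := k) (j := k') (i' := l) (j' := l') hkk.symm hll.symm
    (by linarith)
  exact h8.1

end Crest.Agent.R320.FinA_172
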