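import Crest.Agent.R320.SemTop_727
import Crest.Agent.R320.Sc2n_937

/-! Row 320: 937's two schemes satisfy the completeness clause of 727's semantic top (helper177). -/

set_option autoImplicit false

namespace Crest.Agent.R320.FinA_177

open Crest.Agent.R320.Sc2n_937 Crest.Agent.R320.SemTop_727 Crest.RegLang
  Crest.Agent.R320.Hk_851 Crest.Agent.R320.Blk467

universe u v

variable {α : Type u} {V : Type v}

def sch (g : Geo α) (pre : List α → V → V) (post : V → List α → V)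
    (lam : List α → Option V) (lam2 : ℕ → List α → Option V) (K : ℕ) (c : ℕ → ℕ) : Sch α V where
  XX := {X | g.XX X}
  T := g.T pre post
  L1 := fun v => {P | g.LP1 pre lam v P}
  L2 := fun v => {P | Geo.LP2 K c lam2 v P}

section

variable {g : Geo α} {pre : List α → V → V} {post : V → List α → V}
  {lam rho : List α → Option V} {lam2 rho2 : ℕ → List α → Option V} {K : ℕ} {c : ℕ → ℕ}
  {BadT : ℕ → Prop} {C0 : ℕ}

theorem bad_sub
    (hlen : ∀ P v, lam P = some v → P.length ≤ g.N1)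
    (hex : ∀ P Q u b, lam P = some u → rho Q = some b → b = post u (P ++ Q))
    (hc1 : ∀ Y : List α, g.q0 + g.N1 ≤ Y.length → ¬ BadT Y.length → ∀ u : V, ∃ P Q,
      Y = P ++ Q ∧ lam P = some u ∧ (rho Q).isSome)
    {X : List α} (hX : X ∈ (sch g pre post lam lam2 K c).Bad) : g.BadX BadT X := by
  obtain ⟨h1, h2⟩ := hX
  have h1' : g.XX X := h1
  by_contra hb
  have hE : ¬ g.E X := fun h => hb (Or.inl h)
  have hT : ¬ BadT (X.length - g.p0) := fun h => hb (Or.inr h)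
  apply h2
  refine ⟨h1, fun x => ?_⟩
  have hz := g.hz
  have hXz := h1'.1
  have hl : (X.drop g.p0).length = X.length - g.p0 := List.length_drop
  obtain ⟨P, Q, b, e, hP, hQ⟩ := g.complete1 pre hlen h1' hE
    (hc1 (X.drop g.p0) (by rw [hl]; omega) (by rw [hl]; exact hT)) x
  have hs := g.sound1 pre post hlen hex hP hQ
  refine ⟨P, hP, Q, ?_, e.symm⟩
  intro x' P' hP'
  have hs' := g.sound1 pre post hlen hex hP' hQ
  refine ⟨hs'.1, ?_⟩
  show g.T pre post x' (P' ++ Q) = g.T pre post x X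
  rw [hs'.2, e, hs.2]

theorem hC2
    (hlen : ∀ P v, lam P = some v → P.length ≤ g.N1)
    (hex : ∀ P Q u b, lam P = some u → rho Q = some b → b = post u (P ++ Q))
    (hc1 : ∀ Y : List α, g.q0 + g.N1 ≤ Y.length → ¬ BadT Y.length → ∀ u : V, ∃ P Q,
      Y = P ++ Q ∧ lam P = some u ∧ (rho Q).isSome)
    (hc : ∀ k, k < K → c k ≤ g.p0)
    (hex2 : ∀ k, k < K → ∀ P Q v u, P.length = c k → Q.length = g.p0 - c k →
      lam2 k P = some v → rho2 k Q = some u → u = pre (P ++ Q) v)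
    (hgap : ∀ P Q : List α, g.Wo P → g.Wo (P ++ Q) → Q ≠ [] → 2 * g.p0 + 2 * g.N1 < Q.length)
    (hsp : ∀ k k' l l', k < K → k' < K → l < K → l' < K → k' ≠ k → l' ≠ l →
      c k + c l' < c l + c k' + 2 * g.N1 → c l + c k' < c k + c l' + 2 * g.N1 → k = l)
    (hthin : ∀ τ, g.z ≤ τ + g.p0 → ∀ J : Finset ℕ, (∀ k ∈ J, k < K ∧
      ∃ k', k' < K ∧ k' ≠ k ∧ BadT (τ + c k' - c k - g.p0)) → J.card ≤ C0)
    (hI : ∀ (X : List α) (v : V), g.p0 ≤ X.length →
      ∃ I : Finset ℕ, 2 * C0 + 2 ≤ I.card ∧ ∀ k ∈ I, k < K ∧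
        lam2 k (X.take (c k)) = some v ∧ (rho2 k ((X.take g.p0).drop (c k))).isSome) :
    ∀ X1 ∈ (sch g pre post lam lam2 K c).Bad, ∀ X2 ∈ (sch g pre post lam lam2 K c).Bad, ∀ x,
      ∃ P ∈ (sch g pre post lam lam2 K c).L2 x, ∃ Q ∈ (sch g pre post lam lam2 K c).R2
        ((sch g pre post lam lam2 K c).T ((sch g pre post lam lam2 K c).T x X1) X2),
      P ++ Q = X1 ++ X2 := by
  intro X1 hX1 X2 hX2 x
  have hz := g.hz
  have h1 : g.XX X1 := hX1.1
  have h2 : g.XX X2 := hX2.1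
  have hb1 := bad_sub hlen hex hc1 hX1
  obtain ⟨P, Q, b, e, hP, hQ⟩ := g.complete2 pre post hc hgap hsp hthin h1 h2 x
    (hI X1 x (by have := h1.1; omega))
  refine ⟨P, hP, Q, ?_, e⟩
  obtain ⟨X2', h2', e2, hT⟩ := g.sound2 pre post hc hex2 h1 hb1 hP hQ (R := []) (R' := X2)
    (by rw [List.append_nil]; exact e)
  have he2 : X2' = X2 := List.append_cancel_left (e2.symm.trans e)
  subst he2
  have hT' : (sch g pre post lam lam2 K c).T ((sch g pre post lam lam2 K c).T x X1) X2' = b := hT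
  rw [hT']
  clear hT hT' hP e
  intro x' P' hP'
  obtain ⟨k', hk', hPl, hl⟩ := hP'
  obtain ⟨k0, hk0, l0, hend, hgood, hX2, u, hr, hb⟩ := id hQ
  have hcend : ∃ l, g.CEnd Q (c k') l := by
    by_cases h : k' = k0
    · subst h
      exact ⟨l0, hend⟩
    · obtain ⟨l, hl, _⟩ := hgood k' hk' h
      exact ⟨l, hl⟩
  obtain ⟨l, hl'⟩ := hcend
  have hXX : g.XX (P' ++ Q.take l) :=
    g.xx_of_cend (by rw [hPl]; exact hc k' hk') (by rw [hPl]; exact hl')
  have hpre : P' ++ Q.take l <+: P' ++ Q :=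
    ⟨Q.drop l, by rw [List.append_assoc, List.take_append_drop]⟩
  by_cases hG : P' ++ Q.take l ∈ (sch g pre post lam lam2 K c).Good
  · exact Or.inr (Or.inl ⟨_, hG, hpre⟩)
  · have hB : P' ++ Q.take l ∈ (sch g pre post lam lam2 K c).Bad := ⟨hXX, hG⟩
    obtain ⟨Y2, hY2, e3, hT3⟩ := g.sound2 pre post hc hex2 hXX (bad_sub hlen hex hc1 hB)
      (v := x') (P := P') (Q := Q) (b := b) ⟨k', hk', hPl, hl⟩ hQ (R := []) (R' := Q.drop l)
      (by rw [List.append_nil, List.append_assoc, List.take_append_drop])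
    by_cases hG2 : Y2 ∈ (sch g pre post lam lam2 K c).Good
    · refine Or.inr (Or.inr ⟨_, hB, Y2, hG2, ?_⟩)
      rw [e3]
    · exact Or.inl ⟨_, hB, Y2, ⟨hY2, hG2⟩, e3, hT3⟩

end

end Crest.Agent.R320.FinA_177
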