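import Crest.Agent.R320.P4_933
import Mathlib

/-! Row 320: regularity from bounded-prefix / product / length data (helper188). -/

set_option autoImplicit false

namespace Crest.Agent.R320.FinA_188

open Crest.Agent.R320.P4_933

universe u
variable {α : Type u}

theorem reg_drop [Finite α] {S : Type*} [Monoid S] [Finite S] (φ : α → S) (A M0 : ℕ)
    (hM : 0 < M0) (f : List α → Prop)
    (hf : ∀ u u' : List α, A ≤ u.length → A ≤ u'.length → u.take A = u'.take A →
      u.length % M0 = u'.length % M0 → ((u.drop A).map φ).prod = ((u'.drop A).map φ).prod →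
      f u → f u') :
    Language.IsRegular ({u | f u} : Language α) := by
  classical
  haveI : NeZero M0 := ⟨by omega⟩
  have hfin : Finite {l : List α // l.length ≤ A} := List.finite_length_le α A
  let σ := {l : List α // l.length ≤ A} × ZMod M0 × S
  haveI : Fintype σ := Fintype.ofFinite σ
  let st : List α → σ := fun u =>
    (⟨u.take A, by rw [List.length_take]; omega⟩, (u.length : ZMod M0), ((u.drop A).map φ).prod)
  let M : DFA α σ :=
    { step := fun q a =>
        (if h : q.1.1.length < A then ⟨q.1.1 ++ [a], by simp; omega⟩ else q.1,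
          q.2.1 + 1, if q.1.1.length < A then q.2.2 else q.2.2 * φ a)
      start := st []
      accept := {q | ∃ u, f u ∧ st u = q} }
  have hev : ∀ u, M.eval u = st u := by
    intro u
    induction u using List.reverseRecOn with
    | nil => rfl
    | append_singleton u a ih =>
      rw [DFA.eval_append_singleton, ih]
      refine Prod.ext ?_ (Prod.ext ?_ ?_)
      · apply Subtype.ext
        show (if h : (u.take A).length < A then (⟨u.take A ++ [a], by simp at h ⊢; omega⟩ :
          {l : List α // l.length ≤ A}) else ⟨u.take A, by rw [List.length_take]; omega⟩).1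
          = (u ++ [a]).take A
        rw [take_snoc]
        split_ifs <;> rfl
      · show (u.length : ZMod M0) + 1 = (((u ++ [a]).length : ℕ) : ZMod M0)
        simp
      · show (if (u.take A).length < A then ((u.drop A).map φ).prod
          else ((u.drop A).map φ).prod * φ a) = (((u ++ [a]).drop A).map φ).prod
        by_cases h : u.length < A
        · rw [if_pos (by rw [List.length_take]; omega), List.drop_of_length_le (by omega),
            List.drop_of_length_le (by simp; omega)]
        · rw [if_neg (by rw [List.length_take]; omega), List.drop_append_of_le_length (by omega)]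
          simp
  refine Language.isRegular_iff.2 ⟨σ, inferInstance, M, ?_⟩
  ext u
  rw [DFA.mem_accepts, hev]
  constructor
  · rintro ⟨u', h1, h2⟩
    have e1 : u'.take A = u.take A := congrArg (fun q : σ => q.1.1) h2
    have e2 : (u'.length : ZMod M0) = (u.length : ZMod M0) := congrArg (fun q : σ => q.2.1) h2
    have e3 : ((u'.drop A).map φ).prod = ((u.drop A).map φ).prod := congrArg (fun q : σ => q.2.2) h2
    have e2' : u'.length % M0 = u.length % M0 := (ZMod.natCast_eq_natCast_iff' _ _ _).1 e2
    have e4 := congrArg List.length e1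
    rw [List.length_take, List.length_take] at e4
    by_cases h : u.length < A
    · rw [List.take_of_length_le (by omega), List.take_of_length_le (by omega)] at e1
      rw [← e1]; exact h1
    · exact hf u' u (by omega) (by omega) e1 e2' e3 h1
  · intro h
    exact ⟨u, h, rfl⟩

theorem two_pow_sidon {a b c d : ℕ} (h : 2 ^ a + 2 ^ b = 2 ^ c + 2 ^ d) : a = c ∨ a = d := by
  by_contra hne
  push Not at hne
  obtain ⟨h1, h2⟩ := hne
  have key : ∀ {x y z w : ℕ}, (2:ℕ) ^ x + 2 ^ y = 2 ^ z + 2 ^ w → x ≠ z → x ≠ w → x ≤ y → z ≤ w →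
      False := by
    intro x y z w h h1 h2 hxy hzw
    rcases lt_trichotomy x z with h3 | h3 | h3
    · -- x < z ≤ w
      have e1 : (2:ℕ) ^ z = 2 ^ x * 2 ^ (z - x) := by rw [← pow_add]; congr 1; omega
      have e2 : (2:ℕ) ^ w = 2 ^ x * 2 ^ (w - x) := by rw [← pow_add]; congr 1; omega
      have e3 : (2:ℕ) ^ y = 2 ^ x * 2 ^ (y - x) := by rw [← pow_add]; congr 1; omega
      rw [e1, e2, e3] at h
      have h4 : 1 + 2 ^ (y - x) = 2 ^ (z - x) + 2 ^ (w - x) := by
        have hp : 0 < (2:ℕ) ^ x := by positivity
        have : 2 ^ x * (1 + 2 ^ (y - x)) = 2 ^ x * (2 ^ (z - x) + 2 ^ (w - x)) := by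
          rw [Nat.mul_add, Nat.mul_add, Nat.mul_one]; exact h
        exact Nat.eq_of_mul_eq_mul_left hp this
      obtain ⟨i, hi⟩ : ∃ i, z - x = i + 1 := ⟨z - x - 1, by omega⟩
      obtain ⟨j, hj⟩ : ∃ j, w - x = j + 1 := ⟨w - x - 1, by omega⟩
      rw [hi, hj, pow_succ, pow_succ] at h4
      rcases Nat.eq_zero_or_pos (y - x) with h5 | h5
      · rw [h5] at h4
        have := Nat.one_le_two_pow (n := i)
        have := Nat.one_le_two_pow (n := j)
        omega
      · obtain ⟨l, hl⟩ : ∃ l, y - x = l + 1 := ⟨y - x - 1, by omega⟩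
        rw [hl, pow_succ] at h4
        omega
    · exact h1 h3
    · -- z < x ≤ y
      have e1 : (2:ℕ) ^ x = 2 ^ z * 2 ^ (x - z) := by rw [← pow_add]; congr 1; omega
      have e2 : (2:ℕ) ^ w = 2 ^ z * 2 ^ (w - z) := by rw [← pow_add]; congr 1; omega
      have e3 : (2:ℕ) ^ y = 2 ^ z * 2 ^ (y - z) := by rw [← pow_add]; congr 1; omega
      rw [e1, e2, e3] at h
      have h4 : 2 ^ (x - z) + 2 ^ (y - z) = 1 + 2 ^ (w - z) := by
        have hp : 0 < (2:ℕ) ^ z := by positivity
        have : 2 ^ z * (2 ^ (x - z) + 2 ^ (y - z)) = 2 ^ z * (1 + 2 ^ (w - z)) := by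
          rw [Nat.mul_add, Nat.mul_add, Nat.mul_one]; exact h
        exact Nat.eq_of_mul_eq_mul_left hp this
      obtain ⟨i, hi⟩ : ∃ i, x - z = i + 1 := ⟨x - z - 1, by omega⟩
      obtain ⟨j, hj⟩ : ∃ j, y - z = j + 1 := ⟨y - z - 1, by omega⟩
      rw [hi, hj, pow_succ, pow_succ] at h4
      rcases Nat.eq_zero_or_pos (w - z) with h5 | h5
      · rw [h5] at h4
        have := Nat.one_le_two_pow (n := i)
        have := Nat.one_le_two_pow (n := j)
        omega
      · obtain ⟨l, hl⟩ : ∃ l, w - z = l + 1 := ⟨w - z - 1, by omega⟩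
        rw [hl, pow_succ] at h4
        omega
  rcases Nat.le_total a b with hab | hab <;> rcases Nat.le_total c d with hcd | hcd
  · exact key h h1 h2 hab hcd
  · exact key (by rw [h, Nat.add_comm]) h2 h1 hab hcd
  · -- b ≤ a
    have hb1 : b ≠ c := by
      intro e
      apply h2
      rw [e] at h
      exact Nat.pow_right_injective (le_refl 2) (by omega : (2:ℕ) ^ a = 2 ^ d)
    have hb2 : b ≠ d := by
      intro e
      apply h1
      rw [e] at h
      exact Nat.pow_right_injective (le_refl 2) (by omega : (2:ℕ) ^ a = 2 ^ c)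
    exact key (by rw [Nat.add_comm]; exact h) hb1 hb2 hab hcd
  · have hb1 : b ≠ c := by
      intro e
      apply h2
      rw [e] at h
      exact Nat.pow_right_injective (le_refl 2) (by omega : (2:ℕ) ^ a = 2 ^ d)
    have hb2 : b ≠ d := by
      intro e
      apply h1
      rw [e] at h
      exact Nat.pow_right_injective (le_refl 2) (by omega : (2:ℕ) ^ a = 2 ^ c)
    exact key (by rw [Nat.add_comm, h, Nat.add_comm]) hb2 hb1 hab hcd

end Crest.Agent.R320.FinA_188
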