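import Crest.Agent.R320.Grid_899
import Crest.Agent.R320.Thin_963
import Crest.Agent.R320.Bridge_975

/-! Row 320, join (helper22), part A: gadget 1 with finite-state noise, thin ruler. -/

set_option autoImplicit false

namespace Crest.Agent.R320.FinA_22

open Crest.Agent.R320.Grid_899

/-- gadget of scheme 1 with a finite-state noise -/
theorem gadget {S V : Type} [Monoid S] [AddCommGroup V] (act : V → S → V)
    {α : Type} (phi : List α → S) (hphi : ∀ u v, phi (u ++ v) = phi u * phi v)
    (N1 N2 M0 : ℕ) (lam rho : List α → Option V) (nu : List α → V)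
    (h1 : ∀ P v, lam P = some v → P.length < N1 ∧ P ≠ [])
    (h2 : ∀ Q b, rho Q = some b → N2 ≤ Q.length)
    (h3 : ∀ P Q v b, lam P = some v → rho Q = some b → b = act v (phi (P ++ Q)) + nu (P ++ Q))
    (h5 : ∀ Q Q' : List α, N2 ≤ Q.length → N2 ≤ Q'.length → Q.take N2 = Q'.take N2 →
      phi (Q.drop N2) = phi (Q'.drop N2) → Q.length ≡ Q'.length [MOD M0] → rho Q = rho Q') :
    ∃ nu' : List α → V,
      (∀ P Q v b, lam P = some v → rho Q = some b → b = act v (phi (P ++ Q)) + nu' (P ++ Q)) ∧
      (∀ u u' : List α, N1 + N2 ≤ u.length → N1 + N2 ≤ u'.length →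
        u.take (N1 + N2) = u'.take (N1 + N2) →
        phi (u.drop (N1 + N2)) = phi (u'.drop (N1 + N2)) → u.length ≡ u'.length [MOD M0] →
        nu' u = nu' u') := by
  classical
  let nu' : List α → V := fun u =>
    if ∃ P Q v b, P ++ Q = u ∧ lam P = some v ∧ rho Q = some b then nu u else 0
  have hnu : ∀ u, (∃ P Q v b, P ++ Q = u ∧ lam P = some v ∧ rho Q = some b) → nu' u = nu u :=
    fun u h => if_pos h
  have hnu0 : ∀ u, ¬ (∃ P Q v b, P ++ Q = u ∧ lam P = some v ∧ rho Q = some b) → nu' u = 0 :=
    fun u h => if_neg h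
  refine ⟨nu', ?_, ?_⟩
  · intro P Q v b hl hr
    rw [hnu _ ⟨P, Q, v, b, rfl, hl, hr⟩]
    exact h3 P Q v b hl hr
  · -- a legal pair of `u` gives a legal pair of `u'`
    have key : ∀ u u' : List α, N1 + N2 ≤ u.length → N1 + N2 ≤ u'.length →
        u.take (N1 + N2) = u'.take (N1 + N2) →
        phi (u.drop (N1 + N2)) = phi (u'.drop (N1 + N2)) → u.length ≡ u'.length [MOD M0] →
        phi u = phi u' ∧ ∀ P Q v b, P ++ Q = u → lam P = some v → rho Q = some b →
          ∃ Q', P ++ Q' = u' ∧ rho Q' = some b := by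
      intro u u' hu hu' ht hd hm
      refine ⟨?_, ?_⟩
      · rw [← List.take_append_drop (N1 + N2) u, ← List.take_append_drop (N1 + N2) u', hphi, hphi,
          ht, hd]
      · intro P Q v b hPQ hl hr
        have hP := (h1 P v hl).1
        have hQ := h2 Q b hr
        have eP : P = u.take P.length := by rw [← hPQ]; simp
        have eQ : Q = u.drop P.length := by rw [← hPQ]; simp
        have tk : ∀ i ≤ N1 + N2, u.take i = u'.take i := by
          intro i hi
          have := congrArg (List.take i) ht
          rwa [List.take_take, List.take_take, Nat.min_eq_left hi] at this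
        have hQ2 : (u.drop P.length).take N2 = (u'.drop P.length).take N2 := by
          have e1 := congrArg (List.drop P.length) (tk (P.length + N2) (by omega))
          rw [List.drop_take, List.drop_take] at e1
          simpa using e1
        have hQ3 : phi ((u.drop P.length).drop N2) = phi ((u'.drop P.length).drop N2) := by
          rw [List.drop_drop, List.drop_drop]
          have e2 : ∀ w : List α, w.drop (P.length + N2) =
              (w.take (N1 + N2)).drop (P.length + N2) ++ w.drop (N1 + N2) := by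
            intro w
            conv_lhs => rw [← List.take_append_drop (N1 + N2) w]
            by_cases hw : N1 + N2 ≤ w.length
            · rw [List.drop_append_of_le_length]
              rw [List.length_take]; omega
            · have h0 : w.drop (N1 + N2) = [] := List.drop_of_length_le (by omega)
              rw [h0]; simp
          rw [e2 u, e2 u', hphi, hphi, ht, hd]
        refine ⟨u'.drop P.length, ?_, ?_⟩
        · rw [eP, tk P.length (by omega)]
          have e3 : (u'.take P.length).length = P.length := by rw [List.length_take]; omega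
          rw [e3]
          exact List.take_append_drop _ _
        · rw [← hr, eQ]
          refine (h5 _ _ ?_ ?_ hQ2 hQ3 ?_).symm
          · rw [List.length_drop]; omega
          · rw [List.length_drop]; omega
          · rw [List.length_drop, List.length_drop]
            have e4 : u.length = P.length + (u.length - P.length) := by omega
            have e5 : u'.length = P.length + (u'.length - P.length) := by omega
            rw [e4, e5] at hm
            exact Nat.ModEq.add_left_cancel' _ hm
    intro u u' hu hu' ht hd hm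
    obtain ⟨hφ, k1⟩ := key u u' hu hu' ht hd hm
    obtain ⟨-, k2⟩ := key u' u hu' hu ht.symm hd.symm hm.symm
    by_cases h : ∃ P Q v b, P ++ Q = u ∧ lam P = some v ∧ rho Q = some b
    · obtain ⟨P, Q, v, b, e, hl, hr⟩ := h
      obtain ⟨Q', e', hr'⟩ := k1 P Q v b e hl hr
      rw [hnu u ⟨P, Q, v, b, e, hl, hr⟩, hnu u' ⟨P, Q', v, b, e', hl, hr'⟩]
      have a1 := h3 P Q v b hl hr
      have a2 := h3 P Q' v b hl hr'
      rw [e] at a1
      rw [e', ← hφ] at a2
      exact add_left_cancel (a1.symm.trans a2)
    · have h' : ¬ ∃ P Q v b, P ++ Q = u' ∧ lam P = some v ∧ rho Q = some b := by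
        rintro ⟨P, Q, v, b, e, hl, hr⟩
        obtain ⟨Q', e', hr'⟩ := k2 P Q v b e hl hr
        exact h ⟨P, Q', v, b, e', hl, hr'⟩
      rw [hnu0 u h, hnu0 u' h']

/-- primes -/
theorem exists_primes (k B : ℕ) : ∃ q : Fin k → ℕ, Function.Injective q ∧
    ∀ j, (q j).Prime ∧ B ≤ q j ∧ 3 ≤ q j := by
  have hinf : {p : ℕ | p.Prime ∧ B + 3 ≤ p}.Infinite := by
    rw [Set.infinite_iff_exists_gt]
    intro a
    obtain ⟨p, hp, hpp⟩ := Nat.exists_infinite_primes (a + B + 4)
    exact ⟨p, ⟨hpp, by omega⟩, by omega⟩
  let e := hinf.natEmbedding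
  refine ⟨fun j => (e j : ℕ), ?_, ?_⟩
  · intro i j h
    have := e.injective (Subtype.ext h)
    exact Fin.ext this
  · intro j
    have h := (e j).2
    have h1 : (e j : ℕ).Prime := h.1
    have h2 : B + 3 ≤ (e j : ℕ) := h.2
    show (e j : ℕ).Prime ∧ B ≤ (e j : ℕ) ∧ 3 ≤ (e j : ℕ)
    exact ⟨h1, by omega, by omega⟩

/-- the thin ruler for the grid -/
theorem ruler (K m k : ℕ) (q : Fin k → ℕ) (hinj : Function.Injective q)
    (hq : ∀ j, (q j).Prime ∧ 2 ^ (K + 1) ≤ q j ∧ 3 ≤ q j) (κ : ℕ)
    (hκ : K + 5 + ∏ j, q j ≤ κ) (N0 : ℕ) :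
    ∃ X : ℕ, N0 ≤ X ∧ 0 < X ∧ ∀ T : ℤ, ∀ J : Finset ℕ, (∀ a ∈ J, a < K ∧ ∃ b, b < K ∧ b ≠ a ∧
      Thin963.BadT (Finset.univ.image q) m (fun i => (G κ i : ℤ))
        (fun i => ((∏ j, q j) * G κ i : ℕ)) (fun i => (Am (∏ j, q j) κ i : ℤ))
        (T + X * 2 ^ b - X * 2 ^ a)) → J.card ≤ k + m := by
  classical
  set Pq := ∏ j, q j with hPq
  have hPpos : 0 < Pq := Finset.prod_pos fun j _ => (hq j).1.pos
  obtain ⟨X, hX0, hX1, hX2⟩ := Thin963.thin K m (Finset.univ.image q) (fun i => (G κ i : ℤ))
    (fun i => ((Pq * G κ i : ℕ) : ℤ)) (fun i => (Am Pq κ i : ℤ))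
    (by
      intro p hp
      obtain ⟨j, -, rfl⟩ := Finset.mem_image.1 hp
      exact ⟨(hq j).1, (hq j).2.1⟩)
    (by
      intro p hp
      obtain ⟨j, -, rfl⟩ := Finset.mem_image.1 hp
      have h1 : Nat.Coprime (q j) (G κ m) := by
        unfold G
        refine Nat.Coprime.pow_right _ ?_
        rw [Nat.coprime_primes (hq j).1 Nat.prime_two]
        have := (hq j).2.2
        omega
      exact Nat.isCoprime_iff_coprime.2 h1)
    (by exact_mod_cast G_pos m)
    (by intro i j hij; exact_mod_cast G_dvd hij)
    (by intro i; exact_mod_cast Nat.mul_pos hPpos (G_pos i))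
    (by
      intro i
      simp only [Nat.cast_mul]
      exact Dvd.intro_left _ rfl)
    (by
      intro i _
      have hs : ∀ n, ∑ j ∈ Finset.range (n + 1), G κ j ≤ 2 * G κ n := by
        intro n
        induction n with
        | zero => simp [G]
        | succ n ih =>
          rw [Finset.sum_range_succ]
          have : 2 * G κ n ≤ G κ (n + 1) := by
            unfold G
            rw [← pow_succ']
            refine Nat.pow_le_pow_right (by norm_num) ?_
            have : κ * (n + 1) = κ * n + κ := by ring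
            omega
          omega
      have h1 : 2 ^ (K + 4) * ∑ j ∈ Finset.range (i + 1), Pq * G κ j ≤ G κ (i + 1) := by
        rw [← Finset.mul_sum]
        have h2 := hs i
        have h3 : 2 ^ (K + 4) * (Pq * (2 * G κ i)) ≤ G κ (i + 1) := by
          have h4 : Pq ≤ 2 ^ Pq := Nat.lt_two_pow_self.le
          have h5 : G κ (i + 1) = 2 ^ κ * G κ i := by
            unfold G
            rw [← pow_add]
            congr 1
            ring
          rw [h5]
          have h6 : 2 ^ (K + 5 + Pq) ≤ 2 ^ κ := Nat.pow_le_pow_right (by norm_num) hκ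
          have h7 : 2 ^ (K + 4) * (Pq * (2 * G κ i)) = (2 ^ (K + 5) * Pq) * G κ i := by
            rw [pow_succ 2 (K + 4)]; ring
          rw [h7]
          refine Nat.mul_le_mul_right _ (le_trans ?_ h6)
          rw [pow_add 2 (K + 5) Pq]
          exact Nat.mul_le_mul_left _ h4
        exact le_trans (Nat.mul_le_mul_left _ (Nat.mul_le_mul_left _ h2)) h3
      exact_mod_cast h1) (N0 : ℤ)
  refine ⟨X.toNat, by omega, by omega, ?_⟩
  intro T J hJ
  have hXc : ((X.toNat : ℕ) : ℤ) = X := Int.toNat_of_nonneg hX1.le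
  rw [hXc] at hJ
  have hcard : (Finset.univ.image q).card = k := by
    rw [Finset.card_image_of_injective _ hinj]; simp
  have h := hX2 T
  rw [hcard] at h
  refine le_trans ?_ h
  choose! b hb using fun a ha => (hJ a ha).2
  refine Finset.card_le_card_of_injOn (fun a => (b a, a)) ?_ ?_
  · intro a ha
    have ha' := hb a ha
    simp only [Finset.coe_filter, Finset.mem_product, Finset.mem_range, Set.mem_setOf_eq]
    exact ⟨⟨ha'.1, (hJ a ha).1⟩, ha'.2.1, ha'.2.2⟩
  · intro a _ a' _ h
    simpa using (Prod.ext_iff.1 h).2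

end Crest.Agent.R320.FinA_22
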