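import Crest.Agent.R320.Top5_120
import Crest.Agent.R320.Sc2n_937
import Crest.Agent.R320.P4_933
import Mathlib.Computability.MyhillNerode

/-! Row 320: the join of Top5_120, Sc2n_937, P4_933 (helper239). -/

set_option autoImplicit false

namespace Crest.Agent.R320.FinA_239

open Crest.Agent.R320.Hk_851

/-- determined by a bounded prefix, the length modulo `M` and the value of the rest -/
def Det {α S β : Type*} [Monoid S] (φ : α → S) (A M : ℕ) (F : List α → β) : Prop :=
  ∀ u u' : List α, A ≤ u.length → A ≤ u'.length → u.take A = u'.take A →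
    u.length % M = u'.length % M →
    ((u.drop A).map φ).prod = ((u'.drop A).map φ).prod → F u = F u'

theorem drop_split {α : Type*} {A A' : ℕ} (h : A ≤ A') (u : List α) :
    u.drop A = (u.take A').drop A ++ u.drop A' := by
  have e1 : (u.take A').drop A = (u.drop A).take (A' - A) := by rw [List.drop_take]
  have e2 : u.drop A' = (u.drop A).drop (A' - A) := by
    rw [List.drop_drop]; congr 1; omega
  rw [e1, e2, List.take_append_drop]

theorem reg_class {α : Type*} [Finite α] {S : Type*} [Monoid S] [Finite S] (φ : α → S)
    (A M : ℕ) (hM : 0 < M) (f : List α → Prop) (hf : Det φ A M f) :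
    Language.IsRegular ({u | f u} : Language α) := by
  classical
  set L : Language α := {u | f u} with hL
  haveI : Finite {l : List α // l.length ≤ A} := (List.finite_length_le α A).to_subtype
  let σ : Type _ := {l : List α // l.length ≤ A} × Fin M × S
  let inv : List α → σ := fun u => (⟨u.take A, by simp⟩, ⟨u.length % M, Nat.mod_lt _ hM⟩,
    ((u.drop A).map φ).prod)
  have key : ∀ u u', inv u = inv u' → L.leftQuotient u = L.leftQuotient u' := by
    intro u u' h
    have h1 : u.take A = u'.take A := congrArg (fun p : σ => p.1.1) h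
    have h2 : u.length % M = u'.length % M := congrArg (fun p : σ => (p.2.1 : ℕ)) h
    have h3 : ((u.drop A).map φ).prod = ((u'.drop A).map φ).prod :=
      congrArg (fun p : σ => p.2.2) h
    rcases Nat.lt_or_ge u.length A with hu | hu
    · have e1 : u.take A = u := List.take_of_length_le hu.le
      have hl : (u'.take A).length < A := by rw [← h1, e1]; exact hu
      have hu' : u'.length < A := by
        rw [List.length_take] at hl; omega
      have e2 : u'.take A = u' := List.take_of_length_le hu'.le
      rw [e1, e2] at h1
      rw [h1]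
    · have hu' : A ≤ u'.length := by
        have : (u'.take A).length = A := by rw [← h1, List.length_take]; omega
        rw [List.length_take] at this; omega
      ext v
      show f (u ++ v) ↔ f (u' ++ v)
      have := hf (u ++ v) (u' ++ v) (by rw [List.length_append]; omega)
        (by rw [List.length_append]; omega)
        (by rw [List.take_append_of_le_length hu, List.take_append_of_le_length hu', h1])
        (by rw [List.length_append, List.length_append, Nat.add_mod, h2, ← Nat.add_mod])
        (by rw [List.drop_append_of_le_length hu, List.drop_append_of_le_length hu',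
          List.map_append, List.prod_append, h3, List.map_append, List.prod_append])
      rw [this]
  apply Language.IsRegular.of_finite_range_leftQuotient
  refine (Set.finite_range (fun p : σ => if h : ∃ u, inv u = p then L.leftQuotient h.choose
    else L)).subset ?_
  rintro _ ⟨u, rfl⟩
  refine ⟨inv u, ?_⟩
  have h : ∃ u', inv u' = inv u := ⟨u, rfl⟩
  show (if h : ∃ u', inv u' = inv u then L.leftQuotient h.choose else L) = _
  rw [dif_pos h]
  exact key _ _ h.choose_spec

theorem Det.mono {α S β : Type*} [Monoid S] {φ : α → S} {A A' M : ℕ} {F : List α → β}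
    (hF : Det φ A M F) (h : A ≤ A') : Det φ A' M F := by
  intro u u' h1 h2 h3 h4 h5
  refine hF u u' (by omega) (by omega) ?_ h4 ?_
  · have := congrArg (fun l => l.take A) h3
    simpa [List.take_take, Nat.min_eq_left h] using this
  · rw [drop_split h u, drop_split h u', List.map_append, List.map_append, List.prod_append,
      List.prod_append, h3, h5]

theorem sub_mod_congr {a b p M : ℕ} (ha : p ≤ a) (hb : p ≤ b) (h : a % M = b % M) :
    (a - p) % M = (b - p) % M := by
  have h1 : (a - p) + p ≡ (b - p) + p [MOD M] := by
    rw [Nat.sub_add_cancel ha, Nat.sub_add_cancel hb]; exact h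
  exact Nat.ModEq.add_right_cancel' p h1

/-- values of a determined function on the text behind `p` letters -/
theorem Det.drop {α S β : Type*} [Monoid S] {φ : α → S} {A M : ℕ} {F : List α → β}
    (hF : Det φ A M F) (p : ℕ) : Det φ (p + A) M (fun X => F (X.drop p)) := by
  intro u u' h1 h2 h3 h4 h5
  refine hF _ _ (by rw [List.length_drop]; omega) (by rw [List.length_drop]; omega) ?_ ?_ ?_
  · have := congrArg (fun l => l.drop p) h3
    simpa [List.drop_take] using this
  · rw [List.length_drop, List.length_drop]
    exact sub_mod_congr (by omega) (by omega) h4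
  · rw [List.drop_drop, List.drop_drop]; exact h5

theorem Det.of_take {α S β : Type*} [Monoid S] {φ : α → S} {M : ℕ} (p : ℕ)
    (F : List α → β) : Det φ p M (fun X => F (X.take p)) := by
  intro u u' _ _ h3 _ _
  show F (u.take p) = F (u'.take p)
  rw [h3]

theorem Det.prod {α S : Type*} [Monoid S] (φ : α → S) (A M : ℕ) :
    Det φ A M (fun X => (X.map φ).prod) := by
  intro u u' _ _ h3 _ h5
  show (u.map φ).prod = (u'.map φ).prod
  rw [← List.take_append_drop A u, ← List.take_append_drop A u', List.map_append,
    List.map_append, List.prod_append, List.prod_append, h3, h5]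

theorem Det.len {α S β : Type*} [Monoid S] (φ : α → S) (A M : ℕ) (F : ℕ → β)
    (hF : ∀ n n', A ≤ n → A ≤ n' → n % M = n' % M → F n = F n') :
    Det φ A M (fun X => F X.length) := by
  intro u u' h1 h2 _ h4 _
  exact hF _ _ h1 h2 h4

theorem Det.comp2 {α S β γ δ : Type*} [Monoid S] {φ : α → S} {A M : ℕ} {F : List α → β}
    {F' : List α → γ} (hF : Det φ A M F) (hF' : Det φ A M F') (f : β → γ → δ) :
    Det φ A M (fun X => f (F X) (F' X)) := by
  intro u u' h1 h2 h3 h4 h5
  show f (F u) (F' u) = f (F u') (F' u')
  rw [hF u u' h1 h2 h3 h4 h5, hF' u u' h1 h2 h3 h4 h5]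

open Classical in
/-- a finite-state noise from a sound gadget with finite-state `rho` -/
theorem det_noise {α S V : Type*} [Monoid S] [AddCommGroup V] (act : V → S → V) (φ : α → S)
    (lam rho : List α → Option V) (nu : List α → V) (N0 A1 M : ℕ)
    (hlam : ∀ P v, lam P = some v → P.length ≤ N0)
    (hrho : ∀ Q b, rho Q = some b → A1 ≤ Q.length)
    (hex : ∀ P Q v b, lam P = some v → rho Q = some b →
      b = act v ((P ++ Q).map φ).prod + nu (P ++ Q))
    (hdet : Det φ A1 M rho) :
    ∃ nu' : List α → V, (∀ P Q v b, lam P = some v → rho Q = some b →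
      b = act v ((P ++ Q).map φ).prod + nu' (P ++ Q)) ∧ Det φ (N0 + A1) M nu' := by
  let nu' : List α → V := fun u =>
    if ∃ P Q v b, u = P ++ Q ∧ lam P = some v ∧ rho Q = some b then nu u else 0
  refine ⟨nu', ?_, ?_⟩
  · intro P Q v b h1 h2
    have h : ∃ P' Q' v b, P ++ Q = P' ++ Q' ∧ lam P' = some v ∧ rho Q' = some b :=
      ⟨P, Q, v, b, rfl, h1, h2⟩
    have e : nu' (P ++ Q) = nu (P ++ Q) := if_pos h
    rw [e]; exact hex P Q v b h1 h2
  · have key : ∀ u u' : List α, N0 + A1 ≤ u.length → N0 + A1 ≤ u'.length →
        u.take (N0 + A1) = u'.take (N0 + A1) → u.length % M = u'.length % M →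
        ((u.drop (N0 + A1)).map φ).prod = ((u'.drop (N0 + A1)).map φ).prod →
        ∀ P Q v b, u = P ++ Q → lam P = some v → rho Q = some b →
        ∃ Q', u' = P ++ Q' ∧ rho Q' = some b := by
      intro u u' h1 h2 h3 h4 h5 P Q v b e hl hr
      have hP := hlam P v hl
      have hPu : P = u.take P.length := by rw [e]; simp
      have hQu : Q = u.drop P.length := by rw [e]; simp
      have hPu' : u'.take P.length = P := by
        rw [hPu]
        have := congrArg (fun l => l.take P.length) h3
        simp only [List.take_take] at this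
        rw [Nat.min_eq_left (by omega)] at this
        rw [List.length_take, Nat.min_eq_left (by omega)]
        exact this.symm
      refine ⟨u'.drop P.length, ?_, ?_⟩
      · conv_lhs => rw [← List.take_append_drop P.length u', hPu']
      · have hd := hdet.drop P.length
        have hd' := hd.mono (A' := N0 + A1) (by omega)
        have := hd' u u' h1 h2 h3 h4 h5
        have e2 : rho (u.drop P.length) = rho (u'.drop P.length) := this
        rw [← e2, ← hQu]; exact hr
    intro u u' h1 h2 h3 h4 h5
    show nu' u = nu' u'
    by_cases h : ∃ P Q v b, u = P ++ Q ∧ lam P = some v ∧ rho Q = some b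
    · obtain ⟨P, Q, v, b, e, hl, hr⟩ := h
      obtain ⟨Q', e', hr'⟩ := key u u' h1 h2 h3 h4 h5 P Q v b e hl hr
      have a1 : nu' u = nu u := if_pos ⟨P, Q, v, b, e, hl, hr⟩
      have a2 : nu' u' = nu u' := if_pos ⟨P, Q', v, b, e', hl, hr'⟩
      rw [a1, a2]
      have b1 := hex P Q v b hl hr
      have b2 := hex P Q' v b hl hr'
      rw [← e] at b1
      rw [← e'] at b2
      have hp : (u.map φ).prod = (u'.map φ).prod :=
        Det.prod φ (N0 + A1) M u u' h1 h2 h3 h4 h5
      rw [hp] at b1
      exact add_left_cancel (b1.symm.trans b2)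
    · have h' : ¬ ∃ P Q v b, u' = P ++ Q ∧ lam P = some v ∧ rho Q = some b := by
        rintro ⟨P, Q, v, b, e, hl, hr⟩
        obtain ⟨Q', e', hr'⟩ := key u' u h2 h1 h3.symm h4.symm h5.symm P Q v b e hl hr
        exact h ⟨P, Q', v, b, e', hl, hr'⟩
      have a1 : nu' u = 0 := if_neg h
      have a2 : nu' u' = 0 := if_neg h'
      rw [a1, a2]

end Crest.Agent.R320.FinA_239
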