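import Crest.Agent.R320.Top5_120
import Crest.Agent.R320.Sc2n_937

/-!
# Row 320: 120's top + 937's concrete side, joined (helper282)
-/

set_option autoImplicit false

open Crest.RegLang Crest.Agent.R320.Hk_851 Crest.Agent.R320.Blk467

namespace Crest.Agent.R320.FinA_282

variable {α S V : Type} [Finite α] [Monoid S] [Finite S] [AddCommGroup V] [Finite V]

open Crest.Agent.R320.Sc2n_937 in
/-- block prefix of a word which ends in a wall -/
theorem exists_block (g : Geo α) {w : List α} (hw : g.Wo w) (hl : g.z ≤ w.length) :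
    ∃ X, g.XX X ∧ X <+: w := by
  classical
  have hex : ∃ t, t ≤ w.length ∧ g.z ≤ t ∧ g.Wo (w.take t) :=
    ⟨w.length, le_rfl, hl, by rw [List.take_length]; exact hw⟩
  obtain ⟨h1, h2, h3⟩ := Nat.find_spec hex
  refine ⟨w.take (Nat.find hex), ⟨?_, h3, fun s hzs hs hws => ?_⟩, List.take_prefix _ _⟩
  · rw [List.length_take]; omega
  · rw [List.length_take] at hs
    have hs' : s < Nat.find hex := by omega
    rw [List.take_take, min_eq_left (by omega)] at hws
    exact Nat.find_min hex hs' ⟨by omega, hzs, hws⟩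

open Crest.Agent.R320.Sc2n_937 in
theorem partA (act : V → S → V)
    (hadd : ∀ a b s, act (a + b) s = act a s + act b s)
    (hone : ∀ v, act v 1 = v) (hmul : ∀ v s t, act v (s * t) = act (act v s) t)
    (hfaith : ∀ s t, (∀ v, act v s = act v t) → s = t)
    (f : α → S) (g : Geo α)
    (lam rho : List α → Option V) (nu1 : List α → V) (BadT : ℕ → Prop)
    (hlen : ∀ P v, lam P = some v → P.length ≤ g.N1)
    (hex : ∀ P Q v b, lam P = some v → rho Q = some b →
      b = act v (((P ++ Q).map f).prod) + nu1 (P ++ Q))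
    (hc1 : ∀ Y : List α, g.q0 + g.N1 ≤ Y.length → ¬ BadT Y.length → ∀ v, ∃ P Q,
      Y = P ++ Q ∧ lam P = some v ∧ (rho Q).isSome)
    (K C0 : ℕ) (c : ℕ → ℕ) (lam2 rho2 : ℕ → List α → Option V) (nu2 : List α → V)
    (hck : ∀ k, k < K → c k ≤ g.p0)
    (hex2 : ∀ k, k < K → ∀ P Q v b, P.length = c k → Q.length = g.p0 - c k →
      lam2 k P = some v → rho2 k Q = some b → b = act v ((P ++ Q).map f).prod + nu2 (P ++ Q))
    (hI : ∀ u : List α, u.length = g.p0 → ∀ v, ∃ I : Finset ℕ, 2 * C0 + 2 ≤ I.card ∧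
      ∀ k ∈ I, k < K ∧ lam2 k (u.take (c k)) = some v ∧ (rho2 k (u.drop (c k))).isSome)
    (hgap : ∀ P Q : List α, g.Wo P → g.Wo (P ++ Q) → Q ≠ [] → 2 * g.p0 + 2 * g.N1 < Q.length)
    (hsp : ∀ k k' l l', k < K → k' < K → l < K → l' < K → k' ≠ k → l' ≠ l →
      c k + c l' < c l + c k' + 2 * g.N1 → c l + c k' < c k + c l' + 2 * g.N1 → k = l)
    (hthin : ∀ τ, g.z ≤ τ + g.p0 → ∀ J : Finset ℕ, (∀ k ∈ J, k < K ∧
      ∃ k', k' < K ∧ k' ≠ k ∧ BadT (τ + c k' - c k - g.p0)) → J.card ≤ C0)
    (nu : List α → V)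
    (hnu : ∀ X, nu X = act (nu2 (X.take g.p0)) ((X.drop g.p0).map f).prod + nu1 (X.drop g.p0))
    (hCT : ∀ x y, HL 1 ({X | g.XX X ∧ act x (X.map f).prod + nu X = y} : Language α))
    (hBT : ∀ x y, HL 1 ({X | (g.XX X ∧ g.BadX BadT X) ∧
      act x (X.map f).prod + nu X = y} : Language α))
    (htail : ∀ s, HL 1 ({w | (∀ X, g.XX X → ¬ X <+: w) ∧ (w.map f).prod = s} : Language α))
    (s : S) : HL 3 ({w | (w.map f).prod = s} : Language α) := by
  classical
  set pre : List α → V → V := fun U v => act v (U.map f).prod + nu2 U with hpre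
  set post : V → List α → V := fun v Y => act v (Y.map f).prod + nu1 Y with hpost
  have hT : ∀ v X, g.T pre post v X = act v (X.map f).prod + nu X := by
    intro v X
    have e : (X.map f).prod = ((X.take g.p0).map f).prod * ((X.drop g.p0).map f).prod := by
      rw [← List.prod_append, ← List.map_append, List.take_append_drop]
    show act (act v ((X.take g.p0).map f).prod + nu2 (X.take g.p0)) ((X.drop g.p0).map f).prod +
      nu1 (X.drop g.p0) = _
    rw [hadd, ← hmul, ← e, hnu, add_assoc]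
  have hz := g.hz
  have hN := g.hN
  have hex' : ∀ P Q u b, lam P = some u → rho Q = some b → b = post u (P ++ Q) :=
    fun P Q u b h1 h2 => hex P Q u b h1 h2
  have hex2' : ∀ k, k < K → ∀ P Q v u, P.length = c k → Q.length = g.p0 - c k →
      lam2 k P = some v → rho2 k Q = some u → u = pre (P ++ Q) v :=
    fun k hk P Q v u h1 h2 h3 h4 => hex2 k hk P Q v u h1 h2 h3 h4
  refine Crest.Agent.R320.Top5_120.top5 act hadd hone hmul hfaith f nu
    {X | g.XX X} {X | g.XX X ∧ g.BadX BadT X} ⟨?_, ?_⟩ (fun X hX => hX.1)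
    (fun v => {P | g.LP1 pre lam v P}) (fun v => {P | Geo.LP2 K c lam2 v P}) ?_ ?_
    (fun x y => (hCT x y).congr fun w => Iff.rfl) (fun x y => (hBT x y).congr fun w => Iff.rfl)
    (fun s => (htail s).congr fun w => Iff.rfl) ?_ ?_ s
  · intro h
    have h1 := h.1
    simp only [List.length_nil] at h1
    omega
  · rintro X hX Y hY ⟨R, hR⟩
    refine g.prefix_code (R := R) (R' := []) hX hY ?_
    rw [List.append_nil]; exact hR
  · intro v
    refine (List.finite_length_le α (g.p0 + g.N1)).subset ?_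
    rintro P ⟨h1, h2⟩
    have := hlen _ _ h2
    rw [List.length_drop] at this
    show P.length ≤ _
    omega
  · intro v
    refine (List.finite_length_le α g.p0).subset ?_
    rintro P ⟨k, hk, h1, -⟩
    show P.length ≤ _
    rw [h1]; exact hck k hk
  · -- scheme 1
    intro X hX hXB v
    have hnb : ¬ g.BadX BadT X := fun h => hXB ⟨hX, h⟩
    have hE : ¬ g.E X := fun h => hnb (Or.inl h)
    have hBT' : ¬ BadT (X.length - g.p0) := fun h => hnb (Or.inr h)
    have hXz : g.z ≤ X.length := hX.1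
    have hbig : g.z + g.N1 ≤ X.length := by
      by_contra hlt
      apply hE
      refine ⟨X.length, le_rfl, ?_, by omega, by omega⟩
      rw [List.take_length]; exact hX.2.1
    obtain ⟨P, Q, b, hPQ, hP, hQ⟩ := g.complete1 pre (lam := lam) (rho := rho) hlen hX hE
      (fun u => hc1 _ (by rw [List.length_drop]; omega) (by rw [List.length_drop]; exact hBT') u) v
    have h0 := g.sound1 pre post hlen hex' hP hQ
    rw [← hPQ, hT] at h0
    refine ⟨P, Q, hPQ.symm, hP, fun x P' hP' => ?_⟩
    have h1 := g.sound1 pre post hlen hex' hP' hQ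
    rw [hT] at h1
    exact ⟨h1.1, by rw [h1.2, h0.2]⟩
  · -- scheme 2
    rintro X ⟨hX, hXb⟩ Y ⟨hY, hYb⟩ v
    have hXz : g.z ≤ X.length := hX.1
    have hYz : g.z ≤ Y.length := hY.1
    obtain ⟨P, Q, b, hPQ, hP, hQ⟩ := g.complete2 pre post (BadT := BadT) (K := K) (c := c)
      (lam2 := lam2) (rho2 := rho2) (C0 := C0) hck hgap hsp hthin hX hY v (by
        have hl : (X.take g.p0).length = g.p0 := by rw [List.length_take]; omega
        obtain ⟨I, h1, h2⟩ := hI (X.take g.p0) hl v
        refine ⟨I, h1, fun k hk => ?_⟩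
        obtain ⟨h3, h4, h5⟩ := h2 k hk
        have := hck k h3
        rw [List.take_take, min_eq_left this] at h4
        exact ⟨h3, h4, h5⟩)
    obtain ⟨X2, hX2, e2, hT2⟩ := g.sound2 pre post (BadT := BadT) (R := []) (R' := Y)
      hck hex2' hX hXb hP hQ (by rw [List.append_nil]; exact hPQ)
    have e3 : X2 = Y := List.append_cancel_left (e2.symm.trans hPQ)
    subst e3
    rw [hT, hT] at hT2
    refine ⟨P, Q, hPQ, hP, fun x P' hP' => ?_⟩
    -- the block prefix of P' ++ Q
    have hPl : P.length ≤ g.p0 := by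
      obtain ⟨k, hk, h1, -⟩ := hP
      rw [h1]; exact hck k hk
    have hQl : P.length + Q.length = X.length + X2.length := by
      have := congrArg List.length hPQ
      simpa using this
    have hq := g.hq
    have hWQ : g.Wo (P' ++ Q) := by
      rw [g.loc _ _ (by omega), ← g.loc P Q (by omega), hPQ, g.loc _ _ (by omega)]
      exact hX2.2.1
    obtain ⟨X', hX', R', hR'⟩ := exists_block g hWQ (by rw [List.length_append]; omega)
    by_cases hb : g.BadX BadT X'
    · left
      obtain ⟨Y', hY', e4, hT4⟩ := g.sound2 pre post (BadT := BadT) (R := []) (R' := R')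
        hck hex2' hX' hb hP' hQ (by rw [List.append_nil]; exact hR'.symm)
      rw [hT, hT] at hT4
      exact ⟨X', ⟨hX', hb⟩, Y', hY', e4.symm, by rw [hT4, hT2]⟩
    · right
      exact ⟨X', hX', fun h => hb h.2, ⟨R', hR'⟩⟩

end Crest.Agent.R320.FinA_282
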