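import Crest.Agent.R320.Top5_120
import Crest.Agent.R320.Sc2n_937
import Crest.Agent.R320.P4_933

/-! Row 320: JOIN part A (helper286): Sc2n_937.Geo + gadgets ⇒ Top5_120.top5. -/

set_option autoImplicit false

namespace Crest.Agent.R320.Fin286

open Crest.RegLang Crest.Agent.R320.Hk_851 Crest.Agent.R320.Blk467
open Crest.Agent.R320.Sc2n_937

/-- finite-state properties are regular (product taken behind the first `A` letters) -/
theorem regular_of_class2 {α : Type} [Finite α] {S : Type} [Monoid S] [Finite S] (φ : α → S)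
    (A M0 : ℕ) (hM : 0 < M0) (f : List α → Prop)
    (hf : ∀ u u' : List α, A ≤ u.length → A ≤ u'.length → u.take A = u'.take A →
      u.length % M0 = u'.length % M0 → ((u.drop A).map φ).prod = ((u'.drop A).map φ).prod →
      (f u ↔ f u')) :
    Language.IsRegular ({u | f u} : Language α) := by
  classical
  haveI : NeZero M0 := ⟨by omega⟩
  have hfin : Finite {l : List α // l.length ≤ A} := List.finite_length_le α A
  let σ := {l : List α // l.length ≤ A} × ZMod M0 × S
  haveI : Fintype σ := Fintype.ofFinite σ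
  let st : List α → σ := fun u =>
    (⟨u.take A, by rw [List.length_take]; omega⟩, (u.length : ZMod M0),
      ((u.drop A).map φ).prod)
  let M : DFA α σ :=
    { step := fun q a =>
        (if h : q.1.1.length < A then ⟨q.1.1 ++ [a], by simp; omega⟩ else q.1,
          q.2.1 + 1, if q.1.1.length < A then q.2.2 else q.2.2 * φ a)
      start := st []
      accept := {q | ∃ u, f u ∧ st u = q} }
  have hev : ∀ u, M.eval u = st u := by
    intro u
    induction u using List.reverseRecOn with
    | nil => rfl
    | append_singleton u a ih =>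
      rw [DFA.eval_append_singleton, ih]
      refine Prod.ext ?_ (Prod.ext ?_ ?_)
      · apply Subtype.ext
        show (if h : (u.take A).length < A then (⟨u.take A ++ [a], by simp at h ⊢; omega⟩ :
          {l : List α // l.length ≤ A}) else ⟨u.take A, by rw [List.length_take]; omega⟩).1
          = (u ++ [a]).take A
        rw [P4_933.take_snoc]
        split_ifs <;> rfl
      · show (u.length : ZMod M0) + 1 = (((u ++ [a]).length : ℕ) : ZMod M0)
        simp
      · show (if (u.take A).length < A then ((u.drop A).map φ).prod else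
          ((u.drop A).map φ).prod * φ a) = (((u ++ [a]).drop A).map φ).prod
        by_cases h : u.length < A
        · rw [if_pos (by rw [List.length_take]; omega), List.drop_of_length_le (by omega),
            List.drop_of_length_le (l := u ++ [a]) (by simp; omega)]
        · rw [if_neg (by rw [List.length_take]; omega),
            List.drop_append_of_le_length (by omega)]
          simp
  refine Language.isRegular_iff.2 ⟨σ, inferInstance, M, ?_⟩
  ext u
  rw [DFA.mem_accepts, hev]
  constructor
  · rintro ⟨u', h1, h2⟩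
    have e1 : u'.take A = u.take A := congrArg (fun q : σ => q.1.1) h2
    have e2 : (u'.length : ZMod M0) = (u.length : ZMod M0) := congrArg (fun q : σ => q.2.1) h2
    have e3 : ((u'.drop A).map φ).prod = ((u.drop A).map φ).prod :=
      congrArg (fun q : σ => q.2.2) h2
    have e2' : u'.length % M0 = u.length % M0 := (ZMod.natCast_eq_natCast_iff' _ _ _).1 e2
    have e4 := congrArg List.length e1
    rw [List.length_take, List.length_take] at e4
    by_cases h : u.length < A
    · rw [List.take_of_length_le (by omega), List.take_of_length_le (by omega)] at e1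
      rw [← e1]; exact h1
    · exact (hf u' u (by omega) (by omega) e1 e2' e3).1 h1
  · intro h
    exact ⟨u, h, rfl⟩

theorem join {α S V : Type} [Finite α] [Monoid S] [Finite S] [AddCommGroup V] [Finite V]
    (act : V → S → V)
    (hadd : ∀ a b s, act (a + b) s = act a s + act b s)
    (hone : ∀ v, act v 1 = v) (hmul : ∀ v s t, act v (s * t) = act (act v s) t)
    (hfaith : ∀ s t, (∀ v, act v s = act v t) → s = t)
    (φ : α → S) (g : Geo α) (hlenW : ∀ Q, g.Wo Q → g.n ≤ Q.length)
    (B R : ℕ) (free : ∀ u : List α, (∀ t < u.length, ¬ g.Wo (u.take t)) →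
      u ∈ (BddReg_746.PN B R : Language α))
    (hgap : ∀ P Q : List α, g.Wo P → g.Wo (P ++ Q) → Q ≠ [] → 2 * g.p0 + 2 * g.N1 < Q.length)
    (lam rho : List α → Option V) (nu1 : List α → V) (BadT : ℕ → Prop)
    (N M0 : ℕ) (hM0 : 0 < M0)
    (hNq : N ≤ g.N1 + g.q0)
    (hlen : ∀ P v, lam P = some v → P.length ≤ g.N1)
    (hex : ∀ P Q u b, lam P = some u → rho Q = some b →
      b = act u ((P ++ Q).map φ).prod + nu1 (P ++ Q))
    (hcomp : ∀ u : List α, g.N1 + g.q0 ≤ u.length → ¬ BadT u.length → ∀ v, ∃ P Q, u = P ++ Q ∧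
      lam P = some v ∧ (rho Q).isSome)
    (hnu : ∀ Q Q' : List α, N ≤ Q.length → N ≤ Q'.length → Q.take N = Q'.take N →
      ((Q.drop N).map φ).prod = ((Q'.drop N).map φ).prod → Q.length % M0 = Q'.length % M0 →
      nu1 Q = nu1 Q')
    (hper : ∀ n n' : ℕ, n % M0 = n' % M0 → (BadT n ↔ BadT n'))
    (K : ℕ) (c : ℕ → ℕ) (lam2 rho2 : ℕ → List α → Option V) (nu2 : List α → V) (C0 : ℕ)
    (hc : ∀ k, k < K → c k ≤ g.p0)
    (hex2 : ∀ k, k < K → ∀ P Q v u, P.length = c k → Q.length = g.p0 - c k →
      lam2 k P = some v → rho2 k Q = some u → u = act v ((P ++ Q).map φ).prod + nu2 (P ++ Q))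
    (hsp : ∀ k k' l l', k < K → k' < K → l < K → l' < K → k' ≠ k → l' ≠ l →
      c k + c l' < c l + c k' + 2 * g.N1 → c l + c k' < c k + c l' + 2 * g.N1 → k = l)
    (hthin : ∀ τ, g.z ≤ τ + g.p0 → ∀ J : Finset ℕ, (∀ k ∈ J, k < K ∧
      ∃ k', k' < K ∧ k' ≠ k ∧ BadT (τ + c k' - c k - g.p0)) → J.card ≤ C0)
    (hI : ∀ (u : List α) (v : V), u.length = g.p0 →
      ∃ I : Finset ℕ, 2 * C0 + 2 ≤ I.card ∧ ∀ k ∈ I, k < K ∧
      lam2 k (u.take (c k)) = some v ∧ (rho2 k (u.drop (c k))).isSome)
    (s : S) : HL 3 ({w | (w.map φ).prod = s} : Language α) := by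
  classical
  have hz := g.hz
  have hq := g.hq
  have hN1 := g.hN
  set pre : List α → V → V := fun P v => act v (P.map φ).prod + nu2 P with hpre
  set post : V → List α → V := fun v Q => act v (Q.map φ).prod + nu1 Q with hpost
  set nu : List α → V := fun X => act (nu2 (X.take g.p0)) ((X.drop g.p0).map φ).prod +
    nu1 (X.drop g.p0) with hnudef
  have hT : ∀ v X, g.T pre post v X = act v (X.map φ).prod + nu X := by
    intro v X
    simp only [Geo.T, hpre, hpost, hnudef, hadd, ← hmul]
    rw [← List.prod_append, ← List.map_append, List.take_append_drop]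
    abel
  -- the class of a block
  set A : ℕ := g.z + g.N1 + N + g.p0 with hA
  have classT : ∀ u u' : List α, A ≤ u.length → A ≤ u'.length → u.take A = u'.take A →
      u.length % M0 = u'.length % M0 → ((u.drop A).map φ).prod = ((u'.drop A).map φ).prod →
      (∀ x, act x (u.map φ).prod + nu u = act x (u'.map φ).prod + nu u') := by
    intro u u' h1 h2 h3 h4 h5 x
    have e0 : ∀ B, B ≤ A → u.take B = u'.take B := by
      intro B hB
      have := congrArg (List.take B) h3
      rwa [List.take_take, List.take_take, Nat.min_eq_left hB] at this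
    have e1 : ∀ B, B ≤ A → ((u.drop B).map φ).prod = ((u'.drop B).map φ).prod := by
      intro B hB
      have f1 : ∀ w : List α, w.drop B = (w.take A).drop B ++ w.drop A := by
        intro w
        have f2 : w.drop A = (w.drop B).drop (A - B) := by
          rw [List.drop_drop]
          congr 1
          omega
        rw [List.drop_take, f2, List.take_append_drop]
      rw [f1 u, f1 u', h3, List.map_append, List.map_append, List.prod_append, List.prod_append, h5]
    have e2 : (u.map φ).prod = (u'.map φ).prod := by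
      have := e1 0 (Nat.zero_le _)
      simpa using this
    rw [e2]
    simp only [hnudef]
    rw [e0 g.p0 (by omega), e1 g.p0 (by omega)]
    rw [hnu (u.drop g.p0) (u'.drop g.p0) (by rw [List.length_drop]; omega)
      (by rw [List.length_drop]; omega) ?_ ?_ ?_]
    · have := congrArg (List.drop g.p0) (e0 (g.p0 + N) (by omega))
      rw [List.drop_take, List.drop_take, Nat.add_sub_cancel_left] at this
      exact this
    · rw [List.drop_drop, List.drop_drop]
      exact e1 _ (by omega)
    · rw [List.length_drop, List.length_drop]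
      have : (u.length - g.p0) + g.p0 ≡ (u'.length - g.p0) + g.p0 [MOD M0] := by
        rw [Nat.sub_add_cancel (by omega), Nat.sub_add_cancel (by omega)]
        exact h4
      exact Nat.ModEq.add_right_cancel' _ this
  have classB : ∀ u u' : List α, A ≤ u.length → A ≤ u'.length → u.take A = u'.take A →
      u.length % M0 = u'.length % M0 → (g.BadX BadT u ↔ g.BadX BadT u') := by
    intro u u' h1 h2 h3 h4
    have e0 : ∀ B, B ≤ A → u.take B = u'.take B := by
      intro B hB
      have := congrArg (List.take B) h3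
      rwa [List.take_take, List.take_take, Nat.min_eq_left hB] at this
    have hE : g.E u ↔ g.E u' := by
      constructor
      · rintro ⟨t, ht, hw, h5, h6⟩
        exact ⟨t, by omega, by rw [← e0 t (by omega)]; exact hw, h5, h6⟩
      · rintro ⟨t, ht, hw, h5, h6⟩
        exact ⟨t, by omega, by rw [e0 t (by omega)]; exact hw, h5, h6⟩
    have hB : BadT (u.length - g.p0) ↔ BadT (u'.length - g.p0) := by
      refine hper _ _ ?_
      have : (u.length - g.p0) + g.p0 ≡ (u'.length - g.p0) + g.p0 [MOD M0] := by
        rw [Nat.sub_add_cancel (by omega), Nat.sub_add_cancel (by omega)]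
        exact h4
      exact Nat.ModEq.add_right_cancel' _ this
    unfold Geo.BadX
    rw [hE, hB]
  set C : Set (List α) := {X | g.XX X} with hC
  set Bad : Set (List α) := {X | g.XX X ∧ g.BadX BadT X} with hBad
  have hXXiff : ∀ X, g.XX X ↔ P4_933.XX g.Wo g.z X := by
    intro X
    constructor
    · rintro ⟨h1, h2, h3⟩
      exact ⟨h2, h1, fun t ht hz' => h3 t hz' ht⟩
    · rintro ⟨h1, h2, h3⟩
      exact ⟨h2, h1, fun t hz' ht => h3 t ht hz'⟩
  have hPC : PCode C := by
    refine ⟨?_, ?_⟩
    · intro h
      have h1 : g.z ≤ ([] : List α).length := h.1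
      simp at h1
      omega
    · rintro X hX Y hY ⟨R, hR⟩
      exact g.prefix_code (R := R) (R' := []) hX hY (by rw [hR, List.append_nil])
  have hBC : Bad ⊆ C := fun X hX => hX.1
  refine Top5_120.top5 act hadd hone hmul hfaith φ nu C Bad hPC hBC
    (fun v => {P | g.LP1 pre lam v P}) (fun v => {P | Geo.LP2 K c lam2 v P}) ?_ ?_ ?_ ?_ ?_ ?_ ?_ s
  · intro v
    refine (List.finite_length_le α (g.p0 + g.N1)).subset ?_
    rintro P ⟨h1, h2⟩
    have := hlen _ _ h2
    rw [List.length_drop] at this
    show P.length ≤ _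
    omega
  · intro v
    refine (List.finite_length_le α g.p0).subset ?_
    rintro P ⟨k, hk, h1, h2⟩
    show P.length ≤ _
    have := hc k hk
    omega
  · intro x y
    have := P4_933.hl_XX (z := g.z) g.loc hlenW free
      (f := fun X => act x (X.map φ).prod + nu X = y)
      (regular_of_class2 φ A M0 hM0 _ (fun u u' h1 h2 h3 h4 h5 => by
        rw [classT u u' h1 h2 h3 h4 h5 x]))
    exact this.congr fun X => by
      show g.XX X ∧ _ ↔ P4_933.XX g.Wo g.z X ∧ _
      rw [hXXiff]
  · intro x y
    have := P4_933.hl_XX (z := g.z) g.loc hlenW free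
      (f := fun X => g.BadX BadT X ∧ act x (X.map φ).prod + nu X = y)
      (regular_of_class2 φ A M0 hM0 _ (fun u u' h1 h2 h3 h4 h5 => by
        rw [classT u u' h1 h2 h3 h4 h5 x, classB u u' h1 h2 h3 h4]))
    exact this.congr fun X => by
      show (g.XX X ∧ _) ∧ _ ↔ P4_933.XX g.Wo g.z X ∧ _
      rw [hXXiff, and_assoc]
  · intro s
    have := P4_933.hl_NB (z := g.z) g.loc hlenW free
      (f := fun X => (X.map φ).prod = s)
      (regular_of_class2 φ 0 1 one_pos _ (fun u u' h1 h2 h3 h4 h5 => by
        simp only [List.drop_zero] at h5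
        rw [h5]))
    exact this.congr fun X => by
      show (∀ Y ∈ C, ¬ Y <+: X) ∧ _ ↔ P4_933.NB g.Wo g.z X ∧ _
      rw [P4_933.NB_iff]
      refine and_congr_left fun _ => ?_
      constructor
      · intro h P hP hX
        exact h P ((hXXiff P).2 hX) hP
      · intro h P hP hX
        exact h P hX ((hXXiff P).1 hP)
  · intro X hX hXb v
    have hnb : ¬ g.BadX BadT X := fun h => hXb ⟨hX, h⟩
    have hnE : ¬ g.E X := fun h => hnb (Or.inl h)
    have hnT : ¬ BadT (X.length - g.p0) := fun h => hnb (Or.inr h)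
    have hXz : g.z ≤ X.length := hX.1
    obtain ⟨P, Q, b, hPQ, hP, hQ⟩ := g.complete1 (pre := pre) (lam := lam) (rho := rho) hlen hX hnE
      (fun u => hcomp (X.drop g.p0) (by rw [List.length_drop]; omega)
        (by rw [List.length_drop]; exact hnT) u) v
    have hs : ∀ x P', g.LP1 pre lam x P' → g.XX (P' ++ Q) ∧ g.T pre post x (P' ++ Q) = b :=
      fun x P' hP' => g.sound1 (pre := pre) (post := post) hlen hex hP' hQ
    refine ⟨P, Q, hPQ.symm, hP, fun x P' hP' => ?_⟩
    obtain ⟨h1, h2⟩ := hs x P' hP'
    obtain ⟨h3, h4⟩ := hs v P hP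
    refine ⟨h1, ?_⟩
    rw [← hT, ← hT, h2, hPQ, h4]
  · intro X hX Y hY v
    obtain ⟨hX1, hX2⟩ := hX
    obtain ⟨hY1, hY2⟩ := hY
    have hXz : g.z ≤ X.length := hX1.1
    have hl : (X.take g.p0).length = g.p0 := by rw [List.length_take]; omega
    obtain ⟨P, Q, b, hPQ, hP, hQ⟩ := g.complete2 (pre := pre) (post := post) (BadT := BadT)
      (rho2 := rho2) (C0 := C0) hc hgap hsp hthin hX1 hY1 v (by
        obtain ⟨I, h1, h2⟩ := hI (X.take g.p0) v hl
        refine ⟨I, h1, fun k hk => ?_⟩
        obtain ⟨h3, h4, h5⟩ := h2 k hk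
        refine ⟨h3, ?_, h5⟩
        rw [List.take_take, Nat.min_eq_left (hc k h3)] at h4
        exact h4)
    have hs : ∀ x P' X' R R', Geo.LP2 K c lam2 x P' → g.XX X' → g.BadX BadT X' →
        P' ++ Q ++ R = X' ++ R' →
        ∃ X2, g.XX X2 ∧ P' ++ Q = X' ++ X2 ∧ g.T pre post (g.T pre post x X') X2 = b := by
      intro x P' X' R R' hP' hX' hb' he
      exact g.sound2 (pre := pre) (post := post) hc hex2 hX' hb' hP' hQ he
    have hb : g.T pre post (g.T pre post v X) Y = b := by
      obtain ⟨X2, h1, h2, h3⟩ := hs v P X [] Y hP hX1 hX2 (by rw [List.append_nil, hPQ])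
      have : X2 = Y := by
        rw [hPQ] at h2
        exact (List.append_cancel_left h2).symm
      rw [← this]; exact h3
    refine ⟨P, Q, hPQ, hP, fun x P' hP' => ?_⟩
    by_cases hgood : ∃ X' ∈ C, X' ∉ Bad ∧ X' <+: P' ++ Q
    · exact Or.inr hgood
    left
    have hpref : ∃ X', g.XX X' ∧ X' <+: P' ++ Q := by
      obtain ⟨k0, hk0, hPl, hl0⟩ := hP'
      obtain ⟨k, hk, l, hend, hgd, -⟩ := hQ
      by_cases hkk : k0 = k
      · subst hkk
        refine ⟨P' ++ Q.take l, g.xx_of_cend (by rw [hPl]; exact hc k0 hk0)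
          (by rw [hPl]; exact hend), Q.drop l, ?_⟩
        rw [List.append_assoc, List.take_append_drop]
      · obtain ⟨l', he', -⟩ := hgd k0 hk0 hkk
        refine ⟨P' ++ Q.take l', g.xx_of_cend (by rw [hPl]; exact hc k0 hk0)
          (by rw [hPl]; exact he'), Q.drop l', ?_⟩
        rw [List.append_assoc, List.take_append_drop]
    obtain ⟨X', hX', R', hR'⟩ := hpref
    have hX'b : g.BadX BadT X' := by
      by_contra h
      exact hgood ⟨X', hX', fun h' => h h'.2, R', hR'⟩
    obtain ⟨X2, h1, h2, h3⟩ := hs x P' X' [] R' hP' hX' hX'b (by rw [List.append_nil, hR'])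
    refine ⟨X', ⟨hX', hX'b⟩, X2, h1, h2.symm, ?_⟩
    rw [← hT, ← hT, ← hT, ← hT, h3, hb]

end Crest.Agent.R320.Fin286
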