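import Crest.Agent.R320.SemTop_727
import Crest.Agent.R320.Sc2n_937
import Crest.Agent.R320.FewVal_228
import Crest.Agent.R320.ExactR_237

/-!
# Row 320: walls on all words, natural block code, height one of the fibres (helper29)
-/

set_option autoImplicit false

namespace Crest.Agent.R320.Fin_29

open Crest.RegLang Crest.Agent.R320.Hk_851
open Crest.Agent.R320.FewWalls_228 Crest.Agent.R320.FewVal_228 Crest.Agent.R320.Sc2n_937

variable {A : Type}

/-- left-looking wall: the last `n` letters are in `Sw` -/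
def Lw (n : ℕ) (Sw : Set (List A)) (X : List A) : Prop :=
  n ≤ X.length ∧ X.drop (X.length - n) ∈ Sw

theorem lw_iff {n : ℕ} {Sw : Set (List A)} {X : List A} :
    Lw n Sw X ↔ n ≤ X.length ∧ Wl n Sw X (X.length - n) := by
  unfold Lw Wl
  constructor
  · rintro ⟨h1, h2⟩
    refine ⟨h1, by omega, ?_⟩
    rw [List.take_of_length_le (by rw [List.length_drop]; omega)]
    exact h2
  · rintro ⟨h1, _, h2⟩
    rw [List.take_of_length_le (by rw [List.length_drop]; omega)] at h2
    exact ⟨h1, h2⟩

theorem lw_take {n : ℕ} {Sw : Set (List A)} {X : List A} {t : ℕ} (ht : t ≤ X.length) :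
    Lw n Sw (X.take t) ↔ n ≤ t ∧ Wl n Sw X (t - n) := by
  have hl : (X.take t).length = t := by rw [List.length_take]; omega
  unfold Lw Wl
  rw [hl]
  constructor
  · rintro ⟨h1, h2⟩
    refine ⟨h1, by omega, ?_⟩
    rw [List.drop_take] at h2
    have : t - (t - n) = n := by omega
    rw [this] at h2
    exact h2
  · rintro ⟨h1, _, h2⟩
    refine ⟨h1, ?_⟩
    rw [List.drop_take]
    have : t - (t - n) = n := by omega
    rw [this]
    exact h2

theorem lw_loc {n : ℕ} {Sw : Set (List A)} (P Q : List A) (h : n ≤ Q.length) :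
    Lw n Sw (P ++ Q) ↔ Lw n Sw Q := by
  unfold Lw
  have e : (P ++ Q).drop ((P ++ Q).length - n) = Q.drop (Q.length - n) := by
    rw [List.length_append]
    have : P.length + Q.length - n = P.length + (Q.length - n) := by omega
    rw [this, List.drop_length_add_append]
  rw [e, List.length_append]
  constructor
  · rintro ⟨_, h2⟩; exact ⟨h, h2⟩
  · rintro ⟨_, h2⟩; exact ⟨by omega, h2⟩

/-- the block code -/
def XXs (n : ℕ) (Sw : Set (List A)) (z : ℕ) : Set (List A) :=
  {X | z ≤ X.length ∧ Lw n Sw X ∧ ∀ t, z ≤ t → t < X.length → ¬ Lw n Sw (X.take t)}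

theorem HL_lw [Finite A] {k : ℕ} {n : ℕ} {Sw : Set (List A)} (hS : ∀ s ∈ Sw, s.length = n) :
    HL k ({X | Lw n Sw X} : Language A) := by
  have hf : Sw.Finite := (List.finite_length_eq A n).subset fun v hv => hS v hv
  refine ((HL.top (k := k)).mul (HL.finite hf)).congr fun w => ?_
  symm
  constructor
  · intro h
    obtain ⟨a, _, b, hb, rfl⟩ := Language.mem_mul.1 h
    have hbn : b.length = n := hS b hb
    show Lw n Sw (a ++ b)
    refine ⟨by rw [List.length_append]; omega, ?_⟩
    have : (a ++ b).length - n = a.length := by rw [List.length_append]; omega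
    rw [this, List.drop_left]
    exact hb
  · rintro ⟨h1, h2⟩
    exact Language.mem_mul.2 ⟨w.take (w.length - n), trivial, w.drop (w.length - n), h2,
      List.take_append_drop _ _⟩

theorem HL_XXs [Finite A] {k : ℕ} {n z : ℕ} {Sw : Set (List A)} (hS : ∀ s ∈ Sw, s.length = n) :
    HL k ((XXs n Sw z : Set (List A)) : Language A) := by
  have hA : HL k ({X | z ≤ X.length ∧ Lw n Sw X} : Language A) :=
    HL.setOf_and (HL.length_ge z) (HL_lw hS)
  have hB := (hA.mul (HL.length_ge (k := k) (α := A) 1)).compl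
  refine (hA.inf hB).congr fun w => ?_
  symm
  constructor
  · rintro ⟨⟨h1, h2⟩, h3⟩
    refine ⟨h1, h2, fun t ht htl hw => h3 ?_⟩
    refine Language.mem_mul.2 ⟨w.take t, ⟨?_, hw⟩, w.drop t, ?_, List.take_append_drop _ _⟩
    · rw [List.length_take]; omega
    · show 1 ≤ (w.drop t).length
      rw [List.length_drop]; omega
  · rintro ⟨h1, h2, h3⟩
    refine ⟨⟨h1, h2⟩, fun h => ?_⟩
    obtain ⟨a, ⟨ha1, ha2⟩, b, hb, rfl⟩ := Language.mem_mul.1 h
    have hb' : 1 ≤ b.length := hb
    refine h3 a.length ha1 (by rw [List.length_append]; omega) ?_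
    rw [List.take_left]
    exact ha2

theorem nw_le {n z : ℕ} {Sw : Set (List A)} {w : List A}
    (h : ∀ x, Wl n Sw w x → x < z ∨ x = w.length - n) : nw n Sw w ≤ z + 1 := by
  classical
  unfold nw
  have : ((Finset.range (w.length + 1)).filter (fun x => Wl n Sw w x)) ⊆
      insert (w.length - n) (Finset.range z) := by
    intro x hx
    rw [Finset.mem_filter] at hx
    rw [Finset.mem_insert, Finset.mem_range]
    rcases h x hx.2 with h | h
    · exact Or.inr h
    · exact Or.inl h
  have h2 := (Finset.card_le_card this).trans (Finset.card_insert_le _ _)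
  rw [Finset.card_range] at h2
  convert h2 using 2

theorem wl_XX {n z : ℕ} {Sw : Set (List A)} {X : List A} (hX : X ∈ XXs n Sw z) {x : ℕ}
    (hx : Wl n Sw X x) : x + n < z ∨ x + n = X.length := by
  obtain ⟨_, _, h3⟩ := hX
  have h1 : x + n ≤ X.length := hx.1
  by_contra hcon
  push Not at hcon
  refine h3 (x + n) hcon.1 (by omega) ?_
  rw [lw_take h1]
  refine ⟨by omega, ?_⟩
  rw [Nat.add_sub_cancel]; exact hx

theorem nw_XX_drop {n z : ℕ} {Sw : Set (List A)} {X : List A} (hX : X ∈ XXs n Sw z) {j : ℕ}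
    (hj : j ≤ X.length) : nw n Sw (X.drop j) ≤ z + 1 := by
  apply nw_le
  intro x hx
  rw [wl_drop hj] at hx
  rw [List.length_drop]
  rcases wl_XX hX hx with h | h
  · left; omega
  · right; omega

theorem nw_tail {n z : ℕ} {Sw : Set (List A)} {w : List A}
    (hw : ∀ X ∈ XXs n Sw z, ¬ X <+: w) : nw n Sw w ≤ z + 1 := by
  classical
  apply nw_le
  intro x hx
  left
  by_contra hcon
  have h1 : x + n ≤ w.length := hx.1
  have hex : ∃ t, z ≤ t ∧ t ≤ w.length ∧ Lw n Sw (w.take t) := by
    refine ⟨x + n, by omega, h1, ?_⟩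
    rw [lw_take h1]
    exact ⟨by omega, by rw [Nat.add_sub_cancel]; exact hx⟩
  have hs := Nat.find_spec hex
  have hm := fun t => Nat.find_min hex (m := t)
  set t := Nat.find hex
  refine hw (w.take t) ⟨?_, hs.2.2, ?_⟩ (List.take_prefix _ _)
  · rw [List.length_take]; omega
  · intro t' ht' htl hl
    rw [List.length_take] at htl
    rw [List.take_take, Nat.min_eq_left (by omega)] at hl
    exact hm t' (by omega) ⟨ht', by omega, hl⟩

theorem HL_tail [Finite A] {n c P z : ℕ} {Sw : Set (List A)} (hn : 0 < n) (hP : 0 < P)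
    (hS : ∀ s ∈ Sw, s.length = n) (hper : PerOff n c P Sw) {S : Type} [Monoid S] [Finite S]
    (f : A → S) (s : S) :
    HL 1 ({w | (∀ X ∈ XXs n Sw z, ¬ X <+: w) ∧ (w.map f).prod = s} : Language A) := by
  have h1 := ((HL_XXs (k := 1) (z := z) hS).prefix).compl
  refine (h1.inf (HL_few_value hn hP hper (z + 1) f s)).congr fun w => ?_
  symm
  constructor
  · rintro ⟨h1, h2⟩
    exact ⟨fun X hX hp => h1 ⟨X, hX, hp⟩, h2.2⟩
  · rintro ⟨h1, h2⟩
    refine ⟨?_, nw_tail h1, h2⟩
    rintro ⟨X, hX, hp⟩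
    exact h1 X hX hp

/-- words with few walls and a given value -/
def FewL (n : ℕ) (Sw : Set (List A)) (z : ℕ) {M : Type} [Monoid M] (g : A → M) (m : M) :
    Language A := {Y | nw n Sw Y ≤ z + 1 ∧ (Y.map g).prod = m}

/-- fibres of a finite-state zone map -/
theorem HL_fib [Finite A] {n c P z : ℕ} {Sw : Set (List A)} (hn : 0 < n) (hP : 0 < P)
    (hS : ∀ s ∈ Sw, s.length = n) (hper : PerOff n c P Sw) {M : Type} [Monoid M] [Finite M]
    (g : A → M) {V : Type} (t : List A → V) (j0 : ℕ) (hj : j0 ≤ z)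
    (hinv : ∀ X X' : List A, j0 ≤ X.length → j0 ≤ X'.length → X.take j0 = X'.take j0 →
      ((X.drop j0).map g).prod = ((X'.drop j0).map g).prod → t X = t X') (y : V) :
    HL 1 ({X | X ∈ XXs n Sw z ∧ t X = y} : Language A) := by
  let I : Set (List A × M) := {p | ∃ X ∈ XXs n Sw z, X.take j0 = p.1 ∧
    ((X.drop j0).map g).prod = p.2 ∧ t X = y}
  have hI : I.Finite := by
    refine ((List.finite_length_eq A j0).prod (Set.finite_univ (α := M))).subset ?_
    rintro ⟨U, m⟩ ⟨X, hX, h1, -, -⟩
    refine ⟨?_, trivial⟩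
    show U.length = j0
    have h1' : X.take j0 = U := h1
    rw [← h1', List.length_take]
    have := hX.1
    omega
  let LL : List A × M → Language A := fun p => ({p.1} : Language A) * FewL n Sw z g p.2
  have hU : HL 1 ({w | ∃ p ∈ I, w ∈ LL p} : Language A) :=
    HL.biUnion (k := 1) hI (L := LL)
      (fun p _ => (HL.word p.1).mul (HL_few_value hn hP hper (z + 1) g p.2))
  refine ((HL_XXs (k := 1) (z := z) hS).inf hU).congr fun X => ?_
  symm
  constructor
  · rintro ⟨hX, p, ⟨X', hX', h1, h2, h3⟩, hm⟩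
    refine ⟨hX, ?_⟩
    obtain ⟨U, hU, Y, ⟨_, hY⟩, rfl⟩ := Language.mem_mul.1 hm
    have hUe : U = p.1 := hU
    have hUl : U.length = j0 := by
      rw [hUe, ← h1, List.length_take]
      have := hX'.1
      omega
    rw [← h3]
    apply hinv
    · rw [List.length_append]; omega
    · have := hX'.1; omega
    · rw [h1, ← hUe]
      have : (U ++ Y).take j0 = (U ++ Y).take U.length := by rw [hUl]
      rw [this, List.take_left]
    · rw [h2, ← hY]
      have : (U ++ Y).drop j0 = (U ++ Y).drop U.length := by rw [hUl]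
      rw [this, List.drop_left]
  · rintro ⟨hX, hy⟩
    refine ⟨hX, ⟨(X.take j0, ((X.drop j0).map g).prod), ⟨X, hX, rfl, rfl, hy⟩, ?_⟩⟩
    have h0 : nw n Sw (X.drop j0) ≤ z + 1 := by
      have := hX.1
      exact nw_XX_drop hX (by omega)
    show X ∈ ({X.take j0} : Language A) * FewL n Sw z g ((X.drop j0).map g).prod
    exact Language.mem_mul.2 ⟨X.take j0, rfl, X.drop j0, ⟨h0, rfl⟩, List.take_append_drop _ _⟩

end Crest.Agent.R320.Fin_29
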