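import Crest.Agent.R320.Grid_899
import Crest.Agent.R320.Thin_963
import Crest.Agent.R320.LWallAll_922
import Crest.Agent.R320.P4_933

/-! Row 320: regularity by classes, walls, numbers (helper336). -/

set_option autoImplicit false

namespace Crest.Agent.R320.FinA336

open Crest.Agent.R320.Grid_899

theorem reg2 {α : Type} [Finite α] {S : Type} [Monoid S] [Finite S] (φ : α → S) (A M0 : ℕ)
    (hM : 0 < M0) (f : List α → Prop)
    (hf : ∀ u u' : List α, A ≤ u.length → A ≤ u'.length → u.take A = u'.take A →
      u.length % M0 = u'.length % M0 → ((u.drop A).map φ).prod = ((u'.drop A).map φ).prod →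
      (f u ↔ f u')) :
    Language.IsRegular ({u | f u} : Language α) := by
  classical
  haveI : NeZero M0 := ⟨by omega⟩
  have hfin : Finite {l : List α // l.length ≤ A} := List.finite_length_le α A
  let σ := {l : List α // l.length ≤ A} × ZMod M0 × S
  haveI : Fintype σ := Fintype.ofFinite σ
  let st : List α → σ := fun u =>
    (⟨u.take A, by rw [List.length_take]; omega⟩, (u.length : ZMod M0), ((u.drop A).map φ).prod)
  let M : DFA α σ :=
    { step := fun q a =>
        (if h : q.1.1.length < A then ⟨q.1.1 ++ [a], by simp; omega⟩ else q.1,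
          q.2.1 + 1, if q.1.1.length < A then q.2.2 else q.2.2 * φ a)
      start := st []
      accept := {q | ∃ u, f u ∧ st u = q} }
  have hev : ∀ u, M.eval u = st u := by
    intro u
    induction u using List.reverseRecOn with
    | nil => rfl
    | append_singleton u a ih =>
      rw [DFA.eval_append_singleton, ih]
      refine Prod.ext ?_ (Prod.ext ?_ ?_)
      · apply Subtype.ext
        show (if h : (u.take A).length < A then (⟨u.take A ++ [a], by simp at h ⊢; omega⟩ :
          {l : List α // l.length ≤ A}) else ⟨u.take A, by rw [List.length_take]; omega⟩).1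
          = (u ++ [a]).take A
        rw [Crest.Agent.R320.P4_933.take_snoc]
        split_ifs <;> rfl
      · show (u.length : ZMod M0) + 1 = (((u ++ [a]).length : ℕ) : ZMod M0)
        simp
      · show (if (u.take A).length < A then ((u.drop A).map φ).prod else
          ((u.drop A).map φ).prod * φ a) = (((u ++ [a]).drop A).map φ).prod
        by_cases h : u.length < A
        · have h1 : (u.take A).length < A := by rw [List.length_take]; omega
          rw [if_pos h1, List.drop_of_length_le (by omega : u.length ≤ A),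
            List.drop_of_length_le (by simp; omega)]
        · have h1 : ¬ (u.take A).length < A := by rw [List.length_take]; omega
          rw [if_neg h1, List.drop_append_of_le_length (by omega)]
          simp
  refine Language.isRegular_iff.2 ⟨σ, inferInstance, M, ?_⟩
  ext u
  rw [DFA.mem_accepts, hev]
  constructor
  · rintro ⟨u', h1, h2⟩
    have e1 : u'.take A = u.take A := congrArg (fun q : σ => q.1.1) h2
    have e2 : (u'.length : ZMod M0) = (u.length : ZMod M0) := congrArg (fun q : σ => q.2.1) h2
    have e3 : ((u'.drop A).map φ).prod = ((u.drop A).map φ).prod :=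
      congrArg (fun q : σ => q.2.2) h2
    have e2' : u'.length % M0 = u.length % M0 := (ZMod.natCast_eq_natCast_iff' _ _ _).1 e2
    have e4 := congrArg List.length e1
    rw [List.length_take, List.length_take] at e4
    by_cases h : u.length < A
    · rw [List.take_of_length_le (by omega), List.take_of_length_le (by omega)] at e1
      rw [← e1]; exact h1
    · exact (hf u' u (by omega) (by omega) e1 e2' e3).1 h1
  · intro h
    exact ⟨u, h, rfl⟩

theorem Am_mono' (Ms κ : ℕ) {i j : ℕ} (h : i ≤ j) : Am Ms κ i ≤ Am Ms κ j := by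
  induction j with
  | zero => obtain rfl : i = 0 := by omega
            exact le_rfl
  | succ j ih =>
    rcases Nat.eq_or_lt_of_le h with h1 | h1
    · subst h1; exact le_rfl
    · refine le_trans (ih (by omega)) ?_
      show Am Ms κ j ≤ Am Ms κ j + G κ j + Ms * G κ j
      omega

def BadN {k : ℕ} (m : ℕ) (q : Fin k → ℕ) (κ : ℕ) (n : ℕ) : Prop :=
  (∃ j, q j ∣ n) ∨ ∃ j, 1 ≤ j ∧ j ≤ m ∧
    ¬ ((∏ j, q j) * G κ (j - 1) ≤ (n - Am (∏ j, q j) κ j) % G κ j ∧
      (n - Am (∏ j, q j) κ j) % G κ j + (∏ j, q j) * G κ (j - 1) ≤ G κ j)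

theorem G_dvd' (κ : ℕ) {i j : ℕ} (h : i ≤ j) : G κ i ∣ G κ j :=
  pow_dvd_pow _ (Nat.mul_le_mul_left _ h)

theorem mod_sub {a n n' M g : ℕ} (hg : g ∣ M) (ha : a ≤ n) (ha' : a ≤ n') (h : n % M = n' % M) :
    (n - a) % g = (n' - a) % g := by
  have h1 : n ≡ n' [MOD g] := Nat.ModEq.of_dvd hg h
  have h2 : (n - a) + a ≡ (n' - a) + a [MOD g] := by
    rw [Nat.sub_add_cancel ha, Nat.sub_add_cancel ha']; exact h1
  exact Nat.ModEq.add_right_cancel' a h2

theorem BadN_per {k m κ : ℕ} {q : Fin k → ℕ} {n n' : ℕ} (hn : Am (∏ j, q j) κ m ≤ n)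
    (hn' : Am (∏ j, q j) κ m ≤ n') (h : n % ((∏ j, q j) * G κ m) = n' % ((∏ j, q j) * G κ m)) :
    BadN m q κ n → BadN m q κ n' := by
  rintro (⟨j, hj⟩ | ⟨j, h1, h2, h3⟩)
  · left
    refine ⟨j, ?_⟩
    have hd : q j ∣ (∏ j, q j) * G κ m := Dvd.dvd.mul_right (Finset.dvd_prod_of_mem q (Finset.mem_univ j)) _
    have h4 : n ≡ n' [MOD q j] := Nat.ModEq.of_dvd hd h
    exact (Nat.ModEq.dvd_iff h4 dvd_rfl).1 hj
  · right
    refine ⟨j, h1, h2, ?_⟩
    have ha := Am_mono' (∏ j, q j) κ h2
    rw [← mod_sub (a := Am (∏ j, q j) κ j) (n := n) (n' := n') (Dvd.dvd.mul_left (G_dvd' κ h2) _)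
      (by omega) (by omega) h]
    exact h3

end Crest.Agent.R320.FinA336
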