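import Crest.Agent.R320.SemTop_727
import Crest.Agent.R320.Sc2n_937

/-! Row 320: 937's block form gives 727's semantic completeness `hC2` (helper341). -/

set_option autoImplicit false

namespace Crest.Agent.R320.FinA_341

open Crest.Agent.R320.Sc2n_937 Crest.Agent.R320.Blk467

variable {α V : Type}

/-- the semantic scheme of the block form -/
def sch (g : Geo α) (pre : List α → V → V) (post : V → List α → V)
    (lam : List α → Option V) (K : ℕ) (c : ℕ → ℕ) (lam2 : ℕ → List α → Option V) :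
    SemTop_727.Sch α V where
  XX := {X | g.XX X}
  T := g.T pre post
  L1 := fun v => {P | g.LP1 pre lam v P}
  L2 := fun v => {P | Geo.LP2 K c lam2 v P}

theorem good_of {g : Geo α} {pre : List α → V → V} {post : V → List α → V}
    {lam rho : List α → Option V} {K : ℕ} {c : ℕ → ℕ} {lam2 : ℕ → List α → Option V}
    {BadT : ℕ → Prop}
    (hlen : ∀ P v, lam P = some v → P.length ≤ g.N1)
    (hex : ∀ P Q u b, lam P = some u → rho Q = some b → b = post u (P ++ Q))
    (hcpl : ∀ Y : List α, g.N1 + g.q0 ≤ Y.length → ¬ BadT Y.length → ∀ u : V,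
      ∃ P Q, Y = P ++ Q ∧ lam P = some u ∧ (rho Q).isSome)
    {X : List α} (hX : g.XX X) (hB : ¬ g.BadX BadT X) :
    X ∈ (sch g pre post lam K c lam2).Good := by
  have hE : ¬ g.E X := fun h => hB (Or.inl h)
  have hT : ¬ BadT (X.length - g.p0) := fun h => hB (Or.inr h)
  refine ⟨hX, fun x => ?_⟩
  have hz := g.hz
  obtain ⟨P, Q, b, e, hP, hQ⟩ := g.complete1 pre (lam := lam) (rho := rho) hlen hX hE
    (fun u => hcpl (X.drop g.p0) (by
      have := hX.1
      rw [List.length_drop]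
      omega) (by rw [List.length_drop]; exact hT) u) x
  refine ⟨P, hP, Q, ?_, e.symm⟩
  have h1 := g.sound1 pre post hlen hex hP hQ
  have h2 : (sch g pre post lam K c lam2).T x X = b := by
    rw [e]
    exact h1.2
  rw [h2]
  intro x' P' hP'
  exact g.sound1 pre post hlen hex hP' hQ

theorem bad_of {g : Geo α} {pre : List α → V → V} {post : V → List α → V}
    {lam : List α → Option V} {K : ℕ} {c : ℕ → ℕ} {lam2 : ℕ → List α → Option V}
    {BadT : ℕ → Prop}
    (hgood : ∀ X, g.XX X → ¬ g.BadX BadT X → X ∈ (sch g pre post lam K c lam2).Good)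
    {X : List α} (hX : g.XX X) (h : X ∉ (sch g pre post lam K c lam2).Good) :
    g.BadX BadT X := by
  by_contra hb
  exact h (hgood X hX hb)

theorem c2 {g : Geo α} {pre : List α → V → V} {post : V → List α → V}
    {lam : List α → Option V} {K : ℕ} {c : ℕ → ℕ} {lam2 rho2 : ℕ → List α → Option V}
    {BadT : ℕ → Prop} {C0 : ℕ}
    (hgood : ∀ X, g.XX X → ¬ g.BadX BadT X → X ∈ (sch g pre post lam K c lam2).Good)
    (hc : ∀ k, k < K → c k ≤ g.p0)
    (hex2 : ∀ k, k < K → ∀ P Q v u, P.length = c k → Q.length = g.p0 - c k →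
      lam2 k P = some v → rho2 k Q = some u → u = pre (P ++ Q) v)
    (hgap : ∀ P Q : List α, g.Wo P → g.Wo (P ++ Q) → Q ≠ [] → 2 * g.p0 + 2 * g.N1 < Q.length)
    (hsp : ∀ k k' l l', k < K → k' < K → l < K → l' < K → k' ≠ k → l' ≠ l →
      c k + c l' < c l + c k' + 2 * g.N1 → c l + c k' < c k + c l' + 2 * g.N1 → k = l)
    (hthin : ∀ τ, g.z ≤ τ + g.p0 → ∀ J : Finset ℕ, (∀ k ∈ J, k < K ∧
      ∃ k', k' < K ∧ k' ≠ k ∧ BadT (τ + c k' - c k - g.p0)) → J.card ≤ C0)
    (hI : ∀ X, g.XX X → ∀ v, ∃ I : Finset ℕ, 2 * C0 + 2 ≤ I.card ∧ ∀ k ∈ I, k < K ∧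
      lam2 k (X.take (c k)) = some v ∧ (rho2 k ((X.take g.p0).drop (c k))).isSome) :
    ∀ X1 ∈ (sch g pre post lam K c lam2).Bad, ∀ X2 ∈ (sch g pre post lam K c lam2).Bad,
      ∀ x, ∃ P ∈ (sch g pre post lam K c lam2).L2 x,
        ∃ Q ∈ (sch g pre post lam K c lam2).R2
          ((sch g pre post lam K c lam2).T ((sch g pre post lam K c lam2).T x X1) X2),
        P ++ Q = X1 ++ X2 := by
  intro X1 h1 X2 h2 x
  obtain ⟨P, Q, b, e, hP, hQ⟩ := g.complete2 pre post hc hgap hsp hthin h1.1 h2.1 x (hI X1 h1.1 x)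
  have hb1 : g.BadX BadT X1 := bad_of hgood h1.1 h1.2
  obtain ⟨X2', hX2', e', hb⟩ := g.sound2 pre post hc hex2 (R := []) (R' := X2) h1.1 hb1 hP hQ
    (by rw [List.append_nil, e])
  have e2 : X2' = X2 := by
    rw [e] at e'
    exact (List.append_cancel_left e').symm
  subst e2
  have hbb : (sch g pre post lam K c lam2).T ((sch g pre post lam K c lam2).T x X1) X2' = b := hb
  refine ⟨P, hP, Q, ?_, e⟩
  rw [hbb]
  intro x' P' hP'
  obtain ⟨k0, hk0, hPl, hl⟩ := hP'
  have hQ0 := hQ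
  obtain ⟨k, hk, l, hend, hgd, hXX2, u, hr, hbv⟩ := hQ
  by_cases hkk : k0 = k
  · subst hkk
    have hXX1 : g.XX (P' ++ Q.take l) :=
      g.xx_of_cend (by rw [hPl]; exact hc k0 hk0) (by rw [hPl]; exact hend)
    have esp : P' ++ Q = (P' ++ Q.take l) ++ Q.drop l := by
      rw [List.append_assoc, List.take_append_drop]
    by_cases hG1 : (P' ++ Q.take l) ∈ (sch g pre post lam K c lam2).Good
    · right; left
      exact ⟨_, hG1, ⟨Q.drop l, esp.symm⟩⟩
    · have hB1 := bad_of hgood hXX1 hG1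
      obtain ⟨Y2, hY2, eY, hbY⟩ := g.sound2 pre post hc hex2 (R := []) (R' := Q.drop l)
        (v := x') (b := b) hXX1 hB1 ⟨k0, hk0, hPl, hl⟩ hQ0
        (by rw [List.append_nil]; exact esp)
      by_cases hG2 : Y2 ∈ (sch g pre post lam K c lam2).Good
      · right; right
        refine ⟨_, ⟨hXX1, hG1⟩, Y2, hG2, ?_⟩
        rw [eY]
      · left
        exact ⟨_, ⟨hXX1, hG1⟩, Y2, ⟨hY2, hG2⟩, eY, hbY⟩
  · right; left
    obtain ⟨l', he', hg'⟩ := hgd k0 hk0 hkk
    have hXX1 : g.XX (P' ++ Q.take l') :=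
      g.xx_of_cend (by rw [hPl]; exact hc k0 hk0) (by rw [hPl]; exact he')
    refine ⟨P' ++ Q.take l', hgood _ hXX1 ?_, ⟨Q.drop l', ?_⟩⟩
    · intro hb'
      apply hg'
      have := g.cbad_of_bad (BadT := BadT) (P := P') (Q := Q) (l := l')
        (by rw [hPl]; exact hc k0 hk0) (by rw [hPl]; exact he') hb'
      rw [hPl] at this
      exact this
    · rw [List.append_assoc, List.take_append_drop]

end Crest.Agent.R320.FinA_341
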