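import Crest.Agent.R320.Hk2_851

/-!
# Row 320, NESTING STEP in purely combinatorial form (helper812)

`Solves k Bad` : every regular language `R` has a language `W` of height `≤ k` with
`R ∩ Bad ⊆ W ⊆ R`.  `Solves 3 univ` is the row.

`solves_step` : if for every finite monoid `S`, `φ : α → S` there are a finite faithful token module
`V`, a semigroup `Seg` of words, a noise `D : words → V` which is an exact cocycle on `Seg`, a
hereditary part `Seg₀` of `Seg` and a class `Bad'` with `Solves k Bad'`, such that every word of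
`Seg₀` on which some token is never cut lies in `Bad'`, and every word of `Bad` is
(word of `Bad'`)(word of `Seg₀`)(word of `Bad'`) or a word of `Bad'`, then `Solves (k+1) Bad`.
-/

set_option autoImplicit false

namespace Crest.Agent.R320.Nest_812

open Crest.RegLang Crest.Agent.R320.Hk_851

universe u

variable {α : Type u} {k : ℕ}

/-- `R ∩ Bad ⊆ W ⊆ R` with `W` of height `≤ k`, for every regular `R`. -/
def Solves (k : ℕ) (Bad : Set (List α)) : Prop :=
  ∀ R : Language α, R.IsRegular →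
    ∃ W : Language α, HL k W ∧ (∀ w, w ∈ W → w ∈ R) ∧ ∀ w, w ∈ R → w ∈ Bad → w ∈ W

theorem Solves.mono {l : ℕ} (h : k ≤ l) {B : Set (List α)} (hB : Solves k B) : Solves l B := by
  intro R hR
  obtain ⟨W, h1, h2, h3⟩ := hB R hR
  exact ⟨W, h1.mono h, h2, h3⟩

theorem Solves.anti {B B' : Set (List α)} (h : B' ⊆ B) (hB : Solves k B) : Solves k B' := by
  intro R hR
  obtain ⟨W, h1, h2, h3⟩ := hB R hR
  exact ⟨W, h1, h2, fun w hw hb => h3 w hw (h hb)⟩

theorem Solves.empty : Solves k (∅ : Set (List α)) := fun _ _ =>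
  ⟨⊥, HL.bot, fun _ h => h.elim, fun _ _ h => h.elim⟩

theorem Solves.union {A B : Set (List α)} (hA : Solves k A) (hB : Solves k B) :
    Solves k (A ∪ B) := by
  intro R hR
  obtain ⟨W, h1, h2, h3⟩ := hA R hR
  obtain ⟨W', h1', h2', h3'⟩ := hB R hR
  refine ⟨W ⊔ W', h1.sup h1', ?_, ?_⟩
  · rintro w (hw | hw)
    · exact h2 w hw
    · exact h2' w hw
  · rintro w hw (hb | hb)
    · exact Or.inl (h3 w hw hb)
    · exact Or.inr (h3' w hw hb)

theorem Solves.bounded [Finite α] (M : ℕ) : Solves k {w : List α | w.length ≤ M} := by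
  intro R _
  refine ⟨{w | w ∈ R ∧ w.length ≤ M}, ?_, fun w h => h.1, fun w h h' => ⟨h, h'⟩⟩
  exact HL.finite ((List.finite_length_le α M).subset fun w h => h.2)

/-- `Solves k univ` is: every regular language has height `≤ k`. -/
theorem Solves.hl (h : Solves k (Set.univ : Set (List α))) {R : Language α} (hR : R.IsRegular) :
    HL k R := by
  obtain ⟨W, h1, h2, h3⟩ := h R hR
  exact h1.congr fun w => ⟨fun hw => h3 w hw trivial, h2 w⟩

/-! ### regular languages -/

/-- regular (abbreviation for set-builder languages) -/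
abbrev Rg (L : Language α) : Prop := L.IsRegular

theorem reg_fibre {S : Type u} [Monoid S] [Finite S] (φ : α → S) (P : Set S) :
    Rg ({w | (w.map φ).prod ∈ P} : Language α) := by
  classical
  have := Fintype.ofFinite S
  refine Language.isRegular_iff.{u, u}.2 ⟨S, inferInstance, ⟨fun s a => s * φ a, 1, P⟩, ?_⟩
  have key : ∀ (w : List α) (s : S),
      (⟨fun s a => s * φ a, 1, P⟩ : DFA α S).evalFrom s w = s * (w.map φ).prod := by
    intro w
    induction w with
    | nil => intro s; simp [DFA.evalFrom]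
    | cons a w ih =>
      intro s
      rw [List.map_cons, List.prod_cons, ← mul_assoc]
      exact ih (s * φ a)
  ext w
  change (⟨fun s a => s * φ a, 1, P⟩ : DFA α S).evalFrom 1 w ∈ P ↔ (w.map φ).prod ∈ P
  rw [key, one_mul]

theorem recog (R : Language α) (hR : R.IsRegular) :
    ∃ (S : Type u) (_ : Monoid S) (_ : Finite S) (φ : α → S) (P : Set S),
      ∀ w, w ∈ R ↔ (w.map φ).prod ∈ P := by
  obtain ⟨σ, hσ, M, rfl⟩ := Language.isRegular_iff.{u, u}.1 hR
  classical
  let φ : α → (Function.End σ)ᵐᵒᵖ := fun a => MulOpposite.op (fun s => M.step s a)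
  have key : ∀ (w : List α) (s : σ), M.evalFrom s w = ((w.map φ).prod).unop s := by
    intro w
    induction w with
    | nil => intro s; rfl
    | cons a w ih =>
      intro s
      rw [List.map_cons, List.prod_cons, MulOpposite.unop_mul]
      change M.evalFrom (M.step s a) w = ((w.map φ).prod).unop (M.step s a)
      exact ih _
  have : Finite (Function.End σ)ᵐᵒᵖ := by
    have : Finite (Function.End σ) := inferInstanceAs (Finite (σ → σ))
    exact Finite.of_injective MulOpposite.unop MulOpposite.unop_injective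
  refine ⟨(Function.End σ)ᵐᵒᵖ, inferInstance, inferInstance, φ,
    {s | s.unop M.start ∈ M.accept}, fun w => ?_⟩
  change M.evalFrom M.start w ∈ M.accept ↔ _
  rw [key]
  rfl

theorem Rg.congr {L M : Language α} (h : Rg L) (e : ∀ w, w ∈ L ↔ w ∈ M) : Rg M := by
  have : L = M := by ext w; exact e w
  rw [← this]; exact h

theorem reg_bot : Rg (⊥ : Language α) := by
  have h := reg_fibre (α := α) (fun _ => (PUnit.unit : PUnit.{u + 1})) ∅
  exact Rg.congr h fun w => ⟨fun hw => hw.elim, fun hw => hw.elim⟩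

theorem reg_iUnion {ι : Type*} [Finite ι] {L : ι → Language α} (h : ∀ i, (L i).IsRegular) :
    Rg ({w | ∃ i, w ∈ L i} : Language α) := by
  have key : ∀ s : Set ι, s.Finite → Rg ({w | ∃ i ∈ s, w ∈ L i} : Language α) := by
    intro s hs
    induction s, hs using Set.Finite.induction_on with
    | empty =>
      have e : ({w | ∃ i ∈ (∅ : Set ι), w ∈ L i} : Language α) = ⊥ := by
        ext w
        exact ⟨fun ⟨i, hi, _⟩ => hi.elim, fun hw => hw.elim⟩
      rw [e]; exact reg_bot
    | @insert i s _ _ ih =>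
      refine Rg.congr ((h i).add ih) fun w => ?_
      constructor
      · rintro (hw | ⟨j, hj, hw⟩)
        · exact ⟨i, Or.inl rfl, hw⟩
        · exact ⟨j, Or.inr hj, hw⟩
      · rintro ⟨j, hj | hj, hw⟩
        · left; rw [← hj]; exact hw
        · right; exact ⟨j, hj, hw⟩
  have h1 := key Set.univ Set.finite_univ
  have e : ({w | ∃ i ∈ (Set.univ : Set ι), w ∈ L i} : Language α) = {w | ∃ i, w ∈ L i} := by
    ext w
    exact ⟨fun ⟨i, _, hi⟩ => ⟨i, hi⟩, fun ⟨i, hi⟩ => ⟨i, trivial, hi⟩⟩
  rwa [e] at h1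

theorem reg_mul {L M : Language α} (hL : L.IsRegular) (hM : M.IsRegular) : (L * M).IsRegular := by
  rw [Language.isRegular_iff_finite_range_leftQuotient] at *
  let g : Language α × Set (Language α) → Language α := fun q => {w | w ∈ q.1 * M ∨ ∃ Q ∈ q.2, w ∈ Q}
  refine ((hL.prod hM.finite_subsets).image g).subset ?_
  rintro _ ⟨x, rfl⟩
  refine ⟨(L.leftQuotient x, {Q | ∃ y z, y ++ z = x ∧ y ∈ L ∧ Q = M.leftQuotient z}), ⟨⟨x, rfl⟩, ?_⟩, ?_⟩
  · rintro _ ⟨y, z, -, -, rfl⟩
    exact ⟨z, rfl⟩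
  · ext w
    constructor
    · rintro (hw | ⟨_, ⟨y, z, rfl, hy, rfl⟩, hw⟩)
      · obtain ⟨a, ha, b, hb, rfl⟩ := Language.mem_mul.1 hw
        have ha' : x ++ a ∈ L := ha
        change x ++ (a ++ b) ∈ L * M
        rw [← List.append_assoc]
        exact Language.mem_mul.2 ⟨x ++ a, ha', b, hb, rfl⟩
      · have hw' : z ++ w ∈ M := hw
        change (y ++ z) ++ w ∈ L * M
        rw [List.append_assoc]
        exact Language.mem_mul.2 ⟨y, hy, z ++ w, hw', rfl⟩
    · intro hw
      have hw' : x ++ w ∈ L * M := hw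
      obtain ⟨a, ha, b, hb, hab⟩ := Language.mem_mul.1 hw'
      rcases List.append_eq_append_iff.1 hab with ⟨c, h1, h2⟩ | ⟨c, h1, h2⟩
      · right
        refine ⟨M.leftQuotient c, ⟨a, c, h1.symm, ha, rfl⟩, ?_⟩
        change c ++ w ∈ M
        rw [← h2]; exact hb
      · left
        refine Language.mem_mul.2 ⟨c, ?_, b, hb, h2.symm⟩
        change x ++ c ∈ L
        rw [← h1]; exact ha

/-! ### schemes -/

/-- A token module: `V` a finite commutative group with a faithful additive right action of `S`. -/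
structure TokAct (S : Type*) (V : Type*) [Monoid S] [AddCommGroup V] where
  act : V → S → V
  add : ∀ v w s, act (v + w) s = act v s + act w s
  mul : ∀ v s t, act v (s * t) = act (act v s) t
  faithful : ∀ s t, (∀ v, act v s = act v t) → s = t

theorem TokAct.zero {S V : Type*} [Monoid S] [AddCommGroup V] (A : TokAct S V) (s : S) :
    A.act 0 s = 0 := by
  have h := A.add 0 0 s
  rw [add_zero] at h
  simpa using h

/-- A scheme for `φ : α → S` : words `Seg` (closed under concatenation: all junctions between two of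
them are legal) and a noise `D` which is an exact cocycle. -/
structure Sch {S V : Type*} [Monoid S] [AddCommGroup V] (φ : α → S) (A : TokAct S V) where
  Seg : Set (List α)
  D : List α → V
  app : ∀ x, x ∈ Seg → ∀ y, y ∈ Seg → x ++ y ∈ Seg
  coc : ∀ x, x ∈ Seg → ∀ y, y ∈ Seg → D (x ++ y) = A.act (D x) (y.map φ).prod + D y
  ne : ([] : List α) ∉ Seg
  reg : ∀ (s : S) (d : V),
    Rg ({x | x ∈ Seg ∧ (x.map φ).prod = s ∧ D x = d} : Language α)

section
variable {S : Type u} {V : Type*} [Monoid S] [AddCommGroup V] {φ : α → S} {A : TokAct S V}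

/-- value at the end of `x` of the token `v` at the start of `x`. -/
def Sch.val (c : Sch φ A) (v : V) (x : List α) : V := A.act v (x.map φ).prod + c.D x

/-- the token `v` is not cut inside `x`. -/
def Sch.Uncut (c : Sch φ A) (v : V) (x : List α) : Prop :=
  ∀ y z, y ∈ c.Seg → z ∈ c.Seg → y ++ z = x → c.val v y ≠ 0

theorem Sch.val_append (c : Sch φ A) (v : V) {x y : List α} (hx : x ∈ c.Seg) (hy : y ∈ c.Seg) :
    c.val v (x ++ y) = c.val (c.val v x) y := by
  unfold Sch.val
  rw [c.coc x hx y hy, List.map_append, List.prod_append, A.mul, A.add, add_assoc]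

theorem Sch.val_zero (c : Sch φ A) (x : List α) : c.val 0 x = c.D x := by
  unfold Sch.val
  rw [A.zero, zero_add]

/-- words of `Seg` on which the value goes from `v` to `w`. -/
def Sch.A0 (c : Sch φ A) (v w : V) : Language α := {x | x ∈ c.Seg ∧ c.val v x = w}

/-- the uncut ones. -/
def Sch.U (c : Sch φ A) (v w : V) : Language α := {x | x ∈ c.Seg ∧ c.val v x = w ∧ c.Uncut v x}

theorem Sch.reg_A0 [Finite S] [Finite V] (c : Sch φ A) (v w : V) : (c.A0 v w).IsRegular := by
  have h := reg_iUnion (ι := {q : S × V // A.act v q.1 + q.2 = w})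
    (L := fun q => ({x | x ∈ c.Seg ∧ (x.map φ).prod = q.1.1 ∧ c.D x = q.1.2} : Language α))
    (fun q => c.reg _ _)
  refine Rg.congr h fun x => ?_
  constructor
  · rintro ⟨⟨q, hq⟩, h1, h2, h3⟩
    refine ⟨h1, ?_⟩
    change A.act v (x.map φ).prod + c.D x = w
    rw [h2, h3]; exact hq
  · rintro ⟨h1, h2⟩
    exact ⟨⟨((x.map φ).prod, c.D x), h2⟩, h1, rfl, rfl⟩

theorem Sch.reg_Seg [Finite S] [Finite V] (c : Sch φ A) : Rg (c.Seg : Language α) := by
  have h := reg_iUnion (L := fun w => c.A0 0 w) (fun w => c.reg_A0 0 w)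
  exact Rg.congr h fun x => ⟨fun ⟨_, hx, _⟩ => hx, fun hx => ⟨_, hx, rfl⟩⟩

theorem Sch.reg_U [Finite S] [Finite V] (c : Sch φ A) (v w : V) : (c.U v w).IsRegular := by
  have h := (c.reg_A0 v w).inf (reg_mul (c.reg_A0 v 0) c.reg_Seg).compl
  refine Rg.congr h fun x => ?_
  constructor
  · rintro ⟨⟨h1, h2⟩, h3⟩
    refine ⟨h1, h2, fun y z hy hz hyz h0 => h3 ?_⟩
    exact Language.mem_mul.2 ⟨y, ⟨hy, h0⟩, z, hz, hyz⟩
  · rintro ⟨h1, h2, h3⟩
    refine ⟨⟨h1, h2⟩, ?_⟩
    intro h4
    obtain ⟨y, hy, z, hz, hyz⟩ := Language.mem_mul.1 h4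
    exact h3 y z hy.1 hz hyz hy.2

end

/-- The combinatorial data of one level. -/
structure Level (k : ℕ) (Bad : Set (List α)) {S : Type u} [Monoid S] (φ : α → S) where
  V : Type
  [grp : AddCommGroup V]
  [fin : Finite V]
  A : TokAct S V
  c : Sch φ A
  Seg₀ : Set (List α)
  Bad' : Set (List α)
  solves : Solves k Bad'
  sub : ∀ x, x ∈ Seg₀ → x ∈ c.Seg
  hered : ∀ y z, y ∈ c.Seg → z ∈ c.Seg → y ++ z ∈ Seg₀ → y ∈ Seg₀ ∧ z ∈ Seg₀
  uncut : ∀ x, x ∈ Seg₀ → ∀ v, c.Uncut v x → x ∈ Bad'
  cover : ∀ w, w ∈ Bad → w ∈ Bad' ∨ ∃ p y s, p ∈ Bad' ∧ y ∈ Seg₀ ∧ s ∈ Bad' ∧ p ++ y ++ s = w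

/-- **THE NESTING STEP.** -/
theorem solves_step {Bad : Set (List α)}
    (h : ∀ (S : Type u) [Monoid S] [Finite S] (φ : α → S), Nonempty (Level k Bad φ)) :
    Solves (k + 1) Bad := by
  classical
  intro R hR
  obtain ⟨S, iS, fS, φ, P, hP⟩ := recog R hR
  obtain ⟨⟨V, A, c, Seg₀, Bad', hs, hsub, hher, hunc, hcov⟩⟩ := h S φ
  rename_i iV fV
  choose W hW1 hW2 hW3 using fun q : V × V => hs (c.U q.1 q.2) (c.reg_U q.1 q.2)
  choose X hX1 hX2 hX3 using fun t : S =>
    hs ({w | (w.map φ).prod ∈ ({t} : Set S)} : Language α) (reg_fibre φ {t})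
  obtain ⟨Y, hY1, hY2, hY3⟩ := hs R hR
  let K : Language α := W (0, 0)
  let Ks : Language α := KStar.kstar K
  have hKs : HL (k + 1) Ks := (hW1 (0, 0)).star
  -- soundness of the star
  have sndK : ∀ x, x ∈ Ks → x = [] ∨ (x ∈ c.Seg ∧ c.val 0 x = 0) := by
    intro x hx
    obtain ⟨L, rfl, hL⟩ := Language.mem_kstar.1 hx
    clear hx
    induction L with
    | nil => left; rfl
    | cons y L ih =>
      have hy := hW2 (0, 0) y (hL y (by simp))
      right
      rcases ih (fun z hz => hL z (by simp [hz])) with h0 | ⟨h1, h2⟩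
      · rw [List.flatten_cons, h0, List.append_nil]
        exact ⟨hy.1, hy.2.1⟩
      · rw [List.flatten_cons]
        refine ⟨c.app _ hy.1 _ h1, ?_⟩
        rw [c.val_append 0 hy.1 h1, hy.2.1]
        exact h2
  have KsKs : ∀ x y, x ∈ Ks → y ∈ Ks → x ++ y ∈ Ks := by
    intro x y hx hy
    obtain ⟨L, rfl, hL⟩ := Language.mem_kstar.1 hx
    obtain ⟨L', rfl, hL'⟩ := Language.mem_kstar.1 hy
    refine Language.mem_kstar.2 ⟨L ++ L', by simp, fun z hz => ?_⟩
    rcases List.mem_append.1 hz with hz | hz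
    · exact hL z hz
    · exact hL' z hz
  have Ks1 : ∀ x, x ∈ K → x ∈ Ks := fun x hx =>
    Language.mem_kstar.2 ⟨[x], by simp, fun z hz => by
      rw [List.mem_singleton.1 hz]; exact hx⟩
  have Ks0 : ([] : List α) ∈ Ks := Language.mem_kstar.2 ⟨[], rfl, fun z hz => by simp at hz⟩
  -- completeness of the star on `Seg₀`
  have cmpK : ∀ n : ℕ, ∀ x, x.length ≤ n → x ∈ Seg₀ → c.val 0 x = 0 → x ∈ Ks := by
    intro n
    induction n with
    | zero =>
      intro x hx hx0 _
      have : x = [] := List.length_eq_zero_iff.1 (Nat.le_zero.1 hx)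
      exact (c.ne (this ▸ hsub x hx0)).elim
    | succ n ih =>
      intro x hx hx0 hv
      by_cases hu : c.Uncut 0 x
      · exact Ks1 x (hW3 (0, 0) x ⟨hsub x hx0, hv, hu⟩ (hunc x hx0 0 hu))
      · unfold Sch.Uncut at hu
        push Not at hu
        obtain ⟨y, z, hy, hz, rfl, h0⟩ := hu
        obtain ⟨hy0, hz0⟩ := hher y z hy hz hx0
        have hyl : 0 < y.length := List.length_pos_iff.2 fun e => c.ne (e ▸ hy)
        have hzl : 0 < z.length := List.length_pos_iff.2 fun e => c.ne (e ▸ hz)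
        rw [List.length_append] at hx
        have hvz : c.val 0 z = 0 := by
          rw [c.val_append 0 hy hz, h0] at hv
          exact hv
        exact KsKs _ _ (ih y (by omega) hy0 h0) (ih z (by omega) hz0 hvz)
  -- from token `0` to any value
  have cmp0 : ∀ n : ℕ, ∀ x, x.length ≤ n → x ∈ Seg₀ → x ∈ Ks * W (0, c.val 0 x) := by
    intro n
    induction n with
    | zero =>
      intro x hx hx0
      have : x = [] := List.length_eq_zero_iff.1 (Nat.le_zero.1 hx)
      exact (c.ne (this ▸ hsub x hx0)).elim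
    | succ n ih =>
      intro x hx hx0
      by_cases hu : c.Uncut 0 x
      · exact Language.mem_mul.2 ⟨[], Ks0, x,
          hW3 (0, c.val 0 x) x ⟨hsub x hx0, rfl, hu⟩ (hunc x hx0 0 hu), rfl⟩
      · unfold Sch.Uncut at hu
        push Not at hu
        obtain ⟨y, z, hy, hz, rfl, h0⟩ := hu
        obtain ⟨hy0, hz0⟩ := hher y z hy hz hx0
        have hyl : 0 < y.length := List.length_pos_iff.2 fun e => c.ne (e ▸ hy)
        rw [List.length_append] at hx
        have hvz : c.val 0 (y ++ z) = c.val 0 z := by rw [c.val_append 0 hy hz, h0]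
        rw [hvz]
        obtain ⟨a, ha, b, hb, hab⟩ := Language.mem_mul.1 (ih z (by omega) hz0)
        refine Language.mem_mul.2 ⟨y ++ a, KsKs _ _ (cmpK _ y le_rfl hy0 h0) ha, b, hb, ?_⟩
        rw [List.append_assoc, hab]
  let N : V → V → Language α := fun v w => W (v, w) ⊔ W (v, 0) * (Ks * W (0, w))
  have hN : ∀ v w, HL (k + 1) (N v w) := fun v w =>
    ((hW1 (v, w)).mono (Nat.le_succ k)).sup
      (((hW1 (v, 0)).mono (Nat.le_succ k)).mul (hKs.mul ((hW1 (0, w)).mono (Nat.le_succ k))))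
  have sndN : ∀ v w x, x ∈ N v w → x ∈ c.Seg ∧ c.val v x = w := by
    rintro v w x (hx | hx)
    · have := hW2 (v, w) x hx
      exact ⟨this.1, this.2.1⟩
    · obtain ⟨a, ha, b, hb, rfl⟩ := Language.mem_mul.1 hx
      obtain ⟨d, hd, e, he, rfl⟩ := Language.mem_mul.1 hb
      have ha' := hW2 (v, 0) a ha
      have he' := hW2 (0, w) e he
      rcases sndK d hd with rfl | ⟨h1, h2⟩
      · rw [List.nil_append]
        refine ⟨c.app _ ha'.1 _ he'.1, ?_⟩
        rw [c.val_append v ha'.1 he'.1, ha'.2.1]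
        exact he'.2.1
      · have hde : d ++ e ∈ c.Seg := c.app _ h1 _ he'.1
        refine ⟨c.app _ ha'.1 _ hde, ?_⟩
        rw [c.val_append v ha'.1 hde, ha'.2.1, c.val_append 0 h1 he'.1, h2]
        exact he'.2.1
  have cmpN : ∀ v x, x ∈ Seg₀ → x ∈ N v (c.val v x) := by
    intro v x hx0
    by_cases hu : c.Uncut v x
    · exact Or.inl (hW3 (v, c.val v x) x ⟨hsub x hx0, rfl, hu⟩ (hunc x hx0 v hu))
    · right
      have hex : ∃ n, ∃ y z, y ∈ c.Seg ∧ z ∈ c.Seg ∧ y ++ z = x ∧ c.val v y = 0 ∧ y.length = n := by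
        unfold Sch.Uncut at hu
        push Not at hu
        obtain ⟨y, z, hy, hz, e, h0⟩ := hu
        exact ⟨_, y, z, hy, hz, e, h0, rfl⟩
      obtain ⟨y, z, hy, hz, e, h0, hn⟩ := Nat.find_spec hex
      subst e
      obtain ⟨hy0, hz0⟩ := hher y z hy hz hx0
      have huy : c.Uncut v y := by
        intro y1 y2 h1 h2 e12 hv1
        subst e12
        have hl : 0 < y2.length := List.length_pos_iff.2 fun e => c.ne (e ▸ h2)
        have hlt : y1.length < Nat.find hex := by
          rw [← hn, List.length_append]; omega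
        exact Nat.find_min hex hlt
          ⟨y1, y2 ++ z, h1, c.app _ h2 _ hz, by rw [List.append_assoc], hv1, rfl⟩
      have hval : c.val v (y ++ z) = c.val 0 z := by rw [c.val_append v hy hz, h0]
      rw [hval]
      exact Language.mem_mul.2 ⟨y, hW3 (v, 0) y ⟨hy, h0, huy⟩ (hunc y hy0 v huy), z,
        cmp0 _ z le_rfl hz0, rfl⟩
  let F : S → Language α := fun t => {x | ∃ d : V, x ∈ ({x | ∀ v : V, x ∈ N v (A.act v t + d)} : Language α)}
  have hF : ∀ t, HL (k + 1) (F t) := fun t => HL.iUnion fun d => HL.iInter fun v => hN _ _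
  have sndF : ∀ t x, x ∈ F t → (x.map φ).prod = t := by
    rintro t x ⟨d, hd⟩
    have hd' : ∀ v : V, c.val v x = A.act v t + d := fun v => (sndN _ _ x (hd v)).2
    have h0 : c.D x = d := by
      have := hd' 0
      rw [c.val_zero, A.zero, zero_add] at this
      exact this
    refine A.faithful _ _ fun v => ?_
    have := hd' v
    unfold Sch.val at this
    rw [h0] at this
    exact add_right_cancel this
  have cmpF : ∀ x, x ∈ Seg₀ → x ∈ F ((x.map φ).prod) := fun x hx =>
    ⟨c.D x, fun v => cmpN v x hx⟩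
  let T : Language α := {x | ∃ q : {q : S × S × S // q.1 * q.2.1 * q.2.2 ∈ P},
    x ∈ X q.1.1 * F q.1.2.1 * X q.1.2.2}
  have hT : HL (k + 1) T := HL.iUnion fun q =>
    (((hX1 _).mono (Nat.le_succ k)).mul (hF _)).mul ((hX1 _).mono (Nat.le_succ k))
  refine ⟨Y ⊔ T, (hY1.mono (Nat.le_succ k)).sup hT, ?_, ?_⟩
  · rintro w (hw | ⟨⟨⟨t1, t2, t3⟩, ht⟩, hw⟩)
    · exact hY2 w hw
    · obtain ⟨a, ha, s, hsx, rfl⟩ := Language.mem_mul.1 hw
      obtain ⟨p, hp, y, hy, rfl⟩ := Language.mem_mul.1 ha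
      rw [hP, List.map_append, List.prod_append, List.map_append, List.prod_append]
      have h1 : (p.map φ).prod = t1 := hX2 t1 p hp
      have h2 : (y.map φ).prod = t2 := sndF t2 y hy
      have h3 : (s.map φ).prod = t3 := hX2 t3 s hsx
      rw [h1, h2, h3]
      exact ht
  · intro w hw hb
    rcases hcov w hb with hb' | ⟨p, y, s, hp, hy, hs', rfl⟩
    · exact Or.inl (hY3 w hw hb')
    · right
      have hmem : (p.map φ).prod * (y.map φ).prod * (s.map φ).prod ∈ P := by
        have := (hP _).1 hw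
        rwa [List.map_append, List.prod_append, List.map_append, List.prod_append] at this
      refine ⟨⟨((p.map φ).prod, (y.map φ).prod, (s.map φ).prod), hmem⟩, ?_⟩
      exact Language.mem_mul.2 ⟨p ++ y, Language.mem_mul.2 ⟨p, hX3 _ p rfl hp, y, cmpF y hy, rfl⟩,
        s, hX3 _ s rfl hs', rfl⟩

end Crest.Agent.R320.Nest_812
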