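import Crest.Agent.R320.Hk1_851

/-!
# Row 320, item (9): nesting of schemes by lower approximations (helper988)

`SS n T` : every regular language `R` has a lower approximation `L ⊆ R` of height `≤ n` which is
exact on `T`.  A scheme which is sound on every text and complete on the texts of `T` raises the
height by one star over the heights needed on its bad stretches; no definability of the class of
bad stretches is needed.
-/

set_option autoImplicit false

namespace Crest.Agent.R320.Nest_988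

open Crest.RegLang Crest.Agent.R320.Hk_851

universe u

variable {α : Type u} {n : ℕ}

/-- `R` has a lower approximation of height `n` which is exact on `T`. -/
def LA (n : ℕ) (T : Set (List α)) (R : Language α) : Prop :=
  ∃ L : Language α, HL n L ∧ (∀ w ∈ L, w ∈ R) ∧ (∀ w ∈ T, w ∈ R → w ∈ L)

/-- every regular language has a lower approximation of height `n` which is exact on `T`. -/
def SS (n : ℕ) (T : Set (List α)) : Prop :=
  ∀ R : Language α, R.IsRegular → LA n T R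

/-! ## `LA` -/

theorem LA.mono {m : ℕ} (h : n ≤ m) {T : Set (List α)} {R : Language α} (hR : LA n T R) :
    LA m T R := by
  obtain ⟨L, h1, h2, h3⟩ := hR
  exact ⟨L, h1.mono h, h2, h3⟩

theorem LA.anti {T T' : Set (List α)} (h : T' ⊆ T) {R : Language α} (hR : LA n T R) :
    LA n T' R := by
  obtain ⟨L, h1, h2, h3⟩ := hR
  exact ⟨L, h1, h2, fun w hw => h3 w (h hw)⟩

theorem LA.of_HL {T : Set (List α)} {R : Language α} (hR : HL n R) : LA n T R :=
  ⟨R, hR, fun _ h => h, fun _ _ h => h⟩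

theorem LA.inf {T : Set (List α)} {R S : Language α} (hR : LA n T R) (hS : LA n T S) :
    LA n T (R ⊓ S) := by
  obtain ⟨L, h1, h2, h3⟩ := hR
  obtain ⟨M, k1, k2, k3⟩ := hS
  exact ⟨L ⊓ M, h1.inf k1, fun w hw => ⟨h2 w hw.1, k2 w hw.2⟩,
    fun w hT hw => ⟨h3 w hT hw.1, k3 w hT hw.2⟩⟩

theorem LA.sup {T : Set (List α)} {R S : Language α} (hR : LA n T R) (hS : LA n T S) :
    LA n T (R ⊔ S) := by
  obtain ⟨L, h1, h2, h3⟩ := hR
  obtain ⟨M, k1, k2, k3⟩ := hS
  refine ⟨L ⊔ M, h1.sup k1, ?_, ?_⟩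
  · rintro w (hw | hw)
    · exact Or.inl (h2 w hw)
    · exact Or.inr (k2 w hw)
  · rintro w hT (hw | hw)
    · exact Or.inl (h3 w hT hw)
    · exact Or.inr (k3 w hT hw)

theorem LA.iUnion {ι : Type*} [Finite ι] {T : Set (List α)} {R : ι → Language α}
    (h : ∀ i, LA n T (R i)) : LA n T {w | ∃ i, w ∈ R i} := by
  choose L h1 h2 h3 using h
  exact ⟨{w | ∃ i, w ∈ L i}, HL.iUnion h1, fun w ⟨i, hi⟩ => ⟨i, h2 i w hi⟩,
    fun w hT ⟨i, hi⟩ => ⟨i, h3 i w hT hi⟩⟩

theorem LA.iInter {ι : Type*} [Finite ι] {T : Set (List α)} {R : ι → Language α}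
    (h : ∀ i, LA n T (R i)) : LA n T {w | ∀ i, w ∈ R i} := by
  choose L h1 h2 h3 using h
  exact ⟨{w | ∀ i, w ∈ L i}, HL.iInter h1, fun w hw i => h2 i w (hw i),
    fun w hT hw i => h3 i w hT (hw i)⟩

/-- squeezing: `T ∩ R₀ ⊆ R ⊆ R₀` -/
theorem LA.squeeze {T : Set (List α)} {R R₀ : Language α} (hR : LA n T R)
    (h1 : ∀ w ∈ R, w ∈ R₀) (h2 : ∀ w ∈ T, w ∈ R₀ → w ∈ R) : LA n T R₀ := by
  obtain ⟨L, k1, k2, k3⟩ := hR
  exact ⟨L, k1, fun w hw => h1 w (k2 w hw), fun w hT hw => k3 w hT (h2 w hT hw)⟩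

/-- a promise scheme which is sound only on `Y`: intersect with `Y' ⊇ T` of height `n`, on which the
scheme is sound. -/
theorem LA.promise {T : Set (List α)} {R Y L : Language α} (hY : HL n Y) (hL : HL n L)
    (hTY : ∀ w ∈ T, w ∈ Y) (hs : ∀ w ∈ Y, w ∈ L → w ∈ R) (hc : ∀ w ∈ T, w ∈ R → w ∈ L) :
    LA n T R :=
  ⟨L ⊓ Y, hL.inf hY, fun w hw => hs w hw.2 hw.1, fun w hT hw => ⟨hc w hT hw, hTY w hT⟩⟩

/-- exactness on two classes -/
theorem LA.union {T T' : Set (List α)} {R : Language α} (h : LA n T R) (h' : LA n T' R) :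
    LA n (T ∪ T') R := by
  obtain ⟨L, h1, h2, h3⟩ := h
  obtain ⟨M, k1, k2, k3⟩ := h'
  refine ⟨L ⊔ M, h1.sup k1, ?_, ?_⟩
  · rintro w (hw | hw)
    · exact h2 w hw
    · exact k2 w hw
  · rintro w (hT | hT) hw
    · exact Or.inl (h3 w hT hw)
    · exact Or.inr (k3 w hT hw)

theorem LA.univ_iff {R : Language α} : LA n (Set.univ : Set (List α)) R ↔ HL n R := by
  constructor
  · rintro ⟨L, h1, h2, h3⟩
    exact h1.congr fun w => ⟨fun hw => h3 w trivial hw, fun hw => h2 w hw⟩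
  · exact LA.of_HL

/-! ## `SS` -/

theorem SS.mono {m : ℕ} (h : n ≤ m) {T : Set (List α)} (hT : SS n T) : SS m T :=
  fun R hR => (hT R hR).mono h

theorem SS.anti {T T' : Set (List α)} (h : T' ⊆ T) (hT : SS n T) : SS n T' :=
  fun R hR => (hT R hR).anti h

theorem SS.union {T T' : Set (List α)} (hT : SS n T) (hT' : SS n T') : SS n (T ∪ T') :=
  fun R hR => (hT R hR).union (hT' R hR)

theorem SS.iUnion {ι : Type*} [Finite ι] {T : ι → Set (List α)} (h : ∀ i, SS n (T i)) :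
    SS n {w | ∃ i, w ∈ T i} := by
  intro R hR
  have h' := fun i => h i R hR
  choose L h1 h2 h3 using h'
  exact ⟨{w | ∃ i, w ∈ L i}, HL.iUnion h1, fun w ⟨i, hi⟩ => h2 i w hi,
    fun w ⟨i, hi⟩ hw => ⟨i, h3 i w hi hw⟩⟩

theorem SS.bounded [Finite α] (B : ℕ) : SS n {w : List α | w.length ≤ B} := by
  intro R _
  refine ⟨R ⊓ ({w : List α | w.length ≤ B} : Language α), ?_, fun w hw => hw.1,
    fun w hT hw => ⟨hw, hT⟩⟩
  exact HL.finite ((List.finite_length_le α B).subset fun w hw => hw.2)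

/-- quotients of a regular language by two words -/
theorem isRegular_quot {R : Language α} (hR : R.IsRegular) (u v : List α) :
    Language.IsRegular ({m | u ++ m ++ v ∈ R} : Language α) := by
  obtain ⟨σ, hσ, M, rfl⟩ := hR
  refine ⟨σ, hσ, ⟨M.step, M.evalFrom M.start u, {s | M.evalFrom s v ∈ M.accept}⟩, ?_⟩
  ext m
  simp only [DFA.mem_accepts, DFA.eval]
  change M.evalFrom (M.evalFrom (M.evalFrom M.start u) m) v ∈ M.accept ↔
    M.evalFrom M.start (u ++ m ++ v) ∈ M.accept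
  rw [DFA.evalFrom_of_append, DFA.evalFrom_of_append]

/-- bounded frames -/
def Frame (B : ℕ) (T : Set (List α)) : Set (List α) :=
  {w | ∃ u m v : List α, u.length ≤ B ∧ v.length ≤ B ∧ m ∈ T ∧ w = u ++ m ++ v}

theorem LA.frame1 {T : Set (List α)} {R : Language α} (u v : List α)
    (h : LA n T ({m | u ++ m ++ v ∈ R} : Language α)) :
    ∃ L : Language α, HL n L ∧ (∀ w ∈ L, w ∈ R) ∧
      (∀ m ∈ T, u ++ m ++ v ∈ R → u ++ m ++ v ∈ L) := by
  obtain ⟨L, h1, h2, h3⟩ := h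
  refine ⟨({u} : Language α) * L * ({v} : Language α), ((HL.word u).mul h1).mul (HL.word v),
    ?_, ?_⟩
  · intro w hw
    obtain ⟨x, hx, y, hy, rfl⟩ := Language.mem_mul.1 hw
    obtain ⟨a, ha, b, hb, rfl⟩ := Language.mem_mul.1 hx
    rw [Set.mem_singleton_iff.1 ha, Set.mem_singleton_iff.1 hy]
    exact h2 b hb
  · intro m hm hw
    exact Language.mem_mul.2 ⟨u ++ m, Language.mem_mul.2 ⟨u, rfl, m, h3 m hm hw, rfl⟩, v, rfl, rfl⟩

theorem SS.frame [Finite α] {T : Set (List α)} (hT : SS n T) (B : ℕ) : SS n (Frame B T) := by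
  intro R hR
  have h := fun (p : {w : List α // w.length ≤ B} × {w : List α // w.length ≤ B}) =>
    LA.frame1 (R := R) p.1.1 p.2.1 (hT _ (isRegular_quot hR p.1.1 p.2.1))
  have : Finite {w : List α // w.length ≤ B} := (List.finite_length_le α B).to_subtype
  choose L h1 h2 h3 using h
  refine ⟨{w | ∃ p, w ∈ L p}, HL.iUnion h1, fun w ⟨p, hp⟩ => h2 p w hp, ?_⟩
  rintro w ⟨u, m, v, hu, hv, hm, rfl⟩ hw
  exact ⟨(⟨u, hu⟩, ⟨v, hv⟩), h3 (⟨u, hu⟩, ⟨v, hv⟩) m hm hw⟩

/-! ## the thread theorem -/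

/-- **Thread theorem.**  `R` is closed under concatenation, `T` under factors; a word of `T ∩ R`
which does not lie in `U` splits into two nonempty words of `R`.  Then `R` has a lower
approximation of height `n + 1` which is exact on `T` (for nonempty words). -/
theorem thread_pos {T U : Set (List α)} {R : Language α}
    (hmul : ∀ u ∈ R, ∀ v ∈ R, u ++ v ∈ R)
    (hfac : ∀ u v : List α, u ++ v ∈ T → u ∈ T ∧ v ∈ T)
    (hU : LA n U R)
    (hdec : ∀ w ∈ T, w ∈ R → w ≠ [] → w ∉ U →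
      ∃ u v : List α, u ≠ [] ∧ v ≠ [] ∧ u ∈ R ∧ v ∈ R ∧ w = u ++ v) :
    ∃ L : Language α, HL (n + 1) L ∧ (∀ w ∈ L, w ≠ [] → w ∈ R) ∧
      (∀ w ∈ T, w ∈ R → w ∈ L) := by
  obtain ⟨K, h1, h2, h3⟩ := hU
  refine ⟨KStar.kstar K, h1.star, ?_, ?_⟩
  · intro w hw
    obtain ⟨l, rfl, hl⟩ := Language.mem_kstar.1 hw
    clear hw
    induction l with
    | nil => intro h; exact (h rfl).elim
    | cons x l ih =>
      intro hne
      have hx : x ∈ R := h2 x (hl x (List.mem_cons_self ..))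
      rw [List.flatten_cons]
      by_cases hl0 : l.flatten = []
      · rw [hl0, List.append_nil]; exact hx
      · exact hmul x hx _ (ih (fun y hy => hl y (List.mem_cons_of_mem _ hy)) hl0)
  · intro w
    induction hN : w.length using Nat.strong_induction_on generalizing w with
    | _ N ih =>
      intro hT hR
      by_cases hw0 : w = []
      · rw [hw0]; exact Language.nil_mem_kstar K
      by_cases hwU : w ∈ U
      · have hwK := h3 w hwU hR
        exact Language.mem_kstar.2 ⟨[w], by simp, by simpa using hwK⟩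
      · obtain ⟨u, v, hu, hv, huR, hvR, rfl⟩ := hdec w hT hR hw0 hwU
        have hf := hfac u v hT
        have hlen : (u ++ v).length = u.length + v.length := List.length_append
        have hu0 : 0 < u.length := List.length_pos_of_ne_nil hu
        have hv0 : 0 < v.length := List.length_pos_of_ne_nil hv
        have a := ih u.length (by omega) u rfl hf.1 huR
        have b := ih v.length (by omega) v rfl hf.2 hvR
        obtain ⟨l, hl, hl'⟩ := Language.mem_kstar.1 a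
        obtain ⟨m, hm, hm'⟩ := Language.mem_kstar.1 b
        refine Language.mem_kstar.2 ⟨l ++ m, by rw [List.flatten_append, ← hl, ← hm], ?_⟩
        intro y hy
        rcases List.mem_append.1 hy with hy | hy
        · exact hl' y hy
        · exact hm' y hy

theorem thread [Finite α] {T U : Set (List α)} {R : Language α}
    (hmul : ∀ u ∈ R, ∀ v ∈ R, u ++ v ∈ R)
    (hfac : ∀ u v : List α, u ++ v ∈ T → u ∈ T ∧ v ∈ T)
    (hU : LA n U R)
    (hdec : ∀ w ∈ T, w ∈ R → w ≠ [] → w ∉ U →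
      ∃ u v : List α, u ≠ [] ∧ v ≠ [] ∧ u ∈ R ∧ v ∈ R ∧ w = u ++ v) :
    LA (n + 1) T R := by
  obtain ⟨L, h1, h2, h3⟩ := thread_pos hmul hfac hU hdec
  by_cases h0 : ([] : List α) ∈ R
  · refine ⟨L, h1, fun w hw => ?_, h3⟩
    by_cases hw0 : w = []
    · rw [hw0]; exact h0
    · exact h2 w hw hw0
  · refine ⟨L \ (1 : Language α), h1.sdiff HL.one, fun w hw => ?_, fun w hT hw => ⟨h3 w hT hw, ?_⟩⟩
    · refine h2 w hw.1 fun h => hw.2 ?_
      rw [h]; exact Language.nil_mem_one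
    · intro h
      rw [(Language.mem_one w).1 h] at hw
      exact h0 hw

/-- two-sided form: first window `P`, last window `Q` -/
theorem thread_two [Finite α] {T U : Set (List α)} {E P Q R : Language α}
    (hmul : ∀ u ∈ R, ∀ v ∈ R, u ++ v ∈ R)
    (hPQ : ∀ p ∈ P, ∀ q ∈ Q, p ++ q ∈ E)
    (hPRQ : ∀ p ∈ P, ∀ r ∈ R, ∀ q ∈ Q, p ++ r ++ q ∈ E)
    (hfac : ∀ u v : List α, u ++ v ∈ T → u ∈ T ∧ v ∈ T)
    (hUR : LA n U R) (hUP : LA n U P) (hUQ : LA n U Q) (hUE : LA n U E)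
    (hdec : ∀ w ∈ T, w ∈ R → w ≠ [] → w ∉ U →
      ∃ u v : List α, u ≠ [] ∧ v ≠ [] ∧ u ∈ R ∧ v ∈ R ∧ w = u ++ v)
    (hE : ∀ w ∈ T, w ∈ E → w ∉ U → ∃ p q : List α, p ∈ P ∧ p ∈ U ∧ q ∈ Q ∧ q ∈ U ∧
      (w = p ++ q ∨ ∃ r ∈ R, w = p ++ r ++ q)) :
    LA (n + 1) T E := by
  obtain ⟨LR, r1, r2, r3⟩ := thread hmul hfac hUR hdec
  obtain ⟨LP, p1, p2, p3⟩ := hUP
  obtain ⟨LQ, q1, q2, q3⟩ := hUQ
  obtain ⟨LE, e1, e2, e3⟩ := hUE
  have hn : n ≤ n + 1 := Nat.le_succ n
  refine ⟨LE ⊔ ((LP * LQ) ⊔ (LP * LR * LQ)),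
    (e1.mono hn).sup (((p1.mono hn).mul (q1.mono hn)).sup
      (((p1.mono hn).mul r1).mul (q1.mono hn))), ?_, ?_⟩
  · rintro w (hw | hw | hw)
    · exact e2 w hw
    · obtain ⟨p, hp, q, hq, rfl⟩ := Language.mem_mul.1 hw
      exact hPQ p (p2 p hp) q (q2 q hq)
    · obtain ⟨x, hx, q, hq, rfl⟩ := Language.mem_mul.1 hw
      obtain ⟨p, hp, r, hr, rfl⟩ := Language.mem_mul.1 hx
      exact hPRQ p (p2 p hp) r (r2 r hr) q (q2 q hq)
  · intro w hT hw
    by_cases hwU : w ∈ U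
    · exact Or.inl (e3 w hwU hw)
    · obtain ⟨p, q, hp, hpU, hq, hqU, h⟩ := hE w hT hw hwU
      rcases h with rfl | ⟨r, hr, rfl⟩
      · exact Or.inr (Or.inl (Language.mem_mul.2 ⟨p, p3 p hpU hp, q, q3 q hqU hq, rfl⟩))
      · have hrT : r ∈ T := (hfac p r (hfac (p ++ r) q hT).1).2
        exact Or.inr (Or.inr (Language.mem_mul.2 ⟨p ++ r, Language.mem_mul.2
          ⟨p, p3 p hpU hp, r, r3 r hrT hr, rfl⟩, q, q3 q hqU hq, rfl⟩))

/-! ## nesting -/

/-- **Nesting.**  If every regular `R₀` is squeezed on `T` by finite unions of finite intersections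
of languages with lower approximations of height `n` exact on `T`, then `SS n T`. -/
theorem SS.of_family {T : Set (List α)}
    (h : ∀ R₀ : Language α, R₀.IsRegular → ∃ (ι κ : Type) (_ : Finite ι) (_ : Finite κ)
      (E : ι → κ → Language α), (∀ i j, LA n T (E i j)) ∧
        (∀ w, (∃ i, ∀ j, w ∈ E i j) → w ∈ R₀) ∧
        (∀ w ∈ T, w ∈ R₀ → ∃ i, ∀ j, w ∈ E i j)) : SS n T := by
  intro R₀ hR₀
  obtain ⟨ι, κ, _, _, E, h1, h2, h3⟩ := h R₀ hR₀
  have h4 : LA n T {w | ∃ i, w ∈ ({w | ∀ j, w ∈ E i j} : Language α)} :=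
    LA.iUnion fun i => LA.iInter (h1 i)
  exact h4.squeeze (fun w hw => h2 w hw) (fun w hT hw => h3 w hT hw)

/-- the top: `SS 3 univ` is the row. -/
theorem SS.top (h : SS 3 (Set.univ : Set (List α))) (L : Language α) (hL : L.IsRegular) :
    ∃ e : GRegExp α, e.height ≤ 3 ∧ e.lang = L :=
  LA.univ_iff.1 (h L hL)

end Crest.Agent.R320.Nest_988
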