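import Crest.Agent.R320.Top_180
import Crest.Agent.R320.FewVal_228
import Crest.Agent.R320.ExactR_237
import Crest.Agent.R320.Reg_143
import Crest.Agent.R320.Nest_812
import Crest.Agent.R320.Nest_988

/-!
# Row 320: final joint on all words, part A (helper349)

Left walls, natural block code, few walls, regularity of the block languages.
-/

set_option autoImplicit false

namespace Crest.Agent.R320.Fin_349

open Crest.RegLang Crest.Agent.R320.Hk_851 Crest.Agent.R320.Half1_180
open Crest.Agent.R320.FewWalls_228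

variable {α : Type}

/-- place `t` is a (left) wall of `w` -/
def Wal (n : ℕ) (S : Set (List α)) (w : List α) (t : ℕ) : Prop := n ≤ t ∧ Wl n S w (t - n)

theorem wal_le {n : ℕ} {S : Set (List α)} {w : List α} {t : ℕ} (h : Wal n S w t) :
    t ≤ w.length := by
  have h1 := h.2.1
  have h2 := h.1
  omega

theorem wal_shift {n : ℕ} {S : Set (List α)} (P Q : List α) {t : ℕ} (ht : n ≤ t) :
    Wal n S (P ++ Q) (P.length + t) ↔ Wal n S Q t := by
  unfold Wal Wl
  have e : P.length + t - n = P.length + (t - n) := by omega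
  rw [e, List.drop_append, List.drop_of_length_le (by omega : P.length ≤ P.length + (t - n)),
    List.nil_append]
  simp only [List.length_append]
  have e2 : P.length + (t - n) - P.length = t - n := by omega
  rw [e2]
  constructor
  · rintro ⟨h1, h2, h3⟩
    exact ⟨ht, by omega, h3⟩
  · rintro ⟨h1, h2, h3⟩
    exact ⟨by omega, by omega, h3⟩

theorem wal_prefix {n : ℕ} {S : Set (List α)} {X w : List α} (h : X <+: w) {t : ℕ}
    (ht : t ≤ X.length) : Wal n S X t ↔ Wal n S w t := by
  obtain ⟨Y, rfl⟩ := h
  unfold Wal Wl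
  constructor
  · rintro ⟨h1, h2, h3⟩
    refine ⟨h1, by rw [List.length_append]; omega, ?_⟩
    rw [List.drop_append_of_le_length (by omega), List.take_append_of_le_length
      (by rw [List.length_drop]; omega)]
    exact h3
  · rintro ⟨h1, h2, h3⟩
    refine ⟨h1, by omega, ?_⟩
    rw [List.drop_append_of_le_length (by omega), List.take_append_of_le_length
      (by rw [List.length_drop]; omega)] at h3
    exact h3

/-- natural block code: first wall at a place `≥ z` -/
def XX (n : ℕ) (S : Set (List α)) (z : ℕ) : Set (List α) :=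
  {X | z ≤ X.length ∧ Wal n S X X.length ∧ ∀ t, z ≤ t → t < X.length → ¬ Wal n S X t}

theorem XX_pf {n : ℕ} {S : Set (List α)} {z : ℕ} (hz : 0 < z) : PF (XX n S z) := by
  refine ⟨?_, ?_⟩
  · rintro X ⟨h1, -, -⟩ rfl
    simp at h1
    omega
  · rintro X ⟨h1, h2, -⟩ Y ⟨-, -, h6⟩ hp
    rcases Nat.lt_or_ge X.length Y.length with hlt | hge
    · exact absurd ((wal_prefix hp le_rfl).1 h2) (h6 _ h1 hlt)
    · exact hp.eq_of_length (le_antisymm hp.length_le hge)

theorem exists_block {n : ℕ} {S : Set (List α)} {z : ℕ} {w : List α} {t : ℕ} (hzt : z ≤ t)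
    (ht : Wal n S w t) : ∃ X ∈ XX n S z, X <+: w ∧ X.length ≤ t := by
  classical
  have hex : ∃ t, z ≤ t ∧ Wal n S w t := ⟨t, hzt, ht⟩
  let u := Nat.find hex
  have hu : z ≤ u ∧ Wal n S w u := Nat.find_spec hex
  have hul : u ≤ w.length := wal_le hu.2
  have hp : w.take u <+: w := List.take_prefix _ _
  have hl : (w.take u).length = u := by rw [List.length_take]; omega
  refine ⟨w.take u, ⟨by rw [hl]; exact hu.1, ?_, ?_⟩, hp, ?_⟩
  · rw [hl]
    exact (wal_prefix hp (by rw [hl])).2 hu.2
  · intro s hs hsl hw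
    rw [hl] at hsl
    exact Nat.find_min hex hsl ⟨hs, (wal_prefix hp (by rw [hl]; omega)).1 hw⟩
  · rw [hl]
    exact Nat.find_min' hex ⟨hzt, ht⟩

/-- few walls -/
theorem nw_le {n : ℕ} {S : Set (List α)} {m : ℕ} {w : List α}
    (h : ∀ t, m ≤ t → t < w.length → ¬ Wal n S w t) : nw n S w ≤ m + 1 := by
  classical
  have : nw n S w ≤ (Finset.range m ∪ {w.length - n}).card := by
    unfold nw
    refine Finset.card_le_card ?_
    intro x hx
    rw [Finset.mem_filter] at hx
    rw [Finset.mem_union, Finset.mem_range, Finset.mem_singleton]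
    by_cases hxm : x < m
    · exact Or.inl hxm
    · right
      by_contra hne
      have h1 := hx.2.1
      refine h (x + n) (by omega) (by omega) ⟨by omega, ?_⟩
      rw [Nat.add_sub_cancel]
      exact hx.2
  refine this.trans ((Finset.card_union_le _ _).trans ?_)
  simp

/-! ### regularity -/

theorem reg_congr {L M : Language α} (h : L.IsRegular) (e : ∀ w, w ∈ M ↔ w ∈ L) :
    M.IsRegular := by
  have : M = L := by ext w; exact e w
  rw [this]; exact h

theorem reg_top : (⊤ : Language α).IsRegular :=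
  reg_congr (Crest.R320.Reg_143.isRegular_length (β := α) (fun _ => True) 0 1 one_pos
    (fun _ _ => Iff.rfl)) (fun w => ⟨fun _ => trivial, fun _ => trivial⟩)

theorem reg_ge (m : ℕ) : Language.IsRegular ({w | m ≤ w.length} : Language α) :=
  reg_congr (Crest.R320.Reg_143.isRegular_length (β := α) (fun k => m ≤ k) m 1 one_pos
    (fun k hk => ⟨fun _ => hk, fun _ => by omega⟩)) (fun w => Iff.rfl)

theorem reg_len (m : ℕ) : Language.IsRegular ({w | w.length = m} : Language α) :=
  reg_congr (Crest.R320.Reg_143.isRegular_length (β := α) (fun k => k = m) (m + 1) 1 one_pos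
    (fun k hk => ⟨fun h => by omega, fun h => by omega⟩)) (fun w => Iff.rfl)

theorem reg_endS [Finite α] (n : ℕ) (S : Set (List α)) :
    Language.IsRegular ({w | Wal n S w w.length} : Language α) := by
  have h1 : Language.IsRegular ({w | w ∈ S ∧ w.length = n} : Language α) := by
    refine reg_congr (Crest.R320.Reg_143.isRegular_take (β := α) (n + 1)
      (fun w => w ∈ S ∧ w.length = n)) (fun w => ?_)
    show (w ∈ S ∧ w.length = n) ↔ (w.take (n + 1) ∈ S ∧ (w.take (n + 1)).length = n)
    constructor
    · rintro ⟨h1, h2⟩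
      rw [List.take_of_length_le (by omega)]
      exact ⟨h1, h2⟩
    · rintro ⟨h1, h2⟩
      rw [List.length_take] at h2
      rw [List.take_of_length_le (by omega)] at h1
      exact ⟨h1, by omega⟩
  refine reg_congr (Crest.Agent.R320.Nest_812.reg_mul reg_top h1) (fun w => ?_)
  constructor
  · rintro ⟨h1, h2, h3⟩
    refine Language.mem_mul.2 ⟨w.take (w.length - n), trivial, w.drop (w.length - n), ⟨?_, ?_⟩,
      List.take_append_drop _ _⟩
    · rw [List.take_of_length_le (by rw [List.length_drop]; omega)] at h3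
      exact h3
    · rw [List.length_drop]; omega
  · intro h
    obtain ⟨a, -, b, ⟨hb1, hb2⟩, rfl⟩ := Language.mem_mul.1 h
    refine ⟨by rw [List.length_append]; omega, by rw [List.length_append]; omega, ?_⟩
    have e : (a ++ b).length - n = a.length := by rw [List.length_append]; omega
    rw [e, List.drop_left, List.take_of_length_le (by omega)]
    exact hb1

theorem reg_EZ [Finite α] (n : ℕ) (S : Set (List α)) (m : ℕ) :
    Language.IsRegular ({w | m ≤ w.length ∧ Wal n S w w.length} : Language α) :=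
  (reg_ge m).inf (reg_endS n S)

theorem reg_NE [Finite α] (n : ℕ) (S : Set (List α)) (m : ℕ) :
    Language.IsRegular ({w | ∃ t, m ≤ t ∧ t < w.length ∧ Wal n S w t} : Language α) := by
  refine reg_congr (Crest.Agent.R320.Nest_812.reg_mul (reg_EZ n S m) (reg_ge 1)) (fun w => ?_)
  constructor
  · rintro ⟨t, h1, h2, h3⟩
    have hl : (w.take t).length = t := by rw [List.length_take]; omega
    refine Language.mem_mul.2 ⟨w.take t, ⟨by rw [hl]; exact h1, ?_⟩, w.drop t, ?_,
      List.take_append_drop _ _⟩
    · rw [hl]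
      exact (wal_prefix (List.take_prefix _ _) (by rw [hl])).2 h3
    · show 1 ≤ (w.drop t).length
      rw [List.length_drop]; omega
  · intro h
    obtain ⟨a, ⟨ha1, ha2⟩, b, hb, rfl⟩ := Language.mem_mul.1 h
    have hb' : 1 ≤ b.length := hb
    exact ⟨a.length, ha1, by rw [List.length_append]; omega,
      (wal_prefix (List.prefix_append _ _) le_rfl).1 ha2⟩

theorem reg_XX [Finite α] (n : ℕ) (S : Set (List α)) (z : ℕ) :
    Language.IsRegular ({w | w ∈ XX n S z} : Language α) := by
  refine reg_congr ((reg_EZ n S z).inf (reg_NE n S z).compl) (fun w => ?_)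
  constructor
  · rintro ⟨h1, h2, h3⟩
    exact ⟨⟨h1, h2⟩, fun ⟨t, ht1, ht2, ht3⟩ => h3 t ht1 ht2 ht3⟩
  · rintro ⟨⟨h1, h2⟩, h3⟩
    exact ⟨h1, h2, fun t ht1 ht2 ht3 => h3 ⟨t, ht1, ht2, ht3⟩⟩

end Crest.Agent.R320.Fin_349
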