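import Crest.Agent.R320.Asm_624
import Crest.Agent.R320.Top5_110

/-!
# Row 320: semantic completeness statements (C1), (C2) of `Top5_110.top_sem` from `Asm_624.D.Ok`
(helper356)
-/

set_option autoImplicit false

namespace Crest.Agent.R320.FinA_356

open Crest.Agent.R320.Hk_851 Crest.Agent.R320.Code110 Crest.Agent.R320.Asm_624

variable {α : Type} {V S : Type} [AddCommGroup V] [Monoid S]

theorem ex1 {Z : Language α} {τ : List α → V → V} {u : List α} {x y : V} (hu : u ∈ Z)
    (h : τ u x = y) : u ∈ Exactly Z τ 1 x y :=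
  ⟨y, Language.mem_mul.2 ⟨u, ⟨hu, h⟩, [], ⟨rfl, rfl⟩, by simp⟩⟩

theorem ex2 {Z : Language α} {τ : List α → V → V} {u u' : List α} {x y : V} (hu : u ∈ Z)
    (hu' : u' ∈ Z) (h : τ u' (τ u x) = y) : u ++ u' ∈ Exactly Z τ 2 x y :=
  ⟨τ u x, Language.mem_mul.2 ⟨u, ⟨hu, rfl⟩, u', ex1 hu' h, rfl⟩⟩

variable (D : Asm_624.D α V S)

def XL : Language α := D.XX
def BL : Language α := {X | X ∈ D.XX ∧ D.Bad X}
def Tt (X : List α) (v : V) : V := D.T v X
def L1 (v : V) : Language α := {P | D.LP1 P v}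
def L2 (v : V) : Language α := {P | D.LP2 P v}

variable {D} {W r1 : ℕ}

theorem sem1 (h : D.Ok W r1) {u : List α} (hu : u ∈ D.XX) (hb : ¬ D.Bad u) (x : V) :
    ∃ p q y, u = p ++ q ∧ p ∈ L1 D x ∧ q ∈ Rsem (XL D) (XL D) (Tt D) 0 (L1 D) y := by
  obtain ⟨P, Q, e, hl, hr⟩ := h.c1 hu hb x
  obtain ⟨b, hb⟩ := Option.isSome_iff_exists.1 hr
  refine ⟨P, Q, b, e, hl, fun x' p' hp' => Or.inl ?_⟩
  obtain ⟨a, c⟩ := h.s1 hp' hb
  exact ex1 a c

theorem sem2 (h : D.Ok W r1) {X X2 : List α} (hX : X ∈ BL D) (hX2 : X2 ∈ BL D) (v : V) :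
    ∃ p q y, X ++ X2 = p ++ q ∧ p ∈ L2 D v ∧ q ∈ Rsem (XL D) (BL D) (Tt D) 1 (L2 D) y := by
  classical
  obtain ⟨hX0, hb⟩ := hX
  have hzb := h.z_big
  obtain ⟨hwX, hzX, hnoX⟩ := hX0
  have hzX2 := hX2.1.2.1
  have hw : D.Wo (X ++ X2) := (h.w_app _ _ (by omega)).2 hX2.1.1
  obtain ⟨B, hB, hB'⟩ := h.few hw (by rw [List.length_append]; omega)
  have hl1 : (X.take D.p0).length = D.p0 := by rw [List.length_take]; omega
  obtain ⟨I, hI, hI'⟩ := h.g2c (X.take D.p0) v hl1
  obtain ⟨k, hkI, hkB⟩ : ∃ k ∈ I, k ∉ B := by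
    by_contra hcon
    push Not at hcon
    have := Finset.card_le_card (show I ⊆ B from hcon)
    omega
  obtain ⟨hk, hl2, hr2⟩ := hI' k hkI
  have hck := h.c_le k hk
  have hdrop : (X ++ X2).drop (D.c k) = X.drop (D.c k) ++ X2 := by
    rw [List.drop_append, Nat.sub_eq_zero_of_le (by omega)]; simp
  have hlP : (X.take (D.c k)).length = D.c k := by rw [List.length_take]; omega
  have hlD : (X.drop (D.c k)).length = X.length - D.c k := List.length_drop
  have htk : (X.drop (D.c k) ++ X2).take (X.length - D.c k) = X.drop (D.c k) := by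
    rw [List.take_append, hlD, Nat.sub_self, List.take_of_length_le (by omega)]; simp
  have key : ∀ t', t' ≤ X.length - D.c k → D.n ≤ t' →
      (D.Wo (X.take (D.c k + t')) ↔ D.Wo ((X.drop (D.c k)).take t')) := by
    intro t' ht' hn
    have e : X.take (D.c k + t') = X.take (D.c k) ++ (X.drop (D.c k)).take t' := by
      rw [List.take_add]
    rw [e]
    exact h.w_app _ _ (by rw [List.length_take, List.length_drop]; omega)
  have hFs : D.Fs k (X.drop (D.c k) ++ X2) (X.length - D.c k) := by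
    refine ⟨by omega, by rw [List.length_append, hlD]; omega, ?_, fun t' ht' hz hwt => ?_⟩
    · rw [htk]
      have : D.Wo (X.take (D.c k) ++ X.drop (D.c k)) := by
        rw [List.take_append_drop]; exact hwX
      exact (h.w_app _ _ (by omega)).1 this
    · have e : (X.drop (D.c k) ++ X2).take t' = (X.drop (D.c k)).take t' := by
        rw [List.take_append, Nat.sub_eq_zero_of_le (by omega)]; simp
      rw [e] at hwt
      exact hnoX (D.c k + t') (by omega) hz ((key t' (by omega) (by omega)).2 hwt)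
  obtain ⟨r, hr⟩ := Option.isSome_iff_exists.1 hr2
  have hbX := (h.bad_iff hk hlP hFs).1 (by rw [htk, List.take_append_drop]; exact hb)
  have hlp0 : (X.take D.p0).take (D.c k) = X.take (D.c k) := by
    rw [List.take_take, min_eq_left hck]
  refine ⟨X.take (D.c k), X.drop (D.c k) ++ X2, D.T (D.T v X) X2,
    by rw [← List.append_assoc, List.take_append_drop], ⟨k, hk, hlP, ?_⟩, ?_⟩
  · rw [hlp0] at hl2
    exact hl2
  intro x'' p'' hp''
  obtain ⟨k'', hk'', hlen'', hl''⟩ := hp''
  have hck'' := h.c_le k'' hk''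
  by_cases hkk : k'' = k
  · left
    subst hkk
    rw [← List.append_assoc]
    have hin : p'' ++ X.drop (D.c k'') ∈ D.XX := by
      have := h.blk hk hlen'' hFs
      rwa [htk] at this
    have hbad : D.Bad (p'' ++ X.drop (D.c k'')) := by
      have := (h.bad_iff hk hlen'' hFs).2 hbX
      rwa [htk] at this
    refine ex2 (Z := BL D) (τ := Tt D) ⟨hin, hbad⟩ hX2 ?_
    show D.T (D.T x'' (p'' ++ X.drop (D.c k''))) X2 = D.T (D.T v X) X2
    congr 1
    have hQ0 : (X.take D.p0).drop (D.c k'') = (X.drop (D.c k'')).take (D.p0 - D.c k'') := by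
      rw [List.drop_take]
    have e1 : (p'' ++ X.drop (D.c k'')).take D.p0 = p'' ++ (X.take D.p0).drop (D.c k'') := by
      rw [List.take_append, List.take_of_length_le (by omega), hlen'', hQ0]
    have e2 : (p'' ++ X.drop (D.c k'')).drop D.p0 = X.drop D.p0 := by
      rw [List.drop_append, List.drop_of_length_le (by omega), hlen'', List.drop_drop]
      simp only [List.nil_append]
      congr 1
      omega
    have e3 : X.take (D.c k'') ++ (X.take D.p0).drop (D.c k'') = X.take D.p0 := by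
      conv_rhs => rw [← List.take_append_drop (D.c k'') (X.take D.p0), hlp0]
    have g1 := h.g2s k'' hk p'' ((X.take D.p0).drop (D.c k'')) x'' r hlen''
      (by rw [List.length_append, List.length_drop, hl1, hlen'']; omega) hl'' hr
    have g2 := h.g2s k'' hk (X.take (D.c k'')) ((X.take D.p0).drop (D.c k'')) v r hlP
      (by rw [e3]; exact hl1) (by rw [← hlp0]; exact hl2) hr
    rw [e3] at g2
    unfold Asm_624.D.T
    rw [e1, e2, ← g1, ← g2]
  · right
    left
    have hq : D.Wo (X.drop (D.c k) ++ X2) := (h.w_app _ _ (by omega)).2 hX2.1.1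
    have hql : (X.drop (D.c k) ++ X2).length = X.length - D.c k + X2.length := by
      rw [List.length_append, hlD]
    obtain ⟨t', hF'⟩ := Asm_624.D.Fs_exists (D := D) (k := k'') (Q := X.drop (D.c k) ++ X2)
      (t := (X.drop (D.c k) ++ X2).length) (by omega) le_rfl (by rw [List.take_length]; exact hq)
    refine ⟨p'' ++ (X.drop (D.c k) ++ X2).take t', h.blk hk'' hlen'' hF', ?_, ?_⟩
    · rintro ⟨-, hbb⟩
      refine hkB (hB' k hk k'' hk'' hkk ?_)
      rw [hdrop]
      exact ⟨t', hF', (h.bad_iff hk'' hlen'' hF').1 hbb⟩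
    · refine ⟨(X.drop (D.c k) ++ X2).drop t', ?_⟩
      rw [List.append_assoc, List.take_append_drop]

end Crest.Agent.R320.FinA_356
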