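import Crest.Agent.R320.Core_467

/-!
# Row 320: threads of a prefix code with semantic right words, two schemes (helper368)

`even_step` : one star for pairs of blocks; `semtop` : three stars over a prefix code `XX` from two
families of finite sets of left words; right words are defined semantically.
-/

set_option autoImplicit false

namespace Crest.Agent.R320.Fin_368

open Crest.RegLang Crest.Agent.R320.Hk_851 Crest.Agent.R320.Blk467 Crest.Agent.R320.Core467

universe u

variable {α : Type u} {k : ℕ} {V : Type*}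

/-- a set of words as a language -/
def toL (s : Set (List α)) : Language α := s

theorem mem_toL (s : Set (List α)) (w : List α) : w ∈ toL s ↔ w ∈ s := Iff.rfl

/-- words of a list of pairs -/
def pw (lp : List (List α × List α)) : List α := (lp.map (fun p => p.1 ++ p.2)).flatten

/-- thread of a list of pairs -/
def pf (T : V → List α → V) (v : V) (lp : List (List α × List α)) : V :=
  lp.foldl (fun v p => T (T v p.1) p.2) v

theorem pw_nil : pw ([] : List (List α × List α)) = [] := rfl

theorem pw_cons (p : List α × List α) (lp : List (List α × List α)) :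
    pw (p :: lp) = p.1 ++ p.2 ++ pw lp := by
  simp [pw]

theorem pf_nil (T : V → List α → V) (v : V) : pf T v [] = v := rfl

theorem pf_cons (T : V → List α → V) (v : V) (p : List α × List α)
    (lp : List (List α × List α)) : pf T v (p :: lp) = pf T (T (T v p.1) p.2) lp := rfl

/-- even products of blocks -/
def EvL (Bd : Set (List α)) (T : V → List α → V) (v v' : V) : Language α :=
  {w | ∃ lp : List (List α × List α), (∀ p ∈ lp, p.1 ∈ Bd ∧ p.2 ∈ Bd) ∧ pw lp = w ∧
    pf T v lp = v'}

theorem even_step [Finite V] (Bd : Set (List α)) (hC : PCode Bd) (T : V → List α → V)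
    (LP RQ : V → Language α)
    (sound : ∀ v v' P Q X1 X2 s t, P ∈ LP v → Q ∈ RQ v' → X1 ∈ Bd → X2 ∈ Bd →
      P ++ Q ++ s = X1 ++ X2 ++ t → P ++ Q = X1 ++ X2 ∧ T (T v X1) X2 = v')
    (ne : ∀ v v' P Q, P ∈ LP v → Q ∈ RQ v' → P ++ Q ≠ [])
    (compl : ∀ X1 ∈ Bd, ∀ X2 ∈ Bd, ∀ v, ∃ P Q, P ++ Q = X1 ++ X2 ∧ P ∈ LP v ∧
      Q ∈ RQ (T (T v X1) X2))
    (hB : HL k (toL Bd)) (hP : ∀ v, HL k (LP v)) (hQ : ∀ v, HL k (RQ v))
    (v v' : V) : HL (k + 1) (EvL Bd T v v') := by
  classical
  let K : Language α := {x | ∃ a : V, x ∈ (RQ a * LP a : Language α)}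
  have hK : HL (k + 1) (KStar.kstar K) :=
    HL.star (HL.iUnion (k := k) (ι := V) (L := fun a => RQ a * LP a)
      (fun a => (hQ a).mul (hP a)))
  have hBs : HL (k + 1) (KStar.kstar (toL Bd * toL Bd)) := (hB.mul hB).star
  have hE : HL (k + 1) (LP v * KStar.kstar K * RQ v') :=
    ((HL.mono (Nat.le_succ k) (hP v)).mul hK).mul (HL.mono (Nat.le_succ k) (hQ v'))
  have hD : HL (k + 1) (if v = v' then (1 : Language α) else 0) := by
    split_ifs
    · exact HL.one
    · exact HL.zero
  refine (hBs.inf (hD.add hE)).congr fun w => ?_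
  constructor
  · rintro ⟨lp, hl, rfl, hf⟩
    refine ⟨?_, ?_⟩
    · refine Language.mem_kstar.2 ⟨lp.map (fun p => p.1 ++ p.2), rfl, ?_⟩
      intro y hy
      obtain ⟨p, hp, rfl⟩ := List.mem_map.1 hy
      exact Language.mem_mul.2 ⟨p.1, (hl p hp).1, p.2, (hl p hp).2, rfl⟩
    have main : ∀ (lp : List (List α × List α)) (v : V), (∀ p ∈ lp, p.1 ∈ Bd ∧ p.2 ∈ Bd) →
        pf T v lp = v' → (lp = [] ∧ v = v') ∨ ∃ P ∈ LP v, ∃ ks : List (List α),
          (∀ x ∈ ks, x ∈ K) ∧ ∃ Q ∈ RQ v', P ++ ks.flatten ++ Q = pw lp := by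
      intro lp
      induction lp with
      | nil => intro v _ h; exact Or.inl ⟨rfl, h⟩
      | cons p lp ih =>
        intro v hl hf
        right
        obtain ⟨h1, h2⟩ := hl p (by simp)
        obtain ⟨P, Q, e, hP', hQ'⟩ := compl p.1 h1 p.2 h2 v
        rw [pf_cons] at hf
        rcases ih _ (fun Y hY => hl Y (by simp [hY])) hf with ⟨h1, h2⟩ |
            ⟨P1, hP1, ks, hks, Q1, hQ1, e1⟩
        · subst h1
          refine ⟨P, hP', [], by simp, Q, h2 ▸ hQ', ?_⟩
          rw [pw_cons, pw_nil]
          simp [e]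
        · refine ⟨P, hP', (Q ++ P1) :: ks, ?_, Q1, hQ1, ?_⟩
          · intro x hx
            rcases List.mem_cons.1 hx with rfl | hx
            · exact ⟨_, Language.mem_mul.2 ⟨Q, hQ', P1, hP1, rfl⟩⟩
            · exact hks x hx
          · rw [pw_cons, ← e1, ← e]
            simp [List.append_assoc]
    rcases main lp v hl hf with ⟨h1, h2⟩ | ⟨P, hP', ks, hks, Q, hQ', e⟩
    · left
      subst h1
      rw [if_pos h2]
      exact rfl
    · right
      exact mem_mul3.2 ⟨P, hP', ks.flatten, Language.mem_kstar.2 ⟨ks, rfl, hks⟩, Q, hQ', e⟩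
  · rintro ⟨hw, h⟩
    obtain ⟨l, rfl, hl⟩ := Language.mem_kstar.1 hw
    have hpar : ∀ l : List (List α), (∀ y ∈ l, y ∈ (toL Bd * toL Bd)) →
        ∃ lp : List (List α × List α), (∀ p ∈ lp, p.1 ∈ Bd ∧ p.2 ∈ Bd) ∧ pw lp = l.flatten := by
      intro l
      induction l with
      | nil => intro _; exact ⟨[], by simp, rfl⟩
      | cons y l ih =>
        intro hl
        obtain ⟨lp, h1, h2⟩ := ih (fun z hz => hl z (by simp [hz]))
        obtain ⟨a, ha, b, hb, rfl⟩ := Language.mem_mul.1 (hl y (by simp))
        refine ⟨(a, b) :: lp, ?_, ?_⟩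
        · intro p hp
          rcases List.mem_cons.1 hp with rfl | hp
          · exact ⟨ha, hb⟩
          · exact h1 p hp
        · rw [pw_cons, h2, List.flatten_cons]
    obtain ⟨lp, hlp, elp⟩ := hpar l hl
    rw [← elp] at h ⊢
    refine ⟨lp, hlp, rfl, ?_⟩
    rcases h with h | h
    · split_ifs at h with hvv
      · have h' : pw lp = [] := h
        cases lp with
        | nil => exact hvv
        | cons X l =>
          exfalso
          rw [pw_cons] at h'
          have h3 := (List.append_eq_nil_iff.1 (List.append_eq_nil_iff.1 h').1).1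
          exact hC.1 (h3 ▸ (hlp X (by simp)).1)
      · exact absurd h (Language.notMem_zero _)
    · obtain ⟨P, hP', y, hy, Q, hQ', e⟩ := mem_mul3.1 h
      obtain ⟨ks, rfl, hks⟩ := Language.mem_kstar.1 hy
      have main : ∀ (ks : List (List α)) (v : V) (P : List α) (l : List (List α × List α)),
          (∀ x ∈ ks, x ∈ K) → (∀ p ∈ l, p.1 ∈ Bd ∧ p.2 ∈ Bd) → P ∈ LP v →
          P ++ ks.flatten ++ Q = pw l → pf T v l = v' := by
        intro ks
        induction ks with
        | nil =>
          intro v P l _ hl hP' e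
          cases l with
          | nil =>
            exfalso
            refine ne v v' P Q hP' hQ' ?_
            simpa [pw_nil] using e
          | cons p l =>
            rw [pw_cons] at e
            have e' : P ++ Q ++ [] = p.1 ++ p.2 ++ pw l := by simpa using e
            obtain ⟨h1, h2⟩ := sound v v' P Q p.1 p.2 _ _ hP' hQ' (hl p (by simp)).1
              (hl p (by simp)).2 e'
            rw [h1] at e'
            have e3 := List.append_cancel_left e'
            cases l with
            | nil => rw [pf_cons, pf_nil]; exact h2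
            | cons q l =>
              exfalso
              rw [pw_cons] at e3
              have h3 := (List.append_eq_nil_iff.1 (List.append_eq_nil_iff.1 e3.symm).1).1
              exact hC.1 (h3 ▸ (hl q (by simp)).1)
        | cons y ks ih =>
          intro v P l hks hl hP' e
          obtain ⟨a, ha⟩ := hks y (by simp)
          obtain ⟨Q1, hQ1, P1, hP1, rfl⟩ := Language.mem_mul.1 ha
          cases l with
          | nil =>
            exfalso
            refine ne v a P Q1 hP' hQ1 ?_
            rw [pw_nil] at e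
            simp only [List.flatten_cons, List.append_eq_nil_iff] at e ⊢
            exact ⟨e.1.1, e.1.2.1.1⟩
          | cons p l =>
            rw [pw_cons] at e
            have e' : P ++ Q1 ++ (P1 ++ ks.flatten ++ Q) = p.1 ++ p.2 ++ pw l := by
              rw [← e]; simp [List.append_assoc]
            obtain ⟨h1, h2⟩ := sound v a P Q1 p.1 p.2 _ _ hP' hQ1 (hl p (by simp)).1
              (hl p (by simp)).2 e'
            rw [h1] at e'
            have e3 := List.append_cancel_left e'
            rw [pf_cons, h2]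
            exact ih a P1 l (fun x hx => hks x (by simp [hx])) (fun X hX => hl X (by simp [hX]))
              hP1 e3
      exact main ks v P lp hks hlp hP' e

theorem lg_of_even [Finite V] (Bd : Set (List α)) (T : V → List α → V)
    (hE : ∀ v v', HL (k + 1) (EvL Bd T v v'))
    (hF : ∀ v v', HL (k + 1) (toL {X | X ∈ Bd ∧ T v X = v'}))
    (v v' : V) : HL (k + 1) (Lg Bd T v v') := by
  refine ((hE v v').add (HL.iUnion (k := k + 1) (ι := V)
    (L := fun u => EvL Bd T v u * toL {X | X ∈ Bd ∧ T u X = v'})
    (fun u => (hE v u).mul (hF u v')))).congr fun w => ?_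
  constructor
  · rintro ⟨l, hl, rfl, hf⟩
    have main : ∀ (m : ℕ) (l : List (List α)) (v : V), l.length ≤ m → (∀ X ∈ l, X ∈ Bd) →
        l.foldl T v = v' → (∃ lp : List (List α × List α), (∀ p ∈ lp, p.1 ∈ Bd ∧ p.2 ∈ Bd) ∧
          pw lp = l.flatten ∧ pf T v lp = v') ∨
        ∃ lp : List (List α × List α), (∀ p ∈ lp, p.1 ∈ Bd ∧ p.2 ∈ Bd) ∧
          ∃ X ∈ Bd, pw lp ++ X = l.flatten ∧ T (pf T v lp) X = v' := by
      intro m
      induction m with
      | zero =>
        intro l v hm hl hf
        have : l = [] := List.length_eq_zero_iff.1 (by omega)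
        subst this
        exact Or.inl ⟨[], by simp, rfl, hf⟩
      | succ m ih =>
        intro l v hm hl hf
        match l, hm, hl, hf with
        | [], _, _, hf => exact Or.inl ⟨[], by simp, rfl, hf⟩
        | [X], _, hl, hf => exact Or.inr ⟨[], by simp, X, hl X (by simp), by simp [pw], hf⟩
        | X1 :: X2 :: l, hm, hl, hf =>
          have h1 := hl X1 (by simp)
          have h2 := hl X2 (by simp)
          have hf' : l.foldl T (T (T v X1) X2) = v' := hf
          rcases ih l (T (T v X1) X2) (by simp at hm; omega)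
            (fun Y hY => hl Y (by simp [hY])) hf' with ⟨lp, g1, g2, g3⟩ | ⟨lp, g1, X, hX, g2, g3⟩
          · refine Or.inl ⟨(X1, X2) :: lp, ?_, ?_, ?_⟩
            · intro p hp
              rcases List.mem_cons.1 hp with rfl | hp
              · exact ⟨h1, h2⟩
              · exact g1 p hp
            · rw [pw_cons, g2]; simp
            · rw [pf_cons]; exact g3
          · refine Or.inr ⟨(X1, X2) :: lp, ?_, X, hX, ?_, ?_⟩
            · intro p hp
              rcases List.mem_cons.1 hp with rfl | hp
              · exact ⟨h1, h2⟩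
              · exact g1 p hp
            · rw [pw_cons, List.append_assoc, g2]; simp
            · rw [pf_cons]; exact g3
    rcases main l.length l v le_rfl hl hf with ⟨lp, g1, g2, g3⟩ | ⟨lp, g1, X, hX, g2, g3⟩
    · exact Or.inl ⟨lp, g1, g2, g3⟩
    · exact Or.inr ⟨pf T v lp, Language.mem_mul.2 ⟨pw lp, ⟨lp, g1, rfl, rfl⟩, X, ⟨hX, g3⟩, g2⟩⟩
  · intro h
    have conv : ∀ (lp : List (List α × List α)) (v : V), (∀ p ∈ lp, p.1 ∈ Bd ∧ p.2 ∈ Bd) →
        ∃ l : List (List α), (∀ X ∈ l, X ∈ Bd) ∧ l.flatten = pw lp ∧ l.foldl T v = pf T v lp := by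
      intro lp
      induction lp with
      | nil => intro v _; exact ⟨[], by simp, rfl, rfl⟩
      | cons p lp ih =>
        intro v hl
        obtain ⟨l, g1, g2, g3⟩ := ih (T (T v p.1) p.2) (fun q hq => hl q (by simp [hq]))
        refine ⟨p.1 :: p.2 :: l, ?_, ?_, ?_⟩
        · intro X hX
          rcases List.mem_cons.1 hX with rfl | hX
          · exact (hl p (by simp)).1
          rcases List.mem_cons.1 hX with rfl | hX
          · exact (hl p (by simp)).2
          · exact g1 X hX
        · rw [pw_cons, ← g2]; simp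
        · rw [pf_cons, ← g3]; rfl
    rcases h with ⟨lp, g1, rfl, g3⟩ | ⟨u, hu⟩
    · obtain ⟨l, h1, h2, h3⟩ := conv lp v g1
      exact ⟨l, h1, h2, h3.trans g3⟩
    · obtain ⟨a, ⟨lp, g1, rfl, g3⟩, X, ⟨hX, hT⟩, rfl⟩ := Language.mem_mul.1 hu
      obtain ⟨l, h1, h2, h3⟩ := conv lp v g1
      refine ⟨l ++ [X], ?_, ?_, ?_⟩
      · intro Y hY
        rcases List.mem_append.1 hY with hY | hY
        · exact h1 Y hY
        · rw [List.mem_singleton.1 hY]; exact hX
      · rw [List.flatten_append, h2]; simp
      · rw [List.foldl_append, h3, g3]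
        exact hT

end Crest.Agent.R320.Fin_368
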