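import Crest.Agent.R320.Top5_120
import Crest.Agent.R320.Sc2n_937
import Crest.Agent.R320.P4_933
import Crest.Agent.R320.Bridge_975

/-! Row 320: the join of the combinatorial data (helper384): `join`. -/

set_option autoImplicit false

namespace Crest.Agent.R320.Fin_384

open Crest.RegLang Crest.Agent.R320.Hk_851 Crest.Agent.R320.Sc2n_937
open Crest.Agent.R320.Blk467 Crest.Agent.R320.BddReg_746

variable {α : Type} {S : Type} [Monoid S] {V : Type} [AddCommGroup V]

theorem mp_append (φ : α → S) (u v : List α) :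
    ((u ++ v).map φ).prod = (u.map φ).prod * (v.map φ).prod := by
  rw [List.map_append, List.prod_append]

theorem drop_eq {u : List α} {a L : ℕ} (h : a ≤ L) (h1 : L ≤ u.length) :
    u.drop a = (u.take L).drop a ++ u.drop L := by
  conv_lhs => rw [← List.take_append_drop L u]
  rw [List.drop_append_of_le_length]
  rw [List.length_take]; omega

theorem win (φ : α → S) {u u' : List α} {a L : ℕ} (h : a ≤ L) (h1 : L ≤ u.length)
    (h2 : L ≤ u'.length) (ht : u.take L = u'.take L)
    (hp : ((u.drop L).map φ).prod = ((u'.drop L).map φ).prod) :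
    u.take a = u'.take a ∧ ((u.drop a).map φ).prod = ((u'.drop a).map φ).prod := by
  constructor
  · have := congrArg (fun l => l.take a) ht
    simpa [List.take_take, min_eq_left h] using this
  · rw [drop_eq h h1, drop_eq h h2, mp_append, mp_append, ht, hp]

theorem join [Finite α] [Finite S] [Finite V]
    (act : V → S → V)
    (hadd : ∀ a b s, act (a + b) s = act a s + act b s)
    (hone : ∀ v, act v 1 = v) (hmul : ∀ v s t, act v (s * t) = act (act v s) t)
    (hfaith : ∀ s t, (∀ v, act v s = act v t) → s = t)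
    (φ : α → S) (g : Geo α) (len : ∀ P, g.Wo P → g.n ≤ P.length)
    (Bw Rw : ℕ)
    (free : ∀ u : List α, (∀ t < u.length, ¬ g.Wo (u.take t)) → u ∈ (PN Bw Rw : Language α))
    (lam rho : List α → Option V) (nu1 nu2 : List α → V)
    (BadT : ℕ → Prop) (M0 A : ℕ) (hM0 : 0 < M0)
    (hper : ∀ T T' : ℕ, T ≡ T' [MOD M0] → (BadT T ↔ BadT T'))
    (hnu1 : ∀ u u' : List α, A ≤ u.length → A ≤ u'.length → u.take A = u'.take A →
      u.length ≡ u'.length [MOD M0] →
      ((u.drop A).map φ).prod = ((u'.drop A).map φ).prod → nu1 u = nu1 u')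
    (hlen : ∀ P v, lam P = some v → P.length ≤ g.N1)
    (hsound : ∀ P Q v b, lam P = some v → rho Q = some b →
      b = act v ((P ++ Q).map φ).prod + nu1 (P ++ Q))
    (hcomp : ∀ u : List α, g.z ≤ u.length + g.p0 → ¬ BadT u.length →
      ∀ v, ∃ P Q, u = P ++ Q ∧ lam P = some v ∧ (rho Q).isSome)
    (K C0 : ℕ) (c : ℕ → ℕ) (lam2 rho2 : ℕ → List α → Option V)
    (hc : ∀ k, k < K → c k ≤ g.p0)
    (hgap : ∀ P Q : List α, g.Wo P → g.Wo (P ++ Q) → Q ≠ [] → 2 * g.p0 + 2 * g.N1 < Q.length)
    (hsp : ∀ k k' l l', k < K → k' < K → l < K → l' < K → k' ≠ k → l' ≠ l →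
      c k + c l' < c l + c k' + 2 * g.N1 → c l + c k' < c k + c l' + 2 * g.N1 → k = l)
    (hthin : ∀ τ, g.z ≤ τ + g.p0 → ∀ J : Finset ℕ, (∀ k ∈ J, k < K ∧
      ∃ k', k' < K ∧ k' ≠ k ∧ BadT (τ + c k' - c k - g.p0)) → J.card ≤ C0)
    (hex2 : ∀ k, k < K → ∀ P Q v u, P.length = c k →
      lam2 k P = some v → rho2 k Q = some u → u = act v ((P ++ Q).map φ).prod + nu2 (P ++ Q))
    (hI : ∀ (u : List α) (v : V), u.length = g.p0 →
      ∃ I : Finset ℕ, 2 * C0 + 2 ≤ I.card ∧ ∀ k ∈ I, k < K ∧
        lam2 k (u.take (c k)) = some v ∧ (rho2 k (u.drop (c k))).isSome)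
    (s : S) : HL 3 ({w | (w.map φ).prod = s} : Language α) := by
  classical
  let pre : List α → V → V := fun w v => act v (w.map φ).prod + nu2 w
  let post : V → List α → V := fun v w => act v (w.map φ).prod + nu1 w
  let nu : List α → V := fun X =>
    act (nu2 (X.take g.p0)) ((X.drop g.p0).map φ).prod + nu1 (X.drop g.p0)
  have hT : ∀ v X, g.T pre post v X = act v (X.map φ).prod + nu X := by
    intro v X
    have e : (X.map φ).prod = ((X.take g.p0).map φ).prod * ((X.drop g.p0).map φ).prod := by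
      rw [← mp_append, List.take_append_drop]
    show act (act v ((X.take g.p0).map φ).prod + nu2 (X.take g.p0)) ((X.drop g.p0).map φ).prod
      + nu1 (X.drop g.p0) = act v (X.map φ).prod +
        (act (nu2 (X.take g.p0)) ((X.drop g.p0).map φ).prod + nu1 (X.drop g.p0))
    rw [e, hadd, hmul, add_assoc]
  let C : Set (List α) := {X | g.XX X}
  let Bad : Set (List α) := {X | g.XX X ∧ g.BadX BadT X}
  have hz := g.hz
  have hq := g.hq
  have hN := g.hN
  have hPC : PCode C := by
    refine ⟨?_, ?_⟩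
    · intro h
      have h1 : g.z ≤ ([] : List α).length := h.1
      simp at h1
      omega
    · rintro X hX Y hY ⟨R, hR⟩
      exact g.prefix_code (R := R) (R' := []) hX hY (by rw [hR, List.append_nil])
  have hBC : Bad ⊆ C := fun X hX => hX.1
  let L1 : V → Set (List α) := fun v => {P | g.LP1 pre lam v P}
  let L2 : V → Set (List α) := fun v => {P | Geo.LP2 K c lam2 v P}
  have hf1 : ∀ v, (L1 v).Finite := by
    intro v
    refine (List.finite_length_le α (g.p0 + g.N1)).subset ?_
    rintro P ⟨h1, h2⟩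
    have := hlen _ _ h2
    rw [List.length_drop] at this
    show P.length ≤ _
    omega
  have hf2 : ∀ v, (L2 v).Finite := by
    intro v
    refine (List.finite_length_le α g.p0).subset ?_
    rintro P ⟨k, hk, h1, h2⟩
    show P.length ≤ _
    rw [h1]
    exact hc k hk
  -- regularity
  let L : ℕ := g.z + g.N1 + (g.p0 + A)
  have hkey : ∀ X X' : List α, L ≤ X.length → L ≤ X'.length → X.take L = X'.take L →
      X.length ≡ X'.length [MOD M0] →
      ((X.drop L).map φ).prod = ((X'.drop L).map φ).prod →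
      (X.map φ).prod = (X'.map φ).prod ∧ nu X = nu X' ∧
        (g.BadX BadT X → g.BadX BadT X') := by
    intro X X' h1 h2 ht hm hp
    have hL1 : g.z + g.N1 + (g.p0 + A) ≤ X.length := h1
    have hL2 : g.z + g.N1 + (g.p0 + A) ≤ X'.length := h2
    have w0 := win φ (a := 0) (Nat.zero_le L) h1 h2 ht hp
    have wp := win φ (a := g.p0) (show g.p0 ≤ g.z + g.N1 + (g.p0 + A) by omega) h1 h2 ht hp
    have wA := win φ (a := g.p0 + A) (show g.p0 + A ≤ g.z + g.N1 + (g.p0 + A) by omega)
      h1 h2 ht hp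
    have hlp : (X.length - g.p0) ≡ (X'.length - g.p0) [MOD M0] := by
      refine Nat.ModEq.add_right_cancel' g.p0 ?_
      rw [Nat.sub_add_cancel (by omega), Nat.sub_add_cancel (by omega)]
      exact hm
    refine ⟨?_, ?_, ?_⟩
    · simpa using w0.2
    · show act (nu2 (X.take g.p0)) ((X.drop g.p0).map φ).prod + nu1 (X.drop g.p0) =
        act (nu2 (X'.take g.p0)) ((X'.drop g.p0).map φ).prod + nu1 (X'.drop g.p0)
      rw [wp.1, wp.2]
      congr 1
      refine hnu1 _ _ ?_ ?_ ?_ ?_ ?_
      · rw [List.length_drop]; omega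
      · rw [List.length_drop]; omega
      · have e : ∀ Y : List α, (Y.drop g.p0).take A = (Y.take (g.p0 + A)).drop g.p0 := by
          intro Y
          rw [List.drop_take]
          congr 1
          omega
        rw [e, e, wA.1]
      · rw [List.length_drop, List.length_drop]; exact hlp
      · rw [List.drop_drop, List.drop_drop]; exact wA.2
    · rintro (⟨t, t1, t2, t3, t4⟩ | h)
      · left
        refine ⟨t, by omega, ?_, t3, t4⟩
        have wt := win φ (a := t) (show t ≤ g.z + g.N1 + (g.p0 + A) by omega) h1 h2 ht hp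
        rw [← wt.1]; exact t2
      · right
        exact (hper _ _ hlp).1 h
  have hXXeq : ∀ X, g.XX X ↔ P4_933.XX g.Wo g.z X := fun X =>
    ⟨fun h => ⟨h.2.1, h.1, fun t h1 h2 => h.2.2 t h2 h1⟩,
      fun h => ⟨h.2.1, h.1, fun t h1 h2 => h.2.2 t h2 h1⟩⟩
  have hCT : ∀ x y, HL 1 ({X | X ∈ C ∧ act x (X.map φ).prod + nu X = y} : Language α) := by
    intro x y
    have hreg := Bridge_975.reg_of_local φ L M0 hM0
      (fun X => act x (X.map φ).prod + nu X = y) (fun X X' h1 h2 h3 h4 h5 => by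
        obtain ⟨e1, e2, -⟩ := hkey X X' h1 h2 h3 h4 h5
        rw [e1, e2])
    refine (P4_933.hl_XX (z := g.z) g.loc len free hreg).congr fun w => ?_
    exact and_congr (hXXeq w) Iff.rfl
  have hBT : ∀ x y, HL 1 ({X | X ∈ Bad ∧ act x (X.map φ).prod + nu X = y} : Language α) := by
    intro x y
    have hreg := Bridge_975.reg_of_local φ L M0 hM0
      (fun X => g.BadX BadT X ∧ act x (X.map φ).prod + nu X = y)
      (fun X X' h1 h2 h3 h4 h5 => by
        obtain ⟨e1, e2, e3⟩ := hkey X X' h1 h2 h3 h4 h5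
        obtain ⟨-, -, e3'⟩ := hkey X' X h2 h1 h3.symm h4.symm h5.symm
        rw [e1, e2]
        exact and_congr ⟨e3, e3'⟩ Iff.rfl)
    refine (P4_933.hl_XX (z := g.z) g.loc len free hreg).congr fun w => ?_
    constructor
    · rintro ⟨⟨h1, h2⟩, h3⟩; exact ⟨(hXXeq w).1 h1, h2, h3⟩
    · rintro ⟨h1, h2, h3⟩; exact ⟨⟨(hXXeq w).2 h1, h2⟩, h3⟩
  have htail : ∀ s, HL 1 ({w | (∀ X ∈ C, ¬ X <+: w) ∧ (w.map φ).prod = s} : Language α) := by
    intro s
    have hreg := Bridge_975.reg_of_local φ 0 1 one_pos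
      (fun X => (X.map φ).prod = s)
      (fun X X' h1 h2 h3 h4 h5 => by
        simp only [List.drop_zero] at h5
        rw [h5])
    refine (P4_933.hl_NB (z := g.z) g.loc len free hreg).congr fun w => ?_
    constructor
    · rintro ⟨h1, h2⟩
      exact ⟨(P4_933.NB_iff g.Wo g.z w).2 fun P hP hX => h1 P ((hXXeq P).2 hX) hP, h2⟩
    · rintro ⟨h1, h2⟩
      exact ⟨fun X hX hP => (P4_933.NB_iff g.Wo g.z w).1 h1 X hP ((hXXeq X).1 hX), h2⟩
  have hex1 : ∀ P Q u b, lam P = some u → rho Q = some b → b = post u (P ++ Q) :=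
    fun P Q u b h1 h2 => hsound P Q u b h1 h2
  have hex2' : ∀ k, k < K → ∀ P Q v u, P.length = c k → Q.length = g.p0 - c k →
      lam2 k P = some v → rho2 k Q = some u → u = pre (P ++ Q) v :=
    fun k hk P Q v u h1 _ h3 h4 => hex2 k hk P Q v u h1 h3 h4
  refine Top5_120.top5 act hadd hone hmul hfaith φ nu C Bad hPC hBC L1 L2 hf1 hf2 hCT hBT htail
    ?_ ?_ s
  · intro X hX hXb v
    have hnb : ¬ g.BadX BadT X := fun h => hXb ⟨hX, h⟩
    have hE : ¬ g.E X := fun h => hnb (Or.inl h)
    have hB : ¬ BadT (X.length - g.p0) := fun h => hnb (Or.inr h)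
    have hXz : g.z ≤ X.length := hX.1
    obtain ⟨P, Q, b, e, hP, hQ⟩ := g.complete1 pre (lam := lam) (rho := rho) hlen hX hE
      (fun u => hcomp (X.drop g.p0) (by rw [List.length_drop]; omega)
        (by rw [List.length_drop]; exact hB) u) v
    refine ⟨P, Q, e.symm, hP, fun x P' hP' => ?_⟩
    have s1 := g.sound1 pre post hlen hex1 hP hQ
    have s2 := g.sound1 pre post hlen hex1 (show g.LP1 pre lam x P' from hP') hQ
    refine ⟨s2.1, ?_⟩
    rw [← hT, ← hT, s2.2, e, s1.2]
  · intro X hX Y hY v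
    obtain ⟨P, Q, b, e, hP, hQ⟩ := g.complete2 (BadT := BadT) (K := K) (c := c)
      (lam2 := lam2) (rho2 := rho2) (C0 := C0) pre post hc hgap hsp hthin hX.1 hY.1 v
      (by
        have hXz : g.z ≤ X.length := hX.1.1
        obtain ⟨I, hI1, hI2⟩ := hI (X.take g.p0) v (by rw [List.length_take]; omega)
        refine ⟨I, hI1, fun k hk => ?_⟩
        obtain ⟨h1, h2, h3⟩ := hI2 k hk
        refine ⟨h1, ?_, h3⟩
        rw [List.take_take, min_eq_left (hc k h1)] at h2
        exact h2)
    refine ⟨P, Q, e, hP, fun x P' hP' => ?_⟩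
    -- value of `b`
    obtain ⟨X2, hX2, e2, hb⟩ := g.sound2 pre post hc hex2' (R := []) (R' := Y) hX.1 hX.2 hP hQ
      (by rw [List.append_nil, e])
    have hY2 : X2 = Y := List.append_cancel_left (e2.symm.trans e)
    subst hY2
    -- the word P' ++ Q starts with a block
    have hblock : ∃ l, g.XX (P' ++ Q.take l) := by
      obtain ⟨k0, hk0, hPl, hl⟩ := hP'
      obtain ⟨k, hk, l, hend, hgood, -⟩ := hQ
      by_cases hkk : k0 = k
      · subst hkk
        exact ⟨l, g.xx_of_cend (by rw [hPl]; exact hc k0 hk0) (by rw [hPl]; exact hend)⟩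
      · obtain ⟨l', h1, -⟩ := hgood k0 hk0 hkk
        exact ⟨l', g.xx_of_cend (by rw [hPl]; exact hc k0 hk0) (by rw [hPl]; exact h1)⟩
    obtain ⟨l, hl⟩ := hblock
    by_cases hbad : g.BadX BadT (P' ++ Q.take l)
    · left
      obtain ⟨X2', hX2', e3, hb'⟩ := g.sound2 pre post hc hex2' (R := []) (R' := Q.drop l)
        hl hbad hP' hQ (by rw [List.append_nil, List.append_assoc, List.take_append_drop])
      refine ⟨P' ++ Q.take l, ⟨hl, hbad⟩, X2', hX2', e3.symm, ?_⟩
      rw [← hT, ← hT, ← hT, ← hT, hb', hb]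
    · right
      refine ⟨P' ++ Q.take l, hl, fun h => hbad h.2, Q.drop l, ?_⟩
      rw [List.append_assoc, List.take_append_drop]

end Crest.Agent.R320.Fin_384
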