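import Mathlib.Computability.DFA
import Mathlib.Data.ZMod.Basic
import Mathlib.Data.Finite.Prod
import Mathlib.Data.Set.Finite.List
import Mathlib.Algebra.BigOperators.Group.List.Basic

/-!
# Row 320: a language read from (prefix of length `A`, product of the rest, length mod `M`) is
regular (helper645)
-/

set_option autoImplicit false

namespace Crest.Agent.R320.Loc_645

universe u v

variable {α : Type u}

/-- the reading automaton -/
def step {S : Type v} [Monoid S] (f : α → S) (A M : ℕ)
    (q : {b : List α // b.length ≤ A} × S × ZMod M) (a : α) :
    {b : List α // b.length ≤ A} × S × ZMod M :=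
  if h : q.1.1.length < A then (⟨q.1.1 ++ [a], by simpa using h⟩, q.2.1, q.2.2 + 1)
  else (q.1, q.2.1 * f a, q.2.2 + 1)

theorem eval_step {S : Type v} [Monoid S] (f : α → S) (A M : ℕ) (w : List α) :
    (w.foldl (step f A M) (⟨[], Nat.zero_le _⟩, 1, 0)) =
      (⟨w.take A, by rw [List.length_take]; exact Nat.min_le_left _ _⟩,
        ((w.drop A).map f).prod, (w.length : ZMod M)) := by
  induction w using List.reverseRecOn with
  | nil => simp
  | append_singleton w a ih =>
    rw [List.foldl_append, ih]
    simp only [List.foldl_cons, List.foldl_nil, step]
    by_cases h : w.length < A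
    · have h1 : (w.take A).length < A := by
        rw [List.length_take]; omega
      rw [dif_pos h1]
      have e1 : w.take A = w := List.take_of_length_le (by omega)
      have e2 : (w ++ [a]).take A = w ++ [a] := List.take_of_length_le (by simp; omega)
      have e3 : w.drop A = [] := List.drop_eq_nil_of_le (by omega)
      have e4 : (w ++ [a]).drop A = [] := List.drop_eq_nil_of_le (by simp; omega)
      refine Prod.ext ?_ (Prod.ext ?_ ?_)
      · apply Subtype.ext
        show w.take A ++ [a] = (w ++ [a]).take A
        rw [e1, e2]
      · show ((w.drop A).map f).prod = (((w ++ [a]).drop A).map f).prod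
        rw [e3, e4]
      · show (w.length : ZMod M) + 1 = ((w ++ [a]).length : ZMod M)
        simp
    · have h1 : ¬ (w.take A).length < A := by
        rw [List.length_take]; omega
      rw [dif_neg h1]
      refine Prod.ext ?_ (Prod.ext ?_ ?_)
      · apply Subtype.ext
        show w.take A = (w ++ [a]).take A
        rw [List.take_append_of_le_length (by omega)]
      · show ((w.drop A).map f).prod * f a = (((w ++ [a]).drop A).map f).prod
        rw [List.drop_append_of_le_length (by omega)]
        simp
      · show (w.length : ZMod M) + 1 = ((w ++ [a]).length : ZMod M)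
        simp

/-- regularity from locality -/
theorem isRegular_of_read [Finite α] {S : Type v} [Monoid S] [Finite S] (f : α → S) (A M : ℕ)
    (hM : 0 < M) (P : List α → Prop)
    (h : ∀ q q' : List α, q.take A = q'.take A →
      ((q.drop A).map f).prod = ((q'.drop A).map f).prod →
      q.length % M = q'.length % M → P q → P q') :
    Language.IsRegular ({q | P q} : Language α) := by
  classical
  have : NeZero M := ⟨by omega⟩
  have : Finite {b : List α // b.length ≤ A} := (List.finite_length_le α A).to_subtype
  have : Finite (ZMod M) := inferInstance
  have : Fintype ({b : List α // b.length ≤ A} × S × ZMod M) := Fintype.ofFinite _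
  let D : DFA α ({b : List α // b.length ≤ A} × S × ZMod M) :=
    { step := step f A M
      start := (⟨[], Nat.zero_le _⟩, 1, 0)
      accept := {x | ∃ q, P q ∧ (q.foldl (step f A M) (⟨[], Nat.zero_le _⟩, 1, 0)) = x} }
  refine Language.isRegular_iff.2 ⟨_, inferInstance, D, ?_⟩
  ext w
  constructor
  · rintro ⟨q, hq, he⟩
    have he' : (q.foldl (step f A M) (⟨[], Nat.zero_le _⟩, 1, 0)) =
      (w.foldl (step f A M) (⟨[], Nat.zero_le _⟩, 1, 0)) := he
    rw [eval_step, eval_step] at he'
    have h1 := congrArg (fun x => x.1.1) he'
    have h2 := congrArg (fun x => x.2.1) he'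
    have h3 := congrArg (fun x => x.2.2) he'
    refine h q w h1 h2 ?_ hq
    exact (ZMod.natCast_eq_natCast_iff' _ _ _).1 h3
  · intro hw
    exact ⟨w, hw, rfl⟩

/-- the form for words of length at least `A` -/
theorem isRegular_of_read' [Finite α] {S : Type v} [Monoid S] [Finite S] (f : α → S) (A M : ℕ)
    (hM : 0 < M) (P : List α → Prop)
    (h : ∀ q q' : List α, A ≤ q.length → A ≤ q'.length → q.take A = q'.take A →
      ((q.drop A).map f).prod = ((q'.drop A).map f).prod →
      q.length % M = q'.length % M → P q → P q') :
    Language.IsRegular ({q | P q} : Language α) := by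
  refine isRegular_of_read f (A + 1) M hM P ?_
  intro q q' h1 h2 h3 hq
  by_cases hl : A + 1 ≤ q.length
  · have hl' : A + 1 ≤ q'.length := by
      have := congrArg List.length h1
      rw [List.length_take, List.length_take] at this
      omega
    have key : ∀ w : List α, A + 1 ≤ w.length →
        ∃ a, (w.take (A + 1)).drop A = [a] ∧ w.drop A = a :: w.drop (A + 1) := by
      intro w hw
      refine ⟨w[A]'(by omega), ?_, ?_⟩
      · rw [List.drop_take, show A + 1 - A = 1 by omega,
          List.drop_eq_getElem_cons (show A < w.length by omega)]
        rfl
      · exact List.drop_eq_getElem_cons (by omega)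
    obtain ⟨a, ha1, ha2⟩ := key q hl
    obtain ⟨b, hb1, hb2⟩ := key q' hl'
    have hab : a = b := by
      rw [h1, hb1] at ha1
      simpa using ha1.symm
    refine h q q' (by omega) (by omega) ?_ ?_ h3 hq
    · have := congrArg (List.take A) h1
      rwa [List.take_take, List.take_take, Nat.min_eq_left (by omega)] at this
    · rw [ha2, hb2, List.map_cons, List.map_cons, List.prod_cons, List.prod_cons, hab, h2]
  · have e1 : q.take (A + 1) = q := List.take_of_length_le (by omega)
    have hl' : q'.length ≤ A := by
      by_contra hc
      have := congrArg List.length h1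
      rw [List.length_take, List.length_take] at this
      omega
    have e2 : q'.take (A + 1) = q' := List.take_of_length_le (by omega)
    rw [e1, e2] at h1
    rw [← h1]; exact hq

end Crest.Agent.R320.Loc_645
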