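import Crest.Agent.R320.Top5_120
import Crest.Agent.R320.Sc2n_937
import Crest.Agent.R320.Loc_645
import Crest.Agent.R320.P4_933
import Crest.Agent.R320.OutRule_480

/-!
# Row 320: join of the landed pieces (helper4), part A: everything but the constants
-/

set_option autoImplicit false

namespace Crest.Agent.R320.Fin_4

open Crest.RegLang Crest.Agent.R320.Hk_851 Crest.Agent.R320.Blk467

variable {α S V : Type}

/-- the same key -/
def Keq [Monoid S] (φ : α → S) (A M : ℕ) (q q' : List α) : Prop :=
  A ≤ q.length ∧ A ≤ q'.length ∧ q.take A = q'.take A ∧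
    ((q.drop A).map φ).prod = ((q'.drop A).map φ).prod ∧ q.length % M = q'.length % M

theorem Keq.symm [Monoid S] {φ : α → S} {A M : ℕ} {q q' : List α} (h : Keq φ A M q q') :
    Keq φ A M q' q :=
  ⟨h.2.1, h.1, h.2.2.1.symm, h.2.2.2.1.symm, h.2.2.2.2.symm⟩

theorem Keq.drop [Monoid S] {φ : α → S} {A M : ℕ} {q q' : List α} (h : Keq φ A M q q') {p B : ℕ}
    (hp : p + B ≤ A) : Keq φ B M (q.drop p) (q'.drop p) := by
  obtain ⟨h1, h2, h3, h4, h5⟩ := h
  refine ⟨by rw [List.length_drop]; omega, by rw [List.length_drop]; omega, ?_, ?_, ?_⟩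
  · have e : ∀ l : List α, (l.drop p).take B = ((l.take A).drop p).take B := by
      intro l; rw [List.drop_take, List.take_take, min_eq_left (by omega)]
    rw [e, h3, ← e]
  · have e2 : ∀ l : List α, A ≤ l.length → (l.drop p).drop B = (l.take A).drop (p+B) ++ l.drop A := by
      intro l hl
      rw [List.drop_drop]
      conv_lhs => rw [← List.take_append_drop A l]
      rw [List.drop_append_of_le_length (by rw [List.length_take]; omega)]
    rw [e2 q h1, e2 q' h2, h3, List.map_append, List.prod_append, h4, List.map_append,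
      List.prod_append]
  · rw [List.length_drop, List.length_drop]
    have : (q.length - p) + p ≡ (q'.length - p) + p [MOD M] := by
      rw [Nat.sub_add_cancel (by omega), Nat.sub_add_cancel (by omega)]; exact h5
    exact Nat.ModEq.add_right_cancel' p this

theorem Keq.prod [Monoid S] {φ : α → S} {A M : ℕ} {q q' : List α} (h : Keq φ A M q q') :
    (q.map φ).prod = (q'.map φ).prod := by
  obtain ⟨h1, h2, h3, h4, h5⟩ := h
  rw [← List.take_append_drop A q, ← List.take_append_drop A q', List.map_append, List.prod_append,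
    h3, h4, List.map_append, List.prod_append]

theorem Keq.take [Monoid S] {φ : α → S} {A M : ℕ} {q q' : List α} (h : Keq φ A M q q') {p : ℕ}
    (hp : p ≤ A) : q.take p = q'.take p := by
  have e : ∀ l : List α, l.take p = (l.take A).take p := by
    intro l; rw [List.take_take, min_eq_left hp]
  rw [e, h.2.2.1, ← e]

theorem Keq.mono [Monoid S] {φ : α → S} {A M : ℕ} {q q' : List α} (h : Keq φ A M q q') {B : ℕ}
    (hp : B ≤ A) : Keq φ B M q q' := by
  have := h.drop (p := 0) (B := B) (by omega)
  simpa using this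

open Classical in
/-- the noise, normalised -/
noncomputable def nuS [AddCommGroup V] (lam rho : List α → Option V) (nu : List α → V)
    (u : List α) : V :=
  if (∃ P Q v b, u = P ++ Q ∧ lam P = some v ∧ rho Q = some b) then nu u else 0

theorem nuS_aux [Monoid S] [AddCommGroup V] {act : V → S → V} {φ : α → S}
    {lam rho : List α → Option V} {nu : List α → V} {N1 B M : ℕ}
    (hlen : ∀ P v, lam P = some v → P.length ≤ N1)
    (hs : ∀ P Q v b, lam P = some v → rho Q = some b →
      b = act v (((P ++ Q).map φ).prod) + nu (P ++ Q))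
    (hrho : ∀ Q Q', Keq φ B M Q Q' → rho Q = rho Q')
    {A : ℕ} (hA : N1 + B ≤ A) {u u' : List α} (h : Keq φ A M u u')
    (hx : ∃ P Q v b, u = P ++ Q ∧ lam P = some v ∧ rho Q = some b) :
    (∃ P Q v b, u' = P ++ Q ∧ lam P = some v ∧ rho Q = some b) ∧ nu u = nu u' := by
  obtain ⟨P, Q, v, b, rfl, hP, hQ⟩ := hx
  have hl := hlen _ _ hP
  have e1 : P = u'.take P.length := by
    have := h.take (p := P.length) (by omega)
    rw [List.take_left] at this
    exact this
  have e2 : rho (u'.drop P.length) = some b := by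
    rw [← hQ]
    have := hrho _ _ (h.drop (p := P.length) (B := B) (by omega))
    rw [List.drop_left] at this
    exact this.symm
  have e3 : P ++ u'.drop P.length = u' := by
    conv_lhs => rw [e1]
    rw [← e1]
    conv_rhs => rw [← List.take_append_drop P.length u']
    rw [← e1]
  refine ⟨⟨P, u'.drop P.length, v, b, e3.symm, hP, e2⟩, ?_⟩
  have a1 := hs _ _ _ _ hP hQ
  have a2 := hs _ _ _ _ hP e2
  rw [e3, ← h.prod] at a2
  rw [a2] at a1
  exact (add_left_cancel a1).symm

theorem nuS_key [Monoid S] [AddCommGroup V] {act : V → S → V} {φ : α → S}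
    {lam rho : List α → Option V} {nu : List α → V} {N1 B M : ℕ}
    (hlen : ∀ P v, lam P = some v → P.length ≤ N1)
    (hs : ∀ P Q v b, lam P = some v → rho Q = some b →
      b = act v (((P ++ Q).map φ).prod) + nu (P ++ Q))
    (hrho : ∀ Q Q', Keq φ B M Q Q' → rho Q = rho Q')
    {A : ℕ} (hA : N1 + B ≤ A) {u u' : List α} (h : Keq φ A M u u') :
    nuS lam rho nu u = nuS lam rho nu u' := by
  classical
  unfold nuS
  by_cases hx : ∃ P Q v b, u = P ++ Q ∧ lam P = some v ∧ rho Q = some b
  · obtain ⟨h1, h2⟩ := nuS_aux hlen hs hrho hA h hx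
    rw [if_pos hx, if_pos h1, h2]
  · have hx' : ¬ ∃ P Q v b, u' = P ++ Q ∧ lam P = some v ∧ rho Q = some b := fun h' =>
      hx (nuS_aux hlen hs hrho hA h.symm h').1
    rw [if_neg hx, if_neg hx']

theorem nuS_sound [Monoid S] [AddCommGroup V] {act : V → S → V} {φ : α → S}
    {lam rho : List α → Option V} {nu : List α → V}
    (hs : ∀ P Q v b, lam P = some v → rho Q = some b →
      b = act v (((P ++ Q).map φ).prod) + nu (P ++ Q))
    (P Q : List α) (v b : V) (hP : lam P = some v) (hQ : rho Q = some b) :
    b = act v (((P ++ Q).map φ).prod) + nuS lam rho nu (P ++ Q) := by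
  unfold nuS
  rw [if_pos ⟨P, Q, v, b, rfl, hP, hQ⟩]
  exact hs P Q v b hP hQ

/-- regularity from a key -/
theorem reg_key [Finite α] [Monoid S] [Finite S] (φ : α → S) (A M : ℕ) (hM : 0 < M)
    (f : List α → Prop) (hf : ∀ q q', Keq φ A M q q' → f q → f q') :
    Language.IsRegular ({q | f q} : Language α) :=
  Loc_645.isRegular_of_read' φ A M hM f fun q q' h1 h2 h3 h4 h5 => hf q q' ⟨h1, h2, h3, h4, h5⟩

end Crest.Agent.R320.Fin_4
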