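import Crest.Agent.R320.Top5_120
import Crest.Agent.R320.Sc2n_937
import Crest.Agent.R320.Grid_899
import Crest.Agent.R320.Thin_963
import Crest.Agent.R320.ExactR_237
import Crest.Agent.R320.LWallAll_922
import Crest.Agent.R320.P4_933
import Crest.Agent.R320.Block_467

/-!
# Row 320: the join, part A (helper400): finite-state lemmas, the grid gadget with a finite-state `nu`,
arithmetic of the constants.
-/

set_option autoImplicit false

namespace Crest.Agent.R320.FinA_400

open Crest.RegLang Crest.Agent.R320.Hk_851

universe u

variable {α : Type u}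

theorem drop_snoc_lt {A : ℕ} {u : List α} {a : α} (h : u.length < A) : (u ++ [a]).drop A = [] := by
  apply List.drop_eq_nil_of_le
  simp; omega

theorem drop_snoc_ge {A : ℕ} {u : List α} {a : α} (h : A ≤ u.length) :
    (u ++ [a]).drop A = u.drop A ++ [a] := by
  rw [List.drop_append_of_le_length h]

/-- finite-state properties (prefix, length mod `M0`, value of the rest) are regular -/
theorem regular_of_drop [Finite α] {S : Type*} [Monoid S] [Finite S] (φ : α → S) (A M0 : ℕ)
    (hM : 0 < M0) (f : List α → Prop)
    (hf : ∀ u u' : List α, A ≤ u.length → A ≤ u'.length → u.take A = u'.take A →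
      u.length % M0 = u'.length % M0 → ((u.drop A).map φ).prod = ((u'.drop A).map φ).prod →
      (f u ↔ f u')) :
    Language.IsRegular ({u | f u} : Language α) := by
  classical
  haveI : NeZero M0 := ⟨by omega⟩
  have hfin : Finite {l : List α // l.length ≤ A} := List.finite_length_le α A
  let σ := {l : List α // l.length ≤ A} × ZMod M0 × S
  haveI : Fintype σ := Fintype.ofFinite σ
  let st : List α → σ := fun u =>
    (⟨u.take A, by rw [List.length_take]; omega⟩, (u.length : ZMod M0), ((u.drop A).map φ).prod)
  let M : DFA α σ :=
    { step := fun q a =>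
        (if h : q.1.1.length < A then ⟨q.1.1 ++ [a], by simp; omega⟩ else q.1,
          q.2.1 + 1, if q.1.1.length < A then 1 else q.2.2 * φ a)
      start := st []
      accept := {q | ∃ u, f u ∧ st u = q} }
  have hev : ∀ u, M.eval u = st u := by
    intro u
    induction u using List.reverseRecOn with
    | nil => rfl
    | append_singleton u a ih =>
      rw [DFA.eval_append_singleton, ih]
      refine Prod.ext ?_ (Prod.ext ?_ ?_)
      · apply Subtype.ext
        show (if h : (u.take A).length < A then (⟨u.take A ++ [a], by simp at h ⊢; omega⟩ :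
          {l : List α // l.length ≤ A}) else ⟨u.take A, by rw [List.length_take]; omega⟩).1
          = (u ++ [a]).take A
        rw [P4_933.take_snoc]
        split_ifs <;> rfl
      · show (u.length : ZMod M0) + 1 = (((u ++ [a]).length : ℕ) : ZMod M0)
        simp
      · show (if (u.take A).length < A then 1 else ((u.drop A).map φ).prod * φ a) =
          (((u ++ [a]).drop A).map φ).prod
        rw [List.length_take]
        by_cases h : u.length < A
        · rw [if_pos (by omega), drop_snoc_lt h]; simp
        · rw [if_neg (by omega), drop_snoc_ge (by omega)]; simp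
  refine Language.isRegular_iff.2 ⟨σ, inferInstance, M, ?_⟩
  ext u
  rw [DFA.mem_accepts, hev]
  constructor
  · rintro ⟨u', h1, h2⟩
    have e1 : u'.take A = u.take A := congrArg (fun q : σ => q.1.1) h2
    have e2 : (u'.length : ZMod M0) = (u.length : ZMod M0) := congrArg (fun q : σ => q.2.1) h2
    have e3 : ((u'.drop A).map φ).prod = ((u.drop A).map φ).prod :=
      congrArg (fun q : σ => q.2.2) h2
    have e2' : u'.length % M0 = u.length % M0 := (ZMod.natCast_eq_natCast_iff' _ _ _).1 e2
    have e4 := congrArg List.length e1
    rw [List.length_take, List.length_take] at e4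
    by_cases h : u.length < A
    · rw [List.take_of_length_le (by omega), List.take_of_length_le (by omega)] at e1
      rw [← e1]; exact h1
    · exact (hf u' u (by omega) (by omega) e1 e2' e3).1 h1
  · intro h
    exact ⟨u, h, rfl⟩

theorem prod_split {S : Type*} [Monoid S] (φ : α → S) (u : List α) (A : ℕ) :
    (u.map φ).prod = ((u.take A).map φ).prod * ((u.drop A).map φ).prod := by
  rw [← List.prod_append, ← List.map_append, List.take_append_drop]

theorem drop_split (u : List α) {i A : ℕ} (h : i ≤ A) (hA : A ≤ u.length) :
    u.drop i = (u.take A).drop i ++ u.drop A := by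
  conv_lhs => rw [← List.take_append_drop A u]
  rw [List.drop_append_of_le_length]
  rw [List.length_take]; omega

open Grid_899 in
/-- the grid gadget with a finite-state `nu` -/
theorem grid_nu (S V : Type*) [Monoid S] [Finite S] [AddCommGroup V] [Finite V]
    (act : V → S → V) :
    ∃ (k m : ℕ), ∀ q : Fin k → ℕ, (∀ j, Odd (q j)) →
      Pairwise (fun i j => Nat.Coprime (q i) (q j)) → ∀ κ : ℕ,
      ∀ (α : Type*) (φ : α → S),
      ∃ (lam rho : List α → Option V) (nu : List α → V),
        (∀ P v, lam P = some v → P.length ≤ Am (∏ j, q j) κ (m + 1)) ∧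
        (∀ P Q v b, lam P = some v → rho Q = some b →
          b = act v ((P ++ Q).map φ).prod + nu (P ++ Q)) ∧
        (∀ u : List α, 2 * Am (∏ j, q j) κ (m + 1) ≤ u.length → (∀ j, ¬ q j ∣ u.length) →
          (∀ j, 1 ≤ j → j ≤ m →
            (∏ j, q j) * G κ (j - 1) ≤ (u.length - Am (∏ j, q j) κ j) % G κ j ∧
            (u.length - Am (∏ j, q j) κ j) % G κ j + (∏ j, q j) * G κ (j - 1) ≤ G κ j) →
          ∀ v, ∃ P Q, u = P ++ Q ∧ lam P = some v ∧ (rho Q).isSome) ∧
        (∀ u u' : List α, 2 * Am (∏ j, q j) κ (m + 1) ≤ u.length →
          2 * Am (∏ j, q j) κ (m + 1) ≤ u'.length →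
          u.take (2 * Am (∏ j, q j) κ (m + 1)) = u'.take (2 * Am (∏ j, q j) κ (m + 1)) →
          u.length % ((∏ j, q j) * G κ m) = u'.length % ((∏ j, q j) * G κ m) →
          ((u.drop (2 * Am (∏ j, q j) κ (m + 1))).map φ).prod =
            ((u'.drop (2 * Am (∏ j, q j) κ (m + 1))).map φ).prod → nu u = nu u') := by
  classical
  obtain ⟨k, m, H⟩ := grid_gadget_reg S V act
  refine ⟨k, m, fun q hq hcop κ α φ => ?_⟩
  obtain ⟨lam, rho, nu, h1, h2, h3, h4, h5⟩ := H q hq hcop κ α (fun w => (w.map φ).prod) (by simp)
  set N := Am (∏ j, q j) κ (m + 1) with hN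
  have hNm : Am (∏ j, q j) κ m ≤ N := Am_succ_ge m
  let Sp : List α → Prop := fun u => ∃ P Q v b, u = P ++ Q ∧ lam P = some v ∧ rho Q = some b
  have key : ∀ u u' : List α, 2 * N ≤ u.length → 2 * N ≤ u'.length →
      u.take (2 * N) = u'.take (2 * N) →
      u.length % ((∏ j, q j) * G κ m) = u'.length % ((∏ j, q j) * G κ m) →
      ((u.drop (2 * N)).map φ).prod = ((u'.drop (2 * N)).map φ).prod → Sp u →
      Sp u' ∧ nu u = nu u' := by
    rintro u u' hl hl' ht hm hp ⟨P, Q, v, b, rfl, hP, hQ⟩
    have hPl := (h1 P v hP).1
    have hQl := h2 Q b hQ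
    have hPN : P.length ≤ N := by omega
    have hbase : (P ++ Q).take (P.length + N) = u'.take (P.length + N) := by
      have e := congrArg (fun l : List α => l.take (P.length + N)) ht
      simp only [List.take_take] at e
      rwa [Nat.min_eq_left (by omega)] at e
    have hP' : u'.take P.length = P := by
      have e := congrArg (fun l : List α => l.take P.length) hbase
      simp only [List.take_take] at e
      rw [Nat.min_eq_left (by omega), List.take_left] at e
      exact e.symm
    have hsplit : u' = P ++ u'.drop P.length := by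
      conv_lhs => rw [← List.take_append_drop P.length u', hP']
    have hQ' : rho (u'.drop P.length) = rho Q := by
      refine h5 _ _ ?_ hQl ?_ ?_ ?_
      · rw [List.length_drop]; omega
      · have e := congrArg (fun l : List α => l.drop P.length) hbase
        rw [List.drop_take, List.drop_take, List.drop_left, Nat.add_sub_cancel_left] at e
        exact e.symm
      · have e1 : (u'.drop P.length).drop N = u'.drop (P.length + N) := by
          rw [List.drop_drop]
        have e2 : Q.drop N = (P ++ Q).drop (P.length + N) := by
          rw [← List.drop_drop, List.drop_left]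
        show ((List.drop N (List.drop P.length u')).map φ).prod = ((Q.drop N).map φ).prod
        rw [e1, e2, drop_split u' (i := P.length + N) (A := 2 * N) (by omega) hl',
          drop_split (P ++ Q) (i := P.length + N) (A := 2 * N) (by omega) hl,
          List.map_append, List.map_append, List.prod_append, List.prod_append, ht, hp]
      · have e : (P.length + (u'.drop P.length).length) % ((∏ j, q j) * G κ m) =
            (P.length + Q.length) % ((∏ j, q j) * G κ m) := by
          rw [List.length_drop, Nat.add_sub_cancel' (by omega), ← hm, List.length_append]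
        exact Nat.ModEq.add_left_cancel' _ e
    have hs : Sp u' := ⟨P, u'.drop P.length, v, b, hsplit, hP, by rw [hQ']; exact hQ⟩
    refine ⟨hs, ?_⟩
    have a1 := h3 P Q v b hP hQ
    have a2 := h3 P (u'.drop P.length) v b hP (by rw [hQ']; exact hQ)
    rw [← hsplit] at a2
    have a3 : ((P ++ Q).map φ).prod = (u'.map φ).prod := by
      rw [prod_split φ (P ++ Q) (2 * N), prod_split φ u' (2 * N), ht, hp]
    rw [a3] at a1
    exact add_left_cancel (a1.symm.trans a2)
  refine ⟨lam, rho, fun u => if Sp u then nu u else 0, ?_, ?_, h4, ?_⟩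
  · intro P v h
    have := (h1 P v h).1
    omega
  · intro P Q v b hP hQ
    have hs : Sp (P ++ Q) := ⟨P, Q, v, b, rfl, hP, hQ⟩
    simp only
    rw [if_pos hs]
    exact h3 P Q v b hP hQ
  · intro u u' hl hl' ht hm hp
    simp only
    by_cases hs : Sp u
    · obtain ⟨h, e⟩ := key u u' hl hl' ht hm hp hs
      rw [if_pos hs, if_pos h, e]
    · have h' : ¬ Sp u' := fun h' => hs (key u' u hl' hl ht.symm hm.symm hp.symm h').1
      rw [if_neg hs, if_neg h']

end Crest.Agent.R320.FinA_400
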