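import Crest.Agent.R320.Sch2_420
import Crest.Agent.R320.SemTop_727

/-!
Row 320, helper420: `Hy` (Sch2_420) gives completeness of scheme 2 in 727's semantic top.
-/

set_option autoImplicit false
set_option linter.unusedSectionVars false

namespace Crest.Agent.R320.FinA_420

open Crest.RegLang Crest.Agent.R320.Hk_851 Crest.Agent.R320.Blk467 Crest.Agent.R320.SemTop_727
  Crest.Agent.R320.Sch2_420

variable {α S V : Type} [Monoid S] [AddCommGroup V] {D : Dt α S V}

def sch (D : Dt α S V) : Sch α V :=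
  ⟨{X | D.XX X}, D.T, fun v => {P | D.LP1 v P}, fun v => {P | D.LP2 v P}⟩

theorem pcode (H : Hy D) : PCode (sch D).XX := by
  have hz := H.zge
  have hno := H.nopos
  refine ⟨fun h => ?_, ?_⟩
  · have := XX_len [] h
    simp at this
    omega
  · rintro X hX Y hY ⟨Z, rfl⟩
    have h1 : (X ++ Z).take X.length = X := List.take_left
    have h2 := XX_pre (D := D) (X ++ Z) X.length (X ++ Z).length (by simp) le_rfl
      (by rw [h1]; exact hX) (by rw [List.take_length]; exact hY)
    rw [List.length_append] at h2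
    have h3 : Z = [] := List.length_eq_zero_iff.1 (by omega)
    rw [h3, List.append_nil]

theorem good (H : Hy D) {X : List α} (hX : D.XX X) {a : ℕ} (ha : a ≤ D.p0)
    (hb : ¬ D.BadE a (X.drop a)) : X ∈ (sch D).Good := by
  refine ⟨hX, fun x => ?_⟩
  obtain ⟨P, Q, h1, -, h3, h4⟩ := complete1 H hX ha hb x
  obtain ⟨b, hb'⟩ := Option.isSome_iff_exists.1 h4
  have h5 := sound1 H h3 hb'
  refine ⟨P, h3, Q, ?_, h1.symm⟩
  intro x' P' hP'
  have h6 := sound1 H hP' hb'
  refine ⟨h6.1, ?_⟩
  show D.T x' (P' ++ Q) = D.T x X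
  rw [h6.2, h1, h5.2]

theorem hC2 (H : Hy D) : ∀ X1 ∈ (sch D).Bad, ∀ X2 ∈ (sch D).Bad, ∀ x, ∃ P ∈ (sch D).L2 x,
    ∃ Q ∈ (sch D).R2 ((sch D).T ((sch D).T x X1) X2), P ++ Q = X1 ++ X2 := by
  intro X1 h1' X2 h2' x
  have h1 : D.XX X1 := h1'.1
  have h2 : D.XX X2 := h2'.1
  have hz := H.zge
  have hno := H.nopos
  have hX1l := h1.2.1
  obtain ⟨G, hG1, hG2⟩ := H.c2 (X1.take D.p0) (by rw [List.length_take]; omega) x
  obtain ⟨B, hB1, hB2⟩ := H.spoil X1 X2 h1 h2
  obtain ⟨k, hkG, hkB⟩ : ∃ k ∈ G, k ∉ B := by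
    by_contra hcon
    push Not at hcon
    have := Finset.card_le_card (s := G) (t := B) (fun k hk => hcon k hk)
    omega
  obtain ⟨hk, hlam, hrho⟩ := hG2 k hkG
  have hck := H.hc k hk
  have hnsp : ∀ k' < D.K, k' ≠ k → ¬ D.BadAt (D.c k') ((X1 ++ X2).drop (D.c k)) := by
    intro k' hk' hne hb
    exact hkB (hB2 k hk ⟨k', hk', hne, hb⟩)
  have htk : (X1.take (D.c k)).length = D.c k := by rw [List.length_take]; omega
  rw [List.take_take, min_eq_left hck] at hlam
  obtain ⟨r, hr⟩ := Option.isSome_iff_exists.1 hrho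
  refine ⟨X1.take (D.c k), ⟨k, hk, htk, hlam⟩, X1.drop (D.c k) ++ X2, ?_,
    by rw [← List.append_assoc, List.take_append_drop]⟩
  -- value of a block whose right part is `X1.drop (c k)`
  have hval : ∀ (v : V) (P : List α), P.length = D.c k → D.lam2 P = some v →
      D.T v (P ++ X1.drop (D.c k)) =
        D.act r (D.φ (X1.drop D.p0)) + D.nu1 (X1.drop D.p0) := by
    intro v P hP hl
    have e1 : (P ++ X1.drop (D.c k)).take D.p0 = P ++ (X1.take D.p0).drop (D.c k) := by
      rw [List.take_append, List.take_of_length_le (by omega), hP, List.drop_take]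
    have e2 : (P ++ X1.drop (D.c k)).drop D.p0 = X1.drop D.p0 := by
      rw [List.drop_append, List.drop_of_length_le (by omega), hP, List.nil_append,
        List.drop_drop]
      congr 1; omega
    have h7 := H.s2 P ((X1.take D.p0).drop (D.c k)) v r
      (by rw [List.length_drop, List.length_take]; omega) hl hr
    unfold Dt.T
    rw [e1, e2, ← h7]
  intro x' P' hP'
  obtain ⟨k', hk', hPl', hlam'⟩ := hP'
  have hck' := H.hc k' hk'
  by_cases hkk : k' = k
  · subst hkk
    have hXX : D.XX (P' ++ X1.drop (D.c k')) := by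
      refine XX_of_Cmp H (by omega) ?_
      rw [hPl']
      have := Cmp_of_XX H (P := X1.take (D.c k')) (Q := X1.drop (D.c k')) (by omega)
        (by rw [List.take_append_drop]; exact h1)
      rwa [htk] at this
    by_cases hg : P' ++ X1.drop (D.c k') ∈ (sch D).Good
    · right; left
      exact ⟨_, hg, by rw [← List.append_assoc]; exact List.prefix_append _ _⟩
    · left
      refine ⟨_, ⟨hXX, hg⟩, X2, h2', by rw [List.append_assoc], ?_⟩
      show D.T (D.T x' (P' ++ X1.drop (D.c k'))) X2 = D.T (D.T x X1) X2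
      rw [hval x' P' hPl' hlam']
      have := hval x (X1.take (D.c k')) htk hlam
      rw [List.take_append_drop] at this
      rw [this]
  · right; left
    have hW : D.Wo (X1.drop (D.c k) ++ X2) := (H.loc _ X2 (by have := h2.2.1; omega)).2 h2.1
    obtain ⟨t, ht, hC⟩ := Cmp_take H (a := D.c k') (Q := X1.drop (D.c k) ++ X2) (by omega) hW
      (by rw [List.length_append]; have := h2.2.1; omega)
    have hnb := hnsp k' hk' hkk
    have hdr : (X1 ++ X2).drop (D.c k) = X1.drop (D.c k) ++ X2 :=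
      List.drop_append_of_le_length (by omega)
    rw [hdr] at hnb
    have hnb2 : ¬ D.BadE (D.c k') ((X1.drop (D.c k) ++ X2).take t) :=
      fun hb => hnb ⟨t, ht, hC, hb⟩
    have hXX : D.XX (P' ++ (X1.drop (D.c k) ++ X2).take t) :=
      XX_of_Cmp H (by omega) (by rw [hPl']; exact hC)
    have hdr2 : (P' ++ (X1.drop (D.c k) ++ X2).take t).drop (D.c k') =
        (X1.drop (D.c k) ++ X2).take t := by rw [← hPl', List.drop_left]
    refine ⟨_, good H hXX (a := D.c k') hck' (by rw [hdr2]; exact hnb2), ?_⟩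
    exact (List.prefix_append_right_inj _).2 (List.take_prefix _ _)

theorem top420 [Finite α] [Finite S] [Finite V] (H : Hy D) (f : α → S)
    (hf : ∀ w, D.φ w = (w.map f).prod) (hone : ∀ v, D.act v 1 = v)
    (hfaith : ∀ s t, (∀ v, D.act v s = D.act v t) → s = t)
    (hfib : ∀ x y, HL 1 ({X | D.XX X ∧ D.T x X = y} : Language α))
    (htail : ∀ s, HL 3 ({w | (∀ X, D.XX X → ¬ X <+: w) ∧ (w.map f).prod = s} : Language α))
    (s : S) : HL 3 ({w | (w.map f).prod = s} : Language α) := by
  refine Crest.Agent.R320.SemTop_727.top (k := 1) D.act H.acta hone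
    (fun v s t => (H.actm v s t).symm) hfaith f
    (fun X => D.act (D.nu2 (X.take D.p0)) (D.φ (X.drop D.p0)) + D.nu1 (X.drop D.p0)) (sch D)
    ?_ (pcode H) hfib (fun x => fin1 H x) (fun x => fin2 H x) (hC2 H) htail s
  intro v X
  show D.T v X = _
  have h1 : (X.map f).prod = D.φ (X.take D.p0) * D.φ (X.drop D.p0) := by
    rw [← H.hφ, List.take_append_drop, hf]
  unfold Dt.T
  rw [h1, H.acta, H.actm, add_assoc]

end Crest.Agent.R320.FinA_420
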