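import Crest.Agent.R320.Top5_120
import Crest.Agent.R320.Sc2n_937
import Crest.Agent.R320.P4_933
import Crest.Agent.R320.Loc_645

/-!
Row 320: abstract join of the two wall schemes (natural chain rule, left-looking walls):
`Top5_120.top5` + `Sc2n_937` + `P4_933` + `Loc_645`.
-/

set_option autoImplicit false

namespace Crest.Agent.R320.FinA_426

open Crest.RegLang Crest.Agent.R320.Hk_851 Crest.Agent.R320.Blk467 Crest.Agent.R320.BddReg_746
open Crest.Agent.R320.Sc2n_937

universe u

variable {α : Type u} {S V : Type*} [Monoid S] [AddCommGroup V]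

/-- total noise of a block -/
def nuT (g : Geo α) (act : V → S → V) (φ : α → S) (nu1 nu2 : List α → V) (X : List α) : V :=
  act (nu2 (X.take g.p0)) ((X.drop g.p0).map φ).prod + nu1 (X.drop g.p0)

def pre (act : V → S → V) (φ : α → S) (nu2 : List α → V) (X : List α) (v : V) : V :=
  act v (X.map φ).prod + nu2 X

def post (act : V → S → V) (φ : α → S) (nu1 : List α → V) (v : V) (Y : List α) : V :=
  act v (Y.map φ).prod + nu1 Y

theorem mod_sub {a b p m : ℕ} (ha : p ≤ a) (hb : p ≤ b) (h : a % m = b % m) :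
    (a - p) % m = (b - p) % m := by
  have h1 : (a - p) + p ≡ (b - p) + p [MOD m] := by
    rw [Nat.sub_add_cancel ha, Nat.sub_add_cancel hb]; exact h
  exact Nat.ModEq.add_right_cancel' p h1

theorem T_eq (g : Geo α) (act : V → S → V)
    (hadd : ∀ a b s, act (a + b) s = act a s + act b s)
    (hmul : ∀ v s t, act v (s * t) = act (act v s) t)
    (φ : α → S) (nu1 nu2 : List α → V) (v : V) (X : List α) :
    g.T (pre act φ nu2) (post act φ nu1) v X = act v (X.map φ).prod + nuT g act φ nu1 nu2 X := by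
  unfold Geo.T pre post nuT
  have e : (X.map φ).prod = ((X.take g.p0).map φ).prod * ((X.drop g.p0).map φ).prod := by
    rw [← List.prod_append, ← List.map_append, List.take_append_drop]
  rw [e, hmul, hadd]
  abel

theorem core [Finite α] [Finite S] [Finite V]
    (g : Geo α) (len : ∀ P, g.Wo P → g.n ≤ P.length)
    {B R : ℕ}
    (free : ∀ u : List α, (∀ t < u.length, ¬ g.Wo (u.take t)) → u ∈ (PN B R : Language α))
    (hgap : ∀ P Q : List α, g.Wo P → g.Wo (P ++ Q) → Q ≠ [] → 2 * g.p0 + 2 * g.N1 < Q.length)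
    (act : V → S → V)
    (hadd : ∀ a b s, act (a + b) s = act a s + act b s)
    (hone : ∀ v, act v 1 = v) (hmul : ∀ v s t, act v (s * t) = act (act v s) t)
    (hfaith : ∀ s t, (∀ v, act v s = act v t) → s = t)
    (φ : α → S) (BadT : ℕ → Prop) (M0 : ℕ) (hM0 : 0 < M0)
    (hper : ∀ T T', g.q0 ≤ T → g.q0 ≤ T' → T % M0 = T' % M0 → (BadT T ↔ BadT T'))
    (lam rho : List α → Option V) (nu1 : List α → V)
    (hlen : ∀ P v, lam P = some v → P.length ≤ g.N1)
    (hex1 : ∀ P Q u b, lam P = some u → rho Q = some b →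
      b = act u ((P ++ Q).map φ).prod + nu1 (P ++ Q))
    (hc1 : ∀ Y : List α, g.q0 ≤ Y.length → ¬ BadT Y.length → ∀ u : V, ∃ P Q, Y = P ++ Q ∧
      lam P = some u ∧ (rho Q).isSome)
    (A1 : ℕ) (hA1 : A1 ≤ g.q0)
    (hnu : ∀ Q Q' : List α, A1 ≤ Q.length → A1 ≤ Q'.length → Q.take A1 = Q'.take A1 →
      ((Q.drop A1).map φ).prod = ((Q'.drop A1).map φ).prod → Q.length % M0 = Q'.length % M0 →
      nu1 Q = nu1 Q')
    (K : ℕ) (c : ℕ → ℕ) (hcp : ∀ k, k < K → c k ≤ g.p0)
    (lam2 rho2 : ℕ → List α → Option V) (nu2 : List α → V)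
    (hex2 : ∀ k, k < K → ∀ P Q v u, P.length = c k → Q.length = g.p0 - c k →
      lam2 k P = some v → rho2 k Q = some u → u = act v ((P ++ Q).map φ).prod + nu2 (P ++ Q))
    (C0 : ℕ)
    (hsp : ∀ k k' l l', k < K → k' < K → l < K → l' < K → k' ≠ k → l' ≠ l →
      c k + c l' < c l + c k' + 2 * g.N1 → c l + c k' < c k + c l' + 2 * g.N1 → k = l)
    (hthin : ∀ τ, g.z ≤ τ + g.p0 → ∀ J : Finset ℕ, (∀ k ∈ J, k < K ∧
      ∃ k', k' < K ∧ k' ≠ k ∧ BadT (τ + c k' - c k - g.p0)) → J.card ≤ C0)
    (hI : ∀ X1 : List α, X1.length = g.p0 → ∀ v, ∃ I : Finset ℕ, 2 * C0 + 2 ≤ I.card ∧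
      ∀ k ∈ I, k < K ∧ lam2 k (X1.take (c k)) = some v ∧ (rho2 k (X1.drop (c k))).isSome)
    (s : S) : HL 3 ({w | (w.map φ).prod = s} : Language α) := by
  classical
  have hz := g.hz
  have hq := g.hq
  have hN := g.hN
  set C : Set (List α) := {X | g.XX X} with hCdef
  set Bad : Set (List α) := {X | g.XX X ∧ g.BadX BadT X} with hBdef
  have hC : PCode C := by
    constructor
    · intro h0
      have h1 : g.z ≤ 0 := h0.1
      omega
    · rintro X hX Y hY ⟨R', rfl⟩
      exact g.prefix_code (R := R') (R' := []) hX hY (by simp)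
  set nu := nuT g act φ nu1 nu2 with hnuT
  have hT : ∀ v X, g.T (pre act φ nu2) (post act φ nu1) v X = act v (X.map φ).prod + nu X :=
    fun v X => T_eq g act hadd hmul φ nu1 nu2 v X
  -- regularity
  set A : ℕ := g.z + g.N1 with hA
  have hclass : ∀ X X' : List α, A ≤ X.length → A ≤ X'.length → X.take A = X'.take A →
      ((X.drop A).map φ).prod = ((X'.drop A).map φ).prod → X.length % M0 = X'.length % M0 →
      (X.map φ).prod = (X'.map φ).prod ∧ nu X = nu X' ∧ (g.BadX BadT X ↔ g.BadX BadT X') := by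
    intro X X' hX hX' h1 h2 h3
    have hprod : ∀ a : ℕ, a ≤ A → ((X.drop a).map φ).prod = ((X'.drop a).map φ).prod := by
      intro a ha
      have e : ∀ Z : List α, A ≤ Z.length →
          Z.drop a = (Z.take A).drop a ++ Z.drop A := by
        intro Z hZ
        have : Z.drop a = (Z.take A ++ Z.drop A).drop a := by rw [List.take_append_drop]
        rw [this, List.drop_append_of_le_length (by rw [List.length_take]; omega)]
      rw [e X hX, e X' hX', List.map_append, List.map_append, List.prod_append,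
        List.prod_append, h1, h2]
    have h0 : (X.map φ).prod = (X'.map φ).prod := by
      have := hprod 0 (Nat.zero_le _)
      simpa using this
    have htk : ∀ t, t ≤ A → X.take t = X'.take t := by
      intro t ht
      have := congrArg (List.take t) h1
      rwa [List.take_take, List.take_take, Nat.min_eq_left ht] at this
    refine ⟨h0, ?_, ?_⟩
    · rw [hnuT]
      unfold nuT
      rw [htk g.p0 (by omega), hprod g.p0 (by omega)]
      congr 1
      apply hnu
      · rw [List.length_drop]; omega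
      · rw [List.length_drop]; omega
      · have : ∀ Z : List α, (Z.drop g.p0).take A1 = (Z.take (g.p0 + A1)).drop g.p0 := by
          intro Z
          rw [List.drop_take]; congr 1; omega
        rw [this, this, htk (g.p0 + A1) (by omega)]
      · rw [List.drop_drop, List.drop_drop]
        exact hprod _ (by omega)
      · rw [List.length_drop, List.length_drop]
        exact mod_sub (by omega) (by omega) h3
    · unfold Geo.BadX Geo.E
      have hE : (∃ t, t ≤ X.length ∧ g.Wo (X.take t) ∧ g.z ≤ t + g.N1 ∧ t < g.z + g.N1) ↔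
          (∃ t, t ≤ X'.length ∧ g.Wo (X'.take t) ∧ g.z ≤ t + g.N1 ∧ t < g.z + g.N1) := by
        constructor
        · rintro ⟨t, -, h5, h6, h7⟩
          exact ⟨t, by omega, by rw [← htk t (by omega)]; exact h5, h6, h7⟩
        · rintro ⟨t, -, h5, h6, h7⟩
          exact ⟨t, by omega, by rw [htk t (by omega)]; exact h5, h6, h7⟩
      have hB : BadT (X.length - g.p0) ↔ BadT (X'.length - g.p0) := by
        apply hper
        · omega
        · omega
        · exact mod_sub (by omega) (by omega) h3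
      rw [hE, hB]
  have hreg : ∀ f : List α → Prop,
      (∀ X X' : List α, A ≤ X.length → A ≤ X'.length → X.take A = X'.take A →
        ((X.drop A).map φ).prod = ((X'.drop A).map φ).prod → X.length % M0 = X'.length % M0 →
        f X → f X') → Language.IsRegular ({X | f X} : Language α) :=
    fun f hf => Loc_645.isRegular_of_read' φ A M0 hM0 f hf
  have hXX : ∀ X, g.XX X ↔ P4_933.XX g.Wo g.z X := by
    intro X
    unfold Geo.XX P4_933.XX
    constructor
    · rintro ⟨h1, h2, h3⟩; exact ⟨h2, h1, fun t h4 h5 => h3 t h5 h4⟩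
    · rintro ⟨h1, h2, h3⟩; exact ⟨h2, h1, fun t h4 h5 => h3 t h5 h4⟩
  refine Top5_120.top5 act hadd hone hmul hfaith φ nu C Bad hC (fun X hX => hX.1)
    (fun v => {P | g.LP1 (pre act φ nu2) lam v P}) (fun v => {P | Geo.LP2 K c lam2 v P})
    ?_ ?_ ?_ ?_ ?_ ?_ ?_ s
  · intro v
    refine (List.finite_length_le α (g.p0 + g.N1)).subset fun P hP => ?_
    have := hlen _ _ hP.2
    rw [List.length_drop] at this
    have h1 := hP.1
    change P.length ≤ _
    omega
  · intro v
    refine (List.finite_length_le α g.p0).subset fun P hP => ?_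
    obtain ⟨k, hk, h1, -⟩ := hP
    change P.length ≤ _
    rw [h1]; exact hcp k hk
  · intro x y
    refine (P4_933.hl_XX (z := g.z) g.loc len free (f := fun X => act x (X.map φ).prod + nu X = y)
      (hreg _ ?_)).congr fun w => ?_
    · intro X X' h1 h2 h3 h4 h5 h6
      obtain ⟨e1, e2, -⟩ := hclass X X' h1 h2 h3 h4 h5
      rw [← e1, ← e2]; exact h6
    · exact and_congr (hXX w) Iff.rfl
  · intro x y
    refine (P4_933.hl_XX (z := g.z) g.loc len free
      (f := fun X => g.BadX BadT X ∧ act x (X.map φ).prod + nu X = y)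
      (hreg _ ?_)).congr fun w => ?_
    · rintro X X' h1 h2 h3 h4 h5 ⟨h6, h7⟩
      obtain ⟨e1, e2, e3⟩ := hclass X X' h1 h2 h3 h4 h5
      rw [← e1, ← e2]; exact ⟨e3.1 h6, h7⟩
    · change ((g.XX w ∧ g.BadX BadT w) ∧ _) ↔ (P4_933.XX g.Wo g.z w ∧ g.BadX BadT w ∧ _)
      rw [← hXX w, and_assoc]
  · intro s'
    refine (P4_933.hl_NB (z := g.z) g.loc len free (f := fun X => (X.map φ).prod = s')
      (hreg _ ?_)).congr fun w => ?_
    · intro X X' h1 h2 h3 h4 h5 h6
      obtain ⟨e1, -, -⟩ := hclass X X' h1 h2 h3 h4 h5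
      rw [← e1]; exact h6
    · change ((∀ X ∈ C, ¬ X <+: w) ∧ _) ↔ (P4_933.NB g.Wo g.z w ∧ _)
      rw [P4_933.NB_iff]
      refine and_congr ⟨fun h P hp hP => h P ((hXX P).2 hP) hp,
        fun h X hX hp => h X hp ((hXX X).1 hX)⟩ Iff.rfl
  · -- hcc1
    intro X hX hXb v
    have hXz := hX.1
    have hE : ¬ g.E X := fun h => hXb ⟨hX, Or.inl h⟩
    have hBT : ¬ BadT (X.length - g.p0) := fun h => hXb ⟨hX, Or.inr h⟩
    obtain ⟨P, Q, b, e, hP, hQ⟩ := g.complete1 (pre act φ nu2) (lam := lam) (rho := rho)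
      hlen hX hE (fun u => hc1 _ (by rw [List.length_drop]; omega)
        (by rw [List.length_drop]; exact hBT) u) v
    have sd : ∀ x P', g.LP1 (pre act φ nu2) lam x P' → g.XX (P' ++ Q) ∧
        g.T (pre act φ nu2) (post act φ nu1) x (P' ++ Q) = b := fun x P' hP' =>
      g.sound1 (pre act φ nu2) (post act φ nu1) hlen
        (fun P Q u b h1 h2 => hex1 P Q u b h1 h2) hP' hQ
    refine ⟨P, Q, e.symm, hP, fun x P' hP' => ⟨(sd x P' hP').1, ?_⟩⟩
    rw [← hT, ← hT, (sd x P' hP').2]
    have := (sd v P hP).2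
    rw [← e] at this
    exact this.symm
  · -- hcc2
    intro X hX Y hY v
    obtain ⟨I, hI1, hI2⟩ := hI (X.take g.p0) (by
      have := hX.1.1
      rw [List.length_take]; omega) v
    obtain ⟨P, Q, b, e, hP, hQ⟩ := g.complete2 (pre act φ nu2) (post act φ nu1) (BadT := BadT)
      (K := K) (c := c) (lam2 := lam2) (rho2 := rho2) (C0 := C0) hcp hgap hsp hthin
      hX.1 hY.1 v ⟨I, hI1, fun k hk => by
        obtain ⟨h1, h2, h3⟩ := hI2 k hk
        refine ⟨h1, ?_, h3⟩
        have := hcp k h1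
        rwa [List.take_take, Nat.min_eq_left this] at h2⟩
    have sd : ∀ x P' X' R', g.XX X' → g.BadX BadT X' → Geo.LP2 K c lam2 x P' →
        P' ++ Q = X' ++ R' → ∃ X2, g.XX X2 ∧ P' ++ Q = X' ++ X2 ∧
          g.T (pre act φ nu2) (post act φ nu1)
            (g.T (pre act φ nu2) (post act φ nu1) x X') X2 = b := by
      intro x P' X' R' h1 h2 h3 h4
      exact g.sound2 (pre act φ nu2) (post act φ nu1) (BadT := BadT) (K := K) (c := c)
        (lam2 := lam2) (rho2 := rho2) (R := []) (R' := R') hcp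
        (fun k hk P Q v u a1 a2 a3 a4 => hex2 k hk P Q v u a1 a2 a3 a4) h1 h2 h3 hQ
        (by rw [List.append_nil]; exact h4)
    have htrue : g.T (pre act φ nu2) (post act φ nu1)
        (g.T (pre act φ nu2) (post act φ nu1) v X) Y = b := by
      obtain ⟨X2, h1, h2, h3⟩ := sd v P X Y hX.1 hX.2 hP e
      have : X2 = Y := by
        have := h2.symm.trans e
        exact List.append_cancel_left this
      rw [← this]; exact h3
    refine ⟨P, Q, e, hP, fun x P' hP' => ?_⟩
    -- a block prefix of `P' ++ Q`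
    have hpre : ∃ X', g.XX X' ∧ X' <+: P' ++ Q := by
      obtain ⟨k0, hk0, hPl, -⟩ := hP'
      obtain ⟨k, hk, l, hend, hgood, -, -⟩ := hQ
      have : ∃ l, g.CEnd Q (c k0) l := by
        by_cases h : k0 = k
        · subst h; exact ⟨l, hend⟩
        · obtain ⟨l', h1, -⟩ := hgood k0 hk0 h
          exact ⟨l', h1⟩
      obtain ⟨l', hl'⟩ := this
      refine ⟨P' ++ Q.take l', g.xx_of_cend (by rw [hPl]; exact hcp k0 hk0)
        (by rw [hPl]; exact hl'), ?_⟩
      exact (List.prefix_append_right_inj P').2 (List.take_prefix _ _)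
    obtain ⟨X', hX', R', hR'⟩ := hpre
    by_cases hb : g.BadX BadT X'
    · left
      obtain ⟨X2, h1, h2, h3⟩ := sd x P' X' R' hX' hb hP' hR'.symm
      refine ⟨X', ⟨hX', hb⟩, X2, h1, h2.symm, ?_⟩
      rw [← hT, ← hT, ← hT, ← hT, h3, htrue]
    · right
      exact ⟨X', hX', fun h => hb h.2, R', hR'⟩

end Crest.Agent.R320.FinA_426
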