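import Crest.Agent.R320.Top5_120
import Crest.Agent.R320.Sc2n_937
import Crest.Agent.R320.P4_933

/-! Row 320: join of Top5_120, Sc2n_937, P4_933 (helper542). -/

set_option autoImplicit false

namespace Crest.Agent.R320.Fin_542

open Crest.Agent.R320.Hk_851 Crest.Agent.R320.Sc2n_937

/-- finite-state properties with a window at the start -/
theorem reg_fs {α : Type} [Finite α] {S : Type} [Monoid S] [Finite S] (φ : α → S) (A M0 : ℕ)
    (hM : 0 < M0) (f : List α → Prop)
    (hf : ∀ x r r' : List α, x.length = A → r.length % M0 = r'.length % M0 →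
      (r.map φ).prod = (r'.map φ).prod → (f (x ++ r) ↔ f (x ++ r'))) :
    Language.IsRegular ({u | f u} : Language α) := by
  classical
  have hfinA : Finite {l : List α // l.length ≤ A} := List.finite_length_le α A
  let F1 : {l : List α // l.length ≤ A} → Language α := fun y => {z | f (y.1 ++ z)}
  let F2 : {l : List α // l.length ≤ A} × Fin M0 × S → Language α := fun p =>
    {z | ∃ r0 : List α, r0.length % M0 = p.2.1 ∧ (r0.map φ).prod = p.2.2 ∧ f (p.1.1 ++ (r0 ++ z))}
  refine Crest.Agent.R320.Reg_852.isRegular_of_forall_mem (T := Set.range F1 ∪ Set.range F2)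
    ((Set.finite_range F1).union (Set.finite_range F2)) ?_
  intro y
  by_cases hy : y.length ≤ A
  · left
    exact ⟨⟨y, hy⟩, rfl⟩
  · right
    have hx : (y.take A).length = A := by rw [List.length_take]; omega
    refine ⟨(⟨y.take A, hx.le⟩, ⟨(y.drop A).length % M0, Nat.mod_lt _ hM⟩,
      ((y.drop A).map φ).prod), ?_⟩
    ext z
    show (∃ r0 : List α, r0.length % M0 = (y.drop A).length % M0 ∧
      (r0.map φ).prod = ((y.drop A).map φ).prod ∧ f (y.take A ++ (r0 ++ z))) ↔ f (y ++ z)
    have e : y ++ z = y.take A ++ (y.drop A ++ z) := by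
      rw [← List.append_assoc, List.take_append_drop]
    constructor
    · rintro ⟨r0, h1, h2, h3⟩
      rw [e]
      refine (hf _ _ _ hx ?_ ?_).1 h3
      · rw [List.length_append, List.length_append, Nat.add_mod, h1, ← Nat.add_mod]
      · rw [List.map_append, List.map_append, List.prod_append, List.prod_append, h2]
    · intro h
      rw [e] at h
      exact ⟨y.drop A, rfl, rfl, h⟩


theorem joinA {α : Type} [Finite α] {S V : Type} [Monoid S] [Finite S] [AddCommGroup V] [Finite V]
    (act : V → S → V)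
    (hadd : ∀ a b s, act (a + b) s = act a s + act b s)
    (hone : ∀ v, act v 1 = v) (hmul : ∀ v s t, act v (s * t) = act (act v s) t)
    (hfaith : ∀ s t, (∀ v, act v s = act v t) → s = t)
    (φ : α → S)
    (g : Geo α) (len : ∀ P, g.Wo P → g.n ≤ P.length) (B R : ℕ)
    (free : ∀ u : List α, (∀ t < u.length, ¬ g.Wo (u.take t)) →
      u ∈ (Crest.Agent.R320.BddReg_746.PN B R : Language α))
    (lam rho : List α → Option V) (nu1 : List α → V) (BadT : ℕ → Prop)
    (hlen : ∀ P v, lam P = some v → P.length ≤ g.N1)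
    (hex : ∀ P Q u b, lam P = some u → rho Q = some b →
      b = act u ((P ++ Q).map φ).prod + nu1 (P ++ Q))
    (hcompl : ∀ X, g.XX X → ¬ g.BadX BadT X → ∀ u : V, ∃ P Q, X.drop g.p0 = P ++ Q ∧
      lam P = some u ∧ (rho Q).isSome)
    (A1 M0 : ℕ) (hM0 : 0 < M0)
    (hnu1 : ∀ x r r' : List α, A1 ≤ x.length → r.length % M0 = r'.length % M0 →
      (r.map φ).prod = (r'.map φ).prod → nu1 (x ++ r) = nu1 (x ++ r'))
    (hBadT : ∀ T T', A1 ≤ T → A1 ≤ T' → T % M0 = T' % M0 → (BadT T ↔ BadT T'))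
    (K C0 : ℕ) (c : ℕ → ℕ) (lam2 rho2 : ℕ → List α → Option V) (nu2 : List α → V)
    (hc : ∀ k, k < K → c k ≤ g.p0)
    (hex2 : ∀ k, k < K → ∀ (P Q : List α) (v u : V), P.length = c k → Q.length = g.p0 - c k →
      lam2 k P = some v → rho2 k Q = some u → u = act v ((P ++ Q).map φ).prod + nu2 (P ++ Q))
    (hgap : ∀ P Q : List α, g.Wo P → g.Wo (P ++ Q) → Q ≠ [] → 2 * g.p0 + 2 * g.N1 < Q.length)
    (hsp : ∀ k k' l l', k < K → k' < K → l < K → l' < K → k' ≠ k → l' ≠ l →
      c k + c l' < c l + c k' + 2 * g.N1 → c l + c k' < c k + c l' + 2 * g.N1 → k = l)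
    (hthin : ∀ τ, g.z ≤ τ + g.p0 → ∀ J : Finset ℕ, (∀ k ∈ J, k < K ∧
      ∃ k', k' < K ∧ k' ≠ k ∧ BadT (τ + c k' - c k - g.p0)) → J.card ≤ C0)
    (hI : ∀ X : List α, g.p0 ≤ X.length → ∀ v : V, ∃ I : Finset ℕ, 2 * C0 + 2 ≤ I.card ∧
      ∀ k ∈ I, k < K ∧ lam2 k (X.take (c k)) = some v ∧
        (rho2 k ((X.take g.p0).drop (c k))).isSome)
    (s : S) : HL 3 ({w | (w.map φ).prod = s} : Language α) := by
  classical
  have hz := g.hz
  have hN := g.hN
  have hq := g.hq
  let pre : List α → V → V := fun X1 v => act v (X1.map φ).prod + nu2 X1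
  let post : V → List α → V := fun u Y => act u (Y.map φ).prod + nu1 Y
  let nu : List α → V := fun X =>
    act (nu2 (X.take g.p0)) ((X.drop g.p0).map φ).prod + nu1 (X.drop g.p0)
  have hTnu : ∀ v X, g.T pre post v X = act v (X.map φ).prod + nu X := by
    intro v X
    show act (act v ((X.take g.p0).map φ).prod + nu2 (X.take g.p0)) ((X.drop g.p0).map φ).prod +
      nu1 (X.drop g.p0) = _
    have e : (X.map φ).prod = ((X.take g.p0).map φ).prod * ((X.drop g.p0).map φ).prod := by
      rw [← List.prod_append, ← List.map_append, List.take_append_drop]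
    rw [hadd, ← hmul, ← e, add_assoc]
  let C : Set (List α) := {X | g.XX X}
  let Bad : Set (List α) := {X | g.XX X ∧ g.BadX BadT X}
  have hPC : Crest.Agent.R320.Blk467.PCode C := by
    refine ⟨fun h => ?_, fun X hX Y hY hXY => ?_⟩
    · have h1 : g.z ≤ ([] : List α).length := h.1
      simp only [List.length_nil] at h1
      omega
    · obtain ⟨r, rfl⟩ := hXY
      exact g.prefix_code (R := r) (R' := []) hX hY (by simp)
  -- finite state
  have fsnu : ∀ x r r' : List α, x.length = g.z + g.N1 + A1 → r.length % M0 = r'.length % M0 →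
      (r.map φ).prod = (r'.map φ).prod → nu (x ++ r) = nu (x ++ r') := by
    intro x r r' hx h1 h2
    have hp : g.p0 ≤ x.length := by omega
    show act (nu2 ((x ++ r).take g.p0)) (((x ++ r).drop g.p0).map φ).prod + nu1 ((x ++ r).drop g.p0) =
      act (nu2 ((x ++ r').take g.p0)) (((x ++ r').drop g.p0).map φ).prod + nu1 ((x ++ r').drop g.p0)
    rw [List.take_append_of_le_length hp, List.take_append_of_le_length hp,
      List.drop_append_of_le_length hp, List.drop_append_of_le_length hp,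
      hnu1 (x.drop g.p0) r r' (by rw [List.length_drop]; omega) h1 h2]
    simp only [List.map_append, List.prod_append, h2]
  have fsact : ∀ (a b : V) (x r r' : List α), x.length = g.z + g.N1 + A1 →
      r.length % M0 = r'.length % M0 → (r.map φ).prod = (r'.map φ).prod →
      (act a ((x ++ r).map φ).prod + nu (x ++ r) = b ↔
        act a ((x ++ r').map φ).prod + nu (x ++ r') = b) := by
    intro a b x r r' hx h1 h2
    rw [fsnu x r r' hx h1 h2, List.map_append, List.map_append, List.prod_append,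
      List.prod_append, h2]
  have fsE : ∀ x r : List α, x.length = g.z + g.N1 + A1 → (g.E (x ++ r) ↔ g.E x) := by
    intro x r hx
    constructor
    · rintro ⟨t, h1, h2, h3, h4⟩
      refine ⟨t, by omega, ?_, h3, h4⟩
      rwa [List.take_append_of_le_length (by omega)] at h2
    · rintro ⟨t, h1, h2, h3, h4⟩
      refine ⟨t, by rw [List.length_append]; omega, ?_, h3, h4⟩
      rwa [List.take_append_of_le_length h1]
  have fsB : ∀ x r r' : List α, x.length = g.z + g.N1 + A1 → r.length % M0 = r'.length % M0 →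
      (g.BadX BadT (x ++ r) ↔ g.BadX BadT (x ++ r')) := by
    intro x r r' hx h1
    unfold Geo.BadX
    rw [fsE x r hx, fsE x r' hx, hBadT ((x ++ r).length - g.p0) ((x ++ r').length - g.p0)]
    · rw [List.length_append]; omega
    · rw [List.length_append]; omega
    · rw [List.length_append, List.length_append]
      have e1 : x.length + r.length - g.p0 = (x.length - g.p0) + r.length := by omega
      have e2 : x.length + r'.length - g.p0 = (x.length - g.p0) + r'.length := by omega
      rw [e1, e2, Nat.add_mod, h1, ← Nat.add_mod]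
  refine Crest.Agent.R320.Top5_120.top5 act hadd hone hmul hfaith φ nu C Bad hPC
    (fun X hX => hX.1) (fun v => {P | g.LP1 pre lam v P}) (fun v => {P | Geo.LP2 K c lam2 v P})
    ?_ ?_ ?_ ?_ ?_ ?_ ?_ s
  · intro v
    refine (List.finite_length_le α (g.p0 + g.N1)).subset fun P hP => ?_
    have h1 := hlen _ _ hP.2
    have h2 := hP.1
    rw [List.length_drop] at h1
    show P.length ≤ g.p0 + g.N1
    omega
  · intro v
    refine (List.finite_length_le α g.p0).subset fun P hP => ?_
    obtain ⟨k, hk, h1, _⟩ := hP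
    show P.length ≤ g.p0
    rw [h1]; exact hc k hk
  · intro x y
    refine (Crest.Agent.R320.P4_933.hl_XX (z := g.z) g.loc len free
      (reg_fs φ (g.z + g.N1 + A1) M0 hM0 (fun u => act x (u.map φ).prod + nu u = y)
        (fun a r r' h1 h2 h3 => fsact x y a r r' h1 h2 h3))).congr fun w => ?_
    exact ⟨fun h => ⟨⟨h.1.2.1, h.1.1, fun t h1 h2 => h.1.2.2 t h2 h1⟩, h.2⟩,
      fun h => ⟨⟨h.1.2.1, h.1.1, fun t h1 h2 => h.1.2.2 t h2 h1⟩, h.2⟩⟩
  · intro x y
    refine (Crest.Agent.R320.P4_933.hl_XX (z := g.z) g.loc len free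
      (reg_fs φ (g.z + g.N1 + A1) M0 hM0
        (fun u => g.BadX BadT u ∧ act x (u.map φ).prod + nu u = y)
        (fun a r r' h1 h2 h3 => by
          rw [fsB a r r' h1 h2, fsact x y a r r' h1 h2 h3]))).congr fun w => ?_
    exact ⟨fun h => ⟨⟨h.1.1.2.1, h.1.1.1, fun t h1 h2 => h.1.1.2.2 t h2 h1⟩, h.1.2, h.2⟩,
      fun h => ⟨⟨⟨h.1.2.1, h.1.1, fun t h1 h2 => h.1.2.2 t h2 h1⟩, h.2.1⟩, h.2.2⟩⟩
  · intro s'
    refine (Crest.Agent.R320.P4_933.hl_NB (z := g.z) g.loc len free
      (reg_fs φ 0 1 one_pos (fun u => (u.map φ).prod = s')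
        (fun a r r' h1 h2 h3 => by
          rw [List.map_append, List.map_append, List.prod_append, List.prod_append, h3]))).congr
        fun w => ?_
    have key : Crest.Agent.R320.P4_933.NB g.Wo g.z w ↔ ∀ X ∈ C, ¬ X <+: w := by
      rw [Crest.Agent.R320.P4_933.NB_iff]
      constructor
      · intro h X hX hp
        exact h X hp ⟨hX.2.1, hX.1, fun t h1 h2 => hX.2.2 t h2 h1⟩
      · intro h X hp hX
        exact h X ⟨hX.2.1, hX.1, fun t h1 h2 => hX.2.2 t h2 h1⟩ hp
    exact ⟨fun h => ⟨key.2 h.1, h.2⟩, fun h => ⟨key.1 h.1, h.2⟩⟩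
  · intro X hX hXb v
    have hb : ¬ g.BadX BadT X := fun h => hXb ⟨hX, h⟩
    have hE : ¬ g.E X := fun h => hb (Or.inl h)
    obtain ⟨P, Q, b, e, hP, hQ⟩ := g.complete1 pre hlen hX hE (hcompl X hX hb) v
    refine ⟨P, Q, e.symm, hP, fun x P' hP' => ?_⟩
    obtain ⟨h1, h2⟩ := g.sound1 pre post hlen (fun P Q u b h3 h4 => hex P Q u b h3 h4) hP' hQ
    obtain ⟨_, h4⟩ := g.sound1 pre post hlen (fun P Q u b h3 h4 => hex P Q u b h3 h4) hP hQ
    refine ⟨h1, ?_⟩
    rw [← hTnu, ← hTnu, h2, e, h4]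
  · rintro X ⟨hX, hXb⟩ Y ⟨hY, hYb⟩ v
    obtain ⟨P, Q, b, e, hP, hQ⟩ := g.complete2 pre post (C0 := C0) hc hgap hsp hthin hX hY v
      (hI X (by have := hX.1; omega) v)
    have hs2 : ∀ {x b' : V} {X' P' R' : List α}, g.XX X' → g.BadX BadT X' → Geo.LP2 K c lam2 x P' →
        P' ++ Q = X' ++ R' → ∃ X2, g.XX X2 ∧ P' ++ Q = X' ++ X2 ∧
          g.T pre post (g.T pre post x X') X2 = b := by
      intro x b' X' P' R' h1 h2 h3 h4
      exact g.sound2 pre post (R := []) (R' := R') hc hex2 h1 h2 h3 hQ (by simpa using h4)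
    refine ⟨P, Q, e, hP, fun x P' hP' => ?_⟩
    obtain ⟨Y', hY', e', hb'⟩ := hs2 (b' := b) hX hXb hP e
    have hYY : Y' = Y := List.append_cancel_left (e'.symm.trans e)
    subst hYY
    -- the block of the candidate
    have hcand : ∃ l, g.CEnd Q P'.length l ∧ P'.length ≤ g.p0 := by
      obtain ⟨k0, hk0, h1, _⟩ := hP'
      obtain ⟨k, hk, l, h2, h3, _⟩ := hQ
      by_cases hkk : k0 = k
      · subst hkk
        exact ⟨l, by rw [h1]; exact h2, by rw [h1]; exact hc _ hk0⟩
      · obtain ⟨l', h4, _⟩ := h3 k0 hk0 hkk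
        exact ⟨l', by rw [h1]; exact h4, by rw [h1]; exact hc _ hk0⟩
    obtain ⟨l, h1, h2⟩ := hcand
    have hX' := g.xx_of_cend h2 h1
    have e3 : P' ++ Q = (P' ++ Q.take l) ++ Q.drop l := by
      rw [List.append_assoc, List.take_append_drop]
    by_cases hbad : g.BadX BadT (P' ++ Q.take l)
    · left
      obtain ⟨Y2, h5, h6, h7⟩ := hs2 (b' := b) hX' hbad hP' e3
      refine ⟨_, ⟨hX', hbad⟩, Y2, h5, h6.symm, ?_⟩
      rw [← hTnu, ← hTnu, ← hTnu, ← hTnu, h7, hb']
    · right
      exact ⟨_, hX', fun h => hbad h.2, Q.drop l, e3.symm⟩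

end Crest.Agent.R320.Fin_542
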