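import Crest.Agent.R320.Top5_120
import Crest.Agent.R320.Sc2n_937
import Crest.Agent.R320.P4_933
import Crest.Agent.R320.Bridge_975

/-!
Row 320, final join, word part (helper590): natural chain, left-looking walls, semantic top.
-/

set_option autoImplicit false
set_option linter.unusedSectionVars false

namespace Crest.Agent.R320.FinA_590

open Crest.RegLang Crest.Agent.R320.Hk_851 Crest.Agent.R320.Sc2n_937
open Crest.Agent.R320.BddReg_746

variable {A S V : Type} [Monoid S] [AddCommGroup V]

/-- a set of words as a language -/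
def LL (p : List A → Prop) : Language A := {w | p w}

theorem reg_congr {L M : Language A} (h : L.IsRegular) (e : ∀ w, w ∈ M ↔ w ∈ L) :
    M.IsRegular := by
  have : M = L := Set.ext e
  rw [this]; exact h

theorem reg_exists {ι : Type} [Finite ι] {L : ι → Language A} (h : ∀ i, (L i).IsRegular) :
    Language.IsRegular ({w | ∃ i, w ∈ L i} : Language A) := by
  have hfin := Set.Finite.pi' (fun i => (h i).finite_range_leftQuotient)
  apply Language.IsRegular.of_finite_range_leftQuotient
  refine (hfin.image (fun F : ι → Language A => ({w | ∃ i, w ∈ F i} : Language A))).subset ?_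
  rintro _ ⟨x, rfl⟩
  refine ⟨fun i => (L i).leftQuotient x, fun i => ⟨x, rfl⟩, ?_⟩
  ext w
  rfl

theorem reg_fin [Finite A] {s : Set (List A)} (hs : s.Finite) :
    Language.IsRegular (s : Language A) :=
  Crest.Agent.R320.Reg_852.HL.isRegular (HL.finite (k := 0) hs)

theorem reg_ph [Finite A] [Finite S] (f : A → S) (p : S → Prop) :
    Language.IsRegular ({w | p (w.map f).prod} : Language A) :=
  Crest.Agent.R320.Bridge_975.reg_of_local f 0 1 one_pos _ (by
    intro q q2 _ _ _ _ h
    rw [List.drop_zero, List.drop_zero] at h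
    rw [h])

/-- semantic noise -/
noncomputable def nuS (lam rho : List A → Option V) (nu1 : List A → V) (Y : List A) : V :=
  open Classical in
  if ∃ v b P Q, P ++ Q = Y ∧ lam P = some v ∧ rho Q = some b then nu1 Y else 0

theorem nuS_eq {lam rho : List A → Option V} {nu1 : List A → V} {P Q : List A} {v b : V}
    (h1 : lam P = some v) (h2 : rho Q = some b) : nuS lam rho nu1 (P ++ Q) = nu1 (P ++ Q) := by
  unfold nuS
  rw [if_pos ⟨v, b, P, Q, rfl, h1, h2⟩]

theorem reg_nuS [Finite A] [Finite S] [Finite V] (f : A → S) (act : V → S → V)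
    {lam rho : List A → Option V} {nu1 : List A → V} {N1 : ℕ}
    (hlen : ∀ P v, lam P = some v → P.length ≤ N1)
    (hsnd : ∀ P Q v b, lam P = some v → rho Q = some b →
      b = act v ((P ++ Q).map f).prod + nu1 (P ++ Q))
    (hrho : ∀ b, Language.IsRegular ({Q | rho Q = some b} : Language A)) (t : V) :
    Language.IsRegular ({Y | nuS lam rho nu1 Y = t} : Language A) := by
  have hP : ∀ v, Language.IsRegular ({P | lam P = some v} : Language A) := fun v =>
    reg_fin ((List.finite_length_le A N1).subset fun P hP => hlen P v hP)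
  have hLeg : ∀ v b, Language.IsRegular (LL (fun P => lam P = some v) *
      LL (fun Q => rho Q = some b)) := fun v b =>
    Crest.Agent.R320.Reg_852.IsRegular.mul (hP v) (hrho b)
  have h1 : Language.IsRegular ({Y | ∃ i : V × V, Y ∈ (LL (fun P => lam P = some i.1) *
      LL (fun Q => rho Q = some i.2)) ⊓ LL (fun w => i.2 - act i.1 (w.map f).prod = t)} :
        Language A) :=
    reg_exists fun i => (hLeg i.1 i.2).inf (reg_ph f (fun s => i.2 - act i.1 s = t))
  have h2 : Language.IsRegular ({Y | ∃ i : V × V, Y ∈ (LL (fun P => lam P = some i.1) *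
      LL (fun Q => rho Q = some i.2))} : Language A) :=
    reg_exists fun i => hLeg i.1 i.2
  by_cases ht : t = 0
  · refine reg_congr (h1.add h2.compl) fun Y => ?_
    constructor
    · intro hY
      by_cases hl : ∃ v b P Q, P ++ Q = Y ∧ lam P = some v ∧ rho Q = some b
      · obtain ⟨v, b, P, Q, rfl, h3, h4⟩ := hl
        left
        refine ⟨(v, b), Language.mem_mul.2 ⟨P, h3, Q, h4, rfl⟩, ?_⟩
        show b - act v ((P ++ Q).map f).prod = t
        have h5 : nuS lam rho nu1 (P ++ Q) = t := hY
        rw [nuS_eq h3 h4] at h5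
        rw [hsnd P Q v b h3 h4, h5]; abel
      · right
        rintro ⟨⟨v, b⟩, h3⟩
        obtain ⟨P, h4, Q, h5, rfl⟩ := Language.mem_mul.1 h3
        exact hl ⟨v, b, P, Q, rfl, h4, h5⟩
    · rintro (⟨⟨v, b⟩, h3, h6⟩ | h3)
      · obtain ⟨P, h4, Q, h5, rfl⟩ := Language.mem_mul.1 h3
        show nuS lam rho nu1 (P ++ Q) = t
        rw [nuS_eq h4 h5]
        have h6' : b - act v ((P ++ Q).map f).prod = t := h6
        rw [hsnd P Q v b h4 h5] at h6'
        rw [← h6']; abel
      · show nuS lam rho nu1 Y = t
        unfold nuS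
        rw [if_neg, ht]
        rintro ⟨v, b, P, Q, rfl, h4, h5⟩
        exact h3 ⟨(v, b), Language.mem_mul.2 ⟨P, h4, Q, h5, rfl⟩⟩
  · refine reg_congr h1 fun Y => ?_
    constructor
    · intro hY
      by_cases hl : ∃ v b P Q, P ++ Q = Y ∧ lam P = some v ∧ rho Q = some b
      · obtain ⟨v, b, P, Q, rfl, h3, h4⟩ := hl
        refine ⟨(v, b), Language.mem_mul.2 ⟨P, h3, Q, h4, rfl⟩, ?_⟩
        show b - act v ((P ++ Q).map f).prod = t
        have h5 : nuS lam rho nu1 (P ++ Q) = t := hY
        rw [nuS_eq h3 h4] at h5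
        rw [hsnd P Q v b h3 h4, h5]; abel
      · exfalso
        have h5 : nuS lam rho nu1 Y = t := hY
        unfold nuS at h5
        rw [if_neg hl] at h5
        exact ht h5.symm
    · rintro ⟨⟨v, b⟩, h3, h6⟩
      obtain ⟨P, h4, Q, h5, rfl⟩ := Language.mem_mul.1 h3
      show nuS lam rho nu1 (P ++ Q) = t
      rw [nuS_eq h4 h5]
      have h6' : b - act v ((P ++ Q).map f).prod = t := h6
      rw [hsnd P Q v b h4 h5] at h6'
      rw [← h6']; abel

/-- the noise of the zone map -/
noncomputable def nuX (f : A → S) (act : V → S → V) (p0 : ℕ) (nu2 nuY : List A → V)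
    (X : List A) : V :=
  act (nu2 (X.take p0)) ((X.drop p0).map f).prod + nuY (X.drop p0)

theorem reg_zone [Finite A] [Finite S] [Finite V] (f : A → S) (act : V → S → V) (p0 : ℕ)
    (nu2 nuY : List A → V) (hY : ∀ t, Language.IsRegular ({Y | nuY Y = t} : Language A))
    (x y : V) :
    Language.IsRegular ({X | p0 ≤ X.length ∧ act x (X.map f).prod + nuX f act p0 nu2 nuY X = y} :
      Language A) := by
  haveI : Finite {l : List A // l.length = p0} := (List.finite_length_eq A p0).to_subtype
  have h1 : Language.IsRegular ({X | ∃ i : {l : List A // l.length = p0} × V,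
      X ∈ (LL (fun w => w = i.1.1) * (LL (fun Y => nuY Y = i.2) ⊓
        LL (fun Y => act x ((i.1.1.map f).prod * (Y.map f).prod) +
          (act (nu2 i.1.1) (Y.map f).prod + i.2) = y)))} : Language A) := by
    refine reg_exists fun i => ?_
    refine Crest.Agent.R320.Reg_852.IsRegular.mul (reg_fin (Set.finite_singleton i.1.1))
      ((hY i.2).inf (reg_ph f (fun s => act x ((i.1.1.map f).prod * s) +
        (act (nu2 i.1.1) s + i.2) = y)))
  refine reg_congr h1 fun X => ?_
  constructor
  · rintro ⟨h2, h3⟩
    refine ⟨(⟨X.take p0, by rw [List.length_take]; omega⟩, nuY (X.drop p0)),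
      Language.mem_mul.2 ⟨X.take p0, rfl, X.drop p0, ⟨rfl, ?_⟩, List.take_append_drop _ _⟩⟩
    show act x (((X.take p0).map f).prod * ((X.drop p0).map f).prod) + _ = y
    rw [← List.prod_append, ← List.map_append, List.take_append_drop]
    exact h3
  · rintro ⟨⟨⟨u, hu⟩, t⟩, h2⟩
    obtain ⟨u', h3, Y, ⟨h4, h5⟩, rfl⟩ := Language.mem_mul.1 h2
    have h3' : u' = u := h3
    subst h3'
    have h4' : nuY Y = t := h4
    have h5' : act x ((u'.map f).prod * (Y.map f).prod) + (act (nu2 u') (Y.map f).prod + t) = y :=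
      h5
    refine ⟨by rw [List.length_append]; omega, ?_⟩
    unfold nuX
    rw [List.take_left' hu, List.drop_left' hu, h4', List.map_append, List.prod_append]
    exact h5'

end Crest.Agent.R320.FinA_590
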