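import Crest.Agent.R320.Grid_899
import Crest.Agent.R320.Thin_963

/-!
# Row 320: ruler for the grid gadget, finite-state noise (helper635)
-/

set_option autoImplicit false

namespace Crest.Agent.R320.Fin_635

open Crest.Agent.R320.Grid_899 (G Am)

/-- bad lengths of the grid gadget -/
def BadN {k : ℕ} (q : Fin k → ℕ) (κ m : ℕ) (T : ℕ) : Prop :=
  (∃ j, q j ∣ T) ∨ ∃ j, 1 ≤ j ∧ j ≤ m ∧
    ¬ ((∏ j, q j) * G κ (j - 1) ≤ (T - Am (∏ j, q j) κ j) % G κ j ∧
      (T - Am (∏ j, q j) κ j) % G κ j + (∏ j, q j) * G κ (j - 1) ≤ G κ j)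

theorem primes (k B : ℕ) : ∃ q : Fin k → ℕ, (∀ j, (q j).Prime ∧ B + 2 ≤ q j) ∧
    Function.Injective q := by
  refine ⟨fun j => Nat.nth Nat.Prime (B + j), fun j => ⟨Nat.prime_nth_prime _, ?_⟩, ?_⟩
  · have h1 := Nat.add_two_le_nth_prime (B + j)
    show B + 2 ≤ Nat.nth Nat.Prime (B + j)
    omega
  · intro i j h
    have := Nat.nth_injective Nat.infinite_setOfPred_prime h
    exact Fin.ext (by omega)

theorem Am_mono (Ms κ : ℕ) {i j : ℕ} (h : i ≤ j) : Am Ms κ i ≤ Am Ms κ j := by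
  induction j, h using Nat.le_induction with
  | base => exact le_rfl
  | succ j _ ih =>
    refine ih.trans ?_
    show Am Ms κ j ≤ Am Ms κ j + G κ j + Ms * G κ j
    omega

theorem bad_cast {k : ℕ} (q : Fin k → ℕ) (κ m T : ℕ) (hT : Am (∏ j, q j) κ m ≤ T)
    (h : BadN q κ m T) :
    Crest.Agent.R320.Thin963.BadT (Finset.univ.image q) m (fun i => (G κ i : ℤ))
      (fun i => (((∏ j, q j) * G κ i : ℕ) : ℤ)) (fun i => (Am (∏ j, q j) κ i : ℤ)) (T : ℤ) := by
  rcases h with ⟨j, hj⟩ | ⟨j, h1, h2, h3⟩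
  · exact Or.inl ⟨q j, Finset.mem_image_of_mem _ (Finset.mem_univ j), by exact_mod_cast hj⟩
  · right
    obtain ⟨i, rfl⟩ : ∃ i, j = i + 1 := ⟨j - 1, by omega⟩
    refine ⟨i, by omega, ?_⟩
    rw [Nat.add_sub_cancel] at h3
    set Ms := ∏ j, q j with hMs
    have hA : Am Ms κ (i + 1) ≤ T := (Am_mono Ms κ h2).trans hT
    have hG : 0 < G κ (i + 1) := Crest.Agent.R320.Grid_899.G_pos _
    set r := (T - Am Ms κ (i + 1)) % G κ (i + 1) with hr
    have hrlt : r < G κ (i + 1) := Nat.mod_lt _ hG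
    have hdiv : ((G κ (i + 1) : ℕ) : ℤ) ∣ (T : ℤ) - Am Ms κ (i + 1) - r := by
      have h4 := Nat.div_add_mod (T - Am Ms κ (i + 1)) (G κ (i + 1))
      refine ⟨((T - Am Ms κ (i + 1)) / G κ (i + 1) : ℕ), ?_⟩
      have h5 : (T : ℤ) - Am Ms κ (i + 1) = ((T - Am Ms κ (i + 1) : ℕ) : ℤ) := by
        rw [Nat.cast_sub hA]
      have h6 : ((T - Am Ms κ (i + 1) : ℕ) : ℤ) = (G κ (i + 1) : ℤ) *
          ((T - Am Ms κ (i + 1)) / G κ (i + 1) : ℕ) + (r : ℤ) := by
        rw [← hr] at h4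
        exact_mod_cast h4.symm
      rw [h5]
      linarith
    by_cases hc : Ms * G κ i ≤ r
    · have h6 : G κ (i + 1) < r + Ms * G κ i := by
        by_contra h7
        exact h3 ⟨hc, by omega⟩
      refine ⟨(G κ (i + 1) : ℤ) - r, ?_, ?_⟩
      · rw [abs_of_nonneg (by omega)]
        have : (G κ (i + 1) : ℤ) < r + ((Ms * G κ i : ℕ) : ℤ) := by exact_mod_cast h6
        show (G κ (i + 1) : ℤ) - r ≤ ((Ms * G κ i : ℕ) : ℤ)
        linarith
      · have := dvd_add hdiv (dvd_refl ((G κ (i + 1) : ℕ) : ℤ))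
        have e : (T : ℤ) - Am Ms κ (i + 1) - r + ((G κ (i + 1) : ℕ) : ℤ) =
          (T : ℤ) - Am Ms κ (i + 1) + ((G κ (i + 1) : ℤ) - r) := by ring
        rw [e] at this
        exact this
    · refine ⟨-(r : ℤ), ?_, ?_⟩
      · rw [abs_neg, abs_of_nonneg (by positivity)]
        have : r ≤ Ms * G κ i := by omega
        show (r : ℤ) ≤ ((Ms * G κ i : ℕ) : ℤ)
        exact_mod_cast this
      · have e : (T : ℤ) - Am Ms κ (i + 1) + -(r : ℤ) = (T : ℤ) - Am Ms κ (i + 1) - r := by ring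
        show ((G κ (i + 1) : ℕ) : ℤ) ∣ (T : ℤ) - Am Ms κ (i + 1) + -(r : ℤ)
        rw [e]
        exact hdiv

theorem growth (K Ms m κ : ℕ) (hκ : 2 ^ (K + 4) * (m * Ms) ≤ 2 ^ κ) (i : ℕ) (hi : i < m) :
    2 ^ (K + 4) * ∑ j ∈ Finset.range (i + 1), Ms * G κ j ≤ G κ (i + 1) := by
  have h1 : ∑ j ∈ Finset.range (i + 1), Ms * G κ j ≤ (i + 1) * (Ms * G κ i) := by
    refine (Finset.sum_le_card_nsmul _ _ (Ms * G κ i) ?_).trans (by simp)
    intro j hj
    rw [Finset.mem_range] at hj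
    refine Nat.mul_le_mul_left _ ?_
    exact Nat.le_of_dvd (Crest.Agent.R320.Grid_899.G_pos _)
      (Crest.Agent.R320.Grid_899.G_dvd (by omega))
  have h2 : G κ (i + 1) = 2 ^ κ * G κ i := by
    unfold G
    rw [← pow_add]
    congr 1
    ring
  rw [h2]
  calc 2 ^ (K + 4) * ∑ j ∈ Finset.range (i + 1), Ms * G κ j
      ≤ 2 ^ (K + 4) * ((i + 1) * (Ms * G κ i)) := Nat.mul_le_mul_left _ h1
    _ ≤ 2 ^ (K + 4) * (m * (Ms * G κ i)) :=
        Nat.mul_le_mul_left _ (Nat.mul_le_mul_right _ (by omega))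
    _ = 2 ^ (K + 4) * (m * Ms) * G κ i := by ring
    _ ≤ 2 ^ κ * G κ i := Nat.mul_le_mul_right _ hκ

/-- **the ruler** -/
theorem ruler (K k m : ℕ) : ∃ (q : Fin k → ℕ) (κ : ℕ), (∀ j, Odd (q j)) ∧
    Pairwise (fun i j => Nat.Coprime (q i) (q j)) ∧ (∀ j, 0 < q j) ∧
    ∀ N0 : ℕ, Am (∏ j, q j) κ m ≤ N0 → ∃ X : ℕ, N0 ≤ X ∧ 0 < X ∧
      ∀ T : ℕ, (∀ i, i < K → X * 2 ^ i ≤ T) → ∀ I : Finset ℕ,
        (∀ i ∈ I, i < K ∧ ∃ i', i' < K ∧ i' ≠ i ∧ BadN q κ m (T + X * 2 ^ i' - X * 2 ^ i)) →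
        I.card ≤ k + m := by
  classical
  obtain ⟨q, hq, hinj⟩ := primes k (2 ^ (K + 1))
  have hne2 : ∀ j, q j ≠ 2 := by
    intro j h
    have h1 := (hq j).2
    have h2 : 0 < 2 ^ (K + 1) := by positivity
    omega
  refine ⟨q, 2 ^ (K + 4) * (m * ∏ j, q j), ?_, ?_, fun j => (hq j).1.pos, ?_⟩
  · intro j
    exact ((hq j).1.eq_two_or_odd').resolve_left (hne2 j)
  · intro i j hij
    exact (Nat.coprime_primes (hq i).1 (hq j).1).2 (fun h => hij (hinj h))
  intro N0 hN0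
  set Ms := ∏ j, q j with hMs
  set κ := 2 ^ (K + 4) * (m * Ms) with hκ
  have hMpos : 0 < Ms := Finset.prod_pos fun j _ => (hq j).1.pos
  have hmem : ∀ p ∈ Finset.univ.image q, ∃ j, q j = p := by
    intro p hp
    obtain ⟨j, _, h⟩ := Finset.mem_image.1 hp
    exact ⟨j, h⟩
  obtain ⟨X, hX1, hX2, hX3⟩ := Crest.Agent.R320.Thin963.thin K m (Finset.univ.image q)
    (fun i => (G κ i : ℤ)) (fun i => ((Ms * G κ i : ℕ) : ℤ)) (fun i => (Am Ms κ i : ℤ))
    (by
      intro p hp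
      obtain ⟨j, rfl⟩ := hmem p hp
      exact ⟨(hq j).1, le_trans (by omega) (hq j).2⟩)
    (by
      intro p hp
      obtain ⟨j, rfl⟩ := hmem p hp
      refine Nat.isCoprime_iff_coprime.2 ?_
      unfold G
      refine Nat.Coprime.pow_right _ ?_
      exact (Nat.coprime_primes (hq j).1 Nat.prime_two).2 (hne2 j))
    (by
      have := Crest.Agent.R320.Grid_899.G_pos (κ := κ) m
      exact_mod_cast this)
    (by
      intro i j h
      exact Int.natCast_dvd_natCast.2 (Crest.Agent.R320.Grid_899.G_dvd h))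
    (by
      intro i
      have := Nat.mul_pos hMpos (Crest.Agent.R320.Grid_899.G_pos (κ := κ) i)
      exact_mod_cast this)
    (by
      intro i
      exact Int.natCast_dvd_natCast.2 (Nat.dvd_mul_left _ _))
    (by
      intro i hi
      have := growth K Ms m κ (Nat.lt_two_pow_self).le i hi
      exact_mod_cast this)
    (N0 : ℤ)
  obtain ⟨Y, rfl⟩ : ∃ Y : ℕ, X = (Y : ℤ) := ⟨X.toNat, by omega⟩
  refine ⟨Y, by exact_mod_cast hX1, by exact_mod_cast hX2, ?_⟩
  intro T hT I hI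
  have h1 := hX3 (T : ℤ)
  have hcard : (Finset.univ.image q).card ≤ k := by
    refine Finset.card_image_le.trans ?_
    simp
  refine le_trans ?_ (h1.trans (Nat.add_le_add_right hcard m))
  have hex : ∀ i : ℕ, ∃ i', i ∈ I → (i' < K ∧ i' ≠ i ∧ BadN q κ m (T + Y * 2 ^ i' - Y * 2 ^ i)) := by
    intro i
    by_cases h : i ∈ I
    · obtain ⟨_, i', h'⟩ := hI i h
      exact ⟨i', fun _ => h'⟩
    · exact ⟨0, fun h' => (h h').elim⟩
  choose g hg using hex
  refine Finset.card_le_card_of_injOn (fun i => (g i, i)) ?_ ?_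
  · intro i hi
    have hi' : i ∈ I := hi
    obtain ⟨a1, a2, a3⟩ := hg i hi'
    have hiK := (hI i hi').1
    simp only [Finset.coe_filter, Finset.mem_product, Finset.mem_range, Set.mem_setOf_eq]
    refine ⟨⟨a1, hiK⟩, a2, ?_⟩
    have hle := hT i hiK
    have hYg : Y ≤ Y * 2 ^ g i := Nat.le_mul_of_pos_right _ (by positivity)
    have hN : N0 ≤ Y := by exact_mod_cast hX1
    have hle2 : Am Ms κ m ≤ T + Y * 2 ^ g i - Y * 2 ^ i := by
      generalize Y * 2 ^ g i = u at hYg ⊢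
      generalize Y * 2 ^ i = v at hle ⊢
      omega
    have h2 := bad_cast q κ m _ hle2 a3
    have e : (((T + Y * 2 ^ g i - Y * 2 ^ i : ℕ)) : ℤ) =
        (T : ℤ) + (Y : ℤ) * 2 ^ g i - (Y : ℤ) * 2 ^ i := by
      rw [Nat.cast_sub (hle.trans (Nat.le_add_right _ _))]
      push_cast
      ring
    rw [e] at h2
    exact h2
  · intro i _ j _ h
    exact (Prod.mk.inj h).2

/-- two powers of two -/
theorem pow_res : ∀ i i' j j' : ℕ, 2 ^ i + 2 ^ j' = 2 ^ j + 2 ^ i' → i' ≠ i → j' ≠ j → i = j := by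
  intro i
  induction i with
  | zero =>
    intro i' j j' h hi hj
    obtain ⟨a, rfl⟩ : ∃ a, i' = a + 1 := ⟨i' - 1, by omega⟩
    rcases j with _ | b
    · rfl
    · exfalso
      rcases j' with _ | c
      · have h1 : 0 < 2 ^ a := by positivity
        have h2 : 0 < 2 ^ b := by positivity
        rw [pow_succ, pow_succ] at h
        omega
      · rw [pow_succ, pow_succ, pow_succ] at h
        omega
  | succ i ih =>
    intro i' j j' h hi hj
    rcases j with _ | b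
    · exfalso
      obtain ⟨c, rfl⟩ : ∃ c, j' = c + 1 := ⟨j' - 1, by omega⟩
      rcases i' with _ | a
      · have h1 : 0 < 2 ^ i := by positivity
        have h2 : 0 < 2 ^ c := by positivity
        rw [pow_succ, pow_succ] at h
        omega
      · rw [pow_succ, pow_succ, pow_succ] at h
        omega
    · rcases i' with _ | a
      · rcases j' with _ | c
        · have h1 : 2 ^ (i + 1) = 2 ^ (b + 1) := by omega
          exact Nat.pow_right_injective le_rfl h1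
        · exfalso
          rw [pow_succ, pow_succ, pow_succ] at h
          omega
      · rcases j' with _ | c
        · exfalso
          rw [pow_succ, pow_succ, pow_succ] at h
          omega
        · have h1 : 2 ^ i + 2 ^ c = 2 ^ b + 2 ^ a := by
            rw [pow_succ, pow_succ, pow_succ, pow_succ] at h
            omega
          rw [ih a b c h1 (by omega) (by omega)]

theorem res {X N1 : ℕ} (hX : 2 * N1 ≤ X) (i i' j j' : ℕ) (hi : i' ≠ i) (hj : j' ≠ j)
    (h1 : X * 2 ^ i + X * 2 ^ j' < X * 2 ^ j + X * 2 ^ i' + 2 * N1)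
    (h2 : X * 2 ^ j + X * 2 ^ i' < X * 2 ^ i + X * 2 ^ j' + 2 * N1) : i = j := by
  refine pow_res i i' j j' ?_ hi hj
  rw [← Nat.mul_add, ← Nat.mul_add] at h1 h2
  by_contra hne
  rcases Nat.lt_or_gt_of_ne hne with h | h
  · have := Nat.mul_le_mul_left X (Nat.succ_le_of_lt h)
    rw [Nat.succ_eq_add_one, Nat.mul_add] at this
    omega
  · have := Nat.mul_le_mul_left X (Nat.succ_le_of_lt h)
    rw [Nat.succ_eq_add_one, Nat.mul_add] at this
    omega

end Crest.Agent.R320.Fin_635
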