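import Crest.Agent.R320.Top_180
import Crest.Agent.R320.FewVal_228
import Crest.Agent.R320.ExactR_237

/-! Row 320, final assembly over `Top_180.top2`: the block code, part A (helper648). -/

set_option autoImplicit false

namespace Crest.Agent.R320.Fin_648

open Crest.RegLang Crest.Agent.R320.Hk_851 Crest.Agent.R320.Half1_180
  Crest.Agent.R320.FewWalls_228

variable {α : Type}

/-- a wall window ends at `y` -/
def We (n : ℕ) (S : Set (List α)) (w : List α) (y : ℕ) : Prop :=
  n ≤ y ∧ y ≤ w.length ∧ (w.drop (y - n)).take n ∈ S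

theorem we_prefix {n : ℕ} {S : Set (List α)} {X R : List α} {y : ℕ} (hy : y ≤ X.length) :
    We n S (X ++ R) y ↔ We n S X y := by
  unfold We
  constructor
  · rintro ⟨h1, h2, h3⟩
    refine ⟨h1, hy, ?_⟩
    rw [List.drop_append_of_le_length (by omega),
      List.take_append_of_le_length (by rw [List.length_drop]; omega)] at h3
    exact h3
  · rintro ⟨h1, h2, h3⟩
    refine ⟨h1, by rw [List.length_append]; omega, ?_⟩
    rw [List.drop_append_of_le_length (by omega),
      List.take_append_of_le_length (by rw [List.length_drop]; omega)]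
    exact h3

theorem we_shift {n : ℕ} {S : Set (List α)} {P Q : List α} {y : ℕ} (hy : n ≤ y) :
    We n S (P ++ Q) (P.length + y) ↔ We n S Q y := by
  unfold We
  have e : (P ++ Q).drop (P.length + y - n) = Q.drop (y - n) := by
    rw [show P.length + y - n = P.length + (y - n) by omega, ← List.drop_drop, List.drop_left]
  rw [e, List.length_append]
  constructor
  · rintro ⟨h1, h2, h3⟩; exact ⟨hy, by omega, h3⟩
  · rintro ⟨h1, h2, h3⟩; exact ⟨by omega, by omega, h3⟩

theorem we_wl {n : ℕ} {S : Set (List α)} {w : List α} {y : ℕ} (h : We n S w y) :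
    Wl n S w (y - n) := ⟨by have := h.1; have := h.2.1; omega, h.2.2⟩

/-- the block code -/
def XX (n z : ℕ) (S : Set (List α)) : Set (List α) :=
  {w | z ≤ w.length ∧ We n S w w.length ∧ ∀ y, z ≤ y → y < w.length → ¬ We n S w y}

theorem XX_PF {n z : ℕ} {S : Set (List α)} (hz : 0 < z) : PF (XX n z S) := by
  refine ⟨fun X hX h => ?_, fun X hX Y hY h => ?_⟩
  · have := hX.1; rw [h] at this; simp at this; omega
  · obtain ⟨R, rfl⟩ := h
    by_contra hne
    have hR : R ≠ [] := fun h => hne (by rw [h, List.append_nil])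
    have hl : 0 < R.length := List.length_pos_iff.2 hR
    refine hY.2.2 X.length hX.1 (by rw [List.length_append]; omega) ?_
    exact (we_prefix le_rfl).2 hX.2.1

theorem XX_first {n z : ℕ} {S : Set (List α)} {w : List α} {y : ℕ} (hy : z ≤ y)
    (h : We n S w y) : ∃ X ∈ XX n z S, X <+: w := by
  classical
  have hex : ∃ y, z ≤ y ∧ We n S w y := ⟨y, hy, h⟩
  obtain ⟨h1, h2⟩ := Nat.find_spec hex
  set m := Nat.find hex with hm
  have hlen : (w.take m).length = m := by rw [List.length_take]; have := h2.2.1; omega
  have hw : w = w.take m ++ w.drop m := (List.take_append_drop m w).symm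
  refine ⟨w.take m, ⟨by rw [hlen]; exact h1, ?_, ?_⟩, List.take_prefix _ _⟩
  · rw [hlen]
    rw [hw] at h2
    exact (we_prefix (by rw [hlen])).1 h2
  · intro y' hy1 hy2 h3
    rw [hlen] at hy2
    refine Nat.find_min hex hy2 ⟨hy1, ?_⟩
    rw [hw]
    exact (we_prefix (by rw [hlen]; omega)).2 h3

/-- changing a short prefix -/
theorem XX_change {n z : ℕ} {S : Set (List α)} {P P' Q : List α} (hl : P'.length = P.length)
    (hz : P.length + n ≤ z) (h : P ++ Q ∈ XX n z S) : P' ++ Q ∈ XX n z S := by
  obtain ⟨h1, h2, h3⟩ := h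
  rw [List.length_append] at h1 h2
  refine ⟨by rw [List.length_append]; omega, ?_, ?_⟩
  · rw [List.length_append, we_shift (by omega)]
    exact (we_shift (by omega)).1 h2
  · intro y hy1 hy2 h4
    rw [List.length_append] at hy2
    obtain ⟨y', rfl⟩ := Nat.exists_eq_add_of_le (show P'.length ≤ y by omega)
    rw [we_shift (by omega)] at h4
    refine h3 (P.length + y') (by omega) (by rw [List.length_append]; omega) ?_
    exact (we_shift (by omega)).2 h4

theorem nw_le {n z : ℕ} {S : Set (List α)} {X : List α} (h : ∀ y, z ≤ y → y < X.length →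
    ¬ We n S X y) : nw n S X ≤ z + 1 := by
  classical
  unfold nw
  have hsub : (Finset.range (X.length + 1)).filter (fun x => Wl n S X x) ⊆
      insert (X.length - n) (Finset.range z) := by
    intro x hx
    rw [Finset.mem_filter, Finset.mem_range] at hx
    obtain ⟨_, hx1, hx2⟩ := hx
    rw [Finset.mem_insert, Finset.mem_range]
    by_contra hcon
    push Not at hcon
    refine h (x + n) (by omega) (by omega) ⟨by omega, by omega, ?_⟩
    rw [Nat.add_sub_cancel]
    exact hx2
  calc _ ≤ (insert (X.length - n) (Finset.range z)).card := Finset.card_le_card hsub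
    _ ≤ (Finset.range z).card + 1 := Finset.card_insert_le _ _
    _ = z + 1 := by rw [Finset.card_range]

theorem XX_HL [Finite α] {n z k : ℕ} {S : Set (List α)} (hS : ∀ s ∈ S, s.length = n)
    (hz : n ≤ z) : HL k (XX n z S : Language α) := by
  have hfin : S.Finite := (List.finite_length_eq α n).subset hS
  have hW : HL k ({w | z ≤ w.length ∧ ∃ v ∈ (S : Language α), v <:+ w} : Language α) :=
    (HL.length_ge z).setOf_and (HL.suffix (HL.finite hfin))
  have hP : HL k ({w | 1 ≤ w.length} : Language α) := HL.length_ge 1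
  have hend : ∀ w : List α, z ≤ w.length → (We n S w w.length ↔ ∃ v ∈ S, v <:+ w) := by
    intro w hw
    constructor
    · rintro ⟨h1, h2, h3⟩
      refine ⟨_, h3, ?_⟩
      have : (w.drop (w.length - n)).take n = w.drop (w.length - n) :=
        List.take_of_length_le (by rw [List.length_drop]; omega)
      rw [this]
      exact List.drop_suffix _ _
    · rintro ⟨v, hv, u, rfl⟩
      have hvl := hS v hv
      have hul : (u ++ v).length - n = u.length := by rw [List.length_append]; omega
      refine ⟨by omega, le_rfl, ?_⟩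
      rw [hul, List.drop_left, List.take_of_length_le (by omega)]
      exact hv
  refine (hW.sdiff (hW.mul hP)).congr fun w => ?_
  constructor
  · rintro ⟨h1, h2, h3⟩
    refine ⟨⟨h1, (hend w h1).1 h2⟩, ?_⟩
    rintro ⟨a, ⟨ha1, ha2⟩, b, hb, rfl⟩
    have hb' : 1 ≤ b.length := hb
    refine h3 a.length ha1 (by simp only [List.length_append]; omega) ?_
    exact (we_prefix le_rfl).2 ((hend a ha1).2 ha2)
  · rintro ⟨⟨h1, h2⟩, h3⟩
    refine ⟨h1, (hend w h1).2 h2, ?_⟩
    intro y hy1 hy2 hW'
    apply h3
    have hlen : (w.take y).length = y := by rw [List.length_take]; omega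
    refine ⟨w.take y, ⟨by rw [hlen]; exact hy1, (hend _ (by rw [hlen]; exact hy1)).1 ?_⟩,
      w.drop y, ?_, List.take_append_drop y w⟩
    · rw [hlen]
      rw [← List.take_append_drop y w] at hW'
      exact (we_prefix (by rw [hlen])).1 hW'
    · show 1 ≤ (w.drop y).length
      rw [List.length_drop]; omega

end Crest.Agent.R320.Fin_648
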