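import Mathlib.Computability.MyhillNerode
import Mathlib.Data.Set.Finite.List
import Mathlib.Algebra.BigOperators.Group.List.Basic
import Mathlib.Tactic

/-!
# Row 320: locality implies regularity; respacing of a ruler (helper354)
-/

set_option autoImplicit false

namespace Crest.Agent.R320.Loc_354

/-- a language which only depends on a bounded prefix, the length modulo `P` and the product of
the rest is regular -/
theorem regular_of_local {α : Type*} {S : Type*} [Finite α] [Monoid S] [Finite S] (f : α → S)
    (La P : ℕ) (hP : 0 < P) (L : Language α)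
    (h : ∀ q q2 : List α, La ≤ q.length → La ≤ q2.length → q.take La = q2.take La →
      q.length % P = q2.length % P →
      ((q.drop La).map f).prod = ((q2.drop La).map f).prod → (q ∈ L ↔ q2 ∈ L)) :
    L.IsRegular := by
  classical
  refine Language.isRegular_iff_finite_range_leftQuotient.2 ?_
  let key : List α → List α × S × ℕ := fun x =>
    (x.take La, ((x.drop La).map f).prod, x.length % P)
  let K : Set (List α × S × ℕ) :=
    {l : List α | l.length ≤ La} ×ˢ ((Set.univ : Set S) ×ˢ {n : ℕ | n < P})
  have hK : K.Finite :=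
    (List.finite_length_le α La).prod (Set.finite_univ.prod (Set.finite_lt_nat P))
  let g : List α × S × ℕ → Language α := fun k => {y | ∃ x, key x = k ∧ x ++ y ∈ L}
  refine (hK.image g).subset ?_
  rintro _ ⟨x, rfl⟩
  refine ⟨key x, ?_, ?_⟩
  · refine ⟨?_, trivial, Nat.mod_lt _ hP⟩
    show (x.take La).length ≤ La
    exact List.length_take_le _ _
  · ext y
    constructor
    · rintro ⟨x', hx', hy⟩
      show x ++ y ∈ L
      have e1 : x'.take La = x.take La := congrArg Prod.fst hx'
      have e2 : ((x'.drop La).map f).prod = ((x.drop La).map f).prod :=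
        congrArg (fun k => k.2.1) hx'
      have e3 : x'.length % P = x.length % P := congrArg (fun k => k.2.2) hx'
      by_cases hx : La ≤ x.length
      · have hx1 : La ≤ x'.length := by
          have := congrArg List.length e1
          simp only [List.length_take] at this
          omega
        refine (h (x' ++ y) (x ++ y) ?_ ?_ ?_ ?_ ?_).1 hy
        · rw [List.length_append]; omega
        · rw [List.length_append]; omega
        · rw [List.take_append_of_le_length hx1, List.take_append_of_le_length hx, e1]
        · rw [List.length_append, List.length_append, Nat.add_mod, e3, ← Nat.add_mod]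
        · rw [List.drop_append_of_le_length hx1, List.drop_append_of_le_length hx,
            List.map_append, List.map_append, List.prod_append, List.prod_append, e2]
      · have hx1 : x'.length < La := by
          have := congrArg List.length e1
          simp only [List.length_take] at this
          omega
        have : x' = x := by
          rw [List.take_of_length_le hx1.le, List.take_of_length_le (by omega)] at e1
          exact e1
        rwa [← this]
    · intro hy
      exact ⟨x, rfl, hy⟩

theorem pw : ∀ a b c d : ℕ, 3 ^ a + 3 ^ d = 3 ^ b + 3 ^ c →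
    (a = b ∧ d = c) ∨ (a = c ∧ d = b) := by
  have inj : ∀ {m n : ℕ}, 3 ^ m = 3 ^ n → m = n := fun h => Nat.pow_right_injective (le_refl 2 |>.trans (by norm_num)) h
  have pos : ∀ n : ℕ, 0 < 3 ^ n := fun n => Nat.pos_of_ne_zero (by positivity)
  intro a
  induction a with
  | zero =>
    intro b c d h
    rcases b with _ | b
    · exact Or.inl ⟨rfl, inj (by omega)⟩
    · rcases c with _ | c
      · exact Or.inr ⟨rfl, inj (by omega)⟩
      · exfalso
        have h1 := pos b
        have h2 := pos c
        rcases d with _ | d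
        · simp only [pow_succ, pow_zero] at h; omega
        · simp only [pow_succ, pow_zero] at h; omega
  | succ a ih =>
    intro b c d h
    have h0 := pos a
    rcases d with _ | d
    · rcases b with _ | b
      · rcases c with _ | c
        · simp only [pow_succ, pow_zero] at h; omega
        · exact Or.inr ⟨inj (by omega), rfl⟩
      · rcases c with _ | c
        · exact Or.inl ⟨inj (by omega), rfl⟩
        · exfalso
          have h1 := pos b
          have h2 := pos c
          simp only [pow_succ, pow_zero] at h; omega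
    · have h3 := pos d
      rcases b with _ | b
      · rcases c with _ | c
        · simp only [pow_succ, pow_zero] at h; omega
        · exfalso
          have h1 := pos c
          simp only [pow_succ, pow_zero] at h; omega
      · rcases c with _ | c
        · exfalso
          have h1 := pos b
          simp only [pow_succ, pow_zero] at h; omega
        · have h1 : 3 ^ a + 3 ^ d = 3 ^ b + 3 ^ c := by
            simp only [pow_succ] at h; omega
          rcases ih b c d h1 with ⟨e1, e2⟩ | ⟨e1, e2⟩
          · exact Or.inl ⟨by omega, by omega⟩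
          · exact Or.inr ⟨by omega, by omega⟩

/-- **Respacing**: every ruler `x` can be moved by multiples of the period `P` to a ruler `y`
with all gaps and all second differences larger than `D`. -/
theorem respace (K P D : ℕ) (hP : 0 < P) (x : ℕ → ℕ) : ∃ y t : ℕ → ℕ,
    (∀ a, y a = x a + P * t a) ∧ (∀ i j, i < j → j < K → y i + D < y j) ∧ (∀ i, D < y i) ∧
    (∀ a b c d, a < K → b < K → c < K → d < K → a ≠ b → c ≠ d → ¬ (a = c ∧ b = d) →
      (D : ℤ) < |((y a : ℤ) - y b) - ((y c : ℤ) - y d)|) := by
  let X := ∑ i ∈ Finset.range K, x i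
  have hX : ∀ i, i < K → x i ≤ X := fun i hi =>
    Finset.single_le_sum (f := x) (fun _ _ => Nat.zero_le _) (Finset.mem_range.2 hi)
  let Q := 4 * X + D + 1
  refine ⟨fun a => x a + P * (Q * 3 ^ a), fun a => Q * 3 ^ a, fun a => rfl, ?_, ?_, ?_⟩
  · intro i j hij hj
    have h1 := hX i (hij.trans hj)
    have h2 : 3 ^ i * 3 ≤ 3 ^ j := by
      rw [← pow_succ]; exact Nat.pow_le_pow_right (by norm_num) hij
    have h3 : 1 ≤ 3 ^ i := Nat.one_le_pow _ _ (by norm_num)
    have h4 : Q * 3 ^ i + Q ≤ Q * 3 ^ j := by
      have : Q * (3 ^ i + 1) ≤ Q * 3 ^ j := Nat.mul_le_mul_left _ (by omega)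
      nlinarith
    have h5 : P * (Q * 3 ^ i) + Q ≤ P * (Q * 3 ^ j) := by
      have := Nat.mul_le_mul_left P h4
      nlinarith
    show x i + P * (Q * 3 ^ i) + D < x j + P * (Q * 3 ^ j)
    have : Q = 4 * X + D + 1 := rfl
    omega
  · intro i
    have h3 : 1 ≤ 3 ^ i := Nat.one_le_pow _ _ (by norm_num)
    have h4 : Q ≤ P * (Q * 3 ^ i) := by
      calc Q = 1 * (Q * 1) := by ring
        _ ≤ P * (Q * 3 ^ i) := Nat.mul_le_mul hP (Nat.mul_le_mul_left _ h3)
    show D < x i + P * (Q * 3 ^ i)
    have : Q = 4 * X + D + 1 := rfl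
    omega
  · intro a b c d ha hb hc hd hab hcd hne
    have e : ((3 : ℤ) ^ a + 3 ^ d - (3 ^ b + 3 ^ c)) ≠ 0 := by
      intro h0
      have h1 : (3 : ℕ) ^ a + 3 ^ d = 3 ^ b + 3 ^ c := by
        have : ((3 ^ a + 3 ^ d : ℕ) : ℤ) = ((3 ^ b + 3 ^ c : ℕ) : ℤ) := by push_cast; linarith
        exact_mod_cast this
      rcases pw a b c d h1 with ⟨e1, -⟩ | ⟨e1, e2⟩
      · exact hab e1
      · exact hne ⟨e1, e2.symm⟩
    have h1 := hX a ha
    have h2 := hX b hb
    have h3 := hX c hc
    have h4 := hX d hd
    show (D : ℤ) < |(((x a + P * (Q * 3 ^ a) : ℕ) : ℤ) - ((x b + P * (Q * 3 ^ b) : ℕ) : ℤ)) -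
      (((x c + P * (Q * 3 ^ c) : ℕ) : ℤ) - ((x d + P * (Q * 3 ^ d) : ℕ) : ℤ))|
    have hQ : (Q : ℤ) = 4 * X + D + 1 := by
      show ((4 * X + D + 1 : ℕ) : ℤ) = _
      push_cast; ring
    have hP' : (1 : ℤ) ≤ P := by exact_mod_cast hP
    set E : ℤ := (3 : ℤ) ^ a + 3 ^ d - (3 ^ b + 3 ^ c) with hE
    have key : (((x a + P * (Q * 3 ^ a) : ℕ) : ℤ) - ((x b + P * (Q * 3 ^ b) : ℕ) : ℤ)) -
      (((x c + P * (Q * 3 ^ c) : ℕ) : ℤ) - ((x d + P * (Q * 3 ^ d) : ℕ) : ℤ)) =
      ((x a : ℤ) - x b - x c + x d) + P * (Q * E) := by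
      rw [hE]; push_cast; ring
    rw [key]
    have hz1 : (x a : ℤ) ≤ X := by exact_mod_cast h1
    have hz2 : (x b : ℤ) ≤ X := by exact_mod_cast h2
    have hz3 : (x c : ℤ) ≤ X := by exact_mod_cast h3
    have hz4 : (x d : ℤ) ≤ X := by exact_mod_cast h4
    have hz5 : (0 : ℤ) ≤ X := by positivity
    have hD : (0 : ℤ) ≤ D := by positivity
    rcases lt_or_gt_of_ne e with hlt | hgt
    · have h6 : (P : ℤ) * (Q * E) ≤ -Q := by
        have h7 : (Q : ℤ) * E ≤ -Q := by nlinarith
        nlinarith
      rw [abs_of_neg (by omega)]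
      omega
    · have h6 : (Q : ℤ) ≤ P * (Q * E) := by
        have h7 : (Q : ℤ) ≤ Q * E := by nlinarith
        nlinarith
      rw [abs_of_pos (by omega)]
      omega

/-- thinness is transported by respacing -/
theorem thin_iff {Bad : ℕ → Prop} {P : ℕ} (hper : ∀ T, Bad (T + P) ↔ Bad T) {x y t : ℕ → ℕ}
    (hy : ∀ a, y a = x a + P * t a) {T a b : ℕ} (h1 : x b ≤ T) (h2 : y b ≤ T) :
    Bad (T + y a - y b) ↔ Bad (T + x a - x b) := by
  have hm : ∀ n T, Bad (T + P * n) ↔ Bad T := by
    intro n
    induction n with
    | zero => intro T; rw [Nat.mul_zero, Nat.add_zero]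
    | succ n ih => intro T; rw [Nat.mul_succ, ← Nat.add_assoc, hper, ih]
  have ha := hy a
  have hb := hy b
  have e : T + y a - y b + P * t b = T + x a - x b + P * t a := by omega
  rw [← hm (t b), e, hm]

end Crest.Agent.R320.Loc_354
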