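import Crest.Agent.R320.Top5_120
import Crest.Agent.R320.Sc2n_937
import Crest.Agent.R320.P4_933
import Crest.Agent.R320.Loc_354

/-!
# Row 320: the JOIN, part A (helper670)

From the geometry of the walls (`Geo` of 937), the scheme 1 gadget `lam rho nu1` (complete off
`BadT`), the exact gadget `lam2 rho2 nu2` and the thin ruler `c` : all fibres have height `≤ 3`.
-/

set_option autoImplicit false

namespace Crest.Agent.R320.FinA_670

open Crest.RegLang Crest.Agent.R320.Hk_851 Crest.Agent.R320.Blk467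
open Crest.Agent.R320.Sc2n_937 Crest.Agent.R320.BddReg_746

universe u

theorem finA {α : Type u} [Finite α] {S V : Type*} [Monoid S] [Finite S] [AddCommGroup V] [Finite V]
    (act : V → S → V)
    (hadd : ∀ a b s, act (a + b) s = act a s + act b s)
    (hone : ∀ v, act v 1 = v) (hmul : ∀ v s t, act v (s * t) = act (act v s) t)
    (hfaith : ∀ s t, (∀ v, act v s = act v t) → s = t)
    (φ : α → S) (g : Geo α)
    (hWlen : ∀ P, g.Wo P → g.n ≤ P.length) {B R : ℕ}
    (free : ∀ u : List α, (∀ t < u.length, ¬ g.Wo (u.take t)) → u ∈ (PN B R : Language α))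
    (hgap : ∀ P Q : List α, g.Wo P → g.Wo (P ++ Q) → Q ≠ [] → 2 * g.p0 + 2 * g.N1 < Q.length)
    (lam rho : List α → Option V) (nu1 : List α → V) (BadT : ℕ → Prop)
    (Am1 M0 : ℕ) (hM0 : 0 < M0) (hz1 : g.p0 + Am1 ≤ g.z)
    (hlen : ∀ P v, lam P = some v → P.length ≤ g.N1)
    (hs1 : ∀ P Q v b, lam P = some v → rho Q = some b →
      b = act v ((P ++ Q).map φ).prod + nu1 (P ++ Q))
    (hc1 : ∀ u : List α, g.z ≤ u.length + g.p0 → ¬ BadT u.length → ∀ v, ∃ P Q, u = P ++ Q ∧
      lam P = some v ∧ (rho Q).isSome)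
    (hnu1 : ∀ Q Q' : List α, Am1 ≤ Q.length → Am1 ≤ Q'.length → Q.take Am1 = Q'.take Am1 →
      ((Q.drop Am1).map φ).prod = ((Q'.drop Am1).map φ).prod →
      Q.length ≡ Q'.length [MOD M0] → nu1 Q = nu1 Q')
    (hBper : ∀ n n' : ℕ, Am1 ≤ n → Am1 ≤ n' → n ≡ n' [MOD M0] → (BadT n ↔ BadT n'))
    (K C0 : ℕ) (c : ℕ → ℕ) (lam2 rho2 : ℕ → List α → Option V) (nu2 : List α → V)
    (hc : ∀ k, k < K → c k ≤ g.p0)
    (hs2 : ∀ k, k < K → ∀ P Q v b, P.length = c k → lam2 k P = some v → rho2 k Q = some b →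
      b = act v ((P ++ Q).map φ).prod + nu2 (P ++ Q))
    (hc2 : ∀ u : List α, u.length = g.p0 → ∀ v, ∃ I : Finset ℕ, 2 * C0 + 2 ≤ I.card ∧
      ∀ k ∈ I, k < K ∧ lam2 k (u.take (c k)) = some v ∧ (rho2 k (u.drop (c k))).isSome)
    (hsp : ∀ k k' l l', k < K → k' < K → l < K → l' < K → k' ≠ k → l' ≠ l →
      c k + c l' < c l + c k' + 2 * g.N1 → c l + c k' < c k + c l' + 2 * g.N1 → k = l)
    (hthin : ∀ τ, g.z ≤ τ + g.p0 → ∀ J : Finset ℕ, (∀ k ∈ J, k < K ∧
      ∃ k', k' < K ∧ k' ≠ k ∧ BadT (τ + c k' - c k - g.p0)) → J.card ≤ C0)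
    (s : S) : HL 3 ({w | (w.map φ).prod = s} : Language α) := by
  classical
  have hz := g.hz
  have hq := g.hq
  have hN := g.hN
  set pre : List α → V → V := fun X v => act v (X.map φ).prod + nu2 X with hpre
  set post : V → List α → V := fun v Y => act v (Y.map φ).prod + nu1 Y with hpost
  set nu : List α → V := fun X => act (nu2 (X.take g.p0)) ((X.drop g.p0).map φ).prod +
    nu1 (X.drop g.p0) with hnu
  have hT : ∀ v X, g.T pre post v X = act v (X.map φ).prod + nu X := by
    intro v X
    have e : (X.map φ).prod = ((X.take g.p0).map φ).prod * ((X.drop g.p0).map φ).prod := by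
      rw [← List.prod_append, ← List.map_append, List.take_append_drop]
    simp only [Geo.T, hpre, hpost, hnu]
    rw [hadd, e, hmul, add_assoc]
  have hXXe : ∀ X, g.XX X ↔ P4_933.XX g.Wo g.z X := by
    intro X
    constructor
    · rintro ⟨h1, h2, h3⟩; exact ⟨h2, h1, fun t ht hzt => h3 t hzt ht⟩
    · rintro ⟨h1, h2, h3⟩; exact ⟨h2, h1, fun t hzt ht => h3 t ht hzt⟩
  set C : Set (List α) := {X | g.XX X} with hCdef
  set Bad : Set (List α) := {X | g.XX X ∧ g.BadX BadT X} with hBaddef
  have hPC : PCode C := by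
    refine ⟨?_, ?_⟩
    · intro h
      have := h.1
      simp only [List.length_nil] at this
      omega
    · intro X hX Y hY hXY
      obtain ⟨R', rfl⟩ := hXY
      exact g.prefix_code (R := R') (R' := []) hX hY (by simp)
  -- regular parts
  have hregv : ∀ (f : List α → Prop), (∀ q q2 : List α, g.z + g.N1 ≤ q.length →
      g.z + g.N1 ≤ q2.length → q.take (g.z + g.N1) = q2.take (g.z + g.N1) →
      q.length % M0 = q2.length % M0 →
      ((q.drop (g.z + g.N1)).map φ).prod = ((q2.drop (g.z + g.N1)).map φ).prod →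
      (f q ↔ f q2)) → Language.IsRegular ({u | f u} : Language α) := by
    intro f hf
    exact Loc_354.regular_of_local φ (g.z + g.N1) M0 hM0 _ hf
  have hdp : ∀ (q q2 : List α) (A : ℕ), A ≤ g.z + g.N1 → g.z + g.N1 ≤ q.length →
      g.z + g.N1 ≤ q2.length → q.take (g.z + g.N1) = q2.take (g.z + g.N1) →
      ((q.drop (g.z + g.N1)).map φ).prod = ((q2.drop (g.z + g.N1)).map φ).prod →
      q.take A = q2.take A ∧ ((q.drop A).map φ).prod = ((q2.drop A).map φ).prod := by
    intro q q2 A hA h1 h2 h3 h4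
    have e1 : q.take A = q2.take A := by
      have := congrArg (fun l => l.take A) h3
      simpa [List.take_take, Nat.min_eq_left hA] using this
    refine ⟨e1, ?_⟩
    have e2 : ∀ r : List α, r.drop A = (r.take (g.z + g.N1)).drop A ++ r.drop (g.z + g.N1) := by
      intro r
      have h5 : r.drop A = (r.drop A).take (g.z + g.N1 - A) ++ (r.drop A).drop (g.z + g.N1 - A) :=
        (List.take_append_drop _ _).symm
      rw [List.drop_take]
      rw [List.drop_drop] at h5
      have h6 : A + (g.z + g.N1 - A) = g.z + g.N1 := by omega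
      rw [h6] at h5
      exact h5
    rw [e2 q, e2 q2, List.map_append, List.map_append, List.prod_append, List.prod_append, h3, h4]
  have hval : ∀ x y, ∀ q q2 : List α, g.z + g.N1 ≤ q.length →
      g.z + g.N1 ≤ q2.length → q.take (g.z + g.N1) = q2.take (g.z + g.N1) →
      q.length % M0 = q2.length % M0 →
      ((q.drop (g.z + g.N1)).map φ).prod = ((q2.drop (g.z + g.N1)).map φ).prod →
      ((act x (q.map φ).prod + nu q = y) ↔ (act x (q2.map φ).prod + nu q2 = y)) := by
    intro x y q q2 h1 h2 h3 h4 h5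
    obtain ⟨a1, a2⟩ := hdp q q2 0 (by omega) h1 h2 h3 h5
    obtain ⟨b1, b2⟩ := hdp q q2 g.p0 (by omega) h1 h2 h3 h5
    obtain ⟨c1, c2⟩ := hdp q q2 (g.p0 + Am1) (by omega) h1 h2 h3 h5
    have e1 : (q.map φ).prod = (q2.map φ).prod := by simpa using a2
    have e2 : nu1 (q.drop g.p0) = nu1 (q2.drop g.p0) := by
      apply hnu1
      · rw [List.length_drop]; omega
      · rw [List.length_drop]; omega
      · have := congrArg (fun l => l.drop g.p0) c1
        simp only [List.drop_take, Nat.add_sub_cancel_left] at this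
        exact this
      · rw [List.drop_drop, List.drop_drop]; exact c2
      · rw [List.length_drop, List.length_drop]
        have h6 : q.length ≡ q2.length [MOD M0] := h4
        have h7 : (q.length - g.p0) + g.p0 ≡ (q2.length - g.p0) + g.p0 [MOD M0] := by
          rw [Nat.sub_add_cancel (by omega), Nat.sub_add_cancel (by omega)]; exact h6
        exact Nat.ModEq.add_right_cancel' _ h7
    have e3 : nu q = nu q2 := by
      simp only [hnu]
      rw [b1, b2, e2]
    rw [e1, e3]
  have hCT : ∀ x y, HL 1 ({X | X ∈ C ∧ act x (X.map φ).prod + nu X = y} : Language α) := by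
    intro x y
    refine (P4_933.hl_XX (z := g.z) g.loc hWlen free
      (f := fun X => act x (X.map φ).prod + nu X = y) (hregv _ (hval x y))).congr fun w => ?_
    constructor
    · rintro ⟨h1, h2⟩; exact ⟨(hXXe w).1 h1, h2⟩
    · rintro ⟨h1, h2⟩; exact ⟨(hXXe w).2 h1, h2⟩
  have hBT : ∀ x y, HL 1 ({X | X ∈ Bad ∧ act x (X.map φ).prod + nu X = y} : Language α) := by
    intro x y
    refine (P4_933.hl_XX (z := g.z) g.loc hWlen free
      (f := fun X => g.BadX BadT X ∧ act x (X.map φ).prod + nu X = y) (hregv _ ?_)).congr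
      fun w => ?_
    · intro q q2 h1 h2 h3 h4 h5
      refine and_congr ?_ (hval x y q q2 h1 h2 h3 h4 h5)
      refine or_congr ?_ ?_
      · have hh : ∀ r r2 : List α, g.z + g.N1 ≤ r.length → g.z + g.N1 ≤ r2.length →
            r.take (g.z + g.N1) = r2.take (g.z + g.N1) → g.E r → g.E r2 := by
          intro r r2 k1 k2 k3
          rintro ⟨t, t1, t2, t3, t4⟩
          refine ⟨t, by omega, ?_, t3, t4⟩
          have : r.take t = r2.take t := by
            have := congrArg (fun l => l.take t) k3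
            simpa [List.take_take, Nat.min_eq_left t4.le] using this
          rw [← this]; exact t2
        exact ⟨hh q q2 h1 h2 h3, hh q2 q h2 h1 h3.symm⟩
      · apply hBper
        · omega
        · omega
        · have h6 : q.length ≡ q2.length [MOD M0] := h4
          have h7 : (q.length - g.p0) + g.p0 ≡ (q2.length - g.p0) + g.p0 [MOD M0] := by
            rw [Nat.sub_add_cancel (by omega), Nat.sub_add_cancel (by omega)]; exact h6
          exact Nat.ModEq.add_right_cancel' _ h7
    · constructor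
      · rintro ⟨⟨h1, h3⟩, h2⟩; exact ⟨(hXXe w).1 h1, h3, h2⟩
      · rintro ⟨h1, h3, h2⟩; exact ⟨⟨(hXXe w).2 h1, h3⟩, h2⟩
  have htail : ∀ s, HL 1 ({w | (∀ X ∈ C, ¬ X <+: w) ∧ (w.map φ).prod = s} : Language α) := by
    intro s
    refine (P4_933.hl_NB (z := g.z) g.loc hWlen free (f := fun w => (w.map φ).prod = s)
      (hregv _ ?_)).congr fun w => ?_
    · intro q q2 h1 h2 h3 h4 h5
      obtain ⟨a1, a2⟩ := hdp q q2 0 (by omega) h1 h2 h3 h5
      have e1 : (q.map φ).prod = (q2.map φ).prod := by simpa using a2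
      simp only [e1]
    · constructor
      · rintro ⟨h1, h2⟩
        refine ⟨(P4_933.NB_iff _ _ _).2 fun P hP hX => h1 P ((hXXe P).2 hX) hP, h2⟩
      · rintro ⟨h1, h2⟩
        exact ⟨fun X hX hP => (P4_933.NB_iff _ _ _).1 h1 X hP ((hXXe X).1 hX), h2⟩
  -- finite left languages
  let L1 : V → Set (List α) := fun v => {P | g.LP1 pre lam v P}
  let L2 : V → Set (List α) := fun v => {P | Geo.LP2 K c lam2 v P}
  have hf1 : ∀ v, (L1 v).Finite := by
    intro v
    refine (List.finite_length_le α (g.p0 + g.N1)).subset fun P hP => ?_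
    have h1 := hlen _ _ hP.2
    have h2 := hP.1
    simp only [List.length_drop] at h1
    show P.length ≤ g.p0 + g.N1
    omega
  have hf2 : ∀ v, (L2 v).Finite := by
    intro v
    refine (List.finite_length_le α g.p0).subset fun P hP => ?_
    obtain ⟨k, hk, hk2, -⟩ := hP
    show P.length ≤ g.p0
    rw [hk2]; exact hc k hk
  refine Top5_120.top5 act hadd hone hmul hfaith φ nu C Bad hPC (fun X hX => hX.1) L1 L2 hf1 hf2
    hCT hBT htail ?_ ?_ s
  · -- scheme 1
    intro X hX hXb v
    have hXX : g.XX X := hX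
    have hE : ¬ g.E X := fun h => hXb ⟨hXX, Or.inl h⟩
    have hB : ¬ BadT (X.length - g.p0) := fun h => hXb ⟨hXX, Or.inr h⟩
    have hcc : ∀ u : V, ∃ P Q, X.drop g.p0 = P ++ Q ∧ lam P = some u ∧ (rho Q).isSome := by
      intro u
      refine hc1 (X.drop g.p0) ?_ ?_ u
      · rw [List.length_drop]
        have := hXX.1
        omega
      · rw [List.length_drop]; exact hB
    have hex : ∀ P Q u b, lam P = some u → rho Q = some b → b = post u (P ++ Q) :=
      fun P Q u b h1 h2 => hs1 P Q u b h1 h2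
    obtain ⟨P, Q, b, h1, h2, h3⟩ := g.complete1 pre hlen hXX hE hcc v
    refine ⟨P, Q, h1.symm, h2, fun x P' hP' => ?_⟩
    have h4 := g.sound1 pre post hlen hex h2 h3
    have h5 := g.sound1 pre post hlen hex (show g.LP1 pre lam x P' from hP') h3
    refine ⟨h5.1, ?_⟩
    rw [← hT, ← hT, h5.2, ← h4.2, h1]
  · -- scheme 2
    intro X hX Y hY v
    have hXX : g.XX X := hX.1
    have hYY : g.XX Y := hY.1
    have hXz := hXX.1
    have hex : ∀ k, k < K → ∀ P Q v u, P.length = c k → Q.length = g.p0 - c k →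
        lam2 k P = some v → rho2 k Q = some u → u = pre (P ++ Q) v :=
      fun k hk P Q v u h1 _ h2 h3 => hs2 k hk P Q v u h1 h2 h3
    have hI : ∃ I : Finset ℕ, 2 * C0 + 2 ≤ I.card ∧ ∀ k ∈ I, k < K ∧
        lam2 k (X.take (c k)) = some v ∧ (rho2 k ((X.take g.p0).drop (c k))).isSome := by
      obtain ⟨I, h1, h2⟩ := hc2 (X.take g.p0) (by rw [List.length_take]; omega) v
      refine ⟨I, h1, fun k hk => ?_⟩
      obtain ⟨h3, h4, h5⟩ := h2 k hk
      rw [List.take_take, Nat.min_eq_left (hc k h3)] at h4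
      exact ⟨h3, h4, h5⟩
    obtain ⟨P, Q, b, h1, h2, h3⟩ := g.complete2 pre post (BadT := BadT) (C0 := C0) hc hgap hsp hthin
      hXX hYY v hI
    have hb : g.T pre post (g.T pre post v X) Y = b := by
      obtain ⟨X2, hX2, hPQ, hb⟩ := g.sound2 pre post (R := []) (R' := Y) hc hex hXX hX.2 h2 h3
        (by rw [List.append_nil]; exact h1)
      rw [h1] at hPQ
      rw [List.append_cancel_left hPQ]
      exact hb
    refine ⟨P, Q, h1, h2, fun x P' hP' => ?_⟩
    have hP2 : Geo.LP2 K c lam2 x P' := hP'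
    obtain ⟨k', hk', hPl', hl'⟩ := hP2
    obtain ⟨k, hk, l, hend, hgood, hX2, u, hr, hbe⟩ := h3
    by_cases hkk : k' = k
    · subst hkk
      have hX' : g.XX (P' ++ Q.take l) :=
        g.xx_of_cend (by rw [hPl']; exact hc k' hk') (by rw [hPl']; exact hend)
      by_cases hbad' : g.BadX BadT (P' ++ Q.take l)
      · left
        obtain ⟨X3, hX3, hPQ3, hb3⟩ := g.sound2 pre post (R := []) (R' := Q.drop l) (b := b) (v := x)
          (P := P') (Q := Q) hc hex hX' hbad' ⟨k', hk', hPl', hl'⟩
          ⟨k', hk, l, hend, hgood, hX2, u, hr, hbe⟩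
          (by rw [List.append_nil, List.append_assoc, List.take_append_drop])
        refine ⟨P' ++ Q.take l, ⟨hX', hbad'⟩, X3, hX3, hPQ3.symm, ?_⟩
        rw [← hT, ← hT, ← hT, ← hT, hb3, hb]
      · right
        refine ⟨P' ++ Q.take l, hX', fun h => hbad' h.2, ?_⟩
        exact ⟨Q.drop l, by rw [List.append_assoc, List.take_append_drop]⟩
    · right
      obtain ⟨l', he', hg'⟩ := hgood k' hk' hkk
      have hX' : g.XX (P' ++ Q.take l') :=
        g.xx_of_cend (by rw [hPl']; exact hc k' hk') (by rw [hPl']; exact he')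
      refine ⟨P' ++ Q.take l', hX', fun h => ?_, ?_⟩
      · apply hg'
        have := g.cbad_of_bad (BadT := BadT) (P := P') (Q := Q) (l := l')
          (by rw [hPl']; exact hc k' hk') (by rw [hPl']; exact he') h.2
        rw [hPl'] at this
        exact this
      · exact ⟨Q.drop l', by rw [List.append_assoc, List.take_append_drop]⟩

end Crest.Agent.R320.FinA_670
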