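import Crest.Agent.R320.Main_621
import Crest.Agent.R320.FewVal_228
import Crest.Agent.R320.Reg_236

/-!
# Row 320: two-wall zones on all words (helper677), part A: walls, zones, scheme 1
-/

set_option autoImplicit false

namespace Crest.Agent.R320.Fin_677

open Crest.RegLang Crest.Agent.R320.Hk_851 Crest.Agent.R320.FewWalls_228
open Crest.Agent.R320.Star_621 Crest.Agent.R320.Two_621 Crest.Agent.R320.Main_621

variable {α : Type}

/-- wall with end position `t` -/
def wp (n : ℕ) (S0 : Set (List α)) (w : List α) (t : ℕ) : Prop :=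
  n ≤ t ∧ t ≤ w.length ∧ (w.drop (t - n)).take n ∈ S0

section walls

variable {n : ℕ} {S0 : Set (List α)}

theorem wp_append {w x : List α} {t : ℕ} (ht : t ≤ w.length) :
    wp n S0 (w ++ x) t ↔ wp n S0 w t := by
  unfold wp
  constructor
  · rintro ⟨h1, h2, h3⟩
    refine ⟨h1, ht, ?_⟩
    rwa [List.drop_append_of_le_length (by omega), List.take_append_of_le_length
      (by rw [List.length_drop]; omega)] at h3
  · rintro ⟨h1, h2, h3⟩
    refine ⟨h1, by rw [List.length_append]; omega, ?_⟩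
    rwa [List.drop_append_of_le_length (by omega), List.take_append_of_le_length
      (by rw [List.length_drop]; omega)]

theorem wp_left {P w : List α} {t : ℕ} (ht : n ≤ t) :
    wp n S0 (P ++ w) (P.length + t) ↔ wp n S0 w t := by
  unfold wp
  have e : (P ++ w).drop (P.length + t - n) = w.drop (t - n) := by
    rw [show P.length + t - n = P.length + (t - n) by omega, List.drop_append,
      List.drop_eq_nil_of_le (by omega), List.nil_append]
    congr 1; omega
  rw [e, List.length_append]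
  constructor
  · rintro ⟨h1, h2, h3⟩; exact ⟨ht, by omega, h3⟩
  · rintro ⟨h1, h2, h3⟩; exact ⟨by omega, by omega, h3⟩

/-- first wall at or after `s` -/
def F (n : ℕ) (S0 : Set (List α)) (w : List α) (s t : ℕ) : Prop :=
  s ≤ t ∧ wp n S0 w t ∧ ∀ t', s ≤ t' → t' < t → ¬ wp n S0 w t'

theorem F_unique {w : List α} {s t t' : ℕ} (h : F n S0 w s t) (h' : F n S0 w s t') : t = t' := by
  rcases lt_trichotomy t t' with hlt | he | hlt
  · exact absurd h.2.1 (h'.2.2 t h.1 hlt)
  · exact he
  · exact absurd h'.2.1 (h.2.2 t' h'.1 hlt)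

theorem F_le {w : List α} {s t : ℕ} (h : F n S0 w s t) : t ≤ w.length := h.2.1.2.1

theorem F_append {w x : List α} {s t : ℕ} (ht : t ≤ w.length) :
    F n S0 (w ++ x) s t ↔ F n S0 w s t := by
  unfold F
  rw [wp_append ht]
  refine and_congr Iff.rfl (and_congr Iff.rfl ?_)
  constructor
  · intro h t' h1 h2 h3; exact h t' h1 h2 ((wp_append (by omega)).2 h3)
  · intro h t' h1 h2 h3; exact h t' h1 h2 ((wp_append (by omega)).1 h3)

theorem F_left {P w : List α} {s t : ℕ} (hs : n ≤ s) :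
    F n S0 (P ++ w) (P.length + s) (P.length + t) ↔ F n S0 w s t := by
  unfold F
  constructor
  · rintro ⟨h1, h2, h3⟩
    have hst : s ≤ t := by omega
    refine ⟨hst, (wp_left (by omega)).1 h2, fun t' h4 h5 h6 => ?_⟩
    exact h3 (P.length + t') (by omega) (by omega) ((wp_left (by omega)).2 h6)
  · rintro ⟨h1, h2, h3⟩
    refine ⟨by omega, (wp_left (by omega)).2 h2, fun t' h4 h5 h6 => ?_⟩
    obtain ⟨d, rfl⟩ : ∃ d, t' = P.length + d := ⟨t' - P.length, by omega⟩
    exact h3 d (by omega) (by omega) ((wp_left (by omega)).1 h6)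

theorem F_exists {w : List α} {s t : ℕ} (h : wp n S0 w t) (hs : s ≤ t) :
    ∃ t0, t0 ≤ t ∧ F n S0 w s t0 := by
  classical
  have hex : ∃ t, s ≤ t ∧ wp n S0 w t := ⟨t, hs, h⟩
  refine ⟨Nat.find hex, Nat.find_min' hex ⟨hs, h⟩, (Nat.find_spec hex).1, (Nat.find_spec hex).2,
    fun t' h1 h2 h3 => Nat.find_min hex h2 ⟨h1, h3⟩⟩

end walls

/-- all data of the two schemes -/
structure Cfg (α S : Type) [Monoid S] where
  n : ℕ
  S0 : Set (List α)
  W : ℕ
  f : α → S
  p0 : ℕ
  z0 : ℕ
  N1 : ℕ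
  T0 : ℕ
  BadT : ℕ → Prop
  L1 : Tok S → Language α
  R1 : Tok S → Language α
  nu : List α → Tok S
  sep : ∀ (w : List α) (x y : ℕ), x < y → Wl n S0 w x → Wl n S0 w y → x + W ≤ y
  hn : 0 < n
  hp0 : 0 < p0
  hz0 : p0 + N1 + n + T0 + 1 ≤ z0
  hW : 2 * (p0 + N1) + 2 ≤ W
  hL1 : ∀ v, ∀ P ∈ L1 v, P.length ≤ N1
  snd : ∀ P Q v b, P ∈ L1 v → Q ∈ R1 b → b = act v (((P ++ Q).map f).prod) + nu (P ++ Q)
  cpl : ∀ Y : List α, T0 ≤ Y.length → ¬ BadT Y.length → ∀ v, ∃ P Q b, Y = P ++ Q ∧ P ∈ L1 v ∧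
    Q ∈ R1 b

namespace Cfg

variable {S : Type} [Monoid S] (D : Cfg α S)

def w (u : List α) (t : ℕ) : Prop := wp D.n D.S0 u t
def FF (u : List α) (s t : ℕ) : Prop := F D.n D.S0 u s t
def ph (u : List α) : S := (u.map D.f).prod

theorem ph_append (u v : List α) : D.ph (u ++ v) = D.ph u * D.ph v := by simp [ph]

theorem wsep {u : List α} {t t' : ℕ} (h : D.w u t) (h' : D.w u t') (hlt : t < t') :
    t + D.W ≤ t' := by
  obtain ⟨h1, h2, h3⟩ := h
  obtain ⟨h1', h2', h3'⟩ := h'
  have := D.sep u (t - D.n) (t' - D.n) (by omega) ⟨by omega, h3⟩ ⟨by omega, h3'⟩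
  omega

def Z : Language α := {z | ∃ t0, D.FF z D.z0 t0 ∧ D.FF z (t0 + 1) z.length}

def E (z : List α) : Prop := ∃ t, D.z0 ≤ t + D.N1 ∧ t ≤ D.z0 + D.N1 ∧ D.w z t

def Bz (z : List α) : Prop := D.E z ∨ ∃ t0, D.FF z D.z0 t0 ∧ D.BadT (t0 - D.p0)

def Zc : Language α := {z | z ∈ D.Z ∧ D.Bz z}

def LA (v : Tok S) : Language α :=
  {P | ∃ X P', P = X ++ P' ∧ X.length = D.p0 ∧ P' ∈ D.L1 (act v (D.ph X))}

def RA (b : Tok S) : Language α :=
  {Q | ∃ t0 b0, D.FF Q (D.z0 - D.p0) t0 ∧ D.FF Q (t0 + 1) Q.length ∧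
    (∀ t, D.z0 ≤ t + D.p0 + D.N1 → t < D.z0 - D.p0 → ¬ D.w Q t) ∧
    Q.take t0 ∈ D.R1 b0 ∧ b = act b0 (D.ph (Q.drop t0))}

open Classical in
noncomputable def dY (Y : List α) : Tok S :=
  if h : ∃ t0, D.FF Y (D.z0 - D.p0) t0 then
    act (D.nu (Y.take h.choose)) (D.ph (Y.drop h.choose)) else 0

noncomputable def dA (z : List α) : Tok S := D.dY (z.drop D.p0)

theorem dY_eq {Y : List α} {t : ℕ} (h : D.FF Y (D.z0 - D.p0) t) :
    D.dY Y = act (D.nu (Y.take t)) (D.ph (Y.drop t)) := by
  have hex : ∃ t0, D.FF Y (D.z0 - D.p0) t0 := ⟨t, h⟩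
  unfold dY
  rw [dif_pos hex]
  have e : hex.choose = t := F_unique hex.choose_spec h
  rw [e]

theorem Z_nil : [] ∉ D.Z := by
  rintro ⟨t0, h1, h2⟩
  have a := h1.1
  have b := F_le h1
  have c := D.hz0
  simp only [List.length_nil] at b
  omega

theorem Z_code : Code D.Z := by
  refine ⟨D.Z_nil, ?_⟩
  rintro z z' x x' ⟨t0, h1, h2⟩ ⟨t0', h1', h2'⟩ he
  have a1 : F D.n D.S0 (z ++ x) D.z0 t0 := (F_append (F_le h1)).2 h1
  have a2 : F D.n D.S0 (z ++ x) (t0 + 1) z.length := (F_append le_rfl).2 h2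
  have b1 : F D.n D.S0 (z' ++ x') D.z0 t0' := (F_append (F_le h1')).2 h1'
  have b2 : F D.n D.S0 (z' ++ x') (t0' + 1) z'.length := (F_append le_rfl).2 h2'
  rw [← he] at b1 b2
  have e := F_unique a1 b1
  subst e
  have e2 := F_unique a2 b2
  exact (List.append_inj he e2).1

/-- from a right word to the text -/
theorem lift {P Q x : List α} {s t : ℕ} (hs : D.n ≤ s) (ht : t ≤ Q.length) :
    F D.n D.S0 (P ++ Q ++ x) (P.length + s) (P.length + t) ↔ F D.n D.S0 Q s t := by
  rw [List.append_assoc, F_left hs, F_append ht]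

theorem sound1 : Sound D.Z (aff D.ph D.dA) D.LA D.RA := by
  have hz0 := D.hz0
  refine ⟨?_, ?_⟩
  · rintro v ⟨X, P', h, hX, -⟩
    have : X = [] := (List.append_eq_nil_iff.1 h.symm).1
    subst this
    have := D.hp0
    simp only [List.length_nil] at hX
    omega
  · rintro v τ P Q z x y ⟨X, P', rfl, hX, hP'⟩ ⟨t0, b0, hF0, hF1, hband, hR, rfl⟩
      ⟨s0, hz1, hz2⟩ he
    have hlen : P'.length ≤ D.N1 := D.hL1 _ _ hP'
    have ht0 : t0 ≤ Q.length := F_le hF0
    have hPl : (X ++ P').length = D.p0 + P'.length := by rw [List.length_append, hX]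
    -- first wall of the text
    have f0 : F D.n D.S0 (X ++ P' ++ Q ++ x) D.z0 ((X ++ P').length + t0) := by
      have g := (D.lift (P := X ++ P') (x := x) (s := D.z0 - D.p0) (by omega) ht0).2 hF0
      refine ⟨by have := hF0.1; omega, g.2.1, fun t' h1 h2 h3 => ?_⟩
      by_cases hc : (X ++ P').length + (D.z0 - D.p0) ≤ t'
      · exact g.2.2 t' hc h2 h3
      · obtain ⟨d, rfl⟩ : ∃ d, t' = (X ++ P').length + d := ⟨t' - (X ++ P').length, by omega⟩
        refine hband d (by omega) (by omega) ?_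
        have h4 : wp D.n D.S0 (X ++ P' ++ (Q ++ x)) ((X ++ P').length + d) := by
          rw [← List.append_assoc]; exact h3
        exact (wp_append (by omega)).1 ((wp_left (by omega)).1 h4)
    have f1 : F D.n D.S0 (X ++ P' ++ Q ++ x) ((X ++ P').length + t0 + 1)
        ((X ++ P').length + Q.length) := by
      have g := (D.lift (P := X ++ P') (x := x) (s := t0 + 1) (by have := hF0.1; omega)
        (le_refl Q.length)).2 hF1
      exact g
    have g0 : F D.n D.S0 (z ++ y) D.z0 s0 := (F_append (F_le hz1)).2 hz1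
    have g1 : F D.n D.S0 (z ++ y) (s0 + 1) z.length := (F_append le_rfl).2 hz2
    rw [← he] at g0 g1
    have e0 := F_unique g0 f0
    subst e0
    have e1 := F_unique g1 f1
    have ez : X ++ P' ++ Q = z := (List.append_inj he (by
      rw [List.length_append (as := X ++ P') (bs := Q)]; exact e1.symm)).1
    refine ⟨ez, ?_⟩
    subst ez
    have hs := D.snd P' (Q.take t0) (act v (D.ph X)) b0 hP' hR
    have hY : (X ++ P' ++ Q).drop D.p0 = P' ++ Q := by
      rw [List.append_assoc, ← hX, List.drop_left]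
    have hFY : D.FF (P' ++ Q) (D.z0 - D.p0) (P'.length + t0) := by
      have h1 : F D.n D.S0 (X ++ (P' ++ Q)) (X.length + (D.z0 - D.p0))
          (X.length + (P'.length + t0)) := by
        rw [← List.append_assoc]
        have : F D.n D.S0 (X ++ P' ++ Q) D.z0 ((X ++ P').length + t0) := hz1
        rw [show X.length + (D.z0 - D.p0) = D.z0 by omega,
          show X.length + (P'.length + t0) = (X ++ P').length + t0 by
            rw [List.length_append]; omega]
        exact this
      exact (F_left (by omega)).1 h1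
    have hd : D.dA (X ++ P' ++ Q) = act (D.nu (P' ++ Q.take t0)) (D.ph (Q.drop t0)) := by
      unfold dA
      rw [hY, D.dY_eq hFY]
      congr 2
      · rw [List.take_append, List.take_of_length_le (by omega)]
        congr 2; omega
      · rw [List.drop_append, List.drop_eq_nil_of_le (by omega), List.nil_append]
        congr 1; omega
    unfold aff
    rw [hd]
    have hφ : D.ph (X ++ P' ++ Q) = D.ph X * D.ph (P' ++ Q.take t0) * D.ph (Q.drop t0) := by
      rw [← D.ph_append, ← D.ph_append]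
      congr 1
      simp [List.append_assoc]
    have hs' : b0 = act (act v (D.ph X)) (D.ph (P' ++ Q.take t0)) + D.nu (P' ++ Q.take t0) := hs
    rw [hφ, hs', act_add, act_mul, act_mul, mul_assoc]

theorem complete1 (z : List α) (hz : z ∈ D.Z) (hzc : z ∉ D.Zc) (v : Tok S) :
    Cut D.LA D.RA v z := by
  have hz0 := D.hz0
  obtain ⟨t0, h1, h2⟩ := hz
  have hB : ¬ D.Bz z := fun h => hzc ⟨⟨t0, h1, h2⟩, h⟩
  have hE : ¬ D.E z := fun h => hB (Or.inl h)
  have hT : ¬ D.BadT (t0 - D.p0) := fun h => hB (Or.inr ⟨t0, h1, h⟩)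
  have ht0 : t0 ≤ z.length := F_le h1
  have h10 : D.z0 ≤ t0 := h1.1
  have hfar : D.z0 + D.N1 < t0 := by
    by_contra hc
    exact hE ⟨t0, by omega, by omega, h1.2.1⟩
  obtain ⟨P', Q', b0, hPQ, hP', hQ'⟩ := D.cpl ((z.take t0).drop D.p0)
    (by rw [List.length_drop, List.length_take]; omega)
    (by rw [List.length_drop, List.length_take, min_eq_left ht0]; exact hT)
    (act v (D.ph (z.take D.p0)))
  have hlen := D.hL1 _ _ hP'
  have hXl : (z.take D.p0).length = D.p0 := by rw [List.length_take]; omega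
  have hsplit : z = (z.take D.p0 ++ P') ++ (Q' ++ z.drop t0) := by
    have e1 : z = z.take t0 ++ z.drop t0 := (List.take_append_drop _ _).symm
    have e2 : z.take t0 = z.take D.p0 ++ (z.take t0).drop D.p0 := by
      conv_lhs => rw [← List.take_append_drop D.p0 (z.take t0)]
      rw [List.take_take, min_eq_left (by omega)]
    conv_lhs => rw [e1, e2, hPQ]
    simp [List.append_assoc]
  have hlQ : (P' ++ Q').length = t0 - D.p0 := by
    rw [← hPQ, List.length_drop, List.length_take, min_eq_left ht0]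
  rw [List.length_append] at hlQ
  have hPl : (z.take D.p0 ++ P').length = D.p0 + P'.length := by rw [List.length_append, hXl]
  refine ⟨z.take D.p0 ++ P', Q' ++ z.drop t0, act b0 (D.ph (z.drop t0)), hsplit,
    ⟨z.take D.p0, P', rfl, hXl, hP'⟩, Q'.length, b0, ?_, ?_, ?_, ?_, ?_⟩
  · have hwQ : ∀ t, D.n ≤ t → (wp D.n D.S0 (Q' ++ z.drop t0) t ↔
        wp D.n D.S0 z ((z.take D.p0 ++ P').length + t)) := by
      intro t ht
      have h := wp_left (n := D.n) (S0 := D.S0) (P := z.take D.p0 ++ P')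
        (w := Q' ++ z.drop t0) ht
      rw [← hsplit] at h
      exact h.symm
    refine ⟨by omega, (hwQ _ (by omega)).2 ?_, fun t' h3 h4 h5 => ?_⟩
    · rw [hPl, show D.p0 + P'.length + Q'.length = t0 by omega]; exact h1.2.1
    · have h6 := (hwQ _ (by omega)).1 h5
      rw [hPl] at h6
      exact h1.2.2 _ (by omega) (by omega) h6
  · have h3 : F D.n D.S0 ((z.take D.p0 ++ P') ++ (Q' ++ z.drop t0))
        ((z.take D.p0 ++ P').length + (Q'.length + 1))
        ((z.take D.p0 ++ P').length + (Q' ++ z.drop t0).length) := by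
      rw [← List.length_append (as := z.take D.p0 ++ P'), ← hsplit, hPl,
        show D.p0 + P'.length + (Q'.length + 1) = t0 + 1 by omega]
      exact h2
    exact (F_left (by omega)).1 h3
  · intro t h3 h4 h5
    have h6 : wp D.n D.S0 ((z.take D.p0 ++ P') ++ (Q' ++ z.drop t0))
        ((z.take D.p0 ++ P').length + t) := (wp_left (by omega)).2 h5
    rw [← hsplit, hPl] at h6
    by_cases hc : D.p0 + P'.length + t < D.z0
    · exact hE ⟨_, by omega, by omega, h6⟩
    · exact h1.2.2 _ (by omega) (by omega) h6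
  · rw [List.take_left]; exact hQ'
  · rw [List.drop_left]

end Cfg

end Crest.Agent.R320.Fin_677
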