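import Crest.Agent.R320.SemTop_727
import Crest.Agent.R320.Sc2n_937

/-!
# Row 320 (helper689): 937's two schemes (natural chain rule) plugged into 727's semantic top
-/

set_option autoImplicit false

namespace Crest.Agent.R320.Fin_689

open Crest.RegLang Crest.Agent.R320.Hk_851 Crest.Agent.R320.Blk467
open Crest.Agent.R320.Sc2n_937

theorem layerA {α S V : Type} [Finite α] [Monoid S] [Finite S] [AddCommGroup V] [Finite V]
    (act : V → S → V) (hadd : ∀ a b s, act (a + b) s = act a s + act b s)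
    (hone : ∀ v, act v 1 = v) (hmul : ∀ v s t, act v (s * t) = act (act v s) t)
    (hfaith : ∀ s t, (∀ v, act v s = act v t) → s = t) (φ : α → S)
    (g : Geo α) (BadT : ℕ → Prop) (K C0 : ℕ) (c : ℕ → ℕ)
    (lam rho : List α → Option V) (nu1 : List α → V)
    (lam2 rho2 : ℕ → List α → Option V) (nu2 : List α → V)
    (pre : List α → V → V) (post : V → List α → V)
    (hpre : ∀ u v, pre u v = act v (u.map φ).prod + nu2 u)
    (hpost : ∀ v u, post v u = act v (u.map φ).prod + nu1 u)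
    (hlen : ∀ P v, lam P = some v → P.length ≤ g.N1)
    (hex1 : ∀ P Q v b, lam P = some v → rho Q = some b →
      b = act v ((P ++ Q).map φ).prod + nu1 (P ++ Q))
    (hcomp : ∀ Y : List α, g.N1 + g.q0 ≤ Y.length → ¬ BadT Y.length →
      ∀ v, ∃ P Q, Y = P ++ Q ∧ lam P = some v ∧ (rho Q).isSome)
    (hc : ∀ k, k < K → c k ≤ g.p0)
    (hex2 : ∀ k, k < K → ∀ P Q v u, P.length = c k → Q.length = g.p0 - c k →
      lam2 k P = some v → rho2 k Q = some u → u = act v ((P ++ Q).map φ).prod + nu2 (P ++ Q))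
    (hgap : ∀ P Q : List α, g.Wo P → g.Wo (P ++ Q) → Q ≠ [] → 2 * g.p0 + 2 * g.N1 < Q.length)
    (hsp : ∀ k k' l l', k < K → k' < K → l < K → l' < K → k' ≠ k → l' ≠ l →
      c k + c l' < c l + c k' + 2 * g.N1 → c l + c k' < c k + c l' + 2 * g.N1 → k = l)
    (hthin : ∀ τ, g.z ≤ τ + g.p0 → ∀ J : Finset ℕ, (∀ k ∈ J, k < K ∧
      ∃ k', k' < K ∧ k' ≠ k ∧ BadT (τ + c k' - c k - g.p0)) → J.card ≤ C0)
    (hI : ∀ u : List α, u.length = g.p0 → ∀ v, ∃ I : Finset ℕ, 2 * C0 + 2 ≤ I.card ∧
      ∀ k ∈ I, k < K ∧ lam2 k (u.take (c k)) = some v ∧ (rho2 k (u.drop (c k))).isSome)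
    (hfib : ∀ x y, HL 1 ({X | g.XX X ∧ g.T pre post x X = y} : Language α))
    (htail : ∀ s, HL 3 ({w | (∀ X, g.XX X → ¬ X <+: w) ∧ (w.map φ).prod = s} : Language α))
    (s : S) : HL 3 ({w | (w.map φ).prod = s} : Language α) := by
  classical
  let D : SemTop_727.Sch α V := ⟨{X | g.XX X}, g.T pre post, fun v => {P | g.LP1 pre lam v P},
    fun v => {P | Geo.LP2 K c lam2 v P}⟩
  have hz := g.hz
  have hN := g.hN
  have hex1' : ∀ P Q u b, lam P = some u → rho Q = some b → b = post u (P ++ Q) := by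
    intro P Q u b h1 h2
    rw [hpost]; exact hex1 P Q u b h1 h2
  have hex2' : ∀ k, k < K → ∀ P Q v u, P.length = c k → Q.length = g.p0 - c k →
      lam2 k P = some v → rho2 k Q = some u → u = pre (P ++ Q) v := by
    intro k hk P Q v u h1 h2 h3 h4
    rw [hpre]; exact hex2 k hk P Q v u h1 h2 h3 h4
  have hGood : ∀ X, g.XX X → ¬ g.BadX BadT X → X ∈ D.Good := by
    intro X hX hb
    refine ⟨hX, fun v => ?_⟩
    have hXz := hX.1
    obtain ⟨P, Q, b, e, hP, hQ⟩ := g.complete1 pre (lam := lam) (rho := rho) hlen hX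
      (fun h => hb (Or.inl h)) (fun u => hcomp (X.drop g.p0) (by rw [List.length_drop]; omega)
        (by rw [List.length_drop]; exact fun h => hb (Or.inr h)) u) v
    have hs := fun x P' (hP' : g.LP1 pre lam x P') =>
      g.sound1 pre post (lam := lam) (rho := rho) hlen hex1' hP' hQ
    refine ⟨P, hP, Q, fun x P' hP' => ?_, e.symm⟩
    refine ⟨(hs x P' hP').1, ?_⟩
    change g.T pre post x (P' ++ Q) = g.T pre post v X
    rw [(hs x P' hP').2, e, (hs v P hP).2]
  have hBad : ∀ X, X ∈ D.Bad → g.BadX BadT X := by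
    intro X hX
    by_contra h
    exact hX.2 (hGood X hX.1 h)
  refine SemTop_727.top (k := 1) act hadd hone hmul hfaith φ
    (fun X => act (nu2 (X.take g.p0)) ((X.drop g.p0).map φ).prod + nu1 (X.drop g.p0)) D ?_ ?_
    hfib ?_ ?_ ?_ htail s
  · intro v X
    change post (pre (X.take g.p0) v) (X.drop g.p0) = _
    rw [hpost, hpre, hadd, ← hmul, ← List.prod_append, ← List.map_append, List.take_append_drop]
    abel
  · refine ⟨fun h => ?_, fun X hX Y hY h => ?_⟩
    · have h1 : g.z ≤ ([] : List α).length := h.1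
      simp at h1
      omega
    · obtain ⟨t, ht⟩ := h
      exact g.prefix_code (R := t) (R' := []) hX hY (by rw [ht, List.append_nil])
  · intro x
    refine (List.finite_length_le α (g.p0 + g.N1)).subset ?_
    intro P hP
    have h1 := hlen _ _ hP.2
    rw [List.length_drop] at h1
    have h2 := hP.1
    change P.length ≤ g.p0 + g.N1
    omega
  · intro x
    refine (List.finite_length_le α g.p0).subset ?_
    rintro P ⟨k, hk, h1, h2⟩
    change P.length ≤ g.p0
    rw [h1]; exact hc k hk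
  · intro X1 hX1 X2 hX2 x
    have hb1 := hBad X1 hX1
    have hXz : g.z ≤ X1.length := hX1.1.1
    obtain ⟨P, Q, b, e, hP, hQ⟩ := g.complete2 pre post (BadT := BadT) (K := K) (c := c)
      (lam2 := lam2) (rho2 := rho2) (C0 := C0) hc hgap hsp hthin hX1.1 hX2.1 x (by
        obtain ⟨I, hI1, hI2⟩ := hI (X1.take g.p0) (by rw [List.length_take]; omega) x
        refine ⟨I, hI1, fun k hk => ?_⟩
        obtain ⟨h1, h2, h3⟩ := hI2 k hk
        rw [List.take_take, min_eq_left (hc k h1)] at h2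
        exact ⟨h1, h2, h3⟩)
    have hb : g.T pre post (g.T pre post x X1) X2 = b := by
      obtain ⟨X2', _, h2, h3⟩ := g.sound2 pre post (BadT := BadT) (K := K) (c := c)
        (lam2 := lam2) (rho2 := rho2) hc hex2' (R := []) (R' := X2) hX1.1 hb1 hP hQ
        (by rw [List.append_nil]; exact e)
      have : X2' = X2 := by
        have h4 : X1 ++ X2' = X1 ++ X2 := by rw [← h2, e]
        exact List.append_cancel_left h4
      rw [← this]; exact h3
    refine ⟨P, hP, Q, ?_, e⟩
    change Q ∈ D.R2 (g.T pre post (g.T pre post x X1) X2)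
    rw [hb]
    intro x' P' hP'
    obtain ⟨k', hk', hl', hlam'⟩ := hP'
    have hP'2 : Geo.LP2 K c lam2 x' P' := ⟨k', hk', hl', hlam'⟩
    have hcend : ∃ l', g.CEnd Q P'.length l' := by
      obtain ⟨k, hk, l, hend, hgood, _⟩ := hQ
      by_cases hkk : k' = k
      · subst hkk
        exact ⟨l, by rw [hl']; exact hend⟩
      · obtain ⟨l', h1, _⟩ := hgood k' hk' hkk
        exact ⟨l', by rw [hl']; exact h1⟩
    obtain ⟨l', hl2⟩ := hcend
    have hXX : g.XX (P' ++ Q.take l') := g.xx_of_cend (by rw [hl']; exact hc k' hk') hl2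
    have hpf : (P' ++ Q.take l') ++ Q.drop l' = P' ++ Q := by
      rw [List.append_assoc, List.take_append_drop]
    by_cases hg : (P' ++ Q.take l') ∈ D.Good
    · exact Or.inr (Or.inl ⟨_, hg, ⟨_, hpf⟩⟩)
    · have hbX : (P' ++ Q.take l') ∈ D.Bad := ⟨hXX, hg⟩
      obtain ⟨X2', h1, h2, h3⟩ := g.sound2 pre post (BadT := BadT) (K := K) (c := c)
        (lam2 := lam2) (rho2 := rho2) hc hex2' (R := []) (R' := Q.drop l') hXX (hBad _ hbX)
        hP'2 hQ (by rw [List.append_nil]; exact hpf.symm)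
      by_cases hg2 : X2' ∈ D.Good
      · exact Or.inr (Or.inr ⟨_, hbX, _, hg2, by rw [h2]⟩)
      · exact Or.inl ⟨_, hbX, _, ⟨h1, hg2⟩, h2, h3⟩

end Crest.Agent.R320.Fin_689
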