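import Mathlib.Computability.MyhillNerode
import Crest.Agent.R320.WallU_228
import Crest.Agent.R320.Code_110

/-!
# Row 320, P4 concrete: the block languages of the natural chain are in `HL 1` (helper440)

`XX n S z` = words of length `≥ z` ending in a (left-looking) wall, no wall at places `[z, |X|)`.
Every subset of `XX` (or of the words without a block as prefix) which is decided by
`(take B, φ (drop B), length mod P)` is regular and has few walls, hence `HL 1`.
-/

set_option autoImplicit false

namespace Crest.Agent.R320.P4_440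

open Crest.RegLang Crest.Agent.R320.Hk_851 Crest.Agent.R320.FewWalls_228
  Crest.Agent.R320.WallU_228 Crest.Agent.R320.FewVal_228

universe u

variable {α : Type u}

/-- the block code of the natural chain -/
def XX (n : ℕ) (S : Set (List α)) (z : ℕ) : Language α :=
  {X | z ≤ X.length ∧ Wo n S X ∧ ∀ t, z ≤ t → t < X.length → ¬ Wo n S (X.take t)}

theorem regular_of_key {β : Type*} {g : List α → β} (hfin : (Set.range g).Finite)
    (hg : ∀ w w' c, g w = g w' → g (w ++ [c]) = g (w' ++ [c])) (L : Language α)
    (hL : ∀ w w', g w = g w' → (w ∈ L ↔ w' ∈ L)) : L.IsRegular := by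
  classical
  have hg' : ∀ x w w', g w = g w' → g (w ++ x) = g (w' ++ x) := by
    intro x
    induction x with
    | nil => intro w w' h; simpa using h
    | cons c x ih =>
      intro w w' h
      have := ih (w ++ [c]) (w' ++ [c]) (hg w w' c h)
      simpa using this
  have hq : ∀ w w', g w = g w' → L.leftQuotient w = L.leftQuotient w' := by
    intro w w' h
    ext x
    rw [Language.mem_leftQuotient, Language.mem_leftQuotient]
    exact hL _ _ (hg' x w w' h)
  apply Language.isRegular_iff_finite_range_leftQuotient.2
  let F : β → Language α := fun b => if h : ∃ w, g w = b then L.leftQuotient h.choose else ⊥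
  refine (hfin.image F).subset ?_
  rintro _ ⟨w, rfl⟩
  refine ⟨g w, ⟨w, rfl⟩, ?_⟩
  have h : ∃ w', g w' = g w := ⟨w, rfl⟩
  show (if h : ∃ w', g w' = g w then L.leftQuotient h.choose else ⊥) = _
  rw [dif_pos h]
  exact hq _ _ h.choose_spec

section key

variable {Γ : Type*} [Monoid Γ] (φ : List α → Γ) (n : ℕ) (S : Set (List α)) (z B P : ℕ)

/-- a wall at a place in `[z, |w|)` -/
def Fl (w : List α) : Prop := ∃ t, z ≤ t ∧ t < w.length ∧ Wo n S (w.take t)

/-- the finite key of a word -/
def key (w : List α) : List α × List α × ZMod P × Γ × Prop :=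
  (w.take B, lastn n w, (w.length : ZMod P), φ (w.drop B), Fl n S z w)

variable {φ n S z B P}

theorem wo_lastn {w : List α} (h : n ≤ w.length) : Wo n S w ↔ Wo n S (lastn n w) := by
  have e : w = w.take (w.length - n) ++ lastn n w := (List.take_append_drop _ _).symm
  have hl : n ≤ (lastn n w).length := by
    unfold lastn; rw [List.length_drop]; omega
  conv_lhs => rw [e]
  exact wo_append _ _ hl

omit [Monoid Γ] in
theorem key_cases {w w' : List α} (h : key φ n S z B P w = key φ n S z B P w') :
    w = w' ∨ (B ≤ w.length ∧ B ≤ w'.length) := by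
  have h1 : w.take B = w'.take B := congrArg Prod.fst h
  by_cases hw : B ≤ w.length
  · by_cases hw' : B ≤ w'.length
    · exact Or.inr ⟨hw, hw'⟩
    · left
      have e : w'.take B = w' := List.take_of_length_le (by omega)
      have := congrArg List.length h1
      rw [e, List.length_take] at this
      omega
  · left
    have e : w.take B = w := List.take_of_length_le (by omega)
    have := congrArg List.length h1
    rw [e, List.length_take] at this
    have hw' : w'.length ≤ B := by omega
    rw [← e, h1, List.take_of_length_le hw']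

theorem fl_snoc {w : List α} {c : α} :
    Fl n S z (w ++ [c]) ↔ (Fl n S z w ∨ (z ≤ w.length ∧ Wo n S w)) := by
  unfold Fl
  constructor
  · rintro ⟨t, h1, h2, h3⟩
    rw [List.length_append, List.length_singleton] at h2
    rcases Nat.lt_or_ge t w.length with h | h
    · left
      rw [List.take_append_of_le_length (by omega)] at h3
      exact ⟨t, h1, h, h3⟩
    · right
      have : t = w.length := by omega
      subst this
      rw [List.take_append_of_le_length le_rfl, List.take_length] at h3
      exact ⟨h1, h3⟩
  · rintro (⟨t, h1, h2, h3⟩ | ⟨h1, h3⟩)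
    · refine ⟨t, h1, by rw [List.length_append]; omega, ?_⟩
      rw [List.take_append_of_le_length (by omega)]
      exact h3
    · refine ⟨w.length, h1, by rw [List.length_append]; simp, ?_⟩
      rw [List.take_append_of_le_length le_rfl, List.take_length]
      exact h3

theorem key_snoc (hφ : ∀ u v, φ (u ++ v) = φ u * φ v) (hn : n ≤ B) (hz : z ≤ B)
    {w w' : List α} (c : α)
    (h : key φ n S z B P w = key φ n S z B P w') :
    key φ n S z B P (w ++ [c]) = key φ n S z B P (w' ++ [c]) := by
  rcases key_cases h with rfl | ⟨h1, h2⟩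
  · rfl
  · unfold key at h ⊢
    simp only [Prod.mk.injEq] at h ⊢
    obtain ⟨e1, e2, e3, e4, e5⟩ := h
    refine ⟨?_, ?_, ?_, ?_, ?_⟩
    · rw [List.take_append_of_le_length h1, List.take_append_of_le_length h2, e1]
    · rw [lastn_snoc, lastn_snoc n w', e2]
    · rw [List.length_append, List.length_append, Nat.cast_add, Nat.cast_add, e3]
    · rw [List.drop_append_of_le_length h1, List.drop_append_of_le_length h2, hφ, hφ, e4]
    · apply propext
      rw [fl_snoc, fl_snoc, e5, wo_lastn (show n ≤ w.length by omega),
        wo_lastn (show n ≤ w'.length by omega), e2]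
      have hz' : z ≤ w.length ↔ z ≤ w'.length := by omega
      rw [hz']

theorem key_finite [Finite α] [Finite Γ] (hP : 0 < P) :
    (Set.range (key φ n S z B P)).Finite := by
  haveI : NeZero P := ⟨by omega⟩
  refine Set.Finite.subset (((List.finite_length_le α B).prod
    ((List.finite_length_le α n).prod ((Set.finite_univ (α := ZMod P)).prod
      ((Set.finite_univ (α := Γ)).prod (Set.finite_univ (α := Prop))))))) ?_
  rintro _ ⟨w, rfl⟩
  refine ⟨?_, ?_, trivial, trivial, trivial⟩
  · show (w.take B).length ≤ B
    rw [List.length_take]; omega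
  · exact lastn_length n w

theorem mem_XX_iff {w : List α} :
    w ∈ XX n S z ↔ (z ≤ w.length ∧ Wo n S w ∧ ¬ Fl n S z w) := by
  constructor
  · rintro ⟨h1, h2, h3⟩
    refine ⟨h1, h2, ?_⟩
    rintro ⟨t, a, b, c⟩
    exact h3 t a b c
  · rintro ⟨h1, h2, h3⟩
    exact ⟨h1, h2, fun t a b c => h3 ⟨t, a, b, c⟩⟩

/-- no block is a prefix -/
theorem noprefix_iff {w : List α} :
    (∀ u ∈ XX n S z, ¬ u <+: w) ↔ (¬ Fl n S z w ∧ ¬ (z ≤ w.length ∧ Wo n S w)) := by
  classical
  constructor
  · intro h
    have key : ∀ t, z ≤ t → t ≤ w.length → ¬ Wo n S (w.take t) := by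
      intro t
      induction t using Nat.strong_induction_on with
      | _ t ih =>
        intro h1 h2 h3
        apply h (w.take t) _ (List.take_prefix t w)
        have hl : (w.take t).length = t := by rw [List.length_take]; omega
        refine ⟨by omega, h3, ?_⟩
        intro t' a b c
        rw [hl] at b
        rw [List.take_take, Nat.min_eq_left (by omega)] at c
        exact ih t' b a (by omega) c
    refine ⟨?_, ?_⟩
    · rintro ⟨t, a, b, c⟩
      exact key t a (by omega) c
    · rintro ⟨a, b⟩
      exact key w.length a le_rfl (by rwa [List.take_length])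
  · rintro ⟨h1, h2⟩ u hu ⟨v, rfl⟩
    obtain ⟨a, b, c⟩ := hu
    rcases Nat.eq_zero_or_pos v.length with h0 | h0
    · have : v = [] := List.length_eq_zero_iff.1 h0
      subst this
      rw [List.append_nil] at h2
      exact h2 ⟨a, b⟩
    · apply h1
      refine ⟨u.length, a, by rw [List.length_append]; omega, ?_⟩
      rw [List.take_left]
      exact b

/-- the relations which the finite key decides -/
def Resp (φ : List α → Γ) (B P : ℕ) (R : List α → Prop) : Prop :=
  ∀ w w' : List α, B ≤ w.length → B ≤ w'.length → w.take B = w'.take B →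
    φ (w.drop B) = φ (w'.drop B) → w.length ≡ w'.length [MOD P] → (R w ↔ R w')

theorem reg_key [Finite α] [Finite Γ] (hφ : ∀ u v, φ (u ++ v) = φ u * φ v) (hn : n ≤ B)
    (hz : z ≤ B) (hP : 0 < P) {R : List α → Prop} (hR : Resp φ B P R) (Q : Prop → Prop → Prop) :
    Language.IsRegular ({w | (z ≤ w.length → Q (Wo n S w) (Fl n S z w)) ∧
      (w.length < z → Q (Wo n S w) (Fl n S z w)) ∧ R w} : Language α) := by
  apply regular_of_key (key_finite (φ := φ) (n := n) (S := S) (z := z) (B := B) hP)
    (fun w w' c h => key_snoc hφ hn hz c h)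
  intro w w' h
  rcases key_cases h with rfl | ⟨h1, h2⟩
  · exact Iff.rfl
  · unfold key at h
    simp only [Prod.mk.injEq] at h
    obtain ⟨e1, e2, e3, e4, e5⟩ := h
    have hr : R w ↔ R w' := hR w w' h1 h2 e1 e4 ((ZMod.natCast_eq_natCast_iff _ _ _).1 e3)
    have hw : Wo n S w = Wo n S w' := by
      apply propext
      rw [wo_lastn (show n ≤ w.length by omega), wo_lastn (show n ≤ w'.length by omega), e2]
    show (_ ∧ _ ∧ _) ↔ (_ ∧ _ ∧ _)
    rw [hw, e5, hr]
    have a1 : z ≤ w.length := by omega
    have a2 : z ≤ w'.length := by omega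
    have a3 : ¬ w.length < z := by omega
    have a4 : ¬ w'.length < z := by omega
    simp only [a1, a2, a3, a4, true_imp_iff, false_imp_iff]

theorem nw_of_mem {w : List α} (h : ∀ t, z ≤ t → t < w.length → ¬ Wo n S (w.take t)) :
    nw n S w ≤ z + 1 := by
  classical
  unfold nw
  refine le_trans (Finset.card_le_card (t := Finset.range z ∪ {w.length - n}) ?_) ?_
  · intro x hx
    rw [Finset.mem_filter] at hx
    obtain ⟨h1, h2⟩ := wo_take.1 hx.2
    rw [Finset.mem_union, Finset.mem_range, Finset.mem_singleton]
    by_contra hc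
    push Not at hc
    exact h (x + n) (by omega) (by omega) h2
  · refine le_trans (Finset.card_union_le _ _) ?_
    simp

variable [Finite α] [Finite Γ]

/-- **P4: every decidable-by-the-key set of blocks is in `HL 1`** -/
theorem HL_block (hφ : ∀ u v, φ (u ++ v) = φ u * φ v) (hn : n ≤ B)
    (hz : z ≤ B) (hP : 0 < P)
    (hfew : ∀ (L : Language α), L.IsRegular → ∀ r, HL 1 ({w | w ∈ L ∧ nw n S w ≤ r} : Language α))
    {R : List α → Prop} (hR : Resp φ B P R) :
    HL 1 ({X | X ∈ XX n S z ∧ R X} : Language α) := by
  have hreg : Language.IsRegular ({X | X ∈ XX n S z ∧ R X} : Language α) := by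
    apply regular_of_key (key_finite (φ := φ) (n := n) (S := S) (z := z) (B := B) hP)
      (fun w w' c h => key_snoc hφ hn hz c h)
    intro w w' h
    rcases key_cases h with rfl | ⟨h1, h2⟩
    · exact Iff.rfl
    · unfold key at h
      simp only [Prod.mk.injEq] at h
      obtain ⟨e1, e2, e3, e4, e5⟩ := h
      have hr : R w ↔ R w' := hR w w' h1 h2 e1 e4 ((ZMod.natCast_eq_natCast_iff _ _ _).1 e3)
      have hw : Wo n S w = Wo n S w' := by
        apply propext
        rw [wo_lastn (show n ≤ w.length by omega), wo_lastn (show n ≤ w'.length by omega), e2]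
      show (w ∈ XX n S z ∧ R w) ↔ (w' ∈ XX n S z ∧ R w')
      rw [mem_XX_iff, mem_XX_iff, hw, e5, hr]
      have a1 : z ≤ w.length ↔ z ≤ w'.length := by omega
      rw [a1]
  refine (hfew _ hreg (z + 1)).congr fun w => ?_
  constructor
  · intro h
    exact ⟨h, nw_of_mem h.1.2.2⟩
  · intro h
    exact h.1

/-- **P4: the rests** -/
theorem HL_rest (hφ : ∀ u v, φ (u ++ v) = φ u * φ v) (hn : n ≤ B)
    (hz : z ≤ B) (hP : 0 < P)
    (hfew : ∀ (L : Language α), L.IsRegular → ∀ r, HL 1 ({w | w ∈ L ∧ nw n S w ≤ r} : Language α))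
    {R : List α → Prop} (hR : Resp φ B P R) :
    HL 1 ({w | (∀ u ∈ XX n S z, ¬ u <+: w) ∧ R w} : Language α) := by
  have hreg : Language.IsRegular ({w | (∀ u ∈ XX n S z, ¬ u <+: w) ∧ R w} : Language α) := by
    apply regular_of_key (key_finite (φ := φ) (n := n) (S := S) (z := z) (B := B) hP)
      (fun w w' c h => key_snoc hφ hn hz c h)
    intro w w' h
    rcases key_cases h with rfl | ⟨h1, h2⟩
    · exact Iff.rfl
    · unfold key at h
      simp only [Prod.mk.injEq] at h
      obtain ⟨e1, e2, e3, e4, e5⟩ := h
      have hr : R w ↔ R w' := hR w w' h1 h2 e1 e4 ((ZMod.natCast_eq_natCast_iff _ _ _).1 e3)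
      have hw : Wo n S w = Wo n S w' := by
        apply propext
        rw [wo_lastn (show n ≤ w.length by omega), wo_lastn (show n ≤ w'.length by omega), e2]
      show ((∀ u ∈ XX n S z, ¬ u <+: w) ∧ R w) ↔ ((∀ u ∈ XX n S z, ¬ u <+: w') ∧ R w')
      rw [noprefix_iff, noprefix_iff, hw, e5, hr]
      have a1 : z ≤ w.length ↔ z ≤ w'.length := by omega
      rw [a1]
  refine (hfew _ hreg (z + 1)).congr fun w => ?_
  constructor
  · intro h
    refine ⟨h, nw_of_mem fun t a b c => ?_⟩
    exact (noprefix_iff.1 h.1).1 ⟨t, a, b, c⟩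
  · intro h
    exact h.1

end key

/-- the blocks form a prefix code -/
theorem pc_XX {n : ℕ} {S : Set (List α)} {z : ℕ} (hz : 0 < z) :
    Crest.Agent.R320.Code110.PC (XX n S z) where
  ne := by
    rintro ⟨h, -⟩
    simp at h
    omega
  pf := by
    rintro u ⟨h1, h2, h3⟩ v ⟨k1, k2, k3⟩ ⟨w, rfl⟩
    rcases Nat.eq_zero_or_pos w.length with h0 | h0
    · have : w = [] := List.length_eq_zero_iff.1 h0
      rw [this, List.append_nil]
    · exfalso
      apply k3 u.length h1 (by rw [List.length_append]; omega)
      rw [List.take_left]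
      exact h2

end Crest.Agent.R320.P4_440
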