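import Crest.Agent.R320.Top5_120
import Crest.Agent.R320.Sc2n_937
import Crest.Agent.R320.P4_440

/-!
Row 320: join of `Top5_120.top5`, `Sc2n_937`, `P4_440` (helper694).
-/

set_option autoImplicit false

namespace Crest.Agent.R320.FinA_694

open Crest.RegLang Crest.Agent.R320.Hk_851 Crest.Agent.R320.Sc2n_937
  Crest.Agent.R320.WallU_228 Crest.Agent.R320.Blk467

variable {α : Type} [Finite α] {S V : Type} [Monoid S] [Finite S] [AddCommGroup V] [Finite V]

theorem core (act : V → S → V)
    (hadd : ∀ a b s, act (a + b) s = act a s + act b s)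
    (hone : ∀ v, act v 1 = v) (hmul : ∀ v s t, act v (s * t) = act (act v s) t)
    (hfaith : ∀ s t, (∀ v, act v s = act v t) → s = t)
    (f : α → S) (g : Geo α) (Sw : Set (List α)) (hW : g.Wo = Wo g.n Sw)
    (hfew : ∀ (L : Language α), L.IsRegular → ∀ r,
      HL 1 ({w | w ∈ L ∧ FewWalls_228.nw g.n Sw w ≤ r} : Language α))
    (lam rho : List α → Option V) (nu1 : List α → V) (BadT : ℕ → Prop) (A M0 : ℕ) (hM0 : 0 < M0)
    (hlen : ∀ P v, lam P = some v → P.length ≤ g.N1)
    (hex : ∀ P Q u b, lam P = some u → rho Q = some b →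
      b = act u ((P ++ Q).map f).prod + nu1 (P ++ Q))
    (hcomp : ∀ Y : List α, g.q0 + g.N1 ≤ Y.length → ¬ BadT Y.length → ∀ u, ∃ P Q, Y = P ++ Q ∧
      lam P = some u ∧ (rho Q).isSome)
    (hfs : ∀ Y Y' : List α, A ≤ Y.length → A ≤ Y'.length → Y.take A = Y'.take A →
      Y.length ≡ Y'.length [MOD M0] → (Y.map f).prod = (Y'.map f).prod → nu1 Y = nu1 Y')
    (hBT : ∀ T T', A ≤ T → A ≤ T' → T ≡ T' [MOD M0] → (BadT T ↔ BadT T'))
    (K C0 : ℕ) (c : ℕ → ℕ) (lam2 rho2 : ℕ → List α → Option V) (nu2 : List α → V)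
    (hc : ∀ k, k < K → c k ≤ g.p0)
    (hex2 : ∀ k, k < K → ∀ P Q v u, P.length = c k → Q.length = g.p0 - c k →
      lam2 k P = some v → rho2 k Q = some u → u = act v ((P ++ Q).map f).prod + nu2 (P ++ Q))
    (hI : ∀ X0 : List α, X0.length = g.p0 → ∀ v, ∃ I : Finset ℕ, 2 * C0 + 2 ≤ I.card ∧
      ∀ k ∈ I, k < K ∧ lam2 k (X0.take (c k)) = some v ∧ (rho2 k (X0.drop (c k))).isSome)
    (hgap : ∀ P Q : List α, g.Wo P → g.Wo (P ++ Q) → Q ≠ [] → 2 * g.p0 + 2 * g.N1 < Q.length)
    (hsp : ∀ k k' l l', k < K → k' < K → l < K → l' < K → k' ≠ k → l' ≠ l →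
      c k + c l' < c l + c k' + 2 * g.N1 → c l + c k' < c k + c l' + 2 * g.N1 → k = l)
    (hthin : ∀ τ, g.z ≤ τ + g.p0 → ∀ J : Finset ℕ, (∀ k ∈ J, k < K ∧
      ∃ k', k' < K ∧ k' ≠ k ∧ BadT (τ + c k' - c k - g.p0)) → J.card ≤ C0)
    (s : S) : HL 3 ({w | (w.map f).prod = s} : Language α) := by
  classical
  have hz := g.hz
  have hNpos := g.hN
  set ph : List α → S := fun w => (w.map f).prod with hph
  have phm : ∀ u v, ph (u ++ v) = ph u * ph v := fun u v => by
    simp only [hph, List.map_append, List.prod_append]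
  set pre : List α → V → V := fun X0 v => act v (ph X0) + nu2 X0 with hpre
  set post : V → List α → V := fun u Y => act u (ph Y) + nu1 Y with hpost
  set nu : List α → V := fun X =>
    act (nu2 (X.take g.p0)) (ph (X.drop g.p0)) + nu1 (X.drop g.p0) with hnu
  have hT : ∀ v X, g.T pre post v X = act v (ph X) + nu X := by
    intro v X
    have e : ph X = ph (X.take g.p0) * ph (X.drop g.p0) := by
      rw [← phm, List.take_append_drop]
    show act (act v (ph (X.take g.p0)) + nu2 (X.take g.p0)) (ph (X.drop g.p0)) +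
      nu1 (X.drop g.p0) = act v (ph X) + nu X
    rw [hadd, e, hmul, add_assoc]
  set C : Set (List α) := {X | g.XX X} with hC
  set Bad : Set (List α) := {X | g.XX X ∧ g.BadX BadT X} with hBad
  have hPC : PCode C := by
    refine ⟨?_, ?_⟩
    · rintro ⟨h, -⟩
      simp at h
      omega
    · rintro X hX Y hY ⟨R, hR⟩
      exact g.prefix_code (R := R) (R' := []) hX hY (by rw [hR, List.append_nil])
  set Bc : ℕ := g.z + g.N1 + A + g.n with hBc
  -- responsiveness
  have hphw : ∀ w w' : List α, w.take Bc = w'.take Bc → ph (w.drop Bc) = ph (w'.drop Bc) →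
      ph w = ph w' := by
    intro w w' h1 h2
    rw [← List.take_append_drop Bc w, ← List.take_append_drop Bc w', phm, phm, h1, h2]
  have hnuw : ∀ w w' : List α, Bc ≤ w.length → Bc ≤ w'.length → w.take Bc = w'.take Bc →
      ph (w.drop Bc) = ph (w'.drop Bc) → w.length ≡ w'.length [MOD M0] → nu w = nu w' := by
    intro w w' hw hw' h1 h2 h3
    have e1 : w.take g.p0 = w'.take g.p0 := by
      have := congrArg (List.take g.p0) h1
      rwa [List.take_take, List.take_take, min_eq_left (by omega)] at this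
    have e2 : ∀ w : List α, w.drop g.p0 = (w.take Bc).drop g.p0 ++ w.drop Bc := by
      intro w
      conv_lhs => rw [← List.take_append_drop Bc w]
      rcases Nat.le_total Bc w.length with h | h
      · rw [List.drop_append_of_le_length (by rw [List.length_take]; omega)]
      · rw [List.drop_of_length_le h, List.append_nil, List.append_nil]
    have e3 : ph (w.drop g.p0) = ph (w'.drop g.p0) := by
      rw [e2 w, e2 w', phm, phm, h1, h2]
    have e4 : nu1 (w.drop g.p0) = nu1 (w'.drop g.p0) := by
      refine hfs _ _ (by rw [List.length_drop]; omega) (by rw [List.length_drop]; omega) ?_ ?_ e3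
      · have := congrArg (fun l => (l.drop g.p0).take A) h1
        simp only [List.drop_take, List.take_take] at this
        rwa [min_eq_left (by omega)] at this
      · rw [List.length_drop, List.length_drop]
        have a1 : w.length = g.p0 + (w.length - g.p0) := by omega
        have a2 : w'.length = g.p0 + (w'.length - g.p0) := by omega
        rw [a1, a2] at h3
        exact Nat.ModEq.add_left_cancel' _ h3
    show act _ _ + _ = act _ _ + _
    rw [e1, e3, e4]
  have hbadw : ∀ w w' : List α, Bc ≤ w.length → Bc ≤ w'.length → w.take Bc = w'.take Bc →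
      w.length ≡ w'.length [MOD M0] → (g.BadX BadT w → g.BadX BadT w') := by
    intro w w' hw hw' h1 h3 hb
    rcases hb with ⟨t, ht, h4, h5, h6⟩ | hb
    · left
      refine ⟨t, by omega, ?_, h5, h6⟩
      have := congrArg (List.take t) h1
      rw [List.take_take, List.take_take, min_eq_left (by omega)] at this
      rwa [← this]
    · right
      refine (hBT _ _ (by omega) (by omega) ?_).1 hb
      have a1 : w.length = g.p0 + (w.length - g.p0) := by omega
      have a2 : w'.length = g.p0 + (w'.length - g.p0) := by omega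
      rw [a1, a2] at h3
      exact Nat.ModEq.add_left_cancel' _ h3
  have hblock : ∀ R : List α → Prop, P4_440.Resp ph Bc M0 R →
      HL 1 ({X | X ∈ C ∧ R X} : Language α) := by
    intro R hR
    have := P4_440.HL_block (n := g.n) (S := Sw) (z := g.z) (φ := ph) (B := Bc) (P := M0) phm
      (by omega) (by omega) hM0 hfew hR
    refine this.congr fun w => ?_
    show (g.XX w ∧ R w) ↔ ((g.z ≤ w.length ∧ Wo g.n Sw w ∧
      ∀ t, g.z ≤ t → t < w.length → ¬ Wo g.n Sw (w.take t)) ∧ R w)
    unfold Geo.XX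
    rw [hW]
  have hCT : ∀ x y, HL 1 ({X | X ∈ C ∧ act x (X.map f).prod + nu X = y} : Language α) := by
    intro x y
    refine hblock (fun X => act x (X.map f).prod + nu X = y) ?_
    intro w w' hw hw' h1 h2 h3
    have e1 := hphw w w' h1 h2
    have e2 := hnuw w w' hw hw' h1 h2 h3
    show (act x (ph w) + nu w = y) ↔ (act x (ph w') + nu w' = y)
    rw [e1, e2]
  have hBT' : ∀ x y, HL 1 ({X | X ∈ Bad ∧ act x (X.map f).prod + nu X = y} : Language α) := by
    intro x y
    have := hblock (fun X => g.BadX BadT X ∧ act x (X.map f).prod + nu X = y) (by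
      intro w w' hw hw' h1 h2 h3
      have e1 := hphw w w' h1 h2
      have e2 := hnuw w w' hw hw' h1 h2 h3
      show (g.BadX BadT w ∧ act x (ph w) + nu w = y) ↔
        (g.BadX BadT w' ∧ act x (ph w') + nu w' = y)
      rw [e1, e2]
      exact and_congr_left fun _ => ⟨hbadw w w' hw hw' h1 h3, hbadw w' w hw' hw h1.symm h3.symm⟩)
    refine this.congr fun w => ?_
    show ((g.XX w ∧ g.BadX BadT w) ∧ _) ↔ (g.XX w ∧ g.BadX BadT w ∧ _)
    exact and_assoc
  have htail : ∀ s, HL 1 ({w | (∀ X ∈ C, ¬ X <+: w) ∧ (w.map f).prod = s} : Language α) := by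
    intro s
    have := P4_440.HL_rest (n := g.n) (S := Sw) (z := g.z) (φ := ph) (B := Bc) (P := M0) phm
      (by omega) (by omega) hM0 hfew (R := fun w => ph w = s) (by
        intro w w' hw hw' h1 h2 h3
        show ph w = s ↔ ph w' = s
        rw [hphw w w' h1 h2])
    refine this.congr fun w => ?_
    have : ∀ X, X ∈ C ↔ X ∈ P4_440.XX g.n Sw g.z := by
      intro X
      show (g.XX X) ↔ (g.z ≤ X.length ∧ Wo g.n Sw X ∧
        ∀ t, g.z ≤ t → t < X.length → ¬ Wo g.n Sw (X.take t))
      unfold Geo.XX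
      rw [hW]
    constructor
    · rintro ⟨h1, h2⟩
      exact ⟨fun X hX => h1 X ((this X).2 hX), h2⟩
    · rintro ⟨h1, h2⟩
      exact ⟨fun X hX => h1 X ((this X).1 hX), h2⟩
  refine Top5_120.top5 act hadd hone hmul hfaith f nu C Bad hPC (fun X hX => hX.1)
    (fun v => {P | g.LP1 pre lam v P}) (fun v => {P | Geo.LP2 K c lam2 v P}) ?_ ?_ hCT hBT' htail
    ?_ ?_ s
  · intro v
    refine (List.finite_length_le α (g.p0 + g.N1)).subset ?_
    rintro P ⟨h1, h2⟩
    have := hlen _ _ h2
    rw [List.length_drop] at this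
    show P.length ≤ _
    omega
  · intro v
    refine (List.finite_length_le α g.p0).subset ?_
    rintro P ⟨k, hk, h1, h2⟩
    have := hc k hk
    show P.length ≤ _
    omega
  · -- hcc1
    intro X hX hXb v
    have hXz : g.z ≤ X.length := hX.1
    have hE : ¬ g.E X := fun h => hXb ⟨hX, Or.inl h⟩
    have hB : ¬ BadT (X.length - g.p0) := fun h => hXb ⟨hX, Or.inr h⟩
    obtain ⟨P, Q, b, e, hP, hQ⟩ := g.complete1 pre hlen hX hE
      (hcomp (X.drop g.p0) (by rw [List.length_drop]; omega) (by rw [List.length_drop]; exact hB)) v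
    have hs := g.sound1 pre post hlen hex hP hQ
    refine ⟨P, Q, e.symm, hP, fun x P' hP' => ?_⟩
    have hs' := g.sound1 pre post hlen hex hP' hQ
    refine ⟨hs'.1, ?_⟩
    have a1 := hs'.2
    have a2 := hs.2
    rw [← e] at a2
    rw [hT] at a1 a2
    exact a1.trans a2.symm
  · -- hcc2
    intro X hX Y hY v
    obtain ⟨P, Q, b, e, hP, hQ⟩ := g.complete2 pre post (BadT := BadT) (K := K) (c := c)
      (lam2 := lam2) (rho2 := rho2) (C0 := C0) hc hgap hsp hthin hX.1 hY.1 v (by
        have hXz : g.z ≤ X.length := hX.1.1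
        obtain ⟨I, h1, h2⟩ := hI (X.take g.p0) (by rw [List.length_take]; omega) v
        refine ⟨I, h1, fun k hk => ?_⟩
        obtain ⟨h3, h4, h5⟩ := h2 k hk
        have := hc k h3
        rw [List.take_take, min_eq_left this] at h4
        exact ⟨h3, h4, h5⟩)
    have hex2' : ∀ k, k < K → ∀ P Q v u, P.length = c k → Q.length = g.p0 - c k →
        lam2 k P = some v → rho2 k Q = some u → u = pre (P ++ Q) v := hex2
    have hs := g.sound2 pre post hc hex2' (R := []) (R' := Y) hX.1 hX.2 hP hQ
      (by rw [List.append_nil, e])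
    obtain ⟨X2, h1, h2, h3⟩ := hs
    have hX2 : X2 = Y := List.append_cancel_left (h2.symm.trans e)
    subst hX2
    refine ⟨P, Q, e, hP, fun x P' hP' => ?_⟩
    have hQ' := hQ
    obtain ⟨k, hk, l, hend, hgood, hrest⟩ := hQ'
    obtain ⟨k', hk', hl', hlam'⟩ := id hP'
    by_cases hkk : k' = k
    · subst hkk
      have hXX : g.XX (P' ++ Q.take l) :=
        g.xx_of_cend (by rw [hl']; exact hc _ hk') (by rw [hl']; exact hend)
      by_cases hbad : g.BadX BadT (P' ++ Q.take l)
      · left
        obtain ⟨X3, g1, g2, g3⟩ := g.sound2 pre post hc hex2' (R := []) (R' := Q.drop l) hXX hbad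
          hP' hQ (by rw [List.append_nil, List.append_assoc, List.take_append_drop])
        refine ⟨P' ++ Q.take l, ⟨hXX, hbad⟩, X3, g1, g2.symm, ?_⟩
        rw [hT, hT] at g3 h3
        exact g3.trans h3.symm
      · right
        refine ⟨P' ++ Q.take l, hXX, fun h => hbad h.2, ⟨Q.drop l, ?_⟩⟩
        rw [List.append_assoc, List.take_append_drop]
    · right
      obtain ⟨l', he', hg'⟩ := hgood k' hk' hkk
      have hXX : g.XX (P' ++ Q.take l') :=
        g.xx_of_cend (by rw [hl']; exact hc _ hk') (by rw [hl']; exact he')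
      refine ⟨P' ++ Q.take l', hXX, fun h => hg' ?_, ⟨Q.drop l', ?_⟩⟩
      · have := g.cbad_of_bad (BadT := BadT) (P := P') (Q := Q) (l := l')
          (by rw [hl']; exact hc _ hk') (by rw [hl']; exact he') h.2
        rwa [hl'] at this
      · rw [List.append_assoc, List.take_append_drop]

end Crest.Agent.R320.FinA_694
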