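import Crest.Agent.R320.Top5_120
import Crest.Agent.R320.Sc2n_937
import Crest.Agent.R320.Fib_854

/-!
Row 320 (helper743): assembly of Top5_120.top5 from Sc2n_937 (both schemes, natural chain rule) and
Fib_854 (height 1 of the block languages).
-/

set_option autoImplicit false

namespace Crest.Agent.R320.FinA_743

open Crest.RegLang Crest.Agent.R320.Hk_851 Crest.Agent.R320.Blk467
open Crest.Agent.R320.Sc2n_937

variable {α S V : Type} [Monoid S] [AddCommGroup V]

/-- product -/
def ph (φ : α → S) (w : List α) : S := (w.map φ).prod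

theorem ph_append (φ : α → S) (u v : List α) : ph φ (u ++ v) = ph φ u * ph φ v := by
  unfold ph; rw [List.map_append, List.prod_append]

/-- pre and post of Sc2n_937 -/
def pre (act : V → S → V) (φ : α → S) (nu2 : List α → V) (X : List α) (v : V) : V :=
  act v (ph φ X) + nu2 X
def post (act : V → S → V) (φ : α → S) (nu1 : List α → V) (u : V) (Y : List α) : V :=
  act u (ph φ Y) + nu1 Y
def nu (act : V → S → V) (φ : α → S) (nu1 nu2 : List α → V) (p0 : ℕ) (X : List α) : V :=
  act (nu2 (X.take p0)) (ph φ (X.drop p0)) + nu1 (X.drop p0)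

theorem T_eq (act : V → S → V)
    (hadd : ∀ a b s, act (a + b) s = act a s + act b s)
    (hmul : ∀ v s t, act v (s * t) = act (act v s) t)
    (φ : α → S) (nu1 nu2 : List α → V) (g : Geo α) (v : V) (X : List α) :
    g.T (pre act φ nu2) (post act φ nu1) v X =
      act v (X.map φ).prod + nu act φ nu1 nu2 g.p0 X := by
  have h : (X.map φ).prod = ph φ (X.take g.p0) * ph φ (X.drop g.p0) := by
    rw [← ph_append, List.take_append_drop]; rfl
  rw [h]
  unfold Geo.T pre post nu
  rw [hadd, hmul, add_assoc]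

theorem asm [Finite α] [Finite S] [Finite V] (act : V → S → V)
    (hadd : ∀ a b s, act (a + b) s = act a s + act b s)
    (hone : ∀ v, act v 1 = v) (hmul : ∀ v s t, act v (s * t) = act (act v s) t)
    (hfaith : ∀ s t, (∀ v, act v s = act v t) → s = t)
    (φ : α → S) (g : Geo α) (B : ℕ) (hlenW : ∀ Q, g.Wo Q → g.n ≤ Q.length) (hn : 0 < g.n)
    (hfew : ∀ X : List α, (∀ t, t < X.length → ¬ g.Wo (X.take t)) → ∃ (u x : List α) (k : ℕ)
      (v : List α), u.length ≤ B ∧ x.length ≤ B ∧ v.length ≤ B ∧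
      X = u ++ (List.replicate k x).flatten ++ v)
    (lam rho : List α → Option V) (nu1 nu2 : List α → V) (BadT : ℕ → Prop)
    (hlen : ∀ P v, lam P = some v → P.length ≤ g.N1)
    (hsnd : ∀ P Q u b, lam P = some u → rho Q = some b → b = act u (ph φ (P ++ Q)) + nu1 (P ++ Q))
    (hcmp : ∀ Y : List α, g.z ≤ Y.length + g.p0 → ¬ BadT Y.length → ∀ u, ∃ P Q, Y = P ++ Q ∧
      lam P = some u ∧ (rho Q).isSome)
    (K C0 : ℕ) (c : ℕ → ℕ) (lam2 rho2 : ℕ → List α → Option V)
    (hc : ∀ k, k < K → c k ≤ g.p0)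
    (hex2 : ∀ k, k < K → ∀ P Q v u, P.length = c k → Q.length = g.p0 - c k →
      lam2 k P = some v → rho2 k Q = some u → u = act v (ph φ (P ++ Q)) + nu2 (P ++ Q))
    (hI : ∀ (u : List α) (v : V), u.length = g.p0 → ∃ I : Finset ℕ, 2 * C0 + 2 ≤ I.card ∧
      ∀ k ∈ I, k < K ∧ lam2 k (u.take (c k)) = some v ∧ (rho2 k (u.drop (c k))).isSome)
    (hgap : ∀ P Q : List α, g.Wo P → g.Wo (P ++ Q) → Q ≠ [] → 2 * g.p0 + 2 * g.N1 < Q.length)
    (hsp : ∀ k k' l l', k < K → k' < K → l < K → l' < K → k' ≠ k → l' ≠ l →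
      c k + c l' < c l + c k' + 2 * g.N1 → c l + c k' < c k + c l' + 2 * g.N1 → k = l)
    (hthin : ∀ τ, g.z ≤ τ + g.p0 → ∀ J : Finset ℕ, (∀ k ∈ J, k < K ∧
      ∃ k', k' < K ∧ k' ≠ k ∧ BadT (τ + c k' - c k - g.p0)) → J.card ≤ C0)
    (hkey : ∀ x, Fib_854.Key (fun X : List α => (g.BadX BadT X,
      act x (X.map φ).prod + nu act φ nu1 nu2 g.p0 X)))
    (s : S) : HL 3 ({w | (w.map φ).prod = s} : Language α) := by
  classical
  have hz := g.hz
  have hq := g.hq
  set C : Set (List α) := {X | g.XX X} with hC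
  set Bad : Set (List α) := {X | g.XX X ∧ g.BadX BadT X} with hBad
  have hT := T_eq act hadd hmul φ nu1 nu2 g
  have hXX : ∀ X, X ∈ Fib_854.XX g.Wo g.z ↔ g.XX X := fun X => Iff.rfl
  have hpre : ∀ X Y R : List α, g.XX X → g.XX Y → X ++ R = Y → X = Y := by
    intro X Y R h1 h2 h
    exact g.prefix_code (R := R) (R' := []) h1 h2 (by rw [List.append_nil]; exact h)
  have hPC : PCode C := by
    refine ⟨fun h => ?_, fun X hX Y hY h => ?_⟩
    · have : g.XX ([] : List α) := h
      have h1 := this.1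
      have h2 := hlenW _ this.2.1
      simp at h2
      omega
    · obtain ⟨R, hR⟩ := h
      exact hpre X Y R hX hY hR
  have hfib := fun (x y : V) (p : Prop) => Fib_854.fib g.loc hlenW hn (by omega : g.n ≤ g.z) hfew
    _ (hkey x) (p, y)
  have hex1' : ∀ (P Q : List α) (u b : V), lam P = some u → rho Q = some b →
      b = post act φ nu1 u (P ++ Q) := hsnd
  have hex2' : ∀ k, k < K → ∀ P Q v u, P.length = c k → Q.length = g.p0 - c k →
      lam2 k P = some v → rho2 k Q = some u → u = pre act φ nu2 (P ++ Q) v := hex2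
  let L1 : V → Set (List α) := fun v => {P | g.LP1 (pre act φ nu2) lam v P}
  let L2 : V → Set (List α) := fun v => {P | Geo.LP2 K c lam2 v P}
  have hf1 : ∀ v, (L1 v).Finite := by
    intro v
    refine (List.finite_length_le α (g.p0 + g.N1)).subset ?_
    rintro P ⟨h1, h2⟩
    have h3 := hlen _ _ h2
    rw [List.length_drop] at h3
    change P.length ≤ g.p0 + g.N1
    omega
  have hf2 : ∀ v, (L2 v).Finite := by
    intro v
    refine (List.finite_length_le α g.p0).subset ?_
    rintro P ⟨k, h1, h2, h3⟩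
    have := hc k h1
    change P.length ≤ g.p0
    omega
  refine Top5_120.top5 act hadd hone hmul hfaith φ (nu act φ nu1 nu2 g.p0) C Bad hPC
    (fun X h => h.1) L1 L2 hf1 hf2 ?_ ?_ ?_ ?_ ?_ s
  · intro x y
    refine ((hfib x y True).setOf_or (hfib x y False)).congr fun X => Iff.symm ?_
    constructor
    · rintro (⟨h1, h2⟩ | ⟨h1, h2⟩) <;> exact ⟨h1, congrArg Prod.snd h2⟩
    · rintro ⟨h1, h2⟩
      by_cases hb : g.BadX BadT X
      · exact Or.inl ⟨h1, Prod.ext (by simpa using hb) h2⟩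
      · exact Or.inr ⟨h1, Prod.ext (by simpa using hb) h2⟩
  · intro x y
    refine (hfib x y True).congr fun X => Iff.symm ?_
    constructor
    · rintro ⟨h1, h2⟩
      exact ⟨⟨h1, by simpa using congrArg Prod.fst h2⟩, congrArg Prod.snd h2⟩
    · rintro ⟨⟨h1, hb⟩, h2⟩
      exact ⟨h1, Prod.ext (by simpa using hb) h2⟩
  · intro s
    exact Fib_854.tail φ g.loc hlenW hn (by omega : g.n ≤ g.z) hfew s
  · intro X hX hXb v
    have hXX : g.XX X := hX
    have hnb : ¬ g.BadX BadT X := fun h => hXb ⟨hXX, h⟩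
    have hE : ¬ g.E X := fun h => hnb (Or.inl h)
    have hBT : ¬ BadT (X.length - g.p0) := fun h => hnb (Or.inr h)
    obtain ⟨P, Q, b, e, hP, hQ⟩ := g.complete1 (pre act φ nu2) hlen hXX hE
      (fun u => hcmp (X.drop g.p0) (by rw [List.length_drop]; have := hXX.1; omega)
        (by rw [List.length_drop]; exact hBT) u) v
    have h1 := g.sound1 (pre act φ nu2) (post act φ nu1) hlen hex1' hP hQ
    refine ⟨P, Q, e.symm, hP, fun x P' hP' => ?_⟩
    have h2 := g.sound1 (pre act φ nu2) (post act φ nu1) hlen hex1' hP' hQ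
    refine ⟨h2.1, ?_⟩
    rw [← hT, ← hT, h2.2, ← h1.2, e]
  · intro X hX Y hY v
    obtain ⟨hX1, hX2⟩ := hX
    obtain ⟨hY1, hY2⟩ := hY
    have hXz := hX1.1
    obtain ⟨P, Q, b, e, hP, hQ⟩ := g.complete2 (pre act φ nu2) (post act φ nu1) hc hgap hsp hthin
      hX1 hY1 v (by
        obtain ⟨I, hI1, hI2⟩ := hI (X.take g.p0) v (by rw [List.length_take]; omega)
        refine ⟨I, hI1, fun k hk => ?_⟩
        obtain ⟨h1, h2, h3⟩ := hI2 k hk
        refine ⟨h1, ?_, h3⟩
        rw [List.take_take, min_eq_left (hc k h1)] at h2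
        exact h2)
    obtain ⟨X2, hX2x, hX2e, hb⟩ := g.sound2 (pre act φ nu2) (post act φ nu1) hc hex2' hX1 hX2 hP hQ
      (R := []) (R' := Y) (by rw [List.append_nil]; exact e)
    have hYe : X2 = Y := List.append_cancel_left (hX2e.symm.trans e)
    subst hYe
    refine ⟨P, Q, e, hP, fun x P' hP' => ?_⟩
    obtain ⟨k', hk', hPl', hlam'⟩ := hP'
    have hQ0 := hQ
    obtain ⟨k, hk, l, hend, hgood, -⟩ := hQ0
    obtain ⟨l', hl'⟩ : ∃ l', g.CEnd Q (c k') l' := by
      by_cases h : k' = k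
      · subst h; exact ⟨l, hend⟩
      · obtain ⟨l', h1, -⟩ := hgood k' hk' h
        exact ⟨l', h1⟩
    have hXX' : g.XX (P' ++ Q.take l') := g.xx_of_cend (by rw [hPl']; exact hc k' hk')
      (by rw [hPl']; exact hl')
    by_cases hb' : g.BadX BadT (P' ++ Q.take l')
    · left
      obtain ⟨X3, h1, h2, h3⟩ := g.sound2 (pre act φ nu2) (post act φ nu1) hc hex2' hXX' hb'
        (v := x) (P := P') (Q := Q) (b := b) (R := []) (R' := Q.drop l')
        ⟨k', hk', hPl', hlam'⟩ hQ (by
          rw [List.append_nil, List.append_assoc, List.take_append_drop])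
      refine ⟨P' ++ Q.take l', ⟨hXX', hb'⟩, X3, h1, h2.symm, ?_⟩
      rw [← hT, ← hT, ← hT, ← hT, h3, hb]
    · right
      exact ⟨P' ++ Q.take l', hXX', fun h => hb' h.2, ⟨Q.drop l', by
        rw [List.append_assoc, List.take_append_drop]⟩⟩

end Crest.Agent.R320.FinA_743
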