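import Crest.Agent.R320.Top5_110

/-!
# Row 320: the two wall schemes on the natural block code (helper751)

Left-looking walls `Wo` (window `n`, separation `W`), blocks `XX` = words whose first wall at a place
`≥ z` is their end; scheme 1 = an unknown-length gadget `lam1 rho1 nu1` right of `p0`;
scheme 2 = an exact gadget `lam2 rho2 nu2` on words of length `p0`.
Conclusion = the hypotheses C1, C2 of `Top5_110.top_sem`.
-/

set_option autoImplicit false
set_option linter.unusedVariables false
set_option linter.unusedSectionVars false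

open Crest.Agent.R320.Hk_851 Crest.Agent.R320.Code110 Crest.Agent.R320.Top5_110

namespace Crest.Agent.R320.FinA_751

universe u

variable {α : Type u} {S : Type*} [Monoid S] {V : Type*} [AddCommGroup V]

/-- blocks -/
def XX (Wo : List α → Prop) (z : ℕ) : Language α :=
  {X | z ≤ X.length ∧ Wo X ∧ ∀ t, z ≤ t → t < X.length → ¬ Wo (X.take t)}

/-- token map of a block -/
def TT (φ : List α → S) (act : V → S → V) (p0 : ℕ) (nu1 nu2 : List α → V) (X : List α) (v : V) :
    V :=
  act (act v (φ (X.take p0)) + nu2 (X.take p0)) (φ (X.drop p0)) + nu1 (X.drop p0)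

/-- left words of scheme 1 -/
def LL1 (φ : List α → S) (act : V → S → V) (p0 : ℕ) (nu2 : List α → V)
    (lam : List α → Option V) (x : V) : Language α :=
  {P | p0 ≤ P.length ∧ lam (P.drop p0) = some (act x (φ (P.take p0)) + nu2 (P.take p0))}

/-- left words of scheme 2 -/
def LL2 (lam2 : List α → Option V) (x : V) : Language α := {P | lam2 P = some x}

variable {Wo : List α → Prop} {z : ℕ}

theorem first_block {w : List α} (h : Wo w) (hz : z ≤ w.length) :
    ∃ u r, w = u ++ r ∧ u ∈ XX Wo z := by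
  classical
  have hex : ∃ t, z ≤ t ∧ t ≤ w.length ∧ Wo (w.take t) :=
    ⟨w.length, hz, le_rfl, by rwa [List.take_length]⟩
  obtain ⟨h1, h2, h3⟩ := Nat.find_spec hex
  set t0 := Nat.find hex with ht0
  have hl : (w.take t0).length = t0 := by rw [List.length_take]; omega
  refine ⟨w.take t0, w.drop t0, (List.take_append_drop _ _).symm, ?_, h3, ?_⟩
  · rw [hl]; exact h1
  · intro t htz htl ht
    rw [hl] at htl
    rw [List.take_take, min_eq_left htl.le] at ht
    exact Nat.find_min hex htl ⟨htz, by omega, ht⟩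

theorem pc (hz : 0 < z) : PC (XX Wo z) where
  ne := by
    rintro ⟨h, -⟩
    simp only [List.length_nil] at h
    omega
  pf := by
    rintro u ⟨hu1, hu2, hu3⟩ v ⟨hv1, hv2, hv3⟩ ⟨r, rfl⟩
    by_contra hne
    have hr : 0 < r.length := by
      rcases Nat.eq_zero_or_pos r.length with h | h
      · have := List.length_eq_zero_iff.1 h
        subst this
        simp at hne
      · exact h
    refine hv3 u.length hu1 (by rw [List.length_append]; omega) ?_
    rw [List.take_left]
    exact hu2

/-- the hypotheses on the walls -/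
structure Walls (Wo : List α → Prop) (n W : ℕ) : Prop where
  loc : ∀ P Q : List α, n ≤ Q.length → (Wo (P ++ Q) ↔ Wo Q)
  sep : ∀ (w : List α) (s t : ℕ), s < t → t ≤ w.length → Wo (w.take s) → Wo (w.take t) → s + W ≤ t

/-- reading walls through a change of the left part -/
theorem Walls.shift {n W : ℕ} (h : Walls Wo n W) {p p' q : List α} {t : ℕ}
    (ht : p.length + n ≤ t) (htl : t ≤ p.length + q.length) :
    Wo ((p ++ q).take t) ↔ Wo ((p' ++ q).take (t - p.length + p'.length)) := by
  have e1 : (p ++ q).take t = p ++ q.take (t - p.length) := by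
    rw [List.take_append, List.take_of_length_le (by omega)]
  have e2 : (p' ++ q).take (t - p.length + p'.length) = p' ++ q.take (t - p.length) := by
    rw [List.take_append, List.take_of_length_le (by omega)]
    congr 2
    omega
  have hl : n ≤ (q.take (t - p.length)).length := by rw [List.length_take]; omega
  rw [e1, e2, h.loc _ _ hl, h.loc _ _ hl]

/-- wall doubt near `z` -/
def EE (Wo : List α → Prop) (z N1 : ℕ) (u : List α) : Prop :=
  ∃ t, t ≤ u.length ∧ Wo (u.take t) ∧ z ≤ t + N1 ∧ t < z + N1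

/-- change of the left part inside the doubt: the block stays a block -/
theorem XX_shift {n W N1 : ℕ} (h : Walls Wo n W) {p p' q : List α}
    (hp : p.length + N1 + n ≤ z) (hp' : p'.length + N1 + n ≤ z)
    (hd : p'.length ≤ p.length + N1) (hd' : p.length ≤ p'.length + N1)
    (hu : p ++ q ∈ XX Wo z) (hE : ¬ EE Wo z N1 (p ++ q)) : p' ++ q ∈ XX Wo z := by
  obtain ⟨h1, h2, h3⟩ := hu
  rw [List.length_append] at h1
  have hlen : z + N1 ≤ p.length + q.length := by
    by_contra hlt
    exact hE ⟨(p ++ q).length, le_rfl, by rwa [List.take_length], by rw [List.length_append]; omega,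
      by rw [List.length_append]; omega⟩
  refine ⟨by rw [List.length_append]; omega, ?_, ?_⟩
  · rw [h.loc _ _ (by omega)]
    rwa [h.loc _ _ (by omega)] at h2
  · intro t htz htl ht
    rw [List.length_append] at htl
    rw [h.shift (p := p') (p' := p) (by omega) (by omega)] at ht
    have hts : t - p'.length + p.length < (p ++ q).length := by rw [List.length_append]; omega
    rcases Nat.lt_or_ge (t - p'.length + p.length) z with hlt | hge
    · exact hE ⟨t - p'.length + p.length, hts.le, ht, by omega, by omega⟩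
    · exact h3 _ hge hts ht

/-- same length: always a block -/
theorem XX_same {n W : ℕ} (h : Walls Wo n W) {p p' q : List α}
    (hp : p.length + n ≤ z) (hd : p'.length = p.length)
    (hu : p ++ q ∈ XX Wo z) : p' ++ q ∈ XX Wo z := by
  obtain ⟨h1, h2, h3⟩ := hu
  rw [List.length_append] at h1
  refine ⟨by rw [List.length_append]; omega, ?_, ?_⟩
  · rw [h.loc _ _ (by omega)]
    rwa [h.loc _ _ (by omega)] at h2
  · intro t htz htl ht
    rw [List.length_append] at htl
    rw [h.shift (p := p') (p' := p) (by omega) (by omega)] at ht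
    have hts : t - p'.length + p.length < (p ++ q).length := by rw [List.length_append]; omega
    exact h3 _ (by omega) hts ht

section sch
variable {n W N1 p0 A : ℕ} {φ : List α → S} {act : V → S → V} {nu1 nu2 : List α → V}
  {lam1 rho1 : List α → Option V} {BadT : ℤ → Prop}

/-- **scheme 1 cuts the clean blocks** -/
theorem good (h : Walls Wo n W) (hφ : ∀ u v, φ (u ++ v) = φ u * φ v)
    (hz : p0 + N1 + N1 + n + A ≤ z)
    (hN1 : ∀ P v, lam1 P = some v → P.length ≤ N1)
    (hs : ∀ P Q v b, lam1 P = some v → rho1 Q = some b → b = act v (φ (P ++ Q)) + nu1 (P ++ Q))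
    (hc : ∀ u : List α, A ≤ u.length → ¬ BadT (u.length : ℤ) →
      ∀ v, ∃ P Q, u = P ++ Q ∧ lam1 P = some v ∧ (rho1 Q).isSome)
    {u : List α} (hu : u ∈ XX Wo z) (hE : ¬ EE Wo z N1 u)
    (hB : ¬ BadT ((u.length : ℤ) - p0)) (x : V) :
    ∃ p q y, u = p ++ q ∧ p ∈ LL1 φ act p0 nu2 lam1 x ∧
      q ∈ Rsem (XX Wo z) (XX Wo z) (TT φ act p0 nu1 nu2) 0 (LL1 φ act p0 nu2 lam1) y := by
  have hul : z ≤ u.length := hu.1
  have hdl : (u.drop p0).length = u.length - p0 := by rw [List.length_drop]
  obtain ⟨P, Q, e, hP, hQ⟩ := hc (u.drop p0) (by omega)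
    (by rw [hdl, Nat.cast_sub (by omega)]; exact hB) (act x (φ (u.take p0)) + nu2 (u.take p0))
  obtain ⟨b, hb⟩ := Option.isSome_iff_exists.1 hQ
  have htl : (u.take p0).length = p0 := by rw [List.length_take]; omega
  have hu' : u = (u.take p0 ++ P) ++ Q := by
    rw [List.append_assoc, ← e, List.take_append_drop]
  have hPN := hN1 _ _ hP
  refine ⟨u.take p0 ++ P, Q, b, hu', ⟨by rw [List.length_append]; omega, ?_⟩, ?_⟩
  · rw [List.drop_append_of_le_length (by omega), List.drop_eq_nil_of_le (by omega),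
      List.nil_append, List.take_append_of_le_length (by omega), List.take_of_length_le (by omega)]
    exact hP
  · intro x' p' hp'
    obtain ⟨hp1, hp2⟩ : p' ∈ LL1 φ act p0 nu2 lam1 x' := hp'
    left
    have hPN' := hN1 _ _ hp2
    have hdl' : (p'.drop p0).length = p'.length - p0 := by rw [List.length_drop]
    rw [hu'] at hu hE
    have hX : p' ++ Q ∈ XX Wo z := by
      refine XX_shift h (p := u.take p0 ++ P) ?_ ?_ ?_ ?_ hu hE
      · rw [List.length_append]; omega
      · omega
      · rw [List.length_append]; omega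
      · rw [List.length_append]; omega
    have hval : TT φ act p0 nu1 nu2 (p' ++ Q) x' = b := by
      unfold TT
      rw [List.take_append_of_le_length hp1, List.drop_append_of_le_length hp1]
      exact (hs _ _ _ _ hp2 hb).symm
    refine ⟨b, Language.mem_mul.2 ⟨p' ++ Q, ⟨hX, hval⟩, [], ⟨rfl, rfl⟩, by simp⟩⟩

end sch

/-! ### the spoil count -/

section spoil
variable {Ev : Type*} {Bd : Ev → ℤ → Prop} {c : ℕ → ℕ} {K N1 n W p0 : ℕ}

/-- the ruler -/
structure Ruler (Bd : Ev → ℤ → Prop) (c : ℕ → ℕ) (K N1 p0 : ℕ) : Prop where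
  le : ∀ i < K, c i ≤ p0
  r1 : ∀ ev (T : ℤ) i j i' j', i < K → j < K → i' < K → j' < K → j ≠ i → j' ≠ i' →
    Bd ev (T + c j - c i) → Bd ev (T + c j' - c i') → i = i'
  r2 : ∀ i j i' j', i < K → j < K → i' < K → j' < K → j ≠ i → j' ≠ i' →
    ((c j : ℤ) - c i) - (c j' - c i') ≤ 2 * N1 → ((c j' : ℤ) - c i') - (c j - c i) ≤ 2 * N1 → i = i'

/-- the reading of a candidate block in the text `w` -/
def Rel (Wo : List α → Prop) (z N1 p0 : ℕ) (Bd : Ev → ℤ → Prop) (c : ℕ → ℕ) (K : ℕ)
    (w : List α) (i : ℕ) : Option (Bool × Ev) → Prop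
  | none => ∃ j < K, j ≠ i ∧ ∃ s, s ≤ w.length ∧ Wo (w.take s) ∧ (z : ℤ) ≤ s + c j - c i + N1 ∧
      (s : ℤ) + c j - c i < z + N1
  | some (b, ev) => ∃ j < K, j ≠ i ∧ ∃ e, e ≤ w.length ∧ Wo (w.take e) ∧ (z : ℤ) ≤ e + c j - c i ∧
      (∀ s, s < e → (z : ℤ) ≤ s + c j - c i → ¬ Wo (w.take s)) ∧ Bd ev ((e : ℤ) + c j - c i - p0) ∧
      (b = true ↔ e ≤ z + p0)

theorem rel_exists (h : Walls Wo n W) (hz : p0 + N1 + N1 + n ≤ z) (hR : Ruler Bd c K N1 p0)
    {w : List α} {i j : ℕ} (hi : i < K) (hj : j < K) (hji : j ≠ i) (hw : c i ≤ w.length)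
    {p' u' r : List α} (hp' : p'.length = c j) (he : p' ++ w.drop (c i) = u' ++ r)
    (hu : u' ∈ XX Wo z) (hbad : EE Wo z N1 u' ∨ ∃ ev, Bd ev ((u'.length : ℤ) - p0)) :
    ∃ o, Rel Wo z N1 p0 Bd c K w i o := by
  have hcj := hR.le j hj
  have hci := hR.le i hi
  have hlen : u'.length + r.length = c j + (w.length - c i) := by
    have := congrArg List.length he
    rw [List.length_append, List.length_append, List.length_drop, hp'] at this
    omega
  have key : ∀ t, c j + n ≤ t → t ≤ u'.length →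
      (Wo (u'.take t) ↔ Wo (w.take (t - c j + c i))) := by
    intro t ht1 ht2
    have e1 : u'.take t = (p' ++ w.drop (c i)).take t := by
      rw [he, List.take_append_of_le_length ht2]
    rw [e1, h.shift (p := p') (p' := w.take (c i)) (by omega)
      (by rw [List.length_drop]; omega), List.take_append_drop, List.length_take,
      min_eq_left hw, hp']
  obtain ⟨h1, h2, h3⟩ := hu
  rcases hbad with ⟨t, ht1, ht2, ht3, ht4⟩ | ⟨ev, hev⟩
  · refine ⟨none, j, hj, hji, t - c j + c i, by omega, (key t (by omega) ht1).1 ht2, by omega,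
      by omega⟩
  · refine ⟨some (decide (u'.length - c j + c i ≤ z + p0), ev), j, hj, hji,
      u'.length - c j + c i, by omega, ?_, by omega, ?_, ?_, by simp⟩
    · rw [← key _ (by omega) le_rfl, List.take_length]
      exact h2
    · intro s hs hs2 hws
      have h4 := h3 (s + c j - c i) (by omega) (by omega)
      rw [key _ (by omega) (by omega)] at h4
      have e5 : s + c j - c i - c j + c i = s := by omega
      rw [e5] at h4
      exact h4 hws
    · have e6 : ((u'.length - c j + c i : ℕ) : ℤ) + c j - c i - p0 = (u'.length : ℤ) - p0 := by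
        omega
      rw [e6]
      exact hev

theorem rel_inj (h : Walls Wo n W) (hW : 2 * (p0 + N1) < W) (hR : Ruler Bd c K N1 p0)
    {w : List α} {i i' : ℕ} (hi : i < K) (hi' : i' < K) {o : Option (Bool × Ev)}
    (h1 : Rel Wo z N1 p0 Bd c K w i o) (h2 : Rel Wo z N1 p0 Bd c K w i' o) : i = i' := by
  cases o with
  | none =>
    obtain ⟨j, hj, hji, s, hs1, hs2, hs3, hs4⟩ := h1
    obtain ⟨j', hj', hji', s', hs1', hs2', hs3', hs4'⟩ := h2
    have a1 := hR.le i hi
    have a2 := hR.le i' hi'
    have a3 := hR.le j hj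
    have a4 := hR.le j' hj'
    have hss : s = s' := by
      rcases lt_trichotomy s s' with hlt | heq | hlt
      · have := h.sep w s s' hlt hs1' hs2 hs2'
        omega
      · exact heq
      · have := h.sep w s' s hlt hs1 hs2' hs2
        omega
    subst hss
    exact hR.r2 i j i' j' hi hj hi' hj' hji hji' (by omega) (by omega)
  | some be =>
    obtain ⟨b, ev⟩ := be
    obtain ⟨j, hj, hji, e, he1, he2, he3, he4, he5, he6⟩ := h1
    obtain ⟨j', hj', hji', e', he1', he2', he3', he4', he5', he6'⟩ := h2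
    have a1 := hR.le i hi
    have a2 := hR.le i' hi'
    have a3 := hR.le j hj
    have a4 := hR.le j' hj'
    have hee : e = e' := by
      by_cases hb : b = true
      · have b1 := he6.1 hb
        have b2 := he6'.1 hb
        rcases lt_trichotomy e e' with hlt | heq | hlt
        · have := h.sep w e e' hlt he1' he2 he2'
          omega
        · exact heq
        · have := h.sep w e' e hlt he1 he2' he2
          omega
      · have b1 : z + p0 < e := by
          by_contra hc
          exact hb (he6.2 (by omega))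
        have b2 : z + p0 < e' := by
          by_contra hc
          exact hb (he6'.2 (by omega))
        rcases lt_trichotomy e e' with hlt | heq | hlt
        · exact absurd he2 (he4' e hlt (by omega))
        · exact heq
        · exact absurd he2' (he4 e' hlt (by omega))
    subst hee
    refine hR.r1 ev ((e : ℤ) - p0) i j i' j' hi hj hi' hj' hji hji' ?_ ?_
    · have e7 : (e : ℤ) - p0 + c j - c i = (e : ℤ) + c j - c i - p0 := by ring
      rw [e7]; exact he5
    · have e7 : (e : ℤ) - p0 + c j' - c i' = (e : ℤ) + c j' - c i' - p0 := by ring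
      rw [e7]; exact he5'

/-- candidate blocks at the place `i` -/
def Spoiled (Wo : List α → Prop) (z N1 p0 : ℕ) (Bd : Ev → ℤ → Prop) (c : ℕ → ℕ) (K : ℕ)
    (w : List α) (i : ℕ) : Prop :=
  ∃ j < K, j ≠ i ∧ ∃ p' u' r : List α, p'.length = c j ∧ p' ++ w.drop (c i) = u' ++ r ∧
    u' ∈ XX Wo z ∧ (EE Wo z N1 u' ∨ ∃ ev, Bd ev ((u'.length : ℤ) - p0))

theorem spoil [Fintype Ev] (h : Walls Wo n W) (hW : 2 * (p0 + N1) < W)
    (hz : p0 + N1 + N1 + n ≤ z) (hR : Ruler Bd c K N1 p0) {w : List α} (hw : p0 ≤ w.length)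
    (I : Finset ℕ) (hI : 2 * Fintype.card Ev + 1 < I.card) (hK : ∀ i ∈ I, i < K) :
    ∃ i ∈ I, ¬ Spoiled Wo z N1 p0 Bd c K w i := by
  classical
  by_contra hcon
  push Not at hcon
  have hex : ∀ i, ∃ o, i ∈ I → Rel Wo z N1 p0 Bd c K w i o := by
    intro i
    by_cases hi : i ∈ I
    · obtain ⟨j, hj, hji, p', u', r, h1, h2, h3, h4⟩ := hcon i hi
      obtain ⟨o, ho⟩ := rel_exists h hz hR (hK i hi) hj hji
        (le_trans (hR.le i (hK i hi)) hw) h1 h2 h3 h4
      exact ⟨o, fun _ => ho⟩
    · exact ⟨none, fun h' => absurd h' hi⟩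
  choose f hf using hex
  have hcard : I.card ≤ (Finset.univ : Finset (Option (Bool × Ev))).card := by
    refine Finset.card_le_card_of_injOn f (fun i _ => Finset.mem_coe.2 (Finset.mem_univ _)) ?_
    intro i hi i' hi' he
    have hi1 : i ∈ I := hi
    have hi2 : i' ∈ I := hi'
    refine rel_inj h hW hR (hK i hi1) (hK i' hi2) (hf i hi1) ?_
    rw [he]
    exact hf i' hi2
  rw [Finset.card_univ, Fintype.card_option, Fintype.card_prod, Fintype.card_bool] at hcard
  omega

end spoil

section c2
variable {Ev : Type*} {Bd : Ev → ℤ → Prop} {c : ℕ → ℕ} {K N1 n W p0 : ℕ}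
  {φ : List α → S} {act : V → S → V} {nu1 nu2 : List α → V} {lam2 rho2 : List α → Option V}

/-- **scheme 2 cuts the bad blocks** -/
theorem c2 [Fintype Ev] (h : Walls Wo n W) (hW : 2 * (p0 + N1) < W)
    (hz : p0 + N1 + N1 + n ≤ z) (hR : Ruler Bd c K N1 p0)
    (g0 : ∀ p v, lam2 p = some v → ∃ i < K, p.length = c i)
    (g1 : ∀ (p q : List α) (v b : V), p.length + q.length = p0 → lam2 p = some v →
      rho2 q = some b → b = act v (φ (p ++ q)) + nu2 (p ++ q))
    (g2 : ∀ (u : List α) (v : V), u.length = p0 → ∃ I : Finset ℕ,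
      2 * Fintype.card Ev + 1 < I.card ∧ ∀ i ∈ I, i < K ∧ lam2 (u.take (c i)) = some v ∧
        (rho2 (u.drop (c i))).isSome = true)
    {Bad : Language α} (hBX : ∀ u ∈ Bad, u ∈ XX Wo z)
    (hBm : ∀ u ∈ Bad, EE Wo z N1 u ∨ ∃ ev, Bd ev ((u.length : ℤ) - p0))
    {u : List α} (hu : u ∈ Bad) (x : V) {t : List α} (ht : t ∈ Bad ^ 1) :
    ∃ p q y, u ++ t = p ++ q ∧ p ∈ LL2 lam2 x ∧
      q ∈ Rsem (XX Wo z) Bad (TT φ act p0 nu1 nu2) 1 (LL2 lam2) y := by
  rw [pow_one] at ht
  have hul : z ≤ u.length := (hBX u hu).1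
  have htl : z ≤ t.length := (hBX t ht).1
  obtain ⟨I, hIc, hI⟩ := g2 (u.take p0) x (by rw [List.length_take]; omega)
  obtain ⟨i, hiI, hns⟩ := spoil (w := u ++ t) h hW hz hR
    (by rw [List.length_append]; omega) I hIc (fun i hi => (hI i hi).1)
  obtain ⟨hiK, hlam, hrho⟩ := hI i hiI
  have hci := hR.le i hiK
  obtain ⟨b, hb⟩ := Option.isSome_iff_exists.1 hrho
  rw [List.take_take, min_eq_left hci] at hlam
  have hdrop : (u ++ t).drop (c i) = u.drop (c i) ++ t :=
    List.drop_append_of_le_length (by omega)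
  have hqe : (u.take p0).drop (c i) = (u.drop (c i)).take (p0 - c i) := by
    rw [List.drop_take]
  have hxu : act x (φ (u.take p0)) + nu2 (u.take p0) = b := by
    have e : u.take (c i) ++ (u.take p0).drop (c i) = u.take p0 := by
      have := List.take_append_drop (c i) (u.take p0)
      rwa [List.take_take, min_eq_left hci] at this
    have := g1 (u.take (c i)) ((u.take p0).drop (c i)) x b
      (by rw [List.length_take, List.length_drop, List.length_take]; omega) hlam hb
    rw [e] at this
    exact this.symm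
  refine ⟨u.take (c i), u.drop (c i) ++ t,
    TT φ act p0 nu1 nu2 t (TT φ act p0 nu1 nu2 u x), ?_, hlam, ?_⟩
  · rw [← List.append_assoc, List.take_append_drop]
  intro x' p' hp'
  have hp'' : lam2 p' = some x' := hp'
  obtain ⟨j, hjK, hj⟩ := g0 p' x' hp''
  have hcj := hR.le j hjK
  by_cases hji : j = i
  · subst hji
    have hu' : p' ++ u.drop (c j) ∈ XX Wo z := by
      refine XX_same h (p := u.take (c j)) ?_ ?_ ?_
      · rw [List.length_take]; omega
      · rw [List.length_take]; omega
      · rw [List.take_append_drop]; exact hBX u hu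
    by_cases hb' : p' ++ u.drop (c j) ∈ Bad
    · left
      have hval : TT φ act p0 nu1 nu2 (p' ++ u.drop (c j)) x' = TT φ act p0 nu1 nu2 u x := by
        unfold TT
        have e1 : (p' ++ u.drop (c j)).take p0 = p' ++ (u.take p0).drop (c j) := by
          rw [List.take_append, List.take_of_length_le (by omega), hqe, hj]
        have e2 : (p' ++ u.drop (c j)).drop p0 = u.drop p0 := by
          rw [List.drop_append, List.drop_eq_nil_of_le (by omega), List.nil_append,
            List.drop_drop]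
          congr 1
          omega
        have := g1 p' ((u.take p0).drop (c j)) x' b
          (by rw [List.length_drop, List.length_take]; omega) hp'' hb
        rw [e1, e2, ← this, hxu]
      refine ⟨TT φ act p0 nu1 nu2 u x, Language.mem_mul.2 ⟨p' ++ u.drop (c j), ⟨hb', hval⟩, t, ?_,
        by rw [List.append_assoc]⟩⟩
      exact ⟨_, Language.mem_mul.2 ⟨t, ⟨ht, rfl⟩, [], ⟨rfl, rfl⟩, by simp⟩⟩
    · right
      exact Or.inl ⟨_, hu', hb', t, by rw [List.append_assoc]⟩
  · have hWo : Wo (p' ++ (u.drop (c i) ++ t)) := by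
      rw [← List.append_assoc, h.loc _ _ (by omega)]
      exact (hBX t ht).2.1
    obtain ⟨u', r, he, hu'⟩ := first_block (z := z) hWo (by
      rw [List.length_append, List.length_append]; omega)
    right
    refine Or.inl ⟨u', hu', ?_, r, he.symm⟩
    intro hb'
    exact hns ⟨j, hjK, hji, p', u', r, hj, by rw [hdrop, he], hu', hBm u' hb'⟩

end c2

section main
variable {Ev : Type*} {Bd : Ev → ℤ → Prop} {c : ℕ → ℕ} {K N1 n W p0 A : ℕ}
  {φ : List α → S} {act : V → S → V} {nu1 nu2 : List α → V}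
  {lam1 rho1 lam2 rho2 : List α → Option V}

/-- **the row (one monoid) from: walls, two gadgets, a ruler, and three `HL` statements.** -/
theorem main [Finite α] [Finite S] [Finite V] [Fintype Ev]
    (hφ0 : φ [] = 1) (hφ : ∀ u v, φ (u ++ v) = φ u * φ v)
    (hadd : ∀ a b s, act (a + b) s = act a s + act b s)
    (hact1 : ∀ v, act v 1 = v) (hactm : ∀ v s t, act v (s * t) = act (act v s) t)
    (hfaith : ∀ s t : S, (∀ v, act v s = act v t) → s = t)
    (h : Walls Wo n W) (hW : 2 * (p0 + N1) < W) (hz0 : 0 < z)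
    (hz : p0 + N1 + N1 + n + A ≤ z) (hR : Ruler Bd c K N1 p0)
    (hN1 : ∀ P v, lam1 P = some v → P.length ≤ N1)
    (hs : ∀ P Q v b, lam1 P = some v → rho1 Q = some b → b = act v (φ (P ++ Q)) + nu1 (P ++ Q))
    (hc : ∀ u : List α, A ≤ u.length → (∀ ev, ¬ Bd ev (u.length : ℤ)) →
      ∀ v, ∃ P Q, u = P ++ Q ∧ lam1 P = some v ∧ (rho1 Q).isSome)
    (g0 : ∀ p v, lam2 p = some v → ∃ i < K, p.length = c i)
    (g1 : ∀ (p q : List α) (v b : V), p.length + q.length = p0 → lam2 p = some v →
      rho2 q = some b → b = act v (φ (p ++ q)) + nu2 (p ++ q))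
    (g2 : ∀ (u : List α) (v : V), u.length = p0 → ∃ I : Finset ℕ,
      2 * Fintype.card Ev + 1 < I.card ∧ ∀ i ∈ I, i < K ∧ lam2 (u.take (c i)) = some v ∧
        (rho2 (u.drop (c i))).isSome = true)
    (H1 : HL 1 (XX Wo z))
    (H3 : ∀ x y, HL 1 (ZT (XX Wo z) (TT φ act p0 nu1 nu2) x y))
    (H4 : ∀ s, HL 3 ({w | (∀ u ∈ XX Wo z, ¬ u <+: w) ∧ φ w = s} : Language α)) (s : S) :
    HL 3 ({w | φ w = s} : Language α) := by
  classical
  have hp0z : p0 ≤ z := by omega
  let T := TT φ act p0 nu1 nu2
  let L1 := LL1 φ act p0 nu2 lam1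
  have hPC : PC (XX Wo z) := pc hz0
  have F1 : ∀ v, {p | p ∈ L1 v}.Finite := by
    intro v
    refine (List.finite_length_le α (p0 + N1)).subset ?_
    rintro p ⟨hp1, hp2⟩
    have := hN1 _ _ hp2
    rw [List.length_drop] at this
    show p.length ≤ p0 + N1
    omega
  have F2 : ∀ v, {p | p ∈ LL2 lam2 v}.Finite := by
    intro v
    refine (List.finite_length_le α p0).subset ?_
    intro p hp
    obtain ⟨i, hi, he⟩ := g0 p v hp
    show p.length ≤ p0
    rw [he]
    exact hR.le i hi
  let CutP : List α → Prop := fun u => ∀ x, ∃ y, u ∈ (L1 x * Rsem (XX Wo z) (XX Wo z) T 0 L1 y : Language α)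
  let Bad : Language α := {u | u ∈ XX Wo z ∧ ¬ CutP u}
  have hBX : ∀ u ∈ Bad, u ∈ XX Wo z := fun u hu => hu.1
  have HCut : HL 1 ({u | CutP u} : Language α) := by
    refine (HL.iInter fun x => HL.iUnion fun y =>
      (HL.finite (F1 x)).mul (Rsem.hl F1 H1 H1 H3 y)).congr fun w => Iff.rfl
  have H2 : HL 1 Bad := (H1.sdiff HCut).congr fun w => Iff.rfl
  have hBm : ∀ u ∈ Bad, EE Wo z N1 u ∨ ∃ ev, Bd ev ((u.length : ℤ) - p0) := by
    rintro u ⟨hu1, hu2⟩
    by_contra hcon
    rw [not_or] at hcon
    refine hu2 fun x => ?_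
    obtain ⟨p, q, y, e, hp, hq⟩ := good (BadT := fun T => ∃ ev, Bd ev T) (nu2 := nu2) (lam1 := lam1)
      (rho1 := rho1) (nu1 := nu1) (act := act) h hφ hz hN1 hs
      (fun u hu hb v => hc u hu (fun ev hev => hb ⟨ev, hev⟩) v) hu1 hcon.1 hcon.2 x
    exact ⟨y, Language.mem_mul.2 ⟨p, hp, q, hq, e.symm⟩⟩
  refine top_sem (XX := XX Wo z) (Bad := Bad) (T := T) (N1 := 0) (N2 := 1) (L1 := L1)
    (L2 := LL2 lam2) hφ0 hφ hact1 hactm hfaith hPC hBX ?_ H1 H2 H3 H4 F1 F2 ?_ ?_ s
  · intro u hu v v'
    have hsub : ∀ a b s, act (a - b) s = act a s - act b s := by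
      intro a b s
      have := hadd (a - b) b s
      rw [sub_add_cancel] at this
      rw [this, add_sub_cancel_right]
    show TT φ act p0 nu1 nu2 u v - TT φ act p0 nu1 nu2 u v' = _
    unfold TT
    rw [add_sub_add_right_eq_sub, ← hsub, add_sub_add_right_eq_sub, ← hsub, ← hactm, ← hφ,
      List.take_append_drop]
  · intro u hu hB x t ht
    rw [pow_zero] at ht
    have ht' : t = [] := ht
    subst ht'
    have hcut : CutP u := by
      by_contra hn
      exact hB ⟨hu, hn⟩
    obtain ⟨y, hy⟩ := hcut x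
    obtain ⟨p, hp, q, hq, e⟩ := Language.mem_mul.1 hy
    exact ⟨p, q, y, by rw [List.append_nil, e], hp, hq⟩
  · intro u hu x t ht
    exact c2 h hW (by omega) hR g0 g1 g2 hBX hBm hu x ht

end main

end Crest.Agent.R320.FinA_751
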