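import Crest.Agent.R320.Top5_120
import Crest.Agent.R320.Sc2n_937
import Crest.Agent.R320.P4_933
import Crest.Agent.R320.Bridge_975

/-!
# Row 320: join, part A (abstract): two schemes on the natural block code give height three
-/

set_option autoImplicit false
set_option linter.unusedSectionVars false

namespace Crest.Agent.R320.Fin_782

open Crest.RegLang Crest.Agent.R320.Hk_851 Crest.Agent.R320.BddReg_746

variable {α : Type} [Finite α] {S V : Type} [Monoid S] [Finite S] [AddCommGroup V] [Finite V]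

theorem join (act : V → S → V)
    (hadd : ∀ a b s, act (a + b) s = act a s + act b s)
    (hone : ∀ v, act v 1 = v) (hmul : ∀ v s t, act v (s * t) = act (act v s) t)
    (hfaith : ∀ s t, (∀ v, act v s = act v t) → s = t) (φ : α → S)
    (g : Sc2n_937.Geo α) (hn0 : 0 < g.z) (len : ∀ P, g.Wo P → g.n ≤ P.length)
    (hgap : ∀ P Q : List α, g.Wo P → g.Wo (P ++ Q) → Q ≠ [] → 2 * g.p0 + 2 * g.N1 < Q.length)
    {B R : ℕ} (free : ∀ u : List α, (∀ t < u.length, ¬ g.Wo (u.take t)) → u ∈ (PN B R : Language α))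
    (BadT : ℕ → Prop)
    (lam rho : List α → Option V) (nu1 : List α → V)
    (hlen : ∀ P v, lam P = some v → P.length ≤ g.N1)
    (hs1 : ∀ P Q u b, lam P = some u → rho Q = some b →
      b = act u ((P ++ Q).map φ).prod + nu1 (P ++ Q))
    (hc1 : ∀ u : List α, g.z ≤ g.p0 + u.length → ¬ BadT u.length → ∀ v, ∃ P Q, u = P ++ Q ∧
      lam P = some v ∧ (rho Q).isSome)
    (La Pm : ℕ) (hPm : 0 < Pm)
    (hnu : ∀ q q2 : List α, La ≤ q.length → La ≤ q2.length → q.take La = q2.take La →
      q.length % Pm = q2.length % Pm → (q.map φ).prod = (q2.map φ).prod → nu1 q = nu1 q2)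
    (hBT : ∀ T T' : ℕ, La ≤ T → La ≤ T' → T % Pm = T' % Pm → (BadT T ↔ BadT T'))
    (K : ℕ) (c : ℕ → ℕ) (lam2 rho2 : ℕ → List α → Option V) (nu2 : List α → V) (C0 : ℕ)
    (hc : ∀ k, k < K → c k ≤ g.p0)
    (hex : ∀ k, k < K → ∀ (P Q : List α) v u, P.length = c k → Q.length = g.p0 - c k →
      lam2 k P = some v → rho2 k Q = some u → u = act v ((P ++ Q).map φ).prod + nu2 (P ++ Q))
    (hI : ∀ (X : List α), X.length = g.p0 → ∀ v, ∃ I : Finset ℕ, 2 * C0 + 2 ≤ I.card ∧ ∀ k ∈ I,
      k < K ∧ lam2 k (X.take (c k)) = some v ∧ (rho2 k (X.drop (c k))).isSome)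
    (hsp : ∀ k k' l l', k < K → k' < K → l < K → l' < K → k' ≠ k → l' ≠ l →
      c k + c l' < c l + c k' + 2 * g.N1 → c l + c k' < c k + c l' + 2 * g.N1 → k = l)
    (hthin : ∀ τ, g.z ≤ τ + g.p0 → ∀ J : Finset ℕ, (∀ k ∈ J, k < K ∧
      ∃ k', k' < K ∧ k' ≠ k ∧ BadT (τ + c k' - c k - g.p0)) → J.card ≤ C0)
    (s : S) : HL 3 ({w | (w.map φ).prod = s} : Language α) := by
  classical
  have hz := g.hz
  -- maps
  let pre : List α → V → V := fun X v => act v (X.map φ).prod + nu2 X
  let post : V → List α → V := fun v Y => act v (Y.map φ).prod + nu1 Y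
  let nu : List α → V := fun X =>
    act (nu2 (X.take g.p0)) ((X.drop g.p0).map φ).prod + nu1 (X.drop g.p0)
  have hT : ∀ v X, g.T pre post v X = act v (X.map φ).prod + nu X := by
    intro v X
    have e : (X.map φ).prod = ((X.take g.p0).map φ).prod * ((X.drop g.p0).map φ).prod := by
      rw [← List.prod_append, ← List.map_append, List.take_append_drop]
    show act (act v ((X.take g.p0).map φ).prod + nu2 (X.take g.p0)) ((X.drop g.p0).map φ).prod +
      nu1 (X.drop g.p0) = _
    rw [hadd, e, hmul]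
    show _ = _ + (_ + _)
    abel
  let C : Set (List α) := {X | g.XX X}
  let Bad : Set (List α) := {X | g.XX X ∧ g.BadX BadT X}
  have hXXi : ∀ X, g.XX X ↔ P4_933.XX g.Wo g.z X := by
    intro X
    constructor
    · rintro ⟨h1, h2, h3⟩; exact ⟨h2, h1, fun t ht hzt => h3 t hzt ht⟩
    · rintro ⟨h1, h2, h3⟩; exact ⟨h2, h1, fun t hzt ht => h3 t ht hzt⟩
  have hC : Blk467.PCode C := by
    refine ⟨fun h => ?_, ?_⟩
    · have := h.1
      simp at this
      omega
    · rintro X hX Y hY ⟨R', rfl⟩
      exact g.prefix_code (R := R') (R' := []) hX hY (by simp)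
  have L1fin : ∀ v, {P : List α | g.LP1 pre lam v P}.Finite := by
    intro v
    refine (List.finite_length_le α (g.p0 + g.N1)).subset ?_
    rintro P ⟨h1, h2⟩
    have := hlen _ _ h2
    rw [List.length_drop] at this
    show P.length ≤ g.p0 + g.N1
    omega
  have L2fin : ∀ v, {P : List α | Sc2n_937.Geo.LP2 K c lam2 v P}.Finite := by
    intro v
    refine (List.finite_length_le α g.p0).subset ?_
    rintro P ⟨k, hk, h1, -⟩
    show P.length ≤ g.p0
    rw [h1]
    exact hc k hk
  -- locality
  have hloc : ∀ (X X' : List α), g.p0 + La ≤ X.length → g.p0 + La ≤ X'.length →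
      X.take (g.p0 + La) = X'.take (g.p0 + La) → X.length % Pm = X'.length % Pm →
      ((X.drop (g.p0 + La)).map φ).prod = ((X'.drop (g.p0 + La)).map φ).prod →
      (X.map φ).prod = (X'.map φ).prod ∧ nu X = nu X' := by
    intro X X' h1 h2 h3 h4 h5
    have t1 : X.take g.p0 = X'.take g.p0 := by
      have := congrArg (List.take g.p0) h3
      rwa [List.take_take, List.take_take, min_eq_left (by omega)] at this
    have t2 : (X.drop g.p0).take La = (X'.drop g.p0).take La := by
      have := congrArg (List.drop g.p0) h3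
      rwa [List.drop_take, List.drop_take, Nat.add_sub_cancel_left] at this
    have p1 : ((X.drop g.p0).map φ).prod = ((X'.drop g.p0).map φ).prod := by
      have e : ∀ Z : List α, ((Z.drop g.p0).map φ).prod =
          (((Z.drop g.p0).take La).map φ).prod * ((Z.drop (g.p0 + La)).map φ).prod := by
        intro Z
        rw [← List.drop_drop, ← List.prod_append, ← List.map_append, List.take_append_drop]
      rw [e X, e X', t2, h5]
    have p2 : (X.map φ).prod = (X'.map φ).prod := by
      have e : ∀ Z : List α, (Z.map φ).prod =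
          ((Z.take g.p0).map φ).prod * ((Z.drop g.p0).map φ).prod := by
        intro Z
        rw [← List.prod_append, ← List.map_append, List.take_append_drop]
      rw [e X, e X', t1, p1]
    refine ⟨p2, ?_⟩
    have hl : (X.drop g.p0).length % Pm = (X'.drop g.p0).length % Pm := by
      rw [List.length_drop, List.length_drop]
      have : (X.length - g.p0) + g.p0 ≡ (X'.length - g.p0) + g.p0 [MOD Pm] := by
        rw [Nat.sub_add_cancel (by omega), Nat.sub_add_cancel (by omega)]
        exact h4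
      exact Nat.ModEq.add_right_cancel' _ this
    show act (nu2 (X.take g.p0)) _ + nu1 (X.drop g.p0) = act (nu2 (X'.take g.p0)) _ + _
    rw [t1, p1, hnu (X.drop g.p0) (X'.drop g.p0) (by rw [List.length_drop]; omega)
      (by rw [List.length_drop]; omega) t2 hl p1]
  have hCT : ∀ x y, HL 1 ({X | X ∈ C ∧ act x (X.map φ).prod + nu X = y} : Language α) := by
    intro x y
    have hr : Language.IsRegular ({X | act x (X.map φ).prod + nu X = y} : Language α) := by
      refine Bridge_975.reg_of_local φ (g.p0 + La) Pm hPm _ ?_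
      intro q q2 h1 h2 h3 h4 h5
      obtain ⟨a, b⟩ := hloc q q2 h1 h2 h3 h4 h5
      rw [a, b]
    refine (P4_933.hl_XX (z := g.z) g.loc len free hr).congr fun w => ?_
    constructor
    · rintro ⟨h1, h2⟩; exact ⟨(hXXi w).1 h1, h2⟩
    · rintro ⟨h1, h2⟩; exact ⟨(hXXi w).2 h1, h2⟩
  have hBadT : ∀ x y, HL 1 ({X | X ∈ Bad ∧ act x (X.map φ).prod + nu X = y} : Language α) := by
    intro x y
    have hr : Language.IsRegular
        ({X | g.BadX BadT X ∧ act x (X.map φ).prod + nu X = y} : Language α) := by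
      refine Bridge_975.reg_of_local φ (g.p0 + La + (g.z + g.N1)) Pm hPm _ ?_
      intro q q2 h1 h2 h3 h4 h5
      have k1 : q.take (g.p0 + La) = q2.take (g.p0 + La) := by
        have := congrArg (List.take (g.p0 + La)) h3
        rwa [List.take_take, List.take_take, min_eq_left (by omega)] at this
      have k5 : ((q.drop (g.p0 + La)).map φ).prod = ((q2.drop (g.p0 + La)).map φ).prod := by
        have e : ∀ Z : List α, ((Z.drop (g.p0 + La)).map φ).prod =
            (((Z.take (g.p0 + La + (g.z + g.N1))).drop (g.p0 + La)).map φ).prod *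
              ((Z.drop (g.p0 + La + (g.z + g.N1))).map φ).prod := by
          intro Z
          have e1 : Z.drop (g.p0 + La + (g.z + g.N1)) = (Z.drop (g.p0 + La)).drop (g.z + g.N1) := by
            rw [List.drop_drop]
          have e2 : (Z.take (g.p0 + La + (g.z + g.N1))).drop (g.p0 + La) =
              (Z.drop (g.p0 + La)).take (g.z + g.N1) := by
            rw [List.drop_take, Nat.add_sub_cancel_left]
          rw [e1, e2, ← List.prod_append, ← List.map_append, List.take_append_drop]
        rw [e q, e q2, h3, h5]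
      obtain ⟨a, b⟩ := hloc q q2 (by omega) (by omega) k1 h4 k5
      have hE : g.E q ↔ g.E q2 := by
        have key : ∀ q q2 : List α, g.p0 + La + (g.z + g.N1) ≤ q.length →
            g.p0 + La + (g.z + g.N1) ≤ q2.length →
            q.take (g.p0 + La + (g.z + g.N1)) = q2.take (g.p0 + La + (g.z + g.N1)) →
            g.E q → g.E q2 := by
          rintro q q2 h1 h2 h3 ⟨t, ht, hw, a1, a2⟩
          refine ⟨t, by omega, ?_, a1, a2⟩
          have := congrArg (List.take t) h3
          rw [List.take_take, List.take_take, min_eq_left (by omega)] at this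
          rw [← this]; exact hw
        exact ⟨key q q2 h1 h2 h3, key q2 q h2 h1 h3.symm⟩
      have hB : BadT (q.length - g.p0) ↔ BadT (q2.length - g.p0) := by
        refine hBT _ _ (by omega) (by omega) ?_
        have : (q.length - g.p0) + g.p0 ≡ (q2.length - g.p0) + g.p0 [MOD Pm] := by
          rw [Nat.sub_add_cancel (by omega), Nat.sub_add_cancel (by omega)]
          exact h4
        exact Nat.ModEq.add_right_cancel' _ this
      show ((g.E q ∨ BadT (q.length - g.p0)) ∧ _) ↔ ((g.E q2 ∨ BadT (q2.length - g.p0)) ∧ _)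
      rw [hE, hB, a, b]
    refine (P4_933.hl_XX (z := g.z) g.loc len free hr).congr fun w => ?_
    constructor
    · rintro ⟨⟨h1, h2⟩, h3⟩; exact ⟨(hXXi w).1 h1, h2, h3⟩
    · rintro ⟨h1, h2, h3⟩; exact ⟨⟨(hXXi w).2 h1, h2⟩, h3⟩
  have htail : ∀ s, HL 1 ({w | (∀ X ∈ C, ¬ X <+: w) ∧ (w.map φ).prod = s} : Language α) := by
    intro s
    have hr : Language.IsRegular ({X | (X.map φ).prod = s} : Language α) := by
      refine Bridge_975.reg_of_local φ 0 1 (by norm_num) _ ?_
      intro q q2 _ _ _ _ h5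
      simp only [List.drop_zero] at h5
      rw [h5]
    refine (P4_933.hl_NB (z := g.z) g.loc len free hr).congr fun w => ?_
    constructor
    · rintro ⟨h1, h2⟩
      exact ⟨(P4_933.NB_iff g.Wo g.z w).2 fun X hp hX => h1 X ((hXXi X).2 hX) hp, h2⟩
    · rintro ⟨h1, h2⟩
      exact ⟨fun X hX hp => (P4_933.NB_iff g.Wo g.z w).1 h1 X hp ((hXXi X).1 hX), h2⟩
  refine Top5_120.top5 act hadd hone hmul hfaith φ nu C Bad hC (fun X h => h.1)
    (fun v => {P | g.LP1 pre lam v P}) (fun v => {P | Sc2n_937.Geo.LP2 K c lam2 v P})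
    L1fin L2fin hCT hBadT htail ?_ ?_ s
  · -- scheme 1
    intro X hX hXb v
    have hE : ¬ g.E X := fun h => hXb ⟨hX, Or.inl h⟩
    have hB : ¬ BadT (X.length - g.p0) := fun h => hXb ⟨hX, Or.inr h⟩
    have hXl : g.z ≤ X.length := hX.1
    obtain ⟨P, Q, b, e, hP, hQ⟩ := g.complete1 pre hlen hX hE (fun u => by
      obtain ⟨P, Q, e, h1, h2⟩ := hc1 (X.drop g.p0) (by rw [List.length_drop]; omega)
        (by rw [List.length_drop]; exact hB) u
      exact ⟨P, Q, e, h1, h2⟩) v
    have hs : ∀ {v' : V} {P' : List α}, g.LP1 pre lam v' P' →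
        g.XX (P' ++ Q) ∧ g.T pre post v' (P' ++ Q) = b := fun h =>
      g.sound1 pre post hlen (fun P Q u b h1 h2 => hs1 P Q u b h1 h2) h hQ
    refine ⟨P, Q, e.symm, hP, fun x P' hP' => ⟨(hs hP').1, ?_⟩⟩
    rw [← hT, ← hT, (hs hP').2, e, (hs hP).2]
  · -- scheme 2
    rintro X ⟨hX, hXb⟩ Y ⟨hY, -⟩ v
    have hXl : g.z ≤ X.length := hX.1
    obtain ⟨I, hIc, hI'⟩ := hI (X.take g.p0) (by rw [List.length_take]; omega) v
    obtain ⟨P, Q, b, e, hP, hQ⟩ := g.complete2 pre post (BadT := BadT) (K := K) (c := c)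
      (lam2 := lam2) (rho2 := rho2) (C0 := C0) hc hgap hsp hthin hX hY v ⟨I, hIc, fun k hk => by
        obtain ⟨h1, h2, h3⟩ := hI' k hk
        refine ⟨h1, ?_, h3⟩
        rw [List.take_take, min_eq_left (hc k h1)] at h2
        exact h2⟩
    have hexx : ∀ k, k < K → ∀ (P Q : List α) v u, P.length = c k → Q.length = g.p0 - c k →
        lam2 k P = some v → rho2 k Q = some u → u = pre (P ++ Q) v := fun k hk P Q v u a1 a2 a3 a4 =>
      hex k hk P Q v u a1 a2 a3 a4
    refine ⟨P, Q, e, hP, fun x P' hP' => ?_⟩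
    -- the true value
    have hb : g.T pre post (g.T pre post v X) Y = b := by
      obtain ⟨X2, h1, h2, h3⟩ := g.sound2 pre post hc hexx (R := []) (R' := Y) hX hXb hP hQ
        (by rw [List.append_nil]; exact e)
      rw [e] at h2
      rw [List.append_cancel_left h2]
      exact h3
    -- a block at the beginning of `P' ++ Q`
    have hblk : ∃ X', g.XX X' ∧ ∃ R', P' ++ Q = X' ++ R' := by
      obtain ⟨k0, hk0, hPl, -⟩ := hP'
      obtain ⟨k, hk, l, hend, hgood, -⟩ := hQ
      have : ∃ l', g.CEnd Q (c k0) l' := by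
        by_cases hkk : k0 = k
        · exact ⟨l, by rw [hkk]; exact hend⟩
        · obtain ⟨l', h1, -⟩ := hgood k0 hk0 hkk
          exact ⟨l', h1⟩
      obtain ⟨l', hl'⟩ := this
      refine ⟨P' ++ Q.take l', g.xx_of_cend (by rw [hPl]; exact hc k0 hk0)
        (by rw [hPl]; exact hl'), Q.drop l', ?_⟩
      rw [List.append_assoc, List.take_append_drop]
    obtain ⟨X', hX', R', hR'⟩ := hblk
    by_cases hXb' : g.BadX BadT X'
    · left
      obtain ⟨X2, h1, h2, h3⟩ := g.sound2 pre post hc hexx (R := []) (R' := R') hX' hXb' hP' hQ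
        (by rw [List.append_nil]; exact hR')
      refine ⟨X', ⟨hX', hXb'⟩, X2, h1, h2.symm, ?_⟩
      rw [← hT, ← hT, ← hT, ← hT, h3, hb]
    · right
      exact ⟨X', hX', fun h => hXb' h.2, R', hR'.symm⟩

end Crest.Agent.R320.Fin_782
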