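import Crest.Agent.R320.Code_110
import Crest.Agent.R320.Block_467
import Crest.Agent.R320.FewVal_228

/-!
# Row 320, final assembly, part A (helper792)

Left-looking walls, the block code `XX` (first wall at a place `≥ z`), its height, regularity of
languages given by (prefix, length, product), two levels of 110's `step_sem`, read-off.
-/

set_option autoImplicit false

namespace Crest.Agent.R320.FinA_792

open Crest.RegLang Crest.Agent.R320.Hk_851 Crest.Agent.R320.Code110
open Crest.Agent.R320.FewVal_228 Crest.Agent.R320.FewWalls_228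

universe u

variable {α : Type u}

/-- wall at the end of the word -/
def Wt (n : ℕ) (S : Set (List α)) (w : List α) : Prop := n ≤ w.length ∧ lastn n w ∈ S

theorem lastn_append {n : ℕ} (P Q : List α) (h : n ≤ Q.length) :
    lastn n (P ++ Q) = lastn n Q := by
  unfold lastn
  rw [List.length_append, List.drop_append, List.drop_eq_nil_of_le (by omega), List.nil_append]
  congr 1; omega

theorem Wt_append {n : ℕ} {S : Set (List α)} (P Q : List α) (h : n ≤ Q.length) :
    Wt n S (P ++ Q) ↔ Wt n S Q := by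
  unfold Wt
  rw [lastn_append P Q h, List.length_append]
  constructor
  · rintro ⟨_, h2⟩; exact ⟨h, h2⟩
  · rintro ⟨_, h2⟩; exact ⟨by omega, h2⟩

/-- blocks: the first wall at a place `≥ z` -/
def XX (n z : ℕ) (S : Set (List α)) : Language α :=
  {w | z ≤ w.length ∧ Wt n S w ∧ ∀ t, z ≤ t → t < w.length → ¬ Wt n S (w.take t)}

theorem XX_pc {n z : ℕ} {S : Set (List α)} (hz : 0 < z) : PC (XX n z S) where
  ne := by
    rintro ⟨h, _⟩
    simp only [List.length_nil] at h
    omega
  pf := by
    rintro u ⟨h1, h2, h3⟩ v ⟨g1, g2, g3⟩ ⟨r, rfl⟩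
    by_cases hr : r = []
    · subst hr; simp
    · exfalso
      refine g3 u.length h1 ?_ ?_
      · rw [List.length_append]
        have := List.length_pos_iff.2 hr
        omega
      · simpa using h2

theorem XX_exists {n z : ℕ} {S : Set (List α)} {w : List α} {t : ℕ} (h1 : z ≤ t)
    (h2 : t ≤ w.length) (h3 : Wt n S (w.take t)) :
    ∃ t0, z ≤ t0 ∧ t0 ≤ t ∧ w.take t0 ∈ XX n z S ∧ Wt n S (w.take t0) ∧
      ∀ t', z ≤ t' → t' < t0 → ¬ Wt n S (w.take t') := by
  classical
  have hex : ∃ t, z ≤ t ∧ t ≤ w.length ∧ Wt n S (w.take t) := ⟨t, h1, h2, h3⟩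
  obtain ⟨a1, a2, a3⟩ := Nat.find_spec hex
  have hmin : ∀ t', z ≤ t' → t' < Nat.find hex → ¬ Wt n S (w.take t') := by
    intro t' ht1 ht2 ht3
    exact Nat.find_min hex ht2 ⟨ht1, by omega, ht3⟩
  refine ⟨Nat.find hex, a1, Nat.find_min' hex ⟨h1, h2, h3⟩, ⟨?_, a3, ?_⟩, a3, hmin⟩
  · rw [List.length_take]; omega
  · intro t' ht1 ht2 ht3
    rw [List.length_take] at ht2
    rw [List.take_take, Nat.min_eq_left (by omega)] at ht3
    exact hmin t' ht1 (by omega) ht3

theorem HL_U [Finite α] {k n z : ℕ} (S : Set (List α)) (hS : ∀ s ∈ S, s.length = n) :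
    HL k ({w | z ≤ w.length ∧ Wt n S w} : Language α) := by
  have hfin : S.Finite := (List.finite_length_eq α n).subset fun s hs => hS s hs
  let SL : Language α := S
  have hSL : HL k SL := HL.finite hfin
  have h2 : HL k ({w | w ∈ ((⊤ : Language α) * SL)} : Language α) := HL.top.mul hSL
  have h := (HL.length_ge (α := α) (k := k) z).setOf_and h2
  refine h.congr fun w => ?_
  change (z ≤ w.length ∧ Wt n S w) ↔ (z ≤ w.length ∧ w ∈ ((⊤ : Language α) * SL))
  refine and_congr_right fun _ => ?_
  rw [Language.mem_mul]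
  constructor
  · rintro ⟨h1, h2⟩
    exact ⟨w.take (w.length - n), trivial, _, h2, List.take_append_drop _ _⟩
  · rintro ⟨a, _, b, hb, rfl⟩
    have hbn := hS b hb
    refine ⟨by rw [List.length_append]; omega, ?_⟩
    rw [lastn_append a b (by omega)]
    unfold lastn
    rw [hbn, Nat.sub_self, List.drop_zero]
    exact hb

theorem HL_XX [Finite α] {k n z : ℕ} (S : Set (List α)) (hS : ∀ s ∈ S, s.length = n) :
    HL k (XX n z S) := by
  have hU := HL_U (k := k) (z := z) S hS
  have hne : HL k ({w | 1 ≤ w.length} : Language α) := HL.length_ge 1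
  refine (hU.sdiff (hU.mul hne)).congr fun w => ?_
  constructor
  · rintro ⟨h1, h2, h3⟩
    refine ⟨⟨h1, h2⟩, fun h => ?_⟩
    obtain ⟨a, ⟨ha1, ha2⟩, b, hb, rfl⟩ := Language.mem_mul.1 h
    have hb' : 1 ≤ b.length := hb
    exact h3 a.length ha1 (by rw [List.length_append]; omega) (by simpa using ha2)
  · rintro ⟨⟨h1, h2⟩, h3⟩
    refine ⟨h1, h2, fun t ht1 ht2 ht3 => h3 (Language.mem_mul.2
      ⟨w.take t, ⟨?_, ht3⟩, w.drop t, ?_, List.take_append_drop _ _⟩)⟩
    · rw [List.length_take]; omega
    · change 1 ≤ (w.drop t).length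
      rw [List.length_drop]; omega

theorem Wl_iff {n : ℕ} {S : Set (List α)} {w : List α} {x : ℕ} (h : x + n ≤ w.length) :
    Wl n S w x ↔ Wt n S (w.take (x + n)) := by
  unfold Wl Wt lastn
  rw [List.length_take, Nat.min_eq_left h, Nat.add_sub_cancel, List.drop_take,
    Nat.add_sub_cancel_left]
  constructor
  · rintro ⟨_, h2⟩; exact ⟨by omega, h2⟩
  · rintro ⟨_, h2⟩; exact ⟨h, h2⟩

theorem nw_le {n z : ℕ} {S : Set (List α)} {w : List α}
    (h : ∀ t, z ≤ t → t < w.length → ¬ Wt n S (w.take t)) : nw n S w ≤ z + 1 := by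
  classical
  have hsub : ((Finset.range (w.length + 1)).filter (fun x => Wl n S w x)) ⊆
      insert (w.length - n) (Finset.range z) := by
    intro x hx
    rw [Finset.mem_filter, Finset.mem_range] at hx
    have h1 := hx.2.1
    have h2 := (Wl_iff h1).1 hx.2
    rw [Finset.mem_insert, Finset.mem_range]
    by_cases h3 : z ≤ x + n
    · by_cases h4 : x + n < w.length
      · exact (h _ h3 h4 h2).elim
      · left; omega
    · right; omega
  have h1 := (Finset.card_le_card hsub).trans (Finset.card_insert_le _ _)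
  rw [Finset.card_range] at h1
  unfold nw
  convert h1

/-! ### regularity from a finite state -/

theorem reg_of_state [Finite α] {σ : Type*} [Finite σ] (g : List α → σ) (st : σ → α → σ)
    (hg : ∀ w a, g (w ++ [a]) = st (g w) a) (L : Language α)
    (hL : ∀ w w', g w = g w' → w ∈ L → w' ∈ L) : L.IsRegular := by
  classical
  haveI := Fintype.ofFinite σ
  let D : DFA α σ := ⟨st, g [], {q | ∃ w ∈ L, g w = q}⟩
  have key : ∀ w : List α, D.eval w = g w := by
    intro w
    induction w using List.reverseRecOn with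
    | nil => rfl
    | append_singleton w a ih =>
      rw [DFA.eval_append_singleton, ih, hg]
  have hD : D.accepts = L := by
    ext w
    rw [DFA.mem_accepts, key]
    constructor
    · rintro ⟨w', hw', e⟩
      exact hL w' w e hw'
    · intro hw
      exact ⟨w, hw, rfl⟩
  obtain ⟨σ', hσ, D', hD'⟩ : ∃ σ' : Type, ∃ _ : Fintype σ', ∃ D' : DFA α σ',
      D'.accepts = D.accepts := by
    let e := Fintype.equivFin σ
    exact ⟨Fin (Fintype.card σ), inferInstance, D.reindex e, DFA.accepts_reindex D e⟩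
  exact ⟨σ', hσ, D', hD'.trans hD⟩

/-- membership depends only on the first `K` letters, the product of the others, the length
modulo `P` -/
theorem reg_of_key [Finite α] {M : Type*} [Monoid M] [Finite M] (f : α → M) (K P : ℕ)
    (hP : 0 < P) (L : Language α)
    (hL : ∀ w w' : List α, w.take K = w'.take K → ((w.drop K).map f).prod = ((w'.drop K).map f).prod →
      w.length % P = w'.length % P → w ∈ L → w' ∈ L) : L.IsRegular := by
  classical
  haveI : Finite {b : List α // b.length ≤ K} := (List.finite_length_le α K).to_subtype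
  let g : List α → {b : List α // b.length ≤ K} × M × Fin P := fun w =>
    (⟨w.take K, by rw [List.length_take]; omega⟩, ((w.drop K).map f).prod,
      ⟨w.length % P, Nat.mod_lt _ hP⟩)
  let st : {b : List α // b.length ≤ K} × M × Fin P → α → {b : List α // b.length ≤ K} × M × Fin P :=
    fun q a => (⟨(q.1.1 ++ [a]).take K, by rw [List.length_take]; omega⟩,
      (if q.1.1.length < K then q.2.1 else q.2.1 * f a), ⟨(q.2.2.1 + 1) % P, Nat.mod_lt _ hP⟩)
  refine reg_of_state g st ?_ L ?_
  · intro w a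
    refine Prod.ext ?_ (Prod.ext ?_ ?_)
    · apply Subtype.ext
      change (w ++ [a]).take K = (w.take K ++ [a]).take K
      by_cases h : w.length < K
      · rw [List.take_of_length_le (l := w) (by omega)]
      · rw [List.take_append_of_le_length (by omega), List.take_append_of_le_length
          (by rw [List.length_take]; omega), List.take_take, Nat.min_self]
    · change (((w ++ [a]).drop K).map f).prod =
        if (w.take K).length < K then ((w.drop K).map f).prod else ((w.drop K).map f).prod * f a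
      by_cases h : w.length < K
      · rw [if_pos (by rw [List.length_take]; omega)]
        rw [List.drop_eq_nil_of_le (by rw [List.length_append, List.length_singleton]; omega),
          List.drop_eq_nil_of_le (by omega)]
      · rw [if_neg (by rw [List.length_take]; omega)]
        rw [List.drop_append_of_le_length (by omega), List.map_append, List.prod_append]
        simp
    · apply Fin.ext
      change (w ++ [a]).length % P = (w.length % P + 1) % P
      rw [List.length_append, List.length_singleton, Nat.mod_add_mod]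
  · intro w w' h hw
    have h1 := congrArg (fun q => q.1.1) h
    have h2 := congrArg (fun q => q.2.1) h
    have h3 := congrArg (fun q => q.2.2.1) h
    exact hL w w' h1 h2 h3 hw

/-! ### the two levels -/

section levels
variable {Ω : Type*} {Z : Language α} {τ : List α → Ω → Ω}

/-- zones which scheme 1 does not cut for every token -/
def BadZ (Z : Language α) (τ : List α → Ω → Ω) (L1 : Ω → Language α) : Language α :=
  {X | X ∈ Z ∧ ¬ ∀ x, ∃ y, X ∈ (L1 x * Rsem Z Z τ 0 L1 y : Language α)}

theorem RB_zero_hl (x y : Ω) : HL 1 (RB (0 : Language α) τ x y) := by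
  refine (HLempty_eq (k := 1) x y).congr fun w => ?_
  constructor
  · intro h
    cases h with
    | nil => exact ⟨rfl, rfl⟩
    | cons hu _ => exact (Language.notMem_zero _ hu).elim
  · rintro ⟨rfl, rfl⟩
    exact Run.nil x

theorem two_levels [Finite Ω] (hpc : PC Z) (hZ : HL 1 Z) (hτ : ∀ x y, HL 1 (ZT Z τ x y))
    (L1 L2 : Ω → Language α) (hf1 : ∀ x, {p | p ∈ L1 x}.Finite)
    (hf2 : ∀ x, {p | p ∈ L2 x}.Finite)
    (hc2 : ∀ u ∈ BadZ Z τ L1, ∀ t ∈ BadZ Z τ L1, ∀ x, ∃ p q y, u ++ t = p ++ q ∧ p ∈ L2 x ∧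
      q ∈ Rsem Z (BadZ Z τ L1) τ 1 L2 y) (x y : Ω) : HL 3 (RB Z τ x y) := by
  have hsub : ∀ u ∈ BadZ Z τ L1, u ∈ Z := fun u hu => hu.1
  have hB : HL 1 (BadZ Z τ L1) := by
    have h1 : HL 1 ({X | ∀ x, X ∈ ({X | ∃ y, X ∈ (L1 x * Rsem Z Z τ 0 L1 y : Language α)} :
        Language α)} : Language α) :=
      HL.iInter fun x => HL.iUnion fun y =>
        (HL.finite (hf1 x)).mul (Rsem.hl hf1 hZ hZ hτ y)
    exact (hZ.setOf_and h1.setOf_not).congr fun w => Iff.rfl
  have hτB : ∀ x y, HL 1 (ZT (BadZ Z τ L1) τ x y) := by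
    intro x y
    refine (hB.inf (hτ x y)).congr fun w => ?_
    constructor
    · rintro ⟨h1, h2⟩; exact ⟨h1, ⟨hsub _ h1, h2⟩⟩
    · rintro ⟨h1, h2⟩; exact ⟨h1, h2.2⟩
  have l1 : ∀ x y, HL 2 (RB (BadZ Z τ L1) τ x y) := fun x y =>
    step_sem (k := 1) (Zb := Z) (Z := BadZ Z τ L1) (Bad := 0) (N := 1) (L := L2) hpc hsub
      (fun u hu => (Language.notMem_zero _ hu).elim) hZ hB hB.star hτB
      (fun x y => RB_zero_hl x y) hf2
      (fun u hu _ x t ht => hc2 u hu t (by simpa using ht) x) x y
  refine step_sem (k := 2) (Zb := Z) (Z := Z) (Bad := BadZ Z τ L1) (N := 0) (L := L1) hpc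
    (fun _ h => h) hsub (hZ.mono (by norm_num)) (hZ.mono (by norm_num))
    (hZ.star.mono (by norm_num)) (fun x y => (hτ x y).mono (by norm_num)) l1 hf1 ?_ x y
  intro u hu hnb x t ht
  have ht' : t = [] := by
    rw [pow_zero] at ht
    exact ht
  subst ht'
  have hg : ∀ x, ∃ y, u ∈ (L1 x * Rsem Z Z τ 0 L1 y : Language α) := by
    by_contra h
    exact hnb ⟨hu, h⟩
  obtain ⟨y, hy⟩ := hg x
  obtain ⟨p, hp, q, hq, e⟩ := Language.mem_mul.1 hy
  exact ⟨p, q, y, by rw [List.append_nil]; exact e.symm, hp, hq⟩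

end levels

/-! ### read-off -/

theorem RB_iff_Lg {Ω : Type*} (C : Language α) (τ : List α → Ω → Ω) (v v' : Ω) (w : List α) :
    w ∈ RB C τ v v' ↔ w ∈ Blk467.Lg {X | X ∈ C} (fun v X => τ X v) v v' := by
  constructor
  · intro h
    change Run C τ v w v' at h
    induction h with
    | nil x => exact Blk467.Lg.nil _ _ x
    | cons hu _ ih => exact Blk467.Lg.append (Blk467.Lg.single (T := fun v X => τ X v) hu _) ih
  · rintro ⟨l, h1, rfl, rfl⟩
    change Run C τ v l.flatten (l.foldl (fun v X => τ X v) v)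
    induction l generalizing v with
    | nil => exact Run.nil v
    | cons X l ih =>
      exact Run.cons (h1 X List.mem_cons_self)
        (ih _ (fun Y hY => h1 Y (List.mem_cons_of_mem _ hY)))

theorem PC.uparse {C : Language α} (h : PC C) : Blk467.UParse {X | X ∈ C} :=
  Blk467.PCode.uparse ⟨h.ne, fun X hX Y hY hp => h.pf X hX Y hY hp⟩

theorem readoff {S V : Type*} [Monoid S] [Finite S] [AddCommGroup V] [Finite V]
    (act : V → S → V) (hadd : ∀ a b s, act (a + b) s = act a s + act b s)
    (hone : ∀ v, act v 1 = v) (hmul : ∀ v s t, act v (s * t) = act (act v s) t)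
    (hfaith : ∀ s t, (∀ v, act v s = act v t) → s = t)
    (φ : α → S) (nu : List α → V) (C : Language α) (hC : PC C) {k : ℕ}
    (h : ∀ v v', HL k (RB C (fun X v => act v (X.map φ).prod + nu X) v v'))
    (hT : ∀ s : S, HL k ({w | (∀ X ∈ C, ¬ X <+: w) ∧ (w.map φ).prod = s} : Language α))
    (s : S) : HL k ({w | (w.map φ).prod = s} : Language α) := by
  have h1 : ∀ a : S, HL k ({w | w ∈ Blk467.Str {X | X ∈ C} ∧ (w.map φ).prod = a} : Language α) :=
    fun a => Blk467.fibre_of_threads act hadd hone hmul hfaith φ nu {X | X ∈ C} (PC.uparse hC)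
      (fun v v' => (h v v').congr fun w => (RB_iff_Lg C _ v v' w).symm) a
  let A : S → Language α := fun a => {w | w ∈ Blk467.Str {X | X ∈ C} ∧ (w.map φ).prod = a}
  let B : S → Language α := fun b => {w | (∀ X ∈ C, ¬ X <+: w) ∧ (w.map φ).prod = b}
  refine (HL.biUnion (k := k) (Set.toFinite {p : S × S | p.1 * p.2 = s})
    (L := fun p => A p.1 * B p.2)
    (fun p _ => HL.mul (L := A p.1) (M := B p.2) (h1 p.1) (hT p.2))).congr fun w => ?_
  constructor
  · intro hw
    obtain ⟨M, E, rfl, hM, hE⟩ := Blk467.exists_parse (C := {X | X ∈ C}) hC.ne w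
    refine ⟨((M.map φ).prod, (E.map φ).prod), ?_, ?_⟩
    · have hw' : ((M ++ E).map φ).prod = s := hw
      rw [List.map_append, List.prod_append] at hw'
      exact hw'
    · exact Language.mem_mul.2 ⟨M, ⟨hM, rfl⟩, E, ⟨hE, rfl⟩, rfl⟩
  · rintro ⟨p, hp, hw⟩
    obtain ⟨M, ⟨_, hM⟩, E, ⟨_, hE⟩, rfl⟩ := Language.mem_mul.1 hw
    change ((M ++ E).map φ).prod = s
    rw [List.map_append, List.prod_append, hM, hE]
    exact hp

/-- the rest: words without a block -/
theorem HL_rest [Finite α] {n z : ℕ} {S : Set (List α)} (hS : ∀ s ∈ S, s.length = n)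
    (hfew : ∀ (L : Language α), L.IsRegular → ∀ r, HL 1 ({w | w ∈ L ∧ nw n S w ≤ r} : Language α))
    {M : Type*} [Monoid M] [Finite M] (φ : α → M) (s : M) :
    HL 1 ({w | (∀ X ∈ XX n z S, ¬ X <+: w) ∧ (w.map φ).prod = s} : Language α) := by
  have hreg : Language.IsRegular ({w | (w.map φ).prod = s} : Language α) := by
    refine reg_of_key φ 0 1 Nat.one_pos _ ?_
    intro w w' _ h _ hw
    rw [List.drop_zero, List.drop_zero] at h
    change (w'.map φ).prod = s
    rw [← h]
    exact hw
  have h1 := hfew _ hreg (z + 1)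
  have h2 : HL 1 ({w | ¬ ∃ v ∈ XX n z S, v <+: w} : Language α) :=
    (HL.prefix (HL_XX (k := 1) (z := z) S hS)).setOf_not
  refine (h2.inf h1).congr fun w => ?_
  constructor
  · rintro ⟨g1, g2⟩
    refine ⟨fun ⟨v, hv, hp⟩ => g1 v hv hp, g2, ?_⟩
    refine nw_le ?_
    intro t ht1 ht2 ht3
    obtain ⟨t0, _, _, hX, _⟩ := XX_exists ht1 ht2.le ht3
    exact g1 _ hX (List.take_prefix _ _)
  · rintro ⟨g1, g2, _⟩
    exact ⟨fun v hv hp => g1 ⟨v, hv, hp⟩, g2⟩

end Crest.Agent.R320.FinA_792
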