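import Crest.Agent.R320.WallU_36
import Crest.Agent.R320.Code_110

/-!
# Row 320: the natural zone rule on all words (helper813)

`NZ Wo z` = words which end at the first wall at a place `≥ z` (left-looking walls `Wo`).
Prefix code, height `0`; every finite-state property of a zone has height one; so have the tails.
-/

set_option autoImplicit false

namespace Crest.Agent.R320.Zones_813

open Crest.RegLang Crest.Agent.R320.Hk_851 Crest.Agent.R320.CompR_11

universe u

variable {α : Type u} {k : ℕ}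

/-- zones -/
def NZ (Wo : List α → Prop) (z : ℕ) : Language α :=
  {X | z ≤ X.length ∧ Wo X ∧ ∀ t, z ≤ t → t < X.length → ¬ Wo (X.take t)}

theorem NZ_prefix {Wo : List α → Prop} {z : ℕ} {X Y : List α} (hX : X ∈ NZ Wo z)
    (hY : Y ∈ NZ Wo z) (h : X <+: Y) : X = Y := by
  obtain ⟨h1, h2, _⟩ := hX
  obtain ⟨_, _, h3⟩ := hY
  rcases lt_or_eq_of_le h.length_le with hlt | he
  · refine absurd h2 ?_
    have := h3 X.length h1 hlt
    rwa [← List.prefix_iff_eq_take.1 h] at this
  · exact h.eq_of_length he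

theorem NZ_pc {Wo : List α → Prop} {z : ℕ} (hz : 0 < z) : Code110.PC (NZ Wo z) where
  ne := fun h => by
    have h1 : z ≤ ([] : List α).length := h.1
    simp at h1
    omega
  pf := fun _ hu _ hv h => NZ_prefix hu hv h

/-- the first wall at a place `≥ z` ends a zone -/
theorem exists_NZ {Wo : List α → Prop} {z : ℕ} (w : List α) (t : ℕ) (hz : z ≤ t)
    (ht : t ≤ w.length) (hw : Wo (w.take t)) :
    ∃ t', z ≤ t' ∧ t' ≤ t ∧ w.take t' ∈ NZ Wo z := by
  classical
  have hex : ∃ s, z ≤ s ∧ s ≤ w.length ∧ Wo (w.take s) := ⟨t, hz, ht, hw⟩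
  obtain ⟨h1, h2, h3⟩ := Nat.find_spec hex
  have h4 : ∀ s, z ≤ s → s < Nat.find hex → ¬ Wo (w.take s) := fun s hs hlt hW =>
    Nat.find_min hex hlt ⟨hs, by omega, hW⟩
  refine ⟨Nat.find hex, h1, Nat.find_min' hex ⟨hz, ht, hw⟩, ?_, h3, ?_⟩
  · rw [List.length_take]; omega
  · intro s hs hlt
    rw [List.length_take, min_eq_left h2] at hlt
    rw [List.take_take, min_eq_left hlt.le]
    exact h4 s hs hlt

theorem HL_Wo [Finite α] {n : ℕ} {Wo : List α → Prop}
    (hloc : ∀ P Q, n ≤ Q.length → (Wo (P ++ Q) ↔ Wo Q)) (hlen : ∀ P, Wo P → n ≤ P.length) :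
    HL k ({X | Wo X} : Language α) := by
  have hf : HL k ({Q | Q.length ≤ n ∧ (Q.length = n ∧ Wo Q)} : Language α) :=
    HL.finite ((List.finite_length_le α n).subset fun _ h => h.1)
  refine ((HL.top (k := k)).mul hf).congr fun w => ?_
  constructor
  · intro h
    have h' : Wo w := h
    have hl := hlen w h'
    refine Language.mem_mul.2 ⟨w.take (w.length - n), Set.mem_univ _, w.drop (w.length - n),
      ⟨?_, ?_, ?_⟩, List.take_append_drop _ _⟩
    · rw [List.length_drop]; omega
    · rw [List.length_drop]; omega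
    · rw [← hloc (w.take (w.length - n)) _ (by rw [List.length_drop]; omega),
        List.take_append_drop]
      exact h'
  · intro h
    obtain ⟨a, _, b, ⟨_, h2, h3⟩, rfl⟩ := Language.mem_mul.1 h
    exact (hloc a b (by omega)).2 h3

theorem NZ_hl [Finite α] {n : ℕ} {Wo : List α → Prop}
    (hloc : ∀ P Q, n ≤ Q.length → (Wo (P ++ Q) ↔ Wo Q)) (hlen : ∀ P, Wo P → n ≤ P.length)
    (z : ℕ) : HL k (NZ Wo z) := by
  have hA : HL k ({X | z ≤ X.length ∧ Wo X} : Language α) :=
    HL.setOf_and (HL.length_ge z) (HL_Wo hloc hlen)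
  have hL : HL k ({X | 1 ≤ X.length} : Language α) := HL.length_ge 1
  refine (hA.sdiff (hA.mul hL)).congr fun w => ?_
  constructor
  · rintro ⟨h1, h2, h3⟩
    refine ⟨⟨h1, h2⟩, fun h => ?_⟩
    obtain ⟨a, ⟨ha1, ha2⟩, b, hb, rfl⟩ := Language.mem_mul.1 h
    have hb' : 1 ≤ b.length := hb
    refine h3 a.length ha1 (by rw [List.length_append]; omega) ?_
    rw [List.take_left']
    · exact ha2
    · rfl
  · rintro ⟨⟨h1, h2⟩, h3⟩
    refine ⟨h1, h2, fun t ht hlt hW => h3 ?_⟩
    refine Language.mem_mul.2 ⟨w.take t, ⟨?_, hW⟩, w.drop t, ?_, List.take_append_drop _ _⟩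
    · rw [List.length_take]; omega
    · change 1 ≤ (w.drop t).length
      rw [List.length_drop]; omega

/-- values in a finite monoid are computed at height one on `Pieces` -/
theorem val_pieces [Finite α] {M : Type*} [Monoid M] [Finite M] (f : α → M) (R B : ℕ) (m : M) :
    ∃ L : Language α, HL 1 L ∧ ∀ w, Pieces R B w → (w ∈ L ↔ (w.map f).prod = m) := by
  obtain ⟨F, h1, h2, h3⟩ := comp_pieces (α := α) (fun (q : M) a => q * f a) R B
  have hrun : ∀ (w : List α) (q : M),
      Thr_851.run (fun (q : M) a => q * f a) q w = q * (w.map f).prod := by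
    intro w
    induction w with
    | nil => intro q; simp [Thr_851.run]
    | cons a w ih =>
      intro q
      have : Thr_851.run (fun (q : M) a => q * f a) q (a :: w) =
        Thr_851.run (fun (q : M) a => q * f a) (q * f a) w := rfl
      rw [this, ih, List.map_cons, List.prod_cons, mul_assoc]
  refine ⟨F 1 m, h1 _ _, fun w hw => ?_⟩
  constructor
  · intro h
    have := h2 _ _ w h
    rwa [hrun, one_mul] at this
  · intro h
    have := h3 1 w hw
    rwa [hrun, one_mul, h] at this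

/-- value and length -/
theorem val_len_pieces [Finite α] {M : Type*} [Monoid M] [Finite M] (f : α → M) (R B M0 : ℕ)
    (hM0 : 0 < M0) (m : M) (r : ℕ) :
    ∃ L : Language α, HL 1 L ∧
      ∀ w, Pieces R B w → (w ∈ L ↔ (w.map f).prod = m ∧ w.length % M0 = r % M0) := by
  have : NeZero M0 := ⟨hM0.ne'⟩
  obtain ⟨L, h1, h2⟩ := val_pieces (α := α)
    (fun a => ((f a, Multiplicative.ofAdd (1 : ZMod M0)) : M × Multiplicative (ZMod M0))) R B
    (m, Multiplicative.ofAdd (r : ZMod M0))
  refine ⟨L, h1, fun w hw => ?_⟩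
  rw [h2 w hw]
  have hprod : ∀ w : List α, (w.map (fun a =>
      ((f a, Multiplicative.ofAdd (1 : ZMod M0)) : M × Multiplicative (ZMod M0)))).prod =
      ((w.map f).prod, Multiplicative.ofAdd (w.length : ZMod M0)) := by
    intro w
    induction w with
    | nil => simp; rfl
    | cons a w ih =>
      rw [List.map_cons, List.prod_cons, ih, List.map_cons, List.prod_cons, Prod.mk_mul_mk,
        ← ofAdd_add, List.length_cons]
      congr 2
      push_cast
      ring
  rw [hprod, Prod.mk.injEq]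
  have : Multiplicative.ofAdd ((w.length : ℕ) : ZMod M0) = Multiplicative.ofAdd ((r : ℕ) : ZMod M0)
      ↔ w.length % M0 = r % M0 := by
    rw [Multiplicative.ofAdd.injective.eq_iff, ZMod.natCast_eq_natCast_iff']
  rw [this]

section fs

variable [Finite α] {n : ℕ} {Wo : List α → Prop}
  (hloc : ∀ P Q, n ≤ Q.length → (Wo (P ++ Q) ↔ Wo Q)) (hlen : ∀ P, Wo P → n ≤ P.length)
  {R B : ℕ} (hfree : ∀ u : List α, (∀ t < u.length, ¬ Wo (u.take t)) → Pieces R B u)

include hloc hlen hfree in
theorem drop_pieces {z : ℕ} {X : List α} (h : ∀ t, z ≤ t → t < X.length → ¬ Wo (X.take t)) :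
    Pieces R B (X.drop z) := by
  refine hfree _ fun t ht hW => ?_
  rw [List.length_drop] at ht
  have hn := hlen _ hW
  refine h (z + t) (by omega) (by omega) ?_
  have e : X.take (z + t) = X.take z ++ (X.drop z).take t := List.take_add
  rw [e, hloc _ _ hn]
  exact hW

include hloc hlen hfree in
/-- **finite-state properties of words without walls at places `≥ z`** -/
theorem free_fs {M : Type*} [Monoid M] [Finite M] (f : α → M) {z L0 M0 : ℕ} (hL0 : L0 ≤ z)
    (hM0 : 0 < M0) (p : List α → Prop)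
    (hp : ∀ X X' : List α, L0 ≤ X.length → L0 ≤ X'.length → X.take L0 = X'.take L0 →
      X.length % M0 = X'.length % M0 → ((X.drop L0).map f).prod = ((X'.drop L0).map f).prod →
      (p X ↔ p X')) :
    ∃ L : Language α, HL 1 L ∧ ∀ X : List α, z ≤ X.length →
      (∀ t, z ≤ t → t < X.length → ¬ Wo (X.take t)) → (X ∈ L ↔ p X) := by
  classical
  choose L hL1 hL2 using fun (m : M) (r : ℕ) => val_len_pieces (α := α) f R B M0 hM0 m r
  let G : Set (List α × M × Fin M0) :=
    {g | g.1.length = z ∧ ∃ X' : List α, X'.take z = g.1 ∧ z ≤ X'.length ∧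
      ((X'.drop z).map f).prod = g.2.1 ∧ (X'.drop z).length % M0 = (g.2.2 : ℕ) % M0 ∧ p X'}
  have hG : G.Finite := by
    refine ((List.finite_length_le α z).prod (Set.toFinite (Set.univ : Set (M × Fin M0)))).subset ?_
    rintro ⟨x, y⟩ h
    exact ⟨le_of_eq h.1, trivial⟩
  have key : ∀ X X' : List α, z ≤ X.length → z ≤ X'.length → X.take z = X'.take z →
      (X.drop z).length % M0 = (X'.drop z).length % M0 →
      ((X.drop z).map f).prod = ((X'.drop z).map f).prod → (p X ↔ p X') := by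
    intro X X' h1 h2 h3 h4 h5
    have hd : ∀ Y : List α, z ≤ Y.length → Y.drop L0 = (Y.take z).drop L0 ++ Y.drop z := by
      intro Y hY
      conv_lhs => rw [← List.take_append_drop z Y]
      rw [List.drop_append_of_le_length (by rw [List.length_take]; omega)]
    refine hp X X' (by omega) (by omega) ?_ ?_ ?_
    · have e1 : X.take L0 = (X.take z).take L0 := by rw [List.take_take, min_eq_left hL0]
      have e2 : X'.take L0 = (X'.take z).take L0 := by rw [List.take_take, min_eq_left hL0]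
      rw [e1, e2, h3]
    · rw [List.length_drop, List.length_drop] at h4
      have e1 : X.length = z + (X.length - z) := by omega
      have e2 : X'.length = z + (X'.length - z) := by omega
      rw [e1, e2, Nat.add_mod, h4, ← Nat.add_mod]
    · rw [hd X h1, hd X' h2, List.map_append, List.map_append, List.prod_append,
        List.prod_append, h3, h5]
  refine ⟨{w | ∃ g ∈ G, w ∈ (({g.1} : Language α) * L g.2.1 (g.2.2 : ℕ) : Language α)},
    HL.biUnion hG (fun g _ => (HL.word g.1).mul (hL1 _ _)), fun X hX hXf => ?_⟩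
  have hXp : Pieces R B (X.drop z) := drop_pieces hloc hlen hfree hXf
  constructor
  · rintro ⟨g, ⟨hg1, X', hX1, hX2, hX3, hX4, hX5⟩, hg⟩
    obtain ⟨a, ha, b, hb, rfl⟩ := Language.mem_mul.1 hg
    have ha' : a = g.1 := ha
    subst ha'
    have hd : (g.1 ++ b).drop z = b := by rw [← hg1, List.drop_left]
    have ht : (g.1 ++ b).take z = g.1 := by rw [← hg1, List.take_left]
    rw [hd] at hXp
    obtain ⟨h6, h7⟩ := (hL2 _ _ b hXp).1 hb
    refine (key (g.1 ++ b) X' hX hX2 (by rw [ht, hX1]) ?_ ?_).2 hX5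
    · rw [hd, h7, hX4]
    · rw [hd, h6, hX3]
  · intro hpX
    refine ⟨(X.take z, ((X.drop z).map f).prod, ⟨(X.drop z).length % M0, Nat.mod_lt _ hM0⟩),
      ⟨?_, X, rfl, hX, rfl, ?_, hpX⟩, ?_⟩
    · rw [List.length_take]; omega
    · simp
    · refine Language.mem_mul.2 ⟨X.take z, rfl, X.drop z, ?_, List.take_append_drop _ _⟩
      exact (hL2 _ _ _ hXp).2 ⟨rfl, by simp⟩

include hloc hlen hfree in
/-- **finite-state properties of zones** -/
theorem NZ_fs {M : Type*} [Monoid M] [Finite M] (f : α → M) {z L0 M0 : ℕ} (hL0 : L0 ≤ z)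
    (hM0 : 0 < M0) (p : List α → Prop)
    (hp : ∀ X X' : List α, L0 ≤ X.length → L0 ≤ X'.length → X.take L0 = X'.take L0 →
      X.length % M0 = X'.length % M0 → ((X.drop L0).map f).prod = ((X'.drop L0).map f).prod →
      (p X ↔ p X')) : HL 1 ({X | X ∈ NZ Wo z ∧ p X} : Language α) := by
  obtain ⟨L, h1, h2⟩ := free_fs hloc hlen hfree f hL0 hM0 p hp
  refine ((NZ_hl (k := 1) hloc hlen z).inf h1).congr fun w => ?_
  constructor
  · rintro ⟨ha, hb⟩
    exact ⟨ha, (h2 w ha.1 ha.2.2).2 hb⟩
  · rintro ⟨ha, hb⟩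
    exact ⟨ha, (h2 w ha.1 ha.2.2).1 hb⟩

include hloc hlen hfree in
/-- **tails** -/
theorem NZ_tail {M : Type*} [Monoid M] [Finite M] (f : α → M) (z : ℕ) (s : M) :
    HL 1 ({r | (∀ X ∈ NZ Wo z, ¬ X <+: r) ∧ (r.map f).prod = s} : Language α) := by
  obtain ⟨L, h1, h2⟩ := free_fs hloc hlen hfree f (z := z) (L0 := 0) (M0 := 1) (Nat.zero_le z)
    one_pos (fun X => (X.map f).prod = s) (fun X X' _ _ _ _ h => by
      rw [List.drop_zero, List.drop_zero] at h
      rw [h])
  have hfin : HL 1 ({r | r.length < z ∧ (r.map f).prod = s} : Language α) :=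
    HL.finite ((List.finite_length_le α z).subset fun w h => le_of_lt h.1)
  have hnp : HL 1 (({w | ∃ v ∈ NZ Wo z, v <+: w} : Language α)ᶜ) :=
    (HL.prefix (NZ_hl (k := 1) hloc hlen z)).compl
  have hge : HL 1 ({r | z ≤ r.length} : Language α) := HL.length_ge z
  refine (hnp.inf (hfin.add (hge.inf h1))).congr fun w => ?_
  have hnw : (∀ X ∈ NZ Wo z, ¬ X <+: w) → z ≤ w.length →
      ∀ t, z ≤ t → t < w.length → ¬ Wo (w.take t) := by
    intro h _ t ht hlt hW
    obtain ⟨t', _, _, h3⟩ := exists_NZ w t ht hlt.le hW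
    exact h _ h3 (List.take_prefix _ _)
  constructor
  · rintro ⟨ha, hb⟩
    refine ⟨fun ⟨v, hv, hvw⟩ => ha v hv hvw, ?_⟩
    rcases lt_or_ge w.length z with hlt | hge'
    · exact Or.inl ⟨hlt, hb⟩
    · exact Or.inr ⟨hge', (h2 w hge' (hnw ha hge')).2 hb⟩
  · rintro ⟨ha, hb⟩
    have ha' : ∀ X ∈ NZ Wo z, ¬ X <+: w := fun X hX hXw => ha ⟨X, hX, hXw⟩
    refine ⟨ha', ?_⟩
    rcases hb with ⟨_, hb⟩ | ⟨hge', hb⟩
    · exact hb
    · exact (h2 w hge' (hnw ha' hge')).1 hb

end fs

end Crest.Agent.R320.Zones_813
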