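import Crest.Agent.R320.Top5_120
import Crest.Agent.R320.Sc2n_937
import Crest.Agent.R320.GridG_19
import Crest.Agent.R320.SpoilGrid_567
import Crest.Agent.R320.ExactR_237
import Crest.Agent.R320.Zones_813

/-!
# Row 320: final join, part A (helper813)
-/

set_option autoImplicit false

namespace Crest.Agent.R320.FinA_813

open Crest.RegLang Crest.Agent.R320.Hk_851 Crest.Agent.R320.Sc2n_937 Crest.Agent.R320.GridG_19

/-- bad totals -/
def BT (Ms : Finset ℕ) (M G m : ℕ) (T : ℕ) : Prop :=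
  (∃ q ∈ Ms, q ∣ T) ∨ BadG (fun k => G ^ k) M 0 m T

theorem BT_int {Ms : Finset ℕ} {M G m T : ℕ} (hG : 0 < G)
    (hT : Am (fun k => G ^ k) M 0 m ≤ T) (h : BT Ms M G m T) :
    SpoilGrid_567.BadT Ms M G m (fun k => (Am (fun k => G ^ k) M 0 k : ℤ)) (T : ℤ) := by
  rcases h with ⟨q, hq, hd⟩ | ⟨k, hk, h⟩
  · exact Or.inl ⟨q, hq, by exact_mod_cast hd⟩
  · right
    have hA : Am (fun k => G ^ k) M 0 (k + 1) ≤ T := (Am_mono _ _ _ (by omega)).trans hT
    set A := Am (fun k => G ^ k) M 0 (k + 1) with hAdef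
    set g := G ^ (k + 1) with hg
    have hgpos : 0 < g := by positivity
    have hdm := Nat.div_add_mod (T - A) g
    set d := (T - A) / g with hd
    set r := (T - A) % g with hr
    have hrl : r < g := Nat.mod_lt _ hgpos
    have e1 : (T : ℤ) - A = g * d + r := by
      have : T - A + A = T := Nat.sub_add_cancel hA
      have h2 : ((T - A : ℕ) : ℤ) = g * d + r := by exact_mod_cast hdm.symm
      have h3 : ((T - A : ℕ) : ℤ) = (T : ℤ) - A := by push_cast [Nat.cast_sub hA]; ring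
      rw [← h3, h2]
    refine ⟨k + 1, by omega, by omega, ?_⟩
    have hG' : ((G : ℤ)) ^ (k + 1) = (g : ℤ) := by rw [hg]; push_cast; rfl
    rcases h with h | h
    · refine ⟨d, ?_⟩
      rw [hG']
      have : (T : ℤ) - A - d * g = r := by rw [e1]; ring
      simp only [← hAdef]
      rw [this, Nat.abs_cast, Nat.add_sub_cancel]
      have h' : (r : ℤ) < M * G ^ k := by exact_mod_cast h
      exact h'.le
    · refine ⟨d + 1, ?_⟩
      rw [hG']
      have : (T : ℤ) - A - (d + 1) * g = -((g : ℤ) - r) := by rw [e1]; ring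
      simp only [← hAdef]
      rw [this, abs_neg, Nat.add_sub_cancel, abs_of_nonneg (by
        have : (r : ℤ) < g := by exact_mod_cast hrl
        linarith)]
      have h' : (g : ℤ) ≤ r + M * G ^ k := by exact_mod_cast h
      linarith

theorem BT_per {Ms : Finset ℕ} {M G m T T' : ℕ} (hM : ∀ q ∈ Ms, q ∣ M)
    (hT : Am (fun k => G ^ k) M 0 m ≤ T) (hT' : Am (fun k => G ^ k) M 0 m ≤ T')
    (h : T ≡ T' [MOD M * G ^ m]) (hb : BT Ms M G m T) : BT Ms M G m T' := by
  rcases hb with ⟨q, hq, hd⟩ | ⟨k, hk, hb⟩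
  · left
    refine ⟨q, hq, ?_⟩
    have h1 : T ≡ T' [MOD q] := h.of_dvd ((hM q hq).trans (Dvd.intro _ rfl))
    exact (Nat.ModEq.dvd_iff h1 dvd_rfl).1 hd
  · right
    refine ⟨k, hk, ?_⟩
    have h1 : T ≡ T' [MOD G ^ (k + 1)] :=
      h.of_dvd ((pow_dvd_pow G (by omega)).trans (Dvd.intro_left _ rfl))
    have hA : Am (fun k => G ^ k) M 0 (k + 1) ≤ Am (fun k => G ^ k) M 0 m :=
      Am_mono _ _ _ (by omega)
    have h2 : T - Am (fun k => G ^ k) M 0 (k + 1) ≡ T' - Am (fun k => G ^ k) M 0 (k + 1)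
        [MOD G ^ (k + 1)] := by
      refine Nat.ModEq.add_right_cancel' (Am (fun k => G ^ k) M 0 (k + 1)) ?_
      rw [Nat.sub_add_cancel (hA.trans hT), Nat.sub_add_cancel (hA.trans hT')]
      exact h1
    have h3 : (T - Am (fun k => G ^ k) M 0 (k + 1)) % G ^ (k + 1) =
        (T' - Am (fun k => G ^ k) M 0 (k + 1)) % G ^ (k + 1) := h2
    simp only at hb ⊢
    rw [← h3]
    exact hb

section comb

variable {A V : Type*} (g : Geo A) (pre : List A → V → V) (post : V → List A → V)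

/-- both schemes: `hcc1` -/
theorem cc1 {lam rho : List A → Option V} {BadT : ℕ → Prop}
    (hlen : ∀ P v, lam P = some v → P.length ≤ g.N1)
    (hex : ∀ P Q u b, lam P = some u → rho Q = some b → b = post u (P ++ Q))
    (hc : ∀ Y : List A, g.q0 + g.N1 ≤ Y.length → ¬ BadT Y.length → ∀ u : V, ∃ P Q,
      Y = P ++ Q ∧ lam P = some u ∧ (rho Q).isSome)
    {X : List A} (hX : g.XX X) (hb : ¬ g.BadX BadT X) (v : V) :
    ∃ P Q, P ++ Q = X ∧ g.LP1 pre lam v P ∧ ∀ x, ∀ P', g.LP1 pre lam x P' →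
      g.XX (P' ++ Q) ∧ g.T pre post x (P' ++ Q) = g.T pre post v X := by
  have hE : ¬ g.E X := fun h => hb (Or.inl h)
  have hB : ¬ BadT (X.length - g.p0) := fun h => hb (Or.inr h)
  have hz := g.hz
  have hXz := hX.1
  obtain ⟨P, Q, b, e, h1, h2⟩ := g.complete1 pre hlen hX hE
    (hc (X.drop g.p0) (by rw [List.length_drop]; omega) (by rw [List.length_drop]; exact hB)) v
  refine ⟨P, Q, e.symm, h1, fun x P' hP' => ?_⟩
  have h3 := g.sound1 pre post hlen hex h1 h2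
  have h4 := g.sound1 pre post hlen hex hP' h2
  rw [← e] at h3
  exact ⟨h4.1, h4.2.trans h3.2.symm⟩

/-- both schemes: `hcc2` -/
theorem cc2 {BadT : ℕ → Prop} {K : ℕ} {c : ℕ → ℕ} {lam2 rho2 : ℕ → List A → Option V}
    {C0 : ℕ}
    (hc : ∀ k, k < K → c k ≤ g.p0)
    (hgap : ∀ P Q : List A, g.Wo P → g.Wo (P ++ Q) → Q ≠ [] → 2 * g.p0 + 2 * g.N1 < Q.length)
    (hsp : ∀ k k' l l', k < K → k' < K → l < K → l' < K → k' ≠ k → l' ≠ l →
      c k + c l' < c l + c k' + 2 * g.N1 → c l + c k' < c k + c l' + 2 * g.N1 → k = l)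
    (hthin : ∀ τ, g.z ≤ τ + g.p0 → ∀ J : Finset ℕ, (∀ k ∈ J, k < K ∧
      ∃ k', k' < K ∧ k' ≠ k ∧ BadT (τ + c k' - c k - g.p0)) → J.card ≤ C0)
    (hex : ∀ k, k < K → ∀ P Q v u, P.length = c k → Q.length = g.p0 - c k →
      lam2 k P = some v → rho2 k Q = some u → u = pre (P ++ Q) v)
    {X Y : List A} (hX : g.XX X) (hXb : g.BadX BadT X) (hY : g.XX Y) (v : V)
    (hI : ∃ I : Finset ℕ, 2 * C0 + 2 ≤ I.card ∧ ∀ k ∈ I, k < K ∧
      lam2 k (X.take (c k)) = some v ∧ (rho2 k ((X.take g.p0).drop (c k))).isSome) :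
    ∃ P Q, P ++ Q = X ++ Y ∧ Geo.LP2 K c lam2 v P ∧ ∀ x, ∀ P', Geo.LP2 K c lam2 x P' →
      (∃ X', (g.XX X' ∧ g.BadX BadT X') ∧ ∃ Y', g.XX Y' ∧ X' ++ Y' = P' ++ Q ∧
        g.T pre post (g.T pre post x X') Y' = g.T pre post (g.T pre post v X) Y) ∨
      (∃ X', g.XX X' ∧ ¬ g.BadX BadT X' ∧ X' <+: P' ++ Q) := by
  obtain ⟨P, Q, b, e, h1, h2⟩ := g.complete2 pre post hc hgap hsp hthin hX hY v hI
  refine ⟨P, Q, e, h1, fun x P' hP' => ?_⟩
  have hmain : g.T pre post (g.T pre post v X) Y = b := by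
    obtain ⟨X2, a1, a2, a3⟩ := g.sound2 pre post hc hex (R := []) (R' := Y) hX hXb h1 h2
      (by rw [List.append_nil]; exact e)
    rw [e] at a2
    rw [List.append_cancel_left a2]
    exact a3
  have h2' := h2
  obtain ⟨k, hk, l, hend, hgood, hX2, u, hr, hb⟩ := h2
  obtain ⟨k', hk', hPl, hl⟩ := hP'
  by_cases hkk : k' = k
  · subst hkk
    have hXX : g.XX (P' ++ Q.take l) :=
      g.xx_of_cend (by rw [hPl]; exact hc k' hk') (by rw [hPl]; exact hend)
    by_cases hbad : g.BadX BadT (P' ++ Q.take l)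
    · left
      obtain ⟨X2, a1, a2, a3⟩ := g.sound2 pre post hc hex (R := []) (R' := Q.drop l) hXX hbad
        ⟨k', hk', hPl, hl⟩ h2' (by
          rw [List.append_nil, List.append_assoc, List.take_append_drop])
      exact ⟨P' ++ Q.take l, ⟨hXX, hbad⟩, X2, a1, a2.symm, a3.trans hmain.symm⟩
    · right
      refine ⟨P' ++ Q.take l, hXX, hbad, ?_⟩
      exact (List.prefix_append_right_inj P').2 (List.take_prefix _ _)
  · right
    obtain ⟨l', he', hg'⟩ := hgood k' hk' hkk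
    refine ⟨P' ++ Q.take l', g.xx_of_cend (by rw [hPl]; exact hc k' hk') (by rw [hPl]; exact he'),
      fun hbad => hg' ?_, (List.prefix_append_right_inj P').2 (List.take_prefix _ _)⟩
    have := g.cbad_of_bad (by rw [hPl]; exact hc k' hk') (by rw [hPl]; exact he') hbad
    rwa [hPl] at this

end comb

end Crest.Agent.R320.FinA_813
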