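import Crest.Agent.R320.Top5_120
import Crest.Agent.R320.Sc2n_937
import Crest.Agent.R320.P4_933
import Crest.Agent.R320.Bridge_975

/-! Row 320: joint of Top5_120, Sc2n_937, P4_933 (helper824). -/

set_option autoImplicit false

namespace Crest.Agent.R320.FinA_824

open Crest.RegLang Crest.Agent.R320.Hk_851 Crest.Agent.R320.Blk467
open Crest.Agent.R320.Sc2n_937

variable {A S V : Type} [Finite A] [Monoid S] [Finite S] [AddCommGroup V] [Finite V]

/-- product of a word -/
def pd (φ : A → S) (w : List A) : S := (w.map φ).prod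

theorem pd_append (φ : A → S) (u v : List A) : pd φ (u ++ v) = pd φ u * pd φ v := by
  simp [pd]

theorem pd_split (φ : A → S) (u : List A) (a : ℕ) :
    pd φ u = pd φ (u.take a) * pd φ (u.drop a) := by
  rw [← pd_append, List.take_append_drop]

/-- product of `drop a` from the class of `q` -/
theorem pd_drop_congr (φ : A → S) {q q2 : List A} {L a : ℕ} (ha : a ≤ L)
    (h1 : q.take L = q2.take L)
    (h2 : pd φ (q.drop L) = pd φ (q2.drop L)) : pd φ (q.drop a) = pd φ (q2.drop a) := by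
  have e : ∀ u : List A, u.drop a = (u.take L).drop a ++ u.drop L := by
    intro u
    conv_lhs => rw [← List.take_append_drop L u]
    rw [List.drop_append]
    congr 1
    rw [List.length_take]
    by_cases h : L ≤ u.length
    · rw [min_eq_left h, Nat.sub_eq_zero_of_le ha, List.drop_zero]
    · rw [List.drop_eq_nil_of_le (by omega : u.length ≤ L)]
      simp
  rw [e q, e q2, pd_append, pd_append, h1, h2]

theorem joinA (act : V → S → V)
    (hadd : ∀ a b s, act (a + b) s = act a s + act b s)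
    (hone : ∀ v, act v 1 = v) (hmul : ∀ v s t, act v (s * t) = act (act v s) t)
    (hfaith : ∀ s t, (∀ v, act v s = act v t) → s = t) (φ : A → S)
    (g : Geo A) (len : ∀ P, g.Wo P → g.n ≤ P.length) (B R : ℕ)
    (free : ∀ u : List A, (∀ t < u.length, ¬ g.Wo (u.take t)) →
      u ∈ (BddReg_746.PN B R : Language A))
    (lam rho : List A → Option V) (nu1 : List A → V)
    (lam2 rho2 : ℕ → List A → Option V) (nu2 : List A → V)
    (BadT : ℕ → Prop) (K : ℕ) (c : ℕ → ℕ) (C0 La M0 : ℕ) (hM0 : 0 < M0)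
    (h1len : ∀ P v, lam P = some v → P.length ≤ g.N1)
    (h1s : ∀ P Q u b, lam P = some u → rho Q = some b →
      b = act u (pd φ (P ++ Q)) + nu1 (P ++ Q))
    (h1c : ∀ X, g.XX X → ¬ BadT (X.length - g.p0) → ∀ u : V, ∃ P Q, X.drop g.p0 = P ++ Q ∧
      lam P = some u ∧ (rho Q).isSome)
    (h1r : ∀ Q Q' : List A, La ≤ Q.length → La ≤ Q'.length → Q.take La = Q'.take La →
      pd φ (Q.drop La) = pd φ (Q'.drop La) → Q.length ≡ Q'.length [MOD M0] → nu1 Q = nu1 Q')
    (hper : ∀ T T', T ≡ T' [MOD M0] → (BadT T ↔ BadT T'))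
    (hc : ∀ k, k < K → c k ≤ g.p0)
    (hgap : ∀ P Q : List A, g.Wo P → g.Wo (P ++ Q) → Q ≠ [] → 2 * g.p0 + 2 * g.N1 < Q.length)
    (hsp : ∀ k k' l l', k < K → k' < K → l < K → l' < K → k' ≠ k → l' ≠ l →
      c k + c l' < c l + c k' + 2 * g.N1 → c l + c k' < c k + c l' + 2 * g.N1 → k = l)
    (hthin : ∀ τ, g.z ≤ τ + g.p0 → ∀ J : Finset ℕ, (∀ k ∈ J, k < K ∧
      ∃ k', k' < K ∧ k' ≠ k ∧ BadT (τ + c k' - c k - g.p0)) → J.card ≤ C0)
    (h2s : ∀ k, k < K → ∀ P Q v u, P.length = c k → Q.length = g.p0 - c k →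
      lam2 k P = some v → rho2 k Q = some u → u = act v (pd φ (P ++ Q)) + nu2 (P ++ Q))
    (h2c : ∀ (u : List A) (v : V), u.length = g.p0 → ∃ I : Finset ℕ, 2 * C0 + 2 ≤ I.card ∧
      ∀ k ∈ I, k < K ∧ lam2 k (u.take (c k)) = some v ∧ (rho2 k (u.drop (c k))).isSome)
    (s : S) : HL 3 ({w | (w.map φ).prod = s} : Language A) := by
  classical
  have hz := g.hz
  have hq := g.hq
  set pre : List A → V → V := fun X v => act v (pd φ X) + nu2 X with hpre
  set post : V → List A → V := fun v Y => act v (pd φ Y) + nu1 Y with hpost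
  set nu : List A → V := fun X => act (nu2 (X.take g.p0)) (pd φ (X.drop g.p0)) +
    nu1 (X.drop g.p0) with hnu
  have hT : ∀ v X, g.T pre post v X = act v (X.map φ).prod + nu X := by
    intro v X
    show act (act v (pd φ (X.take g.p0)) + nu2 (X.take g.p0)) (pd φ (X.drop g.p0)) +
      nu1 (X.drop g.p0) = act v (pd φ X) + (act (nu2 (X.take g.p0)) (pd φ (X.drop g.p0)) +
    nu1 (X.drop g.p0))
    rw [hadd, pd_split φ X g.p0, hmul, add_assoc]
  -- block code
  let C : Set (List A) := {X | g.XX X}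
  let Bad : Set (List A) := {X | g.XX X ∧ g.BadX BadT X}
  have hzpos : 0 < g.z := by have := g.hN; omega
  have hC : PCode C := by
    refine ⟨fun h => ?_, fun X hX Y hY hXY => ?_⟩
    · have := h.1
      simp only [List.length_nil] at this
      omega
    · obtain ⟨R', hR'⟩ := hXY
      exact g.prefix_code (R := R') (R' := []) hX hY (by rw [hR', List.append_nil])
  have hBC : Bad ⊆ C := fun X hX => hX.1
  let L1 : V → Set (List A) := fun v => {P | g.LP1 pre lam v P}
  let L2 : V → Set (List A) := fun v => {P | Geo.LP2 K c lam2 v P}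
  have hf1 : ∀ v, (L1 v).Finite := fun v =>
    (List.finite_length_le A (g.p0 + g.N1)).subset fun P hP => by
      have h1 := h1len _ _ hP.2
      rw [List.length_drop] at h1
      show P.length ≤ _
      omega
  have hf2 : ∀ v, (L2 v).Finite := fun v =>
    (List.finite_length_le A g.p0).subset fun P hP => by
      obtain ⟨k, hk, hl, -⟩ := hP
      show P.length ≤ _
      rw [hl]; exact hc k hk
  -- soundness
  have s1 : ∀ v b P Q, g.LP1 pre lam v P → g.RQ1 rho b Q → g.XX (P ++ Q) ∧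
      g.T pre post v (P ++ Q) = b := fun v b P Q hP hQ =>
    g.sound1 pre post h1len h1s hP hQ
  have s2 : ∀ v b X P Q R R', g.XX X → g.BadX BadT X → Geo.LP2 K c lam2 v P →
      g.RQ2 pre post BadT K c rho2 b Q → P ++ Q ++ R = X ++ R' →
      ∃ X2, g.XX X2 ∧ P ++ Q = X ++ X2 ∧ g.T pre post (g.T pre post v X) X2 = b :=
    fun v b X P Q R R' hX hb hP hQ h => g.sound2 pre post hc h2s hX hb hP hQ h
  have hcc1 : ∀ X ∈ C, X ∉ Bad → ∀ v, ∃ P Q, P ++ Q = X ∧ P ∈ L1 v ∧
      ∀ x, ∀ P' ∈ L1 x, P' ++ Q ∈ C ∧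
        act x ((P' ++ Q).map φ).prod + nu (P' ++ Q) = act v (X.map φ).prod + nu X := by
    intro X hX hXb v
    have hE : ¬ g.E X := fun h => hXb ⟨hX, Or.inl h⟩
    have hBT : ¬ BadT (X.length - g.p0) := fun h => hXb ⟨hX, Or.inr h⟩
    obtain ⟨P, Q, b, h1, h2, h3⟩ := g.complete1 pre h1len hX hE (h1c X hX hBT) v
    refine ⟨P, Q, h1.symm, h2, fun x P' hP' => ?_⟩
    obtain ⟨h4, h5⟩ := s1 _ _ _ _ hP' h3
    obtain ⟨h6, h7⟩ := s1 _ _ _ _ h2 h3
    refine ⟨h4, ?_⟩
    rw [← hT, ← hT, h5, h1, h7]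
  have hcc2 : ∀ X ∈ Bad, ∀ Y ∈ Bad, ∀ v, ∃ P Q, P ++ Q = X ++ Y ∧ P ∈ L2 v ∧
      ∀ x, ∀ P' ∈ L2 x,
        (∃ X' ∈ Bad, ∃ Y' ∈ C, X' ++ Y' = P' ++ Q ∧
          act (act x (X'.map φ).prod + nu X') (Y'.map φ).prod + nu Y' =
            act (act v (X.map φ).prod + nu X) (Y.map φ).prod + nu Y) ∨
        (∃ X' ∈ C, X' ∉ Bad ∧ X' <+: P' ++ Q) := by
    intro X hX Y hY v
    obtain ⟨hXX, hXb⟩ := hX
    obtain ⟨hYY, hYb⟩ := hY
    have hI : ∃ I : Finset ℕ, 2 * C0 + 2 ≤ I.card ∧ ∀ k ∈ I, k < K ∧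
      lam2 k (X.take (c k)) = some v ∧ (rho2 k ((X.take g.p0).drop (c k))).isSome := by
      have hXl := hXX.1
      obtain ⟨I, hI1, hI2⟩ := h2c (X.take g.p0) v (by rw [List.length_take]; omega)
      refine ⟨I, hI1, fun k hk => ?_⟩
      obtain ⟨h1, h2, h3⟩ := hI2 k hk
      refine ⟨h1, ?_, h3⟩
      rw [List.take_take, min_eq_left (hc k h1)] at h2
      exact h2
    obtain ⟨P, Q, b, h1, h2, h3⟩ := g.complete2 pre post hc hgap hsp hthin hXX hYY v hI
    have hb : g.T pre post (g.T pre post v X) Y = b := by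
      obtain ⟨X2, h4, h5, h6⟩ := s2 v b X P Q [] Y hXX hXb h2 h3 (by rw [List.append_nil, h1])
      have : Y = X2 := List.append_cancel_left (h1.symm.trans h5)
      rw [this]; exact h6
    refine ⟨P, Q, h1, h2, fun x P' hP' => ?_⟩
    have h3' := h3
    obtain ⟨k', hk', hl', hlam'⟩ := id hP'
    obtain ⟨k, hk, l, hend, hgood, hX2, u, hr, hbu⟩ := h3'
    have hcp : P'.length ≤ g.p0 := by rw [hl']; exact hc k' hk'
    by_cases hkk : k' = k
    · subst hkk
      have h7 : g.XX (P' ++ Q.take l) := g.xx_of_cend hcp (by rw [hl']; exact hend)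
      have h8 : P' ++ Q = (P' ++ Q.take l) ++ Q.drop l := by
        rw [List.append_assoc, List.take_append_drop]
      by_cases h9 : g.BadX BadT (P' ++ Q.take l)
      · left
        obtain ⟨X2, h10, h11, h12⟩ := s2 x b _ P' Q [] (Q.drop l) h7 h9 hP' h3
          (by rw [List.append_nil]; exact h8)
        refine ⟨P' ++ Q.take l, ⟨h7, h9⟩, X2, h10, h11.symm, ?_⟩
        rw [← hT, ← hT, ← hT, ← hT, h12, hb]
      · right
        exact ⟨P' ++ Q.take l, h7, fun h => h9 h.2, ⟨Q.drop l, h8.symm⟩⟩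
    · right
      obtain ⟨l', he', hnb⟩ := hgood k' hk' hkk
      have h7 : g.XX (P' ++ Q.take l') := g.xx_of_cend hcp (by rw [hl']; exact he')
      refine ⟨P' ++ Q.take l', h7, fun h => hnb ?_, ⟨Q.drop l', ?_⟩⟩
      · have := g.cbad_of_bad (BadT := BadT) hcp (by rw [hl']; exact he') h.2
        rw [hl'] at this
        exact this
      · rw [List.append_assoc, List.take_append_drop]
  -- regularity
  let Lb : ℕ := g.p0 + La + g.z + g.N1
  have hnuc : ∀ q q2 : List A, Lb ≤ q.length → Lb ≤ q2.length → q.take Lb = q2.take Lb →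
      q.length ≡ q2.length [MOD M0] → pd φ (q.drop Lb) = pd φ (q2.drop Lb) →
      nu q = nu q2 := by
    intro q q2 hq1 hq2 ht hm hp
    have e1 : q.take g.p0 = q2.take g.p0 := by
      have := congrArg (fun l => l.take g.p0) ht
      simp only [List.take_take] at this
      rwa [min_eq_left (by omega : g.p0 ≤ Lb)] at this
    have e2 : pd φ (q.drop g.p0) = pd φ (q2.drop g.p0) :=
      pd_drop_congr φ (by omega : g.p0 ≤ Lb) ht hp
    have e3 : nu1 (q.drop g.p0) = nu1 (q2.drop g.p0) := by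
      refine h1r _ _ (by rw [List.length_drop]; omega) (by rw [List.length_drop]; omega) ?_ ?_ ?_
      · rw [List.take_drop, List.take_drop]
        have := congrArg (fun l => l.take (g.p0 + La)) ht
        simp only [List.take_take] at this
        rw [min_eq_left (by omega : g.p0 + La ≤ Lb)] at this
        rw [this]
      · rw [List.drop_drop, List.drop_drop]
        exact pd_drop_congr φ (by omega) ht hp
      · rw [List.length_drop, List.length_drop]
        have h5 : g.p0 ≤ q.length := by omega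
        have h6 : g.p0 ≤ q2.length := by omega
        refine Nat.ModEq.add_right_cancel' g.p0 ?_
        rw [Nat.sub_add_cancel h5, Nat.sub_add_cancel h6]
        exact hm
    simp only [hnu]
    rw [e1, e2, e3]
  have hTc : ∀ x y (q q2 : List A), Lb ≤ q.length → Lb ≤ q2.length → q.take Lb = q2.take Lb →
      q.length ≡ q2.length [MOD M0] → pd φ (q.drop Lb) = pd φ (q2.drop Lb) →
      (act x (q.map φ).prod + nu q = y ↔ act x (q2.map φ).prod + nu q2 = y) := by
    intro x y q q2 hq1 hq2 ht hm hp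
    have e1 := hnuc q q2 hq1 hq2 ht hm hp
    have e2 : (q.map φ).prod = (q2.map φ).prod := by
      have := pd_drop_congr φ (Nat.zero_le Lb) ht hp
      simpa [pd] using this
    rw [e1, e2]
  have hBc : ∀ (q q2 : List A), Lb ≤ q.length → Lb ≤ q2.length → q.take Lb = q2.take Lb →
      q.length ≡ q2.length [MOD M0] → (g.BadX BadT q ↔ g.BadX BadT q2) := by
    intro q q2 hq1 hq2 ht hm
    have hE : ∀ q q2 : List A, Lb ≤ q.length → Lb ≤ q2.length → q.take Lb = q2.take Lb →
        g.E q → g.E q2 := by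
      rintro q q2 hq1 hq2 ht ⟨t, h1, h2, h3, h4⟩
      refine ⟨t, by omega, ?_, h3, h4⟩
      have := congrArg (fun l => l.take t) ht
      simp only [List.take_take] at this
      rw [min_eq_left (by omega : t ≤ Lb)] at this
      rw [← this]; exact h2
    have hL : BadT (q.length - g.p0) ↔ BadT (q2.length - g.p0) := by
      refine hper _ _ ?_
      have h5 : g.p0 ≤ q.length := by omega
      have h6 : g.p0 ≤ q2.length := by omega
      refine Nat.ModEq.add_right_cancel' g.p0 ?_
      rw [Nat.sub_add_cancel h5, Nat.sub_add_cancel h6]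
      exact hm
    unfold Geo.BadX
    rw [hL]
    exact or_congr_left ⟨hE q q2 hq1 hq2 ht, hE q2 q hq2 hq1 ht.symm⟩
  have hXXeq : ∀ X, g.XX X ↔ P4_933.XX g.Wo g.z X := by
    intro X
    constructor
    · rintro ⟨h1, h2, h3⟩; exact ⟨h2, h1, fun t ht hz => h3 t hz ht⟩
    · rintro ⟨h1, h2, h3⟩; exact ⟨h2, h1, fun t ht hz => h3 t hz ht⟩
  have hCT : ∀ x y, HL 1 ({X | X ∈ C ∧ act x (X.map φ).prod + nu X = y} : Language A) := by
    intro x y
    refine (P4_933.hl_XX (z := g.z) g.loc len free (f := fun X => act x (X.map φ).prod + nu X = y)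
      (Bridge_975.reg_of_local φ Lb M0 hM0 _
        (fun q q2 h1 h2 h3 h4 h5 => hTc x y q q2 h1 h2 h3 h4 h5))).congr fun w => ?_
    exact and_congr (hXXeq w) Iff.rfl
  have hBT : ∀ x y, HL 1 ({X | X ∈ Bad ∧ act x (X.map φ).prod + nu X = y} : Language A) := by
    intro x y
    refine (P4_933.hl_XX (z := g.z) g.loc len free
      (f := fun X => g.BadX BadT X ∧ act x (X.map φ).prod + nu X = y)
      (Bridge_975.reg_of_local φ Lb M0 hM0 _
        (fun q q2 h1 h2 h3 h4 h5 => and_congr (hBc q q2 h1 h2 h3 h4)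
          (hTc x y q q2 h1 h2 h3 h4 h5)))).congr fun w => ?_
    show (g.XX w ∧ g.BadX BadT w) ∧ _ ↔ P4_933.XX g.Wo g.z w ∧ _ ∧ _
    rw [hXXeq w, and_assoc]
  have htail : ∀ s, HL 1 ({w | (∀ X ∈ C, ¬ X <+: w) ∧ (w.map φ).prod = s} : Language A) := by
    intro s
    refine (P4_933.hl_NB (z := g.z) g.loc len free (f := fun X => (X.map φ).prod = s)
      (Bridge_975.reg_of_local φ 0 1 one_pos _ (fun q q2 _ _ _ _ h5 => by
        simp only [List.drop_zero] at h5
        rw [h5]))).congr fun w => ?_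
    refine and_congr ?_ Iff.rfl
    rw [P4_933.NB_iff]
    constructor
    · intro h P hP hX
      exact h P ((hXXeq P).2 hX) hP
    · intro h X hX hP
      exact h X hP ((hXXeq X).1 hX)
  exact Top5_120.top5 act hadd hone hmul hfaith φ nu C Bad hC hBC L1 L2 hf1 hf2 hCT hBT htail
    hcc1 hcc2 s

end Crest.Agent.R320.FinA_824
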