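import Crest.Agent.R320.Inst_522
import Crest.Agent.R320.FewVal_228
import Crest.Agent.R320.Reg_852

/-!
# Row 320: heights of the block fibres and of the tail (helper839)

`hfib`, `htail`: the two height hypotheses of `SemTop_727.top` for the block code
`Geo_522.XXz` over the walls of `FewVal_228.exists_walls`.
-/

set_option autoImplicit false

namespace Crest.Agent.R320.FinA_839

open Crest.RegLang Crest.Agent.R320.Hk_851 Crest.Agent.R320.Geo_522
open Crest.Agent.R320.FewWalls_228 Crest.Agent.R320.FewVal_228

universe u

variable {α : Type u}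

/-- languages which depend on a bounded prefix and a value of the rest are regular -/
theorem reg_of_fs [Finite α] {M : Type*} [Monoid M] [Finite M] (ψ : α → M) (L0 : ℕ)
    (L : Language α)
    (h : ∀ X X' : List α, L0 ≤ X.length → L0 ≤ X'.length → X.take L0 = X'.take L0 →
      ((X.drop L0).map ψ).prod = ((X'.drop L0).map ψ).prod → (X ∈ L ↔ X' ∈ L)) :
    L.IsRegular := by
  classical
  let g : List α → List α × M := fun x => (x.take L0, ((x.drop L0).map ψ).prod)
  have key : ∀ x x' : List α, g x = g x' → L.leftQuotient x = L.leftQuotient x' := by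
    intro x x' hg
    have h1 : x.take L0 = x'.take L0 := congrArg Prod.fst hg
    have h2 : ((x.drop L0).map ψ).prod = ((x'.drop L0).map ψ).prod := congrArg Prod.snd hg
    by_cases hx : x.length < L0
    · have hx' : x'.length < L0 := by
        have := congrArg List.length h1
        rw [List.length_take, List.length_take] at this
        omega
      rw [List.take_of_length_le hx.le, List.take_of_length_le hx'.le] at h1
      rw [h1]
    · have hx' : L0 ≤ x'.length := by
        have := congrArg List.length h1
        rw [List.length_take, List.length_take] at this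
        omega
      push Not at hx
      ext y
      show x ++ y ∈ L ↔ x' ++ y ∈ L
      refine h _ _ (by rw [List.length_append]; omega) (by rw [List.length_append]; omega) ?_ ?_
      · rw [List.take_append_of_le_length hx, List.take_append_of_le_length hx', h1]
      · rw [List.drop_append_of_le_length hx, List.drop_append_of_le_length hx', List.map_append,
          List.map_append, List.prod_append, List.prod_append, h2]
  let F : List α × M → Language α := fun p =>
    if hp : ∃ x, g x = p then L.leftQuotient hp.choose else 0
  have hfin : (({l : List α | l.length ≤ L0} ×ˢ (Set.univ : Set M))).Finite :=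
    (List.finite_length_le α L0).prod Set.finite_univ
  refine Reg_852.isRegular_of_forall_mem (T := F '' ({l : List α | l.length ≤ L0} ×ˢ Set.univ))
    (hfin.image F) ?_
  intro w
  refine ⟨g w, ⟨?_, Set.mem_univ _⟩, ?_⟩
  · show (w.take L0).length ≤ L0
    rw [List.length_take]
    omega
  · have hp : ∃ x, g x = g w := ⟨w, rfl⟩
    show (if hp : ∃ x, g x = g w then L.leftQuotient hp.choose else 0) = _
    rw [dif_pos hp]
    exact key _ _ hp.choose_spec

theorem reg_finite {L : Language α} (h : {w | w ∈ L}.Finite) : L.IsRegular :=
  Reg_852.HL.isRegular (k := 0) (HL.finite h)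

/-- words of length at least `z` -/
def Ge (α : Type u) (z : ℕ) : Language α := {w | z ≤ w.length}

/-- the windows as a language -/
def AN (n : ℕ) (A : Set (List α)) : Language α := {w | w.length = n ∧ w ∈ A}

theorem reg_ge [Finite α] (z : ℕ) : (Ge α z).IsRegular := by
  have h : Language.IsRegular ({w | w.length < z} : Language α) :=
    reg_finite ((List.finite_length_le α z).subset fun w hw => by
      have : w.length < z := hw
      exact this.le)
  have e : Ge α z = ({w | w.length < z} : Language α)ᶜ := by
    ext w
    show z ≤ w.length ↔ ¬ (w.length < z)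
    omega
  rw [e]
  exact h.compl

/-- words which end with a wall -/
def EW (n : ℕ) (A : Set (List α)) (z : ℕ) : Language α :=
  {w | z ≤ w.length ∧ Wa n A w w.length}

theorem reg_EW [Finite α] (n : ℕ) (A : Set (List α)) (z : ℕ) : (EW n A z).IsRegular := by
  have h1 : (AN n A).IsRegular :=
    reg_finite ((List.finite_length_le α n).subset fun w hw => by
      have : w.length = n ∧ w ∈ A := hw
      exact this.1.le)
  have h2 := (reg_ge (α := α) z).inf (Reg_852.IsRegular.mul (reg_ge (α := α) 0) h1)
  have e : EW n A z = Ge α z ⊓ (Ge α 0 * AN n A) := by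
    ext w
    constructor
    · rintro ⟨g1, g2, g3, g4⟩
      refine ⟨g1, Language.mem_mul.2 ⟨w.take (w.length - n), Nat.zero_le _,
        w.drop (w.length - n), ⟨?_, ?_⟩, List.take_append_drop _ _⟩⟩
      · rw [List.length_drop]
        omega
      · rw [List.take_of_length_le (by rw [List.length_drop]; omega)] at g4
        exact g4
    · rintro ⟨g1, g2⟩
      obtain ⟨a, -, b, ⟨hb, hb'⟩, rfl⟩ := Language.mem_mul.1 g2
      refine ⟨g1, by rw [List.length_append]; omega, le_rfl, ?_⟩
      have e1 : (a ++ b).drop ((a ++ b).length - n) = b := by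
        rw [List.length_append, hb, Nat.add_sub_cancel]
        exact List.drop_left
      rw [e1, List.take_of_length_le hb.le]
      exact hb'
  rw [e]
  exact h2

/-- words with a wall at a place `≥ z` before the end -/
def IW (n : ℕ) (A : Set (List α)) (z : ℕ) : Language α :=
  {w | ∃ t, z ≤ t ∧ t < w.length ∧ Wa n A w t}

theorem reg_IW [Finite α] (n : ℕ) (A : Set (List α)) (z : ℕ) : (IW n A z).IsRegular := by
  have e : IW n A z = EW n A z * Ge α 1 := by
    ext w
    constructor
    · rintro ⟨t, h1, h2, h3⟩
      refine Language.mem_mul.2 ⟨w.take t, ⟨?_, ?_⟩, w.drop t, ?_, List.take_append_drop _ _⟩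
      · rw [List.length_take]
        omega
      · have hl : (w.take t).length = t := by rw [List.length_take]; omega
        rw [hl]
        exact (wa_take w le_rfl h2.le).2 h3
      · show 1 ≤ (w.drop t).length
        rw [List.length_drop]
        omega
    · intro hw
      obtain ⟨a, ⟨h1, h2⟩, b, hb, rfl⟩ := Language.mem_mul.1 hw
      have hb' : 1 ≤ b.length := hb
      refine ⟨a.length, h1, by rw [List.length_append]; omega, (wa_left a b le_rfl).2 h2⟩
  rw [e]
  exact Reg_852.IsRegular.mul (reg_EW n A z) (reg_ge 1)

/-- the block code as a language -/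
def XXl (n : ℕ) (A : Set (List α)) (z : ℕ) : Language α := {w | w ∈ XXz n A z}

theorem reg_XXz [Finite α] (n : ℕ) (A : Set (List α)) (z : ℕ) :
    (XXl n A z).IsRegular := by
  have e : XXl n A z = EW n A z ⊓ (IW n A z)ᶜ := by
    ext w
    constructor
    · rintro ⟨h1, h2, h3⟩
      exact ⟨⟨h1, h2⟩, fun ⟨t, g1, g2, g3⟩ => h3 t g1 g2 g3⟩
    · rintro ⟨⟨h1, h2⟩, h3⟩
      exact ⟨h1, h2, fun t g1 g2 g3 => h3 ⟨t, g1, g2, g3⟩⟩
  rw [e]
  exact (reg_EW n A z).inf (reg_IW n A z).compl

theorem wa_of_wl {n : ℕ} {A : Set (List α)} {w : List α} {x : ℕ} (h : Wl n A w x) :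
    Wa n A w (x + n) := ⟨by omega, h.1, by rw [Nat.add_sub_cancel]; exact h.2⟩

theorem wl_of_wa {n : ℕ} {A : Set (List α)} {w : List α} {t : ℕ} (h : Wa n A w t) :
    Wl n A w (t - n) := ⟨by have := h.1; have := h.2.1; omega, h.2.2⟩

/-- few walls -/
theorem nw_le {n : ℕ} {A : Set (List α)} {z : ℕ} {w : List α}
    (h : ∀ t, z ≤ t → t < w.length → ¬ Wa n A w t) : nw n A w ≤ z + 1 := by
  classical
  unfold nw
  refine (Finset.card_le_card (t := Finset.range z ∪ {w.length - n}) ?_).trans ?_
  · intro x hx
    obtain ⟨-, hx2⟩ := Finset.mem_filter.1 hx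
    have h1 := wa_of_wl hx2
    rw [Finset.mem_union, Finset.mem_range, Finset.mem_singleton]
    by_contra hcon
    push Not at hcon
    have h2 : x + n ≤ w.length := hx2.1
    exact h (x + n) (by omega) (by omega) h1
  · refine (Finset.card_union_le _ _).trans ?_
    rw [Finset.card_range, Finset.card_singleton]

end Crest.Agent.R320.FinA_839
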