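import Mathlib

/-!
Row 320, helper889: SCHEME 2 (promise ruler) in the block form of 163's `top`
(statements `s2` and `cc`), natural chain rule (first left-looking wall at a place `≥ z`),
modes (E) wall within `N1` of `z`, (B) `BadT |X|`.
-/

set_option autoImplicit false
set_option linter.unusedSectionVars false

namespace Crest.Agent.R320.P3_889

open Classical in
/-- The data. -/
structure Dat (α S V K : Type*) [Monoid S] [AddCommGroup V] where
  phi : List α → S
  act : V → S → V
  Wo : List α → Prop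
  no : ℕ
  W : ℕ
  z : ℕ
  p0 : ℕ
  N1 : ℕ
  BadT : ℕ → Prop
  lam : List α → Option V
  rho : List α → Option V
  nu2 : List α → V
  nu1 : List α → V
  C : K → Finset ℕ
  CC : Finset ℕ
  LP1 : List α → V → Prop
  R1 : List α → Option V

namespace Dat

variable {α S V K : Type*} [Monoid S] [AddCommGroup V] (D : Dat α S V K)

/-- the block code -/
def XX (X : List α) : Prop := D.Wo X ∧ D.z ≤ X.length ∧ ∀ t < X.length, D.z ≤ t → ¬ D.Wo (X.take t)

/-- the zone map -/
def T (v : V) (X : List α) : V :=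
  D.act (D.act v (D.phi (X.take D.p0)) + D.nu2 (X.take D.p0)) (D.phi (X.drop D.p0)) +
    D.nu1 (X.drop D.p0)

/-- bad blocks -/
def BadX (X : List α) : Prop :=
  (∃ t ≤ X.length, D.Wo (X.take t) ∧ D.z ≤ t + D.N1 ∧ t ≤ D.z + D.N1) ∨ D.BadT X.length

/-- `y` is the end of the block of the candidate `c`, read in `Q` -/
def Fst (Q : List α) (c y : ℕ) : Prop :=
  y ≤ Q.length ∧ D.z ≤ y + c ∧ D.Wo (Q.take y) ∧ ∀ y' < y, D.z ≤ y' + c → ¬ D.Wo (Q.take y')

/-- the candidate `c` is bad, read in `Q` -/
def BadC (Q : List α) (c : ℕ) : Prop :=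
  (∃ y ≤ Q.length, D.Wo (Q.take y) ∧ D.z ≤ y + c + D.N1 ∧ y + c ≤ D.z + D.N1) ∨
    ∃ y, D.Fst Q c y ∧ D.BadT (y + c)

theorem Fst.unique {Q : List α} {c y y' : ℕ} (h : D.Fst Q c y) (h' : D.Fst Q c y') : y = y' := by
  rcases lt_trichotomy y y' with h1 | h1 | h1
  · exact absurd h.2.2.1 (h'.2.2.2 y h1 h.2.1)
  · exact h1
  · exact absurd h'.2.2.1 (h.2.2.2 y' h1 h'.2.1)

/-- left label of scheme 2 -/
def LP2 (P : List α) (v : V) : Prop := P.length ∈ D.CC ∧ D.lam P = some v

/-- right relation of scheme 2 -/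
def RR2 (Q : List α) (b : V) : Prop :=
  ∃ c, c ∈ D.CC ∧ (∀ c' ∈ D.CC, D.BadC Q c' → c' = c) ∧ ∃ y, D.Fst Q c y ∧ D.XX (Q.drop y) ∧
    ∃ b2, D.rho (Q.take (D.p0 - c)) = some b2 ∧
      b = D.T (D.act b2 (D.phi ((Q.take y).drop (D.p0 - c))) + D.nu1 ((Q.take y).drop (D.p0 - c)))
        (Q.drop y) ∧ D.BadC Q c

open Classical in
/-- right label of scheme 2 -/
noncomputable def R2 (Q : List α) : Option V := if h : ∃ b, D.RR2 Q b then some h.choose else none

/-- Hypotheses. -/
structure Ok (kappa R0 : ℕ) : Prop where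
  loc : ∀ P Q : List α, D.no ≤ Q.length → (D.Wo (P ++ Q) ↔ D.Wo Q)
  len : ∀ P : List α, D.Wo P → D.no ≤ P.length
  gap : ∀ (P : List α) (d : ℕ), D.Wo P → 0 < d → d ≤ D.W → ¬ D.Wo (P.take (P.length - d))
  hz : 2 * D.p0 + D.no + D.N1 < D.z
  hW : 2 * (D.p0 + D.N1) < D.W
  sub : ∀ k, D.C k ⊆ D.CC
  rng : ∀ x ∈ D.CC, x ≤ D.p0
  sound : ∀ (p q : List α) (v b : V), p.length + q.length = D.p0 → D.lam p = some v →
    D.rho q = some b → b = D.act v (D.phi (p ++ q)) + D.nu2 (p ++ q)
  complete : ∀ (X : List α) (v : V), X.length = D.p0 → ∃ k, ∀ x ∈ D.C k,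
    D.lam (X.take x) = some v ∧ (D.rho (X.drop x)).isSome
  copies : ∀ k, kappa ≤ (D.C k).card
  kap : 1 + 2 * R0 < kappa
  rulE : ∀ s : ℤ, ∀ x ∈ D.CC, ∀ c ∈ D.CC, ∀ x' ∈ D.CC, ∀ c' ∈ D.CC, c ≠ x → c' ≠ x' →
    |s - ((x : ℤ) - c)| ≤ D.N1 → |s - ((x' : ℤ) - c')| ≤ D.N1 → x = x'
  rulB : ∀ t : ℕ, ∀ s : Finset ℕ, s ⊆ D.CC →
    (∀ x ∈ s, ∃ c ∈ D.CC, c ≠ x ∧ D.BadT (t + c - x)) → s.card ≤ R0
  comp1 : ∀ X, D.XX X → ¬ D.BadX X → ∀ v, ∃ P Q, X = P ++ Q ∧ D.p0 ≤ P.length ∧ D.LP1 P v ∧
    (D.R1 Q).isSome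

variable {D}

theorem wall_iff {kappa R0 : ℕ} (h : D.Ok kappa R0) (w : List α) (x y : ℕ)
    (hx : x + y ≤ w.length) (hy : D.no ≤ y) : D.Wo ((w.drop x).take y) ↔ D.Wo (w.take (x + y)) := by
  rw [List.take_add, h.loc]
  rw [List.length_take, List.length_drop]
  omega

theorem wall_sep {kappa R0 : ℕ} (h : D.Ok kappa R0) {w : List α} {s t : ℕ} (hs : s ≤ w.length)
    (ht : t ≤ w.length) (h1 : D.Wo (w.take s)) (h2 : D.Wo (w.take t)) (hst : s < t) :
    s + D.W < t := by
  by_contra hcon
  have h3 := h.gap (w.take t) (t - s) h2 (by omega) (by omega)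
  apply h3
  rw [List.length_take, min_eq_left ht, List.take_take, min_eq_left (by omega),
    show t - (t - s) = s by omega]
  exact h1

theorem R2_some {Q : List α} {b : V} (h : D.R2 Q = some b) : D.RR2 Q b := by
  classical
  unfold R2 at h
  split_ifs at h with hex
  have := hex.choose_spec
  rw [Option.some.injEq] at h
  rwa [h] at this

theorem R2_ne {Q : List α} (h : ∃ b, D.RR2 Q b) : (D.R2 Q).isSome := by
  classical
  unfold R2
  rw [dif_pos h]
  rfl

/-- the first wall at a place `≥ u`, in a word with a wall at the end -/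
theorem exists_first {w : List α} {u : ℕ} (hu : u ≤ w.length) (hw : D.Wo w) :
    ∃ t, u ≤ t ∧ t ≤ w.length ∧ D.Wo (w.take t) ∧ ∀ t' < t, u ≤ t' → ¬ D.Wo (w.take t') := by
  classical
  have hex : ∃ t, u ≤ t ∧ t ≤ w.length ∧ D.Wo (w.take t) :=
    ⟨w.length, hu, le_refl _, by rwa [List.take_length]⟩
  refine ⟨Nat.find hex, (Nat.find_spec hex).1, (Nat.find_spec hex).2.1, (Nat.find_spec hex).2.2,
    fun t' h1 h2 h3 => ?_⟩
  exact Nat.find_min hex h1 ⟨h2, by have := (Nat.find_spec hex).2.1; omega, h3⟩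

/-- a word with a wall at the end, of length `≥ z`, has a prefix in the code -/
theorem exists_block {w : List α} (hz : D.z ≤ w.length) (hw : D.Wo w) :
    ∃ X R, w = X ++ R ∧ D.XX X := by
  obtain ⟨t, h1, h2, h3, h4⟩ := exists_first hz hw
  refine ⟨w.take t, w.drop t, (List.take_append_drop _ _).symm, h3, ?_, ?_⟩
  · rw [List.length_take]; omega
  · intro t' h5 h6
    rw [List.length_take] at h5
    rw [List.take_take, min_eq_left (by omega)]
    exact h4 t' (by omega) h6

/-- the true block, read behind the place `|P|` -/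
theorem fst_of_block {kappa R0 : ℕ} (h : D.Ok kappa R0) {P Q X R : List α} (hP : P.length ≤ D.p0)
    (hX : D.XX X) (hw : P ++ Q = X ++ R) : D.Fst Q P.length (X.length - P.length) := by
  have hz := h.hz
  have h2 := hX.2.1
  have hl : P.length + Q.length = X.length + R.length := by
    have := congrArg List.length hw
    simpa using this
  have key : ∀ y, D.no ≤ y → P.length + y ≤ (P ++ Q).length →
      (D.Wo (Q.take y) ↔ D.Wo ((P ++ Q).take (P.length + y))) := by
    intro y hy hle
    have := wall_iff h (P ++ Q) P.length y hle hy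
    rwa [List.drop_left] at this
  refine ⟨by omega, by omega, ?_, ?_⟩
  · rw [key _ (by omega) (by rw [List.length_append]; omega), hw,
      show P.length + (X.length - P.length) = X.length by omega, List.take_left]
    exact hX.1
  · intro y' h3 h4 h5
    rw [key _ (by omega) (by rw [List.length_append]; omega), hw,
      List.take_append_of_le_length (by omega)] at h5
    exact hX.2.2 (P.length + y') (by omega) (by omega) h5

/-- badness of the true block, read behind the place `|P|` -/
theorem badC_of_block {kappa R0 : ℕ} (h : D.Ok kappa R0) {P Q X R : List α}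
    (hP : P.length ≤ D.p0) (hX : D.XX X) (hw : P ++ Q = X ++ R) (hbad : D.BadX X) :
    D.BadC Q P.length := by
  have hz := h.hz
  have h2 := hX.2.1
  have hl : P.length + Q.length = X.length + R.length := by
    have := congrArg List.length hw
    simpa using this
  rcases hbad with ⟨t, ht1, ht2, ht3, ht4⟩ | hT
  · left
    refine ⟨t - P.length, by omega, ?_, by omega, by omega⟩
    have := wall_iff h (P ++ Q) P.length (t - P.length) (by rw [List.length_append]; omega)
      (by omega)
    rw [List.drop_left] at this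
    rw [this, hw, show P.length + (t - P.length) = t by omega,
      List.take_append_of_le_length (by omega)]
    exact ht2
  · right
    refine ⟨X.length - P.length, fst_of_block h hP hX hw, ?_⟩
    rwa [show X.length - P.length + P.length = X.length by omega]

/-- `s2` of 163's `top`. -/
theorem s2 {kappa R0 : ℕ} (h : D.Ok kappa R0) (P : List α) (v : V) (Q : List α) (b : V)
    (hL : D.LP2 P v) (hR : D.R2 Q = some b)
    (hu : ∀ X, D.XX X → X <+: P ++ Q → ∀ P' Q', X = P' ++ Q' → P.length ≤ P'.length →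
      D.LP1 P' v → (D.R1 Q').isSome → False) :
    ∃ Q1 X2, Q = Q1 ++ X2 ∧ Q1 ≠ [] ∧ D.XX (P ++ Q1) ∧ D.XX X2 ∧ D.T (D.T v (P ++ Q1)) X2 = b := by
  have hz := h.hz
  obtain ⟨c, hc, huniq, y, hy, hX2, b2, hb2, hb, -⟩ := R2_some hR
  have hP := h.rng _ hL.1
  have hcp := h.rng _ hc
  -- the true block
  have hQl : (Q.drop y).length = Q.length - y := List.length_drop ..
  have h3 := hX2.2.1
  have hyle := hy.1
  have hwall : D.Wo (P ++ Q) := by
    rw [← List.take_append_drop y Q, ← List.append_assoc, h.loc]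
    · exact hX2.1
    · omega
  obtain ⟨X, R, hw, hX⟩ := exists_block (D := D) (w := P ++ Q)
    (by rw [List.length_append]; omega) hwall
  have hbad : D.BadX X := by
    by_contra hcon
    obtain ⟨P', Q', h5, h6, h7, h8⟩ := h.comp1 X hX hcon v
    exact hu X hX ⟨R, hw.symm⟩ P' Q' h5 (by omega) h7 h8
  have hPc : P.length = c := huniq _ hL.1 (badC_of_block h hP hX hw hbad)
  have hfst := fst_of_block h hP hX hw
  rw [hPc] at hfst
  have hyX : y = X.length - c := Fst.unique D hy hfst
  have hXl := hX.2.1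
  have hXP : X = P ++ Q.take y := by
    have e1 : X = (P ++ Q).take X.length := by rw [hw, List.take_left]
    rw [e1, List.take_append, List.take_of_length_le (by omega), hPc, ← hyX]
  refine ⟨Q.take y, Q.drop y, (List.take_append_drop _ _).symm, ?_, ?_, hX2, ?_⟩
  · intro h9
    have := congrArg List.length h9
    rw [List.length_take, List.length_nil] at this
    omega
  · rw [← hXP]; exact hX
  · rw [hb]
    congr 1
    unfold T
    have h10 : (P ++ Q.take y).take D.p0 = P ++ Q.take (D.p0 - c) := by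
      rw [List.take_append, List.take_of_length_le hP, hPc, List.take_take,
        min_eq_left (by omega)]
    have h11 : (P ++ Q.take y).drop D.p0 = (Q.take y).drop (D.p0 - c) := by
      rw [List.drop_append, List.drop_eq_nil_of_le hP, List.nil_append, hPc]
    have h12 : b2 = D.act v (D.phi (P ++ Q.take (D.p0 - c))) + D.nu2 (P ++ Q.take (D.p0 - c)) := by
      apply h.sound _ _ _ _ _ hL.2 hb2
      rw [List.length_take]
      omega
    rw [h10, h11, ← h12]

/-- the walls that can end the block of a candidate -/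
theorem two_walls {kappa R0 : ℕ} (h : D.Ok kappa R0) {w : List α} (hz' : D.z ≤ w.length)
    (hw : D.Wo w) : ∃ t1 t2 : ℕ, ∀ x ∈ D.CC, ∀ c ∈ D.CC, ∀ y, D.Fst (w.drop x) c y →
      x + y = t1 ∨ x + y = t2 := by
  have hz := h.hz
  have hW := h.hW
  obtain ⟨t1, h1, h2, h3, h4⟩ := exists_first (D := D) (w := w) (u := D.z - D.p0) (by omega) hw
  have hex : ∃ t2 : ℕ, t1 < w.length → (t1 < t2 ∧ t2 ≤ w.length ∧ D.Wo (w.take t2) ∧
      ∀ t' < t2, t1 < t' → ¬ D.Wo (w.take t')) := by
    by_cases hlt : t1 < w.length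
    · obtain ⟨t2, h5, h6, h7, h8⟩ := exists_first (D := D) (w := w) (u := t1 + 1) (by omega) hw
      exact ⟨t2, fun _ => ⟨by omega, h6, h7, fun t' h9 h10 => h8 t' h9 (by omega)⟩⟩
    · exact ⟨0, fun h => absurd h hlt⟩
  obtain ⟨t2, ht2⟩ := hex
  refine ⟨t1, t2, fun x hx c hc y hy => ?_⟩
  have hxp := h.rng x hx
  have hcp := h.rng c hc
  obtain ⟨h5, h6, h7, h8⟩ := hy
  rw [List.length_drop] at h5
  have h7' := (wall_iff h w x y (by omega) (by omega)).1 h7
  have h9 : t1 ≤ x + y := by
    by_contra hcon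
    exact h4 (x + y) (by omega) (by omega) h7'
  rcases Nat.eq_or_lt_of_le h9 with h10 | h10
  · left; exact h10.symm
  · right
    obtain ⟨h11, h12, h13, h14⟩ := ht2 (by omega)
    -- t1 is before the threshold
    have h15 : t1 < D.z + x - c := by
      by_contra hcon
      refine h8 (t1 - x) (by omega) (by omega) ?_
      rw [wall_iff h w x (t1 - x) (by omega) (by omega), show x + (t1 - x) = t1 by omega]
      exact h3
    have h16 := wall_sep h (w := w) (s := t1) (t := t2) h2 h12 h3 h13 h11
    have h17 : t2 ≤ x + y := by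
      by_contra hcon
      exact h14 (x + y) (by omega) h10 h7'
    rcases Nat.eq_or_lt_of_le h17 with h18 | h18
    · exact h18.symm
    · exfalso
      refine h8 (t2 - x) (by omega) (by omega) ?_
      rw [wall_iff h w x (t2 - x) (by omega) (by omega), show x + (t2 - x) = t2 by omega]
      exact h13

/-- few cuts are spoiled -/
theorem spoiled {kappa R0 : ℕ} (h : D.Ok kappa R0) {w : List α} (hz' : D.z ≤ w.length)
    (hw : D.Wo w) (s : Finset ℕ) (hs : s ⊆ D.CC)
    (hsp : ∀ x ∈ s, ∃ c ∈ D.CC, c ≠ x ∧ D.BadC (w.drop x) c) : s.card ≤ 1 + 2 * R0 := by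
  classical
  have hz := h.hz
  have hW := h.hW
  obtain ⟨t1, t2, ht⟩ := two_walls h hz' hw
  set E := s.filter (fun x => ∃ c ∈ D.CC, c ≠ x ∧ ∃ y ≤ (w.drop x).length,
    D.Wo ((w.drop x).take y) ∧ D.z ≤ y + c + D.N1 ∧ y + c ≤ D.z + D.N1) with hE
  set B1 := s.filter (fun x => ∃ c ∈ D.CC, c ≠ x ∧ D.BadT (t1 + c - x)) with hB1
  set B2 := s.filter (fun x => ∃ c ∈ D.CC, c ≠ x ∧ D.BadT (t2 + c - x)) with hB2
  have hcov : s ⊆ E ∪ (B1 ∪ B2) := by
    intro x hx
    obtain ⟨c, hc, hcx, hbad⟩ := hsp x hx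
    rw [Finset.mem_union, Finset.mem_union]
    rcases hbad with hbad | ⟨y, hy, hbad⟩
    · left
      rw [hE, Finset.mem_filter]
      exact ⟨hx, c, hc, hcx, hbad⟩
    · right
      rcases ht x (hs hx) c hc y hy with h1 | h1
      · left
        rw [hB1, Finset.mem_filter]
        refine ⟨hx, c, hc, hcx, ?_⟩
        rwa [← h1, show x + y + c - x = y + c by omega]
      · right
        rw [hB2, Finset.mem_filter]
        refine ⟨hx, c, hc, hcx, ?_⟩
        rwa [← h1, show x + y + c - x = y + c by omega]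
  have hE1 : E.card ≤ 1 := by
    rw [Finset.card_le_one]
    intro x hx x' hx'
    rw [hE, Finset.mem_filter] at hx hx'
    obtain ⟨hx0, c, hc, hcx, y, hy, hyw, hy1, hy2⟩ := hx
    obtain ⟨hx0', c', hc', hcx', y', hy', hyw', hy1', hy2'⟩ := hx'
    have a1 := h.rng x (hs hx0)
    have a2 := h.rng x' (hs hx0')
    have a3 := h.rng c hc
    have a4 := h.rng c' hc'
    rw [List.length_drop] at hy hy'
    have hyw1 := (wall_iff h w x y (by omega) (by omega)).1 hyw
    have hyw2 := (wall_iff h w x' y' (by omega) (by omega)).1 hyw'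
    have heq : x + y = x' + y' := by
      rcases lt_trichotomy (x + y) (x' + y') with h1 | h1 | h1
      · have := wall_sep h (w := w) (by omega) (by omega) hyw1 hyw2 h1
        omega
      · exact h1
      · have := wall_sep h (w := w) (by omega) (by omega) hyw2 hyw1 h1
        omega
    refine h.rulE (((x + y : ℕ) : ℤ) - D.z) x (hs hx0) c hc x' (hs hx0') c' hc' hcx hcx' ?_ ?_
    · rw [abs_le]
      constructor <;> omega
    · rw [abs_le]
      constructor <;> omega
  have hB1' : B1.card ≤ R0 := by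
    apply h.rulB t1 B1 ((Finset.filter_subset _ _).trans hs)
    intro x hx
    rw [hB1, Finset.mem_filter] at hx
    exact hx.2
  have hB2' : B2.card ≤ R0 := by
    apply h.rulB t2 B2 ((Finset.filter_subset _ _).trans hs)
    intro x hx
    rw [hB2, Finset.mem_filter] at hx
    exact hx.2
  have h1 := Finset.card_le_card hcov
  have h2 := Finset.card_union_le E (B1 ∪ B2)
  have h3 := Finset.card_union_le B1 B2
  omega

/-- `cc` of 163's `top`. -/
theorem cc {kappa R0 : ℕ} (h : D.Ok kappa R0) (X X2 : List α) (hX : D.XX X) (hX2 : D.XX X2)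
    (v : V) : (∃ P Q, X = P ++ Q ∧ D.LP1 P v ∧ (D.R1 Q).isSome) ∨
      ∃ P Q, X ++ X2 = P ++ Q ∧ P.length < X.length ∧ D.LP2 P v ∧ (D.R2 Q).isSome := by
  classical
  have hz := h.hz
  by_cases hbad : D.BadX X
  · right
    have hXl := hX.2.1
    have hX2l := hX2.2.1
    have hwall : D.Wo (X ++ X2) := by
      rw [h.loc]
      · exact hX2.1
      · omega
    have hlen : (X ++ X2).length = X.length + X2.length := List.length_append
    obtain ⟨k, hk⟩ := h.complete (X.take D.p0) v (by rw [List.length_take]; omega)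
    set s := (D.C k).filter (fun x => ∃ c ∈ D.CC, c ≠ x ∧ D.BadC ((X ++ X2).drop x) c) with hs
    have hcard : s.card ≤ 1 + 2 * R0 := by
      apply spoiled h (w := X ++ X2) (by omega) hwall s
        ((Finset.filter_subset _ _).trans (h.sub k))
      intro x hx
      rw [hs, Finset.mem_filter] at hx
      exact hx.2
    have hex : ∃ x ∈ D.C k, x ∉ s := by
      by_contra hcon
      have h1 : D.C k ⊆ s := by
        intro x hx
        by_contra h2
        exact hcon ⟨x, hx, h2⟩
      have h2 := Finset.card_le_card h1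
      have h3 := h.copies k
      have h4 := h.kap
      omega
    obtain ⟨x, hx, hxs⟩ := hex
    have hxC := h.sub k hx
    have hxp := h.rng x hxC
    obtain ⟨hl, hr⟩ := hk x hx
    have huniq : ∀ c' ∈ D.CC, D.BadC ((X ++ X2).drop x) c' → c' = x := by
      intro c' hc' hb
      by_contra hne
      apply hxs
      rw [hs, Finset.mem_filter]
      exact ⟨hx, c', hc', hne, hb⟩
    have hPl : ((X ++ X2).take x).length = x := by
      rw [List.length_take, hlen]
      omega
    have hsplit : (X ++ X2).take x ++ (X ++ X2).drop x = X ++ X2 := List.take_append_drop _ _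
    have hfst := fst_of_block h (P := (X ++ X2).take x) (by omega) hX hsplit
    have hbc := badC_of_block h (P := (X ++ X2).take x) (by omega) hX hsplit hbad
    rw [hPl] at hfst hbc
    have hdrop : ((X ++ X2).drop x).drop (X.length - x) = X2 := by
      rw [List.drop_drop, show x + (X.length - x) = X.length by omega, List.drop_left]
    have hrho : ((X ++ X2).drop x).take (D.p0 - x) = (X.take D.p0).drop x := by
      rw [List.drop_append_of_le_length (by omega), List.take_append_of_le_length
        (by rw [List.length_drop]; omega), List.drop_take]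
    refine ⟨(X ++ X2).take x, (X ++ X2).drop x, hsplit.symm, by omega, ⟨by rwa [hPl], ?_⟩, ?_⟩
    · rw [List.take_append_of_le_length (by omega)]
      rwa [List.take_take, min_eq_left hxp] at hl
    · obtain ⟨b2, hb2⟩ := Option.isSome_iff_exists.1 hr
      exact R2_ne ⟨_, x, hxC, huniq, X.length - x, hfst, by rw [hdrop]; exact hX2, b2,
        by rw [hrho]; exact hb2, rfl, hbc⟩
  · left
    obtain ⟨P, Q, h1, -, h2, h3⟩ := h.comp1 X hX hbad v
    exact ⟨P, Q, h1, h2, h3⟩

end Dat

end Crest.Agent.R320.P3_889
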