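import Crest.Agent.R320.Top_270
import Crest.Agent.R320.P3_889

/-!
Row 320, helper889: final assembly, part A: the combinatorial input of `Top270.top` from abstract
gadgets, natural chain rule, all words.
-/

set_option autoImplicit false

namespace Crest.Agent.R320.FinA_889

open Crest.RegLang Crest.Agent.R320.Hk_851 Crest.Agent.R320.Code110 Crest.Agent.R320.Top270
open Crest.Agent.R320.P3_889 Crest.Agent.R320.P3_889.Dat

variable {α S V K : Type} [Monoid S] [AddCommGroup V] {D : Dat α S V K}

theorem c2core {kappa R0 : ℕ} (h : D.Ok kappa R0) (X X2 : List α) (hX : D.XX X) (hX2 : D.XX X2)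
    (hbad : D.BadX X) (v : V) : ∃ P Q b, X ++ X2 = P ++ Q ∧ D.LP2 P v ∧
      ∀ P' v', D.LP2 P' v' → ∃ X', D.XX X' ∧ X' <+: P' ++ Q ∧
        (D.BadX X' → P' ++ Q = X' ++ X2 ∧ D.T (D.T v' X') X2 = b) := by
  classical
  have hz := h.hz
  have hXl := hX.2.1
  have hX2l := hX2.2.1
  have hwall : D.Wo (X ++ X2) := by
    rw [h.loc]
    · exact hX2.1
    · omega
  have hlen : (X ++ X2).length = X.length + X2.length := List.length_append
  obtain ⟨k, hk⟩ := h.complete (X.take D.p0) v (by rw [List.length_take]; omega)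
  set s := (D.C k).filter (fun x => ∃ c ∈ D.CC, c ≠ x ∧ D.BadC ((X ++ X2).drop x) c) with hs
  have hcard : s.card ≤ 1 + 2 * R0 := by
    apply spoiled h (w := X ++ X2) (by omega) hwall s
      ((Finset.filter_subset _ _).trans (h.sub k))
    intro x hx
    rw [hs, Finset.mem_filter] at hx
    exact hx.2
  have hex : ∃ x ∈ D.C k, x ∉ s := by
    by_contra hcon
    have h1 : D.C k ⊆ s := by
      intro x hx
      by_contra h2
      exact hcon ⟨x, hx, h2⟩
    have h2 := Finset.card_le_card h1
    have h3 := h.copies k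
    have h4 := h.kap
    omega
  obtain ⟨x, hx, hxs⟩ := hex
  have hxC := h.sub k hx
  have hxp := h.rng x hxC
  obtain ⟨hl, hr⟩ := hk x hx
  have huniq : ∀ c' ∈ D.CC, D.BadC ((X ++ X2).drop x) c' → c' = x := by
    intro c' hc' hb
    by_contra hne
    apply hxs
    rw [hs, Finset.mem_filter]
    exact ⟨hx, c', hc', hne, hb⟩
  have hPl : ((X ++ X2).take x).length = x := by
    rw [List.length_take, hlen]
    omega
  have hsplit : (X ++ X2).take x ++ (X ++ X2).drop x = X ++ X2 := List.take_append_drop _ _
  have hy := fst_of_block h (P := (X ++ X2).take x) (by omega) hX hsplit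
  rw [hPl] at hy
  have hdrop : ((X ++ X2).drop x).drop (X.length - x) = X2 := by
    rw [List.drop_drop, show x + (X.length - x) = X.length by omega, List.drop_left]
  have hrho : ((X ++ X2).drop x).take (D.p0 - x) = (X.take D.p0).drop x := by
    rw [List.drop_append_of_le_length (by omega), List.take_append_of_le_length
      (by rw [List.length_drop]; omega), List.drop_take]
  obtain ⟨b2, hb2⟩ := Option.isSome_iff_exists.1 hr
  rw [← hrho] at hb2
  set Q := (X ++ X2).drop x with hQ
  set y := X.length - x with hyd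
  have hQl : Q.length = X.length + X2.length - x := by rw [hQ, List.length_drop, hlen]
  refine ⟨(X ++ X2).take x, Q, D.T (D.act b2 (D.phi ((Q.take y).drop (D.p0 - x))) +
    D.nu1 ((Q.take y).drop (D.p0 - x))) (Q.drop y), hsplit.symm, ⟨by rwa [hPl], ?_⟩, ?_⟩
  · rw [List.take_append_of_le_length (by omega)]
    rwa [List.take_take, min_eq_left hxp] at hl
  intro P v' hL
  have hP := h.rng _ hL.1
  have hwall' : D.Wo (P ++ Q) := by
    rw [← List.take_append_drop y Q, hdrop, ← List.append_assoc, h.loc]
    · exact hX2.1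
    · omega
  obtain ⟨X', R, hw, hX'⟩ := exists_block (D := D) (w := P ++ Q)
    (by rw [List.length_append]; omega) hwall'
  refine ⟨X', hX', ⟨R, hw.symm⟩, fun hbad' => ?_⟩
  have hPc : P.length = x := huniq _ hL.1 (badC_of_block h hP hX' hw hbad')
  have hfst := fst_of_block h hP hX' hw
  rw [hPc] at hfst
  have hyX : y = X'.length - x := Fst.unique D hy hfst
  have hXl' := hX'.2.1
  have hXP : X' = P ++ Q.take y := by
    have e1 : X' = (P ++ Q).take X'.length := by rw [hw, List.take_left]
    rw [e1, List.take_append, List.take_of_length_le (by omega), hPc, ← hyX]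
  constructor
  · rw [hXP, List.append_assoc]
    congr 1
    rw [← hdrop, List.take_append_drop]
  · rw [← hdrop]
    congr 1
    rw [hXP]
    unfold T
    have h10 : (P ++ Q.take y).take D.p0 = P ++ Q.take (D.p0 - x) := by
      rw [List.take_append, List.take_of_length_le hP, hPc, List.take_take,
        min_eq_left (by omega)]
    have h11 : (P ++ Q.take y).drop D.p0 = (Q.take y).drop (D.p0 - x) := by
      rw [List.drop_append, List.drop_eq_nil_of_le hP, List.nil_append, hPc]
    have h12 : b2 = D.act v' (D.phi (P ++ Q.take (D.p0 - x))) + D.nu2 (P ++ Q.take (D.p0 - x)) := by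
      apply h.sound _ _ _ _ _ hL.2 hb2
      rw [List.length_take]
      omega
    rw [h10, h11, ← h12]

variable (D) in
/-- the code -/
def Zb : Language α := {X | D.XX X}

variable (D) in
/-- the action of zones -/
def tau (X : List α) (v : V) : V := D.T v X

variable (D) in
/-- left labels of scheme 2 -/
def L2 (v : V) : Language α := {P | D.LP2 P v}

/-- **`c2` of 270's top.** -/
theorem c2 {kappa R0 : ℕ} (h : D.Ok kappa R0) (L1 : V → Language α)
    (hbadA : ∀ u ∈ BadA (Zb D) (tau D) L1, D.BadX u) :
    ∀ u ∈ BadA (Zb D) (tau D) L1, ∀ x, ∀ t ∈ BadA (Zb D) (tau D) L1, ∃ p q y, u ++ t = p ++ q ∧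
      p ∈ L2 D x ∧ q ∈ Rsem (Zb D) (BadA (Zb D) (tau D) L1) (tau D) 1 (L2 D) y := by
  intro u hu x t ht
  obtain ⟨P, Q, b, h1, h2, h3⟩ := c2core h u t hu.1 ht.1 (hbadA u hu) x
  refine ⟨P, Q, b, h1, h2, ?_⟩
  intro x' p' hp'
  obtain ⟨X', h4, h5, h6⟩ := h3 p' x' hp'
  by_cases hb : X' ∈ BadA (Zb D) (tau D) L1
  · left
    obtain ⟨h7, h8⟩ := h6 (hbadA X' hb)
    refine ⟨tau D X' x', Language.mem_mul.2 ⟨X', ⟨hb, rfl⟩, t, ?_, h7.symm⟩⟩
    refine ⟨b, Language.mem_mul.2 ⟨t, ⟨ht, h8⟩, [], ⟨rfl, rfl⟩, List.append_nil t⟩⟩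
  · right
    left
    exact ⟨X', h4, hb, h5⟩

variable (D) in
/-- Data and hypotheses of scheme 1. -/
structure G1 (lam1 rho1 : List α → Option V) : Prop where
  short : ∀ P v, lam1 P = some v → P.length < D.N1
  long : ∀ Q b, rho1 Q = some b → D.no ≤ Q.length
  sound : ∀ P Q v b, lam1 P = some v → rho1 Q = some b →
    b = D.act v (D.phi (P ++ Q)) + D.nu1 (P ++ Q)
  comp : ∀ u : List α, ¬ D.BadT (u.length + D.p0) → D.z ≤ u.length + D.p0 → ∀ v, ∃ P Q,
    u = P ++ Q ∧ lam1 P = some v ∧ (rho1 Q).isSome

variable (D) in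
/-- left labels of scheme 1 -/
def L1 (lam1 : List α → Option V) (v : V) : Language α :=
  {P | D.p0 ≤ P.length ∧ lam1 (P.drop D.p0) =
    some (D.act v (D.phi (P.take D.p0)) + D.nu2 (P.take D.p0))}

theorem badA_badX {kappa R0 : ℕ} (h : D.Ok kappa R0) {lam1 rho1 : List α → Option V}
    (g : G1 D lam1 rho1) : ∀ u ∈ BadA (Zb D) (tau D) (L1 D lam1), D.BadX u := by
  rintro u ⟨hu, x, hx⟩
  by_contra hbad
  apply hx
  have hu' : D.XX u := hu
  have hz := h.hz
  have hW := h.hW
  have hul := hu'.2.1
  have hT : ¬ D.BadT ((u.drop D.p0).length + D.p0) := by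
    rw [List.length_drop, show u.length - D.p0 + D.p0 = u.length by omega]
    exact fun h => hbad (Or.inr h)
  obtain ⟨P1, Q, h1, h2, h3⟩ := g.comp (u.drop D.p0) hT (by rw [List.length_drop]; omega)
    (D.act x (D.phi (u.take D.p0)) + D.nu2 (u.take D.p0))
  obtain ⟨b, hb⟩ := Option.isSome_iff_exists.1 h3
  have h1l : u.length - D.p0 = P1.length + Q.length := by
    have := congrArg List.length h1
    rwa [List.length_drop, List.length_append] at this
  have hP1 := g.short _ _ h2
  have htl : (u.take D.p0).length = D.p0 := by rw [List.length_take]; omega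
  have hsp : u = u.take D.p0 ++ P1 ++ Q := by
    rw [List.append_assoc, ← h1, List.take_append_drop]
  have huN : D.z + D.N1 < u.length := by
    by_contra hcon
    exact hbad (Or.inl ⟨u.length, le_refl _, by rw [List.take_length]; exact hu'.1, by omega,
      by omega⟩)
  have hWu : D.Wo u := hu'.1
  have hWQ : D.Wo Q := by
    rw [hsp, h.loc _ _ (by omega)] at hWu
    exact hWu
  refine ⟨u.take D.p0 ++ P1, Q, b, hsp, ⟨?_, ?_⟩, ?_⟩
  · rw [List.length_append]; omega
  · rw [List.drop_append_of_le_length (by omega), List.drop_of_length_le (by omega),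
      List.nil_append, List.take_append_of_le_length (by omega),
      List.take_of_length_le (l := u.take D.p0) (by omega)]
    exact h2
  intro x' p' hp'
  obtain ⟨h4, h5⟩ := hp'
  left
  have hp1 := g.short _ _ h5
  rw [List.length_drop] at hp1
  have hlw : (p' ++ Q).length = p'.length + Q.length := List.length_append
  have hXX : D.XX (p' ++ Q) := by
    refine ⟨(h.loc _ _ (by omega)).2 hWQ, by omega, ?_⟩
    intro t ht hzt hwt
    have e1 : (p' ++ Q).take t = p' ++ Q.take (t - p'.length) := by
      rw [List.take_append, List.take_of_length_le (by omega)]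
    rw [e1, h.loc _ _ (by rw [List.length_take]; omega)] at hwt
    -- the wall, in `u`
    have e2 : u.take (t - p'.length + (D.p0 + P1.length)) =
        (u.take D.p0 ++ P1) ++ Q.take (t - p'.length) := by
      conv_lhs => rw [hsp]
      rw [List.take_append, List.take_of_length_le (by rw [List.length_append]; omega)]
      congr 2
      rw [List.length_append]
      omega
    have hwu : D.Wo (u.take (t - p'.length + (D.p0 + P1.length))) := by
      rw [e2, h.loc _ _ (by rw [List.length_take]; omega)]
      exact hwt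
    by_cases hlt : D.z ≤ t - p'.length + (D.p0 + P1.length)
    · exact hu'.2.2 _ (by omega) hlt hwu
    · exact hbad (Or.inl ⟨_, by omega, hwu, by omega, by omega⟩)
  refine ⟨b, Language.mem_mul.2 ⟨p' ++ Q, ⟨hXX, ?_⟩, [], ⟨rfl, rfl⟩, List.append_nil _⟩⟩
  show D.T x' (p' ++ Q) = b
  unfold T
  rw [List.take_append_of_le_length h4, List.drop_append_of_le_length h4]
  exact (g.sound _ _ _ _ h5 hb).symm

end Crest.Agent.R320.FinA_889
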