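import Crest.Agent.R320.Top5_120
import Crest.Agent.R320.Sc2n_937
import Crest.Agent.R320.P4_933
import Crest.Agent.R320.Bridge_975

/-!
# Row 320: the join (abstract gadgets), helper892
-/

set_option autoImplicit false

namespace Crest.Agent.R320.Fin_892

open Crest.RegLang Crest.Agent.R320.Hk_851 Crest.Agent.R320.Sc2n_937

theorem exists_block {α : Type} (g : Geo α) {w : List α} (h1 : g.z ≤ w.length) (h2 : g.Wo w) :
    ∃ X R, w = X ++ R ∧ g.XX X := by
  classical
  have hex : ∃ t, t ≤ w.length ∧ g.z ≤ t ∧ g.Wo (w.take t) :=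
    ⟨w.length, le_rfl, h1, by rw [List.take_length]; exact h2⟩
  obtain ⟨h3, h4, h5⟩ := Nat.find_spec hex
  refine ⟨w.take (Nat.find hex), w.drop (Nat.find hex), (List.take_append_drop _ _).symm,
    ?_, h5, fun t ht htl hw => ?_⟩
  · rw [List.length_take]; omega
  · rw [List.length_take] at htl
    have h6 : t < Nat.find hex := by omega
    rw [List.take_take, min_eq_left (by omega)] at hw
    exact Nat.find_min hex h6 ⟨by omega, ht, hw⟩

theorem join {α : Type} [Finite α] {S V : Type} [Monoid S] [Finite S] [AddCommGroup V] [Finite V]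
    (act : V → S → V) (hadd : ∀ a b s, act (a + b) s = act a s + act b s)
    (hone : ∀ v, act v 1 = v) (hmul : ∀ v s t, act v (s * t) = act (act v s) t)
    (hfaith : ∀ s t, (∀ v, act v s = act v t) → s = t)
    (φ : α → S) (g : Geo α) (hlenWo : ∀ P, g.Wo P → g.n ≤ P.length) (B R : ℕ)
    (free : ∀ u : List α, (∀ t < u.length, ¬ g.Wo (u.take t)) →
      u ∈ (BddReg_746.PN B R : Language α))
    (hgap : ∀ P Q : List α, g.Wo P → g.Wo (P ++ Q) → Q ≠ [] → 2 * g.p0 + 2 * g.N1 < Q.length)
    (BadT : ℕ → Prop) (M0 A0 : ℕ) (hM0 : 0 < M0)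
    (hper : ∀ T T', T % M0 = T' % M0 → (BadT T ↔ BadT T'))
    (lam rho : List α → Option V) (nu1 : List α → V)
    (hlen : ∀ P v, lam P = some v → P.length ≤ g.N1)
    (hex : ∀ P Q v b, lam P = some v → rho Q = some b →
      b = act v ((P ++ Q).map φ).prod + nu1 (P ++ Q))
    (hcomp : ∀ X : List α, ¬ BadT X.length → ∀ v, ∃ P Q, X = P ++ Q ∧ lam P = some v ∧
      (rho Q).isSome)
    (hfs : ∀ Q Q' : List α, Q.take A0 = Q'.take A0 →
      ((Q.drop A0).map φ).prod = ((Q'.drop A0).map φ).prod →
      Q.length % M0 = Q'.length % M0 → nu1 Q = nu1 Q')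
    (K : ℕ) (c : ℕ → ℕ) (hc : ∀ k, k < K → c k ≤ g.p0)
    (lam2 rho2 : ℕ → List α → Option V) (nu2 : List α → V)
    (hex2 : ∀ k, k < K → ∀ P Q v u, P.length = c k → Q.length = g.p0 - c k →
      lam2 k P = some v → rho2 k Q = some u → u = act v ((P ++ Q).map φ).prod + nu2 (P ++ Q))
    (C0 : ℕ)
    (hsp : ∀ k k' l l', k < K → k' < K → l < K → l' < K → k' ≠ k → l' ≠ l →
      c k + c l' < c l + c k' + 2 * g.N1 → c l + c k' < c k + c l' + 2 * g.N1 → k = l)
    (hthin : ∀ τ, g.z ≤ τ + g.p0 → ∀ J : Finset ℕ, (∀ k ∈ J, k < K ∧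
      ∃ k', k' < K ∧ k' ≠ k ∧ BadT (τ + c k' - c k - g.p0)) → J.card ≤ C0)
    (hI : ∀ (u : List α) (v : V), u.length = g.p0 → ∃ I : Finset ℕ, 2 * C0 + 2 ≤ I.card ∧
      ∀ k ∈ I, k < K ∧ lam2 k (u.take (c k)) = some v ∧ (rho2 k (u.drop (c k))).isSome)
    (s : S) : HL 3 ({w | (w.map φ).prod = s} : Language α) := by
  classical
  let pre : List α → V → V := fun X v => act v (X.map φ).prod + nu2 X
  let post : V → List α → V := fun u Y => act u (Y.map φ).prod + nu1 Y
  let nu : List α → V := fun X =>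
    act (nu2 (X.take g.p0)) ((X.drop g.p0).map φ).prod + nu1 (X.drop g.p0)
  have hT : ∀ v X, g.T pre post v X = act v (X.map φ).prod + nu X := by
    intro v X
    show act (act v ((X.take g.p0).map φ).prod + nu2 (X.take g.p0)) ((X.drop g.p0).map φ).prod
      + nu1 (X.drop g.p0) = _
    rw [hadd, ← hmul]
    have : ((X.take g.p0).map φ).prod * ((X.drop g.p0).map φ).prod = (X.map φ).prod := by
      rw [← List.prod_append, ← List.map_append, List.take_append_drop]
    rw [this, add_assoc]
  have hzp : g.p0 ≤ g.z := by have := g.hz; omega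
  let A : ℕ := g.z + g.N1 + A0
  -- regularity data
  have key_drop : ∀ (a b : ℕ) (q q2 : List α), a ≤ b → q.take b = q2.take b →
      ((q.drop b).map φ).prod = ((q2.drop b).map φ).prod →
      ((q.drop a).map φ).prod = ((q2.drop a).map φ).prod := by
    intro a b q q2 hab h1 h2
    have e : ∀ q : List α, (q.drop a) = (q.take b).drop a ++ q.drop b := by
      intro q
      conv_lhs => rw [← List.take_append_drop b q]
      rw [List.drop_append]
      rcases Nat.lt_or_ge q.length b with hb | hb
      · rw [List.drop_of_length_le (l := q) (by omega)]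
        simp
      · have : a - (q.take b).length = 0 := by rw [List.length_take]; omega
        rw [this, List.drop_zero]
    rw [e q, e q2, List.map_append, List.map_append, List.prod_append, List.prod_append, h1, h2]
  have hnu_loc : ∀ q q2 : List α, A ≤ q.length → A ≤ q2.length → q.take A = q2.take A →
      q.length ≡ q2.length [MOD M0] → ((q.drop A).map φ).prod = ((q2.drop A).map φ).prod →
      nu q = nu q2 ∧ (q.map φ).prod = (q2.map φ).prod := by
    intro q q2 h1 h2 h3 h4 h5
    have hA : g.p0 + A0 ≤ A := by show g.p0 + A0 ≤ g.z + g.N1 + A0; omega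
    have e1 : q.take g.p0 = q2.take g.p0 := by
      have := congrArg (List.take g.p0) h3
      rwa [List.take_take, List.take_take, min_eq_left (by omega)] at this
    have e2 := key_drop g.p0 A q q2 (by omega) h3 h5
    have e3 := key_drop 0 A q q2 (by omega) h3 h5
    rw [List.drop_zero, List.drop_zero] at e3
    refine ⟨?_, e3⟩
    show act (nu2 (q.take g.p0)) ((q.drop g.p0).map φ).prod + nu1 (q.drop g.p0) =
      act (nu2 (q2.take g.p0)) ((q2.drop g.p0).map φ).prod + nu1 (q2.drop g.p0)
    have e4 : nu1 (q.drop g.p0) = nu1 (q2.drop g.p0) := by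
      refine hfs _ _ ?_ ?_ ?_
      · have e : ∀ q : List α, (q.drop g.p0).take A0 = (q.take (g.p0 + A0)).drop g.p0 := by
          intro q
          rw [List.drop_take]
          congr 1
          omega
        rw [e, e]
        have := congrArg (fun l => (l.take (g.p0 + A0))) h3
        simp only [List.take_take] at this
        rw [min_eq_left hA] at this
        rw [this]
      · rw [List.drop_drop, List.drop_drop]
        exact key_drop _ A q q2 hA h3 h5
      · rw [List.length_drop, List.length_drop]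
        have h6 : (q.length - g.p0) ≡ (q2.length - g.p0) [MOD M0] := by
          refine Nat.ModEq.add_right_cancel' g.p0 ?_
          rw [Nat.sub_add_cancel (by omega), Nat.sub_add_cancel (by omega)]
          exact h4
        exact h6
    rw [e1, e2, e4]
  let C : Set (List α) := {X | g.XX X}
  let Bad : Set (List α) := {X | g.XX X ∧ g.BadX BadT X}
  have hC : Blk467.PCode C := by
    refine ⟨fun h => ?_, fun X hX Y hY hp => ?_⟩
    · have h1 : g.z ≤ ([] : List α).length := h.1
      have h2 := g.hz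
      have h3 := g.hN
      rw [List.length_nil] at h1
      omega
    · obtain ⟨R', rfl⟩ := hp
      exact g.prefix_code (R := R') (R' := []) hX hY (by simp)
  have hXXiff : ∀ X, g.XX X ↔ P4_933.XX g.Wo g.z X := by
    intro X
    constructor
    · rintro ⟨h1, h2, h3⟩; exact ⟨h2, h1, fun t ht hz => h3 t hz ht⟩
    · rintro ⟨h1, h2, h3⟩; exact ⟨h2, h1, fun t hz ht => h3 t ht hz⟩
  have hlocE : ∀ q q2 : List α, A ≤ q.length → A ≤ q2.length → q.take A = q2.take A →
      (g.E q → g.E q2) := by
    rintro q q2 h1 h2 h3 ⟨t, ht1, ht2, ht3, ht4⟩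
    have htA : t ≤ A := by show t ≤ g.z + g.N1 + A0; omega
    refine ⟨t, by omega, ?_, ht3, ht4⟩
    have := congrArg (List.take t) h3
    rw [List.take_take, List.take_take, min_eq_left htA] at this
    rw [← this]; exact ht2
  have hlocB : ∀ q q2 : List α, A ≤ q.length → A ≤ q2.length → q.take A = q2.take A →
      q.length ≡ q2.length [MOD M0] → (g.BadX BadT q → g.BadX BadT q2) := by
    rintro q q2 h1 h2 h3 h4 (h5 | h5)
    · exact Or.inl (hlocE q q2 h1 h2 h3 h5)
    · refine Or.inr ((hper _ _ ?_).1 h5)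
      have hA : g.p0 ≤ A := by show g.p0 ≤ g.z + g.N1 + A0; omega
      have h6 : (q.length - g.p0) ≡ (q2.length - g.p0) [MOD M0] := by
        refine Nat.ModEq.add_right_cancel' g.p0 ?_
        rw [Nat.sub_add_cancel (by omega), Nat.sub_add_cancel (by omega)]
        exact h4
      exact h6
  have hCT : ∀ x y, HL 1 ({X | X ∈ C ∧ act x (X.map φ).prod + nu X = y} : Language α) := by
    intro x y
    have hreg : Language.IsRegular ({X | act x (X.map φ).prod + nu X = y} : Language α) := by
      refine Bridge_975.reg_of_local φ A M0 hM0 (fun X => act x (X.map φ).prod + nu X = y) ?_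
      intro q q2 h1 h2 h3 h4 h5
      obtain ⟨e1, e2⟩ := hnu_loc q q2 h1 h2 h3 h4 h5
      rw [e1, e2]
    refine (P4_933.hl_XX (z := g.z) g.loc hlenWo free hreg).congr fun w => ?_
    exact and_congr (hXXiff w) Iff.rfl
  have hBT : ∀ x y, HL 1 ({X | X ∈ Bad ∧ act x (X.map φ).prod + nu X = y} : Language α) := by
    intro x y
    have hreg : Language.IsRegular
        ({X | g.BadX BadT X ∧ act x (X.map φ).prod + nu X = y} : Language α) := by
      refine Bridge_975.reg_of_local φ A M0 hM0
        (fun X => g.BadX BadT X ∧ act x (X.map φ).prod + nu X = y) ?_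
      intro q q2 h1 h2 h3 h4 h5
      obtain ⟨e1, e2⟩ := hnu_loc q q2 h1 h2 h3 h4 h5
      rw [e1, e2]
      exact and_congr ⟨hlocB q q2 h1 h2 h3 h4, hlocB q2 q h2 h1 h3.symm h4.symm⟩ Iff.rfl
    refine (P4_933.hl_XX (z := g.z) g.loc hlenWo free hreg).congr fun w => ?_
    constructor
    · rintro ⟨⟨h1, h2⟩, h3⟩; exact ⟨(hXXiff w).1 h1, h2, h3⟩
    · rintro ⟨h1, h2, h3⟩; exact ⟨⟨(hXXiff w).2 h1, h2⟩, h3⟩
  have htail : ∀ s, HL 1 ({w | (∀ X ∈ C, ¬ X <+: w) ∧ (w.map φ).prod = s} : Language α) := by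
    intro s
    have hreg : Language.IsRegular ({X | (X.map φ).prod = s} : Language α) := by
      refine Bridge_975.reg_of_local φ A M0 hM0 (fun X => (X.map φ).prod = s) ?_
      intro q q2 h1 h2 h3 h4 h5
      obtain ⟨e1, e2⟩ := hnu_loc q q2 h1 h2 h3 h4 h5
      rw [e2]
    refine (P4_933.hl_NB (z := g.z) g.loc hlenWo free hreg).congr fun w => ?_
    refine and_congr ?_ Iff.rfl
    rw [P4_933.NB_iff]
    constructor
    · intro h X hp hX; exact h X ((hXXiff X).2 hX) hp
    · intro h X hX hp; exact h X hp ((hXXiff X).1 hX)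
  refine Top5_120.top5 act hadd hone hmul hfaith φ nu C Bad hC (fun X hX => hX.1)
    (fun v => {P | g.LP1 pre lam v P}) (fun v => {P | Geo.LP2 K c lam2 v P}) ?_ ?_ hCT hBT htail
    ?_ ?_ s
  · intro v
    refine (List.finite_length_le α (g.p0 + g.N1)).subset ?_
    rintro P ⟨h1, h2⟩
    have := hlen _ _ h2
    rw [List.length_drop] at this
    show P.length ≤ _
    omega
  · intro v
    refine (List.finite_length_le α g.p0).subset ?_
    rintro P ⟨k, hk, h1, -⟩
    show P.length ≤ _
    rw [h1]; exact hc k hk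
  · intro X hX hnb v
    have hE : ¬ g.E X := fun h => hnb ⟨hX, Or.inl h⟩
    have hB : ¬ BadT (X.length - g.p0) := fun h => hnb ⟨hX, Or.inr h⟩
    obtain ⟨P, Q, b, hPQ, hP, hQ⟩ := g.complete1 pre hlen hX hE (rho := rho)
      (hcomp (X.drop g.p0) (by rw [List.length_drop]; exact hB)) v
    have hs := fun {v : V} {P : List α} (hP : g.LP1 pre lam v P) =>
      g.sound1 pre post hlen (fun P Q u b h1 h2 => hex P Q u b h1 h2) hP hQ
    refine ⟨P, Q, hPQ.symm, hP, fun x P' hP' => ?_⟩
    refine ⟨(hs hP').1, ?_⟩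
    have e1 := (hs hP').2
    have e2 := (hs hP).2
    rw [hT] at e1 e2
    rw [e1, ← e2, hPQ]
  · intro X hX Y hY v
    obtain ⟨P, Q, b, hPQ, hP, hQ⟩ := g.complete2 pre post (lam2 := lam2) (rho2 := rho2)
      (BadT := BadT) hc hgap hsp hthin hX.1 hY.1 v (by
        have hXl : g.p0 ≤ X.length := hzp.trans hX.1.1
        obtain ⟨I, hI1, hI2⟩ := hI (X.take g.p0) v (by rw [List.length_take]; omega)
        refine ⟨I, hI1, fun k hk => ?_⟩
        obtain ⟨h1, h2, h3⟩ := hI2 k hk
        refine ⟨h1, ?_, h3⟩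
        rw [List.take_take, min_eq_left (hc k h1)] at h2
        exact h2)
    have hs2 := fun {v : V} {X P R R' : List α} (hX : g.XX X) (hb : g.BadX BadT X)
        (hP : Geo.LP2 K c lam2 v P) (hcmp : P ++ Q ++ R = X ++ R') =>
      g.sound2 pre post (lam2 := lam2) (rho2 := rho2) hc
        (fun k hk P Q v u h1 h2 h3 h4 => hex2 k hk P Q v u h1 h2 h3 h4) hX hb hP hQ hcmp
    obtain ⟨Y', hY1, hY2, hY3⟩ := hs2 (R := []) (R' := Y) hX.1 hX.2 hP (by simpa using hPQ)
    have hYY : Y' = Y := by
      rw [hPQ] at hY2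
      exact (List.append_cancel_left hY2).symm
    subst hYY
    refine ⟨P, Q, hPQ, hP, fun x P' hP' => ?_⟩
    have hPl : P.length ≤ g.p0 := by obtain ⟨k, hk, h1, -⟩ := hP; rw [h1]; exact hc k hk
    have hQl : g.z ≤ Q.length := by
      have h1 := congrArg List.length hPQ
      simp only [List.length_append] at h1
      have h2 := hX.1.1
      have h3 := hY.1.1
      omega
    have hQW : g.Wo Q := by
      have h1 : g.Wo (P ++ Q) := by
        rw [hPQ]
        exact (g.loc _ _ (hlenWo _ hY.1.2.1)).2 hY.1.2.1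
      have h2 := g.hz
      have h3 := g.hq
      exact (g.loc _ _ (by omega)).1 h1
    obtain ⟨X', R', hXR, hX'⟩ := exists_block g (w := P' ++ Q)
      (by rw [List.length_append]; omega)
      ((g.loc _ _ (hlenWo _ hQW)).2 hQW)
    by_cases hb : g.BadX BadT X'
    · left
      obtain ⟨Y2, h1, h2, h3⟩ := hs2 (R := []) (R' := R') hX' hb hP' (by simpa using hXR)
      refine ⟨X', ⟨hX', hb⟩, Y2, h1, h2.symm, ?_⟩
      have e1 := h3
      have e2 := hY3
      rw [hT, hT] at e1 e2
      rw [e1, e2]
    · right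
      exact ⟨X', hX', fun h => hb h.2, ⟨R', hXR.symm⟩⟩

end Crest.Agent.R320.Fin_892
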