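import Crest.Agent.R320.P4_933

set_option autoImplicit false

namespace Crest.Agent.R320.FinA_905

open Crest.RegLang Crest.Agent.R320.Hk_851 Crest.Agent.R320.BddReg_746 Crest.Agent.R320.P4_933

section Same

variable {α S : Type*} [Monoid S]

/-- same class: prefix of length `A`, length mod `M0`, value of the rest -/
def Same (ψ : List α → S) (A M0 : ℕ) (u u' : List α) : Prop :=
  A ≤ u.length ∧ A ≤ u'.length ∧ u.take A = u'.take A ∧ u.length % M0 = u'.length % M0 ∧
    ψ (u.drop A) = ψ (u'.drop A)

variable {ψ : List α → S} {A B M0 : ℕ} {u u' : List α}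

theorem Same.symm (h : Same ψ A M0 u u') : Same ψ A M0 u' u :=
  ⟨h.2.1, h.1, h.2.2.1.symm, h.2.2.2.1.symm, h.2.2.2.2.symm⟩

theorem drop_split (u : List α) (h : B ≤ A) : u.drop B = (u.take A).drop B ++ u.drop A := by
  have h1 : (u.drop B).drop (A - B) = u.drop A := by
    rw [List.drop_drop]; congr 1; omega
  have h2 : (u.take A).drop B = (u.drop B).take (A - B) := by
    rw [List.drop_take]
  rw [h2, ← h1, List.take_append_drop]

theorem Same.mono (hψ : ∀ u v, ψ (u ++ v) = ψ u * ψ v) (h : Same ψ A M0 u u') (hB : B ≤ A) :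
    Same ψ B M0 u u' := by
  obtain ⟨h1, h2, h3, h4, h5⟩ := h
  refine ⟨by omega, by omega, ?_, h4, ?_⟩
  · have := congrArg (List.take B) h3
    rwa [List.take_take, List.take_take, min_eq_left hB] at this
  · rw [drop_split u hB, drop_split u' hB, hψ, hψ, h3, h5]

theorem Same.drop (a : ℕ) (h : Same ψ (a + B) M0 u u') : Same ψ B M0 (u.drop a) (u'.drop a) := by
  obtain ⟨h1, h2, h3, h4, h5⟩ := h
  refine ⟨by rw [List.length_drop]; omega, by rw [List.length_drop]; omega, ?_, ?_, ?_⟩
  · have := congrArg (List.drop a) h3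
    rw [List.drop_take, List.drop_take, Nat.add_sub_cancel_left] at this
    exact this
  · rw [List.length_drop, List.length_drop]
    have e1 : u.length = (u.length - a) + a := by omega
    have e2 : u'.length = (u'.length - a) + a := by omega
    have h6 : (u.length - a) + a ≡ (u'.length - a) + a [MOD M0] := by
      rw [← e1, ← e2]; exact h4
    exact Nat.ModEq.add_right_cancel' a h6
  · rw [List.drop_drop, List.drop_drop]; exact h5

theorem Same.val (hψ : ∀ u v, ψ (u ++ v) = ψ u * ψ v) (h : Same ψ A M0 u u') : ψ u = ψ u' := by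
  rw [← List.take_append_drop A u, ← List.take_append_drop A u', hψ, hψ, h.2.2.1, h.2.2.2.2]

/-- the noise which is only used at junctions -/
noncomputable def nuR {V : Type*} [Zero V] (lam rho : List α → Option V) (nu : List α → V)
    (Z : List α) : V := by
  classical
  exact if ∃ P Q v b, Z = P ++ Q ∧ lam P = some v ∧ rho Q = some b then nu Z else 0

theorem nuR_eq {V : Type*} [Zero V] {lam rho : List α → Option V} {nu : List α → V}
    {P Q : List α} {v b : V} (h1 : lam P = some v) (h2 : rho Q = some b) :
    nuR lam rho nu (P ++ Q) = nu (P ++ Q) := by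
  classical
  unfold nuR
  exact if_pos ⟨P, Q, v, b, rfl, h1, h2⟩

theorem nuR_same {V : Type*} [AddCommGroup V] {lam rho : List α → Option V} {nu : List α → V}
    (act : V → S → V) {N1 A' : ℕ} (hψ : ∀ u v, ψ (u ++ v) = ψ u * ψ v)
    (hlam : ∀ P v, lam P = some v → P.length < N1)
    (hs : ∀ P Q v b, lam P = some v → rho Q = some b → b = act v (ψ (P ++ Q)) + nu (P ++ Q))
    (hrho : ∀ Q Q' : List α, A' ≤ Q.length → A' ≤ Q'.length → Q.take A' = Q'.take A' →
      ψ (Q.drop A') = ψ (Q'.drop A') → Q.length ≡ Q'.length [MOD M0] → rho Q = rho Q')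
    {Z Z' : List α} (h : Same ψ (N1 + A') M0 Z Z') : nuR lam rho nu Z = nuR lam rho nu Z' := by
  classical
  have key : ∀ {Z Z' : List α}, Same ψ (N1 + A') M0 Z Z' → ∀ P Q v b, Z = P ++ Q →
      lam P = some v → rho Q = some b → ∃ Q', Z' = P ++ Q' ∧ rho Q' = some b := by
    intro Z Z' h P Q v b hZ h1 h2
    have hP := hlam P v h1
    have h3 : Same ψ (P.length + A') M0 Z Z' := h.mono hψ (by omega)
    have h4 := h3.drop P.length
    have h5 : Z'.take P.length = P := by
      have h6 : Same ψ P.length M0 Z Z' := h3.mono hψ (by omega)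
      rw [← h6.2.2.1, hZ, List.take_left]
    have h7 : Z.drop P.length = Q := by rw [hZ, List.drop_left]
    rw [h7] at h4
    refine ⟨Z'.drop P.length, ?_, ?_⟩
    · conv_lhs => rw [← List.take_append_drop P.length Z', h5]
    · rw [← hrho Q _ h4.1 h4.2.1 h4.2.2.1 h4.2.2.2.2 h4.2.2.2.1]
      exact h2
  have hv := h.val hψ
  by_cases hex : ∃ P Q v b, Z = P ++ Q ∧ lam P = some v ∧ rho Q = some b
  · obtain ⟨P, Q, v, b, rfl, h1, h2⟩ := hex
    obtain ⟨Q', rfl, h3⟩ := key h P Q v b rfl h1 h2
    rw [nuR_eq h1 h2, nuR_eq h1 h3]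
    have e1 := hs P Q v b h1 h2
    have e2 := hs P Q' v b h1 h3
    rw [hv] at e1
    have := e1.symm.trans e2
    exact add_left_cancel this
  · have hex' : ¬ ∃ P Q v b, Z' = P ++ Q ∧ lam P = some v ∧ rho Q = some b := by
      rintro ⟨P, Q, v, b, hZ, h1, h2⟩
      obtain ⟨Q', e, h3⟩ := key h.symm P Q v b hZ h1 h2
      exact hex ⟨P, Q', v, b, e, h1, h3⟩
    unfold nuR
    rw [if_neg hex, if_neg hex']

end Same

/-- finite-state properties are regular -/
theorem regular_of_same {α : Type*} [Finite α] {S : Type*} [Monoid S] [Finite S] (φ : α → S)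
    (A M0 : ℕ) (hM : 0 < M0) (f : List α → Prop)
    (hf : ∀ u u' : List α, Same (fun w => (w.map φ).prod) A M0 u u' → (f u ↔ f u')) :
    Language.IsRegular ({u | f u} : Language α) := by
  classical
  haveI : NeZero M0 := ⟨by omega⟩
  have hfin : Finite {l : List α // l.length ≤ A} := List.finite_length_le α A
  let σ := {l : List α // l.length ≤ A} × ZMod M0 × S
  haveI : Fintype σ := Fintype.ofFinite σ
  let st : List α → σ := fun u =>
    (⟨u.take A, by rw [List.length_take]; omega⟩, (u.length : ZMod M0), ((u.drop A).map φ).prod)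
  let M : DFA α σ :=
    { step := fun q a =>
        (if h : q.1.1.length < A then ⟨q.1.1 ++ [a], by simp; omega⟩ else q.1,
          q.2.1 + 1, if q.1.1.length < A then q.2.2 else q.2.2 * φ a)
      start := st []
      accept := {q | ∃ u, f u ∧ st u = q} }
  have hev : ∀ u, M.eval u = st u := by
    intro u
    induction u using List.reverseRecOn with
    | nil => rfl
    | append_singleton u a ih =>
      rw [DFA.eval_append_singleton, ih]
      refine Prod.ext ?_ (Prod.ext ?_ ?_)
      · apply Subtype.ext
        show (if h : (u.take A).length < A then (⟨u.take A ++ [a], by simp at h ⊢; omega⟩ :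
          {l : List α // l.length ≤ A}) else ⟨u.take A, by rw [List.length_take]; omega⟩).1
          = (u ++ [a]).take A
        rw [take_snoc]
        split_ifs <;> rfl
      · show (u.length : ZMod M0) + 1 = (((u ++ [a]).length : ℕ) : ZMod M0)
        simp
      · show (if (u.take A).length < A then ((u.drop A).map φ).prod
          else ((u.drop A).map φ).prod * φ a) = (((u ++ [a]).drop A).map φ).prod
        by_cases h : u.length < A
        · have h1 : (u.take A).length < A := by rw [List.length_take]; omega
          rw [if_pos h1, List.drop_eq_nil_of_le (by omega),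
            List.drop_eq_nil_of_le (by simp; omega)]
        · have h1 : ¬ (u.take A).length < A := by rw [List.length_take]; omega
          rw [if_neg h1, List.drop_append_of_le_length (by omega)]
          simp
  refine Language.isRegular_iff.2 ⟨σ, inferInstance, M, ?_⟩
  ext u
  rw [DFA.mem_accepts, hev]
  constructor
  · rintro ⟨u', h1, h2⟩
    have e1 : u'.take A = u.take A := congrArg (fun q : σ => q.1.1) h2
    have e2 : (u'.length : ZMod M0) = (u.length : ZMod M0) := congrArg (fun q : σ => q.2.1) h2
    have e3 : ((u'.drop A).map φ).prod = ((u.drop A).map φ).prod :=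
      congrArg (fun q : σ => q.2.2) h2
    have e2' : u'.length % M0 = u.length % M0 := (ZMod.natCast_eq_natCast_iff' _ _ _).1 e2
    have e4 := congrArg List.length e1
    rw [List.length_take, List.length_take] at e4
    by_cases h : u.length < A
    · rw [List.take_of_length_le (by omega), List.take_of_length_le (by omega)] at e1
      rw [← e1]; exact h1
    · exact (hf u' u ⟨by omega, by omega, e1, e2', e3⟩).1 h1
  · intro h
    exact ⟨u, h, rfl⟩

end Crest.Agent.R320.FinA_905
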