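import Crest.Agent.R320.Top5_467
import Crest.Agent.R320.P3_943
import Crest.Agent.R320.WallU_228

/-!
# Row 320: natural block code on all words (helper927)
-/

set_option autoImplicit false

namespace Crest.Agent.R320.FinA_927

open Crest.RegLang Crest.Agent.R320.Hk_851 Crest.Agent.R320.Blk467

section code

variable {α : Type}

/-- blocks: first wall at a place `≥ z` -/
def XX (z : ℕ) (Wo : List α → Prop) : Set (List α) :=
  {X | z ≤ X.length ∧ Wo X ∧ ∀ t, z ≤ t → t < X.length → ¬ Wo (X.take t)}

variable {n z : ℕ} {Wo : List α → Prop}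

theorem wo_shift (hloc : ∀ P Q : List α, n ≤ Q.length → (Wo (P ++ Q) ↔ Wo Q))
    (u q : List α) (t : ℕ) (h1 : n ≤ t) (h2 : t ≤ q.length) :
    Wo ((u ++ q).take (u.length + t)) ↔ Wo (q.take t) := by
  have e : (u ++ q).take (u.length + t) = u ++ q.take t := by
    rw [List.take_append, List.take_of_length_le (by omega)]
    congr 2
    omega
  rw [e]
  exact hloc u (q.take t) (by rw [List.length_take]; omega)

theorem wo_shift2 (hloc : ∀ P Q : List α, n ≤ Q.length → (Wo (P ++ Q) ↔ Wo Q))
    (u u' q : List α) (s s' : ℕ) (h0 : u.length + s' = u'.length + s)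
    (h1 : n + u.length ≤ s) (h2 : s ≤ u.length + q.length) :
    Wo ((u ++ q).take s) ↔ Wo ((u' ++ q).take s') := by
  have e1 : s = u.length + (s - u.length) := by omega
  have e2 : s' = u'.length + (s - u.length) := by omega
  rw [e1, e2, wo_shift hloc u q _ (by omega) (by omega),
    wo_shift hloc u' q _ (by omega) (by omega)]

theorem pcode (hz : 0 < z) : PCode (XX z Wo) := by
  refine ⟨fun h => ?_, fun X hX Y hY hXY => ?_⟩
  · have := h.1
    simp only [List.length_nil] at this
    omega
  · by_contra hne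
    obtain ⟨r, rfl⟩ := hXY
    have hr : r ≠ [] := by
      rintro rfl
      exact hne (by simp)
    have hl : 0 < r.length := List.length_pos_iff.2 hr
    refine hY.2.2 X.length hX.1 (by rw [List.length_append]; omega) ?_
    rw [List.take_left]
    exact hX.2.1

theorem exists_first {w : List α} {t : ℕ} (ht : t ≤ w.length) (hz : z ≤ t) (hw : Wo (w.take t)) :
    ∃ X ∈ XX z Wo, X <+: w := by
  classical
  have hex : ∃ t, z ≤ t ∧ t ≤ w.length ∧ Wo (w.take t) := ⟨t, hz, ht, hw⟩
  obtain ⟨h1, h2, h3⟩ := Nat.find_spec hex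
  set s := Nat.find hex with hs
  have hl : (w.take s).length = s := by rw [List.length_take]; omega
  refine ⟨w.take s, ⟨by omega, h3, fun t' h4 h5 h6 => ?_⟩, List.take_prefix _ _⟩
  rw [hl] at h5
  have : ¬ (z ≤ t' ∧ t' ≤ w.length ∧ Wo (w.take t')) := Nat.find_min hex (by omega)
  apply this
  refine ⟨h4, by omega, ?_⟩
  rw [List.take_take, min_eq_left (by omega)] at h6
  exact h6

/-- blocks do not read the first letters -/
theorem xx_loc (hloc : ∀ P Q : List α, n ≤ Q.length → (Wo (P ++ Q) ↔ Wo Q))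
    {p0 : ℕ} (hz : p0 + n ≤ z) (u u' Q : List α) (h : u.length = u'.length) (hu : u.length ≤ p0)
    (hX : u ++ Q ∈ XX z Wo) : u' ++ Q ∈ XX z Wo := by
  obtain ⟨h1, h2, h3⟩ := hX
  rw [List.length_append] at h1
  have h2' : Wo Q := (hloc u Q (by omega)).1 h2
  refine ⟨by rw [List.length_append]; omega, (hloc u' Q (by omega)).2 h2', fun t h4 h5 h6 => ?_⟩
  rw [List.length_append] at h5
  refine h3 t h4 (by rw [List.length_append]; omega) ?_
  exact (wo_shift2 hloc u u' Q t t (by omega) (by omega) (by omega)).2 h6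

theorem xx_exists (hloc : ∀ P Q : List α, n ≤ Q.length → (Wo (P ++ Q) ↔ Wo Q))
    (hn : n ≤ z) (u Q1 X2 : List α) (h2 : X2 ∈ XX z Wo) :
    ∃ X ∈ XX z Wo, X <+: u ++ (Q1 ++ X2) := by
  refine exists_first (t := (u ++ (Q1 ++ X2)).length) le_rfl ?_ ?_
  · have := h2.1
    simp only [List.length_append]
    omega
  · rw [List.take_length, ← List.append_assoc]
    have := h2.1
    exact (hloc _ X2 (by omega)).2 h2.2.1

end code

end Crest.Agent.R320.FinA_927
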