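import Crest.Agent.R320.Grid_899
import Crest.Agent.R320.Thin_963
import Crest.Agent.R320.P4_933
import Crest.Agent.R320.LWallAll_922

/-! Row 320 (helper953): arithmetic glue for the final join. -/

set_option autoImplicit false

namespace Crest.Agent.R320.FinA_953

open Crest.Agent.R320

theorem pow2 : ∀ a b c d : ℕ, 2 ^ a + 2 ^ b = 2 ^ c + 2 ^ d → a = c ∨ a = d := by
  intro a
  induction a with
  | zero =>
    intro b c d h
    rcases Nat.eq_zero_or_pos c with hc | hc
    · exact Or.inl hc.symm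
    rcases Nat.eq_zero_or_pos d with hd | hd
    · exact Or.inr hd.symm
    exfalso
    obtain ⟨c', rfl⟩ : ∃ c', c = c' + 1 := ⟨c - 1, by omega⟩
    obtain ⟨d', rfl⟩ : ∃ d', d = d' + 1 := ⟨d - 1, by omega⟩
    have h1 : 0 < 2 ^ c' := by positivity
    have h2 : 0 < 2 ^ d' := by positivity
    rcases Nat.eq_zero_or_pos b with hb | hb
    · subst hb
      simp only [pow_succ, pow_zero] at h
      omega
    · obtain ⟨b', rfl⟩ : ∃ b', b = b' + 1 := ⟨b - 1, by omega⟩
      simp only [pow_succ, pow_zero] at h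
      omega
  | succ a ih =>
    intro b c d h
    have h0 : 0 < 2 ^ a := by positivity
    rcases Nat.eq_zero_or_pos c with hc | hc
    · subst hc
      rcases Nat.eq_zero_or_pos d with hd | hd
      · subst hd
        have h1 : 0 < 2 ^ b := by positivity
        simp only [pow_succ, pow_zero] at h
        omega
      · obtain ⟨d', rfl⟩ : ∃ d', d = d' + 1 := ⟨d - 1, by omega⟩
        rcases Nat.eq_zero_or_pos b with hb | hb
        · subst hb
          right
          have : 2 ^ (a + 1) = 2 ^ (d' + 1) := by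
            simp only [pow_zero] at h
            omega
          exact Nat.pow_right_injective (le_refl 2) this
        · exfalso
          obtain ⟨b', rfl⟩ : ∃ b', b = b' + 1 := ⟨b - 1, by omega⟩
          simp only [pow_succ, pow_zero] at h
          omega
    · obtain ⟨c', rfl⟩ : ∃ c', c = c' + 1 := ⟨c - 1, by omega⟩
      rcases Nat.eq_zero_or_pos d with hd | hd
      · subst hd
        rcases Nat.eq_zero_or_pos b with hb | hb
        · subst hb
          left
          have : 2 ^ (a + 1) = 2 ^ (c' + 1) := by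
            simp only [pow_zero] at h
            omega
          exact Nat.pow_right_injective (le_refl 2) this
        · exfalso
          obtain ⟨b', rfl⟩ : ∃ b', b = b' + 1 := ⟨b - 1, by omega⟩
          simp only [pow_succ, pow_zero] at h
          omega
      · obtain ⟨d', rfl⟩ : ∃ d', d = d' + 1 := ⟨d - 1, by omega⟩
        rcases Nat.eq_zero_or_pos b with hb | hb
        · exfalso
          subst hb
          simp only [pow_succ, pow_zero] at h
          omega
        · obtain ⟨b', rfl⟩ : ∃ b', b = b' + 1 := ⟨b - 1, by omega⟩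
          have := ih b' c' d' (by simp only [pow_succ] at h; omega)
          omega

/-- the ruler `X * 2^k` at resolution `2 N1` -/
theorem ruler_sp {X N1 : ℕ} (hX : 2 * N1 ≤ X) {k k' l l' : ℕ} (hk : k' ≠ k) (hl : l' ≠ l)
    (h1 : X * 2 ^ k + X * 2 ^ l' < X * 2 ^ l + X * 2 ^ k' + 2 * N1)
    (h2 : X * 2 ^ l + X * 2 ^ k' < X * 2 ^ k + X * 2 ^ l' + 2 * N1) : k = l := by
  have e1 : X * (2 ^ k + 2 ^ l') < X * (2 ^ l + 2 ^ k' + 1) := by
    calc X * (2 ^ k + 2 ^ l') = X * 2 ^ k + X * 2 ^ l' := by ring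
      _ < X * 2 ^ l + X * 2 ^ k' + 2 * N1 := h1
      _ ≤ X * 2 ^ l + X * 2 ^ k' + X := by omega
      _ = X * (2 ^ l + 2 ^ k' + 1) := by ring
  have e2 : X * (2 ^ l + 2 ^ k') < X * (2 ^ k + 2 ^ l' + 1) := by
    calc X * (2 ^ l + 2 ^ k') = X * 2 ^ l + X * 2 ^ k' := by ring
      _ < X * 2 ^ k + X * 2 ^ l' + 2 * N1 := h2
      _ ≤ X * 2 ^ k + X * 2 ^ l' + X := by omega
      _ = X * (2 ^ k + 2 ^ l' + 1) := by ring
  have e3 := lt_of_mul_lt_mul_left e1 (Nat.zero_le X)
  have e4 := lt_of_mul_lt_mul_left e2 (Nat.zero_le X)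
  have e5 : 2 ^ k + 2 ^ l' = 2 ^ l + 2 ^ k' := by omega
  rcases pow2 k l' l k' e5 with h | h
  · exact h
  · exact absurd h.symm hk

/-- distinct large odd primes -/
theorem primes (k B : ℕ) : ∃ q : Fin k → ℕ, (∀ j, (q j).Prime) ∧ (∀ j, B ≤ q j) ∧
    (∀ j, Odd (q j)) ∧ Pairwise (fun i j => Nat.Coprime (q i) (q j)) := by
  refine ⟨fun j => Nat.nth Nat.Prime (B + 1 + j), fun j => Nat.prime_nth_prime _, fun j => ?_,
    fun j => ?_, fun i j hij => ?_⟩
  · have := Nat.add_two_le_nth_prime (B + 1 + j)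
    show B ≤ Nat.nth Nat.Prime (B + 1 + j)
    omega
  · have := Nat.add_two_le_nth_prime (B + 1 + j)
    exact (Nat.prime_nth_prime _).odd_of_ne_two (by omega)
  · refine (Nat.coprime_primes (Nat.prime_nth_prime _) (Nat.prime_nth_prime _)).2 ?_
    intro h
    apply hij
    have := Nat.nth_injective Nat.infinite_setOfPred_prime h
    exact Fin.ext (by omega)

/-- the thin bad set -/
def Bd {k : ℕ} (q : Fin k → ℕ) (m κ : ℕ) (t : ℕ) : Prop :=
  Crest.Agent.R320.Thin963.BadT (Finset.univ.image q) m (fun i => (Grid_899.G κ i : ℤ))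
    (fun i => (((∏ j, q j) * Grid_899.G κ i : ℕ) : ℤ))
    (fun i => (Grid_899.Am (∏ j, q j) κ i : ℤ)) (t : ℤ)

theorem Bd_per {k : ℕ} (q : Fin k → ℕ) (m κ : ℕ) {t t' : ℕ}
    (h : t ≡ t' [MOD (∏ j, q j) * Grid_899.G κ m]) : Bd q m κ t → Bd q m κ t' := by
  have hd : (((∏ j, q j) * Grid_899.G κ m : ℕ) : ℤ) ∣ (t' : ℤ) - t := Nat.modEq_iff_dvd.1 h
  rintro (⟨p, hp, hpt⟩ | ⟨i, hi, e, he, hd2⟩)
  · left
    refine ⟨p, hp, ?_⟩
    obtain ⟨j, -, rfl⟩ := Finset.mem_image.1 hp
    have h1 : (q j : ℤ) ∣ (((∏ j, q j) * Grid_899.G κ m : ℕ) : ℤ) := by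
      exact_mod_cast (Finset.dvd_prod_of_mem q (Finset.mem_univ j)).mul_right _
    have := dvd_add hpt (h1.trans hd)
    rwa [add_sub_cancel] at this
  · right
    refine ⟨i, hi, e, he, ?_⟩
    have h1 : (Grid_899.G κ (i + 1) : ℤ) ∣ (((∏ j, q j) * Grid_899.G κ m : ℕ) : ℤ) := by
      exact_mod_cast (Grid_899.G_dvd (κ := κ) (by omega : i + 1 ≤ m)).mul_left _
    have := dvd_add hd2 (h1.trans hd)
    have e2 : (t : ℤ) - (Grid_899.Am (∏ j, q j) κ (i + 1) : ℤ) + e + ((t' : ℤ) - t) =
      (t' : ℤ) - (Grid_899.Am (∏ j, q j) κ (i + 1) : ℤ) + e := by ring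
    rw [e2] at this
    exact this

/-- off the bad set the grid gadget is complete -/
theorem Bd_window {k : ℕ} (q : Fin k → ℕ) (m κ : ℕ) {t : ℕ}
    (ht : 2 * Grid_899.Am (∏ j, q j) κ (m + 1) ≤ t) (h : ¬ Bd q m κ t) :
    (∀ j, ¬ q j ∣ t) ∧ (∀ j, 1 ≤ j → j ≤ m →
      (∏ j, q j) * Grid_899.G κ (j - 1) ≤ (t - Grid_899.Am (∏ j, q j) κ j) % Grid_899.G κ j ∧
      (t - Grid_899.Am (∏ j, q j) κ j) % Grid_899.G κ j +
        (∏ j, q j) * Grid_899.G κ (j - 1) ≤ Grid_899.G κ j) := by
  constructor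
  · intro j hj
    apply h
    left
    exact ⟨q j, Finset.mem_image_of_mem q (Finset.mem_univ j), by exact_mod_cast hj⟩
  · intro j hj1 hjm
    obtain ⟨i, rfl⟩ : ∃ i, j = i + 1 := ⟨j - 1, by omega⟩
    simp only [Nat.add_sub_cancel]
    set M := ∏ j, q j with hM
    have hle : Grid_899.Am M κ (i + 1) ≤ t :=
      (Grid_899.Am_mono (Ms := M) (κ := κ) (by omega : i + 1 ≤ m + 1)).trans (by omega)
    set r := (t - Grid_899.Am M κ (i + 1)) % Grid_899.G κ (i + 1) with hr
    have hG := Grid_899.G_pos (κ := κ) (i + 1)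
    have hrlt : r < Grid_899.G κ (i + 1) := Nat.mod_lt _ hG
    have hdvd : (Grid_899.G κ (i + 1) : ℤ) ∣ (t : ℤ) - (Grid_899.Am M κ (i + 1) : ℤ) - (r : ℤ) := by
      have h1 : Grid_899.G κ (i + 1) ∣ (t - Grid_899.Am M κ (i + 1)) - r := Nat.dvd_sub_mod _
      have h2 : r ≤ t - Grid_899.Am M κ (i + 1) := Nat.mod_le _ _
      have h3 : (((t - Grid_899.Am M κ (i + 1)) - r : ℕ) : ℤ) =
          (t : ℤ) - (Grid_899.Am M κ (i + 1) : ℤ) - (r : ℤ) := by
        omega
      rw [← h3]
      exact_mod_cast h1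
    constructor
    · by_contra hlt
      apply h
      right
      refine ⟨i, by omega, -(r : ℤ), ?_, ?_⟩
      · rw [abs_neg, abs_of_nonneg (by positivity)]
        have h7 : r ≤ M * Grid_899.G κ i := by omega
        have h8 : (r : ℤ) ≤ ((M * Grid_899.G κ i : ℕ) : ℤ) := by exact_mod_cast h7
        exact h8
      · simpa [sub_eq_add_neg] using hdvd
    · by_contra hlt
      apply h
      right
      refine ⟨i, by omega, (Grid_899.G κ (i + 1) : ℤ) - (r : ℤ), ?_, ?_⟩
      · rw [abs_of_nonneg (by omega)]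
        have : (Grid_899.G κ (i + 1) : ℤ) - (r : ℤ) ≤ ((M * Grid_899.G κ i : ℕ) : ℤ) := by
          omega
        exact this
      · have := dvd_add hdvd (dvd_refl (Grid_899.G κ (i + 1) : ℤ))
        have e2 : (t : ℤ) - (Grid_899.Am M κ (i + 1) : ℤ) - (r : ℤ) + (Grid_899.G κ (i + 1) : ℤ) =
          (t : ℤ) - (Grid_899.Am M κ (i + 1) : ℤ) + ((Grid_899.G κ (i + 1) : ℤ) - (r : ℤ)) := by ring
        rw [e2] at this
        exact this

/-- the ruler with its thinness -/
theorem exists_X {k : ℕ} (q : Fin k → ℕ) (m K : ℕ) (hp : ∀ j, (q j).Prime)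
    (hq : ∀ j, 2 ^ (K + 1) ≤ q j) (hodd : ∀ j, Odd (q j)) (κ : ℕ)
    (hκ : κ = 2 ^ (K + 4) * (∏ j, q j) * m) (N0 : ℕ) :
    ∃ X : ℕ, N0 ≤ X ∧ 0 < X ∧ ∀ T : ℤ, ∀ P : Finset (ℕ × ℕ),
      (∀ p ∈ P, p.1 < K ∧ p.2 < K ∧ p.1 ≠ p.2 ∧ ∃ t : ℕ, (t : ℤ) =
        T + (X : ℤ) * 2 ^ p.1 - (X : ℤ) * 2 ^ p.2 ∧ Bd q m κ t) → P.card ≤ k + m := by
  classical
  set M := ∏ j, q j with hM
  have hMpos : 0 < M := Finset.prod_pos fun j _ => (hp j).pos
  obtain ⟨X, h1, h2, h3⟩ := Crest.Agent.R320.Thin963.thin K m (Finset.univ.image q)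
    (fun i => (Grid_899.G κ i : ℤ)) (fun i => ((M * Grid_899.G κ i : ℕ) : ℤ))
    (fun i => (Grid_899.Am M κ i : ℤ))
    (by
      intro p hpm
      obtain ⟨j, -, rfl⟩ := Finset.mem_image.1 hpm
      exact ⟨hp j, hq j⟩)
    (by
      intro p hpm
      obtain ⟨j, -, rfl⟩ := Finset.mem_image.1 hpm
      have : Nat.Coprime (q j) (Grid_899.G κ m) := by
        unfold Grid_899.G
        exact Nat.Coprime.pow_right _ (hodd j).coprime_two_right
      exact Nat.isCoprime_iff_coprime.2 this)
    (by exact_mod_cast Grid_899.G_pos (κ := κ) m)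
    (fun i j hij => by exact_mod_cast Grid_899.G_dvd (κ := κ) hij)
    (fun i => by
      have := Nat.mul_pos hMpos (Grid_899.G_pos (κ := κ) i)
      exact_mod_cast this)
    (fun i => by exact_mod_cast Dvd.intro_left M rfl)
    (by
      intro i hi
      have hb : ∀ i, i < m → 2 ^ (K + 4) * ∑ j ∈ Finset.range (i + 1), (M * Grid_899.G κ j) ≤
          Grid_899.G κ (i + 1) := by
        intro i hi
        have hs : ∑ j ∈ Finset.range (i + 1), (M * Grid_899.G κ j) ≤
            (i + 1) * (M * Grid_899.G κ i) := by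
          calc ∑ j ∈ Finset.range (i + 1), (M * Grid_899.G κ j)
              ≤ ∑ _j ∈ Finset.range (i + 1), (M * Grid_899.G κ i) := by
                refine Finset.sum_le_sum fun j hj => ?_
                have hj' : j ≤ i := by
                  have := Finset.mem_range.1 hj
                  omega
                exact Nat.mul_le_mul_left _ (Nat.le_of_dvd (Grid_899.G_pos (κ := κ) i)
                  (Grid_899.G_dvd (κ := κ) hj'))
            _ = (i + 1) * (M * Grid_899.G κ i) := by simp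
        have hk2 : 2 ^ (K + 4) * M * m ≤ 2 ^ κ := by
          rw [← hκ]
          exact (Nat.lt_two_pow_self).le
        have e : Grid_899.G κ (i + 1) = 2 ^ κ * Grid_899.G κ i := by
          unfold Grid_899.G
          rw [← pow_add]
          congr 1
          ring
        rw [e]
        calc 2 ^ (K + 4) * ∑ j ∈ Finset.range (i + 1), (M * Grid_899.G κ j)
            ≤ 2 ^ (K + 4) * ((i + 1) * (M * Grid_899.G κ i)) := Nat.mul_le_mul_left _ hs
          _ ≤ 2 ^ (K + 4) * (m * (M * Grid_899.G κ i)) :=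
            Nat.mul_le_mul_left _ (Nat.mul_le_mul_right _ (by omega))
          _ = 2 ^ (K + 4) * M * m * Grid_899.G κ i := by ring
          _ ≤ 2 ^ κ * Grid_899.G κ i := Nat.mul_le_mul_right _ hk2
      have := hb i hi
      exact_mod_cast this) (N0 : ℤ)
  refine ⟨X.toNat, by omega, by omega, ?_⟩
  intro T P hP
  have hX : ((X.toNat : ℕ) : ℤ) = X := Int.toNat_of_nonneg h2.le
  have h4 := h3 T
  have hsub : P ⊆ ((Finset.range K) ×ˢ (Finset.range K)).filter (fun p => p.1 ≠ p.2 ∧
      Crest.Agent.R320.Thin963.BadT (Finset.univ.image q) m (fun i => (Grid_899.G κ i : ℤ))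
        (fun i => ((M * Grid_899.G κ i : ℕ) : ℤ)) (fun i => (Grid_899.Am M κ i : ℤ))
        (T + X * 2^p.1 - X * 2^p.2)) := by
    intro p hp'
    obtain ⟨a1, a2, a3, t, a4, a5⟩ := hP p hp'
    simp only [Finset.mem_filter, Finset.mem_product, Finset.mem_range]
    refine ⟨⟨a1, a2⟩, a3, ?_⟩
    rw [hX] at a4
    rw [← a4]
    exact a5
  refine (Finset.card_le_card hsub).trans (h4.trans ?_)
  have : (Finset.univ.image q).card ≤ k := by
    refine Finset.card_image_le.trans ?_
    simp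
  omega


section nup

variable {A V : Type*} [Zero V]

open Classical in
/-- the noise, forced to be zero where there is no legal split -/
noncomputable def nup (lam rho : List A → Option V) (nu : List A → V) (Y : List A) : V :=
  if ∃ P Q v b, Y = P ++ Q ∧ lam P = some v ∧ rho Q = some b then nu Y else 0

theorem nup_eq {lam rho : List A → Option V} {nu : List A → V} {P Q : List A} {v b : V}
    (h1 : lam P = some v) (h2 : rho Q = some b) : nup lam rho nu (P ++ Q) = nu (P ++ Q) := by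
  unfold nup
  rw [if_pos ⟨P, Q, v, b, rfl, h1, h2⟩]

end nup

theorem nup_congr {A V S : Type*} [AddCommGroup V] [Monoid S] {act : V → S → V}
    {lam rho : List A → Option V} {nu : List A → V} {φ : A → S} {a D : ℕ}
    (hl : ∀ P v, lam P = some v → P.length ≤ a)
    (hs : ∀ P Q v b, lam P = some v → rho Q = some b →
      b = act v ((P ++ Q).map φ).prod + nu (P ++ Q))
    (hr : ∀ Q Q' : List A, a ≤ Q.length → a ≤ Q'.length → Q.take a = Q'.take a →
      ((Q.drop a).map φ).prod = ((Q'.drop a).map φ).prod → Q.length ≡ Q'.length [MOD D] →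
      rho Q = rho Q')
    {U E E' : List A} (hU : 2 * a ≤ U.length) (hE : (E.map φ).prod = (E'.map φ).prod)
    (hD : E.length ≡ E'.length [MOD D]) :
    nup lam rho nu (U ++ E) = nup lam rho nu (U ++ E') := by
  classical
  have key : ∀ E E' : List A, (E.map φ).prod = (E'.map φ).prod → E.length ≡ E'.length [MOD D] →
      ∀ P Q v b, U ++ E = P ++ Q → lam P = some v → rho Q = some b →
        ∃ Q', U ++ E' = P ++ Q' ∧ rho Q' = some b := by
    intro E E' hE hD P Q v b h1 h2 h3
    have hP := hl P v h2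
    obtain ⟨U2, rfl⟩ : P <+: U :=
      List.prefix_of_prefix_length_le ⟨Q, h1.symm⟩ ⟨E, rfl⟩ (by omega)
    rw [List.length_append] at hU
    have hQ : Q = U2 ++ E := by
      rw [List.append_assoc] at h1
      exact (List.append_cancel_left h1).symm
    subst hQ
    refine ⟨U2 ++ E', by rw [List.append_assoc], ?_⟩
    rw [← h3]
    refine (hr _ _ ?_ ?_ ?_ ?_ ?_).symm
    · rw [List.length_append]; omega
    · rw [List.length_append]; omega
    · rw [List.take_append_of_le_length (by omega), List.take_append_of_le_length (by omega)]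
    · rw [List.drop_append_of_le_length (by omega), List.drop_append_of_le_length (by omega)]
      simp only [List.map_append, List.prod_append]
      rw [hE]
    · rw [List.length_append, List.length_append]
      exact hD.add_left _
  unfold nup
  by_cases h : ∃ P Q v b, U ++ E = P ++ Q ∧ lam P = some v ∧ rho Q = some b
  · obtain ⟨P, Q, v, b, h1, h2, h3⟩ := h
    obtain ⟨Q', h4, h5⟩ := key E E' hE hD P Q v b h1 h2 h3
    rw [if_pos ⟨P, Q, v, b, h1, h2, h3⟩, if_pos ⟨P, Q', v, b, h4, h2, h5⟩]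
    have e1 := hs P Q v b h2 h3
    have e2 := hs P Q' v b h2 h5
    rw [← h1] at e1
    rw [← h4] at e2
    have e3 : ((U ++ E).map φ).prod = ((U ++ E').map φ).prod := by
      simp only [List.map_append, List.prod_append]
      rw [hE]
    rw [e3] at e1
    exact add_left_cancel (e1.symm.trans e2)
  · have h' : ¬ ∃ P Q v b, U ++ E' = P ++ Q ∧ lam P = some v ∧ rho Q = some b := by
      rintro ⟨P, Q, v, b, h1, h2, h3⟩
      obtain ⟨Q', h4, h5⟩ := key E' E hE.symm hD.symm P Q v b h1 h2 h3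
      exact h ⟨P, Q', v, b, h4, h2, h5⟩
    rw [if_neg h, if_neg h']

end Crest.Agent.R320.FinA_953
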