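import Crest.Agent.R320.G1_852
import Crest.Agent.R320.Thin_963
import Crest.Agent.R320.Sc2n_937
import Crest.Agent.R320.Top5_120
import Crest.Agent.R320.LWallAll_922
import Crest.Agent.R320.ExactR_237
import Crest.Agent.R320.P4_933

/-! Row 320: constants + join (helper97). -/

set_option autoImplicit false

namespace Crest.Agent.R320.FinA_97

open Crest.RegLang Crest.Agent.R320.Hk_851 Crest.Agent.R320.BddReg_746

/-! ### regularity -/

theorem reg_key {α : Type} [Finite α] {S : Type} [Monoid S] [Finite S] (φ : α → S) (A M0 : ℕ)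
    (hM : 0 < M0) (f : List α → Prop)
    (hf : ∀ u u' : List α, A ≤ u.length → A ≤ u'.length → u.take A = u'.take A →
      u.length % M0 = u'.length % M0 → ((u.drop A).map φ).prod = ((u'.drop A).map φ).prod →
      (f u ↔ f u')) :
    Language.IsRegular ({u | f u} : Language α) := by
  classical
  haveI : NeZero M0 := ⟨by omega⟩
  have hfin : Finite {l : List α // l.length ≤ A} := List.finite_length_le α A
  let σ := {l : List α // l.length ≤ A} × ZMod M0 × S
  haveI : Fintype σ := Fintype.ofFinite σ
  let st : List α → σ := fun u =>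
    (⟨u.take A, by rw [List.length_take]; omega⟩, (u.length : ZMod M0), ((u.drop A).map φ).prod)
  let M : DFA α σ :=
    { step := fun q a =>
        (if h : q.1.1.length < A then ⟨q.1.1 ++ [a], by simp; omega⟩ else q.1,
          q.2.1 + 1, if q.1.1.length < A then q.2.2 else q.2.2 * φ a)
      start := st []
      accept := {q | ∃ u, f u ∧ st u = q} }
  have hev : ∀ u, M.eval u = st u := by
    intro u
    induction u using List.reverseRecOn with
    | nil => rfl
    | append_singleton u a ih =>
      rw [DFA.eval_append_singleton, ih]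
      refine Prod.ext ?_ (Prod.ext ?_ ?_)
      · apply Subtype.ext
        show (if h : (u.take A).length < A then (⟨u.take A ++ [a], by simp at h ⊢; omega⟩ :
          {l : List α // l.length ≤ A}) else ⟨u.take A, by rw [List.length_take]; omega⟩).1
          = (u ++ [a]).take A
        rw [P4_933.take_snoc]
        split_ifs <;> rfl
      · show (u.length : ZMod M0) + 1 = (((u ++ [a]).length : ℕ) : ZMod M0)
        simp
      · show (if (u.take A).length < A then ((u.drop A).map φ).prod
          else ((u.drop A).map φ).prod * φ a) = (((u ++ [a]).drop A).map φ).prod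
        by_cases h : u.length < A
        · have h1 : (u.take A).length < A := by rw [List.length_take]; omega
          rw [if_pos h1, List.drop_eq_nil_of_le (by omega : u.length ≤ A),
            List.drop_eq_nil_of_le (by simp; omega)]
        · have h1 : ¬ (u.take A).length < A := by rw [List.length_take]; omega
          rw [if_neg h1, List.drop_append_of_le_length (by omega)]
          simp
  refine Language.isRegular_iff.2 ⟨σ, inferInstance, M, ?_⟩
  ext u
  rw [DFA.mem_accepts, hev]
  constructor
  · rintro ⟨u', h1, h2⟩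
    have e1 : u'.take A = u.take A := congrArg (fun q : σ => q.1.1) h2
    have e2 : (u'.length : ZMod M0) = (u.length : ZMod M0) := congrArg (fun q : σ => q.2.1) h2
    have e3 : ((u'.drop A).map φ).prod = ((u.drop A).map φ).prod :=
      congrArg (fun q : σ => q.2.2) h2
    have e2' : u'.length % M0 = u.length % M0 := (ZMod.natCast_eq_natCast_iff' _ _ _).1 e2
    have e4 := congrArg List.length e1
    rw [List.length_take, List.length_take] at e4
    by_cases h : u.length < A
    · rw [List.take_of_length_le (by omega), List.take_of_length_le (by omega)] at e1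
      rw [← e1]; exact h1
    · exact (hf u' u (by omega) (by omega) e1 e2' e3).1 h1
  · intro h
    exact ⟨u, h, rfl⟩

theorem drop_split {α : Type} (u : List α) {a A : ℕ} (h : a ≤ A) (hA : A ≤ u.length) :
    u.drop a = (u.take A).drop a ++ u.drop A := by
  conv_lhs => rw [← List.take_append_drop A u]
  rw [List.drop_append_of_le_length]
  rw [List.length_take]; omega

/-! ### arithmetic -/

theorem pw : ∀ a b c d : ℕ, 2 ^ a + 2 ^ b = 2 ^ c + 2 ^ d → a = c ∨ a = d := by
  have pos : ∀ n : ℕ, 1 ≤ 2 ^ n := fun n => Nat.one_le_two_pow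
  intro a
  induction a with
  | zero =>
    intro b c d h
    rcases c with _ | c
    · left; rfl
    rcases d with _ | d
    · right; rfl
    have h1 := pos c
    have h2 := pos d
    rcases b with _ | b
    · simp only [pow_succ, pow_zero] at h; omega
    · simp only [pow_succ, pow_zero] at h; omega
  | succ a ih =>
    intro b c d h
    have h0 := pos a
    rcases b with _ | b
    · rcases c with _ | c
      · right
        have : 2 ^ (a + 1) = 2 ^ d := by rw [pow_zero] at h; omega
        exact Nat.pow_right_injective le_rfl this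
      · rcases d with _ | d
        · left
          have : 2 ^ (a + 1) = 2 ^ (c + 1) := by rw [pow_zero] at h; omega
          exact Nat.pow_right_injective le_rfl this
        · exfalso
          simp only [pow_succ, pow_zero] at h; omega
    · have hb := pos b
      rcases c with _ | c
      · exfalso
        rcases d with _ | d
        · simp only [pow_succ, pow_zero] at h; omega
        · simp only [pow_succ, pow_zero] at h; omega
      · rcases d with _ | d
        · exfalso
          simp only [pow_succ, pow_zero] at h; omega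
        · have h5 := ih b c d (by simp only [pow_succ] at h; omega)
          omega

theorem geo2 {b : ℤ} (hb : 2 ≤ b) (i : ℕ) : ∑ j ∈ Finset.range (i + 1), b ^ j ≤ 2 * b ^ i := by
  induction i with
  | zero => simp
  | succ i ih =>
    rw [Finset.sum_range_succ, pow_succ]
    have : 0 < b ^ i := pow_pos (by omega) i
    nlinarith

def BadN (Ms : Finset ℕ) (M b m n : ℕ) : Prop :=
  (∃ k ∈ Ms, k ∣ n) ∨ ∃ j < m, ¬ (M ≤ n / b ^ j % b ∧ n / b ^ j % b + M < b)

theorem badN_thin {Ms : Finset ℕ} {M b m n : ℕ} (hb : 0 < b) (h : BadN Ms M b m n) :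
    Thin963.BadT Ms m (fun i => (b : ℤ) ^ i) (fun i => (M : ℤ) * b ^ i) (fun _ => 0) (n : ℤ) := by
  rcases h with ⟨k, hk, hd⟩ | ⟨j, hj, hd⟩
  · left
    exact ⟨k, hk, by exact_mod_cast hd⟩
  · right
    refine ⟨j, hj, ?_⟩
    have hp : 0 < b ^ j := pow_pos hb j
    set r := n % b ^ j with hr
    set d := n / b ^ j % b with hdd
    set t := n / b ^ j / b with ht
    have e1 : n = r + b ^ j * (n / b ^ j) := (Nat.mod_add_div n (b ^ j)).symm
    have e2 : n / b ^ j = d + b * t := (Nat.mod_add_div _ b).symm
    have e3 : n = r + b ^ j * d + b ^ (j + 1) * t := by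
      rw [e2] at e1
      rw [pow_succ]
      linarith [e1, mul_add (b ^ j) d (b * t), mul_assoc (b ^ j) b t]
    have hrlt : r < b ^ j := Nat.mod_lt _ hp
    have hdlt : d < b := Nat.mod_lt _ hb
    have e4 : (n : ℤ) = r + (b : ℤ) ^ j * d + (b : ℤ) ^ (j + 1) * t := by exact_mod_cast e3
    have hpz : (0 : ℤ) < (b : ℤ) ^ j := by exact_mod_cast hp
    have hrz : (r : ℤ) < (b : ℤ) ^ j := by exact_mod_cast hrlt
    have hr0 : (0 : ℤ) ≤ r := by positivity
    by_cases hc : M ≤ d
    · have hc2 : b ≤ d + M := by
        by_contra hcc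
        exact hd ⟨hc, by omega⟩
      refine ⟨(b : ℤ) ^ (j + 1) - (r + (b : ℤ) ^ j * d), ?_, ⟨(t : ℤ) + 1, ?_⟩⟩
      · rw [abs_le]
        have h1 : ((b : ℤ) - d) ≤ M := by omega
        have h0 : (1 : ℤ) ≤ (b : ℤ) - d := by omega
        rw [pow_succ]
        constructor
        · nlinarith
        · nlinarith
      · show (n : ℤ) - 0 + _ = _
        rw [e4]; ring
    · refine ⟨-(r + (b : ℤ) ^ j * d), ?_, ⟨(t : ℤ), ?_⟩⟩
      · rw [abs_le]
        have h1 : (d : ℤ) + 1 ≤ M := by omega
        have h0 : (0 : ℤ) ≤ d := by positivity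
        constructor
        · nlinarith
        · nlinarith
      · show (n : ℤ) - 0 + _ = _
        rw [e4]; ring

theorem badN_congr {Ms : Finset ℕ} {M b m n n' : ℕ} (hMs : ∀ k ∈ Ms, k ∣ M)
    (h : n % (M * b ^ m) = n' % (M * b ^ m)) : BadN Ms M b m n ↔ BadN Ms M b m n' := by
  have h1 : ∀ k ∈ Ms, (k ∣ n ↔ k ∣ n') := by
    intro k hk
    have hd : k ∣ M * b ^ m := (hMs k hk).trans (dvd_mul_right _ _)
    have h2 : n % k = n' % k := (Nat.ModEq.of_dvd hd h : n ≡ n' [MOD k])
    constructor
    · intro h3; exact Nat.dvd_of_mod_eq_zero (by rw [← h2]; exact Nat.mod_eq_zero_of_dvd h3)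
    · intro h3; exact Nat.dvd_of_mod_eq_zero (by rw [h2]; exact Nat.mod_eq_zero_of_dvd h3)
  have h2 : ∀ j < m, n / b ^ j % b = n' / b ^ j % b := by
    intro j hj
    have hd : b ^ j * b ∣ M * b ^ m := by
      rw [← pow_succ]
      exact (pow_dvd_pow b hj).trans (dvd_mul_left _ _)
    have h3 : n % (b ^ j * b) = n' % (b ^ j * b) := (Nat.ModEq.of_dvd hd h : n ≡ n' [MOD _])
    rw [← Nat.mod_mul_right_div_self, ← Nat.mod_mul_right_div_self, h3]
  unfold BadN
  constructor
  · rintro (⟨k, hk, h3⟩ | ⟨j, hj, h3⟩)
    · exact Or.inl ⟨k, hk, (h1 k hk).1 h3⟩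
    · refine Or.inr ⟨j, hj, ?_⟩; rw [← h2 j hj]; exact h3
  · rintro (⟨k, hk, h3⟩ | ⟨j, hj, h3⟩)
    · exact Or.inl ⟨k, hk, (h1 k hk).2 h3⟩
    · refine Or.inr ⟨j, hj, ?_⟩; rw [h2 j hj]; exact h3

end Crest.Agent.R320.FinA_97
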