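import Crest.Agent.R320.Grid_899
import Crest.Agent.R320.Thin_963

/-!
Row 320, join: arithmetic part (primes, growth, thin bad totals, periodicity).
-/

set_option autoImplicit false

namespace Crest.Agent.R320.Fin_975

open Finset Crest.Agent.R320.Grid_899

theorem exists_primes (k K : ℕ) : ∃ q : Fin k → ℕ, (∀ j, Nat.Prime (q j)) ∧
    (∀ j, 2 ^ (K + 1) ≤ q j) ∧ (∀ j, Odd (q j)) ∧
    Pairwise (fun i j => Nat.Coprime (q i) (q j)) := by
  let q : Fin k → ℕ := fun j => Nat.nth Nat.Prime (2 ^ (K + 1) + 3 + (j : ℕ))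
  have hp : ∀ j, Nat.Prime (q j) := fun j => Nat.prime_nth_prime _
  have hm : StrictMono (Nat.nth Nat.Prime) := Nat.nth_strictMono Nat.infinite_setOfPred_prime
  have hle : ∀ j, 2 ^ (K + 1) + 3 ≤ q j := fun j =>
    le_trans (by omega : 2 ^ (K + 1) + 3 ≤ 2 ^ (K + 1) + 3 + (j : ℕ)) (hm.id_le _)
  refine ⟨q, hp, fun j => le_trans (by omega) (hle j), fun j => ?_, fun i j hij => ?_⟩
  · rcases (hp j).eq_two_or_odd' with h | h
    · have h1 := hle j
      have h2 : 0 < 2 ^ (K + 1) := by positivity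
      omega
    · exact h
  · refine (Nat.coprime_primes (hp i) (hp j)).2 fun h => hij ?_
    have := hm.injective h
    exact Fin.ext (by omega)

/-- bad totals -/
def Bad {k : ℕ} (q : Fin k → ℕ) (κ m : ℕ) (T : ℕ) : Prop :=
  Thin963.BadT (univ.image q) m (fun i => (G κ i : ℤ)) (fun i => (((∏ j, q j) * G κ i : ℕ) : ℤ))
    (fun i => (Am (∏ j, q j) κ i : ℤ)) (T : ℤ)

theorem bad_period {k : ℕ} (q : Fin k → ℕ) (κ m T : ℕ) :
    Bad q κ m (T + (∏ j, q j) * G κ m) ↔ Bad q κ m T := by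
  unfold Bad Thin963.BadT
  refine or_congr ?_ ?_
  · refine exists_congr fun x => and_congr_right fun hx => ?_
    obtain ⟨j, -, rfl⟩ := Finset.mem_image.1 hx
    have h : ((q j : ℕ) : ℤ) ∣ (((∏ j, q j) * G κ m : ℕ) : ℤ) := by
      exact_mod_cast Dvd.dvd.mul_right (Finset.dvd_prod_of_mem q (Finset.mem_univ j)) _
    rw [Nat.cast_add]
    exact dvd_add_left h
  · refine exists_congr fun i => and_congr_right fun hi => exists_congr fun e =>
      and_congr_right fun _ => ?_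
    have h : ((G κ (i + 1) : ℕ) : ℤ) ∣ (((∏ j, q j) * G κ m : ℕ) : ℤ) := by
      exact_mod_cast Dvd.dvd.mul_left (G_dvd (κ := κ) (by omega : i + 1 ≤ m)) _
    rw [Nat.cast_add]
    have e1 : (T : ℤ) + (((∏ j, q j) * G κ m : ℕ) : ℤ) - (Am (∏ j, q j) κ (i + 1) : ℤ) + e =
      ((T : ℤ) - (Am (∏ j, q j) κ (i + 1) : ℤ) + e) + (((∏ j, q j) * G κ m : ℕ) : ℤ) := by ring
    rw [e1]
    exact dvd_add_left h

/-- not bad = clean -/
theorem clean_of_not_bad {k : ℕ} {q : Fin k → ℕ} {κ m T : ℕ} (h : ¬ Bad q κ m T)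
    (hT : ∀ j ≤ m, Am (∏ j, q j) κ j ≤ T) :
    (∀ j, ¬ q j ∣ T) ∧ ∀ j, 1 ≤ j → j ≤ m →
      (∏ j, q j) * G κ (j - 1) ≤ (T - Am (∏ j, q j) κ j) % G κ j ∧
      (T - Am (∏ j, q j) κ j) % G κ j + (∏ j, q j) * G κ (j - 1) ≤ G κ j := by
  unfold Bad Thin963.BadT at h
  push Not at h
  obtain ⟨h1, h2⟩ := h
  refine ⟨fun j hj => h1 (q j) (Finset.mem_image_of_mem q (Finset.mem_univ j))
    (by exact_mod_cast hj), fun j hj1 hjm => ?_⟩
  obtain ⟨i, rfl⟩ : ∃ i, j = i + 1 := ⟨j - 1, by omega⟩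
  have hA := hT (i + 1) hjm
  set c : ℕ := (∏ j, q j) * G κ i with hc
  set g : ℕ := G κ (i + 1) with hg
  have hgpos : 0 < g := G_pos _
  set d : ℕ := T - Am (∏ j, q j) κ (i + 1) with hd
  have hd' : (T : ℤ) - (Am (∏ j, q j) κ (i + 1) : ℤ) = (d : ℤ) := by
    rw [hd]; push_cast [Nat.cast_sub hA]; ring
  have hdm := Nat.div_add_mod d g
  have hr := Nat.mod_lt d hgpos
  rw [Nat.add_sub_cancel]
  constructor
  · by_contra hlt
    push Not at hlt
    refine h2 i (by omega) (-((d % g : ℕ) : ℤ)) ?_ ?_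
    · rw [abs_neg, Nat.abs_cast]
      exact_mod_cast hlt.le
    · rw [hd']
      refine ⟨((d / g : ℕ) : ℤ), ?_⟩
      have : ((g * (d / g) + d % g : ℕ) : ℤ) = (d : ℤ) := by exact_mod_cast hdm
      push_cast at this ⊢
      linarith
  · by_contra hlt
    push Not at hlt
    refine h2 i (by omega) (((g - d % g : ℕ) : ℤ)) ?_ ?_
    · rw [Nat.abs_cast]
      have : g - d % g ≤ c := by omega
      exact_mod_cast this
    · rw [hd']
      refine ⟨((d / g : ℕ) : ℤ) + 1, ?_⟩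
      have h3 : ((g * (d / g) + d % g : ℕ) : ℤ) = (d : ℤ) := by exact_mod_cast hdm
      have h4 : ((g - d % g : ℕ) : ℤ) = (g : ℤ) - ((d % g : ℕ) : ℤ) := by
        rw [Nat.cast_sub hr.le]
      rw [h4]
      push_cast at h3 ⊢
      linarith

theorem grow (Ms K m : ℕ) : ∃ κ : ℕ, ∀ i < m,
    (2 : ℤ) ^ (K + 4) * ∑ j ∈ Finset.range (i + 1), ((Ms * G κ j : ℕ) : ℤ) ≤
      ((G κ (i + 1) : ℕ) : ℤ) := by
  refine ⟨2 ^ (K + 4) * (Ms * (m + 1)), fun i hi => ?_⟩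
  set κ := 2 ^ (K + 4) * (Ms * (m + 1)) with hκ
  have h1 : ∀ j ∈ Finset.range (i + 1), Ms * G κ j ≤ Ms * G κ i := by
    intro j hj
    rw [Finset.mem_range] at hj
    exact Nat.mul_le_mul_left _ (Nat.le_of_dvd (G_pos _) (G_dvd (by omega)))
  have h2 : ∑ j ∈ Finset.range (i + 1), Ms * G κ j ≤ (i + 1) * (Ms * G κ i) := by
    have := Finset.sum_le_card_nsmul _ _ _ h1
    rwa [Finset.card_range, smul_eq_mul] at this
  have h3 : G κ (i + 1) = 2 ^ κ * G κ i := by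
    unfold G
    rw [← pow_add]; congr 1; ring
  have h4 : κ ≤ 2 ^ κ := Nat.lt_two_pow_self.le
  have h5 : 2 ^ (K + 4) * ∑ j ∈ Finset.range (i + 1), Ms * G κ j ≤ G κ (i + 1) := by
    rw [h3]
    calc 2 ^ (K + 4) * ∑ j ∈ Finset.range (i + 1), Ms * G κ j
        ≤ 2 ^ (K + 4) * ((i + 1) * (Ms * G κ i)) := Nat.mul_le_mul_left _ h2
      _ ≤ 2 ^ (K + 4) * ((m + 1) * (Ms * G κ i)) :=
          Nat.mul_le_mul_left _ (Nat.mul_le_mul_right _ (by omega))
      _ = κ * G κ i := by rw [hκ]; ring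
      _ ≤ 2 ^ κ * G κ i := Nat.mul_le_mul_right _ h4
  exact_mod_cast h5

/-- all arithmetic parameters -/
theorem params (k m K : ℕ) : ∃ (q : Fin k → ℕ) (κ : ℕ), (∀ j, Odd (q j)) ∧
    Pairwise (fun i j => Nat.Coprime (q i) (q j)) ∧ 0 < (∏ j, q j) ∧
    ∀ N0 : ℕ, ∃ X : ℕ, N0 ≤ X ∧ 0 < X ∧ ∀ (τ p0 : ℕ), (∀ i < K, X * 2 ^ i ≤ p0) → 2 * p0 ≤ τ →
      ∀ J : Finset ℕ, (∀ a ∈ J, a < K ∧ ∃ b, b < K ∧ b ≠ a ∧
        Bad q κ m (τ + X * 2 ^ b - X * 2 ^ a - p0)) → J.card ≤ k + m := by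
  obtain ⟨q, hqp, hqK, hqo, hqc⟩ := exists_primes k K
  obtain ⟨κ, hκ⟩ := grow (∏ j, q j) K m
  have hpos : 0 < ∏ j, q j := Finset.prod_pos fun j _ => (hqp j).pos
  refine ⟨q, κ, hqo, hqc, hpos, fun N0 => ?_⟩
  obtain ⟨X, hX0, hXpos, hX⟩ := Thin963.thin K m (univ.image q) (fun i => (G κ i : ℤ))
    (fun i => (((∏ j, q j) * G κ i : ℕ) : ℤ)) (fun i => (Am (∏ j, q j) κ i : ℤ))
    (by
      intro x hx
      obtain ⟨j, -, rfl⟩ := Finset.mem_image.1 hx
      exact ⟨hqp j, hqK j⟩)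
    (by
      intro x hx
      obtain ⟨j, -, rfl⟩ := Finset.mem_image.1 hx
      have h : Nat.Coprime (q j) (G κ m) := by
        unfold G
        exact Nat.Coprime.pow_right _ (Nat.coprime_two_right.2 (hqo j))
      exact Nat.isCoprime_iff_coprime.2 h)
    (by exact_mod_cast G_pos (κ := κ) m)
    (by
      intro i j hij
      exact_mod_cast G_dvd (κ := κ) hij)
    (by
      intro i
      exact_mod_cast Nat.mul_pos hpos (G_pos (κ := κ) i))
    (by
      intro i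
      exact_mod_cast Dvd.intro_left _ rfl)
    (by
      intro i hi
      exact hκ i hi)
    (N0 : ℤ)
  obtain ⟨X', rfl⟩ : ∃ X' : ℕ, X = (X' : ℤ) := ⟨X.toNat, by omega⟩
  refine ⟨X', by exact_mod_cast hX0, by exact_mod_cast hXpos, fun τ p0 hp0 hτ J hJ => ?_⟩
  classical
  have h1 := hX ((τ : ℤ) - (p0 : ℤ))
  have h2 : (univ.image q).card ≤ k := by
    refine le_trans Finset.card_image_le ?_
    simp
  refine le_trans ?_ (le_trans h1 (by omega))
  choose! f hf using fun a (ha : a ∈ J) => (hJ a ha).2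
  refine Finset.card_le_card_of_injOn (fun a => (f a, a)) ?_ ?_
  · intro a ha
    have ha' : a ∈ J := ha
    obtain ⟨hb, hne, hbad⟩ := hf a ha'
    have haK := (hJ a ha').1
    simp only [Finset.coe_filter, Finset.mem_product, Finset.mem_range, Set.mem_setOf_eq]
    refine ⟨⟨hb, haK⟩, hne, ?_⟩
    have e : (((τ + X' * 2 ^ f a - X' * 2 ^ a - p0 : ℕ)) : ℤ) =
        (τ : ℤ) - (p0 : ℤ) + (X' : ℤ) * 2 ^ f a - (X' : ℤ) * 2 ^ a := by
      have h3 := hp0 a haK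
      have h4 : X' * 2 ^ a ≤ τ + X' * 2 ^ f a := by omega
      have h5 : p0 ≤ τ + X' * 2 ^ f a - X' * 2 ^ a := by omega
      push_cast [Nat.cast_sub h5, Nat.cast_sub h4]
      ring
    unfold Bad at hbad
    rw [e] at hbad
    exact hbad
  · intro a _ b _ hab
    simp only [Prod.mk.injEq] at hab
    exact hab.2

end Crest.Agent.R320.Fin_975
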