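import Mathlib

/-! Row 320, SPOIL LEAF (lead #13673): the wide ruler `c l = 2 ^ l * K0` spoils at most
`Ms.card + m` ordered pairs, for every `T`. -/

namespace Crest.Agent.R320.Sp_597

/-- the thin set of lengths, over `ℤ` -/
def BadZ (Ms : Finset ℕ) (M b m : ℕ) (n : ℤ) : Prop :=
  (∃ k ∈ Ms, (k:ℤ) ∣ n) ∨
    ∃ j < m, ¬ ((M:ℤ) ≤ n / (b:ℤ)^j % b ∧ n / (b:ℤ)^j % b + M + 1 ≤ b)

/-- the thin set of lengths, over `ℕ` -/
def Bad (Ms : Finset ℕ) (M b m : ℕ) (n : ℕ) : Prop :=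
  (∃ k ∈ Ms, k ∣ n) ∨ ∃ j < m, ¬ (M ≤ n / b^j % b ∧ n / b^j % b + M + 1 ≤ b)

theorem badZ_cast (Ms : Finset ℕ) (M b m n : ℕ) :
    BadZ Ms M b m (n:ℤ) ↔ Bad Ms M b m n := by
  unfold BadZ Bad
  constructor
  · rintro (⟨k, hk, h⟩ | ⟨j, hj, h⟩)
    · exact Or.inl ⟨k, hk, by exact_mod_cast h⟩
    · refine Or.inr ⟨j, hj, fun h' => h ?_⟩
      constructor
      · exact_mod_cast h'.1
      · exact_mod_cast h'.2
  · rintro (⟨k, hk, h⟩ | ⟨j, hj, h⟩)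
    · exact Or.inl ⟨k, hk, by exact_mod_cast h⟩
    · refine Or.inr ⟨j, hj, fun h' => h ?_⟩
      constructor
      · exact_mod_cast h'.1
      · exact_mod_cast h'.2

theorem key_lt {i j i' j' : ℕ} (h : i < j) (h' : i' < j')
    (e : (2:ℤ)^j - 2^i = 2^j' - 2^i') : i = i' ∧ j = j' := by
  have aux : ∀ {i j i' j' : ℕ}, i < j → i' < j' → (2:ℤ)^j - 2^i = 2^j' - 2^i' → ¬ i < i' := by
    intro i j i' j' h h' e hlt
    have d1 : (2:ℤ)^(i+1) ∣ 2^j := pow_dvd_pow _ h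
    have d2 : (2:ℤ)^(i+1) ∣ 2^j' := pow_dvd_pow _ (by omega)
    have d3 : (2:ℤ)^(i+1) ∣ 2^i' := pow_dvd_pow _ (by omega)
    have d4 : (2:ℤ)^(i+1) ∣ 2^i := by
      have : (2:ℤ)^i = 2^j - 2^j' + 2^i' := by linarith
      rw [this]
      exact dvd_add (dvd_sub d1 d2) d3
    have hp : (0:ℤ) < 2^i := by positivity
    have := Int.le_of_dvd hp d4
    rw [pow_succ] at this
    linarith
  have hi : i = i' := by
    have a1 := aux h h' e
    have a2 := aux h' h e.symm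
    omega
  subst hi
  have e2 : (2:ℤ)^j = 2^j' := by linarith
  have e3 : (2:ℕ)^j = 2^j' := by exact_mod_cast e2
  exact ⟨rfl, Nat.pow_right_injective le_rfl e3⟩

theorem key {i j i' j' : ℕ} (h : i ≠ j) (h' : i' ≠ j')
    (e : (2:ℤ)^j - 2^i = 2^j' - 2^i') : i = i' ∧ j = j' := by
  have pos : ∀ {a c : ℕ}, a < c → (0:ℤ) < 2^c - 2^a := by
    intro a c hac
    have := pow_lt_pow_right₀ (show (1:ℤ) < 2 by norm_num) hac
    linarith
  rcases lt_or_gt_of_ne h with h1 | h1 <;> rcases lt_or_gt_of_ne h' with h2 | h2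
  · exact key_lt h1 h2 e
  · have := pos h1; have := pos h2; linarith
  · have := pos h1; have := pos h2; linarith
  · have := key_lt h1 h2 (by linarith)
    exact ⟨this.2, this.1⟩

theorem digit_unique {M B P D X X' R t2 : ℤ} (hM : 0 < M) (hP : 0 < P)
    (hR0 : 0 ≤ R) (hR : R * (B - 1) < P) (hD : |D| * (4 * M) + 2 * M + 4 ≤ B)
    (hX : X - X' = 4*M*D*R + P*(4*M*D + B*t2))
    (h : ¬ (M ≤ X / P % B ∧ X / P % B + M + 1 ≤ B))
    (h' : ¬ (M ≤ X' / P % B ∧ X' / P % B + M + 1 ≤ B)) : D = 0 := by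
  have hB : 0 < B := by
    have : 0 ≤ |D| * (4*M) := by positivity
    linarith
  have hf : ∀ Y : ℤ, ¬ (M ≤ Y / P % B ∧ Y / P % B + M + 1 ≤ B) →
      ∃ f s : ℤ, -M ≤ f ∧ f ≤ M - 1 ∧ Y / P = f + B * s := by
    intro Y hY
    have h0 := Int.emod_nonneg (Y / P) (ne_of_gt hB)
    have h1 := Int.emod_lt_of_pos (Y / P) hB
    have h2 := Int.emod_add_mul_ediv (Y / P) B
    by_cases hc : M ≤ Y / P % B
    · have : ¬ (Y / P % B + M + 1 ≤ B) := fun h3 => hY ⟨hc, h3⟩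
      exact ⟨Y / P % B - B, Y / P / B + 1, by linarith, by linarith, by linarith⟩
    · exact ⟨Y / P % B, Y / P / B, by linarith, by linarith, by linarith⟩
  obtain ⟨f, s, f1, f2, f3⟩ := hf X h
  obtain ⟨f', s', f1', f2', f3'⟩ := hf X' h'
  have q1 := Int.emod_add_mul_ediv X P
  have q2 := Int.emod_add_mul_ediv X' P
  have r0 := Int.emod_nonneg X (ne_of_gt hP)
  have r1 := Int.emod_lt_of_pos X hP
  have r0' := Int.emod_nonneg X' (ne_of_gt hP)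
  have r1' := Int.emod_lt_of_pos X' hP
  have hsmall : |4*M*D*R| < P := by
    have e1 : |4*M*D*R| = (|D| * (4*M)) * R := by
      rw [abs_mul, abs_mul, abs_of_pos (show (0:ℤ) < 4*M by linarith), abs_of_nonneg hR0]; ring
    rw [e1]
    have : (|D| * (4*M)) * R ≤ (B - 1) * R := by
      apply mul_le_mul_of_nonneg_right _ hR0
      linarith
    linarith [mul_comm R (B-1)]
  rw [abs_lt] at hsmall
  obtain ⟨e, he⟩ : ∃ e : ℤ, e = X / P - X' / P - 4*M*D - B*t2 := ⟨_, rfl⟩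
  have hPe : P * e = 4*M*D*R - (X % P - X' % P) := by
    have : P * e = P * (X / P) - P * (X' / P) - P * (4*M*D + B*t2) := by rw [he]; ring
    rw [this]; linarith
  have e1 : e < 2 := by
    by_contra hc
    push Not at hc
    have : P * 2 ≤ P * e := mul_le_mul_of_nonneg_left hc hP.le
    linarith
  have e2 : -2 < e := by
    by_contra hc
    push Not at hc
    have : P * e ≤ P * (-2) := mul_le_mul_of_nonneg_left hc hP.le
    linarith
  have hdv : B ∣ f' - f + 4*M*D + e := by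
    refine ⟨s - s' - t2, ?_⟩
    have h1 : X / P = X' / P + 4*M*D + B*t2 + e := by rw [he]; ring
    rw [f3, f3'] at h1
    linarith [mul_sub B (s - s') t2, mul_sub B s s']
  have hMD : |4*M*D| = |D| * (4*M) := by
    rw [abs_mul, abs_of_pos (show (0:ℤ) < 4*M by linarith)]; ring
  have hle := le_abs_self (4*M*D)
  have hge := neg_abs_le (4*M*D)
  rw [hMD] at hle hge
  have hz : f' - f + 4*M*D + e = 0 := by
    apply Int.eq_zero_of_abs_lt_dvd hdv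
    rw [abs_lt]
    constructor <;> linarith
  by_contra hD0
  have hD1 : 1 ≤ |D| := Int.one_le_abs hD0
  have hbig : 4*M ≤ |4*M*D| := by
    rw [hMD]; nlinarith
  have hsm : |4*M*D| ≤ 2*M + 1 := by
    rw [abs_le]; constructor <;> linarith
  linarith

/-- the base sum `1 + b + .. + b^(m-1)` -/
theorem geom_split (B : ℤ) {m j : ℕ} (hj : j < m) :
    ∃ t : ℤ, ∑ l ∈ Finset.range m, B^l = ∑ l ∈ Finset.range j, B^l + B^j + B^(j+1) * t := by
  obtain ⟨d, rfl⟩ : ∃ d, m = j + 1 + d := ⟨m - (j+1), by omega⟩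
  refine ⟨∑ l ∈ Finset.range d, B^l, ?_⟩
  rw [Finset.sum_range_add, Finset.sum_range_succ, Finset.mul_sum]
  congr 1
  apply Finset.sum_congr rfl
  intro l _
  rw [pow_add]

theorem geom_lt {B : ℤ} (hB : 1 < B) (j : ℕ) :
    0 ≤ ∑ l ∈ Finset.range j, B^l ∧ (∑ l ∈ Finset.range j, B^l) * (B - 1) < B^j := by
  constructor
  · exact Finset.sum_nonneg (fun l _ => by positivity)
  · have := geom_sum_mul B j
    rw [this]; linarith

theorem exists_K0 (m M b X : ℕ) (hM : 0 < M) (hb : 0 < b) (hco : Nat.Coprime b M) :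
    ∃ K0 : ℕ, X < K0 ∧ (∃ t : ℤ, (K0:ℤ) = 1 + M * t) ∧
      (∃ t : ℤ, (K0:ℤ) = 4 * M * (∑ l ∈ Finset.range m, (b:ℤ)^l) + (b:ℤ)^m * t) := by
  have hc : Nat.Coprime M (b^m) := (Nat.Coprime.pow_left m hco).symm
  obtain ⟨k, k1, k2⟩ := Nat.chineseRemainder hc 1 (4 * M * (∑ l ∈ Finset.range m, b^l))
  refine ⟨k + M * b^m * (X+1), ?_, ?_, ?_⟩
  · have : 1 ≤ M * b^m := Nat.mul_pos hM (by positivity)
    nlinarith
  · have h1 : ((M:ℤ)) ∣ (k:ℤ) - 1 := by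
      have := (Nat.modEq_iff_dvd.mp k1.symm)
      simpa using this
    obtain ⟨t, ht⟩ := h1
    refine ⟨t + b^m * (X+1), ?_⟩
    push_cast
    linarith [mul_add (M:ℤ) t ((b:ℤ)^m * (X+1)), mul_assoc (M:ℤ) ((b:ℤ)^m) (X+1)]
  · have h1 : (((b^m : ℕ)):ℤ) ∣ (k:ℤ) - ((4 * M * (∑ l ∈ Finset.range m, b^l) : ℕ):ℤ) :=
      Nat.modEq_iff_dvd.mp k2.symm
    obtain ⟨t, ht⟩ := h1
    refine ⟨t + M * (X+1), ?_⟩
    push_cast at ht ⊢
    linarith [mul_add ((b:ℤ)^m) t ((M:ℤ) * (X+1)),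
      mul_comm (M:ℤ) ((b:ℤ)^m), show ((M:ℤ) * (b:ℤ)^m) * (X+1) = (b:ℤ)^m * ((M:ℤ) * (X+1)) by ring]

open Classical in
/-- **SPOIL LEAF**, `T : ℤ`. -/
theorem spoil (K m : ℕ) (Ms : Finset ℕ) (M b : ℕ) (hM : 0 < M)
    (hk : ∀ k ∈ Ms, 4 ^ K < k ∧ k ∣ M) (hb : 4 * M * 2 ^ K + 2 * M + 4 ≤ b)
    (hco : Nat.Coprime b M) (N1 : ℕ) :
    ∃ c : ℕ → ℕ, StrictMono c ∧ (∀ i j, i < j → c i + 4 * N1 < c j) ∧
      (∀ i j i' j', i ≠ j → i' ≠ j' → ¬ (i = i' ∧ j = j') →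
        ((4 * N1 : ℕ) : ℤ) < |((c j : ℤ) - c i) - ((c j' : ℤ) - c i')|) ∧
      ∀ T : ℤ, (((Finset.range K) ×ˢ (Finset.range K)).filter (fun p =>
        p.1 ≠ p.2 ∧ BadZ Ms M b m (T + c p.2 - c p.1))).card ≤ Ms.card + m := by
  have hb0 : 0 < b := by omega
  obtain ⟨K0, hK0, ⟨t1, ht1⟩, ⟨t2, ht2⟩⟩ := exists_K0 m M b (4 * N1) hM hb0 hco
  have hB1 : (1:ℤ) < b := by exact_mod_cast (show 1 < b by omega)
  have hB0 : (0:ℤ) < b := by linarith
  have hK0' : ((4 * N1 : ℕ):ℤ) < K0 := by exact_mod_cast hK0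
  have hKpos : (0:ℤ) < K0 := lt_of_le_of_lt (by positivity) hK0'
  have hcz : ∀ i j : ℕ, ((2^j * K0 : ℕ):ℤ) - ((2^i * K0 : ℕ):ℤ) = ((2:ℤ)^j - 2^i) * K0 := by
    intro i j; push_cast; ring
  -- bounds for the exponents
  have hbd : ∀ i j : ℕ, i < K → j < K → |(2:ℤ)^j - 2^i| + |(2:ℤ)^j - 2^i| < 2^K := by
    intro i j hi hj
    have h1 : (2:ℤ)^j ≤ 2^(K-1) := pow_le_pow_right₀ (by norm_num) (by omega)
    have h2 : (2:ℤ)^i ≤ 2^(K-1) := pow_le_pow_right₀ (by norm_num) (by omega)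
    have h3 : (2:ℤ)^K = 2^(K-1) * 2 := by rw [← pow_succ]; congr 1; omega
    have p1 : (0:ℤ) < 2^j := by positivity
    have p2 : (0:ℤ) < 2^i := by positivity
    have : |(2:ℤ)^j - 2^i| < 2^(K-1) := by
      rw [abs_lt]; constructor <;> linarith
    linarith
  have hDb : ∀ i j i' j' : ℕ, i < K → j < K → i' < K → j' < K →
      |((2:ℤ)^j - 2^i) - (2^j' - 2^i')| < 2^K := by
    intro i j i' j' hi hj hi' hj'
    have h1 := hbd i j hi hj
    have h2 := hbd i' j' hi' hj'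
    have h3 := abs_sub ((2:ℤ)^j - 2^i) (2^j' - 2^i')
    linarith
  refine ⟨fun l => 2^l * K0, ?_, ?_, ?_, ?_⟩
  · apply strictMono_nat_of_lt_succ
    intro n
    have : 0 < 2^n * K0 := Nat.mul_pos (by positivity) (by exact_mod_cast hKpos)
    rw [pow_succ]; nlinarith
  · intro i j hij
    have h1 : 2^i * 2 ≤ 2^j := by
      rw [← pow_succ]; exact Nat.pow_le_pow_right (by norm_num) hij
    have h2 : 1 ≤ 2^i := Nat.one_le_two_pow
    show 2^i * K0 + 4 * N1 < 2^j * K0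
    nlinarith
  · intro i j i' j' hij hij' hne
    have hD : ((2:ℤ)^j - 2^i) - (2^j' - 2^i') ≠ 0 := by
      intro h0
      exact hne (key hij hij' (by linarith))
    have h1 := Int.one_le_abs hD
    show ((4 * N1 : ℕ) : ℤ) < |(((2^j * K0 : ℕ):ℤ) - ((2^i * K0 : ℕ):ℤ)) - (((2^j' * K0 : ℕ):ℤ) - ((2^i' * K0 : ℕ):ℤ))|
    rw [hcz, hcz, ← sub_mul, abs_mul, abs_of_pos hKpos]
    nlinarith
  · intro T
    -- reduce to classes
    let P := (Finset.range K) ×ˢ (Finset.range K)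
    let S1 : ℕ → Finset (ℕ × ℕ) := fun k => P.filter (fun p =>
      p.1 ≠ p.2 ∧ (k:ℤ) ∣ T + ((2:ℤ)^p.2 - 2^p.1) * K0)
    let S2 : ℕ → Finset (ℕ × ℕ) := fun j => P.filter (fun p =>
      p.1 ≠ p.2 ∧ ¬ ((M:ℤ) ≤ (T + ((2:ℤ)^p.2 - 2^p.1) * K0) / (b:ℤ)^j % b ∧
        (T + ((2:ℤ)^p.2 - 2^p.1) * K0) / (b:ℤ)^j % b + M + 1 ≤ b))
    have h1 : ∀ k ∈ Ms, (S1 k).card ≤ 1 := by
      intro k hkM
      obtain ⟨hk1, hk2⟩ := hk k hkM
      rw [Finset.card_le_one]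
      rintro ⟨i, j⟩ hp ⟨i', j'⟩ hp'
      simp only [S1, P, Finset.mem_filter, Finset.mem_product, Finset.mem_range] at hp hp'
      obtain ⟨⟨hi, hj⟩, hne, hd⟩ := hp
      obtain ⟨⟨hi', hj'⟩, hne', hd'⟩ := hp'
      have hkM' : (k:ℤ) ∣ (M:ℤ) := by exact_mod_cast hk2
      have hdv : (k:ℤ) ∣ ((2:ℤ)^j - 2^i) - (2^j' - 2^i') := by
        have e : ((2:ℤ)^j - 2^i) - (2^j' - 2^i') =
            ((T + ((2:ℤ)^j - 2^i) * K0) - (T + ((2:ℤ)^j' - 2^i') * K0))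
              - (M:ℤ) * (t1 * (((2:ℤ)^j - 2^i) - (2^j' - 2^i'))) := by
          rw [ht1]; ring
        rw [e]
        exact dvd_sub (dvd_sub hd hd') (Dvd.dvd.mul_right hkM' _)
      have hz : ((2:ℤ)^j - 2^i) - (2^j' - 2^i') = 0 := by
        apply Int.eq_zero_of_abs_lt_dvd hdv
        have h3 := hDb i j i' j' hi hj hi' hj'
        have h4 : (2:ℤ)^K ≤ k := by
          have : 2^K ≤ 4^K := Nat.pow_le_pow_left (by norm_num) K
          exact_mod_cast (le_trans this hk1.le)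
        linarith
      have := key hne hne' (by linarith)
      rw [this.1, this.2]
    have h2 : ∀ j ∈ Finset.range m, (S2 j).card ≤ 1 := by
      intro l hl
      rw [Finset.mem_range] at hl
      rw [Finset.card_le_one]
      rintro ⟨i, j⟩ hp ⟨i', j'⟩ hp'
      simp only [S2, P, Finset.mem_filter, Finset.mem_product, Finset.mem_range] at hp hp'
      obtain ⟨⟨hi, hj⟩, hne, hd⟩ := hp
      obtain ⟨⟨hi', hj'⟩, hne', hd'⟩ := hp'
      obtain ⟨u, hu⟩ := geom_split (b:ℤ) hl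
      obtain ⟨g0, g1⟩ := geom_lt hB1 l
      set R := ∑ x ∈ Finset.range l, (b:ℤ)^x with hR
      have hbm : (b:ℤ)^m = (b:ℤ)^l * b * (b:ℤ)^(m - (l+1)) := by
        rw [← pow_succ, ← pow_add]; congr 1; omega
      have hz : ((2:ℤ)^j - 2^i) - (2^j' - 2^i') = 0 := by
        refine digit_unique (M := M) (B := b) (P := (b:ℤ)^l)
          (D := ((2:ℤ)^j - 2^i) - (2^j' - 2^i'))
          (X := T + ((2:ℤ)^j - 2^i) * K0) (X' := T + ((2:ℤ)^j' - 2^i') * K0) (R := R)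
          (t2 := (((2:ℤ)^j - 2^i) - (2^j' - 2^i')) * (4 * M * u + (b:ℤ)^(m - (l+1)) * t2))
          (by exact_mod_cast hM) (by positivity) g0 g1 ?_ ?_ hd hd'
        · have h3 := hDb i j i' j' hi hj hi' hj'
          have h4 : (4:ℤ) * M * 2^K + 2 * M + 4 ≤ b := by exact_mod_cast hb
          have h5 : |((2:ℤ)^j - 2^i) - (2^j' - 2^i')| * (4 * M) ≤ 2^K * (4 * M) :=
            mul_le_mul_of_nonneg_right h3.le (by positivity)
          linarith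
        · rw [ht2, hu, hbm, pow_succ]; ring
      have := key hne hne' (by linarith)
      rw [this.1, this.2]
    have hsub : (P.filter (fun p => p.1 ≠ p.2 ∧
        BadZ Ms M b m (T + ((2^p.2 * K0 : ℕ):ℤ) - ((2^p.1 * K0 : ℕ):ℤ))))
        ⊆ Ms.biUnion S1 ∪ (Finset.range m).biUnion S2 := by
      rintro ⟨i, j⟩ hp
      rw [Finset.mem_filter] at hp
      obtain ⟨hP, hne, hbad⟩ := hp
      have e : T + ((2^j * K0 : ℕ):ℤ) - ((2^i * K0 : ℕ):ℤ) = T + ((2:ℤ)^j - 2^i) * K0 := by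
        rw [← hcz]; ring
      simp only [] at hbad hne
      rw [e] at hbad
      rw [Finset.mem_union, Finset.mem_biUnion, Finset.mem_biUnion]
      rcases hbad with ⟨k, hkM, h⟩ | ⟨l, hl, h⟩
      · exact Or.inl ⟨k, hkM, Finset.mem_filter.mpr ⟨hP, hne, h⟩⟩
      · exact Or.inr ⟨l, Finset.mem_range.mpr hl, Finset.mem_filter.mpr ⟨hP, hne, h⟩⟩
    have c1 : (Ms.biUnion S1).card ≤ Ms.card * 1 := Finset.card_biUnion_le_card_mul _ _ _ h1
    have c2 : ((Finset.range m).biUnion S2).card ≤ (Finset.range m).card * 1 :=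
      Finset.card_biUnion_le_card_mul _ _ _ h2
    rw [Finset.card_range] at c2
    have c3 := Finset.card_union_le (Ms.biUnion S1) ((Finset.range m).biUnion S2)
    have c4 := Finset.card_le_card hsub
    exact c4.trans (c3.trans (by omega))

open Classical in
/-- **SPOIL LEAF**, `T : ℕ` (natural subtraction is honest when `c i ≤ T + c j`). -/
theorem spoil_nat (K m : ℕ) (Ms : Finset ℕ) (M b : ℕ) (hM : 0 < M)
    (hk : ∀ k ∈ Ms, 4 ^ K < k ∧ k ∣ M) (hb : 4 * M * 2 ^ K + 2 * M + 4 ≤ b)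
    (hco : Nat.Coprime b M) (N1 : ℕ) :
    ∃ c : ℕ → ℕ, StrictMono c ∧ (∀ i j, i < j → c i + 4 * N1 < c j) ∧
      (∀ i j i' j', i ≠ j → i' ≠ j' → ¬ (i = i' ∧ j = j') →
        ((4 * N1 : ℕ) : ℤ) < |((c j : ℤ) - c i) - ((c j' : ℤ) - c i')|) ∧
      ∀ T : ℕ, (((Finset.range K) ×ˢ (Finset.range K)).filter (fun p =>
        p.1 ≠ p.2 ∧ c p.1 ≤ T + c p.2 ∧ Bad Ms M b m (T + c p.2 - c p.1))).card
          ≤ Ms.card + m := by
  obtain ⟨c, h1, h2, h3, h4⟩ := spoil K m Ms M b hM hk hb hco N1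
  refine ⟨c, h1, h2, h3, fun T => ?_⟩
  refine le_trans (Finset.card_le_card ?_) (h4 (T:ℤ))
  intro p hp
  rw [Finset.mem_filter] at hp ⊢
  obtain ⟨hP, hne, hle, hbad⟩ := hp
  refine ⟨hP, hne, ?_⟩
  have e : (T:ℤ) + c p.2 - c p.1 = ((T + c p.2 - c p.1 : ℕ):ℤ) := by
    rw [Nat.cast_sub hle]; push_cast; ring
  rw [e, badZ_cast]
  exact hbad

end Crest.Agent.R320.Sp_597
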