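import Crest.Agent.R320.FinA_111
import Crest.Agent.R320.G1_852
import Crest.Agent.R320.ExactR_237
import Crest.Agent.R320.Sp_597
import Crest.Agent.R320.Hk2_851
import Crest.Agent.R320.LetMap_922

/-! Row 320: final assembly (helper111). -/

set_option autoImplicit false

namespace Crest.Agent.R320.FinB_111

open Crest.Agent.R320.Hk_851 Crest.Agent.R320.P4_111 Crest.Agent.R320.Sc2n_937
open Crest.Agent.R320.FinA_111

theorem aux (α S V : Type) [Finite α] [Monoid S] [Finite S] [AddCommGroup V] [Finite V]
    (act : V → S → V) (act_mul : ∀ v s s', act (act v s) s' = act v (s * s'))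
    (act_add : ∀ v w s, act (v + w) s = act v s + act w s)
    (faith : ∀ s s', (∀ v, act v s = act v s') → s = s') (f : α → S) (s : S) :
    HL 3 ({w | (w.map f).prod = s} : Language α) := by
  classical
  haveI := Fintype.ofFinite S
  haveI := Fintype.ofFinite V
  haveI : Nonempty V := ⟨0⟩
  obtain ⟨m, r, hG⟩ := Crest.Agent.R320.G1_852.gadget act
  obtain ⟨K, hK⟩ := Crest.Agent.R320.ExactR_237.exact_gadget α S V f act (2 * (r + m) + 2)
  obtain ⟨Ms, M, hcard, hMs, hM, hG⟩ := hG (4 ^ K)
  obtain ⟨b, hb⟩ : ∃ b, b = M * (4 * 2 ^ K + 7) + 1 := ⟨_, rfl⟩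
  have hb0 : 0 < b := by omega
  have hco : Nat.Coprime b M := by
    rw [hb]
    simp [Nat.coprime_mul_left_add_left]
  obtain ⟨lam, rho, nu1, g1, g2, g3, g4⟩ := hG b hb0 hco α f
  have hbK : 4 * M * 2 ^ K + 2 * M + 4 ≤ b := by
    rw [hb]
    have : M * (4 * 2 ^ K + 7) = 4 * M * 2 ^ K + 7 * M := by ring
    rw [this]
    omega
  obtain ⟨c, hmono, -, hgol, hspoil⟩ := Crest.Agent.R320.Sp_597.spoil K m Ms M b hM
    (fun k hk => ⟨(hMs k hk).1, (hMs k hk).2.2⟩) hbK hco (b ^ m)
  obtain ⟨lam2, rho2, nu2, e1, e2⟩ := hK c (fun i j hij _ => hmono hij)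
  obtain ⟨p0, hp0⟩ : ∃ p0, p0 = c K := ⟨_, rfl⟩
  obtain ⟨N1, hN1⟩ : ∃ N1, N1 = b ^ m := ⟨_, rfl⟩
  have hN1pos : 0 < N1 := by rw [hN1]; positivity
  obtain ⟨n, Sn, hn, hSn, hgap, hHL, -⟩ :=
    Crest.Agent.R320.P4_111.p4.{0, 0} α (2 * p0 + 2 * N1 + 1) (by omega)
  let g : Geo α :=
    { Wo := Crest.Agent.R320.P4_111.Wo n Sn
      n := n
      z := p0 + N1 + (n + 2 * p0)
      p0 := p0
      q0 := n + 2 * p0
      N1 := N1
      loc := fun P Q h => Crest.Agent.R320.P4_111.Wo.app P Q h
      hz := rfl
      hq := by omega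
      hN := hN1pos
      hqp := by omega }
  let φ : List α → S := fun w => (w.map f).prod
  have hφ : ∀ u v, φ (u ++ v) = φ u * φ v := by intro u v; simp [φ]
  let pre : List α → V → V := fun X v => act v (φ X) + nu2 X 1
  let post : V → List α → V := fun u Y => act u (φ Y) + nu1 Y
  let BadT : ℕ → Prop := fun T => (∃ k ∈ Ms, k ∣ T) ∨
    ∃ j < m, ¬ (M ≤ T / b ^ j % b ∧ T / b ^ j % b + M < b)
  have hck : ∀ k, k < K → c k ≤ p0 := fun k hk => by rw [hp0]; exact (hmono hk).le
  have hyp : Hyp g pre post lam rho BadT K c lam2 (fun k Q => rho2 k Q 1) (r + m) := by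
    refine ⟨?_, ?_, ?_, hck, ?_, ?_, ?_, ?_, ?_⟩
    · intro P v h
      show P.length ≤ N1
      rw [hN1]; exact (g1 P v h).le
    · intro P Q u b' h1 h2
      exact g2 P Q u b' h1 h2
    · intro Y hB u
      obtain ⟨P, Q, h, hl, v', hr⟩ := g3 Y (fun k hk hd => hB (Or.inl ⟨k, hk, hd⟩))
        (fun j hj => by
          by_contra hc
          exact hB (Or.inr ⟨j, hj, hc⟩)) u
      exact ⟨P, Q, h, hl, by rw [hr]; rfl⟩
    · intro k hk P Q v u hP hQ h1 h2
      have := e1 k hk P Q 1 v u hP h1 h2
      rw [mul_one] at this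
      exact this
    · intro P Q h1 h2 hQ
      have hQl : 0 < Q.length := List.length_pos_iff.2 hQ
      have := hgap (P ++ Q) P.length (P ++ Q).length (by rw [List.length_append]; omega) le_rfl
        (by rw [List.take_left' rfl]; exact h1) (by rw [List.take_length]; exact h2)
      rw [List.length_append] at this
      show 2 * p0 + 2 * N1 < Q.length
      omega
    · intro k k' l l' hk hk' hl hl' hne hne' h1 h2
      by_contra hkl
      have h3 := hgol k k' l l' (Ne.symm hne) (Ne.symm hne') (fun h => hkl h.1)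
      rw [← hN1] at h3
      have h1' : c k + c l' < c l + c k' + 2 * N1 := h1
      have h2' : c l + c k' < c k + c l' + 2 * N1 := h2
      rw [lt_abs] at h3
      push_cast at h3
      omega
    · intro τ hτ J hJ
      have hτ' : p0 + N1 + (n + 2 * p0) ≤ τ + p0 := hτ
      choose kk hkk using fun k : {k // k ∈ J} => (hJ k.1 k.2).2
      refine le_trans ?_ ((hspoil ((τ : ℤ) - p0)).trans (by omega))
      rw [← Finset.card_attach]
      refine Finset.card_le_card_of_injOn (fun k => (k.1, kk k)) ?_ ?_
      · intro k _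
        have h1 := (hJ k.1 k.2).1
        obtain ⟨h2, h3, h4⟩ := hkk k
        have h5 := hck k.1 h1
        rw [Finset.mem_coe, Finset.mem_filter, Finset.mem_product, Finset.mem_range,
          Finset.mem_range]
        refine ⟨⟨h1, h2⟩, Ne.symm h3, ?_⟩
        have e : ((τ : ℤ) - p0) + c (kk k) - c k.1 = ((τ + c (kk k) - c k.1 - p0 : ℕ) : ℤ) := by
          omega
        show Crest.Agent.R320.Sp_597.BadZ Ms M b m (((τ : ℤ) - p0) + c (kk k) - c k.1)
        rw [e, Crest.Agent.R320.Sp_597.badZ_cast]
        rcases h4 with h4 | ⟨j, hj, h4⟩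
        · exact Or.inl h4
        · refine Or.inr ⟨j, hj, fun h5 => h4 ⟨h5.1, ?_⟩⟩
          have := h5.2
          show (τ + c (kk k) - c k.1 - p0) / b ^ j % b + M < b
          omega
      · intro x _ y _ hxy
        exact Subtype.ext (congrArg Prod.fst hxy)
    · intro X hX v
      have hX' : p0 ≤ X.length := hX
      obtain ⟨I, hI, hI2⟩ := e2 (X.take p0) 1 v (fun k hk => by
        rw [List.length_take, Nat.min_eq_left hX']; exact hck k hk)
      refine ⟨I, hI, fun k hk => ?_⟩
      obtain ⟨h1, h2, h3⟩ := hI2 k hk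
      rw [List.take_take, Nat.min_eq_left (hck k h1)] at h2
      exact ⟨h1, h2, h3⟩
  have hcc := cc_of hyp
  -- heights
  have hXT : ∀ v v', HL 1 ({X | X ∈ ({X | g.XX X} : Set (List α)) ∧
      (fun v X => g.T pre post v X) v X = v'} : Language α) := by
    intro v v'
    have hreg : Language.IsRegular ({X | g.T pre post v X = v'} : Language α) := by
      refine isRegular_det f (p0 + N1) (M * N1) (by positivity) (fun X => g.T pre post v X = v') ?_
      intro X X' h1 h2 h3 hP
      by_cases hlen : X.length < p0 + N1 ∨ X'.length < p0 + N1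
      · have hl := congrArg List.length h1
        rw [List.length_take, List.length_take] at hl
        have : X = X' := by
          rw [← List.take_of_length_le (show X.length ≤ p0 + N1 by omega), h1,
            List.take_of_length_le (by omega)]
        rw [← this]; exact hP
      · have hX : p0 + N1 ≤ X.length := by omega
        have hX' : p0 + N1 ≤ X'.length := by omega
        have t1 : X.take p0 = X'.take p0 := by
          have := congrArg (fun l => l.take p0) h1
          simpa [List.take_take] using this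
        have t2 : (X.drop p0).take N1 = (X'.drop p0).take N1 := by
          have := congrArg (fun l => l.drop p0) h1
          simpa [List.drop_take] using this
        have t3 : (((X.drop p0).drop N1).map f).prod = (((X'.drop p0).drop N1).map f).prod := by
          rw [List.drop_drop, List.drop_drop]; exact h3
        have t4 : (X.drop p0).length % (M * N1) = (X'.drop p0).length % (M * N1) := by
          rw [List.length_drop, List.length_drop]
          have h5 : X.length ≡ X'.length [MOD M * N1] := h2
          have h6 : p0 + (X.length - p0) ≡ p0 + (X'.length - p0) [MOD M * N1] := by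
            rw [Nat.add_sub_cancel' (by omega), Nat.add_sub_cancel' (by omega)]; exact h5
          exact Nat.ModEq.add_left_cancel' p0 h6
        have t5 : nu1 (X.drop p0) = nu1 (X'.drop p0) :=
          (g4 _ _ (by rw [← hN1]; exact t2) (by rw [← hN1]; exact t3)
            (by rw [← hN1]; exact t4)).2
        have t6 : φ (X.drop p0) = φ (X'.drop p0) := by
          have a1 : φ (X.drop p0) = φ ((X.drop p0).take N1) * φ ((X.drop p0).drop N1) := by
            rw [← hφ, List.take_append_drop]
          have a2 : φ (X'.drop p0) = φ ((X'.drop p0).take N1) * φ ((X'.drop p0).drop N1) := by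
            rw [← hφ, List.take_append_drop]
          rw [a1, a2, t2]
          congr 1
        show act (act v (φ (X'.take p0)) + nu2 (X'.take p0) 1) (φ (X'.drop p0)) +
          nu1 (X'.drop p0) = v'
        rw [← t1, ← t5, ← t6]
        exact hP
    exact (hHL g.z _ hreg).1
  have hNP : ∀ s, HL 1 ({w | (∀ X ∈ ({X | g.XX X} : Set (List α)), ¬ X <+: w) ∧ φ w = s} :
      Language α) := by
    intro s
    have hreg : Language.IsRegular ({w | φ w = s} : Language α) :=
      isRegular_key f 0 1 Nat.one_pos fun _ _ t => t = s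
    exact (hHL g.z _ hreg).2
  have hf1 : {x : List α × V | g.LP1 pre lam x.2 x.1}.Finite := by
    refine ((List.finite_length_le α (p0 + N1)).prod Set.finite_univ).subset ?_
    rintro ⟨P, v⟩ ⟨h1, h2⟩
    refine ⟨?_, Set.mem_univ _⟩
    have h3 := g1 _ _ h2
    rw [← hN1, List.length_drop] at h3
    show P.length ≤ p0 + N1
    have h1' : p0 ≤ P.length := h1
    have h3' : P.length - p0 < N1 := h3
    omega
  have hf2 : {x : List α × V | Geo.LP2 K c lam2 x.2 x.1}.Finite := by
    refine ((List.finite_length_le α p0).prod Set.finite_univ).subset ?_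
    rintro ⟨P, v⟩ ⟨k, h1, h2, h3⟩
    refine ⟨?_, Set.mem_univ _⟩
    show P.length ≤ p0
    have := hck k h1
    have h2' : P.length = c k := h2
    omega
  have hL1 : ∀ v, HL 1 ({P | g.LP1 pre lam v P} : Language α) := fun v =>
    Crest.Agent.R320.TopSem_474.hl_LP (LP := fun P v => g.LP1 pre lam v P) hf1 v
  have hL2 : ∀ v, HL 1 ({P | Geo.LP2 K c lam2 v P} : Language α) := fun v =>
    Crest.Agent.R320.TopSem_474.hl_LP (LP := fun P v => Geo.LP2 K c lam2 v P) hf2 v
  have hz := g.hz
  have hgN := g.hN
  refine Crest.Agent.R320.Top5_163.top φ (by simp [φ]) hφ act act_mul act_add faith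
    ({X | g.XX X} : Set (List α)) ?_ ?_ (fun v X => g.T pre post v X)
    (fun X => act (nu2 (X.take p0) 1) (φ (X.drop p0)) + nu1 (X.drop p0)) ?_
    (fun P v => g.LP1 pre lam v P) (fun P v => Geo.LP2 K c lam2 v P) _ _
    (fun Q b' h => Crest.Agent.R320.TopSem_474.R1_ne h)
    (fun Q b' h => Crest.Agent.R320.TopSem_474.R2_ne h)
    Crest.Agent.R320.TopSem_474.s1 Crest.Agent.R320.TopSem_474.s2
    (Crest.Agent.R320.TopSem_474.cc hcc) hXT hNP
    hL1 hL2
    (fun b' => Crest.Agent.R320.TopSem_474.hl_R1 hXT hf1 b')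
    (fun b' => Crest.Agent.R320.TopSem_474.hl_R2 hXT hf1 hf2 b') s
  · intro h
    have := h.1
    rw [List.length_nil] at this
    omega
  · intro X hX Y hXY
    have := g.prefix_code (R := Y) (R' := []) hX hXY (by simp)
    exact List.append_right_eq_self.1 this.symm
  · intro X hX v
    show act (act v (φ (X.take p0)) + nu2 (X.take p0) 1) (φ (X.drop p0)) + nu1 (X.drop p0) =
      act v (φ X) + (act (nu2 (X.take p0) 1) (φ (X.drop p0)) + nu1 (X.drop p0))
    have h1 : φ X = φ (X.take p0) * φ (X.drop p0) := by rw [← hφ, List.take_append_drop]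
    rw [act_add, act_mul, h1, add_assoc]

theorem height3 (α S : Type) [Finite α] [Monoid S] [Finite S] (f : α → S) (s : S) :
    HL 3 ({w | (w.map f).prod = s} : Language α) := by
  classical
  refine aux α S (S → ZMod 2) (fun g t x => g (t * x)) ?_ ?_ ?_ f s
  · intro v s s'
    funext x
    simp [mul_assoc]
  · intro v w s
    rfl
  · intro s s' h
    by_contra hne
    have h1 := congrFun (h (fun x => if x = s then 1 else 0)) 1
    simp only [mul_one, if_true] at h1
    rw [if_neg (fun e => hne e.symm)] at h1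
    exact one_ne_zero h1

theorem final (α : Type*) [Finite α] (L : Language α) (hL : L.IsRegular) :
    ∃ e : Crest.RegLang.GRegExp α, e.height ≤ 3 ∧ e.lang = L :=
  Crest.Agent.R320.LetMap_922.of_fin_result (m := 3)
    (fun n L hL => of_monoid (k := 3) (fun S _ _ φ s => height3 (Fin n) S φ s) L hL) α L hL

end Crest.Agent.R320.FinB_111
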