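import Crest.Agent.R320.FinA_117

set_option autoImplicit false

namespace Crest.Agent.R320.FinB_117

open Crest.RegLang Crest.Agent.R320.Hk_851 Crest.Agent.R320.Sc2n_937 Crest.Agent.R320.FinA_117

variable {α : Type}

theorem join [Finite α] (S : Type) [Monoid S] [Finite S] (φ : α → S)
    {V : Type} [AddCommGroup V] [Finite V] (act : V → S → V)
    (hadd : ∀ a b s, act (a + b) s = act a s + act b s)
    (hone : ∀ v, act v 1 = v) (hmul : ∀ v s t, act v (s * t) = act (act v s) t)
    (hfaith : ∀ s t, (∀ v, act v s = act v t) → s = t)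
    (lam rho : List α → Option V) (nu : List α → V) (N1 L0 A0 M0 : ℕ) (hM0 : 0 < M0)
    (hN1 : 0 < N1) (BadT : ℕ → Prop)
    (hlen : ∀ P v, lam P = some v → P.length ≤ N1)
    (hex : ∀ P Q v b, lam P = some v → rho Q = some b →
      b = act v ((P ++ Q).map φ).prod + nu (P ++ Q))
    (hcomp : ∀ u : List α, L0 ≤ u.length → ¬ BadT u.length →
      ∀ v, ∃ P Q, u = P ++ Q ∧ lam P = some v ∧ (rho Q).isSome)
    (hrho : ∀ Q Q' : List α, A0 ≤ Q.length → A0 ≤ Q'.length → Q.take A0 = Q'.take A0 →
      ((Q.drop A0).map φ).prod = ((Q'.drop A0).map φ).prod →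
      Q.length % M0 = Q'.length % M0 → rho Q = rho Q')
    (hper : ∀ T T', A0 ≤ T → A0 ≤ T' → T % M0 = T' % M0 → BadT T → BadT T')
    (K C0 p0 : ℕ) (c : ℕ → ℕ) (hc : ∀ k, k < K → c k ≤ p0)
    (lam2 rho2 : ℕ → List α → Option V) (nu2 : List α → V)
    (hex2 : ∀ k, k < K → ∀ P Q v u, P.length = c k → lam2 k P = some v → rho2 k Q = some u →
      u = act v ((P ++ Q).map φ).prod + nu2 (P ++ Q))
    (hI : ∀ u : List α, u.length = p0 → ∀ v, ∃ I : Finset ℕ, 2 * C0 + 2 ≤ I.card ∧
      ∀ k ∈ I, k < K ∧ lam2 k (u.take (c k)) = some v ∧ (rho2 k (u.drop (c k))).isSome)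
    (hsp : ∀ k k' l l', k < K → k' < K → l < K → l' < K → k' ≠ k → l' ≠ l →
      c k + c l' < c l + c k' + 2 * N1 → c l + c k' < c k + c l' + 2 * N1 → k = l)
    (hthin : ∀ τ, 2 * p0 ≤ τ → ∀ J : Finset ℕ, (∀ k ∈ J, k < K ∧
      ∃ k', k' < K ∧ k' ≠ k ∧ BadT (τ + c k' - c k - p0)) → J.card ≤ C0)
    (s : S) : HL 3 ({w | (w.map φ).prod = s} : Language α) := by
  classical
  obtain ⟨n, Gg, B, Wo, hLW, hgap, -, -, hfree⟩ :=
    Crest.Agent.R320.LWallAll_922.walls_all_left α (2 * p0 + 2 * N1) (by omega)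
  have hloc : ∀ P Q : List α, n ≤ Q.length → (Wo (P ++ Q) ↔ Wo Q) := hLW.app
  have hwlen : ∀ P : List α, Wo P → n ≤ P.length := hLW.len
  set q0 : ℕ := n + 2 * p0 + L0 + 1 with hq0
  set z : ℕ := p0 + N1 + q0 with hz
  let g : Geo α :=
    { Wo := Wo, n := n, z := z, p0 := p0, q0 := q0, N1 := N1, loc := hloc, hz := hz,
      hq := by omega, hN := hN1, hqp := by omega }
  set ph : List α → S := fun w => (w.map φ).prod with hph
  have hpha : ∀ u v, ph (u ++ v) = ph u * ph v := by intro u v; simp [hph]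
  set nu1 : List α → V := nuOf act ph lam rho with hnu1
  have hex1 : ∀ P Q v b, lam P = some v → rho Q = some b → b = act v (ph (P ++ Q)) + nu1 (P ++ Q) :=
    fun P Q v b h1 h2 => nuOf_spec (nu := nu) hex P Q v b h1 h2
  let pre : List α → V → V := fun X0 v => act v (ph X0) + nu2 X0
  let post : V → List α → V := fun v Y => act v (ph Y) + nu1 Y
  set nuT : List α → V := fun X => act (nu2 (X.take p0)) (ph (X.drop p0)) + nu1 (X.drop p0)
    with hnuT
  have hT : ∀ v X, g.T pre post v X = act v (ph X) + nuT X := by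
    intro v X
    show act (act v (ph (X.take p0)) + nu2 (X.take p0)) (ph (X.drop p0)) + nu1 (X.drop p0) = _
    rw [hadd, ← hmul, ← hpha, List.take_append_drop, hnuT, add_assoc]
  set C : Set (List α) := {X | g.XX X} with hC
  set Bad : Set (List α) := {X | g.XX X ∧ g.BadX BadT X} with hBad
  set L1 : V → Set (List α) := fun v => {P | g.LP1 pre lam v P} with hL1
  set L2 : V → Set (List α) := fun v => {P | Geo.LP2 K c lam2 v P} with hL2
  have hf1 : ∀ v, (L1 v).Finite := by
    intro v
    refine (List.finite_length_le α (p0 + N1)).subset ?_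
    rintro P ⟨h1, h2⟩
    have := hlen _ _ h2
    rw [List.length_drop] at this
    show P.length ≤ _
    have h3 : g.p0 = p0 := rfl
    rw [h3] at this h1
    omega
  have hf2 : ∀ v, (L2 v).Finite := by
    intro v
    refine (List.finite_length_le α p0).subset ?_
    rintro P ⟨k, h1, h2, -⟩
    show P.length ≤ _
    have := hc k h1
    omega
  -- finite state
  set A : ℕ := p0 + N1 + A0 + z + N1 + 1 with hA
  have hcls : ∀ u u' : List α, A ≤ u.length → A ≤ u'.length → u.take A = u'.take A →
      u.length % M0 = u'.length % M0 → ph (u.drop A) = ph (u'.drop A) →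
      (∀ x, act x (ph u) + nuT u = act x (ph u') + nuT u') ∧
      (g.BadX BadT u → g.BadX BadT u') := by
    intro u u' h1 h2 h3 h4 h5
    have htk : ∀ t ≤ A, u.take t = u'.take t := by
      intro t ht
      have := congrArg (fun l => l.take t) h3
      simpa [List.take_take, Nat.min_eq_left ht] using this
    have hdr : ∀ t ≤ A, ph (u.drop t) = ph (u'.drop t) := by
      intro t ht
      have e : ∀ w : List α, w.drop t = (w.take A).drop t ++ w.drop A := by
        intro w
        conv_lhs => rw [← List.take_append_drop A w]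
        rw [List.drop_append]
        by_cases hw : A ≤ w.length
        · rw [List.length_take, Nat.min_eq_left hw, Nat.sub_eq_zero_of_le ht, List.drop_zero]
        · have : w.drop A = [] := List.drop_of_length_le (by omega)
          rw [this]; simp
      rw [e u, e u', hpha, hpha, h3, h5]
    have hwhole : ph u = ph u' := by
      have := hdr 0 (by omega); simpa using this
    have hnuu : nu1 (u.drop p0) = nu1 (u'.drop p0) := by
      have key : ∀ w w' : List α, A ≤ w.length → A ≤ w'.length →
          (∀ t ≤ A, w.take t = w'.take t) → (∀ t ≤ A, ph (w.drop t) = ph (w'.drop t)) →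
          w.length % M0 = w'.length % M0 →
          ∀ P Q v b, w.drop p0 = P ++ Q → lam P = some v → rho Q = some b →
            ∃ Q', w'.drop p0 = P ++ Q' ∧ rho Q' = some b := by
        intro w w' hw hw' ht hd hm P Q v b e hl hr
        have hP := hlen P v hl
        have eQ : Q = w.drop (p0 + P.length) := by
          rw [← List.drop_drop, e, List.drop_left]
        have eP : P = (w'.drop p0).take P.length := by
          have h6 : (w.drop p0).take P.length = P := by rw [e, List.take_left]
          rw [← h6]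
          have h7 : ∀ x : List α, (x.drop p0).take P.length = (x.take (p0 + P.length)).drop p0 := by
            intro x; rw [List.take_drop]
          rw [h7 w, ht _ (by omega), ← h7 w']
          rw [List.length_take, List.length_drop, Nat.min_eq_left (by omega)]
        refine ⟨w'.drop (p0 + P.length), ?_, ?_⟩
        · conv_lhs => rw [← List.take_append_drop P.length (w'.drop p0)]
          rw [← eP, List.drop_drop]
        · rw [← hr, eQ]
          refine (hrho _ _ ?_ ?_ ?_ ?_ ?_).symm
          · rw [List.length_drop]; omega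
          · rw [List.length_drop]; omega
          · have h7 : ∀ x : List α, (x.drop (p0 + P.length)).take A0 =
                (x.take (p0 + P.length + A0)).drop (p0 + P.length) := by
              intro x; rw [List.take_drop]
            rw [h7 w, h7 w', ht _ (by omega)]
          · rw [List.drop_drop, List.drop_drop]
            exact hd _ (by omega)
          · rw [List.length_drop, List.length_drop]
            have h8 : w.length = (w.length - (p0 + P.length)) + (p0 + P.length) := by omega
            have h9 : w'.length = (w'.length - (p0 + P.length)) + (p0 + P.length) := by omega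
            have h10 : (w.length - (p0 + P.length)) + (p0 + P.length) ≡
                (w'.length - (p0 + P.length)) + (p0 + P.length) [MOD M0] := by
              rw [← h8, ← h9]; exact hm
            exact Nat.ModEq.add_right_cancel' _ h10
      exact nuOf_iff (nu := nu) hex _ _ (key u u' h1 h2 htk hdr h4)
        (key u' u h2 h1 (fun t ht => (htk t ht).symm) (fun t ht => (hdr t ht).symm) h4.symm)
        (hdr p0 (by omega))
    refine ⟨fun x => ?_, ?_⟩
    · rw [hnuT]
      show act x (ph u) + (act (nu2 (u.take p0)) (ph (u.drop p0)) + nu1 (u.drop p0)) =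
        act x (ph u') + (act (nu2 (u'.take p0)) (ph (u'.drop p0)) + nu1 (u'.drop p0))
      rw [hwhole, hnuu, htk p0 (by omega), hdr p0 (by omega)]
    · rintro (⟨t, ht, hw, h6, h7⟩ | hb)
      · left
        have h7' : t < z + N1 := h7
        refine ⟨t, by omega, ?_, h6, h7⟩
        rw [← htk t (by omega)]; exact hw
      · right
        refine hper _ _ ?_ ?_ ?_ hb
        · show A0 ≤ u.length - p0
          omega
        · show A0 ≤ u'.length - p0
          omega
        · show (u.length - p0) % M0 = (u'.length - p0) % M0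
          have h8 : u.length = (u.length - p0) + p0 := by omega
          have h9 : u'.length = (u'.length - p0) + p0 := by omega
          have h10 : (u.length - p0) + p0 ≡ (u'.length - p0) + p0 [MOD M0] := by
            rw [← h8, ← h9]; exact h4
          exact Nat.ModEq.add_right_cancel' _ h10
  -- heights
  have hPN : ∀ u : List α, (∀ t < u.length, ¬ Wo (u.take t)) →
      u ∈ (Crest.Agent.R320.BddReg_746.PN (B + (2 * p0 + 2 * N1)) 2 : Language α) := by
    intro u hu
    obtain ⟨a, x, b, k, h1, h2, h3, rfl⟩ := hfree u hu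
    refine Language.mem_mul.2 ⟨a ++ (List.replicate k x).flatten,
      ⟨a, x, k, by omega, by omega, rfl⟩, b, ?_, rfl⟩
    refine Language.mem_mul.2 ⟨b, ⟨b, [], 0, by omega, by simp, by
      simp [Crest.Agent.R320.BddReg_746.pw]⟩, [], ?_, by simp⟩
    exact Set.mem_singleton _
  have hCT : ∀ x y, HL 1 ({X | X ∈ C ∧ act x (X.map φ).prod + nuT X = y} : Language α) := by
    intro x y
    have h := Crest.Agent.R320.P4_933.hl_XX (z := z) hloc hwlen hPN
      (regular_of_class' φ A M0 hM0 (fun X => act x (X.map φ).prod + nuT X = y)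
        (by
          intro u u' h1 h2 h3 h4 h5 h6
          exact ((hcls u u' h1 h2 h3 h4 h5).1 x).symm.trans h6))
    refine h.congr fun X => ?_
    constructor
    · rintro ⟨⟨h1, h2, h3⟩, h4⟩
      exact ⟨⟨h2, h1, fun t ht1 ht2 => h3 t ht2 ht1⟩, h4⟩
    · rintro ⟨⟨h1, h2, h3⟩, h4⟩
      exact ⟨⟨h2, h1, fun t ht1 ht2 => h3 t ht2 ht1⟩, h4⟩
  have hBT : ∀ x y, HL 1 ({X | X ∈ Bad ∧ act x (X.map φ).prod + nuT X = y} : Language α) := by
    intro x y
    have h := Crest.Agent.R320.P4_933.hl_XX (z := z) hloc hwlen hPN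
      (regular_of_class' φ A M0 hM0
        (fun X => g.BadX BadT X ∧ act x (X.map φ).prod + nuT X = y)
        (by
          rintro u u' h1 h2 h3 h4 h5 ⟨h6, h7⟩
          exact ⟨(hcls u u' h1 h2 h3 h4 h5).2 h6,
            ((hcls u u' h1 h2 h3 h4 h5).1 x).symm.trans h7⟩))
    refine h.congr fun X => ?_
    constructor
    · rintro ⟨⟨⟨h1, h2, h3⟩, h4⟩, h5⟩
      exact ⟨⟨h2, h1, fun t ht1 ht2 => h3 t ht2 ht1⟩, h4, h5⟩
    · rintro ⟨⟨h1, h2, h3⟩, h4, h5⟩
      exact ⟨⟨⟨h2, h1, fun t ht1 ht2 => h3 t ht2 ht1⟩, h4⟩, h5⟩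
  have htail : ∀ s, HL 1 ({w | (∀ X ∈ C, ¬ X <+: w) ∧ (w.map φ).prod = s} : Language α) := by
    intro s
    have h := Crest.Agent.R320.P4_933.hl_NB (z := z) hloc hwlen hPN
      (Crest.Agent.R320.Reg_852.isRegular_prod φ s)
    refine h.congr fun w => ?_
    constructor
    · rintro ⟨h1, h2⟩
      refine ⟨(Crest.Agent.R320.P4_933.NB_iff Wo z w).2 fun P hP hX => ?_, h2⟩
      exact h1 P ⟨hX.2.1, hX.1, fun t h3 h4 => hX.2.2 t h4 h3⟩ hP
    · rintro ⟨h1, h2⟩
      refine ⟨fun X hX hXw => ?_, h2⟩
      exact (Crest.Agent.R320.P4_933.NB_iff Wo z w).1 h1 X hXw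
        ⟨hX.2.1, hX.1, fun t h3 h4 => hX.2.2 t h4 h3⟩
  -- far walls
  have hfar : ∀ P Q : List α, g.Wo P → g.Wo (P ++ Q) → Q ≠ [] →
      2 * g.p0 + 2 * g.N1 < Q.length := by
    intro P Q hP hQ hne
    have hQl : 0 < Q.length := List.length_pos_iff.2 hne
    have h := hgap (P ++ Q) P.length (P ++ Q).length (by rw [List.length_append]; omega) le_rfl
      (by rw [List.take_left]; exact hP) (by rw [List.take_length]; exact hQ)
    rw [List.length_append] at h
    show 2 * p0 + 2 * N1 < Q.length
    omega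
  have hCmem : ∀ X, X ∈ C ↔ g.XX X := fun X => Iff.rfl
  have hcc1 : ∀ X ∈ C, X ∉ Bad → ∀ v, ∃ P Q, P ++ Q = X ∧ P ∈ L1 v ∧
      ∀ x, ∀ P' ∈ L1 x, P' ++ Q ∈ C ∧
        act x ((P' ++ Q).map φ).prod + nuT (P' ++ Q) = act v (X.map φ).prod + nuT X := by
    intro X hX hXb v
    have hXx : g.XX X := hX
    have hnb : ¬ g.BadX BadT X := fun h => hXb ⟨hX, h⟩
    have hnE : ¬ g.E X := fun h => hnb (Or.inl h)
    have hnT : ¬ BadT (X.length - p0) := fun h => hnb (Or.inr h)
    have hXl : z ≤ X.length := hXx.1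
    have hlen' : ∀ P v, lam P = some v → P.length ≤ g.N1 := hlen
    obtain ⟨P, Q, b, hXe, hP, hQ⟩ := g.complete1 pre (lam := lam) (rho := rho) hlen' hXx hnE
      (fun u => by
        refine hcomp (X.drop p0) ?_ ?_ u
        · rw [List.length_drop]; omega
        · rw [List.length_drop]; exact hnT) v
    have hs1 := fun (v' : V) (P' : List α) (h : g.LP1 pre lam v' P') =>
      g.sound1 pre post (lam := lam) (rho := rho) hlen'
        (fun P Q u b h1 h2 => hex1 P Q u b h1 h2) h hQ
    refine ⟨P, Q, hXe.symm, hP, fun x P' hP' => ?_⟩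
    obtain ⟨h1, h2⟩ := hs1 x P' hP'
    obtain ⟨h3, h4⟩ := hs1 v P hP
    refine ⟨h1, ?_⟩
    have e1 := (hT x (P' ++ Q)).symm.trans h2
    have e2 := (hT v (P ++ Q)).symm.trans h4
    rw [hXe]
    exact e1.trans e2.symm
  have hex2' : ∀ k, k < K → ∀ P Q v u, P.length = c k → Q.length = g.p0 - c k →
      lam2 k P = some v → rho2 k Q = some u → u = pre (P ++ Q) v :=
    fun k hk P Q v u h1 _ h3 h4 => hex2 k hk P Q v u h1 h3 h4
  have hcg : ∀ k, k < K → c k ≤ g.p0 := hc
  have hcc2 : ∀ X ∈ Bad, ∀ Y ∈ Bad, ∀ v, ∃ P Q, P ++ Q = X ++ Y ∧ P ∈ L2 v ∧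
      ∀ x, ∀ P' ∈ L2 x,
        (∃ X' ∈ Bad, ∃ Y' ∈ C, X' ++ Y' = P' ++ Q ∧
          act (act x (X'.map φ).prod + nuT X') (Y'.map φ).prod + nuT Y' =
            act (act v (X.map φ).prod + nuT X) (Y.map φ).prod + nuT Y) ∨
        (∃ X' ∈ C, X' ∉ Bad ∧ X' <+: P' ++ Q) := by
    intro X hX Y hY v
    have hXx : g.XX X := hX.1
    have hYx : g.XX Y := hY.1
    have hXl : z ≤ X.length := hXx.1
    have hIX : ∃ I : Finset ℕ, 2 * C0 + 2 ≤ I.card ∧ ∀ k ∈ I, k < K ∧
        lam2 k (X.take (c k)) = some v ∧ (rho2 k ((X.take g.p0).drop (c k))).isSome := by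
      have hl0 : (X.take p0).length = p0 := by rw [List.length_take]; omega
      obtain ⟨I, h1, h2⟩ := hI (X.take p0) hl0 v
      refine ⟨I, h1, fun k hk => ?_⟩
      obtain ⟨h3, h4, h5⟩ := h2 k hk
      rw [List.take_take, Nat.min_eq_left (hc k h3)] at h4
      exact ⟨h3, h4, h5⟩
    obtain ⟨P, Q, b, hPQ, hP, hQ⟩ := g.complete2 pre post (BadT := BadT) (K := K) (c := c)
      (lam2 := lam2) (rho2 := rho2) (C0 := C0) hcg hfar hsp
      (fun τ hτ J hJ => hthin τ (by
        have : z ≤ τ + p0 := hτ
        omega) J hJ) hXx hYx v hIX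
    have hvalP : g.T pre post (g.T pre post v X) Y = b := by
      obtain ⟨X2, h1, h2, h3⟩ := g.sound2 pre post (BadT := BadT) (K := K) (c := c)
        (lam2 := lam2) (rho2 := rho2) hcg hex2' (R := []) (R' := Y) hXx hX.2 hP hQ
        (by rw [List.append_nil, hPQ])
      have : X2 = Y := by
        have := h2.symm.trans hPQ
        exact List.append_cancel_left this
      rw [this] at h3
      exact h3
    refine ⟨P, Q, hPQ, hP, fun x P' hP' => ?_⟩
    have hQ' := hQ
    obtain ⟨k, hk, l, hend, hgood, hQ2, u, hr, hb⟩ := hQ'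
    obtain ⟨k', hk', hPl', hlam'⟩ := hP'
    by_cases hkk : k' = k
    · subst hkk
      have hXX' : g.XX (P' ++ Q.take l) :=
        g.xx_of_cend (by rw [hPl']; exact hc k' hk') (by rw [hPl']; exact hend)
      by_cases hbad : g.BadX BadT (P' ++ Q.take l)
      · left
        obtain ⟨X2, h1, h2, h3⟩ := g.sound2 pre post (BadT := BadT) (K := K) (c := c)
          (lam2 := lam2) (rho2 := rho2) hcg hex2' (v := x) (P := P') (Q := Q) (b := b)
          (R := []) (R' := Q.drop l) hXX' hbad ⟨k', hk', hPl', hlam'⟩ hQ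
          (by rw [List.append_nil, List.append_assoc, List.take_append_drop])
        refine ⟨P' ++ Q.take l, ⟨hXX', hbad⟩, X2, h1, h2.symm, ?_⟩
        have e1 := h3.trans hvalP.symm
        rw [hT, hT, hT, hT] at e1
        exact e1
      · right
        exact ⟨P' ++ Q.take l, hXX', fun h => hbad h.2,
          ⟨Q.drop l, by rw [List.append_assoc, List.take_append_drop]⟩⟩
    · right
      obtain ⟨l', he', hg'⟩ := hgood k' hk' hkk
      have hXX' : g.XX (P' ++ Q.take l') :=
        g.xx_of_cend (by rw [hPl']; exact hc k' hk') (by rw [hPl']; exact he')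
      refine ⟨P' ++ Q.take l', hXX', fun h => hg' ?_,
        ⟨Q.drop l', by rw [List.append_assoc, List.take_append_drop]⟩⟩
      have := g.cbad_of_bad (BadT := BadT) (P := P') (Q := Q) (l := l')
        (by rw [hPl']; exact hc k' hk') (by rw [hPl']; exact he') h.2
      rw [hPl'] at this
      exact this
  have hPC : Crest.Agent.R320.Blk467.PCode C := by
    refine ⟨fun h => ?_, fun X hX Y hY hXY => ?_⟩
    · have h1 : z ≤ ([] : List α).length := h.1
      simp only [List.length_nil] at h1
      omega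
    · obtain ⟨R, hR⟩ := hXY
      exact g.prefix_code (R := R) (R' := []) hX hY (by rw [hR, List.append_nil])
  exact Crest.Agent.R320.Top5_120.top5 act hadd hone hmul hfaith φ nuT C Bad hPC
    (fun X hX => hX.1) L1 L2 hf1 hf2 hCT hBT htail hcc1 hcc2 s

end Crest.Agent.R320.FinB_117
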