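import Crest.Agent.R320.FinA_13

/-!
# Row 320: final assembly, part B: the two levels (helper13)
-/

set_option autoImplicit false

namespace Crest.Agent.R320.Fin_13

open Crest.RegLang Crest.Agent.R320.Hk_851 Crest.Agent.R320.Asm_505

variable {α : Type} {Wo : List α → Prop} {n W : ℕ}

/-- badness of the anchor `c` letters to the left of `Q` -/
def BadC (Wo : List α → Prop) (Bd : ℕ → Prop) (z N1 p c : ℕ) (Q : List α) : Prop :=
  (∃ t, Wt Wo Q t ∧ z ≤ t + c + N1 ∧ t + c < z + N1) ∨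
  (∃ t, Wt Wo Q t ∧ z ≤ t + c ∧ (∀ s, Wt Wo Q s → z ≤ s + c → t ≤ s) ∧ Bd (t + c - p))

variable {Bd : ℕ → Prop} {z N1 p : ℕ}

theorem bad_shift (H : WD Wo n W) {P Q : List α} {c : ℕ} (hP : P.length = c)
    (hn : n + N1 + c ≤ z) : BadC Wo Bd z N1 p 0 (P ++ Q) ↔ BadC Wo Bd z N1 p c Q := by
  subst hP
  constructor
  · rintro (⟨t, h1, h2, h3⟩ | ⟨t, h1, h2, h3, h4⟩)
    · obtain ⟨u, rfl⟩ := Nat.exists_eq_add_of_le (show P.length ≤ t by omega)
      exact Or.inl ⟨u, (wt_app H P Q (by omega)).1 h1, by omega, by omega⟩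
    · obtain ⟨u, rfl⟩ := Nat.exists_eq_add_of_le (show P.length ≤ t by omega)
      refine Or.inr ⟨u, (wt_app H P Q (by omega)).1 h1, by omega, fun s hs1 hs2 => ?_, ?_⟩
      · have := h3 (P.length + s) ((wt_app H P Q (by omega)).2 hs1) (by omega)
        omega
      · have : u + P.length - p = P.length + u + 0 - p := by omega
        rw [this]; exact h4
  · rintro (⟨t, h1, h2, h3⟩ | ⟨t, h1, h2, h3, h4⟩)
    · exact Or.inl ⟨P.length + t, (wt_app H P Q (by omega)).2 h1, by omega, by omega⟩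
    · refine Or.inr ⟨P.length + t, (wt_app H P Q (by omega)).2 h1, by omega,
        fun s hs1 hs2 => ?_, ?_⟩
      · obtain ⟨u, rfl⟩ := Nat.exists_eq_add_of_le (show P.length ≤ s by omega)
        have := h3 u ((wt_app H P Q (by omega)).1 hs1) (by omega)
        omega
      · have : P.length + t + 0 - p = t + P.length - p := by omega
        rw [this]; exact h4

theorem bad_pre {X E : List α} (hw : ∃ t0, Wt Wo X t0 ∧ z ≤ t0) (hl : z + N1 ≤ X.length) :
    BadC Wo Bd z N1 p 0 (X ++ E) ↔ BadC Wo Bd z N1 p 0 X := by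
  obtain ⟨t0, h0, hz0⟩ := hw
  have h0l := h0.1
  constructor
  · rintro (⟨t, h1, h2, h3⟩ | ⟨t, h1, h2, h3, h4⟩)
    · exact Or.inl ⟨t, (wt_pre X E (by omega)).1 h1, h2, h3⟩
    · have h5 := h3 t0 ((wt_pre X E h0l).2 h0) (by omega)
      refine Or.inr ⟨t, (wt_pre X E (by omega)).1 h1, h2, fun s hs1 hs2 => ?_, h4⟩
      exact h3 s ((wt_pre X E hs1.1).2 hs1) hs2
  · rintro (⟨t, h1, h2, h3⟩ | ⟨t, h1, h2, h3, h4⟩)
    · exact Or.inl ⟨t, (wt_pre X E (by omega)).2 h1, h2, h3⟩
    · refine Or.inr ⟨t, (wt_pre X E h1.1).2 h1, h2, fun s hs1 hs2 => ?_, h4⟩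
      by_cases hs : s ≤ X.length
      · exact h3 s ((wt_pre X E hs).1 hs1) hs2
      · have := h1.1; omega

/-- the bad zones -/
def BB (Wo : List α → Prop) (Bd : ℕ → Prop) (z N1 p : ℕ) : Language α :=
  {X | X ∈ UU Wo z ∧ BadC Wo Bd z N1 p 0 X}

variable {S V : Type} [Monoid S] [AddCommGroup V]

theorem level1 (H : WD Wo n W) {act : V → S → V} {φ : List α → S}
    (hφ : ∀ u v, φ (u ++ v) = φ u * φ v)
    (hadd : ∀ a b s, act (a + b) s = act a s + act b s)
    (hmul : ∀ v s t, act v (s * t) = act (act v s) t)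
    {lam rho : List α → Option V} {nu : List α → V} {N1 p h T0 : ℕ} (hp : 0 < p)
    (hlen : ∀ P v, lam P = some v → P.length < N1)
    (hs : ∀ P Q v b, lam P = some v → rho Q = some b → b = act v (φ (P ++ Q)) + nu (P ++ Q))
    (hc : ∀ X : List α, T0 ≤ X.length → ¬ Bd X.length → ∀ v, ∃ P Q, X = P ++ Q ∧
      lam P = some v ∧ (rho Q).isSome)
    (hh : n + N1 + T0 ≤ h) :
    Level (UU Wo (p + h)) (BB Wo Bd (p + h) N1 p) (eps1 Wo act φ nu p h)
      (P1 act φ lam p) (R1 Wo act φ lam nu p h) := by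
  refine ⟨?_, ?_, ?_⟩
  · rintro x ⟨h1, _⟩
    simp at h1
    omega
  · intro X hX x y P hP q hq hcmp
    obtain ⟨h1, h2⟩ := hq x P hP
    have e : X = P ++ q := by
      rcases hcmp with hc' | hc'
      · exact pc_UU.pc _ hX _ h1 hc'
      · exact (pc_UU.pc _ h1 _ hX hc').symm
    exact ⟨e, by rw [e]; exact h2⟩
  · intro X hX hB x
    obtain ⟨N, hN⟩ := hX
    have hE : ∀ t, Wt Wo X t → p + h ≤ t + N1 → ¬ t < p + h + N1 := by
      intro t h1 h2 h3
      exact hB ⟨⟨N, hN⟩, Or.inl ⟨t, h1, by omega, by omega⟩⟩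
    have hN0 := hN.1
    have hN1 := hN.2.1
    have hBd : ¬ Bd (N - p) := by
      intro h1
      refine hB ⟨⟨N, hN⟩, Or.inr ⟨N, hN.2.2.1, by omega, fun s hs1 hs2 => ?_, by simpa using h1⟩⟩
      by_contra hlt
      have := hN.2.2.2.2 s (by omega) (by omega) hs1
      omega
    have hNb : p + h + N1 ≤ N := by
      have := hE N hN.2.2.1 (by omega)
      omega
    have hYl : ((X.take N).drop p).length = N - p := by
      rw [List.length_drop, List.length_take]; omega
    obtain ⟨P', Q', e1, e2, e3⟩ := hc ((X.take N).drop p) (by omega) (by rw [hYl]; exact hBd)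
      (act x (φ (X.take p)))
    have ho := hlen _ _ e2
    have hsum : P'.length + Q'.length = N - p := by rw [← hYl, e1, List.length_append]
    set P := X.take p ++ P' with hPdef
    set Q := Q' ++ X.drop N with hQdef
    have hpl : (X.take p).length = p := by rw [List.length_take]; omega
    have hXe : X = P ++ Q := by
      have a1 : X = X.take N ++ X.drop N := (List.take_append_drop N X).symm
      have a2 : X.take N = X.take p ++ (X.take N).drop p := by
        conv_lhs => rw [← List.take_append_drop p (X.take N)]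
        rw [List.take_take]
        congr 2
        omega
      rw [hPdef, hQdef]
      conv_lhs => rw [a1, a2, e1]
      simp
    have hPl : P.length = p + P'.length := by rw [hPdef, List.length_append, hpl]
    have hPm : P ∈ P1 act φ lam p x := by
      refine ⟨by omega, ?_⟩
      have b1 : P.drop p = P' := by rw [hPdef, List.drop_append, hpl]; simp [hpl]
      have b2 : P.take p = X.take p := by rw [hPdef, List.take_append, hpl]; simp
      rw [b1, b2]; exact e2
    have hZ : Zn Wo (h - N1) Q Q'.length := by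
      refine (zn_app H P Q (by omega)).1 ?_
      rw [← hXe]
      have e4 : P.length + Q'.length = N := by omega
      rw [e4]
      refine zn_down hN (by omega) fun t ht1 ht2 ht3 => ?_
      exact hE t ht3 (by omega) (by omega)
    have hQ' : h ≤ Q'.length := by omega
    obtain ⟨b, hb⟩ := Option.isSome_iff_exists.1 e3
    have hb' : rho (Q.take Q'.length) = some b := by
      rw [hQdef, List.take_left]; exact hb
    have key : ∀ x' P'', P'' ∈ P1 act φ lam p x' → P'' ++ Q ∈ UU Wo (p + h) ∧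
        eps1 Wo act φ nu p h (P'' ++ Q) x' = act b (φ (Q.drop Q'.length)) := fun x' P'' hP'' =>
      s1_core H hφ hadd hmul hlen hs (by omega) hP'' hZ hQ' hb'
    have hval := (key x P hPm).2
    refine ⟨P, hPm, Q, ?_, hXe⟩
    intro x' P'' hP''
    obtain ⟨g1, g2⟩ := key x' P'' hP''
    refine ⟨g1, ?_⟩
    rw [g2, ← hval, ← hXe]

/-! ### scheme 2 -/

variable {V2 : Type}

def P2 (K : ℕ) (c : ℕ → ℕ) (lam2 : ℕ → List α → Option V2) (x : V2) : Language α :=
  {P | ∃ k < K, P.length = c k ∧ lam2 k P = some x}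

def R2 (Wo : List α → Prop) (Bd : ℕ → Prop) (z N1 p K : ℕ) (c : ℕ → ℕ)
    (lam2 : ℕ → List α → Option V2) (eps2 : List α → V2 → V2) (y : V2) : Language α :=
  {q | ∃ k < K, (∃ N, Zn Wo (z - c k) q N) ∧ BadC Wo Bd z N1 p (c k) q ∧
    (∀ j < K, j ≠ k → ¬ BadC Wo Bd z N1 p (c j) q) ∧
    ∀ x P, P.length = c k → lam2 k P = some x → eps2 (P ++ q) x = y}

theorem level2 (H : WD Wo n W) {K R : ℕ} {c : ℕ → ℕ} {lam2 : ℕ → List α → Option V2}
    {eps2 : List α → V2 → V2} {rh : ℕ → List α → Option V2}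
    (hc0 : ∀ k < K, 0 < c k) (hcp : ∀ k < K, c k ≤ p) (hW : p + N1 ≤ W) (hz : n + N1 + p ≤ z)
    (g_sound : ∀ k < K, ∀ P q x y, P.length = c k → p ≤ P.length + q.length →
      lam2 k P = some x → rh k q = some y → eps2 (P ++ q) x = y)
    (g_compl : ∀ X : List α, p ≤ X.length → ∀ x, ∃ I : Finset ℕ, R ≤ I.card ∧ ∀ k ∈ I, k < K ∧
      lam2 k (X.take (c k)) = some x ∧ (rh k (X.drop (c k))).isSome)
    (spoil : ∀ X ∈ UU Wo z, {k | k < K ∧ ∃ j < K, j ≠ k ∧
      BadC Wo Bd z N1 p (c j) (X.drop (c k))}.ncard < R) :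
    Level (BB Wo Bd z N1 p) 0 eps2 (P2 K c lam2) (R2 Wo Bd z N1 p K c lam2 eps2) := by
  refine ⟨?_, ?_, ?_⟩
  · rintro x ⟨k, hk, h1, _⟩
    have := hc0 k hk
    simp at h1
    omega
  · rintro X ⟨⟨N, hN⟩, hXb⟩ x y P ⟨k, hk, hPk, hPx⟩ q ⟨k', hk', ⟨N', hN'⟩, hb1, hb2, hb3⟩ hcmp
    have hck := hcp k hk
    have hck' := hcp k' hk'
    -- lengths
    have hXl : z + N1 ≤ X.length := by
      have := wt_sep H hN.2.2.1 hN.2.2.2.1 hN.2.1
      have := hN.1
      omega
    have hql : N' + W < q.length := wt_sep H hN'.2.2.1 hN'.2.2.2.1 hN'.2.1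
    have hN'0 := hN'.1
    have hPq : (P ++ q).length = P.length + q.length := List.length_append
    have hwq : Wt Wo (P ++ q) (P.length + q.length) :=
      (wt_app H P q (by omega)).2 hN'.2.2.2.1
    have hbad : BadC Wo Bd z N1 p 0 (P ++ q) := by
      rcases hcmp with ⟨E, hE⟩ | ⟨E, hE⟩
      · rw [← hE]
        exact (bad_pre ⟨N, hN.2.2.1, hN.1⟩ hXl).2 hXb
      · rw [← hE] at hXb
        exact (bad_pre ⟨_, hwq, by omega⟩ (by omega)).1 hXb
    have hbk : BadC Wo Bd z N1 p (c k) q := (bad_shift H hPk (by omega)).1 hbad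
    have hkk : k = k' := by
      by_contra hne
      exact hb2 k hk hne hbk
    subst hkk
    have hU : P ++ q ∈ UU Wo z := by
      refine ⟨P.length + N', ?_⟩
      have := (zn_app H P q (h := z - c k) (N := N') (by omega)).2 hN'
      have e : P.length + (z - c k) = z := by omega
      rwa [e] at this
    have e : X = P ++ q := by
      rcases hcmp with hc' | hc'
      · exact pc_UU.pc _ ⟨N, hN⟩ _ hU hc'
      · exact (pc_UU.pc _ hU _ ⟨N, hN⟩ hc').symm
    exact ⟨e, by rw [e]; exact hb3 x P hPk hPx⟩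
  · rintro X ⟨⟨N, hN⟩, hXb⟩ _ x
    have hN0 := hN.1
    have hN1 := hN.2.1
    obtain ⟨I, hI, hI2⟩ := g_compl X (by omega) x
    have hex : ∃ k ∈ I, k ∉ {k | k < K ∧ ∃ j < K, j ≠ k ∧
        BadC Wo Bd z N1 p (c j) (X.drop (c k))} := by
      by_contra hcon
      push Not at hcon
      have h1 : (I : Set ℕ) ⊆ {k | k < K ∧ ∃ j < K, j ≠ k ∧
        BadC Wo Bd z N1 p (c j) (X.drop (c k))} := fun k hk => hcon k hk
      have h2 := Set.ncard_le_ncard h1 ((Set.finite_lt_nat K).subset fun k hk => hk.1)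
      rw [Set.ncard_coe_finset] at h2
      have h3 := spoil X ⟨N, hN⟩
      omega
    obtain ⟨k, hkI, hk⟩ := hex
    obtain ⟨hkK, hl, hr⟩ := hI2 k hkI
    have hck := hcp k hkK
    obtain ⟨y, hy⟩ := Option.isSome_iff_exists.1 hr
    have hPl : (X.take (c k)).length = c k := by rw [List.length_take]; omega
    have hXe : X.take (c k) ++ X.drop (c k) = X := List.take_append_drop _ _
    have hql : (X.drop (c k)).length = X.length - c k := List.length_drop
    have hval : eps2 X x = y := by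
      have := g_sound k hkK (X.take (c k)) (X.drop (c k)) x y hPl (by omega) hl hy
      rwa [hXe] at this
    refine ⟨X.take (c k), ⟨k, hkK, hPl, hl⟩, X.drop (c k), ?_, hXe.symm⟩
    refine ⟨k, hkK, ⟨N - c k, ?_⟩, ?_, ?_, ?_⟩
    · refine (zn_app H (X.take (c k)) (X.drop (c k)) (by omega)).1 ?_
      rw [hXe, hPl]
      have e1 : c k + (z - c k) = z := by omega
      have e2 : c k + (N - c k) = N := by omega
      rw [e1, e2]; exact hN
    · refine (bad_shift H hPl (by omega)).1 ?_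
      rw [hXe]; exact hXb
    · intro j hj hne hbj
      exact hk ⟨hkK, j, hj, hne, hbj⟩
    · intro x' P' hP' hx'
      rw [hval]
      exact g_sound k hkK P' _ x' y hP' (by omega) hx' hy

/-- the spoiling count -/
theorem spoil_count (H : WD Wo n W) {K C0 T0 : ℕ} {x : ℕ → ℕ}
    (hrul : ∀ a b c d, a < K → b < K → c < K → d < K → a ≠ b → c ≠ d →
      |((x a : ℤ) - x b) - ((x c : ℤ) - x d)| ≤ 2 * N1 → a = c ∧ b = d)
    (hthin : ∀ T : ℕ, T0 ≤ T → {ab : ℕ × ℕ | ab.1 < K ∧ ab.2 < K ∧ ab.1 ≠ ab.2 ∧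
      Bd (T + x ab.1 - x ab.2)}.ncard ≤ C0)
    (hcp : ∀ k < K, x k + 1 ≤ p) (hW : 2 * p + 2 * N1 ≤ W) (hz : n + N1 + 2 * p + T0 ≤ z)
    {X : List α} (hXl : p ≤ X.length) :
    {k | k < K ∧ ∃ j < K, j ≠ k ∧
      BadC Wo Bd z N1 p (x j + 1) (X.drop (x k + 1))}.ncard < 2 * C0 + 2 := by
  classical
  have hfin : ∀ s : Set ℕ, (∀ k ∈ s, k < K) → s.Finite := fun s hs =>
    (Set.finite_lt_nat K).subset fun k hk => hs k hk
  have hFfin : ∀ T, {ab : ℕ × ℕ | ab.1 < K ∧ ab.2 < K ∧ ab.1 ≠ ab.2 ∧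
      Bd (T + x ab.1 - x ab.2)}.Finite := fun T =>
    ((Set.finite_lt_nat K).prod (Set.finite_lt_nat K)).subset fun ab hab => ⟨hab.1, hab.2.1⟩
  have hwall : ∀ k < K, ∀ t, Wt Wo (X.drop (x k + 1)) t → Wt Wo X (x k + 1 + t) := by
    intro k hk t ht
    have hk1 := hcp k hk
    have h1 := (wt_app H (X.take (x k + 1)) (X.drop (x k + 1)) (ht.n_le H)).2 ht
    rw [List.take_append_drop, List.length_take] at h1
    have : min (x k + 1) X.length = x k + 1 := by omega
    rwa [this] at h1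
  have hwall' : ∀ k < K, ∀ t, n ≤ t → Wt Wo X (x k + 1 + t) → Wt Wo (X.drop (x k + 1)) t := by
    intro k hk t hn ht
    have hk1 := hcp k hk
    refine (wt_app H (X.take (x k + 1)) (X.drop (x k + 1)) hn).1 ?_
    rw [List.take_append_drop, List.length_take]
    have : min (x k + 1) X.length = x k + 1 := by omega
    rwa [this]
  -- the three parts
  let SE : Set ℕ := {k | k < K ∧ ∃ j < K, j ≠ k ∧ ∃ w, Wt Wo X w ∧
    z + x k ≤ w + x j + N1 ∧ w + x j < z + x k + N1}
  let SB : (ℕ → Prop) → Set ℕ := fun A => {k | k < K ∧ ∃ j < K, j ≠ k ∧ ∃ w, A w ∧ Wt Wo X w ∧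
    z + x k ≤ w + x j ∧ (∀ s, Wt Wo X s → z + x k ≤ s + x j → w ≤ s) ∧ Bd (w - p + x j - x k)}
  have hsub : {k | k < K ∧ ∃ j < K, j ≠ k ∧
      BadC Wo Bd z N1 p (x j + 1) (X.drop (x k + 1))} ⊆
      SE ∪ (SB (fun w => w < z + p) ∪ SB (fun w => z + p ≤ w)) := by
    rintro k ⟨hk, j, hj, hne, hbad⟩
    have hk1 := hcp k hk
    have hj1 := hcp j hj
    rcases hbad with ⟨t, h1, h2, h3⟩ | ⟨t, h1, h2, h3, h4⟩
    · exact Or.inl ⟨hk, j, hj, hne, x k + 1 + t, hwall k hk t h1, by omega, by omega⟩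
    · right
      have h5 := hwall k hk t h1
      have h6 : ∀ s, Wt Wo X s → z + x k ≤ s + x j → x k + 1 + t ≤ s := by
        intro s hs1 hs2
        obtain ⟨u, rfl⟩ := Nat.exists_eq_add_of_le (show x k + 1 ≤ s by omega)
        have := h3 u (hwall' k hk u (by omega) hs1) (by omega)
        omega
      have h7 : Bd (x k + 1 + t - p + x j - x k) := by
        have : x k + 1 + t - p + x j - x k = t + (x j + 1) - p := by omega
        rw [this]; exact h4
      by_cases hlt : x k + 1 + t < z + p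
      · exact Or.inl ⟨hk, j, hj, hne, _, hlt, h5, by omega, h6, h7⟩
      · exact Or.inr ⟨hk, j, hj, hne, _, by omega, h5, by omega, h6, h7⟩
  have hSE : SE.ncard ≤ 1 := by
    rw [Set.ncard_le_one (hfin _ fun k hk => hk.1)]
    rintro k ⟨hk, j, hj, hne, w, h1, h2, h3⟩ k' ⟨hk', j', hj', hne', w', h1', h2', h3'⟩
    have a1 := hcp k hk
    have a2 := hcp j hj
    have a3 := hcp k' hk'
    have a4 := hcp j' hj'
    have hww : w = w' := by
      rcases lt_trichotomy w w' with h | h | h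
      · have := wt_sep H h1 h1' h; omega
      · exact h
      · have := wt_sep H h1' h1 h; omega
    subst hww
    refine (hrul j k j' k' hj hk hj' hk' hne hne' ?_).2
    rw [abs_le]
    constructor <;> omega
  have hSBgen : ∀ A : ℕ → Prop, (∀ k j w k' j' w', k < K → j < K → k' < K → j' < K →
      A w → A w' → Wt Wo X w → Wt Wo X w' → z + x k ≤ w + x j → z + x k' ≤ w' + x j' →
      (∀ s, Wt Wo X s → z + x k ≤ s + x j → w ≤ s) →
      (∀ s, Wt Wo X s → z + x k' ≤ s + x j' → w' ≤ s) → w = w') → (SB A).ncard ≤ C0 := by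
    intro A hA
    rcases Set.eq_empty_or_nonempty (SB A) with he | ⟨k0, hk0, j0, hj0, hne0, w0, hA0, b1, b2, b3, b4⟩
    · rw [he]; simp
    · have a1 := hcp k0 hk0
      have a2 := hcp j0 hj0
      have hs : SB A ⊆ Prod.snd '' {ab : ℕ × ℕ | ab.1 < K ∧ ab.2 < K ∧ ab.1 ≠ ab.2 ∧
          Bd (w0 - p + x ab.1 - x ab.2)} := by
        rintro k ⟨hk, j, hj, hne, w, hAw, c1, c2, c3, c4⟩
        have := hA k j w k0 j0 w0 hk hj hk0 hj0 hAw hA0 c1 b1 c2 b2 c3 b3
        subst this
        exact ⟨(j, k), ⟨hj, hk, hne, c4⟩, rfl⟩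
      calc (SB A).ncard ≤ _ := Set.ncard_le_ncard hs ((hFfin _).image _)
        _ ≤ _ := Set.ncard_image_le (hFfin _)
        _ ≤ C0 := hthin _ (by omega)
  have hSB1 : (SB (fun w => w < z + p)).ncard ≤ C0 := by
    refine hSBgen _ ?_
    intro k j w k' j' w' hk hj hk' hj' A1 A2 h1 h1' h2 h2' _ _
    have a1 := hcp k hk
    have a2 := hcp j hj
    have a3 := hcp k' hk'
    have a4 := hcp j' hj'
    rcases lt_trichotomy w w' with h | h | h
    · have := wt_sep H h1 h1' h; omega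
    · exact h
    · have := wt_sep H h1' h1 h; omega
  have hSB2 : (SB (fun w => z + p ≤ w)).ncard ≤ C0 := by
    refine hSBgen _ ?_
    intro k j w k' j' w' hk hj hk' hj' A1 A2 h1 h1' h2 h2' h3 h3'
    have a1 := hcp k hk
    have a2 := hcp j hj
    have a3 := hcp k' hk'
    have a4 := hcp j' hj'
    exact le_antisymm (h3 w' h1' (by omega)) (h3' w h1 (by omega))
  have f1 : (SE ∪ (SB (fun w => w < z + p) ∪ SB (fun w => z + p ≤ w))).Finite :=
    hfin _ (by
      rintro k (h | h | h)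
      · exact h.1
      · exact h.1
      · exact h.1)
  have e1 := Set.ncard_le_ncard hsub f1
  have e2 := Set.ncard_union_le SE (SB (fun w => w < z + p) ∪ SB (fun w => z + p ≤ w))
  have e3 := Set.ncard_union_le (SB (fun w => w < z + p)) (SB (fun w => z + p ≤ w))
  omega

end Crest.Agent.R320.Fin_13
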