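import Crest.Agent.R320.FewVal_228
import Crest.Agent.R320.Reg_236

/-!
# Row 320: the natural wall chain on ALL words, left-looking walls, height 1 (helper111)

`Wo n S X` : the last `n` letters of `X` are a wall name.  `XX n S z` : blocks = words of length `>= z`
ending at a wall, no wall at an earlier place `>= z`.  Every subset of `XX` (and of the words without a
prefix in `XX`) cut out by a condition on (first `K` letters, length mod `Mo`, value in a finite monoid)
has height at most 1.
-/

set_option autoImplicit false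

namespace Crest.Agent.R320.P4_111

open Crest.Agent.R320.Hk_851

universe u v

variable {α : Type u}

theorem isRegular_foldl {σ : Type*} [Finite σ] (step : σ → α → σ) (s0 : σ) (acc : Set σ) :
    Language.IsRegular ({w | w.foldl step s0 ∈ acc} : Language α) := by
  classical
  haveI := Fintype.ofFinite σ
  exact Language.isRegular_iff.2 ⟨σ, inferInstance, ⟨step, s0, acc⟩, rfl⟩

theorem take_snoc (K : ℕ) (w : List α) (a : α) :
    (w.take K ++ [a]).take K = (w ++ [a]).take K := by
  rw [List.take_append, List.take_append, List.take_take, Nat.min_self, List.length_take]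
  congr 2
  omega

theorem isRegular_key [Finite α] {M : Type v} [Monoid M] [Finite M] (φ : α → M) (K Mo : ℕ)
    (hMo : 0 < Mo) (Pd : List α → ℕ → M → Prop) :
    Language.IsRegular
      ({w | Pd (w.take K) (w.length % Mo) (w.map φ).prod} : Language α) := by
  classical
  let B := {b : List α // b.length ≤ K}
  haveI : Finite B := (List.finite_length_le α K).to_subtype
  let step : B × Fin Mo × M → α → B × Fin Mo × M := fun q a =>
    (⟨(q.1.1 ++ [a]).take K, by rw [List.length_take]; omega⟩,
      ⟨(q.2.1.1 + 1) % Mo, Nat.mod_lt _ hMo⟩, q.2.2 * φ a)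
  let s0 : B × Fin Mo × M := (⟨[], Nat.zero_le _⟩, ⟨0 % Mo, Nat.mod_lt _ hMo⟩, 1)
  have key : ∀ w : List α, w.foldl step s0 =
      (⟨w.take K, by rw [List.length_take]; omega⟩, ⟨w.length % Mo, Nat.mod_lt _ hMo⟩,
        (w.map φ).prod) := by
    intro w
    induction w using List.reverseRecOn with
    | nil => simp [s0]
    | append_singleton w a ih =>
      rw [List.foldl_append, ih]
      simp only [List.foldl_cons, List.foldl_nil, step]
      refine Prod.ext ?_ (Prod.ext ?_ ?_)
      · exact Subtype.ext (take_snoc K w a)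
      · apply Fin.ext
        simp [Nat.add_mod]
      · simp
  have h := isRegular_foldl step s0 {q | Pd q.1.1 q.2.1.1 q.2.2}
  have e : ({w | w.foldl step s0 ∈ {q : B × Fin Mo × M | Pd q.1.1 q.2.1.1 q.2.2}} : Language α) =
      ({w | Pd (w.take K) (w.length % Mo) (w.map φ).prod} : Language α) := by
    ext w
    show Pd (w.foldl step s0).1.1 (w.foldl step s0).2.1.1 (w.foldl step s0).2.2 ↔ _
    rw [key w]
    exact Iff.rfl
  rw [← e]
  exact h

theorem isRegular_take [Finite α] (K : ℕ) (Pd : List α → Prop) :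
    Language.IsRegular ({w | Pd (w.take K)} : Language α) :=
  isRegular_key (fun _ : α => (1 : Multiplicative (Fin 1))) K 1 Nat.one_pos fun u _ _ => Pd u

/-- left-looking wall -/
def Wo (n : ℕ) (S : Set (List α)) (X : List α) : Prop :=
  n ≤ X.length ∧ X.drop (X.length - n) ∈ S

/-- blocks -/
def XX (n : ℕ) (S : Set (List α)) (z : ℕ) : Language α :=
  {X | z ≤ X.length ∧ Wo n S X ∧ ∀ t, z ≤ t → t < X.length → ¬ Wo n S (X.take t)}

theorem Wo.app {n : ℕ} {S : Set (List α)} (P Q : List α) (h : n ≤ Q.length) :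
    Wo n S (P ++ Q) ↔ Wo n S Q := by
  unfold Wo
  rw [List.length_append, List.drop_append,
    show P.length + Q.length - n - P.length = Q.length - n by omega,
    List.drop_eq_nil_of_le (show P.length ≤ P.length + Q.length - n by omega), List.nil_append]
  constructor
  · rintro ⟨_, h2⟩; exact ⟨h, h2⟩
  · rintro ⟨_, h2⟩; exact ⟨by omega, h2⟩

theorem XX.code {n : ℕ} {S : Set (List α)} {z : ℕ} {X Y : List α} (hX : X ∈ XX n S z)
    (hXY : X ++ Y ∈ XX n S z) : Y = [] := by
  by_contra hY
  have hl : 0 < Y.length := List.length_pos_iff.2 hY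
  have h := hXY.2.2 X.length hX.1 (by rw [List.length_append]; omega)
  rw [List.take_left'] at h
  · exact h hX.2.1
  · rfl

def A0 (n : ℕ) (S : Set (List α)) (z : ℕ) : Language α := {X | z ≤ X.length ∧ Wo n S X}

/-- all words -/
def TT : Language α := {_w | True}
/-- non-empty words -/
def NE : Language α := {w | w.take 1 ≠ []}
/-- names -/
def SS (n : ℕ) (S : Set (List α)) : Language α := {w | w.take (n + 1) ∈ S}

theorem isRegular_TT [Finite α] : (TT : Language α).IsRegular := isRegular_take 0 fun _ => True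
theorem isRegular_NE [Finite α] : (NE : Language α).IsRegular := isRegular_take 1 fun u => u ≠ []
theorem isRegular_SS [Finite α] (n : ℕ) (S : Set (List α)) : (SS n S).IsRegular :=
  isRegular_take (n + 1) fun u => u ∈ S

theorem isRegular_Wo [Finite α] (n : ℕ) (S : Set (List α)) (hS : ∀ s ∈ S, s.length = n) :
    Language.IsRegular ({X | Wo n S X} : Language α) := by
  have h1 : (TT : Language α).IsRegular := isRegular_TT
  have h2 := isRegular_SS n S
  have e : ({X | Wo n S X} : Language α) = TT * SS n S := by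
    ext w
    constructor
    · rintro ⟨h3, h4⟩
      refine Language.mem_mul.2 ⟨w.take (w.length - n), trivial, w.drop (w.length - n), ?_,
        List.take_append_drop _ _⟩
      show (w.drop (w.length - n)).take (n + 1) ∈ S
      rw [List.take_of_length_le (by rw [List.length_drop]; omega)]
      exact h4
    · intro h
      obtain ⟨a, -, b, hb, rfl⟩ := Language.mem_mul.1 h
      have hb' : b.take (n + 1) ∈ S := hb
      have hl := hS _ hb'
      rw [List.length_take] at hl
      have hbn : b.length = n := by omega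
      rw [List.take_of_length_le (by omega)] at hb'
      refine ⟨by rw [List.length_append]; omega, ?_⟩
      rw [List.length_append, hbn, show a.length + n - n = a.length by omega,
        List.drop_left' rfl]
      exact hb'
  rw [e]
  exact Crest.Agent.R320.Reg_236.isRegular_mul h1 h2

theorem isRegular_A0 [Finite α] (n : ℕ) (S : Set (List α)) (hS : ∀ s ∈ S, s.length = n) (z : ℕ) :
    (A0 n S z).IsRegular := by
  have h1 : Language.IsRegular ({w | (w.take z).length = z} : Language α) :=
    isRegular_take z fun u => u.length = z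
  have h2 := isRegular_Wo n S hS
  have e : A0 n S z = ({w | (w.take z).length = z} : Language α) ⊓ ({X | Wo n S X} : Language α) := by
    ext w
    show (z ≤ w.length ∧ Wo n S w) ↔ ((w.take z).length = z ∧ Wo n S w)
    rw [List.length_take]
    constructor
    · rintro ⟨h3, h4⟩; exact ⟨by omega, h4⟩
    · rintro ⟨h3, h4⟩; exact ⟨by omega, h4⟩
  rw [e]
  exact h1.inf h2

theorem isRegular_XX [Finite α] (n : ℕ) (S : Set (List α)) (hS : ∀ s ∈ S, s.length = n) (z : ℕ) :
    (XX n S z).IsRegular := by
  have h1 := isRegular_A0 n S hS z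
  have h2 : (NE : Language α).IsRegular := isRegular_NE
  have h3 : Language.IsRegular ((A0 n S z * NE)ᶜ) :=
    (Crest.Agent.R320.Reg_236.isRegular_mul h1 h2).compl
  have e : XX n S z = A0 n S z ⊓ (A0 n S z * NE)ᶜ := by
    ext w
    constructor
    · rintro ⟨a, b, c⟩
      refine ⟨⟨a, b⟩, ?_⟩
      intro h
      obtain ⟨x, hx, y, hy, rfl⟩ := Language.mem_mul.1 h
      have hy' : y.take 1 ≠ [] := hy
      have hy0 : 0 < y.length := by
        rcases y with _ | ⟨b, y⟩
        · simp at hy'
        · simp
      have := c x.length hx.1 (by rw [List.length_append]; omega)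
      rw [List.take_left' rfl] at this
      exact this hx.2
    · rintro ⟨⟨a, b⟩, c⟩
      refine ⟨a, b, fun t ht1 ht2 hw => c ?_⟩
      refine Language.mem_mul.2 ⟨w.take t, ⟨?_, hw⟩, w.drop t, ?_, List.take_append_drop _ _⟩
      · rw [List.length_take]; omega
      · show (w.drop t).take 1 ≠ []
        intro h0
        have := congrArg List.length h0
        rw [List.length_take, List.length_drop, List.length_nil] at this
        omega
  rw [e]
  exact h1.inf h3

theorem noPrefix_iff {n : ℕ} {S : Set (List α)} {z : ℕ} {w : List α} :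
    (∀ Y ∈ XX n S z, ¬ Y <+: w) ↔ ∀ t, z ≤ t → t ≤ w.length → ¬ Wo n S (w.take t) := by
  classical
  constructor
  · intro h t ht1 ht2 hw
    have hex : ∃ t, z ≤ t ∧ t ≤ w.length ∧ Wo n S (w.take t) := ⟨t, ht1, ht2, hw⟩
    obtain ⟨h1, h2, h3⟩ := Nat.find_spec hex
    have hmin := fun m (hm : m < Nat.find hex) => Nat.find_min hex hm
    refine h (w.take (Nat.find hex)) ⟨?_, h3, ?_⟩ (List.take_prefix _ _)
    · rw [List.length_take]; omega
    · intro s hs1 hs2 hs3
      rw [List.length_take] at hs2
      rw [List.take_take, Nat.min_eq_left (by omega)] at hs3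
      exact hmin s (by omega) ⟨hs1, by omega, hs3⟩
  · rintro h Y hY ⟨y, rfl⟩
    have := h Y.length hY.1 (by rw [List.length_append]; omega)
    rw [List.take_left' rfl] at this
    exact this hY.2.1

theorem isRegular_NP [Finite α] (n : ℕ) (S : Set (List α)) (hS : ∀ s ∈ S, s.length = n) (z : ℕ) :
    Language.IsRegular ({w | ∀ Y ∈ XX n S z, ¬ Y <+: w} : Language α) := by
  have h1 := isRegular_XX n S hS z
  have h2 : (TT : Language α).IsRegular := isRegular_TT
  have e : ({w | ∀ Y ∈ XX n S z, ¬ Y <+: w} : Language α) = (XX n S z * TT)ᶜ := by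
    ext w
    constructor
    · intro h h'
      obtain ⟨x, hx, y, -, rfl⟩ := Language.mem_mul.1 h'
      exact h x hx ⟨y, rfl⟩
    · rintro h Y hY ⟨y, rfl⟩
      exact h (Language.mem_mul.2 ⟨Y, hY, y, trivial, rfl⟩)
  rw [e]
  exact (Crest.Agent.R320.Reg_236.isRegular_mul h1 h2).compl

/-- number of walls of a block -/
theorem nw_XX {n : ℕ} (hn : 0 < n) {S : Set (List α)} {z : ℕ} {X : List α}
    (h : ∀ t, z ≤ t → t < X.length → ¬ Wo n S (X.take t)) :
    Crest.Agent.R320.FewWalls_228.nw n S X ≤ z + 1 := by
  classical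
  unfold Crest.Agent.R320.FewWalls_228.nw
  have hsub : ((Finset.range (X.length + 1)).filter
      (fun x => Crest.Agent.R320.FewWalls_228.Wl n S X x)) ⊆
      insert (X.length - n) (Finset.range z) := by
    intro x hx
    rw [Finset.mem_filter] at hx
    obtain ⟨-, h1, h2⟩ := hx
    rw [Finset.mem_insert, Finset.mem_range]
    by_contra hc
    push Not at hc
    obtain ⟨hc1, hc2⟩ := hc
    refine h (x + n) (by omega) (by omega) ⟨?_, ?_⟩
    · rw [List.length_take]; omega
    · rw [List.length_take, Nat.min_eq_left h1, Nat.add_sub_cancel, List.drop_take,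
        Nat.add_sub_cancel_left]
      exact h2
  refine (Finset.card_le_card hsub).trans ((Finset.card_insert_le _ _).trans ?_)
  rw [Finset.card_range]

/-- **P4.** Walls on all words; every key-determined set of blocks, and of words without a block as a
prefix, has height at most 1. -/
theorem p4 (α : Type u) [Finite α] (W : ℕ) (hW : 1 ≤ W) :
    ∃ (n : ℕ) (S : Set (List α)), 0 < n ∧ (∀ s ∈ S, s.length = n) ∧
      (∀ (X : List α) (s t : ℕ), s < t → t ≤ X.length → Wo n S (X.take s) → Wo n S (X.take t) →
        s + W ≤ t) ∧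
      (∀ (z : ℕ) (L : Language α), L.IsRegular →
        HL 1 ({X | X ∈ XX n S z ∧ X ∈ L} : Language α) ∧
        HL 1 ({X | (∀ Y ∈ XX n S z, ¬ Y <+: X) ∧ X ∈ L} : Language α)) ∧
      (∀ (z : ℕ) (M : Type v) [Monoid M] [Finite M] (φ : α → M) (K Mo : ℕ), 0 < Mo →
        ∀ Pd : List α → ℕ → M → Prop,
        HL 1 ({X | X ∈ XX n S z ∧ Pd (X.take K) (X.length % Mo) (X.map φ).prod} : Language α) ∧
        HL 1 ({X | (∀ Y ∈ XX n S z, ¬ Y <+: X) ∧
          Pd (X.take K) (X.length % Mo) (X.map φ).prod} : Language α)) := by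
  obtain ⟨n, c, P, S, hn, hP, hS, hgap, hper, hHL⟩ :=
    Crest.Agent.R320.FewVal_228.exists_walls α W hW
  have main : ∀ (z : ℕ) (L : Language α), L.IsRegular →
        HL 1 ({X | X ∈ XX n S z ∧ X ∈ L} : Language α) ∧
        HL 1 ({X | (∀ Y ∈ XX n S z, ¬ Y <+: X) ∧ X ∈ L} : Language α) := by
    intro z L hL
    constructor
    · refine (hHL (XX n S z ⊓ L) ((isRegular_XX n S hS z).inf hL) (z + 1)).congr fun w => ?_
      constructor
      · rintro ⟨h1, h2⟩; exact ⟨⟨h1, h2⟩, nw_XX hn h1.2.2⟩
      · rintro ⟨⟨h1, h2⟩, -⟩; exact ⟨h1, h2⟩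
    · refine (hHL (({w | ∀ Y ∈ XX n S z, ¬ Y <+: w} : Language α) ⊓ L)
        ((isRegular_NP n S hS z).inf hL) (z + 1)).congr fun w => ?_
      constructor
      · rintro ⟨h1, h2⟩
        exact ⟨⟨h1, h2⟩, nw_XX hn fun t ht1 ht2 => noPrefix_iff.1 h1 t ht1 ht2.le⟩
      · rintro ⟨⟨h1, h2⟩, -⟩; exact ⟨h1, h2⟩
  refine ⟨n, S, hn, hS, ?_, main, fun z M _ _ φ K Mo hMo Pd => main z _ (isRegular_key φ K Mo hMo Pd)⟩
  intro X s t hst ht h1 h2
  obtain ⟨h3, h4⟩ := h1
  obtain ⟨h5, h6⟩ := h2
  rw [List.length_take] at h3 h5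
  rw [List.length_take, Nat.min_eq_left (by omega)] at h4 h6
  have e4 : (X.drop (s - n)).take n = (X.take s).drop (s - n) := by
    rw [List.drop_take]; congr 1; omega
  have e6 : (X.drop (t - n)).take n = (X.take t).drop (t - n) := by
    rw [List.drop_take]; congr 1; omega
  have := hgap X (s - n) (t - n) (by omega) ⟨by omega, e4 ▸ h4⟩ ⟨by omega, e6 ▸ h6⟩
  omega

end Crest.Agent.R320.P4_111
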