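import Crest.Agent.R320.FinA_142
import Crest.Agent.R320.P4_111
import Crest.Agent.R320.Bridge_975
import Crest.Agent.R320.Two_621
import Crest.Agent.R320.Fin_869
import Crest.Agent.R320.RegCongr_253

/-!
# Row 320: S0495 from the closed U-gadget `Bridge_975.UGI` (helper142)
-/

set_option autoImplicit false

namespace Crest.Agent.R320.FinB_142

open Crest.RegLang Crest.Agent.R320.Hk_851 Crest.Agent.R320.Blk467 Crest.Agent.R320.FinA_142

/-- words, for a fixed alphabet, from the pieces -/
theorem main {n : ℕ} {S V : Type} [Monoid S] [Finite S] [AddCommGroup V] [Finite V]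
    (act : V → S → V)
    (hadd : ∀ a b s, act (a + b) s = act a s + act b s)
    (hone : ∀ v, act v 1 = v) (hmul : ∀ v s t, act v (s * t) = act (act v s) t)
    (hfaith : ∀ s t, (∀ v, act v s = act v t) → s = t)
    (φ : Fin n → S)
    (C0 : ℕ) (hG : ∀ K : ℕ, ∃ (N1 Pm La : ℕ) (c : ℕ → ℕ) (Bad : ℕ → Prop), 0 < N1 ∧ 0 < Pm ∧
      (∀ i j, i < j → j < K → c i < c j) ∧
      (∀ i j k l, i < K → j < K → k < K → l < K → i ≠ j → (i, j) ≠ (k, l) →
        c i + c l + 4 * N1 < c k + c j ∨ c k + c j + 4 * N1 < c i + c l) ∧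
      (∀ T, Bad (T + Pm) ↔ Bad T) ∧
      (∀ T, La ≤ T → ∀ J : Finset ℕ, (∀ k ∈ J, k < K ∧
        ∃ k', k' < K ∧ k' ≠ k ∧ Bad (T + c k' - c k)) → J.card ≤ C0) ∧
      Bridge_975.Words act N1 Pm La Bad φ) (s : S) :
    HL 3 ({w | (w.map φ).prod = s} : Language (Fin n)) := by
  classical
  have := Fintype.ofFinite S
  have := Fintype.ofFinite V
  obtain ⟨K, hK⟩ := ExactR_237.exact_gadget (Fin n) S V φ act (2 * C0 + 2)
  obtain ⟨N1, Pm, La, c, Bad, hN1, hPm, hcm, hgol, hper, hthin, hW⟩ := hG K
  obtain ⟨lam, rho, nu1, w1, -, w2, w3, w4⟩ := Bridge_975.words_reg hPm hW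
  obtain ⟨lam2, rho2, nu2, e1, e2⟩ := hK c hcm
  -- parameters
  let p0 : ℕ := ∑ k ∈ Finset.range K, c k
  have hcp : ∀ k, k < K → c k ≤ p0 := fun k hk =>
    Finset.single_le_sum (f := c) (fun _ _ => Nat.zero_le _) (Finset.mem_range.2 hk)
  obtain ⟨n', Sw, hn', hSw, hgapw, hreg, -⟩ := P4_111.p4.{0, 0} (Fin n) (2 * p0 + 2 * N1 + 1) (by omega)
  let q0 : ℕ := n' + p0 + La
  let g : Sc2n_937.Geo (Fin n) :=
    { Wo := P4_111.Wo n' Sw
      n := n'
      z := p0 + N1 + q0
      p0 := p0
      q0 := q0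
      N1 := N1
      loc := fun P Q h => P4_111.Wo.app P Q h
      hz := rfl
      hq := by show n' ≤ n' + p0 + La; omega
      hN := hN1
      hqp := by show p0 ≤ (n' + p0 + La) + N1; omega }
  let nu2' : List (Fin n) → V := fun X => nu2 X 1
  have hXXe : ∀ X, X ∈ CC g ↔ X ∈ P4_111.XX n' Sw (p0 + N1 + q0) := fun X => Iff.rfl
  -- locality
  let B : ℕ := p0 + La + (p0 + N1 + q0 + N1)
  have hloc : ∀ q q' : List (Fin n), B ≤ q.length → B ≤ q'.length → q.take B = q'.take B →
      q.length % Pm = q'.length % Pm → ((q.drop B).map φ).prod = ((q'.drop B).map φ).prod →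
      (∀ j, j ≤ B → ((q.drop j).map φ).prod = ((q'.drop j).map φ).prod) ∧
      (∀ j, j ≤ B → q.take j = q'.take j) ∧
      nu1 (q.drop p0) = nu1 (q'.drop p0) ∧
      (Bad (q.length - p0) ↔ Bad (q'.length - p0)) := by
    intro q q' h1 h2 h3 h4 h5
    have hd : ∀ j, j ≤ B → ((q.drop j).map φ).prod = ((q'.drop j).map φ).prod := by
      intro j hj
      have e : ∀ q : List (Fin n), q.drop j = (q.take B).drop j ++ q.drop B := by
        intro q
        conv_lhs => rw [← List.take_append_drop B q]
        by_cases hq : B ≤ q.length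
        · rw [List.drop_append_of_le_length (by rw [List.length_take]; omega)]
        · rw [List.drop_of_length_le (i := B) (by omega)]
          simp
      rw [e q, e q', h3, List.map_append, List.map_append, List.prod_append, List.prod_append, h5]
    have ht : ∀ j, j ≤ B → q.take j = q'.take j := by
      intro j hj
      have e : ∀ q : List (Fin n), q.take j = (q.take B).take j := by
        intro q; rw [List.take_take, Nat.min_eq_left hj]
      rw [e q, e q', h3]
    have hmod : (q.length - p0) % Pm = (q'.length - p0) % Pm := by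
      have : (q.length - p0 + p0) ≡ (q'.length - p0 + p0) [MOD Pm] := by
        rw [Nat.sub_add_cancel (by omega), Nat.sub_add_cancel (by omega)]; exact h4
      exact Nat.ModEq.add_right_cancel' p0 this
    refine ⟨hd, ht, ?_, ?_⟩
    · refine (w4 (q.drop p0) (q'.drop p0) ?_ ?_ ?_ ?_ ?_).2
      · rw [List.length_drop]; omega
      · rw [List.length_drop]; omega
      · rw [List.take_drop, List.take_drop, ht _ (by omega)]
      · rw [List.length_drop, List.length_drop]; exact hmod
      · rw [List.drop_drop, List.drop_drop]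
        exact hd _ (by omega)
    · have key : ∀ a k, (Bad (a + Pm * k) ↔ Bad a) := by
        intro a k
        induction k with
        | zero => simp
        | succ k ih => rw [Nat.mul_succ, ← Nat.add_assoc, hper, ih]
      have e : ∀ a, (Bad a ↔ Bad (a % Pm)) := by
        intro a
        conv_lhs => rw [← Nat.mod_add_div a Pm]
        exact key _ _
      rw [e, e (q'.length - p0), hmod]
  have hval : ∀ q q' : List (Fin n), B ≤ q.length → B ≤ q'.length → q.take B = q'.take B →
      q.length % Pm = q'.length % Pm → ((q.drop B).map φ).prod = ((q'.drop B).map φ).prod →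
      ∀ x : V, act x (q.map φ).prod + nu act φ nu1 nu2' p0 q =
        act x (q'.map φ).prod + nu act φ nu1 nu2' p0 q' := by
    intro q q' h1 h2 h3 h4 h5 x
    obtain ⟨a1, a2, a3, -⟩ := hloc q q' h1 h2 h3 h4 h5
    have b1 := a1 0 (by omega)
    rw [List.drop_zero, List.drop_zero] at b1
    unfold nu
    rw [b1, a1 p0 (by omega), a2 p0 (by omega), a3]
  have hEloc : ∀ q q' : List (Fin n), B ≤ q.length → B ≤ q'.length → q.take B = q'.take B →
      g.E q → g.E q' := by
    intro q q' h1 h2 h3 hE
    obtain ⟨t, t1, t2, t3, t4⟩ := hE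
    have t4' : t < p0 + N1 + q0 + N1 := t4
    have t3' : p0 + N1 + q0 ≤ t + N1 := t3
    refine ⟨t, by omega, ?_, t3, t4⟩
    have e : q'.take t = q.take t := by
      have e' : ∀ q : List (Fin n), q.take t = (q.take B).take t := by
        intro q; rw [List.take_take, Nat.min_eq_left (by omega)]
      rw [e' q, e' q', h3]
    rw [e]; exact t2
  refine Top5_120.top5 act hadd hone hmul hfaith φ (nu act φ nu1 nu2' p0) (CC g) (BB g Bad)
    (pcode g) (fun X h => h.1) (L1 act φ nu2' g lam) (L2 K c lam2) (L1_fin act φ nu2' g w1)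
    (L2_fin g hcp) ?_ ?_ ?_ ?_ ?_ s
  · intro x y
    have hr := (hreg (p0 + N1 + q0) {X | act x (X.map φ).prod + nu act φ nu1 nu2' p0 X = y}
      (RegCongr_253.regular_of_congr φ B Pm hPm _ (fun q q' h1 h2 h3 h4 h5 h6 => by
        have := hval q q' h1 h2 h3 h4 h5 x
        exact this.symm.trans h6))).1
    exact hr
  · intro x y
    have hr := (hreg (p0 + N1 + q0)
      {X | g.BadX Bad X ∧ act x (X.map φ).prod + nu act φ nu1 nu2' p0 X = y}
      (RegCongr_253.regular_of_congr φ B Pm hPm _ (fun q q' h1 h2 h3 h4 h5 h6 => by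
        have h7 := hval q q' h1 h2 h3 h4 h5 x
        obtain ⟨h8, h9⟩ := h6
        refine ⟨?_, h7.symm.trans h9⟩
        rcases h8 with h8 | h8
        · exact Or.inl (hEloc q q' h1 h2 h3 h8)
        · exact Or.inr ((hloc q q' h1 h2 h3 h4 h5).2.2.2.1 h8)))).1
    refine hr.congr fun w => ?_
    constructor
    · rintro ⟨⟨a, b⟩, c⟩; exact ⟨a, b, c⟩
    · rintro ⟨a, b, c⟩; exact ⟨⟨a, b⟩, c⟩
  · intro s
    exact (hreg (p0 + N1 + q0) {w | (w.map φ).prod = s}
      (RegCongr_253.regular_of_congr φ 0 1 (by omega) _ (fun q q' h1 h2 h3 h4 h5 h6 => by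
        rw [List.drop_zero, List.drop_zero] at h5
        exact h5.symm.trans h6))).2
  · refine hcc1 act φ nu1 nu2' g hadd hmul w1 (fun P Q u b h1 h2 => w2 P Q u b h1 h2) ?_
    intro Y hY hb v
    obtain ⟨P, Q, h1, h2, h3⟩ := w3 Y (by
      have : N1 + (n' + p0 + La) ≤ Y.length := hY
      omega) hb v
    exact ⟨P, Q, h1, h2, h3⟩
  · refine hcc2 act φ nu1 nu2' g hadd hmul (C0 := C0) (rho2 := fun k Q => rho2 k Q 1) hcp ?_ ?_ ?_ ?_ ?_
    · intro P Q hP hPQ hQ
      have h0 : 0 < Q.length := List.length_pos_iff.2 hQ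
      have := hgapw (P ++ Q) P.length (P ++ Q).length (by rw [List.length_append]; omega) le_rfl
        (by rw [List.take_left]; exact hP) (by rw [List.take_length]; exact hPQ)
      rw [List.length_append] at this
      show 2 * p0 + 2 * N1 < Q.length
      omega
    · intro k k' l l' hk hk' hl hl' h1 h2 h3 h4
      by_contra hne
      have h3' : c k + c l' < c l + c k' + 2 * N1 := h3
      have h4' : c l + c k' < c k + c l' + 2 * N1 := h4
      have := hgol k k' l l' hk hk' hl hl' (Ne.symm h1) (by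
        intro e; exact hne (congrArg Prod.fst e))
      omega
    · intro τ hτ J hJ
      have hτ' : p0 + N1 + (n' + p0 + La) ≤ τ + p0 := hτ
      refine hthin (τ - p0) (by omega) J (fun k hk => ?_)
      obtain ⟨a1, k', a2, a3, a4⟩ := hJ k hk
      refine ⟨a1, k', a2, a3, ?_⟩
      have e : τ - p0 + c k' - c k = τ + c k' - c k - p0 := by omega
      rw [e]; exact a4
    · intro k hk P Q v u hP hQ h1 h2
      have := e1 k hk P Q 1 v u hP h1 h2
      rw [mul_one] at this
      exact this
    · intro X0 hX0 v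
      exact e2 X0 1 v (fun k hk => by rw [hX0]; exact hcp k hk)

end Crest.Agent.R320.FinB_142
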