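import Crest.Agent.R320.Fin_147

set_option autoImplicit false

namespace Crest.Agent.R320.Fin_147

open Crest.Agent.R320.Grid_390

/-- bad totals of the grid gadget -/
def BadN {k : ℕ} (q : Fin k → ℕ) (Ms κ m T : ℕ) : Prop :=
  (∃ j, q j ∣ T) ∨ ∃ j, 1 ≤ j ∧ j ≤ m ∧
    ¬ (Ms * G κ (j - 1) ≤ (T - Am Ms κ j) % G κ j ∧
      (T - Am Ms κ j) % G κ j + Ms * G κ (j - 1) ≤ G κ j)

theorem badN_thin {k : ℕ} {q : Fin k → ℕ} {Ms κ m T : ℕ} (hT : Am Ms κ m ≤ T)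
    (h : BadN q Ms κ m T) :
    Thin963.BadT (Finset.univ.image q) m (fun i => (G κ i : ℤ)) (fun i => (Ms : ℤ) * G κ i)
      (fun i => (Am Ms κ i : ℤ)) (T : ℤ) := by
  rcases h with ⟨j, h⟩ | ⟨j, h1, h2, h3⟩
  · exact Or.inl ⟨q j, Finset.mem_image_of_mem _ (Finset.mem_univ _), by exact_mod_cast h⟩
  · right
    obtain ⟨i, rfl⟩ : ∃ i, j = i + 1 := ⟨j - 1, by omega⟩
    rw [Nat.add_sub_cancel] at h3
    have hA : Am Ms κ (i + 1) ≤ T := le_trans (Am_mono h2) hT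
    have hG := G_pos (κ := κ) (i + 1)
    have hr := Nat.mod_lt (T - Am Ms κ (i + 1)) hG
    have hd := Nat.div_add_mod (T - Am Ms κ (i + 1)) (G κ (i + 1))
    set r := (T - Am Ms κ (i + 1)) % G κ (i + 1) with hrdef
    set d := (T - Am Ms κ (i + 1)) / G κ (i + 1) with hddef
    have hz : (T : ℤ) - Am Ms κ (i + 1) = G κ (i + 1) * d + r := by
      have : ((T - Am Ms κ (i + 1) : ℕ) : ℤ) = (T : ℤ) - Am Ms κ (i + 1) := by
        rw [Nat.cast_sub hA]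
      rw [← this, ← hd]; push_cast; ring
    by_cases h4 : Ms * G κ i ≤ r
    · have h5 : G κ (i + 1) < r + Ms * G κ i := by
        by_contra hc
        exact h3 ⟨h4, by omega⟩
      refine ⟨i, by omega, (G κ (i + 1) : ℤ) - r, ?_, ?_⟩
      · rw [abs_le]
        have h5' : (G κ (i + 1) : ℤ) < r + (Ms : ℤ) * G κ i := by exact_mod_cast h5
        have hr' : (r : ℤ) < G κ (i + 1) := by exact_mod_cast hr
        constructor <;> linarith
      · show (G κ (i + 1) : ℤ) ∣ (T : ℤ) - Am Ms κ (i + 1) + ((G κ (i + 1) : ℤ) - r)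
        rw [hz]
        exact ⟨d + 1, by ring⟩
    · refine ⟨i, by omega, -(r : ℤ), ?_, ?_⟩
      · rw [abs_neg, abs_of_nonneg (by positivity)]
        have : (r : ℤ) < (Ms : ℤ) * G κ i := by exact_mod_cast (not_le.1 h4)
        exact this.le
      · show (G κ (i + 1) : ℤ) ∣ (T : ℤ) - Am Ms κ (i + 1) + (-(r : ℤ))
        rw [hz]
        exact ⟨d, by ring⟩

theorem badN_imp {k : ℕ} {q : Fin k → ℕ} {Ms κ m T T' : ℕ} (hMs : ∀ j, q j ∣ Ms)
    (hT : Am Ms κ m ≤ T) (hT' : Am Ms κ m ≤ T') (h : T % (Ms * G κ m) = T' % (Ms * G κ m))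
    (hb : BadN q Ms κ m T) : BadN q Ms κ m T' := by
  rcases hb with ⟨j, hj⟩ | ⟨j, h1, h2, h3⟩
  · left
    refine ⟨j, ?_⟩
    have hd : q j ∣ Ms * G κ m := Dvd.dvd.mul_right (hMs j) _
    have h' : T ≡ T' [MOD q j] := Nat.ModEq.of_dvd hd h
    exact (Nat.ModEq.dvd_iff h' dvd_rfl).1 hj
  · right
    refine ⟨j, h1, h2, ?_⟩
    have hd : G κ j ∣ Ms * G κ m := Dvd.dvd.mul_left (G_dvd h2) _
    have h' : T ≡ T' [MOD G κ j] := Nat.ModEq.of_dvd hd h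
    have hA : Am Ms κ j ≤ T := le_trans (Am_mono h2) hT
    have hA' : Am Ms κ j ≤ T' := le_trans (Am_mono h2) hT'
    have h4 : (T - Am Ms κ j) % G κ j = (T' - Am Ms κ j) % G κ j := by
      have h5 : (T - Am Ms κ j) + Am Ms κ j ≡ (T' - Am Ms κ j) + Am Ms κ j [MOD G κ j] := by
        rw [Nat.sub_add_cancel hA, Nat.sub_add_cancel hA']; exact h'
      exact Nat.ModEq.add_right_cancel' _ h5
    rw [← h4]; exact h3

theorem badN_congr {k : ℕ} {q : Fin k → ℕ} {Ms κ m T T' : ℕ} (hMs : ∀ j, q j ∣ Ms)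
    (hT : Am Ms κ m ≤ T) (hT' : Am Ms κ m ≤ T') (h : T % (Ms * G κ m) = T' % (Ms * G κ m)) :
    BadN q Ms κ m T ↔ BadN q Ms κ m T' :=
  ⟨badN_imp hMs hT hT' h, badN_imp hMs hT' hT h.symm⟩

theorem exists_primes (k N : ℕ) : ∃ q : Fin k → ℕ, Function.Injective q ∧
    ∀ j, (q j).Prime ∧ N < q j := by
  have hinf := Nat.infinite_setOf_prime
  refine ⟨fun j => Nat.nth Nat.Prime (N + 1 + j), ?_, fun j => ⟨Nat.nth_mem_of_infinite hinf _, ?_⟩⟩
  · intro i j h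
    have := Nat.nth_injective hinf h
    apply Fin.ext
    omega
  · have h2 : N + 1 + (j : ℕ) ≤ Nat.nth Nat.Prime (N + 1 + j) :=
      (Nat.nth_strictMono hinf).le_apply (x := N + 1 + j)
    show N < Nat.nth Nat.Prime (N + 1 + j)
    omega

theorem sumG {κ : ℕ} (hκ : 1 ≤ κ) (i : ℕ) : ∑ j ∈ Finset.range (i + 1), G κ j ≤ 2 * G κ i := by
  induction i with
  | zero => simp [G]
  | succ i ih =>
    rw [Finset.sum_range_succ]
    have h1 : 2 * G κ i ≤ G κ (i + 1) := by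
      unfold G
      rw [Nat.mul_succ, pow_add, mul_comm]
      apply Nat.mul_le_mul_left
      calc 2 = 2 ^ 1 := by norm_num
        _ ≤ 2 ^ κ := Nat.pow_le_pow_right (by norm_num) hκ
    omega

theorem grow {K Ms κ : ℕ} (hκ : κ = K + 5 + Ms) (i : ℕ) :
    2 ^ (K + 4) * ∑ j ∈ Finset.range (i + 1), Ms * G κ j ≤ G κ (i + 1) := by
  rw [← Finset.mul_sum]
  have h1 := sumG (κ := κ) (by omega) i
  have h2 : Ms ≤ 2 ^ Ms := Nat.lt_two_pow_self.le
  have h3 : G κ (i + 1) = 2 ^ κ * G κ i := by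
    unfold G
    rw [Nat.mul_succ, pow_add, mul_comm]
  rw [h3]
  calc 2 ^ (K + 4) * (Ms * ∑ j ∈ Finset.range (i + 1), G κ j)
      ≤ 2 ^ (K + 4) * (2 ^ Ms * (2 * G κ i)) := by gcongr
    _ = 2 ^ κ * G κ i := by
        rw [hκ, show K + 5 + Ms = (K + 4) + 1 + Ms by ring, pow_add, pow_add]; ring

theorem hsp_of {X N1 : ℕ} (hX : 2 * N1 < X) (k k' l l' : ℕ) (h1 : k' ≠ k) (h2 : l' ≠ l)
    (h3 : X * 2 ^ k + X * 2 ^ l' < X * 2 ^ l + X * 2 ^ k' + 2 * N1)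
    (h4 : X * 2 ^ l + X * 2 ^ k' < X * 2 ^ k + X * 2 ^ l' + 2 * N1) : k = l := by
  have h5 : (2 : ℤ) ^ k - 2 ^ k' = 2 ^ l - 2 ^ l' := by
    have h3' : (X : ℤ) * 2 ^ k + X * 2 ^ l' < X * 2 ^ l + X * 2 ^ k' + 2 * N1 := by exact_mod_cast h3
    have h4' : (X : ℤ) * 2 ^ l + X * 2 ^ k' < X * 2 ^ k + X * 2 ^ l' + 2 * N1 := by exact_mod_cast h4
    have hX' : 2 * (N1 : ℤ) < X := by exact_mod_cast hX
    set D : ℤ := (2 ^ k - 2 ^ k') - (2 ^ l - 2 ^ l') with hD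
    have e1 : (X : ℤ) * D < X * 1 := by
      have : (X : ℤ) * D = (X * 2 ^ k + X * 2 ^ l') - (X * 2 ^ l + X * 2 ^ k') := by rw [hD]; ring
      rw [this]; linarith
    have e2 : (X : ℤ) * (-1) < X * D := by
      have : (X : ℤ) * D = (X * 2 ^ k + X * 2 ^ l') - (X * 2 ^ l + X * 2 ^ k') := by rw [hD]; ring
      rw [this]; linarith
    have hXp : (0 : ℤ) < X := by linarith [Int.natCast_nonneg N1]
    have e3 := lt_of_mul_lt_mul_left e1 hXp.le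
    have e4 := lt_of_mul_lt_mul_left e2 hXp.le
    have : D = 0 := by omega
    linarith
  exact (G369.pow_diff h1.symm h2.symm h5).1

end Crest.Agent.R320.Fin_147
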