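import Crest.Agent.R320.Grid_899
import Crest.Agent.R320.Thin_963
import Mathlib

/-! Row 320: the bad totals of the grid gadget are thin and periodic (helper188). -/

set_option autoImplicit false

namespace Crest.Agent.R320.FinB_188

open Crest.Agent.R320.Grid_899 (Am G G_dvd G_pos)

/-- clean totals -/
def Cl {k : ℕ} (q : Fin k → ℕ) (κ m n : ℕ) : Prop :=
  (∀ j, ¬ q j ∣ n) ∧ ∀ j, 1 ≤ j → j ≤ m →
    (∏ j, q j) * G κ (j - 1) ≤ (n - Am (∏ j, q j) κ j) % G κ j ∧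
    (n - Am (∏ j, q j) κ j) % G κ j + (∏ j, q j) * G κ (j - 1) ≤ G κ j

theorem Am_mono (P κ : ℕ) : Monotone (Am P κ) :=
  monotone_nat_of_le_succ fun i => by
    show Am P κ i ≤ Am P κ i + G κ i + P * G κ i
    omega

theorem cl_period {k : ℕ} (q : Fin k → ℕ) (κ m : ℕ) {n n' : ℕ}
    (h1 : Am (∏ j, q j) κ m ≤ n) (h2 : Am (∏ j, q j) κ m ≤ n')
    (h : n % ((∏ j, q j) * G κ m) = n' % ((∏ j, q j) * G κ m)) (hc : Cl q κ m n) :
    Cl q κ m n' := by
  refine ⟨fun j hj => hc.1 j ?_, fun j hj1 hjm => ?_⟩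
  · have hd : q j ∣ (∏ j, q j) * G κ m :=
      (Finset.dvd_prod_of_mem q (Finset.mem_univ j)).trans (Dvd.intro _ rfl)
    have : n ≡ n' [MOD q j] := Nat.ModEq.of_dvd hd h
    exact (Nat.ModEq.dvd_iff this (dvd_refl _)).2 hj
  · have hA : Am (∏ j, q j) κ j ≤ Am (∏ j, q j) κ m := Am_mono _ _ hjm
    have hd : G κ j ∣ (∏ j, q j) * G κ m := (G_dvd hjm).trans (Dvd.intro_left _ rfl)
    have h3 : n ≡ n' [MOD G κ j] := Nat.ModEq.of_dvd hd h
    have h4 : n - Am (∏ j, q j) κ j ≡ n' - Am (∏ j, q j) κ j [MOD G κ j] := by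
      refine Nat.ModEq.add_right_cancel' (Am (∏ j, q j) κ j) ?_
      rw [Nat.sub_add_cancel (by omega), Nat.sub_add_cancel (by omega)]
      exact h3
    have h5 : (n - Am (∏ j, q j) κ j) % G κ j = (n' - Am (∏ j, q j) κ j) % G κ j := h4
    rw [← h5]
    exact hc.2 j hj1 hjm

theorem badT_of_not_cl {k : ℕ} (q : Fin k → ℕ) (κ m n : ℕ) (hn : Am (∏ j, q j) κ m ≤ n)
    (h : ¬ Cl q κ m n) :
    Crest.Agent.R320.Thin963.BadT (Finset.univ.image q) m (fun i => (G κ i : ℤ))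
      (fun i => (((∏ j, q j) * G κ i : ℕ) : ℤ)) (fun i => (Am (∏ j, q j) κ i : ℤ)) (n : ℤ) := by
  by_contra hb
  apply h
  refine ⟨fun j hj => hb (Or.inl ⟨q j, Finset.mem_image_of_mem _ (Finset.mem_univ _), ?_⟩),
    fun j hj1 hjm => ?_⟩
  · exact_mod_cast hj
  · obtain ⟨i, rfl⟩ : ∃ i, j = i + 1 := ⟨j - 1, by omega⟩
    rw [Nat.add_sub_cancel]
    have hA : Am (∏ j, q j) κ (i+1) ≤ Am (∏ j, q j) κ m := Am_mono _ _ hjm
    set P := ∏ j, q j with hP
    have hg : 0 < G κ (i+1) := G_pos _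
    have hmod := Nat.mod_add_div (n - Am P κ (i+1)) (G κ (i+1))
    have hlt := Nat.mod_lt (n - Am P κ (i+1)) hg
    set r := (n - Am P κ (i+1)) % G κ (i+1) with hr
    set t := (n - Am P κ (i+1)) / G κ (i+1) with ht
    have hint : (n : ℤ) - (Am P κ (i+1) : ℤ) = (r : ℤ) + (G κ (i+1) : ℤ) * (t : ℤ) := by
      have : (((n - Am P κ (i+1) : ℕ)) : ℤ) = (n : ℤ) - (Am P κ (i+1) : ℤ) := by
        push_cast [Nat.cast_sub (show Am P κ (i+1) ≤ n by omega)]; ring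
      rw [← this, ← hmod]; push_cast; ring
    constructor
    · by_contra hlt2
      push Not at hlt2
      apply hb
      right
      refine ⟨i, by omega, -(r : ℤ), ?_, ?_⟩
      · rw [abs_neg, abs_of_nonneg (by positivity)]
        show (r : ℤ) ≤ ((P * G κ i : ℕ) : ℤ)
        exact_mod_cast hlt2.le
      · show ((G κ (i+1) : ℕ) : ℤ) ∣ (n : ℤ) - (Am P κ (i+1) : ℤ) + -(r:ℤ)
        rw [hint]
        exact ⟨t, by ring⟩
    · by_contra hlt2
      push Not at hlt2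
      apply hb
      right
      refine ⟨i, by omega, (G κ (i+1) : ℤ) - (r : ℤ), ?_, ?_⟩
      · have h1 : (0:ℤ) ≤ (G κ (i+1) : ℤ) - (r : ℤ) := by
          have : (r:ℤ) ≤ (G κ (i+1) : ℤ) := by exact_mod_cast hlt.le
          linarith
        rw [abs_of_nonneg h1]
        show (G κ (i+1) : ℤ) - (r : ℤ) ≤ ((P * G κ i : ℕ) : ℤ)
        have h2 : ((G κ (i+1) : ℕ) : ℤ) < (r : ℤ) + ((P * G κ i : ℕ) : ℤ) := by exact_mod_cast hlt2
        linarith
      · show ((G κ (i+1) : ℕ) : ℤ) ∣ (n : ℤ) - (Am P κ (i+1) : ℤ) + ((G κ (i+1) : ℤ) - (r : ℤ))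
        rw [hint]
        exact ⟨t + 1, by ring⟩

theorem thinN {k : ℕ} (K m κ : ℕ) (q : Fin k → ℕ)
    (hq : ∀ j, (q j).Prime ∧ 2 ^ (K + 1) ≤ q j ∧ Odd (q j))
    (hgrow : 2 ^ (K + 4) * (∏ j, q j) * (m + 1) ≤ 2 ^ κ) (N0 : ℕ) :
    ∃ X : ℕ, N0 ≤ X ∧ 0 < X ∧ ∀ (τ p : ℕ) (J : Finset ℕ),
      p + X * 2 ^ K + Am (∏ j, q j) κ m ≤ τ →
      (∀ a ∈ J, a < K ∧ ∃ b, b < K ∧ b ≠ a ∧ ¬ Cl q κ m (τ + X * 2 ^ b - X * 2 ^ a - p)) →
      J.card ≤ k + m := by
  classical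
  set P := ∏ j, q j with hP
  have hPpos : 0 < P := Finset.prod_pos fun j _ => (hq j).1.pos
  obtain ⟨X, hX1, hX2, hX3⟩ := Crest.Agent.R320.Thin963.thin K m (Finset.univ.image q) (fun i => (G κ i : ℤ))
    (fun i => ((P * G κ i : ℕ) : ℤ)) (fun i => (Am P κ i : ℤ))
    (by
      intro r hr
      obtain ⟨j, -, rfl⟩ := Finset.mem_image.1 hr
      exact ⟨(hq j).1, (hq j).2.1⟩)
    (by
      intro r hr
      obtain ⟨j, -, rfl⟩ := Finset.mem_image.1 hr
      rw [Nat.isCoprime_iff_coprime]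
      exact Nat.Coprime.pow_right _ (Nat.coprime_two_right.2 (hq j).2.2))
    (by exact_mod_cast G_pos (κ := κ) m)
    (by intro i j hij; exact_mod_cast G_dvd hij)
    (by intro i; exact_mod_cast Nat.mul_pos hPpos (G_pos (κ := κ) i))
    (by intro i; exact_mod_cast (Dvd.intro_left P rfl : G κ i ∣ P * G κ i))
    (by
      intro i hi
      have h1 : ∑ j ∈ Finset.range (i+1), P * G κ j ≤ (i+1) * (P * G κ i) := by
        have := Finset.sum_le_card_nsmul (Finset.range (i+1)) (fun j => P * G κ j) (P * G κ i)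
          (fun j hj => Nat.mul_le_mul_left _ (Nat.pow_le_pow_right (by norm_num)
            (Nat.mul_le_mul_left κ (by have := Finset.mem_range.1 hj; omega))))
        simpa using this
      have h2 : 2 ^ (K+4) * ((i+1) * (P * G κ i)) ≤ G κ (i+1) := by
        have e : G κ (i+1) = 2 ^ κ * G κ i := by
          show 2 ^ (κ * (i+1)) = 2 ^ κ * 2 ^ (κ * i)
          rw [← pow_add]; congr 1; ring
        rw [e]
        calc 2 ^ (K+4) * ((i+1) * (P * G κ i)) = (2 ^ (K+4) * P * (i+1)) * G κ i := by ring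
          _ ≤ (2 ^ (K+4) * P * (m+1)) * G κ i :=
              Nat.mul_le_mul_right _ (Nat.mul_le_mul_left _ (by omega))
          _ ≤ 2 ^ κ * G κ i := Nat.mul_le_mul_right _ hgrow
      have h3 : 2 ^ (K+4) * ∑ j ∈ Finset.range (i+1), P * G κ j ≤ G κ (i+1) :=
        (Nat.mul_le_mul_left _ h1).trans h2
      exact_mod_cast h3) (N0 : ℤ)
  obtain ⟨Y, rfl⟩ : ∃ Y : ℕ, X = (Y : ℤ) := ⟨X.toNat, by omega⟩
  refine ⟨Y, by exact_mod_cast hX1, by exact_mod_cast hX2, ?_⟩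
  intro τ p J hτ hJ
  have hcard : (Finset.univ.image q).card ≤ k := by
    refine Finset.card_image_le.trans ?_
    simp
  have hb := hX3 ((τ : ℤ) - p)
  choose! g hg using fun a (ha : a ∈ J) => (hJ a ha).2
  have hinj : J.card ≤ (((Finset.range K) ×ˢ (Finset.range K)).filter (fun x => x.1 ≠ x.2 ∧
        Crest.Agent.R320.Thin963.BadT (Finset.univ.image q) m (fun i => (G κ i : ℤ))
    (fun i => ((P * G κ i : ℕ) : ℤ)) (fun i => (Am P κ i : ℤ))
      ((τ : ℤ) - p + Y * 2^x.1 - Y * 2^x.2))).card := by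
    refine Finset.card_le_card_of_injOn (fun a => (g a, a)) ?_ ?_
    · intro a ha
      obtain ⟨h1, h2, h3⟩ := hg a ha
      have haK := (hJ a ha).1
      rw [Finset.mem_coe, Finset.mem_filter, Finset.mem_product, Finset.mem_range, Finset.mem_range]
      refine ⟨⟨h1, haK⟩, h2, ?_⟩
      have hpw : Y * 2 ^ a ≤ Y * 2 ^ K :=
        Nat.mul_le_mul_left _ (Nat.pow_le_pow_right (by norm_num) haK.le)
      have h4 := badT_of_not_cl q κ m (τ + Y * 2 ^ g a - Y * 2 ^ a - p)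
        (by rw [← hP]; omega) h3
      have e : ((τ + Y * 2 ^ g a - Y * 2 ^ a - p : ℕ) : ℤ) =
          (τ : ℤ) - p + Y * 2 ^ (g a) - Y * 2 ^ a := by
        rw [Nat.cast_sub (by omega), Nat.cast_sub (by omega)]
        push_cast
        ring
      rw [e] at h4
      exact h4
    · intro a _ b _ hab
      exact congrArg Prod.snd hab
  exact (hinj.trans hb).trans (by omega)

end Crest.Agent.R320.FinB_188
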