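import Crest.Agent.R320.Bridge_975
import Crest.Agent.R320.Top5_120
import Crest.Agent.R320.Sc2n_937
import Crest.Agent.R320.P4_933

/-! Row 320, join (helper22), part B: from the two gadgets and the walls to height three. -/

set_option autoImplicit false

namespace Crest.Agent.R320.FinB_22

open Crest.RegLang Crest.Agent.R320.Hk_851 Crest.Agent.R320.Sc2n_937

variable {α S V : Type} [Finite α] [Monoid S] [Finite S] [AddCommGroup V] [Finite V]

/-- noise of a block -/
def nuF (act : V → S → V) (φ : α → S) (p0 : ℕ) (nu1 nu2 : List α → V) (X : List α) : V :=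
  act (nu2 (X.take p0)) ((X.drop p0).map φ).prod + nu1 (X.drop p0)

def pre (act : V → S → V) (φ : α → S) (nu2 : List α → V) (u : List α) (v : V) : V :=
  act v (u.map φ).prod + nu2 u

def post (act : V → S → V) (φ : α → S) (nu1 : List α → V) (v : V) (Y : List α) : V :=
  act v (Y.map φ).prod + nu1 Y

theorem T_eq (act : V → S → V)
    (hadd : ∀ a b s, act (a + b) s = act a s + act b s)
    (hmul : ∀ v s t, act v (s * t) = act (act v s) t)
    (φ : α → S) (g : Geo α) (nu1 nu2 : List α → V) (v : V) (X : List α) :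
    g.T (pre act φ nu2) (post act φ nu1) v X =
      act v (X.map φ).prod + nuF act φ g.p0 nu1 nu2 X := by
  unfold Geo.T pre post nuF
  have e : (X.map φ).prod = ((X.take g.p0).map φ).prod * ((X.drop g.p0).map φ).prod := by
    rw [← List.prod_append, ← List.map_append, List.take_append_drop]
  rw [hadd, e, hmul, add_assoc]

theorem core (act : V → S → V)
    (hadd : ∀ a b s, act (a + b) s = act a s + act b s)
    (hone : ∀ v, act v 1 = v) (hmul : ∀ v s t, act v (s * t) = act (act v s) t)
    (hfaith : ∀ s t, (∀ v, act v s = act v t) → s = t)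
    (φ : α → S) (g : Geo α) (lam rho : List α → Option V) (nu1 : List α → V) (K : ℕ)
    (c : ℕ → ℕ) (lam2 rho2 : ℕ → List α → Option V) (nu2 : List α → V) (BadT : ℕ → Prop) (C0 : ℕ)
    (h1 : ∀ P v, lam P = some v → P.length ≤ g.N1)
    (h3 : ∀ P Q v b, lam P = some v → rho Q = some b →
      b = act v ((P ++ Q).map φ).prod + nu1 (P ++ Q))
    (h4 : ∀ X : List α, g.z ≤ X.length → ¬ BadT (X.length - g.p0) → ∀ u, ∃ P Q,
      X.drop g.p0 = P ++ Q ∧ lam P = some u ∧ (rho Q).isSome)
    (hc : ∀ k, k < K → c k ≤ g.p0)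
    (e1 : ∀ k, k < K → ∀ P Q v u, P.length = c k → Q.length = g.p0 - c k →
      lam2 k P = some v → rho2 k Q = some u → u = act v ((P ++ Q).map φ).prod + nu2 (P ++ Q))
    (e2 : ∀ (X : List α) (v : V), g.p0 ≤ X.length → ∃ I : Finset ℕ, 2 * C0 + 2 ≤ I.card ∧
      ∀ k ∈ I, k < K ∧ lam2 k (X.take (c k)) = some v ∧
        (rho2 k ((X.take g.p0).drop (c k))).isSome)
    (hgap : ∀ P Q : List α, g.Wo P → g.Wo (P ++ Q) → Q ≠ [] → 2 * g.p0 + 2 * g.N1 < Q.length)
    (hsp : ∀ k k' l l', k < K → k' < K → l < K → l' < K → k' ≠ k → l' ≠ l →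
      c k + c l' < c l + c k' + 2 * g.N1 → c l + c k' < c k + c l' + 2 * g.N1 → k = l)
    (hthin : ∀ τ, g.z ≤ τ + g.p0 → ∀ J : Finset ℕ, (∀ k ∈ J, k < K ∧
      ∃ k', k' < K ∧ k' ≠ k ∧ BadT (τ + c k' - c k - g.p0)) → J.card ≤ C0)
    (hCT : ∀ x y, HL 1 ({X | g.XX X ∧ act x (X.map φ).prod + nuF act φ g.p0 nu1 nu2 X = y} :
      Language α))
    (hBT : ∀ x y, HL 1 ({X | (g.XX X ∧ g.BadX BadT X) ∧
      act x (X.map φ).prod + nuF act φ g.p0 nu1 nu2 X = y} : Language α))
    (htail : ∀ s, HL 1 ({w | (∀ X, g.XX X → ¬ X <+: w) ∧ (w.map φ).prod = s} : Language α))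
    (s : S) : HL 3 ({w | (w.map φ).prod = s} : Language α) := by
  classical
  have hz := g.hz
  have hN := g.hN
  have hq := g.hq
  have T0 := T_eq act hadd hmul φ g nu1 nu2
  have hex1 : ∀ P Q u b, lam P = some u → rho Q = some b →
      b = post act φ nu1 u (P ++ Q) := h3
  have hex2 : ∀ k, k < K → ∀ P Q v u, P.length = c k → Q.length = g.p0 - c k →
      lam2 k P = some v → rho2 k Q = some u → u = pre act φ nu2 (P ++ Q) v := e1
  refine Top5_120.top5 act hadd hone hmul hfaith φ (nuF act φ g.p0 nu1 nu2)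
    {X | g.XX X} {X | g.XX X ∧ g.BadX BadT X} ?_ ?_
    (fun v => {P | g.LP1 (pre act φ nu2) lam v P}) (fun v => {P | Geo.LP2 K c lam2 v P})
    ?_ ?_ hCT hBT htail ?_ ?_ s
  · refine ⟨?_, ?_⟩
    · intro h
      have : g.z ≤ ([] : List α).length := h.1
      simp only [List.length_nil] at this
      omega
    · rintro X hX Y hY ⟨t, ht⟩
      exact g.prefix_code (R := t) (R' := []) hX hY (by rw [ht, List.append_nil])
  · exact fun X hX => hX.1
  · intro v
    refine (List.finite_length_le α (g.p0 + g.N1)).subset ?_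
    rintro P ⟨hp, hl⟩
    have := h1 _ _ hl
    simp only [List.length_drop] at this
    show P.length ≤ g.p0 + g.N1
    omega
  · intro v
    refine (List.finite_length_le α g.p0).subset ?_
    rintro P ⟨k, hk, hl, -⟩
    show P.length ≤ g.p0
    rw [hl]; exact hc k hk
  · -- scheme 1
    intro X hX hXb v
    have hE : ¬ g.E X := fun h => hXb ⟨hX, Or.inl h⟩
    have hT : ¬ BadT (X.length - g.p0) := fun h => hXb ⟨hX, Or.inr h⟩
    obtain ⟨P, Q, b, hXe, hP, hQ⟩ := g.complete1 (pre act φ nu2) (lam := lam) (rho := rho)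
      h1 hX hE (h4 X hX.1 hT) v
    refine ⟨P, Q, hXe.symm, hP, ?_⟩
    intro x P' hP'
    obtain ⟨a1, a2⟩ := g.sound1 (pre act φ nu2) (post act φ nu1) h1 hex1 hP' hQ
    obtain ⟨-, b2⟩ := g.sound1 (pre act φ nu2) (post act φ nu1) h1 hex1 hP hQ
    refine ⟨a1, ?_⟩
    rw [T0] at a2 b2
    rw [a2, ← b2, hXe]
  · -- scheme 2
    intro X hX Y hY v
    obtain ⟨P, Q, b, hPQ, hP, hQ⟩ := g.complete2 (pre act φ nu2) (post act φ nu1)
      (rho2 := rho2) hc hgap hsp hthin hX.1 hY.1 v (e2 X v (by have := hX.1.1; omega))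
    refine ⟨P, Q, hPQ, hP, ?_⟩
    -- the value
    have hb : g.T (pre act φ nu2) (post act φ nu1)
        (g.T (pre act φ nu2) (post act φ nu1) v X) Y = b := by
      obtain ⟨X2, -, k2, k3⟩ := g.sound2 (pre act φ nu2) (post act φ nu1) (R := []) (R' := Y)
        hc hex2 hX.1 hX.2 hP hQ (by rw [List.append_nil, hPQ])
      have : X2 = Y := List.append_cancel_left (k2.symm.trans hPQ)
      rw [← this]; exact k3
    intro x P' hP'
    have hP'' := hP'
    obtain ⟨k0, hk0, hPl, hl⟩ := hP'
    -- candidate end for `k0`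
    have hcand : ∃ l', g.CEnd Q (c k0) l' := by
      obtain ⟨k, hk, l, hend, hgood, -⟩ := hQ
      by_cases hkk : k0 = k
      · subst hkk; exact ⟨l, hend⟩
      · obtain ⟨l', h', -⟩ := hgood k0 hk0 hkk
        exact ⟨l', h'⟩
    obtain ⟨l', hend'⟩ := hcand
    have hxx : g.XX (P' ++ Q.take l') :=
      g.xx_of_cend (by rw [hPl]; exact hc k0 hk0) (by rw [hPl]; exact hend')
    by_cases hbad : g.BadX BadT (P' ++ Q.take l')
    · left
      obtain ⟨X2, m1, m2, m3⟩ := g.sound2 (pre act φ nu2) (post act φ nu1) (R := [])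
        (R' := Q.drop l') hc hex2 hxx hbad hP'' hQ
        (by rw [List.append_nil, List.append_assoc, List.take_append_drop])
      refine ⟨P' ++ Q.take l', ⟨hxx, hbad⟩, X2, m1, m2.symm, ?_⟩
      rw [T0, T0] at m3 hb
      rw [m3, hb]
    · right
      refine ⟨P' ++ Q.take l', hxx, fun h => hbad h.2, ?_⟩
      exact ⟨Q.drop l', by rw [List.append_assoc, List.take_append_drop]⟩

/-! ### regularity -/

theorem drop_eq (La i : ℕ) (hi : i ≤ La) (X : List α) (hX : La ≤ X.length) :
    X.drop i = (X.take La).drop i ++ X.drop La := by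
  conv_lhs => rw [← List.take_append_drop La X]
  rw [List.drop_append_of_le_length]
  rw [List.length_take]; omega

/-- height one of the thread languages -/
theorem hl_families (act : V → S → V) (φ : α → S) (g : Geo α) (nu1 nu2 : List α → V)
    (BadT : ℕ → Prop) (A1 M0 : ℕ) (hM0 : 0 < M0)
    (hwl : ∀ P, g.Wo P → g.n ≤ P.length)
    (hnu1 : ∀ u u' : List α, A1 ≤ u.length → A1 ≤ u'.length → u.take A1 = u'.take A1 →
        ((u.drop A1).map φ).prod = ((u'.drop A1).map φ).prod → u.length ≡ u'.length [MOD M0] →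
        nu1 u = nu1 u')
    (hper : ∀ n n', n ≡ n' [MOD M0] → (BadT n ↔ BadT n'))
    {B R : ℕ}
    (free : ∀ u : List α, (∀ t < u.length, ¬ g.Wo (u.take t)) → u ∈ (BddReg_746.PN B R : Language α)) :
    (∀ x y, HL 1 ({X | g.XX X ∧ act x (X.map φ).prod + nuF act φ g.p0 nu1 nu2 X = y} :
      Language α)) ∧
    (∀ x y, HL 1 ({X | (g.XX X ∧ g.BadX BadT X) ∧
      act x (X.map φ).prod + nuF act φ g.p0 nu1 nu2 X = y} : Language α)) ∧
    (∀ s, HL 1 ({w | (∀ X, g.XX X → ¬ X <+: w) ∧ (w.map φ).prod = s} : Language α)) := by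
  set La := g.z + g.N1 + g.p0 + A1 with hLa
  have hXX : ∀ X : List α, g.XX X ↔ P4_933.XX g.Wo g.z X := by
    intro X
    constructor
    · rintro ⟨a, b, d⟩
      exact ⟨b, a, fun t h1 h2 => d t h2 h1⟩
    · rintro ⟨a, b, d⟩
      exact ⟨b, a, fun t h1 h2 => d t h2 h1⟩
  -- locality
  have loc : ∀ q q2 : List α, La ≤ q.length → La ≤ q2.length → q.take La = q2.take La →
      q.length ≡ q2.length [MOD M0] → ((q.drop La).map φ).prod = ((q2.drop La).map φ).prod →
      (∀ i ≤ La, q.take i = q2.take i) ∧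
      (∀ i ≤ La, ((q.drop i).map φ).prod = ((q2.drop i).map φ).prod) := by
    intro q q2 a b h d e
    refine ⟨?_, ?_⟩
    · intro i hi
      have := congrArg (List.take i) h
      rwa [List.take_take, List.take_take, Nat.min_eq_left hi] at this
    · intro i hi
      rw [drop_eq La i hi q a, drop_eq La i hi q2 b, List.map_append, List.map_append,
        List.prod_append, List.prod_append, h, e]
  have hprod : ∀ q q2 : List α, La ≤ q.length → La ≤ q2.length → q.take La = q2.take La →
      q.length ≡ q2.length [MOD M0] → ((q.drop La).map φ).prod = ((q2.drop La).map φ).prod →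
      (q.map φ).prod = (q2.map φ).prod := by
    intro q q2 a b h d e
    simpa using (loc q q2 a b h d e).2 0 (Nat.zero_le _)
  have hnu : ∀ q q2 : List α, La ≤ q.length → La ≤ q2.length → q.take La = q2.take La →
      q.length ≡ q2.length [MOD M0] → ((q.drop La).map φ).prod = ((q2.drop La).map φ).prod →
      nuF act φ g.p0 nu1 nu2 q = nuF act φ g.p0 nu1 nu2 q2 := by
    intro q q2 a b h d e
    obtain ⟨l1, l2⟩ := loc q q2 a b h d e
    unfold nuF
    rw [l1 g.p0 (by omega), l2 g.p0 (by omega)]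
    congr 1
    refine hnu1 _ _ ?_ ?_ ?_ ?_ ?_
    · rw [List.length_drop]; omega
    · rw [List.length_drop]; omega
    · have e1 := congrArg (List.drop g.p0) (l1 (g.p0 + A1) (by omega))
      rw [List.drop_take, List.drop_take] at e1
      simpa using e1
    · rw [List.drop_drop, List.drop_drop]
      exact l2 (g.p0 + A1) (by omega)
    · rw [List.length_drop, List.length_drop]
      have e4 : q.length = g.p0 + (q.length - g.p0) := by omega
      have e5 : q2.length = g.p0 + (q2.length - g.p0) := by omega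
      rw [e4, e5] at d
      exact Nat.ModEq.add_left_cancel' _ d
  have hbad : ∀ q q2 : List α, La ≤ q.length → La ≤ q2.length → q.take La = q2.take La →
      q.length ≡ q2.length [MOD M0] → ((q.drop La).map φ).prod = ((q2.drop La).map φ).prod →
      (g.BadX BadT q → g.BadX BadT q2) := by
    intro q q2 a b h d e hb
    obtain ⟨l1, l2⟩ := loc q q2 a b h d e
    rcases hb with ⟨t, ht, hw, t1, t2⟩ | hb
    · left
      exact ⟨t, by omega, by rw [← l1 t (by omega)]; exact hw, t1, t2⟩
    · right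
      refine (hper _ _ ?_).1 hb
      have e4 : q.length = g.p0 + (q.length - g.p0) := by omega
      have e5 : q2.length = g.p0 + (q2.length - g.p0) := by omega
      rw [e4, e5] at d
      exact Nat.ModEq.add_left_cancel' _ d
  refine ⟨?_, ?_, ?_⟩
  · intro x y
    have hr : Language.IsRegular ({X | act x (X.map φ).prod + nuF act φ g.p0 nu1 nu2 X = y} :
        Language α) := by
      refine Bridge_975.reg_of_local φ La M0 hM0 _ ?_
      intro q q2 a b h d e
      rw [hprod q q2 a b h d e, hnu q q2 a b h d e]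
    refine (P4_933.hl_XX (z := g.z) g.loc hwl free hr).congr fun w => ?_
    exact and_congr (hXX w) Iff.rfl
  · intro x y
    have hr : Language.IsRegular ({X | g.BadX BadT X ∧
        act x (X.map φ).prod + nuF act φ g.p0 nu1 nu2 X = y} : Language α) := by
      refine Bridge_975.reg_of_local φ La M0 hM0 _ ?_
      intro q q2 a b h d e
      rw [hprod q q2 a b h d e, hnu q q2 a b h d e]
      exact and_congr ⟨hbad q q2 a b h d e, hbad q2 q b a h.symm d.symm e.symm⟩ Iff.rfl
    refine (P4_933.hl_XX (z := g.z) g.loc hwl free hr).congr fun w => ?_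
    constructor
    · rintro ⟨⟨k1, k2⟩, k3⟩; exact ⟨(hXX w).1 k1, k2, k3⟩
    · rintro ⟨k1, k2, k3⟩; exact ⟨⟨(hXX w).2 k1, k2⟩, k3⟩
  · intro s
    have hr : Language.IsRegular ({X | (X.map φ).prod = s} : Language α) := by
      refine Bridge_975.reg_of_local φ La M0 hM0 _ ?_
      intro q q2 a b h d e
      rw [hprod q q2 a b h d e]
    refine (P4_933.hl_NB (z := g.z) g.loc hwl free hr).congr fun w => ?_
    refine and_congr ?_ Iff.rfl
    rw [P4_933.NB_iff]
    constructor
    · intro k P hP hPX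
      exact k P ((hXX P).2 hPX) hP
    · intro k X hX hXw
      exact k X hXw ((hXX X).1 hX)

end Crest.Agent.R320.FinB_22
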