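import Crest.Agent.R320.FinA_239

/-! Row 320: the join of Top5_120, Sc2n_937, P4_933 (helper239), part B. -/

set_option autoImplicit false

namespace Crest.Agent.R320.FinB_239

open Crest.Agent.R320.Hk_851 Crest.Agent.R320.FinA_239 Crest.Agent.R320.Sc2n_937

theorem join {α S V : Type} [Finite α] [Monoid S] [Finite S] [AddCommGroup V] [Finite V]
    (act : V → S → V)
    (hadd : ∀ a b s, act (a + b) s = act a s + act b s)
    (hone : ∀ v, act v 1 = v) (hmul : ∀ v s t, act v (s * t) = act (act v s) t)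
    (hfaith : ∀ s t, (∀ v, act v s = act v t) → s = t)
    (φ : α → S) (g : Geo α) (hWlen : ∀ P, g.Wo P → g.n ≤ P.length) {B R : ℕ}
    (free : ∀ u : List α, (∀ t < u.length, ¬ g.Wo (u.take t)) →
      u ∈ (Crest.Agent.R320.BddReg_746.PN B R : Language α))
    (hgap : ∀ P Q : List α, g.Wo P → g.Wo (P ++ Q) → Q ≠ [] → 2 * g.p0 + 2 * g.N1 < Q.length)
    (lam rho : List α → Option V) (nu1 : List α → V)
    (hlam : ∀ P v, lam P = some v → P.length ≤ g.N1)
    (hex1 : ∀ P Q v b, lam P = some v → rho Q = some b →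
      b = act v ((P ++ Q).map φ).prod + nu1 (P ++ Q))
    (BadT : ℕ → Prop)
    (hcomp1 : ∀ Y : List α, g.q0 + g.N1 ≤ Y.length → ¬ BadT Y.length → ∀ v,
      ∃ P Q, Y = P ++ Q ∧ lam P = some v ∧ (rho Q).isSome)
    (A M : ℕ) (hM : 0 < M) (hdet : Det φ A M nu1)
    (hBT : ∀ n n', n % M = n' % M → (BadT n ↔ BadT n'))
    (K C0 : ℕ) (c : ℕ → ℕ) (lam2 rho2 : ℕ → List α → Option V) (nu2 : List α → V)
    (hc : ∀ k, k < K → c k ≤ g.p0)
    (hex2 : ∀ k, k < K → ∀ P Q v u, P.length = c k → Q.length = g.p0 - c k →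
      lam2 k P = some v → rho2 k Q = some u → u = act v ((P ++ Q).map φ).prod + nu2 (P ++ Q))
    (hsp : ∀ k k' l l', k < K → k' < K → l < K → l' < K → k' ≠ k → l' ≠ l →
      c k + c l' < c l + c k' + 2 * g.N1 → c l + c k' < c k + c l' + 2 * g.N1 → k = l)
    (hthin : ∀ τ, g.z ≤ τ + g.p0 → ∀ J : Finset ℕ, (∀ k ∈ J, k < K ∧
      ∃ k', k' < K ∧ k' ≠ k ∧ BadT (τ + c k' - c k - g.p0)) → J.card ≤ C0)
    (hI : ∀ (u : List α) (v : V), u.length = g.p0 → ∃ I : Finset ℕ, 2 * C0 + 2 ≤ I.card ∧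
      ∀ k ∈ I, k < K ∧ lam2 k (u.take (c k)) = some v ∧ (rho2 k (u.drop (c k))).isSome)
    (s : S) : HL 3 ({w | (w.map φ).prod = s} : Language α) := by
  classical
  let pre : List α → V → V := fun X v => act v (X.map φ).prod + nu2 X
  let post : V → List α → V := fun v Y => act v (Y.map φ).prod + nu1 Y
  let nuT : List α → V := fun X => act (nu2 (X.take g.p0)) ((X.drop g.p0).map φ).prod +
    nu1 (X.drop g.p0)
  have hT : ∀ v X, g.T pre post v X = act v (X.map φ).prod + nuT X := by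
    intro v X
    show act (act v ((X.take g.p0).map φ).prod + nu2 (X.take g.p0)) ((X.drop g.p0).map φ).prod +
      nu1 (X.drop g.p0) = act v (X.map φ).prod + (act (nu2 (X.take g.p0))
        ((X.drop g.p0).map φ).prod + nu1 (X.drop g.p0))
    rw [hadd, ← hmul, ← List.prod_append, ← List.map_append, List.take_append_drop, add_assoc]
  have hz := g.hz
  have hq := g.hq
  have hN := g.hN
  let C : Set (List α) := {X | g.XX X}
  let Bad : Set (List α) := {X | g.XX X ∧ g.BadX BadT X}
  have hC : Blk467.PCode C := by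
    refine ⟨?_, ?_⟩
    · intro h
      have h1 : g.z ≤ ([] : List α).length := h.1
      rw [List.length_nil] at h1
      omega
    · rintro X hX Y hY ⟨R', e⟩
      exact g.prefix_code (R := R') (R' := []) hX hY (by rw [e, List.append_nil])
  -- determinacy of the whole noise
  have hnuT : Det φ (g.p0 + A) M nuT := by
    have d1 : Det φ g.p0 M (fun X : List α => nu2 (X.take g.p0)) := Det.of_take g.p0 nu2
    have d2 : Det φ (g.p0 + 0) M (fun X : List α => ((X.drop g.p0).map φ).prod) :=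
      (Det.prod φ 0 M).drop g.p0
    have d3 : Det φ (g.p0 + A) M (fun X : List α => nu1 (X.drop g.p0)) := hdet.drop g.p0
    have d1' := d1.mono (A' := g.p0 + A) (by omega)
    have d2' := d2.mono (A' := g.p0 + A) (by omega)
    have d4 := d1'.comp2 d2' (fun a b => act a b)
    exact d4.comp2 d3 (fun a b => a + b)
  set A2 : ℕ := g.p0 + A + (g.z + g.N1) with hA2
  have hval : ∀ x y, Det φ A2 M (fun X : List α => act x (X.map φ).prod + nuT X = y) := by
    intro x y
    have d1 := Det.prod φ A2 M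
    have d2 := hnuT.mono (A' := A2) (by omega)
    exact d1.comp2 d2 (fun a b => act x a + b = y)
  have hE : Det φ A2 M (fun X : List α => g.E X) := by
    intro u u' h1 h2 h3 _ _
    have key : ∀ u u' : List α, A2 ≤ u.length → A2 ≤ u'.length → u.take A2 = u'.take A2 →
        g.E u → g.E u' := by
      rintro u u' h1 h2 h3 ⟨t, ht, hw, h5, h6⟩
      refine ⟨t, by omega, ?_, h5, h6⟩
      have : u.take t = u'.take t := by
        have := congrArg (fun l => l.take t) h3
        simpa [List.take_take, Nat.min_eq_left (show t ≤ A2 by omega)] using this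
      rwa [this] at hw
    exact propext ⟨key u u' h1 h2 h3, key u' u h2 h1 h3.symm⟩
  have hBTd : Det φ A2 M (fun X : List α => BadT (X.length - g.p0)) := by
    refine Det.len φ A2 M (fun n => BadT (n - g.p0)) ?_
    intro n n' h1 h2 h3
    exact propext (hBT _ _ (sub_mod_congr (by omega) (by omega) h3))
  have hBX : Det φ A2 M (fun X : List α => g.BadX BadT X) := hE.comp2 hBTd (fun a b => a ∨ b)
  have hxx : ∀ X : List α, g.XX X ↔ P4_933.XX g.Wo g.z X := by
    intro X
    constructor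
    · rintro ⟨h1, h2, h3⟩
      exact ⟨h2, h1, fun t h4 h5 => h3 t h5 h4⟩
    · rintro ⟨h1, h2, h3⟩
      exact ⟨h2, h1, fun t h4 h5 => h3 t h5 h4⟩
  refine Top5_120.top5 act hadd hone hmul hfaith φ nuT C Bad hC (fun X hX => hX.1)
    (fun v => {P | g.LP1 pre lam v P}) (fun v => {P | Geo.LP2 K c lam2 v P}) ?_ ?_ ?_ ?_ ?_ ?_ ?_ s
  · intro v
    refine (List.finite_length_le α (g.p0 + g.N1)).subset ?_
    rintro P ⟨h1, h2⟩
    have := hlam _ _ h2
    rw [List.length_drop] at this
    show P.length ≤ g.p0 + g.N1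
    omega
  · intro v
    refine (List.finite_length_le α g.p0).subset ?_
    rintro P ⟨k, hk, h1, h2⟩
    show P.length ≤ g.p0
    rw [h1]; exact hc k hk
  · intro x y
    refine (P4_933.hl_XX (z := g.z) g.loc hWlen free (f := fun X =>
      act x (X.map φ).prod + nuT X = y) (reg_class φ A2 M hM _ (hval x y))).congr fun X => ?_
    exact and_congr (hxx X) Iff.rfl
  · intro x y
    refine (P4_933.hl_XX (z := g.z) g.loc hWlen free (f := fun X =>
      g.BadX BadT X ∧ act x (X.map φ).prod + nuT X = y)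
      (reg_class φ A2 M hM _ (hBX.comp2 (hval x y) (fun a b => a ∧ b)))).congr fun X => ?_
    constructor
    · rintro ⟨⟨h1, h2⟩, h3⟩
      exact ⟨(hxx X).1 h1, h2, h3⟩
    · rintro ⟨h1, h2, h3⟩
      exact ⟨⟨(hxx X).2 h1, h2⟩, h3⟩
  · intro s
    refine (P4_933.hl_NB (z := g.z) g.loc hWlen free (f := fun X => (X.map φ).prod = s)
      (reg_class φ A2 M hM _ ?_)).congr fun X => ?_
    · intro u u' h1 h2 h3 h4 h5
      have := Det.prod φ A2 M u u' h1 h2 h3 h4 h5
      show ((u.map φ).prod = s) = ((u'.map φ).prod = s)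
      rw [show (u.map φ).prod = (u'.map φ).prod from this]
    · constructor
      · rintro ⟨h1, h2⟩
        refine ⟨(P4_933.NB_iff g.Wo g.z X).2 fun P hP h => h1 P ((hxx P).2 h) hP, h2⟩
      · rintro ⟨h1, h2⟩
        exact ⟨fun P hP hPX => (P4_933.NB_iff g.Wo g.z X).1 h1 P hPX ((hxx P).1 hP), h2⟩
  · -- scheme 1
    intro X hX hnb v
    have hXx : g.XX X := hX
    have hnb' : ¬ g.BadX BadT X := fun h => hnb ⟨hX, h⟩
    have hnE : ¬ g.E X := fun h => hnb' (Or.inl h)
    have hlen : g.z + g.N1 ≤ X.length := by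
      by_contra hlt
      exact hnE ⟨X.length, le_rfl, by rw [List.take_length]; exact hXx.2.1,
        by have := hXx.1; omega, by omega⟩
    obtain ⟨P, Q, b, e, hP, hQ⟩ := g.complete1 pre (lam := lam) (rho := rho) hlam hXx hnE
      (fun u => by
        obtain ⟨P, Q, h1, h2, h3⟩ := hcomp1 (X.drop g.p0) (by rw [List.length_drop]; omega)
          (by rw [List.length_drop]; exact fun h => hnb' (Or.inr h)) u
        exact ⟨P, Q, h1, h2, h3⟩) v
    have hs1 : ∀ x P', g.LP1 pre lam x P' → g.XX (P' ++ Q) ∧ g.T pre post x (P' ++ Q) = b :=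
      fun x P' hP' => g.sound1 pre post hlam
        (fun P Q u b h1 h2 => hex1 P Q u b h1 h2) hP' hQ
    refine ⟨P, Q, e.symm, hP, ?_⟩
    intro x P' hP'
    obtain ⟨h1, h2⟩ := hs1 x P' hP'
    obtain ⟨h3, h4⟩ := hs1 v P hP
    refine ⟨h1, ?_⟩
    rw [← hT, ← hT, h2, e, h4]
  · -- scheme 2
    rintro X ⟨hX, hXb⟩ Y ⟨hY, hYb⟩ v
    obtain ⟨P, Q, b, e, hP, hQ⟩ := g.complete2 pre post (BadT := BadT) (K := K) (c := c)
      (lam2 := lam2) (rho2 := rho2) (C0 := C0) hc hgap hsp hthin hX hY v (by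
        have hXl : g.p0 ≤ X.length := by have := hX.1; omega
        obtain ⟨I, h1, h2⟩ := hI (X.take g.p0) v (by rw [List.length_take]; omega)
        refine ⟨I, h1, fun k hk => ?_⟩
        obtain ⟨h3, h4, h5⟩ := h2 k hk
        refine ⟨h3, ?_, h5⟩
        rw [List.take_take, Nat.min_eq_left (hc k h3)] at h4
        exact h4)
    have hex2' : ∀ k, k < K → ∀ P Q v u, P.length = c k → Q.length = g.p0 - c k →
        lam2 k P = some v → rho2 k Q = some u → u = pre (P ++ Q) v :=
      fun k hk P Q v u h1 h2 h3 h4 => hex2 k hk P Q v u h1 h2 h3 h4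
    have hs2 := fun (x : V) (X' P' R R' : List α) (h1 : g.XX X') (h2 : g.BadX BadT X')
      (h3 : Geo.LP2 K c lam2 x P') (h4 : P' ++ Q ++ R = X' ++ R') =>
      g.sound2 pre post (BadT := BadT) (K := K) (c := c) (lam2 := lam2) (rho2 := rho2) hc hex2'
        h1 h2 h3 hQ h4
    refine ⟨P, Q, e, hP, ?_⟩
    intro x P' hP'
    have hval0 : g.T pre post (g.T pre post v X) Y = b := by
      obtain ⟨X2, h1, h2, h3⟩ := hs2 v X P [] Y hX hXb hP (by rw [List.append_nil, e])
      have : X2 = Y := by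
        rw [e] at h2
        exact (List.append_cancel_left h2).symm
      rw [this] at h3; exact h3
    -- the first block of P' ++ Q
    have hP'0 := hP'
    obtain ⟨k', hk', hl', hlam'⟩ := hP'
    have hend : ∃ l, g.CEnd Q P'.length l := by
      obtain ⟨k, hk, l, h1, h2, -⟩ := hQ
      by_cases hkk : k' = k
      · subst hkk
        exact ⟨l, by rw [hl']; exact h1⟩
      · obtain ⟨l', h3, -⟩ := h2 k' hk' hkk
        exact ⟨l', by rw [hl']; exact h3⟩
    obtain ⟨l, hl⟩ := hend
    have hXX : g.XX (P' ++ Q.take l) := g.xx_of_cend (by rw [hl']; exact hc k' hk') hl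
    have epre : P' ++ Q = (P' ++ Q.take l) ++ Q.drop l := by
      rw [List.append_assoc, List.take_append_drop]
    by_cases hb : g.BadX BadT (P' ++ Q.take l)
    · left
      obtain ⟨X2, h1, h2, h3⟩ := hs2 x _ P' [] (Q.drop l) hXX hb hP'0
        (by rw [List.append_nil, epre])
      refine ⟨P' ++ Q.take l, ⟨hXX, hb⟩, X2, h1, h2.symm, ?_⟩
      rw [← hT, ← hT, ← hT, ← hT, h3, hval0]
    · right
      exact ⟨P' ++ Q.take l, hXX, fun h => hb h.2, ⟨Q.drop l, epre.symm⟩⟩

end Crest.Agent.R320.FinB_239
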