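import Crest.Agent.R320.Hk2_851

/-!
# Row 320: universe and alphabet change (helper234)

It is enough to treat the alphabets `Fin n` (in `Type`) and finite monoids in `Type`.
-/

set_option autoImplicit false

namespace Crest.Agent.R320.Univ_234

open Crest.RegLang Crest.Agent.R320.Hk_851

universe u v

variable {α : Type u} {β : Type v} {k : ℕ}

/-- renaming of letters -/
def mapE (f : α → β) : GRegExp α → GRegExp β
  | .zero => .zero
  | .eps => .eps
  | .char a => .char (f a)
  | .union P Q => .union (mapE f P) (mapE f Q)
  | .cat P Q => .cat (mapE f P) (mapE f Q)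
  | .not P => .not (mapE f P)
  | .star P => .star (mapE f P)

theorem height_mapE (f : α → β) : ∀ e : GRegExp α, (mapE f e).height = e.height
  | .zero => rfl
  | .eps => rfl
  | .char _ => rfl
  | .union P Q => by
    show max (mapE f P).height (mapE f Q).height = max P.height Q.height
    rw [height_mapE f P, height_mapE f Q]
  | .cat P Q => by
    show max (mapE f P).height (mapE f Q).height = max P.height Q.height
    rw [height_mapE f P, height_mapE f Q]
  | .not P => height_mapE f P
  | .star P => by
    show (mapE f P).height + 1 = P.height + 1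
    rw [height_mapE f P]

theorem lang_mapE (f : α ≃ β) : ∀ (e : GRegExp α) (w : List β),
    w ∈ (mapE f e).lang ↔ w.map f.symm ∈ e.lang
  | .zero, w => ⟨fun h => h.elim, fun h => h.elim⟩
  | .eps, w => by
    show w = [] ↔ w.map f.symm = []
    simp
  | .char a, w => by
    show w = [f a] ↔ w.map f.symm = [a]
    constructor
    · rintro rfl; simp
    · intro h
      have := congrArg (List.map f) h
      simpa using this
  | .union P Q, w => by
    have h1 := lang_mapE f P w
    have h2 := lang_mapE f Q w
    exact or_congr h1 h2
  | .cat P Q, w => by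
    constructor
    · intro hw
      obtain ⟨x, hx, y, hy, rfl⟩ := Language.mem_mul.1 hw
      exact Language.mem_mul.2 ⟨x.map f.symm, (lang_mapE f P x).1 hx, y.map f.symm,
        (lang_mapE f Q y).1 hy, by simp⟩
    · intro hw
      obtain ⟨x, hx, y, hy, hxy⟩ := Language.mem_mul.1 hw
      have e : w = x.map f ++ y.map f := by
        have := congrArg (List.map f) hxy
        simpa using this.symm
      refine Language.mem_mul.2 ⟨x.map f, (lang_mapE f P _).2 (by simpa using hx), y.map f,
        (lang_mapE f Q _).2 (by simpa using hy), e.symm⟩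
  | .not P, w => not_congr (lang_mapE f P w)
  | .star P, w => by
    constructor
    · intro hw
      obtain ⟨S, rfl, hS⟩ := Language.mem_kstar.1 (show w ∈ KStar.kstar (mapE f P).lang from hw)
      refine (Language.mem_kstar.2 ⟨S.map (List.map f.symm), List.map_flatten, ?_⟩ :
        S.flatten.map f.symm ∈ KStar.kstar P.lang)
      intro y hy
      obtain ⟨x, hx, rfl⟩ := List.mem_map.1 hy
      exact (lang_mapE f P x).1 (hS x hx)
    · intro hw
      obtain ⟨S, hS0, hS⟩ := Language.mem_kstar.1
        (show w.map f.symm ∈ KStar.kstar P.lang from hw)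
      have e : w = (S.map (List.map f)).flatten := by
        have := congrArg (List.map f) hS0
        rw [List.map_flatten] at this
        simpa using this
      refine (Language.mem_kstar.2 ⟨S.map (List.map f), e, ?_⟩ :
        w ∈ KStar.kstar (mapE f P).lang)
      intro y hy
      obtain ⟨x, hx, rfl⟩ := List.mem_map.1 hy
      exact (lang_mapE f P _).2 (by simpa using hS x hx)

/-- renaming letters keeps the height -/
theorem HL.rename (f : α ≃ β) {L : Language α} (hL : HL k L) :
    HL k ({w : List β | w.map f.symm ∈ L} : Language β) := by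
  obtain ⟨e, h1, rfl⟩ := hL
  exact ⟨mapE f e, by rw [height_mapE]; exact h1, by ext w; exact lang_mapE f e w⟩

theorem regular_rename (f : α → β) {L : Language β} (hL : L.IsRegular) :
    Language.IsRegular ({w : List α | w.map f ∈ L} : Language α) := by
  obtain ⟨σ, hσ, M, rfl⟩ := hL
  exact ⟨σ, hσ, M.comap f, by rw [DFA.accepts_comap]; rfl⟩

/-- **Change of universe**: alphabets `Fin n` are enough. -/
theorem of_fin (h : ∀ (n : ℕ) (L : Language (Fin n)), L.IsRegular → HL k L)
    {α : Type u} [Finite α] (L : Language α) (hL : L.IsRegular) : HL k L := by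
  obtain ⟨n, ⟨e⟩⟩ := Finite.exists_equiv_fin α
  have h1 := h n _ (regular_rename e.symm hL)
  have h2 := HL.rename e.symm h1
  refine h2.congr fun w => ?_
  show w ∈ L ↔ (w.map e.symm.symm).map e.symm ∈ L
  simp

/-- **Top**: alphabets `Fin n` and finite monoids in `Type` are enough. -/
theorem of_fin_monoid
    (h : ∀ (n : ℕ) (S : Type) [Monoid S] [Finite S] (φ : Fin n → S) (s : S),
      HL k ({w | (w.map φ).prod = s} : Language (Fin n)))
    {α : Type u} [Finite α] (L : Language α) (hL : L.IsRegular) :
    ∃ e : GRegExp α, e.height ≤ k ∧ e.lang = L :=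
  of_fin (fun n L hL => of_monoid (fun S _ _ φ s => h n S φ s) L hL) L hL

/-- the same for all alphabets in `Type` -/
theorem of_type_monoid
    (h : ∀ (A : Type) [Finite A] (S : Type) [Monoid S] [Finite S] (φ : A → S) (s : S),
      HL k ({w | (w.map φ).prod = s} : Language A))
    {α : Type u} [Finite α] (L : Language α) (hL : L.IsRegular) :
    ∃ e : GRegExp α, e.height ≤ k ∧ e.lang = L :=
  of_fin_monoid (fun n S _ _ φ s => h (Fin n) S φ s) L hL

end Crest.Agent.R320.Univ_234
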