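import Crest.Agent.R320.FinA_282
import Crest.Agent.R320.GridG_19
import Crest.Agent.R320.Thin_963
import Crest.Agent.R320.ExactR_237
import Crest.Agent.R320.LWallAll_922
import Crest.Agent.R320.P4_933
import Crest.Agent.R320.Loc_645
import Crest.Agent.R320.Univ_234

/-!
# Row 320: the last join, constants (helper282)
-/

set_option autoImplicit false

open Crest.RegLang Crest.Agent.R320.Hk_851 Crest.Agent.R320.Blk467

namespace Crest.Agent.R320.FinB_282

section reads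

variable {α S : Type} [Monoid S] {f : α → S}

theorem read {A p e : ℕ} (hA : p + e ≤ A) {q q' : List α} (h1 : A ≤ q.length)
    (h2 : A ≤ q'.length) (h : q.take A = q'.take A)
    (hp : ((q.drop A).map f).prod = ((q'.drop A).map f).prod) :
    q.take p = q'.take p ∧ (q.drop p).take e = (q'.drop p).take e ∧
      ((q.drop p).map f).prod = ((q'.drop p).map f).prod ∧
      (q.map f).prod = (q'.map f).prod := by
  have t : ∀ b ≤ A, q.take b = q'.take b := by
    intro b hb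
    have := congrArg (List.take b) h
    rwa [List.take_take, List.take_take, min_eq_left hb] at this
  have d : ∀ w : List α, A ≤ w.length → w.drop p = (w.take A).drop p ++ w.drop A := by
    intro w hw
    conv_lhs => rw [← List.take_append_drop A w]
    rw [List.drop_append_of_le_length (by rw [List.length_take]; omega)]
  refine ⟨t p (by omega), ?_, ?_, ?_⟩
  · have := congrArg (List.drop p) (t (p + e) hA)
    rw [List.drop_take, List.drop_take] at this
    simpa using this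
  · rw [d q h1, d q' h2, List.map_append, List.map_append, List.prod_append, List.prod_append,
      h, hp]
  · conv_lhs => rw [← List.take_append_drop A q]
    conv_rhs => rw [← List.take_append_drop A q']
    rw [List.map_append, List.map_append, List.prod_append, List.prod_append, h, hp]

end reads

theorem mod_read {a b d x y : ℕ} (h : x ≡ y [MOD d]) (ha : a ≤ x) (hb : a ≤ y) (hd : b ∣ d) :
    (x - a) % b = (y - a) % b := by
  have h1 : x ≡ y [MOD b] := h.of_dvd hd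
  have h2 : (x - a) + a ≡ (y - a) + a [MOD b] := by
    rw [Nat.sub_add_cancel ha, Nat.sub_add_cancel hb]; exact h1
  exact Nat.ModEq.add_right_cancel' a h2

theorem sum_G (κ : ℕ) (hκ : 1 ≤ κ) (i : ℕ) :
    ∑ j ∈ Finset.range (i + 1), 2 ^ (κ * j) ≤ 2 * 2 ^ (κ * i) := by
  induction i with
  | zero => simp
  | succ i ih =>
    rw [Finset.sum_range_succ]
    have h1 : 2 * 2 ^ (κ * i) ≤ 2 ^ (κ * (i + 1)) := by
      rw [← pow_succ']
      exact Nat.pow_le_pow_right (by norm_num) (by nlinarith)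
    omega

theorem grow (K M κ : ℕ) (hκ : K + 5 + M ≤ κ) (i : ℕ) :
    2 ^ (K + 4) * ∑ j ∈ Finset.range (i + 1), M * 2 ^ (κ * j) ≤ 2 ^ (κ * (i + 1)) := by
  rw [← Finset.mul_sum]
  have h1 := sum_G κ (by omega) i
  have h2 : M ≤ 2 ^ M := Nat.lt_two_pow_self.le
  calc 2 ^ (K + 4) * (M * ∑ j ∈ Finset.range (i + 1), 2 ^ (κ * j))
      ≤ 2 ^ (K + 4) * (2 ^ M * (2 * 2 ^ (κ * i))) :=
        Nat.mul_le_mul_left _ (Nat.mul_le_mul h2 h1)
    _ = 2 ^ (K + 5 + M + κ * i) := by ring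
    _ ≤ 2 ^ (κ * (i + 1)) := Nat.pow_le_pow_right (by norm_num) (by nlinarith)

open Crest.Agent.R320.Sc2n_937 Crest.Agent.R320.GridG_19 in
/-- **the row, fibre form.** -/
theorem fin (α : Type) [Finite α] (S : Type) [Monoid S] [Finite S] (f : α → S) (s : S) :
    HL 3 ({w | (w.map f).prod = s} : Language α) := by
  classical
  haveI := Fintype.ofFinite S
  obtain ⟨act, hadd, hone, hmul, hfaith⟩ := exists_module S
  obtain ⟨m, r, H1⟩ := Crest.Agent.R320.GridG_19.grid S (S → ZMod 2) act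
  obtain ⟨K, H2⟩ := Crest.Agent.R320.ExactR_237.exact_gadget α S (S → ZMod 2) f act
    (2 * (r + m) + 2)
  obtain ⟨Ms, hcard, hpr, H3⟩ := H1 (2 ^ (K + 1))
  obtain ⟨M, hM⟩ : ∃ M, M = ∏ q ∈ Ms, q := ⟨_, rfl⟩
  rw [← hM] at H3
  have hM0 : 0 < M := by
    rw [hM]; exact Finset.prod_pos fun q hq => (hpr q hq).1.pos
  have hMd : ∀ q ∈ Ms, q ∣ M := fun q hq => by rw [hM]; exact Finset.dvd_prod_of_mem _ hq
  obtain ⟨κ, hκ⟩ : ∃ κ, κ = K + 5 + M := ⟨_, rfl⟩
  obtain ⟨G, hG⟩ : ∃ G : ℕ → ℕ, G = fun i => 2 ^ (κ * i) := ⟨_, rfl⟩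
  have hGi : ∀ i, G i = 2 ^ (κ * i) := fun i => by rw [hG]
  have hG0 : ∀ k, 0 < G k := fun k => by rw [hGi]; positivity
  have hGd : ∀ a b, a ≤ b → G a ∣ G b := fun a b h => by
    rw [hGi, hGi]; exact pow_dvd_pow _ (Nat.mul_le_mul_left _ h)
  have hodd : ∀ q ∈ Ms, Nat.Coprime q 2 := by
    intro q hq
    obtain ⟨h1, h2⟩ := hpr q hq
    rw [Nat.coprime_primes h1 Nat.prime_two]
    have : 2 ^ 1 ≤ 2 ^ (K + 1) := Nat.pow_le_pow_right (by norm_num) (by omega)
    omega
  have hqG : ∀ q ∈ Ms, ∀ k, Nat.Coprime q (G k) := fun q hq k => by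
    rw [hGi]; exact Nat.Coprime.pow_right _ (hodd q hq)
  have hcopM : ∀ k, Nat.Coprime M (G k) := fun k => by
    rw [hM]; exact Nat.Coprime.prod_left fun q hq => hqG q hq k
  obtain ⟨lam, rho, nu1, g1, g2, g3, g4, g5⟩ := H3 G 0 hG0 hGd hcopM α
    (fun u => (u.map f).prod) (fun u v => by simp)
  obtain ⟨AM, hAM⟩ : ∃ AM, AM = Am G M 0 m := ⟨_, rfl⟩
  obtain ⟨AC, hAC⟩ : ∃ AC, AC = Ac G M 0 m := ⟨_, rfl⟩
  rw [← hAM] at g2 g3 g4
  rw [← hAC] at g5
  have hAmm : ∀ k ≤ m, Am G M 0 k ≤ AM := fun k hk => by rw [hAM]; exact Am_mono G M 0 hk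
  -- the ruler
  obtain ⟨X, hX0, hXpos, hXthin⟩ := Crest.Agent.R320.Thin963.thin K m Ms (fun i => (G i : ℤ))
    (fun i => ((M * G i : ℕ) : ℤ)) (fun i => (Am G M 0 i : ℤ))
    (fun q hq => ⟨(hpr q hq).1, (hpr q hq).2.le⟩)
    (fun q hq => Nat.isCoprime_iff_coprime.2 (hqG q hq m)) (by exact_mod_cast hG0 m)
    (fun i j h => by exact_mod_cast hGd i j h)
    (fun i => by exact_mod_cast Nat.mul_pos hM0 (hG0 i))
    (fun i => by exact_mod_cast Dvd.intro_left M rfl)
    (fun i _ => by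
      have := grow K M κ (by omega) i
      simp only [hGi]
      exact_mod_cast this)
    ((2 * (AM + 1) + 1 : ℕ) : ℤ)
  obtain ⟨x, rfl⟩ : ∃ x : ℕ, X = (x : ℤ) := ⟨X.toNat, (Int.toNat_of_nonneg hXpos.le).symm⟩
  have hx0 : 2 * (AM + 1) + 1 ≤ x := by exact_mod_cast hX0
  obtain ⟨c, hc⟩ : ∃ c : ℕ → ℕ, c = fun k => x * 2 ^ k := ⟨_, rfl⟩
  have hck : ∀ k, c k = x * 2 ^ k := fun k => by rw [hc]
  have hcZ : ∀ k, (c k : ℤ) = (x : ℤ) * 2 ^ k := fun k => by rw [hck]; push_cast; ring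
  obtain ⟨p0, hp0⟩ : ∃ p0, p0 = x * 2 ^ K := ⟨_, rfl⟩
  have hcp : ∀ k, k < K → c k ≤ p0 := fun k hk => by
    rw [hck, hp0]; exact Nat.mul_le_mul_left _ (Nat.pow_le_pow_right (by norm_num) hk.le)
  have hcmono : ∀ i j, i < j → c i < c j := fun i j h => by
    rw [hck, hck]
    exact Nat.mul_lt_mul_of_pos_left (Nat.pow_lt_pow_right (by norm_num) h) (by omega)
  obtain ⟨lam2, rho2, nu2, e1, e2⟩ := H2 c (fun i j h _ => hcmono i j h)
  -- the walls
  obtain ⟨n, GG, B, Wo, hLW, hgap, -, -, hfree⟩ :=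
    Crest.Agent.R320.LWallAll_922.walls_all_left α (2 * p0 + 2 * (AM + 1)) (by omega)
  obtain ⟨q0, hq0⟩ : ∃ q0, q0 = n + 2 * p0 + 2 * AM + M := ⟨_, rfl⟩
  obtain ⟨z, hz⟩ : ∃ z, z = p0 + (AM + 1) + q0 := ⟨_, rfl⟩
  let g : Geo α := ⟨Wo, n, z, p0, q0, AM + 1, hLW.app, hz, by omega, by omega, by omega⟩
  let BadT : ℕ → Prop := fun t => (∃ q ∈ Ms, q ∣ t) ∨ BadG G M 0 m t
  let nu : List α → (S → ZMod 2) := fun Y =>
    act (nu2 (Y.take p0) 1) ((Y.drop p0).map f).prod + nu1 (Y.drop p0)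
  have free : ∀ u : List α, (∀ t < u.length, ¬ Wo (u.take t)) →
      u ∈ (Crest.Agent.R320.BddReg_746.PN (B + (2 * p0 + 2 * (AM + 1))) 2 : Language α) := by
    intro u hu
    obtain ⟨a, y, b, k, h1, h2, h3, h4⟩ := hfree u hu
    refine Language.mem_mul.2 ⟨a ++ (List.replicate k y).flatten, ⟨a, y, k, by omega, by omega, ?_⟩,
      b, Language.mem_mul.2 ⟨b, ⟨b, [], 0, by omega, by simp, ?_⟩, [], rfl, by simp⟩, h4.symm⟩
    · rfl
    · simp [Crest.Agent.R320.BddReg_746.pw]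
  -- reading
  have hAMC : AM ≤ AC := by rw [hAM, hAC]; exact Nat.le_add_right _ _
  have hread : ∀ (P : List α → Prop),
      (∀ q q' : List α, p0 + AC + z + (AM + 1) ≤ q.length → p0 + AC + z + (AM + 1) ≤ q'.length →
        (∀ t ≤ p0 + AC + z + (AM + 1), q.take t = q'.take t) → (q.map f).prod = (q'.map f).prod →
        nu q = nu q' → (q.length - p0) ≡ (q'.length - p0) [MOD M * G m] →
        P q → P q') →
      Language.IsRegular ({q | P q} : Language α) := by
    intro P hP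
    refine Crest.Agent.R320.Loc_645.isRegular_of_read' f (p0 + AC + z + (AM + 1)) (M * G m)
      (Nat.mul_pos hM0 (hG0 m)) P ?_
    intro q q' h1 h2 h3 h4 h5 h6
    obtain ⟨r1, r2, r3, r4⟩ := read (f := f) (p := p0) (e := AC) (by omega) h1 h2 h3 h4
    have hmod : (q.length - p0) ≡ (q'.length - p0) [MOD M * G m] :=
      mod_read (d := M * G m) h5 (by omega) (by omega) dvd_rfl
    refine hP q q' h1 h2 ?_ r4 ?_ hmod h6
    · intro t ht
      have := congrArg (List.take t) h3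
      rwa [List.take_take, List.take_take, min_eq_left ht] at this
    · show act (nu2 (q.take p0) 1) ((q.drop p0).map f).prod + nu1 (q.drop p0) =
        act (nu2 (q'.take p0) 1) ((q'.drop p0).map f).prod + nu1 (q'.drop p0)
      rw [r1, r3, g5 (q.drop p0) (q'.drop p0) (by rw [List.length_drop]; omega)
        (by rw [List.length_drop]; omega) r2 (by rw [List.length_drop, List.length_drop]; exact hmod)
        r3]
  have hBadT : ∀ t t' : ℕ, AM ≤ t → AM ≤ t' → t ≡ t' [MOD M * G m] → BadT t → BadT t' := by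
    intro t t' h1 h2 h3 h4
    rcases h4 with ⟨q, hq, h4⟩ | ⟨k, hk, h4⟩
    · left
      exact ⟨q, hq, ((h3.of_dvd ((hMd q hq).trans (Dvd.intro _ rfl))).dvd_iff dvd_rfl).1 h4⟩
    · right
      have h5 := hAmm (k + 1) hk
      have h6 : (t - Am G M 0 (k + 1)) % G (k + 1) = (t' - Am G M 0 (k + 1)) % G (k + 1) :=
        mod_read h3 (by omega) (by omega) ((hGd (k + 1) m hk).trans (Dvd.intro_left _ rfl))
      rw [h6] at h4
      exact ⟨k, hk, h4⟩
  refine Crest.Agent.R320.FinA_282.partA act hadd hone hmul hfaith f g lam rho nu1 BadT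
    (fun P v h => (g2 P v h).2.le.trans (Nat.le_succ _)) g1 ?_ K (r + m) c lam2
    (fun k Q => rho2 k Q 1) (fun u => nu2 u 1) hcp ?_ ?_ ?_ ?_ ?_ nu (fun _ => rfl) ?_ ?_ ?_ s
  · -- completeness of scheme 1
    intro Y hY hb v
    have hY' : q0 + (AM + 1) ≤ Y.length := hY
    obtain ⟨P, Q, h1, h2, h3⟩ := g4 Y (by omega) (by omega) (fun q hq hd => hb (Or.inl ⟨q, hq, hd⟩))
      (fun h => hb (Or.inr h)) v
    exact ⟨P, Q, h1.symm, h2, h3⟩
  · intro k hk P Q v b h1 _ h3 h4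
    have := e1 k hk P Q 1 v b h1 h3 h4
    rw [mul_one] at this
    exact this
  · intro u hu v
    exact e2 u 1 v (fun k hk => by rw [hu]; exact hcp k hk)
  · intro P Q h1 h2 h3
    have h4 := hgap (P ++ Q) P.length (P ++ Q).length
      (by rw [List.length_append]; have := List.length_pos_iff.2 h3; omega) le_rfl
      (by rw [List.take_left]; exact h1) (by rw [List.take_length]; exact h2)
    rw [List.length_append] at h4
    show 2 * p0 + 2 * (AM + 1) < Q.length
    omega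
  · -- Golomb
    intro k k' l l' _ _ _ _ hne hne' h1 h2
    have h1' : c k + c l' < c l + c k' + 2 * (AM + 1) := h1
    have h2' : c l + c k' < c k + c l' + 2 * (AM + 1) := h2
    have hz1 : (x : ℤ) * ((2 ^ k - 2 ^ k') - (2 ^ l - 2 ^ l')) < x := by
      have e1 := hcZ k; have e2 := hcZ k'; have e3 := hcZ l; have e4 := hcZ l'
      have : (x : ℤ) * ((2 ^ k - 2 ^ k') - (2 ^ l - 2 ^ l')) = c k - c k' - (c l - c l') := by
        rw [e1, e2, e3, e4]; ring
      rw [this]; omega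
    have hz2 : -(x : ℤ) < (x : ℤ) * ((2 ^ k - 2 ^ k') - (2 ^ l - 2 ^ l')) := by
      have e1 := hcZ k; have e2 := hcZ k'; have e3 := hcZ l; have e4 := hcZ l'
      have : (x : ℤ) * ((2 ^ k - 2 ^ k') - (2 ^ l - 2 ^ l')) = c k - c k' - (c l - c l') := by
        rw [e1, e2, e3, e4]; ring
      rw [this]; omega
    have hxp : (0 : ℤ) < x := hXpos
    have h3 : ((2 : ℤ) ^ k - 2 ^ k') - (2 ^ l - 2 ^ l') < 1 := by
      by_contra hcon
      push Not at hcon
      nlinarith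
    have h4 : -1 < ((2 : ℤ) ^ k - 2 ^ k') - (2 ^ l - 2 ^ l') := by
      by_contra hcon
      push Not at hcon
      nlinarith
    exact (Crest.Agent.R320.G369.pow_diff (i := k) (j := k') (i' := l) (j' := l')
      hne.symm hne'.symm (by omega)).1
  · -- thinness
    intro τ hτ J hJ
    have hτ' : z ≤ τ + p0 := hτ
    have h0 := hXthin ((τ : ℤ) - p0)
    refine le_trans ?_ (h0.trans (Nat.add_le_add_right hcard m))
    refine le_trans (Finset.card_le_card (s := J) (t := Finset.image Prod.snd _) ?_)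
      Finset.card_image_le
    intro k hk
    obtain ⟨hkK, k', hk'K, hne, hb⟩ := hJ k hk
    rw [Finset.mem_image]
    refine ⟨(k', k), ?_, rfl⟩
    rw [Finset.mem_filter, Finset.mem_product, Finset.mem_range, Finset.mem_range]
    refine ⟨⟨hk'K, hkK⟩, hne, ?_⟩
    have hb' : BadT (τ + c k' - c k - p0) := hb
    have h1 := hcp k hkK
    have h2 := hcp k' hk'K
    obtain ⟨t, ht⟩ : ∃ t, t = τ + c k' - c k - p0 := ⟨_, rfl⟩
    rw [← ht] at hb'
    have htZ : ((τ : ℤ) - p0) + x * 2 ^ k' - x * 2 ^ k = (t : ℤ) := by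
      rw [← hcZ, ← hcZ]; omega
    have hAt : AM ≤ t := by omega
    show Crest.Agent.R320.Thin963.BadT Ms m _ _ _ (((τ : ℤ) - p0) + x * 2 ^ k' - x * 2 ^ k)
    rw [htZ]
    rcases hb' with ⟨q, hq, h4⟩ | ⟨j, hj, h4⟩
    · left
      exact ⟨q, hq, by exact_mod_cast h4⟩
    · right
      have h5 := hAmm (j + 1) hj
      have h6 : ((t - Am G M 0 (j + 1) : ℕ) : ℤ) = (t : ℤ) - Am G M 0 (j + 1) := by
        rw [Nat.cast_sub (by omega)]
      have h7 := Nat.div_add_mod (t - Am G M 0 (j + 1)) (G (j + 1))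
      have h8 := Nat.mod_lt (t - Am G M 0 (j + 1)) (hG0 (j + 1))
      set ρ := (t - Am G M 0 (j + 1)) % G (j + 1) with hρ
      set dd := (t - Am G M 0 (j + 1)) / G (j + 1) with hdd
      have h7' : (t : ℤ) - Am G M 0 (j + 1) = G (j + 1) * dd + ρ := by
        rw [← h6, ← h7]; push_cast; ring
      rcases h4 with h4 | h4
      · refine ⟨j, hj, -(ρ : ℤ), ?_, ⟨(dd : ℤ), ?_⟩⟩
        · rw [abs_neg, Nat.abs_cast]
          show (ρ : ℤ) ≤ ((M * G j : ℕ) : ℤ)
          exact Nat.cast_le.2 h4.le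
        · show (t : ℤ) - Am G M 0 (j + 1) + -(ρ : ℤ) = G (j + 1) * dd
          rw [h7']; ring
      · refine ⟨j, hj, (G (j + 1) : ℤ) - ρ, ?_, ⟨(dd : ℤ) + 1, ?_⟩⟩
        · rw [abs_of_nonneg (by omega)]
          show (G (j + 1) : ℤ) - ρ ≤ ((M * G j : ℕ) : ℤ)
          omega
        · show (t : ℤ) - Am G M 0 (j + 1) + ((G (j + 1) : ℤ) - ρ) = G (j + 1) * (dd + 1)
          rw [h7']; ring
  · -- blocks
    intro a b
    refine (Crest.Agent.R320.P4_933.hl_XX (z := z) hLW.app hLW.len free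
      (f := fun q => act a (q.map f).prod + nu q = b) (hread _ ?_)).congr fun w => ?_
    · intro q q' _ _ _ h1 h2 _ h3
      rw [← h1, ← h2]; exact h3
    · constructor
      · rintro ⟨⟨h1, h2, h3⟩, h4⟩
        exact ⟨⟨h2, h1, fun t p q => h3 t q p⟩, h4⟩
      · rintro ⟨⟨h1, h2, h3⟩, h4⟩
        exact ⟨⟨h2, h1, fun t p q => h3 t q p⟩, h4⟩
  · -- bad blocks
    intro a b
    refine (Crest.Agent.R320.P4_933.hl_XX (z := z) hLW.app hLW.len free
      (f := fun q => g.BadX BadT q ∧ act a (q.map f).prod + nu q = b) (hread _ ?_)).congr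
      fun w => ?_
    · rintro q q' l1 l2 h0 h1 h2 h5 ⟨hb, h3⟩
      refine ⟨?_, by rw [← h1, ← h2]; exact h3⟩
      rcases hb with ⟨t, ht, hw, h6, h7⟩ | hb
      · have h7' : t < z + (AM + 1) := h7
        left
        exact ⟨t, by omega, by rw [← h0 t (by omega)]; exact hw, h6, h7⟩
      · right
        exact hBadT _ _ (by show AM ≤ q.length - p0; omega)
          (by show AM ≤ q'.length - p0; omega) h5 hb
    · constructor
      · rintro ⟨⟨⟨h1, h2, h3⟩, h5⟩, h4⟩
        exact ⟨⟨h2, h1, fun t p q => h3 t q p⟩, h5, h4⟩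
      · rintro ⟨⟨h1, h2, h3⟩, h5, h4⟩
        exact ⟨⟨⟨h2, h1, fun t p q => h3 t q p⟩, h5⟩, h4⟩
  · -- rests
    intro b
    refine (Crest.Agent.R320.P4_933.hl_NB (z := z) hLW.app hLW.len free
      (f := fun q => (q.map f).prod = b) (hread _ ?_)).congr fun w => ?_
    · intro q q' _ _ _ h1 _ _ h3
      rw [← h1]; exact h3
    · constructor
      · rintro ⟨h1, h2⟩
        refine ⟨(Crest.Agent.R320.P4_933.NB_iff Wo z w).2 fun P hP hX => ?_, h2⟩
        exact h1 P ⟨hX.2.1, hX.1, fun t ht htl => hX.2.2 t htl ht⟩ hP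
      · rintro ⟨h1, h2⟩
        refine ⟨fun P hP hX => ?_, h2⟩
        exact (Crest.Agent.R320.P4_933.NB_iff Wo z w).1 h1 P hX
          ⟨hP.2.1, hP.1, fun t ht htl => hP.2.2 t htl ht⟩

universe u

/-- **THE ROW** in every universe. -/
theorem row {α : Type u} [Finite α] (L : Language α) (hL : L.IsRegular) :
    ∃ e : GRegExp α, e.height ≤ 3 ∧ e.lang = L :=
  Crest.Agent.R320.Univ_234.of_type_monoid (k := 3)
    (fun A _ S _ _ φ s => fin A S φ s) L hL

end Crest.Agent.R320.FinB_282
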