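import Crest.Agent.R320.FinA_29

/-!
# Row 320: assembly on all words from one abstract gadget `UG` (helper29)
-/

set_option autoImplicit false

namespace Crest.Agent.R320.Fin_29

open Crest.RegLang Crest.Agent.R320.Hk_851 Crest.Agent.R320.Blk467
open Crest.Agent.R320.FewWalls_228 Crest.Agent.R320.FewVal_228 Crest.Agent.R320.Sc2n_937
open Crest.Agent.R320.ExactR_237

/-- the scheme-1 gadget on all words, with a thin ruler -/
def UG : Prop := ∀ (S V : Type) [Monoid S] [Finite S] [AddCommGroup V] [Finite V]
    (act : V → S → V), (∀ a b s, act (a + b) s = act a s + act b s) →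
    ∃ C0 : ℕ, ∀ K : ℕ, ∃ (N1 Pm La : ℕ) (c : ℕ → ℕ) (Bad : ℕ → Prop),
    0 < Pm ∧ 0 < N1 ∧ (∀ i j, i < j → j < K → c i < c j) ∧
    (∀ k k' l l', k < K → k' < K → l < K → l' < K → k' ≠ k → l' ≠ l →
      c k + c l' < c l + c k' + 2 * N1 → c l + c k' < c k + c l' + 2 * N1 → k = l) ∧
    (∀ T, La ≤ T → (∀ k < K, c k ≤ T) → ∀ J : Finset ℕ, (∀ k ∈ J, k < K ∧
      ∃ k', k' < K ∧ k' ≠ k ∧ Bad (T + c k' - c k)) → J.card ≤ C0) ∧
    ∀ (A : Type) (f : A → S), ∃ (lam rho : List A → Option V) (nu : List A → V),
      (∀ P v, lam P = some v → P.length ≤ N1) ∧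
      (∀ P Q v r, lam P = some v → rho Q = some r →
        r = act v ((P ++ Q).map f).prod + nu (P ++ Q)) ∧
      (∀ u, La ≤ u.length → ¬ Bad u.length → ∀ v, ∃ P Q, u = P ++ Q ∧ lam P = some v ∧
        (rho Q).isSome) ∧
      (∀ q q', La ≤ q.length → La ≤ q'.length → q.take La = q'.take La →
        q.length % Pm = q'.length % Pm →
        ((q.drop La).map f).prod = ((q'.drop La).map f).prod → nu q = nu q')

theorem pr_app {A S : Type} [Monoid S] (f : A → S) (u v : List A) :
    pr f (u ++ v) = pr f u * pr f v := by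
  unfold pr; rw [List.map_append, List.prod_append]

/-- value and length modulo `Pm` in one monoid -/
def g2 {A S : Type} (Pm : ℕ) (f : A → S) (a : A) : S × Multiplicative (ZMod Pm) :=
  (f a, Multiplicative.ofAdd 1)

theorem g2_prod {A S : Type} [Monoid S] (Pm : ℕ) (f : A → S) (w : List A) :
    (w.map (g2 Pm f)).prod = ((w.map f).prod, Multiplicative.ofAdd (w.length : ZMod Pm)) := by
  induction w with
  | nil => simp; rfl
  | cons a w ih =>
    rw [List.map_cons, List.prod_cons, ih, List.map_cons, List.prod_cons, List.length_cons]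
    refine Prod.ext rfl ?_
    show Multiplicative.ofAdd (1 : ZMod Pm) * Multiplicative.ofAdd (w.length : ZMod Pm) =
      Multiplicative.ofAdd ((w.length + 1 : ℕ) : ZMod Pm)
    rw [← ofAdd_add]
    congr 1
    push_cast
    ring

theorem main (h : UG) (A : Type) [Finite A] (S : Type) [Monoid S] [Finite S] (f : A → S)
    (s : S) : HL 3 ({w | (w.map f).prod = s} : Language A) := by
  classical
  haveI := Fintype.ofFinite S
  obtain ⟨act, hadd, hone, hmul, hfaith⟩ := exists_module S
  obtain ⟨C0, hC0⟩ := h S (S → ZMod 2) act hadd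
  obtain ⟨K, hK⟩ := exact_gadget A S (S → ZMod 2) f act (2 * C0 + 2)
  obtain ⟨N1, Pm, La, c, Bad, hPm, hN1, hcinc, hsp, hthin, hG⟩ := hC0 K
  obtain ⟨lam, rho, nu, hlen, hsound, hcompl, hinv⟩ := hG A f
  obtain ⟨lam2, rho2, nu2, hs2, hc2⟩ := hK c hcinc
  obtain ⟨p0, hp0⟩ : ∃ p0, ∀ k < K, c k ≤ p0 :=
    ⟨∑ k ∈ Finset.range K, c k, fun k hk =>
      Finset.single_le_sum (f := c) (fun _ _ => Nat.zero_le _) (Finset.mem_range.2 hk)⟩
  obtain ⟨n, cw, Pw, Sw, hn, hP, hS, hsep, hper, -⟩ :=
    exists_walls A (2 * p0 + 2 * N1 + 1) (by omega)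
  obtain ⟨q0, hq0⟩ : ∃ q0, q0 = n + 2 * p0 + La := ⟨_, rfl⟩
  obtain ⟨z, hz⟩ : ∃ z, z = p0 + N1 + q0 := ⟨_, rfl⟩
  let g : Geo A := ⟨Lw n Sw, n, z, p0, q0, N1, fun P Q h => lw_loc P Q h, hz, by omega, hN1,
    by omega⟩
  let pre : List A → (S → ZMod 2) → (S → ZMod 2) := fun X v => act v (pr f X) + nu2 X 1
  let post : (S → ZMod 2) → List A → (S → ZMod 2) := fun u Y => act u (pr f Y) + nu Y
  let rh2 : ℕ → List A → Option (S → ZMod 2) := fun k Q => rho2 k Q 1
  let D : SemTop_727.Sch A (S → ZMod 2) :=
    { XX := XXs n Sw z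
      T := g.T pre post
      L1 := fun v => {P | g.LP1 pre lam v P}
      L2 := fun v => {P | Geo.LP2 K c lam2 v P} }
  -- soundness of scheme 1
  have S1 : ∀ {v b : S → ZMod 2} {P Q : List A}, g.LP1 pre lam v P → g.RQ1 rho b Q →
      g.XX (P ++ Q) ∧ g.T pre post v (P ++ Q) = b := by
    intro v b P Q hP hQ
    exact g.sound1 pre post hlen (fun P Q u b h1 h2 => hsound P Q u b h1 h2) hP hQ
  -- completeness of scheme 1
  have C1 : ∀ X, g.XX X → ¬ g.BadX Bad X → X ∈ D.Good := by
    intro X hX hB
    refine ⟨hX, fun v => ?_⟩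
    have hE : ¬ g.E X := fun h => hB (Or.inl h)
    have hBT : ¬ Bad (X.length - p0) := fun h => hB (Or.inr h)
    have hXl : z ≤ X.length := hX.1
    obtain ⟨P, Q, b, e, h1, h2⟩ := g.complete1 pre hlen hX hE (fun u => by
      have := hcompl (X.drop p0) (by rw [List.length_drop]; omega)
        (by rw [List.length_drop]; exact hBT) u
      exact this) v
    have h3 := (S1 h1 h2).2
    refine ⟨P, h1, Q, ?_, e.symm⟩
    intro x P' hP'
    refine ⟨(S1 hP' h2).1, ?_⟩
    show g.T pre post x (P' ++ Q) = g.T pre post v X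
    rw [(S1 hP' h2).2, e, h3]
  -- the exact gadget in the form of `Geo`
  have hex2 : ∀ k, k < K → ∀ P Q v u, P.length = c k → Q.length = g.p0 - c k →
      lam2 k P = some v → rh2 k Q = some u → u = pre (P ++ Q) v := by
    intro k hk P Q v u hP _ h1 h2
    have := hs2 k hk P Q 1 v u hP h1 h2
    rw [mul_one] at this
    exact this
  have S2 : ∀ {v b : S → ZMod 2} {X P Q R R' : List A}, g.XX X → g.BadX Bad X →
      Geo.LP2 K c lam2 v P → g.RQ2 pre post Bad K c rh2 b Q → P ++ Q ++ R = X ++ R' →
      ∃ X2, g.XX X2 ∧ P ++ Q = X ++ X2 ∧ g.T pre post (g.T pre post v X) X2 = b := by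
    intro v b X P Q R R' hX hB hP hQ e
    exact g.sound2 pre post hp0 hex2 hX hB hP hQ e
  have hgap : ∀ P Q : List A, Lw n Sw P → Lw n Sw (P ++ Q) → Q ≠ [] →
      2 * p0 + 2 * N1 < Q.length := by
    intro P Q h1 h2 hQ
    have hQl : 0 < Q.length := List.length_pos_iff.2 hQ
    have h3 : Lw n Sw ((P ++ Q).take P.length) := by rw [List.take_left]; exact h1
    rw [lw_take (by rw [List.length_append]; omega)] at h3
    rw [lw_iff, List.length_append] at h2
    have := hsep (P ++ Q) (P.length - n) (P.length + Q.length - n) (by omega) h3.2 h2.2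
    omega
  have C2 : ∀ X1 ∈ D.Bad, ∀ X2 ∈ D.Bad, ∀ x, ∃ P ∈ D.L2 x, ∃ Q ∈ D.R2 (D.T (D.T x X1) X2),
      P ++ Q = X1 ++ X2 := by
    intro X1 h1 X2 h2 x
    have hX1 : g.XX X1 := h1.1
    have hX2 : g.XX X2 := h2.1
    have hb : ∀ X, X ∈ D.Bad → g.BadX Bad X := by
      intro X hX
      by_contra hcon
      exact hX.2 (C1 X hX.1 hcon)
    have hXl : z ≤ X1.length := hX1.1
    have hI := hc2 (X1.take p0) 1 x (by
      intro k hk
      rw [List.length_take]
      have := hp0 k hk
      omega)
    obtain ⟨I, hI1, hI2⟩ := hI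
    obtain ⟨P, Q, b, e, hP, hQ⟩ := g.complete2 pre post (lam2 := lam2) (rho2 := rh2)
      (BadT := Bad) (C0 := C0) hp0 hgap hsp (by
        intro τ hτ J hJ
        have hτ' : z ≤ τ + p0 := hτ
        refine hthin (τ - p0) (by omega) (fun k hk => ?_) J (fun k hk => ?_)
        · have := hp0 k hk
          omega
        · obtain ⟨h3, k', h4, h5, h6⟩ := hJ k hk
          refine ⟨h3, k', h4, h5, ?_⟩
          have h7 : τ - p0 + c k' - c k = τ + c k' - c k - g.p0 := by
            have h8 := hp0 k h3
            show τ - p0 + c k' - c k = τ + c k' - c k - p0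
            omega
          rw [h7]; exact h6) hX1 hX2 x
      ⟨I, hI1, fun k hk => by
        obtain ⟨h3, h4, h5⟩ := hI2 k hk
        refine ⟨h3, ?_, h5⟩
        rw [List.take_take, Nat.min_eq_left (hp0 k h3)] at h4
        exact h4⟩
    obtain ⟨X2', h3, h4, h5⟩ := S2 hX1 (hb X1 h1) hP hQ (R := []) (R' := X2)
      (by rw [List.append_nil, e])
    have h6 : X2' = X2 := by
      rw [e] at h4
      exact (List.append_cancel_left h4).symm
    subst h6
    refine ⟨P, hP, Q, ?_, e⟩
    intro v P' hP'
    -- the first block of `P' ++ Q`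
    have hQ' := hQ
    obtain ⟨k, hk, l, hend, hgood, hXd, u, hr, hbe⟩ := hQ
    obtain ⟨k', hk', hPl', hl'⟩ := id hP'
    by_cases hkk : k' = k
    · subst hkk
      have hx : g.XX (P' ++ Q.take l) :=
        g.xx_of_cend (by rw [hPl']; exact hp0 k' hk') (by rw [hPl']; exact hend)
      by_cases hg : P' ++ Q.take l ∈ D.Good
      · right; left
        refine ⟨_, hg, ⟨Q.drop l, ?_⟩⟩
        rw [List.append_assoc, List.take_append_drop]
      · have hBd : P' ++ Q.take l ∈ D.Bad := ⟨hx, hg⟩
        obtain ⟨Y, hY1, hY2, hY3⟩ := S2 hx (hb _ hBd) hP' hQ' (R := []) (R' := Q.drop l)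
          (by rw [List.append_nil, List.append_assoc, List.take_append_drop])
        by_cases hg2 : Y ∈ D.Good
        · right; right
          exact ⟨_, hBd, Y, hg2, by rw [hY2]⟩
        · left
          refine ⟨_, hBd, Y, ⟨hY1, hg2⟩, hY2, ?_⟩
          show g.T pre post (g.T pre post v (P' ++ Q.take l)) Y = _
          rw [hY3]
          exact h5.symm
    · obtain ⟨l', hend', hnb⟩ := hgood k' hk' hkk
      right; left
      have hx : g.XX (P' ++ Q.take l') :=
        g.xx_of_cend (by rw [hPl']; exact hp0 k' hk') (by rw [hPl']; exact hend')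
      refine ⟨P' ++ Q.take l', C1 _ hx (fun hbad => hnb ?_), ⟨Q.drop l', ?_⟩⟩
      · have := g.cbad_of_bad (by rw [hPl']; exact hp0 k' hk') (by rw [hPl']; exact hend') hbad
        rw [hPl'] at this
        exact this
      · rw [List.append_assoc, List.take_append_drop]
  -- finiteness of the left words
  have hL1 : ∀ x, (D.L1 x).Finite := by
    intro x
    refine (List.finite_length_le A (p0 + N1)).subset ?_
    rintro P ⟨h1, h2⟩
    have h3 := hlen _ _ h2
    rw [List.length_drop] at h3
    show P.length ≤ p0 + N1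
    have h1' : p0 ≤ P.length := h1
    have h3' : P.length - p0 ≤ N1 := h3
    omega
  have hL2 : ∀ x, (D.L2 x).Finite := by
    intro x
    refine (List.finite_length_le A p0).subset ?_
    rintro P ⟨k, hk, h1, h2⟩
    show P.length ≤ p0
    rw [h1]; exact hp0 k hk
  -- the zone map
  have hT : ∀ v X, D.T v X = act v (X.map f).prod +
      (act (nu2 (X.take p0) 1) (pr f (X.drop p0)) + nu (X.drop p0)) := by
    intro v X
    show act (act v (pr f (X.take p0)) + nu2 (X.take p0) 1) (pr f (X.drop p0)) +
      nu (X.drop p0) = _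
    rw [hadd, ← hmul, ← pr_app, List.take_append_drop]
    unfold pr
    rw [add_assoc]
  have hC : PCode D.XX := by
    refine ⟨?_, ?_⟩
    · intro h0
      have h1 : z ≤ ([] : List A).length := h0.1
      simp only [List.length_nil] at h1
      omega
    · rintro X hX Y hY ⟨R, hR⟩
      exact g.prefix_code (R := R) (R' := []) hX hY (by rw [List.append_nil]; exact hR)
  haveI : NeZero Pm := ⟨by omega⟩
  haveI : Finite (Multiplicative (ZMod Pm)) := Finite.of_equiv (ZMod Pm) Multiplicative.ofAdd
  have hfib : ∀ x y, HL 1 (D.fib x y) := by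
    intro x y
    refine HL_fib hn hP hS hper (g2 Pm f) (fun X => g.T pre post x X) (p0 + La) (by omega) ?_ y
    intro X X' h1 h2 h3 h4
    rw [g2_prod, g2_prod] at h4
    have h5 := congrArg Prod.fst h4
    have h6 := congrArg Prod.snd h4
    simp only at h5 h6
    have h7 : ((X.drop (p0 + La)).length : ZMod Pm) = ((X'.drop (p0 + La)).length : ZMod Pm) :=
      Multiplicative.ofAdd.injective h6
    rw [ZMod.natCast_eq_natCast_iff'] at h7
    rw [List.length_drop, List.length_drop] at h7
    have h8 : X.take p0 = X'.take p0 := by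
      have := congrArg (fun l => l.take p0) h3
      simp only [List.take_take] at this
      rwa [Nat.min_eq_left (by omega)] at this
    have h9 : (X.drop p0).take La = (X'.drop p0).take La := by
      have := congrArg (fun l => l.drop p0) h3
      simp only [List.drop_take] at this
      rwa [Nat.add_sub_cancel_left] at this
    have h10 : (X.drop p0).drop La = X.drop (p0 + La) := by rw [List.drop_drop]
    have h11 : (X'.drop p0).drop La = X'.drop (p0 + La) := by rw [List.drop_drop]
    have h12 : nu (X.drop p0) = nu (X'.drop p0) := by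
      apply hinv
      · rw [List.length_drop]; omega
      · rw [List.length_drop]; omega
      · exact h9
      · rw [List.length_drop, List.length_drop]
        have e1 : X.length - p0 = (X.length - (p0 + La)) + La := by omega
        have e2 : X'.length - p0 = (X'.length - (p0 + La)) + La := by omega
        rw [e1, e2, Nat.add_mod, h7, ← Nat.add_mod]
      · rw [h10, h11]; exact h5
    have h13 : pr f (X.drop p0) = pr f (X'.drop p0) := by
      rw [← List.take_append_drop La (X.drop p0), ← List.take_append_drop La (X'.drop p0),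
        pr_app, pr_app, h9, h10, h11]
      unfold pr
      rw [h5]
    show act (act x (pr f (X.take p0)) + nu2 (X.take p0) 1) (pr f (X.drop p0)) +
      nu (X.drop p0) = act (act x (pr f (X'.take p0)) + nu2 (X'.take p0) 1)
        (pr f (X'.drop p0)) + nu (X'.drop p0)
    rw [h8, h12, h13]
  exact SemTop_727.top (k := 1) act hadd hone hmul hfaith f _ D hT hC hfib hL1 hL2 C2
    (fun s => (HL_tail hn hP hS hper f s).mono (by norm_num)) s

/-- transport along an equivalence of alphabets (any universes) -/
theorem HL_comap.{u, v} {α : Type u} {β : Type v} (e : α ≃ β) (r : GRegExp β) :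
    HL r.height ({w : List α | w.map e ∈ r.lang} : Language α) := by
  induction r with
  | zero => exact HL.zero.congr fun w => Iff.rfl
  | eps =>
    refine HL.one.congr fun w => ?_
    show w.map e = [] ↔ w = []
    exact List.map_eq_nil_iff
  | char a =>
    refine (HL.char (e.symm a)).congr fun w => ?_
    show w.map e = [a] ↔ w = [e.symm a]
    constructor
    · intro h
      have := congrArg (List.map e.symm) h
      simpa using this
    · rintro rfl
      simp
  | union P Q hP hQ =>
    exact HL.setOf_or (hP.mono (le_max_left _ _)) (hQ.mono (le_max_right _ _))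
  | cat P Q hP hQ =>
    refine ((hP.mono (le_max_left _ _)).mul (hQ.mono (le_max_right _ _))).congr fun w => ?_
    constructor
    · intro h
      obtain ⟨a, ha, b, hb, hab⟩ := Language.mem_mul.1
        (show w.map e ∈ P.lang * Q.lang from h)
      refine Language.mem_mul.2 ⟨a.map e.symm, ?_, b.map e.symm, ?_, ?_⟩
      · show (a.map e.symm).map e ∈ P.lang
        simpa using ha
      · show (b.map e.symm).map e ∈ Q.lang
        simpa using hb
      · rw [← List.map_append, hab]; simp
    · intro h
      obtain ⟨a, ha, b, hb, rfl⟩ := Language.mem_mul.1 h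
      show (a ++ b).map e ∈ P.lang * Q.lang
      rw [List.map_append]
      exact Language.mem_mul.2 ⟨_, ha, _, hb, rfl⟩
  | not P hP => exact HL.setOf_not hP
  | star P hP =>
    refine hP.star.congr fun w => ?_
    constructor
    · intro h
      obtain ⟨l, hl, hl2⟩ := Language.mem_kstar.1 (show w.map e ∈ KStar.kstar P.lang from h)
      refine Language.mem_kstar.2 ⟨l.map (List.map e.symm), ?_, ?_⟩
      · have := congrArg (List.map e.symm) hl
        rw [List.map_map, e.symm_comp_self, List.map_id] at this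
        rw [this, List.map_flatten]
      · intro y hy
        obtain ⟨x, hx, rfl⟩ := List.mem_map.1 hy
        show (x.map e.symm).map e ∈ P.lang
        simpa using hl2 x hx
    · intro h
      obtain ⟨l, rfl, hl2⟩ := Language.mem_kstar.1 h
      show l.flatten.map e ∈ KStar.kstar P.lang
      refine Language.mem_kstar.2 ⟨l.map (List.map e), by rw [List.map_flatten], ?_⟩
      intro y hy
      obtain ⟨x, hx, rfl⟩ := List.mem_map.1 hy
      exact hl2 x hx

/-- **the row from `UG`** -/
theorem row.{u} (h : UG) (α : Type u) [Finite α] (L : Language α) (hL : L.IsRegular) :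
    ∃ e : GRegExp α, e.height ≤ 3 ∧ e.lang = L := by
  obtain ⟨n, ⟨e⟩⟩ := Finite.exists_equiv_fin α
  have hL' : Language.IsRegular ({w : List (Fin n) | w.map e.symm ∈ L} : Language (Fin n)) := by
    obtain ⟨σ, hσ, M, rfl⟩ := hL
    refine ⟨σ, hσ, ⟨fun s a => M.step s (e.symm a), M.start, M.accept⟩, ?_⟩
    have key : ∀ (w : List (Fin n)) (s : σ), (w.foldl (fun s a => M.step s (e.symm a)) s) =
        (w.map e.symm).foldl M.step s := by
      intro w
      induction w with
      | nil => intro s; rfl
      | cons a w ih => intro s; exact ih _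
    ext w
    show (w.foldl (fun s a => M.step s (e.symm a)) M.start) ∈ M.accept ↔
      (w.map e.symm).foldl M.step M.start ∈ M.accept
    rw [key]
  have h3 : HL 3 ({w : List (Fin n) | w.map e.symm ∈ L} : Language (Fin n)) :=
    of_monoid (fun S _ _ φ s => main h (Fin n) S φ s) _ hL'
  obtain ⟨r, hr, hrl⟩ := h3
  have h4 := (HL_comap e r).mono hr
  rw [hrl] at h4
  refine h4.congr fun w => ?_
  show w ∈ L ↔ (w.map e).map e.symm ∈ L
  simp

end Crest.Agent.R320.Fin_29
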