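import Crest.Agent.R320.FinA_336

/-! Row 320: the numbers (helper336). -/

set_option autoImplicit false

namespace Crest.Agent.R320.FinB336

open Crest.Agent.R320.Grid_899 Crest.Agent.R320.FinA336

theorem sum_G (κ : ℕ) (hκ : 1 ≤ κ) (i : ℕ) : ∑ j ∈ Finset.range (i+1), G κ j ≤ 2 * G κ i := by
  induction i with
  | zero => simp [G]
  | succ i ih =>
    rw [Finset.sum_range_succ]
    have h1 : 2 * G κ i ≤ G κ (i+1) := by
      unfold G
      rw [Nat.mul_succ, pow_add, mul_comm]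
      exact Nat.mul_le_mul_left _ (by
        calc 2 = 2 ^ 1 := rfl
          _ ≤ 2 ^ κ := Nat.pow_le_pow_right (by norm_num) hκ)
    omega

theorem numbers (k m K : ℕ) : ∃ (q : Fin k → ℕ) (κ : ℕ), (∀ j, Odd (q j)) ∧
    (Pairwise fun i j => Nat.Coprime (q i) (q j)) ∧ 0 < (∏ j, q j) * G κ m ∧
    ∀ N0 : ℕ, ∃ X : ℕ, N0 ≤ X ∧ 0 < X ∧ ∀ σ : ℕ, X * 2 ^ K + Am (∏ j, q j) κ m ≤ σ →
      ∀ J : Finset ℕ, (∀ i ∈ J, i < K ∧ ∃ i', i' < K ∧ i' ≠ i ∧
        BadN m q κ (σ + X * 2 ^ i' - X * 2 ^ i)) → J.card ≤ k + m := by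
  classical
  let q : Fin k → ℕ := fun j => Nat.nth Nat.Prime (2 ^ (K + 1) + 3 + j)
  have hqp : ∀ j, (q j).Prime := fun j => Nat.prime_nth_prime _
  have hqb : ∀ j, 2 ^ (K + 1) + 3 ≤ q j := fun j =>
    le_trans (Nat.le_add_right _ _) ((Nat.nth_strictMono Nat.infinite_setOfPred_prime).le_apply)
  have hodd : ∀ j, Odd (q j) := fun j => (hqp j).odd_of_ne_two (by
    have := hqb j
    have := Nat.one_le_two_pow (n := K + 1)
    omega)
  have hcop : Pairwise fun i j => Nat.Coprime (q i) (q j) := by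
    intro i j hij
    rw [Nat.coprime_primes (hqp i) (hqp j)]
    intro h
    apply hij
    have h1 := (Nat.nth_strictMono Nat.infinite_setOfPred_prime).injective h
    exact Fin.ext (by omega)
  have hMpos : 0 < ∏ j, q j := Finset.prod_pos fun j _ => (hqp j).pos
  set Ms := ∏ j, q j with hMs
  let κ := K + 5 + Ms
  have hκ : 2 ^ (K + 5) * Ms ≤ 2 ^ κ := by
    show 2 ^ (K + 5) * Ms ≤ 2 ^ (K + 5 + Ms)
    rw [pow_add 2 (K + 5) Ms]
    exact Nat.mul_le_mul_left _ Nat.lt_two_pow_self.le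
  refine ⟨q, κ, hodd, hcop, Nat.mul_pos hMpos (G_pos m), ?_⟩
  intro N0
  obtain ⟨X, hX0, hX1, hX⟩ := Crest.Agent.R320.Thin963.thin K m (Finset.univ.image q)
    (fun i => (G κ i : ℤ)) (fun i => (Ms * G κ i : ℕ)) (fun i => (Am Ms κ i : ℤ))
    (by
      intro p hp
      obtain ⟨j, _, rfl⟩ := Finset.mem_image.1 hp
      exact ⟨hqp j, by have := hqb j; omega⟩)
    (by
      intro p hp
      obtain ⟨j, _, rfl⟩ := Finset.mem_image.1 hp
      rw [Nat.isCoprime_iff_coprime]
      unfold G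
      exact Nat.Coprime.pow_right _ (Nat.coprime_two_right.2 (hodd j)))
    (by exact_mod_cast G_pos (κ := κ) m)
    (by
      intro i j hij
      exact_mod_cast G_dvd' κ hij)
    (by
      intro i
      exact_mod_cast Nat.mul_pos hMpos (G_pos (κ := κ) i))
    (by
      intro i
      exact_mod_cast Dvd.intro_left Ms rfl)
    (by
      intro i _
      have h1 := sum_G κ (by show 1 ≤ K + 5 + Ms; omega) i
      have h2 : 2 ^ (K + 4) * ∑ j ∈ Finset.range (i+1), Ms * G κ j ≤ G κ (i + 1) := by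
        rw [← Finset.mul_sum]
        calc 2 ^ (K + 4) * (Ms * ∑ j ∈ Finset.range (i+1), G κ j)
            ≤ 2 ^ (K + 4) * (Ms * (2 * G κ i)) :=
              Nat.mul_le_mul_left _ (Nat.mul_le_mul_left _ h1)
          _ = (2 ^ (K + 5) * Ms) * G κ i := by rw [pow_succ 2 (K + 4)]; ring
          _ ≤ 2 ^ κ * G κ i := Nat.mul_le_mul_right _ hκ
          _ = G κ (i + 1) := by unfold G; rw [Nat.mul_succ, pow_add]; ring
      exact_mod_cast h2) (N0 : ℤ)
  obtain ⟨X, rfl⟩ := Int.eq_ofNat_of_zero_le hX1.le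
  refine ⟨X, by exact_mod_cast hX0, by exact_mod_cast hX1, ?_⟩
  intro σ hσ J hJ
  change X * 2 ^ K + Am Ms κ m ≤ σ at hσ
  have h1 : (Finset.univ.image q).card + m ≤ k + m := by
    have := Finset.card_image_le (s := (Finset.univ : Finset (Fin k))) (f := q)
    rw [Finset.card_univ, Fintype.card_fin] at this
    omega
  refine le_trans ?_ h1
  refine le_trans ?_ (hX (σ : ℤ))
  choose! g hg1 hg2 hg3 using fun i hi => (hJ i hi).2
  refine Finset.card_le_card_of_injOn (fun i => (g i, i)) ?_ ?_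
  · intro i hi
    have hi' : i ∈ J := hi
    rw [Finset.coe_filter]
    refine ⟨?_, hg2 i hi', ?_⟩
    · rw [Finset.mem_product, Finset.mem_range, Finset.mem_range]
      exact ⟨hg1 i hi', (hJ i hi').1⟩
    · show Crest.Agent.R320.Thin963.BadT _ m _ _ _ ((σ : ℤ) + (X : ℤ) * 2 ^ (g i) - (X : ℤ) * 2 ^ i)
      have hlt : X * 2 ^ i ≤ X * 2 ^ K :=
        Nat.mul_le_mul_left _ (Nat.pow_le_pow_right (by norm_num) (hJ i hi').1.le)
      have hn : ((σ : ℤ) + (X : ℤ) * 2 ^ (g i) - (X : ℤ) * 2 ^ i) =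
          ((σ + X * 2 ^ (g i) - X * 2 ^ i : ℕ) : ℤ) := by
        rw [Nat.cast_sub (by omega)]
        push_cast; ring
      rw [hn]
      have hge : Am Ms κ m ≤ σ + X * 2 ^ (g i) - X * 2 ^ i := by omega
      have hb := hg3 i hi'
      set n := σ + X * 2 ^ (g i) - X * 2 ^ i with hndef
      rcases hb with ⟨j, hj⟩ | ⟨j, h2, h3, h4⟩
      · left
        exact ⟨q j, Finset.mem_image.2 ⟨j, Finset.mem_univ _, rfl⟩, by exact_mod_cast hj⟩
      · right
        have ha := Am_mono' Ms κ h3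
        obtain ⟨j, rfl⟩ : ∃ j', j = j' + 1 := ⟨j - 1, by omega⟩
        refine ⟨j, by omega, ?_⟩
        have hGp : 0 < G κ (j + 1) := G_pos (j + 1)
        set r := (n - Am Ms κ (j + 1)) % G κ (j + 1) with hr
        have hrlt : r < G κ (j + 1) := Nat.mod_lt _ hGp
        have hdm := Nat.div_add_mod (n - Am Ms κ (j + 1)) (G κ (j + 1))
        rw [← hr] at hdm
        set d := (n - Am Ms κ (j + 1)) / G κ (j + 1) with hd
        have hZ : (n : ℤ) - (Am Ms κ (j + 1) : ℤ) = (G κ (j + 1) : ℤ) * d + r := by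
          have : ((n - Am Ms κ (j + 1) : ℕ) : ℤ) = (n : ℤ) - (Am Ms κ (j + 1) : ℤ) :=
            Nat.cast_sub (by omega)
          rw [← this, ← hdm]; push_cast; ring
        have h4' : ¬ (Ms * G κ j ≤ r ∧ r + Ms * G κ j ≤ G κ (j + 1)) := h4
        by_cases h5 : Ms * G κ j ≤ r
        · have h6 : G κ (j + 1) < r + Ms * G κ j := by
            by_contra h7
            exact h4' ⟨h5, by omega⟩
          refine ⟨(G κ (j + 1) : ℤ) - r, ?_, ?_⟩
          · rw [abs_of_nonneg (by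
              have : (r : ℤ) < (G κ (j + 1) : ℤ) := by exact_mod_cast hrlt
              linarith)]
            have : (G κ (j + 1) : ℤ) < (r : ℤ) + ((Ms * G κ j : ℕ) : ℤ) := by exact_mod_cast h6
            have h9 : (G κ (j + 1) : ℤ) - r ≤ ((Ms * G κ j : ℕ) : ℤ) := by linarith
            exact h9
          · show (G κ (j + 1) : ℤ) ∣ (n : ℤ) - (Am Ms κ (j + 1) : ℤ) + ((G κ (j + 1) : ℤ) - r)
            rw [hZ]
            exact ⟨d + 1, by ring⟩
        · refine ⟨-(r : ℤ), ?_, ?_⟩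
          · rw [abs_neg, abs_of_nonneg (Int.natCast_nonneg r)]
            have h9 : r ≤ Ms * G κ j := by omega
            have : (r : ℤ) ≤ ((Ms * G κ j : ℕ) : ℤ) := by exact_mod_cast h9
            exact this
          · show (G κ (j + 1) : ℤ) ∣ (n : ℤ) - (Am Ms κ (j + 1) : ℤ) + (-(r : ℤ))
            rw [hZ]
            exact ⟨d, by ring⟩
  · intro i _ i' _ h
    exact (Prod.mk.inj h).2

end Crest.Agent.R320.FinB336
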