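import Crest.Statements.S0495
import Mathlib.Computability.DFA

/-!
# Row 320: universe bridge (helper119)

S0495 for alphabets in `Type` gives S0495 for alphabets in any universe.
-/

set_option autoImplicit false

namespace Crest.Agent.R320.Univ_119

open Crest.RegLang

universe u v

/-- change of letters -/
def gmap {α : Type u} {β : Type v} (g : α → β) : GRegExp α → GRegExp β
  | .zero => .zero
  | .eps => .eps
  | .char a => .char (g a)
  | .union P Q => .union (gmap g P) (gmap g Q)
  | .cat P Q => .cat (gmap g P) (gmap g Q)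
  | .not P => .not (gmap g P)
  | .star P => .star (gmap g P)

theorem gmap_height {α : Type u} {β : Type v} (g : α → β) (e : GRegExp α) :
    (gmap g e).height = e.height := by
  induction e with
  | zero => rfl
  | eps => rfl
  | char a => rfl
  | union P Q hP hQ => simp only [gmap, GRegExp.height, hP, hQ]
  | cat P Q hP hQ => simp only [gmap, GRegExp.height, hP, hQ]
  | not P hP => simp only [gmap, GRegExp.height, hP]
  | star P hP => simp only [gmap, GRegExp.height, hP]

theorem gmap_lang {α : Type u} {β : Type v} (g : α ≃ β) (e : GRegExp α) (w : List α) :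
    w.map g ∈ (gmap g e).lang ↔ w ∈ e.lang := by
  induction e generalizing w with
  | zero => simp [gmap, GRegExp.lang]
  | eps => simp [gmap, GRegExp.lang, Language.mem_one]
  | char a =>
    simp only [gmap, GRegExp.lang]
    constructor
    · intro h
      have h' : w.map g = [g a] := h
      have h2 : w.map g = [a].map g := by simpa using h'
      exact (List.map_injective_iff.2 g.injective) h2
    · intro h
      have h' : w = [a] := h
      rw [h']; rfl
  | union P Q hP hQ =>
    simp only [gmap, GRegExp.lang, Language.mem_add, hP, hQ]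
  | cat P Q hP hQ =>
    simp only [gmap, GRegExp.lang, Language.mem_mul]
    constructor
    · rintro ⟨a, ha, b, hb, hab⟩
      obtain ⟨x, y, rfl, hx, hy⟩ := List.map_eq_append_iff.1 hab.symm
      subst hx
      subst hy
      exact ⟨x, (hP x).1 ha, y, (hQ y).1 hb, rfl⟩
    · rintro ⟨a, ha, b, hb, rfl⟩
      exact ⟨a.map g, (hP a).2 ha, b.map g, (hQ b).2 hb, by simp⟩
  | not P hP =>
    show ¬ (w.map g ∈ (gmap g P).lang) ↔ ¬ (w ∈ P.lang)
    rw [hP]
  | star P hP =>
    simp only [gmap, GRegExp.lang, Language.mem_kstar]
    constructor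
    · rintro ⟨L, hw, hL⟩
      refine ⟨L.map (fun y => y.map g.symm), ?_, ?_⟩
      · have h1 : (w.map g).map g.symm = w := by simp
        rw [← h1, hw, List.map_flatten]
      · intro y hy
        obtain ⟨z, hz, rfl⟩ := List.mem_map.1 hy
        have := hL z hz
        rw [← hP]
        simpa using this
    · rintro ⟨L, rfl, hL⟩
      refine ⟨L.map (fun y => y.map g), ?_, ?_⟩
      · rw [List.map_flatten]
      · intro y hy
        obtain ⟨z, hz, rfl⟩ := List.mem_map.1 hy
        exact (hP z).2 (hL z hz)

/-- **universe bridge** -/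
theorem bridge
    (h : ∀ (α : Type) [Finite α] (L : Language α), L.IsRegular →
      ∃ e : GRegExp α, e.height ≤ 3 ∧ e.lang = L)
    (α : Type u) [Finite α] (L : Language α) (hL : L.IsRegular) :
    ∃ e : GRegExp α, e.height ≤ 3 ∧ e.lang = L := by
  obtain ⟨n, ⟨g⟩⟩ := Finite.exists_equiv_fin α
  obtain ⟨σ, hσ, M, rfl⟩ := hL
  have hreg : ((M.comap (g.symm : Fin n → α)).accepts).IsRegular := ⟨σ, hσ, _, rfl⟩
  obtain ⟨e, he, hl⟩ := h (Fin n) _ hreg
  refine ⟨gmap g.symm e, by rw [gmap_height]; exact he, ?_⟩
  ext w
  have h1 : w = (w.map g).map g.symm := by simp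
  rw [h1, gmap_lang, hl, DFA.accepts_comap]
  rfl

end Crest.Agent.R320.Univ_119
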