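import Crest.Agent.R320.FinA_356
import Crest.Agent.R320.P4_440
import Crest.Agent.R320.RulerG_432
import Crest.Agent.R320.GridG_19
import Crest.Agent.R320.ExactR_237
import Crest.Agent.R320.WallU_228
import Crest.Agent.R320.Univ_119
import Crest.Agent.R320.Two_621

/-!
# Row 320: final assembly (helper356)
-/

set_option autoImplicit false

namespace Crest.Agent.R320.FinB_356

open Crest.Agent.R320.Hk_851 Crest.Agent.R320.Code110 Crest.Agent.R320.FinA_356
open Crest.Agent.R320.WallU_228 Crest.Agent.R320.RulerG_432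

/-- `BadZ` is periodic -/
theorem badZ_periodic {Ms : Finset ℕ} {G : ℕ → ℕ} {A : ℕ → ℤ} {M m : ℕ} {Pm : ℤ}
    (h1 : ∀ p ∈ Ms, (p : ℤ) ∣ Pm) (h2 : ∀ k ≤ m, (G k : ℤ) ∣ Pm) {t t' : ℤ} (h : Pm ∣ t' - t)
    (hb : BadZ Ms G A M m t) : BadZ Ms G A M m t' := by
  rcases hb with ⟨p, hp, hd⟩ | ⟨k, hk1, hkm, j, hj⟩
  · refine Or.inl ⟨p, hp, ?_⟩
    have := (h1 p hp).trans h
    have e : t' = t + (t' - t) := by ring
    rw [e]
    exact dvd_add hd this
  · obtain ⟨q, hq⟩ := (h2 k hkm).trans h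
    refine Or.inr ⟨k, hk1, hkm, j + q, ?_⟩
    have e : t' - A k - (j + q) * (G k : ℤ) = t - A k - j * (G k : ℤ) := by
      have : t' = t + (G k : ℤ) * q := by rw [← hq]; ring
      rw [this]; ring
    rw [e]
    exact hj

theorem badZ_iff {Ms : Finset ℕ} {G : ℕ → ℕ} {A : ℕ → ℤ} {M m : ℕ} {Pm : ℤ}
    (h1 : ∀ p ∈ Ms, (p : ℤ) ∣ Pm) (h2 : ∀ k ≤ m, (G k : ℤ) ∣ Pm) {t t' : ℤ} (h : Pm ∣ t' - t) :
    BadZ Ms G A M m t ↔ BadZ Ms G A M m t' :=
  ⟨badZ_periodic h1 h2 h, badZ_periodic h1 h2 (by rw [← neg_sub]; exact (dvd_neg).2 h)⟩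

/-- the bad totals of the grid gadget are in `BadZ` -/
theorem badG_badZ {Ms : Finset ℕ} {G : ℕ → ℕ} {M m T : ℕ} (hG0 : ∀ k, 0 < G k)
    (hT : ∀ k ≤ m, GridG_19.Am G M 0 k ≤ T) (hb : GridG_19.BadG G M 0 m T) :
    BadZ Ms G (fun k => (GridG_19.Am G M 0 k : ℤ)) M m T := by
  obtain ⟨k, hk, hb⟩ := hb
  have hA := hT (k + 1) hk
  refine Or.inr ⟨k + 1, by omega, hk, ?_⟩
  simp only [Nat.add_sub_cancel]
  set a := GridG_19.Am G M 0 (k + 1) with ha
  have hdm := Nat.div_add_mod (T - a) (G (k + 1))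
  set q := (T - a) / G (k + 1) with hq
  set ρ := (T - a) % G (k + 1) with hρ
  have hz : (T : ℤ) - a = (G (k + 1) : ℤ) * q + ρ := by
    have : ((T - a : ℕ) : ℤ) = (T : ℤ) - a := by rw [Nat.cast_sub hA]
    rw [← this, ← hdm]; push_cast; ring
  rcases hb with hb | hb
  · refine ⟨q, ?_⟩
    rw [hz]
    have e : (G (k + 1) : ℤ) * q + ρ - (q : ℤ) * (G (k + 1) : ℤ) = ρ := by ring
    rw [e, abs_of_nonneg (by positivity)]
    exact_mod_cast hb.le
  · refine ⟨q + 1, ?_⟩
    rw [hz]
    have e : (G (k + 1) : ℤ) * q + ρ - ((q : ℤ) + 1) * (G (k + 1) : ℤ) = ρ - (G (k + 1) : ℤ) := by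
      ring
    rw [e]
    have hb' : (G (k + 1) : ℤ) ≤ (ρ : ℤ) + (M : ℤ) * (G k : ℤ) := by exact_mod_cast hb
    have hM : (0 : ℤ) ≤ (M : ℤ) * (G k : ℤ) := by positivity
    rw [abs_le]
    constructor
    · linarith
    · have : ρ < G (k + 1) := Nat.mod_lt _ (hG0 _)
      have : (ρ : ℤ) < G (k + 1) := by exact_mod_cast this
      linarith


theorem main {α : Type} [Finite α] {S : Type} [Monoid S] [Finite S] (f : α → S) (s : S) :
    HL 3 ({w | (w.map f).prod = s} : Language α) := by
  classical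
  haveI := Fintype.ofFinite S
  let V : Type := S → ZMod 2
  let act : V → S → V := fun v t => Two_621.act v t
  obtain ⟨m, r, hgrid⟩ := GridG_19.grid.{0} S V act
  obtain ⟨K, hK⟩ := ExactR_237.exact_gadget α S V f act (2 + 2 * (r + m))
  obtain ⟨Ms, hMc, hMp, hg⟩ := hgrid (2 ^ (K + 3))
  set M := ∏ q ∈ Ms, q with hMdef
  have hMpos : 0 < M := Finset.prod_pos fun q hq => (hMp q hq).1.pos
  have h8 : 8 ≤ 2 ^ (K + 3) := by
    calc 8 = 2 ^ 3 := by norm_num
      _ ≤ 2 ^ (K + 3) := Nat.pow_le_pow_right (by norm_num) (by omega)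
  have hcop0 : ∀ e : ℕ, Nat.Coprime M (2 ^ e) := by
    intro e
    refine Nat.Coprime.pow_right _ ?_
    refine Nat.Coprime.prod_left fun q hq => ?_
    have h1 := hMp q hq
    refine (Nat.coprime_primes h1.1 Nat.prime_two).2 (by omega)
  let b0 : ℕ := 2 ^ (K + 6 + M)
  let G : ℕ → ℕ := fun k => b0 ^ k
  have hb0 : 0 < b0 := Nat.two_pow_pos _
  have hGpos : ∀ k, 0 < G k := fun k => Nat.pow_pos hb0
  have hGdvd : ∀ a b, a ≤ b → G a ∣ G b := fun a b h => pow_dvd_pow _ h
  have hGcop : ∀ k, Nat.Coprime M (G k) := by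
    intro k
    show Nat.Coprime M ((2 ^ (K + 6 + M)) ^ k)
    rw [← pow_mul]
    exact hcop0 _
  obtain ⟨lam1, rho1, nu1, hs, hl1, hr1, hc1, hreg⟩ := hg G 0 hGpos hGdvd hGcop α
    (fun w => (w.map f).prod) (by intro u v; simp)
  have hMlt : M ≤ 2 ^ M := (Nat.lt_two_pow_self).le
  have hGrow : ∀ k < m, G k ∣ G (k + 1) ∧ 2 ^ (K + 6) * M * G k ≤ G (k + 1) := by
    intro k _
    refine ⟨hGdvd _ _ (Nat.le_succ k), ?_⟩
    show 2 ^ (K + 6) * M * b0 ^ k ≤ b0 ^ (k + 1)
    have hpw : b0 ^ (k + 1) = b0 * b0 ^ k := pow_succ' b0 k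
    rw [hpw]
    refine Nat.mul_le_mul_right _ ?_
    show 2 ^ (K + 6) * M ≤ 2 ^ (K + 6 + M)
    rw [pow_add 2 (K + 6) M]
    exact Nat.mul_le_mul_left _ hMlt
  let Am := GridG_19.Am G M 0 m
  let Ac := GridG_19.Ac G M 0 m
  let N1 := 2 * Am + M + Ac
  have hpd : ∀ p ∈ Ms, p ∣ M := fun p hp => Finset.dvd_prod_of_mem _ hp
  obtain ⟨X, hX, hthin⟩ := ruler K m M (2 * N1) Ms G (fun k => (GridG_19.Am G M 0 k : ℤ)) hMpos
    (fun p hp => ⟨hpd p hp, by
      have := (hMp p hp).2
      have h2 : 2 ^ (K + 2) ≤ 2 ^ (K + 3) := Nat.pow_le_pow_right (by norm_num) (by omega)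
      omega⟩) (hGpos 0) hGrow
  have hXpos : 0 < X := by omega
  let c : ℕ → ℕ := fun k => X * 2 ^ k
  have hcmono : ∀ i j, i < j → j < K → c i < c j := by
    intro i j hij _
    exact Nat.mul_lt_mul_of_pos_left (Nat.pow_lt_pow_right (by norm_num) hij) hXpos
  obtain ⟨lam2, rho2, nu2, hg2s, hg2c⟩ := hK c hcmono
  let p0 := X * 2 ^ K
  have hcp : ∀ k < K, c k ≤ p0 := fun k hk =>
    Nat.mul_le_mul_left _ (Nat.pow_le_pow_right (by norm_num) hk.le)
  obtain ⟨n, cc, P, SS, hn, hP, happ, hgap, -, -, hfew⟩ :=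
    WallU_228.walls_full (α := α) (2 * p0 + 2 * N1 + 2)
  let z := 2 * p0 + 2 * N1 + n + 2
  let D : Asm_624.D α V S :=
    { φ := fun w => (w.map f).prod, act := act, Wo := Wo n SS, n := n, z := z, p0 := p0,
      N1 := N1, K := K, c := c, lam1 := lam1, rho1 := rho1, nu1 := nu1, lam2 := lam2,
      rho2 := fun k Q => rho2 k Q 1, nu2 := fun u => nu2 u 1,
      Bd := fun t => BadZ Ms G (fun k => (GridG_19.Am G M 0 k : ℤ)) M m t }
  have hAmle : ∀ k ≤ m, GridG_19.Am G M 0 k ≤ Am := fun k hk => GridG_19.Am_mono G M 0 hk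
  have hAmN : Am ≤ N1 := by show Am ≤ 2 * Am + M + Ac; omega
  have hOk : D.Ok (2 * p0 + 2 * N1 + 2) (r + m) :=
    { φ_app := by intro u v; simp [D]
      w_app := happ
      w_len := fun Q h => h.1
      gap := by
        intro Y a b hab hb ha1 hb1
        by_contra hcon
        refine hgap (Y.take b) (b - a) hb1 (by omega) (by omega) ?_
        rw [List.length_take, min_eq_left hb, List.take_take]
        rw [min_eq_left (by omega), Nat.sub_sub_self hab.le]
        exact ha1
      z_big := le_rfl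
      c_le := hcp
      W_big := le_rfl
      g1s := hs
      g1b := fun Q v h => by
        have := (hl1 Q v h).2
        show Q.length ≤ N1
        have : Q.length < Am := this
        omega
      g1c := by
        intro Y hY hb v
        have hY' : 2 * Am + M + Ac ≤ Y.length := hY
        obtain ⟨P, Q, e, h1, h2⟩ := hc1 Y (show 2 * Am ≤ Y.length by omega) (by omega)
          (fun q hq hd => hb (Or.inl ⟨q, hq, by exact_mod_cast hd⟩))
          (fun hbg => hb (badG_badZ hGpos (fun k hk => by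
            have := hAmle k hk
            omega) hbg)) v
        exact ⟨P, Q, e.symm, h1, h2⟩
      g2s := by
        intro k hk P Q v b hP hPQ h1 h2
        have := hg2s k hk P Q 1 v b hP h1 h2
        rw [mul_one] at this
        exact this
      g2c := by
        intro Y v hY
        have := hg2c Y 1 v (fun k hk => by
          have := hcp k hk
          show c k ≤ Y.length
          rw [hY]; exact this)
        exact this
      thin := by
        intro τ
        let S0 : Finset (ℕ × ℕ) := (Finset.range K ×ˢ Finset.range K).filter fun ab =>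
          ab.1 ≠ ab.2 ∧ BadZ Ms G (fun k => (GridG_19.Am G M 0 k : ℤ)) M m
            (τ + (X : ℤ) * 2 ^ ab.1 - (X : ℤ) * 2 ^ ab.2)
        have hS0 : S0.card ≤ Ms.card + m := by
          apply hthin τ S0
          intro ab hab
          rw [Finset.mem_filter, Finset.mem_product, Finset.mem_range, Finset.mem_range] at hab
          exact ⟨hab.1.1, hab.1.2, hab.2.1, hab.2.2⟩
        refine ⟨S0.image Prod.snd, (Finset.card_image_le).trans (by omega), ?_⟩
        intro k hk k' hk' hne hb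
        rw [Finset.mem_image]
        refine ⟨(k', k), ?_, rfl⟩
        rw [Finset.mem_filter, Finset.mem_product, Finset.mem_range, Finset.mem_range]
        refine ⟨⟨hk', hk⟩, hne, ?_⟩
        have e : τ - (((X * 2 ^ k : ℕ) : ℤ) - ((X * 2 ^ k' : ℕ) : ℤ)) =
            τ + (X : ℤ) * 2 ^ k' - (X : ℤ) * 2 ^ k := by push_cast; ring
        have hb' : BadZ Ms G (fun k => (GridG_19.Am G M 0 k : ℤ)) M m
          (τ - (((X * 2 ^ k : ℕ) : ℤ) - ((X * 2 ^ k' : ℕ) : ℤ))) := hb
        rw [e] at hb'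
        exact hb'
      gol := by
        intro τ
        by_cases hex : ∃ k < K, ∃ k' < K, k' ≠ k ∧ τ < (c k : ℤ) - c k' + N1 ∧
          (c k : ℤ) - c k' ≤ τ + N1
        · obtain ⟨k0, hk0, k0', hk0', hne0, h1, h2⟩ := hex
          refine ⟨{k0}, by simp, ?_⟩
          intro k hk k' hk' hne h3 h4
          have h3' : τ < (c k : ℤ) - c k' + N1 := h3
          have h4' : (c k : ℤ) - c k' ≤ τ + N1 := h4
          rw [Finset.mem_singleton]
          have hcc : ∀ j, ((c j : ℕ) : ℤ) = (X : ℤ) * 2 ^ j := by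
            intro j; show ((X * 2 ^ j : ℕ) : ℤ) = _; push_cast; ring
          have hXX : (2 * (N1 : ℤ)) < X := by exact_mod_cast hX
          rw [hcc, hcc] at h1 h2 h3' h4'
          refine (spaced (X := X) (a := k) (b := k') (c := k0) (d := k0') (Ne.symm hne) ?_).1
          rw [abs_lt]
          constructor <;> linarith
        · refine ⟨∅, by simp, ?_⟩
          intro k hk k' hk' hne h3 h4
          exact absurd ⟨k, hk, k', hk', hne, h3, h4⟩ hex }
  -- heights
  let φ : List α → S := fun w => (w.map f).prod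
  have hφ : ∀ u v, φ (u ++ v) = φ u * φ v := by intro u v; simp [φ]
  let Pm := M * G m
  have hPm : 0 < Pm := Nat.mul_pos hMpos (hGpos m)
  let B := z + N1 + p0 + Ac
  have hXeq : ∀ Y, Y ∈ D.XX ↔ Y ∈ P4_440.XX n SS z := by
    intro Y
    constructor
    · rintro ⟨h1, h2, h3⟩; exact ⟨h2, h1, fun t a b => h3 t b a⟩
    · rintro ⟨h1, h2, h3⟩; exact ⟨h2, h1, fun t a b => h3 t b a⟩
  have H1 : HL 1 (XL D) := by
    refine (P4_440.HL_block (φ := φ) (n := n) (S := SS) (z := z) (B := B) (P := Pm)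
      (R := fun _ => True) hφ (by show n ≤ z + N1 + p0 + Ac; show n ≤ (2 * p0 + 2 * N1 + n + 2) + N1 + p0 + Ac; omega)
      (by show z ≤ z + N1 + p0 + Ac; omega) hPm hfew
      (fun _ _ _ _ _ _ _ => Iff.rfl)).congr fun w => ?_
    constructor
    · intro h; exact ⟨(hXeq w).1 h, trivial⟩
    · rintro ⟨h, -⟩; exact (hXeq w).2 h
  have hnB : n ≤ B := by show n ≤ (2 * p0 + 2 * N1 + n + 2) + N1 + p0 + Ac; omega
  have hzB : z ≤ B := by show z ≤ z + N1 + p0 + Ac; omega
  have hp0z : p0 ≤ z := by show p0 ≤ 2 * p0 + 2 * N1 + n + 2; omega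
  have H2 : HL 1 (BL D) := by
    let R : List α → Prop := fun Y => BadZ Ms G (fun k => (GridG_19.Am G M 0 k : ℤ)) M m
      ((Y.length : ℤ) - p0) ∨ Y.length < z + N1 ∨
        ∃ t < z, t < Y.length ∧ Wo n SS (Y.take t) ∧ z ≤ t + N1
    refine (P4_440.HL_block (φ := φ) (n := n) (S := SS) (z := z) (B := B) (P := Pm)
      (R := R) hφ hnB hzB hPm hfew ?_).congr fun w => ?_
    · intro w w' h1 h2 h3 h4 h5
      have hwB : z + N1 + p0 + Ac ≤ w.length := h1
      have hwB' : z + N1 + p0 + Ac ≤ w'.length := h2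
      refine or_congr ?_ (or_congr ?_ ?_)
      · refine badZ_iff (Pm := (Pm : ℤ)) (fun p hp => ?_) (fun k hk => ?_) ?_
        · exact_mod_cast (hpd p hp).trans (Dvd.intro _ rfl)
        · exact_mod_cast (hGdvd k m hk).trans (Dvd.intro_left _ rfl)
        · have := (Nat.modEq_iff_dvd).1 h5
          have e : ((w'.length : ℤ) - p0) - ((w.length : ℤ) - p0) = (w'.length : ℤ) - w.length := by
            ring
          rw [e]; exact this
      · constructor <;> intro h <;> omega
      · have ht : ∀ t < z, w.take t = w'.take t := by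
          intro t ht
          have hB' : t ≤ B := by omega
          rw [← min_eq_left hB', ← List.take_take, h3, List.take_take]
        constructor
        · rintro ⟨t, h6, h7, h8, h9⟩
          exact ⟨t, h6, by omega, by rw [← ht t h6]; exact h8, h9⟩
        · rintro ⟨t, h6, h7, h8, h9⟩
          exact ⟨t, h6, by omega, by rw [ht t h6]; exact h8, h9⟩
    · constructor
      · rintro ⟨h1, h2⟩
        refine ⟨(hXeq w).1 h1, ?_⟩
        rcases h2 with h2 | h2 | ⟨t, h2, h3, h4⟩
        · exact Or.inl h2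
        · exact Or.inr (Or.inl h2)
        · refine Or.inr (Or.inr ⟨t, ?_, h2, h3, h4⟩)
          by_contra hc
          exact h1.2.2 t h2 (by show z ≤ t; omega) h3
      · rintro ⟨h1, h2⟩
        refine ⟨(hXeq w).2 h1, ?_⟩
        rcases h2 with h2 | h2 | ⟨t, h2, h3, h4, h5⟩
        · exact Or.inl h2
        · exact Or.inr (Or.inl h2)
        · exact Or.inr (Or.inr ⟨t, h3, h4, h5⟩)
  have H3 : ∀ x y, HL 1 (ZT (XL D) (Tt D) x y) := by
    intro x y
    refine (P4_440.HL_block (φ := φ) (n := n) (S := SS) (z := z) (B := B) (P := Pm)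
      (R := fun Y => D.T x Y = y) hφ hnB hzB hPm hfew ?_).congr fun w => ?_
    · intro w w' h1 h2 h3 h4 h5
      have hwB : z + N1 + p0 + Ac ≤ w.length := h1
      have hwB' : z + N1 + p0 + Ac ≤ w'.length := h2
      have hpB : p0 ≤ B := by omega
      have e1 : w.take p0 = w'.take p0 := by
        rw [← min_eq_left hpB, ← List.take_take, h3, List.take_take]
      have hdr : ∀ u : List α, u.drop p0 = (u.take B).drop p0 ++ u.drop B := by
        intro u
        by_cases hu : B ≤ u.length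
        · rw [← List.drop_append_of_le_length (by rw [List.length_take]; omega),
            List.take_append_drop]
        · rw [List.take_of_length_le (by omega), List.drop_of_length_le (l := u) (i := B) (by omega),
            List.append_nil]
      have e2 : φ (w.drop p0) = φ (w'.drop p0) := by
        rw [hdr w, hdr w', hφ, hφ, h3, h4]
      have e3 : nu1 (w.drop p0) = nu1 (w'.drop p0) := by
        refine hreg _ _ ?_ ?_ ?_ ?_ e2
        · rw [List.length_drop]; show Ac ≤ _; omega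
        · rw [List.length_drop]; show Ac ≤ _; omega
        · show (w.drop p0).take Ac = (w'.drop p0).take Ac
          have hpA : p0 + Ac ≤ B := by show p0 + Ac ≤ z + N1 + p0 + Ac; omega
          rw [List.take_drop, List.take_drop]
          rw [← min_eq_left hpA, ← List.take_take, h3, List.take_take]
        · rw [List.length_drop, List.length_drop]
          have h6 : (w.length - p0) + p0 ≡ (w'.length - p0) + p0 [MOD M * G m] := by
            rw [Nat.sub_add_cancel (by omega), Nat.sub_add_cancel (by omega)]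
            exact h5
          exact Nat.ModEq.add_right_cancel' _ h6
      show act (act x (φ (w.take p0)) + nu2 (w.take p0) 1) (φ (w.drop p0)) + nu1 (w.drop p0) = y ↔
        act (act x (φ (w'.take p0)) + nu2 (w'.take p0) 1) (φ (w'.drop p0)) + nu1 (w'.drop p0) = y
      rw [e1, e2, e3]
    · constructor
      · rintro ⟨h1, h2⟩; exact ⟨(hXeq w).1 h1, h2⟩
      · rintro ⟨h1, h2⟩; exact ⟨(hXeq w).2 h1, h2⟩
  have H4 : ∀ s, HL 3 ({w | (∀ u ∈ XL D, ¬ u <+: w) ∧ φ w = s} : Language α) := by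
    intro s
    refine ((P4_440.HL_rest (φ := φ) (n := n) (S := SS) (z := z) (B := B) (P := Pm)
      (R := fun Y => φ Y = s) hφ hnB hzB hPm hfew ?_).mono (by norm_num)).congr fun w => ?_
    · intro w w' h1 h2 h3 h4 h5
      have e : ∀ u : List α, φ u = φ (u.take B) * φ (u.drop B) := by
        intro u; rw [← hφ, List.take_append_drop]
      show φ w = s ↔ φ w' = s
      rw [e w, e w', h3, h4]
    · constructor
      · rintro ⟨h1, h2⟩; exact ⟨fun u hu => h1 u ((hXeq u).2 hu), h2⟩
      · rintro ⟨h1, h2⟩; exact ⟨fun u hu => h1 u ((hXeq u).1 hu), h2⟩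
  have hfinlen : ∀ N : ℕ, {w : List α | w.length ≤ N}.Finite := fun N => List.finite_length_le α N
  have hPC : PC (XL D) := by
    have h := P4_440.pc_XX (α := α) (n := n) (S := SS) (z := z)
      (by show 0 < 2 * p0 + 2 * N1 + n + 2; omega)
    exact ⟨fun h0 => h.ne ((hXeq []).1 h0),
      fun u hu v hv huv => h.pf u ((hXeq u).1 hu) v ((hXeq v).1 hv) huv⟩
  refine Top5_110.top_sem (φ := φ) (act := act) (XX := XL D) (Bad := BL D) (T := Tt D)
    (N1 := 0) (N2 := 1) (L1 := L1 D) (L2 := L2 D) (by simp [φ]) hφ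
    (fun v => Two_621.act_one v) (fun v a b => (Two_621.act_mul v a b).symm)
    (fun a b h => Two_621.act_faithful h) hPC (fun u hu => hu.1) ?_ H1 H2 H3 H4 ?_ ?_ ?_ ?_ s
  · intro u _ v v'
    show (act (act v (φ (u.take p0)) + nu2 (u.take p0) 1) (φ (u.drop p0)) + nu1 (u.drop p0)) -
      (act (act v' (φ (u.take p0)) + nu2 (u.take p0) 1) (φ (u.drop p0)) + nu1 (u.drop p0)) =
      act (v - v') (φ u)
    have e : φ u = φ (u.take p0) * φ (u.drop p0) := by rw [← hφ, List.take_append_drop]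
    rw [e]
    have hadd : ∀ (a b : V) (t : S), act (a + b) t = act a t + act b t := fun a b t => rfl
    have hsub : ∀ (a b : V) (t : S), act (a - b) t = act a t - act b t := fun a b t => rfl
    have hmul : ∀ (a : V) (t t' : S), act (act a t) t' = act a (t * t') :=
      fun a t t' => Two_621.act_mul a t t'
    rw [hadd, hadd, hmul, hmul, hsub]
    abel
  · intro v
    refine (hfinlen (p0 + N1)).subset ?_
    intro Q hQ
    exact hQ.2.1
  · intro v
    refine (hfinlen p0).subset ?_
    rintro Q ⟨k, hk, h1, -⟩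
    show Q.length ≤ p0
    have := hcp k hk
    have h1' : Q.length = c k := h1
    omega
  · intro u hu hnb x t ht
    have ht0 : t = [] := by
      rw [pow_zero] at ht
      exact ht
    subst ht0
    obtain ⟨p, q, y, h1, h2, h3⟩ := sem1 hOk (u := u) hu (fun hb => hnb ⟨hu, hb⟩) x
    exact ⟨p, q, y, by rw [List.append_nil]; exact h1, h2, h3⟩
  · intro u hu x t ht
    rw [pow_one] at ht
    exact sem2 hOk hu ht x

/-- the row over `Type` -/
theorem row0 (α : Type) [Finite α] (L : Language α) (hL : L.IsRegular) : HL 3 L :=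
  of_monoid (fun S _ _ f s => main f s) L hL

/-- **the row** -/
theorem row.{u} (α : Type u) [Finite α] (L : Language α) (hL : L.IsRegular) :
    ∃ e : Crest.RegLang.GRegExp α, e.height ≤ 3 ∧ e.lang = L :=
  Univ_119.bridge (fun α _ L hL => row0 α L hL) α L hL

end Crest.Agent.R320.FinB_356
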