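import Crest.Agent.R320.FinA_368

/-!
# Row 320: three stars over a prefix code with semantic right words (helper368)
-/

set_option autoImplicit false

namespace Crest.Agent.R320.Fin_368

open Crest.RegLang Crest.Agent.R320.Hk_851 Crest.Agent.R320.Blk467 Crest.Agent.R320.Core467

universe u

variable {α : Type u} {V : Type*}

section sem

variable (XX : Set (List α)) (T : V → List α → V) (L1 L2 : V → Set (List α))

/-- semantic right words of scheme 1 -/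
def R1 (y : V) : Set (List α) := {Q | ∀ x, ∀ P ∈ L1 x, P ++ Q ∈ XX ∧ T x (P ++ Q) = y}

/-- blocks cut by scheme 1 for every token -/
def Good : Set (List α) := {X | X ∈ XX ∧ ∀ x, ∃ P ∈ L1 x, ∃ Q ∈ R1 XX T L1 (T x X), P ++ Q = X}

/-- the other blocks -/
def Bad : Set (List α) := {X | X ∈ XX ∧ X ∉ Good XX T L1}

/-- semantic right words of scheme 2 (rest of a bad block and one more block) -/
def R2 (y : V) : Set (List α) := {Q | ∀ x, ∀ P ∈ L2 x,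
  (∃ X1 ∈ Bad XX T L1, ∃ X2 ∈ Bad XX T L1, X1 ++ X2 = P ++ Q ∧ T (T x X1) X2 = y) ∨
  (∃ X ∈ Good XX T L1, X <+: P ++ Q) ∨
  (∃ X1 ∈ Bad XX T L1, ∃ X2 ∈ Good XX T L1, X1 ++ X2 <+: P ++ Q)}

variable {XX T L1 L2}

theorem HL_quot {k : ℕ} {L : Language α} (hL : HL k L) {s : Set (List α)} (hs : s.Finite) :
    HL k (toL {Q | ∀ P ∈ s, P ++ Q ∈ L}) := by
  refine (HL.biInter (k := k) hs (L := fun P => {w | P ++ w ∈ L}) (fun P _ => hL.lquot P)).congr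
    fun w => ?_
  exact Iff.rfl

theorem HL_R1 [Finite V] (hfib : ∀ x y, HL 1 (toL {X | X ∈ XX ∧ T x X = y}))
    (h1 : ∀ x, (L1 x).Finite) (y : V) : HL 1 (toL (R1 XX T L1 y)) := by
  refine (HL.iInter (k := 1) (ι := V) (L := fun x => toL {Q | ∀ P ∈ L1 x, P ++ Q ∈
    toL {X | X ∈ XX ∧ T x X = y}}) (fun x => HL_quot (hfib x y) (h1 x))).congr fun w => ?_
  exact Iff.rfl

theorem HL_Good [Finite V] (hfib : ∀ x y, HL 1 (toL {X | X ∈ XX ∧ T x X = y}))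
    (h1 : ∀ x, (L1 x).Finite) (hXX : HL 1 (toL XX)) : HL 1 (toL (Good XX T L1)) := by
  refine (hXX.inf (HL.iInter (k := 1) (ι := V) (L := fun x => {X | ∃ y : V,
    X ∈ (toL {X | X ∈ XX ∧ T x X = y} ⊓ {X | ∃ P ∈ L1 x, X ∈ ({P} : Language α) *
      toL (R1 XX T L1 y)} : Language α)}) (fun x => HL.iUnion (k := 1) (ι := V)
      (fun y => (hfib x y).inf (HL.biUnion (k := 1) (h1 x)
        (L := fun P => ({P} : Language α) * toL (R1 XX T L1 y))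
        (fun P _ => (HL.word P).mul (HL_R1 hfib h1 y))))))).congr fun w => ?_
  constructor
  · rintro ⟨hw, h⟩
    refine ⟨hw, fun x => ⟨T x w, ⟨hw, rfl⟩, ?_⟩⟩
    obtain ⟨P, hP, Q, hQ, rfl⟩ := h x
    exact ⟨P, hP, Language.mem_mul.2 ⟨P, rfl, Q, hQ, rfl⟩⟩
  · rintro ⟨hw, h⟩
    refine ⟨hw, fun x => ?_⟩
    obtain ⟨y, ⟨_, hy⟩, P, hP, hm⟩ := h x
    obtain ⟨P', hP', Q, hQ, e⟩ := Language.mem_mul.1 hm
    have hPP : P' = P := hP'
    subst hPP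
    exact ⟨P', hP, Q, hy.symm ▸ hQ, e⟩

theorem HL_Bad [Finite V] (hfib : ∀ x y, HL 1 (toL {X | X ∈ XX ∧ T x X = y}))
    (h1 : ∀ x, (L1 x).Finite) (hXX : HL 1 (toL XX)) : HL 1 (toL (Bad XX T L1)) :=
  (hXX.inf (HL_Good hfib h1 hXX).compl).congr fun _ => Iff.rfl

theorem HL_BadF [Finite V] (hfib : ∀ x y, HL 1 (toL {X | X ∈ XX ∧ T x X = y}))
    (h1 : ∀ x, (L1 x).Finite) (hXX : HL 1 (toL XX)) (x y : V) :
    HL 1 (toL {X | X ∈ Bad XX T L1 ∧ T x X = y}) :=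
  ((HL_Bad hfib h1 hXX).inf (hfib x y)).congr fun _ =>
    ⟨fun h => ⟨h.1, h.1.1, h.2⟩, fun h => ⟨h.1, h.2.2⟩⟩

theorem HL_R2 [Finite V] (hfib : ∀ x y, HL 1 (toL {X | X ∈ XX ∧ T x X = y}))
    (h1 : ∀ x, (L1 x).Finite) (h2 : ∀ x, (L2 x).Finite) (hXX : HL 1 (toL XX)) (y : V) :
    HL 1 (toL (R2 XX T L1 L2 y)) := by
  have hB := HL_Bad hfib h1 hXX
  have hG := HL_Good hfib h1 hXX
  have key : ∀ x, HL 1 (toL {w | (∃ u : V, w ∈ toL {X | X ∈ Bad XX T L1 ∧ T x X = u} *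
      toL {X | X ∈ Bad XX T L1 ∧ T u X = y}) ∨ (∃ v ∈ toL (Good XX T L1), v <+: w) ∨
      (∃ v ∈ toL (Bad XX T L1) * toL (Good XX T L1), v <+: w)}) := by
    intro x
    exact HL.setOf_or (HL.iUnion (k := 1) (ι := V)
      (L := fun u => toL {X | X ∈ Bad XX T L1 ∧ T x X = u} *
      toL {X | X ∈ Bad XX T L1 ∧ T u X = y}) (fun u => (HL_BadF hfib h1 hXX x u).mul
      (HL_BadF hfib h1 hXX u y))) (HL.setOf_or hG.prefix (hB.mul hG).prefix)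
  refine (HL.iInter (k := 1) (ι := V) (L := fun x => toL {Q | ∀ P ∈ L2 x, P ++ Q ∈
    (toL {w | (∃ u : V, w ∈ toL {X | X ∈ Bad XX T L1 ∧ T x X = u} *
      toL {X | X ∈ Bad XX T L1 ∧ T u X = y}) ∨ (∃ v ∈ toL (Good XX T L1), v <+: w) ∨
      (∃ v ∈ toL (Bad XX T L1) * toL (Good XX T L1), v <+: w)})})
    (fun x => HL_quot (key x) (h2 x))).congr fun w => ?_
  constructor
  · intro h x P hP
    rcases h x P hP with ⟨X1, h1, X2, h2, e, ht⟩ | ⟨X, hX, hp⟩ | ⟨X1, h1, X2, h2, hp⟩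
    · exact Or.inl ⟨T x X1, Language.mem_mul.2 ⟨X1, ⟨h1, rfl⟩, X2, ⟨h2, ht⟩, e⟩⟩
    · exact Or.inr (Or.inl ⟨X, hX, hp⟩)
    · exact Or.inr (Or.inr ⟨X1 ++ X2, Language.mem_mul.2 ⟨X1, h1, X2, h2, rfl⟩, hp⟩)
  · intro h x P hP
    rcases h x P hP with ⟨u, hu⟩ | ⟨X, hX, hp⟩ | ⟨Y, hY, hp⟩
    · obtain ⟨X1, ⟨h1, e1⟩, X2, ⟨h2, e2⟩, e⟩ := Language.mem_mul.1 hu
      exact Or.inl ⟨X1, h1, X2, h2, e, by rw [e1, e2]⟩
    · exact Or.inr (Or.inl ⟨X, hX, hp⟩)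
    · obtain ⟨X1, h1, X2, h2, rfl⟩ := Language.mem_mul.1 hY
      exact Or.inr (Or.inr ⟨X1, h1, X2, h2, hp⟩)

/-- first block comparison in a prefix code -/
theorem pc_eq {C : Set (List α)} (hC : PCode C) {X Y r s : List α} (hX : X ∈ C) (hY : Y ∈ C)
    (e : X ++ r = Y ++ s) : X = Y ∧ r = s := by
  have hXY : X = Y := by
    rcases List.prefix_or_prefix_of_prefix (l₁ := X) (l₂ := Y) (l₃ := Y ++ s)
      (e ▸ List.prefix_append _ _) (List.prefix_append _ _) with h1 | h1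
    · exact hC.2 X hX Y hY h1
    · exact (hC.2 Y hY X hX h1).symm
  subst hXY
  exact ⟨rfl, List.append_cancel_left e⟩

theorem semtop [Finite V] (hC : PCode XX)
    (hfib : ∀ x y, HL 1 (toL {X | X ∈ XX ∧ T x X = y}))
    (h1 : ∀ x, (L1 x).Finite) (h2 : ∀ x, (L2 x).Finite) (hXX : HL 1 (toL XX))
    (hC2 : ∀ X1 ∈ Bad XX T L1, ∀ X2 ∈ Bad XX T L1, ∀ x, ∃ P ∈ L2 x,
      ∃ Q ∈ R2 XX T L1 L2 (T (T x X1) X2), P ++ Q = X1 ++ X2)
    (x y : V) : HL 3 (Lg XX T x y) := by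
  have hB := HL_Bad hfib h1 hXX
  have hBC : Bad XX T L1 ⊆ XX := fun X hX => hX.1
  have hGC : Good XX T L1 ⊆ XX := fun X hX => hX.1
  have hPB : PCode (Bad XX T L1) := hC.mono hBC
  have hev : ∀ v v', HL 2 (EvL (Bad XX T L1) T v v') := by
    refine even_step (k := 1) (Bad XX T L1) hPB T (fun x => toL (L2 x))
      (fun y => toL (R2 XX T L1 L2 y)) ?_ ?_ ?_ hB (fun x => HL.finite (h2 x))
      (fun y => HL_R2 hfib h1 h2 hXX y)
    · intro v v' P Q X1 X2 s t hP hQ hX1 hX2 e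
      rcases hQ v P hP with ⟨Y1, g1, Y2, g2, e2, ht⟩ | ⟨X, hX, q, hq⟩ | ⟨Y1, g1, Y2, g2, q, hq⟩
      · rw [← e2, List.append_assoc, List.append_assoc] at e
        obtain ⟨rfl, e'⟩ := pc_eq hPB g1 hX1 e
        obtain ⟨rfl, e''⟩ := pc_eq hPB g2 hX2 e'
        exact ⟨e2.symm, ht⟩
      · exfalso
        rw [← hq, List.append_assoc, List.append_assoc] at e
        obtain ⟨rfl, _⟩ := pc_eq hC (hGC hX) (hBC hX1) e
        exact hX1.2 hX
      · exfalso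
        rw [← hq] at e
        simp only [List.append_assoc] at e
        obtain ⟨rfl, e'⟩ := pc_eq hC (hBC g1) (hBC hX1) e
        obtain ⟨rfl, _⟩ := pc_eq hC (hGC g2) (hBC hX2) e'
        exact hX2.2 g2
    · intro v v' P Q hP hQ e0
      rcases hQ v P hP with ⟨Y1, g1, Y2, g2, e2, ht⟩ | ⟨X, hX, q, hq⟩ | ⟨Y1, g1, Y2, g2, q, hq⟩
      · rw [e0] at e2
        exact hPB.1 ((List.append_eq_nil_iff.1 e2).1 ▸ g1)
      · rw [e0] at hq
        exact hC.1 ((List.append_eq_nil_iff.1 hq).1 ▸ hGC hX)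
      · rw [e0] at hq
        exact hC.1 ((List.append_eq_nil_iff.1 (List.append_eq_nil_iff.1 hq).1).1 ▸ hBC g1)
    · intro X1 hX1 X2 hX2 v
      obtain ⟨P, hP, Q, hQ, e⟩ := hC2 X1 hX1 X2 hX2 v
      exact ⟨P, Q, e, hP, hQ⟩
  have hLB : ∀ v v', HL 2 (Lg (Bad XX T L1) T v v') :=
    lg_of_even (k := 1) _ T hev (fun v v' => (HL_BadF hfib h1 hXX v v').mono (by omega))
  refine star_step (k := 2) XX (Bad XX T L1) T (fun x => toL (L1 x))
    (fun y => toL (R1 XX T L1 y)) hBC ?_ ?_ hLB (fun x => HL.finite (h1 x))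
    (fun y => (HL_R1 hfib h1 y).mono (by omega)) x y
  · intro v v' P Q hP hQ
    obtain ⟨g1, g2⟩ := hQ v P hP
    exact ⟨[P ++ Q], by simpa using g1, by simp, g2⟩
  · intro X hX hXb v
    have hG : X ∈ Good XX T L1 := by
      by_contra hcon
      exact hXb ⟨hX, hcon⟩
    obtain ⟨P, hP, Q, hQ, e⟩ := hG.2 v
    exact ⟨P, Q, e, hP, hQ⟩

end sem

end Crest.Agent.R320.Fin_368
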