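import Crest.Agent.R320.FinA_4

/-!
# Row 320: join of the landed pieces (helper4), part B: the join
-/

set_option autoImplicit false

namespace Crest.Agent.R320.Fin_4

open Crest.RegLang Crest.Agent.R320.Hk_851 Crest.Agent.R320.Blk467

variable {α S V : Type}

theorem join [Finite α] [Monoid S] [Finite S] [AddCommGroup V] [Finite V]
    (act : V → S → V)
    (hadd : ∀ a b s, act (a + b) s = act a s + act b s)
    (hone : ∀ v, act v 1 = v) (hmul : ∀ v s t, act v (s * t) = act (act v s) t)
    (hfaith : ∀ s t, (∀ v, act v s = act v t) → s = t)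
    (φ : α → S) (g : Sc2n_937.Geo α)
    (hlenWo : ∀ P, g.Wo P → g.n ≤ P.length)
    (hgap : ∀ P Q : List α, g.Wo P → g.Wo (P ++ Q) → Q ≠ [] → 2 * g.p0 + 2 * g.N1 < Q.length)
    (few : ∀ (r : ℕ) (L : Language α), L.IsRegular →
        (∀ w ∈ L, ∀ F : Finset ℕ, (∀ x ∈ F, x ≤ w.length ∧ g.Wo (w.take x)) → F.card ≤ r) → HL 1 L)
    (lam rho : List α → Option V) (nu : List α → V)
    (hlen : ∀ P v, lam P = some v → P.length ≤ g.N1)
    (hs : ∀ P Q v b, lam P = some v → rho Q = some b →
      b = act v (((P ++ Q).map φ).prod) + nu (P ++ Q))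
    (B M : ℕ) (hM : 0 < M) (hrho : ∀ Q Q', Keq φ B M Q Q' → rho Q = rho Q')
    (BadT : ℕ → Prop)
    (hper : ∀ T T', B ≤ T → B ≤ T' → T % M = T' % M → BadT T → BadT T')
    (hcomp : ∀ Y : List α, g.N1 + g.q0 ≤ Y.length → ¬ BadT Y.length → ∀ u,
      ∃ P Q, Y = P ++ Q ∧ lam P = some u ∧ (rho Q).isSome)
    (K C0 : ℕ) (c : ℕ → ℕ) (hc : ∀ k, k < K → c k ≤ g.p0)
    (lam2 rho2 : ℕ → List α → Option V) (nu2 : List α → V)
    (hex2 : ∀ k, k < K → ∀ P Q v u, P.length = c k → Q.length = g.p0 - c k →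
      lam2 k P = some v → rho2 k Q = some u → u = act v (((P ++ Q).map φ).prod) + nu2 (P ++ Q))
    (hI : ∀ X1 : List α, X1.length = g.p0 → ∀ v, ∃ I : Finset ℕ, 2 * C0 + 2 ≤ I.card ∧
      ∀ k ∈ I, k < K ∧ lam2 k (X1.take (c k)) = some v ∧ (rho2 k (X1.drop (c k))).isSome)
    (hsp : ∀ k k' l l', k < K → k' < K → l < K → l' < K → k' ≠ k → l' ≠ l →
      c k + c l' < c l + c k' + 2 * g.N1 → c l + c k' < c k + c l' + 2 * g.N1 → k = l)
    (hthin : ∀ τ, g.z ≤ τ + g.p0 → ∀ J : Finset ℕ, (∀ k ∈ J, k < K ∧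
      ∃ k', k' < K ∧ k' ≠ k ∧ BadT (τ + c k' - c k - g.p0)) → J.card ≤ C0)
    (s : S) : HL 3 ({w | (w.map φ).prod = s} : Language α) := by
  classical
  -- the noise of scheme 1, normalised
  set nu1 : List α → V := nuS lam rho nu with hnu1
  have hs1 : ∀ P Q v b, lam P = some v → rho Q = some b →
      b = act v (((P ++ Q).map φ).prod) + nu1 (P ++ Q) := nuS_sound hs
  set pre : List α → V → V := fun X v => act v ((X.map φ).prod) + nu2 X with hpre
  set post : V → List α → V := fun u Y => act u ((Y.map φ).prod) + nu1 Y with hpost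
  set nuX : List α → V := fun X =>
    act (nu2 (X.take g.p0)) (((X.drop g.p0).map φ).prod) + nu1 (X.drop g.p0) with hnuX
  have hT : ∀ v X, g.T pre post v X = act v ((X.map φ).prod) + nuX X := by
    intro v X
    have e : (X.map φ).prod = ((X.take g.p0).map φ).prod * ((X.drop g.p0).map φ).prod := by
      rw [← List.prod_append, ← List.map_append, List.take_append_drop]
    simp only [Sc2n_937.Geo.T, hpre, hpost, hnuX]
    rw [hadd, e, hmul, add_assoc]
  set C : Set (List α) := {X | g.XX X} with hCdef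
  set Bad : Set (List α) := {X | g.XX X ∧ g.BadX BadT X} with hBad
  set L1 : V → Set (List α) := fun v => {P | g.LP1 pre lam v P} with hL1
  set L2 : V → Set (List α) := fun v => {P | Sc2n_937.Geo.LP2 K c lam2 v P} with hL2
  have hz := g.hz
  have hN := g.hN
  have hnq := g.hq
  have hz0 : 0 < g.z := by omega
  have hPC : PCode C := by
    refine ⟨fun h => ?_, fun X hX Y hY h => ?_⟩
    · have := h.1
      simp at this
      omega
    · obtain ⟨R, hR⟩ := h
      exact g.prefix_code (R := R) (R' := []) hX hY (by rw [hR, List.append_nil])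
  have hf1 : ∀ v, (L1 v).Finite := by
    intro v
    refine (List.finite_length_le α (g.p0 + g.N1)).subset ?_
    rintro P ⟨h1, h2⟩
    have := hlen _ _ h2
    rw [List.length_drop] at this
    show P.length ≤ _
    omega
  have hf2 : ∀ v, (L2 v).Finite := by
    intro v
    refine (List.finite_length_le α g.p0).subset ?_
    rintro P ⟨k, hk, h1, h2⟩
    show P.length ≤ _
    rw [h1]; exact hc k hk
  -- regularity of the XX and tails
  have hXXiff : ∀ X, g.XX X ↔ P4_933.XX g.Wo g.z X := by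
    intro X
    constructor
    · rintro ⟨h1, h2, h3⟩; exact ⟨h2, h1, fun t h h' => h3 t h' h⟩
    · rintro ⟨h1, h2, h3⟩; exact ⟨h2, h1, fun t h h' => h3 t h' h⟩
  have hXXreg : Language.IsRegular ({X | g.XX X} : Language α) := by
    have h1 : Language.IsRegular ({X | P4_933.XX g.Wo g.z X} : Language α) :=
      Crest.Agent.R320.Reg_852.HL.isRegular (P4_933.hl_XX0 (k := 0) g.loc hlenWo)
    have e : ({X | g.XX X} : Language α) = ({X | P4_933.XX g.Wo g.z X} : Language α) :=
      Set.ext fun X => hXXiff X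
    rw [e]; exact h1
  have hNBreg : Language.IsRegular ({X | P4_933.NB g.Wo g.z X} : Language α) :=
      Crest.Agent.R320.Reg_852.HL.isRegular (P4_933.hl_NB0 (k := 0) g.loc hlenWo)
  -- few walls
  have fewX : ∀ X, g.XX X → ∀ F : Finset ℕ, (∀ x ∈ F, x ≤ X.length ∧ g.Wo (X.take x)) →
      F.card ≤ g.z + 1 := by
    intro X hX F hF
    have hsub : F ⊆ insert X.length (Finset.range g.z) := by
      intro x hx
      obtain ⟨h1, h2⟩ := hF x hx
      rw [Finset.mem_insert, Finset.mem_range]
      by_contra hcon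
      push Not at hcon
      exact hX.2.2 x hcon.2 (by omega) h2
    calc F.card ≤ (insert X.length (Finset.range g.z)).card := Finset.card_le_card hsub
      _ ≤ (Finset.range g.z).card + 1 := Finset.card_insert_le _ _
      _ = g.z + 1 := by rw [Finset.card_range]
  have fewN : ∀ X, P4_933.NB g.Wo g.z X → ∀ F : Finset ℕ,
      (∀ x ∈ F, x ≤ X.length ∧ g.Wo (X.take x)) → F.card ≤ g.z + 1 := by
    intro X hX F hF
    have hsub : F ⊆ Finset.range g.z := by
      intro x hx
      obtain ⟨h1, h2⟩ := hF x hx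
      rw [Finset.mem_range]
      by_contra hcon
      exact hX x h1 (by omega) h2
    have := Finset.card_le_card hsub
    rw [Finset.card_range] at this
    omega
  have hlX : ∀ f : List α → Prop, Language.IsRegular ({u | f u} : Language α) →
      HL 1 ({X | g.XX X ∧ f X} : Language α) := by
    intro f hf
    refine few (g.z + 1) _ ?_ fun w hw F hF => fewX w hw.1 F hF
    exact hXXreg.inf hf
  have hlN : ∀ f : List α → Prop, Language.IsRegular ({u | f u} : Language α) →
      HL 1 ({X | P4_933.NB g.Wo g.z X ∧ f X} : Language α) := by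
    intro f hf
    refine few (g.z + 1) _ ?_ fun w hw F hF => fewN w hw.1 F hF
    exact hNBreg.inf hf
  -- keys
  set A : ℕ := g.p0 + g.N1 + B + g.z with hA
  have key_nu1 : ∀ u u', Keq φ (g.N1 + B) M u u' → nu1 u = nu1 u' := fun u u' h =>
    nuS_key hlen hs hrho le_rfl h
  have key_nuX : ∀ u u', Keq φ A M u u' → nuX u = nuX u' := by
    intro u u' h
    simp only [hnuX]
    rw [h.take (p := g.p0) (by omega), (h.drop (p := g.p0) (B := 0) (by omega)).prod,
      key_nu1 _ _ (h.drop (p := g.p0) (B := g.N1 + B) (by omega))]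
  have key_Bad : ∀ u u', Keq φ A M u u' → g.BadX BadT u → g.BadX BadT u' := by
    rintro u u' h (⟨t, ht, h1, h2, h3⟩ | hb)
    · left
      refine ⟨t, ?_, ?_, h2, h3⟩
      · have := h.2.1; omega
      · rw [← h.take (p := t) (by omega)]; exact h1
    · right
      have h1 := (h.drop (p := g.p0) (B := B) (by omega)).2.2.2.2
      have h2 := h.1
      have h3 := h.2.1
      rw [List.length_drop, List.length_drop] at h1
      exact hper _ _ (by omega) (by omega) h1 hb
  have regT : ∀ x y, Language.IsRegular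
      ({X | act x ((X.map φ).prod) + nuX X = y} : Language α) := by
    intro x y
    refine reg_key φ A M hM _ fun q q' h hq => ?_
    rw [← h.prod, ← key_nuX _ _ h]; exact hq
  have regB : Language.IsRegular ({X | g.BadX BadT X} : Language α) :=
    reg_key φ A M hM _ key_Bad
  refine Top5_120.top5 act hadd hone hmul hfaith φ nuX C Bad hPC (fun X hX => hX.1) L1 L2 hf1 hf2
    (fun x y => hlX _ (regT x y)) ?_ ?_ ?_ ?_ s
  · intro x y
    have h := hlX (fun X => g.BadX BadT X ∧ act x ((X.map φ).prod) + nuX X = y)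
      (regB.inf (regT x y))
    refine h.congr fun w => ?_
    constructor
    · rintro ⟨⟨h1, h2⟩, h3⟩; exact ⟨h1, h2, h3⟩
    · rintro ⟨h1, h2, h3⟩; exact ⟨⟨h1, h2⟩, h3⟩
  · intro s'
    have h := hlN (fun w => (w.map φ).prod = s') (reg_key φ 0 1 one_pos _ fun q q' h hq => by
      rw [← h.prod]; exact hq)
    refine h.congr fun w => ?_
    have e : P4_933.NB g.Wo g.z w ↔ ∀ X ∈ C, ¬ X <+: w := by
      rw [P4_933.NB_iff]
      constructor
      · intro h X hX hp; exact h X hp ((hXXiff X).1 hX)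
      · intro h X hp hX; exact h X ((hXXiff X).2 hX) hp
    constructor
    · rintro ⟨h1, h2⟩; exact ⟨e.2 h1, h2⟩
    · rintro ⟨h1, h2⟩; exact ⟨e.1 h1, h2⟩
  · -- completeness of scheme 1
    intro X hX hXb v
    have hE : ¬ g.E X := fun h => hXb ⟨hX, Or.inl h⟩
    have hBT : ¬ BadT (X.length - g.p0) := fun h => hXb ⟨hX, Or.inr h⟩
    have hXl : g.z ≤ X.length := hX.1
    obtain ⟨P, Q, b, e, hP, hQ⟩ := g.complete1 pre (rho := rho) hlen hX hE (fun u => by
      obtain ⟨P, Q, e, h1, h2⟩ := hcomp (X.drop g.p0) (by rw [List.length_drop]; omega)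
        (by rw [List.length_drop]; exact hBT) u
      exact ⟨P, Q, e, h1, h2⟩) v
    refine ⟨P, Q, e.symm, hP, fun x P' hP' => ?_⟩
    have hex : ∀ P Q u b, lam P = some u → rho Q = some b → b = post u (P ++ Q) :=
      fun P Q u b h1 h2 => hs1 P Q u b h1 h2
    obtain ⟨h1, h2⟩ := g.sound1 pre post hlen hex hP' hQ
    obtain ⟨h3, h4⟩ := g.sound1 pre post hlen hex hP hQ
    refine ⟨h1, ?_⟩
    rw [← hT, ← hT, h2, e, h4]
  · -- completeness of scheme 2
    intro X hX Y hY v
    have hex : ∀ k, k < K → ∀ P Q v u, P.length = c k → Q.length = g.p0 - c k →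
        lam2 k P = some v → rho2 k Q = some u → u = pre (P ++ Q) v := hex2
    obtain ⟨P, Q, b, e, hP, hQ⟩ := g.complete2 pre post (BadT := BadT) (K := K) (c := c)
      (lam2 := lam2) (rho2 := rho2) (C0 := C0) hc hgap hsp hthin hX.1 hY.1 v (by
        have hXl : g.z ≤ X.length := hX.1.1
        obtain ⟨I, hI1, hI2⟩ := hI (X.take g.p0) (by rw [List.length_take]; omega) v
        refine ⟨I, hI1, fun k hk => ?_⟩
        obtain ⟨h1, h2, h3⟩ := hI2 k hk
        refine ⟨h1, ?_, h3⟩
        rw [List.take_take, min_eq_left (hc k h1)] at h2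
        exact h2)
    have hb : g.T pre post (g.T pre post v X) Y = b := by
      obtain ⟨X2, h1, h2, h3⟩ := g.sound2 pre post (BadT := BadT) (R := []) (R' := Y) hc hex
        hX.1 hX.2 hP hQ (by rw [List.append_nil, e])
      rw [e] at h2
      rw [List.append_cancel_left h2]
      exact h3
    refine ⟨P, Q, e, hP, fun x P' hP' => ?_⟩
    have hP'' := hP'
    obtain ⟨k0, hk0, hPl, hl⟩ := hP''
    have hQ' := hQ
    obtain ⟨k, hk, l, hend, hgood, -⟩ := hQ'
    have hend0 : ∃ l, g.CEnd Q (c k0) l := by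
      by_cases h : k0 = k
      · exact ⟨l, by rw [h]; exact hend⟩
      · obtain ⟨l, h1, -⟩ := hgood k0 hk0 h
        exact ⟨l, h1⟩
    obtain ⟨l0, hl0⟩ := hend0
    have hX' : g.XX (P' ++ Q.take l0) :=
      g.xx_of_cend (by rw [hPl]; exact hc k0 hk0) (by rw [hPl]; exact hl0)
    by_cases hb' : g.BadX BadT (P' ++ Q.take l0)
    · left
      obtain ⟨X2, h1, h2, h3⟩ := g.sound2 pre post (BadT := BadT) (R := []) (R' := Q.drop l0) hc hex
        hX' hb' hP' hQ (by rw [List.append_nil, List.append_assoc, List.take_append_drop])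
      refine ⟨P' ++ Q.take l0, ⟨hX', hb'⟩, X2, h1, h2.symm, ?_⟩
      rw [← hT, ← hT, ← hT, ← hT, h3, hb]
    · right
      refine ⟨P' ++ Q.take l0, hX', fun h => hb' h.2, ⟨Q.drop l0, ?_⟩⟩
      rw [List.append_assoc, List.take_append_drop]

end Crest.Agent.R320.Fin_4
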