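import Crest.Agent.R320.Sch2_420

/-!
Row 320, helper420: the spoil count of `Hy` (Sch2_420) from wall gaps, a separated ruler and the
thin count.
-/

set_option autoImplicit false
set_option linter.unusedSectionVars false
set_option maxHeartbeats 1000000

namespace Crest.Agent.R320.FinB_420

open Crest.Agent.R320.Sch2_420

variable {α S V : Type} {D : Dt α S V}

/-- what a bad candidate says about the walls of `w` -/
theorem ev (hno : 0 < D.no)
    (loc : ∀ P Q : List α, D.no ≤ Q.length → (D.Wo (P ++ Q) ↔ D.Wo Q))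
    (zge : 3 * D.p0 + D.no ≤ D.z)
    (w : List α) {a b : ℕ} (ha : a ≤ D.p0) (hb : b ≤ D.p0) (h : D.BadAt b (w.drop a)) :
    ∃ T ≤ w.length, D.Wo (w.take T) ∧ D.z + a ≤ T + b ∧
      (∀ T' < T, D.z + a ≤ T' + b → ¬ D.Wo (w.take T')) ∧
      ((∃ T' ≤ w.length, D.Wo (w.take T') ∧ D.z + a ≤ T' + b + D.N1 ∧
        T' + b < D.z + a + D.N1) ∨ D.BadT (T + b - a - D.p0)) := by
  obtain ⟨t, ht, ⟨h1, h2, h3⟩, h4⟩ := h
  have hlen : (List.drop a w).length = w.length - a := List.length_drop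
  rw [hlen] at ht
  have hlt : ((List.drop a w).take t).length = t := by rw [List.length_take]; omega
  rw [hlt] at h2 h3
  have hw : ∀ s, D.no ≤ s → s ≤ t → (D.Wo (w.take (a + s)) ↔ D.Wo ((w.drop a).take s)) := by
    intro s hs1 hs2
    have e : w.take (a + s) = w.take a ++ (w.drop a).take s := List.take_add
    rw [e]
    exact loc _ _ (by rw [List.length_take, hlen]; omega)
  have hT : D.Wo (w.take (a + t)) := (hw t (by omega) le_rfl).2 h1
  refine ⟨a + t, by omega, hT, by omega, ?_, ?_⟩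
  · intro T' hT1 hT2 hT3
    obtain ⟨s, rfl⟩ := Nat.exists_eq_add_of_le (show a ≤ T' by omega)
    refine h3 s (by omega) (by omega) ?_
    rw [List.take_take, min_eq_left (by omega)]
    exact (hw s (by omega) (by omega)).1 hT3
  · rcases h4 with (h5 | ⟨s, hs1, hs2, hs3, hs4⟩) | h5
    · rw [hlt] at h5
      left
      exact ⟨a + t, by omega, hT, by omega, by omega⟩
    · rw [hlt] at hs1
      rw [List.take_take, min_eq_left (by omega)] at hs4
      left
      refine ⟨a + s, by omega, (hw s (by omega) (by omega)).2 hs4, by omega, ?_⟩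
      by_contra hcon
      push Not at hcon
      refine h3 s (by omega) hs1 ?_
      rw [List.take_take, min_eq_left (by omega)]
      exact hs4
    · right
      rw [hlt] at h5
      have : a + t + b - a - D.p0 = b + t - D.p0 := by omega
      rw [this]
      exact h5

theorem spoil_of (hno : 0 < D.no)
    (loc : ∀ P Q : List α, D.no ≤ Q.length → (D.Wo (P ++ Q) ↔ D.Wo Q))
    (zge : 4 * D.p0 + D.no ≤ D.z) {G R0 : ℕ}
    (gap : ∀ (w : List α) (s t : ℕ), s < t → t ≤ w.length → D.Wo (w.take s) → D.Wo (w.take t) →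
      s + G < t) (hG : 2 * D.N1 + 2 * D.p0 ≤ G)
    (hc : ∀ k < D.K, D.c k ≤ D.p0)
    (sep : ∀ i j k l, i < D.K → j < D.K → k < D.K → l < D.K → i ≠ j → k ≠ l →
      ¬ (i = k ∧ j = l) →
      ((2 * D.N1 : ℕ) : ℤ) < |((D.c i : ℤ) - D.c j) - ((D.c k : ℤ) - D.c l)|)
    (thin : ∀ T : ℕ, D.p0 ≤ T → ∃ B : Finset ℕ, B.card ≤ R0 ∧
      ∀ k < D.K, (∃ k' < D.K, k' ≠ k ∧ D.BadT (T + D.c k' - D.c k)) → k ∈ B)
    (w : List α) :
    ∃ B : Finset ℕ, B.card ≤ 1 + 2 * R0 ∧
      ∀ k < D.K, (∃ k' < D.K, k' ≠ k ∧ D.BadAt (D.c k') (w.drop (D.c k))) → k ∈ B := by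
  classical
  have hT1 : ∃ T1, 2 * D.p0 ≤ T1 ∧ ∀ T ≤ w.length, D.Wo (w.take T) → D.z ≤ T + D.p0 →
      T < D.z + D.p0 → T = T1 := by
    by_cases h : ∃ T ≤ w.length, D.Wo (w.take T) ∧ D.z ≤ T + D.p0 ∧ T < D.z + D.p0
    · obtain ⟨T, h1, h2, h3, h4⟩ := h
      refine ⟨T, by omega, fun T' a b c d => ?_⟩
      rcases lt_trichotomy T T' with h | h | h
      · have := gap w T T' h a h2 b
        omega
      · exact h.symm
      · have := gap w T' T h h1 b h2
        omega
    · exact ⟨2 * D.p0, le_rfl, fun T a b c d => absurd ⟨T, a, b, c, d⟩ h⟩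
  have hT2 : ∃ T2, 2 * D.p0 ≤ T2 ∧ ∀ T ≤ w.length, D.Wo (w.take T) → D.z + D.p0 ≤ T →
      (∀ T' < T, D.z + D.p0 ≤ T' → ¬ D.Wo (w.take T')) → T = T2 := by
    by_cases h : ∃ T ≤ w.length, D.Wo (w.take T) ∧ D.z + D.p0 ≤ T ∧
        (∀ T' < T, D.z + D.p0 ≤ T' → ¬ D.Wo (w.take T'))
    · obtain ⟨T, h1, h2, h3, h4⟩ := h
      refine ⟨T, by omega, fun T' a b c d => ?_⟩
      rcases lt_trichotomy T T' with h | h | h
      · exact absurd h2 (d T h h3)
      · exact h.symm
      · exact absurd b (h4 T' h c)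
    · exact ⟨2 * D.p0, le_rfl, fun T a b c d => absurd ⟨T, a, b, c, d⟩ h⟩
  obtain ⟨T1, hT1a, hT1b⟩ := hT1
  obtain ⟨T2, hT2a, hT2b⟩ := hT2
  obtain ⟨B1, hB1a, hB1b⟩ := thin (T1 - D.p0) (by omega)
  obtain ⟨B2, hB2a, hB2b⟩ := thin (T2 - D.p0) (by omega)
  let BE : Finset ℕ := (Finset.range D.K).filter (fun k => ∃ k' < D.K, k' ≠ k ∧
    ∃ T' ≤ w.length, D.Wo (w.take T') ∧ D.z + D.c k ≤ T' + D.c k' + D.N1 ∧
        T' + D.c k' < D.z + D.c k + D.N1)
  have hBE : BE.card ≤ 1 := by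
    rw [Finset.card_le_one]
    intro k hk j hj
    simp only [BE, Finset.mem_filter, Finset.mem_range] at hk hj
    obtain ⟨hk, k', hk', hkk, T, hT, hTw, hTl, hTu⟩ := hk
    obtain ⟨hj, j', hj', hjj, U, hU, hUw, hUl, hUu⟩ := hj
    have c1 := hc k hk
    have c2 := hc k' hk'
    have c3 := hc j hj
    have c4 := hc j' hj'
    have hTU : T = U := by
      rcases lt_trichotomy T U with h | h | h
      · have := gap w T U h hU hTw hUw
        omega
      · exact h
      · have := gap w U T h hT hUw hTw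
        omega
    subst hTU
    by_contra hne
    have h5 := sep k' k j' j hk' hk hj' hj hkk hjj (fun h => hne h.2)
    have h6 : |((D.c k' : ℤ) - D.c k) - ((D.c j' : ℤ) - D.c j)| ≤ ((2 * D.N1 : ℕ) : ℤ) := by
      rw [abs_le]
      push_cast
      constructor <;> omega
    omega
  refine ⟨BE ∪ (B1 ∪ B2), ?_, ?_⟩
  · have h1 := Finset.card_union_le BE (B1 ∪ B2)
    have h2 := Finset.card_union_le B1 B2
    omega
  · intro k hk hkbad
    obtain ⟨k', hk', hne, hbad⟩ := hkbad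
    have c1 := hc k hk
    have c2 := hc k' hk'
    obtain ⟨T, h1, h2, h3, h4, h5⟩ := ev hno loc (by omega) w c1 c2 hbad
    rcases h5 with ⟨T', e1, e2, e3, e4⟩ | h5
    · refine Finset.mem_union_left _ ?_
      simp only [BE, Finset.mem_filter, Finset.mem_range]
      exact ⟨hk, k', hk', hne, T', e1, e2, e3, e4⟩
    · refine Finset.mem_union_right _ ?_
      by_cases hlt : T < D.z + D.p0
      · have hT := hT1b T h1 h2 (by omega) hlt
        refine Finset.mem_union_left _ (hB1b k hk ⟨k', hk', hne, ?_⟩)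
        have e : T1 - D.p0 + D.c k' - D.c k = T + D.c k' - D.c k - D.p0 := by omega
        rw [e]; exact h5
      · have hT := hT2b T h1 h2 (by omega) (fun T' a b => h4 T' a (by omega))
        refine Finset.mem_union_right _ (hB2b k hk ⟨k', hk', hne, ?_⟩)
        have e : T2 - D.p0 + D.c k' - D.c k = T + D.c k' - D.c k - D.p0 := by omega
        rw [e]; exact h5

end Crest.Agent.R320.FinB_420
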