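import Crest.Agent.R320.FinA_426
import Crest.Agent.R320.Grid_899
import Crest.Agent.R320.Thin_963
import Crest.Agent.R320.ExactR_237
import Crest.Agent.R320.LWallAll_922

/-!
Row 320: choice of the constants; `fin` : every fibre of a finite monoid has height at most three.
-/

set_option autoImplicit false

namespace Crest.Agent.R320.FinB_426

open Crest.RegLang Crest.Agent.R320.Hk_851 Crest.Agent.R320.Blk467 Crest.Agent.R320.BddReg_746
open Crest.Agent.R320.Sc2n_937 Crest.Agent.R320.FinA_426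

/-- distinct large odd primes -/
theorem exists_primes (k B : ℕ) : ∃ q : Fin k → ℕ, (∀ j, (q j).Prime ∧ B < q j) ∧
    Function.Injective q := by
  have hinf : (({p | Nat.Prime p} : Set ℕ) \ {p | p < B + 1}).Infinite :=
    Nat.infinite_setOf_prime.diff (Set.finite_lt_nat (B + 1))
  refine ⟨fun j => (hinf.natEmbedding _ (j : ℕ) : ℕ), fun j => ?_, fun i j h => ?_⟩
  · have h := (hinf.natEmbedding _ (j : ℕ)).2
    refine ⟨h.1, ?_⟩
    have := h.2
    simp only [Set.mem_setOf_eq, not_lt] at this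
    exact this
  · have h1 : hinf.natEmbedding _ (i : ℕ) = hinf.natEmbedding _ (j : ℕ) := Subtype.ext h
    exact Fin.ext ((hinf.natEmbedding _).injective h1)

/-- bad totals -/
def BadN {k : ℕ} (q : Fin k → ℕ) (κ m : ℕ) (T : ℕ) : Prop :=
  (∃ j, q j ∣ T) ∨ (∃ j, 1 ≤ j ∧ j ≤ m ∧
    ¬ ((∏ j, q j) * Grid_899.G κ (j - 1) ≤ (T - Grid_899.Am (∏ j, q j) κ j) % Grid_899.G κ j ∧
      (T - Grid_899.Am (∏ j, q j) κ j) % Grid_899.G κ j + (∏ j, q j) * Grid_899.G κ (j - 1) ≤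
        Grid_899.G κ j))

theorem badN_badT {k : ℕ} (q : Fin k → ℕ) (κ m T : ℕ)
    (hT : Grid_899.Am (∏ j, q j) κ (m + 1) ≤ T) (h : BadN q κ m T) :
    Thin963.BadT (Finset.univ.image q) m (fun i => (Grid_899.G κ i : ℤ))
      (fun i => (((∏ j, q j) * Grid_899.G κ i : ℕ) : ℤ))
      (fun i => (Grid_899.Am (∏ j, q j) κ i : ℤ)) (T : ℤ) := by
  rcases h with ⟨j, hj⟩ | ⟨j, hj1, hjm, hj⟩
  · left
    exact ⟨q j, Finset.mem_image.2 ⟨j, Finset.mem_univ _, rfl⟩, by exact_mod_cast hj⟩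
  · right
    obtain ⟨i, rfl⟩ : ∃ i, j = i + 1 := ⟨j - 1, by omega⟩
    rw [Nat.add_sub_cancel] at hj
    have hAm : Grid_899.Am (∏ j, q j) κ (i + 1) ≤ T :=
      (Grid_899.Am_mono (by omega : i + 1 ≤ m + 1)).trans hT
    set Ms := ∏ j, q j with hMs
    set a := Grid_899.Am Ms κ (i + 1) with ha
    set g := Grid_899.G κ (i + 1) with hg
    set r := (T - a) % g with hr
    have hgpos : 0 < g := Grid_899.G_pos _
    have hrlt : r < g := Nat.mod_lt _ hgpos
    obtain ⟨d, hdm⟩ : ∃ d, g * d + r = T - a := ⟨_, Nat.div_add_mod _ _⟩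
    refine ⟨i, by omega, ?_⟩
    have hcast : ((T : ℤ) - a) = (g : ℤ) * (d : ℤ) + r := by
      have h5 : ((g * d + r : ℕ) : ℤ) = ((T - a : ℕ) : ℤ) := by rw [hdm]
      rw [Nat.cast_sub hAm] at h5
      push_cast at h5
      linarith
    by_cases h1 : Ms * Grid_899.G κ i ≤ r
    · have h2 : g < r + Ms * Grid_899.G κ i := by
        by_contra hc
        exact hj ⟨h1, by omega⟩
      refine ⟨(g : ℤ) - r, ?_, ?_⟩
      · rw [abs_le]
        constructor
        · have : (r : ℤ) < g := by exact_mod_cast hrlt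
          have h0 : (0 : ℤ) ≤ ((Ms * Grid_899.G κ i : ℕ) : ℤ) := Int.natCast_nonneg _
          show -((Ms * Grid_899.G κ i : ℕ) : ℤ) ≤ _
          linarith
        · show (g : ℤ) - r ≤ ((Ms * Grid_899.G κ i : ℕ) : ℤ)
          have : (g : ℤ) < r + ((Ms * Grid_899.G κ i : ℕ) : ℤ) := by exact_mod_cast h2
          linarith
      · show (g : ℤ) ∣ (T : ℤ) - a + ((g : ℤ) - r)
        rw [hcast]
        exact ⟨(d : ℤ) + 1, by ring⟩
    · refine ⟨-(r : ℤ), ?_, ?_⟩
      · rw [abs_le]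
        have h0 : (0 : ℤ) ≤ r := Int.natCast_nonneg _
        have h3 : (r : ℤ) < ((Ms * Grid_899.G κ i : ℕ) : ℤ) := by
          have : r < Ms * Grid_899.G κ i := by omega
          exact_mod_cast this
        constructor
        · show -((Ms * Grid_899.G κ i : ℕ) : ℤ) ≤ -(r : ℤ)
          linarith
        · show -(r : ℤ) ≤ ((Ms * Grid_899.G κ i : ℕ) : ℤ)
          linarith
      · show (g : ℤ) ∣ (T : ℤ) - a + -(r : ℤ)
        rw [hcast]
        exact ⟨(d : ℤ), by ring⟩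

theorem badN_per {k : ℕ} (q : Fin k → ℕ) (κ m T T' : ℕ)
    (hT : Grid_899.Am (∏ j, q j) κ (m + 1) ≤ T) (hT' : Grid_899.Am (∏ j, q j) κ (m + 1) ≤ T')
    (h : T % ((∏ j, q j) * Grid_899.G κ m) = T' % ((∏ j, q j) * Grid_899.G κ m)) :
    BadN q κ m T ↔ BadN q κ m T' := by
  have hdvd : ∀ j, (q j ∣ T ↔ q j ∣ T') := by
    intro j
    have h1 : q j ∣ (∏ j, q j) * Grid_899.G κ m :=
      (Finset.dvd_prod_of_mem q (Finset.mem_univ j)).mul_right _
    exact Nat.ModEq.dvd_iff (m := q j) (Nat.ModEq.of_dvd h1 h) dvd_rfl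
  have hmod : ∀ j, j ≤ m → (T - Grid_899.Am (∏ j, q j) κ j) % Grid_899.G κ j =
      (T' - Grid_899.Am (∏ j, q j) κ j) % Grid_899.G κ j := by
    intro j hj
    have h1 : Grid_899.G κ j ∣ (∏ j, q j) * Grid_899.G κ m :=
      (Grid_899.G_dvd hj).mul_left _
    have h2 : T % Grid_899.G κ j = T' % Grid_899.G κ j := Nat.ModEq.of_dvd h1 h
    have h3 := Grid_899.Am_mono (Ms := ∏ j, q j) (κ := κ) (by omega : j ≤ m + 1)
    exact mod_sub (by omega) (by omega) h2
  unfold BadN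
  constructor
  · rintro (⟨j, hj⟩ | ⟨j, h1, h2, h3⟩)
    · exact Or.inl ⟨j, (hdvd j).1 hj⟩
    · exact Or.inr ⟨j, h1, h2, by rw [← hmod j h2]; exact h3⟩
  · rintro (⟨j, hj⟩ | ⟨j, h1, h2, h3⟩)
    · exact Or.inl ⟨j, (hdvd j).2 hj⟩
    · exact Or.inr ⟨j, h1, h2, by rw [hmod j h2]; exact h3⟩

theorem sum_G (κ i : ℕ) (hκ : 1 ≤ κ) :
    ∑ j ∈ Finset.range (i + 1), Grid_899.G κ j ≤ 2 * Grid_899.G κ i := by
  induction i with
  | zero => simp [Grid_899.G]
  | succ i ih =>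
    rw [Finset.sum_range_succ]
    have h1 : 2 * Grid_899.G κ i ≤ Grid_899.G κ (i + 1) := by
      unfold Grid_899.G
      rw [Nat.mul_add, Nat.mul_one, pow_add, Nat.mul_comm]
      exact Nat.mul_le_mul_left _ (by
        calc 2 = 2 ^ 1 := by norm_num
          _ ≤ 2 ^ κ := Nat.pow_le_pow_right (by norm_num) hκ)
    omega

theorem grow (Ms K κ i : ℕ) (hκ : K + 5 + Ms ≤ κ) :
    (2 : ℤ) ^ (K + 4) * ∑ j ∈ Finset.range (i + 1), (((Ms * Grid_899.G κ j : ℕ)) : ℤ) ≤
      (Grid_899.G κ (i + 1) : ℤ) := by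
  have h1 := sum_G κ i (by omega)
  have h2 : Ms ≤ 2 ^ Ms := Nat.lt_two_pow_self.le
  have h3 : 2 ^ (K + 4) * ∑ j ∈ Finset.range (i + 1), Ms * Grid_899.G κ j ≤
      Grid_899.G κ (i + 1) := by
    rw [← Finset.mul_sum]
    calc 2 ^ (K + 4) * (Ms * ∑ j ∈ Finset.range (i + 1), Grid_899.G κ j)
        ≤ 2 ^ (K + 4) * (2 ^ Ms * (2 * Grid_899.G κ i)) :=
          Nat.mul_le_mul_left _ (Nat.mul_le_mul h2 h1)
      _ = 2 ^ (K + 5 + Ms) * Grid_899.G κ i := by
          rw [pow_add 2 (K + 5) Ms, pow_succ 2 (K + 4)]; ring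
      _ ≤ 2 ^ κ * Grid_899.G κ i :=
          Nat.mul_le_mul_right _ (Nat.pow_le_pow_right (by norm_num) hκ)
      _ = Grid_899.G κ (i + 1) := by
          unfold Grid_899.G
          rw [Nat.mul_add, Nat.mul_one, pow_add, Nat.mul_comm]
  exact_mod_cast h3

theorem fin (α : Type) [Finite α] (S : Type) [Monoid S] [Finite S] (φ : α → S) (s : S) :
    HL 3 ({w | (w.map φ).prod = s} : Language α) := by
  classical
  haveI : Fintype S := Fintype.ofFinite S
  obtain ⟨act, hadd, hone, hmul, hfaith⟩ := exists_module S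
  obtain ⟨k, m, HG⟩ := Grid_899.grid_gadget_reg S (S → ZMod 2) act
  obtain ⟨K, HE⟩ := ExactR_237.exact_gadget α S (S → ZMod 2) φ act (2 * (k + m) + 2)
  obtain ⟨q, hq, hqinj⟩ := exists_primes k (2 ^ (K + 1))
  have hqodd : ∀ j, Odd (q j) := by
    intro j
    refine (hq j).1.odd_of_ne_two ?_
    have h1 := (hq j).2
    have h2 : 2 ^ 1 ≤ 2 ^ (K + 1) := Nat.pow_le_pow_right (by norm_num) (by omega)
    omega
  have hqcop : Pairwise (fun i j => Nat.Coprime (q i) (q j)) := by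
    intro i j hij
    exact (Nat.coprime_primes (hq i).1 (hq j).1).2 fun h => hij (hqinj h)
  set Ms := ∏ j, q j with hMs
  have hMspos : 0 < Ms := Finset.prod_pos fun j _ => (hq j).1.pos
  set κ := K + 5 + Ms with hκ
  obtain ⟨lam, rho, nu1, g1, g2, g3, g4, g5⟩ := HG q hqodd hqcop κ α
    (fun w => (w.map φ).prod) (fun u v => by rw [List.map_append, List.prod_append])
  rw [← hMs] at g1 g2 g4 g5
  set A1 := Grid_899.Am Ms κ (m + 1) with hA1
  obtain ⟨X, hXN, hXpos, hX⟩ := Thin963.thin K m (Finset.univ.image q)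
    (fun i => (Grid_899.G κ i : ℤ)) (fun i => ((Ms * Grid_899.G κ i : ℕ) : ℤ))
    (fun i => (Grid_899.Am Ms κ i : ℤ))
    (by
      intro p hp
      obtain ⟨j, -, rfl⟩ := Finset.mem_image.1 hp
      refine ⟨(hq j).1, ?_⟩
      exact_mod_cast (hq j).2.le)
    (by
      intro p hp
      obtain ⟨j, -, rfl⟩ := Finset.mem_image.1 hp
      apply Nat.isCoprime_iff_coprime.2
      unfold Grid_899.G
      exact Nat.Coprime.pow_right _ ((Nat.coprime_two_right).2 (hqodd j)))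
    (by exact_mod_cast Grid_899.G_pos m)
    (by
      intro i j hij
      exact_mod_cast Grid_899.G_dvd (κ := κ) hij)
    (by
      intro i
      exact_mod_cast Nat.mul_pos hMspos (Grid_899.G_pos i))
    (by
      intro i
      exact_mod_cast Dvd.intro_left Ms rfl)
    (by
      intro i hi
      exact grow Ms K κ i le_rfl)
    (2 * (A1 + 1 : ℕ) + 1)
  obtain ⟨Xn, rfl⟩ : ∃ n : ℕ, X = n := ⟨X.toNat, (Int.toNat_of_nonneg hXpos.le).symm⟩
  have hXn : 0 < Xn := by exact_mod_cast hXpos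
  have hXN' : 2 * (A1 + 1) + 1 ≤ Xn := by exact_mod_cast hXN
  let c : ℕ → ℕ := fun j => Xn * 2 ^ j
  set p0 := Xn * 2 ^ K with hp0
  have hcp : ∀ j, j < K → c j ≤ p0 := fun j hj =>
    Nat.mul_le_mul_left _ (Nat.pow_le_pow_right (by norm_num) hj.le)
  obtain ⟨lam2, rho2, nu2, e1, e2⟩ := HE c (fun i j hij _ =>
    Nat.mul_lt_mul_of_pos_left (Nat.pow_lt_pow_right (by norm_num) hij) hXn)
  obtain ⟨n, G, B, Wo, hLW, hgapW, -, -, hfree⟩ :=
    LWallAll_922.walls_all_left α (2 * p0 + 2 * (A1 + 1) + 1) (by omega)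
  let g : Geo α :=
    { Wo := Wo
      n := n
      z := p0 + (A1 + 1) + (n + 2 * p0 + 3 * A1)
      p0 := p0
      q0 := n + 2 * p0 + 3 * A1
      N1 := A1 + 1
      loc := hLW.app
      hz := rfl
      hq := by omega
      hN := by omega
      hqp := by omega }
  refine core (B := max B (2 * p0 + 2 * (A1 + 1) + 1)) (R := 2) g hLW.len ?_ ?_ act hadd hone hmul
    hfaith φ (BadN q κ m) (Ms * Grid_899.G κ m)
    (Nat.mul_pos hMspos (Grid_899.G_pos m)) ?_ lam rho nu1 ?_ ?_ ?_ A1 ?_ ?_ K c hcp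
    lam2 (fun k Q => rho2 k Q 1) (fun X => nu2 X 1) ?_ (k + m) ?_ ?_ ?_ s
  · -- free
    intro u hu
    obtain ⟨a, x, v, i, ha, hx, hv, rfl⟩ := hfree u hu
    refine Language.mem_mul.2 ⟨a ++ pw x i, ⟨a, x, i, ha.trans (le_max_left _ _),
      hx.trans (le_max_right _ _), rfl⟩, v, Language.mem_mul.2 ⟨v, ⟨v, [], 0,
      hv.trans (le_max_left _ _), by simp, by simp [pw]⟩, [], rfl, by simp⟩, rfl⟩
  · -- gap
    intro P Q hP hPQ hQ
    have hQl : 0 < Q.length := List.length_pos_of_ne_nil hQ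
    have h1 := hgapW (P ++ Q) P.length (P ++ Q).length
      (by rw [List.length_append]; omega) le_rfl
      (by rw [List.take_left]; exact hP) (by rw [List.take_length]; exact hPQ)
    rw [List.length_append] at h1
    show 2 * p0 + 2 * (A1 + 1) < Q.length
    omega
  · -- periodicity
    intro T T' hT hT' h
    have h1 : n + 2 * p0 + 3 * A1 ≤ T := hT
    have h2 : n + 2 * p0 + 3 * A1 ≤ T' := hT'
    exact badN_per q κ m T T' (by rw [← hMs]; omega) (by rw [← hMs]; omega)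
      (by rw [← hMs]; exact h)
  · intro P v h
    have h1 := (g1 P v h).1
    have h2 : Grid_899.Am Ms κ m ≤ A1 := Grid_899.Am_mono (by omega)
    show P.length ≤ A1 + 1
    omega
  · intro P Q u b h1 h2
    exact g3 P Q u b h1 h2
  · intro Y hY hB v
    have hY' : n + 2 * p0 + 3 * A1 ≤ Y.length := hY
    refine g4 Y (by omega) (fun j hj => hB (Or.inl ⟨j, hj⟩)) (fun j h1 h2 => ?_) v
    by_contra hc
    exact hB (Or.inr ⟨j, h1, h2, hc⟩)
  · show A1 ≤ n + 2 * p0 + 3 * A1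
    omega
  · intro Q Q' h1 h2 h3 h4 h5
    exact (g5 Q Q' h1 h2 h3 h4 h5).2
  · intro j hj P Q v u hP hQ h1 h2
    have := e1 j hj P Q 1 v u hP h1 h2
    rw [mul_one] at this
    exact this
  · -- ruler
    intro a a' b b' ha ha' hb hb' hne hne' h1 h2
    have h1' : Xn * 2 ^ a + Xn * 2 ^ b' < Xn * 2 ^ b + Xn * 2 ^ a' + 2 * (A1 + 1) := h1
    have h2' : Xn * 2 ^ b + Xn * 2 ^ a' < Xn * 2 ^ a + Xn * 2 ^ b' + 2 * (A1 + 1) := h2
    have hd : (2 : ℤ) ^ a - 2 ^ a' = 2 ^ b - 2 ^ b' := by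
      by_contra hcon
      have h3 : (1 : ℤ) ≤ |((2 : ℤ) ^ a - 2 ^ a') - (2 ^ b - 2 ^ b')| :=
        Int.one_le_abs (sub_ne_zero.2 hcon)
      have h4 : (Xn : ℤ) ≤ |(Xn : ℤ) * (((2 : ℤ) ^ a - 2 ^ a') - (2 ^ b - 2 ^ b'))| := by
        rw [abs_mul, Nat.abs_cast]
        nlinarith [Int.natCast_nonneg Xn]
      have h5 : |(Xn : ℤ) * (((2 : ℤ) ^ a - 2 ^ a') - (2 ^ b - 2 ^ b'))| < 2 * (A1 + 1) := by
        have h1z : (Xn : ℤ) * 2 ^ a + Xn * 2 ^ b' < Xn * 2 ^ b + Xn * 2 ^ a' + 2 * (A1 + 1) := by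
          exact_mod_cast h1'
        have h2z : (Xn : ℤ) * 2 ^ b + Xn * 2 ^ a' < Xn * 2 ^ a + Xn * 2 ^ b' + 2 * (A1 + 1) := by
          exact_mod_cast h2'
        rw [abs_lt]
        constructor <;> nlinarith
      have h6 : (2 * ((A1 : ℤ) + 1) + 1) ≤ Xn := by exact_mod_cast hXN'
      linarith
    exact (G369.pow_diff hne.symm hne'.symm hd).1
  · -- thin
    intro τ hτ J hJ
    have hτ' : p0 + (A1 + 1) + (n + 2 * p0 + 3 * A1) ≤ τ + p0 := hτ
    have hch : ∀ j, ∃ j', j ∈ J → (j' < K ∧ j' ≠ j ∧ BadN q κ m (τ + c j' - c j - p0)) := by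
      intro j
      by_cases hj : j ∈ J
      · obtain ⟨-, j', h1, h2, h3⟩ := hJ j hj
        exact ⟨j', fun _ => ⟨h1, h2, h3⟩⟩
      · exact ⟨0, fun h => absurd h hj⟩
    choose f hf using hch
    have hle := hX ((τ : ℤ) - p0)
    refine le_trans (Finset.card_le_card_of_injOn (fun j => (f j, j)) ?_ ?_)
      (le_trans hle ?_)
    · intro j hj
      have hjK := (hJ j hj).1
      obtain ⟨h1, h2, h3⟩ := hf j hj
      have hcj := hcp j hjK
      have hcj' := hcp (f j) h1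
      have h4 := badN_badT q κ m _ (by rw [← hMs]; omega) h3
      simp only [Finset.coe_filter, Finset.mem_product, Finset.mem_range, Set.mem_setOf_eq]
      refine ⟨⟨h1, hjK⟩, h2, ?_⟩
      convert h4 using 1
      have e : ((τ + c (f j) - c j - p0 : ℕ) : ℤ) = (τ : ℤ) + c (f j) - c j - p0 := by
        omega
      rw [e]
      simp only [c]
      push_cast
      ring
    · intro a _ b _ hab
      exact (Prod.mk.inj hab).2
    · have : (Finset.univ.image q).card ≤ k := by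
        refine Finset.card_image_le.trans ?_
        simp
      omega
  · -- completeness of gadget 2
    intro X1 hX1 v
    have hX1' : X1.length = p0 := hX1
    obtain ⟨I, h1, h2⟩ := e2 X1 1 v (fun j hj => by rw [hX1']; exact hcp j hj)
    exact ⟨I, h1, h2⟩

end Crest.Agent.R320.FinB_426
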