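import Crest.Agent.R320.FinA_542
import Crest.Agent.R320.Grid_899
import Crest.Agent.R320.Thin_963
import Crest.Agent.R320.ExactR_237
import Crest.Agent.R320.LWallAll_922

/-! Row 320: constants (helper542). -/

set_option autoImplicit false

namespace Crest.Agent.R320.Fin_542

open Crest.Agent.R320.Hk_851 Crest.Agent.R320.Sc2n_937

theorem exists_primes (k N : ℕ) : ∃ q : Fin k → ℕ, (∀ j, (q j).Prime ∧ N ≤ q j) ∧
    Function.Injective q := by
  have hinf : ({p : ℕ | p.Prime ∧ N ≤ p}).Infinite := by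
    refine Set.infinite_of_forall_exists_gt fun a => ?_
    obtain ⟨p, h1, h2⟩ := Nat.exists_infinite_primes (max N (a + 1))
    exact ⟨p, ⟨h2, le_trans (le_max_left _ _) h1⟩, by
      have := le_trans (le_max_right N (a + 1)) h1; omega⟩
  refine ⟨fun j => (hinf.natEmbedding _ (j : ℕ)).1, fun j => (hinf.natEmbedding _ (j : ℕ)).2, ?_⟩
  intro i j h
  have h1 := (hinf.natEmbedding _).injective (Subtype.ext h)
  exact Fin.ext h1

/-- noise made semantic, finite state -/
theorem sem_nu {α S V : Type} [Monoid S] [AddCommGroup V] (act : V → S → V) (φ : α → S)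
    (lam rho : List α → Option V) (nu : List α → V) (a A' M0 : ℕ)
    (h1 : ∀ P v, lam P = some v → P.length < a)
    (h2 : ∀ Q b, rho Q = some b → A' ≤ Q.length)
    (h3 : ∀ P Q v b, lam P = some v → rho Q = some b →
      b = act v ((P ++ Q).map φ).prod + nu (P ++ Q))
    (h5 : ∀ Q Q' : List α, A' ≤ Q.length → A' ≤ Q'.length → Q.take A' = Q'.take A' →
      ((Q.drop A').map φ).prod = ((Q'.drop A').map φ).prod →
      Q.length ≡ Q'.length [MOD M0] → rho Q = rho Q') :
    ∃ nu1 : List α → V,
      (∀ P Q v b, lam P = some v → rho Q = some b →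
        b = act v ((P ++ Q).map φ).prod + nu1 (P ++ Q)) ∧
      (∀ x r r' : List α, a + A' ≤ x.length → r.length % M0 = r'.length % M0 →
        (r.map φ).prod = (r'.map φ).prod → nu1 (x ++ r) = nu1 (x ++ r')) := by
  classical
  let E : List α → V → V → Prop := fun u v b => ∃ P Q, u = P ++ Q ∧ lam P = some v ∧ rho Q = some b
  let nu1 : List α → V := fun u =>
    if h : ∃ p : V × V, E u p.1 p.2 then h.choose.2 - act h.choose.1 (u.map φ).prod else 0
  have hE : ∀ u v b, E u v b → nu1 u = b - act v (u.map φ).prod := by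
    intro u v b hu
    have hex : ∃ p : V × V, E u p.1 p.2 := ⟨(v, b), hu⟩
    have e : nu1 u = hex.choose.2 - act hex.choose.1 (u.map φ).prod := dif_pos hex
    obtain ⟨P, Q, e1, e2, e3⟩ := hex.choose_spec
    obtain ⟨P', Q', f1, f2, f3⟩ := hu
    have g1 := h3 _ _ _ _ e2 e3
    have g2 := h3 _ _ _ _ f2 f3
    rw [← e1] at g1
    rw [← f1] at g2
    rw [e, eq_sub_iff_add_eq.2 (show nu u + act v (u.map φ).prod = b by rw [add_comm]; exact g2.symm) |>.symm,
      eq_sub_iff_add_eq.2 (show nu u + act hex.choose.1 (u.map φ).prod = hex.choose.2 by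
        rw [add_comm]; exact g1.symm) |>.symm]
  have htr : ∀ (x r r' : List α), a + A' ≤ x.length → r.length % M0 = r'.length % M0 →
      (r.map φ).prod = (r'.map φ).prod → ∀ v b, E (x ++ r) v b → E (x ++ r') v b := by
    rintro x r r' hx hl hp v b ⟨P, Q, e, hP, hQ⟩
    have hPl := h1 _ _ hP
    have ePx : P = x.take P.length := by
      have := congrArg (fun l => l.take P.length) e
      simp only [List.take_left] at this
      rw [List.take_append_of_le_length (by omega)] at this
      exact this.symm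
    have eQ : Q = x.drop P.length ++ r := by
      have := congrArg (fun l => l.drop P.length) e
      simp only [List.drop_left] at this
      rw [List.drop_append_of_le_length (by omega)] at this
      exact this.symm
    have hxd : A' ≤ (x.drop P.length).length := by rw [List.length_drop]; omega
    refine ⟨P, x.drop P.length ++ r', ?_, hP, ?_⟩
    · conv_rhs => rw [ePx]
      rw [← List.append_assoc]
      have : (x.take P.length).length = P.length := by rw [List.length_take]; omega
      rw [this, List.take_append_drop]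
    · rw [← hQ, eQ]
      refine (h5 _ _ ?_ ?_ ?_ ?_ ?_).symm
      · rw [List.length_append]; omega
      · rw [List.length_append]; omega
      · rw [List.take_append_of_le_length hxd, List.take_append_of_le_length hxd]
      · rw [List.drop_append_of_le_length hxd, List.drop_append_of_le_length hxd]
        simp only [List.map_append, List.prod_append, hp]
      · rw [List.length_append, List.length_append]
        exact Nat.ModEq.add_left _ hl
  refine ⟨nu1, ?_, ?_⟩
  · intro P Q v b hP hQ
    rw [hE (P ++ Q) v b ⟨P, Q, rfl, hP, hQ⟩]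
    simp
  · intro x r r' hx hl hp
    by_cases h : ∃ v b, E (x ++ r) v b
    · obtain ⟨v, b, h⟩ := h
      rw [hE _ v b h, hE _ v b (htr x r r' hx hl hp v b h)]
      simp only [List.map_append, List.prod_append, hp]
    · have h' : ¬ ∃ v b, E (x ++ r') v b := by
        rintro ⟨v, b, h2⟩
        exact h ⟨v, b, htr x r' r hx hl.symm hp.symm v b h2⟩
      have e1 : nu1 (x ++ r) = 0 := dif_neg (by rintro ⟨p, hp⟩; exact h ⟨p.1, p.2, hp⟩)
      have e2 : nu1 (x ++ r') = 0 := dif_neg (by rintro ⟨p, hp⟩; exact h' ⟨p.1, p.2, hp⟩)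
      rw [e1, e2]

theorem growth (K m Ms κ : ℕ) (hκ : K + 5 + Ms ≤ κ) (i : ℕ) :
    (2:ℤ) ^ (K + 4) * ∑ j ∈ Finset.range (i + 1), ((Ms * Grid_899.G κ j : ℕ) : ℤ) ≤
      ((Grid_899.G κ (i + 1) : ℕ) : ℤ) := by
  have h1 : ∀ i, ∑ j ∈ Finset.range (i + 1), (2:ℕ) ^ (κ * j) ≤ 2 * 2 ^ (κ * i) := by
    intro i
    induction i with
    | zero => simp
    | succ i ih =>
      rw [Finset.sum_range_succ]
      have h2 : (2:ℕ) * 2 ^ (κ * i) ≤ 2 ^ (κ * (i + 1)) := by
        rw [Nat.mul_add, Nat.mul_one, Nat.pow_add, Nat.mul_comm]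
        refine Nat.mul_le_mul_left _ ?_
        calc 2 = 2 ^ 1 := rfl
          _ ≤ 2 ^ κ := Nat.pow_le_pow_right (by norm_num) (by omega)
      omega
  have h3 : 2 ^ (K + 4) * ∑ j ∈ Finset.range (i + 1), (Ms * Grid_899.G κ j) ≤
      Grid_899.G κ (i + 1) := by
    unfold Grid_899.G
    rw [← Finset.mul_sum]
    have hMs : Ms ≤ 2 ^ Ms := Nat.lt_two_pow_self.le
    calc 2 ^ (K + 4) * (Ms * ∑ j ∈ Finset.range (i + 1), 2 ^ (κ * j))
        ≤ 2 ^ (K + 4) * (2 ^ Ms * (2 * 2 ^ (κ * i))) :=
          Nat.mul_le_mul_left _ (Nat.mul_le_mul hMs (h1 i))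
      _ = 2 ^ (K + 5 + Ms) * 2 ^ (κ * i) := by ring
      _ ≤ 2 ^ κ * 2 ^ (κ * i) := Nat.mul_le_mul_right _ (Nat.pow_le_pow_right (by norm_num) hκ)
      _ = 2 ^ (κ * (i + 1)) := by ring
  exact_mod_cast h3

end Crest.Agent.R320.Fin_542
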