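import Crest.Agent.R320.FinA_590

set_option autoImplicit false
set_option linter.unusedSectionVars false

namespace Crest.Agent.R320.FinB_590

open Crest.RegLang Crest.Agent.R320.Hk_851 Crest.Agent.R320.Sc2n_937
open Crest.Agent.R320.BddReg_746 Crest.Agent.R320.FinA_590

variable {A S V : Type} [Monoid S] [AddCommGroup V]

/-- **the join, word part.** -/
theorem core [Finite A] [Finite S] [Finite V] (f : A → S) (act : V → S → V)
    (hadd : ∀ a b s, act (a + b) s = act a s + act b s)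
    (hone : ∀ v, act v 1 = v) (hmul : ∀ v s t, act v (s * t) = act (act v s) t)
    (hfaith : ∀ s t, (∀ v, act v s = act v t) → s = t)
    (g : Geo A) (len : ∀ P, g.Wo P → g.n ≤ P.length) (B R : ℕ)
    (free : ∀ u : List A, (∀ t < u.length, ¬ g.Wo (u.take t)) → u ∈ (PN B R : Language A))
    (lam rho : List A → Option V) (nu1 : List A → V)
    (hlen : ∀ P v, lam P = some v → P.length ≤ g.N1)
    (hsnd : ∀ P Q v b, lam P = some v → rho Q = some b →
      b = act v ((P ++ Q).map f).prod + nu1 (P ++ Q))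
    (BadT : ℕ → Prop)
    (hcmp : ∀ Y : List A, g.q0 ≤ Y.length → ¬ BadT Y.length → ∀ v, ∃ P Q, Y = P ++ Q ∧
      lam P = some v ∧ (rho Q).isSome)
    (hrho : ∀ b, Language.IsRegular ({Q | rho Q = some b} : Language A))
    (K : ℕ) (c : ℕ → ℕ) (lam2 rho2 : ℕ → List A → Option V) (nu2 : List A → V)
    (hc : ∀ k, k < K → c k ≤ g.p0)
    (hex2 : ∀ k, k < K → ∀ P Q v u, P.length = c k → Q.length = g.p0 - c k →
      lam2 k P = some v → rho2 k Q = some u → u = act v ((P ++ Q).map f).prod + nu2 (P ++ Q))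
    (C0 : ℕ)
    (hcmp2 : ∀ u : List A, u.length = g.p0 → ∀ v, ∃ I : Finset ℕ, 2 * C0 + 2 ≤ I.card ∧
      ∀ k ∈ I, k < K ∧ lam2 k (u.take (c k)) = some v ∧ (rho2 k (u.drop (c k))).isSome)
    (hgap : ∀ P Q : List A, g.Wo P → g.Wo (P ++ Q) → Q ≠ [] → 2 * g.p0 + 2 * g.N1 < Q.length)
    (hsp : ∀ k k' l l', k < K → k' < K → l < K → l' < K → k' ≠ k → l' ≠ l →
      c k + c l' < c l + c k' + 2 * g.N1 → c l + c k' < c k + c l' + 2 * g.N1 → k = l)
    (hthin : ∀ τ, g.z ≤ τ + g.p0 → ∀ J : Finset ℕ, (∀ k ∈ J, k < K ∧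
      ∃ k', k' < K ∧ k' ≠ k ∧ BadT (τ + c k' - c k - g.p0)) → J.card ≤ C0)
    (L0 M0 : ℕ) (hM0 : 0 < M0)
    (hper : ∀ a b, L0 ≤ a → L0 ≤ b → a ≡ b [MOD M0] → (BadT a ↔ BadT b)) (s : S) :
    HL 3 ({w | (w.map f).prod = s} : Language A) := by
  classical
  have hz := g.hz
  have hN := g.hN
  -- the data of the top
  set pre : List A → V → V := fun X v => act v (X.map f).prod + nu2 X with hpre
  set post : V → List A → V := fun v Y => act v (Y.map f).prod + nuS lam rho nu1 Y with hpost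
  set nu : List A → V := nuX f act g.p0 nu2 (nuS lam rho nu1) with hnu
  set C : Set (List A) := {X | g.XX X} with hC
  set Bad : Set (List A) := {X | g.XX X ∧ g.BadX BadT X} with hBad
  have hT : ∀ v X, g.T pre post v X = act v (X.map f).prod + nu X := by
    intro v X
    show act (act v ((X.take g.p0).map f).prod + nu2 (X.take g.p0)) ((X.drop g.p0).map f).prod +
      nuS lam rho nu1 (X.drop g.p0) = _
    rw [hadd, ← hmul, ← List.prod_append, ← List.map_append, List.take_append_drop, add_assoc]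
    rfl
  have hex1 : ∀ P Q u b, lam P = some u → rho Q = some b → b = post u (P ++ Q) := by
    intro P Q u b h1 h2
    show b = act u ((P ++ Q).map f).prod + nuS lam rho nu1 (P ++ Q)
    rw [nuS_eq h1 h2]
    exact hsnd P Q u b h1 h2
  have hXXiff : ∀ X, g.XX X ↔ Crest.Agent.R320.P4_933.XX g.Wo g.z X := fun X =>
    ⟨fun h => ⟨h.2.1, h.1, fun t ht hzt => h.2.2 t hzt ht⟩,
      fun h => ⟨h.2.1, h.1, fun t hzt ht => h.2.2 t ht hzt⟩⟩
  -- regular classes
  have hzone : ∀ x y, Language.IsRegular ({X | g.p0 ≤ X.length ∧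
      act x (X.map f).prod + nu X = y} : Language A) := fun x y =>
    reg_zone f act g.p0 nu2 _ (reg_nuS f act hlen hsnd hrho) x y
  have hbadreg : Language.IsRegular ({X | g.BadX BadT X} : Language A) := by
    refine Crest.Agent.R320.Bridge_975.reg_of_local f (g.z + g.N1 + g.p0 + L0) M0 hM0 _ ?_
    intro q q2 h1 h2 h3 h4 _
    have e1 : ∀ t, t < g.z + g.N1 → q.take t = q2.take t := by
      intro t ht
      have := congrArg (List.take t) h3
      rwa [List.take_take, List.take_take, min_eq_left (by omega)] at this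
    unfold Geo.BadX Geo.E
    have e2 : BadT (q.length - g.p0) ↔ BadT (q2.length - g.p0) := by
      refine hper _ _ (by omega) (by omega) ?_
      have h5 : (q.length - g.p0) + g.p0 ≡ (q2.length - g.p0) + g.p0 [MOD M0] := by
        rw [Nat.sub_add_cancel (by omega), Nat.sub_add_cancel (by omega)]
        exact h4
      exact Nat.ModEq.add_right_cancel' _ h5
    rw [e2]
    refine or_congr ⟨?_, ?_⟩ Iff.rfl
    · rintro ⟨t, ht, hw, h5, h6⟩
      exact ⟨t, by omega, by rwa [← e1 t h6], h5, h6⟩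
    · rintro ⟨t, ht, hw, h5, h6⟩
      exact ⟨t, by omega, by rwa [e1 t h6], h5, h6⟩
  have hxz : ∀ X, g.XX X → g.p0 ≤ X.length := fun X hX => by have := hX.1; omega
  refine Crest.Agent.R320.Top5_120.top5 act hadd hone hmul hfaith f nu C Bad ?_ ?_
    (fun v => {P | P.length ≤ g.p0 + g.N1 ∧ g.LP1 pre lam v P})
    (fun v => {P | Geo.LP2 K c lam2 v P}) ?_ ?_ ?_ ?_ ?_ ?_ ?_ s
  · -- prefix code
    refine ⟨fun h => ?_, fun X hX Y hY h => ?_⟩
    · have h1 : g.z ≤ ([] : List A).length := h.1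
      simp at h1
      omega
    · obtain ⟨R, rfl⟩ := h
      exact g.prefix_code (R := R) (R' := []) hX hY (by simp)
  · exact fun X hX => hX.1
  · exact fun v => (List.finite_length_le A (g.p0 + g.N1)).subset fun P hP => hP.1
  · intro v
    refine (Set.Finite.biUnion (Set.finite_lt_nat K)
      (fun k _ => List.finite_length_eq A (c k))).subset ?_
    rintro P ⟨k, hk, hP, -⟩
    simp only [Set.mem_iUnion]
    exact ⟨k, hk, hP⟩
  · intro x y
    refine (Crest.Agent.R320.P4_933.hl_XX (z := g.z) g.loc len free (hzone x y)).congr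
      fun X => ?_
    exact ⟨fun h => ⟨(hXXiff X).1 h.1, hxz X h.1, h.2⟩, fun h => ⟨(hXXiff X).2 h.1, h.2.2⟩⟩
  · intro x y
    refine (Crest.Agent.R320.P4_933.hl_XX (z := g.z) g.loc len free
      (f := fun X => g.BadX BadT X ∧ (g.p0 ≤ X.length ∧ act x (X.map f).prod + nu X = y))
      (hbadreg.inf (hzone x y))).congr fun X => ?_
    exact ⟨fun h => ⟨(hXXiff X).1 h.1.1, h.1.2, hxz X h.1.1, h.2⟩,
      fun h => ⟨⟨(hXXiff X).2 h.1, h.2.1⟩, h.2.2.2⟩⟩
  · intro s
    refine (Crest.Agent.R320.P4_933.hl_NB (z := g.z) g.loc len free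
      (f := fun X => (X.map f).prod = s) (reg_ph f (fun t => t = s))).congr fun X => ?_
    constructor
    · rintro ⟨h1, h2⟩
      exact ⟨(Crest.Agent.R320.P4_933.NB_iff _ _ _).2 fun P hP hX =>
        h1 P ((hXXiff P).2 hX) hP, h2⟩
    · rintro ⟨h1, h2⟩
      exact ⟨fun P hP hpre => (Crest.Agent.R320.P4_933.NB_iff _ _ _).1 h1 P hpre
        ((hXXiff P).1 hP), h2⟩
  · -- scheme 1
    intro X hX hnb v
    have hX' : g.XX X := hX
    have hnb' : ¬ g.BadX BadT X := fun h => hnb ⟨hX, h⟩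
    have hE : ¬ g.E X := fun h => hnb' (Or.inl h)
    have hB : ¬ BadT (X.drop g.p0).length := by
      rw [List.length_drop]; exact fun h => hnb' (Or.inr h)
    have hql : g.q0 ≤ (X.drop g.p0).length := by
      rw [List.length_drop]; have := hX'.1; omega
    obtain ⟨P, Q, b, hXe, hP, hQ⟩ := g.complete1 pre hlen hX' hE
      (fun u => hcmp _ hql hB u) v
    have hPl : P.length ≤ g.p0 + g.N1 := by
      have h1 := hlen _ _ hP.2
      rw [List.length_drop] at h1
      omega
    have hs := g.sound1 pre post hlen hex1 hP hQ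
    refine ⟨P, Q, hXe.symm, ⟨hPl, hP⟩, ?_⟩
    rintro x P' ⟨-, hP'⟩
    have hs' := g.sound1 pre post hlen hex1 hP' hQ
    refine ⟨hs'.1, ?_⟩
    rw [← hT, ← hT, hs'.2, hXe, hs.2]
  · -- scheme 2
    intro X hX Y hY v
    have hX' : g.XX X := hX.1
    have hY' : g.XX Y := hY.1
    have hu : (X.take g.p0).length = g.p0 := by
      rw [List.length_take]; exact min_eq_left (hxz X hX')
    obtain ⟨I, hI, hI2⟩ := hcmp2 (X.take g.p0) hu v
    have hex2' : ∀ k, k < K → ∀ P Q v u, P.length = c k → Q.length = g.p0 - c k →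
        lam2 k P = some v → rho2 k Q = some u → u = pre (P ++ Q) v := hex2
    obtain ⟨P, Q, b, hPQ, hP, hQ⟩ := g.complete2 pre post hc hgap hsp hthin hX' hY' v
      ⟨I, hI, fun k hk => by
        obtain ⟨h1, h2, h3⟩ := hI2 k hk
        rw [List.take_take, min_eq_left (hc k h1)] at h2
        exact ⟨h1, h2, h3⟩⟩
    refine ⟨P, Q, hPQ, hP, ?_⟩
    -- the value of the true word
    obtain ⟨X2, hX2, he, hb⟩ := g.sound2 pre post hc hex2' (R := []) (R' := Y) hX' hX.2 hP hQ
      (by rw [hPQ, List.append_nil])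
    have hYX : X2 = Y := by
      rw [hPQ] at he
      exact (List.append_cancel_left he).symm
    subst hYX
    rw [hT, hT] at hb
    intro x P' hP'
    obtain ⟨k, hk, l, hend, hgood, hXd, u, hr, hbe⟩ := id hQ
    obtain ⟨k1, hk1, hP1, hl1⟩ := id hP'
    have hc1 := hc k1 hk1
    have hck := hc k hk
    -- the word `P' ++ Q` ends with a wall, far away
    have hQl : g.z ≤ Q.length := by
      have h1 := hXd.1
      rw [List.length_drop] at h1
      omega
    have hWQ : g.Wo Q := by
      have h1 : g.Wo (Q.take l ++ Q.drop l) :=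
        (g.loc _ _ (len _ hXd.2.1)).2 hXd.2.1
      rwa [List.take_append_drop] at h1
    have hWPQ : g.Wo (P' ++ Q) := (g.loc _ _ (len _ hWQ)).2 hWQ
    have hexb : ∃ t, t ≤ (P' ++ Q).length ∧ g.z ≤ t ∧ g.Wo ((P' ++ Q).take t) :=
      ⟨(P' ++ Q).length, le_rfl, by rw [List.length_append]; omega, by rwa [List.take_length]⟩
    obtain ⟨ht1, ht2, ht3⟩ := Nat.find_spec hexb
    have hXX' : g.XX ((P' ++ Q).take (Nat.find hexb)) := by
      refine ⟨by rw [List.length_take]; omega, ht3, fun t hzt htl hw => ?_⟩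
      rw [List.length_take] at htl
      rw [List.take_take, min_eq_left (by omega)] at hw
      exact Nat.find_min hexb (m := t) (by omega) ⟨by omega, hzt, hw⟩
    by_cases hbad : g.BadX BadT ((P' ++ Q).take (Nat.find hexb))
    · left
      obtain ⟨X3, hX3, he3, hb3⟩ := g.sound2 pre post hc hex2' (R := [])
        (R' := (P' ++ Q).drop (Nat.find hexb)) hXX' hbad hP' hQ
        (by rw [List.append_nil, List.take_append_drop])
      refine ⟨_, ⟨hXX', hbad⟩, X3, hX3, he3.symm, ?_⟩
      rw [hT, hT] at hb3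
      rw [hb3, hb]
    · right
      exact ⟨_, hXX', fun h => hbad h.2, List.take_prefix _ _⟩

end Crest.Agent.R320.FinB_590
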