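import Crest.Agent.R320.FinA_648

/-! Row 320, final assembly over `Top_180.top2`, part B: the languages (helper648). -/

set_option autoImplicit false

namespace Crest.Agent.R320.Fin_648

open Crest.RegLang Crest.Agent.R320.Hk_851 Crest.Agent.R320.Half1_180
  Crest.Agent.R320.FewWalls_228

variable {α M V : Type} [Monoid M] [AddCommGroup V]

/-- the noisy transport of a block -/
def TT (f : α → M) (act : V → M → V) (p0 : ℕ) (nu2 nu1 : List α → V) (X : List α) (v : V) : V :=
  act (act v ((X.take p0).map f).prod + nu2 (X.take p0)) ((X.drop p0).map f).prod +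
    nu1 (X.drop p0)

/-- base languages -/
theorem base [Finite α] [Finite M] {n z c0 P0 : ℕ} {S : Set (List α)}
    (hn : 0 < n) (hP0 : 0 < P0) (hper : PerOff n c0 P0 S) (hS : ∀ s ∈ S, s.length = n)
    (hz : n ≤ z) (f : α → M) (act : V → M → V) (p0 La Pm : ℕ) (hPm : 0 < Pm)
    (hzl : p0 + La ≤ z) (nu2 nu1 : List α → V)
    (hinv : ∀ q q2 : List α, La ≤ q.length → La ≤ q2.length → q.take La = q2.take La →
      q.length % Pm = q2.length % Pm → ((q.drop La).map f).prod = ((q2.drop La).map f).prod →
      nu1 q = nu1 q2) (v v' : V) :
    HL 1 ({X | X ∈ XX n z S ∧ TT f act p0 nu2 nu1 X v = v'} : Language α) := by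
  classical
  have : NeZero Pm := ⟨hPm.ne'⟩
  let g : α → M × Multiplicative (ZMod Pm) := fun a => (f a, Multiplicative.ofAdd 1)
  have hg1 : ∀ w : List α, (w.map g).prod.1 = (w.map f).prod := by
    intro w
    induction w with
    | nil => rfl
    | cons a w ih => simp only [List.map_cons, List.prod_cons, Prod.fst_mul, ih, g]
  have hg2 : ∀ w : List α, (w.map g).prod.2 = Multiplicative.ofAdd ((w.length : ℕ) : ZMod Pm) := by
    intro w
    induction w with
    | nil => simp
    | cons a w ih =>
      simp only [List.map_cons, List.prod_cons, Prod.snd_mul, ih, g, List.length_cons]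
      rw [← ofAdd_add]
      congr 1
      push_cast
      ring
  have key : ∀ (u w w0 : List α), u.length = p0 + La → (w.map g).prod = (w0.map g).prod →
      TT f act p0 nu2 nu1 (u ++ w) v = TT f act p0 nu2 nu1 (u ++ w0) v := by
    intro u w w0 hu hww
    have e1 : (w.map f).prod = (w0.map f).prod := by rw [← hg1, ← hg1, hww]
    have e2 : w.length % Pm = w0.length % Pm := by
      have h := congrArg Prod.snd hww
      rw [hg2, hg2] at h
      have h' : ((w.length : ℕ) : ZMod Pm) = ((w0.length : ℕ) : ZMod Pm) :=
        Multiplicative.ofAdd.injective h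
      exact (ZMod.natCast_eq_natCast_iff' _ _ _).1 h'
    have e3 : nu1 (u.drop p0 ++ w) = nu1 (u.drop p0 ++ w0) := by
      have hul : (u.drop p0).length = La := by rw [List.length_drop]; omega
      apply hinv
      · rw [List.length_append]; omega
      · rw [List.length_append]; omega
      · rw [List.take_append_of_le_length (by omega), List.take_append_of_le_length (by omega)]
      · rw [List.length_append, List.length_append, Nat.add_mod, e2, ← Nat.add_mod]
      · rw [← hul, List.drop_left, List.drop_left]; exact e1
    unfold TT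
    rw [List.take_append_of_le_length (by omega), List.take_append_of_le_length (by omega),
      List.drop_append_of_le_length (by omega), List.drop_append_of_le_length (by omega), e3,
      List.map_append, List.map_append, List.prod_append, List.prod_append, e1]
  have hfin : ({u : List α | u.length = p0 + La}).Finite := List.finite_length_eq α _
  have hX : HL 1 (XX n z S : Language α) := XX_HL hS hz
  have hU : HL 1 ({X | ∃ u ∈ {u : List α | u.length = p0 + La}, X ∈
      ({X | ∃ s : M × Multiplicative (ZMod Pm), X ∈ (
        ({_X | ∃ w0 : List α, (w0.map g).prod = s ∧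
          TT f act p0 nu2 nu1 (u ++ w0) v = v'} : Language α) ⊓
        (({u} : Language α) * Lg (fun w => nw n S w ≤ z + 1 ∧ (w.map g).prod = s)))} :
        Language α)} : Language α) := by
    apply HL.biUnion hfin
    intro u _
    apply HL.iUnion
    intro s
    exact (HL.const _).inf ((HL.word u).mul
      (Crest.Agent.R320.FewVal_228.HL_few_value hn hP0 hper (z + 1) g s))
  refine (hX.inf hU).congr fun X => ?_
  constructor
  · rintro ⟨h1, h2⟩
    refine ⟨h1, X.take (p0 + La), ?_, ((X.drop (p0 + La)).map g).prod, ⟨X.drop (p0 + La), rfl, ?_⟩,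
      ?_⟩
    · show (X.take (p0 + La)).length = _
      rw [List.length_take]; have := h1.1; omega
    · rw [List.take_append_drop]; exact h2
    · refine ⟨X.take (p0 + La), rfl, X.drop (p0 + La), ⟨?_, rfl⟩, List.take_append_drop _ _⟩
      apply nw_le
      intro y hy1 hy2 h3
      have hlen : (X.take (p0 + La)).length = p0 + La := by
        rw [List.length_take]; have := h1.1; omega
      have h4 := (we_shift (P := X.take (p0 + La)) (Q := X.drop (p0 + La)) (by omega)).2 h3
      rw [List.take_append_drop, hlen] at h4
      rw [List.length_drop] at hy2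
      exact h1.2.2 _ (by omega) (by omega) h4
  · rintro ⟨h1, u, hu, s, ⟨w0, hw0, hT⟩, u', hu', w, ⟨hw1, hw2⟩, rfl⟩
    have hu'' : u' = u := hu'
    subst hu''
    refine ⟨h1, ?_⟩
    show TT f act p0 nu2 nu1 (u' ++ w) v = v'
    rw [key u' w w0 hu (hw2.trans hw0.symm)]
    exact hT

end Crest.Agent.R320.Fin_648
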