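import Crest.Agent.R320.FinA_677
import Crest.Agent.R320.ExactT_580

/-!
# Row 320: two-wall zones on all words (helper677), part B: scheme 2 (promise)
-/

set_option autoImplicit false

namespace Crest.Agent.R320.Fin_677

open Crest.RegLang Crest.Agent.R320.Hk_851 Crest.Agent.R320.FewWalls_228
open Crest.Agent.R320.Star_621 Crest.Agent.R320.Two_621 Crest.Agent.R320.Main_621

variable {α : Type}

/-- the second monoid -/
abbrev T2 (S : Type) : Type := (Function.End (Option (Tok S)))ᵐᵒᵖ

/-- moving a token along the first part of a zone -/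
def sX (S : Type) [Monoid S] : S →* T2 S where
  toFun s := MulOpposite.op (fun o : Option (Tok S) => o.map (fun v => act v s))
  map_one' := by
    apply MulOpposite.unop_injective
    funext o
    cases o with
    | none => rfl
    | some v => show some (act v 1) = some v; rw [act_one]
  map_mul' s t := by
    apply MulOpposite.unop_injective
    funext o
    cases o with
    | none => rfl
    | some v => show some (act v (s * t)) = some (act (act v s) t); rw [act_mul]

namespace Cfg

variable {S : Type} [Monoid S] (D : Cfg α S)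

def Cut' (u : Tok S) (Y : List α) : Prop :=
  ∃ P' Q b, Y = P' ++ Q ∧ P' ∈ D.L1 u ∧ Q ∈ D.RA b

open Classical in
noncomputable def gY (Y : List α) : T2 S :=
  MulOpposite.op (fun o : Option (Tok S) => o.bind fun u =>
    if D.Cut' u Y then none else some (act u (D.ph Y) + D.dY Y))

theorem cut_iff {X Y : List α} (hX : X.length = D.p0) (v : Tok S) :
    Cut D.LA D.RA v (X ++ Y) ↔ D.Cut' (act v (D.ph X)) Y := by
  constructor
  · rintro ⟨P, Q, b, he, ⟨X', P', rfl, hX', hP'⟩, hQ⟩
    rw [List.append_assoc] at he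
    obtain ⟨h1, h2⟩ := List.append_inj he (by rw [hX, hX'])
    subst h1
    exact ⟨P', Q, b, h2, hP', hQ⟩
  · rintro ⟨P', Q, b, rfl, hP', hQ⟩
    exact ⟨X ++ P', Q, b, by rw [List.append_assoc], ⟨X, P', rfl, hX, hP'⟩, hQ⟩

theorem step_eq {X Y : List α} (hX : X.length = D.p0) :
    stepA (aff D.ph D.dA) D.LA D.RA (X ++ Y) = sX S (D.ph X) * D.gY Y := by
  classical
  apply MulOpposite.unop_injective
  funext o
  cases o with
  | none => rfl
  | some v =>
    show (if Cut D.LA D.RA v (X ++ Y) then none else some (aff D.ph D.dA (X ++ Y) v)) =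
      (if D.Cut' (act v (D.ph X)) Y then none
        else some (act (act v (D.ph X)) (D.ph Y) + D.dY Y))
    have e : aff D.ph D.dA (X ++ Y) v = act (act v (D.ph X)) (D.ph Y) + D.dY Y := by
      unfold aff dA
      rw [← hX, List.drop_left, D.ph_append, act_mul]
    rw [e]
    by_cases h : D.Cut' (act v (D.ph X)) Y
    · rw [if_pos h, if_pos ((D.cut_iff hX v).2 h)]
    · rw [if_neg h, if_neg (fun hc => h ((D.cut_iff hX v).1 hc))]

/-- candidate `k` is bad, seen from the cut -/
def BadK (c : ℕ → ℕ) (k : ℕ) (Q : List α) : Prop :=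
  (∃ t, D.z0 ≤ t + c k + D.N1 ∧ t + c k ≤ D.z0 + D.N1 ∧ D.w Q t) ∨
    ∃ t0, D.FF Q (D.z0 - c k) t0 ∧ D.BadT (t0 + c k - D.p0)

end Cfg

/-- data of scheme 2 -/
structure Ex {S : Type} [Monoid S] (D : Cfg α S) where
  K : ℕ
  R : ℕ
  c : ℕ → ℕ
  lam : ℕ → List α → Option (Tok (T2 S))
  rho : ℕ → List α → T2 S → Option (Tok (T2 S))
  nu2 : List α → T2 S → Tok (T2 S)
  hc : ∀ k < K, 0 < c k ∧ c k ≤ D.p0
  g1 : ∀ k < K, ∀ (P Q : List α) (y : T2 S) (v b : Tok (T2 S)), P.length = c k →
    lam k P = some v → rho k Q y = some b →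
      b = act v (((P ++ Q).map (fun a => sX S (D.f a))).prod * y) + nu2 (P ++ Q) y
  g2 : ∀ (u : List α) (y : T2 S) (v : Tok (T2 S)), (∀ k < K, c k ≤ u.length) →
    ∃ I : Finset ℕ, R ≤ I.card ∧ ∀ k ∈ I, k < K ∧ lam k (u.take (c k)) = some v ∧
      (rho k (u.drop (c k)) y).isSome
  spoil : ∀ z ∈ D.Zc, ∃ B : Finset ℕ, B.card < R ∧ ∀ k < K,
    (∃ k' < K, k' ≠ k ∧ D.BadK c k' (z.drop (c k))) → k ∈ B

namespace Ex

variable {S : Type} [Monoid S] {D : Cfg α S} (X2 : Ex D)

theorem map_sX (u : List α) :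
    (u.map (fun a => sX S (D.f a))).prod = sX S (D.ph u) := by
  unfold Cfg.ph
  rw [map_list_prod, List.map_map]
  rfl

def LB (v : Tok (T2 S)) : Language α :=
  {P | ∃ k < X2.K, P.length = X2.c k ∧ X2.lam k P = some v}

def RB (b : Tok (T2 S)) : Language α :=
  {Q | ∃ k < X2.K, (∃ t0, D.FF Q (D.z0 - X2.c k) t0 ∧ D.FF Q (t0 + 1) Q.length) ∧
    (∀ k' < X2.K, D.BadK X2.c k' Q → k' = k) ∧
    X2.rho k (Q.take (D.p0 - X2.c k)) (D.gY (Q.drop (D.p0 - X2.c k))) = some b}

noncomputable def dB (z : List α) : Tok (T2 S) := X2.nu2 (z.take D.p0) (D.gY (z.drop D.p0))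

theorem sound2 : Sound D.Zc (aff (stepA (aff D.ph D.dA) D.LA D.RA) X2.dB) X2.LB X2.RB := by
  have hz0 := D.hz0
  have hW := D.hW
  refine ⟨?_, ?_⟩
  · rintro v ⟨k, hk, h, -⟩
    have := (X2.hc k hk).1
    simp only [List.length_nil] at h
    omega
  · rintro v τ P Q z x y ⟨k', hk', hPl, hlam⟩ ⟨k, hk, ⟨t0, hF0, hF1⟩, huniq, hrho⟩
      ⟨⟨s0, hz1, hz2⟩, hbad⟩ he
    have hck := X2.hc k hk
    have hck' := X2.hc k' hk'
    have ht0 : t0 ≤ Q.length := F_le hF0
    have hQW : t0 + D.W ≤ Q.length := D.wsep hF0.2.1 hF1.2.1 (by have := hF1.1; omega)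
    have h10 := hF0.1
    have g0 : F D.n D.S0 (z ++ y) D.z0 s0 := (F_append (F_le hz1)).2 hz1
    have g1 : F D.n D.S0 (z ++ y) (s0 + 1) z.length := (F_append le_rfl).2 hz2
    have hs0z : s0 ≤ z.length := F_le hz1
    have hkk : k' = k := by
      apply huniq k' hk'
      rcases hbad with ⟨t, h1, h2, h3⟩ | ⟨s, h1, h2⟩
      · left
        refine ⟨t - X2.c k', by omega, by omega, ?_⟩
        have h4 : wp D.n D.S0 (z ++ y) t := (wp_append h3.2.1).2 h3
        rw [← he, List.append_assoc] at h4
        rw [show t = P.length + (t - X2.c k') by omega] at h4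
        exact (wp_append (by omega)).1 ((wp_left (by omega)).1 h4)
      · right
        have e : s = s0 := F_unique h1 hz1
        subst e
        refine ⟨s - X2.c k', ?_, by
          rw [show s - X2.c k' + X2.c k' - D.p0 = s - D.p0 by have := hz1.1; omega]; exact h2⟩
        rw [← he] at g0
        have hlt : s ≤ P.length + Q.length := by
          by_contra hc
          have h5 : wp D.n D.S0 (P ++ Q ++ x) (P.length + Q.length) := by
            rw [List.append_assoc]
            refine (wp_left (by omega)).2 ((wp_append le_rfl).2 hF1.2.1)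
          exact g0.2.2 _ (by omega) (by omega) h5
        have h6 : F D.n D.S0 (P ++ Q ++ x) (P.length + (D.z0 - X2.c k'))
            (P.length + (s - X2.c k')) := by
          rw [show P.length + (D.z0 - X2.c k') = D.z0 by omega,
            show P.length + (s - X2.c k') = s by have := hz1.1; omega]
          exact g0
        exact (D.lift (by omega) (by omega)).1 h6
    subst hkk
    have f0 : F D.n D.S0 (P ++ Q ++ x) D.z0 (P.length + t0) := by
      have g := (D.lift (P := P) (x := x) (s := D.z0 - X2.c k') (by omega) ht0).2 hF0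
      rw [show P.length + (D.z0 - X2.c k') = D.z0 by omega] at g
      exact g
    have f1 : F D.n D.S0 (P ++ Q ++ x) (P.length + t0 + 1) (P.length + Q.length) := by
      have g := (D.lift (P := P) (x := x) (s := t0 + 1) (by omega) (le_refl Q.length)).2 hF1
      exact g
    rw [← he] at g0 g1
    have e0 := F_unique g0 f0
    subst e0
    have e1 := F_unique g1 f1
    have ez : P ++ Q = z := (List.append_inj he (by rw [List.length_append]; exact e1.symm)).1
    refine ⟨ez, ?_⟩
    subst ez
    have hQ1l : (Q.take (D.p0 - X2.c k')).length = D.p0 - X2.c k' := by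
      rw [List.length_take]; omega
    have hXl : (P ++ Q.take (D.p0 - X2.c k')).length = D.p0 := by
      rw [List.length_append, hQ1l]; omega
    have hsp : P ++ Q = (P ++ Q.take (D.p0 - X2.c k')) ++ Q.drop (D.p0 - X2.c k') := by
      rw [List.append_assoc, List.take_append_drop]
    have h := X2.g1 k' hk P (Q.take (D.p0 - X2.c k')) (D.gY (Q.drop (D.p0 - X2.c k'))) v τ hPl
      hlam hrho
    rw [map_sX, ← D.step_eq hXl, ← hsp] at h
    have e2 : X2.dB (P ++ Q) = X2.nu2 (P ++ Q.take (D.p0 - X2.c k'))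
        (D.gY (Q.drop (D.p0 - X2.c k'))) := by
      have a1 : (P ++ Q).take D.p0 = P ++ Q.take (D.p0 - X2.c k') := by
        rw [hsp]; exact List.take_left' hXl
      have a2 : (P ++ Q).drop D.p0 = Q.drop (D.p0 - X2.c k') := by
        rw [hsp]; exact List.drop_left' hXl
      unfold dB
      rw [a1, a2]
    unfold aff
    rw [e2]
    exact h

theorem complete2 (z : List α) (hz : z ∈ D.Zc) (v : Tok (T2 S)) : Cut X2.LB X2.RB v z := by
  have hz0 := D.hz0
  have hW := D.hW
  obtain ⟨B, hB, hBk⟩ := X2.spoil z hz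
  obtain ⟨⟨s0, hz1, hz2⟩, hbad⟩ := hz
  have hs0z : s0 ≤ z.length := F_le hz1
  have hs0 := hz1.1
  have hXl : (z.take D.p0).length = D.p0 := by rw [List.length_take]; omega
  obtain ⟨I, hI, hIk⟩ := X2.g2 (z.take D.p0) (D.gY (z.drop D.p0)) v
    (fun k hk => by rw [hXl]; exact (X2.hc k hk).2)
  obtain ⟨k, hkI, hkB⟩ : ∃ k ∈ I, k ∉ B := by
    by_contra hc
    push Not at hc
    have := Finset.card_le_card (fun k hk => hc k hk : I ⊆ B)
    omega
  obtain ⟨hk, hl, hr⟩ := hIk k hkI
  obtain ⟨hck0, hck⟩ := X2.hc k hk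
  obtain ⟨b, hb⟩ := Option.isSome_iff_exists.1 hr
  have htl : (z.take (X2.c k)).length = X2.c k := by rw [List.length_take]; omega
  refine ⟨z.take (X2.c k), z.drop (X2.c k), b, (List.take_append_drop _ _).symm,
    ⟨k, hk, htl, ?_⟩, k, hk, ⟨s0 - X2.c k, ?_, ?_⟩, ?_, ?_⟩
  · rw [List.take_take, min_eq_left hck] at hl; exact hl
  · have h1 : F D.n D.S0 (z.take (X2.c k) ++ z.drop (X2.c k))
        ((z.take (X2.c k)).length + (D.z0 - X2.c k)) ((z.take (X2.c k)).length + (s0 - X2.c k)) := by
      rw [List.take_append_drop, htl, show X2.c k + (D.z0 - X2.c k) = D.z0 by omega,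
        show X2.c k + (s0 - X2.c k) = s0 by omega]
      exact hz1
    exact (F_left (by omega)).1 h1
  · have h1 : F D.n D.S0 (z.take (X2.c k) ++ z.drop (X2.c k))
        ((z.take (X2.c k)).length + (s0 - X2.c k + 1))
        ((z.take (X2.c k)).length + (z.drop (X2.c k)).length) := by
      rw [← List.length_append, List.take_append_drop, htl,
        show X2.c k + (s0 - X2.c k + 1) = s0 + 1 by omega]
      exact hz2
    exact (F_left (by omega)).1 h1
  · intro k' hk' hb'
    by_contra hne
    exact hkB (hBk k hk ⟨k', hk', hne, hb'⟩)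
  · have e1 : (z.drop (X2.c k)).take (D.p0 - X2.c k) = (z.take D.p0).drop (X2.c k) := by
      rw [List.drop_take]
    have e2 : (z.drop (X2.c k)).drop (D.p0 - X2.c k) = z.drop D.p0 := by
      rw [List.drop_drop]; congr 1; omega
    rw [e1, e2]; exact hb

end Ex

end Crest.Agent.R320.Fin_677
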