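import Crest.Agent.R320.Grid_899
import Crest.Agent.R320.Bridge_975
import Crest.Agent.R320.P4_933
import Crest.Agent.R320.Sc2n_937
import Crest.Agent.R320.LWallAll_922

/-!
# Row 320 (helper689): finite-state zone constant, height one facts
-/

set_option autoImplicit false

namespace Crest.Agent.R320.Fin_689

open Crest.RegLang Crest.Agent.R320.Hk_851
open Crest.Agent.R320.Sc2n_937

/-- the constant of the grid gadget, made finite-state -/
theorem local_nu {α S V : Type} [Monoid S] [AddCommGroup V] (act : V → S → V)
    (φ : α → S) (a A Pm : ℕ) (lam rho : List α → Option V) (nu : List α → V)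
    (hlam : ∀ P v, lam P = some v → P.length < a)
    (hrho : ∀ Q b, rho Q = some b → A ≤ Q.length)
    (hex : ∀ P Q v b, lam P = some v → rho Q = some b →
      b = act v ((P ++ Q).map φ).prod + nu (P ++ Q))
    (hloc : ∀ Q Q' : List α, A ≤ Q.length → A ≤ Q'.length → Q.take A = Q'.take A →
      ((Q.drop A).map φ).prod = ((Q'.drop A).map φ).prod →
      Q.length ≡ Q'.length [MOD Pm] → rho Q = rho Q') :
    ∃ nu' : List α → V,
      (∀ P Q v b, lam P = some v → rho Q = some b →
        b = act v ((P ++ Q).map φ).prod + nu' (P ++ Q)) ∧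
      (∀ Y Y' : List α, a + A ≤ Y.length → a + A ≤ Y'.length →
        Y.take (a + A) = Y'.take (a + A) → Y.length ≡ Y'.length [MOD Pm] →
        ((Y.drop (a + A)).map φ).prod = ((Y'.drop (a + A)).map φ).prod → nu' Y = nu' Y') := by
  classical
  let Lg : List α → V → V → Prop := fun Y v b => ∃ P Q, Y = P ++ Q ∧ lam P = some v ∧
    rho Q = some b
  have key : ∀ Y Y' : List α, a + A ≤ Y.length → a + A ≤ Y'.length →
        Y.take (a + A) = Y'.take (a + A) → Y.length ≡ Y'.length [MOD Pm] →
        ((Y.drop (a + A)).map φ).prod = ((Y'.drop (a + A)).map φ).prod → ∀ v b, Lg Y v b →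
        Lg Y' v b := by
    rintro Y Y' h1 h2 h3 h4 h5 v b ⟨P, Q, rfl, hP, hQ⟩
    have ha := hlam P v hP
    have hA := hrho Q b hQ
    have e1 : Y'.take P.length = P := by
      have h6 := congrArg (fun l => l.take P.length) h3
      simp only [List.take_take] at h6
      rw [min_eq_left (by omega), List.take_left] at h6
      exact h6.symm
    have e2 : Y' = P ++ Y'.drop P.length := by
      conv_lhs => rw [← List.take_append_drop P.length Y', e1]
    refine ⟨P, Y'.drop P.length, e2, hP, ?_⟩
    rw [← hQ]
    symm
    set Q' := Y'.drop P.length with hQ'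
    have hQl : Q'.length = Y'.length - P.length := by rw [hQ', List.length_drop]
    have h3' : Q.take (a + A - P.length) = Q'.take (a + A - P.length) := by
      have h6 := congrArg (fun l => l.drop P.length) h3
      simp only [List.drop_take] at h6
      rw [List.drop_left] at h6
      exact h6
    have hd1 : (P ++ Q).drop (a + A) = Q.drop (a + A - P.length) := by
      rw [List.drop_append, List.drop_of_length_le (by omega), List.nil_append]
    have hd2 : Y'.drop (a + A) = Q'.drop (a + A - P.length) := by
      rw [hQ', List.drop_drop]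
      congr 1; omega
    rw [hd1, hd2] at h5
    rw [List.length_append] at h4
    apply hloc
    · exact hA
    · omega
    · have h6 := congrArg (fun l => l.take A) h3'
      simp only [List.take_take] at h6
      rw [min_eq_left (by omega)] at h6
      exact h6
    · have hs : ∀ R : List α, a + A - P.length ≤ R.length → R.drop A =
          (R.take (a + A - P.length)).drop A ++ R.drop (a + A - P.length) := by
        intro R hR
        conv_lhs => rw [← List.take_append_drop (a + A - P.length) R]
        rw [List.drop_append_of_le_length (by rw [List.length_take]; omega)]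
      rw [List.length_append] at h1
      rw [hs Q (by omega), hs Q' (by omega), h3', List.map_append, List.map_append,
        List.prod_append, List.prod_append, h5]
    · have h7 : Y'.length = P.length + Q'.length := by omega
      rw [h7] at h4
      exact Nat.ModEq.add_left_cancel' _ h4
  refine ⟨fun Y => if ∃ v b, Lg Y v b then nu Y else 0, ?_, ?_⟩
  · intro P Q v b h1 h2
    have h3 : ∃ v b, Lg (P ++ Q) v b := ⟨v, b, P, Q, rfl, h1, h2⟩
    simp only [if_pos h3]
    exact hex P Q v b h1 h2
  · intro Y Y' h1 h2 h3 h4 h5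
    have k1 := key Y Y' h1 h2 h3 h4 h5
    have k2 := key Y' Y h2 h1 h3.symm h4.symm h5.symm
    by_cases h : ∃ v b, Lg Y v b
    · obtain ⟨v, b, hv⟩ := h
      have hv' := k1 v b hv
      simp only [if_pos (show ∃ v b, Lg Y v b from ⟨v, b, hv⟩),
        if_pos (show ∃ v b, Lg Y' v b from ⟨v, b, hv'⟩)]
      obtain ⟨P, Q, e, hP, hQ⟩ := hv
      obtain ⟨P', Q', e', hP', hQ'⟩ := hv'
      have f1 := hex P Q v b hP hQ
      have f2 := hex P' Q' v b hP' hQ'
      rw [← e] at f1
      rw [← e'] at f2
      have e3 : (Y.map φ).prod = (Y'.map φ).prod := by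
        rw [← List.take_append_drop (a + A) Y, ← List.take_append_drop (a + A) Y',
          List.map_append, List.map_append, List.prod_append, List.prod_append, h3, h5]
      rw [e3] at f1
      rw [f1] at f2
      exact add_left_cancel f2
    · have h' : ¬ ∃ v b, Lg Y' v b := fun ⟨v, b, hv⟩ => h ⟨v, b, k2 v b hv⟩
      simp only [if_neg h, if_neg h']

/-- the fibres of the zone map are regular -/
theorem reg_fib {α S V : Type} [Finite α] [Monoid S] [Finite S] [AddCommGroup V] (act : V → S → V)
    (φ : α → S) (g : Geo α) (B Pm : ℕ) (hPm : 0 < Pm) (nu1 nu2 : List α → V)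
    (pre : List α → V → V) (post : V → List α → V)
    (hpost : ∀ v u, post v u = act v (u.map φ).prod + nu1 u)
    (hnu : ∀ Y Y' : List α, B ≤ Y.length → B ≤ Y'.length →
        Y.take B = Y'.take B → Y.length ≡ Y'.length [MOD Pm] →
        ((Y.drop B).map φ).prod = ((Y'.drop B).map φ).prod → nu1 Y = nu1 Y') (x y : V) :
    Language.IsRegular ({X | g.T pre post x X = y} : Language α) := by
  refine Bridge_975.reg_of_local φ (g.p0 + B) Pm hPm (fun X => g.T pre post x X = y) ?_
  intro q q2 h1 h2 h3 h4 h5
  have e1 : q.take g.p0 = q2.take g.p0 := by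
    have h6 := congrArg (fun l => l.take g.p0) h3
    simp only [List.take_take] at h6
    rw [min_eq_left (by omega)] at h6
    exact h6
  have e2 : (q.drop g.p0).take B = (q2.drop g.p0).take B := by
    have h6 := congrArg (fun l => l.drop g.p0) h3
    simp only [List.drop_take] at h6
    rw [Nat.add_sub_cancel_left] at h6
    exact h6
  have e3 : (((q.drop g.p0).drop B).map φ).prod = (((q2.drop g.p0).drop B).map φ).prod := by
    rw [List.drop_drop, List.drop_drop]; exact h5
  have e4 : (q.drop g.p0).length ≡ (q2.drop g.p0).length [MOD Pm] := by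
    rw [List.length_drop, List.length_drop]
    have h7 : g.p0 + (q.length - g.p0) ≡ g.p0 + (q2.length - g.p0) [MOD Pm] := by
      have h8 : g.p0 + (q.length - g.p0) = q.length := by omega
      have h9 : g.p0 + (q2.length - g.p0) = q2.length := by omega
      rw [h8, h9]; exact h4
    exact Nat.ModEq.add_left_cancel' _ h7
  have e5 : ((q.drop g.p0).map φ).prod = ((q2.drop g.p0).map φ).prod := by
    rw [← List.take_append_drop B (q.drop g.p0), ← List.take_append_drop B (q2.drop g.p0),
      List.map_append, List.map_append, List.prod_append, List.prod_append, e2, e3]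
  have e6 := hnu (q.drop g.p0) (q2.drop g.p0) (by rw [List.length_drop]; omega)
    (by rw [List.length_drop]; omega) e2 e4 e3
  have : g.T pre post x q = g.T pre post x q2 := by
    unfold Geo.T
    rw [hpost, hpost, e1, e5, e6]
  rw [this]

/-- blocks: height one -/
theorem hl_fib {α : Type} [Finite α] (g : Geo α) (len : ∀ P, g.Wo P → g.n ≤ P.length) {B R : ℕ}
    (free : ∀ u : List α, (∀ t < u.length, ¬ g.Wo (u.take t)) →
      u ∈ (BddReg_746.PN B R : Language α))
    {f : List α → Prop} (hf : Language.IsRegular ({u | f u} : Language α)) :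
    HL 1 ({X | g.XX X ∧ f X} : Language α) := by
  refine (P4_933.hl_XX (Wo := g.Wo) (n := g.n) (z := g.z) g.loc len free hf).congr fun w => ?_
  constructor
  · rintro ⟨⟨h1, h2, h3⟩, h4⟩
    exact ⟨⟨h2, h1, fun t ht htl => h3 t htl ht⟩, h4⟩
  · rintro ⟨⟨h1, h2, h3⟩, h4⟩
    exact ⟨⟨h2, h1, fun t ht htl => h3 t htl ht⟩, h4⟩

/-- rests: height one -/
theorem hl_tail {α : Type} [Finite α] (g : Geo α) (len : ∀ P, g.Wo P → g.n ≤ P.length) {B R : ℕ}
    (free : ∀ u : List α, (∀ t < u.length, ¬ g.Wo (u.take t)) →
      u ∈ (BddReg_746.PN B R : Language α))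
    {f : List α → Prop} (hf : Language.IsRegular ({u | f u} : Language α)) :
    HL 1 ({w | (∀ X, g.XX X → ¬ X <+: w) ∧ f w} : Language α) := by
  refine (P4_933.hl_NB (Wo := g.Wo) (n := g.n) (z := g.z) g.loc len free hf).congr fun w => ?_
  have h := P4_933.NB_iff g.Wo g.z w
  constructor
  · rintro ⟨h1, h2⟩
    refine ⟨h.2 fun P hp hX => ?_, h2⟩
    exact h1 P ⟨hX.2.1, hX.1, fun t ht htl => hX.2.2 t htl ht⟩ hp
  · rintro ⟨h1, h2⟩
    refine ⟨fun X hX hp => ?_, h2⟩
    exact (h.1 h1) X hp ⟨hX.2.1, hX.1, fun t htl ht => hX.2.2 t ht htl⟩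

/-- periodic words are products of pieces -/
theorem free_of_periodic {α : Type} {B W : ℕ} {X u x v : List α} {k : ℕ} (h1 : u.length ≤ B)
    (h2 : x.length ≤ W) (h3 : v.length ≤ B) (e : X = u ++ (List.replicate k x).flatten ++ v) :
    X ∈ (BddReg_746.PN (max B W) 2 : Language α) := by
  subst e
  refine Language.mem_mul.2 ⟨u ++ (List.replicate k x).flatten, ⟨u, x, k,
    h1.trans (le_max_left _ _), h2.trans (le_max_right _ _), rfl⟩, v, ?_, rfl⟩
  refine Language.mem_mul.2 ⟨v, ⟨v, [], 0, h3.trans (le_max_left _ _), by simp, ?_⟩, [], rfl,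
    List.append_nil _⟩
  simp [BddReg_746.pw]

end Crest.Agent.R320.Fin_689
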