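import Crest.Agent.R320.FinA_694
import Crest.Agent.R320.GridG_19
import Crest.Agent.R320.SpoilGrid_567
import Crest.Agent.R320.ExactR_237
import Crest.Agent.R320.Block_467

/-!
Row 320: constants and final join over finite alphabets in `Type` (helper694).
-/

set_option autoImplicit false

namespace Crest.Agent.R320.FinB_694

open Crest.RegLang Crest.Agent.R320.Hk_851 Crest.Agent.R320.Sc2n_937
  Crest.Agent.R320.WallU_228 Crest.Agent.R320.Blk467

/-- natural bad totals -/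
def BadN (Ms : Finset ℕ) (G : ℕ → ℕ) (M m : ℕ) (T : ℕ) : Prop :=
  (∃ q ∈ Ms, q ∣ T) ∨ GridG_19.BadG G M 0 m T

theorem BadN_mod {Ms : Finset ℕ} {G : ℕ → ℕ} {M m : ℕ} (hMs : ∀ q ∈ Ms, q ∣ M)
    (hd : ∀ a b, a ≤ b → G a ∣ G b) {T T' : ℕ} (hT : GridG_19.Am G M 0 m ≤ T)
    (hT' : GridG_19.Am G M 0 m ≤ T') (h : T ≡ T' [MOD M * G m]) (hb : BadN Ms G M m T) :
    BadN Ms G M m T' := by
  rcases hb with ⟨q, hq, hqT⟩ | ⟨k, hk, hb⟩
  · left
    exact ⟨q, hq, ((h.of_dvd ((hMs q hq).trans (Nat.dvd_mul_right _ _))).dvd_iff dvd_rfl).1 hqT⟩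
  · right
    refine ⟨k, hk, ?_⟩
    have hA : GridG_19.Am G M 0 (k + 1) ≤ GridG_19.Am G M 0 m :=
      GridG_19.Am_mono _ _ _ (by omega)
    have e : (T - GridG_19.Am G M 0 (k + 1)) % G (k + 1) =
        (T' - GridG_19.Am G M 0 (k + 1)) % G (k + 1) := by
      have h1 : T ≡ T' [MOD G (k + 1)] :=
        h.of_dvd ((hd _ _ (by omega)).trans (Nat.dvd_mul_left _ _))
      have a1 : T = GridG_19.Am G M 0 (k + 1) + (T - GridG_19.Am G M 0 (k + 1)) := by omega
      have a2 : T' = GridG_19.Am G M 0 (k + 1) + (T' - GridG_19.Am G M 0 (k + 1)) := by omega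
      rw [a1, a2] at h1
      exact Nat.ModEq.add_left_cancel' _ h1
    rw [← e]
    exact hb

theorem BadN_int {Ms : Finset ℕ} {G0 M m : ℕ} (hG0 : 0 < G0) {n : ℕ}
    (hn : GridG_19.Am (fun k => G0 ^ k) M 0 m ≤ n) (hb : BadN Ms (fun k => G0 ^ k) M m n) :
    SpoilGrid_567.BadT Ms M G0 m (fun j => (GridG_19.Am (fun k => G0 ^ k) M 0 j : ℤ)) (n : ℤ) := by
  rcases hb with ⟨q, hq, hqT⟩ | ⟨k, hk, hb⟩
  · left
    exact ⟨q, hq, by exact_mod_cast hqT⟩
  · right
    refine ⟨k + 1, by omega, by omega, ?_⟩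
    have hA : GridG_19.Am (fun k => G0 ^ k) M 0 (k + 1) ≤ GridG_19.Am (fun k => G0 ^ k) M 0 m :=
      GridG_19.Am_mono _ _ _ (by omega)
    set a := GridG_19.Am (fun k => G0 ^ k) M 0 (k + 1) with ha
    obtain ⟨y, rfl⟩ := Nat.exists_eq_add_of_le (hA.trans hn)
    have e0 : a + y - a = y := by omega
    have hb' : y % G0 ^ (k + 1) < M * G0 ^ k ∨ G0 ^ (k + 1) ≤ y % G0 ^ (k + 1) + M * G0 ^ k := by
      have := hb
      rw [e0] at this
      exact this
    have hlt : y % G0 ^ (k + 1) < G0 ^ (k + 1) := Nat.mod_lt _ (by positivity)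
    have hdm : y = G0 ^ (k + 1) * (y / G0 ^ (k + 1)) + y % G0 ^ (k + 1) := (Nat.div_add_mod _ _).symm
    set dd := y / G0 ^ (k + 1) with hdd
    set rr := y % G0 ^ (k + 1) with hrr
    have hkk : k + 1 - 1 = k := by omega
    have hdmz : (y : ℤ) = (G0 : ℤ) ^ (k + 1) * dd + rr := by
      rw [hdm]; push_cast; ring
    have hltz : (rr : ℤ) < (G0 : ℤ) ^ (k + 1) := by exact_mod_cast hlt
    have hr0 : (0 : ℤ) ≤ rr := by positivity
    rw [hkk]
    rcases hb' with h | h
    · refine ⟨(dd : ℤ), ?_⟩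
      have hz : (rr : ℤ) < (M : ℤ) * (G0 : ℤ) ^ k := by exact_mod_cast h
      have e : ((a + y : ℕ) : ℤ) - (a : ℤ) - (dd : ℤ) * (G0 : ℤ) ^ (k + 1) = rr := by
        push_cast; rw [hdmz]; ring
      rw [e, abs_of_nonneg hr0]
      exact hz.le
    · refine ⟨(dd : ℤ) + 1, ?_⟩
      have hz : (G0 : ℤ) ^ (k + 1) ≤ rr + (M : ℤ) * (G0 : ℤ) ^ k := by exact_mod_cast h
      have e : ((a + y : ℕ) : ℤ) - (a : ℤ) - ((dd : ℤ) + 1) * (G0 : ℤ) ^ (k + 1) =
          rr - (G0 : ℤ) ^ (k + 1) := by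
        push_cast; rw [hdmz]; ring
      rw [e, abs_of_nonpos (by linarith)]
      linarith

theorem fin (α : Type) [Finite α] (S : Type) [Monoid S] [Finite S] (f : α → S) (s : S) :
    HL 3 ({w | (w.map f).prod = s} : Language α) := by
  classical
  let _ : Fintype S := Fintype.ofFinite S
  obtain ⟨act, hadd, hone, hmul, hfaith⟩ := exists_module S
  let _ : Fintype (S → ZMod 2) := Fintype.ofFinite _
  obtain ⟨m, r, hgrid⟩ := GridG_19.grid S (S → ZMod 2) act
  obtain ⟨K, hK⟩ := ExactR_237.exact_gadget α S (S → ZMod 2) f act (2 * (r + m) + 2)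
  obtain ⟨Ms, hcard, hpr, hg⟩ := hgrid (4 ^ K + 2)
  set M := ∏ q ∈ Ms, q with hM
  have hMpos : 0 < M := Finset.prod_pos fun q hq => (hpr q hq).1.pos
  set t := 16 * (m + 1) * M * 4 ^ K with ht
  set G0 := 2 ^ t with hG0
  have hG0pos : 0 < G0 := by positivity
  have hbig : 16 * (m + 1) * M * 4 ^ K ≤ G0 := (Nat.lt_two_pow_self (n := t)).le
  have hcop2 : ∀ q ∈ Ms, ∀ j, Nat.Coprime q (2 ^ j) := by
    intro q hq j
    apply Nat.Coprime.pow_right
    have h1 := hpr q hq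
    exact (Nat.coprime_primes h1.1 Nat.prime_two).2 (by
      have : 0 < 4 ^ K := by positivity
      omega)
  have hd : ∀ a b, a ≤ b → (fun k => G0 ^ k) a ∣ (fun k => G0 ^ k) b := fun a b h =>
    pow_dvd_pow _ h
  obtain ⟨lam, rho, nu1, g1, g2, g3, g4, g5⟩ := hg (fun k => G0 ^ k) 0
    (fun k => by positivity) hd
    (fun k => by
      rw [hG0]
      show Nat.Coprime M ((2 ^ t) ^ k)
      rw [← pow_mul]
      exact Nat.Coprime.prod_left fun q hq => hcop2 q hq _)
    α (fun w => (w.map f).prod) (fun u v => by simp)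
  set Am := GridG_19.Am (fun k => G0 ^ k) M 0 with hAm
  set Ac := GridG_19.Ac (fun k => G0 ^ k) M 0 with hAc
  set N1 := Am m + 1 with hN1
  obtain ⟨x, hx1, hx2, hx3⟩ := SpoilGrid_567.spoil_grid K m Ms M G0 (4 * N1)
    (fun q hq => by have := (hpr q hq).2; omega)
    (fun q hq => hcop2 q hq t)
    (fun q hq q' hq' hne => (Nat.coprime_primes (hpr q hq).1 (hpr q' hq').1).2 hne)
    hMpos hbig
  have hxmono : ∀ a b, a ≤ b → x a ≤ x b := by
    intro a b hab
    rcases Nat.eq_or_lt_of_le hab with rfl | h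
    · exact le_rfl
    · have := hx1 a b h; omega
  set p0 := x K with hp0
  obtain ⟨n, c', P', Sw, hn, hP', hloc, hsep, -, -, hfew⟩ :=
    walls_full (α := α) (2 * p0 + 2 * N1)
  obtain ⟨lam2, rho2, nu2, e1, e2⟩ := hK x (fun i j hij _ => by have := hx1 i j hij; omega)
  set q0 := n + 3 * p0 + 2 * Am m + M + Ac m with hq0
  let g : Geo α := {
    Wo := Wo n Sw
    n := n
    z := p0 + N1 + q0
    p0 := p0
    q0 := q0
    N1 := N1
    loc := hloc
    hz := rfl
    hq := by omega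
    hN := by omega
    hqp := by omega }
  refine FinA_694.core act hadd hone hmul hfaith f g Sw rfl hfew lam rho nu1
    (BadN Ms (fun k => G0 ^ k) M m) (Ac m + Am m) (M * G0 ^ m) (by positivity)
    ?_ (fun P Q u b h1 h2 => g1 P Q u b h1 h2) ?_ ?_ ?_ K (r + m) x lam2
    (fun k Q => rho2 k Q 1) (fun X => nu2 X 1) ?_ ?_ ?_ ?_ ?_ ?_ s
  · intro P v h
    have := (g2 P v h).2
    show P.length ≤ N1
    omega
  · intro Y hY hb u
    have hY' : q0 + N1 ≤ Y.length := hY
    obtain ⟨P, Q, h1, h2, h3⟩ := g4 Y (by omega) (by omega)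
      (fun q hq hqY => hb (Or.inl ⟨q, hq, hqY⟩)) (fun h => hb (Or.inr h)) u
    exact ⟨P, Q, h1.symm, h2, h3⟩
  · intro Y Y' h1 h2 h3 h4 h5
    refine g5 Y Y' (by omega) (by omega) ?_ h4 h5
    have := congrArg (List.take (Ac m)) h3
    rwa [List.take_take, List.take_take, min_eq_left (by omega)] at this
  · intro T T' h1 h2 h3
    have hMs : ∀ q ∈ Ms, q ∣ M := fun q hq => Finset.dvd_prod_of_mem _ hq
    have b1 : Am m ≤ T := by omega
    have b2 : Am m ≤ T' := by omega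
    exact ⟨BadN_mod hMs hd b1 b2 h3, BadN_mod hMs hd b2 b1 h3.symm⟩
  · intro k hk
    exact hxmono k K hk.le
  · intro k hk P Q v u h1 h2 h3 h4
    have := e1 k hk P Q 1 v u h1 h3 h4
    rw [mul_one] at this
    exact this
  · intro X0 hX0 v
    obtain ⟨I, h1, h2⟩ := e2 X0 1 v (fun k hk => by rw [hX0]; exact hxmono k K hk.le)
    exact ⟨I, h1, h2⟩
  · intro P Q hP hPQ hQ
    by_contra hlt
    have hlt' : Q.length ≤ 2 * p0 + 2 * N1 := not_lt.1 hlt
    have hpos : 0 < Q.length := List.length_pos_of_ne_nil hQ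
    refine hsep (P ++ Q) Q.length hPQ hpos hlt' ?_
    have : (P ++ Q).length - Q.length = P.length := by rw [List.length_append]; omega
    rw [this, List.take_left]
    exact hP
  · intro k k' l l' hk hk' hl hl' hne hne' h1 h2
    have h1' : x k + x l' < x l + x k' + 2 * N1 := h1
    have h2' : x l + x k' < x k + x l' + 2 * N1 := h2
    refine (hx2 k k' l l' hk hk' hl hl' (fun h => hne h.symm) ?_).1
    rw [abs_le]
    constructor <;> push_cast <;> omega
  · intro τ hτ J hJ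
    have hτ' : p0 + N1 + q0 ≤ τ + p0 := hτ
    have hcount := hx3 (fun j => (Am j : ℤ)) ((τ : ℤ) - p0)
    refine le_trans ?_ (hcount.trans (Nat.add_le_add_right hcard m))
    choose! hJ1 k' hJ2 using hJ
    refine Finset.card_le_card_of_injOn (fun k => (k' k, k)) ?_ ?_
    · intro k hk
      have hk1 := hJ1 k hk
      obtain ⟨hk2, hk3, hk4⟩ := hJ2 k hk
      rw [Finset.mem_coe, Finset.mem_filter, Finset.mem_product, Finset.mem_range, Finset.mem_range]
      refine ⟨⟨hk2, hk1⟩, hk3, ?_⟩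
      have hxk : x k ≤ p0 := hxmono k K hk1.le
      have hk4' : BadN Ms (fun k => G0 ^ k) M m (τ + x (k' k) - x k - p0) := hk4
      have hge : Am m ≤ τ + x (k' k) - x k - p0 := by omega
      have := BadN_int hG0pos hge hk4'
      have ecast : ((τ + x (k' k) - x k - p0 : ℕ) : ℤ) = (τ : ℤ) - p0 + x (k' k) - x k := by
        omega
      rw [ecast] at this
      exact this
    · intro a _ b _ hab
      exact (Prod.mk.inj hab).2

end Crest.Agent.R320.FinB_694
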