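import Mathlib

/-!
Golomb rulers (row 320, item (8) of the plan): spaced rulers, all differences distinct even up to a
prescribed resolution, also modulo every large `N`; and the counting lemma "all but few marks are
unambiguous".
-/

set_option autoImplicit false

namespace Crest.Agent.R320.Golomb314

/-- Sums of two powers of two determine the exponents. -/
theorem two_pow_add_two_pow {i l j k : ℕ} (h : 2 ^ i + 2 ^ l = 2 ^ j + 2 ^ k) :
    (i = j ∧ l = k) ∨ (i = k ∧ l = j) := by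
  have key : ∀ i l j k : ℕ, i ≤ l → j ≤ k → 2 ^ i + 2 ^ l = 2 ^ j + 2 ^ k → i = j ∧ l = k := by
    intro i l j k hil hjk h
    have h1 : (2 : ℕ) ^ i ≤ 2 ^ l := Nat.pow_le_pow_right (by norm_num) hil
    have h2 : (2 : ℕ) ^ j ≤ 2 ^ k := Nat.pow_le_pow_right (by norm_num) hjk
    have p1 : 0 < (2 : ℕ) ^ i := by positivity
    have p2 : 0 < (2 : ℕ) ^ j := by positivity
    rcases lt_trichotomy l k with hlt | heq | hgt
    · exfalso
      have h3 : (2 : ℕ) ^ (l + 1) ≤ 2 ^ k := Nat.pow_le_pow_right (by norm_num) hlt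
      rw [pow_succ] at h3
      omega
    · subst heq
      have h3 : (2 : ℕ) ^ i = 2 ^ j := by omega
      exact ⟨Nat.pow_right_injective (le_refl 2) h3, rfl⟩
    · exfalso
      have h3 : (2 : ℕ) ^ (k + 1) ≤ 2 ^ l := Nat.pow_le_pow_right (by norm_num) hgt
      rw [pow_succ] at h3
      omega
  rcases le_total i l with a | a <;> rcases le_total j k with b | b
  · exact Or.inl (key i l j k a b h)
  · have := key i l k j a b (by omega)
    exact Or.inr this
  · have := key l i j k a b (by omega)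
    exact Or.inr ⟨this.2, this.1⟩
  · have := key l i k j a b (by omega)
    exact Or.inl ⟨this.2, this.1⟩

/-- The ruler `mark R i = R * 2 ^ i`. -/
def mark (R i : ℕ) : ℕ := R * 2 ^ i

theorem mark_strictMono {R : ℕ} (hR : 0 < R) : StrictMono (mark R) := by
  intro i j h
  exact Nat.mul_lt_mul_of_pos_left (Nat.pow_lt_pow_right (by norm_num) h) hR

theorem mark_lt {R m i : ℕ} (hR : 0 < R) (h : i < m) : mark R i < R * 2 ^ m :=
  Nat.mul_lt_mul_of_pos_left (Nat.pow_lt_pow_right (by norm_num) h) hR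

theorem mark_ge (R i : ℕ) : R ≤ mark R i :=
  Nat.le_mul_of_pos_right _ (by positivity)

/-- Golomb property with resolution: if two differences are at distance less than `R` they are
differences of the same pair (or both trivial). -/
theorem mark_golomb {R i j k l : ℕ}
    (h : |((mark R i : ℤ) - mark R j) - ((mark R k : ℤ) - mark R l)| < R) :
    (i = j ∧ k = l) ∨ (i = k ∧ j = l) := by
  set D : ℤ := ((2 : ℤ) ^ i + 2 ^ l) - (2 ^ j + 2 ^ k) with hD
  have e : ((mark R i : ℤ) - mark R j) - ((mark R k : ℤ) - mark R l) = (R : ℤ) * D := by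
    simp only [mark, hD]; push_cast; ring
  rw [e, abs_mul, Nat.abs_cast] at h
  have hD0 : D = 0 := by
    by_contra hne
    have : 1 ≤ |D| := Int.one_le_abs hne
    nlinarith [Int.natCast_nonneg R]
  have h2 : 2 ^ i + 2 ^ l = 2 ^ j + 2 ^ k := by
    have : (2 : ℤ) ^ i + 2 ^ l = 2 ^ j + 2 ^ k := by rw [hD] at hD0; linarith
    exact_mod_cast this
  rcases two_pow_add_two_pow h2 with ⟨a, b⟩ | ⟨a, b⟩
  · exact Or.inl ⟨a, b.symm⟩
  · exact Or.inr ⟨a, b.symm⟩

/-- Distinct marks are at distance at least `R`. -/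
theorem mark_spaced {R i j : ℕ} (hij : i ≠ j) : (R : ℤ) ≤ |(mark R i : ℤ) - mark R j| := by
  by_contra h
  push Not at h
  have h' : |((mark R i : ℤ) - mark R j) - ((mark R 0 : ℤ) - mark R 0)| < R := by simpa using h
  rcases mark_golomb h' with ⟨a, -⟩ | ⟨a, b⟩
  · exact hij a
  · exact hij (a.trans b.symm)

/-- A Golomb ruler with `m` marks, spacing and resolution at least `R`, all marks in `[R, B)`. -/
theorem exists_ruler (m R : ℕ) (hR : 0 < R) :
    ∃ (B : ℕ) (C : Finset ℕ), C.card = m ∧ (∀ c ∈ C, R ≤ c ∧ c < B) ∧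
      (∀ c ∈ C, ∀ c' ∈ C, c ≠ c' → (R : ℤ) ≤ |(c : ℤ) - c'|) ∧
      (∀ a ∈ C, ∀ b ∈ C, ∀ c ∈ C, ∀ d ∈ C, |((a : ℤ) - b) - ((c : ℤ) - d)| < R →
        (a = b ∧ c = d) ∨ (a = c ∧ b = d)) := by
  classical
  refine ⟨R * 2 ^ m, (Finset.range m).image (mark R), ?_, ?_, ?_, ?_⟩
  · rw [Finset.card_image_of_injective _ (mark_strictMono hR).injective, Finset.card_range]
  · intro c hc
    obtain ⟨i, hi, rfl⟩ := Finset.mem_image.1 hc
    exact ⟨mark_ge R i, mark_lt hR (Finset.mem_range.1 hi)⟩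
  · intro c hc c' hc' hne
    obtain ⟨i, hi, rfl⟩ := Finset.mem_image.1 hc
    obtain ⟨j, hj, rfl⟩ := Finset.mem_image.1 hc'
    exact mark_spaced (fun h => hne (by rw [h]))
  · intro a ha b hb c hc d hd h
    obtain ⟨i, hi, rfl⟩ := Finset.mem_image.1 ha
    obtain ⟨j, hj, rfl⟩ := Finset.mem_image.1 hb
    obtain ⟨k, hk, rfl⟩ := Finset.mem_image.1 hc
    obtain ⟨l, hl, rfl⟩ := Finset.mem_image.1 hd
    rcases mark_golomb h with ⟨e, f⟩ | ⟨e, f⟩
    · exact Or.inl ⟨by rw [e], by rw [f]⟩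
    · exact Or.inr ⟨by rw [e], by rw [f]⟩

/-- Abstract ruler property (resolution `R`) of a finite set of marks. -/
def IsRuler (R : ℕ) (C : Finset ℕ) : Prop :=
  ∀ a ∈ C, ∀ b ∈ C, ∀ c ∈ C, ∀ d ∈ C, |((a : ℤ) - b) - ((c : ℤ) - d)| < R →
    (a = b ∧ c = d) ∨ (a = c ∧ b = d)

/-- One target `y`, tolerance `r` with `2 r < R`: at most one ordered pair of different marks whose
difference is within `r` of `y`. -/
theorem IsRuler.pair_unique {R : ℕ} {C : Finset ℕ} (hC : IsRuler R C) {r : ℕ} (hr : 2 * r < R)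
    (y : ℤ) {a b c d : ℕ} (ha : a ∈ C) (hb : b ∈ C) (hc : c ∈ C) (hd : d ∈ C)
    (hab : a ≠ b) (h1 : |(a : ℤ) - b - y| ≤ r) (h2 : |(c : ℤ) - d - y| ≤ r) :
    a = c ∧ b = d := by
  have h : |((a : ℤ) - b) - ((c : ℤ) - d)| < R := by
    have e : ((a : ℤ) - b) - ((c : ℤ) - d) = ((a : ℤ) - b - y) - ((c : ℤ) - d - y) := by ring
    rw [e]
    calc |((a : ℤ) - b - y) - ((c : ℤ) - d - y)|
        ≤ |(a : ℤ) - b - y| + |(c : ℤ) - d - y| := abs_sub _ _
      _ ≤ (r : ℤ) + r := add_le_add h1 h2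
      _ < R := by exact_mod_cast (by omega : r + r < R)
  rcases hC a ha b hb c hc d hd h with ⟨e, -⟩ | h
  · exact absurd e hab
  · exact h

/-- Modular form: for every modulus `N` which is large against the marks, two congruent
differences (up to an error below the resolution) are equal. -/
theorem IsRuler.mod {R B : ℕ} {C : Finset ℕ} (hC : IsRuler R C) (hB : ∀ c ∈ C, c < B)
    {N : ℕ} (hN : 2 * B + R ≤ N) {a b c d : ℕ} (ha : a ∈ C) (hb : b ∈ C) (hc : c ∈ C) (hd : d ∈ C)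
    {t : ℤ} (h : |((a : ℤ) - b) - ((c : ℤ) - d) - t * N| < R) :
    (a = b ∧ c = d) ∨ (a = c ∧ b = d) := by
  have ha' := hB a ha
  have hb' := hB b hb
  have hc' := hB c hc
  have hd' := hB d hd
  have ht : t = 0 := by
    by_contra hne
    rw [abs_lt] at h
    have hN' : (2 * B + R : ℤ) ≤ N := by exact_mod_cast hN
    have a1 : (a : ℤ) < B := by exact_mod_cast ha'
    have b1 : (b : ℤ) < B := by exact_mod_cast hb'
    have c1 : (c : ℤ) < B := by exact_mod_cast hc'
    have d1 : (d : ℤ) < B := by exact_mod_cast hd'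
    have a0 : (0 : ℤ) ≤ a := Int.natCast_nonneg a
    have b0 : (0 : ℤ) ≤ b := Int.natCast_nonneg b
    have c0 : (0 : ℤ) ≤ c := Int.natCast_nonneg c
    have d0 : (0 : ℤ) ≤ d := Int.natCast_nonneg d
    have N0 : (0 : ℤ) ≤ N := Int.natCast_nonneg N
    rcases lt_or_gt_of_ne hne with hlt | hgt
    · have : t ≤ -1 := by omega
      have : t * N ≤ -1 * N := mul_le_mul_of_nonneg_right this N0
      linarith
    · have : 1 ≤ t := by omega
      have : 1 * (N : ℤ) ≤ t * N := mul_le_mul_of_nonneg_right this N0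
      linarith
  subst ht
  exact hC a ha b hb c hc d hd (by simpa using h)

/-- `ZMod` form: differences of marks are distinct modulo `N`. -/
theorem IsRuler.zmod {R B : ℕ} (hR : 0 < R) {C : Finset ℕ} (hC : IsRuler R C)
    (hB : ∀ c ∈ C, c < B) {N : ℕ} (hN : 2 * B + R ≤ N) {a b c d : ℕ}
    (ha : a ∈ C) (hb : b ∈ C) (hc : c ∈ C) (hd : d ∈ C)
    (h : (a : ZMod N) - b = (c : ZMod N) - d) :
    (a = b ∧ c = d) ∨ (a = c ∧ b = d) := by
  have h0 : (((a : ℤ) - b - ((c : ℤ) - d) : ℤ) : ZMod N) = 0 := by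
    push_cast; rw [h]; ring
  rw [ZMod.intCast_zmod_eq_zero_iff_dvd] at h0
  obtain ⟨t, ht⟩ := h0
  refine hC.mod hB hN ha hb hc hd (t := t) ?_
  rw [ht, mul_comm (N : ℤ) t, sub_self, abs_zero]
  exact_mod_cast hR

/-- **All but few marks are unambiguous.** `bad e δ` is a family of bad events for the difference
`δ = c' - c` of a wrong mark `c'` and the true mark `c`; if every event is triggered by at most one
ordered pair of different marks, all but `|E|` marks are unambiguous. -/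
theorem card_unambiguous {E : Type*} [Fintype E] (C : Finset ℕ) (bad : E → ℤ → Prop)
    (h : ∀ e, ∀ a ∈ C, ∀ b ∈ C, ∀ c ∈ C, ∀ d ∈ C, a ≠ b → c ≠ d →
      bad e ((a : ℤ) - b) → bad e ((c : ℤ) - d) → a = c ∧ b = d) :
    ∃ C' ⊆ C, C.card ≤ C'.card + Fintype.card E ∧
      ∀ c ∈ C', ∀ c' ∈ C, c' ≠ c → ∀ e, ¬ bad e ((c' : ℤ) - c) := by
  classical
  set A : Finset ℕ := C.filter (fun c => ∃ c' ∈ C, c' ≠ c ∧ ∃ e, bad e ((c' : ℤ) - c)) with hA
  have hAcard : A.card ≤ Fintype.card E := by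
    have hch : ∀ c ∈ A, ∃ e, ∃ c' ∈ C, c' ≠ c ∧ bad e ((c' : ℤ) - c) := by
      intro c hc
      obtain ⟨-, c', hc', hne, e, he⟩ := Finset.mem_filter.1 hc
      exact ⟨e, c', hc', hne, he⟩
    rcases A.eq_empty_or_nonempty with h0 | ⟨c0, hc0⟩
    · rw [h0]; simp
    have : Nonempty E := ⟨(hch c0 hc0).choose⟩
    choose! f hf using hch
    have : A.card ≤ (Finset.univ : Finset E).card := by
      refine Finset.card_le_card_of_injOn f (fun c _ => Finset.mem_coe.2 (Finset.mem_univ _)) ?_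
      intro c hc d hd hcd
      obtain ⟨c', hc'C, hc'ne, hbc⟩ := hf c hc
      obtain ⟨d', hd'C, hd'ne, hbd⟩ := hf d hd
      have hcC : c ∈ C := (Finset.mem_filter.1 (Finset.mem_coe.1 hc)).1
      have hdC : d ∈ C := (Finset.mem_filter.1 (Finset.mem_coe.1 hd)).1
      have hcd' : f c = f d := hcd
      rw [← hcd'] at hbd
      exact (h (f c) c' hc'C c hcC d' hd'C d hdC hc'ne hd'ne hbc hbd).2
    simpa using this
  refine ⟨C \ A, Finset.sdiff_subset, ?_, ?_⟩
  · have h1 : (C \ A).card + A.card = C.card :=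
      Finset.card_sdiff_add_card_eq_card (Finset.filter_subset _ _)
    omega
  · intro c hc c' hc' hne e he
    obtain ⟨hcC, hcA⟩ := Finset.mem_sdiff.1 hc
    exact hcA (Finset.mem_filter.2 ⟨hcC, c', hc', hne, e, he⟩)

/-- The form used by a promise scheme: `T` targets `y t` (walls, bands), tolerance `r`; a ruler of
resolution `> 2 r` with at least `K + |T|` marks keeps `K` marks `c` such that no wrong mark `c'`
has `c' - c` within `r` of a target. -/
theorem IsRuler.card_clean {R : ℕ} {C : Finset ℕ} (hC : IsRuler R C) {r : ℕ} (hr : 2 * r < R)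
    {T : Type*} [Fintype T] (y : T → ℤ) :
    ∃ C' ⊆ C, C.card ≤ C'.card + Fintype.card T ∧
      ∀ c ∈ C', ∀ c' ∈ C, c' ≠ c → ∀ t, (r : ℤ) < |(c' : ℤ) - c - y t| := by
  obtain ⟨C', h1, h2, h3⟩ := card_unambiguous C (fun t δ => |δ - y t| ≤ (r : ℤ))
    (fun t a ha b hb c hc d hd hab _ h1 h2 => hC.pair_unique hr (y t) ha hb hc hd hab h1 h2)
  exact ⟨C', h1, h2, fun c hc c' hc' hne t => not_le.1 (h3 c hc c' hc' hne t)⟩

/-- Modular version: residues modulo `N` as targets. -/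
theorem IsRuler.card_clean_mod {R B : ℕ} (hR : 0 < R) {C : Finset ℕ} (hC : IsRuler R C)
    (hB : ∀ c ∈ C, c < B) {N : ℕ} (hN : 2 * B + R ≤ N) {T : Type*} [Fintype T] (y : T → ZMod N) :
    ∃ C' ⊆ C, C.card ≤ C'.card + Fintype.card T ∧
      ∀ c ∈ C', ∀ c' ∈ C, c' ≠ c → ∀ t, ((c' : ZMod N) - c) ≠ y t := by
  obtain ⟨C', h1, h2, h3⟩ := card_unambiguous C (fun t δ => ((δ : ℤ) : ZMod N) = y t)
    (fun t a ha b hb c hc d hd hab hcd h1 h2 => by
      have h1' : (a : ZMod N) - b = y t := by simpa using h1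
      have h2' : (c : ZMod N) - d = y t := by simpa using h2
      rcases hC.zmod hR hB hN ha hb hc hd (h1'.trans h2'.symm) with ⟨e, -⟩ | h
      · exact absurd e hab
      · exact h)
  refine ⟨C', h1, h2, fun c hc c' hc' hne t h => h3 c hc c' hc' hne t ?_⟩
  simpa using h

/-- Several rulers at once: marks that are multiples of a given `d`, spacing and resolution `R`. -/
theorem exists_ruler_dvd (m R d : ℕ) (hR : 0 < R) (hd : 0 < d) :
    ∃ (B : ℕ) (C : Finset ℕ), C.card = m ∧ (∀ c ∈ C, d ∣ c ∧ R ≤ c ∧ c < B) ∧ IsRuler R C ∧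
      (∀ c ∈ C, ∀ c' ∈ C, c ≠ c' → (R : ℤ) ≤ |(c : ℤ) - c'|) := by
  classical
  have hRd : 0 < R * d := Nat.mul_pos hR hd
  refine ⟨R * d * 2 ^ m, (Finset.range m).image (mark (R * d)), ?_, ?_, ?_, ?_⟩
  · rw [Finset.card_image_of_injective _ (mark_strictMono hRd).injective, Finset.card_range]
  · intro c hc
    obtain ⟨i, hi, rfl⟩ := Finset.mem_image.1 hc
    refine ⟨⟨R * 2 ^ i, by simp only [mark]; ring⟩, ?_, mark_lt hRd (Finset.mem_range.1 hi)⟩
    exact (Nat.le_mul_of_pos_right R hd).trans (mark_ge (R * d) i)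
  · intro a ha b hb c hc e he h
    obtain ⟨i, hi, rfl⟩ := Finset.mem_image.1 ha
    obtain ⟨j, hj, rfl⟩ := Finset.mem_image.1 hb
    obtain ⟨k, hk, rfl⟩ := Finset.mem_image.1 hc
    obtain ⟨l, hl, rfl⟩ := Finset.mem_image.1 he
    have hle : (R : ℤ) ≤ ((R * d : ℕ) : ℤ) := by exact_mod_cast Nat.le_mul_of_pos_right R hd
    rcases mark_golomb (lt_of_lt_of_le h hle) with ⟨e, f⟩ | ⟨e, f⟩
    · exact Or.inl ⟨by rw [e], by rw [f]⟩
    · exact Or.inr ⟨by rw [e], by rw [f]⟩
  · intro c hc c' hc' hne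
    obtain ⟨i, hi, rfl⟩ := Finset.mem_image.1 hc
    obtain ⟨j, hj, rfl⟩ := Finset.mem_image.1 hc'
    have hle : (R : ℤ) ≤ ((R * d : ℕ) : ℤ) := by exact_mod_cast Nat.le_mul_of_pos_right R hd
    exact hle.trans (mark_spaced (fun h => hne (by rw [h])))

end Crest.Agent.R320.Golomb314
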