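import Crest.Agent.R320.FinA_743
import Crest.Agent.R320.Grid_899
import Crest.Agent.R320.Thin_963
import Crest.Agent.R320.ExactR_237
import Crest.Agent.R320.LWallAll_922
import Crest.Agent.R320.Two_621
import Crest.Agent.R320.Golomb_314

/-!
Row 320 (helper743): finite-state property and thinness for the constants of the final join.
-/

set_option autoImplicit false

namespace Crest.Agent.R320.FinB_743

open Crest.Agent.R320.FinA_743 Crest.Agent.R320.Sc2n_937
open Crest.Agent.R320.Grid_899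

variable {α S V : Type} [Monoid S] [AddCommGroup V]

theorem drop_cut (X : List α) {a b : ℕ} (h : a ≤ b) :
    X.drop a = (X.take b).drop a ++ X.drop b := by
  rcases Nat.lt_or_ge X.length b with hl | hl
  · rw [List.take_of_length_le (by omega), List.drop_eq_nil_of_le (as := X) (i := b) (by omega),
      List.append_nil]
  · conv_lhs => rw [← List.take_append_drop b X]
    rw [List.drop_append_of_le_length (by rw [List.length_take]; omega)]

theorem ph_cut (φ : α → S) {X Y : List α} {a b : ℕ} (h : a ≤ b) (h1 : X.take b = Y.take b)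
    (h2 : ph φ (X.drop b) = ph φ (Y.drop b)) : ph φ (X.drop a) = ph φ (Y.drop a) := by
  rw [drop_cut X h, drop_cut Y h, ph_append, ph_append, h1, h2]

/-- values forced at the zone `Y` -/
def Vs (act : V → S → V) (φ : α → S) (lam rho : List α → Option V) (Y : List α) : V → Prop :=
  fun w => ∃ P Q v b, Y = P ++ Q ∧ lam P = some v ∧ rho Q = some b ∧ w = b - act v (ph φ Y)

open Classical in
noncomputable def nuF (P : V → Prop) : V := if h : ∃ w, P w then h.choose else 0

/-- the semantic noise -/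
noncomputable def nu1 (act : V → S → V) (φ : α → S) (lam rho : List α → Option V) (Y : List α) : V :=
  nuF (Vs act φ lam rho Y)

theorem nu1_sound {act : V → S → V} {φ : α → S} {lam rho : List α → Option V}
    {nu : List α → V}
    (hs : ∀ P Q v b, lam P = some v → rho Q = some b → b = act v (ph φ (P ++ Q)) + nu (P ++ Q))
    (P Q : List α) (v b : V) (h1 : lam P = some v) (h2 : rho Q = some b) :
    b = act v (ph φ (P ++ Q)) + nu1 act φ lam rho (P ++ Q) := by
  classical
  have hex : ∃ w, Vs act φ lam rho (P ++ Q) w := ⟨_, P, Q, v, b, rfl, h1, h2, rfl⟩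
  have hall : ∀ w, Vs act φ lam rho (P ++ Q) w → w = nu (P ++ Q) := by
    rintro w ⟨P', Q', v', b', e, h3, h4, rfl⟩
    have := hs P' Q' v' b' h3 h4
    rw [← e] at this
    rw [this]; abel
  have : nu1 act φ lam rho (P ++ Q) = nu (P ++ Q) := by
    unfold nu1 nuF
    rw [dif_pos hex]
    exact hall _ hex.choose_spec
  rw [this]
  exact hs P Q v b h1 h2

theorem vs_sub {act : V → S → V} {φ : α → S} {lam rho : List α → Option V} {A N M : ℕ}
    (hl : ∀ P v, lam P = some v → P.length ≤ A)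
    (hr : ∀ Q Q' : List α, N ≤ Q.length → N ≤ Q'.length → Q.take N = Q'.take N →
      ph φ (Q.drop N) = ph φ (Q'.drop N) → Q.length ≡ Q'.length [MOD M] → rho Q = rho Q')
    {Y Y' : List α} (h1 : A + N ≤ Y.length) (h2 : A + N ≤ Y'.length)
    (h3 : Y.take (A + N) = Y'.take (A + N)) (h4 : ph φ (Y.drop (A + N)) = ph φ (Y'.drop (A + N)))
    (h5 : Y.length ≡ Y'.length [MOD M]) {w : V} (h : Vs act φ lam rho Y w) :
    Vs act φ lam rho Y' w := by
  obtain ⟨P, Q, v, b, rfl, hP, hQ, rfl⟩ := h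
  have hPl := hl P v hP
  rw [List.length_append] at h1 h5
  have htk : ∀ a, a ≤ A + N → (P ++ Q).take a = Y'.take a := by
    intro a ha
    have := congrArg (List.take a) h3
    rwa [List.take_take, List.take_take, min_eq_left ha] at this
  have hph : ∀ a, a ≤ A + N → ph φ ((P ++ Q).drop a) = ph φ (Y'.drop a) :=
    fun a ha => ph_cut φ ha h3 h4
  have e1 : Y'.take P.length = P := by rw [← htk _ (by omega), List.take_left]
  have e2 : Y' = P ++ Y'.drop P.length := by
    conv_lhs => rw [← List.take_append_drop P.length Y', e1]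
  have e3 : rho (Y'.drop P.length) = some b := by
    rw [← hQ]
    refine (hr _ _ (by omega) (by rw [List.length_drop]; omega) ?_ ?_ ?_).symm
    · have e4 := htk (P.length + N) (by omega)
      rw [List.take_length_add_append] at e4
      have e5 := congrArg (List.drop P.length) e4
      rw [List.drop_left, List.drop_take] at e5
      rw [e5]; congr 1; omega
    · have e4 := hph (P.length + N) (by omega)
      rw [List.drop_append, List.drop_eq_nil_of_le (by omega), List.nil_append] at e4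
      rw [List.drop_drop]
      rw [← e4]
      congr 2
      omega
    · rw [List.length_drop]
      have : P.length ≤ Y'.length := by omega
      obtain ⟨d, hd⟩ := Nat.exists_eq_add_of_le this
      rw [hd] at h5 ⊢
      have h6 := Nat.ModEq.add_left_cancel' P.length h5
      rw [Nat.add_sub_cancel_left]
      exact h6
  refine ⟨P, Y'.drop P.length, v, b, e2, hP, e3, ?_⟩
  have e6 := hph 0 (Nat.zero_le _)
  rw [List.drop_zero, List.drop_zero] at e6
  rw [e6]

theorem nu1_loc {act : V → S → V} {φ : α → S} {lam rho : List α → Option V} {A N M : ℕ}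
    (hl : ∀ P v, lam P = some v → P.length ≤ A)
    (hr : ∀ Q Q' : List α, N ≤ Q.length → N ≤ Q'.length → Q.take N = Q'.take N →
      ph φ (Q.drop N) = ph φ (Q'.drop N) → Q.length ≡ Q'.length [MOD M] → rho Q = rho Q')
    {Y Y' : List α} (h1 : A + N ≤ Y.length) (h2 : A + N ≤ Y'.length)
    (h3 : Y.take (A + N) = Y'.take (A + N)) (h4 : ph φ (Y.drop (A + N)) = ph φ (Y'.drop (A + N)))
    (h5 : Y.length ≡ Y'.length [MOD M]) :
    nu1 act φ lam rho Y = nu1 act φ lam rho Y' := by
  unfold nu1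
  congr 1
  funext w
  exact propext ⟨vs_sub hl hr h1 h2 h3 h4 h5, vs_sub hl hr h2 h1 h3.symm h4.symm h5.symm⟩

/-! ### the bad lengths -/

/-- bad lengths (natural numbers) -/
def BadN {k : ℕ} (q : Fin k → ℕ) (κ m : ℕ) (n : ℕ) : Prop :=
  (∃ j, q j ∣ n) ∨ ∃ j, 1 ≤ j ∧ j ≤ m ∧
    ((n - Am (∏ j, q j) κ j) % G κ j < (∏ j, q j) * G κ (j - 1) ∨
      G κ j < (n - Am (∏ j, q j) κ j) % G κ j + (∏ j, q j) * G κ (j - 1))

theorem badN_mod {k : ℕ} (q : Fin k → ℕ) (κ m : ℕ) {n n' : ℕ}
    (h : Am (∏ j, q j) κ m ≤ n) (h' : Am (∏ j, q j) κ m ≤ n')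
    (hm : n ≡ n' [MOD (∏ j, q j) * G κ m]) (hb : BadN q κ m n) : BadN q κ m n' := by
  rcases hb with ⟨j, hj⟩ | ⟨j, h1, h2, h3⟩
  · left
    refine ⟨j, ?_⟩
    have hd : q j ∣ (∏ j, q j) * G κ m :=
      (Finset.dvd_prod_of_mem q (Finset.mem_univ j)).mul_right _
    exact ((hm.of_dvd hd).dvd_iff dvd_rfl).1 hj
  · right
    refine ⟨j, h1, h2, ?_⟩
    have hd : G κ j ∣ (∏ j, q j) * G κ m := (G_dvd h2).mul_left _
    have hA : Am (∏ j, q j) κ j ≤ Am (∏ j, q j) κ m := Am_mono h2
    have h4 : (n - Am (∏ j, q j) κ j) % G κ j = (n' - Am (∏ j, q j) κ j) % G κ j := by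
      obtain ⟨d, hd1⟩ := Nat.exists_eq_add_of_le (hA.trans h)
      obtain ⟨d', hd2⟩ := Nat.exists_eq_add_of_le (hA.trans h')
      rw [hd1, hd2] at hm ⊢
      rw [Nat.add_sub_cancel_left, Nat.add_sub_cancel_left]
      exact Nat.ModEq.add_left_cancel' _ (hm.of_dvd hd)
    rw [← h4]; exact h3

/-- bad natural lengths are bad for 963 -/
theorem badN_thin {k : ℕ} (q : Fin k → ℕ) (κ m : ℕ) {n : ℕ} (h : Am (∏ j, q j) κ m ≤ n)
    (hb : BadN q κ m n) :
    Thin963.BadT (Finset.univ.image q) m (fun i => (G κ i : ℤ))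
      (fun i => ((∏ j, q j : ℕ) : ℤ) * (G κ i : ℤ)) (fun i => (Am (∏ j, q j) κ i : ℤ)) (n : ℤ) := by
  rcases hb with ⟨j, hj⟩ | ⟨j, h1, h2, h3⟩
  · left
    exact ⟨q j, Finset.mem_image_of_mem _ (Finset.mem_univ _), by exact_mod_cast hj⟩
  · right
    obtain ⟨i, rfl⟩ : ∃ i, j = i + 1 := ⟨j - 1, by omega⟩
    refine ⟨i, by omega, ?_⟩
    rw [Nat.add_sub_cancel] at h3
    have hA : Am (∏ j, q j) κ (i + 1) ≤ n := (Am_mono h2).trans h
    set A := Am (∏ j, q j) κ (i + 1) with hAdef
    set g := G κ (i + 1) with hg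
    set r := (n - A) % g with hr
    have hdm : n - A = g * ((n - A) / g) + r := (Nat.div_add_mod _ _).symm
    have hcast : (n : ℤ) - (A : ℤ) = (g : ℤ) * (((n - A) / g : ℕ) : ℤ) + (r : ℤ) := by
      have := congrArg (Nat.cast : ℕ → ℤ) hdm
      rw [Nat.cast_sub hA] at this
      rw [this]; push_cast; ring
    have hrg : r < g := Nat.mod_lt _ (G_pos _)
    rcases h3 with h3 | h3
    · refine ⟨-(r : ℤ), ?_, ?_⟩
      · rw [abs_neg, abs_of_nonneg (by positivity)]
        change (r : ℤ) ≤ ((∏ j, q j : ℕ) : ℤ) * (G κ i : ℤ)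
        exact_mod_cast h3.le
      · change (g : ℤ) ∣ (n : ℤ) - (A : ℤ) + -(r : ℤ)
        rw [hcast]
        exact ⟨(((n - A) / g : ℕ) : ℤ), by ring⟩
    · refine ⟨(g : ℤ) - r, ?_, ?_⟩
      · rw [abs_of_nonneg (by omega)]
        change (g : ℤ) - r ≤ ((∏ j, q j : ℕ) : ℤ) * (G κ i : ℤ)
        have : (g : ℤ) < r + ((∏ j, q j : ℕ) : ℤ) * (G κ i : ℤ) := by exact_mod_cast h3
        linarith
      · change (g : ℤ) ∣ (n : ℤ) - (A : ℤ) + ((g : ℤ) - r)
        rw [hcast]
        exact ⟨(((n - A) / g : ℕ) : ℤ) + 1, by ring⟩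

/-- the finite-state property of the zone map and of the mode -/
theorem key_of [Finite S] {act : V → S → V} {φ : α → S} {lam rho : List α → Option V}
    {A N M : ℕ} (hM : 0 < M)
    (hl : ∀ P v, lam P = some v → P.length ≤ A)
    (hr : ∀ Q Q' : List α, N ≤ Q.length → N ≤ Q'.length → Q.take N = Q'.take N →
      ph φ (Q.drop N) = ph φ (Q'.drop N) → Q.length ≡ Q'.length [MOD M] → rho Q = rho Q')
    (nu2 : List α → V) (g : Geo α) (BadT : ℕ → Prop) (A1 : ℕ)
    (hB : ∀ n n', A1 ≤ n → A1 ≤ n' → n ≡ n' [MOD M] → BadT n → BadT n') (x : V) :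
    Fib_854.Key (fun X : List α => (g.BadX BadT X,
      act x (X.map φ).prod + nu act φ (nu1 act φ lam rho) nu2 g.p0 X)) := by
  refine ⟨g.p0 + g.z + g.N1 + A + N + A1, M, S, inferInstance, inferInstance, φ, hM, ?_⟩
  intro X Y hX hY h1 h2 h3
  set K' := g.p0 + g.z + g.N1 + A + N + A1 with hK'
  have htk : ∀ a, a ≤ K' → X.take a = Y.take a := by
    intro a ha
    have := congrArg (List.take a) h1
    rwa [List.take_take, List.take_take, min_eq_left ha] at this
  have hph : ∀ a, a ≤ K' → ph φ (X.drop a) = ph φ (Y.drop a) :=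
    fun a ha => ph_cut φ ha h1 h3
  have hmod : X.length ≡ Y.length [MOD M] := h2
  have hmod' : X.length - g.p0 ≡ Y.length - g.p0 [MOD M] := by
    obtain ⟨d, hd⟩ := Nat.exists_eq_add_of_le (show g.p0 ≤ X.length by omega)
    obtain ⟨d', hd'⟩ := Nat.exists_eq_add_of_le (show g.p0 ≤ Y.length by omega)
    rw [hd, hd'] at hmod ⊢
    rw [Nat.add_sub_cancel_left, Nat.add_sub_cancel_left]
    exact Nat.ModEq.add_left_cancel' _ hmod
  have hE : ∀ X Y : List α, K' ≤ X.length → K' ≤ Y.length →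
      (∀ a, a ≤ K' → X.take a = Y.take a) → g.E X → g.E Y := by
    rintro X Y hX hY h ⟨t, ht, hw, h4, h5⟩
    refine ⟨t, by omega, ?_, h4, h5⟩
    rw [← h t (by omega)]; exact hw
  refine Prod.ext ?_ ?_
  · refine propext ⟨?_, ?_⟩
    · rintro (h | h)
      · exact Or.inl (hE X Y hX hY htk h)
      · exact Or.inr (hB _ _ (by omega) (by omega) hmod' h)
    · rintro (h | h)
      · exact Or.inl (hE Y X hY hX (fun a ha => (htk a ha).symm) h)
      · exact Or.inr (hB _ _ (by omega) (by omega) hmod'.symm h)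
  · have e0 := hph 0 (Nat.zero_le _)
    rw [List.drop_zero, List.drop_zero] at e0
    have e0' : (X.map φ).prod = (Y.map φ).prod := e0
    have e1 := htk g.p0 (by omega)
    have e2 := hph g.p0 (by omega)
    change act x (X.map φ).prod + nu act φ (nu1 act φ lam rho) nu2 g.p0 X =
      act x (Y.map φ).prod + nu act φ (nu1 act φ lam rho) nu2 g.p0 Y
    unfold nu
    rw [e0', e1, e2]
    congr 2
    refine nu1_loc hl hr (by rw [List.length_drop]; omega) (by rw [List.length_drop]; omega)
      ?_ ?_ (by rw [List.length_drop, List.length_drop]; exact hmod')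
    · rw [List.take_drop, List.take_drop, htk _ (by omega)]
    · rw [List.drop_drop, List.drop_drop]
      exact hph _ (by omega)

end Crest.Agent.R320.FinB_743
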