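import Crest.Agent.R320.FinA_792

/-!
# Row 320, final assembly, part B (helper792): completeness of the two schemes in 110's form
-/

set_option autoImplicit false

namespace Crest.Agent.R320.FinB_792

open Crest.RegLang Crest.Agent.R320.Hk_851 Crest.Agent.R320.Code110
open Crest.Agent.R320.FewVal_228 Crest.Agent.R320.FewWalls_228 Crest.Agent.R320.FinA_792

/-! ### the count of spoiled pairs -/

/-- `s` is the first wall at a place `≥ z` of the candidate -/
def First (D : ℕ → Prop) (z : ℕ) (c : ℕ → ℕ) (i j s : ℕ) : Prop :=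
  D s ∧ z + c i ≤ s + c j ∧ ∀ s', D s' → z + c i ≤ s' + c j → s ≤ s'

def SpE (D : ℕ → Prop) (z N1 : ℕ) (c : ℕ → ℕ) (i j : ℕ) : Prop :=
  ∃ s, D s ∧ z + c i ≤ s + c j + N1 ∧ s + c j < z + N1 + c i

def SpB (D : ℕ → Prop) (z p0 : ℕ) (c : ℕ → ℕ) (Bad : ℕ → Prop) (i j : ℕ) : Prop :=
  ∃ s, First D z c i j s ∧ Bad (s - p0 + c j - c i)

open Classical in
theorem count (D : ℕ → Prop) (W K p0 N1 z La C0 : ℕ) (c : ℕ → ℕ) (Bad : ℕ → Prop)
    (hsep : ∀ s t, D s → D t → s < t → s + W ≤ t) (hW : 2 * p0 + 2 * N1 ≤ W)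
    (hc : ∀ k < K, c k ≤ p0) (hz : 2 * p0 + N1 + La ≤ z)
    (hrul : ∀ i j k l, i < K → j < K → k < K → l < K → i ≠ j → k ≠ l → (i, j) ≠ (k, l) →
      c i + c l + 4 * N1 < c k + c j ∨ c k + c j + 4 * N1 < c i + c l)
    (hthin : ∀ T, La ≤ T → ((Finset.range K ×ˢ Finset.range K).filter
      (fun ij => ij.1 ≠ ij.2 ∧ Bad (T + c ij.2 - c ij.1))).card ≤ C0) :
    ((Finset.range K ×ˢ Finset.range K).filter (fun ij => ij.1 ≠ ij.2 ∧
      (SpE D z N1 c ij.1 ij.2 ∨ SpB D z p0 c Bad ij.1 ij.2))).card ≤ 1 + (C0 + C0) := by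
  have hE : ((Finset.range K ×ˢ Finset.range K).filter (fun ij => ij.1 ≠ ij.2 ∧
      SpE D z N1 c ij.1 ij.2)).card ≤ 1 := by
    rw [Finset.card_le_one]
    rintro ⟨i, j⟩ hij ⟨k, l⟩ hkl
    simp only [Finset.mem_filter, Finset.mem_product, Finset.mem_range] at hij hkl
    obtain ⟨⟨hi, hj⟩, hne, s, hs, h1, h2⟩ := hij
    obtain ⟨⟨hk, hl⟩, hne', s', hs', h1', h2'⟩ := hkl
    by_contra hcon
    have hr := hrul i j k l hi hj hk hl hne hne' hcon
    have c1 := hc i hi
    have c2 := hc j hj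
    have c3 := hc k hk
    have c4 := hc l hl
    have hss : s = s' := by
      rcases Nat.lt_trichotomy s s' with h | h | h
      · have := hsep s s' hs hs' h; omega
      · exact h
      · have := hsep s' s hs' hs h; omega
    subst hss
    omega
  have hB : ((Finset.range K ×ˢ Finset.range K).filter (fun ij => ij.1 ≠ ij.2 ∧
      SpB D z p0 c Bad ij.1 ij.2)).card ≤ C0 + C0 := by
    by_cases hex : ∃ s, z ≤ s + p0 ∧ D s
    · have hs1 := Nat.find_spec hex
      have hm1 : ∀ s, z ≤ s + p0 → D s → Nat.find hex ≤ s := fun s h1 h2 =>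
        Nat.find_min' hex ⟨h1, h2⟩
      set s1 := Nat.find hex with hs1def
      obtain ⟨s2, hs2a, hs2⟩ : ∃ s2, z ≤ s2 + p0 ∧ ∀ i j s, i < K → j < K → First D z c i j s →
          s = s1 ∨ s = s2 := by
        by_cases hex2 : ∃ s, s1 < s ∧ D s
        · obtain ⟨a1, a2⟩ := Nat.find_spec hex2
          have hm2 : ∀ s, s1 < s → D s → Nat.find hex2 ≤ s := fun s h1 h2 =>
            Nat.find_min' hex2 ⟨h1, h2⟩
          set s2 := Nat.find hex2 with hs2def
          refine ⟨s2, by omega, fun i j s hi hj hf => ?_⟩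
          obtain ⟨f1, f2, f3⟩ := hf
          have c1 := hc i hi
          have c2 := hc j hj
          have h1 := hm1 s (by omega) f1
          by_cases h2 : s = s1
          · exact Or.inl h2
          · right
            have h3 := hm2 s (by omega) f1
            have h4 := hsep s1 s2 hs1.2 a2 a1
            have h5 := f3 s2 a2 (by omega)
            omega
        · refine ⟨s1, hs1.1, fun i j s hi hj hf => ?_⟩
          obtain ⟨f1, f2, f3⟩ := hf
          have c1 := hc i hi
          have c2 := hc j hj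
          have h1 := hm1 s (by omega) f1
          left
          by_contra h2
          exact hex2 ⟨s, by omega, f1⟩
      have hsub : ((Finset.range K ×ˢ Finset.range K).filter (fun ij => ij.1 ≠ ij.2 ∧
          SpB D z p0 c Bad ij.1 ij.2)) ⊆
          ((Finset.range K ×ˢ Finset.range K).filter
            (fun ij => ij.1 ≠ ij.2 ∧ Bad (s1 - p0 + c ij.2 - c ij.1))) ∪
          ((Finset.range K ×ˢ Finset.range K).filter
            (fun ij => ij.1 ≠ ij.2 ∧ Bad (s2 - p0 + c ij.2 - c ij.1))) := by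
        rintro ⟨i, j⟩ hij
        simp only [Finset.mem_filter, Finset.mem_product, Finset.mem_range,
          Finset.mem_union] at hij ⊢
        obtain ⟨⟨hi, hj⟩, hne, s, hf, hb⟩ := hij
        rcases hs2 i j s hi hj hf with rfl | rfl
        · exact Or.inl ⟨⟨hi, hj⟩, hne, hb⟩
        · exact Or.inr ⟨⟨hi, hj⟩, hne, hb⟩
      refine (Finset.card_le_card hsub).trans ((Finset.card_union_le _ _).trans ?_)
      exact Nat.add_le_add (hthin _ (by have := hs1.1; omega)) (hthin _ (by omega))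
    · have : ((Finset.range K ×ˢ Finset.range K).filter (fun ij => ij.1 ≠ ij.2 ∧
          SpB D z p0 c Bad ij.1 ij.2)) = ∅ := by
        rw [Finset.filter_eq_empty_iff]
        rintro ⟨i, j⟩ hij ⟨_, s, ⟨f1, f2, _⟩, _⟩
        simp only [Finset.mem_product, Finset.mem_range] at hij
        have c1 := hc i hij.1
        have c2 := hc j hij.2
        simp only at f2
        exact hex ⟨s, by omega, f1⟩
      rw [this, Finset.card_empty]
      exact Nat.zero_le _
  have hsub : ((Finset.range K ×ˢ Finset.range K).filter (fun ij => ij.1 ≠ ij.2 ∧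
      (SpE D z N1 c ij.1 ij.2 ∨ SpB D z p0 c Bad ij.1 ij.2))) ⊆
      ((Finset.range K ×ˢ Finset.range K).filter (fun ij => ij.1 ≠ ij.2 ∧
        SpE D z N1 c ij.1 ij.2)) ∪
      ((Finset.range K ×ˢ Finset.range K).filter (fun ij => ij.1 ≠ ij.2 ∧
        SpB D z p0 c Bad ij.1 ij.2)) := by
    rintro ⟨i, j⟩ hij
    simp only [Finset.mem_filter, Finset.mem_union] at hij ⊢
    obtain ⟨h1, h2, h3 | h3⟩ := hij
    · exact Or.inl ⟨h1, h2, h3⟩
    · exact Or.inr ⟨h1, h2, h3⟩
  exact (Finset.card_le_card hsub).trans ((Finset.card_union_le _ _).trans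
    (Nat.add_le_add hE hB))

/-! ### the data -/

structure Dat (α M V : Type) [Monoid M] [AddCommGroup V] where
  φ : α → M
  act : V → M → V
  n : ℕ
  Sw : Set (List α)
  z : ℕ
  p0 : ℕ
  N1 : ℕ
  La : ℕ
  K : ℕ
  W : ℕ
  C0 : ℕ
  c : ℕ → ℕ
  Bad : ℕ → Prop
  lam1 : List α → Option V
  rho1 : List α → Option V
  nu1 : List α → V
  lam2 : ℕ → List α → Option V
  rho2 : ℕ → List α → Option V
  nu2 : List α → V

variable {α M V : Type} [Monoid M] [AddCommGroup V]

def ph (φ : α → M) (w : List α) : M := (w.map φ).prod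

theorem ph_append (φ : α → M) (u v : List α) : ph φ (u ++ v) = ph φ u * ph φ v := by
  unfold ph; rw [List.map_append, List.prod_append]

namespace Dat

variable (D : Dat α M V)

open Classical in
structure Ok : Prop where
  hadd : ∀ a b s, D.act (a + b) s = D.act a s + D.act b s
  hmul : ∀ v s t, D.act v (s * t) = D.act (D.act v s) t
  g1 : ∀ p v, D.lam1 p = some v → p.length ≤ D.N1
  g2 : ∀ p q v r, D.lam1 p = some v → D.rho1 q = some r → D.La ≤ q.length →
    r = D.act v (ph D.φ (p ++ q)) + D.nu1 (p ++ q)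
  g3 : ∀ u : List α, D.La ≤ u.length → ¬ D.Bad u.length → ∀ v, ∃ p q, p ++ q = u ∧
    D.lam1 p = some v ∧ (D.rho1 q).isSome
  e1 : ∀ k < D.K, ∀ (P Q : List α) (v b : V), P.length = D.c k → D.lam2 k P = some v →
    D.rho2 k Q = some b → b = D.act v (ph D.φ (P ++ Q)) + D.nu2 (P ++ Q)
  e2 : ∀ (u : List α) (v : V), (∀ k < D.K, D.c k ≤ u.length) →
    ∃ I : Finset ℕ, 2 * D.C0 + 2 ≤ I.card ∧ ∀ k ∈ I, k < D.K ∧
      D.lam2 k (u.take (D.c k)) = some v ∧ (D.rho2 k (u.drop (D.c k))).isSome
  hc : ∀ k < D.K, D.c k ≤ D.p0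
  hinc : ∀ i j, i < j → j < D.K → D.c i < D.c j
  hz : 2 * D.p0 + 2 * D.N1 + D.n + D.La < D.z
  hW : 2 * D.p0 + 2 * D.N1 ≤ D.W
  hsep : ∀ (w : List α) (s t : ℕ), s < t → t ≤ w.length → Wt D.n D.Sw (w.take s) →
    Wt D.n D.Sw (w.take t) → s + D.W ≤ t
  hrul : ∀ i j k l, i < D.K → j < D.K → k < D.K → l < D.K → i ≠ j → k ≠ l → (i, j) ≠ (k, l) →
      D.c i + D.c l + 4 * D.N1 < D.c k + D.c j ∨ D.c k + D.c j + 4 * D.N1 < D.c i + D.c l
  hthin : ∀ T, D.La ≤ T → ((Finset.range D.K ×ˢ Finset.range D.K).filter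
      (fun ij => ij.1 ≠ ij.2 ∧ D.Bad (T + D.c ij.2 - D.c ij.1))).card ≤ D.C0

/-- noise of the zone -/
def nuT (X : List α) : V :=
  D.act (D.nu2 (X.take D.p0)) (ph D.φ (X.drop D.p0)) + D.nu1 (X.drop D.p0)

/-- zone map -/
def tau (X : List α) (v : V) : V := D.act v (ph D.φ X) + D.nuT X

def Z : Language α := XX D.n D.z D.Sw

def L1 (x : V) : Language α :=
  {P | D.p0 ≤ P.length ∧ P.length ≤ D.p0 + D.N1 ∧
    D.lam1 (P.drop D.p0) = some (D.act x (ph D.φ (P.take D.p0)) + D.nu2 (P.take D.p0))}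

def L2 (x : V) : Language α := {P | ∃ k < D.K, P.length = D.c k ∧ D.lam2 k P = some x}

variable {D}

theorem tau_eq (h : D.Ok) (X : List α) (v : V) :
    D.tau X v = D.act (D.act v (ph D.φ (X.take D.p0)) + D.nu2 (X.take D.p0))
      (ph D.φ (X.drop D.p0)) + D.nu1 (X.drop D.p0) := by
  unfold tau nuT
  rw [h.hadd, ← h.hmul, ← ph_append, List.take_append_drop, add_assoc]

theorem shift (P P' q : List α) {t : ℕ} (h1 : D.n ≤ t) (h2 : t ≤ q.length) :
    Wt D.n D.Sw ((P' ++ q).take (P'.length + t)) ↔ Wt D.n D.Sw ((P ++ q).take (P.length + t)) := by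
  rw [List.take_length_add_append, List.take_length_add_append,
    Wt_append _ _ (by rw [List.length_take]; omega),
    Wt_append _ _ (by rw [List.length_take]; omega)]

/-- completeness of scheme 1 -/
theorem good (h : D.Ok) {X : List α} (hX : X ∈ D.Z) (h1 : D.z + D.N1 ≤ X.length)
    (h2 : ∀ t, D.z ≤ t + D.N1 → t < D.z → ¬ Wt D.n D.Sw (X.take t))
    (h3 : ¬ D.Bad (X.length - D.p0)) : X ∉ BadZ D.Z D.tau D.L1 := by
  rintro ⟨-, hb⟩
  refine hb fun x => ?_
  have hz := h.hz
  obtain ⟨hXz, hXw, hXn⟩ := hX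
  have hYl : (X.drop D.p0).length = X.length - D.p0 := List.length_drop
  have hX0l : (X.take D.p0).length = D.p0 := by rw [List.length_take]; omega
  obtain ⟨p, q, hpq, hp, hq⟩ := h.g3 (X.drop D.p0) (by omega) (by rw [hYl]; exact h3)
    (D.act x (ph D.φ (X.take D.p0)) + D.nu2 (X.take D.p0))
  obtain ⟨r, hr⟩ := Option.isSome_iff_exists.1 hq
  have hpl := h.g1 p _ hp
  have hlen : p.length + q.length = X.length - D.p0 := by
    rw [← hYl, ← hpq, List.length_append]
  have hXe : X = (X.take D.p0 ++ p) ++ q := by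
    rw [List.append_assoc, hpq, List.take_append_drop]
  have hval : D.tau X x = r := by
    rw [tau_eq h, ← hpq]
    exact (h.g2 p q _ r hp hr (by omega)).symm
  refine ⟨D.tau X x, Language.mem_mul.2 ⟨X.take D.p0 ++ p, ?_, q, ?_, hXe.symm⟩⟩
  · refine ⟨by rw [List.length_append]; omega, by rw [List.length_append]; omega, ?_⟩
    have e1 : (X.take D.p0 ++ p).drop D.p0 = p := by
      have := List.drop_left (l₁ := X.take D.p0) (l₂ := p)
      rwa [hX0l] at this
    have e2 : (X.take D.p0 ++ p).take D.p0 = X.take D.p0 := by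
      have := List.take_left (l₁ := X.take D.p0) (l₂ := p)
      rwa [hX0l] at this
    rw [e1, e2]
    exact hp
  · intro x' P' hP'
    obtain ⟨a1, a2, a3⟩ := hP'
    left
    refine ⟨D.tau (P' ++ q) x', Language.mem_mul.2 ⟨P' ++ q, ⟨?_, rfl⟩, [], ⟨rfl, ?_⟩, by simp⟩⟩
    · refine ⟨by rw [List.length_append]; omega, ?_, ?_⟩
      · rw [hXe] at hXw
        rw [Wt_append _ _ (by omega)] at hXw ⊢
        exact hXw
      · intro t ht1 ht2 hw
        rw [List.length_append] at ht2
        obtain ⟨t', rfl⟩ : ∃ t', t = P'.length + t' := ⟨t - P'.length, by omega⟩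
        rw [shift (X.take D.p0 ++ p) P' q (by omega) (by omega), ← hXe] at hw
        have hl : (X.take D.p0 ++ p).length = D.p0 + p.length := by
          rw [List.length_append, hX0l]
        rw [hl] at hw
        by_cases hc : D.z ≤ D.p0 + p.length + t'
        · exact hXn _ hc (by omega) hw
        · exact h2 _ (by omega) (by omega) hw
    · rw [hval, tau_eq h]
      rw [List.take_append_of_le_length a1, List.drop_append_of_le_length a1]
      exact (h.g2 _ q _ r a3 hr (by omega)).symm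

/-- completeness of scheme 2 -/
theorem compl2 (h : D.Ok) {u t : List α} (hu : u ∈ BadZ D.Z D.tau D.L1)
    (ht : t ∈ BadZ D.Z D.tau D.L1) (x : V) :
    ∃ p q y, u ++ t = p ++ q ∧ p ∈ D.L2 x ∧ q ∈ Rsem D.Z (BadZ D.Z D.tau D.L1) D.tau 1 D.L2 y := by
  classical
  have hz := h.hz
  have hW := h.hW
  obtain ⟨huz, huw, hun⟩ := hu.1
  obtain ⟨htz, htw, htn⟩ := ht.1
  have hwl : (u ++ t).length = u.length + t.length := List.length_append
  set Dw : ℕ → Prop := fun s => s ≤ (u ++ t).length ∧ Wt D.n D.Sw ((u ++ t).take s) with hDw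
  have hcount := count Dw D.W D.K D.p0 D.N1 D.z D.La D.C0 D.c D.Bad
    (fun s t' hs ht' hlt => h.hsep (u ++ t) s t' hlt ht'.1 hs.2 ht'.2) hW h.hc (by omega) h.hrul
    h.hthin
  have hu0 : (u.take D.p0).length = D.p0 := by rw [List.length_take]; omega
  obtain ⟨I, hI, hIk⟩ := h.e2 (u.take D.p0) x (fun k hk => by rw [hu0]; exact h.hc k hk)
  obtain ⟨k, hkI, hk⟩ : ∃ k ∈ I, ∀ k' < D.K, k ≠ k' →
      ¬ (SpE Dw D.z D.N1 D.c k k' ∨ SpB Dw D.z D.p0 D.c D.Bad k k') := by
    by_contra hcon
    push Not at hcon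
    choose! f hf using hcon
    have hcard : I.card ≤ ((Finset.range D.K ×ˢ Finset.range D.K).filter (fun ij => ij.1 ≠ ij.2 ∧
        (SpE Dw D.z D.N1 D.c ij.1 ij.2 ∨ SpB Dw D.z D.p0 D.c D.Bad ij.1 ij.2))).card := by
      refine Finset.card_le_card_of_injOn (fun k => (k, f k)) ?_ ?_
      · intro k hk
        have hk' := hf k hk
        rw [Finset.mem_coe, Finset.mem_filter, Finset.mem_product, Finset.mem_range,
          Finset.mem_range]
        exact ⟨⟨(hIk k hk).1, hk'.1⟩, hk'.2.1, hk'.2.2⟩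
      · intro k _ k' _ e
        exact congrArg Prod.fst e
    omega
  obtain ⟨hkK, hl2, hr2⟩ := hIk k hkI
  obtain ⟨b, hb⟩ := Option.isSome_iff_exists.1 hr2
  have hck := h.hc k hkK
  rw [List.take_take, Nat.min_eq_left hck] at hl2
  have hdl : (u.drop (D.c k)).length = u.length - D.c k := List.length_drop
  have htl : (u.take (D.c k)).length = D.c k := by rw [List.length_take]; omega
  have hue : u = u.take (D.c k) ++ u.drop (D.c k) := (List.take_append_drop _ _).symm
  refine ⟨u.take (D.c k), u.drop (D.c k) ++ t, D.tau t (D.tau u x), ?_, ⟨k, hkK, htl, hl2⟩, ?_⟩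
  · rw [← List.append_assoc, List.take_append_drop]
  intro x' P' hP'
  obtain ⟨k', hk'K, hP'l, hP'v⟩ := hP'
  by_cases hkk : k = k'
  · subst hkk
    -- the candidate is right
    have hu'Z : P' ++ u.drop (D.c k) ∈ D.Z := by
      refine ⟨by rw [List.length_append]; omega, ?_, ?_⟩
      · rw [hue] at huw
        rw [Wt_append _ _ (by omega)] at huw ⊢
        exact huw
      · intro s hs1 hs2 hw
        rw [List.length_append] at hs2
        obtain ⟨s', rfl⟩ : ∃ s', s = P'.length + s' := ⟨s - P'.length, by omega⟩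
        rw [shift (u.take (D.c k)) P' (u.drop (D.c k)) (by omega) (by omega), ← hue, htl] at hw
        exact hun _ (by omega) (by omega) hw
    have htau : D.tau (P' ++ u.drop (D.c k)) x' = D.tau u x := by
      have e1 : (P' ++ u.drop (D.c k)).take D.p0 = P' ++ (u.take D.p0).drop (D.c k) := by
        rw [List.take_append, List.take_of_length_le (by omega), List.drop_take, hP'l]
      have e2 : (P' ++ u.drop (D.c k)).drop D.p0 = u.drop D.p0 := by
        rw [List.drop_append, List.drop_eq_nil_of_le (by omega), List.nil_append, List.drop_drop,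
          hP'l]
        congr 1; omega
      have e3 : u.take D.p0 = u.take (D.c k) ++ (u.take D.p0).drop (D.c k) := by
        conv_lhs => rw [← List.take_append_drop (D.c k) (u.take D.p0)]
        rw [List.take_take, Nat.min_eq_left hck]
      rw [tau_eq h, tau_eq h, e1, e2, ← h.e1 k hkK P' _ x' b hP'l hP'v hb]
      have e4 := h.e1 k hkK (u.take (D.c k)) _ x b htl hl2 hb
      rw [← e3] at e4
      rw [← e4]
    by_cases hgood : P' ++ u.drop (D.c k) ∈ BadZ D.Z D.tau D.L1
    · left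
      refine ⟨D.tau (P' ++ u.drop (D.c k)) x', Language.mem_mul.2 ⟨P' ++ u.drop (D.c k),
        ⟨hgood, rfl⟩, t, ⟨D.tau t (D.tau (P' ++ u.drop (D.c k)) x'), Language.mem_mul.2
          ⟨t, ⟨ht, rfl⟩, [], ⟨rfl, ?_⟩, by simp⟩⟩, by simp⟩⟩
      rw [htau]
    · right
      left
      exact ⟨P' ++ u.drop (D.c k), hu'Z, hgood, t, by simp⟩
  · -- a wrong candidate: its block is good
    right
    left
    have hsp := hk k' hk'K hkk
    have hck' := h.hc k' hk'K
    have hwe : u ++ t = u.take (D.c k) ++ (u.drop (D.c k) ++ t) := by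
      rw [← List.append_assoc, List.take_append_drop]
    have hql : (u.drop (D.c k) ++ t).length = u.length - D.c k + t.length := by
      rw [List.length_append, hdl]
    have hsh : ∀ s, D.n ≤ s → s ≤ u.length - D.c k + t.length →
        (Wt D.n D.Sw ((P' ++ (u.drop (D.c k) ++ t)).take (D.c k' + s)) ↔ Dw (D.c k + s)) := by
      intro s hs1 hs2
      have h0 := shift (D := D) (u.take (D.c k)) P' (u.drop (D.c k) ++ t) hs1 (by omega)
      rw [hP'l, htl, ← hwe] at h0
      rw [h0]
      exact ⟨fun g => ⟨by omega, g⟩, fun g => g.2⟩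
    have hend : Dw (u ++ t).length := by
      refine ⟨le_rfl, ?_⟩
      rw [List.take_length, Wt_append _ _ (by have := htz; omega)]
      exact htw
    -- the first wall
    have hT : Wt D.n D.Sw ((P' ++ (u.drop (D.c k) ++ t)).take
        (D.c k' + (u.length - D.c k + t.length))) := by
      refine (hsh _ (by omega) le_rfl).2 ?_
      have e : D.c k + (u.length - D.c k + t.length) = (u ++ t).length := by omega
      rw [e]; exact hend
    obtain ⟨t0, b1, b2, b3, b4, b5⟩ := XX_exists (n := D.n) (z := D.z) (S := D.Sw) (by omega)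
      (by rw [List.length_append]; omega) hT
    obtain ⟨s0, rfl⟩ : ∃ s0, t0 = D.c k' + s0 := ⟨t0 - D.c k', by omega⟩
    have hlenX : ((P' ++ (u.drop (D.c k) ++ t)).take (D.c k' + s0)).length = D.c k' + s0 := by
      rw [List.length_take, List.length_append]; omega
    have hDs : Dw (D.c k + s0) := (hsh s0 (by omega) (by omega)).1 b4
    refine ⟨(P' ++ (u.drop (D.c k) ++ t)).take (D.c k' + s0), b3, ?_, List.take_prefix _ _⟩
    have hnE : ¬ SpE Dw D.z D.N1 D.c k k' := fun e => hsp (Or.inl e)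
    have hnB : ¬ SpB Dw D.z D.p0 D.c D.Bad k k' := fun e => hsp (Or.inr e)
    refine good h b3 ?_ ?_ ?_
    · rw [hlenX]
      by_contra hlt
      exact hnE ⟨D.c k + s0, hDs, by omega, by omega⟩
    · intro s hs1 hs2 hw
      rw [List.take_take, Nat.min_eq_left (by omega)] at hw
      obtain ⟨s', rfl⟩ : ∃ s', s = D.c k' + s' := ⟨s - D.c k', by omega⟩
      have := (hsh s' (by omega) (by omega)).1 hw
      exact hnE ⟨D.c k + s', this, by omega, by omega⟩
    · rw [hlenX]
      intro hbad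
      refine hnB ⟨D.c k + s0, ⟨hDs, by omega, ?_⟩, ?_⟩
      · intro s' hs' hle
        by_contra hlt
        push Not at hlt
        obtain ⟨r, rfl⟩ : ∃ r, s' = D.c k + r := ⟨s' - D.c k, by omega⟩
        refine b5 (D.c k' + r) (by omega) (by omega) ((hsh r (by omega) ?_).2 hs')
        omega
      · have e : D.c k + s0 - D.p0 + D.c k' - D.c k = D.c k' + s0 - D.p0 := by omega
        rw [e]; exact hbad

end Dat

end Crest.Agent.R320.FinB_792
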