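import Crest.Agent.R320.FinA_813
import Crest.Agent.R320.Univ_188

/-!
# Row 320: final join, part B (helper813)
-/

set_option autoImplicit false

namespace Crest.Agent.R320.FinB_813

open Crest.RegLang Crest.Agent.R320.Hk_851 Crest.Agent.R320.Sc2n_937 Crest.Agent.R320.GridG_19
  Crest.Agent.R320.FinA_813 Crest.Agent.R320.Zones_813 Crest.Agent.R320.CompR_11

/-- the constants -/
theorem fin_pos (α : Type) [Finite α] (S : Type) [Monoid S] [Finite S] (φ : α → S) (s : S) :
    HL 3 ({w | (w.map φ).prod = s} : Language α) := by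
  classical
  obtain ⟨act, hadd, hone, hmul, hfaith⟩ := Blk467.exists_module S
  have := Fintype.ofFinite S
  have := Fintype.ofFinite (S → ZMod 2)
  obtain ⟨m, r, h1⟩ := GridG_19.grid.{0} S (S → ZMod 2) act
  obtain ⟨K, h2⟩ := ExactR_237.exact_gadget α S (S → ZMod 2) φ act (2 * (r + m) + 2)
  obtain ⟨Ms, hcard, hMs, h3⟩ := h1 (4 ^ K + 2)
  set M := ∏ q ∈ Ms, q with hM
  have hMpos : 0 < M := Finset.prod_pos fun q hq => (hMs q hq).1.pos
  set G : ℕ := 2 ^ (16 * (m + 1) * M * 4 ^ K) with hG
  have hGge : 16 * (m + 1) * M * 4 ^ K ≤ G := Nat.lt_two_pow_self.le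
  have hGpos : 0 < G := by positivity
  have hcop2 : ∀ q ∈ Ms, Nat.Coprime q G := by
    intro q hq
    refine Nat.Coprime.pow_right _ ?_
    rw [Nat.coprime_primes (hMs q hq).1 Nat.prime_two]
    have h5 := (hMs q hq).2
    have h6 : 0 < 4 ^ K := by positivity
    omega
  have hqM : ∀ q ∈ Ms, q ∣ M := fun q hq => Finset.dvd_prod_of_mem _ hq
  obtain ⟨lam, rho, nu, g1, g2, g3, g4, g5⟩ := h3 (fun k => G ^ k) 0 (fun k => by positivity)
    (fun a b hab => pow_dvd_pow G hab)
    (fun k => Nat.Coprime.pow_right _ (Nat.Coprime.prod_left fun q hq => hcop2 q hq))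
    α (fun w => (w.map φ).prod) (fun u v => by rw [List.map_append, List.prod_append])
  set A := Am (fun k => G ^ k) M 0 m with hA
  set A' := Ac (fun k => G ^ k) M 0 m with hA'
  set N1 := A + 1 with hN1
  obtain ⟨x, x1, x2, x3⟩ := SpoilGrid_567.spoil_grid K m Ms M G (2 * N1)
    (fun q hq => by have := (hMs q hq).2; omega) hcop2
    (fun q hq q' hq' hne => (Nat.coprime_primes (hMs q hq).1 (hMs q' hq').1).2 hne) hMpos hGge
  obtain ⟨lam2, rho2, nu2, e1, e2⟩ := h2 x (fun i j hij _ => by have := x1 i j hij; omega)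
  set p0 := x K with hp0
  have hxp : ∀ k, k < K → x k ≤ p0 := fun k hk => by have := x1 k K hk; omega
  obtain ⟨n, Wo, w1, w2, w3, R, B, w4⟩ := WallU_36.wall_leaf α (2 * p0 + 2 * N1)
  set q0 := n + 2 * p0 + 2 * A + M + A' with hq0
  let g : Geo α :=
    { Wo := Wo, n := n, z := p0 + N1 + q0, p0 := p0, q0 := q0, N1 := N1, loc := w1, hz := rfl,
      hq := by omega, hN := by omega, hqp := by omega }
  let pre : List α → (S → ZMod 2) → (S → ZMod 2) := fun u v =>
    act v (u.map φ).prod + nu2 u 1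
  let post : (S → ZMod 2) → List α → (S → ZMod 2) := fun u Y => act u (Y.map φ).prod + nu Y
  let nuT : List α → (S → ZMod 2) := fun X =>
    act (nu2 (X.take p0) 1) ((X.drop p0).map φ).prod + nu (X.drop p0)
  have hT : ∀ v X, g.T pre post v X = act v (X.map φ).prod + nuT X := by
    intro v X
    show act (act v ((X.take p0).map φ).prod + nu2 (X.take p0) 1) ((X.drop p0).map φ).prod +
      nu (X.drop p0) = _
    rw [hadd, ← hmul, ← List.prod_append, ← List.map_append, List.take_append_drop, add_assoc]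
  let BadT : ℕ → Prop := BT Ms M G m
  let C : Set (List α) := NZ Wo (p0 + N1 + q0)
  let Bad : Set (List α) := {X | X ∈ C ∧ g.BadX BadT X}
  have hCX : ∀ X, X ∈ C ↔ g.XX X := fun X => Iff.rfl
  have hlen1 : ∀ P v, lam P = some v → P.length ≤ g.N1 := fun P v h => by
    have h5 := (g2 P v h).2
    show P.length ≤ A + 1
    omega
  have hex1 : ∀ P Q u b, lam P = some u → rho Q = some b → b = post u (P ++ Q) :=
    fun P Q u b hP hQ => g1 P Q u b hP hQ
  have hc1 : ∀ Y : List α, g.q0 + g.N1 ≤ Y.length → ¬ BadT Y.length → ∀ u, ∃ P Q,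
      Y = P ++ Q ∧ lam P = some u ∧ (rho Q).isSome := by
    intro Y hY hb u
    have hY' : q0 + N1 ≤ Y.length := hY
    obtain ⟨P, Q, h5, h6, h7⟩ := g4 Y (by omega) (by omega)
      (fun q hq hd => hb (Or.inl ⟨q, hq, hd⟩)) (fun h => hb (Or.inr h)) u
    exact ⟨P, Q, h5.symm, h6, h7⟩
  have hgap : ∀ P Q : List α, g.Wo P → g.Wo (P ++ Q) → Q ≠ [] →
      2 * g.p0 + 2 * g.N1 < Q.length := by
    intro P Q hP hPQ hQ
    by_contra hlt
    have hlt' : Q.length ≤ 2 * p0 + 2 * N1 := not_lt.1 hlt
    refine w3 (P ++ Q) Q.length hPQ (List.length_pos_iff.2 hQ) hlt' ?_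
    rw [List.length_append, Nat.add_sub_cancel, List.take_left]
    exact hP
  have hsp : ∀ k k' l l', k < K → k' < K → l < K → l' < K → k' ≠ k → l' ≠ l →
      x k + x l' < x l + x k' + 2 * g.N1 → x l + x k' < x k + x l' + 2 * g.N1 → k = l := by
    intro k k' l l' hk hk' hl hl' hkk hll ha hb
    have ha' : x k + x l' < x l + x k' + 2 * N1 := ha
    have hb' : x l + x k' < x k + x l' + 2 * N1 := hb
    refine (x2 k k' l l' hk hk' hl hl' (fun e => hkk e.symm) ?_).1
    rw [abs_le]
    constructor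
    · have : ((x l + x k' : ℕ) : ℤ) < ((x k + x l' + 2 * N1 : ℕ) : ℤ) := by exact_mod_cast hb'
      push_cast at this ⊢
      linarith
    · have : ((x k + x l' : ℕ) : ℤ) < ((x l + x k' + 2 * N1 : ℕ) : ℤ) := by exact_mod_cast ha'
      push_cast at this ⊢
      linarith
  have hthin : ∀ τ, g.z ≤ τ + g.p0 → ∀ J : Finset ℕ, (∀ k ∈ J, k < K ∧
      ∃ k', k' < K ∧ k' ≠ k ∧ BadT (τ + x k' - x k - g.p0)) → J.card ≤ r + m := by
    intro τ hτ J hJ
    have hτ' : p0 + N1 + q0 ≤ τ + p0 := hτ
    have hcnt := x3 (fun k => (Am (fun k => G ^ k) M 0 k : ℤ)) ((τ : ℤ) - p0)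
    refine le_trans ?_ (hcnt.trans (Nat.add_le_add_right hcard m))
    choose! kk hk1 hk2 hk3 using fun k hk => (hJ k hk).2
    refine Finset.card_le_card_of_injOn (fun k => (kk k, k)) ?_ ?_
    · intro k hk
      have hk' : k ∈ J := hk
      have hkK := (hJ k hk').1
      simp only [Finset.coe_filter, Finset.mem_product, Finset.mem_range, Set.mem_ofPred_eq]
      refine ⟨⟨hk1 k hk', hkK⟩, hk2 k hk', ?_⟩
      have hb : BT Ms M G m (τ + x (kk k) - x k - p0) := hk3 k hk'
      have hle : x k + p0 ≤ τ + x (kk k) := by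
        have := hxp k hkK
        omega
      have hbig : Am (fun k => G ^ k) M 0 m ≤ τ + x (kk k) - x k - p0 := by
        have := hxp k hkK
        have : Am (fun k => G ^ k) M 0 m = A := rfl
        omega
      have h6 := BT_int hGpos hbig hb
      have e : ((τ + x (kk k) - x k - p0 : ℕ) : ℤ) = (τ : ℤ) - p0 + x (kk k) - x k := by
        rw [Nat.sub_sub, Nat.cast_sub hle]
        push_cast
        ring
      rw [e] at h6
      exact h6
    · intro a _ b _ hab
      exact (Prod.mk.inj hab).2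
  have hex2 : ∀ k, k < K → ∀ P Q v u, P.length = x k → Q.length = g.p0 - x k →
      lam2 k P = some v → (fun k Q => rho2 k Q 1) k Q = some u → u = pre (P ++ Q) v := by
    intro k hk P Q v u hP _ hl hr
    have := e1 k hk P Q 1 v u hP hl hr
    rw [mul_one] at this
    exact this
  let L1 : (S → ZMod 2) → Set (List α) := fun v => {P | g.LP1 pre lam v P}
  let L2 : (S → ZMod 2) → Set (List α) := fun v => {P | Geo.LP2 K x lam2 v P}
  have hf1 : ∀ v, (L1 v).Finite := fun v =>
    (List.finite_length_le α (p0 + N1)).subset fun P hP => by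
      obtain ⟨h5, h6⟩ := hP
      have h7 := hlen1 _ _ h6
      have h7' : (P.drop p0).length ≤ N1 := h7
      rw [List.length_drop] at h7'
      show P.length ≤ p0 + N1
      omega
  have hf2 : ∀ v, (L2 v).Finite := fun v =>
    (List.finite_length_le α p0).subset fun P hP => by
      obtain ⟨k, hk, h6, _⟩ := hP
      show P.length ≤ p0
      rw [h6]
      exact hxp k hk
  -- heights
  have hAAp : A ≤ A' := Nat.le_add_right _ _
  have hfs : ∀ (a b : S → ZMod 2) (q : List α → Prop) (_ : ∀ X X' : List α,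
      p0 + N1 + q0 ≤ X.length → p0 + N1 + q0 ≤ X'.length →
      X.take (p0 + N1 + q0) = X'.take (p0 + N1 + q0) →
      X.length % (M * G ^ m) = X'.length % (M * G ^ m) → (q X ↔ q X')),
      HL 1 ({X | X ∈ NZ Wo (p0 + N1 + q0) ∧ (act a (X.map φ).prod + nuT X = b ∧ q X)} :
        Language α) := by
    intro a b q hq
    refine NZ_fs w1 w2 w4 φ (L0 := p0 + N1 + q0) (M0 := M * G ^ m) le_rfl (by positivity)
      _ ?_
    intro X X' hX hX' ht hl hp
    have hL0 : p0 + A' ≤ p0 + N1 + q0 := by omega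
    have hdrop : ∀ (Y : List α) (t : ℕ), t ≤ p0 + N1 + q0 → p0 + N1 + q0 ≤ Y.length →
        Y.drop t = (Y.take (p0 + N1 + q0)).drop t ++ Y.drop (p0 + N1 + q0) := by
      intro Y t ht' hY
      conv_lhs => rw [← List.take_append_drop (p0 + N1 + q0) Y]
      rw [List.drop_append_of_le_length (by rw [List.length_take]; omega)]
    have hpd : ∀ t, t ≤ p0 + N1 + q0 → ((X.drop t).map φ).prod = ((X'.drop t).map φ).prod := by
      intro t ht'
      rw [hdrop X t ht' hX, hdrop X' t ht' hX', List.map_append, List.map_append,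
        List.prod_append, List.prod_append, ht, hp]
    have h0 := hpd 0 (Nat.zero_le _)
    rw [List.drop_zero, List.drop_zero] at h0
    have htk : ∀ t, t ≤ p0 + N1 + q0 → X.take t = X'.take t := by
      intro t ht'
      have a1 : X.take t = (X.take (p0 + N1 + q0)).take t := by
        rw [List.take_take, min_eq_left ht']
      have a2 : X'.take t = (X'.take (p0 + N1 + q0)).take t := by
        rw [List.take_take, min_eq_left ht']
      rw [a1, a2, ht]
    have hnu : nu (X.drop p0) = nu (X'.drop p0) := by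
      refine g5 _ _ ?_ ?_ ?_ ?_ (hpd p0 (by omega))
      · show A' ≤ (X.drop p0).length
        rw [List.length_drop]; omega
      · show A' ≤ (X'.drop p0).length
        rw [List.length_drop]; omega
      · show (X.drop p0).take A' = (X'.drop p0).take A'
        have b1 := htk (p0 + A') hL0
        have c1 : (X.drop p0).take A' = (X.take (p0 + A')).drop p0 := by
          rw [List.drop_take, Nat.add_sub_cancel_left]
        have c2 : (X'.drop p0).take A' = (X'.take (p0 + A')).drop p0 := by
          rw [List.drop_take, Nat.add_sub_cancel_left]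
        rw [c1, c2, b1]
      · rw [List.length_drop, List.length_drop]
        refine Nat.ModEq.add_right_cancel' p0 ?_
        rw [Nat.sub_add_cancel (by omega), Nat.sub_add_cancel (by omega)]
        exact hl
    have hnuT : nuT X = nuT X' := by
      show act (nu2 (X.take p0) 1) ((X.drop p0).map φ).prod + nu (X.drop p0) =
        act (nu2 (X'.take p0) 1) ((X'.drop p0).map φ).prod + nu (X'.drop p0)
      rw [htk p0 (by omega), hpd p0 (by omega), hnu]
    rw [hnuT, h0, hq X X' hX hX' ht hl]
  have hCT : ∀ a b, HL 1 ({X | X ∈ C ∧ act a (X.map φ).prod + nuT X = b} : Language α) := by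
    intro a b
    refine (hfs a b (fun _ => True) (fun _ _ _ _ _ _ => Iff.rfl)).congr fun w => ?_
    exact ⟨fun h => ⟨h.1, h.2, trivial⟩, fun h => ⟨h.1, h.2.1⟩⟩
  have hBT : ∀ a b, HL 1 ({X | X ∈ Bad ∧ act a (X.map φ).prod + nuT X = b} : Language α) := by
    intro a b
    have k1 := hfs a b (fun X => (∃ t, t < p0 + N1 + q0 ∧ p0 + N1 + q0 ≤ t + N1 ∧ Wo (X.take t)) ∨
      BadT (X.length - p0)) ?_
    · have k2 : HL 1 ({X : List α | X.length < p0 + N1 + q0 + N1} : Language α) :=
        HL.length_lt _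
      refine (k1.add ((hCT a b).inf k2)).congr fun w => ?_
      constructor
      · rintro ⟨⟨hC, hE | hB⟩, hv⟩
        · obtain ⟨t, ht, hW, hz1, hz2⟩ := hE
          have hz1' : p0 + N1 + q0 ≤ t + N1 := hz1
          have hz2' : t < p0 + N1 + q0 + N1 := hz2
          rcases lt_or_ge t (p0 + N1 + q0) with hlt | hge
          · exact Or.inl ⟨hC, hv, Or.inl ⟨t, hlt, hz1', hW⟩⟩
          · right
            refine ⟨⟨hC, hv⟩, ?_⟩
            have hte : ¬ t < w.length := fun hlt => hC.2.2 t hge hlt hW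
            show w.length < p0 + N1 + q0 + N1
            omega
        · exact Or.inl ⟨hC, hv, Or.inr hB⟩
      · rintro (⟨hC, hv, hE | hB⟩ | ⟨⟨hC, hv⟩, hl⟩)
        · obtain ⟨t, hlt, hz1, hW⟩ := hE
          have hCl : p0 + N1 + q0 ≤ w.length := hC.1
          refine ⟨⟨hC, Or.inl ⟨t, by omega, hW, hz1, ?_⟩⟩, hv⟩
          show t < p0 + N1 + q0 + N1
          omega
        · exact ⟨⟨hC, Or.inr hB⟩, hv⟩
        · have hCl : p0 + N1 + q0 ≤ w.length := hC.1
          refine ⟨⟨hC, Or.inl ⟨w.length, le_rfl, ?_, ?_, hl⟩⟩, hv⟩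
          · rw [List.take_length]; exact hC.2.1
          · show p0 + N1 + q0 ≤ w.length + N1
            omega
    · intro X X' hX hX' ht hl
      refine or_congr ?_ ?_
      · refine exists_congr fun t => and_congr_right fun hlt => and_congr_right fun _ => ?_
        have a1 : X.take t = (X.take (p0 + N1 + q0)).take t := by
          rw [List.take_take, min_eq_left hlt.le]
        have a2 : X'.take t = (X'.take (p0 + N1 + q0)).take t := by
          rw [List.take_take, min_eq_left hlt.le]
        rw [a1, a2, ht]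
      · have hmod : X.length - p0 ≡ X'.length - p0 [MOD M * G ^ m] := by
          refine Nat.ModEq.add_right_cancel' p0 ?_
          rw [Nat.sub_add_cancel (by omega), Nat.sub_add_cancel (by omega)]
          exact hl
        have b1 : Am (fun k => G ^ k) M 0 m ≤ X.length - p0 := by
          have : Am (fun k => G ^ k) M 0 m = A := rfl
          omega
        have b2 : Am (fun k => G ^ k) M 0 m ≤ X'.length - p0 := by
          have : Am (fun k => G ^ k) M 0 m = A := rfl
          omega
        exact ⟨BT_per hqM b1 b2 hmod, BT_per hqM b2 b1 hmod.symm⟩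
  have hPC : Blk467.PCode C := ⟨fun h => by
      have h5 : p0 + N1 + q0 ≤ ([] : List α).length := h.1
      simp only [List.length_nil] at h5
      omega, fun X hX Y hY h => NZ_prefix hX hY h⟩
  refine Top5_120.top5 act hadd hone hmul hfaith φ nuT C Bad hPC (fun X hX => hX.1) L1 L2 hf1 hf2
    hCT hBT (fun s => NZ_tail w1 w2 w4 φ _ s) ?_ ?_ s
  · intro X hX hXb v
    obtain ⟨P, Q, h5, h6, h7⟩ := cc1 g pre post hlen1 hex1 hc1 hX (fun h => hXb ⟨hX, h⟩) v
    refine ⟨P, Q, h5, h6, fun a P' hP' => ?_⟩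
    have h8 := h7 a P' hP'
    rw [hT, hT] at h8
    exact h8
  · intro X hX Y hY v
    obtain ⟨I, i1, i2⟩ := e2 (X.take p0) 1 v (fun k hk => by
      have hXl : p0 + N1 + q0 ≤ X.length := hX.1.1
      rw [List.length_take]
      have := hxp k hk
      omega)
    obtain ⟨P, Q, h5, h6, h7⟩ := cc2 g pre post (C0 := r + m) hxp hgap hsp hthin hex2
      hX.1 hX.2 hY.1 v ⟨I, i1, fun k hk => by
        obtain ⟨j1, j2, j3⟩ := i2 k hk
        refine ⟨j1, ?_, j3⟩
        rw [List.take_take, min_eq_left (hxp k j1)] at j2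
        exact j2⟩
    refine ⟨P, Q, h5, h6, fun a P' hP' => ?_⟩
    rcases h7 a P' hP' with ⟨X', ⟨j1, j2⟩, Y', j3, j4, j5⟩ | ⟨X', j1, j2, j3⟩
    · left
      refine ⟨X', ⟨j1, j2⟩, Y', j3, j4, ?_⟩
      rw [hT, hT, hT, hT] at j5
      exact j5
    · right
      exact ⟨X', j1, fun h => j2 h.2, j3⟩

/-- **S0495** over `Type` -/
theorem fin0 (α : Type) [Finite α] (L : Language α) (hL : L.IsRegular) :
    ∃ e : GRegExp α, e.height ≤ 3 ∧ e.lang = L :=
  of_monoid (k := 3) (fun S _ _ φ s => fin_pos α S φ s) L hL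

/-- **S0495** in every universe -/
theorem final {α : Type*} [Finite α] (L : Language α) (hL : L.IsRegular) :
    ∃ e : GRegExp α, e.height ≤ 3 ∧ e.lang = L :=
  Univ_188.of_type0 3 (fun α _ L hL => fin0 α L hL) α L hL

end Crest.Agent.R320.FinB_813


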