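import Crest.Agent.R320.FinA_824
import Crest.Agent.R320.Grid_899
import Crest.Agent.R320.Thin_963
import Crest.Agent.R320.ExactR_237
import Crest.Agent.R320.LWallAll_922

/-! Row 320: constants and the final theorem over `Type` (helper824). -/

set_option autoImplicit false

namespace Crest.Agent.R320.FinB_824

open Crest.RegLang Crest.Agent.R320.Hk_851 Crest.Agent.R320.Blk467
open Crest.Agent.R320.Sc2n_937 Crest.Agent.R320.FinA_824

theorem G_pos (κ i : ℕ) : 0 < Grid_899.G κ i := by unfold Grid_899.G; positivity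

theorem G_dvd (κ : ℕ) {i j : ℕ} (h : i ≤ j) : Grid_899.G κ i ∣ Grid_899.G κ j := by
  unfold Grid_899.G
  exact pow_dvd_pow 2 (Nat.mul_le_mul_left κ h)

theorem Am_mono (Ms κ : ℕ) {i j : ℕ} (h : i ≤ j) : Grid_899.Am Ms κ i ≤ Grid_899.Am Ms κ j := by
  induction h with
  | refl => exact le_rfl
  | step _ ih =>
    refine ih.trans ?_
    show _ ≤ Grid_899.Am Ms κ _ + Grid_899.G κ _ + Ms * Grid_899.G κ _
    omega

theorem growth (K m Ms : ℕ) : ∀ i < m,
    2 ^ (K + 4) * ∑ j ∈ Finset.range (i + 1), Ms * Grid_899.G (K + 4 + m + Ms) j ≤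
      Grid_899.G (K + 4 + m + Ms) (i + 1) := by
  intro i hi
  set κ := K + 4 + m + Ms with hκ
  have h1 : ∑ j ∈ Finset.range (i + 1), Ms * Grid_899.G κ j ≤ (i + 1) * (Ms * Grid_899.G κ i) := by
    calc ∑ j ∈ Finset.range (i + 1), Ms * Grid_899.G κ j
        ≤ ∑ j ∈ Finset.range (i + 1), Ms * Grid_899.G κ i := by
          refine Finset.sum_le_sum fun j hj => ?_
          have hj' : j ≤ i := Nat.lt_succ_iff.1 (Finset.mem_range.1 hj)
          exact Nat.mul_le_mul_left _ (Nat.le_of_dvd (G_pos κ i) (G_dvd κ hj'))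
      _ = (i + 1) * (Ms * Grid_899.G κ i) := by
          rw [Finset.sum_const, Finset.card_range, smul_eq_mul]
  have h2 : Grid_899.G κ (i + 1) = 2 ^ κ * Grid_899.G κ i := by
    unfold Grid_899.G
    rw [← pow_add]
    congr 1
    ring
  have h3 : i + 1 ≤ 2 ^ m := le_trans (by omega : i + 1 ≤ m) (Nat.lt_two_pow_self).le
  have h4 : Ms ≤ 2 ^ Ms := (Nat.lt_two_pow_self).le
  calc 2 ^ (K + 4) * ∑ j ∈ Finset.range (i + 1), Ms * Grid_899.G κ j
      ≤ 2 ^ (K + 4) * ((i + 1) * (Ms * Grid_899.G κ i)) := Nat.mul_le_mul_left _ h1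
    _ ≤ 2 ^ (K + 4) * (2 ^ m * (2 ^ Ms * Grid_899.G κ i)) := by
        refine Nat.mul_le_mul_left _ (Nat.mul_le_mul h3 (Nat.mul_le_mul_right _ h4))
    _ = 2 ^ κ * Grid_899.G κ i := by
        rw [hκ, pow_add, pow_add]; ring
    _ = _ := h2.symm

theorem spread {Xn N1 a a' b b' : ℕ} (hX : 2 * N1 + 1 ≤ Xn) (h1 : a' ≠ a) (h2 : b' ≠ b)
    (h3 : Xn * 2 ^ a + Xn * 2 ^ b' < Xn * 2 ^ b + Xn * 2 ^ a' + 2 * N1)
    (h4 : Xn * 2 ^ b + Xn * 2 ^ a' < Xn * 2 ^ a + Xn * 2 ^ b' + 2 * N1) : a = b := by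
  obtain ⟨y, hy⟩ : ∃ y : ℤ, y = 2 ^ a - 2 ^ a' - (2 ^ b - 2 ^ b') := ⟨_, rfl⟩
  have e : (Xn : ℤ) * y = (Xn * 2 ^ a + Xn * 2 ^ b') - (Xn * 2 ^ b + Xn * 2 ^ a') := by
    rw [hy]; ring
  have h3' : ((Xn * 2 ^ a + Xn * 2 ^ b' : ℕ) : ℤ) <
    ((Xn * 2 ^ b + Xn * 2 ^ a' + 2 * N1 : ℕ) : ℤ) := by exact_mod_cast h3
  have h4' : ((Xn * 2 ^ b + Xn * 2 ^ a' : ℕ) : ℤ) <
    ((Xn * 2 ^ a + Xn * 2 ^ b' + 2 * N1 : ℕ) : ℤ) := by exact_mod_cast h4
  push_cast at h3' h4'
  have h7 : (2 * N1 + 1 : ℤ) ≤ (Xn : ℤ) := by exact_mod_cast hX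
  have hXnn : (0 : ℤ) ≤ (Xn : ℤ) := by positivity
  have h5 : (Xn : ℤ) * y < 2 * N1 := by rw [e]; linarith
  have h6 : -(2 * N1 : ℤ) < (Xn : ℤ) * y := by rw [e]; linarith
  have hy0 : y = 0 := by
    rcases lt_trichotomy y 0 with h | h | h
    · have h8 : y ≤ -1 := by omega
      have h9 : (Xn : ℤ) * y ≤ (Xn : ℤ) * (-1) := mul_le_mul_of_nonneg_left h8 hXnn
      linarith
    · exact h
    · have h8 : 1 ≤ y := by omega
      have h9 : (Xn : ℤ) * 1 ≤ (Xn : ℤ) * y := mul_le_mul_of_nonneg_left h8 hXnn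
      linarith
  have hz : (2 : ℤ) ^ a - 2 ^ a' = 2 ^ b - 2 ^ b' := by rw [hy0] at hy; linarith
  exact (G369.pow_diff (Ne.symm h1) (Ne.symm h2) hz).1

set_option maxHeartbeats 2000000 in
theorem fin (A S : Type) [Finite A] [Monoid S] [Finite S] (φ : A → S) (s : S) :
    HL 3 ({w | (w.map φ).prod = s} : Language A) := by
  classical
  haveI : Fintype S := Fintype.ofFinite S
  obtain ⟨act, hadd, hone, hmul, hfaith⟩ := Blk467.exists_module S
  obtain ⟨k, m, HG⟩ := Grid_899.grid_gadget_reg S (S → ZMod 2) act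
  obtain ⟨K, HK⟩ := ExactR_237.exact_gadget A S (S → ZMod 2) φ act (2 * (k + m) + 2)
  -- moduli
  let q : Fin k → ℕ := fun j => Nat.nth Nat.Prime (2 ^ (K + 1) + 1 + j)
  have hqp : ∀ j, (q j).Prime := fun j => Nat.prime_nth_prime _
  have hqbig : ∀ j, 2 ^ (K + 1) + 1 ≤ q j := fun j => by
    have := Nat.add_two_le_nth_prime (2 ^ (K + 1) + 1 + j)
    show _ ≤ Nat.nth Nat.Prime _
    omega
  have h2K : 2 ≤ 2 ^ (K + 1) := by
    calc 2 = 2 ^ 1 := rfl
      _ ≤ 2 ^ (K + 1) := Nat.pow_le_pow_right (by norm_num) (by omega)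
  have hqinj : Function.Injective q := fun i j h => by
    have := Nat.nth_injective Nat.infinite_setOf_prime h
    exact Fin.ext (by omega)
  have hqodd : ∀ j, Odd (q j) := fun j => (hqp j).odd_of_ne_two (by have := hqbig j; omega)
  have hqcop : Pairwise (fun i j => Nat.Coprime (q i) (q j)) := fun i j hij =>
    (Nat.coprime_primes (hqp i) (hqp j)).2 (fun h => hij (hqinj h))
  obtain ⟨Ms, hMs⟩ : ∃ Ms, Ms = ∏ j, q j := ⟨_, rfl⟩
  have hMspos : 0 < Ms := by rw [hMs]; exact Finset.prod_pos fun j _ => (hqp j).pos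
  have hqMs : ∀ j, q j ∣ Ms := fun j => by rw [hMs]; exact Finset.dvd_prod_of_mem q (Finset.mem_univ j)
  let κ := K + 4 + m + Ms
  have HG2 := HG q hqodd hqcop κ A (fun w => (w.map φ).prod) (by intro u v; simp)
  rw [← hMs] at HG2
  obtain ⟨lam, rho, nu1, g1, g2, g3, g4, g5⟩ := HG2
  let N1 : ℕ := Grid_899.Am Ms κ m + 1
  let MsF : Finset ℕ := Finset.univ.image q
  have hmemF : ∀ p, p ∈ MsF ↔ ∃ j, q j = p := fun p => by simp [MsF]
  obtain ⟨X, hX1, hX2, hX3⟩ := Thin963.thin K m MsF (fun i => (Grid_899.G κ i : ℤ))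
    (fun i => ((Ms * Grid_899.G κ i : ℕ) : ℤ)) (fun i => (Grid_899.Am Ms κ i : ℤ))
    (fun p hp => by
      obtain ⟨j, rfl⟩ := (hmemF p).1 hp
      exact ⟨hqp j, by have := hqbig j; omega⟩)
    (fun p hp => by
      obtain ⟨j, rfl⟩ := (hmemF p).1 hp
      rw [Nat.isCoprime_iff_coprime]
      unfold Grid_899.G
      exact Nat.Coprime.pow_right _ ((Nat.coprime_primes (hqp j) Nat.prime_two).2
        (by have := hqbig j; omega)))
    (by exact_mod_cast G_pos κ m)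
    (fun i j h => by exact_mod_cast G_dvd κ h)
    (fun i => by exact_mod_cast Nat.mul_pos hMspos (G_pos κ i))
    (fun i => by exact_mod_cast Dvd.intro_left Ms rfl)
    (fun i hi => by exact_mod_cast growth K m Ms i hi)
    ((2 * N1 + 1 : ℕ) : ℤ)
  obtain ⟨Xn, hXn⟩ : ∃ Xn : ℕ, (Xn : ℤ) = X := ⟨X.toNat, Int.toNat_of_nonneg hX2.le⟩
  subst hXn
  have hXN : 2 * N1 + 1 ≤ Xn := by exact_mod_cast hX1
  let c : ℕ → ℕ := fun j => Xn * 2 ^ j
  have hXpos : 0 < Xn := by omega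
  have hcmono : ∀ i j, i < j → c i < c j := fun i j h =>
    Nat.mul_lt_mul_of_pos_left (Nat.pow_lt_pow_right (by norm_num) h) hXpos
  let p0 : ℕ := Xn * 2 ^ K
  have hcp : ∀ j, j < K → c j ≤ p0 := fun j h =>
    Nat.mul_le_mul_left _ (Nat.pow_le_pow_right (by norm_num) h.le)
  obtain ⟨lam2, rho2, nu2, e1, e2⟩ := HK c (fun i j h _ => hcmono i j h)
  let W : ℕ := 2 * p0 + 2 * N1 + 1
  obtain ⟨n, G', B, Wo, hLW, hgapW, -, -, hfree⟩ := LWallAll_922.walls_all_left A W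
    (by show 0 < 2 * p0 + 2 * N1 + 1; omega)
  let q0 : ℕ := n + 2 * p0 + 2 * Grid_899.Am Ms κ (m + 1) + 1
  let g : Geo A :=
    { Wo := Wo, n := n, z := p0 + N1 + q0, p0 := p0, q0 := q0, N1 := N1
      loc := hLW.app
      hz := rfl
      hq := by show n ≤ n + 2 * p0 + 2 * Grid_899.Am Ms κ (m + 1) + 1; omega
      hN := Nat.succ_pos _
      hqp := by show p0 ≤ (n + 2 * p0 + 2 * Grid_899.Am Ms κ (m + 1) + 1) + N1; omega }
  let BadT : ℕ → Prop := fun T => Thin963.BadT MsF m (fun i => (Grid_899.G κ i : ℤ))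
    (fun i => ((Ms * Grid_899.G κ i : ℕ) : ℤ)) (fun i => (Grid_899.Am Ms κ i : ℤ)) (T : ℤ)
  refine joinA act hadd hone hmul hfaith φ g hLW.len (max B W) 2 ?_ lam rho nu1
    (fun k P => lam2 k P) (fun k Q => rho2 k Q 1) (fun u => nu2 u 1) BadT K c (k + m)
    (Grid_899.Am Ms κ (m + 1)) (Ms * Grid_899.G κ m) (Nat.mul_pos hMspos (G_pos κ m))
    ?_ ?_ ?_ ?_ ?_ hcp ?_ ?_ ?_ ?_ ?_ s
  · -- free
    intro u hu
    obtain ⟨a, x, v, i, h1, h2, h3, h4⟩ := hfree u hu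
    refine Language.mem_mul.2 ⟨a ++ (List.replicate i x).flatten, ?_, v, ?_, h4.symm⟩
    · exact ⟨a, x, i, le_trans h1 (le_max_left _ _), le_trans h2 (le_max_right _ _), rfl⟩
    · refine Language.mem_mul.2 ⟨v, ⟨v, [], 0, le_trans h3 (le_max_left _ _), by simp, ?_⟩, [],
        rfl, by simp⟩
      simp
  · -- h1len
    intro P v h
    have := (g1 P v h).1
    show P.length ≤ Grid_899.Am Ms κ m + 1
    omega
  · -- h1s
    intro P Q u b h1 h2
    exact g3 P Q u b h1 h2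
  · -- h1c
    intro X hX hXb u
    have hXz : p0 + N1 + q0 ≤ X.length := hX.1
    have hlen : (X.drop p0).length = X.length - p0 := List.length_drop
    have hge : 2 * Grid_899.Am Ms κ (m + 1) ≤ (X.drop p0).length := by
      rw [hlen]
      have : q0 = n + 2 * p0 + 2 * Grid_899.Am Ms κ (m + 1) + 1 := rfl
      omega
    have hnb : ¬ BadT (X.drop p0).length := by rw [hlen]; exact hXb
    refine g4 (X.drop p0) hge (fun j hj => hnb (Or.inl ⟨q j, (hmemF _).2 ⟨j, rfl⟩, ?_⟩))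
      (fun j hj1 hj2 => ?_) u
    · exact_mod_cast hj
    · obtain ⟨i, rfl⟩ : ∃ i, j = i + 1 := ⟨j - 1, by omega⟩
      have hAm : Grid_899.Am Ms κ (i + 1) ≤ (X.drop p0).length :=
        le_trans (Am_mono Ms κ (by omega : i + 1 ≤ m + 1)) (by omega)
      set T := (X.drop p0).length with hTdef
      set r := (T - Grid_899.Am Ms κ (i + 1)) % Grid_899.G κ (i + 1) with hr
      have hrlt : r < Grid_899.G κ (i + 1) := Nat.mod_lt _ (G_pos κ _)
      have hdm := Nat.div_add_mod (T - Grid_899.Am Ms κ (i + 1)) (Grid_899.G κ (i + 1))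
      have hcast : ((T - Grid_899.Am Ms κ (i + 1) : ℕ) : ℤ) =
          (T : ℤ) - (Grid_899.Am Ms κ (i + 1) : ℤ) := by
        rw [Nat.cast_sub hAm]
      have hint : (T : ℤ) - (Grid_899.Am Ms κ (i + 1) : ℤ) =
          (Grid_899.G κ (i + 1) : ℤ) * (((T - Grid_899.Am Ms κ (i + 1)) /
            Grid_899.G κ (i + 1) : ℕ) : ℤ) + (r : ℤ) := by
        rw [← hcast]
        conv_lhs => rw [← hdm]
        push_cast
        rfl
      have hi1 : i + 1 - 1 = i := by omega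
      rw [hi1]
      constructor
      · by_contra hlt
        push Not at hlt
        refine hnb (Or.inr ⟨i, by omega, -(r : ℤ), ?_, ?_⟩)
        · rw [abs_neg, abs_of_nonneg (by positivity)]
          show (r : ℤ) ≤ ((Ms * Grid_899.G κ i : ℕ) : ℤ)
          exact_mod_cast hlt.le
        · refine ⟨(((T - Grid_899.Am Ms κ (i + 1)) / Grid_899.G κ (i + 1) : ℕ) : ℤ), ?_⟩
          show (T : ℤ) - (Grid_899.Am Ms κ (i + 1) : ℤ) + -(r : ℤ) = _
          rw [hint]; ring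
      · by_contra hlt
        push Not at hlt
        refine hnb (Or.inr ⟨i, by omega, (Grid_899.G κ (i + 1) : ℤ) - (r : ℤ), ?_, ?_⟩)
        · rw [abs_of_nonneg (by have : (r : ℤ) < Grid_899.G κ (i + 1) := by exact_mod_cast hrlt
                                linarith)]
          have : (Grid_899.G κ (i + 1) : ℤ) < (r : ℤ) + ((Ms * Grid_899.G κ i : ℕ) : ℤ) := by
            exact_mod_cast hlt
          show (Grid_899.G κ (i + 1) : ℤ) - (r : ℤ) ≤ ((Ms * Grid_899.G κ i : ℕ) : ℤ)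
          linarith
        · refine ⟨(((T - Grid_899.Am Ms κ (i + 1)) / Grid_899.G κ (i + 1) : ℕ) : ℤ) + 1, ?_⟩
          show (T : ℤ) - (Grid_899.Am Ms κ (i + 1) : ℤ) +
            ((Grid_899.G κ (i + 1) : ℤ) - (r : ℤ)) = _
          rw [hint]; ring
  · -- h1r
    intro Q Q' h1 h2 h3 h4 h5
    exact (g5 Q Q' h1 h2 h3 h4 h5).2
  · -- hper
    have key : ∀ T T' : ℕ, T ≡ T' [MOD (Ms * Grid_899.G κ m)] → BadT T → BadT T' := by
      intro T T' h hT
      have hd : ((Ms * Grid_899.G κ m : ℕ) : ℤ) ∣ (T' : ℤ) - (T : ℤ) := by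
        have := (Nat.modEq_iff_dvd).1 h
        exact this
      rcases hT with ⟨p, hp, hpT⟩ | ⟨i, hi, e, he, hG⟩
      · left
        refine ⟨p, hp, ?_⟩
        obtain ⟨j, rfl⟩ := (hmemF p).1 hp
        have h1 : ((q j : ℕ) : ℤ) ∣ ((Ms * Grid_899.G κ m : ℕ) : ℤ) := by
          exact_mod_cast Dvd.dvd.mul_right (hqMs j) _
        have h2 := dvd_add (h1.trans hd) hpT
        simpa using h2
      · right
        refine ⟨i, hi, e, he, ?_⟩
        have h1 : ((Grid_899.G κ (i + 1) : ℕ) : ℤ) ∣ ((Ms * Grid_899.G κ m : ℕ) : ℤ) := by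
          exact_mod_cast Dvd.dvd.mul_left (G_dvd κ (by omega)) _
        have h2 := dvd_add (h1.trans hd) hG
        have e3 : (T' : ℤ) - (T : ℤ) + ((T : ℤ) - (Grid_899.Am Ms κ (i + 1) : ℤ) + e) =
          (T' : ℤ) - (Grid_899.Am Ms κ (i + 1) : ℤ) + e := by ring
        rw [e3] at h2
        exact h2
    intro T T' h
    exact ⟨key T T' h, key T' T h.symm⟩
  · -- hgap
    intro P Q hP hPQ hne
    have hl : 0 < Q.length := List.length_pos_iff.2 hne
    have := hgapW (P ++ Q) P.length (P.length + Q.length) (by omega)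
      (by rw [List.length_append]) (by rw [List.take_left]; exact hP)
      (by rw [List.take_of_length_le (by rw [List.length_append])]; exact hPQ)
    show 2 * p0 + 2 * N1 < Q.length
    have hW : W = 2 * p0 + 2 * N1 + 1 := rfl
    omega
  · -- hsp
    intro a a' b b' ha ha' hb hb' h1 h2 h3 h4
    exact spread hXN h1 h2 h3 h4
  · -- hthin
    intro τ hτ J hJ
    have hτ' : p0 + N1 + q0 ≤ τ + p0 := hτ
    have hq0 : q0 = n + 2 * p0 + 2 * Grid_899.Am Ms κ (m + 1) + 1 := rfl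
    choose! f hf using fun k hk => (hJ k hk).2
    have hcard := hX3 ((τ : ℤ) - p0)
    have himg : (J.image fun k => (f k, k)).card = J.card :=
      Finset.card_image_of_injective _ (fun a b h => (Prod.mk.inj h).2)
    rw [← himg]
    have hFk : MsF.card ≤ k := by
      refine Finset.card_image_le.trans ?_
      simp
    refine le_trans (Finset.card_le_card ?_) (hcard.trans (by omega))
    intro pr hpr
    obtain ⟨j, hj, rfl⟩ := Finset.mem_image.1 hpr
    obtain ⟨h1, h2, h3⟩ := hf j hj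
    refine Finset.mem_filter.2 ⟨Finset.mem_product.2 ⟨Finset.mem_range.2 h1,
      Finset.mem_range.2 (hJ j hj).1⟩, h2, ?_⟩
    have hcj : c j ≤ p0 := hcp j (hJ j hj).1
    have e : ((τ + c (f j) - c j - p0 : ℕ) : ℤ) =
        (τ : ℤ) - p0 + (Xn : ℤ) * 2 ^ (f j) - (Xn : ℤ) * 2 ^ j := by
      rw [Nat.cast_sub (by omega), Nat.cast_sub (by omega)]
      push_cast [c]
      ring
    have h3' : Thin963.BadT MsF m (fun i => (Grid_899.G κ i : ℤ))
      (fun i => ((Ms * Grid_899.G κ i : ℕ) : ℤ)) (fun i => (Grid_899.Am Ms κ i : ℤ))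
      ((τ + c (f j) - c j - p0 : ℕ) : ℤ) := h3
    rw [e] at h3'
    exact h3'
  · -- h2s
    intro k hk P Q v u hP hQ h1 h2
    have := e1 k hk P Q 1 v u hP h1 h2
    rw [mul_one] at this
    exact this
  · -- h2c
    intro u v hu
    obtain ⟨I, hI1, hI2⟩ := e2 u 1 v (fun k hk => by rw [hu]; exact hcp k hk)
    exact ⟨I, hI1, hI2⟩

end Crest.Agent.R320.FinB_824
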