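import Crest.Agent.R320.FinA_889
import Crest.Agent.R320.P4_933
import Crest.Agent.R320.Grid_899
import Crest.Agent.R320.ExactR_237
import Crest.Agent.R320.Thin_963
import Crest.Agent.R320.OutRule_480

/-!
Row 320, helper889: final assembly, part B: regularity by (prefix, length mod M0, value of the rest),
the noise read off the cuts, primes, ruler.
-/

set_option autoImplicit false

namespace Crest.Agent.R320.FinB_889

open Crest.RegLang Crest.Agent.R320.Hk_851

section reg

variable {α : Type}

/-- finite-state properties, value of the REST, are regular -/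
theorem regular_rest [Finite α] {S : Type} [Monoid S] [Finite S] (φ : α → S) (A M0 : ℕ)
    (hM : 0 < M0) (f : List α → Prop)
    (hf : ∀ u u' : List α, A ≤ u.length → A ≤ u'.length → u.take A = u'.take A →
      u.length % M0 = u'.length % M0 → ((u.drop A).map φ).prod = ((u'.drop A).map φ).prod →
      (f u ↔ f u')) :
    Language.IsRegular ({u | f u} : Language α) := by
  classical
  haveI : NeZero M0 := ⟨by omega⟩
  have hfin : Finite {l : List α // l.length ≤ A} := List.finite_length_le α A
  let σ := {l : List α // l.length ≤ A} × ZMod M0 × S
  haveI : Fintype σ := Fintype.ofFinite σ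
  let st : List α → σ := fun u =>
    (⟨u.take A, by rw [List.length_take]; omega⟩, (u.length : ZMod M0), ((u.drop A).map φ).prod)
  let M : DFA α σ :=
    { step := fun q a =>
        (if h : q.1.1.length < A then ⟨q.1.1 ++ [a], by simp; omega⟩ else q.1,
          q.2.1 + 1, if q.1.1.length < A then q.2.2 else q.2.2 * φ a)
      start := st []
      accept := {q | ∃ u, f u ∧ st u = q} }
  have hev : ∀ u, M.eval u = st u := by
    intro u
    induction u using List.reverseRecOn with
    | nil => rfl
    | append_singleton u a ih =>
      rw [DFA.eval_append_singleton, ih]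
      refine Prod.ext ?_ (Prod.ext ?_ ?_)
      · apply Subtype.ext
        show (if h : (u.take A).length < A then (⟨u.take A ++ [a], by simp at h ⊢; omega⟩ :
          {l : List α // l.length ≤ A}) else ⟨u.take A, by rw [List.length_take]; omega⟩).1
          = (u ++ [a]).take A
        rw [P4_933.take_snoc]
        split_ifs <;> rfl
      · show (u.length : ZMod M0) + 1 = (((u ++ [a]).length : ℕ) : ZMod M0)
        simp
      · show (if (u.take A).length < A then ((u.drop A).map φ).prod else
          ((u.drop A).map φ).prod * φ a) = (((u ++ [a]).drop A).map φ).prod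
        by_cases h : u.length < A
        · rw [if_pos (by rw [List.length_take]; omega), List.drop_eq_nil_of_le (by omega),
            List.drop_eq_nil_of_le (by rw [List.length_append, List.length_singleton]; omega)]
        · rw [if_neg (by rw [List.length_take]; omega),
            List.drop_append_of_le_length (by omega), List.map_append, List.prod_append]
          simp
  refine Language.isRegular_iff.2 ⟨σ, inferInstance, M, ?_⟩
  ext u
  rw [DFA.mem_accepts, hev]
  constructor
  · rintro ⟨u', h1, h2⟩
    have e1 : u'.take A = u.take A := congrArg (fun q : σ => q.1.1) h2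
    have e2 : (u'.length : ZMod M0) = (u.length : ZMod M0) := congrArg (fun q : σ => q.2.1) h2
    have e3 : ((u'.drop A).map φ).prod = ((u.drop A).map φ).prod :=
      congrArg (fun q : σ => q.2.2) h2
    have e2' : u'.length % M0 = u.length % M0 := (ZMod.natCast_eq_natCast_iff' _ _ _).1 e2
    have e4 := congrArg List.length e1
    rw [List.length_take, List.length_take] at e4
    by_cases h : u.length < A
    · rw [List.take_of_length_le (by omega), List.take_of_length_le (by omega)] at e1
      rw [← e1]; exact h1
    · exact (hf u' u (by omega) (by omega) e1 e2' e3).1 h1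
  · intro h
    exact ⟨u, h, rfl⟩

end reg

section noise

variable {α S V : Type} [Monoid S] [AddCommGroup V]

open Classical in
/-- noise read off the set of cuts -/
noncomputable def rd (act : V → S → V) (C : V → V → Prop) (s : S) : V :=
  if h : ∃ p : V × V, C p.1 p.2 then h.choose.2 - act h.choose.1 s else 0

/-- the cuts of a word -/
def Cut (lam rho : List α → Option V) (u : List α) (v b : V) : Prop :=
  ∃ P Q, u = P ++ Q ∧ lam P = some v ∧ rho Q = some b

/-- the noise of a word -/
noncomputable def nuC (act : V → S → V) (phi : List α → S) (lam rho : List α → Option V)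
    (u : List α) : V := rd act (Cut lam rho u) (phi u)

theorem nuC_sound (act : V → S → V) (phi : List α → S) (lam rho : List α → Option V)
    (nu : List α → V) (hs : ∀ P Q v b, lam P = some v → rho Q = some b →
      b = act v (phi (P ++ Q)) + nu (P ++ Q)) (P Q : List α) (v b : V) (h1 : lam P = some v)
    (h2 : rho Q = some b) : b = act v (phi (P ++ Q)) + nuC act phi lam rho (P ++ Q) := by
  classical
  have hex : ∃ p : V × V, Cut lam rho (P ++ Q) p.1 p.2 := ⟨(v, b), P, Q, rfl, h1, h2⟩
  unfold nuC rd
  rw [dif_pos hex]
  obtain ⟨P', Q', e, h3, h4⟩ := hex.choose_spec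
  have h5 := hs P' Q' _ _ h3 h4
  rw [← e] at h5
  rw [h5, hs P Q v b h1 h2]
  abel

theorem nuC_congr (act : V → S → V) (phi : List α → S)
    (hphi : ∀ u v, phi (u ++ v) = phi u * phi v) (lam rho : List α → Option V) (N A M0 : ℕ)
    (hN : ∀ P v, lam P = some v → P.length < N)
    (hr : ∀ Q Q' : List α, A ≤ Q.length → A ≤ Q'.length → Q.take A = Q'.take A →
      phi (Q.drop A) = phi (Q'.drop A) → Q.length ≡ Q'.length [MOD M0] → rho Q = rho Q')
    (u u' : List α) (hu : N + A ≤ u.length) (hu' : N + A ≤ u'.length)
    (ht : u.take (N + A) = u'.take (N + A)) (hd : phi (u.drop (N + A)) = phi (u'.drop (N + A)))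
    (hm : u.length ≡ u'.length [MOD M0]) : nuC act phi lam rho u = nuC act phi lam rho u' := by
  have hphi' : phi u = phi u' := by
    rw [← List.take_append_drop (N + A) u, ← List.take_append_drop (N + A) u', hphi, hphi, ht, hd]
  have key : ∀ (u u' : List α), N + A ≤ u.length → N + A ≤ u'.length →
      u.take (N + A) = u'.take (N + A) → phi (u.drop (N + A)) = phi (u'.drop (N + A)) →
      u.length ≡ u'.length [MOD M0] → ∀ v b, Cut lam rho u v b → Cut lam rho u' v b := by
    rintro u u' hu hu' ht hd hm v b ⟨P, Q, rfl, h1, h2⟩
    have hP := hN P v h1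
    have hPt : u'.take P.length = P := by
      have e1 : u'.take P.length = (u'.take (N + A)).take P.length := by
        rw [List.take_take, min_eq_left (by omega)]
      rw [e1, ← ht, List.take_take, min_eq_left (by omega), List.take_left]
    refine ⟨P, u'.drop P.length, ?_, h1, ?_⟩
    · conv_rhs => rw [← hPt]
      rw [List.length_take, min_eq_left (by omega), List.take_append_drop]
    · have hl : (P ++ Q).length = P.length + Q.length := List.length_append
      have hQ : Q = (P ++ Q).drop P.length := List.drop_left.symm
      have e2 : ∀ w : List α, N + A ≤ w.length → (w.drop P.length).drop A =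
          (w.take (N + A)).drop (P.length + A) ++ w.drop (N + A) := by
        intro w hw
        conv_lhs => rw [← List.take_append_drop (N + A) w]
        rw [List.drop_drop, List.drop_append_of_le_length]
        rw [List.length_take]; omega
      rw [← h2]
      symm
      apply hr
      · omega
      · rw [List.length_drop]; omega
      · conv_lhs => rw [hQ]
        have e3 : ∀ w : List α, N + A ≤ w.length → (w.drop P.length).take A =
            ((w.take (N + A)).take (P.length + A)).drop P.length := by
          intro w hw
          rw [List.take_take, min_eq_left (by omega), List.drop_take]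
          congr 1
          omega
        rw [e3 _ hu, e3 _ hu', ht]
      · conv_lhs => rw [hQ]
        rw [e2 _ hu, e2 _ hu', hphi, hphi, ht, hd]
      · rw [List.length_drop]
        refine Nat.ModEq.add_left_cancel' P.length ?_
        rw [show P.length + (u'.length - P.length) = u'.length by omega, ← hl]
        exact hm
  unfold nuC
  have hC : Cut lam rho u = Cut lam rho u' := by
    funext v b
    apply propext
    exact ⟨key u u' hu hu' ht hd hm v b, key u' u hu' hu ht.symm hd.symm hm.symm v b⟩
  rw [hC, hphi']

end noise

/-- primes -/
theorem exists_primes (k B : ℕ) : ∃ q : Fin k → ℕ, (∀ j, (q j).Prime) ∧ (∀ j, B ≤ q j) ∧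
    (∀ j, Odd (q j)) ∧ Pairwise (fun i j => Nat.Coprime (q i) (q j)) := by
  refine ⟨fun j => Nat.nth Nat.Prime (B + 1 + j), fun j => Nat.prime_nth_prime _, fun j => ?_,
    fun j => ?_, fun i j hij => ?_⟩
  · have := Nat.add_two_le_nth_prime (B + 1 + j)
    show B ≤ Nat.nth Nat.Prime (B + 1 + j)
    omega
  · have := Nat.add_two_le_nth_prime (B + 1 + j)
    exact (Nat.prime_nth_prime _).odd_of_ne_two (by omega)
  · show Nat.Coprime (Nat.nth Nat.Prime (B + 1 + i)) (Nat.nth Nat.Prime (B + 1 + j))
    rw [Nat.coprime_primes (Nat.prime_nth_prime _) (Nat.prime_nth_prime _)]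
    intro h
    apply hij
    have := Nat.nth_injective Nat.infinite_setOf_prime h
    exact Fin.ext (by omega)

end Crest.Agent.R320.FinB_889
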