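import Crest.Agent.R320.Fin_899

/-!
Row 320: the join (helper899).
-/

set_option autoImplicit false

namespace Crest.Agent.R320.Fin_899

open Crest.RegLang Crest.Agent.R320.Hk_851 Crest.Agent.R320.Grid_899 Crest.Agent.R320.Sc2n_937

set_option maxHeartbeats 1000000 in
theorem fin (α : Type) [Finite α] (S : Type) [Monoid S] [Finite S] (φ : α → S) (s : S) :
    HL 3 ({w | (w.map φ).prod = s} : Language α) := by
  classical
  let _ : Fintype S := Fintype.ofFinite S
  let _ : Fintype (S → ZMod 2) := Fintype.ofFinite _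
  let ac : (S → ZMod 2) → S → (S → ZMod 2) := fun f t => Crest.Agent.R320.Two_621.act f t
  let ph : List α → S := fun w => (w.map φ).prod
  have hph : ∀ u v, ph (u ++ v) = ph u * ph v := by intro u v; simp [ph]
  have hadd : ∀ a b t, ac (a + b) t = ac a t + ac b t := fun a b t =>
    Crest.Agent.R320.Two_621.act_add a b t
  have hone : ∀ v, ac v 1 = v := fun v => Crest.Agent.R320.Two_621.act_one v
  have hmul : ∀ v t t', ac v (t * t') = ac (ac v t) t' := fun v t t' =>
    (Crest.Agent.R320.Two_621.act_mul v t t').symm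
  obtain ⟨k, m, HG⟩ := grid_gadget_reg S (S → ZMod 2) ac
  obtain ⟨K, HK⟩ := Crest.Agent.R320.ExactR_237.exact_gadget α S (S → ZMod 2) φ ac
    (2 * (k + m) + 2)
  obtain ⟨q, hinj, hq⟩ := primes k (2 ^ (K + 1) + 3)
  have hodd : ∀ j, Odd (q j) := fun j => (hq j).1.odd_of_ne_two (by
    have h1 := (hq j).2
    have h2 := Nat.two_pow_pos (K + 1)
    intro h3
    rw [h3] at h1
    have h4 : 2 ^ (K + 1) + 3 ≤ 2 := h1
    linarith)
  have hcop : Pairwise (fun i j => Nat.Coprime (q i) (q j)) := fun i j hij =>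
    (Nat.coprime_primes (hq i).1 (hq j).1).2 (fun h => hij (hinj h))
  set Ms := ∏ j, q j with hMs
  have hMpos : 0 < Ms := Finset.prod_pos (fun j _ => (hq j).1.pos)
  set κ := K + 5 + Ms with hκd
  have hκ : 2 ^ (K + 5) * Ms ≤ 2 ^ κ := by
    calc 2 ^ (K + 5) * Ms ≤ 2 ^ (K + 5) * 2 ^ Ms := Nat.mul_le_mul_left _ (Nat.lt_two_pow_self).le
      _ = 2 ^ κ := by rw [hκd, ← pow_add]
  obtain ⟨lam, rho, nu1, hl1, hr1, hs1, hc1, hfs⟩ := HG q hodd hcop κ α ph hph
  rw [← hMs] at hl1 hr1 hc1 hfs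
  set N := Am Ms κ (m + 1) with hN
  have hNpos : 0 < N := by
    have h1 := lo_le (Ms := Ms) (κ := κ) m
    have h2 : 0 < lo Ms κ m := by
      have := G_pos (κ := κ) m
      unfold lo
      omega
    omega
  have hAmN : Am Ms κ m ≤ N := Am_mono (by omega)
  obtain ⟨X, hX0, hXpos, hX⟩ := ruler k m K q hinj
    (fun j => ⟨(hq j).1, le_trans (Nat.le_add_right _ _) (hq j).2⟩) hodd κ hκ (2 * N + 1)
  rw [← hMs, ← hN] at hX
  let c : ℕ → ℕ := fun j => X * 2 ^ j
  have hcmono : ∀ i j, i < j → c i < c j := by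
    intro i j hij
    exact Nat.mul_lt_mul_of_pos_left (Nat.pow_lt_pow_right (by norm_num) hij) hXpos
  obtain ⟨lam2, rho2', nu2', hex2, hcomp2⟩ := HK c (fun i j h _ => hcmono i j h)
  set p0 := c K with hp0
  have hck : ∀ i, i < K → c i ≤ p0 := fun i hi => (hcmono i K hi).le
  obtain ⟨n, B, Wo, hn, hloc, hlen, hgap, hfew⟩ := walls α (2 * p0 + 2 * N) (by omega)
  let g : Geo α :=
    { Wo := Wo, n := n, z := p0 + N + (n + 2 * p0 + 2 * N), p0 := p0, q0 := n + 2 * p0 + 2 * N
      N1 := N, loc := hloc, hz := rfl, hq := by omega, hN := hNpos, hqp := by omega }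
  have hgz : g.z = p0 + N + (n + 2 * p0 + 2 * N) := rfl
  have hgp : g.p0 = p0 := rfl
  have hgN : g.N1 = N := rfl
  have hnz : n ≤ g.z := by rw [hgz]; omega
  let nu2 : List α → (S → ZMod 2) := fun u => nu2' u 1
  let rho2 : ℕ → List α → Option (S → ZMod 2) := fun i Q => rho2' i Q 1
  let pre : List α → (S → ZMod 2) → (S → ZMod 2) := fun Y v => ac v (ph Y) + nu2 Y
  let post : (S → ZMod 2) → List α → (S → ZMod 2) := fun v Y => ac v (ph Y) + nu1 Y
  let nu : List α → (S → ZMod 2) := fun Y =>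
    ac (nu2 (Y.take p0)) (ph (Y.drop p0)) + nu1 (Y.drop p0)
  have hT : ∀ v Y, ac v (ph Y) + nu Y = g.T pre post v Y := by
    intro v Y
    show ac v (ph Y) + (ac (nu2 (Y.take p0)) (ph (Y.drop p0)) + nu1 (Y.drop p0)) =
      ac (ac v (ph (Y.take p0)) + nu2 (Y.take p0)) (ph (Y.drop p0)) + nu1 (Y.drop p0)
    have e : ph Y = ph (Y.take p0) * ph (Y.drop p0) := by
      rw [← hph, List.take_append_drop]
    rw [hadd, ← hmul, ← e, add_assoc]
  have hlam : ∀ P v, lam P = some v → P.length ≤ g.N1 := by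
    intro P v h
    have := (hl1 P v h).1
    rw [hgN]
    omega
  have hex : ∀ P Q u b, lam P = some u → rho Q = some b → b = post u (P ++ Q) := by
    intro P Q u b h1 h2
    exact hs1 P Q u b h1 h2
  have hex2' : ∀ i, i < K → ∀ (P Q : List α) (v u : S → ZMod 2), P.length = c i →
      Q.length = g.p0 - c i → lam2 i P = some v → rho2 i Q = some u → u = pre (P ++ Q) v := by
    intro i hi P Q v u h1 _ h3 h4
    have := hex2 i hi P Q 1 v u h1 h3 h4
    rw [mul_one] at this
    exact this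
  have hgap' : ∀ P Q : List α, g.Wo P → g.Wo (P ++ Q) → Q ≠ [] →
      2 * g.p0 + 2 * g.N1 < Q.length := by
    intro P Q h1 h2 h3
    have hl : 0 < Q.length := List.length_pos_iff.2 h3
    have := hgap (P ++ Q) P.length (P ++ Q).length (by rw [List.length_append]; omega) le_rfl
      (by rw [List.take_left]; exact h1) (by rw [List.take_length]; exact h2)
    rw [List.length_append] at this
    rw [hgp, hgN]
    omega
  have hsp : ∀ i i' l l', i < K → i' < K → l < K → l' < K → i' ≠ i → l' ≠ l →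
      c i + c l' < c l + c i' + 2 * g.N1 → c l + c i' < c i + c l' + 2 * g.N1 → i = l := by
    intro i i' l l' _ _ _ _ h5 h6 h7 h8
    rw [hgN] at h7 h8
    have key : (2 : ℤ) ^ i - 2 ^ i' = 2 ^ l - 2 ^ l' := by
      have h9 : (X : ℤ) * (2 ^ i - 2 ^ i' - (2 ^ l - 2 ^ l')) < X := by
        have h7' : ((X * 2 ^ i + X * 2 ^ l' : ℕ) : ℤ) < ((X * 2 ^ l + X * 2 ^ i' + 2 * N : ℕ) : ℤ) := by
          exact_mod_cast h7
        push_cast at h7'
        have hX0' : (2 * N + 1 : ℤ) ≤ X := by exact_mod_cast hX0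
        linarith
      have h10 : -(X : ℤ) < (X : ℤ) * (2 ^ i - 2 ^ i' - (2 ^ l - 2 ^ l')) := by
        have h8' : ((X * 2 ^ l + X * 2 ^ i' : ℕ) : ℤ) < ((X * 2 ^ i + X * 2 ^ l' + 2 * N : ℕ) : ℤ) := by
          exact_mod_cast h8
        push_cast at h8'
        have hX0' : (2 * N + 1 : ℤ) ≤ X := by exact_mod_cast hX0
        linarith
      have h11 := Int.eq_zero_of_abs_lt_dvd (Dvd.intro _ rfl) (abs_lt.2 ⟨h10, h9⟩)
      have hXne : (X : ℤ) ≠ 0 := by exact_mod_cast hXpos.ne'
      have h12 := (mul_eq_zero.1 h11).resolve_left hXne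
      linarith
    exact (Crest.Agent.R320.G369.pow_diff (Ne.symm h5) (Ne.symm h6) key).1
  have hthin : ∀ τ, g.z ≤ τ + g.p0 → ∀ J : Finset ℕ, (∀ i ∈ J, i < K ∧
      ∃ i', i' < K ∧ i' ≠ i ∧ BadT k m q κ (τ + c i' - c i - g.p0)) → J.card ≤ k + m := by
    intro τ hτ J hJ
    rw [hgz, hgp] at hτ
    let ch : ℕ → ℕ := fun i => if h : i ∈ J then (hJ i h).2.choose else 0
    have hch : ∀ i, i ∈ J → ch i < K ∧ ch i ≠ i ∧ BadT k m q κ (τ + c (ch i) - c i - g.p0) := by
      intro i h
      simp only [ch, dif_pos h]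
      exact (hJ i h).2.choose_spec
    have hcard : (J.image (fun i => (ch i, i))).card = J.card := by
      apply Finset.card_image_of_injective
      intro a b h
      exact (Prod.mk.inj h).2
    rw [← hcard]
    apply hX ((τ : ℤ) - p0)
    intro p hp
    obtain ⟨i, hi, rfl⟩ := Finset.mem_image.1 hp
    obtain ⟨h1, h2, h3⟩ := hch i hi
    have h4 := hck i (hJ i hi).1
    have h5 := hck (ch i) h1
    refine ⟨h1, (hJ i hi).1, h2, τ + c (ch i) - c i - g.p0, by rw [hgp]; omega, ?_, h3⟩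
    have e1 : ((τ + c (ch i) - c i - g.p0 : ℕ) : ℤ) = (τ : ℤ) - p0 + (c (ch i) : ℤ) - (c i : ℤ) := by
      rw [hgp]; omega
    rw [e1]
    simp only [c]
    push_cast
    ring
  have hkey : ∀ {Y Z : List α}, g.z + N ≤ Y.length → g.z + N ≤ Z.length →
      Y.take (g.z + N) = Z.take (g.z + N) → Y.length % (Ms * G κ m) = Z.length % (Ms * G κ m) →
      ((Y.drop (g.z + N)).map φ).prod = ((Z.drop (g.z + N)).map φ).prod →
      (∀ x, ac x (ph Y) + nu Y = ac x (ph Z) + nu Z) ∧
        (g.BadX (BadT k m q κ) Y ↔ g.BadX (BadT k m q κ) Z) := by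
    intro Y Z h1 h2 h3 h4 h5
    rw [hgz] at h1 h2
    have e0 := Crest.Agent.R320.Fib_854.key_le φ (show 0 ≤ g.z + N by omega) h3 h5
    have e1 := Crest.Agent.R320.Fib_854.key_le φ (show p0 ≤ g.z + N by rw [hgz]; omega) h3 h5
    have e2 := Crest.Agent.R320.Fib_854.key_le φ (show p0 + N ≤ g.z + N by rw [hgz]; omega) h3 h5
    have hmod : Y.length - p0 ≡ Z.length - p0 [MOD Ms * G κ m] := by
      apply Nat.ModEq.add_right_cancel' p0
      have f1 : Y.length - p0 + p0 = Y.length := by omega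
      have f2 : Z.length - p0 + p0 = Z.length := by omega
      rw [f1, f2]
      exact h4
    have hnu1 : nu1 (Y.drop p0) = nu1 (Z.drop p0) := by
      refine (hfs (Y.drop p0) (Z.drop p0) (by rw [List.length_drop]; omega)
        (by rw [List.length_drop]; omega) ?_ ?_ ?_).2
      · have f1 : ∀ U : List α, (U.drop p0).take N = (U.take (p0 + N)).drop p0 := by
          intro U
          rw [List.drop_take]
          congr 1
          omega
        rw [f1, f1, e2.1]
      · show ((List.map φ ((Y.drop p0).drop N)).prod) = ((List.map φ ((Z.drop p0).drop N)).prod)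
        rw [List.drop_drop, List.drop_drop]
        exact e2.2
      · rw [List.length_drop, List.length_drop]
        exact hmod
    refine ⟨fun x => ?_, ?_⟩
    · have f0 : ph Y = ph Z := by
        have := e0.2
        simpa [ph] using this
      have f1 : ph (Y.drop p0) = ph (Z.drop p0) := e1.2
      show ac x (ph Y) + (ac (nu2 (Y.take p0)) (ph (Y.drop p0)) + nu1 (Y.drop p0)) =
        ac x (ph Z) + (ac (nu2 (Z.take p0)) (ph (Z.drop p0)) + nu1 (Z.drop p0))
      rw [f0, f1, hnu1, e1.1]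
    · have hEE : ∀ {Y Z : List α}, g.z + N ≤ Z.length → Y.take (g.z + N) = Z.take (g.z + N) →
          g.E Y → g.E Z := by
        intro Y Z hZ hYZ hE
        obtain ⟨t, t1, t2, t3, t4⟩ := hE
        rw [hgN] at t3 t4
        refine ⟨t, by omega, ?_, by rw [hgN]; exact t3, by rw [hgN]; exact t4⟩
        have f1 : Y.take t = Z.take t := by
          have := congrArg (List.take t) hYZ
          rwa [List.take_take, List.take_take, Nat.min_eq_left (by omega)] at this
        rw [← f1]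
        exact t2
      have hBB : BadT k m q κ (Y.length - p0) ↔ BadT k m q κ (Z.length - p0) :=
        badT_congr (by rw [← hMs, ← hN]; omega) (by rw [← hMs, ← hN]; omega) hmod
      constructor
      · rintro (h | h)
        · exact Or.inl (hEE (by rw [hgz]; exact h2) h3 h)
        · exact Or.inr (hBB.1 h)
      · rintro (h | h)
        · exact Or.inl (hEE (by rw [hgz]; exact h1) h3.symm h)
        · exact Or.inr (hBB.2 h)
  have hMG : 0 < Ms * G κ m := Nat.mul_pos hMpos (G_pos m)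
  refine Crest.Agent.R320.Top5_120.top5 ac hadd hone hmul
    (fun t t' h => Crest.Agent.R320.Two_621.act_faithful h) φ nu {Y | g.XX Y}
    {Y | g.XX Y ∧ g.BadX (BadT k m q κ) Y} ?_ (fun Y h => h.1)
    (fun v => {P | g.LP1 pre lam v P}) (fun v => {P | Geo.LP2 K c lam2 v P})
    ?_ ?_ ?_ ?_ ?_ ?_ ?_ s
  · -- prefix code
    refine ⟨?_, ?_⟩
    · intro h
      have := h.1
      rw [hgz] at this
      simp at this
      omega
    · rintro Y hY Z hZ ⟨t, ht⟩
      exact g.prefix_code (R := t) (R' := []) hY hZ (by rw [ht, List.append_nil])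
  · intro v
    refine (List.finite_length_le α (p0 + N)).subset ?_
    intro P hP
    have h1 := hlam _ _ hP.2
    rw [List.length_drop, hgN, hgp] at h1
    show P.length ≤ p0 + N
    omega
  · intro v
    refine (List.finite_length_le α p0).subset ?_
    rintro P ⟨i, hi, h1, _⟩
    show P.length ≤ p0
    rw [h1]
    exact hck i hi
  · intro x y
    exact Crest.Agent.R320.Fib_854.fib (z := g.z) hloc hlen hn hnz hfew
      (fun Y => ac x (ph Y) + nu Y)
      ⟨g.z + N, Ms * G κ m, S, inferInstance, inferInstance, φ, hMG,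
        fun Y Z h1 h2 h3 h4 h5 => (hkey h1 h2 h3 h4 h5).1 x⟩ y
  · intro x y
    have h := Crest.Agent.R320.Fib_854.fib (z := g.z) hloc hlen hn hnz hfew
      (fun Y => (g.BadX (BadT k m q κ) Y, ac x (ph Y) + nu Y))
      ⟨g.z + N, Ms * G κ m, S, inferInstance, inferInstance, φ, hMG,
        fun Y Z h1 h2 h3 h4 h5 => by
          have := hkey h1 h2 h3 h4 h5
          exact Prod.ext (propext this.2) (this.1 x)⟩ (True, y)
    refine h.congr fun w => Iff.symm ?_
    constructor
    · rintro ⟨h1, h2⟩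
      have h3 := (Prod.mk.inj h2)
      exact ⟨⟨h1, of_eq_true h3.1⟩, h3.2⟩
    · rintro ⟨⟨h1, h2⟩, h3⟩
      exact ⟨h1, Prod.ext (eq_true h2) h3⟩
  · intro s'
    exact Crest.Agent.R320.Fib_854.tail (z := g.z) φ hloc hlen hn hnz hfew s'
  · -- scheme 1
    intro Y hY hYb v
    have hYz : g.z ≤ Y.length := hY.1
    rw [hgz] at hYz
    have hE : ¬ g.E Y := fun h => hYb ⟨hY, Or.inl h⟩
    have hB : ¬ BadT k m q κ (Y.length - p0) := fun h => hYb ⟨hY, Or.inr h⟩
    have hc : ∀ u : S → ZMod 2, ∃ P Q, Y.drop g.p0 = P ++ Q ∧ lam P = some u ∧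
        (rho Q).isSome := by
      intro u
      apply hc1 (Y.drop p0)
      · rw [List.length_drop]
        omega
      · intro j hj
        rw [List.length_drop] at hj
        exact hB (Or.inl ⟨j, hj⟩)
      · intro j h1 h2
        rw [List.length_drop]
        by_contra h
        exact hB (Or.inr ⟨j, h1, h2, h⟩)
    obtain ⟨P, Q, b, hPQ, hP, hQ⟩ := g.complete1 pre hlam hY hE hc v
    refine ⟨P, Q, hPQ.symm, hP, fun x P' hP' => ?_⟩
    have s1 := g.sound1 pre post hlam hex hP' hQ
    have s2 := g.sound1 pre post hlam hex hP hQ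
    refine ⟨s1.1, ?_⟩
    show ac x (ph (P' ++ Q)) + nu (P' ++ Q) = ac v (ph Y) + nu Y
    rw [hT, hT, s1.2, hPQ, s2.2]
  · -- scheme 2
    intro Y hY Z hZ v
    have hYz : g.z ≤ Y.length := hY.1.1
    rw [hgz] at hYz
    have htl : (Y.take p0).length = p0 := by rw [List.length_take]; omega
    obtain ⟨I, hI, hIk⟩ := hcomp2 (Y.take p0) 1 v (fun i hi => by rw [htl]; exact hck i hi)
    obtain ⟨P, Q, b, hPQ, hP, hQ⟩ := g.complete2 (BadT := BadT k m q κ) (lam2 := lam2)
      (rho2 := rho2) pre post hck hgap' hsp hthin hY.1 hZ.1 v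
      ⟨I, hI, fun i hi => ⟨(hIk i hi).1, by
        have := (hIk i hi).2.1
        rwa [List.take_take, Nat.min_eq_left (hck i (hIk i hi).1)] at this, (hIk i hi).2.2⟩⟩
    refine ⟨P, Q, hPQ, hP, fun x P' hP' => ?_⟩
    have htrue : g.T pre post (g.T pre post v Y) Z = b := by
      obtain ⟨X2, h1, h2, h3⟩ := g.sound2 pre post hck hex2' hY.1 hY.2 hP hQ
        (R := []) (R' := Z) (by rw [List.append_nil, hPQ])
      have h4 : Y ++ Z = Y ++ X2 := hPQ.symm.trans h2
      have h5 := List.append_cancel_left h4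
      rw [h5]
      exact h3
    obtain ⟨k0, hk0, hPl, hl⟩ := hP'
    have hcand : ∃ l, g.CEnd Q (c k0) l := by
      obtain ⟨k1, hk1, l1, hend, hgood, _⟩ := hQ
      by_cases h : k0 = k1
      · subst h
        exact ⟨l1, hend⟩
      · obtain ⟨l, hl, _⟩ := hgood k0 hk0 h
        exact ⟨l, hl⟩
    obtain ⟨l, hl'⟩ := hcand
    have hXX : g.XX (P' ++ Q.take l) :=
      g.xx_of_cend (by rw [hPl]; exact hck k0 hk0) (by rw [hPl]; exact hl')
    by_cases hb : g.BadX (BadT k m q κ) (P' ++ Q.take l)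
    · left
      obtain ⟨X2, h1, h2, h3⟩ := g.sound2 pre post hck hex2' hXX hb ⟨k0, hk0, hPl, hl⟩ hQ
        (R := []) (R' := Q.drop l)
        (by rw [List.append_nil, List.append_assoc, List.take_append_drop])
      refine ⟨_, ⟨hXX, hb⟩, X2, h1, h2.symm, ?_⟩
      show ac (ac x (ph _) + nu _) (ph X2) + nu X2 = ac (ac v (ph Y) + nu Y) (ph Z) + nu Z
      rw [hT, hT, hT, hT, h3, htrue]
    · right
      exact ⟨_, hXX, fun h => hb h.2, ⟨Q.drop l, by rw [List.append_assoc, List.take_append_drop]⟩⟩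

end Crest.Agent.R320.Fin_899
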