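import Crest.Agent.R320.Top5_120
import Crest.Agent.R320.Sc2n_937
import Crest.Agent.R320.FinA_905

set_option autoImplicit false
set_option maxHeartbeats 400000

namespace Crest.Agent.R320.FinB_905

open Crest.RegLang Crest.Agent.R320.Hk_851 Crest.Agent.R320.Blk467 Crest.Agent.R320.FinA_905
open Crest.Agent.R320.Sc2n_937 Crest.Agent.R320.BddReg_746

theorem free_PN {α : Type} {B W : ℕ} {Wo : List α → Prop}
    (hfree : ∀ X : List α, (∀ t < X.length, ¬ Wo (X.take t)) →
      ∃ (u x v : List α) (k : ℕ), u.length ≤ B ∧ x.length ≤ W ∧ v.length ≤ B ∧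
        X = u ++ (List.replicate k x).flatten ++ v)
    (X : List α) (h : ∀ t < X.length, ¬ Wo (X.take t)) : X ∈ (PN (max B W) 2 : Language α) := by
  obtain ⟨u, x, v, k, h1, h2, h3, rfl⟩ := hfree X h
  refine Language.mem_mul.2 ⟨u ++ (List.replicate k x).flatten,
    ⟨u, x, k, by omega, by omega, rfl⟩, v, ?_, rfl⟩
  refine Language.mem_mul.2 ⟨v, ⟨v, [], 0, by omega, by simp, by simp⟩, [], rfl, by simp⟩

theorem join {α : Type} [Finite α] {S V : Type} [Monoid S] [Finite S] [AddCommGroup V] [Finite V]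
    (act : V → S → V)
    (hadd : ∀ a b s, act (a + b) s = act a s + act b s)
    (hone : ∀ v, act v 1 = v) (hmul : ∀ v s t, act v (s * t) = act (act v s) t)
    (hfaith : ∀ s t, (∀ v, act v s = act v t) → s = t)
    (φ : α → S) (g : Geo α) (hWlen : ∀ P, g.Wo P → g.n ≤ P.length) (B W : ℕ)
    (hfree : ∀ X : List α, (∀ t < X.length, ¬ g.Wo (X.take t)) →
      ∃ (u x v : List α) (k : ℕ), u.length ≤ B ∧ x.length ≤ W ∧ v.length ≤ B ∧
        X = u ++ (List.replicate k x).flatten ++ v)
    (lam rho : List α → Option V) (nu1 : List α → V) (A' M0 : ℕ) (hM0 : 0 < M0)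
    (hlam : ∀ P v, lam P = some v → P.length < g.N1)
    (hs1 : ∀ P Q v b, lam P = some v → rho Q = some b →
      b = act v ((P ++ Q).map φ).prod + nu1 (P ++ Q))
    (hrho : ∀ Q Q' : List α, A' ≤ Q.length → A' ≤ Q'.length → Q.take A' = Q'.take A' →
      ((Q.drop A').map φ).prod = ((Q'.drop A').map φ).prod →
      Q.length ≡ Q'.length [MOD M0] → rho Q = rho Q')
    (BadT : ℕ → Prop) (A0 : ℕ)
    (hBadT : ∀ n n', A0 ≤ n → A0 ≤ n' → n % M0 = n' % M0 → (BadT n ↔ BadT n'))
    (hc1 : ∀ Y : List α, g.N1 + g.q0 ≤ Y.length → ¬ BadT Y.length → ∀ v, ∃ P Q, Y = P ++ Q ∧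
      lam P = some v ∧ (rho Q).isSome)
    (K : ℕ) (c : ℕ → ℕ) (hc : ∀ k, k < K → c k ≤ g.p0) (lam2 rho2 : ℕ → List α → Option V)
    (nu2 : List α → V)
    (hs2 : ∀ k, k < K → ∀ P Q v b, P.length = c k → lam2 k P = some v → rho2 k Q = some b →
      b = act v ((P ++ Q).map φ).prod + nu2 (P ++ Q))
    (C0 : ℕ)
    (hI : ∀ (u : List α) (v : V), (∀ k, k < K → c k ≤ u.length) → ∃ I : Finset ℕ,
      2 * C0 + 2 ≤ I.card ∧ ∀ k ∈ I, k < K ∧ lam2 k (u.take (c k)) = some v ∧
        (rho2 k (u.drop (c k))).isSome)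
    (hgap : ∀ P Q : List α, g.Wo P → g.Wo (P ++ Q) → Q ≠ [] → 2 * g.p0 + 2 * g.N1 < Q.length)
    (hsp : ∀ k k' l l', k < K → k' < K → l < K → l' < K → k' ≠ k → l' ≠ l →
      c k + c l' < c l + c k' + 2 * g.N1 → c l + c k' < c k + c l' + 2 * g.N1 → k = l)
    (hthin : ∀ τ, g.z ≤ τ + g.p0 → ∀ J : Finset ℕ, (∀ k ∈ J, k < K ∧
      ∃ k', k' < K ∧ k' ≠ k ∧ BadT (τ + c k' - c k - g.p0)) → J.card ≤ C0)
    (s : S) : HL 3 ({w | (w.map φ).prod = s} : Language α) := by
  classical
  have hz := g.hz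
  have hq := g.hq
  have hqp := g.hqp
  set ψ : List α → S := fun w => (w.map φ).prod with hψdef
  have hψ : ∀ u v, ψ (u ++ v) = ψ u * ψ v := by
    intro u v; simp [hψdef]
  set nuY : List α → V := nuR lam rho nu1 with hnuY
  set pre : List α → V → V := fun X v => act v (ψ X) + nu2 X with hpre
  set post : V → List α → V := fun u Y => act u (ψ Y) + nuY Y with hpost
  set nu : List α → V := fun X =>
    act (nu2 (X.take g.p0)) (ψ (X.drop g.p0)) + nuY (X.drop g.p0) with hnu
  have hT : ∀ v X, g.T pre post v X = act v (ψ X) + nu X := by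
    intro v X
    have h1 : ψ X = ψ (X.take g.p0) * ψ (X.drop g.p0) := by
      rw [← hψ, List.take_append_drop]
    show act (act v (ψ (X.take g.p0)) + nu2 (X.take g.p0)) (ψ (X.drop g.p0)) + nuY (X.drop g.p0) = _
    rw [h1, hadd, ← hmul, add_assoc]
  have hlam' : ∀ P v, lam P = some v → P.length ≤ g.N1 := fun P v h => (hlam P v h).le
  have hex1 : ∀ P Q u b, lam P = some u → rho Q = some b → b = post u (P ++ Q) := by
    intro P Q u b h1 h2
    show b = act u (ψ (P ++ Q)) + nuR lam rho nu1 (P ++ Q)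
    rw [nuR_eq h1 h2]
    exact hs1 P Q u b h1 h2
  have hex2 : ∀ k, k < K → ∀ P Q v u, P.length = c k → Q.length = g.p0 - c k →
      lam2 k P = some v → rho2 k Q = some u → u = pre (P ++ Q) v :=
    fun k hk P Q v u h1 _ h2 h3 => hs2 k hk P Q v u h1 h2 h3
  -- noise is finite state
  set A : ℕ := max (g.p0 + (g.N1 + A')) (max (g.z + g.N1) (g.p0 + A0)) with hA
  have hnuS : ∀ u u', Same ψ A M0 u u' → nu u = nu u' := by
    intro u u' h
    have h1 : Same ψ (g.p0 + (g.N1 + A')) M0 u u' := h.mono hψ (le_max_left _ _)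
    have h2 := h1.drop g.p0
    have h3 : nuY (u.drop g.p0) = nuY (u'.drop g.p0) := nuR_same act hψ hlam hs1 hrho h2
    have h4 := h2.val hψ
    have h5 : u.take g.p0 = u'.take g.p0 := (h1.mono hψ (Nat.le_add_right _ _)).2.2.1
    show act (nu2 (u.take g.p0)) (ψ (u.drop g.p0)) + nuY (u.drop g.p0) = _
    rw [h3, h4, h5]
  have hfS : ∀ x y u u', Same ψ A M0 u u' →
      (act x (u.map φ).prod + nu u = y ↔ act x (u'.map φ).prod + nu u' = y) := by
    intro x y u u' h
    have h1 : ψ u = ψ u' := Same.val (ψ := ψ) hψ h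
    have h1' : (u.map φ).prod = (u'.map φ).prod := h1
    rw [h1', hnuS u u' h]
  have hBS : ∀ u u', Same ψ A M0 u u' → (g.BadX BadT u ↔ g.BadX BadT u') := by
    have key : ∀ u u', Same ψ A M0 u u' → g.BadX BadT u → g.BadX BadT u' := by
      intro u u' h hb
      have hAz : g.z + g.N1 ≤ A := le_trans (le_max_left _ _) (le_max_right _ _)
      have hA0 : g.p0 + A0 ≤ A := le_trans (le_max_right _ _) (le_max_right _ _)
      have hl1 := h.1
      have hl2 := h.2.1
      rcases hb with ⟨t, h1, h2, h3, h4⟩ | hb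
      · left
        refine ⟨t, by omega, ?_, h3, h4⟩
        rw [← (h.mono hψ (show t ≤ A by omega)).2.2.1]
        exact h2
      · right
        have h1 : Same ψ (g.p0 + A0) M0 u u' := h.mono hψ hA0
        have h2 := h1.drop g.p0
        have h3 := (hBadT _ _ h2.1 h2.2.1 h2.2.2.2.1).1
        rw [List.length_drop, List.length_drop] at h3
        exact h3 hb
    exact fun u u' h => ⟨key u u' h, key u' u h.symm⟩
  have hXXe : ∀ X, g.XX X ↔ P4_933.XX g.Wo g.z X := by
    intro X
    constructor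
    · rintro ⟨h1, h2, h3⟩; exact ⟨h2, h1, fun t h4 h5 => h3 t h5 h4⟩
    · rintro ⟨h1, h2, h3⟩; exact ⟨h2, h1, fun t h4 h5 => h3 t h5 h4⟩
  have hfree' := free_PN hfree
  refine Top5_120.top5 act hadd hone hmul hfaith φ nu {X | g.XX X}
    {X | g.XX X ∧ g.BadX BadT X} ?_ (fun X hX => hX.1)
    (fun v => {P | g.LP1 pre lam v P}) (fun v => {P | Geo.LP2 K c lam2 v P}) ?_ ?_ ?_ ?_ ?_ ?_ ?_ s
  · refine ⟨?_, ?_⟩
    · intro h
      have h1 := h.1
      have := g.hN
      simp at h1
      omega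
    · intro X hX Y hY hp
      obtain ⟨r, hr⟩ := hp
      exact g.prefix_code (R := r) (R' := []) hX hY (by rw [hr, List.append_nil])
  · intro v
    refine (List.finite_length_le α (g.p0 + g.N1)).subset fun P hP => ?_
    have h1 := hlam _ _ hP.2
    rw [List.length_drop] at h1
    show P.length ≤ _
    omega
  · intro v
    refine (List.finite_length_le α g.p0).subset fun P hP => ?_
    obtain ⟨k, hk, h1, _⟩ := hP
    show P.length ≤ _
    rw [h1]; exact hc k hk
  · intro x y
    have h := P4_933.hl_XX (z := g.z) g.loc hWlen hfree'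
      (f := fun X => act x (X.map φ).prod + nu X = y)
      (regular_of_same φ A M0 hM0 _ (hfS x y))
    refine h.congr fun X => ?_
    show (g.XX X ∧ _) ↔ (P4_933.XX g.Wo g.z X ∧ _)
    rw [hXXe]
  · intro x y
    have h := P4_933.hl_XX (z := g.z) g.loc hWlen hfree'
      (f := fun X => g.BadX BadT X ∧ act x (X.map φ).prod + nu X = y)
      (regular_of_same φ A M0 hM0 _ fun u u' hu => by rw [hBS u u' hu, hfS x y u u' hu])
    refine h.congr fun X => ?_
    show ((g.XX X ∧ _) ∧ _) ↔ (P4_933.XX g.Wo g.z X ∧ _)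
    rw [hXXe, and_assoc]
  · intro s'
    have h := P4_933.hl_NB (z := g.z) g.loc hWlen hfree'
      (f := fun X => (X.map φ).prod = s')
      (regular_of_same φ A M0 hM0 _ fun u u' hu => by
        have h1 : ψ u = ψ u' := Same.val (ψ := ψ) hψ hu
        have h1' : (u.map φ).prod = (u'.map φ).prod := h1
        rw [h1'])
    refine h.congr fun u => ?_
    show ((∀ X ∈ {X | g.XX X}, ¬ X <+: u) ∧ _) ↔ (P4_933.NB g.Wo g.z u ∧ _)
    rw [P4_933.NB_iff]
    refine and_congr_left fun _ => ?_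
    constructor
    · intro h1 X hp hX; exact h1 X ((hXXe X).2 hX) hp
    · intro h1 X hX hp; exact h1 X hp ((hXXe X).1 hX)
  · -- scheme 1
    intro X hX hXB v
    have hnB : ¬ g.BadX BadT X := fun h => hXB ⟨hX, h⟩
    have hnE : ¬ g.E X := fun h => hnB (Or.inl h)
    have hnT : ¬ BadT (X.length - g.p0) := fun h => hnB (Or.inr h)
    have hXz := hX.1
    obtain ⟨P, Q, b, hPQ, hP, hQ⟩ := g.complete1 pre (lam := lam) (rho := rho) hlam' hX hnE
      (fun u => hc1 (X.drop g.p0) (by rw [List.length_drop]; omega)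
        (by rw [List.length_drop]; exact hnT) u) v
    have h1 := g.sound1 pre post hlam' hex1 hP hQ
    refine ⟨P, Q, hPQ.symm, hP, ?_⟩
    intro x P' hP'
    have h2 := g.sound1 pre post hlam' hex1 hP' hQ
    refine ⟨h2.1, ?_⟩
    rw [hT] at h1 h2
    rw [hPQ]
    exact h2.2.trans h1.2.symm
  · -- scheme 2
    intro X hX Y hY v
    have htl : (X.take g.p0).length = g.p0 := by
      rw [List.length_take]; have := hX.1.1; omega
    obtain ⟨P, Q, b, hPQ, hP, hQ⟩ := g.complete2 pre post (BadT := BadT) (K := K) (c := c)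
      (lam2 := lam2) (rho2 := rho2) (C0 := C0) hc hgap hsp hthin hX.1 hY.1 v (by
        obtain ⟨I, hI1, hI2⟩ := hI (X.take g.p0) v (by rw [htl]; exact hc)
        refine ⟨I, hI1, fun k hk => ?_⟩
        obtain ⟨h1, h2, h3⟩ := hI2 k hk
        refine ⟨h1, ?_, h3⟩
        rwa [List.take_take, min_eq_left (hc k h1)] at h2)
    refine ⟨P, Q, hPQ, hP, ?_⟩
    have hb : g.T pre post (g.T pre post v X) Y = b := by
      obtain ⟨X2, h1, h2, h3⟩ := g.sound2 pre post (R := []) (R' := Y) hc hex2 hX.1 hX.2 hP hQ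
        (by rw [List.append_nil, hPQ])
      rw [hPQ] at h2
      rw [List.append_cancel_left h2]
      exact h3
    intro x P' hP'
    -- the first block of `P' ++ Q`
    have hend : g.z ≤ (P' ++ Q).length ∧ g.Wo (P' ++ Q) := by
      obtain ⟨k, hk, l, hCE, hG, hX2, u, hu, hub⟩ := hQ
      have h1 := hX2.1
      have h2 := hX2.2.1
      have h3 : P' ++ Q = (P' ++ Q.take l) ++ Q.drop l := by
        rw [List.append_assoc, List.take_append_drop]
      refine ⟨?_, ?_⟩
      · rw [h3, List.length_append]; omega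
      · rw [h3, g.loc _ _ (by omega)]; exact h2
    have hexw : ∃ t, g.z ≤ t ∧ t ≤ (P' ++ Q).length ∧ g.Wo ((P' ++ Q).take t) :=
      ⟨_, hend.1, le_rfl, by rw [List.take_length]; exact hend.2⟩
    obtain ⟨t1, t2, t3⟩ := Nat.find_spec hexw
    set t := Nat.find hexw with ht
    have hlt : ((P' ++ Q).take t).length = t := by rw [List.length_take]; omega
    have hXX' : g.XX ((P' ++ Q).take t) := by
      refine ⟨by omega, t3, ?_⟩
      intro s' hs1 hs2 hs3
      rw [hlt] at hs2
      rw [List.take_take, min_eq_left hs2.le] at hs3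
      exact Nat.find_min hexw hs2 ⟨hs1, by omega, hs3⟩
    by_cases hB' : g.BadX BadT ((P' ++ Q).take t)
    · left
      obtain ⟨X2, h1, h2, h3⟩ := g.sound2 pre post (R := []) (R' := (P' ++ Q).drop t) hc hex2
        hXX' hB' hP' hQ (by rw [List.append_nil, List.take_append_drop])
      refine ⟨_, ⟨hXX', hB'⟩, X2, h1, h2.symm, ?_⟩
      have e1 : ∀ v X, act v (X.map φ).prod + nu X = g.T pre post v X := fun v X => (hT v X).symm
      rw [e1, e1, e1, e1, h3, hb]
    · right
      exact ⟨_, hXX', fun h => hB' h.2, List.take_prefix _ _⟩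

end Crest.Agent.R320.FinB_905
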