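import Crest.Agent.R320.FinA_97

/-! Row 320: constants + join (helper97), main file. -/

set_option autoImplicit false

namespace Crest.Agent.R320.FinB_97

open Crest.RegLang Crest.Agent.R320.Hk_851 Crest.Agent.R320.BddReg_746
open Crest.Agent.R320.FinA_97 Crest.Agent.R320.Blk467

section T

variable {α S V : Type} [Monoid S] [AddCommGroup V] (φ : α → S) (act : V → S → V)
  (p0 : ℕ) (nu2 nu : List α → V)

def prm (X : List α) (v : V) : V := act v ((X.map φ).prod * 1) + nu2 X

def post (v : V) (Y : List α) : V := act v ((Y.map φ).prod) + nu Y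

def nuT (X : List α) : V := act (nu2 (X.take p0)) ((X.drop p0).map φ).prod + nu (X.drop p0)

theorem T_eq (hadd : ∀ a b s, act (a + b) s = act a s + act b s)
    (hmul : ∀ v s t, act v (s * t) = act (act v s) t) (g : Sc2n_937.Geo α) (hg : g.p0 = p0)
    (v : V) (X : List α) :
    g.T (prm φ act nu2) (post φ act nu) v X = act v (X.map φ).prod + nuT φ act p0 nu2 nu X := by
  unfold Sc2n_937.Geo.T prm post nuT
  rw [hg, hadd, mul_one, ← hmul, ← List.prod_append, ← List.map_append, List.take_append_drop,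
    add_assoc]

end T

theorem E_congr {α : Type} (g : Sc2n_937.Geo α) {A : ℕ} (hA : g.z + g.N1 ≤ A) {u u' : List α}
    (h1 : A ≤ u.length) (h2 : A ≤ u'.length) (h : u.take A = u'.take A) : g.E u → g.E u' := by
  rintro ⟨t, ht, hw, h3, h4⟩
  refine ⟨t, by omega, ?_, h3, h4⟩
  have e : u'.take t = u.take t := by
    have := congrArg (List.take t) h
    rw [List.take_take, List.take_take, min_eq_left (by omega)] at this
    exact this.symm
  rw [e]; exact hw

theorem fin (α : Type) [Finite α] (S : Type) [Monoid S] [Finite S] (φ : α → S) (s : S) :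
    HL 3 ({w | (w.map φ).prod = s} : Language α) := by
  classical
  obtain ⟨act, hadd, hone, hmul, hfaith⟩ := exists_module S
  let V := S → ZMod 2
  haveI : Fintype S := Fintype.ofFinite S
  haveI : Fintype V := Fintype.ofFinite V
  -- gadget 1
  obtain ⟨m, r, hG1⟩ := G1_852.gadget (V := V) act
  -- gadget 2
  obtain ⟨K, hK⟩ := ExactR_237.exact_gadget α S V φ act (2 * (r + m) + 2)
  obtain ⟨Ms, M, hcard, hMs, hM, hG2⟩ := hG1 (2 ^ (K + 1))
  set b : ℕ := M * 2 ^ (K + 5) + 1 with hbdef
  have hb : 0 < b := by omega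
  have hcop : Nat.Coprime b M := by
    rw [hbdef]
    have : Nat.Coprime (1 + M * 2 ^ (K + 5)) M := by
      rw [Nat.coprime_add_mul_left_left]
      exact Nat.coprime_one_left M
    rwa [add_comm]
  obtain ⟨lam, rho, nu, hlen, hsound, hcompl, hfs⟩ := hG2 b hb hcop α φ
  -- ruler
  have hb2 : (2 : ℤ) ≤ (b : ℤ) := by
    have h1 : 1 ≤ 2 ^ (K + 5) := Nat.one_le_two_pow
    have h2 : 1 * 1 ≤ M * 2 ^ (K + 5) := Nat.mul_le_mul hM h1
    have : 2 ≤ b := by omega
    exact_mod_cast this
  obtain ⟨X0, hX0, hXpos, hthin⟩ := Thin963.thin K m Ms (fun i => (b : ℤ) ^ i)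
    (fun i => (M : ℤ) * b ^ i) (fun _ => 0)
    (fun q hq => ⟨(hMs q hq).2.1, (hMs q hq).1.le⟩)
    (fun q hq => by
      have h1 : Nat.Coprime q b :=
        (Nat.Coprime.coprime_dvd_right (hMs q hq).2.2 hcop).symm
      exact (Nat.isCoprime_iff_coprime.2 h1).pow_right)
    (by positivity) (fun i j hij => pow_dvd_pow _ hij) (fun i => by positivity)
    (fun i => dvd_mul_left _ _)
    (fun i hi => by
      show (2 : ℤ) ^ (K + 4) * ∑ j ∈ Finset.range (i + 1), (M : ℤ) * (b : ℤ) ^ j ≤ (b : ℤ) ^ (i + 1)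
      rw [← Finset.mul_sum]
      have h1 := geo2 hb2 i
      have hMz : (0 : ℤ) < M := by exact_mod_cast hM
      have h2 : (2 : ℤ) ^ (K + 4) * ((M : ℤ) * ∑ j ∈ Finset.range (i + 1), (b : ℤ) ^ j) ≤
          (2 : ℤ) ^ (K + 4) * ((M : ℤ) * (2 * (b : ℤ) ^ i)) := by
        gcongr
      refine h2.trans ?_
      have h3 : (b : ℤ) = M * 2 ^ (K + 5) + 1 := by rw [hbdef]; push_cast; ring
      have h4 : (0 : ℤ) < (b : ℤ) ^ i := by positivity
      have h5 : (2 : ℤ) ^ (K + 4) * ((M : ℤ) * (2 * (b : ℤ) ^ i)) =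
          (M * 2 ^ (K + 5)) * (b : ℤ) ^ i := by ring
      rw [h5, pow_succ (b : ℤ) i, mul_comm ((b : ℤ) ^ i) (b : ℤ)]
      exact mul_le_mul_of_nonneg_right (by rw [h3]; linarith) h4.le)
    (2 * (b ^ m : ℕ) + 1)
  set Xn : ℕ := X0.toNat with hXn
  have hXc : (Xn : ℤ) = X0 := Int.toNat_of_nonneg hXpos.le
  have hXn1 : 2 * b ^ m + 1 ≤ Xn := by
    have : ((2 * (b ^ m : ℕ) + 1 : ℕ) : ℤ) ≤ (Xn : ℤ) := by
      rw [hXc]; push_cast; push_cast at hX0; exact hX0
    exact_mod_cast this
  set c : ℕ → ℕ := fun j => Xn * 2 ^ j with hc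
  set N1 : ℕ := b ^ m with hN1
  have hN1pos : 0 < N1 := pow_pos hb m
  set p0 : ℕ := c K with hp0
  have hcmono : ∀ i j, i < j → j < K → c i < c j := by
    intro i j hij _
    exact Nat.mul_lt_mul_of_pos_left (Nat.pow_lt_pow_right (by norm_num) hij) (by omega)
  have hcp : ∀ k, k < K → c k ≤ p0 := by
    intro k hk
    exact Nat.mul_le_mul_left _ (Nat.pow_le_pow_right (by norm_num) hk.le)
  obtain ⟨lam2, rho2, nu2, hs2, hc2⟩ := hK c hcmono
  -- walls
  obtain ⟨n, G, B, Wo, hLW, hgap, -, -, hfree⟩ :=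
    LWallAll_922.walls_all_left α (2 * p0 + 2 * N1) (by omega)
  set q0 : ℕ := n + 2 * p0 with hq0
  let g : Sc2n_937.Geo α :=
    { Wo := Wo, n := n, z := p0 + N1 + q0, p0 := p0, q0 := q0, N1 := N1
      loc := hLW.app, hz := rfl, hq := by omega, hN := hN1pos, hqp := by omega }
  set pre : List α → V → V := prm φ act (fun X => nu2 X 1) with hpre
  set pst : V → List α → V := post φ act nu with hpst
  have hT : ∀ v X, g.T pre pst v X =
      act v (X.map φ).prod + nuT φ act p0 (fun X => nu2 X 1) nu X := by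
    intro v X
    exact T_eq φ act p0 (fun X => nu2 X 1) nu hadd hmul g rfl v X
  let C : Set (List α) := {X | g.XX X}
  let BT : ℕ → Prop := BadN Ms M b m
  let Bad : Set (List α) := {X | g.XX X ∧ g.BadX BT X}
  let L1 : V → Set (List α) := fun v => {P | g.LP1 pre lam v P}
  let rho2' : ℕ → List α → Option V := fun k Q => rho2 k Q 1
  let L2 : V → Set (List α) := fun v => {P | Sc2n_937.Geo.LP2 K c lam2 v P}
  have hlen' : ∀ P v, lam P = some v → P.length ≤ g.N1 := fun P v h => (hlen P v h).le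
  have hsound' : ∀ P Q u b', lam P = some u → rho Q = some b' → b' = pst u (P ++ Q) :=
    fun P Q u b' h1 h2 => hsound P Q u b' h1 h2
  have hex2 : ∀ k, k < K → ∀ P Q v u, P.length = c k → Q.length = g.p0 - c k →
      lam2 k P = some v → rho2' k Q = some u → u = pre (P ++ Q) v :=
    fun k hk P Q v u h1 _ h3 h4 => hs2 k hk P Q 1 v u h1 h3 h4
  have hPC : PCode C := by
    refine ⟨fun h => ?_, ?_⟩
    · have h1 : g.z ≤ ([] : List α).length := h.1
      have h2 : g.z = p0 + N1 + q0 := rfl
      simp at h1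
      omega
    · rintro X hX Y hY ⟨R, hR⟩
      exact g.prefix_code hX hY (by rw [hR, List.append_nil] : X ++ R = Y ++ [])
  -- regular classes
  set A : ℕ := g.z + g.N1 + p0 + b ^ m with hA
  set M0 : ℕ := M * b ^ m with hM0
  have hM0pos : 0 < M0 := Nat.mul_pos hM (pow_pos hb m)
  have hzdef : g.z = p0 + N1 + q0 := rfl
  have key : ∀ u u' : List α, A ≤ u.length → A ≤ u'.length → u.take A = u'.take A →
      ((u.drop A).map φ).prod = ((u'.drop A).map φ).prod → ∀ a ≤ A,
      ((u.drop a).map φ).prod = ((u'.drop a).map φ).prod := by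
    intro u u' h1 h2 h3 h4 a ha
    rw [drop_split u ha h1, drop_split u' ha h2, h3, List.map_append, List.map_append,
      List.prod_append, List.prod_append, h4]
  have keyT : ∀ u u' : List α, u.take A = u'.take A → ∀ a ≤ A, u.take a = u'.take a := by
    intro u u' h a ha
    have := congrArg (List.take a) h
    rwa [List.take_take, List.take_take, min_eq_left ha] at this
  have keyL : ∀ u u' : List α, A ≤ u.length → A ≤ u'.length → u.length % M0 = u'.length % M0 →
      (u.length - p0) % M0 = (u'.length - p0) % M0 := by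
    intro u u' h1 h2 h3
    have e1 : u.length - p0 + p0 = u.length := by omega
    have e2 : u'.length - p0 + p0 = u'.length := by omega
    have : u.length - p0 + p0 ≡ u'.length - p0 + p0 [MOD M0] := by rw [e1, e2]; exact h3
    exact Nat.ModEq.add_right_cancel' p0 this
  have keyN : ∀ u u' : List α, A ≤ u.length → A ≤ u'.length → u.take A = u'.take A →
      u.length % M0 = u'.length % M0 →
      ((u.drop A).map φ).prod = ((u'.drop A).map φ).prod →
      nuT φ act p0 (fun X => nu2 X 1) nu u = nuT φ act p0 (fun X => nu2 X 1) nu u' := by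
    intro u u' h1 h2 h3 h4 h5
    unfold nuT
    have e1 : u.take p0 = u'.take p0 := keyT u u' h3 p0 (by omega)
    have e2 := key u u' h1 h2 h3 h5 p0 (by omega)
    have e3 : nu (u.drop p0) = nu (u'.drop p0) := by
      refine (hfs (u.drop p0) (u'.drop p0) ?_ ?_ ?_).2
      · rw [List.take_drop, List.take_drop]
        congr 1
        exact keyT u u' h3 _ (by omega)
      · show ((List.drop (b ^ m) (u.drop p0)).map φ).prod =
          ((List.drop (b ^ m) (u'.drop p0)).map φ).prod
        rw [List.drop_drop, List.drop_drop]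
        exact key u u' h1 h2 h3 h5 _ (by omega)
      · rw [List.length_drop, List.length_drop]
        exact keyL u u' h1 h2 h4
    rw [e1, e2, e3]
  have keyB : ∀ u u' : List α, A ≤ u.length → A ≤ u'.length → u.take A = u'.take A →
      u.length % M0 = u'.length % M0 → (g.BadX BT u → g.BadX BT u') := by
    intro u u' h1 h2 h3 h4 h5
    rcases h5 with h5 | h5
    · exact Or.inl (E_congr g (by omega) h1 h2 h3 h5)
    · right
      exact (badN_congr (fun k hk => (hMs k hk).2.2) (keyL u u' h1 h2 h4)).1 h5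
  have hfr : ∀ u : List α, (∀ t < u.length, ¬ Wo (u.take t)) →
      u ∈ (PN (B + (2 * p0 + 2 * N1)) 2 : Language α) := by
    intro u hu
    obtain ⟨u1, x, v1, k, h1, h2, h3, rfl⟩ := hfree u hu
    refine Language.mem_mul.2 ⟨u1 ++ pw x k, ⟨u1, x, k, by omega, by omega, rfl⟩, v1, ?_, ?_⟩
    · refine Language.mem_mul.2 ⟨v1, ⟨v1, [], 0, by omega, by simp, ?_⟩, [], ?_, by simp⟩
      · simp [BddReg_746.pw]
      · exact rfl
    · rfl
  have hXXiff : ∀ X, g.XX X ↔ P4_933.XX Wo g.z X := by
    intro X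
    constructor
    · rintro ⟨h1, h2, h3⟩
      exact ⟨h2, h1, fun t h4 h5 => h3 t h5 h4⟩
    · rintro ⟨h2, h1, h3⟩
      exact ⟨h1, h2, fun t h4 h5 => h3 t h5 h4⟩
  have hCT : ∀ x y, HL 1 ({X | X ∈ C ∧ act x (X.map φ).prod +
      nuT φ act p0 (fun X => nu2 X 1) nu X = y} : Language α) := by
    intro x y
    have h1 : Language.IsRegular ({X | act x (X.map φ).prod +
        nuT φ act p0 (fun X => nu2 X 1) nu X = y} : Language α) := by
      refine reg_key φ A M0 hM0pos (fun X => act x (X.map φ).prod +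
        nuT φ act p0 (fun X => nu2 X 1) nu X = y) ?_
      intro u u' h1 h2 h3 h4 h5
      have e1 := key u u' h1 h2 h3 h5 0 (by omega)
      rw [List.drop_zero, List.drop_zero] at e1
      show (_ = y) ↔ (_ = y)
      rw [e1, keyN u u' h1 h2 h3 h4 h5]
    refine (P4_933.hl_XX (z := g.z) hLW.app hLW.len hfr h1).congr fun w => ?_
    constructor
    · rintro ⟨h2, h3⟩; exact ⟨(hXXiff w).1 h2, h3⟩
    · rintro ⟨h2, h3⟩; exact ⟨(hXXiff w).2 h2, h3⟩
  have hBT : ∀ x y, HL 1 ({X | X ∈ Bad ∧ act x (X.map φ).prod +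
      nuT φ act p0 (fun X => nu2 X 1) nu X = y} : Language α) := by
    intro x y
    have h1 : Language.IsRegular ({X | g.BadX BT X ∧ act x (X.map φ).prod +
        nuT φ act p0 (fun X => nu2 X 1) nu X = y} : Language α) := by
      refine reg_key φ A M0 hM0pos (fun X => g.BadX BT X ∧ act x (X.map φ).prod +
        nuT φ act p0 (fun X => nu2 X 1) nu X = y) ?_
      intro u u' h1 h2 h3 h4 h5
      have e1 := key u u' h1 h2 h3 h5 0 (by omega)
      rw [List.drop_zero, List.drop_zero] at e1
      show (_ ∧ _ = y) ↔ (_ ∧ _ = y)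
      rw [e1, keyN u u' h1 h2 h3 h4 h5]
      exact and_congr_left fun _ => ⟨keyB u u' h1 h2 h3 h4, keyB u' u h2 h1 h3.symm h4.symm⟩
    refine (P4_933.hl_XX (z := g.z) hLW.app hLW.len hfr h1).congr fun w => ?_
    constructor
    · rintro ⟨⟨h2, h4⟩, h3⟩; exact ⟨(hXXiff w).1 h2, h4, h3⟩
    · rintro ⟨h2, h4, h3⟩; exact ⟨⟨(hXXiff w).2 h2, h4⟩, h3⟩
  have htail : ∀ s', HL 1 ({w | (∀ X ∈ C, ¬ X <+: w) ∧ (w.map φ).prod = s'} : Language α) := by
    intro s'
    have h1 : Language.IsRegular ({w | (w.map φ).prod = s'} : Language α) := by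
      refine reg_key φ 0 1 one_pos (fun w => (w.map φ).prod = s') ?_
      intro u u' _ _ _ _ h5
      rw [List.drop_zero, List.drop_zero] at h5
      show (_ = s') ↔ (_ = s')
      rw [h5]
    refine (P4_933.hl_NB (z := g.z) hLW.app hLW.len hfr h1).congr fun w => ?_
    constructor
    · rintro ⟨h2, h3⟩
      refine ⟨(P4_933.NB_iff Wo g.z w).2 fun P hP hX => h2 P ((hXXiff P).2 hX) hP, h3⟩
    · rintro ⟨h2, h3⟩
      exact ⟨fun X hX hP => (P4_933.NB_iff Wo g.z w).1 h2 X hP ((hXXiff X).1 hX), h3⟩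
  refine Top5_120.top5 act hadd hone hmul hfaith φ
    (nuT φ act p0 (fun X => nu2 X 1) nu) C Bad hPC (fun X hX => hX.1) L1 L2 ?_ ?_ hCT hBT htail
    ?_ ?_ s
  · intro v
    refine (List.finite_length_le α (p0 + N1)).subset ?_
    rintro P ⟨h1, h2⟩
    have h3 := hlen _ _ h2
    rw [List.length_drop] at h3
    have h4 : g.p0 = p0 := rfl
    show P.length ≤ p0 + N1
    omega
  · intro v
    refine (List.finite_length_le α p0).subset ?_
    rintro P ⟨k, hk, h1, h2⟩
    show P.length ≤ p0
    rw [h1]; exact hcp k hk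
  · intro X hX hXB v
    have hnb : ¬ g.BadX BT X := fun h => hXB ⟨hX, h⟩
    have hE : ¬ g.E X := fun h => hnb (Or.inl h)
    have hB' : ¬ BadN Ms M b m (X.length - p0) := fun h => hnb (Or.inr h)
    have hXl : (X.drop g.p0).length = X.length - p0 := List.length_drop
    obtain ⟨P, Q, b', h1, h2, h3⟩ := g.complete1 pre (lam := lam) (rho := rho) hlen' hX hE (fun u => by
      obtain ⟨P, Q, h4, h5, v', h6⟩ := hcompl (X.drop g.p0)
        (fun k hk hd => hB' (Or.inl ⟨k, hk, by rw [← hXl]; exact hd⟩))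
        (fun j hj => by
          by_contra h
          exact hB' (Or.inr ⟨j, hj, by rw [← hXl]; exact h⟩)) u
      exact ⟨P, Q, h4, h5, by rw [h6]; rfl⟩) v
    refine ⟨P, Q, h1.symm, h2, fun x P' hP' => ?_⟩
    obtain ⟨h4, h5⟩ := g.sound1 pre pst hlen' hsound' hP' h3
    obtain ⟨h6, h7⟩ := g.sound1 pre pst hlen' hsound' h2 h3
    refine ⟨h4, ?_⟩
    rw [← hT, ← hT, h5, h1, h7]
  · intro X hX Y hY v
    have hgap' : ∀ P Q : List α, g.Wo P → g.Wo (P ++ Q) → Q ≠ [] →
        2 * g.p0 + 2 * g.N1 < Q.length := by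
      intro P Q h1 h2 h3
      have h4 : 0 < Q.length := List.length_pos_iff.2 h3
      have h5 := hgap (P ++ Q) P.length (P ++ Q).length (by simp; omega) le_rfl
        (by rw [List.take_left]; exact h1) (by rw [List.take_length]; exact h2)
      rw [List.length_append] at h5
      show 2 * p0 + 2 * N1 < Q.length
      omega
    have hsp : ∀ k k' l l', k < K → k' < K → l < K → l' < K → k' ≠ k → l' ≠ l →
        c k + c l' < c l + c k' + 2 * g.N1 → c l + c k' < c k + c l' + 2 * g.N1 → k = l := by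
      intro k k' l l' _ _ _ _ h1 h2 h3 h4
      have e1 : c k + c l' = Xn * (2 ^ k + 2 ^ l') := by simp only [hc]; ring
      have e2 : c l + c k' = Xn * (2 ^ l + 2 ^ k') := by simp only [hc]; ring
      rw [e1, e2] at h3 h4
      have hg1 : g.N1 = N1 := rfl
      have h5 : 2 ^ k + 2 ^ l' = 2 ^ l + 2 ^ k' := by
        rcases Nat.lt_trichotomy (2 ^ k + 2 ^ l') (2 ^ l + 2 ^ k') with h | h | h
        · exfalso
          have : Xn * (2 ^ k + 2 ^ l' + 1) ≤ Xn * (2 ^ l + 2 ^ k') := Nat.mul_le_mul_left _ h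
          rw [mul_add, mul_one] at this
          omega
        · exact h
        · exfalso
          have : Xn * (2 ^ l + 2 ^ k' + 1) ≤ Xn * (2 ^ k + 2 ^ l') := Nat.mul_le_mul_left _ h
          rw [mul_add, mul_one] at this
          omega
      rcases FinA_97.pw k l' l k' h5 with h6 | h6
      · exact h6
      · exact absurd h6.symm h1
    have hthin' : ∀ τ, g.z ≤ τ + g.p0 → ∀ J : Finset ℕ, (∀ k ∈ J, k < K ∧
        ∃ k', k' < K ∧ k' ≠ k ∧ BT (τ + c k' - c k - g.p0)) → J.card ≤ r + m := by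
      intro τ hτ J hJ
      have hg1 : g.p0 = p0 := rfl
      choose! f hf using fun k hk => (hJ k hk).2
      have h1 := hthin ((τ : ℤ) - p0)
      refine le_trans ?_ (h1.trans (by omega))
      refine Finset.card_le_card_of_injOn (fun k => (f k, k)) ?_ ?_
      · intro k hk
        obtain ⟨h2, h3, h4⟩ := hf k hk
        have hkK := (hJ k hk).1
        refine Finset.mem_coe.2 (Finset.mem_filter.2 ⟨Finset.mem_product.2
          ⟨Finset.mem_range.2 h2, Finset.mem_range.2 hkK⟩, h3, ?_⟩)
        have h5 := badN_thin hb h4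
        have h6 : ((τ + c (f k) - c k - g.p0 : ℕ) : ℤ) =
            (τ : ℤ) - p0 + X0 * 2 ^ (f k) - X0 * 2 ^ k := by
          have h7 := hcp k hkK
          have h8 : c k + p0 ≤ τ := by omega
          rw [hg1]
          have e1 : ((c (f k) : ℕ) : ℤ) = X0 * 2 ^ (f k) := by
            simp only [hc]; push_cast; rw [hXc]
          have e2 : ((c k : ℕ) : ℤ) = X0 * 2 ^ k := by
            simp only [hc]; push_cast; rw [hXc]
          rw [← e1, ← e2]
          omega
        rw [h6] at h5
        exact h5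
      · intro k _ k' _ h
        exact congrArg Prod.snd h
    have hXl : g.z ≤ X.length := hX.1.1
    have hg1 : g.p0 = p0 := rfl
    have hI : ∃ I : Finset ℕ, 2 * (r + m) + 2 ≤ I.card ∧ ∀ k ∈ I, k < K ∧
        lam2 k (X.take (c k)) = some v ∧ (rho2' k ((X.take g.p0).drop (c k))).isSome := by
      obtain ⟨I, h1, h2⟩ := hc2 (X.take p0) 1 v (fun k hk => by
        rw [List.length_take]
        have := hcp k hk
        omega)
      refine ⟨I, h1, fun k hk => ?_⟩
      obtain ⟨h3, h4, h5⟩ := h2 k hk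
      refine ⟨h3, ?_, h5⟩
      rw [List.take_take, min_eq_left (hcp k h3)] at h4
      exact h4
    obtain ⟨P, Q, b', h1, h2, h3⟩ := g.complete2 pre pst hcp hgap' hsp hthin' hX.1 hY.1 v hI
    have hval : g.T pre pst (g.T pre pst v X) Y = b' := by
      obtain ⟨X2, h4, h5, h6⟩ := g.sound2 pre pst hcp hex2 hX.1 hX.2 h2 h3
        (R := []) (R' := Y) (by rw [List.append_nil, h1])
      have h7 : X2 = Y := by
        have : X ++ X2 = X ++ Y := by rw [← h5, h1]
        exact List.append_cancel_left this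
      rw [← h7]; exact h6
    refine ⟨P, Q, h1, h2, fun x P' hP' => ?_⟩
    simp only [← hT]
    rw [hval]
    have h3' := h3
    obtain ⟨k, hk, l, hl, hoth, hXQ, -⟩ := h3'
    have hP'' := hP'
    obtain ⟨k', hk', hP'l, -⟩ := hP''
    by_cases hkk : k' = k
    · subst hkk
      have hce : g.CEnd Q P'.length l := by rw [hP'l]; exact hl
      have hxx : g.XX (P' ++ Q.take l) := g.xx_of_cend (by rw [hP'l]; exact hcp k' hk') hce
      by_cases hbad : g.BadX BT (P' ++ Q.take l)
      · left
        obtain ⟨X2, h4, h5, h6⟩ := g.sound2 pre pst hcp hex2 hxx hbad hP' h3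
          (R := []) (R' := Q.drop l)
          (by rw [List.append_nil, List.append_assoc, List.take_append_drop])
        exact ⟨P' ++ Q.take l, ⟨hxx, hbad⟩, X2, h4, h5.symm, h6⟩
      · right
        exact ⟨P' ++ Q.take l, hxx, fun h => hbad h.2,
          ⟨Q.drop l, by rw [List.append_assoc, List.take_append_drop]⟩⟩
    · right
      obtain ⟨l', hl', hgood⟩ := hoth k' hk' hkk
      have hce : g.CEnd Q P'.length l' := by rw [hP'l]; exact hl'
      have hxx : g.XX (P' ++ Q.take l') := g.xx_of_cend (by rw [hP'l]; exact hcp k' hk') hce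
      refine ⟨P' ++ Q.take l', hxx, fun h => hgood ?_,
        ⟨Q.drop l', by rw [List.append_assoc, List.take_append_drop]⟩⟩
      have := g.cbad_of_bad (BadT := BT) (by rw [hP'l]; exact hcp k' hk') hce h.2
      rw [hP'l] at this
      exact this

end Crest.Agent.R320.FinB_97
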