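import Crest.Agent.R320.FinA_975
import Crest.Agent.R320.Top5_120
import Crest.Agent.R320.Sc2n_937
import Crest.Agent.R320.LWallAll_922
import Crest.Agent.R320.P4_933
import Crest.Agent.R320.ExactR_237
import Crest.Agent.R320.Bridge_975

/-!
Row 320, join: local noise of the grid gadget.
-/

set_option autoImplicit false

namespace Crest.Agent.R320.Fin_975

open Crest.RegLang Crest.Agent.R320.Hk_851

section Noise

variable {α S V : Type} [Monoid S] [AddCommGroup V]

open Classical in
/-- the noise, put to `0` where no split is legal -/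
noncomputable def nuC (lam rho : List α → Option V) (nu : List α → V) (u : List α) : V :=
  if ∃ P Q v b, u = P ++ Q ∧ lam P = some v ∧ rho Q = some b then nu u else 0

theorem nuC_of {lam rho : List α → Option V} {nu : List α → V} {P Q : List α} {v b : V}
    (h1 : lam P = some v) (h2 : rho Q = some b) : nuC lam rho nu (P ++ Q) = nu (P ++ Q) := by
  unfold nuC
  rw [if_pos ⟨P, Q, v, b, rfl, h1, h2⟩]

/-- factor of a prefix -/
theorem dt {X X' : List α} {L i j : ℕ} (h : X.take L = X'.take L) (hij : i + j ≤ L) :
    (X.drop i).take j = (X'.drop i).take j := by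
  have e : ∀ Y : List α, (Y.drop i).take j = ((Y.take L).drop i).take j := by
    intro Y
    rw [List.drop_take, List.take_take, min_eq_left (by omega)]
  rw [e X, e X', h]

theorem ph_drop {ph : List α → S} (hph : ∀ u v, ph (u ++ v) = ph u * ph v) {X X' : List α}
    {L i : ℕ} (h : X.take L = X'.take L) (hi : i ≤ L) (hX : L ≤ X.length) (hX' : L ≤ X'.length)
    (hd : ph (X.drop L) = ph (X'.drop L)) : ph (X.drop i) = ph (X'.drop i) := by
  have e : ∀ Y : List α, L ≤ Y.length → Y.drop i = (Y.take L).drop i ++ Y.drop L := by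
    intro Y hY
    conv_lhs => rw [← List.take_append_drop L Y]
    rw [List.drop_append_of_le_length]
    rw [List.length_take]; omega
  rw [e X hX, e X' hX', hph, hph, h, hd]

theorem nuC_local {ph : List α → S} (hph : ∀ u v, ph (u ++ v) = ph u * ph v) {act : V → S → V}
    {A M : ℕ} {lam rho : List α → Option V} {nu : List α → V}
    (hlen : ∀ P v, lam P = some v → P.length ≤ A)
    (hs : ∀ P Q v b, lam P = some v → rho Q = some b → b = act v (ph (P ++ Q)) + nu (P ++ Q))
    (hloc : ∀ Q Q' : List α, A ≤ Q.length → A ≤ Q'.length → Q.take A = Q'.take A →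
      ph (Q.drop A) = ph (Q'.drop A) → Q.length ≡ Q'.length [MOD M] → rho Q = rho Q')
    {u u' : List α} (h1 : 2 * A ≤ u.length) (h2 : 2 * A ≤ u'.length)
    (ht : u.take (2 * A) = u'.take (2 * A)) (hm : u.length ≡ u'.length [MOD M])
    (hp : ph (u.drop (2 * A)) = ph (u'.drop (2 * A))) :
    nuC lam rho nu u = nuC lam rho nu u' := by
  classical
  have key : ∀ {u u' : List α}, 2 * A ≤ u.length → 2 * A ≤ u'.length →
      u.take (2 * A) = u'.take (2 * A) → u.length ≡ u'.length [MOD M] →
      ph (u.drop (2 * A)) = ph (u'.drop (2 * A)) → ∀ P Q v b, u = P ++ Q → lam P = some v →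
      rho Q = some b → ∃ Q', u' = P ++ Q' ∧ rho Q' = some b := by
    intro u u' h1 h2 ht hm hp P Q v b hu hl hr
    have hPl := hlen P v hl
    have hP : P = u'.take P.length := by
      have e1 : P = u.take P.length := by rw [hu, List.take_left']; rfl
      have e2 := dt (i := 0) (j := P.length) ht (by omega)
      rw [List.drop_zero, List.drop_zero] at e2
      exact e1.trans e2
    have hQ : Q = u.drop P.length := by rw [hu, List.drop_left']; rfl
    refine ⟨u'.drop P.length, ?_, ?_⟩
    · conv_lhs => rw [← List.take_append_drop P.length u']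
      rw [← hP]
    · rw [← hr, hQ]
      symm
      apply hloc
      · rw [List.length_drop]; omega
      · rw [List.length_drop]; omega
      · exact dt ht (by omega)
      · rw [List.drop_drop, List.drop_drop]
        exact ph_drop hph ht (by omega) h1 h2 hp
      · rw [List.length_drop, List.length_drop]
        apply Nat.ModEq.add_right_cancel' P.length
        rw [Nat.sub_add_cancel (by omega), Nat.sub_add_cancel (by omega)]
        exact hm
  have hpu : ph u = ph u' := by
    have := ph_drop hph (i := 0) ht (by omega) h1 h2 hp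
    rwa [List.drop_zero, List.drop_zero] at this
  by_cases hex : ∃ P Q v b, u = P ++ Q ∧ lam P = some v ∧ rho Q = some b
  · obtain ⟨P, Q, v, b, rfl, hl, hr⟩ := hex
    obtain ⟨Q', rfl, hr'⟩ := key h1 h2 ht hm hp P Q v b rfl hl hr
    rw [nuC_of hl hr, nuC_of hl hr']
    have e1 := hs P Q v b hl hr
    have e2 := hs P Q' v b hl hr'
    rw [hpu] at e1
    have e3 := e1.symm.trans e2
    exact add_left_cancel e3
  · have hex' : ¬ ∃ P Q v b, u' = P ++ Q ∧ lam P = some v ∧ rho Q = some b := by
      rintro ⟨P, Q, v, b, hu, hl, hr⟩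
      obtain ⟨Q', h3, h4⟩ := key h2 h1 ht.symm hm.symm hp.symm P Q v b hu hl hr
      exact hex ⟨P, Q', v, b, h3, hl, h4⟩
    unfold nuC
    rw [if_neg hex, if_neg hex']

end Noise

end Crest.Agent.R320.Fin_975
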