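import Crest.Agent.R320.FinB_147

set_option autoImplicit false

namespace Crest.Agent.R320.Fin_147

open Crest.RegLang Crest.Agent.R320.Hk_851 Crest.Agent.R320.Sc2n_937
open Crest.Agent.R320.Grid_390 (Am G Am_mono G_pos)

open Classical in
theorem hthin_of {k m K Ms κ : ℕ} {q : Fin k → ℕ} {X : ℕ} {z p0 : ℕ}
    (hthin : ∀ T : ℤ,
      (((Finset.range K) ×ˢ (Finset.range K)).filter (fun p => p.1 ≠ p.2 ∧
        Thin963.BadT (Finset.univ.image q) m (fun i => (G κ i : ℤ)) (fun i => (Ms : ℤ) * G κ i)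
          (fun i => (Am Ms κ i : ℤ)) (T + (X : ℤ) * 2^p.1 - (X : ℤ) * 2^p.2))).card ≤
        (Finset.univ.image q).card + m)
    (hc : ∀ j, j < K → X * 2 ^ j ≤ p0) (hz : 3 * p0 + Am Ms κ m ≤ z) (τ : ℕ)
    (hτ : z ≤ τ + p0) (J : Finset ℕ)
    (hJ : ∀ i ∈ J, i < K ∧ ∃ i', i' < K ∧ i' ≠ i ∧ BadN q Ms κ m (τ + X * 2 ^ i' - X * 2 ^ i - p0)) :
    J.card ≤ k + m := by
  classical
  have hk : (Finset.univ.image q).card ≤ k := by
    refine le_trans Finset.card_image_le ?_
    simp
  refine le_trans ?_ (le_trans (hthin ((τ : ℤ) - p0)) (Nat.add_le_add_right hk m))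
  have hch : ∀ i, ∃ i', i ∈ J → (i' < K ∧ i' ≠ i ∧ BadN q Ms κ m (τ + X * 2 ^ i' - X * 2 ^ i - p0)) := by
    intro i
    by_cases hi : i ∈ J
    · obtain ⟨_, i', h⟩ := hJ i hi
      exact ⟨i', fun _ => h⟩
    · exact ⟨0, fun h => absurd h hi⟩
  choose f hf using hch
  refine Finset.card_le_card_of_injOn (fun i => (f i, i)) ?_ ?_
  · intro i hi
    have hi' : i ∈ J := hi
    obtain ⟨h1, h2, h3⟩ := hf i hi'
    have hiK := (hJ i hi').1
    have b1 := hc i hiK
    have b2 := hc _ h1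
    simp only [Finset.coe_filter, Finset.mem_product, Finset.mem_range, Set.mem_setOf_eq]
    refine ⟨⟨h1, hiK⟩, h2, ?_⟩
    have h4 := badN_thin (by omega) h3
    have e : ((τ + X * 2 ^ f i - X * 2 ^ i - p0 : ℕ) : ℤ) =
        (τ : ℤ) - p0 + (X : ℤ) * 2 ^ f i - (X : ℤ) * 2 ^ i := by
      rw [Nat.cast_sub (by omega), Nat.cast_sub (by omega)]
      push_cast; ring
    rw [e] at h4
    exact h4
  · intro i _ i' _ h
    simpa using (congrArg Prod.snd h)

/-- **S0495 for one finite monoid, alphabet in `Type`.** -/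
theorem fin (α : Type) [Finite α] (S : Type) [Monoid S] [Finite S] (φ : α → S) (s : S) :
    HL 3 ({w | (w.map φ).prod = s} : Language α) := by
  classical
  obtain ⟨act, hadd, hone, hmul, hfaith⟩ := Blk467.exists_module S
  haveI : Fintype S := Fintype.ofFinite S
  haveI : Fintype (S → ZMod 2) := Fintype.ofFinite _
  obtain ⟨k, m, hgrid⟩ := Grid_390.grid_gadget S (S → ZMod 2) act
  obtain ⟨K, hK2⟩ := ExactR_237.exact_gadget α S (S → ZMod 2) φ act (2 * (k + m) + 2)
  obtain ⟨Nq, hNq1, hNq2⟩ : ∃ Nq, 2 ^ (K + 1) ≤ Nq ∧ 2 ≤ Nq := ⟨2 ^ (K + 1) + 2, by simp, by simp⟩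
  obtain ⟨q, hqinj, hq⟩ := exists_primes k Nq
  set Ms := ∏ j, q j with hMs
  have hqd : ∀ j, q j ∣ Ms := fun j => Finset.dvd_prod_of_mem _ (Finset.mem_univ j)
  have hMs0 : 0 < Ms := Finset.prod_pos fun j _ => (hq j).1.pos
  have hodd : ∀ j, Odd (q j) := fun j => (hq j).1.odd_of_ne_two (by have := (hq j).2; omega)
  have hcop : Pairwise (fun i j => Nat.Coprime (q i) (q j)) := fun i j hij =>
    (Nat.coprime_primes (hq i).1 (hq j).1).2 fun h => hij (hqinj h)
  obtain ⟨κ, hκ⟩ : ∃ κ, κ = K + 5 + Ms := ⟨_, rfl⟩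
  have hphi : ∀ u v : List α, ((u ++ v).map φ).prod = (u.map φ).prod * (v.map φ).prod := by
    intro u v; rw [List.map_append, List.prod_append]
  obtain ⟨lam, rho, nu1, g1, g2, g3, g4, g5⟩ := hgrid q hodd hcop κ α (fun u => (u.map φ).prod) hphi
  rw [← hMs] at g1 g2 g4 g5
  obtain ⟨N1, hN1⟩ : ∃ N1, N1 = Am Ms κ m + 1 := ⟨_, rfl⟩
  -- the ruler
  obtain ⟨XX0, hX0, hXpos, hthin⟩ := Thin963.thin K m (Finset.univ.image q)
    (fun i => (G κ i : ℤ)) (fun i => (Ms : ℤ) * G κ i) (fun i => (Am Ms κ i : ℤ))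
    (by
      intro x hx
      obtain ⟨j, -, rfl⟩ := Finset.mem_image.1 hx
      exact ⟨(hq j).1, le_trans hNq1 (hq j).2.le⟩)
    (by
      intro x hx
      obtain ⟨j, -, rfl⟩ := Finset.mem_image.1 hx
      have h1 : Nat.Coprime (q j) (G κ m) := by
        unfold G
        apply Nat.Coprime.pow_right
        exact (Nat.coprime_primes (hq j).1 Nat.prime_two).2 (by have := (hq j).2; omega)
      exact Nat.isCoprime_iff_coprime.2 h1)
    (by have := G_pos (κ := κ) m; exact_mod_cast this)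
    (fun i j hij => by exact_mod_cast Grid_390.G_dvd hij)
    (fun i => by have := G_pos (κ := κ) i; positivity)
    (fun i => Dvd.dvd.mul_left dvd_rfl _)
    (by
      intro i _
      have := grow (K := K) (Ms := Ms) hκ i
      exact_mod_cast this)
    (2 * (N1 : ℤ) + 1)
  obtain ⟨X, rfl⟩ : ∃ X : ℕ, XX0 = (X : ℤ) := ⟨XX0.toNat, by omega⟩
  have hXN : 2 * N1 < X := by omega
  obtain ⟨p0, hp0⟩ : ∃ p0, p0 = X * 2 ^ K := ⟨_, rfl⟩
  have hcp : ∀ j, j < K → X * 2 ^ j ≤ p0 := fun j hj => by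
    rw [hp0]; exact Nat.mul_le_mul_left _ (Nat.pow_le_pow_right (by norm_num) hj.le)
  obtain ⟨lam2, rho2, nu2, e1, e2⟩ := hK2 (fun j => X * 2 ^ j) (by
    intro i j hij _
    exact Nat.mul_lt_mul_of_pos_left (Nat.pow_lt_pow_right (by norm_num) hij) (by omega))
  -- walls
  obtain ⟨n, -, B, Wo, hLW, hgap, -, -, hfree⟩ := LWallAll_922.walls_all_left α (2 * p0 + 2 * N1 + 1)
    (by omega)
  obtain ⟨q0, hq0⟩ : ∃ q0, q0 = n + 3 * p0 + 2 * Am Ms κ (m + 1) + Am Ms κ m + 1 := ⟨_, rfl⟩
  let g : Geo α :=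
    { Wo := Wo, n := n, z := p0 + N1 + q0, p0 := p0, q0 := q0, N1 := N1
      loc := hLW.app, hz := rfl, hq := by omega, hN := by omega, hqp := by omega }
  let pre : List α → (S → ZMod 2) → (S → ZMod 2) := fun X1 v => act v (X1.map φ).prod + nu2 X1 1
  let post : (S → ZMod 2) → List α → (S → ZMod 2) := fun u Y => act u (Y.map φ).prod + nu1 Y
  let BadT : ℕ → Prop := BadN q Ms κ m
  let nu : List α → (S → ZMod 2) := fun X =>
    act (nu2 (X.take p0) 1) ((X.drop p0).map φ).prod + nu1 (X.drop p0)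
  have hT : ∀ v X, act v (X.map φ).prod + nu X = g.T pre post v X := by
    intro v X
    show act v (X.map φ).prod + (act (nu2 (X.take p0) 1) ((X.drop p0).map φ).prod + nu1 (X.drop p0))
      = act (act v ((X.take p0).map φ).prod + nu2 (X.take p0) 1) ((X.drop p0).map φ).prod
        + nu1 (X.drop p0)
    rw [hadd, ← hmul, ← hphi, List.take_append_drop, add_assoc]
  let C : Set (List α) := {X | g.XX X}
  let Bad : Set (List α) := {X | g.XX X ∧ g.BadX BadT X}
  have hPC : Blk467.PCode C := by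
    refine ⟨fun h => ?_, fun X hX Y hY h => ?_⟩
    · have h1 : p0 + N1 + q0 ≤ ([] : List α).length := h.1
      simp at h1
      omega
    · obtain ⟨R, rfl⟩ := h
      exact g.prefix_code (R := R) (R' := []) hX hY (by simp)
  have hlen : ∀ P v, lam P = some v → P.length ≤ g.N1 := by
    intro P v h
    have := (g1 P v h).1
    show P.length ≤ N1
    omega
  have hex : ∀ P Q u b, lam P = some u → rho Q = some b → b = post u (P ++ Q) := g3
  have hcc1 : ∀ X ∈ C, X ∉ Bad → ∀ v, ∃ P Q, P ++ Q = X ∧ P ∈ ({P | g.LP1 pre lam v P} : Set (List α)) ∧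
      ∀ x, ∀ P' ∈ ({P | g.LP1 pre lam x P} : Set (List α)), P' ++ Q ∈ C ∧
        act x ((P' ++ Q).map φ).prod + nu (P' ++ Q) = act v (X.map φ).prod + nu X := by
    intro X hX hXb v
    obtain ⟨P, Q, e, hP, h⟩ := hcc1_of g pre post (BadT := BadT) hlen hex (by
      intro Y hY hb u
      have hY' : N1 + q0 ≤ Y.length := hY
      refine g4 Y (by omega) (fun j hj => hb (Or.inl ⟨j, hj⟩)) ?_ u
      intro j h1 h2
      by_contra hc
      exact hb (Or.inr ⟨j, h1, h2, hc⟩)) hX (fun h => hXb ⟨hX, h⟩) v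
    refine ⟨P, Q, e, hP, fun x P' hP' => ?_⟩
    obtain ⟨h1, h2⟩ := h x P' hP'
    exact ⟨h1, by rw [hT, hT]; exact h2⟩
  have hgap' : ∀ P Q : List α, g.Wo P → g.Wo (P ++ Q) → Q ≠ [] →
      2 * g.p0 + 2 * g.N1 < Q.length := by
    intro P Q h1 h2 h3
    have h4 := List.length_pos_of_ne_nil h3
    have := hgap (P ++ Q) P.length (P ++ Q).length (by rw [List.length_append]; omega) le_rfl
      (by rw [List.take_left]; exact h1) (by rw [List.take_length]; exact h2)
    rw [List.length_append] at this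
    show 2 * p0 + 2 * N1 < Q.length
    omega
  have hcc2 : ∀ X1 ∈ Bad, ∀ Y ∈ Bad, ∀ v, ∃ P Q, P ++ Q = X1 ++ Y ∧
      P ∈ ({P | Geo.LP2 K (fun j => X * 2 ^ j) lam2 v P} : Set (List α)) ∧
      ∀ x, ∀ P' ∈ ({P | Geo.LP2 K (fun j => X * 2 ^ j) lam2 x P} : Set (List α)),
        (∃ X' ∈ Bad, ∃ Y' ∈ C, X' ++ Y' = P' ++ Q ∧
          act (act x (X'.map φ).prod + nu X') (Y'.map φ).prod + nu Y' =
            act (act v (X1.map φ).prod + nu X1) (Y.map φ).prod + nu Y) ∨
        (∃ X' ∈ C, X' ∉ Bad ∧ X' <+: P' ++ Q) := by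
    intro X1 hX1 Y hY v
    obtain ⟨P, Q, e, hP, h⟩ := hcc2_of g pre post (BadT := BadT) (K := K)
      (c := fun j => X * 2 ^ j) (lam2 := lam2) (rho2 := fun j Q => rho2 j Q 1) (C0 := k + m)
      hcp
      (by
        intro j hj P Q v u hP _ h1 h2
        have := e1 j hj P Q 1 v u hP h1 h2
        rw [mul_one] at this
        exact this)
      hgap'
      (by
        intro a a' b b' _ _ _ _ h1 h2 h3 h4
        exact hsp_of hXN a a' b b' h1 h2 h3 h4)
      (by
        intro τ hτ J hJ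
        exact hthin_of (z := p0 + N1 + q0) hthin hcp (by omega) τ hτ J hJ)
      (by
        intro u v hu
        have hu' : u.length = p0 := hu
        obtain ⟨I, h1, h2⟩ := e2 u 1 v (fun j hj => by rw [hu']; exact hcp j hj)
        exact ⟨I, h1, h2⟩)
      hX1.1 hX1.2 hY.1 v
    refine ⟨P, Q, e, hP, fun x P' hP' => ?_⟩
    rcases h x P' hP' with ⟨X', hX', Y', hY', e', ht⟩ | ⟨X', hX', hnb, hpre⟩
    · left
      refine ⟨X', hX', Y', hY', e', ?_⟩
      rw [hT, hT, hT, hT]; exact ht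
    · right
      exact ⟨X', hX', fun h' => hnb h'.2, hpre⟩
  -- the languages of height one
  have hfree' : ∀ u : List α, (∀ t < u.length, ¬ Wo (u.take t)) →
      u ∈ (BddReg_746.PN (B + (2 * p0 + 2 * N1 + 1)) 2 : Language α) := by
    intro u hu
    obtain ⟨a, x, b, j, h1, h2, h3, h4⟩ := hfree u hu
    rw [h4]
    refine Language.mem_mul.2 ⟨a ++ BddReg_746.pw x j, ⟨a, x, j, by omega, by omega, rfl⟩, b, ?_, rfl⟩
    exact Language.mem_mul.2 ⟨b, ⟨b, [], 0, by omega, by simp, by simp [BddReg_746.pw]⟩, [], rfl, by simp⟩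
  set La := p0 + N1 + q0 + N1 + 1 with hLa
  have hMG : 0 < Ms * G κ m := Nat.mul_pos hMs0 (G_pos _)
  -- the token map is local
  have hnu : ∀ u u' : List α, La ≤ u.length → La ≤ u'.length → u.take La = u'.take La →
      u.length % (Ms * G κ m) = u'.length % (Ms * G κ m) →
      ((u.drop La).map φ).prod = ((u'.drop La).map φ).prod →
      nu u = nu u' ∧ (u.map φ).prod = (u'.map φ).prod ∧ (g.BadX BadT u ↔ g.BadX BadT u') := by
    intro u u' hu hu' ht hl hp
    have htk : ∀ t, t ≤ La → u.take t = u'.take t := by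
      intro t h
      have := congrArg (List.take t) ht
      rwa [List.take_take, List.take_take, Nat.min_eq_left h] at this
    have hmod : (u.length - p0) % (Ms * G κ m) = (u'.length - p0) % (Ms * G κ m) := by
      have h5 : (u.length - p0) + p0 ≡ (u'.length - p0) + p0 [MOD (Ms * G κ m)] := by
        rw [Nat.sub_add_cancel (by omega), Nat.sub_add_cancel (by omega)]; exact hl
      exact Nat.ModEq.add_right_cancel' _ h5
    have hdr : ∀ t, t ≤ La → ((u.drop t).map φ).prod = ((u'.drop t).map φ).prod := by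
      intro t h
      have ea : ∀ w : List α, w.drop t = (w.take La).drop t ++ w.drop La := by
        intro w
        conv_lhs => rw [← List.take_append_drop La w]
        rw [List.drop_append]
        congr 1
        rcases le_total La w.length with h6 | h6
        · have : t - (w.take La).length = 0 := by rw [List.length_take]; omega
          rw [this]; rfl
        · rw [List.drop_of_length_le h6]; simp
      rw [ea u, ea u', hphi, hphi, ht, hp]
    refine ⟨?_, ?_, ?_⟩
    · show act (nu2 (u.take p0) 1) ((u.drop p0).map φ).prod + nu1 (u.drop p0)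
        = act (nu2 (u'.take p0) 1) ((u'.drop p0).map φ).prod + nu1 (u'.drop p0)
      rw [htk p0 (by omega), hdr p0 (by omega)]
      congr 1
      refine (g5 _ _ ?_ ?_ ?_ ?_ ?_).2
      · rw [List.length_drop]; omega
      · rw [List.length_drop]; omega
      · have h6 := htk (p0 + Am Ms κ (m + 1)) (by omega)
        have h7 := congrArg (List.drop p0) h6
        rw [List.drop_take, List.drop_take] at h7
        rwa [Nat.add_sub_cancel_left] at h7
      · rw [List.length_drop, List.length_drop]; exact hmod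
      · rw [List.drop_drop, List.drop_drop]
        exact hdr _ (by omega)
    · have := hdr 0 (by omega)
      simpa using this
    · have hE : g.E u ↔ g.E u' := by
        constructor
        · rintro ⟨t, h1, h2, h3, h4⟩
          have h4' : t < p0 + N1 + q0 + N1 := h4
          exact ⟨t, by omega, by rw [← htk t (by omega)]; exact h2, h3, h4⟩
        · rintro ⟨t, h1, h2, h3, h4⟩
          have h4' : t < p0 + N1 + q0 + N1 := h4
          exact ⟨t, by omega, by rw [htk t (by omega)]; exact h2, h3, h4⟩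
      have hB : BadT (u.length - p0) ↔ BadT (u'.length - p0) :=
        badN_congr hqd (by omega) (by omega) hmod
      show (g.E u ∨ BadT (u.length - p0)) ↔ (g.E u' ∨ BadT (u'.length - p0))
      rw [hE, hB]
  have hXX : ∀ X1 : List α, g.XX X1 ↔ P4_933.XX Wo (p0 + N1 + q0) X1 := by
    intro X1
    constructor
    · rintro ⟨h1, h2, h3⟩
      exact ⟨h2, h1, fun t h4 h5 => h3 t h5 h4⟩
    · rintro ⟨h1, h2, h3⟩
      exact ⟨h2, h1, fun t h4 h5 => h3 t h5 h4⟩
  have hCT : ∀ x y, HL 1 ({X1 | X1 ∈ C ∧ act x (X1.map φ).prod + nu X1 = y} : Language α) := by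
    intro x y
    have hreg : Language.IsRegular ({u | act x (u.map φ).prod + nu u = y} : Language α) := by
      refine Loc_354.regular_of_local φ La (Ms * G κ m) hMG _ ?_
      intro u u' h1 h2 h3 h4 h5
      obtain ⟨h6, h7, -⟩ := hnu u u' h1 h2 h3 h4 h5
      show act x (u.map φ).prod + nu u = y ↔ act x (u'.map φ).prod + nu u' = y
      rw [h6, h7]
    refine (P4_933.hl_XX (z := p0 + N1 + q0) hLW.app hLW.len hfree' hreg).congr fun w => ?_
    show (g.XX w ∧ _) ↔ (P4_933.XX Wo (p0 + N1 + q0) w ∧ _)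
    rw [hXX]
  have hBT : ∀ x y, HL 1 ({X1 | X1 ∈ Bad ∧ act x (X1.map φ).prod + nu X1 = y} : Language α) := by
    intro x y
    have hreg : Language.IsRegular ({u | g.BadX BadT u ∧ act x (u.map φ).prod + nu u = y} :
        Language α) := by
      refine Loc_354.regular_of_local φ La (Ms * G κ m) hMG _ ?_
      intro u u' h1 h2 h3 h4 h5
      obtain ⟨h6, h7, h8⟩ := hnu u u' h1 h2 h3 h4 h5
      show (g.BadX BadT u ∧ act x (u.map φ).prod + nu u = y) ↔
        (g.BadX BadT u' ∧ act x (u'.map φ).prod + nu u' = y)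
      rw [h6, h7, h8]
    refine (P4_933.hl_XX (z := p0 + N1 + q0) hLW.app hLW.len hfree' hreg).congr fun w => ?_
    show ((g.XX w ∧ g.BadX BadT w) ∧ _) ↔ (P4_933.XX Wo (p0 + N1 + q0) w ∧ (g.BadX BadT w ∧ _))
    rw [hXX, and_assoc]
  have htail : ∀ s, HL 1 ({w | (∀ X1 ∈ C, ¬ X1 <+: w) ∧ (w.map φ).prod = s} : Language α) := by
    intro s
    have hreg : Language.IsRegular ({u | (u.map φ).prod = s} : Language α) := by
      refine Loc_354.regular_of_local φ 0 1 one_pos _ ?_
      intro u u' _ _ _ _ h5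
      show (u.map φ).prod = s ↔ (u'.map φ).prod = s
      rw [List.drop_zero, List.drop_zero] at h5
      rw [h5]
    refine (P4_933.hl_NB (z := p0 + N1 + q0) hLW.app hLW.len hfree' hreg).congr fun w => ?_
    show ((∀ X1 ∈ C, ¬ X1 <+: w) ∧ _) ↔ (P4_933.NB Wo (p0 + N1 + q0) w ∧ _)
    rw [P4_933.NB_iff]
    constructor
    · rintro ⟨h1, h2⟩
      exact ⟨fun X1 hp hX1 => h1 X1 ((hXX X1).2 hX1) hp, h2⟩
    · rintro ⟨h1, h2⟩
      exact ⟨fun X1 hX1 hp => h1 X1 hp ((hXX X1).1 hX1), h2⟩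
  refine Top5_120.top5 act hadd hone hmul hfaith φ nu C Bad hPC (fun X h => h.1)
    (fun v => {P | g.LP1 pre lam v P}) (fun v => {P | Geo.LP2 K (fun j => X * 2 ^ j) lam2 v P})
    ?_ ?_ hCT hBT htail hcc1 hcc2 s
  · intro v
    refine (List.finite_length_le α (p0 + N1)).subset ?_
    rintro P ⟨h1, h2⟩
    have h3 := hlen _ _ h2
    have h3' : (P.drop p0).length ≤ N1 := h3
    rw [List.length_drop] at h3'
    have h1' : p0 ≤ P.length := h1
    show P.length ≤ p0 + N1
    omega
  · intro v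
    refine (List.finite_length_le α p0).subset ?_
    rintro P ⟨j, hj, h1, -⟩
    show P.length ≤ p0
    rw [h1]; exact hcp j hj

end Crest.Agent.R320.Fin_147
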