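import Crest.Agent.R320.Top5_120
import Crest.Agent.R320.Sc2n_937
import Crest.Agent.R320.FinA_188
import Mathlib

/-! Row 320: the join of the two schemes with the top (helper188). -/

set_option autoImplicit false

namespace Crest.Agent.R320.FinC_188

open Crest.RegLang Crest.Agent.R320.Hk_851 Crest.Agent.R320.FinA_188 Crest.Agent.R320.Sc2n_937

/-- value of a word -/
def ph {α S : Type} [Monoid S] (φ : α → S) (w : List α) : S := (w.map φ).prod

theorem ph_app {α S : Type} [Monoid S] (φ : α → S) (u v : List α) :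
    ph φ (u ++ v) = ph φ u * ph φ v := by simp [ph]

theorem ph_drop {α S : Type} [Monoid S] (φ : α → S) {A i : ℕ} (hi : i ≤ A) (u : List α) :
    ph φ (u.drop i) = ph φ ((u.take A).drop i) * ph φ (u.drop A) := by
  rw [← ph_app]
  congr 1
  rw [List.drop_take]
  have e : u.drop A = (u.drop i).drop (A - i) := by
    rw [List.drop_drop]; congr 1; omega
  rw [e, List.take_append_drop]

theorem ph_all {α S : Type} [Monoid S] (φ : α → S) (A : ℕ) (u : List α) :
    ph φ u = ph φ (u.take A) * ph φ (u.drop A) := by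
  rw [← ph_app, List.take_append_drop]

theorem td {α : Type} {A i j : ℕ} (h : i + j ≤ A) (u : List α) :
    (u.drop i).take j = ((u.take A).drop i).take j := by
  rw [List.drop_take, List.take_take]
  congr 1
  omega

section
variable {α S V : Type} [Monoid S] [AddCommGroup V]

open Classical in
/-- noise of scheme 1, zero if there is no cut -/
noncomputable def nu1 (lam rho : List α → Option V) (nu : List α → V) (Y : List α) : V :=
  if ∃ P Q v b, Y = P ++ Q ∧ lam P = some v ∧ rho Q = some b then nu Y else 0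

theorem nu1_congr (act : V → S → V) (φ : α → S) {lam rho : List α → Option V} {nu : List α → V}
    {Na Nb Mq : ℕ}
    (g1 : ∀ P v, lam P = some v → P.length < Na)
    (g3 : ∀ P Q v b, lam P = some v → rho Q = some b → b = act v (ph φ (P ++ Q)) + nu (P ++ Q))
    (g5 : ∀ Q Q' : List α, Nb ≤ Q.length → Nb ≤ Q'.length → Q.take Nb = Q'.take Nb →
      ph φ (Q.drop Nb) = ph φ (Q'.drop Nb) → Q.length % Mq = Q'.length % Mq → rho Q = rho Q')
    {Y Y' : List α} (h1 : Na + Nb ≤ Y.length) (h2 : Na + Nb ≤ Y'.length)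
    (h3 : Y.take (Na + Nb) = Y'.take (Na + Nb)) (h4 : Y.length % Mq = Y'.length % Mq)
    (h5 : ph φ (Y.drop (Na + Nb)) = ph φ (Y'.drop (Na + Nb))) :
    nu1 lam rho nu Y = nu1 lam rho nu Y' := by
  have key : ∀ Y Y' : List α, Na + Nb ≤ Y.length → Na + Nb ≤ Y'.length →
      Y.take (Na + Nb) = Y'.take (Na + Nb) → Y.length % Mq = Y'.length % Mq →
      ph φ (Y.drop (Na + Nb)) = ph φ (Y'.drop (Na + Nb)) →
      (∃ P Q v b, Y = P ++ Q ∧ lam P = some v ∧ rho Q = some b) →
      (∃ P Q v b, Y' = P ++ Q ∧ lam P = some v ∧ rho Q = some b) ∧ nu Y' = nu Y := by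
    rintro Y Y' h1 h2 h3 h4 h5 ⟨P, Q, v, b, hY, hl, hr⟩
    have ha := g1 P v hl
    have hPQ : P = Y.take P.length := by rw [hY, List.take_left]
    have hQQ : Q = Y.drop P.length := by rw [hY, List.drop_left]
    have e1 : Y'.take P.length = P := by
      have e : Y'.take P.length = (Y'.take (Na + Nb)).take P.length := by
        rw [List.take_take]; congr 1; omega
      rw [e, ← h3, List.take_take, Nat.min_eq_left (by omega)]
      exact hPQ.symm
    have hql : Q.length + P.length = Y.length := by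
      rw [hY, List.length_append]; omega
    have hql' : (Y'.drop P.length).length + P.length = Y'.length := by
      rw [List.length_drop]; omega
    have hr' : rho (Y'.drop P.length) = some b := by
      rw [← hr]
      refine (g5 _ _ (by omega) (by omega) ?_ ?_ ?_).symm
      · rw [hQQ, td (A := Na + Nb) (by omega) Y, td (A := Na + Nb) (by omega) Y', h3]
      · rw [hQQ, List.drop_drop, List.drop_drop, ph_drop φ (A := Na + Nb) (by omega) Y,
          ph_drop φ (A := Na + Nb) (by omega) Y', h3, h5]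
      · have h6 : Q.length ≡ (Y'.drop P.length).length [MOD Mq] := by
          refine Nat.ModEq.add_right_cancel' P.length ?_
          rw [hql, hql']
          exact h4
        exact h6
    have e2 : Y' = P ++ Y'.drop P.length := by
      conv_lhs => rw [← List.take_append_drop P.length Y', e1]
    refine ⟨⟨P, _, v, b, e2, hl, hr'⟩, ?_⟩
    have k1 := g3 _ _ _ _ hl hr
    have k2 := g3 _ _ _ _ hl hr'
    rw [← e2] at k2
    rw [← hY] at k1
    have k3 : ph φ Y = ph φ Y' := by
      rw [ph_all φ (Na + Nb) Y, ph_all φ (Na + Nb) Y', h3, h5]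
    rw [k3] at k1
    have := k1.symm.trans k2
    exact (add_left_cancel this).symm
  unfold nu1
  by_cases hc : ∃ P Q v b, Y = P ++ Q ∧ lam P = some v ∧ rho Q = some b
  · obtain ⟨h6, h7⟩ := key Y Y' h1 h2 h3 h4 h5 hc
    rw [if_pos hc, if_pos h6, h7]
  · rw [if_neg hc, if_neg]
    intro hc'
    exact hc (key Y' Y h2 h1 h3.symm h4.symm h5.symm hc').1

end

theorem core {α S V : Type} [Finite α] [Monoid S] [Finite S] [AddCommGroup V] [Finite V]
    (act : V → S → V)
    (hadd : ∀ a b s, act (a + b) s = act a s + act b s)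
    (hone : ∀ v, act v 1 = v) (hmul : ∀ v s t, act v (s * t) = act (act v s) t)
    (hfaith : ∀ s t, (∀ v, act v s = act v t) → s = t) (φ : α → S)
    (g : Geo α) (lenW : ∀ P, g.Wo P → g.n ≤ P.length)
    {B R : ℕ} (free : ∀ u : List α, (∀ t < u.length, ¬ g.Wo (u.take t)) →
      u ∈ (BddReg_746.PN B R : Language α))
    (hgap : ∀ P Q : List α, g.Wo P → g.Wo (P ++ Q) → Q ≠ [] → 2 * g.p0 + 2 * g.N1 < Q.length)
    (lam rho : List α → Option V) (nu : List α → V) (Na Nb Mq : ℕ) (Clean : ℕ → Prop)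
    (g1 : ∀ P v, lam P = some v → P.length < Na) (hNa : Na ≤ g.N1)
    (g3 : ∀ P Q v b, lam P = some v → rho Q = some b → b = act v (ph φ (P ++ Q)) + nu (P ++ Q))
    (g4 : ∀ u : List α, 2 * Nb ≤ u.length → Clean u.length →
      ∀ v, ∃ P Q, u = P ++ Q ∧ lam P = some v ∧ (rho Q).isSome)
    (hNb : 2 * Nb + g.p0 ≤ g.z)
    (g5 : ∀ Q Q' : List α, Nb ≤ Q.length → Nb ≤ Q'.length → Q.take Nb = Q'.take Nb →
      ph φ (Q.drop Nb) = ph φ (Q'.drop Nb) → Q.length % Mq = Q'.length % Mq → rho Q = rho Q')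
    (hMq : 0 < Mq)
    (hcl : ∀ n n', Nb ≤ n → Nb ≤ n' → n % Mq = n' % Mq → Clean n → Clean n')
    (K : ℕ) (c : ℕ → ℕ) (hc : ∀ k, k < K → c k ≤ g.p0)
    (lam2 rho2 : ℕ → List α → Option V) (nu2 : List α → V)
    (e1 : ∀ k < K, ∀ (P Q : List α) (v b : V), P.length = c k →
      lam2 k P = some v → rho2 k Q = some b → b = act v (ph φ (P ++ Q)) + nu2 (P ++ Q))
    {C0 : ℕ}
    (hsp : ∀ k k' l l', k < K → k' < K → l < K → l' < K → k' ≠ k → l' ≠ l →
      c k + c l' < c l + c k' + 2 * g.N1 → c l + c k' < c k + c l' + 2 * g.N1 → k = l)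
    (hthin : ∀ τ, g.z ≤ τ + g.p0 → ∀ J : Finset ℕ, (∀ k ∈ J, k < K ∧
      ∃ k', k' < K ∧ k' ≠ k ∧ ¬ Clean (τ + c k' - c k - g.p0)) → J.card ≤ C0)
    (e2 : ∀ (u : List α) (v : V), u.length = g.p0 →
      ∃ I : Finset ℕ, 2 * C0 + 2 ≤ I.card ∧ ∀ k ∈ I, k < K ∧ lam2 k (u.take (c k)) = some v ∧
            (rho2 k (u.drop (c k))).isSome) (s : S) :
    HL 3 ({w | (w.map φ).prod = s} : Language α) := by
  classical
  have hz := g.hz
  have hq := g.hq
  set BadT : ℕ → Prop := fun n => ¬ Clean n with hBadT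
  set pre : List α → V → V := fun X v => act v (ph φ X) + nu2 X with hpre
  set post : V → List α → V := fun v Y => act v (ph φ Y) + nu1 lam rho nu Y with hpost
  set NU : List α → V := fun X =>
    act (nu2 (X.take g.p0)) (ph φ (X.drop g.p0)) + nu1 lam rho nu (X.drop g.p0) with hNU
  have hT : ∀ v X, g.T pre post v X = act v (X.map φ).prod + NU X := by
    intro v X
    show act (act v (ph φ (X.take g.p0)) + nu2 (X.take g.p0)) (ph φ (X.drop g.p0)) +
      nu1 lam rho nu (X.drop g.p0) = act v (ph φ X) + _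
    rw [hadd, ← hmul, ← ph_all, hNU, add_assoc]
  set C : Set (List α) := {X | g.XX X} with hC
  set Bad : Set (List α) := {X | g.XX X ∧ g.BadX BadT X} with hBad
  have hex1 : ∀ P Q u b, lam P = some u → rho Q = some b → b = post u (P ++ Q) := by
    intro P Q u b hl hr
    show b = act u (ph φ (P ++ Q)) + nu1 lam rho nu (P ++ Q)
    unfold nu1
    rw [if_pos ⟨P, Q, u, b, rfl, hl, hr⟩]
    exact g3 _ _ _ _ hl hr
  have hlen : ∀ P v, lam P = some v → P.length ≤ g.N1 := fun P v h => by
    have := g1 P v h; omega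
  have hex2 : ∀ k, k < K → ∀ P Q v u, P.length = c k → Q.length = g.p0 - c k →
      lam2 k P = some v → rho2 k Q = some u → u = pre (P ++ Q) v :=
    fun k hk P Q v u hP _ hl hr => e1 k hk P Q v u hP hl hr
  set L1 : V → Set (List α) := fun v => {P | g.LP1 pre lam v P} with hL1
  set L2 : V → Set (List α) := fun v => {P | Geo.LP2 K c lam2 v P} with hL2
  -- the big prefix
  set A : ℕ := g.p0 + (Na + Nb) + g.z + g.N1 with hA
  have hcongr : ∀ u u' : List α, A ≤ u.length → A ≤ u'.length → u.take A = u'.take A →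
      u.length % Mq = u'.length % Mq → ((u.drop A).map φ).prod = ((u'.drop A).map φ).prod →
      (u.map φ).prod = (u'.map φ).prod ∧ NU u = NU u' ∧ (g.BadX BadT u → g.BadX BadT u') := by
    intro u u' h1 h2 h3 h4 h5
    have h5' : ph φ (u.drop A) = ph φ (u'.drop A) := h5
    have tk : ∀ i, i ≤ A → u.take i = u'.take i := by
      intro i hi
      have e : ∀ w : List α, w.take i = (w.take A).take i := fun w => by
        rw [List.take_take, Nat.min_eq_left hi]
      rw [e u, e u', h3]
    have pd : ∀ i, i ≤ A → ph φ (u.drop i) = ph φ (u'.drop i) := by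
      intro i hi
      rw [ph_drop φ hi u, ph_drop φ hi u', h3, h5']
    refine ⟨?_, ?_, ?_⟩
    · show ph φ u = ph φ u'
      rw [ph_all φ A u, ph_all φ A u', h3, h5']
    · show act (nu2 (u.take g.p0)) (ph φ (u.drop g.p0)) + nu1 lam rho nu (u.drop g.p0) =
        act (nu2 (u'.take g.p0)) (ph φ (u'.drop g.p0)) + nu1 lam rho nu (u'.drop g.p0)
      rw [tk _ (by omega), pd _ (by omega)]
      congr 1
      refine nu1_congr act φ g1 g3 g5 (by rw [List.length_drop]; omega)
        (by rw [List.length_drop]; omega) ?_ ?_ ?_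
      · rw [td (A := A) (by omega) u, td (A := A) (by omega) u', h3]
      · have : (u.drop g.p0).length ≡ (u'.drop g.p0).length [MOD Mq] := by
          refine Nat.ModEq.add_right_cancel' g.p0 ?_
          rw [List.length_drop, List.length_drop, Nat.sub_add_cancel (by omega),
            Nat.sub_add_cancel (by omega)]
          exact h4
        exact this
      · rw [List.drop_drop, List.drop_drop]
        exact pd _ (by omega)
    · rintro (⟨t, ht, hw, h6, h7⟩ | hb)
      · left
        refine ⟨t, by omega, ?_, h6, h7⟩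
        rw [← tk t (by omega)]; exact hw
      · right
        intro hcl'
        apply hb
        refine hcl _ _ (by omega) (by omega) ?_ hcl'
        have : u'.length - g.p0 ≡ u.length - g.p0 [MOD Mq] := by
          refine Nat.ModEq.add_right_cancel' g.p0 ?_
          rw [Nat.sub_add_cancel (by omega), Nat.sub_add_cancel (by omega)]
          exact h4.symm
        exact this
  refine Top5_120.top5 act hadd hone hmul hfaith φ NU C Bad ?_ ?_ L1 L2 ?_ ?_ ?_ ?_ ?_ ?_ ?_ s
  · -- prefix code
    refine ⟨fun h => ?_, fun X hX Y hY hXY => ?_⟩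
    · have := (show g.XX [] from h).1
      have hN := g.hN
      simp at this
      omega
    · obtain ⟨r, hr⟩ := hXY
      exact g.prefix_code (R := r) (R' := []) hX hY (by rw [hr, List.append_nil])
  · exact fun X hX => hX.1
  · -- L1 finite
    intro v
    refine (List.finite_length_le α (g.p0 + Na)).subset ?_
    rintro P ⟨hp, hl⟩
    have := g1 _ _ hl
    rw [List.length_drop] at this
    show P.length ≤ g.p0 + Na
    omega
  · intro v
    refine (List.finite_length_le α g.p0).subset ?_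
    rintro P ⟨k, hk, hP, -⟩
    show P.length ≤ g.p0
    rw [hP]; exact hc k hk
  · -- hCT
    intro x y
    have hreg := reg_drop φ A Mq hMq (fun X => act x (X.map φ).prod + NU X = y)
      (fun u u' h1 h2 h3 h4 h5 h6 => by
        obtain ⟨k1, k2, -⟩ := hcongr u u' h1 h2 h3 h4 h5
        rw [← k1, ← k2]; exact h6)
    refine (P4_933.hl_XX (Wo := g.Wo) (n := g.n) (z := g.z) g.loc lenW free hreg).congr
      fun w => ?_
    constructor
    · rintro ⟨⟨h1, h2, h3⟩, h4⟩
      exact ⟨⟨h2, h1, fun t ht htl => h3 t htl ht⟩, h4⟩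
    · rintro ⟨⟨h1, h2, h3⟩, h4⟩
      exact ⟨⟨h2, h1, fun t ht htl => h3 t htl ht⟩, h4⟩
  · -- hBT
    intro x y
    have hreg := reg_drop φ A Mq hMq
      (fun X => g.BadX BadT X ∧ act x (X.map φ).prod + NU X = y)
      (fun u u' h1 h2 h3 h4 h5 h6 => by
        obtain ⟨k1, k2, k3⟩ := hcongr u u' h1 h2 h3 h4 h5
        rw [← k1, ← k2]; exact ⟨k3 h6.1, h6.2⟩)
    refine (P4_933.hl_XX (Wo := g.Wo) (n := g.n) (z := g.z) g.loc lenW free hreg).congr
      fun w => ?_
    constructor
    · rintro ⟨⟨⟨h1, h2, h3⟩, h5⟩, h4⟩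
      exact ⟨⟨h2, h1, fun t ht htl => h3 t htl ht⟩, h5, h4⟩
    · rintro ⟨⟨h1, h2, h3⟩, h5, h4⟩
      exact ⟨⟨⟨h2, h1, fun t ht htl => h3 t htl ht⟩, h5⟩, h4⟩
  · -- tail
    intro s
    refine (P4_933.hl_NB (Wo := g.Wo) (n := g.n) (z := g.z) g.loc lenW free
      (Reg_852.isRegular_prod φ s)).congr fun w => ?_
    show ((∀ X ∈ C, ¬ X <+: w) ∧ (w.map φ).prod = s) ↔
      (P4_933.NB g.Wo g.z w ∧ (w.map φ).prod = s)
    rw [P4_933.NB_iff]
    constructor
    · rintro ⟨h1, h2⟩
      exact ⟨fun P hP hX => h1 P ⟨hX.2.1, hX.1, fun t ht htl => hX.2.2 t htl ht⟩ hP, h2⟩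
    · rintro ⟨h1, h2⟩
      exact ⟨fun X hX hP => h1 X hP ⟨hX.2.1, hX.1, fun t htl ht => hX.2.2 t ht htl⟩, h2⟩
  · -- hcc1
    intro X hX hnb v
    have hnE : ¬ g.E X := fun h => hnb ⟨hX, Or.inl h⟩
    have hcl' : Clean (X.length - g.p0) := by
      by_contra h
      exact hnb ⟨hX, Or.inr h⟩
    have hXz := (show g.XX X from hX).1
    obtain ⟨P, Q, b, e, hP, hQ⟩ := g.complete1 pre (lam := lam) (rho := rho) hlen hX hnE (by
      intro u
      have := g4 (X.drop g.p0) (by rw [List.length_drop]; omega)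
        (by rw [List.length_drop]; exact hcl') u
      exact this) v
    refine ⟨P, Q, e.symm, hP, fun x P' hP' => ?_⟩
    obtain ⟨h1, h2⟩ := g.sound1 pre post hlen hex1 hP' hQ
    obtain ⟨h3, h4⟩ := g.sound1 pre post hlen hex1 hP hQ
    refine ⟨h1, ?_⟩
    rw [hT] at h2 h4
    rw [h2, e, h4]
  · -- hcc2
    intro X hX Y hY v
    have hXz := hX.1.1
    obtain ⟨P, Q, b, e, hP, hQ⟩ := g.complete2 pre post (BadT := BadT) (K := K) (c := c)
      (lam2 := lam2) (rho2 := rho2) (C0 := C0) hc hgap hsp hthin hX.1 hY.1 v (by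
        obtain ⟨I, hI1, hI2⟩ := e2 (X.take g.p0) v (by rw [List.length_take]; omega)
        refine ⟨I, hI1, fun k hk => ?_⟩
        obtain ⟨h1, h2, h3⟩ := hI2 k hk
        have hck := hc k h1
        rw [List.take_take, Nat.min_eq_left hck] at h2
        exact ⟨h1, h2, h3⟩)
    -- value of the flight
    have hval : g.T pre post (g.T pre post v X) Y = b := by
      obtain ⟨X2, h1, h2, h3⟩ := g.sound2 pre post hc hex2 (R := []) (R' := Y) hX.1 hX.2 hP hQ
        (by rw [List.append_nil, e])
      have : X2 = Y := by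
        have := e.symm.trans h2
        exact (List.append_cancel_left this).symm
      rw [← this]; exact h3
    refine ⟨P, Q, e, hP, fun x P' hP' => ?_⟩
    obtain ⟨k0, hk0, hPl, hl⟩ := hP'
    have hP'2 : Geo.LP2 K c lam2 x P' := ⟨k0, hk0, hPl, hl⟩
    obtain ⟨k, hk, l, hend, hgood, hX2, u, hr, hb⟩ := id hQ
    by_cases hkk : k0 = k
    · subst hkk
      have hxx : g.XX (P' ++ Q.take l) :=
        g.xx_of_cend (by rw [hPl]; exact hc _ hk0) (by rw [hPl]; exact hend)
      by_cases hbad : g.BadX BadT (P' ++ Q.take l)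
      · left
        obtain ⟨Y', h1, h2, h3⟩ := g.sound2 pre post hc hex2 (R := []) (R' := Q.drop l)
          hxx hbad hP'2 hQ (by
            rw [List.append_nil, List.append_assoc, List.take_append_drop])
        refine ⟨P' ++ Q.take l, ⟨hxx, hbad⟩, Y', h1, h2.symm, ?_⟩
        rw [← hT, ← hT, ← hT, ← hT, h3, hval]
      · right
        exact ⟨P' ++ Q.take l, hxx, fun h => hbad h.2, ⟨Q.drop l, by
          rw [List.append_assoc, List.take_append_drop]⟩⟩
    · right
      obtain ⟨l', he', hg'⟩ := hgood k0 hk0 hkk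
      have hxx : g.XX (P' ++ Q.take l') :=
        g.xx_of_cend (by rw [hPl]; exact hc _ hk0) (by rw [hPl]; exact he')
      refine ⟨P' ++ Q.take l', hxx, fun h => hg' ?_, ⟨Q.drop l', by
          rw [List.append_assoc, List.take_append_drop]⟩⟩
      have := g.cbad_of_bad (BadT := BadT) (P := P') (Q := Q) (l := l')
        (by rw [hPl]; exact hc k0 hk0) (by rw [hPl]; exact he') h.2
      rw [hPl] at this
      exact this

end Crest.Agent.R320.FinC_188
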