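import Crest.Agent.R320.Grid_899
import Crest.Agent.R320.GridRuler_314

/-!
Glue: closed U-gadget (scheme 1 + ruler) from 899's grid gadget and 314's ruler.
`grid_gadget_nu` = 899's `grid_gadget_reg` with the finite-state clause for `nu` as well (same proof).
-/

set_option autoImplicit false
set_option linter.unusedSectionVars false

namespace Crest.Agent.R320.UGI_115

open Finset Crest.Agent.R320.Grid_899

theorem grid_gadget_nu (S V : Type*) [Monoid S] [Finite S] [AddCommGroup V] [Finite V]
    (act : V → S → V) :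
    ∃ (k m : ℕ), ∀ q : Fin k → ℕ, (∀ j, Odd (q j)) →
      Pairwise (fun i j => Nat.Coprime (q i) (q j)) → ∀ κ : ℕ,
      ∀ (α : Type*) (phi : List α → S), (∀ u v, phi (u ++ v) = phi u * phi v) →
      ∃ (lam rho : List α → Option V) (nu : List α → V),
        (∀ P v, lam P = some v → P.length < Am (∏ j, q j) κ m ∧ P ≠ []) ∧
        (∀ Q b, rho Q = some b → Am (∏ j, q j) κ (m + 1) ≤ Q.length) ∧
        (∀ P Q v b, lam P = some v → rho Q = some b → b = act v (phi (P ++ Q)) + nu (P ++ Q)) ∧
        (∀ u : List α, 2 * Am (∏ j, q j) κ (m + 1) ≤ u.length → (∀ j, ¬ q j ∣ u.length) →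
          (∀ j, 1 ≤ j → j ≤ m →
            (∏ j, q j) * G κ (j - 1) ≤ (u.length - Am (∏ j, q j) κ j) % G κ j ∧
            (u.length - Am (∏ j, q j) κ j) % G κ j + (∏ j, q j) * G κ (j - 1) ≤ G κ j) →
          ∀ v, ∃ P Q, u = P ++ Q ∧ lam P = some v ∧ (rho Q).isSome) ∧
        (∀ Q Q' : List α, Am (∏ j, q j) κ (m + 1) ≤ Q.length → Am (∏ j, q j) κ (m + 1) ≤ Q'.length →
          Q.take (Am (∏ j, q j) κ (m + 1)) = Q'.take (Am (∏ j, q j) κ (m + 1)) →
          phi (Q.drop (Am (∏ j, q j) κ (m + 1))) = phi (Q'.drop (Am (∏ j, q j) κ (m + 1))) →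
          Q.length ≡ Q'.length [MOD (∏ j, q j) * G κ m] → rho Q = rho Q' ∧ nu Q = nu Q') := by
  classical
  obtain ⟨m, N, k, e, hN, H⟩ := NameGad808.unknownT_gadget S V act
  refine ⟨k, m, ?_⟩
  intro q hq hcop κ α phi hphi
  obtain ⟨L, R, lev, D, hlev, hsound, hcomp⟩ := H q hq
  set Ms := ∏ j, q j with hMs
  let ct : ℕ → (∀ j, ZMod (q j)) := fun n j => (n : ZMod (q j))
  let lam : List α → Option V := fun P =>
    if h : ∃ i, CondL Ms κ m i P.length then
      L h.choose (ct P.length) (gT Ms κ phi h.choose P) (wlT Ms κ e phi h.choose P) else none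
  let rho : List α → Option V := fun Q =>
    if CondR Ms κ m (lev (ct Q.length)) Q.length then
      R (lev (ct Q.length)) (ct Q.length) (hR Ms κ phi (lev (ct Q.length)) Q)
        (wrR Ms κ m e phi (lev (ct Q.length)) Q) else none
  let nu : List α → V := fun u => D (ct u.length) (phi u) (wT Ms κ m e phi u)
  have hlam : ∀ P v, lam P = some v → ∃ i, CondL Ms κ m i P.length ∧
      L i (ct P.length) (gT Ms κ phi i P) (wlT Ms κ e phi i P) = some v := by
    intro P v h
    simp only [lam] at h
    split_ifs at h with h1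
    exact ⟨h1.choose, h1.choose_spec, h⟩
  have hlam' : ∀ P v i, CondL Ms κ m i P.length →
      L i (ct P.length) (gT Ms κ phi i P) (wlT Ms κ e phi i P) = some v → lam P = some v := by
    intro P v i hi h
    have h1 : ∃ i, CondL Ms κ m i P.length := ⟨i, hi⟩
    simp only [lam]
    rw [dif_pos h1, CondL_unique h1.choose_spec hi]
    exact h
  have hrho : ∀ Q b, rho Q = some b → ∃ i, CondR Ms κ m i Q.length ∧
      R i (ct Q.length) (hR Ms κ phi i Q) (wrR Ms κ m e phi i Q) = some b := by
    intro Q b h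
    simp only [rho] at h
    split_ifs at h with h1
    exact ⟨_, h1, h⟩
  have hct : ∀ n n', ct (n + n') = ct n + ct n' := by
    intro n n'
    funext j
    simp [ct]
  refine ⟨lam, rho, nu, ?_, ?_, ?_, ?_, ?_⟩
  · intro P v h
    obtain ⟨i, hi, _⟩ := hlam P v h
    have h2 := hi.2.2
    rw [lo_add] at h2
    have h3 := Am_mono (Ms := Ms) (κ := κ) (show i + 1 ≤ m by have := hi.1; omega)
    refine ⟨by omega, ?_⟩
    rintro rfl
    have h4 := hi.2.1
    have h5 := G_pos (κ := κ) i
    unfold lo at h4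
    simp at h4
    omega
  · intro Q b h
    obtain ⟨i, hi, _⟩ := hrho Q b h
    exact hi.2.1
  · intro P Q v b h1 h2
    obtain ⟨i, hi, hL⟩ := hlam P v h1
    obtain ⟨i', hi', hR'⟩ := hrho Q b h2
    have := hsound i i' (ct P.length) (ct Q.length) (gT Ms κ phi i P) (hR Ms κ phi i' Q)
      (phi (P ++ Q)) (wlT Ms κ e phi i P) (wrR Ms κ m e phi i' Q) (wT Ms κ m e phi (P ++ Q)) v b
      ?_ hL hR'
    · rw [this]
      simp only [nu]
      rw [List.length_append, hct]
    · rintro rfl
      refine ⟨zT Ms κ phi i (P ++ Q), ?_, ?_⟩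
      · rw [← gT_left hi hi'.2.2.1, ← hT_right hi hi']
        exact split_g hphi i _
      · rw [← wlT_left e hi hi'.2.2.1, ← wrT_right e hi hi']
        exact split_w e hi.1 _
  · intro u hu hnd hcl v
    have hT0 : ∀ j, ct u.length j ≠ 0 := by
      intro j
      simp only [ct]
      rw [Ne, ZMod.natCast_eq_zero_iff]
      exact hnd j
    obtain ⟨i, him, hi⟩ := hcomp (ct u.length) hT0 (phi u) (wT Ms κ m e phi u) v
    obtain ⟨t, t', htt, hL, hRR⟩ := hi (gT Ms κ phi i u) (zT Ms κ phi i u) (hT Ms κ phi i u)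
      (wlT Ms κ e phi i u) (wrT Ms κ m e phi i u) (split_g hphi i u) (split_w e him u)
    -- the place
    have hqpos : ∀ j, 0 < q j := fun j => (hq j).pos
    have hAi : Am Ms κ (i + 1) ≤ Am Ms κ (m + 1) := Am_mono (by omega)
    set T := u.length with hT
    -- start of the progression
    let r := lo Ms κ i + (T - lo Ms κ i) % G κ i
    have hr : G κ i ∣ T - r := by
      have h1 : lo Ms κ i ≤ T := by
        have := lo_le (Ms := Ms) (κ := κ) i
        omega
      have h2 : T - r = G κ i * ((T - lo Ms κ i) / G κ i) := by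
        have := Nat.div_add_mod (T - lo Ms κ i) (G κ i)
        simp only [r]
        omega
      rw [h2]
      exact Dvd.intro _ rfl
    have hunit : ∀ j, IsUnit ((G κ i : ℕ) : ZMod (q j)) := by
      intro j
      rw [ZMod.isUnit_iff_coprime]
      exact Nat.Coprime.pow_left _ ((Nat.coprime_two_left).2 (hq j))
    obtain ⟨ω, _, hω, hω2⟩ := NameGad808.crt_hit q hqpos hcop
      (fun j => (t j - (r : ZMod (q j))) * ((hunit j).unit⁻¹ : (ZMod (q j))ˣ)) 0
    have hω' : ω < Ms := by simp only [zero_add] at hω; exact hω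
    let o := r + G κ i * ω
    have hr1 : (T - lo Ms κ i) % G κ i < G κ i := Nat.mod_lt _ (G_pos i)
    have ho1 : lo Ms κ i ≤ o := by simp only [o, r]; omega
    have ho2 : o < lo Ms κ i + Ms * G κ i := by
      have h1 : G κ i * (ω + 1) ≤ G κ i * Ms := Nat.mul_le_mul_left _ hω'
      have h2 : G κ i * (ω + 1) = G κ i * ω + G κ i := by ring
      have h3 : Ms * G κ i = G κ i * Ms := Nat.mul_comm _ _
      simp only [o, r]
      omega
    have ho3 : o < Am Ms κ (m + 1) := by
      rw [lo_add] at ho2
      omega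
    have hcto : ct o = t := by
      funext j
      simp only [ct, o]
      rw [Nat.cast_add, Nat.cast_mul, hω2 j]
      have : ((G κ i : ℕ) : ZMod (q j)) * ((hunit j).unit⁻¹ : (ZMod (q j))ˣ) = 1 := by
        have := (hunit j).mul_val_inv
        simpa using this
      calc (r : ZMod (q j)) + (G κ i : ZMod (q j)) * ((t j - (r : ZMod (q j))) *
            ((hunit j).unit⁻¹ : (ZMod (q j))ˣ))
          = (r : ZMod (q j)) + (t j - (r : ZMod (q j))) * ((G κ i : ZMod (q j)) *
            ((hunit j).unit⁻¹ : (ZMod (q j))ˣ)) := by ring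
        _ = t j := by rw [this]; ring
    have hPl : (u.take o).length = o := by
      rw [List.length_take]
      omega
    have hQl : (u.drop o).length = T - o := by
      rw [List.length_drop]
    have hu' : u.take o ++ u.drop o = u := List.take_append_drop _ _
    have hcto' : ct (T - o) = t' := by
      have h1 : ct T = ct o + ct (T - o) := by
        rw [← hct]
        congr 1
        omega
      rw [← htt, hcto] at h1
      exact (add_left_cancel h1).symm
    have hLc : CondL Ms κ m i (u.take o).length := by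
      rw [hPl]
      exact ⟨him, ho1, ho2⟩
    have hdv : G κ i ∣ T - o := by
      have h1 : T - o = (T - r) - G κ i * ω := by simp only [o]; omega
      rw [h1]
      exact Nat.dvd_sub hr (Dvd.intro _ rfl)
    have hRc : CondR Ms κ m i (u.drop o).length := by
      rw [hQl]
      refine ⟨him, by omega, hdv, ?_⟩
      intro j hj1 hj2
      have hA : Am Ms κ j ≤ Am Ms κ (m + 1) := Am_mono (by omega)
      have h1 := hcl j (by omega) hj2
      have h2 : o + (T - o) = T := by omega
      apply right_clean hj1 ho1 ho2 (by omega)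
      · rw [h2]; exact h1.1
      · rw [h2]; exact h1.2
    refine ⟨u.take o, u.drop o, hu'.symm, ?_, ?_⟩
    · apply hlam' _ _ i hLc
      rw [hPl, hcto, ← gT_left (phi := phi) hLc hRc.2.2.1, ← wlT_left e (phi := phi) hLc hRc.2.2.1,
        hu']
      exact hL
    · obtain ⟨b, hb⟩ := Option.isSome_iff_exists.1 hRR
      have hl := (hlev i t' _ _ b hb).1
      have h3 : lev (ct (u.drop o).length) = i := by
        rw [hQl, hcto', hl]
      simp only [rho]
      rw [h3, if_pos hRc, ← hT_right (phi := phi) hLc hRc, ← wrT_right e (phi := phi) hLc hRc, hu',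
        hQl, hcto']
      exact hRR
  · intro Q Q' h1 h2 ht hd h
    have hc : ct Q.length = ct Q'.length := by
      funext j
      simp only [ct]
      rw [ZMod.natCast_eq_natCast_iff]
      exact h.of_dvd (dvd_trans (Finset.dvd_prod_of_mem q (Finset.mem_univ j)) (Nat.dvd_mul_right _ _))
    constructor
    · simp only [rho]
      rw [hc]
      by_cases hC : CondR Ms κ m (lev (ct Q'.length)) Q'.length
      · rw [if_pos hC, if_pos ((CondR_congr h h1 h2).2 hC), hR_congr hphi hC.1 h1 h2 ht hd h,
          wrR_congr e h1 h2 ht h]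
      · rw [if_neg hC, if_neg (fun h' => hC ((CondR_congr h h1 h2).1 h'))]
    · simp only [nu]
      rw [hc]
      have e1 : phi Q = phi Q' := by
        rw [← List.take_append_drop (Am Ms κ (m + 1)) Q,
          ← List.take_append_drop (Am Ms κ (m + 1)) Q', hphi, hphi, ht, hd]
      have e2 : wT Ms κ m e phi Q = wT Ms κ m e phi Q' := by
        unfold wT
        refine Finset.sum_congr rfl (fun j hj => ?_)
        rw [Finset.mem_range] at hj
        unfold zT
        have f1 : ∀ j, j ≤ m → bd Ms κ j Q.length = bd Ms κ j Q'.length := by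
          intro j hj
          have hA : Am Ms κ j ≤ Am Ms κ (m + 1) := Am_mono (by omega)
          have := sub_mod_congr (Ms := Ms) (a := 0) (j := j) (by omega) (by omega) (modG hj h)
          simp only [Nat.add_zero] at this
          unfold bd
          rw [this]
        have f2 : bd Ms κ (j + 1) Q'.length ≤ Am Ms κ (m + 1) := by
          have g1 := bd_lt (Ms := Ms) (κ := κ) (j + 1) Q'.length
          have g2 := lo_le (Ms := Ms) (κ := κ) (j + 1)
          have g3 := Am_mono (Ms := Ms) (κ := κ) (show j + 1 ≤ m by omega)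
          have g4 := bd_lt (Ms := Ms) (κ := κ) (j + 1) Q'.length
          rcases Nat.lt_or_ge (j + 1) m with g5 | g5
          · have g6 := Am_mono (Ms := Ms) (κ := κ) (show j + 1 + 1 ≤ m + 1 by omega)
            omega
          · have : j + 1 = m := by omega
            rw [this] at g1 g2 ⊢
            omega
        rw [f1 j hj.le, f1 (j + 1) hj, seg_take Q _ _ (Am Ms κ (m + 1)) f2 h1,
          seg_take Q' _ _ (Am Ms κ (m + 1)) f2 h2, ht]
      rw [e1, e2]


theorem sum_pow_le (κ Ms K : ℕ) (hκ : 2 ^ (K + 5) * Ms ≤ 2 ^ κ) (hK : 1 ≤ κ) :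
    ∀ i, 1 ≤ i → 2 ^ (K + 4) * ∑ j ∈ range i, Ms * G κ j ≤ G κ i := by
  have h1 : ∀ i, 1 ≤ i → ∑ j ∈ range i, G κ j ≤ 2 * G κ (i - 1) := by
    intro i hi
    induction i, hi using Nat.le_induction with
    | base => simp [G]
    | succ i hi ih =>
      rw [Finset.sum_range_succ]
      have h2 : 2 * G κ (i - 1) ≤ G κ i := by
        have h3 : G κ i = 2 ^ κ * G κ (i - 1) := by
          unfold G
          rw [← pow_add]
          congr 1
          obtain ⟨i', rfl⟩ := Nat.exists_eq_add_of_le hi
          simp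
          ring
        rw [h3]
        refine Nat.mul_le_mul_right _ ?_
        calc 2 = 2 ^ 1 := by norm_num
          _ ≤ 2 ^ κ := Nat.pow_le_pow_right (by norm_num) hK
      simp only [Nat.add_sub_cancel]
      omega
  intro i hi
  rw [← Finset.mul_sum]
  have h2 := h1 i hi
  have h3 : G κ i = 2 ^ κ * G κ (i - 1) := by
    unfold G
    rw [← pow_add]
    congr 1
    obtain ⟨i', rfl⟩ := Nat.exists_eq_add_of_le hi
    simp
    ring
  rw [h3]
  calc 2 ^ (K + 4) * (Ms * ∑ j ∈ range i, G κ j) ≤ 2 ^ (K + 4) * (Ms * (2 * G κ (i - 1))) :=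
        Nat.mul_le_mul_left _ (Nat.mul_le_mul_left _ h2)
    _ = (2 ^ (K + 5) * Ms) * G κ (i - 1) := by ring
    _ ≤ 2 ^ κ * G κ (i - 1) := Nat.mul_le_mul_right _ hκ

open Crest.Agent.R320.GridRuler314 in
/-- **closed gadget**: scheme 1 on all words + ruler of `K` places with spoil count `C0`
independent of `K`. -/
theorem gadget (S V : Type*) [Monoid S] [Finite S] [AddCommGroup V] [Finite V]
    (act : V → S → V) :
    ∃ C0 : ℕ, ∀ K : ℕ, ∃ (N Pm : ℕ) (c : ℕ → ℕ) (Bad : ℕ → Prop), 0 < N ∧ 0 < Pm ∧
      (∀ i j, i < j → c i < c j) ∧ 4 * N < c 0 ∧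
      (∀ i j k l, i ≠ j → (i, j) ≠ (k, l) →
        c i + c l + 4 * N < c k + c j ∨ c k + c j + 4 * N < c i + c l) ∧
      (∀ T, Bad (T + Pm) ↔ Bad T) ∧
      (∀ T, (∀ i < K, c i ≤ T) → ∃ P : Finset (ℕ × ℕ), P.card ≤ C0 ∧
        ∀ i < K, ∀ j < K, i ≠ j → Bad (T + c j - c i) → (i, j) ∈ P) ∧
      ∀ (α : Type*) (phi : List α → S), (∀ u v, phi (u ++ v) = phi u * phi v) →
      ∃ (lam rho : List α → Option V) (nu : List α → V),
        (∀ P v, lam P = some v → P.length < N ∧ P ≠ []) ∧
        (∀ Q b, rho Q = some b → N ≤ Q.length) ∧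
        (∀ P Q v b, lam P = some v → rho Q = some b → b = act v (phi (P ++ Q)) + nu (P ++ Q)) ∧
        (∀ u : List α, 2 * N ≤ u.length → ¬ Bad u.length →
          ∀ v, ∃ P Q, u = P ++ Q ∧ lam P = some v ∧ (rho Q).isSome) ∧
        (∀ Q Q' : List α, N ≤ Q.length → N ≤ Q'.length → Q.take N = Q'.take N →
          phi (Q.drop N) = phi (Q'.drop N) → Q.length ≡ Q'.length [MOD Pm] →
          rho Q = rho Q' ∧ nu Q = nu Q') := by
  classical
  obtain ⟨k, m, H⟩ := grid_gadget_nu S V act
  refine ⟨k + m, fun K => ?_⟩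
  -- the moduli
  let q : Fin k → ℕ := fun j => Nat.nth Nat.Prime (2 ^ (K + 1) + j.1)
  have hqp : ∀ j, (q j).Prime := fun j => Nat.prime_nth_prime _
  have hqbig : ∀ j, 2 ^ (K + 1) < q j := by
    intro j
    have := Nat.add_two_le_nth_prime (2 ^ (K + 1) + j.1)
    simp only [q]
    omega
  have hqodd : ∀ j, Odd (q j) := by
    intro j
    refine (hqp j).odd_of_ne_two ?_
    have h1 := hqbig j
    have h2 : 2 ^ 1 ≤ 2 ^ (K + 1) := Nat.pow_le_pow_right (by norm_num) (by omega)
    omega
  have hqinj : ∀ i j, q i = q j → i = j := by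
    intro i j h
    have := Nat.nth_injective Nat.infinite_setOfPred_prime h
    exact Fin.ext (by omega)
  have hqcop : Pairwise (fun i j => Nat.Coprime (q i) (q j)) := by
    intro i j hij
    exact (Nat.coprime_primes (hqp i) (hqp j)).2 (fun h => hij (hqinj i j h))
  set Ms := ∏ j, q j with hMs
  have hMs0 : 0 < Ms := Finset.prod_pos (fun j _ => (hqp j).pos)
  let κ := K + 5 + Ms
  have hκ : 2 ^ (K + 5) * Ms ≤ 2 ^ κ := by
    simp only [κ]
    rw [pow_add 2 (K + 5) Ms]
    exact Nat.mul_le_mul_left _ Nat.lt_two_pow_self.le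
  have hκ1 : 1 ≤ κ := by simp only [κ]; omega
  let N := Am Ms κ (m + 1)
  let MsF : Finset ℕ := Finset.univ.image q
  have hprod : ∏ x ∈ MsF, x = Ms := by
    rw [Finset.prod_image]
    intro i _ j _ h
    exact hqinj i j h
  have hcard : MsF.card ≤ k := by
    refine le_trans Finset.card_image_le ?_
    simp
  obtain ⟨X, hX, hsp, _, _, hbad⟩ := grid_ruler (4 * N) K m MsF (G κ) (fun i => Ms * G κ i)
    (fun i => Nat.mul_pos hMs0 (G_pos i)) (fun i => Nat.dvd_mul_left _ _)
    (fun i => G_dvd (by omega)) (G_pos m) (fun i hi _ => sum_pow_le κ Ms K hκ hκ1 i hi)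
    (by
      rw [hprod]
      unfold G
      refine Nat.Coprime.pow_left _ ?_
      exact Nat.Coprime.prod_right (fun j _ => (Nat.coprime_two_left).2 (hqodd j)))
    (by
      intro x hx
      obtain ⟨j, _, rfl⟩ := Finset.mem_image.1 hx
      exact hqbig j)
  let A : ℕ → ℤ := fun j => (Am Ms κ j : ℤ)
  let c : ℕ → ℕ := fun i => 2 ^ i * X
  have hc : ∀ i, (c i : ℤ) = xm X i := by
    intro i
    simp only [c, xm]
    push_cast
    ring
  let Bad : ℕ → Prop := fun T => BadT MsF m (G κ) (fun i => Ms * G κ i) A (T : ℤ)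
  refine ⟨N, Ms * G κ m, c, Bad, ?_, Nat.mul_pos hMs0 (G_pos m), ?_, ?_, ?_, ?_, ?_, ?_⟩
  · -- 0 < N
    have h1 := G_pos (κ := κ) m
    have h2 := lo_le (Ms := Ms) (κ := κ) m
    have h3 : lo Ms κ m = Am Ms κ m + G κ m := rfl
    simp only [N]
    omega
  · intro i j hij
    have hX0 : 0 < X := by omega
    exact Nat.mul_lt_mul_of_pos_right (Nat.pow_lt_pow_right (by norm_num) hij) hX0
  · simp only [c, pow_zero, one_mul]
    exact hX
  · intro i j k' l hij hne
    have hcoef : ((2 : ℤ) ^ i - 2 ^ j) - (2 ^ k' - 2 ^ l) ≠ 0 := by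
      intro h
      obtain ⟨h1, h2⟩ := coef_zero hij h
      exact hne (by rw [h1, h2])
    have h1 : 1 ≤ |((2 : ℤ) ^ i - 2 ^ j) - (2 ^ k' - 2 ^ l)| := Int.one_le_abs hcoef
    have h2 := xm_diff X i j k' l
    have h3 : ((4 * N : ℕ) : ℤ) < |(xm X i - xm X j) - (xm X k' - xm X l)| := by
      rw [h2, abs_mul, Nat.abs_cast]
      have h4 : ((4 * N : ℕ) : ℤ) < X := by exact_mod_cast hX
      have h5 : (0 : ℤ) ≤ X := Int.natCast_nonneg X
      nlinarith
    rw [← hc, ← hc, ← hc, ← hc] at h3
    rcases lt_abs.1 h3 with h | h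
    · right
      push_cast at h
      omega
    · left
      push_cast at h
      omega
  · -- periodic
    intro T
    have key : ∀ (T : ℤ), BadT MsF m (G κ) (fun i => Ms * G κ i) A (T + ((Ms * G κ m : ℕ) : ℤ)) ↔
        BadT MsF m (G κ) (fun i => Ms * G κ i) A T := by
      intro T
      unfold BadT
      refine or_congr ?_ ?_
      · refine exists_congr fun x => and_congr_right fun hx => ?_
        have h1 : (x : ℤ) ∣ ((Ms * G κ m : ℕ) : ℤ) := by
          have h2 : x ∣ Ms := by
            rw [← hprod]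
            exact Finset.dvd_prod_of_mem _ hx
          exact_mod_cast (h2.mul_right _)
        exact dvd_add_left h1
      · refine exists_congr fun i => and_congr_right fun hi => and_congr_right fun him => ?_
        obtain ⟨w, hw⟩ := (G_dvd (κ := κ) him).mul_left Ms
        constructor
        · rintro ⟨t, ht⟩
          refine ⟨t - w, ?_⟩
          have : T - A i - (t - w) * (G κ i : ℤ) =
              T + ((Ms * G κ m : ℕ) : ℤ) - A i - t * (G κ i : ℤ) := by
            rw [hw]; push_cast; ring
          rw [this]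
          exact ht
        · rintro ⟨t, ht⟩
          refine ⟨t + w, ?_⟩
          have : T + ((Ms * G κ m : ℕ) : ℤ) - A i - (t + w) * (G κ i : ℤ) =
              T - A i - t * (G κ i : ℤ) := by
            rw [hw]; push_cast; ring
          rw [this]
          exact ht
    have := key (T : ℤ)
    simp only [Bad]
    rw [← this]
    push_cast
    rfl
  · -- spoil
    intro T hT
    obtain ⟨P, hP, hP2⟩ := hbad A (T : ℤ)
    refine ⟨P, by omega, ?_⟩
    intro i hi j hj hij hb
    refine hP2 i j hi hj hij ?_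
    simp only [Bad] at hb
    have h1 : ((T + c j - c i : ℕ) : ℤ) = (T : ℤ) - (xm X i - xm X j) := by
      rw [← hc, ← hc]
      have := hT i hi
      omega
    rw [← h1]
    exact hb
  · intro α phi hphi
    obtain ⟨lam, rho, nu, g1, g2, g3, g4, g5⟩ := H q hqodd hqcop κ α phi hphi
    refine ⟨lam, rho, nu, ?_, g2, g3, ?_, g5⟩
    · intro P v h
      obtain ⟨a1, a2⟩ := g1 P v h
      refine ⟨lt_of_lt_of_le a1 (Am_mono (by omega)), a2⟩
    · intro u hu hnb v
      refine g4 u hu ?_ ?_ v
      · intro j hj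
        apply hnb
        left
        exact ⟨q j, Finset.mem_image.2 ⟨j, Finset.mem_univ _, rfl⟩, by exact_mod_cast hj⟩
      · intro j hj1 hj2
        have hA : Am Ms κ j ≤ u.length := by
          have h1 : Am Ms κ j ≤ Am Ms κ (m + 1) := Am_mono (by omega)
          simp only [N] at hu
          omega
        have hdm := Nat.div_add_mod (u.length - Am Ms κ j) (G κ j)
        have hml := Nat.mod_lt (u.length - Am Ms κ j) (G_pos (κ := κ) j)
        by_contra hcon
        apply hnb
        right
        refine ⟨j, hj1, hj2, ?_⟩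
        have hz : ((u.length : ℕ) : ℤ) - A j = ((u.length - Am Ms κ j : ℕ) : ℤ) := by
          simp only [A]; omega
        rcases Nat.lt_or_ge ((u.length - Am Ms κ j) % G κ j) (Ms * G κ (j - 1)) with h | h
        · refine ⟨(((u.length - Am Ms κ j) / G κ j : ℕ) : ℤ), ?_⟩
          rw [hz]
          have e0 : ((u.length - Am Ms κ j : ℕ) : ℤ) = (G κ j : ℤ) *
              (((u.length - Am Ms κ j) / G κ j : ℕ) : ℤ) +
              (((u.length - Am Ms κ j) % G κ j : ℕ) : ℤ) := by exact_mod_cast hdm.symm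
          have e : (((u.length - Am Ms κ j : ℕ) : ℤ) -
              (((u.length - Am Ms κ j) / G κ j : ℕ) : ℤ) * (G κ j : ℤ)) =
              (((u.length - Am Ms κ j) % G κ j : ℕ) : ℤ) := by
            linarith
          rw [e, Nat.abs_cast]
          exact_mod_cast h.le
        · have h' : G κ j < (u.length - Am Ms κ j) % G κ j + Ms * G κ (j - 1) := by
            by_contra h2
            have hcon' : ¬ (Ms * G κ (j - 1) ≤ (u.length - Am Ms κ j) % G κ j ∧
              (u.length - Am Ms κ j) % G κ j + Ms * G κ (j - 1) ≤ G κ j) := hcon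
            exact hcon' ⟨h, by omega⟩
          refine ⟨(((u.length - Am Ms κ j) / G κ j : ℕ) : ℤ) + 1, ?_⟩
          rw [hz]
          have e0 : ((u.length - Am Ms κ j : ℕ) : ℤ) = (G κ j : ℤ) *
              (((u.length - Am Ms κ j) / G κ j : ℕ) : ℤ) +
              (((u.length - Am Ms κ j) % G κ j : ℕ) : ℤ) := by exact_mod_cast hdm.symm
          have e : (((u.length - Am Ms κ j : ℕ) : ℤ) -
              ((((u.length - Am Ms κ j) / G κ j : ℕ) : ℤ) + 1) * (G κ j : ℤ)) =
              -(((G κ j - (u.length - Am Ms κ j) % G κ j : ℕ)) : ℤ) := by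
            rw [Nat.cast_sub hml.le]
            rw [add_mul, one_mul]
            linarith
          rw [e, abs_neg, Nat.abs_cast]
          have : G κ j - (u.length - Am Ms κ j) % G κ j ≤ Ms * G κ (j - 1) := by omega
          exact_mod_cast this

end Crest.Agent.R320.UGI_115
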