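import Crest.Agent.R320.FinB_29
import Crest.Agent.R320.UGI_115

/-!
# Row 320: the gadget hypothesis `UG` from `UGI_115.gadget`, and the row (helper29)
-/

set_option autoImplicit false

namespace Crest.Agent.R320.Fin_29

open Crest.RegLang

theorem ug : UG := by
  classical
  intro S V _ _ _ _ act _
  obtain ⟨C0, h⟩ := Crest.Agent.R320.UGI_115.gadget S V act
  refine ⟨C0, fun K => ?_⟩
  obtain ⟨N, Pm, c, Bad, hN, hPm, hinc, hc0, hsp, hper, hthin, hG⟩ := h K
  refine ⟨N, Pm, 2 * N, c, Bad, hPm, hN, fun i j hij _ => hinc i j hij, ?_, ?_, ?_⟩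
  · intro k k' l l' _ _ _ _ hk hl h1 h2
    by_contra hne
    rcases hsp k k' l l' (Ne.symm hk) (fun e => hne (Prod.ext_iff.1 e).1) with h | h <;> omega
  · intro T _ hcT J hJ
    obtain ⟨P, hP, hP2⟩ := hthin T hcT
    refine le_trans (Finset.card_le_card (t := P.image Prod.fst) ?_)
      (le_trans Finset.card_image_le hP)
    intro k hk
    obtain ⟨hkK, k', hk', hne, hb⟩ := hJ k hk
    exact Finset.mem_image.2 ⟨(k, k'), hP2 k hkK k' hk' (Ne.symm hne) hb, rfl⟩
  · intro A f
    obtain ⟨lam, rho, nu, hL, hR, hS, hC, hF⟩ := hG A (fun w => (w.map f).prod)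
      (fun u v => by rw [List.map_append, List.prod_append])
    refine ⟨lam, rho, nu, fun P v h => (hL P v h).1.le, fun P Q v r h1 h2 => hS P Q v r h1 h2,
      fun u h1 h2 v => hC u h1 h2 v, ?_⟩
    intro q q' h1 h2 h3 h4 h5
    refine (hF q q' (by omega) (by omega) ?_ ?_ h4).2
    · have := congrArg (fun l => l.take N) h3
      simp only [List.take_take] at this
      rwa [Nat.min_eq_left (by omega)] at this
    · have e1 : ∀ w : List A, w.drop N = (w.take (2 * N)).drop N ++ w.drop (2 * N) := by
        intro w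
        rw [List.drop_take, show 2 * N = N + N from by omega, ← List.drop_drop,
          Nat.add_sub_cancel, List.take_append_drop]
      show ((q.drop N).map f).prod = ((q'.drop N).map f).prod
      rw [e1 q, e1 q', List.map_append, List.map_append, List.prod_append, List.prod_append, h3,
        h5]

/-- **row 320** -/
theorem final.{u} (α : Type u) [Finite α] (L : Language α) (hL : L.IsRegular) :
    ∃ e : GRegExp α, e.height ≤ 3 ∧ e.lang = L := row ug α L hL

end Crest.Agent.R320.Fin_29
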