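import Crest.Agent.R320.FinB_4
import Crest.Agent.R320.Grid_899
import Crest.Agent.R320.Thin_963
import Crest.Agent.R320.ExactR_237
import Crest.Agent.R320.Golomb_369

/-!
# Row 320: the constants (helper4)
-/

set_option autoImplicit false

namespace Crest.Agent.R320.Fin_4

open Crest.RegLang Crest.Agent.R320.Hk_851 Crest.Agent.R320.Blk467

theorem exists_primes (k K : ℕ) : ∃ q : Fin k → ℕ, (∀ j, (q j).Prime) ∧ (∀ j, 2 ^ (K + 1) ≤ q j) ∧
    (∀ j, Odd (q j)) ∧ Function.Injective q := by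
  have hmono : StrictMono (Nat.nth Nat.Prime) := Nat.nth_strictMono Nat.infinite_setOfPred_prime
  refine ⟨fun j => Nat.nth Nat.Prime (2 ^ (K + 1) + 2 + j), fun j => Nat.prime_nth_prime _,
    fun j => ?_, fun j => ?_, fun i j h => ?_⟩
  · have := hmono.le_apply (x := 2 ^ (K + 1) + 2 + (j : ℕ))
    show 2 ^ (K + 1) ≤ Nat.nth Nat.Prime (2 ^ (K + 1) + 2 + (j : ℕ))
    omega
  · have h1 := hmono.le_apply (x := 2 ^ (K + 1) + 2 + (j : ℕ))
    have h2 : 0 < 2 ^ (K + 1) := by positivity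
    exact (Nat.prime_nth_prime _).odd_of_ne_two (by omega)
  · have := hmono.injective h
    exact Fin.ext (by omega)

theorem grow (K Ms κ i : ℕ) (hκ : κ = K + 4 + Ms + (i + 1)) :
    2 ^ (K + 4) * (Ms * (i + 1)) ≤ 2 ^ κ := by
  have e : 2 ^ κ = 2 ^ (K + 4) * (2 ^ Ms * 2 ^ (i + 1)) := by rw [hκ]; ring
  have h1 : Ms ≤ 2 ^ Ms := Nat.lt_two_pow_self.le
  have h2 : i + 1 ≤ 2 ^ (i + 1) := Nat.lt_two_pow_self.le
  rw [e]
  exact Nat.mul_le_mul_left _ (Nat.mul_le_mul h1 h2)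

theorem grow' (K Ms κ m i : ℕ) (hi : i < m) (hκ : κ = K + 4 + Ms + m) :
    2 ^ (K + 4) * ∑ j ∈ Finset.range (i + 1), Ms * 2 ^ (κ * j) ≤ 2 ^ (κ * (i + 1)) := by
  have h1 : ∑ j ∈ Finset.range (i + 1), Ms * 2 ^ (κ * j) ≤ (i + 1) * (Ms * 2 ^ (κ * i)) := by
    have := Finset.sum_le_card_nsmul (Finset.range (i + 1)) (fun j => Ms * 2 ^ (κ * j))
      (Ms * 2 ^ (κ * i)) (fun j hj => Nat.mul_le_mul_left _ (Nat.pow_le_pow_right (by norm_num)
        (Nat.mul_le_mul_left _ (by rw [Finset.mem_range] at hj; omega))))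
    simpa using this
  have h2 : 2 ^ (K + 4) * (Ms * (i + 1)) ≤ 2 ^ (K + 4 + Ms + (i + 1)) :=
    grow K Ms _ i rfl
  have h3 : 2 ^ (K + 4 + Ms + (i + 1)) ≤ 2 ^ κ := Nat.pow_le_pow_right (by norm_num) (by omega)
  calc 2 ^ (K + 4) * ∑ j ∈ Finset.range (i + 1), Ms * 2 ^ (κ * j)
      ≤ 2 ^ (K + 4) * ((i + 1) * (Ms * 2 ^ (κ * i))) := Nat.mul_le_mul_left _ h1
    _ = (2 ^ (K + 4) * (Ms * (i + 1))) * 2 ^ (κ * i) := by ring
    _ ≤ 2 ^ κ * 2 ^ (κ * i) := Nat.mul_le_mul_right _ (h2.trans h3)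
    _ = 2 ^ (κ * (i + 1)) := by rw [← pow_add]; congr 1; ring

/-- **row 320, type 0**: every fibre has generalized star height `≤ 3`. -/
theorem fin (α : Type) [Finite α] (S : Type) [Monoid S] [Finite S] (φ : α → S) (s : S) :
    HL 3 ({w | (w.map φ).prod = s} : Language α) := by
  classical
  obtain ⟨act, hadd, hone, hmul, hfaith⟩ := exists_module S
  have : Fintype S := Fintype.ofFinite S
  obtain ⟨k, m, H⟩ := Grid_899.grid_gadget_reg S (S → ZMod 2) act
  obtain ⟨K, HK⟩ := ExactR_237.exact_gadget α S (S → ZMod 2) φ act (2 * (k + m) + 2)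
  obtain ⟨q, hqp, hqK, hqo, hqi⟩ := exists_primes k K
  have hcop : Pairwise (fun i j => Nat.Coprime (q i) (q j)) := fun i j hij =>
    (Nat.coprime_primes (hqp i) (hqp j)).2 fun h => hij (hqi h)
  set Ms : ℕ := ∏ j, q j with hMs
  have hMspos : 0 < Ms := Finset.prod_pos fun j _ => (hqp j).pos
  set κ : ℕ := K + 4 + Ms + m with hκ
  obtain ⟨lam, rho, nu, h1, h2, h3, h4, h5⟩ := H q hqo hcop κ α (fun w => (w.map φ).prod)
    (fun u v => by rw [List.map_append, List.prod_append])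
  set MsF : Finset ℕ := Finset.univ.image q with hMsF
  have hMsFcard : MsF.card ≤ k := by
    have := Finset.card_image_le (s := (Finset.univ : Finset (Fin k))) (f := q)
    simpa using this
  -- thin
  obtain ⟨X, hX0, hXpos, hXthin⟩ := Thin963.thin K m MsF (fun i => ((2 ^ (κ * i) : ℕ) : ℤ))
    (fun i => ((Ms * 2 ^ (κ * i) : ℕ) : ℤ)) (fun i => (Grid_899.Am Ms κ i : ℤ))
    (by
      intro r hr
      rw [hMsF, Finset.mem_image] at hr
      obtain ⟨j, -, rfl⟩ := hr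
      exact ⟨hqp j, hqK j⟩)
    (by
      intro r hr
      rw [hMsF, Finset.mem_image] at hr
      obtain ⟨j, -, rfl⟩ := hr
      rw [Int.isCoprime_iff_gcd_eq_one, Int.gcd_natCast_natCast]
      exact Nat.Coprime.pow_right _ (Nat.coprime_two_right.2 (hqo j)))
    (by positivity)
    (by
      intro i j hij
      exact_mod_cast Nat.pow_dvd_pow 2 (Nat.mul_le_mul_left κ hij))
    (by intro i; positivity)
    (by
      intro i
      exact_mod_cast Dvd.intro_left Ms rfl)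
    (by
      intro i hi
      exact_mod_cast grow' K Ms κ m i hi hκ)
    (2 * ((Grid_899.Am Ms κ m + 1 : ℕ) : ℤ))
  set x : ℕ := X.toNat with hx
  have hxX : (x : ℤ) = X := Int.toNat_of_nonneg hXpos.le
  have hxpos : 0 < x := by omega
  set N1 : ℕ := Grid_899.Am Ms κ m + 1 with hN1
  have hxN : 2 * N1 ≤ x := by omega
  set c : ℕ → ℕ := fun j => x * 2 ^ j with hc
  have hcmono : ∀ i j, i < j → c i < c j := fun i j hij =>
    Nat.mul_lt_mul_of_pos_left (Nat.pow_lt_pow_right (by norm_num) hij) hxpos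
  set p0 : ℕ := c K with hp0
  obtain ⟨lam2, rho2, nu2, e1, e2⟩ := HK c fun i j hij _ => hcmono i j hij
  obtain ⟨n, Wo, hn, hlenWo, loc, gap, few⟩ := OutRule_480.outer_rule_left (α := α)
    (2 * p0 + 2 * N1 + 1)
  set q0 : ℕ := n + 2 * p0 + 2 * Grid_899.Am Ms κ (m + 1) with hq0
  let g : Sc2n_937.Geo α :=
    { Wo := Wo, n := n, z := p0 + N1 + q0, p0 := p0, q0 := q0, N1 := N1, loc := loc, hz := rfl
      hq := by omega, hN := by omega, hqp := by omega }
  set BadT : ℕ → Prop := fun T => Thin963.BadT MsF m (fun i => ((2 ^ (κ * i) : ℕ) : ℤ))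
    (fun i => ((Ms * 2 ^ (κ * i) : ℕ) : ℤ)) (fun i => (Grid_899.Am Ms κ i : ℤ)) (T : ℤ) with hBadT
  have hck : ∀ k, k < K → c k ≤ p0 := fun k hk => (hcmono k K hk).le
  refine join act hadd hone hmul hfaith φ g hlenWo ?_ few lam rho nu
    (fun P v h => by
      have h' : P.length < Grid_899.Am Ms κ m := (h1 P v h).1
      show P.length ≤ N1
      omega) h3
    (Grid_899.Am Ms κ (m + 1)) (Ms * Grid_899.G κ m) (Nat.mul_pos hMspos (Grid_899.G_pos m))
    (fun Q Q' h => h5 Q Q' h.1 h.2.1 h.2.2.1 h.2.2.2.1 h.2.2.2.2) BadT ?_ ?_ K (k + m) c hck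
    (fun k P => lam2 k P) (fun k Q => rho2 k Q 1) (fun P => nu2 P 1) ?_ ?_ ?_ ?_ s
  · -- gap
    intro P Q hP hPQ hQ
    have hl : 0 < Q.length := List.length_pos_of_ne_nil hQ
    have := gap (P ++ Q) Q.length hPQ hl (by rw [List.length_append]; omega) (by
      rw [List.length_append, Nat.add_sub_cancel, List.take_left]; exact hP)
    show 2 * p0 + 2 * N1 < Q.length
    omega
  · -- periodicity
    intro T T' _ _ hTT hb
    have hmod : ((Ms * Grid_899.G κ m : ℕ) : ℤ) ∣ (T' : ℤ) - T := (Nat.modEq_iff_dvd).1 hTT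
    rcases hb with ⟨r, hr, hd⟩ | ⟨i, hi, e, he, hd⟩
    · left
      refine ⟨r, hr, ?_⟩
      rw [hMsF, Finset.mem_image] at hr
      obtain ⟨j, -, rfl⟩ := hr
      have h6 : ((q j : ℕ) : ℤ) ∣ (T' : ℤ) - T := by
        refine dvd_trans ?_ hmod
        exact_mod_cast Dvd.dvd.mul_right (Finset.dvd_prod_of_mem q (Finset.mem_univ j)) _
      have := dvd_add hd h6
      simpa using this
    · right
      refine ⟨i, hi, e, he, ?_⟩
      have h6 : ((2 ^ (κ * (i + 1)) : ℕ) : ℤ) ∣ (T' : ℤ) - T := by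
        refine dvd_trans ?_ hmod
        have : 2 ^ (κ * (i + 1)) ∣ Ms * Grid_899.G κ m := by
          refine Dvd.dvd.mul_left ?_ _
          exact Nat.pow_dvd_pow 2 (Nat.mul_le_mul_left κ (by omega))
        exact_mod_cast this
      have := dvd_add hd h6
      have e7 : (T : ℤ) - (Grid_899.Am Ms κ (i + 1) : ℤ) + e + ((T' : ℤ) - T) =
        (T' : ℤ) - (Grid_899.Am Ms κ (i + 1) : ℤ) + e := by ring
      rw [e7] at this
      exact this
  · -- completeness of the gadget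
    intro Y hY hnb u
    have hY' : N1 + q0 ≤ Y.length := hY
    have hAm : Grid_899.Am Ms κ m ≤ Grid_899.Am Ms κ (m + 1) := Grid_899.Am_succ_ge m
    refine h4 Y (show 2 * Grid_899.Am Ms κ (m + 1) ≤ Y.length by omega) ?_ ?_ u
    · intro j hj
      apply hnb
      left
      exact ⟨q j, by rw [hMsF]; exact Finset.mem_image_of_mem _ (Finset.mem_univ _),
        by exact_mod_cast hj⟩
    · intro j hj1 hjm
      obtain ⟨i, rfl⟩ : ∃ i, j = i + 1 := ⟨j - 1, by omega⟩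
      rw [Nat.add_sub_cancel]
      have hAmj : Grid_899.Am Ms κ (i + 1) ≤ Grid_899.Am Ms κ (m + 1) := Grid_899.Am_mono (by omega)
      have hnb' : ∀ e : ℤ, |e| ≤ ((Ms * 2 ^ (κ * i) : ℕ) : ℤ) →
          ¬ ((2 ^ (κ * (i + 1)) : ℕ) : ℤ) ∣ (Y.length : ℤ) - (Grid_899.Am Ms κ (i + 1) : ℤ) + e :=
        fun e he hd => hnb (Or.inr ⟨i, by omega, e, he, hd⟩)
      have hG1 : Grid_899.G κ i = 2 ^ (κ * i) := rfl
      have hG2 : Grid_899.G κ (i + 1) = 2 ^ (κ * (i + 1)) := rfl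
      rw [hG1, hG2]
      set D : ℕ := Y.length - Grid_899.Am Ms κ (i + 1) with hD
      have hDZ : (D : ℤ) = (Y.length : ℤ) - (Grid_899.Am Ms κ (i + 1) : ℤ) := by omega
      set r : ℕ := D % 2 ^ (κ * (i + 1)) with hr
      have hrd : ((2 ^ (κ * (i + 1)) : ℕ) : ℤ) ∣ (D : ℤ) - r := by
        rw [← Nat.modEq_iff_dvd]
        exact (Nat.mod_modEq _ _)
      have hrlt : r < 2 ^ (κ * (i + 1)) := Nat.mod_lt _ (by positivity)
      constructor
      · by_contra hlt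
        push Not at hlt
        refine hnb' (-(r : ℤ)) ?_ ?_
        · rw [abs_neg, abs_of_nonneg (by positivity)]
          exact_mod_cast hlt.le
        · rw [← hDZ, ← sub_eq_add_neg]; exact hrd
      · by_contra hlt
        push Not at hlt
        refine hnb' (((2 ^ (κ * (i + 1)) : ℕ) : ℤ) - r) ?_ ?_
        · rw [abs_of_nonneg (by have : (r : ℤ) < ((2 ^ (κ * (i + 1)) : ℕ) : ℤ) := by exact_mod_cast hrlt
                                linarith)]
          have : ((2 ^ (κ * (i + 1)) : ℕ) : ℤ) < (r : ℤ) + ((Ms * 2 ^ (κ * i) : ℕ) : ℤ) := by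
            exact_mod_cast hlt
          linarith
        · rw [← hDZ]
          have := dvd_add hrd (dvd_refl ((2 ^ (κ * (i + 1)) : ℕ) : ℤ))
          have e8 : (D : ℤ) + (((2 ^ (κ * (i + 1)) : ℕ) : ℤ) - r) =
            (D : ℤ) - r + ((2 ^ (κ * (i + 1)) : ℕ) : ℤ) := by ring
          rw [e8]; exact this
  · -- exactness of gadget 2
    intro k hk P Q v u hP _ hl hr
    have := e1 k hk P Q 1 v u hP hl hr
    rw [mul_one] at this
    exact this
  · -- completeness of gadget 2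
    intro X1 hX1 v
    exact e2 X1 1 v fun k hk => by rw [hX1]; exact hck k hk
  · -- spacing
    intro a a' b b' _ _ _ _ haa hbb hs1 hs2
    have hs1' : x * 2 ^ a + x * 2 ^ b' < x * 2 ^ b + x * 2 ^ a' + 2 * N1 := hs1
    have hs2' : x * 2 ^ b + x * 2 ^ a' < x * 2 ^ a + x * 2 ^ b' + 2 * N1 := hs2
    have hs3 : x * (2 ^ a + 2 ^ b') < x * (2 ^ b + 2 ^ a' + 1) := by
      have : x * (2 ^ b + 2 ^ a' + 1) = x * 2 ^ b + x * 2 ^ a' + x := by ring
      rw [this, mul_add]; omega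
    have hs4 : x * (2 ^ b + 2 ^ a') < x * (2 ^ a + 2 ^ b' + 1) := by
      have : x * (2 ^ a + 2 ^ b' + 1) = x * 2 ^ a + x * 2 ^ b' + x := by ring
      rw [this, mul_add]; omega
    have h5 : 2 ^ a + 2 ^ b' < 2 ^ b + 2 ^ a' + 1 := Nat.lt_of_mul_lt_mul_left hs3
    have h6 : 2 ^ b + 2 ^ a' < 2 ^ a + 2 ^ b' + 1 := Nat.lt_of_mul_lt_mul_left hs4
    have h7 : 2 ^ a + 2 ^ b' = 2 ^ b + 2 ^ a' := by omega
    have h8 : (2 : ℤ) ^ a - 2 ^ a' = 2 ^ b - 2 ^ b' := by
      have : ((2 ^ a + 2 ^ b' : ℕ) : ℤ) = ((2 ^ b + 2 ^ a' : ℕ) : ℤ) := by rw [h7]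
      push_cast at this
      linarith
    exact (G369.pow_diff (Ne.symm haa) (Ne.symm hbb) h8).1
  · -- thinness
    intro τ hτ J hJ
    have hτ' : p0 + N1 + q0 ≤ τ + p0 := hτ
    have hsub : J ⊆ (((Finset.range K ×ˢ Finset.range K).filter (fun p => p.1 ≠ p.2 ∧
        Thin963.BadT MsF m (fun i => ((2 ^ (κ * i) : ℕ) : ℤ))
          (fun i => ((Ms * 2 ^ (κ * i) : ℕ) : ℤ)) (fun i => (Grid_899.Am Ms κ i : ℤ))
          (((τ : ℤ) - p0) + X * 2 ^ p.1 - X * 2 ^ p.2)))).image Prod.snd := by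
      intro a ha
      obtain ⟨haK, a', ha'K, hne, hb⟩ := hJ a ha
      rw [Finset.mem_image]
      refine ⟨(a', a), ?_, rfl⟩
      rw [Finset.mem_filter, Finset.mem_product, Finset.mem_range, Finset.mem_range]
      refine ⟨⟨ha'K, haK⟩, hne, ?_⟩
      have hle := hck a haK
      have hb' : Thin963.BadT MsF m (fun i => ((2 ^ (κ * i) : ℕ) : ℤ))
          (fun i => ((Ms * 2 ^ (κ * i) : ℕ) : ℤ)) (fun i => (Grid_899.Am Ms κ i : ℤ))
          ((τ + c a' - c a - p0 : ℕ) : ℤ) := hb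
      have e9 : ((τ + c a' - c a - p0 : ℕ) : ℤ) = ((τ : ℤ) - p0) + X * 2 ^ a' - X * 2 ^ a := by
        have e10 : ((τ + c a' - c a - p0 : ℕ) : ℤ) = (τ : ℤ) + (c a' : ℤ) - (c a : ℤ) - (p0 : ℤ) := by
          omega
        have e11 : (c a' : ℤ) = X * 2 ^ a' := by rw [hc]; push_cast; rw [hxX]
        have e12 : (c a : ℤ) = X * 2 ^ a := by rw [hc]; push_cast; rw [hxX]
        rw [e10, e11, e12]; ring
      rw [e9] at hb'
      exact hb'
    calc J.card ≤ _ := Finset.card_le_card hsub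
      _ ≤ _ := Finset.card_image_le
      _ ≤ MsF.card + m := by convert hXthin ((τ : ℤ) - p0)
      _ ≤ k + m := by omega

end Crest.Agent.R320.Fin_4
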