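import Crest.Agent.R320.TopC_403
import Crest.Agent.R320.Block_467

/-!
# Row 320: S0495 from the concrete data `Sys` of TopC_403 (helper403)
-/

set_option autoImplicit false

namespace Crest.Agent.R320.FinC_403

open Crest.RegLang Crest.Agent.R320.Hk_851 Crest.Agent.R320.TopC_403

universe u

theorem final {α : Type u} [Finite α]
    (h : ∀ (S V : Type u) [Monoid S] [Finite S] [AddCommGroup V] [Finite V] (act : V → S → V),
      (∀ v v' s, act (v + v') s = act v s + act v' s) → (∀ v, act v 1 = v) →
      (∀ v s t, act (act v s) t = act v (s * t)) → ∀ φ : α → S, Nonempty (Sys act φ))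
    (L : Language α) (hL : L.IsRegular) : ∃ e : GRegExp α, e.height ≤ 3 ∧ e.lang = L := by
  refine of_monoid (k := 3) (fun S _ _ φ s => ?_) L hL
  obtain ⟨act, hadd, hone, hmul, hfaith⟩ := Crest.Agent.R320.Blk467.exists_module S
  obtain ⟨D⟩ := h S (S → ZMod 2) act hadd hone (fun v s t => (hmul v s t).symm) φ
  exact top D hadd (fun v s t => (hmul v s t).symm) hone hfaith s

end Crest.Agent.R320.FinC_403
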