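import Crest.Agent.R320.Grid_899
import Crest.Agent.R320.Thin_963

/-! # Row 320: constants (helper430) -/

set_option autoImplicit false

namespace Crest.Agent.R320.FinC_430

open Crest.Agent.R320.Grid_899 Crest.Agent.R320.Thin963

/-- distinct large odd primes -/
theorem exists_primes (k N : ℕ) : ∃ q : Fin k → ℕ, Function.Injective q ∧
    ∀ j, (q j).Prime ∧ N ≤ q j := by
  have hinf : ({p : ℕ | p.Prime ∧ N ≤ p} : Set ℕ).Infinite := by
    refine Set.infinite_of_forall_exists_gt fun a => ?_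
    obtain ⟨p, h1, h2⟩ := Nat.exists_infinite_primes (max N (a + 1))
    exact ⟨p, ⟨h2, le_trans (le_max_left _ _) h1⟩, by have := le_max_right N (a + 1); omega⟩
  let e := hinf.natEmbedding
  refine ⟨fun j => (e j.1 : ℕ), ?_, fun j => (e j.1).2⟩
  intro a b h
  exact Fin.ext (e.injective (Subtype.ext h))

theorem sum_pow (κ : ℕ) (hκ : 1 ≤ κ) (i : ℕ) :
    ∑ j ∈ Finset.range (i + 1), (2 : ℤ) ^ (κ * j) ≤ 2 * 2 ^ (κ * i) := by
  induction i with
  | zero => simp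
  | succ i ih =>
    rw [Finset.sum_range_succ]
    have h1 : (2 : ℤ) ^ (κ * (i + 1)) = 2 ^ κ * 2 ^ (κ * i) := by rw [← pow_add]; congr 1; ring
    have h2 : (2 : ℤ) ≤ 2 ^ κ := by
      calc (2 : ℤ) = 2 ^ 1 := by norm_num
        _ ≤ 2 ^ κ := pow_le_pow_right₀ (by norm_num) hκ
    have h3 : (0 : ℤ) < 2 ^ (κ * i) := by positivity
    rw [h1]
    nlinarith

theorem pow_sidon {k k' l l' : ℕ} (h : 2 ^ k + 2 ^ l' = 2 ^ l + 2 ^ k') (h1 : k' ≠ k)
    (h2 : l' ≠ l) : k = l := by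
  have key : ∀ {k k' l l' : ℕ}, 2 ^ k + 2 ^ l' = 2 ^ l + 2 ^ k' → k' ≠ k → l' ≠ l → ¬ k < l := by
    intro k k' l l' h h1 h2 hlt
    have m : ∀ {a b : ℕ}, a < b → 2 ^ a + 2 ^ a ≤ 2 ^ b := by
      intro a b hab
      calc 2 ^ a + 2 ^ a = 2 ^ (a + 1) := by rw [pow_succ]; ring
        _ ≤ 2 ^ b := Nat.pow_le_pow_right (by norm_num) hab
    have p : ∀ a : ℕ, 0 < 2 ^ a := fun a => by positivity
    have h3 := m hlt
    have q1 := p k
    have q2 := p k'
    have q3 := p l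
    have q4 := p l'
    rcases Nat.lt_trichotomy l' l with h4 | h4 | h4
    · have := m h4; omega
    · exact h2 h4
    · have h5 := m h4
      have h6 : k' < l' := by
        by_contra h7
        have : 2 ^ l' ≤ 2 ^ k' := Nat.pow_le_pow_right (by norm_num) (by omega)
        omega
      have h7 := m h6
      omega
  rcases Nat.lt_trichotomy k l with h3 | h3 | h3
  · exact absurd h3 (key h h1 h2)
  · exact h3
  · exact absurd h3 (key (k := l) (k' := l') (l := k) (l' := k') (by omega) h2 h1)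

/-- bad totals of the grid gadget -/
def BadN (k m κ : ℕ) (q : Fin k → ℕ) (T : ℕ) : Prop :=
  (∃ j, q j ∣ T) ∨ ∃ j, 1 ≤ j ∧ j ≤ m ∧
    ¬ ((∏ j, q j) * G κ (j - 1) ≤ (T - Am (∏ j, q j) κ j) % G κ j ∧
      (T - Am (∏ j, q j) κ j) % G κ j + (∏ j, q j) * G κ (j - 1) ≤ G κ j)

theorem Am_mono (Ms κ : ℕ) : Monotone (Am Ms κ) := by
  refine monotone_nat_of_le_succ fun i => ?_
  show Am Ms κ i ≤ Am Ms κ i + G κ i + Ms * G κ i
  omega

theorem G_dvd (κ : ℕ) {i j : ℕ} (h : i ≤ j) : G κ i ∣ G κ j := by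
  unfold G
  exact pow_dvd_pow 2 (Nat.mul_le_mul_left κ h)

theorem G_pos (κ i : ℕ) : 0 < G κ i := by unfold G; positivity

theorem bad_per {k m κ : ℕ} {q : Fin k → ℕ} (T T' : ℕ) (h1 : Am (∏ j, q j) κ (m + 1) ≤ T)
    (h2 : Am (∏ j, q j) κ (m + 1) ≤ T') (h : T ≡ T' [MOD (∏ j, q j) * G κ m])
    (hb : BadN k m κ q T) : BadN k m κ q T' := by
  rcases hb with ⟨j, hj⟩ | ⟨j, hj1, hjm, hj⟩
  · left
    refine ⟨j, (h.dvd_iff ?_).1 hj⟩
    exact (Finset.dvd_prod_of_mem q (Finset.mem_univ j)).mul_right _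
  · right
    refine ⟨j, hj1, hjm, ?_⟩
    have hA : Am (∏ j, q j) κ j ≤ Am (∏ j, q j) κ (m + 1) := Am_mono _ _ (by omega)
    have e : (T - Am (∏ j, q j) κ j) % G κ j = (T' - Am (∏ j, q j) κ j) % G κ j := by
      have h3 : T ≡ T' [MOD G κ j] := h.of_dvd ((G_dvd κ hjm).mul_left _)
      have h4 : (T - Am (∏ j, q j) κ j) + Am (∏ j, q j) κ j ≡
          (T' - Am (∏ j, q j) κ j) + Am (∏ j, q j) κ j [MOD G κ j] := by
        rw [Nat.sub_add_cancel (by omega), Nat.sub_add_cancel (by omega)]; exact h3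
      exact Nat.ModEq.add_right_cancel' _ h4
    rw [← e]; exact hj

theorem bad_int {k m κ : ℕ} {q : Fin k → ℕ} (T : ℕ) (h1 : Am (∏ j, q j) κ (m + 1) ≤ T)
    (hb : BadN k m κ q T) :
    BadT (Finset.univ.image q) m (fun i => (G κ i : ℤ)) (fun i => ((∏ j, q j) * G κ i : ℕ))
      (fun i => (Am (∏ j, q j) κ i : ℤ)) (T : ℤ) := by
  rcases hb with ⟨j, hj⟩ | ⟨j, hj1, hjm, hj⟩
  · left
    exact ⟨q j, Finset.mem_image_of_mem _ (Finset.mem_univ _), by exact_mod_cast hj⟩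
  · right
    obtain ⟨i, rfl⟩ := Nat.exists_eq_add_of_le hj1
    rw [Nat.add_comm 1 i] at hjm hj
    have hA : Am (∏ j, q j) κ (i + 1) ≤ T := le_trans (Am_mono _ _ (by omega)) h1
    rw [Nat.add_sub_cancel] at hj
    set D := G κ (i + 1) with hD
    set r := (T - Am (∏ j, q j) κ (i + 1)) % D with hr
    set cc := (∏ j, q j) * G κ i with hcc
    have hr1 : r < D := Nat.mod_lt _ (G_pos κ (i + 1))
    have hdiv := Nat.mod_add_div (T - Am (∏ j, q j) κ (i + 1)) D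
    rw [← hr] at hdiv
    set Q := (T - Am (∏ j, q j) κ (i + 1)) / D with hQ
    have hTz : (T : ℤ) - Am (∏ j, q j) κ (i + 1) = r + D * Q := by
      have : ((T - Am (∏ j, q j) κ (i + 1) : ℕ) : ℤ) = (r : ℤ) + D * Q := by
        rw [← hdiv]; push_cast; ring
      rw [← this, Nat.cast_sub hA]
    refine ⟨i, by omega, ?_⟩
    by_cases h3 : cc ≤ r
    · have h4 : D < r + cc := by
        by_contra h5
        exact hj ⟨h3, by omega⟩
      refine ⟨(D : ℤ) - r, ?_, ?_⟩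
      · show |(D : ℤ) - r| ≤ (cc : ℤ)
        rw [abs_of_nonneg (by omega)]
        omega
      · show (D : ℤ) ∣ (T : ℤ) - Am (∏ j, q j) κ (i + 1) + ((D : ℤ) - r)
        rw [hTz]
        exact ⟨Q + 1, by ring⟩
    · refine ⟨-(r : ℤ), ?_, ?_⟩
      · show |-(r : ℤ)| ≤ (cc : ℤ)
        rw [abs_neg, abs_of_nonneg (by omega)]
        omega
      · show (D : ℤ) ∣ (T : ℤ) - Am (∏ j, q j) κ (i + 1) + -(r : ℤ)
        rw [hTz]
        exact ⟨Q, by ring⟩

/-- the thin ruler -/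
theorem ruler (K k m : ℕ) (q : Fin k → ℕ) (hq : ∀ j, (q j).Prime ∧ 2 ^ (K + 1) + 1 ≤ q j)
    (κ : ℕ) (hκ : 2 ^ (K + 5) * (∏ j, q j) ≤ 2 ^ κ) (hκ1 : 1 ≤ κ) (N0 : ℕ) :
    ∃ X : ℕ, N0 ≤ X ∧ 0 < X ∧ ∀ T, X * 2 ^ K + Am (∏ j, q j) κ (m + 1) ≤ T → ∀ J : Finset ℕ,
      (∀ a ∈ J, a < K ∧ ∃ b, b < K ∧ b ≠ a ∧ BadN k m κ q (T + X * 2 ^ b - X * 2 ^ a)) →
      J.card ≤ k + m := by
  classical
  obtain ⟨X, hX0, hXp, hX⟩ := thin K m (Finset.univ.image q) (fun i => (G κ i : ℤ))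
    (fun i => ((∏ j, q j) * G κ i : ℕ)) (fun i => (Am (∏ j, q j) κ i : ℤ))
    (by
      intro p hp
      obtain ⟨j, -, rfl⟩ := Finset.mem_image.1 hp
      exact ⟨(hq j).1, by have := (hq j).2; omega⟩)
    (by
      intro p hp
      obtain ⟨j, -, rfl⟩ := Finset.mem_image.1 hp
      rw [Nat.isCoprime_iff_coprime]
      unfold G
      refine Nat.Coprime.pow_right _ ?_
      rw [Nat.coprime_two_right]
      refine (hq j).1.odd_of_ne_two ?_
      have h1 := (hq j).2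
      have h2 : 2 ^ 1 ≤ 2 ^ (K + 1) := Nat.pow_le_pow_right (by norm_num) (by omega)
      omega)
    (by have := G_pos κ m; exact_mod_cast this)
    (by
      intro i j hij
      have := G_dvd κ hij
      exact_mod_cast this)
    (by
      intro i
      have h1 : 0 < ∏ j, q j := Finset.prod_pos fun j _ => (hq j).1.pos
      have h2 := G_pos κ i
      have h3 := Nat.mul_pos h1 h2
      exact_mod_cast h3)
    (by
      intro i
      have : G κ i ∣ (∏ j, q j) * G κ i := Dvd.intro_left _ rfl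
      exact_mod_cast this)
    (by
      intro i _
      have h1 := sum_pow κ hκ1 i
      have e : ∑ j ∈ Finset.range (i + 1), (((∏ j, q j) * G κ j : ℕ) : ℤ) =
          ((∏ j, q j : ℕ) : ℤ) * ∑ j ∈ Finset.range (i + 1), (2 : ℤ) ^ (κ * j) := by
        rw [Finset.mul_sum]
        refine Finset.sum_congr rfl fun j _ => ?_
        unfold G
        push_cast
        ring
      show (2 : ℤ) ^ (K + 4) * ∑ j ∈ Finset.range (i + 1), (((∏ j, q j) * G κ j : ℕ) : ℤ) ≤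
        ((G κ (i + 1) : ℕ) : ℤ)
      rw [e]
      have hκ' : (2 : ℤ) ^ (K + 5) * ((∏ j, q j : ℕ) : ℤ) ≤ 2 ^ κ := by exact_mod_cast hκ
      have e2 : ((G κ (i + 1) : ℕ) : ℤ) = 2 ^ κ * 2 ^ (κ * i) := by
        unfold G
        push_cast
        rw [← pow_add]; congr 1; ring
      rw [e2]
      have e3 : (2 : ℤ) ^ (K + 5) = 2 * 2 ^ (K + 4) := by rw [pow_succ]; ring
      rw [e3] at hκ'
      set M : ℤ := ((∏ j, q j : ℕ) : ℤ) with hM
      have hM0 : 0 ≤ M := by positivity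
      have hp : (0 : ℤ) < 2 ^ (κ * i) := by positivity
      calc (2 : ℤ) ^ (K + 4) * (M * ∑ j ∈ Finset.range (i + 1), (2 : ℤ) ^ (κ * j))
          ≤ 2 ^ (K + 4) * (M * (2 * 2 ^ (κ * i))) := by
            refine mul_le_mul_of_nonneg_left (mul_le_mul_of_nonneg_left h1 hM0) (by positivity)
        _ = (2 * 2 ^ (K + 4) * M) * 2 ^ (κ * i) := by ring
        _ ≤ 2 ^ κ * 2 ^ (κ * i) := mul_le_mul_of_nonneg_right hκ' hp.le) (N0 : ℤ)
  refine ⟨X.toNat, by omega, by omega, ?_⟩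
  intro T hT J hJ
  have hXn : ((X.toNat : ℕ) : ℤ) = X := Int.toNat_of_nonneg hXp.le
  set x := X.toNat with hx
  choose! hJ1 f hf1 hf2 hf3 using hJ
  have h1 := hX (T : ℤ)
  have hcard : (Finset.univ.image q).card ≤ k := by
    have := Finset.card_image_le (s := (Finset.univ : Finset (Fin k))) (f := q)
    simpa using this
  have h2 : J.card ≤ (((Finset.range K) ×ˢ (Finset.range K)).filter (fun p => p.1 ≠ p.2 ∧
        BadT (Finset.univ.image q) m (fun i => (G κ i : ℤ)) (fun i => ((∏ j, q j) * G κ i : ℕ))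
          (fun i => (Am (∏ j, q j) κ i : ℤ)) ((T : ℤ) + X * 2^p.1 - X * 2^p.2))).card := by
    refine Finset.card_le_card_of_injOn (fun a => (f a, a)) ?_ ?_
    · intro a ha
      have ha' : a ∈ J := ha
      have h3 := hf3 a ha'
      have h4 := hJ1 a ha'
      have h5 : x * 2 ^ a ≤ x * 2 ^ K :=
        Nat.mul_le_mul_left _ (Nat.pow_le_pow_right (by norm_num) h4.le)
      have h6 := bad_int _ (by omega) h3
      simp only [Finset.coe_filter, Set.mem_setOf_eq, Finset.mem_product, Finset.mem_range]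
      refine ⟨⟨hf1 a ha', h4⟩, hf2 a ha', ?_⟩
      have e : ((T + x * 2 ^ f a - x * 2 ^ a : ℕ) : ℤ) = (T : ℤ) + X * 2 ^ f a - X * 2 ^ a := by
        rw [Nat.cast_sub (by omega)]
        push_cast
        rw [hXn]
      rw [e] at h6
      exact h6
    · intro a _ b _ h
      exact (Prod.ext_iff.1 h).2
  omega

end Crest.Agent.R320.FinC_430
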