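import Crest.Agent.R320.GridG_19
import Crest.Agent.R320.GridRuler_314

/-!
Row 320: gadget 1 (GridG_19) with ruler and spoil count (GridRuler_314), packaged with the
constants in the right order (helper455).
-/

set_option autoImplicit false

namespace Crest.Agent.R320.FinC_455

open Finset Crest.Agent.R320.GridG_19

theorem gad' (S V : Type) [Monoid S] [Finite S] [AddCommGroup V] [Finite V] (act : V → S → V) :
    ∃ C0 : ℕ, ∀ K : ℕ, ∃ (N1 L A M0 X : ℕ) (BadT : ℕ → Prop), 0 < M0 ∧ 0 < X ∧ 0 < N1 ∧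
      (∀ a b c d : ℕ, a ≠ b →
        |(((2 ^ a * X : ℕ) : ℤ) - (2 ^ b * X : ℕ)) - (((2 ^ c * X : ℕ) : ℤ) - (2 ^ d * X : ℕ))| ≤
          2 * N1 → a = c ∧ b = d) ∧
      (∀ T, L + 2 ^ K * X ≤ T → ∀ [DecidablePred fun ab : ℕ × ℕ => ab.1 ≠ ab.2 ∧
        BadT (T + 2 ^ ab.1 * X - 2 ^ ab.2 * X)], ((range K ×ˢ range K).filter
          (fun ab : ℕ × ℕ => ab.1 ≠ ab.2 ∧ BadT (T + 2 ^ ab.1 * X - 2 ^ ab.2 * X))).card ≤ C0) ∧
      ∀ (α : Type) (φ : List α → S), (∀ u v, φ (u ++ v) = φ u * φ v) →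
        ∃ (lam rho : List α → Option V) (nu : List α → V),
          (∀ P Q v b, lam P = some v → rho Q = some b →
            b = act v (φ (P ++ Q)) + nu (P ++ Q)) ∧
          (∀ P v, lam P = some v → P.length ≤ N1) ∧
          (∀ Y : List α, L ≤ Y.length → ¬ BadT Y.length → ∀ v, ∃ P Q, P ++ Q = Y ∧
            lam P = some v ∧ (rho Q).isSome) ∧
          (∀ Y Y' : List α, A ≤ Y.length → A ≤ Y'.length → Y.take A = Y'.take A →
            Y.length ≡ Y'.length [MOD M0] → φ Y = φ Y' → nu Y = nu Y') := by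
  classical
  obtain ⟨m, r, H⟩ := grid.{0} S V act
  refine ⟨r + m, fun K => ?_⟩
  obtain ⟨Ms, hcard, hpr, H1⟩ := H (2 ^ (K + 1))
  set M := ∏ q ∈ Ms, q with hMdef
  have hM : 0 < M := Finset.prod_pos fun q hq => (hpr q hq).1.pos
  let κ := K + 5 + M
  let G : ℕ → ℕ := fun k => 2 ^ (κ * k)
  have hG : ∀ k, 0 < G k := fun k => by positivity
  have hd : ∀ a b, a ≤ b → G a ∣ G b := fun a b h => pow_dvd_pow 2 (Nat.mul_le_mul_left _ h)
  have hcop2 : Nat.Coprime M 2 := by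
    rw [hMdef]
    refine Nat.Coprime.prod_left fun q hq => ?_
    have h1 := hpr q hq
    refine (Nat.coprime_primes h1.1 Nat.prime_two).2 ?_
    have : 2 ^ 1 ≤ 2 ^ (K + 1) := Nat.pow_le_pow_right (by norm_num) (by omega)
    omega
  have hcop : ∀ k, Nat.Coprime M (G k) := fun k => hcop2.pow_right _
  let c : ℕ → ℕ := fun k => M * G k
  have hbig : ∀ i, 2 ^ (K + 4) * ∑ j ∈ range i, c j ≤ G i := by
    intro i
    induction i with
    | zero => simp
    | succ i ih =>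
      rw [Finset.sum_range_succ, Nat.mul_add]
      have e : G (i + 1) = 2 ^ κ * G i := by
        show 2 ^ (κ * (i + 1)) = 2 ^ κ * 2 ^ (κ * i)
        rw [← pow_add]; congr 1; ring
      have h2 : M ≤ 2 ^ M := Nat.lt_two_pow_self.le
      have h3 : 2 ^ κ = 2 ^ (K + 4) * 2 * 2 ^ M := by
        show 2 ^ (K + 5 + M) = _
        rw [pow_add, pow_succ]
      have h4 : 1 ≤ 2 ^ (K + 4) := Nat.one_le_two_pow
      have h5 : 1 + 2 ^ (K + 4) * M ≤ 2 ^ κ := by
        rw [h3]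
        calc 1 + 2 ^ (K + 4) * M ≤ 2 ^ (K + 4) * M + 2 ^ (K + 4) * M := by
              have : 1 ≤ 2 ^ (K + 4) * M := Nat.mul_pos (by positivity) hM
              omega
          _ = 2 ^ (K + 4) * 2 * M := by ring
          _ ≤ _ := Nat.mul_le_mul_left _ h2
      calc 2 ^ (K + 4) * ∑ j ∈ range i, c j + 2 ^ (K + 4) * c i
          ≤ G i + 2 ^ (K + 4) * c i := by omega
        _ = (1 + 2 ^ (K + 4) * M) * G i := by show _ + _ * (M * G i) = _; ring
        _ ≤ 2 ^ κ * G i := Nat.mul_le_mul_right _ h5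
        _ = _ := e.symm
  obtain ⟨X, hX, -, -, -, hcount⟩ := GridRuler314.grid_ruler (2 * (Am G M 0 m + 1)) K m Ms G c
    (fun i => Nat.mul_pos hM (hG i)) (fun i => Dvd.intro_left _ rfl) (fun i => hd _ _ (by omega))
    (hG m) (fun i _ _ => hbig i) (hcop m).symm (fun q hq => (hpr q hq).2)
  refine ⟨Am G M 0 m + 1, 2 * Am G M 0 m + M, Ac G M 0 m, M * G m, X,
    fun T => (∃ q ∈ Ms, q ∣ T) ∨ BadG G M 0 m T, Nat.mul_pos hM (hG m), by omega, by omega, ?_, ?_, ?_⟩
  · intro a b c d hab h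
    have e : (((2 ^ a * X : ℕ) : ℤ) - (2 ^ b * X : ℕ)) - (((2 ^ c * X : ℕ) : ℤ) - (2 ^ d * X : ℕ))
        = (((2 : ℤ) ^ a - 2 ^ b) - (2 ^ c - 2 ^ d)) * X := by push_cast; ring
    rw [e] at h
    refine GridRuler314.coef_zero hab ?_
    by_contra hne
    rw [abs_mul] at h
    have h1 := Int.one_le_abs hne
    have h2 : |(X : ℤ)| = X := Nat.abs_cast X
    rw [h2] at h
    have h3 : ((2 * (Am G M 0 m + 1) : ℕ) : ℤ) < (X : ℤ) := by exact_mod_cast hX
    push_cast at h3 h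
    nlinarith
  · intro T hT _
    obtain ⟨P, hP, hPm⟩ := hcount (fun i => (Am G M 0 i : ℤ)) (T : ℤ)
    refine le_trans ?_ (show P.card ≤ r + m by omega)
    refine Finset.card_le_card_of_injOn Prod.swap ?_ (fun x _ y _ h => Prod.swap_injective h)
    rintro ⟨a, b⟩ hab
    rw [Finset.mem_coe, Finset.mem_filter, Finset.mem_product, Finset.mem_range,
      Finset.mem_range] at hab
    obtain ⟨⟨ha, hb⟩, hne, hbad⟩ := hab
    simp only at ha hb hne hbad
    refine hPm b a hb ha (fun h => hne h.symm) ?_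
    have hbK : 2 ^ b * X ≤ 2 ^ K * X :=
      Nat.mul_le_mul_right _ (Nat.pow_le_pow_right (by norm_num) hb.le)
    have hcast : (T : ℤ) - (GridRuler314.xm X b - GridRuler314.xm X a) =
        ((T + 2 ^ a * X - 2 ^ b * X : ℕ) : ℤ) := by
      rw [Nat.cast_sub (by omega)]
      unfold GridRuler314.xm
      push_cast; ring
    rw [hcast]
    have hT' : 2 * Am G M 0 m + M ≤ T + 2 ^ a * X - 2 ^ b * X := by omega
    generalize T + 2 ^ a * X - 2 ^ b * X = T' at hbad hT'
    rcases hbad with ⟨q, hq, hqd⟩ | ⟨k, hk, hbad⟩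
    · exact Or.inl ⟨q, hq, by exact_mod_cast hqd⟩
    · right
      refine ⟨k + 1, by omega, by omega, ?_⟩
      have hA : Am G M 0 (k + 1) ≤ Am G M 0 m := Am_mono _ _ _ (by omega)
      set g := G (k + 1) with hg
      set n := T' - Am G M 0 (k + 1) with hn
      have hdm := Nat.div_add_mod n g
      have hlt := Nat.mod_lt n (hG (k + 1))
      have hnc : (T' : ℤ) - (Am G M 0 (k + 1) : ℤ) = (n : ℤ) := by
        rw [hn, Nat.cast_sub (by omega)]
      have hdm' : (g : ℤ) * ((n / g : ℕ) : ℤ) + ((n % g : ℕ) : ℤ) = n := by exact_mod_cast hdm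
      rcases hbad with h | h
      · refine ⟨((n / g : ℕ) : ℤ), ?_⟩
        show |(T' : ℤ) - (Am G M 0 (k + 1) : ℤ) - _ * (g : ℤ)| ≤ ((M * G (k + 1 - 1) : ℕ) : ℤ)
        rw [hnc, Nat.add_sub_cancel]
        have e1 : (n : ℤ) - ((n / g : ℕ) : ℤ) * (g : ℤ) = ((n % g : ℕ) : ℤ) := by
          rw [← hdm']; ring
        rw [e1, abs_of_nonneg (by positivity)]
        exact_mod_cast h.le
      · refine ⟨((n / g : ℕ) : ℤ) + 1, ?_⟩
        show |(T' : ℤ) - (Am G M 0 (k + 1) : ℤ) - _ * (g : ℤ)| ≤ ((M * G (k + 1 - 1) : ℕ) : ℤ)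
        rw [hnc, Nat.add_sub_cancel]
        have e1 : (n : ℤ) - (((n / g : ℕ) : ℤ) + 1) * (g : ℤ) = ((n % g : ℕ) : ℤ) - g := by
          rw [← hdm']; ring
        have h' : (g : ℤ) ≤ ((n % g : ℕ) : ℤ) + ((M * G k : ℕ) : ℤ) := by exact_mod_cast h
        have hlt' : ((n % g : ℕ) : ℤ) < g := by exact_mod_cast hlt
        rw [e1, abs_of_nonpos (by linarith)]
        linarith
  · intro α φ hφ
    obtain ⟨lam, rho, nu, h1, h2, -, h4, h5⟩ := H1 G 0 hG hd hcop α φ hφ
    refine ⟨lam, rho, nu, h1, fun P v h => (h2 P v h).2.le.trans (Nat.le_succ _), ?_, h5⟩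
    intro Y hY hb v
    exact h4 Y (by omega) (by omega) (fun q hq hqd => hb (Or.inl ⟨q, hq, hqd⟩))
      (fun h => hb (Or.inr h)) v



theorem ug : ∀ (S V : Type) [Monoid S] [Finite S] [AddCommGroup V] [Finite V] (act : V → S → V),
    (∀ a b s, act (a + b) s = act a s + act b s) →
    ∃ C0 : ℕ, ∀ K : ℕ, ∃ (N1 Pm La : ℕ) (c : ℕ → ℕ) (Bad : ℕ → Prop), 0 < Pm ∧ 0 < N1 ∧
      (∀ i j, i < j → j < K → c i < c j) ∧
      (∀ k k' l l', k < K → k' < K → l < K → l' < K → k' ≠ k → l' ≠ l →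
        c k + c l' < c l + c k' + 2 * N1 → c l + c k' < c k + c l' + 2 * N1 → k = l) ∧
      (∀ T, La ≤ T → (∀ k < K, c k ≤ T) → ∀ J : Finset ℕ,
        (∀ k ∈ J, k < K ∧ ∃ k', k' < K ∧ k' ≠ k ∧ Bad (T + c k' - c k)) → J.card ≤ C0) ∧
      ∀ (A : Type) (f : A → S), ∃ (lam rho : List A → Option V) (nu : List A → V),
        (∀ P v, lam P = some v → P.length ≤ N1) ∧
        (∀ P Q v r, lam P = some v → rho Q = some r →
          r = act v ((P ++ Q).map f).prod + nu (P ++ Q)) ∧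
        (∀ u, La ≤ u.length → ¬ Bad u.length → ∀ v, ∃ P Q, u = P ++ Q ∧ lam P = some v ∧
          (rho Q).isSome) ∧
        (∀ q q', La ≤ q.length → La ≤ q'.length → q.take La = q'.take La →
          q.length % Pm = q'.length % Pm →
          ((q.drop La).map f).prod = ((q'.drop La).map f).prod → nu q = nu q') := by
  classical
  intro S V _ _ _ _ act _
  obtain ⟨C0, H⟩ := gad' S V act
  refine ⟨C0, fun K => ?_⟩
  obtain ⟨N1, L, A0, M0, X, BadT, hM0, hX, hN1, hgol, hsp, hgad⟩ := H K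
  refine ⟨N1, M0, L + 2 ^ K * X + A0, fun k => 2 ^ k * X, BadT, hM0, hN1, ?_, ?_, ?_, ?_⟩
  · intro i j hij _
    exact Nat.mul_lt_mul_of_pos_right (Nat.pow_lt_pow_right (by norm_num) hij) hX
  · intro k k' l l' _ _ _ _ hk _ h1 h2
    refine (hgol k k' l l' hk.symm ?_).1
    simp only at h1 h2
    generalize 2 ^ k * X = a at h1 h2 ⊢
    generalize 2 ^ k' * X = b at h1 h2 ⊢
    generalize 2 ^ l * X = c at h1 h2 ⊢
    generalize 2 ^ l' * X = d at h1 h2 ⊢
    rw [abs_le]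
    constructor <;> omega
  · intro T hT _ J hJ
    refine le_trans ?_ (hsp T (by omega))
    have hsub : J ⊆ (((range K ×ˢ range K).filter (fun ab : ℕ × ℕ => ab.1 ≠ ab.2 ∧
        BadT (T + 2 ^ ab.1 * X - 2 ^ ab.2 * X))).image Prod.snd) := by
      intro k hk
      obtain ⟨h1, k', h2, h3, h4⟩ := hJ k hk
      rw [Finset.mem_image]
      refine ⟨(k', k), ?_, rfl⟩
      rw [Finset.mem_filter, Finset.mem_product, Finset.mem_range, Finset.mem_range]
      exact ⟨⟨h2, h1⟩, h3, h4⟩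
    exact (Finset.card_le_card hsub).trans Finset.card_image_le
  · intro A f
    obtain ⟨lam, rho, nu, h1, h2, h3, h4⟩ := hgad A (fun w => (w.map f).prod) (by simp)
    refine ⟨lam, rho, nu, h2, fun P Q v r hP hQ => h1 P Q v r hP hQ, ?_, ?_⟩
    · intro u hu hb v
      obtain ⟨P, Q, e, h5, h6⟩ := h3 u (by omega) hb v
      exact ⟨P, Q, e.symm, h5, h6⟩
    · intro q q' hq hq' ht hm hd
      refine h4 q q' (by omega) (by omega) ?_ hm ?_
      · have h7 := congrArg (List.take A0) ht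
        rwa [List.take_take, List.take_take, Nat.min_eq_left (by omega)] at h7
      · show (q.map f).prod = (q'.map f).prod
        rw [← List.take_append_drop (L + 2 ^ K * X + A0) q,
          ← List.take_append_drop (L + 2 ^ K * X + A0) q', List.map_append, List.map_append,
          List.prod_append, List.prod_append, hd, ht]

end Crest.Agent.R320.FinC_455
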