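import Crest.Agent.R320.FinB_542

/-! Row 320: the final theorem on `Type` (helper542). -/

set_option autoImplicit false

namespace Crest.Agent.R320.Fin_542

open Crest.Agent.R320.Hk_851 Crest.Agent.R320.Sc2n_937

theorem free_PN {α : Type} (Wo : List α → Prop) (B' W : ℕ)
    (hfree : ∀ X : List α, (∀ t < X.length, ¬ Wo (X.take t)) →
        ∃ (u x v : List α) (k : ℕ), u.length ≤ B' ∧ x.length ≤ W ∧ v.length ≤ B' ∧
          X = u ++ (List.replicate k x).flatten ++ v) :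
    ∀ u : List α, (∀ t < u.length, ¬ Wo (u.take t)) →
      u ∈ (Crest.Agent.R320.BddReg_746.PN (max B' W) 2 : Language α) := by
  intro u hu
  obtain ⟨a, x, v, k, ha, hx, hv, e⟩ := hfree u hu
  refine Language.mem_mul.2 ⟨a ++ (List.replicate k x).flatten,
    ⟨a, x, k, le_trans ha (le_max_left _ _), le_trans hx (le_max_right _ _), rfl⟩, v,
    Language.mem_mul.2 ⟨v, ⟨v, [], 0, le_trans hv (le_max_left _ _), by simp, by
      simp [Crest.Agent.R320.BddReg_746.pw]⟩, [], rfl, by simp⟩, e.symm⟩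

theorem spaced (X : ℤ) (N1 : ℕ) (hX : 2 * (N1 : ℤ) + 1 ≤ X) (k k' l l' : ℕ) (h1 : k' ≠ k)
    (h2 : l' ≠ l)
    (h3 : X * 2 ^ k + X * 2 ^ l' < X * 2 ^ l + X * 2 ^ k' + 2 * N1)
    (h4 : X * 2 ^ l + X * 2 ^ k' < X * 2 ^ k + X * 2 ^ l' + 2 * N1) : k = l := by
  by_contra hkl
  have hne : (2:ℤ) ^ k - 2 ^ k' ≠ 2 ^ l - 2 ^ l' := by
    intro h
    exact hkl (G369.pow_diff h1.symm h2.symm h).1
  have h5 : (1:ℤ) ≤ |(2:ℤ) ^ k - 2 ^ k' - (2 ^ l - 2 ^ l')| :=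
    Int.one_le_abs (sub_ne_zero.2 hne)
  have hXpos : 0 < X := by omega
  have h6 : X ≤ |X * ((2:ℤ) ^ k - 2 ^ k' - (2 ^ l - 2 ^ l'))| := by
    rw [abs_mul, abs_of_pos hXpos]
    nlinarith
  have h7 : |X * ((2:ℤ) ^ k - 2 ^ k' - (2 ^ l - 2 ^ l'))| < 2 * N1 := by
    rw [abs_lt]
    constructor <;> nlinarith
  omega

theorem bad_of_unclean (Ms κ m : ℕ) (T j : ℕ) (hj1 : 1 ≤ j) (hj2 : j ≤ m)
    (hT : Grid_899.Am Ms κ j ≤ T)
    (h : ¬ (Ms * Grid_899.G κ (j - 1) ≤ (T - Grid_899.Am Ms κ j) % Grid_899.G κ j ∧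
      (T - Grid_899.Am Ms κ j) % Grid_899.G κ j + Ms * Grid_899.G κ (j - 1) ≤ Grid_899.G κ j)) :
    ∃ i < m, ∃ e : ℤ, |e| ≤ ((Ms * Grid_899.G κ i : ℕ) : ℤ) ∧
      ((Grid_899.G κ (i + 1) : ℕ) : ℤ) ∣ (T : ℤ) - ((Grid_899.Am Ms κ (i + 1) : ℕ) : ℤ) + e := by
  obtain ⟨i, rfl⟩ : ∃ i, j = i + 1 := ⟨j - 1, by omega⟩
  rw [Nat.add_sub_cancel] at h
  refine ⟨i, by omega, ?_⟩
  set G := Grid_899.G κ (i + 1) with hG
  set A := Grid_899.Am Ms κ (i + 1) with hA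
  have hGpos : 0 < G := Grid_899.G_pos (κ := κ) (i + 1)
  have hmod := Nat.mod_lt (T - A) hGpos
  have hdm := Nat.div_add_mod (T - A) G
  set r := (T - A) % G with hr
  set c := Ms * Grid_899.G κ i with hc
  have hTA : (T : ℤ) - A = G * ((T - A) / G : ℕ) + r := by
    have : (T : ℤ) - A = ((T - A : ℕ) : ℤ) := by push_cast [Nat.cast_sub hT]; ring
    rw [this]; exact_mod_cast hdm.symm
  by_cases h1 : c ≤ r
  · have h2 : G < r + c := by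
      by_contra h3
      exact h ⟨h1, by omega⟩
    refine ⟨(G : ℤ) - r, ?_, ?_⟩
    · rw [abs_of_nonneg (by omega)]; omega
    · exact ⟨((T - A) / G : ℕ) + 1, by rw [hTA]; ring⟩
  · refine ⟨-(r : ℤ), ?_, ?_⟩
    · rw [abs_neg, abs_of_nonneg (by omega)]; omega
    · exact ⟨((T - A) / G : ℕ), by rw [hTA]; ring⟩

end Crest.Agent.R320.Fin_542
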