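import Crest.Agent.R320.FinB_590
import Crest.Agent.R320.Grid_899
import Crest.Agent.R320.Thin_963
import Crest.Agent.R320.ExactR_237
import Crest.Agent.R320.LWallAll_922
import Crest.Agent.R320.Block_467

set_option autoImplicit false
set_option linter.unusedSectionVars false

namespace Crest.Agent.R320.FinC_590

open Crest.RegLang Crest.Agent.R320.Hk_851 Crest.Agent.R320.Sc2n_937
open Crest.Agent.R320.BddReg_746 Crest.Agent.R320.FinA_590
open Crest.Agent.R320.Grid_899 (G Am G_pos G_dvd Am_mono)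

/-- thin set of scheme 1 -/
def BT {kk : ℕ} (q : Fin kk → ℕ) (κ m : ℕ) (n : ℕ) : Prop :=
  (∃ j, q j ∣ n) ∨ ¬ (∀ j, 1 ≤ j → j ≤ m →
    (∏ j, q j) * G κ (j - 1) ≤ (n - Am (∏ j, q j) κ j) % G κ j ∧
    (n - Am (∏ j, q j) κ j) % G κ j + (∏ j, q j) * G κ (j - 1) ≤ G κ j)

theorem BT_per {kk : ℕ} (q : Fin kk → ℕ) (κ m : ℕ) (a b : ℕ)
    (ha : Am (∏ j, q j) κ (m + 1) ≤ a) (hb : Am (∏ j, q j) κ (m + 1) ≤ b)
    (h : a ≡ b [MOD (∏ j, q j) * G κ m]) : BT q κ m a ↔ BT q κ m b := by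
  unfold BT
  have h1 : ∀ j, (q j ∣ a ↔ q j ∣ b) := fun j =>
    h.dvd_iff ((Finset.dvd_prod_of_mem q (Finset.mem_univ j)).trans (Dvd.intro _ rfl))
  have h2 : ∀ j, j ≤ m → (a - Am (∏ j, q j) κ j) % G κ j = (b - Am (∏ j, q j) κ j) % G κ j := by
    intro j hj
    have h3 : Am (∏ j, q j) κ j ≤ Am (∏ j, q j) κ (m + 1) := Am_mono (by omega)
    have h4 : (a - Am (∏ j, q j) κ j) + Am (∏ j, q j) κ j ≡
        (b - Am (∏ j, q j) κ j) + Am (∏ j, q j) κ j [MOD (∏ j, q j) * G κ m] := by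
      rw [Nat.sub_add_cancel (by omega), Nat.sub_add_cancel (by omega)]
      exact h
    have h5 := Nat.ModEq.add_right_cancel' _ h4
    exact h5.of_dvd ((G_dvd hj).trans (Dvd.intro_left _ rfl))
  refine or_congr (exists_congr h1) (not_congr ?_)
  refine forall_congr' fun j => forall_congr' fun _ => forall_congr' fun hj => ?_
  rw [h2 j hj]

theorem BT_int {kk : ℕ} (q : Fin kk → ℕ) (κ m : ℕ) (n : ℕ)
    (hn : Am (∏ j, q j) κ (m + 1) ≤ n) (h : BT q κ m n) :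
    Crest.Agent.R320.Thin963.BadT (Finset.univ.image q) m (fun i => (G κ i : ℤ))
      (fun i => (((∏ j, q j) * G κ i : ℕ) : ℤ)) (fun i => (Am (∏ j, q j) κ i : ℤ)) (n : ℤ) := by
  rcases h with ⟨j, hj⟩ | h
  · left
    exact ⟨q j, Finset.mem_image_of_mem q (Finset.mem_univ j), by exact_mod_cast hj⟩
  · right
    push Not at h
    obtain ⟨j, hj1, hjm, hj⟩ := h
    obtain ⟨i, rfl⟩ : ∃ i, j = i + 1 := ⟨j - 1, by omega⟩
    rw [Nat.add_sub_cancel] at hj
    refine ⟨i, by omega, ?_⟩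
    have hA : Am (∏ j, q j) κ (i + 1) ≤ n := (Am_mono (by omega)).trans hn
    set t := n - Am (∏ j, q j) κ (i + 1) with ht
    have htz : (n : ℤ) - (Am (∏ j, q j) κ (i + 1) : ℤ) = (t : ℤ) := by
      rw [ht, Nat.cast_sub hA]
    have hdm := Nat.div_add_mod t (G κ (i + 1))
    have hlt := Nat.mod_lt t (G_pos (κ := κ) (i + 1))
    by_cases h1 : (∏ j, q j) * G κ i ≤ t % G κ (i + 1)
    · have h2 := hj h1
      refine ⟨((G κ (i + 1) - t % G κ (i + 1) : ℕ) : ℤ), ?_, ?_⟩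
      · rw [abs_of_nonneg (by positivity)]
        exact Nat.cast_le.2 (show G κ (i + 1) - t % G κ (i + 1) ≤ (∏ j, q j) * G κ i by omega)
      · show (G κ (i + 1) : ℤ) ∣ (n : ℤ) - (Am (∏ j, q j) κ (i + 1) : ℤ) + _
        rw [htz]
        have h3 : t + (G κ (i + 1) - t % G κ (i + 1)) = G κ (i + 1) * (t / G κ (i + 1) + 1) := by
          rw [Nat.mul_add, Nat.mul_one]; omega
        have h4 : G κ (i + 1) ∣ t + (G κ (i + 1) - t % G κ (i + 1)) := h3 ▸ Dvd.intro _ rfl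
        exact_mod_cast h4
    · refine ⟨-((t % G κ (i + 1) : ℕ) : ℤ), ?_, ?_⟩
      · rw [abs_neg, abs_of_nonneg (by positivity)]
        exact Nat.cast_le.2 (show t % G κ (i + 1) ≤ (∏ j, q j) * G κ i by omega)
      · show (G κ (i + 1) : ℤ) ∣ (n : ℤ) - (Am (∏ j, q j) κ (i + 1) : ℤ) + _
        rw [htz]
        refine ⟨((t / G κ (i + 1) : ℕ) : ℤ), ?_⟩
        have h3 : (G κ (i + 1) : ℤ) * ((t / G κ (i + 1) : ℕ) : ℤ) + ((t % G κ (i + 1) : ℕ) : ℤ) =
          (t : ℤ) := by exact_mod_cast hdm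
        linarith

theorem exists_primes (kk b : ℕ) : ∃ q : Fin kk → ℕ, (∀ j, (q j).Prime) ∧ (∀ j, b ≤ q j) ∧
    (∀ j, Odd (q j)) ∧ Function.Injective q ∧
    Pairwise (fun i j => Nat.Coprime (q i) (q j)) := by
  have hmono := Nat.nth_strictMono Nat.infinite_setOf_prime
  have hp : ∀ n, (Nat.nth Nat.Prime n).Prime := Nat.prime_nth_prime
  have hge : ∀ n, n ≤ Nat.nth Nat.Prime n := fun n => hmono.le_apply
  have hinj : Function.Injective (fun j : Fin kk => Nat.nth Nat.Prime (b + 3 + j)) := by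
    intro i j hij
    have h1 := hmono.injective hij
    exact Fin.ext (by omega)
  refine ⟨fun j => Nat.nth Nat.Prime (b + 3 + j), fun j => hp _, fun j => ?_, fun j => ?_,
    hinj, fun i j hij => ?_⟩
  · have := hge (b + 3 + j)
    show b ≤ Nat.nth Nat.Prime (b + 3 + j)
    omega
  · refine (hp _).odd_of_ne_two ?_
    have := hge (b + 3 + j)
    omega
  · exact (Nat.coprime_primes (hp _) (hp _)).2 fun h => hij (hinj h)

theorem grow {Ms κ K i : ℕ} (hκ : κ = K + 5 + Ms) :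
    2 ^ (K + 4) * ∑ j ∈ Finset.range (i + 1), Ms * G κ j ≤ G κ (i + 1) := by
  have h1 : ∀ i, ∑ j ∈ Finset.range (i + 1), Ms * G κ j ≤ 2 * (Ms * G κ i) := by
    intro i
    induction i with
    | zero => simp; omega
    | succ i ih =>
      rw [Finset.sum_range_succ]
      have h2 : 2 * G κ i ≤ G κ (i + 1) := by
        unfold G
        rw [Nat.mul_add, Nat.mul_one, pow_add, Nat.mul_comm 2]
        refine Nat.mul_le_mul_left _ ?_
        calc 2 = 2 ^ 1 := rfl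
          _ ≤ 2 ^ κ := Nat.pow_le_pow_right (by norm_num) (by omega)
      have h3 : Ms * (2 * G κ i) ≤ Ms * G κ (i + 1) := Nat.mul_le_mul_left _ h2
      have h4 : 2 * (Ms * G κ i) = Ms * (2 * G κ i) := by ring
      omega
  have h5 : Ms ≤ 2 ^ Ms := Nat.lt_two_pow_self.le
  calc 2 ^ (K + 4) * ∑ j ∈ Finset.range (i + 1), Ms * G κ j
      ≤ 2 ^ (K + 4) * (2 * (Ms * G κ i)) := Nat.mul_le_mul_left _ (h1 i)
    _ = 2 ^ (K + 5) * Ms * G κ i := by rw [pow_succ 2 (K + 4)]; ring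
    _ ≤ 2 ^ (K + 5) * 2 ^ Ms * G κ i :=
        Nat.mul_le_mul_right _ (Nat.mul_le_mul_left _ h5)
    _ = G κ (i + 1) := by
        unfold G
        rw [← pow_add, ← pow_add, Nat.mul_add, Nat.mul_one, ← hκ, Nat.add_comm]

end Crest.Agent.R320.FinC_590
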