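import Crest.Agent.R320.FinB_677

/-!
# Row 320: two-wall zones on all words (helper677), part C: regularity
-/

set_option autoImplicit false

namespace Crest.Agent.R320.Fin_677

open Crest.RegLang Crest.Agent.R320.Hk_851 Crest.Agent.R320.FewWalls_228
open Crest.Agent.R320.Star_621 Crest.Agent.R320.Two_621 Crest.Agent.R320.Main_621

variable {α : Type}

/-- regular -/
abbrev Rg (L : Language α) : Prop := L.IsRegular

theorem Rg.congr {L M : Language α} (h : Rg L) (e : ∀ w, w ∈ L ↔ w ∈ M) : Rg M := by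
  have : L = M := by ext w; exact e w
  exact this ▸ h

theorem rg_or {p q : List α → Prop} (hp : Rg {w | p w}) (hq : Rg {w | q w}) :
    Rg {w | p w ∨ q w} :=
  Rg.congr (Language.IsRegular.add hp hq) fun _ => Iff.rfl

theorem rg_and {p q : List α → Prop} (hp : Rg {w | p w}) (hq : Rg {w | q w}) :
    Rg {w | p w ∧ q w} :=
  Rg.congr (Language.IsRegular.inf hp hq) fun _ => Iff.rfl

theorem rg_not {p : List α → Prop} (hp : Rg {w | p w}) : Rg {w | ¬ p w} :=
  Rg.congr (Language.IsRegular.compl hp) fun _ => Iff.rfl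

theorem rg_hl {k : ℕ} {L : Language α} (h : HL k L) : Rg L := Reg_236.HL.isRegular h

theorem rg_const (p : Prop) : Rg ({_w | p} : Language α) := rg_hl (k := 0) (HL.const p)

theorem rg_exists {ι : Type*} [Finite ι] {p : ι → List α → Prop} (h : ∀ i, Rg {w | p i w}) :
    Rg {w | ∃ i, p i w} := by
  classical
  have key : ∀ s : Set ι, s.Finite → Rg ({w | ∃ i ∈ s, p i w} : Language α) := by
    intro s hs
    induction s, hs using Set.Finite.induction_on with
    | empty =>
        refine Rg.congr (rg_const False) fun w => ?_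
        constructor
        · intro hw; exact False.elim hw
        · rintro ⟨i, hi, _⟩; exact False.elim hi
    | @insert a s _ _ ih =>
        refine Rg.congr (rg_or (h a) ih) fun w => ?_
        constructor
        · rintro (hw | ⟨i, hi, hw⟩)
          · exact ⟨a, Set.mem_insert _ _, hw⟩
          · exact ⟨i, Set.mem_insert_of_mem _ hi, hw⟩
        · rintro ⟨i, hi, hw⟩
          rcases Set.mem_insert_iff.1 hi with rfl | hi
          · exact Or.inl hw
          · exact Or.inr ⟨i, hi, hw⟩
  refine Rg.congr (key Set.univ Set.finite_univ) fun w => ?_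
  constructor
  · rintro ⟨i, _, hw⟩; exact ⟨i, hw⟩
  · rintro ⟨i, hw⟩; exact ⟨i, Set.mem_univ _, hw⟩

theorem rg_forall {ι : Type*} [Finite ι] {p : ι → List α → Prop} (h : ∀ i, Rg {w | p i w}) :
    Rg {w | ∀ i, p i w} :=
  Rg.congr (rg_not (rg_exists fun i => rg_not (h i))) fun w => by
    constructor
    · intro hw i
      by_contra hc
      exact hw ⟨i, hc⟩
    · rintro hw ⟨i, hc⟩; exact hc (hw i)

theorem rg_cat {p q : List α → Prop} (hp : Rg {w | p w}) (hq : Rg {w | q w}) :
    Rg {w | ∃ t ≤ w.length, p (w.take t) ∧ q (w.drop t)} := by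
  let A : Language α := {w | p w}
  let B : Language α := {w | q w}
  have h : Rg (A * B) := Reg_236.isRegular_mul hp hq
  refine Rg.congr h fun w => ?_
  constructor
  · intro hw
    obtain ⟨a, ha, b, hb, rfl⟩ := Language.mem_mul.1 hw
    refine ⟨a.length, by simp, ?_, ?_⟩
    · rw [List.take_left]; exact ha
    · rw [List.drop_left]; exact hb
  · rintro ⟨t, _, h1, h2⟩
    exact Language.mem_mul.2 ⟨_, h1, _, h2, List.take_append_drop _ _⟩

theorem rg_ne : Rg {w : List α | w ≠ []} :=
  Rg.congr (rg_not (rg_hl (k := 0) (HL.one (α := α)))) fun w => by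
    constructor
    · intro h1 h2; exact h1 ((Language.mem_one _).2 h2)
    · intro h1 h2; exact h1 ((Language.mem_one _).1 h2)

theorem rg_pre {p : List α → Prop} (hp : Rg {w | p w}) : Rg {w | ∃ t ≤ w.length, p (w.take t)} :=
  Rg.congr (rg_cat hp (rg_const True)) fun w => by
    constructor
    · rintro ⟨t, h1, h2, _⟩; exact ⟨t, h1, h2⟩
    · rintro ⟨t, h1, h2⟩; exact ⟨t, h1, h2, trivial⟩

theorem rg_prop {p : List α → Prop} (hp : Rg {w | p w}) : Rg {w | ∃ t < w.length, p (w.take t)} :=
  Rg.congr (rg_cat hp rg_ne) fun w => by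
    constructor
    · rintro ⟨t, h1, h2, h3⟩
      refine ⟨t, ?_, h2⟩
      rcases Nat.lt_or_ge t w.length with h | h
      · exact h
      · exact absurd (List.drop_eq_nil_of_le h) h3
    · rintro ⟨t, h1, h2⟩
      refine ⟨t, h1.le, h2, fun h3 => ?_⟩
      have := congrArg List.length h3
      rw [List.length_drop, List.length_nil] at this
      omega

theorem rg_ph {M : Type} [Monoid M] [Finite M] (φ : α → M) (s : M) :
    Rg ({w | (w.map φ).prod = s} : Language α) := by
  classical
  haveI := Fintype.ofFinite M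
  have key : ∀ (w : List α) (m : M), w.foldl (fun (m : M) b => m * φ b) m =
      m * (w.map φ).prod := by
    intro w
    induction w with
    | nil => intro m; simp
    | cons a w ih => intro m; simp [ih, mul_assoc]
  let D : DFA α M := ⟨fun m b => m * φ b, 1, {s}⟩
  have hD : D.accepts = ({w | (w.map φ).prod = s} : Language α) := by
    ext w
    rw [DFA.mem_accepts]
    show w.foldl (fun (m : M) b => m * φ b) 1 = s ↔ (w.map φ).prod = s
    rw [key, one_mul]
  exact ⟨M, inferInstance, D, hD⟩

theorem rg_mod (M r : ℕ) (hM : 0 < M) : Rg ({w | w.length % M = r} : Language α) := by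
  haveI : NeZero M := ⟨hM.ne'⟩
  haveI : Finite (Multiplicative (ZMod M)) := inferInstanceAs (Finite (ZMod M))
  have e : ∀ w : List α, (w.map (fun _ => Multiplicative.ofAdd (1 : ZMod M))).prod =
      Multiplicative.ofAdd ((w.length : ℕ) : ZMod M) := by
    intro w
    induction w with
    | nil => simp
    | cons a w ih =>
      rw [List.map_cons, List.prod_cons, ih, ← ofAdd_add, List.length_cons]
      congr 1
      push_cast
      ring
  by_cases hr : r < M
  · refine Rg.congr (rg_ph (fun _ : α => Multiplicative.ofAdd (1 : ZMod M))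
      (Multiplicative.ofAdd ((r : ℕ) : ZMod M))) fun w => ?_
    show (w.map (fun _ => Multiplicative.ofAdd (1 : ZMod M))).prod = _ ↔ w.length % M = r
    rw [e w]
    constructor
    · intro h
      have h' : ((w.length : ℕ) : ZMod M) = ((r : ℕ) : ZMod M) := Multiplicative.ofAdd.injective h
      have := (ZMod.natCast_eq_natCast_iff' _ _ _).1 h'
      rw [this, Nat.mod_eq_of_lt hr]
    · intro h
      congr 1
      refine (ZMod.natCast_eq_natCast_iff' _ _ _).2 ?_
      rw [h, Nat.mod_eq_of_lt hr]
  · refine Rg.congr (rg_const False) fun w => ?_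
    constructor
    · intro h; exact h.elim
    · intro h
      have h' : w.length % M = r := h
      have := Nat.mod_lt w.length hM
      omega

/-- eventually periodic conditions on the length -/
theorem rg_len [Finite α] (p : ℕ → Prop) (M T : ℕ) (hM : 0 < M)
    (h : ∀ t, T ≤ t → (p (t + M) ↔ p t)) : Rg ({w | p w.length} : Language α) := by
  classical
  have hk : ∀ k t, T ≤ t → (p (t + M * k) ↔ p t) := by
    intro k
    induction k with
    | zero => intro t _; simp
    | succ k ih =>
      intro t ht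
      rw [show t + M * (k + 1) = (t + M * k) + M by ring, h _ (by omega), ih t ht]
  have hc : ∀ t t', T ≤ t → T ≤ t' → t % M = t' % M → (p t ↔ p t') := by
    intro t t' h1 h2 h3
    wlog hle : t ≤ t' generalizing t t'
    · exact (this t' t h2 h1 h3.symm (by omega)).symm
    obtain ⟨k, hk'⟩ := (Nat.modEq_iff_dvd' hle).1 h3
    have : t' = t + M * k := by omega
    rw [this]
    exact (hk k t h1).symm
  have h1 : Rg ({w | w.length < T ∧ p w.length} : Language α) := by
    refine rg_hl (k := 0) (HL.finite ?_)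
    exact (List.finite_length_lt α T).subset fun w hw => hw.1
  have h2 : Rg ({w | ∃ r : Fin M, (∃ t, T ≤ t ∧ t % M = r ∧ p t) ∧
      (T ≤ w.length ∧ w.length % M = r)} : Language α) :=
    rg_exists fun r => rg_and (rg_const _) (rg_and (rg_hl (k := 0) (HL.length_ge T))
      (rg_mod M r hM))
  refine Rg.congr (rg_or h1 h2) fun w => ?_
  constructor
  · rintro (⟨_, h⟩ | ⟨r, ⟨t, ht, htr, hp⟩, hw, hwr⟩)
    · exact h
    · exact (hc _ _ ht hw (htr.trans hwr.symm)).1 hp
  · intro hw
    by_cases hT : w.length < T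
    · exact Or.inl ⟨hT, hw⟩
    · exact Or.inr ⟨⟨w.length % M, Nat.mod_lt _ hM⟩, ⟨w.length, by omega, rfl, hw⟩, by omega, rfl⟩

theorem rg_fibre {β γ : Type} [Finite β] {h : List α → β} (H : ∀ x, Rg {w | h w = x})
    (G : β → γ) (y : γ) : Rg {w | G (h w) = y} :=
  Rg.congr (rg_exists (ι := {x : β // G x = y}) fun x => H x.1) fun w => by
    constructor
    · rintro ⟨⟨x, hx⟩, hw⟩
      show G (h w) = y
      rw [show h w = x from hw]; exact hx
    · intro hw; exact ⟨⟨h w, hw⟩, rfl⟩

theorem rg_pair {β γ : Type} {g : List α → β} {h : List α → γ} (Hg : ∀ x, Rg {w | g w = x})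
    (Hh : ∀ x, Rg {w | h w = x}) (x : β × γ) : Rg {w | (g w, h w) = x} :=
  Rg.congr (rg_and (Hg x.1) (Hh x.2)) fun w => by
    constructor
    · rintro ⟨h1, h2⟩; exact Prod.ext h1 h2
    · intro h'; exact ⟨congrArg Prod.fst h', congrArg Prod.snd h'⟩

theorem rg_fun {ι : Type} [Finite ι] {p : ι → List α → Prop} (h : ∀ i, Rg {w | p i w})
    (χ : ι → Prop) : Rg {w | (fun i => p i w) = χ} := by
  refine Rg.congr (rg_forall (p := fun i w => (p i w ∧ χ i) ∨ (¬ p i w ∧ ¬ χ i)) fun i =>
    rg_or (rg_and (h i) (rg_const _)) (rg_and (rg_not (h i)) (rg_const _))) fun w => ?_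
  constructor
  · intro hw
    funext i
    rcases hw i with ⟨h1, h2⟩ | ⟨h1, h2⟩
    · exact propext ⟨fun _ => h2, fun _ => h1⟩
    · exact propext ⟨fun h => absurd h h1, fun h => absurd h h2⟩
  · intro hw i
    have e : p i w = χ i := congrFun hw i
    by_cases hp : p i w
    · exact Or.inl ⟨hp, e ▸ hp⟩
    · exact Or.inr ⟨hp, fun hc => hp (e.symm ▸ hc)⟩

section walls

variable {n : ℕ} {S0 : Set (List α)}

theorem wp_take {u : List α} {t : ℕ} (ht : t ≤ u.length) :
    wp n S0 (u.take t) (u.take t).length ↔ wp n S0 u t := by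
  have hl : (u.take t).length = t := by rw [List.length_take]; omega
  conv_rhs => rw [← List.take_append_drop t u]
  rw [hl]
  exact (wp_append (by omega)).symm

theorem F_take {u : List α} {s t : ℕ} (ht : t ≤ u.length) :
    F n S0 (u.take t) s (u.take t).length ↔ F n S0 u s t := by
  have hl : (u.take t).length = t := by rw [List.length_take]; omega
  conv_rhs => rw [← List.take_append_drop t u]
  rw [hl]
  exact (F_append (by omega)).symm

theorem rg_wp [Finite α] : Rg {u | wp n S0 u u.length} := by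
  have h1 : Rg ({v : List α | v.length = n ∧ v ∈ S0} : Language α) :=
    rg_hl (k := 0) (HL.finite ((List.finite_length_eq α n).subset fun v hv => hv.1))
  refine Rg.congr (rg_cat (rg_const True) h1) fun w => ?_
  constructor
  · rintro ⟨t, h1, _, h2, h3⟩
    rw [List.length_drop] at h2
    refine ⟨by omega, le_rfl, ?_⟩
    rw [show w.length - n = t by omega, List.take_of_length_le (by rw [List.length_drop]; omega)]
    exact h3
  · rintro ⟨h1, _, h3⟩
    rw [List.take_of_length_le (by rw [List.length_drop]; omega)] at h3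
    exact ⟨w.length - n, by omega, trivial, by rw [List.length_drop]; omega, h3⟩

theorem rg_M1 [Finite α] (s : ℕ) : Rg {u : List α | s ≤ u.length ∧ wp n S0 u u.length} :=
  rg_and (rg_hl (k := 0) (HL.length_ge s)) rg_wp

theorem rg_FW [Finite α] (s : ℕ) : Rg {u : List α | F n S0 u s u.length} := by
  refine Rg.congr (rg_and (rg_M1 (n := n) (S0 := S0) s)
    (rg_not (rg_prop (rg_M1 (n := n) (S0 := S0) s)))) fun u => ?_
  constructor
  · rintro ⟨⟨h1, h2⟩, h3⟩
    refine ⟨h1, h2, fun t' h4 h5 h6 => h3 ⟨t', h5, ?_, (wp_take h5.le).2 h6⟩⟩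
    rw [List.length_take]; omega
  · rintro ⟨h1, h2, h3⟩
    refine ⟨⟨h1, h2⟩, ?_⟩
    rintro ⟨t', h4, h5, h6⟩
    rw [List.length_take] at h5
    exact h3 t' (by omega) h4 ((wp_take h4.le).1 h6)

theorem rg_ZZ [Finite α] (s : ℕ) :
    Rg {u : List α | ∃ t0, F n S0 u s t0 ∧ F n S0 u (t0 + 1) u.length} := by
  have hM2 : Rg {u : List α | wp n S0 u u.length ∧
      ∃ t < u.length, F n S0 (u.take t) s (u.take t).length} :=
    rg_and rg_wp (rg_prop (rg_FW s))
  refine Rg.congr (rg_and hM2 (rg_not (rg_prop hM2))) fun u => ?_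
  constructor
  · rintro ⟨⟨h1, t, h2, h3⟩, h4⟩
    rw [F_take h2.le] at h3
    refine ⟨t, h3, h2, h1, fun t' h5 h6 h7 => h4 ⟨t', h6, (wp_take h6.le).2 h7, t, ?_, ?_⟩⟩
    · rw [List.length_take]; omega
    · rw [List.take_take, min_eq_left (by omega)]
      exact (F_take h2.le).2 h3
  · rintro ⟨t0, h1, h2⟩
    have h0 : t0 < u.length := h2.1
    refine ⟨⟨h2.2.1, t0, h0, (F_take h0.le).2 h1⟩, ?_⟩
    rintro ⟨t', h3, h4, t, h5, h6⟩
    rw [List.length_take] at h5
    rw [List.take_take, min_eq_left (by omega)] at h6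
    have h7 := (F_take (by omega)).1 h6
    have e := F_unique h7 h1
    subst e
    exact h2.2.2 t' (by omega) h3 ((wp_take h3.le).1 h4)

/-- first wall at a place with a regular condition on the part before it -/
theorem rg_firstwall [Finite α] (s : ℕ) {p : List α → Prop} (hp : Rg {w | p w}) :
    Rg {u : List α | ∃ t0, F n S0 u s t0 ∧ p (u.take t0)} := by
  refine Rg.congr (rg_pre (rg_and (rg_FW (n := n) (S0 := S0) s) hp)) fun u => ?_
  constructor
  · rintro ⟨t, h1, h2, h3⟩
    exact ⟨t, (F_take h1).1 h2, h3⟩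
  · rintro ⟨t, h2, h3⟩
    exact ⟨t, F_le h2, (F_take (F_le h2)).2 h2, h3⟩

theorem rg_firstwall2 [Finite α] (s : ℕ) {p q : List α → Prop} (hp : Rg {w | p w})
    (hq : Rg {w | q w}) :
    Rg {u : List α | ∃ t0, F n S0 u s t0 ∧ p (u.take t0) ∧ q (u.drop t0)} := by
  refine Rg.congr (rg_cat (rg_and (rg_FW (n := n) (S0 := S0) s) hp) hq) fun u => ?_
  constructor
  · rintro ⟨t, h1, ⟨h2, h3⟩, h4⟩
    exact ⟨t, (F_take h1).1 h2, h3, h4⟩
  · rintro ⟨t, h2, h3, h4⟩
    exact ⟨t, F_le h2, ⟨(F_take (F_le h2)).2 h2, h3⟩, h4⟩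

/-- a wall at a bounded place satisfying `p` -/
theorem rg_wall_at [Finite α] (p : ℕ → Prop) (B : ℕ) (hB : ∀ t, p t → t ≤ B) :
    Rg {u : List α | ∃ t, p t ∧ wp n S0 u t} := by
  have h1 : Rg {v : List α | p v.length ∧ wp n S0 v v.length} :=
    rg_hl (k := 0) (HL.finite ((List.finite_length_le α B).subset fun v hv => hB _ hv.1))
  refine Rg.congr (rg_pre h1) fun u => ?_
  constructor
  · rintro ⟨t, h2, h3, h4⟩
    rw [List.length_take, min_eq_left h2] at h3
    exact ⟨t, h3, (wp_take h2).1 h4⟩
  · rintro ⟨t, h3, h4⟩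
    have h2 := h4.2.1
    exact ⟨t, h2, by rw [List.length_take, min_eq_left h2]; exact h3, (wp_take h2).2 h4⟩

theorem nw_le {w : List α} {s t0 t1 : ℕ} (h : ∀ t, s ≤ t → wp n S0 w t → t = t0 ∨ t = t1) :
    nw n S0 w ≤ s + 2 := by
  classical
  unfold nw
  have hsub : (Finset.range (w.length + 1)).filter (fun x => Wl n S0 w x) ⊆
      Finset.range s ∪ {t0 - n, t1 - n} := by
    intro x hx
    rw [Finset.mem_filter] at hx
    obtain ⟨_, h1, h2⟩ := hx
    rw [Finset.mem_union, Finset.mem_range, Finset.mem_insert, Finset.mem_singleton]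
    by_cases hs : x + n < s
    · left; omega
    · right
      have hw : wp n S0 w (x + n) := ⟨by omega, h1, by rw [Nat.add_sub_cancel]; exact h2⟩
      rcases h (x + n) (by omega) hw with h3 | h3
      · left; omega
      · right; omega
  refine (Finset.card_le_card hsub).trans ((Finset.card_union_le _ _).trans ?_)
  rw [Finset.card_range]
  have := Finset.card_le_two (a := t0 - n) (b := t1 - n)
  omega

theorem nw_zone {w : List α} {s t0 : ℕ} (h1 : F n S0 w s t0) (h2 : F n S0 w (t0 + 1) w.length) :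
    nw n S0 w ≤ s + 2 := by
  refine nw_le (t0 := t0) (t1 := w.length) fun t ht hw => ?_
  rcases lt_trichotomy t t0 with h | h | h
  · exact absurd hw (h1.2.2 t ht h)
  · exact Or.inl h
  · right
    by_contra hne
    have := hw.2.1
    exact h2.2.2 t h (by omega) hw

end walls

end Crest.Agent.R320.Fin_677
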