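import Crest.Agent.R320.Grid_219
import Crest.Agent.R320.Thin_243

/-!
# Row 320: the scheme 1 gadget with ruler and finite-state clause, in one closed statement
(helper157; = Grid_219.grid_gadget + Thin_243.thin; form of 772 #13437 with 440's correction)
-/

set_option autoImplicit false

namespace Crest.Agent.R320.UGI_157

open Crest.Agent.R320.Grid219 Finset

universe u

/-! ### locality of the view -/

section loc

variable {α S : Type*} [Monoid S] {φ : List α → S} (P : Par)

theorem pos_eq {q i j : ℕ} (h : P.Am j ≤ q) :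
    q - P.gaR i q j = (P.Am j - P.A i) + (q - (P.Am j - P.A i)) % P.G j := by
  unfold Par.gaR
  have := Nat.div_add_mod (q - (P.Am j - P.A i)) (P.G j)
  omega

theorem mod_sub {q q' d G : ℕ} (h : q % G = q' % G) (hd : d ≤ q) (hd' : d ≤ q') :
    (q - d) % G = (q' - d) % G := by
  have h1 : (q - d) + d ≡ (q' - d) + d [MOD G] := by
    rw [Nat.sub_add_cancel hd, Nat.sub_add_cancel hd']; exact h
  exact Nat.ModEq.add_right_cancel' d h1

theorem cl_iff (i q j : ℕ) :
    P.Cl i q j ↔ (q - (P.Am j - P.A i)) % P.G j + P.c i < P.G j := by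
  unfold Par.Cl
  set b := q - (P.Am j - P.A i) with hb
  have hG := P.hG j
  have e : b + P.c i = P.G j * (b / P.G j) + (b % P.G j + P.c i) := by
    have := Nat.div_add_mod b (P.G j)
    omega
  rw [e, Nat.mul_add_div hG]
  constructor
  · intro h
    have h0 : (b % P.G j + P.c i) / P.G j = 0 := by omega
    rcases (Nat.div_eq_zero_iff).1 h0 with h1 | h1
    · omega
    · exact h1
  · intro h
    rw [Nat.div_eq_of_lt h]
    rfl

theorem view_loc (hφ : ∀ u v, φ (u ++ v) = φ u * φ v) {La : ℕ} (hLa : P.Am P.m + P.G P.m ≤ La)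
    {q q' : List α} (h : La ≤ q.length) (h' : La ≤ q'.length) (ht : q.take La = q'.take La)
    (hm : q.length % P.G P.m = q'.length % P.G P.m) (hp : φ (q.drop La) = φ (q'.drop La))
    {i : ℕ} (hi : i < P.m) : view φ P q i = view φ P q' i := by
  classical
  have hmod : ∀ j ≤ P.m, q.length % P.G j = q'.length % P.G j := by
    intro j hj
    exact (Nat.ModEq.of_dvd (P.G_dvd hj) hm : q.length ≡ q'.length [MOD P.G j])
  have hAm : ∀ j ≤ P.m, P.Am j ≤ P.Am P.m := fun j hj => P.Am_mono hj
  have hb : ∀ j ≤ P.m, (q.length - (P.Am j - P.A i)) % P.G j =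
      (q'.length - (P.Am j - P.A i)) % P.G j := by
    intro j hj
    have := hAm j hj
    exact mod_sub (hmod j hj) (by omega) (by omega)
  have hpos : ∀ j ≤ P.m, q.length - P.gaR i q.length j = q'.length - P.gaR i q'.length j := by
    intro j hj
    have := hAm j hj
    rw [pos_eq P (by omega), pos_eq P (by omega), hb j hj]
  have hposL : ∀ j ≤ P.m, q.length - P.gaR i q.length j ≤ La := by
    intro j hj
    have h1 := hAm j hj
    rw [pos_eq P (by omega)]
    have h2 := Nat.mod_lt (q.length - (P.Am j - P.A i)) (P.hG j)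
    have h3 : P.G j ≤ P.G P.m := Nat.le_of_dvd (P.hG _) (P.G_dvd hj)
    omega
  have htk : ∀ x ≤ La, q.take x = q'.take x := by
    intro x hx
    have e : q.take x = (q.take La).take x := by rw [List.take_take, min_eq_left hx]
    have e' : q'.take x = (q'.take La).take x := by rw [List.take_take, min_eq_left hx]
    rw [e, e', ht]
  have hdr : ∀ x ≤ La, φ (q.drop x) = φ (q'.drop x) := by
    intro x hx
    have e : ∀ r : List α, La ≤ r.length → r.drop x = (r.take La).drop x ++ r.drop La := by
      intro r hr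
      conv_lhs => rw [← List.take_append_drop La r]
      rw [List.drop_append_of_le_length (by rw [List.length_take]; omega)]
    rw [e q h, e q' h', hφ, hφ, ht, hp]
  have hcond : (P.G i ∣ q.length ∧ ∀ j, i < j → j ≤ P.m → P.Cl i q.length j) ↔
      (P.G i ∣ q'.length ∧ ∀ j, i < j → j ≤ P.m → P.Cl i q'.length j) := by
    refine and_congr ?_ (forall_congr' fun j => forall_congr' fun _ => forall_congr' fun hj => ?_)
    · have := hmod i hi.le
      rw [Nat.dvd_iff_mod_eq_zero, Nat.dvd_iff_mod_eq_zero, this]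
    · rw [cl_iff, cl_iff, hb j hj]
  unfold view
  by_cases hc : P.G i ∣ q.length ∧ ∀ j, i < j → j ≤ P.m → P.Cl i q.length j
  · rw [if_pos hc, if_pos (hcond.1 hc)]
    congr 1
    refine Prod.ext ?_ ?_
    · refine List.map_congr_left fun j hj => ?_
      have hjm : j < P.m := List.mem_range.1 (List.mem_of_mem_drop hj)
      unfold segR
      rw [← hpos (j + 1) (by omega), ← hpos j hjm.le, htk _ (hposL (j + 1) (by omega))]
    · show φ (q.drop (q.length - P.gaR i q.length P.m)) =
        φ (q'.drop (q'.length - P.gaR i q'.length P.m))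
      rw [← hpos P.m le_rfl, hdr _ (hposL P.m le_rfl)]
  · rw [if_neg hc, if_neg (fun h => hc (hcond.2 h))]

end loc

/-! ### explicit constants -/

def am (M Gam : ℕ) : ℕ → ℕ
  | 0 => 0
  | j + 1 => am M Gam j + Gam ^ j + M * Gam ^ j

def par (m M Gam : ℕ) (hM : 0 < M) (hG : 0 < Gam) : Par where
  m := m
  M := M
  G := fun j => Gam ^ j
  Am := am M Gam
  hM := hM
  hG := fun j => Nat.pow_pos hG
  hdvd := fun j => pow_dvd_pow Gam (Nat.le_succ j)
  hA := fun _ => rfl

open Classical in
/-- **The closed gadget.** -/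
theorem ugi (S V : Type*) [Monoid S] [Finite S] [AddCommGroup V] [Finite V] (act : V → S → V) :
    ∃ C0 : ℕ, ∀ K D0 : ℕ, ∃ (N1 Pm La : ℕ) (c : ℕ → ℕ) (Bad : ℕ → Prop),
      0 < Pm ∧ N1 ≤ La ∧ (∀ i j, i < j → c i < c j) ∧
      (∀ i j, i < j → c i + (4 * N1 + D0) < c j) ∧
      (∀ i j k l, i ≠ j → k ≠ l → (i, j) ≠ (k, l) →
        ((4 * N1 + D0 : ℕ) : ℤ) < |((c i : ℤ) - c j) - (c k - c l)|) ∧
      (∀ T, Bad (T + Pm) ↔ Bad T) ∧
      (∀ T, (∀ i < K, c i ≤ T) → ((range K ×ˢ range K).filter
        (fun p => p.1 ≠ p.2 ∧ Bad (T + c p.1 - c p.2))).card ≤ C0) ∧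
      ∀ {A : Type u} (φ : List A → S), (∀ u v, φ (u ++ v) = φ u * φ v) →
        ∃ (lam rho : List A → Option V) (nu : List A → V),
        (∀ p v, lam p = some v → p.length ≤ N1) ∧
        (∀ q r, rho q = some r → N1 ≤ q.length) ∧
        (∀ p q v r, lam p = some v → rho q = some r →
          r = act v (φ (p ++ q)) + nu (p ++ q)) ∧
        (∀ u, La ≤ u.length → ¬ Bad u.length → ∀ v, ∃ p q, p ++ q = u ∧ lam p = some v ∧
          (rho q).isSome) ∧
        (∀ q q', La ≤ q.length → La ≤ q'.length → q.take La = q'.take La →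
          q.length % Pm = q'.length % Pm → φ (q.drop La) = φ (q'.drop La) →
          rho q = rho q' ∧ nu q = nu q') := by
  obtain ⟨m, r, hm, hmain⟩ := grid_gadget S V act
  refine ⟨r + m, fun K D0 => ?_⟩
  obtain ⟨Ms, hcard, hMs, hgad⟩ := hmain (2 ^ (K + 2))
  set M : ℕ := ∏ p ∈ Ms, p with hMdef
  have hM : 0 < M := Finset.prod_pos fun p h => (hMs p h).1.pos
  set k : ℕ := M * 2 ^ (K + 6) with hk
  have hkG : M * 2 ^ (K + 6) < 2 ^ k := Nat.lt_two_pow_self
  set Gam : ℕ := 2 ^ k with hGam
  have hGam0 : 0 < Gam := Nat.two_pow_pos k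
  set P : Par := par m M Gam hM hGam0 with hP
  have hcop : ∀ j, Nat.Coprime (P.G j) P.M := by
    intro j
    show Nat.Coprime (Gam ^ j) M
    refine Nat.Coprime.pow_left j ?_
    rw [hGam]
    refine Nat.Coprime.pow_left k ?_
    rw [hMdef]
    refine Nat.Coprime.prod_right fun p h => ?_
    rw [Nat.coprime_primes Nat.prime_two (hMs p h).1]
    intro e
    have h1 := (hMs p h).2
    have h2 : 2 ^ 2 ≤ 2 ^ (K + 2) := Nat.pow_le_pow_right (by norm_num) (by omega)
    omega
  set N1 : ℕ := P.Am m with hN1
  set L0 : ℕ := P.Am m + P.G m with hL0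
  obtain ⟨c, hmono, -, hgap, hpair, hthin⟩ := Thin243.thin K (4 * N1 + D0) Ms M Gam m
    (fun p h => (hMs p h).1) (fun p h => (hMs p h).2) ⟨k, rfl⟩ hkG hM
  let Bad : ℕ → Prop := fun T => Thin243.BadG Ms M Gam m (fun j => (am M Gam j : ℤ)) (T : ℤ)
  refine ⟨N1, M * Gam ^ m, L0 + N1, c, Bad, Nat.mul_pos hM (Nat.pow_pos hGam0), by omega,
    fun i j h => hmono h, hgap, hpair, ?_, ?_, ?_⟩
  · -- periodicity
    intro T
    show Thin243.BadG Ms M Gam m _ ((T + M * Gam ^ m : ℕ) : ℤ) ↔
      Thin243.BadG Ms M Gam m _ (T : ℤ)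
    unfold Thin243.BadG
    refine or_congr ?_ ?_
    · refine exists_congr fun p => and_congr_right fun hp => ?_
      have hd : (p : ℤ) ∣ (M : ℤ) * (Gam : ℤ) ^ m := by
        refine Dvd.dvd.mul_right ?_ _
        exact_mod_cast Finset.dvd_prod_of_mem (fun x => x) hp
      push_cast
      constructor
      · intro h; exact (dvd_add_left hd).1 h
      · intro h; exact dvd_add h hd
    · refine exists_congr fun j => and_congr_right fun _ => and_congr_right fun hj => ?_
      have e : (Gam : ℤ) ^ m = (Gam : ℤ) ^ (m - j) * (Gam : ℤ) ^ j := by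
        rw [← pow_add, Nat.sub_add_cancel hj]
      constructor
      · rintro ⟨n, hn⟩
        refine ⟨n - M * (Gam : ℤ) ^ (m - j), ?_⟩
        rw [show (T : ℤ) - (am M Gam j : ℤ) - (n - M * (Gam : ℤ) ^ (m - j)) * (Gam : ℤ) ^ j =
          ((T + M * Gam ^ m : ℕ) : ℤ) - (am M Gam j : ℤ) - n * (Gam : ℤ) ^ j by
            push_cast; rw [e]; ring]
        exact hn
      · rintro ⟨n, hn⟩
        refine ⟨n + M * (Gam : ℤ) ^ (m - j), ?_⟩
        rw [show ((T + M * Gam ^ m : ℕ) : ℤ) - (am M Gam j : ℤ) -
            (n + M * (Gam : ℤ) ^ (m - j)) * (Gam : ℤ) ^ j =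
          (T : ℤ) - (am M Gam j : ℤ) - n * (Gam : ℤ) ^ j by
            push_cast; rw [e]; ring]
        exact hn
  · -- thinness
    intro T hT
    refine le_trans (Finset.card_le_card ?_) ((hthin (fun j => (am M Gam j : ℤ)) (T : ℤ)).trans
      (Nat.add_le_add_right hcard m))
    intro p hp
    rw [Finset.mem_filter, Finset.mem_product, Finset.mem_range, Finset.mem_range] at hp
    obtain ⟨⟨h1, h2⟩, h3, h4⟩ := hp
    rw [Finset.mem_filter, Finset.mem_product, Finset.mem_range, Finset.mem_range]
    refine ⟨⟨h1, h2⟩, h3, ?_⟩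
    have h5 : c p.2 ≤ T + c p.1 := (hT p.2 h2).trans (Nat.le_add_right _ _)
    have h6 : ((T + c p.1 - c p.2 : ℕ) : ℤ) = (T : ℤ) + c p.1 - c p.2 := by
      rw [Nat.cast_sub h5]; push_cast; ring
    rw [← h6]; exact h4
  · intro A φ hφ
    obtain ⟨lam, rho, nu, hs, hl, hr, hloc, hc⟩ := hgad P rfl rfl hcop φ hφ
    let rho' : List A → Option V := fun q => if L0 ≤ q.length then rho q else none
    have hrho' : ∀ q r, rho' q = some r → L0 ≤ q.length ∧ rho q = some r := by
      intro q r h
      by_cases hq : L0 ≤ q.length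
      · refine ⟨hq, ?_⟩
        have : rho' q = rho q := by simp only [rho']; rw [if_pos hq]
        rw [← this]; exact h
      · exfalso
        have : rho' q = none := by simp only [rho']; rw [if_neg hq]
        rw [this] at h; cases h
    have hrho'' : ∀ q, L0 ≤ q.length → rho' q = rho q := by
      intro q hq
      simp only [rho']; rw [if_pos hq]
    let legal : List A → Prop := fun u => ∃ p q v b, u = p ++ q ∧ lam p = some v ∧ rho' q = some b
    let nu' : List A → V := fun u => if legal u then nu u else 0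
    -- locality of rho at any bound beyond L0
    have hrl : ∀ (La : ℕ) (q q' : List A), L0 ≤ La → La ≤ q.length → La ≤ q'.length →
        q.take La = q'.take La → q.length % (M * Gam ^ m) = q'.length % (M * Gam ^ m) →
        φ (q.drop La) = φ (q'.drop La) → rho' q = rho' q' := by
      intro La q q' hLa h h' ht hmod hp
      rw [hrho'' q (by omega), hrho'' q' (by omega)]
      have hA : P.Am m ≤ L0 := by omega
      refine hloc q q' ⟨fun _ => by omega, fun _ => by omega⟩ ?_ ?_
      · exact (Nat.ModEq.of_dvd (Dvd.intro _ rfl) hmod : q.length ≡ q'.length [MOD M])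
      · intro i hi
        refine view_loc P hφ (La := La) hLa h h' ht ?_ hp hi
        exact (Nat.ModEq.of_dvd (Dvd.intro_left _ rfl) hmod :
          q.length ≡ q'.length [MOD Gam ^ m])
    have hsound : ∀ p q v r, lam p = some v → rho' q = some r →
        r = act v (φ (p ++ q)) + nu' (p ++ q) := by
      intro p q v b hp hq
      have : nu' (p ++ q) = nu (p ++ q) := by
        simp only [nu']
        rw [if_pos ⟨p, q, v, b, rfl, hp, hq⟩]
      rw [this]
      exact hs p q v b hp (hrho' q b hq).2
    have hlen : ∀ p v, lam p = some v → p.length ≤ N1 := fun p v h => (hl p v h).2.le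
    -- transport of a legal split
    have htr : ∀ u u' : List A, L0 + N1 ≤ u.length → L0 + N1 ≤ u'.length →
        u.take (L0 + N1) = u'.take (L0 + N1) →
        u.length % (M * Gam ^ m) = u'.length % (M * Gam ^ m) →
        φ (u.drop (L0 + N1)) = φ (u'.drop (L0 + N1)) →
        ∀ p q v b, u = p ++ q → lam p = some v → rho' q = some b →
          ∃ q', u' = p ++ q' ∧ rho' q' = some b := by
      intro u u' h h' ht hmod hdr p q v b hu hp hq
      have hpl := hlen p v hp
      have e1 : p = u'.take p.length := by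
        have a1 : u'.take p.length = (u'.take (L0 + N1)).take p.length := by
          rw [List.take_take, min_eq_left (by omega)]
        rw [a1, ← ht, List.take_take, min_eq_left (by omega), hu,
          List.take_append_of_le_length le_rfl, List.take_length]
      have e2 : u' = p ++ u'.drop p.length := by
        conv_lhs => rw [← List.take_append_drop p.length u']
        rw [← e1]
      refine ⟨u'.drop p.length, e2, ?_⟩
      have e3 : q = u.drop p.length := by rw [hu, List.drop_left]
      have hq' : rho' q = rho' (u'.drop p.length) := by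
        rw [e3]
        refine hrl (L0 + N1 - p.length) _ _ (by omega) ?_ ?_ ?_ ?_ ?_
        · rw [List.length_drop]; omega
        · rw [List.length_drop]; omega
        · rw [← List.drop_take, ← List.drop_take, ht]
        · rw [List.length_drop, List.length_drop]
          exact mod_sub hmod (by omega) (by omega)
        · rw [List.drop_drop, List.drop_drop, show p.length + (L0 + N1 - p.length) = L0 + N1 by
            omega]
          exact hdr
      rw [← hq']; exact hq
    refine ⟨lam, rho', nu', hlen, fun q r h => ?_, hsound, ?_, ?_⟩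
    · have := (hrho' q r h).1; omega
    · intro u hu hb v
      have hb1 : ∀ p ∈ Ms, ¬ p ∣ u.length := by
        intro p hp hd
        exact hb (Or.inl ⟨p, hp, by exact_mod_cast hd⟩)
      have hb2 : ¬ P.BadG u.length := by
        rintro ⟨j, h1, h2, n, h3, h4⟩
        refine hb (Or.inr ⟨j, h1, h2, (n : ℤ), ?_⟩)
        have h3' : am M Gam j + Gam ^ j * n ≤ u.length + M * Gam ^ (j - 1) := h3
        have h4' : u.length ≤ am M Gam j + Gam ^ j * n + M * Gam ^ (j - 1) := h4
        have h3z : ((am M Gam j : ℕ) : ℤ) + (Gam : ℤ) ^ j * n ≤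
            (u.length : ℤ) + (M : ℤ) * (Gam : ℤ) ^ (j - 1) := by exact_mod_cast h3'
        have h4z : (u.length : ℤ) ≤ ((am M Gam j : ℕ) : ℤ) + (Gam : ℤ) ^ j * n +
            (M : ℤ) * (Gam : ℤ) ^ (j - 1) := by exact_mod_cast h4'
        rw [abs_le]
        constructor
        · linarith [mul_comm (n : ℤ) ((Gam : ℤ) ^ j)]
        · linarith [mul_comm (n : ℤ) ((Gam : ℤ) ^ j)]
      obtain ⟨p, q, b, e, h1, h2⟩ := hc u (by omega) hb1 hb2 v
      have hpl := hlen p v h1
      have hul : u.length = p.length + q.length := by rw [e, List.length_append]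
      refine ⟨p, q, e.symm, h1, ?_⟩
      rw [hrho'' q (by omega), h2]; rfl
    · intro u u' h h' ht hmod hdr
      have hfull : φ u = φ u' := by
        rw [← List.take_append_drop (L0 + N1) u, hφ, ht, hdr, ← hφ,
          List.take_append_drop (L0 + N1) u']
      refine ⟨hrl (L0 + N1) u u' (by omega) h h' ht hmod hdr, ?_⟩
      by_cases hL : legal u
      · obtain ⟨p, q, v, b, e, h1, h2⟩ := hL
        obtain ⟨q', e', h2'⟩ := htr u u' h h' ht hmod hdr p q v b e h1 h2
        have s1 := hsound p q v b h1 h2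
        have s2 := hsound p q' v b h1 h2'
        rw [← e] at s1
        rw [← e', ← hfull] at s2
        exact add_left_cancel (s1.symm.trans s2)
      · have hL' : ¬ legal u' := by
          rintro ⟨p, q, v, b, e, h1, h2⟩
          obtain ⟨q', e', h2'⟩ := htr u' u h' h ht.symm hmod.symm hdr.symm p q v b e h1 h2
          exact hL ⟨p, q', v, b, e', h1, h2'⟩
        show (if legal u then nu u else 0) = (if legal u' then nu u' else 0)
        rw [if_neg hL, if_neg hL']

end Crest.Agent.R320.UGI_157
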