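import Crest.Agent.R320.FinA_689
import Crest.Agent.R320.FinB_689
import Crest.Agent.R320.UGI_157
import Crest.Agent.R320.ExactR_237

/-!
# Row 320 (helper689): constants and join (small universe)
-/

set_option autoImplicit false

namespace Crest.Agent.R320.Fin_689

open Crest.RegLang Crest.Agent.R320.Hk_851 Crest.Agent.R320.Blk467
open Crest.Agent.R320.Sc2n_937

/-- the ruler count in the form of `complete2` -/
theorem thin_form {Bad : ℕ → Prop} {K C0 : ℕ} {c : ℕ → ℕ} [DecidablePred Bad]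
    (h : ∀ T, (∀ i < K, c i ≤ T) → ((Finset.range K ×ˢ Finset.range K).filter
        (fun p => p.1 ≠ p.2 ∧ Bad (T + c p.1 - c p.2))).card ≤ C0)
    (p0 τ : ℕ) (hp : ∀ i < K, c i ≤ p0) (hτ : 2 * p0 ≤ τ) (J : Finset ℕ)
    (hJ : ∀ k ∈ J, k < K ∧ ∃ k', k' < K ∧ k' ≠ k ∧ Bad (τ + c k' - c k - p0)) :
    J.card ≤ C0 := by
  classical
  have hJ' : ∀ k : ℕ, ∃ k', k ∈ J → k' < K ∧ k' ≠ k ∧ Bad (τ + c k' - c k - p0) := by
    intro k
    by_cases hk : k ∈ J
    · obtain ⟨_, k', h1⟩ := hJ k hk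
      exact ⟨k', fun _ => h1⟩
    · exact ⟨0, fun h => absurd h hk⟩
  choose f hf using hJ'
  refine le_trans ?_ (h (τ - p0) (fun i hi => by have := hp i hi; omega))
  refine Finset.card_le_card_of_injOn (fun k => (f k, k)) ?_ ?_
  · intro k hk
    have hk' : k ∈ J := hk
    obtain ⟨h1, h2, h3⟩ := hf k hk'
    have h0 := (hJ k hk').1
    have h4 := hp k h0
    simp only [Finset.coe_filter, Set.mem_setOf_eq, Finset.mem_product, Finset.mem_range]
    refine ⟨⟨h1, h0⟩, h2, ?_⟩
    have : τ - p0 + c (f k) - c k = τ + c (f k) - c k - p0 := by omega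
    rw [this]; exact h3
  · intro a _ b _ hab
    exact congrArg Prod.snd hab

theorem fin (α : Type) [Finite α] (S : Type) [Monoid S] [Finite S] (φ : α → S) (s : S) :
    HL 3 ({w | (w.map φ).prod = s} : Language α) := by
  classical
  haveI : Fintype S := Fintype.ofFinite S
  obtain ⟨act, hadd, hone, hmul, hfaith⟩ := exists_module S
  obtain ⟨C0, hU⟩ := UGI_157.ugi.{0} S (S → ZMod 2) act
  obtain ⟨K, hK⟩ := Crest.Agent.R320.ExactR_237.exact_gadget α S (S → ZMod 2) φ act (2 * C0 + 2)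
  obtain ⟨N1, Pm, La, c, Bad, hPm, hNL, hcm, hcm2, hgol, hper, hthin, hgad⟩ := hU K 4
  obtain ⟨lam, rho, nu1, g1, g2, g3, g4, g5⟩ := hgad (A := α) (fun w => (w.map φ).prod)
    (fun u v => by rw [List.map_append, List.prod_append])
  obtain ⟨lam2, rho2, nu2, e1, e2⟩ := hK c (fun i j h _ => hcm i j h)
  obtain ⟨n, G, B, Wo, hLW, hgap, _, _, hfree⟩ :=
    LWallAll_922.walls_all_left α (2 * c K + 2 * (N1 + 1) + 1) (by omega)
  have hcK : ∀ k, k < K → c k ≤ c K := fun k hk => (hcm k K hk).le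
  let g : Geo α :=
    { Wo := Wo, n := n, z := c K + (N1 + 1) + (n + 2 * c K + La), p0 := c K,
      q0 := n + 2 * c K + La, N1 := N1 + 1, loc := hLW.1, hz := rfl, hq := by omega,
      hN := by omega, hqp := by omega }
  have free : ∀ u : List α, (∀ t < u.length, ¬ g.Wo (u.take t)) →
      u ∈ (BddReg_746.PN (max B (2 * c K + 2 * (N1 + 1) + 1)) 2 : Language α) := by
    intro u hu
    obtain ⟨a, x, b, k, h1, h2, h3, e⟩ := hfree u hu
    exact free_of_periodic h1 h2 h3 e
  have len : ∀ P, g.Wo P → g.n ≤ P.length := hLW.2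
  let pre : List α → (S → ZMod 2) → (S → ZMod 2) := fun u v => act v (u.map φ).prod + nu2 u 1
  let post : (S → ZMod 2) → List α → (S → ZMod 2) := fun v u => act v (u.map φ).prod + nu1 u
  refine layerA act hadd hone hmul hfaith φ g Bad K C0 c lam rho nu1 lam2 (fun k Q => rho2 k Q 1)
    (fun u => nu2 u 1) pre post (fun _ _ => rfl) (fun _ _ => rfl) ?_ ?_ ?_ hcK ?_ ?_ ?_ ?_ ?_ ?_ ?_ s
  · intro P v h
    exact (g1 P v h).trans (Nat.le_succ _)
  · intro P Q v b h1 h2
    exact g3 P Q v b h1 h2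
  · intro Y hY hb v
    have hY' : La ≤ Y.length := by
      have : N1 + 1 + (n + 2 * c K + La) ≤ Y.length := hY
      omega
    obtain ⟨P, Q, e, h1, h2⟩ := g4 Y hY' hb v
    exact ⟨P, Q, e.symm, h1, h2⟩
  · intro k hk P Q v u hP _ h1 h2
    have h3 := e1 k hk P Q 1 v u hP h1 h2
    rw [mul_one] at h3
    exact h3
  · intro P Q h1 h2 hQ
    have hl : 0 < Q.length := List.length_pos_iff.2 hQ
    have h3 := hgap (P ++ Q) P.length (P ++ Q).length (by rw [List.length_append]; omega) le_rfl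
      (by rw [List.take_left]; exact h1) (by rw [List.take_length]; exact h2)
    rw [List.length_append, Nat.add_sub_cancel_left] at h3
    show 2 * c K + 2 * (N1 + 1) < Q.length
    omega
  · intro k k' l l' hk hk' hl hl' hne hne' h1 h2
    by_contra hkl
    have h3 := hgol k k' l l' (Ne.symm hne) (Ne.symm hne') (fun h => hkl (congrArg Prod.fst h))
    have h1' : c k + c l' < c l + c k' + 2 * (N1 + 1) := h1
    have h2' : c l + c k' < c k + c l' + 2 * (N1 + 1) := h2
    rw [lt_abs] at h3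
    push_cast at h3
    rcases h3 with h3 | h3 <;> omega
  · intro τ hτ J hJ
    have hτ' : c K + (N1 + 1) + (n + 2 * c K + La) ≤ τ + c K := hτ
    exact thin_form hthin (c K) τ hcK (by omega) J hJ
  · intro u hu v
    obtain ⟨I, h1, h2⟩ := e2 u 1 v (fun k hk => by
      have : u.length = c K := hu
      have := hcK k hk
      omega)
    exact ⟨I, h1, h2⟩
  · intro x y
    refine hl_fib g len free (reg_fib act φ g La Pm hPm nu1 (fun u => nu2 u 1) pre post
      (fun _ _ => rfl) ?_ x y)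
    intro Y Y' h1 h2 h3 h4 h5
    exact (g5 Y Y' h1 h2 h3 h4 h5).2
  · intro s
    refine HL.mono (by norm_num) (hl_tail g len free (f := fun w => (w.map φ).prod = s) ?_)
    refine Bridge_975.reg_of_local φ 0 1 one_pos (fun w => (w.map φ).prod = s) ?_
    intro q q2 _ _ _ _ h5
    rw [List.drop_zero, List.drop_zero] at h5
    rw [h5]

end Crest.Agent.R320.Fin_689
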