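import Crest.Agent.R320.FinB_694
import Crest.Agent.R320.Univ_188

/-!
Row 320: final statement (helper694).
-/

set_option autoImplicit false

namespace Crest.Agent.R320.FinC_694

open Crest.RegLang Crest.Agent.R320.Hk_851

universe u

theorem final0 (α : Type) [Finite α] (L : Language α) (hL : L.IsRegular) :
    ∃ e : GRegExp α, e.height ≤ 3 ∧ e.lang = L :=
  of_monoid (k := 3) (fun M _ _ φ m => FinB_694.fin α M φ m) L hL

theorem final (α : Type u) [Finite α] (L : Language α) (hL : L.IsRegular) :
    ∃ e : GRegExp α, e.height ≤ 3 ∧ e.lang = L :=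
  Univ_188.of_type0 3 (fun α _ L hL => final0 α L hL) α L hL

end Crest.Agent.R320.FinC_694
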