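import Crest.Agent.R320.FinB_889

/-!
Row 320, helper889: final assembly, part C: constants and the main theorem.
-/

set_option autoImplicit false

namespace Crest.Agent.R320.FinC_889

open Crest.RegLang Crest.Agent.R320.Hk_851 Crest.Agent.R320.Code110 Crest.Agent.R320.Top270
open Crest.Agent.R320.P3_889 Crest.Agent.R320.P3_889.Dat Crest.Agent.R320.FinA_889
open Crest.Agent.R320.FinB_889 Crest.Agent.R320.Grid_899

/-- the bad lengths of the grid gadget -/
def BadG {k : ℕ} (q : Fin k → ℕ) (κ m T : ℕ) : Prop :=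
  (∃ j, q j ∣ T) ∨ ∃ j, 1 ≤ j ∧ j ≤ m ∧
    ¬ ((∏ j, q j) * G κ (j - 1) ≤ (T - Am (∏ j, q j) κ j) % G κ j ∧
            (T - Am (∏ j, q j) κ j) % G κ j + (∏ j, q j) * G κ (j - 1) ≤ G κ j)

theorem Am_mono {Ms κ : ℕ} {i j : ℕ} (h : i ≤ j) : Am Ms κ i ≤ Am Ms κ j := by
  induction h with
  | refl => exact le_refl _
  | step _ ih => exact ih.trans (by show _ ≤ Am Ms κ _ + G κ _ + Ms * G κ _; omega)

/-- **the ruler** -/
theorem ruler {k : ℕ} (K m : ℕ) (q : Fin k → ℕ) (hp : ∀ j, (q j).Prime)
    (hq : ∀ j, 2 ^ (K + 1) ≤ q j) (hodd : ∀ j, Odd (q j)) (N0 : ℕ) (κ : ℕ)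
    (hκ : κ = K + 5 + ∏ j, q j) :
    ∃ X : ℕ, N0 < X ∧ ∀ t p : ℕ, ∀ s : Finset ℕ, s ⊆ (Finset.range K).image (fun j => X * 2 ^ j) →
      (∀ x ∈ s, ∃ c ∈ (Finset.range K).image (fun j => X * 2 ^ j), c ≠ x ∧
        (p + Am (∏ j, q j) κ m < t + c - x ∧ BadG q κ m (t + c - x - p))) → s.card ≤ k + m := by
  classical
  set Ms := ∏ j, q j with hMs
  have hMs0 : 0 < Ms := Finset.prod_pos fun j _ => (hp j).pos
  have hGpos : ∀ i, 0 < G κ i := fun i => by unfold G; positivity
  obtain ⟨X, hX1, hX0, hX⟩ := Crest.Agent.R320.Thin963.thin K m (Finset.univ.image q)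
    (fun i => (G κ i : ℤ)) (fun i => ((Ms * G κ i : ℕ) : ℤ)) (fun i => (Am Ms κ i : ℤ))
    (by
      intro r hr
      rw [Finset.mem_image] at hr
      obtain ⟨j, -, rfl⟩ := hr
      exact ⟨hp j, hq j⟩)
    (by
      intro r hr
      rw [Finset.mem_image] at hr
      obtain ⟨j, -, rfl⟩ := hr
      rw [Nat.isCoprime_iff_coprime]
      unfold G
      exact Nat.Coprime.pow_right _ ((Nat.coprime_two_right).2 (hodd j)))
    (by exact_mod_cast hGpos m)
    (by
      intro i j hij
      refine Int.natCast_dvd_natCast.2 ?_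
      unfold G
      exact pow_dvd_pow 2 (Nat.mul_le_mul_left κ hij))
    (by
      intro i
      have := Nat.mul_pos hMs0 (hGpos i)
      exact_mod_cast this)
    (by
      intro i
      refine Int.natCast_dvd_natCast.2 (Dvd.intro_left _ rfl))
    (by
      intro i hi
      have h1 : ∀ i, ∑ j ∈ Finset.range (i + 1), (Ms * G κ j) ≤ 2 * (Ms * G κ i) := by
        intro i
        induction i with
        | zero => simp; omega
        | succ i ih =>
          rw [Finset.sum_range_succ]
          have h2 : 2 * G κ i ≤ G κ (i + 1) := by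
            unfold G
            rw [show κ * (i + 1) = κ * i + κ by ring, pow_add, mul_comm 2]
            refine Nat.mul_le_mul_left _ ?_
            calc 2 = 2 ^ 1 := rfl
              _ ≤ 2 ^ κ := Nat.pow_le_pow_right (by norm_num) (by omega)
          have h3 : Ms * (2 * G κ i) ≤ Ms * G κ (i + 1) := Nat.mul_le_mul_left _ h2
          have h4 : Ms * (2 * G κ i) = 2 * (Ms * G κ i) := by ring
          omega
      have h5 : 2 ^ (K + 4) * ∑ j ∈ Finset.range (i + 1), (Ms * G κ j) ≤ G κ (i + 1) := by
        calc 2 ^ (K + 4) * ∑ j ∈ Finset.range (i + 1), (Ms * G κ j)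
            ≤ 2 ^ (K + 4) * (2 * (Ms * G κ i)) := Nat.mul_le_mul_left _ (h1 i)
          _ = (2 ^ (K + 5) * Ms) * G κ i := by ring
          _ ≤ 2 ^ κ * G κ i := by
              refine Nat.mul_le_mul_right _ ?_
              rw [hκ, pow_add 2 (K + 5) Ms]
              exact Nat.mul_le_mul_left _ (Nat.lt_two_pow_self).le
          _ = G κ (i + 1) := by
              unfold G
              rw [← pow_add]
              congr 1
              ring
      exact_mod_cast h5) ((N0 : ℤ) + 1)
  obtain ⟨Y, rfl⟩ := Int.eq_ofNat_of_zero_le hX0.le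
  refine ⟨Y, by omega, ?_⟩
  intro t p s hs hsp
  have hcard : (Finset.univ.image q).card ≤ k := by
    refine Finset.card_image_le.trans ?_
    simp
  refine le_trans ?_ ((hX ((t : ℤ) - p)).trans (Nat.add_le_add_right hcard m))
  -- injection of `s` into the pairs
  have hch : ∀ x ∈ s, ∃ ab : ℕ × ℕ, x = Y * 2 ^ ab.2 ∧ ab ∈ (((Finset.range K) ×ˢ
      (Finset.range K)).filter (fun p' => p'.1 ≠ p'.2 ∧
        Crest.Agent.R320.Thin963.BadT (Finset.univ.image q) m
    (fun i => (G κ i : ℤ)) (fun i => ((Ms * G κ i : ℕ) : ℤ)) (fun i => (Am Ms κ i : ℤ))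
        (((t : ℤ) - p) + Y * 2 ^ p'.1 - Y * 2 ^ p'.2))) := by
    intro x hx
    obtain ⟨b, hb, rfl⟩ := Finset.mem_image.1 (hs hx)
    obtain ⟨c, hc, hcx, hle, hbad⟩ := hsp _ hx
    obtain ⟨a, ha, rfl⟩ := Finset.mem_image.1 hc
    refine ⟨(a, b), rfl, ?_⟩
    rw [Finset.mem_filter, Finset.mem_product]
    refine ⟨⟨ha, hb⟩, fun h => hcx (by rw [show a = b from h]), ?_⟩
    have hT : (((t : ℤ) - p) + Y * 2 ^ a - Y * 2 ^ b) =
        ((t + Y * 2 ^ a - Y * 2 ^ b - p : ℕ) : ℤ) := by
      have e1 : p ≤ t + Y * 2 ^ a - Y * 2 ^ b := by omega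
      rw [Nat.cast_sub e1, Nat.cast_sub (by omega)]
      push_cast
      ring
    rw [hT]
    have hle2 : Am Ms κ m ≤ t + Y * 2 ^ a - Y * 2 ^ b - p := by omega
    generalize t + Y * 2 ^ a - Y * 2 ^ b - p = T at hbad hle2
    rcases hbad with ⟨j, hj⟩ | ⟨j, hj1, hjm, hj⟩
    · left
      exact ⟨q j, Finset.mem_image_of_mem _ (Finset.mem_univ j), Int.natCast_dvd_natCast.2 hj⟩
    · right
      rw [← hMs] at hj
      refine ⟨j - 1, by omega, ?_⟩
      rw [show j - 1 + 1 = j by omega]
      have hA : Am Ms κ j ≤ T := (Am_mono hjm).trans hle2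
      have hdm := Nat.div_add_mod (T - Am Ms κ j) (G κ j)
      have hlt := Nat.mod_lt (T - Am Ms κ j) (hGpos j)
      have hdm' : (T : ℤ) - Am Ms κ j = G κ j * (((T - Am Ms κ j) / G κ j : ℕ) : ℤ) +
          (((T - Am Ms κ j) % G κ j : ℕ) : ℤ) := by
        have : ((T - Am Ms κ j : ℕ) : ℤ) = G κ j * (((T - Am Ms κ j) / G κ j : ℕ) : ℤ) +
          (((T - Am Ms κ j) % G κ j : ℕ) : ℤ) := by exact_mod_cast hdm.symm
        rw [← this, Nat.cast_sub hA]
      by_cases h1 : Ms * G κ (j - 1) ≤ (T - Am Ms κ j) % G κ j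
      · have h2 : G κ j < (T - Am Ms κ j) % G κ j + Ms * G κ (j - 1) := by
          by_contra hcon
          exact hj ⟨h1, by omega⟩
        refine ⟨(G κ j : ℤ) - (((T - Am Ms κ j) % G κ j : ℕ) : ℤ), ?_, ?_⟩
        · rw [abs_le]
          beta_reduce
          clear hdm' hdm hj h1
          generalize Ms * G κ (j - 1) = cc at h2 ⊢
          generalize (T - Am Ms κ j) % G κ j = r at h2 hlt ⊢
          constructor
          · omega
          · omega
        · show (G κ j : ℤ) ∣ (T : ℤ) - (Am Ms κ j : ℤ) + _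
          rw [hdm']
          refine ⟨(((T - Am Ms κ j) / G κ j : ℕ) : ℤ) + 1, by ring⟩
      · refine ⟨-(((T - Am Ms κ j) % G κ j : ℕ) : ℤ), ?_, ?_⟩
        · rw [abs_neg, abs_le]
          beta_reduce
          generalize Ms * G κ (j - 1) = cc at *
          generalize (T - Am Ms κ j) % G κ j = r at *
          constructor <;> omega
        · show (G κ j : ℤ) ∣ (T : ℤ) - (Am Ms κ j : ℤ) + _
          rw [hdm']
          refine ⟨(((T - Am Ms κ j) / G κ j : ℕ) : ℤ), by ring⟩
  choose! g hg1 hg2 using hch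
  refine Finset.card_le_card_of_injOn g (fun x hx => hg2 x hx) ?_
  intro x hx y hy hxy
  rw [hg1 x hx, hg1 y hy, hxy]

section main

variable (S V : Type) [Monoid S] [Finite S] [AddCommGroup V] [Finite V] (act : V → S → V)

theorem main (act_add : ∀ v w s, act (v + w) s = act v s + act w s)
    (act_one : ∀ v, act v 1 = v) (act_mul : ∀ v s t, act v (s * t) = act (act v s) t)
    (faith : ∀ s t, (∀ v, act v s = act v t) → s = t)
    (A : Type) [Finite A] (f : A → S) (s : S) :
    HL 3 ({w : List A | (w.map f).prod = s} : Language A) := by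
  classical
  haveI : Fintype S := Fintype.ofFinite S
  haveI : Fintype V := Fintype.ofFinite V
  obtain ⟨k, m, H1⟩ := grid_gadget_reg S V act
  obtain ⟨K, H2⟩ := Crest.Agent.R320.ExactR_237.exact_gadget A S V f act (2 + 2 * (k + m))
  obtain ⟨q, hqp, hqB, hqo, hqc⟩ := exists_primes k (2 ^ (K + 1))
  set Ms := ∏ j, q j with hMs
  have hMs0 : 0 < Ms := Finset.prod_pos fun j _ => (hqp j).pos
  obtain ⟨κ, hκ⟩ : ∃ κ, κ = K + 5 + Ms := ⟨_, rfl⟩
  let phi : List A → S := fun w => (w.map f).prod
  have hphi : ∀ u v, phi (u ++ v) = phi u * phi v := by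
    intro u v
    show ((u ++ v).map f).prod = _
    rw [List.map_append, List.prod_append]
  obtain ⟨lam1, rho1, nu0, g1, g2, g3, g4, g5⟩ := H1 q hqo hqc κ A phi hphi
  rw [← hMs] at g1 g2 g4 g5
  set N1 := Am Ms κ m with hN1
  set A2 := Am Ms κ (m + 1) with hA2
  obtain ⟨X, hX1, hX⟩ := ruler K m q hqp hqB hqo (2 * N1 + 1) κ hκ
  rw [← hMs] at hX
  let c : ℕ → ℕ := fun j => X * 2 ^ j
  have hc : StrictMono c := fun i j hij =>
    Nat.mul_lt_mul_of_pos_left (Nat.pow_lt_pow_right (by norm_num) hij) (by omega)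
  set p0 := X * 2 ^ K with hp0
  set CC := (Finset.range K).image (fun j => X * 2 ^ j) with hCC
  obtain ⟨lamE, rhoE, nuE, e1, e2⟩ := H2 c (fun i j hij _ => hc hij)
  obtain ⟨n, Wo, hn, len, loc, gap, HLW⟩ :=
    Crest.Agent.R320.OutRule_480.outer_rule_left (α := A) (2 * (p0 + N1) + 2)
  -- the data
  let lam2 : List A → Option V := fun P =>
    if h : ∃ j, j < K ∧ P.length = c j then lamE h.choose P else none
  let rho2 : List A → Option V := fun Q =>
    if h : ∃ j, j < K ∧ Q.length + c j = p0 then rhoE h.choose Q 1 else none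
  have hlam2 : ∀ (P : List A) (j : ℕ), j < K → P.length = c j → lam2 P = lamE j P := by
    intro P j hj hP
    have hex : ∃ j, j < K ∧ P.length = c j := ⟨j, hj, hP⟩
    simp only [lam2]
    rw [dif_pos hex]
    have := hc.injective (hex.choose_spec.2.symm.trans hP)
    rw [this]
  have hrho2 : ∀ (Q : List A) (j : ℕ), j < K → Q.length + c j = p0 → rho2 Q = rhoE j Q 1 := by
    intro Q j hj hP
    have hex : ∃ j, j < K ∧ Q.length + c j = p0 := ⟨j, hj, hP⟩
    simp only [rho2]
    rw [dif_pos hex]
    have h1 := hex.choose_spec.2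
    have := hc.injective (a₁ := hex.choose) (a₂ := j) (by omega)
    rw [this]
  let z : ℕ := 3 * p0 + n + 2 * N1 + 2 * A2 + 2
  let D : Dat A S V {s : Finset ℕ // s ⊆ CC ∧ 2 + 2 * (k + m) ≤ s.card} :=
    { phi := phi
      act := act
      Wo := Wo
      no := n
      W := 2 * (p0 + N1) + 1
      z := z
      p0 := p0
      N1 := N1
      BadT := fun T => p0 + N1 < T ∧ BadG q κ m (T - p0)
      lam := lam2
      rho := rho2
      nu2 := fun w => nuE w 1
      nu1 := nuC act phi lam1 rho1
      C := fun i => i.1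
      CC := CC
      LP1 := fun _ _ => True
      R1 := fun _ => some 0 }
  have hmem : ∀ x ∈ CC, ∃ j, j < K ∧ x = c j := by
    intro x hx
    obtain ⟨j, hj, rfl⟩ := Finset.mem_image.1 hx
    exact ⟨j, Finset.mem_range.1 hj, rfl⟩
  have hcp : ∀ j, j < K → c j ≤ p0 := fun j hj =>
    Nat.mul_le_mul_left _ (Nat.pow_le_pow_right (by norm_num) hj.le)
  have hOk : D.Ok (2 + 2 * (k + m)) (k + m) := by
    refine
      { loc := loc
        len := len
        gap := ?_
        hz := ?_
        hW := ?_
        sub := fun i => i.2.1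
        rng := ?_
        sound := ?_
        complete := ?_
        copies := fun i => i.2.2
        kap := by omega
        rulE := ?_
        rulB := ?_
        comp1 := ?_ }
    · intro P d hP hd hdW hT
      by_cases hle : d ≤ P.length
      · have := gap P d hP hd hle hT
        have h2 : d ≤ 2 * (p0 + N1) + 1 := hdW
        omega
      · have := len _ hT
        rw [List.length_take] at this
        omega
    · show 2 * p0 + n + N1 < z
      simp only [z]
      omega
    · show 2 * (p0 + N1) < 2 * (p0 + N1) + 1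
      omega
    · intro x hx
      obtain ⟨j, hj, rfl⟩ := hmem x hx
      exact hcp j hj
    · intro P Q v b hPQ h1 h2
      have hPQ' : P.length + Q.length = p0 := hPQ
      have h1' : lam2 P = some v := h1
      have h2' : rho2 Q = some b := h2
      have hex : ∃ j, j < K ∧ P.length = c j := by
        by_contra hcon
        simp only [lam2] at h1'
        rw [dif_neg hcon] at h1'
        exact absurd h1' (by simp)
      obtain ⟨j, hj, hPj⟩ := hex
      rw [hlam2 P j hj hPj] at h1'
      rw [hrho2 Q j hj (by omega)] at h2'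
      have := e1 j hj P Q 1 v b hPj h1' h2'
      rw [mul_one] at this
      exact this
    · intro w v hw
      have hw' : w.length = p0 := hw
      obtain ⟨I, hI1, hI2⟩ := e2 w 1 v (fun j hj => by rw [hw']; exact hcp j hj)
      refine ⟨⟨I.image c, ?_, ?_⟩, ?_⟩
      · intro x hx
        obtain ⟨j, hj, rfl⟩ := Finset.mem_image.1 hx
        exact Finset.mem_image_of_mem _ (Finset.mem_range.2 (hI2 j hj).1)
      · rw [Finset.card_image_of_injective _ hc.injective]
        exact hI1
      · intro x hx
        obtain ⟨j, hj, rfl⟩ := Finset.mem_image.1 hx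
        obtain ⟨h1, h2, h3⟩ := hI2 j hj
        have h4 := hcp j h1
        constructor
        · show lam2 (w.take (c j)) = some v
          rw [hlam2 _ j h1 (by rw [List.length_take]; omega)]
          exact h2
        · show (rho2 (w.drop (c j))).isSome
          rw [hrho2 _ j h1 (by rw [List.length_drop]; omega)]
          exact h3
    · intro s x hx c1 hc1 x' hx' c1' hc1' hne hne' h1 h2
      obtain ⟨a, ha, rfl⟩ := hmem x hx
      obtain ⟨b, hb, rfl⟩ := hmem c1 hc1
      obtain ⟨a', ha', rfl⟩ := hmem x' hx'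
      obtain ⟨b', hb', rfl⟩ := hmem c1' hc1'
      have h1' : |s - ((c a : ℤ) - c b)| ≤ (N1 : ℤ) := h1
      have h2' : |s - ((c a' : ℤ) - c b')| ≤ (N1 : ℤ) := h2
      have hab : a ≠ b := fun h => hne (by rw [h])
      have hab' : a' ≠ b' := fun h => hne' (by rw [h])
      have hX0 : (0 : ℤ) < X := by exact_mod_cast (by omega : 0 < X)
      have hz0 : (2 : ℤ) ^ a - 2 ^ b = 2 ^ a' - 2 ^ b' := by
        by_contra hcon
        have h3 : |((c a : ℤ) - c b) - ((c a' : ℤ) - c b')| ≤ 2 * (N1 : ℤ) := by
          rw [abs_le] at h1' h2' ⊢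
          constructor <;> omega
        have h4 : ((c a : ℤ) - c b) - ((c a' : ℤ) - c b') =
            X * ((2 ^ a - 2 ^ b) - (2 ^ a' - 2 ^ b')) := by
          simp only [c]
          push_cast
          ring
        rw [h4, abs_mul, abs_of_pos hX0] at h3
        have h5 : (1 : ℤ) ≤ |((2 : ℤ) ^ a - 2 ^ b) - (2 ^ a' - 2 ^ b')| :=
          Int.one_le_abs (sub_ne_zero.2 hcon)
        have h6 : (X : ℤ) * 1 ≤ X * |((2 : ℤ) ^ a - 2 ^ b) - (2 ^ a' - 2 ^ b')| :=
          mul_le_mul_of_nonneg_left h5 hX0.le
        omega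
      rw [(Crest.Agent.R320.G369.pow_diff hab hab' hz0).1]
    · intro t s hs hsp
      refine hX t p0 s hs ?_
      intro x hx
      obtain ⟨c1, hc1, hne, hb1, hb2⟩ := hsp x hx
      exact ⟨c1, hc1, hne, hb1, hb2⟩
    · intro w hw _ v
      refine ⟨w, [], (List.append_nil w).symm, ?_, trivial, rfl⟩
      have h1 : z ≤ w.length := hw.2.1
      show p0 ≤ w.length
      simp only [z] at h1
      omega
  -- scheme 1
  have hG1 : G1 D lam1 (fun Q => if n ≤ Q.length then rho1 Q else none) := by
    refine { short := fun P v h => (g1 P v h).1, long := ?_, sound := ?_, comp := ?_ }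
    · intro Q b h
      by_contra hcon
      have hcon' : ¬ n ≤ Q.length := hcon
      simp only [if_neg hcon'] at h
      exact absurd h (by simp)
    · intro P Q v b h1 h2
      have h2' : rho1 Q = some b := by
        by_cases hq : n ≤ Q.length
        · simpa only [if_pos hq] using h2
        · simp only [if_neg hq] at h2
          exact absurd h2 (by simp)
      exact nuC_sound act phi lam1 rho1 nu0 g3 P Q v b h1 h2'
    · intro u hu hzu v
      have hzu' : z ≤ u.length + p0 := hzu
      simp only [z] at hzu'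
      have hu' : ¬ BadG q κ m (u.length + p0 - p0) := fun h => hu ⟨by
        show p0 + N1 < u.length + p0
        omega, h⟩
      rw [Nat.add_sub_cancel] at hu'
      obtain ⟨P, Q, h1, h2, h3⟩ := g4 u (by omega) (fun j hj => hu' (Or.inl ⟨j, hj⟩))
        (fun j hj1 hj2 => by
          by_contra hcon
          exact hu' (Or.inr ⟨j, hj1, hj2, hcon⟩)) v
      have hP := (g1 P v h2).1
      have hl : u.length = P.length + Q.length := by rw [h1, List.length_append]
      refine ⟨P, Q, h1, h2, ?_⟩
      rw [if_pos (by omega)]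
      exact h3
  -- heights of the one-block languages
  have few : ∀ L : Language A, L.IsRegular →
      (∀ w ∈ L, ∀ t, z ≤ t → t < w.length → ¬ Wo (w.take t)) → HL 1 L := by
    intro L hL hw
    refine HLW (z + 1) L hL fun w hwL F hF => ?_
    have hsub : F ⊆ insert w.length (Finset.range z) := by
      intro x hx
      obtain ⟨h1, h2⟩ := hF x hx
      rw [Finset.mem_insert, Finset.mem_range]
      by_contra hcon
      exact hw w hwL x (by omega) (by omega) h2
    refine (Finset.card_le_card hsub).trans ((Finset.card_insert_le _ _).trans ?_)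
    rw [Finset.card_range]
  have regXX : Language.IsRegular ({w | D.XX w} : Language A) :=
    Crest.Agent.R320.Reg_852.HL.isRegular (P4_933.hl_XX0 (z := z) (k := 0) loc len)
  have regNB : Language.IsRegular ({w | P4_933.NB Wo z w} : Language A) :=
    Crest.Agent.R320.Reg_852.HL.isRegular (P4_933.hl_NB0 (z := z) (k := 0) loc len)
  have hM0 : 0 < Ms * G κ m := Nat.mul_pos hMs0 (by unfold G; positivity)
  have regT : ∀ v v', Language.IsRegular ({w | D.T v w = v'} : Language A) := by
    intro v v'
    refine regular_rest f (p0 + (N1 + A2)) (Ms * G κ m) hM0 _ ?_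
    intro u u' hu hu' ht hm hd
    have hd' : phi (u.drop (p0 + (N1 + A2))) = phi (u'.drop (p0 + (N1 + A2))) := hd
    have t1 : u.take p0 = u'.take p0 := by
      have h1 : ∀ w : List A, w.take p0 = (w.take (p0 + (N1 + A2))).take p0 := by
        intro w
        rw [List.take_take, min_eq_left (by omega)]
      rw [h1 u, h1 u', ht]
    have t2 : ∀ w : List A, (w.drop p0).take (N1 + A2) = (w.take (p0 + (N1 + A2))).drop p0 := by
      intro w
      rw [List.drop_take]
      congr 1
      omega
    have t3 : ∀ w : List A, (w.drop p0).drop (N1 + A2) = w.drop (p0 + (N1 + A2)) := by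
      intro w
      rw [List.drop_drop]
    have t4 : phi (u.drop p0) = phi (u'.drop p0) := by
      rw [← List.take_append_drop (N1 + A2) (u.drop p0),
        ← List.take_append_drop (N1 + A2) (u'.drop p0), hphi, hphi, t2, t2, t3, t3, ht, hd']
    have t5 : nuC act phi lam1 rho1 (u.drop p0) = nuC act phi lam1 rho1 (u'.drop p0) := by
      refine nuC_congr act phi hphi lam1 rho1 N1 A2 (Ms * G κ m) (fun P v h => (g1 P v h).1)
        (fun Q Q' a b c d e => by
          have h5 := g5 Q Q' a b c d e
          first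
            | exact h5
            | exact h5.1)
        _ _ ?_ ?_ ?_ ?_ ?_
      · rw [List.length_drop]; omega
      · rw [List.length_drop]; omega
      · rw [t2, t2, ht]
      · rw [t3, t3]; exact hd'
      · rw [List.length_drop, List.length_drop]
        refine Nat.ModEq.add_left_cancel' p0 ?_
        rw [show p0 + (u.length - p0) = u.length by omega,
          show p0 + (u'.length - p0) = u'.length by omega]
        exact hm
    have key : D.T v u = D.T v u' := by
      show act (act v (phi (u.take p0)) + nuE (u.take p0) 1) (phi (u.drop p0)) +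
          nuC act phi lam1 rho1 (u.drop p0) =
        act (act v (phi (u'.take p0)) + nuE (u'.take p0) 1) (phi (u'.drop p0)) +
          nuC act phi lam1 rho1 (u'.drop p0)
      rw [t1, t4, t5]
    rw [key]
  have hZ : HL 1 (Zb D) := few _ regXX fun w hw t h1 h2 => hw.2.2 t h2 h1
  have hτ : ∀ x y, HL 1 (ZT (Zb D) (tau D) x y) := fun x y =>
    few _ (regXX.inf (regT x y)) fun w hw t h1 h2 => hw.1.2.2 t h2 h1
  have hNP : ∀ s, HL 1 ({r | (∀ X ∈ Zb D, ¬ X <+: r) ∧ phi r = s} : Language A) := by
    intro s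
    have regs : Language.IsRegular ({w | phi w = s} : Language A) := by
      refine regular_rest f 0 1 one_pos _ ?_
      intro u u' _ _ _ _ hd
      rw [List.drop_zero, List.drop_zero] at hd
      show phi u = s ↔ phi u' = s
      rw [show phi u = phi u' from hd]
    have h1 : HL 1 (({w | P4_933.NB Wo z w} : Language A) ⊓ {w | phi w = s}) :=
      few _ (regNB.inf regs) fun w hw t h1 h2 => hw.1 t h2.le h1
    refine h1.congr fun w => Iff.symm ?_
    constructor
    · rintro ⟨h2, h3⟩
      exact ⟨fun P hP hPw => (P4_933.NB_iff Wo z w).1 h2 P hPw hP, h3⟩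
    · rintro ⟨h2, h3⟩
      exact ⟨(P4_933.NB_iff Wo z w).2 fun P hPw hP => h2 P hP hPw, h3⟩
  have hPC : PC (Zb D) := by
    refine { ne := ?_, pf := ?_ }
    · intro h
      have h1 : z ≤ ([] : List A).length := h.2.1
      simp only [z, List.length_nil] at h1
      omega
    · rintro u hu v hv ⟨r, rfl⟩
      by_contra hcon
      have hr : r ≠ [] := by
        rintro rfl
        exact hcon (List.append_nil u).symm
      have hrl := List.length_pos_of_ne_nil hr
      refine hv.2.2 u.length (by rw [List.length_append]; omega) hu.2.1 ?_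
      rw [List.take_left]
      exact hu.1
  refine Top270.top phi (by show (([] : List A).map f).prod = 1; simp) hphi act act_add act_one
    act_mul faith hPC (τ := tau D)
    (fun w => act (nuE (w.take p0) 1) (phi (w.drop p0)) + nuC act phi lam1 rho1 (w.drop p0))
    ?_ hZ hτ hNP (L1 := L1 D lam1) (L2 := L2 D) ?_ ?_
    (c2 hOk (L1 D lam1) (badA_badX hOk hG1)) s
  · intro u hu v
    show act (act v (phi (u.take p0)) + nuE (u.take p0) 1) (phi (u.drop p0)) +
      nuC act phi lam1 rho1 (u.drop p0) = _
    rw [act_add, ← act_mul, ← hphi, List.take_append_drop, add_assoc]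
  · intro x
    refine (List.finite_length_le A (p0 + N1)).subset ?_
    rintro P ⟨h1, h2⟩
    have h3 := (g1 _ _ h2).1
    rw [List.length_drop] at h3
    have h1' : p0 ≤ P.length := h1
    have h3' : P.length - p0 < N1 := h3
    show P.length ≤ p0 + N1
    omega
  · intro x
    refine (List.finite_length_le A p0).subset ?_
    rintro P ⟨h1, h2⟩
    exact hOk.rng _ h1

end main

end Crest.Agent.R320.FinC_889
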