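import Crest.Agent.R320.FinB_905
import Crest.Agent.R320.Grid_899
import Crest.Agent.R320.Thin_963
import Crest.Agent.R320.LWallAll_922
import Crest.Agent.R320.Block_467
import Crest.Agent.R320.ExactR_237

set_option autoImplicit false
set_option maxHeartbeats 800000

namespace Crest.Agent.R320.FinC_905

open Crest.RegLang Crest.Agent.R320.Hk_851 Crest.Agent.R320.Sc2n_937

/-- distinct large primes -/
theorem exists_primes (k N : ℕ) : ∃ q : Fin k → ℕ, Function.Injective q ∧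
    ∀ j, (q j).Prime ∧ N ≤ q j := by
  have hinf : {p : ℕ | p.Prime ∧ N ≤ p}.Infinite := by
    rw [Set.infinite_iff_exists_gt]
    intro a
    obtain ⟨p, hp, hpp⟩ := Nat.exists_infinite_primes (max N (a + 1))
    exact ⟨p, ⟨hpp, le_trans (le_max_left _ _) hp⟩,
      lt_of_lt_of_le (Nat.lt_succ_self a) (le_trans (le_max_right _ _) hp)⟩
  have : Infinite {p : ℕ | p.Prime ∧ N ≤ p} := hinf.to_subtype
  let e := Infinite.natEmbedding {p : ℕ | p.Prime ∧ N ≤ p}
  refine ⟨fun j => (e j : ℕ), ?_, fun j => (e j).2⟩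
  intro i j h
  exact Fin.ext (e.injective (Subtype.ext h))

section arith

variable (Ms κ : ℕ)

local notation "GG" => Grid_899.G κ
local notation "AA" => Grid_899.Am Ms κ

theorem G_pos (i : ℕ) : 0 < Grid_899.G κ i := by unfold Grid_899.G; positivity

theorem G_dvd {i j : ℕ} (h : i ≤ j) : Grid_899.G κ i ∣ Grid_899.G κ j := by
  unfold Grid_899.G
  exact pow_dvd_pow 2 (Nat.mul_le_mul_left κ h)

theorem Am_mono {i j : ℕ} (h : i ≤ j) : Grid_899.Am Ms κ i ≤ Grid_899.Am Ms κ j := by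
  induction h with
  | refl => exact le_rfl
  | step _ ih =>
    refine le_trans ih ?_
    show _ ≤ Grid_899.Am Ms κ _ + Grid_899.G κ _ + Ms * Grid_899.G κ _
    omega

theorem grow {K m : ℕ} (hκ : 2 ^ (K + 4) * ((m + 1) * Ms) ≤ 2 ^ κ) (i : ℕ) (hi : i < m) :
    2 ^ (K + 4) * ∑ j ∈ Finset.range (i + 1), Ms * Grid_899.G κ j ≤ Grid_899.G κ (i + 1) := by
  have h1 : ∑ j ∈ Finset.range (i + 1), Ms * Grid_899.G κ j ≤ (i + 1) * (Ms * Grid_899.G κ i) := by
    have := Finset.sum_le_card_nsmul (Finset.range (i + 1)) (fun j => Ms * Grid_899.G κ j)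
      (Ms * Grid_899.G κ i) (fun j hj => by
        refine Nat.mul_le_mul_left Ms ?_
        rw [Finset.mem_range] at hj
        exact Nat.le_of_dvd (G_pos κ i) (G_dvd κ (by omega)))
    simpa using this
  have h2 : Grid_899.G κ (i + 1) = 2 ^ κ * Grid_899.G κ i := by
    unfold Grid_899.G
    rw [← pow_add]; congr 1; ring
  rw [h2]
  calc 2 ^ (K + 4) * ∑ j ∈ Finset.range (i + 1), Ms * Grid_899.G κ j
      ≤ 2 ^ (K + 4) * ((i + 1) * (Ms * Grid_899.G κ i)) := Nat.mul_le_mul_left _ h1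
    _ ≤ 2 ^ (K + 4) * ((m + 1) * (Ms * Grid_899.G κ i)) := by
        refine Nat.mul_le_mul_left _ (Nat.mul_le_mul_right _ (by omega))
    _ = (2 ^ (K + 4) * ((m + 1) * Ms)) * Grid_899.G κ i := by ring
    _ ≤ 2 ^ κ * Grid_899.G κ i := Nat.mul_le_mul_right _ hκ

end arith

/-- bad lengths -/
def Bd {k : ℕ} (q : Fin k → ℕ) (m κ : ℕ) (n : ℕ) : Prop :=
  (∃ j, q j ∣ n) ∨ ∃ j, 1 ≤ j ∧ j ≤ m ∧
    ¬ ((∏ j, q j) * Grid_899.G κ (j - 1) ≤ (n - Grid_899.Am (∏ j, q j) κ j) % Grid_899.G κ j ∧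
      (n - Grid_899.Am (∏ j, q j) κ j) % Grid_899.G κ j + (∏ j, q j) * Grid_899.G κ (j - 1)
        ≤ Grid_899.G κ j)

theorem Bd_imp {k : ℕ} (q : Fin k → ℕ) (m κ : ℕ) {n : ℕ}
    (hn : Grid_899.Am (∏ j, q j) κ (m + 1) ≤ n) (h : Bd q m κ n) :
    Thin963.BadT (Finset.univ.image q) m (fun i => (Grid_899.G κ i : ℤ))
      (fun i => (((∏ j, q j) * Grid_899.G κ i : ℕ) : ℤ))
      (fun i => (Grid_899.Am (∏ j, q j) κ i : ℤ)) (n : ℤ) := by
  rcases h with ⟨j, hj⟩ | ⟨j, h1, h2, h3⟩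
  · left
    exact ⟨q j, Finset.mem_image_of_mem q (Finset.mem_univ j), by exact_mod_cast hj⟩
  · right
    obtain ⟨i, rfl⟩ : ∃ i, j = i + 1 := ⟨j - 1, by omega⟩
    rw [Nat.add_sub_cancel] at h3
    refine ⟨i, by omega, ?_⟩
    have hA : Grid_899.Am (∏ j, q j) κ (i + 1) ≤ n := le_trans (Am_mono _ _ (by omega)) hn
    set G := Grid_899.G κ (i + 1) with hG
    set A := Grid_899.Am (∏ j, q j) κ (i + 1) with hAA
    set C := (∏ j, q j) * Grid_899.G κ i with hC
    have hGp : 0 < G := G_pos κ (i + 1)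
    have hr := Nat.mod_lt (n - A) hGp
    have hdm := Nat.div_add_mod (n - A) G
    set r := (n - A) % G with hrr
    set d := (n - A) / G with hd
    have hnA : ((n : ℤ) - A) = G * d + r := by
      have : ((n - A : ℕ) : ℤ) = (n : ℤ) - A := by push_cast [hA]; ring
      rw [← this]; exact_mod_cast hdm.symm
    by_cases h4 : C ≤ r
    · have h5 : ¬ (r + C ≤ G) := fun h => h3 ⟨h4, h⟩
      refine ⟨(G : ℤ) - r, ?_, ?_⟩
      · show |(G : ℤ) - r| ≤ (C : ℤ)
        rw [abs_le]; constructor <;> omega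
      · refine ⟨d + 1, ?_⟩
        rw [hnA]; ring
    · refine ⟨-(r : ℤ), ?_, ?_⟩
      · show |-(r : ℤ)| ≤ (C : ℤ)
        rw [abs_le]; constructor <;> omega
      · refine ⟨d, ?_⟩
        rw [hnA]; ring

theorem mod_sub {a b A M : ℕ} (ha : A ≤ a) (hb : A ≤ b) (h : a % M = b % M) :
    (a - A) % M = (b - A) % M := by
  have e1 : a = (a - A) + A := by omega
  have e2 : b = (b - A) + A := by omega
  have h6 : (a - A) + A ≡ (b - A) + A [MOD M] := by rw [← e1, ← e2]; exact h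
  exact Nat.ModEq.add_right_cancel' A h6

theorem Bd_per {k : ℕ} (q : Fin k → ℕ) (m κ : ℕ) {n n' : ℕ}
    (hn : Grid_899.Am (∏ j, q j) κ (m + 1) ≤ n) (hn' : Grid_899.Am (∏ j, q j) κ (m + 1) ≤ n')
    (h : n % ((∏ j, q j) * Grid_899.G κ m) = n' % ((∏ j, q j) * Grid_899.G κ m)) :
    Bd q m κ n ↔ Bd q m κ n' := by
  have key : ∀ d, d ∣ (∏ j, q j) * Grid_899.G κ m → n % d = n' % d := fun d hd =>
    Nat.ModEq.of_dvd hd h
  unfold Bd
  refine or_congr ?_ ?_
  · refine exists_congr fun j => ?_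
    have h1 := key (q j) (dvd_mul_of_dvd_left (Finset.dvd_prod_of_mem q (Finset.mem_univ j)) _)
    rw [Nat.dvd_iff_mod_eq_zero, Nat.dvd_iff_mod_eq_zero, h1]
  · refine exists_congr fun j => and_congr_right fun h1 => and_congr_right fun h2 => ?_
    have h3 := key (Grid_899.G κ j) (dvd_mul_of_dvd_right (G_dvd κ h2) _)
    have h4 : Grid_899.Am (∏ j, q j) κ j ≤ Grid_899.Am (∏ j, q j) κ (m + 1) :=
      Am_mono _ _ (by omega)
    rw [mod_sub (le_trans h4 hn) (le_trans h4 hn') h3]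

/-- **S0495 in monoid form** -/
theorem fin (α : Type) [Finite α] (S : Type) [Monoid S] [Finite S] (φ : α → S) (s : S) :
    HL 3 ({w | (w.map φ).prod = s} : Language α) := by
  classical
  haveI : Fintype S := Fintype.ofFinite S
  obtain ⟨act, hadd, hone, hmul, hfaith⟩ := Blk467.exists_module S
  haveI : Fintype (S → ZMod 2) := Fintype.ofFinite _
  obtain ⟨k, m, hg⟩ := Grid_899.grid_gadget_reg S (S → ZMod 2) act
  obtain ⟨K, hK⟩ := ExactR_237.exact_gadget α S (S → ZMod 2) φ act (2 * (k + m) + 2)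
  obtain ⟨q, hqi, hq⟩ := exists_primes k (2 ^ (K + 1) + 3)
  have hqodd : ∀ j, Odd (q j) := fun j =>
    (hq j).1.odd_of_ne_two (by
      have h1 := (hq j).2
      have h2 : 0 < 2 ^ K := by positivity
      omega)
  have hqcop : Pairwise (fun i j => Nat.Coprime (q i) (q j)) := fun i j hij =>
    (Nat.coprime_primes (hq i).1 (hq j).1).2 fun h => hij (hqi h)
  set Ms : ℕ := ∏ j, q j with hMs
  have hMspos : 0 < Ms := Finset.prod_pos fun j _ => (hq j).1.pos
  set κ : ℕ := 2 ^ (K + 4) * ((m + 1) * Ms) with hκ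
  obtain ⟨lam, rho, nu1, g1, g2, g3, g4, g5⟩ := hg q hqodd hqcop κ α
    (fun w => (w.map φ).prod) (fun u v => by simp)
  set Aw : ℕ := Grid_899.Am Ms κ (m + 1) with hAw
  set N1 : ℕ := Grid_899.Am Ms κ m + 1 with hN1
  -- the ruler
  obtain ⟨X0, hX0, hX0p, hthin⟩ := Thin963.thin K m (Finset.univ.image q)
    (fun i => (Grid_899.G κ i : ℤ)) (fun i => ((Ms * Grid_899.G κ i : ℕ) : ℤ))
    (fun i => (Grid_899.Am Ms κ i : ℤ))
    (by
      intro p hp
      obtain ⟨j, _, rfl⟩ := Finset.mem_image.1 hp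
      exact ⟨(hq j).1, le_trans (Nat.le_add_right _ 3) (hq j).2⟩)
    (by
      intro p hp
      obtain ⟨j, _, rfl⟩ := Finset.mem_image.1 hp
      rw [Nat.isCoprime_iff_coprime]
      unfold Grid_899.G
      exact Nat.Coprime.pow_right _ (Nat.coprime_two_right.2 (hqodd j)))
    (by exact_mod_cast G_pos κ m)
    (fun i j h => by exact_mod_cast G_dvd κ h)
    (fun i => by
      have := Nat.mul_pos hMspos (G_pos κ i)
      exact_mod_cast this)
    (fun i => by
      have : Grid_899.G κ i ∣ Ms * Grid_899.G κ i := Dvd.intro_left _ rfl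
      exact_mod_cast this)
    (by
      intro i hi
      have h1 := grow Ms κ (K := K) (m := m) (by rw [← hκ]; exact Nat.lt_two_pow_self.le) i hi
      exact_mod_cast h1)
    (2 * N1 + 1)
  obtain ⟨X, rfl⟩ := Int.eq_ofNat_of_zero_le hX0p.le
  have hXp : 0 < X := by exact_mod_cast hX0p
  have hXN : 2 * N1 + 1 ≤ X := by
    have : ((2 * N1 + 1 : ℕ) : ℤ) ≤ X := by push_cast; exact_mod_cast hX0
    exact_mod_cast this
  set c : ℕ → ℕ := fun j => X * 2 ^ j with hc
  have hcmono : ∀ i j, i < j → c i < c j := fun i j h =>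
    Nat.mul_lt_mul_of_pos_left (Nat.pow_lt_pow_right (by norm_num) h) hXp
  obtain ⟨lam2, rho2, nu2, e1, e2⟩ := hK c (fun i j h _ => hcmono i j h)
  set p0 : ℕ := c K with hp0
  obtain ⟨n, G', B, Wo, hLW, hWgap, _, _, hfree⟩ :=
    LWallAll_922.walls_all_left α (2 * p0 + 2 * N1 + 1) (by omega)
  let g : Geo α :=
    { Wo := Wo, n := n, z := p0 + N1 + (n + 2 * p0 + 2 * Aw), p0 := p0,
      q0 := n + 2 * p0 + 2 * Aw, N1 := N1, loc := hLW.app, hz := rfl, hq := by omega,
      hN := by omega, hqp := by omega }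
  refine FinB_905.join act hadd hone hmul hfaith φ g hLW.len B (2 * p0 + 2 * N1 + 1) hfree
    lam rho nu1 Aw (Ms * Grid_899.G κ m) (Nat.mul_pos hMspos (G_pos κ m)) ?_ g3 ?_
    (Bd q m κ) Aw ?_ ?_ K c ?_ lam2 (fun k Q => rho2 k Q 1) (fun X => nu2 X 1) ?_ (k + m) ?_ ?_ ?_
    ?_ s
  · intro P v h
    have h' : P.length < Grid_899.Am Ms κ m := (g1 P v h).1
    show P.length < N1
    omega
  · intro Q Q' h1 h2 h3 h4 h5
    exact (g5 Q Q' h1 h2 h3 h4 h5).1
  · intro a b h1 h2 h3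
    exact Bd_per q m κ h1 h2 h3
  · intro Y hY hB v
    have hY' : N1 + (n + 2 * p0 + 2 * Aw) ≤ Y.length := hY
    unfold Bd at hB
    push Not at hB
    refine g4 Y (by omega) (fun j => hB.1 j) (fun j h1 h2 => ?_) v
    exact hB.2 j h1 h2
  · intro i hi
    exact (hcmono i K hi).le
  · intro i hi P Q v b h1 h2 h3
    have := e1 i hi P Q 1 v b h1 h2 h3
    rw [mul_one] at this
    exact this
  · intro u v hu
    exact e2 u 1 v hu
  · intro P Q h1 h2 h3
    have hQ : 0 < Q.length := List.length_pos_of_ne_nil h3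
    have := hWgap (P ++ Q) P.length (P ++ Q).length (by rw [List.length_append]; omega) le_rfl
      (by rw [List.take_left]; exact h1) (by rw [List.take_length]; exact h2)
    rw [List.length_append] at this
    show 2 * p0 + 2 * N1 < Q.length
    omega
  · intro a a' b b' ha ha' hb hb' hne hne' h1 h2
    have h1' : c a + c b' < c b + c a' + 2 * N1 := h1
    have h2' : c b + c a' < c a + c b' + 2 * N1 := h2
    have h3 : (2 : ℤ) ^ a - 2 ^ a' = 2 ^ b - 2 ^ b' := by
      by_contra hcon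
      have h4 : (X : ℤ) * ((2 : ℤ) ^ a - 2 ^ a' - (2 ^ b - 2 ^ b')) < 2 * N1 := by
        have : ((c a + c b' : ℕ) : ℤ) < ((c b + c a' + 2 * N1 : ℕ) : ℤ) := by exact_mod_cast h1'
        simp only [hc] at this
        push_cast at this
        linarith
      have h5 : -(2 * (N1 : ℤ)) < (X : ℤ) * ((2 : ℤ) ^ a - 2 ^ a' - (2 ^ b - 2 ^ b')) := by
        have : ((c b + c a' : ℕ) : ℤ) < ((c a + c b' + 2 * N1 : ℕ) : ℤ) := by exact_mod_cast h2'
        simp only [hc] at this
        push_cast at this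
        linarith
      have h6 : ((2 : ℤ) ^ a - 2 ^ a' - (2 ^ b - 2 ^ b')) ≠ 0 := sub_ne_zero.2 hcon
      have h7 : ((2 * N1 + 1 : ℕ) : ℤ) ≤ X := by exact_mod_cast hXN
      push_cast at h7
      rcases lt_or_gt_of_ne h6 with h8 | h8
      · nlinarith
      · nlinarith
    exact (G369.pow_diff (Ne.symm hne) (Ne.symm hne') h3).1
  · intro τ hτ J hJ
    have hτ' : p0 + N1 + (n + 2 * p0 + 2 * Aw) ≤ τ + p0 := hτ
    choose! f hf using fun a (ha : a ∈ J) => (hJ a ha).2
    have hsub : J.image (fun a => (f a, a)) ⊆ ((Finset.range K) ×ˢ (Finset.range K)).filter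
        (fun p => p.1 ≠ p.2 ∧ Thin963.BadT (Finset.univ.image q) m
          (fun i => (Grid_899.G κ i : ℤ)) (fun i => ((Ms * Grid_899.G κ i : ℕ) : ℤ))
          (fun i => (Grid_899.Am Ms κ i : ℤ))
          (((τ : ℤ) - p0) + (X : ℤ) * 2 ^ p.1 - (X : ℤ) * 2 ^ p.2)) := by
      intro x hx
      obtain ⟨a, ha, rfl⟩ := Finset.mem_image.1 hx
      obtain ⟨h1, h2, h3⟩ := hf a ha
      have haK := (hJ a ha).1
      have hca : c a ≤ p0 := (hcmono a K haK).le
      rw [Finset.mem_filter, Finset.mem_product, Finset.mem_range, Finset.mem_range]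
      refine ⟨⟨h1, haK⟩, h2, ?_⟩
      have h4 := Bd_imp q m κ (n := τ + c (f a) - c a - p0) (by
        show Aw ≤ _
        omega) h3
      have h5 : ((τ + c (f a) - c a - p0 : ℕ) : ℤ)
          = ((τ : ℤ) - p0) + (X : ℤ) * 2 ^ (f a) - (X : ℤ) * 2 ^ a := by
        have h6 : ((τ + c (f a) - c a - p0 : ℕ) : ℤ)
            = (τ : ℤ) + c (f a) - c a - p0 := by omega
        rw [h6]
        simp only [hc]
        push_cast
        ring
      rw [h5] at h4
      exact h4
    have h1 := Finset.card_le_card hsub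
    have h2 := hthin ((τ : ℤ) - p0)
    rw [Finset.card_image_of_injective _ (fun a b h => (Prod.mk.inj h).2)] at h1
    have h3 : (Finset.univ.image q).card ≤ k := by
      refine le_trans Finset.card_image_le ?_
      simp
    omega

end Crest.Agent.R320.FinC_905
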