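import Crest.Agent.R320.FinB_975

/-!
Row 320, JOIN: every fibre of a finite monoid has generalized star height at most 3.
-/

set_option autoImplicit false

namespace Crest.Agent.R320.Fin_975

open Crest.RegLang Crest.Agent.R320.Hk_851 Crest.Agent.R320.Sc2n_937
open Crest.Agent.R320.Grid_899 Crest.Agent.R320.BddReg_746

theorem bad_mod {Bd : ℕ → Prop} {M : ℕ} (h : ∀ T, Bd (T + M) ↔ Bd T) {a b : ℕ}
    (hab : a ≡ b [MOD M]) : Bd a ↔ Bd b := by
  have e : ∀ T, Bd T ↔ Bd (T % M) := by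
    intro T
    conv_lhs => rw [← Nat.mod_add_div T M, Nat.mul_comm]
    exact Bridge_975.bad_add h _ _
  rw [e a, e b, hab]

theorem PN_two {α : Type} {B W : ℕ} {X u x v : List α} {k : ℕ} (hu : u.length ≤ B)
    (hx : x.length ≤ W) (hv : v.length ≤ B) (hX : X = u ++ (List.replicate k x).flatten ++ v) :
    X ∈ (PN (max B W) 2 : Language α) := by
  refine Language.mem_mul.2 ⟨u ++ pw x k, ⟨u, x, k, le_trans hu (le_max_left _ _),
    le_trans hx (le_max_right _ _), rfl⟩, v, ?_, hX.symm⟩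
  refine Language.mem_mul.2 ⟨v, ⟨v, [], 0, le_trans hv (le_max_left _ _), by simp, ?_⟩, [], rfl, ?_⟩
  · simp
  · simp

/-- golomb condition of the ruler `X * 2 ^ j` -/
theorem ruler_sp {X N1 k k' l l' : ℕ} (hX : 2 * N1 + 1 ≤ X) (hk : k' ≠ k) (hl : l' ≠ l)
    (h1 : X * 2 ^ k + X * 2 ^ l' < X * 2 ^ l + X * 2 ^ k' + 2 * N1)
    (h2 : X * 2 ^ l + X * 2 ^ k' < X * 2 ^ k + X * 2 ^ l' + 2 * N1) : k = l := by
  have h1' : (X : ℤ) * 2 ^ k + X * 2 ^ l' < X * 2 ^ l + X * 2 ^ k' + 2 * N1 := by exact_mod_cast h1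
  have h2' : (X : ℤ) * 2 ^ l + X * 2 ^ k' < X * 2 ^ k + X * 2 ^ l' + 2 * N1 := by exact_mod_cast h2
  have hX' : 2 * (N1 : ℤ) + 1 ≤ X := by exact_mod_cast hX
  have hN : (0 : ℤ) ≤ N1 := by positivity
  set D : ℤ := ((2 : ℤ) ^ k - 2 ^ k') - (2 ^ l - 2 ^ l') with hD
  have e1 : (X : ℤ) * D < 2 * N1 := by rw [hD]; linarith
  have e2 : -(2 * (N1 : ℤ)) < X * D := by rw [hD]; linarith
  have hD0 : D = 0 := by
    by_contra hne
    rcases lt_or_gt_of_ne hne with h | h
    · have : D ≤ -1 := by omega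
      nlinarith
    · have : 1 ≤ D := by omega
      nlinarith
  have h3 : (2 : ℤ) ^ k - 2 ^ k' = 2 ^ l - 2 ^ l' := by rw [hD] at hD0; linarith
  exact (Crest.Agent.R320.G369.pow_diff (Ne.symm hk) (Ne.symm hl) h3).1

theorem fin (α : Type) [Finite α] (S : Type) [Monoid S] [Finite S] (φ : α → S) (s : S) :
    HL 3 ({w | (w.map φ).prod = s} : Language α) := by
  classical
  haveI : Fintype S := Fintype.ofFinite S
  haveI : Fintype (S → ZMod 2) := Fintype.ofFinite _
  obtain ⟨act, hadd, hone, hmul, hfaith⟩ := Blk467.exists_module S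
  obtain ⟨k, m, H1⟩ := grid_gadget_reg S (S → ZMod 2) act
  obtain ⟨K, H2⟩ := ExactR_237.exact_gadget α S (S → ZMod 2) φ act (2 * (k + m) + 2)
  obtain ⟨q, κ, hqo, hqc, hMpos, HX⟩ := params k m K
  let ph : List α → S := fun w => (w.map φ).prod
  have hph : ∀ u v, ph (u ++ v) = ph u * ph v := by
    intro u v; simp only [ph, List.map_append, List.prod_append]
  obtain ⟨lam, rho, nu, hl1, hr1, hs1, hc1, hloc1⟩ := H1 q hqo hqc κ α ph hph
  set A := Am (∏ j, q j) κ (m + 1) with hA
  have hAm : Am (∏ j, q j) κ m ≤ A := Am_mono (by omega)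
  set M := (∏ j, q j) * G κ m with hM
  have hM0 : 0 < M := Nat.mul_pos hMpos (G_pos _)
  obtain ⟨X, hXN, hXpos, hthin⟩ := HX (2 * (A + 1) + 1)
  set N1 := A + 1 with hN1
  let c : ℕ → ℕ := fun j => X * 2 ^ j
  have hcK : ∀ i j, i < j → j < K → c i < c j := fun i j hij _ =>
    Nat.mul_lt_mul_of_pos_left (Nat.pow_lt_pow_right (by norm_num) hij) hXpos
  set p0 := X * 2 ^ K with hp0
  have hcp : ∀ i, i < K → c i ≤ p0 := fun i hi =>
    Nat.mul_le_mul_left _ (Nat.pow_le_pow_right (by norm_num) hi.le)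
  obtain ⟨lam2, rho2, nu2, hs2, hc2⟩ := H2 c hcK
  obtain ⟨n, Gw, B, Wo, hLW, hgap, -, -, hfree⟩ :=
    LWallAll_922.walls_all_left α (2 * p0 + 2 * N1) (by omega)
  set q0 := n + 2 * p0 + 2 * A with hq0
  let g : Geo α :=
    { Wo := Wo, n := n, z := p0 + N1 + q0, p0 := p0, q0 := q0, N1 := N1, loc := hLW.app,
      hz := rfl, hq := by omega, hN := by omega, hqp := by omega }
  let nu1 : List α → (S → ZMod 2) := nuC lam rho nu
  let pre : List α → (S → ZMod 2) → (S → ZMod 2) := fun Y v => act v (ph Y) + nu2 Y 1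
  let post : (S → ZMod 2) → List α → (S → ZMod 2) := fun u Y => act u (ph Y) + nu1 Y
  let nuT : List α → (S → ZMod 2) := fun Y =>
    act (nu2 (Y.take p0) 1) (ph (Y.drop p0)) + nu1 (Y.drop p0)
  have hT : ∀ v Y, g.T pre post v Y = act v (ph Y) + nuT Y := by
    intro v Y
    change act (act v (ph (Y.take p0)) + nu2 (Y.take p0) 1) (ph (Y.drop p0)) + nu1 (Y.drop p0) = _
    rw [hadd, ← hmul, ← hph, List.take_append_drop, add_assoc]
  let Bd : ℕ → Prop := Bad q κ m
  have hlen1 : ∀ P v, lam P = some v → P.length ≤ g.N1 := by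
    intro P v h
    have := (hl1 P v h).1
    change P.length ≤ N1
    omega
  have hlenA : ∀ P v, lam P = some v → P.length ≤ A := by
    intro P v h
    have := (hl1 P v h).1
    omega
  have hex1 : ∀ P Q u b, lam P = some u → rho Q = some b → b = post u (P ++ Q) := by
    intro P Q u b h1 h2
    change b = act u (ph (P ++ Q)) + nuC lam rho nu (P ++ Q)
    rw [nuC_of h1 h2]
    exact hs1 P Q u b h1 h2
  have hex2 : ∀ k', k' < K → ∀ P Q v u, P.length = c k' → Q.length = g.p0 - c k' →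
      lam2 k' P = some v → (fun k Q => rho2 k Q 1) k' Q = some u → u = pre (P ++ Q) v := by
    intro k' hk' P Q v u hP _ h1 h2
    have := hs2 k' hk' P Q 1 v u hP h1 h2
    rw [mul_one] at this
    exact this
  have hzpos : 0 < g.z := by
    change 0 < p0 + N1 + q0
    omega
  let C : Set (List α) := {Y | g.XX Y}
  let BB : Set (List α) := {Y | g.XX Y ∧ g.BadX Bd Y}
  have hC : Blk467.PCode C := by
    refine ⟨fun h => ?_, fun Y hY Z hZ h => ?_⟩
    · have := h.1
      simp only [List.length_nil] at this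
      omega
    · obtain ⟨R, hR⟩ := h
      exact g.prefix_code (R := R) (R' := []) hY hZ (by rw [hR, List.append_nil])
  have free : ∀ u : List α, (∀ t < u.length, ¬ Wo (u.take t)) →
      u ∈ (PN (max B (2 * p0 + 2 * N1)) 2 : Language α) := by
    intro u hu
    obtain ⟨a, x, v, k', h1, h2, h3, h4⟩ := hfree u hu
    exact PN_two h1 h2 h3 h4
  set La := p0 + N1 + q0 + N1 + 2 * A + p0 with hLa
  have hloc : ∀ Y Y' : List α, La ≤ Y.length → La ≤ Y'.length → Y.take La = Y'.take La →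
      Y.length ≡ Y'.length [MOD M] → ((Y.drop La).map φ).prod = ((Y'.drop La).map φ).prod →
      ph Y = ph Y' ∧ nuT Y = nuT Y' ∧ (g.BadX Bd Y ↔ g.BadX Bd Y') := by
    intro Y Y' h1 h2 ht hm hp
    have hp' : ph (Y.drop La) = ph (Y'.drop La) := hp
    have hm' : Y.length - p0 ≡ Y'.length - p0 [MOD M] := by
      apply Nat.ModEq.add_right_cancel' p0
      rw [Nat.sub_add_cancel (by omega), Nat.sub_add_cancel (by omega)]
      exact hm
    have hE : ∀ Y Y' : List α, La ≤ Y.length → La ≤ Y'.length → Y.take La = Y'.take La →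
        g.E Y → g.E Y' := by
      rintro Y Y' h1 h2 ht ⟨t, ht1, ht2, ht3, ht4⟩
      change t < p0 + N1 + q0 + N1 at ht4
      refine ⟨t, by omega, ?_, ht3, ht4⟩
      have := dt (i := 0) (j := t) ht (by omega)
      rw [List.drop_zero, List.drop_zero] at this
      rw [← this]; exact ht2
    refine ⟨?_, ?_, ?_⟩
    · have := ph_drop hph (i := 0) ht (by omega) h1 h2 hp'
      rwa [List.drop_zero, List.drop_zero] at this
    · have e1 : Y.take p0 = Y'.take p0 := by
        have := dt (i := 0) (j := p0) ht (by omega)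
        rwa [List.drop_zero, List.drop_zero] at this
      have e2 : ph (Y.drop p0) = ph (Y'.drop p0) := ph_drop hph (i := p0) ht (by omega) h1 h2 hp'
      have e3 : nu1 (Y.drop p0) = nu1 (Y'.drop p0) := by
        refine nuC_local hph hlenA hs1 hloc1 ?_ ?_ ?_ ?_ ?_
        · rw [List.length_drop]; omega
        · rw [List.length_drop]; omega
        · exact dt ht (by omega)
        · rw [List.length_drop, List.length_drop]; exact hm'
        · rw [List.drop_drop, List.drop_drop]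
          exact ph_drop hph ht (by omega) h1 h2 hp'
      change act (nu2 (Y.take p0) 1) (ph (Y.drop p0)) + nu1 (Y.drop p0) =
        act (nu2 (Y'.take p0) 1) (ph (Y'.drop p0)) + nu1 (Y'.drop p0)
      rw [e1, e2, e3]
    · refine or_congr ⟨hE Y Y' h1 h2 ht, hE Y' Y h2 h1 ht.symm⟩ ?_
      exact bad_mod (bad_period q κ m) hm'
  have hXX : ∀ Y, P4_933.XX Wo (p0 + N1 + q0) Y ↔ g.XX Y := by
    intro Y
    constructor
    · rintro ⟨h1, h2, h3⟩
      exact ⟨h2, h1, fun t ht1 ht2 => h3 t ht2 ht1⟩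
    · rintro ⟨h1, h2, h3⟩
      exact ⟨h2, h1, fun t ht1 ht2 => h3 t ht2 ht1⟩
  refine Top5_120.top5 act hadd hone hmul hfaith φ nuT C BB hC (fun Y hY => hY.1)
    (fun v => {P | g.LP1 pre lam v P}) (fun v => {P | Geo.LP2 K c lam2 v P}) ?_ ?_ ?_ ?_ ?_ ?_ ?_ s
  · -- L1 finite
    intro v
    refine (List.finite_length_le α (p0 + A)).subset ?_
    rintro P ⟨hp, hl⟩
    have := hlenA _ _ hl
    rw [List.length_drop] at this
    change P.length ≤ p0 + A
    change p0 ≤ P.length at hp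
    change P.length - p0 ≤ A at this
    omega
  · -- L2 finite
    intro v
    refine (List.finite_length_le α p0).subset ?_
    rintro P ⟨k', hk', hP, -⟩
    change P.length ≤ p0
    rw [hP]; exact hcp k' hk'
  · -- hCT
    intro x y
    have hf : Language.IsRegular ({Y | act x (ph Y) + nuT Y = y} : Language α) := by
      apply Bridge_975.reg_of_local φ La M hM0
      intro Y Y' h1 h2 h3 h4 h5
      obtain ⟨a, b, -⟩ := hloc Y Y' h1 h2 h3 h4 h5
      rw [a, b]
    refine (P4_933.hl_XX (z := p0 + N1 + q0) hLW.app hLW.len free hf).congr fun w => ?_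
    constructor
    · rintro ⟨h1, h2⟩
      exact ⟨(hXX w).2 h1, h2⟩
    · rintro ⟨h1, h2⟩
      exact ⟨(hXX w).1 h1, h2⟩
  · -- hBT
    intro x y
    have hf : Language.IsRegular ({Y | g.BadX Bd Y ∧ act x (ph Y) + nuT Y = y} : Language α) := by
      apply Bridge_975.reg_of_local φ La M hM0
      intro Y Y' h1 h2 h3 h4 h5
      obtain ⟨a, b, c'⟩ := hloc Y Y' h1 h2 h3 h4 h5
      rw [a, b, c']
    refine (P4_933.hl_XX (z := p0 + N1 + q0) hLW.app hLW.len free hf).congr fun w => ?_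
    constructor
    · rintro ⟨⟨h1, h2⟩, h3⟩
      exact ⟨(hXX w).2 h1, h2, h3⟩
    · rintro ⟨h1, h2, h3⟩
      exact ⟨⟨(hXX w).1 h1, h2⟩, h3⟩
  · -- tail
    intro s'
    have hf : Language.IsRegular ({Y | ph Y = s'} : Language α) := by
      apply Bridge_975.reg_of_local φ 0 1 (by norm_num)
      intro Y Y' _ _ _ _ h5
      rw [List.drop_zero, List.drop_zero] at h5
      change ph Y = s' ↔ ph Y' = s'
      have h6 : ph Y = ph Y' := h5
      rw [h6]
    refine (P4_933.hl_NB (z := p0 + N1 + q0) hLW.app hLW.len free hf).congr fun w => ?_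
    constructor
    · rintro ⟨h1, h2⟩
      exact ⟨(P4_933.NB_iff Wo _ w).2 fun P hP hX => h1 P ((hXX P).1 hX) hP, h2⟩
    · rintro ⟨h1, h2⟩
      exact ⟨fun P hP hX => (P4_933.NB_iff Wo _ w).1 h1 P hX ((hXX P).2 hP), h2⟩
  · -- scheme 1
    intro Y hY hYB v
    have hE : ¬ g.E Y := fun h => hYB ⟨hY, Or.inl h⟩
    have hB : ¬ Bd (Y.length - p0) := fun h => hYB ⟨hY, Or.inr h⟩
    have hYl : p0 + N1 + q0 ≤ Y.length := hY.1
    have hYd : (Y.drop p0).length = Y.length - p0 := List.length_drop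
    have hcl := clean_of_not_bad hB (fun j hj => by
      have : Am (∏ j, q j) κ j ≤ A := Am_mono (by omega)
      omega)
    obtain ⟨P, Q, b, hYe, hP, hQ⟩ := g.complete1 pre hlen1 hY hE (fun u => by
      refine hc1 (Y.drop g.p0) ?_ ?_ ?_ u
      · change 2 * A ≤ (Y.drop p0).length
        omega
      · change ∀ j, ¬ q j ∣ (Y.drop p0).length
        rw [hYd]; exact hcl.1
      · change ∀ j, 1 ≤ j → j ≤ m → _ ≤ ((Y.drop p0).length - _) % _ ∧
          ((Y.drop p0).length - _) % _ + _ ≤ _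
        rw [hYd]; exact hcl.2) v
    refine ⟨P, Q, hYe.symm, hP, fun x P' hP' => ?_⟩
    have h1 := g.sound1 pre post hlen1 hex1 hP hQ
    have h2 := g.sound1 pre post hlen1 hex1 hP' hQ
    refine ⟨h2.1, ?_⟩
    have h3 := h2.2.trans h1.2.symm
    rw [hT, hT, ← hYe] at h3
    exact h3
  · -- scheme 2
    intro Y hY Z hZ v
    have hYl : p0 + N1 + q0 ≤ Y.length := hY.1.1
    obtain ⟨P, Q, b, hPQ, hP, hQ⟩ := g.complete2 pre post (BadT := Bd) (K := K) (c := c)
      (lam2 := lam2) (rho2 := fun k Q => rho2 k Q 1) (C0 := k + m) hcp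
      (fun P Q h1 h2 h3 => by
        have h4 := hgap (P ++ Q) P.length (P ++ Q).length (by
          rw [List.length_append]
          have := List.length_pos_iff.2 h3
          omega) le_rfl (by rw [List.take_left']; exact h1; rfl)
          (by rw [List.take_length]; exact h2)
        rw [List.length_append, Nat.add_sub_cancel_left] at h4
        exact h4)
      (fun k1 k1' l1 l1' _ _ _ _ hne hne' h1 h2 => ruler_sp hXN hne hne' h1 h2)
      (fun τ hτ J hJ => hthin τ p0 hcp (by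
        change p0 + N1 + q0 ≤ τ + p0 at hτ
        omega) J hJ)
      hY.1 hZ.1 v
      (by
        obtain ⟨I, hI, hI2⟩ := hc2 (Y.take p0) 1 v (by
          intro k' hk'
          rw [List.length_take]
          have := hcp k' hk'
          omega)
        refine ⟨I, hI, fun k' hk' => ?_⟩
        obtain ⟨h1, h2, h3⟩ := hI2 k' hk'
        refine ⟨h1, ?_, h3⟩
        rw [List.take_take, min_eq_left (hcp k' h1)] at h2
        exact h2)
    refine ⟨P, Q, hPQ, hP, fun x P' hP' => ?_⟩
    obtain ⟨Z', hZ', hPZ, hTZ⟩ := g.sound2 pre post (BadT := Bd) (K := K) (c := c)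
      (lam2 := lam2) (rho2 := fun k Q => rho2 k Q 1) hcp hex2 (R := []) (R' := Z) hY.1 hY.2 hP hQ
      (by rw [List.append_nil]; exact hPQ)
    have hZZ : Z' = Z := List.append_cancel_left (hPZ.symm.trans hPQ)
    subst hZZ
    obtain ⟨k0, hk0, hP'l, hlam'⟩ := id hP'
    -- the first block of `P' ++ Q`
    have hblk : ∃ l, g.XX (P' ++ Q.take l) := by
      obtain ⟨k1, hk1, l, hend, hgood, -⟩ := id hQ
      by_cases hkk : k0 = k1
      · subst hkk
        exact ⟨l, g.xx_of_cend (by rw [hP'l]; exact hcp k0 hk0) (by rw [hP'l]; exact hend)⟩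
      · obtain ⟨l', hend', -⟩ := hgood k0 hk0 hkk
        exact ⟨l', g.xx_of_cend (by rw [hP'l]; exact hcp k0 hk0) (by rw [hP'l]; exact hend')⟩
    obtain ⟨l, hl⟩ := hblk
    by_cases hbad : g.BadX Bd (P' ++ Q.take l)
    · left
      obtain ⟨Y', hY', hPY, hTY⟩ := g.sound2 pre post (BadT := Bd) (K := K) (c := c)
        (lam2 := lam2) (rho2 := fun k Q => rho2 k Q 1) hcp hex2 (R := []) (R' := Q.drop l) hl hbad
        hP' hQ (by rw [List.append_nil, List.append_assoc, List.take_append_drop])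
      refine ⟨P' ++ Q.take l, ⟨hl, hbad⟩, Y', hY', hPY.symm, ?_⟩
      have h3 := hTY.trans hTZ.symm
      rw [hT, hT, hT, hT] at h3
      exact h3
    · right
      refine ⟨P' ++ Q.take l, hl, fun h => hbad h.2, Q.drop l, ?_⟩
      rw [List.append_assoc, List.take_append_drop]

end Crest.Agent.R320.Fin_975
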