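import Crest.Agent.R320.FinC_188
import Crest.Agent.R320.FinB_188
import Crest.Agent.R320.ExactR_237
import Crest.Agent.R320.LWallAll_922
import Crest.Agent.R320.Two_621
import Crest.Agent.R320.Univ_188
import Mathlib

/-! Row 320: constants, and every finite monoid (helper188). -/

set_option autoImplicit false

namespace Crest.Agent.R320.FinD_188

open Crest.RegLang Crest.Agent.R320.Hk_851 Crest.Agent.R320.FinA_188 Crest.Agent.R320.FinB_188
  Crest.Agent.R320.FinC_188 Crest.Agent.R320.Sc2n_937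
open Crest.Agent.R320.Grid_899 (Am G G_dvd G_pos)

theorem exists_primes (k B : ℕ) : ∃ q : Fin k → ℕ, (∀ j, (q j).Prime ∧ B ≤ q j ∧ Odd (q j)) ∧
    Pairwise (fun i j => Nat.Coprime (q i) (q j)) := by
  have hinf : {p : ℕ | p.Prime ∧ B + 3 ≤ p}.Infinite := by
    refine Set.infinite_of_forall_exists_gt fun a => ?_
    obtain ⟨p, hp1, hp2⟩ := Nat.exists_infinite_primes (a + 1 + (B + 3))
    exact ⟨p, ⟨hp2, by omega⟩, by omega⟩
  obtain ⟨t, ht, hcard⟩ := hinf.exists_subset_card_eq k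
  have hmem : ∀ j, t.orderEmbOfFin hcard j ∈ t := fun j => Finset.orderEmbOfFin_mem t hcard j
  refine ⟨fun j => t.orderEmbOfFin hcard j, fun j => ?_, fun i j hij => ?_⟩
  · obtain ⟨h1, h2⟩ := ht (hmem j)
    have h3 : B ≤ t.orderEmbOfFin hcard j := by omega
    exact ⟨h1, h3, h1.odd_of_ne_two (by omega)⟩
  · obtain ⟨h1, -⟩ := ht (hmem i)
    obtain ⟨h2, -⟩ := ht (hmem j)
    exact (Nat.coprime_primes h1 h2).2 fun h => hij ((t.orderEmbOfFin hcard).injective h)

theorem fin (α : Type) [Finite α] (S : Type) [Monoid S] [Finite S] (φ : α → S) (s : S) :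
    HL 3 ({w | (w.map φ).prod = s} : Language α) := by
  classical
  haveI := Fintype.ofFinite S
  haveI : Finite (Two_621.Tok S) := inferInstanceAs (Finite (S → ZMod 2))
  haveI := Fintype.ofFinite (Two_621.Tok S)
  obtain ⟨k, m, HG⟩ := Grid_899.grid_gadget_reg S (Two_621.Tok S) Two_621.act
  obtain ⟨K, HE⟩ := ExactR_237.exact_gadget α S (Two_621.Tok S) φ Two_621.act (2 * (k + m) + 2)
  obtain ⟨q, hq, hcop⟩ := exists_primes k (2 ^ (K + 1))
  set P : ℕ := ∏ j, q j with hP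
  have hPpos : 0 < P := Finset.prod_pos fun j _ => (hq j).1.pos
  set κ : ℕ := 2 ^ (K + 4) * P * (m + 1) with hκ
  have hgrow : 2 ^ (K + 4) * (∏ j, q j) * (m + 1) ≤ 2 ^ κ := by
    rw [← hP, ← hκ]; exact Nat.lt_two_pow_self.le
  set Na : ℕ := Am P κ m with hNa
  set N1 : ℕ := Am P κ (m + 1) with hN1
  have hNa1 : Na ≤ N1 := Am_mono P κ (Nat.le_succ m)
  have hN1pos : 0 < N1 := by
    have h1 : N1 = Am P κ m + G κ m + P * G κ m := rfl
    have h2 := G_pos (κ := κ) m
    omega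
  obtain ⟨X, hX1, hX0, hX⟩ := thinN K m κ q (fun j => hq j) hgrow (2 * N1 + 1)
  obtain ⟨lam2, rho2, nu2, HE1, HE2⟩ := HE (fun a => X * 2 ^ a) (fun i j hij _ =>
    Nat.mul_lt_mul_of_pos_left (Nat.pow_lt_pow_right (by norm_num) hij) hX0)
  obtain ⟨lam, rho, nu, G1, G2, G3, G4, G5⟩ := HG q (fun j => (hq j).2.2) hcop κ α (ph φ)
    (fun u v => ph_app φ u v)
  set p0 : ℕ := X * 2 ^ K with hp0
  have hcp : ∀ a, a < K → X * 2 ^ a ≤ p0 := fun a ha =>
    Nat.mul_le_mul_left _ (Nat.pow_le_pow_right (by norm_num) ha.le)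
  obtain ⟨n, G', B, Wo, hLW, hgapW, -, -, hfree⟩ :=
    LWallAll_922.walls_all_left α (2 * p0 + 2 * N1 + 1) (by omega)
  let g : Geo α :=
    { Wo := Wo
      n := n
      z := p0 + N1 + (n + 3 * p0 + 3 * N1)
      p0 := p0
      q0 := n + 3 * p0 + 3 * N1
      N1 := N1
      loc := hLW.app
      hz := rfl
      hq := by omega
      hN := hN1pos
      hqp := by omega }
  refine core Two_621.act (fun a b s => Two_621.act_add a b s) (fun v => Two_621.act_one v)
    (fun v s t => (Two_621.act_mul v s t).symm) (fun s t h => Two_621.act_faithful h) φ g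
    (fun P hP => hLW.len P hP) (B := max B (2 * p0 + 2 * N1 + 1)) (R := 2) ?_ ?_ lam rho nu Na N1
    (P * G κ m) (Cl q κ m) (fun P v h => (G1 P v h).1) hNa1 G3
    (fun u hu hc v => G4 u hu hc.1 hc.2 v) ?_ (fun Q Q' a b c d e => G5 Q Q' a b c d e)
    (Nat.mul_pos hPpos (G_pos m)) (fun n n' h1 h2 h3 h4 => cl_period q κ m
      (by rw [← hP]; omega) (by rw [← hP]; omega) h3 h4) K (fun a => X * 2 ^ a) hcp lam2
    (fun a Q => rho2 a Q 1) (fun X => nu2 X 1) ?_ (C0 := k + m) ?_ ?_ ?_ s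
  · -- wall-free words
    intro u hu
    obtain ⟨a, x, b, j, h1, h2, h3, rfl⟩ := hfree u hu
    refine Language.mem_mul.2 ⟨a ++ BddReg_746.pw x j, ⟨a, x, j, h1.trans (le_max_left _ _),
      h2.trans (le_max_right _ _), rfl⟩, b, Language.mem_mul.2 ⟨b, ⟨b, [], 0,
      h3.trans (le_max_left _ _), by simp, by simp⟩, [], rfl, by simp⟩, rfl⟩
  · -- gaps
    intro U Q hU hUQ hQ
    have hQl : 0 < Q.length := List.length_pos_iff.2 hQ
    have := hgapW (U ++ Q) U.length (U ++ Q).length (by rw [List.length_append]; omega) le_rfl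
      (by rw [List.take_left]; exact hU) (by rw [List.take_length]; exact hUQ)
    rw [List.length_append] at this
    show 2 * p0 + 2 * N1 < Q.length
    omega
  · show 2 * N1 + p0 ≤ p0 + N1 + (n + 3 * p0 + 3 * N1)
    omega
  · -- exact gadget
    intro a ha U Q v b hU h1 h2
    have := HE1 a ha U Q 1 v b hU h1 h2
    rw [mul_one] at this
    exact this
  · -- ruler
    intro a a' l l' _ _ _ _ haa hll h1 h2
    have h1' : X * 2 ^ a + X * 2 ^ l' < X * 2 ^ l + X * 2 ^ a' + 2 * N1 := h1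
    have h2' : X * 2 ^ l + X * 2 ^ a' < X * 2 ^ a + X * 2 ^ l' + 2 * N1 := h2
    have heq : 2 ^ a + 2 ^ l' = 2 ^ l + 2 ^ a' := by
      rw [← Nat.mul_add, ← Nat.mul_add] at h1' h2'
      by_contra hne
      rcases Nat.lt_or_gt_of_ne hne with h | h
      · have : X * (2 ^ a + 2 ^ l' + 1) ≤ X * (2 ^ l + 2 ^ a') := Nat.mul_le_mul_left _ h
        rw [Nat.mul_add, Nat.mul_one] at this
        omega
      · have : X * (2 ^ l + 2 ^ a' + 1) ≤ X * (2 ^ a + 2 ^ l') := Nat.mul_le_mul_left _ h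
        rw [Nat.mul_add, Nat.mul_one] at this
        omega
    rcases two_pow_sidon heq with h | h
    · exact h
    · exact absurd h.symm haa
  · -- thin
    intro τ hτ J hJ
    have hτ' : p0 + N1 + (n + 3 * p0 + 3 * N1) ≤ τ + p0 := hτ
    refine hX τ p0 J (by rw [← hP]; omega) fun a ha => ?_
    exact hJ a ha
  · -- redundancy
    intro u v hu
    have hu' : u.length = p0 := hu
    obtain ⟨I, h1, h2⟩ := HE2 u 1 v (fun a ha => by rw [hu']; exact hcp a ha)
    exact ⟨I, h1, h2⟩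

end Crest.Agent.R320.FinD_188
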