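import Crest.Agent.R320.FinA_927

/-!
# Row 320: spoil count for the natural block code (helper927)
-/

set_option autoImplicit false

namespace Crest.Agent.R320.FinD_927

open Crest.Agent.R320.FinA_927 Crest.Agent.R320.P3_943

variable {α : Type}

theorem gap {Wo : List α → Prop} {W : ℕ}
    (hgap : ∀ (P : List α) (d : ℕ), Wo P → 0 < d → d ≤ W → ¬ Wo (P.take (P.length - d)))
    (w : List α) (s1 s2 : ℕ) (h : s1 < s2) (h2 : s2 ≤ w.length) (w1 : Wo (w.take s1))
    (w2 : Wo (w.take s2)) : s1 + W < s2 := by
  by_contra hc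
  have hl : (w.take s2).length = s2 := by rw [List.length_take]; omega
  refine hgap (w.take s2) (s2 - s1) w2 (by omega) (by omega) ?_
  rw [hl, List.take_take]
  have : min (s2 - (s2 - s1)) s2 = s1 := by omega
  rw [this]
  exact w1

/-- bad blocks -/
def Bd (Wo : List α → Prop) (BadT : ℕ → Prop) (z N1 p0 : ℕ) (X : List α) : Prop :=
  (∃ s, z ≤ s + N1 ∧ s < z + N1 ∧ s ≤ X.length ∧ Wo (X.take s)) ∨ BadT (X.length - p0)

open Classical in
theorem count {Wo : List α → Prop} {W n z : ℕ}
    (hloc : ∀ P Q : List α, n ≤ Q.length → (Wo (P ++ Q) ↔ Wo Q))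
    (hgap : ∀ (P : List α) (d : ℕ), Wo P → 0 < d → d ≤ W → ¬ Wo (P.take (P.length - d)))
    (K : ℕ) (c : ℕ → ℕ) (Sp N1 La C0 p0 : ℕ) (BadT : ℕ → Prop)
    (hc : ∀ k < K, c k ≤ Sp) (hz : p0 + Sp + La + N1 + n + 1 ≤ z) (hW : 2 * (Sp + N1) + 2 ≤ W)
    (hgol : ∀ i j k l, i < K → j < K → k < K → l < K → i ≠ j → k ≠ l → (i, j) ≠ (k, l) →
      c i + c l + 2 * N1 < c k + c j ∨ c k + c j + 2 * N1 < c i + c l)
    (hthin : ∀ T, La ≤ T → ((Finset.range K ×ˢ Finset.range K).filter fun p =>
      p.1 ≠ p.2 ∧ BadT (T + c p.2 - c p.1)).card ≤ C0)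
    (X : List α) (hX : X ∈ XX z Wo) (X2 : List α) (hX2 : X2 ∈ XX z Wo)
    (I : Finset ℕ) (hI : ∀ k ∈ I, k < K) (hR : 3 * C0 + 2 ≤ I.card) :
    ∃ k ∈ I, ∀ k' < K, Cand c (XX z Wo) (Bd Wo BadT z N1 p0) k' ((X ++ X2).drop (c k)) →
      k' = k := by
  by_contra hcon
  push Not at hcon
  choose! g hg1 hg2 hg3 using hcon
  set w := X ++ X2 with hw
  have hwl : w.length = X.length + X2.length := by rw [hw, List.length_append]
  have hXl := hX.1
  have hX2l := hX2.1
  let B : ℕ → Finset (ℕ × ℕ) := fun t => (Finset.range K ×ˢ Finset.range K).filter fun p =>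
      p.1 ≠ p.2 ∧ BadT (t - p0 + c p.2 - c p.1)
  let E : Finset (ℕ × ℕ) := (Finset.range K ×ˢ Finset.range K).filter fun p =>
      p.1 ≠ p.2 ∧ ∃ s, s ≤ w.length ∧ Wo (w.take s) ∧ z + c p.1 ≤ s + c p.2 + N1 ∧
        s + c p.2 < z + N1 + c p.1
  have hE : E.card ≤ 1 := by
    rw [Finset.card_le_one]
    rintro ⟨i, j⟩ hij ⟨k, l⟩ hkl
    by_contra hne
    simp only [E, Finset.mem_filter, Finset.mem_product, Finset.mem_range] at hij hkl
    obtain ⟨⟨hi, hj⟩, hij', s, s1, s2, s3, s4⟩ := hij
    obtain ⟨⟨hk, hl⟩, hkl', s', s1', s2', s3', s4'⟩ := hkl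
    have b1 := hc i hi
    have b2 := hc j hj
    have b3 := hc k hk
    have b4 := hc l hl
    have hss : s = s' := by
      rcases lt_trichotomy s s' with h | h | h
      · have := gap hgap w s s' h s1' s2 s2'
        omega
      · exact h
      · have := gap hgap w s' s h s1 s2' s2
        omega
    subst hss
    rcases hgol i j k l hi hj hk hl hij' hkl' hne with h | h <;> omega
  -- the possible end walls
  let P1 : ℕ → Prop := fun t => t ≤ w.length ∧ Wo (w.take t) ∧ t < z ∧ z ≤ t + Sp
  let P3 : ℕ → Prop := fun t => t ≤ w.length ∧ Wo (w.take t) ∧ X.length < t ∧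
      ∀ s, X.length < s → s ≤ w.length → Wo (w.take s) → t ≤ s
  have hP1u : ∀ t t', P1 t → P1 t' → t = t' := by
    intro t t' ⟨a1, a2, a3, a4⟩ ⟨b1, b2, b3, b4⟩
    rcases lt_trichotomy t t' with h | h | h
    · have := gap hgap w t t' h b1 a2 b2
      omega
    · exact h
    · have := gap hgap w t' t h a1 b2 a2
      omega
  have hP3u : ∀ t t', P3 t → P3 t' → t = t' := by
    intro t t' ⟨a1, a2, a3, a4⟩ ⟨b1, b2, b3, b4⟩
    exact le_antisymm (a4 t' b3 b1 b2) (b4 t a3 a1 a2)
  let t1 : ℕ := if h : ∃ t, P1 t then h.choose else X.length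
  let t3 : ℕ := if h : ∃ t, P3 t then h.choose else X.length
  have ht1 : ∀ t, P1 t → t = t1 := by
    intro t ht
    have h : ∃ t, P1 t := ⟨t, ht⟩
    have e : t1 = h.choose := dif_pos h
    rw [e]
    exact hP1u _ _ ht h.choose_spec
  have ht3 : ∀ t, P3 t → t = t3 := by
    intro t ht
    have h : ∃ t, P3 t := ⟨t, ht⟩
    have e : t3 = h.choose := dif_pos h
    rw [e]
    exact hP3u _ _ ht h.choose_spec
  have ht1l : p0 + La ≤ t1 := by
    by_cases h : ∃ t, P1 t
    · have e : t1 = h.choose := dif_pos h
      have := h.choose_spec.2.2.2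
      omega
    · have e : t1 = X.length := dif_neg h
      omega
  have ht3l : p0 + La ≤ t3 := by
    by_cases h : ∃ t, P3 t
    · have e : t3 = h.choose := dif_pos h
      have := h.choose_spec.2.2.1
      omega
    · have e : t3 = X.length := dif_neg h
      omega
  have hB : ∀ t, p0 + La ≤ t → (B t).card ≤ C0 := fun t ht => hthin (t - p0) (by omega)
  have hsub : I.image (fun k => (k, g k)) ⊆ E ∪ (B t1 ∪ (B X.length ∪ B t3)) := by
    intro p hp
    obtain ⟨k, hk, rfl⟩ := Finset.mem_image.1 hp
    have hkK := hI k hk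
    have hgK := hg1 k hk
    obtain ⟨u, X', hu, hX', ⟨r, hr⟩, hbad⟩ := hg2 k hk
    have hne : k ≠ g k := fun h => hg3 k hk h.symm
    have b1 := hc k hkK
    have b2 := hc (g k) hgK
    set c1 := c k with hc1
    set c2 := c (g k) with hc2
    have hmem : (k, g k) ∈ Finset.range K ×ˢ Finset.range K :=
      Finset.mem_product.2 ⟨Finset.mem_range.2 hkK, Finset.mem_range.2 hgK⟩
    -- lengths
    have hX'l := hX'.1
    have hdl : (w.drop c1).length = w.length - c1 := List.length_drop
    have hlen := congrArg List.length hr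
    rw [List.length_append, List.length_append, hdl] at hlen
    have hwk : w = w.take c1 ++ w.drop c1 := (List.take_append_drop _ _).symm
    have htk : (w.take c1).length = c1 := by rw [List.length_take]; omega
    -- transfer of walls
    have htr : ∀ s s' : ℕ, c2 + s = c1 + s' → n + c1 ≤ s → s ≤ w.length →
        (Wo (w.take s) ↔ Wo ((X' ++ r).take s')) := by
      intro s s' e1 e2 e3
      rw [hr]
      have := wo_shift2 hloc (w.take c1) u (w.drop c1) s s' (by omega) (by omega)
        (by rw [htk, hdl]; omega)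
      rwa [← hwk] at this
    -- end wall
    have hX'w : ∀ s', s' ≤ X'.length → (X' ++ r).take s' = X'.take s' := by
      intro s' hs'
      rw [List.take_append_of_le_length hs']
    set t := X'.length + c1 - c2 with ht
    have htw : Wo (w.take t) := by
      rw [htr t X'.length (by omega) (by omega) (by omega), hX'w _ le_rfl, List.take_length]
      exact hX'.2.1
    have htl : t ≤ w.length := by omega
    have hmin : ∀ s, s < t → s ≤ w.length → z + c1 ≤ s + c2 → ¬ Wo (w.take s) := by
      intro s h1 h2 h3 h4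
      rw [htr s (s + c2 - c1) (by omega) (by omega) h2, hX'w _ (by omega)] at h4
      exact hX'.2.2 (s + c2 - c1) (by omega) (by omega) h4
    rcases hbad with ⟨s', e1, e2, e3, e4⟩ | hbad
    · apply Finset.mem_union_left
      refine Finset.mem_filter.2 ⟨hmem, hne, s' + c1 - c2, by omega, ?_, by
        show z + c1 ≤ _ + c2 + N1; omega, by show _ + c2 < z + N1 + c1; omega⟩
      rw [htr (s' + c1 - c2) s' (by omega) (by omega) (by omega), hX'w _ e3]
      exact e4
    · apply Finset.mem_union_right
      have hval : X'.length - p0 = t - p0 + c2 - c1 := by omega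
      rw [hval] at hbad
      have hin : ∀ t', t = t' → (k, g k) ∈ B t' := by
        rintro t' rfl
        exact Finset.mem_filter.2 ⟨hmem, hne, hbad⟩
      rcases lt_trichotomy t X.length with h | h | h
      · apply Finset.mem_union_left
        apply hin
        apply ht1
        refine ⟨htl, htw, ?_, by omega⟩
        by_contra hge
        refine hX.2.2 t (by omega) h ?_
        rw [hw, List.take_append_of_le_length h.le] at htw
        exact htw
      · exact Finset.mem_union_right _ (Finset.mem_union_left _ (hin _ h))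
      · apply Finset.mem_union_right
        apply Finset.mem_union_right
        apply hin
        apply ht3
        refine ⟨htl, htw, h, fun s h1 h2 h3 => ?_⟩
        by_contra hlt
        have hXw : Wo (w.take X.length) := by
          rw [hw, List.take_left]
          exact hX.2.1
        have g1 : ¬ (z + c1 ≤ X.length + c2) := fun hh => hmin X.length h (by omega) hh hXw
        have g2 := gap hgap w X.length s h1 h2 hXw h3
        exact hmin s (by omega) h2 (by omega) h3
  have hcard := Finset.card_le_card hsub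
  rw [Finset.card_image_of_injective _ (fun a b h => (Prod.mk.inj h).1)] at hcard
  have u1 := Finset.card_union_le E (B t1 ∪ (B X.length ∪ B t3))
  have u2 := Finset.card_union_le (B t1) (B X.length ∪ B t3)
  have u3 := Finset.card_union_le (B X.length) (B t3)
  have v1 := hB t1 ht1l
  have v2 := hB X.length (by omega)
  have v3 := hB t3 ht3l
  omega

end Crest.Agent.R320.FinD_927
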