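import Mathlib

/-!
Row 320, SPOIL LEAF of the plan 13673 (digits form): a wide ruler whose differences are bad for the
digit gadget at most once per modulus and once per digit.
-/

set_option autoImplicit false

namespace Crest.Agent.R320.Sp_125

open Finset

/-- bad totals of the digit gadget -/
def Bad (Ms : Finset ℕ) (M m b n : ℕ) : Prop :=
  (∃ k ∈ Ms, k ∣ n) ∨ ∃ j < m, ¬ (M ≤ n / b ^ j % b ∧ n / b ^ j % b + M + 1 ≤ b)

theorem two_pow_sub_inj {i j k l : ℕ} (hij : i ≠ j) (hkl : k ≠ l)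
    (h : (2:ℤ)^i - 2^j = 2^k - 2^l) : i = k ∧ j = l := by
  have h' : (2:ℤ)^i + 2^l = 2^k + 2^j := by linarith
  have h2 : 2^i + 2^l = 2^k + 2^j := by exact_mod_cast h'
  clear h h'
  -- compare as sums of two powers
  have key : ∀ n a b c d : ℕ, a + b + c + d ≤ n → 2^a + 2^b = 2^c + 2^d →
      (a = c ∧ b = d) ∨ (a = d ∧ b = c) ∨ (a = b ∧ c = d) := by
    intro n
    induction n with
    | zero =>
      intro a b c d hn _
      left; omega
    | succ n ih =>
      intro a b c d hn h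
      rcases a with _ | a
      · rcases b with _ | b
        · rcases c with _ | c
          · rcases d with _ | d
            · left; omega
            · exfalso
              have : 1 ≤ 2^d := Nat.one_le_two_pow
              rw [pow_succ] at h; simp at h <;> omega
          · rcases d with _ | d
            · exfalso
              have : 1 ≤ 2^c := Nat.one_le_two_pow
              rw [pow_succ] at h; simp at h <;> omega
            · have h1 : 1 ≤ 2^d := Nat.one_le_two_pow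
              have h2 : 1 ≤ 2^c := Nat.one_le_two_pow
              rw [pow_succ, pow_succ] at h; simp at h
              exfalso; omega
        · rcases c with _ | c
          · rcases d with _ | d
            · exfalso
              have : 1 ≤ 2^b := Nat.one_le_two_pow
              rw [pow_succ] at h; simp at h <;> omega
            · have h3 : 2^(b+1) = 2^(d+1) := by simpa using h
              have := Nat.pow_right_injective (le_refl 2) h3
              left; omega
          · rcases d with _ | d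
            · have h3 : 2^(b+1) = 2^(c+1) := by
                have := h; simp only [pow_zero] at this; omega
              have := Nat.pow_right_injective (le_refl 2) h3
              right; left; omega
            · exfalso
              rw [pow_succ, pow_succ, pow_succ] at h; simp at h <;> omega
      · rcases b with _ | b
        · rcases c with _ | c
          · rcases d with _ | d
            · exfalso
              have : 1 ≤ 2^a := Nat.one_le_two_pow
              rw [pow_succ] at h; simp at h <;> omega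
            · have h3 : 2^(a+1) = 2^(d+1) := by
                have := h; simp only [pow_zero] at this; omega
              have := Nat.pow_right_injective (le_refl 2) h3
              right; left; omega
          · rcases d with _ | d
            · have h3 : 2^(a+1) = 2^(c+1) := by
                have := h; simp only [pow_zero] at this; omega
              have := Nat.pow_right_injective (le_refl 2) h3
              left; omega
            · exfalso
              rw [pow_succ, pow_succ, pow_succ] at h; simp at h <;> omega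
        · rcases c with _ | c
          · rcases d with _ | d
            · have h1 : 1 ≤ 2^a := Nat.one_le_two_pow
              have h2 : 1 ≤ 2^b := Nat.one_le_two_pow
              exfalso
              rw [pow_succ, pow_succ] at h; simp at h <;> omega
            · exfalso
              rw [pow_succ, pow_succ, pow_succ] at h; simp at h <;> omega
          · rcases d with _ | d
            · exfalso
              rw [pow_succ, pow_succ, pow_succ] at h; simp at h <;> omega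
            · have h3 : 2^a + 2^b = 2^c + 2^d := by
                rw [pow_succ, pow_succ, pow_succ, pow_succ] at h; omega
              rcases ih a b c d (by omega) h3 with h4 | h4 | h4
              · left; omega
              · right; left; omega
              · right; right; omega
  rcases key _ i l k j le_rfl h2 with h | h | h
  · omega
  · exact (hij h.1).elim
  · obtain ⟨h3, h4⟩ := h
    subst h3; subst h4
    have h5 : 2^(i+1) = 2^(k+1) := by rw [pow_succ, pow_succ]; omega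
    have := Nat.pow_right_injective (le_refl 2) h5
    exact ⟨by omega, by omega⟩

theorem abs_two_pow_sub {K i j : ℕ} (hi : i < K) (hj : j < K) :
    |(2:ℤ)^i - 2^j| < 2^K := by
  have h1 : (2:ℤ)^i < 2^K := pow_lt_pow_right₀ (by norm_num) hi
  have h2 : (2:ℤ)^j < 2^K := pow_lt_pow_right₀ (by norm_num) hj
  have h3 : (0:ℤ) < 2^i := by positivity
  have h4 : (0:ℤ) < 2^j := by positivity
  rw [abs_lt]; constructor <;> linarith

/-- a bad digit means near a multiple of `b ^ (j+1)` -/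
theorem band {M b j n : ℕ} (hb : 0 < b) (h : ¬ (M ≤ n / b ^ j % b ∧ n / b ^ j % b + M + 1 ≤ b)) :
    ∃ z : ℤ, |(n:ℤ) - z * (b:ℤ)^(j+1)| ≤ M * (b:ℤ)^j := by
  obtain ⟨B, hB⟩ : ∃ B, B = b ^ j := ⟨_, rfl⟩
  have hB0 : 0 < B := by rw [hB]; exact pow_pos hb j
  rw [← hB] at h
  have e1 := Nat.div_add_mod n B
  have e2 := Nat.mod_lt n hB0
  have e3 := Nat.div_add_mod (n / B) b
  have e4 := Nat.mod_lt (n / B) hb
  obtain ⟨r, hr⟩ : ∃ r, r = n % B := ⟨_, rfl⟩
  obtain ⟨w, hw⟩ : ∃ w, w = n / B % b := ⟨_, rfl⟩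
  obtain ⟨u, hu⟩ : ∃ u, u = n / B / b := ⟨_, rfl⟩
  rw [← hr] at e1 e2
  rw [← hw] at e3 e4 h
  rw [← hu] at e3
  have en : (n:ℤ) = B * (b * u + w) + r := by
    rw [← e3] at e1; exact_mod_cast e1.symm
  have hBz : ((b:ℤ)^j) = B := by rw [hB]; push_cast; rfl
  rw [pow_succ, hBz]
  have r0 : (0:ℤ) ≤ r := by positivity
  have rB : (r:ℤ) < B := by exact_mod_cast e2
  have B0 : (0:ℤ) < B := by exact_mod_cast hB0
  have w0 : (0:ℤ) ≤ w := by positivity
  have wb : (w:ℤ) < b := by exact_mod_cast e4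
  by_cases hc : M ≤ w
  · have h5 : b < w + M + 1 := by
      by_contra hcon
      exact h ⟨hc, by omega⟩
    have h6 : (b:ℤ) ≤ w + M := by exact_mod_cast (by omega : b ≤ w + M)
    refine ⟨u + 1, ?_⟩
    rw [en, abs_le]
    constructor
    · nlinarith
    · nlinarith
  · have h6 : (w:ℤ) + 1 ≤ M := by exact_mod_cast (by omega : w + 1 ≤ M)
    refine ⟨u, ?_⟩
    rw [en, abs_le]
    constructor
    · nlinarith
    · nlinarith

/-- sum of the powers below `j+1` -/
def ps (b j : ℕ) : ℕ := ∑ i ∈ range (j+1), b ^ i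

theorem ps_ge (b j : ℕ) : b ^ j ≤ ps b j := by
  unfold ps
  exact Finset.single_le_sum (f := fun i => b ^ i) (fun _ _ => Nat.zero_le _)
    (Finset.mem_range.2 (Nat.lt_succ_self j))

theorem ps_le {b : ℕ} (hb : 2 ≤ b) (j : ℕ) : ps b j ≤ 2 * b ^ j := by
  unfold ps
  induction j with
  | zero => simp
  | succ j ih =>
    rw [Finset.sum_range_succ]
    have : 2 * b ^ j ≤ b ^ (j+1) := by
      rw [pow_succ, mul_comm]; exact Nat.mul_le_mul_left _ hb
    omega

theorem exists_K0 (M m b N : ℕ) (hM : 0 < M) (hb : 2 ≤ b) (hcop : Nat.Coprime b M) :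
    ∃ K0 : ℕ, N < K0 ∧ K0 ≡ 1 [MOD M] ∧
      K0 ≡ 4 * M * (∑ i ∈ range m, b ^ i) [MOD b ^ m] := by
  have hc : Nat.Coprime M (b ^ m) := (Nat.Coprime.pow_left m hcop).symm
  obtain ⟨x, hx1, hx2⟩ := Nat.chineseRemainder hc 1 (4 * M * (∑ i ∈ range m, b ^ i))
  refine ⟨x + (N + 1) * (M * b ^ m), ?_, ?_, ?_⟩
  · have : 1 ≤ M * b ^ m := Nat.mul_pos hM (pow_pos (by omega) m)
    nlinarith
  · refine Nat.ModEq.trans ?_ hx1
    have : (N + 1) * (M * b ^ m) = M * ((N+1) * b ^ m) := by ring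
    rw [this]
    exact (Nat.modEq_iff_dvd' (Nat.le_add_right _ _)).2 (by simp) |>.symm
  · refine Nat.ModEq.trans ?_ hx2
    have : (N + 1) * (M * b ^ m) = b ^ m * ((N+1) * M) := by ring
    rw [this]
    exact (Nat.modEq_iff_dvd' (Nat.le_add_right _ _)).2 (by simp) |>.symm

/-- residue of `K0` modulo `b^(j+1)` -/
theorem K0_res {M m b K0 j : ℕ} (hj : j < m)
    (h : K0 ≡ 4 * M * (∑ i ∈ range m, b ^ i) [MOD b ^ m]) :
    ∃ t : ℤ, (K0:ℤ) = 4 * M * (ps b j) + t * (b:ℤ)^(j+1) := by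
  have h1 : K0 ≡ 4 * M * (∑ i ∈ range m, b ^ i) [MOD b ^ (j+1)] :=
    h.of_dvd (pow_dvd_pow b hj)
  have h2 : (∑ i ∈ range m, b ^ i) ≡ ps b j [MOD b ^ (j+1)] := by
    obtain ⟨d, rfl⟩ : ∃ d, m = (j+1) + d := ⟨m - (j+1), by omega⟩
    unfold ps
    rw [Finset.sum_range_add]
    have : (∑ x ∈ range d, b ^ (j + 1 + x)) = b ^ (j+1) * ∑ x ∈ range d, b ^ x := by
      rw [Finset.mul_sum]
      exact Finset.sum_congr rfl fun x _ => by rw [pow_add]
    rw [this]
    exact (Nat.modEq_iff_dvd' (Nat.le_add_right _ _)).2 (by simp) |>.symm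
  have h3 : K0 ≡ 4 * M * ps b j [MOD b ^ (j+1)] := h1.trans (h2.mul_left _)
  have h4 := (Nat.modEq_iff_dvd.1 h3.symm)
  obtain ⟨t, ht⟩ := h4
  refine ⟨t, ?_⟩
  push_cast at ht ⊢
  linarith [ht, mul_comm t ((b:ℤ)^(j+1))]

theorem digit_unique {M b K K0 j n1 n2 : ℕ} {D t : ℤ} (hM : 0 < M)
    (hb : 2^(K+3) * M + 2 * M < b)
    (hK0 : (K0:ℤ) = 4 * M * (ps b j) + t * (b:ℤ)^(j+1))
    (hD : |D| ≤ 2^K) (hn : (n1:ℤ) - n2 = D * K0)
    (h1 : ¬ (M ≤ n1 / b ^ j % b ∧ n1 / b ^ j % b + M + 1 ≤ b))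
    (h2 : ¬ (M ≤ n2 / b ^ j % b ∧ n2 / b ^ j % b + M + 1 ≤ b)) : D = 0 := by
  have hb0 : 0 < b := by omega
  have hb2 : 2 ≤ b := by nlinarith [Nat.one_le_two_pow (n := K+3)]
  obtain ⟨z1, hz1⟩ := band hb0 h1
  obtain ⟨z2, hz2⟩ := band hb0 h2
  by_contra hne
  have hD1 : 1 ≤ |D| := Int.one_le_abs hne
  obtain ⟨B, hB⟩ : ∃ B : ℤ, B = (b:ℤ)^j := ⟨_, rfl⟩
  have hB0 : 0 < B := by rw [hB]; positivity
  have hMz : (0:ℤ) < M := by exact_mod_cast hM
  have hbz : (2:ℤ)^(K+3) * M + 2 * M < b := by exact_mod_cast hb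
  have hps1 : B ≤ (ps b j : ℤ) := by rw [hB]; exact_mod_cast ps_ge b j
  have hps2 : (ps b j : ℤ) ≤ 2 * B := by rw [hB]; exact_mod_cast ps_le hb2 j
  rw [pow_succ, ← hB] at hz1 hz2 hK0
  obtain ⟨z, hz⟩ : ∃ z : ℤ, z = z1 - z2 - D * t := ⟨_, rfl⟩
  have key : |D * (4 * M * (ps b j : ℤ)) - z * (B * b)| ≤ 2 * (M * B) := by
    have e : D * (4 * M * (ps b j : ℤ)) - z * (B * b)
        = ((n1:ℤ) - z1 * (B * b)) - ((n2:ℤ) - z2 * (B * b)) := by
      have : (n1:ℤ) = n2 + D * (4 * M * (ps b j : ℤ) + t * (B * b)) := by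
        rw [← hK0]; linarith
      rw [this, hz]; ring
    rw [e]
    calc _ ≤ |(n1:ℤ) - z1 * (B * b)| + |(n2:ℤ) - z2 * (B * b)| := abs_sub _ _
      _ ≤ 2 * (M * B) := by linarith
  have hX1 : 4 * (M * B) ≤ |D * (4 * M * (ps b j : ℤ))| := by
    rw [abs_mul, abs_of_nonneg (show (0:ℤ) ≤ 4 * M * (ps b j : ℤ) by positivity)]
    have h0 : 4 * (M * B) ≤ 4 * M * (ps b j : ℤ) := by nlinarith
    have h00 : (0:ℤ) ≤ 4 * (M * B) := by positivity
    calc 4 * (M * B) = 1 * (4 * (M * B)) := by ring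
      _ ≤ |D| * (4 * M * (ps b j : ℤ)) := mul_le_mul hD1 h0 h00 (abs_nonneg D)
  have hX2 : |D * (4 * M * (ps b j : ℤ))| ≤ 2^(K+3) * M * B := by
    rw [abs_mul, abs_of_nonneg (show (0:ℤ) ≤ 4 * M * (ps b j : ℤ) by positivity)]
    have h3 : 4 * M * (ps b j : ℤ) ≤ 8 * (M * B) := by nlinarith
    have h4 : |D| * (4 * M * (ps b j : ℤ)) ≤ 2^K * (8 * (M * B)) :=
      mul_le_mul hD h3 (by positivity) (by positivity)
    have h5 : (2:ℤ)^(K+3) = 8 * 2^K := by rw [pow_add]; norm_num; ring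
    rw [h5]; nlinarith
  rcases eq_or_ne z 0 with h0 | h0
  · rw [h0] at key
    simp only [zero_mul, sub_zero] at key
    have : 0 < M * B := mul_pos hMz hB0
    linarith
  · have hz1' : 1 ≤ |z| := Int.one_le_abs h0
    have h6 : B * b ≤ |z * (B * b)| := by
      rw [abs_mul, abs_of_nonneg (show (0:ℤ) ≤ B * b by positivity)]
      nlinarith [show (0:ℤ) ≤ B * b by positivity]
    have h7 : |z * (B * b)| ≤ |D * (4 * M * (ps b j : ℤ))| + 2 * (M * B) := by
      have e : z * (B * b) = D * (4 * M * (ps b j : ℤ))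
          - (D * (4 * M * (ps b j : ℤ)) - z * (B * b)) := by ring
      calc |z * (B * b)| = |D * (4 * M * (ps b j : ℤ))
          - (D * (4 * M * (ps b j : ℤ)) - z * (B * b))| := by rw [← e]
        _ ≤ |D * (4 * M * (ps b j : ℤ))| + |D * (4 * M * (ps b j : ℤ)) - z * (B * b)| :=
          abs_sub _ _
        _ ≤ _ := by linarith
    have h8 : B * b ≤ (2^(K+3) * M + 2 * M) * B := by
      calc B * b ≤ _ := h6.trans h7
        _ ≤ 2^(K+3) * M * B + 2 * (M * B) := by linarith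
        _ = _ := by ring
    have h9 : (2^(K+3) * M + 2 * M) * B < b * B := mul_lt_mul_of_pos_right hbz hB0
    linarith [mul_comm B (b:ℤ)]

open Classical in
/-- **SPOIL LEAF** -/
theorem spoil (Ms : Finset ℕ) (M m b K N1 : ℕ) (hM : 0 < M)
    (hMs : ∀ k ∈ Ms, 4 ^ K < k ∧ k ∣ M) (hb : 2 ^ (K + 3) * M + 2 * M < b)
    (hcop : Nat.Coprime b M) :
    ∃ c : ℕ → ℕ, (∀ i j, i < j → c i + 4 * N1 < c j) ∧
      (∀ i j k l, i ≠ j → k ≠ l → (i, j) ≠ (k, l) →
        c i + c l + 4 * N1 < c k + c j ∨ c k + c j + 4 * N1 < c i + c l) ∧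
      ∀ T : ℕ, (∀ l < K, c l ≤ T) →
        (((Finset.range K) ×ˢ (Finset.range K)).filter
          (fun p => p.1 ≠ p.2 ∧ Bad Ms M m b (T + c p.2 - c p.1))).card ≤ Ms.card + m := by
  have hb2 : 2 ≤ b := by nlinarith [Nat.one_le_two_pow (n := K+3)]
  obtain ⟨K0, hK0, hK1, hK2⟩ := exists_K0 M m b (4 * N1) hM hb2 hcop
  have hK0p : 0 < K0 := by omega
  refine ⟨fun l => 2 ^ l * K0, ?_, ?_, ?_⟩
  · intro i j hij
    have : 2 ^ (i+1) ≤ 2 ^ j := Nat.pow_le_pow_right (by norm_num) hij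
    have h1 : 1 ≤ 2 ^ i := Nat.one_le_two_pow
    show 2 ^ i * K0 + 4 * N1 < 2 ^ j * K0
    rw [pow_succ] at this
    nlinarith
  · intro i j k l hij hkl hne
    have hD : ((2:ℤ)^i - 2^j) - (2^k - 2^l) ≠ 0 := by
      intro h0
      obtain ⟨e1, e2⟩ := two_pow_sub_inj hij hkl (by linarith)
      exact hne (by rw [e1, e2])
    have hK0z : (4 * N1 : ℤ) < K0 := by exact_mod_cast hK0
    have hK0pz : (0:ℤ) < K0 := by exact_mod_cast hK0p
    rcases lt_or_gt_of_ne hD with h | h
    · left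
      have h1 : ((2:ℤ)^i - 2^j) - (2^k - 2^l) ≤ -1 := by
        exact Int.le_sub_one_of_lt h
      have : ((2:ℤ)^i * K0 + 2^l * K0 + 4 * N1) < 2^k * K0 + 2^j * K0 := by nlinarith
      exact_mod_cast this
    · right
      have h1 : 1 ≤ ((2:ℤ)^i - 2^j) - (2^k - 2^l) := h
      have : ((2:ℤ)^k * K0 + 2^j * K0 + 4 * N1) < 2^i * K0 + 2^l * K0 := by nlinarith
      exact_mod_cast this
  · intro T hT
    let F : ℕ → Finset (ℕ × ℕ) := fun k => ((Finset.range K) ×ˢ (Finset.range K)).filter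
      (fun p => p.1 ≠ p.2 ∧ k ∣ (T + 2 ^ p.2 * K0 - 2 ^ p.1 * K0))
    let G : ℕ → Finset (ℕ × ℕ) := fun j => ((Finset.range K) ×ˢ (Finset.range K)).filter
      (fun p => p.1 ≠ p.2 ∧ ¬ (M ≤ (T + 2 ^ p.2 * K0 - 2 ^ p.1 * K0) / b ^ j % b ∧
        (T + 2 ^ p.2 * K0 - 2 ^ p.1 * K0) / b ^ j % b + M + 1 ≤ b))
    have cast1 : ∀ p : ℕ × ℕ, p.1 < K → (((T + 2 ^ p.2 * K0 - 2 ^ p.1 * K0 : ℕ)) : ℤ)
        = T + ((2:ℤ) ^ p.2 - 2 ^ p.1) * K0 := by
      intro p hp
      have h1 : 2 ^ p.1 * K0 ≤ T := hT p.1 hp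
      rw [Nat.cast_sub (by omega)]
      push_cast; ring
    have diff : ∀ p q : ℕ × ℕ, p.1 < K → q.1 < K →
        (((T + 2 ^ p.2 * K0 - 2 ^ p.1 * K0 : ℕ)) : ℤ)
          - ((T + 2 ^ q.2 * K0 - 2 ^ q.1 * K0 : ℕ) : ℤ)
        = (((2:ℤ) ^ p.2 - 2 ^ p.1) - (2 ^ q.2 - 2 ^ q.1)) * K0 := by
      intro p q hp hq
      rw [cast1 p hp, cast1 q hq]; ring
    have fin : ∀ p q : ℕ × ℕ, p.1 ≠ p.2 → q.1 ≠ q.2 →
        ((2:ℤ) ^ p.2 - 2 ^ p.1) - (2 ^ q.2 - 2 ^ q.1) = 0 → p = q := by
      intro p q hp hq h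
      obtain ⟨e1, e2⟩ := two_pow_sub_inj hp.symm hq.symm (by linarith)
      exact Prod.ext e2 e1
    have hbound : ∀ p q : ℕ × ℕ, p.1 < K → p.2 < K → q.1 < K → q.2 < K →
        |((2:ℤ) ^ p.2 - 2 ^ p.1) - (2 ^ q.2 - 2 ^ q.1)| ≤ 2 ^ K := by
      intro p q h1 h2 h3 h4
      rcases Nat.eq_zero_or_pos K with hK | hK
      · omega
      obtain ⟨K', rfl⟩ : ∃ K', K = K' + 1 := ⟨K - 1, by omega⟩
      have a1 : (2:ℤ)^p.1 ≤ 2^K' := pow_le_pow_right₀ (by norm_num) (by omega)
      have a2 : (2:ℤ)^p.2 ≤ 2^K' := pow_le_pow_right₀ (by norm_num) (by omega)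
      have a3 : (2:ℤ)^q.1 ≤ 2^K' := pow_le_pow_right₀ (by norm_num) (by omega)
      have a4 : (2:ℤ)^q.2 ≤ 2^K' := pow_le_pow_right₀ (by norm_num) (by omega)
      have b1 : (0:ℤ) < 2^p.1 := by positivity
      have b2 : (0:ℤ) < 2^p.2 := by positivity
      have b3 : (0:ℤ) < 2^q.1 := by positivity
      have b4 : (0:ℤ) < 2^q.2 := by positivity
      rw [pow_succ, abs_le]; constructor <;> linarith
    have cF : ∀ k ∈ Ms, (F k).card ≤ 1 := by
      intro k hk
      rw [Finset.card_le_one]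
      intro p hp q hq
      simp only [F, Finset.mem_filter, Finset.mem_product, Finset.mem_range] at hp hq
      obtain ⟨⟨p1, p2⟩, pne, pd⟩ := hp
      obtain ⟨⟨q1, q2⟩, qne, qd⟩ := hq
      apply fin p q pne qne
      have h1 : (k:ℤ) ∣ (((2:ℤ) ^ p.2 - 2 ^ p.1) - (2 ^ q.2 - 2 ^ q.1)) * K0 := by
        rw [← diff p q p1 q1]
        exact dvd_sub (by exact_mod_cast pd) (by exact_mod_cast qd)
      have h2 : (k:ℤ) ∣ (K0:ℤ) - 1 := by
        have h3 : K0 ≡ 1 [MOD k] := hK1.of_dvd (hMs k hk).2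
        have := (Nat.modEq_iff_dvd.1 h3.symm)
        simpa using this
      have h4 : (k:ℤ) ∣ (((2:ℤ) ^ p.2 - 2 ^ p.1) - (2 ^ q.2 - 2 ^ q.1)) := by
        have e : (((2:ℤ) ^ p.2 - 2 ^ p.1) - (2 ^ q.2 - 2 ^ q.1))
            = (((2:ℤ) ^ p.2 - 2 ^ p.1) - (2 ^ q.2 - 2 ^ q.1)) * K0
              - (((2:ℤ) ^ p.2 - 2 ^ p.1) - (2 ^ q.2 - 2 ^ q.1)) * ((K0:ℤ) - 1) := by ring
        rw [e]
        exact dvd_sub h1 (h2.mul_left _)
      apply Int.eq_zero_of_abs_lt_dvd h4
      refine (hbound p q p1 p2 q1 q2).trans_lt ?_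
      have h5 : (2:ℕ)^K ≤ 4^K := Nat.pow_le_pow_left (by norm_num) K
      have h6 : 2^K < k := lt_of_le_of_lt h5 (hMs k hk).1
      exact_mod_cast h6
    have cG : ∀ j < m, (G j).card ≤ 1 := by
      intro j hj
      rw [Finset.card_le_one]
      intro p hp q hq
      simp only [G, Finset.mem_filter, Finset.mem_product, Finset.mem_range] at hp hq
      obtain ⟨⟨p1, p2⟩, pne, pd⟩ := hp
      obtain ⟨⟨q1, q2⟩, qne, qd⟩ := hq
      apply fin p q pne qne
      obtain ⟨t, ht⟩ := K0_res hj hK2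
      exact digit_unique hM hb ht (hbound p q p1 p2 q1 q2) (diff p q p1 q1) pd qd
    have hsub : (((Finset.range K) ×ˢ (Finset.range K)).filter
          (fun p => p.1 ≠ p.2 ∧ Bad Ms M m b (T + 2 ^ p.2 * K0 - 2 ^ p.1 * K0))) ⊆
        Ms.biUnion F ∪ (Finset.range m).biUnion G := by
      intro p hp
      rw [Finset.mem_filter] at hp
      obtain ⟨hp0, hne, h | h⟩ := hp
      · obtain ⟨k, hk, hd⟩ := h
        apply Finset.mem_union_left
        rw [Finset.mem_biUnion]
        exact ⟨k, hk, Finset.mem_filter.2 ⟨hp0, hne, hd⟩⟩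
      · obtain ⟨j, hj, hd⟩ := h
        apply Finset.mem_union_right
        rw [Finset.mem_biUnion]
        exact ⟨j, Finset.mem_range.2 hj, Finset.mem_filter.2 ⟨hp0, hne, hd⟩⟩
    refine (Finset.card_le_card hsub).trans ((Finset.card_union_le _ _).trans ?_)
    apply Nat.add_le_add
    · refine Finset.card_biUnion_le.trans ?_
      calc ∑ k ∈ Ms, (F k).card ≤ ∑ _k ∈ Ms, 1 := Finset.sum_le_sum cF
        _ = Ms.card := by simp
    · refine Finset.card_biUnion_le.trans ?_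
      calc ∑ j ∈ Finset.range m, (G j).card ≤ ∑ _j ∈ Finset.range m, 1 :=
            Finset.sum_le_sum fun j hj => cG j (Finset.mem_range.1 hj)
        _ = m := by simp

end Crest.Agent.R320.Sp_125
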