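import Crest.Agent.R320.Fin_6
import Crest.Agent.R320.G1_852
import Crest.Agent.R320.Sp_125

/-!
# Row 320: 852's gadget and 125's ruler give the black box of `Fin_6` (helper6)
-/

set_option autoImplicit false

namespace Crest.Agent.R320.FinG_6

open Crest.RegLang Crest.Agent.R320.Fin_6

theorem dvd_shift {k M B T : ℕ} (h : k ∣ M) : k ∣ T + M * B ↔ k ∣ T :=
  (Nat.dvd_add_iff_left (h.mul_right B)).symm

theorem digit_shift {b M m j T : ℕ} (hb : 0 < b) (hj : j < m) :
    (T + M * b ^ m) / b ^ j % b = T / b ^ j % b := by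
  have e : M * b ^ m = b ^ j * (M * b ^ (m - j)) := by
    rw [show b ^ m = b ^ j * b ^ (m - j) by rw [← pow_add]; congr 1; omega]
    ring
  rw [e, Nat.add_mul_div_left _ _ (pow_pos hb j)]
  obtain ⟨d, hd⟩ : ∃ d, m - j = d + 1 := ⟨m - j - 1, by omega⟩
  rw [hd, pow_succ, ← mul_assoc, Nat.add_mul_mod_self_right]

theorem gad (S V : Type) [Monoid S] [Finite S] [AddCommGroup V] [Finite V]
    (act : V → S → V) : Gad S V act := by
  classical
  obtain ⟨m, r, h⟩ := G1_852.gadget act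
  refine ⟨r + m, fun K => ?_⟩
  obtain ⟨Ms, M, hcard, hMs, hM, hb⟩ := h (4 ^ K)
  obtain ⟨b, hbd⟩ : ∃ b, b = 1 + (2 ^ (K + 3) + 2) * M := ⟨_, rfl⟩
  have hb0 : 0 < b := by omega
  have hcop : Nat.Coprime b M := by
    rw [hbd]
    exact (Nat.coprime_add_mul_right_left 1 M _).2 (Nat.coprime_one_left M)
  obtain ⟨c, hc1, hc2, hc3⟩ := Sp_125.spoil Ms M m b K (b ^ m) hM
    (fun k hk => ⟨(hMs k hk).1, (hMs k hk).2.2⟩) (by rw [hbd]; ring_nf; omega) hcop
  refine ⟨b ^ m, b ^ m, M * b ^ m, c, Sp_125.Bad Ms M m b, Nat.mul_pos hM (pow_pos hb0 m),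
    fun i j hij _ => by have := hc1 i j hij; omega, ?_, ?_, ?_, ?_⟩
  · intro i i' j j' _ _ _ _ hi hj h1 h2
    by_contra hne
    rcases hc2 i i' j j' (fun h => hi h.symm) (fun h => hj h.symm)
      (fun h => hne (Prod.mk.inj h).1) with h3 | h3 <;> omega
  · intro T hT I hI
    have hsub : I ⊆ (((Finset.range K) ×ˢ (Finset.range K)).filter
          (fun p => p.1 ≠ p.2 ∧ Sp_125.Bad Ms M m b (T + c p.2 - c p.1))).image Prod.fst := by
      intro k hk
      obtain ⟨h1, k', h2, h3, h4⟩ := hI k hk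
      rw [Finset.mem_image]
      exact ⟨(k, k'), Finset.mem_filter.2 ⟨Finset.mem_product.2
        ⟨Finset.mem_range.2 h1, Finset.mem_range.2 h2⟩, fun h => h3 h.symm, h4⟩, rfl⟩
    calc I.card ≤ _ := Finset.card_le_card hsub
      _ ≤ _ := Finset.card_image_le
      _ ≤ Ms.card + m := by
        have := hc3 T (fun l hl => hT l hl)
        convert this
      _ ≤ r + m := by omega
  · intro T _
    unfold Sp_125.Bad
    refine or_congr ?_ ?_
    · exact exists_congr fun k => and_congr_right fun hk => dvd_shift (hMs k hk).2.2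
    · exact exists_congr fun j => and_congr_right fun hj => by rw [digit_shift hb0 hj]
  · intro A f
    obtain ⟨lam, rho, nu, h1, h2, h3, h4⟩ := hb b hb0 hcop A f
    refine ⟨lam, rho, nu, fun P v hP => (h1 P v hP).le, fun P Q v r' hP hQ => h2 P Q v r' hP hQ,
      ?_, ?_⟩
    · intro Y _ hbad v
      have hbad' : ¬ ((∃ k ∈ Ms, k ∣ Y.length) ∨
        ∃ j < m, ¬ (M ≤ Y.length / b ^ j % b ∧ Y.length / b ^ j % b + M + 1 ≤ b)) := hbad
      push_neg at hbad'
      obtain ⟨P, Q, e, hP, v', hv'⟩ := h3 Y (fun k hk => hbad'.1 k hk)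
        (fun j hj => ⟨(hbad'.2 j hj).1, by have := (hbad'.2 j hj).2; omega⟩) v
      exact ⟨P, Q, e, hP, by rw [hv']; rfl⟩
    · intro u u' _ _ e1 e2 e3
      exact (h4 u u' e1 e3 e2).2

/-- **S0495** -/
theorem final (α : Type*) [Finite α] (L : Language α) (hL : L.IsRegular) :
    ∃ e : Crest.RegLang.GRegExp α, e.height ≤ 3 ∧ e.lang = L :=
  row' (fun S V _ _ _ _ act => gad S V act) α L hL

end Crest.Agent.R320.FinG_6
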