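import Crest.Agent.R320.Grid_899

/-!
# Row 320: `Grid_899.grid_gadget` together with the locality of its noise (helper751; the proof is
helper899's, with one more conclusion)
-/

set_option autoImplicit false
set_option linter.unusedSectionVars false
set_option linter.unnecessarySimpa false

namespace Crest.Agent.R320.FinG_751

open Finset Crest.Agent.R320.Grid_899 Crest.Agent.R320

/-- **Scheme 1 on all words.** `k` moduli (odd, pairwise coprime); `Am` / `G` as above; sound for ALL `P`, `Q`;
complete for every `u` whose length is clean. -/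
theorem grid_gadget2 (S V : Type*) [Monoid S] [Finite S] [AddCommGroup V] [Finite V]
    (act : V → S → V) :
    ∃ (k m : ℕ), ∀ q : Fin k → ℕ, (∀ j, Odd (q j)) →
      Pairwise (fun i j => Nat.Coprime (q i) (q j)) → ∀ κ : ℕ,
      ∀ (α : Type*) (phi : List α → S), (∀ u v, phi (u ++ v) = phi u * phi v) →
      ∃ (lam rho : List α → Option V) (nu : List α → V),
        (∀ P v, lam P = some v → P.length < Am (∏ j, q j) κ m ∧ P ≠ []) ∧
        (∀ Q b, rho Q = some b → Am (∏ j, q j) κ (m + 1) ≤ Q.length) ∧
        (∀ P Q v b, lam P = some v → rho Q = some b → b = act v (phi (P ++ Q)) + nu (P ++ Q)) ∧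
        (∀ u : List α, 2 * Am (∏ j, q j) κ (m + 1) ≤ u.length → (∀ j, ¬ q j ∣ u.length) →
          (∀ j, 1 ≤ j → j ≤ m →
            (∏ j, q j) * G κ (j - 1) ≤ (u.length - Am (∏ j, q j) κ j) % G κ j ∧
            (u.length - Am (∏ j, q j) κ j) % G κ j + (∏ j, q j) * G κ (j - 1) ≤ G κ j) →
          ∀ v, ∃ P Q, u = P ++ Q ∧ lam P = some v ∧ (rho Q).isSome) ∧
        (∀ u u' : List α, Am (∏ j, q j) κ (m + 1) ≤ u.length →
          Am (∏ j, q j) κ (m + 1) ≤ u'.length →
          u.take (Am (∏ j, q j) κ (m + 1)) = u'.take (Am (∏ j, q j) κ (m + 1)) →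
          phi (u.drop (Am (∏ j, q j) κ (m + 1))) = phi (u'.drop (Am (∏ j, q j) κ (m + 1))) →
          u.length % ((∏ j, q j) * G κ m) = u'.length % ((∏ j, q j) * G κ m) → nu u = nu u') := by
  classical
  obtain ⟨m, N, k, e, hN, H⟩ := NameGad808.unknownT_gadget S V act
  refine ⟨k, m, ?_⟩
  intro q hq hcop κ α phi hphi
  obtain ⟨L, R, lev, D, hlev, hsound, hcomp⟩ := H q hq
  set Ms := ∏ j, q j with hMs
  let ct : ℕ → (∀ j, ZMod (q j)) := fun n j => (n : ZMod (q j))
  let lam : List α → Option V := fun P =>
    if h : ∃ i, CondL Ms κ m i P.length then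
      L h.choose (ct P.length) (gT Ms κ phi h.choose P) (wlT Ms κ e phi h.choose P) else none
  let rho : List α → Option V := fun Q =>
    if CondR Ms κ m (lev (ct Q.length)) Q.length then
      R (lev (ct Q.length)) (ct Q.length) (hR Ms κ phi (lev (ct Q.length)) Q)
        (wrR Ms κ m e phi (lev (ct Q.length)) Q) else none
  let nu : List α → V := fun u => D (ct u.length) (phi u) (wT Ms κ m e phi u)
  have hlam : ∀ P v, lam P = some v → ∃ i, CondL Ms κ m i P.length ∧
      L i (ct P.length) (gT Ms κ phi i P) (wlT Ms κ e phi i P) = some v := by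
    intro P v h
    simp only [lam] at h
    split_ifs at h with h1
    exact ⟨h1.choose, h1.choose_spec, h⟩
  have hlam' : ∀ P v i, CondL Ms κ m i P.length →
      L i (ct P.length) (gT Ms κ phi i P) (wlT Ms κ e phi i P) = some v → lam P = some v := by
    intro P v i hi h
    have h1 : ∃ i, CondL Ms κ m i P.length := ⟨i, hi⟩
    simp only [lam]
    rw [dif_pos h1, CondL_unique h1.choose_spec hi]
    exact h
  have hrho : ∀ Q b, rho Q = some b → ∃ i, CondR Ms κ m i Q.length ∧
      R i (ct Q.length) (hR Ms κ phi i Q) (wrR Ms κ m e phi i Q) = some b := by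
    intro Q b h
    simp only [rho] at h
    split_ifs at h with h1
    exact ⟨_, h1, h⟩
  have hct : ∀ n n', ct (n + n') = ct n + ct n' := by
    intro n n'
    funext j
    simp [ct]
  refine ⟨lam, rho, nu, ?_, ?_, ?_, ?_, ?_⟩
  · intro P v h
    obtain ⟨i, hi, _⟩ := hlam P v h
    have h2 := hi.2.2
    rw [lo_add] at h2
    have h3 := Am_mono (Ms := Ms) (κ := κ) (show i + 1 ≤ m by have := hi.1; omega)
    refine ⟨by omega, ?_⟩
    rintro rfl
    have h4 := hi.2.1
    have h5 := G_pos (κ := κ) i
    unfold lo at h4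
    simp at h4
    omega
  · intro Q b h
    obtain ⟨i, hi, _⟩ := hrho Q b h
    exact hi.2.1
  · intro P Q v b h1 h2
    obtain ⟨i, hi, hL⟩ := hlam P v h1
    obtain ⟨i', hi', hR'⟩ := hrho Q b h2
    have := hsound i i' (ct P.length) (ct Q.length) (gT Ms κ phi i P) (hR Ms κ phi i' Q)
      (phi (P ++ Q)) (wlT Ms κ e phi i P) (wrR Ms κ m e phi i' Q) (wT Ms κ m e phi (P ++ Q)) v b
      ?_ hL hR'
    · rw [this]
      simp only [nu]
      rw [List.length_append, hct]
    · rintro rfl
      refine ⟨zT Ms κ phi i (P ++ Q), ?_, ?_⟩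
      · rw [← gT_left hi hi'.2.2.1, ← hT_right hi hi']
        exact split_g hphi i _
      · rw [← wlT_left e hi hi'.2.2.1, ← wrT_right e hi hi']
        exact split_w e hi.1 _
  · intro u hu hnd hcl v
    have hT0 : ∀ j, ct u.length j ≠ 0 := by
      intro j
      simp only [ct]
      rw [Ne, ZMod.natCast_eq_zero_iff]
      exact hnd j
    obtain ⟨i, him, hi⟩ := hcomp (ct u.length) hT0 (phi u) (wT Ms κ m e phi u) v
    obtain ⟨t, t', htt, hL, hRR⟩ := hi (gT Ms κ phi i u) (zT Ms κ phi i u) (hT Ms κ phi i u)
      (wlT Ms κ e phi i u) (wrT Ms κ m e phi i u) (split_g hphi i u) (split_w e him u)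
    -- the place
    have hqpos : ∀ j, 0 < q j := fun j => (hq j).pos
    have hAi : Am Ms κ (i + 1) ≤ Am Ms κ (m + 1) := Am_mono (by omega)
    set T := u.length with hT
    -- start of the progression
    let r := lo Ms κ i + (T - lo Ms κ i) % G κ i
    have hr : G κ i ∣ T - r := by
      have h1 : lo Ms κ i ≤ T := by
        have := lo_le (Ms := Ms) (κ := κ) i
        omega
      have h2 : T - r = G κ i * ((T - lo Ms κ i) / G κ i) := by
        have := Nat.div_add_mod (T - lo Ms κ i) (G κ i)
        simp only [r]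
        omega
      rw [h2]
      exact Dvd.intro _ rfl
    have hunit : ∀ j, IsUnit ((G κ i : ℕ) : ZMod (q j)) := by
      intro j
      rw [ZMod.isUnit_iff_coprime]
      exact Nat.Coprime.pow_left _ ((Nat.coprime_two_left).2 (hq j))
    obtain ⟨ω, _, hω, hω2⟩ := NameGad808.crt_hit q hqpos hcop
      (fun j => (t j - (r : ZMod (q j))) * ((hunit j).unit⁻¹ : (ZMod (q j))ˣ)) 0
    have hω' : ω < Ms := by simp only [zero_add] at hω; exact hω
    let o := r + G κ i * ω
    have hr1 : (T - lo Ms κ i) % G κ i < G κ i := Nat.mod_lt _ (G_pos i)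
    have ho1 : lo Ms κ i ≤ o := by simp only [o, r]; omega
    have ho2 : o < lo Ms κ i + Ms * G κ i := by
      have h1 : G κ i * (ω + 1) ≤ G κ i * Ms := Nat.mul_le_mul_left _ hω'
      have h2 : G κ i * (ω + 1) = G κ i * ω + G κ i := by ring
      have h3 : Ms * G κ i = G κ i * Ms := Nat.mul_comm _ _
      simp only [o, r]
      omega
    have ho3 : o < Am Ms κ (m + 1) := by
      rw [lo_add] at ho2
      omega
    have hcto : ct o = t := by
      funext j
      simp only [ct, o]
      rw [Nat.cast_add, Nat.cast_mul, hω2 j]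
      have : ((G κ i : ℕ) : ZMod (q j)) * ((hunit j).unit⁻¹ : (ZMod (q j))ˣ) = 1 := by
        have := (hunit j).mul_val_inv
        simpa using this
      calc (r : ZMod (q j)) + (G κ i : ZMod (q j)) * ((t j - (r : ZMod (q j))) *
            ((hunit j).unit⁻¹ : (ZMod (q j))ˣ))
          = (r : ZMod (q j)) + (t j - (r : ZMod (q j))) * ((G κ i : ZMod (q j)) *
            ((hunit j).unit⁻¹ : (ZMod (q j))ˣ)) := by ring
        _ = t j := by rw [this]; ring
    have hPl : (u.take o).length = o := by
      rw [List.length_take]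
      omega
    have hQl : (u.drop o).length = T - o := by
      rw [List.length_drop]
    have hu' : u.take o ++ u.drop o = u := List.take_append_drop _ _
    have hcto' : ct (T - o) = t' := by
      have h1 : ct T = ct o + ct (T - o) := by
        rw [← hct]
        congr 1
        omega
      rw [← htt, hcto] at h1
      exact (add_left_cancel h1).symm
    have hLc : CondL Ms κ m i (u.take o).length := by
      rw [hPl]
      exact ⟨him, ho1, ho2⟩
    have hdv : G κ i ∣ T - o := by
      have h1 : T - o = (T - r) - G κ i * ω := by simp only [o]; omega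
      rw [h1]
      exact Nat.dvd_sub hr (Dvd.intro _ rfl)
    have hRc : CondR Ms κ m i (u.drop o).length := by
      rw [hQl]
      refine ⟨him, by omega, hdv, ?_⟩
      intro j hj1 hj2
      have hA : Am Ms κ j ≤ Am Ms κ (m + 1) := Am_mono (by omega)
      have h1 := hcl j (by omega) hj2
      have h2 : o + (T - o) = T := by omega
      apply right_clean hj1 ho1 ho2 (by omega)
      · rw [h2]; exact h1.1
      · rw [h2]; exact h1.2
    refine ⟨u.take o, u.drop o, hu'.symm, ?_, ?_⟩
    · apply hlam' _ _ i hLc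
      rw [hPl, hcto, ← gT_left (phi := phi) hLc hRc.2.2.1, ← wlT_left e (phi := phi) hLc hRc.2.2.1,
        hu']
      exact hL
    · obtain ⟨b, hb⟩ := Option.isSome_iff_exists.1 hRR
      have hl := (hlev i t' _ _ b hb).1
      have h3 : lev (ct (u.drop o).length) = i := by
        rw [hQl, hcto', hl]
      simp only [rho]
      rw [h3, if_pos hRc, ← hT_right (phi := phi) hLc hRc, ← wrT_right e (phi := phi) hLc hRc, hu',
        hQl, hcto']
      exact hRR
  · intro u u' hu hu' htk hdr hmod
    have hqM : ∀ j, q j ∣ Ms * G κ m := fun j =>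
      dvd_mul_of_dvd_left (Finset.dvd_prod_of_mem q (Finset.mem_univ j)) _
    have h1 : ct u.length = ct u'.length := by
      funext j
      simp only [ct]
      rw [ZMod.natCast_eq_natCast_iff]
      exact Nat.ModEq.of_dvd (hqM j) hmod
    have h2 : phi u = phi u' := by
      rw [← List.take_append_drop (Am Ms κ (m + 1)) u, ← List.take_append_drop (Am Ms κ (m + 1)) u',
        hphi, hphi, htk, hdr]
    have hbd : ∀ j, j ≤ m → bd Ms κ j u.length = bd Ms κ j u'.length := by
      intro j hj
      have hA : Am Ms κ j ≤ Am Ms κ (m + 1) := Am_mono (by omega)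
      have hm1 : u.length ≡ u'.length [MOD G κ j] :=
        Nat.ModEq.of_dvd (dvd_mul_of_dvd_right (G_dvd hj) _) hmod
      have hm2 : u.length - Am Ms κ j ≡ u'.length - Am Ms κ j [MOD G κ j] := by
        refine Nat.ModEq.add_right_cancel' (Am Ms κ j) ?_
        rw [Nat.sub_add_cancel (by omega), Nat.sub_add_cancel (by omega)]
        exact hm1
      unfold bd
      rw [hm2]
    have hseg : ∀ (w : List α) (a b : ℕ), b ≤ Am Ms κ (m + 1) → Am Ms κ (m + 1) ≤ w.length →
        seg w a b = seg (w.take (Am Ms κ (m + 1))) a b := by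
      intro w a b hb hw
      conv_lhs => rw [← List.take_append_drop (Am Ms κ (m + 1)) w]
      rw [seg_left]
      rw [List.length_take]
      omega
    have h3 : wT Ms κ m e phi u = wT Ms κ m e phi u' := by
      unfold wT
      refine Finset.sum_congr rfl (fun j hj => ?_)
      rw [Finset.mem_range] at hj
      unfold zT
      have hb1 : bd Ms κ (j + 1) u'.length ≤ Am Ms κ (m + 1) := by
        have ha := bd_lt (Ms := Ms) (κ := κ) (j + 1) u'.length
        have hb := lo_le (Ms := Ms) (κ := κ) (j + 1)
        rcases Nat.lt_or_ge (j + 1) m with hlt | hge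
        · have := Am_mono (Ms := Ms) (κ := κ) (show j + 1 + 1 ≤ m + 1 by omega)
          omega
        · have he : j + 1 = m := by omega
          rw [he] at ha hb ⊢
          omega
      rw [hbd j hj.le, hbd (j + 1) hj, hseg u _ _ hb1 hu, hseg u' _ _ hb1 hu', htk]
    show D (ct u.length) (phi u) (wT Ms κ m e phi u) =
      D (ct u'.length) (phi u') (wT Ms κ m e phi u')
    rw [h1, h2, h3]

end Crest.Agent.R320.FinG_751
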