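import Mathlib

/-!
# Row 320: ruler and spoiling count for the grid gadget of helper693 (no small walls, no comb)

`Bad T`: some prime of `Ms` divides `T`, or `T` lies within `M * Γ^(j-1)` of a residue class
`Am j` modulo `Γ^j` for some `1 ≤ j ≤ m` (`Γ = 2^k`).
`exists_ruler`: places `c a = X * 2^a`, `a < K`: all differences of differences are larger than
`4 * N1`, and for every `T` at most `Ms.card + m` ordered pairs `a ≠ b` have
`Bad (T + c a - c b)`.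
-/

set_option autoImplicit false

namespace Crest.Agent.R320.GridRuler_896

/-- bad totals (integers). -/
def BadZ (Ms : Finset ℕ) (M G m : ℕ) (Am : ℕ → ℤ) (T : ℤ) : Prop :=
  (∃ p ∈ Ms, (p : ℤ) ∣ T) ∨
    ∃ j, 1 ≤ j ∧ j ≤ m ∧ ∃ q : ℤ, |T - Am j - q * (G : ℤ) ^ j| ≤ (M : ℤ) * (G : ℤ) ^ (j - 1)

theorem pow_unique {a b c d : ℕ} (h : 2 ^ a + 2 ^ d = 2 ^ b + 2 ^ c) :
    (a = b ∧ d = c) ∨ (a = c ∧ d = b) := by
  have key : ∀ a d b c : ℕ, d ≤ a → c ≤ b → 2 ^ a + 2 ^ d = 2 ^ b + 2 ^ c → a = b ∧ d = c := by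
    intro a d b c h1 h2 h3
    have hab : a ≤ b := by
      by_contra hlt
      have : 2 ^ (b + 1) ≤ 2 ^ a := Nat.pow_le_pow_right (by norm_num) (by omega)
      have h4 : 2 ^ c ≤ 2 ^ b := Nat.pow_le_pow_right (by norm_num) h2
      have h5 : 0 < 2 ^ d := Nat.pow_pos (by norm_num)
      rw [pow_succ] at this
      omega
    have hba : b ≤ a := by
      by_contra hlt
      have : 2 ^ (a + 1) ≤ 2 ^ b := Nat.pow_le_pow_right (by norm_num) (by omega)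
      have h4 : 2 ^ d ≤ 2 ^ a := Nat.pow_le_pow_right (by norm_num) h1
      have h5 : 0 < 2 ^ c := Nat.pow_pos (by norm_num)
      rw [pow_succ] at this
      omega
    have hab' : a = b := le_antisymm hab hba
    subst hab'
    refine ⟨rfl, ?_⟩
    have : 2 ^ d = 2 ^ c := by omega
    exact Nat.pow_right_injective (le_refl 2) this
  rcases le_total d a with h1 | h1 <;> rcases le_total c b with h2 | h2
  · exact Or.inl (key a d b c h1 h2 h)
  · have := key a d c b h1 h2 (by omega)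
    exact Or.inr this
  · have := key d a b c h1 h2 (by omega)
    exact Or.inr ⟨this.2, this.1⟩
  · have := key d a c b h1 h2 (by omega)
    exact Or.inl ⟨this.2, this.1⟩

theorem diff_unique {a b c d : ℕ} (hab : a ≠ b) (_hcd : c ≠ d)
    (h : (2 : ℤ) ^ a - 2 ^ b = 2 ^ c - 2 ^ d) : a = c ∧ b = d := by
  have h' : (2 : ℕ) ^ a + 2 ^ d = 2 ^ b + 2 ^ c := by
    have : (2 : ℤ) ^ a + 2 ^ d = 2 ^ b + 2 ^ c := by linarith
    exact_mod_cast this
  rcases pow_unique h' with ⟨h1, _⟩ | ⟨h1, h2⟩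
  · exact absurd h1 hab
  · exact ⟨h1, h2.symm⟩

theorem pow_bound {K a : ℕ} (h : a < K) : (0 : ℤ) < 2 ^ a ∧ (2 : ℤ) ^ a ≤ 2 ^ K := by
  refine ⟨by positivity, ?_⟩
  exact pow_le_pow_right₀ (by norm_num) h.le

theorem diffdiff_bound {K a b c d : ℕ} (ha : a < K) (hb : b < K) (hc : c < K) (hd : d < K) :
    |((2 : ℤ) ^ a - 2 ^ b) - (2 ^ c - 2 ^ d)| < 2 ^ (K + 1) := by
  have h1 := pow_bound ha
  have h2 := pow_bound hb
  have h3 := pow_bound hc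
  have h4 := pow_bound hd
  rw [pow_succ, abs_lt]
  constructor <;> linarith [h1.1, h1.2, h2.1, h2.2, h3.1, h3.2, h4.1, h4.2]

/-- geometric sum `S j = ∑_{i<j} G^i`. -/
def S (G : ℤ) (j : ℕ) : ℤ := ∑ i ∈ Finset.range j, G ^ i

theorem S_lower (G : ℤ) (hG : 0 ≤ G) (j : ℕ) : G ^ j ≤ S G (j + 1) := by
  unfold S
  rw [Finset.sum_range_succ]
  have : 0 ≤ ∑ i ∈ Finset.range j, G ^ i := Finset.sum_nonneg fun i _ => pow_nonneg hG i
  linarith

theorem S_upper (G : ℤ) (hG : 2 ≤ G) (j : ℕ) : S G (j + 1) ≤ 2 * G ^ j := by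
  induction j with
  | zero => simp [S]
  | succ j ih =>
    have e : S G (j + 1 + 1) = S G (j + 1) + G ^ (j + 1) := by
      unfold S; rw [Finset.sum_range_succ]
    rw [e, pow_succ]
    have h1 : 0 < G ^ j := by positivity
    nlinarith

theorem S_split (G : ℤ) {j m : ℕ} (h : j ≤ m) : ∃ Y : ℤ, S G m = S G j + G ^ j * Y := by
  obtain ⟨d, rfl⟩ := Nat.exists_eq_add_of_le h
  refine ⟨∑ i ∈ Finset.range d, G ^ i, ?_⟩
  unfold S
  rw [Finset.sum_range_add, Finset.mul_sum]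
  congr 1
  refine Finset.sum_congr rfl fun i _ => ?_
  rw [pow_add]

/-- the band of level `j` meets at most one difference. -/
theorem band_unique {K m M G j : ℕ} (hM : 0 < M) (hG : 2 ^ (K + 6) * M ≤ G) (hj1 : 1 ≤ j)
    (hjm : j ≤ m) {X Z A T q q' : ℤ} (hX : X = 4 * M * S G m + (G : ℤ) ^ m * Z)
    {a b c d : ℕ} (ha : a < K) (hb : b < K) (hc : c < K) (hd : d < K) (hab : a ≠ b) (hcd : c ≠ d)
    (h1 : |T + X * (2 ^ a - 2 ^ b) - A - q * (G : ℤ) ^ j| ≤ (M : ℤ) * (G : ℤ) ^ (j - 1))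
    (h2 : |T + X * (2 ^ c - 2 ^ d) - A - q' * (G : ℤ) ^ j| ≤ (M : ℤ) * (G : ℤ) ^ (j - 1)) :
    a = c ∧ b = d := by
  by_contra hne
  set δ : ℤ := ((2 : ℤ) ^ a - 2 ^ b) - (2 ^ c - 2 ^ d) with hδ
  have hδ0 : δ ≠ 0 := by
    intro h0
    exact hne (diff_unique hab hcd (by linarith))
  have hδb : |δ| < 2 ^ (K + 1) := diffdiff_bound ha hb hc hd
  obtain ⟨i, rfl⟩ : ∃ i, j = i + 1 := ⟨j - 1, by omega⟩
  obtain ⟨Y, hY⟩ := S_split (G : ℤ) hjm
  obtain ⟨e, he⟩ := Nat.exists_eq_add_of_le hjm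
  have hGpos : (0 : ℤ) < G := by
    have : 0 < G := lt_of_lt_of_le (Nat.mul_pos (Nat.pow_pos (by norm_num)) hM) hG
    exact_mod_cast this
  have hMpos : (0 : ℤ) < M := by exact_mod_cast hM
  have hGM : (2 : ℤ) ^ (K + 6) * M ≤ G := by exact_mod_cast hG
  have hG2 : (2 : ℤ) ≤ G := by
    have h3 : (1 : ℤ) ≤ M := hMpos
    have h4 : (2 : ℤ) ≤ 2 ^ (K + 6) := by
      calc (2 : ℤ) = 2 ^ 1 := by norm_num
        _ ≤ 2 ^ (K + 6) := pow_le_pow_right₀ (by norm_num) (by omega)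
    nlinarith
  set g : ℤ := (G : ℤ) ^ i with hg
  have hgpos : 0 < g := by positivity
  have hsub : i + 1 - 1 = i := by omega
  rw [hsub] at h1 h2
  have hGj : (G : ℤ) ^ (i + 1) = G * g := by rw [pow_succ, hg]; ring
  rw [hGj] at h1 h2
  -- the difference
  have hXf : X = 4 * M * S G (i + 1) + (G * g) * (4 * M * Y + (G : ℤ) ^ e * Z) := by
    have e3 : (G : ℤ) ^ (i + 1 + e) = (G * g) * (G : ℤ) ^ e := by rw [pow_add, hGj]
    rw [hX, hY, he, e3, hGj]; ring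
  set s : ℤ := S G (i + 1) with hs
  have hs1 : g ≤ s := S_lower _ hGpos.le _
  have hs2 : s ≤ 2 * g := S_upper _ hG2 _
  have hspos : 0 < s := lt_of_lt_of_le hgpos hs1
  set w : ℤ := (4 * M * Y + (G : ℤ) ^ e * Z) with hw
  have hdiff : |4 * M * s * δ + (w * δ - (q - q')) * (G * g)| ≤ 2 * (M * g) := by
    have e1 : 4 * M * s * δ + (w * δ - (q - q')) * (G * g) =
        (T + X * (2 ^ a - 2 ^ b) - A - q * (G * g)) -
          (T + X * (2 ^ c - 2 ^ d) - A - q' * (G * g)) := by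
      rw [hXf, hδ]; ring
    rw [e1]
    calc _ ≤ |T + X * (2 ^ a - 2 ^ b) - A - q * (G * g)| +
          |T + X * (2 ^ c - 2 ^ d) - A - q' * (G * g)| := abs_sub _ _
      _ ≤ 2 * (M * g) := by linarith
  set n : ℤ := w * δ - (q - q') with hn
  have hlow : 4 * M * g ≤ |4 * M * s * δ| := by
    rw [abs_mul]
    have h5 : (1 : ℤ) ≤ |δ| := Int.one_le_abs hδ0
    have h6 : (0 : ℤ) < 4 * M * s := by positivity
    rw [abs_of_pos h6]
    have h7 : 4 * (M : ℤ) * g ≤ 4 * M * s :=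
      mul_le_mul_of_nonneg_left hs1 (by positivity)
    calc 4 * (M : ℤ) * g ≤ 4 * M * s := h7
      _ = 4 * M * s * 1 := (mul_one _).symm
      _ ≤ 4 * M * s * |δ| := mul_le_mul_of_nonneg_left h5 h6.le
  have hMg : 0 < (M : ℤ) * g := mul_pos hMpos hgpos
  by_cases hn0 : n = 0
  · rw [hn0, zero_mul, add_zero] at hdiff
    linarith
  · have hup : |4 * M * s * δ| ≤ 2 ^ (K + 4) * (M * g) := by
      rw [abs_mul, abs_of_pos (by positivity : (0 : ℤ) < 4 * M * s)]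
      have h7 : 4 * (M : ℤ) * s ≤ 8 * (M * g) := by
        calc 4 * (M : ℤ) * s ≤ 4 * M * (2 * g) := mul_le_mul_of_nonneg_left hs2 (by positivity)
          _ = 8 * (M * g) := by ring
      calc 4 * (M : ℤ) * s * |δ| ≤ 8 * (M * g) * 2 ^ (K + 1) :=
            mul_le_mul h7 hδb.le (abs_nonneg _) (by positivity)
        _ = 2 ^ (K + 4) * (M * g) := by rw [pow_add, pow_add]; ring
    have hGg : (2 : ℤ) ^ (K + 6) * (M * g) ≤ G * g := by
      calc (2 : ℤ) ^ (K + 6) * (M * g) = (2 ^ (K + 6) * M) * g := by ring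
        _ ≤ G * g := mul_le_mul_of_nonneg_right hGM hgpos.le
    have hGgp : (0 : ℤ) < G * g := mul_pos hGpos hgpos
    have h8 : G * g ≤ |n * (G * g)| := by
      rw [abs_mul, abs_of_pos hGgp]
      have h12 := Int.one_le_abs hn0
      calc (G : ℤ) * g = 1 * (G * g) := (one_mul _).symm
        _ ≤ |n| * (G * g) := mul_le_mul_of_nonneg_right h12 hGgp.le
    have h9 : |n * (G * g)| ≤ |4 * M * s * δ| + 2 * (M * g) := by
      have e2 : n * (G * g) = (4 * M * s * δ + n * (G * g)) - 4 * M * s * δ := by ring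
      rw [e2]
      calc _ ≤ |4 * M * s * δ + n * (G * g)| + |4 * M * s * δ| := abs_sub _ _
        _ ≤ _ := by linarith
    have h10 : (2 : ℤ) ^ (K + 6) = 4 * 2 ^ (K + 4) := by rw [pow_add, pow_add]; ring
    have h11 : (16 : ℤ) ≤ 2 ^ (K + 4) := by
      calc (16 : ℤ) = 2 ^ 4 := by norm_num
        _ ≤ 2 ^ (K + 4) := pow_le_pow_right₀ (by norm_num) (by omega)
    have h13 : 16 * ((M : ℤ) * g) ≤ 2 ^ (K + 4) * (M * g) :=
      mul_le_mul_of_nonneg_right h11 hMg.le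
    rw [h10] at hGg
    have h14 : 4 * (2 : ℤ) ^ (K + 4) * (M * g) = 4 * (2 ^ (K + 4) * (M * g)) := by ring
    rw [h14] at hGg
    generalize (2 : ℤ) ^ (K + 4) * (M * g) = a1 at *
    generalize (M : ℤ) * g = a2 at *
    linarith

/-- **RULER AND SPOILING COUNT for the grid gadget.** -/
theorem exists_ruler (K m : ℕ) (Ms : Finset ℕ) (hp : ∀ p ∈ Ms, p.Prime ∧ 2 ^ (K + 1) < p)
    (M : ℕ) (hM : 0 < M) (hMs : ∀ p ∈ Ms, p ∣ M) (k : ℕ) (hk : 2 ^ (K + 6) * M ≤ 2 ^ k)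
    (N1 : ℕ) :
    ∃ X : ℕ, N1 < X ∧ ∀ (Am : ℕ → ℤ) (T : ℤ),
      (Set.Finite {ab : ℕ × ℕ | ab.1 < K ∧ ab.2 < K ∧ ab.1 ≠ ab.2 ∧
        BadZ Ms M (2 ^ k) m Am (T + X * 2 ^ ab.1 - X * 2 ^ ab.2)}) ∧
      (Set.ncard {ab : ℕ × ℕ | ab.1 < K ∧ ab.2 < K ∧ ab.1 ≠ ab.2 ∧
        BadZ Ms M (2 ^ k) m Am (T + X * 2 ^ ab.1 - X * 2 ^ ab.2)}) ≤ Ms.card + m := by
  classical
  set G : ℕ := 2 ^ k with hGdef
  set Z : ℕ := 1 + M * (N1 + 1) with hZ
  set Sn : ℕ := ∑ i ∈ Finset.range m, G ^ i with hSn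
  have hSZ : S (G : ℤ) m = (Sn : ℤ) := by
    unfold S; rw [hSn]; push_cast; rfl
  refine ⟨4 * M * Sn + G ^ m * Z, ?_, ?_⟩
  · have h1 : 1 ≤ G ^ m := Nat.one_le_pow _ _ (Nat.pow_pos (by norm_num))
    have h2 : N1 < Z := by rw [hZ]; nlinarith
    calc N1 < Z := h2
      _ ≤ G ^ m * Z := Nat.le_mul_of_pos_left _ h1
      _ ≤ _ := Nat.le_add_left _ _
  intro Am T
  set X : ℕ := 4 * M * Sn + G ^ m * Z with hX
  have hXZ : (X : ℤ) = 4 * M * S G m + (G : ℤ) ^ m * (Z : ℤ) := by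
    rw [hSZ, hX]; push_cast; ring
  have hcop : ∀ p ∈ Ms, ¬ (p : ℤ) ∣ (X : ℤ) := by
    intro p hpm hdiv
    have hdiv' : p ∣ X := by exact_mod_cast hdiv
    obtain ⟨hpr, hpl⟩ := hp p hpm
    have h1 : p ∣ 4 * M * Sn := Dvd.dvd.mul_right ((hMs p hpm).mul_left 4) _
    have h2 : p ∣ G ^ m * Z := (Nat.dvd_add_right h1).1 hdiv'
    rcases hpr.dvd_mul.1 h2 with h3 | h3
    · have h4 := hpr.dvd_of_dvd_pow h3
      rw [hGdef] at h4
      have h5 := hpr.dvd_of_dvd_pow h4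
      have h6 := Nat.le_of_dvd (by norm_num) h5
      have h7 : 2 ≤ 2 ^ (K + 1) := by
        calc 2 = 2 ^ 1 := by norm_num
          _ ≤ 2 ^ (K + 1) := Nat.pow_le_pow_right (by norm_num) (by omega)
      omega
    · rw [hZ] at h3
      have h4 : p ∣ M * (N1 + 1) := Dvd.dvd.mul_right (hMs p hpm) _
      have h5 : p ∣ 1 := (Nat.dvd_add_left h4).1 h3
      exact hpr.one_lt.ne' (Nat.dvd_one.1 h5)
  -- cover by finitely many subsingletons
  set P : Finset (ℕ × ℕ) := (Finset.range K ×ˢ Finset.range K).filter (fun ab => ab.1 ≠ ab.2 ∧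
    BadZ Ms M G m Am (T + X * 2 ^ ab.1 - X * 2 ^ ab.2)) with hP
  have hset : {ab : ℕ × ℕ | ab.1 < K ∧ ab.2 < K ∧ ab.1 ≠ ab.2 ∧
      BadZ Ms M G m Am (T + X * 2 ^ ab.1 - X * 2 ^ ab.2)} = (P : Set (ℕ × ℕ)) := by
    ext ab
    simp only [hP, Set.mem_setOf_eq, Finset.coe_filter, Finset.mem_product, Finset.mem_range]
    tauto
  rw [hset]
  refine ⟨P.finite_toSet, ?_⟩
  rw [Set.ncard_coe_finset]
  set A : ℕ → Finset (ℕ × ℕ) := fun p => (Finset.range K ×ˢ Finset.range K).filter (fun ab =>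
    ab.1 ≠ ab.2 ∧ (p : ℤ) ∣ T + X * 2 ^ ab.1 - X * 2 ^ ab.2) with hA
  set B : ℕ → Finset (ℕ × ℕ) := fun j => (Finset.range K ×ˢ Finset.range K).filter (fun ab =>
    ab.1 ≠ ab.2 ∧ ∃ q : ℤ, |T + X * 2 ^ ab.1 - X * 2 ^ ab.2 - Am j - q * (G : ℤ) ^ j| ≤
      (M : ℤ) * (G : ℤ) ^ (j - 1)) with hB
  have hcov : P ⊆ (Ms.biUnion A) ∪ ((Finset.Icc 1 m).biUnion B) := by
    intro ab hab
    rw [hP, Finset.mem_filter] at hab
    obtain ⟨h0, h1, h2⟩ := hab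
    rw [Finset.mem_union]
    rcases h2 with ⟨p, hpm, hd⟩ | ⟨j, hj1, hj2, q, hq⟩
    · left
      exact Finset.mem_biUnion.2 ⟨p, hpm, Finset.mem_filter.2 ⟨h0, h1, hd⟩⟩
    · right
      exact Finset.mem_biUnion.2 ⟨j, Finset.mem_Icc.2 ⟨hj1, hj2⟩, Finset.mem_filter.2
        ⟨h0, h1, q, hq⟩⟩
  have hAcard : ∀ p ∈ Ms, (A p).card ≤ 1 := by
    intro p hpm
    rw [Finset.card_le_one]
    rintro ⟨a, b⟩ h1 ⟨c, d⟩ h2
    rw [hA, Finset.mem_filter, Finset.mem_product, Finset.mem_range, Finset.mem_range] at h1 h2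
    obtain ⟨⟨ha, hb⟩, hab, h3⟩ := h1
    obtain ⟨⟨hc, hd⟩, hcd, h4⟩ := h2
    dsimp only at ha hb hab h3 hc hd hcd h4
    have h5 : (p : ℤ) ∣ X * (((2 : ℤ) ^ a - 2 ^ b) - (2 ^ c - 2 ^ d)) := by
      have := dvd_sub h3 h4
      have e : (T + X * 2 ^ a - X * 2 ^ b) - (T + X * 2 ^ c - X * 2 ^ d) =
        X * (((2 : ℤ) ^ a - 2 ^ b) - (2 ^ c - 2 ^ d)) := by ring
      rwa [e] at this
    have hpr : Prime (p : ℤ) := Nat.prime_iff_prime_int.1 (hp p hpm).1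
    rcases hpr.dvd_or_dvd h5 with h6 | h6
    · exact absurd h6 (hcop p hpm)
    · have h7 := diffdiff_bound ha hb hc hd
      have h8 : ((2 : ℤ) ^ a - 2 ^ b) - (2 ^ c - 2 ^ d) = 0 := by
        by_contra hne
        have h9 : (p : ℤ) ≤ |((2 : ℤ) ^ a - 2 ^ b) - (2 ^ c - 2 ^ d)| :=
          Int.le_of_dvd (abs_pos.2 hne) ((dvd_abs _ _).2 h6)
        have h10 : (2 : ℤ) ^ (K + 1) < p := by exact_mod_cast (hp p hpm).2
        linarith
      obtain ⟨h9, h10⟩ := diff_unique hab hcd (by linarith)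
      rw [h9, h10]
  have hBcard : ∀ j ∈ Finset.Icc 1 m, (B j).card ≤ 1 := by
    intro j hj
    rw [Finset.mem_Icc] at hj
    rw [Finset.card_le_one]
    rintro ⟨a, b⟩ h1 ⟨c, d⟩ h2
    rw [hB, Finset.mem_filter, Finset.mem_product, Finset.mem_range, Finset.mem_range] at h1 h2
    obtain ⟨⟨ha, hb⟩, hab, q, h3⟩ := h1
    obtain ⟨⟨hc, hd⟩, hcd, q', h4⟩ := h2
    dsimp only at ha hb hab h3 hc hd hcd h4
    have e1 : T + X * 2 ^ a - X * 2 ^ b - Am j - q * (G : ℤ) ^ j =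
      T + X * (2 ^ a - 2 ^ b) - Am j - q * (G : ℤ) ^ j := by ring
    have e2 : T + X * 2 ^ c - X * 2 ^ d - Am j - q' * (G : ℤ) ^ j =
      T + X * (2 ^ c - 2 ^ d) - Am j - q' * (G : ℤ) ^ j := by ring
    rw [e1] at h3
    rw [e2] at h4
    obtain ⟨h9, h10⟩ := band_unique (Z := (Z : ℤ)) hM hk hj.1 hj.2 hXZ ha hb hc hd hab hcd h3 h4
    rw [h9, h10]
  calc P.card ≤ ((Ms.biUnion A) ∪ ((Finset.Icc 1 m).biUnion B)).card := Finset.card_le_card hcov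
    _ ≤ (Ms.biUnion A).card + ((Finset.Icc 1 m).biUnion B).card := Finset.card_union_le _ _
    _ ≤ Ms.card * 1 + (Finset.Icc 1 m).card * 1 :=
        Nat.add_le_add (Finset.card_biUnion_le_card_mul _ _ _ hAcard)
          (Finset.card_biUnion_le_card_mul _ _ _ hBcard)
    _ = Ms.card + m := by simp

/-- spacing: differences of differences of the places `X * 2^a` exceed `N1` if `N1 < X`. -/
theorem spaced {X N1 : ℕ} (hX : N1 < X) {a b c d : ℕ} (hab : a ≠ b) (hcd : c ≠ d)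
    (hne : (a, b) ≠ (c, d)) :
    X * 2 ^ a + X * 2 ^ d + N1 < X * 2 ^ c + X * 2 ^ b ∨
      X * 2 ^ c + X * 2 ^ b + N1 < X * 2 ^ a + X * 2 ^ d := by
  have h0 : (2 : ℕ) ^ a + 2 ^ d ≠ 2 ^ c + 2 ^ b := by
    intro h
    rcases pow_unique h with ⟨h1, h2⟩ | ⟨h1, _⟩
    · exact hne (by rw [h1, h2])
    · exact hab h1
  rcases Nat.lt_or_gt_of_ne h0 with h | h
  · left
    have : X * (2 ^ a + 2 ^ d + 1) ≤ X * (2 ^ c + 2 ^ b) := Nat.mul_le_mul_left _ (by omega)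
    nlinarith
  · right
    have : X * (2 ^ c + 2 ^ b + 1) ≤ X * (2 ^ a + 2 ^ d) := Nat.mul_le_mul_left _ (by omega)
    nlinarith

end Crest.Agent.R320.GridRuler_896
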