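import Crest.Agent.R320.Grid_899
import Crest.Agent.R320.Thin_963
import Crest.Agent.R320.GridRuler_896

/-!
# Row 320: the grid gadget packaged with ruler, spoil count and finite-state noise (helper74)
-/

set_option autoImplicit false

namespace Crest.Agent.R320.Fin74

open Crest.Agent.R320.Grid_899

/-- distinct primes above a bound -/
theorem exists_primes (k B : ℕ) :
    ∃ q : Fin k → ℕ, (∀ j, (q j).Prime ∧ B < q j) ∧ Function.Injective q := by
  refine ⟨fun j => Nat.nth Nat.Prime (B + j), fun j => ⟨Nat.prime_nth_prime _, ?_⟩, ?_⟩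
  · have h := Nat.add_two_le_nth_prime (B + (j : ℕ))
    show B < Nat.nth Nat.Prime (B + (j : ℕ))
    omega
  · intro a b h
    have := Nat.nth_injective Nat.infinite_setOf_prime h
    exact Fin.ext (by omega)

/-- the thin set of totals -/
def Bad {k : ℕ} (q : Fin k → ℕ) (κ m T : ℕ) : Prop :=
  (∃ j, q j ∣ T) ∨ ∃ j, 1 ≤ j ∧ j ≤ m ∧
    ¬ ((∏ j, q j) * G κ (j - 1) ≤ (T - Am (∏ j, q j) κ j) % G κ j ∧
      (T - Am (∏ j, q j) κ j) % G κ j + (∏ j, q j) * G κ (j - 1) ≤ G κ j)

theorem bad_congr {k : ℕ} (q : Fin k → ℕ) (κ m : ℕ) {T T' : ℕ}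
    (h1 : Am (∏ j, q j) κ (m + 1) ≤ T) (h2 : Am (∏ j, q j) κ (m + 1) ≤ T')
    (h : T ≡ T' [MOD (∏ j, q j) * G κ m]) (hb : Bad q κ m T) : Bad q κ m T' := by
  rcases hb with ⟨j, hj⟩ | ⟨j, hj1, hjm, hj⟩
  · left
    refine ⟨j, ?_⟩
    have hd : q j ∣ (∏ j, q j) * G κ m :=
      Dvd.dvd.mul_right (Finset.dvd_prod_of_mem q (Finset.mem_univ j)) _
    exact ((h.of_dvd hd).dvd_iff (dvd_refl _)).1 hj
  · right
    refine ⟨j, hj1, hjm, ?_⟩
    have ha : Am (∏ j, q j) κ j ≤ Am (∏ j, q j) κ (m + 1) := Am_mono (by omega)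
    have h3 : T ≡ T' [MOD G κ j] := modG hjm h
    have e : (T - Am (∏ j, q j) κ j) % G κ j = (T' - Am (∏ j, q j) κ j) % G κ j := by
      have : T - Am (∏ j, q j) κ j + Am (∏ j, q j) κ j ≡
          T' - Am (∏ j, q j) κ j + Am (∏ j, q j) κ j [MOD G κ j] := by
        rw [Nat.sub_add_cancel (by omega), Nat.sub_add_cancel (by omega)]; exact h3
      exact Nat.ModEq.add_right_cancel' _ this
    rw [← e]; exact hj

theorem sum_G (κ Mq i : ℕ) (hκ : 1 ≤ κ) :
    ∑ j ∈ Finset.range (i + 1), Mq * G κ j ≤ 2 * (Mq * G κ i) := by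
  induction i with
  | zero => simp; omega
  | succ i ih =>
    rw [Finset.sum_range_succ]
    have h1 : 2 * G κ i ≤ G κ (i + 1) := by
      unfold G
      rw [show κ * (i + 1) = κ * i + κ by ring, pow_add]
      have : 2 ^ 1 ≤ 2 ^ κ := Nat.pow_le_pow_right (by norm_num) hκ
      nlinarith [Nat.pos_of_ne_zero (show 2 ^ (κ * i) ≠ 0 by positivity)]
    have h2 : Mq * (2 * G κ i) ≤ Mq * G κ (i + 1) := Nat.mul_le_mul_left _ h1
    nlinarith

theorem thin74 {k : ℕ} (m K : ℕ) (q : Fin k → ℕ) (hq : ∀ j, (q j).Prime ∧ 2 ^ (K + 1) < q j)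
    (κ : ℕ) (hκ : 2 ^ (K + 5) * (∏ j, q j) ≤ 2 ^ κ) (hκ1 : 1 ≤ κ) (N0 : ℕ) :
    ∃ X : ℕ, N0 ≤ X ∧ 0 < X ∧ ∀ T : ℕ, Am (∏ j, q j) κ (m + 1) + X * 2 ^ K ≤ T →
      ∀ J : Finset ℕ, (∀ i ∈ J, i < K ∧ ∃ i', i' < K ∧ i' ≠ i ∧
        Bad q κ m (T + X * 2 ^ i' - X * 2 ^ i)) → J.card ≤ k + m := by
  classical
  have hMq : 0 < ∏ j, q j := Finset.prod_pos fun j _ => (hq j).1.pos
  obtain ⟨X, hX1, hX2, hX3⟩ := Thin963.thin K m (Finset.image q Finset.univ)
    (fun i => (G κ i : ℤ)) (fun i => (((∏ j, q j) * G κ i : ℕ) : ℤ))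
    (fun i => (Am (∏ j, q j) κ i : ℤ))
    (by
      intro p hp
      obtain ⟨j, -, rfl⟩ := Finset.mem_image.1 hp
      exact ⟨(hq j).1, (hq j).2.le⟩)
    (by
      intro p hp
      obtain ⟨j, -, rfl⟩ := Finset.mem_image.1 hp
      have h : Nat.Coprime (q j) (G κ m) := by
        unfold G
        apply Nat.Coprime.pow_right
        have h2 : 2 < q j := by
          have := (hq j).2
          have h3 : 2 ^ 1 ≤ 2 ^ (K + 1) := Nat.pow_le_pow_right (by norm_num) (by omega)
          omega
        have hodd : Odd (q j) := (hq j).1.odd_of_ne_two (by omega)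
        exact hodd.coprime_two_right
      exact Nat.isCoprime_iff_coprime.2 h)
    (by exact_mod_cast G_pos m)
    (by intro i j hij; exact_mod_cast G_dvd hij)
    (by intro i; exact_mod_cast Nat.mul_pos hMq (G_pos i))
    (by intro i; exact_mod_cast Dvd.intro_left _ rfl)
    (by
      intro i hi
      have h1 := sum_G κ (∏ j, q j) i hκ1
      have h2 : 2 ^ (K + 4) * ∑ j ∈ Finset.range (i + 1), (∏ j, q j) * G κ j ≤ G κ (i + 1) := by
        calc 2 ^ (K + 4) * ∑ j ∈ Finset.range (i + 1), (∏ j, q j) * G κ j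
            ≤ 2 ^ (K + 4) * (2 * ((∏ j, q j) * G κ i)) := Nat.mul_le_mul_left _ h1
          _ = (2 ^ (K + 5) * (∏ j, q j)) * G κ i := by ring
          _ ≤ 2 ^ κ * G κ i := Nat.mul_le_mul_right _ hκ
          _ = G κ (i + 1) := by unfold G; rw [← pow_add]; congr 1; ring
      exact_mod_cast h2)
    (N0 : ℤ)
  obtain ⟨Y, rfl⟩ : ∃ Y : ℕ, X = Y := ⟨X.toNat, by omega⟩
  refine ⟨Y, by exact_mod_cast hX1, by exact_mod_cast hX2, ?_⟩
  intro T hT J hJ
  have hJ' : ∀ i : ℕ, ∃ i', i ∈ J → i < K ∧ i' < K ∧ i' ≠ i ∧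
      Bad q κ m (T + Y * 2 ^ i' - Y * 2 ^ i) := by
    intro i
    by_cases hi : i ∈ J
    · obtain ⟨h1, i', h2, h3, h4⟩ := hJ i hi
      exact ⟨i', fun _ => ⟨h1, h2, h3, h4⟩⟩
    · exact ⟨0, fun h => absurd h hi⟩
  choose g hg using hJ'
  have hcard := hX3 (T : ℤ)
  refine le_trans ?_ (le_trans hcard ?_)
  · refine Finset.card_le_card_of_injOn (fun i => (g i, i)) ?_ ?_
    · intro i hi
      obtain ⟨h1, h2, h3, h4⟩ := hg i hi
      simp only [Finset.coe_filter, Finset.mem_product, Finset.mem_range, Set.mem_setOf_eq]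
      refine ⟨⟨h2, h1⟩, h3, ?_⟩
      have hle : Y * 2 ^ i ≤ Y * 2 ^ K :=
        Nat.mul_le_mul_left _ (Nat.pow_le_pow_right (by norm_num) h1.le)
      have hT1 : ((T + Y * 2 ^ g i - Y * 2 ^ i : ℕ) : ℤ) =
          (T : ℤ) + Y * 2 ^ g i - Y * 2 ^ i := by
        rw [Nat.cast_sub (by omega)]; push_cast; ring
      rw [← hT1]
      generalize hT1' : T + Y * 2 ^ g i - Y * 2 ^ i = T1 at h4 ⊢
      have hT1g : Am (∏ j, q j) κ (m + 1) ≤ T1 := by omega
      rcases h4 with ⟨j, hj⟩ | ⟨j, hj1, hjm, hj⟩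
      · left
        exact ⟨q j, Finset.mem_image.2 ⟨j, Finset.mem_univ _, rfl⟩, by exact_mod_cast hj⟩
      · right
        obtain ⟨i0, rfl⟩ : ∃ i0, j = i0 + 1 := ⟨j - 1, by omega⟩
        refine ⟨i0, by omega, ?_⟩
        rw [Nat.add_sub_cancel] at hj
        have ha : Am (∏ j, q j) κ (i0 + 1) ≤ T1 :=
          le_trans (Am_mono (by omega)) hT1g
        have hdm := Nat.div_add_mod (T1 - Am (∏ j, q j) κ (i0 + 1)) (G κ (i0 + 1))
        have hlt := Nat.mod_lt (T1 - Am (∏ j, q j) κ (i0 + 1)) (G_pos (κ := κ) (i0 + 1))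
        set r := (T1 - Am (∏ j, q j) κ (i0 + 1)) % G κ (i0 + 1) with hr
        set d := (T1 - Am (∏ j, q j) κ (i0 + 1)) / G κ (i0 + 1) with hd
        have hz : (T1 : ℤ) - (Am (∏ j, q j) κ (i0 + 1) : ℤ) =
            (G κ (i0 + 1) : ℤ) * d + r := by
          have : (T1 : ℤ) - (Am (∏ j, q j) κ (i0 + 1) : ℤ) =
              ((T1 - Am (∏ j, q j) κ (i0 + 1) : ℕ) : ℤ) := by
            rw [Nat.cast_sub ha]
          rw [this, ← hdm]; push_cast; ring
        by_cases hc : r < (∏ j, q j) * G κ i0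
        · refine ⟨-(r : ℤ), ?_, ?_⟩
          · rw [abs_neg, abs_of_nonneg (by positivity)]
            show (r : ℤ) ≤ (((∏ j, q j) * G κ i0 : ℕ) : ℤ)
            exact_mod_cast hc.le
          · refine ⟨d, ?_⟩
            show (T1 : ℤ) - (Am (∏ j, q j) κ (i0 + 1) : ℤ) + -(r : ℤ) = (G κ (i0 + 1) : ℤ) * d
            rw [hz]; ring
        · have hc2 : G κ (i0 + 1) < r + (∏ j, q j) * G κ i0 := by
            by_contra hcon
            exact hj ⟨by omega, by omega⟩
          refine ⟨(G κ (i0 + 1) : ℤ) - r, ?_, ?_⟩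
          · rw [abs_of_nonneg (by
              have : (r : ℤ) < (G κ (i0 + 1) : ℤ) := by exact_mod_cast hlt
              linarith)]
            have : (G κ (i0 + 1) : ℤ) < r + (((∏ j, q j) * G κ i0 : ℕ) : ℤ) := by
              exact_mod_cast hc2
            show (G κ (i0 + 1) : ℤ) - r ≤ (((∏ j, q j) * G κ i0 : ℕ) : ℤ)
            linarith
          · refine ⟨d + 1, ?_⟩
            show (T1 : ℤ) - (Am (∏ j, q j) κ (i0 + 1) : ℤ) + ((G κ (i0 + 1) : ℤ) - r) =
              (G κ (i0 + 1) : ℤ) * (d + 1)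
            rw [hz]; ring
    · intro a _ b _ hab
      exact (Prod.mk.inj hab).2
  · have : (Finset.image q Finset.univ).card ≤ k := by
      refine le_trans Finset.card_image_le ?_
      rw [Finset.card_univ, Fintype.card_fin]
    omega

open Classical in
/-- semantic noise -/
noncomputable def sn {S V : Type} [AddCommGroup V] (act : V → S → V) (p : V × V → Prop) (s : S) :
    V := if h : ∃ x, p x then h.choose.2 - act h.choose.1 s else 0

/-- legal splits -/
def Lg {α V : Type} (lam rho : List α → Option V) (u : List α) (x : V × V) : Prop :=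
  ∃ P Q, P ++ Q = u ∧ lam P = some x.1 ∧ rho Q = some x.2

theorem gad (S V : Type) [Monoid S] [Finite S] [AddCommGroup V] [Finite V] (act : V → S → V) :
    ∃ C0 : ℕ, ∀ K : ℕ, ∃ (N1 La M0 : ℕ) (Bd : ℕ → Prop) (c : ℕ → ℕ), 0 < N1 ∧ 0 < M0 ∧
      (∀ i j, i < j → c i < c j) ∧
      (∀ k k' l l', k' ≠ k → l' ≠ l → c k + c l' < c l + c k' + 2 * N1 →
        c l + c k' < c k + c l' + 2 * N1 → k = l) ∧
      (∀ T T', La ≤ T → La ≤ T' → T % M0 = T' % M0 → Bd T → Bd T') ∧
      (∀ T, La + c K ≤ T → ∀ J : Finset ℕ, (∀ i ∈ J, i < K ∧ ∃ i', i' < K ∧ i' ≠ i ∧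
        Bd (T + c i' - c i)) → J.card ≤ C0) ∧
      ∀ (α : Type) (f : α → S), ∃ (lam rho : List α → Option V) (nu : List α → V),
        (∀ P v, lam P = some v → P.length ≤ N1) ∧
        (∀ P Q v b, lam P = some v → rho Q = some b →
          b = act v ((P ++ Q).map f).prod + nu (P ++ Q)) ∧
        (∀ u : List α, La ≤ u.length → ¬ Bd u.length → ∀ v, ∃ P Q, u = P ++ Q ∧
          lam P = some v ∧ (rho Q).isSome) ∧
        (∀ u u' : List α, La ≤ u.length → La ≤ u'.length → u.take La = u'.take La →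
          ((u.drop La).map f).prod = ((u'.drop La).map f).prod →
          u.length % M0 = u'.length % M0 → nu u = nu u') := by
  classical
  obtain ⟨k, m, hg⟩ := grid_gadget_reg S V act
  refine ⟨k + m, fun K => ?_⟩
  obtain ⟨q, hq, hinj⟩ := exists_primes k (2 ^ (K + 1))
  have hodd : ∀ j, Odd (q j) := fun j => (hq j).1.odd_of_ne_two (by
    have := (hq j).2
    have h3 : 2 ^ 1 ≤ 2 ^ (K + 1) := Nat.pow_le_pow_right (by norm_num) (by omega)
    omega)
  have hcop : Pairwise (fun i j => Nat.Coprime (q i) (q j)) := fun i j hij =>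
    (Nat.coprime_primes (hq i).1 (hq j).1).2 fun h => hij (hinj h)
  have hMq : 0 < ∏ j, q j := Finset.prod_pos fun j _ => (hq j).1.pos
  obtain ⟨κ, hκ, hκ1⟩ : ∃ κ, 2 ^ (K + 5) * (∏ j, q j) ≤ 2 ^ κ ∧ 1 ≤ κ :=
    ⟨2 ^ (K + 5) * (∏ j, q j), Nat.lt_two_pow_self.le, Nat.mul_pos (by positivity) hMq⟩
  have hgad := hg q hodd hcop κ
  obtain ⟨X, hX1, hX2, hX3⟩ := thin74 m K q hq κ hκ hκ1 (2 * (Am (∏ j, q j) κ m + 1) + 1)
  refine ⟨Am (∏ j, q j) κ m + 1, 2 * Am (∏ j, q j) κ (m + 1), (∏ j, q j) * G κ m,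
    Bad q κ m, fun i => X * 2 ^ i, by omega, Nat.mul_pos hMq (G_pos m), ?_, ?_, ?_, ?_, ?_⟩
  · intro i j hij
    exact Nat.mul_lt_mul_of_pos_left (Nat.pow_lt_pow_right (by norm_num) hij) hX2
  · intro a a' b b' ha hb h1 h2
    by_contra hne
    have := GridRuler_896.spaced (X := X) (N1 := 2 * (Am (∏ j, q j) κ m + 1)) (by omega)
      (a := a) (b := a') (c := b) (d := b') (Ne.symm ha) (Ne.symm hb)
      (fun h => hne (Prod.mk.inj h).1)
    simp only at h1 h2
    omega
  · intro T T' h1 h2 h3 h4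
    exact bad_congr q κ m (by omega) (by omega) h3 h4
  · intro T hT J hJ
    exact hX3 T (by simp only at hT; omega) J hJ
  · intro α f
    obtain ⟨lam, rho, nu, hl, hr, hex, hcp, hreg⟩ := hgad α (fun w => (w.map f).prod)
      (fun u v => by simp)
    have hnu : ∀ u x, Lg lam rho u x →
        sn act (Lg lam rho u) (u.map f).prod = nu u := by
      intro u x hx
      unfold sn
      have hex' : ∃ x, Lg lam rho u x := ⟨x, hx⟩
      rw [dif_pos hex']
      obtain ⟨P, Q, e, h1, h2⟩ := hex'.choose_spec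
      have := hex P Q _ _ h1 h2
      rw [e] at this
      rw [this]
      abel
    refine ⟨lam, rho, fun u => sn act (Lg lam rho u) (u.map f).prod, ?_, ?_, ?_, ?_⟩
    · intro P v h
      have := (hl P v h).1
      omega
    · intro P Q v b h1 h2
      have h3 := hnu (P ++ Q) (v, b) ⟨P, Q, rfl, h1, h2⟩
      simp only
      rw [h3]
      exact hex P Q v b h1 h2
    · intro u hu hb v
      refine hcp u hu ?_ ?_ v
      · intro j hj
        exact hb (Or.inl ⟨j, hj⟩)
      · intro j hj1 hjm
        by_contra hcon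
        exact hb (Or.inr ⟨j, hj1, hjm, hcon⟩)
    · have key : ∀ u u' : List α, 2 * Am (∏ j, q j) κ (m + 1) ≤ u.length →
          2 * Am (∏ j, q j) κ (m + 1) ≤ u'.length →
          u.take (2 * Am (∏ j, q j) κ (m + 1)) = u'.take (2 * Am (∏ j, q j) κ (m + 1)) →
          ((u.drop (2 * Am (∏ j, q j) κ (m + 1))).map f).prod =
            ((u'.drop (2 * Am (∏ j, q j) κ (m + 1))).map f).prod →
          u.length % ((∏ j, q j) * G κ m) = u'.length % ((∏ j, q j) * G κ m) →
          ∀ x, Lg lam rho u x → Lg lam rho u' x := by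
        intro u u' hu hu' ht hd hm x hx
        obtain ⟨P, Q, e, h1, h2⟩ := hx
        have hAm : Am (∏ j, q j) κ m ≤ Am (∏ j, q j) κ (m + 1) := Am_mono (by omega)
        have hP := (hl P _ h1).1
        generalize hA : Am (∏ j, q j) κ (m + 1) = A at *
        have hPu : P = u.take P.length := by rw [← e]; simp
        have hQu : Q = u.drop P.length := by rw [← e]; simp
        have hPu' : P = u'.take P.length := by
          have : u'.take P.length = (u'.take (2 * A)).take P.length := by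
            rw [List.take_take]; congr 1; omega
          rw [this, ← ht, List.take_take, show min P.length (2 * A) = P.length by omega]
          exact hPu
        refine ⟨P, u'.drop P.length, ?_, h1, ?_⟩
        · conv_lhs => rw [hPu']
          rw [List.length_take, show min P.length u'.length = P.length by omega]
          exact List.take_append_drop _ _
        · rw [← h2, hQu]
          symm
          apply hreg
          · rw [List.length_drop]; omega
          · rw [List.length_drop]; omega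
          · have e1 : ∀ w : List α, (w.drop P.length).take A =
                ((w.take (2 * A)).take (P.length + A)).drop P.length := by
              intro w
              rw [List.take_take, show min (P.length + A) (2 * A) = P.length + A by omega,
                List.drop_take, Nat.add_sub_cancel_left]
            rw [e1 u, e1 u', ht]
          · have e1 : ∀ w : List α, (w.drop P.length).drop A =
                (w.take (2 * A)).drop (P.length + A) ++ w.drop (2 * A) := by
              intro w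
              rw [List.drop_drop]
              conv_lhs => rw [← List.take_append_drop (2 * A) w]
              rw [List.drop_append]
              by_cases hw : 2 * A ≤ w.length
              · rw [List.length_take, show P.length + A - min (2 * A) w.length = 0 by omega,
                  List.drop_zero]
              · rw [List.drop_eq_nil_of_le (as := w) (i := 2 * A) (by omega), List.drop_nil]
            simp only [e1 u, e1 u', ht, List.map_append, List.prod_append, hd]
          · rw [List.length_drop, List.length_drop]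
            have : u.length - P.length + P.length ≡ u'.length - P.length + P.length
                [MOD (∏ j, q j) * G κ m] := by
              rw [Nat.sub_add_cancel (by omega), Nat.sub_add_cancel (by omega)]; exact hm
            exact Nat.ModEq.add_right_cancel' _ this
      intro u u' hu hu' ht hd hm
      have e1 : Lg lam rho u = Lg lam rho u' := by
        funext x
        exact propext ⟨key u u' hu hu' ht hd hm x, key u' u hu' hu ht.symm hd.symm hm.symm x⟩
      have e2 : (u.map f).prod = (u'.map f).prod := by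
        rw [← List.take_append_drop (2 * Am (∏ j, q j) κ (m + 1)) u,
          ← List.take_append_drop (2 * Am (∏ j, q j) κ (m + 1)) u', List.map_append,
          List.map_append, List.prod_append, List.prod_append, ht, hd]
      simp only
      rw [e1, e2]

end Crest.Agent.R320.Fin74
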