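import Crest.Agent.R320.JoinA_265
import Crest.Agent.R320.GridG_19
import Crest.Agent.R320.ExactR_237
import Crest.Agent.R320.LWallAll_922
import Crest.Agent.R320.Two_621

/-! Row 320, the join (helper265). -/

set_option autoImplicit false

namespace Crest.Agent.R320.FinJ265

open Crest.RegLang Crest.Agent.R320.Hk_851 Crest.Agent.R320.Blk467
open Crest.Agent.R320.P4_933 Crest.Agent.R320.Sc2n_937 Crest.Agent.R320.JoinA265

/-- grid sizes -/
def Gk (κ i : ℕ) : ℕ := 2 ^ (κ * i)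

theorem Gk_pos (κ i : ℕ) : 0 < Gk κ i := Nat.pow_pos (by norm_num)

theorem Gk_dvd (κ : ℕ) {i j : ℕ} (h : i ≤ j) : Gk κ i ∣ Gk κ j :=
  Nat.pow_dvd_pow 2 (Nat.mul_le_mul_left κ h)

theorem grow (K m M : ℕ) (i : ℕ) (hi : i < m) :
    2 ^ (K + 4) * ∑ j ∈ Finset.range (i + 1), M * Gk (2 ^ (K + 4) * M * (m + 1)) j ≤
      Gk (2 ^ (K + 4) * M * (m + 1)) (i + 1) := by
  set κ := 2 ^ (K + 4) * M * (m + 1) with hκ
  have h1 : ∑ j ∈ Finset.range (i + 1), M * Gk κ j ≤ (i + 1) * (M * Gk κ i) := by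
    have := Finset.sum_le_card_nsmul (Finset.range (i + 1)) (fun j => M * Gk κ j) (M * Gk κ i)
      (fun j hj => Nat.mul_le_mul_left M (Nat.le_of_dvd (Gk_pos κ i)
        (Gk_dvd κ (by have := Finset.mem_range.1 hj; omega))))
    simpa using this
  have h2 : (i + 1) * (M * Gk κ i) ≤ (m + 1) * (M * Gk κ i) :=
    Nat.mul_le_mul_right _ (by omega)
  have h3 : κ ≤ 2 ^ κ := Nat.lt_two_pow_self.le
  have h4 : Gk κ (i + 1) = 2 ^ κ * Gk κ i := by
    unfold Gk
    rw [← pow_add]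
    congr 1
    ring
  rw [h4]
  calc 2 ^ (K + 4) * ∑ j ∈ Finset.range (i + 1), M * Gk κ j
      ≤ 2 ^ (K + 4) * ((m + 1) * (M * Gk κ i)) := Nat.mul_le_mul_left _ (h1.trans h2)
    _ = κ * Gk κ i := by rw [hκ]; ring
    _ ≤ 2 ^ κ * Gk κ i := Nat.mul_le_mul_right _ h3

/-- bad totals -/
def Bd (Ms : Finset ℕ) (m : ℕ) (G Am : ℕ → ℕ) (T : ℤ) : Prop :=
  Thin963.BadT Ms m (fun i => (G i : ℤ)) (fun i => (((∏ q ∈ Ms, q) * G i : ℕ) : ℤ))
    (fun i => (Am i : ℤ)) T

theorem ruler (K m : ℕ) (Ms : Finset ℕ) (hMs : ∀ q ∈ Ms, q.Prime ∧ 2 ^ (K + 1) < q)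
    (κ : ℕ) (hκ : κ = 2 ^ (K + 4) * (∏ q ∈ Ms, q) * (m + 1)) (Am : ℕ → ℕ) (N1 : ℕ) :
    ∃ X : ℕ, 2 * N1 ≤ X ∧ 0 < X ∧ ∀ (T : ℕ) (J : Finset ℕ),
      (∀ k ∈ J, k < K ∧ ∃ k', k' < K ∧ k' ≠ k ∧
        Bd Ms m (Gk κ) Am ((T : ℤ) + (X * 2 ^ k' : ℕ) - (X * 2 ^ k : ℕ))) →
      J.card ≤ Ms.card + m := by
  classical
  have hq2 : ∀ q ∈ Ms, q ≠ 2 := by
    intro q hq h
    have := (hMs q hq).2
    have h2 : 2 ^ 1 ≤ 2 ^ (K + 1) := Nat.pow_le_pow_right (by norm_num) (by omega)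
    omega
  have hcop : ∀ q ∈ Ms, ∀ i, Nat.Coprime q (Gk κ i) := by
    intro q hq i
    exact Nat.Coprime.pow_right _ ((Nat.coprime_primes (hMs q hq).1 Nat.prime_two).2 (hq2 q hq))
  have hM0 : 0 < ∏ q ∈ Ms, q := Finset.prod_pos fun q hq => (hMs q hq).1.pos
  obtain ⟨X, h1, h2, h3⟩ := Thin963.thin K m Ms (fun i => (Gk κ i : ℤ))
    (fun i => (((∏ q ∈ Ms, q) * Gk κ i : ℕ) : ℤ)) (fun i => (Am i : ℤ))
    (fun q hq => ⟨(hMs q hq).1, (hMs q hq).2.le⟩)
    (fun q hq => Nat.isCoprime_iff_coprime.2 (hcop q hq m))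
    (by exact_mod_cast Gk_pos κ m)
    (fun i j hij => by exact_mod_cast Gk_dvd κ hij)
    (fun i => by exact_mod_cast Nat.mul_pos hM0 (Gk_pos κ i))
    (fun i => by exact_mod_cast Dvd.intro_left _ rfl)
    (fun i hi => by
      have := grow K m (∏ q ∈ Ms, q) i hi
      rw [← hκ] at this
      exact_mod_cast this) ((2 * N1 : ℕ) : ℤ)
  refine ⟨X.toNat, by omega, by omega, ?_⟩
  have hX : ((X.toNat : ℕ) : ℤ) = X := Int.toNat_of_nonneg h2.le
  intro T J hJ
  refine le_trans ?_ (h3 T)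
  have hsub : J ⊆ (((Finset.range K) ×ˢ (Finset.range K)).filter (fun p => p.1 ≠ p.2 ∧
        Thin963.BadT Ms m (fun i => (Gk κ i : ℤ))
    (fun i => (((∏ q ∈ Ms, q) * Gk κ i : ℕ) : ℤ)) (fun i => (Am i : ℤ))
          (T + X * 2^p.1 - X * 2^p.2))).image Prod.snd := by
    intro k hk
    obtain ⟨hkK, k', hk'K, hne, hb⟩ := hJ k hk
    refine Finset.mem_image.2 ⟨(k', k), Finset.mem_filter.2 ⟨Finset.mem_product.2
      ⟨Finset.mem_range.2 hk'K, Finset.mem_range.2 hkK⟩, hne, ?_⟩, rfl⟩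
    have : (T : ℤ) + (X.toNat * 2 ^ k' : ℕ) - (X.toNat * 2 ^ k : ℕ) =
        T + X * 2 ^ k' - X * 2 ^ k := by
      push_cast
      rw [hX]
    rw [← this]
    exact hb
  exact (Finset.card_le_card hsub).trans Finset.card_image_le

theorem bd_congr (Ms : Finset ℕ) (m κ : ℕ) (Am : ℕ → ℕ) {T T' : ℕ}
    (h : T ≡ T' [MOD (∏ q ∈ Ms, q) * Gk κ m]) :
    Bd Ms m (Gk κ) Am T ↔ Bd Ms m (Gk κ) Am T' := by
  have key : ∀ {T T' : ℕ}, T ≡ T' [MOD (∏ q ∈ Ms, q) * Gk κ m] →
      Bd Ms m (Gk κ) Am T → Bd Ms m (Gk κ) Am T' := by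
    intro T T' h hb
    have hd : (((∏ q ∈ Ms, q) * Gk κ m : ℕ) : ℤ) ∣ (T' : ℤ) - T := (Nat.modEq_iff_dvd.1 h)
    rcases hb with ⟨q, hq, hqT⟩ | ⟨i, hi, e, he, hG⟩
    · left
      refine ⟨q, hq, ?_⟩
      have h1 : (q : ℤ) ∣ (((∏ q ∈ Ms, q) * Gk κ m : ℕ) : ℤ) := by
        exact_mod_cast Dvd.dvd.mul_right (Finset.dvd_prod_of_mem _ hq) _
      have h2 := dvd_add hqT (h1.trans hd)
      have h3 : (T : ℤ) + (T' - T) = T' := by ring
      rw [h3] at h2
      exact h2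
    · right
      refine ⟨i, hi, e, he, ?_⟩
      have h1 : (Gk κ (i + 1) : ℤ) ∣ (((∏ q ∈ Ms, q) * Gk κ m : ℕ) : ℤ) := by
        exact_mod_cast Dvd.dvd.mul_left (Gk_dvd κ hi) _
      have h2 := dvd_add hG (h1.trans hd)
      have h3 : (T : ℤ) - (Am (i + 1) : ℤ) + e + (T' - T) = T' - (Am (i + 1) : ℤ) + e := by ring
      rw [h3] at h2
      exact h2
  exact ⟨key h, key h.symm⟩

theorem clean (Ms : Finset ℕ) (m κ A0 : ℕ) {T : ℕ}
    (hT : GridG_19.Am (Gk κ) (∏ q ∈ Ms, q) A0 m ≤ T)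
    (hb : ¬ Bd Ms m (Gk κ) (GridG_19.Am (Gk κ) (∏ q ∈ Ms, q) A0) T) :
    (∀ q ∈ Ms, ¬ q ∣ T) ∧ ¬ GridG_19.BadG (Gk κ) (∏ q ∈ Ms, q) A0 m T := by
  constructor
  · intro q hq h
    exact hb (Or.inl ⟨q, hq, by exact_mod_cast h⟩)
  · rintro ⟨k, hk, h⟩
    apply hb
    right
    refine ⟨k, hk, ?_⟩
    set A := GridG_19.Am (Gk κ) (∏ q ∈ Ms, q) A0 (k + 1) with hA
    have hAT : A ≤ T := (GridG_19.Am_mono _ _ _ (by omega)).trans hT
    set r := (T - A) % Gk κ (k + 1) with hr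
    have hG := Gk_pos κ (k + 1)
    have hr1 : r < Gk κ (k + 1) := Nat.mod_lt _ hG
    have hdm : Gk κ (k + 1) * ((T - A) / Gk κ (k + 1)) + r = T - A := Nat.div_add_mod _ _
    obtain ⟨D, hD⟩ : ∃ D, D = (T - A) / Gk κ (k + 1) := ⟨_, rfl⟩
    rw [← hD] at hdm
    have hdm' : (Gk κ (k + 1) : ℤ) * (D : ℤ) + r = T - A := by
      have := congrArg (fun n : ℕ => (n : ℤ)) hdm
      push_cast [Nat.cast_sub hAT] at this
      exact this
    rcases h with h | h
    · refine ⟨-(r : ℤ), ?_, ?_⟩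
      · rw [abs_neg, abs_of_nonneg (by positivity)]
        show (r : ℤ) ≤ (((∏ q ∈ Ms, q) * Gk κ k : ℕ) : ℤ)
        exact_mod_cast h.le
      · refine ⟨(D : ℤ), ?_⟩
        show (T : ℤ) - (A : ℤ) + -(r : ℤ) = (Gk κ (k + 1) : ℤ) * (D : ℤ)
        linarith
    · refine ⟨(Gk κ (k + 1) : ℤ) - r, ?_, ?_⟩
      · rw [abs_of_nonneg (by have : (r : ℤ) < Gk κ (k + 1) := by exact_mod_cast hr1
                              linarith)]
        have : (Gk κ (k + 1) : ℤ) ≤ r + (((∏ q ∈ Ms, q) * Gk κ k : ℕ) : ℤ) := by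
          exact_mod_cast h
        show (Gk κ (k + 1) : ℤ) - r ≤ (((∏ q ∈ Ms, q) * Gk κ k : ℕ) : ℤ)
        linarith
      · refine ⟨(D : ℤ) + 1, ?_⟩
        show (T : ℤ) - (A : ℤ) + ((Gk κ (k + 1) : ℤ) - r) = (Gk κ (k + 1) : ℤ) * ((D : ℤ) + 1)
        linarith

/-- finite-state noise of the whole zone -/
theorem nu_fs {α S V : Type} [Monoid S] (φ : α → S) (act : V → S → V) [Add V]
    (p0 Ac M0 : ℕ) (nu1 n2 : List α → V)
    (h5 : ∀ Y Y' : List α, Ac ≤ Y.length → Ac ≤ Y'.length → Y.take Ac = Y'.take Ac →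
      Y.length ≡ Y'.length [MOD M0] → (Y.map φ).prod = (Y'.map φ).prod → nu1 Y = nu1 Y')
    {A : ℕ} (hA : p0 + Ac ≤ A) {u u' : List α} (h1 : A ≤ u.length) (h2 : A ≤ u'.length)
    (ht : u.take A = u'.take A) (hl : u.length % M0 = u'.length % M0)
    (hp : ((u.drop A).map φ).prod = ((u'.drop A).map φ).prod) :
    (u.map φ).prod = (u'.map φ).prod ∧
    act (n2 (u.take p0)) ((u.drop p0).map φ).prod + nu1 (u.drop p0) =
    act (n2 (u'.take p0)) ((u'.drop p0).map φ).prod + nu1 (u'.drop p0) := by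
  have e1 : ∀ w : List α, A ≤ w.length → w.take p0 = (w.take A).take p0 := by
    intro w hw
    rw [List.take_take, Nat.min_eq_left (by omega)]
  have e2 : ∀ w : List α, A ≤ w.length → w.drop p0 = (w.take A).drop p0 ++ w.drop A := by
    intro w hw
    conv_lhs => rw [← List.take_append_drop A w]
    rw [List.drop_append_of_le_length (by rw [List.length_take]; omega)]
  have e3 : ∀ w : List α, (w.map φ).prod = ((w.take A).map φ).prod * ((w.drop A).map φ).prod := by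
    intro w
    conv_lhs => rw [← List.take_append_drop A w]
    rw [List.map_append, List.prod_append]
  have e4 : ((u.drop p0).map φ).prod = ((u'.drop p0).map φ).prod := by
    rw [e2 u h1, e2 u' h2, List.map_append, List.map_append, List.prod_append, List.prod_append,
      ht, hp]
  refine ⟨by rw [e3 u, e3 u', ht, hp], ?_⟩
  have e5 : nu1 (u.drop p0) = nu1 (u'.drop p0) := by
    refine h5 _ _ (by rw [List.length_drop]; omega) (by rw [List.length_drop]; omega) ?_ ?_ e4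
    · rw [e2 u h1, e2 u' h2, ht,
        List.take_append_of_le_length (by rw [List.length_drop, List.length_take]; omega),
        List.take_append_of_le_length (by rw [List.length_drop, List.length_take]; omega)]
    · rw [List.length_drop, List.length_drop]
      have h6 : (u.length - p0) + p0 ≡ (u'.length - p0) + p0 [MOD M0] := by
        rw [Nat.sub_add_cancel (by omega), Nat.sub_add_cancel (by omega)]
        exact hl
      exact Nat.ModEq.add_right_cancel' _ h6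
  rw [e4, e5, e1 u h1, e1 u' h2, ht]


theorem fin (α : Type) [Finite α] (S : Type) [Monoid S] [Finite S] (φ : α → S) (s : S) :
    HL 3 ({w | (w.map φ).prod = s} : Language α) := by
  classical
  haveI : Fintype S := Fintype.ofFinite S
  let act : (S → ZMod 2) → S → (S → ZMod 2) := fun f t => Two_621.act f t
  obtain ⟨m, r, H1⟩ := GridG_19.grid S (S → ZMod 2) act
  obtain ⟨K, HE⟩ := ExactR_237.exact_gadget α S (S → ZMod 2) φ act (2 * (r + m) + 2)
  obtain ⟨Ms, hcard, hpr, H2⟩ := H1 (2 ^ (K + 1))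
  set M := ∏ q ∈ Ms, q with hM
  have hM0 : 0 < M := Finset.prod_pos fun q hq => (hpr q hq).1.pos
  obtain ⟨κ, hκ⟩ : ∃ κ, κ = 2 ^ (K + 4) * M * (m + 1) := ⟨_, rfl⟩
  have hcop : ∀ k, Nat.Coprime M (Gk κ k) := by
    intro k
    refine Nat.Coprime.prod_left fun q hq => ?_
    refine Nat.Coprime.pow_right _ ((Nat.coprime_primes (hpr q hq).1 Nat.prime_two).2 ?_)
    have := (hpr q hq).2
    have h2 : 2 ^ 1 ≤ 2 ^ (K + 1) := Nat.pow_le_pow_right (by norm_num) (by omega)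
    omega
  have hpf : ∀ u v : List α, ((u ++ v).map φ).prod = (u.map φ).prod * (v.map φ).prod := by
    intro u v
    rw [List.map_append, List.prod_append]
  obtain ⟨lam1, rho1, nu1, g1, g2, g3, g4, g5⟩ := H2 (Gk κ) 1 (Gk_pos κ)
    (fun a b hab => Gk_dvd κ hab) hcop α (fun w => (w.map φ).prod) hpf
  set Am := GridG_19.Am (Gk κ) M 1 with hAm
  set Ac := GridG_19.Ac (Gk κ) M 1 m with hAc
  obtain ⟨N1, hN1⟩ : ∃ N1, N1 = Am m + 1 := ⟨_, rfl⟩
  obtain ⟨X, hX1, hX0, hthin⟩ := ruler K m Ms hpr κ hκ Am N1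
  let c : ℕ → ℕ := fun j => X * 2 ^ j
  have hcmono : ∀ i j, i < j → c i < c j := by
    intro i j hij
    exact Nat.mul_lt_mul_of_pos_left (Nat.pow_lt_pow_right (by norm_num) hij) hX0
  obtain ⟨lam2, rho2, nu2, e1, e2⟩ := HE c (fun i j hij _ => hcmono i j hij)
  obtain ⟨p0, hp0⟩ : ∃ p0, p0 = c K := ⟨_, rfl⟩
  have hcp : ∀ k, k < K → c k ≤ p0 := by
    intro k hk
    rw [hp0]
    exact (hcmono k K hk).le
  obtain ⟨n, Gw, B, Wo, hLW, hsep, -, -, hfree⟩ :=
    LWallAll_922.walls_all_left α (2 * p0 + 2 * N1 + 1) (by omega)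
  obtain ⟨q0, hq0⟩ : ∃ q0, q0 = n + 2 * p0 + 2 * Am m + M + Ac + 1 := ⟨_, rfl⟩
  let g : Geo α :=
    { Wo := Wo, n := n, z := p0 + N1 + q0, p0 := p0, q0 := q0, N1 := N1
      loc := fun P Q h => hLW.app P Q h
      hz := rfl
      hq := by omega
      hN := by omega
      hqp := by omega }
  let BadN : ℕ → Prop := fun T => Bd Ms m (Gk κ) Am (T : ℤ)
  let pf : List α → S := fun w => (w.map φ).prod
  let pre : List α → (S → ZMod 2) → (S → ZMod 2) := fun X0 v => act v (pf X0) + nu2 X0 1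
  let post : (S → ZMod 2) → List α → (S → ZMod 2) := fun u Y => act u (pf Y) + nu1 Y
  let nu : List α → (S → ZMod 2) := fun X => act (nu2 (X.take p0) 1) (pf (X.drop p0)) +
    nu1 (X.drop p0)
  have hact_mul : ∀ (v : S → ZMod 2) (s t : S), act v (s * t) = act (act v s) t :=
    fun v s t => (Two_621.act_mul v s t).symm
  have hact_add : ∀ (a b : S → ZMod 2) (s : S), act (a + b) s = act a s + act b s :=
    fun a b s => Two_621.act_add a b s
  have hT : ∀ v X, act v (X.map φ).prod + nu X = g.T pre post v X := by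
    intro v X
    show act v (X.map φ).prod + (act (nu2 (X.take p0) 1) (pf (X.drop p0)) + nu1 (X.drop p0)) =
      act (act v (pf (X.take p0)) + nu2 (X.take p0) 1) (pf (X.drop p0)) + nu1 (X.drop p0)
    have h0 : (X.map φ).prod = pf (X.take p0) * pf (X.drop p0) := by
      show _ = ((X.take p0).map φ).prod * ((X.drop p0).map φ).prod
      rw [← hpf, List.take_append_drop]
    rw [h0, hact_mul, hact_add, add_assoc]
  -- scheme 1
  have hlen1 : ∀ P v, lam1 P = some v → P.length ≤ g.N1 := by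
    intro P v h
    have := (g2 P v h).2
    show P.length ≤ N1
    omega
  have hex1 : ∀ P Q u b, lam1 P = some u → rho1 Q = some b → b = post u (P ++ Q) :=
    fun P Q u b h1 h2 => g1 P Q u b h1 h2
  -- scheme 2
  have hex2 : ∀ k, k < K → ∀ P Q v u, P.length = c k → Q.length = g.p0 - c k →
      lam2 k P = some v → rho2 k Q 1 = some u → u = pre (P ++ Q) v := by
    intro k hk P Q v u hP _ h1 h2
    have := e1 k hk P Q 1 v u hP h1 h2
    rw [mul_one] at this
    exact this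
  have hgap : ∀ P Q : List α, g.Wo P → g.Wo (P ++ Q) → Q ≠ [] →
      2 * g.p0 + 2 * g.N1 < Q.length := by
    intro P Q h1 h2 h3
    have hQ : 0 < Q.length := List.length_pos_iff.2 h3
    have := hsep (P ++ Q) P.length (P ++ Q).length (by simp; omega) le_rfl
      (by rw [List.take_left]; exact h1) (by rw [List.take_length]; exact h2)
    rw [List.length_append] at this
    show 2 * p0 + 2 * N1 < Q.length
    omega
  have hsp : ∀ k k' l l', k < K → k' < K → l < K → l' < K → k' ≠ k → l' ≠ l →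
      c k + c l' < c l + c k' + 2 * g.N1 → c l + c k' < c k + c l' + 2 * g.N1 → k = l := by
    intro k k' l l' _ _ _ _ hkk hll h1 h2
    have h1' : X * 2 ^ k + X * 2 ^ l' < X * 2 ^ l + X * 2 ^ k' + 2 * N1 := h1
    have h2' : X * 2 ^ l + X * 2 ^ k' < X * 2 ^ k + X * 2 ^ l' + 2 * N1 := h2
    have heq : 2 ^ k + 2 ^ l' = 2 ^ l + 2 ^ k' := by
      rcases lt_trichotomy (2 ^ k + 2 ^ l') (2 ^ l + 2 ^ k') with h | h | h
      · exfalso
        have h3 : X * (2 ^ k + 2 ^ l' + 1) ≤ X * (2 ^ l + 2 ^ k') := Nat.mul_le_mul_left X h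
        have h4 : X * (2 ^ k + 2 ^ l' + 1) = X * 2 ^ k + X * 2 ^ l' + X := by ring
        have h5 : X * (2 ^ l + 2 ^ k') = X * 2 ^ l + X * 2 ^ k' := by ring
        omega
      · exact h
      · exfalso
        have h3 : X * (2 ^ l + 2 ^ k' + 1) ≤ X * (2 ^ k + 2 ^ l') := Nat.mul_le_mul_left X h
        have h4 : X * (2 ^ l + 2 ^ k' + 1) = X * 2 ^ l + X * 2 ^ k' + X := by ring
        have h5 : X * (2 ^ k + 2 ^ l') = X * 2 ^ k + X * 2 ^ l' := by ring
        omega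
    have h6 := G369.pow_diff (i := k) (j := k') (i' := l) (j' := l') (Ne.symm hkk) (Ne.symm hll)
      (by
        have : ((2 ^ k + 2 ^ l' : ℕ) : ℤ) = ((2 ^ l + 2 ^ k' : ℕ) : ℤ) := by rw [heq]
        push_cast at this
        linarith)
    exact h6.1
  have hth : ∀ τ, g.z ≤ τ + g.p0 → ∀ J : Finset ℕ, (∀ k ∈ J, k < K ∧
      ∃ k', k' < K ∧ k' ≠ k ∧ BadN (τ + c k' - c k - g.p0)) → J.card ≤ r + m := by
    intro τ hτ J hJ
    have hτ' : p0 + N1 + q0 ≤ τ + p0 := hτ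
    refine (hthin (τ - p0) J ?_).trans (by omega)
    intro k hk
    obtain ⟨hkK, k', hk'K, hne, hb⟩ := hJ k hk
    refine ⟨hkK, k', hk'K, hne, ?_⟩
    have hb' : Bd Ms m (Gk κ) Am ((τ + c k' - c k - p0 : ℕ) : ℤ) := hb
    have h1 := hcp k hkK
    have h2 : ((τ + c k' - c k - p0 : ℕ) : ℤ) = ((τ - p0 : ℕ) : ℤ) + (c k' : ℕ) - (c k : ℕ) := by
      omega
    rw [h2] at hb'
    exact hb'
  -- block code
  have hCode : PCode {X | g.XX X} := by
    refine ⟨fun h => ?_, fun X hX Y hY hXY => ?_⟩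
    · have := h.1
      have h' : p0 + N1 + q0 ≤ ([] : List α).length := this
      simp at h'
      omega
    · obtain ⟨t, ht⟩ := hXY
      exact g.prefix_code (R := t) (R' := []) hX hY (by rw [List.append_nil]; exact ht)
  have hfree' : ∀ u : List α, (∀ t < u.length, ¬ Wo (u.take t)) →
      u ∈ (BddReg_746.PN (max B (2 * p0 + 2 * N1 + 1)) 2 : Language α) := by
    intro u hu
    obtain ⟨a, x, b, k, ha, hx, hb, rfl⟩ := hfree u hu
    refine Language.mem_mul.2 ⟨a ++ BddReg_746.pw x k, ⟨a, x, k, ha.trans (le_max_left _ _),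
      hx.trans (le_max_right _ _), rfl⟩, b, ?_, rfl⟩
    refine Language.mem_mul.2 ⟨b, ⟨b, [], 0, hb.trans (le_max_left _ _), by simp, by simp⟩, [],
      rfl, by simp⟩
  have hXXiff : ∀ X : List α, g.XX X ↔ XX Wo (p0 + N1 + q0) X := by
    intro X
    constructor
    · rintro ⟨h1, h2, h3⟩
      exact ⟨h2, h1, fun t ht hz => h3 t hz ht⟩
    · rintro ⟨h1, h2, h3⟩
      exact ⟨h2, h1, fun t hz ht => h3 t ht hz⟩
  have hM00 : 0 < M * Gk κ m := Nat.mul_pos hM0 (Gk_pos κ m)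
  obtain ⟨A, hA⟩ : ∃ A, A = p0 + N1 + q0 + N1 + p0 + Ac := ⟨_, rfl⟩
  have hfs : ∀ u u' : List α, A ≤ u.length → A ≤ u'.length → u.take A = u'.take A →
      u.length % (M * Gk κ m) = u'.length % (M * Gk κ m) →
      ((u.drop A).map φ).prod = ((u'.drop A).map φ).prod →
      (u.map φ).prod = (u'.map φ).prod ∧ nu u = nu u' := by
    intro u u' h1 h2 h3 h4 h5
    exact nu_fs φ act p0 Ac (M * Gk κ m) nu1 (fun X => nu2 X 1) g5 (by omega) h1 h2 h3 h4 h5
  refine Top5_120.top5 act hact_add (fun v => Two_621.act_one v) hact_mul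
    (fun s t h => Two_621.act_faithful h) φ nu {X | g.XX X} {X | g.XX X ∧ g.BadX BadN X} hCode
    (fun X hX => hX.1) (fun v => {P | g.LP1 pre lam1 v P}) (fun v => {P | Geo.LP2 K c lam2 v P})
    ?_ ?_ ?_ ?_ ?_ ?_ ?_ s
  · intro v
    refine (List.finite_length_le α (p0 + N1)).subset ?_
    rintro P ⟨h1, h2⟩
    have h3 := hlen1 _ _ h2
    have h1' : p0 ≤ P.length := h1
    have h3' : (P.drop p0).length ≤ N1 := h3
    rw [List.length_drop] at h3'
    show P.length ≤ p0 + N1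
    omega
  · intro v
    refine (List.finite_length_le α p0).subset ?_
    rintro P ⟨k, hk, hl, -⟩
    show P.length ≤ p0
    rw [hl]
    exact hcp k hk
  · intro x y
    refine (hl_XX (z := p0 + N1 + q0) (f := fun X => act x (X.map φ).prod + nu X = y)
      hLW.app hLW.len hfree' (regular' φ A (M * Gk κ m) hM00 _ ?_)).congr fun w => ?_
    · intro u u' h1 h2 h3 h4 h5
      obtain ⟨h6, h7⟩ := hfs u u' h1 h2 h3 h4 h5
      rw [h6, h7]
    · constructor
      · rintro ⟨h1, h2⟩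
        exact ⟨(hXXiff w).1 h1, h2⟩
      · rintro ⟨h1, h2⟩
        exact ⟨(hXXiff w).2 h1, h2⟩
  · intro x y
    refine (hl_XX (z := p0 + N1 + q0)
      (f := fun X => g.BadX BadN X ∧ act x (X.map φ).prod + nu X = y)
      hLW.app hLW.len hfree' (regular' φ A (M * Gk κ m) hM00 _ ?_)).congr fun w => ?_
    · intro u u' h1 h2 h3 h4 h5
      obtain ⟨h6, h7⟩ := hfs u u' h1 h2 h3 h4 h5
      rw [h6, h7]
      have hbad : ∀ {u u' : List α}, A ≤ u.length → A ≤ u'.length → u.take A = u'.take A →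
          u.length % (M * Gk κ m) = u'.length % (M * Gk κ m) → g.BadX BadN u →
          g.BadX BadN u' := by
        intro u u' h1 h2 h3 h4 hb
        rcases hb with ⟨t, ht, hw, h8, h9⟩ | hb
        · left
          have h9' : t < p0 + N1 + q0 + N1 := h9
          refine ⟨t, by omega, ?_, h8, h9⟩
          have h10 : ∀ w : List α, w.take t = (w.take A).take t := by
            intro w
            rw [List.take_take, Nat.min_eq_left (by omega)]
          rw [h10, ← h3, ← h10]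
          exact hw
        · right
          have h11 : (u.length - p0) + p0 ≡ (u'.length - p0) + p0 [MOD M * Gk κ m] := by
            rw [Nat.sub_add_cancel (by omega), Nat.sub_add_cancel (by omega)]
            exact h4
          exact (bd_congr Ms m κ Am (Nat.ModEq.add_right_cancel' _ h11)).1 hb
      constructor
      · rintro ⟨a, b⟩; exact ⟨hbad h1 h2 h3 h4 a, b⟩
      · rintro ⟨a, b⟩; exact ⟨hbad h2 h1 h3.symm h4.symm a, b⟩
    · constructor
      · rintro ⟨⟨h1, h1'⟩, h2⟩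
        exact ⟨(hXXiff w).1 h1, h1', h2⟩
      · rintro ⟨h1, h1', h2⟩
        exact ⟨⟨(hXXiff w).2 h1, h1'⟩, h2⟩
  · intro s
    refine (hl_NB (z := p0 + N1 + q0) (f := fun X => (X.map φ).prod = s)
      hLW.app hLW.len hfree' (regular' φ A (M * Gk κ m) hM00 _ ?_)).congr fun w => ?_
    · intro u u' h1 h2 h3 h4 h5
      obtain ⟨h6, h7⟩ := hfs u u' h1 h2 h3 h4 h5
      rw [h6]
    · constructor
      · rintro ⟨h1, h2⟩
        exact ⟨(NB_iff _ _ _).2 fun P hP hX => h1 P ((hXXiff P).2 hX) hP, h2⟩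
      · rintro ⟨h1, h2⟩
        exact ⟨fun P hX hP => (NB_iff _ _ _).1 h1 P hP ((hXXiff P).1 hX), h2⟩
  · intro X hX hXb v
    have hnb : ¬ g.BadX BadN X := fun h => hXb ⟨hX, h⟩
    have hXz : p0 + N1 + q0 ≤ X.length := hX.1
    have hcl := clean Ms m κ 1 (T := X.length - p0) (by
      show Am m ≤ _
      omega) (fun h => hnb (Or.inr h))
    obtain ⟨P, Q, a1, a2, a3⟩ := cc1 g (pre := pre) (post := post) hlen1 hex1 hX
      (fun h => hnb (Or.inl h)) (fun u => by
        obtain ⟨P, Q, b1, b2, b3⟩ := g4 (X.drop p0) (by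
            rw [List.length_drop]; show 2 * Am m ≤ _; omega)
          (by rw [List.length_drop]; omega)
          (by rw [List.length_drop]; exact hcl.1) (by rw [List.length_drop]; exact hcl.2) u
        exact ⟨P, Q, b1.symm, b2, b3⟩) v
    refine ⟨P, Q, a1, a2, fun x P' hP' => ?_⟩
    obtain ⟨c1, c2⟩ := a3 x P' hP'
    refine ⟨c1, ?_⟩
    rw [hT, hT]
    exact c2
  · rintro X ⟨hX, hXb⟩ Y ⟨hY, -⟩ v
    have hXz : p0 + N1 + q0 ≤ X.length := hX.1
    have hI : ∃ I : Finset ℕ, 2 * (r + m) + 2 ≤ I.card ∧ ∀ k ∈ I, k < K ∧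
        lam2 k (X.take (c k)) = some v ∧
        ((fun k Q => rho2 k Q 1) k ((X.take g.p0).drop (c k))).isSome := by
      obtain ⟨I, hIc, hI⟩ := e2 (X.take p0) 1 v (fun k hk => by
        rw [List.length_take]
        have := hcp k hk
        omega)
      refine ⟨I, hIc, fun k hk => ?_⟩
      obtain ⟨d1, d2, d3⟩ := hI k hk
      refine ⟨d1, ?_, d3⟩
      rw [List.take_take, Nat.min_eq_left (hcp k d1)] at d2
      exact d2
    obtain ⟨P, Q, a1, a2, a3⟩ := cc2 g (pre := pre) (post := post) (BadT := BadN) (K := K) (c := c)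
      (lam2 := lam2) (rho2 := fun k Q => rho2 k Q 1) (C0 := r + m)
      (fun k k' _ _ h => by
        rcases lt_trichotomy k k' with h1 | h1 | h1
        · exact absurd h (hcmono k k' h1).ne
        · exact h1
        · exact absurd h (hcmono k' k h1).ne')
      hcp hex2 hgap hsp hth hX hXb hY v hI
    refine ⟨P, Q, a1, a2, fun x P' hP' => ?_⟩
    rcases a3 x P' hP' with ⟨X', hX', Y', hY', f1, f2⟩ | ⟨X', h1, h2, h3⟩
    · left
      refine ⟨X', hX', Y', hY', f1, ?_⟩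
      rw [hT, hT, hT, hT]
      exact f2
    · right
      exact ⟨X', h1, h2, h3⟩

end Crest.Agent.R320.FinJ265
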