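import Crest.Agent.R320.SemTop_727
import Crest.Agent.R320.Joint_47
import Crest.Agent.R320.P4_440
import Crest.Agent.R320.Two_621
import Crest.Agent.R320.WallU_228
import Crest.Agent.R320.ExactR_237
import Crest.Agent.R320.Grid_899
import Crest.Agent.R320.Thin_963

/-!
# Row 320: ruler for the grid gadget, finite-state noise (helper635)
-/

set_option autoImplicit false

namespace Crest.Agent.R320.FinJ_635

open Crest.Agent.R320.Grid_899 (G Am)

/-- bad lengths of the grid gadget -/
def BadN {k : ℕ} (q : Fin k → ℕ) (κ m : ℕ) (T : ℕ) : Prop :=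
  (∃ j, q j ∣ T) ∨ ∃ j, 1 ≤ j ∧ j ≤ m ∧
    ¬ ((∏ j, q j) * G κ (j - 1) ≤ (T - Am (∏ j, q j) κ j) % G κ j ∧
      (T - Am (∏ j, q j) κ j) % G κ j + (∏ j, q j) * G κ (j - 1) ≤ G κ j)

theorem primes (k B : ℕ) : ∃ q : Fin k → ℕ, (∀ j, (q j).Prime ∧ B + 2 ≤ q j) ∧
    Function.Injective q := by
  refine ⟨fun j => Nat.nth Nat.Prime (B + j), fun j => ⟨Nat.prime_nth_prime _, ?_⟩, ?_⟩
  · have h1 := Nat.add_two_le_nth_prime (B + j)
    show B + 2 ≤ Nat.nth Nat.Prime (B + j)
    omega
  · intro i j h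
    have := Nat.nth_injective Nat.infinite_setOfPred_prime h
    exact Fin.ext (by omega)

theorem Am_mono (Ms κ : ℕ) {i j : ℕ} (h : i ≤ j) : Am Ms κ i ≤ Am Ms κ j := by
  induction j, h using Nat.le_induction with
  | base => exact le_rfl
  | succ j _ ih =>
    refine ih.trans ?_
    show Am Ms κ j ≤ Am Ms κ j + G κ j + Ms * G κ j
    omega

theorem bad_cast {k : ℕ} (q : Fin k → ℕ) (κ m T : ℕ) (hT : Am (∏ j, q j) κ m ≤ T)
    (h : BadN q κ m T) :
    Crest.Agent.R320.Thin963.BadT (Finset.univ.image q) m (fun i => (G κ i : ℤ))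
      (fun i => (((∏ j, q j) * G κ i : ℕ) : ℤ)) (fun i => (Am (∏ j, q j) κ i : ℤ)) (T : ℤ) := by
  rcases h with ⟨j, hj⟩ | ⟨j, h1, h2, h3⟩
  · exact Or.inl ⟨q j, Finset.mem_image_of_mem _ (Finset.mem_univ j), by exact_mod_cast hj⟩
  · right
    obtain ⟨i, rfl⟩ : ∃ i, j = i + 1 := ⟨j - 1, by omega⟩
    refine ⟨i, by omega, ?_⟩
    rw [Nat.add_sub_cancel] at h3
    set Ms := ∏ j, q j with hMs
    have hA : Am Ms κ (i + 1) ≤ T := (Am_mono Ms κ h2).trans hT
    have hG : 0 < G κ (i + 1) := Crest.Agent.R320.Grid_899.G_pos _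
    set r := (T - Am Ms κ (i + 1)) % G κ (i + 1) with hr
    have hrlt : r < G κ (i + 1) := Nat.mod_lt _ hG
    have hdiv : ((G κ (i + 1) : ℕ) : ℤ) ∣ (T : ℤ) - Am Ms κ (i + 1) - r := by
      have h4 := Nat.div_add_mod (T - Am Ms κ (i + 1)) (G κ (i + 1))
      refine ⟨((T - Am Ms κ (i + 1)) / G κ (i + 1) : ℕ), ?_⟩
      have h5 : (T : ℤ) - Am Ms κ (i + 1) = ((T - Am Ms κ (i + 1) : ℕ) : ℤ) := by
        rw [Nat.cast_sub hA]
      have h6 : ((T - Am Ms κ (i + 1) : ℕ) : ℤ) = (G κ (i + 1) : ℤ) *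
          ((T - Am Ms κ (i + 1)) / G κ (i + 1) : ℕ) + (r : ℤ) := by
        rw [← hr] at h4
        exact_mod_cast h4.symm
      rw [h5]
      linarith
    by_cases hc : Ms * G κ i ≤ r
    · have h6 : G κ (i + 1) < r + Ms * G κ i := by
        by_contra h7
        exact h3 ⟨hc, by omega⟩
      refine ⟨(G κ (i + 1) : ℤ) - r, ?_, ?_⟩
      · rw [abs_of_nonneg (by omega)]
        have : (G κ (i + 1) : ℤ) < r + ((Ms * G κ i : ℕ) : ℤ) := by exact_mod_cast h6
        show (G κ (i + 1) : ℤ) - r ≤ ((Ms * G κ i : ℕ) : ℤ)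
        linarith
      · have := dvd_add hdiv (dvd_refl ((G κ (i + 1) : ℕ) : ℤ))
        have e : (T : ℤ) - Am Ms κ (i + 1) - r + ((G κ (i + 1) : ℕ) : ℤ) =
          (T : ℤ) - Am Ms κ (i + 1) + ((G κ (i + 1) : ℤ) - r) := by ring
        rw [e] at this
        exact this
    · refine ⟨-(r : ℤ), ?_, ?_⟩
      · rw [abs_neg, abs_of_nonneg (by positivity)]
        have : r ≤ Ms * G κ i := by omega
        show (r : ℤ) ≤ ((Ms * G κ i : ℕ) : ℤ)
        exact_mod_cast this
      · have e : (T : ℤ) - Am Ms κ (i + 1) + -(r : ℤ) = (T : ℤ) - Am Ms κ (i + 1) - r := by ring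
        show ((G κ (i + 1) : ℕ) : ℤ) ∣ (T : ℤ) - Am Ms κ (i + 1) + -(r : ℤ)
        rw [e]
        exact hdiv

theorem growth (K Ms m κ : ℕ) (hκ : 2 ^ (K + 4) * (m * Ms) ≤ 2 ^ κ) (i : ℕ) (hi : i < m) :
    2 ^ (K + 4) * ∑ j ∈ Finset.range (i + 1), Ms * G κ j ≤ G κ (i + 1) := by
  have h1 : ∑ j ∈ Finset.range (i + 1), Ms * G κ j ≤ (i + 1) * (Ms * G κ i) := by
    refine (Finset.sum_le_card_nsmul _ _ (Ms * G κ i) ?_).trans (by simp)
    intro j hj
    rw [Finset.mem_range] at hj
    refine Nat.mul_le_mul_left _ ?_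
    exact Nat.le_of_dvd (Crest.Agent.R320.Grid_899.G_pos _)
      (Crest.Agent.R320.Grid_899.G_dvd (by omega))
  have h2 : G κ (i + 1) = 2 ^ κ * G κ i := by
    unfold G
    rw [← pow_add]
    congr 1
    ring
  rw [h2]
  calc 2 ^ (K + 4) * ∑ j ∈ Finset.range (i + 1), Ms * G κ j
      ≤ 2 ^ (K + 4) * ((i + 1) * (Ms * G κ i)) := Nat.mul_le_mul_left _ h1
    _ ≤ 2 ^ (K + 4) * (m * (Ms * G κ i)) :=
        Nat.mul_le_mul_left _ (Nat.mul_le_mul_right _ (by omega))
    _ = 2 ^ (K + 4) * (m * Ms) * G κ i := by ring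
    _ ≤ 2 ^ κ * G κ i := Nat.mul_le_mul_right _ hκ

/-- **the ruler** -/
theorem ruler (K k m : ℕ) : ∃ (q : Fin k → ℕ) (κ : ℕ), (∀ j, Odd (q j)) ∧
    Pairwise (fun i j => Nat.Coprime (q i) (q j)) ∧ (∀ j, 0 < q j) ∧
    ∀ N0 : ℕ, Am (∏ j, q j) κ m ≤ N0 → ∃ X : ℕ, N0 ≤ X ∧ 0 < X ∧
      ∀ T : ℕ, (∀ i, i < K → X * 2 ^ i ≤ T) → ∀ I : Finset ℕ,
        (∀ i ∈ I, i < K ∧ ∃ i', i' < K ∧ i' ≠ i ∧ BadN q κ m (T + X * 2 ^ i' - X * 2 ^ i)) →
        I.card ≤ k + m := by
  classical
  obtain ⟨q, hq, hinj⟩ := primes k (2 ^ (K + 1))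
  have hne2 : ∀ j, q j ≠ 2 := by
    intro j h
    have h1 := (hq j).2
    have h2 : 0 < 2 ^ (K + 1) := by positivity
    omega
  refine ⟨q, 2 ^ (K + 4) * (m * ∏ j, q j), ?_, ?_, fun j => (hq j).1.pos, ?_⟩
  · intro j
    exact ((hq j).1.eq_two_or_odd').resolve_left (hne2 j)
  · intro i j hij
    exact (Nat.coprime_primes (hq i).1 (hq j).1).2 (fun h => hij (hinj h))
  intro N0 hN0
  set Ms := ∏ j, q j with hMs
  set κ := 2 ^ (K + 4) * (m * Ms) with hκ
  have hMpos : 0 < Ms := Finset.prod_pos fun j _ => (hq j).1.pos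
  have hmem : ∀ p ∈ Finset.univ.image q, ∃ j, q j = p := by
    intro p hp
    obtain ⟨j, _, h⟩ := Finset.mem_image.1 hp
    exact ⟨j, h⟩
  obtain ⟨X, hX1, hX2, hX3⟩ := Crest.Agent.R320.Thin963.thin K m (Finset.univ.image q)
    (fun i => (G κ i : ℤ)) (fun i => ((Ms * G κ i : ℕ) : ℤ)) (fun i => (Am Ms κ i : ℤ))
    (by
      intro p hp
      obtain ⟨j, rfl⟩ := hmem p hp
      exact ⟨(hq j).1, le_trans (by omega) (hq j).2⟩)
    (by
      intro p hp
      obtain ⟨j, rfl⟩ := hmem p hp
      refine Nat.isCoprime_iff_coprime.2 ?_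
      unfold G
      refine Nat.Coprime.pow_right _ ?_
      exact (Nat.coprime_primes (hq j).1 Nat.prime_two).2 (hne2 j))
    (by
      have := Crest.Agent.R320.Grid_899.G_pos (κ := κ) m
      exact_mod_cast this)
    (by
      intro i j h
      exact Int.natCast_dvd_natCast.2 (Crest.Agent.R320.Grid_899.G_dvd h))
    (by
      intro i
      have := Nat.mul_pos hMpos (Crest.Agent.R320.Grid_899.G_pos (κ := κ) i)
      exact_mod_cast this)
    (by
      intro i
      exact Int.natCast_dvd_natCast.2 (Nat.dvd_mul_left _ _))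
    (by
      intro i hi
      have := growth K Ms m κ (Nat.lt_two_pow_self).le i hi
      exact_mod_cast this)
    (N0 : ℤ)
  obtain ⟨Y, rfl⟩ : ∃ Y : ℕ, X = (Y : ℤ) := ⟨X.toNat, by omega⟩
  refine ⟨Y, by exact_mod_cast hX1, by exact_mod_cast hX2, ?_⟩
  intro T hT I hI
  have h1 := hX3 (T : ℤ)
  have hcard : (Finset.univ.image q).card ≤ k := by
    refine Finset.card_image_le.trans ?_
    simp
  refine le_trans ?_ (h1.trans (Nat.add_le_add_right hcard m))
  have hex : ∀ i : ℕ, ∃ i', i ∈ I → (i' < K ∧ i' ≠ i ∧ BadN q κ m (T + Y * 2 ^ i' - Y * 2 ^ i)) := by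
    intro i
    by_cases h : i ∈ I
    · obtain ⟨_, i', h'⟩ := hI i h
      exact ⟨i', fun _ => h'⟩
    · exact ⟨0, fun h' => (h h').elim⟩
  choose g hg using hex
  refine Finset.card_le_card_of_injOn (fun i => (g i, i)) ?_ ?_
  · intro i hi
    have hi' : i ∈ I := hi
    obtain ⟨a1, a2, a3⟩ := hg i hi'
    have hiK := (hI i hi').1
    simp only [Finset.coe_filter, Finset.mem_product, Finset.mem_range, Set.mem_setOf_eq]
    refine ⟨⟨a1, hiK⟩, a2, ?_⟩
    have hle := hT i hiK
    have hYg : Y ≤ Y * 2 ^ g i := Nat.le_mul_of_pos_right _ (by positivity)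
    have hN : N0 ≤ Y := by exact_mod_cast hX1
    have hle2 : Am Ms κ m ≤ T + Y * 2 ^ g i - Y * 2 ^ i := by
      generalize Y * 2 ^ g i = u at hYg ⊢
      generalize Y * 2 ^ i = v at hle ⊢
      omega
    have h2 := bad_cast q κ m _ hle2 a3
    have e : (((T + Y * 2 ^ g i - Y * 2 ^ i : ℕ)) : ℤ) =
        (T : ℤ) + (Y : ℤ) * 2 ^ g i - (Y : ℤ) * 2 ^ i := by
      rw [Nat.cast_sub (hle.trans (Nat.le_add_right _ _))]
      push_cast
      ring
    rw [e] at h2
    exact h2
  · intro i _ j _ h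
    exact (Prod.mk.inj h).2

/-- two powers of two -/
theorem pow_res : ∀ i i' j j' : ℕ, 2 ^ i + 2 ^ j' = 2 ^ j + 2 ^ i' → i' ≠ i → j' ≠ j → i = j := by
  intro i
  induction i with
  | zero =>
    intro i' j j' h hi hj
    obtain ⟨a, rfl⟩ : ∃ a, i' = a + 1 := ⟨i' - 1, by omega⟩
    rcases j with _ | b
    · rfl
    · exfalso
      rcases j' with _ | c
      · have h1 : 0 < 2 ^ a := by positivity
        have h2 : 0 < 2 ^ b := by positivity
        rw [pow_succ, pow_succ] at h
        omega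
      · rw [pow_succ, pow_succ, pow_succ] at h
        omega
  | succ i ih =>
    intro i' j j' h hi hj
    rcases j with _ | b
    · exfalso
      obtain ⟨c, rfl⟩ : ∃ c, j' = c + 1 := ⟨j' - 1, by omega⟩
      rcases i' with _ | a
      · have h1 : 0 < 2 ^ i := by positivity
        have h2 : 0 < 2 ^ c := by positivity
        rw [pow_succ, pow_succ] at h
        omega
      · rw [pow_succ, pow_succ, pow_succ] at h
        omega
    · rcases i' with _ | a
      · rcases j' with _ | c
        · have h1 : 2 ^ (i + 1) = 2 ^ (b + 1) := by omega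
          exact Nat.pow_right_injective le_rfl h1
        · exfalso
          rw [pow_succ, pow_succ, pow_succ] at h
          omega
      · rcases j' with _ | c
        · exfalso
          rw [pow_succ, pow_succ, pow_succ] at h
          omega
        · have h1 : 2 ^ i + 2 ^ c = 2 ^ b + 2 ^ a := by
            rw [pow_succ, pow_succ, pow_succ, pow_succ] at h
            omega
          rw [ih a b c h1 (by omega) (by omega)]

theorem res {X N1 : ℕ} (hX : 2 * N1 ≤ X) (i i' j j' : ℕ) (hi : i' ≠ i) (hj : j' ≠ j)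
    (h1 : X * 2 ^ i + X * 2 ^ j' < X * 2 ^ j + X * 2 ^ i' + 2 * N1)
    (h2 : X * 2 ^ j + X * 2 ^ i' < X * 2 ^ i + X * 2 ^ j' + 2 * N1) : i = j := by
  refine pow_res i i' j j' ?_ hi hj
  rw [← Nat.mul_add, ← Nat.mul_add] at h1 h2
  by_contra hne
  rcases Nat.lt_or_gt_of_ne hne with h | h
  · have := Nat.mul_le_mul_left X (Nat.succ_le_of_lt h)
    rw [Nat.succ_eq_add_one, Nat.mul_add] at this
    omega
  · have := Nat.mul_le_mul_left X (Nat.succ_le_of_lt h)
    rw [Nat.succ_eq_add_one, Nat.mul_add] at this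
    omega


/-! ### finite-state noise -/

section nu

variable {α S V : Type} [Monoid S] [AddCommGroup V]

theorem ph_drop {φ : List α → S} (hφ : ∀ u v, φ (u ++ v) = φ u * φ v) {B : ℕ} {u u' : List α}
    (ht : u.take B = u'.take B) (hd : φ (u.drop B) = φ (u'.drop B)) (hu : B ≤ u.length)
    (hu' : B ≤ u'.length) {p : ℕ} (hp : p ≤ B) : φ (u.drop p) = φ (u'.drop p) := by
  have e : ∀ w : List α, B ≤ w.length → w.drop p = (w.take B).drop p ++ w.drop B := by
    intro w hw
    conv_lhs => rw [← List.take_append_drop B w]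
    rw [List.drop_append_of_le_length (by rw [List.length_take]; omega)]
  rw [e u hu, e u' hu', hφ, hφ, ht, hd]

theorem take_drop_eq {B : ℕ} {u u' : List α} (ht : u.take B = u'.take B) {p r : ℕ}
    (h : p + r ≤ B) : (u.drop p).take r = (u'.drop p).take r := by
  have e : ∀ w : List α, (w.drop p).take r = ((w.take B).drop p).take r := by
    intro w
    rw [List.drop_take, List.take_take, min_eq_left (by omega)]
  rw [e u, e u', ht]

theorem mod_sub {P a b p : ℕ} (h : a ≡ b [MOD P]) (ha : p ≤ a) (hb : p ≤ b) :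
    a - p ≡ b - p [MOD P] := by
  apply Nat.ModEq.add_right_cancel' p
  rw [Nat.sub_add_cancel ha, Nat.sub_add_cancel hb]
  exact h

theorem reg_nu {φ : List α → S} (hφ : ∀ u v, φ (u ++ v) = φ u * φ v) {act : V → S → V}
    {lam rho : List α → Option V} {nu0 : List α → V} {N1 A P : ℕ}
    (hL : ∀ p v, lam p = some v → p.length ≤ N1)
    (hS : ∀ p q v b, lam p = some v → rho q = some b → b = act v (φ (p ++ q)) + nu0 (p ++ q))
    (hreg : ∀ Q Q' : List α, A ≤ Q.length → A ≤ Q'.length → Q.take A = Q'.take A →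
      φ (Q.drop A) = φ (Q'.drop A) → Q.length ≡ Q'.length [MOD P] → rho Q = rho Q') :
    ∃ nu : List α → V,
      (∀ p q v b, lam p = some v → rho q = some b → b = act v (φ (p ++ q)) + nu (p ++ q)) ∧
      (∀ u u' : List α, N1 + A ≤ u.length → N1 + A ≤ u'.length →
        u.take (N1 + A) = u'.take (N1 + A) → φ (u.drop (N1 + A)) = φ (u'.drop (N1 + A)) →
        u.length ≡ u'.length [MOD P] → nu u = nu u') := by
  classical
  let C : List α → Prop := fun u => ∃ p q v b, u = p ++ q ∧ lam p = some v ∧ rho q = some b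
  refine ⟨fun u => if C u then nu0 u else 0, ?_, ?_⟩
  · intro p q v b h1 h2
    have hC : C (p ++ q) := ⟨p, q, v, b, rfl, h1, h2⟩
    show b = act v (φ (p ++ q)) + if C (p ++ q) then nu0 (p ++ q) else 0
    rw [if_pos hC]
    exact hS p q v b h1 h2
  · have key : ∀ u u' : List α, N1 + A ≤ u.length → N1 + A ≤ u'.length →
        u.take (N1 + A) = u'.take (N1 + A) → φ (u.drop (N1 + A)) = φ (u'.drop (N1 + A)) →
        u.length ≡ u'.length [MOD P] → C u → C u' ∧ nu0 u = nu0 u' := by
      rintro u u' hu hu' ht hd hm ⟨p, q, v, b, e, h1, h2⟩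
      have hp := hL p v h1
      have ep : p = u'.take p.length := by
        have e1 : p = u.take p.length := by rw [e, List.take_left' rfl]
        have e2 : u.take p.length = u'.take p.length := by
          have := take_drop_eq ht (p := 0) (r := p.length) (by omega)
          simpa using this
        rw [← e2]; exact e1
      have eq' : q = u.drop p.length := by rw [e, List.drop_left' rfl]
      have e' : u' = p ++ u'.drop p.length := by
        conv_lhs => rw [← List.take_append_drop p.length u']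
        rw [← ep]
      have hr : rho (u'.drop p.length) = some b := by
        rw [← h2, eq']
        symm
        apply hreg
        · rw [List.length_drop]; omega
        · rw [List.length_drop]; omega
        · exact take_drop_eq ht (by omega)
        · rw [List.drop_drop, List.drop_drop]
          exact ph_drop hφ ht hd hu hu' (by omega)
        · rw [List.length_drop, List.length_drop]
          exact mod_sub hm (by omega) (by omega)
      refine ⟨⟨p, u'.drop p.length, v, b, e', h1, hr⟩, ?_⟩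
      have a1 := hS p q v b h1 h2
      have a2 := hS p (u'.drop p.length) v b h1 hr
      rw [← e] at a1
      rw [← e'] at a2
      have a3 : φ u = φ u' := by
        have := ph_drop hφ ht hd hu hu' (p := 0) (by omega)
        simpa using this
      rw [a3] at a1
      have := a1.symm.trans a2
      exact add_left_cancel this
    intro u u' hu hu' ht hd hm
    show (if C u then nu0 u else 0) = if C u' then nu0 u' else 0
    by_cases hc : C u
    · obtain ⟨h1, h2⟩ := key u u' hu hu' ht hd hm hc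
      rw [if_pos hc, if_pos h1, h2]
    · have hc' : ¬ C u' := fun h => hc (key u' u hu' hu ht.symm hd.symm hm.symm h).1
      rw [if_neg hc, if_neg hc']

end nu

/-! ### the join -/

open Crest.RegLang Crest.Agent.R320.Hk_851

theorem fin (α : Type) [Finite α] (S : Type) [Monoid S] [Finite S] (f : α → S) (s : S) :
    HL 3 ({w | (w.map f).prod = s} : Language α) := by
  classical
  haveI : Fintype S := Fintype.ofFinite S
  let V : Type := Crest.Agent.R320.Two_621.Tok S
  haveI : Fintype V := inferInstanceAs (Fintype (S → ZMod 2))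
  let act : V → S → V := Crest.Agent.R320.Two_621.act
  have hφ : ∀ u v : List α, ExactR_237.pr f (u ++ v) = ExactR_237.pr f u * ExactR_237.pr f v := by
    intro u v
    simp [ExactR_237.pr]
  obtain ⟨k, m, HG⟩ := Crest.Agent.R320.Grid_899.grid_gadget_reg S V act
  obtain ⟨K, HE⟩ := ExactR_237.exact_gadget α S V f act (2 * (k + m) + 2)
  obtain ⟨q, κ, hodd, hcop, hqpos, HR⟩ := ruler K k m
  obtain ⟨lam, rho, nu0, hL, hRl, hS, hC, hreg⟩ := HG q hodd hcop κ α (ExactR_237.pr f) hφ
  set Ms := ∏ j, q j with hMs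
  set N1 := Am Ms κ m with hN1
  set A1 := Am Ms κ (m + 1) with hA1
  set Pm := Ms * G κ m with hPm
  have hPmpos : 0 < Pm := Nat.mul_pos (Finset.prod_pos fun j _ => hqpos j)
    (Crest.Agent.R320.Grid_899.G_pos _)
  have hL' : ∀ p v, lam p = some v → p.length ≤ N1 := fun p v h => (hL p v h).1.le
  obtain ⟨nu1, hS1, hnu1⟩ := reg_nu hφ hL' hS
    (fun Q Q' h1 h2 h3 h4 h5 => by
      have h6 := hreg Q Q' h1 h2 h3 h4 h5
      first | exact h6.1 | exact h6)
  obtain ⟨X, hX, hX0, hT⟩ := HR (2 * N1) (by omega)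
  obtain ⟨lam2, rho2, nu2, hS2, hC2⟩ := HE (fun i => X * 2 ^ i) (by
    intro i j hij _
    exact Nat.mul_lt_mul_of_pos_left (Nat.pow_lt_pow_right (by norm_num) hij) hX0)
  set p0 := X * 2 ^ K with hp0
  have hcp : ∀ i, i < K → X * 2 ^ i ≤ p0 := fun i hi =>
    Nat.mul_le_mul_left _ (Nat.pow_le_pow_right (by norm_num) hi.le)
  set W := 2 * (N1 + p0) + 1 with hWdef
  obtain ⟨n, c', P', Sw, hn, hP', happ, hgap, _, _, hfew⟩ :=
    Crest.Agent.R320.WallU_228.walls_full (α := α) W
  set Wo : List α → Prop := Crest.Agent.R320.WallU_228.Wo n Sw with hWo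
  have hW : Joint_47.LW n W Wo := by
    refine ⟨fun X h => h.1, happ, ?_⟩
    intro X s t hst ht h1 h2
    by_contra hlt
    have hl : (X.take t).length = t := by rw [List.length_take]; omega
    refine hgap (X.take t) (t - s) h2 (by omega) (by omega) ?_
    rw [hl, List.take_take, show t - (t - s) = s by omega, min_eq_left hst.le]
    exact h1
  set z := 3 * p0 + n + N1 + 1 + 2 * A1 with hz
  let T : V → List α → V := Joint_47.T f act p0 (fun X => nu2 X 1) nu1
  let D : SemTop_727.Sch α V :=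
    ⟨Joint_47.Zn Wo z, T, fun v => {P | Joint_47.L1 f act p0 (fun X => nu2 X 1) lam v P},
      fun v => {P | Joint_47.L2 K (fun i => X * 2 ^ i) lam2 v P}⟩
  have hXXeq : ∀ w, w ∈ Joint_47.Zn Wo z ↔ w ∈ (P4_440.XX n Sw z : Language α) := fun w => Iff.rfl
  -- completeness of scheme 1
  have hgood : ∀ X ∈ Joint_47.Zn Wo z, ¬ Joint_47.Bad Wo z N1 p0 (BadN q κ m) X → X ∈ D.Good := by
    intro X hX hb
    refine ⟨hX, fun v => ?_⟩
    obtain ⟨p, r, e, h1, _, h3⟩ := Joint_47.complete1 f act p0 (fun X => nu2 X 1) nu1 hW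
      (N0 := 2 * A1) (BadT := BadN q κ m) (lam := lam) (rho := rho)
      (fun P Q v r h h' => hS1 P Q v r h h') hL'
      (fun Y hY hnb v => by
        refine hC Y hY ?_ ?_ v
        · intro j hj
          exact hnb (Or.inl ⟨j, hj⟩)
        · intro j hj1 hj2
          by_contra hcon
          exact hnb (Or.inr ⟨j, hj1, hj2, hcon⟩))
      (by omega) (by omega) hX hb v
    exact ⟨p, h1, r, fun x P hP => h3 x P hP, e.symm⟩
  refine SemTop_727.top (k := 1) (V := V) act ?_ ?_ ?_ ?_ f
    (fun X => act (nu2 (X.take p0) 1) (ExactR_237.pr f (X.drop p0)) + nu1 (X.drop p0)) D ?_ ?_ ?_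
    ?_ ?_ ?_ ?_ s
  · intro a b t
    exact Two_621.act_add a b t
  · intro v
    exact Two_621.act_one v
  · intro v a b
    exact (Two_621.act_mul v a b).symm
  · intro a b h
    exact Two_621.act_faithful h
  · intro v X
    show act (act v (ExactR_237.pr f (X.take p0)) + nu2 (X.take p0) 1)
      (ExactR_237.pr f (X.drop p0)) + nu1 (X.drop p0) = _
    have e1 : (X.map f).prod = ExactR_237.pr f (X.take p0) * ExactR_237.pr f (X.drop p0) := by
      rw [← hφ, List.take_append_drop]; rfl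
    rw [e1, ← add_assoc]
    congr 1
    rw [show act (act v (ExactR_237.pr f (X.take p0)) + nu2 (X.take p0) 1)
      (ExactR_237.pr f (X.drop p0)) = act (act v (ExactR_237.pr f (X.take p0)))
        (ExactR_237.pr f (X.drop p0)) + act (nu2 (X.take p0) 1) (ExactR_237.pr f (X.drop p0)) from
        Two_621.act_add _ _ _]
    congr 1
    exact Two_621.act_mul _ _ _
  · refine ⟨fun h => ?_, fun X hX Y hY hXY => Joint_47.Zn_prefix hX hY hXY (List.prefix_refl Y)⟩
    have := h.1
    simp at this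
    omega
  · -- fibres
    intro x y
    have hB : n ≤ p0 + (N1 + A1) + z := by omega
    refine (P4_440.HL_block (φ := ExactR_237.pr f) (B := p0 + (N1 + A1) + z) (P := Pm)
      (n := n) (S := Sw) (z := z) hφ hB (by omega) hPmpos hfew
      (R := fun X => T x X = y) ?_).congr fun w => Iff.rfl
    intro w w' h1 h2 ht hd hm
    have e1 : w.take p0 = w'.take p0 := by
      have := take_drop_eq ht (p := 0) (r := p0) (by omega)
      simpa using this
    have e2 := ph_drop hφ ht hd h1 h2 (p := p0) (by omega)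
    have e3 : nu1 (w.drop p0) = nu1 (w'.drop p0) := by
      apply hnu1
      · rw [List.length_drop]; omega
      · rw [List.length_drop]; omega
      · exact take_drop_eq ht (by omega)
      · rw [List.drop_drop, List.drop_drop]
        exact ph_drop hφ ht hd h1 h2 (by omega)
      · rw [List.length_drop, List.length_drop]
        exact mod_sub hm (by omega) (by omega)
    have e4 : T x w = T x w' := by
      show act (act x (ExactR_237.pr f (w.take p0)) + nu2 (w.take p0) 1)
        (ExactR_237.pr f (w.drop p0)) + nu1 (w.drop p0) =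
        act (act x (ExactR_237.pr f (w'.take p0)) + nu2 (w'.take p0) 1)
        (ExactR_237.pr f (w'.drop p0)) + nu1 (w'.drop p0)
      rw [e1, e2, e3]
    show T x w = y ↔ T x w' = y
    rw [e4]
  · intro x
    refine Set.Finite.subset (List.finite_length_le α (p0 + N1)) ?_
    rintro P ⟨h1, h2⟩
    have := hL' _ _ h2
    rw [List.length_drop] at this
    show P.length ≤ p0 + N1
    omega
  · intro x
    refine Set.Finite.subset (List.finite_length_le α p0) ?_
    rintro P ⟨i, h1, h2, _⟩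
    show P.length ≤ p0
    rw [h2]
    exact hcp i h1
  · -- completeness of scheme 2
    intro X1 hX1 X2 hX2 x
    have hbad : Joint_47.Bad Wo z N1 p0 (BadN q κ m) X1 := by
      by_contra hb
      exact hX1.2 (hgood X1 hX1.1 hb)
    obtain ⟨p, r, e, h1, _, h3⟩ := Joint_47.complete2 (R1 := k + m) (N0 := 0) f act p0 nu1 hW
      (c := fun i => X * 2 ^ i) (lam2 := lam2) (rho2 := rho2) (nu2' := nu2)
      (BadT := BadN q κ m) (K := K) (N1 := N1) (z := z)
      hS2 hC2
      (by
        intro i j hij _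
        exact Nat.mul_lt_mul_of_pos_left (Nat.pow_lt_pow_right (by norm_num) hij) hX0)
      hcp
      (fun i i' j j' _ _ _ _ hi hj a1 a2 => res hX i i' j j' hi hj a1 a2)
      (fun T' _ hT' I hI => hT T' hT' I hI) (by omega) (by omega) hX1.1 hX2.1 hbad x
    refine ⟨p, h1, r, ?_, e.symm⟩
    intro x' P' hP'
    rcases h3 x' P' hP' with ⟨a, ha, hab, e1, e2⟩ | ⟨a, ha, hab, hpre⟩
    · by_cases hg : a ∈ D.Good
      · exact Or.inr (Or.inl ⟨a, hg, ⟨X2, e1.symm⟩⟩)
      · refine Or.inl ⟨a, ⟨ha, hg⟩, X2, hX2, e1, ?_⟩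
        show T (T x' a) X2 = T (T x X1) X2
        have e3 : T x' a = T x X1 := e2
        rw [e3]
    · exact Or.inr (Or.inl ⟨a, hgood a ha hab, hpre⟩)
  · -- tail
    intro t
    have hB : n ≤ p0 + (N1 + A1) + z := by omega
    refine HL.mono (by norm_num : 1 ≤ 1 + 2) ((P4_440.HL_rest (φ := ExactR_237.pr f)
      (B := p0 + (N1 + A1) + z) (P := Pm) (n := n) (S := Sw) (z := z) hφ hB (by omega) hPmpos hfew
      (R := fun X => ExactR_237.pr f X = t) ?_).congr fun w => Iff.rfl)
    intro w w' h1 h2 ht hd hm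
    have e1 : ExactR_237.pr f w = ExactR_237.pr f w' := by
      have := ph_drop hφ ht hd h1 h2 (p := 0) (by omega)
      simpa using this
    show ExactR_237.pr f w = t ↔ ExactR_237.pr f w' = t
    rw [e1]

end Crest.Agent.R320.FinJ_635
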