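import Crest.Agent.R320.Top5_120
import Crest.Agent.R320.Sc2n_937
import Crest.Agent.R320.P4_933
import Crest.Agent.R320.Loc_645

/-!
# Row 320: the join (helper645)

`join` : 120's top over 937's geometry, 933's HL 1 families.
-/

set_option autoImplicit false

namespace Crest.Agent.R320.FinJ_645

open Crest.RegLang Crest.Agent.R320.Hk_851 Crest.Agent.R320.BddReg_746 Crest.Agent.R320.Blk467

universe u

variable {α : Type u}

open Crest.Agent.R320.Sc2n_937 (Geo)

section

variable {S V : Type*} [Monoid S] [AddCommGroup V] (act : V → S → V) (φ : α → S)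
  (g : Geo α) (nu1 nu2 : List α → V)

/-- scheme map before `p0` -/
def pre (U : List α) (v : V) : V := act v (U.map φ).prod + nu2 U

/-- scheme map behind `p0` -/
def post (v : V) (Y : List α) : V := act v (Y.map φ).prod + nu1 Y

/-- block noise -/
def nu (X : List α) : V :=
  act (nu2 (X.take g.p0)) ((X.drop g.p0).map φ).prod + nu1 (X.drop g.p0)

theorem T_eq (hadd : ∀ a b s, act (a + b) s = act a s + act b s)
    (hmul : ∀ v s t, act v (s * t) = act (act v s) t) (v : V) (X : List α) :
    g.T (pre act φ nu2) (post act φ nu1) v X = act v (X.map φ).prod + nu act φ g nu1 nu2 X := by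
  unfold Geo.T pre post nu
  rw [hadd, ← hmul]
  have : (X.map φ).prod = ((X.take g.p0).map φ).prod * ((X.drop g.p0).map φ).prod := by
    rw [← List.prod_append, ← List.map_append, List.take_append_drop]
  rw [this, add_assoc]

/-- the block code as a set -/
def C : Set (List α) := {X | g.XX X}

/-- bad blocks -/
def Bd (BadT : ℕ → Prop) : Set (List α) := {X | g.XX X ∧ g.BadX BadT X}

end

theorem prod_drop_split {S : Type*} [Monoid S] (φ : α → S) {u u' : List α} {A a : ℕ} (ha : a ≤ A)
    (h1 : u.take A = u'.take A)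
    (h2 : ((u.drop A).map φ).prod = ((u'.drop A).map φ).prod) :
    ((u.drop a).map φ).prod = ((u'.drop a).map φ).prod := by
  have key : ∀ w : List α, w.drop a = (w.take A).drop a ++ w.drop A := by
    intro w
    have e : A = a + (A - a) := by omega
    rw [List.drop_take, e, ← List.drop_drop]
    simp
  rw [key u, key u', h1, List.map_append, List.map_append, List.prod_append, List.prod_append, h2]

theorem join [Finite α] {S V : Type*} [Monoid S] [Finite S] [AddCommGroup V] [Finite V]
    (act : V → S → V) (hadd : ∀ a b s, act (a + b) s = act a s + act b s)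
    (hone : ∀ v, act v 1 = v) (hmul : ∀ v s t, act v (s * t) = act (act v s) t)
    (hfaith : ∀ s t, (∀ v, act v s = act v t) → s = t)
    (φ : α → S) (g : Geo α) (len : ∀ P, g.Wo P → g.n ≤ P.length) {B R : ℕ}
    (free : ∀ u : List α, (∀ t < u.length, ¬ g.Wo (u.take t)) → u ∈ (PN B R : Language α))
    (lam1 rho1 : List α → Option V) (nu1 : List α → V) (BadT : ℕ → Prop)
    (h1len : ∀ P v, lam1 P = some v → P.length ≤ g.N1)
    (h1s : ∀ P Q v b, lam1 P = some v → rho1 Q = some b →
      b = act v ((P ++ Q).map φ).prod + nu1 (P ++ Q))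
    (h1c : ∀ u : List α, g.N1 + g.q0 ≤ u.length → ¬ BadT u.length → ∀ v, ∃ P Q, u = P ++ Q ∧
      lam1 P = some v ∧ (rho1 Q).isSome)
    (A1 M1 : ℕ) (hM1 : 0 < M1)
    (h1r : ∀ u u' : List α, A1 ≤ u.length → A1 ≤ u'.length → u.take A1 = u'.take A1 →
      ((u.drop A1).map φ).prod = ((u'.drop A1).map φ).prod →
      u.length % M1 = u'.length % M1 → nu1 u = nu1 u')
    (hBp : ∀ T T', A1 ≤ T → A1 ≤ T' → T % M1 = T' % M1 → (BadT T ↔ BadT T'))
    (K : ℕ) (c : ℕ → ℕ) (hcp : ∀ k < K, c k ≤ g.p0)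
    (lam2 rho2 : ℕ → List α → Option V) (nu2 : List α → V)
    (h2s : ∀ k < K, ∀ P Q v b, P.length = c k → lam2 k P = some v → rho2 k Q = some b →
      b = act v ((P ++ Q).map φ).prod + nu2 (P ++ Q))
    (C0 : ℕ)
    (h2c : ∀ u : List α, u.length = g.p0 → ∀ v, ∃ I : Finset ℕ, 2 * C0 + 2 ≤ I.card ∧
      ∀ k ∈ I, k < K ∧ lam2 k (u.take (c k)) = some v ∧ (rho2 k (u.drop (c k))).isSome)
    (hgap : ∀ P Q : List α, g.Wo P → g.Wo (P ++ Q) → Q ≠ [] → 2 * g.p0 + 2 * g.N1 < Q.length)
    (hsp : ∀ k k' l l', k < K → k' < K → l < K → l' < K → k' ≠ k → l' ≠ l →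
      c k + c l' < c l + c k' + 2 * g.N1 → c l + c k' < c k + c l' + 2 * g.N1 → k = l)
    (hthin : ∀ τ, g.z ≤ τ + g.p0 → ∀ J : Finset ℕ, (∀ k ∈ J, k < K ∧
      ∃ k', k' < K ∧ k' ≠ k ∧ BadT (τ + c k' - c k - g.p0)) → J.card ≤ C0)
    (s : S) : HL 3 ({w | (w.map φ).prod = s} : Language α) := by
  classical
  have hz := g.hz
  have hT := T_eq act φ g nu1 nu2 hadd hmul
  -- regularity of `act x φ X + nu X = y`
  have hreg : ∀ x y, Language.IsRegular
      ({X | act x (X.map φ).prod + nu act φ g nu1 nu2 X = y} : Language α) := by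
    intro x y
    refine Loc_645.isRegular_of_read' φ (g.p0 + A1) M1 hM1 _ ?_
    intro u u' hl hl' ht hp hm hu
    have e0 : u.take g.p0 = u'.take g.p0 := by
      have := congrArg (List.take g.p0) ht
      rwa [List.take_take, List.take_take, min_eq_left (by omega)] at this
    have e1 := prod_drop_split φ (show 0 ≤ g.p0 + A1 by omega) ht hp
    rw [List.drop_zero, List.drop_zero] at e1
    have e2 := prod_drop_split φ (show g.p0 ≤ g.p0 + A1 by omega) ht hp
    have e3 : nu1 (u.drop g.p0) = nu1 (u'.drop g.p0) := by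
      refine h1r _ _ (by rw [List.length_drop]; omega) (by rw [List.length_drop]; omega) ?_ ?_ ?_
      · rw [List.take_drop, List.take_drop, ht]
      · rw [List.drop_drop, List.drop_drop]; exact hp
      · rw [List.length_drop, List.length_drop]
        have h1 : g.p0 ≤ u.length := by omega
        have h2 : g.p0 ≤ u'.length := by omega
        have h3 : (u.length - g.p0) + g.p0 ≡ (u'.length - g.p0) + g.p0 [MOD M1] := by
          rw [Nat.sub_add_cancel h1, Nat.sub_add_cancel h2]; exact hm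
        exact Nat.ModEq.add_right_cancel' _ h3
    show act x (u'.map φ).prod + nu act φ g nu1 nu2 u' = y
    rw [← hu]
    unfold nu
    rw [e0, e1, e2, e3]
  have hregE : Language.IsRegular ({X | g.BadX BadT X} : Language α) := by
    refine Loc_645.isRegular_of_read' φ (g.p0 + A1 + (g.z + g.N1)) M1 hM1 _ ?_
    intro u u' hl hl' ht hp hm hu
    rcases hu with ⟨t, h1, h2, h3, h4⟩ | hb
    · left
      refine ⟨t, by omega, ?_, h3, h4⟩
      have := congrArg (List.take t) ht
      rw [List.take_take, List.take_take, min_eq_left (by omega)] at this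
      rw [← this]; exact h2
    · right
      refine (hBp _ _ (by omega) (by omega) ?_).1 hb
      have h1 : g.p0 ≤ u.length := by omega
      have h2 : g.p0 ≤ u'.length := by omega
      have h3 : (u.length - g.p0) + g.p0 ≡ (u'.length - g.p0) + g.p0 [MOD M1] := by
        rw [Nat.sub_add_cancel h1, Nat.sub_add_cancel h2]; exact hm
      exact Nat.ModEq.add_right_cancel' _ h3
  have hXX : ∀ X, P4_933.XX g.Wo g.z X ↔ g.XX X := by
    intro X
    unfold P4_933.XX Geo.XX
    constructor
    · rintro ⟨a, b, d⟩; exact ⟨b, a, fun t h1 h2 => d t h2 h1⟩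
    · rintro ⟨a, b, d⟩; exact ⟨b, a, fun t h1 h2 => d t h2 h1⟩
  have hN := g.hN
  have hC : PCode (C g) := by
    refine ⟨?_, ?_⟩
    · intro h
      have h1 := h.1
      simp only [List.length_nil] at h1
      omega
    · rintro X hX Y hY ⟨R', hR'⟩
      exact g.prefix_code (R := R') (R' := []) hX hY (by rw [hR', List.append_nil])
  have htailC : ∀ w : List α, (∀ X ∈ C g, ¬ X <+: w) ↔ P4_933.NB g.Wo g.z w := by
    intro w
    rw [P4_933.NB_iff]
    constructor
    · intro h P hP hX; exact h P ((hXX P).1 hX) hP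
    · intro h X hX hP; exact h X hP ((hXX X).2 hX)
  refine Top5_120.top5 act hadd hone hmul hfaith φ (nu act φ g nu1 nu2) (C g) (Bd g BadT) hC
    (fun X hX => hX.1)
    (fun v => {P | P.length ≤ g.p0 + g.N1 ∧ g.LP1 (pre act φ nu2) lam1 v P})
    (fun v => {P | P.length ≤ g.p0 ∧ Geo.LP2 K c lam2 v P})
    (fun v => (List.finite_length_le α (g.p0 + g.N1)).subset fun P hP => hP.1)
    (fun v => (List.finite_length_le α g.p0).subset fun P hP => hP.1)
    ?_ ?_ ?_ ?_ ?_ s
  · intro x y
    refine (P4_933.hl_XX (n := g.n) (z := g.z) g.loc len free (hreg x y)).congr fun w => Iff.symm ?_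
    constructor
    · rintro ⟨h1, h2⟩; exact ⟨(hXX w).1 h1, h2⟩
    · rintro ⟨h1, h2⟩; exact ⟨(hXX w).2 h1, h2⟩
  · intro x y
    have h2 : Language.IsRegular ({X | g.BadX BadT X ∧
        act x (X.map φ).prod + nu act φ g nu1 nu2 X = y} : Language α) := by
      have := hregE.inf (hreg x y)
      exact this
    refine (P4_933.hl_XX (n := g.n) (z := g.z) g.loc len free h2).congr fun w => Iff.symm ?_
    constructor
    · rintro ⟨h1, h2, h3⟩; exact ⟨⟨(hXX w).1 h1, h2⟩, h3⟩
    · rintro ⟨⟨h1, h2⟩, h3⟩; exact ⟨(hXX w).2 h1, h2, h3⟩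
  · intro s
    have h2 : Language.IsRegular ({X | (X.map φ).prod = s} : Language α) := by
      refine Loc_645.isRegular_of_read φ 0 1 one_pos _ ?_
      intro q q' _ h _ hq
      rw [List.drop_zero, List.drop_zero] at h
      show (q'.map φ).prod = s
      rw [← h]; exact hq
    refine (P4_933.hl_NB (n := g.n) (z := g.z) g.loc len free h2).congr fun w => Iff.symm ?_
    constructor
    · rintro ⟨h1, h2⟩; exact ⟨(htailC w).2 h1, h2⟩
    · rintro ⟨h1, h2⟩; exact ⟨(htailC w).1 h1, h2⟩
  · intro X hX hXb v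
    have hXb' : ¬ g.BadX BadT X := fun h => hXb ⟨hX, h⟩
    have hE : ¬ g.E X := fun h => hXb' (Or.inl h)
    have hbt : ¬ BadT (X.length - g.p0) := fun h => hXb' (Or.inr h)
    have hXz := hX.1
    obtain ⟨P, Q, b, e, hP, hQ⟩ := g.complete1 (pre act φ nu2) h1len hX hE
      (fun u => h1c _ (by rw [List.length_drop]; omega) (by rw [List.length_drop]; exact hbt) u) v
    have hPl : ∀ x P', g.LP1 (pre act φ nu2) lam1 x P' → P'.length ≤ g.p0 + g.N1 := by
      intro x P' h
      have := h1len _ _ h.2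
      rw [List.length_drop] at this
      omega
    have hs : ∀ x P', g.LP1 (pre act φ nu2) lam1 x P' → g.XX (P' ++ Q) ∧
        g.T (pre act φ nu2) (post act φ nu1) x (P' ++ Q) = b := by
      intro x P' h
      exact g.sound1 (pre act φ nu2) (post act φ nu1) h1len
        (fun P Q u b h1 h2 => h1s P Q u b h1 h2) h hQ
    refine ⟨P, Q, e.symm, ⟨hPl _ _ hP, hP⟩, ?_⟩
    rintro x P' ⟨-, hP'⟩
    obtain ⟨h1, h2⟩ := hs x P' hP'
    refine ⟨h1, ?_⟩
    rw [← hT, h2, ← hT]
    have := (hs v P hP).2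
    rw [← e] at this
    exact this.symm
  · rintro X ⟨hX, hXb⟩ Y ⟨hY, hYb⟩ v
    have hXz := hX.1
    obtain ⟨P, Q, b, e, hP, hQ⟩ := g.complete2 (pre act φ nu2) (post act φ nu1) hcp hgap hsp hthin
      hX hY v (by
        obtain ⟨I, h1, h2⟩ := h2c (X.take g.p0) (by rw [List.length_take]; omega) v
        refine ⟨I, h1, fun k hk => ?_⟩
        obtain ⟨h3, h4, h5⟩ := h2 k hk
        refine ⟨h3, ?_, h5⟩
        rw [List.take_take, min_eq_left (hcp k h3)] at h4
        exact h4)
    have hPl : ∀ x P', Geo.LP2 K c lam2 x P' → P'.length ≤ g.p0 := by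
      rintro x P' ⟨k, hk, h1, h2⟩
      rw [h1]; exact hcp k hk
    -- soundness from a bad block prefix
    have hs : ∀ x P', Geo.LP2 K c lam2 x P' → ∀ X', g.XX X' → g.BadX BadT X' → X' <+: P' ++ Q →
        ∃ X2, g.XX X2 ∧ P' ++ Q = X' ++ X2 ∧
          g.T (pre act φ nu2) (post act φ nu1)
            (g.T (pre act φ nu2) (post act φ nu1) x X') X2 = b := by
      rintro x P' hP' X' hX' hb' ⟨R', hR'⟩
      exact g.sound2 (pre act φ nu2) (post act φ nu1) hcp
        (fun k hk P Q v u h1 _ h2 h3 => h2s k hk P Q v u h1 h2 h3) hX' hb' hP' hQ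
        (R := []) (R' := R') (by rw [List.append_nil]; exact hR'.symm)
    refine ⟨P, Q, e, ⟨hPl _ _ hP, hP⟩, ?_⟩
    rintro x P' ⟨-, hP'⟩
    -- a block prefix exists
    have hpre : ∃ X', g.XX X' ∧ X' <+: P' ++ Q := by
      obtain ⟨k0, hk0, hl0, -⟩ := id hP'
      obtain ⟨k, hk, l, hend, hgood, -⟩ := id hQ
      have : ∃ l, g.CEnd Q (c k0) l := by
        by_cases hkk : k0 = k
        · subst hkk; exact ⟨l, hend⟩
        · obtain ⟨l', h, -⟩ := hgood k0 hk0 hkk
          exact ⟨l', h⟩
      obtain ⟨l', hl'⟩ := this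
      refine ⟨P' ++ Q.take l', ?_, ?_⟩
      · exact g.xx_of_cend (by rw [hl0]; exact hcp k0 hk0) (by rw [hl0]; exact hl')
      · exact (List.prefix_append_right_inj P').2 (List.take_prefix l' Q)
    obtain ⟨X', hX', hpr⟩ := hpre
    by_cases hb' : g.BadX BadT X'
    · left
      obtain ⟨X2, h1, h2, h3⟩ := hs x P' hP' X' hX' hb' hpr
      refine ⟨X', ⟨hX', hb'⟩, X2, h1, h2.symm, ?_⟩
      obtain ⟨Y2, h4, h5, h6⟩ := hs v P hP X hX hXb (by rw [e]; exact List.prefix_append _ _)
      have hYY : Y = Y2 := by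
        rw [e] at h5
        exact List.append_cancel_left h5
      rw [← hT, ← hT, h3, ← hT, ← hT, ← h6, hYY]
    · right
      exact ⟨X', hX', fun h => hb' h.2, hpr⟩

end Crest.Agent.R320.FinJ_645
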