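import Crest.Agent.R320.NameGad_808

/-!
Scheme 1 on ALL words (693 #13203: hole ends on nested grids anchored at the right end), no walls,
over 808's `unknownT_gadget`.
-/

set_option autoImplicit false
set_option linter.unusedSectionVars false

namespace Crest.Agent.R320.Grid_390

open Finset

section Params

variable (Ms κ : ℕ)

/-- grid sizes -/
def G (i : ℕ) : ℕ := 2 ^ (κ * i)

/-- left ends of the boundary intervals -/
def Am : ℕ → ℕ
  | 0 => 0
  | i + 1 => Am i + G κ i + Ms * G κ i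

/-- start of the cell of level `i` (length `Ms * G i`) -/
def lo (i : ℕ) : ℕ := Am Ms κ i + G κ i

/-- boundary `j` in a zone of length `T` -/
def bd (j T : ℕ) : ℕ := Am Ms κ j + (T - Am Ms κ j) % G κ j

/-- boundary `j` read by a right word of length `n` at level `i` (a position in the right word) -/
def pr (i j n : ℕ) : ℕ := (Am Ms κ j - lo Ms κ i) + (n + lo Ms κ i - Am Ms κ j) % G κ j

variable {Ms κ}

lemma G_pos (i : ℕ) : 0 < G κ i := Nat.pow_pos (by norm_num)

lemma G_dvd {i j : ℕ} (h : j ≤ i) : G κ j ∣ G κ i :=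
  Nat.pow_dvd_pow 2 (Nat.mul_le_mul_left κ h)

lemma lo_add (i : ℕ) : lo Ms κ i + Ms * G κ i = Am Ms κ (i + 1) := rfl

lemma Am_succ_ge (i : ℕ) : Am Ms κ i ≤ Am Ms κ (i + 1) := by
  rw [← lo_add]; unfold lo; omega

lemma Am_mono {i j : ℕ} (h : i ≤ j) : Am Ms κ i ≤ Am Ms κ j :=
  monotone_nat_of_le_succ (Am_succ_ge (Ms := Ms) (κ := κ)) h

lemma bd_lt (j T : ℕ) : bd Ms κ j T < lo Ms κ j := by
  have := Nat.mod_lt (T - Am Ms κ j) (G_pos (κ := κ) j)
  unfold bd lo
  omega

lemma le_bd (j T : ℕ) : Am Ms κ j ≤ bd Ms κ j T := by unfold bd; omega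

lemma lo_le (i : ℕ) : lo Ms κ i ≤ Am Ms κ (i + 1) := by rw [← lo_add]; omega

lemma bd_left {i j n n' : ℕ} (h : j ≤ i) (hn : lo Ms κ i ≤ n) (hd : G κ i ∣ n') :
    bd Ms κ j (n + n') = bd Ms κ j n := by
  have h1 : Am Ms κ j ≤ n := le_trans (Am_mono h) (le_trans (by unfold lo; omega) hn)
  have h2 : n + n' - Am Ms κ j = (n - Am Ms κ j) + n' := by omega
  have h3 : G κ j ∣ n' := dvd_trans (G_dvd h) hd
  unfold bd
  rw [h2, Nat.add_mod, Nat.mod_eq_zero_of_dvd h3, Nat.add_zero, Nat.mod_mod]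

lemma bd_right {i j n n' : ℕ} (h : i < j) (hn : lo Ms κ i ≤ n) (hn2 : n < lo Ms κ i + Ms * G κ i)
    (hn' : Am Ms κ j ≤ n')
    (hd : (n' + lo Ms κ i - Am Ms κ j) % G κ j + Ms * G κ i ≤ G κ j) :
    bd Ms κ j (n + n') = n + pr Ms κ i j n' := by
  have h1 : Am Ms κ (i + 1) ≤ Am Ms κ j := Am_mono h
  rw [lo_add] at hn2
  have h0 := lo_add (Ms := Ms) (κ := κ) i
  have h2 : n + n' - Am Ms κ j = (n' + lo Ms κ i - Am Ms κ j) + (n - lo Ms κ i) := by omega
  have h3 : (n' + lo Ms κ i - Am Ms κ j) % G κ j + (n - lo Ms κ i) < G κ j := by omega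
  have h4 : (n + n' - Am Ms κ j) % G κ j =
      (n' + lo Ms κ i - Am Ms κ j) % G κ j + (n - lo Ms κ i) := by
    rw [h2, ← Nat.mod_add_mod, Nat.mod_eq_of_lt h3]
  unfold bd pr
  rw [h4]
  omega

/-- the right condition in a clean zone. -/
lemma right_clean {i j n n' : ℕ} (h : i < j) (hn : lo Ms κ i ≤ n)
    (hn2 : n < lo Ms κ i + Ms * G κ i) (hn' : Am Ms κ j ≤ n')
    (hc : Ms * G κ (j - 1) ≤ (n + n' - Am Ms κ j) % G κ j)
    (hc2 : (n + n' - Am Ms κ j) % G κ j + Ms * G κ (j - 1) ≤ G κ j) :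
    (n' + lo Ms κ i - Am Ms κ j) % G κ j + Ms * G κ i ≤ G κ j := by
  have h1 : Am Ms κ (i + 1) ≤ Am Ms κ j := Am_mono h
  rw [lo_add] at hn2
  have h0 := lo_add (Ms := Ms) (κ := κ) i
  have hG : Ms * G κ i ≤ Ms * G κ (j - 1) :=
    Nat.mul_le_mul_left _ (Nat.le_of_dvd (G_pos _) (G_dvd (by omega)))
  set X := n' + lo Ms κ i - Am Ms κ j with hX
  set d := n - lo Ms κ i with hdd
  have h2 : n + n' - Am Ms κ j = X + d := by omega
  rw [h2] at hc hc2
  have hdlt : d < Ms * G κ i := by omega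
  -- `X % G = (X + d) % G - d`
  have h5 : X % G κ j = (X + d) % G κ j - d := by
    have h6 : X + d = G κ j * ((X + d) / G κ j) + (X + d) % G κ j := (Nat.div_add_mod _ _).symm
    have h7 : X = ((X + d) % G κ j - d) + G κ j * ((X + d) / G κ j) := by omega
    rw [h7, Nat.add_mul_mod_self_left]
    rw [← h7]
    apply Nat.mod_eq_of_lt
    have := Nat.mod_lt (X + d) (G_pos (κ := κ) j)
    omega
  rw [h5]
  omega

end Params

section Seg

variable {α : Type*}

/-- segment -/
def seg (u : List α) (a b : ℕ) : List α := (u.drop a).take (b - a)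

lemma seg_left (P Q : List α) (a b : ℕ) (h : b ≤ P.length) :
    seg (P ++ Q) a b = seg P a b := by
  unfold seg
  by_cases hab : b ≤ a
  · have : b - a = 0 := by omega
    simp [this]
  · rw [List.drop_append_of_le_length (by omega), List.take_append_of_le_length]
    simp; omega

lemma drop_len_add (P Q : List α) (a : ℕ) : (P ++ Q).drop (P.length + a) = Q.drop a := by
  rw [List.drop_append, List.drop_eq_nil_of_le (by omega), List.nil_append]
  congr 1
  omega

lemma seg_right (P Q : List α) (a b : ℕ) :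
    seg (P ++ Q) (P.length + a) (P.length + b) = seg Q a b := by
  unfold seg
  have : P.length + b - (P.length + a) = b - a := by omega
  rw [this, drop_len_add]

lemma take_seg_drop (u : List α) (a b : ℕ) (h : a ≤ b) :
    u.take a ++ seg u a b ++ u.drop b = u := by
  unfold seg
  have h1 : (u.drop a).take (b - a) ++ u.drop b = u.drop a := by
    have : u.drop b = (u.drop a).drop (b - a) := by
      rw [List.drop_drop]; congr 1; omega
    rw [this, List.take_append_drop]
  rw [List.append_assoc, h1, List.take_append_drop]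

end Seg

section Main

variable {α S : Type*} [Monoid S] {N : ℕ} (Ms κ m : ℕ) (e : ℕ → S → ZMod N × ZMod N)
  (phi : List α → S)

/-- block `j` of a zone -/
def zT (j : ℕ) (u : List α) : S :=
  phi (seg u (bd Ms κ j u.length) (bd Ms κ (j + 1) u.length))
def gT (i : ℕ) (u : List α) : S := phi (u.take (bd Ms κ i u.length))
def hT (i : ℕ) (u : List α) : S := phi (u.drop (bd Ms κ (i + 1) u.length))
def wlT (i : ℕ) (u : List α) : ZMod N × ZMod N := ∑ j ∈ range i, e j (zT Ms κ phi j u)
def wrT (i : ℕ) (u : List α) : ZMod N × ZMod N := ∑ j ∈ Ico (i + 1) m, e j (zT Ms κ phi j u)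
def wT (u : List α) : ZMod N × ZMod N := ∑ j ∈ range m, e j (zT Ms κ phi j u)
/-- right readings -/
def hR (i : ℕ) (Q : List α) : S := phi (Q.drop (pr Ms κ i (i + 1) Q.length))
def wrR (i : ℕ) (Q : List α) : ZMod N × ZMod N :=
  ∑ j ∈ Ico (i + 1) m, e j (phi (seg Q (pr Ms κ i j Q.length) (pr Ms κ i (j + 1) Q.length)))
/-- right condition at level `i`. -/
def CondR (i n : ℕ) : Prop :=
  i < m ∧ Am Ms κ (m + 1) ≤ n ∧ G κ i ∣ n ∧
    ∀ j, i < j → j ≤ m → (n + lo Ms κ i - Am Ms κ j) % G κ j + Ms * G κ i ≤ G κ j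
/-- left condition at level `i`. -/
def CondL (i n : ℕ) : Prop := i < m ∧ lo Ms κ i ≤ n ∧ n < lo Ms κ i + Ms * G κ i

variable {Ms κ m phi}

lemma CondL_unique {i i' n : ℕ} (h : CondL Ms κ m i n) (h' : CondL Ms κ m i' n) : i = i' := by
  obtain ⟨_, h1, h2⟩ := h
  obtain ⟨_, h3, h4⟩ := h'
  rw [lo_add] at h2 h4
  rcases lt_trichotomy i i' with h | h | h
  · have := Am_mono (Ms := Ms) (κ := κ) (show i + 1 ≤ i' by omega)
    unfold lo at h1 h3
    omega
  · exact h
  · have := Am_mono (Ms := Ms) (κ := κ) (show i' + 1 ≤ i by omega)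
    unfold lo at h1 h3
    omega

lemma gT_left {i : ℕ} {P Q : List α} (hL : CondL Ms κ m i P.length) (hR : G κ i ∣ Q.length) :
    gT Ms κ phi i (P ++ Q) = gT Ms κ phi i P := by
  unfold gT
  rw [List.length_append, bd_left le_rfl hL.2.1 hR, List.take_append_of_le_length]
  exact le_trans (bd_lt (Ms := Ms) (κ := κ) i _).le hL.2.1

lemma wlT_left {i : ℕ} {P Q : List α} (hL : CondL Ms κ m i P.length) (hR : G κ i ∣ Q.length) :
    wlT Ms κ e phi i (P ++ Q) = wlT Ms κ e phi i P := by
  unfold wlT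
  refine Finset.sum_congr rfl (fun j hj => ?_)
  rw [Finset.mem_range] at hj
  unfold zT
  rw [List.length_append, bd_left (show j ≤ i by omega) hL.2.1 hR,
    bd_left (show j + 1 ≤ i by omega) hL.2.1 hR, seg_left]
  have h1 := bd_lt (Ms := Ms) (κ := κ) (j + 1) P.length
  have h2 : lo Ms κ (j + 1) ≤ lo Ms κ i := by
    rcases Nat.lt_or_ge (j + 1) i with h | h
    · exact le_trans (lo_le _) (le_trans (Am_mono (show j + 1 + 1 ≤ i by omega)) (by unfold lo; omega))
    · have : j + 1 = i := by omega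
      rw [this]
  have := hL.2.1
  omega

lemma hT_right {i : ℕ} {P Q : List α} (hL : CondL Ms κ m i P.length)
    (hR' : CondR Ms κ m i Q.length) :
    hT Ms κ phi i (P ++ Q) = hR Ms κ phi i Q := by
  unfold hT hR
  rw [List.length_append, bd_right (Nat.lt_succ_self i) hL.2.1 hL.2.2
    (le_trans (Am_mono (by have := hL.1; omega)) hR'.2.1) (hR'.2.2.2 _ (Nat.lt_succ_self i) hL.1),
    drop_len_add]

lemma wrT_right {i : ℕ} {P Q : List α} (hL : CondL Ms κ m i P.length)
    (hR' : CondR Ms κ m i Q.length) :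
    wrT Ms κ m e phi i (P ++ Q) = wrR Ms κ m e phi i Q := by
  unfold wrT wrR
  refine Finset.sum_congr rfl (fun j hj => ?_)
  rw [Finset.mem_Ico] at hj
  unfold zT
  rw [List.length_append, bd_right (show i < j by omega) hL.2.1 hL.2.2
    (le_trans (Am_mono (by omega)) hR'.2.1) (hR'.2.2.2 _ (by omega) (by omega)),
    bd_right (show i < j + 1 by omega) hL.2.1 hL.2.2
    (le_trans (Am_mono (by omega)) hR'.2.1) (hR'.2.2.2 _ (by omega) (by omega)), seg_right]

lemma split_g (hphi : ∀ u v, phi (u ++ v) = phi u * phi v) (i : ℕ) (u : List α) :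
    gT Ms κ phi i u * zT Ms κ phi i u * hT Ms κ phi i u = phi u := by
  unfold gT zT hT
  rw [← hphi, ← hphi, take_seg_drop]
  exact le_trans (bd_lt (Ms := Ms) (κ := κ) i _).le (le_trans (lo_le i) (le_bd _ _))

lemma split_w {i : ℕ} (hi : i < m) (u : List α) :
    wlT Ms κ e phi i u + e i (zT Ms κ phi i u) + wrT Ms κ m e phi i u = wT Ms κ m e phi u := by
  unfold wlT wrT wT
  rw [Finset.range_eq_Ico, Finset.range_eq_Ico,
    ← Finset.sum_Ico_consecutive _ (Nat.zero_le i) hi.le,
    Finset.sum_eq_sum_Ico_succ_bot hi]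
  rw [add_assoc]

/-! ### locality (helper390) -/

lemma mod_sub_eq {A g T T' : ℕ} (hA : A ≤ T) (hA' : A ≤ T') (h : T % g = T' % g) :
    (T - A) % g = (T' - A) % g := by
  have h1 : T ≡ T' [MOD g] := h
  have h2 : (T - A) + A ≡ (T' - A) + A [MOD g] := by
    rw [Nat.sub_add_cancel hA, Nat.sub_add_cancel hA']; exact h1
  exact Nat.ModEq.add_right_cancel' A h2

lemma bd_congr {j T T' : ℕ} (hj : j ≤ m) (hT : Am Ms κ (m + 1) ≤ T) (hT' : Am Ms κ (m + 1) ≤ T')
    (h : T % G κ m = T' % G κ m) : bd Ms κ j T = bd Ms κ j T' := by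
  have hA := Am_mono (Ms := Ms) (κ := κ) (show j ≤ m + 1 by omega)
  have h1 : T % G κ j = T' % G κ j := by
    rw [← Nat.mod_mod_of_dvd T (G_dvd (κ := κ) hj), h, Nat.mod_mod_of_dvd _ (G_dvd (κ := κ) hj)]
  unfold bd
  rw [mod_sub_eq (by omega) (by omega) h1]

lemma seg_take {u : List α} {a b L : ℕ} (h : b ≤ L) : seg (u.take L) a b = seg u a b := by
  unfold seg
  by_cases hab : b ≤ a
  · have : b - a = 0 := by omega
    simp [this]
  · rw [List.drop_take, List.take_take, Nat.min_eq_left (by omega)]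

lemma wT_congr {u u' : List α} (hu : Am Ms κ (m + 1) ≤ u.length)
    (hu' : Am Ms κ (m + 1) ≤ u'.length) (ht : u.take (Am Ms κ (m + 1)) = u'.take (Am Ms κ (m + 1)))
    (h : u.length % G κ m = u'.length % G κ m) :
    wT Ms κ m e phi u = wT Ms κ m e phi u' := by
  unfold wT
  refine Finset.sum_congr rfl (fun j hj => ?_)
  rw [Finset.mem_range] at hj
  unfold zT
  rw [bd_congr (show j ≤ m by omega) hu hu' h, bd_congr (show j + 1 ≤ m by omega) hu hu' h]
  have h1 := bd_lt (Ms := Ms) (κ := κ) (j + 1) u'.length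
  have h2 := lo_le (Ms := Ms) (κ := κ) (j + 1)
  have h3 := Am_mono (Ms := Ms) (κ := κ) (show j + 1 + 1 ≤ m + 1 by omega)
  rw [← seg_take (u := u) (L := Am Ms κ (m + 1)) (by omega), ht, seg_take (by omega)]

lemma CondR_congr {i n n' : ℕ} (hn : Am Ms κ (m + 1) ≤ n) (hn' : Am Ms κ (m + 1) ≤ n')
    (h : n % G κ m = n' % G κ m) (hc : CondR Ms κ m i n) : CondR Ms κ m i n' := by
  obtain ⟨h1, h2, h3, h4⟩ := hc
  have key : ∀ j, j ≤ m → n % G κ j = n' % G κ j := fun j hj => by
    rw [← Nat.mod_mod_of_dvd n (G_dvd (κ := κ) hj), h, Nat.mod_mod_of_dvd _ (G_dvd (κ := κ) hj)]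
  refine ⟨h1, hn', ?_, ?_⟩
  · exact Nat.dvd_of_mod_eq_zero (by rw [← key i (by omega)]; exact Nat.mod_eq_zero_of_dvd h3)
  · intro j hj1 hj2
    have hA := Am_mono (Ms := Ms) (κ := κ) (show j ≤ m + 1 by omega)
    have h5 : (n + lo Ms κ i) % G κ j = (n' + lo Ms κ i) % G κ j := by
      rw [Nat.add_mod, key j hj2, ← Nat.add_mod]
    rw [← mod_sub_eq (A := Am Ms κ j) (T := n + lo Ms κ i) (T' := n' + lo Ms κ i)
      (by omega) (by omega) h5]
    exact h4 j hj1 hj2

lemma pr_congr {i j n n' : ℕ} (hj : j ≤ m) (hn : Am Ms κ (m + 1) ≤ n) (hn' : Am Ms κ (m + 1) ≤ n')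
    (h : n % G κ m = n' % G κ m) : pr Ms κ i j n = pr Ms κ i j n' := by
  have hA := Am_mono (Ms := Ms) (κ := κ) (show j ≤ m + 1 by omega)
  have key : n % G κ j = n' % G κ j := by
    rw [← Nat.mod_mod_of_dvd n (G_dvd (κ := κ) hj), h, Nat.mod_mod_of_dvd _ (G_dvd (κ := κ) hj)]
  have h5 : (n + lo Ms κ i) % G κ j = (n' + lo Ms κ i) % G κ j := by
    rw [Nat.add_mod, key, ← Nat.add_mod]
  unfold pr
  rw [mod_sub_eq (A := Am Ms κ j) (T := n + lo Ms κ i) (T' := n' + lo Ms κ i)
      (by omega) (by omega) h5]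

lemma pr_le {i j n : ℕ} (hj : j ≤ m) : pr Ms κ i j n ≤ Am Ms κ (m + 1) := by
  have h1 := Nat.mod_lt (n + lo Ms κ i - Am Ms κ j) (G_pos (κ := κ) j)
  have h2 := lo_le (Ms := Ms) (κ := κ) j
  have h3 := Am_mono (Ms := Ms) (κ := κ) (show j + 1 ≤ m + 1 by omega)
  unfold lo at h2
  unfold pr
  omega

lemma hR_congr (hphi : ∀ u v, phi (u ++ v) = phi u * phi v) {i : ℕ} (hi : i < m)
    {u u' : List α} (hu : Am Ms κ (m + 1) ≤ u.length)
    (hu' : Am Ms κ (m + 1) ≤ u'.length) (ht : u.take (Am Ms κ (m + 1)) = u'.take (Am Ms κ (m + 1)))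
    (h : u.length % G κ m = u'.length % G κ m)
    (hd : phi (u.drop (Am Ms κ (m + 1))) = phi (u'.drop (Am Ms κ (m + 1)))) :
    hR Ms κ phi i u = hR Ms κ phi i u' := by
  unfold hR
  rw [pr_congr (show i + 1 ≤ m by omega) hu hu' h]
  have hp : pr Ms κ i (i + 1) u'.length ≤ Am Ms κ (m + 1) := pr_le (by omega)
  have key : ∀ w : List α, w.drop (pr Ms κ i (i + 1) u'.length) =
      (w.take (Am Ms κ (m + 1))).drop (pr Ms κ i (i + 1) u'.length) ++ w.drop (Am Ms κ (m + 1)) := by
    intro w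
    conv_lhs => rw [← List.take_append_drop (Am Ms κ (m + 1)) w]
    rw [List.drop_append]
    by_cases hw : Am Ms κ (m + 1) ≤ w.length
    · rw [List.length_take, Nat.min_eq_left hw, Nat.sub_eq_zero_of_le hp, List.drop_zero]
    · rw [List.drop_eq_nil_of_le (show w.length ≤ Am Ms κ (m + 1) by omega)]
      simp
  rw [key u, key u', hphi, hphi, ht, hd]

lemma wrR_congr {i : ℕ} {u u' : List α} (hu : Am Ms κ (m + 1) ≤ u.length)
    (hu' : Am Ms κ (m + 1) ≤ u'.length) (ht : u.take (Am Ms κ (m + 1)) = u'.take (Am Ms κ (m + 1)))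
    (h : u.length % G κ m = u'.length % G κ m) :
    wrR Ms κ m e phi i u = wrR Ms κ m e phi i u' := by
  unfold wrR
  refine Finset.sum_congr rfl (fun j hj => ?_)
  rw [Finset.mem_Ico] at hj
  rw [pr_congr (show j ≤ m by omega) hu hu' h, pr_congr (show j + 1 ≤ m by omega) hu hu' h]
  have h1 : pr Ms κ i (j + 1) u'.length ≤ Am Ms κ (m + 1) := pr_le (by omega)
  rw [← seg_take (u := u) (L := Am Ms κ (m + 1)) h1, ht, seg_take h1]

end Main

/-- **Scheme 1 on all words.** `k` moduli (odd, pairwise coprime); `Am` / `G` as above; sound for ALL `P`, `Q`;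
complete for every `u` whose length is clean. -/
theorem grid_gadget (S V : Type*) [Monoid S] [Finite S] [AddCommGroup V] [Finite V]
    (act : V → S → V) :
    ∃ (k m : ℕ), ∀ q : Fin k → ℕ, (∀ j, Odd (q j)) →
      Pairwise (fun i j => Nat.Coprime (q i) (q j)) → ∀ κ : ℕ,
      ∀ (α : Type*) (phi : List α → S), (∀ u v, phi (u ++ v) = phi u * phi v) →
      ∃ (lam rho : List α → Option V) (nu : List α → V),
        (∀ P v, lam P = some v → P.length < Am (∏ j, q j) κ m ∧ P ≠ []) ∧
        (∀ Q b, rho Q = some b → Am (∏ j, q j) κ (m + 1) ≤ Q.length) ∧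
        (∀ P Q v b, lam P = some v → rho Q = some b → b = act v (phi (P ++ Q)) + nu (P ++ Q)) ∧
        (∀ u : List α, 2 * Am (∏ j, q j) κ (m + 1) ≤ u.length → (∀ j, ¬ q j ∣ u.length) →
          (∀ j, 1 ≤ j → j ≤ m →
            (∏ j, q j) * G κ (j - 1) ≤ (u.length - Am (∏ j, q j) κ j) % G κ j ∧
            (u.length - Am (∏ j, q j) κ j) % G κ j + (∏ j, q j) * G κ (j - 1) ≤ G κ j) →
          ∀ v, ∃ P Q, u = P ++ Q ∧ lam P = some v ∧ (rho Q).isSome) ∧
        (∀ u u' : List α, Am (∏ j, q j) κ (m + 1) ≤ u.length →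
          Am (∏ j, q j) κ (m + 1) ≤ u'.length →
          u.take (Am (∏ j, q j) κ (m + 1)) = u'.take (Am (∏ j, q j) κ (m + 1)) →
          u.length % ((∏ j, q j) * G κ m) = u'.length % ((∏ j, q j) * G κ m) →
          phi (u.drop (Am (∏ j, q j) κ (m + 1))) = phi (u'.drop (Am (∏ j, q j) κ (m + 1))) →
          rho u = rho u' ∧ nu u = nu u') := by
  classical
  obtain ⟨m, N, k, e, hN, H⟩ := NameGad808.unknownT_gadget S V act
  refine ⟨k, m, ?_⟩
  intro q hq hcop κ α phi hphi
  obtain ⟨L, R, lev, D, hlev, hsound, hcomp⟩ := H q hq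
  set Ms := ∏ j, q j with hMs
  let ct : ℕ → (∀ j, ZMod (q j)) := fun n j => (n : ZMod (q j))
  let lam : List α → Option V := fun P =>
    if h : ∃ i, CondL Ms κ m i P.length then
      L h.choose (ct P.length) (gT Ms κ phi h.choose P) (wlT Ms κ e phi h.choose P) else none
  let rho : List α → Option V := fun Q =>
    if CondR Ms κ m (lev (ct Q.length)) Q.length then
      R (lev (ct Q.length)) (ct Q.length) (hR Ms κ phi (lev (ct Q.length)) Q)
        (wrR Ms κ m e phi (lev (ct Q.length)) Q) else none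
  let nu : List α → V := fun u => D (ct u.length) (phi u) (wT Ms κ m e phi u)
  have hlam : ∀ P v, lam P = some v → ∃ i, CondL Ms κ m i P.length ∧
      L i (ct P.length) (gT Ms κ phi i P) (wlT Ms κ e phi i P) = some v := by
    intro P v h
    simp only [lam] at h
    split_ifs at h with h1
    exact ⟨h1.choose, h1.choose_spec, h⟩
  have hlam' : ∀ P v i, CondL Ms κ m i P.length →
      L i (ct P.length) (gT Ms κ phi i P) (wlT Ms κ e phi i P) = some v → lam P = some v := by
    intro P v i hi h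
    have h1 : ∃ i, CondL Ms κ m i P.length := ⟨i, hi⟩
    simp only [lam]
    rw [dif_pos h1, CondL_unique h1.choose_spec hi]
    exact h
  have hrho : ∀ Q b, rho Q = some b → ∃ i, CondR Ms κ m i Q.length ∧
      R i (ct Q.length) (hR Ms κ phi i Q) (wrR Ms κ m e phi i Q) = some b := by
    intro Q b h
    simp only [rho] at h
    split_ifs at h with h1
    exact ⟨_, h1, h⟩
  have hct : ∀ n n', ct (n + n') = ct n + ct n' := by
    intro n n'
    funext j
    simp [ct]
  refine ⟨lam, rho, nu, ?_, ?_, ?_, ?_, ?_⟩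
  · intro P v h
    obtain ⟨i, hi, _⟩ := hlam P v h
    have h2 := hi.2.2
    rw [lo_add] at h2
    have h3 := Am_mono (Ms := Ms) (κ := κ) (show i + 1 ≤ m by have := hi.1; omega)
    refine ⟨by omega, ?_⟩
    rintro rfl
    have h4 := hi.2.1
    have h5 := G_pos (κ := κ) i
    unfold lo at h4
    simp at h4
    omega
  · intro Q b h
    obtain ⟨i, hi, _⟩ := hrho Q b h
    exact hi.2.1
  · intro P Q v b h1 h2
    obtain ⟨i, hi, hL⟩ := hlam P v h1
    obtain ⟨i', hi', hR'⟩ := hrho Q b h2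
    have := hsound i i' (ct P.length) (ct Q.length) (gT Ms κ phi i P) (hR Ms κ phi i' Q)
      (phi (P ++ Q)) (wlT Ms κ e phi i P) (wrR Ms κ m e phi i' Q) (wT Ms κ m e phi (P ++ Q)) v b
      ?_ hL hR'
    · rw [this]
      simp only [nu]
      rw [List.length_append, hct]
    · rintro rfl
      refine ⟨zT Ms κ phi i (P ++ Q), ?_, ?_⟩
      · rw [← gT_left hi hi'.2.2.1, ← hT_right hi hi']
        exact split_g hphi i _
      · rw [← wlT_left e hi hi'.2.2.1, ← wrT_right e hi hi']
        exact split_w e hi.1 _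
  · intro u hu hnd hcl v
    have hT0 : ∀ j, ct u.length j ≠ 0 := by
      intro j
      simp only [ct]
      rw [Ne, ZMod.natCast_eq_zero_iff]
      exact hnd j
    obtain ⟨i, him, hi⟩ := hcomp (ct u.length) hT0 (phi u) (wT Ms κ m e phi u) v
    obtain ⟨t, t', htt, hL, hRR⟩ := hi (gT Ms κ phi i u) (zT Ms κ phi i u) (hT Ms κ phi i u)
      (wlT Ms κ e phi i u) (wrT Ms κ m e phi i u) (split_g hphi i u) (split_w e him u)
    -- the place
    have hqpos : ∀ j, 0 < q j := fun j => (hq j).pos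
    have hAi : Am Ms κ (i + 1) ≤ Am Ms κ (m + 1) := Am_mono (by omega)
    set T := u.length with hT
    -- start of the progression
    let r := lo Ms κ i + (T - lo Ms κ i) % G κ i
    have hr : G κ i ∣ T - r := by
      have h1 : lo Ms κ i ≤ T := by
        have := lo_le (Ms := Ms) (κ := κ) i
        omega
      have h2 : T - r = G κ i * ((T - lo Ms κ i) / G κ i) := by
        have := Nat.div_add_mod (T - lo Ms κ i) (G κ i)
        simp only [r]
        omega
      rw [h2]
      exact Dvd.intro _ rfl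
    have hunit : ∀ j, IsUnit ((G κ i : ℕ) : ZMod (q j)) := by
      intro j
      rw [ZMod.isUnit_iff_coprime]
      exact Nat.Coprime.pow_left _ ((Nat.coprime_two_left).2 (hq j))
    obtain ⟨ω, _, hω, hω2⟩ := NameGad808.crt_hit q hqpos hcop
      (fun j => (t j - (r : ZMod (q j))) * ((hunit j).unit⁻¹ : (ZMod (q j))ˣ)) 0
    have hω' : ω < Ms := by simp only [zero_add] at hω; exact hω
    let o := r + G κ i * ω
    have hr1 : (T - lo Ms κ i) % G κ i < G κ i := Nat.mod_lt _ (G_pos i)
    have ho1 : lo Ms κ i ≤ o := by simp only [o, r]; omega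
    have ho2 : o < lo Ms κ i + Ms * G κ i := by
      have h1 : G κ i * (ω + 1) ≤ G κ i * Ms := Nat.mul_le_mul_left _ hω'
      have h2 : G κ i * (ω + 1) = G κ i * ω + G κ i := by ring
      have h3 : Ms * G κ i = G κ i * Ms := Nat.mul_comm _ _
      simp only [o, r]
      omega
    have ho3 : o < Am Ms κ (m + 1) := by
      rw [lo_add] at ho2
      omega
    have hcto : ct o = t := by
      funext j
      simp only [ct, o]
      rw [Nat.cast_add, Nat.cast_mul, hω2 j]
      have : ((G κ i : ℕ) : ZMod (q j)) * ((hunit j).unit⁻¹ : (ZMod (q j))ˣ) = 1 := by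
        have := (hunit j).mul_val_inv
        simpa using this
      calc (r : ZMod (q j)) + (G κ i : ZMod (q j)) * ((t j - (r : ZMod (q j))) *
            ((hunit j).unit⁻¹ : (ZMod (q j))ˣ))
          = (r : ZMod (q j)) + (t j - (r : ZMod (q j))) * ((G κ i : ZMod (q j)) *
            ((hunit j).unit⁻¹ : (ZMod (q j))ˣ)) := by ring
        _ = t j := by rw [this]; ring
    have hPl : (u.take o).length = o := by
      rw [List.length_take]
      omega
    have hQl : (u.drop o).length = T - o := by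
      rw [List.length_drop]
    have hu' : u.take o ++ u.drop o = u := List.take_append_drop _ _
    have hcto' : ct (T - o) = t' := by
      have h1 : ct T = ct o + ct (T - o) := by
        rw [← hct]
        congr 1
        omega
      rw [← htt, hcto] at h1
      exact (add_left_cancel h1).symm
    have hLc : CondL Ms κ m i (u.take o).length := by
      rw [hPl]
      exact ⟨him, ho1, ho2⟩
    have hdv : G κ i ∣ T - o := by
      have h1 : T - o = (T - r) - G κ i * ω := by simp only [o]; omega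
      rw [h1]
      exact Nat.dvd_sub hr (Dvd.intro _ rfl)
    have hRc : CondR Ms κ m i (u.drop o).length := by
      rw [hQl]
      refine ⟨him, by omega, hdv, ?_⟩
      intro j hj1 hj2
      have hA : Am Ms κ j ≤ Am Ms κ (m + 1) := Am_mono (by omega)
      have h1 := hcl j (by omega) hj2
      have h2 : o + (T - o) = T := by omega
      apply right_clean hj1 ho1 ho2 (by omega)
      · rw [h2]; exact h1.1
      · rw [h2]; exact h1.2
    refine ⟨u.take o, u.drop o, hu'.symm, ?_, ?_⟩
    · apply hlam' _ _ i hLc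
      rw [hPl, hcto, ← gT_left (phi := phi) hLc hRc.2.2.1, ← wlT_left e (phi := phi) hLc hRc.2.2.1,
        hu']
      exact hL
    · obtain ⟨b, hb⟩ := Option.isSome_iff_exists.1 hRR
      have hl := (hlev i t' _ _ b hb).1
      have h3 : lev (ct (u.drop o).length) = i := by
        rw [hQl, hcto', hl]
      simp only [rho]
      rw [h3, if_pos hRc, ← hT_right (phi := phi) hLc hRc, ← wrT_right e (phi := phi) hLc hRc, hu',
        hQl, hcto']
      exact hRR
  · intro u u' hu hu' ht hlen hd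
    have hm1 : u.length % G κ m = u'.length % G κ m := by
      rw [← Nat.mod_mod_of_dvd u.length (Dvd.intro_left (∏ j, q j) rfl), hlen,
        Nat.mod_mod_of_dvd _ (Dvd.intro_left (∏ j, q j) rfl)]
    have hctu : ct u.length = ct u'.length := by
      funext j
      simp only [ct]
      rw [ZMod.natCast_eq_natCast_iff']
      have hdj : q j ∣ (∏ j, q j) * G κ m := (Finset.dvd_prod_of_mem q (Finset.mem_univ j)).mul_right _
      rw [← Nat.mod_mod_of_dvd u.length hdj, hlen, Nat.mod_mod_of_dvd _ hdj]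
    have hphiu : phi u = phi u' := by
      rw [← List.take_append_drop (Am (∏ j, q j) κ (m + 1)) u,
        ← List.take_append_drop (Am (∏ j, q j) κ (m + 1)) u', hphi, hphi, ht, hd]
    constructor
    · simp only [rho]
      rw [hctu]
      by_cases hc : CondR Ms κ m (lev (ct u'.length)) u'.length
      · have hc' := CondR_congr hu' hu hm1.symm hc
        rw [if_pos hc, if_pos hc', hR_congr hphi hc.1 hu hu' ht hm1 hd,
          wrR_congr e hu hu' ht hm1]
      · have hc' : ¬ CondR Ms κ m (lev (ct u'.length)) u.length :=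
          fun h => hc (CondR_congr hu hu' hm1 h)
        rw [if_neg hc, if_neg hc']
    · simp only [nu]
      rw [hctu, hphiu, wT_congr e hu hu' ht hm1]

end Crest.Agent.R320.Grid_390
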