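import Crest.Agent.R320.FinJ_645
import Crest.Agent.R320.Grid_390
import Crest.Agent.R320.Thin_963
import Crest.Agent.R320.ExactR_237
import Crest.Agent.R320.LWallAll_922
import Crest.Agent.R320.LetMap_922

/-!
# Row 320: the constants (helper645)

`gad` : gadget 1 with its ruler; `fin` : the fibres of a finite monoid have height `≤ 3`.
-/

set_option autoImplicit false

namespace Crest.Agent.R320.FinK_645

open Crest.RegLang Crest.Agent.R320.Hk_851 Crest.Agent.R320.BddReg_746
open Crest.Agent.R320.Grid_390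

theorem exists_primes (k B : ℕ) :
    ∃ q : Fin k → ℕ, Function.Injective q ∧ ∀ j, (q j).Prime ∧ B ≤ q j := by
  have hinf : ({p | p.Prime} \ {p | p < B} : Set ℕ).Infinite :=
    Nat.infinite_setOf_prime.diff (Set.finite_lt_nat B)
  refine ⟨fun j => (hinf.natEmbedding _ j : ℕ), ?_, ?_⟩
  · intro i j h
    have := (hinf.natEmbedding _).injective (Subtype.ext h)
    exact Fin.ext this
  · intro j
    have := (hinf.natEmbedding _ j).2
    refine ⟨this.1, ?_⟩
    have h2 := this.2
    simp only [Set.mem_setOf_eq, not_lt] at h2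
    exact h2

theorem sum_pow_le (κ : ℕ) (hκ : 1 ≤ κ) (i : ℕ) :
    ∑ j ∈ Finset.range (i + 1), 2 ^ (κ * j) ≤ 2 * 2 ^ (κ * i) := by
  induction i with
  | zero => simp
  | succ i ih =>
    rw [Finset.sum_range_succ]
    have h1 : 2 * 2 ^ (κ * i) ≤ 2 ^ (κ * (i + 1)) := by
      rw [Nat.mul_add, Nat.mul_one, pow_add, Nat.mul_comm]
      exact Nat.mul_le_mul_left _ (by
        calc 2 = 2 ^ 1 := by norm_num
          _ ≤ 2 ^ κ := Nat.pow_le_pow_right (by norm_num) hκ)
    omega

theorem sidon {a b c d : ℕ} (h : 2 ^ a + 2 ^ b = 2 ^ c + 2 ^ d) :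
    (a = c ∧ b = d) ∨ (a = d ∧ b = c) := by
  have key : ∀ a b c d : ℕ, a ≤ b → c ≤ d → 2 ^ a + 2 ^ b = 2 ^ c + 2 ^ d → a = c ∧ b = d := by
    intro a
    induction a with
    | zero =>
      intro b c d hab hcd h
      rcases Nat.eq_zero_or_pos c with hc | hc
      · subst hc
        refine ⟨rfl, ?_⟩
        have : 2 ^ b = 2 ^ d := by omega
        exact Nat.pow_right_injective le_rfl this
      · exfalso
        obtain ⟨c', rfl⟩ := Nat.exists_eq_succ_of_ne_zero hc.ne'
        obtain ⟨d', rfl⟩ := Nat.exists_eq_succ_of_ne_zero (show d ≠ 0 by omega)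
        rcases Nat.eq_zero_or_pos b with hb | hb
        · subst hb
          have h1 : 1 ≤ 2 ^ c' := Nat.one_le_two_pow
          have h2 : 1 ≤ 2 ^ d' := Nat.one_le_two_pow
          rw [pow_succ, pow_succ] at h
          omega
        · obtain ⟨b', rfl⟩ := Nat.exists_eq_succ_of_ne_zero hb.ne'
          rw [pow_succ, pow_succ, pow_succ] at h
          omega
    | succ a ih =>
      intro b c d hab hcd h
      obtain ⟨b', rfl⟩ := Nat.exists_eq_succ_of_ne_zero (show b ≠ 0 by omega)
      rcases Nat.eq_zero_or_pos c with hc | hc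
      · exfalso
        subst hc
        rcases Nat.eq_zero_or_pos d with hd | hd
        · subst hd
          have h1 : 1 ≤ 2 ^ a := Nat.one_le_two_pow
          have h2 : 1 ≤ 2 ^ b' := Nat.one_le_two_pow
          rw [pow_succ, pow_succ] at h
          omega
        · obtain ⟨d', rfl⟩ := Nat.exists_eq_succ_of_ne_zero hd.ne'
          rw [pow_succ, pow_succ, pow_succ] at h
          omega
      · obtain ⟨c', rfl⟩ := Nat.exists_eq_succ_of_ne_zero hc.ne'
        obtain ⟨d', rfl⟩ := Nat.exists_eq_succ_of_ne_zero (show d ≠ 0 by omega)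
        rw [pow_succ, pow_succ, pow_succ, pow_succ] at h
        have := ih b' c' d' (by omega) (by omega) (by omega)
        omega
  rcases Nat.le_total a b with h1 | h1 <;> rcases Nat.le_total c d with h2 | h2
  · exact Or.inl (key a b c d h1 h2 h)
  · have := key a b d c h1 h2 (by omega)
    exact Or.inr this
  · have := key b a c d h1 h2 (by omega)
    exact Or.inr ⟨this.2, this.1⟩
  · have := key b a d c h1 h2 (by omega)
    exact Or.inl ⟨this.2, this.1⟩

universe u

/-- gadget 1 with its ruler `X * 2 ^ k` -/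
theorem gad (S V : Type u) [Monoid S] [Finite S] [AddCommGroup V] [Finite V] (act : V → S → V) :
    ∃ C0 : ℕ, ∀ K : ℕ, ∀ (α : Type u) (φ : α → S),
    ∃ (N1 A1 M1 X : ℕ) (BadT : ℕ → Prop) (lam rho : List α → Option V) (nu : List α → V),
      0 < N1 ∧ 0 < M1 ∧ 2 * N1 < X ∧
      (∀ P v, lam P = some v → P.length ≤ N1) ∧
      (∀ P Q v b, lam P = some v → rho Q = some b →
        b = act v ((P ++ Q).map φ).prod + nu (P ++ Q)) ∧
      (∀ u : List α, 2 * A1 ≤ u.length → ¬ BadT u.length → ∀ v, ∃ P Q, u = P ++ Q ∧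
        lam P = some v ∧ (rho Q).isSome) ∧
      (∀ u u' : List α, A1 ≤ u.length → A1 ≤ u'.length → u.take A1 = u'.take A1 →
        ((u.drop A1).map φ).prod = ((u'.drop A1).map φ).prod →
        u.length % M1 = u'.length % M1 → nu u = nu u') ∧
      (∀ T T', A1 ≤ T → A1 ≤ T' → T % M1 = T' % M1 → (BadT T ↔ BadT T')) ∧
      (∀ (T : ℤ) (J : Finset ℕ), (∀ k ∈ J, k < K ∧ ∃ k', k' < K ∧ k' ≠ k ∧ ∃ n : ℕ, A1 ≤ n ∧
        (n : ℤ) = T + (X : ℤ) * 2 ^ k' - (X : ℤ) * 2 ^ k ∧ BadT n) → J.card ≤ C0) := by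
  classical
  obtain ⟨kk, m, H⟩ := grid_gadget S V act
  refine ⟨kk + m, fun K α φ => ?_⟩
  obtain ⟨q, hqi, hq⟩ := exists_primes kk (2 ^ (K + 1) + 3)
  have hodd : ∀ j, Odd (q j) := fun j => (hq j).1.odd_of_ne_two (by
    have := (hq j).2
    have h1 : 0 < 2 ^ (K + 1) := by positivity
    omega)
  have hcop : Pairwise (fun i j => Nat.Coprime (q i) (q j)) := fun i j hij =>
    (Nat.coprime_primes (hq i).1 (hq j).1).2 fun h => hij (hqi h)
  set Ms : ℕ := ∏ j, q j with hMs
  have hMspos : 0 < Ms := Finset.prod_pos fun j _ => (hq j).1.pos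
  set κ : ℕ := K + 5 + Ms with hκ
  obtain ⟨lam, rho, nu, h1, h2, h3, h4, h5⟩ := H q hodd hcop κ α (fun l => (l.map φ).prod)
    (fun a b => by rw [List.map_append, List.prod_append])
  let A : ℕ → ℕ := fun i => Am Ms κ i
  let Ms' : Finset ℕ := Finset.univ.image q
  have hAm : ∀ i, A i ≤ A (i + 1) := fun i => Am_succ_ge i
  have hAmono : ∀ i j, i ≤ j → A i ≤ A j := fun i j h => Am_mono h
  let BadT : ℕ → Prop := fun n => (∃ j, q j ∣ n) ∨ ∃ j, 1 ≤ j ∧ j ≤ m ∧
    ¬ (Ms * G κ (j - 1) ≤ (n - A j) % G κ j ∧ (n - A j) % G κ j + Ms * G κ (j - 1) ≤ G κ j)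
  obtain ⟨X, hX1, hX2, hX3⟩ := Thin963.thin K m Ms' (fun i => (G κ i : ℤ))
    (fun i => (Ms * G κ i : ℕ)) (fun i => (A i : ℤ))
    (by
      intro p hp
      obtain ⟨j, -, rfl⟩ := Finset.mem_image.1 hp
      refine ⟨(hq j).1, ?_⟩
      have := (hq j).2
      omega)
    (by
      intro p hp
      obtain ⟨j, -, rfl⟩ := Finset.mem_image.1 hp
      rw [Nat.isCoprime_iff_coprime]
      exact Nat.Coprime.pow_right _ (Nat.coprime_two_right.2 (hodd j)))
    (by exact_mod_cast G_pos (κ := κ) m)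
    (fun i j h => by exact_mod_cast G_dvd (κ := κ) h)
    (fun i => by
      have : 0 < Ms * G κ i := Nat.mul_pos hMspos (G_pos i)
      exact_mod_cast this)
    (fun i => by exact_mod_cast Dvd.intro_left _ rfl)
    (by
      intro i hi
      have e1 := sum_pow_le κ (by omega) i
      have e2 : Ms ≤ 2 ^ Ms := Nat.lt_two_pow_self.le
      have e3 : 2 ^ (K + 4) * ∑ j ∈ Finset.range (i + 1), Ms * 2 ^ (κ * j) ≤ 2 ^ (κ * (i + 1)) := by
        rw [← Finset.mul_sum]
        calc 2 ^ (K + 4) * (Ms * ∑ j ∈ Finset.range (i + 1), 2 ^ (κ * j))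
            ≤ 2 ^ (K + 4) * (2 ^ Ms * (2 * 2 ^ (κ * i))) :=
              Nat.mul_le_mul_left _ (Nat.mul_le_mul e2 e1)
          _ = 2 ^ (κ * (i + 1)) := by
              have e6 : (2:ℕ) ^ κ = 2 ^ (K + 4) * 2 * 2 ^ Ms := by
                rw [hκ, pow_add, show K + 5 = (K + 4) + 1 by omega, pow_succ]
              have e7 : (2:ℕ) ^ (κ * (i + 1)) = 2 ^ (κ * i) * 2 ^ κ := by
                rw [Nat.mul_add, Nat.mul_one, pow_add]
              rw [e7, e6]
              ring
      have e4 : (2:ℤ) ^ (K + 4) * ∑ j ∈ Finset.range (i + 1), ((Ms * 2 ^ (κ * j) : ℕ) : ℤ) ≤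
          ((2 ^ (κ * (i + 1)) : ℕ) : ℤ) := by
        have := (Nat.cast_le (α := ℤ)).2 e3
        rw [Nat.cast_mul, Nat.cast_sum] at this
        rw [show (((2:ℕ) ^ (K + 4) : ℕ) : ℤ) = (2:ℤ) ^ (K + 4) by push_cast; rfl] at this
        exact this
      exact e4)
    ((2 * (A (m + 1) + 1) + 1 : ℕ) : ℤ)
  lift X to ℕ using hX2.le with X'
  have hX1' : 2 * (A (m + 1) + 1) + 1 ≤ X' := by exact_mod_cast hX1
  refine ⟨A (m + 1) + 1, A (m + 1), Ms * G κ m, X', BadT, lam, rho, nu, by omega,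
    Nat.mul_pos hMspos (G_pos m), by omega, ?_, h3, ?_, ?_, ?_, ?_⟩
  · intro P v h
    have := (h1 P v h).1
    have h6 : A m ≤ A (m + 1) := hAm m
    change P.length < A m at this
    omega
  · intro u hu hb v
    refine h4 u hu (fun j hj => hb (Or.inl ⟨j, hj⟩)) (fun j hj1 hj2 => ?_) v
    by_contra hn
    exact hb (Or.inr ⟨j, hj1, hj2, hn⟩)
  · intro u u' hu hu' ht hp hm
    exact (h5 u u' hu hu' ht hm hp).2
  · have key : ∀ T T', A (m + 1) ≤ T → A (m + 1) ≤ T' → T % (Ms * G κ m) = T' % (Ms * G κ m) →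
        BadT T → BadT T' := by
      intro T T' h6 h7 h8 hb
      rcases hb with ⟨j, hj⟩ | ⟨j, hj1, hj2, hj⟩
      · left
        refine ⟨j, ?_⟩
        have hd : q j ∣ Ms * G κ m := Dvd.dvd.mul_right (Finset.dvd_prod_of_mem q (Finset.mem_univ j)) _
        exact ((Nat.ModEq.of_dvd hd h8).dvd_iff dvd_rfl).1 hj
      · right
        refine ⟨j, hj1, hj2, ?_⟩
        have hd : G κ j ∣ Ms * G κ m := dvd_trans (G_dvd hj2) (Nat.dvd_mul_left _ _)
        have h9 : A j ≤ A (m + 1) := hAmono _ _ (by omega)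
        have h10 : (T - A j) % G κ j = (T' - A j) % G κ j := by
          have : (T - A j) + A j ≡ (T' - A j) + A j [MOD G κ j] := by
            rw [Nat.sub_add_cancel (by omega), Nat.sub_add_cancel (by omega)]
            exact Nat.ModEq.of_dvd hd h8
          exact Nat.ModEq.add_right_cancel' _ this
        rw [← h10]; exact hj
    intro T T' h6 h7 h8
    exact ⟨key T T' h6 h7 h8, key T' T h7 h6 h8.symm⟩
  · intro T J hJ
    have h6 := hX3 T
    have hcard : Ms'.card ≤ kk := by
      have := Finset.card_image_le (s := (Finset.univ : Finset (Fin kk))) (f := q)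
      simpa using this
    choose! f hf using fun k hk => (hJ k hk).2
    have h7 : J.card ≤ (((Finset.range K) ×ˢ (Finset.range K)).filter (fun p => p.1 ≠ p.2 ∧
        Thin963.BadT Ms' m (fun i => (G κ i : ℤ)) (fun i => ((Ms * G κ i : ℕ) : ℤ))
          (fun i => (A i : ℤ)) (T + (X' : ℤ) * 2 ^ p.1 - (X' : ℤ) * 2 ^ p.2))).card := by
      refine Finset.card_le_card_of_injOn (fun k => (f k, k)) ?_ ?_
      · intro k hk
        have hk' : k ∈ J := hk
        obtain ⟨g1, g2, n, g3, g4, g5⟩ := hf k hk'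
        simp only [Finset.coe_filter, Finset.mem_product, Finset.mem_range, Set.mem_setOf_eq]
        refine ⟨⟨g1, (hJ k hk').1⟩, g2, ?_⟩
        rw [← g4]
        rcases g5 with ⟨j, hj⟩ | ⟨j, hj1, hj2, hj⟩
        · left
          exact ⟨q j, Finset.mem_image_of_mem q (Finset.mem_univ j), by exact_mod_cast hj⟩
        · right
          obtain ⟨i, rfl⟩ : ∃ i, j = i + 1 := ⟨j - 1, by omega⟩
          refine ⟨i, by omega, ?_⟩
          rw [Nat.add_sub_cancel] at hj
          have hA9 : A (i + 1) ≤ A (m + 1) := hAmono _ _ (by omega)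
          have hdm := Nat.div_add_mod (n - A (i + 1)) (G κ (i + 1))
          have hlt := Nat.mod_lt (n - A (i + 1)) (G_pos (κ := κ) (i + 1))
          set r := (n - A (i + 1)) % G κ (i + 1) with hr
          set d := (n - A (i + 1)) / G κ (i + 1) with hd
          have hn : (n : ℤ) - (A (i + 1) : ℤ) = (G κ (i + 1) : ℤ) * (d : ℤ) + (r : ℤ) := by
            have : n = A (i + 1) + (G κ (i + 1) * d + r) := by omega
            have := congrArg (Nat.cast (R := ℤ)) this
            push_cast at this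
            linarith
          by_cases hr1 : r < Ms * G κ i
          · refine ⟨-(r : ℤ), ?_, ⟨(d : ℤ), ?_⟩⟩
            · rw [abs_neg, Nat.abs_cast]
              show (r : ℤ) ≤ ((Ms * G κ i : ℕ) : ℤ)
              exact_mod_cast hr1.le
            · linarith
          · refine ⟨(G κ (i + 1) : ℤ) - (r : ℤ), ?_, ⟨(d : ℤ) + 1, ?_⟩⟩
            · have hr2 : G κ (i + 1) < r + Ms * G κ i := by
                by_contra hc
                exact hj ⟨by omega, by omega⟩
              rw [abs_of_nonneg (by have : (r:ℤ) < (G κ (i + 1) : ℤ) := by exact_mod_cast hlt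
                                    linarith)]
              have : (G κ (i + 1) : ℤ) < (r : ℤ) + ((Ms * G κ i : ℕ) : ℤ) := by exact_mod_cast hr2
              linarith
            · linear_combination hn
      · intro k1 _ k2 _ h
        exact (Prod.ext_iff.1 h).2
    have h8 : J.card ≤ Ms'.card + m := h7.trans h6
    omega

/-- **the fibres** -/
theorem fin (α : Type) [Finite α] (S : Type) [Monoid S] [Finite S] (φ : α → S) (s : S) :
    HL 3 ({w | (w.map φ).prod = s} : Language α) := by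
  classical
  haveI := Fintype.ofFinite S
  obtain ⟨act, hadd, hone, hmul, hfaith⟩ := Blk467.exists_module S
  haveI : Fintype (S → ZMod 2) := Fintype.ofFinite _
  obtain ⟨C0, hg⟩ := gad S (S → ZMod 2) act
  obtain ⟨K, hK⟩ := ExactR_237.exact_gadget α S (S → ZMod 2) φ act (2 * C0 + 2)
  obtain ⟨N1, A1, M1, X, BadT, lam, rho, nu, hN1, hM1, hX, g1, g2, g3, g4, g5, g6⟩ := hg K α φ
  have hXpos : 0 < X := by omega
  let c : ℕ → ℕ := fun j => X * 2 ^ j
  have hcmono : ∀ i j, i < j → c i < c j := fun i j h =>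
    Nat.mul_lt_mul_of_pos_left (Nat.pow_lt_pow_right (by norm_num) h) hXpos
  obtain ⟨lam2, rho2, nu2, e1, e2⟩ := hK c (fun i j h _ => hcmono i j h)
  let p0 : ℕ := c K
  have hcp : ∀ k < K, c k ≤ p0 := fun k hk => (hcmono k K hk).le
  obtain ⟨n, G', B, Wo, hLW, hgap, -, -, hfree⟩ :=
    LWallAll_922.walls_all_left α (2 * p0 + 2 * N1 + 1) (by omega)
  let q0 : ℕ := n + 2 * p0 + 2 * A1
  let g : Sc2n_937.Geo α :=
    { Wo := Wo, n := n, z := p0 + N1 + q0, p0 := p0, q0 := q0, N1 := N1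
      loc := hLW.app, hz := rfl, hq := by omega, hN := hN1, hqp := by omega }
  have hgap' : ∀ P Q : List α, Wo P → Wo (P ++ Q) → Q ≠ [] → 2 * p0 + 2 * N1 < Q.length := by
    intro P Q h1 h2 h3
    have hQ : 0 < Q.length := List.length_pos_iff.2 h3
    have := hgap (P ++ Q) P.length (P.length + Q.length) (by omega) (by simp)
      (by rw [List.take_left]; exact h1)
      (by rw [List.take_of_length_le (by simp)]; exact h2)
    omega
  refine FinJ_645.join act hadd hone hmul hfaith φ g hLW.len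
    (B := max B (2 * p0 + 2 * N1 + 1)) (R := 2) ?_ lam rho nu BadT g1 g2
    (fun u hu hb v => g3 u (by
      have : N1 + q0 ≤ u.length := hu
      omega) hb v) A1 M1 hM1 g4 g5 K c hcp lam2 (fun k Q => rho2 k Q 1) (fun Q => nu2 Q 1)
    ?_ C0 ?_ hgap' ?_ ?_ s
  · intro u hu
    obtain ⟨a, x, b, k, h1, h2, h3, h4⟩ := hfree u hu
    rw [h4]
    refine Language.mem_mul.2 ⟨a ++ (List.replicate k x).flatten, ⟨a, x, k, ?_, ?_, rfl⟩, b, ?_, rfl⟩
    · exact h1.trans (le_max_left _ _)
    · exact h2.trans (le_max_right _ _)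
    · refine Language.mem_mul.2 ⟨b, ⟨b, [], 0, h3.trans (le_max_left _ _), by simp, ?_⟩, [], rfl, ?_⟩
      · simp
      · simp
  · intro k hk P Q v b hP hl hr
    have := e1 k hk P Q 1 v b hP hl hr
    rw [mul_one] at this
    exact this
  · intro u hu v
    obtain ⟨I, h1, h2⟩ := e2 u 1 v (fun k hk => by
      have : u.length = p0 := hu
      rw [this]; exact hcp k hk)
    exact ⟨I, h1, h2⟩
  · intro k k' l l' hk hk' hl hl' h1 h2 h3 h4
    have e : 2 ^ k + 2 ^ l' = 2 ^ l + 2 ^ k' := by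
      have h3' : X * 2 ^ k + X * 2 ^ l' < X * 2 ^ l + X * 2 ^ k' + 2 * N1 := h3
      have h4' : X * 2 ^ l + X * 2 ^ k' < X * 2 ^ k + X * 2 ^ l' + 2 * N1 := h4
      rw [← Nat.mul_add, ← Nat.mul_add] at h3' h4'
      by_contra hne
      rcases Nat.lt_or_gt_of_ne hne with h | h
      · have : X * (2 ^ k + 2 ^ l') + X ≤ X * (2 ^ l + 2 ^ k') := by
          have := Nat.mul_le_mul_left X (Nat.succ_le_of_lt h)
          rw [Nat.mul_succ] at this
          exact this
        omega
      · have : X * (2 ^ l + 2 ^ k') + X ≤ X * (2 ^ k + 2 ^ l') := by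
          have := Nat.mul_le_mul_left X (Nat.succ_le_of_lt h)
          rw [Nat.mul_succ] at this
          exact this
        omega
    rcases sidon e with h | h
    · exact h.1
    · exact absurd h.1.symm h1
  · intro τ hτ J hJ
    have hτ' : p0 + N1 + q0 ≤ τ + p0 := hτ
    refine g6 ((τ : ℤ) - (p0 : ℤ)) J fun k hk => ?_
    obtain ⟨h1, k', h2, h3, h4⟩ := hJ k hk
    have hb : BadT (τ + c k' - c k - p0) := h4
    have hck := hcp k h1
    refine ⟨h1, k', h2, h3, τ + c k' - c k - p0, by omega, ?_, hb⟩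
    have e : τ + c k' = (τ + c k' - c k - p0) + c k + p0 := by omega
    have e' := congrArg (Nat.cast (R := ℤ)) e
    have e3 : (c k' : ℤ) = (X : ℤ) * 2 ^ k' := by simp [c]
    have e4 : (c k : ℤ) = (X : ℤ) * 2 ^ k := by simp [c]
    rw [← e3, ← e4]
    rw [Nat.cast_add, Nat.cast_add, Nat.cast_add] at e'
    linarith

theorem row (α : Type*) [Finite α] (L : Language α) (hL : L.IsRegular) :
    ∃ e : GRegExp α, e.height ≤ 3 ∧ e.lang = L :=
  LetMap_922.of_fin_result (m := 3)
    (fun n L hL => of_monoid (fun S _ _ f s => fin (Fin n) S f s) L hL) α L hL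

end Crest.Agent.R320.FinK_645
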