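import Crest.Agent.R320.GadP_418

/-!
# Row 320: every value language of a finite monoid has height at most three (helper418)
-/

set_option autoImplicit false

namespace Crest.Agent.R320.FinP_418

open Crest.RegLang Crest.Agent.R320.Hk_851

theorem fin (α : Type) [Finite α] (S : Type) [Monoid S] [Finite S] (φ : α → S) (s : S) :
    HL 3 ({w | (w.map φ).prod = s} : Language α) :=
  Crest.Agent.R320.Fin_963.main φ (Crest.Agent.R320.GadP_418.gad1 S (S → ZMod 2) _) s

end Crest.Agent.R320.FinP_418

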