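import Mathlib

/-!
Row 320, instance glue (helper882), general form of `Fin_882`: the next anchor after an anchor at
the beginning of the text `w` is the first wall `t` (`R (w.drop t)`) with `P t`, where `P` is ANY
predicate on distances with `P t → 0 < t` (818: `P t := z ≤ t`; 132: `P t := s ((t-z) mod M') ≤ t-z`).
`R` right-looking with window `n` (format of `Wall_291`).  Zones may be unbounded.
-/

set_option autoImplicit false

namespace R320.FinP882

open Classical

variable {α V : Type*}

/-- right-looking rule with window `n` -/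
structure IsRule (R : List α → Prop) (n : ℕ) : Prop where
  take_iff : ∀ Q, R Q ↔ R (Q.take n)
  len : ∀ Q, R Q → n ≤ Q.length
  pos : 0 < n

theorem IsRule.append {R : List α → Prop} {n : ℕ} (h : IsRule R n) {Q : List α}
    (hQ : n ≤ Q.length) (y : List α) : R (Q ++ y) ↔ R Q := by
  rw [h.take_iff (Q ++ y), List.take_append_of_le_length hQ, ← h.take_iff]

/-- there is a visible admissible wall -/
def HasW (R : List α → Prop) (P : ℕ → Prop) (w : List α) : Prop := ∃ t, P t ∧ R (w.drop t)

/-- `t` is the first admissible wall -/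
def FW (R : List α → Prop) (P : ℕ → Prop) (w : List α) (t : ℕ) : Prop :=
  P t ∧ R (w.drop t) ∧ ∀ s, P s → s < t → ¬ R (w.drop s)

theorem FW.hasW {R : List α → Prop} {P : ℕ → Prop} {w : List α} {t : ℕ} (h : FW R P w t) :
    HasW R P w := ⟨t, h.1, h.2.1⟩

theorem HasW.exists_fw {R : List α → Prop} {P : ℕ → Prop} {w : List α} (h : HasW R P w) :
    ∃ t, FW R P w t := by
  refine ⟨Nat.find h, (Nat.find_spec h).1, (Nat.find_spec h).2, ?_⟩
  intro s hs hst hR
  exact Nat.find_min h hst ⟨hs, hR⟩

theorem FW.unique {R : List α → Prop} {P : ℕ → Prop} {w : List α} {t t' : ℕ} (h : FW R P w t)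
    (h' : FW R P w t') : t = t' := by
  rcases lt_trichotomy t t' with hlt | heq | hlt
  · exact absurd h.2.1 (h'.2.2 t h.1 hlt)
  · exact heq
  · exact absurd h'.2.1 (h.2.2 t' h'.1 hlt)

theorem FW.le {R : List α → Prop} {n : ℕ} (hR : IsRule R n) {P : ℕ → Prop} {w : List α} {t : ℕ}
    (h : FW R P w t) : t + n ≤ w.length := by
  have h1 := hR.len _ h.2.1
  have h2 := hR.pos
  rw [List.length_drop] at h1
  omega

/-- a visible first wall stays the first wall when more text is read -/
theorem FW.append {R : List α → Prop} {n : ℕ} (hR : IsRule R n) {P : ℕ → Prop} {w : List α}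
    {t : ℕ} (h : FW R P w t) (y : List α) : FW R P (w ++ y) t := by
  have hl := h.le hR
  have hn := hR.pos
  refine ⟨h.1, ?_, ?_⟩
  · rw [List.drop_append_of_le_length (by omega)]
    rw [hR.append (by rw [List.length_drop]; omega)]
    exact h.2.1
  · intro s hs hst hc
    rw [List.drop_append_of_le_length (by omega)] at hc
    rw [hR.append (by rw [List.length_drop]; omega)] at hc
    exact h.2.2 s hs hst hc

/-- converse: a first wall of `w ++ y` whose window lies in `w` is the first wall of `w` -/
theorem FW.of_append {R : List α → Prop} {n : ℕ} (hR : IsRule R n) {P : ℕ → Prop} {w : List α}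
    {t : ℕ} {y : List α} (h : FW R P (w ++ y) t) (hl : t + n ≤ w.length) : FW R P w t := by
  have hn := hR.pos
  refine ⟨h.1, ?_, ?_⟩
  · have := h.2.1
    rw [List.drop_append_of_le_length (by omega)] at this
    rwa [hR.append (by rw [List.length_drop]; omega)] at this
  · intro s hs hst hc
    apply h.2.2 s hs hst
    rw [List.drop_append_of_le_length (by omega)]
    rwa [hR.append (by rw [List.length_drop]; omega)]

/-! ### Block lists -/

/-- blocks of the chain started at the beginning of `w` (fuel version) -/
noncomputable def blF (R : List α → Prop) (P : ℕ → Prop) : ℕ → List α → List (List α)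
  | 0, w => [w]
  | k + 1, w =>
    if h : HasW R P w then
      (w.take (Classical.choose h.exists_fw)) ::
        blF R P k (w.drop (Classical.choose h.exists_fw))
    else [w]

/-- blocks of the chain started at the beginning of `w`; the last block is the open one -/
noncomputable def bl (R : List α → Prop) (P : ℕ → Prop) (w : List α) : List (List α) :=
  blF R P w.length w

theorem blF_fw {R : List α → Prop} {P : ℕ → Prop} {w : List α} {t : ℕ} (h : FW R P w t) (k : ℕ) :
    blF R P (k + 1) w = (w.take t) :: blF R P k (w.drop t) := by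
  have hh : HasW R P w := h.hasW
  have ht : Classical.choose hh.exists_fw = t :=
    (Classical.choose_spec hh.exists_fw).unique h
  simp only [blF, dif_pos hh, ht]

theorem blF_not {R : List α → Prop} {P : ℕ → Prop} {w : List α} (h : ¬ HasW R P w) (k : ℕ) :
    blF R P k w = [w] := by
  cases k with
  | zero => rfl
  | succ k => simp only [blF, dif_neg h]

theorem blF_mono {R : List α → Prop} {n : ℕ} (hR : IsRule R n) {P : ℕ → Prop}
    (hP : ∀ t, P t → 0 < t) :
    ∀ (k : ℕ) (w : List α), w.length ≤ k → blF R P k w = bl R P w := by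
  have key : ∀ (L : ℕ) (w : List α), w.length ≤ L → ∀ k k', w.length ≤ k → w.length ≤ k' →
      blF R P k w = blF R P k' w := by
    intro L
    induction L with
    | zero =>
      intro w hw k k' _ _
      have hn : ¬ HasW R P w := by
        intro h
        obtain ⟨t, ht⟩ := h.exists_fw
        have := ht.le hR
        have := hR.pos
        omega
      rw [blF_not hn, blF_not hn]
    | succ L ih =>
      intro w hw k k' hk hk'
      by_cases h : HasW R P w
      · obtain ⟨t, ht⟩ := h.exists_fw
        have h1 := ht.le hR
        have h2 := hR.pos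
        have h3 := hP t ht.1
        obtain ⟨k, rfl⟩ : ∃ a, k = a + 1 := ⟨k - 1, by omega⟩
        obtain ⟨k', rfl⟩ : ∃ a, k' = a + 1 := ⟨k' - 1, by omega⟩
        rw [blF_fw ht, blF_fw ht]
        congr 1
        have hl : (w.drop t).length = w.length - t := List.length_drop
        exact ih _ (by omega) _ _ (by omega) (by omega)
      · rw [blF_not h, blF_not h]
  intro k w hw
  exact key w.length w le_rfl k w.length hw le_rfl

theorem drop_lt {R : List α → Prop} {n : ℕ} (hR : IsRule R n) {P : ℕ → Prop}
    (hP : ∀ t, P t → 0 < t) {w : List α} {t : ℕ} (h : FW R P w t) :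
    (w.drop t).length < w.length := by
  have h1 := h.le hR
  have h2 := hP t h.1
  have h3 := hR.pos
  rw [List.length_drop]
  omega

theorem bl_fw {R : List α → Prop} {n : ℕ} (hR : IsRule R n) {P : ℕ → Prop}
    (hP : ∀ t, P t → 0 < t) {w : List α}
    {t : ℕ} (h : FW R P w t) : bl R P w = (w.take t) :: bl R P (w.drop t) := by
  have h1 := drop_lt hR hP h
  rw [← blF_mono hR hP (w.length + 1) w (by omega), blF_fw h, blF_mono hR hP _ _ (by omega)]

theorem bl_not {R : List α → Prop} {P : ℕ → Prop} {w : List α} (h : ¬ HasW R P w) :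
    bl R P w = [w] := blF_not h _

theorem bl_ne_nil {R : List α → Prop} {n : ℕ} (hR : IsRule R n) {P : ℕ → Prop}
    (hP : ∀ t, P t → 0 < t) (w : List α) : bl R P w ≠ [] := by
  by_cases h : HasW R P w
  · obtain ⟨t, ht⟩ := h.exists_fw
    rw [bl_fw hR hP ht]; simp
  · rw [bl_not h]; simp

/-- the blocks concatenate to the text -/
theorem bl_flatten {R : List α → Prop} {n : ℕ} (hR : IsRule R n) {P : ℕ → Prop}
    (hP : ∀ t, P t → 0 < t) :
    ∀ (L : ℕ) (w : List α), w.length ≤ L → (bl R P w).flatten = w := by
  intro L
  induction L with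
  | zero =>
    intro w hw
    by_cases h : HasW R P w
    · obtain ⟨t, ht⟩ := h.exists_fw
      have := ht.le hR
      have := hR.pos
      omega
    · rw [bl_not h]; simp
  | succ L ih =>
    intro w hw
    by_cases h : HasW R P w
    · obtain ⟨t, ht⟩ := h.exists_fw
      have h1 := drop_lt hR hP ht
      rw [bl_fw hR hP ht, List.flatten_cons, ih _ (by omega), List.take_append_drop]
    · rw [bl_not h]; simp

/-- description of `bl`: closed blocks, then an open block without visible admissible wall -/
theorem bl_append {R : List α → Prop} {n : ℕ} (hR : IsRule R n) {P : ℕ → Prop}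
    (hP : ∀ t, P t → 0 < t) :
    ∀ (L : ℕ) (w : List α), w.length ≤ L → ∃ (pre : List (List α)) (c : List α),
      bl R P w = pre ++ [c] ∧ ¬ HasW R P c ∧ w = pre.flatten ++ c ∧
      ∀ y, bl R P (w ++ y) = pre ++ bl R P (c ++ y) := by
  intro L
  induction L with
  | zero =>
    intro w hw
    have h : ¬ HasW R P w := by
      intro h
      obtain ⟨t, ht⟩ := h.exists_fw
      have := ht.le hR
      have := hR.pos
      omega
    exact ⟨[], w, by rw [bl_not h]; simp, h, by simp, fun y => by simp⟩
  | succ L ih =>
    intro w hw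
    by_cases h : HasW R P w
    · obtain ⟨t, ht⟩ := h.exists_fw
      have h1 := drop_lt hR hP ht
      have hl := ht.le hR
      obtain ⟨pre, c, e1, e2, e3, e4⟩ := ih (w.drop t) (by omega)
      refine ⟨w.take t :: pre, c, ?_, e2, ?_, ?_⟩
      · rw [bl_fw hR hP ht, e1]; simp
      · rw [List.flatten_cons, List.append_assoc, ← e3, List.take_append_drop]
      · intro y
        have ht' := ht.append hR y
        rw [bl_fw hR hP ht', List.drop_append_of_le_length (by omega), e4 y,
          List.take_append_of_le_length (by omega)]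
        simp
    · exact ⟨[], w, by rw [bl_not h]; simp, h, by simp, fun y => by simp⟩

/-! ### 818's lemma for one junction -/

/-- junction: `P'` is what the right side knows (admissibility of the walls of `y`); if it agrees
with `P` at every wall of `y`, and no distance `< |c|` is admissible, then the right side knows
the next anchor -/
theorem junction_fw {R : List α → Prop} {P P' : ℕ → Prop} {c y : List α} {b : ℕ}
    (hc : ∀ t, P t → c.length ≤ t) (hy : ∀ s, R (y.drop s) → (P (c.length + s) ↔ P' s))
    (hb : FW R P' y b) : FW R P (c ++ y) (c.length + b) := by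
  refine ⟨(hy b hb.2.1).2 hb.1, ?_, ?_⟩
  · rw [List.drop_append]
    have : List.drop (c.length + b) c = [] := List.drop_eq_nil_of_le (by omega)
    rw [this]
    simpa using hb.2.1
  · intro s hs hst hR
    have hcs := hc s hs
    rw [List.drop_append] at hR
    have h0 : List.drop s c = [] := List.drop_eq_nil_of_le hcs
    rw [h0, List.nil_append] at hR
    obtain ⟨u, rfl⟩ : ∃ u, s = c.length + u := ⟨s - c.length, by omega⟩
    have e : c.length + u - c.length = u := by omega
    rw [e] at hR
    exact hb.2.2 u ((hy u hR).1 hs) (by omega) hR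

theorem junction_not {R : List α → Prop} {P P' : ℕ → Prop} {c y : List α}
    (hc : ∀ t, P t → c.length ≤ t) (hy : ∀ s, R (y.drop s) → (P (c.length + s) ↔ P' s))
    (hb : ¬ HasW R P' y) : ¬ HasW R P (c ++ y) := by
  rintro ⟨s, hs, hR⟩
  have hcs := hc s hs
  rw [List.drop_append] at hR
  have h0 : List.drop s c = [] := List.drop_eq_nil_of_le hcs
  rw [h0, List.nil_append] at hR
  obtain ⟨u, rfl⟩ : ∃ u, s = c.length + u := ⟨s - c.length, by omega⟩
  have e : c.length + u - c.length = u := by omega
  rw [e] at hR
  exact hb ⟨u, (hy u hR).1 hs, hR⟩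

/-- block list at a junction: the hidden block is `c ++ y.take b` -/
theorem bl_junction {R : List α → Prop} {n : ℕ} (hR : IsRule R n) {P P' : ℕ → Prop}
    (hP : ∀ t, P t → 0 < t) {w y : List α} {pre : List (List α)} {c : List α} {b : ℕ}
    (hw : ∀ y, bl R P (w ++ y) = pre ++ bl R P (c ++ y))
    (hc : ∀ t, P t → c.length ≤ t) (hy : ∀ s, R (y.drop s) → (P (c.length + s) ↔ P' s))
    (hb : FW R P' y b) :
    bl R P (w ++ y) = pre ++ (c ++ y.take b) :: bl R P (y.drop b) := by
  have hf := junction_fw hc hy hb
  rw [hw, bl_fw hR hP hf]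
  have e1 : (c ++ y).take (c.length + b) = c ++ y.take b := by
    rw [List.take_append]; simp
  have e2 : (c ++ y).drop (c.length + b) = y.drop b := by
    rw [List.drop_append]; simp
  rw [e1, e2]

/-! ### Threads -/

/-- state of a thread: the open zone and the token -/
noncomputable def fin (R : List α → Prop) (P : ℕ → Prop) (T : List α → V → V) (w : List α)
    (v : V) : List α × V :=
  ((bl R P w).getLastD w, (bl R P w).dropLast.foldl (fun v Z => T Z v) v)

theorem fin_not {R : List α → Prop} {P : ℕ → Prop} {T : List α → V → V} {w : List α} {v : V}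
    (h : ¬ HasW R P w) : fin R P T w v = (w, v) := by
  unfold fin; rw [bl_not h]; simp

theorem fin_fw {R : List α → Prop} {n : ℕ} (hR : IsRule R n) {P : ℕ → Prop}
    (hP : ∀ t, P t → 0 < t)
    {T : List α → V → V} {w : List α} {v : V} {t : ℕ} (h : FW R P w t) :
    fin R P T w v = fin R P T (w.drop t) (T (w.take t) v) := by
  unfold fin
  rw [bl_fw hR hP h]
  have hne := bl_ne_nil hR hP (w.drop t)
  obtain ⟨x, xs, hx⟩ : ∃ x xs, bl R P (w.drop t) = x :: xs := by
    cases hh : bl R P (w.drop t) with
    | nil => exact absurd hh hne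
    | cons x xs => exact ⟨x, xs, rfl⟩
  rw [hx]
  simp [List.getLastD]

/-- the open zone has no visible admissible wall -/
theorem fin_open {R : List α → Prop} {n : ℕ} (hR : IsRule R n) {P : ℕ → Prop}
    (hP : ∀ t, P t → 0 < t) {T : List α → V → V} (w : List α) (v : V) :
    ¬ HasW R P (fin R P T w v).1 := by
  obtain ⟨pre, c, e1, e2, _, _⟩ := bl_append hR hP w.length w le_rfl
  have h1 : (fin R P T w v).1 = c := by
    unfold fin; rw [e1]; simp
  rw [h1]; exact e2

/-- the state forgets the past: `fin` is the run of a (possibly infinite) letter automaton -/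
theorem fin_append {R : List α → Prop} {n : ℕ} (hR : IsRule R n) {P : ℕ → Prop}
    (hP : ∀ t, P t → 0 < t) {T : List α → V → V} (w y : List α) (v : V) :
    fin R P T (w ++ y) v = fin R P T ((fin R P T w v).1 ++ y) (fin R P T w v).2 := by
  obtain ⟨pre, c, e1, _, _, e4⟩ := bl_append hR hP w.length w le_rfl
  have h1 : fin R P T w v = (c, pre.foldl (fun v Z => T Z v) v) := by
    unfold fin; rw [e1]; simp
  rw [h1]
  simp only
  unfold fin
  rw [e4 y]
  have hne := bl_ne_nil hR hP (c ++ y)
  obtain ⟨xs, x, hx⟩ : ∃ xs x, bl R P (c ++ y) = xs ++ [x] :=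
    ⟨_, _, (List.dropLast_append_getLast hne).symm⟩
  rw [hx, ← List.append_assoc]
  simp [List.foldl_append]

/-- **JUNCTION SOUNDNESS** -/
theorem junction_sound {R : List α → Prop} {n : ℕ} (hR : IsRule R n) {P P' : ℕ → Prop}
    (hP : ∀ t, P t → 0 < t)
    {T : List α → V → V} {c y : List α} {b : ℕ} {v r : V}
    (hc : ∀ t, P t → c.length ≤ t) (hy : ∀ s, R (y.drop s) → (P (c.length + s) ↔ P' s))
    (hb : FW R P' y b) (hT : T (c ++ y.take b) v = r) :
    fin R P T (c ++ y) v = fin R P T (y.drop b) r := by
  have hf := junction_fw hc hy hb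
  rw [fin_fw hR hP hf]
  have e1 : (c ++ y).take (c.length + b) = c ++ y.take b := by
    rw [List.take_append]; simp
  have e2 : (c ++ y).drop (c.length + b) = y.drop b := by
    rw [List.drop_append]; simp
  rw [e1, e2, hT]

/-- thread words compose: if `x` ends in the open state `(c, v)` of the run from `(b, r)` and
`(c, v) | y` is a sound junction, then the run of `x ++ y` from `(b, r)` is the run of `y` -/
theorem thread_append {R : List α → Prop} {n : ℕ} (hR : IsRule R n) {P P' : ℕ → Prop}
    (hP : ∀ t, P t → 0 < t)
    {T : List α → V → V} {x y c : List α} {b b' : ℕ} {v r r' : V} (hbx : b ≤ x.length)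
    (hx : fin R P T (x.drop b) r = (c, v))
    (hc : ∀ t, P t → c.length ≤ t) (hy : ∀ s, R (y.drop s) → (P (c.length + s) ↔ P' s))
    (hb : FW R P' y b') (hT : T (c ++ y.take b') v = r') :
    fin R P T ((x ++ y).drop b) r = fin R P T (y.drop b') r' := by
  rw [List.drop_append_of_le_length hbx, fin_append hR hP, hx]
  exact junction_sound hR hP hc hy hb hT

end R320.FinP882
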