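import Crest.Agent.R320.Hk2_851

/-!
# Row 320: thread calculus, abstract form (helper851)

A *scheme* on a deterministic automaton `δ : Q → α → Q` (threads = runs):
`PL` = states in which a thread may be cut (left side legal), `R` = right contexts of length `D`
which are right-legal, `ρ r` = the state of a cut thread after it has read `r`
(**the only soundness condition**: `∀ q ∈ PL, ∀ r ∈ R, δ* q r = ρ r`).
* `one_star`: finite `K`, height `1`: the words whose run is cut in every window;
* `nest`: if the long cut-free runs are computed by languages of height `≤ k` then all runs are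
  computed by languages of height `≤ k + 1`.
-/

set_option autoImplicit false

namespace Crest.Agent.R320.Thr_851

open Crest.RegLang Crest.Agent.R320.Hk_851

universe u v

variable {α : Type u} {Q : Type v}

/-- the run of `δ` -/
def run (δ : Q → α → Q) (q : Q) (w : List α) : Q := w.foldl δ q

@[simp] theorem run_nil (δ : Q → α → Q) (q : Q) : run δ q [] = q := rfl

theorem run_append (δ : Q → α → Q) (q : Q) (x y : List α) :
    run δ q (x ++ y) = run δ (run δ q x) y := List.foldl_append

/-- a cut scheme -/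
structure Scheme (α : Type u) (Q : Type v) where
  δ : Q → α → Q
  D : ℕ
  PL : Set Q
  R : Set (List α)
  ρ : List α → Q
  hR : ∀ r ∈ R, r.length = D
  sound : ∀ q ∈ PL, ∀ r ∈ R, run δ q r = ρ r

namespace Scheme

variable (C : Scheme α Q)

/-- the thread `q` may be cut in `w` at the place `i` -/
def CutAt (q : Q) (w : List α) (i : ℕ) : Prop :=
  ∃ x r y, w = x ++ r ++ y ∧ x.length = i ∧ r ∈ C.R ∧ run C.δ q x ∈ C.PL

/-- from one cut to another one -/
def K : Set (List α) := {m | ∃ r y, m = r ++ y ∧ r ∈ C.R ∧ run C.δ (C.ρ r) y ∈ C.PL}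

/-- a cut thread read over a word of `K` is again cuttable -/
theorem K_sound {q : Q} (hq : q ∈ C.PL) {m : List α} (hm : m ∈ C.K) : run C.δ q m ∈ C.PL := by
  obtain ⟨r, y, rfl, hr, hy⟩ := hm
  rw [run_append, C.sound q hq r hr]
  exact hy

theorem kstar_sound {K' : Language α} (hK : ∀ m ∈ K', m ∈ C.K) {q : Q} (hq : q ∈ C.PL)
    {m : List α} (hm : m ∈ KStar.kstar K') : run C.δ q m ∈ C.PL := by
  obtain ⟨S, rfl, hS⟩ := Language.mem_kstar.1 hm
  induction S generalizing q with
  | nil => exact hq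
  | cons x S ih =>
    rw [List.flatten_cons, run_append]
    exact ih (C.K_sound hq (hK x (hS x (by simp)))) (fun y hy => hS y (by simp [hy]))
      (Language.mem_kstar.2 ⟨S, rfl, fun y hy => hS y (by simp [hy])⟩)

/-- the language computed with the set `K'` of cut words: first cut, `K'*`, last cut -/
def F (K' : Language α) (A B : Language α) : Language α := A * (KStar.kstar K') * B

theorem F_sound {K' A B : Language α} (hK : ∀ m ∈ K', m ∈ C.K) {q q' : Q}
    (hA : ∀ x ∈ A, run C.δ q x ∈ C.PL)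
    (hB : ∀ y ∈ B, ∃ r z, y = r ++ z ∧ r ∈ C.R ∧ run C.δ (C.ρ r) z = q')
    {w : List α} (hw : w ∈ F K' A B) : run C.δ q w = q' := by
  obtain ⟨xm, hxm, y, hy, rfl⟩ := Language.mem_mul.1 hw
  obtain ⟨x, hx, m, hm, rfl⟩ := Language.mem_mul.1 hxm
  obtain ⟨r, z, rfl, hr, hz⟩ := hB y hy
  rw [run_append, run_append, run_append,
    C.sound _ (C.kstar_sound hK (hA x hx) hm) r hr]
  exact hz

theorem CutAt.take {q : Q} {w : List α} {j i : ℕ} (h : C.CutAt q (w.take j) i) :
    C.CutAt q w i := by
  obtain ⟨x, r, y, e, h1, h2, h3⟩ := h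
  refine ⟨x, r, y ++ w.drop j, ?_, h1, h2, h3⟩
  rw [← List.append_assoc, ← e, List.take_append_drop]

theorem CutAt.lt {q : Q} {w : List α} {i : ℕ} (h : C.CutAt q w i) : i + C.D ≤ w.length := by
  obtain ⟨x, r, y, rfl, h1, h2, -⟩ := h
  have := C.hR r h2
  simp only [List.length_append]
  omega

/-- the words up to the first cut -/
def Ab (E : Q → Q → Language α) (q : Q) : Language α := {m | ∃ p ∈ C.PL, m ∈ E q p}

/-- the words from a cut to the first following cut -/
def Kb (E : Q → Q → Language α) : Language α :=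
  {m | ∃ r ∈ C.R, m ∈ ({r} : Language α) * C.Ab E (C.ρ r)}

/-- the words from the last cut to the end -/
def Bb (E : Q → Q → Language α) (q' : Q) : Language α :=
  {m | ∃ r ∈ C.R, m ∈ ({r} : Language α) * E (C.ρ r) q'}

theorem mem_word_mul {r m : List α} {L : Language α} :
    m ∈ ({r} : Language α) * L ↔ ∃ z ∈ L, m = r ++ z := by
  rw [Language.mem_mul]
  constructor
  · rintro ⟨x, hx, z, hz, rfl⟩
    rw [Set.mem_singleton_iff.1 hx]
    exact ⟨z, hz, rfl⟩
  · rintro ⟨z, hz, rfl⟩
    exact ⟨r, rfl, z, hz, rfl⟩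

/-- the maximal decomposition behind a cut -/
theorem complete_aux (hD : 0 < C.D) (Gd : Q → List α → Prop)
    (hG : ∀ q x y, Gd q (x ++ y) → Gd q x ∧ Gd (run C.δ q x) y) (E : Q → Q → Language α)
    (hEc : ∀ q w, Gd q w → (∀ i, ¬ C.CutAt q w i) → w ∈ E q (run C.δ q w)) :
    ∀ (n : ℕ) (r y : List α), y.length ≤ n → r ∈ C.R → Gd (C.ρ r) y →
      r ++ y ∈ KStar.kstar (C.Kb E) * C.Bb E (run C.δ (C.ρ r) y) := by
  intro n
  induction n with
  | zero =>
    intro r y hy hr ht
    have hy0 : y = [] := List.length_eq_zero_iff.1 (Nat.le_zero.1 hy)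
    subst hy0
    have h1 : ([] : List α) ∈ E (C.ρ r) (run C.δ (C.ρ r) []) :=
      hEc _ _ ht fun i hi => by have := Scheme.CutAt.lt C hi; simp at this; omega
    exact Language.mem_mul.2 ⟨[], Language.nil_mem_kstar _, r ++ [],
      ⟨r, hr, mem_word_mul.2 ⟨[], h1, rfl⟩⟩, rfl⟩
  | succ n ih =>
    intro r y hy hr ht
    by_cases hc : ∃ i, C.CutAt (C.ρ r) y i
    · classical
      obtain ⟨z, r', y', e, h1, h2, h3⟩ := Nat.find_spec hc
      have hmin : ∀ i, i < z.length → ¬ C.CutAt (C.ρ r) y i := fun i hi =>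
        Nat.find_min hc (by rw [← h1]; exact hi)
      have e1 : y = z ++ (r' ++ y') := by rw [e]; simp
      have hz0 := hG _ z (r' ++ y') (by rw [← e1]; exact ht)
      have hz : z ∈ E (C.ρ r) (run C.δ (C.ρ r) z) := by
        refine hEc _ _ hz0.1 fun i hi => ?_
        have hl := Scheme.CutAt.lt C hi
        have hz' : y.take z.length = z := by rw [e]; simp
        rw [← hz'] at hi
        exact hmin i (by omega) (Scheme.CutAt.take C hi)
      have hK : r ++ z ∈ C.Kb E :=
        ⟨r, hr, mem_word_mul.2 ⟨z, ⟨_, h3, hz⟩, rfl⟩⟩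
      have hrD := C.hR r' h2
      have hrun : run C.δ (C.ρ r) y = run C.δ (C.ρ r') y' := by
        rw [e, run_append, run_append, C.sound _ h3 r' h2]
      have hlen : y'.length ≤ n := by
        have : y.length = z.length + r'.length + y'.length := by rw [e]; simp [Nat.add_assoc]
        omega
      have ht' : Gd (C.ρ r') y' := by
        have := (hG _ r' y' hz0.2).2
        rwa [C.sound _ h3 r' h2] at this
      have hI := ih r' y' hlen h2 ht'
      rw [hrun]
      obtain ⟨m, hm, b, hb, hmb⟩ := Language.mem_mul.1 hI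
      refine Language.mem_mul.2 ⟨(r ++ z) ++ m, ?_, b, hb, ?_⟩
      · obtain ⟨S, rfl, hS⟩ := Language.mem_kstar.1 hm
        refine Language.mem_kstar.2 ⟨(r ++ z) :: S, by simp, ?_⟩
        intro x hx
        rcases List.mem_cons.1 hx with rfl | hx
        · exact hK
        · exact hS x hx
      · have : r ++ y = (r ++ z) ++ (r' ++ y') := by rw [e]; simp
        rw [this, ← hmb]; simp
    · have h1 : y ∈ E (C.ρ r) (run C.δ (C.ρ r) y) :=
        hEc _ _ ht fun i hi => hc ⟨i, hi⟩
      exact Language.mem_mul.2 ⟨[], Language.nil_mem_kstar _, r ++ y,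
        ⟨r, hr, mem_word_mul.2 ⟨y, h1, rfl⟩⟩, rfl⟩

/-- **Level theorem.**  `Gd q w` = a class of runs closed under sub-runs (e.g. `w` a text without
long powers on which the chain of `q` consists of bad zones only).  If the cut-free runs of the
class are computed (soundly) by languages `E q q'` of height `≤ k`, then ALL runs of the class are
computed (soundly) by languages of height `≤ k + 1`. -/
theorem nest [Finite α] [Finite Q] {k : ℕ} (hD : 0 < C.D) (Gd : Q → List α → Prop)
    (hG : ∀ q x y, Gd q (x ++ y) → Gd q x ∧ Gd (run C.δ q x) y)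
    (E : Q → Q → Language α) (hE : ∀ q q', HL k (E q q'))
    (hEs : ∀ q q', ∀ w ∈ E q q', run C.δ q w = q')
    (hEc : ∀ q w, Gd q w → (∀ i, ¬ C.CutAt q w i) → w ∈ E q (run C.δ q w)) :
    ∃ F : Q → Q → Language α, (∀ q q', HL (k + 1) (F q q')) ∧
      (∀ q q', ∀ w ∈ F q q', run C.δ q w = q') ∧
      (∀ q w, Gd q w → w ∈ F q (run C.δ q w)) := by
  have hRf : C.R.Finite := (List.finite_length_eq α C.D).subset fun r hr => C.hR r hr
  have hA : ∀ q, HL k (C.Ab E q) := fun q =>
    HL.biUnion (Set.toFinite C.PL) fun p _ => hE q p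
  have hK : HL k (C.Kb E) := HL.biUnion hRf fun r _ =>
    (HL.word r).mul (hA _)
  have hB : ∀ q', HL k (C.Bb E q') := fun q' => HL.biUnion hRf fun r _ =>
    (HL.word r).mul (hE _ q')
  refine ⟨fun q q' => E q q' + C.Ab E q * KStar.kstar (C.Kb E) * C.Bb E q', ?_, ?_, ?_⟩
  · intro q q'
    exact ((hE q q').mono (Nat.le_succ k)).add
      ((((hA q).mono (Nat.le_succ k)).mul hK.star).mul ((hB q').mono (Nat.le_succ k)))
  · rintro q q' w (hw | hw)
    · exact hEs q q' w hw
    · refine C.F_sound (K' := C.Kb E) (A := C.Ab E q) (B := C.Bb E q') ?_ ?_ ?_ hw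
      · rintro m ⟨r, hr, hm⟩
        obtain ⟨z, ⟨p, hp, hz⟩, rfl⟩ := mem_word_mul.1 hm
        exact ⟨r, z, rfl, hr, by rw [hEs _ _ z hz]; exact hp⟩
      · rintro x ⟨p, hp, hx⟩
        rw [hEs _ _ x hx]; exact hp
      · rintro y ⟨r, hr, hy⟩
        obtain ⟨z, hz, rfl⟩ := mem_word_mul.1 hy
        exact ⟨r, z, rfl, hr, hEs _ _ z hz⟩
  · intro q w hw
    by_cases hc : ∃ i, C.CutAt q w i
    · right
      classical
      obtain ⟨x, r, y, e, h1, h2, h3⟩ := Nat.find_spec hc
      have hmin : ∀ i, i < x.length → ¬ C.CutAt q w i := fun i hi =>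
        Nat.find_min hc (by rw [← h1]; exact hi)
      have hw' : w = x ++ (r ++ y) := by rw [e]; simp
      have hx0 := hG _ x (r ++ y) (by rw [← hw']; exact hw)
      have hx : x ∈ E q (run C.δ q x) := by
        refine hEc _ _ hx0.1 fun i hi => ?_
        have hl := Scheme.CutAt.lt C hi
        have hx' : w.take x.length = x := by rw [e]; simp
        rw [← hx'] at hi
        exact hmin i (by omega) (Scheme.CutAt.take C hi)
      have hy0 : Gd (C.ρ r) y := by
        have := (hG _ r y hx0.2).2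
        rwa [C.sound _ h3 r h2] at this
      have hI := C.complete_aux hD Gd hG E hEc _ r y le_rfl h2 hy0
      have hrun : run C.δ q w = run C.δ (C.ρ r) y := by
        rw [e, run_append, run_append, C.sound _ h3 r h2]
      rw [hrun]
      obtain ⟨m, hm, b, hb, hmb⟩ := Language.mem_mul.1 hI
      refine Language.mem_mul.2 ⟨x ++ m, Language.mem_mul.2 ⟨x, ⟨_, h3, hx⟩, m, hm, rfl⟩, b, hb, ?_⟩
      rw [hw', ← hmb]; simp
    · left
      exact hEc _ _ hw fun i hi => hc ⟨i, hi⟩

/-- **One star**: if every cut-free run of the class has length `≤ M` then all runs of the class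
are computed at height `≤ 1`. -/
theorem one_star [Finite α] [Finite Q] (hD : 0 < C.D) (Gd : Q → List α → Prop)
    (hG : ∀ q x y, Gd q (x ++ y) → Gd q x ∧ Gd (run C.δ q x) y) (M : ℕ)
    (hM : ∀ q w, Gd q w → (∀ i, ¬ C.CutAt q w i) → w.length ≤ M) :
    ∃ F : Q → Q → Language α, (∀ q q', HL 1 (F q q')) ∧
      (∀ q q', ∀ w ∈ F q q', run C.δ q w = q') ∧
      (∀ q w, Gd q w → w ∈ F q (run C.δ q w)) :=
  C.nest (k := 0) hD Gd hG (fun q q' => {w | w.length ≤ M ∧ run C.δ q w = q'})
    (fun _ _ => HL.finite ((List.finite_length_le α M).subset fun _ h => h.1))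
    (fun _ _ _ h => h.2) (fun q w hw hc => ⟨hM q w hw hc, rfl⟩)

end Scheme

/-- `δ` is computed at height `k` on the class `Gd` of runs -/
def Comp (k : ℕ) (δ : Q → α → Q) (Gd : Q → List α → Prop) : Prop :=
  ∃ F : Q → Q → Language α, (∀ q q', HL k (F q q')) ∧
    (∀ q q', ∀ w ∈ F q q', run δ q w = q') ∧ (∀ q w, Gd q w → w ∈ F q (run δ q w))

/-- **Transfer**: the run of `δ₁` from `q` is a function `G` of finitely many runs
`(b i)` of `δ₂` (on ALL words); completeness on the words on which these runs are in the class. -/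
theorem transfer [Finite Q] {k : ℕ} {δ₂ : Q → α → Q} {Gd : Q → List α → Prop}
    (h : Comp k δ₂ Gd) {ι : Type*} [Finite ι] {P : Type*} (δ₁ : P → α → P) (q : P)
    (b : ι → Q) (G : (ι → Q) → P)
    (hG : ∀ w, run δ₁ q w = G (fun i => run δ₂ (b i) w)) :
    ∃ E : P → Language α, (∀ p, HL k (E p)) ∧ (∀ p, ∀ w ∈ E p, run δ₁ q w = p) ∧
      (∀ w, (∀ i, Gd (b i) w) → w ∈ E (run δ₁ q w)) := by
  obtain ⟨F, h1, h2, h3⟩ := h
  refine ⟨fun p => {w | ∃ f ∈ {f : ι → Q | G f = p}, w ∈ ({w | ∀ i, w ∈ F (b i) (f i)} : Language α)},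
    fun p => HL.biUnion (Set.toFinite _) fun f _ => HL.iInter fun i => h1 (b i) (f i), ?_, ?_⟩
  · rintro p w ⟨f, hf, hw⟩
    rw [hG, ← (show G f = p from hf)]
    congr 1
    funext i
    exact h2 _ _ w (hw i)
  · intro w hw
    exact ⟨fun i => run δ₂ (b i) w, (hG w).symm, fun i => h3 _ _ (hw i)⟩

end Crest.Agent.R320.Thr_851
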