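import Crest.Agent.R320.Sch_780
import Crest.Agent.R320.Thr1_851

/-!
Row 320.  From an anchor scheme of 780 (states `(P, v)`, `P` = text since the anchor, no bound on `P`) and a
right congruence `κ` of finite index which is compatible with it, to a cut scheme of 851 on the finite
automaton with states `F × V`.
-/

set_option autoImplicit false

namespace Crest.Agent.R320.FinQ307

variable {α V F : Type*}

/-- `κ` is compatible with the anchor scheme (only on live texts: no anchor detected). -/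
structure Compat (Sc : Sch_780.Scheme α V) (κ : List α → F) : Prop where
  app : ∀ P P' x, Sc.step P = none → Sc.step P' = none → κ P = κ P' →
    Sc.step (P ++ [x]) = none → Sc.step (P' ++ [x]) = none ∧ κ (P ++ [x]) = κ (P' ++ [x])
  jump : ∀ P P' x t f, Sc.step P = none → Sc.step P' = none → κ P = κ P' →
    Sc.step (P ++ [x]) = some (t, f) →
    ∃ t' f', Sc.step (P' ++ [x]) = some (t', f') ∧ (∀ v, f v = f' v) ∧
      κ ((P ++ [x]).drop t) = κ ((P' ++ [x]).drop t')
  left : ∀ P P', Sc.step P = none → Sc.step P' = none → κ P = κ P' → Sc.left P = Sc.left P'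

variable (Sc : Sch_780.Scheme α V) (κ : List α → F)

def proj (θ : List α × V) : F × V := (κ θ.1, θ.2)

/-- one letter keeps a live text live. -/
theorem live_nxt {P : List α} (v : V) (x : α) (hP : Sc.step P = none) :
    Sc.step (Sc.nxt (P, v) x).1 = none := by
  unfold Sch_780.Scheme.nxt
  cases hs : Sc.step (P ++ [x]) with
  | none => simpa [hs] using hs
  | some q =>
    obtain ⟨t, f⟩ := q
    simpa [hs] using Sc.step_short P x t f hP hs

theorem live_run {P : List α} (v : V) (w : List α) (hP : Sc.step P = none) :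
    Sc.step (Sc.run (P, v) w).1 = none := by
  induction w generalizing P v with
  | nil => simpa using hP
  | cons x w ih =>
    rw [Sch_780.Scheme.run_cons]
    exact ih (Sc.nxt (P, v) x).2 (live_nxt Sc v x hP)

variable {Sc κ}

theorem proj_nxt (hc : Compat Sc κ) {P P' : List α} (v : V) (x : α) (hP : Sc.step P = none)
    (hP' : Sc.step P' = none) (h : κ P = κ P') :
    proj κ (Sc.nxt (P, v) x) = proj κ (Sc.nxt (P', v) x) := by
  cases hs : Sc.step (P ++ [x]) with
  | none =>
    obtain ⟨h1, h2⟩ := hc.app P P' x hP hP' h hs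
    simp [proj, Sch_780.Scheme.nxt, hs, h1, h2]
  | some q =>
    obtain ⟨t, f⟩ := q
    obtain ⟨t', f', h1, h2, h3⟩ := hc.jump P P' x t f hP hP' h hs
    simp [proj, Sch_780.Scheme.nxt, hs, h1, h2, h3]

variable (Sc κ)

open Classical in
/-- the finite automaton. -/
noncomputable def dl (q : F × V) (x : α) : F × V :=
  if h : ∃ P, Sc.step P = none ∧ κ P = q.1 then proj κ (Sc.nxt (h.choose, q.2) x) else q

variable {Sc κ}

theorem dl_eq (hc : Compat Sc κ) {P : List α} (v : V) (x : α) (hP : Sc.step P = none) :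
    dl Sc κ (κ P, v) x = proj κ (Sc.nxt (P, v) x) := by
  have h : ∃ P', Sc.step P' = none ∧ κ P' = (κ P, v).1 := ⟨P, hP, rfl⟩
  unfold dl
  rw [dif_pos h]
  exact proj_nxt hc v x h.choose_spec.1 hP h.choose_spec.2

theorem run_eq (hc : Compat Sc κ) {P : List α} (v : V) (w : List α) (hP : Sc.step P = none) :
    Thr_851.run (dl Sc κ) (κ P, v) w = proj κ (Sc.run (P, v) w) := by
  induction w generalizing P v with
  | nil => rfl
  | cons x w ih =>
    rw [Sch_780.Scheme.run_cons]
    change Thr_851.run (dl Sc κ) (dl Sc κ (κ P, v) x) w = _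
    rw [dl_eq hc v x hP]
    exact ih (Sc.nxt (P, v) x).2 (live_nxt Sc v x hP)

/-- the cut scheme of 851. -/
noncomputable def toThr [Nonempty V] (hc : Compat Sc κ) : Thr_851.Scheme α (F × V) where
  δ := dl Sc κ
  D := Sc.D
  PL := {q | ∃ P, Sc.step P = none ∧ κ P = q.1 ∧ Sc.left P = some q.2}
  R := {r | r.length = Sc.D ∧ (Sc.right r).isSome}
  ρ := fun r => match Sc.right r with
    | some (b, c) => (κ (r.drop b), c)
    | none => (κ [], Classical.arbitrary V)
  hR := fun r hr => hr.1
  sound := by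
    rintro ⟨c0, v⟩ ⟨P, hP, hk, hl⟩ r ⟨hr, hs⟩
    obtain ⟨⟨b, c⟩, hb⟩ := Option.isSome_iff_exists.1 hs
    simp only at hk hl
    subst hk
    rw [run_eq hc v r hP, Sc.run_right hl hr hb]
    simp [proj, hb]

/-- cuts of the finite scheme = legal places of the word. -/
theorem cutAt_iff [Nonempty V] (hc : Compat Sc κ) {P : List α} (v : V) (hP : Sc.step P = none)
    (w : List α) (i : ℕ) :
    (toThr hc).CutAt (κ P, v) w i ↔ ∃ x r y, w = x ++ r ++ y ∧ x.length = i ∧ r.length = Sc.D ∧
      (Sc.right r).isSome ∧ Sc.left (Sc.run (P, v) x).1 = some (Sc.run (P, v) x).2 := by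
  constructor
  · rintro ⟨x, r, y, hw, hi, hr, hx⟩
    refine ⟨x, r, y, hw, hi, hr.1, hr.2, ?_⟩
    change Thr_851.run (dl Sc κ) (κ P, v) x ∈ {q : F × V | ∃ P, Sc.step P = none ∧ κ P = q.1 ∧
      Sc.left P = some q.2} at hx
    rw [run_eq hc v x hP] at hx
    obtain ⟨P', h1, h2, h3⟩ := hx
    have h4 : κ P' = κ (Sc.run (P, v) x).1 := h2
    rw [← hc.left P' _ h1 (live_run Sc v x hP) h4]
    exact h3
  · rintro ⟨x, r, y, hw, hi, hr, hs, hl⟩
    refine ⟨x, r, y, hw, hi, ⟨hr, hs⟩, ?_⟩
    change Thr_851.run (dl Sc κ) (κ P, v) x ∈ {q : F × V | ∃ P, Sc.step P = none ∧ κ P = q.1 ∧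
      Sc.left P = some q.2}
    rw [run_eq hc v x hP]
    exact ⟨(Sc.run (P, v) x).1, live_run Sc v x hP, rfl, hl⟩

end Crest.Agent.R320.FinQ307
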