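import Crest.Agent.R320.Top5_120
import Crest.Agent.R320.Sc2n_937
import Crest.Agent.R320.Grid_899
import Crest.Agent.R320.Thin_963
import Crest.Agent.R320.ExactR_237
import Crest.Agent.R320.LWallAll_922
import Crest.Agent.R320.P4_933
import Crest.Agent.R320.Spoil_189

/-! Row 320: constants and gadget in the final form (helper189). -/

set_option autoImplicit false

namespace Crest.Agent.R320.Fin_189

open Crest.RegLang Crest.Agent.R320.Hk_851

universe u

section reg
variable {α : Type u}

theorem drop_snoc (A : ℕ) (u : List α) (a : α) :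
    (u ++ [a]).drop A = if (u.take A).length < A then [] else u.drop A ++ [a] := by
  by_cases h : u.length < A
  · rw [List.take_of_length_le (l := u) (by omega), if_pos h,
      List.drop_of_length_le (by simp; omega)]
  · rw [if_neg (by rw [List.length_take]; omega), List.drop_append_of_le_length (by omega)]

theorem regular_drop [Finite α] {S : Type*} [Monoid S] [Finite S] (φ : α → S) (A M0 : ℕ)
    (hM : 0 < M0) (f : List α → Prop)
    (hf : ∀ u u' : List α, A ≤ u.length → A ≤ u'.length → u.take A = u'.take A →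
      u.length % M0 = u'.length % M0 → ((u.drop A).map φ).prod = ((u'.drop A).map φ).prod →
      (f u → f u')) :
    Language.IsRegular ({u | f u} : Language α) := by
  classical
  haveI : NeZero M0 := ⟨by omega⟩
  have hfin : Finite {l : List α // l.length ≤ A} := List.finite_length_le α A
  let σ := {l : List α // l.length ≤ A} × ZMod M0 × S
  haveI : Fintype σ := Fintype.ofFinite σ
  let st : List α → σ := fun u =>
    (⟨u.take A, by rw [List.length_take]; omega⟩, (u.length : ZMod M0), ((u.drop A).map φ).prod)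
  let M : DFA α σ :=
    { step := fun q a =>
        (if h : q.1.1.length < A then ⟨q.1.1 ++ [a], by simp; omega⟩ else q.1,
          q.2.1 + 1, if q.1.1.length < A then 1 else q.2.2 * φ a)
      start := st []
      accept := {q | ∃ u, f u ∧ st u = q} }
  have hev : ∀ u, M.eval u = st u := by
    intro u
    induction u using List.reverseRecOn with
    | nil => rfl
    | append_singleton u a ih =>
      rw [DFA.eval_append_singleton, ih]
      refine Prod.ext ?_ (Prod.ext ?_ ?_)
      · apply Subtype.ext
        show (if h : (u.take A).length < A then (⟨u.take A ++ [a], by simp at h ⊢; omega⟩ :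
          {l : List α // l.length ≤ A}) else ⟨u.take A, by rw [List.length_take]; omega⟩).1
          = (u ++ [a]).take A
        rw [Crest.Agent.R320.P4_933.take_snoc]
        split_ifs <;> rfl
      · show (u.length : ZMod M0) + 1 = (((u ++ [a]).length : ℕ) : ZMod M0)
        simp
      · show (if (u.take A).length < A then 1 else ((u.drop A).map φ).prod * φ a) =
          (((u ++ [a]).drop A).map φ).prod
        rw [drop_snoc]
        split_ifs <;> simp
  refine Language.isRegular_iff.2 ⟨σ, inferInstance, M, ?_⟩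
  ext u
  rw [DFA.mem_accepts, hev]
  constructor
  · rintro ⟨u', h1, h2⟩
    have e1 : u'.take A = u.take A := congrArg (fun q : σ => q.1.1) h2
    have e2 : (u'.length : ZMod M0) = (u.length : ZMod M0) := congrArg (fun q : σ => q.2.1) h2
    have e3 : ((u'.drop A).map φ).prod = ((u.drop A).map φ).prod :=
      congrArg (fun q : σ => q.2.2) h2
    have e2' : u'.length % M0 = u.length % M0 := (ZMod.natCast_eq_natCast_iff' _ _ _).1 e2
    have e4 := congrArg List.length e1
    rw [List.length_take, List.length_take] at e4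
    by_cases h : u.length < A
    · rw [List.take_of_length_le (by omega), List.take_of_length_le (by omega)] at e1
      rw [← e1]; exact h1
    · exact hf u' u (by omega) (by omega) e1 e2' e3 h1
  · intro h
    exact ⟨u, h, rfl⟩

end reg

section gad

open Crest.Agent.R320.Grid_899 (G Am)

theorem sum_G (κ : ℕ) (hκ : 1 ≤ κ) (i : ℕ) :
    ∑ j ∈ Finset.range (i+1), G κ j ≤ 2 * G κ i := by
  induction i with
  | zero => simp [G]
  | succ i ih =>
    rw [Finset.sum_range_succ]
    have h1 : 2 * G κ i ≤ G κ (i+1) := by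
      unfold Crest.Agent.R320.Grid_899.G
      have : κ * (i+1) = κ * i + (κ - 1) + 1 := by rw [Nat.mul_add]; omega
      rw [this, pow_succ, pow_add]
      have := Nat.one_le_two_pow (n := κ - 1)
      have h0 : 0 < 2 ^ (κ * i) := by positivity
      nlinarith
    omega

theorem primes (k B : ℕ) : ∃ q : Fin k → ℕ, Function.Injective q ∧ ∀ j, (q j).Prime ∧ B ≤ q j := by
  have hinf : ({p : ℕ | p.Prime} \ Set.Iio B).Infinite :=
    Nat.infinite_setOf_prime.diff (Set.finite_Iio B)
  let e := hinf.natEmbedding
  refine ⟨fun j => (e j).1, ?_, ?_⟩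
  · intro i j h
    have h1 := e.injective (Subtype.ext h)
    exact Fin.ext h1
  · intro j
    have := (e j).2
    exact ⟨this.1, by have := this.2; simpa using this⟩

/-- bad totals -/
def BadN {k : ℕ} (q : Fin k → ℕ) (P κ m : ℕ) (T : ℕ) : Prop :=
  (∃ j, q j ∣ T) ∨ ∃ j, 1 ≤ j ∧ j ≤ m ∧
    ¬ (P * G κ (j - 1) ≤ (T - Am P κ j) % G κ j ∧
      (T - Am P κ j) % G κ j + P * G κ (j - 1) ≤ G κ j)

theorem badN_thin {k : ℕ} (q : Fin k → ℕ) (P κ m T : ℕ) (hT : Am P κ m ≤ T)
    (h : BadN q P κ m T) :
    Crest.Agent.R320.Thin963.BadT (Finset.univ.image q) m (fun i => (G κ i : ℤ))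
      (fun i => ((P * G κ i : ℕ) : ℤ)) (fun i => (Am P κ i : ℤ)) (T : ℤ) := by
  rcases h with ⟨j, hj⟩ | ⟨j, h1, h2, h3⟩
  · left
    exact ⟨q j, Finset.mem_image.2 ⟨j, Finset.mem_univ _, rfl⟩, by exact_mod_cast hj⟩
  · right
    obtain ⟨i, rfl⟩ : ∃ i, j = i + 1 := ⟨j - 1, by omega⟩
    have hA : Am P κ (i+1) ≤ T := le_trans (Crest.Agent.R320.Grid_899.Am_mono h2) hT
    have hG : 0 < G κ (i+1) := Crest.Agent.R320.Grid_899.G_pos _
    have e0 : i + 1 - 1 = i := rfl
    rw [e0] at h3
    have e1 := Nat.div_add_mod (T - Am P κ (i+1)) (G κ (i+1))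
    have e2 := Nat.mod_lt (T - Am P κ (i+1)) hG
    set w := (T - Am P κ (i+1)) / G κ (i+1)
    set r := (T - Am P κ (i+1)) % G κ (i+1)
    have e3 : (T:ℤ) - Am P κ (i+1) = G κ (i+1) * w + r := by
      rw [← Nat.cast_sub hA, ← e1]; push_cast; ring
    refine ⟨i, by omega, ?_⟩
    by_cases h4 : P * G κ i ≤ r
    · have h5 : G κ (i+1) < r + P * G κ i := by
        by_contra h6
        exact h3 ⟨h4, by omega⟩
      refine ⟨(G κ (i+1) : ℤ) - r, ?_, ?_⟩
      · rw [abs_le]
        have a1 : (r:ℤ) < G κ (i+1) := by exact_mod_cast e2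
        have a2 : (G κ (i+1) : ℤ) < r + ((P * G κ i : ℕ) : ℤ) := by exact_mod_cast h5
        constructor
        · have a3 : (0:ℤ) ≤ ((P * G κ i : ℕ) : ℤ) := by positivity
          show -((P * G κ i : ℕ) : ℤ) ≤ _
          linarith
        · show _ ≤ ((P * G κ i : ℕ) : ℤ)
          linarith
      · refine ⟨w + 1, ?_⟩
        show (T:ℤ) - Am P κ (i+1) + _ = _
        rw [e3]; ring
    · refine ⟨-(r:ℤ), ?_, ?_⟩
      · have a2 : (r:ℤ) < ((P * G κ i : ℕ) : ℤ) := by exact_mod_cast (by omega : r < P * G κ i)
        rw [abs_neg, abs_of_nonneg (by positivity)]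
        exact a2.le
      · refine ⟨w, ?_⟩
        show (T:ℤ) - Am P κ (i+1) + _ = _
        rw [e3]; ring

theorem badN_per {k : ℕ} (q : Fin k → ℕ) (P κ m : ℕ) (hq : ∀ j, q j ∣ P) {T T' : ℕ}
    (hT : Am P κ m ≤ T) (hT' : Am P κ m ≤ T') (hmod : T % (P * G κ m) = T' % (P * G κ m))
    (h : BadN q P κ m T) : BadN q P κ m T' := by
  have hm : T ≡ T' [MOD (P * G κ m)] := hmod
  rcases h with ⟨j, hj⟩ | ⟨j, h1, h2, h3⟩
  · left
    refine ⟨j, ?_⟩
    have := (hm.of_dvd ((hq j).trans (Dvd.intro _ rfl)))
    exact (Nat.ModEq.dvd_iff this (dvd_refl _)).1 hj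
  · right
    refine ⟨j, h1, h2, ?_⟩
    have hA : Am P κ j ≤ Am P κ m := Crest.Agent.R320.Grid_899.Am_mono h2
    have hd : G κ j ∣ P * G κ m := Dvd.dvd.mul_left (Crest.Agent.R320.Grid_899.G_dvd h2) _
    have e : (T - Am P κ j) % G κ j = (T' - Am P κ j) % G κ j := by
      have h4 : (T - Am P κ j) + Am P κ j ≡ (T' - Am P κ j) + Am P κ j [MOD G κ j] := by
        rw [Nat.sub_add_cancel (by omega), Nat.sub_add_cancel (by omega)]
        exact hm.of_dvd hd
      exact Nat.ModEq.add_right_cancel' _ h4
    rw [← e]; exact h3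

theorem gad (S V : Type) [Monoid S] [Finite S] [AddCommGroup V] [Finite V]
    (act : V → S → V) :
    ∃ C0 : ℕ, ∀ K : ℕ, ∃ (N1 q1 M0 A t0 X : ℕ) (BadT : ℕ → Prop),
      0 < N1 ∧ 0 < M0 ∧ 2 * N1 < X ∧
      (∀ T, t0 ≤ T → ∀ J : Finset ℕ, (∀ k ∈ J, k < K ∧ ∃ k', k' < K ∧ k' ≠ k ∧
        BadT (T + X*2^k' - X*2^k)) → J.card ≤ C0) ∧
      (∀ T T', q1 ≤ T → q1 ≤ T' → T % M0 = T' % M0 → BadT T → BadT T') ∧
      ∀ (α : Type) (phi : List α → S), (∀ u v, phi (u ++ v) = phi u * phi v) →
        ∃ (lam rho : List α → Option V) (nu : List α → V),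
          (∀ P v, lam P = some v → P.length ≤ N1) ∧
          (∀ P Q v b, lam P = some v → rho Q = some b → b = act v (phi (P ++ Q)) + nu (P ++ Q)) ∧
          (∀ u, q1 ≤ u.length → ¬ BadT u.length → ∀ v, ∃ P Q, u = P ++ Q ∧ lam P = some v ∧
            (rho Q).isSome) ∧
          (∀ u u', A ≤ u.length → A ≤ u'.length → u.take A = u'.take A →
            u.length % M0 = u'.length % M0 → phi (u.drop A) = phi (u'.drop A) →
            nu u = nu u') := by
  classical
  obtain ⟨k, m, H⟩ := Crest.Agent.R320.Grid_899.grid_gadget_reg S V act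
  refine ⟨k + m, fun K => ?_⟩
  obtain ⟨q, hqi, hq⟩ := primes k (2^(K+1) + 3)
  set P := ∏ j, q j with hPdef
  have hP : 0 < P := Finset.prod_pos (fun j _ => (hq j).1.pos)
  set κ := K + 5 + P with hκ
  have hodd : ∀ j, Odd (q j) := fun j => (hq j).1.odd_of_ne_two (by
    have := (hq j).2
    have := Nat.one_le_two_pow (n := K+1)
    omega)
  have hcopr : Pairwise (fun i j => Nat.Coprime (q i) (q j)) := fun i j hij =>
    (Nat.coprime_primes (hq i).1 (hq j).1).2 (fun h => hij (hqi h))
  have hgrow : ∀ i < m, (2:ℤ)^(K+4) * ∑ j ∈ Finset.range (i+1), ((P * G κ j : ℕ) : ℤ) ≤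
      (G κ (i+1) : ℤ) := by
    intro i _
    have h1 := sum_G κ (by omega) i
    have h2 : (2:ℕ)^(K+4) * ∑ j ∈ Finset.range (i+1), (P * G κ j) ≤ G κ (i+1) := by
      rw [← Finset.mul_sum]
      calc 2^(K+4) * (P * ∑ j ∈ Finset.range (i+1), G κ j)
          ≤ 2^(K+4) * (P * (2 * G κ i)) := by gcongr
        _ = 2^(K+5) * P * G κ i := by rw [show K + 5 = K + 4 + 1 from rfl, pow_succ]; ring
        _ ≤ 2^(K+5) * 2^P * G κ i := by
            gcongr
            exact Nat.lt_two_pow_self.le
        _ = G κ (i+1) := by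
            unfold Crest.Agent.R320.Grid_899.G
            rw [← pow_add, ← pow_add]
            congr 1
            rw [Nat.mul_add]; omega
    exact_mod_cast h2
  obtain ⟨X, hX0, hXpos, hX⟩ := Crest.Agent.R320.Thin963.thin K m (Finset.univ.image q)
    (fun i => (G κ i : ℤ)) (fun i => ((P * G κ i : ℕ) : ℤ)) (fun i => (Am P κ i : ℤ))
    (by
      intro p hp
      obtain ⟨j, _, rfl⟩ := Finset.mem_image.1 hp
      exact ⟨(hq j).1, by have := (hq j).2; omega⟩)
    (by
      intro p hp
      obtain ⟨j, _, rfl⟩ := Finset.mem_image.1 hp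
      rw [Nat.isCoprime_iff_coprime]
      unfold Crest.Agent.R320.Grid_899.G
      exact Nat.Coprime.pow_right _ ((Nat.coprime_two_right).2 (hodd j)))
    (by exact_mod_cast Crest.Agent.R320.Grid_899.G_pos (κ := κ) m)
    (by intro i j h; exact_mod_cast Crest.Agent.R320.Grid_899.G_dvd (κ := κ) h)
    (by intro i; exact_mod_cast Nat.mul_pos hP (Crest.Agent.R320.Grid_899.G_pos (κ := κ) i))
    (by intro i; exact_mod_cast Dvd.intro_left P rfl)
    hgrow (2 * ((Am P κ m + 1 : ℕ) : ℤ) + 1)
  obtain ⟨X, rfl⟩ : ∃ Y : ℕ, X = (Y : ℤ) := ⟨X.toNat, by rw [Int.toNat_of_nonneg hXpos.le]⟩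
  have hXbig : 2 * (Am P κ m + 1) < X := by
    have : (2 * ((Am P κ m + 1 : ℕ) : ℤ) + 1) ≤ (X:ℤ) := hX0
    have h3 : 2 * (Am P κ m + 1) + 1 ≤ X := by exact_mod_cast this
    omega
  refine ⟨Am P κ m + 1, 2 * Am P κ (m+1), P * G κ m, Am P κ (m+1) + (Am P κ m + 1),
    X * 2^K + Am P κ m, X, BadN q P κ m, by omega,
    Nat.mul_pos hP (Crest.Agent.R320.Grid_899.G_pos (κ := κ) m), hXbig, ?_, ?_, ?_⟩
  · -- thinness
    intro T hT J hJ
    have h1 := hX (T:ℤ)
    have h2 : (Finset.univ.image q).card ≤ k := by
      refine le_trans Finset.card_image_le ?_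
      simp
    refine le_trans ?_ (le_trans h1 (by omega))
    refine le_trans (Finset.card_le_card ?_) (Finset.card_image_le (f := Prod.snd))
    intro a ha
    obtain ⟨haK, b, hb, hne, hbad⟩ := hJ a ha
    refine Finset.mem_image.2 ⟨(b, a), ?_, rfl⟩
    refine Finset.mem_filter.2 ⟨Finset.mem_product.2 ⟨Finset.mem_range.2 hb,
      Finset.mem_range.2 haK⟩, hne, ?_⟩
    have h4 : X * 2^a ≤ X * 2^K :=
      Nat.mul_le_mul_left _ (Nat.pow_le_pow_right (by norm_num) haK.le)
    have h5 := badN_thin q P κ m _ (by omega) hbad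
    have h6 : ((T + X * 2^b - X * 2^a : ℕ) : ℤ) = (T:ℤ) + X * 2^b - X * 2^a := by
      rw [Nat.cast_sub (by omega)]; push_cast; ring
    rw [h6] at h5
    exact h5
  · -- periodicity
    intro T T' hT hT' hmod hb
    have h1 : Am P κ m ≤ Am P κ (m+1) := Crest.Agent.R320.Grid_899.Am_succ_ge m
    exact badN_per q P κ m (fun j => Finset.dvd_prod_of_mem q (Finset.mem_univ j))
      (by omega) (by omega) hmod hb
  · intro α phi hphi
    obtain ⟨lam, rho, nu, h1, h2, h3, h4, h5⟩ := H q hodd hcopr κ α phi hphi
    rw [← hPdef] at h1 h2 h4 h5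
    let Leg : List α → Prop := fun u => ∃ P Q v b, u = P ++ Q ∧ lam P = some v ∧ rho Q = some b
    refine ⟨lam, rho, fun u => if Leg u then nu u else 0, ?_, ?_, ?_, ?_⟩
    · intro P' v hv
      have := (h1 P' v hv).1
      omega
    · intro P' Q v b hl hr
      have : Leg (P' ++ Q) := ⟨P', Q, v, b, rfl, hl, hr⟩
      simp only [if_pos this]
      exact h3 _ _ _ _ hl hr
    · intro u hu hb v
      unfold BadN at hb
      push Not at hb
      exact h4 u hu hb.1 hb.2 v
    · have key : ∀ u u' : List α, Am P κ (m+1) + (Am P κ m + 1) ≤ u.length →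
          Am P κ (m+1) + (Am P κ m + 1) ≤ u'.length →
          u.take (Am P κ (m+1) + (Am P κ m + 1)) = u'.take (Am P κ (m+1) + (Am P κ m + 1)) →
          u.length % (P * G κ m) = u'.length % (P * G κ m) →
          phi (u.drop (Am P κ (m+1) + (Am P κ m + 1))) =
            phi (u'.drop (Am P κ (m+1) + (Am P κ m + 1))) → Leg u → Leg u' ∧ nu u = nu u' := by
        rintro u u' hu hu' ht hl hph ⟨P', Q, v, b, rfl, hv, hb⟩
        set A0 := Am P κ (m+1) with hA0
        set AA := A0 + (Am P κ m + 1) with hAA
        have hi : P'.length < Am P κ m := (h1 P' v hv).1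
        have e1 : u'.take P'.length = P' := by
          have := congrArg (fun l => l.take P'.length) ht
          simp only [List.take_take] at this
          rw [min_eq_left (by omega)] at this
          rw [← this, List.take_left]
        have e2 : u' = P' ++ u'.drop P'.length := by
          conv_lhs => rw [← List.take_append_drop P'.length u', e1]
        have hQl : A0 ≤ Q.length := h2 Q b hb
        have hQl' : A0 ≤ (u'.drop P'.length).length := by rw [List.length_drop]; omega
        have e3 : ∀ w : List α, (w.drop P'.length).take A0 = ((w.take AA).drop P'.length).take A0 := by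
          intro w
          rw [List.drop_take, List.take_take, min_eq_left (by omega)]
        have e4 : Q.take A0 = (u'.drop P'.length).take A0 := by
          have a1 := e3 (P' ++ Q)
          rw [List.drop_left] at a1
          rw [a1, e3 u', ht]
        have e5 : ∀ w : List α, phi ((w.drop P'.length).drop A0) =
            phi (((w.take AA).drop P'.length).drop A0) * phi (w.drop AA) := by
          intro w
          rw [← hphi]
          congr 1
          by_cases hw : AA ≤ w.length
          · have a1 : w = w.take AA ++ w.drop AA := (List.take_append_drop _ _).symm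
            have a2 : (w.take AA).length = AA := by rw [List.length_take]; omega
            conv_lhs => rw [a1]
            rw [List.drop_append_of_le_length (by omega), List.drop_append_of_le_length
              (by rw [List.length_drop]; omega)]
          · rw [List.take_of_length_le (by omega), List.drop_of_length_le (l := w) (i := AA)
              (by omega), List.append_nil]
        have e6 : phi (Q.drop A0) = phi ((u'.drop P'.length).drop A0) := by
          have a1 := e5 (P' ++ Q)
          rw [List.drop_left] at a1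
          rw [a1, e5 u', ht, hph]
        have e7 : Q.length ≡ (u'.drop P'.length).length [MOD (P * G κ m)] := by
          have a1 : P'.length + Q.length ≡ P'.length + (u'.drop P'.length).length
              [MOD (P * G κ m)] := by
            rw [List.length_append] at hl
            have : P'.length + (u'.drop P'.length).length = u'.length := by
              rw [List.length_drop]; omega
            rw [this]
            exact hl
          exact Nat.ModEq.add_left_cancel' _ a1
        have e8 := h5 Q (u'.drop P'.length) hQl hQl' e4 e6 e7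
        have hb' : rho (u'.drop P'.length) = some b := by rw [← e8]; exact hb
        refine ⟨⟨P', u'.drop P'.length, v, b, e2, hv, hb'⟩, ?_⟩
        have f1 := h3 _ _ _ _ hv hb
        have f2 := h3 _ _ _ _ hv hb'
        rw [← e2] at f2
        have f3 : ∀ w : List α, phi w = phi (w.take AA) * phi (w.drop AA) := fun w => by
          rw [← hphi, List.take_append_drop]
        have f4 : phi (P' ++ Q) = phi u' := by rw [f3 (P' ++ Q), f3 u', ht, hph]
        rw [f4] at f1
        have := f1.symm.trans f2
        exact add_left_cancel this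
      intro u u' hu hu' ht hl hph
      by_cases hL : Leg u
      · obtain ⟨a1, a2⟩ := key u u' hu hu' ht hl hph hL
        simp only [if_pos hL, if_pos a1, a2]
      · have hL' : ¬ Leg u' := fun h => hL (key u' u hu' hu ht.symm hl.symm hph.symm h).1
        simp only [if_neg hL, if_neg hL']

end gad

end Crest.Agent.R320.Fin_189
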