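import Crest.Agent.R320.GridG_19
import Crest.Agent.R320.Thin_963

/-! Row 320, helper755: the ruler for the grid gadget of helper19, in natural numbers. -/

set_option autoImplicit false

namespace Crest.Agent.R320.Fin_755

open Finset Crest.Agent.R320.GridG_19

theorem sum_pow_le (κ : ℕ) (hκ : 1 ≤ κ) (i : ℕ) :
    ∑ j ∈ range (i + 1), (2:ℤ) ^ (κ * j) ≤ 2 * 2 ^ (κ * i) := by
  induction i with
  | zero => simp
  | succ i ih =>
    rw [Finset.sum_range_succ]
    have h1 : (2:ℤ) * 2 ^ (κ * i) ≤ 2 ^ (κ * (i + 1)) := by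
      rw [← pow_succ']
      apply pow_le_pow_right₀ (by norm_num)
      have : κ * (i + 1) = κ * i + κ := by ring
      omega
    linarith

theorem ruler (K m r : ℕ) (Ms : Finset ℕ) (hcard : Ms.card ≤ r)
    (hMs : ∀ q ∈ Ms, q.Prime ∧ 2 ^ (K + 1) < q) :
    ∃ G : ℕ → ℕ, (∀ k, 0 < G k) ∧ (∀ a b, a ≤ b → G a ∣ G b) ∧
      (∀ k, Nat.Coprime (∏ q ∈ Ms, q) (G k)) ∧
      ∀ N0 A0 : ℕ, ∃ c : ℕ → ℕ, (∀ i j, i < j → c i < c j) ∧
        (∀ k k' l l', k < K → k' < K → l < K → l' < K → k' ≠ k → l' ≠ l →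
          c k + c l' < c l + c k' + 2 * N0 → c l + c k' < c k + c l' + 2 * N0 → k = l) ∧
        (∀ T : ℕ, c K + Am G (∏ q ∈ Ms, q) A0 m ≤ T → ∀ J : Finset ℕ,
          (∀ k ∈ J, k < K ∧ ∃ k', k' < K ∧ k' ≠ k ∧
            ((∃ q ∈ Ms, q ∣ T + c k' - c k) ∨ BadG G (∏ q ∈ Ms, q) A0 m (T + c k' - c k))) →
          J.card ≤ r + m) := by
  classical
  set M := ∏ q ∈ Ms, q with hM
  have hMpos : 0 < M := Finset.prod_pos fun q hq => (hMs q hq).1.pos
  set κ := K + 5 + M with hκ
  let G : ℕ → ℕ := fun k => 2 ^ (κ * k)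
  have hG : ∀ k, 0 < G k := fun k => Nat.pow_pos (by norm_num)
  have hGd : ∀ a b, a ≤ b → G a ∣ G b := fun a b h => Nat.pow_dvd_pow 2 (Nat.mul_le_mul_left κ h)
  have hodd : ∀ q ∈ Ms, Nat.Coprime q 2 := by
    intro q hq
    have h1 := (hMs q hq).1
    have h2 := (hMs q hq).2
    have h3 : 2 ^ 1 ≤ 2 ^ (K + 1) := Nat.pow_le_pow_right (by norm_num) (by omega)
    exact (Nat.coprime_primes h1 Nat.prime_two).2 (by omega)
  refine ⟨G, hG, hGd, fun k => ?_, fun N0 A0 => ?_⟩
  · exact Nat.Coprime.prod_left fun q hq => (hodd q hq).pow_right _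
  · let GZ : ℕ → ℤ := fun k => (G k : ℤ)
    let cz : ℕ → ℤ := fun k => (M : ℤ) * (G k : ℤ)
    let AZ : ℕ → ℤ := fun k => (Am G M A0 k : ℤ)
    obtain ⟨X, hX1, hX0, hX2⟩ := Crest.Agent.R320.Thin963.thin K m Ms GZ cz AZ
      (fun q hq => ⟨(hMs q hq).1, (hMs q hq).2.le⟩)
      (fun q hq => by
        have := (hodd q hq).pow_right (κ * m)
        exact Nat.isCoprime_iff_coprime.2 this)
      (Int.natCast_pos.2 (hG m))
      (fun i j h => Int.natCast_dvd_natCast.2 (hGd i j h))
      (fun i => by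
        have h1 := hG i
        exact mul_pos (by exact_mod_cast hMpos) (by exact_mod_cast h1))
      (fun i => Dvd.intro_left _ rfl)
      (fun i _ => by
        have h1 : ∑ j ∈ range (i + 1), cz j = (M:ℤ) * ∑ j ∈ range (i + 1), (2:ℤ) ^ (κ * j) := by
          rw [Finset.mul_sum]
          refine Finset.sum_congr rfl fun j _ => ?_
          simp [cz, G]
        have h2 := sum_pow_le κ (by omega) i
        have h3 : (M : ℤ) ≤ 2 ^ M := by exact_mod_cast (Nat.lt_two_pow_self).le
        have h4 : GZ (i + 1) = 2 ^ (K + 4) * (2 ^ M * (2 * 2 ^ (κ * i))) := by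
          simp only [GZ, G]
          push_cast
          rw [← pow_succ', ← pow_add, ← pow_add]
          congr 1
          rw [hκ]; ring
        rw [h4, h1]
        apply mul_le_mul_of_nonneg_left _ (by positivity)
        have h5 : (0:ℤ) ≤ 2 * 2 ^ (κ * i) := by positivity
        have h6 : (0:ℤ) ≤ M := by positivity
        calc (M:ℤ) * ∑ j ∈ range (i + 1), (2:ℤ) ^ (κ * j) ≤ M * (2 * 2 ^ (κ * i)) :=
              mul_le_mul_of_nonneg_left h2 h6
          _ ≤ _ := mul_le_mul_of_nonneg_right h3 h5) ((2 * N0 + 1 : ℕ) : ℤ)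
    obtain ⟨x, rfl⟩ := Int.eq_ofNat_of_zero_le hX0.le
    have hx : 2 * N0 + 1 ≤ x := by exact_mod_cast hX1
    let c : ℕ → ℕ := fun j => x * 2 ^ j
    have hcm : ∀ i j, i < j → c i < c j := fun i j h =>
      Nat.mul_lt_mul_of_pos_left (Nat.pow_lt_pow_right (by norm_num) h) (by omega)
    have hcc : ∀ j, ((c j : ℕ) : ℤ) = (x : ℤ) * 2 ^ j := fun j => by simp [c]
    refine ⟨c, hcm, ?_, ?_⟩
    · intro k k' l l' hk hk' hl hl' h1 h2 h3 h4
      have h3' : ((c k : ℕ) : ℤ) + c l' < c l + c k' + 2 * N0 := by exact_mod_cast h3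
      have h4' : ((c l : ℕ) : ℤ) + c k' < c k + c l' + 2 * N0 := by exact_mod_cast h4
      rw [hcc, hcc, hcc, hcc] at h3' h4'
      set d : ℤ := (2 ^ k' - 2 ^ k) - (2 ^ l' - 2 ^ l) with hd
      have hx' : (2 * N0 + 1 : ℤ) ≤ x := by exact_mod_cast hx
      have e1 : -(x:ℤ) < x * d := by rw [hd]; nlinarith
      have e2 : (x:ℤ) * d < x := by rw [hd]; nlinarith
      have hd0 : d = 0 := by
        by_contra hne
        rcases lt_or_gt_of_ne hne with h | h
        · have : (x:ℤ) * d ≤ x * (-1) := mul_le_mul_of_nonneg_left (by omega) (by omega)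
          linarith
        · have : (x:ℤ) * 1 ≤ x * d := mul_le_mul_of_nonneg_left (by omega) (by omega)
          linarith
      have := Crest.Agent.R320.G369.pow_diff h1 h2 (by rw [hd] at hd0; linarith)
      exact this.2
    · intro T hT J hJ
      have hcK : ∀ k, k < K → c k < c K := fun k h => hcm k K h
      choose! f hf using fun k hk => (hJ k hk).2
      have hmap : ∀ k ∈ J, (f k, k) ∈ ((range K) ×ˢ (range K)).filter (fun p => p.1 ≠ p.2 ∧
          Crest.Agent.R320.Thin963.BadT Ms m GZ cz AZ ((T:ℤ) + x * 2^p.1 - x * 2^p.2)) := by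
        intro k hk
        have hkK := (hJ k hk).1
        obtain ⟨hf1, hf2, hf3⟩ := hf k hk
        rw [Finset.mem_filter, Finset.mem_product, Finset.mem_range, Finset.mem_range]
        refine ⟨⟨hf1, hkK⟩, hf2, ?_⟩
        have hck := hcK k hkK
        have eT : ((T + c (f k) - c k : ℕ) : ℤ) = (T:ℤ) + x * 2^(f k) - x * 2^k := by
          rw [Nat.cast_sub (by omega), Nat.cast_add, hcc, hcc]
        rw [← eT]
        rcases hf3 with ⟨q, hq, h1⟩ | ⟨i, hi, h1⟩
        · left
          exact ⟨q, hq, Int.natCast_dvd_natCast.2 h1⟩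
        · right
          set Y := T + c (f k) - c k with hY
          have hA : Am G M A0 (i + 1) ≤ Y := by
            have := Am_mono G M A0 (show i + 1 ≤ m by omega)
            omega
          set y := Y - Am G M A0 (i + 1) with hy
          have hyz : (Y:ℤ) - AZ (i + 1) = (y:ℤ) := by
            simp only [AZ]
            rw [hy, Nat.cast_sub hA]
          have hρ := Nat.div_add_mod y (G (i + 1))
          have hρ' : (G (i+1) : ℤ) * (y / G (i+1) : ℕ) + (y % G (i+1) : ℕ) = (y:ℤ) := by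
            exact_mod_cast hρ
          have hlt := Nat.mod_lt y (hG (i + 1))
          rcases h1 with h1 | h1
          · refine ⟨i, hi, -((y % G (i + 1) : ℕ) : ℤ), ?_, ?_⟩
            · rw [abs_neg, Nat.abs_cast]
              simp only [cz]
              exact_mod_cast h1.le
            · rw [hyz]
              refine ⟨((y / G (i + 1) : ℕ) : ℤ), ?_⟩
              simp only [GZ]
              linarith
          · refine ⟨i, hi, ((G (i + 1) - y % G (i + 1) : ℕ) : ℤ), ?_, ?_⟩
            · rw [Nat.abs_cast]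
              simp only [cz]
              have : G (i + 1) - y % G (i + 1) ≤ M * G i := by omega
              exact_mod_cast this
            · rw [hyz, Nat.cast_sub hlt.le]
              refine ⟨((y / G (i + 1) : ℕ) : ℤ) + 1, ?_⟩
              simp only [GZ]
              linarith
      have h1 : J.card ≤ (((range K) ×ˢ (range K)).filter (fun p => p.1 ≠ p.2 ∧
          Crest.Agent.R320.Thin963.BadT Ms m GZ cz AZ ((T:ℤ) + x * 2^p.1 - x * 2^p.2))).card := by
        refine Finset.card_le_card_of_injOn (fun k => (f k, k)) (fun k hk => hmap k hk) ?_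
        intro a _ b _ hab
        exact (Prod.mk.inj hab).2
      have h2 := hX2 (T : ℤ)
      exact (h1.trans h2).trans (by omega)

end Crest.Agent.R320.Fin_755
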