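import Mathlib
import Crest.Agent.R320.NameGad_808

/-!
Row 320, helper256: (G1) of 852 #13483 in the literal form of the lead's plan #13673.
Levels = positional digits of the length in base `b`, names = clocks (808 / 755).
-/

set_option autoImplicit false
set_option linter.unusedSectionVars false

namespace Crest.Agent.R320.G1_256

open Finset Crest.Agent.R320.RandF808 Crest.Agent.R320.Exact808 Crest.Agent.R320.NameGad808

theorem unkT (S V : Type*) [Monoid S] [Finite S] [AddCommGroup V] [Finite V]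
    (act : V → S → V) :
    ∃ (m N k : ℕ) (e : ℕ → S → ZMod N × ZMod N), 0 < N ∧
      ∀ q : Fin k → ℕ, (∀ j, Odd (q j)) →
      ∃ (L R : ℕ → (∀ j, ZMod (q j)) → S → ZMod N × ZMod N → Option V)
        (lev levL : (∀ j, ZMod (q j)) → ℕ)
        (D : (∀ j, ZMod (q j)) → S → ZMod N × ZMod N → V),
        (∀ i t h wr b, R i t h wr = some b → i = lev t ∧ i < m) ∧
        (∀ i t g wl v, L i t g wl = some v → i = levL t ∧ i < m) ∧
        (∀ (i i' : ℕ) (t t' : ∀ j, ZMod (q j)) (g h s : S) (wl wr w : ZMod N × ZMod N) (v b : V),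
          (i = i' → ∃ z, g * z * h = s ∧ wl + e i z + wr = w) →
          L i t g wl = some v → R i' t' h wr = some b → b = act v s + D (t + t') s w) ∧
        (∀ T : ∀ j, ZMod (q j), (∀ j, T j ≠ 0) → ∀ (s : S) (w : ZMod N × ZMod N) (v : V),
          ∃ i < m, ∀ (g z h : S) (wl wr : ZMod N × ZMod N), g * z * h = s →
            wl + e i z + wr = w → ∃ t t', t + t' = T ∧ L i t g wl = some v ∧
              (R i t' h wr).isSome = true) := by
  classical
  have := Fintype.ofFinite S
  have := Fintype.ofFinite V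
  obtain ⟨m, N, e, hN, hF⟩ := exists_noise_unif S V
  obtain ⟨F, hF⟩ := hF act
  have : NeZero N := ⟨by omega⟩
  -- contexts: level, left data, right data, token
  let X := Fin m × (S × (ZMod N × ZMod N)) × (S × (ZMod N × ZMod N)) × V
  let val : X → S → V := fun c z =>
    F (c.2.1.1 * z * c.2.2.1.1) (c.2.1.2 + e c.1 z + c.2.2.1.2) +
      act c.2.2.2 (c.2.1.1 * z * c.2.2.1.1)
  let col : X → V × V := fun c => (c.2.2.2, val c 1)
  let E : Fin (Fintype.card (Idx X (V × V))) ≃ Idx X (V × V) := (Fintype.equivFin _).symm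
  refine ⟨m, N, Fintype.card (Idx X (V × V)), e, hN, ?_⟩
  intro q0 hq0
  let q : Idx X (V × V) → ℕ := fun j => q0 (E.symm j)
  have hq : ∀ j, Odd (q j) := fun j => hq0 _
  have hqn : ∀ j, NeZero (q j) := fun j => ⟨by
    have := hq j
    intro h
    rw [h] at this
    exact absurd this (by decide)⟩
  -- transport of residue vectors
  let tr : (∀ j, ZMod (q0 j)) → (∀ j, ZMod (q j)) := fun t j => t (E.symm j)
  let rt : (∀ j, ZMod (q j)) → (∀ j, ZMod (q0 j)) := fun t j => cast (by simp [q]) (t (E j))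
  have htr_add : ∀ t t', tr (t + t') = tr t + tr t' := fun _ _ => rfl
  have htr_rt : ∀ t, tr (rt t) = t := by
    intro t
    funext j
    simp only [tr, rt]
    have : ∀ (j' : Idx X (V × V)) (h : ZMod (q j') = ZMod (q j)), j' = j → cast h (t j') = t j := by
      intro j' h hj
      subst hj
      rfl
    exact this _ _ (by simp)
  have htr_inj : Function.Injective tr := by
    intro t t' h
    funext j
    have := congrFun h (E j)
    simp only [tr] at this
    have key : ∀ j', j' = j → t j' = t' j' → t j = t' j := by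
      intro j' h1 h2
      subst h1
      exact h2
    exact key _ (by simp) this
  -- labels
  let L : ℕ → (∀ j, ZMod (q0 j)) → S → ZMod N × ZMod N → Option V := fun i t g wl =>
    if h : ∃ c : Nm X (V × V), LegL col q (tr t) c ∧ (c.1.1 : ℕ) = i ∧ c.1.2.1 = (g, wl) then
      some h.choose.1.2.2.2 else none
  let R : ℕ → (∀ j, ZMod (q0 j)) → S → ZMod N × ZMod N → Option V := fun i t hh wr =>
    if h : ∃ c : Nm X (V × V), LegR col q (tr t) c ∧ (c.1.1 : ℕ) = i ∧ c.1.2.2.1 = (hh, wr) ∧
        (∀ z z', val c.1 z = val c.1 z') then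
      some (val h.choose.1 1) else none
  let lev : (∀ j, ZMod (q0 j)) → ℕ := fun t =>
    if h : ∃ c : Nm X (V × V), LegR col q (tr t) c then (h.choose.1.1 : ℕ) else 0
  let levL : (∀ j, ZMod (q0 j)) → ℕ := fun t =>
    if h : ∃ c : Nm X (V × V), LegL col q (tr t) c then (h.choose.1.1 : ℕ) else 0
  let D : (∀ j, ZMod (q0 j)) → S → ZMod N × ZMod N → V := fun T s w =>
    if h : ∃ c d : Nm X (V × V), c ≠ d ∧ ∃ t t', t + t' = tr T ∧ LegL col q t c ∧ LegR col q t' d then
      val h.choose_spec.choose.1 1 - act h.choose.1.2.2.2 s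
    else F s w
  have hLs : ∀ i t g wl v, L i t g wl = some v ↔ ∃ c : Nm X (V × V), LegL col q (tr t) c ∧
      (c.1.1 : ℕ) = i ∧ c.1.2.1 = (g, wl) ∧ c.1.2.2.2 = v := by
    intro i t g wl v
    constructor
    · intro h
      simp only [L] at h
      split_ifs at h with hc
      exact ⟨hc.choose, hc.choose_spec.1, hc.choose_spec.2.1, hc.choose_spec.2.2, by simpa using h⟩
    · rintro ⟨c, h1, h2, h3, h4⟩
      have hc : ∃ c : Nm X (V × V), LegL col q (tr t) c ∧ (c.1.1 : ℕ) = i ∧ c.1.2.1 = (g, wl) :=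
        ⟨c, h1, h2, h3⟩
      simp only [L]
      rw [dif_pos hc]
      have := hc.choose_spec.1.unique h1
      rw [this, h4]
  have hRs : ∀ i t hh wr b, R i t hh wr = some b ↔ ∃ c : Nm X (V × V), LegR col q (tr t) c ∧
      (c.1.1 : ℕ) = i ∧ c.1.2.2.1 = (hh, wr) ∧ (∀ z z', val c.1 z = val c.1 z') ∧
        val c.1 1 = b := by
    intro i t hh wr b
    constructor
    · intro h
      simp only [R] at h
      split_ifs at h with hc
      exact ⟨hc.choose, hc.choose_spec.1, hc.choose_spec.2.1, hc.choose_spec.2.2.1,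
        hc.choose_spec.2.2.2, by simpa using h⟩
    · rintro ⟨c, h1, h2, h3, h4, h5⟩
      have hc : ∃ c : Nm X (V × V), LegR col q (tr t) c ∧ (c.1.1 : ℕ) = i ∧ c.1.2.2.1 = (hh, wr) ∧
        (∀ z z', val c.1 z = val c.1 z') := ⟨c, h1, h2, h3, h4⟩
      simp only [R]
      rw [dif_pos hc]
      have := hc.choose_spec.1.unique h1
      rw [this, h5]
  refine ⟨L, R, lev, levL, D, ?_, ?_, ?_, ?_⟩
  · intro i t h wr b hR
    obtain ⟨c, h1, h2, h3, h4, h5⟩ := (hRs _ _ _ _ _).mp hR
    have hc : ∃ c : Nm X (V × V), LegR col q (tr t) c := ⟨c, h1⟩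
    refine ⟨?_, ?_⟩
    · simp only [lev]
      rw [dif_pos hc, hc.choose_spec.unique h1, h2]
    · rw [← h2]
      exact c.1.1.isLt
  · intro i t g wl v hL
    obtain ⟨c, h1, h2, h3, h4⟩ := (hLs _ _ _ _ _).mp hL
    have hc : ∃ c : Nm X (V × V), LegL col q (tr t) c := ⟨c, h1⟩
    refine ⟨?_, ?_⟩
    · simp only [levL]
      rw [dif_pos hc, hc.choose_spec.unique h1, h2]
    · rw [← h2]
      exact c.1.1.isLt
  · intro i i' t t' g h s wl wr w v b hrel hL hR
    obtain ⟨c, c1, c2, c3, c4⟩ := (hLs _ _ _ _ _).mp hL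
    obtain ⟨d, d1, d2, d3, d4, d5⟩ := (hRs _ _ _ _ _).mp hR
    by_cases hcd : c = d
    · subst hcd
      obtain ⟨z, hz1, hz2⟩ := hrel (c2.symm.trans d2)
      have hD : D (t + t') s w = F s w := by
        simp only [D]
        rw [dif_neg]
        rintro ⟨x, y, hxy, u, u', hu, hux, huy⟩
        have h1 := (diff_name hux huy hxy).1
        rw [hu, htr_add] at h1
        exact same_name c1 d1 _ _ h1
      rw [hD, ← d5, d4 1 z]
      simp only [val]
      rw [c3, d3, c4]
      simp only
      rw [c2, hz1, hz2, add_comm]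
    · have hex : ∃ c d : Nm X (V × V), c ≠ d ∧ ∃ u u', u + u' = tr (t + t') ∧ LegL col q u c ∧
          LegR col q u' d := ⟨c, d, hcd, tr t, tr t', (htr_add _ _).symm, c1, d1⟩
      have hD : D (t + t') s w = val hex.choose_spec.choose.1 1 - act hex.choose.1.2.2.2 s := by
        simp only [D]
        rw [dif_pos hex]
      obtain ⟨x, y, hDxy, hxy, u, u', hu, hux, huy⟩ : ∃ x y : Nm X (V × V),
          D (t + t') s w = val y.1 1 - act x.1.2.2.2 s ∧ x ≠ y ∧ ∃ u u', u + u' = tr (t + t') ∧
            LegL col q u x ∧ LegR col q u' y :=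
        ⟨hex.choose, hex.choose_spec.choose, hD, hex.choose_spec.choose_spec⟩
      rw [hDxy]
      -- the two pairs agree up to order
      obtain ⟨k1, k2, k3⟩ := diff_name hux huy hxy
      obtain ⟨l1, l2, l3⟩ := diff_name c1 d1 hcd
      rw [← htr_add, ← hu] at l1 l2
      have hc' := k3 _ _ l1
      have hd' := k3 _ _ l2
      rcases hc' with hc' | hc' <;> rcases hd' with hd' | hd'
      · exact absurd (hc'.trans hd'.symm) hcd
      · rw [← hc', ← hd', c4, d5]
        abel
      · -- swapped: colours agree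
        have hcol : col x.1 = col y.1 := by
          refine swap_name hux huy (u := tr t) (u' := tr t') ?_ ?_ ?_
          · rw [← hc']; exact c1
          · rw [← hd']; exact d1
          · rw [hu, htr_add]
        have e1 : x.1.2.2.2 = y.1.2.2.2 := congrArg Prod.fst hcol
        have e2 : val x.1 1 = val y.1 1 := congrArg Prod.snd hcol
        rw [e1, ← hc', c4, hc', ← e2, ← hd', d5]
        abel
      · exact absurd (hc'.trans hd'.symm) hcd
  · intro T hT s w v
    obtain ⟨i, him, hi⟩ := hF s w v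
    refine ⟨i, him, ?_⟩
    intro g z h wl wr h1 h2
    let c : X := (⟨i, him⟩, (g, wl), (h, wr), v)
    obtain ⟨eps, t, t', htt, hl, hr⟩ := exists_split (col := col) hq (tr T) (fun j => hT _) c
    refine ⟨rt t, rt t', ?_, ?_, ?_⟩
    · apply htr_inj
      rw [htr_add, htr_rt, htr_rt, htt]
    · rw [hLs]
      exact ⟨(c, eps), by rw [htr_rt]; exact hl, rfl, rfl, rfl⟩
    · rw [Option.isSome_iff_exists]
      refine ⟨val c 1, ?_⟩
      rw [hRs]
      refine ⟨(c, eps), by rw [htr_rt]; exact hr, rfl, rfl, ?_, rfl⟩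
      have key : ∀ z', val c z' = F s w + act v s := by
        intro z'
        have := hi g z h h1 z'
        simp only [val, c]
        rw [← this, ← h2]
        congr 2
        abel
      intro z1 z2
      rw [key, key]


section Seg
variable {A : Type*}

/-- the factor `[a, c)`. -/
def seg (Y : List A) (a c : ℕ) : List A := (Y.drop a).take (c - a)

theorem seg_left {P Q : List A} {a c : ℕ} (hac : a ≤ c) (hc : c ≤ P.length) :
    seg (P ++ Q) a c = seg P a c := by
  unfold seg
  rw [List.drop_append_of_le_length (by omega),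
    List.take_append_of_le_length (by rw [List.length_drop]; omega)]

theorem seg_right {P Q : List A} {a c : ℕ} :
    seg (P ++ Q) (P.length + a) (P.length + c) = seg Q a c := by
  unfold seg
  rw [show (P ++ Q).drop (P.length + a) = Q.drop a by simp [List.drop_append],
    Nat.add_sub_add_left]

theorem seg_split {Y : List A} {a c : ℕ} (hac : a ≤ c) :
    Y.take a ++ seg Y a c ++ Y.drop c = Y := by
  have : Y.drop c = (Y.drop a).drop (c - a) := by
    rw [List.drop_drop]; congr 1; omega
  unfold seg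
  rw [this, List.append_assoc, List.take_append_drop, List.take_append_drop]

theorem seg_take {Y : List A} {a c n : ℕ} (hc : c ≤ n) :
    seg Y a c = seg (Y.take n) a c := by
  unfold seg
  rw [List.drop_take, List.take_take, min_eq_left (by omega)]

end Seg

section Arith

theorem mod_left {b i j o o' : ℕ} (hj : j ≤ i) (h : b ^ i ∣ o') :
    (o + o') % b ^ j = o % b ^ j := by
  obtain ⟨c, hc⟩ := (Nat.pow_dvd_pow b hj).trans h
  rw [hc, Nat.add_mul_mod_self_left]

theorem div_right {b i o o' : ℕ} (hb : 0 < b) (h : b ^ i ∣ o') (h1 : o < b ^ (i + 1))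
    (h2 : 2 * (o / b ^ i) < b) (h3 : 2 * (o' / b ^ i % b) < b) :
    (o + o') / b ^ (i + 1) = o' / b ^ (i + 1) := by
  have hbi : 0 < b ^ i := Nat.pow_pos hb
  obtain ⟨u, rfl⟩ := h
  rw [Nat.mul_div_cancel_left _ hbi] at h3
  rw [pow_succ, ← Nat.div_div_eq_div_mul, ← Nat.div_div_eq_div_mul, Nat.add_mul_div_left _ _ hbi,
    Nat.mul_div_cancel_left _ hbi]
  have e := Nat.div_add_mod u b
  have : o / b ^ i + u = (o / b ^ i + u % b) + b * (u / b) := by omega
  rw [this, Nat.add_mul_div_left _ _ hb, Nat.div_eq_of_lt (by omega), zero_add]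

theorem mod_right {b i j o o' : ℕ} (hb : 0 < b) (h : b ^ i ∣ o') (h1 : o < b ^ (i + 1))
    (h2 : 2 * (o / b ^ i) < b) (h3 : 2 * (o' / b ^ i % b) < b) (hj : i + 1 ≤ j) :
    (o + o') % b ^ j = o + o' % b ^ j := by
  have e := div_right hb h h1 h2 h3
  obtain ⟨d, rfl⟩ := Nat.exists_eq_add_of_le hj
  have e2 : (o + o') / b ^ (i + 1 + d) = o' / b ^ (i + 1 + d) := by
    rw [pow_add, ← Nat.div_div_eq_div_mul, ← Nat.div_div_eq_div_mul, e]
  have e3 := Nat.div_add_mod (o + o') (b ^ (i + 1 + d))
  have e4 := Nat.div_add_mod o' (b ^ (i + 1 + d))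
  rw [e2] at e3
  omega

theorem mod_mono {b n j : ℕ} : n % b ^ j ≤ n % b ^ (j + 1) := by
  have : n % b ^ j = (n % b ^ (j + 1)) % b ^ j :=
    (Nat.mod_mod_of_dvd _ (Nat.pow_dvd_pow b (Nat.le_succ j))).symm
  rw [this]
  exact Nat.mod_le _ _

theorem mod_mono' {b n j k : ℕ} (h : j ≤ k) : n % b ^ j ≤ n % b ^ k := by
  have : n % b ^ j = (n % b ^ k) % b ^ j :=
    (Nat.mod_mod_of_dvd _ (Nat.pow_dvd_pow b h)).symm
  rw [this]
  exact Nat.mod_le _ _

end Arith

section Read
variable {A S W : Type*} [Monoid S] [AddCommGroup W]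

/-- product -/
def ph (f : A → S) (X : List A) : S := (X.map f).prod

theorem ph_append (f : A → S) (X Y : List A) : ph f (X ++ Y) = ph f X * ph f Y := by
  simp [ph]

/-- block `j` of a word. -/
def bl (f : A → S) (b : ℕ) (X : List A) (j : ℕ) : S :=
  ph f (seg X (X.length % b ^ j) (X.length % b ^ (j + 1)))

/-- weight of a word -/
def ww (f : A → S) (e : ℕ → S → W) (m b : ℕ) (X : List A) : W := ∑ j ∈ range m, e j (bl f b X j)

/-- left part of the weight -/
def wL (f : A → S) (e : ℕ → S → W) (b i : ℕ) (P : List A) : W := ∑ j ∈ range i, e j (bl f b P j)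

/-- right part of the weight -/
def wR (f : A → S) (e : ℕ → S → W) (m b i : ℕ) (Q : List A) : W :=
  ∑ j ∈ Ico (i + 1) m, e j (bl f b Q j)

def gL (f : A → S) (b i : ℕ) (P : List A) : S := ph f (P.take (P.length % b ^ i))

def hR (f : A → S) (b i : ℕ) (Q : List A) : S := ph f (Q.drop (Q.length % b ^ (i + 1)))

theorem self_read (f : A → S) (e : ℕ → S → W) {m b i : ℕ} (him : i < m) (X : List A) :
    gL f b i X * bl f b X i * hR f b i X = ph f X ∧
    wL f e b i X + e i (bl f b X i) + wR f e m b i X = ww f e m b X := by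
  constructor
  · have h6 := seg_split (Y := X) (mod_mono (b := b) (n := X.length) (j := i))
    conv_rhs => rw [← h6]
    rw [ph_append, ph_append]
    rfl
  · unfold ww wL wR
    rw [← Finset.sum_range_add_sum_Ico _ (show i + 1 ≤ m from him), Finset.sum_range_succ]

theorem pq_read (f : A → S) (e : ℕ → S → W) {m b i : ℕ} (hb : 0 < b)
    (P Q : List A) (h : b ^ i ∣ Q.length) (h1 : P.length < b ^ (i + 1))
    (h2 : 2 * (P.length / b ^ i) < b) (h3 : 2 * (Q.length / b ^ i % b) < b) :
    gL f b i (P ++ Q) = gL f b i P ∧ wL f e b i (P ++ Q) = wL f e b i P ∧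
    hR f b i (P ++ Q) = hR f b i Q ∧ wR f e m b i (P ++ Q) = wR f e m b i Q := by
  have hl : (P ++ Q).length = P.length + Q.length := List.length_append
  have hL : ∀ j, j ≤ i → (P ++ Q).length % b ^ j = P.length % b ^ j := fun j hj => by
    rw [hl]; exact mod_left hj h
  have hRr : ∀ j, i + 1 ≤ j → (P ++ Q).length % b ^ j = P.length + Q.length % b ^ j :=
    fun j hj => by rw [hl]; exact mod_right hb h h1 h2 h3 hj
  refine ⟨?_, ?_, ?_, ?_⟩
  · unfold gL
    rw [hL i le_rfl, List.take_append_of_le_length (Nat.mod_le _ _)]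
  · unfold wL
    refine Finset.sum_congr rfl fun j hj => ?_
    have hj' := Finset.mem_range.1 hj
    unfold bl
    rw [hL j hj'.le, hL (j + 1) hj', seg_left mod_mono (Nat.mod_le _ _)]
  · unfold hR
    rw [hRr (i + 1) le_rfl, show (P ++ Q).drop (P.length + Q.length % b ^ (i + 1)) =
      Q.drop (Q.length % b ^ (i + 1)) by simp [List.drop_append]]
  · unfold wR
    refine Finset.sum_congr rfl fun j hj => ?_
    obtain ⟨hj1, hj2⟩ := Finset.mem_Ico.1 hj
    unfold bl
    rw [hRr j hj1, hRr (j + 1) (by omega), seg_right]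

theorem loc_bl (f : A → S) {m b j : ℕ} (hb : 0 < b) (hj : j < m) {Q Q' : List A}
    (h1 : Q.take (b ^ m) = Q'.take (b ^ m)) (h2 : Q.length % b ^ m = Q'.length % b ^ m) :
    bl f b Q j = bl f b Q' j := by
  have e : ∀ k, k ≤ m → Q.length % b ^ k = Q'.length % b ^ k := fun k hk =>
    Nat.ModEq.of_dvd (Nat.pow_dvd_pow b hk) h2
  have hlt : ∀ n k, k ≤ m → n % b ^ k ≤ b ^ m := fun n k hk =>
    ((Nat.mod_lt n (Nat.pow_pos hb)).le).trans (Nat.pow_le_pow_right hb hk)
  unfold bl
  rw [seg_take (Y := Q) (hlt _ _ hj), seg_take (Y := Q') (hlt _ _ hj), h1, e j hj.le, e (j + 1) hj]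

theorem loc_hR (f : A → S) {m b i : ℕ} (hb : 0 < b) (hi : i < m) {Q Q' : List A}
    (h1 : Q.take (b ^ m) = Q'.take (b ^ m)) (h2 : Q.length % b ^ m = Q'.length % b ^ m)
    (h3 : ph f (Q.drop (b ^ m)) = ph f (Q'.drop (b ^ m))) :
    hR f b i Q = hR f b i Q' := by
  have e : Q.length % b ^ (i + 1) = Q'.length % b ^ (i + 1) :=
    Nat.ModEq.of_dvd (Nat.pow_dvd_pow b hi) h2
  have hlt : ∀ n, n % b ^ (i + 1) ≤ b ^ m := fun n =>
    ((Nat.mod_lt n (Nat.pow_pos hb)).le).trans (Nat.pow_le_pow_right hb hi)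
  have key : ∀ Y : List A, ph f (Y.drop (Y.length % b ^ (i + 1))) =
      ph f ((Y.take (b ^ m)).drop (Y.length % b ^ (i + 1))) * ph f (Y.drop (b ^ m)) := by
    intro Y
    rw [← ph_append]
    congr 1
    have := hlt Y.length
    conv_lhs => rw [← List.take_append_drop (b ^ m) Y]
    rw [List.drop_append]
    by_cases hc : b ^ m ≤ Y.length
    · have : Y.length % b ^ (i + 1) - (Y.take (b ^ m)).length = 0 := by
        rw [List.length_take]; omega
      simp only [List.take_append_drop]
      rw [this]; rfl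
    · have h0 : Y.drop (b ^ m) = [] := List.drop_eq_nil_of_le (by omega)
      simp only [List.take_append_drop]
      rw [h0]; simp
  unfold hR
  rw [key Q, key Q', h1, h3, e]

end Read

/-- **(G1)** of 852 #13483, literal of the plan #13673. -/
theorem g1 (S V : Type) [Monoid S] [Finite S] [AddCommGroup V] [Finite V] (act : V → S → V) :
    ∃ m r : ℕ, ∀ Bd : ℕ, ∃ (Ms : Finset ℕ) (M : ℕ), Ms.card ≤ r ∧
      (∀ k ∈ Ms, Bd < k ∧ k.Prime ∧ k ∣ M) ∧ 0 < M ∧
      ∀ b : ℕ, 4 * M + 4 < b → Nat.Coprime b M → ∀ (A : Type) (f : A → S),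
      ∃ (lam rho : List A → Option V) (nu : List A → V),
        (∀ P v, lam P = some v → P.length < b ^ m) ∧
        (∀ P Q v v', lam P = some v → rho Q = some v' →
          v' = act v ((P ++ Q).map f).prod + nu (P ++ Q)) ∧
        (∀ X, (∀ k ∈ Ms, ¬ k ∣ X.length) →
          (∀ j < m, M ≤ X.length / b ^ j % b ∧ X.length / b ^ j % b + M + 1 ≤ b) →
          ∀ v, ∃ P Q, P ++ Q = X ∧ lam P = some v ∧ (rho Q).isSome) ∧
        (∀ Q Q', b ^ m ≤ Q.length → b ^ m ≤ Q'.length → Q.take (b ^ m) = Q'.take (b ^ m) →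
          Q.length % (M * b ^ m) = Q'.length % (M * b ^ m) →
          ((Q.drop (b ^ m)).map f).prod = ((Q'.drop (b ^ m)).map f).prod →
          rho Q = rho Q' ∧ nu Q = nu Q') := by
  classical
  obtain ⟨m, N, kk, e, hN, H⟩ := unkT S V act
  refine ⟨m, kk, fun Bd => ?_⟩
  let q : Fin kk → ℕ := fun j => Nat.nth Nat.Prime (Bd + 1 + j)
  have hqp : ∀ j, (q j).Prime := fun j => Nat.prime_nth_prime _
  have hqB : ∀ j, Bd + 3 ≤ q j := fun j => by
    have := Nat.add_two_le_nth_prime (Bd + 1 + j)
    simp only [q]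
    omega
  have hqodd : ∀ j, Odd (q j) := fun j => (hqp j).odd_of_ne_two (by have := hqB j; omega)
  have hqinj : Function.Injective q := by
    intro i j hij
    have := Nat.nth_injective Nat.infinite_setOf_prime hij
    exact Fin.ext (by omega)
  have hcop : Pairwise (fun i j => Nat.Coprime (q i) (q j)) := fun i j hij =>
    (Nat.coprime_primes (hqp i) (hqp j)).2 (fun h => hij (hqinj h))
  obtain ⟨L, R, lev, levL, D, hRl, hLl, hS, hC⟩ := H q hqodd
  refine ⟨univ.image q, ∏ j, q j, ?_, ?_, ?_, ?_⟩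
  · refine card_image_le.trans (by simp)
  · intro k hk
    obtain ⟨j, -, rfl⟩ := mem_image.1 hk
    exact ⟨by have := hqB j; omega, hqp j, dvd_prod_of_mem q (mem_univ j)⟩
  · exact prod_pos fun j _ => (hqp j).pos
  intro b hb hbM A f
  set M := ∏ j, q j with hMdef
  have hb0 : 0 < b := by omega
  let tt : ℕ → ∀ j, ZMod (q j) := fun n j => (n : ZMod (q j))
  have tt_add : ∀ x y, tt (x + y) = tt x + tt y := by
    intro x y; funext j; simp [tt]
  let lam : List A → Option V := fun P =>
    if levL (tt P.length) < m ∧ P.length < b ^ (levL (tt P.length) + 1) ∧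
        2 * (P.length / b ^ levL (tt P.length)) < b then
      L (levL (tt P.length)) (tt P.length) (gL f b (levL (tt P.length)) P)
        (wL f e b (levL (tt P.length)) P)
    else none
  let rho : List A → Option V := fun Q =>
    if lev (tt Q.length) < m ∧ b ^ lev (tt Q.length) ∣ Q.length ∧
        2 * (Q.length / b ^ lev (tt Q.length) % b) < b then
      R (lev (tt Q.length)) (tt Q.length) (hR f b (lev (tt Q.length)) Q)
        (wR f e m b (lev (tt Q.length)) Q)
    else none
  let nu : List A → V := fun X => D (tt X.length) (ph f X) (ww f e m b X)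
  refine ⟨lam, rho, nu, ?_, ?_, ?_, ?_⟩
  · intro P v h
    simp only [lam] at h
    split_ifs at h with hc
    exact hc.2.1.trans_le (Nat.pow_le_pow_right hb0 hc.1)
  · intro P Q v v' hP hQ
    simp only [lam] at hP
    simp only [rho] at hQ
    split_ifs at hP with hc
    split_ifs at hQ with hd
    obtain ⟨i, hi⟩ : ∃ i, i = levL (tt P.length) := ⟨_, rfl⟩
    obtain ⟨i', hi'⟩ : ∃ i', i' = lev (tt Q.length) := ⟨_, rfl⟩
    rw [← hi] at hP hc
    rw [← hi'] at hQ hd
    have := hS i i' (tt P.length) (tt Q.length) (gL f b i P) (hR f b i' Q) (ph f (P ++ Q))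
      (wL f e b i P) (wR f e m b i' Q) (ww f e m b (P ++ Q)) v v' ?_ hP hQ
    · rw [this, ← tt_add, ← List.length_append]
      rfl
    · rintro rfl
      obtain ⟨r1, r2, r3, r4⟩ := pq_read f e (m := m) hb0 P Q hd.2.1 hc.2.1 hc.2.2 hd.2.2
      obtain ⟨s1, s2⟩ := self_read f e (b := b) hc.1 (P ++ Q)
      rw [r1, r3] at s1
      rw [r2, r4] at s2
      exact ⟨_, s1, s2⟩
  · intro X hk hdig v
    obtain ⟨i, him, hi⟩ := hC (tt X.length) (fun j h0 => hk (q j) (mem_image_of_mem _ (mem_univ j))
      ((ZMod.natCast_eq_zero_iff _ _).1 h0)) (ph f X) (ww f e m b X) v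
    obtain ⟨s1, s2⟩ := self_read f e (b := b) him X
    obtain ⟨t, t', htt, hLt, hRt⟩ := hi _ _ _ _ _ s1 s2
    obtain ⟨hd1, hd2⟩ := hdig i him
    set n := X.length with hn
    have hbi : 0 < b ^ i := Nat.pow_pos hb0
    obtain ⟨y, hy1, hy2, hy3⟩ := crt_hit q (fun j => (hqp j).pos) hcop
      (fun j => (t j - ((n % b ^ i : ℕ) : ZMod (q j))) * ((b ^ i : ℕ) : ZMod (q j))⁻¹)
      (n / b ^ i % b - (b - 1) / 2)
    rw [← hMdef] at hy2
    obtain ⟨o, ho⟩ : ∃ o, o = n % b ^ i + b ^ i * y := ⟨_, rfl⟩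
    have hyd : y ≤ n / b ^ i % b := by omega
    have hy4 : 2 * y < b := by omega
    have hy5 : 2 * (n / b ^ i % b - y) < b := by omega
    have hdm := Nat.div_add_mod n (b ^ i)
    have hdd := Nat.mod_le (n / b ^ i) b
    have hyn : y ≤ n / b ^ i := by omega
    have hmul : b ^ i * (n / b ^ i - y) + b ^ i * y = b ^ i * (n / b ^ i) := by
      rw [← Nat.mul_add, Nat.sub_add_cancel hyn]
    have hon : n = o + b ^ i * (n / b ^ i - y) := by omega
    have hol : o ≤ n := by omega
    have hoq : ∀ j, (o : ZMod (q j)) = t j := by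
      intro j
      have : Fact (q j).Prime := ⟨hqp j⟩
      have hu : ((b ^ i : ℕ) : ZMod (q j)) ≠ 0 := by
        intro h0
        have h1 := (ZMod.natCast_eq_zero_iff _ _).1 h0
        have h2 : q j ∣ b := (hqp j).dvd_of_dvd_pow h1
        have h3 : q j ∣ M := dvd_prod_of_mem q (mem_univ j)
        have h4 := Nat.dvd_gcd h2 h3
        rw [hbM.gcd_eq_one] at h4
        exact (hqp j).one_lt.ne' (Nat.dvd_one.1 h4)
      rw [ho, Nat.cast_add, Nat.cast_mul, hy3 j]
      field_simp
      ring
    have hoT : tt o = t := funext hoq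
    have hoT' : tt (n - o) = t' := by
      have h1 : tt o + tt (n - o) = tt n := by
        rw [← tt_add]; congr 1; omega
      rw [← htt, hoT] at h1
      exact add_left_cancel h1
    have hob : o < b ^ (i + 1) := by
      have h1 := Nat.mod_lt n hbi
      have h2 : b ^ i * y + b ^ i ≤ b ^ i * b := by
        rw [← Nat.mul_succ]; exact Nat.mul_le_mul_left _ (by omega)
      rw [pow_succ]; omega
    have hodiv : o / b ^ i = y := by
      rw [ho, Nat.add_mul_div_left _ _ hbi, Nat.div_eq_of_lt (Nat.mod_lt _ hbi), zero_add]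
    have hnoe : n - o = b ^ i * (n / b ^ i - y) := by omega
    have hno1 : b ^ i ∣ n - o := ⟨_, hnoe⟩
    have hno2 : (n - o) / b ^ i % b = n / b ^ i % b - y := by
      rw [hnoe, Nat.mul_div_cancel_left _ hbi]
      have e1 := Nat.div_add_mod (n / b ^ i) b
      have e2 : n / b ^ i - y = (n / b ^ i % b - y) + b * (n / b ^ i / b) := by omega
      rw [e2, Nat.add_mul_mod_self_left, Nat.mod_eq_of_lt (by omega)]
    refine ⟨X.take o, X.drop o, List.take_append_drop _ _, ?_, ?_⟩
    · have hPl : (X.take o).length = o := by rw [List.length_take]; omega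
      have hQl : (X.drop o).length = n - o := by rw [List.length_drop]
      obtain ⟨r1, r2, -, -⟩ := pq_read f e (m := m) (i := i) hb0 (X.take o) (X.drop o)
        (by rw [hQl]; exact hno1) (by rw [hPl]; exact hob) (by rw [hPl, hodiv]; exact hy4)
        (by rw [hQl, hno2]; exact hy5)
      rw [List.take_append_drop] at r1 r2
      have hlv := hLl _ _ _ _ _ hLt
      simp only [lam]
      rw [hPl, hoT, ← hlv.1, if_pos ⟨him, hob, by rw [hodiv]; exact hy4⟩, ← r1, ← r2]
      exact hLt
    · have hPl : (X.take o).length = o := by rw [List.length_take]; omega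
      have hQl : (X.drop o).length = n - o := by rw [List.length_drop]
      obtain ⟨-, -, r3, r4⟩ := pq_read f e (m := m) (i := i) hb0 (X.take o) (X.drop o)
        (by rw [hQl]; exact hno1) (by rw [hPl]; exact hob) (by rw [hPl, hodiv]; exact hy4)
        (by rw [hQl, hno2]; exact hy5)
      rw [List.take_append_drop] at r3 r4
      obtain ⟨bb, hbb⟩ := Option.isSome_iff_exists.1 hRt
      have hlv := hRl _ _ _ _ _ hbb
      simp only [rho]
      rw [hQl, hoT', ← hlv.1, if_pos ⟨him, hno1, by rw [hno2]; exact hy5⟩, ← r3, ← r4]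
      exact hRt
  · intro Q Q' hQ hQ' h1 h2 h3
    have hm2 : Q.length % b ^ m = Q'.length % b ^ m :=
      Nat.ModEq.of_dvd (Dvd.intro_left _ rfl) h2
    have hmM : ∀ j, Q.length % q j = Q'.length % q j := fun j =>
      Nat.ModEq.of_dvd ((dvd_prod_of_mem q (mem_univ j)).trans (Dvd.intro _ rfl)) h2
    have htt : tt Q.length = tt Q'.length := by
      funext j
      exact (ZMod.natCast_eq_natCast_iff' _ _ _).2 (hmM j)
    have hph : ph f Q = ph f Q' := by
      rw [← List.take_append_drop (b ^ m) Q, ← List.take_append_drop (b ^ m) Q', ph_append,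
        ph_append, h1]
      congr 1
    constructor
    · simp only [rho]
      rw [htt]
      by_cases hl : lev (tt Q'.length) < m
      · have e1 : (b ^ lev (tt Q'.length) ∣ Q.length) ↔ (b ^ lev (tt Q'.length) ∣ Q'.length) := by
          rw [Nat.dvd_iff_mod_eq_zero, Nat.dvd_iff_mod_eq_zero]
          have := Nat.ModEq.of_dvd (Nat.pow_dvd_pow b hl.le) hm2
          rw [show Q.length % b ^ lev (tt Q'.length) = Q'.length % b ^ lev (tt Q'.length) from this]
        have e2 : Q.length / b ^ lev (tt Q'.length) % b =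
            Q'.length / b ^ lev (tt Q'.length) % b := by
          rw [← Nat.mod_mul_right_div_self, ← Nat.mod_mul_right_div_self, ← pow_succ]
          have := Nat.ModEq.of_dvd (Nat.pow_dvd_pow b hl) hm2
          rw [show Q.length % b ^ (lev (tt Q'.length) + 1) =
            Q'.length % b ^ (lev (tt Q'.length) + 1) from this]
        have e3 : hR f b (lev (tt Q'.length)) Q = hR f b (lev (tt Q'.length)) Q' :=
          loc_hR f hb0 hl h1 hm2 h3
        have e4 : wR f e m b (lev (tt Q'.length)) Q = wR f e m b (lev (tt Q'.length)) Q' := by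
          unfold wR
          refine Finset.sum_congr rfl fun j hj => ?_
          rw [loc_bl f hb0 (Finset.mem_Ico.1 hj).2 h1 hm2]
        rw [e2, e3, e4]
        simp only [e1]
      · simp only [hl, false_and, if_false]
    · simp only [nu]
      rw [htt, hph]
      congr 1
      unfold ww
      refine Finset.sum_congr rfl fun j hj => ?_
      rw [loc_bl f hb0 (Finset.mem_range.1 hj) h1 hm2]

end Crest.Agent.R320.G1_256
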