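import Crest.Agent.R320.Ruler_302

/-!
# Row 320, the SPOIL leaf (lead #13673, helper221)

Ruler `c l = 4 ^ l * K0` with `K0 = 1 mod M` and `K0 = 4 M (1 + b + .. + b^(m-1)) mod b^m`:
every prime and every digit place is hit by at most one ordered pair of different places.
-/

set_option autoImplicit false

namespace Crest.Agent.R320.Sp_221

open Finset

/-- the thin set of totals of the digit gadget -/
def Bad (Ms : Finset ℕ) (M m b : ℕ) (n : ℕ) : Prop :=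
  (∃ k ∈ Ms, k ∣ n) ∨ ∃ j < m, ¬ (M ≤ n / b ^ j % b ∧ n / b ^ j % b + M + 1 ≤ b)

/-- the repunit -/
def G (b : ℕ) (e : ℕ) : ℕ := ∑ i ∈ range e, b ^ i

theorem G_le {b : ℕ} (hb : 2 ≤ b) (e : ℕ) : G b (e + 1) ≤ 2 * b ^ e := by
  induction e with
  | zero => simp [G]
  | succ e ih =>
    have h1 : G b (e + 1 + 1) = G b (e + 1) + b ^ (e + 1) := by
      simp [G, Finset.sum_range_succ]
    have h2 : 2 * b ^ e ≤ b ^ (e + 1) := by
      rw [pow_succ]; nlinarith [pow_pos (show 0 < b by omega) e]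
    omega

theorem le_G (b : ℕ) (e : ℕ) : b ^ e ≤ G b (e + 1) := by
  have h1 : G b (e + 1) = G b e + b ^ e := by simp [G, Finset.sum_range_succ]
  omega

/-- the repunit modulo a smaller power -/
theorem G_mod (b : ℕ) {e m : ℕ} (h : e ≤ m) : ∃ t, G b m = G b e + t * b ^ e := by
  obtain ⟨d, rfl⟩ := Nat.exists_eq_add_of_le h
  refine ⟨∑ i ∈ range d, b ^ i, ?_⟩
  rw [G, Finset.sum_range_add]
  simp only [G]
  congr 1
  rw [Finset.sum_mul]
  exact Finset.sum_congr rfl fun i _ => by rw [pow_add, mul_comm]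

/-- a bad digit puts the number near a multiple of `b ^ (e + 1)` -/
theorem near_of_digit {M b n e : ℕ} (hb : 0 < b)
    (h : ¬ (M ≤ n / b ^ e % b ∧ n / b ^ e % b + M + 1 ≤ b)) :
    ∃ Q s : ℤ, (n : ℤ) = Q * (b : ℤ) ^ (e + 1) + s ∧ |s| ≤ M * (b : ℤ) ^ e := by
  have hbe : 0 < b ^ e := pow_pos hb e
  set d := n / b ^ e % b with hd
  set q := n / b ^ e / b with hq
  set r := n % b ^ e with hr
  have hr' : r < b ^ e := Nat.mod_lt _ hbe
  have hd' : d < b := Nat.mod_lt _ hb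
  have h1 : n = b ^ e * (b * q + d) + r := by
    have e1 := Nat.div_add_mod n (b ^ e)
    have e2 := Nat.div_add_mod (n / b ^ e) b
    rw [hq, hd, e2, hr, e1]
  have h1z : (n : ℤ) = (b : ℤ) ^ e * (b * q + d) + r := by exact_mod_cast h1
  have hrz : (r : ℤ) < (b : ℤ) ^ e := by exact_mod_cast hr'
  have hr0 : (0 : ℤ) ≤ r := by positivity
  have hbz : (0 : ℤ) < (b : ℤ) ^ e := by exact_mod_cast hbe
  have hdz : (d : ℤ) + 1 ≤ b := by exact_mod_cast hd'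
  by_cases hc : M ≤ d
  · have hc2 : (b : ℤ) ≤ d + M := by
      have : ¬ (d + M + 1 ≤ b) := fun h2 => h ⟨hc, h2⟩
      have : b ≤ d + M := by omega
      exact_mod_cast this
    refine ⟨q + 1, (b : ℤ) ^ e * (d - b) + r, ?_, ?_⟩
    · rw [h1z, pow_succ]; ring
    · rw [abs_le]
      constructor
      · nlinarith
      · nlinarith
  · have hc2 : (d : ℤ) + 1 ≤ M := by
      have : d + 1 ≤ M := by omega
      exact_mod_cast this
    have hd0 : (0 : ℤ) ≤ d := by positivity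
    refine ⟨q, (b : ℤ) ^ e * d + r, ?_, ?_⟩
    · rw [h1z, pow_succ]; ring
    · rw [abs_le]
      constructor
      · nlinarith
      · nlinarith

/-- a nonzero small multiple of `K0` is far from the multiples of `b ^ (e + 1)` -/
theorem far {M b e m : ℕ} {K0 Y : ℤ} (hM : 0 < M) (hb : 2 ≤ b) (he : e < m)
    (hK : ∃ t : ℤ, K0 = 4 * M * (G b m : ℕ) + t * (b : ℤ) ^ m)
    (hY : (8 * Y + 2) * M < b) {y : ℤ} (hy : y ≠ 0) (hyY : |y| ≤ Y) {Q s : ℤ}
    (h : y * K0 = Q * (b : ℤ) ^ (e + 1) + s) (hs : |s| ≤ 2 * M * (b : ℤ) ^ e) : False := by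
  obtain ⟨t, ht⟩ := hK
  obtain ⟨t', ht'⟩ := G_mod b (show e + 1 ≤ m from he)
  obtain ⟨d, hd⟩ := Nat.exists_eq_add_of_le (show e + 1 ≤ m from he)
  have hbz : (0 : ℤ) < (b : ℤ) ^ e := by positivity
  have hMz : (1 : ℤ) ≤ M := by exact_mod_cast hM
  have hY0 : 0 ≤ Y := (abs_nonneg y).trans hyY
  have hy1 : 1 ≤ |y| := Int.one_le_abs hy
  have hGz : ((G b m : ℕ) : ℤ) = (G b (e + 1) : ℕ) + t' * (b : ℤ) ^ (e + 1) := by
    exact_mod_cast ht'
  have hg1 : (b : ℤ) ^ e ≤ (G b (e + 1) : ℕ) := by exact_mod_cast le_G b e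
  have hg2 : ((G b (e + 1) : ℕ) : ℤ) ≤ 2 * (b : ℤ) ^ e := by exact_mod_cast G_le hb e
  set g : ℤ := ((G b (e + 1) : ℕ) : ℤ) with hg
  have hbm : (b : ℤ) ^ m = (b : ℤ) ^ d * (b : ℤ) ^ (e + 1) := by rw [hd, pow_add]; ring
  -- `y * 4 M g = Q' b^(e+1) + s`
  have h2 : 4 * M * (y * g) = (Q - y * (4 * M * t') - y * t * (b : ℤ) ^ d) * (b : ℤ) ^ (e + 1) + s := by
    have : y * K0 = y * (4 * M * (g + t' * (b : ℤ) ^ (e + 1)) + t * ((b : ℤ) ^ d * (b : ℤ) ^ (e + 1))) := by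
      rw [ht, hGz, hbm]
    rw [this] at h
    linarith
  set Q' : ℤ := Q - y * (4 * M * t') - y * t * (b : ℤ) ^ d with hQ'
  have habs : |4 * (M : ℤ) * (y * g)| = 4 * M * (|y| * g) := by
    rw [abs_mul, abs_mul, abs_mul]
    rw [abs_of_nonneg (show (0 : ℤ) ≤ (M : ℤ) by positivity),
      abs_of_nonneg (show (0 : ℤ) ≤ g by positivity)]
    norm_num
  have hup : |y| * g ≤ Y * (2 * (b : ℤ) ^ e) :=
    mul_le_mul hyY hg2 (by positivity) hY0
  have hlow : (b : ℤ) ^ e ≤ |y| * g := by nlinarith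
  by_cases hQ0 : Q' = 0
  · rw [hQ0, zero_mul, zero_add] at h2
    rw [← h2, habs] at hs
    nlinarith
  · have hQ1 : 1 ≤ |Q'| := Int.one_le_abs hQ0
    have h3 : |Q' * (b : ℤ) ^ (e + 1)| ≤ |4 * (M : ℤ) * (y * g)| + |s| := by
      have : Q' * (b : ℤ) ^ (e + 1) = 4 * M * (y * g) - s := by linarith
      rw [this]
      exact abs_sub _ _
    rw [abs_mul, habs, abs_of_nonneg (show (0 : ℤ) ≤ (b : ℤ) ^ (e + 1) by positivity)] at h3
    have h4 : (b : ℤ) ^ (e + 1) ≤ |Q'| * (b : ℤ) ^ (e + 1) := by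
      have : (0 : ℤ) ≤ (b : ℤ) ^ (e + 1) := by positivity
      nlinarith
    have h5 : (b : ℤ) ^ (e + 1) = b * (b : ℤ) ^ e := by rw [pow_succ]; ring
    have h6 : (b : ℤ) * (b : ℤ) ^ e ≤ ((8 * Y + 2) * M) * (b : ℤ) ^ e := by
      have h7 : 4 * (M : ℤ) * (|y| * g) ≤ 4 * M * (Y * (2 * (b : ℤ) ^ e)) := by
        have : (0 : ℤ) ≤ 4 * M := by positivity
        nlinarith
      nlinarith
    have h8 : (b : ℤ) ≤ (8 * Y + 2) * M := le_of_mul_le_mul_right h6 hbz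
    omega

/-- the spoil leaf, event by event -/
theorem spoil_events (Ms : Finset ℕ) (M m K N1 b : ℕ) (hM : 0 < M)
    (hMs : ∀ k ∈ Ms, 4 ^ K ≤ k ∧ k ∣ M)
    (hb : M * (8 * 4 ^ K + 2) < b) (hcop : Nat.Coprime b M) :
    ∃ c : ℕ → ℕ, (∀ i j, i < j → c i + 4 * N1 < c j) ∧
      (∀ i j k l, i < K → j < K → k < K → l < K → i ≠ j → k ≠ l →
        |((c i : ℤ) - c j) - ((c k : ℤ) - c l)| ≤ 4 * N1 → i = k ∧ j = l) ∧
      ∀ T : ℕ, (∀ k < K, c k ≤ T) →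
        (∀ k ∈ Ms, ∀ i j i' j', i < K → j < K → i' < K → j' < K → i ≠ j → i' ≠ j' →
          k ∣ T + c j - c i → k ∣ T + c j' - c i' → i = i' ∧ j = j') ∧
        (∀ e < m, ∀ i j i' j', i < K → j < K → i' < K → j' < K → i ≠ j → i' ≠ j' →
          ¬ (M ≤ (T + c j - c i) / b ^ e % b ∧ (T + c j - c i) / b ^ e % b + M + 1 ≤ b) →
          ¬ (M ≤ (T + c j' - c i') / b ^ e % b ∧ (T + c j' - c i') / b ^ e % b + M + 1 ≤ b) →
          i = i' ∧ j = j') := by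
  classical
  have hb2 : 2 ≤ b := by nlinarith [pow_pos (show 0 < 4 by norm_num) K]
  have hcop' : Nat.Coprime M (b ^ m) := (Nat.Coprime.pow_left m hcop).symm
  obtain ⟨x, hx1, hx2⟩ := Nat.chineseRemainder hcop' 1 (4 * M * G b m)
  set K0 : ℕ := x + (4 * N1 + 1) * (M * b ^ m) with hK0
  have hbm : 0 < b ^ m := pow_pos (by omega) m
  have hMb : 0 < M * b ^ m := Nat.mul_pos hM hbm
  have hK0big : 4 * N1 < K0 := by nlinarith
  have hK0M : (K0 : ℤ) ≡ 1 [ZMOD M] := by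
    have h1 : (x : ℤ) ≡ 1 [ZMOD M] := by exact_mod_cast (Int.natCast_modEq_iff.2 hx1)
    rw [hK0]
    push_cast
    have h2 : ((4 * N1 + 1) * (M * (b : ℤ) ^ m)) ≡ 0 [ZMOD M] :=
      Int.modEq_zero_iff_dvd.2 ⟨(4 * N1 + 1) * (b : ℤ) ^ m, by ring⟩
    simpa using h1.add h2
  have hK0b : ∃ t : ℤ, (K0 : ℤ) = 4 * M * (G b m : ℕ) + t * (b : ℤ) ^ m := by
    have h1 : (x : ℤ) ≡ ((4 * M * G b m : ℕ) : ℤ) [ZMOD ((b ^ m : ℕ) : ℤ)] :=
      Int.natCast_modEq_iff.2 hx2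
    obtain ⟨t, ht⟩ := h1.symm.dvd
    refine ⟨t + (4 * N1 + 1) * M, ?_⟩
    rw [hK0]
    push_cast at ht ⊢
    linarith
  have hdiff : ∀ T i j : ℕ, 4 ^ i * K0 ≤ T →
      ((T + 4 ^ j * K0 - 4 ^ i * K0 : ℕ) : ℤ) = T + ((4 : ℤ) ^ j - 4 ^ i) * K0 := by
    intro T i j h
    rw [Nat.cast_sub (by omega)]
    push_cast
    ring
  refine ⟨fun l => 4 ^ l * K0, ?_, ?_, ?_⟩
  · intro i j hij
    have h1 : (4 : ℕ) ^ (i + 1) ≤ 4 ^ j := Nat.pow_le_pow_right (by norm_num) hij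
    have h2 : (4 : ℕ) ^ (i + 1) = 4 * 4 ^ i := by ring
    have h3 : 0 < (4 : ℕ) ^ i := by positivity
    have h4 : (4 * 4 ^ i) * K0 ≤ 4 ^ j * K0 := Nat.mul_le_mul_right _ (by omega)
    have h5 : 1 * K0 ≤ 4 ^ i * K0 := Nat.mul_le_mul_right _ h3
    show 4 ^ i * K0 + 4 * N1 < 4 ^ j * K0
    nlinarith
  · intro i j k l hi hj hk hl hij hkl h
    by_contra hne
    have hy : ((4 : ℤ) ^ i - 4 ^ j) - (4 ^ k - 4 ^ l) ≠ 0 := by
      intro h0
      exact hne (Ruler_302.sidon hij (by linarith))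
    have h1 : (((4 ^ i * K0 : ℕ) : ℤ) - ((4 ^ j * K0 : ℕ) : ℤ)) -
        (((4 ^ k * K0 : ℕ) : ℤ) - ((4 ^ l * K0 : ℕ) : ℤ)) =
        (((4 : ℤ) ^ i - 4 ^ j) - (4 ^ k - 4 ^ l)) * K0 := by push_cast; ring
    rw [h1, abs_mul, abs_of_nonneg (show (0 : ℤ) ≤ (K0 : ℤ) by positivity)] at h
    have h2 := Int.one_le_abs hy
    have h3 : (4 * (N1 : ℤ)) < K0 := by exact_mod_cast hK0big
    nlinarith
  · intro T hT
    constructor
    · intro k hk i j i' j' hi hj hi' hj' hij hij' h1 h2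
      by_contra hne
      have e1 := hdiff T i j (hT i hi)
      have e2 := hdiff T i' j' (hT i' hi')
      have d1 : (k : ℤ) ∣ T + ((4 : ℤ) ^ j - 4 ^ i) * K0 := by
        rw [← e1]; exact_mod_cast h1
      have d2 : (k : ℤ) ∣ T + ((4 : ℤ) ^ j' - 4 ^ i') * K0 := by
        rw [← e2]; exact_mod_cast h2
      set y : ℤ := ((4 : ℤ) ^ j - 4 ^ i) - (4 ^ j' - 4 ^ i') with hy
      have hy0 : y ≠ 0 := by
        intro h0
        have := Ruler_302.sidon (j := j) (l := i) (p := j') (q := i') (Ne.symm hij) (by linarith)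
        exact hne ⟨this.2, this.1⟩
      have hyb : |y| < 4 ^ K := Ruler_302.spread hj hi hj' hi'
      have d3 : (k : ℤ) ∣ y * K0 := by
        have := dvd_sub d1 d2
        have e : (T : ℤ) + ((4 : ℤ) ^ j - 4 ^ i) * K0 - (T + ((4 : ℤ) ^ j' - 4 ^ i') * K0)
            = y * K0 := by rw [hy]; ring
        rwa [e] at this
      have d4 : (k : ℤ) ∣ y := by
        have hkM : (k : ℤ) ∣ M := by exact_mod_cast (hMs k hk).2
        have h5 : (k : ℤ) ∣ 1 - K0 := hkM.trans hK0M.dvd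
        have h6 : (k : ℤ) ∣ y * (1 - K0) := Dvd.dvd.mul_left h5 y
        have : y = y * (1 - K0) + y * K0 := by ring
        rw [this]
        exact dvd_add h6 d3
      have h7 : (k : ℤ) ≤ |y| := Int.le_of_dvd (abs_pos.2 hy0) ((dvd_abs _ _).2 d4)
      have h8 : ((4 : ℤ) ^ K) ≤ k := by exact_mod_cast (hMs k hk).1
      omega
    · intro e he i j i' j' hi hj hi' hj' hij hij' h1 h2
      by_contra hne
      have e1 := hdiff T i j (hT i hi)
      have e2 := hdiff T i' j' (hT i' hi')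
      obtain ⟨Q1, s1, q1, r1⟩ := near_of_digit (by omega) h1
      obtain ⟨Q2, s2, q2, r2⟩ := near_of_digit (by omega) h2
      set y : ℤ := ((4 : ℤ) ^ j - 4 ^ i) - (4 ^ j' - 4 ^ i') with hy
      have hy0 : y ≠ 0 := by
        intro h0
        have := Ruler_302.sidon (j := j) (l := i) (p := j') (q := i') (Ne.symm hij) (by linarith)
        exact hne ⟨this.2, this.1⟩
      have hyb : |y| < 4 ^ K := Ruler_302.spread hj hi hj' hi'
      refine far (M := M) (b := b) (e := e) (m := m) (K0 := K0) (Y := 4 ^ K) (y := y)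
        (Q := Q1 - Q2) (s := s1 - s2) hM hb2 he hK0b ?_ hy0 hyb.le ?_ ?_
      · have : ((M * (8 * 4 ^ K + 2) : ℕ) : ℤ) < b := by exact_mod_cast hb
        push_cast at this
        linarith
      · have e3 : (T : ℤ) + ((4 : ℤ) ^ j - 4 ^ i) * K0 = Q1 * (b : ℤ) ^ (e + 1) + s1 := by
          rw [← e1, ← q1]
        have e4 : (T : ℤ) + ((4 : ℤ) ^ j' - 4 ^ i') * K0 = Q2 * (b : ℤ) ^ (e + 1) + s2 := by
          rw [← e2, ← q2]
        rw [hy]
        linear_combination e3 - e4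
      · have := abs_sub s1 s2
        linarith

open Classical in
/-- **SPOIL leaf** (lead #13673). -/
theorem spoil (Ms : Finset ℕ) (M m K N1 b : ℕ) (hM : 0 < M)
    (hMs : ∀ k ∈ Ms, 4 ^ K ≤ k ∧ k ∣ M)
    (hb : M * (8 * 4 ^ K + 2) < b) (hcop : Nat.Coprime b M) :
    ∃ c : ℕ → ℕ, (∀ i j, i < j → c i + 4 * N1 < c j) ∧
      (∀ i j k l, i < K → j < K → k < K → l < K → i ≠ j → k ≠ l →
        |((c i : ℤ) - c j) - ((c k : ℤ) - c l)| ≤ 4 * N1 → i = k ∧ j = l) ∧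
      ∀ T : ℕ, (∀ k < K, c k ≤ T) →
        ((range K ×ˢ range K).filter
          (fun ij => ij.1 ≠ ij.2 ∧ Bad Ms M m b (T + c ij.2 - c ij.1))).card ≤ Ms.card + m := by
  obtain ⟨c, h1, h2, h3⟩ := spoil_events Ms M m K N1 b hM hMs hb hcop
  refine ⟨c, h1, h2, fun T hT => ?_⟩
  obtain ⟨h4, h5⟩ := h3 T hT
  let P : ℕ → Finset (ℕ × ℕ) := fun k => (range K ×ˢ range K).filter
    (fun ij => ij.1 ≠ ij.2 ∧ k ∣ T + c ij.2 - c ij.1)
  let D : ℕ → Finset (ℕ × ℕ) := fun e => (range K ×ˢ range K).filter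
    (fun ij => ij.1 ≠ ij.2 ∧ ¬ (M ≤ (T + c ij.2 - c ij.1) / b ^ e % b ∧
      (T + c ij.2 - c ij.1) / b ^ e % b + M + 1 ≤ b))
  have hP : ∀ k ∈ Ms, (P k).card ≤ 1 := by
    intro k hk
    rw [Finset.card_le_one]
    rintro ⟨i, j⟩ ha ⟨i', j'⟩ hb'
    simp only [P, mem_filter, mem_product, mem_range] at ha hb'
    obtain ⟨e1, e2⟩ := h4 k hk i j i' j' ha.1.1 ha.1.2 hb'.1.1 hb'.1.2 ha.2.1 hb'.2.1
      ha.2.2 hb'.2.2
    rw [e1, e2]
  have hD : ∀ e ∈ range m, (D e).card ≤ 1 := by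
    intro e he
    rw [Finset.card_le_one]
    rintro ⟨i, j⟩ ha ⟨i', j'⟩ hb'
    simp only [D, mem_filter, mem_product, mem_range] at ha hb'
    obtain ⟨e1, e2⟩ := h5 e (mem_range.1 he) i j i' j' ha.1.1 ha.1.2 hb'.1.1 hb'.1.2 ha.2.1
      hb'.2.1 ha.2.2 hb'.2.2
    rw [e1, e2]
  have hsub : ((range K ×ˢ range K).filter
      (fun ij => ij.1 ≠ ij.2 ∧ Bad Ms M m b (T + c ij.2 - c ij.1))) ⊆
      Ms.biUnion P ∪ (range m).biUnion D := by
    rintro ⟨i, j⟩ h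
    rw [mem_filter] at h
    obtain ⟨hr, hne, hk | hj⟩ := h
    · obtain ⟨k, hk, hd⟩ := hk
      exact mem_union_left _ (mem_biUnion.2 ⟨k, hk, mem_filter.2 ⟨hr, hne, hd⟩⟩)
    · obtain ⟨e, he, hd⟩ := hj
      exact mem_union_right _ (mem_biUnion.2 ⟨e, mem_range.2 he, mem_filter.2 ⟨hr, hne, hd⟩⟩)
  calc _ ≤ (Ms.biUnion P ∪ (range m).biUnion D).card := card_le_card hsub
    _ ≤ (Ms.biUnion P).card + ((range m).biUnion D).card := card_union_le _ _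
    _ ≤ Ms.card * 1 + (range m).card * 1 :=
        add_le_add (card_biUnion_le_card_mul _ _ _ hP) (card_biUnion_le_card_mul _ _ _ hD)
    _ = Ms.card + m := by rw [mul_one, mul_one, card_range]

end Crest.Agent.R320.Sp_221
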