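import Crest.Agent.R320.Fin_211
import Crest.Agent.R320.G1_256
import Crest.Agent.R320.Sp_221

/-! `Fin_211.Gad` from g1 (G1_256) and the ruler (Sp_221) (helper211). -/

set_option autoImplicit false

namespace Crest.Agent.R320.GadF_211

open Crest.Agent.R320 Crest.Agent.R320.Fin_211
open Crest.Agent.R320.ExactR_237 (pr pr_append)

theorem gad {α S V : Type} [Monoid S] [Finite S] [AddCommGroup V] [Finite V] (act : V → S → V)
    (f : α → S) : Gad act f := by
  classical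
  obtain ⟨m, r, hg⟩ := G1_256.g1 S V act
  refine ⟨r + m, fun K => ?_⟩
  obtain ⟨Ms, M, hr, hMs, hM, hb⟩ := hg (4 ^ K)
  set b := M * (8 * 4 ^ K + 10) + 1 with hbdef
  have h4 : 1 ≤ 4 ^ K := Nat.one_le_pow _ _ (by norm_num)
  have hb1 : 4 * M + 4 < b := by nlinarith
  have hb2 : M * (8 * 4 ^ K + 2) < b := by nlinarith
  have hco : Nat.Coprime b M := by
    have h1 : Nat.gcd b M ∣ M * (8 * 4 ^ K + 10) + 1 := Nat.gcd_dvd_left b M
    have h2 : Nat.gcd b M ∣ M * (8 * 4 ^ K + 10) := (Nat.gcd_dvd_right b M).mul_right _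
    exact Nat.dvd_one.1 ((Nat.dvd_add_right h2).1 h1)
  obtain ⟨lam, rho, nu, g1, g2, g3, g4⟩ := hb b hb1 hco α f
  obtain ⟨c, s1, s2, s3⟩ := Sp_221.spoil Ms M m K (b ^ m) b hM
    (fun k hk => ⟨(hMs k hk).1.le, (hMs k hk).2.2⟩) hb2 hco
  refine ⟨b ^ m, 0, b ^ m, M * b ^ m, fun n => Sp_221.Bad Ms M m b n, c, lam, rho, nu, ?_, ?_, ?_,
    ?_, ?_, ?_, ?_, ?_⟩
  · intro P Q v v' h1 h2
    exact g2 P Q v v' h1 h2
  · intro P v h
    exact (g1 P v h).le
  · intro Y _ hY v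
    have h1 : ∀ k ∈ Ms, ¬ k ∣ Y.length := fun k hk h => hY (Or.inl ⟨k, hk, h⟩)
    have h2 : ∀ j < m, M ≤ Y.length / b ^ j % b ∧ Y.length / b ^ j % b + M + 1 ≤ b := by
      intro j hj
      by_contra h
      exact hY (Or.inr ⟨j, hj, h⟩)
    obtain ⟨P, Q, e, h3, h4⟩ := g3 Y h1 h2 v
    exact ⟨P, Q, e.symm, h3, h4⟩
  · have : 0 < b := by omega
    positivity
  · intro Y Y' h1 h2 h3 h4 h5
    exact (g4 Y Y' h1 h2 h3 h4 h5).2
  · intro i j hij _
    have := s1 i j hij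
    omega
  · intro i i' j j' hi hi' hj hj' hne hne' h1 h2
    refine (s2 i i' j j' hi hi' hj hj' (Ne.symm hne) (Ne.symm hne') ?_).1
    rw [abs_le]
    constructor <;> push_cast <;> zify at h1 h2 ⊢ <;> linarith
  · intro T hT I hI
    have h := s3 T hT
    choose! g hg1 hg2 hg3 using fun k hk => (hI k hk).2
    refine le_trans ?_ (h.trans (Nat.add_le_add_right hr m))
    refine Finset.card_le_card_of_injOn (fun k => (k, g k)) ?_ ?_
    · intro k hk
      have hk' : k ∈ I := hk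
      rw [Finset.coe_filter]
      refine ⟨Finset.mem_product.2 ⟨Finset.mem_range.2 (hI k hk').1,
        Finset.mem_range.2 (hg1 k hk')⟩, (hg2 k hk').symm, hg3 k hk'⟩
    · intro a _ b _ hab
      exact (Prod.mk.inj hab).1

end Crest.Agent.R320.GadF_211
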