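import Crest.Prelude.Def_GRegExp

/-!
# Row 320: transfer of star height along an equivalence of alphabets (universe transfer)
-/

set_option autoImplicit false

namespace Crest.Agent.R320.Univ_lead

open Crest.RegLang

/-- rename the letters of an expression -/
def ren {α β : Type*} (f : α → β) : GRegExp α → GRegExp β
  | .zero => .zero
  | .eps => .eps
  | .char a => .char (f a)
  | .union P Q => .union (ren f P) (ren f Q)
  | .cat P Q => .cat (ren f P) (ren f Q)
  | .not P => .not (ren f P)
  | .star P => .star (ren f P)

theorem ren_height {α β : Type*} (f : α → β) : ∀ P : GRegExp α, (ren f P).height = P.height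
  | .zero => rfl
  | .eps => rfl
  | .char _ => rfl
  | .union P Q => by
    show max (ren f P).height (ren f Q).height = max P.height Q.height
    rw [ren_height f P, ren_height f Q]
  | .cat P Q => by
    show max (ren f P).height (ren f Q).height = max P.height Q.height
    rw [ren_height f P, ren_height f Q]
  | .not P => ren_height f P
  | .star P => by
    show (ren f P).height + 1 = P.height + 1
    rw [ren_height f P]

theorem ren_lang {α β : Type*} (e : α ≃ β) :
    ∀ (P : GRegExp α) (w : List α), w.map e ∈ (ren e P).lang ↔ w ∈ P.lang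
  | .zero, w => by
    show w.map e ∈ (0 : Language β) ↔ w ∈ (0 : Language α)
    simp
  | .eps, w => by
    show w.map e ∈ (1 : Language β) ↔ w ∈ (1 : Language α)
    simp [Language.mem_one]
  | .char a, w => by
    show w.map e ∈ ({[e a]} : Set (List β)) ↔ w ∈ ({[a]} : Set (List α))
    rw [Set.mem_singleton_iff, Set.mem_singleton_iff]
    constructor
    · intro h
      have : w.map e = [a].map e := h
      exact (List.map_injective_iff.2 e.injective) this
    · rintro rfl; rfl
  | .union P Q, w => by
    show w.map e ∈ (ren e P).lang + (ren e Q).lang ↔ w ∈ P.lang + Q.lang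
    rw [Language.mem_add, Language.mem_add, ren_lang e P w, ren_lang e Q w]
  | .cat P Q, w => by
    show w.map e ∈ (ren e P).lang * (ren e Q).lang ↔ w ∈ P.lang * Q.lang
    rw [Language.mem_mul, Language.mem_mul]
    constructor
    · rintro ⟨a, ha, b, hb, h⟩
      have ea : (a.map e.symm).map e = a := by simp
      have eb : (b.map e.symm).map e = b := by simp
      refine ⟨a.map e.symm, (ren_lang e P _).1 (by rwa [ea]), b.map e.symm,
        (ren_lang e Q _).1 (by rwa [eb]), ?_⟩
      rw [← List.map_append, h]
      simp
    · rintro ⟨a, ha, b, hb, rfl⟩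
      exact ⟨a.map e, (ren_lang e P a).2 ha, b.map e, (ren_lang e Q b).2 hb, by simp⟩
  | .not P, w => by
    show w.map e ∈ ((ren e P).lang)ᶜ ↔ w ∈ (P.lang)ᶜ
    exact not_congr (ren_lang e P w)
  | .star P, w => by
    show w.map e ∈ KStar.kstar (ren e P).lang ↔ w ∈ KStar.kstar P.lang
    rw [Language.mem_kstar, Language.mem_kstar]
    constructor
    · rintro ⟨S, h, hS⟩
      refine ⟨S.map (List.map e.symm), ?_, ?_⟩
      · have : (w.map e).map e.symm = S.flatten.map e.symm := by rw [h]
        rw [List.map_flatten] at this
        simpa using this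
      · intro y hy
        obtain ⟨x, hx, rfl⟩ := List.mem_map.1 hy
        exact (ren_lang e P _).1 (by simpa using hS x hx)
    · rintro ⟨S, rfl, hS⟩
      refine ⟨S.map (List.map e), by rw [List.map_flatten], ?_⟩
      intro y hy
      obtain ⟨x, hx, rfl⟩ := List.mem_map.1 hy
      exact (ren_lang e P x).2 (hS x hx)

/-- **Universe transfer**: it is enough to treat the alphabets `Fin n`. -/
theorem univ_transfer (k : ℕ)
    (h : ∀ (n : ℕ) (L : Language (Fin n)), L.IsRegular →
      ∃ e : GRegExp (Fin n), e.height ≤ k ∧ e.lang = L)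
    (α : Type*) [Finite α] (L : Language α) (hL : L.IsRegular) :
    ∃ e : GRegExp α, e.height ≤ k ∧ e.lang = L := by
  obtain ⟨n, ⟨e⟩⟩ := Finite.exists_equiv_fin α
  have hreg : Language.IsRegular ((List.map e.symm) ⁻¹' L : Language (Fin n)) := by
    obtain ⟨σ, hσ, M, rfl⟩ := hL
    exact ⟨σ, hσ, M.comap e.symm, by rw [DFA.accepts_comap]⟩
  obtain ⟨P, hP, hPL⟩ := h n _ hreg
  refine ⟨ren e.symm P, by rw [ren_height]; exact hP, ?_⟩
  ext w
  have hw : w = (w.map e).map e.symm := by simp
  constructor
  · intro hh
    rw [hw] at hh ⊢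
    have := (ren_lang e.symm P (w.map e)).1 hh
    rw [hPL] at this
    exact this
  · intro hh
    rw [hw] at hh ⊢
    refine (ren_lang e.symm P (w.map e)).2 ?_
    rw [hPL]
    exact hh

end Crest.Agent.R320.Univ_lead
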