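import Crest.Agent.R320.Fin_211
import Crest.Agent.R320.GadF_211
import Crest.Agent.R320.Univ_lead

set_option autoImplicit false

namespace Crest.Agent.R320.FinTop_211

open Crest.Agent.R320 Crest.Agent.R320.Hk_851 Crest.RegLang

theorem type0 {α : Type} [Finite α] (L : Language α) (hL : L.IsRegular) :
    ∃ e : GRegExp α, e.height ≤ 3 ∧ e.lang = L := by
  refine of_monoid (k := 3) ?_ L hL
  intro S _ _ φ s
  obtain ⟨act, hadd, hone, hmul, hfaith⟩ := Blk467.exists_module S
  haveI : Finite (S → ZMod 2) := inferInstance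
  exact Fin_211.fin act hadd hone hmul hfaith φ (GadF_211.gad act φ) s

end Crest.Agent.R320.FinTop_211
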