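import Mathlib
import Crest.Agent.R320.WallU_228
import Crest.Agent.R320.Top5_110

/-!
# Row 320: the regularity hypotheses H1-H4 of 110's `top_sem` for the natural chain rule (helper82)
-/

set_option autoImplicit false

namespace Crest.Agent.R320.H14_82

open Crest.RegLang Crest.Agent.R320.Hk_851 Crest.Agent.R320.FewWalls_228
  Crest.Agent.R320.WallU_228 Crest.Agent.R320.Code110

universe u v

variable {α : Type u}

/-- a language saturated by a right congruence of finite index is regular -/
theorem reg_of {F : Type*} (κ : List α → F) (hf : (Set.range κ).Finite)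
    (hκ : ∀ (w w' : List α) (a : α), κ w = κ w' → κ (w ++ [a]) = κ (w' ++ [a]))
    (L : Language α) (hL : ∀ w w' : List α, κ w = κ w' → (w ∈ L ↔ w' ∈ L)) : L.IsRegular := by
  classical
  rw [Language.isRegular_iff_finite_range_leftQuotient]
  have h2 : ∀ (x w w' : List α), κ w = κ w' → κ (w ++ x) = κ (w' ++ x) := by
    intro x
    induction x with
    | nil => intro w w' h; simpa using h
    | cons a x ih =>
      intro w w' h
      have := ih _ _ (hκ w w' a h)
      simpa using this
  have h3 : ∀ w w' : List α, κ w = κ w' → L.leftQuotient w = L.leftQuotient w' := by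
    intro w w' h
    ext y
    exact hL _ _ (h2 y w w' h)
  refine (hf.image (fun k : F => if h : ∃ w, κ w = k then L.leftQuotient h.choose else ⊥)).subset ?_
  rintro _ ⟨w, rfl⟩
  refine ⟨κ w, ⟨w, rfl⟩, ?_⟩
  have hex : ∃ w', κ w' = κ w := ⟨w, rfl⟩
  show (if h : ∃ w', κ w' = κ w then L.leftQuotient h.choose else ⊥) = _
  rw [dif_pos hex]
  exact h3 _ _ hex.choose_spec

section
variable {S : Type*} [Monoid S] (f : α → S) (n : ℕ) (Sw : Set (List α)) (z A m : ℕ)

/-- a wall was seen at a place `≥ z` strictly inside -/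
def Fl (w : List α) : Prop := ∃ t, t < w.length ∧ z ≤ t ∧ Wo n Sw (w.take t)

/-- the summary -/
def kap (w : List α) : List α × S × ℕ × List α × Prop :=
  (w.take A, (((w.drop A).map f).prod), w.length % m, w.drop (w.length - n), Fl n Sw z w)

theorem kap_fin [Finite α] [Finite S] (hm : 0 < m) : (Set.range (kap f n Sw z A m)).Finite := by
  have h1 : ({l : List α | l.length ≤ A}).Finite := List.finite_length_le α A
  have h2 : ({l : List α | l.length ≤ n}).Finite := List.finite_length_le α n
  have h3 : ({j : ℕ | j < m}).Finite := Set.finite_lt_nat m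
  have hS : (Set.univ : Set S).Finite := Set.finite_univ
  have hP : (Set.univ : Set Prop).Finite := Set.finite_univ
  refine (h1.prod (hS.prod (h3.prod (h2.prod hP)))).subset ?_
  rintro _ ⟨w, rfl⟩
  refine ⟨?_, trivial, ?_, ?_, trivial⟩
  · show (w.take A).length ≤ A
    rw [List.length_take]; exact min_le_left _ _
  · exact Nat.mod_lt _ hm
  · show (w.drop (w.length - n)).length ≤ n
    rw [List.length_drop]; omega

variable {f n Sw z A m}

/-- equal summaries: equal words or both long -/
theorem kap_cases {w w' : List α} (h : kap f n Sw z A m w = kap f n Sw z A m w') :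
    w = w' ∨ (A ≤ w.length ∧ A ≤ w'.length ∧ w.take A = w'.take A ∧
      ((w.drop A).map f).prod = ((w'.drop A).map f).prod ∧ w.length % m = w'.length % m ∧
      w.drop (w.length - n) = w'.drop (w'.length - n) ∧ (Fl n Sw z w ↔ Fl n Sw z w')) := by
  unfold kap at h
  simp only [Prod.mk.injEq] at h
  obtain ⟨e1, e2, e3, e4, e5⟩ := h
  by_cases hw : A ≤ w.length
  · by_cases hw' : A ≤ w'.length
    · right
      exact ⟨hw, hw', e1, e2, e3, e4, by rw [e5]⟩
    · left
      exfalso
      have := congrArg List.length e1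
      rw [List.length_take, List.length_take] at this
      omega
  · left
    have h1 := congrArg List.length e1
    rw [List.length_take, List.length_take] at h1
    have h2 : w'.length ≤ A := by omega
    rw [List.take_of_length_le (by omega), List.take_of_length_le h2] at e1
    exact e1

theorem wo_iff {w w' : List α} (hw : n ≤ w.length) (hw' : n ≤ w'.length)
    (e : w.drop (w.length - n) = w'.drop (w'.length - n)) : Wo n Sw w ↔ Wo n Sw w' := by
  unfold Wo
  rw [e]
  exact ⟨fun h => ⟨hw', h.2⟩, fun h => ⟨hw, h.2⟩⟩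

theorem Fl_append {w : List α} {a : α} :
    Fl n Sw z (w ++ [a]) ↔ Fl n Sw z w ∨ (z ≤ w.length ∧ Wo n Sw w) := by
  unfold Fl
  constructor
  · rintro ⟨t, h1, h2, h3⟩
    rw [List.length_append, List.length_singleton] at h1
    rcases Nat.lt_succ_iff_lt_or_eq.1 h1 with h | h
    · left
      refine ⟨t, h, h2, ?_⟩
      rwa [List.take_append_of_le_length h.le] at h3
    · right
      subst h
      rw [List.take_left'  rfl] at h3
      exact ⟨h2, h3⟩
  · rintro (⟨t, h1, h2, h3⟩ | ⟨h1, h2⟩)
    · refine ⟨t, by rw [List.length_append]; omega, h2, ?_⟩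
      rwa [List.take_append_of_le_length h1.le]
    · refine ⟨w.length, by rw [List.length_append]; simp, h1, ?_⟩
      rwa [List.take_left' rfl]

theorem kap_step (hn : n ≤ A) (hz : z ≤ A) (w w' : List α) (a : α)
    (h : kap f n Sw z A m w = kap f n Sw z A m w') :
    kap f n Sw z A m (w ++ [a]) = kap f n Sw z A m (w' ++ [a]) := by
  rcases kap_cases h with rfl | ⟨h1, h2, e1, e2, e3, e4, e5⟩
  · rfl
  unfold kap
  have hd : ∀ w : List α, A ≤ w.length →
      ((w ++ [a]).drop ((w ++ [a]).length - n)) = (w.drop (w.length - n) ++ [a]).drop 1 := by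
    intro w hw
    rcases Nat.eq_zero_or_pos n with h0 | h0
    · subst h0
      simp
    · have e : (w ++ [a]).length - n = (w.length - n) + 1 := by
        rw [List.length_append, List.length_singleton]; omega
      rw [e, ← List.drop_drop, List.drop_append_of_le_length (by omega)]
  refine Prod.ext ?_ (Prod.ext ?_ (Prod.ext ?_ (Prod.ext ?_ ?_)))
  · show (w ++ [a]).take A = (w' ++ [a]).take A
    rw [List.take_append_of_le_length h1, List.take_append_of_le_length h2, e1]
  · show (((w ++ [a]).drop A).map f).prod = (((w' ++ [a]).drop A).map f).prod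
    rw [List.drop_append_of_le_length h1, List.drop_append_of_le_length h2, List.map_append,
      List.map_append, List.prod_append, List.prod_append, e2]
  · show (w ++ [a]).length % m = (w' ++ [a]).length % m
    rw [List.length_append, List.length_append, Nat.add_mod, e3, ← Nat.add_mod]
  · show (w ++ [a]).drop ((w ++ [a]).length - n) = (w' ++ [a]).drop ((w' ++ [a]).length - n)
    rw [hd w h1, hd w' h2, e4]
  · show Fl n Sw z (w ++ [a]) = Fl n Sw z (w' ++ [a])
    rw [eq_iff_iff, Fl_append, Fl_append, e5, wo_iff (hn.trans h1) (hn.trans h2) e4]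
    constructor
    · rintro (h | h)
      · exact Or.inl h
      · exact Or.inr ⟨hz.trans h2, h.2⟩
    · rintro (h | h)
      · exact Or.inl h
      · exact Or.inr ⟨hz.trans h1, h.2⟩

end

section main
variable {S : Type*} [Monoid S] {V : Type v} [AddCommGroup V]

/-- blocks of the natural rule -/
def XX (n : ℕ) (Sw : Set (List α)) (z : ℕ) : Language α :=
  {X | z ≤ X.length ∧ Wo n Sw X ∧ ∀ t, t < X.length → z ≤ t → ¬ Wo n Sw (X.take t)}

/-- critical blocks -/
def Bad (n : ℕ) (Sw : Set (List α)) (z N p0 : ℕ) (BadT : ℕ → Prop) : Language α :=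
  {X | X ∈ XX n Sw z ∧ ((∃ t, t ≤ X.length ∧ z ≤ t + N ∧ t < z + N ∧ Wo n Sw (X.take t)) ∨
    BadT (X.length - p0))}

/-- block map -/
def TT (φ : List α → S) (act : V → S → V) (p0 : ℕ) (nu2 nu1 : List α → V) (X : List α) (v : V) : V :=
  act (act v (φ (X.take p0)) + nu2 (X.take p0)) (φ (X.drop p0)) + nu1 (X.drop p0)

theorem pc (n : ℕ) (Sw : Set (List α)) (z : ℕ) (hz : 0 < z) : PC (XX n Sw z) := by
  refine ⟨?_, ?_⟩
  · intro h
    have : z ≤ ([] : List α).length := h.1
    simp at this
    omega
  · intro u hu w hw hp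
    by_contra hne
    have hlt : u.length < w.length := by
      rcases Nat.lt_or_ge u.length w.length with h | h
      · exact h
      · exact absurd (hp.eq_of_length (le_antisymm hp.length_le h)) hne
    apply hw.2.2 u.length hlt hu.1
    rw [← List.prefix_iff_eq_take.1 hp]
    exact hu.2.1

theorem per {BadT : ℕ → Prop} {A1 m : ℕ} (hper : ∀ T, A1 ≤ T → (BadT (T + m) ↔ BadT T))
    {T T' : ℕ} (h : A1 ≤ T) (h' : A1 ≤ T') (e : T % m = T' % m) : BadT T ↔ BadT T' := by
  have key : ∀ (k T : ℕ), A1 ≤ T → (BadT (T + k * m) ↔ BadT T) := by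
    intro k
    induction k with
    | zero => intro T _; simp
    | succ k ih =>
      intro T hT
      have e : T + (k + 1) * m = (T + k * m) + m := by ring
      rw [e, hper _ (by omega), ih T hT]
  rcases le_total T T' with hle | hle
  · obtain ⟨k, hk⟩ := (Nat.modEq_iff_dvd' hle).1 e
    have : T' = T + k * m := by rw [mul_comm] at hk; omega
    rw [this]; exact (key k T h).symm
  · obtain ⟨k, hk⟩ := (Nat.modEq_iff_dvd' hle).1 e.symm
    have : T = T' + k * m := by rw [mul_comm] at hk; omega
    rw [this]; exact key k T' h'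

variable {f : α → S} {n : ℕ} {Sw : Set (List α)} {z N p0 A1 m : ℕ}

theorem drop_split (w : List α) {p A : ℕ} (h : p ≤ A) (hA : A ≤ w.length) :
    w.drop p = (w.take A).drop p ++ w.drop A := by
  conv_lhs => rw [← List.take_append_drop A w]
  rw [List.drop_append_of_le_length (by rw [List.length_take]; omega)]

/-- **H1 - H4** -/
theorem main [Finite α] [Finite S] (hm : 0 < m)
    (hfew : ∀ (L : Language α), L.IsRegular → ∀ r,
      HL 1 ({w | w ∈ L ∧ nw n Sw w ≤ r} : Language α))
    (BadT : ℕ → Prop) (hper : ∀ T, A1 ≤ T → (BadT (T + m) ↔ BadT T))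
    (nu1 nu2 : List α → V) (act : V → S → V)
    (hfs : ∀ Y Y' : List α, A1 ≤ Y.length → A1 ≤ Y'.length → Y.take A1 = Y'.take A1 →
      Y.length % m = Y'.length % m →
      ((Y.drop A1).map f).prod = ((Y'.drop A1).map f).prod → nu1 Y = nu1 Y') :
    HL 1 (XX n Sw z) ∧ HL 1 (Bad n Sw z N p0 BadT) ∧
    (∀ x y, HL 1 (ZT (XX n Sw z) (TT (fun w => (w.map f).prod) act p0 nu2 nu1) x y)) ∧
    (∀ s : S, HL 1 ({w | (∀ u ∈ XX n Sw z, ¬ u <+: w) ∧ (w.map f).prod = s} : Language α)) := by
  set A := n + z + N + p0 + A1 with hA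
  have hreg : ∀ L : Language α, (∀ w w' : List α, A ≤ w.length → A ≤ w'.length →
      w.take A = w'.take A → ((w.drop A).map f).prod = ((w'.drop A).map f).prod →
      w.length % m = w'.length % m → w.drop (w.length - n) = w'.drop (w'.length - n) →
      (Fl n Sw z w ↔ Fl n Sw z w') → (w ∈ L ↔ w' ∈ L)) → L.IsRegular := by
    intro L hL
    refine reg_of (kap f n Sw z A m) (kap_fin f n Sw z A m hm)
      (kap_step (by omega) (by omega)) L fun w w' h => ?_
    rcases kap_cases h with rfl | ⟨h1, h2, e1, e2, e3, e4, e5⟩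
    · rfl
    · exact hL w w' h1 h2 e1 e2 e3 e4 e5
  -- membership in XX
  have hXX : ∀ w w' : List α, A ≤ w.length → A ≤ w'.length →
      w.drop (w.length - n) = w'.drop (w'.length - n) →
      (Fl n Sw z w ↔ Fl n Sw z w') → (w ∈ XX n Sw z ↔ w' ∈ XX n Sw z) := by
    intro w w' h1 h2 e4 e5
    have key : ∀ w : List α, A ≤ w.length → (w ∈ XX n Sw z ↔ Wo n Sw w ∧ ¬ Fl n Sw z w) := by
      intro w hw
      constructor
      · rintro ⟨_, h2, h3⟩
        exact ⟨h2, fun ⟨t, ht, hz, hW⟩ => h3 t ht hz hW⟩
      · rintro ⟨h2, h3⟩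
        exact ⟨by omega, h2, fun t ht hz hW => h3 ⟨t, ht, hz, hW⟩⟩
    rw [key w h1, key w' h2, e5, wo_iff (by omega) (by omega) e4]
  have hBad : ∀ w w' : List α, A ≤ w.length → A ≤ w'.length → w.take A = w'.take A →
      w.length % m = w'.length % m →
      w.drop (w.length - n) = w'.drop (w'.length - n) →
      (Fl n Sw z w ↔ Fl n Sw z w') → (w ∈ Bad n Sw z N p0 BadT ↔ w' ∈ Bad n Sw z N p0 BadT) := by
    intro w w' h1 h2 e1 e3 e4 e5
    have hband : ∀ w w' : List α, A ≤ w.length → A ≤ w'.length → w.take A = w'.take A →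
        (∃ t, t ≤ w.length ∧ z ≤ t + N ∧ t < z + N ∧ Wo n Sw (w.take t)) →
        (∃ t, t ≤ w'.length ∧ z ≤ t + N ∧ t < z + N ∧ Wo n Sw (w'.take t)) := by
      rintro w w' h1 h2 e1 ⟨t, ht, ht1, ht2, ht3⟩
      refine ⟨t, by omega, ht1, ht2, ?_⟩
      have e : ∀ w : List α, w.take t = (w.take A).take t := by
        intro w; rw [List.take_take, min_eq_left (by omega)]
      rw [e w', ← e1, ← e w]
      exact ht3
    have hb2 : BadT (w.length - p0) ↔ BadT (w'.length - p0) := by
      refine per hper (by omega) (by omega) ?_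
      have h3 : (w.length - p0) + p0 ≡ (w'.length - p0) + p0 [MOD m] := by
        rw [Nat.sub_add_cancel (by omega), Nat.sub_add_cancel (by omega)]; exact e3
      exact Nat.ModEq.add_right_cancel' p0 h3
    constructor
    · rintro ⟨g1, g2⟩
      refine ⟨(hXX w w' h1 h2 e4 e5).1 g1, ?_⟩
      rcases g2 with g2 | g2
      · exact Or.inl (hband w w' h1 h2 e1 g2)
      · exact Or.inr (hb2.1 g2)
    · rintro ⟨g1, g2⟩
      refine ⟨(hXX w w' h1 h2 e4 e5).2 g1, ?_⟩
      rcases g2 with g2 | g2
      · exact Or.inl (hband w' w h2 h1 e1.symm g2)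
      · exact Or.inr (hb2.2 g2)
  have hTT : ∀ w w' : List α, A ≤ w.length → A ≤ w'.length → w.take A = w'.take A →
      ((w.drop A).map f).prod = ((w'.drop A).map f).prod → w.length % m = w'.length % m →
      ∀ x, TT (fun w => (w.map f).prod) act p0 nu2 nu1 w x =
        TT (fun w => (w.map f).prod) act p0 nu2 nu1 w' x := by
    intro w w' h1 h2 e1 e2 e3 x
    have et : w.take p0 = w'.take p0 := by
      have e : ∀ w : List α, w.take p0 = (w.take A).take p0 := by
        intro w; rw [List.take_take, min_eq_left (by omega)]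
      rw [e w, e w', e1]
    have hp : ∀ p, p ≤ A → ((w.drop p).map f).prod = ((w'.drop p).map f).prod := by
      intro p hp
      rw [drop_split w hp h1, drop_split w' hp h2, List.map_append, List.map_append,
        List.prod_append, List.prod_append, e1, e2]
    have hn1 : nu1 (w.drop p0) = nu1 (w'.drop p0) := by
      refine hfs _ _ (by rw [List.length_drop]; omega) (by rw [List.length_drop]; omega) ?_ ?_ ?_
      · have e : ∀ w : List α, (w.drop p0).take A1 = ((w.take A).drop p0).take A1 := by
          intro w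
          rw [List.drop_take, List.take_take, min_eq_left (by omega)]
        rw [e w, e w', e1]
      · rw [List.length_drop, List.length_drop]
        have h3 : (w.length - p0) + p0 ≡ (w'.length - p0) + p0 [MOD m] := by
          rw [Nat.sub_add_cancel (by omega), Nat.sub_add_cancel (by omega)]; exact e3
        exact Nat.ModEq.add_right_cancel' p0 h3
      · rw [List.drop_drop, List.drop_drop]
        exact hp _ (by omega)
    unfold TT
    rw [et, hn1]
    show act (act x _ + _) (((w.drop p0).map f).prod) + _ =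
      act (act x _ + _) (((w'.drop p0).map f).prod) + _
    rw [hp p0 (by omega)]
  -- few walls
  have hnwX : ∀ w ∈ XX n Sw z, nw n Sw w ≤ z + 1 := by
    classical
    intro w hw
    unfold nw
    have hsub : ((Finset.range (w.length + 1)).filter (fun x => Wl n Sw w x)) ⊆
        insert (w.length - n) (Finset.range z) := by
      intro x hx
      rw [Finset.mem_filter] at hx
      obtain ⟨h1, h2⟩ := wo_take.1 hx.2
      rw [Finset.mem_insert, Finset.mem_range]
      by_contra hcon
      push Not at hcon
      exact hw.2.2 (x + n) (by omega) (by omega) h2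
    calc _ ≤ (insert (w.length - n) (Finset.range z)).card := Finset.card_le_card (by convert hsub)
      _ ≤ (Finset.range z).card + 1 := Finset.card_insert_le _ _
      _ = z + 1 := by rw [Finset.card_range]
  have hHL : ∀ L : Language α, L.IsRegular → (∀ w ∈ L, nw n Sw w ≤ z + 1) → HL 1 L := by
    intro L hL h
    refine (hfew L hL (z + 1)).congr fun w => ?_
    constructor
    · intro hw
      exact (show w ∈ L ∧ nw n Sw w ≤ z + 1 from ⟨hw, h w hw⟩)
    · intro hw
      have hw' : w ∈ L ∧ nw n Sw w ≤ z + 1 := hw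
      exact hw'.1
  refine ⟨?_, ?_, ?_, ?_⟩
  · exact hHL _ (hreg _ fun w w' h1 h2 e1 e2 e3 e4 e5 => hXX w w' h1 h2 e4 e5) hnwX
  · exact hHL _ (hreg _ fun w w' h1 h2 e1 e2 e3 e4 e5 => hBad w w' h1 h2 e1 e3 e4 e5)
      fun w hw => hnwX w hw.1
  · intro x y
    refine hHL _ (hreg _ fun w w' h1 h2 e1 e2 e3 e4 e5 => ?_) fun w hw => hnwX w hw.1
    have h3 := hXX w w' h1 h2 e4 e5
    have h4 := hTT w w' h1 h2 e1 e2 e3 x
    constructor
    · rintro ⟨g1, g2⟩
      exact ⟨h3.1 g1, by rw [← h4]; exact g2⟩
    · rintro ⟨g1, g2⟩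
      exact ⟨h3.2 g1, by rw [h4]; exact g2⟩
  · intro s
    have key : ∀ w : List α, (∀ u ∈ XX n Sw z, ¬ u <+: w) ↔
        (∀ t, t ≤ w.length → z ≤ t → ¬ Wo n Sw (w.take t)) := by
      classical
      intro w
      constructor
      · intro h t ht hzt hW
        have hex : ∃ t, t ≤ w.length ∧ z ≤ t ∧ Wo n Sw (w.take t) := ⟨t, ht, hzt, hW⟩
        obtain ⟨g1, g2, g3⟩ := Nat.find_spec hex
        refine h (w.take (Nat.find hex)) ⟨?_, g3, ?_⟩ (List.take_prefix _ _)
        · rw [List.length_take]; omega
        · intro t' ht' hz' hW'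
          rw [List.length_take] at ht'
          rw [List.take_take, min_eq_left (by omega)] at hW'
          exact Nat.find_min hex (by omega) ⟨by omega, hz', hW'⟩
      · rintro h u hu hp
        have h2 := List.prefix_iff_eq_take.1 hp
        refine h u.length hp.length_le hu.1 ?_
        rw [← h2]; exact hu.2.1
    have hr : Language.IsRegular
        ({w | (∀ u ∈ XX n Sw z, ¬ u <+: w) ∧ (w.map f).prod = s} : Language α) := by
      refine hreg _ fun w w' h1 h2 e1 e2 e3 e4 e5 => ?_
      have hp : (w.map f).prod = (w'.map f).prod := by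
        rw [← List.take_append_drop A w, ← List.take_append_drop A w', List.map_append,
          List.map_append, List.prod_append, List.prod_append, e1, e2]
      have k2 : ∀ w : List α, A ≤ w.length → ((∀ u ∈ XX n Sw z, ¬ u <+: w) ↔
          (¬ Fl n Sw z w ∧ ¬ Wo n Sw w)) := by
        intro w hw
        rw [key w]
        constructor
        · intro h
          refine ⟨fun ⟨t, g1, g2, g3⟩ => h t g1.le g2 g3, fun hW => ?_⟩
          exact h w.length le_rfl (by omega) (by rw [List.take_length]; exact hW)
        · rintro ⟨g1, g2⟩ t ht hzt hW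
          rcases Nat.lt_or_ge t w.length with h | h
          · exact g1 ⟨t, h, hzt, hW⟩
          · have : t = w.length := by omega
            subst this
            rw [List.take_length] at hW
            exact g2 hW
      have h6 := wo_iff (Sw := Sw) (by omega : n ≤ w.length) (by omega : n ≤ w'.length) e4
      show ((∀ u ∈ XX n Sw z, ¬ u <+: w) ∧ (w.map f).prod = s) ↔
        ((∀ u ∈ XX n Sw z, ¬ u <+: w') ∧ (w'.map f).prod = s)
      rw [k2 w h1, k2 w' h2, hp, e5, h6]
    refine hHL _ hr ?_
    classical
    rintro w ⟨hw, -⟩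
    rw [key w] at hw
    unfold nw
    have hsub : ((Finset.range (w.length + 1)).filter (fun x => Wl n Sw w x)) ⊆ Finset.range z := by
      intro x hx
      rw [Finset.mem_filter] at hx
      obtain ⟨h1, h2⟩ := wo_take.1 hx.2
      rw [Finset.mem_range]
      by_contra hcon
      exact hw (x + n) h1 (by omega) h2
    calc _ ≤ (Finset.range z).card := Finset.card_le_card (by convert hsub)
      _ ≤ z + 1 := by rw [Finset.card_range]; omega

/-- the block maps are affine -/
theorem hT {f : α → S} {act : V → S → V} {nu1 nu2 : List α → V}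
    (hadd : ∀ a b s, act (a + b) s = act a s + act b s)
    (hmul : ∀ v s t, act v (s * t) = act (act v s) t) (p0 : ℕ) (u : List α) (v v' : V) :
    TT (fun w => (w.map f).prod) act p0 nu2 nu1 u v - TT (fun w => (w.map f).prod) act p0 nu2 nu1 u v' =
      act (v - v') ((u.map f).prod) := by
  have hsub : ∀ a b s, act (a - b) s = act a s - act b s := by
    intro a b s
    have := hadd (a - b) b s
    rw [sub_add_cancel] at this
    rw [this, add_sub_cancel_right]
  unfold TT
  show (act (act v _ + _) _ + _) - (act (act v' _ + _) _ + _) = _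
  rw [add_sub_add_right_eq_sub, ← hsub, add_sub_add_right_eq_sub, ← hsub, ← hmul,
    ← List.prod_append, ← List.map_append, List.take_append_drop]

end main

end Crest.Agent.R320.H14_82
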