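import Mathlib

/-!
# Row 320: the spoil count of the ruler for the digit gadget (helper69)

`BadN` = a modulus of `Ms` divides `n`, or one of the `m` lowest digits of `n` in base `b` is
within `M` of the ends.  Ruler `c l = 4 ^ l * K0`, `K0 ≡ 1 (mod M)`,
`K0 ≡ 4 M (1 + b + .. + b^(m-1)) (mod b^m)`.
-/

set_option autoImplicit false

namespace Crest.Agent.R320.Sp_69

/-- bad totals of the digit gadget -/
def BadN (Ms : Finset ℕ) (M m b : ℕ) (n : ℕ) : Prop :=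
  (∃ k ∈ Ms, k ∣ n) ∨ ∃ j < m, ¬ (M ≤ n / b ^ j % b ∧ n / b ^ j % b + M + 1 ≤ b)

theorem pow_cmp (x y : ℕ) :
    (x < y ∧ 4 * 4 ^ x ≤ 4 ^ y) ∨ (x = y ∧ 4 ^ x = 4 ^ y) ∨ (y < x ∧ 4 * 4 ^ y ≤ 4 ^ x) := by
  rcases lt_trichotomy x y with h | h | h
  · refine Or.inl ⟨h, ?_⟩
    calc 4 * 4 ^ x = 4 ^ (x + 1) := by rw [pow_succ]; ring
      _ ≤ 4 ^ y := Nat.pow_le_pow_right (by norm_num) h
  · exact Or.inr (Or.inl ⟨h, by rw [h]⟩)
  · refine Or.inr (Or.inr ⟨h, ?_⟩)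
    calc 4 * 4 ^ y = 4 ^ (y + 1) := by rw [pow_succ]; ring
      _ ≤ 4 ^ x := Nat.pow_le_pow_right (by norm_num) h

theorem gol {i j k l : ℕ} (_h1 : i ≠ j) (_h2 : k ≠ l) (h : 4 ^ i + 4 ^ l = 4 ^ k + 4 ^ j) :
    i = k ∧ j = l := by
  have a1 := pow_cmp i j
  have a2 := pow_cmp i k
  have a3 := pow_cmp i l
  have a4 := pow_cmp j k
  have a5 := pow_cmp j l
  have a6 := pow_cmp k l
  have p1 : 0 < 4 ^ i := by positivity
  have p2 : 0 < 4 ^ j := by positivity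
  have p3 : 0 < 4 ^ k := by positivity
  have p4 : 0 < 4 ^ l := by positivity
  generalize 4 ^ i = x at *
  generalize 4 ^ j = y at *
  generalize 4 ^ k = z at *
  generalize 4 ^ l = w at *
  omega

/-- the difference of differences -/
def EE (i j k l : ℕ) : ℤ := (4 : ℤ) ^ i + 4 ^ l - 4 ^ k - 4 ^ j

theorem EE_zero {i j k l : ℕ} (h1 : i ≠ j) (h2 : k ≠ l) (h : EE i j k l = 0) : i = k ∧ j = l := by
  refine gol h1 h2 ?_
  have : ((4 ^ i + 4 ^ l : ℕ) : ℤ) = ((4 ^ k + 4 ^ j : ℕ) : ℤ) := by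
    push_cast
    unfold EE at h
    linarith
  exact_mod_cast this

theorem EE_bound {i j k l K : ℕ} (hi : i < K) (hj : j < K) (hk : k < K) (hl : l < K) :
    |EE i j k l| < 2 * 4 ^ K := by
  have h : ∀ x : ℕ, x < K → (0 : ℤ) < 4 ^ x ∧ (4 : ℤ) ^ x < 4 ^ K := fun x hx =>
    ⟨by positivity, pow_lt_pow_right₀ (by norm_num) hx⟩
  have := h i hi
  have := h j hj
  have := h k hk
  have := h l hl
  rw [abs_lt]
  unfold EE
  constructor <;> linarith [h i hi, h j hj, h k hk, h l hl]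

/-- the repunit -/
def rep (b m : ℕ) : ℕ := ∑ t ∈ Finset.range m, b ^ t

theorem rep_split (b : ℕ) {j m : ℕ} (h : j ≤ m) : ∃ Y, rep b m = rep b j + b ^ j * Y := by
  obtain ⟨d, rfl⟩ := Nat.exists_eq_add_of_le h
  refine ⟨rep b d, ?_⟩
  unfold rep
  rw [Finset.sum_range_add, Finset.mul_sum]
  congr 1
  exact Finset.sum_congr rfl fun t _ => by rw [pow_add]

theorem rep_lower (b j : ℕ) : b ^ j ≤ rep b (j + 1) := by
  unfold rep
  rw [Finset.sum_range_succ]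
  omega

theorem rep_upper {b : ℕ} (hb : 2 ≤ b) (j : ℕ) : rep b (j + 1) ≤ 2 * b ^ j := by
  induction j with
  | zero => simp [rep]
  | succ j ih =>
    have e : rep b (j + 1 + 1) = rep b (j + 1) + b ^ (j + 1) := by
      unfold rep; rw [Finset.sum_range_succ]
    rw [e, pow_succ]
    have h2 : b ^ j * 2 ≤ b ^ j * b := Nat.mul_le_mul_left _ hb
    omega

theorem digit_bad {M b q n : ℕ} (hq : 0 < q) (hb : 0 < b)
    (h : ¬ (M ≤ n / q % b ∧ n / q % b + M + 1 ≤ b)) :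
    ∃ Z x : ℤ, (n : ℤ) = q * b * Z + x ∧ -(q * M : ℤ) ≤ x ∧ x < q * M := by
  have e1 := Nat.div_add_mod n q
  have e2 := Nat.div_add_mod (n / q) b
  have l1 := Nat.mod_lt n hq
  have l2 := Nat.mod_lt (n / q) hb
  set s := n % q
  set d := n / q % b
  set Y := n / q / b
  have en : (n : ℤ) = q * (b * Y + d) + s := by
    rw [← e1, ← e2]; push_cast; ring
  have s0 : (0 : ℤ) ≤ s := by positivity
  have s1 : (s : ℤ) < q := by exact_mod_cast l1
  have q0 : (0 : ℤ) < q := by exact_mod_cast hq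
  by_cases hd : d < M
  · refine ⟨Y, q * d + s, by rw [en]; ring, ?_, ?_⟩
    · have : (0 : ℤ) ≤ q * M := by positivity
      have : (0 : ℤ) ≤ q * d := by positivity
      linarith
    · have : (d : ℤ) + 1 ≤ M := by exact_mod_cast hd
      nlinarith
  · have hd2 : b ≤ d + M := by
      by_contra hc
      exact h ⟨by omega, by omega⟩
    refine ⟨Y + 1, q * d + s - q * b, by rw [en]; ring, ?_, ?_⟩
    · have : (b : ℤ) ≤ d + M := by exact_mod_cast hd2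
      nlinarith
    · have : (d : ℤ) + 1 ≤ b := by exact_mod_cast l2
      have : (0 : ℤ) ≤ q * M := by positivity
      nlinarith

/-- the arithmetic of one digit -/
theorem arith {q M ρ b E d W F : ℤ} (hq : 0 < q) (hM : 0 < M) (r1 : q ≤ ρ) (r2 : ρ ≤ 2 * q)
    (hb : 18 * F * M ≤ b) (hE : |E| < 2 * F) (hd : |d| < 2 * (q * M))
    (key : 4 * M * ρ * E - d = q * b * W) : E = 0 := by
  have hF : 0 < F := by
    have := abs_nonneg E
    linarith
  have hρ : 0 < ρ := by linarith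
  have hMq : 0 < q * M := mul_pos hq hM
  have hMρ : 0 < 4 * M * ρ := by positivity
  have a1 : |4 * M * ρ * E| = 4 * M * ρ * |E| := by rw [abs_mul, abs_of_pos hMρ]
  have a2 : 4 * M * ρ ≤ 8 * (q * M) := by nlinarith
  have a3 : 4 * M * ρ * |E| ≤ 8 * (q * M) * (2 * F) :=
    mul_le_mul a2 hE.le (abs_nonneg _) (by positivity)
  have hW : W = 0 := by
    by_contra hne
    have hqb : 0 ≤ q * b := by
      have : 0 ≤ b := by
        have : 0 < 18 * F * M := by positivity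
        linarith
      positivity
    have h1 : q * b ≤ |q * b * W| := by
      rw [abs_mul, abs_of_nonneg hqb]
      exact le_mul_of_one_le_right hqb (Int.one_le_abs hne)
    rw [← key] at h1
    have h2 : |4 * M * ρ * E - d| ≤ |4 * M * ρ * E| + |d| := abs_sub _ _
    have h4 : q * (18 * F * M) ≤ q * b := mul_le_mul_of_nonneg_left hb hq.le
    have h5 : q * (18 * F * M) = 18 * (q * M) * F := by ring
    have h6 : 8 * (q * M) * (2 * F) = 16 * (q * M) * F := by ring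
    have h7 : 2 * (q * M) ≤ 2 * (q * M) * F := le_mul_of_one_le_right (by positivity) (by omega)
    have h8 : 18 * (q * M) * F = 16 * (q * M) * F + 2 * (q * M) * F := by ring
    linarith
  rw [hW, mul_zero] at key
  by_contra hne
  have h9 : 4 * M * ρ ≤ |4 * M * ρ * E| := by
    rw [a1]
    exact le_mul_of_one_le_right hMρ.le (Int.one_le_abs hne)
  have h7 : 4 * M * ρ * E = d := by linarith
  rw [h7] at h9
  have h10 : 4 * (q * M) ≤ 4 * M * ρ := by nlinarith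
  linarith

/-- core: a ruler of length `K` with at most `Ms.card + m` spoiled ordered pairs -/
theorem spoilZ (Ms : Finset ℕ) (M m b K N1 : ℕ) (hM : 0 < M)
    (hk : ∀ k ∈ Ms, k ∣ M ∧ 2 * 4 ^ K < k) (hb : 18 * 4 ^ K * M ≤ b) (hcop : Nat.Coprime b M) :
    ∃ K0 : ℕ, 4 * N1 < K0 ∧ ∀ T : ℤ,
      Set.encard {ab : ℕ × ℕ | ab.1 < K ∧ ab.2 < K ∧ ab.1 ≠ ab.2 ∧
        ∃ n : ℕ, (n : ℤ) = T + 4 ^ ab.1 * K0 - 4 ^ ab.2 * K0 ∧ BadN Ms M m b n} ≤
          ((Ms.card + m : ℕ) : ℕ∞) := by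
  classical
  have hb2 : 2 ≤ b := by
    have : 1 ≤ 4 ^ K := Nat.one_le_pow _ _ (by norm_num)
    nlinarith
  have hbm : 0 < b ^ m := by positivity
  obtain ⟨x, hx1, hx2⟩ := Nat.chineseRemainder (hcop.symm.pow_right m) 1 (4 * M * rep b m)
  refine ⟨x + M * b ^ m * (4 * N1 + 1), ?_, fun T => ?_⟩
  · have : 0 < M * b ^ m := by positivity
    nlinarith
  set K0 : ℕ := x + M * b ^ m * (4 * N1 + 1) with hK0
  have k1 : K0 ≡ 1 [MOD M] := by
    rw [hK0]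
    calc x + M * b ^ m * (4 * N1 + 1) ≡ x + 0 [MOD M] :=
          Nat.ModEq.add_left _ ((Nat.modEq_zero_iff_dvd).2 ⟨b ^ m * (4 * N1 + 1), by ring⟩)
      _ = x := by ring
      _ ≡ 1 [MOD M] := hx1
  have k2 : K0 ≡ 4 * M * rep b m [MOD b ^ m] := by
    rw [hK0]
    calc x + M * b ^ m * (4 * N1 + 1) ≡ x + 0 [MOD b ^ m] :=
          Nat.ModEq.add_left _ ((Nat.modEq_zero_iff_dvd).2 ⟨M * (4 * N1 + 1), by ring⟩)
      _ = x := by ring
      _ ≡ 4 * M * rep b m [MOD b ^ m] := hx2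
  -- one pair per modulus
  have hS : ∀ k ∈ Ms, ∀ i j i' j' : ℕ, i < K → j < K → i' < K → j' < K → i ≠ j → i' ≠ j' →
      ∀ n n' : ℕ, (n : ℤ) = T + 4 ^ i * K0 - 4 ^ j * K0 →
        (n' : ℤ) = T + 4 ^ i' * K0 - 4 ^ j' * K0 → k ∣ n → k ∣ n' → i = i' ∧ j = j' := by
    intro k hkM i j i' j' hi hj hi' hj' hij hij' n n' en en' dn dn'
    apply EE_zero hij hij'
    obtain ⟨hkd, hkb⟩ := hk k hkM
    have hd : (k : ℤ) ∣ EE i j i' j' * K0 := by
      have h1 : (k : ℤ) ∣ (n : ℤ) - n' :=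
        dvd_sub (by exact_mod_cast dn) (by exact_mod_cast dn')
      have h2 : (n : ℤ) - n' = EE i j i' j' * K0 := by
        rw [en, en']; unfold EE; ring
      rwa [h2] at h1
    have hK1 : (K0 : ℤ) ≡ 1 [ZMOD k] :=
      (Int.natCast_modEq_iff.2 (k1.of_dvd hkd))
    have hd2 : (k : ℤ) ∣ EE i j i' j' := by
      have h3 : (k : ℤ) ∣ EE i j i' j' * (K0 - 1) :=
        Dvd.dvd.mul_left (Int.modEq_iff_dvd.1 hK1.symm) _
      have h4 := dvd_sub hd h3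
      have h5 : EE i j i' j' * K0 - EE i j i' j' * (K0 - 1) = EE i j i' j' := by ring
      rwa [h5] at h4
    refine Int.eq_zero_of_abs_lt_dvd hd2 ?_
    refine lt_trans (EE_bound hi hj hi' hj') ?_
    exact_mod_cast hkb
  -- one pair per digit
  have hD : ∀ t < m, ∀ i j i' j' : ℕ, i < K → j < K → i' < K → j' < K → i ≠ j → i' ≠ j' →
      ∀ n n' : ℕ, (n : ℤ) = T + 4 ^ i * K0 - 4 ^ j * K0 →
        (n' : ℤ) = T + 4 ^ i' * K0 - 4 ^ j' * K0 →
        ¬ (M ≤ n / b ^ t % b ∧ n / b ^ t % b + M + 1 ≤ b) →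
        ¬ (M ≤ n' / b ^ t % b ∧ n' / b ^ t % b + M + 1 ≤ b) → i = i' ∧ j = j' := by
    intro t ht i j i' j' hi hj hi' hj' hij hij' n n' en en' dn dn'
    apply EE_zero hij hij'
    have hq : 0 < b ^ t := by positivity
    obtain ⟨Z, y, e1, y1, y2⟩ := digit_bad hq (by omega) dn
    obtain ⟨Z', y', e2, y1', y2'⟩ := digit_bad hq (by omega) dn'
    obtain ⟨Y, hY⟩ := rep_split b (show t + 1 ≤ m by omega)
    have hKm : (K0 : ℤ) ≡ 4 * M * rep b (t + 1) [ZMOD (b ^ t * b : ℕ)] := by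
      have h1 : K0 ≡ 4 * M * rep b m [MOD b ^ t * b] :=
        k2.of_dvd (by rw [← pow_succ]; exact pow_dvd_pow b (by omega))
      have h2 : 4 * M * rep b m ≡ 4 * M * rep b (t + 1) [MOD b ^ t * b] := by
        rw [hY, ← pow_succ]
        calc 4 * M * (rep b (t + 1) + b ^ (t + 1) * Y)
            = 4 * M * rep b (t + 1) + b ^ (t + 1) * (4 * M * Y) := by ring
          _ ≡ 4 * M * rep b (t + 1) + 0 [MOD b ^ (t + 1)] :=
            Nat.ModEq.add_left _ ((Nat.modEq_zero_iff_dvd).2 ⟨_, rfl⟩)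
          _ = 4 * M * rep b (t + 1) := by ring
      have h3 := Int.natCast_modEq_iff.2 (h1.trans h2)
      push_cast at h3 ⊢
      exact h3
    obtain ⟨W, hW⟩ := Int.modEq_iff_dvd.1 hKm
    -- 4 M ρ - K0 = q b W
    set E := EE i j i' j' with hE
    have hdiff : (K0 : ℤ) * E = b ^ t * b * (Z - Z') + (y - y') := by
      have h2 : (n : ℤ) - n' = K0 * E := by
        rw [hE, en, en']; unfold EE; ring
      rw [← h2, e1, e2]; push_cast; ring
    push_cast at hW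
    have hK0' : (K0 : ℤ) = 4 * M * rep b (t + 1) - b ^ t * b * W := by linarith
    have key : 4 * M * rep b (t + 1) * E - (y - y') = b ^ t * b * (Z - Z' + W * E) := by
      rw [hK0'] at hdiff
      linarith [hdiff, show (4 * (M : ℤ) * rep b (t + 1) - b ^ t * b * W) * E =
        4 * M * rep b (t + 1) * E - b ^ t * b * (W * E) by ring,
        show (b : ℤ) ^ t * b * (Z - Z' + W * E) = b ^ t * b * (Z - Z') + b ^ t * b * (W * E) by ring]
    have r1 : ((b ^ t : ℕ) : ℤ) ≤ rep b (t + 1) := by exact_mod_cast rep_lower b t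
    have r2 : (rep b (t + 1) : ℤ) ≤ 2 * ((b ^ t : ℕ) : ℤ) := by exact_mod_cast rep_upper hb2 t
    have hEb : |E| < 2 * 4 ^ K := EE_bound hi hj hi' hj'
    set q : ℤ := ((b ^ t : ℕ) : ℤ) with hqdef
    have hq0 : 0 < q := by rw [hqdef]; exact_mod_cast hq
    have hqe : (b : ℤ) ^ t = q := by rw [hqdef]; push_cast; ring
    rw [hqe] at key
    set ρ : ℤ := (rep b (t + 1) : ℤ) with hρ
    have hM0 : (0 : ℤ) < M := by exact_mod_cast hM
    have hρ0 : 0 < ρ := by linarith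
    have hbb : 18 * 4 ^ K * (M : ℤ) ≤ b := by exact_mod_cast hb
    exact arith hq0 hM0 r1 r2 hbb hEb (by rw [abs_lt]; constructor <;> linarith) key
  -- counting
  let S1 : ℕ → Finset (ℕ × ℕ) := fun k => (Finset.range K ×ˢ Finset.range K).filter
    (fun ab => ab.1 ≠ ab.2 ∧ ∃ n : ℕ, (n : ℤ) = T + 4 ^ ab.1 * K0 - 4 ^ ab.2 * K0 ∧ k ∣ n)
  let S2 : ℕ → Finset (ℕ × ℕ) := fun t => (Finset.range K ×ˢ Finset.range K).filter
    (fun ab => ab.1 ≠ ab.2 ∧ ∃ n : ℕ, (n : ℤ) = T + 4 ^ ab.1 * K0 - 4 ^ ab.2 * K0 ∧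
      ¬ (M ≤ n / b ^ t % b ∧ n / b ^ t % b + M + 1 ≤ b))
  have hsub : {ab : ℕ × ℕ | ab.1 < K ∧ ab.2 < K ∧ ab.1 ≠ ab.2 ∧
        ∃ n : ℕ, (n : ℤ) = T + 4 ^ ab.1 * K0 - 4 ^ ab.2 * K0 ∧ BadN Ms M m b n} ⊆
      ((Ms.biUnion S1 ∪ (Finset.range m).biUnion S2 : Finset (ℕ × ℕ)) : Set (ℕ × ℕ)) := by
    rintro ⟨i, j⟩ ⟨hi, hj, hij, n, en, hbad⟩
    rw [Finset.mem_coe, Finset.mem_union, Finset.mem_biUnion, Finset.mem_biUnion]
    rcases hbad with ⟨k, hk1, hk2⟩ | ⟨t, ht1, ht2⟩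
    · exact Or.inl ⟨k, hk1, Finset.mem_filter.2 ⟨Finset.mem_product.2
        ⟨Finset.mem_range.2 hi, Finset.mem_range.2 hj⟩, hij, n, en, hk2⟩⟩
    · exact Or.inr ⟨t, Finset.mem_range.2 ht1, Finset.mem_filter.2 ⟨Finset.mem_product.2
        ⟨Finset.mem_range.2 hi, Finset.mem_range.2 hj⟩, hij, n, en, ht2⟩⟩
  refine (Set.encard_le_encard hsub).trans ?_
  rw [Set.encard_coe_eq_coe_finsetCard]
  have c1 : (Ms.biUnion S1).card ≤ Ms.card * 1 := by
    refine Finset.card_biUnion_le_card_mul _ _ _ fun k hkM => Finset.card_le_one.2 ?_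
    rintro ⟨i, j⟩ h ⟨i', j'⟩ h'
    obtain ⟨h1, h2, n, en, dn⟩ := Finset.mem_filter.1 h
    obtain ⟨h1', h2', n', en', dn'⟩ := Finset.mem_filter.1 h'
    rw [Finset.mem_product, Finset.mem_range, Finset.mem_range] at h1 h1'
    obtain ⟨e1, e2⟩ := hS k hkM i j i' j' h1.1 h1.2 h1'.1 h1'.2 h2 h2' n n' en en' dn dn'
    rw [e1, e2]
  have c2 : ((Finset.range m).biUnion S2).card ≤ (Finset.range m).card * 1 := by
    refine Finset.card_biUnion_le_card_mul _ _ _ fun t ht => Finset.card_le_one.2 ?_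
    rintro ⟨i, j⟩ h ⟨i', j'⟩ h'
    obtain ⟨h1, h2, n, en, dn⟩ := Finset.mem_filter.1 h
    obtain ⟨h1', h2', n', en', dn'⟩ := Finset.mem_filter.1 h'
    rw [Finset.mem_product, Finset.mem_range, Finset.mem_range] at h1 h1'
    obtain ⟨e1, e2⟩ := hD t (Finset.mem_range.1 ht) i j i' j' h1.1 h1.2 h1'.1 h1'.2 h2 h2' n n'
      en en' dn dn'
    rw [e1, e2]
  rw [Finset.card_range] at c2
  have := Finset.card_union_le (Ms.biUnion S1) ((Finset.range m).biUnion S2)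
  exact_mod_cast (by omega : (Ms.biUnion S1 ∪ (Finset.range m).biUnion S2).card ≤ Ms.card + m)

open Classical in
/-- **the spoil leaf** -/
theorem spoil (Ms : Finset ℕ) (M m b K N1 : ℕ) (hM : 0 < M)
    (hk : ∀ k ∈ Ms, k ∣ M ∧ 2 * 4 ^ K < k) (hb : 18 * 4 ^ K * M ≤ b) (hcop : Nat.Coprime b M) :
    ∃ c : ℕ → ℕ, (∀ i j, i < j → c i + 4 * N1 < c j) ∧
      (∀ i j k l, i ≠ j → k ≠ l → (i, j) ≠ (k, l) →
        c i + c l + 4 * N1 < c k + c j ∨ c k + c j + 4 * N1 < c i + c l) ∧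
      (∀ T : ℤ, Set.encard {ab : ℕ × ℕ | ab.1 < K ∧ ab.2 < K ∧ ab.1 ≠ ab.2 ∧
        ∃ n : ℕ, (n : ℤ) = T + c ab.1 - c ab.2 ∧ BadN Ms M m b n} ≤
          ((Ms.card + m : ℕ) : ℕ∞)) ∧
      (∀ T : ℕ, (∀ k < K, c k ≤ T) →
        ((Finset.range K ×ˢ Finset.range K).filter
          (fun ab => ab.1 ≠ ab.2 ∧ BadN Ms M m b (T + c ab.1 - c ab.2))).card ≤ Ms.card + m) ∧
      (∀ T : ℕ, (∀ k < K, c k ≤ T) →
        ((Finset.range K ×ˢ Finset.range K).filter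
          (fun ab => ab.1 ≠ ab.2 ∧ BadN Ms M m b (T + c ab.2 - c ab.1))).card ≤ Ms.card + m) := by
  obtain ⟨K0, hK0, h⟩ := spoilZ Ms M m b K N1 hM hk hb hcop
  have hZ : ∀ T : ℤ, Set.encard {ab : ℕ × ℕ | ab.1 < K ∧ ab.2 < K ∧ ab.1 ≠ ab.2 ∧
        ∃ n : ℕ, (n : ℤ) = T + (4 ^ ab.1 * K0 : ℕ) - (4 ^ ab.2 * K0 : ℕ) ∧ BadN Ms M m b n} ≤
          ((Ms.card + m : ℕ) : ℕ∞) := by
    intro T
    have := h T
    push_cast
    push_cast at this
    exact this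
  have hN : ∀ T : ℕ, (∀ k < K, 4 ^ k * K0 ≤ T) →
        ((Finset.range K ×ˢ Finset.range K).filter
          (fun ab => ab.1 ≠ ab.2 ∧ BadN Ms M m b (T + 4 ^ ab.1 * K0 - 4 ^ ab.2 * K0))).card ≤
            Ms.card + m := by
    intro T hT
    have h1 := hZ T
    have hsub : (((Finset.range K ×ˢ Finset.range K).filter
          (fun ab => ab.1 ≠ ab.2 ∧ BadN Ms M m b (T + 4 ^ ab.1 * K0 - 4 ^ ab.2 * K0)) :
            Finset (ℕ × ℕ)) : Set (ℕ × ℕ)) ⊆ {ab : ℕ × ℕ | ab.1 < K ∧ ab.2 < K ∧ ab.1 ≠ ab.2 ∧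
        ∃ n : ℕ, (n : ℤ) = (T : ℤ) + (4 ^ ab.1 * K0 : ℕ) - (4 ^ ab.2 * K0 : ℕ) ∧
          BadN Ms M m b n} := by
      rintro ⟨i, j⟩ hij
      rw [Finset.mem_coe, Finset.mem_filter, Finset.mem_product, Finset.mem_range,
        Finset.mem_range] at hij
      obtain ⟨⟨hi, hj⟩, hne, hb⟩ := hij
      refine ⟨hi, hj, hne, _, ?_, hb⟩
      have := hT j hj
      simp only at this ⊢
      rw [Nat.cast_sub (by omega), Nat.cast_add]
    have h2 := (Set.encard_le_encard hsub).trans h1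
    rw [Set.encard_coe_eq_coe_finsetCard] at h2
    exact_mod_cast h2
  refine ⟨fun l => 4 ^ l * K0, ?_, ?_, hZ, hN, ?_⟩
  · intro i j hij
    show 4 ^ i * K0 + 4 * N1 < 4 ^ j * K0
    rcases pow_cmp i j with ⟨-, h1⟩ | ⟨h1, -⟩ | ⟨h1, -⟩
    · have h2 : 4 * 4 ^ i * K0 ≤ 4 ^ j * K0 := Nat.mul_le_mul_right _ h1
      have h3 : 1 * K0 ≤ 4 ^ i * K0 := Nat.mul_le_mul_right _ (Nat.one_le_pow _ _ (by norm_num))
      have h4 : 4 * 4 ^ i * K0 = 4 ^ i * K0 + 3 * (4 ^ i * K0) := by ring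
      omega
    · omega
    · omega
  · intro i j k l hij hkl hne
    show 4 ^ i * K0 + 4 ^ l * K0 + 4 * N1 < 4 ^ k * K0 + 4 ^ j * K0 ∨
      4 ^ k * K0 + 4 ^ j * K0 + 4 * N1 < 4 ^ i * K0 + 4 ^ l * K0
    have h1 : 4 ^ i + 4 ^ l ≠ 4 ^ k + 4 ^ j := by
      intro e
      obtain ⟨e1, e2⟩ := gol hij hkl e
      exact hne (by rw [e1, e2])
    rcases Nat.lt_or_gt_of_ne h1 with h2 | h2
    · left
      have h3 : (4 ^ i + 4 ^ l + 1) * K0 ≤ (4 ^ k + 4 ^ j) * K0 := Nat.mul_le_mul_right _ h2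
      have h4 : (4 ^ i + 4 ^ l + 1) * K0 = 4 ^ i * K0 + 4 ^ l * K0 + K0 := by ring
      have h5 : (4 ^ k + 4 ^ j) * K0 = 4 ^ k * K0 + 4 ^ j * K0 := by ring
      omega
    · right
      have h3 : (4 ^ k + 4 ^ j + 1) * K0 ≤ (4 ^ i + 4 ^ l) * K0 := Nat.mul_le_mul_right _ h2
      have h4 : (4 ^ k + 4 ^ j + 1) * K0 = 4 ^ k * K0 + 4 ^ j * K0 + K0 := by ring
      have h5 : (4 ^ i + 4 ^ l) * K0 = 4 ^ i * K0 + 4 ^ l * K0 := by ring
      omega
  · intro T hT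
    have h1 := hN T hT
    refine le_trans (le_of_eq ?_) h1
    refine Finset.card_bij (fun ab _ => (ab.2, ab.1)) ?_ ?_ ?_
    · rintro ⟨i, j⟩ hij
      simp only [Finset.mem_filter, Finset.mem_product, Finset.mem_range] at hij ⊢
      exact ⟨⟨hij.1.2, hij.1.1⟩, fun e => hij.2.1 e.symm, hij.2.2⟩
    · rintro ⟨i, j⟩ _ ⟨i', j'⟩ _ e
      simp only [Prod.mk.injEq] at e ⊢
      exact ⟨e.2, e.1⟩
    · rintro ⟨i, j⟩ hij
      simp only [Finset.mem_filter, Finset.mem_product, Finset.mem_range] at hij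
      exact ⟨(j, i), by
        simp only [Finset.mem_filter, Finset.mem_product, Finset.mem_range]
        exact ⟨⟨hij.1.2, hij.1.1⟩, fun e => hij.2.1 e.symm, hij.2.2⟩, rfl⟩

theorem badN_periodic (Ms : Finset ℕ) (M m b : ℕ) (hk : ∀ k ∈ Ms, k ∣ M) (hb : 0 < b) (n : ℕ) :
    BadN Ms M m b (n + M * b ^ m) ↔ BadN Ms M m b n := by
  unfold BadN
  have h1 : ∀ k ∈ Ms, (k ∣ n + M * b ^ m ↔ k ∣ n) := fun k hkM =>
    ⟨fun h => (Nat.dvd_add_left ((hk k hkM).mul_right _)).1 h,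
      fun h => h.add ((hk k hkM).mul_right _)⟩
  have h2 : ∀ j < m, (n + M * b ^ m) / b ^ j % b = n / b ^ j % b := by
    intro j hj
    obtain ⟨d, rfl⟩ := Nat.exists_eq_add_of_lt hj
    have e : M * b ^ (j + d + 1) = b ^ j * (b * (M * b ^ d)) := by ring
    rw [e, Nat.add_mul_div_left _ _ (by positivity), Nat.add_mul_mod_self_left]
  constructor
  · rintro (⟨k, hkM, h⟩ | ⟨j, hj, h⟩)
    · exact Or.inl ⟨k, hkM, (h1 k hkM).1 h⟩
    · refine Or.inr ⟨j, hj, ?_⟩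
      rwa [h2 j hj] at h
  · rintro (⟨k, hkM, h⟩ | ⟨j, hj, h⟩)
    · exact Or.inl ⟨k, hkM, (h1 k hkM).2 h⟩
    · refine Or.inr ⟨j, hj, ?_⟩
      rwa [h2 j hj]

end Crest.Agent.R320.Sp_69
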