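import Crest.Agent.R320.InstB_11
import Crest.Agent.R320.H14_82
import Crest.Agent.R320.WallU_228
import Crest.Agent.R320.G1_852
import Crest.Agent.R320.Sp_69
import Crest.Agent.R320.ExactR_237
import Crest.Agent.R320.Univ_188
import Crest.Agent.R320.Hk2_851

/-!
# Row 320: the final join (helper101)

`Top5_110.top_sem` + `H14_82.main` + `InstB_11.C1`, `InstB_11.C2` + `G1_852.gadget` + `Sp_69.spoil` +
`ExactR_237.exact_gadget` + `WallU_228.walls_full`.
-/

set_option autoImplicit false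

namespace Crest.Agent.R320.Fin_101

open Crest.RegLang Crest.Agent.R320.Hk_851 Crest.Agent.R320.Code110

/-- the module `S → ZMod 2` -/
def actS {S : Type} [Monoid S] (v : S → ZMod 2) (s : S) : S → ZMod 2 := fun x => v (s * x)

theorem XX_eq {α : Type} (n : ℕ) (Sw : Set (List α)) (z : ℕ) :
    H14_82.XX n Sw z = InstB_11.XX (WallU_228.Wo n Sw) z := by
  ext X
  constructor
  · rintro ⟨h1, h2, h3⟩; exact ⟨h1, h2, fun t a b => h3 t b a⟩
  · rintro ⟨h1, h2, h3⟩; exact ⟨h1, h2, fun t a b => h3 t b a⟩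

theorem Bad_eq {α : Type} (n : ℕ) (Sw : Set (List α)) (z N p0 : ℕ) (B : ℕ → Prop) :
    H14_82.Bad n Sw z N p0 B = InstB_11.BadX (WallU_228.Wo n Sw) z N p0 B := by
  ext X
  constructor
  · rintro ⟨h1, h2⟩; exact ⟨by rw [← XX_eq]; exact h1, h2⟩
  · rintro ⟨h1, h2⟩; exact ⟨by rw [XX_eq]; exact h1, h2⟩

theorem fin (α : Type) [Finite α] (S : Type) [Monoid S] [Finite S] (f : α → S) (s : S) :
    HL 3 ({w | (w.map f).prod = s} : Language α) := by
  classical
  haveI : Fintype S := Fintype.ofFinite S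
  haveI : Fintype (S → ZMod 2) := inferInstance
  obtain ⟨m, r, hG⟩ := G1_852.gadget (actS (S := S))
  obtain ⟨K, hE⟩ := ExactR_237.exact_gadget α S (S → ZMod 2) f actS (2 + 2 * (r + m))
  obtain ⟨Ms, M, hMs, hMk, hM, hG⟩ := hG (2 * 4 ^ K)
  obtain ⟨b, hb⟩ : ∃ b, b = 18 * 4 ^ K * M + 1 := ⟨_, rfl⟩
  have hcop : Nat.Coprime b M := by
    rw [hb]
    have : 18 * 4 ^ K * M + 1 = 1 + M * (18 * 4 ^ K) := by ring
    rw [this]
    simp
  have hb0 : 0 < b := by omega
  obtain ⟨lam, rho, nu, g1, g2, g3, g4⟩ := hG b hb0 hcop α f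
  obtain ⟨c, hinc, hgol, -, -, hsp⟩ := Sp_69.spoil Ms M m b K (b ^ m) hM
    (fun k hk => ⟨(hMk k hk).2.2, (hMk k hk).1⟩) (by omega) hcop
  obtain ⟨lam2, rho2, nuE, e1, e2⟩ := hE c (fun i j hij _ => by have := hinc i j hij; omega)
  obtain ⟨p0, hp0⟩ : ∃ p0, p0 = c K := ⟨_, rfl⟩
  have hcp : ∀ k < K, c k ≤ p0 := fun k hk => by have := hinc k K hk; omega
  obtain ⟨N1, hN1⟩ : ∃ N1, N1 = b ^ m := ⟨_, rfl⟩
  rw [← hN1] at g1 g4 hinc hgol
  obtain ⟨n, c', P, Sw, hn, hP, hloc, hgap, -, -, hfew⟩ :=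
    WallU_228.walls_full (α := α) (2 * (N1 + p0))
  obtain ⟨z, hz⟩ : ∃ z, z = p0 + p0 + N1 + n + p0 + 1 := ⟨_, rfl⟩
  have hWL : InstB_11.WL (WallU_228.Wo n Sw) n (2 * (N1 + p0)) :=
    ⟨hloc, fun P h => h.1, hgap⟩
  have hm0 : 0 < M * b ^ m := by positivity
  obtain ⟨H1, H2, H3, H4⟩ := H14_82.main (f := f) (n := n) (Sw := Sw) (z := z) (N := N1) (p0 := p0)
    (A1 := N1) (m := M * b ^ m) hm0 hfew (Sp_69.BadN Ms M m b)
    (fun T _ => Sp_69.badN_periodic Ms M m b (fun k hk => (hMk k hk).2.2) hb0 T) nu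
    (fun w => nuE w 1) actS
    (fun Y Y' _ _ h3 h4 h5 => (g4 Y Y' h3 h5 (by rw [hN1]; exact h4)).2)
  rw [XX_eq] at H1
  rw [Bad_eq] at H2
  have hC0 : 1 + 2 * (r + m) < 2 + 2 * (r + m) := by omega
  have spC : ∀ T, p0 ≤ T → ∀ F : Finset (ℕ × ℕ), (∀ ij ∈ F, ij.1 < K ∧ ij.2 < K ∧ ij.1 ≠ ij.2 ∧
      Sp_69.BadN Ms M m b (T + c ij.2 - c ij.1)) → F.card ≤ r + m := by
    intro T hT F hF
    refine (Finset.card_le_card ?_).trans
      ((hsp T (fun k hk => (hcp k hk).trans hT)).trans (by omega))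
    intro ij hij
    obtain ⟨a1, a2, a3, a4⟩ := hF ij hij
    simp only [Finset.mem_filter, Finset.mem_product, Finset.mem_range]
    exact ⟨⟨a1, a2⟩, a3, a4⟩
  have golC : ∀ i j k l, i < K → j < K → k < K → l < K → i ≠ j → k ≠ l → (i, j) ≠ (k, l) →
      c i + c l + 4 * N1 < c k + c j ∨ c k + c j + 4 * N1 < c i + c l :=
    fun i j k l _ _ _ _ h1 h2 h3 => hgol i j k l h1 h2 h3
  refine Top5_110.top_sem (φ := fun w => (w.map f).prod) (act := actS)
    (XX := InstB_11.XX (WallU_228.Wo n Sw) z)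
    (Bad := InstB_11.BadX (WallU_228.Wo n Sw) z N1 p0 (Sp_69.BadN Ms M m b))
    (T := InstB_11.TT f actS p0 (fun w => nuE w 1) nu)
    (N1 := 0) (N2 := 1)
    (L1 := InstB_11.L1 f actS p0 (fun w => nuE w 1) lam) (L2 := InstB_11.L2 K c lam2)
    (by simp) (fun u w => by simp) (fun v => by funext x; simp [actS])
    (fun v s t => by funext x; simp [actS, mul_assoc]) ?_
    (InstB_11.pc (by omega)) (fun u hu => hu.1) ?_ H1 H2 ?_ ?_ ?_ ?_ ?_ ?_ s
  · -- faithful
    intro s t h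
    have h1 := congrFun (h (fun x => if x = s then 1 else 0)) 1
    simp only [actS, mul_one, if_true] at h1
    by_contra hne
    rw [if_neg (fun h => hne h.symm)] at h1
    exact one_ne_zero h1
  · intro u _ v v'
    exact H14_82.hT (f := f) (act := actS) (nu1 := nu) (nu2 := fun w => nuE w 1)
      (fun a b s => by funext x; simp [actS]) (fun v s t => by funext x; simp [actS, mul_assoc])
      p0 u v v'
  · intro x y
    have := H3 x y
    rw [XX_eq] at this
    exact this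
  · intro s
    have := H4 s
    rw [XX_eq] at this
    exact this.mono (by norm_num)
  · intro v
    refine (List.finite_length_le α (p0 + N1)).subset ?_
    rintro p ⟨h1, h2⟩
    have := g1 _ _ h2
    rw [List.length_drop] at this
    show p.length ≤ p0 + N1
    omega
  · intro v
    refine (List.finite_length_le α p0).subset ?_
    rintro p ⟨k, hk, h1, -⟩
    have := hcp k hk
    show p.length ≤ p0
    omega
  · intro u hu hb x t ht
    rw [pow_zero, Language.mem_one] at ht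
    subst ht
    obtain ⟨p, q, y, h1, h2, h3⟩ := InstB_11.C1 hWL f actS (z := z) (N1 := N1) (p0 := p0)
      (La := p0) (BadT := Sp_69.BadN Ms M m b) (fun w => nuE w 1) nu lam rho (by omega)
      (fun p v h => (g1 p v h).le) (fun p q v b h1 h2 _ => g2 p q v b h1 h2)
      (fun u _ hB v => by
        unfold Sp_69.BadN at hB
        push Not at hB
        obtain ⟨p, q, h1, h2, v', h3⟩ := g3 u hB.1
          (fun j hj => ⟨(hB.2 j hj).1, by have := (hB.2 j hj).2; omega⟩) v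
        exact ⟨p, q, h1.symm, h2, by rw [h3]; rfl⟩) u hu hb x
    exact ⟨p, q, y, by rw [List.append_nil]; exact h1, h2, h3⟩
  · intro u hu x t ht
    rw [pow_one] at ht
    exact InstB_11.C2 hWL f actS (z := z) (N1 := N1) (p0 := p0) (La := p0) (K := K) (C0 := r + m)
      (R := 2 + 2 * (r + m)) (BadT := Sp_69.BadN Ms M m b) c nu lam2 rho2 nuE (by omega) (by omega)
      (by omega) hcp e1 e2 hC0 golC spC u t hu ht x

end Crest.Agent.R320.Fin_101
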