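import Mathlib

/-! Row 320 (helper425): the two schemes on the block code of left-looking walls, in the form of
467's `top5`, from: a gadget for unknown total (`lam rho nu BT`, all texts), a ruler `x`, an exact
gadget with redundancy (`lam2 rho2 nu2`). Semantic right words. -/

set_option autoImplicit false

namespace Crest.Agent.R320.InstA_425

variable {α : Type*} {S V : Type*} [Monoid S] [AddCommGroup V]

/-- value of a word -/
abbrev pr (φ : α → S) (w : List α) : S := (w.map φ).prod

/-- the data of the construction -/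
structure Dat (α S V : Type*) where
  φ : α → S
  act : V → S → V
  W : List α → Prop
  n : ℕ
  g : ℕ
  z : ℕ
  p0 : ℕ
  N : ℕ
  K : ℕ
  C0 : ℕ
  x : ℕ → ℕ
  BT : ℕ → Prop
  lam : List α → Option V
  rho : List α → Option V
  nu : List α → V
  lam2 : ℕ → List α → Option V
  rho2 : ℕ → List α → Option V
  nu2 : List α → V

variable (D : Dat α S V)

def Dat.XX : Set (List α) :=
  {X | D.z ≤ X.length ∧ D.W X ∧ ∀ t, D.z ≤ t → t < X.length → ¬ D.W (X.take t)}

/-- end wall band -/
def Dat.E (X : List α) : Prop :=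
  ∃ t, D.z < t + D.N ∧ t < D.z + D.N ∧ t ≤ X.length ∧ D.W (X.take t)

def Dat.Bad : Set (List α) :=
  {X | X ∈ D.XX ∧ (D.E X ∨ D.BT (X.length - D.p0))}

def Dat.ν (X : List α) : V :=
  D.act (D.nu2 (X.take D.p0)) (pr D.φ (X.drop D.p0)) + D.nu (X.drop D.p0)

def Dat.T (v : V) (X : List α) : V := D.act v (pr D.φ X) + D.ν X

def Dat.LP1 (v : V) : Set (List α) :=
  {P | ∃ X0 p, P = X0 ++ p ∧ X0.length = D.p0 ∧
    D.lam p = some (D.act v (pr D.φ X0) + D.nu2 X0)}

def Dat.RQ1 (b : V) : Set (List α) :=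
  {Q | ∀ v P, P ∈ D.LP1 v → P ++ Q ∈ D.XX ∧ D.T v (P ++ Q) = b}

def Dat.LP2 (v : V) : Set (List α) :=
  {P | ∃ k, k < D.K ∧ P.length = D.x k ∧ D.lam2 k P = some v}

def Dat.RQ2 (b : V) : Set (List α) :=
  {Q | Q ≠ [] ∧ ∀ v P, P ∈ D.LP2 v →
    (∃ X ∈ D.XX, X ∉ D.Bad ∧ X <+: P ++ Q) ∨
    (∃ X1 ∈ D.Bad, ∃ X2 ∈ D.Bad, P ++ Q = X1 ++ X2 ∧ D.T (D.T v X1) X2 = b)}

structure Dat.Ok : Prop where
  hadd : ∀ a b s, D.act (a + b) s = D.act a s + D.act b s
  hmul : ∀ v s t, D.act v (s * t) = D.act (D.act v s) t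
  loc : ∀ P Q : List α, D.n ≤ Q.length → (D.W (P ++ Q) ↔ D.W Q)
  gap : ∀ (X : List α) s t, D.n ≤ s → s < t → t ≤ X.length → D.W (X.take s) → D.W (X.take t) →
    s + D.g < t
  hg : 2 * D.p0 + 2 * D.N < D.g
  hz : 3 * D.p0 + 3 * D.N + D.n < D.z
  hx : ∀ k, k < D.K → D.x k ≤ D.p0
  hruler : ∀ a b c d, a < D.K → b < D.K → c < D.K → d < D.K → a ≠ b →
    D.x a + D.x d < D.x b + D.x c + 4 * D.N → D.x b + D.x c < D.x a + D.x d + 4 * D.N →
    a = c ∧ b = d
  hspoil : ∀ T, D.p0 ≤ T → (∃ F : Finset (ℕ × ℕ), F.card ≤ D.C0 ∧ ∀ a b, a < D.K → b < D.K →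
    a ≠ b → D.BT (T + D.x a - D.x b) → (a, b) ∈ F)
  lam_len : ∀ p v, D.lam p = some v → p.length < D.N
  sound : ∀ p q v r, D.lam p = some v → D.rho q = some r →
    r = D.act v (pr D.φ (p ++ q)) + D.nu (p ++ q)
  compl : ∀ u : List α, 2 * D.N ≤ u.length → ¬ D.BT u.length → ∀ v, ∃ p q, p ++ q = u ∧
    D.lam p = some v ∧ ∃ r, D.rho q = some r
  sound2 : ∀ k, k < D.K → ∀ P Q v b, P.length = D.x k → D.lam2 k P = some v →
    D.rho2 k Q = some b → b = D.act v (pr D.φ (P ++ Q)) + D.nu2 (P ++ Q)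
  compl2 : ∀ (u : List α) (v : V), u.length = D.p0 → ∃ I : Finset ℕ, 2 * D.C0 + 2 ≤ I.card ∧
    ∀ k ∈ I, k < D.K ∧ D.lam2 k (u.take (D.x k)) = some v ∧ ∃ b, D.rho2 k (u.drop (D.x k)) = some b

variable {D}

theorem T_eq (h : D.Ok) (v : V) (X : List α) : D.T v X =
    D.act (D.act v (pr D.φ (X.take D.p0)) + D.nu2 (X.take D.p0)) (pr D.φ (X.drop D.p0)) +
      D.nu (X.drop D.p0) := by
  have e : pr D.φ X = pr D.φ (X.take D.p0) * pr D.φ (X.drop D.p0) := by
    rw [← List.prod_append, ← List.map_append, List.take_append_drop]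
  unfold Dat.T Dat.ν
  rw [e, h.hmul, h.hadd, add_assoc]

theorem XX_nil (h : D.Ok) : ([] : List α) ∉ D.XX := by
  rintro ⟨h1, -⟩
  have := h.hz
  simp at h1
  omega

theorem XX_code (h : D.Ok) : ∀ X ∈ D.XX, ∀ Y ∈ D.XX, X <+: Y → X = Y := by
  rintro X ⟨h1, h2, h3⟩ Y ⟨g1, g2, g3⟩ ⟨r, rfl⟩
  by_contra hne
  have hr : r ≠ [] := fun e => hne (by simp [e])
  have hl : 0 < r.length := List.length_pos_iff.2 hr
  apply g3 X.length h1 (by simp; omega)
  simpa using h2

/-- change of the letters left of the place and shift by less than `N` -/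
theorem shift (h : D.Ok) {P P' q : List α} (hX : P ++ q ∈ D.XX)
    (hE : ¬ D.E (P ++ q)) (hP : P.length < D.p0 + D.N) (hP' : P'.length < D.p0 + D.N)
    (h1 : P'.length < P.length + D.N) (h2 : P.length < P'.length + D.N) : P' ++ q ∈ D.XX := by
  obtain ⟨x1, x2, x3⟩ := hX
  have hz := h.hz
  have hlen : D.z + D.N ≤ (P ++ q).length := by
    by_contra hc
    apply hE
    refine ⟨(P ++ q).length, by omega, by omega, le_rfl, ?_⟩
    rw [List.take_length]; exact x2
  simp only [List.length_append] at hlen x1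
  have hq : D.n ≤ q.length := by omega
  refine ⟨by simp only [List.length_append]; omega, ?_, ?_⟩
  · rw [h.loc P' q hq]
    rwa [h.loc P q hq] at x2
  · intro t ht1 ht2 hw
    simp only [List.length_append] at ht2
    have e1 : (P' ++ q).take t = P' ++ q.take (t - P'.length) := by
      rw [List.take_append, List.take_of_length_le (by omega)]
    have hs : D.n ≤ (q.take (t - P'.length)).length := by
      rw [List.length_take]; omega
    rw [e1, h.loc _ _ hs] at hw
    have e2 : (P ++ q).take (P.length + (t - P'.length)) = P ++ q.take (t - P'.length) := by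
      rw [List.take_append, List.take_of_length_le (by omega)]
      congr 2; omega
    have hw2 : D.W ((P ++ q).take (P.length + (t - P'.length))) := by
      rw [e2, h.loc _ _ hs]; exact hw
    by_cases hc : D.z ≤ P.length + (t - P'.length)
    · exact x3 _ hc (by simp only [List.length_append]; omega) hw2
    · exact hE ⟨P.length + (t - P'.length), by omega, by omega,
        by simp only [List.length_append]; omega, hw2⟩

theorem c1 (h : D.Ok) : ∀ X ∈ D.XX, X ∉ D.Bad → ∀ v, ∃ P Q, P ++ Q = X ∧ P ∈ D.LP1 v ∧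
    Q ∈ D.RQ1 (D.T v X) := by
  intro X hX hB v
  have hz := h.hz
  have hE : ¬ D.E X := fun hE => hB ⟨hX, Or.inl hE⟩
  have hBT : ¬ D.BT (X.length - D.p0) := fun hE => hB ⟨hX, Or.inr hE⟩
  have hzl : D.z ≤ X.length := hX.1
  have hlen : (X.drop D.p0).length = X.length - D.p0 := List.length_drop
  obtain ⟨p, q, e, hl, r, hr⟩ := h.compl (X.drop D.p0) (by omega) (by rw [hlen]; exact hBT)
    (D.act v (pr D.φ (X.take D.p0)) + D.nu2 (X.take D.p0))
  have hp := h.lam_len p _ hl
  have h0 : (X.take D.p0).length = D.p0 := by rw [List.length_take]; omega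
  have eX : (X.take D.p0 ++ p) ++ q = X := by
    rw [List.append_assoc, e, List.take_append_drop]
  refine ⟨X.take D.p0 ++ p, q, eX, ⟨_, _, rfl, h0, hl⟩, ?_⟩
  have hT : D.T v X = r := by
    rw [T_eq h, ← e]
    exact (h.sound p q _ r hl hr).symm
  rintro v' P' ⟨X0', p', rfl, h0', hl'⟩
  have hp' := h.lam_len p' _ hl'
  refine ⟨?_, ?_⟩
  · refine shift h (P := X.take D.p0 ++ p) (by rw [eX]; exact hX) (by rw [eX]; exact hE) ?_ ?_ ?_ ?_
    all_goals simp only [List.length_append]
    all_goals omega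
  · rw [hT, T_eq h]
    have e1 : (X0' ++ p' ++ q).take D.p0 = X0' := by
      rw [List.append_assoc, List.take_append_of_le_length (by omega), List.take_of_length_le (by omega)]
    have e2 : (X0' ++ p' ++ q).drop D.p0 = p' ++ q := by
      rw [List.append_assoc, List.drop_append_of_le_length (by omega),
        List.drop_eq_nil_of_le (by omega), List.nil_append]
    rw [e1, e2]
    exact (h.sound p' q _ r hl' hr).symm

/-- first block -/
theorem exists_block (U : List α) (t : ℕ) (h1 : D.z ≤ t) (h2 : t ≤ U.length)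
    (hw : D.W (U.take t)) : ∃ X ∈ D.XX, X <+: U := by
  classical
  have hex : ∃ t, D.z ≤ t ∧ t ≤ U.length ∧ D.W (U.take t) := ⟨t, h1, h2, hw⟩
  obtain ⟨a1, a2, a3⟩ := Nat.find_spec hex
  refine ⟨U.take (Nat.find hex), ⟨?_, a3, ?_⟩, List.take_prefix _ _⟩
  · rw [List.length_take]; omega
  · intro s hs1 hs2 hw'
    rw [List.length_take] at hs2
    rw [List.take_take, Nat.min_eq_left (by omega)] at hw'
    exact Nat.find_min hex (m := s) (by omega) ⟨hs1, by omega, hw'⟩

/-- pairs which see a bad candidate -/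
def BC (D : Dat α S V) (U : List α) (k k' : ℕ) : Prop :=
  ∃ P' : List α, P'.length = D.x k' ∧ ∃ X ∈ D.Bad, X <+: P' ++ U.drop (D.x k)

/-- transfer of a wall -/
theorem wall_tr (h : D.Ok) {U P' : List α} {k k' t : ℕ} (hk : k < D.K) (hk' : k' < D.K)
    (hP : P'.length = D.x k') (ht : D.p0 + D.n ≤ t)
    (htl : t ≤ (P' ++ U.drop (D.x k)).length) (hkU : D.x k ≤ U.length) :
    D.W ((P' ++ U.drop (D.x k)).take t) ↔ D.W (U.take (t + D.x k - D.x k')) := by
  have hx := h.hx k hk
  have hx' := h.hx k' hk'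
  simp only [List.length_append, List.length_drop] at htl
  have e1 : (P' ++ U.drop (D.x k)).take t = P' ++ (U.drop (D.x k)).take (t - D.x k') := by
    rw [List.take_append, List.take_of_length_le (by omega), hP]
  have e2 : U.take (t + D.x k - D.x k') = U.take (D.x k) ++ (U.drop (D.x k)).take (t - D.x k') := by
    have e3 : t + D.x k - D.x k' = D.x k + (t - D.x k') := by omega
    rw [e3, List.take_add]
  have hs : D.n ≤ ((U.drop (D.x k)).take (t - D.x k')).length := by
    rw [List.length_take, List.length_drop]; omega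
  rw [e1, e2, h.loc _ _ hs, h.loc _ _ hs]

theorem spoil (h : D.Ok) (U : List α) (hU : D.z ≤ U.length) :
    ∃ Sp : Finset ℕ, Sp.card ≤ 2 * D.C0 + 1 ∧
      ∀ k k', k < D.K → k' < D.K → k ≠ k' → BC D U k k' → k ∈ Sp := by
  classical
  have hz := h.hz
  have hg := h.hg
  let WU : ℕ → Prop := fun t => D.z ≤ t + D.p0 + D.N ∧ t ≤ U.length ∧ D.W (U.take t)
  have hsep : ∀ s t, WU s → WU t → s < t → s + D.g < t := by
    rintro s t ⟨s1, s2, s3⟩ ⟨t1, t2, t3⟩ hst
    exact h.gap U s t (by omega) hst t2 s3 t3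
  let w0 : ℕ := sInf {t | WU t ∧ D.z ≤ t + D.p0}
  let w1 : ℕ := sInf {t | WU t ∧ D.z ≤ t + D.p0 ∧ w0 < t}
  -- band pairs
  let EP : ℕ → ℕ → Prop := fun k k' => ∃ t, WU t ∧ D.z + D.x k < t + D.x k' + D.N ∧
    t + D.x k' < D.z + D.x k + D.N
  let SE : Finset ℕ := (Finset.range D.K).filter (fun k => ∃ k' < D.K, k ≠ k' ∧ EP k k')
  have hSE : SE.card ≤ 1 := by
    rw [Finset.card_le_one]
    intro a ha b hb
    simp only [SE, Finset.mem_filter, Finset.mem_range] at ha hb
    obtain ⟨ha, a', ha', hne, t, ht, t1, t2⟩ := ha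
    obtain ⟨hb, b', hb', hne', s, hs, s1, s2⟩ := hb
    have xa := h.hx a ha
    have xa' := h.hx a' ha'
    have xb := h.hx b hb
    have xb' := h.hx b' hb'
    have hts : t = s := by
      rcases lt_trichotomy t s with hlt | heq | hgt
      · have := hsep t s ht hs hlt; omega
      · exact heq
      · have := hsep s t hs ht hgt; omega
    subst hts
    exact (h.hruler a a' b b' ha ha' hb hb' hne (by omega) (by omega)).1
  have hp : ∀ w : ℕ, ∃ F : Finset (ℕ × ℕ), F.card ≤ D.C0 ∧ (2 * D.p0 ≤ w → ∀ a b, a < D.K →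
      b < D.K → a ≠ b → D.BT (w - D.p0 + D.x a - D.x b) → (a, b) ∈ F) := by
    intro w
    by_cases hw : 2 * D.p0 ≤ w
    · obtain ⟨F, h1, h2⟩ := h.hspoil (w - D.p0) (by omega)
      exact ⟨F, h1, fun _ => h2⟩
    · exact ⟨∅, by simp, fun hh => absurd hh hw⟩
  obtain ⟨F0, hF0, hF0'⟩ := hp w0
  obtain ⟨F1, hF1, hF1'⟩ := hp w1
  refine ⟨SE ∪ (F0.image Prod.snd ∪ F1.image Prod.snd), ?_, ?_⟩
  · refine (Finset.card_union_le _ _).trans ?_
    have := (Finset.card_union_le (F0.image Prod.snd) (F1.image Prod.snd))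
    have h3 : (F0.image Prod.snd).card ≤ F0.card := Finset.card_image_le
    have h4 : (F1.image Prod.snd).card ≤ F1.card := Finset.card_image_le
    omega
  · rintro k k' hk hk' hne ⟨P', hP', X, ⟨hX, hXB⟩, hpre⟩
    have xk := h.hx k hk
    have xk' := h.hx k' hk'
    have hkU : D.x k ≤ U.length := by omega
    obtain ⟨x1, x2, x3⟩ := hX
    have hXl : X.length ≤ (P' ++ U.drop (D.x k)).length := hpre.length_le
    have hXe : ∀ t, t ≤ X.length → X.take t = (P' ++ U.drop (D.x k)).take t := by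
      intro t ht
      obtain ⟨r, hr⟩ := hpre
      rw [← hr, List.take_append_of_le_length ht]
    have hlen : (P' ++ U.drop (D.x k)).length = D.x k' + (U.length - D.x k) := by
      rw [List.length_append, List.length_drop, hP']
    have htr : ∀ t, D.p0 + D.n ≤ t → t ≤ X.length →
        (D.W (X.take t) ↔ D.W (U.take (t + D.x k - D.x k'))) := by
      intro t h1 h2
      rw [hXe t h2]
      exact wall_tr h hk hk' hP' h1 (by omega) hkU
    rcases hXB with ⟨t, t1, t2, t3, t4⟩ | hBT
    · refine Finset.mem_union_left _ ?_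
      simp only [SE, Finset.mem_filter, Finset.mem_range]
      refine ⟨hk, k', hk', hne, t + D.x k - D.x k', ⟨by omega, by omega, ?_⟩, by omega, by omega⟩
      exact (htr t (by omega) t3).1 t4
    · refine Finset.mem_union_right _ ?_
      -- the end wall
      set w : ℕ := X.length + D.x k - D.x k' with hw
      have hWw : WU w := by
        refine ⟨by omega, by omega, ?_⟩
        have := (htr X.length (by omega) le_rfl).1 (by rw [List.take_length]; exact x2)
        exact this
      have hfirst : ∀ t, WU t → D.z ≤ t + D.x k' - D.x k → D.x k ≤ t + D.x k' → w ≤ t := by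
        intro t ht h1 h2
        by_contra hc
        push Not at hc
        have := x3 (t + D.x k' - D.x k) h1 (by omega)
        apply this
        rw [htr _ (by omega) (by omega)]
        have e : t + D.x k' - D.x k + D.x k - D.x k' = t := by omega
        rw [e]
        exact ht.2.2
      have hne0 : ({t | WU t ∧ D.z ≤ t + D.p0} : Set ℕ).Nonempty := ⟨w, hWw, by omega⟩
      have hw0 : WU w0 ∧ D.z ≤ w0 + D.p0 := Nat.sInf_mem hne0
      have hle0 : w0 ≤ w := Nat.sInf_le ⟨hWw, by omega⟩
      have hBT' : D.BT (w - D.p0 + D.x k' - D.x k) := by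
        have e : w - D.p0 + D.x k' - D.x k = X.length - D.p0 := by omega
        rw [e]; exact hBT
      rcases eq_or_lt_of_le hle0 with heq | hlt
      · refine Finset.mem_union_left _ (Finset.mem_image.2 ⟨(k', k), ?_, rfl⟩)
        refine hF0' (by omega) k' k hk' hk (Ne.symm hne) ?_
        rw [heq]; exact hBT'
      · refine Finset.mem_union_right _ (Finset.mem_image.2 ⟨(k', k), ?_, rfl⟩)
        have hne1 : ({t | WU t ∧ D.z ≤ t + D.p0 ∧ w0 < t} : Set ℕ).Nonempty :=
          ⟨w, hWw, by omega, hlt⟩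
        have hw1 : WU w1 ∧ D.z ≤ w1 + D.p0 ∧ w0 < w1 := Nat.sInf_mem hne1
        have hle1 : w1 ≤ w := Nat.sInf_le ⟨hWw, by omega, hlt⟩
        have hgap := hsep w0 w1 hw0.1 hw1.1 hw1.2.2
        have hge : w ≤ w1 := hfirst w1 hw1.1 (by omega) (by omega)
        have heq : w1 = w := le_antisymm hle1 hge
        refine hF1' (by omega) k' k hk' hk (Ne.symm hne) ?_
        rw [heq]; exact hBT'

theorem c2 (h : D.Ok) : ∀ X ∈ D.Bad, ∀ X' ∈ D.Bad, ∀ v, ∃ P Q, P ++ Q = X ++ X' ∧ P ∈ D.LP2 v ∧
    Q ∈ D.RQ2 (D.T (D.T v X) X') := by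
  intro X hX X' hX' v
  have hz := h.hz
  have hXz : D.z ≤ X.length := hX.1.1
  have hX'z : D.z ≤ X'.length := hX'.1.1
  have h0 : (X.take D.p0).length = D.p0 := by rw [List.length_take]; omega
  obtain ⟨I, hI, hI'⟩ := h.compl2 (X.take D.p0) v h0
  obtain ⟨Sp, hSp, hSp'⟩ := spoil h (X ++ X') (by simp only [List.length_append]; omega)
  obtain ⟨k, hkI, hkS⟩ : ∃ k ∈ I, k ∉ Sp := by
    by_contra hc
    push Not at hc
    have := Finset.card_le_card (show I ⊆ Sp from hc)
    omega
  obtain ⟨hk, hl, r, hr⟩ := hI' k hkI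
  have xk := h.hx k hk
  have e1 : (X.take D.p0).take (D.x k) = X.take (D.x k) := by
    rw [List.take_take, Nat.min_eq_left xk]
  rw [e1] at hl
  have hdrop : (X ++ X').drop (D.x k) = X.drop (D.x k) ++ X' :=
    List.drop_append_of_le_length (by omega)
  have htl : (X.take (D.x k)).length = D.x k := by rw [List.length_take]; omega
  refine ⟨X.take (D.x k), X.drop (D.x k) ++ X', by rw [← List.append_assoc, List.take_append_drop],
    ⟨k, hk, htl, hl⟩, ?_, ?_⟩
  · intro he
    have := congrArg List.length he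
    simp only [List.length_append, List.length_nil] at this
    omega
  rintro v' P' ⟨k', hk', hP', hl'⟩
  have xk' := h.hx k' hk'
  -- the first block
  obtain ⟨Z, hZ, hZp⟩ : ∃ Z ∈ D.XX, Z <+: P' ++ (X.drop (D.x k) ++ X') := by
    refine exists_block _ (P' ++ (X.drop (D.x k) ++ X')).length ?_ le_rfl ?_
    · simp only [List.length_append, List.length_drop]; omega
    · rw [List.take_length, ← List.append_assoc, h.loc _ _ (by omega)]
      exact hX'.1.2.1
  by_cases hZB : Z ∈ D.Bad
  · right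
    have hkk : k' = k := by
      by_contra hne
      exact hkS (hSp' k k' hk hk' (Ne.symm hne) ⟨P', hP', Z, hZB, by rw [hdrop]; exact hZp⟩)
    subst hkk
    -- the block `P' ++ X.drop (x k)` 
    have hlen1 : (P' ++ X.drop (D.x k')).length = X.length := by
      simp only [List.length_append, List.length_drop]; omega
    have htr : ∀ t, D.p0 + D.n ≤ t → t ≤ X.length →
        (D.W ((P' ++ X.drop (D.x k')).take t) ↔ D.W (X.take t)) := by
      intro t h1 h2
      rw [wall_tr h hk hk' hP' h1 (by omega) (by omega)]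
      have e : t + D.x k' - D.x k' = t := by omega
      rw [e]
    have hXX : P' ++ X.drop (D.x k') ∈ D.XX := by
      refine ⟨by omega, ?_, ?_⟩
      · have := htr X.length (by omega) le_rfl
        rw [List.take_length, ← hlen1, List.take_length] at this
        exact this.2 hX.1.2.1
      · intro t h1 h2 hw
        rw [hlen1] at h2
        rw [htr t (by omega) (by omega)] at hw
        exact hX.1.2.2 t h1 h2 hw
    have hB1 : P' ++ X.drop (D.x k') ∈ D.Bad := by
      refine ⟨hXX, ?_⟩
      rcases hX.2 with ⟨t, t1, t2, t3, t4⟩ | hb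
      · left
        exact ⟨t, t1, t2, by omega, (htr t (by omega) t3).2 t4⟩
      · right
        rw [hlen1]; exact hb
    refine ⟨_, hB1, X', hX', by simp, ?_⟩
    have hT : D.T v' (P' ++ X.drop (D.x k')) = D.T v X := by
      rw [T_eq h, T_eq h v X]
      have e2 : (P' ++ X.drop (D.x k')).drop D.p0 = X.drop D.p0 := by
        rw [List.drop_append, List.drop_eq_nil_of_le (by omega), List.nil_append, List.drop_drop,
          hP']
        congr 1; omega
      have e3 : (P' ++ X.drop (D.x k')).take D.p0 = P' ++ (X.take D.p0).drop (D.x k') := by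
        rw [List.take_append, List.take_of_length_le (by omega), hP', List.drop_take]
      have e4 : X.take (D.x k') ++ (X.take D.p0).drop (D.x k') = X.take D.p0 := by
        rw [← e1, List.take_append_drop]
      have r1 := h.sound2 k' hk' P' _ v' r hP' hl' hr
      have r2 := h.sound2 k' hk' (X.take (D.x k')) _ v r htl hl hr
      rw [e4] at r2
      rw [e2, e3, ← r1, ← r2]
    rw [hT]
  · left
    exact ⟨Z, hZ, hZB, hZp⟩

end Crest.Agent.R320.InstA_425
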