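import Crest.Agent.R320.BddReg_746
import Crest.Agent.R320.Reg_236

/-!
# Row 320: definability of the natural chain with left-looking walls (helper976)
-/

set_option autoImplicit false

namespace Crest.Agent.R320.P4nat_976

open Crest.RegLang Crest.Agent.R320.Hk_851 Crest.Agent.R320.BddReg_746

universe u

variable {α : Type u}

/-- left-looking wall rule with window `n` -/
structure LW (Wo : List α → Prop) (n : ℕ) : Prop where
  loc : ∀ P Q : List α, n ≤ Q.length → (Wo (P ++ Q) ↔ Wo Q)
  len : ∀ Q : List α, Wo Q → n ≤ Q.length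

/-- blocks of the natural chain -/
def XX (Wo : List α → Prop) (z : ℕ) : Set (List α) :=
  {X | z ≤ X.length ∧ Wo X ∧ ∀ t, z ≤ t → t < X.length → ¬ Wo (X.take t)}

/-- no wall at a place `≥ z` (the end included) -/
def NW (Wo : List α → Prop) (z : ℕ) : Set (List α) :=
  {X | ∀ t, z ≤ t → t ≤ X.length → ¬ Wo (X.take t)}

/-- the language of a predicate -/
def lg (p : List α → Prop) : Language α := {w | p w}

theorem mem_lg {p : List α → Prop} {w : List α} : w ∈ lg p ↔ p w := Iff.rfl

theorem lg_congr {p q : List α → Prop} (h : ∀ w, p w ↔ q w) : lg p = lg q := by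
  ext w; exact h w

theorem reg_finite {p : List α → Prop} (h : ({w | p w} : Set (List α)).Finite) : (lg p).IsRegular :=
  Crest.Agent.R320.Reg_236.HL.isRegular (HL.finite (k := 0) h)

theorem reg_top : (⊤ : Language α).IsRegular :=
  Crest.Agent.R320.Reg_236.HL.isRegular (HL.top (k := 0))

theorem reg_and {p q : List α → Prop} (hL : (lg p).IsRegular) (hM : (lg q).IsRegular) :
    (lg fun w => p w ∧ q w).IsRegular := hL.inf hM

theorem reg_not {p : List α → Prop} (hL : (lg p).IsRegular) : (lg fun w => ¬ p w).IsRegular :=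
  hL.compl

theorem reg_mul {p q : List α → Prop} (hL : (lg p).IsRegular) (hM : (lg q).IsRegular) :
    (lg fun w => ∃ a b, p a ∧ q b ∧ w = a ++ b).IsRegular := by
  have h := Crest.Agent.R320.Reg_236.isRegular_mul hL hM
  have e : (lg fun w => ∃ a b, p a ∧ q b ∧ w = a ++ b) = lg p * lg q := by
    ext w
    rw [Language.mem_mul, mem_lg]
    constructor
    · rintro ⟨a, b, ha, hb, rfl⟩; exact ⟨a, ha, b, hb, rfl⟩
    · rintro ⟨a, ha, b, hb, rfl⟩; exact ⟨a, b, ha, hb, rfl⟩
  rw [e]; exact h

theorem reg_true : (lg fun _ : List α => True).IsRegular := reg_top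

theorem reg_Wo [Finite α] {Wo : List α → Prop} {n : ℕ} (h : LW Wo n) :
    (lg Wo).IsRegular := by
  have hF : (lg fun Q : List α => Q.length ≤ n ∧ Wo Q).IsRegular :=
    reg_finite ((List.finite_length_le α n).subset fun w hw => hw.1)
  have hm := reg_mul reg_true hF
  rw [lg_congr (q := Wo)] at hm
  · exact hm
  intro Q
  constructor
  · rintro ⟨A, B, -, hB, rfl⟩
    exact (h.loc A B (h.len B hB.2)).2 hB.2
  · intro hQ
    have hl := h.len Q hQ
    have hlen : (Q.drop (Q.length - n)).length = n := by rw [List.length_drop]; omega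
    refine ⟨Q.take (Q.length - n), Q.drop (Q.length - n), trivial, ⟨hlen.le, ?_⟩,
      (List.take_append_drop _ _).symm⟩
    rw [← h.loc (Q.take (Q.length - n)) _ hlen.ge, List.take_append_drop]
    exact hQ

theorem reg_len (z : ℕ) [Finite α] : (lg fun Q : List α => z ≤ Q.length).IsRegular := by
  have h : (lg fun Q : List α => Q.length < z).IsRegular :=
    reg_finite ((List.finite_length_lt α z))
  rw [lg_congr (q := fun Q : List α => ¬ (Q.length < z)) (fun w => not_lt.symm)]
  exact reg_not h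

/-- some wall at a place in `[z, |X|)` -/
theorem reg_wall_before [Finite α] {Wo : List α → Prop} {n : ℕ} (h : LW Wo n) (z : ℕ) :
    (lg fun X : List α => ∃ t, z ≤ t ∧ t < X.length ∧ Wo (X.take t)).IsRegular := by
  have h2 := reg_mul (reg_and (reg_len (α := α) z) (reg_Wo h)) (reg_len (α := α) 1)
  rw [lg_congr (q := fun X : List α => ∃ t, z ≤ t ∧ t < X.length ∧ Wo (X.take t))] at h2
  · exact h2
  intro X
  constructor
  · rintro ⟨A, B, ⟨hA1, hA2⟩, hB, rfl⟩
    refine ⟨A.length, hA1, by rw [List.length_append]; omega, ?_⟩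
    rw [List.take_left]; exact hA2
  · rintro ⟨t, h3, h4, h5⟩
    refine ⟨X.take t, X.drop t, ⟨?_, h5⟩, ?_, (List.take_append_drop _ _).symm⟩
    · rw [List.length_take]; omega
    · rw [List.length_drop]; omega

theorem reg_XX [Finite α] {Wo : List α → Prop} {n : ℕ} (h : LW Wo n) (z : ℕ) :
    (lg fun X => X ∈ XX Wo z).IsRegular := by
  have h2 := reg_and (reg_and (reg_len (α := α) z) (reg_Wo h)) (reg_not (reg_wall_before h z))
  rw [lg_congr (q := fun X => X ∈ XX Wo z)] at h2
  · exact h2
  intro X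
  constructor
  · rintro ⟨⟨a, b⟩, c⟩
    exact ⟨a, b, fun t h3 h4 h5 => c ⟨t, h3, h4, h5⟩⟩
  · rintro ⟨a, b, c⟩
    exact ⟨⟨a, b⟩, fun ⟨t, h3, h4, h5⟩ => c t h3 h4 h5⟩

theorem NW_eq {Wo : List α → Prop} {z : ℕ} {r : List α} :
    r ∈ NW Wo z ↔ ∀ X ∈ XX Wo z, ¬ X <+: r := by
  classical
  constructor
  · rintro h X ⟨h1, h2, h3⟩ ⟨Y, rfl⟩
    exact h X.length h1 (by rw [List.length_append]; omega) (by rw [List.take_left]; exact h2)
  · intro h t h1 h2 h3
    have hex : ∃ t, z ≤ t ∧ t ≤ r.length ∧ Wo (r.take t) := ⟨t, h1, h2, h3⟩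
    have ht0 := Nat.find_spec hex
    have hmin : ∀ s, s < Nat.find hex → ¬ (z ≤ s ∧ s ≤ r.length ∧ Wo (r.take s)) :=
      fun s hs => Nat.find_min hex hs
    generalize Nat.find hex = t0 at ht0 hmin
    refine h (r.take t0) ⟨?_, ht0.2.2, ?_⟩ (List.take_prefix _ _)
    · rw [List.length_take]; have := ht0.1; have := ht0.2.1; omega
    · intro s hs1 hs2 hs3
      rw [List.length_take] at hs2
      rw [List.take_take] at hs3
      have e : min s t0 = s := by omega
      rw [e] at hs3
      exact hmin s (by omega) ⟨hs1, by have := ht0.2.1; omega, hs3⟩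

theorem reg_NW [Finite α] {Wo : List α → Prop} {n : ℕ} (h : LW Wo n) (z : ℕ) :
    (lg fun X => X ∈ NW Wo z).IsRegular := by
  have h2 := reg_and (reg_not (reg_wall_before h z))
    (reg_not (reg_and (reg_len (α := α) z) (reg_Wo h)))
  rw [lg_congr (q := fun X => X ∈ NW Wo z)] at h2
  · exact h2
  intro X
  constructor
  · rintro ⟨a, b⟩ t h1 h2 h3
    rcases Nat.lt_or_ge t X.length with h4 | h4
    · exact a ⟨t, h1, h4, h3⟩
    · have e : X.take t = X := List.take_of_length_le h4
      rw [e] at h3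
      exact b ⟨by omega, h3⟩
  · intro hX
    refine ⟨fun ⟨t, h3, h4, h5⟩ => hX t h3 h4.le h5, fun ⟨h3, h4⟩ => ?_⟩
    refine hX X.length h3 le_rfl ?_
    rw [List.take_length]; exact h4

theorem prefix_code {Wo : List α → Prop} {z : ℕ} {X Y : List α} (hX : X ∈ XX Wo z)
    (hY : X ++ Y ∈ XX Wo z) : Y = [] := by
  by_contra hne
  have hl : 0 < Y.length := List.length_pos_iff.2 hne
  refine hY.2.2 X.length hX.1 (by rw [List.length_append]; omega) ?_
  rw [List.take_left]; exact hX.2.1

/-- languages inside `XX` -/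
theorem HL_XX [Finite α] {Wo : List α → Prop} {n z B R : ℕ} (h : LW Wo n)
    (hfew : ∀ X : List α, (∀ t, z ≤ t → t < X.length → ¬ Wo (X.take t)) →
      X ∈ (PN B R : Language α)) {p : List α → Prop} (hL : (lg p).IsRegular) :
    HL 1 ({X | X ∈ XX Wo z ∧ p X} : Language α) := by
  refine HL_one_of_regular (reg_and (reg_XX h z) hL) B R ?_
  intro w hw
  exact hfew w hw.1.2.2

theorem HL_NW [Finite α] {Wo : List α → Prop} {n z B R : ℕ} (h : LW Wo n)
    (hfew : ∀ X : List α, (∀ t, z ≤ t → t < X.length → ¬ Wo (X.take t)) →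
      X ∈ (PN B R : Language α)) {p : List α → Prop} (hL : (lg p).IsRegular) :
    HL 1 ({r | (∀ X ∈ XX Wo z, ¬ X <+: r) ∧ p r} : Language α) := by
  have h1 := HL_one_of_regular (reg_and (reg_NW h z) hL) B R (by
    intro w hw
    exact hfew w (fun t h1 h2 => hw.1 t h1 h2.le))
  refine h1.congr fun w => ?_
  constructor
  · rintro ⟨a, b⟩; exact ⟨NW_eq.2 a, b⟩
  · rintro ⟨a, b⟩; exact ⟨NW_eq.1 a, b⟩

/-- value languages are regular -/
theorem reg_value {S : Type*} [Monoid S] [Finite S] (f : α → S) (s : S) :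
    (lg fun w => (w.map f).prod = s).IsRegular := by
  classical
  have := Fintype.ofFinite S
  have hr : (lg fun w => (w.map f).prod = s).IsRegular := by
    rw [Language.isRegular_iff]
    refine ⟨S, inferInstance, ⟨fun x a => x * f a, 1, {s}⟩, ?_⟩
    ext w
    have key : ∀ (x : S) (w : List α),
        (⟨fun x a => x * f a, 1, {s}⟩ : DFA α S).evalFrom x w = x * (w.map f).prod := by
      intro x w
      induction w generalizing x with
      | nil => simp [DFA.evalFrom]
      | cons a w ih =>
        rw [DFA.evalFrom_cons, ih]; simp [mul_assoc]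
    rw [DFA.mem_accepts, mem_lg]
    show DFA.evalFrom _ _ w ∈ _ ↔ _
    rw [key, one_mul]; exact Iff.rfl
  exact hr

theorem reg_or {p q : List α → Prop} (hL : (lg p).IsRegular) (hM : (lg q).IsRegular) :
    (lg fun w => p w ∨ q w).IsRegular := hL.add hM

theorem reg_false : (lg fun _ : List α => False).IsRegular := by
  have h := reg_not (reg_true (α := α))
  rw [lg_congr (q := fun _ => False)] at h
  · exact h
  · intro w; simp

theorem reg_ex {ι : Type*} [Finite ι] {p : ι → List α → Prop} (h : ∀ i, (lg (p i)).IsRegular) :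
    (lg fun w => ∃ i, p i w).IsRegular := by
  classical
  have := Fintype.ofFinite ι
  have key : ∀ s : Finset ι, (lg fun w => ∃ i ∈ s, p i w).IsRegular := by
    intro s
    induction s using Finset.induction_on with
    | empty =>
      rw [lg_congr (q := fun _ => False)]
      · exact reg_false
      · intro w; simp
    | insert a s _ ih =>
      rw [lg_congr (q := fun w => p a w ∨ ∃ i ∈ s, p i w)]
      · exact reg_or (h a) ih
      · intro w; simp
  rw [lg_congr (q := fun w => ∃ i ∈ Finset.univ, p i w)]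
  · exact key _
  · intro w; simp

/-- `u ++ Y` with `Y ∈ L` -/
theorem reg_word_mul {p : List α → Prop} (hL : (lg p).IsRegular) (w : List α) :
    (lg fun X => ∃ Y, p Y ∧ X = w ++ Y).IsRegular := by
  have h := reg_mul (p := fun v => v = w)
    (Crest.Agent.R320.Reg_236.HL.isRegular (HL.word (k := 0) w)) hL
  rw [lg_congr (q := fun X => ∃ Y, p Y ∧ X = w ++ Y)] at h
  · exact h
  intro X
  constructor
  · rintro ⟨a, b, rfl, hb, rfl⟩; exact ⟨b, hb, rfl⟩
  · rintro ⟨Y, hY, rfl⟩; exact ⟨w, Y, rfl, hY, rfl⟩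

/-- sets decided by the first `p0` letters and a regular condition on the rest -/
theorem reg_split [Finite α] (p0 : ℕ) (C : List α → List α → Prop)
    (h : ∀ w : List α, (lg (C w)).IsRegular) :
    (lg fun X => p0 ≤ X.length ∧ C (X.take p0) (X.drop p0)).IsRegular := by
  have : Finite {w : List α // w.length = p0} := (List.finite_length_eq α p0).to_subtype
  have h1 := reg_ex (ι := {w : List α // w.length = p0})
    (p := fun w X => ∃ Y, C w.1 Y ∧ X = w.1 ++ Y) (fun w => reg_word_mul (h w.1) w.1)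
  rw [lg_congr (q := fun X => p0 ≤ X.length ∧ C (X.take p0) (X.drop p0))] at h1
  · exact h1
  intro X
  constructor
  · rintro ⟨⟨w, hw⟩, Y, hY, rfl⟩
    subst hw
    refine ⟨by simp, ?_⟩
    show C ((w ++ Y).take w.length) ((w ++ Y).drop w.length)
    rw [List.take_left, List.drop_left]; exact hY
  · rintro ⟨h1, h2⟩
    exact ⟨⟨X.take p0, by rw [List.length_take]; omega⟩, X.drop p0, h2,
      (List.take_append_drop _ _).symm⟩

/-- **(3)** the languages `{X ∈ XX | T v X = v'}` have height one, `T` the zone map with the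
noises of both schemes (`nu2` on the first `p0` letters, `nu1` on the rest). -/
theorem HL_T [Finite α] {V S : Type*} [Finite V] [AddCommGroup V] [Monoid S] [Finite S]
    {Wo : List α → Prop} {n z B R p0 : ℕ} (h : LW Wo n) (hz : p0 ≤ z)
    (hfew : ∀ X : List α, (∀ t, z ≤ t → t < X.length → ¬ Wo (X.take t)) →
      X ∈ (PN B R : Language α)) (f : α → S) (act : V → S → V) (nu2 nu1 : List α → V)
    (hnu : ∀ x, (lg fun Y => nu1 Y = x).IsRegular) (v v' : V) :
    HL 1 ({X | X ∈ XX Wo z ∧
      act (act v ((X.take p0).map f).prod + nu2 (X.take p0)) ((X.drop p0).map f).prod +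
        nu1 (X.drop p0) = v'} : Language α) := by
  have h1 := reg_split p0 (fun w Y => act (act v (w.map f).prod + nu2 w) (Y.map f).prod +
      nu1 Y = v') (fun w => by
    have h2 := reg_ex (ι := {q : S × V // act (act v (w.map f).prod + nu2 w) q.1 + q.2 = v'})
      (p := fun q Y => (Y.map f).prod = q.1.1 ∧ nu1 Y = q.1.2)
      (fun q => reg_and (reg_value f q.1.1) (hnu q.1.2))
    rw [lg_congr (q := fun Y => act (act v (w.map f).prod + nu2 w) (Y.map f).prod +
      nu1 Y = v')] at h2
    · exact h2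
    intro Y
    constructor
    · rintro ⟨⟨q, hq⟩, h3, h4⟩; rw [h3, h4]; exact hq
    · intro h3; exact ⟨⟨((Y.map f).prod, nu1 Y), h3⟩, rfl, rfl⟩)
  refine (HL_XX h hfew h1).congr fun X => ?_
  constructor
  · rintro ⟨a, b⟩; exact ⟨a, by have := a.1; omega, b⟩
  · rintro ⟨a, -, b⟩; exact ⟨a, b⟩

/-- tails -/
theorem HL_tail [Finite α] {S : Type*} [Monoid S] [Finite S]
    {Wo : List α → Prop} {n z B R : ℕ} (h : LW Wo n)
    (hfew : ∀ X : List α, (∀ t, z ≤ t → t < X.length → ¬ Wo (X.take t)) →
      X ∈ (PN B R : Language α)) (f : α → S) (s : S) :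
    HL 1 ({r | (∀ X ∈ XX Wo z, ¬ X <+: r) ∧ (r.map f).prod = s} : Language α) :=
  HL_NW h hfew (reg_value f s)

end Crest.Agent.R320.P4nat_976
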