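import Crest.Agent.R320.Fin1_102
import Crest.Agent.R320.ExactR_237
import Crest.Agent.R320.WallU_228
import Crest.Agent.R320.InstA_425
import Crest.Agent.R320.Top5_467
import Crest.Agent.R320.P4nat_976
import Crest.Agent.R320.Bridge_975
import Crest.Agent.R320.RegBd_11
import Crest.Agent.R320.Univ_188

/-!
# Row 320, helper102: last assembly
-/

set_option autoImplicit false

namespace Crest.Agent.R320.Fin_102

open Crest.RegLang Crest.Agent.R320 Crest.Agent.R320.Hk_851 Crest.Agent.R320.P4nat_976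
  Crest.Agent.R320.Blk467

theorem hl_of_reg {α : Type} [Finite α] {Wo : List α → Prop} {n R B : ℕ} (z : ℕ)
    (hloc : ∀ P Q : List α, n ≤ Q.length → (Wo (P ++ Q) ↔ Wo Q))
    (hlen : ∀ P, Wo P → n ≤ P.length)
    (hp : ∀ u : List α, (∀ t < u.length, ¬ Wo (u.take t)) → CompR_11.Pieces R B u)
    {L : Language α} (hL : L.IsRegular)
    (hfree : ∀ w ∈ L, ∀ t, z ≤ t → t < w.length → ¬ Wo (w.take t)) : HL 1 L := by
  refine RegBd_11.reg_pieces hL (R+1) (max z B) ?_
  intro w hw
  obtain ⟨l, h1, h2, h3⟩ := hp (w.drop z) (by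
    intro t ht hw'
    rw [List.length_drop] at ht
    have hn : n ≤ ((w.drop z).take t).length := hlen _ hw'
    have h5 : w.take (z + t) = w.take z ++ (w.drop z).take t := List.take_add ..
    exact hfree w hw (z+t) (by omega) (by omega) (by rw [h5, hloc _ _ hn]; exact hw'))
  refine ⟨(w.take z, [], 0) :: l, by simp only [List.length_cons]; omega, ?_, ?_⟩
  · intro t ht
    rcases List.mem_cons.1 ht with rfl | ht
    · exact ⟨(List.length_take_le _ _).trans (le_max_left _ _), by simp⟩
    · exact ⟨(h2 t ht).1.trans (le_max_right _ _), (h2 t ht).2.trans (le_max_right _ _)⟩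
  · conv_lhs => rw [← List.take_append_drop z w, h3]
    simp [Pump_360.val, Pump_360.pw]

/-- every fibre -/
theorem fibre {α : Type} [Finite α] {S : Type} [Monoid S] [Finite S] (f : α → S) (s : S) :
    HL 3 ({w | (w.map f).prod = s} : Language α) := by
  classical
  haveI := Fintype.ofFinite S
  let V : Type := S → ZMod 2
  haveI : Fintype V := Fintype.ofFinite V
  let act : V → S → V := fun v s t => v (s * t)
  have hadd : ∀ (a b : V) (s : S), act (a + b) s = act a s + act b s := fun a b s => rfl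
  have hone : ∀ v : V, act v 1 = v := fun v => by funext t; simp [act]
  have hmul : ∀ (v : V) (s t : S), act v (s * t) = act (act v s) t :=
    fun v s t => by funext u; simp [act, mul_assoc]
  have hfaith : ∀ s t : S, (∀ v : V, act v s = act v t) → s = t := by
    intro s t h
    by_contra hne
    have h1 := congrFun (h (Pi.single s 1)) 1
    simp only [act, mul_one, Pi.single_eq_same] at h1
    rw [Pi.single_eq_of_ne (Ne.symm hne)] at h1
    exact one_ne_zero h1
  obtain ⟨C0, hbox⟩ := box S V act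
  obtain ⟨K, hK⟩ := ExactR_237.exact_gadget α S V f act (2 * C0 + 2)
  obtain ⟨N, L, La, p0, x, BT, hL, hx, hxp, hrul, hspoil, hper, hgad⟩ := hbox K
  obtain ⟨lam2, rho2, nu2, hs2, hc2⟩ := hK x (fun i j h _ => hx i j h)
  obtain ⟨lam, rho, nu, g1, g2, g3, g4⟩ := hgad α (fun w => (w.map f).prod) (by intro u v; simp)
  obtain ⟨n, Wo, hloc, hlen, hgap, R, B, hpc⟩ := WallU_228.walls (α := α) (2 * p0 + 2 * N + 1)
  let D : InstA_425.Dat α S V :=
    { φ := f, act := act, W := Wo, n := n, g := 2 * p0 + 2 * N + 1,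
      z := 3 * p0 + 3 * N + n + 1, p0 := p0, N := N, K := K, C0 := C0, x := x, BT := BT,
      lam := lam, rho := rho, nu := nu, lam2 := lam2, rho2 := fun k Q => rho2 k Q 1,
      nu2 := fun u => nu2 u 1 }
  have hD : D.Ok :=
    { hadd := hadd
      hmul := hmul
      loc := hloc
      gap := by
        intro X s t hs hst ht h1 h2
        by_contra hc
        have hc' : t - s ≤ 2 * p0 + 2 * N + 1 := by
          have : ¬ (s + (2 * p0 + 2 * N + 1) < t) := hc
          omega
        refine hgap (X.take t) (t - s) h2 (by omega) hc' ?_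
        rw [List.length_take, Nat.min_eq_left ht, List.take_take,
          show min (t - (t - s)) t = s by omega]
        exact h1
      hg := by show 2 * p0 + 2 * N < 2 * p0 + 2 * N + 1; omega
      hz := by show 3 * p0 + 3 * N + n < 3 * p0 + 3 * N + n + 1; omega
      hx := hxp
      hruler := fun a b c d _ _ _ _ hab h1 h2 => hrul a b c d hab h1 h2
      hspoil := hspoil
      lam_len := g1
      sound := fun p q v r h1 h2 => g2 p q v r h1 h2
      compl := g3
      sound2 := by
        intro k hk P Q v b hP h1 h2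
        have := hs2 k hk P Q 1 v b hP h1 h2
        rw [mul_one] at this
        exact this
      compl2 := by
        intro u v hu
        obtain ⟨I, hI, hI'⟩ := hc2 u 1 v (fun k hk => by
          have h1 : u.length = p0 := hu
          rw [h1]; exact hxp k hk)
        refine ⟨I, hI, fun k hk => ?_⟩
        obtain ⟨a1, a2, a3⟩ := hI' k hk
        exact ⟨a1, a2, Option.isSome_iff_exists.1 a3⟩ }
  have hLW : LW Wo n := ⟨hloc, hlen⟩
  -- local predicates
  have hBTm : ∀ a b : ℕ, a ≡ b [MOD L] → (BT a ↔ BT b) := by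
    have hk : ∀ k a : ℕ, BT (a + k * L) ↔ BT a := by
      intro k
      induction k with
      | zero => intro a; simp
      | succ k ih =>
        intro a
        rw [Nat.succ_mul, ← Nat.add_assoc, hper, ih]
    have hm : ∀ a : ℕ, BT a ↔ BT (a % L) := by
      intro a
      conv_lhs => rw [← Nat.mod_add_div a L, Nat.mul_comm]
      exact hk _ _
    intro a b hab
    rw [hm a, hm b, show a % L = b % L from hab]
  let c0 : ℕ := p0 + La + (D.z + N)
  have htk : ∀ (q q2 : List α) (c : ℕ), q.take c0 = q2.take c0 → c ≤ c0 → q.take c = q2.take c := by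
    intro q q2 c h hc
    have := congrArg (List.take c) h
    rwa [List.take_take, List.take_take, Nat.min_eq_left hc] at this
  have hregT : ∀ v b : V, Language.IsRegular ({X | D.T v X = b} : Language α) := by
    intro v b
    refine Bridge_975.reg_of_local f c0 L hL _ ?_
    intro q q2 hq hq2 h1 h2 h3
    have hzz : D.z = 3 * p0 + 3 * N + n + 1 := rfl
    have e1 : q.take p0 = q2.take p0 := htk q q2 p0 h1 (by omega)
    have e2 : (q.drop p0).take (c0 - p0) = (q2.drop p0).take (c0 - p0) := by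
      rw [← List.drop_take, ← List.drop_take, h1]
    have e3 : q.drop c0 = (q.drop p0).drop (c0 - p0) := by
      rw [List.drop_drop]; congr 1; omega
    have e4 : q2.drop c0 = (q2.drop p0).drop (c0 - p0) := by
      rw [List.drop_drop]; congr 1; omega
    have e5 : ((q.drop p0).map f).prod = ((q2.drop p0).map f).prod := by
      rw [← List.take_append_drop (c0 - p0) (q.drop p0),
        ← List.take_append_drop (c0 - p0) (q2.drop p0), List.map_append, List.prod_append,
        List.map_append, List.prod_append, e2, ← e3, ← e4, h3]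
    have e6 : nu (q.drop p0) = nu (q2.drop p0) := by
      refine g4 _ _ (by rw [List.length_drop]; omega) (by rw [List.length_drop]; omega) ?_ ?_ e5
      · have := congrArg (List.take La) e2
        rwa [List.take_take, List.take_take, Nat.min_eq_left (by omega)] at this
      · rw [List.length_drop, List.length_drop]
        have h4 : (q.length - p0) + p0 ≡ (q2.length - p0) + p0 [MOD L] := by
          rw [Nat.sub_add_cancel (by omega), Nat.sub_add_cancel (by omega)]; exact h2
        exact Nat.ModEq.add_right_cancel' p0 h4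
    rw [InstA_425.T_eq hD, InstA_425.T_eq hD]
    show act (act v (((q.take p0).map f).prod) + nu2 (q.take p0) 1) (((q.drop p0).map f).prod) +
      nu (q.drop p0) = b ↔ act (act v (((q2.take p0).map f).prod) + nu2 (q2.take p0) 1)
        (((q2.drop p0).map f).prod) + nu (q2.drop p0) = b
    rw [e1, e5, e6]
  have hregB : Language.IsRegular ({X | D.E X ∨ BT (X.length - p0)} : Language α) := by
    refine Bridge_975.reg_of_local f c0 L hL _ ?_
    intro q q2 hq hq2 h1 h2 h3
    have hzz : D.z = 3 * p0 + 3 * N + n + 1 := rfl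
    have hE : ∀ a b : List α, c0 ≤ b.length → a.take c0 = b.take c0 → D.E a → D.E b := by
      rintro a b hb hab ⟨t, t1, t2, t3, t4⟩
      have t2' : t < D.z + N := t2
      refine ⟨t, t1, t2, by omega, ?_⟩
      rw [← htk a b t hab (by omega)]
      exact t4
    have hB : BT (q.length - p0) ↔ BT (q2.length - p0) := by
      refine hBTm _ _ ?_
      have h4 : (q.length - p0) + p0 ≡ (q2.length - p0) + p0 [MOD L] := by
        rw [Nat.sub_add_cancel (by omega), Nat.sub_add_cancel (by omega)]; exact h2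
      exact Nat.ModEq.add_right_cancel' p0 h4
    exact or_congr ⟨hE q q2 hq2 h1, hE q2 q hq h1.symm⟩ hB
  have hregX : Language.IsRegular ({X | X ∈ D.XX} : Language α) := reg_XX hLW D.z
  have HLX : ∀ {M : Language α}, M.IsRegular → HL 1 ({X | X ∈ D.XX ∧ X ∈ M} : Language α) := by
    intro M hM
    refine hl_of_reg D.z hloc hlen hpc (hregX.inf hM) ?_
    rintro w ⟨hw, -⟩ t h1 h2
    exact hw.2.2 t h1 h2
  have HLB : HL 1 (D.Bad : Language α) := HLX hregB
  have HLG : HL 1 ({X | X ∈ D.XX ∧ X ∉ D.Bad} : Language α) := by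
    refine (HLX (M := {X | ¬ (D.E X ∨ BT (X.length - p0))}) hregB.compl).congr fun w => ?_
    exact ⟨fun h => ⟨h.1, fun h2 => h.2 ⟨h.1, h2⟩⟩, fun h => ⟨h.1, fun h2 => h.2 h2.2⟩⟩
  have HLT : ∀ v b, HL 1 ({X | X ∈ D.XX ∧ D.T v X = b} : Language α) := fun v b => HLX (hregT v b)
  have HLBT : ∀ v b, HL 1 ({X | X ∈ D.Bad ∧ D.T v X = b} : Language α) := by
    intro v b
    exact (HLB.setOf_and (HLT v b)).congr fun w =>
      ⟨fun h => ⟨h.1, h.1.1, h.2⟩, fun h => ⟨h.1, h.2.2⟩⟩
  have hfin : ∀ m : ℕ, {P : List α | P.length ≤ m}.Finite := fun m => List.finite_length_le α m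
  have F1 : {vP : V × List α | vP.2 ∈ D.LP1 vP.1}.Finite := by
    refine ((Set.toFinite (Set.univ : Set V)).prod (hfin (p0 + N))).subset ?_
    rintro ⟨v, P⟩ ⟨X0, p, rfl, h1, h2⟩
    refine ⟨trivial, ?_⟩
    have h3 := g1 p _ h2
    have h4 : X0.length = p0 := h1
    show (X0 ++ p).length ≤ p0 + N
    rw [List.length_append]; omega
  have F2 : {vP : V × List α | vP.2 ∈ D.LP2 vP.1}.Finite := by
    refine ((Set.toFinite (Set.univ : Set V)).prod (hfin p0)).subset ?_
    rintro ⟨v, P⟩ ⟨k, hk, h1, h2⟩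
    refine ⟨trivial, ?_⟩
    have h4 : P.length = x k := h1
    show P.length ≤ p0
    rw [h4]; exact hxp k hk
  have F1' : ∀ v, HL 1 (D.LP1 v : Language α) := fun v =>
    HL.finite ((F1.image Prod.snd).subset fun P hP => ⟨(v, P), hP, rfl⟩)
  have F2' : ∀ v, HL 1 (D.LP2 v : Language α) := fun v =>
    HL.finite ((F2.image Prod.snd).subset fun P hP => ⟨(v, P), hP, rfl⟩)
  have HR1 : ∀ b, HL 1 (D.RQ1 b : Language α) := by
    intro b
    refine (HL.biInter (k := 1) F1 (L := fun vP => {Q | vP.2 ++ Q ∈ ({X | X ∈ D.XX ∧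
      D.T vP.1 X = b} : Language α)}) (fun vP _ => HL.lquot vP.2 (HLT vP.1 b))).congr fun Q => ?_
    exact ⟨fun h vP hP => h vP.1 vP.2 hP, fun h v P hP => h (v, P) hP⟩
  have HR2 : ∀ b, HL 1 (D.RQ2 b : Language α) := by
    intro b
    let M1 : Language α := {w | ∃ X ∈ ({X | X ∈ D.XX ∧ X ∉ D.Bad} : Language α), X <+: w}
    have hM1 : HL 1 M1 := HLG.prefix
    let M2 : V → Language α := fun v => {w | ∃ X1 ∈ D.Bad, ∃ X2 ∈ D.Bad,
      w = X1 ++ X2 ∧ D.T (D.T v X1) X2 = b}
    let BB : V → V → Language α := fun v v' => {X | X ∈ D.Bad ∧ D.T v X = v'}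
    have hM2 : ∀ v, HL 1 (M2 v) := by
      intro v
      refine (HL.iUnion (k := 1) (ι := V) (L := fun v' => BB v v' * BB v' b)
        (fun v' => HL.mul (L := BB v v') (M := BB v' b) (HLBT v v') (HLBT v' b))).congr
          fun w => ?_
      constructor
      · rintro ⟨X1, h1, X2, h3, h5, h4⟩
        exact ⟨D.T v X1, (Language.mem_mul (l := BB v (D.T v X1)) (m := BB (D.T v X1) b)).2
          ⟨X1, ⟨h1, rfl⟩, X2, ⟨h3, h4⟩, h5.symm⟩⟩
      · rintro ⟨v', hw⟩
        obtain ⟨X1, ⟨h1, h2⟩, X2, ⟨h3, h4⟩, h5⟩ :=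
          (Language.mem_mul (l := BB v v') (m := BB v' b)).1 hw
        exact ⟨X1, h1, X2, h3, h5.symm, by rw [h2]; exact h4⟩
    have hne : HL 1 ({Q | ¬ (Q = [])} : Language α) := by
      refine (HL.word (k := 1) ([] : List α)).compl.congr fun w => ?_
      exact Iff.rfl
    refine (hne.setOf_and (HL.biInter (k := 1) F2 (L := fun vP => {Q | vP.2 ++ Q ∈ M1 ⊔ M2 vP.1})
      (fun vP _ => HL.lquot vP.2 (hM1.sup (hM2 vP.1))))).congr fun Q => ?_
    constructor
    · rintro ⟨h1, h2⟩
      refine ⟨h1, fun vP hP => ?_⟩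
      rcases h2 vP.1 vP.2 hP with ⟨X, hX1, hX2, hX3⟩ | h3
      · exact Or.inl ⟨X, ⟨hX1, hX2⟩, hX3⟩
      · exact Or.inr h3
    · rintro ⟨h1, h2⟩
      refine ⟨h1, fun v P hP => ?_⟩
      rcases h2 (v, P) hP with h3 | h3
      · obtain ⟨X, ⟨hX1, hX2⟩, hX3⟩ := h3
        exact Or.inl ⟨X, hX1, hX2, hX3⟩
      · exact Or.inr h3
  have htail : ∀ s : S, HL 3 ({w | (∀ X ∈ D.XX, ¬ X <+: w) ∧ (w.map f).prod = s} : Language α) := by
    intro s
    refine (hl_of_reg D.z hloc hlen hpc ((reg_NW hLW D.z).inf (reg_value f s)) ?_).mono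
      (by norm_num) |>.congr fun w => ?_
    · rintro w ⟨hw, -⟩ t h1 h2
      exact hw t h1 h2.le
    · exact ⟨fun h => ⟨NW_eq.2 h.1, h.2⟩, fun h => ⟨NW_eq.1 h.1, h.2⟩⟩
  refine Top5_467.top5 f act hadd hone hmul hfaith D.ν D.XX D.Bad
    ⟨InstA_425.XX_nil hD, InstA_425.XX_code hD⟩ (fun X hX => hX.1)
    (fun v => D.LP1 v) (fun b => D.RQ1 b) (fun v => D.LP2 v) (fun b => D.RQ2 b)
    ?_ (InstA_425.c1 hD) ?_ (InstA_425.c2 hD) HLB F2' HR2
    (fun v => (F1' v).mono (by norm_num)) (fun v => (HR1 v).mono (by norm_num))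
    (fun v v' => (HLBT v v').mono (by norm_num)) htail s
  · intro v b P Q hP hQ
    exact hQ v P hP
  · intro v b P Q r hP hQ hr
    rcases hQ.2 v P hP with ⟨X, hX1, hX2, hX3⟩ | ⟨X1, h1, X2, h2, h3, h4⟩
    · exfalso
      obtain ⟨l, hl, hl2⟩ := hr
      cases l with
      | nil =>
        have h5 : P ++ Q ++ r = [] := hl2.symm
        have h6 : P ++ Q = [] := (List.append_eq_nil_iff.1 h5).1
        rw [h6] at hX3
        have h7 : X = [] := List.prefix_nil.1 hX3
        exact InstA_425.XX_nil hD (h7 ▸ hX1)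
      | cons Y l =>
        have hY : Y ∈ D.Bad := hl Y (by simp)
        have hYp : Y <+: P ++ Q ++ r := by
          rw [← hl2, List.flatten_cons]; exact List.prefix_append _ _
        have hXp : X <+: P ++ Q ++ r := hX3.trans (List.prefix_append _ _)
        rcases List.prefix_or_prefix_of_prefix hXp hYp with h5 | h5
        · exact hX2 (InstA_425.XX_code hD X hX1 Y hY.1 h5 ▸ hY)
        · exact hX2 (InstA_425.XX_code hD Y hY.1 X hX1 h5 ▸ hY)
    · refine ⟨[X1, X2], ?_, by simp [h3], h4⟩
      intro X hX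
      rcases List.mem_cons.1 hX with rfl | hX
      · exact h1
      · rw [List.mem_singleton.1 hX]; exact h2

/-- the row over small alphabets -/
theorem small (α : Type) [Finite α] (L : Language α) (hL : L.IsRegular) :
    ∃ e : GRegExp α, e.height ≤ 3 ∧ e.lang = L :=
  of_monoid (fun S _ _ f s => fibre f s) L hL

/-- the row -/
theorem row.{u} (α : Type u) [Finite α] (L : Language α) (hL : L.IsRegular) :
    ∃ e : GRegExp α, e.height ≤ 3 ∧ e.lang = L :=
  Univ_188.of_type0 3 (fun β _ M hM => small β M hM) α L hL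

end Crest.Agent.R320.Fin_102
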