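import Mathlib

/-!
Row 320, names without a promise (942 #12598 / #12725 (A), 755 #12640 (A)): arithmetic of the
name code.  Left clock `o`, right clock `o'`, unknown total `T = o + o'`.
Main theorem: `exists_names`.
-/

set_option autoImplicit false

namespace Crest.Agent.R320.Names_727

/-- a representative of a residue class in a window of length `M` -/
theorem exists_window (M k s : ℕ) (hM : 0 < M) :
    ∃ o, s ≤ o ∧ o < s + M ∧ o ≡ k [MOD M] := by
  refine ⟨s + (k + M * s - s) % M, Nat.le_add_right _ _,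
    Nat.add_lt_add_left (Nat.mod_lt _ hM) _, ?_⟩
  have h1 : s ≤ M * s := Nat.le_mul_of_pos_left s hM
  have h2 : s + (k + M * s - s) % M ≡ s + (k + M * s - s) [MOD M] :=
    Nat.ModEq.add_left _ (Nat.mod_modEq _ _)
  have h3 : s + (k + M * s - s) = k + M * s := by omega
  rw [h3] at h2
  exact h2.trans (by simp [Nat.ModEq])

section Pattern

variable {ι : Type} (q q' : ι → ℕ)

/-- left pattern: bit `1` at `n`, bit `0` elsewhere -/
def LP (o : ℕ) (n : ι) : Prop :=
  ∀ l, (l = n → q l ∣ o ∧ ¬ q' l ∣ o) ∧ (l ≠ n → ¬ q l ∣ o ∧ q' l ∣ o)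

/-- right pattern: bit `1` at `n`, bit `0` elsewhere -/
def RP (o : ℕ) (n : ι) : Prop :=
  ∀ l, (l = n → ¬ q l ∣ o ∧ q' l ∣ o) ∧ (l ≠ n → q l ∣ o ∧ ¬ q' l ∣ o)

variable {q q'}

theorem LP_unique {o : ℕ} {n n' : ι} (h : LP q q' o n) (h' : LP q q' o n') : n = n' := by
  by_contra hne
  exact ((h' n).2 hne).1 ((h n).1 rfl).1

theorem RP_unique {o : ℕ} {n n' : ι} (h : RP q q' o n) (h' : RP q q' o n') : n = n' := by
  by_contra hne
  exact ((h n).1 rfl).1 ((h' n).2 hne).1

/-- equal bits: neither modulus divides the total -/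
theorem eq_bits {o o' : ℕ} {n n' l : ι} (h : LP q q' o n) (h' : RP q q' o' n')
    (hl : l = n ↔ l = n') : ¬ q l ∣ o + o' ∧ ¬ q' l ∣ o + o' := by
  by_cases hln : l = n
  · have h1 := (h l).1 hln
    have h2 := (h' l).1 (hl.1 hln)
    exact ⟨fun hd => h2.1 ((Nat.dvd_add_right h1.1).1 hd),
      fun hd => h1.2 ((Nat.dvd_add_left h2.2).1 hd)⟩
  · have h1 := (h l).2 hln
    have h2 := (h' l).2 (fun e => hln (hl.2 e))
    exact ⟨fun hd => h1.1 ((Nat.dvd_add_left h2.1).1 hd),
      fun hd => h2.2 ((Nat.dvd_add_right h1.2).1 hd)⟩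

theorem ne_bits {o o' : ℕ} {n n' : ι} (h : LP q q' o n) (h' : RP q q' o' n') (hne : n ≠ n') :
    q n ∣ o + o' ∧ q' n' ∣ o + o' :=
  ⟨Nat.dvd_add ((h n).1 rfl).1 ((h' n).2 hne).1,
    Nat.dvd_add ((h n').2 (Ne.symm hne)).2 ((h' n').1 rfl).2⟩

/-- good total: the two sides show the same name -/
theorem good_eq {o o' : ℕ} {n n' : ι} (h : LP q q' o n) (h' : RP q q' o' n')
    (hg : ∀ l, ¬ q l ∣ o + o' ∧ ¬ q' l ∣ o + o') : n = n' := by
  by_contra hne
  exact (hg n).1 (ne_bits h h' hne).1

/-- bad total: the set of the two names is determined by the total -/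
theorem bad_iff {o o' : ℕ} {n n' : ι} (h : LP q q' o n) (h' : RP q q' o' n') (hne : n ≠ n')
    (l : ι) : (q l ∣ o + o' ∨ q' l ∣ o + o') ↔ (l = n ∨ l = n') := by
  constructor
  · intro hd
    by_contra hl
    push Not at hl
    have := eq_bits (l := l) h h' ⟨fun e => absurd e hl.1, fun e => absurd e hl.2⟩
    rcases hd with hd | hd
    · exact this.1 hd
    · exact this.2 hd
  · rintro (rfl | rfl)
    · exact Or.inl (ne_bits h h' hne).1
    · exact Or.inr (ne_bits h h' hne).2

theorem bad_ne {o o' : ℕ} {n n' : ι} (h : LP q q' o n) (h' : RP q q' o' n')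
    (hb : ∃ l, q l ∣ o + o' ∨ q' l ∣ o + o') : n ≠ n' := by
  rintro rfl
  obtain ⟨l, hl⟩ := hb
  have := eq_bits (l := l) h h' Iff.rfl
  rcases hl with hl | hl
  · exact this.1 hl
  · exact this.2 hl

/-- bad total: one unordered pair of names -/
theorem bad_pair {T o o' p p' : ℕ} {n n' m m' : ι} (hT : o + o' = T) (hT' : p + p' = T)
    (h : LP q q' o n) (h' : RP q q' o' n') (k : LP q q' p m) (k' : RP q q' p' m')
    (hb : ∃ l, q l ∣ T ∨ q' l ∣ T) : (n = m ∧ n' = m') ∨ (n = m' ∧ n' = m) := by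
  subst hT
  have hne := bad_ne h h' hb
  have hb' : ∃ l, q l ∣ p + p' ∨ q' l ∣ p + p' := by rw [hT']; exact hb
  have hne' := bad_ne k k' hb'
  have e1 := bad_iff h h' hne
  have e2 := bad_iff k k' hne'
  rw [hT'] at e2
  have f : ∀ l, (l = n ∨ l = n') ↔ (l = m ∨ l = m') := fun l => (e1 l).symm.trans (e2 l)
  rcases (f n).1 (Or.inl rfl) with a | a
  · rcases (f n').1 (Or.inr rfl) with b | b
    · exact absurd (a.trans b.symm) hne
    · exact Or.inl ⟨a, b⟩
  · rcases (f n').1 (Or.inr rfl) with b | b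
    · exact Or.inr ⟨a, b⟩
    · exact absurd (a.trans b.symm) hne

end Pattern

section Moduli

/-- distinct primes above a bound -/
theorem exists_primes {ι : Type} [Fintype ι] (B : ℕ) :
    ∃ q : ι → ℕ, Function.Injective q ∧ (∀ i, (q i).Prime) ∧ ∀ i, B < q i := by
  refine ⟨fun i => Nat.nth Nat.Prime (B + (Fintype.equivFin ι i : ℕ)), ?_, ?_, ?_⟩
  · intro i j hij
    have h := Nat.nth_injective (p := Nat.Prime) Nat.infinite_setOfPred_prime hij
    have h' : ((Fintype.equivFin ι i : Fin _) : ℕ) = (Fintype.equivFin ι j : Fin _) := by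
      simpa using h
    exact (Fintype.equivFin ι).injective (Fin.ext h')
  · intro i
    exact Nat.prime_nth_prime _
  · intro i
    have := Nat.add_two_le_nth_prime (B + (Fintype.equivFin ι i : ℕ))
    show B < Nat.nth Nat.Prime (B + (Fintype.equivFin ι i : ℕ))
    omega

/-- Chinese remainders for a finite family, with one more modulus -/
theorem crt {κ : Type} [Fintype κ] (s a : κ → ℕ) (hs : ∀ i, s i ≠ 0)
    (pp : ∀ i j, i ≠ j → Nat.Coprime (s i) (s j)) :
    ∃ k, ∀ i, k ≡ a i [MOD s i] := by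
  obtain ⟨k, hk⟩ := Nat.chineseRemainderOfFinset a s Finset.univ (fun i _ => hs i)
    (fun i _ j _ hij => pp i j hij)
  exact ⟨k, fun i => hk i (Finset.mem_univ i)⟩

end Moduli

/-- **Names.**  `K` names.  For every bound `B` there are at most `r` pairwise coprime moduli
`> B` and a period `M` such that the left side shows a name at its clock `o`, the right side at
its clock `o'`, and
* if no modulus divides the total `T = o + o'`, both sides show the same name, and every name
  is shown by both sides at a place of every window of length `M`;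
* if some modulus divides `T`, all legal junctions of `T` show the same ordered pair. -/
theorem exists_names (K : ℕ) : ∃ r : ℕ, ∀ B : ℕ, ∃ (ms : Finset ℕ) (M : ℕ)
    (LN RN : ℕ → Fin K → Prop),
    ms.card ≤ r ∧ (∀ m ∈ ms, B < m) ∧
    (∀ m ∈ ms, ∀ m' ∈ ms, m ≠ m' → Nat.Coprime m m') ∧
    0 < M ∧ (∀ m ∈ ms, m ∣ M) ∧
    (∀ o c c', LN o c → LN o c' → c = c') ∧ (∀ o c c', RN o c → RN o c' → c = c') ∧
    (∀ o c, LN (o + M) c ↔ LN o c) ∧ (∀ o c, RN (o + M) c ↔ RN o c) ∧
    (∀ T, (∀ m ∈ ms, ¬ m ∣ T) →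
      (∀ o o' c c', o + o' = T → LN o c → RN o' c' → c = c') ∧
      (∀ c s, s + M ≤ T + 1 → ∃ o, s ≤ o ∧ o < s + M ∧ o ≤ T ∧ LN o c ∧ RN (T - o) c)) ∧
    (∀ T, (∃ m ∈ ms, m ∣ T) → ∀ o o' c c' p p' d d', o + o' = T → p + p' = T →
      LN o c → RN o' c' → LN p d → RN p' d' → c = d ∧ c' = d') := by
  classical
  let D : ℕ := 2 * K + 1
  let ι : Type := Fin K × ZMod D
  have : NeZero D := ⟨by simp [D]⟩
  let _ : Fintype ι := inferInstanceAs (Fintype (Fin K × ZMod D))
  refine ⟨Fintype.card (Bool × ι), fun B => ?_⟩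
  obtain ⟨Q, hinj, hprime, hbig⟩ := exists_primes (ι := Bool × ι) (B + D)
  let q : ι → ℕ := fun l => Q (false, l)
  let q' : ι → ℕ := fun l => Q (true, l)
  let M : ℕ := D * ∏ i, Q i
  have hD0 : 0 < D := Nat.pos_of_ne_zero (NeZero.ne D)
  have hQpos : ∀ i, 0 < Q i := fun i => (hprime i).pos
  have hM : 0 < M := Nat.mul_pos hD0 (Finset.prod_pos fun i _ => hQpos i)
  have hQM : ∀ i, Q i ∣ M := fun i => (Finset.dvd_prod_of_mem Q (Finset.mem_univ i)).mul_left D
  have hDM : D ∣ M := Dvd.intro _ rfl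
  have hcop : ∀ i j, i ≠ j → Nat.Coprime (Q i) (Q j) := fun i j hij =>
    (Nat.coprime_primes (hprime i) (hprime j)).2 fun e => hij (hinj e)
  have hDcop : ∀ i, Nat.Coprime D (Q i) := fun i => by
    refine Nat.Coprime.symm ((hprime i).coprime_iff_not_dvd.2 fun hd => ?_)
    have := Nat.le_of_dvd hD0 hd
    have := hbig i
    omega
  let LN : ℕ → Fin K → Prop := fun o c => ∃ t : ZMod D, LP q q' o (c, t) ∧
    (2 * (o : ZMod D)) = t + ((c : ℕ) : ZMod D)
  let RN : ℕ → Fin K → Prop := fun o c => ∃ t : ZMod D, RP q q' o (c, t) ∧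
    (2 * (o : ZMod D)) + ((c : ℕ) : ZMod D) = t
  have hdvd : ∀ i o, Q i ∣ o + M ↔ Q i ∣ o := fun i o => Nat.dvd_add_left (hQM i)
  have hcast : ∀ o : ℕ, ((o + M : ℕ) : ZMod D) = (o : ZMod D) := fun o => by
    have : ((M : ℕ) : ZMod D) = 0 := (ZMod.natCast_eq_zero_iff M D).2 hDM
    push_cast
    rw [this, add_zero]
  have hms : ∀ T, (∃ m ∈ Finset.univ.image Q, m ∣ T) ↔ ∃ l, q l ∣ T ∨ q' l ∣ T := by
    intro T
    constructor
    · rintro ⟨m, hm, hd⟩
      obtain ⟨⟨b, l⟩, -, rfl⟩ := Finset.mem_image.1 hm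
      cases b
      · exact ⟨l, Or.inl hd⟩
      · exact ⟨l, Or.inr hd⟩
    · rintro ⟨l, hd | hd⟩
      · exact ⟨_, Finset.mem_image_of_mem Q (Finset.mem_univ (false, l)), hd⟩
      · exact ⟨_, Finset.mem_image_of_mem Q (Finset.mem_univ (true, l)), hd⟩
  refine ⟨Finset.univ.image Q, M, LN, RN, ?_, ?_, ?_, hM, ?_, ?_, ?_, ?_, ?_, ?_, ?_⟩
  · exact Finset.card_image_le.trans (by simp)
  · intro m hm
    obtain ⟨i, -, rfl⟩ := Finset.mem_image.1 hm
    have := hbig i
    omega
  · intro m hm m' hm' hne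
    obtain ⟨i, -, rfl⟩ := Finset.mem_image.1 hm
    obtain ⟨j, -, rfl⟩ := Finset.mem_image.1 hm'
    exact hcop i j fun e => hne (by rw [e])
  · intro m hm
    obtain ⟨i, -, rfl⟩ := Finset.mem_image.1 hm
    exact hQM i
  · rintro o c c' ⟨t, h, -⟩ ⟨t', h', -⟩
    exact congrArg Prod.fst (LP_unique h h')
  · rintro o c c' ⟨t, h, -⟩ ⟨t', h', -⟩
    exact congrArg Prod.fst (RP_unique h h')
  · intro o c
    simp only [LN, LP, q, q', hdvd, hcast]
  · intro o c
    simp only [RN, RP, q, q', hdvd, hcast]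
  · intro T hT
    have hg : ∀ l, ¬ q l ∣ T ∧ ¬ q' l ∣ T := by
      intro l
      have hn : ¬ ∃ l, q l ∣ T ∨ q' l ∣ T := fun h => by
        obtain ⟨m, hm, hd⟩ := (hms T).2 h
        exact hT m hm hd
      exact ⟨fun h => hn ⟨l, Or.inl h⟩, fun h => hn ⟨l, Or.inr h⟩⟩
    refine ⟨?_, ?_⟩
    · rintro o o' c c' rfl ⟨t, h, -⟩ ⟨t', h', -⟩
      exact congrArg Prod.fst (good_eq h h' hg)
    · intro c s hs
      -- the name (c, T)
      let n : ι := (c, (T : ZMod D))
      -- residues: at `n`: `q ∣ o`, `o ≡ T mod q'`; elsewhere `o ≡ T mod q`, `q' ∣ o`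
      let a : Option (Bool × ι) → ℕ := fun x => match x with
        | none => (K + 1) * (T + c)
        | some (false, l) => if l = n then 0 else T
        | some (true, l) => if l = n then T else 0
      let S : Option (Bool × ι) → ℕ := fun x => match x with
        | none => D
        | some i => Q i
      obtain ⟨k, hk⟩ := crt S a
        (by
          rintro (_ | i)
          · exact hD0.ne'
          · exact (hQpos i).ne')
        (by
          rintro (_ | i) (_ | j) hij
          · exact absurd rfl hij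
          · exact hDcop j
          · exact (hDcop i).symm
          · exact hcop i j fun e => hij (by rw [e]))
      obtain ⟨o, ho1, ho2, ho3⟩ := exists_window M k s hM
      have hoT : o ≤ T := by omega
      have hQ : ∀ i, o ≡ a (some i) [MOD Q i] := fun i =>
        (ho3.of_dvd (hQM i)).trans (hk (some i))
      have hDo : o ≡ (K + 1) * (T + c) [MOD D] := (ho3.of_dvd hDM).trans (hk none)
      have hsub : ∀ i, (Q i ∣ T - o ↔ T ≡ o [MOD Q i]) := fun i => by
        rw [Nat.ModEq.comm, Nat.modEq_iff_dvd' hoT]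
      have hDcast : (2 * (o : ZMod D)) = (T : ZMod D) + ((c : ℕ) : ZMod D) := by
        have h1 : ((o : ℕ) : ZMod D) = (((K + 1) * (T + c) : ℕ) : ZMod D) :=
          (ZMod.natCast_eq_natCast_iff _ _ _).2 hDo
        have h2 : (2 : ZMod D) * ((K : ZMod D) + 1) = 1 := by
          have h3 : (((2 * K + 1 : ℕ)) : ZMod D) = 0 := ZMod.natCast_self D
          push_cast at h3
          linear_combination h3
        rw [h1]
        push_cast
        linear_combination ((T : ZMod D) + ((c : ℕ) : ZMod D)) * h2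
      have zero_mod : ∀ i, o ≡ 0 [MOD Q i] → Q i ∣ o := fun i h => (Nat.modEq_zero_iff_dvd).1 h
      refine ⟨o, ho1, ho2, hoT, ⟨(T : ZMod D), ?_, hDcast⟩, ⟨(T : ZMod D), ?_, ?_⟩⟩
      · intro l
        have e1 := hQ (false, l)
        have e2 := hQ (true, l)
        constructor
        · intro hl
          simp only [a, n, hl, if_true] at e1 e2
          subst hl
          refine ⟨zero_mod _ e1, fun hd => (hg n).2 ?_⟩
          exact (Nat.modEq_zero_iff_dvd).1 (e2.symm.trans ((Nat.modEq_zero_iff_dvd).2 hd))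
        · intro hl
          have hl' : l ≠ n := hl
          simp only [a, hl', if_false] at e1 e2
          refine ⟨fun hd => (hg l).1 ?_, zero_mod _ e2⟩
          exact (Nat.modEq_zero_iff_dvd).1 (e1.symm.trans ((Nat.modEq_zero_iff_dvd).2 hd))
      · intro l
        have e1 := hQ (false, l)
        have e2 := hQ (true, l)
        constructor
        · intro hl
          have hl' : l = n := hl
          simp only [a, hl', if_true] at e1 e2
          rw [hl']
          refine ⟨fun hd => (hg n).1 ?_, (hsub _).2 e2.symm⟩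
          exact (Nat.modEq_zero_iff_dvd).1 (((hsub _).1 hd).trans e1)
        · intro hl
          have hl' : l ≠ n := hl
          simp only [a, hl', if_false] at e1 e2
          refine ⟨(hsub _).2 e1.symm, fun hd => (hg l).2 ?_⟩
          exact (Nat.modEq_zero_iff_dvd).1 (((hsub _).1 hd).trans e2)
      · rw [Nat.cast_sub hoT]
        linear_combination - hDcast
  · intro T hT o o' c c' p p' d d' h1 h2
    rintro ⟨t, hL, ht⟩ ⟨t', hR, ht'⟩ ⟨u, hL2, hu⟩ ⟨u', hR2, hu'⟩
    rcases bad_pair h1 h2 hL hR hL2 hR2 ((hms T).1 hT) with ⟨e, e'⟩ | ⟨e, e'⟩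
    · exact ⟨congrArg Prod.fst e, congrArg Prod.fst e'⟩
    · -- swapped
      have ec : c = d' := congrArg Prod.fst e
      have et : t = u' := congrArg Prod.snd e
      have ec' : c' = d := congrArg Prod.fst e'
      have et' : t' = u := congrArg Prod.snd e'
      subst ec ec' et et'
      have s1 : (2 : ZMod D) * (T : ZMod D) = t + ((c : ℕ) : ZMod D) + t' - ((c' : ℕ) : ZMod D) := by
        rw [← h1]; push_cast; linear_combination ht + ht'
      have s2 : (2 : ZMod D) * (T : ZMod D) = t' + ((c' : ℕ) : ZMod D) + t - ((c : ℕ) : ZMod D) := by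
        rw [← h2]; push_cast; linear_combination hu + hu'
      have s3 : (2 : ZMod D) * (((c : ℕ) : ZMod D) - ((c' : ℕ) : ZMod D)) = 0 := by
        linear_combination s2 - s1
      have h22 : (2 : ZMod D) * ((K : ZMod D) + 1) = 1 := by
        have h3 : (((2 * K + 1 : ℕ)) : ZMod D) = 0 := ZMod.natCast_self D
        push_cast at h3
        linear_combination h3
      have s4 : ((c : ℕ) : ZMod D) = ((c' : ℕ) : ZMod D) := by
        linear_combination ((K : ZMod D) + 1) * s3
          - (((c : ℕ) : ZMod D) - ((c' : ℕ) : ZMod D)) * h22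
      have s5 : (c : ℕ) = (c' : ℕ) := by
        have h5 := (ZMod.natCast_eq_natCast_iff' _ _ _).1 s4
        have hc := c.isLt
        have hc' := c'.isLt
        rwa [Nat.mod_eq_of_lt (by omega), Nat.mod_eq_of_lt (by omega)] at h5
      have s6 : c = c' := Fin.ext s5
      subst s6
      exact ⟨rfl, rfl⟩

end Crest.Agent.R320.Names_727
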