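import Crest.Agent.R320.Noise_513
import Crest.Agent.R320.Names_727

/-!
Row 320: scheme 1 without small walls (693 #13203, simplified): hole ends on `b`-anchored nested grids.
`g_j = Γ^(j+1)`, boundary `j` of a zone of length `T` is `g_j + T % g_j`, cell of level `i` is
`[2 g_i, (M+2) g_i)`, the right side is legal only if `g_i ∣ |Q|`.
Contents are arbitrary; sound for all pairs; incomplete only for a thin set of totals.
-/

set_option autoImplicit false
set_option linter.unusedSectionVars false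

namespace Crest.Agent.R320.Grid_187

open Finset

variable {α S V W : Type*}

/-- boundary `j` for the total `T`. -/
def bt (Γ T j : ℕ) : ℕ := Γ ^ (j + 1) + T % Γ ^ (j + 1)

/-- segment -/
def seg (U : List α) (a b : ℕ) : List α := (U.take b).drop a

theorem seg_left {P Q : List α} {a b : ℕ} (h : b ≤ P.length) : seg (P ++ Q) a b = seg P a b := by
  unfold seg; rw [List.take_append_of_le_length h]

theorem drop_right {P Q : List α} {a : ℕ} (h : P.length ≤ a) :
    (P ++ Q).drop a = Q.drop (a - P.length) := by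
  rw [List.drop_append, List.drop_eq_nil_of_le h, List.nil_append]

theorem seg_right {P Q : List α} {a b : ℕ} (h : P.length ≤ a) (hab : a ≤ b) :
    seg (P ++ Q) a b = seg Q (a - P.length) (b - P.length) := by
  unfold seg
  rw [List.take_append, List.take_of_length_le (h.trans hab), drop_right h]

theorem seg_split (U : List α) {a b : ℕ} (h : a ≤ b) : U.take a ++ seg U a b ++ U.drop b = U := by
  unfold seg
  have h1 : U.take a = (U.take b).take a := by rw [List.take_take, min_eq_left h]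
  rw [h1, List.take_append_drop, List.take_append_drop]

structure Dat (α S V W : Type*) where
  φ : List α → S
  act : V → S → V
  m : ℕ
  e : ℕ → S → W
  F : S → W → V
  Γ : ℕ
  M : ℕ
  LN : ℕ → Fin m × S × W × S × W × V → Prop
  RN : ℕ → Fin m × S × W × S × W × V → Prop

variable [Monoid S] [AddCommGroup V] [AddCommGroup W] (D : Dat α S V W)

def Dat.zz (u : List α) (j : ℕ) : S := D.φ (seg u (bt D.Γ u.length j) (bt D.Γ u.length (j + 1)))

def Dat.ww (u : List α) : W := ∑ j ∈ range D.m, D.e j (D.zz u j)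

def Dat.bb (c : Fin D.m × S × W × S × W × V) : V :=
  D.F (c.2.1 * 1 * c.2.2.2.1) (c.2.2.1 + D.e c.1 1 + c.2.2.2.2.1) +
    D.act c.2.2.2.2.2 (c.2.1 * 1 * c.2.2.2.1)

def Dat.ok (c : Fin D.m × S × W × S × W × V) : Prop :=
  ∀ z, D.F (c.2.1 * z * c.2.2.2.1) (c.2.2.1 + D.e c.1 z + c.2.2.2.2.1) +
    D.act c.2.2.2.2.2 (c.2.1 * z * c.2.2.2.1) = D.bb c

/-- left data -/
def Dat.gl (P : List α) (i : ℕ) : S := D.φ (P.take (bt D.Γ P.length i))
def Dat.wl (P : List α) (i : ℕ) : W :=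
  ∑ j ∈ range i, D.e j (D.φ (seg P (bt D.Γ P.length j) (bt D.Γ P.length (j + 1))))

/-- right data for the candidate clock `o` -/
def Dat.hr (Q : List α) (i o : ℕ) : S := D.φ (Q.drop (bt D.Γ (o + Q.length) (i + 1) - o))
def Dat.wr (Q : List α) (i o : ℕ) : W :=
  ∑ j ∈ Ico (i + 1) D.m, D.e j (D.φ (seg Q (bt D.Γ (o + Q.length) j - o)
    (bt D.Γ (o + Q.length) (j + 1) - o)))

def Dat.cell (i o : ℕ) : Prop := 2 * D.Γ ^ (i + 1) ≤ o ∧ o < (D.M + 2) * D.Γ ^ (i + 1)

def Dat.LL (c : Fin D.m × S × W × S × W × V) (P : List α) : Prop :=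
  D.ok c ∧ D.LN P.length c ∧ D.cell c.1 P.length ∧ D.gl P c.1 = c.2.1 ∧ D.wl P c.1 = c.2.2.1

def Dat.RR (c : Fin D.m × S × W × S × W × V) (Q : List α) : Prop :=
  D.ok c ∧ D.RN Q.length c ∧ D.Γ ^ ((c.1 : ℕ) + 1) ∣ Q.length ∧
    ∀ o, D.cell c.1 o → D.hr Q c.1 o = c.2.2.2.1 ∧ D.wr Q c.1 o = c.2.2.2.2.1

variable {D}

theorem bt_lt {Γ T j : ℕ} (hΓ : 0 < Γ) : bt Γ T j < 2 * Γ ^ (j + 1) := by
  have := Nat.mod_lt T (pow_pos hΓ (j + 1))
  unfold bt; omega

theorem le_bt {Γ T j : ℕ} : Γ ^ (j + 1) ≤ bt Γ T j := Nat.le_add_right _ _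

theorem bt_mono {Γ T : ℕ} (hΓ : 2 ≤ Γ) (j : ℕ) : bt Γ T j ≤ bt Γ T (j + 1) := by
  have h1 := bt_lt (Γ := Γ) (T := T) (j := j) (by omega)
  have h2 := le_bt (Γ := Γ) (T := T) (j := j + 1)
  have h3 : 2 * Γ ^ (j + 1) ≤ Γ ^ (j + 1 + 1) := by
    rw [pow_succ Γ (j + 1), mul_comm]; exact Nat.mul_le_mul_left _ hΓ
  omega

theorem bt_congr {Γ T T' j : ℕ} (h : T % Γ ^ (j + 1) = T' % Γ ^ (j + 1)) : bt Γ T j = bt Γ T' j := by
  unfold bt; rw [h]

theorem read (hφ : ∀ u v, D.φ (u ++ v) = D.φ u * D.φ v) (hΓ : D.M + 2 ≤ D.Γ) {P Q : List α} {i : ℕ}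
    (him : i < D.m) (hc : D.cell i P.length) (hd : D.Γ ^ (i + 1) ∣ Q.length) :
    D.φ (P ++ Q) = D.gl P i * D.zz (P ++ Q) i * D.hr Q i P.length ∧
    D.ww (P ++ Q) = D.wl P i + D.e i (D.zz (P ++ Q) i) + D.wr Q i P.length := by
  have hΓ2 : 2 ≤ D.Γ := by omega
  have hlen : (P ++ Q).length = P.length + Q.length := List.length_append
  have hb : ∀ j, j ≤ i → bt D.Γ (P ++ Q).length j = bt D.Γ P.length j := by
    intro j hj
    apply bt_congr
    rw [hlen]
    have : D.Γ ^ (j + 1) ∣ Q.length := (pow_dvd_pow _ (by omega)).trans hd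
    obtain ⟨k, hk⟩ := this
    rw [hk, Nat.add_mul_mod_self_left]
  have hle : ∀ j, j ≤ i → bt D.Γ P.length j ≤ P.length := by
    intro j hj
    have h1 := bt_lt (Γ := D.Γ) (T := P.length) (j := j) (by omega)
    have h2 : D.Γ ^ (j + 1) ≤ D.Γ ^ (i + 1) := Nat.pow_le_pow_right (by omega) (by omega)
    have := hc.1
    omega
  have hge : ∀ j, i < j → P.length ≤ bt D.Γ (P.length + Q.length) j := by
    intro j hj
    have h1 := le_bt (Γ := D.Γ) (T := P.length + Q.length) (j := j)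
    have h2 : D.Γ ^ (i + 1 + 1) ≤ D.Γ ^ (j + 1) := Nat.pow_le_pow_right (by omega) (by omega)
    have h3 : (D.M + 2) * D.Γ ^ (i + 1) ≤ D.Γ ^ (i + 1 + 1) := by
      rw [pow_succ D.Γ (i + 1), mul_comm]; exact Nat.mul_le_mul_left _ hΓ
    have := hc.2
    omega
  constructor
  · have h5 := seg_split (P ++ Q) (bt_mono (T := (P ++ Q).length) hΓ2 i)
    conv_lhs => rw [← h5]
    rw [hφ, hφ]
    unfold Dat.gl Dat.zz Dat.hr
    congr 1
    · congr 1
      rw [hb i le_rfl, List.take_append_of_le_length (hle i le_rfl)]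
    · rw [hlen, drop_right (hge (i + 1) (by omega))]
  · unfold Dat.ww
    rw [← Finset.sum_range_add_sum_Ico _ (show i + 1 ≤ D.m from him), Finset.sum_range_succ]
    congr 1
    · congr 1
      unfold Dat.wl
      refine Finset.sum_congr rfl fun j hj => ?_
      have hj' := Finset.mem_range.1 hj
      unfold Dat.zz
      rw [hb j (by omega), hb (j + 1) (by omega), seg_left (hle (j + 1) (by omega))]
    · unfold Dat.wr
      refine Finset.sum_congr rfl fun j hj => ?_
      obtain ⟨hj1, hj2⟩ := Finset.mem_Ico.1 hj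
      unfold Dat.zz
      rw [hlen, seg_right (hge j (by omega)) (bt_mono hΓ2 j)]

open Classical in
noncomputable def Dat.lam (D : Dat α S V W) (P : List α) : Option V :=
  if h : ∃ c, D.LL c P then some h.choose.2.2.2.2.2 else none

open Classical in
noncomputable def Dat.rho (D : Dat α S V W) (Q : List α) : Option V :=
  if h : ∃ c, D.RR c Q then some (D.bb h.choose) else none

theorem lam_some {P : List α} {v : V} (h : D.lam P = some v) : ∃ c, D.LL c P ∧ c.2.2.2.2.2 = v := by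
  classical
  unfold Dat.lam at h
  split_ifs at h with h1
  exact ⟨_, h1.choose_spec, by simpa using h⟩

theorem rho_some {Q : List α} {b : V} (h : D.rho Q = some b) : ∃ c, D.RR c Q ∧ D.bb c = b := by
  classical
  unfold Dat.rho at h
  split_ifs at h with h1
  exact ⟨_, h1.choose_spec, by simpa using h⟩

/-- the name code. `bad` residues: some modulus divides. -/
structure Names (D : Dat α S V W) (ms : Finset ℕ) : Prop where
  hM : 0 < D.M
  dvd : ∀ q ∈ ms, q ∣ D.M
  uniq : ∀ o c c', D.LN o c → D.LN o c' → c = c'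
  perL : ∀ o c, D.LN (o + D.M) c ↔ D.LN o c
  perR : ∀ o c, D.RN (o + D.M) c ↔ D.RN o c
  n1 : ∀ T, (∀ q ∈ ms, ¬ q ∣ T) → ∀ o o' c c', o + o' = T → D.LN o c → D.RN o' c' → c = c'
  n2 : ∀ T, (∀ q ∈ ms, ¬ q ∣ T) → D.M ≤ T + 1 → ∀ c, ∃ o, o ≤ T ∧ D.LN o c ∧ D.RN (T - o) c
  n3 : ∀ T, (∃ q ∈ ms, q ∣ T) → ∀ o o' c c' p p' d d', o + o' = T → p + p' = T →
    D.LN o c → D.RN o' c' → D.LN p d → D.RN p' d' → c = d ∧ c' = d'

theorem Names.perL' {ms : Finset ℕ} (hN : Names D ms) {o o' : ℕ} (h : o % D.M = o' % D.M)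
    (c : Fin D.m × S × W × S × W × V) : D.LN o c ↔ D.LN o' c := by
  have key : ∀ k o, D.LN (o + D.M * k) c ↔ D.LN o c := by
    intro k
    induction k with
    | zero => intro o; simp
    | succ k ih => intro o; rw [Nat.mul_succ, ← add_assoc, hN.perL, ih]
  rw [← Nat.mod_add_div o D.M, ← Nat.mod_add_div o' D.M, key, key, h]

theorem Names.perR' {ms : Finset ℕ} (hN : Names D ms) {o o' : ℕ} (h : o % D.M = o' % D.M)
    (c : Fin D.m × S × W × S × W × V) : D.RN o c ↔ D.RN o' c := by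
  have key : ∀ k o, D.RN (o + D.M * k) c ↔ D.RN o c := by
    intro k
    induction k with
    | zero => intro o; simp
    | succ k ih => intro o; rw [Nat.mul_succ, ← add_assoc, hN.perR, ih]
  rw [← Nat.mod_add_div o D.M, ← Nat.mod_add_div o' D.M, key, key, h]

/-- for a bad total modulo `M` there is one pair of labels. -/
theorem Names.bad {ms : Finset ℕ} (hN : Names D ms) (τ : ℕ) (hτ : ∃ q ∈ ms, q ∣ τ) :
    ∃ v0 r0 : V, ∀ o o' c c', (o + o') % D.M = τ % D.M → D.LN o c → D.RN o' c' →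
      c.2.2.2.2.2 = v0 ∧ D.bb c' = r0 := by
  classical
  by_cases hex : ∃ o o' c c', (o + o') % D.M = τ % D.M ∧ D.LN o c ∧ D.RN o' c'
  · obtain ⟨p, p', d, d', hp, hd, hd'⟩ := hex
    refine ⟨d.2.2.2.2.2, D.bb d', fun o o' c c' ho hc hc' => ?_⟩
    obtain ⟨q, hq, hqτ⟩ := hτ
    have hbad : ∀ T, T % D.M = τ % D.M → ∃ q ∈ ms, q ∣ T := by
      intro T hT
      refine ⟨q, hq, ?_⟩
      rw [← Nat.dvd_mod_iff (hN.dvd q hq), hT, Nat.dvd_mod_iff (hN.dvd q hq)]
      exact hqτ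
    have hmod : (p + p') % D.M = (o + o') % D.M := hp.trans ho.symm
    -- make the totals equal
    have h1 : p + (p' + D.M * (o + o')) = (p + p') + D.M * (o + o') := by ring
    rcases Nat.le_total (p + p') (o + o') with hle | hle
    · have hdv : D.M ∣ (o + o') - (p + p') := (Nat.modEq_iff_dvd' hle).1 hmod
      obtain ⟨k, hk⟩ := hdv
      have hd'' : D.RN (p' + D.M * k) d' := (hN.perR' (by simp) d').2 hd'
      obtain ⟨e1, e2⟩ := hN.n3 (o + o') (hbad _ ho) o o' c c' p (p' + D.M * k) d d' rfl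
        (by omega) hc hc' hd hd''
      rw [e1, e2]; exact ⟨rfl, rfl⟩
    · have hdv : D.M ∣ (p + p') - (o + o') := (Nat.modEq_iff_dvd' hle).1 hmod.symm
      obtain ⟨k, hk⟩ := hdv
      have hc'' : D.RN (o' + D.M * k) c' := (hN.perR' (by simp) c').2 hc'
      obtain ⟨e1, e2⟩ := hN.n3 (p + p') (hbad _ hp) o (o' + D.M * k) c c' p p' d d'
        (by omega) rfl hc hc'' hd hd'
      rw [e1, e2]; exact ⟨rfl, rfl⟩
  · exact ⟨0, 0, fun o o' c c' h1 h2 h3 => absurd ⟨o, o', c, c', h1, h2, h3⟩ hex⟩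

/-- the thin condition: total `T` is generic. -/
def Generic (ms : Finset ℕ) (Γ M m T : ℕ) : Prop :=
  (∀ q ∈ ms, ¬ q ∣ T) ∧ ∀ j, 1 ≤ j → j ≤ m →
    M * Γ ^ j ≤ T % Γ ^ (j + 1) ∧ T % Γ ^ (j + 1) + M * Γ ^ j < Γ ^ (j + 1)

/-- shifting a generic total moves the boundaries with it. -/
theorem bt_shift {Γ M m T T' o o' i j : ℕ} (hΓ : 0 < Γ) (hij : i < j) (hj : 1 ≤ j)
    (h1 : M * Γ ^ j ≤ T % Γ ^ (j + 1)) (h2 : T % Γ ^ (j + 1) + M * Γ ^ j < Γ ^ (j + 1))
    (ho : 2 * Γ ^ (i + 1) ≤ o ∧ o < (M + 2) * Γ ^ (i + 1))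
    (ho' : 2 * Γ ^ (i + 1) ≤ o' ∧ o' < (M + 2) * Γ ^ (i + 1)) (hT : T' + o = T + o') :
    bt Γ T' j + o = bt Γ T j + o' := by
  have h3 : Γ ^ (i + 1) ≤ Γ ^ j := Nat.pow_le_pow_right hΓ (by omega)
  have h4 : (M + 2) * Γ ^ (i + 1) = M * Γ ^ (i + 1) + 2 * Γ ^ (i + 1) := by ring
  have h5 : M * Γ ^ (i + 1) ≤ M * Γ ^ j := Nat.mul_le_mul_left _ h3
  set g := Γ ^ (j + 1) with hg
  have hgpos : 0 < g := pow_pos hΓ _
  set ρ := T % g with hρ
  have hTd : T = g * (T / g) + ρ := by rw [hρ]; exact (Nat.div_add_mod T g).symm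
  have key : T' % g + o = ρ + o' := by
    have e1 : ρ + o' ≥ o := by omega
    have e2 : T' = g * (T / g) + (ρ + o' - o) := by omega
    have e3 : ρ + o' - o < g := by omega
    rw [e2, Nat.mul_add_mod, Nat.mod_eq_of_lt e3]
    omega
  unfold bt
  rw [← hg, ← hρ]
  omega

theorem exists_shift {N : ℕ} (hN : 0 < N) (a k : ℕ) : ∃ o, a ≤ o ∧ o < a + N ∧ o % N = k % N := by
  refine ⟨a + (k + (N * a - a)) % N, Nat.le_add_right _ _,
    Nat.add_lt_add_left (Nat.mod_lt _ hN) a, ?_⟩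
  have h1 : a ≤ N * a := Nat.le_mul_of_pos_left a hN
  rw [Nat.add_mod_mod]
  have h2 : a + (k + (N * a - a)) = k + N * a := by omega
  rw [h2, Nat.add_mul_mod_self_left]

/-- **GRID GADGET.** -/
theorem gadget (D : Dat α S V W) (ms : Finset ℕ) (hφ : ∀ u v, D.φ (u ++ v) = D.φ u * D.φ v)
    (hΓ : D.M + 2 ≤ D.Γ) (hcop : Nat.Coprime D.M D.Γ) (hN : Names D ms)
    (hF : ∀ s w v, ∃ i < D.m, ∀ g x h, g * x * h = s → ∀ z,
      D.F (g * z * h) (w - D.e i x + D.e i z) + D.act v (g * z * h) = D.F s w + D.act v s) :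
    ∃ nu : List α → V,
      (∀ P Q v b, D.lam P = some v → D.rho Q = some b → b = D.act v (D.φ (P ++ Q)) + nu (P ++ Q)) ∧
      (∀ P v, D.lam P = some v → 2 * D.Γ ≤ P.length ∧ P.length < D.Γ ^ (D.m + 1)) ∧
      (∀ u : List α, 2 * D.Γ ^ (D.m + 1) ≤ u.length → Generic ms D.Γ D.M D.m u.length →
        ∀ v, ∃ P Q, P ++ Q = u ∧ D.lam P = some v ∧ (D.rho Q).isSome) ∧
      (∀ X Y Y' : List α, X.length = 2 * D.Γ ^ (D.m + 1) → D.φ Y = D.φ Y' →
        Y.length % (D.M * D.Γ ^ (D.m + 1)) = Y'.length % (D.M * D.Γ ^ (D.m + 1)) →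
        D.rho (X ++ Y) = D.rho (X ++ Y') ∧ nu (X ++ Y) = nu (X ++ Y')) := by
  classical
  have hΓ0 : 0 < D.Γ := by omega
  have hΓ2 : 2 ≤ D.Γ := by omega
  have hch : ∀ τ, ∃ v0 r0 : V, (∃ q ∈ ms, q ∣ τ) → ∀ o o' c c', (o + o') % D.M = τ % D.M →
      D.LN o c → D.RN o' c' → c.2.2.2.2.2 = v0 ∧ D.bb c' = r0 := by
    intro τ
    by_cases h : ∃ q ∈ ms, q ∣ τ
    · obtain ⟨v0, r0, h0⟩ := hN.bad τ h
      exact ⟨v0, r0, fun _ => h0⟩
    · exact ⟨0, 0, fun h' => absurd h' h⟩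
  choose v0 r0 h0 using hch
  have hdm : ∀ T, (∃ q ∈ ms, q ∣ T) → ∃ q ∈ ms, q ∣ T % D.M := by
    rintro T ⟨q, hq, hT⟩
    exact ⟨q, hq, (Nat.dvd_mod_iff (hN.dvd q hq)).2 hT⟩
  refine ⟨fun u => if ∃ q ∈ ms, q ∣ u.length then
    r0 (u.length % D.M) - D.act (v0 (u.length % D.M)) (D.φ u) else D.F (D.φ u) (D.ww u),
    ?_, ?_, ?_, ?_⟩
  · intro P Q v b hP hQ
    obtain ⟨c, ⟨hok, hLN, hcell, hgl, hwl⟩, rfl⟩ := lam_some hP
    obtain ⟨c', ⟨hok', hRN, hdv, hrr⟩, rfl⟩ := rho_some hQ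
    have hlen : (P ++ Q).length = P.length + Q.length := List.length_append
    beta_reduce
    by_cases hbad : ∃ q ∈ ms, q ∣ (P ++ Q).length
    · rw [if_pos hbad]
      obtain ⟨e1, e2⟩ := h0 ((P ++ Q).length % D.M) (hdm _ hbad) P.length Q.length c c'
        (by rw [Nat.mod_mod, hlen]) hLN hRN
      rw [e2, ← e1]; abel
    · rw [if_neg hbad]
      have hg : ∀ q ∈ ms, ¬ q ∣ (P ++ Q).length := fun q hq hd => hbad ⟨q, hq, hd⟩
      have hcc : c = c' := hN.n1 _ hg _ _ _ _ hlen.symm hLN hRN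
      subst hcc
      obtain ⟨r1, r2⟩ := read hφ hΓ c.1.2 hcell hdv
      obtain ⟨r3, r4⟩ := hrr _ hcell
      have := hok (D.zz (P ++ Q) c.1)
      rw [← hgl, ← hwl, ← r3, ← r4, ← r1, ← r2] at this
      rw [add_comm]; exact this.symm
  · intro P v hP
    obtain ⟨c, ⟨-, -, hcell, -, -⟩, -⟩ := lam_some hP
    have him := c.1.2
    have h1 : D.Γ ^ 1 ≤ D.Γ ^ ((c.1 : ℕ) + 1) := Nat.pow_le_pow_right hΓ0 (by omega)
    rw [pow_one] at h1
    have h2 : D.Γ ^ ((c.1 : ℕ) + 1 + 1) ≤ D.Γ ^ (D.m + 1) := Nat.pow_le_pow_right hΓ0 (by omega)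
    have h3 : (D.M + 2) * D.Γ ^ ((c.1 : ℕ) + 1) ≤ D.Γ ^ ((c.1 : ℕ) + 1 + 1) := by
      rw [pow_succ D.Γ ((c.1 : ℕ) + 1), mul_comm]; exact Nat.mul_le_mul_left _ hΓ
    have h4 := hcell.1
    have h5 := hcell.2
    exact ⟨by omega, by omega⟩
  · intro u hu hgen v
    obtain ⟨i, him, hi⟩ := hF (D.φ u) (D.ww u) v
    set T := u.length with hT
    -- the data of the level `i`
    set G := D.Γ ^ (i + 1) with hGdef
    have hG0 : 0 < G := pow_pos hΓ0 _
    have hpowle : ∀ j, j ≤ D.m → D.Γ ^ (j + 1) ≤ D.Γ ^ (D.m + 1) := fun j hj =>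
      Nat.pow_le_pow_right hΓ0 (by omega)
    have hcell3 : (D.M + 2) * G ≤ D.Γ ^ (i + 1 + 1) := by
      rw [pow_succ D.Γ (i + 1), mul_comm]; exact Nat.mul_le_mul_left _ hΓ
    have hcellT : (D.M + 2) * G ≤ T := by
      have := hpowle (i + 1) him
      omega
    have hMT : D.M ≤ T + 1 := by
      have : D.M * 1 ≤ (D.M + 2) * G := Nat.mul_le_mul (by omega) hG0
      omega
    set gg := D.φ (u.take (bt D.Γ T i)) with hgg
    set wl := ∑ j ∈ range i, D.e j (D.zz u j) with hwl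
    set hh := D.φ (u.drop (bt D.Γ T (i + 1))) with hhh
    set wr := ∑ j ∈ Ico (i + 1) D.m, D.e j (D.zz u j) with hwr
    set c : Fin D.m × S × W × S × W × V := (⟨i, him⟩, gg, wl, hh, wr, v) with hcdef
    have e5 : D.φ u = gg * D.zz u i * hh := by
      have h5 := seg_split u (bt_mono (T := T) hΓ2 i)
      conv_lhs => rw [← h5]
      rw [hφ, hφ]; rfl
    have e6 : D.ww u = wl + D.e i (D.zz u i) + wr := by
      unfold Dat.ww
      rw [← Finset.sum_range_add_sum_Ico _ (show i + 1 ≤ D.m from him), Finset.sum_range_succ]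
    have hall : ∀ z, D.F (gg * z * hh) (wl + D.e i z + wr) + D.act v (gg * z * hh) =
        D.F (D.φ u) (D.ww u) + D.act v (D.φ u) := by
      intro z
      have := hi gg (D.zz u i) hh e5.symm z
      rw [← this, e6]
      congr 2
      abel
    have hok : D.ok c := by
      intro z
      show D.F (gg * z * hh) (wl + D.e i z + wr) + D.act v (gg * z * hh) = _
      rw [hall z]
      exact (hall 1).symm
    obtain ⟨o0, ho0, hL0, hR0⟩ := hN.n2 T hgen.1 hMT c
    have hcopG : Nat.Coprime D.M G := Nat.Coprime.pow_right _ hcop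
    obtain ⟨k, hk1, hk2⟩ := Nat.chineseRemainder hcopG o0 T
    obtain ⟨o, ho1, ho2, ho3⟩ := exists_shift (Nat.mul_pos hN.hM hG0) (2 * G) k
    have hoc : D.cell i o := ⟨ho1, by
      have : (D.M + 2) * D.Γ ^ (i + 1) = 2 * G + D.M * G := by rw [← hGdef]; ring
      omega⟩
    have hoM : o % D.M = o0 % D.M := by
      have := congrArg (· % D.M) ho3
      simp only [Nat.mod_mul_right_mod] at this
      rw [this]; exact hk1
    have hoG : o % G = T % G := by
      have := congrArg (· % G) ho3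
      simp only [Nat.mod_mul_left_mod] at this
      rw [this]; exact hk2
    have hoT : o ≤ T := by
      have := hoc.2
      rw [← hGdef] at this
      omega
    have hdvd : G ∣ T - o := (Nat.modEq_iff_dvd' hoT).1 hoG
    have hRM : (T - o) % D.M = (T - o0) % D.M := by
      have h1 : (T - o) + o = (T - o0) + o0 := by omega
      have h2 : ((T - o) + o) ≡ ((T - o0) + o) [MOD D.M] := by
        rw [h1]; exact Nat.ModEq.add_left _ hoM.symm
      exact Nat.ModEq.add_right_cancel' o h2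
    set P := u.take o with hP
    set Q := u.drop o with hQ
    have hPQ : P ++ Q = u := List.take_append_drop _ _
    have hPl : P.length = o := by rw [hP, List.length_take]; omega
    have hQl : Q.length = T - o := by rw [hQ, List.length_drop]
    have hcP : D.cell i P.length := by rw [hPl]; exact hoc
    have hdQ : D.Γ ^ (i + 1) ∣ Q.length := by rw [hQl]; exact hdvd
    -- left data
    have hb : ∀ j, j ≤ i → bt D.Γ P.length j = bt D.Γ T j := by
      intro j hj
      apply bt_congr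
      have hd : D.Γ ^ (j + 1) ∣ Q.length := (pow_dvd_pow _ (by omega)).trans hdQ
      obtain ⟨l, hl⟩ := hd
      have : T = P.length + D.Γ ^ (j + 1) * l := by rw [← hl]; omega
      rw [this, Nat.add_mul_mod_self_left]
    have hle : ∀ j, j ≤ i → bt D.Γ T j ≤ P.length := by
      intro j hj
      have h1 := bt_lt (Γ := D.Γ) (T := T) (j := j) hΓ0
      have h2 : D.Γ ^ (j + 1) ≤ D.Γ ^ (i + 1) := Nat.pow_le_pow_right hΓ0 (by omega)
      have := hcP.1
      omega
    have hgl : D.gl P i = gg := by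
      unfold Dat.gl
      rw [hb i le_rfl, hgg]
      congr 1
      rw [← hPQ, List.take_append_of_le_length (hle i le_rfl)]
    have hwl' : D.wl P i = wl := by
      unfold Dat.wl
      rw [hwl]
      refine Finset.sum_congr rfl fun j hj => ?_
      have hj' := Finset.mem_range.1 hj
      unfold Dat.zz
      rw [hb j (by omega), hb (j + 1) (by omega), ← hT]
      congr 2
      rw [← hPQ, seg_left (hle (j + 1) (by omega))]
    have hLL : D.LL c P := ⟨hok, (by rw [hPl]; exact (hN.perL' hoM c).2 hL0), hcP, hgl, hwl'⟩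
    -- right data
    have hge : ∀ j, i < j → (D.M + 2) * D.Γ ^ (i + 1) ≤ D.Γ ^ (j + 1) := by
      intro j hj
      have h2 : D.Γ ^ (i + 1 + 1) ≤ D.Γ ^ (j + 1) := Nat.pow_le_pow_right hΓ0 (by omega)
      exact hcell3.trans h2
    have hpos : ∀ o2, D.cell i o2 → ∀ j, i < j → j ≤ D.m →
        bt D.Γ (o2 + Q.length) j - o2 = bt D.Γ T j - o := by
      intro o2 ho2c j hij hjm
      obtain ⟨g1, g2⟩ := hgen.2 j (by omega) hjm
      have := bt_shift (M := D.M) (m := D.m) (T := T) (T' := o2 + Q.length) (o := o) (o' := o2)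
        (i := i) (j := j) hΓ0 hij (by omega) g1 g2 hoc ho2c (by omega)
      have q1 := hge j hij
      have q2 := le_bt (Γ := D.Γ) (T := T) (j := j)
      have q3 := le_bt (Γ := D.Γ) (T := o2 + Q.length) (j := j)
      have q4 := hoc.2
      have q5 := ho2c.2
      omega
    have hRR : D.RR c Q := by
      refine ⟨hok, (by rw [hQl]; exact (hN.perR' hRM c).2 hR0), hdQ, fun o2 ho2c => ?_⟩
      have q4 := hoc.2
      constructor
      · show D.hr Q i o2 = hh
        unfold Dat.hr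
        rw [hpos o2 ho2c (i + 1) (by omega) him, hhh, hQ, List.drop_drop]
        congr 2
        have q2 := le_bt (Γ := D.Γ) (T := T) (j := i + 1)
        have q1 := hge (i + 1) (by omega)
        omega
      · show D.wr Q i o2 = wr
        unfold Dat.wr
        rw [hwr]
        refine Finset.sum_congr rfl fun j hj => ?_
        obtain ⟨hj1, hj2⟩ := Finset.mem_Ico.1 hj
        unfold Dat.zz
        rw [hpos o2 ho2c j (by omega) hj2.le, hpos o2 ho2c (j + 1) (by omega) hj2, ← hT]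
        congr 2
        have q2 := le_bt (Γ := D.Γ) (T := T) (j := j)
        have q1 := hge j (by omega)
        have := seg_right (P := P) (Q := Q) (a := bt D.Γ T j) (b := bt D.Γ T (j + 1))
          (by omega) (bt_mono hΓ2 j)
        rw [hPQ, hPl] at this
        exact this.symm
    refine ⟨P, Q, hPQ, ?_, ?_⟩
    · unfold Dat.lam
      have hex : ∃ c, D.LL c P := ⟨c, hLL⟩
      rw [dif_pos hex]
      have := hN.uniq _ _ _ hex.choose_spec.2.1 hLL.2.1
      rw [this]
    · unfold Dat.rho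
      rw [dif_pos ⟨c, hRR⟩]; rfl
  · intro X Y Y' hX hφY hlY
    have hlen : ∀ j, j ≤ D.m → ∀ o, (o + (X ++ Y).length) % D.Γ ^ (j + 1) =
        (o + (X ++ Y').length) % D.Γ ^ (j + 1) := by
      intro j hj o
      have h1 : Y.length ≡ Y'.length [MOD D.Γ ^ (j + 1)] :=
        Nat.ModEq.of_dvd ((pow_dvd_pow _ (by omega)).trans (Dvd.intro_left _ rfl)) hlY
      simp only [List.length_append]
      exact (h1.add_left _).add_left _
    have hlM : (X ++ Y).length % D.M = (X ++ Y').length % D.M := by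
      have h1 : Y.length ≡ Y'.length [MOD D.M] := Nat.ModEq.of_dvd (Dvd.intro _ rfl) hlY
      simp only [List.length_append]
      exact h1.add_left _
    have hbt : ∀ j, j ≤ D.m → ∀ o, bt D.Γ (o + (X ++ Y).length) j = bt D.Γ (o + (X ++ Y').length) j :=
      fun j hj o => bt_congr (hlen j hj o)
    have hbt0 : ∀ j, j ≤ D.m → bt D.Γ (X ++ Y).length j = bt D.Γ (X ++ Y').length j := by
      intro j hj
      have := hbt j hj 0
      rwa [zero_add, zero_add] at this
    have hbX : ∀ T j, j ≤ D.m → bt D.Γ T j ≤ X.length := by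
      intro T j hj
      have h1 := bt_lt (Γ := D.Γ) (T := T) (j := j) hΓ0
      have h2 : D.Γ ^ (j + 1) ≤ D.Γ ^ (D.m + 1) := Nat.pow_le_pow_right hΓ0 (by omega)
      omega
    have hseg : ∀ a b, b ≤ X.length → seg (X ++ Y) a b = seg (X ++ Y') a b := by
      intro a b hb
      rw [seg_left hb, seg_left hb]
    have hdrop : ∀ a, a ≤ X.length → D.φ ((X ++ Y).drop a) = D.φ ((X ++ Y').drop a) := by
      intro a ha
      rw [List.drop_append_of_le_length ha, List.drop_append_of_le_length ha, hφ, hφ, hφY]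
    have hdv : ∀ j, j ≤ D.m → (D.Γ ^ (j + 1) ∣ (X ++ Y).length ↔ D.Γ ^ (j + 1) ∣ (X ++ Y').length) := by
      intro j hj
      have := hlen j hj 0
      rw [zero_add, zero_add] at this
      rw [Nat.dvd_iff_mod_eq_zero, Nat.dvd_iff_mod_eq_zero, this]
    have hRR : ∀ c, D.RR c (X ++ Y) ↔ D.RR c (X ++ Y') := by
      intro c
      have hc := c.1.2
      unfold Dat.RR
      rw [hN.perR' hlM c, hdv _ hc.le]
      have h1 : ∀ o, D.hr (X ++ Y) c.1 o = D.hr (X ++ Y') c.1 o := by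
        intro o
        unfold Dat.hr
        rw [hbt _ hc o]
        exact hdrop _ ((Nat.sub_le _ _).trans (hbX _ _ hc))
      have h2 : ∀ o, D.wr (X ++ Y) c.1 o = D.wr (X ++ Y') c.1 o := by
        intro o
        unfold Dat.wr
        refine Finset.sum_congr rfl fun j hj => ?_
        obtain ⟨hj1, hj2⟩ := Finset.mem_Ico.1 hj
        rw [hbt j hj2.le o, hbt (j + 1) hj2 o, hseg _ _ ((Nat.sub_le _ _).trans (hbX _ _ hj2))]
      simp only [h1, h2]
    constructor
    · unfold Dat.rho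
      have : (fun c => D.RR c (X ++ Y)) = fun c => D.RR c (X ++ Y') := funext fun c => propext (hRR c)
      simp only [this]
    · beta_reduce
      have hq : (∃ q ∈ ms, q ∣ (X ++ Y).length) ↔ ∃ q ∈ ms, q ∣ (X ++ Y').length := by
        constructor
        · rintro ⟨q, hq, h⟩
          refine ⟨q, hq, ?_⟩
          rw [← Nat.dvd_mod_iff (hN.dvd q hq), ← hlM, Nat.dvd_mod_iff (hN.dvd q hq)]; exact h
        · rintro ⟨q, hq, h⟩
          refine ⟨q, hq, ?_⟩
          rw [← Nat.dvd_mod_iff (hN.dvd q hq), hlM, Nat.dvd_mod_iff (hN.dvd q hq)]; exact h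
      have hww : D.ww (X ++ Y) = D.ww (X ++ Y') := by
        unfold Dat.ww
        refine Finset.sum_congr rfl fun j hj => ?_
        have hj' := Finset.mem_range.1 hj
        unfold Dat.zz
        rw [hbt0 j hj'.le, hbt0 (j + 1) hj', hseg _ _ (hbX _ _ hj')]
      have hphi : D.φ (X ++ Y) = D.φ (X ++ Y') := by rw [hφ, hφ, hφY]
      by_cases hb : ∃ q ∈ ms, q ∣ (X ++ Y).length
      · rw [if_pos hb, if_pos (hq.1 hb), hlM, hphi]
      · rw [if_neg hb, if_neg (fun h => hb (hq.2 h)), hww, hphi]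

end Crest.Agent.R320.Grid_187
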