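import Crest.Agent.R320.WallU_228
import Crest.Agent.R320.Block_467
import Crest.Agent.R320.Reg_852

/-!
# Row 320: last joint for the natural block code (helper749)

Blocks = `XX n S z`: first left-looking wall at a place `≥ z`.
* `pcode`, `HL_XX`, `nw_XX`, `nw_rest`;
* `hfib` : the fibres of an affine zone map on the blocks have height one;
* `HL_rest` : the remainder;
* `final` : thread languages of height 3 give the fibres of the monoid;
* `reg_nu` : regularity of the noise of a zone `X1 ++ Y`.
-/

set_option autoImplicit false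

namespace Crest.Agent.R320.Last_749

open Crest.RegLang Crest.Agent.R320.Hk_851 Crest.Agent.R320.FewWalls_228
  Crest.Agent.R320.WallU_228 Crest.Agent.R320.Blk467

universe u

variable {α : Type u}

/-- the language of a predicate -/
def lg (p : List α → Prop) : Language α := {w | p w}

theorem mem_lg {p : List α → Prop} {w : List α} : w ∈ lg p ↔ p w := Iff.rfl

/-- the natural block code -/
def XX (n : ℕ) (S : Set (List α)) (z : ℕ) : Set (List α) :=
  {X | z ≤ X.length ∧ Wo n S X ∧ ∀ t, z ≤ t → t < X.length → ¬ Wo n S (X.take t)}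

theorem pcode {n : ℕ} {S : Set (List α)} {z : ℕ} (hz : 0 < z) : PCode (XX n S z) := by
  refine ⟨fun h => ?_, ?_⟩
  · have := h.1
    simp at this
    omega
  · rintro X ⟨h1, h2, _⟩ Y ⟨_, _, h6⟩ ⟨R, rfl⟩
    by_contra hne
    have hR : 0 < R.length := by
      rcases Nat.eq_zero_or_pos R.length with h | h
      · exfalso
        apply hne
        rw [List.length_eq_zero_iff.1 h, List.append_nil]
      · exact h
    refine h6 X.length h1 (by rw [List.length_append]; omega) ?_
    rw [List.take_left]
    exact h2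

theorem HL_Wo [Finite α] {k : ℕ} (n : ℕ) (S : Set (List α)) :
    HL k ({X | Wo n S X} : Language α) := by
  have hf : ({v | v.length = n ∧ v ∈ S} : Set (List α)).Finite :=
    (List.finite_length_eq α n).subset fun v hv => hv.1
  refine (HL.suffix (HL.finite (k := k) hf)).congr fun w => ?_
  constructor
  · rintro ⟨h1, h2⟩
    exact ⟨w.drop (w.length - n), ⟨by rw [List.length_drop]; omega, h2⟩, List.drop_suffix _ _⟩
  · rintro ⟨v, ⟨h1, h2⟩, ⟨u, rfl⟩⟩
    refine ⟨by rw [List.length_append]; omega, ?_⟩
    have e : (u ++ v).length - n = u.length := by rw [List.length_append]; omega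
    rw [e, List.drop_left]
    exact h2

theorem HL_XX [Finite α] {k : ℕ} (n : ℕ) (S : Set (List α)) (z : ℕ) :
    HL k (XX n S z : Language α) := by
  have h1 : HL k ({X | z ≤ X.length ∧ Wo n S X} : Language α) :=
    HL.setOf_and (HL.length_ge z) (HL_Wo n S)
  have h2 : HL k ({X | 1 ≤ X.length} : Language α) := HL.length_ge 1
  refine (h1.sdiff (h1.mul h2)).congr fun w => ?_
  constructor
  · rintro ⟨a, b, c⟩
    refine ⟨⟨a, b⟩, ?_⟩
    rintro h
    obtain ⟨x, ⟨hx1, hx2⟩, y, hy, rfl⟩ := Language.mem_mul.1 h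
    have hy' : 1 ≤ y.length := hy
    refine c x.length hx1 (by rw [List.length_append]; omega) ?_
    rw [List.take_left]
    exact hx2
  · rintro ⟨⟨a, b⟩, c⟩
    refine ⟨a, b, fun t h1 h2 h3 => c ?_⟩
    refine Language.mem_mul.2 ⟨w.take t, ⟨by rw [List.length_take]; omega, h3⟩, w.drop t, ?_,
      List.take_append_drop _ _⟩
    show 1 ≤ (w.drop t).length
    rw [List.length_drop]
    omega

theorem nw_XX {n : ℕ} {S : Set (List α)} {z : ℕ} {X : List α} (hX : X ∈ XX n S z) :
    nw n S X ≤ z + 1 := by
  classical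
  unfold nw
  have hsub : ((Finset.range (X.length + 1)).filter (fun x => Wl n S X x)) ⊆
      insert (X.length - n) (Finset.range z) := by
    intro x hx
    obtain ⟨h1, h2⟩ := wo_take.1 (Finset.mem_filter.1 hx).2
    rw [Finset.mem_insert, Finset.mem_range]
    by_cases h : x + n < X.length
    · right
      by_contra hc
      exact hX.2.2 (x + n) (by omega) h h2
    · left; omega
  refine (Finset.card_le_card hsub).trans ?_
  refine (Finset.card_insert_le _ _).trans ?_
  rw [Finset.card_range]

/-- no block is a prefix -/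
def Rest (n : ℕ) (S : Set (List α)) (z : ℕ) (r : List α) : Prop := ∀ X ∈ XX n S z, ¬ X <+: r

theorem rest_iff {n : ℕ} {S : Set (List α)} {z : ℕ} {r : List α} :
    Rest n S z r ↔ ∀ t, z ≤ t → t ≤ r.length → ¬ Wo n S (r.take t) := by
  classical
  constructor
  · intro h t h1 h2 h3
    have hex : ∃ t, z ≤ t ∧ t ≤ r.length ∧ Wo n S (r.take t) := ⟨t, h1, h2, h3⟩
    obtain ⟨a, b, c⟩ := Nat.find_spec hex
    have hl : (r.take (Nat.find hex)).length = Nat.find hex := by rw [List.length_take]; omega
    refine h (r.take (Nat.find hex)) ⟨by omega, c, ?_⟩ (List.take_prefix _ _)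
    intro s h4 h5 h6
    rw [hl] at h5
    rw [List.take_take, min_eq_left h5.le] at h6
    exact Nat.find_min hex h5 ⟨h4, by omega, h6⟩
  · rintro h X ⟨h1, h2, _⟩ ⟨R, rfl⟩
    refine h X.length h1 (by rw [List.length_append]; omega) ?_
    rw [List.take_left]
    exact h2

theorem nw_rest {n : ℕ} {S : Set (List α)} {z : ℕ} {r : List α} (hr : Rest n S z r) :
    nw n S r ≤ z + 1 := by
  classical
  unfold nw
  have hsub : ((Finset.range (r.length + 1)).filter (fun x => Wl n S r x)) ⊆
      Finset.range z := by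
    intro x hx
    obtain ⟨h1, h2⟩ := wo_take.1 (Finset.mem_filter.1 hx).2
    rw [Finset.mem_range]
    by_contra hc
    exact rest_iff.1 hr (x + n) (by omega) h1 h2
  refine (Finset.card_le_card hsub).trans ?_
  rw [Finset.card_range]
  omega

theorem reg_exists {ι : Type*} [Finite ι] {L : ι → Language α} (h : ∀ i, (L i).IsRegular) :
    Language.IsRegular ({w | ∃ i, w ∈ L i} : Language α) := by
  classical
  have key : ∀ s : Set ι, s.Finite → Language.IsRegular ({w | ∃ i ∈ s, w ∈ L i} : Language α) := by
    intro s hs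
    induction s, hs using Set.Finite.induction_on with
    | empty =>
      have e : lg (fun w => ∃ i ∈ (∅ : Set ι), w ∈ L i) = 0 := by
        ext w
        constructor
        · rintro ⟨i, hi, _⟩; exact hi.elim
        · intro hw; exact hw.elim
      have h2 : (lg (fun w => ∃ i ∈ (∅ : Set ι), w ∈ L i)).IsRegular := by
        rw [e]
        exact Crest.Agent.R320.Reg_852.isRegular_zero
      exact h2
    | @insert a s _ _ ih =>
      have e : lg (fun w => ∃ i ∈ insert a s, w ∈ L i) =
          L a + lg (fun w => ∃ i ∈ s, w ∈ L i) := by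
        ext w
        constructor
        · rintro ⟨i, hi, hw⟩
          rcases hi with rfl | hi
          · exact Or.inl hw
          · exact Or.inr ⟨i, hi, hw⟩
        · rintro (hw | ⟨i, hi, hw⟩)
          · exact ⟨a, Set.mem_insert _ _, hw⟩
          · exact ⟨i, Set.mem_insert_of_mem _ hi, hw⟩
      have h2 : (lg (fun w => ∃ i ∈ insert a s, w ∈ L i)).IsRegular := by
        rw [e]
        exact (h a).add ih
      exact h2
  have := key Set.univ Set.finite_univ
  simpa using this

section fib

variable {M V : Type*} [Monoid M] [Finite M] [AddCommGroup V] [Finite V]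

/-- `act x (phi X) + nu X = y` is regular if the fibres of `nu` are -/
theorem reg_T (act : V → M → V) (φ : α → M) (ν : List α → V)
    (hν : ∀ v, Language.IsRegular ({X | ν X = v} : Language α)) (x y : V) :
    Language.IsRegular ({X | act x (X.map φ).prod + ν X = y} : Language α) := by
  have h := reg_exists (α := α) (ι := {p : M × V // act x p.1 + p.2 = y})
    (L := fun p => lg (fun X => (X.map φ).prod = p.1.1) ⊓ lg (fun X => ν X = p.1.2))
    (fun p => (Crest.Agent.R320.Reg_852.isRegular_prod φ p.1.1).inf (hν p.1.2))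
  have e : lg (fun X => act x (X.map φ).prod + ν X = y) =
      lg (fun w => ∃ p : {p : M × V // act x p.1 + p.2 = y},
        w ∈ (lg (fun X => (X.map φ).prod = p.1.1) ⊓ lg (fun X => ν X = p.1.2))) := by
    ext X
    constructor
    · intro hX
      exact ⟨⟨((X.map φ).prod, ν X), hX⟩, rfl, rfl⟩
    · rintro ⟨⟨p, hp⟩, h1, h2⟩
      have h1' : (X.map φ).prod = p.1 := h1
      have h2' : ν X = p.2 := h2
      show act x (X.map φ).prod + ν X = y
      rw [h1', h2']
      exact hp
  have h2 : (lg (fun X => act x (X.map φ).prod + ν X = y)).IsRegular := by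
    rw [e]
    exact h
  exact h2

/-- the noise of a zone `X1 ++ Y`, `|X1| = p0` -/
theorem reg_nu [Finite α] (act : V → M → V) (φ : α → M) (p0 : ℕ) (ν2 ν1 : List α → V)
    (hν : ∀ v, Language.IsRegular ({Y | ν1 Y = v} : Language α)) (v : V) :
    Language.IsRegular ({X | act (ν2 (X.take p0)) ((X.drop p0).map φ).prod +
      ν1 (X.drop p0) = v} : Language α) := by
  have : Finite {X0 : List α // X0.length = p0} := (List.finite_length_eq α p0).to_subtype
  have h := reg_exists (α := α) (ι := {X0 : List α // X0.length = p0})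
    (L := fun X0 => ({X0.1} : Language α) *
      lg (fun Y => act (ν2 X0.1) (Y.map φ).prod + ν1 Y = v))
    (fun X0 => Crest.Agent.R320.Reg_852.IsRegular.mul
      (Crest.Agent.R320.Reg_852.HL.isRegular (HL.word (k := 0) X0.1))
      (reg_T act φ ν1 hν (ν2 X0.1) v))
  have hs : Language.IsRegular (lg (fun X => X.length < p0 ∧ act (ν2 (X.take p0))
      ((X.drop p0).map φ).prod + ν1 (X.drop p0) = v)) :=
    Crest.Agent.R320.Reg_852.HL.isRegular (HL.finite (k := 0)
      ((List.finite_length_lt α p0).subset fun X hX => hX.1))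
  have e : lg (fun X => act (ν2 (X.take p0)) ((X.drop p0).map φ).prod +
      ν1 (X.drop p0) = v) =
      lg (fun X => X.length < p0 ∧ act (ν2 (X.take p0))
        ((X.drop p0).map φ).prod + ν1 (X.drop p0) = v) +
      lg (fun w => ∃ X0 : {X0 : List α // X0.length = p0}, w ∈ (({X0.1} : Language α) *
      lg (fun Y => act (ν2 X0.1) (Y.map φ).prod + ν1 Y = v))) := by
    ext X
    constructor
    · intro hX
      by_cases hl : X.length < p0
      · exact Or.inl ⟨hl, hX⟩
      · refine Or.inr ⟨⟨X.take p0, by rw [List.length_take]; omega⟩, ?_⟩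
        exact Language.mem_mul.2 ⟨X.take p0, rfl, X.drop p0, hX, List.take_append_drop _ _⟩
    · rintro (⟨_, hX⟩ | ⟨⟨X0, h0⟩, hX⟩)
      · exact hX
      · obtain ⟨a, ha, Y, hY, rfl⟩ := Language.mem_mul.1 hX
        have ha' : a = X0 := ha
        subst ha'
        have e1 : (a ++ Y).take p0 = a := by rw [← h0, List.take_left]
        have e2 : (a ++ Y).drop p0 = Y := by rw [← h0, List.drop_left]
        show act (ν2 ((a ++ Y).take p0)) (((a ++ Y).drop p0).map φ).prod +
          ν1 ((a ++ Y).drop p0) = v
        rw [e1, e2]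
        exact hY
  have h2 : (lg (fun X => act (ν2 (X.take p0)) ((X.drop p0).map φ).prod +
      ν1 (X.drop p0) = v)).IsRegular := by
    rw [e]
    exact hs.add h
  exact h2

variable {n c P : ℕ} {S : Set (List α)}

/-- the fibres on the blocks have height one -/
theorem hfib [Finite α]
    (hfew : ∀ (L : Language α), L.IsRegular → ∀ r, HL 1 ({w | w ∈ L ∧ nw n S w ≤ r} : Language α))
    (z : ℕ) (act : V → M → V) (φ : α → M) (ν : List α → V)
    (hν : ∀ v, Language.IsRegular ({X | ν X = v} : Language α)) (x y : V) :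
    HL 1 ({X | X ∈ XX n S z ∧ act x (X.map φ).prod + ν X = y} : Language α) := by
  have hreg : Language.IsRegular ((XX n S z : Language α) ⊓
      ({X | act x (X.map φ).prod + ν X = y} : Language α)) :=
    (Crest.Agent.R320.Reg_852.HL.isRegular (HL_XX (k := 0) n S z)).inf (reg_T act φ ν hν x y)
  refine (hfew _ hreg (z + 1)).congr fun w => ?_
  constructor
  · rintro ⟨h1, h2⟩
    exact ⟨⟨h1, h2⟩, nw_XX h1⟩
  · rintro ⟨⟨h1, h2⟩, _⟩
    exact ⟨h1, h2⟩

theorem HL_Rest [Finite α] {k : ℕ} (z : ℕ) : HL k ({r | Rest n S z r} : Language α) := by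
  have h1 : HL k ({X | z ≤ X.length ∧ Wo n S X} : Language α) :=
    HL.setOf_and (HL.length_ge z) (HL_Wo n S)
  refine (h1.mul HL.top).compl.congr fun w => ?_
  constructor
  · intro h hw
    obtain ⟨x, ⟨hx1, hx2⟩, y, _, rfl⟩ := Language.mem_mul.1 hw
    refine rest_iff.1 h x.length hx1 (by rw [List.length_append]; omega) ?_
    rw [List.take_left]
    exact hx2
  · intro h
    refine rest_iff.2 fun t h2 h3 h4 => h ?_
    exact Language.mem_mul.2 ⟨w.take t, ⟨by rw [List.length_take]; omega, h4⟩, w.drop t, trivial,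
      List.take_append_drop _ _⟩

/-- the remainder has height one -/
theorem HL_rest [Finite α]
    (hfew : ∀ (L : Language α), L.IsRegular → ∀ r, HL 1 ({w | w ∈ L ∧ nw n S w ≤ r} : Language α))
    (z : ℕ) (φ : α → M) (s : M) :
    HL 1 ({r | Rest n S z r ∧ (r.map φ).prod = s} : Language α) := by
  have hreg : Language.IsRegular (({r | Rest n S z r} : Language α) ⊓
      ({X | (X.map φ).prod = s} : Language α)) :=
    (Crest.Agent.R320.Reg_852.HL.isRegular (HL_Rest (k := 0) z)).inf
      (Crest.Agent.R320.Reg_852.isRegular_prod φ s)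
  refine (hfew _ hreg (z + 1)).congr fun w => ?_
  constructor
  · rintro ⟨h1, h2⟩
    exact ⟨⟨h1, h2⟩, nw_rest h1⟩
  · rintro ⟨⟨h1, h2⟩, _⟩
    exact ⟨h1, h2⟩

/-- every word is blocks and a remainder -/
theorem parse {z : ℕ} (hz : 0 < z) (w : List α) :
    ∃ l : List (List α), (∀ X ∈ l, X ∈ XX n S z) ∧ ∃ r, Rest n S z r ∧ l.flatten ++ r = w := by
  induction hl : w.length using Nat.strong_induction_on generalizing w with
  | _ k ih =>
    by_cases hr : Rest n S z w
    · exact ⟨[], by simp, w, hr, by simp⟩
    · unfold Rest at hr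
      rw [not_forall] at hr
      obtain ⟨X, hr⟩ := hr
      rw [Classical.not_imp, not_not] at hr
      obtain ⟨hX, R, rfl⟩ := hr
      have hXl : 0 < X.length := lt_of_lt_of_le hz hX.1
      obtain ⟨l, h1, r, h2, h3⟩ := ih R.length (by
        rw [← hl, List.length_append]; omega) R rfl
      refine ⟨X :: l, ?_, r, h2, ?_⟩
      · intro Y hY
        rcases List.mem_cons.1 hY with rfl | hY
        · exact hX
        · exact h1 Y hY
      · rw [List.flatten_cons, List.append_assoc, h3]

/-- thread languages of height `k + 1` give the fibres of the monoid -/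
theorem final [Finite α] {k : ℕ}
    (hfew : ∀ (L : Language α), L.IsRegular → ∀ r, HL 1 ({w | w ∈ L ∧ nw n S w ≤ r} : Language α))
    {z : ℕ} (hz : 0 < z) (act : V → M → V)
    (hadd : ∀ a b s, act (a + b) s = act a s + act b s)
    (hone : ∀ v, act v 1 = v) (hmul : ∀ v s t, act v (s * t) = act (act v s) t)
    (hfaith : ∀ s t, (∀ v, act v s = act v t) → s = t)
    (φ : α → M) (ν : List α → V)
    (h3 : ∀ x y, HL (k + 1) (Lg (XX n S z) (fun v X => act v (X.map φ).prod + ν X) x y)) (s : M) :
    HL (k + 1) ({w | (w.map φ).prod = s} : Language α) := by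
  have hfib := fibre_of_threads act hadd hone hmul hfaith φ ν (XX n S z) (pcode hz).uparse h3
  have key := HL.iUnion (k := k + 1) (ι := {p : M × M // p.1 * p.2 = s})
    (L := fun p => lg (fun w => w ∈ Str (XX n S z) ∧ (w.map φ).prod = p.1.1) *
      lg (fun r => Rest n S z r ∧ (r.map φ).prod = p.1.2))
    (fun p => (hfib p.1.1).mul ((HL_rest hfew z φ p.1.2).mono (by omega)))
  refine key.congr fun w => ?_
  constructor
  · intro hw
    obtain ⟨l, h1, r, h2, rfl⟩ := parse (n := n) (S := S) hz w
    have hw' : (l.flatten.map φ).prod * (r.map φ).prod = s := by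
      have : ((l.flatten ++ r).map φ).prod = s := hw
      rwa [List.map_append, List.prod_append] at this
    exact ⟨⟨(_, _), hw'⟩, Language.mem_mul.2 ⟨_, ⟨⟨l, h1, rfl⟩, rfl⟩, r, ⟨h2, rfl⟩, rfl⟩⟩
  · rintro ⟨⟨p, hp⟩, hw⟩
    obtain ⟨a, ⟨_, ha⟩, b, ⟨_, hb⟩, rfl⟩ := Language.mem_mul.1 hw
    show ((a ++ b).map φ).prod = s
    rw [List.map_append, List.prod_append, ha, hb]
    exact hp

end fib

end Crest.Agent.R320.Last_749
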