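import Crest.Agent.R320.SemTop_727
import Crest.Agent.R320.Joint_103
import Crest.Agent.R320.Last_749
import Crest.Agent.R320.Grid_187
import Crest.Agent.R320.Names_570
import Crest.Agent.R320.GridRuler_257
import Crest.Agent.R320.Bridge_975
import Crest.Agent.R320.Univ_294

/-!
# Row 320: the final assembly (helper103)

693's grid gadget (`Grid_187`), names (`Names_570`), noise (`Noise_513`), ruler (`GridRuler_257`),
237's exact gadget, joint of 47, walls of 228, semantic top of 727, last joint of 749,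
universe adaptor of 294.
-/

set_option autoImplicit false

namespace Crest.Agent.R320.Fin_103

open Finset Crest.Agent.R320.Hk_851

/-- the grid gadget in closed form -/
theorem gad (S V : Type) [Monoid S] [Finite S] [AddCommGroup V] [Finite V] (act : V → S → V) :
    ∃ R1 : ℕ, ∀ (K : ℕ) (α : Type) [Finite α] (f : α → S),
      ∃ (N1 N0 : ℕ) (BadT : ℕ → Prop) (lam rho : List α → Option V) (nu : List α → V),
        (∀ P Q v r, lam P = some v → rho Q = some r →
          r = act v ((P ++ Q).map f).prod + nu (P ++ Q)) ∧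
        (∀ P v, lam P = some v → P.length ≤ N1) ∧
        (∀ Y : List α, N0 ≤ Y.length → ¬ BadT Y.length →
          ∀ v, ∃ P Q, Y = P ++ Q ∧ lam P = some v ∧ (rho Q).isSome) ∧
        (∀ v, Language.IsRegular ({Y | nu Y = v} : Language α)) ∧
        ∃ U : ℕ, 0 < U ∧
          (∀ a b c d : ℕ, a ≠ b → (a = c ∧ b = d) ∨
            (4 * N1 : ℤ) < |(((U * 4 ^ a : ℕ) : ℤ) - (U * 4 ^ b : ℕ)) -
              (((U * 4 ^ c : ℕ) : ℤ) - (U * 4 ^ d : ℕ))|) ∧
          ∀ T : ℕ, (∀ k, k < K → U * 4 ^ k ≤ T) → ∀ I : Finset ℕ,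
            (∀ k ∈ I, k < K ∧ ∃ k', k' < K ∧ k' ≠ k ∧ BadT (T + U * 4 ^ k' - U * 4 ^ k)) →
              I.card ≤ R1 := by
  classical
  obtain ⟨W, iW, fW, m, e, F, hF⟩ := Crest.Agent.R320.Noise513.explicit_noise S V act
  obtain ⟨r, hr⟩ := Crest.Agent.R320.Names_570.exists_names
    (N := Fin m × S × W × S × W × V) (C := Fin m × S × W × S × W × V) id
  refine ⟨r + m, fun K α _ f => ?_⟩
  obtain ⟨Ms, nmL, nmR, hcard, hprime, hperL, hperR, h1, h2, h3⟩ := hr (4 ^ K)
  set M : ℕ := ∏ q ∈ Ms, q with hMdef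
  have hM : 0 < M := Finset.prod_pos fun q hq => (hprime q hq).1.pos
  have hdvd : ∀ q ∈ Ms, q ∣ M := fun q hq => Finset.dvd_prod_of_mem _ hq
  set Γ : ℕ := M * (16 * 4 ^ K) + 1 with hΓdef
  have h4K : 1 ≤ 4 ^ K := Nat.one_le_pow _ _ (by norm_num)
  have hΓM : M * 16 + 1 ≤ Γ := by
    have : M * 16 ≤ M * (16 * 4 ^ K) := Nat.mul_le_mul_left _ (by omega)
    omega
  have hΓ2 : M + 2 ≤ Γ := by omega
  have hΓ0 : 0 < Γ := by omega
  have hcop : Nat.Coprime M Γ := by
    rw [hΓdef]
    simp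
  let D : Crest.Agent.R320.Grid_187.Dat α S V W :=
    { φ := fun u => (u.map f).prod
      act := act
      m := m
      e := fun i s => if h : i < m then e ⟨i, h⟩ s else 0
      F := F
      Γ := Γ
      M := M
      LN := fun o c => nmL o = some c
      RN := fun o c => nmR o = some c }
  have hN : Crest.Agent.R320.Grid_187.Names D Ms :=
    { hM := hM
      dvd := hdvd
      uniq := fun o c c' h h' => Option.some.inj (h.symm.trans h')
      perL := fun o c => by
        show nmL (o + M) = some c ↔ nmL o = some c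
        rw [hperL]
      perR := fun o c => by
        show nmR (o + M) = some c ↔ nmR o = some c
        rw [hperR]
      n1 := fun T hT o o' c c' hoo h h' => h1 o o' c c' (by rw [hoo]; exact hT) h h'
      n2 := fun T hT hMT c => by
        obtain ⟨t, _, _, ht, hL, hR⟩ := h2 T c 0 hT (by
          show 0 + M ≤ T + 1
          have : M ≤ T + 1 := hMT
          omega)
        exact ⟨t, ht, hL, hR⟩
      n3 := fun T hT o o' c c' p p' d d' ho hp hc hc' hd hd' => by
        rcases h3 o o' p p' c c' d d' (by omega) (by rw [ho]; exact hT) hc hc' hd hd' with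
          h | ⟨ha, hb, hcc⟩
        · exact h
        · have hcc' : c = c' := hcc
          exact ⟨by rw [hcc']; exact hb, by rw [← hcc']; exact ha⟩ }
  obtain ⟨nu, g1, g2, g3, g4⟩ := Crest.Agent.R320.Grid_187.gadget D Ms
    (fun u v => by
      show ((u ++ v).map f).prod = _
      rw [List.map_append, List.prod_append]) hΓ2 hcop hN (by
      intro s w v
      obtain ⟨i, hi⟩ := hF s w v
      refine ⟨i.1, i.2, fun g x h hg z => ?_⟩
      have := hi g x h hg z
      show F (g * z * h) (w - (if h : i.1 < m then e ⟨i.1, h⟩ x else 0) +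
        (if h : i.1 < m then e ⟨i.1, h⟩ z else 0)) + act v (g * z * h) = F s w + act v s
      rw [dif_pos i.2, dif_pos i.2]
      exact this)
  have hGb : ∀ j, 16 * 4 ^ K * (M * Γ ^ (j + 1)) ≤ Γ ^ (j + 1 + 1) := by
    intro j
    rw [pow_succ Γ (j + 1)]
    have : 16 * 4 ^ K * (M * Γ ^ (j + 1)) = Γ ^ (j + 1) * (M * (16 * 4 ^ K)) := by ring
    rw [this]
    exact Nat.mul_le_mul_left _ (by omega)
  obtain ⟨U, hU1, _, hU3, hU4⟩ := Crest.Agent.R320.GridRuler_257.ruler K m Ms M
    (fun j => Γ ^ (j + 1)) (fun _ => 0) (Γ ^ (m + 1)) hM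
    (fun k hk => ⟨hdvd k hk, (hprime k hk).2.le⟩) (pow_pos hΓ0 _)
    (fun j => pow_dvd_pow _ (Nat.le_succ _)) hGb (Nat.Coprime.pow_right _ hcop)
  refine ⟨Γ ^ (m + 1), 2 * Γ ^ (m + 1),
    fun T => Crest.Agent.R320.GridRuler_257.BadZ Ms m M (fun j => Γ ^ (j + 1)) (fun _ => 0) (T : ℤ),
    D.lam, D.rho, nu, ?_, ?_, ?_, ?_, U, by omega, ?_, ?_⟩
  · intro P Q v r hP hQ
    exact g1 P Q v r hP hQ
  · intro P v hP
    exact (g2 P v hP).2.le
  · intro Y hY hb v
    have hclear := Crest.Agent.R320.GridRuler_257.clear_of_not_bad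
      (fun j => pow_pos hΓ0 (j + 1)) (fun _ _ _ => Nat.zero_le _) hb
    obtain ⟨P, Q, hPQ, hP, hQ⟩ := g3 Y hY ⟨hclear.1, fun j hj1 hj2 => by
      obtain ⟨a, b⟩ := hclear.2 j hj1 hj2
      have ej : j - 1 + 1 = j := by omega
      rw [ej, Nat.sub_zero] at a b
      exact ⟨a.le, b⟩⟩ v
    exact ⟨P, Q, hPQ.symm, hP, hQ⟩
  · intro v
    refine Crest.Agent.R320.Bridge_975.reg_of_local f (2 * Γ ^ (m + 1)) (M * Γ ^ (m + 1))
      (Nat.mul_pos hM (pow_pos hΓ0 _)) (fun Y => nu Y = v) ?_
    intro q q2 hq hq2 htake hmod hprod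
    have hX : (q.take (2 * Γ ^ (m + 1))).length = 2 * Γ ^ (m + 1) := by
      rw [List.length_take]; omega
    have key := (g4 (q.take (2 * Γ ^ (m + 1))) (q.drop (2 * Γ ^ (m + 1)))
      (q2.drop (2 * Γ ^ (m + 1))) hX hprod (by
        rw [List.length_drop, List.length_drop]
        refine Nat.ModEq.add_right_cancel' (2 * Γ ^ (m + 1)) ?_
        rw [Nat.sub_add_cancel hq, Nat.sub_add_cancel hq2]
        exact hmod)).2
    rw [List.take_append_drop, htake, List.take_append_drop] at key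
    rw [key]
  · intro a b c d hab
    rcases hU3 a b c d hab with h | h
    · exact Or.inl h
    · exact Or.inr (by exact_mod_cast h)
  · intro T hT I hI
    choose! g hg using fun k (hk : k ∈ I) => (hI k hk).2
    have hinj : Set.InjOn (fun k => (g k, k)) (I : Set ℕ) := by
      intro a _ b _ hab
      exact congrArg Prod.snd hab
    rw [← Finset.card_image_of_injOn hinj]
    refine (hU4 (T : ℤ) (I.image fun k => (g k, k)) ?_).trans (by omega)
    intro ab hab
    obtain ⟨k, hk, rfl⟩ := Finset.mem_image.1 hab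
    obtain ⟨k1, k2, k3⟩ := hg k hk
    refine ⟨k1, (hI k hk).1, k2, ?_⟩
    have hle := hT k (hI k hk).1
    have e1 : (((T + U * 4 ^ g k - U * 4 ^ k : ℕ)) : ℤ) =
        (T : ℤ) + (U * 4 ^ g k : ℕ) - (U * 4 ^ k : ℕ) := by omega
    have k3' : Crest.Agent.R320.GridRuler_257.BadZ Ms m M (fun j => Γ ^ (j + 1)) (fun _ => 0)
      (((T + U * 4 ^ g k - U * 4 ^ k : ℕ)) : ℤ) := k3
    rw [e1] at k3'
    exact k3'

/-- **Row 320 for monoids**, alphabets and monoids in `Type`. -/
theorem mon (β : Type) [Finite β] (S : Type) [Monoid S] [Finite S] (φ : β → S) (s : S) :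
    HL 3 ({w | (w.map φ).prod = s} : Language β) := by
  classical
  obtain ⟨act, hadd, hone, hmul, hfaith⟩ := Crest.Agent.R320.Blk467.exists_module S
  have iS := Fintype.ofFinite S
  obtain ⟨R1, hg⟩ := gad S (S → ZMod 2) act
  obtain ⟨K, hK⟩ := Crest.Agent.R320.ExactR_237.exact_gadget β S (S → ZMod 2) φ act (2 * R1 + 2)
  obtain ⟨N1, N0, BadT, lam, rho, nu1, gS, gL, gC, gR, U, hU, hres, hT⟩ := hg K β φ
  have hmono : ∀ i j : ℕ, i < j → U * 4 ^ i < U * 4 ^ j := fun i j hij =>
    Nat.mul_lt_mul_of_pos_left (Nat.pow_lt_pow_right (by norm_num) hij) hU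
  obtain ⟨lam2, rho2, nu2', hS2, hC2⟩ := hK (fun k => U * 4 ^ k) (fun i j hij _ => hmono i j hij)
  set p0 : ℕ := U * 4 ^ K with hp0
  have hcp : ∀ k, k < K → U * 4 ^ k ≤ p0 := fun k hk => (hmono k K hk).le
  obtain ⟨n, cc, PP, Sw, hn, hPP, happ, hgap, -, -, hfew⟩ :=
    Crest.Agent.R320.WallU_228.walls_full (α := β) (2 * (N1 + p0) + 1)
  set z : ℕ := 3 * p0 + n + N1 + N0 + 1 with hz
  have hW : Crest.Agent.R320.Joint_103.LW n (2 * (N1 + p0) + 1)
      (Crest.Agent.R320.WallU_228.Wo n Sw) :=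
    { len := fun X h => h.1
      app := happ
      gap := fun X s t hst ht hs hwt => by
        by_contra hcon
        have hl : (X.take t).length = t := by rw [List.length_take]; omega
        refine hgap (X.take t) (t - s) hwt (by omega) (by omega) ?_
        rw [hl, List.take_take]
        have : min (t - (t - s)) t = s := by omega
        rw [this]
        exact hs }
  set nu2 : List β → (S → ZMod 2) := fun X => nu2' X 1 with hnu2
  let D : Crest.Agent.R320.SemTop_727.Sch β (S → ZMod 2) :=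
    { XX := Crest.Agent.R320.Last_749.XX n Sw z
      T := Crest.Agent.R320.Joint_103.T φ act p0 nu2 nu1
      L1 := fun v => {P | Crest.Agent.R320.Joint_103.L1 φ act p0 nu2 lam v P}
      L2 := fun v => {P | Crest.Agent.R320.Joint_103.L2 K (fun k => U * 4 ^ k) lam2 v P} }
  let ν : List β → (S → ZMod 2) := fun X =>
    act (nu2 (X.take p0)) ((X.drop p0).map φ).prod + nu1 (X.drop p0)
  have hDT : ∀ v X, D.T v X = act v (X.map φ).prod + ν X := by
    intro v X
    show act (act v ((X.take p0).map φ).prod + nu2 (X.take p0)) ((X.drop p0).map φ).prod +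
      nu1 (X.drop p0) = act v (X.map φ).prod +
        (act (nu2 (X.take p0)) ((X.drop p0).map φ).prod + nu1 (X.drop p0))
    rw [hadd, ← hmul, ← List.prod_append, ← List.map_append, List.take_append_drop, add_assoc]
  have hpc : Crest.Agent.R320.Blk467.PCode D.XX :=
    Crest.Agent.R320.Last_749.pcode (by omega)
  have hgood : ∀ X, X ∈ D.XX → ¬ Crest.Agent.R320.Joint_103.Bad
      (Crest.Agent.R320.WallU_228.Wo n Sw) z N1 p0 BadT X → X ∈ D.Good := by
    intro X hX hb
    refine ⟨hX, fun x => ?_⟩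
    obtain ⟨p, q, hpq, hp, _, hq⟩ := Crest.Agent.R320.Joint_103.complete1 (f := φ) (act := act)
      (p0 := p0) (nu2 := nu2) (nu1 := nu1) hW gS gL gC (by omega) (by omega) hX hb x
    exact ⟨p, hp, q, fun x' p' hp' => hq x' p' hp', hpq.symm⟩
  have hbad : ∀ X, X ∈ D.Bad → Crest.Agent.R320.Joint_103.Bad
      (Crest.Agent.R320.WallU_228.Wo n Sw) z N1 p0 BadT X := by
    intro X hX
    by_contra hcon
    exact hX.2 (hgood X hX.1 hcon)
  refine Crest.Agent.R320.SemTop_727.top (k := 1) act hadd hone hmul hfaith φ ν D hDT hpc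
    ?_ ?_ ?_ ?_ ?_ s
  · intro x y
    refine (Crest.Agent.R320.Last_749.hfib hfew z act φ ν
      (Crest.Agent.R320.Last_749.reg_nu act φ p0 nu2 nu1 gR) x y).congr fun w => ?_
    constructor
    · rintro ⟨h1, h2⟩
      exact ⟨h1, by rw [← hDT]; exact h2⟩
    · rintro ⟨h1, h2⟩
      exact ⟨h1, by rw [hDT]; exact h2⟩
  · intro x
    refine (List.finite_length_le β (p0 + N1)).subset fun P hP => ?_
    obtain ⟨h1, h2⟩ := hP
    have := gL _ _ h2
    rw [List.length_drop] at this
    show P.length ≤ p0 + N1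
    omega
  · intro x
    refine (List.finite_length_le β p0).subset fun P hP => ?_
    obtain ⟨k, hk, h2, _⟩ := hP
    show P.length ≤ p0
    rw [h2]
    exact hcp k hk
  · intro X1 hX1 X2 hX2 x
    obtain ⟨p, q, hpq, hp, _, hq⟩ := Crest.Agent.R320.Joint_103.complete2 (f := φ) (act := act)
      (p0 := p0) (nu1 := nu1) (nu2' := nu2') (R1 := R1) hW (K := K) (c := fun k => U * 4 ^ k)
      (lam2 := lam2) (rho2 := rho2) hS2 hC2 (fun i j hij _ => hmono i j hij) hcp
      (by
        intro i i' j j' hi hi' hj hj' hne hne' ha hb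
        rcases hres i i' j j' (Ne.symm hne) with h | h
        · exact h.1
        · exfalso
          have ha' : U * 4 ^ i + U * 4 ^ j' < U * 4 ^ j + U * 4 ^ i' + 2 * N1 := ha
          have hb' : U * 4 ^ j + U * 4 ^ i' < U * 4 ^ i + U * 4 ^ j' + 2 * N1 := hb
          rw [lt_abs] at h
          omega)
      hT (by omega) (by omega) hX1.1 hX2.1 (hbad X1 hX1) x
    refine ⟨p, hp, q, ?_, hpq.symm⟩
    intro x' p' hp'
    rcases hq x' p' hp' with ⟨a, ha, _, hpa, hTa⟩ | ⟨a, ha, hna, hpre⟩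
    · by_cases hag : a ∈ D.Good
      · exact Or.inr (Or.inl ⟨a, hag, by rw [hpa]; exact List.prefix_append _ _⟩)
      · refine Or.inl ⟨a, ⟨ha, hag⟩, X2, hX2, hpa, ?_⟩
        have : D.T x' a = D.T x X1 := hTa
        rw [this]
    · exact Or.inr (Or.inl ⟨a, hgood a ha hna, hpre⟩)
  · intro s
    exact (Crest.Agent.R320.Last_749.HL_rest hfew z φ s).mono (by omega)

/-- **S0495.** -/
theorem row320 (α : Type*) [Finite α] (L : Language α) (hL : L.IsRegular) :
    ∃ e : Crest.RegLang.GRegExp α, e.height ≤ 3 ∧ e.lang = L :=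
  Crest.Agent.R320.Univ_294.s0495_of_types (fun β _ S _ _ φ s => mon β S φ s) α L hL

end Crest.Agent.R320.Fin_103
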