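import Mathlib
import Crest.Agent.R320.G1nu_107
import Crest.Agent.R320.RegCongr_253
import Crest.Agent.R320.Thin_963
import Crest.Agent.R320.Joint_47
import Crest.Agent.R320.SemTop_727
import Crest.Agent.R320.Last_749
import Crest.Agent.R320.WallU_228
import Crest.Agent.R320.Univ_294
import Crest.Agent.R320.ExactR_237

/-!
# Row 320: assembly (helper107)

G1_808 (gadget on all words) + Thin_963 (ruler) + ExactR_237 (exact gadget) + Joint_47 (both
schemes, natural chain rule) + SemTop_727 (semantic top) + Last_749 / WallU_228 (walls, HL 1).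
-/

set_option autoImplicit false

namespace Crest.Agent.R320.Fin_107

open Crest.RegLang Crest.Agent.R320.Hk_851 Crest.Agent.R320.Blk467
open Crest.Agent.R320.ExactR_237 (pr pr_append)

/-- bad totals -/
def BadT {k : ℕ} (q : Fin k → ℕ) (b m : ℕ) (T : ℕ) : Prop :=
  (∃ j, q j ∣ T) ∨ ∃ j < m, ¬ (∏ j, q j ≤ (T / b ^ j) % b ∧ (T / b ^ j) % b + ∏ j, q j < b)

/-- a bad digit gives a near multiple -/
theorem near {b M T j : ℕ} (hb : 0 < b)
    (h : ¬ (M ≤ (T / b ^ j) % b ∧ (T / b ^ j) % b + M < b)) :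
    ∃ e : ℤ, |e| ≤ (M : ℤ) * (b : ℤ) ^ j ∧ ((b : ℤ) ^ (j + 1)) ∣ (T : ℤ) + e := by
  have hr : T % b ^ (j + 1) = T % b ^ j + b ^ j * (T / b ^ j % b) := Nat.mod_pow_succ
  have h1 : T % b ^ j < b ^ j := Nat.mod_lt _ (Nat.pow_pos hb)
  have h2 : T % b ^ (j + 1) < b ^ (j + 1) := Nat.mod_lt _ (Nat.pow_pos hb)
  have h3 := Nat.div_add_mod T (b ^ (j + 1))
  have h3' : (b : ℤ) ^ (j + 1) * ((T / b ^ (j + 1) : ℕ) : ℤ) + ((T % b ^ (j + 1) : ℕ) : ℤ) = T := by
    exact_mod_cast h3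
  set d := (T / b ^ j) % b with hd
  rcases Nat.lt_or_ge d M with h4 | h4
  · refine ⟨-((T % b ^ (j + 1) : ℕ) : ℤ), ?_, ?_⟩
    · rw [abs_neg, Nat.abs_cast]
      have h5 : T % b ^ (j + 1) ≤ M * b ^ j := by
        have : b ^ j * (d + 1) ≤ b ^ j * M := Nat.mul_le_mul_left _ h4
        rw [hr]
        nlinarith
      exact_mod_cast h5
    · refine ⟨((T / b ^ (j + 1) : ℕ) : ℤ), ?_⟩
      linarith
  · have h5 : b ≤ d + M := by
      by_contra hc
      exact h ⟨h4, by omega⟩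
    have h6 : b ^ (j + 1) ≤ T % b ^ (j + 1) + M * b ^ j := by
      have h7 : b ^ j * b ≤ b ^ j * (d + M) := Nat.mul_le_mul_left _ h5
      have h8 : b ^ j * (d + M) = b ^ j * d + M * b ^ j := by ring
      rw [hr, pow_succ]
      linarith [Nat.zero_le (T % b ^ j)]
    have h6' : (b : ℤ) ^ (j + 1) ≤ ((T % b ^ (j + 1) : ℕ) : ℤ) + (M : ℤ) * (b : ℤ) ^ j := by
      exact_mod_cast h6
    have h2' : ((T % b ^ (j + 1) : ℕ) : ℤ) < (b : ℤ) ^ (j + 1) := by exact_mod_cast h2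
    refine ⟨(b : ℤ) ^ (j + 1) - ((T % b ^ (j + 1) : ℕ) : ℤ), ?_, ?_⟩
    · rw [abs_of_nonneg (by linarith)]
      linarith
    · refine ⟨((T / b ^ (j + 1) : ℕ) : ℤ) + 1, ?_⟩
      linarith

/-- geometric sum -/
theorem geo {b : ℕ} (hb : 2 ≤ b) (i : ℕ) :
    ∑ j ∈ Finset.range (i + 1), b ^ j ≤ 2 * b ^ i := by
  induction i with
  | zero => simp
  | succ i ih =>
    rw [Finset.sum_range_succ]
    have : b ^ (i + 1) = b ^ i * b := pow_succ _ _
    nlinarith [Nat.pow_pos (n := i) (show 0 < b by omega)]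

/-- distinct large primes -/
theorem primes (k B : ℕ) : ∃ q : Fin k → ℕ, Function.Injective q ∧ ∀ j, (q j).Prime ∧ B < q j := by
  have h : ({p : ℕ | p.Prime} \ {p | p ≤ B}).Infinite :=
    Nat.infinite_setOfPred_prime.sdiff (Set.finite_le_nat B)
  refine ⟨fun j => (h.natEmbedding _ j.1 : ℕ), ?_, ?_⟩
  · intro a b hab
    have h1 := (h.natEmbedding _).injective (Subtype.ext hab)
    exact Fin.ext h1
  · intro j
    have h2 := (h.natEmbedding _ j.1).2
    exact ⟨h2.1, not_le.1 h2.2⟩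

/-- the ruler -/
theorem ruler {k : ℕ} (K m N1 : ℕ) (q : Fin k → ℕ) (b : ℕ) (hq : ∀ j, (q j).Prime ∧ 2 ^ (K + 1) < q j)
    (hb2 : 2 ≤ b) (hbq : ∀ j, Nat.Coprime b (q j)) (hM : 0 < ∏ j, q j)
    (hb : 2 ^ (K + 5) * ∏ j, q j ≤ b) :
    ∃ X : ℕ, 0 < X ∧ 2 * N1 ≤ X ∧ ∀ T : ℕ, (∀ i, i < K → X * 2 ^ i ≤ T) → ∀ I : Finset ℕ,
      (∀ i ∈ I, i < K ∧ ∃ i', i' < K ∧ i' ≠ i ∧ BadT q b m (T + X * 2 ^ i' - X * 2 ^ i)) →
      I.card ≤ k + m := by
  classical
  set M := ∏ j, q j with hMd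
  obtain ⟨X, hX1, hX2, hX3⟩ := Crest.Agent.R320.Thin963.thin K m (Finset.univ.image q)
    (fun i => (b : ℤ) ^ i) (fun i => (M : ℤ) * (b : ℤ) ^ i) (fun _ => 0)
    (by
      intro p hp
      obtain ⟨j, _, rfl⟩ := Finset.mem_image.1 hp
      exact ⟨(hq j).1, (hq j).2.le⟩)
    (by
      intro p hp
      obtain ⟨j, _, rfl⟩ := Finset.mem_image.1 hp
      exact (Nat.isCoprime_iff_coprime.2 (hbq j).symm).pow_right)
    (by positivity)
    (fun i j hij => pow_dvd_pow _ hij)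
    (fun i => by positivity)
    (fun i => dvd_mul_left _ _)
    (by
      intro i _
      have h1 := geo hb2 i
      have h2 : 2 ^ (K + 4) * ∑ j ∈ Finset.range (i + 1), M * b ^ j ≤ b ^ (i + 1) := by
        rw [← Finset.mul_sum]
        calc 2 ^ (K + 4) * (M * ∑ j ∈ Finset.range (i + 1), b ^ j)
            ≤ 2 ^ (K + 4) * (M * (2 * b ^ i)) :=
              Nat.mul_le_mul_left _ (Nat.mul_le_mul_left _ h1)
          _ = (2 ^ (K + 5) * M) * b ^ i := by ring
          _ ≤ b * b ^ i := Nat.mul_le_mul_right _ hb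
          _ = b ^ (i + 1) := by ring
      exact_mod_cast h2)
    (2 * (N1 : ℤ))
  obtain ⟨Xn, rfl⟩ := Int.eq_ofNat_of_zero_le hX2.le
  refine ⟨Xn, by exact_mod_cast hX2, by exact_mod_cast hX1, ?_⟩
  intro T hT I hI
  have hcard : (Finset.univ.image q).card ≤ k := by
    refine Finset.card_image_le.trans ?_
    simp
  refine le_trans ?_ (Nat.add_le_add_right hcard m)
  refine le_trans ?_ (hX3 (T : ℤ))
  let g : ℕ → ℕ := fun i =>
    if h : ∃ i', i' < K ∧ i' ≠ i ∧ BadT q b m (T + Xn * 2 ^ i' - Xn * 2 ^ i) then h.choose else 0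
  have hg : ∀ i ∈ I, g i < K ∧ g i ≠ i ∧ BadT q b m (T + Xn * 2 ^ (g i) - Xn * 2 ^ i) := by
    intro i hi
    have h := (hI i hi).2
    have : g i = h.choose := dif_pos h
    rw [this]
    exact h.choose_spec
  refine Finset.card_le_card_of_injOn (fun i => (g i, i)) ?_ ?_
  · intro i hi
    have hi' : i ∈ I := hi
    obtain ⟨h1, h2, h3⟩ := hg i hi'
    have h4 := (hI i hi').1
    have h5 := hT i h4
    simp only [Finset.coe_filter, Set.mem_ofPred_eq, Finset.mem_product, Finset.mem_range]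
    refine ⟨⟨h1, h4⟩, h2, ?_⟩
    have hcast : ((T + Xn * 2 ^ (g i) - Xn * 2 ^ i : ℕ) : ℤ) =
        (T : ℤ) + ((Xn : ℕ) : ℤ) * 2 ^ (g i) - ((Xn : ℕ) : ℤ) * 2 ^ i := by
      rw [Nat.cast_sub (by omega)]
      push_cast
      ring
    rcases h3 with ⟨j, hj⟩ | ⟨j, hj, hj2⟩
    · left
      refine ⟨q j, Finset.mem_image_of_mem _ (Finset.mem_univ j), ?_⟩
      have : ((q j : ℕ) : ℤ) ∣ ((T + Xn * 2 ^ (g i) - Xn * 2 ^ i : ℕ) : ℤ) := by exact_mod_cast hj
      rw [hcast] at this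
      exact this
    · right
      obtain ⟨e, he1, he2⟩ := near (by omega) hj2
      rw [hcast] at he2
      refine ⟨j, hj, e, he1, ?_⟩
      simp only [sub_zero]
      exact he2
  · intro i _ i' _ h
    exact (Prod.mk.inj h).2

theorem resolve {X N1 : ℕ} (hX0 : 0 < X) (hX : 2 * N1 ≤ X) {i i' j j' : ℕ} (h1 : i' ≠ i) (h2 : j' ≠ j)
    (h3 : X * 2 ^ i + X * 2 ^ j' < X * 2 ^ j + X * 2 ^ i' + 2 * N1)
    (h4 : X * 2 ^ j + X * 2 ^ i' < X * 2 ^ i + X * 2 ^ j' + 2 * N1) : i = j := by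
  have h5 : (X : ℤ) * (((2 : ℤ) ^ i - 2 ^ i') - (2 ^ j - 2 ^ j')) < X := by
    have h3' : (X : ℤ) * 2 ^ i + X * 2 ^ j' < X * 2 ^ j + X * 2 ^ i' + 2 * N1 := by exact_mod_cast h3
    have hX' : 2 * (N1 : ℤ) ≤ X := by exact_mod_cast hX
    linarith
  have h6 : -((X : ℤ) * (((2 : ℤ) ^ i - 2 ^ i') - (2 ^ j - 2 ^ j'))) < X := by
    have h4' : (X : ℤ) * 2 ^ j + X * 2 ^ i' < X * 2 ^ i + X * 2 ^ j' + 2 * N1 := by exact_mod_cast h4
    have hX' : 2 * (N1 : ℤ) ≤ X := by exact_mod_cast hX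
    linarith
  have hXp : (0 : ℤ) < X := by exact_mod_cast hX0
  have h7 : ((2 : ℤ) ^ i - 2 ^ i') - (2 ^ j - 2 ^ j') < 1 := by
    by_contra hc
    push Not at hc
    nlinarith
  have h8 : -1 < ((2 : ℤ) ^ i - 2 ^ i') - (2 ^ j - 2 ^ j') := by
    by_contra hc
    push Not at hc
    nlinarith
  exact (Crest.Agent.R320.G369.pow_diff h1.symm h2.symm (by omega)).1

theorem fibre (A S V : Type) [Finite A] [Monoid S] [Finite S] [Finite V] [AddCommGroup V]
    (f : A → S) (act : V → S → V) (hadd : ∀ a b s, act (a + b) s = act a s + act b s)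
    (hone : ∀ v, act v 1 = v) (hmul : ∀ v s t, act v (s * t) = act (act v s) t)
    (hfaith : ∀ s t, (∀ v, act v s = act v t) → s = t) (s : S) :
    HL 3 ({w | (w.map f).prod = s} : Language A) := by
  classical
  have : Fintype S := Fintype.ofFinite S
  have : Fintype V := Fintype.ofFinite V
  obtain ⟨m, k, hgad⟩ := Crest.Agent.R320.G1nu_107.gadget_nu S V act
  obtain ⟨K, hex⟩ := Crest.Agent.R320.ExactR_237.exact_gadget A S V f act (2 * (k + m) + 2)
  obtain ⟨q, hqinj, hq⟩ := primes k (2 ^ (K + 1))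
  have hq2 : ∀ j, 2 < q j := by
    intro j
    have h1 : 2 ^ 1 ≤ 2 ^ (K + 1) := Nat.pow_le_pow_right (by norm_num) (by omega)
    have := (hq j).2
    omega
  have hodd : ∀ j, Odd (q j) := fun j => (hq j).1.odd_of_ne_two (by have := hq2 j; omega)
  have hpw : Pairwise (fun i j => Nat.Coprime (q i) (q j)) := fun i j hij =>
    (Nat.coprime_primes (hq i).1 (hq j).1).2 (fun h => hij (hqinj h))
  have hM : 0 < ∏ j, q j := Finset.prod_pos fun j _ => (hq j).1.pos
  set M := ∏ j, q j with hMd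
  set t := 2 ^ (K + 5) * M + 4 * M + 4 with ht
  set b := 2 ^ t with hbd
  have hbt : t < b := Nat.lt_two_pow_self
  have hbq : ∀ j, Nat.Coprime b (q j) := fun j => Nat.Coprime.pow_left t
    ((Nat.coprime_primes Nat.prime_two (hq j).1).2 (by have := hq2 j; omega))
  have hb0 : 0 < b := by omega
  obtain ⟨lam, rho, nu1, hlen, hsound, hcomp, hloc⟩ := hgad q hodd hpw b (by omega) hbq A
    (fun w => (w.map f).prod) (fun u v => by simp)
  set N1 := b ^ m with hN1
  have hbM : 2 ^ (K + 5) * M ≤ b := by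
    have h1 : 2 ^ (K + 5) * M ≤ t := by rw [ht]; omega
    exact h1.trans hbt.le
  have hb4 : 2 ≤ b := by
    have h1 : 2 ≤ t := by rw [ht]; omega
    exact h1.trans hbt.le
  obtain ⟨X, hX0, hX1, hspoil⟩ := ruler (k := k) K m N1 q b hq hb4 hbq hM hbM
  set c : ℕ → ℕ := fun i => X * 2 ^ i with hc
  have hinc : ∀ i j, i < j → j < K → c i < c j := by
    intro i j hij _
    exact Nat.mul_lt_mul_of_pos_left (Nat.pow_lt_pow_right (by norm_num) hij) hX0
  set p0 := X * 2 ^ K with hp0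
  have hcp : ∀ i, i < K → c i ≤ p0 := fun i hi =>
    Nat.mul_le_mul_left _ (Nat.pow_le_pow_right (by norm_num) hi.le)
  obtain ⟨lam2, rho2, nu2', hS2, hC2⟩ := hex c hinc
  obtain ⟨n, cc, PP, Sw, hn, hPP, hwl, hwgap, _, _, hfew⟩ :=
    Crest.Agent.R320.WallU_228.walls_full (α := A) (2 * (N1 + p0) + 1)
  set z := 3 * p0 + n + N1 + 1 with hz
  have hW : Crest.Agent.R320.Joint_47.LW n (2 * (N1 + p0) + 1)
      (Crest.Agent.R320.WallU_228.Wo n Sw) := by
    refine ⟨fun Y h => h.1, fun P Q h => hwl P Q h, ?_⟩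
    intro Y s' t' h1 h2 h3 h4
    by_contra hcon
    have hYl : (Y.take t').length = t' := by rw [List.length_take]; omega
    refine hwgap (Y.take t') (t' - s') h4 (by omega) (by omega) ?_
    rw [hYl, List.take_take, min_eq_left (by omega)]
    have : t' - (t' - s') = s' := by omega
    rw [this]
    exact h3
  set nu2 : List A → V := fun Y => nu2' Y 1 with hnu2
  let ν : List A → V := fun Y => act (nu2 (Y.take p0)) ((Y.drop p0).map f).prod + nu1 (Y.drop p0)
  let D : Crest.Agent.R320.SemTop_727.Sch A V :=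
    ⟨Crest.Agent.R320.Last_749.XX n Sw z, fun v Y => Crest.Agent.R320.Joint_47.T f act p0 nu2 nu1 v Y,
      fun x => {P | Crest.Agent.R320.Joint_47.L1 f act p0 nu2 lam x P},
      fun x => {P | Crest.Agent.R320.Joint_47.L2 K c lam2 x P}⟩
  have hT : ∀ v Y, D.T v Y = act v (Y.map f).prod + ν Y := by
    intro v Y
    show act (act v (pr f (Y.take p0)) + nu2 (Y.take p0)) (pr f (Y.drop p0)) + nu1 (Y.drop p0) =
      act v (Y.map f).prod + (act (nu2 (Y.take p0)) ((Y.drop p0).map f).prod + nu1 (Y.drop p0))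
    have h1 : (Y.map f).prod = pr f (Y.take p0) * pr f (Y.drop p0) := by
      rw [← pr_append, List.take_append_drop]
      rfl
    rw [h1, hmul, hadd, add_assoc]
    rfl
  have hnu1 : ∀ v, Language.IsRegular ({Y | nu1 Y = v} : Language A) := by
    intro v
    refine Crest.Agent.R320.RegCongr_253.regular_of_congr f (b ^ m) (M * b ^ m)
      (Nat.mul_pos hM (Nat.pow_pos hb0)) _ ?_
    intro Y Y' _ _ h3 h4 h5 h6
    have h7 : nu1 Y = nu1 Y' := hloc Y Y' h3 h4 h5
    show nu1 Y' = v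
    rw [← h7]
    exact h6
  have hνr := Crest.Agent.R320.Last_749.reg_nu act f p0 nu2 nu1 hnu1
  have hfib : ∀ x y, HL 1 (D.fib x y) := by
    intro x y
    refine (Crest.Agent.R320.Last_749.hfib hfew z act f ν hνr x y).congr fun w => ?_
    constructor
    · rintro ⟨h1, h2⟩
      have h3 : act x (w.map f).prod + ν w = y := by
        rw [← hT]
        exact h2
      exact ⟨h1, h3⟩
    · rintro ⟨h1, h2⟩
      have h3 : D.T x w = y := by
        rw [hT]
        exact h2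
      exact ⟨h1, h3⟩
  have hL1 : ∀ x, (D.L1 x).Finite := by
    intro x
    refine (List.finite_length_le A (p0 + N1)).subset ?_
    rintro P ⟨h1, h2⟩
    have := hlen _ _ h2
    rw [List.length_drop] at this
    show P.length ≤ p0 + N1
    omega
  have hL2 : ∀ x, (D.L2 x).Finite := by
    intro x
    refine (List.finite_length_le A p0).subset ?_
    rintro P ⟨i, h1, h2, _⟩
    show P.length ≤ p0
    rw [h2]
    exact hcp i h1
  -- good blocks
  have hgood : ∀ Y ∈ D.XX, ¬ Crest.Agent.R320.Joint_47.Bad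
      (Crest.Agent.R320.WallU_228.Wo n Sw) z N1 p0 (BadT q b m) Y → Y ∈ D.Good := by
    intro Y hY hb'
    refine ⟨hY, fun x => ?_⟩
    obtain ⟨P, Q, e, h1, _, h3⟩ := Crest.Agent.R320.Joint_47.complete1 f act p0 nu2 nu1 (N0 := 0) hW
      (lam := lam) (rho := rho)
      (fun P Q v r h h' => hsound P Q v r h h') (fun P v h => (hlen P v h).le)
      (fun Z _ hZ v => by
        have hZ1 : ∀ j, ¬ q j ∣ Z.length := fun j h => hZ (Or.inl ⟨j, h⟩)
        have hZ2 : ∀ j < m, M ≤ (Z.length / b ^ j) % b ∧ (Z.length / b ^ j) % b + M < b := by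
          intro j hj
          by_contra hcon
          exact hZ (Or.inr ⟨j, hj, hcon⟩)
        obtain ⟨P, Q, h1, h2, h3⟩ := hcomp Z hZ1 hZ2 v
        exact ⟨P, Q, h1, h2, h3⟩)
      (by omega) (by omega) (X := Y) hY hb' x
    refine ⟨P, h1, Q, ?_, e.symm⟩
    intro x' P' hP'
    exact h3 x' P' hP'
  have hC2 : ∀ X1 ∈ D.Bad, ∀ X2 ∈ D.Bad, ∀ x, ∃ P ∈ D.L2 x, ∃ Q ∈ D.R2 (D.T (D.T x X1) X2),
      P ++ Q = X1 ++ X2 := by
    intro X1 hX1' X2 hX2' x
    have hb1 : Crest.Agent.R320.Joint_47.Bad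
      (Crest.Agent.R320.WallU_228.Wo n Sw) z N1 p0 (BadT q b m) X1 := by
      by_contra hcon
      exact hX1'.2 (hgood X1 hX1'.1 hcon)
    obtain ⟨P, Q, e, h1, _, h3⟩ := Crest.Agent.R320.Joint_47.complete2 f act p0 nu1 (R1 := k + m) hW
      hS2 (fun u y v h => by
        obtain ⟨I, hI1, hI2⟩ := hC2 u y v h
        exact ⟨I, hI1, hI2⟩) hinc hcp
      (fun i i' j j' _ _ _ _ h5 h6 h7 h8 => resolve hX0 hX1 h5 h6 h7 h8)
      hspoil (by omega) (by omega) (z := z) hX1'.1 hX2'.1 hb1 x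
    refine ⟨P, h1, Q, ?_, e.symm⟩
    intro x' P' hP'
    rcases h3 x' P' hP' with ⟨a, ha1, ha2, ha3, ha4⟩ | ⟨a, ha1, ha2, ha3⟩
    · by_cases hag : a ∈ D.Good
      · right; left
        exact ⟨a, hag, by rw [ha3]; exact List.prefix_append _ _⟩
      · left
        refine ⟨a, ⟨ha1, hag⟩, X2, hX2', ha3, ?_⟩
        have ha4' : D.T x' a = D.T x X1 := ha4
        rw [ha4']
    · right; left
      exact ⟨a, hgood a ha1 ha2, ha3⟩
  refine Crest.Agent.R320.SemTop_727.top (k := 1) act hadd hone hmul hfaith f ν D hT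
    (Crest.Agent.R320.Last_749.pcode (by omega)) hfib hL1 hL2 hC2 ?_ s
  intro s'
  exact (Crest.Agent.R320.Last_749.HL_rest hfew z f s').mono (by omega)

/-- every finite monoid has a faithful linear action -/
theorem main (A S : Type) [Finite A] [Monoid S] [Finite S] (f : A → S) (s : S) :
    HL 3 ({w | (w.map f).prod = s} : Language A) := by
  classical
  refine fibre A S (S → ZMod 2) f (fun v a => fun t => v (a * t)) ?_ ?_ ?_ ?_ s
  · intro a b s; rfl
  · intro v; funext t; simp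
  · intro v s t; funext r; simp [mul_assoc]
  · intro s t h
    have h1 := congrFun (h (fun x => if x = s then 1 else 0)) 1
    simp only [mul_one, if_true] at h1
    by_contra hne
    rw [if_neg (fun h => hne h.symm)] at h1
    exact one_ne_zero h1

theorem result (α : Type*) [Finite α] (L : Language α) (hL : L.IsRegular) :
    ∃ e : GRegExp α, e.height ≤ 3 ∧ e.lang = L :=
  Crest.Agent.R320.Univ_294.s0495_of_type0 (fun n S _ _ φ s => main (Fin n) S φ s) α L hL

end Crest.Agent.R320.Fin_107
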