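import Crest.Agent.R320.FinA_113
import Crest.Agent.R320.End_532
import Crest.Agent.R320.ExactR_237
import Crest.Agent.R320.LWallAll_922
import Crest.Agent.R320.P4b_933
import Crest.Agent.R320.Block_467

/-!
Row 320, helper113: the join.
-/

set_option autoImplicit false

namespace Crest.Agent.R320.Fin_113

open Finset Crest.RegLang Crest.Agent.R320.Hk_851 Crest.Agent.R320.Grid_899
open Crest.Agent.R320.FinA_113 Crest.Agent.R320.BddReg_746

/-- the ruler clause of `joint` -/
theorem spaced {K X N1 : ℕ} (hX : 2 * N1 < X) :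
    ∀ k k' l l', k < K → k' < K → l < K → l' < K → k' ≠ k → l' ≠ l →
      X * 2 ^ k + X * 2 ^ l' < X * 2 ^ l + X * 2 ^ k' + 2 * N1 →
      X * 2 ^ l + X * 2 ^ k' < X * 2 ^ k + X * 2 ^ l' + 2 * N1 → k = l := by
  intro k k' l l' _ _ _ _ hk hl h1 h2
  have h3 : (2 : ℤ) ^ k + 2 ^ l' = 2 ^ l + 2 ^ k' := by
    have e1 : (X : ℤ) * (2 ^ k + 2 ^ l' - (2 ^ l + 2 ^ k')) < 1 * X := by
      have : ((X * 2 ^ k + X * 2 ^ l' : ℕ) : ℤ) < ((X * 2 ^ l + X * 2 ^ k' + 2 * N1 : ℕ) : ℤ) := by
        exact_mod_cast h1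
      push_cast at this
      have hX' : (2 : ℤ) * N1 < X := by exact_mod_cast hX
      linarith
    have e2 : (X : ℤ) * (2 ^ l + 2 ^ k' - (2 ^ k + 2 ^ l')) < 1 * X := by
      have : ((X * 2 ^ l + X * 2 ^ k' : ℕ) : ℤ) < ((X * 2 ^ k + X * 2 ^ l' + 2 * N1 : ℕ) : ℤ) := by
        exact_mod_cast h2
      push_cast at this
      have hX' : (2 : ℤ) * N1 < X := by exact_mod_cast hX
      linarith
    have hX0 : (0 : ℤ) ≤ X := by positivity
    have e3 : (2 : ℤ) ^ k + 2 ^ l' - (2 ^ l + 2 ^ k') < 1 := by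
      rw [mul_comm] at e1
      exact lt_of_mul_lt_mul_right e1 hX0
    have e4 : (2 : ℤ) ^ l + 2 ^ k' - (2 ^ k + 2 ^ l') < 1 := by
      rw [mul_comm] at e2
      exact lt_of_mul_lt_mul_right e2 hX0
    omega
  exact (Crest.Agent.R320.G369.pow_diff hk.symm hl.symm
    (by linarith)).1

open Classical in
theorem fin (α : Type) [Finite α] (S : Type) [Monoid S] [Finite S] (φ : α → S) (s : S) :
    HL 3 ({w | (w.map φ).prod = s} : Language α) := by
  have := Fintype.ofFinite S
  obtain ⟨act, hadd, hone, hmul, hfaith⟩ := Blk467.exists_module S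
  let V := S → ZMod 2
  have : Fintype V := inferInstanceAs (Fintype (S → ZMod 2))
  let pr : List α → S := fun w => (w.map φ).prod
  have hpr : ∀ u v, pr (u ++ v) = pr u * pr v := fun u v => by simp [pr]
  obtain ⟨k, m, HG⟩ := grid_gadget_reg S V act
  obtain ⟨K, HE⟩ := ExactR_237.exact_gadget α S V φ act (2 * (k + m) + 2)
  obtain ⟨q, κ, hodd, hcop, hqpos, HR⟩ := ruler k m K
  obtain ⟨lam, rho, nu1, g1, g2, g3, g4, g5⟩ := HG q hodd hcop κ α pr hpr
  set P := ∏ j, q j with hP
  have hPpos : 0 < P := Finset.prod_pos fun j _ => hqpos j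
  set N := Am P κ (m + 1) with hN
  have hNm : Am P κ m ≤ N := Am_mono (Nat.le_succ m)
  set N1 := N + 1 with hN1
  obtain ⟨X, hX1, hX0, hX2⟩ := HR (2 * N1 + 1)
  set c : ℕ → ℕ := fun j => X * 2 ^ j with hc
  have hcm : ∀ i j, i < j → j < K → c i < c j := fun i j hij _ =>
    (Nat.mul_lt_mul_left hX0).2 (Nat.pow_lt_pow_right (by norm_num) hij)
  obtain ⟨lam2, rho2, nu2, x1, x2⟩ := HE c hcm
  set p0 := c K with hp0
  have hcp : ∀ j, j < K → c j ≤ p0 := fun j hj =>
    Nat.mul_le_mul_left _ (Nat.pow_le_pow_right (by norm_num) hj.le)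
  obtain ⟨n, G0, B, Wo, hLW, hsep, -, -, hfree⟩ :=
    LWallAll_922.walls_all_left α (2 * p0 + 2 * N1 + 1) (by omega)
  let q0 := n + 2 * p0 + 2 * N
  let g : Sc2n_937.Geo α :=
    { Wo := Wo, n := n, z := p0 + N1 + q0, p0 := p0, q0 := q0, N1 := N1,
      loc := hLW.app, hz := rfl, hq := by show n ≤ n + 2 * p0 + 2 * N; omega,
      hN := by show 0 < N1; omega,
      hqp := by show p0 ≤ n + 2 * p0 + 2 * N + N1; omega }
  have hXX : ∀ X, g.XX X ↔ P4_933.XX Wo (p0 + N1 + q0) X := by
    intro X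
    constructor
    · rintro ⟨h1, h2, h3⟩
      exact ⟨h2, h1, fun t ht hz => h3 t hz ht⟩
    · rintro ⟨h1, h2, h3⟩
      exact ⟨h2, h1, fun t hz ht => h3 t ht hz⟩
  have hfree' : ∀ u : List α, (∀ t < u.length, ¬ Wo (u.take t)) →
      u ∈ (PN (max B (2 * p0 + 2 * N1 + 1)) 2 : Language α) := by
    intro u hu
    obtain ⟨a, x, v, e, ha, hx, hv, rfl⟩ := hfree u hu
    refine Language.mem_mul.2 ⟨a ++ (List.replicate e x).flatten,
      ⟨a, x, e, ha.trans (le_max_left _ _), hx.trans (le_max_right _ _), rfl⟩, v, ?_, rfl⟩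
    refine Language.mem_mul.2 ⟨v, ⟨v, [], 0, hv.trans (le_max_left _ _), by simp, by
      simp [pw]⟩, [], rfl, by simp⟩
  refine End_532.joint act hadd hone hmul hfaith φ g nu1 (fun X => nu2 X 1) K c lam rho
    (fun j => lam2 j) (fun j Q => rho2 j Q 1) (fun T => Bad k m q κ (T : ℤ)) (k + m)
    ?_ ?_ ?_ hcp ?_ ?_ ?_ ?_ ?_ (by show 0 < p0 + N1 + q0; omega) ?_ ?_ s
  · intro P' v h
    have := (g1 P' v h).1
    show P'.length ≤ N1
    omega
  · intro P' Q u b h1 h2
    exact g3 P' Q u b h1 h2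
  · intro Y hY hB u
    have hY' : q0 ≤ Y.length := hY
    obtain ⟨b1, b2⟩ := good_of (k := k) (m := m) (q := q) (κ := κ) (n := Y.length)
      (by show N ≤ Y.length; omega) (fun i hi => Am_mono hi) hB
    obtain ⟨P', Q, e, h1, h2⟩ := g4 Y (by show 2 * N ≤ Y.length; omega) b1 b2 u
    exact ⟨P', Q, e, h1, h2⟩
  · intro j hj P' Q v u h1 _ h3 h4
    have := x1 j hj P' Q 1 v u h1 h3 h4
    rw [mul_one] at this
    exact this
  · intro P' Q h1 h2 h3
    have := hsep (P' ++ Q) P'.length (P' ++ Q).length (by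
      have : 0 < Q.length := List.length_pos_iff.2 h3
      rw [List.length_append]; omega) le_rfl (by rw [List.take_left]; exact h1) (by
      rw [List.take_length]; exact h2)
    rw [List.length_append] at this
    show 2 * p0 + 2 * N1 < Q.length
    omega
  · exact spaced (N1 := N1) (by omega)
  · intro τ hτ J hJ
    have hτ' : p0 + N1 + q0 ≤ τ + p0 := hτ
    have hsub : J ⊆ (((range K) ×ˢ (range K)).filter (fun p => p.1 ≠ p.2 ∧
        Bad k m q κ (((τ : ℤ) - p0) + X * 2 ^ p.1 - X * 2 ^ p.2))).image Prod.snd := by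
      intro a ha
      obtain ⟨h1, k', h2, h3, h4⟩ := hJ a ha
      refine mem_image.2 ⟨(k', a), mem_filter.2 ⟨mem_product.2 ⟨mem_range.2 h2, mem_range.2 h1⟩,
        h3, ?_⟩, rfl⟩
      have hca := hcp a h1
      have e : ((τ + c k' - c a - g.p0 : ℕ) : ℤ) = ((τ : ℤ) - p0) + X * 2 ^ k' - X * 2 ^ a := by
        have e0 : g.p0 = p0 := rfl
        rw [e0]
        have h5 : c a + p0 ≤ τ + c k' := by omega
        have h6 : ((τ + c k' - c a - p0 : ℕ) : ℤ) = (τ : ℤ) + c k' - c a - p0 := by omega
        rw [h6]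
        simp only [hc]
        push_cast
        ring
      have h4' : Bad k m q κ ((τ + c k' - c a - g.p0 : ℕ) : ℤ) := h4
      rw [e] at h4'
      exact h4'
    exact (card_le_card hsub).trans (card_image_le.trans (by
      have := hX2 ((τ : ℤ) - p0)
      convert this))
  · intro X0 v hX0l
    obtain ⟨I, h1, h2⟩ := x2 X0 1 v (fun j hj => by
      have : X0.length = p0 := hX0l
      rw [this]; exact hcp j hj)
    exact ⟨I, h1, h2⟩
  · -- fibres
    intro x y
    have hreg := P4_933.regular_of_class' φ (p0 + N) (P * G κ m) (Nat.mul_pos hPpos (G_pos m))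
      (fun X => act (act x ((X.take p0).map φ).prod + nu2 (X.take p0) 1)
        ((X.drop p0).map φ).prod + nu1 (X.drop p0) = y) (by
        intro u u' hu hu' ht hm hd
        have e1 : ∀ w : List α, w.take p0 = (w.take (p0 + N)).take p0 := fun w => by
          rw [List.take_take, min_eq_left (by omega)]
        have e2 : ∀ w : List α, (w.drop p0).take N = (w.take (p0 + N)).drop p0 := fun w => by
          rw [List.drop_take]; congr 1; omega
        have e3 : ∀ w : List α, pr (w.drop p0) = pr ((w.take (p0 + N)).drop p0) *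
            ((w.drop (p0 + N)).map φ).prod := fun w => by
          rw [← e2 w, ← List.drop_drop]
          show _ = pr _ * pr _
          rw [← hpr, List.take_append_drop]
        have h1 : pr (u.drop p0) = pr (u'.drop p0) := by rw [e3 u, e3 u', ht, hd]
        have h2 : nu1 (u.drop p0) = nu1 (u'.drop p0) := by
          refine (g5 _ _ ?_ ?_ ?_ ?_ ?_).2
          · show N ≤ _; rw [List.length_drop]; omega
          · show N ≤ _; rw [List.length_drop]; omega
          · show (u.drop p0).take N = (u'.drop p0).take N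
            rw [e2 u, e2 u', ht]
          · show pr ((u.drop p0).drop N) = pr ((u'.drop p0).drop N)
            rw [List.drop_drop, List.drop_drop]; exact hd
          · rw [List.length_drop, List.length_drop]
            have h3 : u.length ≡ u'.length [MOD P * G κ m] := hm
            have h4 : (u.length - p0) + p0 ≡ (u'.length - p0) + p0 [MOD P * G κ m] := by
              rw [Nat.sub_add_cancel (by omega), Nat.sub_add_cancel (by omega)]
              exact h3
            exact Nat.ModEq.add_right_cancel' _ h4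
        have h1' : ((u.drop p0).map φ).prod = ((u'.drop p0).map φ).prod := h1
        rw [h1', h2, e1 u, e1 u', ht])
    have := P4_933.hl_XX (z := p0 + N1 + q0) hLW.app hLW.len hfree' hreg
    exact this.congr fun w => and_congr (hXX w) Iff.rfl
  · intro s'
    have hreg := P4_933.regular_of_class' φ 0 1 Nat.one_pos (fun X => (X.map φ).prod = s') (by
      intro u u' _ _ _ _ hd
      rw [List.drop_zero, List.drop_zero] at hd
      rw [hd])
    have h1 := P4_933.hl_NB (z := p0 + N1 + q0) hLW.app hLW.len hfree' hreg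
    refine (h1.mono (by norm_num)).congr fun w => ?_
    refine and_congr ?_ Iff.rfl
    rw [P4_933.NB_iff]
    constructor
    · intro h X hX hXw
      exact h X ((hXX X).2 hXw) hX
    · intro h P' hP' hX
      exact h P' hX ((hXX P').1 hP')

end Crest.Agent.R320.Fin_113

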