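import Crest.Agent.R320.FinB_117

/-!
# Row 320: the constants, and the height of the value languages (helper117)
-/

set_option autoImplicit false

namespace Crest.Agent.R320.Fin_117

open Crest.RegLang Crest.Agent.R320.Hk_851

theorem pw (k k' l l' : ℕ) (h1 : k' ≠ k) (h2 : l' ≠ l)
    (h : 2 ^ k + 2 ^ l' = 2 ^ l + 2 ^ k') : k = l := by
  have g : ∀ a b : ℕ, a < b → 2 * 2 ^ a ≤ 2 ^ b := fun a b hab => by
    calc 2 * 2 ^ a = 2 ^ (a + 1) := by ring
      _ ≤ 2 ^ b := Nat.pow_le_pow_right (by norm_num) hab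
  have p : ∀ a : ℕ, 0 < 2 ^ a := fun a => by positivity
  have key : ∀ k k' l l' : ℕ, l' ≠ l → 2 ^ k + 2 ^ l' = 2 ^ l + 2 ^ k' → ¬ k < l := by
    intro k k' l l' h2 h hkl
    have a1 := g k l hkl
    have a2 := p k'
    have a3 := p k
    have hlt : k' < l' := by
      by_contra hc
      have : 2 ^ l' ≤ 2 ^ k' := Nat.pow_le_pow_right (by norm_num) (by omega)
      omega
    have a4 := g k' l' hlt
    rcases Nat.lt_or_gt_of_ne h2 with h3 | h3
    · have a5 := g l' l h3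
      omega
    · have a5 := g l l' h3
      omega
  have k1 := key k k' l l' h2 h
  have k2 := key l l' k k' h1 h.symm
  omega

theorem sum_pow (κ : ℕ) (hκ : 1 ≤ κ) (i : ℕ) :
    ∑ j ∈ Finset.range (i + 1), 2 ^ (κ * j) ≤ 2 * 2 ^ (κ * i) := by
  induction i with
  | zero => simp
  | succ i ih =>
    rw [Finset.sum_range_succ]
    have : 2 * 2 ^ (κ * i) ≤ 2 ^ (κ * (i + 1)) := by
      calc 2 * 2 ^ (κ * i) = 2 ^ (κ * i + 1) := by ring
        _ ≤ 2 ^ (κ * (i + 1)) := Nat.pow_le_pow_right (by norm_num) (by rw [mul_add]; omega)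
    omega

theorem Am_mono (Ms κ : ℕ) {i j : ℕ} (h : i ≤ j) : Grid_899.Am Ms κ i ≤ Grid_899.Am Ms κ j := by
  induction h with
  | refl => exact le_rfl
  | step h ih =>
    refine ih.trans ?_
    show _ ≤ Grid_899.Am Ms κ _ + Grid_899.G κ _ + Ms * Grid_899.G κ _
    omega

theorem fin (α : Type) [Finite α] (S : Type) [Monoid S] [Finite S] (φ : α → S) (s : S) :
    HL 3 ({w | (w.map φ).prod = s} : Language α) := by
  classical
  haveI : Fintype S := Fintype.ofFinite S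
  haveI : Fintype (Two_621.Tok S) := Fintype.ofFinite _
  obtain ⟨k0, m, H⟩ := Grid_899.grid_gadget_reg S (Two_621.Tok S) Two_621.act
  obtain ⟨K, HE⟩ := ExactR_237.exact_gadget α S (Two_621.Tok S) φ Two_621.act
    (2 * (k0 + m) + 2)
  -- primes
  let q : Fin k0 → ℕ := fun j => Nat.nth Nat.Prime (2 ^ (K + 1) + j)
  have hqp : ∀ j, (q j).Prime := fun j => Nat.prime_nth_prime _
  have hqge : ∀ j, 2 ^ (K + 1) + 2 ≤ q j := fun j => by
    have := Nat.add_two_le_nth_prime (2 ^ (K + 1) + j)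
    show _ ≤ Nat.nth Nat.Prime (2 ^ (K + 1) + j)
    omega
  have hpos : 0 < 2 ^ (K + 1) := by positivity
  have hqodd : ∀ j, Odd (q j) := fun j => by
    refine (hqp j).odd_of_ne_two ?_
    have := hqge j
    omega
  have hqinj : Function.Injective q := by
    intro i j hij
    have := Nat.nth_injective Nat.infinite_setOf_prime hij
    exact Fin.ext (by omega)
  have hqcop : Pairwise (fun i j => Nat.Coprime (q i) (q j)) := by
    intro i j hij
    exact (Nat.coprime_primes (hqp i) (hqp j)).2 fun h => hij (hqinj h)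
  set Mq : ℕ := ∏ j, q j with hMq
  have hMq0 : 0 < Mq := Finset.prod_pos fun j _ => (hqp j).pos
  have hqM : ∀ j, q j ∣ Mq := fun j => Finset.dvd_prod_of_mem q (Finset.mem_univ j)
  set κ : ℕ := K + 5 + Mq with hκ
  have hκbig : 2 ^ (K + 5) * Mq ≤ 2 ^ κ := by
    rw [hκ, pow_add 2 (K + 5) Mq]
    exact Nat.mul_le_mul_left _ (Nat.lt_two_pow_self).le
  obtain ⟨lam, rho, nu, G1, G2, G3, G4, G5⟩ := H q hqodd hqcop κ α
    (fun w => (w.map φ).prod) (by intro u v; simp)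
  rw [← hMq] at G1 G2 G4 G5
  have hAm1 : ∀ j, j ≤ m → Grid_899.Am Mq κ j ≤ Grid_899.Am Mq κ (m + 1) :=
    fun j hj => Am_mono _ _ (by omega)
  have hGp : ∀ i, 0 < Grid_899.G κ i := fun i => Grid_899.G_pos i
  -- the ruler
  let Ms : Finset ℕ := Finset.univ.image q
  have hMsm : ∀ x ∈ Ms, ∃ j, q j = x := by
    intro x hx
    obtain ⟨j, -, h⟩ := Finset.mem_image.1 hx
    exact ⟨j, h⟩
  have hMsc : Ms.card ≤ k0 := by
    refine Finset.card_image_le.trans ?_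
    rw [Finset.card_univ, Fintype.card_fin]
  let Gz : ℕ → ℤ := fun i => ((Grid_899.G κ i : ℕ) : ℤ)
  let cz : ℕ → ℤ := fun i => ((Mq * Grid_899.G κ i : ℕ) : ℤ)
  let Az : ℕ → ℤ := fun i => ((Grid_899.Am Mq κ i : ℕ) : ℤ)
  obtain ⟨X, hX1, hX0, hX⟩ := Crest.Agent.R320.Thin963.thin K m Ms Gz cz Az
    (by
      intro x hx
      obtain ⟨j, rfl⟩ := hMsm x hx
      exact ⟨hqp j, by have := hqge j; omega⟩)
    (by
      intro x hx
      obtain ⟨j, rfl⟩ := hMsm x hx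
      refine Nat.isCoprime_iff_coprime.2 ?_
      exact Nat.Coprime.pow_right _ (Nat.coprime_two_right.2 (hqodd j)))
    (by
      show (0 : ℤ) < ((Grid_899.G κ m : ℕ) : ℤ)
      exact_mod_cast hGp m)
    (fun i j hij => Int.natCast_dvd_natCast.2 (Grid_899.G_dvd hij))
    (fun i => by
      show (0 : ℤ) < ((Mq * Grid_899.G κ i : ℕ) : ℤ)
      exact_mod_cast Nat.mul_pos hMq0 (hGp i))
    (fun i => Int.natCast_dvd_natCast.2 (Dvd.intro_left _ rfl))
    (by
      intro i _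
      have h1 : 2 ^ (K + 4) * ∑ j ∈ Finset.range (i + 1), Mq * Grid_899.G κ j ≤
          Grid_899.G κ (i + 1) := by
        rw [← Finset.mul_sum]
        have h2 := sum_pow κ (by omega) i
        show 2 ^ (K + 4) * (Mq * ∑ j ∈ Finset.range (i + 1), 2 ^ (κ * j)) ≤ 2 ^ (κ * (i + 1))
        calc 2 ^ (K + 4) * (Mq * ∑ j ∈ Finset.range (i + 1), 2 ^ (κ * j))
            ≤ 2 ^ (K + 4) * (Mq * (2 * 2 ^ (κ * i))) :=
              Nat.mul_le_mul_left _ (Nat.mul_le_mul_left _ h2)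
          _ = (2 ^ (K + 5) * Mq) * 2 ^ (κ * i) := by ring
          _ ≤ 2 ^ κ * 2 ^ (κ * i) := Nat.mul_le_mul_right _ hκbig
          _ = 2 ^ (κ * (i + 1)) := by rw [← pow_add]; congr 1; ring
      show (2 : ℤ) ^ (K + 4) * ∑ j ∈ Finset.range (i + 1), ((Mq * Grid_899.G κ j : ℕ) : ℤ) ≤
        ((Grid_899.G κ (i + 1) : ℕ) : ℤ)
      exact_mod_cast h1)
    (((2 * (Grid_899.Am Mq κ m + 1) + 1 : ℕ)) : ℤ)
  obtain ⟨x, rfl⟩ : ∃ x : ℕ, X = (x : ℤ) := ⟨X.toNat, by omega⟩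
  have hx0 : 0 < x := by exact_mod_cast hX0
  have hxN : 2 * (Grid_899.Am Mq κ m + 1) + 1 ≤ x := by exact_mod_cast hX1
  have hcinc : ∀ i j, i < j → x * 2 ^ i < x * 2 ^ j := fun i j hij =>
    Nat.mul_lt_mul_of_pos_left (Nat.pow_lt_pow_right (by norm_num) hij) hx0
  obtain ⟨lam2, rho2, nu2, E1, E2⟩ := HE (fun k => x * 2 ^ k) (fun i j hij _ => hcinc i j hij)
  have hcp : ∀ k, k < K → x * 2 ^ k ≤ x * 2 ^ K := fun k hk => (hcinc k K hk).le
  refine FinB_117.join S φ (V := Two_621.Tok S) Two_621.act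
    (fun a b s => Two_621.act_add a b s) (fun v => Two_621.act_one v)
    (fun v s t => (Two_621.act_mul v s t).symm) (fun s t h => Two_621.act_faithful h)
    lam rho nu (Grid_899.Am Mq κ m + 1) (2 * Grid_899.Am Mq κ (m + 1))
    (Grid_899.Am Mq κ (m + 1)) (Mq * Grid_899.G κ m) (Nat.mul_pos hMq0 (hGp m)) (by omega)
    (fun T => Crest.Agent.R320.Thin963.BadT Ms m Gz cz Az (T : ℤ))
    (fun P v h => by have := (G1 P v h).1; omega) G3 ?_
    (fun Q Q' h1 h2 h3 h4 h5 => G5 Q Q' h1 h2 h3 h4 h5) ?_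
    K (k0 + m) (x * 2 ^ K) (fun k => x * 2 ^ k) hcp lam2 (fun k Q => rho2 k Q 1)
    (fun P => nu2 P 1) ?_ ?_ ?_ ?_ s
  · -- completeness
    intro u hu hb v
    refine G4 u hu ?_ ?_ v
    · intro j hj
      exact hb (Or.inl ⟨q j, Finset.mem_image_of_mem q (Finset.mem_univ j),
        Int.natCast_dvd_natCast.2 hj⟩)
    · intro j hj1 hjm
      obtain ⟨i, rfl⟩ : ∃ i, j = i + 1 := ⟨j - 1, by omega⟩
      simp only [Nat.add_sub_cancel]
      have hAj := hAm1 (i + 1) hjm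
      set N := u.length - Grid_899.Am Mq κ (i + 1) with hN
      have hNz : (N : ℤ) = (u.length : ℤ) - (Grid_899.Am Mq κ (i + 1) : ℕ) := by omega
      have hr := Nat.mod_lt N (hGp (i + 1))
      have hdm : (N : ℤ) = Grid_899.G κ (i + 1) * ((N / Grid_899.G κ (i + 1) : ℕ) : ℤ) +
          ((N % Grid_899.G κ (i + 1) : ℕ) : ℤ) := by
        exact_mod_cast (Nat.div_add_mod N (Grid_899.G κ (i + 1))).symm
      have hbad : ∀ e : ℤ, |e| ≤ ((Mq * Grid_899.G κ i : ℕ) : ℤ) →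
          ¬ (((Grid_899.G κ (i + 1) : ℕ) : ℤ) ∣ (N : ℤ) + e) := by
        intro e he hd
        refine hb (Or.inr ⟨i, by omega, e, he, ?_⟩)
        show ((Grid_899.G κ (i + 1) : ℕ) : ℤ) ∣
          (u.length : ℤ) - ((Grid_899.Am Mq κ (i + 1) : ℕ) : ℤ) + e
        rw [← hNz]; exact hd
      constructor
      · by_contra hlt
        refine hbad (-((N % Grid_899.G κ (i + 1) : ℕ) : ℤ)) ?_ ?_
        · rw [abs_neg, abs_of_nonneg (by positivity)]
          have : N % Grid_899.G κ (i + 1) ≤ Mq * Grid_899.G κ i := by omega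
          exact_mod_cast this
        · refine ⟨((N / Grid_899.G κ (i + 1) : ℕ) : ℤ), ?_⟩
          linarith
      · by_contra hlt
        refine hbad (((Grid_899.G κ (i + 1) : ℕ) : ℤ) - ((N % Grid_899.G κ (i + 1) : ℕ) : ℤ)) ?_ ?_
        · rw [abs_le]
          constructor
          · have h1 : (0 : ℤ) ≤ ((Mq * Grid_899.G κ i : ℕ) : ℤ) := by positivity
            omega
          · omega
        · refine ⟨((N / Grid_899.G κ (i + 1) : ℕ) : ℤ) + 1, ?_⟩
          rw [mul_add, mul_one]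
          linarith
  · -- periodicity
    intro T T' _ _ hTT hb
    have hdvd : (((Mq * Grid_899.G κ m : ℕ)) : ℤ) ∣ (T' : ℤ) - (T : ℤ) :=
      Nat.modEq_iff_dvd.1 hTT
    rcases hb with ⟨y, hy, h1⟩ | ⟨i, hi, e, he, h1⟩
    · left
      refine ⟨y, hy, ?_⟩
      obtain ⟨j, rfl⟩ := hMsm y hy
      have h2 : ((q j : ℕ) : ℤ) ∣ (((Mq * Grid_899.G κ m : ℕ)) : ℤ) :=
        Int.natCast_dvd_natCast.2 (Dvd.dvd.mul_right (hqM j) _)
      have h3 := dvd_add h1 (h2.trans hdvd)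
      have h4 : (T : ℤ) + ((T' : ℤ) - (T : ℤ)) = T' := by ring
      rwa [h4] at h3
    · right
      refine ⟨i, hi, e, he, ?_⟩
      have h2 : (((Grid_899.G κ (i + 1) : ℕ)) : ℤ) ∣ (((Mq * Grid_899.G κ m : ℕ)) : ℤ) :=
        Int.natCast_dvd_natCast.2 (Dvd.dvd.mul_left (Grid_899.G_dvd (by omega)) _)
      have h3 := dvd_add h1 (h2.trans hdvd)
      have h4 : (T : ℤ) - Az (i + 1) + e + ((T' : ℤ) - (T : ℤ)) = T' - Az (i + 1) + e := by ring
      rwa [h4] at h3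
  · -- exact gadget
    intro k hk P Q v u h1 h2 h3
    have := E1 k hk P Q 1 v u h1 h2 h3
    rw [mul_one] at this
    exact this
  · intro u hu v
    exact E2 u 1 v (fun k hk => by rw [hu]; exact hcp k hk)
  · -- spacing
    intro k k' l l' _ _ _ _ h1 h2 h3 h4
    have h3' : x * 2 ^ k + x * 2 ^ l' < x * 2 ^ l + x * 2 ^ k' +
      2 * (Grid_899.Am Mq κ m + 1) := h3
    have h4' : x * 2 ^ l + x * 2 ^ k' < x * 2 ^ k + x * 2 ^ l' +
      2 * (Grid_899.Am Mq κ m + 1) := h4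
    refine pw k k' l l' h1 h2 ?_
    rw [← mul_add, ← mul_add] at h3' h4'
    rcases Nat.lt_trichotomy (2 ^ k + 2 ^ l') (2 ^ l + 2 ^ k') with h | h | h
    · exfalso
      have h5 := Nat.mul_le_mul_left x (Nat.succ_le_of_lt h)
      rw [Nat.mul_succ] at h5
      omega
    · exact h
    · exfalso
      have h5 := Nat.mul_le_mul_left x (Nat.succ_le_of_lt h)
      rw [Nat.mul_succ] at h5
      omega
  · -- thin
    intro τ hτ J hJ
    have hJ' : ∀ k ∈ J, ∃ k', k < K ∧ k' < K ∧ k' ≠ k ∧ Crest.Agent.R320.Thin963.BadT Ms m Gz cz Az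
        (((τ + x * 2 ^ k' - x * 2 ^ k - x * 2 ^ K : ℕ)) : ℤ) := by
      intro k hk
      obtain ⟨h1, k', h2, h3, h4⟩ := hJ k hk
      exact ⟨k', h1, h2, h3, h4⟩
    choose! f hf using hJ'
    refine le_trans (le_trans (Finset.card_le_card_of_injOn (fun k => (f k, k)) ?_ ?_)
      (hX ((τ : ℤ) - ((x * 2 ^ K : ℕ) : ℤ)))) (by omega)
    · intro k hk
      obtain ⟨h1, h2, h3, h4⟩ := hf k hk
      refine Finset.mem_coe.2 (Finset.mem_filter.2 ⟨Finset.mem_product.2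
        ⟨Finset.mem_range.2 h2, Finset.mem_range.2 h1⟩, h3, ?_⟩)
      have h5 := hcp k h1
      have h6 : (((τ + x * 2 ^ (f k) - x * 2 ^ k - x * 2 ^ K : ℕ)) : ℤ) =
          (τ : ℤ) - ((x * 2 ^ K : ℕ) : ℤ) + (x : ℤ) * 2 ^ (f k) - (x : ℤ) * 2 ^ k := by
        have h7 : ((x : ℤ) * 2 ^ (f k)) = ((x * 2 ^ (f k) : ℕ) : ℤ) := by push_cast; ring
        have h8 : ((x : ℤ) * 2 ^ k) = ((x * 2 ^ k : ℕ) : ℤ) := by push_cast; ring
        rw [h7, h8]
        omega
      rw [h6] at h4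
      exact h4
    · intro a _ b _ hab
      exact (Prod.mk.inj hab).2

end Crest.Agent.R320.Fin_117
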