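import Crest.Agent.R320.G1_852
import Crest.Agent.R320.Sp_125

/-! Row 320: gadget 1 with its ruler: `gad` = the hypothesis `Fin_211.Gad act f` (stated here
with the product written out), from `G1_852.gadget` and `Sp_125.spoil`. -/

namespace Crest.Agent.R320.Gad_125

open Crest.Agent.R320

theorem gad {α S V : Type} [Monoid S] [Finite S] [AddCommGroup V] [Finite V]
    (act : V → S → V) (f : α → S) :
    ∃ R1 : ℕ, ∀ K : ℕ, ∃ (N1 N0 Kp M : ℕ) (BadT : ℕ → Prop) (c : ℕ → ℕ)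
      (lam rho : List α → Option V) (nu1 : List α → V),
      (∀ P Q v r, lam P = some v → rho Q = some r →
        r = act v (((P ++ Q).map f).prod) + nu1 (P ++ Q)) ∧
      (∀ P v, lam P = some v → P.length ≤ N1) ∧
      (∀ Y : List α, N0 ≤ Y.length → ¬ BadT Y.length → ∀ v, ∃ P Q, Y = P ++ Q ∧
        lam P = some v ∧ (rho Q).isSome) ∧ 0 < M ∧
      (∀ Y Y' : List α, Kp ≤ Y.length → Kp ≤ Y'.length → Y.take Kp = Y'.take Kp →
        Y.length % M = Y'.length % M → ((Y.drop Kp).map f).prod = ((Y'.drop Kp).map f).prod →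
        nu1 Y = nu1 Y') ∧
      (∀ i j, i < j → j < K → c i < c j) ∧
      (∀ i i' j j', i < K → i' < K → j < K → j' < K → i' ≠ i → j' ≠ j →
        c i + c j' < c j + c i' + 2 * N1 → c j + c i' < c i + c j' + 2 * N1 → i = j) ∧
      (∀ T, (∀ k, k < K → c k ≤ T) → ∀ I : Finset ℕ,
        (∀ k ∈ I, k < K ∧ ∃ k', k' < K ∧ k' ≠ k ∧ BadT (T + c k' - c k)) → I.card ≤ R1) := by
  classical
  obtain ⟨m, r, hG⟩ := G1_852.gadget (S := S) (V := V) act
  refine ⟨r + m, fun K => ?_⟩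
  obtain ⟨Ms, M, hcard, hMs, hM, hG⟩ := hG (4 ^ K)
  -- the base
  let b : ℕ := M * (2 ^ (K + 3) + 3) + 1
  have hb : 2 ^ (K + 3) * M + 2 * M < b := by
    show _ < M * (2 ^ (K + 3) + 3) + 1
    nlinarith
  have hb0 : 0 < b := Nat.succ_pos _
  have hcop : Nat.Coprime b M := by
    show Nat.Coprime (M * (2 ^ (K + 3) + 3) + 1) M
    simp [Nat.coprime_mul_right_add_left, Nat.coprime_mul_left_add_left]
  obtain ⟨lam, rho, nu, h1, h2, h3, h4⟩ := hG b hb0 hcop α f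
  obtain ⟨c, c1, c2, c3⟩ := Sp_125.spoil Ms M m b K (b ^ m) hM
    (fun k hk => ⟨(hMs k hk).1, (hMs k hk).2.2⟩) hb hcop
  refine ⟨b ^ m, 0, b ^ m, M * b ^ m, Sp_125.Bad Ms M m b, c, lam, rho, nu,
    fun P Q v r hP hQ => h2 P Q v r hP hQ, fun P v h => (h1 P v h).le, ?_,
    Nat.mul_pos hM (pow_pos hb0 m), ?_, ?_, ?_, ?_⟩
  · intro Y _ hY v
    have hY1 : ∀ k ∈ Ms, ¬ k ∣ Y.length := fun k hk hd => hY (Or.inl ⟨k, hk, hd⟩)
    have hY2 : ∀ j < m, M ≤ Y.length / b ^ j % b ∧ Y.length / b ^ j % b + M < b := by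
      intro j hj
      by_contra hc
      refine hY (Or.inr ⟨j, hj, fun hd => hc ⟨hd.1, ?_⟩⟩)
      have := hd.2
      omega
    obtain ⟨P, Q, hPQ, hP, v', hQ⟩ := h3 Y hY1 hY2 v
    exact ⟨P, Q, hPQ, hP, by rw [hQ]; rfl⟩
  · intro Y Y' _ _ ht hl hp
    exact (h4 Y Y' ht hp hl).2
  · intro i j hij _
    have := c1 i j hij
    omega
  · intro i i' j j' _ _ _ _ hi hj e1 e2
    by_contra hne
    rcases c2 i i' j j' (Ne.symm hi) (Ne.symm hj)
      (fun h => hne (congrArg Prod.fst h)) with h | h <;> omega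
  · intro T hT I hI
    refine le_trans ?_ ((c3 T hT).trans (Nat.add_le_add_right hcard m))
    refine le_trans (Finset.card_le_card (t := (((Finset.range K) ×ˢ (Finset.range K)).filter
          (fun p => p.1 ≠ p.2 ∧ Sp_125.Bad Ms M m b (T + c p.2 - c p.1))).image Prod.fst) ?_)
      Finset.card_image_le
    intro k hk
    obtain ⟨hkK, k', hk'K, hne, hb⟩ := hI k hk
    refine Finset.mem_image.2 ⟨(k, k'), ?_, rfl⟩
    simp only [Finset.mem_filter, Finset.mem_product, Finset.mem_range]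
    exact ⟨⟨hkK, hk'K⟩, Ne.symm hne, hb⟩

end Crest.Agent.R320.Gad_125
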