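import Crest.Agent.R320.Fin_211
import Crest.Agent.R320.Gad_125
import Crest.Agent.R320.Univ_294

/-! Row 320: the end of the chain: `Fin_211.fin` + `Gad_125.gad` + universe adaptor. -/

set_option autoImplicit false

namespace Crest.Agent.R320.Fin_125

open Crest.Agent.R320

theorem fin (α : Type) [Finite α] (S : Type) [Monoid S] [Finite S] (f : α → S) (s : S) :
    Crest.Agent.R320.Hk_851.HL 3 ({w | (w.map f).prod = s} : Language α) := by
  classical
  obtain ⟨act, hadd, hone, hmul, hfaith⟩ := Blk467.exists_module S
  exact Fin_211.fin act hadd hone hmul hfaith f (Gad_125.gad act f) s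

theorem row (α : Type*) [Finite α] (L : Language α) (hL : L.IsRegular) :
    ∃ e : Crest.RegLang.GRegExp α, e.height ≤ 3 ∧ e.lang = L := by
  exact Crest.Agent.R320.Univ_294.s0495_of_types (fun β _ S _ _ φ s => fin β S φ s) α L hL

end Crest.Agent.R320.Fin_125
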