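import Crest.Agent.R320.Names_755
import Crest.Agent.R320.Noise_513

/-!
Row 320, 852 #13483 (G1): the digit gadget on ALL words (no small walls, no promise on the text),
together with the ruler and the spoil count (interface of 593 #13545 / 238 / 152).  helper424.
-/

set_option autoImplicit false

namespace Crest.Agent.R320.G1_424

open Finset

/-! ### arithmetic of digits -/

theorem digit_low {b i j o o' : ℕ} (hj : j ≤ i) (hd : b ^ i ∣ o') :
    (o + o') % b ^ j = o % b ^ j := by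
  obtain ⟨q, hq⟩ := (pow_dvd_pow b hj).trans hd
  rw [hq, Nat.add_mul_mod_self_left]

theorem digit_lt {b i o o' : ℕ} (h2 : 2 * (o / b ^ i) < b)
    (hd : b ^ i ∣ o') (h3 : 2 * ((o' / b ^ i) % b) < b) : o + o' % b ^ (i + 1) < b ^ (i + 1) := by
  have hb : 0 < b := by omega
  have hbi : 0 < b ^ i := pow_pos hb i
  have h4 : o' % b ^ (i + 1) = b ^ i * ((o' / b ^ i) % b) := by
    rw [pow_succ, Nat.mod_mul, Nat.mod_eq_zero_of_dvd hd, zero_add]
  have h5 : o = b ^ i * (o / b ^ i) + o % b ^ i := (Nat.div_add_mod _ _).symm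
  have h6 : o % b ^ i < b ^ i := Nat.mod_lt _ hbi
  rw [h4, pow_succ]
  have h7 : o / b ^ i + (o' / b ^ i) % b + 1 ≤ b := by omega
  calc o + b ^ i * ((o' / b ^ i) % b)
      < b ^ i * (o / b ^ i) + b ^ i + b ^ i * ((o' / b ^ i) % b) := by omega
    _ = b ^ i * (o / b ^ i + (o' / b ^ i) % b + 1) := by ring
    _ ≤ b ^ i * b := Nat.mul_le_mul_left _ h7

theorem digit_high {b i j o o' : ℕ} (hj : i < j) (h2 : 2 * (o / b ^ i) < b)
    (hd : b ^ i ∣ o') (h3 : 2 * ((o' / b ^ i) % b) < b) :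
    (o + o') % b ^ j = o + o' % b ^ j := by
  have hb : 0 < b := by omega
  have h4 := digit_lt h2 hd h3
  obtain ⟨k, rfl⟩ : ∃ k, j = (i + 1) + k := ⟨j - (i + 1), by omega⟩
  have hlt : o + o' % b ^ (i + 1 + k) < b ^ (i + 1 + k) := by
    rw [pow_add b (i + 1) k, Nat.mod_mul]
    have h5 : (o' / b ^ (i + 1)) % b ^ k + 1 ≤ b ^ k := Nat.mod_lt _ (pow_pos hb k)
    calc o + (o' % b ^ (i + 1) + b ^ (i + 1) * ((o' / b ^ (i + 1)) % b ^ k))
        < b ^ (i + 1) + b ^ (i + 1) * ((o' / b ^ (i + 1)) % b ^ k) := by omega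
      _ = b ^ (i + 1) * ((o' / b ^ (i + 1)) % b ^ k + 1) := by ring
      _ ≤ b ^ (i + 1) * b ^ k := Nat.mul_le_mul_left _ h5
  rw [← Nat.add_mod_mod, Nat.mod_eq_of_lt hlt]

theorem exists_res (lo r M : ℕ) (hM : 0 < M) : ∃ y, lo ≤ y ∧ y < lo + M ∧ y ≡ r [MOD M] := by
  refine ⟨lo + (r + M * lo - lo) % M, by omega, by have := Nat.mod_lt (r + M * lo - lo) hM; omega, ?_⟩
  have h1 : lo ≤ M * lo := Nat.le_mul_of_pos_left _ hM
  have h2 : (r + M * lo - lo) % M ≡ r + M * lo - lo [MOD M] := Nat.mod_modEq _ _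
  have h3 := h2.add_left lo
  have h4 : lo + (r + M * lo - lo) = r + M * lo := by omega
  rw [h4] at h3
  refine h3.trans ?_
  show (r + M * lo) % M = r % M
  rw [Nat.add_mul_mod_self_left]

theorem exists_cop (lo t β B M : ℕ) (hM : 0 < M) (hc : Nat.Coprime B M) :
    ∃ y, lo ≤ y ∧ y < lo + M ∧ β + B * y ≡ t [MOD M] := by
  have : NeZero M := ⟨hM.ne'⟩
  let u : (ZMod M)ˣ := ZMod.unitOfCoprime B hc
  have hu : (u : ZMod M) = (B : ZMod M) := ZMod.coe_unitOfCoprime B hc
  obtain ⟨y, h1, h2, h3⟩ := exists_res lo ((((t : ZMod M) - β) * ((u⁻¹ : (ZMod M)ˣ) : ZMod M)).val) M hM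
  refine ⟨y, h1, h2, ?_⟩
  rw [← ZMod.natCast_eq_natCast_iff] at h3 ⊢
  rw [ZMod.natCast_val, ZMod.cast_id] at h3
  push_cast
  rw [h3, ← hu]
  have : (u : ZMod M) * (((t : ZMod M) - β) * ((u⁻¹ : (ZMod M)ˣ) : ZMod M)) = (t : ZMod M) - β := by
    rw [mul_comm, mul_assoc, Units.inv_mul, mul_one]
  rw [this]; ring

/-- cut place with prescribed residue -/
theorem exists_cut (b M i n t : ℕ) (hM : 0 < M) (hc : Nat.Coprime b M)
    (h1 : M ≤ (n / b ^ i) % b) (h2 : (n / b ^ i) % b + M + 1 ≤ b) :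
    ∃ o, o ≤ n ∧ o ≡ t [MOD M] ∧ o < b ^ (i + 1) ∧ 2 * (o / b ^ i) < b ∧ b ^ i ∣ n - o ∧
      2 * (((n - o) / b ^ i) % b) < b := by
  have hb : 0 < b := by omega
  have hbi : 0 < b ^ i := pow_pos hb i
  set d := (n / b ^ i) % b with hd
  set β := n % b ^ i with hβ
  have hβl : β < b ^ i := Nat.mod_lt _ hbi
  obtain ⟨y, hy1, hy2, hy3⟩ := exists_cop (d - (b - 1) / 2) t β (b ^ i) M hM (hc.pow_left i)
  have hyd : y ≤ d := by omega
  have hyh : 2 * y < b := by omega
  have hyr : 2 * (d - y) < b := by omega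
  have hdn : d ≤ n / b ^ i := Nat.mod_le _ _
  have hn : n = β + b ^ i * (n / b ^ i) := by
    have := Nat.mod_add_div n (b ^ i); omega
  have hno : n - (β + b ^ i * y) = b ^ i * (n / b ^ i - y) := by
    rw [Nat.mul_sub]; omega
  have hle : b ^ i * y ≤ b ^ i * (n / b ^ i) := Nat.mul_le_mul_left _ (hyd.trans hdn)
  have hdiv : (β + b ^ i * y) / b ^ i = y := by
    rw [Nat.add_mul_div_left _ _ hbi, Nat.div_eq_of_lt hβl, zero_add]
  refine ⟨β + b ^ i * y, by omega, hy3, ?_, ?_, ?_, ?_⟩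
  · rw [pow_succ]
    calc β + b ^ i * y < b ^ i * (y + 1) := by rw [Nat.mul_succ]; omega
      _ ≤ b ^ i * b := Nat.mul_le_mul_left _ (by omega)
  · rw [hdiv]; exact hyh
  · rw [hno]; exact dvd_mul_right _ _
  · rw [hno, Nat.mul_div_cancel_left _ hbi]
    have hq : n / b ^ i = b * (n / b ^ i / b) + d := (Nat.div_add_mod _ _).symm
    have h6 : n / b ^ i - y = b * (n / b ^ i / b) + (d - y) := by omega
    rw [h6, Nat.mul_add_mod, Nat.mod_eq_of_lt (by omega)]
    exact hyr

/-! ### words -/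

section words

variable {α S W V : Type} [Monoid S] [AddCommGroup W] [AddCommGroup V]

/-- block `j` of a word -/
def blk (phi : List α → S) (b : ℕ) (X : List α) (j : ℕ) : S :=
  phi ((X.take (X.length % b ^ (j + 1))).drop (X.length % b ^ j))

/-- digit conditions of a cut `(o, o')` in block `i` -/
def DC (b i o o' : ℕ) : Prop :=
  o < b ^ (i + 1) ∧ 2 * (o / b ^ i) < b ∧ b ^ i ∣ o' ∧ 2 * ((o' / b ^ i) % b) < b

theorem take_take_drop {P Q : List α} {a c : ℕ} (ha : a ≤ P.length) :
    ((P ++ Q).take a).drop c = (P.take a).drop c := by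
  rw [List.take_append_of_le_length ha]

theorem take_add_drop (P Q : List α) (a c : ℕ) :
    ((P ++ Q).take (P.length + a)).drop (P.length + c) = (Q.take a).drop c := by
  rw [List.take_append, List.drop_append]
  simp

theorem blk_lt {phi : List α → S} {b i j : ℕ} {P Q : List α} (h : DC b i P.length Q.length)
    (hj : j < i) : blk phi b (P ++ Q) j = blk phi b P j := by
  unfold blk
  rw [List.length_append, digit_low (by omega : j + 1 ≤ i) h.2.2.1,
    digit_low (by omega : j ≤ i) h.2.2.1, take_take_drop (Nat.mod_le _ _)]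

theorem blk_gt {phi : List α → S} {b i j : ℕ} {P Q : List α} (h : DC b i P.length Q.length)
    (hj : i < j) : blk phi b (P ++ Q) j = blk phi b Q j := by
  unfold blk
  rw [List.length_append, digit_high (by omega : i < j + 1) h.2.1 h.2.2.1 h.2.2.2,
    digit_high hj h.2.1 h.2.2.1 h.2.2.2, take_add_drop]

theorem take_lo {b i : ℕ} {P Q : List α} (h : DC b i P.length Q.length) :
    (P ++ Q).take ((P ++ Q).length % b ^ i) = P.take (P.length % b ^ i) := by
  rw [List.length_append, digit_low le_rfl h.2.2.1,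
    List.take_append_of_le_length (Nat.mod_le _ _)]

theorem drop_hi {b i : ℕ} {P Q : List α} (h : DC b i P.length Q.length) :
    (P ++ Q).drop ((P ++ Q).length % b ^ (i + 1)) = Q.drop (Q.length % b ^ (i + 1)) := by
  rw [List.length_append, digit_high (by omega : i < i + 1) h.2.1 h.2.2.1 h.2.2.2]
  rw [List.drop_append]; simp

theorem sum_split {m : ℕ} (i : Fin m) (f : Fin m → W) :
    ∑ j, f j = (∑ j ∈ univ.filter (· < i), f j) + f i + ∑ j ∈ univ.filter (i < ·), f j := by
  have h1 : f i = ∑ j, (if j = i then f j else 0) := by simp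
  rw [h1, Finset.sum_filter, Finset.sum_filter, ← Finset.sum_add_distrib,
    ← Finset.sum_add_distrib]
  refine Finset.sum_congr rfl fun j _ => ?_
  rcases lt_trichotomy j i with h | h | h
  · simp [h, h.ne, h.not_gt]
  · simp [h]
  · simp [h, h.ne', h.not_gt]

theorem phi_split {phi : List α → S} (hphi : ∀ u v, phi (u ++ v) = phi u * phi v) (b i : ℕ)
    (X : List α) : phi X = phi (X.take (X.length % b ^ i)) * blk phi b X i *
      phi (X.drop (X.length % b ^ (i + 1))) := by
  unfold blk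
  rw [← hphi, ← hphi]
  congr 1
  have hle : X.length % b ^ i ≤ X.length % b ^ (i + 1) := by
    rw [pow_succ, Nat.mod_mul]; exact Nat.le_add_right _ _
  have h1 : X.take (X.length % b ^ i) = (X.take (X.length % b ^ (i + 1))).take (X.length % b ^ i) := by
    rw [List.take_take, min_eq_left hle]
  rw [h1, List.take_append_drop, List.take_append_drop]

/-- contexts `(i, g, wl, h, wr, v, b)` -/
abbrev Cx (m : ℕ) (S W V : Type) : Type := Fin m × S × W × S × W × V × V

/-- left data agree with the context -/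
def Lc (phi : List α → S) {m : ℕ} (e : Fin m → S → W) (b : ℕ) (c : Cx m S W V) (P : List α) :
    Prop :=
  P.length < b ^ ((c.1 : ℕ) + 1) ∧ 2 * (P.length / b ^ (c.1 : ℕ)) < b ∧
    phi (P.take (P.length % b ^ (c.1 : ℕ))) = c.2.1 ∧
    ∑ j ∈ univ.filter (· < c.1), e j (blk phi b P j) = c.2.2.1

/-- right data agree with the context -/
def Rc (phi : List α → S) {m : ℕ} (e : Fin m → S → W) (b : ℕ) (c : Cx m S W V) (Q : List α) :
    Prop :=
  b ^ (c.1 : ℕ) ∣ Q.length ∧ 2 * ((Q.length / b ^ (c.1 : ℕ)) % b) < b ∧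
    phi (Q.drop (Q.length % b ^ ((c.1 : ℕ) + 1))) = c.2.2.2.1 ∧
    ∑ j ∈ univ.filter (c.1 < ·), e j (blk phi b Q j) = c.2.2.2.2.1

theorem joint {phi : List α → S} (hphi : ∀ u v, phi (u ++ v) = phi u * phi v) {m : ℕ}
    {e : Fin m → S → W} {b : ℕ} {c : Cx m S W V} {P Q : List α} (hL : Lc phi e b c P)
    (hR : Rc phi e b c Q) : ∃ z : S, phi (P ++ Q) = c.2.1 * z * c.2.2.2.1 ∧
      ∑ j, e j (blk phi b (P ++ Q) j) = c.2.2.1 + e c.1 z + c.2.2.2.2.1 := by
  have hD : DC b c.1 P.length Q.length := ⟨hL.1, hL.2.1, hR.1, hR.2.1⟩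
  refine ⟨blk phi b (P ++ Q) c.1, ?_, ?_⟩
  · rw [phi_split hphi b c.1 (P ++ Q), take_lo hD, drop_hi hD, hL.2.2.1, hR.2.2.1]
  · rw [sum_split c.1, ← hL.2.2.2, ← hR.2.2.2]
    congr 1
    · congr 1
      refine Finset.sum_congr rfl fun j hj => ?_
      rw [blk_lt hD (by simpa using hj)]
    · refine Finset.sum_congr rfl fun j hj => ?_
      rw [blk_gt hD (by simpa using hj)]

end words

/-! ### the gadget -/

theorem mod_dvd {a n n' k : ℕ} (h : n % a = n' % a) (hk : k ∣ a) : n % k = n' % k := by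
  rw [← Nat.mod_mod_of_dvd n hk, h, Nat.mod_mod_of_dvd n' hk]

/-- **digit gadget** (852 (G1)) -/
theorem G1 (S V : Type) [Monoid S] [Finite S] [AddCommGroup V] [Finite V] (act : V → S → V) :
    ∃ m r : ℕ, ∀ B : ℕ, ∃ (Ms : Finset ℕ) (M : ℕ), Ms.card ≤ r ∧
      (∀ k ∈ Ms, B < k ∧ Nat.Prime k ∧ k ∣ M) ∧ 0 < M ∧
      ∀ b : ℕ, 0 < b → Nat.Coprime b M →
      ∀ (α : Type) (phi : List α → S), (∀ u v, phi (u ++ v) = phi u * phi v) →
      ∃ (lam rho : List α → Option V) (nu : List α → V),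
        (∀ P v, lam P = some v → P.length < b ^ m) ∧
        (∀ P Q v x, lam P = some v → rho Q = some x →
          x = act v (phi (P ++ Q)) + nu (P ++ Q)) ∧
        (∀ X : List α, (∀ k ∈ Ms, ¬ k ∣ X.length) →
          (∀ i < m, M ≤ (X.length / b ^ i) % b ∧ (X.length / b ^ i) % b + M + 1 ≤ b) →
          ∀ v, ∃ P Q, P ++ Q = X ∧ lam P = some v ∧ (rho Q).isSome) ∧
        (∀ X Y : List α, b ^ m ≤ X.length → b ^ m ≤ Y.length → X.take (b ^ m) = Y.take (b ^ m) →
          X.length % (M * b ^ m) = Y.length % (M * b ^ m) →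
          phi (X.drop (b ^ m)) = phi (Y.drop (b ^ m)) → nu X = nu Y ∧ rho X = rho Y) := by
  classical
  obtain ⟨W, iW, iWf, m, e, F, hF⟩ := Noise513.explicit_noise S V act
  let good : Cx m S W V → Prop := fun c => ∀ z : S,
    F (c.2.1 * z * c.2.2.2.1) (c.2.2.1 + e c.1 z + c.2.2.2.2.1) +
      act c.2.2.2.2.2.1 (c.2.1 * z * c.2.2.2.1) = c.2.2.2.2.2.2
  have hfin : Finite {c : Cx m S W V // good c} := inferInstance
  obtain ⟨r, hr⟩ := Names755.names {c : Cx m S W V // good c} (V × V)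
    (fun c => (c.1.2.2.2.2.2.1, c.1.2.2.2.2.2.2))
  refine ⟨m, r, fun B => ?_⟩
  obtain ⟨Ms, M, nmL, nmR, hcard, hMs, hM, hpL, hpR, hsame, hcomp, hcol⟩ := hr B
  refine ⟨Ms, M, hcard, hMs, hM, fun b hb hbM α phi hphi => ?_⟩
  have hpL' : ∀ n, nmL (n % M) = nmL n := fun n => Function.Periodic.map_mod_nat hpL n
  have hpR' : ∀ n, nmR (n % M) = nmR n := fun n => Function.Periodic.map_mod_nat hpR n
  -- colours of the bad totals
  have hcolr : ∀ n : ℕ, ∃ p : V × V, ∀ t t' c c', (t + t') % M = n → (∃ k ∈ Ms, k ∣ n) →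
      nmL t = some c → nmR t' = some c' → p = (c.1.2.2.2.2.2.1, c'.1.2.2.2.2.2.2) := by
    intro n
    by_cases h : ∃ t t' c c', (t + t') % M = n ∧ (∃ k ∈ Ms, k ∣ n) ∧ nmL t = some c ∧
        nmR t' = some c'
    · obtain ⟨t, t', c, c', h1, h2, h3, h4⟩ := h
      refine ⟨(c.1.2.2.2.2.2.1, c'.1.2.2.2.2.2.2), ?_⟩
      intro u u' d d' g1 g2 g3 g4
      -- reduce both to a common total
      have key : ∃ q q', t + t' + M * q = u + u' + M * q' := by
        have a1 := Nat.mod_add_div (t + t') M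
        have a2 := Nat.mod_add_div (u + u') M
        refine ⟨(u + u') / M, (t + t') / M, ?_⟩
        rw [h1] at a1; rw [g1] at a2
        omega
      obtain ⟨q, q', hq⟩ := key
      have b1 : nmL (t + M * q) = some c := by
        rw [← hpL', Nat.add_mul_mod_self_left, hpL', h3]
      have b2 : nmL (u + M * q') = some d := by
        rw [← hpL', Nat.add_mul_mod_self_left, hpL', g3]
      obtain ⟨k, hk, hkn⟩ := g2
      have hkM := (hMs k hk).2.2
      have hkt : k ∣ (t + M * q) + t' := by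
        have : (t + M * q) + t' = (t + t') + M * q := by ring
        rw [this]
        refine Nat.dvd_add ?_ (hkM.mul_right q)
        rw [← Nat.mod_add_div (t + t') M, h1]
        exact Nat.dvd_add hkn (hkM.mul_right _)
      have := hcol (t + M * q) t' (u + M * q') u' c c' d d' b1 h4 b2 g4 (by omega) ⟨k, hk, hkt⟩
      simp only [Prod.mk.injEq] at this
      obtain ⟨⟨e1, _⟩, ⟨_, e2⟩⟩ := this
      rw [e1, e2]
    · refine ⟨(0, 0), ?_⟩
      intro u u' d d' g1 g2 g3 g4
      exact absurd ⟨u, u', d, d', g1, g2, g3, g4⟩ h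
  choose colr hcolr using hcolr
  let lam : List α → Option V := fun P => (nmL P.length).bind fun c =>
    if Lc phi e b c.1 P then some c.1.2.2.2.2.2.1 else none
  let rho : List α → Option V := fun Q => (nmR Q.length).bind fun c =>
    if Rc phi e b c.1 Q then some c.1.2.2.2.2.2.2 else none
  let nu : List α → V := fun X => if ∃ k ∈ Ms, k ∣ X.length % M then
    (colr (X.length % M)).2 - act (colr (X.length % M)).1 (phi X)
    else F (phi X) (∑ j, e j (blk phi b X j))
  have hlam : ∀ P v, lam P = some v ↔ ∃ c, nmL P.length = some c ∧ Lc phi e b c.1 P ∧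
      c.1.2.2.2.2.2.1 = v := by
    intro P v
    simp only [lam, Option.bind_eq_some_iff]
    constructor
    · rintro ⟨c, h1, h2⟩
      by_cases h3 : Lc phi e b c.1 P
      · rw [if_pos h3] at h2; exact ⟨c, h1, h3, Option.some.inj h2⟩
      · rw [if_neg h3] at h2; exact absurd h2 (by simp)
    · rintro ⟨c, h1, h2, h3⟩
      exact ⟨c, h1, by rw [if_pos h2, h3]⟩
  have hrho : ∀ Q v, rho Q = some v ↔ ∃ c, nmR Q.length = some c ∧ Rc phi e b c.1 Q ∧
      c.1.2.2.2.2.2.2 = v := by
    intro P v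
    simp only [rho, Option.bind_eq_some_iff]
    constructor
    · rintro ⟨c, h1, h2⟩
      by_cases h3 : Rc phi e b c.1 P
      · rw [if_pos h3] at h2; exact ⟨c, h1, h3, Option.some.inj h2⟩
      · rw [if_neg h3] at h2; exact absurd h2 (by simp)
    · rintro ⟨c, h1, h2, h3⟩
      exact ⟨c, h1, by rw [if_pos h2, h3]⟩
  have hkmod : ∀ k ∈ Ms, ∀ n, k ∣ n % M ↔ k ∣ n := by
    intro k hk n
    rw [Nat.dvd_iff_mod_eq_zero, Nat.dvd_iff_mod_eq_zero, Nat.mod_mod_of_dvd n (hMs k hk).2.2]
  refine ⟨lam, rho, nu, ?_, ?_, ?_, ?_⟩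
  · intro P v h
    obtain ⟨c, -, h2, -⟩ := (hlam P v).1 h
    refine lt_of_lt_of_le h2.1 (Nat.pow_le_pow_right hb ?_)
    have := c.1.1.2; omega
  · intro P Q v x h1 h2
    obtain ⟨c, a1, a2, a3⟩ := (hlam P v).1 h1
    obtain ⟨c', b1, b2, b3⟩ := (hrho Q x).1 h2
    by_cases hbad : ∃ k ∈ Ms, k ∣ (P ++ Q).length % M
    · have := hcolr ((P ++ Q).length % M) P.length Q.length c c' (by rw [List.length_append])
        hbad a1 b1
      simp only [nu]
      rw [if_pos hbad, this, a3, b3]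
      simp
    · have hcc : c = c' := by
        refine hsame _ _ c c' a1 b1 fun k hk hd => hbad ⟨k, hk, ?_⟩
        rw [hkmod k hk, List.length_append]; exact hd
      subst hcc
      obtain ⟨z, z1, z2⟩ := joint hphi a2 b2
      simp only [nu]
      rw [if_neg hbad, z1, z2, ← b3, ← c.2 z, a3, add_comm]
  · intro X hX hdig v
    obtain ⟨i, hi⟩ := hF (phi X) (∑ j, e j (blk phi b X j)) v
    let cc : Cx m S W V := (i, phi (X.take (X.length % b ^ (i : ℕ))),
      ∑ j ∈ univ.filter (· < i), e j (blk phi b X j),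
      phi (X.drop (X.length % b ^ ((i : ℕ) + 1))),
      ∑ j ∈ univ.filter (i < ·), e j (blk phi b X j), v,
      F (phi X) (∑ j, e j (blk phi b X j)) + act v (phi X))
    have hgood : good cc := by
      intro z
      have h1 := hi _ (blk phi b X i) _ (phi_split hphi b i X).symm z
      have h2 : (∑ j, e j (blk phi b X j)) - e i (blk phi b X i) + e i z =
          (∑ j ∈ univ.filter (· < i), e j (blk phi b X j)) + e i z +
            ∑ j ∈ univ.filter (i < ·), e j (blk phi b X j) := by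
        rw [sum_split i]; abel
      rw [h2] at h1
      exact h1
    obtain ⟨t, -, ht1, ht2⟩ := hcomp X.length hX ⟨cc, hgood⟩
    obtain ⟨o, ho, hot, hD1, hD2, hD3, hD4⟩ := exists_cut b M i X.length t hM hbM
      (hdig i i.2).1 (hdig i i.2).2
    have hPl : (X.take o).length = o := by rw [List.length_take, min_eq_left ho]
    have hQl : (X.drop o).length = X.length - o := List.length_drop ..
    have hD : DC b i (X.take o).length (X.drop o).length := by
      rw [hPl, hQl]; exact ⟨hD1, hD2, hD3, hD4⟩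
    have hPQ : X.take o ++ X.drop o = X := List.take_append_drop o X
    refine ⟨X.take o, X.drop o, hPQ, (hlam _ _).2 ⟨⟨cc, hgood⟩, ?_, ?_, rfl⟩, ?_⟩
    · rw [hPl, ← ht1, ← hpL' o, ← hpL' t]; rw [hot]
    · refine ⟨hD.1, hD.2.1, ?_, ?_⟩
      · have := take_lo hD
        rw [hPQ] at this
        exact (congrArg phi this).symm
      · refine Finset.sum_congr rfl fun j hj => ?_
        have := blk_lt (phi := phi) hD (j := j) (by simpa using hj)
        rw [hPQ] at this
        rw [this]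
    · have : rho (X.drop o) = some cc.2.2.2.2.2.2 := by
        refine (hrho _ _).2 ⟨⟨cc, hgood⟩, ?_, ?_, rfl⟩
        · rw [hQl]
          refine ht2 _ ?_
          have h3 : t + (X.length - o) ≡ o + (X.length - o) [MOD M] :=
            Nat.ModEq.add_right _ hot.symm
          rwa [Nat.add_sub_cancel' ho] at h3
        · refine ⟨hD.2.2.1, hD.2.2.2, ?_, ?_⟩
          · have := drop_hi hD
            rw [hPQ] at this
            exact (congrArg phi this).symm
          · refine Finset.sum_congr rfl fun j hj => ?_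
            have := blk_gt (phi := phi) hD (j := j) (by simpa using hj)
            rw [hPQ] at this
            rw [this]
      rw [this]; rfl
  · intro X Y hX hY hXY hl hp
    have hlM : X.length % M = Y.length % M := mod_dvd hl (dvd_mul_right _ _)
    have hlb : ∀ j, j ≤ m → X.length % b ^ j = Y.length % b ^ j := fun j hj =>
      mod_dvd hl ((pow_dvd_pow b hj).trans (dvd_mul_left _ _))
    have htk : ∀ a, a ≤ b ^ m → X.take a = Y.take a := fun a ha => by
      have h1 : X.take a = (X.take (b ^ m)).take a := by rw [List.take_take, min_eq_left ha]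
      have h2 : Y.take a = (Y.take (b ^ m)).take a := by rw [List.take_take, min_eq_left ha]
      rw [h1, h2, hXY]
    have hle : ∀ j, j ≤ m → X.length % b ^ j ≤ b ^ m := fun j hj =>
      (Nat.mod_lt _ (pow_pos hb j)).le.trans (Nat.pow_le_pow_right hb hj)
    have hblk : ∀ j : Fin m, blk phi b X j = blk phi b Y j := fun j => by
      unfold blk
      rw [← hlb j j.2.le, ← hlb (j + 1) j.2, htk _ (hle (j + 1) j.2)]
    have hdr : ∀ a, a ≤ b ^ m → phi (X.drop a) = phi (Y.drop a) := fun a ha => by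
      have h1 : ∀ Z : List α, b ^ m ≤ Z.length → phi (Z.drop a) = phi ((Z.take (b ^ m)).drop a) *
          phi (Z.drop (b ^ m)) := fun Z hZ => by
        rw [← hphi]
        congr 1
        conv_lhs => rw [← List.take_append_drop (b ^ m) Z]
        rw [List.drop_append_of_le_length (by rw [List.length_take, min_eq_left hZ]; exact ha)]
      rw [h1 X hX, h1 Y hY, hXY, hp]
    have hphiXY : phi X = phi Y := by
      have := hdr 0 (Nat.zero_le _)
      simpa using this
    refine ⟨?_, ?_⟩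
    · simp only [nu, hlM, hphiXY, hblk]
    · have hRc : ∀ c : {c : Cx m S W V // good c}, Rc phi e b c.1 X ↔ Rc phi e b c.1 Y := by
        intro c
        have hi := c.1.1.2
        have e1 : b ^ (c.1.1 : ℕ) ∣ X.length ↔ b ^ (c.1.1 : ℕ) ∣ Y.length := by
          rw [Nat.dvd_iff_mod_eq_zero, Nat.dvd_iff_mod_eq_zero, hlb _ hi.le]
        have e2 : (X.length / b ^ (c.1.1 : ℕ)) % b = (Y.length / b ^ (c.1.1 : ℕ)) % b := by
          have h3 := hlb (c.1.1 + 1) hi
          rw [pow_succ, Nat.mod_mul, Nat.mod_mul, hlb _ hi.le] at h3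
          exact Nat.eq_of_mul_eq_mul_left (pow_pos hb _) (Nat.add_left_cancel h3)
        unfold Rc
        rw [e1, e2, hlb (c.1.1 + 1) hi, hdr _ (by rw [← hlb (c.1.1 + 1) hi]; exact hle _ hi)]
        simp only [hblk]
      simp only [rho]
      rw [← hpR' X.length, ← hpR' Y.length, hlM]
      congr 1
      funext c
      simp only [hRc c]

end Crest.Agent.R320.G1_424
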