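import Crest.Agent.R320.Top5_110
import Crest.Agent.R320.ExactR_237

/-!
# Row 320: the two completeness statements of 110's `top_sem` (helper11)

Natural chain rule on left-looking walls of ALL words (`XX` = first wall at distance `≥ z`), one token
system (118), scheme 1 = any gadget `lam rho nu1` which is sound on all words and complete off
`BadT |Y|` (693 / 638 / 772's UGI), scheme 2 = 237's exact gadget on the first `p0` letters.
-/

set_option autoImplicit false

namespace Crest.Agent.R320.InstB_11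

open Crest.Agent.R320.Hk_851 Crest.Agent.R320.Code110

universe u

variable {α : Type u}

/-- the block code: first wall at distance `≥ z` -/
def XX (Wo : List α → Prop) (z : ℕ) : Language α :=
  {X | z ≤ X.length ∧ Wo X ∧ ∀ t, z ≤ t → t < X.length → ¬ Wo (X.take t)}

/-- left-looking walls -/
structure WL (Wo : List α → Prop) (n W : ℕ) : Prop where
  loc : ∀ P Q : List α, n ≤ Q.length → (Wo (P ++ Q) ↔ Wo Q)
  len : ∀ P : List α, Wo P → n ≤ P.length
  gap : ∀ (P : List α) (d : ℕ), Wo P → 0 < d → d ≤ W → ¬ Wo (P.take (P.length - d))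

/-- bad blocks -/
def BadX (Wo : List α → Prop) (z N1 p0 : ℕ) (BadT : ℕ → Prop) : Language α :=
  {X | X ∈ XX Wo z ∧ ((∃ t, t ≤ X.length ∧ z ≤ t + N1 ∧ t < z + N1 ∧ Wo (X.take t)) ∨
    BadT (X.length - p0))}

variable {Wo : List α → Prop} {n W : ℕ}

theorem WL.take (h : WL Wo n W) {P Q : List α} {t : ℕ} (ht : P.length + n ≤ t)
    (htl : t ≤ P.length + Q.length) : Wo ((P ++ Q).take t) ↔ Wo (Q.take (t - P.length)) := by
  have e : (P ++ Q).take t = P ++ Q.take (t - P.length) := by
    rw [List.take_append, List.take_of_length_le (by omega)]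
  rw [e]
  exact h.loc _ _ (by rw [List.length_take]; omega)

/-- walls of the shifted texts -/
theorem WL.shift (h : WL Wo n W) {T p : List α} {c t : ℕ} (hc : c ≤ T.length)
    (ht : p.length + n ≤ t) (htl : t ≤ p.length + (T.length - c)) :
    Wo ((p ++ T.drop c).take t) ↔ Wo (T.take (t - p.length + c)) := by
  rw [h.take ht (by rw [List.length_drop]; omega)]
  have e : T = T.take c ++ T.drop c := (List.take_append_drop c T).symm
  have hl : (T.take c).length = c := by rw [List.length_take]; omega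
  conv_rhs => rw [e]
  rw [h.take (by rw [hl]; omega) (by rw [hl, List.length_drop]; omega), hl]
  simp

theorem WL.uniq (h : WL Wo n W) {T : List α} {s t : ℕ} (hs : s ≤ T.length) (ht : t ≤ T.length)
    (h1 : Wo (T.take s)) (h2 : Wo (T.take t)) (hst : s ≤ t + W) (hts : t ≤ s + W) : s = t := by
  by_contra hne
  rcases Nat.lt_or_gt_of_ne hne with hlt | hlt
  · have := h.gap (T.take t) (t - s) h2 (by omega) (by omega)
    apply this
    rw [List.length_take, List.take_take]
    have e : min (min t T.length - (t - s)) t = s := by omega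
    rw [e]
    exact h1
  · have := h.gap (T.take s) (s - t) h1 (by omega) (by omega)
    apply this
    rw [List.length_take, List.take_take]
    have e : min (min s T.length - (s - t)) s = t := by omega
    rw [e]
    exact h2

theorem pc {z : ℕ} (hz : 0 < z) : PC (XX Wo z) := by
  constructor
  · rintro ⟨h, -, -⟩
    simp at h
    omega
  · rintro u ⟨hu1, hu2, hu3⟩ v ⟨hv1, hv2, hv3⟩ huv
    rcases Nat.lt_or_ge u.length v.length with hlt | hge
    · exact (hv3 u.length hu1 hlt (by rw [← List.prefix_iff_eq_take.1 huv]; exact hu2)).elim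
    · exact List.IsPrefix.eq_of_length_le huv hge

theorem exists_block {z : ℕ} {w : List α} (hz : z ≤ w.length) (hw : Wo w) :
    ∃ Z ∈ XX Wo z, Z <+: w := by
  classical
  have hex : ∃ t, z ≤ t ∧ t ≤ w.length ∧ Wo (w.take t) := ⟨w.length, hz, le_rfl, by simpa using hw⟩
  obtain ⟨h1, h2, h3⟩ := Nat.find_spec hex
  refine ⟨w.take (Nat.find hex), ⟨by rw [List.length_take]; omega, h3, ?_⟩, List.take_prefix _ _⟩
  intro t ht1 ht2 ht3
  rw [List.length_take] at ht2
  have hlt : t < Nat.find hex := by omega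
  rw [List.take_take, min_eq_left hlt.le] at ht3
  exact Nat.find_min hex hlt ⟨ht1, by omega, ht3⟩

/-- exchange of the beginning of a block -/
theorem swap_XX (h : WL Wo n W) {z : ℕ} {A A' B : List α} (hl : A'.length = A.length)
    (hz : A.length + n ≤ z) (hX : A ++ B ∈ XX Wo z) : A' ++ B ∈ XX Wo z := by
  obtain ⟨h1, h2, h3⟩ := hX
  rw [List.length_append] at h1
  refine ⟨by rw [List.length_append]; omega, ?_, ?_⟩
  · rw [h.loc _ _ (by omega)] at h2 ⊢
    exact h2
  · intro t ht1 ht2 ht3
    rw [List.length_append] at ht2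
    apply h3 t ht1 (by rw [List.length_append]; omega)
    rw [h.take (by omega) (by omega)] at ht3 ⊢
    rw [← hl]
    exact ht3

theorem swap_Bad (h : WL Wo n W) {z N1 p0 : ℕ} {BadT : ℕ → Prop} {A A' B : List α}
    (hl : A'.length = A.length) (hz : A.length + n + N1 ≤ z)
    (hX : A ++ B ∈ BadX Wo z N1 p0 BadT) : A' ++ B ∈ BadX Wo z N1 p0 BadT := by
  obtain ⟨h1, h2⟩ := hX
  refine ⟨swap_XX h hl (by omega) h1, ?_⟩
  rcases h2 with ⟨t, ht1, ht2, ht3, ht4⟩ | h2
  · left
    rw [List.length_append] at ht1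
    refine ⟨t, by rw [List.length_append]; omega, ht2, ht3, ?_⟩
    rw [h.take (by omega) (by omega)] at ht4 ⊢
    rw [hl]
    exact ht4
  · right
    rw [List.length_append] at h2 ⊢
    rw [hl]
    exact h2

theorem exactly_one {Ω : Type*} {Z : Language α} {τ : List α → Ω → Ω} {x y : Ω} {w : List α}
    (h : w ∈ Z) (hy : τ w x = y) : w ∈ Exactly Z τ 1 x y :=
  ⟨y, Language.mem_mul.2 ⟨w, ⟨h, hy⟩, [], ⟨rfl, rfl⟩, List.append_nil w⟩⟩

theorem exactly_two {Ω : Type*} {Z : Language α} {τ : List α → Ω → Ω} {x x' y : Ω}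
    {w w' : List α} (h : w ∈ Z) (hy : τ w x = x') (h' : w' ∈ Z) (hy' : τ w' x' = y) :
    w ++ w' ∈ Exactly Z τ 2 x y :=
  ⟨x', Language.mem_mul.2 ⟨w, ⟨h, hy⟩, w', exactly_one h' hy', rfl⟩⟩


section scheme1

variable {S V : Type*} [Monoid S] [AddCommGroup V]

/-- transport through a block, one token system -/
def TT (f : α → S) (act : V → S → V) (p0 : ℕ) (nu2 nu1 : List α → V) (X : List α) (x : V) : V :=
  act (act x ((X.take p0).map f).prod + nu2 (X.take p0)) ((X.drop p0).map f).prod +
    nu1 (X.drop p0)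

/-- left words of scheme 1 -/
def L1 (f : α → S) (act : V → S → V) (p0 : ℕ) (nu2 : List α → V) (lam : List α → Option V)
    (x : V) : Language α :=
  {p | p0 ≤ p.length ∧ lam (p.drop p0) = some (act x ((p.take p0).map f).prod + nu2 (p.take p0))}

theorem C1 (h : WL Wo n W) (f : α → S) (act : V → S → V) {z N1 p0 La : ℕ} {BadT : ℕ → Prop}
    (nu2 nu1 : List α → V) (lam rho : List α → Option V)
    (hz : p0 + N1 + n + La ≤ z)
    (g1 : ∀ p v, lam p = some v → p.length ≤ N1)
    (g2 : ∀ p q v b, lam p = some v → rho q = some b → La ≤ q.length →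
      b = act v ((p ++ q).map f).prod + nu1 (p ++ q))
    (g3 : ∀ u : List α, La ≤ u.length → ¬ BadT u.length → ∀ v, ∃ p q, p ++ q = u ∧
      lam p = some v ∧ (rho q).isSome)
    (u : List α) (hu : u ∈ XX Wo z) (hb : u ∉ BadX Wo z N1 p0 BadT) (x : V) :
    ∃ p q y, u = p ++ q ∧ p ∈ L1 f act p0 nu2 lam x ∧
      q ∈ Rsem (XX Wo z) (XX Wo z) (TT f act p0 nu2 nu1) 0 (L1 f act p0 nu2 lam) y := by
  obtain ⟨hu1, hu2, hu3⟩ := hu
  have hE : ¬ ∃ t, t ≤ u.length ∧ z ≤ t + N1 ∧ t < z + N1 ∧ Wo (u.take t) := fun h' =>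
    hb ⟨⟨hu1, hu2, hu3⟩, Or.inl h'⟩
  have hB : ¬ BadT (u.length - p0) := fun h' => hb ⟨⟨hu1, hu2, hu3⟩, Or.inr h'⟩
  have hlu : z + N1 ≤ u.length := by
    by_contra hlt
    exact hE ⟨u.length, le_rfl, by omega, by omega, by simpa using hu2⟩
  obtain ⟨p', q, hpq, hlam, hrho⟩ := g3 (u.drop p0) (by rw [List.length_drop]; omega)
    (by rw [List.length_drop]; exact hB)
    (act x ((u.take p0).map f).prod + nu2 (u.take p0))
  obtain ⟨b, hb'⟩ := Option.isSome_iff_exists.1 hrho
  have hp' := g1 _ _ hlam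
  have htl : (u.take p0).length = p0 := by rw [List.length_take]; omega
  have hql : p'.length + q.length = u.length - p0 := by
    rw [← List.length_append, hpq, List.length_drop]
  have huq : u = (u.take p0 ++ p') ++ q := by
    rw [List.append_assoc, hpq, List.take_append_drop]
  refine ⟨u.take p0 ++ p', q, b, huq, ?_, ?_⟩
  · refine ⟨by rw [List.length_append, htl]; omega, ?_⟩
    rw [List.drop_append_of_le_length (by omega), List.drop_of_length_le (by omega),
      List.nil_append, List.take_append_of_le_length (by omega), List.take_of_length_le (by omega)]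
    exact hlam
  · rintro x' p2 ⟨hp2, hlam2⟩
    left
    have hd := g1 _ _ hlam2
    rw [List.length_drop] at hd
    have hn : n ≤ q.length := by omega
    have hWq : Wo q := by
      rw [huq, h.loc _ _ hn] at hu2
      exact hu2
    refine exactly_one ⟨by rw [List.length_append]; omega, (h.loc _ _ hn).2 hWq, ?_⟩ ?_
    · intro t ht1 ht2 ht3
      rw [List.length_append] at ht2
      rw [h.take (by omega) (by omega)] at ht3
      have hl1 : (u.take p0 ++ p').length = p0 + p'.length := by rw [List.length_append, htl]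
      have ht4 : Wo (u.take (t - p2.length + (p0 + p'.length))) := by
        rw [huq, h.take (by rw [hl1]; omega) (by rw [hl1]; omega), hl1]
        have e : t - p2.length + (p0 + p'.length) - (p0 + p'.length) = t - p2.length := by omega
        rw [e]
        exact ht3
      by_cases hc : z ≤ t - p2.length + (p0 + p'.length)
      · exact hu3 _ hc (by omega) ht4
      · exact hE ⟨_, by omega, by omega, by omega, ht4⟩
    · have e1 : (p2 ++ q).take p0 = p2.take p0 := List.take_append_of_le_length hp2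
      have e2 : (p2 ++ q).drop p0 = p2.drop p0 ++ q := List.drop_append_of_le_length hp2
      unfold TT
      rw [e1, e2]
      exact (g2 _ _ _ _ hlam2 hb' (by omega)).symm

end scheme1

section scheme2

/-- **the spoil count**: at most `1 + 2 C0` places of the ruler are spoiled -/
theorem spoil (h : WL Wo n W) {z N1 p0 La K C0 : ℕ} {BadT : ℕ → Prop} (c : ℕ → ℕ)
    (hz : p0 + p0 + N1 + n + La ≤ z) (hW : 2 * (N1 + p0) ≤ W) (hc : ∀ k < K, c k ≤ p0)
    (gol : ∀ i j k l, i < K → j < K → k < K → l < K → i ≠ j → k ≠ l → (i, j) ≠ (k, l) →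
      c i + c l + 4 * N1 < c k + c j ∨ c k + c j + 4 * N1 < c i + c l)
    (sp : ∀ T, La ≤ T → ∀ F : Finset (ℕ × ℕ), (∀ ij ∈ F, ij.1 < K ∧ ij.2 < K ∧ ij.1 ≠ ij.2 ∧
      BadT (T + c ij.2 - c ij.1)) → F.card ≤ C0) (T : List α) (hT : z ≤ T.length) :
    ∃ J : Finset ℕ, J.card ≤ 1 + 2 * C0 ∧ ∀ k < K, ∀ k' < K, k' ≠ k → ∀ p Z : List α,
      p.length = c k' → Z ∈ BadX Wo z N1 p0 BadT → Z <+: p ++ T.drop (c k) → k ∈ J := by
  classical
  let PE : Finset (ℕ × ℕ) := (Finset.range K ×ˢ Finset.range K).filter fun ij =>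
    ij.1 ≠ ij.2 ∧ ∃ s, s ≤ T.length ∧ Wo (T.take s) ∧ z + c ij.1 ≤ s + c ij.2 + N1 ∧
      s + c ij.2 < z + N1 + c ij.1
  let PB : ℕ → Finset (ℕ × ℕ) := fun e => (Finset.range K ×ˢ Finset.range K).filter fun ij =>
    ij.1 ≠ ij.2 ∧ BadT (e - p0 + c ij.2 - c ij.1)
  have hPE : PE.card ≤ 1 := by
    rw [Finset.card_le_one]
    rintro ⟨i, j⟩ hij ⟨k, l⟩ hkl
    simp only [PE, Finset.mem_filter, Finset.mem_product, Finset.mem_range] at hij hkl
    obtain ⟨⟨hi, hj⟩, hne, s, hs1, hs2, hs3, hs4⟩ := hij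
    obtain ⟨⟨hk, hl⟩, hne', s', hs1', hs2', hs3', hs4'⟩ := hkl
    have ci := hc i hi
    have cj := hc j hj
    have ck := hc k hk
    have cl := hc l hl
    have hss : s = s' := h.uniq hs1 hs1' hs2 hs2' (by omega) (by omega)
    subst hss
    by_contra hcon
    have := gol i j k l hi hj hk hl hne hne' hcon
    omega
  have hPB : ∀ e, La + p0 ≤ e → (PB e).card ≤ C0 := by
    intro e he
    refine sp (e - p0) (by omega) _ ?_
    rintro ⟨i, j⟩ hij
    simp only [PB, Finset.mem_filter, Finset.mem_product, Finset.mem_range] at hij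
    exact ⟨hij.1.1, hij.1.2, hij.2.1, hij.2.2⟩
  obtain ⟨e0, he0, hu0⟩ : ∃ e0, La + p0 ≤ e0 ∧ ∀ e, e ≤ T.length → z ≤ e + p0 → e ≤ z + p0 →
      Wo (T.take e) → e = e0 := by
    by_cases h0 : ∃ e, e ≤ T.length ∧ z ≤ e + p0 ∧ e ≤ z + p0 ∧ Wo (T.take e)
    · obtain ⟨e0, h1, h2, h3, h4⟩ := h0
      exact ⟨e0, by omega, fun e g1 g2 g3 g4 => h.uniq g1 h1 g4 h4 (by omega) (by omega)⟩
    · exact ⟨z, by omega, fun e g1 g2 g3 g4 => (h0 ⟨e, g1, g2, g3, g4⟩).elim⟩
  obtain ⟨e1, he1, hu1⟩ : ∃ e1, La + p0 ≤ e1 ∧ ∀ e, e ≤ T.length → z + p0 < e →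
      Wo (T.take e) → (∀ s, z + p0 < s → s < e → ¬ Wo (T.take s)) → e = e1 := by
    by_cases h0 : ∃ e, e ≤ T.length ∧ z + p0 < e ∧ Wo (T.take e)
    · obtain ⟨h1, h2, h3⟩ := Nat.find_spec h0
      refine ⟨Nat.find h0, by omega, fun e g1 g2 g3 g4 => ?_⟩
      have hle := Nat.find_min' h0 ⟨g1, g2, g3⟩
      by_contra hne
      exact g4 _ h2 (by omega) h3
    · exact ⟨z, by omega, fun e g1 g2 g3 g4 => (h0 ⟨e, g1, g2, g3⟩).elim⟩
  refine ⟨(PE ∪ (PB e0 ∪ PB e1)).image Prod.fst, ?_, ?_⟩
  · refine Finset.card_image_le.trans ?_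
    have a1 := Finset.card_union_le PE (PB e0 ∪ PB e1)
    have a2 := Finset.card_union_le (PB e0) (PB e1)
    have a3 := hPB e0 he0
    have a4 := hPB e1 he1
    omega
  · intro k hk k' hk' hne p Z hp hZ hpre
    have ck := hc k hk
    have ck' := hc k' hk'
    obtain ⟨⟨z1, z2, z3⟩, hbad⟩ := hZ
    have hlen := hpre.length_le
    rw [List.length_append, List.length_drop] at hlen
    have hZeq := List.prefix_iff_eq_take.1 hpre
    have key : ∀ t, c k' + n ≤ t → t ≤ Z.length →
        (Wo (Z.take t) ↔ Wo (T.take (t - c k' + c k))) := by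
      intro t ht1 ht2
      have e : Z.take t = (p ++ T.drop (c k)).take t := by
        rw [hZeq, List.take_take, min_eq_left]
        exact ht2
      rw [e, h.shift (by omega) (by omega) (by omega), hp]
    rw [Finset.mem_image]
    refine ⟨(k, k'), ?_, rfl⟩
    rw [Finset.mem_union, Finset.mem_union]
    rcases hbad with ⟨t, ht1, ht2, ht3, ht4⟩ | hbad
    · left
      simp only [PE, Finset.mem_filter, Finset.mem_product, Finset.mem_range]
      refine ⟨⟨hk, hk'⟩, hne.symm, t - c k' + c k, by omega, ?_, by omega, by omega⟩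
      exact (key t (by omega) ht1).1 ht4
    · right
      have hwe : Wo (T.take (Z.length - c k' + c k)) := by
        rw [← key Z.length (by omega) le_rfl, List.take_length]
        exact z2
      have hval : ∀ e, e = Z.length - c k' + c k → (k, k') ∈ PB e := by
        rintro e rfl
        simp only [PB, Finset.mem_filter, Finset.mem_product, Finset.mem_range]
        refine ⟨⟨hk, hk'⟩, hne.symm, ?_⟩
        have e2 : Z.length - c k' + c k - p0 + c k' - c k = Z.length - p0 := by omega
        rw [e2]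
        exact hbad
      by_cases hle : Z.length - c k' + c k ≤ z + p0
      · left
        exact hval e0 (hu0 _ (by omega) (by omega) hle hwe).symm
      · right
        refine hval e1 (hu1 _ (by omega) (by omega) hwe ?_).symm
        intro s hs1 hs2 hs3
        have h1 : s - c k + c k' < Z.length := by omega
        apply z3 (s - c k + c k') (by omega) h1
        rw [key _ (by omega) h1.le]
        have e2 : s - c k + c k' - c k' + c k = s := by omega
        rw [e2]
        exact hs3

variable {S V : Type*} [Monoid S] [AddCommGroup V]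

/-- left words of scheme 2 -/
def L2 (K : ℕ) (c : ℕ → ℕ) (lam2 : ℕ → List α → Option V) (x : V) : Language α :=
  {p | ∃ k < K, p.length = c k ∧ lam2 k p = some x}

theorem C2 (h : WL Wo n W) (f : α → S) (act : V → S → V) {z N1 p0 La K C0 R : ℕ}
    {BadT : ℕ → Prop} (c : ℕ → ℕ) (nu1 : List α → V)
    (lam2 : ℕ → List α → Option V) (rho2 : ℕ → List α → S → Option V) (nuE : List α → S → V)
    (hz : p0 + p0 + N1 + n + La ≤ z) (hz0 : 0 < z) (hW : 2 * (N1 + p0) ≤ W) (hc : ∀ k < K, c k ≤ p0)
    (e1 : ∀ k < K, ∀ (P Q : List α) (y : S) (v b : V), P.length = c k →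
      lam2 k P = some v → rho2 k Q y = some b →
        b = act v (((P ++ Q).map f).prod * y) + nuE (P ++ Q) y)
    (e2 : ∀ (u : List α) (y : S) (v : V), (∀ k < K, c k ≤ u.length) →
      ∃ I : Finset ℕ, R ≤ I.card ∧ ∀ k ∈ I, k < K ∧ lam2 k (u.take (c k)) = some v ∧
        (rho2 k (u.drop (c k)) y).isSome)
    (hR : 1 + 2 * C0 < R)
    (gol : ∀ i j k l, i < K → j < K → k < K → l < K → i ≠ j → k ≠ l → (i, j) ≠ (k, l) →
      c i + c l + 4 * N1 < c k + c j ∨ c k + c j + 4 * N1 < c i + c l)
    (sp : ∀ T, La ≤ T → ∀ F : Finset (ℕ × ℕ), (∀ ij ∈ F, ij.1 < K ∧ ij.2 < K ∧ ij.1 ≠ ij.2 ∧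
      BadT (T + c ij.2 - c ij.1)) → F.card ≤ C0)
    (u t : List α) (hu : u ∈ BadX Wo z N1 p0 BadT) (ht : t ∈ BadX Wo z N1 p0 BadT) (x : V) :
    ∃ p q y, u ++ t = p ++ q ∧ p ∈ L2 K c lam2 x ∧
      q ∈ Rsem (XX Wo z) (BadX Wo z N1 p0 BadT) (TT f act p0 (fun w => nuE w 1) nu1) 1
        (L2 K c lam2) y := by
  classical
  have hul : z ≤ u.length := hu.1.1
  have htl : z ≤ t.length := ht.1.1
  have hp0l : (u.take p0).length = p0 := by rw [List.length_take]; omega
  obtain ⟨J, hJ, hJ2⟩ := spoil h c hz hW hc gol sp (u ++ t) (by rw [List.length_append]; omega)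
  obtain ⟨I, hI, hI2⟩ := e2 (u.take p0) 1 x (fun k hk => by rw [hp0l]; exact hc k hk)
  obtain ⟨k, hkI, hkJ⟩ : ∃ k ∈ I, k ∉ J := by
    by_contra hcon
    push Not at hcon
    have := Finset.card_le_card (show I ⊆ J from hcon)
    omega
  obtain ⟨hk, hlam, hrho⟩ := hI2 k hkI
  obtain ⟨b0, hb0⟩ := Option.isSome_iff_exists.1 hrho
  have ck := hc k hk
  have hdrop : (u ++ t).drop (c k) = u.drop (c k) ++ t :=
    List.drop_append_of_le_length (by omega)
  have htake : (u.take p0).take (c k) = u.take (c k) := by rw [List.take_take, min_eq_left ck]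
  rw [htake] at hlam
  have hkl : (u.take (c k)).length = c k := by rw [List.length_take]; omega
  let τ := TT f act p0 (fun w => nuE w 1) nu1
  refine ⟨u.take (c k), u.drop (c k) ++ t, τ t (act b0 ((u.drop p0).map f).prod + nu1 (u.drop p0)),
    ?_, ⟨k, hk, hkl, hlam⟩, ?_⟩
  · rw [← List.append_assoc, List.take_append_drop]
  · rintro x' p2 ⟨k', hk', hp2, hlam2⟩
    have ck' := hc k' hk'
    have hlen : (p2 ++ (u.drop (c k) ++ t)).length = c k' + (u.length - c k) + t.length := by
      rw [List.length_append, List.length_append, List.length_drop, hp2]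
      omega
    have hwall : Wo (p2 ++ (u.drop (c k) ++ t)) := by
      rw [← List.append_assoc, h.loc _ _ (by omega)]
      exact ht.1.2.1
    obtain ⟨Z, hZ, hpre⟩ := exists_block (Wo := Wo) (z := z) (by rw [hlen]; omega) hwall
    by_cases hZb : Z ∈ BadX Wo z N1 p0 BadT
    · have hkk : k' = k := by
        by_contra hne
        exact hkJ (hJ2 k hk k' hk' hne p2 Z hp2 hZb (by rw [hdrop]; exact hpre))
      subst hkk
      left
      have hZ' : p2 ++ u.drop (c k') ∈ BadX Wo z N1 p0 BadT := by
        refine swap_Bad h (A := u.take (c k')) (by rw [hkl, hp2]) (by rw [hkl]; omega) ?_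
        rw [List.take_append_drop]
        exact hu
      rw [← List.append_assoc]
      refine exactly_two hZ' ?_ ht rfl
      have hu0 : u.drop (c k') = (u.take p0).drop (c k') ++ u.drop p0 := by
        conv_lhs => rw [← List.take_append_drop p0 u]
        rw [List.drop_append_of_le_length (by omega)]
      have hl3 : (p2 ++ (u.take p0).drop (c k')).length = p0 := by
        rw [List.length_append, List.length_drop, hp0l, hp2]
        omega
      have e3 : (p2 ++ u.drop (c k')).take p0 = p2 ++ (u.take p0).drop (c k') := by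
        rw [hu0, ← List.append_assoc, List.take_append_of_le_length (by omega),
          List.take_of_length_le (by omega)]
      have e4 : (p2 ++ u.drop (c k')).drop p0 = u.drop p0 := by
        rw [hu0, ← List.append_assoc, List.drop_append_of_le_length (by omega),
          List.drop_of_length_le (by omega), List.nil_append]
      unfold TT
      rw [e3, e4]
      have := e1 k' hk' p2 ((u.take p0).drop (c k')) 1 x' b0 hp2 hlam2 hb0
      rw [mul_one] at this
      rw [← this]
    · right
      left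
      exact ⟨Z, hZ, hZb, hpre⟩

end scheme2

end Crest.Agent.R320.InstB_11
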