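import Crest.Agent.R320.Spoil_929

/-!
# Row 320, SPOIL LEAF of lead #13673 (helper929): ruler for the digit gadget `g1`
-/

set_option autoImplicit false

namespace Crest.Agent.R320.Sp_929

open Finset Crest.Agent.R320.Spoil_929

def Bad (Ms : Finset ℕ) (M b m n : ℕ) : Prop :=
  (∃ k ∈ Ms, k ∣ n) ∨ ∃ j < m, ¬ (M ≤ n / b^j % b ∧ n / b^j % b + M + 1 ≤ b)

/-- a thin condition is met by at most one pair -/
theorem thin1 {K : ℕ} {s Q w u T lo : ℤ} (hs : w ≤ s) (hs0 : 0 < s)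
    (hQ : 2^(K+1)*s + w ≤ Q) {a b c d : ℕ} (ha : a < K) (hb : b < K) (hc : c < K) (hd : d < K)
    (hab : a ≠ b) {p p' : ℤ}
    (h1 : lo ≤ T + (2^a-2^b)*(s+Q*u) - Q*p) (h2 : T + (2^a-2^b)*(s+Q*u) - Q*p < lo + w)
    (h3 : lo ≤ T + (2^c-2^d)*(s+Q*u) - Q*p') (h4 : T + (2^c-2^d)*(s+Q*u) - Q*p' < lo + w) :
    a = c ∧ b = d := by
  apply Crest.Agent.R320.Ruler265.pow_sidon hab
  set δ : ℤ := ((2:ℤ)^a - 2^b) - (2^c - 2^d) with hδ
  by_contra hne
  have hδ0 : δ ≠ 0 := fun h => hne (by linarith)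
  have hab' := abs_dd ha hb
  have hcd' := abs_dd hc hd
  have hδlt : |δ| < 2^(K+1) := by
    calc |δ| ≤ |(2:ℤ)^a - 2^b| + |(2:ℤ)^c - 2^d| := abs_sub _ _
      _ < 2^K + 2^K := by linarith
      _ = 2^(K+1) := by ring
  set j : ℤ := p - p' - δ*u with hj
  set r : ℤ := δ*s - Q*j with hr
  have hr0 : r = (T + (2^a-2^b)*(s+Q*u) - Q*p) - (T + (2^c-2^d)*(s+Q*u) - Q*p') := by
    rw [hr, hj, hδ]; ring
  have hr1 : |r| < w := by
    rw [abs_lt]
    constructor <;> linarith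
  have hbig : |δ*s| < 2^(K+1)*s := by
    rw [abs_mul, abs_of_pos hs0]
    exact mul_lt_mul_of_pos_right hδlt hs0
  have hj0 : j = 0 := by
    by_contra hj0
    have h6 : 1 ≤ |j| := Int.one_le_abs hj0
    have hQ0 : 0 < Q := by
      have : 0 ≤ |r| := abs_nonneg _
      have h7 : (0:ℤ) < 2^(K+1)*s := by positivity
      linarith
    have h7 : Q ≤ |Q*j| := by
      rw [abs_mul, abs_of_pos hQ0]; nlinarith
    have h8 : |Q*j| ≤ |δ*s| + |r| := by
      have : Q*j = δ*s - r := by rw [hr]; ring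
      rw [this]; exact abs_sub _ _
    linarith
  have h9 : |δ*s| < w := by
    have : r = δ*s := by rw [hr, hj0]; ring
    rw [← this]; exact hr1
  rw [abs_mul, abs_of_pos hs0] at h9
  have h11 : 1 ≤ |δ| := Int.one_le_abs hδ0
  nlinarith

theorem ev_eq1 {K : ℕ} {S s Q w lo T : ℤ} {u : ℤ} (hS : S = s + Q*u) (hs : w ≤ s) (hs0 : 0 < s)
    (hQ : 2^(K+1)*s + w ≤ Q) {x y : ℕ × ℕ} (hx1 : x.1 < K) (hx2 : x.2 < K) (hy1 : y.1 < K)
    (hy2 : y.2 < K) (hx : x.1 ≠ x.2)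
    (h1 : ∃ p : ℤ, lo ≤ T + (2^x.2-2^x.1)*S - Q*p ∧ T + (2^x.2-2^x.1)*S - Q*p < lo + w)
    (h2 : ∃ p : ℤ, lo ≤ T + (2^y.2-2^y.1)*S - Q*p ∧ T + (2^y.2-2^y.1)*S - Q*p < lo + w) :
    x = y := by
  obtain ⟨p, h1, h1'⟩ := h1
  obtain ⟨p', h2, h2'⟩ := h2
  rw [hS] at h1 h1' h2 h2'
  obtain ⟨e1, e2⟩ := thin1 hs hs0 hQ hx2 hx1 hy2 hy1 (Ne.symm hx) h1 h1' h2 h2'
  exact Prod.ext e2 e1

/-- the geometric sum -/
def geo (b : ℕ) : ℕ → ℕ
  | 0 => 0
  | (j+1) => geo b j + b^j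

theorem geo_le {b : ℕ} (hb : 2 ≤ b) (j : ℕ) : geo b j ≤ b^j := by
  induction j with
  | zero => simp [geo]
  | succ j ih =>
    show geo b j + b^j ≤ b^(j+1)
    rw [pow_succ]
    have : b^j * 2 ≤ b^j * b := Nat.mul_le_mul_left _ hb
    omega

theorem geo_split {b l m : ℕ} (h : l ≤ m) : ∃ u : ℕ, geo b m = geo b l + b^l * u := by
  induction m, h using Nat.le_induction with
  | base => exact ⟨0, by simp⟩
  | succ m hm ih =>
    obtain ⟨u, hu⟩ := ih
    refine ⟨u + b^(m-l), ?_⟩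
    show geo b m + b^m = _
    have h1 : b^m = b^l * b^(m-l) := by rw [← pow_add]; congr 1; omega
    rw [hu, h1]; ring

open Classical in
theorem spoil (K N1 m M b : ℕ) (Ms : Finset ℕ) (hM : 0 < M)
    (hMs : ∀ k ∈ Ms, 2^(K+1) < k ∧ k ∣ M) (hb : 2^(K+5) * M ≤ b) (hcop : Nat.Coprime b M) :
    ∃ c : ℕ → ℕ, (∀ i j, i < j → c i + 4 * N1 < c j) ∧
      (∀ i j i' j', i ≠ j → ¬ (i = i' ∧ j = j') →
        (4 * N1 : ℤ) < |((c i : ℤ) - c j) - (c i' - c j')|) ∧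
      ∀ T, (∀ l < K, c l ≤ T) → ((Finset.range K ×ˢ Finset.range K).filter
        (fun x => x.1 ≠ x.2 ∧ Bad Ms M b m (T + c x.2 - c x.1))).card ≤ Ms.card + m := by
  have hb2 : 2 ≤ b := by
    have h1 : 1 ≤ (2:ℕ)^K := Nat.one_le_two_pow
    have h2 : (2:ℕ)^(K+5) = 32 * 2^K := by ring
    have h3 : 2^(K+5) * 1 ≤ 2^(K+5) * M := Nat.mul_le_mul_left _ hM
    omega
  have hcop' : Nat.Coprime M (b^m) := (Nat.Coprime.pow_left m hcop).symm
  obtain ⟨k0, hk1, hk2⟩ := Nat.chineseRemainder hcop' 1 (4 * M * geo b m)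
  set K0 : ℕ := k0 + M * b^m * (4*N1 + 1) with hK0
  have hbm : 0 < b^m := by positivity
  have hK0big : 4 * N1 < K0 := by
    have : 1 * (4*N1+1) ≤ M * b^m * (4*N1+1) :=
      Nat.mul_le_mul_right _ (Nat.mul_pos hM hbm)
    omega
  have hdM : ∃ u : ℤ, (K0 : ℤ) = 1 + M * u := by
    have h1 := (Nat.modEq_iff_dvd.1 hk1.symm)
    obtain ⟨t, ht⟩ := h1
    refine ⟨t + b^m * (4*N1+1), ?_⟩
    rw [hK0]; push_cast
    push_cast at ht
    linear_combination ht
  have hdb : ∃ u : ℤ, (K0 : ℤ) = 4 * M * geo b m + b^m * u := by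
    have h1 := (Nat.modEq_iff_dvd.1 hk2.symm)
    obtain ⟨t, ht⟩ := h1
    refine ⟨t + M * (4*N1+1), ?_⟩
    rw [hK0]; push_cast
    push_cast at ht
    linear_combination ht
  refine ⟨fun l => 2^l * K0, ?_, ?_, ?_⟩
  · intro i j hij
    have h1 : 2^(i+1) * K0 ≤ 2^j * K0 :=
      Nat.mul_le_mul_right _ (Nat.pow_le_pow_right (by norm_num) hij)
    have h2 : 2^(i+1) * K0 = 2^i * K0 + 2^i * K0 := by ring
    have h3 : 1 * K0 ≤ 2^i * K0 := Nat.mul_le_mul_right _ Nat.one_le_two_pow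
    show 2^i * K0 + 4 * N1 < 2^j * K0
    omega
  · intro i j i' j' hij hne
    have h1 : (((2^i * K0 : ℕ):ℤ) - ((2^j * K0 : ℕ):ℤ)) - (((2^i' * K0 : ℕ):ℤ) - ((2^j' * K0 : ℕ):ℤ))
        = (((2:ℤ)^i - 2^j) - (2^i' - 2^j')) * K0 := by push_cast; ring
    show (4 * N1 : ℤ) < |(((2^i * K0 : ℕ):ℤ) - ((2^j * K0 : ℕ):ℤ)) - (((2^i' * K0 : ℕ):ℤ) - ((2^j' * K0 : ℕ):ℤ))|
    rw [h1, abs_mul]
    have h2 : ((2:ℤ)^i - 2^j) - (2^i' - 2^j') ≠ 0 := by
      intro h
      exact hne (Crest.Agent.R320.Ruler265.pow_sidon hij (by linarith))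
    have h3 := Int.one_le_abs h2
    have h4 : (4 * N1 : ℤ) < K0 := by exact_mod_cast hK0big
    have h5 : |(K0:ℤ)| = K0 := abs_of_nonneg (by positivity)
    rw [h5]
    nlinarith
  · intro T hT
    set P := (Finset.range K ×ˢ Finset.range K).filter (fun ab => ab.1 ≠ ab.2) with hP
    set N : ℕ × ℕ → ℕ := fun x => T + 2^x.2 * K0 - 2^x.1 * K0 with hNdef
    have hmem : ∀ ab ∈ P, ab.1 < K ∧ ab.2 < K ∧ ab.1 ≠ ab.2 := by
      intro ab hab
      rw [hP, Finset.mem_filter, Finset.mem_product, Finset.mem_range, Finset.mem_range] at hab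
      exact ⟨hab.1.1, hab.1.2, hab.2⟩
    have hN : ∀ ab ∈ P, ((N ab : ℕ):ℤ) = (T:ℤ) + (2^ab.2 - 2^ab.1)*(K0:ℤ) := by
      intro ab hab
      obtain ⟨h1, _, _⟩ := hmem ab hab
      have h3 := hT ab.1 h1
      have h4 : 2^ab.1 * K0 ≤ T + 2^ab.2 * K0 := by
        have : 2^ab.1 * K0 ≤ T := h3
        omega
      show ((T + 2^ab.2 * K0 - 2^ab.1 * K0 : ℕ):ℤ) = _
      rw [Nat.cast_sub h4]
      push_cast; ring
    have hEk : ∀ k ∈ Ms, (P.filter (fun ab => k ∣ N ab)).card ≤ 1 := by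
      intro k hk
      obtain ⟨hk1, t0, ht0⟩ := hMs k hk
      obtain ⟨u, hu⟩ := hdM
      rw [Finset.card_le_one]
      intro x hx y hy
      rw [Finset.mem_filter] at hx hy
      obtain ⟨hx1, hx2, hx3⟩ := hmem x hx.1
      obtain ⟨hy1, hy2, hy3⟩ := hmem y hy.1
      obtain ⟨p, hp⟩ := hx.2
      obtain ⟨p', hp'⟩ := hy.2
      have ex : ((N x : ℕ):ℤ) = k * p := by rw [hp]; push_cast; ring
      have ey : ((N y : ℕ):ℤ) = k * p' := by rw [hp']; push_cast; ring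
      rw [hN x hx.1] at ex
      rw [hN y hy.1] at ey
      refine ev_eq1 (K := K) (S := (K0:ℤ)) (s := 1) (Q := (k:ℤ)) (w := 1) (lo := 0) (T := T)
        (u := t0 * u) (by rw [hu, ht0]; push_cast; ring) le_rfl one_pos ?_ hx1 hx2 hy1 hy2 hx3
        ⟨p, ?_, ?_⟩ ⟨p', ?_, ?_⟩
      · have : ((2:ℤ)^(K+1)) < k := by exact_mod_cast hk1
        linarith
      · rw [ex]; linarith
      · rw [ex]; linarith
      · rw [ey]; linarith
      · rw [ey]; linarith
    have hD : ∀ j < m, (P.filter (fun ab =>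
        ¬ (M ≤ N ab / b^j % b ∧ N ab / b^j % b + M + 1 ≤ b))).card ≤ 1 := by
      intro j hj
      obtain ⟨u, hu⟩ := hdb
      obtain ⟨u', hu'⟩ := geo_split (b := b) (show j + 1 ≤ m by omega)
      have hbj : 0 < b^j := by positivity
      rw [Finset.card_le_one]
      intro x hx y hy
      rw [Finset.mem_filter] at hx hy
      obtain ⟨hx1, hx2, hx3⟩ := hmem x hx.1
      obtain ⟨hy1, hy2, hy3⟩ := hmem y hy.1
      have ex := ev_digit (A := b^j) (C := b) (D := M) (N := N x) (by omega) hbj (by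
        have := hx.2; omega)
      have ey := ev_digit (A := b^j) (C := b) (D := M) (N := N y) (by omega) hbj (by
        have := hy.2; omega)
      rw [hN x hx.1] at ex
      rw [hN y hy.1] at ey
      have hg1 : geo b (j+1) = geo b j + b^j := rfl
      have hg2 := geo_le hb2 j
      have hexp : b^m = b^(j+1) * b^(m-(j+1)) := by rw [← pow_add]; congr 1; omega
      refine ev_eq1 (K := K) (S := (K0:ℤ)) (s := ((4 * M * geo b (j+1) : ℕ):ℤ))
        (Q := ((b^j : ℕ):ℤ) * b) (w := 2*(((b^j : ℕ):ℤ)*M))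
        (u := 4 * M * u' + b^(m-(j+1)) * u) ?_ ?_ ?_ ?_ hx1 hx2 hy1 hy2 hx3 ex ey
      · rw [hu, hu']
        have h6 : ((b:ℤ)^m) = b^(j+1) * b^(m-(j+1)) := by exact_mod_cast hexp
        rw [h6]; push_cast; ring
      · have h7 : 2 * (b^j * M) ≤ 4 * M * geo b (j+1) := by
          rw [hg1]
          have : 4 * M * (geo b j + b^j) = 4 * M * geo b j + 4 * (b^j * M) := by ring
          omega
        exact_mod_cast h7
      · have h7 : 0 < 4 * M * geo b (j+1) := by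
          rw [hg1]; positivity
        exact_mod_cast h7
      · have h7 : 2^(K+1) * (4 * M * geo b (j+1)) + 2 * (b^j * M) ≤ b^j * b := by
          have h8 : geo b (j+1) ≤ 2 * b^j := by omega
          have h9 : 2^(K+1) * (4 * M * geo b (j+1)) ≤ 2^(K+1) * (4 * M * (2 * b^j)) :=
            Nat.mul_le_mul_left _ (Nat.mul_le_mul_left _ h8)
          have h10 : 2^(K+1) * (4 * M * (2 * b^j)) = 16 * (2^K * (b^j * M)) := by ring
          have h11 : b^j * (2^(K+5) * M) ≤ b^j * b := Nat.mul_le_mul_left _ hb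
          have h12 : b^j * (2^(K+5) * M) = 32 * (2^K * (b^j * M)) := by ring
          have h13 : 1 * (b^j * M) ≤ 2^K * (b^j * M) :=
            Nat.mul_le_mul_right _ Nat.one_le_two_pow
          omega
        exact_mod_cast h7
    have hsub : (Finset.range K ×ˢ Finset.range K).filter
        (fun x => x.1 ≠ x.2 ∧ Bad Ms M b m (N x)) ⊆
        Ms.biUnion (fun k => P.filter (fun ab => k ∣ N ab)) ∪
        (Finset.range m).biUnion (fun j => P.filter (fun ab =>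
          ¬ (M ≤ N ab / b^j % b ∧ N ab / b^j % b + M + 1 ≤ b))) := by
      intro ab hab
      rw [Finset.mem_filter] at hab
      obtain ⟨ha, hne, hbad⟩ := hab
      have hPm : ab ∈ P := by rw [hP, Finset.mem_filter]; exact ⟨ha, hne⟩
      rcases hbad with ⟨k, hk, h⟩ | ⟨l, hl, h⟩
      · exact Finset.mem_union_left _
          (Finset.mem_biUnion.2 ⟨k, hk, Finset.mem_filter.2 ⟨hPm, h⟩⟩)
      · exact Finset.mem_union_right _ (Finset.mem_biUnion.2 ⟨l, Finset.mem_range.2 hl,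
          Finset.mem_filter.2 ⟨hPm, h⟩⟩)
    refine (Finset.card_le_card hsub).trans ((Finset.card_union_le _ _).trans ?_)
    have c2 : (Ms.biUnion (fun k => P.filter (fun ab => k ∣ N ab))).card ≤ Ms.card := by
      refine Finset.card_biUnion_le.trans ?_
      calc _ ≤ ∑ k ∈ Ms, 1 := Finset.sum_le_sum fun k hk => hEk k hk
        _ = Ms.card := by simp
    have c3 : ((Finset.range m).biUnion (fun j => P.filter (fun ab =>
          ¬ (M ≤ N ab / b^j % b ∧ N ab / b^j % b + M + 1 ≤ b)))).card ≤ m := by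
      refine Finset.card_biUnion_le.trans ?_
      calc _ ≤ ∑ l ∈ Finset.range m, 1 :=
            Finset.sum_le_sum fun l hl => hD l (Finset.mem_range.1 hl)
        _ = m := by simp
    omega

end Crest.Agent.R320.Sp_929
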