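import Crest.Agent.R320.HZ_847
import Crest.Agent.R320.InstB_11
import Crest.Agent.R320.G1_424
import Crest.Agent.R320.Sp_929
import Crest.Agent.R320.ExactR_237
import Crest.Agent.R320.Block_467
import Crest.Agent.R320.RegDep_10
import Crest.Agent.R320.Univ_234

/-!
# Row 320 : the complete join (helper127)
-/

set_option autoImplicit false
set_option maxHeartbeats 1000000

namespace Crest.Agent.R320.Fin_127

open Crest.RegLang Crest.Agent.R320.Hk_851 Crest.Agent.R320.Code110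

theorem fin (α : Type) [Finite α] (S : Type) [Monoid S] [Finite S] (f : α → S) (s : S) :
    HL 3 ({w | (w.map f).prod = s} : Language α) := by
  classical
  obtain ⟨act, hadd, hone, hmul, hfaith⟩ := Crest.Agent.R320.Blk467.exists_module S
  have : Fintype S := Fintype.ofFinite S
  have : Finite (S → ZMod 2) := inferInstance
  have : Fintype (S → ZMod 2) := Fintype.ofFinite _
  obtain ⟨m, r, hG⟩ := Crest.Agent.R320.G1_424.G1 S (S → ZMod 2) act
  obtain ⟨K, hK⟩ := Crest.Agent.R320.ExactR_237.exact_gadget α S (S → ZMod 2) f act (2 + 2 * (r + m))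
  obtain ⟨Ms, M, hcard, hMs, hM, hg⟩ := hG (2 ^ (K + 1))
  have hb0 : 0 < 1 + M * 2 ^ (K + 5) := by omega
  have hcop : Nat.Coprime (1 + M * 2 ^ (K + 5)) M := by
    simp
  obtain ⟨b, hb⟩ : ∃ b, b = 1 + M * 2 ^ (K + 5) := ⟨_, rfl⟩
  rw [← hb] at hb0 hcop
  let φ : List α → S := fun w => (w.map f).prod
  have hφ0 : φ [] = 1 := by simp [φ]
  have hφ : ∀ u w, φ (u ++ w) = φ u * φ w := fun u w => by simp [φ]
  obtain ⟨lam, rho, nu1, hlen, hsound, hcomp, hfs⟩ := hg b hb0 hcop α φ hφ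
  obtain ⟨N1, hN1⟩ : ∃ N1, N1 = b ^ m := ⟨_, rfl⟩
  obtain ⟨c, hc1, hc2, hc3⟩ := Crest.Agent.R320.Sp_929.spoil K N1 m M b Ms hM
    (fun k hk => ⟨(hMs k hk).1, (hMs k hk).2.2⟩) (by rw [hb, Nat.mul_comm]; omega) hcop
  obtain ⟨lam2, rho2, nu2, he1, he2⟩ := hK c (fun i j hij _ => by have := hc1 i j hij; omega)
  have hcp : ∀ k < K, c k ≤ c K := fun k hk => by have := hc1 k K hk; omega
  obtain ⟨p0, hp0⟩ : ∃ p0, p0 = c K := ⟨_, rfl⟩
  rw [← hp0] at hcp
  obtain ⟨n, c', P, Sw, hn, hP, hloc, hgap, -, -, hfew⟩ :=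
    Crest.Agent.R320.WallU_228.walls_full (α := α) (2 * (N1 + p0))
  obtain ⟨z, hz⟩ : ∃ z, z = p0 + p0 + N1 + n + p0 + 1 := ⟨_, rfl⟩
  let BadT : ℕ → Prop := fun t => Crest.Agent.R320.Sp_929.Bad Ms M b m t
  have hWL : Crest.Agent.R320.InstB_11.WL (Crest.Agent.R320.WallU_228.Wo n Sw) n (2 * (N1 + p0)) :=
    ⟨hloc, fun P hP => hP.1, hgap⟩
  have hgol : ∀ i j k l, i < K → j < K → k < K → l < K → i ≠ j → k ≠ l → (i, j) ≠ (k, l) →
      c i + c l + 4 * N1 < c k + c j ∨ c k + c j + 4 * N1 < c i + c l := by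
    intro i j k l _ _ _ _ hij _ hne
    have h := hc2 i j k l hij (fun h => hne (by rw [h.1, h.2]))
    rcases lt_abs.1 h with h | h
    · right; omega
    · left; omega
  have hsp : ∀ T, p0 ≤ T → ∀ F : Finset (ℕ × ℕ), (∀ ij ∈ F, ij.1 < K ∧ ij.2 < K ∧ ij.1 ≠ ij.2 ∧
      BadT (T + c ij.2 - c ij.1)) → F.card ≤ r + m := by
    intro T hT F hF
    have h := hc3 T (fun l hl => (hcp l hl).trans hT)
    refine le_trans (Finset.card_le_card ?_) (h.trans (by omega))
    intro ij hij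
    obtain ⟨h1, h2, h3, h4⟩ := hF ij hij
    rw [Finset.mem_filter, Finset.mem_product, Finset.mem_range, Finset.mem_range]
    exact ⟨⟨h1, h2⟩, h3, h4⟩
  have hbm : 0 < b ^ m := pow_pos hb0 m
  have hper : ∀ t, p0 ≤ t → (BadT (t + M * b ^ m) ↔ BadT t) := by
    intro t _
    refine or_congr ?_ ?_
    · refine exists_congr fun k => and_congr_right fun hk => ?_
      exact (Nat.dvd_add_iff_left ((hMs k hk).2.2.mul_right _)).symm
    · refine exists_congr fun j => and_congr_right fun hj => ?_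
      have e : (t + M * b ^ m) / b ^ j % b = t / b ^ j % b := by
        obtain ⟨i, hi⟩ : ∃ i, m = j + 1 + i := ⟨m - (j + 1), by omega⟩
        have h1 : M * b ^ m = (M * b ^ i * b) * b ^ j := by rw [hi]; ring
        rw [h1, Nat.add_mul_div_right _ _ (pow_pos hb0 j), Nat.add_mul_mod_self_right]
      rw [e]
  have hMb : 0 < M * b ^ m := Nat.mul_pos hM hbm
  have hnu : ∀ c, Language.IsRegular ({w | nu1 w = c} : Language α) := fun v =>
    Crest.Agent.R320.RegDep_10.regular_fibre φ hφ0 hφ (b ^ m) (M * b ^ m) hMb nu1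
      (fun u u' a1 a2 a3 a4 a5 => (hfs u u' a1 a2 a3 a5 a4).1) v
  have hBeq : Crest.Agent.R320.HZ847.Bad n Sw z p0 N1 BadT =
      Crest.Agent.R320.InstB_11.BadX (Crest.Agent.R320.WallU_228.Wo n Sw) z N1 p0 BadT := by
    ext u
    constructor
    · rintro ⟨h1, ⟨t, h2, h3, h4, h5⟩ | h2⟩
      · exact ⟨h1, Or.inl ⟨t, h4, h2, h3, h5⟩⟩
      · exact ⟨h1, Or.inr h2⟩
    · rintro ⟨h1, ⟨t, h4, h2, h3, h5⟩ | h2⟩
      · exact ⟨h1, Or.inl ⟨t, h2, h3, h4, h5⟩⟩
      · exact ⟨h1, Or.inr h2⟩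
  have hg3 : ∀ u : List α, p0 ≤ u.length → ¬ BadT u.length → ∀ v, ∃ p q, p ++ q = u ∧
      lam p = some v ∧ (rho q).isSome := by
    intro u _ hu v
    refine hcomp u (fun k hk hd => hu (Or.inl ⟨k, hk, hd⟩)) (fun i hi => ?_) v
    by_contra hcon
    exact hu (Or.inr ⟨i, hi, hcon⟩)
  refine Crest.Agent.R320.Top5_110.top_sem (φ := φ) (act := act) (N1 := 0) (N2 := 1)
    (XX := Crest.Agent.R320.HZ847.XX n Sw z)
    (Bad := Crest.Agent.R320.HZ847.Bad n Sw z p0 N1 BadT)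
    (T := Crest.Agent.R320.HZ847.T φ act nu1 (fun w => nu2 w 1) p0)
    (L1 := Crest.Agent.R320.InstB_11.L1 f act p0 (fun w => nu2 w 1) lam)
    (L2 := Crest.Agent.R320.InstB_11.L2 K c lam2)
    hφ0 hφ hone hmul hfaith (Crest.Agent.R320.HZ847.xx_pc (by omega))
    Crest.Agent.R320.HZ847.bad_sub ?_ ((Crest.Agent.R320.HZ847.hl_XX z).mono (by norm_num))
    (Crest.Agent.R320.HZ847.H2 hfew hMb hper)
    (fun x y => Crest.Agent.R320.HZ847.H3 hfew hφ0 hφ (by omega) hnu x y)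
    ?_ ?_ ?_ ?_ ?_ s
  · intro u _ v v'
    refine Crest.Agent.R320.HZ847.hT hφ hone hmul ?_ u v v'
    intro v w t
    have h := hadd (v - w) w t
    rw [sub_add_cancel] at h
    rw [h, add_sub_cancel_right]
  · intro t
    exact (Crest.Agent.R320.HZ847.H4 hfew hφ0 hφ t).mono (by norm_num)
  · intro v
    refine (List.finite_length_le α (p0 + N1)).subset ?_
    intro p hp
    have h1 := hlen _ _ hp.2
    rw [List.length_drop] at h1
    show p.length ≤ _
    omega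
  · intro v
    refine (List.finite_length_le α p0).subset ?_
    rintro p ⟨k, hk, h1, -⟩
    show p.length ≤ _
    rw [h1]
    exact hcp k hk
  · intro u hu hb x t ht
    rw [pow_zero] at ht
    have ht' : t = [] := ht
    subst ht'
    rw [List.append_nil]
    obtain ⟨p, q, y, h1, h2, h3⟩ := Crest.Agent.R320.InstB_11.C1 hWL f act (z := z) (N1 := N1)
      (p0 := p0) (La := p0) (BadT := BadT) (fun w => nu2 w 1) nu1 lam rho (by omega)
      (fun p v hp => by rw [hN1]; exact (hlen p v hp).le)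
      (fun p q v b' h1 h2 _ => hsound p q v b' h1 h2) hg3 u hu (by rw [← hBeq]; exact hb) x
    exact ⟨p, q, y, h1, h2, h3⟩
  · intro u hu x t ht
    rw [pow_one] at ht
    rw [hBeq] at hu ht ⊢
    obtain ⟨p, q, y, h1, h2, h3⟩ := Crest.Agent.R320.InstB_11.C2 hWL f act (z := z) (N1 := N1)
      (p0 := p0) (La := p0) (K := K) (C0 := r + m) (R := 2 + 2 * (r + m)) (BadT := BadT) c nu1
      lam2 rho2 nu2 (by omega) (by omega) le_rfl hcp he1 he2 (by omega) hgol hsp u t hu ht x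
    exact ⟨p, q, y, h1, h2, h3⟩

theorem row.{u} (α : Type u) [Finite α] (L : Language α) (hL : L.IsRegular) :
    ∃ e : GRegExp α, e.height ≤ 3 ∧ e.lang = L :=
  Crest.Agent.R320.Univ_234.of_type_monoid (k := 3) (fun A _ S _ _ φ s => fin A S φ s) L hL

end Crest.Agent.R320.Fin_127
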