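import Mathlib

/-!
# Row 320: ruler and spoil count for the grid gadget (helper506)
-/

set_option autoImplicit false

namespace Crest.Agent.R320.RulerGrid_506

open Finset

/-- the bad lengths of the grid gadget -/
def Bad (Ms : Finset ℕ) (m M Gam : ℕ) (Am : ℕ → ℤ) (T : ℤ) : Prop :=
  (∃ p ∈ Ms, (p : ℤ) ∣ T) ∨
    ∃ j, 1 ≤ j ∧ j ≤ m ∧ ∃ k : ℤ, |T - Am j - k * (Gam : ℤ) ^ j| ≤ (M : ℤ) * (Gam : ℤ) ^ (j - 1)

theorem four_aux {i j k l : ℕ} (hil : i ≤ l) (hjk : j ≤ k) (h : 4 ^ i + 4 ^ l = 4 ^ j + 4 ^ k) :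
    ¬ i < j := by
  intro hij
  obtain ⟨a, rfl⟩ := Nat.exists_eq_add_of_le hil
  obtain ⟨b, rfl⟩ := Nat.exists_eq_add_of_lt hij
  obtain ⟨c, rfl⟩ := Nat.exists_eq_add_of_le hjk
  have h1 : 4 ^ i * (1 + 4 ^ a) = 4 ^ i * (4 * (4 ^ b + 4 ^ (b + c))) := by
    have e1 : 4 ^ i * (1 + 4 ^ a) = 4 ^ i + 4 ^ (i + a) := by rw [pow_add]; ring
    have e2 : 4 ^ i * (4 * (4 ^ b + 4 ^ (b + c))) = 4 ^ (i + b + 1) + 4 ^ (i + b + 1 + c) := by
      rw [pow_add, pow_add, pow_add, pow_add, pow_add, pow_add]; ring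
    rw [e1, e2, h]
  have h2 : 1 + 4 ^ a = 4 * (4 ^ b + 4 ^ (b + c)) :=
    Nat.eq_of_mul_eq_mul_left (pow_pos (by norm_num) i) h1
  rcases Nat.eq_zero_or_pos a with rfl | ha
  · simp at h2; omega
  · obtain ⟨a', rfl⟩ := Nat.exists_eq_add_of_lt ha
    have : (4:ℕ) ^ (0 + a' + 1) = 4 * 4 ^ a' := by rw [pow_succ]; ring_nf
    omega

theorem four_aux2 {i j k l : ℕ} (hil : i ≤ l) (hjk : j ≤ k) (h : 4 ^ i + 4 ^ l = 4 ^ j + 4 ^ k) :
    i = j ∧ l = k := by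
  have h1 := four_aux hil hjk h
  have h2 := four_aux hjk hil h.symm
  have h3 : i = j := by omega
  subst h3
  refine ⟨rfl, ?_⟩
  have : 4 ^ l = 4 ^ k := by omega
  exact Nat.pow_right_injective (le_refl 2 |>.trans (by norm_num)) this

theorem four_uniq {i j k l : ℕ} (h : 4 ^ i + 4 ^ l = 4 ^ j + 4 ^ k) :
    (i = j ∧ l = k) ∨ (i = k ∧ l = j) := by
  rcases le_total i l with hil | hil <;> rcases le_total j k with hjk | hjk
  · exact Or.inl (four_aux2 hil hjk h)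
  · exact Or.inr (four_aux2 hil hjk (by rw [h]; ring))
  · obtain ⟨a, b⟩ := four_aux2 hil hjk (by rw [← h]; ring)
    exact Or.inr ⟨b, a⟩
  · obtain ⟨a, b⟩ := four_aux2 hil hjk (by rw [add_comm, h]; ring)
    exact Or.inl ⟨b, a⟩

/-- second differences of the ruler `4 ^ i` -/
theorem diff_ne {i j k l : ℕ} (hij : i ≠ j) (hne : ¬ (i = k ∧ j = l)) :
    ((4:ℤ) ^ i - 4 ^ j) - (4 ^ k - 4 ^ l) ≠ 0 := by
  intro h
  have h1 : 4 ^ i + 4 ^ l = 4 ^ j + 4 ^ k := by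
    have : ((4 ^ i + 4 ^ l : ℕ) : ℤ) = ((4 ^ j + 4 ^ k : ℕ) : ℤ) := by push_cast; linarith
    exact_mod_cast this
  rcases four_uniq h1 with ⟨a, _⟩ | ⟨a, b⟩
  · exact hij a
  · exact hne ⟨a, b.symm⟩

theorem diff_le {K i j k l : ℕ} (hi : i < K) (hj : j < K) (hk : k < K) (hl : l < K) :
    |((4:ℤ) ^ i - 4 ^ j) - (4 ^ k - 4 ^ l)| ≤ 2 * 4 ^ K := by
  have b : ∀ t, t < K → (0:ℤ) < 4 ^ t ∧ (4:ℤ) ^ t ≤ 4 ^ K := fun t ht =>
    ⟨by positivity, pow_le_pow_right₀ (by norm_num) ht.le⟩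
  obtain ⟨h1, h1'⟩ := b i hi
  obtain ⟨h2, h2'⟩ := b j hj
  obtain ⟨h3, h3'⟩ := b k hk
  obtain ⟨h4, h4'⟩ := b l hl
  rw [abs_le]
  constructor <;> linarith

/-- the sum `∑_{i ≤ m} M Gam^i` modulo `Gam^j` is the partial sum below `j`. -/
theorem sum_mod (M Gam : ℤ) (m j : ℕ) (hj : j ≤ m) :
    Gam ^ j ∣ (∑ i ∈ range (m + 1), M * Gam ^ i) - ∑ i ∈ range j, M * Gam ^ i := by
  rw [← Finset.sum_range_add_sum_Ico _ (show j ≤ m + 1 by omega), add_sub_cancel_left]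
  refine Finset.dvd_sum fun i hi => ?_
  exact Dvd.dvd.mul_left (pow_dvd_pow _ (Finset.mem_Ico.1 hi).1) _

theorem partial_le (M Gam : ℤ) (hM : 0 ≤ M) (hG : 2 ≤ Gam) (j : ℕ) :
    ∑ i ∈ range (j + 1), M * Gam ^ i ≤ 2 * (M * Gam ^ j) := by
  induction j with
  | zero => simp; linarith
  | succ j ih =>
    rw [Finset.sum_range_succ]
    have h1 : 0 ≤ M * Gam ^ j := mul_nonneg hM (pow_nonneg (by linarith) _)
    have h2 : 2 * (M * Gam ^ j) ≤ M * Gam ^ (j + 1) := by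
      have : M * Gam ^ (j + 1) = Gam * (M * Gam ^ j) := by rw [pow_succ]; ring
      rw [this]
      exact mul_le_mul_of_nonneg_right hG h1
    linarith

theorem partial_ge (M Gam : ℤ) (hM : 0 ≤ M) (hG : 0 ≤ Gam) (j : ℕ) :
    M * Gam ^ j ≤ ∑ i ∈ range (j + 1), M * Gam ^ i := by
  rw [Finset.sum_range_succ]
  have : 0 ≤ ∑ i ∈ range j, M * Gam ^ i :=
    Finset.sum_nonneg fun i _ => mul_nonneg hM (pow_nonneg hG _)
  linarith

/-- key: `U * D` is far from the multiples of `Gam ^ (j+1)` -/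
theorem far {M Gam D : ℤ} {K : ℕ} (hM : 0 < M) (hGam : 100 * 4 ^ (K + 1) * M ≤ Gam) {m j : ℕ}
    (hj : j + 1 ≤ m) {B : ℤ} (hB : Gam ^ m ∣ B) (hD0 : D ≠ 0) (hD : |D| ≤ 2 * 4 ^ K) (k : ℤ) :
    2 * (M * Gam ^ j) <
      |(8 * (1 + ∑ i ∈ range (m + 1), M * Gam ^ i) + B) * D - k * Gam ^ (j + 1)| := by
  have h4 : (1:ℤ) ≤ 4 ^ K := one_le_pow₀ (by norm_num)
  have h4' : (4:ℤ) ^ (K + 1) = 4 * 4 ^ K := by rw [pow_succ]; ring
  have hG2 : 2 ≤ Gam := by nlinarith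
  obtain ⟨q, hq⟩ := sum_mod M Gam m (j + 1) hj
  obtain ⟨r, hr⟩ := (pow_dvd_pow Gam hj).trans hB
  set s := ∑ i ∈ range (j + 1), M * Gam ^ i with hs
  have e1 : (8 * (1 + ∑ i ∈ range (m + 1), M * Gam ^ i) + B) * D - k * Gam ^ (j + 1) =
      8 * (1 + s) * D - (k - 8 * q * D - r * D) * Gam ^ (j + 1) := by
    have : ∑ i ∈ range (m + 1), M * Gam ^ i = s + Gam ^ (j + 1) * q := by linarith
    rw [this, hr]; ring
  rw [e1]
  set k' := k - 8 * q * D - r * D with hk'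
  have hs1 := partial_le M Gam hM.le hG2 j
  have hs2 := partial_ge M Gam hM.le (by linarith) j
  rw [← hs] at hs1 hs2
  set c := M * Gam ^ j with hc
  have hgj : 0 < Gam ^ j := pow_pos (by linarith) _
  have hcpos : 0 < c := mul_pos hM hgj
  have hc1 : 1 ≤ c := hcpos
  have hGj : Gam ^ (j + 1) = Gam * Gam ^ j := by rw [pow_succ]; ring
  have hbig : 100 * 4 ^ (K + 1) * c ≤ Gam ^ (j + 1) := by
    rw [hGj, hc]
    have := mul_le_mul_of_nonneg_right hGam hgj.le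
    linarith
  have hD1 : 1 ≤ |D| := Int.one_le_abs hD0
  have hX1 : 8 * c < |8 * (1 + s) * D| := by
    rw [abs_mul, abs_of_pos (show (0:ℤ) < 8 * (1 + s) by linarith)]
    nlinarith
  have hX2 : |8 * (1 + s) * D| ≤ 24 * c * (2 * 4 ^ K) := by
    rw [abs_mul, abs_of_pos (show (0:ℤ) < 8 * (1 + s) by linarith)]
    have : 8 * (1 + s) ≤ 24 * c := by linarith
    exact mul_le_mul this hD (abs_nonneg _) (by linarith)
  rcases eq_or_ne k' 0 with h0 | h0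
  · rw [h0, zero_mul, sub_zero]; linarith
  · have hk1 : 1 ≤ |k'| := Int.one_le_abs h0
    have h5 : Gam ^ (j + 1) ≤ |k' * Gam ^ (j + 1)| := by
      rw [abs_mul, abs_of_pos (show (0:ℤ) < Gam ^ (j + 1) by rw [hGj]; positivity)]
      have : 0 < Gam ^ (j + 1) := by rw [hGj]; positivity
      nlinarith
    have h6 := abs_sub_abs_le_abs_sub (k' * Gam ^ (j + 1)) (8 * (1 + s) * D)
    rw [abs_sub_comm] at h6
    have h7 : 100 * 4 ^ (K + 1) * c = 400 * 4 ^ K * c := by rw [h4']; ring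
    have h8 : c ≤ 4 ^ K * c := by nlinarith
    nlinarith

theorem exists_ruler (K m N M Gam : ℕ) (Ms : Finset ℕ) (Am : ℕ → ℤ) (hM : 0 < M)
    (hMs : ∀ p ∈ Ms, p.Prime ∧ 8 * 4 ^ (K + 1) < p ∧ p ∣ M)
    (hGam : (100 * 4 ^ (K + 1)) * M ≤ Gam) :
    ∃ x : ℕ → ℕ, StrictMono x ∧
      (∀ i j k l, i < K → j < K → k < K → l < K → i ≠ j → k ≠ l → ¬ (i = k ∧ j = l) →
        (N:ℤ) < |((x i:ℤ) - x j) - ((x k:ℤ) - x l)|) ∧
      ∀ T : ℤ, ∀ [DecidablePred fun ab : ℕ × ℕ =>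
          ab.1 ≠ ab.2 ∧ Bad Ms m M Gam Am (T + x ab.2 - x ab.1)],
        ((range K ×ˢ range K).filter fun ab : ℕ × ℕ =>
          ab.1 ≠ ab.2 ∧ Bad Ms m M Gam Am (T + x ab.2 - x ab.1)).card ≤ Ms.card + m := by
  classical
  have hMz : (0:ℤ) < M := by exact_mod_cast hM
  have hGz : 100 * 4 ^ (K + 1) * (M:ℤ) ≤ (Gam:ℤ) := by exact_mod_cast hGam
  have hGpos : 0 < Gam := lt_of_lt_of_le (by positivity) hGam
  set U : ℕ := 8 * (1 + ∑ i ∈ range (m + 1), M * Gam ^ i) + M * Gam ^ m * (N + 1) with hU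
  have hUz : (U:ℤ) = 8 * (1 + ∑ i ∈ range (m + 1), (M:ℤ) * (Gam:ℤ) ^ i) +
      (M:ℤ) * (Gam:ℤ) ^ m * (N + 1) := by rw [hU]; push_cast; ring
  have hUN : N < U := by
    have h1 : N + 1 ≤ M * Gam ^ m * (N + 1) := Nat.le_mul_of_pos_left _ (by positivity)
    omega
  have hUpos : 0 < U := by omega
  have hUD : ∀ i j k l : ℕ, ((((U * 4 ^ i : ℕ) : ℤ) - ((U * 4 ^ j : ℕ) : ℤ)) -
      (((U * 4 ^ k : ℕ) : ℤ) - ((U * 4 ^ l : ℕ) : ℤ))) =
      U * (((4:ℤ) ^ i - 4 ^ j) - (4 ^ k - 4 ^ l)) := by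
    intro i j k l; push_cast; ring
  refine ⟨fun i => U * 4 ^ i, ?_, ?_, ?_⟩
  · intro a b hab
    exact Nat.mul_lt_mul_of_pos_left (Nat.pow_lt_pow_right (by norm_num) hab) hUpos
  · intro i j k l hi hj hk hl hij hkl hne
    rw [hUD, abs_mul, abs_of_pos (by exact_mod_cast hUpos : (0:ℤ) < U)]
    have := Int.one_le_abs (diff_ne hij hne)
    have h2 : (N:ℤ) < U := by exact_mod_cast hUN
    nlinarith
  · intro T _
    -- injection of the bad pairs into the modes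
    let P : ℕ × ℕ → Prop := fun ab =>
      ab.1 ≠ ab.2 ∧ Bad Ms m M Gam Am (T + ((U * 4 ^ ab.2 : ℕ) : ℤ) - ((U * 4 ^ ab.1 : ℕ) : ℤ))
    let mode : ℕ ⊕ ℕ → ℤ → Prop := fun o t => match o with
      | Sum.inl p => (p:ℤ) ∣ t
      | Sum.inr j => ∃ k : ℤ, |t - Am (j + 1) - k * (Gam : ℤ) ^ (j + 1)| ≤ (M : ℤ) * (Gam : ℤ) ^ j
    have hmode : ∀ ab, P ab → ∃ o ∈ Ms.disjSum (range m),
        mode o (T + ((U * 4 ^ ab.2 : ℕ) : ℤ) - ((U * 4 ^ ab.1 : ℕ) : ℤ)) := by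
      rintro ab ⟨_, ⟨p, hp, hd⟩ | ⟨j, hj1, hj2, k, hk⟩⟩
      · exact ⟨Sum.inl p, Finset.inl_mem_disjSum.2 hp, hd⟩
      · obtain ⟨j', rfl⟩ := Nat.exists_eq_add_of_le hj1
        refine ⟨Sum.inr j', Finset.inr_mem_disjSum.2 (Finset.mem_range.2 (by omega)), k, ?_⟩
        rw [show 1 + j' = j' + 1 by ring] at hk
        simpa using hk
    have huniq : ∀ o ∈ Ms.disjSum (range m), ∀ i j k l : ℕ, i < K → j < K → k < K → l < K →
        i ≠ j → k ≠ l →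
        mode o (T + ((U * 4 ^ j : ℕ) : ℤ) - ((U * 4 ^ i : ℕ) : ℤ)) →
        mode o (T + ((U * 4 ^ l : ℕ) : ℤ) - ((U * 4 ^ k : ℕ) : ℤ)) → i = k ∧ j = l := by
      intro o ho i j k l hi hj hk hl hij hkl h1 h2
      by_contra hne
      have hD0 := diff_ne hij hne
      have hD := diff_le hi hj hk hl
      set D := ((4:ℤ) ^ i - 4 ^ j) - (4 ^ k - 4 ^ l) with hDdef
      have hdiff : (T + ((U * 4 ^ l : ℕ) : ℤ) - ((U * 4 ^ k : ℕ) : ℤ)) -
          (T + ((U * 4 ^ j : ℕ) : ℤ) - ((U * 4 ^ i : ℕ) : ℤ)) = U * D := by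
        rw [hDdef]; push_cast; ring
      rcases o with p | j0
      · obtain ⟨hp, hpK, hpM⟩ := hMs p (Finset.inl_mem_disjSum.1 ho)
        have hd : (p:ℤ) ∣ U * D := by rw [← hdiff]; exact dvd_sub h2 h1
        have hpz : Prime (p:ℤ) := Nat.prime_iff_prime_int.1 hp
        have hpMz : (p:ℤ) ∣ (M:ℤ) := by exact_mod_cast hpM
        rcases hpz.dvd_or_dvd hd with h | h
        · have h8 : (p:ℤ) ∣ 8 := by
            have e : (8:ℤ) = U - (8 * ∑ i ∈ range (m + 1), (M:ℤ) * (Gam:ℤ) ^ i +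
                (M:ℤ) * (Gam:ℤ) ^ m * (N + 1)) := by rw [hUz]; ring
            rw [e]
            refine dvd_sub h (dvd_add (Dvd.dvd.mul_left (Finset.dvd_sum fun i _ =>
              Dvd.dvd.mul_right hpMz _) _) ?_)
            rw [mul_assoc]; exact Dvd.dvd.mul_right hpMz _
          have h9 : p ∣ 8 := by exact_mod_cast h8
          have := Nat.le_of_dvd (by norm_num) h9
          have : 1 ≤ 4 ^ (K + 1) := Nat.one_le_pow _ _ (by norm_num)
          omega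
        · have h9 := Int.le_of_dvd (abs_pos.2 hD0) ((dvd_abs _ _).2 h)
          have h10 : (8 * 4 ^ (K + 1) : ℤ) < p := by exact_mod_cast hpK
          have h11 : (4:ℤ) ^ (K + 1) = 4 * 4 ^ K := by rw [pow_succ]; ring
          have h12 : (0:ℤ) < 4 ^ K := by positivity
          linarith
      · obtain ⟨k1, hk1⟩ := h1
        obtain ⟨k2, hk2⟩ := h2
        have hj0 : j0 < m := Finset.mem_range.1 (Finset.inr_mem_disjSum.1 ho)
        have hB : (Gam:ℤ) ^ m ∣ (M:ℤ) * (Gam:ℤ) ^ m * (N + 1) :=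
          Dvd.dvd.mul_right (Dvd.dvd.mul_left dvd_rfl _) _
        have hf := far (M := (M:ℤ)) (Gam := (Gam:ℤ)) (D := D) (K := K) hMz hGz
          (show j0 + 1 ≤ m from hj0) hB hD0 hD (k2 - k1)
        rw [← hUz, ← hdiff] at hf
        rw [abs_le] at hk1 hk2
        rw [lt_abs] at hf
        rcases hf with hf | hf
        · linarith [hk1.1, hk1.2, hk2.1, hk2.2]
        · linarith [hk1.1, hk1.2, hk2.1, hk2.2]
    choose! f hf1 hf2 using hmode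
    calc _ ≤ (Ms.disjSum (range m)).card := by
          refine Finset.card_le_card_of_injOn f ?_ ?_
          · intro ab hab
            exact hf1 ab (Finset.mem_filter.1 hab).2
          · rintro ⟨i, j⟩ h1 ⟨k, l⟩ h2 hfe
            obtain ⟨h1a, h1b⟩ := Finset.mem_filter.1 (Finset.mem_coe.1 h1)
            obtain ⟨h2a, h2b⟩ := Finset.mem_filter.1 (Finset.mem_coe.1 h2)
            rw [Finset.mem_product, Finset.mem_range, Finset.mem_range] at h1a h2a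
            have m1 := hf2 (i, j) h1b
            have m2 := hf2 (k, l) h2b
            rw [← hfe] at m2
            obtain ⟨a, b⟩ := huniq _ (hf1 (i, j) h1b) i j k l h1a.1 h1a.2 h2a.1 h2a.2
              h1b.1 h2b.1 m1 m2
            rw [a, b]
      _ = Ms.card + m := by rw [Finset.card_disjSum, Finset.card_range]

end Crest.Agent.R320.RulerGrid_506
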