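import Crest.Agent.R320.P4n_135
import Crest.Agent.R320.CC_900
import Crest.Agent.R320.TopSem_474
import Crest.Agent.R320.Top5_163
import Crest.Agent.R320.Grid_899
import Crest.Agent.R320.RulerGrid_506
import Crest.Agent.R320.ExactR_237
import Crest.Agent.R320.RegCongr_253

/-!
# Row 320: final assembly, all words (helper135)

Grid gadget (899) + ruler (506) + exact gadget (237) + walls (263 / 228) + completeness (900)
+ semantic right labels (474) + top (163) + level sets (P4n_135).
-/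

set_option autoImplicit false

namespace Crest.Agent.R320.Fin_135

open Crest.RegLang Crest.Agent.R320 Crest.Agent.R320.Hk_851
open Crest.Agent.R320.FewWalls_228 (nw Wl PerOff)
open Crest.Agent.R320.WallU_228 (Wo wo_append)

universe u

theorem exists_primes (k B : ℕ) : ∃ q : Fin k → ℕ, Function.Injective q ∧
    ∀ j, (q j).Prime ∧ B < q j ∧ Odd (q j) := by
  have hinf : ({p : ℕ | p.Prime} \ {i | i ≤ B + 2}).Infinite :=
    Nat.infinite_setOf_prime.diff (Set.finite_le_nat (B + 2))
  let e := hinf.natEmbedding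
  refine ⟨fun j => (e j.1).1, ?_, ?_⟩
  · intro i j h
    have := e.injective (Subtype.ext h)
    exact Fin.ext this
  · intro j
    have h := (e j.1).2
    have h1 : ((e j.1).1).Prime := h.1
    have h2 : ¬ (e j.1).1 ≤ B + 2 := h.2
    refine ⟨h1, ?_, ?_⟩
    · show B < (e j.1).1
      omega
    · show Odd (e j.1).1
      rcases h1.eq_two_or_odd' with h3 | h3
      · omega
      · exact h3

/-- walls with the separation of `CC_900` and `PerOff` -/
theorem walls {α : Type u} [Finite α] (W : ℕ) :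
    ∃ (n c P : ℕ) (S : Set (List α)), 0 < n ∧ 0 < P ∧
      (∀ P Q : List α, n ≤ Q.length → (Wo n S (P ++ Q) ↔ Wo n S Q)) ∧
      (∀ (P : List α) (d : ℕ), Wo n S P → 0 < d → d ≤ W → ¬ Wo n S (P.take (P.length - d))) ∧
      PerOff n c P S := by
  obtain ⟨n, c, P, S, hn, hP, hS, hsep, hper⟩ :=
    Crest.Agent.R320.Mk263.marker (α := α) (W + 1) (by omega)
  refine ⟨n, c, P, S, hn, hP, fun P Q h => wo_append P Q h, ?_, hper⟩
  intro Q d hQ hd hdW hT
  obtain ⟨h1, h2⟩ := hQ
  obtain ⟨h3, h4⟩ := hT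
  have hl : (Q.take (Q.length - d)).length = Q.length - d := by rw [List.length_take]; omega
  rw [hl] at h3 h4
  rw [List.drop_take] at h4
  have e2 : Q.length - d - (Q.length - d - n) = n := by omega
  rw [e2] at h4
  have h5 : (Q.drop (Q.length - n)).take n ∈ S := by
    rw [List.take_of_length_le (by rw [List.length_drop]; omega)]
    exact h2
  have := hsep Q (Q.length - d - n) (Q.length - n) (by omega) (by omega) h4 h5
  omega

theorem grid_of_not_bad {T a g w : ℕ} (hg : 0 < g) (ha : a ≤ T)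
    (h : ¬ ∃ k : ℤ, |(T : ℤ) - a - k * g| ≤ w) : w ≤ (T - a) % g ∧ (T - a) % g + w ≤ g := by
  push Not at h
  have hdm : ((T - a : ℕ) : ℤ) = (g : ℤ) * ((T - a) / g : ℕ) + ((T - a) % g : ℕ) := by
    exact_mod_cast (Nat.div_add_mod (T - a) g).symm
  have hc : ((T - a : ℕ) : ℤ) = (T : ℤ) - a := by push_cast [Nat.cast_sub ha]; ring
  have hlt := Nat.mod_lt (T - a) hg
  constructor
  · have h1 := h ((T - a) / g : ℕ)
    rw [← hc, hdm] at h1
    have e : (g : ℤ) * ((T - a) / g : ℕ) + ((T - a) % g : ℕ) - ((T - a) / g : ℕ) * g =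
        ((T - a) % g : ℕ) := by ring
    rw [e, abs_of_nonneg (by positivity)] at h1
    exact_mod_cast h1.le
  · have h1 := h (((T - a) / g : ℕ) + 1)
    rw [← hc, hdm] at h1
    have e : (g : ℤ) * ((T - a) / g : ℕ) + ((T - a) % g : ℕ) - (((T - a) / g : ℕ) + 1) * g =
        -((g : ℤ) - ((T - a) % g : ℕ)) := by ring
    rw [e, abs_neg, abs_of_nonneg (by
      have : (((T - a) % g : ℕ) : ℤ) < g := by exact_mod_cast hlt
      linarith)] at h1
    have : (w : ℤ) + ((T - a) % g : ℕ) < g := by linarith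
    have h2 : w + (T - a) % g < g := by exact_mod_cast this
    omega

theorem final (A S : Type) [Finite A] [Monoid S] [Finite S] (f : A → S) (s : S) :
    Hgt1_903.H 3 ({w | (w.map f).prod = s} : Language A) := by
  classical
  haveI := Fintype.ofFinite S
  -- the module
  let V : Type := S → ZMod 2
  haveI : Finite V := inferInstanceAs (Finite (S → ZMod 2))
  haveI : Fintype V := Fintype.ofFinite V
  let act : V → S → V := fun v s x => v (s * x)
  have act_mul : ∀ v s s', act (act v s) s' = act v (s * s') := by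
    intro v s s'
    funext x
    show v (s * (s' * x)) = v (s * s' * x)
    rw [mul_assoc]
  have act_add : ∀ v w s, act (v + w) s = act v s + act w s := fun v w s => rfl
  have faith : ∀ s s', (∀ v, act v s = act v s') → s = s' := by
    intro s s' h
    by_contra hne
    have h1 := congrFun (h (fun x => if x = s then 1 else 0)) 1
    change (if s * 1 = s then (1 : ZMod 2) else 0) = (if s' * 1 = s then (1 : ZMod 2) else 0) at h1
    rw [mul_one, mul_one, if_pos rfl, if_neg (fun h => hne h.symm)] at h1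
    exact one_ne_zero h1
  let φ : List A → S := fun w => (w.map f).prod
  have hφ1 : φ [] = 1 := rfl
  have hφ : ∀ u v, φ (u ++ v) = φ u * φ v := by
    intro u v
    show ((u ++ v).map f).prod = (u.map f).prod * (v.map f).prod
    rw [List.map_append, List.prod_append]
  obtain ⟨k, m, hgad⟩ := Grid_899.grid_gadget_reg S V act
  obtain ⟨K, hex⟩ := ExactR_237.exact_gadget A S V f act (1 + 2 * (k + m) + 1)
  obtain ⟨q, hqi, hq⟩ := exists_primes k (8 * 4 ^ (K + 1))
  obtain ⟨M, hMdef⟩ : ∃ M, M = ∏ j, q j := ⟨_, rfl⟩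
  obtain ⟨κ, hκdef⟩ : ∃ κ, κ = 100 * 4 ^ (K + 1) * M := ⟨_, rfl⟩
  have hM : 0 < M := by
    rw [hMdef]; exact Finset.prod_pos fun j _ => (hq j).1.pos
  have hκ : 100 * 4 ^ (K + 1) * M ≤ 2 ^ κ := by
    rw [← hκdef]; exact (Nat.lt_two_pow_self).le
  have hcop : Pairwise (fun i j => Nat.Coprime (q i) (q j)) := by
    intro i j hij
    exact (Nat.coprime_primes (hq i).1 (hq j).1).2 fun h => hij (hqi h)
  obtain ⟨lam, rho, nu, g1, g2, g3, g4, g5⟩ := hgad q (fun j => (hq j).2.2) hcop κ A φ hφ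
  rw [← hMdef] at g1 g2 g4 g5
  obtain ⟨N1, hN1⟩ : ∃ N1, N1 = Grid_899.Am M κ m := ⟨_, rfl⟩
  obtain ⟨A1, hA1⟩ : ∃ A1, A1 = Grid_899.Am M κ (m + 1) := ⟨_, rfl⟩
  rw [← hN1] at g1
  rw [← hA1] at g2 g4 g5
  let Ms : Finset ℕ := Finset.univ.image q
  have hMs : ∀ p ∈ Ms, p.Prime ∧ 8 * 4 ^ (K + 1) < p ∧ p ∣ M := by
    intro p hp
    obtain ⟨j, -, rfl⟩ := Finset.mem_image.1 hp
    refine ⟨(hq j).1, (hq j).2.1, ?_⟩
    rw [hMdef]
    exact Finset.dvd_prod_of_mem q (Finset.mem_univ j)
  have hMsc : Ms.card ≤ k := by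
    refine le_trans Finset.card_image_le ?_
    rw [Finset.card_univ, Fintype.card_fin]
  obtain ⟨c, hc1, hc2, hc3⟩ := RulerGrid_506.exists_ruler K m (4 * N1) M (2 ^ κ) Ms
    (fun j => (Grid_899.Am M κ j : ℤ)) hM hMs hκ
  obtain ⟨p0, hp0⟩ : ∃ p0, p0 = c K := ⟨_, rfl⟩
  have hcle : ∀ i, i < K → c i ≤ p0 := by
    intro i hi
    rw [hp0]
    exact (hc1 hi).le
  obtain ⟨La, hLa⟩ : ∃ La, La = 2 * A1 + p0 + 1 := ⟨_, rfl⟩
  obtain ⟨lam2, rho2, nu2, e1, e2⟩ := hex c (fun i j hij _ => hc1 hij)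
  obtain ⟨n, cc, Pp, Sw, hn, hPp, hloc, hsep, hper⟩ := walls (α := A) (2 * (p0 + N1))
  let D : CC_900.Dat A S V :=
    { φ := φ
      φ_app := hφ
      act := act
      Wo := Wo n Sw
      n := n
      W := 2 * (p0 + N1)
      loc := hloc
      sep := hsep
      z := 3 * p0 + 4 * N1 + La + 2 * n + 2
      p0 := p0
      N1 := N1
      La := La
      K := K
      C0 := k + m
      c := c
      Bad := fun T => RulerGrid_506.Bad Ms m M (2 ^ κ) (fun j => (Grid_899.Am M κ j : ℤ)) (T : ℤ)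
      lam1 := lam
      rho1 := rho
      nu1 := nu
      lam1_len := fun p v h => (g1 p v h).1.le
      g1 := fun p q v r h1 h2 _ => g3 p q v r h1 h2
      g1c := by
        intro u hu hb v
        have hb1 : ¬ ∃ p ∈ Ms, (p : ℤ) ∣ ((u.length : ℕ) : ℤ) := fun h => hb (Or.inl h)
        have hb2 : ∀ j, 1 ≤ j → j ≤ m → ¬ ∃ k : ℤ,
            |((u.length : ℕ) : ℤ) - (Grid_899.Am M κ j : ℤ) - k * ((2 ^ κ : ℕ) : ℤ) ^ j| ≤
              (M : ℤ) * ((2 ^ κ : ℕ) : ℤ) ^ (j - 1) := fun j h1 h2 h3 => hb (Or.inr ⟨j, h1, h2, h3⟩)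
        obtain ⟨P, Q, h1, h2, h3⟩ := g4 u (by omega) (fun j hj => hb1 ⟨q j,
          Finset.mem_image_of_mem q (Finset.mem_univ j), by exact_mod_cast hj⟩)
          (fun j hj1 hj2 => by
            have hGj : 0 < Grid_899.G κ j := Grid_899.G_pos j
            have hAj : Grid_899.Am M κ j ≤ u.length := by
              have : Grid_899.Am M κ j ≤ Grid_899.Am M κ (m + 1) :=
                Grid_899.Am_mono (by omega)
              rw [← hA1] at this
              omega
            refine grid_of_not_bad hGj hAj ?_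
            rintro ⟨t, ht⟩
            refine hb2 j hj1 hj2 ⟨t, ?_⟩
            have eG : ∀ i, ((2 ^ κ : ℕ) : ℤ) ^ i = (Grid_899.G κ i : ℤ) := by
              intro i
              unfold Grid_899.G
              push_cast
              rw [pow_mul]
            rw [eG, eG]
            push_cast at ht
            exact ht) v
        exact ⟨P, Q, h1.symm, h2, h3⟩
      lam2 := lam2
      rho2 := fun k Q => rho2 k Q 1
      nu2 := fun u => nu2 u 1
      g2 := by
        intro k hk P Q v b hP _ h1 h2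
        have := e1 k hk P Q 1 v b hP h1 h2
        rw [mul_one] at this
        exact this
      g2c := by
        intro X v hX
        obtain ⟨I, hI1, hI2⟩ := e2 X 1 v (fun k hk => by rw [hX]; exact hcle k hk)
        exact ⟨I, by omega, hI2⟩
      c_le := hcle
      c_inj := fun k l _ _ h => hc1.injective h
      spoil := by
        intro T hT F hF
        have hfin := hc3 (T : ℤ)
        refine le_trans (Finset.card_le_card ?_) (le_trans hfin (by omega))
        intro a ha
        obtain ⟨h1, h2, h3, h4⟩ := hF a ha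
        rw [Finset.mem_filter, Finset.mem_product, Finset.mem_range, Finset.mem_range]
        refine ⟨⟨h1, h2⟩, h3, ?_⟩
        have hle : c a.1 ≤ T := by
          have := hcle a.1 h1
          omega
        have ecast : ((T + c a.2 - c a.1 : ℕ) : ℤ) = (T : ℤ) + c a.2 - c a.1 := by
          rw [Nat.cast_sub (by omega)]; push_cast; ring
        rw [← ecast]
        exact h4
      space := by
        intro i j k' l hi hj hk hl hij hkl hne
        have h := hc2 i j k' l hi hj hk hl hij hkl (fun h => hne (by rw [h.1, h.2]))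
        push_cast at h
        rcases abs_cases (((c i : ℤ) - c j) - ((c k' : ℤ) - c l)) with ⟨h1, -⟩ | ⟨h1, -⟩
        · rw [h1] at h
          right
          omega
        · rw [h1] at h
          left
          omega
      hz := by omega
      hW := le_rfl }
  have hXXeq : D.XX = P4n_135.XX n Sw D.z := by
    ext X
    constructor
    · rintro ⟨h1, h2, h3⟩
      exact ⟨h1, h2, fun t ht hz => h3 t hz ht⟩
    · rintro ⟨h1, h2, h3⟩
      exact ⟨h1, h2, fun t hz ht => h3 t ht hz⟩
  have hnu : ∀ x, Language.IsRegular ({Y | nu Y = x} : Language A) := by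
    intro x
    refine RegCongr_253.regular_of_congr f A1 (M * Grid_899.G κ m)
      (Nat.mul_pos hM (Grid_899.G_pos m)) _ ?_
    intro Y Y' h1 h2 h3 h4 h5 h6
    have := (g5 Y Y' h1 h2 h3 h5 h4).2
    show nu Y' = x
    rw [← this]
    exact h6
  have hXT : ∀ v v', HL 1 ({X | X ∈ D.XX ∧ D.T v X = v'} : Language A) := by
    intro v v'
    rw [hXXeq]
    exact P4n_135.hXT hn hPp hper D.z φ hφ1 hφ act nu (fun u => nu2 u 1) p0 hnu v v'
  have hNP : ∀ s, HL 1 ({r | (∀ X ∈ D.XX, ¬ X <+: r) ∧ φ r = s} : Language A) := by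
    intro s
    rw [hXXeq]
    exact P4n_135.hNP hn hPp hper D.z φ hφ1 hφ s
  have hf1 : {x : List A × V | D.LP1 x.1 x.2}.Finite := by
    refine (((List.finite_length_le A (p0 + N1)).prod (Set.finite_univ (α := V)))).subset ?_
    rintro ⟨P, v⟩ ⟨h1, h2⟩
    refine ⟨?_, Set.mem_univ _⟩
    have := (g1 _ _ h2).1
    rw [List.length_drop] at this
    show P.length ≤ p0 + N1
    change P.length - p0 < N1 at this
    omega
  have hf2 : {x : List A × V | D.LP2 x.1 x.2}.Finite := by
    refine (((List.finite_length_le A p0).prod (Set.finite_univ (α := V)))).subset ?_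
    rintro ⟨P, v⟩ ⟨k', hk', h1, h2⟩
    refine ⟨?_, Set.mem_univ _⟩
    show P.length ≤ p0
    rw [h1]
    exact hcle k' hk'
  haveI : Nonempty V := ⟨0⟩
  have hcc : TopSem_474.CC D.XX D.T D.LP1 D.LP2 := by
    intro X hX X2 hX2 v
    have key1 : ∀ Q, D.Sem1 Q → TopSem_474.Sem1 D.XX D.T D.LP1 Q := by
      rintro Q ⟨h1, b, h2⟩
      exact ⟨b, h1, h2⟩
    rcases D.cc X hX X2 hX2 v with ⟨P, Q, h1, h2, h3⟩ | ⟨P, Q, h1, h2, h3, h4, b, h5⟩
    · exact Or.inl ⟨P, Q, h1, h2, key1 Q h3⟩
    · refine Or.inr ⟨P, Q, h1, h2, h3, b, h4, fun P' v' hP' => ?_⟩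
      rcases h5 P' v' hP' with ⟨Y, hY, hY2, P'', Q'', h6, h7, h8, h9⟩ | h
      · exact Or.inl ⟨Y, hY, hY2, P'', Q'', h6, h7, h8, key1 Q'' h9⟩
      · exact Or.inr h
  refine Top5_163.top φ hφ1 hφ act act_mul act_add faith D.XX ?_ ?_ D.T
    (fun X => act (nu2 (X.take p0) 1) (φ (X.drop p0)) + nu (X.drop p0)) ?_ D.LP1 D.LP2
    (TopSem_474.R1 D.XX D.T D.LP1) (TopSem_474.R2 D.XX D.T D.LP1 D.LP2)
    (fun Q b h => TopSem_474.R1_ne h) (fun Q b h => TopSem_474.R2_ne h)
    (fun P v Q b hP hQ => TopSem_474.s1 P v Q b hP hQ) ?_ (TopSem_474.cc hcc) hXT hNP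
    (fun v => TopSem_474.hl_LP hf1 v) (fun v => TopSem_474.hl_LP hf2 v)
    (fun b => TopSem_474.hl_R1 hXT hf1 b) (fun b => TopSem_474.hl_R2 hXT hf1 hf2 b) s
  · rw [hXXeq]
    exact P4n_135.nil_notMem (by show 0 < 3 * p0 + 4 * N1 + La + 2 * n + 2; omega)
  · intro X hX Y hY
    rw [hXXeq] at hX hY
    exact P4n_135.XX_prefix hX hY
  · intro X _ v
    show act (act v (φ (X.take p0)) + nu2 (X.take p0) 1) (φ (X.drop p0)) + nu (X.drop p0) = _
    rw [act_add, act_mul, ← hφ, List.take_append_drop, add_assoc]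
  · intro P v Q b hP hQ hun
    exact TopSem_474.s2 P v Q b hP hQ hun

end Crest.Agent.R320.Fin_135
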