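import Mathlib

/-!
# Row 320 (helper186): a language which depends only on (first `N` letters, product of the rest in a
finite monoid, length mod `P`) is regular.
-/

set_option autoImplicit false

namespace Crest.Agent.R320.RegKey_186

universe u v

theorem isRegular_of_key {α : Type u} [Finite α] {κ : Type v} [Finite κ] (L : Language α)
    (key : List α → κ) (h : ∀ x x' : List α, key x = key x' → ∀ y, x ++ y ∈ L ↔ x' ++ y ∈ L) :
    L.IsRegular := by
  rw [Language.isRegular_iff_finite_range_leftQuotient]
  classical
  have : (Set.range L.leftQuotient) ⊆
      Set.range (fun k : κ => if hk : ∃ x, key x = k then L.leftQuotient hk.choose else 0) := by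
    rintro _ ⟨x, rfl⟩
    refine ⟨key x, ?_⟩
    have hk : ∃ x', key x' = key x := ⟨x, rfl⟩
    simp only [dif_pos hk]
    ext y
    exact h _ _ hk.choose_spec y
  exact (Set.finite_range _).subset this

/-- finite-state clause with prefix, product of the rest and length mod `P` -/
theorem isRegular_of_state {α : Type u} [Finite α] {S : Type v} [Monoid S] [Finite S] (f : α → S)
    (N P : ℕ) (hP : 0 < P) (L : Language α)
    (h : ∀ q q' : List α, N ≤ q.length → N ≤ q'.length → q.take N = q'.take N →
      ((q.drop N).map f).prod = ((q'.drop N).map f).prod → q.length % P = q'.length % P →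
      (q ∈ L ↔ q' ∈ L)) : L.IsRegular := by
  have : Finite {l : List α // l.length ≤ N} := (List.finite_length_le α N).to_subtype
  have : NeZero P := ⟨hP.ne'⟩
  refine isRegular_of_key (κ := {l : List α // l.length ≤ N} × S × Fin P) L
    (fun x => (⟨x.take N, by simp⟩, ((x.drop N).map f).prod, ⟨x.length % P, Nat.mod_lt _ hP⟩)) ?_
  intro x x' hk y
  simp only [Prod.mk.injEq, Subtype.mk.injEq, Fin.mk.injEq] at hk
  obtain ⟨h1, h2, h3⟩ := hk
  by_cases hx : x.length < N
  · have e1 : x.take N = x := List.take_of_length_le hx.le
    have hx' : x'.length < N := by
      by_contra hc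
      push Not at hc
      have := congrArg List.length h1
      rw [List.length_take, List.length_take] at this
      omega
    have e2 : x'.take N = x' := List.take_of_length_le hx'.le
    rw [e1, e2] at h1
    rw [h1]
  · push Not at hx
    have hx' : N ≤ x'.length := by
      have := congrArg List.length h1
      rw [List.length_take, List.length_take] at this
      omega
    refine h _ _ (by simp; omega) (by simp; omega) ?_ ?_ ?_
    · rw [List.take_append_of_le_length hx, List.take_append_of_le_length hx', h1]
    · rw [List.drop_append_of_le_length hx, List.drop_append_of_le_length hx', List.map_append,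
        List.map_append, List.prod_append, List.prod_append, h2]
    · rw [List.length_append, List.length_append, Nat.add_mod, h3, ← Nat.add_mod]

end Crest.Agent.R320.RegKey_186
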