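import Mathlib

set_option autoImplicit false

/-!
# ROW 320, spoil leaf (wide ruler for the digit gadget `g1`)

`DBad Ms M b m n` : some modulus of `Ms` divides `n`, or some digit `j < m` of `n` in base `b` is not
in `[M, b - 1 - M]`.  The ruler `c l = 2 ^ l * K0`, with `K0 = 1 mod M` and
`K0 = 4 M (1 + b + .. + b ^ (m-1)) mod b ^ m`, spoils at most `Ms.card + m` ordered pairs, whatever
its length `K` is, as soon as the moduli are larger than `2 ^ (K+1)` and `b` larger than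
`M * 2 ^ (K + 5)`.
-/

namespace Crest.Agent.R320.Sp_137

/-- Bad totals, integer form. -/
def DBadZ (Ms : Finset ℕ) (M b m : ℕ) (n : ℤ) : Prop :=
  (∃ k ∈ Ms, (k : ℤ) ∣ n) ∨
    ∃ j < m, ¬ ((M : ℤ) ≤ n / (b : ℤ) ^ j % b ∧ n / (b : ℤ) ^ j % b + M + 1 ≤ b)

/-- Bad totals, natural number form. -/
def DBad (Ms : Finset ℕ) (M b m : ℕ) (n : ℕ) : Prop :=
  (∃ k ∈ Ms, k ∣ n) ∨ ∃ j < m, ¬ (M ≤ n / b ^ j % b ∧ n / b ^ j % b + M + 1 ≤ b)

theorem dbad_iff (Ms : Finset ℕ) (M b m n : ℕ) : DBad Ms M b m n ↔ DBadZ Ms M b m (n : ℤ) := by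
  unfold DBad DBadZ
  constructor
  · rintro (⟨k, hk, h⟩ | ⟨j, hj, h⟩)
    · exact Or.inl ⟨k, hk, by exact_mod_cast h⟩
    · exact Or.inr ⟨j, hj, fun h' => h (by exact_mod_cast h')⟩
  · rintro (⟨k, hk, h⟩ | ⟨j, hj, h⟩)
    · exact Or.inl ⟨k, hk, by exact_mod_cast h⟩
    · exact Or.inr ⟨j, hj, fun h' => h (by exact_mod_cast h')⟩

theorem two_pow_pair {i l j k : ℕ} (h : 2 ^ i + 2 ^ l = 2 ^ j + 2 ^ k) :
    (i = j ∧ l = k) ∨ (i = k ∧ l = j) := by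
  have key : ∀ i l j k : ℕ, i ≤ l → j ≤ k → 2 ^ i + 2 ^ l = 2 ^ j + 2 ^ k → i = j ∧ l = k := by
    intro i l j k hil hjk h
    have h1 : (2 : ℕ) ^ i ≤ 2 ^ l := Nat.pow_le_pow_right (by norm_num) hil
    have h2 : (2 : ℕ) ^ j ≤ 2 ^ k := Nat.pow_le_pow_right (by norm_num) hjk
    have p1 : 0 < (2 : ℕ) ^ i := by positivity
    have p2 : 0 < (2 : ℕ) ^ j := by positivity
    rcases lt_trichotomy l k with hlt | heq | hgt
    · exfalso
      have h3 : (2 : ℕ) ^ (l + 1) ≤ 2 ^ k := Nat.pow_le_pow_right (by norm_num) hlt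
      rw [pow_succ] at h3
      omega
    · subst heq
      have h3 : (2 : ℕ) ^ i = 2 ^ j := by omega
      exact ⟨Nat.pow_right_injective (le_refl 2) h3, rfl⟩
    · exfalso
      have h3 : (2 : ℕ) ^ (k + 1) ≤ 2 ^ l := Nat.pow_le_pow_right (by norm_num) hgt
      rw [pow_succ] at h3
      omega
  rcases le_total i l with a | a <;> rcases le_total j k with b | b
  · exact Or.inl (key i l j k a b h)
  · rw [add_comm (2 ^ j)] at h
    exact Or.inr (key i l k j a b h)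
  · rw [add_comm (2 ^ i)] at h
    obtain ⟨x, y⟩ := key l i j k a b h
    exact Or.inr ⟨y, x⟩
  · rw [add_comm (2 ^ i), add_comm (2 ^ j)] at h
    obtain ⟨x, y⟩ := key l i k j a b h
    exact Or.inl ⟨y, x⟩

/-- a bad digit `j` means: `n` is within `M * b ^ j` of a multiple of `b ^ (j+1)`. -/
theorem near_of_digit {M b : ℕ} (hb : 0 < b) {j : ℕ} {n : ℤ}
    (h : ¬ ((M : ℤ) ≤ n / (b : ℤ) ^ j % b ∧ n / (b : ℤ) ^ j % b + M + 1 ≤ b)) :
    ∃ q : ℤ, |n - q * (b : ℤ) ^ (j + 1)| ≤ M * (b : ℤ) ^ j := by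
  have hbz : (0 : ℤ) < b := by exact_mod_cast hb
  have hpj : (0 : ℤ) < (b : ℤ) ^ j := by positivity
  set P : ℤ := (b : ℤ) ^ j with hP
  have e1 : n = P * (n / P) + n % P := (Int.mul_ediv_add_emod n P).symm
  have e2 : n / P = b * (n / P / b) + n / P % b := (Int.mul_ediv_add_emod (n / P) b).symm
  have r1 := Int.emod_nonneg n hpj.ne'
  have r2 := Int.emod_lt_of_pos n hpj
  have d1 := Int.emod_nonneg (n / P) hbz.ne'
  have d2 := Int.emod_lt_of_pos (n / P) hbz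
  set ρ := n % P
  set d := n / P % b
  set Q := n / P / b
  have e3 : n = Q * (b : ℤ) ^ (j + 1) + (d * P + ρ) := by
    rw [e1, e2, pow_succ, ← hP]; ring
  by_cases hd : (M : ℤ) ≤ d
  · have h2 : ¬ (d + M + 1 ≤ b) := fun h' => h ⟨hd, h'⟩
    refine ⟨Q + 1, ?_⟩
    have e4 : n - (Q + 1) * (b : ℤ) ^ (j + 1) = (d - b) * P + ρ := by
      rw [e3, pow_succ, ← hP]; ring
    rw [e4, abs_le]
    constructor
    · nlinarith
    · nlinarith
  · refine ⟨Q, ?_⟩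
    have e4 : n - Q * (b : ℤ) ^ (j + 1) = d * P + ρ := by rw [e3]; ring
    rw [e4, abs_le]
    constructor
    · nlinarith
    · nlinarith

/-- the geometric sum `1 + b + .. + b ^ j`. -/
def gs (b : ℤ) : ℕ → ℤ
  | 0 => 1
  | j + 1 => gs b j + b ^ (j + 1)

theorem gs_bound {b : ℤ} (hb : 2 ≤ b) (j : ℕ) : b ^ j ≤ gs b j ∧ gs b j + 1 ≤ 2 * b ^ j := by
  induction j with
  | zero => simp [gs]
  | succ j ih =>
      have hp : (0 : ℤ) < b ^ j := by positivity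
      simp only [gs, pow_succ]
      constructor
      · nlinarith [ih.1]
      · nlinarith [ih.2]

theorem gs_mod {b : ℤ} (j l : ℕ) : ∃ u : ℤ, gs b (j + l) = gs b j + b ^ (j + 1) * u := by
  induction l with
  | zero => exact ⟨0, by simp⟩
  | succ l ih =>
      obtain ⟨u, hu⟩ := ih
      refine ⟨u + b ^ l, ?_⟩
      rw [← add_assoc, gs, hu]
      ring

/-- **one digit spoils at most one difference.** -/
theorem digit_one {M b K m : ℕ} (hM : 0 < M) (hb : M * 2 ^ (K + 5) ≤ b) {K0 : ℤ}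
    (hK0 : ∃ u : ℤ, K0 = 4 * M * gs b m + (b : ℤ) ^ (m + 1) * u) {j : ℕ} (hj : j ≤ m)
    {n n' e : ℤ} (he : e ≠ 0) (he' : |e| ≤ 2 ^ (K + 1)) (hn : n - n' = K0 * e)
    (h : ¬ ((M : ℤ) ≤ n / (b : ℤ) ^ j % b ∧ n / (b : ℤ) ^ j % b + M + 1 ≤ b))
    (h' : ¬ ((M : ℤ) ≤ n' / (b : ℤ) ^ j % b ∧ n' / (b : ℤ) ^ j % b + M + 1 ≤ b)) : False := by
  have hb2 : 2 ≤ b := by
    have : 2 ^ 5 ≤ 2 ^ (K + 5) := Nat.pow_le_pow_right (by norm_num) (by omega)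
    nlinarith
  have hbz : (2 : ℤ) ≤ b := by exact_mod_cast hb2
  obtain ⟨q, hq⟩ := near_of_digit (M := M) (b := b) (by omega) h
  obtain ⟨q', hq'⟩ := near_of_digit (M := M) (b := b) (by omega) h'
  obtain ⟨u, hu⟩ := hK0
  obtain ⟨l, rfl⟩ := Nat.exists_eq_add_of_le hj
  obtain ⟨w, hw⟩ := gs_mod (b := (b : ℤ)) j l
  have hp : (0 : ℤ) < (b : ℤ) ^ j := by positivity
  have g := gs_bound hbz j
  have hMz : (1 : ℤ) ≤ M := by exact_mod_cast hM
  have hbig : (M : ℤ) * 2 ^ (K + 5) ≤ b := by exact_mod_cast hb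
  have hpK : (1 : ℤ) ≤ 2 ^ K := one_le_pow₀ (by norm_num)
  -- the key identity
  have key : ∃ t : ℤ, 4 * M * gs b j * e - (b : ℤ) ^ (j + 1) * t
      = (n - q * (b : ℤ) ^ (j + 1)) - (n' - q' * (b : ℤ) ^ (j + 1)) := by
    refine ⟨(q - q') - 4 * M * w * e - (b : ℤ) ^ l * u * e, ?_⟩
    have : n = n' + K0 * e := by linarith
    rw [this, hu, hw]
    ring
  obtain ⟨t, ht⟩ := key
  rw [abs_le] at hq hq' he'
  have b1 : |4 * M * gs b j * e - (b : ℤ) ^ (j + 1) * t| ≤ 2 * (M * (b : ℤ) ^ j) := by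
    rw [ht, abs_le]; constructor <;> linarith [hq.1, hq.2, hq'.1, hq'.2]
  have e0 : (1 : ℤ) ≤ |e| := Int.one_le_abs he
  have e1 : |e| ≤ 2 ^ (K + 1) := abs_le.2 he'
  have hg0 : 0 ≤ gs (b : ℤ) j := le_trans hp.le g.1
  have hMg0 : (0 : ℤ) ≤ M * gs b j := mul_nonneg (by positivity) hg0
  have a1 : |4 * M * gs b j * e| = 4 * M * gs b j * |e| := by
    rw [abs_mul, abs_of_nonneg]
    have : (4 : ℤ) * M * gs b j = 4 * (M * gs b j) := by ring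
    rw [this]; linarith
  have lower : 4 * (M * (b : ℤ) ^ j) ≤ |4 * M * gs b j * e| := by
    rw [a1]
    have h1 : (M : ℤ) * (b : ℤ) ^ j ≤ M * gs b j := mul_le_mul_of_nonneg_left g.1 (by positivity)
    have h2 : (M : ℤ) * gs b j * 1 ≤ M * gs b j * |e| := mul_le_mul_of_nonneg_left e0 hMg0
    have h3 : (4 : ℤ) * M * gs b j * |e| = 4 * (M * gs b j * |e|) := by ring
    rw [h3]; linarith
  have upper : |4 * M * gs b j * e| ≤ M * 2 ^ (K + 4) * (b : ℤ) ^ j := by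
    rw [a1]
    have h1 : (M : ℤ) * gs b j ≤ M * (2 * (b : ℤ) ^ j) :=
      mul_le_mul_of_nonneg_left (by linarith [g.2]) (by positivity)
    calc 4 * (M : ℤ) * gs b j * |e| = 4 * ((M * gs b j) * |e|) := by ring
      _ ≤ 4 * ((M * (2 * (b : ℤ) ^ j)) * 2 ^ (K + 1)) := by
          have : ((M : ℤ) * gs b j) * |e| ≤ (M * (2 * (b : ℤ) ^ j)) * 2 ^ (K + 1) :=
            mul_le_mul h1 e1 (abs_nonneg _) (by positivity)
          linarith
      _ = M * 2 ^ (K + 4) * (b : ℤ) ^ j := by ring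
  have hpp : (b : ℤ) ^ (j + 1) = (b : ℤ) ^ j * b := pow_succ _ _
  by_cases h0 : t = 0
  · subst h0
    rw [mul_zero, sub_zero] at b1
    have : (0 : ℤ) < M * (b : ℤ) ^ j := by positivity
    linarith
  · have t1 : (1 : ℤ) ≤ |t| := Int.one_le_abs h0
    have l2 : (b : ℤ) ^ (j + 1) ≤ |(b : ℤ) ^ (j + 1) * t| := by
      rw [abs_mul, abs_of_pos (by positivity : (0 : ℤ) < (b : ℤ) ^ (j + 1))]
      have h7 : (0 : ℤ) < (b : ℤ) ^ (j + 1) := by positivity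
      have h8 := mul_le_mul_of_nonneg_left t1 h7.le
      linarith
    have tri : |(b : ℤ) ^ (j + 1) * t| ≤ |4 * M * gs b j * e| +
        |4 * M * gs b j * e - (b : ℤ) ^ (j + 1) * t| := by
      have := abs_sub_abs_le_abs_sub ((b : ℤ) ^ (j + 1) * t) (4 * M * gs b j * e)
      rw [abs_sub_comm] at this
      linarith
    have hmain : (b : ℤ) ^ j * b ≤ M * 2 ^ (K + 4) * (b : ℤ) ^ j + 2 * (M * (b : ℤ) ^ j) := by
      rw [← hpp]; linarith
    have fin : (b : ℤ) ≤ M * 2 ^ (K + 4) + 2 * M := by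
      have h9 : (b : ℤ) ^ j * b ≤ (b : ℤ) ^ j * (M * 2 ^ (K + 4) + 2 * M) := by
        have : (b : ℤ) ^ j * (M * 2 ^ (K + 4) + 2 * M)
          = M * 2 ^ (K + 4) * (b : ℤ) ^ j + 2 * (M * (b : ℤ) ^ j) := by ring
        rw [this]; exact hmain
      exact le_of_mul_le_mul_left h9 hp
    have h32 : (M : ℤ) * 2 ^ (K + 5) = 32 * (M * 2 ^ K) := by ring
    have h16 : (M : ℤ) * 2 ^ (K + 4) = 16 * (M * 2 ^ K) := by ring
    have hMK : (M : ℤ) * 1 ≤ M * 2 ^ K := mul_le_mul_of_nonneg_left hpK (by positivity)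
    rw [h32] at hbig
    rw [h16] at fin
    linarith

theorem exists_ruler (M b m K N1 : ℕ) (hM : 0 < M)
    (hb : M * 2 ^ (K + 5) ≤ b)
    (hcop : Nat.Coprime b M) :
    ∃ K0 : ℕ, 4 * N1 < K0 ∧ K0 ≡ 1 [MOD M] ∧
      (∃ u : ℤ, (K0 : ℤ) = 4 * M * gs b m + (b : ℤ) ^ (m + 1) * u) := by
  have hb0 : 0 < b := by
    have : 0 < M * 2 ^ (K + 5) := by positivity
    omega
  have hbz : (2 : ℤ) ≤ b := by
    have : 2 ^ 5 ≤ 2 ^ (K + 5) := Nat.pow_le_pow_right (by norm_num) (by omega)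
    have : 2 ≤ b := by nlinarith
    exact_mod_cast this
  have hg : 0 ≤ gs (b : ℤ) m := le_trans (by positivity) (gs_bound hbz m).1
  obtain ⟨G, hG⟩ := Int.eq_ofNat_of_zero_le hg
  have hco : Nat.Coprime (b ^ (m + 1)) M := Nat.Coprime.pow_left _ hcop
  obtain ⟨k, hk1, hk2⟩ := Nat.chineseRemainder hco (4 * M * G) 1
  refine ⟨k + b ^ (m + 1) * M * (4 * N1 + 1), ?_, ?_, ?_⟩
  · have h1 : 0 < b ^ (m + 1) * M := by positivity
    nlinarith
  · have : k + b ^ (m + 1) * M * (4 * N1 + 1) = k + M * (b ^ (m + 1) * (4 * N1 + 1)) := by ring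
    rw [this]
    exact (Nat.modEq_iff_dvd' (by omega)).2 (by simp) |>.symm.trans hk2
  · have := (Nat.modEq_iff_dvd.1 hk1.symm)
    obtain ⟨u, hu⟩ := this
    refine ⟨u + M * (4 * N1 + 1), ?_⟩
    rw [hG]
    push_cast at hu ⊢
    have : (k : ℤ) = 4 * M * G + (b : ℤ) ^ (m + 1) * u := by linarith
    rw [this]; ring

/-- **THE SPOIL LEAF, integer form.** -/
theorem spoilZ (Ms : Finset ℕ) (M b m K N1 : ℕ) (hM : 0 < M)
    (hMs : ∀ k ∈ Ms, 2 ^ (K + 1) < k ∧ k ∣ M) (hb : M * 2 ^ (K + 5) ≤ b)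
    (hcop : Nat.Coprime b M) :
    ∃ c : ℕ → ℕ, StrictMono c ∧ (∀ i, 4 * N1 < c i) ∧ (∀ i j, i < j → c i + 4 * N1 < c j) ∧
      (∀ i j i' j', i ≠ j → i' ≠ j' → (i, j) ≠ (i', j') →
        4 * (N1 : ℤ) < |((c j : ℤ) - c i) - ((c j' : ℤ) - c i')|) ∧
      ∀ (T : ℤ) (A : Finset (ℕ × ℕ)), (∀ p ∈ A, p.1 < K ∧ p.2 < K ∧ p.1 ≠ p.2 ∧
        DBadZ Ms M b m (T + c p.2 - c p.1)) → A.card ≤ Ms.card + m := by
  obtain ⟨K0, hK1, hK2, hK3⟩ := exists_ruler M b m K N1 hM hb hcop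
  have hK0 : 0 < K0 := by omega
  have hinj : ∀ i j i' j' : ℕ, i ≠ j → i' ≠ j' → (i, j) ≠ (i', j') →
      ((2 : ℤ) ^ j - 2 ^ i) - (2 ^ j' - 2 ^ i') ≠ 0 := by
    intro i j i' j' h1 h2 h3 h4
    have h5 : (2 : ℤ) ^ j + 2 ^ i' = 2 ^ j' + 2 ^ i := by linarith
    have h6 : (2 : ℕ) ^ j + 2 ^ i' = 2 ^ j' + 2 ^ i := by exact_mod_cast h5
    rcases two_pow_pair h6 with ⟨a, c⟩ | ⟨a, c⟩
    · exact h3 (by rw [a, c])
    · exact h1 a.symm
  refine ⟨fun l => 2 ^ l * K0, ?_, ?_, ?_, ?_, ?_⟩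
  · intro i j hij
    exact Nat.mul_lt_mul_of_pos_right (Nat.pow_lt_pow_right (by norm_num) hij) hK0
  · intro i
    have : 1 ≤ 2 ^ i := Nat.one_le_two_pow
    show 4 * N1 < 2 ^ i * K0
    nlinarith
  · intro i j hij
    have : 2 ^ (i + 1) ≤ 2 ^ j := Nat.pow_le_pow_right (by norm_num) hij
    have h1 : 1 ≤ 2 ^ i := Nat.one_le_two_pow
    rw [pow_succ] at this
    show 2 ^ i * K0 + 4 * N1 < 2 ^ j * K0
    nlinarith
  · intro i j i' j' h1 h2 h3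
    have h4 := Int.one_le_abs (hinj i j i' j' h1 h2 h3)
    have : (((2 ^ j * K0 : ℕ) : ℤ) - (2 ^ i * K0 : ℕ)) - (((2 ^ j' * K0 : ℕ) : ℤ) - (2 ^ i' * K0 : ℕ))
        = (((2 : ℤ) ^ j - 2 ^ i) - (2 ^ j' - 2 ^ i')) * K0 := by push_cast; ring
    show 4 * (N1 : ℤ) < |(((2 ^ j * K0 : ℕ) : ℤ) - (2 ^ i * K0 : ℕ)) -
      (((2 ^ j' * K0 : ℕ) : ℤ) - (2 ^ i' * K0 : ℕ))|
    rw [this, abs_mul, abs_of_nonneg (by positivity : (0 : ℤ) ≤ (K0 : ℤ))]
    have : (4 * N1 : ℤ) < K0 := by exact_mod_cast hK1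
    nlinarith
  · intro T A hA
    -- tag every bad pair
    have htag : ∀ p ∈ A, ∃ t : ℕ ⊕ ℕ, (∃ k ∈ Ms, t = Sum.inl k ∧
        (k : ℤ) ∣ (T + (2 ^ p.2 * K0 : ℕ) - (2 ^ p.1 * K0 : ℕ))) ∨
        (∃ j < m, t = Sum.inr j ∧ ¬ ((M : ℤ) ≤
          (T + (2 ^ p.2 * K0 : ℕ) - (2 ^ p.1 * K0 : ℕ)) / (b : ℤ) ^ j % b ∧
          (T + (2 ^ p.2 * K0 : ℕ) - (2 ^ p.1 * K0 : ℕ)) / (b : ℤ) ^ j % b + M + 1 ≤ b)) := by
      intro p hp
      rcases (hA p hp).2.2.2 with ⟨k, hk, h⟩ | ⟨j, hj, h⟩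
      · exact ⟨Sum.inl k, Or.inl ⟨k, hk, rfl, h⟩⟩
      · exact ⟨Sum.inr j, Or.inr ⟨j, hj, rfl, h⟩⟩
    choose! tag htag' using htag
    have hmem : ∀ p ∈ A, tag p ∈ (Ms.map ⟨Sum.inl, Sum.inl_injective⟩ ∪
        (Finset.range m).map ⟨Sum.inr, Sum.inr_injective⟩ : Finset (ℕ ⊕ ℕ)) := by
      intro p hp
      rcases htag' p hp with ⟨k, hk, h, -⟩ | ⟨j, hj, h, -⟩
      · rw [h]; simp [hk]
      · rw [h]; simp [hj]
    have hinjA : Set.InjOn tag A := by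
      intro p hp p' hp' heq
      by_contra hne
      have hp1 := hA p hp
      have hp2 := hA p' hp'
      have he := hinj p.1 p.2 p'.1 p'.2 hp1.2.2.1 hp2.2.2.1 (by simpa using hne)
      set e : ℤ := ((2 : ℤ) ^ p.2 - 2 ^ p.1) - (2 ^ p'.2 - 2 ^ p'.1) with hedef
      have hpw : ∀ a : ℕ, a < K → (1 : ℤ) ≤ 2 ^ a ∧ (2 : ℤ) ^ a ≤ 2 ^ K := by
        intro a ha
        exact ⟨one_le_pow₀ (by norm_num), pow_le_pow_right₀ (by norm_num) ha.le⟩
      have w1 := hpw _ hp1.1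
      have w2 := hpw _ hp1.2.1
      have w3 := hpw _ hp2.1
      have w4 := hpw _ hp2.2.1
      have he' : |e| ≤ 2 ^ (K + 1) := by
        rw [abs_le, pow_succ]; constructor <;> linarith [w1.1, w1.2, w2.1, w2.2, w3.1, w3.2, w4.1, w4.2]
      have hdiff : (T + (2 ^ p.2 * K0 : ℕ) - (2 ^ p.1 * K0 : ℕ)) -
          (T + (2 ^ p'.2 * K0 : ℕ) - (2 ^ p'.1 * K0 : ℕ)) = (K0 : ℤ) * e := by
        rw [hedef]; push_cast; ring
      rcases htag' p hp with ⟨k, hk, h, hd⟩ | ⟨j, hj, h, hd⟩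
      · rcases htag' p' hp' with ⟨k', hk', h', hd'⟩ | ⟨j', hj', h', hd'⟩
        · have hkk : k = k' := by
            have := h.symm.trans (heq.trans h'); exact Sum.inl_injective this
          subst hkk
          have h1 : (k : ℤ) ∣ (K0 : ℤ) * e := by rw [← hdiff]; exact dvd_sub hd hd'
          have hkM : (k : ℤ) ∣ (M : ℤ) := by exact_mod_cast (hMs k hk).2
          have h2 : (k : ℤ) ∣ (K0 : ℤ) - 1 := by
            have := (Nat.modEq_iff_dvd.1 hK2.symm)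
            push_cast at this
            exact dvd_trans hkM this
          have h3 : (k : ℤ) ∣ e := by
            have : e = (K0 : ℤ) * e - ((K0 : ℤ) - 1) * e := by ring
            rw [this]
            exact dvd_sub h1 (Dvd.dvd.mul_right h2 _)
          have h4 : (k : ℤ) ∣ |e| := (dvd_abs _ _).2 h3
          have h5 := Int.le_of_dvd (by have := Int.one_le_abs he; omega) h4
          have h6 : ((2 : ℤ) ^ (K + 1)) < k := by exact_mod_cast (hMs k hk).1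
          linarith
        · have := h.symm.trans (heq.trans h'); simp at this
      · rcases htag' p' hp' with ⟨k', hk', h', hd'⟩ | ⟨j', hj', h', hd'⟩
        · have := h.symm.trans (heq.trans h'); simp at this
        · have hjj : j = j' := by
            have := h.symm.trans (heq.trans h'); exact Sum.inr_injective this
          subst hjj
          exact digit_one hM hb hK3 hj.le he he' hdiff hd hd'
    calc A.card ≤ _ := Finset.card_le_card_of_injOn tag hmem hinjA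
      _ ≤ Ms.card + m := by
          refine (Finset.card_union_le _ _).trans ?_
          simp

/-- **THE SPOIL LEAF, natural numbers.** -/
theorem spoil (Ms : Finset ℕ) (M b m K N1 : ℕ) (hM : 0 < M)
    (hMs : ∀ k ∈ Ms, 2 ^ (K + 1) < k ∧ k ∣ M) (hb : M * 2 ^ (K + 5) ≤ b)
    (hcop : Nat.Coprime b M) :
    ∃ c : ℕ → ℕ, StrictMono c ∧ (∀ i, 4 * N1 < c i) ∧ (∀ i j, i < j → c i + 4 * N1 < c j) ∧
      (∀ i j i' j', i ≠ j → i' ≠ j' → (i, j) ≠ (i', j') →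
        4 * (N1 : ℤ) < |((c j : ℤ) - c i) - ((c j' : ℤ) - c i')|) ∧
      (∀ (T : ℤ) (A : Finset (ℕ × ℕ)), (∀ p ∈ A, p.1 < K ∧ p.2 < K ∧ p.1 ≠ p.2 ∧
        DBadZ Ms M b m (T + c p.2 - c p.1)) → A.card ≤ Ms.card + m) ∧
      ∀ (T : ℕ) (A : Finset (ℕ × ℕ)), (∀ i < K, c i ≤ T) → (∀ p ∈ A, p.1 < K ∧ p.2 < K ∧
        p.1 ≠ p.2 ∧ DBad Ms M b m (T + c p.2 - c p.1)) → A.card ≤ Ms.card + m := by
  obtain ⟨c, h1, h2, h3, h4, h5⟩ := spoilZ Ms M b m K N1 hM hMs hb hcop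
  refine ⟨c, h1, h2, h3, h4, h5, ?_⟩
  intro T A hT hA
  refine h5 T A fun p hp => ?_
  obtain ⟨a1, a2, a3, a4⟩ := hA p hp
  refine ⟨a1, a2, a3, ?_⟩
  rw [dbad_iff] at a4
  have := hT p.1 a1
  have e : ((T + c p.2 - c p.1 : ℕ) : ℤ) = (T : ℤ) + c p.2 - c p.1 := by
    rw [Nat.cast_sub (by omega)]; push_cast; ring
  rw [e] at a4
  exact a4

end Crest.Agent.R320.Sp_137
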