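import Crest.Agent.R320.Inst_522
import Crest.Agent.R320.G1_256
import Crest.Agent.R320.Sp_137
import Crest.Agent.R320.ExactR_237
import Crest.Agent.R320.FewVal_228
import Crest.Agent.R320.RegKey_186
import Crest.Agent.R320.Univ_188
import Crest.Agent.R320.Hk2_851

/-!
# Row 320 (helper137): the join.  727's semantic top + 522's instance + 256's gadget + ruler +
237's exact gadget + 228's walls.
-/

set_option autoImplicit false

namespace Crest.Agent.R320.Fin_137

open Crest.RegLang Crest.Agent.R320.Hk_851 Crest.Agent.R320.Blk467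
open Crest.Agent.R320.SemTop_727 Crest.Agent.R320.Geo_522 Crest.Agent.R320.Inst_522
open Crest.Agent.R320.FewWalls_228 Crest.Agent.R320.FewVal_228 Crest.Agent.R320.Sp_137

universe u

variable {α : Type u}

theorem wa_wl {n : ℕ} {A : Set (List α)} {w : List α} {t : ℕ} :
    Wa n A w t ↔ n ≤ t ∧ Wl n A w (t - n) := by
  unfold Wa Wl
  constructor
  · rintro ⟨h1, h2, h3⟩
    exact ⟨h1, by omega, h3⟩
  · rintro ⟨h1, h2, h3⟩
    exact ⟨h1, by omega, h3⟩

theorem nw_le {n z : ℕ} {A : Set (List α)} {w : List α}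
    (h : ∀ t, z ≤ t → t < w.length → ¬ Wa n A w t) : nw n A w ≤ z + 1 := by
  classical
  unfold nw
  have hsub : ((Finset.range (w.length + 1)).filter (fun x => Wl n A w x)) ⊆
      insert (w.length - n) (Finset.range z) := by
    intro x hx
    rw [Finset.mem_filter] at hx
    obtain ⟨_, hx⟩ := hx
    rw [Finset.mem_insert, Finset.mem_range]
    by_contra hc
    push Not at hc
    have hl := hx.1
    refine h (x + n) (by omega) (by omega) ?_
    rw [wa_wl]
    refine ⟨by omega, ?_⟩
    rwa [Nat.add_sub_cancel]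
  calc _ ≤ (insert (w.length - n) (Finset.range z)).card := by
          convert Finset.card_le_card hsub
    _ ≤ z + 1 := by
          refine (Finset.card_insert_le _ _).trans ?_
          rw [Finset.card_range]

/-- words which end at a wall at a place `≥ z` -/
def EndW (n : ℕ) (A : Set (List α)) (z : ℕ) : Language α :=
  {w | z ≤ w.length ∧ Wa n A w w.length}

theorem HL_EndW [Finite α] {k : ℕ} (n : ℕ) (A : Set (List α)) (z : ℕ) : HL k (EndW n A z) := by
  have hfin : ({v : List α | v.length = n ∧ v ∈ A}).Finite :=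
    (List.finite_length_eq α n).subset fun v hv => hv.1
  have h1 : HL k ({w | ∃ v ∈ ({v : List α | v.length = n ∧ v ∈ A} : Language α), v <:+ w} :
      Language α) := HL.suffix (HL.finite hfin)
  refine (HL.setOf_and (HL.length_ge (k := k) (α := α) z) h1).congr fun w => Iff.symm ?_
  constructor
  · rintro ⟨h2, v, ⟨h3, h4⟩, ⟨u, rfl⟩⟩
    refine ⟨h2, ?_, le_rfl, ?_⟩
    · rw [List.length_append]; omega
    · have : (u ++ v).length - n = u.length := by rw [List.length_append]; omega
      rw [this, List.drop_left, ← h3, List.take_length]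
      exact h4
  · rintro ⟨h2, h3, h4, h5⟩
    refine ⟨h2, (w.drop (w.length - n)).take n, ⟨?_, h5⟩, ?_⟩
    · rw [List.length_take, List.length_drop]; omega
    · have : (w.drop (w.length - n)).take n = w.drop (w.length - n) := by
        apply List.take_of_length_le
        rw [List.length_drop]; omega
      rw [this]
      exact List.drop_suffix _ _

theorem HL_XXz [Finite α] {k : ℕ} (n : ℕ) (A : Set (List α)) (z : ℕ) :
    HL k (toL (XXz n A z)) := by
  have h1 : HL k ({w : List α | 1 ≤ w.length} : Language α) := HL.length_ge 1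
  refine ((HL_EndW (k := k) n A z).inf ((HL_EndW (k := k) n A z).mul h1).compl).congr
    fun w => Iff.symm ?_
  constructor
  · rintro ⟨⟨h2, h3⟩, h4⟩
    refine ⟨h2, h3, fun t ht1 ht2 hw => h4 ?_⟩
    refine Language.mem_mul.2 ⟨w.take t, ?_, w.drop t, ?_, List.take_append_drop t w⟩
    · have hl : (w.take t).length = t := by rw [List.length_take]; omega
      refine ⟨by rw [hl]; exact ht1, ?_⟩
      rw [hl]
      exact (wa_take w le_rfl ht2.le).2 hw
    · show 1 ≤ (w.drop t).length
      rw [List.length_drop]; omega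
  · rintro ⟨h2, h3, h4⟩
    refine ⟨⟨h2, h3⟩, fun hm => ?_⟩
    obtain ⟨u, ⟨hu1, hu2⟩, v, hv, rfl⟩ := Language.mem_mul.1 hm
    have hv' : 1 ≤ v.length := hv
    refine h4 u.length hu1 (by rw [List.length_append]; omega) ?_
    exact (wa_left u v le_rfl).2 hu2

section Join

variable (A : Type) [Finite A] (S : Type) [Monoid S] [Finite S] (φ : A → S)

theorem fin_monoid (s : S) : HL 3 ({w | (w.map φ).prod = s} : Language A) := by
  classical
  haveI := Fintype.ofFinite S
  obtain ⟨act, hadd, hone, hmul, hfaith⟩ := exists_module S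
  obtain ⟨m, r, H1⟩ := Crest.Agent.R320.G1_256.g1 S (S → ZMod 2) act
  set C0 : ℕ := m + r + 1 with hC0
  obtain ⟨K, H2⟩ := Crest.Agent.R320.ExactR_237.exact_gadget A S (S → ZMod 2) φ act (3 * C0 + 1)
  obtain ⟨Ms, M, hMs1, hMs2, hM, H3⟩ := H1 (2 ^ (K + 1))
  set b : ℕ := M * (2 ^ (K + 5) + 8) + 1 with hb
  have hpow : 1 ≤ 2 ^ (K + 5) := Nat.one_le_two_pow
  have hb1 : 4 * M + 4 < b := by rw [hb]; nlinarith
  have hb2 : M * 2 ^ (K + 5) ≤ b := by rw [hb]; nlinarith
  have hcop : Nat.Coprime b M := by
    rw [hb, Nat.coprime_iff_gcd_eq_one, Nat.gcd_comm, Nat.add_comm]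
    simp
  obtain ⟨lam1, rho1, nu1, g1, g2, g3, g4⟩ := H3 b hb1 hcop A φ
  set N1 : ℕ := b ^ m with hN1
  obtain ⟨c, c1, c2, c3, c4, -, c6⟩ := Sp_137.spoil Ms M b m K N1 hM
    (fun k hk => ⟨(hMs2 k hk).1, (hMs2 k hk).2.2⟩) hb2 hcop
  obtain ⟨lam2, rho2, nu2, e1, e2⟩ := H2 c (fun i j hij _ => c1 hij)
  set p0 : ℕ := c K with hp0
  obtain ⟨n, cc, PP, AA, hn, hPP, hAA, hsep, hper, hfew⟩ :=
    exists_walls A (2 * (p0 + N1) + 2) (by omega)
  let d : Dat A S (S → ZMod 2) :=
    { φ := φ, act := act, hadd := hadd, hmul := hmul, p0 := p0, N1 := N1,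
      z := 4 * (p0 + N1 + n + 1), n := n, K := K, C0 := C0, c := c
      hcp := fun k hk => (c1 hk).le
      AA := AA
      hz := le_rfl
      hsep := by
        intro w s t hst h1 h2
        rw [wa_wl] at h1 h2
        have := hsep w (s - n) (t - n) (by omega) h1.2 h2.2
        omega
      lam1 := lam1, rho1 := rho1, nu1 := nu1
      l1 := fun P v h => (g1 P v h).le
      s1 := g2
      BadT := DBad Ms M b m
      c1 := by
        intro X hX v
        refine g3 X (fun k hk hd => hX (Or.inl ⟨k, hk, hd⟩)) (fun j hj => ?_) v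
        by_contra hc
        exact hX (Or.inr ⟨j, hj, hc⟩)
      lam2 := lam2, rho2 := fun k Q => rho2 k Q 1, nu2 := fun P => nu2 P 1
      s2 := by
        intro k hk P Q v b' hP h1 h2
        have := e1 k hk P Q 1 v b' hP h1 h2
        rw [mul_one] at this
        exact this
      c2 := by
        intro w v hw
        obtain ⟨I, hI1, hI2⟩ := e2 w 1 v hw
        exact ⟨I, hI1, hI2⟩
      sp1 := by
        intro t F hF
        have : F.card ≤ 1 := by
          rw [Finset.card_le_one]
          intro p hp q hq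
          by_contra hne
          obtain ⟨_, _, p3, p4, p5⟩ := hF p hp
          obtain ⟨_, _, q3, q4, q5⟩ := hF q hq
          have h := c4 p.2 p.1 q.2 q.1 (Ne.symm p3) (Ne.symm q3) (by
            intro h
            apply hne
            rw [Prod.mk.injEq] at h
            exact Prod.ext h.2 h.1)
          rw [lt_abs] at h
          rcases h with h | h <;> linarith
        omega
      sp2 := by
        intro T hT F hF
        have := c6 T F (fun i hi => (c1 hi).le.trans hT) hF
        omega }
  have hnz : 0 < 4 * (p0 + N1 + n + 1) := by omega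
  have hbm : 0 < b ^ m := by
    have : 0 < b := by omega
    positivity
  -- the value part is regular
  have hreg : ∀ x y : S → ZMod 2, Language.IsRegular
      ({X | p0 + N1 ≤ X.length ∧ d.T x X = y} : Language A) := by
    intro x y
    refine Crest.Agent.R320.RegKey_186.isRegular_of_state φ (p0 + N1) (M * N1)
      (Nat.mul_pos hM hbm) _ ?_
    intro q q' hq hq' ht hp hl
    have t1 : q.take p0 = q'.take p0 := by
      have := congrArg (fun l => l.take p0) ht
      simpa [List.take_take, Nat.min_eq_left (Nat.le_add_right p0 N1)] using this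
    have t2 : (q.drop p0).take N1 = (q'.drop p0).take N1 := by
      have := congrArg (fun l => l.drop p0) ht
      simp only [List.drop_take, Nat.add_sub_cancel_left] at this
      exact this
    have t3 : ((q.drop p0).drop N1) = q.drop (p0 + N1) := by rw [List.drop_drop]
    have t3' : ((q'.drop p0).drop N1) = q'.drop (p0 + N1) := by rw [List.drop_drop]
    have t4 : ((q.drop p0).map φ).prod = ((q'.drop p0).map φ).prod := by
      rw [← List.take_append_drop N1 (q.drop p0), ← List.take_append_drop N1 (q'.drop p0),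
        List.map_append, List.map_append, List.prod_append, List.prod_append, t2, t3, t3', hp]
    have t5 : nu1 (q.drop p0) = nu1 (q'.drop p0) := by
      refine (g4 (q.drop p0) (q'.drop p0) (by rw [List.length_drop]; omega)
        (by rw [List.length_drop]; omega) t2 ?_ ?_).2
      · rw [List.length_drop, List.length_drop]
        have h1 : (q.length - p0) + p0 ≡ (q'.length - p0) + p0 [MOD M * b ^ m] := by
          rw [Nat.sub_add_cancel (by omega), Nat.sub_add_cancel (by omega)]
          exact hl
        exact Nat.ModEq.add_right_cancel' p0 h1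
      · rw [t3, t3', hp]
    have hT : d.T x q = d.T x q' := by
      rw [d.T_split, d.T_split]
      show act (act x ((q.take p0).map φ).prod + nu2 (q.take p0) 1) ((q.drop p0).map φ).prod
          + nu1 (q.drop p0) = act (act x ((q'.take p0).map φ).prod + nu2 (q'.take p0) 1)
          ((q'.drop p0).map φ).prod + nu1 (q'.drop p0)
      rw [t1, t4, t5]
    constructor
    · rintro ⟨_, h⟩
      exact ⟨hq', hT ▸ h⟩
    · rintro ⟨_, h⟩
      exact ⟨hq, hT ▸ h⟩
  have hfib : ∀ x y, HL 1 (d.D.fib x y) := by
    intro x y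
    refine ((HL_XXz (k := 1) n AA (4 * (p0 + N1 + n + 1))).inf
      (hfew _ (hreg x y) (4 * (p0 + N1 + n + 1) + 1))).congr fun w => Iff.symm ?_
    constructor
    · rintro ⟨h1, ⟨_, h2⟩, _⟩
      exact ⟨h1, h2⟩
    · rintro ⟨h1, h2⟩
      have h1' : w ∈ XXz n AA (4 * (p0 + N1 + n + 1)) := h1
      refine ⟨h1, ⟨?_, h2⟩, nw_le h1'.2.2⟩
      have := h1'.1
      omega
  have htail : ∀ s, HL (1 + 2) ({w | (∀ X ∈ d.D.XX, ¬ X <+: w) ∧ (w.map φ).prod = s} :
      Language A) := by
    intro s
    have h1 := ((HL_XXz (k := 1) n AA (4 * (p0 + N1 + n + 1))).prefix).compl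
    have h2 := HL_few_value hn hPP hper (4 * (p0 + N1 + n + 1) + 1) φ s
    refine ((h1.inf h2).congr fun w => Iff.symm ?_).mono (by omega)
    constructor
    · rintro ⟨g1, g2⟩
      refine ⟨fun X hX hp => g1 ⟨X, hX, hp⟩, g2.2⟩
    · rintro ⟨g1, g2⟩
      refine ⟨fun ⟨X, hX, hp⟩ => g1 X hX hp, ?_, g2⟩
      refine nw_le fun t ht1 ht2 hw => ?_
      obtain ⟨t', k1, k2, k3⟩ := exists_first w ⟨t, ht1, hw⟩
      exact g1 (w.take t') (take_mem k1 k2 k3) (List.take_prefix _ _)
  exact SemTop_727.top act hadd hone hmul hfaith φ d.nu d.D (fun v X => rfl) (pcode hnz) hfib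
    (fun x => d.hL1 x) (fun x => d.hL2 x) d.hC2 htail s

end Join

theorem main (A : Type) [Finite A] (L : Language A) (hL : L.IsRegular) :
    ∃ e : GRegExp A, e.height ≤ 3 ∧ e.lang = L :=
  of_monoid (k := 3) (fun S _ _ φ s => fin_monoid A S φ s) L hL

/-- **Row 320 in every universe.** -/
theorem row (α : Type u) [Finite α] (L : Language α) (hL : L.IsRegular) :
    ∃ e : GRegExp α, e.height ≤ 3 ∧ e.lang = L :=
  Crest.Agent.R320.Univ_188.of_type0 3 (fun A _ L hL => main A L hL) α L hL

end Crest.Agent.R320.Fin_137
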