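import Crest.Agent.R320.Top5_120
import Crest.Agent.R320.Sc2n_937
import Crest.Agent.R320.Grid_390
import Crest.Agent.R320.Thin_963
import Crest.Agent.R320.ExactR_237
import Crest.Agent.R320.LWallAll_922
import Crest.Agent.R320.P4_933
import Crest.Agent.R320.Loc_354

set_option autoImplicit false

namespace Crest.Agent.R320.Fin_147

open Crest.RegLang Crest.Agent.R320.Hk_851 Crest.Agent.R320.Sc2n_937

section joint

variable {A V : Type*} (g : Geo A) (pre : List A → V → V) (post : V → List A → V)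

theorem hcc1_of {lam rho : List A → Option V} {BadT : ℕ → Prop}
    (hlen : ∀ P v, lam P = some v → P.length ≤ g.N1)
    (hex : ∀ P Q u b, lam P = some u → rho Q = some b → b = post u (P ++ Q))
    (hc : ∀ Y : List A, g.N1 + g.q0 ≤ Y.length → ¬ BadT Y.length → ∀ u : V,
      ∃ P Q, Y = P ++ Q ∧ lam P = some u ∧ (rho Q).isSome)
    {X : List A} (hX : g.XX X) (hnb : ¬ g.BadX BadT X) (v : V) :
    ∃ P Q, P ++ Q = X ∧ g.LP1 pre lam v P ∧ ∀ x P', g.LP1 pre lam x P' →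
      g.XX (P' ++ Q) ∧ g.T pre post x (P' ++ Q) = g.T pre post v X := by
  have hz := g.hz
  obtain ⟨P, Q, b, e, hP, hQ⟩ := g.complete1 pre hlen hX (fun h => hnb (Or.inl h))
    (hc (X.drop g.p0) (by have := hX.1; rw [List.length_drop]; omega)
      (fun h => hnb (Or.inr (by rw [List.length_drop] at h; exact h)))) v
  refine ⟨P, Q, e.symm, hP, fun x P' hP' => ?_⟩
  obtain ⟨h1, h2⟩ := g.sound1 pre post hlen hex hP' hQ
  obtain ⟨-, h3⟩ := g.sound1 pre post hlen hex hP hQ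
  refine ⟨h1, ?_⟩
  rw [h2, ← h3, e]

theorem hcc2_of {BadT : ℕ → Prop} {K : ℕ} {c : ℕ → ℕ} {lam2 rho2 : ℕ → List A → Option V}
    {C0 : ℕ}
    (hc : ∀ k, k < K → c k ≤ g.p0)
    (hex : ∀ k, k < K → ∀ P Q v u, P.length = c k → Q.length = g.p0 - c k →
      lam2 k P = some v → rho2 k Q = some u → u = pre (P ++ Q) v)
    (hgap : ∀ P Q : List A, g.Wo P → g.Wo (P ++ Q) → Q ≠ [] → 2 * g.p0 + 2 * g.N1 < Q.length)
    (hsp : ∀ k k' l l', k < K → k' < K → l < K → l' < K → k' ≠ k → l' ≠ l →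
      c k + c l' < c l + c k' + 2 * g.N1 → c l + c k' < c k + c l' + 2 * g.N1 → k = l)
    (hthin : ∀ τ, g.z ≤ τ + g.p0 → ∀ J : Finset ℕ, (∀ k ∈ J, k < K ∧
      ∃ k', k' < K ∧ k' ≠ k ∧ BadT (τ + c k' - c k - g.p0)) → J.card ≤ C0)
    (hI : ∀ (X : List A) (v : V), X.length = g.p0 → ∃ I : Finset ℕ, 2 * C0 + 2 ≤ I.card ∧ ∀ k ∈ I, k < K ∧
      lam2 k (X.take (c k)) = some v ∧ (rho2 k (X.drop (c k))).isSome)
    {X X2 : List A} (hX : g.XX X) (hbad : g.BadX BadT X) (hX2 : g.XX X2) (v : V) :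
    ∃ P Q, P ++ Q = X ++ X2 ∧ Geo.LP2 K c lam2 v P ∧ ∀ x P', Geo.LP2 K c lam2 x P' →
      (∃ X', (g.XX X' ∧ g.BadX BadT X') ∧ ∃ Y', g.XX Y' ∧ X' ++ Y' = P' ++ Q ∧
        g.T pre post (g.T pre post x X') Y' = g.T pre post (g.T pre post v X) X2) ∨
      (∃ X', g.XX X' ∧ ¬ g.BadX BadT X' ∧ X' <+: P' ++ Q) := by
  have hXl := hX.1
  have hz := g.hz
  obtain ⟨P, Q, b, e, hP, hQ⟩ := g.complete2 pre post (BadT := BadT) hc hgap hsp hthin hX hX2 v (by
    obtain ⟨I, h1, h2⟩ := hI (X.take g.p0) v (by rw [List.length_take]; omega)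
    refine ⟨I, h1, fun k hk => ?_⟩
    obtain ⟨h3, h4, h5⟩ := h2 k hk
    refine ⟨h3, ?_, h5⟩
    rw [List.take_take, Nat.min_eq_left (hc k h3)] at h4
    exact h4)
  refine ⟨P, Q, e, hP, fun x P' hP' => ?_⟩
  -- the block in front of `P' ++ Q`
  have hblock : ∃ X' R', g.XX X' ∧ P' ++ Q = X' ++ R' := by
    obtain ⟨k', hk', hl', -⟩ := hP'
    obtain ⟨k, hk, l, hend, hgood, -⟩ := hQ
    have : ∃ l, g.CEnd Q P'.length l := by
      by_cases hkk : k' = k
      · subst hkk; exact ⟨l, by rw [hl']; exact hend⟩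
      · obtain ⟨l', h1, -⟩ := hgood k' hk' hkk
        exact ⟨l', by rw [hl']; exact h1⟩
    obtain ⟨l, hl⟩ := this
    refine ⟨P' ++ Q.take l, Q.drop l, g.xx_of_cend (by rw [hl']; exact hc k' hk') hl, ?_⟩
    rw [List.append_assoc, List.take_append_drop]
  obtain ⟨X', R', hX', he'⟩ := hblock
  by_cases hb' : g.BadX BadT X'
  · left
    obtain ⟨Y', hY', e1, e2⟩ := g.sound2 pre post hc hex (R := []) (R' := R') hX' hb' hP' hQ
      (by rw [List.append_nil]; exact he')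
    obtain ⟨Y, hY, e3, e4⟩ := g.sound2 pre post hc hex (R := []) (R' := X2) hX hbad hP hQ
      (by rw [List.append_nil]; exact e)
    have e5 : Y = X2 := by
      rw [e] at e3
      exact (List.append_cancel_left e3).symm
    subst e5
    exact ⟨X', ⟨hX', hb'⟩, Y', hY', e1.symm, by rw [e2, e4]⟩
  · right
    exact ⟨X', hX', hb', ⟨R', he'.symm⟩⟩

end joint

end Crest.Agent.R320.Fin_147
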