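import Crest.Agent.R320.SemTop_727
import Crest.Agent.R320.Sc2n_937
import Crest.Agent.R320.Fib_835
import Crest.Agent.R320.Grid_899
import Crest.Agent.R320.Thin_963
import Crest.Agent.R320.ExactR_237
import Crest.Agent.R320.Univ_582

/-! # Row 320: constants and join (helper150) -/

set_option autoImplicit false
set_option linter.unusedSectionVars false
set_option linter.unusedVariables false

namespace Crest.Agent.R320.Fin_150

open Crest.RegLang Crest.Agent.R320.Hk_851 Crest.Agent.R320.Blk467 Crest.Agent.R320.Sc2n_937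

/-! ### normalised noise -/

section nu

variable {α S V : Type} [Monoid S] [AddCommGroup V] (act : V → S → V) (phi : List α → S)
  (lam rho : List α → Option V) (nu : List α → V)

def Lg (u : List α) (v b : V) : Prop := ∃ P Q, u = P ++ Q ∧ lam P = some v ∧ rho Q = some b

open Classical in
noncomputable def nu' (u : List α) : V := if ∃ v b, Lg lam rho u v b then nu u else 0

variable {act phi lam rho nu}

theorem nu'_sound (hs : ∀ P Q v b, lam P = some v → rho Q = some b →
      b = act v (phi (P ++ Q)) + nu (P ++ Q)) (P Q : List α) (v b : V) (h1 : lam P = some v)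
    (h2 : rho Q = some b) : b = act v (phi (P ++ Q)) + nu' lam rho nu (P ++ Q) := by
  have : nu' lam rho nu (P ++ Q) = nu (P ++ Q) := by
    unfold nu'
    rw [if_pos ⟨v, b, P, Q, rfl, h1, h2⟩]
  rw [this]
  exact hs P Q v b h1 h2

theorem lg_congr (hphi : ∀ u v, phi (u ++ v) = phi u * phi v) (A Md : ℕ)
    (hlam : ∀ P v, lam P = some v → P.length < A)
    (hrho : ∀ Q Q' : List α, A ≤ Q.length → A ≤ Q'.length → Q.take A = Q'.take A →
      phi (Q.drop A) = phi (Q'.drop A) → Q.length ≡ Q'.length [MOD Md] → rho Q = rho Q')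
    {u u' : List α} (h1 : 2 * A ≤ u.length) (h2 : 2 * A ≤ u'.length)
    (h3 : u.take (2 * A) = u'.take (2 * A)) (h4 : phi (u.drop (2 * A)) = phi (u'.drop (2 * A)))
    (h5 : u.length ≡ u'.length [MOD Md]) {v b : V} (h : Lg lam rho u v b) :
    Lg lam rho u' v b := by
  obtain ⟨P, Q, rfl, hP, hQ⟩ := h
  have hi := hlam _ _ hP
  set i := P.length with hidef
  have hPt : P = u'.take i := by
    have : ((P ++ Q).take (2 * A)).take i = (u'.take (2 * A)).take i := by rw [h3]
    rw [List.take_take, List.take_take, min_eq_left (by omega), List.take_left' rfl] at this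
    exact this
  refine ⟨P, u'.drop i, ?_, hP, ?_⟩
  · conv_rhs => rw [hPt]
    exact (List.take_append_drop i u').symm
  · rw [← hQ]
    have hQd : Q = (P ++ Q).drop i := (List.drop_left' rfl).symm
    have hlen : (P ++ Q).length = i + Q.length := List.length_append
    symm
    refine hrho _ _ (by omega) (by rw [List.length_drop]; omega) ?_ ?_ ?_
    · have e1 : ((P ++ Q).drop i).take A = (((P ++ Q).take (2 * A)).drop i).take A := by
        rw [List.drop_take, List.take_take, min_eq_left (by omega)]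
      have e2 : (u'.drop i).take A = ((u'.take (2 * A)).drop i).take A := by
        rw [List.drop_take, List.take_take, min_eq_left (by omega)]
      rw [← h3, ← e1, ← hQd] at e2
      exact e2.symm
    · have key : ∀ w : List α, 2 * A ≤ w.length → phi ((w.drop i).drop A) =
          phi ((w.take (2 * A)).drop (i + A)) * phi (w.drop (2 * A)) := by
        intro w hw
        rw [← hphi]
        congr 1
        rw [List.drop_drop]
        conv_lhs => rw [← List.take_append_drop (2 * A) w]
        rw [List.drop_append_of_le_length (by rw [List.length_take]; omega)]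
      have e1 : Q.drop A = ((P ++ Q).drop i).drop A := by rw [← hQd]
      rw [e1, key _ h1, key _ h2, h3, h4]
    · rw [List.length_drop]
      have h6 : i + Q.length ≡ i + (u'.length - i) [MOD Md] := by
        rw [← hlen, show i + (u'.length - i) = u'.length by omega]; exact h5
      exact Nat.ModEq.add_left_cancel' i h6

theorem nu'_congr (hs : ∀ P Q v b, lam P = some v → rho Q = some b →
      b = act v (phi (P ++ Q)) + nu (P ++ Q))
    (hphi : ∀ u v, phi (u ++ v) = phi u * phi v) (A Md : ℕ)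
    (hlam : ∀ P v, lam P = some v → P.length < A)
    (hrho : ∀ Q Q' : List α, A ≤ Q.length → A ≤ Q'.length → Q.take A = Q'.take A →
      phi (Q.drop A) = phi (Q'.drop A) → Q.length ≡ Q'.length [MOD Md] → rho Q = rho Q')
    {u u' : List α} (h1 : 2 * A ≤ u.length) (h2 : 2 * A ≤ u'.length)
    (h3 : u.take (2 * A) = u'.take (2 * A)) (h4 : phi (u.drop (2 * A)) = phi (u'.drop (2 * A)))
    (h5 : u.length ≡ u'.length [MOD Md]) : nu' lam rho nu u = nu' lam rho nu u' := by
  classical
  have hphiu : phi u = phi u' := by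
    rw [← List.take_append_drop (2 * A) u, ← List.take_append_drop (2 * A) u', hphi, hphi, h3, h4]
  by_cases h : ∃ v b, Lg lam rho u v b
  · obtain ⟨v, b, hvb⟩ := h
    have hvb' := lg_congr hphi A Md hlam hrho h1 h2 h3 h4 h5 hvb
    unfold nu'
    rw [if_pos ⟨v, b, hvb⟩, if_pos ⟨v, b, hvb'⟩]
    obtain ⟨P, Q, rfl, hP, hQ⟩ := hvb
    obtain ⟨P', Q', rfl, hP', hQ'⟩ := hvb'
    have e1 := hs P Q v b hP hQ
    have e2 := hs P' Q' v b hP' hQ'
    rw [hphiu] at e1
    exact add_left_cancel (e1.symm.trans e2)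
  · have h' : ¬ ∃ v b, Lg lam rho u' v b := by
      rintro ⟨v, b, hvb⟩
      exact h ⟨v, b, lg_congr hphi A Md hlam hrho h2 h1 h3.symm h4.symm h5.symm hvb⟩
    unfold nu'
    rw [if_neg h, if_neg h']

end nu

/-! ### the join -/

theorem join {α S V : Type} [Finite α] [Monoid S] [Finite S] [AddCommGroup V] [Finite V]
    (act : V → S → V) (hadd : ∀ a b s, act (a + b) s = act a s + act b s)
    (hone : ∀ v, act v 1 = v) (hmul : ∀ v s t, act v (s * t) = act (act v s) t)
    (hfaith : ∀ s t, (∀ v, act v s = act v t) → s = t) (f : α → S)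
    (lam rho : List α → Option V) (nu : List α → V) (A Md : ℕ) (hMd : 0 < Md)
    (BadT : ℕ → Prop) (hlam : ∀ P v, lam P = some v → P.length < A)
    (hs : ∀ P Q v b, lam P = some v → rho Q = some b →
      b = act v ((P ++ Q).map f).prod + nu (P ++ Q))
    (hrho : ∀ Q Q' : List α, A ≤ Q.length → A ≤ Q'.length → Q.take A = Q'.take A →
      ((Q.drop A).map f).prod = ((Q'.drop A).map f).prod → Q.length ≡ Q'.length [MOD Md] →
      rho Q = rho Q')
    (hcomp : ∀ u : List α, 2 * A ≤ u.length → ¬ BadT u.length →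
      ∀ v, ∃ P Q, u = P ++ Q ∧ lam P = some v ∧ (rho Q).isSome)
    (K C0 : ℕ) (c : ℕ → ℕ) (p0 : ℕ) (hc : ∀ k, k < K → c k ≤ p0)
    (hsp : ∀ k k' l l', k < K → k' < K → l < K → l' < K → k' ≠ k → l' ≠ l →
      c k + c l' < c l + c k' + 2 * (A + 1) → c l + c k' < c k + c l' + 2 * (A + 1) → k = l)
    (hthin : ∀ τ, 2 * p0 + 2 * A ≤ τ → ∀ J : Finset ℕ, (∀ k ∈ J, k < K ∧
      ∃ k', k' < K ∧ k' ≠ k ∧ BadT (τ + c k' - c k - p0)) → J.card ≤ C0)
    (lam2 rho2 : ℕ → List α → Option V) (nu2 : List α → V)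
    (hex2 : ∀ k, k < K → ∀ (P Q : List α) (v b : V), P.length = c k →
      lam2 k P = some v → rho2 k Q = some b → b = act v ((P ++ Q).map f).prod + nu2 (P ++ Q))
    (hI2 : ∀ (u : List α) (v : V), (∀ k < K, c k ≤ u.length) →
      ∃ I : Finset ℕ, 2 * C0 + 2 ≤ I.card ∧ ∀ k ∈ I, k < K ∧ lam2 k (u.take (c k)) = some v ∧
        (rho2 k (u.drop (c k))).isSome) (s : S) :
    HL 3 ({w | (w.map f).prod = s} : Language α) := by
  classical
  obtain ⟨Wo, n, B, hn, hW⟩ := Fib_835.exists_walls α (2 * p0 + 2 * (A + 1) + 1) (by omega)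
  let g : Geo α :=
    { Wo := Wo, n := n, z := p0 + (A + 1) + (n + 3 * p0 + 2 * A + 1), p0 := p0,
      q0 := n + 3 * p0 + 2 * A + 1, N1 := A + 1, loc := hW.loc, hz := rfl, hq := by omega,
      hN := by omega, hqp := by omega }
  have hphi : ∀ u v : List α, ((u ++ v).map f).prod = (u.map f).prod * (v.map f).prod := by
    intro u v; simp
  set ν : List α → V := nu' lam rho nu with hν
  have hs' : ∀ P Q v b, lam P = some v → rho Q = some b →
      b = act v ((P ++ Q).map f).prod + ν (P ++ Q) := fun P Q v b h1 h2 =>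
    nu'_sound (phi := fun w => (w.map f).prod) hs P Q v b h1 h2
  let pre : List α → V → V := fun X0 v => act v (X0.map f).prod + nu2 X0
  let post : V → List α → V := fun v Y => act v (Y.map f).prod + ν Y
  have hlen : ∀ P v, lam P = some v → P.length ≤ g.N1 := fun P v h => by
    have := hlam P v h; show P.length ≤ A + 1; omega
  have hex1 : ∀ P Q u b, lam P = some u → rho Q = some b → b = post u (P ++ Q) :=
    fun P Q u b h1 h2 => hs' P Q u b h1 h2
  have hgap : ∀ P Q : List α, g.Wo P → g.Wo (P ++ Q) → Q ≠ [] →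
      2 * g.p0 + 2 * g.N1 < Q.length := by
    intro P Q h1 h2 h3
    by_contra hlt
    have h4 : 0 < Q.length := List.length_pos_iff.2 h3
    change ¬ (2 * p0 + 2 * (A + 1) < Q.length) at hlt
    refine hW.gap (P ++ Q) P.length (P.length + Q.length) (by omega) (by omega) (by simp) ?_ ?_
    · rw [List.take_left]; exact h1
    · rw [← List.length_append, List.take_length]; exact h2
  have hex2' : ∀ k, k < K → ∀ P Q v u, P.length = c k → Q.length = g.p0 - c k →
      lam2 k P = some v → rho2 k Q = some u → u = pre (P ++ Q) v :=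
    fun k hk P Q v u h1 _ h2 h3 => hex2 k hk P Q v u h1 h2 h3
  let D : SemTop_727.Sch α V :=
    { XX := {X | g.XX X}
      T := g.T pre post
      L1 := fun v => {P | g.LP1 pre lam v P}
      L2 := fun v => {P | Geo.LP2 K c lam2 v P} }
  -- scheme 1
  have good : ∀ X, g.XX X → ¬ g.BadX BadT X → X ∈ D.Good := by
    intro X hX hb
    refine ⟨hX, fun v => ?_⟩
    have hE : ¬ g.E X := fun h => hb (Or.inl h)
    have hT : ¬ BadT (X.length - p0) := fun h => hb (Or.inr h)
    have hXz : p0 + (A + 1) + (n + 3 * p0 + 2 * A + 1) ≤ X.length := hX.1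
    obtain ⟨P, Q, b, e, hP, hQ⟩ := g.complete1 pre hlen hX hE (fun u => by
      refine hcomp (X.drop g.p0) ?_ ?_ u
      · rw [List.length_drop]; show 2 * A ≤ X.length - p0; omega
      · rw [List.length_drop]; exact hT) v
    refine ⟨P, hP, Q, ?_, e.symm⟩
    intro x P' hP'
    have h1 := g.sound1 pre post hlen hex1 hP' hQ
    have h2 := g.sound1 pre post hlen hex1 hP hQ
    refine ⟨h1.1, ?_⟩
    change g.T pre post x (P' ++ Q) = g.T pre post v X
    rw [h1.2, e, h2.2]
  have bad : ∀ X, g.XX X → X ∉ D.Good → g.BadX BadT X := by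
    intro X hX h
    by_contra hb
    exact h (good X hX hb)
  have hpc : ∀ X Y R R' : List α, g.XX X → g.XX Y → X ++ R = Y ++ R' → X = Y :=
    fun X Y R R' h1 h2 h3 => g.prefix_code h1 h2 h3
  have hC : PCode D.XX := by
    refine ⟨fun h => ?_, fun X hX Y hY ⟨r, hr⟩ => hpc X Y r [] hX hY (by simpa using hr)⟩
    have : p0 + (A + 1) + (n + 3 * p0 + 2 * A + 1) ≤ ([] : List α).length := h.1
    simp at this
  have hC2 : ∀ X1 ∈ D.Bad, ∀ X2 ∈ D.Bad, ∀ x, ∃ P ∈ D.L2 x, ∃ Q ∈ D.R2 (D.T (D.T x X1) X2),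
      P ++ Q = X1 ++ X2 := by
    rintro X1 ⟨hX1, hb1⟩ X2 ⟨hX2, hb2⟩ x
    have hX1' : g.XX X1 := hX1
    have hX2' : g.XX X2 := hX2
    have hz1 : p0 + (A + 1) + (n + 3 * p0 + 2 * A + 1) ≤ X1.length := hX1'.1
    have hz2 : p0 + (A + 1) + (n + 3 * p0 + 2 * A + 1) ≤ X2.length := hX2'.1
    obtain ⟨P, Q, b, e, hP, hQ⟩ := g.complete2 pre post (BadT := BadT) (K := K) (c := c)
      (lam2 := lam2) (rho2 := rho2) (C0 := C0) hc hgap hsp (by
        intro τ hτ J hJ
        have hτ' : p0 + (A + 1) + (n + 3 * p0 + 2 * A + 1) ≤ τ + p0 := hτ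
        exact hthin τ (by omega) J hJ) hX1' hX2' x (by
        obtain ⟨I, h1, h2⟩ := hI2 (X1.take p0) x (fun k hk => by
          rw [List.length_take]; have := hc k hk; omega)
        refine ⟨I, h1, fun k hk => ?_⟩
        obtain ⟨h3, h4, h5⟩ := h2 k hk
        refine ⟨h3, ?_, h5⟩
        rwa [List.take_take, min_eq_left (hc k h3)] at h4)
    have hval : g.T pre post (g.T pre post x X1) X2 = b := by
      obtain ⟨X2', h1, h2, h3⟩ := g.sound2 pre post hc hex2' hX1' (bad X1 hX1' hb1) hP hQ
        (R := []) (R' := X2) (by rw [List.append_nil]; exact e)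
      have : X2' = X2 := List.append_cancel_left (h2.symm.trans e)
      rw [← this]; exact h3
    refine ⟨P, hP, Q, ?_, e⟩
    intro x' P' hP'
    have hPl : P.length ≤ p0 := by
      obtain ⟨k, hk, h1, _⟩ := hP; rw [h1]; exact hc k hk
    have hPl' : P'.length ≤ p0 := by
      obtain ⟨k, hk, h1, _⟩ := (hP' : Geo.LP2 K c lam2 x' P'); rw [h1]; exact hc k hk
    have hlenQ : P.length + Q.length = X1.length + X2.length := by
      rw [← List.length_append, e, List.length_append]
    have hWQ : Wo Q := by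
      have h1 : Wo (X1 ++ X2) := (hW.loc X1 X2 (by omega)).2 hX2'.2.1
      rw [← e] at h1
      exact (hW.loc P Q (by omega)).1 h1
    have hWw : Wo (P' ++ Q) := (hW.loc P' Q (by omega)).2 hWQ
    have hex : ∃ t, g.z ≤ t ∧ t ≤ (P' ++ Q).length ∧ Wo ((P' ++ Q).take t) := by
      refine ⟨(P' ++ Q).length, ?_, le_rfl, by rw [List.take_length]; exact hWw⟩
      rw [List.length_append]
      show p0 + (A + 1) + (n + 3 * p0 + 2 * A + 1) ≤ _
      omega
    obtain ⟨h1, h2, h3⟩ := Nat.find_spec hex
    set t := Nat.find hex with ht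
    have hXt : g.XX ((P' ++ Q).take t) := by
      refine ⟨?_, h3, ?_⟩
      · rw [List.length_take, min_eq_left h2]; exact h1
      · intro t' h4 h5 h6
        rw [List.length_take, min_eq_left h2] at h5
        rw [List.take_take, min_eq_left h5.le] at h6
        exact Nat.find_min hex h5 ⟨h4, by omega, h6⟩
    have hsplit : (P' ++ Q).take t ++ (P' ++ Q).drop t = P' ++ Q := List.take_append_drop _ _
    by_cases hg : (P' ++ Q).take t ∈ D.Good
    · exact Or.inr (Or.inl ⟨_, hg, List.take_prefix _ _⟩)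
    · obtain ⟨X2', h4, h5, h6⟩ := g.sound2 pre post hc hex2' hXt (bad _ hXt hg) hP' hQ
        (R := []) (R' := (P' ++ Q).drop t) (by rw [List.append_nil]; exact hsplit.symm)
      by_cases hg2 : X2' ∈ D.Good
      · exact Or.inr (Or.inr ⟨_, ⟨hXt, hg⟩, X2', hg2, by rw [← h5]⟩)
      · refine Or.inl ⟨_, ⟨hXt, hg⟩, X2', ⟨h4, hg2⟩, h5, ?_⟩
        change g.T pre post (g.T pre post x' ((P' ++ Q).take t)) X2' =
          g.T pre post (g.T pre post x X1) X2
        rw [h6, hval]
  have hL1 : ∀ x, (D.L1 x).Finite := by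
    intro x
    refine (List.finite_length_le α (p0 + A)).subset ?_
    rintro P ⟨h1, h2⟩
    have := hlam _ _ h2
    rw [List.length_drop] at this
    have h3 : p0 ≤ P.length := h1
    have h4 : P.length - p0 < A := this
    show P.length ≤ p0 + A
    omega
  have hL2 : ∀ x, (D.L2 x).Finite := by
    intro x
    refine (List.finite_length_le α p0).subset ?_
    rintro P ⟨k, hk, h1, -⟩
    show P.length ≤ p0
    rw [h1]; exact hc k hk
  have hXXeq : ∀ X, X ∈ D.XX ↔ X ∈ Fib_835.XX Wo g.z := fun X => Iff.rfl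
  have hTT : ∀ v X, D.T v X = act v (X.map f).prod +
      (act (nu2 (X.take p0)) ((X.drop p0).map f).prod + ν (X.drop p0)) := by
    intro v X
    change act (act v ((X.take p0).map f).prod + nu2 (X.take p0)) ((X.drop p0).map f).prod +
      ν (X.drop p0) = _
    rw [hadd, ← hmul, ← hphi, List.take_append_drop, add_assoc]
  have hcongr : ∀ (x : V) (X X' : List α), p0 + 2 * A ≤ X.length → p0 + 2 * A ≤ X'.length →
      X.take (p0 + 2 * A) = X'.take (p0 + 2 * A) →
      ((X.drop (p0 + 2 * A)).map f).prod = ((X'.drop (p0 + 2 * A)).map f).prod →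
      X.length % Md = X'.length % Md → D.T x X = D.T x X' := by
    intro x X X' h1 h2 h3 h4 h5
    have ht : X.take p0 = X'.take p0 := by
      have := congrArg (List.take p0) h3
      rwa [List.take_take, List.take_take, min_eq_left (by omega)] at this
    have hd : ∀ Z : List α, p0 + 2 * A ≤ Z.length → (Z.drop p0) =
        ((Z.take (p0 + 2 * A)).drop p0) ++ Z.drop (p0 + 2 * A) := by
      intro Z hZ
      conv_lhs => rw [← List.take_append_drop (p0 + 2 * A) Z]
      rw [List.drop_append_of_le_length (by rw [List.length_take]; omega)]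
    have hdp : ((X.drop p0).map f).prod = ((X'.drop p0).map f).prod := by
      rw [hd X h1, hd X' h2, hphi, hphi, h3, h4]
    have hnu : ν (X.drop p0) = ν (X'.drop p0) := by
      refine nu'_congr (phi := fun w => (w.map f).prod) hs hphi A Md hlam hrho ?_ ?_ ?_ ?_ ?_
      · rw [List.length_drop]; omega
      · rw [List.length_drop]; omega
      · have e : ∀ Z : List α, (Z.drop p0).take (2 * A) = (Z.take (p0 + 2 * A)).drop p0 := by
          intro Z
          rw [List.drop_take]; congr 1; omega
        rw [e, e, h3]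
      · simp only [List.drop_drop]
        exact h4
      · rw [List.length_drop, List.length_drop]
        have h6 : p0 + (X.length - p0) ≡ p0 + (X'.length - p0) [MOD Md] := by
          rw [show p0 + (X.length - p0) = X.length by omega,
            show p0 + (X'.length - p0) = X'.length by omega]
          exact h5
        exact Nat.ModEq.add_left_cancel' p0 h6
    change act (act x ((X.take p0).map f).prod + nu2 (X.take p0)) ((X.drop p0).map f).prod +
      ν (X.drop p0) = act (act x ((X'.take p0).map f).prod + nu2 (X'.take p0))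
      ((X'.drop p0).map f).prod + ν (X'.drop p0)
    rw [ht, hdp, hnu]
  have hfib : ∀ x y, HL 1 (D.fib x y) := by
    intro x y
    have h := (Fib_835.cl_XX hW hn g.z).fin_mod f (p0 + 2 * A) Md hMd
      (fun l t r => ∃ X : List α, p0 + 2 * A ≤ X.length ∧ X.take (p0 + 2 * A) = l ∧
        ((X.drop (p0 + 2 * A)).map f).prod = t ∧ X.length % Md = r ∧ D.T x X = y)
    refine HL.congr (M := {w | w ∈ Fib_835.XX Wo g.z ∧ ∃ X : List α, p0 + 2 * A ≤ X.length ∧
      X.take (p0 + 2 * A) = w.take (p0 + 2 * A) ∧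
        ((X.drop (p0 + 2 * A)).map f).prod = ((w.drop (p0 + 2 * A)).map f).prod ∧
        X.length % Md = w.length % Md ∧ D.T x X = y}) h fun w => ?_
    constructor
    · rintro ⟨h1, h2⟩
      have hz1 : p0 + (A + 1) + (n + 3 * p0 + 2 * A + 1) ≤ w.length := h1.1
      exact ⟨h1, w, by omega, rfl, rfl, rfl, h2⟩
    · rintro ⟨h1, X, h2, h3, h4, h5, h6⟩
      have hz1 : p0 + (A + 1) + (n + 3 * p0 + 2 * A + 1) ≤ w.length := h1.1
      refine ⟨h1, ?_⟩
      rw [← h6]
      exact (hcongr x X w h2 (by omega) h3 h4 h5).symm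
  have htail : ∀ s, HL (1 + 2) ({w | (∀ X ∈ D.XX, ¬ X <+: w) ∧ (w.map f).prod = s} : Language α) := by
    intro s
    have h : HL 1 ({w | w ∈ Fib_835.NX Wo g.z ∧ (w.map f).prod = s} : Language α) :=
      Fib_835.cl_NX hW hn g.z S f s
    refine (h.mono (by norm_num : 1 ≤ 1 + 2)).congr fun w => ?_
    constructor
    · rintro ⟨h1, h2⟩
      exact ⟨(Fib_835.mem_NX w).2 h1, h2⟩
    · rintro ⟨h1, h2⟩
      exact ⟨(Fib_835.mem_NX w).1 h1, h2⟩
  exact SemTop_727.top (k := 1) act hadd hone hmul hfaith f _ D hTT hC hfib hL1 hL2 hC2 htail s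

end Crest.Agent.R320.Fin_150
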