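import Crest.Agent.R320.Hk2_851

/-!
# Row 320: universe reduction (helper480)

It is enough to treat the fibres of `w ↦ ∏ f (w_i)` for finite monoids in `Type` (universe 0),
whatever the universe of the alphabet.
-/

set_option autoImplicit false

namespace Crest.Agent.R320.Univ_480

open Crest.RegLang Crest.Agent.R320.Hk_851

universe u v

variable {α : Type u} {k : ℕ}

/-- every finite monoid is isomorphic to one in `Type` -/
theorem exists_small (S : Type v) [Monoid S] [Finite S] :
    ∃ (S0 : Type) (_ : Monoid S0) (_ : Finite S0), Nonempty (S ≃* S0) := by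
  have : Small.{0} S := inferInstance
  exact ⟨Shrink.{0} S, inferInstance, Finite.of_equiv S (equivShrink S), ⟨(Shrink.mulEquiv (α := S)).symm⟩⟩

/-- fibres for monoids in `Type` give fibres for monoids in any universe -/
theorem fibre_of_small
    (h : ∀ (S : Type) [Monoid S] [Finite S] (f : α → S) (s : S),
      HL k ({w | (w.map f).prod = s} : Language α))
    (S : Type v) [Monoid S] [Finite S] (f : α → S) (s : S) :
    HL k ({w | (w.map f).prod = s} : Language α) := by
  obtain ⟨S0, hM, hF, ⟨e⟩⟩ := exists_small S
  refine (h S0 (fun a => e (f a)) (e s)).congr fun w => ?_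
  have key : (w.map (fun a => e (f a))).prod = e (w.map f).prod := by
    rw [map_list_prod, List.map_map]; rfl
  change (w.map f).prod = s ↔ (w.map (fun a => e (f a))).prod = e s
  rw [key]
  exact e.injective.eq_iff.symm

/-- **reduction to finite monoids in `Type`** -/
theorem of_monoid_zero [Finite α]
    (h : ∀ (S : Type) [Monoid S] [Finite S] (f : α → S) (s : S),
      HL k ({w | (w.map f).prod = s} : Language α))
    (L : Language α) (hL : L.IsRegular) : HL k L :=
  of_monoid (fun S _ _ f s => fibre_of_small h S f s) L hL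

/-- S0495 from the fibres of finite monoids in `Type` -/
theorem row_of_small [Finite α]
    (h : ∀ (S : Type) [Monoid S] [Finite S] (f : α → S) (s : S),
      HL 3 ({w | (w.map f).prod = s} : Language α))
    (L : Language α) (hL : L.IsRegular) : ∃ e : GRegExp α, e.height ≤ 3 ∧ e.lang = L :=
  of_monoid_zero h L hL

/-- it is also enough to treat alphabets in `Type` (for theorems stated with `A : Type`) -/
theorem row_of_small_alphabet [Finite α]
    (h : ∀ (A : Type) [Finite A] (S : Type) [Monoid S] [Finite S] (f : A → S) (s : S),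
      HL 3 ({w | (w.map f).prod = s} : Language A))
    (L : Language α) (hL : L.IsRegular) : ∃ e : GRegExp α, e.height ≤ 3 ∧ e.lang = L := by
  obtain ⟨n, ⟨e⟩⟩ := Finite.exists_equiv_fin α
  refine row_of_small (fun S _ _ f s => ?_) L hL
  obtain ⟨x, hx, hxe⟩ := h (Fin n) S (f ∘ e.symm) s
  -- rename letters
  have ren : ∀ y : GRegExp (Fin n), ∃ z : GRegExp α, z.height = y.height ∧
      ∀ w : List α, w ∈ z.lang ↔ w.map e ∈ y.lang := by
    intro y
    induction y with
    | zero => exact ⟨.zero, rfl, fun w => Iff.rfl⟩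
    | eps =>
      refine ⟨.eps, rfl, fun w => ?_⟩
      change w = [] ↔ w.map e = []
      rw [List.map_eq_nil_iff]
    | char a =>
      refine ⟨.char (e.symm a), rfl, fun w => ?_⟩
      change w = [e.symm a] ↔ w.map e = [a]
      constructor
      · rintro rfl; simp
      · intro hw
        have : (w.map e).map e.symm = [a].map e.symm := by rw [hw]
        simpa using this
    | union P Q ihP ihQ =>
      obtain ⟨p, hp, hp'⟩ := ihP
      obtain ⟨q, hq, hq'⟩ := ihQ
      refine ⟨.union p q, by simp [GRegExp.height, hp, hq], fun w => ?_⟩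
      change (w ∈ p.lang ∨ w ∈ q.lang) ↔ (w.map e ∈ P.lang ∨ w.map e ∈ Q.lang)
      rw [hp', hq']
    | cat P Q ihP ihQ =>
      obtain ⟨p, hp, hp'⟩ := ihP
      obtain ⟨q, hq, hq'⟩ := ihQ
      refine ⟨.cat p q, by simp [GRegExp.height, hp, hq], fun w => ?_⟩
      change w ∈ p.lang * q.lang ↔ w.map e ∈ P.lang * Q.lang
      rw [Language.mem_mul, Language.mem_mul]
      constructor
      · rintro ⟨a, ha, b, hb, rfl⟩
        exact ⟨a.map e, (hp' a).1 ha, b.map e, (hq' b).1 hb, by simp⟩
      · rintro ⟨a, ha, b, hb, hab⟩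
        obtain ⟨w1, w2, rfl, h1, h2⟩ := List.map_eq_append_iff.1 hab.symm
        exact ⟨w1, (hp' _).2 (h1 ▸ ha), w2, (hq' _).2 (h2 ▸ hb), rfl⟩
    | not P ihP =>
      obtain ⟨p, hp, hp'⟩ := ihP
      refine ⟨.not p, by simp [GRegExp.height, hp], fun w => ?_⟩
      change w ∉ p.lang ↔ w.map e ∉ P.lang
      rw [hp']
    | star P ihP =>
      obtain ⟨p, hp, hp'⟩ := ihP
      refine ⟨.star p, by simp [GRegExp.height, hp], fun w => ?_⟩
      change w ∈ KStar.kstar p.lang ↔ w.map e ∈ KStar.kstar P.lang
      rw [Language.mem_kstar, Language.mem_kstar]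
      constructor
      · rintro ⟨l, rfl, hl⟩
        refine ⟨l.map (List.map e), by rw [List.map_flatten], ?_⟩
        intro y hy
        obtain ⟨z, hz, rfl⟩ := List.mem_map.1 hy
        exact (hp' z).1 (hl z hz)
      · rintro ⟨l, hw, hl⟩
        refine ⟨l.map (List.map e.symm), ?_, ?_⟩
        · have : (w.map e).map e.symm = (l.flatten).map e.symm := by rw [hw]
          rw [List.map_map, List.map_flatten] at this
          simpa using this
        · intro y hy
          obtain ⟨z, hz, rfl⟩ := List.mem_map.1 hy
          rw [hp']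
          have := hl z hz
          simpa [List.map_map] using this
  obtain ⟨z, hz, hz'⟩ := ren x
  refine ⟨z, by rw [hz]; exact hx, ?_⟩
  ext w
  rw [hz', hxe]
  change ((w.map e).map (f ∘ e.symm)).prod = s ↔ (w.map f).prod = s
  rw [List.map_map]
  have : (f ∘ e.symm) ∘ e = f := by ext a; simp
  rw [this]

end Crest.Agent.R320.Univ_480
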