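import Crest.Agent.R320.Gad_155
import Crest.Agent.R320.Joint_47
import Crest.Agent.R320.Top5_110
import Crest.Agent.R320.Last_749
import Crest.Agent.R320.Two_621
import Crest.Agent.R320.Univ_480

/-!
# Row 320: final assembly (helper155)

Gadget `Gad_155.gad` + 237's exact gadget + 47's two completeness statements + 110's semantic top +
228's walls + 749's height one facts.
-/

set_option autoImplicit false

namespace Crest.Agent.R320.Fin_155

open Crest.RegLang Crest.Agent.R320.Hk_851 Crest.Agent.R320.FewWalls_228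
  Crest.Agent.R320.WallU_228 Crest.Agent.R320.Code110

theorem lw_of {α : Type} {n W : ℕ} {S : Set (List α)}
    (happ : ∀ P Q : List α, n ≤ Q.length → (Wo n S (P ++ Q) ↔ Wo n S Q))
    (hgap : ∀ (P : List α) (d : ℕ), Wo n S P → 0 < d → d ≤ W → ¬ Wo n S (P.take (P.length - d))) :
    Joint_47.LW n W (Wo n S) := by
  refine ⟨fun X h => h.1, happ, ?_⟩
  intro X s t hst ht hs h
  by_contra hc
  have hl : (X.take t).length = t := by rw [List.length_take]; omega
  refine hgap (X.take t) (t - s) h (by omega) (by omega) ?_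
  rw [hl, List.take_take]
  have : min (t - (t - s)) t = s := by omega
  rw [this]; exact hs

theorem bad_reg {α : Type} [Finite α] {Wo' : List α → Prop} {z N p0 Pm : ℕ} {Bd : ℕ → Prop}
    (hPm : 0 < Pm) (hper : ∀ T, Bd (T + Pm) ↔ Bd T) :
    Language.IsRegular ({u | Joint_47.Bad Wo' z N p0 Bd u} : Language α) := by
  have hper' : ∀ k T, Bd (T + Pm * k) ↔ Bd T := by
    intro k
    induction k with
    | zero => intro T; simp
    | succ k ih => intro T; rw [Nat.mul_succ, ← add_assoc, hper, ih]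
  have hpm : ∀ a b, a ≡ b [MOD Pm] → (Bd a ↔ Bd b) := by
    intro a b hab
    have hab' : a % Pm = b % Pm := hab
    rw [← Nat.mod_add_div a Pm, ← Nat.mod_add_div b Pm, hper', hper', hab']
  refine Bridge_975.reg_of_local (fun _ : α => (1 : Unit)) (z + N + p0) Pm hPm
    (fun u => Joint_47.Bad Wo' z N p0 Bd u) ?_
  intro q q2 h1 h2 h3 h4 _
  have ht : ∀ t, t < z + N → q.take t = q2.take t := by
    intro t ht
    have e1 : q.take t = (q.take (z + N + p0)).take t := by
      rw [List.take_take, min_eq_left (by omega)]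
    have e2 : q2.take t = (q2.take (z + N + p0)).take t := by
      rw [List.take_take, min_eq_left (by omega)]
    rw [e1, e2, h3]
  have hb : Bd (q.length - p0) ↔ Bd (q2.length - p0) := by
    apply hpm
    have h6 : q.length ≡ q2.length [MOD Pm] := h4
    have h7 : p0 + (q.length - p0) ≡ p0 + (q2.length - p0) [MOD Pm] := by
      rwa [Nat.add_sub_cancel' (by omega), Nat.add_sub_cancel' (by omega)]
    exact Nat.ModEq.add_left_cancel' _ h7
  unfold Joint_47.Bad
  rw [hb]
  refine or_congr ?_ Iff.rfl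
  constructor
  · rintro ⟨t, a, b, _, d⟩
    exact ⟨t, a, b, by omega, by rw [← ht t b]; exact d⟩
  · rintro ⟨t, a, b, _, d⟩
    exact ⟨t, a, b, by omega, by rw [ht t b]; exact d⟩

theorem count_of {K C0 : ℕ} {c : ℕ → ℕ} {Bd : ℕ → Prop}
    (hcnt : ∀ T : ℕ, (∀ k, k < K → c k ≤ T) → ∀ s : Finset (ℕ × ℕ),
        (∀ ab ∈ s, ab.1 < K ∧ ab.2 < K ∧ ab.1 ≠ ab.2 ∧ Bd (T + c ab.1 - c ab.2)) → s.card ≤ C0)
    (T : ℕ) (hT : ∀ k, k < K → c k ≤ T) (I : Finset ℕ)
    (hI : ∀ k ∈ I, k < K ∧ ∃ k', k' < K ∧ k' ≠ k ∧ Bd (T + c k' - c k)) : I.card ≤ C0 := by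
  classical
  choose h1 g h2 using hI
  let F : ℕ → ℕ × ℕ := fun k => if h : k ∈ I then (g k h, k) else (0, k)
  have hinj : Set.InjOn F I := by
    intro a ha b hb hab
    have ha' : a ∈ I := ha
    have hb' : b ∈ I := hb
    simp only [F, dif_pos ha', dif_pos hb'] at hab
    exact (Prod.mk.inj hab).2
  rw [← Finset.card_image_of_injOn hinj]
  refine hcnt T hT _ ?_
  intro ab hab
  obtain ⟨k, hk, rfl⟩ := Finset.mem_image.1 hab
  simp only [F, dif_pos hk]
  obtain ⟨a, b, d⟩ := h2 k hk
  exact ⟨a, h1 k hk, b, d⟩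

theorem fibre (α : Type) [Finite α] (S : Type) [Monoid S] [Finite S] (f : α → S) (s : S) :
    HL 3 ({w | (w.map f).prod = s} : Language α) := by
  classical
  have := Fintype.ofFinite S
  let V : Type := Two_621.Tok S
  haveI : Finite V := inferInstanceAs (Finite (S → ZMod 2))
  haveI := Fintype.ofFinite V
  let act : V → S → V := fun v t => Two_621.act v t
  obtain ⟨C0, hG⟩ := Gad_155.gad S V act
  obtain ⟨K, hK⟩ := ExactR_237.exact_gadget α S V f act (2 * C0 + 2)
  obtain ⟨N, N0, Pm, c, Bd, hPm, hper, hinc, hres, hcnt, hgad⟩ := hG K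
  obtain ⟨lam, rho, nu, g1, g2, g3, g4⟩ := hgad α f
  obtain ⟨lam2, rho2, nu2, e1, e2⟩ := hK c (fun i j h _ => hinc i j h)
  set p0 : ℕ := c K + 1 with hp0
  have hcp : ∀ k, k < K → c k ≤ p0 := fun k hk => by
    have := hinc k K hk
    omega
  obtain ⟨n, cc, P, S0, hn, hP, happ, hgap, -, -, hfew⟩ := walls_full (α := α) (2 * (N + p0) + 1)
  have hW := lw_of happ hgap
  set z : ℕ := 3 * p0 + n + N + N0 + 2 with hz
  let nu2' : List α → V := fun X => nu2 X 1
  let XX : Language α := (Joint_47.Zn (Wo n S0) z : Set (List α))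
  let Bad : Language α := {u | u ∈ Joint_47.Zn (Wo n S0) z ∧ Joint_47.Bad (Wo n S0) z N p0 Bd u}
  let T : List α → V → V := fun u v => Joint_47.T f act p0 nu2' nu v u
  have hXXe : ∀ u, u ∈ XX ↔ u ∈ Last_749.XX n S0 z := fun u => Iff.rfl
  have hTe : ∀ u v, T u v = act v (u.map f).prod +
      (act (nu2' (u.take p0)) ((u.drop p0).map f).prod + nu (u.drop p0)) := by
    intro u v
    have hs : (u.map f).prod = ((u.take p0).map f).prod * ((u.drop p0).map f).prod := by
      rw [← List.prod_append, ← List.map_append, List.take_append_drop]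
    show Joint_47.T f act p0 nu2' nu v u = _
    unfold Joint_47.T ExactR_237.pr
    simp only [act]
    rw [Two_621.act_add, Two_621.act_mul, hs, add_assoc]
  have hPC : PC XX := by
    refine ⟨?_, ?_⟩
    · intro h
      have h1 : z ≤ ([] : List α).length := h.1
      rw [List.length_nil] at h1
      omega
    · intro u hu v hv huv
      exact Joint_47.Zn_prefix hu hv huv (List.prefix_refl v)
  refine Top5_110.top_sem (φ := fun w : List α => (w.map f).prod) (act := act) (XX := XX)
    (Bad := Bad) (T := T) (N1 := 0) (N2 := 1)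
    (L1 := fun v => {p | Joint_47.L1 f act p0 nu2' lam v p})
    (L2 := fun v => {p | Joint_47.L2 K c lam2 v p}) (by simp) (by intro u w; simp) ?_ ?_ ?_
    hPC (fun u hu => hu.1) ?_ ?_ ?_ ?_ ?_ ?_ ?_ ?_ ?_ s
  · intro v; exact Two_621.act_one v
  · intro v s t; exact (Two_621.act_mul v s t).symm
  · intro s t h; exact Two_621.act_faithful h
  · -- hT
    intro u _ v v'
    rw [hTe, hTe]
    rw [add_sub_add_right_eq_sub]
    funext x
    rfl
  · exact (Last_749.HL_XX (k := 1) n S0 z)
  · -- Bad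
    have hreg : Language.IsRegular ((Last_749.XX n S0 z : Language α) ⊓
        ({u | Joint_47.Bad (Wo n S0) z N p0 Bd u} : Language α)) :=
      (Reg_852.HL.isRegular (Last_749.HL_XX (k := 0) n S0 z)).inf (bad_reg hPm hper)
    refine (hfew _ hreg (z + 1)).congr fun w => ?_
    constructor
    · rintro ⟨h1, h2⟩
      exact ⟨⟨h1, h2⟩, Last_749.nw_XX h1⟩
    · rintro ⟨⟨h1, h2⟩, _⟩
      exact ⟨h1, h2⟩
  · -- fibres of T
    intro x y
    refine (Last_749.hfib hfew z act f
      (fun X => act (nu2' (X.take p0)) ((X.drop p0).map f).prod + nu (X.drop p0))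
      (Last_749.reg_nu act f p0 nu2' nu g4) x y).congr fun w => ?_
    constructor
    · rintro ⟨h1, h2⟩
      exact ⟨h1, by rw [← hTe]; exact h2⟩
    · rintro ⟨h1, h2⟩
      exact ⟨h1, by rw [hTe]; exact h2⟩
  · -- rest
    intro s
    exact ((Last_749.HL_rest hfew z f s).mono (by norm_num)).congr fun w => Iff.rfl
  · -- F1
    intro v
    refine (List.finite_length_le α (p0 + N)).subset ?_
    rintro p ⟨h1, h2⟩
    have := g1 _ _ h2
    rw [List.length_drop] at this
    show p.length ≤ p0 + N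
    omega
  · -- F2
    intro v
    refine (List.finite_length_le α p0).subset ?_
    rintro p ⟨k, h1, h2, _⟩
    have := hcp k h1
    show p.length ≤ p0
    omega
  · -- C1
    intro u hu hb x t ht
    have ht0 : t = [] := by
      rw [pow_zero] at ht
      exact ht
    subst ht0
    have hnb : ¬ Joint_47.Bad (Wo n S0) z N p0 Bd u := fun h => hb ⟨hu, h⟩
    obtain ⟨p, q, h1, h2, h3, h4⟩ := Joint_47.complete1 f act p0 nu2' nu hW (N1 := N) (N0 := N0)
      (z := z) (BadT := Bd) (lam := lam) (rho := rho) (fun P Q v r h h' => g2 P Q v r h h')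
      (fun P v h => g1 P v h) (fun Y hY hY2 v => g3 Y hY hY2 v) (by omega) (by omega) hu hnb x
    refine ⟨p, q, T u x, by rw [List.append_nil]; exact h1, h2, ?_⟩
    intro x' p' hp'
    obtain ⟨h5, h6⟩ := h4 x' p' hp'
    left
    refine ⟨T u x, Language.mem_mul.2 ⟨p' ++ q, ⟨h5, h6⟩, [], ⟨rfl, rfl⟩, List.append_nil _⟩⟩
  · -- C2
    intro u hu x t ht
    have ht1 : t ∈ Bad := by
      rw [pow_one] at ht
      exact ht
    obtain ⟨p, q, h1, h2, h3, h4⟩ := Joint_47.complete2 f act p0 nu hW (N1 := N) (z := z) (K := K)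
      (N0 := 0) (R1 := C0) (BadT := Bd) (c := c) (lam2 := lam2) (rho2 := rho2) (nu2' := nu2)
      (fun k hk P Q y v b a1 a2 a3 => e1 k hk P Q y v b a1 a2 a3)
      (fun u y v h => e2 u y v h) (fun i j h _ => hinc i j h) hcp
      (by
        intro i i' j j' _ _ _ _ hi hj a1 a2
        rcases hres i i' j j' (Ne.symm hi) with ⟨h, _⟩ | h
        · exact h
        · exfalso
          rw [lt_abs] at h
          rcases h with h | h <;> omega)
      (fun T' _ hT' I hI => count_of hcnt T' hT' I hI) (by omega) (by omega) hu.1 ht1.1 hu.2 x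
    refine ⟨p, q, T t (T u x), h1, h2, ?_⟩
    intro x' p' hp'
    rcases h4 x' p' hp' with ⟨a, a1, a2, a3, a4⟩ | ⟨a, a1, a2, a3⟩
    · left
      refine ⟨T u x, Language.mem_mul.2 ⟨a, ⟨⟨a1, a2⟩, a4⟩, t, ?_, a3.symm⟩⟩
      exact ⟨T t (T u x), Language.mem_mul.2 ⟨t, ⟨ht1, rfl⟩, [], ⟨rfl, rfl⟩, List.append_nil _⟩⟩
    · right
      exact Or.inl ⟨a, a1, fun h => a2 h.2, a3⟩

theorem row {α : Type*} [Finite α] (L : Language α) (hL : L.IsRegular) :
    ∃ e : GRegExp α, e.height ≤ 3 ∧ e.lang = L :=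
  Univ_480.row_of_small_alphabet (fun A _ S _ _ f s => fibre A S f s) L hL

end Crest.Agent.R320.Fin_155
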