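import Crest.Agent.R320.Top5_120
import Crest.Agent.R320.Sc2n_937
import Crest.Agent.R320.Grid_899
import Crest.Agent.R320.Thin_963
import Crest.Agent.R320.ExactR_237
import Crest.Agent.R320.LWallAll_922
import Crest.Agent.R320.P4_933
import Crest.Agent.R320.Block_467
import Crest.Agent.R320.Bridge_975

/-!
Row 320, helper158: the join (constants and instance) over landed files.
-/

set_option autoImplicit false
set_option linter.unusedVariables false

namespace Crest.Agent.R320.Fin_158

open Crest.RegLang Crest.Agent.R320.Hk_851 Crest.Agent.R320.Sc2n_937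

/-! ### the grid gadget with a finite-state noise -/

theorem gad (S V : Type) [Monoid S] [Finite S] [AddCommGroup V] [Finite V]
    (act : V → S → V) :
    ∃ (k m : ℕ), ∀ q : Fin k → ℕ, (∀ j, Odd (q j)) →
      Pairwise (fun i j => Nat.Coprime (q i) (q j)) → ∀ κ : ℕ,
      ∀ (α : Type) (phi : List α → S), (∀ u v, phi (u ++ v) = phi u * phi v) →
      ∃ (lam rho : List α → Option V) (nu : List α → V) (B : ℕ),
        (∀ P v, lam P = some v → P.length < Grid_899.Am (∏ j, q j) κ m) ∧
        (∀ P Q v b, lam P = some v → rho Q = some b → b = act v (phi (P ++ Q)) + nu (P ++ Q)) ∧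
        (∀ u : List α, 2 * Grid_899.Am (∏ j, q j) κ (m + 1) ≤ u.length →
          (∀ j, ¬ q j ∣ u.length) →
          (∀ j, 1 ≤ j → j ≤ m →
            (∏ j, q j) * Grid_899.G κ (j - 1) ≤
              (u.length - Grid_899.Am (∏ j, q j) κ j) % Grid_899.G κ j ∧
            (u.length - Grid_899.Am (∏ j, q j) κ j) % Grid_899.G κ j +
              (∏ j, q j) * Grid_899.G κ (j - 1) ≤ Grid_899.G κ j) →
          ∀ v, ∃ P Q, u = P ++ Q ∧ lam P = some v ∧ (rho Q).isSome) ∧
        (∀ w t t' : List α, B ≤ w.length → phi t = phi t' →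
          t.length ≡ t'.length [MOD (∏ j, q j) * Grid_899.G κ m] → nu (w ++ t) = nu (w ++ t')) := by
  classical
  obtain ⟨k, m, H⟩ := Grid_899.grid_gadget_reg S V act
  refine ⟨k, m, fun q hq hc κ α phi hphi => ?_⟩
  obtain ⟨lam, rho, nu, h1, h2, h3, h4, h5⟩ := H q hq hc κ α phi hphi
  refine ⟨lam, rho, nu, Grid_899.Am (∏ j, q j) κ (m + 1),
    fun P v h => (h1 P v h).1, h3, h4, ?_⟩
  intro w t t' hw hphit hlen
  refine (h5 (w ++ t) (w ++ t') ?_ ?_ ?_ ?_ ?_).2
  · rw [List.length_append]; omega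
  · rw [List.length_append]; omega
  · rw [List.take_append_of_le_length hw, List.take_append_of_le_length hw]
  · rw [List.drop_append_of_le_length hw, List.drop_append_of_le_length hw,
      hphi, hphi, hphit]
  · rw [List.length_append, List.length_append]
    exact Nat.ModEq.add_left _ hlen

/-! ### the bad totals -/

/-- bad totals, natural form -/
def BT (k : ℕ) (q : Fin k → ℕ) (κ m : ℕ) (T : ℕ) : Prop :=
  Thin963.BadT (Finset.univ.image q) m (fun i => (Grid_899.G κ i : ℤ))
    (fun i => (((∏ j, q j) * Grid_899.G κ i : ℕ) : ℤ))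
    (fun i => (Grid_899.Am (∏ j, q j) κ i : ℤ)) (T : ℤ)

theorem clean_of_not_BT {k : ℕ} {q : Fin k → ℕ} {κ m T : ℕ}
    (hT : Grid_899.Am (∏ j, q j) κ (m + 1) ≤ T)
    (hmono : ∀ j, j ≤ m → Grid_899.Am (∏ j, q j) κ j ≤ Grid_899.Am (∏ j, q j) κ (m + 1))
    (h : ¬ BT k q κ m T) :
    (∀ j, ¬ q j ∣ T) ∧ (∀ j, 1 ≤ j → j ≤ m →
      (∏ j, q j) * Grid_899.G κ (j - 1) ≤ (T - Grid_899.Am (∏ j, q j) κ j) % Grid_899.G κ j ∧
      (T - Grid_899.Am (∏ j, q j) κ j) % Grid_899.G κ j + (∏ j, q j) * Grid_899.G κ (j - 1) ≤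
        Grid_899.G κ j) := by
  constructor
  · intro j hj
    exact h (Or.inl ⟨q j, Finset.mem_image.2 ⟨j, Finset.mem_univ _, rfl⟩, by exact_mod_cast hj⟩)
  · intro j h1 hjm
    have hA := hmono j hjm
    set A := Grid_899.Am (∏ j, q j) κ j with hAdef
    set g := Grid_899.G κ j with hg
    set c := (∏ j, q j) * Grid_899.G κ (j - 1) with hc
    have hgpos : 0 < g := by rw [hg]; unfold Grid_899.G; positivity
    have hj' : j - 1 + 1 = j := by omega
    have hdm := Nat.div_add_mod (T - A) g
    have hlt := Nat.mod_lt (T - A) hgpos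
    have hTA : ((T - A : ℕ) : ℤ) = (T : ℤ) - A := by
      rw [Nat.cast_sub (by omega)]
    constructor
    · by_contra hcon
      push Not at hcon
      apply h
      refine Or.inr ⟨j - 1, by omega, -(((T - A) % g : ℕ) : ℤ), ?_, ?_⟩
      · simp only
        rw [abs_neg, Nat.abs_cast]
        exact_mod_cast hcon.le
      · simp only
        rw [hj']
        refine ⟨(((T - A) / g : ℕ) : ℤ), ?_⟩
        have : ((g * ((T - A) / g) + (T - A) % g : ℕ) : ℤ) = ((T - A : ℕ) : ℤ) := by rw [hdm]
        push_cast at this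
        rw [← hAdef, ← hg]
        push_cast
        linarith
    · by_contra hcon
      push Not at hcon
      apply h
      refine Or.inr ⟨j - 1, by omega, ((g - (T - A) % g : ℕ) : ℤ), ?_, ?_⟩
      · simp only
        rw [Nat.abs_cast]
        exact_mod_cast (by omega : g - (T - A) % g ≤ c)
      · simp only
        rw [hj']
        refine ⟨(((T - A) / g : ℕ) : ℤ) + 1, ?_⟩
        have : ((g * ((T - A) / g) + (T - A) % g : ℕ) : ℤ) = ((T - A : ℕ) : ℤ) := by rw [hdm]
        push_cast at this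
        rw [← hAdef, ← hg, Nat.cast_sub hlt.le]
        push_cast
        linarith

theorem BT_congr {k : ℕ} {q : Fin k → ℕ} {κ m T T' : ℕ}
    (h : T ≡ T' [MOD (∏ j, q j) * Grid_899.G κ m]) (hB : BT k q κ m T) : BT k q κ m T' := by
  have h1 : (((∏ j, q j) * Grid_899.G κ m : ℕ) : ℤ) ∣ (T' : ℤ) - T :=
    (Nat.modEq_iff_dvd).1 h
  rcases hB with ⟨p, hp, hd⟩ | ⟨i, hi, e, he, hd⟩
  · refine Or.inl ⟨p, hp, ?_⟩
    obtain ⟨j, -, rfl⟩ := Finset.mem_image.1 hp
    have h2 : ((q j : ℕ) : ℤ) ∣ (((∏ j, q j) * Grid_899.G κ m : ℕ) : ℤ) := by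
      exact_mod_cast (Finset.dvd_prod_of_mem q (Finset.mem_univ j)).mul_right _
    have h3 := dvd_add hd (h2.trans h1)
    have e3 : (T : ℤ) + ((T' : ℤ) - T) = T' := by ring
    rwa [e3] at h3
  · refine Or.inr ⟨i, hi, e, he, ?_⟩
    simp only at hd ⊢
    have h2 : ((Grid_899.G κ (i + 1) : ℕ) : ℤ) ∣ (((∏ j, q j) * Grid_899.G κ m : ℕ) : ℤ) := by
      have : Grid_899.G κ (i + 1) ∣ Grid_899.G κ m := by
        unfold Grid_899.G
        exact pow_dvd_pow 2 (Nat.mul_le_mul_left κ hi)
      exact_mod_cast this.mul_left _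
    have h3 := dvd_add hd (h2.trans h1)
    have e3 : (T : ℤ) - (Grid_899.Am (∏ j, q j) κ (i + 1) : ℤ) + e + ((T' : ℤ) - T)
      = (T' : ℤ) - (Grid_899.Am (∏ j, q j) κ (i + 1) : ℤ) + e := by ring
    rwa [e3] at h3

theorem Am_mono (Ms κ : ℕ) {i j : ℕ} (h : i ≤ j) : Grid_899.Am Ms κ i ≤ Grid_899.Am Ms κ j := by
  induction j with
  | zero => rw [Nat.le_zero.1 h]
  | succ j ih =>
    rcases Nat.lt_or_ge i (j + 1) with h1 | h1
    · refine (ih (by omega)).trans ?_
      show Grid_899.Am Ms κ j ≤ Grid_899.Am Ms κ j + Grid_899.G κ j + Ms * Grid_899.G κ j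
      omega
    · have : i = j + 1 := by omega
      rw [this]


/-! ### the instance -/

theorem pn_of_wallfree {α : Type} {B W : ℕ} {u x v X : List α} {k : ℕ} (h1 : u.length ≤ B)
    (h2 : x.length ≤ W) (h3 : v.length ≤ B) (e : X = u ++ (List.replicate k x).flatten ++ v) :
    X ∈ (BddReg_746.PN (B + W) 2 : Language α) := by
  refine Language.mem_mul.2 ⟨u ++ BddReg_746.pw x k, ⟨u, x, k, by omega, by omega, rfl⟩, v, ?_, ?_⟩
  · refine Language.mem_mul.2 ⟨v, ⟨v, [], 0, by omega, by simp, by simp [BddReg_746.pw]⟩, [], rfl,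
      by simp⟩
  · rw [e]; rfl

theorem inst {α : Type} [Finite α] {S : Type} [Monoid S] [Finite S] (f : α → S)
    {V : Type} [AddCommGroup V] [Finite V] (act : V → S → V)
    (hadd : ∀ a b s, act (a + b) s = act a s + act b s)
    (hone : ∀ v, act v 1 = v) (hmul : ∀ v s t, act v (s * t) = act (act v s) t)
    (hfaith : ∀ s t, (∀ v, act v s = act v t) → s = t)
    (g : Geo α) (hWlen : ∀ P, g.Wo P → g.n ≤ P.length) (Bf Rf : ℕ)
    (free : ∀ u : List α, (∀ t < u.length, ¬ g.Wo (u.take t)) →
      u ∈ (BddReg_746.PN Bf Rf : Language α))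
    (lam rho : List α → Option V) (nu1 : List α → V) (B Pm : ℕ) (hPm : 0 < Pm)
    (g1 : ∀ P v, lam P = some v → P.length ≤ g.N1)
    (g2 : ∀ P Q v b, lam P = some v → rho Q = some b →
      b = act v (((P ++ Q).map f).prod) + nu1 (P ++ Q))
    (BadT : ℕ → Prop)
    (g3 : ∀ u : List α, g.N1 + g.q0 ≤ u.length → ¬ BadT u.length → ∀ v, ∃ P Q, u = P ++ Q ∧
      lam P = some v ∧ (rho Q).isSome)
    (g4 : ∀ w t t' : List α, B ≤ w.length → (t.map f).prod = (t'.map f).prod →
      t.length ≡ t'.length [MOD Pm] → nu1 (w ++ t) = nu1 (w ++ t'))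
    (bt : ∀ T T', T ≡ T' [MOD Pm] → BadT T → BadT T')
    (K C0 : ℕ) (c : ℕ → ℕ) (hc : ∀ k, k < K → c k ≤ g.p0)
    (lam2 rho2 : ℕ → List α → Option V) (nu2 : List α → V)
    (e1 : ∀ k, k < K → ∀ P Q v u, P.length = c k → Q.length = g.p0 - c k →
      lam2 k P = some v → rho2 k Q = some u →
      u = act v (((P ++ Q).map f).prod) + nu2 (P ++ Q))
    (e2 : ∀ (u : List α) (v : V), u.length = g.p0 → ∃ I : Finset ℕ, 2 * C0 + 2 ≤ I.card ∧
      ∀ k ∈ I, k < K ∧ lam2 k (u.take (c k)) = some v ∧ (rho2 k (u.drop (c k))).isSome)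
    (hgap : ∀ P Q : List α, g.Wo P → g.Wo (P ++ Q) → Q ≠ [] → 2 * g.p0 + 2 * g.N1 < Q.length)
    (hsp : ∀ k k' l l', k < K → k' < K → l < K → l' < K → k' ≠ k → l' ≠ l →
      c k + c l' < c l + c k' + 2 * g.N1 → c l + c k' < c k + c l' + 2 * g.N1 → k = l)
    (hthin : ∀ τ, g.z ≤ τ + g.p0 → ∀ J : Finset ℕ, (∀ k ∈ J, k < K ∧
      ∃ k', k' < K ∧ k' ≠ k ∧ BadT (τ + c k' - c k - g.p0)) → J.card ≤ C0)
    (s : S) : HL 3 ({w | (w.map f).prod = s} : Language α) := by
  classical
  let pre : List α → V → V := fun X v => act v ((X.map f).prod) + nu2 X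
  let post : V → List α → V := fun u Y => act u ((Y.map f).prod) + nu1 Y
  let nu : List α → V := fun X =>
    act (nu2 (X.take g.p0)) (((X.drop g.p0).map f).prod) + nu1 (X.drop g.p0)
  have hT : ∀ v X, act v ((X.map f).prod) + nu X = g.T pre post v X := by
    intro v X
    show act v ((X.map f).prod) + (act (nu2 (X.take g.p0)) (((X.drop g.p0).map f).prod) +
      nu1 (X.drop g.p0)) = act (act v (((X.take g.p0).map f).prod) + nu2 (X.take g.p0))
        (((X.drop g.p0).map f).prod) + nu1 (X.drop g.p0)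
    rw [hadd, ← hmul, ← List.prod_append, ← List.map_append, List.take_append_drop, add_assoc]
  let C : Set (List α) := {X | g.XX X}
  let Bad : Set (List α) := {X | g.XX X ∧ g.BadX BadT X}
  have hzp : 0 < g.z := by have := g.hz; have := g.hN; omega
  have hC : Blk467.PCode C := by
    refine ⟨fun h => ?_, fun X hX Y hY h => ?_⟩
    · have h1 : g.z ≤ ([] : List α).length := h.1
      simp at h1
      omega
    · obtain ⟨t, ht⟩ := h
      exact g.prefix_code (R := t) (R' := []) hX hY (by rw [ht, List.append_nil])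
  have hBC : Bad ⊆ C := fun X hX => hX.1
  let L1 : V → Set (List α) := fun v => {P | g.LP1 pre lam v P}
  let L2 : V → Set (List α) := fun v => {P | Geo.LP2 K c lam2 v P}
  have hf1 : ∀ v, (L1 v).Finite := by
    intro v
    refine (List.finite_length_le α (g.p0 + g.N1)).subset fun P hP => ?_
    have h1 := g1 _ _ hP.2
    rw [List.length_drop] at h1
    show P.length ≤ g.p0 + g.N1
    omega
  have hf2 : ∀ v, (L2 v).Finite := by
    intro v
    refine (List.finite_length_le α g.p0).subset fun P hP => ?_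
    obtain ⟨k, hk, h1, h2⟩ := hP
    show P.length ≤ g.p0
    rw [h1]; exact hc k hk
  -- locality of the noise
  have nuloc : ∀ w t t' : List α, g.p0 + B ≤ w.length → (t.map f).prod = (t'.map f).prod →
      t.length ≡ t'.length [MOD Pm] → nu (w ++ t) = nu (w ++ t') := by
    intro w t t' hw h1 h2
    show act (nu2 ((w ++ t).take g.p0)) ((((w ++ t).drop g.p0).map f).prod) +
      nu1 ((w ++ t).drop g.p0) = act (nu2 ((w ++ t').take g.p0)) ((((w ++ t').drop g.p0).map f).prod) +
      nu1 ((w ++ t').drop g.p0)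
    rw [List.take_append_of_le_length (by omega), List.take_append_of_le_length (by omega),
      List.drop_append_of_le_length (by omega), List.drop_append_of_le_length (by omega),
      List.map_append, List.map_append, List.prod_append, List.prod_append, h1,
      g4 _ t t' (by rw [List.length_drop]; omega) h1 h2]
  have prodloc : ∀ w t t' : List α, (t.map f).prod = (t'.map f).prod →
      ((w ++ t).map f).prod = ((w ++ t').map f).prod := by
    intro w t t' h1
    rw [List.map_append, List.map_append, List.prod_append, List.prod_append, h1]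
  have reg : ∀ (p : List α → Prop) (La : ℕ), (∀ w t t' : List α, La ≤ w.length →
      (t.map f).prod = (t'.map f).prod → t.length ≡ t'.length [MOD Pm] → p (w ++ t) →
      p (w ++ t')) → Language.IsRegular ({q | p q} : Language α) := by
    intro p La hp
    refine Bridge_975.reg_of_local f La Pm hPm p ?_
    intro q q2 h1 h2 h3 h4 h5
    have d1 : q.drop La |>.length ≡ (q2.drop La).length [MOD Pm] := by
      rw [List.length_drop, List.length_drop]
      have h6 : La + (q.length - La) ≡ La + (q2.length - La) [MOD Pm] := by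
        rw [Nat.add_sub_cancel' h1, Nat.add_sub_cancel' h2]; exact h4
      exact Nat.ModEq.add_left_cancel' La h6
    have hl : La ≤ (q.take La).length := by rw [List.length_take]; omega
    constructor
    · intro h
      have h7 := hp (q.take La) (q.drop La) (q2.drop La) hl h5 d1
        (by rw [List.take_append_drop]; exact h)
      rw [h3, List.take_append_drop] at h7
      exact h7
    · intro h
      have h7 := hp (q.take La) (q2.drop La) (q.drop La) hl h5.symm d1.symm
        (by rw [h3, List.take_append_drop]; exact h)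
      rw [List.take_append_drop] at h7
      exact h7
  have xxiff : ∀ X, g.XX X ↔ P4_933.XX g.Wo g.z X := fun X =>
    ⟨fun h => ⟨h.2.1, h.1, fun t ht hz => h.2.2 t hz ht⟩,
      fun h => ⟨h.2.1, h.1, fun t hz ht => h.2.2 t ht hz⟩⟩
  have hCT : ∀ x y, HL 1 ({X | X ∈ C ∧ act x (X.map f).prod + nu X = y} : Language α) := by
    intro x y
    have h1 := reg (fun X => act x (X.map f).prod + nu X = y) (g.p0 + B) (by
      intro w t t' hw h1 h2 h3

      rw [← nuloc w t t' hw h1 h2, ← prodloc w t t' h1]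
      exact h3)
    refine (P4_933.hl_XX (z := g.z) g.loc hWlen free h1).congr fun w => ?_
    exact and_congr (xxiff w) Iff.rfl
  have hBT : ∀ x y, HL 1 ({X | X ∈ Bad ∧ act x (X.map f).prod + nu X = y} : Language α) := by
    intro x y
    have h1 := reg (fun X => g.BadX BadT X ∧ act x (X.map f).prod + nu X = y)
      (g.p0 + B + g.z + g.N1) (by
      intro w t t' hw h1 h2 h3

      rw [← nuloc w t t' (by omega) h1 h2, ← prodloc w t t' h1]
      refine ⟨?_, h3.2⟩
      rcases h3.1 with ⟨i, hi, hwi, hz1, hz2⟩ | hb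
      · refine Or.inl ⟨i, by rw [List.length_append]; omega, ?_, hz1, hz2⟩
        rw [List.take_append_of_le_length (by omega)] at hwi ⊢
        exact hwi
      · refine Or.inr (bt _ _ ?_ hb)
        rw [List.length_append, List.length_append,
          show w.length + t.length - g.p0 = (w.length - g.p0) + t.length by omega,
          show w.length + t'.length - g.p0 = (w.length - g.p0) + t'.length by omega]
        exact Nat.ModEq.add_left _ h2)
    refine (P4_933.hl_XX (z := g.z) g.loc hWlen free h1).congr fun w => ?_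
    constructor
    · rintro ⟨⟨h2, h3⟩, h4⟩
      exact ⟨(xxiff w).1 h2, h3, h4⟩
    · rintro ⟨h2, h3, h4⟩
      exact ⟨⟨(xxiff w).2 h2, h3⟩, h4⟩
  have htail : ∀ s, HL 1 ({w | (∀ X ∈ C, ¬ X <+: w) ∧ (w.map f).prod = s} : Language α) := by
    intro s
    have h1 := reg (fun X => (X.map f).prod = s) 0 (by
      intro w t t' hw h1 h2 h3

      rw [← prodloc w t t' h1]
      exact h3)
    refine (P4_933.hl_NB (z := g.z) g.loc hWlen free h1).congr fun w => ?_
    refine and_congr ?_ Iff.rfl
    rw [P4_933.NB_iff]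
    constructor
    · intro h P hP hx
      exact h P ((xxiff P).2 hx) hP
    · intro h X hX hp
      exact h X hp ((xxiff X).1 hX)
  have s1 : ∀ v b P Q, g.LP1 pre lam v P → g.RQ1 rho b Q →
      g.XX (P ++ Q) ∧ g.T pre post v (P ++ Q) = b := fun v b P Q hP hQ =>
    g.sound1 pre post g1 (fun P Q u b h1 h2 => g2 P Q u b h1 h2) hP hQ
  refine Top5_120.top5 act hadd hone hmul hfaith f nu C Bad hC hBC L1 L2 hf1 hf2 hCT hBT htail
    ?_ ?_ s
  · intro X hX hXb v
    have hnb : ¬ g.BadX BadT X := fun h => hXb ⟨hX, h⟩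
    have hz := g.hz
    have hXz := hX.1
    obtain ⟨P, Q, b, e, hP, hQ⟩ := g.complete1 pre (lam := lam) (rho := rho) g1 hX
      (fun h => hnb (Or.inl h)) (fun u => g3 _ (by rw [List.length_drop]; omega) (fun h =>
        hnb (Or.inr (by rw [List.length_drop] at h; exact h))) u) v
    refine ⟨P, Q, e.symm, hP, fun x P' hP' => ?_⟩
    obtain ⟨a1, a2⟩ := s1 x b P' Q hP' hQ
    obtain ⟨b1, b2⟩ := s1 v b P Q hP hQ
    refine ⟨a1, ?_⟩
    rw [hT, hT, a2, e, b2]
  · intro X hX Y hY v
    obtain ⟨P, Q, b, e, hP, hQ⟩ := g.complete2 pre post (BadT := BadT) (K := K) (c := c)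
      (lam2 := lam2) (rho2 := rho2) (C0 := C0) hc hgap hsp hthin hX.1 hY.1 v (by
        have hz := g.hz
        have hXz := hX.1.1
        obtain ⟨I, hI, h⟩ := e2 (X.take g.p0) v (by rw [List.length_take]; omega)
        refine ⟨I, hI, fun k hk => ?_⟩
        obtain ⟨h1, h2, h3⟩ := h k hk
        rw [List.take_take, min_eq_left (hc k h1)] at h2
        exact ⟨h1, h2, h3⟩)
    have snd := fun (x : V) (X' P' R R' : List α) (hX' : g.XX X') (hb' : g.BadX BadT X')
        (hP' : Geo.LP2 K c lam2 x P') (h : P' ++ Q ++ R = X' ++ R') =>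
      g.sound2 pre post (BadT := BadT) (K := K) (c := c) (lam2 := lam2) (rho2 := rho2) hc
        (fun k hk P Q v u h1 h2 h3 h4 => e1 k hk P Q v u h1 h2 h3 h4) hX' hb' hP' hQ h
    refine ⟨P, Q, e, hP, fun x P' hP' => ?_⟩
    obtain ⟨X2, hX2, e2', hb2⟩ := snd v X P [] Y hX.1 hX.2 hP (by rw [List.append_nil, e])
    have hXY : X2 = Y := by
      rw [e] at e2'
      exact (List.append_cancel_left e2').symm
    subst hXY
    -- the first block of `P' ++ Q`
    have hQend : g.Wo Q ∧ g.z ≤ Q.length := by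
      obtain ⟨k, hk, l, hend, -, hX3, -⟩ := hQ
      have h3 : Q.take l ++ Q.drop l = Q := List.take_append_drop _ _
      have hz := g.hz
      have hq := g.hq
      have h4 := hX3.1
      constructor
      · rw [← h3, g.loc _ _ (by omega)]
        exact hX3.2.1
      · rw [List.length_drop] at h4; omega
    have hW : g.Wo (P' ++ Q) := by
      have hz := g.hz
      have hq := g.hq
      rw [g.loc _ _ (by omega)]; exact hQend.1
    have hex : ∃ t, t ≤ (P' ++ Q).length ∧ g.z ≤ t ∧ g.Wo ((P' ++ Q).take t) :=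
      ⟨(P' ++ Q).length, le_rfl, by rw [List.length_append]; omega, by
        rw [List.take_length]; exact hW⟩
    obtain ⟨f1, f2, f3⟩ := Nat.find_spec hex
    have fmin : ∀ t < Nat.find hex, ¬ (t ≤ (P' ++ Q).length ∧ g.z ≤ t ∧ g.Wo ((P' ++ Q).take t)) :=
      fun t ht => Nat.find_min hex ht
    set t0 := Nat.find hex with ht0
    have hX' : g.XX ((P' ++ Q).take t0) := by
      have hl : ((P' ++ Q).take t0).length = t0 := by rw [List.length_take]; omega
      refine ⟨by rw [hl]; exact f2, f3, fun t h1 h2 h3 => ?_⟩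
      rw [hl] at h2
      rw [List.take_take, min_eq_left h2.le] at h3
      exact fmin t h2 ⟨by omega, h1, h3⟩
    by_cases hbad : g.BadX BadT ((P' ++ Q).take t0)
    · left
      obtain ⟨Y', hY', e3, hb3⟩ := snd x _ P' [] ((P' ++ Q).drop t0) hX' hbad hP' (by
        rw [List.append_nil, List.take_append_drop])
      refine ⟨(P' ++ Q).take t0, ⟨hX', hbad⟩, Y', hY', e3.symm, ?_⟩
      rw [hT, hT, hT, hT, hb3, hb2]
    · right
      exact ⟨(P' ++ Q).take t0, hX', fun h => hbad h.2, List.take_prefix _ _⟩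

end Crest.Agent.R320.Fin_158
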