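import Mathlib

/-!
Row 320.  Concrete side of the semantic top (727 #13375) for a gadget WITHOUT small walls
(693 #13203 / 638 `UG`), natural chain rule "block = first wall at distance at least `z`",
left-looking walls on all words, one token system (118).
-/

set_option autoImplicit false

namespace Crest.Agent.R320.SemJ_832

open Finset

variable {α S V : Type}

/-- blocks: first wall at distance at least `z` -/
def XX (Wo : List α → Prop) (z : ℕ) : Set (List α) :=
  {X | z ≤ X.length ∧ Wo X ∧ ∀ t, z ≤ t → t < X.length → ¬ Wo (X.take t)}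

def R1 (XX : Set (List α)) (T : V → List α → V) (L1 : V → Set (List α)) (y : V) :
    Set (List α) :=
  {Q | ∀ x, ∀ P ∈ L1 x, P ++ Q ∈ XX ∧ T x (P ++ Q) = y}

def Good (XX : Set (List α)) (T : V → List α → V) (L1 : V → Set (List α)) : Set (List α) :=
  {X | X ∈ XX ∧ ∀ x, ∃ P ∈ L1 x, ∃ Q ∈ R1 XX T L1 (T x X), P ++ Q = X}

def Bad (XX : Set (List α)) (T : V → List α → V) (L1 : V → Set (List α)) : Set (List α) :=
  {X | X ∈ XX ∧ X ∉ Good XX T L1}

def R2 (XX : Set (List α)) (T : V → List α → V) (L1 L2 : V → Set (List α)) (y : V) :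
    Set (List α) :=
  {Q | ∀ x, ∀ P ∈ L2 x,
    (∃ X1 ∈ Bad XX T L1, ∃ X2 ∈ Bad XX T L1, P ++ Q = X1 ++ X2 ∧ T (T x X1) X2 = y) ∨
    (∃ X ∈ Good XX T L1, X <+: P ++ Q) ∨
    (∃ X1 ∈ Bad XX T L1, ∃ X2 ∈ Good XX T L1, X1 ++ X2 <+: P ++ Q)}

open Classical in
/-- all data of the two schemes -/
structure Dat (α S V : Type) [Monoid S] [AddCommGroup V] where
  phi : List α → S
  act : V → S → V
  Wo : List α → Prop
  n : ℕ
  W : ℕ
  z : ℕ
  p0 : ℕ
  N : ℕ
  K : ℕ
  C0 : ℕ
  Lam : ℕ
  BadT : ℕ → Prop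
  lam : List α → Option V
  rho : List α → Option V
  nu1 : List α → V
  c : ℕ → ℕ
  lam2 : ℕ → List α → Option V
  rho2 : ℕ → List α → Option V
  nu2 : List α → V
  hloc : ∀ P Q : List α, n ≤ Q.length → (Wo (P ++ Q) ↔ Wo Q)
  hgap : ∀ (X : List α) (t t' : ℕ), t < t' → t' ≤ X.length → Wo (X.take t) → Wo (X.take t') → t + W < t'
  g_len : ∀ p v, lam p = some v → p.length ≤ N
  g_sound : ∀ p q v r, lam p = some v → rho q = some r → r = act v (phi (p ++ q)) + nu1 (p ++ q)
  g_comp : ∀ u : List α, 2 * N ≤ u.length → ¬ BadT u.length →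
    ∀ v, ∃ p q, p ++ q = u ∧ lam p = some v ∧ (rho q).isSome = true
  e_sound : ∀ k < K, ∀ (P Q : List α) (v b : V), P.length = c k → lam2 k P = some v → rho2 k Q = some b →
    b = act v (phi (P ++ Q)) + nu2 (P ++ Q)
  e_comp : ∀ (u : List α) (v : V), (∀ k < K, c k ≤ u.length) → ∃ I : Finset ℕ,
    2 * C0 + 2 ≤ I.card ∧ ∀ k ∈ I, k < K ∧ lam2 k (u.take (c k)) = some v ∧
      (rho2 k (u.drop (c k))).isSome = true
  c_le : ∀ k < K, c k ≤ Lam
  rulerE : ∀ i < K, ∀ j < K, ∀ i' < K, ∀ j' < K, i ≠ j → i' ≠ j' →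
    c i + c j' ≤ c i' + c j + 2 * N → c i' + c j ≤ c i + c j' + 2 * N → i = i' ∧ j = j'
  rulerB : ∀ T, N ≤ T → Lam ≤ T →
    (((range K) ×ˢ (range K)).filter
      (fun ab : ℕ × ℕ => ab.1 ≠ ab.2 ∧ BadT (T + c ab.1 - c ab.2))).card ≤ C0
  h_p0 : Lam ≤ p0
  z_pos : 0 < z
  h_z : p0 + n + 2 * N + 2 * Lam ≤ z
  h_W : 2 * Lam + 2 * N ≤ W

namespace Dat

variable [Monoid S] [AddCommGroup V] (D : Dat α S V)

/-- zone map (one token system) -/
def T (x : V) (X : List α) : V :=
  D.act (D.act x (D.phi (X.take D.p0)) + D.nu2 (X.take D.p0)) (D.phi (X.drop D.p0))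
    + D.nu1 (X.drop D.p0)

def L1 (x : V) : Set (List α) :=
  {P | D.p0 ≤ P.length ∧
    D.lam (P.drop D.p0) = some (D.act x (D.phi (P.take D.p0)) + D.nu2 (P.take D.p0))}

def L2 (x : V) : Set (List α) := {P | ∃ k < D.K, P.length = D.c k ∧ D.lam2 k P = some x}

def Z : Set (List α) := XX D.Wo D.z

theorem take_add (P Q : List α) (s : ℕ) : (P ++ Q).take (P.length + s) = P ++ Q.take s := by
  rw [List.take_append, List.take_of_length_le (by omega)]
  simp

theorem wall_shift (P P' Q : List α) {s : ℕ} (hs : D.n ≤ s) (hsQ : s ≤ Q.length) :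
    D.Wo ((P ++ Q).take (P.length + s)) ↔ D.Wo ((P' ++ Q).take (P'.length + s)) := by
  rw [take_add, take_add]
  have h : D.n ≤ (Q.take s).length := by rw [List.length_take]; omega
  exact (D.hloc P _ h).trans (D.hloc P' _ h).symm

theorem block_shift {P P' Q : List α} (hX : P ++ Q ∈ D.Z) (hn : P'.length + D.n ≤ D.z)
    (hnQ : D.n ≤ Q.length) (hlen : D.z ≤ P'.length + Q.length)
    (hE : ∀ s, D.n ≤ s → s < Q.length → D.z ≤ P'.length + s → P.length + s < D.z →
      ¬ D.Wo ((P ++ Q).take (P.length + s))) : P' ++ Q ∈ D.Z := by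
  refine ⟨by rw [List.length_append]; exact hlen,
    (D.hloc P' Q hnQ).2 ((D.hloc P Q hnQ).1 hX.2.1), ?_⟩
  intro t ht htl hw
  rw [List.length_append] at htl
  obtain ⟨s, rfl⟩ : ∃ s, t = P'.length + s := ⟨t - P'.length, by omega⟩
  have hs : D.n ≤ s := by omega
  have hsQ : s < Q.length := by omega
  have hw' := (D.wall_shift P' P Q hs hsQ.le).1 hw
  by_cases h : D.z ≤ P.length + s
  · exact hX.2.2 _ h (by rw [List.length_append]; omega) hw'
  · exact hE s hs hsQ ht (by omega) hw'

/-- **(C1)** a block without a wall in `[z-N, z+N)` and with `|X| - p0` not in the thin set is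
good (cut by scheme 1 for every token). -/
theorem C1 {X : List α} (hX : X ∈ D.Z)
    (hE : ∀ t, t ≤ X.length → D.z ≤ t + D.N → t < D.z + D.N → ¬ D.Wo (X.take t))
    (hB : ¬ D.BadT (X.length - D.p0)) : X ∈ Good D.Z D.T D.L1 := by
  have hz := D.h_z
  have hp := D.h_p0
  have hXl : D.z + D.N ≤ X.length := by
    by_contra h
    exact hE X.length le_rfl (by have := hX.1; omega) (by omega)
      (by rw [List.take_length]; exact hX.2.1)
  refine ⟨hX, fun x => ?_⟩
  set v := D.act x (D.phi (X.take D.p0)) + D.nu2 (X.take D.p0) with hv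
  obtain ⟨p, q, hpq, hl, hr⟩ := D.g_comp (X.drop D.p0) (by rw [List.length_drop]; omega)
    (by rw [List.length_drop]; exact hB) v
  obtain ⟨b, hb⟩ := Option.isSome_iff_exists.1 hr
  have hpl := D.g_len p v hl
  have htl : (X.take D.p0).length = D.p0 := by rw [List.length_take]; omega
  have hXe : X = (X.take D.p0 ++ p) ++ q := by
    rw [List.append_assoc, hpq, List.take_append_drop]
  have hql : X.length = D.p0 + p.length + q.length := by
    conv_lhs => rw [hXe]
    simp only [List.length_append, htl]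
  have hTX : D.T x X = b := by
    have := D.g_sound p q v b hl hb
    rw [hpq] at this
    rw [this]; rfl
  refine ⟨X.take D.p0 ++ p, ⟨by rw [List.length_append, htl]; omega, ?_⟩, q, ?_, hXe.symm⟩
  · have h1 : (X.take D.p0 ++ p).drop D.p0 = p := by
      conv_lhs => rw [← htl]
      rw [htl]
      rw [List.drop_append, List.drop_of_length_le (by omega), htl]
      simp
    have h2 : (X.take D.p0 ++ p).take D.p0 = X.take D.p0 := by
      rw [List.take_append, htl]
      simp
    rw [h1, h2]; exact hl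
  · intro x' P' hP'
    obtain ⟨h1, h2⟩ := hP'
    have h3 := D.g_len _ _ h2
    rw [List.length_drop] at h3
    constructor
    · have hX' : (X.take D.p0 ++ p) ++ q ∈ D.Z := by rw [← hXe]; exact hX
      refine D.block_shift hX' (by omega) (by omega) (by omega) ?_
      intro s hs hsq hz1 hz2
      rw [← hXe]
      rw [List.length_append, htl] at hz2 ⊢
      exact hE _ (by omega) (by omega) (by omega)
    · rw [hTX]
      have h4 : (P' ++ q).take D.p0 = P'.take D.p0 := by
        rw [List.take_append, Nat.sub_eq_zero_of_le h1]; simp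
      have h5 : (P' ++ q).drop D.p0 = P'.drop D.p0 ++ q := by
        rw [List.drop_append, Nat.sub_eq_zero_of_le h1]; simp
      have h6 := D.g_sound _ q _ b h2 hb
      rw [h6]
      unfold T
      rw [h4, h5]

/-- **(hC2)** two consecutive bad blocks are cut by scheme 2 (in the semantic form). -/
theorem hC2 {X1 X2 : List α} (h1 : X1 ∈ Bad D.Z D.T D.L1) (h2 : X2 ∈ Bad D.Z D.T D.L1)
    (x : V) : ∃ P ∈ D.L2 x, ∃ Q ∈ R2 D.Z D.T D.L1 D.L2 (D.T (D.T x X1) X2),
      P ++ Q = X1 ++ X2 := by
  classical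
  have hz := D.h_z
  have hp := D.h_p0
  have hW := D.h_W
  have hz0 := D.z_pos
  have hz1 : D.z ≤ X1.length := h1.1.1
  have hz2 : D.z ≤ X2.length := h2.1.1
  set U := X1 ++ X2 with hU
  have hUl : U.length = X1.length + X2.length := by rw [hU, List.length_append]
  -- the two relevant walls
  have hex1 : ∃ t, D.z ≤ t + D.Lam ∧ t ≤ U.length ∧ D.Wo (U.take t) :=
    ⟨X1.length, by omega, by omega, by
      rw [hU, List.take_append_of_le_length le_rfl, List.take_length]; exact h1.1.2.1⟩
  set b1 := Nat.find hex1 with hb1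
  obtain ⟨hb1z, hb1l, hb1w⟩ := Nat.find_spec hex1
  rw [← hb1] at hb1z hb1l hb1w
  have hb1X : b1 ≤ X1.length := Nat.find_min' hex1 ⟨by omega, by omega, by
      rw [hU, List.take_append_of_le_length le_rfl, List.take_length]; exact h1.1.2.1⟩
  have hWU : D.Wo U := by
    rw [hU]; exact (D.hloc X1 X2 (by omega)).2 h2.1.2.1
  have hex2 : ∃ t, b1 < t ∧ t ≤ U.length ∧ D.Wo (U.take t) :=
    ⟨U.length, by omega, le_rfl, by rw [List.take_length]; exact hWU⟩
  set b2 := Nat.find hex2 with hb2
  obtain ⟨hb2z, hb2l, hb2w⟩ := Nat.find_spec hex2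
  rw [← hb2] at hb2z hb2l hb2w
  have hgap12 : b1 + D.W < b2 := D.hgap U b1 b2 hb2z hb2l hb1w hb2w
  -- spoiled pairs
  let F1 := ((range D.K) ×ˢ (range D.K)).filter
    (fun ab : ℕ × ℕ => ab.1 ≠ ab.2 ∧ D.BadT ((b1 - D.p0) + D.c ab.1 - D.c ab.2))
  let F2 := ((range D.K) ×ˢ (range D.K)).filter
    (fun ab : ℕ × ℕ => ab.1 ≠ ab.2 ∧ D.BadT ((b2 - D.p0) + D.c ab.1 - D.c ab.2))
  let F3 := ((range D.K) ×ˢ (range D.K)).filter
    (fun ab : ℕ × ℕ => ab.1 ≠ ab.2 ∧ ∃ t, t ≤ U.length ∧ D.Wo (U.take t) ∧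
      D.z + D.c ab.2 ≤ t + D.N + D.c ab.1 ∧ t + D.c ab.1 < D.z + D.N + D.c ab.2)
  have hF1 : F1.card ≤ D.C0 := D.rulerB (b1 - D.p0) (by omega) (by omega)
  have hF2 : F2.card ≤ D.C0 := D.rulerB (b2 - D.p0) (by omega) (by omega)
  have hF3 : F3.card ≤ 1 := by
    rw [Finset.card_le_one]
    rintro ⟨j, k⟩ hjk ⟨j', k'⟩ hjk'
    simp only [F3, Finset.mem_filter, Finset.mem_product, Finset.mem_range] at hjk hjk'
    obtain ⟨⟨hj, hk⟩, hne, t, htl, htw, ht1, ht2⟩ := hjk
    obtain ⟨⟨hj', hk'⟩, hne', t', htl', htw', ht1', ht2'⟩ := hjk'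
    have c1 := D.c_le j hj
    have c2 := D.c_le k hk
    have c3 := D.c_le j' hj'
    have c4 := D.c_le k' hk'
    have htt : t = t' := by
      rcases lt_trichotomy t t' with h | h | h
      · have := D.hgap U t t' h htl' htw htw'; omega
      · exact h
      · have := D.hgap U t' t h htl htw' htw; omega
    subst htt
    obtain ⟨e1, e2⟩ := D.rulerE j hj k hk j' hj' k' hk' hne hne' (by omega) (by omega)
    rw [e1, e2]
  let Sp := ((F1 ∪ F2) ∪ F3).image Prod.snd
  have hSp : Sp.card ≤ 2 * D.C0 + 1 := by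
    refine (Finset.card_image_le).trans ?_
    refine (Finset.card_union_le _ _).trans ?_
    have := Finset.card_union_le F1 F2
    omega
  have htl0 : (X1.take D.p0).length = D.p0 := by rw [List.length_take]; omega
  obtain ⟨I, hI, hIk⟩ := D.e_comp (X1.take D.p0) x
    (fun k hk => by rw [htl0]; exact (D.c_le k hk).trans hp)
  obtain ⟨k, hkI, hkS⟩ := Finset.exists_mem_notMem_of_card_lt_card
    (show Sp.card < I.card by omega)
  obtain ⟨hkK, hl, hr⟩ := hIk k hkI
  obtain ⟨b, hb⟩ := Option.isSome_iff_exists.1 hr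
  have hck := D.c_le k hkK
  have hckp : D.c k ≤ D.p0 := hck.trans hp
  have htk : (X1.take D.p0).take (D.c k) = X1.take (D.c k) := by
    rw [List.take_take, Nat.min_eq_left hckp]
  rw [htk] at hl
  have hlk : (X1.take (D.c k)).length = D.c k := by rw [List.length_take]; omega
  set Q := X1.drop (D.c k) ++ X2 with hQ
  have hPQ : X1.take (D.c k) ++ Q = U := by
    rw [hQ, ← List.append_assoc, List.take_append_drop]
  have hQl : D.c k + Q.length = U.length := by
    have := congrArg List.length hPQ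
    rw [List.length_append, hlk] at this
    exact this
  refine ⟨X1.take (D.c k), ⟨k, hkK, hlk, hl⟩, Q, ?_, hPQ⟩
  intro x' P' hP'
  obtain ⟨j, hjK, hjl, hj2⟩ := hP'
  have hcj := D.c_le j hjK
  by_cases hjk : j = k
  · -- same place
    subst hjk
    set Q1 := X1.drop (D.c j) with hQ1
    have hQ1l : Q1.length = X1.length - D.c j := by rw [hQ1, List.length_drop]
    have hX1e : X1.take (D.c j) ++ Q1 = X1 := List.take_append_drop _ _
    have hX1' : P' ++ Q1 ∈ D.Z := by
      refine D.block_shift (P := X1.take (D.c j)) (by rw [hX1e]; exact h1.1)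
        (by omega) (by omega) (by omega) ?_
      intro s _ _ h3 h4
      omega
    by_cases hG : P' ++ Q1 ∈ Good D.Z D.T D.L1
    · right; left
      exact ⟨P' ++ Q1, hG, ⟨X2, by rw [hQ, List.append_assoc]⟩⟩
    · left
      refine ⟨P' ++ Q1, ⟨hX1', hG⟩, X2, h2, by rw [hQ, List.append_assoc], ?_⟩
      congr 1
      -- exactness of the second gadget
      have e1 := D.e_sound j hjK (X1.take (D.c j)) ((X1.take D.p0).drop (D.c j)) x b hlk hl hb
      have e2 := D.e_sound j hjK P' ((X1.take D.p0).drop (D.c j)) x' b hjl hj2 hb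
      have g1 : X1.take (D.c j) ++ (X1.take D.p0).drop (D.c j) = X1.take D.p0 := by
        rw [← htk, List.take_append_drop]
      have g0 : (X1.take D.p0).drop (D.c j) = Q1.take (D.p0 - D.c j) := by
        rw [hQ1, List.drop_take]
      have g2 : P' ++ (X1.take D.p0).drop (D.c j) = (P' ++ Q1).take D.p0 := by
        have g5 : P'.take D.p0 = P' := List.take_of_length_le (by omega)
        rw [g0, List.take_append, hjl, g5]
      have g3 : (P' ++ Q1).drop D.p0 = X1.drop D.p0 := by
        rw [List.drop_append, hjl, List.drop_of_length_le (by omega), List.nil_append, hQ1,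
          List.drop_drop]
        congr 1
        omega
      rw [g1] at e1
      rw [g2] at e2
      unfold T
      rw [g3, ← e1, ← e2]
  · -- different place: the claimed block is good
    right; left
    have hnot : ∀ F : Finset (ℕ × ℕ), F ⊆ (F1 ∪ F2) ∪ F3 → (j, k) ∉ F := by
      intro F hF hm
      exact hkS (Finset.mem_image.2 ⟨(j, k), hF hm, rfl⟩)
    have hn1 : ¬ D.BadT ((b1 - D.p0) + D.c j - D.c k) := by
      intro h
      refine hnot F1 (fun a ha => ?_) ?_
      · exact Finset.mem_union_left _ (Finset.mem_union_left _ ha)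
      · simp only [F1, Finset.mem_filter, Finset.mem_product, Finset.mem_range]
        exact ⟨⟨hjK, hkK⟩, hjk, h⟩
    have hn2 : ¬ D.BadT ((b2 - D.p0) + D.c j - D.c k) := by
      intro h
      refine hnot F2 (fun a ha => ?_) ?_
      · exact Finset.mem_union_left _ (Finset.mem_union_right _ ha)
      · simp only [F2, Finset.mem_filter, Finset.mem_product, Finset.mem_range]
        exact ⟨⟨hjK, hkK⟩, hjk, h⟩
    have hn3 : ∀ t, t ≤ U.length → D.Wo (U.take t) → D.z + D.c k ≤ t + D.N + D.c j →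
        t + D.c j < D.z + D.N + D.c k → False := by
      intro t h1 h2 h3 h4
      refine hnot F3 (fun a ha => ?_) ?_
      · exact Finset.mem_union_right _ ha
      · simp only [F3, Finset.mem_filter, Finset.mem_product, Finset.mem_range]
        exact ⟨⟨hjK, hkK⟩, hjk, t, h1, h2, h3, h4⟩
    -- walls of `P' ++ Q` and walls of `U`
    have hsh : ∀ s, D.n ≤ s → s ≤ Q.length →
        (D.Wo ((P' ++ Q).take (D.c j + s)) ↔ D.Wo (U.take (D.c k + s))) := by
      intro s hs hsQ
      have := D.wall_shift P' (X1.take (D.c k)) Q hs hsQ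
      rw [hPQ, hjl, hlk] at this
      exact this
    have hVl : (P' ++ Q).length = D.c j + Q.length := by rw [List.length_append, hjl]
    have hex : ∃ t, D.z ≤ t ∧ t ≤ (P' ++ Q).length ∧ D.Wo ((P' ++ Q).take t) := by
      refine ⟨D.c j + Q.length, by omega, by omega, ?_⟩
      rw [hsh Q.length (by omega) le_rfl, hQl, List.take_length]
      exact hWU
    set t' := Nat.find hex with ht'
    obtain ⟨a1, a2, a3⟩ := Nat.find_spec hex
    rw [← ht'] at a1 a2 a3
    have hlt' : ((P' ++ Q).take t').length = t' := by rw [List.length_take]; omega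
    have hXj : (P' ++ Q).take t' ∈ D.Z := by
      refine ⟨by rw [hlt']; exact a1, a3, ?_⟩
      intro t h3 h4 h5
      rw [hlt'] at h4
      rw [List.take_take, Nat.min_eq_left h4.le] at h5
      exact Nat.find_min hex h4 ⟨h3, by omega, h5⟩
    refine ⟨(P' ++ Q).take t', D.C1 hXj ?_ ?_, List.take_prefix _ _⟩
    · intro s hs h3 h4 h5
      rw [hlt'] at hs
      rw [List.take_take, Nat.min_eq_left hs] at h5
      obtain ⟨r, rfl⟩ : ∃ r, s = D.c j + r := ⟨s - D.c j, by omega⟩
      rw [hsh r (by omega) (by omega)] at h5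
      exact hn3 _ (by omega) h5 (by omega) (by omega)
    · rw [hlt']
      obtain ⟨r, hr'⟩ : ∃ r, t' = D.c j + r := ⟨t' - D.c j, by omega⟩
      have hw' : D.Wo (U.take (D.c k + r)) := by
        rw [hr', hsh r (by omega) (by omega)] at a3
        exact a3
      have hge : b1 ≤ D.c k + r := Nat.find_min' hex1 ⟨by omega, by omega, hw'⟩
      rcases hge.eq_or_lt with h | h
      · have : t' - D.p0 = (b1 - D.p0) + D.c j - D.c k := by omega
        rw [this]; exact hn1
      · have hge2 : b2 ≤ D.c k + r := Nat.find_min' hex2 ⟨h, by omega, hw'⟩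
        rcases hge2.eq_or_lt with h' | h'
        · have : t' - D.p0 = (b2 - D.p0) + D.c j - D.c k := by omega
          rw [this]; exact hn2
        · exfalso
          obtain ⟨r2, hr2⟩ : ∃ r2, b2 = D.c k + r2 := ⟨b2 - D.c k, by omega⟩
          have hw2 : D.Wo ((P' ++ Q).take (D.c j + r2)) := by
            rw [hsh r2 (by omega) (by omega), ← hr2]; exact hb2w
          exact Nat.find_min hex (m := D.c j + r2) (by omega) ⟨by omega, by omega, hw2⟩

end Dat

end Crest.Agent.R320.SemJ_832
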