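import Mathlib
import Crest.Agent.R320.SemTop_727
import Crest.Agent.R320.SemJ_832
import Crest.Agent.R320.G1_852
import Crest.Agent.R320.Sp_21
import Crest.Agent.R320.ExactR_237
import Crest.Agent.R320.P4_440
import Crest.Agent.R320.Univ_234

/-!
# Row 320: constants and join (helper162)

All parts are landed files: semantic top (727), both schemes (832), content-free gadget (852),
ruler (21), exact gadget (237), walls of all words (228 / 263), heights (440), universes (234).
-/

set_option autoImplicit false

namespace Crest.Agent.R320.Fin_162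

open Crest.RegLang Crest.Agent.R320.Hk_851

theorem pcode {α : Type} (Wo : List α → Prop) (z : ℕ) (hz : 0 < z) :
    Blk467.PCode (SemJ_832.XX Wo z) := by
  refine ⟨fun h => ?_, ?_⟩
  · have h1 : z ≤ ([] : List α).length := h.1
    simp only [List.length_nil] at h1
    omega
  · intro X hX Y hY hXY
    have hle := hXY.length_le
    by_contra hne
    have hlt : X.length < Y.length := by
      rcases Nat.lt_or_ge X.length Y.length with h | h
      · exact h
      · exact (hne (hXY.eq_of_length (le_antisymm hle h))).elim
    have e : Y.take X.length = X := (List.prefix_iff_eq_take.1 hXY).symm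
    exact hY.2.2 X.length hX.1 hlt (by rw [e]; exact hX.2.1)

theorem resp_prod {α S : Type} [Monoid S] (φ : α → S) (B P : ℕ) (s : S) :
    P4_440.Resp (fun l : List α => (l.map φ).prod) B P (fun w => (w.map φ).prod = s) := by
  intro w w' _ _ h3 h4 _
  have e : ∀ u : List α, (u.map φ).prod = ((u.take B).map φ).prod * ((u.drop B).map φ).prod := by
    intro u
    rw [← List.prod_append, ← List.map_append, List.take_append_drop]
  show (w.map φ).prod = s ↔ (w'.map φ).prod = s
  have h4' : ((w.drop B).map φ).prod = ((w'.drop B).map φ).prod := h4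
  rw [e w, e w', h3, h4']

theorem fin (α : Type) [Finite α] (S : Type) [Monoid S] [Finite S] (φ : α → S) (s : S) :
    HL 3 ({w | (w.map φ).prod = s} : Language α) := by
  classical
  have := Fintype.ofFinite S
  obtain ⟨act, hadd, hone, hmul, hfaith⟩ := Blk467.exists_module S
  have : Fintype (S → ZMod 2) := Fintype.ofFinite _
  obtain ⟨m, r, hG⟩ := G1_852.gadget (S := S) (V := S → ZMod 2) act
  obtain ⟨K, hK⟩ := ExactR_237.exact_gadget α S (S → ZMod 2) φ act (2 * (r + m) + 2)
  obtain ⟨Ms, M, hcard, hMs, hM, hG⟩ := hG (2 ^ (K + 1))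
  obtain ⟨b, hbdef⟩ : ∃ b, b = (2 ^ (K + 4) + 2) * M + 1 := ⟨_, rfl⟩
  have hb : (2 ^ (K + 4) + 2) * M < b := by omega
  have hb0 : 0 < b := by omega
  have hcop : Nat.Coprime b M := by
    rw [hbdef]
    first
      | exact (Nat.coprime_mul_right_add_left _ _ _).2 (Nat.coprime_one_left M)
      | simp
  obtain ⟨lam, rho, nu, hlen, hsound, hcomp, hkey⟩ := hG b hb0 hcop α φ
  obtain ⟨N, hN⟩ : ∃ N, N = b ^ m := ⟨_, rfl⟩
  have hNpos : 0 < N := by rw [hN]; positivity
  obtain ⟨c, hc1, hc2, hc3⟩ := Sp_21.spoil K N m M b Ms hM
    (fun k hk => ⟨(hMs k hk).2.2, (hMs k hk).1.le⟩) hcop hb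
  obtain ⟨lam2, rho2, nu2, h2s, h2c⟩ := hK c (fun i j hij _ => by have := hc1 i j hij; omega)
  obtain ⟨Lam, hLam⟩ : ∃ Lam, Lam = c K := ⟨_, rfl⟩
  have hcle : ∀ k < K, c k ≤ Lam := fun k hk => by
    have := hc1 k K hk
    omega
  obtain ⟨n, cc, P0, Sw, hn, hP, hloc, hsep, hp1, hp2, hfew⟩ :=
    WallU_228.walls_full (α := α) (2 * Lam + 2 * N)
  have hgap : ∀ (X : List α) (t t' : ℕ), t < t' → t' ≤ X.length → WallU_228.Wo n Sw (X.take t) →
      WallU_228.Wo n Sw (X.take t') → t + (2 * Lam + 2 * N) < t' := by
    intro X t t' h1 h2 h3 h4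
    by_contra hcon
    have hl : (X.take t').length = t' := by rw [List.length_take]; omega
    have := hsep (X.take t') (t' - t) h4 (by omega) (by omega)
    rw [hl, List.take_take, Nat.min_eq_left (by omega), show t' - (t' - t) = t by omega] at this
    exact this h3
  let D0 : SemJ_832.Dat α S (S → ZMod 2) :=
    { phi := fun l => (l.map φ).prod
      act := act
      Wo := WallU_228.Wo n Sw
      n := n
      W := 2 * Lam + 2 * N
      z := Lam + n + 2 * N + 2 * Lam + 1
      p0 := Lam
      N := N
      K := K
      C0 := r + m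
      Lam := Lam
      BadT := Sp_21.Bad m M b Ms
      lam := lam
      rho := rho
      nu1 := nu
      c := c
      lam2 := lam2
      rho2 := fun k Q => rho2 k Q 1
      nu2 := fun u => nu2 u 1
      hloc := hloc
      hgap := hgap
      g_len := fun p v h => by rw [hN]; exact (hlen p v h).le
      g_sound := fun p q v r h1 h2 => hsound p q v r h1 h2
      g_comp := by
        intro u _ hbad v
        have h1 : ∀ k ∈ Ms, ¬ k ∣ u.length := fun k hk hd => hbad (Or.inl ⟨k, hk, hd⟩)
        have h2 : ∀ j < m, M ≤ u.length / b ^ j % b ∧ u.length / b ^ j % b + M < b := by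
          intro j hj
          by_contra hcon
          exact hbad (Or.inr ⟨j, hj, fun h => hcon ⟨h.1, by omega⟩⟩)
        obtain ⟨P, Q, e, h3, v', h4⟩ := hcomp u h1 h2 v
        exact ⟨P, Q, e.symm, h3, by rw [h4]; rfl⟩
      e_sound := by
        intro k hk P Q v b' h1 h2 h3
        have := h2s k hk P Q 1 v b' h1 h2 h3
        rw [mul_one] at this
        exact this
      e_comp := fun u v h => h2c u 1 v h
      c_le := hcle
      rulerE := by
        intro i _ j _ i' _ j' _ h1 h2 h3 h4
        by_contra hcon
        have hne : (i, j) ≠ (i', j') := fun h => by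
          simp only [Prod.mk.injEq] at h
          exact hcon h
        rcases hc2 i j i' j' h1 h2 hne with h | h <;> omega
      rulerB := by
        intro T _ hT
        have h := hc3 T (fun i hi => (hcle i hi).trans hT)
          ((((Finset.range K) ×ˢ (Finset.range K)).filter
            (fun ab : ℕ × ℕ => ab.1 ≠ ab.2 ∧ Sp_21.Bad m M b Ms (T + c ab.1 - c ab.2))).image
              Prod.swap) (by
            intro p hp
            obtain ⟨q, hq, rfl⟩ := Finset.mem_image.1 hp
            rw [Finset.mem_filter, Finset.mem_product, Finset.mem_range, Finset.mem_range] at hq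
            exact ⟨hq.1.2, hq.1.1, fun h => hq.2.1 h.symm, hq.2.2⟩)
        rw [Finset.card_image_of_injective _ Prod.swap_injective] at h
        exact h.trans (by omega)
      h_p0 := le_refl _
      z_pos := by omega
      h_z := by omega
      h_W := le_refl _ }
  have hφ : ∀ u v : List α, ((u ++ v).map φ).prod = (u.map φ).prod * (v.map φ).prod := by
    intro u v; rw [List.map_append, List.prod_append]
  let z : ℕ := Lam + n + 2 * N + 2 * Lam + 1
  let B : ℕ := z + N
  have hnB : n ≤ B := by show n ≤ Lam + n + 2 * N + 2 * Lam + 1 + N; omega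
  have hzB : z ≤ B := by show z ≤ z + N; omega
  have hpB : Lam + N ≤ B := by show Lam + N ≤ Lam + n + 2 * N + 2 * Lam + 1 + N; omega
  have hMb : 0 < M * b ^ m := by positivity
  let D : SemTop_727.Sch α (S → ZMod 2) := ⟨D0.Z, D0.T, D0.L1, D0.L2⟩
  have hres : ∀ x y, P4_440.Resp (fun l : List α => (l.map φ).prod) B (M * b ^ m)
      (fun w => D0.T x w = y) := by
    intro x y w w' h1 h2 h3 h4 h5
    have h4' : ((w.drop B).map φ).prod = ((w'.drop B).map φ).prod := h4
    have t1 : w.take Lam = w'.take Lam := by
      have := congrArg (List.take Lam) h3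
      rwa [List.take_take, List.take_take, Nat.min_eq_left (by omega)] at this
    have t2 : ∀ j, j ≤ B → ((w.drop j).map φ).prod = ((w'.drop j).map φ).prod := by
      intro j hj
      have e : ∀ u : List α, (u.drop j) = (u.take B).drop j ++ u.drop B := by
        intro u
        conv_lhs => rw [← List.take_append_drop B u]
        rw [List.drop_append]
        by_cases hu : B ≤ u.length
        · have : (u.take B).length = B := by rw [List.length_take]; omega
          rw [this, show j - B = 0 by omega, List.drop_zero]
        · have : u.drop B = [] := List.drop_eq_nil_of_le (by omega)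
          rw [this]; simp
      rw [e w, e w', hφ, hφ, h3, h4']
    have t3 : nu (w.drop Lam) = nu (w'.drop Lam) := by
      refine (hkey (w.drop Lam) (w'.drop Lam) ?_ ?_ ?_).2
      · have := congrArg (fun l => (List.drop Lam l).take (b ^ m)) h3
        simp only [List.drop_take, List.take_take] at this
        rwa [Nat.min_eq_left (by rw [← hN]; omega)] at this
      · show (((w.drop Lam).drop (b ^ m)).map φ).prod = (((w'.drop Lam).drop (b ^ m)).map φ).prod
        rw [List.drop_drop, List.drop_drop]
        exact t2 _ (by rw [← hN]; omega)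
      · rw [List.length_drop, List.length_drop]
        have h6 : w.length - Lam + Lam ≡ w'.length - Lam + Lam [MOD (M * b ^ m)] := by
          rw [Nat.sub_add_cancel (by omega), Nat.sub_add_cancel (by omega)]; exact h5
        exact Nat.ModEq.add_right_cancel' _ h6
    have t4 : D0.T x w = D0.T x w' := by
      show act (act x ((w.take Lam).map φ).prod + nu2 (w.take Lam) 1) ((w.drop Lam).map φ).prod
          + nu (w.drop Lam) =
        act (act x ((w'.take Lam).map φ).prod + nu2 (w'.take Lam) 1) ((w'.drop Lam).map φ).prod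
          + nu (w'.drop Lam)
      rw [t1, t3, t2 Lam (by omega)]
    show D0.T x w = y ↔ D0.T x w' = y
    rw [t4]
  have hfib : ∀ x y, HL 1 (D.fib x y) := fun x y =>
    (P4_440.HL_block (φ := fun l : List α => (l.map φ).prod) (n := n) (S := Sw) (z := z) (B := B)
      (P := M * b ^ m) hφ hnB hzB hMb hfew (hres x y)).congr fun w => Iff.rfl
  have htail : ∀ t, HL 3 ({w | (∀ X ∈ D.XX, ¬ X <+: w) ∧ (w.map φ).prod = t} : Language α) :=
    fun t => ((P4_440.HL_rest (φ := fun l : List α => (l.map φ).prod) (n := n) (S := Sw) (z := z)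
      (B := B) (P := M * b ^ m) hφ hnB hzB hMb hfew
      (resp_prod φ B (M * b ^ m) t)).mono (by norm_num)).congr fun w => Iff.rfl
  refine SemTop_727.top (k := 1) act hadd hone hmul hfaith φ
    (fun X => act (nu2 (X.take Lam) 1) ((X.drop Lam).map φ).prod + nu (X.drop Lam)) D ?_
    (pcode _ _ (by show 0 < Lam + n + 2 * N + 2 * Lam + 1; omega)) hfib ?_ ?_ ?_ htail s
  · intro v X
    show act (act v ((X.take Lam).map φ).prod + nu2 (X.take Lam) 1) ((X.drop Lam).map φ).prod
      + nu (X.drop Lam) = _
    have e : (X.map φ).prod = ((X.take Lam).map φ).prod * ((X.drop Lam).map φ).prod := by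
      rw [← hφ, List.take_append_drop]
    rw [hadd, ← hmul, ← e, add_assoc]
  · intro x
    refine (List.finite_length_le α (Lam + N)).subset ?_
    rintro P ⟨h1, h2⟩
    have h3 := hlen _ _ h2
    have h4 : (P.drop Lam).length < N := by rw [hN]; exact h3
    have h5 : Lam ≤ P.length := h1
    rw [List.length_drop] at h4
    show P.length ≤ Lam + N
    omega
  · intro x
    refine (List.finite_length_le α Lam).subset ?_
    rintro P ⟨k, hk, h1, -⟩
    show P.length ≤ Lam
    have h1' : P.length = c k := h1
    rw [h1']; exact hcle k hk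
  · intro X1 h1 X2 h2 x
    exact D0.hC2 h1 h2 x

/-- **row 320** -/
theorem row {α : Type*} [Finite α] (L : Language α) (hL : L.IsRegular) :
    ∃ e : GRegExp α, e.height ≤ 3 ∧ e.lang = L :=
  Univ_234.of_fin_monoid (fun n S _ _ φ s => fin (Fin n) S φ s) L hL

end Crest.Agent.R320.Fin_162
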