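import Crest.Agent.R320.Gad_164
import Crest.Agent.R320.Top5_120
import Crest.Agent.R320.Sc2n_937
import Crest.Agent.R320.ExactR_237
import Crest.Agent.R320.LWallAll_922
import Crest.Agent.R320.P4_933
import Crest.Agent.R320.RegKey_186
import Crest.Agent.R320.Two_621

/-!
# Row 320 (helper164): constants and join
-/

set_option autoImplicit false

namespace Crest.Agent.R320.Fin_164

open Crest.RegLang Crest.Agent.R320.Hk_851

variable {α : Type}

/-- walls of 922: wall-free words are bounded products of pieces -/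
theorem free_PN {B W : ℕ} {Wo : List α → Prop}
    (hfew : ∀ X : List α, (∀ t < X.length, ¬ Wo (X.take t)) →
        ∃ (u x v : List α) (k : ℕ), u.length ≤ B ∧ x.length ≤ W ∧ v.length ≤ B ∧
          X = u ++ (List.replicate k x).flatten ++ v)
    (X : List α) (h : ∀ t < X.length, ¬ Wo (X.take t)) :
    X ∈ (BddReg_746.PN (max B W) 2 : Language α) := by
  obtain ⟨u, x, v, k, hu, hx, hv, rfl⟩ := hfew X h
  refine Language.mem_mul.2 ⟨u ++ (List.replicate k x).flatten, ?_, v, ?_, rfl⟩
  · exact ⟨u, x, k, hu.trans (le_max_left _ _), hx.trans (le_max_right _ _), rfl⟩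
  · refine Language.mem_mul.2 ⟨v, ?_, [], rfl, by simp⟩
    exact ⟨v, [], 0, hv.trans (le_max_left _ _), by simp, by simp [BddReg_746.pw]⟩

theorem take_of_take {X X' : List α} {p j : ℕ} (h : X.take p = X'.take p) (hj : j ≤ p) :
    X.take j = X'.take j := by
  have := congrArg (List.take j) h
  rwa [List.take_take, List.take_take, Nat.min_eq_left hj] at this

theorem drop_dec {X : List α} {p j : ℕ} (hj : j ≤ p) (hp : p ≤ X.length) :
    X.drop j = (X.take p).drop j ++ X.drop p := by
  conv_lhs => rw [← List.take_append_drop p X]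
  rw [List.drop_append_of_le_length]
  rw [List.length_take]; omega

variable {S V : Type} [Monoid S] [AddCommGroup V]

def pre (act : V → S → V) (ph : List α → S) (nu2 : List α → V) (U : List α) (v : V) : V :=
  act v (ph U) + nu2 U

def post (act : V → S → V) (ph : List α → S) (nu1 : List α → V) (u : V) (Y : List α) : V :=
  act u (ph Y) + nu1 Y

def nuT (act : V → S → V) (ph : List α → S) (nu1 nu2 : List α → V) (p0 : ℕ) (X : List α) : V :=
  act (nu2 (X.take p0)) (ph (X.drop p0)) + nu1 (X.drop p0)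

theorem T_eq (act : V → S → V)
    (hadd : ∀ a b s, act (a + b) s = act a s + act b s)
    (hmul : ∀ v s t, act v (s * t) = act (act v s) t)
    (ph : List α → S) (hphm : ∀ u v, ph (u ++ v) = ph u * ph v)
    (nu1 nu2 : List α → V) (g : Sc2n_937.Geo α) (v : V) (X : List α) :
    g.T (pre act ph nu2) (post act ph nu1) v X = act v (ph X) + nuT act ph nu1 nu2 g.p0 X := by
  unfold Sc2n_937.Geo.T pre post nuT
  rw [hadd, ← hmul, ← hphm, List.take_append_drop, add_assoc]

theorem join [Finite α] [Finite S] [Finite V]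
    (act : V → S → V)
    (hadd : ∀ a b s, act (a + b) s = act a s + act b s)
    (hone : ∀ v, act v 1 = v) (hmul : ∀ v s t, act v (s * t) = act (act v s) t)
    (hfaith : ∀ s t, (∀ v, act v s = act v t) → s = t)
    (φ : α → S) (ph : List α → S) (hph : ∀ w, ph w = (w.map φ).prod)
    (hphm : ∀ u v, ph (u ++ v) = ph u * ph v)
    (C0 K N1 M : ℕ) (c : ℕ → ℕ) (BT : ℕ → Prop) (hM : 0 < M)
    (hcK : ∀ k < K, c k ≤ c K)
    (hsp : ∀ k k' l l', k < K → k' < K → l < K → l' < K → k' ≠ k → l' ≠ l →
        c k + c l' < c l + c k' + 2 * N1 → c l + c k' < c k + c l' + 2 * N1 → k = l)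
    (hthin : ∀ τ : ℕ, N1 + c K ≤ τ → ∀ J : Finset ℕ,
        (∀ k ∈ J, k < K ∧ ∃ k', k' < K ∧ k' ≠ k ∧ BT (τ + c k' - c k)) → J.card ≤ C0)
    (hper : ∀ n n', N1 ≤ n → N1 ≤ n' → n % M = n' % M → (BT n ↔ BT n'))
    (lam rho : List α → Option V) (nu1 : List α → V)
    (g1 : ∀ P v, lam P = some v → P.length ≤ N1)
    (g2 : ∀ P Q v b, lam P = some v → rho Q = some b → b = act v (ph (P ++ Q)) + nu1 (P ++ Q))
    (g3 : ∀ u : List α, N1 ≤ u.length → ¬ BT u.length →
          ∀ v, ∃ P Q, u = P ++ Q ∧ lam P = some v ∧ (rho Q).isSome)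
    (g4 : ∀ u u' : List α, 2 * N1 ≤ u.length → 2 * N1 ≤ u'.length →
          u.take (2 * N1) = u'.take (2 * N1) → ph (u.drop (2 * N1)) = ph (u'.drop (2 * N1)) →
          u.length % M = u'.length % M → nu1 u = nu1 u')
    (lam2 rho2 : ℕ → List α → Option V) (nu2 : List α → V)
    (e1 : ∀ k < K, ∀ (P Q : List α) (v b : V), P.length = c k →
          lam2 k P = some v → rho2 k Q = some b → b = act v (ph (P ++ Q)) + nu2 (P ++ Q))
    (e2 : ∀ (u : List α) (v : V), (∀ k < K, c k ≤ u.length) →
          ∃ I : Finset ℕ, 2 * C0 + 2 ≤ I.card ∧ ∀ k ∈ I, k < K ∧ lam2 k (u.take (c k)) = some v ∧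
            (rho2 k (u.drop (c k))).isSome)
    (g : Sc2n_937.Geo α) (len : ∀ P, g.Wo P → g.n ≤ P.length)
    (hgN : g.N1 = N1) (hgp : g.p0 = c K) (hgq : g.n + 2 * g.p0 + 2 * g.N1 ≤ g.q0)
    (hgap : ∀ P Q : List α, g.Wo P → g.Wo (P ++ Q) → Q ≠ [] → 2 * g.p0 + 2 * g.N1 < Q.length)
    {B R : ℕ} (free : ∀ u : List α, (∀ t < u.length, ¬ g.Wo (u.take t)) →
      u ∈ (BddReg_746.PN B R : Language α))
    (s : S) : HL 3 ({w | (w.map φ).prod = s} : Language α) := by
  classical
  have hz := g.hz
  have hgq' := g.hq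
  have hNpos := g.hN
  have hTe := T_eq act hadd hmul ph hphm nu1 nu2 g
  have hcp : ∀ k, k < K → c k ≤ g.p0 := fun k hk => by rw [hgp]; exact hcK k hk
  have hXXiff : ∀ X, g.XX X ↔ P4_933.XX g.Wo g.z X := by
    intro X
    unfold Sc2n_937.Geo.XX P4_933.XX
    constructor
    · rintro ⟨h1, h2, h3⟩
      exact ⟨h2, h1, fun t ht hzt => h3 t hzt ht⟩
    · rintro ⟨h1, h2, h3⟩
      exact ⟨h2, h1, fun t hzt ht => h3 t ht hzt⟩
  -- class functions
  set A : ℕ := g.z + 2 * g.N1 + g.p0 with hA
  have cls_ph : ∀ {X X' : List α} {j : ℕ}, j ≤ A → A ≤ X.length → A ≤ X'.length →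
      X.take A = X'.take A → ph (X.drop A) = ph (X'.drop A) → ph (X.drop j) = ph (X'.drop j) := by
    intro X X' j hj h1 h2 h3 h4
    rw [drop_dec hj h1, drop_dec hj h2, hphm, hphm, h3, h4]
  have cls_nu : ∀ {X X' : List α}, A ≤ X.length → A ≤ X'.length →
      X.take A = X'.take A → ph (X.drop A) = ph (X'.drop A) → X.length % M = X'.length % M →
      nuT act ph nu1 nu2 g.p0 X = nuT act ph nu1 nu2 g.p0 X' := by
    intro X X' h1 h2 h3 h4 h5
    unfold nuT
    have a1 : X.take g.p0 = X'.take g.p0 := take_of_take h3 (by omega)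
    have a2 : ph (X.drop g.p0) = ph (X'.drop g.p0) := cls_ph (by omega) h1 h2 h3 h4
    have a3 : nu1 (X.drop g.p0) = nu1 (X'.drop g.p0) := by
      refine g4 _ _ ?_ ?_ ?_ ?_ ?_
      · rw [List.length_drop]; omega
      · rw [List.length_drop]; omega
      · rw [List.take_drop, List.take_drop, take_of_take h3 (by omega)]
      · rw [List.drop_drop, List.drop_drop]
        exact cls_ph (by omega) h1 h2 h3 h4
      · rw [List.length_drop, List.length_drop]
        have h6 : X.length ≡ X'.length [MOD M] := h5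
        have h7 : (X.length - g.p0) + g.p0 ≡ (X'.length - g.p0) + g.p0 [MOD M] := by
          rw [Nat.sub_add_cancel (by omega), Nat.sub_add_cancel (by omega)]
          exact h6
        exact Nat.ModEq.add_right_cancel' _ h7
    rw [a1, a2, a3]
  have cls_bad : ∀ {X X' : List α}, A ≤ X.length → A ≤ X'.length →
      X.take A = X'.take A → X.length % M = X'.length % M → g.BadX BT X → g.BadX BT X' := by
    intro X X' h1 h2 h3 h5 hb
    rcases hb with ⟨t, ht, hw, h6, h7⟩ | hb
    · left
      refine ⟨t, by omega, ?_, h6, h7⟩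
      rw [← take_of_take h3 (by omega)]
      exact hw
    · right
      refine (hper _ _ ?_ ?_ ?_).1 hb
      · omega
      · omega
      · have h6 : X.length ≡ X'.length [MOD M] := h5
        have h7 : (X.length - g.p0) + g.p0 ≡ (X'.length - g.p0) + g.p0 [MOD M] := by
          rw [Nat.sub_add_cancel (by omega), Nat.sub_add_cancel (by omega)]
          exact h6
        exact Nat.ModEq.add_right_cancel' _ h7
  let Cc : Set (List α) := {X | g.XX X}
  let Bad : Set (List α) := {X | g.XX X ∧ g.BadX BT X}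
  have hPC : Blk467.PCode Cc := by
    refine ⟨?_, ?_⟩
    · intro h
      have h1 : g.XX [] := h
      have := h1.1
      simp only [List.length_nil] at this
      omega
    · rintro X hX Y hY ⟨R, hR⟩
      exact g.prefix_code (R := R) (R' := []) hX hY (by rw [hR, List.append_nil])
  refine Top5_120.top5 act hadd hone hmul hfaith φ (nuT act ph nu1 nu2 g.p0) Cc Bad hPC
    (fun X hX => hX.1) (fun v => {P | g.LP1 (pre act ph nu2) lam v P})
    (fun v => {P | Sc2n_937.Geo.LP2 K c lam2 v P}) ?_ ?_ ?_ ?_ ?_ ?_ ?_ s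
  · intro v
    refine (List.finite_length_le α (g.p0 + N1)).subset ?_
    rintro P ⟨h1, h2⟩
    have h3 := g1 _ _ h2
    rw [List.length_drop] at h3
    show P.length ≤ g.p0 + N1
    omega
  · intro v
    refine (List.finite_length_le α (c K)).subset ?_
    rintro P ⟨k, hk, h1, h2⟩
    show P.length ≤ c K
    rw [h1]; exact hcK k hk
  · intro x y
    have hreg : Language.IsRegular
        ({u | act x (u.map φ).prod + nuT act ph nu1 nu2 g.p0 u = y} : Language α) := by
      refine RegKey_186.isRegular_of_state φ A M hM _ ?_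
      intro q q' h1 h2 h3 h4 h5
      rw [← hph, ← hph] at h4
      have a1 := cls_nu h1 h2 h3 h4 h5
      have a2 : ph q = ph q' := by
        have := cls_ph (j := 0) (by omega) h1 h2 h3 h4
        simpa using this
      show act x (q.map φ).prod + nuT act ph nu1 nu2 g.p0 q = y ↔
        act x (q'.map φ).prod + nuT act ph nu1 nu2 g.p0 q' = y
      rw [← hph, ← hph, a1, a2]
    refine (P4_933.hl_XX (z := g.z) g.loc len free hreg).congr fun w => ?_
    show (g.XX w ∧ _) ↔ (P4_933.XX g.Wo g.z w ∧ _)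
    rw [hXXiff]
  · intro x y
    have hreg : Language.IsRegular
        ({u | g.BadX BT u ∧ act x (u.map φ).prod + nuT act ph nu1 nu2 g.p0 u = y} : Language α) := by
      refine RegKey_186.isRegular_of_state φ A M hM _ ?_
      intro q q' h1 h2 h3 h4 h5
      rw [← hph, ← hph] at h4
      have a1 := cls_nu h1 h2 h3 h4 h5
      have a2 : ph q = ph q' := by
        have := cls_ph (j := 0) (by omega) h1 h2 h3 h4
        simpa using this
      show (g.BadX BT q ∧ act x (q.map φ).prod + nuT act ph nu1 nu2 g.p0 q = y) ↔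
        (g.BadX BT q' ∧ act x (q'.map φ).prod + nuT act ph nu1 nu2 g.p0 q' = y)
      rw [← hph, ← hph, a1, a2]
      exact and_congr_left fun _ => ⟨cls_bad h1 h2 h3 h5, cls_bad h2 h1 h3.symm h5.symm⟩
    refine (P4_933.hl_XX (z := g.z) g.loc len free hreg).congr fun w => ?_
    show ((g.XX w ∧ g.BadX BT w) ∧ _) ↔ (P4_933.XX g.Wo g.z w ∧ (g.BadX BT w ∧ _))
    rw [hXXiff, and_assoc]
  · intro s'
    have hreg : Language.IsRegular ({u | (u.map φ).prod = s'} : Language α) := by
      refine RegKey_186.isRegular_of_state φ A M hM _ ?_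
      intro q q' h1 h2 h3 h4 h5
      rw [← hph, ← hph] at h4
      have a2 : ph q = ph q' := by
        have := cls_ph (j := 0) (by omega) h1 h2 h3 h4
        simpa using this
      show (q.map φ).prod = s' ↔ (q'.map φ).prod = s'
      rw [← hph, ← hph, a2]
    refine (P4_933.hl_NB (z := g.z) g.loc len free hreg).congr fun w => ?_
    show ((∀ X ∈ Cc, ¬ X <+: w) ∧ _) ↔ (P4_933.NB g.Wo g.z w ∧ _)
    rw [P4_933.NB_iff]
    refine and_congr_left fun _ => ?_
    constructor
    · intro h P hP hX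
      exact h P ((hXXiff P).2 hX) hP
    · intro h P hX hP
      exact h P hP ((hXXiff P).1 hX)
  · -- hcc1
    intro X hX hXb v
    have hXX : g.XX X := hX
    have hnb : ¬ g.BadX BT X := fun h => hXb ⟨hX, h⟩
    have hlenX := hXX.1
    have hcomp : ∀ u : V, ∃ P Q, X.drop g.p0 = P ++ Q ∧ lam P = some u ∧ (rho Q).isSome := by
      intro u
      refine g3 (X.drop g.p0) ?_ ?_ u
      · rw [List.length_drop]; omega
      · rw [List.length_drop]; exact fun h => hnb (Or.inr h)
    have hl : ∀ P v, lam P = some v → P.length ≤ g.N1 := by rw [hgN]; exact g1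
    have hex : ∀ P Q u b, lam P = some u → rho Q = some b → b = post act ph nu1 u (P ++ Q) :=
      fun P Q u b h1 h2 => g2 P Q u b h1 h2
    obtain ⟨P, Q, b, hPQ, hP, hQ⟩ := g.complete1 (pre act ph nu2) hl hXX
      (fun h => hnb (Or.inl h)) hcomp v
    have h1 := g.sound1 (pre act ph nu2) (post act ph nu1) hl hex hP hQ
    refine ⟨P, Q, hPQ.symm, hP, ?_⟩
    intro x P' hP'
    have h2 := g.sound1 (pre act ph nu2) (post act ph nu1) hl hex hP' hQ
    refine ⟨h2.1, ?_⟩
    rw [← hph, ← hph, ← hTe, ← hTe, h2.2, hPQ, h1.2]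
  · -- hcc2
    intro X hX Y hY v
    have hXX : g.XX X := hX.1
    have hYY : g.XX Y := hY.1
    have hlenX := hXX.1
    have hex : ∀ k, k < K → ∀ P Q v u, P.length = c k → Q.length = g.p0 - c k →
      lam2 k P = some v → rho2 k Q = some u → u = pre act ph nu2 (P ++ Q) v :=
      fun k hk P Q v u h1 _ h3 h4 => e1 k hk P Q v u h1 h3 h4
    have hthin' : ∀ τ, g.z ≤ τ + g.p0 → ∀ J : Finset ℕ, (∀ k ∈ J, k < K ∧
      ∃ k', k' < K ∧ k' ≠ k ∧ BT (τ + c k' - c k - g.p0)) → J.card ≤ C0 := by
      intro τ hτ J hJ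
      refine hthin (τ - g.p0) (by omega) J ?_
      intro k hk
      obtain ⟨h1, k', h2, h3, h4⟩ := hJ k hk
      refine ⟨h1, k', h2, h3, ?_⟩
      have hck := hcK k h1
      have e : τ - g.p0 + c k' - c k = τ + c k' - c k - g.p0 := by omega
      rw [e]; exact h4
    have hI : ∃ I : Finset ℕ, 2 * C0 + 2 ≤ I.card ∧ ∀ k ∈ I, k < K ∧
      lam2 k (X.take (c k)) = some v ∧ (rho2 k ((X.take g.p0).drop (c k))).isSome := by
      obtain ⟨I, h1, h2⟩ := e2 (X.take g.p0) v (by
        intro k hk
        have := hcp k hk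
        rw [List.length_take]; omega)
      refine ⟨I, h1, fun k hk => ?_⟩
      obtain ⟨h3, h4, h5⟩ := h2 k hk
      have := hcp k h3
      rw [List.take_take, Nat.min_eq_left this] at h4
      exact ⟨h3, h4, h5⟩
    obtain ⟨P, Q, b, hPQ, hP, hQ⟩ := g.complete2 (pre act ph nu2) (post act ph nu1) (BadT := BT)
      hcp hgap (by rw [hgN]; exact hsp) hthin' hXX hYY v hI
    refine ⟨P, Q, hPQ, hP, ?_⟩
    have hb : g.T (pre act ph nu2) (post act ph nu1)
        (g.T (pre act ph nu2) (post act ph nu1) v X) Y = b := by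
      obtain ⟨X2, h1, h2, h3⟩ := g.sound2 (pre act ph nu2) (post act ph nu1) hcp hex hXX hX.2 hP hQ
        (R := []) (R' := Y) (by rw [List.append_nil]; exact hPQ)
      have h4 : X2 = Y := by
        rw [hPQ] at h2
        exact (List.append_cancel_left h2).symm
      rw [← h4]; exact h3
    intro x P' hP'
    have hwall : g.Wo (P' ++ Q) ∧ g.z ≤ (P' ++ Q).length := by
      obtain ⟨k, hk, l, -, -, hX2, -⟩ := hQ
      have h1 := hX2.1
      have h2 := hX2.2.1
      have e : P' ++ Q = (P' ++ Q.take l) ++ Q.drop l := by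
        rw [List.append_assoc, List.take_append_drop]
      rw [e]
      refine ⟨(g.loc _ _ (by omega)).2 h2, ?_⟩
      rw [List.length_append]; omega
    have hpre : ∃ X', g.XX X' ∧ X' <+: P' ++ Q := by
      by_contra hno
      push Not at hno
      have h1 : P4_933.NB g.Wo g.z (P' ++ Q) := by
        rw [P4_933.NB_iff]
        intro P0 h2 h3
        exact hno P0 ((hXXiff P0).2 h3) h2
      refine h1 (P' ++ Q).length le_rfl hwall.2 ?_
      rw [List.take_length]; exact hwall.1
    obtain ⟨X', hX', hpf⟩ := hpre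
    by_cases hbad : g.BadX BT X'
    · left
      obtain ⟨R', hR'⟩ := hpf
      obtain ⟨X2, h1, h2, h3⟩ := g.sound2 (pre act ph nu2) (post act ph nu1) hcp hex hX' hbad hP' hQ
        (R := []) (R' := R') (by rw [List.append_nil]; exact hR'.symm)
      refine ⟨X', ⟨hX', hbad⟩, X2, h1, h2.symm, ?_⟩
      rw [← hph, ← hph, ← hph, ← hph, ← hTe, ← hTe, ← hTe, ← hTe, h3, hb]
    · right
      exact ⟨X', hX', fun h => hbad h.2, hpf⟩

theorem fin (α : Type) [Finite α] (S : Type) [Monoid S] [Finite S] (φ : α → S) (s : S) :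
    HL 3 ({w | (w.map φ).prod = s} : Language α) := by
  classical
  haveI : Finite (Two_621.Tok S) := Pi.finite
  haveI : Fintype S := Fintype.ofFinite S
  haveI : Fintype (Two_621.Tok S) := Fintype.ofFinite _
  obtain ⟨C0, hC0⟩ := Gad_164.gad S (Two_621.Tok S) Two_621.act
  obtain ⟨K, hK⟩ := ExactR_237.exact_gadget α S (Two_621.Tok S) φ Two_621.act (2 * C0 + 2)
  obtain ⟨N1, M, c, BT, hN1, hM, hcm, hsp, hthin, hper, hg⟩ := hC0 K
  obtain ⟨lam, rho, nu1, g1, g2, g3, g4⟩ := hg α (fun w => (w.map φ).prod) (by intro u v; simp)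
  obtain ⟨lam2, rho2, nu2, e1, e2⟩ := hK c (fun i j hij _ => hcm i j hij)
  obtain ⟨n, G, B, Wo, hLW, hgap, -, -, hfew⟩ :=
    LWallAll_922.walls_all_left α (2 * c K + 2 * N1) (by omega)
  let g : Sc2n_937.Geo α :=
    { Wo := Wo, n := n, z := c K + N1 + (n + 2 * c K + 2 * N1), p0 := c K,
      q0 := n + 2 * c K + 2 * N1, N1 := N1, loc := hLW.app, hz := rfl, hq := by omega,
      hN := hN1, hqp := by omega }
  refine join Two_621.act Two_621.act_add Two_621.act_one
    (fun v a b => (Two_621.act_mul v a b).symm)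
    (fun a b h => Two_621.act_faithful h) φ (fun w => (w.map φ).prod) (fun _ => rfl)
    (by intro u v; simp) C0 K N1 M c BT hM (fun k hk => (hcm k K hk).le) hsp hthin hper
    lam rho nu1 g1 g2 g3 g4 lam2 (fun k Q => rho2 k Q 1) (fun X => nu2 X 1) ?_ ?_ g hLW.len
    rfl rfl le_rfl ?_ (free_PN hfew) s
  · intro k hk P Q v b h1 h2 h3
    have h4 := e1 k hk P Q 1 v b h1 h2 h3
    rw [mul_one] at h4
    exact h4
  · intro u v hu
    exact e2 u 1 v hu
  · intro P Q h1 h2 h3
    have h4 : 0 < Q.length := List.length_pos_iff.2 h3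
    have h5 := hgap (P ++ Q) P.length (P ++ Q).length (by rw [List.length_append]; omega) le_rfl
      (by rw [List.take_left]; exact h1) (by rw [List.take_length]; exact h2)
    rw [List.length_append] at h5
    show 2 * c K + 2 * N1 < Q.length
    omega

end Crest.Agent.R320.Fin_164
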