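import Crest.Agent.R320.Top5_120
import Crest.Agent.R320.Sc2n_937
import Crest.Agent.R320.GridG_19
import Crest.Agent.R320.ExactR_237
import Crest.Agent.R320.LWallAll_922
import Crest.Agent.R320.Fib_81
import Crest.Agent.R320.Univ_582
import Crest.Agent.R320.FinA_172

/-!
# Row 320: the join (helper172)

120's `top5`, 937's schemes for the natural chain, 19's grid gadget (idea 693), 237's exact gadget,
922's walls (over 813's markers), 963's ruler, 81's height one lemmas.
-/

set_option autoImplicit false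

namespace Crest.Agent.R320.Fin_172

open Crest.RegLang Crest.Agent.R320.Hk_851 Crest.Agent.R320.GridG_19
open Crest.Agent.R320.Sc2n_937

/-- the congruence of bad totals -/
theorem badT_congr {Ms : Finset ℕ} {G : ℕ → ℕ} {M m : ℕ} (hM : M = ∏ q ∈ Ms, q)
    (hG : ∀ a b, a ≤ b → G a ∣ G b) {T T' : ℕ} (h1 : Am G M 0 m ≤ T) (h2 : Am G M 0 m ≤ T')
    (h : T ≡ T' [MOD M * G m]) :
    ((∃ q ∈ Ms, q ∣ T) ∨ BadG G M 0 m T) → ((∃ q ∈ Ms, q ∣ T') ∨ BadG G M 0 m T') := by
  rintro (⟨q, hq, hd⟩ | ⟨k, hk, hb⟩)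
  · refine Or.inl ⟨q, hq, ?_⟩
    have : T ≡ T' [MOD q] := h.of_dvd ((hM ▸ Finset.dvd_prod_of_mem _ hq).mul_right _)
    exact (this.dvd_iff (dvd_refl q)).1 hd
  · refine Or.inr ⟨k, hk, ?_⟩
    have e1 : Am G M 0 (k + 1) ≤ T := (Am_mono G M 0 (by omega)).trans h1
    have e2 : Am G M 0 (k + 1) ≤ T' := (Am_mono G M 0 (by omega)).trans h2
    have e3 : T ≡ T' [MOD G (k + 1)] := h.of_dvd ((hG _ _ (by omega)).mul_left _)
    have e4 : T - Am G M 0 (k + 1) ≡ T' - Am G M 0 (k + 1) [MOD G (k + 1)] := by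
      refine Nat.ModEq.add_right_cancel' (Am G M 0 (k + 1)) ?_
      rw [Nat.sub_add_cancel e1, Nat.sub_add_cancel e2]
      exact e3
    have e5 : (T - Am G M 0 (k + 1)) % G (k + 1) = (T' - Am G M 0 (k + 1)) % G (k + 1) := e4
    rw [← e5]
    exact hb

theorem fin (α : Type) [Finite α] (S : Type) [Monoid S] [Finite S] (φ : α → S) (s : S) :
    HL 3 ({w | (w.map φ).prod = s} : Language α) := by
  classical
  haveI := Fintype.ofFinite S
  -- the module
  let V : Type := S → ZMod 2
  haveI : Fintype V := inferInstanceAs (Fintype (S → ZMod 2))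
  let act : V → S → V := fun v s x => v (s * x)
  have hadd : ∀ (a b : V) (s : S), act (a + b) s = act a s + act b s := fun a b s => rfl
  have hone : ∀ v : V, act v 1 = v := fun v => by funext x; simp [act]
  have hmul : ∀ (v : V) (s t : S), act v (s * t) = act (act v s) t := fun v s t => by
    funext x; simp [act, mul_assoc]
  have hfaith : ∀ s t : S, (∀ v : V, act v s = act v t) → s = t := by
    intro s t h
    by_contra hne
    have h1 := congrFun (h (fun x => if x = s then 1 else 0)) 1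
    simp only [act, mul_one, if_true] at h1
    rw [if_neg (fun h2 => hne h2.symm)] at h1
    exact one_ne_zero h1
  -- the grid gadget: m, r
  obtain ⟨m, r, hgrid⟩ := grid.{0} S V act
  -- the exact gadget: K
  obtain ⟨K, hexact⟩ := Crest.Agent.R320.ExactR_237.exact_gadget α S V φ act (2 * (r + m) + 2)
  -- the moduli
  obtain ⟨Ms, hcard, hpr, hgrid⟩ := hgrid (2 ^ (K + 1))
  set M := ∏ q ∈ Ms, q with hM
  have hM0 : 0 < M := Finset.prod_pos fun q hq => (hpr q hq).1.pos
  set g : ℕ := 2 ^ (K + 5) * M + 1 with hg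
  let G : ℕ → ℕ := fun i => g ^ i
  have hg0 : 0 < g := by omega
  have hG0 : ∀ i, 0 < G i := fun i => by positivity
  have hGd : ∀ a b, a ≤ b → G a ∣ G b := fun a b h => pow_dvd_pow _ h
  have hcopM : Nat.Coprime M g := by
    rw [hg, Nat.coprime_mul_right_add_right]
    exact Nat.coprime_one_right _
  obtain ⟨lam, rho, nu, g1, g2, g3, g4, g5⟩ := hgrid G 0 hG0 hGd
    (fun k => Nat.Coprime.pow_right _ hcopM) α (fun w => (w.map φ).prod)
    (fun u v => by rw [List.map_append, List.prod_append])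
  set A1 := Am G M 0 m with hA1
  set N1 : ℕ := A1 + 1 with hN1
  -- the ruler
  obtain ⟨X0, hX0, hX1, hthin⟩ := FinA_172.ruler K m Ms hpr (2 * N1) g hg
  let c : ℕ → ℕ := fun k => X0 * 2 ^ k
  have hcmono : ∀ i j, i < j → c i < c j := fun i j hij =>
    Nat.mul_lt_mul_of_pos_left (Nat.pow_lt_pow_right (by norm_num) hij) hX0
  set p0 : ℕ := c K with hp0
  have hcp : ∀ k, k < K → c k ≤ p0 := fun k hk => (hcmono k K hk).le
  -- the exact gadget
  obtain ⟨lam2, rho2, nu2, x1, x2⟩ := hexact c (fun i j hij _ => hcmono i j hij)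
  -- the walls
  obtain ⟨n, _, B, Wo, hLW, hgapW, _, _, hB⟩ :=
    Crest.Agent.R320.LWallAll_922.walls_all_left α (2 * p0 + 2 * N1) (by omega)
  set q0 : ℕ := n + 2 * p0 + 2 * A1 + M + G m with hq0
  let geo : Geo α :=
    { Wo := Wo, n := n, z := p0 + N1 + q0, p0 := p0, q0 := q0, N1 := N1
      loc := hLW.app, hz := rfl, hq := by omega, hN := by omega, hqp := by omega }
  let z : ℕ := p0 + N1 + q0
  let C : Set (List α) := Crest.Agent.R320.Fib_81.XX Wo z
  let BadT : ℕ → Prop := fun T => (∃ q ∈ Ms, q ∣ T) ∨ BadG G M 0 m T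
  let Bad : Set (List α) := {X | X ∈ C ∧ geo.BadX BadT X}
  let pre : List α → V → V := fun u v => act v (u.map φ).prod + nu2 u 1
  let post : V → List α → V := fun v u => act v (u.map φ).prod + nu u
  let nu' : List α → V := fun X => act (nu2 (X.take p0) 1) ((X.drop p0).map φ).prod + nu (X.drop p0)
  have hTeq : ∀ (v : V) (X : List α), geo.T pre post v X = act v (X.map φ).prod + nu' X := by
    intro v X
    show act (act v ((X.take p0).map φ).prod + nu2 (X.take p0) 1) ((X.drop p0).map φ).prod +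
      nu (X.drop p0) = _
    rw [hadd, ← hmul, ← List.prod_append, ← List.map_append, List.take_append_drop, add_assoc]
  let L1 : V → Set (List α) := fun v => {P | geo.LP1 pre lam v P}
  let L2 : V → Set (List α) := fun v => {P | Geo.LP2 K c (fun k P => lam2 k P) v P}
  have hlen1 : ∀ (P : List α) (v : V), lam P = some v → P.length ≤ N1 := fun P v h => by
    have := (g2 P v h).2
    omega
  have hex1 : ∀ (P Q : List α) (u b : V), lam P = some u → rho Q = some b → b = post u (P ++ Q) :=
    fun P Q u b h1 h2 => g1 P Q u b h1 h2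
  have hex2 : ∀ k, k < K → ∀ (P Q : List α) (v u : V), P.length = c k → Q.length = p0 - c k →
      lam2 k P = some v → rho2 k Q 1 = some u → u = pre (P ++ Q) v := by
    intro k hk P Q v u hP _ h1 h2
    have := x1 k hk P Q 1 v u hP h1 h2
    rw [mul_one] at this
    exact this
  have hgap : ∀ P Q : List α, Wo P → Wo (P ++ Q) → Q ≠ [] → 2 * p0 + 2 * N1 < Q.length := by
    intro P Q h1 h2 h3
    have h4 : 0 < Q.length := List.length_pos_of_ne_nil h3
    have := hgapW (P ++ Q) P.length (P ++ Q).length (by rw [List.length_append]; omega) le_rfl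
      (by rw [List.take_left]; exact h1) (by rw [List.take_length]; exact h2)
    rw [List.length_append] at this
    omega
  have hzpos : 0 < z := by show 0 < p0 + N1 + q0; omega
  -- height one
  have hkeyC : ∀ X ∈ C, ∀ Y ∈ C, X.take (z + N1 + p0 + (A1 + G m)) = Y.take (z + N1 + p0 + (A1 + G m)) →
      ((X.drop (z + N1 + p0 + (A1 + G m))).map φ).prod =
        ((Y.drop (z + N1 + p0 + (A1 + G m))).map φ).prod →
      X.length % (M * G m) = Y.length % (M * G m) →
      (X.map φ).prod = (Y.map φ).prod ∧ nu' X = nu' Y ∧ (geo.BadX BadT X → geo.BadX BadT Y) := by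
    intro X hX Y hY ht hd hl
    have hXz : p0 + N1 + q0 ≤ X.length := hX.1
    have hYz : p0 + N1 + q0 ≤ Y.length := hY.1
    have ht' : ∀ t, t ≤ z + N1 + p0 + (A1 + G m) → X.take t = Y.take t := by
      intro t htt
      have := congrArg (List.take t) ht
      rwa [List.take_take, List.take_take, Nat.min_eq_left htt] at this
    have hprod : ∀ t, t ≤ z + N1 + p0 + (A1 + G m) →
        ((X.drop t).map φ).prod = ((Y.drop t).map φ).prod := by
      intro t htt
      have e : ∀ Z : List α, ((Z.drop t).map φ).prod =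
          (((Z.take (z + N1 + p0 + (A1 + G m))).drop t).map φ).prod *
          ((Z.drop (z + N1 + p0 + (A1 + G m))).map φ).prod := by
        intro Z
        rw [← List.prod_append, ← List.map_append]
        congr 2
        rw [List.drop_take]
        conv_lhs => rw [← List.take_append_drop (z + N1 + p0 + (A1 + G m) - t) (Z.drop t)]
        rw [List.drop_drop]
        congr 2
        omega
      rw [e X, e Y, ht, hd]
    refine ⟨?_, ?_, ?_⟩
    · have := hprod 0 (Nat.zero_le _)
      simpa using this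
    · show act (nu2 (X.take p0) 1) ((X.drop p0).map φ).prod + nu (X.drop p0) =
        act (nu2 (Y.take p0) 1) ((Y.drop p0).map φ).prod + nu (Y.drop p0)
      rw [ht' p0 (by omega), hprod p0 (by omega)]
      congr 1
      refine g5 _ _ ?_ ?_ ?_ ?_ (hprod p0 (by omega))
      · rw [List.length_drop]; show A1 + G m ≤ _; omega
      · rw [List.length_drop]; show A1 + G m ≤ _; omega
      · show (X.drop p0).take (A1 + G m) = (Y.drop p0).take (A1 + G m)
        rw [List.take_drop, List.take_drop, ht' (p0 + (A1 + G m)) (by omega)]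
      · rw [List.length_drop, List.length_drop]
        refine Nat.ModEq.add_right_cancel' p0 ?_
        rw [Nat.sub_add_cancel (by omega), Nat.sub_add_cancel (by omega)]
        exact hl
    · rintro (⟨t, h1, h2, h3, h4⟩ | h)
      · left
        have h4' : t < z + N1 := h4
        refine ⟨t, ?_, ?_, h3, h4⟩
        · have := congrArg List.length (ht' t (by omega))
          rw [List.length_take, List.length_take] at this
          omega
        · rw [← ht' t (by omega)]; exact h2
      · right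
        refine badT_congr hM hGd ?_ ?_ ?_ h
        · show A1 ≤ X.length - p0; omega
        · show A1 ≤ Y.length - p0; omega
        · show X.length - p0 ≡ Y.length - p0 [MOD M * G m]
          refine Nat.ModEq.add_right_cancel' p0 ?_
          rw [Nat.sub_add_cancel (by omega), Nat.sub_add_cancel (by omega)]
          exact hl
  have hCT : ∀ x y : V, HL 1 ({X | X ∈ C ∧ act x (X.map φ).prod + nu' X = y} : Language α) := by
    intro x y
    refine Crest.Agent.R320.Fib_81.HL_blocks (z := z) φ (z + N1 + p0 + (A1 + G m)) (M * G m)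
      (Nat.mul_pos hM0 (hG0 m)) hLW hB _ (fun X hX => hX.1) ?_
    intro X hX Y hY ht hd hl hXL
    obtain ⟨e1, e2, _⟩ := hkeyC X hX Y hY ht hd hl
    refine ⟨hY, ?_⟩
    rw [← e1, ← e2]; exact hXL.2
  have hBT : ∀ x y : V, HL 1 ({X | X ∈ Bad ∧ act x (X.map φ).prod + nu' X = y} : Language α) := by
    intro x y
    refine Crest.Agent.R320.Fib_81.HL_blocks (z := z) φ (z + N1 + p0 + (A1 + G m)) (M * G m)
      (Nat.mul_pos hM0 (hG0 m)) hLW hB _ (fun X hX => hX.1.1) ?_
    intro X hX Y hY ht hd hl hXL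
    obtain ⟨e1, e2, e3⟩ := hkeyC X hX Y hY ht hd hl
    refine ⟨⟨hY, e3 hXL.1.2⟩, ?_⟩
    rw [← e1, ← e2]; exact hXL.2
  have htail : ∀ s, HL 1 ({w | (∀ X ∈ C, ¬ X <+: w) ∧ (w.map φ).prod = s} : Language α) :=
    fun s => Crest.Agent.R320.Fib_81.HL_tail_prod (z := z) φ hLW hB s
  -- finiteness
  have hf1 : ∀ v, (L1 v).Finite := by
    intro v
    refine (List.finite_length_le α (p0 + N1)).subset ?_
    rintro P ⟨h1, h2⟩
    have h3 := hlen1 _ _ h2
    rw [List.length_drop] at h3
    show P.length ≤ p0 + N1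
    have h4 : P.length - p0 ≤ N1 := h3
    omega
  have hf2 : ∀ v, (L2 v).Finite := by
    intro v
    refine (List.finite_length_le α p0).subset ?_
    rintro P ⟨k, hk, h1, h2⟩
    show P.length ≤ p0
    rw [h1]; exact hcp k hk
  -- scheme 1
  have hcc1 : ∀ X ∈ C, X ∉ Bad → ∀ v, ∃ P Q, P ++ Q = X ∧ P ∈ L1 v ∧
      ∀ x, ∀ P' ∈ L1 x, P' ++ Q ∈ C ∧
        act x ((P' ++ Q).map φ).prod + nu' (P' ++ Q) = act v (X.map φ).prod + nu' X := by
    intro X hX hXb v
    have hXg : geo.XX X := hX
    have hnb : ¬ geo.BadX BadT X := fun h => hXb ⟨hX, h⟩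
    have hXz : p0 + N1 + q0 ≤ X.length := hX.1
    have hE : ¬ geo.E X := fun h => hnb (Or.inl h)
    have hT : ¬ BadT (X.length - p0) := fun h => hnb (Or.inr h)
    obtain ⟨P, Q, b, he, hP, hQ⟩ := geo.complete1 pre hlen1 hXg hE (by
      intro u
      obtain ⟨P, Q, e1, e2, e3⟩ := g4 (X.drop p0) (by rw [List.length_drop]; omega)
        (by rw [List.length_drop]; omega)
        (fun q hq hd => hT (Or.inl ⟨q, hq, by rw [List.length_drop] at hd; exact hd⟩))
        (fun hb => hT (Or.inr (by rw [List.length_drop] at hb; exact hb))) u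
      exact ⟨P, Q, e1.symm, e2, e3⟩) v
    refine ⟨P, Q, he.symm, hP, fun x P' hP' => ?_⟩
    obtain ⟨s1, s2⟩ := geo.sound1 pre post hlen1 hex1 hP' hQ
    obtain ⟨_, s4⟩ := geo.sound1 pre post hlen1 hex1 hP hQ
    refine ⟨s1, ?_⟩
    rw [← hTeq, ← hTeq, s2, he, s4]
  -- scheme 2
  have hcc2 : ∀ X ∈ Bad, ∀ Y ∈ Bad, ∀ v, ∃ P Q, P ++ Q = X ++ Y ∧ P ∈ L2 v ∧
      ∀ x, ∀ P' ∈ L2 x,
        (∃ X' ∈ Bad, ∃ Y' ∈ C, X' ++ Y' = P' ++ Q ∧
          act (act x (X'.map φ).prod + nu' X') (Y'.map φ).prod + nu' Y' =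
            act (act v (X.map φ).prod + nu' X) (Y.map φ).prod + nu' Y) ∨
        (∃ X' ∈ C, X' ∉ Bad ∧ X' <+: P' ++ Q) := by
    intro X hX Y hY v
    have hXz : p0 + N1 + q0 ≤ X.length := hX.1.1
    obtain ⟨P, Q, b, he, hP, hQ⟩ := geo.complete2 pre post (BadT := BadT) (K := K) (c := c)
      (lam2 := lam2) (rho2 := fun k Q => rho2 k Q 1) (C0 := r + m) hcp hgap
      (fun k k' l l' _ _ _ _ h5 h6 h7 h8 =>
        FinA_172.golomb hX1 k k' l l' h5 h6 h7 h8)
      (fun τ hτ J hJ => by
        have hτ' : p0 + N1 + q0 ≤ τ + p0 := hτ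
        refine (hthin p0 τ hcp ?_ J hJ).trans (by omega)
        show 2 * p0 + A1 ≤ τ
        omega) (X := X) (X2 := Y) hX.1 hY.1 v (by
        obtain ⟨I, hI1, hI2⟩ := x2 (X.take p0) 1 v (fun k hk => by
          rw [List.length_take]
          have := hcp k hk
          omega)
        refine ⟨I, hI1, fun k hk => ?_⟩
        obtain ⟨i1, i2, i3⟩ := hI2 k hk
        refine ⟨i1, ?_, i3⟩
        rw [List.take_take, Nat.min_eq_left (hcp k i1)] at i2
        exact i2)
    refine ⟨P, Q, he, hP, fun x P' hP' => ?_⟩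
    -- the value
    have hval : geo.T pre post (geo.T pre post v X) Y = b := by
      obtain ⟨X2, w1, w2, w3⟩ := geo.sound2 pre post (BadT := BadT) (lam2 := lam2)
        (rho2 := fun k Q => rho2 k Q 1) hcp hex2 (R := []) (R' := Y) hX.1 hX.2 hP hQ
        (by rw [List.append_nil, he])
      have : X2 = Y := by
        rw [he] at w2
        exact (List.append_cancel_left w2).symm
      rw [this] at w3
      exact w3
    -- the first block of the other word
    obtain ⟨k1, hk1, hP1, hP2⟩ := hP'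
    obtain ⟨k, hk, l, hend, hgood, hX2, u, hu, hb⟩ := hQ
    have hblock : ∃ l', geo.CEnd Q (c k1) l' := by
      by_cases hkk : k1 = k
      · subst hkk; exact ⟨l, hend⟩
      · obtain ⟨l', h', _⟩ := hgood k1 hk1 hkk
        exact ⟨l', h'⟩
    obtain ⟨l', hl'⟩ := hblock
    have hXX : geo.XX (P' ++ Q.take l') :=
      geo.xx_of_cend (by rw [hP1]; exact hcp k1 hk1) (by rw [hP1]; exact hl')
    have hpre' : (P' ++ Q.take l') ++ Q.drop l' = P' ++ Q := by
      rw [List.append_assoc, List.take_append_drop]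
    by_cases hbad : geo.BadX BadT (P' ++ Q.take l')
    · left
      obtain ⟨X2, w1, w2, w3⟩ := geo.sound2 pre post (BadT := BadT) (lam2 := lam2)
        (rho2 := fun k Q => rho2 k Q 1) hcp hex2 (R := []) (R' := Q.drop l') hXX hbad
        ⟨k1, hk1, hP1, hP2⟩ ⟨k, hk, l, hend, hgood, hX2, u, hu, hb⟩
        (by rw [List.append_nil, hpre'])
      refine ⟨P' ++ Q.take l', ⟨hXX, hbad⟩, X2, w1, w2.symm, ?_⟩
      rw [← hTeq, ← hTeq, ← hTeq, ← hTeq, w3, hval]
    · right
      exact ⟨P' ++ Q.take l', hXX, fun h => hbad h.2, ⟨Q.drop l', hpre'⟩⟩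
  exact Crest.Agent.R320.Top5_120.top5 act hadd hone hmul hfaith φ nu' C Bad
    (Crest.Agent.R320.Fib_81.XX_pcode hzpos) (fun X hX => hX.1) L1 L2 hf1 hf2 hCT hBT htail
    hcc1 hcc2 s

/-- the whole row -/
theorem row (α : Type*) [Finite α] (L : Language α) (hL : L.IsRegular) :
    ∃ e : Crest.RegLang.GRegExp α, e.height ≤ 3 ∧ e.lang = L :=
  Crest.Agent.R320.Univ_582.final (k := 3) (fun β _ S _ _ φ s => fin β S φ s) α L hL

end Crest.Agent.R320.Fin_172
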