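import Crest.Agent.R320.LetMap_922
import Crest.Agent.R320.Hk2_851

/-!
# Row 320: universe bookkeeping (helper366)

It is enough to treat the alphabets `Fin n` and the finite monoids `S : Type`.
-/

set_option autoImplicit false

namespace Crest.Agent.R320.Uni_366

open Crest.RegLang Crest.Agent.R320.Hk_851

universe u

theorem final0
    (h : ∀ (n : ℕ) (S : Type) [Monoid S] [Finite S] (φ : Fin n → S) (s : S),
      HL 3 ({w | (w.map φ).prod = s} : Language (Fin n)))
    (α : Type u) [Finite α] (L : Language α) (hL : L.IsRegular) :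
    ∃ e : GRegExp α, e.height ≤ 3 ∧ e.lang = L :=
  LetMap_922.of_fin_result (m := 3)
    (fun n L hL => of_monoid (fun S _ _ φ s => h n S φ s) L hL) α L hL

theorem final1
    (h : ∀ (α : Type) [Finite α] (S : Type) [Monoid S] [Finite S] (φ : α → S) (s : S),
      HL 3 ({w | (w.map φ).prod = s} : Language α))
    (α : Type u) [Finite α] (L : Language α) (hL : L.IsRegular) :
    ∃ e : GRegExp α, e.height ≤ 3 ∧ e.lang = L :=
  final0 (fun n S _ _ φ s => h (Fin n) S φ s) α L hL

end Crest.Agent.R320.Uni_366
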