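import Crest.Agent.R320.FinA_177
import Crest.Agent.R320.ExactR_237
import Crest.Agent.R320.Thin_963
import Crest.Agent.R320.P4_440
import Crest.Agent.R320.Grid_390
import Crest.Agent.R320.Uni_366

/-! Row 320: constants and join (helper177). -/

set_option autoImplicit false

namespace Crest.Agent.R320.Fin_177

open Crest.Agent.R320.Sc2n_937 Crest.RegLang Crest.Agent.R320.Hk_851 Crest.Agent.R320.Blk467

/-- distinct odd primes above a bound -/
theorem exists_primes (k N : ℕ) : ∃ q : Fin k → ℕ, Function.Injective q ∧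
    ∀ j, (q j).Prime ∧ N ≤ q j ∧ 2 < q j := by
  have h : {p : ℕ | p.Prime ∧ N + 3 ≤ p}.Infinite := by
    rw [Set.infinite_iff_exists_gt]
    intro a
    obtain ⟨p, h1, h2⟩ := Nat.exists_infinite_primes (a + N + 3)
    exact ⟨p, ⟨h2, by omega⟩, by omega⟩
  refine ⟨fun j => (h.natEmbedding _ j : ℕ), ?_, ?_⟩
  · intro i j hij
    have := (h.natEmbedding _).injective (Subtype.ext hij)
    exact Fin.ext this
  · intro j
    have h1 := (h.natEmbedding _ (j : ℕ)).2
    have h2 : N + 3 ≤ ((h.natEmbedding _ (j : ℕ)) : ℕ) := h1.2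
    refine ⟨h1.1, ?_, ?_⟩
    · show N ≤ ((h.natEmbedding _ (j : ℕ)) : ℕ)
      omega
    · show 2 < ((h.natEmbedding _ (j : ℕ)) : ℕ)
      omega

/-- the bad totals of 390's gadget -/
def Bd {k : ℕ} (q : Fin k → ℕ) (κ m : ℕ) (T : ℕ) : Prop :=
  ¬ ((∀ j, ¬ q j ∣ T) ∧ (∀ j, 1 ≤ j → j ≤ m →
    (∏ j, q j) * Grid_390.G κ (j - 1) ≤
      (T - Grid_390.Am (∏ j, q j) κ j) % Grid_390.G κ j ∧
    (T - Grid_390.Am (∏ j, q j) κ j) % Grid_390.G κ j +
      (∏ j, q j) * Grid_390.G κ (j - 1) ≤ Grid_390.G κ j))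

open Classical in
/-- bad totals are bad in 963's sense -/
theorem bd_thin {k : ℕ} {q : Fin k → ℕ} {κ m T : ℕ}
    (hT : Grid_390.Am (∏ j, q j) κ m ≤ T) (h : Bd q κ m T) :
    Thin963.BadT (Finset.univ.image q) m (fun i => (Grid_390.G κ i : ℤ))
      (fun i => ((∏ j, q j) * Grid_390.G κ i : ℕ)) (fun i => (Grid_390.Am (∏ j, q j) κ i : ℤ))
      (T : ℤ) := by
  unfold Bd at h
  rw [not_and_or] at h
  rcases h with h | h
  · push Not at h
    obtain ⟨j, hj⟩ := h
    left
    exact ⟨q j, Finset.mem_image_of_mem q (Finset.mem_univ j), by exact_mod_cast hj⟩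
  · push Not at h
    obtain ⟨j, h1, h2, h3⟩ := h
    right
    obtain ⟨i, rfl⟩ : ∃ i, j = i + 1 := ⟨j - 1, by omega⟩
    refine ⟨i, by omega, ?_⟩
    have hA : Grid_390.Am (∏ j, q j) κ (i + 1) ≤ T :=
      le_trans (Grid_390.Am_mono h2) hT
    have hG : 0 < Grid_390.G κ (i + 1) := Grid_390.G_pos _
    rw [Nat.add_sub_cancel] at h3
    set A := Grid_390.Am (∏ j, q j) κ (i + 1) with hAd
    set g := Grid_390.G κ (i + 1) with hgd
    set cc := (∏ j, q j) * Grid_390.G κ i with hcc
    have hr := Nat.mod_lt (T - A) hG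
    have hd := Nat.div_add_mod (T - A) g
    set r := (T - A) % g with hrd
    set d := (T - A) / g with hdd
    have hTz : (T : ℤ) - A = g * d + r := by
      have : ((T - A : ℕ) : ℤ) = (T : ℤ) - A := by rw [Nat.cast_sub hA]
      rw [← this, ← hd]; push_cast; ring
    show ∃ e : ℤ, |e| ≤ (cc : ℤ) ∧ (g : ℤ) ∣ (T : ℤ) - A + e
    by_cases hc : cc ≤ r
    · have h4 := h3 hc
      refine ⟨(g : ℤ) - r, ?_, ?_⟩
      · rw [abs_le]
        constructor <;> omega
      · rw [hTz]; exact ⟨d + 1, by ring⟩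
    · refine ⟨-(r : ℤ), ?_, ?_⟩
      · rw [abs_neg, abs_le]
        constructor <;> omega
      · rw [hTz]; exact ⟨d, by ring⟩

/-- growth of the grids -/
theorem growth (M K κ : ℕ) (hκ : M * 2 ^ (K + 5) ≤ 2 ^ κ) (hk1 : 1 ≤ κ) (i : ℕ) :
    2 ^ (K + 4) * ∑ j ∈ Finset.range (i + 1), M * Grid_390.G κ j ≤ Grid_390.G κ (i + 1) := by
  have hs : ∀ i, ∑ j ∈ Finset.range (i + 1), Grid_390.G κ j ≤ 2 * Grid_390.G κ i := by
    intro i
    induction i with
    | zero => simp [Grid_390.G]
    | succ i ih =>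
      rw [Finset.sum_range_succ]
      have h1 : 2 * Grid_390.G κ i ≤ Grid_390.G κ (i + 1) := by
        unfold Grid_390.G
        calc 2 * 2 ^ (κ * i) = 2 ^ (1 + κ * i) := by rw [pow_add]; norm_num
          _ ≤ 2 ^ (κ * (i + 1)) := Nat.pow_le_pow_right (by norm_num) (by
              rw [Nat.mul_add, Nat.mul_one]; omega)
      omega
  rw [← Finset.mul_sum]
  calc 2 ^ (K + 4) * (M * ∑ j ∈ Finset.range (i + 1), Grid_390.G κ j)
      ≤ 2 ^ (K + 4) * (M * (2 * Grid_390.G κ i)) :=
        Nat.mul_le_mul_left _ (Nat.mul_le_mul_left _ (hs i))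
    _ = (M * 2 ^ (K + 5)) * Grid_390.G κ i := by rw [pow_succ 2 (K + 4)]; ring
    _ ≤ 2 ^ κ * Grid_390.G κ i := Nat.mul_le_mul_right _ hκ
    _ = Grid_390.G κ (i + 1) := by
        unfold Grid_390.G; rw [← pow_add]; congr 1; ring

/-- **the ruler** -/
theorem ruler {k : ℕ} (K m κ : ℕ) (q : Fin k → ℕ)
    (hq : ∀ j, (q j).Prime ∧ 2 ^ (K + 1) ≤ q j ∧ 2 < q j)
    (hκ : (∏ j, q j) * 2 ^ (K + 5) ≤ 2 ^ κ) (hk1 : 1 ≤ κ) (N0 : ℕ) :
    ∃ X : ℕ, N0 ≤ X ∧ 0 < X ∧ ∀ τ p0 : ℕ, (∀ i, i < K → X * 2 ^ i ≤ p0) →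
      2 * p0 + Grid_390.Am (∏ j, q j) κ m ≤ τ → ∀ J : Finset ℕ, (∀ i ∈ J, i < K ∧ ∃ i', i' < K ∧
        i' ≠ i ∧ Bd q κ m (τ + X * 2 ^ i' - X * 2 ^ i - p0)) → J.card ≤ k + m := by
  classical
  have hprod : 0 < ∏ j, q j := Finset.prod_pos fun j _ => (hq j).1.pos
  obtain ⟨X, h1, h2, h3⟩ := Thin963.thin K m (Finset.univ.image q)
    (fun i => (Grid_390.G κ i : ℤ)) (fun i => (((∏ j, q j) * Grid_390.G κ i : ℕ) : ℤ))
    (fun i => (Grid_390.Am (∏ j, q j) κ i : ℤ)) (by
      intro p hp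
      obtain ⟨j, _, rfl⟩ := Finset.mem_image.1 hp
      exact ⟨(hq j).1, (hq j).2.1⟩) (by
      intro p hp
      obtain ⟨j, _, rfl⟩ := Finset.mem_image.1 hp
      rw [Nat.isCoprime_iff_coprime]
      unfold Grid_390.G
      apply Nat.Coprime.pow_right
      rw [Nat.coprime_primes (hq j).1 Nat.prime_two]
      have := (hq j).2.2
      omega) (by exact_mod_cast Grid_390.G_pos (κ := κ) m) (by
      intro i j h
      exact Int.natCast_dvd_natCast.2 (Grid_390.G_dvd h)) (by
      intro i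
      exact_mod_cast Nat.mul_pos hprod (Grid_390.G_pos (κ := κ) i)) (by
      intro i
      exact Int.natCast_dvd_natCast.2 (Dvd.intro_left _ rfl)) (by
      intro i _
      have := growth (∏ j, q j) K κ hκ hk1 i
      exact_mod_cast this) (N0 : ℤ)
  lift X to ℕ using h2.le
  refine ⟨X, by exact_mod_cast h1, by exact_mod_cast h2, ?_⟩
  intro τ p0 hp hτ J hJ
  have h4 := h3 ((τ : ℤ) - p0)
  have hcard : (Finset.univ.image q).card ≤ k := by
    refine Finset.card_image_le.trans ?_
    simp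
  refine le_trans ?_ (h4.trans (Nat.add_le_add_right hcard m))
  choose! f hf using fun i (hi : i ∈ J) => (hJ i hi).2
  refine Finset.card_le_card_of_injOn (fun i => (f i, i)) ?_ ?_
  · intro i hi
    have hi' : i ∈ J := hi
    obtain ⟨a, b, c⟩ := hf i hi'
    have hiK := (hJ i hi').1
    simp only [Finset.coe_filter, Finset.mem_product, Finset.mem_range, Set.mem_setOf_eq]
    refine ⟨⟨a, hiK⟩, b, ?_⟩
    have e1 := hp _ a
    have e2 := hp _ hiK
    have := bd_thin (q := q) (κ := κ) (m := m) (T := τ + X * 2 ^ f i - X * 2 ^ i - p0)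
      (by omega) c
    have e : ((τ + X * 2 ^ f i - X * 2 ^ i - p0 : ℕ) : ℤ) =
        (τ : ℤ) - p0 + X * 2 ^ f i - X * 2 ^ i := by
      rw [Nat.cast_sub (by omega), Nat.cast_sub (by omega)]; push_cast; ring
    rw [e] at this
    convert this using 1
  · intro i _ j _ h
    exact (Prod.ext_iff.1 h).2

theorem take_congr {α : Type*} {w w' : List α} {p B : ℕ} (h : p ≤ B)
    (ht : w.take B = w'.take B) : w.take p = w'.take p := by
  have := congrArg (fun l => l.take p) ht
  simp only [List.take_take, Nat.min_eq_left h] at this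
  exact this

theorem drop_split {α : Type*} {U : List α} {p B : ℕ} (h : p ≤ B) (hU : B ≤ U.length) :
    U.drop p = (U.take B).drop p ++ U.drop B := by
  conv_lhs => rw [← List.take_append_drop B U]
  rw [List.drop_append_of_le_length]
  rw [List.length_take]
  omega

theorem take_drop_eq {α : Type*} {U : List α} {p L B : ℕ} (h : p + L ≤ B) :
    (U.drop p).take L = ((U.take B).drop p).take L := by
  rw [List.drop_take, List.take_take, Nat.min_eq_left (by omega)]

theorem hsp_pow {X A i i' l l' : ℕ} (hX : 2 * (A + 1) + 1 ≤ X) (h1 : i' ≠ i) (h2 : l' ≠ l)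
    (h3 : X * 2 ^ i + X * 2 ^ l' < X * 2 ^ l + X * 2 ^ i' + 2 * (A + 1))
    (h4 : X * 2 ^ l + X * 2 ^ i' < X * 2 ^ i + X * 2 ^ l' + 2 * (A + 1)) : i = l := by
  refine (Crest.Agent.R320.G369.pow_diff (i := i) (j := i') (i' := l) (j' := l')
    (Ne.symm h1) (Ne.symm h2) ?_).1
  zify at h3 h4 hX
  by_contra hne
  have hne' : ((2 : ℤ) ^ i + 2 ^ l') - (2 ^ l + 2 ^ i') ≠ 0 := fun h => hne (by linarith)
  generalize hD : ((2 : ℤ) ^ i + 2 ^ l') - (2 ^ l + 2 ^ i') = D at hne'
  have e : (X : ℤ) * D = (X * 2 ^ i + X * 2 ^ l') - (X * 2 ^ l + X * 2 ^ i') := by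
    rw [← hD]; ring
  rcases lt_or_gt_of_ne hne' with h | h
  · have : (X : ℤ) * D ≤ X * (-1) := mul_le_mul_of_nonneg_left (by omega) (by omega)
    linarith
  · have : (X : ℤ) * 1 ≤ X * D := mul_le_mul_of_nonneg_left (by omega) (by omega)
    linarith

theorem fin (α : Type) [Finite α] (S : Type) [Monoid S] [Finite S] (φ : α → S) (s : S) :
    HL 3 ({w | (w.map φ).prod = s} : Language α) := by
  classical
  haveI : Fintype S := Fintype.ofFinite S
  obtain ⟨act, hadd, hone, hmul, hfaith⟩ := exists_module S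
  have hphi : ∀ u v : List α, ExactR_237.pr φ (u ++ v) = ExactR_237.pr φ u * ExactR_237.pr φ v :=
    fun u v => ExactR_237.pr_append φ u v
  obtain ⟨k, m, hgrid⟩ := Grid_390.grid_gadget S (S → ZMod 2) act
  obtain ⟨K, hex⟩ := ExactR_237.exact_gadget α S (S → ZMod 2) φ act (2 * (k + m) + 2)
  obtain ⟨q, hinj, hq⟩ := exists_primes k (2 ^ (K + 1))
  obtain ⟨κ, hκ, hk1⟩ : ∃ κ, (∏ j, q j) * 2 ^ (K + 5) ≤ 2 ^ κ ∧ 1 ≤ κ := by
    refine ⟨(∏ j, q j) + (K + 5), ?_, by omega⟩
    calc (∏ j, q j) * 2 ^ (K + 5) ≤ 2 ^ (∏ j, q j) * 2 ^ (K + 5) :=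
          Nat.mul_le_mul_right _ (Nat.lt_two_pow_self).le
      _ = 2 ^ ((∏ j, q j) + (K + 5)) := (pow_add _ _ _).symm
  obtain ⟨lam, rho, nu1, hlam, hrho, hsound, hcomp, hfs⟩ := hgrid q
    (fun j => (hq j).1.odd_of_ne_two (by have := (hq j).2.2; omega))
    (fun i j hij => (Nat.coprime_primes (hq i).1 (hq j).1).2 fun h => hij (hinj h)) κ α
    (ExactR_237.pr φ) hphi
  obtain ⟨X, hX0, hXpos, hruler⟩ := ruler K m κ q hq hκ hk1
    (2 * (Grid_390.Am (∏ j, q j) κ m + 1) + 1)
  obtain ⟨lam2, rho2, nu2, hs2, hc2⟩ := hex (fun i => X * 2 ^ i) (by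
    intro i j hij _
    exact Nat.mul_lt_mul_of_pos_left (Nat.pow_lt_pow_right (by norm_num) hij) hXpos)
  have hAm : Grid_390.Am (∏ j, q j) κ m ≤ Grid_390.Am (∏ j, q j) κ (m + 1) :=
    Grid_390.Am_succ_ge m
  have hck : ∀ i, i < K → X * 2 ^ i ≤ X * 2 ^ K := fun i hi =>
    Nat.mul_le_mul_left _ (Nat.pow_le_pow_right (by norm_num) hi.le)
  have hprod : 0 < ∏ j, q j := Finset.prod_pos fun j _ => (hq j).1.pos
  have hGm : 0 < Grid_390.G κ m := Grid_390.G_pos m
  generalize hLa : Grid_390.Am (∏ j, q j) κ (m + 1) = La at *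
  generalize hAmm : Grid_390.Am (∏ j, q j) κ m = A at *
  generalize hp0 : X * 2 ^ K = p0 at *
  obtain ⟨n, cc, P, S0, hn, hP, hloc, hgap, -, -, hfew⟩ :=
    WallU_228.walls_full (α := α) (2 * p0 + 2 * (A + 1))
  let g : Geo α :=
    { Wo := WallU_228.Wo n S0, n := n, z := p0 + (A + 1) + (n + 2 * p0 + 2 * La), p0 := p0,
      q0 := n + 2 * p0 + 2 * La, N1 := A + 1, loc := hloc, hz := rfl, hq := by omega,
      hN := by omega, hqp := by omega }
  let pre : List α → (S → ZMod 2) → (S → ZMod 2) := fun u v =>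
    act v (ExactR_237.pr φ u) + nu2 u 1
  let post : (S → ZMod 2) → List α → (S → ZMod 2) := fun v u =>
    act v (ExactR_237.pr φ u) + nu1 u
  have hT : ∀ v X, g.T pre post v X = act v (X.map φ).prod +
      (act (nu2 (X.take p0) 1) (ExactR_237.pr φ (X.drop p0)) + nu1 (X.drop p0)) := by
    intro v X
    have e : (X.map φ).prod = ExactR_237.pr φ (X.take p0) * ExactR_237.pr φ (X.drop p0) := by
      rw [← hphi, List.take_append_drop]; rfl
    show act (act v (ExactR_237.pr φ (X.take p0)) + nu2 (X.take p0) 1)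
      (ExactR_237.pr φ (X.drop p0)) + nu1 (X.drop p0) = _
    rw [hadd, e, hmul, add_assoc]
  refine SemTop_727.top (k := 1) act hadd hone hmul hfaith φ
    (fun X => act (nu2 (X.take p0) 1) (ExactR_237.pr φ (X.drop p0)) + nu1 (X.drop p0))
    (FinA_177.sch g pre post lam lam2 K (fun i => X * 2 ^ i)) hT ?_ ?_ ?_ ?_ ?_ ?_ s
  · -- prefix code
    refine ⟨?_, ?_⟩
    · intro h
      have h1 : g.z ≤ ([] : List α).length := h.1
      have h2 : g.z = p0 + (A + 1) + (n + 2 * p0 + 2 * La) := rfl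
      rw [List.length_nil] at h1
      omega
    · rintro U hU Y hY ⟨r, hr⟩
      exact g.prefix_code (R := r) (R' := []) hU hY (by rw [List.append_nil]; exact hr)
  · -- fibres
    intro x y
    have hR : P4_440.Resp (ExactR_237.pr φ) (p0 + (A + 1) + (n + 2 * p0 + 2 * La))
        ((∏ j, q j) * Grid_390.G κ m) (fun U => g.T pre post x U = y) := by
      intro w w' hw hw' ht hd hl
      have hB : p0 + La ≤ p0 + (A + 1) + (n + 2 * p0 + 2 * La) := by omega
      generalize p0 + (A + 1) + (n + 2 * p0 + 2 * La) = B at hw hw' ht hd hB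
      have e1 : w.take p0 = w'.take p0 := take_congr (by omega) ht
      have e2 : ExactR_237.pr φ (w.drop p0) = ExactR_237.pr φ (w'.drop p0) := by
        rw [drop_split (U := w) (p := p0) (by omega) hw,
          drop_split (U := w') (p := p0) (by omega) hw', hphi, hphi, ht, hd]
      have e3 : nu1 (w.drop p0) = nu1 (w'.drop p0) := by
        refine (hfs (w.drop p0) (w'.drop p0) ?_ ?_ ?_ ?_ ?_).2
        · rw [List.length_drop]; omega
        · rw [List.length_drop]; omega
        · rw [take_drop_eq (U := w) hB, take_drop_eq (U := w') hB, ht]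
        · rw [List.length_drop, List.length_drop]
          refine Nat.ModEq.add_left_cancel' p0 ?_
          rw [Nat.add_sub_cancel' (by omega), Nat.add_sub_cancel' (by omega)]
          exact hl
        · rw [List.drop_drop, List.drop_drop,
            drop_split (U := w) (p := p0 + La) hB hw,
            drop_split (U := w') (p := p0 + La) hB hw', hphi, hphi, ht, hd]
      show g.T pre post x w = y ↔ g.T pre post x w' = y
      have e4 : g.T pre post x w = g.T pre post x w' := by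
        show act (act x (ExactR_237.pr φ (w.take p0)) + nu2 (w.take p0) 1)
          (ExactR_237.pr φ (w.drop p0)) + nu1 (w.drop p0) =
          act (act x (ExactR_237.pr φ (w'.take p0)) + nu2 (w'.take p0) 1)
          (ExactR_237.pr φ (w'.drop p0)) + nu1 (w'.drop p0)
        rw [e1, e2, e3]
      rw [e4]
    exact P4_440.HL_block (n := n) (S := S0) (z := p0 + (A + 1) + (n + 2 * p0 + 2 * La))
      (B := p0 + (A + 1) + (n + 2 * p0 + 2 * La)) (P := (∏ j, q j) * Grid_390.G κ m)
      hphi (by omega) le_rfl (Nat.mul_pos hprod hGm) hfew hR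
  · -- L1 finite
    intro x
    refine (List.finite_length_le α (p0 + A)).subset ?_
    rintro U ⟨h1, h2⟩
    have h3 := (hlam _ _ h2).1
    have h4 : (U.drop p0).length < A := h3
    have h5 : p0 ≤ U.length := h1
    rw [List.length_drop] at h4
    show U.length ≤ p0 + A
    omega
  · -- L2 finite
    intro x
    refine (List.finite_length_le α p0).subset ?_
    rintro U ⟨i, hi, h1, _⟩
    show U.length ≤ p0
    rw [h1]
    exact hck i hi
  · -- completeness of scheme 2
    refine FinA_177.hC2 (rho := rho) (rho2 := fun i Q => rho2 i Q 1) (BadT := Bd q κ m)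
      (C0 := k + m) ?_ ?_ ?_ ?_ ?_ ?_ ?_ ?_ ?_
    · intro P v h
      have := (hlam P v h).1
      show P.length ≤ A + 1
      omega
    · intro P Q u b h1 h2
      exact hsound P Q u b h1 h2
    · intro Y hY hB u
      have hY' : n + 2 * p0 + 2 * La + (A + 1) ≤ Y.length := hY
      have hB' := not_not.1 hB
      exact hcomp Y (by omega) hB'.1 hB'.2 u
    · exact hck
    · intro i hi P Q v u hPl hQl h1 h2
      have := hs2 i hi P Q 1 v u hPl h1 h2
      rw [mul_one] at this
      exact this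
    · intro P Q h1 h2 h3
      show 2 * p0 + 2 * (A + 1) < Q.length
      by_contra hlt
      refine hgap (P ++ Q) Q.length h2 (List.length_pos_iff.2 h3) (by omega) ?_
      rw [List.length_append, Nat.add_sub_cancel, List.take_left]
      exact h1
    · intro i i' l l' _ _ _ _ h1 h2 h3 h4
      exact hsp_pow (A := A) hX0 h1 h2 h3 h4
    · intro τ hτ J hJ
      have hτ' : p0 + (A + 1) + (n + 2 * p0 + 2 * La) ≤ τ + p0 := hτ
      exact hruler τ p0 hck (by omega) J hJ
    · intro U v hU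
      have hU' : p0 ≤ U.length := hU
      have hl : (U.take p0).length = p0 := by rw [List.length_take]; omega
      obtain ⟨I, h1, h2⟩ := hc2 (U.take p0) 1 v (by
        intro i hi
        rw [hl]
        exact hck i hi)
      refine ⟨I, h1, fun i hi => ?_⟩
      obtain ⟨a, b, c⟩ := h2 i hi
      rw [List.take_take, Nat.min_eq_left (hck i a)] at b
      exact ⟨a, b, c⟩
  · -- tails
    intro t
    have hR : P4_440.Resp (ExactR_237.pr φ) (p0 + (A + 1) + (n + 2 * p0 + 2 * La))
        1 (fun U => (U.map φ).prod = t) := by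
      intro w w' hw hw' ht hd hl
      have e : ∀ U : List α, (U.map φ).prod =
          ExactR_237.pr φ (U.take (p0 + (A + 1) + (n + 2 * p0 + 2 * La))) *
          ExactR_237.pr φ (U.drop (p0 + (A + 1) + (n + 2 * p0 + 2 * La))) := by
        intro U
        rw [← hphi, List.take_append_drop]; rfl
      show (w.map φ).prod = t ↔ (w'.map φ).prod = t
      rw [e w, e w', ht, hd]
    exact (P4_440.HL_rest hphi (by omega) le_rfl Nat.one_pos hfew hR).mono (by omega)

end Crest.Agent.R320.Fin_177
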