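import Crest.Agent.R320.SemTop_727
import Crest.Agent.R320.SemJ_832
import Crest.Agent.R320.G1_852
import Crest.Agent.R320.Sp_21
import Crest.Agent.R320.WallU_228
import Crest.Agent.R320.P4_440
import Crest.Agent.R320.Univ_234
import Crest.Agent.R320.ExactR_237

/-!
# Row 320: final composition (helper179)
-/

set_option autoImplicit false

namespace Crest.Agent.R320.Fin_179

open Crest.RegLang Crest.Agent.R320.Hk_851 Crest.Agent.R320.Blk467
  Crest.Agent.R320.WallU_228

/-- product of the letters -/
def ph {α S : Type} [Monoid S] (φ : α → S) (w : List α) : S := (w.map φ).prod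

theorem ph_append {α S : Type} [Monoid S] (φ : α → S) (u v : List α) :
    ph φ (u ++ v) = ph φ u * ph φ v := by simp [ph]

theorem fin (α : Type) [Finite α] (S : Type) [Monoid S] [Finite S] (φ : α → S) (s : S) :
    HL 3 ({w | (w.map φ).prod = s} : Language α) := by
  classical
  have := Fintype.ofFinite S
  obtain ⟨act, hadd, hone, hmul, hfaith⟩ := exists_module S
  obtain ⟨m, r, hG⟩ := G1_852.gadget act
  obtain ⟨K, hE⟩ := ExactR_237.exact_gadget α S (S → ZMod 2) φ act (2 * (r + m) + 2)
  obtain ⟨Ms, M, hcard, hMs, hM, hG2⟩ := hG (2 ^ (K + 1))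
  set b : ℕ := (2 ^ (K + 4) + 2) * M + 1 with hb
  have hb0 : 0 < b := by omega
  have hcop : Nat.Coprime b M := by
    rw [hb]
    exact (Nat.coprime_mul_right_add_left 1 M _).2 (Nat.coprime_one_left M)
  obtain ⟨lam, rho, nu1, g1, g2, g3, g4⟩ := hG2 b hb0 hcop α φ
  set N : ℕ := b ^ m with hN
  obtain ⟨c, hc1, hc2, hc3⟩ := Sp_21.spoil K N m M b Ms hM
    (fun k hk => ⟨(hMs k hk).2.2, (hMs k hk).1.le⟩) hcop (by omega)
  obtain ⟨lam2, rho2, nu2, e1, e2⟩ := hE c (fun i j h _ => by have := hc1 i j h; omega)
  set p0 : ℕ := c K with hp0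
  have hcle : ∀ k < K, c k ≤ p0 := fun k hk => by have := hc1 k K hk; omega
  obtain ⟨n, cc, Pp, Sw, hn, hPp, hloc, hgap, -, -, hfew⟩ :=
    walls_full (α := α) (2 * p0 + 2 * N)
  set z : ℕ := p0 + n + 2 * N + 2 * p0 + 1 with hz
  let D : SemJ_832.Dat α S (S → ZMod 2) :=
    { phi := ph φ
      act := act
      Wo := Wo n Sw
      n := n
      W := 2 * p0 + 2 * N
      z := z
      p0 := p0
      N := N
      K := K
      C0 := r + m
      Lam := p0
      BadT := Sp_21.Bad m M b Ms
      lam := lam
      rho := rho
      nu1 := nu1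
      c := c
      lam2 := lam2
      rho2 := fun k Q => rho2 k Q 1
      nu2 := fun P => nu2 P 1
      hloc := hloc
      hgap := by
        intro X t t' h1 h2 h3 h4
        by_contra hc
        have hl : (X.take t').length = t' := by rw [List.length_take]; omega
        refine hgap (X.take t') (t' - t) h4 (by omega) (by omega) ?_
        rw [hl, List.take_take, show min (t' - (t' - t)) t' = t by omega]
        exact h3
      g_len := fun p v h => (g1 p v h).le
      g_sound := fun p q v r h1 h2 => g2 p q v r h1 h2
      g_comp := by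
        intro u _ hB v
        have h1 : ∀ k ∈ Ms, ¬ k ∣ u.length := fun k hk hd => hB (Or.inl ⟨k, hk, hd⟩)
        have h2 : ∀ j < m, M ≤ u.length / b ^ j % b ∧ u.length / b ^ j % b + M < b := by
          intro j hj
          by_contra hc
          refine hB (Or.inr ⟨j, hj, fun h => hc ⟨h.1, ?_⟩⟩)
          have := h.2
          omega
        obtain ⟨P, Q, h3, h4, v', h5⟩ := g3 u h1 h2 v
        exact ⟨P, Q, h3.symm, h4, by rw [h5]; rfl⟩
      e_sound := by
        intro k hk P Q v b' h1 h2 h3
        have := e1 k hk P Q 1 v b' h1 h2 h3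
        rw [mul_one] at this
        exact this
      e_comp := fun u v h => e2 u 1 v h
      c_le := hcle
      rulerE := by
        intro i _ j _ i' _ j' _ h1 h2 h3 h4
        by_contra hc
        have hne : (i, j) ≠ (i', j') := by
          intro h
          rw [Prod.mk.injEq] at h
          exact hc h
        rcases hc2 i j i' j' h1 h2 hne with h | h <;> omega
      rulerB := by
        intro T _ hT
        set F := ((Finset.range K) ×ˢ (Finset.range K)).filter
          (fun ab : ℕ × ℕ => ab.1 ≠ ab.2 ∧ Sp_21.Bad m M b Ms (T + c ab.1 - c ab.2)) with hF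
        have h1 : (F.image Prod.swap).card ≤ Ms.card + m := by
          refine hc3 T (fun i hi => (hcle i hi).trans hT) _ ?_
          intro p hp
          rw [Finset.mem_image] at hp
          obtain ⟨q, hq, rfl⟩ := hp
          rw [hF, Finset.mem_filter, Finset.mem_product, Finset.mem_range, Finset.mem_range] at hq
          exact ⟨hq.1.2, hq.1.1, fun h => hq.2.1 h.symm, hq.2.2⟩
        rw [Finset.card_image_of_injective _ Prod.swap_injective] at h1
        exact h1.trans (by omega)
      h_p0 := le_refl _
      z_pos := by omega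
      h_z := by omega
      h_W := by omega }
  let D' : SemTop_727.Sch α (S → ZMod 2) :=
    { XX := D.Z
      T := D.T
      L1 := D.L1
      L2 := D.L2 }
  let nu : List α → (S → ZMod 2) := fun X =>
    act (nu2 (X.take p0) 1) (ph φ (X.drop p0)) + nu1 (X.drop p0)
  have hTT : ∀ v X, D'.T v X = act (act v (ph φ (X.take p0)) + nu2 (X.take p0) 1)
      (ph φ (X.drop p0)) + nu1 (X.drop p0) := fun v X => rfl
  have hT : ∀ v X, D'.T v X = act v (X.map φ).prod + nu X := by
    intro v X
    have e : (X.map φ).prod = ph φ (X.take p0) * ph φ (X.drop p0) := by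
      rw [← ph_append, List.take_append_drop]; rfl
    rw [hTT, hadd, e, hmul, add_assoc]
  have hC : PCode D'.XX := by
    refine ⟨fun h => ?_, ?_⟩
    · have : z ≤ ([] : List α).length := h.1
      simp at this
    · intro X hX Y hY h
      obtain ⟨t, rfl⟩ := h
      rcases t.eq_nil_or_concat with ht | ⟨t', a, ht⟩
      · rw [ht, List.append_nil]
      · exfalso
        have hlt : X.length < (X ++ t).length := by
          rw [ht]; simp
        refine hY.2.2 X.length hX.1 hlt ?_
        rw [List.take_left]
        exact hX.2.1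
  have hNz : p0 + N ≤ z := by omega
  have hdrop : ∀ (w : List α) (j : ℕ), j ≤ z → z ≤ w.length →
      w.drop j = (w.take z).drop j ++ w.drop z := by
    intro w j hj hw
    conv_lhs => rw [← List.take_append_drop z w]
    rw [List.drop_append_of_le_length (by rw [List.length_take]; omega)]
  have hfib : ∀ x y, HL 1 (D'.fib x y) := by
    intro x y
    refine (P4_440.HL_block (φ := ph φ) (B := z) (P := M * N) (R := fun X => D'.T x X = y)
      (ph_append φ) (by omega) (le_refl z) (Nat.mul_pos hM (by rw [hN]; positivity)) hfew
      ?_).congr fun w => Iff.rfl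
    intro w w' h1 h2 h3 h4 h5
    have a1 : w.take p0 = w'.take p0 := by
      have := congrArg (List.take p0) h3
      rwa [List.take_take, List.take_take, min_eq_left (by omega)] at this
    have a2 : ph φ (w.drop p0) = ph φ (w'.drop p0) := by
      rw [hdrop w p0 (by omega) h1, hdrop w' p0 (by omega) h2, ph_append, ph_append, h3, h4]
    have a3 : nu1 (w.drop p0) = nu1 (w'.drop p0) := by
      refine (g4 (w.drop p0) (w'.drop p0) ?_ ?_ ?_).2
      · rw [hdrop w p0 (by omega) h1, hdrop w' p0 (by omega) h2,
          List.take_append_of_le_length (by rw [List.length_drop, List.length_take]; omega),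
          List.take_append_of_le_length (by rw [List.length_drop, List.length_take]; omega), h3]
      · show ph φ _ = ph φ _
        rw [List.drop_drop, List.drop_drop, hdrop w (p0 + N) (by omega) h1,
          hdrop w' (p0 + N) (by omega) h2, ph_append, ph_append, h3, h4]
      · rw [List.length_drop, List.length_drop]
        have h6 : (w.length - p0) + p0 ≡ (w'.length - p0) + p0 [MOD M * N] := by
          rw [Nat.sub_add_cancel (by omega), Nat.sub_add_cancel (by omega)]
          exact h5
        exact Nat.ModEq.add_right_cancel' p0 h6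
    show D'.T x w = y ↔ D'.T x w' = y
    rw [hTT, hTT, a1, a2, a3]
  have hL1 : ∀ x, (D'.L1 x).Finite := by
    intro x
    refine (List.finite_length_le α (p0 + N)).subset ?_
    rintro P ⟨_, h2⟩
    have := g1 _ _ h2
    rw [List.length_drop] at this
    show P.length ≤ p0 + N
    change P.length - p0 < N at this
    omega
  have hL2 : ∀ x, (D'.L2 x).Finite := by
    intro x
    refine (List.finite_length_le α p0).subset ?_
    rintro P ⟨k, hk, h1, _⟩
    show P.length ≤ p0
    exact h1.le.trans (hcle k hk)
  refine SemTop_727.top (k := 1) act hadd hone hmul hfaith φ nu D' hT hC hfib hL1 hL2 ?_ ?_ s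
  · intro X1 h1 X2 h2 x
    exact D.hC2 h1 h2 x
  · intro s
    refine ((P4_440.HL_rest (φ := ph φ) (B := z) (P := M * N) (R := fun w => ph φ w = s)
      (ph_append φ) (by omega) (le_refl z) (Nat.mul_pos hM (by rw [hN]; positivity)) hfew
      ?_).mono (by omega)).congr fun w => Iff.rfl
    intro w w' h1 h2 h3 h4 _
    have a2 : ph φ w = ph φ w' := by
      have e1 := hdrop w 0 (by omega) h1
      have e2 := hdrop w' 0 (by omega) h2
      rw [List.drop_zero, List.drop_zero] at e1 e2
      rw [e1, e2, ph_append, ph_append, h3, h4]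
    show ph φ w = s ↔ ph φ w' = s
    rw [a2]

/-- all regular languages -/
theorem final.{u} {α : Type u} [Finite α] (L : Language α) (hL : L.IsRegular) :
    ∃ e : GRegExp α, e.height ≤ 3 ∧ e.lang = L :=
  Univ_234.of_type_monoid (k := 3) (fun A _ S _ _ φ s => fin A S φ s) L hL

end Crest.Agent.R320.Fin_179
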