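import Crest.Agent.R320.FinR_189

/-! Row 320: the join (helper189): Top5_120 + Sc2n_937 + Grid_899 + Thin_963 + ExactR_237 +
LWallAll_922 + P4_933. -/

set_option autoImplicit false

namespace Crest.Agent.R320.Fin_189

open Crest.RegLang Crest.Agent.R320.Hk_851 Crest.Agent.R320.Sc2n_937

theorem fin (α : Type) [Finite α] (S : Type) [Monoid S] [Finite S] (φ : α → S) (s : S) :
    HL 3 ({w | (w.map φ).prod = s} : Language α) := by
  classical
  have : Fintype S := Fintype.ofFinite S
  obtain ⟨act, hadd, hone, hmul, hfaith⟩ := Crest.Agent.R320.Blk467.exists_module S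
  obtain ⟨C0, hC0⟩ := gad S (S → ZMod 2) act
  obtain ⟨K, hK⟩ := Crest.Agent.R320.ExactR_237.exact_gadget α S (S → ZMod 2) φ act (2*C0+2)
  obtain ⟨N1, q1, M0, A, t0, X, BadT, hN1, hM0, hXbig, hthin, hper, hg⟩ := hC0 K
  obtain ⟨lam, rho, nu1, hlen, hex, hcomp, hfs⟩ := hg α (fun w => (w.map φ).prod)
    (fun u v => by rw [List.map_append, List.prod_append])
  have hXpos : 0 < X := by omega
  obtain ⟨lam2, rho2, nu2, hex2, hcomp2⟩ := hK (fun j => X * 2^j) (fun i j hij _ =>
    Nat.mul_lt_mul_of_pos_left (Nat.pow_lt_pow_right (by norm_num) hij) hXpos)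
  set p0 := X * 2^K with hp0
  have hck : ∀ k, k < K → X * 2^k ≤ p0 := fun k hk =>
    Nat.mul_le_mul_left _ (Nat.pow_le_pow_right (by norm_num) hk.le)
  obtain ⟨n, Gg, B, Wo, hLW, hgap, _, _, hfree⟩ :=
    Crest.Agent.R320.LWallAll_922.walls_all_left α (2*p0+2*N1) (by omega)
  set q0 := n + q1 + t0 + 3 * p0 with hq0
  let g : Geo α :=
    { Wo := Wo, n := n, z := p0 + N1 + q0, p0 := p0, q0 := q0, N1 := N1,
      loc := hLW.app, hz := rfl, hq := by omega, hN := hN1, hqp := by omega }
  let pre : List α → (S → ZMod 2) → (S → ZMod 2) := fun w v =>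
    act v (w.map φ).prod + nu2 w 1
  let post : (S → ZMod 2) → List α → (S → ZMod 2) := fun v w =>
    act v (w.map φ).prod + nu1 w
  let nu : List α → (S → ZMod 2) := fun X =>
    act (nu2 (X.take p0) 1) ((X.drop p0).map φ).prod + nu1 (X.drop p0)
  have hT : ∀ v X, g.T pre post v X = act v (X.map φ).prod + nu X := by
    intro v X
    have e : (X.map φ).prod = ((X.take p0).map φ).prod * ((X.drop p0).map φ).prod := by
      rw [← List.prod_append, ← List.map_append, List.take_append_drop]
    show act (act v ((X.take p0).map φ).prod + nu2 (X.take p0) 1) ((X.drop p0).map φ).prod +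
      nu1 (X.drop p0) = _
    rw [hadd, e, hmul, add_assoc]
  have hXX : ∀ Y, g.XX Y ↔ Crest.Agent.R320.P4_933.XX Wo (p0 + N1 + q0) Y := by
    intro Y
    constructor
    · rintro ⟨h1, h2, h3⟩; exact ⟨h2, h1, fun t ht hz => h3 t hz ht⟩
    · rintro ⟨h1, h2, h3⟩; exact ⟨h2, h1, fun t hz ht => h3 t ht hz⟩
  have hfree' : ∀ u : List α, (∀ t < u.length, ¬ Wo (u.take t)) →
      u ∈ (Crest.Agent.R320.BddReg_746.PN (max B (2*p0+2*N1)) 2 : Language α) := by
    intro u hu
    obtain ⟨a, x, v, k, h1, h2, h3, rfl⟩ := hfree u hu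
    refine Language.mem_mul.2 ⟨a ++ (List.replicate k x).flatten, ⟨a, x, k, ?_, ?_, rfl⟩, v, ?_, rfl⟩
    · exact h1.trans (le_max_left _ _)
    · exact h2.trans (le_max_right _ _)
    · refine Language.mem_mul.2 ⟨v, ⟨v, [], 0, h3.trans (le_max_left _ _), by simp, by
        simp [Crest.Agent.R320.BddReg_746.pw]⟩, [], rfl, by simp⟩
  -- finite-state facts
  set AA := p0 + A + (p0 + N1 + q0) + N1 + q1 with hAA
  have hprodd : ∀ (c d : ℕ) (w : List α), c ≤ d →
      ((w.drop c).map φ).prod = (((w.take d).drop c).map φ).prod * ((w.drop d).map φ).prod := by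
    intro c d w hcd
    rw [← List.prod_append, ← List.map_append]
    congr 2
    have : w.drop d = (w.drop c).drop (d - c) := by rw [List.drop_drop]; congr 1; omega
    rw [this, List.drop_take, List.take_append_drop]
  have htk : ∀ (c d : ℕ) (w w' : List α), c ≤ d → w.take d = w'.take d → w.take c = w'.take c := by
    intro c d w w' hcd h
    have := congrArg (fun l => l.take c) h
    simpa only [List.take_take, min_eq_left hcd] using this
  have hnufs : ∀ u u' : List α, AA ≤ u.length → AA ≤ u'.length → u.take AA = u'.take AA →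
      u.length % M0 = u'.length % M0 → ((u.drop AA).map φ).prod = ((u'.drop AA).map φ).prod →
      nu u = nu u' ∧ (u.map φ).prod = (u'.map φ).prod := by
    intro u u' hu hu' ht hl hph
    have a1 := htk p0 AA u u' (by omega) ht
    have a2 : ((u.drop p0).map φ).prod = ((u'.drop p0).map φ).prod := by
      rw [hprodd p0 AA u (by omega), hprodd p0 AA u' (by omega), ht, hph]
    have a3 : nu1 (u.drop p0) = nu1 (u'.drop p0) := by
      apply hfs
      · rw [List.length_drop]; omega
      · rw [List.length_drop]; omega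
      · have e3 : ∀ w : List α, (w.drop p0).take A = (w.take (p0 + A)).drop p0 := by
          intro w; rw [List.drop_take]; congr 1; omega
        rw [e3, e3, htk (p0 + A) AA u u' (by omega) ht]
      · have a4 : p0 + (u.drop p0).length ≡ p0 + (u'.drop p0).length [MOD M0] := by
          rw [List.length_drop, List.length_drop, Nat.add_sub_cancel' (by omega),
            Nat.add_sub_cancel' (by omega)]
          exact hl
        exact Nat.ModEq.add_left_cancel' _ a4
      · rw [List.drop_drop, List.drop_drop]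
        rw [hprodd (p0 + A) AA u (by omega), hprodd (p0 + A) AA u' (by omega), ht, hph]
    refine ⟨?_, ?_⟩
    · show act (nu2 (u.take p0) 1) ((u.drop p0).map φ).prod + nu1 (u.drop p0) =
        act (nu2 (u'.take p0) 1) ((u'.drop p0).map φ).prod + nu1 (u'.drop p0)
      rw [a1, a2, a3]
    · have b1 := hprodd 0 AA u (by omega)
      have b2 := hprodd 0 AA u' (by omega)
      simp only [List.drop_zero] at b1 b2
      rw [b1, b2, ht, hph]
  have hbadfs : ∀ u u' : List α, AA ≤ u.length → AA ≤ u'.length → u.take AA = u'.take AA →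
      u.length % M0 = u'.length % M0 → g.BadX BadT u → g.BadX BadT u' := by
    intro u u' hu hu' ht hl hb
    rcases hb with ⟨t, h1, h2, h3, h4⟩ | hb
    · left
      have h4' : t < (p0 + N1 + q0) + N1 := h4
      refine ⟨t, by omega, ?_, h3, h4⟩
      rw [← htk t AA u u' (by omega) ht]; exact h2
    · right
      refine hper _ _ ?_ ?_ ?_ hb
      · show q1 ≤ u.length - p0
        omega
      · show q1 ≤ u'.length - p0
        omega
      · have a4 : p0 + (u.length - p0) ≡ p0 + (u'.length - p0) [MOD M0] := by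
          rw [Nat.add_sub_cancel' (by omega), Nat.add_sub_cancel' (by omega)]
          exact hl
        exact Nat.ModEq.add_left_cancel' _ a4
  refine Crest.Agent.R320.Top5_120.top5 act hadd hone hmul hfaith φ nu {Y | g.XX Y}
    {Y | g.XX Y ∧ g.BadX BadT Y} ?_ (fun Y hY => hY.1)
    (fun v => {P | g.LP1 pre lam v P})
    (fun v => {P | Geo.LP2 K (fun j => X * 2^j) lam2 v P}) ?_ ?_ ?_ ?_ ?_ ?_ ?_ s
  · -- prefix code
    refine ⟨fun h => ?_, fun Y hY Z hZ hYZ => ?_⟩
    · have h1 : p0 + N1 + q0 ≤ ([] : List α).length := h.1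
      simp only [List.length_nil] at h1
      omega
    · obtain ⟨R, hR⟩ := hYZ
      exact g.prefix_code (R := R) (R' := []) hY hZ (by rw [hR, List.append_nil])
  · intro v
    refine (List.finite_length_le α (p0 + N1)).subset ?_
    rintro P ⟨h1, h2⟩
    have h3 := hlen _ _ h2
    have h1' : p0 ≤ P.length := h1
    rw [List.length_drop] at h3
    show P.length ≤ p0 + N1
    have h3' : P.length - p0 ≤ N1 := h3
    omega
  · intro v
    refine (List.finite_length_le α p0).subset ?_
    rintro P ⟨k, hk, h1, _⟩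
    show P.length ≤ p0
    rw [h1]; exact hck k hk
  · -- hCT
    intro x y
    refine (Crest.Agent.R320.P4_933.hl_XX (z := p0 + N1 + q0) hLW.app hLW.len hfree'
      (f := fun Y => act x (Y.map φ).prod + nu Y = y)
      (regular_drop φ AA M0 hM0 _ fun u u' h1 h2 h3 h4 h5 h6 => ?_)).congr fun w => ?_
    · obtain ⟨a1, a2⟩ := hnufs u u' h1 h2 h3 h4 h5
      rw [← a1, ← a2]; exact h6
    · show (g.XX w ∧ _) ↔ _
      rw [hXX]; rfl
  · -- hBT
    intro x y
    refine (Crest.Agent.R320.P4_933.hl_XX (z := p0 + N1 + q0) hLW.app hLW.len hfree'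
      (f := fun Y => g.BadX BadT Y ∧ act x (Y.map φ).prod + nu Y = y)
      (regular_drop φ AA M0 hM0 _ fun u u' h1 h2 h3 h4 h5 h6 => ?_)).congr fun w => ?_
    · obtain ⟨a1, a2⟩ := hnufs u u' h1 h2 h3 h4 h5
      refine ⟨hbadfs u u' h1 h2 h3 h4 h6.1, ?_⟩
      rw [← a1, ← a2]; exact h6.2
    · show ((g.XX w ∧ _) ∧ _) ↔ _
      rw [hXX, and_assoc]; rfl
  · -- tail
    intro s'
    refine (Crest.Agent.R320.P4_933.hl_NB (z := p0 + N1 + q0) hLW.app hLW.len hfree'
      (f := fun Y => (Y.map φ).prod = s')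
      (regular_drop φ 0 M0 hM0 _ fun u u' _ _ _ _ h5 h6 => ?_)).congr fun w => ?_
    · simp only [List.drop_zero] at h5
      rw [← h5]; exact h6
    · show ((∀ Y, g.XX Y → ¬ Y <+: w) ∧ _) ↔ (Crest.Agent.R320.P4_933.NB Wo _ w ∧ _)
      rw [Crest.Agent.R320.P4_933.NB_iff]
      constructor
      · rintro ⟨h1, h2⟩; exact ⟨fun P hP hx => h1 P ((hXX P).2 hx) hP, h2⟩
      · rintro ⟨h1, h2⟩; exact ⟨fun P hx hP => h1 P hP ((hXX P).1 hx), h2⟩
  · -- scheme 1
    intro Y hY hYb v
    have hnb : ¬ g.BadX BadT Y := fun h => hYb ⟨hY, h⟩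
    have hYz : p0 + N1 + q0 ≤ Y.length := hY.1
    obtain ⟨P, Q, b, h1, h2, h3⟩ := g.complete1 pre (lam := lam) (rho := rho) hlen hY
      (fun h => hnb (Or.inl h))
      (fun u => hcomp (Y.drop p0) (by rw [List.length_drop]; omega)
        (fun h => hnb (Or.inr (by rw [List.length_drop] at h; exact h))) u) v
    refine ⟨P, Q, h1.symm, h2, fun x P' hP' => ?_⟩
    have a1 := g.sound1 pre post (lam := lam) (rho := rho) hlen
      (fun P Q u b h h' => hex P Q u b h h') hP' h3
    have a2 := g.sound1 pre post (lam := lam) (rho := rho) hlen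
      (fun P Q u b h h' => hex P Q u b h h') h2 h3
    rw [hT] at a1 a2
    rw [← h1] at a2
    exact ⟨a1.1, a1.2.trans a2.2.symm⟩
  · -- scheme 2
    intro Y hY Z hZ v
    have hex2' : ∀ k < K, ∀ (P Q : List α) (v u : S → ZMod 2), P.length = X * 2^k →
        Q.length = g.p0 - X * 2^k → lam2 k P = some v → (fun k Q => rho2 k Q 1) k Q = some u →
        u = pre (P ++ Q) v := by
      intro k hk P Q v u hP _ h1 h2
      have := hex2 k hk P Q 1 v u hP h1 h2
      rw [this]
      show act v (Crest.Agent.R320.ExactR_237.pr φ (P ++ Q) * 1) + _ = _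
      rw [mul_one]; rfl
    have hgap' : ∀ (P Q : List α), g.Wo P → g.Wo (P ++ Q) → Q ≠ [] →
        2 * g.p0 + 2 * g.N1 < Q.length := by
      intro P Q hP hQ hne
      have := hgap (P ++ Q) P.length (P.length + Q.length)
        (by have := List.length_pos_iff.2 hne; omega) (by rw [List.length_append])
        (by rw [List.take_left]; exact hP)
        (by rw [← List.length_append, List.take_length]; exact hQ)
      show 2 * p0 + 2 * N1 < Q.length
      omega
    have hrul : ∀ (k k' l l' : ℕ), k < K → k' < K → l < K → l' < K → k' ≠ k → l' ≠ l →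
        (fun j => X * 2^j) k + (fun j => X * 2^j) l' < (fun j => X * 2^j) l +
          (fun j => X * 2^j) k' + 2 * g.N1 →
        (fun j => X * 2^j) l + (fun j => X * 2^j) k' < (fun j => X * 2^j) k +
          (fun j => X * 2^j) l' + 2 * g.N1 → k = l := by
      intro k k' l l' hk hk' hl hl' hne hne' h1 h2
      have h1' : X * 2^k + X * 2^l' < X * 2^l + X * 2^k' + 2 * N1 := h1
      have h2' : X * 2^l + X * 2^k' < X * 2^k + X * 2^l' + 2 * N1 := h2
      have h3 : 2^k + 2^l' = 2^l + 2^k' := by
        rcases lt_trichotomy (2^k + 2^l') (2^l + 2^k') with h | h | h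
        · exfalso
          have h4 : X * (2^k + 2^l' + 1) ≤ X * (2^l + 2^k') := Nat.mul_le_mul_left _ h
          rw [Nat.mul_add, Nat.mul_add, Nat.mul_add] at h4
          omega
        · exact h
        · exfalso
          have h4 : X * (2^l + 2^k' + 1) ≤ X * (2^k + 2^l') := Nat.mul_le_mul_left _ h
          rw [Nat.mul_add, Nat.mul_add, Nat.mul_add] at h4
          omega
      rcases Crest.Agent.R320.Spoil_189.pow2_aux k k' l l' h3 with ⟨h5, _⟩ | ⟨h5, _⟩
      · exact h5
      · exact absurd h5.symm hne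
    have hth : ∀ (τ : ℕ), g.z ≤ τ + g.p0 → ∀ (J : Finset ℕ), (∀ k ∈ J, k < K ∧ ∃ k' < K,
        k' ≠ k ∧ BadT (τ + (fun j => X * 2^j) k' - (fun j => X * 2^j) k - g.p0)) →
        J.card ≤ C0 := by
      intro τ hτ J hJ
      have hτ' : p0 + N1 + q0 ≤ τ + p0 := hτ
      refine hthin (τ - p0) (by omega) J fun k hk => ?_
      obtain ⟨a1, k', a2, a3, a4⟩ := hJ k hk
      refine ⟨a1, k', a2, a3, ?_⟩
      have a5 : τ + X * 2^k' - X * 2^k - p0 = τ - p0 + X * 2^k' - X * 2^k := by
        have := hck k a1
        omega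
      have a4' : BadT (τ + X * 2^k' - X * 2^k - p0) := a4
      rw [a5] at a4'
      exact a4'
    have hI : ∃ I : Finset ℕ, 2 * C0 + 2 ≤ I.card ∧ ∀ k ∈ I, k < K ∧
        lam2 k (List.take ((fun j => X * 2^j) k) Y) = some v ∧
        ((fun k Q => rho2 k Q 1) k (List.drop ((fun j => X * 2^j) k) (List.take g.p0 Y))).isSome := by
      have hYz : p0 + N1 + q0 ≤ Y.length := hY.1.1
      obtain ⟨I, hI1, hI2⟩ := hcomp2 (Y.take p0) 1 v (fun k hk => by
        rw [List.length_take, min_eq_left (by omega)]; exact hck k hk)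
      refine ⟨I, hI1, fun k hk => ?_⟩
      obtain ⟨b1, b2, b3⟩ := hI2 k hk
      refine ⟨b1, ?_, b3⟩
      have : (Y.take p0).take (X * 2^k) = Y.take (X * 2^k) := by
        rw [List.take_take, min_eq_left (hck k b1)]
      rw [← this]; exact b2
    obtain ⟨P, Q, b, h1, h2, h3⟩ := g.complete2 pre post (BadT := BadT) (K := K)
      (c := fun j => X * 2^j) (lam2 := lam2) (rho2 := fun k Q => rho2 k Q 1) (C0 := C0)
      (fun k hk => hck k hk) hgap' hrul hth hY.1 hZ.1 v hI
    · refine ⟨P, Q, h1, h2, fun x P' hP' => ?_⟩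
      obtain ⟨X2, b1, b2, b3⟩ := g.sound2 pre post (fun k hk => hck k hk) hex2' (R := [])
        (R' := Z) hY.1 hY.2 h2 h3 (by rw [List.append_nil, h1])
      have hX2 : X2 = Z := by
        have : Y ++ Z = Y ++ X2 := by rw [← h1, b2]
        exact (List.append_cancel_left this).symm
      rw [hX2, hT, hT] at b3
      obtain ⟨k, hk, l, hend, hgood, hX2', u, hr, hb⟩ := h3
      obtain ⟨k0, hk0, hPl, hl⟩ := hP'
      have hPl' : P'.length = X * 2^k0 := hPl
      by_cases hkk : k0 = k
      · subst hkk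
        have c1 : g.XX (P' ++ Q.take l) :=
          g.xx_of_cend (by rw [hPl']; exact hck k0 hk0) (by rw [hPl']; exact hend)
        by_cases hbx : g.BadX BadT (P' ++ Q.take l)
        · left
          refine ⟨P' ++ Q.take l, ⟨c1, hbx⟩, Q.drop l, hX2', by
            rw [List.append_assoc, List.take_append_drop], ?_⟩
          obtain ⟨X3, d1, d2, d3⟩ := g.sound2 pre post (fun k hk => hck k hk) hex2' (R := [])
            (R' := Q.drop l) c1 hbx (⟨k0, hk0, hPl, hl⟩ : Geo.LP2 K (fun j => X * 2^j) lam2 x P')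
            ⟨k0, hk, l, hend, hgood, hX2', u, hr, hb⟩
            (by rw [List.append_nil, List.append_assoc, List.take_append_drop])
          have hX3 : X3 = Q.drop l := by
            have e5 : P' ++ Q = (P' ++ Q.take l) ++ Q.drop l := by
              rw [List.append_assoc, List.take_append_drop]
            rw [e5] at d2
            exact (List.append_cancel_left d2).symm
          rw [hX3, hT, hT] at d3
          rw [d3, b3]
        · right
          exact ⟨P' ++ Q.take l, c1, fun h => hbx h.2, ⟨Q.drop l, by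
            rw [List.append_assoc, List.take_append_drop]⟩⟩
      · right
        obtain ⟨l', he', hg'⟩ := hgood k0 hk0 hkk
        have he'' : g.CEnd Q P'.length l' := by rw [hPl']; exact he'
        have c1 : g.XX (P' ++ Q.take l') :=
          g.xx_of_cend (by rw [hPl']; exact hck k0 hk0) he''
        refine ⟨P' ++ Q.take l', c1, fun h => hg' ?_, ⟨Q.drop l', by
            rw [List.append_assoc, List.take_append_drop]⟩⟩
        have := g.cbad_of_bad (BadT := BadT) (by rw [hPl']; exact hck k0 hk0) he'' h.2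
        rw [hPl'] at this
        exact this

end Crest.Agent.R320.Fin_189
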