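import Crest.Agent.R320.Fin2_192

/-!
# Row 320: the fibres of every finite monoid have height `≤ 3` (helper192)
-/

set_option autoImplicit false

namespace Crest.Agent.R320.Fin_192

open Crest.RegLang Crest.Agent.R320.Hk_851 Crest.Agent.R320.Blk467
open Crest.Agent.R320.SemTop_727 Crest.Agent.R320.Joint_192 Crest.Agent.R320.BddReg_746
open Crest.Agent.R320.Fin1_192 Crest.Agent.R320.Fin2_192

variable {α : Type}

theorem free_PN {W B : ℕ} {X u x v : List α} {k : ℕ} (hu : u.length ≤ B) (hx : x.length ≤ W)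
    (hv : v.length ≤ B) (e : X = u ++ (List.replicate k x).flatten ++ v) :
    X ∈ (PN (B + W) 2 : Language α) := by
  refine Language.mem_mul.2 ⟨u ++ (List.replicate k x).flatten, ⟨u, x, k, by omega, by omega, rfl⟩,
    v, Language.mem_mul.2 ⟨v, ⟨v, [], 0, by omega, by simp, by simp⟩, [], rfl, by simp⟩, e.symm⟩

theorem sum_bound (Mp κ m i : ℕ) (hi : i < m) :
    ∑ j ∈ Finset.range (i + 1), Mp * 2 ^ (κ * j) ≤ Mp * m * 2 ^ (κ * i) := by
  calc ∑ j ∈ Finset.range (i + 1), Mp * 2 ^ (κ * j)
      ≤ ∑ _j ∈ Finset.range (i + 1), Mp * 2 ^ (κ * i) := by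
        refine Finset.sum_le_sum fun j hj => Nat.mul_le_mul_left _ ?_
        have := Finset.mem_range.1 hj
        exact Nat.pow_le_pow_right (by norm_num) (Nat.mul_le_mul_left _ (by omega))
    _ = (i + 1) * (Mp * 2 ^ (κ * i)) := by rw [Finset.sum_const, Finset.card_range, smul_eq_mul]
    _ ≤ m * (Mp * 2 ^ (κ * i)) := Nat.mul_le_mul_right _ (by omega)
    _ = Mp * m * 2 ^ (κ * i) := by ring

theorem fin [Finite α] (S : Type) [Monoid S] [Finite S] (φ : α → S) (s : S) :
    HL 3 ({w | (w.map φ).prod = s} : Language α) := by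
  classical
  haveI : Fintype S := Fintype.ofFinite S
  obtain ⟨act, hadd, hone, hmul, hfaith⟩ := exists_module S
  obtain ⟨k, m, hgrid⟩ := Grid_899.grid_gadget_reg S (S → ZMod 2) act
  obtain ⟨K, hex⟩ := ExactR_237.exact_gadget α S (S → ZMod 2) φ act (2 * (k + m) + 2)
  -- primes
  let q : Fin k → ℕ := fun j => Nat.nth Nat.Prime (2 ^ (K + 1) + j)
  have hqp : ∀ j, (q j).Prime := fun j => Nat.prime_nth_prime _
  have hqge : ∀ j, 2 ^ (K + 1) + 2 ≤ q j := fun j => by
    have := Nat.add_two_le_nth_prime (2 ^ (K + 1) + (j : ℕ))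
    show _ ≤ Nat.nth Nat.Prime (2 ^ (K + 1) + (j : ℕ))
    omega
  have hqinj : Function.Injective q := by
    intro a b hab
    have := Nat.nth_injective Nat.infinite_setOf_prime hab
    exact Fin.ext (by omega)
  have hodd : ∀ j, Odd (q j) := fun j => by
    refine (hqp j).odd_of_ne_two ?_
    have := hqge j
    have h2 : 0 < 2 ^ (K + 1) := by positivity
    omega
  have hcop : Pairwise (fun i j => Nat.Coprime (q i) (q j)) := fun i j hij =>
    (Nat.coprime_primes (hqp i) (hqp j)).2 fun h => hij (hqinj h)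
  set Mp : ℕ := ∏ j, q j with hMp
  have hMpos : 0 < Mp := Finset.prod_pos fun j _ => (hqp j).pos
  let κ : ℕ := 2 ^ (K + 4) * (Mp * m)
  let phi : List α → S := fun X => (X.map φ).prod
  obtain ⟨lam, rho, nu, hL, hR, hS, hC, hF⟩ := hgrid q hodd hcop κ α phi
    (fun u v => by show ((u ++ v).map φ).prod = _; rw [List.map_append, List.prod_append])
  rw [← hMp] at hL hR hC hF
  have hGpos : ∀ i, 0 < Grid_899.G κ i := fun i => Grid_899.G_pos i
  -- thin
  let Ms : Finset ℕ := Finset.univ.image q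
  let Gz : ℕ → ℤ := fun i => (Grid_899.G κ i : ℤ)
  let cz : ℕ → ℤ := fun i => ((Mp * Grid_899.G κ i : ℕ) : ℤ)
  let Az : ℕ → ℤ := fun i => (Grid_899.Am Mp κ i : ℤ)
  have hMsc : Ms.card ≤ k := by
    refine Finset.card_image_le.trans ?_
    rw [Finset.card_univ, Fintype.card_fin]
  obtain ⟨X, hX1, hX0, hthin⟩ := Thin963.thin K m Ms Gz cz Az
    (by
      intro p hp
      obtain ⟨j, -, rfl⟩ := Finset.mem_image.1 hp
      exact ⟨hqp j, by have := hqge j; omega⟩)
    (by
      intro p hp
      obtain ⟨j, -, rfl⟩ := Finset.mem_image.1 hp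
      rw [Nat.isCoprime_iff_coprime]
      refine Nat.Coprime.pow_right _ ?_
      exact (Nat.coprime_primes (hqp j) Nat.prime_two).2 fun h => by
        have := hodd j; rw [h] at this; exact absurd this (by decide))
    (by
      show (0 : ℤ) < ((Grid_899.G κ m : ℕ) : ℤ)
      exact Int.natCast_pos.2 (hGpos m))
    (by
      intro i j hij
      show ((Grid_899.G κ i : ℕ) : ℤ) ∣ ((Grid_899.G κ j : ℕ) : ℤ)
      exact Int.natCast_dvd_natCast.2 (Grid_899.G_dvd hij))
    (by
      intro i
      show (0 : ℤ) < ((Mp * Grid_899.G κ i : ℕ) : ℤ)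
      exact Int.natCast_pos.2 (Nat.mul_pos hMpos (hGpos i)))
    (by
      intro i
      show ((Grid_899.G κ i : ℕ) : ℤ) ∣ ((Mp * Grid_899.G κ i : ℕ) : ℤ)
      exact Int.natCast_dvd_natCast.2 (Dvd.intro_left Mp rfl))
    (by
      intro i hi
      have h1 := sum_bound Mp κ m i hi
      have h2 : 2 ^ (K + 4) * (Mp * m * 2 ^ (κ * i)) ≤ 2 ^ (κ * (i + 1)) := by
        have h3 : 2 ^ (K + 4) * (Mp * m) ≤ 2 ^ κ := by
          have : κ < 2 ^ κ := Nat.lt_two_pow_self
          exact this.le
        calc 2 ^ (K + 4) * (Mp * m * 2 ^ (κ * i)) = (2 ^ (K + 4) * (Mp * m)) * 2 ^ (κ * i) := by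
              ring
          _ ≤ 2 ^ κ * 2 ^ (κ * i) := Nat.mul_le_mul_right _ h3
          _ = 2 ^ (κ * (i + 1)) := by rw [← pow_add]; congr 1; ring
      have h4 : 2 ^ (K + 4) * ∑ j ∈ Finset.range (i + 1), Mp * Grid_899.G κ j ≤
          Grid_899.G κ (i + 1) := (Nat.mul_le_mul_left _ h1).trans h2
      show (2 : ℤ) ^ (K + 4) * ∑ j ∈ Finset.range (i + 1), ((Mp * Grid_899.G κ j : ℕ) : ℤ) ≤
        ((Grid_899.G κ (i + 1) : ℕ) : ℤ)
      exact_mod_cast h4)
    (2 * (Grid_899.Am Mp κ m : ℤ) + 1)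
  obtain ⟨Xn, rfl⟩ : ∃ n : ℕ, X = n := ⟨X.toNat, (Int.toNat_of_nonneg hX0.le).symm⟩
  have hXn0 : 0 < Xn := by exact_mod_cast hX0
  have hXn1 : 2 * Grid_899.Am Mp κ m + 1 ≤ Xn := by exact_mod_cast hX1
  -- the ruler
  let c : ℕ → ℕ := fun j => Xn * 2 ^ j
  obtain ⟨lam2, rho2, nu2, hs2, hc2⟩ := hex c (fun i j hij _ => by
    show Xn * 2 ^ i < Xn * 2 ^ j
    exact Nat.mul_lt_mul_of_pos_left (Nat.pow_lt_pow_right (by norm_num) hij) hXn0)
  let Lam : ℕ := Xn * 2 ^ K
  let N1 : ℕ := Grid_899.Am Mp κ m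
  let La : ℕ := 2 * Grid_899.Am Mp κ (m + 1)
  obtain ⟨n, G, B, Wo, hLW, hsep, -, -, hfree⟩ :=
    LWallAll_922.walls_all_left α (2 * Lam + 2 * N1 + 1) (by omega)
  let D : Dat α (S → ZMod 2) S :=
    { Wo := Wo
      n := n
      W := 2 * Lam + 2 * N1 + 1
      φ := fun X => (X.map φ).prod
      one := 1
      mul := fun a b => a * b
      act := act
      add := fun a b => a + b
      lam := lam
      rho := rho
      nu1 := Fin2_192.nu' lam rho nu
      N1 := N1
      La := La
      BadT := fun t => Thin963.BadT Ms m Gz cz Az (t : ℤ)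
      K := K
      c := c
      R := k + m
      lam2 := lam2
      rho2 := fun j Q => rho2 j Q 1
      nu2 := fun X => nu2 X 1
      p0 := Lam
      z := 1 + Lam + N1 + n + La + 3 * Lam + N1
      Lam := Lam }
  have hcle : ∀ j < K, c j ≤ Lam := fun j hj =>
    Nat.mul_le_mul_left _ (Nat.pow_le_pow_right (by norm_num) hj.le)
  have hS' : ∀ P Q v b, lam P = some v → rho Q = some b →
      b = act v ((P ++ Q).map φ).prod + Fin2_192.nu' lam rho nu (P ++ Q) := by
    intro P Q v b h1 h2
    have hl : Fin2_192.Leg lam rho (P ++ Q) := ⟨P, Q, v, b, rfl, h1, h2⟩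
    unfold Fin2_192.nu'
    rw [if_pos hl]
    exact hS P Q v b h1 h2
  have hOk : D.Ok :=
    { loc := hLW.1
      sep := hsep
      s1 := fun P Q v r h1 h2 _ => hS' P Q v r h1 h2
      lam_le := fun P v h => (hL P v h).1.le
      c1 := by
        intro Y hY hB v
        have hYlen : 2 * Grid_899.Am Mp κ (m + 1) ≤ Y.length := hY
        have hB' : ¬ Thin963.BadT Ms m Gz cz Az (Y.length : ℤ) := hB
        obtain ⟨P, Q, e, h1, h2⟩ := hC Y hYlen (fun j hd => hB' (Or.inl ⟨q j,
          Finset.mem_image.2 ⟨j, Finset.mem_univ _, rfl⟩, by exact_mod_cast hd⟩)) (by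
          intro j hj1 hjm
          have hAj : Grid_899.Am Mp κ j ≤ Y.length := by
            have := Grid_899.Am_mono (Ms := Mp) (κ := κ) (show j ≤ m + 1 by omega)
            omega
          set Gj := Grid_899.G κ j with hGj
          set r := (Y.length - Grid_899.Am Mp κ j) % Gj with hr
          set cj := Mp * Grid_899.G κ (j - 1) with hcj
          have hrd : ∃ d, Y.length - Grid_899.Am Mp κ j = Gj * d + r :=
            ⟨_, (Nat.div_add_mod _ _).symm⟩
          obtain ⟨d, hd⟩ := hrd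
          have hrlt : r < Gj := Nat.mod_lt _ (hGpos j)
          have hj' : j - 1 + 1 = j := by omega
          have hdz : ((Y.length : ℤ) - (Grid_899.Am Mp κ j : ℤ)) = (Gj : ℤ) * d + r := by
            have : Y.length = Grid_899.Am Mp κ j + (Gj * d + r) := by omega
            rw [this]; push_cast; ring
          constructor
          · by_contra hlt
            refine hB' (Or.inr ⟨j - 1, by omega, -(r : ℤ), ?_, ?_⟩)
            · rw [abs_neg, Nat.abs_cast]
              show (r : ℤ) ≤ ((Mp * Grid_899.G κ (j - 1) : ℕ) : ℤ)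
              exact_mod_cast (not_le.1 hlt).le
            · show ((Grid_899.G κ (j - 1 + 1) : ℕ) : ℤ) ∣
                (Y.length : ℤ) - ((Grid_899.Am Mp κ (j - 1 + 1) : ℕ) : ℤ) + -(r : ℤ)
              rw [hj', hdz]
              exact ⟨d, by ring⟩
          · by_contra hlt
            refine hB' (Or.inr ⟨j - 1, by omega, (Gj : ℤ) - r, ?_, ?_⟩)
            · rw [abs_of_nonneg (by
                have : (r : ℤ) < Gj := by exact_mod_cast hrlt
                linarith)]
              show (Gj : ℤ) - r ≤ ((Mp * Grid_899.G κ (j - 1) : ℕ) : ℤ)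
              have : Gj < r + cj := not_le.1 hlt
              have : (Gj : ℤ) < r + cj := by exact_mod_cast this
              have h3 : (cj : ℤ) = ((Mp * Grid_899.G κ (j - 1) : ℕ) : ℤ) := by rw [hcj]
              linarith
            · show ((Grid_899.G κ (j - 1 + 1) : ℕ) : ℤ) ∣
                (Y.length : ℤ) - ((Grid_899.Am Mp κ (j - 1 + 1) : ℕ) : ℤ) + ((Gj : ℤ) - r)
              rw [hj', hdz]
              exact ⟨d + 1, by ring⟩) v
        exact ⟨P, Q, e.symm, h1, h2⟩
      cle := hcle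
      ruler := by
        intro i j k' l hi hj hk hl hij hkl hne
        have hne' : (2 : ℤ) ^ i - 2 ^ j ≠ 2 ^ k' - 2 ^ l := fun he => by
          obtain ⟨h1, h2⟩ := Crest.Agent.R320.G369.pow_diff hij hkl he
          exact hne (by rw [h1, h2])
        have key : 2 ^ i + 2 ^ l < 2 ^ k' + 2 ^ j ∨ 2 ^ k' + 2 ^ j < 2 ^ i + 2 ^ l := by
          rcases lt_trichotomy (2 ^ i + 2 ^ l) (2 ^ k' + 2 ^ j) with h | h | h
          · exact Or.inl h
          · exfalso
            apply hne'
            have : (2 : ℤ) ^ i + 2 ^ l = 2 ^ k' + 2 ^ j := by exact_mod_cast h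
            linarith
          · exact Or.inr h
        show Xn * 2 ^ i + Xn * 2 ^ l + 2 * N1 < Xn * 2 ^ k' + Xn * 2 ^ j ∨
          Xn * 2 ^ k' + Xn * 2 ^ j + 2 * N1 < Xn * 2 ^ i + Xn * 2 ^ l
        have hN : 2 * N1 < Xn := by
          show 2 * Grid_899.Am Mp κ m < Xn
          omega
        rcases key with h | h
        · left
          have : Xn * (2 ^ i + 2 ^ l + 1) ≤ Xn * (2 ^ k' + 2 ^ j) := Nat.mul_le_mul_left _ h
          nlinarith
        · right
          have : Xn * (2 ^ k' + 2 ^ j + 1) ≤ Xn * (2 ^ i + 2 ^ l) := Nat.mul_le_mul_left _ h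
          nlinarith
      thin := by
        intro T hT F hFb
        have h1 := hthin T
        have h2 : F.card ≤ (((Finset.range K) ×ˢ (Finset.range K)).filter (fun p => p.1 ≠ p.2 ∧
            Thin963.BadT Ms m Gz cz Az ((T : ℤ) + (Xn : ℤ) * 2^p.1 - (Xn : ℤ) * 2^p.2))).card := by
          refine Finset.card_le_card_of_injOn (fun a => (a.2, a.1)) ?_ ?_
          · intro a ha
            obtain ⟨ha1, ha2, ha3, ha4⟩ := hFb a ha
            refine Finset.mem_coe.2 (Finset.mem_filter.2 ⟨Finset.mem_product.2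
              ⟨Finset.mem_range.2 ha2, Finset.mem_range.2 ha1⟩, fun h => ha3 h.symm, ?_⟩)
            have hle : c a.1 ≤ T + c a.2 := by
              have := hcle a.1 ha1
              have hT' : La + Lam ≤ T := hT
              omega
            have e : ((T + c a.2 - c a.1 : ℕ) : ℤ) =
                (T : ℤ) + (Xn : ℤ) * 2 ^ a.2 - (Xn : ℤ) * 2 ^ a.1 := by
              rw [Nat.cast_sub hle]
              show ((T + Xn * 2 ^ a.2 : ℕ) : ℤ) - ((Xn * 2 ^ a.1 : ℕ) : ℤ) = _
              push_cast; ring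
            have ha4' : Thin963.BadT Ms m Gz cz Az ((T + c a.2 - c a.1 : ℕ) : ℤ) := ha4
            rw [e] at ha4'
            exact ha4'
          · intro a _ b _ hab
            have h1 := (Prod.mk.inj hab).1
            have h2 := (Prod.mk.inj hab).2
            exact Prod.ext h2 h1
        show F.card ≤ k + m
        calc F.card ≤ _ := h2
          _ ≤ Ms.card + m := h1
          _ ≤ k + m := by omega
      s2 := by
        intro j hj P Q v b hP _ h1 h2
        have := hs2 j hj P Q 1 v b hP h1 h2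
        rw [mul_one] at this
        exact this
      c2 := by
        intro u v hu
        obtain ⟨I, hI, hIk⟩ := hc2 u 1 v (fun j hj => by
          have h1 := hcle j hj
          have h2 : u.length = Lam := hu
          omega)
        exact ⟨I, hI, hIk⟩
      Wbig := by
        show 2 * Lam + 2 * N1 ≤ 2 * Lam + 2 * N1 + 1
        omega
      p0big := le_rfl
      zbig := le_rfl }
  exact of_ok act hadd hone hmul hfaith φ D hOk rfl rfl rfl hLW.2
    (B := B + (2 * Lam + 2 * N1 + 1)) (R := 2)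
    (fun u hu => by
      obtain ⟨a, x, v, j, h1, h2, h3, e⟩ := hfree u hu
      exact free_PN h1 h2 h3 e)
    (Fin2_192.nu_reg act φ lam rho nu (Grid_899.Am Mp κ m) (fun P v h => (hL P v h).1) hS
      (Fin2_192.rho_reg φ rho (Grid_899.Am Mp κ (m + 1)) (Mp * Grid_899.G κ m)
        (Nat.mul_pos hMpos (hGpos m)) hR hF)) s

end Crest.Agent.R320.Fin_192
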