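import Crest.Agent.R320.Block_467

/-!
# Row 320: the joint for ALL words, natural chain rule (first left-looking wall at a place `≥ z`),
scheme 1 = any word gadget without small walls (693 / 638 / 219), scheme 2 = 237's exact gadget.
-/

set_option autoImplicit false

namespace Crest.Agent.R320.Fin_528

open Crest.RegLang

structure Dat (α V S : Type*) where
  f : α → S
  act : V → S → V
  n : ℕ
  W : ℕ
  Wo : List α → Prop
  z : ℕ
  p0 : ℕ
  N1 : ℕ
  Nc : ℕ
  lam : List α → Option V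
  rho : List α → Option V
  nu1 : List α → V
  BadT : ℕ → Prop
  K : ℕ
  R : ℕ
  C0 : ℕ
  c : ℕ → ℕ
  lam2 : ℕ → List α → Option V
  rho2 : ℕ → List α → Option V
  nu2 : List α → V

namespace Dat

variable {α V S : Type*} [Monoid S] [AddCommGroup V] (D : Dat α V S)

def ph (X : List α) : S := (X.map D.f).prod

theorem ph_app (X Y : List α) : D.ph (X ++ Y) = D.ph X * D.ph Y := by
  simp [ph]

def XX : Set (List α) :=
  {X | D.z ≤ X.length ∧ D.Wo X ∧ ∀ t, D.z ≤ t → t < X.length → ¬ D.Wo (X.take t)}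

def nu (X : List α) : V :=
  D.act (D.nu2 (X.take D.p0)) (D.ph (X.drop D.p0)) + D.nu1 (X.drop D.p0)

def T (v : V) (X : List α) : V := D.act v (D.ph X) + D.nu X

def L1 (x : V) : Set (List α) :=
  {P | D.p0 ≤ P.length ∧
    D.lam (P.drop D.p0) = some (D.act x (D.ph (P.take D.p0)) + D.nu2 (P.take D.p0))}

def R1 (y : V) : Set (List α) :=
  {Q | ∀ x, ∀ P ∈ D.L1 x, P ++ Q ∈ D.XX ∧ D.T x (P ++ Q) = y}

def Good : Set (List α) :=
  {X | X ∈ D.XX ∧ ∀ x, ∃ P ∈ D.L1 x, ∃ Q ∈ D.R1 (D.T x X), P ++ Q = X}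

def L2 (x : V) : Set (List α) :=
  {P | ∃ k, k < D.K ∧ P.length = D.c k ∧ D.lam2 k P = some x}

structure Ok : Prop where
  hadd : ∀ a b s, D.act (a + b) s = D.act a s + D.act b s
  hmul : ∀ v s t, D.act v (s * t) = D.act (D.act v s) t
  W1 : ∀ P Q : List α, D.n ≤ Q.length → (D.Wo (P ++ Q) ↔ D.Wo Q)
  gap : ∀ (X : List α) (s t : ℕ), s < t → t ≤ X.length → D.Wo (X.take s) → D.Wo (X.take t) →
    D.W < t - s
  lamlen : ∀ P v, D.lam P = some v → P.length ≤ D.N1
  sound : ∀ P Q v b, D.lam P = some v → D.rho Q = some b →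
    b = D.act v (D.ph (P ++ Q)) + D.nu1 (P ++ Q)
  comp : ∀ u : List α, D.Nc ≤ u.length → ¬ D.BadT u.length → ∀ v, ∃ P Q, P ++ Q = u ∧
    D.lam P = some v ∧ ∃ b, D.rho Q = some b
  ck : ∀ k < D.K, D.c k ≤ D.p0
  hz : 3 * D.p0 + D.N1 + D.Nc + D.n < D.z
  hW : 2 * D.p0 + 2 * D.N1 ≤ D.W
  sep : ∀ k k' l l', k < D.K → k' < D.K → l < D.K → l' < D.K → k ≠ k' → l ≠ l' →
    D.c k' + D.c l ≤ D.c k + D.c l' + 2 * D.N1 → D.c k + D.c l' ≤ D.c k' + D.c l + 2 * D.N1 → k = l
  spoil : ∀ T, D.p0 ≤ T → ∀ I : Finset ℕ,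
    (∀ k ∈ I, k < D.K ∧ ∃ k', k' < D.K ∧ k' ≠ k ∧ D.BadT (T + D.c k' - D.c k)) → I.card ≤ D.C0
  hR : 1 + 2 * D.C0 < D.R
  sound2 : ∀ k, k < D.K → ∀ (P Q : List α) (v b : V), P.length = D.c k →
    D.lam2 k P = some v → D.rho2 k Q = some b → b = D.act v (D.ph (P ++ Q)) + D.nu2 (P ++ Q)
  comp2 : ∀ (u : List α) (v : V), (∀ k, k < D.K → D.c k ≤ u.length) →
    ∃ I : Finset ℕ, D.R ≤ I.card ∧ ∀ k ∈ I, k < D.K ∧ D.lam2 k (u.take (D.c k)) = some v ∧
      ∃ b, D.rho2 k (u.drop (D.c k)) = some b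

variable {D}

theorem T_eq (h : D.Ok) (x : V) (X : List α) : D.T x X =
    D.act (D.act x (D.ph (X.take D.p0)) + D.nu2 (X.take D.p0)) (D.ph (X.drop D.p0)) +
      D.nu1 (X.drop D.p0) := by
  unfold T nu
  rw [h.hadd, ← h.hmul, ← ph_app, List.take_append_drop, add_assoc]

theorem take_app (A Q : List α) (j : ℕ) : (A ++ Q).take (A.length + j) = A ++ Q.take j := by
  rw [List.take_length_add_append]

/-- walls behind `A` do not see `A` -/
theorem wall_iff (h : D.Ok) (A Q : List α) (j : ℕ) (hj : D.n ≤ j) (hQ : j ≤ Q.length) :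
    D.Wo ((A ++ Q).take (A.length + j)) ↔ D.Wo (Q.take j) := by
  rw [take_app, h.W1]
  rw [List.length_take]; omega

theorem wall_swap (h : D.Ok) (A B Q : List α) (t : ℕ) (ht : B.length + D.n ≤ t)
    (ht2 : t ≤ B.length + Q.length) :
    D.Wo ((B ++ Q).take t) ↔ D.Wo ((A ++ Q).take (A.length + (t - B.length))) := by
  rw [wall_iff h A Q (t - B.length) (by omega) (by omega)]
  conv_lhs => rw [show t = B.length + (t - B.length) by omega]
  rw [wall_iff h B Q (t - B.length) (by omega) (by omega)]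

theorem good (h : D.Ok) {X : List α} (hX : X ∈ D.XX)
    (hE : ∀ t, t ≤ X.length → D.z ≤ t + D.N1 → t ≤ D.z + D.N1 → ¬ D.Wo (X.take t))
    (hB : ¬ D.BadT (X.length - D.p0)) : X ∈ D.Good := by
  refine ⟨hX, fun x => ?_⟩
  obtain ⟨hX1, hX2, hX3⟩ := hX
  have hz := h.hz
  have hlen : D.z + D.N1 < X.length := by
    by_contra hc
    exact hE X.length le_rfl (by omega) (by omega) (by rwa [List.take_length])
  have hdl : (X.drop D.p0).length = X.length - D.p0 := List.length_drop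
  obtain ⟨P1, Q, e, hl, b, hb⟩ := h.comp (X.drop D.p0) (by omega) (by rwa [hdl])
    (D.act x (D.ph (X.take D.p0)) + D.nu2 (X.take D.p0))
  have hP1 := h.lamlen _ _ hl
  have hel : P1.length + Q.length = X.length - D.p0 := by
    rw [← hdl, ← e, List.length_append]
  have htl : (X.take D.p0).length = D.p0 := by rw [List.length_take]; omega
  have hX' : (X.take D.p0 ++ P1) ++ Q = X := by
    rw [List.append_assoc, e, List.take_append_drop]
  have hPl : (X.take D.p0 ++ P1).length = D.p0 + P1.length := by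
    rw [List.length_append, htl]
  have hTX : D.T x X = b := by
    rw [T_eq h, ← e]
    exact (h.sound _ _ _ _ hl hb).symm
  refine ⟨X.take D.p0 ++ P1, ⟨by omega, ?_⟩, Q, ?_, hX'⟩
  · rw [List.drop_left' htl, List.take_left' htl, hl]
  · rw [hTX]
    rintro x' P' ⟨hP'1, hP'2⟩
    have hP'l : P'.length ≤ D.p0 + D.N1 := by
      have := h.lamlen _ _ hP'2
      rw [List.length_drop] at this
      omega
    refine ⟨⟨?_, ?_, ?_⟩, ?_⟩
    · rw [List.length_append]; omega
    · rw [h.W1 _ _ (by omega), ← h.W1 (X.take D.p0 ++ P1) _ (by omega), hX']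
      exact hX2
    · intro t ht1 ht2 hw
      rw [List.length_append] at ht2
      rw [wall_swap h (X.take D.p0 ++ P1) P' Q t (by omega) (by omega), hX', hPl] at hw
      by_cases hc : D.z ≤ D.p0 + P1.length + (t - P'.length)
      · exact hX3 _ hc (by omega) hw
      · exact hE _ (by omega) (by omega) (by omega) hw
    · rw [T_eq h, List.drop_append_of_le_length hP'1, List.take_append_of_le_length hP'1]
      exact (h.sound _ _ _ _ hP'2 hb).symm

variable (D) in
def Bad : Set (List α) := {X | X ∈ D.XX ∧ X ∉ D.Good}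

variable (D) in
def R2 (y : V) : Set (List α) :=
  {Q | ∀ x, ∀ P ∈ D.L2 x,
    (∃ X1 ∈ D.Bad, ∃ X2 ∈ D.Bad, P ++ Q = X1 ++ X2 ∧ D.T (D.T x X1) X2 = y) ∨
    (∃ X ∈ D.Good, X <+: P ++ Q) ∨ (∃ X1 ∈ D.Bad, ∃ X2 ∈ D.Good, X1 ++ X2 <+: P ++ Q)}

theorem bad_modes (h : D.Ok) {U : List α} (hU : U ∈ D.XX) (hb : U ∉ D.Good) :
    (∃ t, t ≤ U.length ∧ D.z ≤ t + D.N1 ∧ t ≤ D.z + D.N1 ∧ D.Wo (U.take t)) ∨
      D.BadT (U.length - D.p0) := by
  by_contra hc
  rw [not_or] at hc
  exact hb (good h hU (fun t h1 h2 h3 h4 => hc.1 ⟨t, h1, h2, h3, h4⟩) hc.2)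

theorem first_block (u : List α) (t0 : ℕ) (h0 : D.z ≤ t0) (h1 : t0 ≤ u.length)
    (h2 : D.Wo (u.take t0)) : ∃ U ∈ D.XX, U <+: u := by
  classical
  have hex : ∃ t, D.z ≤ t ∧ t ≤ u.length ∧ D.Wo (u.take t) := ⟨t0, h0, h1, h2⟩
  obtain ⟨a1, a2, a3⟩ := Nat.find_spec hex
  refine ⟨u.take (Nat.find hex), ⟨?_, a3, ?_⟩, List.take_prefix _ _⟩
  · rw [List.length_take]; omega
  · intro t ht1 ht2 hw
    rw [List.length_take] at ht2
    rw [List.take_take, min_eq_left (by omega)] at hw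
    exact Nat.find_min hex (m := t) (by omega) ⟨ht1, by omega, hw⟩

/-- the modes of a block of a shifted text -/
theorem shift_modes (h : D.Ok) {u0 P' U : List α} {k k' : ℕ} (hk : k < D.K) (hk' : k' < D.K)
    (hlen : D.c k ≤ u0.length)
    (hP' : P'.length = D.c k') (hU : U ∈ D.XX) (hb : U ∉ D.Good)
    (hp : U <+: P' ++ u0.drop (D.c k)) :
    (∃ t, t ≤ u0.length ∧ D.Wo (u0.take t) ∧ D.z + D.c k ≤ t + D.c k' + D.N1 ∧
      t + D.c k' ≤ D.z + D.N1 + D.c k) ∨
    (∃ w, w ≤ u0.length ∧ D.Wo (u0.take w) ∧ D.z + D.c k ≤ w + D.c k' ∧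
      (∀ t, t < w → D.z + D.c k ≤ t + D.c k' → ¬ D.Wo (u0.take t)) ∧
      D.BadT (w + D.c k' - D.c k - D.p0)) := by
  have hz := h.hz
  have hck := h.ck k hk
  have hck' := h.ck k' hk'
  have hUl : U.length ≤ D.c k' + (u0.length - D.c k) := by
    have := hp.length_le
    rw [List.length_append, List.length_drop, hP'] at this
    exact this
  have htl : (u0.take (D.c k)).length = D.c k := by rw [List.length_take]; omega
  have conv : ∀ t, t ≤ U.length → D.z ≤ t + D.N1 →
      (D.Wo (U.take t) ↔ D.Wo (u0.take (D.c k + (t - D.c k')))) := by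
    intro t ht1 ht2
    have e1 : U.take t = (P' ++ u0.drop (D.c k)).take t := by
      obtain ⟨r, hr⟩ := hp
      rw [← hr, List.take_append_of_le_length ht1]
    rw [e1, wall_swap h (u0.take (D.c k)) P' _ t (by omega)
      (by rw [List.length_drop]; omega), List.take_append_drop, htl, hP']
  obtain ⟨hU1, hU2, hU3⟩ := hU
  rcases bad_modes h ⟨hU1, hU2, hU3⟩ hb with ⟨t, h1, h2, h3, h4⟩ | hB
  · left
    rw [conv t h1 h2] at h4
    exact ⟨_, by omega, h4, by omega, by omega⟩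
  · right
    refine ⟨D.c k + (U.length - D.c k'), by omega, ?_, by omega, ?_, ?_⟩
    · rw [← conv U.length le_rfl (by omega), List.take_length]
      exact hU2
    · intro t ht1 ht2 hw
      refine hU3 (D.c k' + (t - D.c k)) (by omega) (by omega) ?_
      rw [conv _ (by omega) (by omega)]
      rwa [show D.c k + (D.c k' + (t - D.c k) - D.c k') = t by omega]
    · rwa [show D.c k + (U.length - D.c k') + D.c k' - D.c k - D.p0 = U.length - D.p0 by omega]

theorem spoiled (h : D.Ok) {X1 X2 : List α} (hX1 : X1 ∈ D.XX) (hX2 : X2 ∈ D.XX) (Sp : Finset ℕ)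
    (hSp : ∀ k ∈ Sp, k < D.K ∧ ∃ k', k' < D.K ∧ k' ≠ k ∧ ∃ P' : List α, P'.length = D.c k' ∧
      ∃ U ∈ D.XX, U ∉ D.Good ∧ U <+: P' ++ (X1 ++ X2).drop (D.c k)) :
    Sp.card ≤ 1 + 2 * D.C0 := by
  classical
  set u0 := X1 ++ X2 with hu0
  have hz := h.hz
  have hW := h.hW
  obtain ⟨a1, a2, a3⟩ := hX1
  obtain ⟨b1, b2, b3⟩ := hX2
  have hul : u0.length = X1.length + X2.length := by rw [hu0, List.length_append]
  have hwX1 : D.Wo (u0.take X1.length) := by rw [hu0, List.take_left]; exact a2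
  have hwX2 : D.Wo (u0.take u0.length) := by
    rw [List.take_length, hu0, h.W1 _ _ (by omega)]; exact b2
  have hex0 : ∃ t, t ≤ u0.length ∧ D.Wo (u0.take t) ∧ D.z ≤ t + D.p0 :=
    ⟨X1.length, by omega, hwX1, by omega⟩
  obtain ⟨c1, c2, c3⟩ := Nat.find_spec hex0
  have cmin : ∀ t, t ≤ u0.length → D.Wo (u0.take t) → D.z ≤ t + D.p0 → Nat.find hex0 ≤ t :=
    fun t x y w => Nat.find_min' hex0 ⟨x, y, w⟩
  generalize hw0 : Nat.find hex0 = w0 at c1 c2 c3 cmin
  have hw0X : w0 ≤ X1.length := cmin _ (by omega) hwX1 (by omega)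
  have hex1 : ∃ t, t ≤ u0.length ∧ D.Wo (u0.take t) ∧ w0 < t :=
    ⟨u0.length, le_rfl, hwX2, by omega⟩
  obtain ⟨d1, d2, d3⟩ := Nat.find_spec hex1
  have dmin : ∀ t, t ≤ u0.length → D.Wo (u0.take t) → w0 < t → Nat.find hex1 ≤ t :=
    fun t x y w => Nat.find_min' hex1 ⟨x, y, w⟩
  generalize hw1 : Nat.find hex1 = w1 at d1 d2 d3 dmin
  have hgap01 : D.W < w1 - w0 := h.gap u0 w0 w1 d3 d1 c2 d2
  let E : Finset ℕ := Sp.filter (fun k => ∃ k', k' < D.K ∧ k' ≠ k ∧ ∃ t, t ≤ u0.length ∧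
    D.Wo (u0.take t) ∧ D.z + D.c k ≤ t + D.c k' + D.N1 ∧ t + D.c k' ≤ D.z + D.N1 + D.c k)
  let B : ℕ → Finset ℕ := fun w => Sp.filter (fun k => ∃ k', k' < D.K ∧ k' ≠ k ∧
    D.BadT ((w - D.p0) + D.c k' - D.c k))
  have hsub : Sp ⊆ E ∪ (B w0 ∪ B w1) := by
    intro k hk
    obtain ⟨hkK, k', hk', hne, P', hP', U, hU, hUb, hUp⟩ := hSp k hk
    have hck := h.ck k hkK
    have hck' := h.ck k' hk'
    rcases shift_modes h hkK hk' (by omega) hP' hU hUb hUp with ⟨t, e1, e2, e3, e4⟩ |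
        ⟨w, e1, e2, e3, e4, e5⟩
    · rw [Finset.mem_union]; left
      exact Finset.mem_filter.2 ⟨hk, k', hk', hne, t, e1, e2, e3, e4⟩
    · have hw0w : w0 ≤ w := cmin w e1 e2 (by omega)
      have hww : w = w0 ∨ w = w1 := by
        by_cases hc : w = w0
        · exact Or.inl hc
        · right
          have hlt : w0 < w := by omega
          have h0 : w0 + D.c k' < D.z + D.c k := by
            by_contra hcc
            exact e4 w0 hlt (by omega) c2
          have h1 : w1 ≤ w := dmin w e1 e2 hlt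
          by_contra hcc
          have h2 : w1 + D.c k' < D.z + D.c k := by
            by_contra hc3
            exact e4 w1 (by omega) (by omega) d2
          omega
      have hbt : D.BadT ((w - D.p0) + D.c k' - D.c k) := by
        rwa [show (w - D.p0) + D.c k' - D.c k = w + D.c k' - D.c k - D.p0 by omega]
      rw [Finset.mem_union, Finset.mem_union]
      right
      rcases hww with rfl | rfl
      · left; exact Finset.mem_filter.2 ⟨hk, k', hk', hne, hbt⟩
      · right; exact Finset.mem_filter.2 ⟨hk, k', hk', hne, hbt⟩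
  have hE : E.card ≤ 1 := by
    refine Finset.card_le_one.2 ?_
    intro k hk l hl
    obtain ⟨hk0, k', hk', hkne, t, t1, t2, t3, t4⟩ := Finset.mem_filter.1 hk
    obtain ⟨hl0, l', hl', hlne, s, s1, s2, s3, s4⟩ := Finset.mem_filter.1 hl
    have hkK := (hSp k hk0).1
    have hlK := (hSp l hl0).1
    have q1 := h.ck k hkK
    have q2 := h.ck k' hk'
    have q3 := h.ck l hlK
    have q4 := h.ck l' hl'
    have hts : t = s := by
      rcases lt_trichotomy t s with hlt | heq | hgt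
      · exfalso
        have := h.gap u0 t s hlt s1 t2 s2
        omega
      · exact heq
      · exfalso
        have := h.gap u0 s t hgt t1 s2 t2
        omega
    subst hts
    exact h.sep k k' l l' hkK hk' hlK hl' (Ne.symm hkne) (Ne.symm hlne) (by omega) (by omega)
  have hB : ∀ w, 2 * D.p0 ≤ w → (B w).card ≤ D.C0 := by
    intro w hw
    refine h.spoil (w - D.p0) (by omega) (B w) ?_
    intro k hk
    obtain ⟨hk0, k', hk', hkne, hbt⟩ := Finset.mem_filter.1 hk
    exact ⟨(hSp k hk0).1, k', hk', hkne, hbt⟩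
  have h1 := hB w0 (by omega)
  have h2 := hB w1 (by omega)
  have h3 := Finset.card_le_card hsub
  have h4 := Finset.card_union_le E (B w0 ∪ B w1)
  have h5 := Finset.card_union_le (B w0) (B w1)
  omega

theorem compl2 (h : D.Ok) {X1 X2 : List α} (hX1 : X1 ∈ D.Bad) (hX2 : X2 ∈ D.Bad) (x : V) :
    ∃ P ∈ D.L2 x, ∃ Q ∈ D.R2 (D.T (D.T x X1) X2), P ++ Q = X1 ++ X2 := by
  classical
  have hz := h.hz
  obtain ⟨a1, a2, a3⟩ := hX1.1
  obtain ⟨b1, b2, b3⟩ := hX2.1
  have htl : (X1.take D.p0).length = D.p0 := by rw [List.length_take]; omega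
  obtain ⟨I, hI, hI2⟩ := h.comp2 (X1.take D.p0) x (fun k hk => by rw [htl]; exact h.ck k hk)
  let Sp : Finset ℕ := I.filter (fun k => ∃ k', k' < D.K ∧ k' ≠ k ∧ ∃ P' : List α,
    P'.length = D.c k' ∧ ∃ U ∈ D.XX, U ∉ D.Good ∧ U <+: P' ++ (X1 ++ X2).drop (D.c k))
  have hSp : Sp.card ≤ 1 + 2 * D.C0 := by
    refine spoiled h hX1.1 hX2.1 Sp ?_
    intro k hk
    obtain ⟨h1, h2⟩ := Finset.mem_filter.1 hk
    exact ⟨(hI2 k h1).1, h2⟩
  have hR := h.hR
  obtain ⟨k, hkI, hkS⟩ := Finset.exists_mem_notMem_of_card_lt_card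
    (show Sp.card < I.card by omega)
  obtain ⟨hkK, hlam, b, hrho⟩ := hI2 k hkI
  have hck := h.ck k hkK
  have hns : ∀ k', k' < D.K → k' ≠ k → ∀ P' : List α, P'.length = D.c k' →
      ∀ U ∈ D.XX, U <+: P' ++ (X1 ++ X2).drop (D.c k) → U ∈ D.Good := by
    intro k' h1 h2 P' h3 U h4 h5
    by_contra h6
    exact hkS (Finset.mem_filter.2 ⟨hkI, k', h1, h2, P', h3, U, h4, h6, h5⟩)
  have hcl : D.c k ≤ X1.length := by omega
  have hdr : (X1 ++ X2).drop (D.c k) = X1.drop (D.c k) ++ X2 :=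
    List.drop_append_of_le_length hcl
  have htk : (X1.take D.p0).take (D.c k) = X1.take (D.c k) := by
    rw [List.take_take, min_eq_left hck]
  rw [htk] at hlam
  have htkl : (X1.take (D.c k)).length = D.c k := by rw [List.length_take]; omega
  refine ⟨X1.take (D.c k), ⟨k, hkK, htkl, hlam⟩, X1.drop (D.c k) ++ X2, ?_, ?_⟩
  · rintro x' P' ⟨k', hk', hP'l, hP'lam⟩
    obtain ⟨U, hU, hUp⟩ := first_block (D := D) (P' ++ (X1.drop (D.c k) ++ X2))
      (P' ++ (X1.drop (D.c k) ++ X2)).length (by simp only [List.length_append]; omega) le_rfl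
      (by
        rw [List.take_length, ← List.append_assoc, h.W1 _ _ (by omega)]
        exact b2)
    by_cases hkk : k' = k
    · subst hkk
      set A0 := (X1.take D.p0).drop (D.c k') with hA0
      have hA0l : A0.length = D.p0 - D.c k' := by rw [hA0, List.length_drop, htl]
      have e1 : X1.drop (D.c k') = A0 ++ X1.drop D.p0 := by
        conv_lhs => rw [← List.take_append_drop D.p0 X1]
        rw [List.drop_append_of_le_length (by omega)]
      have e2 : X1.take (D.c k') ++ A0 = X1.take D.p0 := by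
        rw [hA0, ← htk, List.take_append_drop]
      have hPl : (P' ++ A0).length = D.p0 := by rw [List.length_append, hA0l]; omega
      have hT : D.T x' (P' ++ X1.drop (D.c k')) = D.T x X1 := by
        rw [T_eq h, T_eq h, e1, ← List.append_assoc, List.take_left' hPl, List.drop_left' hPl,
          ← h.sound2 k' hkK P' A0 x' b hP'l hP'lam hrho, ← e2,
          ← h.sound2 k' hkK (X1.take (D.c k')) A0 x b htkl hlam hrho]
      have hUX : P' ++ X1.drop (D.c k') ∈ D.XX := by
        have hlX : (P' ++ X1.drop (D.c k')).length = X1.length := by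
          rw [List.length_append, List.length_drop]; omega
        refine ⟨by omega, ?_, ?_⟩
        · rw [h.W1 _ _ (by rw [List.length_drop]; omega),
            ← h.W1 (X1.take (D.c k')) _ (by rw [List.length_drop]; omega),
            List.take_append_drop]
          exact a2
        · intro t ht1 ht2 hw
          rw [wall_swap h (X1.take (D.c k')) P' _ t (by omega)
            (by rw [List.length_drop]; omega), List.take_append_drop, htkl] at hw
          rw [show D.c k' + (t - P'.length) = t by omega] at hw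
          exact a3 t ht1 (by omega) hw
      by_cases hg : P' ++ X1.drop (D.c k') ∈ D.Good
      · right; left
        exact ⟨_, hg, ⟨X2, by rw [List.append_assoc]⟩⟩
      · left
        exact ⟨_, ⟨hUX, hg⟩, X2, hX2, by rw [List.append_assoc], by rw [hT]⟩
    · right; left
      exact ⟨U, hns k' hk' hkk P' hP'l U hU (by rwa [hdr]), hUp⟩
  · rw [← List.append_assoc, List.take_append_drop]

end Dat

end Crest.Agent.R320.Fin_528
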