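import Crest.Agent.R320.Grid2_193
import Crest.Agent.R320.Fin_528
import Crest.Agent.R320.SemTop_727
import Crest.Agent.R320.P4_440
import Crest.Agent.R320.WallU_228
import Crest.Agent.R320.ExactR_237
import Crest.Agent.R320.Thin_243
import Crest.Agent.R320.Univ_188

/-!
# Row 320: final join (helper193): natural chain on all words, 693's grid gadget, 528's joint,
727's semantic top, 440's P4, 228's walls, 237's exact gadget, 243's ruler.
-/

set_option autoImplicit false

namespace Crest.Agent.R320.Grid_193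

open Finset Crest.RegLang Crest.Agent.R320.Hk_851

section

variable {S W V : Type*} [Monoid S] [AddCommGroup W] [AddCommGroup V]
variable {K : Con} {act : V → S → V} {e : ℕ → S → W} {F : S → W → V} {Ms : Finset ℕ}
  {nmL nmR : ℕ → Option (Nm K.m S W V)} {A : Type*} (phi : A → S)

/-- the noise is finite-state -/
theorem nu_fs {u u' : List A} (hu : La K ≤ u.length) (hu' : La K ≤ u'.length)
    (ht : u.take (La K) = u'.take (La K)) (hp : pr phi u = pr phi u')
    (hl : u.length % (K.M * K.G K.m) = u'.length % (K.M * K.G K.m)) :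
    nu K act e F Ms nmL nmR phi u = nu K act e F Ms nmL nmR phi u' := by
  have hM : u.length % K.M = u'.length % K.M :=
    (show u.length ≡ u'.length [MOD K.M * K.G K.m] from hl).of_mul_right _
  have hG : ∀ j ≤ K.m, u.length % K.G j = u'.length % K.G j := fun j hj =>
    (show u.length ≡ u'.length [MOD K.M * K.G K.m] from hl).of_dvd
      ((K.G_dvd hj).trans (Dvd.intro_left _ rfl))
  have hw : wt K e phi u = wt K e phi u' := by
    unfold wt ws
    refine Finset.sum_congr rfl fun j hj => ?_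
    have hj' := Finset.mem_range.1 hj
    have e1 : K.be u.length j = K.be u'.length j := by unfold Con.be; rw [hG j hj'.le]
    have e2 : K.be u.length (j + 1) = K.be u'.length (j + 1) := by
      unfold Con.be; rw [hG (j + 1) hj']
    rw [e1, e2]
    have hb : K.be u'.length (j + 1) ≤ La K := by
      have h1 := K.be_lt (T := u'.length) (j := j + 1) hj'
      have h2 : K.L * (j + 1 + 1) ≤ La K := Nat.mul_le_mul_left _ (by omega)
      omega
    have e3 : u.take (K.be u'.length (j + 1)) = u'.take (K.be u'.length (j + 1)) := by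
      rw [← Nat.min_eq_left hb, ← List.take_take, ← List.take_take, ht]
    rw [e3]
  unfold nu
  rw [hM, hp, hw]

/-- bad totals are bad for the ruler theorem -/
theorem badG {T : ℕ} (h : BadT K Ms T) :
    Thin243.BadG Ms K.M K.Gam K.m (fun _ => 0) (T : ℤ) := by
  rcases h with ⟨k, hk, hd⟩ | ⟨j, h1, h2, h3⟩
  · exact Or.inl ⟨k, hk, by exact_mod_cast hd⟩
  · right
    refine ⟨j, h1, h2, ?_⟩
    have hG : (K.Gam : ℤ) ^ j = ((K.G j : ℕ) : ℤ) := by unfold Con.G; push_cast; rfl
    have hG' : (K.Gam : ℤ) ^ (j - 1) = ((K.G (j - 1) : ℕ) : ℤ) := by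
      unfold Con.G; push_cast; rfl
    rw [hG, hG']
    have hdm : ((K.G j : ℕ) : ℤ) * ((T / K.G j : ℕ) : ℤ) + ((T % K.G j : ℕ) : ℤ) = (T : ℤ) := by
      exact_mod_cast Nat.div_add_mod T (K.G j)
    rcases h3 with h3 | h3
    · refine ⟨((T / K.G j : ℕ) : ℤ), ?_⟩
      have e1 : (T : ℤ) - 0 - ((T / K.G j : ℕ) : ℤ) * ((K.G j : ℕ) : ℤ) =
          ((T % K.G j : ℕ) : ℤ) := by rw [← hdm]; ring
      rw [e1, abs_of_nonneg (by positivity)]
      exact_mod_cast h3.le
    · refine ⟨((T / K.G j : ℕ) : ℤ) + 1, ?_⟩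
      have hlt := Nat.mod_lt T (K.G_pos j)
      have e1 : (T : ℤ) - 0 - (((T / K.G j : ℕ) : ℤ) + 1) * ((K.G j : ℕ) : ℤ) =
          -(((K.G j : ℕ) : ℤ) - ((T % K.G j : ℕ) : ℤ)) := by rw [← hdm]; ring
      rw [e1, abs_neg, abs_of_nonneg (by
        have : ((T % K.G j : ℕ) : ℤ) ≤ ((K.G j : ℕ) : ℤ) := by exact_mod_cast hlt.le
        linarith)]
      have : ((K.G j : ℕ) : ℤ) < ((T % K.G j : ℕ) : ℤ) + ((K.M * K.G (j - 1) : ℕ) : ℤ) := by
        exact_mod_cast h3
      push_cast at this ⊢
      linarith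

end

theorem hl3 {α : Type} [Finite α] (S : Type) [Monoid S] [Finite S] (φ : α → S) (s : S) :
    HL 3 ({w | (w.map φ).prod = s} : Language α) := by
  classical
  haveI := Fintype.ofFinite S
  obtain ⟨act, hadd, hone, hmul, hfaith⟩ := Crest.Agent.R320.Blk467.exists_module S
  obtain ⟨m, N, e, F, hN, hF⟩ :=
    Crest.Agent.R320.RandF808.exists_noise S (S → ZMod 2) act
  haveI : NeZero N := ⟨by omega⟩
  let K0 : Con := ⟨m, 1, 1, one_pos, one_pos, Nat.coprime_one_left 1⟩
  obtain ⟨r, hnames⟩ := Crest.Agent.R320.Names_570.exists_names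
    (N := Nm m S (ZMod N × ZMod N) (S → ZMod 2)) (C := (S → ZMod 2) × (S → ZMod 2))
    (fun c => (vv K0 c, bb K0 act e F c))
  obtain ⟨Kn, hex⟩ := Crest.Agent.R320.ExactR_237.exact_gadget α S (S → ZMod 2) φ act
    (2 * (r + m) + 2)
  obtain ⟨Ms, nmL, nmR, hcard, hprime, hpL, hpR, hsame, hexn, hmis⟩ := hnames (2 ^ (Kn + 2))
  have hMpos : 0 < ∏ k ∈ Ms, k := Finset.prod_pos fun p h => (hprime p h).1.pos
  set M := ∏ k ∈ Ms, k with hMdef
  let kap : ℕ := M * 2 ^ (Kn + 6)
  have hcop : Nat.Coprime M (2 ^ kap) := by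
    refine Nat.Coprime.pow_right _ (Nat.Coprime.prod_left fun p hp => ?_)
    refine (Nat.coprime_primes (hprime p hp).1 Nat.prime_two).2 ?_
    have h1 := (hprime p hp).2
    have h2 : 2 ^ 2 ≤ 2 ^ (Kn + 2) := Nat.pow_le_pow_right (by norm_num) (by omega)
    omega
  let K : Con := ⟨m, M, 2 ^ kap, hMpos, by positivity, hcop⟩
  have hNm : Names K act e F Ms nmL nmR := by
    refine ⟨hpL, hpR, fun k hk => Finset.dvd_prod_of_mem _ hk, hsame, hexn, ?_⟩
    intro t1 t1' t2 t2' c1 c1' c2 c2' h1 h2 l1 l2 l3 l4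
    rcases hmis t1 t1' t2 t2' c1 c1' c2 c2' h1 h2 l1 l2 l3 l4 with ⟨rfl, rfl⟩ | ⟨rfl, rfl, h⟩
    · exact ⟨rfl, rfl⟩
    · exact ⟨congrArg Prod.fst h, (congrArg Prod.snd h).symm⟩
  obtain ⟨c, hcmono, hcD, -, hcsep, hcthin⟩ := Crest.Agent.R320.Thin243.thin Kn (2 * La K) Ms M
    (2 ^ kap) m (fun p hp => (hprime p hp).1) (fun p hp => (hprime p hp).2) ⟨kap, rfl⟩
    (Nat.lt_two_pow_self) hMpos
  obtain ⟨lam2, rho2, nu2, hs2, hc2⟩ := hex c (fun i j hij _ => hcmono hij)
  let p0 : ℕ := c Kn
  obtain ⟨n, cc, P, Sw, hn, hP, hW1, hWgap, -, -, hfew⟩ :=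
    Crest.Agent.R320.WallU_228.walls_full (α := α) (2 * p0 + 2 * La K)
  let D : Crest.Agent.R320.Fin_528.Dat α (S → ZMod 2) S :=
    { f := φ, act := act, n := n, W := 2 * p0 + 2 * La K
      Wo := Crest.Agent.R320.WallU_228.Wo n Sw
      z := 3 * p0 + La K + La K + n + 1, p0 := p0, N1 := La K, Nc := La K
      lam := lam K act e F nmL φ, rho := rho K act e F nmR φ
      nu1 := nu K act e F Ms nmL nmR φ, BadT := BadT K Ms, K := Kn
      R := 2 * (r + m) + 2, C0 := r + m, c := c, lam2 := lam2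
      rho2 := fun k Q => rho2 k Q 1, nu2 := fun u => nu2 u 1 }
  have hck : ∀ k < Kn, c k ≤ p0 := fun k hk => (hcmono hk).le
  have hOk : D.Ok := by
    refine ⟨hadd, hmul, hW1, ?_, ?_, ?_, ?_, hck, ?_, le_rfl, ?_, ?_, ?_, ?_, ?_⟩
    · intro X s t hst ht h1 h2
      by_contra hc
      have hc' : t - s ≤ 2 * p0 + 2 * La K := not_lt.1 hc
      have h3 := hWgap (X.take t) (t - s) h2 (by omega) hc'
      have hl : (X.take t).length = t := by rw [List.length_take]; omega
      rw [hl, List.take_take, Nat.min_eq_left (by omega), show t - (t - s) = s by omega] at h3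
      exact h3 h1
    · exact fun P v h => lam_len φ h
    · intro P Q v b h1 h2
      exact sound φ hNm h1 h2
    · intro u hu hb v
      obtain ⟨p, q, h1, h2, h3⟩ := complete φ hNm hF hu hb v
      exact ⟨p, q, h1, h2, Option.isSome_iff_exists.1 h3⟩
    · show 3 * p0 + La K + La K + n < 3 * p0 + La K + La K + n + 1
      omega
    · intro k k' l l' hk hk' hl hl' hne hne' h1 h2
      by_contra hkl
      have h3 := hcsep k k' l l' hne hne' (fun h => hkl (congrArg Prod.fst h))
      have h1' : (c k' : ℤ) + c l ≤ c k + c l' + 2 * (La K : ℕ) := by exact_mod_cast h1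
      have h2' : (c k : ℤ) + c l' ≤ c k' + c l + 2 * (La K : ℕ) := by exact_mod_cast h2
      have h4 : |((c k : ℤ) - c k') - (c l - c l')| ≤ 2 * (La K : ℕ) :=
        abs_le.2 ⟨by linarith, by linarith⟩
      push_cast at h3
      linarith
    · intro T hT I hI
      have hT' : p0 ≤ T := hT
      have h1 := hcthin (fun _ => 0) (T : ℤ)
      refine le_trans (Finset.card_le_card_of_surjOn (fun q : ℕ × ℕ => q.2) ?_)
        (h1.trans (Nat.add_le_add_right hcard m))
      intro k hk
      obtain ⟨hkK, k', hk'K, hne, hb⟩ := hI k hk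
      refine ⟨(k', k), ?_, rfl⟩
      rw [Finset.mem_coe, Finset.mem_filter, Finset.mem_product, Finset.mem_range,
        Finset.mem_range]
      refine ⟨⟨hk'K, hkK⟩, hne, ?_⟩
      have h2 := badG (K := K) (Ms := Ms) hb
      have h3 : c k ≤ T := (hck k hkK).trans hT'
      have h4 : ((T + c k' - c k : ℕ) : ℤ) = (T : ℤ) + c k' - c k := by
        rw [Nat.cast_sub (by omega)]; push_cast; ring
      have h5 : Thin243.BadG Ms M (2 ^ kap) m (fun _ => 0) ((T + c k' - c k : ℕ) : ℤ) := h2
      rw [h4] at h5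
      exact h5
    · show 1 + 2 * (r + m) < 2 * (r + m) + 2
      omega
    · intro k hk P Q v b hPk h1 h2
      have h3 := hs2 k hk P Q 1 v b hPk h1 h2
      rw [mul_one] at h3
      exact h3
    · intro u v hu
      obtain ⟨I, hI, hI2⟩ := hc2 u 1 v hu
      exact ⟨I, hI, fun k hk => ⟨(hI2 k hk).1, (hI2 k hk).2.1,
        Option.isSome_iff_exists.1 (hI2 k hk).2.2⟩⟩
  have hph : ∀ u v : List α, pr φ (u ++ v) = pr φ u * pr φ v := pr_append φ
  let B : ℕ := 3 * p0 + La K + La K + n + 1
  let Pm : ℕ := K.M * K.G K.m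
  have hPm : 0 < Pm := Nat.mul_pos K.hM (K.G_pos _)
  have hdropp : ∀ {w w' : List α} {a : ℕ}, a ≤ B → w.take B = w'.take B →
      pr φ (w.drop B) = pr φ (w'.drop B) → pr φ (w.drop a) = pr φ (w'.drop a) := by
    intro w w' a ha h1 h2
    have e1 : ∀ x : List α, x.drop a = (x.take B).drop a ++ x.drop B := by
      intro x
      have : x = x.take B ++ x.drop B := (List.take_append_drop B x).symm
      by_cases hx : B ≤ x.length
      · conv_lhs => rw [this]
        rw [List.drop_append_of_le_length (by rw [List.length_take]; omega)]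
      · rw [List.take_of_length_le (show x.length ≤ B by omega),
          List.drop_eq_nil_of_le (show x.length ≤ B by omega), List.append_nil]
    rw [e1 w, e1 w', hph, hph, h1, h2]
  have hresp : ∀ x y, Crest.Agent.R320.P4_440.Resp (pr φ) B Pm (fun X => D.T x X = y) := by
    intro x y w w' hw hw' ht hd hl
    have e1 : pr φ w = pr φ w' := by
      have := hdropp (a := 0) (Nat.zero_le _) ht hd
      simpa using this
    have hp0B : p0 ≤ B := by show p0 ≤ 3 * p0 + La K + La K + n + 1; omega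
    have e2 : w.take p0 = w'.take p0 := by
      rw [← Nat.min_eq_left hp0B, ← List.take_take, ← List.take_take, ht]
    have e3 : pr φ (w.drop p0) = pr φ (w'.drop p0) := hdropp hp0B ht hd
    have e4 : nu K act e F Ms nmL nmR φ (w.drop p0) =
        nu K act e F Ms nmL nmR φ (w'.drop p0) := by
      have hLB : p0 + La K ≤ B := by
        show p0 + La K ≤ 3 * p0 + La K + La K + n + 1; omega
      refine nu_fs φ (by rw [List.length_drop]; omega) (by rw [List.length_drop]; omega) ?_ e3 ?_
      · have h6 : ∀ v : List α, v.take (p0 + La K) = (v.take B).take (p0 + La K) := by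
          intro v; rw [List.take_take, Nat.min_eq_left hLB]
        have h7 : ∀ v : List α, (v.drop p0).take (La K) = (v.take (p0 + La K)).drop p0 := by
          intro v; rw [List.drop_take, Nat.add_sub_cancel_left]
        rw [h7 w, h7 w', h6 w, h6 w', ht]
      · rw [List.length_drop, List.length_drop]
        have h1 : (w.length - p0) + p0 ≡ (w'.length - p0) + p0 [MOD Pm] := by
          rw [Nat.sub_add_cancel (by omega), Nat.sub_add_cancel (by omega)]
          exact hl
        exact Nat.ModEq.add_right_cancel' p0 h1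
    have e5 : D.T x w = D.T x w' := by
      show act x (pr φ w) + (act (nu2 (w.take p0) 1) (pr φ (w.drop p0)) +
          nu K act e F Ms nmL nmR φ (w.drop p0)) =
        act x (pr φ w') + (act (nu2 (w'.take p0) 1) (pr φ (w'.drop p0)) +
          nu K act e F Ms nmL nmR φ (w'.drop p0))
      rw [e1, e2, e3, e4]
    show D.T x w = y ↔ D.T x w' = y
    rw [e5]
  have hresp2 : ∀ s, Crest.Agent.R320.P4_440.Resp (pr φ) B Pm (fun X => pr φ X = s) := by
    intro s w w' hw hw' ht hd hl
    have e1 : pr φ w = pr φ w' := by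
      have := hdropp (a := 0) (Nat.zero_le _) ht hd
      simpa using this
    show pr φ w = s ↔ pr φ w' = s
    rw [e1]
  have hnB : n ≤ B := by show n ≤ 3 * p0 + La K + La K + n + 1; omega
  let E : Crest.Agent.R320.SemTop_727.Sch α (S → ZMod 2) := ⟨D.XX, D.T, D.L1, D.L2⟩
  have hpc := Crest.Agent.R320.P4_440.pc_XX (α := α) (n := n) (S := Sw) (z := B)
    (show 0 < 3 * p0 + La K + La K + n + 1 by omega)
  refine Crest.Agent.R320.SemTop_727.top (k := 1) act hadd hone hmul hfaith φ D.nu E
    (fun v X => rfl) ?_ ?_ ?_ ?_ ?_ ?_ s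
  · refine ⟨hpc.ne, ?_⟩
    intro X hX Y hY h
    exact hpc.pf X hX Y hY h
  · intro x y
    exact (Crest.Agent.R320.P4_440.HL_block hph hnB le_rfl hPm hfew (hresp x y))
  · intro x
    refine (List.finite_length_le α (p0 + La K)).subset ?_
    rintro Q ⟨h1, h2⟩
    have h3 : (Q.drop p0).length ≤ La K := lam_len φ h2
    rw [List.length_drop] at h3
    show Q.length ≤ p0 + La K
    omega
  · intro x
    refine (List.finite_length_le α p0).subset ?_
    rintro Q ⟨k, hk, h1, h2⟩
    show Q.length ≤ p0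
    have h1' : Q.length = c k := h1
    rw [h1']
    exact hck k hk
  · intro X1 hX1 X2 hX2 x
    exact Crest.Agent.R320.Fin_528.Dat.compl2 hOk hX1 hX2 x
  · intro s
    exact (Crest.Agent.R320.P4_440.HL_rest hph hnB le_rfl hPm hfew (hresp2 s)).mono (by norm_num)

theorem row {α : Type} [Finite α] (L : Language α) (hL : L.IsRegular) :
    ∃ e : GRegExp α, e.height ≤ 3 ∧ e.lang = L :=
  of_monoid (fun S _ _ f s => hl3 S f s) L hL

end Crest.Agent.R320.Grid_193
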