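import Crest.Agent.R320.S12_449
import Crest.Agent.R320.P4_933

/-!
# Row 320, P4 for 449's `Dat` (helper204): all six `H 1` hypotheses of `Top5_163.top`
-/

set_option autoImplicit false
set_option linter.unusedSectionVars false
set_option linter.unusedVariables false

namespace Crest.Agent.R320.P4Dat_204

open Crest.RegLang Crest.Agent.R320.Hk_851 Crest.Agent.R320.BddReg_746 Crest.Agent.R320.S12_449

universe u

variable {α : Type u}

/-- same finite-state class -/
def Eqv {S : Type*} [Monoid S] (f : α → S) (A M0 : ℕ) (u u' : List α) : Prop :=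
  A ≤ u.length ∧ A ≤ u'.length ∧ u.take A = u'.take A ∧ u.length % M0 = u'.length % M0 ∧
    ((u.drop A).map f).prod = ((u'.drop A).map f).prod

theorem Eqv.drop {S : Type*} [Monoid S] {f : α → S} {A M0 p : ℕ} {u u' : List α}
    (h : Eqv f (p + A) M0 u u') : Eqv f A M0 (u.drop p) (u'.drop p) := by
  obtain ⟨h1, h2, h3, h4, h5⟩ := h
  refine ⟨by rw [List.length_drop]; omega, by rw [List.length_drop]; omega, ?_, ?_, ?_⟩
  · have e1 : (u.drop p).take A = (u.take (p + A)).drop p := by
      rw [List.drop_take]; congr 1; omega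
    have e2 : (u'.drop p).take A = (u'.take (p + A)).drop p := by
      rw [List.drop_take]; congr 1; omega
    rw [e1, e2, h3]
  · rw [List.length_drop, List.length_drop]
    have h6 : (u.length - p + p) % M0 = (u'.length - p + p) % M0 := by
      rw [Nat.sub_add_cancel (by omega), Nat.sub_add_cancel (by omega)]; exact h4
    exact Nat.ModEq.add_right_cancel' p h6
  · rw [List.drop_drop, List.drop_drop]; exact h5

theorem Eqv.mono {S : Type*} [Monoid S] {f : α → S} {A A' M0 : ℕ} (hA : A ≤ A') {u u' : List α}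
    (h : Eqv f A' M0 u u') : Eqv f A M0 u u' := by
  obtain ⟨h1, h2, h3, h4, h5⟩ := h
  refine ⟨by omega, by omega, ?_, h4, ?_⟩
  · have e : ∀ w : List α, w.take A = (w.take A').take A := by
      intro w; rw [List.take_take, min_eq_left hA]
    rw [e u, e u', h3]
  · have e : ∀ w : List α, ((w.drop A).map f).prod =
        (((w.take A').drop A).map f).prod * ((w.drop A').map f).prod := by
      intro w
      rw [← List.prod_append, ← List.map_append]
      congr 2
      conv_lhs => rw [← List.take_append_drop (A' - A) (w.drop A)]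
      rw [List.drop_drop, List.take_drop]
      congr 2
      · congr 1; omega
      · congr 1; omega
    rw [e u, e u', h3, h5]

theorem Eqv.prod {S : Type*} [Monoid S] {f : α → S} {A M0 : ℕ} {u u' : List α}
    (h : Eqv f A M0 u u') : (u.map f).prod = (u'.map f).prod := by
  have := (h.mono (Nat.zero_le A)).2.2.2.2
  simpa using this

theorem Eqv.take {S : Type*} [Monoid S] {f : α → S} {A M0 p : ℕ} (hp : p ≤ A) {u u' : List α}
    (h : Eqv f A M0 u u') : u.take p = u'.take p := by
  have e : ∀ w : List α, w.take p = (w.take A).take p := by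
    intro w; rw [List.take_take, min_eq_left hp]
  rw [e u, e u', h.2.2.1]

theorem take_snoc (A : ℕ) (u : List α) (a : α) :
    (u ++ [a]).take A = if (u.take A).length < A then u.take A ++ [a] else u.take A := by
  by_cases h : u.length < A
  · rw [List.take_of_length_le (l := u) (by omega), if_pos h, List.take_of_length_le (by simp; omega)]
  · have h1 : (u.take A).length = A := by rw [List.length_take]; omega
    rw [if_neg (by omega), List.take_append_of_le_length (by omega)]

/-- finite-state properties are regular -/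
theorem reg_fs [Finite α] {S : Type*} [Monoid S] [Finite S] (φ : α → S) (A M0 : ℕ)
    (hM : 0 < M0) (f : List α → Prop)
    (hf : ∀ u u' : List α, Eqv φ A M0 u u' → (f u ↔ f u')) :
    Language.IsRegular ({u | f u} : Language α) := by
  classical
  have : NeZero M0 := ⟨by omega⟩
  have hfin : Finite {l : List α // l.length ≤ A} := List.finite_length_le α A
  let σ := {l : List α // l.length ≤ A} × ZMod M0 × S
  have : Fintype σ := Fintype.ofFinite σ
  let st : List α → σ := fun u =>
    (⟨u.take A, by rw [List.length_take]; omega⟩, (u.length : ZMod M0), ((u.drop A).map φ).prod)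
  let M : DFA α σ :=
    { step := fun q a =>
        (if h : q.1.1.length < A then ⟨q.1.1 ++ [a], by simp; omega⟩ else q.1,
          q.2.1 + 1, if q.1.1.length < A then 1 else q.2.2 * φ a)
      start := st []
      accept := {q | ∃ u, f u ∧ st u = q} }
  have hev : ∀ u, M.eval u = st u := by
    intro u
    induction u using List.reverseRecOn with
    | nil => rfl
    | append_singleton u a ih =>
      rw [DFA.eval_append_singleton, ih]
      refine Prod.ext (Subtype.ext ?_) (Prod.ext ?_ ?_)
      · change (if h : (u.take A).length < A then (⟨u.take A ++ [a], _⟩ : {l : List α // l.length ≤ A})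
          else ⟨u.take A, _⟩).1 = (u ++ [a]).take A
        rw [take_snoc]
        split_ifs <;> rfl
      · change (u.length : ZMod M0) + 1 = ((u ++ [a]).length : ZMod M0)
        simp
      · change (if (u.take A).length < A then 1 else ((u.drop A).map φ).prod * φ a) =
          (((u ++ [a]).drop A).map φ).prod
        rw [List.length_take]
        by_cases h : u.length < A
        · rw [if_pos (by omega), List.drop_eq_nil_of_le (by simp; omega)]; rfl
        · rw [if_neg (by omega), List.drop_append_of_le_length (by omega)]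
          simp
  refine Language.isRegular_iff.2 ⟨σ, inferInstance, M, ?_⟩
  ext w
  rw [DFA.mem_accepts, hev]
  constructor
  · rintro ⟨u, hu, he⟩
    have h1 : u.take A = w.take A := congrArg (fun q : σ => q.1.1) he
    have h2 : (u.length : ZMod M0) = (w.length : ZMod M0) := congrArg (fun q : σ => q.2.1) he
    have h3 : ((u.drop A).map φ).prod = ((w.drop A).map φ).prod := congrArg (fun q : σ => q.2.2) he
    have hlen : min A u.length = min A w.length := by
      have := congrArg List.length h1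
      simpa [List.length_take] using this
    by_cases hw : w.length < A
    · have e1 : w.take A = w := List.take_of_length_le (by omega)
      have e2 : u.take A = u := List.take_of_length_le (by omega)
      rw [e1, e2] at h1
      rwa [← h1]
    · refine (hf u w ⟨by omega, by omega, h1, ?_, h3⟩).1 hu
      exact (ZMod.natCast_eq_natCast_iff _ _ _).1 h2
  · intro hw
    exact ⟨w, hw, rfl⟩

variable {S V : Type u} [Monoid S] [AddCommGroup V]

/-- finite-state hypotheses on the data -/
structure FS (D : Dat α S V) (f : α → S) (A M0 B Rn : ℕ) : Prop where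
  hφ : ∀ w, D.φ w = (w.map f).prod
  hM : 0 < M0
  len : ∀ P, D.Wo P → D.n ≤ P.length
  free : ∀ u : List α, (∀ t < u.length, ¬ D.Wo (u.take t)) → u ∈ (PN B Rn : Language α)
  nu : ∀ u u', Eqv f A M0 u u' → D.nu1 u = D.nu1 u'
  rho : ∀ u u', Eqv f A M0 u u' → D.rho u = D.rho u'
  bad : ∀ a, A ≤ a → (D.BadT (a + M0) ↔ D.BadT a)

variable {D : Dat α S V} {f : α → S} {A M0 B Rn : ℕ}

theorem FS.bad_mod (h : FS D f A M0 B Rn) {a b : ℕ} (ha : A ≤ a) (hb : A ≤ b)
    (he : a % M0 = b % M0) : D.BadT a ↔ D.BadT b := by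
  have key : ∀ k a, A ≤ a → (D.BadT (a + k * M0) ↔ D.BadT a) := by
    intro k
    induction k with
    | zero => intro a _; simp
    | succ k ih =>
      intro a ha
      rw [show a + (k + 1) * M0 = (a + k * M0) + M0 by ring, h.bad _ (by omega), ih a ha]
  wlog hab : a ≤ b generalizing a b
  · exact (this hb ha he.symm (by omega)).symm
  have hd : M0 ∣ b - a := (Nat.modEq_iff_dvd' hab).1 he
  obtain ⟨k, hk⟩ := hd
  have : b = a + k * M0 := by rw [mul_comm k M0, ← hk]; omega
  rw [this]
  exact (key k a ha).symm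

variable [Finite α] [Finite S] [Finite V]

/-- the class equality for the zone map -/
theorem FS.T_congr (h : FS D f A M0 B Rn) {u u' : List α} (he : Eqv f (D.p0 + A) M0 u u') (v : V) :
    D.T v u = D.T v u' := by
  unfold Dat.T
  rw [he.take (p := D.p0) (by omega), h.hφ (u.drop D.p0), h.hφ (u'.drop D.p0), he.drop.prod,
    h.nu _ _ he.drop]

theorem XX_iff (h : FS D f A M0 B Rn) (X : List α) : X ∈ D.XX ↔ P4_933.XX D.Wo D.z X := by
  unfold Dat.XX P4_933.XX
  constructor
  · rintro ⟨h1, h2, h3⟩; exact ⟨h2, h1, fun t ht hz => h3 t hz ht⟩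
  · rintro ⟨h1, h2, h3⟩; exact ⟨h2, h1, fun t ht hz => h3 t hz ht⟩

theorem hXT (hO : D.Ok) (h : FS D f A M0 B Rn) (v v' : V) :
    HL 1 ({X | X ∈ D.XX ∧ D.T v X = v'} : Language α) := by
  have hr := reg_fs f (D.p0 + A) M0 h.hM (fun X => D.T v X = v')
    (fun u u' he => by rw [h.T_congr he])
  refine (P4_933.hl_XX (z := D.z) hO.hW h.len h.free hr).congr fun X => ?_
  exact and_congr_left' (XX_iff h X)

theorem hNP (hO : D.Ok) (h : FS D f A M0 B Rn) (s : S) :
    HL 1 ({r | (∀ X ∈ D.XX, ¬ X <+: r) ∧ D.φ r = s} : Language α) := by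
  have hr := reg_fs f 0 M0 h.hM (fun X => D.φ X = s)
    (fun u u' he => by rw [h.hφ, h.hφ, he.prod])
  refine (P4_933.hl_NB (z := D.z) hO.hW h.len h.free hr).congr fun r => ?_
  refine and_congr_left' ?_
  rw [P4_933.NB_iff]
  constructor
  · intro hX P hP hX'
    exact hX P ((XX_iff h P).2 hX') hP
  · intro hX X hX' hP
    exact hX X hP ((XX_iff h X).1 hX')

theorem hL1 (hO : D.Ok) (v : V) : HL 1 ({P | D.LP1 P v} : Language α) := by
  refine HL.finite (s := {P | D.LP1 P v}) ((List.finite_length_le α (D.p0 + D.N)).subset ?_)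
  rintro P ⟨h1, h2⟩
  have := hO.u1 _ _ h2
  rw [List.length_drop] at this
  change P.length ≤ _
  omega

theorem hL2 (hO : D.Ok) (v : V) : HL 1 ({P | D.LP2 P v} : Language α) := by
  refine HL.finite (s := {P | D.LP2 P v}) ((List.finite_length_le α D.p0).subset ?_)
  rintro P ⟨k, hk, h1, h2⟩
  change P.length ≤ _
  rw [h1]
  exact hO.hc k hk

theorem hQ1 (hO : D.Ok) (h : FS D f A M0 B Rn) (b : V) :
    HL 1 ({Q | D.R1 Q = some b} : Language α) := by
  classical
  have hr := reg_fs f (A + D.z) M0 h.hM (fun Q => D.z ≤ D.p0 + Q.length ∧ D.rho Q = some b)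
    (fun u u' he => by
      rw [h.rho _ _ (he.mono (by omega : A ≤ A + D.z))]
      have h1 := he.1
      have h2 := he.2.1
      constructor
      · rintro ⟨_, h3⟩; exact ⟨by omega, h3⟩
      · rintro ⟨_, h3⟩; exact ⟨by omega, h3⟩)
  refine (P4_933.hl_XX (z := D.z - D.p0 - D.N) hO.hW h.len h.free hr).congr fun Q => ?_
  change D.R1 Q = some b ↔ P4_933.XX D.Wo (D.z - D.p0 - D.N) Q ∧ (D.z ≤ D.p0 + Q.length ∧ D.rho Q = some b)
  have hz := hO.hz
  unfold Dat.R1
  constructor
  · intro hQ
    split_ifs at hQ with hl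
    obtain ⟨h1, h2, h3⟩ := hl
    exact ⟨⟨h2, by omega, fun t ht hzt => h3 t (by omega) ht⟩, h1, hQ⟩
  · rintro ⟨⟨h1, h2, h3⟩, h4, h5⟩
    rw [if_pos ⟨h4, h1, fun t hzt ht => h3 t ht (by omega)⟩]
    exact h5

/-- full prefixes: `FW` at the end of the word -/
theorem fw_iff (k : ℕ) (Q : List α) (t : ℕ) :
    D.FW (D.c k) Q t ↔ t ≤ Q.length ∧ P4_933.XX D.Wo (D.z - D.c k) (Q.take t) := by
  unfold Dat.FW P4_933.XX
  constructor
  · rintro ⟨h1, h2, h3, h4⟩
    have hl : (Q.take t).length = t := by rw [List.length_take]; omega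
    refine ⟨h1, h3, by omega, fun t' ht' hz => ?_⟩
    rw [hl] at ht'
    rw [List.take_take, min_eq_left (by omega)]
    exact h4 t' ht' (by omega)
  · rintro ⟨h1, h3, h2, h4⟩
    have hl : (Q.take t).length = t := by rw [List.length_take]; omega
    refine ⟨h1, by omega, h3, fun t' ht' hz => ?_⟩
    have := h4 t' (by omega) (by omega)
    rwa [List.take_take, min_eq_left (by omega)] at this

/-- badness of a full prefix -/
def GB (D : Dat α S V) (k : ℕ) (Q1 : List α) : Prop :=
  (∃ s ≤ Q1.length, D.z ≤ D.c k + s + D.N ∧ D.c k + s ≤ D.z + D.N ∧ D.Wo (Q1.take s)) ∨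
    D.BadT (D.c k + Q1.length - D.p0)

theorem hBQ (hO : D.Ok) (h : FS D f A M0 B Rn) (k : ℕ) :
    HL 1 ({Q | D.BadQ k Q} : Language α) := by
  have hr := reg_fs f (A + D.z + D.N + D.p0) M0 h.hM (GB D k) (fun u u' he => by
    have h1 := he.1
    have h2 := he.2.1
    have hb : D.BadT (D.c k + u.length - D.p0) ↔ D.BadT (D.c k + u'.length - D.p0) := by
      refine h.bad_mod (by omega) (by omega) ?_
      have h6 : (D.c k + u.length - D.p0 + D.p0) % M0 = (D.c k + u'.length - D.p0 + D.p0) % M0 := by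
        rw [Nat.sub_add_cancel (by omega), Nat.sub_add_cancel (by omega)]
        exact Nat.ModEq.add_left _ he.2.2.2.1
      exact Nat.ModEq.add_right_cancel' D.p0 h6
    unfold GB
    rw [hb]
    refine or_congr_left ?_
    constructor
    · rintro ⟨s, h3, h4, h5, h6⟩
      refine ⟨s, by omega, h4, h5, ?_⟩
      rw [← he.take (p := s) (by omega)]; exact h6
    · rintro ⟨s, h3, h4, h5, h6⟩
      refine ⟨s, by omega, h4, h5, ?_⟩
      rw [he.take (p := s) (by omega)]; exact h6)
  refine ((P4_933.hl_XX (z := D.z - D.c k) hO.hW h.len h.free hr).mul HL.top).congr fun Q => ?_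
  refine Iff.trans ?_ Language.mem_mul.symm
  constructor
  · rintro ⟨t, hfw, hb⟩
    obtain ⟨h1, h2⟩ := (fw_iff k Q t).1 hfw
    have hl : (Q.take t).length = t := by rw [List.length_take]; omega
    refine ⟨Q.take t, ⟨h2, ?_⟩, Q.drop t, trivial, List.take_append_drop _ _⟩
    change GB D k (Q.take t)
    unfold GB
    rw [hl]
    refine hb.imp ?_ id
    rintro ⟨s, h3, h4, h5, h6⟩
    refine ⟨s, h3, h4, h5, ?_⟩
    rw [List.take_take, min_eq_left h3]; exact h6
  · rintro ⟨Q1, ⟨h1, h2⟩, Q2, -, rfl⟩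
    have h2 : GB D k Q1 := h2
    refine ⟨Q1.length, (fw_iff k _ _).2 ⟨by simp, by rw [List.take_left]; exact h1⟩, ?_⟩
    refine h2.imp ?_ id
    rintro ⟨s, h3, h4, h5, h6⟩
    refine ⟨s, h3, h4, h5, ?_⟩
    rw [List.take_append_of_le_length h3]; exact h6

/-- value of the first part of a flight of scheme 2 -/
def GA (D : Dat α S V) (k : ℕ) (x : V) (Q1 : List α) : Prop :=
  ∃ w, D.rho2 k (Q1.take (D.p0 - D.c k)) = some w ∧
    x = D.act w (D.φ (Q1.drop (D.p0 - D.c k))) + D.nu1 (Q1.drop (D.p0 - D.c k))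

theorem fw_unique {k : ℕ} {Q : List α} {t t' : ℕ} (h : D.FW (D.c k) Q t) (h' : D.FW (D.c k) Q t') :
    t = t' := by
  rcases lt_trichotomy t t' with hlt | he | hlt
  · exact absurd h.2.2.1 (h'.2.2.2 t hlt h.2.1)
  · exact he
  · exact absurd h'.2.2.1 (h.2.2.2 t' hlt h'.2.1)

theorem rel_unique {Q : List α} {b b' : V} (h : D.Rel Q b) (h' : D.Rel Q b') : b = b' := by
  obtain ⟨k, hk, t, w, h1, h2, h3, h4, h5, h6⟩ := h
  obtain ⟨k', hk', t', w', h1', h2', h3', h4', h5', h6'⟩ := h'
  have e1 : k' = k := h3 k' hk' h2'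
  subst e1
  have e2 : t' = t := fw_unique h1' h1
  subst e2
  rw [h5] at h5'
  have e3 : w = w' := Option.some.inj h5'
  subst e3
  rw [h6, h6']

theorem r2_iff (Q : List α) (b : V) : D.R2 Q = some b ↔ D.Rel Q b := by
  classical
  unfold Dat.R2
  constructor
  · intro hQ
    split_ifs at hQ with hx
    have := Option.some.inj hQ
    rw [← this]
    exact hx.choose_spec
  · intro hQ
    have hx : ∃ b, D.Rel Q b := ⟨b, hQ⟩
    rw [dif_pos hx, rel_unique hx.choose_spec hQ]

/-- first parts -/
def LAk (D : Dat α S V) (k : ℕ) (x : V) : Language α :=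
  {Q1 | P4_933.XX D.Wo (D.z - D.c k) Q1 ∧ GA D k x Q1}

/-- second parts -/
def LBx (D : Dat α S V) (x b : V) : Language α := {X | X ∈ D.XX ∧ D.T x X = b}

theorem hQ2 (hO : D.Ok) (h : FS D f A M0 B Rn) (b : V) :
    HL 1 ({Q | D.R2 Q = some b} : Language α) := by
  have hz := hO.hz
  have hA : ∀ k x, HL 1 (LAk D k x) := by
    intro k x
    have hr := reg_fs f (D.p0 - D.c k + A) M0 h.hM (GA D k x) (fun u u' he => by
      unfold GA
      rw [he.take (p := D.p0 - D.c k) (by omega), h.nu _ _ he.drop, h.hφ (u.drop _),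
        h.hφ (u'.drop _), he.drop.prod])
    exact P4_933.hl_XX (z := D.z - D.c k) hO.hW h.len h.free hr
  have hk : ∀ k : Fin D.K, HL 1 ({Q | (∃ x, Q ∈ LAk D k x * LBx D x b) ∧ D.BadQ k Q ∧
      ∀ k' : Fin D.K, D.BadQ k' Q → (k' : ℕ) = k} : Language α) := by
    intro k
    refine HL.setOf_and (HL.iUnion fun x => (hA k x).mul (hXT hO h x b)) (HL.setOf_and (hBQ hO h k) ?_)
    refine HL.iInter (L := fun k' : Fin D.K => ({Q | D.BadQ k' Q → (k' : ℕ) = k} : Language α)) fun k' => ?_
    exact HL.setOf_imp (hBQ hO h k') (HL.const _)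
  refine (HL.iUnion hk).congr fun Q => ?_
  refine Iff.trans (r2_iff Q b) ?_
  constructor
  · rintro ⟨k, hk, t, w, h1, h2, h3, h4, h5, h6⟩
    obtain ⟨h7, h8⟩ := (fw_iff k Q t).1 h1
    have hck := hO.hc k hk
    have htp : D.p0 - D.c k ≤ t := by have := h1.2.1; omega
    refine ⟨⟨k, hk⟩, ⟨_, Language.mem_mul.2 ⟨Q.take t, ⟨h8, w, ?_, rfl⟩, Q.drop t, ⟨h4, h6.symm⟩,
      List.take_append_drop _ _⟩⟩, h2, fun k' hb => h3 k' k'.2 hb⟩
    rw [List.take_take, min_eq_left htp]; exact h5
  · rintro ⟨⟨k, hk⟩, ⟨x, hx⟩, h2, h3⟩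
    obtain ⟨Q1, ⟨h8, w, h5, h6⟩, X2, ⟨h4, h9⟩, rfl⟩ := Language.mem_mul.1 hx
    have hck := hO.hc k hk
    have htp : D.p0 - D.c k ≤ Q1.length := by
      have := h8.2.1
      change D.z - D.c k ≤ Q1.length at this
      omega
    refine ⟨k, hk, Q1.length, w, (fw_iff k _ _).2 ⟨by simp, by rw [List.take_left]; exact h8⟩, h2,
      fun k' hk' hb => h3 ⟨k', hk'⟩ hb, ?_, ?_, ?_⟩
    · rw [List.drop_left]; exact h4
    · rw [List.take_append_of_le_length htp]; exact h5
    · rw [List.drop_left, List.take_left, ← h6]; exact h9.symm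

end Crest.Agent.R320.P4Dat_204
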