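import Crest.Agent.R320.S12_449

/-!
Row 320 (helper449): the SPOIL hypothesis of `S12_449.Dat.Ok` from walls far apart, a ruler and the
thinness of the bad totals.
-/

set_option autoImplicit false
set_option linter.unusedSectionVars false
set_option linter.unusedVariables false

namespace Crest.Agent.R320.S12_449

variable {α S V : Type*} [Monoid S] [AddCommGroup V] {D : Dat α S V}

theorem wallQ (hW : ∀ P Q, D.n ≤ Q.length → (D.Wo (P ++ Q) ↔ D.Wo Q)) {U : List α} {c s : ℕ}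
    (hn : D.n ≤ s) (hs : s ≤ (U.drop c).length) :
    D.Wo ((U.drop c).take s) ↔ D.Wo (U.take (c + s)) := by
  rw [List.take_add]
  exact (hW _ _ (by rw [List.length_take]; omega)).symm

theorem spoil (hW : ∀ P Q, D.n ≤ Q.length → (D.Wo (P ++ Q) ↔ D.Wo Q)) {Λ C1 : ℕ}
    (hΛ : ∀ k < D.K, D.c k ≤ Λ) (hz : D.p0 + Λ + D.N + D.n + Λ + 1 ≤ D.z)
    (hgap : ∀ Q : List α, ∀ s t, s < t → t ≤ Q.length → D.Wo (Q.take s) → D.Wo (Q.take t) →
      2 * Λ + 2 * D.N < t - s)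
    (hrul : ∀ k₁ < D.K, ∀ k₁' < D.K, ∀ k₂ < D.K, ∀ k₂' < D.K, k₁ ≠ k₁' →
      |((D.c k₁ : ℤ) - D.c k₁') - ((D.c k₂ : ℤ) - D.c k₂')| ≤ 2 * D.N → k₁ = k₂)
    (thin : ∀ T, Λ ≤ T → ∀ I : Finset ℕ,
      (∀ k ∈ I, k < D.K ∧ ∃ k' < D.K, k' ≠ k ∧ D.BadT (T + D.c k' - D.c k)) → I.card ≤ C1)
    {U : List α} (hU : D.z ≤ U.length) (I : Finset ℕ)
    (hI : ∀ k ∈ I, k < D.K ∧ ∃ k' < D.K, k' ≠ k ∧ D.BadQ k' (U.drop (D.c k))) :
    I.card ≤ 1 + 2 * C1 := by
  classical
  set Wl : ℕ → Prop := fun y => y ≤ U.length ∧ D.Wo (U.take y) with hWl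
  have hg : ∀ s t, s < t → Wl s → Wl t → 2 * Λ + 2 * D.N < t - s :=
    fun s t h1 h2 h3 => hgap U s t h1 h3.1 h2.2 h3.2
  -- the two possible block ends
  obtain ⟨ya, yb, hy⟩ : ∃ ya yb : ℕ, ∀ y k k', k < D.K → k' < D.K → Wl y →
      D.z + D.c k ≤ y + D.c k' →
      (∀ y' < y, D.c k ≤ y' → D.z + D.c k ≤ y' + D.c k' → ¬ Wl y') → y = ya ∨ y = yb := by
    by_cases hA : ∃ y, Wl y ∧ D.z ≤ y + Λ
    swap
    · refine ⟨0, 0, fun y k k' hk hk' h1 h2 h3 => absurd ⟨y, h1, ?_⟩ hA⟩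
      have := hΛ k' hk'
      omega
    obtain ⟨a1, a2⟩ := Nat.find_spec hA
    by_cases hB : ∃ y, Wl y ∧ Nat.find hA < y
    swap
    · refine ⟨Nat.find hA, 0, fun y k k' hk hk' h1 h2 h3 => Or.inl ?_⟩
      have h4 := hΛ k' hk'
      have h5 := Nat.find_min' hA ⟨h1, by omega⟩
      by_contra hne
      exact hB ⟨y, h1, by omega⟩
    obtain ⟨b1, b2⟩ := Nat.find_spec hB
    refine ⟨Nat.find hA, Nat.find hB, fun y k k' hk hk' h1 h2 h3 => ?_⟩
    have h4 := hΛ k' hk'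
    have h4' := hΛ k hk
    have h5 := Nat.find_min' hA ⟨h1, by omega⟩
    by_contra hne
    push Not at hne
    have h6 : Nat.find hA < y := lt_of_le_of_ne h5 (Ne.symm hne.1)
    have h7 := Nat.find_min' hB ⟨h1, h6⟩
    have h8 : Nat.find hB < y := lt_of_le_of_ne h7 (Ne.symm hne.2)
    have h9 : ¬ D.z + D.c k ≤ Nat.find hB + D.c k' :=
      fun h => h3 _ h8 (by omega) h b1
    have h10 := hg _ _ b2 a1 b1
    omega
  -- splitting
  set IE := I.filter (fun k => ∃ k' < D.K, k' ≠ k ∧ ∃ y, Wl y ∧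
    |(y : ℤ) + D.c k' - D.c k - D.z| ≤ D.N) with hIE
  set IA := I.filter (fun k => ∃ k' < D.K, k' ≠ k ∧ Λ ≤ ya - D.p0 ∧
    D.BadT (ya - D.p0 + D.c k' - D.c k)) with hIA
  set IB := I.filter (fun k => ∃ k' < D.K, k' ≠ k ∧ Λ ≤ yb - D.p0 ∧
    D.BadT (yb - D.p0 + D.c k' - D.c k)) with hIB
  have hsub : I ⊆ IE ∪ (IA ∪ IB) := by
    intro k hkI
    obtain ⟨hk, k', hk', hne, t, ⟨f1, f2, f3, f4⟩, hbad⟩ := hI k hkI
    have hc := hΛ k hk
    have hc' := hΛ k' hk'
    have hdl : (U.drop (D.c k)).length = U.length - D.c k := List.length_drop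
    have hwq : ∀ s, D.n ≤ s → s ≤ U.length - D.c k →
        (D.Wo ((U.drop (D.c k)).take s) ↔ D.Wo (U.take (D.c k + s))) :=
      fun s h1 h2 => wallQ hW h1 (by rw [hdl]; exact h2)
    have hWt : Wl (D.c k + t) := ⟨by omega, (hwq t (by omega) (by omega)).1 f3⟩
    rcases hbad with ⟨s, s1, s2, s3, s4⟩ | hbad
    · refine Finset.mem_union_left _ (Finset.mem_filter.2 ⟨hkI, k', hk', hne, D.c k + s,
        ⟨by omega, (hwq s (by omega) (by omega)).1 s4⟩, ?_⟩)
      rw [abs_le]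
      push_cast
      constructor <;> omega
    · have h1 := hy (D.c k + t) k k' hk hk' hWt (by omega) (by
        intro y' g1 g2 g3 g4
        obtain ⟨s, rfl⟩ := Nat.exists_eq_add_of_le g2
        exact f4 s (by omega) (by omega) ((hwq s (by omega) (by have := g4.1; omega)).2 g4.2))
      refine Finset.mem_union_right _ ?_
      have e : D.c k' + t - D.p0 = D.c k + t - D.p0 + D.c k' - D.c k := by omega
      rw [e] at hbad
      rcases h1 with h1 | h1
      · refine Finset.mem_union_left _ (Finset.mem_filter.2 ⟨hkI, k', hk', hne, ?_, ?_⟩)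
        · omega
        · rw [← h1]; exact hbad
      · refine Finset.mem_union_right _ (Finset.mem_filter.2 ⟨hkI, k', hk', hne, ?_, ?_⟩)
        · omega
        · rw [← h1]; exact hbad
  have hE1 : IE.card ≤ 1 := by
    rw [Finset.card_le_one]
    intro k1 hk1 k2 hk2
    obtain ⟨m1, k1', l1, n1, y1, w1, e1⟩ := Finset.mem_filter.1 hk1
    obtain ⟨m2, k2', l2, n2, y2, w2, e2⟩ := Finset.mem_filter.1 hk2
    have q1 := (hI k1 m1).1
    have q2 := (hI k2 m2).1
    have c1 := hΛ _ q1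
    have c1' := hΛ _ l1
    have c2 := hΛ _ q2
    have c2' := hΛ _ l2
    rw [abs_le] at e1 e2
    have hyy : y1 = y2 := by
      rcases lt_trichotomy y1 y2 with h | h | h
      · have := hg _ _ h w1 w2; omega
      · exact h
      · have := hg _ _ h w2 w1; omega
    subst hyy
    refine hrul k1 q1 k1' l1 k2 q2 k2' l2 (Ne.symm n1) ?_
    rw [abs_le]
    constructor <;> omega
  have hA1 : IA.card ≤ C1 := by
    by_cases hya : Λ ≤ ya - D.p0
    · refine thin (ya - D.p0) hya IA fun k hk => ?_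
      obtain ⟨m1, k1', l1, n1, -, e1⟩ := Finset.mem_filter.1 hk
      exact ⟨(hI k m1).1, k1', l1, n1, e1⟩
    · have : IA = ∅ := by
        rw [hIA, Finset.filter_eq_empty_iff]
        rintro k - ⟨k', -, -, h, -⟩
        exact hya h
      rw [this]; simp
  have hB1 : IB.card ≤ C1 := by
    by_cases hya : Λ ≤ yb - D.p0
    · refine thin (yb - D.p0) hya IB fun k hk => ?_
      obtain ⟨m1, k1', l1, n1, -, e1⟩ := Finset.mem_filter.1 hk
      exact ⟨(hI k m1).1, k1', l1, n1, e1⟩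
    · have : IB = ∅ := by
        rw [hIB, Finset.filter_eq_empty_iff]
        rintro k - ⟨k', -, -, h, -⟩
        exact hya h
      rw [this]; simp
  calc I.card ≤ (IE ∪ (IA ∪ IB)).card := Finset.card_le_card hsub
    _ ≤ IE.card + (IA ∪ IB).card := Finset.card_union_le _ _
    _ ≤ IE.card + (IA.card + IB.card) := Nat.add_le_add_left (Finset.card_union_le _ _) _
    _ ≤ 1 + 2 * C1 := by omega

end Crest.Agent.R320.S12_449
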