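import Crest.Agent.R320.Top5_163
import Crest.Agent.R320.Sp_449
import Crest.Agent.R320.P4Dat_204
import Crest.Agent.R320.G1_852
import Crest.Agent.R320.Sp_929
import Crest.Agent.R320.ExactR_237
import Crest.Agent.R320.WallU_228
import Crest.Agent.R320.Block_467
import Crest.Agent.R320.LetMap_922

/-!
# Row 320: the complete join (helper204)
-/

set_option autoImplicit false
set_option linter.unusedSectionVars false
set_option linter.unusedVariables false

namespace Crest.Agent.R320.Fin_204

open Crest.RegLang Crest.Agent.R320.Hk_851 Crest.Agent.R320.BddReg_746 Crest.Agent.R320.S12_449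
  Crest.Agent.R320.P4Dat_204

/-- periodicity of the bad totals of 852's gadget -/
theorem bad_per (Ms : Finset ℕ) (M b m : ℕ) (hMs : ∀ k ∈ Ms, k ∣ M) (hb : 0 < b) (a : ℕ) :
    Sp_929.Bad Ms M b m (a + M * b ^ m) ↔ Sp_929.Bad Ms M b m a := by
  unfold Sp_929.Bad
  refine or_congr ?_ ?_
  · constructor
    · rintro ⟨k, hk, hd⟩
      exact ⟨k, hk, (Nat.dvd_add_left (Dvd.dvd.mul_right (hMs k hk) _)).1 hd⟩
    · rintro ⟨k, hk, hd⟩
      exact ⟨k, hk, (Nat.dvd_add_left (Dvd.dvd.mul_right (hMs k hk) _)).2 hd⟩
  · have e : ∀ j < m, (a + M * b ^ m) / b ^ j % b = a / b ^ j % b := by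
      intro j hj
      obtain ⟨d, rfl⟩ : ∃ d, m = j + (d + 1) := ⟨m - j - 1, by omega⟩
      have h1 : M * b ^ (j + (d + 1)) = (M * b ^ d * b) * b ^ j := by ring
      rw [h1, Nat.add_mul_div_right _ _ (pow_pos hb j), Nat.add_mul_mod_self_right]
    constructor
    · rintro ⟨j, hj, h⟩
      exact ⟨j, hj, by rw [← e j hj]; exact h⟩
    · rintro ⟨j, hj, h⟩
      exact ⟨j, hj, by rw [e j hj]; exact h⟩

theorem fin (α : Type) [Finite α] (S : Type) [Monoid S] [Finite S] (f : α → S) (s : S) :
    HL 3 ({w | (w.map f).prod = s} : Language α) := by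
  classical
  haveI : Fintype S := Fintype.ofFinite S
  obtain ⟨act, act_add, act_one, act_mul, faith⟩ := Crest.Agent.R320.Blk467.exists_module S
  let V : Type := S → ZMod 2
  haveI : Fintype V := Fintype.ofFinite V
  obtain ⟨m, r, hG⟩ := G1_852.gadget (S := S) (V := V) act
  let C1 := r + m
  let R := 1 + 2 * C1 + 1
  obtain ⟨K, hE⟩ := ExactR_237.exact_gadget α S V f act R
  obtain ⟨Ms, M, hcard, hMs, hM, hG2⟩ := hG (2 ^ (K + 1))
  let b : ℕ := 2 ^ (K + 5) * M + 1
  have hb : 0 < b := Nat.succ_pos _
  have hbM : 2 ^ (K + 5) * M ≤ b := Nat.le_succ _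
  have hcop : Nat.Coprime b M := by
    have : Nat.Coprime (2 ^ (K + 5) * M + 1) M := by
      rw [Nat.add_comm]
      exact (Nat.coprime_add_mul_right_left 1 M (2 ^ (K + 5))).2 (Nat.coprime_one_left M)
    exact this
  obtain ⟨lam, rho, nu, g1, g2, g3, g4⟩ := hG2 b hb hcop α f
  let N := b ^ m
  obtain ⟨c, c1, c2, c3⟩ := Sp_929.spoil K N m M b Ms hM (fun k hk => ⟨(hMs k hk).1, (hMs k hk).2.2⟩)
    hbM hcop
  have hc : ∀ i j, i < j → c i < c j := fun i j hij => by have := c1 i j hij; omega
  obtain ⟨lam2, rho2, nu2, e1, e2⟩ := hE c (fun i j hij _ => hc i j hij)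
  let Lam := c K
  have hLam : ∀ k < K, c k ≤ Lam := fun k hk => (hc k K hk).le
  obtain ⟨n, Wo, loc, len, gap, Rn, B, pcs⟩ := WallU_228.walls (α := α) (2 * Lam + 2 * N)
  let z := 3 * Lam + 3 * N + n + 1
  let D : Dat α S V :=
    { φ := fun w => (w.map f).prod
      act := act
      Wo := Wo
      n := n
      z := z
      p0 := Lam
      N := N
      lam := lam
      rho := rho
      nu1 := nu
      BadT := Sp_929.Bad Ms M b m
      K := K
      c := c
      lam2 := lam2
      rho2 := fun k Q => rho2 k Q 1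
      nu2 := fun u => nu2 u 1
      R := R }
  have hgap : ∀ Q : List α, ∀ s t, s < t → t ≤ Q.length → Wo (Q.take s) → Wo (Q.take t) →
      2 * Lam + 2 * N < t - s := by
    intro Q s t hst ht hs htt
    by_contra hcon
    have hl : (Q.take t).length = t := by rw [List.length_take]; omega
    have := gap (Q.take t) (t - s) htt (by omega) (by omega)
    rw [hl, List.take_take, min_eq_left (by omega), show t - (t - s) = s by omega] at this
    exact this hs
  have hO : D.Ok :=
    { hφ := fun u v => by simp [D]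
      hadd := act_add
      hmul := fun v s t => (act_mul v s t).symm
      hW := loc
      hz := by
        change Lam + 3 * N + n + 1 ≤ 3 * Lam + 3 * N + n + 1
        omega
      hc := hLam
      u1 := fun p v h => (g1 p v h).le
      u2 := fun p q v r h1 h2 => g2 p q v r h1 h2
      u3 := by
        intro u _ hu v
        change ¬ Sp_929.Bad Ms M b m u.length at hu
        unfold Sp_929.Bad at hu
        push Not at hu
        obtain ⟨h1, h2⟩ := hu
        obtain ⟨P, Q, hX, hP, v', hQ⟩ := g3 u h1 (fun j hj => by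
          obtain ⟨h3, h4⟩ := h2 j hj
          exact ⟨h3, by omega⟩) v
        exact ⟨P, Q, hX.symm, hP, by
          change (rho Q).isSome
          rw [hQ]; rfl⟩
      e1 := by
        intro k hk P Q v b' hP h1 h2
        have := e1 k hk P Q 1 v b' hP h1 h2
        rw [mul_one] at this
        exact this
      e2 := fun u v h => e2 u 1 v h
      sp := by
        intro X hX X2 hX2 hB I hI
        have hU : D.z ≤ (X ++ X2).length := by
          rw [List.length_append]
          have := hX.1
          omega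
        have := Crest.Agent.R320.S12_449.spoil (D := D) (Λ := Lam) (C1 := C1) loc hLam (by
            change Lam + Lam + N + n + Lam + 1 ≤ 3 * Lam + 3 * N + n + 1
            omega) hgap ?_ ?_ hU I hI
        · change I.card < 1 + 2 * C1 + 1
          omega
        · intro k₁ h1 k₁' h1' k₂ h2 k₂' h2' hne habs
          by_contra hcon
          have h3 := c2 k₁ k₁' k₂ k₂' hne (fun h => hcon h.1)
          have h4 : |((c k₁ : ℤ) - c k₁') - ((c k₂ : ℤ) - c k₂')| ≤ 2 * (N : ℤ) := habs
          have h5 : (0 : ℤ) ≤ N := Int.natCast_nonneg _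
          linarith
        · intro T hT J hJ
          have h3 := c3 T (fun l hl => (hLam l hl).trans hT)
          choose! g hg using fun k (hk : k ∈ J) => (hJ k hk).2
          refine (Finset.card_le_card_of_injOn (fun k => (k, g k)) ?_ ?_).trans
            (h3.trans (Nat.add_le_add_right hcard m))
          · intro k hk
            have hk' : k ∈ J := hk
            simp only [Finset.coe_filter, Finset.mem_product, Finset.mem_range, Set.mem_setOf_eq]
            exact ⟨⟨(hJ k hk').1, (hg k hk').1⟩, (hg k hk').2.1.symm, (hg k hk').2.2⟩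
          · intro k _ k' _ h
            exact (Prod.ext_iff.1 h).1 }
  have hF : FS D f N (M * b ^ m) B Rn :=
    { hφ := fun w => rfl
      hM := Nat.mul_pos hM (pow_pos hb m)
      len := len
      free := by
        intro u hu
        obtain ⟨l, h1, h2, h3⟩ := pcs u hu
        rw [h3]
        exact FewVal_228.val_mem_PN B l h2 Rn h1
      nu := fun u u' he => (g4 u u' he.2.2.1 he.2.2.2.2 he.2.2.2.1).2
      rho := fun u u' he => (g4 u u' he.2.2.1 he.2.2.2.2 he.2.2.2.1).1
      bad := fun a _ => bad_per Ms M b m (fun k hk => (hMs k hk).2.2) hb a }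
  exact Top5_163.top (V := V) (S := S) D.φ rfl hO.hφ act (fun v s t => (act_mul v s t).symm) act_add
    faith D.XX hO.nil_notMem hO.prefix_code D.T D.ν (fun X _ v => hO.T_eq X v) D.LP1 D.LP2 D.R1 D.R2
    hO.R1_ne_nil hO.R2_ne_nil hO.s1 hO.s2 hO.cc (hXT hO hF) (hNP hO hF) (hL1 hO) (hL2 hO)
    (hQ1 hO hF) (hQ2 hO hF) s

universe u

/-- **the row** -/
theorem row (α : Type u) [Finite α] (L : Language α) (hL : L.IsRegular) :
    ∃ e : GRegExp α, e.height ≤ 3 ∧ e.lang = L :=
  LetMap_922.of_fin (m := 3) (fun n L hL => of_monoid (fun S _ _ φ s => fin (Fin n) S φ s) L hL)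
    α L hL

end Crest.Agent.R320.Fin_204
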