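import Crest.Agent.R320.CC_247
import Crest.Agent.R320.P4_933
import Crest.Agent.R320.GridG_19
import Crest.Agent.R320.GridRuler_257
import Crest.Agent.R320.LWallAll_922
import Crest.Agent.R320.Reg_143

/-!
Row 320, helper205: the final join over `Top5_110.top_sem`, `CC_247`, `GridG_19.grid`,
`GridRuler_257.ruler`, `ExactR_237.exact_gadget`, `LWallAll_922.walls_all_left`, `P4_933`.
-/

set_option autoImplicit false

namespace Crest.Agent.R320.Fin_205

open Crest.RegLang Crest.Agent.R320.Hk_851 Crest.Agent.R320.Code110 Crest.Agent.R320.Top5_110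
open Crest.R320.Reg_143

variable {α : Type}

/-- the exact word is regular -/
theorem reg_eq [Finite α] (P0 : List α) : (lg fun u : List α => u = P0).IsRegular := by
  refine isRegular_congr (isRegular_take (P0.length + 1) (fun u => u = P0)) fun w => ?_
  rw [mem_lg]
  constructor
  · intro h
    have hl := congrArg List.length h
    rw [List.length_take] at hl
    rw [List.take_of_length_le (by omega)] at h
    exact h
  · rintro rfl
    exact List.take_of_length_le (by omega)

/-- a property of (prefix of length `p0`, rest) -/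
theorem reg_split [Finite α] (p0 : ℕ) (g : List α → List α → Prop)
    (hg : ∀ P0, (lg fun u => g P0 u).IsRegular) :
    (lg fun w : List α => p0 ≤ w.length ∧ g (w.take p0) (w.drop p0)).IsRegular := by
  have : Finite {l : List α // l.length = p0} := (List.finite_length_eq α p0).to_subtype
  have h : RegP (fun (w : List α) (_ : Fin 0 → ℕ) => ∃ P0 : {l : List α // l.length = p0},
      ∃ u v, u ++ v = w ∧ u = P0.1 ∧ g P0.1 v) :=
    RegP.exists_finite fun P0 => RegP.mem (isRegular_cat (reg_eq P0.1) (hg P0.1))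
  refine isRegular_congr h.close fun w => ?_
  rw [mem_lg]
  constructor
  · rintro ⟨⟨P0, hP⟩, u, v, rfl, hu, hv⟩
    simp only at hu hv
    subst hu
    refine ⟨by rw [List.length_append]; omega, ?_⟩
    rw [← hP, List.take_left, List.drop_left]
    exact hv
  · rintro ⟨h1, h2⟩
    exact ⟨⟨w.take p0, by rw [List.length_take]; omega⟩, w.take p0, w.drop p0,
      List.take_append_drop _ _, rfl, h2⟩

/-- the module -/
def act {S : Type} [Monoid S] (v : S → ZMod 2) (s : S) : S → ZMod 2 := fun t => v (s * t)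

theorem act_one {S : Type} [Monoid S] (v : S → ZMod 2) : act v 1 = v := by
  funext t; simp [act]

theorem act_mul {S : Type} [Monoid S] (v : S → ZMod 2) (s t : S) :
    act v (s * t) = act (act v s) t := by
  funext r; simp [act, mul_assoc]

theorem act_sub {S : Type} [Monoid S] (v w : S → ZMod 2) (s : S) :
    act (v - w) s = act v s - act w s := by
  funext r; simp [act]

theorem act_faith {S : Type} [Monoid S] (s t : S) (h : ∀ v : S → ZMod 2, act v s = act v t) :
    s = t := by
  classical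
  have h1 := congrFun (h (fun r => if r = s then 1 else 0)) 1
  simp only [act, mul_one, if_true] at h1
  by_contra hne
  rw [if_neg (fun e => hne e.symm)] at h1
  exact one_ne_zero h1

theorem BadZ_congr {Ms : Finset ℕ} {m M : ℕ} {G A : ℕ → ℕ} (hMs : ∀ k ∈ Ms, k ∣ M)
    (hG : ∀ j, G j ∣ G (j + 1)) {T T' : ℕ} (h : T ≡ T' [MOD M * G m]) :
    GridRuler_257.BadZ Ms m M G A (T : ℤ) ↔ GridRuler_257.BadZ Ms m M G A (T' : ℤ) := by
  have key : ∀ (k : ℕ) (T : ℤ), GridRuler_257.BadZ Ms m M G A (T + (k : ℤ) * (M * G m : ℕ)) ↔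
      GridRuler_257.BadZ Ms m M G A T := by
    intro k
    induction k with
    | zero => intro T; simp
    | succ k ih =>
      intro T
      have e : T + ((k + 1 : ℕ) : ℤ) * (M * G m : ℕ) = (T + (k : ℤ) * (M * G m : ℕ)) +
        (M * G m : ℕ) := by push_cast; ring
      rw [e, GridRuler_257.BadZ_period hMs hG, ih]
  have hd : ((M * G m : ℕ) : ℤ) ∣ (T' : ℤ) - T := (Nat.modEq_iff_dvd.1 h)
  obtain ⟨c, hc⟩ := hd
  rcases le_or_gt 0 c with h0 | h0
  · obtain ⟨k, rfl⟩ := Int.eq_ofNat_of_zero_le h0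
    have e : (T' : ℤ) = T + (k : ℤ) * (M * G m : ℕ) := by
      rw [mul_comm (k : ℤ)]; linarith
    rw [e, key]
  · obtain ⟨k, hk⟩ := Int.eq_ofNat_of_zero_le (show 0 ≤ -c by omega)
    have e : (T : ℤ) = T' + (k : ℤ) * (M * G m : ℕ) := by
      have : (k : ℤ) = -c := hk.symm
      rw [this]; linarith
    rw [e, key]

theorem main (α : Type) [Finite α] (S : Type) [Monoid S] [Finite S] (f : α → S) (s : S) :
    HL 3 ({w | (w.map f).prod = s} : Language α) := by
  classical
  have := Fintype.ofFinite S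
  let φ : List α → S := ExactR_237.pr f
  have hφ0 : φ [] = 1 := by simp [φ, ExactR_237.pr]
  have hφ : ∀ u w, φ (u ++ w) = φ u * φ w := by
    intro u w; simp [φ, ExactR_237.pr]
  obtain ⟨m, r, hgr⟩ := GridG_19.grid S (S → ZMod 2) act
  obtain ⟨K, hK⟩ := ExactR_237.exact_gadget α S (S → ZMod 2) f act (2 + 2 * (r + m))
  obtain ⟨Ms, hcard, hMs, hgr⟩ := hgr (4 ^ K)
  set M : ℕ := ∏ q ∈ Ms, q with hM
  have hM0 : 0 < M := Finset.prod_pos fun q hq => (hMs q hq).1.pos
  have hdM : ∀ k ∈ Ms, k ∣ M := fun k hk => Finset.dvd_prod_of_mem _ hk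
  let g : ℕ := 16 * 4 ^ K * M + 1
  let G : ℕ → ℕ := fun k => g ^ k
  have hg0 : 0 < g := by omega
  have hGp : ∀ k, 0 < G k := fun k => pow_pos hg0 k
  have hGd : ∀ a b, a ≤ b → G a ∣ G b := fun a b h => pow_dvd_pow g h
  have hGd1 : ∀ j, G j ∣ G (j + 1) := fun j => hGd j (j + 1) (by omega)
  have hgc : Nat.Coprime M g := by
    have : Nat.Coprime M (16 * 4 ^ K * M + 1) := by
      simp
    exact this
  have hGc : ∀ k, Nat.Coprime M (G k) := fun k => Nat.Coprime.pow_right k hgc
  have hGb : ∀ j, 16 * 4 ^ K * (M * G j) ≤ G (j + 1) := by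
    intro j
    have e : G (j + 1) = g ^ j * g := pow_succ g j
    rw [e]
    have e2 : 16 * 4 ^ K * (M * G j) = g ^ j * (16 * 4 ^ K * M) := by
      show 16 * 4 ^ K * (M * g ^ j) = _
      ring
    rw [e2]
    exact Nat.mul_le_mul_left _ (by omega)
  obtain ⟨lam, rho, nu1, hsound, hlam, hrho, hcomp, hnu⟩ :=
    hgr G 0 hGp hGd hGc α φ hφ
  let A : ℕ → ℕ := fun j => GridG_19.Am G M 0 j
  let N1 : ℕ := A m
  obtain ⟨U, hU, hUm, hUs, hUsp⟩ := GridRuler_257.ruler K m Ms M G A N1 hM0
    (fun k hk => ⟨hdM k hk, (hMs k hk).2.le⟩) (hGp 0) hGd1 hGb (hGc m)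
  let c : ℕ → ℕ := fun i => U * 4 ^ i
  let BadT : ℕ → Prop := fun T => GridRuler_257.BadZ Ms m M G A (T : ℤ)
  let p0 : ℕ := U * 4 ^ K
  have hc : ∀ k < K, c k ≤ p0 := fun k hk =>
    Nat.mul_le_mul_left _ (Nat.pow_le_pow_right (by norm_num) hk.le)
  let La : ℕ := 2 * A m + M + p0
  have hAm : ∀ j, j ≤ m → A j ≤ A m := fun j hj => GridG_19.Am_mono G M 0 hj
  have hGad : CC_247.Gad φ act lam rho nu1 N1 La BadT := by
    refine ⟨fun P v h => (hlam P v h).2.le, fun P Q v b h1 h2 => hsound P Q v b h1 h2, ?_⟩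
    intro Y hY hb v
    obtain ⟨h1, h2⟩ := GridRuler_257.clear_of_not_bad (A := A) hGp
      (fun j _ h => by have := hAm j h; omega) hb
    obtain ⟨P, Q, h3, h4, h5⟩ := hcomp Y (by show 2 * A m ≤ _; omega) (by omega) h1 (by
      rintro ⟨k, hk, h⟩
      have h3 := h2 (k + 1) (by omega) (by omega)
      simp only [Nat.add_sub_cancel] at h3
      have h4 : A (k + 1) = GridG_19.Am G M 0 (k + 1) := rfl
      rw [h4] at h3
      omega) v
    exact ⟨P, Q, h3.symm, h4, h5⟩
  have hRul : CC_247.Rul K N1 La (r + m) c BadT := by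
    refine ⟨?_, ?_, ?_⟩
    · intro i j hij _
      have := hUm i j hij
      show U * 4 ^ i < U * 4 ^ j
      omega
    · intro a b a' b' _ _ _ _ hab _ h1 h2
      rcases hUs a b a' b' hab with h | h
      · exact h
      · exfalso
        have h3 : |(((U * 4 ^ a : ℕ) : ℤ) - (U * 4 ^ b : ℕ)) -
          (((U * 4 ^ a' : ℕ) : ℤ) - (U * 4 ^ b' : ℕ))| ≤ 2 * N1 := by
          rw [abs_le]
          constructor
          · have : (((c a' : ℕ) : ℤ) - c b') - (c a - c b) ≤ 2 * N1 := h2
            show -(2 * (N1 : ℤ)) ≤ ((c a : ℤ) - c b) - (c a' - c b')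
            linarith
          · exact h1
        have hN : (0 : ℤ) ≤ N1 := Int.natCast_nonneg _
        linarith
    · intro T hT F hF
      have := hUsp (T : ℤ) (F.image Prod.swap) (by
        intro ab hab
        obtain ⟨cd, hcd, rfl⟩ := Finset.mem_image.1 hab
        obtain ⟨h1, h2, h3, h4⟩ := hF cd hcd
        refine ⟨h2, h1, fun h => h3 h.symm, ?_⟩
        have hc1 := hc cd.1 h1
        have e : (T : ℤ) + (U * 4 ^ cd.2 : ℕ) - (U * 4 ^ cd.1 : ℕ) = ((T + c cd.2 - c cd.1 : ℕ) : ℤ) := by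
          have hle : c cd.1 ≤ T + c cd.2 := by omega
          show (T : ℤ) + (c cd.2 : ℕ) - (c cd.1 : ℕ) = _
          omega
        show GridRuler_257.BadZ Ms m M G A ((T : ℤ) + (U * 4 ^ cd.2 : ℕ) - (U * 4 ^ cd.1 : ℕ))
        rw [e]
        exact h4)
      rw [Finset.card_image_of_injective _ Prod.swap_injective] at this
      omega
  obtain ⟨lam2, rho2, nu2, hs2, hc2⟩ := hK c hRul.mono
  let W : ℕ := 2 * N1 + 2 * p0 + 1
  obtain ⟨n, G', B, Wo, hLW, hsep, -, -, hfree⟩ := LWallAll_922.walls_all_left α W (by omega)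
  rcases isEmpty_or_nonempty α with hem | ⟨⟨a0⟩⟩
  · have : Finite (List α) := Finite.of_subsingleton
    exact HL.finite (Set.toFinite _)
  have hne : ¬ Wo [] := by
    intro h
    have hn := hLW.len _ h
    have h1 : Wo ([a0] ++ []) := (hLW.app [a0] [] hn).2 h
    have := hsep [a0] 0 1 (by omega) (by simp) (by simpa using h) (by simpa using h1)
    omega
  have hw : CC_247.LW Wo n W := by
    refine ⟨hLW.app, ?_⟩
    intro P d hP hd hdW h
    have h1 : (P.take P.length) = P := List.take_length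
    have hlen : P.length ≠ 0 := by
      intro h0
      rw [List.length_eq_zero_iff.1 h0] at hP
      exact hne hP
    have := hsep P (P.length - d) P.length (by omega) le_rfl h (by rw [h1]; exact hP)
    omega
  let z : ℕ := 2 * p0 + 2 * N1 + La + n + 1
  have hfree' : ∀ u : List α, (∀ t < u.length, ¬ Wo (u.take t)) →
      u ∈ (BddReg_746.PN (B + W) 2 : Language α) := by
    intro u hu
    obtain ⟨a, x, b, k, ha, hx, hb, rfl⟩ := hfree u hu
    refine Language.mem_mul.2 ⟨a ++ BddReg_746.pw x k, ⟨a, x, k, by omega, by omega, rfl⟩, b,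
      Language.mem_mul.2 ⟨b, ⟨b, [], 0, by omega, by simp, by simp⟩, [], rfl, by simp⟩, rfl⟩
  have hXX : ∀ X : List α, X ∈ CC_247.XX Wo z ↔ P4_933.XX Wo z X := by
    intro X
    constructor
    · rintro ⟨h1, h2, h3⟩
      exact ⟨h2, h1, fun t ht hz => h3 t hz ht⟩
    · rintro ⟨h1, h2, h3⟩
      exact ⟨h2, h1, fun t hz ht => h3 t ht hz⟩
  have hMG : 0 < M * G m := Nat.mul_pos hM0 (hGp m)
  -- H1
  have H1 : HL 1 (CC_247.XX Wo z) :=
    (P4_933.hl_XX0 (z := z) (k := 1) hLW.app hLW.len).congr fun w => hXX w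
  -- H2
  have H2 : HL 1 (CC_247.Bad Wo z N1 p0 BadT) := by
    have hreg := P4_933.regular_of_class f (z + N1) (M * G m) hMG
      (fun X => CC_247.EB Wo z N1 p0 BadT X) (by
        intro u u' h1 h2 h3 h4 _
        have e1 : ∀ t, t < z → u.take t = u'.take t := by
          intro t ht
          have := congrArg (List.take t) h3
          rw [List.take_take, List.take_take, min_eq_left (by omega)] at this
          exact this
        have hb : BadT (u.length - p0) ↔ BadT (u'.length - p0) := by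
          refine BadZ_congr hdM hGd1 ?_
          have hmod : u.length ≡ u'.length [MOD M * G m] := h4
          have h5 : (u.length - p0) + p0 ≡ (u'.length - p0) + p0 [MOD M * G m] := by
            rw [Nat.sub_add_cancel (by omega), Nat.sub_add_cancel (by omega)]
            exact hmod
          exact Nat.ModEq.add_right_cancel' p0 h5
        constructor
        · rintro (h | ⟨t, ht1, ht2, ht3⟩ | h)
          · omega
          · exact Or.inr (Or.inl ⟨t, ht1, ht2, by rw [← e1 t ht2]; exact ht3⟩)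
          · exact Or.inr (Or.inr (hb.1 h))
        · rintro (h | ⟨t, ht1, ht2, ht3⟩ | h)
          · omega
          · exact Or.inr (Or.inl ⟨t, ht1, ht2, by rw [e1 t ht2]; exact ht3⟩)
          · exact Or.inr (Or.inr (hb.2 h)))
    refine (P4_933.hl_XX (z := z) hLW.app hLW.len hfree' hreg).congr fun w => ?_
    constructor
    · rintro ⟨h1, h2⟩
      exact ⟨(hXX w).1 h1, h2⟩
    · rintro ⟨h1, h2⟩
      exact ⟨(hXX w).2 h1, h2⟩
  let nu2' : List α → S → ZMod 2 := fun X => nu2 X 1
  let T : List α → (S → ZMod 2) → (S → ZMod 2) := CC_247.TT φ act nu1 nu2' p0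
  -- H3
  have H3 : ∀ x y, HL 1 (ZT (CC_247.XX Wo z) T x y) := by
    intro x y
    have hreg := reg_split p0 (fun P0 Y => act (act x (φ P0) + nu2' P0) (φ Y) + nu1 Y = y) (by
      intro P0
      exact P4_933.regular_of_class f (GridG_19.Ac G M 0 m) (M * G m) hMG _ (by
        intro Y Y' h1 h2 h3 h4 h5
        have e1 : nu1 Y = nu1 Y' := hnu Y Y' h1 h2 h3 h4 h5
        have e2 : φ Y = φ Y' := h5
        rw [e1, e2]))
    refine (P4_933.hl_XX (z := z) hLW.app hLW.len hfree' hreg).congr fun w => ?_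
    constructor
    · rintro ⟨h1, h2⟩
      exact ⟨(hXX w).1 h1, by have := h1.1; omega, h2⟩
    · rintro ⟨h1, h2, h3⟩
      exact ⟨(hXX w).2 h1, h3⟩
  -- H4
  have H4 : ∀ s, HL 3 ({w | (∀ u ∈ CC_247.XX Wo z, ¬ u <+: w) ∧ φ w = s} : Language α) := by
    intro s
    have hreg := P4_933.regular_of_class f 0 1 one_pos (fun w => φ w = s) (by
      intro u u' _ _ _ _ h
      have h' : φ u = φ u' := h
      rw [h'])
    refine ((P4_933.hl_NB (z := z) hLW.app hLW.len hfree' hreg).mono (by norm_num)).congr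
      fun w => ?_
    constructor
    · rintro ⟨h1, h2⟩
      refine ⟨(P4_933.NB_iff Wo z w).2 fun P hP hX => h1 P ((hXX P).2 hX) hP, h2⟩
    · rintro ⟨h1, h2⟩
      refine ⟨fun u hu hp => (P4_933.NB_iff Wo z w).1 h1 u hp ((hXX u).1 hu), h2⟩
  have hT : ∀ u ∈ CC_247.XX Wo z, ∀ v v', T u v - T u v' = act (v - v') (φ u) := by
    intro u _ v v'
    show (act (act v (φ (u.take p0)) + nu2' (u.take p0)) (φ (u.drop p0)) + nu1 (u.drop p0)) -
      (act (act v' (φ (u.take p0)) + nu2' (u.take p0)) (φ (u.drop p0)) + nu1 (u.drop p0)) = _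
    rw [add_sub_add_right_eq_sub, ← act_sub, add_sub_add_right_eq_sub, ← act_sub, ← act_mul,
      ← hφ, List.take_append_drop]
  have hfin := top_sem (XX := CC_247.XX Wo z) (Bad := CC_247.Bad Wo z N1 p0 BadT) (T := T)
    (act := act) hφ0 hφ act_one act_mul act_faith (CC_247.XX_pc (by omega)) (fun u hu => hu.1)
    hT H1 H2 H3 H4 (N1 := 0) (N2 := 1) (L1 := CC_247.L1 φ act lam nu2' p0)
    (L2 := CC_247.L2 lam2 c K) (CC_247.F1 hGad) (CC_247.F2 hc)
    (CC_247.C1 hw hGad (by omega) (by omega))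
    (CC_247.C2 hw hRul hc (by omega) (by omega) hs2 hc2) s
  exact hfin

end Crest.Agent.R320.Fin_205
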