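import Mathlib

/-!
# Generic weights without primes (row 320)

`W = ZMod (N^2)`, `τ = 1 + N`, so `τ^i = 1 + i N`; weights `2^a`, `a < c`. If `m 2^(c+1) ≤ N` then
the differences `τ^i (2^a - 2^b)` (`a ≠ b`) determine `i` (in an interval of length `m`), `a` and `b`.
-/

set_option autoImplicit false

namespace Crest.Agent.R320.Generic

lemma tau_pow (N : ℕ) (i : ℕ) : (1 + (N : ZMod (N ^ 2))) ^ i = 1 + i * N := by
  have hN : (N : ZMod (N ^ 2)) * N = 0 := by
    have : ((N ^ 2 : ℕ) : ZMod (N ^ 2)) = 0 := ZMod.natCast_self _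
    rw [pow_two] at this
    push_cast at this
    rw [pow_two]
    exact this
  induction i with
  | zero => simp
  | succ i ih =>
    have e : (1 + (N : ZMod (N ^ 2))) ^ (i + 1) = (1 + (N : ZMod (N ^ 2))) ^ i * (1 + N) :=
      pow_succ _ _
    rw [e, ih]
    have : (1 + (i : ZMod (N ^ 2)) * N) * (1 + N) = 1 + (i + 1) * N + i * (N * N) := by ring
    rw [this, hN, mul_zero, add_zero]
    push_cast
    ring

lemma tau_isUnit (N : ℕ) : IsUnit (1 + (N : ZMod (N ^ 2))) := by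
  refine IsUnit.of_mul_eq_one (1 - (N : ZMod (N ^ 2))) ?_
  have hN : (N : ZMod (N ^ 2)) * N = 0 := by
    have : ((N ^ 2 : ℕ) : ZMod (N ^ 2)) = 0 := ZMod.natCast_self _
    rw [pow_two] at this
    push_cast at this
    rw [pow_two]
    exact this
  have : (1 + (N : ZMod (N ^ 2))) * (1 - N) = 1 - N * N := by ring
  rw [this, hN, sub_zero]

/-- Powers of two form a Sidon set. -/
lemma two_pow_sidon (a b a' b' : ℕ) (hab : a ≠ b) (hab' : a' ≠ b')
    (h : (2 : ℤ) ^ a - 2 ^ b = 2 ^ a' - 2 ^ b') : a = a' ∧ b = b' := by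
  have h' : 2 ^ a + 2 ^ b' = 2 ^ a' + 2 ^ b := by
    have : (2 : ℤ) ^ a + 2 ^ b' = 2 ^ a' + 2 ^ b := by linarith
    exact_mod_cast this
  clear h
  -- by symmetry look at the smallest exponent
  have key : ∀ a b a' b' : ℕ, a ≠ b → a' ≠ b' → 2 ^ a + 2 ^ b' = 2 ^ a' + 2 ^ b →
      a = a' := by
    intro a
    induction a with
    | zero =>
      intro b a' b' hab hab' h
      rcases Nat.eq_zero_or_pos a' with h0 | h0
      · exact h0.symm
      · exfalso
        have hb : 0 < b := Nat.pos_of_ne_zero (Ne.symm hab)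
        obtain ⟨a'', rfl⟩ := Nat.exists_eq_succ_of_ne_zero h0.ne'
        obtain ⟨b'', rfl⟩ := Nat.exists_eq_succ_of_ne_zero hb.ne'
        rcases Nat.eq_zero_or_pos b' with h1 | h1
        · subst h1
          have e1 : 2 ^ (a'' + 1) = 2 * 2 ^ a'' := by ring
          have e2 : 2 ^ (b'' + 1) = 2 * 2 ^ b'' := by ring
          have p1 : 0 < 2 ^ a'' := Nat.two_pow_pos _
          have p2 : 0 < 2 ^ b'' := Nat.two_pow_pos _
          simp only [pow_zero, Nat.succ_eq_add_one] at h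
          omega
        · obtain ⟨c, rfl⟩ := Nat.exists_eq_succ_of_ne_zero h1.ne'
          have e1 : 2 ^ (a'' + 1) = 2 * 2 ^ a'' := by ring
          have e2 : 2 ^ (b'' + 1) = 2 * 2 ^ b'' := by ring
          have e3 : 2 ^ (c + 1) = 2 * 2 ^ c := by ring
          simp only [pow_zero, Nat.succ_eq_add_one] at h
          omega
    | succ a ih =>
      intro b a' b' hab hab' h
      rcases Nat.eq_zero_or_pos b with hb | hb
      · subst hb
        -- left side: 2^(a+1) + 2^b', right: 2^a' + 1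
        rcases Nat.eq_zero_or_pos b' with h1 | h1
        · subst h1
          have : 2 ^ (a + 1) = 2 ^ a' := by simpa using h
          exact Nat.pow_right_injective le_rfl this
        · obtain ⟨c, rfl⟩ := Nat.exists_eq_succ_of_ne_zero h1.ne'
          rcases Nat.eq_zero_or_pos a' with h2 | h2
          · subst h2
            exfalso
            have e1 : 2 ^ (a + 1) = 2 * 2 ^ a := by ring
            have e3 : 2 ^ (c + 1) = 2 * 2 ^ c := by ring
            have p1 : 0 < 2 ^ a := Nat.two_pow_pos _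
            have p3 : 0 < 2 ^ c := Nat.two_pow_pos _
            simp only [pow_zero, Nat.succ_eq_add_one] at h
            omega
          · exfalso
            obtain ⟨d, rfl⟩ := Nat.exists_eq_succ_of_ne_zero h2.ne'
            have e1 : 2 ^ (a + 1) = 2 * 2 ^ a := by ring
            have e2 : 2 ^ (d + 1) = 2 * 2 ^ d := by ring
            have e3 : 2 ^ (c + 1) = 2 * 2 ^ c := by ring
            simp only [pow_zero, Nat.succ_eq_add_one] at h
            omega
      · obtain ⟨b0, rfl⟩ := Nat.exists_eq_succ_of_ne_zero hb.ne'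
        rcases Nat.eq_zero_or_pos b' with h1 | h1
        · subst h1
          exfalso
          rcases Nat.eq_zero_or_pos a' with h2 | h2
          · exact hab' h2
          · obtain ⟨d, rfl⟩ := Nat.exists_eq_succ_of_ne_zero h2.ne'
            have e1 : 2 ^ (a + 1) = 2 * 2 ^ a := by ring
            have e2 : 2 ^ (d + 1) = 2 * 2 ^ d := by ring
            have e3 : 2 ^ (b0 + 1) = 2 * 2 ^ b0 := by ring
            simp only [pow_zero, Nat.succ_eq_add_one] at h
            omega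
        · obtain ⟨c, rfl⟩ := Nat.exists_eq_succ_of_ne_zero h1.ne'
          rcases Nat.eq_zero_or_pos a' with h2 | h2
          · subst h2
            exfalso
            have e1 : 2 ^ (a + 1) = 2 * 2 ^ a := by ring
            have e2 : 2 ^ (c + 1) = 2 * 2 ^ c := by ring
            have e3 : 2 ^ (b0 + 1) = 2 * 2 ^ b0 := by ring
            simp only [pow_zero, Nat.succ_eq_add_one] at h
            omega
          · obtain ⟨d, rfl⟩ := Nat.exists_eq_succ_of_ne_zero h2.ne'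
            have e1 : 2 ^ (a + 1) = 2 * 2 ^ a := by ring
            have e2 : 2 ^ (d + 1) = 2 * 2 ^ d := by ring
            have e3 : 2 ^ (c + 1) = 2 * 2 ^ c := by ring
            have e4 : 2 ^ (b0 + 1) = 2 * 2 ^ b0 := by ring
            have hh : 2 ^ a + 2 ^ c = 2 ^ d + 2 ^ b0 := by
              simp only [Nat.succ_eq_add_one] at h
              omega
            have := ih b0 d c (by omega) (by omega) hh
            omega
  have h1 := key a b a' b' hab hab' h'
  subst h1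
  refine ⟨rfl, ?_⟩
  have : 2 ^ b' = 2 ^ b := by omega
  exact (Nat.pow_right_injective le_rfl this).symm

lemma abs_two_pow_sub_lt (c a b : ℕ) (ha : a < c) (hb : b < c) :
    |(2 : ℤ) ^ a - 2 ^ b| < 2 ^ c := by
  have h1 : (2 : ℤ) ^ a < 2 ^ c := pow_lt_pow_right₀ (by norm_num) ha
  have h2 : (2 : ℤ) ^ b < 2 ^ c := pow_lt_pow_right₀ (by norm_num) hb
  have h3 : (0 : ℤ) < 2 ^ a := by positivity
  have h4 : (0 : ℤ) < 2 ^ b := by positivity
  rw [abs_lt]; constructor <;> linarith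

/-- **Separation.** -/
theorem separation (c m N : ℕ) (hN : m * 2 ^ (c + 1) ≤ N) (i j a b a' b' : ℕ)
    (hij : i < j + m) (hji : j < i + m) (ha : a < c) (hb : b < c) (ha' : a' < c) (hb' : b' < c)
    (hab : a ≠ b) (hab' : a' ≠ b')
    (h : (1 + (N : ZMod (N ^ 2))) ^ i * (2 ^ a - 2 ^ b)
      = (1 + (N : ZMod (N ^ 2))) ^ j * (2 ^ a' - 2 ^ b')) :
    i = j ∧ a = a' ∧ b = b' := by
  have hm : 0 < m := by omega
  set δ : ℤ := 2 ^ a - 2 ^ b with hδ
  set δ' : ℤ := 2 ^ a' - 2 ^ b' with hδ'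
  have hδ0 : |δ| < 2 ^ c := abs_two_pow_sub_lt c a b ha hb
  have hδ0' : |δ'| < 2 ^ c := abs_two_pow_sub_lt c a' b' ha' hb'
  have hNZ : (m : ℤ) * 2 ^ (c + 1) ≤ N := by exact_mod_cast hN
  have hNc : (2 : ℤ) ^ (c + 1) ≤ N := by
    have h1 : (1 : ℤ) ≤ m := by exact_mod_cast hm
    have h2 : (0 : ℤ) < 2 ^ (c + 1) := by positivity
    nlinarith
  have hcast : (((1 + (i : ℤ) * N) * δ - (1 + (j : ℤ) * N) * δ' : ℤ) : ZMod (N ^ 2)) = 0 := by
    rw [tau_pow, tau_pow] at h
    rw [hδ, hδ']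
    push_cast
    rw [h, sub_self]
  have hdvd : ((N ^ 2 : ℕ) : ℤ) ∣ (1 + (i : ℤ) * N) * δ - (1 + (j : ℤ) * N) * δ' :=
    (ZMod.intCast_zmod_eq_zero_iff_dvd _ _).1 hcast
  have hdvd2 : ((N : ℤ) * N) ∣ (1 + (i : ℤ) * N) * δ - (1 + (j : ℤ) * N) * δ' := by
    have : ((N ^ 2 : ℕ) : ℤ) = (N : ℤ) * N := by push_cast; ring
    rwa [this] at hdvd
  have hd1 : (N : ℤ) ∣ δ - δ' := by
    have h1 : (N : ℤ) ∣ (1 + (i : ℤ) * N) * δ - (1 + (j : ℤ) * N) * δ' :=
      (Dvd.intro _ rfl : (N : ℤ) ∣ (N : ℤ) * N).trans hdvd2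
    have h2 : (N : ℤ) ∣ (N : ℤ) * (i * δ - j * δ') := Dvd.intro _ rfl
    have h3 := dvd_sub h1 h2
    have h4 : (1 + (i : ℤ) * N) * δ - (1 + (j : ℤ) * N) * δ' - (N : ℤ) * (i * δ - j * δ')
        = δ - δ' := by ring
    rwa [h4] at h3
  have hδδ : δ = δ' := by
    have hlt : |δ - δ'| < N := by
      have h1 : |δ - δ'| ≤ |δ| + |δ'| := abs_sub _ _
      have h2 : (2 : ℤ) ^ (c + 1) = 2 ^ c + 2 ^ c := by ring
      linarith
    have := Int.eq_zero_of_abs_lt_dvd hd1 hlt
    linarith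
  obtain ⟨h1, h2⟩ := two_pow_sidon a b a' b' hab hab' (by rw [← hδ, ← hδ']; exact hδδ)
  refine ⟨?_, h1, h2⟩
  have hδne : δ ≠ 0 := by
    intro h0
    have : (2 : ℤ) ^ a = 2 ^ b := by rw [hδ] at h0; linarith
    have : 2 ^ a = 2 ^ b := by exact_mod_cast this
    exact hab (Nat.pow_right_injective le_rfl this)
  rw [← hδδ] at hdvd2
  have h5 : (1 + (i : ℤ) * N) * δ - (1 + (j : ℤ) * N) * δ = (N : ℤ) * (((i : ℤ) - j) * δ) := by ring
  rw [h5] at hdvd2
  have hNpos : (N : ℤ) ≠ 0 := by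
    have : (0 : ℤ) < 2 ^ (c + 1) := by positivity
    linarith
  have hd3 : (N : ℤ) ∣ ((i : ℤ) - j) * δ := (mul_dvd_mul_iff_left hNpos).1 hdvd2
  have hlt : |((i : ℤ) - j) * δ| < N := by
    rw [abs_mul]
    have h6 : |(i : ℤ) - j| ≤ m := by
      rw [abs_le]; constructor <;> omega
    have h7 : |(i : ℤ) - j| * |δ| ≤ m * 2 ^ c :=
      mul_le_mul h6 hδ0.le (abs_nonneg _) (by positivity)
    have h8 : (m : ℤ) * 2 ^ c < m * 2 ^ (c + 1) := by
      have : (0 : ℤ) < m := by exact_mod_cast hm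
      have : (0 : ℤ) < 2 ^ c := by positivity
      have e : (2 : ℤ) ^ (c + 1) = 2 * 2 ^ c := by ring
      rw [e]; nlinarith
    linarith
  have h9 := Int.eq_zero_of_abs_lt_dvd hd3 hlt
  rcases mul_eq_zero.1 h9 with h10 | h10
  · omega
  · exact absurd h10 hδne

/-- **Numeric inequality.** -/
theorem numeric (K k r : ℕ) (hr : 0 < r) :
    ∃ m0 : ℕ, ∀ m ≥ m0, K * m ^ k * (r - 1) ^ m < r ^ m := by
  have h1 : Filter.Tendsto (fun n : ℕ => (n : ℝ) ^ k * (((r - 1 : ℕ) : ℝ) / r) ^ n)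
      Filter.atTop (nhds 0) := by
    apply tendsto_pow_const_mul_const_pow_of_abs_lt_one
    have hr' : (0 : ℝ) < r := by exact_mod_cast hr
    rw [abs_of_nonneg (by positivity), div_lt_one hr']
    exact_mod_cast Nat.sub_lt hr one_pos
  have h2 := h1.const_mul (K : ℝ)
  rw [mul_zero] at h2
  have h3 := h2.eventually (gt_mem_nhds (show (0 : ℝ) < 1 by norm_num))
  obtain ⟨m0, hm0⟩ := Filter.eventually_atTop.1 h3
  refine ⟨m0, fun m hm => ?_⟩
  have h4 := hm0 m hm
  have hr' : (0 : ℝ) < (r : ℝ) ^ m := by positivity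
  have h5 : (K : ℝ) * ((m : ℝ) ^ k * (((r - 1 : ℕ) : ℝ) / r) ^ m) * (r : ℝ) ^ m
      = K * (m : ℝ) ^ k * ((r - 1 : ℕ) : ℝ) ^ m := by
    rw [div_pow]; field_simp
  have h6 : (K : ℝ) * (m : ℝ) ^ k * ((r - 1 : ℕ) : ℝ) ^ m < (r : ℝ) ^ m := by
    rw [← h5]
    calc _ < 1 * (r : ℝ) ^ m := mul_lt_mul_of_pos_right h4 hr'
      _ = _ := one_mul _
  exact_mod_cast h6

end Crest.Agent.R320.Generic
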