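import Mathlib

/-!
Row 320 (S0495), 693 #13203 (4): THIN ruler for the bad set of the b-anchored nested grids.
`exists_thin` : cut places `C k`, spaced more than `gap` apart, such that for EVERY integer `T`
each modulus `q` and each grid band `i` is hit by at most one ordered pair `(k, k')`, `k ≠ k'`,
of the candidates `T + C k - C k'`.
-/

set_option autoImplicit false

namespace Crest.Agent.R320.Thin_271

theorem small_dvd {q x : ℤ} (h : q ∣ x) (hx : |x| < q) : x = 0 :=
  Int.eq_zero_of_abs_lt_dvd h hx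

/-- one modulus: at most one ordered pair -/
theorem modulus_one {K : ℕ} (r : ℕ → ℤ) (ρ : ℤ) (C : ℕ → ℤ) (q : ℤ)
    (hr0 : ∀ a < K, 0 ≤ r a) (hr1 : ∀ a < K, r a ≤ ρ)
    (hr : ∀ a b c d, a < K → b < K → c < K → d < K → a ≠ b → r a - r b = r c - r d →
      a = c ∧ b = d)
    (hq : 2 * ρ < q) (hC : ∀ a < K, q ∣ C a - r a) (T : ℤ) :
    ∀ a b c d, a < K → b < K → c < K → d < K → a ≠ b →
      q ∣ T + C a - C b → q ∣ T + C c - C d → a = c ∧ b = d := by
  intro a b c d ha hb hc hd hab h1 h2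
  have e : q ∣ (r a - r b) - (r c - r d) := by
    have := ((h1.sub h2).sub ((hC a ha).sub (hC b hb))).add ((hC c hc).sub (hC d hd))
    have e' : (r a - r b) - (r c - r d) =
        ((T + C a - C b) - (T + C c - C d) - ((C a - r a) - (C b - r b)) +
          ((C c - r c) - (C d - r d))) := by ring
    rw [e']; exact this
  have hz := small_dvd e (by
    have := hr0 a ha; have := hr0 b hb; have := hr0 c hc; have := hr0 d hd
    have := hr1 a ha; have := hr1 b hb; have := hr1 c hc; have := hr1 d hd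
    rw [abs_lt]; constructor <;> linarith)
  exact hr a b c d ha hb hc hd hab (by linarith)

/-- one grid band: at most one ordered pair.  `S` = the unit of the ruler at this grid. -/
theorem band_one {K : ℕ} (r : ℕ → ℤ) (ρ : ℤ) (C : ℕ → ℤ) (G S w A : ℤ)
    (hr0 : ∀ a < K, 0 ≤ r a) (hr1 : ∀ a < K, r a ≤ ρ)
    (hr : ∀ a b c d, a < K → b < K → c < K → d < K → a ≠ b → r a - r b = r c - r d →
      a = c ∧ b = d)
    (hS : 0 < S) (hwS : w ≤ S) (hG : 8 * S * ρ + 2 * w < G)
    (hC : ∀ a < K, G ∣ C a - 4 * S * r a) (T : ℤ) :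
    ∀ a b c d, a < K → b < K → c < K → d < K → a ≠ b →
      (∃ t : ℤ, |T + C a - C b - A - t * G| ≤ w) → (∃ t : ℤ, |T + C c - C d - A - t * G| ≤ w) →
      a = c ∧ b = d := by
  rintro a b c d ha hb hc hd hab ⟨t1, h1⟩ ⟨t2, h2⟩
  obtain ⟨x1, hx1⟩ := hC a ha
  obtain ⟨x2, hx2⟩ := hC b hb
  obtain ⟨x3, hx3⟩ := hC c hc
  obtain ⟨x4, hx4⟩ := hC d hd
  rw [abs_le] at h1 h2
  set D := (r a - r b) - (r c - r d) with hD
  set e1 := T + C a - C b - A - t1 * G with he1
  set e2 := T + C c - C d - A - t2 * G with he2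
  have key : G ∣ 4 * S * D - (e1 - e2) := by
    refine ⟨t1 - t2 - (x1 - x2) + (x3 - x4), ?_⟩
    have h1' : C a = G * x1 + 4 * S * r a := by linarith
    have h2' : C b = G * x2 + 4 * S * r b := by linarith
    have h3' : C c = G * x3 + 4 * S * r c := by linarith
    have h4' : C d = G * x4 + 4 * S * r d := by linarith
    rw [hD, he1, he2, h1', h2', h3', h4']; ring
  have hDle : |D| ≤ 2 * ρ := by
    have := hr0 a ha; have := hr0 b hb; have := hr0 c hc; have := hr0 d hd
    have := hr1 a ha; have := hr1 b hb; have := hr1 c hc; have := hr1 d hd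
    rw [abs_le]; constructor <;> linarith
  have hSD : |4 * S * D| ≤ 8 * S * ρ := by
    rw [abs_mul, abs_of_pos (by linarith : (0:ℤ) < 4 * S)]
    calc 4 * S * |D| ≤ 4 * S * (2 * ρ) := by
          apply mul_le_mul_of_nonneg_left hDle; linarith
      _ = 8 * S * ρ := by ring
  have hz : 4 * S * D - (e1 - e2) = 0 := by
    apply small_dvd key
    rw [abs_le] at hSD
    rw [abs_lt]; constructor <;> linarith [hSD.1, hSD.2]
  have hD0 : D = 0 := by
    by_contra hne
    have h1' : 1 ≤ |D| := Int.one_le_abs hne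
    have h2' : 4 * S ≤ |4 * S * D| := by
      rw [abs_mul, abs_of_pos (by linarith : (0:ℤ) < 4 * S)]
      nlinarith
    have h3' : |4 * S * D| ≤ 2 * w := by
      have : 4 * S * D = e1 - e2 := by linarith
      rw [this, abs_le]; constructor <;> linarith
    linarith
  exact hr a b c d ha hb hc hd hab (by rw [hD] at hD0; linarith)

/-- existence of the places: `C a ≡ r a` mod `P`, `C a ≡ 4 S_i r a` mod `G i` for all `i ≤ m`,
spaced more than `gap`. -/
theorem exists_places (m P gap : ℕ) (G c : ℕ → ℕ) (hGd : ∀ i < m, G i ∣ G (i + 1))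
    (hGc : ∀ i < m, G i ∣ c i) (hG0 : 0 < G m) (hP : 0 < P) (hco : Nat.Coprime P (G m))
    (r : ℕ → ℕ) :
    ∃ C : ℕ → ℕ, (∀ a, (P : ℤ) ∣ (C a : ℤ) - r a) ∧
      (∀ i ≤ m, ∀ a, (G i : ℤ) ∣ (C a : ℤ) - 4 * ((∑ j ∈ Finset.range i, c j : ℕ) : ℤ) * r a) ∧
      (∀ a b, a < b → C a + gap < C b) := by
  classical
  have hGm : ∀ i, i ≤ m → G i ∣ G m := by
    intro i hi
    induction m, hi using Nat.le_induction with
    | base => exact dvd_rfl
    | succ n hn ih =>
      exact (ih (fun j hj => hGd j (by omega)) (fun j hj => hGc j (by omega))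
        (Nat.pos_of_dvd_of_pos (hGd n (by omega)) hG0)
        (Nat.Coprime.coprime_dvd_right (hGd n (by omega)) hco)).trans (hGd n (by omega))
  set x : ℕ → ℕ := fun a => (Nat.chineseRemainder hco (r a)
    (4 * (∑ j ∈ Finset.range m, c j) * r a) : ℕ) with hx
  have hx1 : ∀ a, x a ≡ r a [MOD P] := fun a => (Nat.chineseRemainder hco (r a)
    (4 * (∑ j ∈ Finset.range m, c j) * r a)).2.1
  have hx2 : ∀ a, x a ≡ 4 * (∑ j ∈ Finset.range m, c j) * r a [MOD G m] := fun a =>
    (Nat.chineseRemainder hco (r a) (4 * (∑ j ∈ Finset.range m, c j) * r a)).2.2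
  have hxlt : ∀ a, x a < P * G m := fun a =>
    Nat.chineseRemainder_lt_mul hco _ _ hP.ne' hG0.ne'
  refine ⟨fun a => x a + a * (P * G m) * (gap + 2), ?_, ?_, ?_⟩
  · intro a
    have h := (Nat.modEq_iff_dvd.mp (hx1 a).symm)
    have : ((x a + a * (P * G m) * (gap + 2) : ℕ) : ℤ) - r a =
        ((x a : ℤ) - r a) + (P : ℤ) * (a * G m * (gap + 2)) := by push_cast; ring
    rw [this]
    exact h.add (dvd_mul_right _ _)
  · intro i hi a
    have h := (Nat.modEq_iff_dvd.mp ((hx2 a).symm))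
    have h' : (G i : ℤ) ∣ (x a : ℤ) - ((4 * (∑ j ∈ Finset.range m, c j) * r a : ℕ) : ℤ) :=
      (Int.natCast_dvd_natCast.mpr (hGm i hi)).trans h
    have hsum : (G i : ℤ) ∣ ((∑ j ∈ Finset.range m, c j : ℕ) : ℤ) -
        ((∑ j ∈ Finset.range i, c j : ℕ) : ℤ) := by
      have : ∀ n, i ≤ n → n ≤ m → (G i : ℤ) ∣ ((∑ j ∈ Finset.range n, c j : ℕ) : ℤ) -
          ((∑ j ∈ Finset.range i, c j : ℕ) : ℤ) := by
        intro n hn
        induction n, hn using Nat.le_induction with
        | base => intro _; simp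
        | succ n hn ih =>
          intro hnm
          rw [Finset.sum_range_succ]
          have hGin : G i ∣ G n := by
            clear ih
            have : ∀ k, i ≤ k → k ≤ n → G i ∣ G k := by
              intro k hk
              induction k, hk using Nat.le_induction with
              | base => intro _; exact dvd_rfl
              | succ k hk ih => intro hkn; exact (ih (by omega)).trans (hGd k (by omega))
            exact this n hn le_rfl
          have hGic : (G i : ℤ) ∣ (c n : ℤ) :=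
            Int.natCast_dvd_natCast.mpr (hGin.trans (hGc n (by omega)))
          have e : ((∑ j ∈ Finset.range n, c j + c n : ℕ) : ℤ) -
              ((∑ j ∈ Finset.range i, c j : ℕ) : ℤ) =
              (((∑ j ∈ Finset.range n, c j : ℕ) : ℤ) - ((∑ j ∈ Finset.range i, c j : ℕ) : ℤ)) +
                c n := by push_cast; ring
          rw [e]
          exact (ih (by omega)).add hGic
      exact this m hi le_rfl
    have e : ((x a + a * (P * G m) * (gap + 2) : ℕ) : ℤ) -
        4 * ((∑ j ∈ Finset.range i, c j : ℕ) : ℤ) * r a =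
        ((x a : ℤ) - ((4 * (∑ j ∈ Finset.range m, c j) * r a : ℕ) : ℤ)) +
        4 * r a * (((∑ j ∈ Finset.range m, c j : ℕ) : ℤ) -
          ((∑ j ∈ Finset.range i, c j : ℕ) : ℤ)) +
        (G m : ℤ) * (a * P * (gap + 2)) := by push_cast; ring
    rw [e]
    exact (h'.add (hsum.mul_left _)).add
      ((Int.natCast_dvd_natCast.mpr (hGm i hi)).mul_right _)
  · intro a b hab
    have h1 := hxlt a
    have hpos : 0 < P * G m := Nat.mul_pos hP hG0
    have h2 : (a + 1) * (P * G m) * (gap + 2) ≤ b * (P * G m) * (gap + 2) :=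
      Nat.mul_le_mul_right _ (Nat.mul_le_mul_right _ hab)
    have h3 : (a + 1) * (P * G m) * (gap + 2) =
        a * (P * G m) * (gap + 2) + (P * G m) * (gap + 2) := by ring
    have h4 : P * G m + gap < (P * G m) * (gap + 2) := by nlinarith
    show x a + a * (P * G m) * (gap + 2) + gap < x b + b * (P * G m) * (gap + 2)
    omega

/-- THE THIN RULER.  `Qs` : the moduli, `G i` (`i ≤ m`) the nested grids, `c i` the cell lengths
(`G i ∣ c i`), band `i` (`1 ≤ i ≤ m`): `T - A i` within `c (i-1)` of a multiple of `G i`. -/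
theorem exists_thin (K m gap ρ : ℕ) (r : ℕ → ℕ) (hρ : ∀ a < K, r a ≤ ρ)
    (hr : ∀ a b c d, a < K → b < K → c < K → d < K → a ≠ b →
      (r a : ℤ) - r b = (r c : ℤ) - r d → a = c ∧ b = d)
    (Qs : Finset ℕ) (P : ℕ) (hQP : ∀ q ∈ Qs, q ∣ P) (hq : ∀ q ∈ Qs, 2 * ρ < q)
    (G c : ℕ → ℕ) (hGd : ∀ i < m, G i ∣ G (i + 1)) (hGc : ∀ i < m, G i ∣ c i)
    (hG0 : 0 < G m) (hP : 0 < P) (hco : Nat.Coprime P (G m)) (hc : ∀ i < m, 0 < c i)
    (hG : ∀ i < m, 8 * (∑ j ∈ Finset.range (i + 1), c j) * ρ + 2 * c i < G (i + 1))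
    (A : ℕ → ℤ) :
    ∃ C : ℕ → ℕ, (∀ a b, a < b → C a + gap < C b) ∧
      (∀ T : ℤ, ∀ q ∈ Qs, ∀ a b c d, a < K → b < K → c < K → d < K → a ≠ b →
        (q : ℤ) ∣ T + C a - C b → (q : ℤ) ∣ T + C c - C d → a = c ∧ b = d) ∧
      (∀ T : ℤ, ∀ i < m, ∀ a b c' d, a < K → b < K → c' < K → d < K → a ≠ b →
        (∃ t : ℤ, |T + C a - C b - A (i + 1) - t * (G (i + 1) : ℤ)| ≤ (c i : ℤ)) →
        (∃ t : ℤ, |T + C c' - C d - A (i + 1) - t * (G (i + 1) : ℤ)| ≤ (c i : ℤ)) →
        a = c' ∧ b = d) := by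
  obtain ⟨C, h1, h2, h3⟩ := exists_places m P gap G c hGd hGc hG0 hP hco r
  refine ⟨C, h3, ?_, ?_⟩
  · intro T q hqm
    refine modulus_one (K := K) (fun a => (r a : ℤ)) (ρ : ℤ) (fun a => (C a : ℤ)) (q : ℤ)
      (fun a _ => by positivity) (fun a ha => by exact_mod_cast hρ a ha)
      (fun a b c d ha hb hc hd hab h => hr a b c d ha hb hc hd hab h)
      (by exact_mod_cast hq q hqm)
      (fun a _ => (Int.natCast_dvd_natCast.mpr (hQP q hqm)).trans (h1 a)) T
  · intro T i hi
    refine band_one (K := K) (fun a => (r a : ℤ)) (ρ : ℤ) (fun a => (C a : ℤ)) (G (i + 1) : ℤ)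
      ((∑ j ∈ Finset.range (i + 1), c j : ℕ) : ℤ) (c i : ℤ) (A (i + 1))
      (fun a _ => by positivity) (fun a ha => by exact_mod_cast hρ a ha)
      (fun a b c d ha hb hc hd hab h => hr a b c d ha hb hc hd hab h) ?_ ?_ ?_
      (fun a _ => h2 (i + 1) (by omega) a) T
    · have : 0 < ∑ j ∈ Finset.range (i + 1), c j := by
        rw [Finset.sum_range_succ]
        have := hc i hi; omega
      exact_mod_cast this
    · have : c i ≤ ∑ j ∈ Finset.range (i + 1), c j := by
        rw [Finset.sum_range_succ]; omega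
      exact_mod_cast this
    · exact_mod_cast hG i hi

end Crest.Agent.R320.Thin_271
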