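import Crest.Agent.R320.Grid2_219
import Crest.Agent.R320.Thin_271
import Crest.Agent.R320.Generic_219

/-!
# Row 320: the all-words scheme-1 gadget with ruler, closed form (UGI)
-/

set_option autoImplicit false
set_option linter.unusedSectionVars false

namespace Crest.Agent.R320.Grid219

namespace Par

variable (P : Par)

lemma be_cong {T T' j : ℕ} (hj : j ≤ P.m) (h : P.Am j ≤ T) (h' : P.Am j ≤ T')
    (hmod : T ≡ T' [MOD P.G P.m]) : P.be T j = P.be T' j := by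
  unfold be
  congr 1
  have h1 : T ≡ T' [MOD P.G j] := hmod.of_dvd (P.G_dvd hj)
  have h2 : (T - P.Am j) + P.Am j ≡ (T' - P.Am j) + P.Am j [MOD P.G j] := by
    rw [Nat.sub_add_cancel h, Nat.sub_add_cancel h']; exact h1
  exact Nat.ModEq.add_right_cancel' _ h2

lemma Cl_iff (i q j : ℕ) : P.Cl i q j ↔
    ((q - (P.Am j - P.A i)) % P.G j + P.c i) / P.G j = 0 := by
  unfold Cl
  set b := q - (P.Am j - P.A i)
  have h1 : (b + P.c i) / P.G j = (b % P.G j + P.c i) / P.G j + b / P.G j := by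
    conv_lhs => rw [← Nat.mod_add_div b (P.G j)]
    rw [show b % P.G j + P.G j * (b / P.G j) + P.c i
      = (b % P.G j + P.c i) + P.G j * (b / P.G j) by ring, Nat.add_mul_div_left _ _ (P.hG j)]
  rw [h1]
  omega

lemma b_cong {i j q q' : ℕ} (hj : j ≤ P.m) (h : P.Am j ≤ q) (h' : P.Am j ≤ q')
    (hmod : q ≡ q' [MOD P.G P.m]) :
    (q - (P.Am j - P.A i)) % P.G j = (q' - (P.Am j - P.A i)) % P.G j := by
  have h1 : q ≡ q' [MOD P.G j] := hmod.of_dvd (P.G_dvd hj)
  have h2 : (q - (P.Am j - P.A i)) + (P.Am j - P.A i) ≡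
      (q' - (P.Am j - P.A i)) + (P.Am j - P.A i) [MOD P.G j] := by
    rw [Nat.sub_add_cancel (by omega), Nat.sub_add_cancel (by omega)]; exact h1
  exact Nat.ModEq.add_right_cancel' _ h2

lemma pos_eq {i j q : ℕ} (h : P.Am j ≤ q) :
    q - P.gaR i q j = (P.Am j - P.A i) + (q - (P.Am j - P.A i)) % P.G j := by
  unfold gaR
  have h1 := Nat.mod_add_div (q - (P.Am j - P.A i)) (P.G j)
  have h2 : P.Am j - P.A i ≤ q := by omega
  omega

lemma pos_le {i j q : ℕ} (hj : j ≤ P.m) (h : P.Am j ≤ q) :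
    q - P.gaR i q j ≤ P.Am P.m + P.G P.m := by
  rw [P.pos_eq h]
  have h1 := Nat.mod_lt (q - (P.Am j - P.A i)) (P.hG j)
  have h2 := P.Am_mono hj
  have h3 : P.G j ≤ P.G P.m := Nat.le_of_dvd (P.hG _) (P.G_dvd hj)
  omega

end Par

section dep
variable {α S V : Type*} [Monoid S] (φ : List α → S) (P : Par)

lemma take_cong {u u' : List α} {La a : ℕ} (h : u.take La = u'.take La) (ha : a ≤ La) :
    u.take a = u'.take a := by
  have h1 : (u.take La).take a = (u'.take La).take a := by rw [h]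
  rwa [List.take_take, List.take_take, min_eq_left ha] at h1

lemma drop_cong (hφ : ∀ u v, φ (u ++ v) = φ u * φ v) {u u' : List α} {La a : ℕ}
    (h : u.take La = u'.take La) (hd : φ (u.drop La) = φ (u'.drop La)) (ha : a ≤ La)
    (hu : La ≤ u.length) (hu' : La ≤ u'.length) : φ (u.drop a) = φ (u'.drop a) := by
  have key : ∀ w : List α, La ≤ w.length → w.drop a = (w.take La).drop a ++ w.drop La := by
    intro w hw
    conv_lhs => rw [← List.take_append_drop La w]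
    rw [List.drop_append_of_le_length (by rw [List.length_take]; omega)]
  rw [key u hu, key u' hu', hφ, hφ, h, hd]

variable {φ P}

lemma dep_all (hφ : ∀ u v, φ (u ++ v) = φ u * φ v) {u u' : List α} {La : ℕ}
    (hLa : P.Am P.m + P.G P.m ≤ La) (hu : La ≤ u.length) (hu' : La ≤ u'.length)
    (h : u.take La = u'.take La) (hd : φ (u.drop La) = φ (u'.drop La))
    (hmod : u.length ≡ u'.length [MOD P.G P.m]) :
    xT φ P u.length u = xT φ P u'.length u' ∧ zT φ P u.length u = zT φ P u'.length u' ∧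
      yT φ P u.length u = yT φ P u'.length u' ∧
      ∀ i < P.m, view φ P u i = view φ P u' i := by
  have hbe : ∀ j ≤ P.m, P.be u.length j = P.be u'.length j := by
    intro j hj
    have := P.Am_mono hj
    exact P.be_cong hj (by omega) (by omega) hmod
  have hbl : ∀ j ≤ P.m, P.be u'.length j ≤ La := by
    intro j hj
    have h1 := P.be_lt u'.length j
    have h2 := P.Am_mono hj
    have h3 : P.G j ≤ P.G P.m := Nat.le_of_dvd (P.hG _) (P.G_dvd hj)
    unfold Par.A at h1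
    omega
  have hAm : ∀ j ≤ P.m, P.Am j ≤ u.length ∧ P.Am j ≤ u'.length := by
    intro j hj
    have := P.Am_mono hj
    omega
  refine ⟨?_, ?_, ?_, ?_⟩
  · unfold xT
    rw [hbe 0 (Nat.zero_le _), take_cong h (hbl 0 (Nat.zero_le _))]
  · unfold zT
    apply List.map_congr_left
    intro j hj
    rw [List.mem_range] at hj
    unfold seg
    rw [hbe j (by omega), hbe (j + 1) (by omega), take_cong h (hbl (j + 1) (by omega))]
  · unfold yT
    rw [hbe P.m le_rfl]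
    exact drop_cong φ hφ h hd (hbl P.m le_rfl) hu hu'
  · intro i hi
    have hdv : P.G i ∣ u.length ↔ P.G i ∣ u'.length :=
      (hmod.of_dvd (P.G_dvd hi.le)).dvd_iff dvd_rfl
    have hcl : ∀ j ≤ P.m, (P.Cl i u.length j ↔ P.Cl i u'.length j) := by
      intro j hj
      rw [P.Cl_iff, P.Cl_iff, P.b_cong hj (hAm j hj).1 (hAm j hj).2 hmod]
    have hpos : ∀ j ≤ P.m, u.length - P.gaR i u.length j = u'.length - P.gaR i u'.length j := by
      intro j hj
      rw [P.pos_eq (hAm j hj).1, P.pos_eq (hAm j hj).2, P.b_cong hj (hAm j hj).1 (hAm j hj).2 hmod]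
    have hposle : ∀ j ≤ P.m, u'.length - P.gaR i u'.length j ≤ La := by
      intro j hj
      exact (P.pos_le hj (hAm j hj).2).trans hLa
    unfold view
    by_cases hc : P.G i ∣ u.length ∧ ∀ j, i < j → j ≤ P.m → P.Cl i u.length j
    · have hc' : P.G i ∣ u'.length ∧ ∀ j, i < j → j ≤ P.m → P.Cl i u'.length j :=
        ⟨hdv.1 hc.1, fun j h1 h2 => (hcl j h2).1 (hc.2 j h1 h2)⟩
      rw [if_pos hc, if_pos hc']
      congr 2
      · apply List.map_congr_left
        intro j hj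
        obtain ⟨h1, h2⟩ := mem_drop_range hj
        unfold segR
        rw [hpos j h2.le, hpos (j + 1) h2, take_cong h (hposle (j + 1) h2)]
      · rw [hpos P.m le_rfl]
        exact drop_cong φ hφ h hd (hposle P.m le_rfl) hu hu'
    · have hc' : ¬ (P.G i ∣ u'.length ∧ ∀ j, i < j → j ≤ P.m → P.Cl i u'.length j) :=
        fun h' => hc ⟨hdv.2 h'.1, fun j h1 h2 => (hcl j h2).2 (h'.2 j h1 h2)⟩
      rw [if_neg hc, if_neg hc']

end dep

/-- explicit constants -/
def mkPar (m M b : ℕ) (hM : 0 < M) (hb : 0 < b) : Par where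
  m := m
  M := M
  G := fun j => b ^ j
  Am := fun j => ∑ i ∈ Finset.range j, (b ^ i + M * b ^ i)
  hM := hM
  hG := fun j => pow_pos hb j
  hdvd := fun j => pow_dvd_pow b (Nat.le_succ j)
  hA := fun j => by rw [Finset.sum_range_succ, add_assoc]

/-- bad totals, integer form (periodic) -/
def BadI (P : Par) (Ms : Finset ℕ) (T : ℕ) : Prop :=
  (∃ p ∈ Ms, p ∣ T) ∨ ∃ i < P.m, ∃ t : ℤ, |(T : ℤ) - P.Am (i + 1) - t * P.G (i + 1)| ≤ P.c i

lemma BadI_of_BadG {P : Par} {Ms : Finset ℕ} {T : ℕ} (h : P.BadG T) : BadI P Ms T := by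
  obtain ⟨j, hj1, hj2, k, h1, h2⟩ := h
  right
  refine ⟨j - 1, by omega, (k : ℤ), ?_⟩
  rw [Nat.sub_add_cancel hj1, abs_le]
  have h1' : (P.Am j : ℤ) + P.G j * k ≤ T + P.c (j - 1) := by exact_mod_cast h1
  have h2' : (T : ℤ) ≤ P.Am j + P.G j * k + P.c (j - 1) := by exact_mod_cast h2
  constructor <;> nlinarith

lemma BadI_per {P : Par} {Ms : Finset ℕ} (hMs : ∀ p ∈ Ms, p ∣ P.M) (T : ℕ) :
    BadI P Ms (T + P.M * P.G P.m) ↔ BadI P Ms T := by
  unfold BadI
  apply or_congr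
  · constructor
    · rintro ⟨p, hp, hd⟩
      exact ⟨p, hp, (Nat.dvd_add_left ((hMs p hp).mul_right _)).1 hd⟩
    · rintro ⟨p, hp, hd⟩
      exact ⟨p, hp, (Nat.dvd_add_left ((hMs p hp).mul_right _)).2 hd⟩
  · constructor
    · rintro ⟨i, hi, t, ht⟩
      obtain ⟨y, hy⟩ := P.G_dvd (i := i + 1) (j := P.m) hi
      refine ⟨i, hi, t - P.M * y, ?_⟩
      have : (((T + P.M * P.G P.m : ℕ) : ℤ) - P.Am (i + 1) - t * P.G (i + 1)) =
          (T : ℤ) - P.Am (i + 1) - (t - P.M * y) * P.G (i + 1) := by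
        rw [hy]; push_cast; ring
      rwa [this] at ht
    · rintro ⟨i, hi, t, ht⟩
      obtain ⟨y, hy⟩ := P.G_dvd (i := i + 1) (j := P.m) hi
      refine ⟨i, hi, t + P.M * y, ?_⟩
      have : (((T + P.M * P.G P.m : ℕ) : ℤ) - P.Am (i + 1) - (t + P.M * y) * P.G (i + 1)) =
          (T : ℤ) - P.Am (i + 1) - t * P.G (i + 1) := by
        rw [hy]; push_cast; ring
      rwa [this]

lemma sidonZ (a b c d : ℕ) (hab : a ≠ b)
    (h : ((2 ^ a : ℕ) : ℤ) - ((2 ^ b : ℕ) : ℤ) = ((2 ^ c : ℕ) : ℤ) - ((2 ^ d : ℕ) : ℤ)) :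
    a = c ∧ b = d := by
  have hcd : c ≠ d := by
    rintro rfl
    rw [sub_self] at h
    have h1 : ((2 ^ a : ℕ) : ℤ) = ((2 ^ b : ℕ) : ℤ) := by linarith
    have h2 : 2 ^ a = 2 ^ b := by exact_mod_cast h1
    exact hab (Nat.pow_right_injective le_rfl h2)
  exact Crest.Agent.R320.Generic.two_pow_sidon a b c d hab hcd (by push_cast at h; exact h)

lemma sum_c_le {m M b : ℕ} (hM : 0 < M) (hb : 2 ≤ b) (i : ℕ) :
    ∑ j ∈ Finset.range (i + 1), M * b ^ j ≤ 2 * (M * b ^ i) := by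
  induction i with
  | zero => simp; omega
  | succ i ih =>
    rw [Finset.sum_range_succ]
    have h1 : 2 * (M * b ^ i) ≤ M * b ^ (i + 1) := by
      rw [pow_succ]
      calc 2 * (M * b ^ i) = (M * b ^ i) * 2 := by ring
        _ ≤ (M * b ^ i) * b := Nat.mul_le_mul_left _ hb
        _ = M * (b ^ i * b) := by ring
    omega

/-- closed form of the all-words gadget with the wide ruler -/
theorem ugi (S V : Type*) [Monoid S] [Finite S] [AddCommGroup V] [Finite V]
    (act : V → S → V) :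
    ∃ C0 : ℕ, ∀ K : ℕ, ∃ (N1 Pm La : ℕ) (c : ℕ → ℕ) (Bad : ℕ → Prop),
      0 < Pm ∧ N1 ≤ La ∧ (∀ k < K, c k ≤ La) ∧
      (∀ i j, i < j → c i < c j) ∧
      (∀ i j k l, i ≠ j → k ≠ l → (i, j) ≠ (k, l) →
        c i + c l + 4 * N1 < c k + c j ∨ c k + c j + 4 * N1 < c i + c l) ∧
      (∀ T, Bad (T + Pm) ↔ Bad T) ∧
      (∀ (T : ℤ) (F : Finset (ℕ × ℕ)), (∀ q ∈ F, q.1 < K ∧ q.2 < K ∧ q.1 ≠ q.2 ∧
        ∃ T' : ℕ, (T' : ℤ) = T + c q.2 - c q.1 ∧ Bad T') → F.card ≤ C0) ∧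
      ∀ {α : Type*} (φ : List α → S), (∀ u v, φ (u ++ v) = φ u * φ v) →
      ∃ (lam rho : List α → Option V) (nu : List α → V),
        (∀ p v, lam p = some v → p.length ≤ N1) ∧
        (∀ p q v b, lam p = some v → rho q = some b →
          b = act v (φ (p ++ q)) + nu (p ++ q)) ∧
        (∀ u : List α, La ≤ u.length → ¬ Bad u.length → ∀ v, ∃ p q, u = p ++ q ∧
          lam p = some v ∧ (rho q).isSome) ∧
        (∀ q q' : List α, La ≤ q.length → La ≤ q'.length → q.take La = q'.take La →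
          q.length % Pm = q'.length % Pm → φ (q.drop La) = φ (q'.drop La) →
          rho q = rho q' ∧ nu q = nu q') := by
  classical
  obtain ⟨m, r, hm, hmain⟩ := grid_gadget2 S V act
  refine ⟨r + m, fun K => ?_⟩
  set ρ : ℕ := 2 ^ K with hρ
  obtain ⟨Ms, hcard, hp, hrest⟩ := hmain (2 * ρ)
  set M : ℕ := ∏ p ∈ Ms, p with hMdef
  have hM : 0 < M := Finset.prod_pos fun p h => (hp p h).1.pos
  set κ : ℕ := 16 * M * ρ + 2 * M + 2 with hκ
  set b : ℕ := 2 ^ κ with hb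
  have hbκ : κ < b := Nat.lt_two_pow_self
  have hb0 : 0 < b := by positivity
  let P : Par := mkPar m M b hM hb0
  have hρ1 : 1 ≤ ρ := Nat.one_le_two_pow
  have hcop : ∀ j, Nat.Coprime (P.G j) P.M := by
    intro j
    show Nat.Coprime ((2 ^ κ) ^ j) (∏ p ∈ Ms, p)
    apply Nat.Coprime.pow_left
    apply Nat.Coprime.pow_left
    apply Nat.Coprime.prod_right
    intro p hpM
    obtain ⟨h1, h2⟩ := hp p hpM
    rw [Nat.coprime_primes Nat.prime_two h1]
    omega
  have hPG : ∀ j, P.G j = b ^ j := fun _ => rfl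
  have hPc : ∀ j, P.c j = M * b ^ j := fun _ => rfl
  have hPm : P.m = m := rfl
  have hPM : P.M = M := rfl
  have hMs : ∀ p ∈ Ms, p ∣ P.M := fun p hpM => Finset.dvd_prod_of_mem _ hpM
  obtain ⟨C, hC1, hC2, hC3⟩ := Thin_271.exists_places m M (4 * P.Am m) (fun i => P.G i)
    (fun i => P.c i) (fun i _ => P.hdvd i) (fun i _ => Dvd.intro_left M rfl) (P.hG m) hM
    (hcop m).symm (fun _ => 1)
  set X : ℕ := C 1 with hX
  have hXgap : 4 * P.Am m < X := by
    have := hC3 0 1 Nat.zero_lt_one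
    omega
  let c : ℕ → ℕ := fun a => 2 ^ a * X
  have hcM : ∀ a, (M : ℤ) ∣ (c a : ℤ) - ((2 ^ a : ℕ) : ℤ) := by
    intro a
    have h := (hC1 1).mul_left ((2 ^ a : ℕ) : ℤ)
    have e : (c a : ℤ) - ((2 ^ a : ℕ) : ℤ) = ((2 ^ a : ℕ) : ℤ) * ((C 1 : ℤ) - (1 : ℕ)) := by
      simp only [c, hX]; push_cast; ring
    rw [e]; exact h
  have hcG : ∀ i ≤ m, ∀ a, (P.G i : ℤ) ∣ (c a : ℤ) -
      4 * ((∑ j ∈ Finset.range i, P.c j : ℕ) : ℤ) * ((2 ^ a : ℕ) : ℤ) := by
    intro i hi a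
    have h := (hC2 i hi 1).mul_left ((2 ^ a : ℕ) : ℤ)
    have e : (c a : ℤ) - 4 * ((∑ j ∈ Finset.range i, P.c j : ℕ) : ℤ) * ((2 ^ a : ℕ) : ℤ)
        = ((2 ^ a : ℕ) : ℤ) *
          ((C 1 : ℤ) - 4 * ((∑ j ∈ Finset.range i, P.c j : ℕ) : ℤ) * (1 : ℕ)) := by
      simp only [c, hX]; push_cast; ring
    rw [e]; exact h
  have hρle : ∀ a < K, ((2 ^ a : ℕ) : ℤ) ≤ (ρ : ℤ) := by
    intro a ha
    have : 2 ^ a ≤ ρ := Nat.pow_le_pow_right (by norm_num) ha.le
    exact_mod_cast this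
  obtain ⟨La, hLa1, hLa2, hLa3⟩ : ∃ La : ℕ, P.Am m + P.Am m ≤ La ∧ P.Am m + P.G m ≤ La ∧
      ∀ k < K, c k ≤ La := by
    refine ⟨P.Am m + P.Am m + P.G m + 2 ^ K * X, by omega, by omega, fun k hk => ?_⟩
    have : 2 ^ k * X ≤ 2 ^ K * X := Nat.mul_le_mul_right _ (Nat.pow_le_pow_right (by norm_num) hk.le)
    show 2 ^ k * X ≤ _
    omega
  refine ⟨P.Am m, P.M * P.G m, La, c, BadI P Ms, Nat.mul_pos P.hM (P.hG m), by omega, hLa3,
    ?_, ?_, ?_, ?_, ?_⟩
  · intro i j hij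
    show 2 ^ i * X < 2 ^ j * X
    exact Nat.mul_lt_mul_of_pos_right (Nat.pow_lt_pow_right (by norm_num) hij) (by omega)
  · intro i j k l hij hkl hne
    have hne' : 2 ^ i + 2 ^ l ≠ 2 ^ k + 2 ^ j := by
      intro h
      have h' : ((2 ^ i : ℕ) : ℤ) - ((2 ^ j : ℕ) : ℤ) = ((2 ^ k : ℕ) : ℤ) - ((2 ^ l : ℕ) : ℤ) := by
        have : ((2 ^ i + 2 ^ l : ℕ) : ℤ) = ((2 ^ k + 2 ^ j : ℕ) : ℤ) := by exact_mod_cast h
        push_cast at this ⊢
        linarith
      obtain ⟨h1, h2⟩ := sidonZ i j k l hij h'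
      exact hne (by rw [h1, h2])
    rcases Nat.lt_or_gt_of_ne hne' with h | h
    · left
      show 2 ^ i * X + 2 ^ l * X + 4 * P.Am m < 2 ^ k * X + 2 ^ j * X
      have : (2 ^ i + 2 ^ l + 1) * X ≤ (2 ^ k + 2 ^ j) * X := Nat.mul_le_mul_right _ h
      nlinarith
    · right
      show 2 ^ k * X + 2 ^ j * X + 4 * P.Am m < 2 ^ i * X + 2 ^ l * X
      have : (2 ^ k + 2 ^ j + 1) * X ≤ (2 ^ i + 2 ^ l) * X := Nat.mul_le_mul_right _ h
      nlinarith
  · intro T
    exact BadI_per hMs T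
  · intro T F hF
    -- one pair for each prime and each band
    let A1 : ℕ → Finset (ℕ × ℕ) := fun p => F.filter fun q => (p : ℤ) ∣ T + c q.2 - c q.1
    let A2 : ℕ → Finset (ℕ × ℕ) := fun i => F.filter fun q =>
      ∃ t : ℤ, |T + c q.2 - c q.1 - P.Am (i + 1) - t * (P.G (i + 1) : ℤ)| ≤ (P.c i : ℤ)
    have hsub : F ⊆ Ms.biUnion A1 ∪ (Finset.range m).biUnion A2 := by
      intro q hq
      obtain ⟨h1, h2, h3, T', hT', hbad⟩ := hF q hq
      rw [Finset.mem_union, Finset.mem_biUnion, Finset.mem_biUnion]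
      rcases hbad with ⟨p, hpM, hpd⟩ | ⟨i, hi, t, ht⟩
      · left
        refine ⟨p, hpM, Finset.mem_filter.2 ⟨hq, ?_⟩⟩
        rw [← hT']
        exact Int.natCast_dvd_natCast.2 hpd
      · right
        refine ⟨i, Finset.mem_range.2 hi, Finset.mem_filter.2 ⟨hq, t, ?_⟩⟩
        rw [← hT']
        exact ht
    have hA1 : ∀ p ∈ Ms, (A1 p).card ≤ 1 := by
      intro p hpM
      rw [Finset.card_le_one]
      intro q hq q' hq'
      obtain ⟨hq1, hq2⟩ := Finset.mem_filter.1 hq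
      obtain ⟨hq1', hq2'⟩ := Finset.mem_filter.1 hq'
      obtain ⟨h1, h2, h3, -⟩ := hF q hq1
      obtain ⟨h1', h2', h3', -⟩ := hF q' hq1'
      have key := Thin_271.modulus_one (K := K) (fun a => ((2 ^ a : ℕ) : ℤ)) (ρ : ℤ)
        (fun a => (c a : ℤ)) (p : ℤ) (fun a _ => by positivity) hρle
        (fun a b c d _ _ _ _ hab h => sidonZ a b c d hab h)
        (by exact_mod_cast (hp p hpM).2)
        (fun a _ => (Int.natCast_dvd_natCast.2 (hMs p hpM)).trans (hcM a)) T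
        q.2 q.1 q'.2 q'.1 h2 h1 h2' h1' (Ne.symm h3) hq2 hq2'
      exact Prod.ext key.2 key.1
    have hA2 : ∀ i ∈ Finset.range m, (A2 i).card ≤ 1 := by
      intro i hi
      rw [Finset.mem_range] at hi
      rw [Finset.card_le_one]
      intro q hq q' hq'
      obtain ⟨hq1, hq2⟩ := Finset.mem_filter.1 hq
      obtain ⟨hq1', hq2'⟩ := Finset.mem_filter.1 hq'
      obtain ⟨h1, h2, h3, -⟩ := hF q hq1
      obtain ⟨h1', h2', h3', -⟩ := hF q' hq1'
      have hsum : ∑ j ∈ Finset.range (i + 1), P.c j ≤ 2 * P.c i := by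
        have := sum_c_le (m := m) hM (b := b) (by omega) i
        exact this
      have hsum' : P.c i ≤ ∑ j ∈ Finset.range (i + 1), P.c j := by
        rw [Finset.sum_range_succ]; omega
      have hci : 0 < P.c i := Nat.mul_pos hM (P.hG i)
      have hG : 8 * (∑ j ∈ Finset.range (i + 1), P.c j) * ρ + 2 * P.c i < P.G (i + 1) := by
        have h4 : 8 * (∑ j ∈ Finset.range (i + 1), P.c j) * ρ ≤ 8 * (2 * P.c i) * ρ :=
          Nat.mul_le_mul_right _ (Nat.mul_le_mul_left _ hsum)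
        have h5 : (16 * M * ρ + 2 * M) * b ^ i < b * b ^ i :=
          Nat.mul_lt_mul_of_pos_right (by omega) (pow_pos hb0 i)
        have h6 : 8 * (2 * P.c i) * ρ + 2 * P.c i = (16 * M * ρ + 2 * M) * b ^ i := by
          rw [hPc]; ring
        have h7 : P.G (i + 1) = b * b ^ i := by rw [hPG, pow_succ]; ring
        omega
      have key := Thin_271.band_one (K := K) (fun a => ((2 ^ a : ℕ) : ℤ)) (ρ : ℤ)
        (fun a => (c a : ℤ)) (P.G (i + 1) : ℤ) ((∑ j ∈ Finset.range (i + 1), P.c j : ℕ) : ℤ)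
        (P.c i : ℤ) (P.Am (i + 1) : ℤ) (fun a _ => by positivity) hρle
        (fun a b c d _ _ _ _ hab h => sidonZ a b c d hab h)
        (by exact_mod_cast (by omega : 0 < ∑ j ∈ Finset.range (i + 1), P.c j))
        (by exact_mod_cast hsum') (by exact_mod_cast hG)
        (fun a _ => hcG (i + 1) (by omega) a) T
        q.2 q.1 q'.2 q'.1 h2 h1 h2' h1' (Ne.symm h3) hq2 hq2'
      exact Prod.ext key.2 key.1
    calc F.card ≤ (Ms.biUnion A1 ∪ (Finset.range m).biUnion A2).card := Finset.card_le_card hsub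
      _ ≤ (Ms.biUnion A1).card + ((Finset.range m).biUnion A2).card := Finset.card_union_le _ _
      _ ≤ Ms.card * 1 + (Finset.range m).card * 1 :=
        Nat.add_le_add (Finset.card_biUnion_le_card_mul _ _ _ hA1)
          (Finset.card_biUnion_le_card_mul _ _ _ hA2)
      _ ≤ r + m := by rw [Finset.card_range]; omega
  · intro α φ hφ
    obtain ⟨lam, rho, nu, g1, g2, g3, g4, g5, g6⟩ := hrest P hPm rfl hcop φ hφ
    refine ⟨lam, rho, nu, fun p v h => (g2 p v h).2.le, g1, ?_, ?_⟩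
    · intro u hu hbad v
      obtain ⟨p, q, b', h1, h2, h3⟩ := g6 u (by show P.Am m + P.Am m ≤ u.length; omega)
        (fun p hpM hd => hbad (Or.inl ⟨p, hpM, hd⟩)) (fun h => hbad (BadI_of_BadG h)) v
      exact ⟨p, q, h1, h2, by rw [h3]; rfl⟩
    · intro q q' hq hq' htk hmod hdr
      have hmod' : q.length ≡ q'.length [MOD P.M * P.G m] := hmod
      have hmG : q.length ≡ q'.length [MOD P.G P.m] := hmod'.of_mul_left _
      have hmM : q.length % P.M = q'.length % P.M := hmod'.of_mul_right _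
      obtain ⟨d1, d2, d3, d4⟩ := dep_all (P := P) hφ (La := La) hLa2 hq hq' htk hdr hmG
      exact ⟨g4 q q' ⟨fun _ => by show P.Am m ≤ _; omega, fun _ => by show P.Am m ≤ _; omega⟩
        hmM d4, g5 q q' hmM d1 d2 d3⟩

end Crest.Agent.R320.Grid219
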