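import Crest.Agent.R320.MainC_206
import Crest.Agent.R320.UGI_219
import Crest.Agent.R320.Block_467

/-!
# Row 320: S0495 (generalized star height at most three): final joint (helper206)
-/

set_option autoImplicit false

namespace Crest.Agent.R320.Main_206

open Crest.RegLang Crest.Agent.R320.Hk_851

universe u

theorem g1 (S V : Type) [Monoid S] [Finite S] [AddCommGroup V] [Finite V] (act : V → S → V) :
    G1 S V act := by
  classical
  obtain ⟨C0, h⟩ := Grid219.ugi S V act
  refine ⟨C0, fun K => ?_⟩
  obtain ⟨N1, Pm, La, c, Bad, hPm, -, -, hcm, hres, hper, hthin, hg⟩ := h K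
  obtain ⟨lam, rho, nu, h1, h2, h3, h4⟩ := hg (fun l : List S => l.prod) (fun u v => by simp)
  refine ⟨N1, La, Pm, Bad, c, lam, rho, nu, hPm, hper, fun i j hij _ => hcm i j hij, ?_, ?_, h1,
    h2, h3, ?_⟩
  · intro a b a' b' _ _ _ _ hab hab' habs
    by_contra hcon
    have hne : (a, b) ≠ (a', b') := by
      intro e
      rw [Prod.mk.injEq] at e
      exact hcon e
    have h5 := hres a b a' b' hab hab' hne
    rw [abs_lt] at habs
    rcases h5 with h5 | h5
    · omega
    · omega
  · intro T hT
    have h5 := hthin (T : ℤ) (((Finset.range K ×ˢ Finset.range K).filter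
      (fun p => p.1 ≠ p.2 ∧ Bad (T + c p.1 - c p.2))).image Prod.swap) (by
        intro q hq
        rw [Finset.mem_image] at hq
        obtain ⟨p, hp, rfl⟩ := hq
        rw [Finset.mem_filter, Finset.mem_product, Finset.mem_range, Finset.mem_range] at hp
        obtain ⟨⟨hp1, hp2⟩, hp3, hp4⟩ := hp
        refine ⟨hp2, hp1, fun e => hp3 e.symm, T + c p.1 - c p.2, ?_, hp4⟩
        have := hT p.2 hp2
        show ((T + c p.1 - c p.2 : ℕ) : ℤ) = (T : ℤ) + (c p.1 : ℤ) - (c p.2 : ℤ)
        omega)
    rwa [Finset.card_image_of_injective _ Prod.swap_injective] at h5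
  · intro X Y hX hY h5 h6 h7
    exact (h4 X Y hX hY h5 h7 h6).2

theorem final_type {α : Type u} [Finite α] (S : Type) [Monoid S] [Finite S] (f : α → S) (s : S) :
    HL 3 ({w | (w.map f).prod = s} : Language α) := by
  obtain ⟨act, hadd, hone, hmul, hfaith⟩ := Blk467.exists_module S
  exact main act hadd hone hmul hfaith (g1 S (S → ZMod 2) act) f s

/-- a copy of `Fin n` without its ring structure -/
def FinC (n : ℕ) : Type := Fin n

instance (n : ℕ) : Finite (FinC n) := inferInstanceAs (Finite (Fin n))

theorem final {α : Type u} [Finite α] (L : Language α) (hL : L.IsRegular) : HL 3 L := by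
  refine of_monoid ?_ L hL
  intro S _ _ φ s
  have e : S ≃ FinC (Nat.card S) := Finite.equivFin S
  letI : Monoid (FinC (Nat.card S)) := e.symm.monoid
  let g : S →* FinC (Nat.card S) :=
    { toFun := e
      map_one' := rfl
      map_mul' := by
        intro a b
        change e (a * b) = e (e.symm (e a) * e.symm (e b))
        rw [e.symm_apply_apply, e.symm_apply_apply] }
  have h : ∀ w : List α, (w.map fun a => g (φ a)).prod = g ((w.map φ).prod) := by
    intro w
    rw [map_list_prod, List.map_map]
    rfl
  refine (final_type (FinC (Nat.card S)) (fun a => g (φ a)) (g s)).congr fun w => ?_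
  constructor
  · intro hw
    have hw' : (w.map φ).prod = s := hw
    exact (h w).trans (congrArg g hw')
  · intro hw
    have hw' : (w.map fun a => g (φ a)).prod = g s := hw
    rw [h] at hw'
    exact e.injective hw'

end Crest.Agent.R320.Main_206
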