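import Crest.Agent.R320.FewVal_228
import Crest.Agent.R320.Reg_852

/-!
# Row 320, P4: regularity and height one of the block code and of the right-word languages
(helper911)

Walls in the format of `FewVal_228.exists_walls`: `S` a set of words of length `n`,
`Wo P` : the last `n` letters of `P` are in `S` (left-looking).
`FB s` : `s ≤ |Q|`, `Wo Q`, no wall at `t`, `s ≤ t < |Q|`  (the block code of the natural chain rule
is `FB z`; `FB (z - c)` = first block of the candidate anchor `c` letters before the text).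

* `reg_FB`, `reg_Dl`, `reg_El` : regularity,
* `HL_FB`  : `HL 1 {Q | Q ∈ FB s, Q ∈ A}` for regular `A`,
* `HL_El`  : `HL 1 {Q1 ++ X2 | Q1 ∈ FB s ∩ A, X2 ∈ FB z ∩ B} ∩ C` for regular `A`, `B`, `C`,
* `HL_NX`  : `HL 1 {r ∈ A | no prefix of r in FB z}`,
* `Reg` calculus for the side conditions (length classes, `take`, `drop`, products).
-/

set_option autoImplicit false

namespace Crest.Agent.R320.P4_911

open Crest.RegLang Crest.Agent.R320.Hk_851 Crest.Agent.R320.FewWalls_228
  Crest.Agent.R320.FewVal_228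

universe u

variable {α : Type u}

/-! ### a calculus of regular predicates -/

/-- regular predicates -/
def Reg (P : List α → Prop) : Prop := Language.IsRegular ({w | P w} : Language α)

theorem Reg.congr {P Q : List α → Prop} (h : Reg P) (e : ∀ w, Q w ↔ P w) : Reg Q := by
  have : ({w | Q w} : Language α) = {w | P w} := by
    ext w; exact e w
  unfold Reg
  rw [this]
  exact h

theorem Reg.of_HL {k : ℕ} {P : List α → Prop} (h : HL k ({w | P w} : Language α)) : Reg P :=
  Crest.Agent.R320.Reg_852.HL.isRegular h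

theorem Reg.not {P : List α → Prop} (h : Reg P) : Reg (fun w => ¬ P w) :=
  Language.IsRegular.compl h

theorem Reg.and {P Q : List α → Prop} (h : Reg P) (h' : Reg Q) : Reg (fun w => P w ∧ Q w) :=
  Language.IsRegular.inf h h'

theorem Reg.or {P Q : List α → Prop} (h : Reg P) (h' : Reg Q) : Reg (fun w => P w ∨ Q w) :=
  Language.IsRegular.add h h'

theorem Reg.const (p : Prop) : Reg (fun _ : List α => p) :=
  Reg.of_HL (k := 0) (HL.const p)

theorem Reg.imp {P Q : List α → Prop} (h : Reg P) (h' : Reg Q) : Reg (fun w => P w → Q w) :=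
  (h.not.or h').congr fun _ => imp_iff_not_or

theorem Reg.iff {P Q : List α → Prop} (h : Reg P) (h' : Reg Q) : Reg (fun w => P w ↔ Q w) :=
  ((h.imp h').and (h'.imp h)).congr fun _ => iff_iff_implies_and_implies

theorem Reg.exFin {ι : Type*} {s : Set ι} (hs : s.Finite) {P : ι → List α → Prop}
    (h : ∀ i ∈ s, Reg (P i)) : Reg (fun w => ∃ i ∈ s, P i w) := by
  induction s, hs using Set.Finite.induction_on with
  | empty => exact (Reg.const False).congr fun w => by simp
  | insert _ _ ih =>
    refine ((h _ (Set.mem_insert _ _)).or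
      (ih fun i hi => h i (Set.mem_insert_of_mem _ hi))).congr fun w => ?_
    constructor
    · rintro ⟨i, hi | hi, hw⟩
      · left; rw [← hi]; exact hw
      · right; exact ⟨i, hi, hw⟩
    · rintro (hw | ⟨i, hi, hw⟩)
      · exact ⟨_, Or.inl rfl, hw⟩
      · exact ⟨i, Or.inr hi, hw⟩

theorem Reg.ex {ι : Type*} [Finite ι] {P : ι → List α → Prop}
    (h : ∀ i, Reg (P i)) : Reg (fun w => ∃ i, P i w) :=
  (Reg.exFin (Set.finite_univ (α := ι)) fun i _ => h i).congr fun w =>
    ⟨fun ⟨i, hi⟩ => ⟨i, trivial, hi⟩, fun ⟨i, _, hi⟩ => ⟨i, hi⟩⟩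

theorem Reg.all {ι : Type*} [Finite ι] {P : ι → List α → Prop}
    (h : ∀ i, Reg (P i)) : Reg (fun w => ∀ i, P i w) :=
  (Reg.ex fun i => (h i).not).not.congr fun w => by
    constructor
    · rintro hw ⟨i, hi⟩; exact hi (hw i)
    · intro hw i
      by_contra hi
      exact hw ⟨i, hi⟩

theorem Reg.exLt {N : ℕ} {P : ℕ → List α → Prop} (h : ∀ i < N, Reg (P i)) :
    Reg (fun w => ∃ i < N, P i w) :=
  (Reg.exFin (Set.finite_Iio N) fun i hi => h i hi).congr fun _ => Iff.rfl

theorem Reg.allLt {N : ℕ} {P : ℕ → List α → Prop} (h : ∀ i < N, Reg (P i)) :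
    Reg (fun w => ∀ i < N, P i w) :=
  (Reg.exLt fun i hi => (h i hi).not).not.congr fun w => by
    constructor
    · rintro hw ⟨i, hi, hi'⟩; exact hi' (hw i hi)
    · intro hw i hi
      by_contra hi'
      exact hw ⟨i, hi, hi'⟩

/-- products -/
theorem Reg.mul {P Q : List α → Prop} (h : Reg P) (h' : Reg Q) :
    Reg (fun w => ∃ x y, w = x ++ y ∧ P x ∧ Q y) := by
  let L1 : Language α := {w | P w}
  let L2 : Language α := {w | Q w}
  have hm : Reg (fun w => w ∈ L1 * L2) := Crest.Agent.R320.Reg_852.IsRegular.mul h h'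
  refine hm.congr fun w => ?_
  constructor
  · rintro ⟨x, y, rfl, hx, hy⟩
    exact Language.mem_mul.2 ⟨x, hx, y, hy, rfl⟩
  · intro hw
    obtain ⟨x, hx, y, hy, rfl⟩ := Language.mem_mul.1 hw
    exact ⟨x, y, rfl, hx, hy⟩

theorem Reg.length_le [Finite α] (n : ℕ) : Reg (fun w : List α => w.length ≤ n) :=
  Reg.of_HL (k := 0) (HL.finite (List.finite_length_le α n))

theorem Reg.length_lt [Finite α] (n : ℕ) : Reg (fun w : List α => w.length < n) :=
  Reg.of_HL (k := 0) (HL.finite (List.finite_length_lt α n))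

theorem Reg.length_ge [Finite α] (n : ℕ) : Reg (fun w : List α => n ≤ w.length) :=
  (Reg.length_lt n).not.congr fun _ => not_lt.symm

theorem Reg.length_eq [Finite α] (n : ℕ) : Reg (fun w : List α => w.length = n) :=
  Reg.of_HL (k := 0) (HL.finite (List.finite_length_eq α n))

/-- the product in a finite monoid -/
theorem Reg.prod {M : Type*} [Monoid M] [Finite M] (φ : α → M) (s : M) :
    Reg (fun w : List α => (w.map φ).prod = s) :=
  Crest.Agent.R320.Reg_852.isRegular_prod φ s

theorem Reg.length_mod (m j : ℕ) (hm : 0 < m) : Reg (fun w : List α => w.length % m = j) := by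
  haveI : NeZero m := ⟨hm.ne'⟩
  by_cases hj : j < m
  · refine (Reg.prod (M := Multiplicative (ZMod m)) (fun _ : α => Multiplicative.ofAdd 1)
      (Multiplicative.ofAdd (j : ZMod m))).congr fun w => ?_
    rw [List.map_const', List.prod_replicate, ← ofAdd_nsmul, nsmul_one]
    rw [Multiplicative.ofAdd.apply_eq_iff_eq, ZMod.natCast_eq_natCast_iff', Nat.mod_eq_of_lt hj]
  · refine (Reg.const False).congr fun w => ?_
    constructor
    · intro h
      have := Nat.mod_lt w.length hm
      omega
    · exact False.elim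

theorem Reg.drop [Finite α] (c : ℕ) {P : List α → Prop} (h : Reg P) :
    Reg (fun w => P (w.drop c)) := by
  refine ((Reg.mul (Reg.length_eq c) h).or
    ((Reg.length_lt c).and (Reg.const (P [])))).congr fun w => ?_
  constructor
  · intro hw
    by_cases hc : c ≤ w.length
    · left
      exact ⟨w.take c, w.drop c, (List.take_append_drop _ _).symm, by
        rw [List.length_take]; omega, hw⟩
    · right
      refine ⟨not_le.1 hc, ?_⟩
      rwa [List.drop_eq_nil_of_le (by omega)] at hw
  · rintro (⟨x, y, rfl, hx, hy⟩ | ⟨h1, h2⟩)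
    · rw [← hx, List.drop_left]
      exact hy
    · rw [List.drop_eq_nil_of_le h1.le]
      exact h2

theorem Reg.take [Finite α] (c : ℕ) (P : List α → Prop) : Reg (fun w => P (w.take c)) := by
  have h1 : Reg (fun w : List α => ∃ x y, w = x ++ y ∧ (x.length = c ∧ P x) ∧ True) :=
    Reg.mul (Reg.of_HL (k := 0) (HL.finite
      ((List.finite_length_eq α c).subset fun w (hw : w.length = c ∧ P w) => hw.1)))
      (Reg.const True)
  have h2 : Reg (fun w : List α => w.length < c ∧ P w) :=
    Reg.of_HL (k := 0) (HL.finite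
      ((List.finite_length_lt α c).subset fun w (hw : w.length < c ∧ P w) => hw.1))
  refine (h1.or h2).congr fun w => ?_
  constructor
  · intro hw
    by_cases hc : c ≤ w.length
    · left
      exact ⟨w.take c, w.drop c, (List.take_append_drop _ _).symm,
        ⟨by rw [List.length_take]; omega, hw⟩, trivial⟩
    · right
      refine ⟨not_le.1 hc, ?_⟩
      rwa [List.take_of_length_le (by omega)] at hw
  · rintro (⟨x, y, rfl, ⟨hx, hy⟩, -⟩ | ⟨h3, h4⟩)
    · rw [← hx, List.take_left]
      exact hy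
    · rw [List.take_of_length_le h3.le]
      exact h4

/-- any condition on the class `(Q.take c, φ (Q.drop c), |Q| mod m)` -/
theorem Reg.cls [Finite α] {M : Type*} [Monoid M] [Finite M] (φ : α → M) (c m : ℕ) (hm : 0 < m)
    (P : List α → M → ℕ → Prop) :
    Reg (fun w => P (w.take c) ((w.drop c).map φ).prod (w.length % m)) := by
  have h := Reg.ex (ι := M) fun s => Reg.exLt (N := m) (P := fun j w =>
    ((w.length % m = j) ∧ ((w.drop c).map φ).prod = s) ∧ P (w.take c) s j) fun j _ =>
      ((Reg.length_mod m j hm).and (Reg.drop c (Reg.prod φ s))).and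
        (Reg.take c fun x => P x s j)
  refine h.congr fun w => ?_
  constructor
  · intro hw
    exact ⟨_, _, Nat.mod_lt _ hm, ⟨rfl, rfl⟩, hw⟩
  · rintro ⟨s, j, _, ⟨rfl, rfl⟩, hw⟩
    exact hw

/-! ### walls and blocks -/

/-- left-looking walls -/
def Wo (n : ℕ) (S : Set (List α)) (P : List α) : Prop :=
  n ≤ P.length ∧ P.drop (P.length - n) ∈ S

/-- first wall at a place `≥ s` -/
def FB (n : ℕ) (S : Set (List α)) (s : ℕ) (Q : List α) : Prop :=
  s ≤ Q.length ∧ Wo n S Q ∧ ∀ t, s ≤ t → t < Q.length → ¬ Wo n S (Q.take t)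

variable {n : ℕ} {S : Set (List α)}

theorem wo_iff_wl {P : List α} : Wo n S P ↔ n ≤ P.length ∧ Wl n S P (P.length - n) := by
  unfold Wo Wl
  constructor
  · rintro ⟨h1, h2⟩
    refine ⟨h1, by omega, ?_⟩
    rw [List.take_of_length_le (by rw [List.length_drop]; omega)]
    exact h2
  · rintro ⟨h1, -, h2⟩
    rw [List.take_of_length_le (by rw [List.length_drop]; omega)] at h2
    exact ⟨h1, h2⟩

/-- a window wall at `x` is a left-looking wall at `x + n` -/
theorem wo_of_wl {Q : List α} {x : ℕ} (h : Wl n S Q x) : Wo n S (Q.take (x + n)) := by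
  obtain ⟨h1, h2⟩ := h
  have h3 : (Q.take (x + n)).length = x + n := by rw [List.length_take]; omega
  refine ⟨by omega, ?_⟩
  rw [h3, Nat.add_sub_cancel, List.drop_take, Nat.add_sub_cancel_left]
  exact h2

theorem reg_Wo [Finite α] : Reg (Wo n S : List α → Prop) := by
  have h1 : Reg (fun w : List α => ∃ x y, w = x ++ y ∧ True ∧ (y.length = n ∧ y ∈ S)) :=
    Reg.mul (Reg.const True) (Reg.of_HL (k := 0) (HL.finite
      ((List.finite_length_eq α n).subset fun w (hw : w.length = n ∧ w ∈ S) => hw.1)))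
  refine h1.congr fun w => ?_
  constructor
  · rintro ⟨h2, h3⟩
    exact ⟨w.take (w.length - n), w.drop (w.length - n), (List.take_append_drop _ _).symm,
      trivial, by rw [List.length_drop]; omega, h3⟩
  · rintro ⟨x, y, rfl, -, hy, hyS⟩
    refine ⟨by rw [List.length_append]; omega, ?_⟩
    rw [List.length_append, hy, Nat.add_sub_cancel, List.drop_left]
    exact hyS

/-- some prefix of length in `[s, |Q|)` is a wall -/
theorem reg_later [Finite α] (s : ℕ) :
    Reg (fun Q : List α => ∃ t, s ≤ t ∧ t < Q.length ∧ Wo n S (Q.take t)) := by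
  refine (Reg.mul ((Reg.length_ge s).and (reg_Wo (n := n) (S := S))) (Reg.length_ge 1)).congr
    fun Q => ?_
  constructor
  · rintro ⟨t, h1, h2, h3⟩
    exact ⟨Q.take t, Q.drop t, (List.take_append_drop _ _).symm,
      ⟨by rw [List.length_take]; omega, h3⟩, by rw [List.length_drop]; omega⟩
  · rintro ⟨x, y, rfl, ⟨h1, h2⟩, h3⟩
    refine ⟨x.length, h1, by rw [List.length_append]; omega, ?_⟩
    rw [List.take_left]
    exact h2

/-- there is a wall at a place in `[s, s')` -/
theorem reg_wall_between [Finite α] (s s' : ℕ) :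
    Reg (fun Q : List α => ∃ t, s ≤ t ∧ t < s' ∧ t ≤ Q.length ∧ Wo n S (Q.take t)) := by
  have h := Reg.exLt (N := s') (P := fun t (Q : List α) => s ≤ t ∧ t ≤ Q.length ∧
    Wo n S (Q.take t)) fun t _ =>
      (Reg.const _).and ((Reg.length_ge t).and (Reg.take t (Wo n S)))
  refine h.congr fun Q => ?_
  constructor
  · rintro ⟨t, h1, h2, h3, h4⟩; exact ⟨t, h2, h1, h3, h4⟩
  · rintro ⟨t, h2, h1, h3, h4⟩; exact ⟨t, h1, h2, h3, h4⟩

theorem reg_FB [Finite α] (s : ℕ) : Reg (FB n S s : List α → Prop) := by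
  refine (((Reg.length_ge s).and (reg_Wo (n := n) (S := S))).and
    (reg_later (n := n) (S := S) s).not).congr fun Q => ?_
  constructor
  · rintro ⟨h1, h2, h3⟩
    exact ⟨⟨h1, h2⟩, fun ⟨t, h4, h5, h6⟩ => h3 t h4 h5 h6⟩
  · rintro ⟨⟨h1, h2⟩, h3⟩
    exact ⟨h1, h2, fun t h4 h5 h6 => h3 ⟨t, h4, h5, h6⟩⟩

/-- the first block of a candidate satisfies `A` -/
theorem reg_Dl [Finite α] (s : ℕ) {A : List α → Prop} (hA : Reg A) :
    Reg (fun Q : List α => ∃ Q1 Q2, Q = Q1 ++ Q2 ∧ FB n S s Q1 ∧ A Q1) :=
  (Reg.mul ((reg_FB (n := n) (S := S) s).and hA) (Reg.const True)).congr fun Q =>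
    ⟨fun ⟨x, y, h1, h2, h3⟩ => ⟨x, y, h1, ⟨h2, h3⟩, trivial⟩,
      fun ⟨x, y, h1, ⟨h2, h3⟩, _⟩ => ⟨x, y, h1, h2, h3⟩⟩

theorem reg_El [Finite α] (s z : ℕ) {A B : List α → Prop} (hA : Reg A) (hB : Reg B) :
    Reg (fun Q : List α => ∃ Q1 X2, Q = Q1 ++ X2 ∧ (FB n S s Q1 ∧ A Q1) ∧ (FB n S z X2 ∧ B X2)) :=
  Reg.mul ((reg_FB s).and hA) ((reg_FB z).and hB)

/-! ### few walls -/

theorem nw_le_card {Q : List α} (F : Finset ℕ)
    (h : ∀ x, Wl n S Q x → x + n ∈ F) : nw n S Q ≤ F.card := by
  classical
  unfold nw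
  refine Finset.card_le_card_of_injOn (fun x => x + n) ?_ ?_
  · intro x hx
    have hx' := (Finset.mem_filter.1 (Finset.mem_coe.1 hx)).2
    exact Finset.mem_coe.2 (h x hx')
  · intro x _ y _ hxy
    simp only at hxy
    omega

theorem nw_FB {s : ℕ} {Q : List α} (h : FB n S s Q) : nw n S Q ≤ s + 1 := by
  refine (nw_le_card (insert Q.length (Finset.range s)) fun x hx => ?_).trans
    ((Finset.card_insert_le _ _).trans (by rw [Finset.card_range]))
  have h1 := hx.1
  by_cases hl : x + n = Q.length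
  · rw [hl]; exact Finset.mem_insert_self _ _
  · refine Finset.mem_insert_of_mem (Finset.mem_range.2 ?_)
    by_contra hc
    exact h.2.2 (x + n) (not_lt.1 hc) (by omega) (wo_of_wl hx)

theorem nw_El {s z : ℕ} {Q1 X2 : List α} (h1 : FB n S s Q1) (h2 : FB n S z X2) :
    nw n S (Q1 ++ X2) ≤ s + n + z + 2 := by
  have hcard : (insert (Q1.length + X2.length) (insert Q1.length (Finset.range s ∪
      (Finset.range (n + z)).image fun j => Q1.length + j))).card ≤ s + n + z + 2 := by
    refine (Finset.card_insert_le _ _).trans ?_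
    have a := Finset.card_insert_le Q1.length (Finset.range s ∪
      (Finset.range (n + z)).image fun j => Q1.length + j)
    have b := Finset.card_union_le (Finset.range s)
      ((Finset.range (n + z)).image fun j => Q1.length + j)
    have c := Finset.card_image_le (s := Finset.range (n + z)) (f := fun j => Q1.length + j)
    rw [Finset.card_range] at b c
    omega
  refine (nw_le_card _ fun x hx => ?_).trans hcard
  have hw := wo_of_wl hx
  have hxl := hx.1
  rw [List.length_append] at hxl
  rcases lt_trichotomy (x + n) Q1.length with hlt | heq | hgt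
  · refine Finset.mem_insert_of_mem (Finset.mem_insert_of_mem (Finset.mem_union_left _
      (Finset.mem_range.2 ?_)))
    by_contra hc
    rw [List.take_append_of_le_length hlt.le] at hw
    exact h1.2.2 (x + n) (not_lt.1 hc) hlt hw
  · rw [heq]
    exact Finset.mem_insert_of_mem (Finset.mem_insert_self _ _)
  · by_cases hl : x + n = Q1.length + X2.length
    · rw [hl]; exact Finset.mem_insert_self _ _
    · refine Finset.mem_insert_of_mem (Finset.mem_insert_of_mem (Finset.mem_union_right _
        (Finset.mem_image.2 ⟨x + n - Q1.length, Finset.mem_range.2 ?_, by omega⟩)))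
      by_contra hc
      have h3 : n ≤ x + n - Q1.length := by omega
      refine h2.2.2 (x + n - Q1.length) (by omega) (by omega) ?_
      obtain ⟨h4, h5⟩ := hw
      have h6 : ((Q1 ++ X2).take (x + n)).length = x + n := by
        rw [List.length_take, List.length_append]; omega
      have h7 : (X2.take (x + n - Q1.length)).length = x + n - Q1.length := by
        rw [List.length_take]; omega
      refine ⟨by omega, ?_⟩
      rw [h6, Nat.add_sub_cancel, List.drop_take, Nat.add_sub_cancel_left, List.drop_append,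
        List.drop_eq_nil_of_le (by omega), List.nil_append] at h5
      rw [h7, List.drop_take]
      have h8 : x + n - Q1.length - (x + n - Q1.length - n) = n := by omega
      have h9 : x + n - Q1.length - n = x - Q1.length := by omega
      rw [h8, h9]
      exact h5

theorem nw_NX {z : ℕ} {r : List α} (h : ∀ X Y, r = X ++ Y → ¬ FB n S z X) : nw n S r ≤ z := by
  classical
  refine (nw_le_card (Finset.range z) fun x hx => ?_).trans (by rw [Finset.card_range])
  refine Finset.mem_range.2 ?_
  by_contra hc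
  have hex : ∃ t, z ≤ t ∧ t ≤ r.length ∧ Wo n S (r.take t) :=
    ⟨x + n, not_lt.1 hc, hx.1, wo_of_wl hx⟩
  obtain ⟨h1, h2, h3⟩ := Nat.find_spec hex
  refine h (r.take (Nat.find hex)) (r.drop (Nat.find hex)) (List.take_append_drop _ _).symm
    ⟨by rw [List.length_take]; omega, h3, fun t h4 h5 h6 => ?_⟩
  rw [List.length_take] at h5
  rw [List.take_take, min_eq_left (by omega)] at h6
  exact Nat.find_min hex (m := t) (by omega) ⟨h4, by omega, h6⟩

/-! ### height one -/

/-- the few-walls principle of `FewVal_228.exists_walls` -/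
def Few (n : ℕ) (S : Set (List α)) : Prop :=
  ∀ (L : Language α), L.IsRegular → ∀ r, HL 1 ({w | w ∈ L ∧ nw n S w ≤ r} : Language α)

theorem Few.of_bound (hF : Few n S) {P : List α → Prop} (hP : Reg P) (r : ℕ)
    (h : ∀ w, P w → nw n S w ≤ r) : HL 1 ({w | P w} : Language α) :=
  (hF _ hP r).congr fun w => ⟨fun hw => ⟨hw, h w hw⟩, fun hw => hw.1⟩

theorem HL_FB [Finite α] (hF : Few n S) (s : ℕ) {A : List α → Prop} (hA : Reg A) :
    HL 1 ({Q | FB n S s Q ∧ A Q} : Language α) :=
  hF.of_bound ((reg_FB s).and hA) (s + 1) fun _ hw => nw_FB hw.1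

theorem HL_El [Finite α] (hF : Few n S) (s z : ℕ) {A B C : List α → Prop} (hA : Reg A)
    (hB : Reg B) (hC : Reg C) :
    HL 1 ({Q | (∃ Q1 X2, Q = Q1 ++ X2 ∧ (FB n S s Q1 ∧ A Q1) ∧ (FB n S z X2 ∧ B X2)) ∧ C Q} :
      Language α) :=
  hF.of_bound ((reg_El s z hA hB).and hC) (s + n + z + 2) fun w hw => by
    obtain ⟨⟨Q1, X2, rfl, ⟨h1, -⟩, h2, -⟩, -⟩ := hw
    exact nw_El h1 h2

theorem HL_NX [Finite α] (hF : Few n S) (z : ℕ) {A : List α → Prop} (hA : Reg A) :
    HL 1 ({r | (∀ X Y, r = X ++ Y → ¬ FB n S z X) ∧ A r} : Language α) := by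
  have h1 : Reg (fun r : List α => ¬ ∃ Q1 Q2, r = Q1 ++ Q2 ∧ FB n S z Q1 ∧ True) :=
    (reg_Dl (n := n) (S := S) z (Reg.const True)).not
  have h2 : Reg (fun r : List α => ∀ X Y, r = X ++ Y → ¬ FB n S z X) :=
    h1.congr fun r => ⟨fun h ⟨X, Y, e, hX, _⟩ => h X Y e hX,
      fun h X Y e hX => h ⟨X, Y, e, hX, trivial⟩⟩
  exact hF.of_bound (h2.and hA) z fun w hw => nw_NX hw.1

/-- finite sets of left words -/
theorem HL_left [Finite α] (N : ℕ) {P : List α → Prop} (h : ∀ w, P w → w.length ≤ N) :
    HL 1 ({w | P w} : Language α) :=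
  HL.finite ((List.finite_length_le α N).subset h)

end Crest.Agent.R320.P4_911
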