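import Crest.Agent.R320.G1_852
import Crest.Agent.R320.Spoil_398
import Crest.Agent.R320.ExactR_237
import Crest.Agent.R320.LWallAll_922
import Crest.Agent.R320.CC_900
import Crest.Agent.R320.TopSem_474
import Crest.Agent.R320.Fib_64
import Crest.Agent.R320.P4_911
import Crest.Agent.R320.Top5_163
import Crest.Agent.R320.Univ_582

/-!
# Row 320: the join of the landed pieces (helper207)

Gadget for unknown length: `G1_852.gadget`; ruler: `Spoil_398.exists_ruler`; exact gadget:
`ExactR_237.exact_gadget`; left-looking walls on all words: `LWallAll_922.walls_all_left`;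
`CC_900.Dat.cc`; semantic right labels: `TopSem_474`; heights of the fibres: `Fib_64`, `P4_911`;
top: `Top5_163.top`; universes: `Univ_582.final`.
-/

set_option autoImplicit false

namespace Crest.Agent.R320.Fin_207

open Crest.RegLang Crest.Agent.R320.Hk_851

section token

variable {S : Type} [Monoid S]

/-- right translation on the token group -/
noncomputable def act (v : S →₀ ZMod 2) (s : S) : S →₀ ZMod 2 :=
  Finsupp.mapDomain (fun r => r * s) v

theorem act_add (v w : S →₀ ZMod 2) (s : S) : act (v + w) s = act v s + act w s :=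
  Finsupp.mapDomain_add

theorem act_mul (v : S →₀ ZMod 2) (s s' : S) : act (act v s) s' = act v (s * s') := by
  unfold act
  rw [← Finsupp.mapDomain_comp]
  congr 1
  funext r
  simp [mul_assoc]

theorem faith (s s' : S) (h : ∀ v : S →₀ ZMod 2, act v s = act v s') : s = s' := by
  have h1 := h (Finsupp.single 1 1)
  unfold act at h1
  rw [Finsupp.mapDomain_single, Finsupp.mapDomain_single] at h1
  have h2 := Finsupp.single_left_injective (one_ne_zero) h1
  simpa using h2

end token

theorem fibre (α : Type) [Finite α] (S : Type) [Monoid S] [Finite S] (f : α → S) (s : S) :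
    HL 3 ({w | (w.map f).prod = s} : Language α) := by
  classical
  rcases isEmpty_or_nonempty α with hα | ⟨⟨a0⟩⟩
  · refine HL.finite (s := {w : List α | (w.map f).prod = s}) ?_
    refine (Set.finite_singleton ([] : List α)).subset ?_
    intro w _
    cases w with
    | nil => rfl
    | cons a _ => exact (hα.false a).elim
  have : Fintype S := Fintype.ofFinite S
  have : Fintype (S →₀ ZMod 2) := Fintype.ofFinite _
  obtain ⟨m, r, hg⟩ := G1_852.gadget (S := S) (V := S →₀ ZMod 2) act
  obtain ⟨K, hK⟩ := ExactR_237.exact_gadget α S (S →₀ ZMod 2) f act (2 + 2 * (r + (m + 1)))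
  obtain ⟨Ms, M, hcard, hMs, hM, hg2⟩ := hg (2 ^ (K + 1) + (m + 1))
  obtain ⟨b, hb⟩ : ∃ b, b = 1 + M * ((4 * M + 1) * 2 ^ (K + 4) + 1) := ⟨_, rfl⟩
  have hcop : Nat.Coprime b M := by
    rw [hb]
    simp
  have hb0 : 0 < b := by omega
  obtain ⟨lam, rho, nu, hlen, hsound, hcompl, hloc⟩ := hg2 b hb0 hcop α f
  obtain ⟨N1, hN1⟩ : ∃ N1, N1 = b ^ (m + 1) := ⟨_, rfl⟩
  have hN1pos : 0 < N1 := by rw [hN1]; positivity
  have hb1 : (M : ℤ) ∣ (b : ℤ) - 1 := ⟨((4 * M + 1) * 2 ^ (K + 4) + 1 : ℤ), by rw [hb]; push_cast; ring⟩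
  have hb2 : (4 * M + 1) * 2 ^ (K + 4) < b := by
    rw [hb]
    have : 1 * ((4 * M + 1) * 2 ^ (K + 4) + 1) ≤ M * ((4 * M + 1) * 2 ^ (K + 4) + 1) :=
      Nat.mul_le_mul_right _ hM
    omega
  obtain ⟨x, hx, hxD, hgol, hspoil⟩ := Spoil_398.exists_ruler (Ms := Ms) (K := K) (M := M)
    (b := b) (m := m + 1) hM (Nat.succ_pos m)
    (fun p hp => by
      obtain ⟨h1, h2, h3⟩ := hMs p hp
      have h4 : 0 < 2 ^ (K + 1) := by positivity
      exact ⟨h2, h3, by omega, by omega⟩) hb1 hb2 (4 * N1)
  obtain ⟨lam2, rho2, nu2, he1, he2⟩ := hK x (fun i j hij _ => hx hij)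
  obtain ⟨p0, hp0⟩ : ∃ p0, p0 = x K := ⟨_, rfl⟩
  obtain ⟨n, G, B, Wo, hLW, hgap, -, -, hfree⟩ :=
    LWallAll_922.walls_all_left α (2 * (p0 + N1)) (by omega)
  have hpr : ∀ w : List α, ExactR_237.pr f w = (w.map f).prod := fun w => rfl
  have hpr' : ∀ w : List α, G1_852.pr f w = (w.map f).prod := fun w => rfl
  have hne : ¬ Wo [] := by
    intro h
    have h1 := hLW.len [] h
    have h2 : Wo ([a0] ++ []) := (hLW.app [a0] [] h1).2 h
    have h3 := hgap [a0] 0 1 one_pos le_rfl (by simpa using h) (by simpa using h2)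
    omega
  let D : CC_900.Dat α S (S →₀ ZMod 2) :=
    { φ := fun w => (w.map f).prod
      φ_app := fun u v => by simp
      act := act
      Wo := Wo
      n := n
      W := 2 * (p0 + N1)
      loc := hLW.app
      sep := by
        intro P d hP hd hdW hcon
        have hW1 : Wo (P.take P.length) := by rw [List.take_length]; exact hP
        by_cases h0 : P.length = 0
        · have hPn : P = [] := List.length_eq_zero_iff.1 h0
          rw [hPn] at hP
          exact hne hP
        · have := hgap P (P.length - d) P.length (by omega) le_rfl hcon hW1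
          omega
      z := 3 * p0 + 4 * N1 + p0 + 2 * n + 2
      p0 := p0
      N1 := N1
      La := p0
      K := K
      C0 := r + (m + 1)
      c := x
      Bad := Spoil_398.BadT Ms M b (m + 1)
      lam1 := lam
      rho1 := rho
      nu1 := nu
      lam1_len := fun p v h => by
        have h1 := hlen p v h
        have h2 : b ^ m ≤ b ^ (m + 1) := Nat.pow_le_pow_right hb0 (Nat.le_succ m)
        omega
      g1 := fun p q v r' h1 h2 _ => hsound p q v r' h1 h2
      g1c := by
        intro u _ hbad v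
        unfold Spoil_398.BadT at hbad
        push Not at hbad
        obtain ⟨h1, h2⟩ := hbad
        obtain ⟨P, Q, h3, h4, v', h5⟩ := hcompl u h1 (fun j hj => by
          have := h2 j (by omega)
          exact ⟨this.1, this.2⟩) v
        exact ⟨P, Q, h3.symm, h4, by rw [h5]; rfl⟩
      lam2 := lam2
      rho2 := fun k Q => rho2 k Q 1
      nu2 := fun u => nu2 u 1
      g2 := by
        intro k hk P Q v b' hP _ h1 h2
        have := he1 k hk P Q 1 v b' hP h1 h2
        rw [mul_one] at this
        exact this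
      g2c := by
        intro X v hX
        obtain ⟨I, hI, hI2⟩ := he2 X 1 v (fun k hk => by
          rw [hX, hp0]
          exact (hx hk).le)
        exact ⟨I, by omega, hI2⟩
      c_le := fun k hk => by rw [hp0]; exact (hx hk).le
      c_inj := fun k l _ _ h => hx.injective h
      spoil := by
        intro T hT F hF
        have h1 := hspoil T (by rw [← hp0]; exact hT)
        have h2 : (F.image Prod.swap).card = F.card :=
          Finset.card_image_of_injective _ Prod.swap_injective
        rw [← h2]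
        refine le_trans (Finset.card_le_card ?_) (h1.trans (by omega))
        intro a ha
        obtain ⟨a', ha', rfl⟩ := Finset.mem_image.1 ha
        obtain ⟨h3, h4, h5, h6⟩ := hF a' ha'
        rw [Finset.mem_filter, Finset.mem_product, Finset.mem_range, Finset.mem_range]
        exact ⟨⟨h4, h3⟩, fun h => h5 h.symm, h6⟩
      space := by
        intro i j k l _ _ _ _ hij _ hne
        by_contra hcon
        push Not at hcon
        have := hgol i j k l hij (by
          rw [abs_le]
          constructor <;> push_cast <;> omega)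
        exact hne (by rw [this.1, this.2])
      hz := le_rfl
      hW := le_rfl }
  have hCC : TopSem_474.CC D.XX D.T D.LP1 D.LP2 := by
    have h1 : ∀ Q, D.Sem1 Q ↔ TopSem_474.Sem1 D.XX D.T D.LP1 Q := by
      intro Q
      constructor
      · rintro ⟨h, b', hb'⟩; exact ⟨b', h, hb'⟩
      · rintro ⟨b', h, hb'⟩; exact ⟨h, b', hb'⟩
    intro X hX X2 hX2 v
    rcases D.cc X hX X2 hX2 v with ⟨P, Q, h2, h3, h4⟩ | ⟨P, Q, h2, h3, h4, h5, b', h6⟩
    · exact Or.inl ⟨P, Q, h2, h3, (h1 Q).1 h4⟩
    · refine Or.inr ⟨P, Q, h2, h3, h4, b', h5, fun P' v' hP' => ?_⟩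
      rcases h6 P' v' hP' with ⟨X', a1, a2, P'', Q'', a3, a4, a5, a6⟩ | h7
      · exact Or.inl ⟨X', a1, a2, P'', Q'', a3, a4, a5, (h1 Q'').1 a6⟩
      · exact Or.inr h7
  have hnu : ∀ c, Language.IsRegular ({Y | nu Y = c} : Language α) := by
    intro c
    have h := P4_911.Reg.cls f (b ^ m) (M * b ^ m) (by positivity)
      (fun a s' i => ∃ Q : List α, Q.take (b ^ m) = a ∧ ((Q.drop (b ^ m)).map f).prod = s' ∧
        Q.length % (M * b ^ m) = i ∧ nu Q = c)
    refine h.congr fun w => ?_
    constructor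
    · intro hw; exact ⟨w, rfl, rfl, rfl, hw⟩
    · rintro ⟨Q, h1, h2, h3, h4⟩
      rw [← h4]
      exact (hloc w Q h1.symm h2.symm h3.symm).2
  have hbd : ∀ X : List α, (∀ j, j < X.length → ¬ Wo (X.take j)) →
      ∃ (u x v : List α) (k : ℕ), X = u ++ BddReg_746.pw x k ++ v ∧
        u.length ≤ max B (2 * (p0 + N1)) ∧ x.length ≤ max B (2 * (p0 + N1)) ∧
        v.length ≤ max B (2 * (p0 + N1)) := by
    intro X hX
    obtain ⟨u, x', v, k, h1, h2, h3, h4⟩ := hfree X hX
    exact ⟨u, x', v, k, h4, le_max_of_le_left h1, le_max_of_le_right h2, le_max_of_le_left h3⟩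
  have hXT : ∀ v v', HL 1 ({X | X ∈ D.XX ∧ D.T v X = v'} : Language α) := fun v v' =>
    Fib_64.hXT hLW.app hLW.len hbd f act (3 * p0 + 4 * N1 + p0 + 2 * n + 2) p0 (by omega) nu
      (fun u => nu2 u 1) hnu v v'
  have hNP : ∀ s', HL 1 ({w | (∀ X ∈ D.XX, ¬ X <+: w) ∧ (w.map f).prod = s'} : Language α) :=
    fun s' => Fib_64.hNP hLW.app hLW.len hbd f (3 * p0 + 4 * N1 + p0 + 2 * n + 2) s'
  have hf1 : {y : List α × (S →₀ ZMod 2) | D.LP1 y.1 y.2}.Finite := by
    refine ((List.finite_length_le α (p0 + N1)).prod (Set.finite_univ)).subset ?_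
    rintro ⟨P, v⟩ ⟨h1, h2⟩
    have h3 := D.lam1_len _ _ h2
    refine ⟨?_, Set.mem_univ _⟩
    show P.length ≤ p0 + N1
    change (P.drop p0).length ≤ N1 at h3
    rw [List.length_drop] at h3
    omega
  have hf2 : {y : List α × (S →₀ ZMod 2) | D.LP2 y.1 y.2}.Finite := by
    refine ((List.finite_length_le α p0).prod (Set.finite_univ)).subset ?_
    rintro ⟨P, v⟩ ⟨k, hk, h1, h2⟩
    refine ⟨?_, Set.mem_univ _⟩
    show P.length ≤ p0
    change P.length = x k at h1
    rw [h1, hp0]
    exact (hx hk).le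
  have hnil : ([] : List α) ∉ D.XX := Fib_64.nil_notMem (z := 3 * p0 + 4 * N1 + p0 + 2 * n + 2) (by omega)
  refine Top5_163.top (fun w : List α => (w.map f).prod) (by simp) (fun u v => by simp) act act_mul
    act_add faith D.XX hnil (fun X hX Y h => Fib_64.prefix_code hX h) D.T
    (fun X => act (nu2 (X.take p0) 1) ((X.drop p0).map f).prod + nu (X.drop p0)) ?_ D.LP1 D.LP2
    (TopSem_474.R1 D.XX D.T D.LP1) (TopSem_474.R2 D.XX D.T D.LP1 D.LP2)
    (fun Q b' h => TopSem_474.R1_ne h) (fun Q b' h => TopSem_474.R2_ne h)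
    TopSem_474.s1 TopSem_474.s2 (TopSem_474.cc hCC) hXT hNP
    (fun v => TopSem_474.hl_LP hf1 v) (fun v => TopSem_474.hl_LP hf2 v)
    (fun b' => TopSem_474.hl_R1 hXT hf1 b') (fun b' => TopSem_474.hl_R2 hXT hf1 hf2 b') s
  intro X _ v
  show act (act v ((X.take p0).map f).prod + nu2 (X.take p0) 1) ((X.drop p0).map f).prod +
    nu (X.drop p0) = act v (X.map f).prod +
      (act (nu2 (X.take p0) 1) ((X.drop p0).map f).prod + nu (X.drop p0))
  rw [act_add, act_mul, ← List.prod_append, ← List.map_append, List.take_append_drop, add_assoc]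

/-- **The statement of S0495.** -/
theorem main {α : Type*} [Finite α] (L : Language α) (hL : L.IsRegular) :
    ∃ e : GRegExp α, e.height ≤ 3 ∧ e.lang = L :=
  Univ_582.final (fun β _ S _ _ φ s => fibre β S φ s) α L hL

end Crest.Agent.R320.Fin_207
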