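import Crest.Agent.R320.SemTop_727
import Crest.Agent.R320.Joint_47
import Crest.Agent.R320.P4N_211
import Crest.Agent.R320.WallU_36

/-! Final assembly (helper211): SemTop_727 + Joint_47 + P4N_211 + WallU_36 + ExactR_237, the scheme-1
gadget with its ruler is the only hypothesis. -/

set_option autoImplicit false

namespace Crest.Agent.R320.Fin_211

open Crest.Agent.R320.Hk_851 Crest.Agent.R320.Blk467 Crest.Agent.R320.SemTop_727
open Crest.Agent.R320.ExactR_237 (pr pr_append)
open Crest.Agent.R320

/-- gadget 1 with its ruler; `R1` before `K`, `K` before everything else -/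
def Gad {α S V : Type} [Monoid S] [AddCommGroup V] (act : V → S → V) (f : α → S) : Prop :=
  ∃ R1 : ℕ, ∀ K : ℕ, ∃ (N1 N0 Kp M : ℕ) (BadT : ℕ → Prop) (c : ℕ → ℕ)
    (lam rho : List α → Option V) (nu1 : List α → V),
    (∀ P Q v r, lam P = some v → rho Q = some r → r = act v (pr f (P ++ Q)) + nu1 (P ++ Q)) ∧
    (∀ P v, lam P = some v → P.length ≤ N1) ∧
    (∀ Y : List α, N0 ≤ Y.length → ¬ BadT Y.length →
      ∀ v, ∃ P Q, Y = P ++ Q ∧ lam P = some v ∧ (rho Q).isSome) ∧
    0 < M ∧
    (∀ Y Y' : List α, Kp ≤ Y.length → Kp ≤ Y'.length → Y.take Kp = Y'.take Kp →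
      Y.length % M = Y'.length % M → pr f (Y.drop Kp) = pr f (Y'.drop Kp) → nu1 Y = nu1 Y') ∧
    (∀ i j, i < j → j < K → c i < c j) ∧
    (∀ i i' j j', i < K → i' < K → j < K → j' < K → i' ≠ i → j' ≠ j →
      c i + c j' < c j + c i' + 2 * N1 → c j + c i' < c i + c j' + 2 * N1 → i = j) ∧
    (∀ T : ℕ, (∀ k, k < K → c k ≤ T) → ∀ I : Finset ℕ,
      (∀ k ∈ I, k < K ∧ ∃ k', k' < K ∧ k' ≠ k ∧ BadT (T + c k' - c k)) → I.card ≤ R1)

theorem exists_bound (c : ℕ → ℕ) (K : ℕ) : ∃ p0, ∀ k, k < K → c k ≤ p0 := by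
  refine ⟨(Finset.range K).sup c, fun k hk => Finset.le_sup (Finset.mem_range.2 hk)⟩

theorem fin {α S V : Type} [Finite α] [Monoid S] [Finite S] [AddCommGroup V] [Finite V]
    (act : V → S → V) (hadd : ∀ a b s, act (a + b) s = act a s + act b s)
    (hone : ∀ v, act v 1 = v) (hmul : ∀ v s t, act v (s * t) = act (act v s) t)
    (hfaith : ∀ s t, (∀ v, act v s = act v t) → s = t) (f : α → S) (hG : Gad act f) (s : S) :
    HL 3 ({w | (w.map f).prod = s} : Language α) := by
  classical
  haveI := Fintype.ofFinite S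
  haveI := Fintype.ofFinite V
  obtain ⟨R1, hG⟩ := hG
  obtain ⟨K, hK⟩ := ExactR_237.exact_gadget α S V f act (2 * R1 + 2)
  obtain ⟨N1, N0, Kp, M, BadT, c, lam, rho, nu1, hS, hL, hC, hM, hfs, hinc, hres, hT⟩ := hG K
  obtain ⟨lam2, rho2, nu2', hS2, hC2⟩ := hK c hinc
  obtain ⟨p0, hcp⟩ := exists_bound c K
  obtain ⟨n, Wo, loc, len, gap, R, B, pcs⟩ := WallU_36.wall_leaf α (2 * (N1 + p0) + 1)
  have hW : Joint_47.LW n (2 * (N1 + p0) + 1) Wo := by
    refine ⟨len, loc, ?_⟩
    intro X a b hab hb ha hb'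
    by_contra h
    refine gap (X.take b) (b - a) hb' (by omega) (by omega) ?_
    have hl : (X.take b).length = b := by rw [List.length_take]; omega
    rw [hl, List.take_take, show min (b - (b - a)) b = a by omega]
    exact ha
  set z := 3 * p0 + n + N1 + N0 + 1 with hz
  let nu2 : List α → V := fun X => nu2' X 1
  let D : Sch α V :=
    { XX := Joint_47.Zn Wo z
      T := Joint_47.T f act p0 nu2 nu1
      L1 := fun v => {P | Joint_47.L1 f act p0 nu2 lam v P}
      L2 := fun v => {P | Joint_47.L2 K c lam2 v P} }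
  have hXX : Joint_47.Zn Wo z = P4N_211.XX Wo z := rfl
  have c1 : ∀ X ∈ D.XX, ¬ Joint_47.Bad Wo z N1 p0 BadT X → X ∈ D.Good := by
    intro X hX hb
    refine ⟨hX, fun x => ?_⟩
    obtain ⟨p, q, e, hp, hq, h⟩ := Joint_47.complete1 (N0 := N0) f act p0 nu2 nu1 hW hS hL hC
      (by omega) (by omega) hX hb x
    exact ⟨p, hp, q, fun x' P hP => h x' P hP, e.symm⟩
  have hbad : ∀ X ∈ D.Bad, Joint_47.Bad Wo z N1 p0 BadT X := by
    intro X hX
    by_contra h
    exact hX.2 (c1 X hX.1 h)
  refine SemTop_727.top (k := 1) act hadd hone hmul hfaith f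
    (fun X => act (nu2 (X.take p0)) (pr f (X.drop p0)) + nu1 (X.drop p0)) D ?_ ?_ ?_ ?_ ?_ ?_ ?_ s
  · intro v X
    show act (act v (pr f (X.take p0)) + nu2 (X.take p0)) (pr f (X.drop p0)) + nu1 (X.drop p0) = _
    rw [hadd, ← hmul, ← pr_append, List.take_append_drop, add_assoc]
    rfl
  · refine ⟨P4N_211.nil_not_mem (by omega), ?_⟩
    intro X hX Y hY hp
    exact Joint_47.Zn_prefix hX hY hp (List.prefix_refl _)
  · intro x y
    have hφ : ∀ u v : List α, (fun w : List α => (w.map f).prod) (u ++ v) =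
        (fun w : List α => (w.map f).prod) u * (fun w : List α => (w.map f).prod) v := by
      intro u v; simp
    refine P4N_211.hXT' (φ := fun w : List α => (w.map f).prod) hφ loc len pcs
      (fun X => Joint_47.T f act p0 nu2 nu1 x X) (p0 + Kp) M (p0 + Kp) hM ?_ y
    intro X X' h1 h2 h3
    rcases Nat.lt_or_ge X.length (p0 + Kp) with hl | hl
    · have e1 : X.take (p0 + Kp) = X := List.take_of_length_le hl.le
      have hl' : X'.length < p0 + Kp := by
        have := congrArg List.length h1
        rw [List.length_take, List.length_take] at this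
        omega
      have e2 : X'.take (p0 + Kp) = X' := List.take_of_length_le hl'.le
      rw [e1, e2] at h1
      rw [h1]
    · have hl' : p0 + Kp ≤ X'.length := P4N_211.le_of_take le_rfl h1 hl
      have t1 : X.take p0 = X'.take p0 := by
        have := congrArg (List.take p0) h1
        rwa [List.take_take, List.take_take, min_eq_left (by omega)] at this
      have t2 : (X.drop p0).take Kp = (X'.drop p0).take Kp := by
        have := congrArg (List.drop p0) h1
        rwa [List.drop_take, List.drop_take, Nat.add_sub_cancel_left] at this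
      have t3 : pr f ((X.drop p0).drop Kp) = pr f ((X'.drop p0).drop Kp) := by
        rw [List.drop_drop, List.drop_drop]
        exact h3
      have t4 : (X.drop p0).length % M = (X'.drop p0).length % M := by
        rw [List.length_drop, List.length_drop]
        have : (X.length - p0) + p0 ≡ (X'.length - p0) + p0 [MOD M] := by
          rw [Nat.sub_add_cancel (by omega), Nat.sub_add_cancel (by omega)]
          exact h2
        exact Nat.ModEq.add_right_cancel' p0 this
      have t5 : pr f (X.drop p0) = pr f (X'.drop p0) := by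
        rw [← List.take_append_drop Kp (X.drop p0), ← List.take_append_drop Kp (X'.drop p0),
          pr_append, pr_append, t2, t3]
      have t6 : nu1 (X.drop p0) = nu1 (X'.drop p0) :=
        hfs _ _ (by rw [List.length_drop]; omega) (by rw [List.length_drop]; omega) t2 t4 t3
      show act (act x (pr f (X.take p0)) + nu2 (X.take p0)) (pr f (X.drop p0)) + nu1 (X.drop p0) =
        act (act x (pr f (X'.take p0)) + nu2 (X'.take p0)) (pr f (X'.drop p0)) + nu1 (X'.drop p0)
      rw [t1, t5, t6]
  · intro x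
    refine (List.finite_length_le α (p0 + N1)).subset ?_
    intro P hP
    have h1 := hL _ _ hP.2
    rw [List.length_drop] at h1
    show P.length ≤ p0 + N1
    omega
  · intro x
    refine (List.finite_length_le α p0).subset ?_
    intro P hP
    obtain ⟨k, hk, h1, -⟩ := hP
    show P.length ≤ p0
    rw [h1]
    exact hcp k hk
  · intro X1 hX1 X2 hX2 x
    obtain ⟨p, q, e, hp, -, h⟩ := Joint_47.complete2 (n := n) f act p0 nu1 hW hS2 hC2 hinc hcp hres hT
      (by omega) (by omega) hX1.1 hX2.1 (hbad X1 hX1) x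
    refine ⟨p, hp, q, ?_, e.symm⟩
    intro x' P hP
    rcases h x' P hP with ⟨a, ha, hba, e1, e2⟩ | ⟨a, ha, hba, hpre⟩
    · by_cases hg : a ∈ D.Good
      · exact Or.inr (Or.inl ⟨a, hg, ⟨X2, e1.symm⟩⟩)
      · refine Or.inl ⟨a, ⟨ha, hg⟩, X2, hX2, e1, ?_⟩
        show D.T (D.T x' a) X2 = D.T (D.T x X1) X2
        have : D.T x' a = D.T x X1 := e2
        rw [this]
    · exact Or.inr (Or.inl ⟨a, c1 a ha hba, hpre⟩)
  · intro t
    refine HL.mono (by omega) (P4N_211.hNP (φ := fun w : List α => (w.map f).prod) ?_ loc len pcs t)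
    intro u v
    simp

end Crest.Agent.R320.Fin_211
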