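import Crest.Agent.R320.JointSem_814

/-!
Row 320: the spoiling count for `JointSem_814`.
-/

set_option autoImplicit false

namespace Crest.Agent.R320.JointSem_814

open Finset

variable {α : Type}

theorem spoil {n W z p0 N K C0 T0 : ℕ} {Wo : List α → Prop} (hW : Walls n W Wo)
    (hWW : 2 * (N + p0) ≤ W) (hz : 2 * p0 + T0 + N ≤ z) {c : ℕ → ℕ} (hcp : ∀ k < K, c k ≤ p0)
    (hrul : ∀ a b a' b', a < K → b < K → a' < K → b' < K → a ≠ b → a' ≠ b' →
      c a + c b' ≤ c a' + c b + 2 * N → c a' + c b ≤ c a + c b' + 2 * N → a = a')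
    {BadT : ℕ → Prop}
    (hBT : ∀ T, T0 ≤ T → ∃ J : Finset ℕ, J.card ≤ C0 ∧ ∀ a < K, ∀ b < K, a ≠ b →
      BadT (T + c b - c a) → a ∈ J)
    (U : List α) :
    ∃ J : Finset ℕ, J.card ≤ 1 + 2 * C0 ∧ ∀ k < K, Spoiled Wo z p0 N K c BadT U k → k ∈ J := by
  classical
  -- mode (E)
  set JE : Finset ℕ := (range K).filter (fun k => ∃ k' < K, k' ≠ k ∧
    ∃ s, s ≤ U.length ∧ Wo (U.take s) ∧ z + c k ≤ s + c k' + N ∧ s + c k' < z + N + c k) with hJE
  have hE1 : JE.card ≤ 1 := by
    rw [Finset.card_le_one]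
    intro k hk l hl
    simp only [hJE, Finset.mem_filter, Finset.mem_range] at hk hl
    obtain ⟨hkK, k', hk', hkk, s, hs1, hs2, hs3, hs4⟩ := hk
    obtain ⟨hlK, l', hl', hll, t, ht1, ht2, ht3, ht4⟩ := hl
    have b1 := hcp k hkK
    have b2 := hcp k' hk'
    have b3 := hcp l hlK
    have b4 := hcp l' hl'
    have hst : s = t := by
      rcases lt_trichotomy s t with h | h | h
      · exact (hW.gap U s t h (by omega) ht1 hs2 ht2).elim
      · exact h
      · exact (hW.gap U t s h (by omega) hs1 ht2 hs2).elim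
    subst hst
    exact hrul k k' l l' hkK hk' hlK hl' hkk.symm hll.symm (by omega) (by omega)
  -- mode (B): at most two walls
  set SB : ℕ → Prop := fun s => ∃ k < K, ∃ k' < K, k' ≠ k ∧ s ≤ U.length ∧ Wo (U.take s) ∧
      z + c k ≤ s + c k' ∧ (∀ t, t < s → Wo (U.take t) → t + c k' < z + c k) with hSB
  have h3 : ∀ s t u, SB s → SB t → SB u → s < t → t < u → False := by
    rintro s t u ⟨k, hk, k', hk', -, hs1, hs2, hs3, -⟩ ⟨l, hl, l', hl', -, ht1, ht2, ht3, -⟩
      ⟨m, hm, m', hm', -, hu1, hu2, hu3, hu4⟩ h1 h2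
    have b1 := hcp k hk
    have b2 := hcp k' hk'
    have b3 := hcp m hm
    have b4 := hcp m' hm'
    have h5 := hu4 t h2 ht2
    exact hW.gap U s t h1 (by omega) ht1 hs2 ht2
  have h2w : ∃ w1 w2, z ≤ w1 + p0 ∧ z ≤ w2 + p0 ∧ ∀ s, SB s → s = w1 ∨ s = w2 := by
    by_cases h : ∃ s, SB s
    · set w1 := Nat.find h with hw1
      have hw1s : SB w1 := Nat.find_spec h
      have hmin : ∀ s, SB s → w1 ≤ s := fun s hs => Nat.find_min' h hs
      have hlow : ∀ s, SB s → z ≤ s + p0 := by
        rintro s ⟨k, hk, k', hk', -, hs1, hs2, hs3, -⟩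
        have b1 := hcp k hk
        have b2 := hcp k' hk'
        omega
      by_cases h' : ∃ s, SB s ∧ s ≠ w1
      · obtain ⟨w2, hw2, hne⟩ := h'
        refine ⟨w1, w2, hlow _ hw1s, hlow _ hw2, ?_⟩
        intro s hs
        by_contra hcon
        push Not at hcon
        have e1 := hmin s hs
        have e2 := hmin w2 hw2
        rcases lt_trichotomy s w2 with h5 | h5 | h5
        · exact h3 w1 s w2 hw1s hs hw2 (by omega) h5
        · exact hcon.2 h5
        · exact h3 w1 w2 s hw1s hw2 hs (by omega) h5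
      · push Not at h'
        exact ⟨w1, w1, hlow _ hw1s, hlow _ hw1s, fun s hs => Or.inl (h' s hs)⟩
    · push Not at h
      exact ⟨z, z, by omega, by omega, fun s hs => absurd hs (h s)⟩
  obtain ⟨w1, w2, hw1, hw2, hww⟩ := h2w
  obtain ⟨J1, hJ1, hJ1'⟩ := hBT (w1 - p0) (by omega)
  obtain ⟨J2, hJ2, hJ2'⟩ := hBT (w2 - p0) (by omega)
  refine ⟨JE ∪ (J1 ∪ J2), ?_, ?_⟩
  · have e1 := Finset.card_union_le JE (J1 ∪ J2)
    have e2 := Finset.card_union_le J1 J2
    omega
  · intro k hk hsp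
    obtain ⟨k', hk', hkk, h | h⟩ := hsp
    · apply Finset.mem_union_left
      simp only [hJE, Finset.mem_filter, Finset.mem_range]
      exact ⟨hk, k', hk', hkk, h⟩
    · apply Finset.mem_union_right
      obtain ⟨s, hs1, hs2, hs3, hs4, hs5⟩ := h
      have b1 := hcp k hk
      have b2 := hcp k' hk'
      rcases hww s ⟨k, hk, k', hk', hkk, hs1, hs2, hs3, hs4⟩ with rfl | rfl
      · apply Finset.mem_union_left
        apply hJ1' k hk k' hk' hkk.symm
        have e : s - p0 + c k' - c k = s + c k' - c k - p0 := by omega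
        rw [e]
        exact hs5
      · apply Finset.mem_union_right
        apply hJ2' k hk k' hk' hkk.symm
        have e : s - p0 + c k' - c k = s + c k' - c k - p0 := by omega
        rw [e]
        exact hs5

end Crest.Agent.R320.JointSem_814
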