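import Crest.Agent.R320.Grid_390
import Crest.Agent.R320.Spoil_814
import Crest.Agent.R320.SemTop_727
import Crest.Agent.R320.P4_111
import Crest.Agent.R320.P4_911
import Crest.Agent.R320.Thin_963
import Crest.Agent.R320.Univ_582

/-!
# Row 320: the final join (helper218)
-/

set_option autoImplicit false

namespace Crest.Agent.R320.Fin_218

open Crest.RegLang Crest.Agent.R320.Hk_851

/-! ## the ruler -/

theorem exists_primes (k B : ℕ) : ∃ q : Fin k → ℕ, Function.Injective q ∧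
    ∀ j, (q j).Prime ∧ B ≤ q j := by
  have h : ({p : ℕ | p.Prime} \ {p : ℕ | p < B}).Infinite :=
    Nat.infinite_setOfPred_prime.sdiff (Set.finite_lt_nat B)
  refine ⟨fun j => ((h.natEmbedding _ (j : ℕ) : _) : ℕ), ?_, ?_⟩
  · intro i j hij
    have h1 := Subtype.ext hij
    have h2 := (h.natEmbedding _).injective h1
    exact Fin.ext h2
  · intro j
    have h1 := (h.natEmbedding _ (j : ℕ)).2
    refine ⟨h1.1, ?_⟩
    have h2 := h1.2
    simp only [Set.mem_ofPred_eq, not_lt] at h2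
    exact h2

theorem sum_G (κ : ℕ) (hκ : 1 ≤ κ) (i : ℕ) :
    ∑ j ∈ Finset.range (i + 1), Grid_390.G κ j ≤ 2 * Grid_390.G κ i := by
  induction i with
  | zero => simp [Grid_390.G]
  | succ i ih =>
    rw [Finset.sum_range_succ]
    have h1 : 2 * Grid_390.G κ i ≤ Grid_390.G κ (i + 1) := by
      unfold Grid_390.G
      rw [show κ * (i + 1) = κ * i + κ by ring, pow_add]
      have : 2 ^ 1 ≤ 2 ^ κ := Nat.pow_le_pow_right (by norm_num) hκ
      calc 2 * 2 ^ (κ * i) = 2 ^ (κ * i) * 2 ^ 1 := by ring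
        _ ≤ 2 ^ (κ * i) * 2 ^ κ := Nat.mul_le_mul_left _ this
    omega

theorem grow (K M κ i : ℕ) (hκ : K + 6 + M ≤ κ) :
    2 ^ (K + 4) * ∑ j ∈ Finset.range (i + 1), M * Grid_390.G κ j ≤ Grid_390.G κ (i + 1) := by
  rw [← Finset.mul_sum]
  have h1 := sum_G κ (by omega) i
  have h2 : M ≤ 2 ^ M := Nat.lt_two_pow_self.le
  calc 2 ^ (K + 4) * (M * ∑ j ∈ Finset.range (i + 1), Grid_390.G κ j)
      ≤ 2 ^ (K + 4) * (2 ^ M * (2 * Grid_390.G κ i)) :=
        Nat.mul_le_mul_left _ (Nat.mul_le_mul h2 h1)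
    _ = 2 ^ (K + 5 + M) * Grid_390.G κ i := by rw [pow_add, pow_add, pow_add]; ring
    _ ≤ 2 ^ κ * Grid_390.G κ i := Nat.mul_le_mul_right _ (Nat.pow_le_pow_right (by norm_num) (by omega))
    _ = Grid_390.G κ (i + 1) := by
      unfold Grid_390.G
      rw [← pow_add]
      congr 1
      ring

theorem golomb {x N a b a' b' : ℕ} (hx : 2 * N < x) (hab : a ≠ b) (hab' : a' ≠ b')
    (h1 : x * 2 ^ a + x * 2 ^ b' ≤ x * 2 ^ a' + x * 2 ^ b + 2 * N)
    (h2 : x * 2 ^ a' + x * 2 ^ b ≤ x * 2 ^ a + x * 2 ^ b' + 2 * N) : a = a' := by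
  have h3 : 2 ^ a + 2 ^ b' = 2 ^ a' + 2 ^ b := by
    rw [← Nat.mul_add, ← Nat.mul_add] at h1 h2
    rcases lt_trichotomy (2 ^ a + 2 ^ b') (2 ^ a' + 2 ^ b) with h | h | h
    · exfalso
      have : x * (2 ^ a + 2 ^ b' + 1) ≤ x * (2 ^ a' + 2 ^ b) := Nat.mul_le_mul_left _ h
      rw [Nat.mul_add, Nat.mul_one] at this
      omega
    · exact h
    · exfalso
      have : x * (2 ^ a' + 2 ^ b + 1) ≤ x * (2 ^ a + 2 ^ b') := Nat.mul_le_mul_left _ h
      rw [Nat.mul_add, Nat.mul_one] at this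
      omega
  have h4 : (2 : ℤ) ^ a - 2 ^ b = 2 ^ a' - 2 ^ b' := by
    have : (2 : ℤ) ^ a + 2 ^ b' = 2 ^ a' + 2 ^ b := by exact_mod_cast h3
    linarith
  exact (G369.pow_diff hab hab' h4).1

/-! ## clean lengths -/

def BadN (Ms : Finset ℕ) (m κ M : ℕ) (T : ℕ) : Prop :=
  Thin963.BadT Ms m (fun i => (Grid_390.G κ i : ℤ)) (fun i => ((M * Grid_390.G κ i : ℕ) : ℤ))
    (fun i => (Grid_390.Am M κ i : ℤ)) (T : ℤ)

theorem clean_of {Ms : Finset ℕ} {m κ M T : ℕ} (h : ¬ BadN Ms m κ M T) :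
    (∀ q ∈ Ms, ¬ q ∣ T) ∧ ∀ j, 1 ≤ j → j ≤ m → Grid_390.Am M κ j ≤ T →
      M * Grid_390.G κ (j - 1) ≤ (T - Grid_390.Am M κ j) % Grid_390.G κ j ∧
      (T - Grid_390.Am M κ j) % Grid_390.G κ j + M * Grid_390.G κ (j - 1) ≤ Grid_390.G κ j := by
  unfold BadN Thin963.BadT at h
  push Not at h
  obtain ⟨h1, h2⟩ := h
  refine ⟨fun q hq hd => h1 q hq (by exact_mod_cast hd), ?_⟩
  intro j hj1 hj2 hT
  obtain ⟨i, rfl⟩ : ∃ i, j = i + 1 := ⟨j - 1, by omega⟩
  rw [Nat.add_sub_cancel]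
  set A := Grid_390.Am M κ (i + 1) with hA
  set g := Grid_390.G κ (i + 1) with hg
  set c := M * Grid_390.G κ i with hc
  have hdm := Nat.div_add_mod (T - A) g
  have hgpos : 0 < g := Nat.pow_pos (by norm_num)
  have hlt := Nat.mod_lt (T - A) hgpos
  set r := (T - A) % g with hr
  set d := (T - A) / g with hd
  have hTz : (T : ℤ) - A = g * d + r := by
    have : T = g * d + r + A := by omega
    rw [this]; push_cast; ring
  constructor
  · by_contra hlt2
    refine h2 i (by omega) (-(r : ℤ)) ?_ ?_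
    · rw [abs_neg, abs_of_nonneg (by positivity)]
      have : r ≤ c := by omega
      exact_mod_cast this
    · show (g : ℤ) ∣ (T : ℤ) - A + -(r : ℤ)
      rw [hTz]
      exact ⟨d, by ring⟩
  · by_contra hlt2
    refine h2 i (by omega) ((g : ℤ) - r) ?_ ?_
    · have h5 : (r : ℤ) ≤ g := by exact_mod_cast hlt.le
      rw [abs_of_nonneg (by linarith)]
      have h6 : g ≤ r + c := by omega
      have h7 : (g : ℤ) ≤ r + c := by exact_mod_cast h6
      show (g : ℤ) - r ≤ (c : ℤ)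
      linarith
    · show (g : ℤ) ∣ (T : ℤ) - A + ((g : ℤ) - r)
      rw [hTz]
      exact ⟨d + 1, by ring⟩

/-! ## the spoil count -/

theorem thinN {K m N : ℕ} {Ms : Finset ℕ} {κ M k : ℕ} (hM : 0 < M) (hcard : Ms.card ≤ k)
    (hMs : ∀ q ∈ Ms, q.Prime ∧ 2 ^ (K + 1) + 3 ≤ q) (hκ : K + 6 + M ≤ κ) :
    ∃ x : ℕ, 2 * N < x ∧ ∀ T : ℕ, x * 2 ^ K ≤ T →
      ∃ J : Finset ℕ, J.card ≤ k + m ∧ ∀ a < K, ∀ b < K, a ≠ b →
        BadN Ms m κ M (T + x * 2 ^ b - x * 2 ^ a) → a ∈ J := by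
  classical
  have hGpos : ∀ i, 0 < Grid_390.G κ i := fun i => Nat.pow_pos (by norm_num)
  have hcop : ∀ q ∈ Ms, IsCoprime (q:ℤ) ((Grid_390.G κ m : ℕ) : ℤ) := by
    intro q hq
    have hp := (hMs q hq).1
    have h3 := (hMs q hq).2
    have hodd : Nat.Coprime q 2 := by
      rw [Nat.coprime_comm, Nat.coprime_two_left]
      have h4 : 0 < 2 ^ (K + 1) := Nat.pow_pos (by norm_num)
      exact hp.odd_of_ne_two (by omega)
    have h5 : Nat.Coprime q (Grid_390.G κ m) := Nat.Coprime.pow_right _ hodd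
    exact Nat.isCoprime_iff_coprime.2 h5
  have hdiv : ∀ i j, i ≤ j → ((Grid_390.G κ i : ℕ) : ℤ) ∣ ((Grid_390.G κ j : ℕ) : ℤ) := by
    intro i j hij
    show ((Grid_390.G κ i : ℕ) : ℤ) ∣ ((Grid_390.G κ j : ℕ) : ℤ)
    exact Int.natCast_dvd_natCast.2 (Nat.pow_dvd_pow 2 (Nat.mul_le_mul_left κ hij))
  have hcpos : ∀ i, (0 : ℤ) < ((M * Grid_390.G κ i : ℕ) : ℤ) := by
    intro i
    show (0 : ℤ) < ((M * Grid_390.G κ i : ℕ) : ℤ)
    exact_mod_cast Nat.mul_pos hM (hGpos i)
  have hGc : ∀ i, ((Grid_390.G κ i : ℕ) : ℤ) ∣ ((M * Grid_390.G κ i : ℕ) : ℤ) := by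
    intro i
    show ((Grid_390.G κ i : ℕ) : ℤ) ∣ ((M * Grid_390.G κ i : ℕ) : ℤ)
    exact Int.natCast_dvd_natCast.2 (Nat.dvd_mul_left _ _)
  have hgrow : ∀ i < m, (2 : ℤ) ^ (K + 4) * ∑ j ∈ Finset.range (i + 1), ((M * Grid_390.G κ j : ℕ) : ℤ) ≤ ((Grid_390.G κ (i + 1) : ℕ) : ℤ) := by
    intro i _
    have := grow K M κ i hκ
    show (2 : ℤ) ^ (K + 4) * ∑ j ∈ Finset.range (i + 1), ((M * Grid_390.G κ j : ℕ) : ℤ) ≤
      ((Grid_390.G κ (i + 1) : ℕ) : ℤ)
    exact_mod_cast this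
  obtain ⟨X, hX0, hXpos, hX⟩ := Thin963.thin K m Ms (fun i => (Grid_390.G κ i : ℤ))
    (fun i => ((M * Grid_390.G κ i : ℕ) : ℤ)) (fun i => (Grid_390.Am M κ i : ℤ))
    (fun q hq => ⟨(hMs q hq).1, by have := (hMs q hq).2; omega⟩) hcop
    (by exact_mod_cast hGpos m) hdiv hcpos hGc hgrow (2 * N + 1)
  obtain ⟨x, rfl⟩ := Int.eq_ofNat_of_zero_le hXpos.le
  refine ⟨x, by have : (2 * N + 1 : ℤ) ≤ x := hX0; omega, ?_⟩
  intro T hT
  refine ⟨((((Finset.range K) ×ˢ (Finset.range K)).filter (fun p => p.1 ≠ p.2 ∧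
      Thin963.BadT Ms m (fun i => (Grid_390.G κ i : ℤ))
        (fun i => ((M * Grid_390.G κ i : ℕ) : ℤ)) (fun i => (Grid_390.Am M κ i : ℤ))
        ((T : ℤ) + x * 2 ^ p.1 - x * 2 ^ p.2)))).image Prod.snd, ?_, ?_⟩
  · refine le_trans Finset.card_image_le (le_trans (hX (T : ℤ)) ?_)
    omega
  · intro a ha b hb hab hbad
    rw [Finset.mem_image]
    refine ⟨(b, a), ?_, rfl⟩
    rw [Finset.mem_filter, Finset.mem_product, Finset.mem_range, Finset.mem_range]
    refine ⟨⟨hb, ha⟩, fun h => hab h.symm, ?_⟩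
    unfold BadN at hbad
    have h1 : x * 2 ^ a ≤ x * 2 ^ K :=
      Nat.mul_le_mul_left _ (Nat.pow_le_pow_right (by norm_num) ha.le)
    have h2 : ((T + x * 2 ^ b - x * 2 ^ a : ℕ) : ℤ) = (T : ℤ) + x * 2 ^ b - x * 2 ^ a := by
      rw [Nat.cast_sub (by omega)]
      push_cast
      ring
    rw [h2] at hbad
    exact hbad

/-! ## the fibres -/

theorem Am_le {M κ : ℕ} {i j : ℕ} (h : i ≤ j) : Grid_390.Am M κ i ≤ Grid_390.Am M κ j :=
  Grid_390.Am_mono h

/-- **fibres of a finite monoid have height at most three.** -/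
theorem fibre (β : Type) [Finite β] (S : Type) [Monoid S] [Finite S] (φ : β → S) (s : S) :
    HL 3 ({w | (w.map φ).prod = s} : Language β) := by
  classical
  have : Fintype S := Fintype.ofFinite S
  let V : Type := S → ZMod 2
  have : Fintype V := Fintype.ofFinite _
  let act : V → S → V := fun v s t => v (s * t)
  have hadd : ∀ a b s, act (a + b) s = act a s + act b s := fun a b s => rfl
  have hone : ∀ v, act v 1 = v := fun v => by funext t; show v (1 * t) = v t; rw [one_mul]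
  have hmul : ∀ v s t, act v (s * t) = act (act v s) t := by
    intro v s t; funext r
    show v (s * t * r) = v (s * (t * r))
    rw [mul_assoc]
  have hfaith : ∀ s t, (∀ v, act v s = act v t) → s = t := by
    intro s t h
    by_contra hne
    have h1 := congrFun (h (fun r => if r = s then 1 else 0)) 1
    change (if s * 1 = s then (1 : ZMod 2) else 0) = if t * 1 = s then 1 else 0 at h1
    rw [mul_one, mul_one, if_pos rfl, if_neg (fun e => hne e.symm)] at h1
    exact one_ne_zero h1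
  let ph : List β → S := fun w => (w.map φ).prod
  have hph : ∀ u v, ph (u ++ v) = ph u * ph v := fun u v => by
    show ((u ++ v).map φ).prod = _
    rw [List.map_append, List.prod_append]
  obtain ⟨k, m, H1⟩ := Grid_390.grid_gadget S V act
  set C0 := k + m with hC0
  obtain ⟨K, H2⟩ := ExactR_237.exact_gadget β S V φ act (2 + 2 * C0)
  obtain ⟨q, hqi, hq⟩ := exists_primes k (2 ^ (K + 1) + 3)
  have hpow : 0 < 2 ^ (K + 1) := Nat.pow_pos (by norm_num)
  set Ms : Finset ℕ := Finset.univ.image q with hMsdef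
  set M : ℕ := ∏ j, q j with hMdef
  have hM : 0 < M := Finset.prod_pos fun j _ => (hq j).1.pos
  set κ := K + 6 + M with hκ
  obtain ⟨lam, rho, nu1, hlen1, -, hsnd1, hcmp1, hfs⟩ := H1 q
    (fun j => (hq j).1.odd_of_ne_two (by have := (hq j).2; omega))
    (fun i j hij => (Nat.coprime_primes (hq i).1 (hq j).1).2 (fun e => hij (hqi e))) κ β ph hph
  rw [← hMdef] at hlen1 hcmp1 hfs
  set N := Grid_390.Am M κ m with hN
  set A1 := Grid_390.Am M κ (m + 1) with hA1
  have hcard : Ms.card ≤ k := by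
    refine le_trans Finset.card_image_le ?_
    rw [Finset.card_univ, Fintype.card_fin]
  have hMs : ∀ p ∈ Ms, p.Prime ∧ 2 ^ (K + 1) + 3 ≤ p := by
    intro p hp
    rw [hMsdef, Finset.mem_image] at hp
    obtain ⟨j, -, rfl⟩ := hp
    exact hq j
  obtain ⟨x, hxN, hthin⟩ := thinN (N := N) (m := m) hM hcard hMs (le_refl κ)
  have hx : 0 < x := by omega
  let c : ℕ → ℕ := fun i => x * 2 ^ i
  obtain ⟨lamE, rhoE, nuE, hsE, hcE⟩ := H2 c (fun i j hij _ =>
    Nat.mul_lt_mul_of_pos_left (Nat.pow_lt_pow_right (by norm_num) hij) hx)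
  set p0 := x * 2 ^ K with hp0
  have hcp : ∀ i < K, c i ≤ p0 := fun i hi =>
    Nat.mul_le_mul_left _ (Nat.pow_le_pow_right (by norm_num) hi.le)
  obtain ⟨n, Sw, hn, hSw, hgap, hReg, hHL⟩ := P4_111.p4.{0, 0} β (2 * (N + p0) + 1) (by omega)
  let Wo : List β → Prop := P4_111.Wo n Sw
  have hW : JointSem_814.Walls n (2 * (N + p0)) Wo := by
    refine ⟨fun P Q h => P4_111.Wo.app P Q h, fun Q h => h.1, ?_⟩
    intro X s t h1 h2 h3 h4 h5
    have := hgap X s t h1 h3 h4 h5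
    omega
  set z := 3 * p0 + 2 * A1 + N + n + 1 with hz
  have hNA : N ≤ A1 := Am_le (Nat.le_succ m)
  let lam2 : ℕ → List β → Option V := lamE
  let rho2 : ℕ → List β → Option V := fun i Q => rhoE i Q 1
  let nu2 : List β → V := fun u => nuE u 1
  have hex : ∀ i < K, ∀ (P Q : List β) (v b : V), P.length = c i → lam2 i P = some v →
      rho2 i Q = some b → b = act v (ph (P ++ Q)) + nu2 (P ++ Q) := by
    intro i hi P Q v b h1 h2 h3
    have := hsE i hi P Q 1 v b h1 h2 h3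
    rw [mul_one] at this
    exact this
  have hco : ∀ (u : List β) (v : V), (∀ i < K, c i ≤ u.length) →
      ∃ I : Finset ℕ, 2 + 2 * C0 ≤ I.card ∧ ∀ i ∈ I, i < K ∧ lam2 i (u.take (c i)) = some v ∧
        (rho2 i (u.drop (c i))).isSome := fun u v h => hcE u 1 v h
  have hcompl : ∀ u : List β, 2 * A1 ≤ u.length → ¬ BadN Ms m κ M u.length → ∀ v, ∃ p q,
      p ++ q = u ∧ lam p = some v ∧ (rho q).isSome := by
    intro u hu hb v
    obtain ⟨c1, c2⟩ := clean_of hb
    obtain ⟨P, Q, h1, h2, h3⟩ := hcmp1 u hu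
      (fun j => c1 _ (Finset.mem_image_of_mem q (Finset.mem_univ j)))
      (fun j hj1 hj2 => c2 j hj1 hj2
        (le_trans (Am_le (show j ≤ m + 1 by omega)) (by omega))) v
    exact ⟨P, Q, h1.symm, h2, h3⟩
  have hlamN : ∀ p v, lam p = some v → p.length ≤ N := fun p v h => (hlen1 p v h).1.le
  have hsound : ∀ p q v r, lam p = some v → rho q = some r →
      r = act v (ph (p ++ q)) + nu1 (p ++ q) := fun p q v r h1 h2 => hsnd1 p q v r h1 h2
  have hspoil : ∀ U : List β, 2 * z ≤ U.length → ∃ J : Finset ℕ, J.card < 2 + 2 * C0 ∧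
      ∀ i < K, JointSem_814.Spoiled Wo z p0 N K c (BadN Ms m κ M) U i → i ∈ J := by
    intro U _
    obtain ⟨J, hJ, hJ2⟩ := JointSem_814.spoil (C0 := C0) (T0 := p0) hW le_rfl
      (show 2 * p0 + p0 + N ≤ z by omega) hcp
      (fun a b a' b' _ _ _ _ hab hab' h1 h2 => golomb hxN hab hab' h1 h2)
      (BadT := BadN Ms m κ M) (fun T hT => hthin T hT) U
    exact ⟨J, by omega, hJ2⟩
  let D : SemTop_727.Sch β V :=
    { XX := JointSem_814.XX Wo z
      T := JointSem_814.T p0 ph act nu1 nu2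
      L1 := JointSem_814.L1 p0 ph act nu2 lam
      L2 := JointSem_814.L2 K c lam2 }
  have hC2 : ∀ X1 ∈ D.Bad, ∀ X2 ∈ D.Bad, ∀ x, ∃ P ∈ D.L2 x, ∃ Q ∈ D.R2 (D.T (D.T x X1) X2),
      P ++ Q = X1 ++ X2 := by
    intro X1 h1 X2 h2 x
    exact JointSem_814.compl2 (N := N) (N0 := 2 * A1) (R := 2 + 2 * C0) hW
      (show p0 + N + n ≤ z by omega) (show p0 + 2 * A1 ≤ z by omega) hlamN hsound hcompl hcp
      hex hco hspoil (X1 := X1) (X2 := X2) h1.1 h2 x
  have hXe : ∀ X : List β, X ∈ JointSem_814.XX Wo z ↔ X ∈ P4_111.XX n Sw z := fun X =>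
    ⟨fun h => ⟨h.2.1, h.1, h.2.2⟩, fun h => ⟨h.2.1, h.1, h.2.2⟩⟩
  have hC : Blk467.PCode D.XX := by
    refine ⟨fun h => ?_, fun X hX Y hY h => JointSem_814.XX_code hX hY h⟩
    have h1 : z ≤ ([] : List β).length := h.2.1
    simp at h1
  -- finite state of the zone map
  have hMo : 0 < M * Grid_390.G κ m := Nat.mul_pos hM (Nat.pow_pos (by norm_num))
  have key : ∀ (v : V) (X X' : List β), z ≤ X.length → z ≤ X'.length →
      X.take (p0 + A1) = X'.take (p0 + A1) →
      ((X.drop (p0 + A1)).map φ).prod = ((X'.drop (p0 + A1)).map φ).prod →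
      X.length % (M * Grid_390.G κ m) = X'.length % (M * Grid_390.G κ m) →
      D.T v X = D.T v X' := by
    intro v X X' hl hl' h1 h2 h3
    have e0 : X.take p0 = X'.take p0 := by
      have := congrArg (List.take p0) h1
      rw [List.take_take, List.take_take, min_eq_left (by omega)] at this
      exact this
    have e1 : (X.drop p0).take A1 = (X'.drop p0).take A1 := by
      have := congrArg (List.drop p0) h1
      rw [List.drop_take, List.drop_take, Nat.add_sub_cancel_left] at this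
      exact this
    have e2 : ph ((X.drop p0).drop A1) = ph ((X'.drop p0).drop A1) := by
      rw [List.drop_drop, List.drop_drop]
      exact h2
    have e3 : ph (X.drop p0) = ph (X'.drop p0) := by
      rw [← List.take_append_drop A1 (X.drop p0), ← List.take_append_drop A1 (X'.drop p0), hph,
        hph, e1, e2]
    have e4 : (X.drop p0).length % (M * Grid_390.G κ m) =
        (X'.drop p0).length % (M * Grid_390.G κ m) := by
      rw [List.length_drop, List.length_drop]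
      have h5 : X.length - p0 + p0 ≡ X'.length - p0 + p0 [MOD M * Grid_390.G κ m] := by
        rw [Nat.sub_add_cancel (by omega), Nat.sub_add_cancel (by omega)]
        exact h3
      exact Nat.ModEq.add_right_cancel' p0 h5
    have e5 := (hfs (X.drop p0) (X'.drop p0) (by rw [List.length_drop]; omega)
      (by rw [List.length_drop]; omega) e1 e4 e2).2
    show JointSem_814.T p0 ph act nu1 nu2 v X = JointSem_814.T p0 ph act nu1 nu2 v X'
    unfold JointSem_814.T
    rw [e0, e3, e5]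
  have hfib : ∀ x y, HL 1 (D.fib x y) := by
    intro x y
    have hreg := P4_911.Reg.cls φ (p0 + A1) (M * Grid_390.G κ m) hMo
      (fun a t r => ∃ X' : List β, z ≤ X'.length ∧ X'.take (p0 + A1) = a ∧
        ((X'.drop (p0 + A1)).map φ).prod = t ∧ X'.length % (M * Grid_390.G κ m) = r ∧
        D.T x X' = y)
    refine (hReg z _ hreg).1.congr fun X => ?_
    constructor
    · rintro ⟨hX, hT⟩
      exact ⟨(hXe X).1 hX, X, hX.2.1, rfl, rfl, rfl, hT⟩
    · rintro ⟨hX, X', h1, h2, h3, h4, h5⟩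
      refine ⟨(hXe X).2 hX, ?_⟩
      rw [← h5]
      exact key x X X' hX.1 h1 h2.symm h3.symm h4.symm
  have htail : ∀ t : S, HL (1 + 2)
      ({w | (∀ X ∈ D.XX, ¬ X <+: w) ∧ (w.map φ).prod = t} : Language β) := by
    intro t
    have h := (hHL z S φ 0 1 Nat.one_pos (fun _ _ r => r = t)).2
    refine (h.mono (by norm_num)).congr fun w => ?_
    constructor
    · rintro ⟨h1, h2⟩
      exact ⟨fun Y hY => h1 Y ((hXe Y).2 hY), h2⟩
    · rintro ⟨h1, h2⟩
      exact ⟨fun Y hY => h1 Y ((hXe Y).1 hY), h2⟩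
  have hL1 : ∀ x, (D.L1 x).Finite := by
    intro x
    refine (List.finite_length_le β (p0 + N)).subset ?_
    rintro P ⟨h1, h2⟩
    have := hlamN _ _ h2
    rw [List.length_drop] at this
    show P.length ≤ p0 + N
    omega
  have hL2 : ∀ x, (D.L2 x).Finite := by
    intro x
    refine (List.finite_length_le β p0).subset ?_
    rintro P ⟨i, hi, h1, h2⟩
    show P.length ≤ p0
    rw [h1]
    exact hcp i hi
  have hT : ∀ v X, D.T v X = act v (X.map φ).prod +
      (act (nu2 (X.take p0)) (ph (X.drop p0)) + nu1 (X.drop p0)) := by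
    intro v X
    show JointSem_814.T p0 ph act nu1 nu2 v X = _
    unfold JointSem_814.T
    have h1 : (X.map φ).prod = ph (X.take p0) * ph (X.drop p0) := by
      rw [← hph, List.take_append_drop]
    rw [h1, hmul, hadd, add_assoc]
  exact SemTop_727.top (k := 1) act hadd hone hmul hfaith φ
    (fun X => act (nu2 (X.take p0)) (ph (X.drop p0)) + nu1 (X.drop p0)) D hT hC hfib hL1 hL2 hC2
    htail s

/-- **ROW 320.** -/
theorem final {α : Type*} [Finite α] (L : Language α) (hL : L.IsRegular) :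
    ∃ e : Crest.RegLang.GRegExp α, e.height ≤ 3 ∧ e.lang = L :=
  Univ_582.final (k := 3) fibre α L hL

end Crest.Agent.R320.Fin_218
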