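import Crest.Agent.R320.FinA_22
import Crest.Agent.R320.FinB_22
import Crest.Agent.R320.ExactR_237
import Crest.Agent.R320.LWallAll_922

/-! Row 320, join (helper22): every regular language (finite monoid form) has generalized star
height at most three. -/

set_option autoImplicit false

namespace Crest.Agent.R320.Fin_22

open Crest.RegLang Crest.Agent.R320.Hk_851 Crest.Agent.R320.Sc2n_937
open Crest.Agent.R320.Grid_899 (G Am G_pos G_dvd Am_mono)

theorem coreBad {Pq κ m : ℕ} {T : ℕ} (hT : Am Pq κ (m + 1) ≤ T) (Ms : Finset ℕ)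
    (hb : ¬ Thin963.BadT Ms m (fun i => (G κ i : ℤ)) (fun i => ((Pq * G κ i : ℕ) : ℤ))
      (fun i => (Am Pq κ i : ℤ)) (T : ℤ)) :
    (∀ p ∈ Ms, ¬ p ∣ T) ∧ ∀ j, 1 ≤ j → j ≤ m →
      Pq * G κ (j - 1) ≤ (T - Am Pq κ j) % G κ j ∧
      (T - Am Pq κ j) % G κ j + Pq * G κ (j - 1) ≤ G κ j := by
  refine ⟨fun p hp hd => hb (Or.inl ⟨p, hp, by exact_mod_cast hd⟩), ?_⟩
  intro j hj1 hjm
  obtain ⟨i, rfl⟩ : ∃ i, j = i + 1 := ⟨j - 1, by omega⟩
  have hA : Am Pq κ (i + 1) ≤ T := le_trans (Am_mono (by omega)) hT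
  have hsub : ((T - Am Pq κ (i + 1) : ℕ) : ℤ) = (T : ℤ) - Am Pq κ (i + 1) := by
    rw [Nat.cast_sub hA]
  have hmod := Nat.div_add_mod (T - Am Pq κ (i + 1)) (G κ (i + 1))
  have hlt := Nat.mod_lt (T - Am Pq κ (i + 1)) (G_pos (κ := κ) (i + 1))
  set r := (T - Am Pq κ (i + 1)) % G κ (i + 1) with hr
  have hmodz : (G κ (i + 1) : ℤ) * (((T - Am Pq κ (i + 1)) / G κ (i + 1) : ℕ) : ℤ) + (r : ℤ) =
      (T : ℤ) - Am Pq κ (i + 1) := by
    rw [← hsub]; exact_mod_cast hmod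
  have hi : i + 1 - 1 = i := by omega
  rw [hi]
  constructor
  · by_contra hlt'
    push Not at hlt'
    refine hb (Or.inr ⟨i, by omega, -(r : ℤ), ?_, ?_⟩)
    · rw [abs_neg, abs_of_nonneg (by positivity)]
      show (r : ℤ) ≤ ((Pq * G κ i : ℕ) : ℤ)
      exact_mod_cast hlt'.le
    · refine ⟨(((T - Am Pq κ (i + 1)) / G κ (i + 1) : ℕ) : ℤ), ?_⟩
      show (T : ℤ) - Am Pq κ (i + 1) + -(r : ℤ) = (G κ (i + 1) : ℤ) * _
      linarith
  · by_contra hlt'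
    push Not at hlt'
    refine hb (Or.inr ⟨i, by omega, (G κ (i + 1) : ℤ) - r, ?_, ?_⟩)
    · have h0 : (r : ℤ) < G κ (i + 1) := by exact_mod_cast hlt
      rw [abs_of_nonneg (by linarith)]
      show (G κ (i + 1) : ℤ) - r ≤ ((Pq * G κ i : ℕ) : ℤ)
      have : (G κ (i + 1) : ℤ) < (r : ℤ) + ((Pq * G κ i : ℕ) : ℤ) := by exact_mod_cast hlt'
      linarith
    · refine ⟨(((T - Am Pq κ (i + 1)) / G κ (i + 1) : ℕ) : ℤ) + 1, ?_⟩
      show (T : ℤ) - Am Pq κ (i + 1) + ((G κ (i + 1) : ℤ) - r) = (G κ (i + 1) : ℤ) * _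
      linarith

theorem per {Pq κ m : ℕ} (Ms : Finset ℕ) (hMs : ∀ p ∈ Ms, p ∣ Pq) {t t' : ℕ}
    (h : t ≡ t' [MOD Pq * G κ m])
    (hb : Thin963.BadT Ms m (fun i => (G κ i : ℤ)) (fun i => ((Pq * G κ i : ℕ) : ℤ))
      (fun i => (Am Pq κ i : ℤ)) (t : ℤ)) :
    Thin963.BadT Ms m (fun i => (G κ i : ℤ)) (fun i => ((Pq * G κ i : ℕ) : ℤ))
      (fun i => (Am Pq κ i : ℤ)) (t' : ℤ) := by
  have hd : ((Pq * G κ m : ℕ) : ℤ) ∣ (t' : ℤ) - t := (Nat.modEq_iff_dvd).1 h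
  rcases hb with ⟨p, hp, h1⟩ | ⟨i, hi, e, he, h1⟩
  · left
    refine ⟨p, hp, ?_⟩
    have h2 : (p : ℤ) ∣ ((Pq * G κ m : ℕ) : ℤ) := by
      exact_mod_cast Dvd.dvd.mul_right (hMs p hp) _
    have h3 := dvd_add h1 (h2.trans hd)
    have e3 : (t : ℤ) + ((t' : ℤ) - t) = t' := by ring
    rwa [e3] at h3
  · right
    refine ⟨i, hi, e, he, ?_⟩
    have h2 : (G κ (i + 1) : ℤ) ∣ ((Pq * G κ m : ℕ) : ℤ) := by
      exact_mod_cast Dvd.dvd.mul_left (G_dvd (κ := κ) (show i + 1 ≤ m by omega)) _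
    have h3 := dvd_add h1 (h2.trans hd)
    have e3 : (t : ℤ) - (Am Pq κ (i + 1) : ℤ) + e + ((t' : ℤ) - t) =
        (t' : ℤ) - (Am Pq κ (i + 1) : ℤ) + e := by ring
    rwa [e3] at h3

theorem free_mem {α : Type} {u a x b : List α} {k B W : ℕ} (ha : a.length ≤ B)
    (hx : x.length ≤ W) (hb : b.length ≤ B) (h : u = a ++ (List.replicate k x).flatten ++ b) :
    u ∈ (BddReg_746.PN (max B W) 2 : Language α) := by
  rw [h]
  refine Language.mem_mul.2 ⟨a ++ (List.replicate k x).flatten,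
    ⟨a, x, k, le_trans ha (le_max_left _ _), le_trans hx (le_max_right _ _), rfl⟩, b, ?_, rfl⟩
  refine Language.mem_mul.2 ⟨b, ⟨b, [], 0, le_trans hb (le_max_left _ _), by simp, ?_⟩, [],
    rfl, by simp⟩
  simp [BddReg_746.pw]

theorem fin (α : Type) [Finite α] (S : Type) [Monoid S] [Finite S] (φ : α → S) (s : S) :
    HL 3 ({w | (w.map φ).prod = s} : Language α) := by
  classical
  have : Fintype S := Fintype.ofFinite S
  obtain ⟨act, hadd, hone, hmul, hfaith⟩ := Blk467.exists_module S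
  have : Fintype (S → ZMod 2) := Fintype.ofFinite _
  obtain ⟨k, m, H⟩ := Grid_899.grid_gadget_reg S (S → ZMod 2) act
  obtain ⟨K, HK⟩ := ExactR_237.exact_gadget α S (S → ZMod 2) φ act (2 * (k + m) + 2)
  obtain ⟨q, hinj, hq⟩ := FinA_22.exists_primes k (2 ^ (K + 1))
  obtain ⟨κ, hκ⟩ : ∃ κ, κ = K + 5 + ∏ j, q j := ⟨_, rfl⟩
  have hphi : ∀ u v : List α, ((u ++ v).map φ).prod = (u.map φ).prod * (v.map φ).prod := by
    intro u v; rw [List.map_append, List.prod_append]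
  obtain ⟨lam, rho, nu0, g1, g2, g3, g4, g5⟩ := H q
    (fun j => (hq j).1.odd_of_ne_two (by have := (hq j).2.2; omega))
    (fun i j hij => (Nat.coprime_primes (hq i).1 (hq j).1).2 (fun h => hij (hinj h))) κ α
    (fun u => (u.map φ).prod) hphi
  obtain ⟨nu1, n1, n2⟩ := FinA_22.gadget act (fun u => (u.map φ).prod) hphi
    (Am (∏ j, q j) κ m) (Am (∏ j, q j) κ (m + 1)) ((∏ j, q j) * G κ m) lam rho nu0 g1 g2 g3 g5
  obtain ⟨X, hX0, hX1, hX2⟩ := FinA_22.ruler K m k q hinj hq κ hκ.ge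
    (2 * (Am (∏ j, q j) κ m + 1) + 1)
  have hPpos : 0 < ∏ j, q j := Finset.prod_pos fun j _ => (hq j).1.pos
  obtain ⟨Pq, hPq⟩ : ∃ Pq, Pq = ∏ j, q j := ⟨_, rfl⟩
  rw [← hPq] at hκ g1 g2 g4 g5 n2 hX0 hX2 hPpos
  obtain ⟨N1, hN1⟩ : ∃ N1, N1 = Am Pq κ m + 1 := ⟨_, rfl⟩
  rw [← hN1] at hX0
  obtain ⟨c, hcdef⟩ : ∃ c : ℕ → ℕ, c = fun j => X * 2 ^ j := ⟨_, rfl⟩
  have hcv : ∀ j, c j = X * 2 ^ j := fun j => by rw [hcdef]
  have hcmono : ∀ i j, i < j → c i < c j := by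
    intro i j hij
    rw [hcv, hcv]
    exact Nat.mul_lt_mul_of_pos_left (Nat.pow_lt_pow_right (by norm_num) hij) hX1
  obtain ⟨lam2, rho2, nu2, b1, b2⟩ := HK c (fun i j hij _ => hcmono i j hij)
  obtain ⟨p0, hp0⟩ : ∃ p0, p0 = c K := ⟨_, rfl⟩
  have hcp : ∀ j, j < K → c j ≤ p0 := fun j hj => by rw [hp0]; exact (hcmono j K hj).le
  obtain ⟨n, Gw, Bw, Wo, hLW, w1, w2, w3, w4⟩ := LWallAll_922.walls_all_left α
    (2 * p0 + 2 * N1) (by omega)
  obtain ⟨q0, hq0⟩ : ∃ q0, q0 = n + 2 * p0 + 2 * Am Pq κ (m + 1) := ⟨_, rfl⟩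
  let g : Geo α :=
    { Wo := Wo, n := n, z := p0 + N1 + q0, p0 := p0, q0 := q0, N1 := N1, loc := hLW.app,
      hz := rfl, hq := by omega, hN := by omega, hqp := by omega }
  let BadT : ℕ → Prop := fun t => Thin963.BadT (Finset.univ.image q) m (fun i => (G κ i : ℤ))
    (fun i => ((Pq * G κ i : ℕ) : ℤ)) (fun i => (Am Pq κ i : ℤ)) (t : ℤ)
  have hMs : ∀ p ∈ Finset.univ.image q, p ∣ Pq := by
    intro p hp
    obtain ⟨j, -, rfl⟩ := Finset.mem_image.1 hp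
    rw [hPq]
    exact Finset.dvd_prod_of_mem q (Finset.mem_univ j)
  have hG := G_pos (κ := κ) m
  obtain ⟨hCT, hBT, htail⟩ := FinB_22.hl_families act φ g nu1 (fun u => nu2 u 1) BadT
    (Am Pq κ m + Am Pq κ (m + 1)) (Pq * G κ m) (Nat.mul_pos hPpos hG) hLW.len
    (by
      intro u u' h1 h2 h3 h4 h5
      exact n2 u u' h1 h2 h3 h4 h5)
    (fun t t' h => ⟨per _ hMs h, per _ hMs h.symm⟩)
    (B := max Bw (2 * p0 + 2 * N1)) (R := 2)
    (by
      intro u hu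
      obtain ⟨a, x, b, j, ha, hx, hb, e⟩ := w4 u hu
      exact free_mem ha hx hb e)
  refine FinB_22.core act hadd hone hmul hfaith φ g lam rho nu1 K c lam2
    (fun j Q => rho2 j Q 1) (fun u => nu2 u 1) BadT (k + m) ?_ n1 ?_ hcp ?_ ?_ ?_ ?_ ?_ hCT hBT
    htail s
  · intro P v hl
    have := (g1 P v hl).1
    show P.length ≤ N1
    omega
  · intro Y hY hb u
    have hY' : p0 + N1 + q0 ≤ Y.length := hY
    have hlen : (Y.drop p0).length = Y.length - p0 := List.length_drop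
    have hb' : ¬ BadT (Y.length - p0) := hb
    obtain ⟨k1, k2⟩ := coreBad (m := m) (Pq := Pq) (κ := κ) (T := Y.length - p0) (by omega)
      (Finset.univ.image q) hb'
    exact g4 (Y.drop p0) (by rw [hlen]; omega)
      (fun j => by rw [hlen]; exact k1 _ (Finset.mem_image_of_mem q (Finset.mem_univ j)))
      (by rw [hlen]; exact k2) u
  · intro j hj P Q v u hP _ hl hr
    have := b1 j hj P Q 1 v u hP hl hr
    rw [mul_one] at this
    exact this
  · intro Y v hY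
    have hY' : p0 ≤ Y.length := hY
    obtain ⟨I, hI, hI'⟩ := b2 (Y.take p0) 1 v (by
      intro j hj
      rw [List.length_take, Nat.min_eq_left hY']
      exact hcp j hj)
    refine ⟨I, hI, fun j hj => ?_⟩
    obtain ⟨l1, l2, l3⟩ := hI' j hj
    rw [List.take_take, Nat.min_eq_left (hcp j l1)] at l2
    exact ⟨l1, l2, l3⟩
  · intro P Q hP hPQ hQ
    show 2 * p0 + 2 * N1 < Q.length
    have hlen : 0 < Q.length := List.length_pos_iff.2 hQ
    have := w1 (P ++ Q) P.length (P.length + Q.length) (by omega) (by simp)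
      (by rw [List.take_left]; exact hP)
      (by rw [List.take_of_length_le (by simp)]; exact hPQ)
    omega
  · intro a a' b b' ha ha' hb hb' haa hbb h1 h2
    have h1' : c a + c b' < c b + c a' + 2 * N1 := h1
    have h2' : c b + c a' < c a + c b' + 2 * N1 := h2
    simp only [hcv] at h1' h2'
    have hz1 : (X : ℤ) * ((2 ^ a + 2 ^ b') - (2 ^ b + 2 ^ a')) < 2 * N1 := by
      have : ((X * 2 ^ a + X * 2 ^ b' : ℕ) : ℤ) < ((X * 2 ^ b + X * 2 ^ a' + 2 * N1 : ℕ) : ℤ) := by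
        exact_mod_cast h1'
      push_cast at this
      linarith
    have hz2 : (X : ℤ) * ((2 ^ b + 2 ^ a') - (2 ^ a + 2 ^ b')) < 2 * N1 := by
      have : ((X * 2 ^ b + X * 2 ^ a' : ℕ) : ℤ) < ((X * 2 ^ a + X * 2 ^ b' + 2 * N1 : ℕ) : ℤ) := by
        exact_mod_cast h2'
      push_cast at this
      linarith
    have hXz : (2 * N1 : ℤ) < X := by
      have : ((2 * N1 + 1 : ℕ) : ℤ) ≤ X := by exact_mod_cast hX0
      push_cast at this
      linarith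
    have h0 : ((2 : ℤ) ^ a + 2 ^ b') - (2 ^ b + 2 ^ a') = 0 := by
      rcases lt_trichotomy (((2 : ℤ) ^ a + 2 ^ b') - (2 ^ b + 2 ^ a')) 0 with h | h | h
      · exfalso
        have h3 : 1 ≤ ((2 : ℤ) ^ b + 2 ^ a') - (2 ^ a + 2 ^ b') := by linarith
        nlinarith
      · exact h
      · exfalso
        have h3 : 1 ≤ ((2 : ℤ) ^ a + 2 ^ b') - (2 ^ b + 2 ^ a') := by linarith
        nlinarith
    exact (G369.pow_diff (i := a) (j := a') (i' := b) (j' := b') (Ne.symm haa) (Ne.symm hbb)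
      (by linarith)).1
  · intro τ hτ J hJ
    have hτ' : p0 + N1 + q0 ≤ τ + p0 := hτ
    refine hX2 ((τ : ℤ) - p0) J ?_
    intro a ha
    obtain ⟨haK, b, hbK, hba, hbad⟩ := hJ a ha
    refine ⟨haK, b, hbK, hba, ?_⟩
    have hbad' : Thin963.BadT (Finset.univ.image q) m (fun i => (G κ i : ℤ))
      (fun i => ((Pq * G κ i : ℕ) : ℤ)) (fun i => (Am Pq κ i : ℤ))
      ((τ + c b - c a - p0 : ℕ) : ℤ) := hbad
    have hca := hcp a haK
    have e : ((τ + c b - c a - p0 : ℕ) : ℤ) = (τ : ℤ) - p0 + X * 2 ^ b - X * 2 ^ a := by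
      have e1 : τ + c b - c a - p0 + (c a + p0) = τ + c b := by omega
      have e2 : ((τ + c b - c a - p0 : ℕ) : ℤ) + ((c a : ℤ) + p0) = (τ : ℤ) + c b := by
        exact_mod_cast e1
      have e3 : (c a : ℤ) = X * 2 ^ a := by rw [hcv]; push_cast; ring
      have e4 : (c b : ℤ) = X * 2 ^ b := by rw [hcv]; push_cast; ring
      rw [e3, e4] at e2
      linarith
    rw [e] at hbad'
    exact hbad'

end Crest.Agent.R320.Fin_22
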