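import Crest.Agent.R320.C12_790
import Crest.Agent.R320.HZ_847
import Crest.Agent.R320.G1_852
import Crest.Agent.R320.ExactR_237
import Crest.Agent.R320.Univ_582
import Crest.Agent.R320.Sp_221
import Crest.Agent.R320.Bridge_975
import Crest.Agent.R320.Two_621

/-!
# Row 320, final assembly (helper221)

110 `top_sem` + 790 (C1, C2) + 847 (H1 - H4) + 852 (gadget 1) + 237 (exact gadget) + 228 (walls)
+ Sp_221 (ruler).
-/

set_option autoImplicit false

namespace Crest.Agent.R320.Fin_221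

open Crest.RegLang Crest.Agent.R320.Hk_851 Crest.Agent.R320.Code110

/-- the bad totals are periodic -/
theorem bad_per (Ms : Finset ℕ) (M m b : ℕ) (hMs : ∀ k ∈ Ms, k ∣ M) (hb : 0 < b) (t : ℕ) :
    Sp_221.Bad Ms M m b (t + M * b ^ m) ↔ Sp_221.Bad Ms M m b t := by
  have h1 : ∀ k ∈ Ms, (k ∣ t + M * b ^ m ↔ k ∣ t) := fun k hk =>
    (Nat.dvd_add_iff_left (Dvd.dvd.mul_right (hMs k hk) _)).symm
  have h2 : ∀ j < m, (t + M * b ^ m) / b ^ j % b = t / b ^ j % b := by
    intro j hj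
    obtain ⟨d, rfl⟩ : ∃ d, m = j + (d + 1) := ⟨m - j - 1, by omega⟩
    have e1 : M * b ^ (j + (d + 1)) = b ^ j * (b * (M * b ^ d)) := by
      rw [pow_add, pow_succ]; ring
    rw [e1, Nat.add_mul_div_left _ _ (pow_pos hb j), Nat.add_mul_mod_self_left]
  unfold Sp_221.Bad
  constructor
  · rintro (⟨k, hk, h⟩ | ⟨j, hj, h⟩)
    · exact Or.inl ⟨k, hk, (h1 k hk).1 h⟩
    · exact Or.inr ⟨j, hj, by rw [h2 j hj] at h; exact h⟩
  · rintro (⟨k, hk, h⟩ | ⟨j, hj, h⟩)
    · exact Or.inl ⟨k, hk, (h1 k hk).2 h⟩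
    · exact Or.inr ⟨j, hj, by rw [h2 j hj]; exact h⟩

theorem bad_eq {α : Type} {n z N1 p0 : ℕ} {Sw : Set (List α)} {BadT : ℕ → Prop} :
    C12_790.Bad (WallU_228.Wo n Sw) z N1 p0 BadT = HZ847.Bad n Sw z p0 N1 BadT := by
  ext u
  constructor
  · rintro ⟨hu, (h | ⟨t, h1, h2, h3⟩) | h⟩
    · refine ⟨hu, Or.inl ⟨u.length, ?_, h, le_rfl, ?_⟩⟩
      · have := hu.1; omega
      · rw [List.take_length]; exact hu.2.1
    · exact ⟨hu, Or.inl ⟨t, h1, by omega, by have := hu.1; omega, h3⟩⟩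
    · exact ⟨hu, Or.inr h⟩
  · rintro ⟨hu, ⟨t, h1, h2, h3, h4⟩ | h⟩
    · refine ⟨hu, Or.inl ?_⟩
      by_cases ht : t < z
      · exact Or.inr ⟨t, h1, ht, h4⟩
      · left
        by_cases h5 : t < u.length
        · exact absurd h4 (hu.2.2 t (by omega) h5)
        · omega
    · exact ⟨hu, Or.inr h⟩

theorem main (β : Type) [Finite β] (S : Type) [Monoid S] [Finite S] (f : β → S) (s : S) :
    HL 3 ({w | (w.map f).prod = s} : Language β) := by
  classical
  haveI : Fintype S := Fintype.ofFinite S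
  let V := Two_621.Tok S
  haveI : Fintype V := Fintype.ofFinite V
  let act : V → S → V := Two_621.act
  -- gadget 1
  obtain ⟨m, r, hG⟩ := G1_852.gadget (S := S) (V := V) act
  -- exact gadget
  obtain ⟨K, hK⟩ := ExactR_237.exact_gadget β S V f act (2 + 2 * (r + m))
  obtain ⟨Ms, M, hcard, hMs, hM, hG2⟩ := hG (4 ^ K)
  set b : ℕ := M * (8 * 4 ^ K + 2) + 1 with hbdef
  have hb0 : 0 < b := by omega
  have hcop : Nat.Coprime b M := by
    rw [hbdef, Nat.Coprime, Nat.gcd_comm]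
    have : Nat.Coprime M (M * (8 * 4 ^ K + 2) + 1) := by
      rw [Nat.coprime_mul_left_add_right]
      exact Nat.coprime_one_right M
    exact this
  obtain ⟨lam, rho, nu1, g1, g2, g3, g4⟩ := hG2 b hb0 hcop β f
  set N1 : ℕ := b ^ m with hN1
  -- ruler
  obtain ⟨c, c1, c2, c3⟩ := Sp_221.spoil Ms M m K N1 b hM
    (fun k hk => ⟨(hMs k hk).1.le, (hMs k hk).2.2⟩) (by omega) hcop
  have hcmono : ∀ i j, i < j → c i < c j := fun i j h => by have := c1 i j h; omega
  obtain ⟨lam2, rho2, nu2, e1, e2⟩ := hK c (fun i j h _ => hcmono i j h)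
  set p0 : ℕ := c K with hp0
  have hc : ∀ k < K, c k ≤ p0 := fun k hk => (hcmono k K hk).le
  -- walls
  obtain ⟨n, cc, P, Sw, hn, hP, wloc, wgap, -, -, wfew⟩ :=
    WallU_228.walls_full (α := β) (2 * p0 + 2 * N1)
  have hw : C12_790.Walls (WallU_228.Wo n Sw) n (2 * p0 + 2 * N1) := by
    refine ⟨wloc, ?_⟩
    intro w i t hit htw hi ht
    by_contra hcon
    have := wgap (w.take t) (t - i) ht (by omega) (by omega)
    rw [List.length_take, min_eq_left htw, List.take_take, min_eq_left (by omega)] at this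
    rw [show t - (t - i) = i by omega] at this
    exact this hi
  have hF : HZ847.Few n Sw := wfew
  set z : ℕ := 2 * p0 + 2 * N1 + n + p0 + 1 with hz
  let φ : List β → S := fun w => (w.map f).prod
  have hφ0 : φ [] = 1 := by simp [φ]
  have hφ : ∀ u w, φ (u ++ w) = φ u * φ w := by intro u w; simp [φ]
  have hactm : ∀ v s t, act v (s * t) = act (act v s) t := fun v s t =>
    (Two_621.act_mul v s t).symm
  have hadd : ∀ v w s, act (v + w) s = act v s + act w s := fun v w s => Two_621.act_add v w s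
  have hsubm : ∀ v w s, act v s - act w s = act (v - w) s := by
    intro v w s
    have := hadd (v - w) w s
    rw [sub_add_cancel] at this
    rw [this, add_sub_cancel_right]
  let BT : ℕ → Prop := Sp_221.Bad Ms M m b
  let nu2' : List β → V := fun P => nu2 P 1
  have hnu : ∀ y : V, Language.IsRegular ({w | nu1 w = y} : Language β) := by
    intro y
    refine Bridge_975.reg_of_local f (b ^ m) (M * b ^ m) (Nat.mul_pos hM (pow_pos hb0 m)) _ ?_
    intro q q2 _ _ h1 h2 h3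
    show nu1 q = y ↔ nu1 q2 = y
    rw [(g4 q q2 h1 h3 h2).2]
  have G1 : ∀ P v, lam P = some v → P.length ≤ N1 := fun P v h => (g1 P v h).le
  have G3 : ∀ u : List β, 0 ≤ u.length → ¬ BT u.length → ∀ v, ∃ P Q, u = P ++ Q ∧
      lam P = some v ∧ (rho Q).isSome := by
    intro u _ hB v
    have h1 : ∀ k ∈ Ms, ¬ k ∣ u.length := fun k hk hd => hB (Or.inl ⟨k, hk, hd⟩)
    have h2 : ∀ j < m, M ≤ u.length / b ^ j % b ∧ u.length / b ^ j % b + M < b := by
      intro j hj
      by_contra hcon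
      exact hB (Or.inr ⟨j, hj, fun h => hcon ⟨h.1, by omega⟩⟩)
    obtain ⟨P, Q, h3, h4, v', h5⟩ := g3 u h1 h2 v
    exact ⟨P, Q, h3, h4, by rw [h5]; rfl⟩
  have hres : ∀ a b' d e, a < K → b' < K → d < K → e < K → a ≠ b' → d ≠ e →
      c a + c e ≤ c b' + c d + 2 * N1 → c b' + c d ≤ c a + c e + 2 * N1 → a = d ∧ b' = e := by
    intro a b' d e ha hb' hd he h1 h2 h3 h4
    refine c2 a b' d e ha hb' hd he h1 h2 ?_
    rw [abs_le]
    constructor <;> omega
  have hspoil : ∀ T, p0 ≤ T → ∀ F : Finset (ℕ × ℕ), (∀ q ∈ F, q.1 < K ∧ q.2 < K ∧ q.1 ≠ q.2 ∧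
      BT (T + c q.2 - c q.1)) → F.card ≤ r + m := by
    intro T hT F hFq
    have h1 := c3 T (fun k hk => (hc k hk).trans hT)
    refine (Finset.card_le_card ?_).trans (h1.trans (by omega))
    intro q hq
    obtain ⟨h2, h3, h4, h5⟩ := hFq q hq
    rw [Finset.mem_filter, Finset.mem_product, Finset.mem_range, Finset.mem_range]
    exact ⟨⟨h2, h3⟩, h4, h5⟩
  have ex2 : ∀ k < K, ∀ (P Q : List β) (v b' : V), P.length = c k → lam2 k P = some v →
      rho2 k Q 1 = some b' → b' = act v (φ (P ++ Q)) + nu2' (P ++ Q) := by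
    intro k hk P Q v b' h1 h2 h3
    have := e1 k hk P Q 1 v b' h1 h2 h3
    rw [mul_one] at this
    exact this
  have cp2 : ∀ (u : List β) (v : V), u.length = p0 → ∃ I : Finset ℕ, 1 + 2 * (r + m) < I.card ∧
      ∀ k ∈ I, k < K ∧ lam2 k (u.take (c k)) = some v ∧ (rho2 k (u.drop (c k)) 1).isSome := by
    intro u v hu
    obtain ⟨I, hI, h⟩ := e2 u 1 v (fun k hk => by rw [hu]; exact hc k hk)
    exact ⟨I, by omega, h⟩
  have hHZ : ∀ x y : V, HL 1 (ZT (HZ847.XX n Sw z) (HZ847.T φ act nu1 nu2' p0) x y) :=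
    HZ847.H3 hF hφ0 hφ (by omega) hnu
  refine Top5_110.top_sem (φ := φ) (act := act) (XX := C12_790.XX (WallU_228.Wo n Sw) z)
    (Bad := C12_790.Bad (WallU_228.Wo n Sw) z N1 p0 BT) (T := C12_790.TM φ act nu2' nu1 p0)
    (N1 := 0) (N2 := 1) (L1 := C12_790.L1 φ act nu2' p0 lam) (L2 := C12_790.L2 K c lam2)
    hφ0 hφ (fun v => Two_621.act_one v) hactm (fun s t h => Two_621.act_faithful h)
    (C12_790.pc (by omega)) (fun u hu => hu.1)
    (fun u _ v v' => C12_790.hT hφ hactm hadd u v v')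
    ((HZ847.hl_XX (n := n) (S := Sw) z).mono (by norm_num)) ?_ hHZ ?_
    (fun v => C12_790.f1 G1 v) (fun v => C12_790.f2 hc v) ?_ ?_ s
  · rw [bad_eq]
    exact HZ847.H2 hF (La := 0) (Pm := M * b ^ m) (Nat.mul_pos hM (pow_pos hb0 m))
      (fun t _ => bad_per Ms M m b (fun k hk => (hMs k hk).2.2) hb0 t)
  · intro s
    exact (HZ847.H4 hF hφ0 hφ s).mono (by norm_num)
  · exact C12_790.c1 hw (N0 := 0) (by omega) G1
      (fun P Q v b' h1 h2 => g2 P Q v b' h1 h2) G3
  · exact C12_790.c2 hw (Tm := p0) (C0 := r + m) (rho2 := fun k Q => rho2 k Q 1) (by omega)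
      (by omega) le_rfl hc
      (fun k _ k' _ h => by
        rcases lt_trichotomy k k' with h1 | h1 | h1
        · have := hcmono k k' h1; omega
        · exact h1
        · have := hcmono k' k h1; omega)
      hres hspoil ex2 cp2

end Crest.Agent.R320.Fin_221
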