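import Crest.Agent.R320.JoinC_224

set_option autoImplicit false

namespace Crest.Agent.R320.Fin_224

open Crest.RegLang Crest.Agent.R320.Hk_851 Crest.Agent.R320.Sc2n_937 Crest.Agent.R320.JoinA_224
  Crest.Agent.R320.JoinB_224 Crest.Agent.R320.JoinC_224
open Crest.Agent.R320.Grid_899 (G Am G_pos G_dvd)

theorem ruler_eq {X : ℤ} {N1 k k' l l' : ℕ} (hX : 2 * (N1 : ℤ) + 1 ≤ X) (h1 : k' ≠ k)
    (h2 : l' ≠ l)
    (h3 : X * 2 ^ k + X * 2 ^ l' < X * 2 ^ l + X * 2 ^ k' + 2 * N1)
    (h4 : X * 2 ^ l + X * 2 ^ k' < X * 2 ^ k + X * 2 ^ l' + 2 * N1) : k = l := by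
  set d : ℤ := ((2 : ℤ) ^ k - 2 ^ k') - (2 ^ l - 2 ^ l') with hd
  have e1 : X * d < 2 * N1 := by rw [hd]; linarith
  have e2 : -(X * d) < 2 * N1 := by rw [hd]; linarith
  have hN : (0 : ℤ) ≤ N1 := Int.natCast_nonneg _
  have hd0 : d = 0 := by
    rcases lt_trichotomy d 0 with h | h | h
    · have : d ≤ -1 := by omega
      nlinarith
    · exact h
    · have : 1 ≤ d := h
      nlinarith
  exact (Crest.Agent.R320.G369.pow_diff (Ne.symm h1) (Ne.symm h2) (by linarith)).1

theorem fin (α : Type) [Finite α] (S : Type) [Monoid S] [Finite S] (φ : α → S) (s : S) :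
    HL 3 ({w | (w.map φ).prod = s} : Language α) := by
  classical
  haveI : Fintype S := Fintype.ofFinite S
  obtain ⟨act, hadd, hone, hmul, hfaith⟩ := Crest.Agent.R320.Blk467.exists_module S
  obtain ⟨k, m, H⟩ := Crest.Agent.R320.Grid_899.grid_gadget_reg S (S → ZMod 2) act
  obtain ⟨K, H2⟩ := Crest.Agent.R320.ExactR_237.exact_gadget α S (S → ZMod 2) φ act
    (2 * (k + m) + 2)
  obtain ⟨q, hqi, hq⟩ := exists_primes k (2 ^ (K + 1) + 3)
  have hodd : ∀ j, Odd (q j) := fun j => (hq j).1.odd_of_ne_two (by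
    have := (hq j).2
    have : 0 < 2 ^ (K + 1) := by positivity
    omega)
  have hcop : Pairwise (fun i j => Nat.Coprime (q i) (q j)) := fun i j hij =>
    (Nat.coprime_primes (hq i).1 (hq j).1).2 fun h => hij (hqi h)
  have hMp : 0 < ∏ j, q j := Finset.prod_pos fun j _ => (hq j).1.pos
  set Mp := ∏ j, q j with hMpd
  obtain ⟨lam, rho, nu, g1, g2, g3, g4, g5⟩ := H q hodd hcop (K + 5 + Mp) α (ph φ) (ph_append φ)
  set κ := K + 5 + Mp with hκ
  set N1 : ℕ := Am Mp κ m + 1 with hN1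
  set A0 : ℕ := Am Mp κ (m + 1) with hA0
  obtain ⟨X, hX0, hXp, hcount⟩ := Crest.Agent.R320.Thin963.thin K m (Finset.univ.image q)
    (fun i => ((G κ i : ℕ) : ℤ)) (fun i => ((Mp * G κ i : ℕ) : ℤ))
    (fun i => ((Am Mp κ i : ℕ) : ℤ))
    (by
      intro p hp
      obtain ⟨j, -, rfl⟩ := Finset.mem_image.1 hp
      exact ⟨(hq j).1, by have := (hq j).2; omega⟩)
    (by
      intro p hp
      obtain ⟨j, -, rfl⟩ := Finset.mem_image.1 hp
      have : Nat.Coprime (q j) (G κ m) := Nat.Coprime.pow_right _ (Nat.coprime_two_right.2 (hodd j))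
      exact Nat.isCoprime_iff_coprime.2 this)
    (by exact_mod_cast G_pos (κ := κ) m)
    (fun i j h => by exact_mod_cast G_dvd (κ := κ) h)
    (fun i => by
      have := Nat.mul_pos hMp (G_pos (κ := κ) i)
      exact_mod_cast this)
    (fun i => by
      have : G κ i ∣ Mp * G κ i := Dvd.intro_left _ rfl
      exact_mod_cast this)
    (fun i _ => grow (K := K) (Mp := Mp) i)
    (2 * (N1 : ℤ) + 1)
  obtain ⟨Xn, rfl⟩ := Int.eq_ofNat_of_zero_le hXp.le
  have hXn : 0 < Xn := by exact_mod_cast hXp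
  let c : ℕ → ℕ := fun j => Xn * 2 ^ j
  have hc : ∀ i j, i < j → c i < c j := fun i j h =>
    Nat.mul_lt_mul_of_pos_left (Nat.pow_lt_pow_right (by norm_num) h) hXn
  obtain ⟨lam2, rho2, nu2, x1, x2⟩ := H2 c (fun i j h _ => hc i j h)
  let p0 : ℕ := c K
  have hcp : ∀ k, k < K → c k ≤ p0 := fun k hk => (hc k K hk).le
  obtain ⟨n, G', B, Wo, hLW, hgapW, -, -, hfree⟩ :=
    Crest.Agent.R320.LWallAll_922.walls_all_left α (2 * p0 + 2 * N1 + 1) (by omega)
  let g : Geo α :=
    { Wo := Wo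
      n := n
      z := p0 + N1 + (n + 2 * p0 + 2 * A0)
      p0 := p0
      q0 := n + 2 * p0 + 2 * A0
      N1 := N1
      loc := hLW.app
      hz := rfl
      hq := by omega
      hN := by omega
      hqp := by omega }
  have gz : g.z = p0 + N1 + (n + 2 * p0 + 2 * A0) := rfl
  have gp0 : g.p0 = p0 := rfl
  have gN1 : g.N1 = N1 := rfl
  have hlen : ∀ P v, lam P = some v → P.length ≤ N1 := fun P v h => by
    have : P.length < Am Mp κ m := (g1 P v h).1
    omega
  have hreg : ∀ Q Q' : List α, Rel φ A0 (Mp * G κ m) Q Q' → rho Q = rho Q' := fun Q Q' h =>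
    g5 Q Q' h.l1 h.l2 h.tk h.pr h.md
  have hnu : ∀ u u' : List α, Rel φ (N1 + A0) (Mp * G κ m) u u' →
      nu' lam rho nu u = nu' lam rho nu u' := fun u u' h =>
    nu'_rel φ act lam rho nu g3 hlen hreg h
  have hfr : ∀ u : List α, (∀ t < u.length, ¬ g.Wo (u.take t)) →
      u ∈ (Crest.Agent.R320.BddReg_746.PN (max B (2 * p0 + 2 * N1 + 1)) 2 : Language α) := by
    intro u hu
    obtain ⟨a, x, b, r, h1, h2, h3, h4⟩ := hfree u hu
    refine Language.mem_mul.2 ⟨a ++ Crest.Agent.R320.BddReg_746.pw x r,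
      ⟨a, x, r, by omega, by omega, rfl⟩, b, ?_, h4.symm⟩
    refine Language.mem_mul.2 ⟨b, ⟨b, [], 0, by omega, by simp, ?_⟩, [], rfl, by simp⟩
    simp [Crest.Agent.R320.BddReg_746.pw]
  have hM0 : 0 < Mp * G κ m := Nat.mul_pos hMp (G_pos m)
  have hBmod : ∀ T T', T % (Mp * G κ m) = T' % (Mp * G κ m) → BT q κ m T → BT q κ m T' :=
    fun T T' h => BT_mod q κ m h
  refine Crest.Agent.R320.Top5_120.top5 act hadd hone hmul hfaith φ
    (nuX g act φ (nu' lam rho nu) (fun w => nu2 w 1)) (C g) (Bad g (BT q κ m))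
    (pcode g (by rw [gz]; omega)) (fun _ h => h.1)
    (fun v => {P | g.LP1 (pre act φ (fun w => nu2 w 1)) lam v P})
    (fun v => {P | Geo.LP2 K c lam2 v P}) ?_ ?_ ?_ ?_ ?_ ?_ ?_ s
  · intro v
    refine (List.finite_length_le α (p0 + N1)).subset fun P hP => ?_
    have h1 := hlen _ _ hP.2
    rw [List.length_drop] at h1
    show P.length ≤ p0 + N1
    have h2 : g.p0 ≤ P.length := hP.1
    omega
  · intro v
    refine (List.finite_length_le α p0).subset fun P hP => ?_
    obtain ⟨j, hj, h1, -⟩ := hP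
    show P.length ≤ p0
    rw [h1]; exact hcp j hj
  · intro x y
    exact hCT φ g act (nu' lam rho nu) (fun w => nu2 w 1) hLW.len hfr hM0 hnu x y
  · intro x y
    exact hBT φ g act (nu' lam rho nu) (fun w => nu2 w 1) (BT q κ m) hLW.len hfr hM0 hnu hBmod x y
  · intro s
    exact htail φ g hLW.len hfr s
  · exact hcc1 g act φ (nu' lam rho nu) (fun w => nu2 w 1) hadd hmul (BT q κ m) lam rho hlen
      (fun P Q u b h1 h2 => nu'_sound φ act lam rho nu g3 P Q u b h1 h2) (2 * A0)
      (by rw [gz, gp0]; omega)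
      (fun Y hY hb v => by
        have hA : Am Mp κ m ≤ A0 := Am_mono (Nat.le_succ m)
        have hY' : Am Mp κ m ≤ Y.length := by omega
        obtain ⟨h1, h2⟩ := clean q κ m (T := Y.length) hY' hb
        exact g4 Y hY h1 h2 v)
  · refine hcc2 g act φ (nu' lam rho nu) (fun w => nu2 w 1) hadd hmul (BT q κ m) K (k + m) c lam2
      (fun j Q => rho2 j Q 1) hcp ?_ ?_ ?_ ?_ ?_
    · intro j hj P Q v u h1 h2 h3 h4
      have := x1 j hj P Q 1 v u h1 h3 h4
      rw [mul_one] at this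
      exact this
    · intro P Q hP hPQ hQ
      have hQl : 0 < Q.length := List.length_pos_of_ne_nil hQ
      have := hgapW (P ++ Q) P.length (P ++ Q).length (by rw [List.length_append]; omega) le_rfl
        (by rw [List.take_left]; exact hP) (by rw [List.take_length]; exact hPQ)
      rw [List.length_append] at this
      rw [gp0, gN1]
      omega
    · intro a a' b b' _ _ _ _ h1 h2 h3 h4
      refine ruler_eq (X := (Xn : ℤ)) (N1 := N1) hX0 h1 h2 ?_ ?_
      · have h3' : Xn * 2 ^ a + Xn * 2 ^ b' < Xn * 2 ^ b + Xn * 2 ^ a' + 2 * N1 := h3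
        exact_mod_cast h3'
      · have h4' : Xn * 2 ^ b + Xn * 2 ^ a' < Xn * 2 ^ a + Xn * 2 ^ b' + 2 * N1 := h4
        exact_mod_cast h4'
    · intro τ hτ J hJ
      have hcard := hcount ((τ : ℤ) - p0)
      have hsub : J ⊆ (((Finset.range K) ×ˢ (Finset.range K)).filter (fun p => p.1 ≠ p.2 ∧
        Crest.Agent.R320.Thin963.BadT (Finset.univ.image q) m (fun i => ((G κ i : ℕ) : ℤ))
          (fun i => ((Mp * G κ i : ℕ) : ℤ)) (fun i => ((Am Mp κ i : ℕ) : ℤ))
          ((τ : ℤ) - p0 + (Xn : ℤ) * 2 ^ p.1 - (Xn : ℤ) * 2 ^ p.2))).image Prod.snd := by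
        intro a ha
        obtain ⟨haK, b, hbK, hne, hb⟩ := hJ a ha
        refine Finset.mem_image.2 ⟨(b, a), Finset.mem_filter.2 ⟨Finset.mem_product.2
          ⟨Finset.mem_range.2 hbK, Finset.mem_range.2 haK⟩, hne, ?_⟩, rfl⟩
        have hca : c a ≤ p0 := hcp a haK
        have e : ((τ + c b - c a - p0 : ℕ) : ℤ) =
            (τ : ℤ) - p0 + (Xn : ℤ) * 2 ^ b - (Xn : ℤ) * 2 ^ a := by
          rw [gz, gp0] at hτ
          have h5 : c a + p0 ≤ τ + c b := by omega
          rw [Nat.cast_sub (by omega), Nat.cast_sub (by omega)]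
          push_cast [c]
          ring
        have hb' : BT q κ m (τ + c b - c a - p0) := hb
        unfold BT at hb'
        rw [e] at hb'
        exact hb'
      have h1 := Finset.card_le_card hsub
      have h2 := (h1.trans Finset.card_image_le).trans hcard
      have h3 : (Finset.univ.image q).card ≤ k := by
        refine Finset.card_image_le.trans ?_
        simp
      omega
    · intro u hu v
      have hl : (u.take p0).length = p0 := by
        rw [List.length_take]
        have : p0 ≤ u.length := hu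
        omega
      exact x2 (u.take p0) 1 v (fun j hj => by rw [hl]; exact hcp j hj)

end Crest.Agent.R320.Fin_224
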