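import Crest.Agent.R320.SemTop_727
import Crest.Agent.R320.SemJ_832
import Crest.Agent.R320.Fib_298
import Crest.Agent.R320.GridG_19
import Crest.Agent.R320.SpoilGrid_567
import Crest.Agent.R320.ExactR_237
import Crest.Agent.R320.LWallAll_922
import Crest.Agent.R320.Univ_188

/-!
# Row 320: final assembly from landed files (helper232)
-/

set_option autoImplicit false
set_option linter.unusedVariables false
set_option linter.unusedSectionVars false

namespace Crest.Agent.R320.Fin_232

open Crest.RegLang Crest.Agent.R320.Hk_851 Crest.Agent.R320.Blk467 Finset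

/-! ### a faithful module -/

def actM {S : Type} [Monoid S] (v : S → ZMod 2) (s : S) : S → ZMod 2 := fun x => v (s * x)

theorem actM_add {S : Type} [Monoid S] (a b : S → ZMod 2) (s : S) :
    actM (a + b) s = actM a s + actM b s := rfl

theorem actM_one {S : Type} [Monoid S] (v : S → ZMod 2) : actM v 1 = v := by
  funext x; simp [actM]

theorem actM_mul {S : Type} [Monoid S] (v : S → ZMod 2) (s t : S) :
    actM v (s * t) = actM (actM v s) t := by
  funext x; simp [actM, mul_assoc]

theorem actM_faith {S : Type} [Monoid S] (s t : S) (h : ∀ v : S → ZMod 2, actM v s = actM v t) :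
    s = t := by
  classical
  have h1 := congrFun (h (fun x => if x = s then 1 else 0)) 1
  simp only [actM, mul_one, if_true] at h1
  by_contra hne
  rw [if_neg (fun e => hne e.symm)] at h1
  exact one_ne_zero h1

/-! ### regularity from a finite-state clause -/

theorem isRegular_fs {α : Type} [Finite α] {S V : Type} [Monoid S] [Finite S] (f : α → S)
    (A Md : ℕ) (hMd : 0 < Md) (nu : List α → V)
    (h : ∀ Y Y' : List α, A ≤ Y.length → A ≤ Y'.length → Y.take A = Y'.take A →
      Y.length ≡ Y'.length [MOD Md] → (Y.map f).prod = (Y'.map f).prod → nu Y = nu Y') (y : V) :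
    Language.IsRegular ({Y | nu Y = y} : Language α) := by
  classical
  have : NeZero Md := ⟨hMd.ne'⟩
  let g : α → S × Multiplicative (ZMod Md) := fun a => (f a, Multiplicative.ofAdd 1)
  have hg : ∀ w : List α, (w.map g).prod =
      ((w.map f).prod, Multiplicative.ofAdd ((w.length : ℕ) : ZMod Md)) := by
    intro w
    induction w with
    | nil => simp; rfl
    | cons a w ih =>
      rw [List.map_cons, List.prod_cons, ih, List.map_cons, List.prod_cons]
      show ((f a) * _, Multiplicative.ofAdd (1 : ZMod Md) * _) = _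
      rw [← ofAdd_add, List.length_cons]
      push_cast
      rw [add_comm]
  -- short words
  have hshort : Language.IsRegular ({Y | Y.length < A ∧ nu Y = y} : Language α) := by
    have : HL 0 ({Y | Y.length < A ∧ nu Y = y} : Language α) :=
      HL.finite ((List.finite_length_lt α A).subset fun v hv => hv.1)
    exact Crest.Agent.R320.Reg_236.HL.isRegular this
  -- long words
  let F : S × Multiplicative (ZMod Md) → Language α := fun p => {w | (w.map g).prod = p}
  let W : List α → Language α := fun X0 => ({X0} : Language α) * ⊤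
  have hW : ∀ X0, (W X0).IsRegular := fun X0 =>
    Crest.Agent.R320.Reg_236.HL.isRegular (HL.mul (HL.word (k := 0) X0) (HL.top (α := α)))
  let T : Set (List α × (S × Multiplicative (ZMod Md))) :=
    {q | q.1.length = A ∧ ∃ Y : List α, A ≤ Y.length ∧ Y.take A = q.1 ∧ (Y.map g).prod = q.2 ∧
      nu Y = y}
  have hT : T.Finite := by
    refine Set.Finite.subset ((List.finite_length_eq α A).prod (Set.toFinite Set.univ)) ?_
    rintro ⟨q1, q2⟩ hq
    exact ⟨hq.1, Set.mem_univ _⟩
  have hlong := Crest.Agent.R320.Fib_298.isRegular_biUnion hT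
    (L := fun q => W q.1 ⊓ F q.2)
    (fun q _ => (hW q.1).inf (Crest.Agent.R320.Fib_298.isRegular_fib g q.2))
  let LS : Language α := {Y | Y.length < A ∧ nu Y = y}
  let LB : Language α := {w | ∃ q ∈ T, w ∈ W q.1 ⊓ F q.2}
  have e : ({Y | nu Y = y} : Language α) = LS + LB := by
    ext Y
    constructor
    · intro hY
      by_cases hl : Y.length < A
      · exact Or.inl ⟨hl, hY⟩
      · refine Or.inr ⟨(Y.take A, (Y.map g).prod), ⟨?_, Y, by omega, rfl, rfl, hY⟩, ?_, rfl⟩
        · show (Y.take A).length = A
          rw [List.length_take]; omega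
        · exact Language.mem_mul.2 ⟨Y.take A, rfl, Y.drop A, trivial, List.take_append_drop _ _⟩
    · rintro (hY | ⟨q, ⟨hq1, Y', hY1, hY2, hY3, hY4⟩, hYW, hYF⟩)
      · exact hY.2
      · obtain ⟨X0, hX0, Z, -, rfl⟩ := Language.mem_mul.1 hYW
        have hX0' : X0 = q.1 := hX0
        subst hX0'
        have hF : ((q.1 ++ Z).map g).prod = q.2 := hYF
        rw [hg] at hF hY3
        have h3 : ((q.1 ++ Z).map f).prod = (Y'.map f).prod := by
          have := congrArg Prod.fst (hF.trans hY3.symm)
          exact this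
        have h4 : (((q.1 ++ Z).length : ℕ) : ZMod Md) = ((Y'.length : ℕ) : ZMod Md) := by
          have := congrArg Prod.snd (hF.trans hY3.symm)
          exact Multiplicative.ofAdd.injective this
        have h5 := (ZMod.natCast_eq_natCast_iff _ _ _).1 h4
        show nu (q.1 ++ Z) = y
        rw [h (q.1 ++ Z) Y' (by rw [List.length_append]; omega) hY1
          (by rw [hY2, List.take_left' hq1]) h5 h3]
        exact hY4
  rw [e]
  exact Language.IsRegular.add (L1 := LS) (L2 := LB) hshort hlong

/-! ### the row for `Type` -/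

open Crest.Agent.R320 in
theorem core (α : Type) [Finite α] (S : Type) [Monoid S] [Finite S] (f : α → S) (s : S) :
    HL 3 ({w | (w.map f).prod = s} : Language α) := by
  classical
  have := Fintype.ofFinite S
  let V : Type := S → ZMod 2
  let act : V → S → V := fun v s => actM v s
  obtain ⟨m, r, hgrid⟩ := GridG_19.grid S V act
  set C0 : ℕ := r + m with hC0
  obtain ⟨K, hK⟩ := ExactR_237.exact_gadget α S V f act (2 * C0 + 2)
  obtain ⟨Ms, hcard, hMs, hgrid⟩ := hgrid (4 ^ K + 2)
  set M : ℕ := ∏ q ∈ Ms, q with hM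
  have hMpos : 0 < M := Finset.prod_pos fun q hq => (hMs q hq).1.pos
  -- the grid
  set Gam : ℕ := 2 ^ (16 * (m + 1) * M * 4 ^ K) with hGam
  have hGamge : 16 * (m + 1) * M * 4 ^ K ≤ Gam := Nat.lt_two_pow_self.le
  have hGampos : 0 < Gam := by positivity
  have hcop : ∀ q ∈ Ms, Nat.Coprime q Gam := by
    intro q hq
    have h1 := hMs q hq
    have h2 : Nat.Coprime q 2 := by
      rw [Nat.coprime_primes h1.1 Nat.prime_two]
      intro h2
      have h3 := h1.2
      have h4 : 0 < 4 ^ K := by positivity
      rw [h2] at h3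
      exact absurd h3 (not_lt.2 (Nat.le_add_left 2 (4 ^ K)))
    exact Nat.Coprime.pow_right _ h2
  have hcopM : ∀ k, Nat.Coprime M (Gam ^ k) := by
    intro k
    rw [hM]
    exact Nat.Coprime.prod_left fun q hq => Nat.Coprime.pow_right _ (hcop q hq)
  obtain ⟨lam, rho, nu1, g1, g2, g3, g4, g5⟩ := hgrid (fun k => Gam ^ k) 0
    (fun k => pow_pos hGampos k) (fun a b hab => pow_dvd_pow _ hab) hcopM α
    (fun w => (w.map f).prod) (fun u v => by simp)
  set AM : ℕ → ℕ := GridG_19.Am (fun k => Gam ^ k) M 0 with hAM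
  set N : ℕ := AM m + M with hN
  -- the ruler
  obtain ⟨c, hc1, hc2, hc3⟩ := SpoilGrid_567.spoil_grid K m Ms M Gam (2 * N)
    (fun q hq => lt_of_le_of_lt (Nat.le_add_right _ 2) (hMs q hq).2) hcop
    (fun q hq q' hq' hne => (Nat.coprime_primes (hMs q hq).1 (hMs q' hq').1).2 hne) hMpos hGamge
  obtain ⟨lam2, rho2, nu2, e1, e2⟩ := hK c (fun i j hij _ => by have := hc1 i j hij; omega)
  set Lam : ℕ := c K + AM m with hLam
  have hcle : ∀ k < K, c k ≤ c K := fun k hk => by have := hc1 k K hk; omega
  -- walls
  obtain ⟨n, G0, B0, Wo, hLW, hgap, -, -, hfree⟩ :=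
    LWallAll_922.walls_all_left α (2 * Lam + 2 * N + 1) (by omega)
  have hLWa : ∀ P Q : List α, n ≤ Q.length → (Wo (P ++ Q) ↔ Wo Q) := hLW.1
  have hLWb : ∀ Q : List α, Wo Q → n ≤ Q.length := hLW.2
  set z : ℕ := Lam + n + 2 * N + 2 * Lam + 1 with hz
  obtain ⟨BadT, hBadT⟩ : ∃ B : ℕ → Prop, ∀ T, B T ↔ ((∃ q ∈ Ms, q ∣ T) ∨
      GridG_19.BadG (fun k => Gam ^ k) M 0 m T) := ⟨_, fun T => Iff.rfl⟩
  have hAMmono : ∀ k ≤ m, AM k ≤ AM m := fun k hk => GridG_19.Am_mono _ _ _ hk
  have hz0 : 0 < z := by omega
  have hnz : n ≤ z := by omega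
  have hLz : Lam ≤ z := by omega
  -- the two schemes
  let D : SemJ_832.Dat α S V :=
    { phi := fun w => (w.map f).prod
      act := act
      Wo := Wo
      n := n
      W := 2 * Lam + 2 * N + 1
      z := z
      p0 := Lam
      N := N
      K := K
      C0 := C0
      Lam := Lam
      BadT := BadT
      lam := lam
      rho := rho
      nu1 := nu1
      c := c
      lam2 := lam2
      rho2 := fun k Q => rho2 k Q 1
      nu2 := fun X => nu2 X 1
      hloc := hLWa
      hgap := fun X t t' h1 h2 h3 h4 => by have := hgap X t t' h1 h2 h3 h4; omega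
      g_len := fun p v h => by have := (g2 p v h).2; omega
      g_sound := fun p q v r h1 h2 => g1 p q v r h1 h2
      g_comp := fun u hu hB v => by
        obtain ⟨P, Q, h1, h2, h3⟩ := g4 u (by omega) (by omega)
          (fun q hq hd => hB ((hBadT _).2 (Or.inl ⟨q, hq, hd⟩)))
          (fun h => hB ((hBadT _).2 (Or.inr h))) v
        exact ⟨P, Q, h1, h2, h3⟩
      e_sound := fun k hk P Q v b h1 h2 h3 => by
        have := e1 k hk P Q 1 v b h1 h2 h3
        rw [mul_one] at this
        exact this
      e_comp := fun u v hu => e2 u 1 v hu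
      c_le := fun k hk => by have := hcle k hk; omega
      rulerE := fun i hi j hj i' hi' j' hj' h1 h2 h3 h4 => by
        refine hc2 i j i' j' hi hj hi' hj' h1 ?_
        rw [abs_le]
        constructor
        · push_cast; omega
        · push_cast; omega
      rulerB := fun T hT1 hT2 => by
        refine le_trans (Finset.card_le_card ?_) (le_trans (hc3 (fun j => (AM j : ℤ)) T)
          (by omega))
        intro ab hab
        rw [Finset.mem_filter] at hab ⊢
        refine ⟨hab.1, hab.2.1, ?_⟩
        have hab1 := Finset.mem_product.1 hab.1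
        have ha := hcle _ (Finset.mem_range.1 hab1.1)
        have hb := hcle _ (Finset.mem_range.1 hab1.2)
        have hcast : ((T + c ab.1 - c ab.2 : ℕ) : ℤ) = (T : ℤ) + c ab.1 - c ab.2 := by omega
        have hT' : AM m ≤ T + c ab.1 - c ab.2 := by omega
        rcases (hBadT _).1 hab.2.2 with ⟨q, hq, hd⟩ | ⟨k, hk, hbad⟩
        · left
          refine ⟨q, hq, ?_⟩
          rw [← hcast]
          exact_mod_cast hd
        · right
          set T' := T + c ab.1 - c ab.2 with hT'def
          have hAk : AM (k + 1) ≤ T' := (hAMmono (k + 1) hk).trans hT'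
          have hdm := Nat.div_add_mod (T' - AM (k + 1)) (Gam ^ (k + 1))
          have hlt := Nat.mod_lt (T' - AM (k + 1)) (pow_pos hGampos (k + 1))
          refine ⟨k + 1, by omega, hk, ?_⟩
          rw [← hcast]
          rw [Nat.add_sub_cancel]
          have hz1 : ((T' : ℤ) - (AM (k + 1) : ℤ)) =
              (Gam : ℤ) ^ (k + 1) * ((T' - AM (k + 1)) / Gam ^ (k + 1) : ℕ) +
                ((T' - AM (k + 1)) % Gam ^ (k + 1) : ℕ) := by
            have : ((T' - AM (k + 1) : ℕ) : ℤ) = (T' : ℤ) - (AM (k + 1) : ℤ) := by omega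
            rw [← this]
            exact_mod_cast hdm.symm
          have hbad' : (T' - AM (k + 1)) % Gam ^ (k + 1) < M * Gam ^ k ∨
            Gam ^ (k + 1) ≤ (T' - AM (k + 1)) % Gam ^ (k + 1) + M * Gam ^ k := hbad
          have hMG : (0 : ℤ) ≤ (M : ℤ) * (Gam : ℤ) ^ k := by positivity
          have hr0 : (0 : ℤ) ≤ (((T' - AM (k + 1)) % Gam ^ (k + 1) : ℕ) : ℤ) := Int.natCast_nonneg _
          clear_value AM Gam M N Lam z C0
          rcases hbad' with h1 | h1
          · refine ⟨((T' - AM (k + 1)) / Gam ^ (k + 1) : ℕ), ?_⟩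
            rw [hz1, abs_le]
            have h1' : (((T' - AM (k + 1)) % Gam ^ (k + 1) : ℕ) : ℤ) < (M : ℤ) * (Gam : ℤ) ^ k := by
              exact_mod_cast h1
            constructor
            · linarith
            · linarith
          · refine ⟨((T' - AM (k + 1)) / Gam ^ (k + 1) : ℕ) + 1, ?_⟩
            rw [hz1, abs_le]
            have h1' : (Gam : ℤ) ^ (k + 1) ≤
                (((T' - AM (k + 1)) % Gam ^ (k + 1) : ℕ) : ℤ) + (M : ℤ) * (Gam : ℤ) ^ k := by
              exact_mod_cast h1
            have h2' : (((T' - AM (k + 1)) % Gam ^ (k + 1) : ℕ) : ℤ) < (Gam : ℤ) ^ (k + 1) := by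
              exact_mod_cast hlt
            constructor
            · linarith
            · linarith
      h_p0 := le_rfl
      z_pos := by omega
      h_z := by omega
      h_W := by omega }
  -- the top
  let Sc : SemTop_727.Sch α V := ⟨D.Z, D.T, D.L1, D.L2⟩
  have hWU : Fib_298.WallU Wo n (max B0 (2 * Lam + 2 * N + 1)) :=
    { loc := hLWa
      len := hLWb
      free := fun X hX => by
        obtain ⟨u, x, v, k, h1, h2, h3, h4⟩ := hfree X hX
        exact ⟨u, x, v, k, h4, le_trans h1 (le_max_left _ _), le_trans h2 (le_max_right _ _),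
          le_trans h3 (le_max_left _ _)⟩ }
  have hreg : ∀ y, Language.IsRegular ({Y | nu1 Y = y} : Language α) := fun y =>
    isRegular_fs f (GridG_19.Ac (fun k => Gam ^ k) M 0 m) (M * Gam ^ m)
      (Nat.mul_pos hMpos (pow_pos hGampos m)) nu1 (fun Y Y' h1 h2 h3 h4 h5 => g5 Y Y' h1 h2 h3 h4 h5) y
  refine SemTop_727.top (k := 1) act actM_add actM_one actM_mul actM_faith f
    (fun X => act (nu2 (X.take Lam) 1) ((X.drop Lam).map f).prod + nu1 (X.drop Lam)) Sc
    ?_ ?_ ?_ ?_ ?_ ?_ ?_ s
  · intro v X
    show act (act v ((X.take Lam).map f).prod + nu2 (X.take Lam) 1) ((X.drop Lam).map f).prod +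
      nu1 (X.drop Lam) = _
    rw [show act (act v ((X.take Lam).map f).prod + nu2 (X.take Lam) 1)
      ((X.drop Lam).map f).prod = act (act v ((X.take Lam).map f).prod) ((X.drop Lam).map f).prod +
        act (nu2 (X.take Lam) 1) ((X.drop Lam).map f).prod from actM_add _ _ _,
      show act (act v ((X.take Lam).map f).prod) ((X.drop Lam).map f).prod =
        act v (((X.take Lam).map f).prod * ((X.drop Lam).map f).prod) from (actM_mul _ _ _).symm,
      ← List.prod_append, ← List.map_append, List.take_append_drop, add_assoc]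
  · exact Fib_298.pcode_XX (Wo := Wo) (z := z) hz0
  · intro x y
    exact Fib_298.hfib hWU hnz act f Lam hLz
      (fun v X0 => act v (X0.map f).prod + nu2 X0 1) nu1 hreg x y
  · intro x
    refine Set.Finite.subset (List.finite_length_le α (Lam + N)) ?_
    intro P hP
    obtain ⟨h1, h2⟩ := hP
    have h3 := (g2 _ _ h2).2
    have h4 : (P.drop Lam).length = P.length - Lam := List.length_drop
    show P.length ≤ Lam + N
    have h5 : (P.drop Lam).length < AM m := h3
    omega
  · intro x
    refine Set.Finite.subset (List.finite_length_le α Lam) ?_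
    rintro P ⟨k, hk, h1, h2⟩
    show P.length ≤ Lam
    have := hcle k hk
    have h1' : P.length = c k := h1
    omega
  · intro X1 h1 X2 h2 x
    exact D.hC2 h1 h2 x
  · intro s
    exact HL.mono (by omega) (Fib_298.rest hWU hnz f s)

theorem main (α : Type) [Finite α] (L : Language α) (hL : L.IsRegular) :
    ∃ e : GRegExp α, e.height ≤ 3 ∧ e.lang = L :=
  of_monoid (k := 3) (fun S _ _ φ s => core α S φ s) L hL

theorem row (α : Type*) [Finite α] (L : Language α) (hL : L.IsRegular) :
    ∃ e : Crest.RegLang.GRegExp α, e.height ≤ 3 ∧ e.lang = L :=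
  Crest.Agent.R320.Univ_188.of_type0 3 (fun α _ L hL => main α L hL) α L hL

end Crest.Agent.R320.Fin_232
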