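import Mathlib

/-!
# Row 320, SPOIL leaf of plan 13673: the ruler for the digit gadget

`BadN Ms M m b n`: some modulus `k` of `Ms` divides `n`, or some digit `j < m` of `n` in base `b`
is not in `[M, b - 1 - M]`.  `spoil`: a wide Golomb ruler `c` such that for every `T` at most
`Ms.card + m` ordered pairs `(i, j)`, `i ≠ j`, have `T + c j - c i` bad.
-/

set_option autoImplicit false

namespace Crest.Agent.R320.Sp_913

def BadDigZ (M b j : ℕ) (n : ℤ) : Prop :=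
  ¬ ((M : ℤ) ≤ n / (b : ℤ) ^ j % b ∧ n / (b : ℤ) ^ j % b + M + 1 ≤ b)

def BadZ (Ms : Finset ℕ) (M m b : ℕ) (n : ℤ) : Prop :=
  (∃ k ∈ Ms, (k : ℤ) ∣ n) ∨ ∃ j < m, BadDigZ M b j n

def BadN (Ms : Finset ℕ) (M m b n : ℕ) : Prop :=
  (∃ k ∈ Ms, k ∣ n) ∨ ∃ j < m, ¬ (M ≤ n / b ^ j % b ∧ n / b ^ j % b + M + 1 ≤ b)

theorem badZ_cast (Ms : Finset ℕ) (M m b n : ℕ) : BadZ Ms M m b (n : ℤ) ↔ BadN Ms M m b n := by
  unfold BadZ BadN BadDigZ
  have h1 : ∀ j : ℕ, ((n : ℤ) / (b : ℤ) ^ j % b) = ((n / b ^ j % b : ℕ) : ℤ) := by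
    intro j; push_cast; rfl
  constructor
  · rintro (⟨k, hk, h⟩ | ⟨j, hj, h⟩)
    · exact Or.inl ⟨k, hk, by exact_mod_cast h⟩
    · refine Or.inr ⟨j, hj, ?_⟩
      rw [h1 j] at h
      intro hh
      exact h ⟨by exact_mod_cast hh.1, by exact_mod_cast hh.2⟩
  · rintro (⟨k, hk, h⟩ | ⟨j, hj, h⟩)
    · exact Or.inl ⟨k, hk, by exact_mod_cast h⟩
    · refine Or.inr ⟨j, hj, ?_⟩
      rw [h1 j]
      intro hh
      exact h ⟨by exact_mod_cast hh.1, by exact_mod_cast hh.2⟩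

theorem near {M b j : ℕ} (hb : 0 < b) (hM : 0 < M) {n : ℤ} (h : BadDigZ M b j n) :
    ∃ q e : ℤ, n = q * ((b : ℤ) ^ j * b) + e ∧ -(M * (b : ℤ) ^ j) ≤ e ∧ e < M * (b : ℤ) ^ j := by
  unfold BadDigZ at h
  have hbz : (0 : ℤ) < b := by exact_mod_cast hb
  have hMz : (0 : ℤ) < M := by exact_mod_cast hM
  have hB : (0 : ℤ) < (b : ℤ) ^ j := by positivity
  set B : ℤ := (b : ℤ) ^ j with hBdef
  have e1 := Int.emod_add_mul_ediv n B
  have e2 := Int.emod_add_mul_ediv (n / B) b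
  have r1 := Int.emod_nonneg n hB.ne'
  have r2 := Int.emod_lt_of_pos n hB
  have r3 := Int.emod_nonneg (n / B) hbz.ne'
  have r4 := Int.emod_lt_of_pos (n / B) hbz
  set d := n / B % b with hd
  set q := n / B / b with hq
  set x := n % B with hx
  set y := n / B with hy
  rw [not_and_or, not_le, not_le] at h
  rcases h with h | h
  · refine ⟨q, B * d + x, ?_, ?_, ?_⟩
    · rw [← e1, ← e2]; ring
    · have : 0 ≤ B * d := by positivity
      have : 0 ≤ (M : ℤ) * B := by positivity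
      omega
    · have h1 : B * (d + 1) ≤ B * M := by
        apply mul_le_mul_of_nonneg_left _ hB.le
        omega
      have : B * (d + 1) = B * d + B := by ring
      have : B * (M : ℤ) = M * B := by ring
      omega
  · refine ⟨q + 1, B * d + x - b * B, ?_, ?_, ?_⟩
    · rw [← e1, ← e2]; ring
    · have h1 : B * (b - M) ≤ B * d := by
        apply mul_le_mul_of_nonneg_left _ hB.le
        omega
      have : B * ((b : ℤ) - M) = b * B - M * B := by ring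
      omega
    · have h1 : B * (d + 1) ≤ B * b := by
        apply mul_le_mul_of_nonneg_left _ hB.le
        omega
      have : B * (d + 1) = B * d + B := by ring
      have : B * (b : ℤ) = b * B := by ring
      have : 0 < (M : ℤ) * B := by positivity
      omega

/-- `G j = 1 + b + .. + b^(j-1)`. -/
def G (b : ℕ) : ℕ → ℕ
  | 0 => 0
  | j + 1 => G b j + b ^ j

theorem G_lt {b : ℕ} (hb : 2 ≤ b) : ∀ j, G b j < b ^ j := by
  intro j
  induction j with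
  | zero => simp [G]
  | succ j ih =>
    have : b ^ (j + 1) = b ^ j * b := pow_succ b j
    have h2 : b ^ j * 2 ≤ b ^ j * b := Nat.mul_le_mul_left _ hb
    simp only [G]
    omega

theorem G_split (b : ℕ) (m : ℕ) : ∀ j, j < m → ∃ s, G b m = G b (j + 1) + b ^ (j + 1) * s := by
  induction m with
  | zero => intro j hj; omega
  | succ m ih =>
    intro j hj
    rcases Nat.lt_succ_iff_lt_or_eq.1 hj with h | h
    · obtain ⟨s, hs⟩ := ih j h
      refine ⟨s + b ^ (m - (j + 1)), ?_⟩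
      have : b ^ m = b ^ (j + 1) * b ^ (m - (j + 1)) := by
        rw [← pow_add]; congr 1; omega
      simp only [G] at hs ⊢
      rw [hs, this]; ring
    · subst h
      exact ⟨0, by simp⟩

theorem dig_clash {M b m K0 s j : ℕ} {n n' D : ℤ} {K : ℕ} (hM : 0 < M)
    (hb : 2 ^ (K + 4) * M < b) (hj : j < m) (hK0 : K0 = 4 * M * G b m + b ^ m * s)
    (hD : 0 < D) (hDK : D < 2 ^ K) (h : n' = n + D * K0) (h1 : BadDigZ M b j n)
    (h2 : BadDigZ M b j n') : False := by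
  have hb2 : 2 ≤ b := by
    have : 1 ≤ 2 ^ (K + 4) * M := Nat.one_le_iff_ne_zero.2 (by positivity)
    omega
  obtain ⟨q, e, he, he1, he2⟩ := near (by omega) hM h1
  obtain ⟨q', e', he', he1', he2'⟩ := near (by omega) hM h2
  obtain ⟨t, ht⟩ := G_split b m j hj
  have hbm : b ^ m = b ^ (j + 1) * b ^ (m - (j + 1)) := by
    rw [← pow_add]; congr 1; omega
  set B : ℤ := (b : ℤ) ^ j with hB
  have hBpos : 0 < B := by positivity
  have hg1 : G b (j + 1) = G b j + b ^ j := rfl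
  have hg2 := G_lt hb2 j
  set g : ℤ := (G b (j + 1) : ℤ) with hg
  have hg3 : B ≤ g := by
    rw [hg, hB, hg1]; push_cast; have : (0 : ℤ) ≤ G b j := by positivity
    omega
  have hg4 : g < 2 * B := by
    have : (G b j : ℤ) < (b : ℤ) ^ j := by exact_mod_cast hg2
    rw [hg, hB, hg1]; push_cast; omega
  have hK0z : (K0 : ℤ) = 4 * M * g + B * b * (4 * M * t + (b : ℤ) ^ (m - (j + 1)) * s) := by
    rw [hK0, ht, hbm, hg, hB]; push_cast; ring
  -- the multiple of `B * b`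
  have key : D * (4 * M * g) - (e' - e) =
      (B * b) * ((q' - q) - D * (4 * M * t + (b : ℤ) ^ (m - (j + 1)) * s)) := by
    have : n' - n = D * K0 := by rw [h]; ring
    rw [he, he', hK0z] at this
    linear_combination (-1 : ℤ) * this
  have hMz : (0 : ℤ) < M := by exact_mod_cast hM
  set w := (q' - q) - D * (4 * M * t + (b : ℤ) ^ (m - (j + 1)) * s) with hw
  have hBb : 0 < B * b := by
    have : (0 : ℤ) < b := by exact_mod_cast (show 0 < b by omega)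
    positivity
  have low : 0 < D * (4 * M * g) - (e' - e) := by
    have h3 : 1 * (4 * M * B) ≤ D * (4 * M * g) := by
      apply mul_le_mul (by omega) _ (by positivity) (by omega)
      exact mul_le_mul_of_nonneg_left hg3 (by positivity)
    have h4 : 1 * (4 * M * B) = M * B + M * B + 2 * (M * B) := by ring
    have h5 : 0 < (M : ℤ) * B := by positivity
    omega
  have high : D * (4 * M * g) - (e' - e) < B * b := by
    have h3 : D * (4 * M * g) ≤ 2 ^ K * (4 * M * (2 * B)) := by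
      apply mul_le_mul hDK.le _ (by positivity) (by positivity)
      exact mul_le_mul_of_nonneg_left hg4.le (by positivity)
    have h4 : (2 : ℤ) ^ (K + 4) * M < b := by exact_mod_cast hb
    have h5 : (2 : ℤ) ^ (K + 4) = 16 * 2 ^ K := by rw [pow_add]; norm_num; ring
    have h6 : B * ((2 : ℤ) ^ (K + 4) * M) ≤ B * b := mul_le_mul_of_nonneg_left h4.le hBpos.le
    have h7 : (1 : ℤ) ≤ 2 ^ K := one_le_pow₀ (by norm_num)
    have h8 : 1 * (M * B) ≤ 2 ^ K * (M * B) := mul_le_mul_of_nonneg_right h7 (by positivity)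
    have h9 : 2 ^ K * (4 * M * (2 * B)) = 8 * ((2 : ℤ) ^ K * (M * B)) := by ring
    have h10 : B * ((2 : ℤ) ^ (K + 4) * M) = 16 * ((2 : ℤ) ^ K * (M * B)) := by rw [h5]; ring
    have h11 : 0 < (M : ℤ) * B := by positivity
    omega
  rw [key] at low high
  have hw1 : 0 < w := by
    by_contra hc
    have : (B * b) * w ≤ 0 := mul_nonpos_of_nonneg_of_nonpos hBb.le (by omega)
    omega
  have hw2 : (B * b) * 1 ≤ (B * b) * w := mul_le_mul_of_nonneg_left (by omega) hBb.le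
  omega

theorem mod_clash {k K0 : ℕ} {n n' D : ℤ} {K : ℕ} (hk : 2 ^ K ≤ k) (hK0 : (k : ℤ) ∣ K0 - 1)
    (hD : 0 < D) (hDK : D < 2 ^ K) (h : n' = n + D * K0) (h1 : (k : ℤ) ∣ n)
    (h2 : (k : ℤ) ∣ n') : False := by
  have h3 : (k : ℤ) ∣ D * K0 := by
    have : D * K0 = n' - n := by rw [h]; ring
    rw [this]; exact dvd_sub h2 h1
  have h4 : (k : ℤ) ∣ D := by
    have : D = D * K0 - D * (K0 - 1) := by ring
    rw [this]; exact dvd_sub h3 (hK0.mul_left D)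
  have h5 := Int.le_of_dvd hD h4
  have h6 : (2 : ℤ) ^ K ≤ k := by exact_mod_cast hk
  omega

theorem pow_range {i j : ℕ} (h : i < j) :
    (2 : ℤ) ^ (j - 1) ≤ 2 ^ j - 2 ^ i ∧ (2 : ℤ) ^ j - 2 ^ i < 2 ^ j := by
  obtain ⟨l, rfl⟩ : ∃ l, j = l + 1 := ⟨j - 1, by omega⟩
  have h1 : (2 : ℤ) ^ i ≤ 2 ^ l := pow_le_pow_right₀ (by norm_num) (by omega)
  have h2 : (2 : ℤ) ^ (l + 1) = 2 * 2 ^ l := by ring
  have h3 : (0 : ℤ) < 2 ^ i := by positivity
  simp only [Nat.add_sub_cancel]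
  omega

theorem top_unique {i j i' j' : ℕ} (h : i < j) (h' : i' < j')
    (he : (2 : ℤ) ^ j - 2 ^ i = 2 ^ j' - 2 ^ i') : i = i' ∧ j = j' := by
  have a := pow_range h
  have a' := pow_range h'
  have hj : j = j' := by
    rcases lt_trichotomy j j' with hh | hh | hh
    · have : (2 : ℤ) ^ j ≤ 2 ^ (j' - 1) := pow_le_pow_right₀ (by norm_num) (by omega)
      omega
    · exact hh
    · have : (2 : ℤ) ^ j' ≤ 2 ^ (j - 1) := pow_le_pow_right₀ (by norm_num) (by omega)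
      omega
  subst hj
  refine ⟨?_, rfl⟩
  have h2 : (2 : ℤ) ^ i = 2 ^ i' := by omega
  have h3 : (2 : ℕ) ^ i = 2 ^ i' := by exact_mod_cast h2
  exact Nat.pow_right_injective (le_refl 2) h3

theorem pair_unique {i j i' j' : ℕ} (h : i ≠ j) (h' : i' ≠ j')
    (he : (2 : ℤ) ^ j - 2 ^ i = 2 ^ j' - 2 ^ i') : i = i' ∧ j = j' := by
  rcases lt_or_gt_of_ne h with h1 | h1 <;> rcases lt_or_gt_of_ne h' with h2 | h2
  · exact top_unique h1 h2 he
  · have a := pow_range h1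
    have a' := pow_range h2
    have : (0 : ℤ) < 2 ^ (j - 1) := by positivity
    have : (0 : ℤ) < 2 ^ (i' - 1) := by positivity
    omega
  · have a := pow_range h1
    have a' := pow_range h2
    have : (0 : ℤ) < 2 ^ (i - 1) := by positivity
    have : (0 : ℤ) < 2 ^ (j' - 1) := by positivity
    omega
  · have := top_unique h1 h2 (by omega)
    exact ⟨this.2, this.1⟩

theorem diff_bound {i j i' j' K : ℕ} (hi : i < K) (hj : j < K) (hi' : i' < K) (hj' : j' < K) :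
    ((2 : ℤ) ^ j - 2 ^ i) - (2 ^ j' - 2 ^ i') < 2 ^ K := by
  have h1 : (2 : ℤ) ^ j ≤ 2 ^ (K - 1) := pow_le_pow_right₀ (by norm_num) (by omega)
  have h2 : (2 : ℤ) ^ i' ≤ 2 ^ (K - 1) := pow_le_pow_right₀ (by norm_num) (by omega)
  have h3 : (2 : ℤ) ^ K = 2 * 2 ^ (K - 1) := by
    obtain ⟨l, rfl⟩ : ∃ l, K = l + 1 := ⟨K - 1, by omega⟩
    simp only [Nat.add_sub_cancel]; ring
  have h4 : (0 : ℤ) < 2 ^ i := by positivity
  have h5 : (0 : ℤ) < 2 ^ j' := by positivity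
  omega

/-- One event spoils at most one pair. -/
theorem one_event {K K0 : ℕ} {T : ℤ} {Ev : ℤ → Prop}
    (clash : ∀ n n' D : ℤ, 0 < D → D < 2 ^ K → n' = n + D * K0 → Ev n → Ev n' → False)
    {i j i' j' : ℕ} (hi : i < K) (hj : j < K) (hi' : i' < K) (hj' : j' < K) (hij : i ≠ j)
    (hij' : i' ≠ j') (h1 : Ev (T + (2 ^ j * K0 : ℕ) - (2 ^ i * K0 : ℕ)))
    (h2 : Ev (T + (2 ^ j' * K0 : ℕ) - (2 ^ i' * K0 : ℕ))) : i = i' ∧ j = j' := by
  push_cast at h1 h2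
  rcases lt_trichotomy (((2 : ℤ) ^ j - 2 ^ i) - (2 ^ j' - 2 ^ i')) 0 with h | h | h
  · exfalso
    refine clash _ _ ((2 ^ j' - 2 ^ i') - ((2 : ℤ) ^ j - 2 ^ i)) (by omega)
      (diff_bound hi' hj' hi hj) ?_ h1 h2
    ring
  · exact pair_unique hij hij' (by omega)
  · exfalso
    refine clash _ _ (((2 : ℤ) ^ j - 2 ^ i) - (2 ^ j' - 2 ^ i')) h
      (diff_bound hi hj hi' hj') ?_ h2 h1
    ring

open Classical in
/-- Integer form, with the explicit ruler `c l = 2 ^ l * K0`. -/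
theorem spoilZ {Ms : Finset ℕ} {M m b K K0 s : ℕ} (hM : 0 < M) (hb : 2 ^ (K + 4) * M < b)
    (hMs : ∀ k ∈ Ms, 2 ^ K ≤ k) (hK1 : ∀ k ∈ Ms, (k : ℤ) ∣ K0 - 1)
    (hK0 : K0 = 4 * M * G b m + b ^ m * s) (T : ℤ) :
    (((Finset.range K) ×ˢ (Finset.range K)).filter (fun p : ℕ × ℕ => p.1 ≠ p.2 ∧
      BadZ Ms M m b (T + (2 ^ p.2 * K0 : ℕ) - (2 ^ p.1 * K0 : ℕ)))).card ≤ Ms.card + m := by
  set S := (Finset.range K) ×ˢ (Finset.range K) with hS
  have hsub : S.filter (fun p : ℕ × ℕ => p.1 ≠ p.2 ∧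
      BadZ Ms M m b (T + (2 ^ p.2 * K0 : ℕ) - (2 ^ p.1 * K0 : ℕ))) ⊆
      (Ms.biUnion fun k => S.filter (fun p : ℕ × ℕ => p.1 ≠ p.2 ∧
        (k : ℤ) ∣ (T + (2 ^ p.2 * K0 : ℕ) - (2 ^ p.1 * K0 : ℕ)))) ∪
      ((Finset.range m).biUnion fun j => S.filter (fun p : ℕ × ℕ => p.1 ≠ p.2 ∧
        BadDigZ M b j (T + (2 ^ p.2 * K0 : ℕ) - (2 ^ p.1 * K0 : ℕ)))) := by
    intro p hp
    rw [Finset.mem_filter] at hp
    obtain ⟨hp1, hp2, hp3⟩ := hp
    rw [Finset.mem_union, Finset.mem_biUnion, Finset.mem_biUnion]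
    rcases hp3 with ⟨k, hk, h⟩ | ⟨j, hj, h⟩
    · exact Or.inl ⟨k, hk, Finset.mem_filter.2 ⟨hp1, hp2, h⟩⟩
    · exact Or.inr ⟨j, Finset.mem_range.2 hj, Finset.mem_filter.2 ⟨hp1, hp2, h⟩⟩
  have c1 : ∀ (Ev : ℤ → Prop), (∀ n n' D : ℤ, 0 < D → D < 2 ^ K → n' = n + D * K0 → Ev n →
      Ev n' → False) → (S.filter (fun p : ℕ × ℕ => p.1 ≠ p.2 ∧
        Ev (T + (2 ^ p.2 * K0 : ℕ) - (2 ^ p.1 * K0 : ℕ)))).card ≤ 1 := by
    intro Ev hEv
    rw [Finset.card_le_one]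
    intro p hp p' hp'
    rw [Finset.mem_filter, hS, Finset.mem_product, Finset.mem_range, Finset.mem_range] at hp hp'
    have := one_event hEv hp.1.1 hp.1.2 hp'.1.1 hp'.1.2 hp.2.1 hp'.2.1 hp.2.2 hp'.2.2
    exact Prod.ext this.1 this.2
  refine (Finset.card_le_card hsub).trans ((Finset.card_union_le _ _).trans ?_)
  apply Nat.add_le_add
  · refine (Finset.card_biUnion_le_card_mul _ _ 1 ?_).trans (by simp)
    intro k hk
    have := c1 (fun n => (k : ℤ) ∣ n) fun n n' D hD hDK h h1 h2 =>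
      mod_clash (hMs k hk) (hK1 k hk) hD hDK h h1 h2
    convert this
  · refine (Finset.card_biUnion_le_card_mul _ _ 1 ?_).trans (by simp)
    intro j hj
    have := c1 (fun n => BadDigZ M b j n) fun n n' D hD hDK h h1 h2 =>
      dig_clash hM hb (Finset.mem_range.1 hj) hK0 hD hDK h h1 h2
    convert this

/-- Choice of `K0`: `≡ 1 (mod M)`, `≡ 4 M (1 + .. + b^(m-1)) (mod b^m)`, large. -/
theorem exists_K0 {M b m : ℕ} (hM : 0 < M) (hb0 : 0 < b) (hcop : Nat.Coprime b M) (N : ℕ) :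
    ∃ K0 s : ℕ, N < K0 ∧ (M : ℤ) ∣ K0 - 1 ∧ K0 = 4 * M * G b m + b ^ m * s := by
  have hc : Nat.Coprime (b ^ m) M := Nat.Coprime.pow_left m hcop
  obtain ⟨x, hx1, hx2⟩ := Nat.chineseRemainder hc (4 * M * G b m) 1
  refine ⟨x + b ^ m * M * (N + 4 * M * G b m + 1), ?_⟩
  have hge : N + 4 * M * G b m + 1 ≤ b ^ m * M * (N + 4 * M * G b m + 1) :=
    Nat.le_mul_of_pos_left _ (by positivity)
  have hdvd : b ^ m ∣ x + b ^ m * M * (N + 4 * M * G b m + 1) - 4 * M * G b m := by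
    rw [← Nat.modEq_iff_dvd' (by omega)]
    have h1 : x + b ^ m * M * (N + 4 * M * G b m + 1) ≡ x + 0 [MOD b ^ m] := by
      apply Nat.ModEq.add_left
      rw [Nat.modEq_zero_iff_dvd]
      exact ⟨M * (N + 4 * M * G b m + 1), by ring⟩
    exact (h1.trans hx1).symm
  obtain ⟨s, hs⟩ := hdvd
  refine ⟨s, by omega, ?_, by omega⟩
  have h2 : (M : ℤ) ∣ (x : ℤ) - 1 := by
    have := (Nat.modEq_iff_dvd.1 hx2.symm)
    exact_mod_cast this
  push_cast
  have : (x : ℤ) + b ^ m * M * (N + 4 * M * G b m + 1) - 1 =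
      ((x : ℤ) - 1) + M * (b ^ m * (N + 4 * M * G b m + 1)) := by ring
  rw [this]
  exact dvd_add h2 (dvd_mul_right _ _)

open Classical in
/-- THE SPOIL LEAF. -/
theorem spoil (Ms : Finset ℕ) (M m b K N1 : ℕ) (hM : 0 < M) (hMs : ∀ k ∈ Ms, 2 ^ K ≤ k ∧ k ∣ M)
    (hb : 2 ^ (K + 4) * M < b) (hcop : Nat.Coprime b M) :
    ∃ c : ℕ → ℕ, StrictMono c ∧ (∀ i j, i < j → c i + 4 * N1 < c j) ∧
      (∀ i j i' j', i ≠ j → i' ≠ j' → (i, j) ≠ (i', j') →
        4 * (N1 : ℤ) < |((c j : ℤ) - c i) - ((c j' : ℤ) - c i')|) ∧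
      (∀ T : ℤ, (((Finset.range K) ×ˢ (Finset.range K)).filter (fun p : ℕ × ℕ => p.1 ≠ p.2 ∧
        BadZ Ms M m b (T + c p.2 - c p.1))).card ≤ Ms.card + m) ∧
      (∀ T : ℕ, (((Finset.range K) ×ˢ (Finset.range K)).filter (fun p : ℕ × ℕ => p.1 ≠ p.2 ∧
        c p.1 ≤ T + c p.2 ∧ BadN Ms M m b (T + c p.2 - c p.1))).card ≤ Ms.card + m) := by
  have hb0 : 0 < b := by omega
  obtain ⟨K0, s, hN, h1, hK0⟩ := exists_K0 (m := m) hM hb0 hcop (4 * N1)
  have hZ : ∀ T : ℤ, (((Finset.range K) ×ˢ (Finset.range K)).filter (fun p : ℕ × ℕ => p.1 ≠ p.2 ∧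
        BadZ Ms M m b (T + (2 ^ p.2 * K0 : ℕ) - (2 ^ p.1 * K0 : ℕ)))).card ≤ Ms.card + m :=
    spoilZ hM hb (fun k hk => (hMs k hk).1)
      (fun k hk => (Int.natCast_dvd_natCast.2 (hMs k hk).2).trans h1) hK0
  have hstep : ∀ i j, i < j → 2 ^ i * K0 + 4 * N1 < 2 ^ j * K0 := by
    intro i j hij
    have h2 : 2 ^ (i + 1) ≤ 2 ^ j := Nat.pow_le_pow_right (by norm_num) hij
    have h3 : 2 ^ (i + 1) * K0 ≤ 2 ^ j * K0 := Nat.mul_le_mul_right _ h2
    have h4 : 2 ^ (i + 1) * K0 = 2 ^ i * K0 + 2 ^ i * K0 := by ring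
    have h5 : 1 * K0 ≤ 2 ^ i * K0 := Nat.mul_le_mul_right _ Nat.one_le_two_pow
    omega
  refine ⟨fun l => 2 ^ l * K0, ?_, hstep, ?_, hZ, ?_⟩
  · intro i j hij
    have := hstep i j hij
    show 2 ^ i * K0 < 2 ^ j * K0
    omega
  · intro i j i' j' hij hij' hne
    have hD : ((2 : ℤ) ^ j - 2 ^ i) - (2 ^ j' - 2 ^ i') ≠ 0 := by
      intro h0
      have := pair_unique hij hij' (by omega)
      exact hne (Prod.ext this.1 this.2)
    have : (((2 ^ j * K0 : ℕ) : ℤ) - ((2 ^ i * K0 : ℕ) : ℤ)) -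
        (((2 ^ j' * K0 : ℕ) : ℤ) - ((2 ^ i' * K0 : ℕ) : ℤ)) =
        (((2 : ℤ) ^ j - 2 ^ i) - (2 ^ j' - 2 ^ i')) * K0 := by push_cast; ring
    show 4 * (N1 : ℤ) < |(((2 ^ j * K0 : ℕ) : ℤ) - ((2 ^ i * K0 : ℕ) : ℤ)) -
        (((2 ^ j' * K0 : ℕ) : ℤ) - ((2 ^ i' * K0 : ℕ) : ℤ))|
    rw [this, abs_mul]
    have h2 : 1 ≤ |((2 : ℤ) ^ j - 2 ^ i) - (2 ^ j' - 2 ^ i')| := Int.one_le_abs hD
    have h3 : |(K0 : ℤ)| = K0 := abs_of_nonneg (by positivity)
    rw [h3]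
    have h4 : 1 * (K0 : ℤ) ≤ |((2 : ℤ) ^ j - 2 ^ i) - (2 ^ j' - 2 ^ i')| * K0 :=
      mul_le_mul_of_nonneg_right h2 (by positivity)
    have h5 : (4 * N1 : ℤ) < K0 := by exact_mod_cast hN
    omega
  · intro T
    refine le_trans (Finset.card_le_card ?_) (hZ (T : ℤ))
    intro p hp
    rw [Finset.mem_filter] at hp ⊢
    obtain ⟨hp1, hp2, hp3, hp4⟩ := hp
    refine ⟨hp1, hp2, ?_⟩
    rw [← badZ_cast] at hp4
    have : ((T + 2 ^ p.2 * K0 - 2 ^ p.1 * K0 : ℕ) : ℤ) =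
        (T : ℤ) + ((2 ^ p.2 * K0 : ℕ) : ℤ) - ((2 ^ p.1 * K0 : ℕ) : ℤ) := by
      have hp3' : 2 ^ p.1 * K0 ≤ T + 2 ^ p.2 * K0 := hp3
      rw [Nat.cast_sub hp3']; push_cast; ring
    rw [← this]
    exact hp4

end Crest.Agent.R320.Sp_913
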