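import Crest.Agent.R320.Top_550
import Crest.Agent.R320.Joint_47
import Crest.Agent.R320.WallU_228
import Crest.Agent.R320.G1_852
import Crest.Agent.R320.Sp_913
import Crest.Agent.R320.Univ_234
import Crest.Agent.R320.Two_621

/-!
# Row 320: final join (helper234): 550's top, 47's completeness, 228's walls, 852's gadget,
913's ruler, 237's exact gadget.
-/

set_option autoImplicit false

namespace Crest.Agent.R320.Fin_234

open Crest.RegLang
open Crest.Agent.R320.Hk_851 Crest.Agent.R320.Code110 Crest.Agent.R320.Pump_360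
open Crest.Agent.R320.Reg_819 Crest.Agent.R320.Top_550

variable {A : Type}

theorem reg_td [Finite A] {T : Type} [Monoid T] [Finite T] (F : A → T) (N : ℕ) (h : List A)
    (t : T) : Language.IsRegular ({Q | Q.take N = h ∧ pr F (Q.drop N) = t} : Language A) := by
  by_cases hl : h.length = N
  · refine reg_congr (reg_mul (HL.regular (HL.word (k := 0) h)) (reg_pr F t)) fun Q => ?_
    constructor
    · rintro ⟨h1, h2⟩
      exact Language.mem_mul.2 ⟨Q.take N, h1, Q.drop N, h2, List.take_append_drop _ _⟩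
    · intro hQ
      obtain ⟨X, hX, Y, hY, rfl⟩ := Language.mem_mul.1 hQ
      have hX' : X = h := hX
      subst hX'
      refine ⟨?_, ?_⟩
      · rw [← hl, List.take_left]
      · rw [← hl, List.drop_left]; exact hY
  · refine HL.regular (HL.finite (k := 0) ((Set.finite_singleton h).subset ?_))
    rintro Q ⟨h1, -⟩
    have h2 : (Q.take N).length = h.length := by rw [h1]
    rw [List.length_take] at h2
    have h3 : Q.length ≤ N := by
      by_contra hc
      push Not at hc
      rw [min_eq_left hc.le] at h2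
      exact hl h2.symm
    have h4 : Q.take N = Q := List.take_of_length_le h3
    show Q = h
    rw [← h1, h4]

theorem reg_local [Finite A] {S : Type} [Monoid S] [Finite S] (f : A → S) (N Mod : ℕ)
    (hMod : 0 < Mod) {Y : Type*} (g : List A → Y)
    (hg : ∀ Q Q' : List A, Q.take N = Q'.take N → pr f (Q.drop N) = pr f (Q'.drop N) →
      Q.length % Mod = Q'.length % Mod → g Q = g Q') (y : Y) :
    Language.IsRegular ({Q | g Q = y} : Language A) := by
  haveI : NeZero Mod := ⟨hMod.ne'⟩
  let F : A → S × Multiplicative (ZMod Mod) := fun a => (f a, Multiplicative.ofAdd 1)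
  have hF : ∀ w : List A, pr F w = (pr f w, Multiplicative.ofAdd ((w.length : ℕ) : ZMod Mod)) := by
    intro w
    induction w with
    | nil =>
      simp only [pr, List.map_nil, List.prod_nil, List.length_nil, Nat.cast_zero, ofAdd_zero]
      rfl
    | cons a w ih =>
      have e1 : pr F (a :: w) = F a * pr F w := by simp [pr]
      have e2 : pr f (a :: w) = f a * pr f w := by simp [pr]
      rw [e1, e2, ih]
      refine Prod.ext rfl ?_
      show Multiplicative.ofAdd (1 : ZMod Mod) * Multiplicative.ofAdd ((w.length : ℕ) : ZMod Mod)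
        = Multiplicative.ofAdd (((w.length + 1 : ℕ)) : ZMod Mod)
      rw [← ofAdd_add]
      congr 1
      push_cast
      ring
  have hfin : Set.Finite {q : List A × (S × Multiplicative (ZMod Mod)) | q.1.length ≤ N ∧
      ∃ Q, g Q = y ∧ Q.take N = q.1 ∧ pr F (Q.drop N) = q.2} := by
    refine ((List.finite_length_le A N).prod (Set.finite_univ
      (α := S × Multiplicative (ZMod Mod)))).subset ?_
    rintro ⟨a, b⟩ ⟨h1, -⟩
    exact ⟨h1, trivial⟩
  have := reg_biUnion hfin
    (L := fun q => ({Q | Q.take N = q.1 ∧ pr F (Q.drop N) = q.2} : Language A))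
    (fun q _ => reg_td F N q.1 q.2)
  refine reg_congr this fun Q => ?_
  constructor
  · intro hQ
    refine ⟨(Q.take N, pr F (Q.drop N)), ⟨?_, Q, hQ, rfl, rfl⟩, rfl, rfl⟩
    rw [List.length_take]; exact min_le_left _ _
  · rintro ⟨⟨a, b⟩, ⟨-, Q', h1, h2, h3⟩, h4, h5⟩
    have h4' : Q.take N = a := h4
    have h5' : pr F (Q.drop N) = b := h5
    have h2' : Q'.take N = a := h2
    have h3' : pr F (Q'.drop N) = b := h3
    have e : pr F (Q.drop N) = pr F (Q'.drop N) := by rw [h5', h3']
    rw [hF, hF] at e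
    have e1 := (Prod.ext_iff.1 e).1
    have e2 := (Prod.ext_iff.1 e).2
    have e3 : ((Q.drop N).length : ZMod Mod) = ((Q'.drop N).length : ZMod Mod) :=
      Multiplicative.ofAdd.injective e2
    rw [ZMod.natCast_eq_natCast_iff] at e3
    have e4 : (Q.take N).length = (Q'.take N).length := by rw [h4', h2']
    have e5 : Q.length = (Q.take N).length + (Q.drop N).length := by
      rw [← List.length_append, List.take_append_drop]
    have e6 : Q'.length = (Q'.take N).length + (Q'.drop N).length := by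
      rw [← List.length_append, List.take_append_drop]
    have e7 : Q.length % Mod = Q'.length % Mod := by
      rw [e5, e6, e4]
      exact Nat.ModEq.add_left _ e3
    show g Q = y
    rw [hg Q Q' (by rw [h4', h2']) e1 e7, h1]

theorem badN_per {Ms : Finset ℕ} {M m b n n' : ℕ} (hk : ∀ k ∈ Ms, k ∣ M)
    (h : n ≡ n' [MOD (M * b ^ m)]) :
    Sp_913.BadN Ms M m b n ↔ Sp_913.BadN Ms M m b n' := by
  have h1 : ∀ k ∈ Ms, (k ∣ n ↔ k ∣ n') := by
    intro k hk'
    exact (h.of_dvd ((hk k hk').mul_right _)).dvd_iff dvd_rfl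
  have h2 : ∀ j < m, n / b ^ j % b = n' / b ^ j % b := by
    intro j hj
    rw [← Nat.mod_mul_right_div_self, ← Nat.mod_mul_right_div_self]
    have h3 : b ^ j * b ∣ M * b ^ m := by
      rw [← pow_succ]
      exact (pow_dvd_pow b hj).mul_left _
    have h4 : n % (b ^ j * b) = n' % (b ^ j * b) := h.of_dvd h3
    rw [h4]
  unfold Sp_913.BadN
  constructor
  · rintro (⟨k, hk', h3⟩ | ⟨j, hj, h3⟩)
    · exact Or.inl ⟨k, hk', (h1 k hk').1 h3⟩
    · exact Or.inr ⟨j, hj, by rw [← h2 j hj]; exact h3⟩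
  · rintro (⟨k, hk', h3⟩ | ⟨j, hj, h3⟩)
    · exact Or.inl ⟨k, hk', (h1 k hk').2 h3⟩
    · exact Or.inr ⟨j, hj, by rw [h2 j hj]; exact h3⟩

theorem main [Finite A] (S : Type) [Monoid S] [Finite S] (f : A → S) (s : S) :
    HL 3 ({w | (w.map f).prod = s} : Language A) := by
  classical
  haveI := Fintype.ofFinite S
  let act : Two_621.Tok S → S → Two_621.Tok S := fun v s => Two_621.act v s
  obtain ⟨m, r, hG⟩ := G1_852.gadget (S := S) (V := Two_621.Tok S) act
  obtain ⟨K, hK⟩ := ExactR_237.exact_gadget A S (Two_621.Tok S) f act (2 * (r + m) + 2)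
  obtain ⟨Ms, M, hMs, hMk, hM0, hG'⟩ := hG (2 ^ K)
  obtain ⟨b, hbdef⟩ : ∃ b, b = 2 ^ (K + 4) * M + 1 := ⟨_, rfl⟩
  have hb0 : 0 < b := by omega
  have hcop : Nat.Coprime b M := by
    rw [hbdef]
    have : Nat.Coprime (1 + 2 ^ (K + 4) * M) M := by
      rw [Nat.coprime_add_mul_right_left]
      exact Nat.coprime_one_left M
    rwa [add_comm] at this
  obtain ⟨lam, rho, nu, g1, g2, g3, g4⟩ := hG' b hb0 hcop A f
  obtain ⟨N1, hN1⟩ : ∃ N1, N1 = b ^ m := ⟨_, rfl⟩
  obtain ⟨c, c1, c2, c3, c4, c5⟩ := Sp_913.spoil Ms M m b K N1 hM0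
    (fun k hk => ⟨(hMk k hk).1.le, (hMk k hk).2.2⟩) (by omega) hcop
  obtain ⟨lam2, rho2, nu2, e1, e2⟩ := hK c (fun i j hij _ => c1 hij)
  obtain ⟨p0, hp0⟩ : ∃ p0, p0 = c K := ⟨_, rfl⟩
  obtain ⟨n, Wo, w1, w2, w3, R, B, w4⟩ := WallU_228.walls (α := A) (2 * (N1 + p0) + 1)
  obtain ⟨z, hz⟩ : ∃ z, z = 3 * p0 + n + N1 + 1 := ⟨_, rfl⟩
  have hcp : ∀ k, k < K → c k ≤ p0 := fun k hk => by
    rw [hp0]; exact c1.monotone hk.le
  have hLW : Joint_47.LW n (2 * (N1 + p0) + 1) Wo := by
    refine ⟨w2, w1, fun X a t h1 h2 h3 h4 => ?_⟩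
    by_contra hc
    have h5 : (X.take t).length = t := by rw [List.length_take]; omega
    refine w3 (X.take t) (t - a) h4 (by omega) (by omega) ?_
    rw [h5, List.take_take, min_eq_left (by omega)]
    have : t - (t - a) = a := by omega
    rw [this]; exact h3
  have hMod : 0 < M * b ^ m := Nat.mul_pos hM0 (pow_pos hb0 m)
  have hnu : ∀ x, Language.IsRegular ({Y | nu Y = x} : Language A) := fun x =>
    reg_local f (b ^ m) (M * b ^ m) hMod nu (fun Q Q' h1 h2 h3 => (g4 Q Q' h1 h2 h3).2) x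
  have hBd : Language.IsRegular
      ({X | Joint_47.Bad Wo z N1 p0 (Sp_913.BadN Ms M m b) X} : Language A) := by
    have h0 := reg_local f (z + N1) (M * b ^ m) hMod
      (fun X => Joint_47.Bad Wo z N1 p0 (Sp_913.BadN Ms M m b) X) ?_ True
    · refine reg_congr h0 fun X => ?_
      exact ⟨fun h => eq_true h, fun h => of_eq_true h⟩
    · intro Q Q' h1 _ h3
      by_cases hQ : Q.length < z + N1
      · have h4 : Q.take (z + N1) = Q := List.take_of_length_le hQ.le
        have h5 : Q'.length < z + N1 := by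
          by_contra hc
          have h6 := congrArg List.length h1
          rw [h4, List.length_take, min_eq_left (by omega)] at h6
          omega
        have h7 : Q'.take (z + N1) = Q' := List.take_of_length_le h5.le
        rw [h4, h7] at h1
        rw [h1]
      · have hQ' : z + N1 ≤ Q'.length := by
          have h6 := congrArg List.length h1
          rw [List.length_take, List.length_take, min_eq_left (by omega)] at h6
          omega
        have htk : ∀ t, t < z + N1 → Q.take t = Q'.take t := by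
          intro t ht
          have h6 := congrArg (List.take t) h1
          rw [List.take_take, List.take_take, min_eq_left ht.le] at h6
          exact h6
        have hp : Q.length - p0 ≡ Q'.length - p0 [MOD (M * b ^ m)] := by
          refine Nat.ModEq.add_right_cancel' p0 ?_
          rw [Nat.sub_add_cancel (by omega), Nat.sub_add_cancel (by omega)]
          exact h3
        have hb' := badN_per (fun k hk => (hMk k hk).2.2) hp
        refine propext ?_
        constructor
        · rintro (⟨t, t1, t2, t3, t4⟩ | h)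
          · exact Or.inl ⟨t, t1, t2, by omega, by rw [← htk t t2]; exact t4⟩
          · exact Or.inr (hb'.1 h)
        · rintro (⟨t, t1, t2, t3, t4⟩ | h)
          · exact Or.inl ⟨t, t1, t2, by omega, by rw [htk t t2]; exact t4⟩
          · exact Or.inr (hb'.2 h)
  have hT : ∀ T : ℕ, (∀ k, k < K → c k ≤ T) → ∀ I : Finset ℕ,
      (∀ k ∈ I, k < K ∧ ∃ k', k' < K ∧ k' ≠ k ∧ Sp_913.BadN Ms M m b (T + c k' - c k)) →
        I.card ≤ r + m := by
    intro T hTc I hI
    choose! g hg using fun k (hk : k ∈ I) => (hI k hk).2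
    refine le_trans ?_ ((c5 T).trans (Nat.add_le_add_right hMs m))
    rw [← Finset.card_image_of_injective I (f := fun k => (k, g k))
      (fun a b h => (Prod.ext_iff.1 h).1)]
    refine Finset.card_le_card fun p hp => ?_
    obtain ⟨k, hk, rfl⟩ := Finset.mem_image.1 hp
    have h1 := (hI k hk).1
    obtain ⟨h2, h3, h4⟩ := hg k hk
    simp only [Finset.mem_filter, Finset.mem_product, Finset.mem_range]
    exact ⟨⟨h1, h2⟩, fun h => h3 h.symm, by have := hTc k h1; omega, h4⟩
  have hres : ∀ i i' j j', i < K → i' < K → j < K → j' < K → i' ≠ i → j' ≠ j →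
      c i + c j' < c j + c i' + 2 * N1 → c j + c i' < c i + c j' + 2 * N1 → i = j := by
    intro i i' j j' _ _ _ _ h1 h2 h3 h4
    by_contra hij
    have h5 := c3 i i' j j' h1.symm h2.symm (fun h => hij (Prod.ext_iff.1 h).1)
    rcases abs_cases (((c i' : ℤ) - c i) - ((c j' : ℤ) - c j)) with ⟨h6, _⟩ | ⟨h6, _⟩ <;>
      rw [h6] at h5 <;> omega
  refine Top_550.top (S := S) (V := Two_621.Tok S) f act (fun u v s => Two_621.act_add u v s)
    (fun v => Two_621.act_one v) (fun v s t => Two_621.act_mul v s t)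
    (fun s t h => Two_621.act_faithful h) Wo n z p0 w1 w2 (by omega) (by omega)
    ⟨R, B, w4⟩ (fun X => nu2 X 1) nu hnu
    (Joint_47.Bad Wo z N1 p0 (Sp_913.BadN Ms M m b)) hBd
    (fun v => {P | Joint_47.L1 f act p0 (fun X => nu2 X 1) lam v P})
    (fun v => {P | Joint_47.L2 K c lam2 v P}) ?_ ?_ ?_ ?_ s
  · intro x
    refine (List.finite_length_le A (p0 + N1)).subset ?_
    rintro P ⟨h1, h2⟩
    have h3 := g1 _ _ h2
    rw [List.length_drop] at h3
    show P.length ≤ p0 + N1
    omega
  · intro x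
    refine (List.finite_length_le A p0).subset ?_
    rintro P ⟨k, h1, h2, -⟩
    show P.length ≤ p0
    rw [h2]; exact hcp k h1
  · intro u hu hb x
    obtain ⟨p, q, h1, h2, h3, h4⟩ := Joint_47.complete1 (n := n) (W := 2 * (N1 + p0) + 1)
      (N1 := N1) (N0 := 0) (z := z) f act p0 (fun X => nu2 X 1) nu hLW (lam := lam) (rho := rho)
      (BadT := Sp_913.BadN Ms M m b)
      (fun P Q v r h h' => g2 P Q v r h h') (fun P v h => by have := g1 P v h; omega)
      (fun Y _ hY v => by
        have hY1 : ∀ k ∈ Ms, ¬ k ∣ Y.length := fun k hk h => hY (Or.inl ⟨k, hk, h⟩)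
        have hY2 : ∀ j < m, M ≤ Y.length / b ^ j % b ∧ Y.length / b ^ j % b + M < b := by
          intro j hj
          by_contra hc
          exact hY (Or.inr ⟨j, hj, hc⟩)
        obtain ⟨P, Q, q1, q2, v', q3⟩ := g3 Y hY1 hY2 v
        exact ⟨P, Q, q1, q2, by rw [q3]; rfl⟩)
      (by omega) (by omega) (X := u) ⟨hu.2.1, hu.1, hu.2.2⟩ hb x
    refine ⟨p, q, tau f act p0 (fun X => nu2 X 1) nu u x, h1, h2, ?_⟩
    intro x' p' hp'
    obtain ⟨h5, h6⟩ := h4 x' p' hp'
    exact Or.inl ⟨_, Language.mem_mul.2 ⟨p' ++ q, ⟨⟨h5.2.1, h5.1, h5.2.2⟩, h6⟩, [], ⟨rfl, rfl⟩,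
      List.append_nil _⟩⟩
  · intro u hu x t ht
    obtain ⟨p, q, h1, h2, h3, h4⟩ := Joint_47.complete2 (n := n) (W := 2 * (N1 + p0) + 1)
      (N1 := N1) (z := z) (K := K) (R1 := r + m) (f := f) (act := act) (p0 := p0) (nu1 := nu)
      (BadT := Sp_913.BadN Ms M m b) hLW (c := c) (lam2 := lam2) (rho2 := rho2) (nu2' := nu2)
      (fun k hk P Q y v b h h' h'' => e1 k hk P Q y v b h h' h'') (fun u y v h => e2 u y v h)
      (fun i j hij _ => c1 hij) hcp hres hT (by omega) (by omega) (u := u) (u1 := t)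
      ⟨hu.1.2.1, hu.1.1, hu.1.2.2⟩ ⟨ht.1.2.1, ht.1.1, ht.1.2.2⟩ hu.2 x
    refine ⟨p, q, tau f act p0 (fun X => nu2 X 1) nu t (tau f act p0 (fun X => nu2 X 1) nu u x),
      h1, h2, ?_⟩
    intro x' p' hp'
    rcases h4 x' p' hp' with ⟨a, ha, hab, hpa, hTa⟩ | ⟨a, ha, hab, hpa⟩
    · left
      have hTa' : tau f act p0 (fun X => nu2 X 1) nu a x' =
          tau f act p0 (fun X => nu2 X 1) nu u x := hTa
      rw [hpa]
      refine ⟨_, Language.mem_mul.2 ⟨a, ⟨⟨⟨ha.2.1, ha.1, ha.2.2⟩, hab⟩, rfl⟩, t,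
        ⟨_, Language.mem_mul.2 ⟨t, ⟨ht, rfl⟩, [], ⟨rfl, ?_⟩, List.append_nil _⟩⟩, rfl⟩⟩
      rw [hTa']
    · right
      exact Or.inl ⟨a, ⟨ha.2.1, ha.1, ha.2.2⟩, fun h => hab h.2, hpa⟩

/-- the row -/
theorem fin {α : Type*} [Finite α] (L : Language α) (hL : L.IsRegular) :
    ∃ e : GRegExp α, e.height ≤ 3 ∧ e.lang = L :=
  Univ_234.of_type_monoid (k := 3) (fun A _ S _ _ φ s => main S φ s) L hL

end Crest.Agent.R320.Fin_234
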