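import Crest.Agent.R320.SemTop_727
import Crest.Agent.R320.Spoil_814
import Crest.Agent.R320.Fib_298
import Crest.Agent.R320.G1_256
import Crest.Agent.R320.Sp_69
import Crest.Agent.R320.LWallAll_922
import Crest.Agent.R320.Loc_645
import Crest.Agent.R320.Univ_582

/-!
# Row 320: the join (helper237)

SemTop_727.top + JointSem_814 + Spoil_814 + Fib_298 + G1_256.g1 + Sp_69.spoil + ExactR_237 +
LWallAll_922 + Loc_645.
-/

set_option autoImplicit false

namespace Crest.Agent.R320.Fin_237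

open Finset Crest.Agent.R320.Hk_851 Crest.Agent.R320.Blk467

/-- **fin** -/
theorem fin (α : Type) [Finite α] (S : Type) [Monoid S] [Finite S] (f : α → S) (s : S) :
    HL 3 ({w | (w.map f).prod = s} : Language α) := by
  classical
  haveI := Fintype.ofFinite S
  obtain ⟨act, hadd, hone, hmul, hfaith⟩ := exists_module S
  obtain ⟨m, r, H1⟩ := G1_256.g1 S (S → ZMod 2) act
  obtain ⟨K, HK⟩ := ExactR_237.exact_gadget α S (S → ZMod 2) f act (2 + 2 * (r + m))
  obtain ⟨Ms, M, hMs, hMp, hM, H2⟩ := H1 (2 * 4 ^ K)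
  have h4K : 1 ≤ 4 ^ K := Nat.one_le_pow _ _ (by norm_num)
  obtain ⟨b, hb⟩ : ∃ b, b = (18 * 4 ^ K + 8) * M + 1 := ⟨_, rfl⟩
  have hb1 : 18 * 4 ^ K * M ≤ b := by rw [hb]; nlinarith
  have hb2 : 4 * M + 4 < b := by rw [hb]; nlinarith
  have hcop : Nat.Coprime b M := by
    rw [hb, Nat.coprime_mul_right_add_left]
    exact Nat.coprime_one_left M
  obtain ⟨lam, rho, nu1, hl1, hs1, hc1, hf1⟩ := H2 b hb2 hcop α f
  obtain ⟨N, hN⟩ : ∃ N, N = b ^ m := ⟨_, rfl⟩
  have hb0 : 0 < b := by omega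
  have hN0 : 0 < N := by rw [hN]; positivity
  obtain ⟨c, hcs, hcr, -, -, hct⟩ := Sp_69.spoil Ms M m b K N hM
    (fun k hk => ⟨(hMp k hk).2.2, (hMp k hk).1⟩) hb1 hcop
  have hcm : ∀ i j, i < j → c i < c j := fun i j hij => by have := hcs i j hij; omega
  obtain ⟨lam2, rho2, nu2, hs2, hc2⟩ := HK c (fun i j hij _ => hcm i j hij)
  obtain ⟨p0, hp0⟩ : ∃ p0, p0 = c K := ⟨_, rfl⟩
  have hcp : ∀ k < K, c k ≤ p0 := fun k hk => by rw [hp0]; exact (hcm k K hk).le
  obtain ⟨n, G, B, Wo, hLW, hgap, -, -, hfree⟩ :=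
    LWallAll_922.walls_all_left α (2 * (N + p0) + 1) (by omega)
  have hW : JointSem_814.Walls n (2 * (N + p0) + 1) Wo := by
    refine ⟨hLW.app, hLW.len, fun X a t h1 h2 h3 h4 h5 => ?_⟩
    have := hgap X a t h1 h3 h4 h5
    omega
  have hU : Fib_298.WallU Wo n (max B (2 * (N + p0) + 1)) := by
    refine ⟨hLW.app, hLW.len, fun X hX => ?_⟩
    obtain ⟨u, x, v, j, h1, h2, h3, h4⟩ := hfree X hX
    exact ⟨u, x, v, j, h4, h1.trans (le_max_left _ _), h2.trans (le_max_right _ _),
      h3.trans (le_max_left _ _)⟩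
  obtain ⟨z, hz⟩ : ∃ z, z = 3 * p0 + 2 * N + n + 1 := ⟨_, rfl⟩
  have hXX : JointSem_814.XX Wo z = Fib_298.XX Wo z := by
    ext X
    constructor
    · rintro ⟨h1, h2, h3⟩
      exact ⟨h2, h1, h3⟩
    · rintro ⟨h1, h2, h3⟩
      exact ⟨h2, h1, h3⟩
  let φ : List α → S := fun w => (w.map f).prod
  let n2 : List α → (S → ZMod 2) := fun w => nu2 w 1
  let D : SemTop_727.Sch α (S → ZMod 2) :=
    { XX := JointSem_814.XX Wo z
      T := JointSem_814.T p0 φ act nu1 n2
      L1 := JointSem_814.L1 p0 φ act n2 lam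
      L2 := JointSem_814.L2 K c lam2 }
  have hφ : ∀ u v : List α, φ (u ++ v) = φ u * φ v := fun u v => by
    simp only [φ, List.map_append, List.prod_append]
  have hreg : ∀ y, Language.IsRegular ({Y | nu1 Y = y} : Language α) := fun y => by
    refine Loc_645.isRegular_of_read' f (b ^ m) (M * b ^ m) (by positivity) (fun Y => nu1 Y = y) ?_
    intro q q' a1 a2 a3 a4 a5 a6
    exact ((hf1 q q' a1 a2 a3 a5 a4).2.symm).trans a6
  have hBT : ∀ T, p0 ≤ T → ∃ J : Finset ℕ, J.card ≤ r + m ∧ ∀ a < K, ∀ b' < K, a ≠ b' →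
      Sp_69.BadN Ms M m b (T + c b' - c a) → a ∈ J := by
    intro T hT
    refine ⟨((range K ×ˢ range K).filter
      (fun ab => ab.1 ≠ ab.2 ∧ Sp_69.BadN Ms M m b (T + c ab.2 - c ab.1))).image Prod.fst,
      ?_, ?_⟩
    · refine card_image_le.trans ((hct T fun k hk => (hcp k hk).trans hT).trans ?_)
      omega
    · intro a ha b' hb' hab hbad
      rw [mem_image]
      refine ⟨(a, b'), ?_, rfl⟩
      rw [mem_filter, mem_product, mem_range, mem_range]
      exact ⟨⟨ha, hb'⟩, hab, hbad⟩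
  refine SemTop_727.top (k := 1) act hadd hone hmul hfaith f
    (fun X => act (n2 (X.take p0)) (φ (X.drop p0)) + nu1 (X.drop p0)) D ?_ ?_ ?_ ?_ ?_ ?_ ?_ s
  · -- T
    intro v X
    show JointSem_814.T p0 φ act nu1 n2 v X = _
    unfold JointSem_814.T
    rw [hadd, ← hmul, ← hφ, List.take_append_drop, add_assoc]
  · show PCode (JointSem_814.XX Wo z)
    rw [hXX]
    exact Fib_298.pcode_XX (by omega)
  · intro x y
    have := Fib_298.hfib hU (z := z) (by omega) act f p0 (by omega)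
      (fun v X0 => act v (φ X0) + n2 X0) nu1 hreg x y
    rw [← hXX] at this
    exact this
  · -- L1 finite
    intro x
    refine (List.finite_length_le α (p0 + N)).subset fun P hP => ?_
    obtain ⟨h1, h2⟩ := hP
    have := hl1 _ _ h2
    rw [List.length_drop] at this
    show P.length ≤ p0 + N
    omega
  · -- L2 finite
    intro x
    refine (List.finite_length_le α p0).subset fun P hP => ?_
    obtain ⟨k, hk, h1, h2⟩ := hP
    show P.length ≤ p0
    rw [h1]
    exact hcp k hk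
  · -- scheme 2
    intro X1 hX1 X2 hX2 x
    refine JointSem_814.compl2 (n := n) (N := N) (N0 := 0) (R := 2 + 2 * (r + m))
      (rho := rho) (BadT := Sp_69.BadN Ms M m b) (rho2 := fun k Q => rho2 k Q 1) hW
      (by omega) (by omega) ?_ ?_ ?_ hcp ?_ ?_ ?_ hX1.1 hX2 x
    · intro p v hp
      have := hl1 p v hp
      omega
    · intro p q v r' h1 h2
      exact hs1 p q v r' h1 h2
    · intro u _ hu v
      refine hc1 u ?_ ?_ v
      · intro k hk hd
        exact hu (Or.inl ⟨k, hk, hd⟩)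
      · intro j hj
        by_contra hcon
        exact hu (Or.inr ⟨j, hj, hcon⟩)
    · intro k hk P Q v b' h1 h2 h3
      have := hs2 k hk P Q 1 v b' h1 h2 h3
      rw [mul_one] at this
      exact this
    · intro u v hu
      exact hc2 u 1 v hu
    · intro U _
      obtain ⟨J, hJ, hJ'⟩ := JointSem_814.spoil hW (z := z) (p0 := p0) (N := N) (K := K)
        (C0 := r + m) (T0 := p0) (by omega) (by omega) (c := c) hcp
        (fun a b1 a' b2 _ _ _ _ h1 h2 h3 h4 => by
          by_contra hne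
          rcases hcr a b1 a' b2 h1 h2 (fun h => hne (by rw [Prod.mk.injEq] at h; exact h.1)) with
            h | h <;> omega) hBT U
      exact ⟨J, by omega, hJ'⟩
  · intro s'
    have := Fib_298.rest hU (z := z) (by omega) f s'
    rw [← hXX] at this
    exact this.mono (by norm_num)

end Crest.Agent.R320.Fin_237
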