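import Mathlib

/-!
# Row 320: ruler for the digit gadget (spoil leaf of #13673), helper249

`c l = 2 ^ l * K0`, `K0 = 1 mod M`, `K0 = 4 M (1 + b + .. + b^(m-1)) mod b^m`: every condition
`k ∣ n` and every condition "digit `j` of `n` near `0` or `b`" is met by at most one ordered pair.
-/

set_option autoImplicit false

namespace Crest.Agent.R320.Sp_249

/-- the bad lengths of the digit gadget -/
def Bad (Ms : Finset ℕ) (M b m n : ℕ) : Prop :=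
  (∃ k ∈ Ms, k ∣ n) ∨ ∃ j < m, ¬ (M ≤ n / b ^ j % b ∧ n / b ^ j % b + M + 1 ≤ b)

theorem pow_pair {a b c d : ℕ} (h : 2 ^ a + 2 ^ b = 2 ^ c + 2 ^ d) (hab : a ≤ b) (hcd : c ≤ d) :
    a = c ∧ b = d := by
  have h1 : ∀ x y z w : ℕ, 2 ^ x + 2 ^ y = 2 ^ z + 2 ^ w → z ≤ w → y ≤ w := by
    intro x y z w h hzw
    have h2 : 2 ^ y < 2 ^ (w + 1) := by
      have : 2 ^ z ≤ 2 ^ w := Nat.pow_le_pow_right (by norm_num) hzw
      have h0 : 0 < 2 ^ x := by positivity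
      rw [pow_succ]; omega
    have := (Nat.pow_lt_pow_iff_right (by norm_num : 1 < 2)).1 h2
    omega
  have hbd : b = d := le_antisymm (h1 _ _ _ _ h hcd) (h1 _ _ _ _ h.symm hab)
  subst hbd
  have : 2 ^ a = 2 ^ c := by omega
  exact ⟨Nat.pow_right_injective (le_refl 2) this, rfl⟩

theorem diff_inj {i j k l : ℕ} (hij : i ≠ j) (hkl : k ≠ l)
    (h : (2:ℤ) ^ j - 2 ^ i = 2 ^ l - 2 ^ k) : i = k ∧ j = l := by
  have h' : 2 ^ j + 2 ^ k = 2 ^ l + 2 ^ i := by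
    have : (2:ℤ) ^ j + 2 ^ k = 2 ^ l + 2 ^ i := by linarith
    exact_mod_cast this
  rcases le_total j k with h1 | h1 <;> rcases le_total l i with h2 | h2
  · obtain ⟨a, b⟩ := pow_pair h' h1 h2
    exact ⟨b.symm, a⟩
  · have h3 : 2 ^ j + 2 ^ k = 2 ^ i + 2 ^ l := by omega
    obtain ⟨a, b⟩ := pow_pair h3 h1 h2
    exact absurd a.symm hij
  · have h3 : 2 ^ k + 2 ^ j = 2 ^ l + 2 ^ i := by omega
    obtain ⟨a, b⟩ := pow_pair h3 h1 h2
    exact absurd a hkl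
  · have h3 : 2 ^ k + 2 ^ j = 2 ^ i + 2 ^ l := by omega
    obtain ⟨a, b⟩ := pow_pair h3 h1 h2
    exact ⟨a.symm, b⟩

theorem diff_lt {K i j k l : ℕ} (hi : i < K) (hj : j < K) (hk : k < K) (hl : l < K) :
    |((2:ℤ) ^ j - 2 ^ i) - (2 ^ l - 2 ^ k)| < 2 ^ K := by
  have hK : 0 < K := by omega
  have key : ∀ x, x < K → (0:ℤ) < 2 ^ x ∧ (2:ℤ) ^ x ≤ 2 ^ (K - 1) := by
    intro x hx
    refine ⟨by positivity, ?_⟩
    exact pow_le_pow_right₀ (by norm_num) (by omega)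
  have h2 : (2:ℤ) ^ K = 2 * 2 ^ (K - 1) := by
    rw [← pow_succ']; congr 1; omega
  obtain ⟨a1, a2⟩ := key i hi
  obtain ⟨b1, b2⟩ := key j hj
  obtain ⟨c1, c2⟩ := key k hk
  obtain ⟨d1, d2⟩ := key l hl
  rw [abs_lt, h2]
  constructor <;> linarith

/-- a number with a bad digit `j` is near a multiple of `b ^ (j+1)` -/
theorem near {M b j n : ℕ} (hb : 0 < b)
    (h : ¬ (M ≤ n / b ^ j % b ∧ n / b ^ j % b + M + 1 ≤ b)) :
    ∃ e : ℤ, |(n:ℤ) - e * b ^ (j + 1)| ≤ M * b ^ j := by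
  set d := n / b ^ j % b with hd
  set q := n / b ^ j / b with hq
  set rem := n % b ^ j with hr
  have hbj : 0 < b ^ j := Nat.pow_pos hb
  have e1 : n = b ^ j * (n / b ^ j) + rem := (Nat.div_add_mod n (b ^ j)).symm
  have e2 : n / b ^ j = b * q + d := (Nat.div_add_mod (n / b ^ j) b).symm
  have hrem : rem < b ^ j := Nat.mod_lt _ hbj
  have hdb : d < b := Nat.mod_lt _ hb
  have e3 : (n:ℤ) = q * (b:ℤ) ^ (j + 1) + d * (b:ℤ) ^ j + rem := by
    have : n = b ^ j * (b * q + d) + rem := by rw [← e2]; exact e1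
    have h' : (n:ℤ) = (b:ℤ) ^ j * (b * q + d) + rem := by exact_mod_cast this
    rw [h']; ring
  have hremZ : (rem:ℤ) < (b:ℤ) ^ j := by exact_mod_cast hrem
  have hrem0 : (0:ℤ) ≤ rem := by positivity
  have hbjZ : (0:ℤ) < (b:ℤ) ^ j := by exact_mod_cast hbj
  by_cases h1 : M ≤ d
  · have h2 : b ≤ d + M := by
      by_contra hc
      exact h ⟨h1, by omega⟩
    refine ⟨(q:ℤ) + 1, ?_⟩
    have h2Z : (b:ℤ) ≤ d + M := by exact_mod_cast h2
    have hdZ : (d:ℤ) + 1 ≤ b := by exact_mod_cast hdb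
    have e4 : (n:ℤ) - ((q:ℤ) + 1) * (b:ℤ) ^ (j + 1) = ((d:ℤ) - b) * (b:ℤ) ^ j + rem := by
      rw [e3]; ring
    rw [e4, abs_le]
    constructor
    · nlinarith
    · nlinarith
  · push Not at h1
    refine ⟨(q:ℤ), ?_⟩
    have h1Z : (d:ℤ) + 1 ≤ M := by exact_mod_cast h1
    have e4 : (n:ℤ) - (q:ℤ) * (b:ℤ) ^ (j + 1) = (d:ℤ) * (b:ℤ) ^ j + rem := by
      rw [e3]; ring
    have hd0 : (0:ℤ) ≤ d := by positivity
    rw [e4, abs_le]
    constructor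
    · nlinarith [mul_nonneg hd0 hbjZ.le]
    · nlinarith

/-- the geometric sum modulo a smaller power -/
theorem geo (b m j : ℕ) (hj : j < m) :
    ∃ s : ℤ, (∑ i ∈ Finset.range m, (b:ℤ) ^ i)
      = (∑ i ∈ Finset.range (j + 1), (b:ℤ) ^ i) + s * (b:ℤ) ^ (j + 1) := by
  obtain ⟨t, rfl⟩ : ∃ t, m = (j + 1) + t := ⟨m - (j + 1), by omega⟩
  refine ⟨∑ i ∈ Finset.range t, (b:ℤ) ^ i, ?_⟩
  rw [Finset.sum_range_add, Finset.sum_mul]
  congr 1
  refine Finset.sum_congr rfl fun i _ => ?_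
  rw [pow_add]; ring

theorem geo_bd (b j : ℕ) (hb : 2 ≤ b) :
    (b:ℤ) ^ j ≤ (∑ i ∈ Finset.range (j + 1), (b:ℤ) ^ i) ∧
      (∑ i ∈ Finset.range (j + 1), (b:ℤ) ^ i) ≤ 2 * (b:ℤ) ^ j := by
  have hbZ : (2:ℤ) ≤ b := by exact_mod_cast hb
  have h : ∀ j, (0:ℤ) ≤ (∑ i ∈ Finset.range j, (b:ℤ) ^ i) ∧
      (∑ i ∈ Finset.range j, (b:ℤ) ^ i) ≤ (b:ℤ) ^ j := by
    intro j
    induction j with
    | zero => simp
    | succ j ih =>
      have hp : (0:ℤ) < (b:ℤ) ^ j := by positivity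
      rw [Finset.sum_range_succ, pow_succ]
      exact ⟨by linarith [ih.1], by nlinarith [ih.2]⟩
  rw [Finset.sum_range_succ]
  exact ⟨by linarith [(h j).1], by linarith [(h j).2]⟩

theorem one_digit {M b m K K0 j : ℕ} (hM : 0 < M) (hb : 2 ^ (K + 6) * M < b) (hj : j < m)
    (hK0 : ∃ t : ℤ, (K0:ℤ) = 4 * M * (∑ i ∈ Finset.range m, (b:ℤ) ^ i) + t * (b:ℤ) ^ m)
    {n n' : ℕ} {D : ℤ} (hD : (n:ℤ) - n' = D * K0) (hD0 : D ≠ 0) (hDK : |D| < 2 ^ K)
    (h : ¬ (M ≤ n / b ^ j % b ∧ n / b ^ j % b + M + 1 ≤ b))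
    (h' : ¬ (M ≤ n' / b ^ j % b ∧ n' / b ^ j % b + M + 1 ≤ b)) : False := by
  have hb2 : 2 ≤ b := by
    have : 1 ≤ 2 ^ (K + 6) * M := Nat.mul_pos (by positivity) hM
    omega
  obtain ⟨e, he⟩ := near (by omega) h
  obtain ⟨e', he'⟩ := near (by omega) h'
  obtain ⟨t, ht⟩ := hK0
  obtain ⟨s, hs⟩ := geo b m j hj
  obtain ⟨g1, g2⟩ := geo_bd b j hb2
  set G := (∑ i ∈ Finset.range (j + 1), (b:ℤ) ^ i) with hG
  obtain ⟨u, hu⟩ : ∃ u : ℤ, (b:ℤ) ^ m = u * (b:ℤ) ^ (j + 1) := by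
    refine ⟨(b:ℤ) ^ (m - (j + 1)), ?_⟩
    rw [← pow_add]; congr 1; omega
  have hbj : (0:ℤ) < (b:ℤ) ^ j := by
    have : (0:ℤ) < b := by exact_mod_cast (by omega : 0 < b)
    positivity
  have hMZ : (0:ℤ) < M := by exact_mod_cast hM
  set X := (M:ℤ) * (b:ℤ) ^ j with hX
  have hXpos : 0 < X := mul_pos hMZ hbj
  -- the difference
  have e1 : D * (4 * M * G) - ((e - e') - D * (4 * M * s + t * u)) * (b:ℤ) ^ (j + 1)
      = ((n:ℤ) - e * (b:ℤ) ^ (j + 1)) - ((n':ℤ) - e' * (b:ℤ) ^ (j + 1)) := by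
    have : (n:ℤ) = n' + D * K0 := by linarith
    rw [this, ht, hs, hu]; ring
  set f := (e - e') - D * (4 * M * s + t * u) with hf
  have e2 : |D * (4 * M * G) - f * (b:ℤ) ^ (j + 1)| ≤ 2 * X := by
    rw [e1]
    calc _ ≤ |(n:ℤ) - e * (b:ℤ) ^ (j + 1)| + |(n':ℤ) - e' * (b:ℤ) ^ (j + 1)| := abs_sub _ _
      _ ≤ _ := by rw [hX]; linarith
  have hD1 : 1 ≤ |D| := Int.one_le_abs hD0
  have hGpos : 0 < G := lt_of_lt_of_le hbj g1
  have e3 : |D * (4 * M * G)| = |D| * (4 * M * G) := by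
    rw [abs_mul, abs_of_pos (by positivity : (0:ℤ) < 4 * M * G)]
  have l1 : 4 * X ≤ 4 * M * G := by
    have := mul_le_mul_of_nonneg_left g1 (by positivity : (0:ℤ) ≤ 4 * M)
    calc 4 * X = 4 * M * (b:ℤ) ^ j := by rw [hX]; ring
      _ ≤ _ := this
  have l2 : 4 * M * G ≤ 8 * X := by
    have := mul_le_mul_of_nonneg_left g2 (by positivity : (0:ℤ) ≤ 4 * M)
    calc 4 * M * G ≤ 4 * M * (2 * (b:ℤ) ^ j) := this
      _ = _ := by rw [hX]; ring
  have low : 4 * X ≤ |D * (4 * M * G)| := by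
    rw [e3]
    exact l1.trans (le_mul_of_one_le_left (by positivity) hD1)
  have up : |D * (4 * M * G)| ≤ 2 ^ K * (8 * X) := by
    rw [e3]
    exact mul_le_mul hDK.le l2 (by positivity) (by positivity)
  rcases eq_or_ne f 0 with hf0 | hf0
  · rw [hf0] at e2
    simp only [zero_mul, sub_zero] at e2
    linarith
  · have hf1 : 1 ≤ |f| := Int.one_le_abs hf0
    have hbZ : (2:ℤ) ^ (K + 6) * M < b := by exact_mod_cast hb
    have e4 : |f * (b:ℤ) ^ (j + 1)| = |f| * (b:ℤ) ^ (j + 1) := by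
      rw [abs_mul, abs_of_pos (by positivity : (0:ℤ) < (b:ℤ) ^ (j + 1))]
    have e5 : (2:ℤ) ^ (K + 6) * X < (b:ℤ) ^ (j + 1) := by
      have := mul_lt_mul_of_pos_right hbZ hbj
      calc (2:ℤ) ^ (K + 6) * X = (2:ℤ) ^ (K + 6) * M * (b:ℤ) ^ j := by rw [hX]; ring
        _ < b * (b:ℤ) ^ j := this
        _ = _ := by ring
    have e6 : (b:ℤ) ^ (j + 1) ≤ |f * (b:ℤ) ^ (j + 1)| := by
      rw [e4]
      have h0 : (0:ℤ) < (b:ℤ) ^ (j + 1) := by linarith [mul_pos (by positivity : (0:ℤ) < 2 ^ (K+6)) hXpos]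
      exact le_mul_of_one_le_left h0.le hf1
    have e7 : |f * (b:ℤ) ^ (j + 1)| ≤ |D * (4 * M * G)| + 2 * X := by
      have := abs_sub_abs_le_abs_sub (f * (b:ℤ) ^ (j + 1)) (D * (4 * M * G))
      rw [abs_sub_comm] at this
      linarith
    have e8 : (2:ℤ) ^ (K + 6) = 64 * 2 ^ K := by rw [pow_add]; norm_num; ring
    have h2K : (1:ℤ) ≤ 2 ^ K := one_le_pow₀ (by norm_num)
    rw [e8] at e5
    have e9 : X ≤ 2 ^ K * X := le_mul_of_one_le_left hXpos.le h2K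
    have e10 : (64 * (2:ℤ) ^ K) * X = 64 * (2 ^ K * X) := by ring
    have e11 : (2:ℤ) ^ K * (8 * X) = 8 * (2 ^ K * X) := by ring
    rw [e10] at e5
    rw [e11] at up
    linarith

open Classical in
/-- **Spoil leaf** -/
theorem spoil (Ms : Finset ℕ) (M b m K N1 : ℕ) (hM : 0 < M)
    (hMs : ∀ k ∈ Ms, 4 ^ K < k ∧ k ∣ M) (hb : 2 ^ (K + 6) * M < b) (hco : Nat.Coprime b M) :
    ∃ c : ℕ → ℕ, (∀ i j, i < j → c i + 4 * N1 < c j) ∧
      (∀ i j k l, i ≠ j → k ≠ l → (i, j) ≠ (k, l) →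
        c i + c l + 4 * N1 < c k + c j ∨ c k + c j + 4 * N1 < c i + c l) ∧
      (∀ l, 4 * N1 < c l) ∧
      ∀ T : ℕ, (∀ l < K, c l ≤ T) →
        ((Finset.range K ×ˢ Finset.range K).filter
          (fun p => p.1 ≠ p.2 ∧ Bad Ms M b m (T + c p.2 - c p.1))).card ≤ Ms.card + m := by
  -- choose K0
  obtain ⟨K0, hK1, hKM, hKb⟩ : ∃ K0 : ℕ, 4 * N1 < K0 ∧ (∃ t : ℤ, (K0:ℤ) = 1 + t * M) ∧
      (∃ t : ℤ, (K0:ℤ) = 4 * M * (∑ i ∈ Finset.range m, (b:ℤ) ^ i) + t * (b:ℤ) ^ m) := by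
    have hcm : Nat.Coprime M (b ^ m) := (Nat.Coprime.pow_right m hco.symm)
    obtain ⟨x, hx1, hx2⟩ := Nat.chineseRemainder hcm 1 (4 * M * ∑ i ∈ Finset.range m, b ^ i)
    have hb0 : 0 < b := by omega
    have hbm : 0 < M * b ^ m := Nat.mul_pos hM (Nat.pow_pos hb0)
    refine ⟨x + (4 * N1 + 1) * (M * b ^ m), ?_, ?_, ?_⟩
    · nlinarith
    · obtain ⟨t, ht⟩ := (Nat.modEq_iff_dvd.1 hx1)
      refine ⟨-t + (4 * N1 + 1) * b ^ m, ?_⟩
      push_cast at ht ⊢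
      have : (x:ℤ) = 1 - M * t := by linarith
      rw [this]; ring
    · obtain ⟨t, ht⟩ := (Nat.modEq_iff_dvd.1 hx2)
      refine ⟨-t + (4 * N1 + 1) * M, ?_⟩
      push_cast at ht ⊢
      have : (x:ℤ) = 4 * M * (∑ i ∈ Finset.range m, (b:ℤ) ^ i) - b ^ m * t := by linarith
      rw [this]; ring
  have hc : ∀ i j, i < j → 2 ^ i * K0 + 4 * N1 < 2 ^ j * K0 := by
    intro i j hij
    have h1 : 2 ^ i + 1 ≤ 2 ^ j := Nat.pow_lt_pow_right (by norm_num) hij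
    have := Nat.mul_le_mul_right K0 h1
    rw [Nat.add_mul] at this
    omega
  refine ⟨fun l => 2 ^ l * K0, hc, ?_, ?_, ?_⟩
  · intro i j k l hij hkl hne
    have hd : (2:ℤ) ^ j - 2 ^ i ≠ 2 ^ l - 2 ^ k := by
      intro h
      obtain ⟨a, b⟩ := diff_inj hij hkl h
      exact hne (by rw [a, b])
    have hK1Z : (4:ℤ) * N1 < K0 := by exact_mod_cast hK1
    rcases lt_or_gt_of_ne hd with h | h
    · right
      zify
      nlinarith [mul_le_mul_of_nonneg_right (Int.add_one_le_iff.2 h) (by positivity : (0:ℤ) ≤ K0)]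
    · left
      zify
      nlinarith [mul_le_mul_of_nonneg_right (Int.add_one_le_iff.2 h) (by positivity : (0:ℤ) ≤ K0)]
  · intro l
    have : 1 ≤ 2 ^ l := Nat.one_le_two_pow
    have := Nat.mul_le_mul_right K0 this
    show 4 * N1 < 2 ^ l * K0
    omega
  · intro T hT
    simp only
    -- the two families
    set P := (Finset.range K ×ˢ Finset.range K).filter (fun p => p.1 ≠ p.2) with hP
    have hmem : ∀ p ∈ P, p.1 < K ∧ p.2 < K ∧ p.1 ≠ p.2 := by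
      intro p hp
      simp only [hP, Finset.mem_filter, Finset.mem_product, Finset.mem_range] at hp
      exact ⟨hp.1.1, hp.1.2, hp.2⟩
    set n : ℕ × ℕ → ℕ := fun p => T + 2 ^ p.2 * K0 - 2 ^ p.1 * K0 with hn
    have hnZ : ∀ p ∈ P, (n p : ℤ) = T + ((2:ℤ) ^ p.2 - 2 ^ p.1) * K0 := by
      intro p hp
      have h1 := hT p.1 (hmem p hp).1
      have h1' : 2 ^ p.1 * K0 ≤ T + 2 ^ p.2 * K0 := by
        have h1 : 2 ^ p.1 * K0 ≤ T := h1
        omega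
      simp only [hn]
      rw [Nat.cast_sub h1']
      push_cast; ring
    have hdif : ∀ p ∈ P, ∀ q ∈ P, (n p : ℤ) - n q
        = (((2:ℤ) ^ p.2 - 2 ^ p.1) - (2 ^ q.2 - 2 ^ q.1)) * K0 := by
      intro p hp q hq
      rw [hnZ p hp, hnZ q hq]; ring
    have hD0 : ∀ p ∈ P, ∀ q ∈ P, p ≠ q → ((2:ℤ) ^ p.2 - 2 ^ p.1) - (2 ^ q.2 - 2 ^ q.1) ≠ 0 := by
      intro p hp q hq hne h
      obtain ⟨a, b⟩ := diff_inj (hmem p hp).2.2 (hmem q hq).2.2 (by linarith)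
      exact hne (Prod.ext a b)
    have hDK : ∀ p ∈ P, ∀ q ∈ P, |((2:ℤ) ^ p.2 - 2 ^ p.1) - (2 ^ q.2 - 2 ^ q.1)| < 2 ^ K :=
      fun p hp q hq => diff_lt (hmem p hp).1 (hmem p hp).2.1 (hmem q hq).1 (hmem q hq).2.1
    have sub : ((Finset.range K ×ˢ Finset.range K).filter
          (fun p => p.1 ≠ p.2 ∧ Bad Ms M b m (T + 2 ^ p.2 * K0 - 2 ^ p.1 * K0)))
        ⊆ (Ms.biUnion fun k => P.filter fun p => k ∣ n p) ∪
          ((Finset.range m).biUnion fun j => P.filter fun p =>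
            ¬ (M ≤ n p / b ^ j % b ∧ n p / b ^ j % b + M + 1 ≤ b)) := by
      intro p hp
      rw [Finset.mem_filter] at hp
      obtain ⟨hp1, hp2, hp3⟩ := hp
      have hpP : p ∈ P := by rw [hP, Finset.mem_filter]; exact ⟨hp1, hp2⟩
      rw [Finset.mem_union, Finset.mem_biUnion, Finset.mem_biUnion]
      rcases hp3 with ⟨k, hk, hkn⟩ | ⟨j, hj, hjn⟩
      · exact Or.inl ⟨k, hk, Finset.mem_filter.2 ⟨hpP, hkn⟩⟩
      · exact Or.inr ⟨j, Finset.mem_range.2 hj, Finset.mem_filter.2 ⟨hpP, hjn⟩⟩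
    refine (Finset.card_le_card sub).trans ((Finset.card_union_le _ _).trans ?_)
    refine Nat.add_le_add ?_ ?_
    · refine (Finset.card_biUnion_le).trans ?_
      refine (Finset.sum_le_card_nsmul _ _ 1 ?_).trans (by simp)
      intro k hk
      rw [Finset.card_le_one]
      intro p hp q hq
      rw [Finset.mem_filter] at hp hq
      by_contra hne
      have h1 : (k:ℤ) ∣ (n p : ℤ) - n q :=
        dvd_sub (by exact_mod_cast hp.2) (by exact_mod_cast hq.2)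
      rw [hdif p hp.1 q hq.1] at h1
      set D := ((2:ℤ) ^ p.2 - 2 ^ p.1) - (2 ^ q.2 - 2 ^ q.1) with hD
      obtain ⟨t, ht⟩ := hKM
      have hkM : (k:ℤ) ∣ M := by exact_mod_cast (hMs k hk).2
      have h2 : (k:ℤ) ∣ D := by
        have e : D = D * K0 - (D * t) * M := by rw [ht]; ring
        rw [e]
        exact dvd_sub h1 (Dvd.dvd.mul_left hkM _)
      have h3 : (k:ℤ) ≤ |D| := by
        have := Int.le_of_dvd (abs_pos.2 (hD0 p hp.1 q hq.1 hne)) ((dvd_abs _ _).2 h2)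
        exact this
      have h4 := hDK p hp.1 q hq.1
      have h5 : (4:ℤ) ^ K < k := by exact_mod_cast (hMs k hk).1
      have h6 : (2:ℤ) ^ K ≤ 4 ^ K := pow_le_pow_left₀ (by norm_num) (by norm_num) K
      linarith
    · refine (Finset.card_biUnion_le).trans ?_
      refine (Finset.sum_le_card_nsmul _ _ 1 ?_).trans (by simp)
      intro j hj
      rw [Finset.card_le_one]
      intro p hp q hq
      rw [Finset.mem_filter] at hp hq
      by_contra hne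
      exact one_digit hM hb (Finset.mem_range.1 hj) hKb (hdif p hp.1 q hq.1)
        (hD0 p hp.1 q hq.1 hne) (hDK p hp.1 q hq.1) hp.2 hq.2

end Crest.Agent.R320.Sp_249
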