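import Crest.Agent.R320.End_532
import Crest.Agent.R320.G1_256
import Crest.Agent.R320.Sp_249
import Crest.Agent.R320.P4_911
import Crest.Agent.R320.ExactR_237
import Crest.Agent.R320.Two_621

/-!
# Row 320: constants and join (helper240)

Over 532's `joint`, 256's `g1`, 249's ruler, 237's exact gadget, 228's walls, 911's calculus.
-/

set_option autoImplicit false

namespace Crest.Agent.R320.Fin_240

open Crest.RegLang Crest.Agent.R320.Hk_851 Crest.Agent.R320.Two_621
open Crest.Agent.R320.P4_911 Crest.Agent.R320.Sc2n_937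

/-- the noise is finite-state -/
theorem reg_nu {α : Type} [Finite α] {S V : Type} [Monoid S] [Finite S] (φ : α → S)
    (nu : List α → V) (B m : ℕ) (hm : 0 < m)
    (h : ∀ Q Q' : List α, B ≤ Q.length → B ≤ Q'.length → Q.take B = Q'.take B →
      Q.length % m = Q'.length % m →
      ((Q.drop B).map φ).prod = ((Q'.drop B).map φ).prod → nu Q = nu Q') (v : V) :
    Reg (fun Y : List α => nu Y = v) := by
  have h1 : Reg (fun Y : List α => Y.length < B ∧ nu Y = v) :=
    Reg.of_HL (k := 0) (HL.finite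
      ((List.finite_length_lt α B).subset fun w (hw : w.length < B ∧ nu w = v) => hw.1))
  have h2 : Reg (fun Y : List α => B ≤ Y.length ∧
      (∃ Y' : List α, B ≤ Y'.length ∧ Y'.take B = Y.take B ∧
        ((Y'.drop B).map φ).prod = ((Y.drop B).map φ).prod ∧
        Y'.length % m = Y.length % m ∧ nu Y' = v)) :=
    (Reg.length_ge B).and (Reg.cls φ B m hm (fun x s j => ∃ Y' : List α, B ≤ Y'.length ∧
      Y'.take B = x ∧ ((Y'.drop B).map φ).prod = s ∧ Y'.length % m = j ∧ nu Y' = v))
  refine (h1.or h2).congr fun Y => ?_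
  constructor
  · intro hY
    by_cases hl : Y.length < B
    · exact Or.inl ⟨hl, hY⟩
    · exact Or.inr ⟨not_lt.1 hl, Y, not_lt.1 hl, rfl, rfl, rfl, hY⟩
  · rintro (⟨_, hY⟩ | ⟨hl, Y', hl', e1, e2, e3, hY⟩)
    · exact hY
    · rw [← hY]
      exact (h Y' Y hl' hl e1 e3 e2).symm

theorem wo_loc {α : Type} {n : ℕ} {S : Set (List α)} (P Q : List α) (h : n ≤ Q.length) :
    Wo n S (P ++ Q) ↔ Wo n S Q := by
  unfold Wo
  have e : (P ++ Q).drop ((P ++ Q).length - n) = Q.drop (Q.length - n) := by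
    rw [List.length_append, List.drop_append, List.drop_eq_nil_of_le (by omega), List.nil_append]
    congr 1
    omega
  rw [e]
  constructor
  · rintro ⟨_, h2⟩; exact ⟨h, h2⟩
  · rintro ⟨_, h2⟩; exact ⟨by rw [List.length_append]; omega, h2⟩

theorem fin (α : Type) [Finite α] (S : Type) [Monoid S] [Finite S] (φ : α → S) (s : S) :
    HL 3 ({w | (w.map φ).prod = s} : Language α) := by
  classical
  haveI : Fintype S := Fintype.ofFinite S
  let V : Type := Tok S
  obtain ⟨m, r, hg⟩ := G1_256.g1 S (Tok S) act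
  obtain ⟨K, hK⟩ := ExactR_237.exact_gadget α S (Tok S) φ act (2 * (r + m) + 2)
  obtain ⟨Ms, M, hcard, hMs, hM, hb⟩ := hg (4 ^ K)
  set b : ℕ := M * (2 ^ (K + 6) + 8) + 1 with hbdef
  have hb1 : 4 * M + 4 < b := by
    have : 1 ≤ 2 ^ (K + 6) := Nat.one_le_two_pow
    nlinarith
  have hb2 : 2 ^ (K + 6) * M < b := by
    rw [hbdef]; nlinarith
  have hco : Nat.Coprime b M := by
    rw [hbdef, Nat.coprime_comm]
    simp
  obtain ⟨lam, rho, nu1, g1, g2, g3, g4⟩ := hb b hb1 hco α φ
  set N1 : ℕ := b ^ m with hN1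
  have hN1pos : 0 < N1 := Nat.pow_pos (by omega)
  obtain ⟨c, c1, c2, c3, c4⟩ := Sp_249.spoil Ms M b m K N1 hM
    (fun k hk => ⟨(hMs k hk).1, (hMs k hk).2.2⟩) hb2 hco
  have cmono : ∀ i j, i < j → c i < c j := fun i j hij => by
    have := c1 i j hij; omega
  obtain ⟨lam2, rho2, nu2, x1, x2⟩ := hK c (fun i j hij _ => cmono i j hij)
  set p0 : ℕ := c K with hp0
  obtain ⟨n, cc, PP, Sw, hn, hPP, hSw, hsep, hper, hfew⟩ :=
    FewVal_228.exists_walls α (2 * p0 + 2 * N1 + 1) (by omega)
  have hFew : Few n Sw := hfew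
  let g : Geo α :=
    { Wo := Wo n Sw
      n := n
      z := p0 + N1 + (n + 2 * p0)
      p0 := p0
      q0 := n + 2 * p0
      N1 := N1
      loc := fun P Q h => wo_loc P Q h
      hz := rfl
      hq := by omega
      hN := hN1pos
      hqp := by omega }
  refine End_532.joint (V := Tok S) act (fun a b s => act_add a b s) (fun v => act_one v)
    (fun v s t => (act_mul v s t).symm) (fun s t h => act_faithful h) φ g nu1
    (fun P => nu2 P 1) K c lam rho lam2 (fun k Q => rho2 k Q 1) (Sp_249.Bad Ms M b m) (r + m)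
    ?_ ?_ ?_ ?_ ?_ ?_ ?_ ?_ ?_ ?_ ?_ ?_ s
  · intro P v h
    exact (g1 P v h).le
  · intro P Q u b' h1 h2
    exact g2 P Q u b' h1 h2
  · intro Y hY hB u
    obtain ⟨P, Q, e, h1, h2⟩ := g3 Y (fun k hk hd => hB (Or.inl ⟨k, hk, hd⟩))
      (fun j hj => by
        by_contra hc
        exact hB (Or.inr ⟨j, hj, hc⟩)) u
    exact ⟨P, Q, e.symm, h1, h2⟩
  · intro k hk
    exact (cmono k K hk).le
  · intro k hk P Q v u hP hQ h1 h2
    have := x1 k hk P Q 1 v u hP h1 h2
    rw [mul_one] at this
    exact this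
  · intro P Q hP hPQ hQ
    have hQ' : 0 < Q.length := List.length_pos_iff.2 hQ
    obtain ⟨a1, a2⟩ := (wo_iff_wl.1 hP)
    obtain ⟨a3, a4⟩ := (wo_iff_wl.1 hPQ)
    have a5 : FewWalls_228.Wl n Sw (P ++ Q) (P.length - n) := by
      obtain ⟨b1, b2⟩ := a2
      refine ⟨by rw [List.length_append]; omega, ?_⟩
      rw [List.drop_append_of_le_length (by omega), List.take_append_of_le_length (by
        rw [List.length_drop]; omega)]
      exact b2
    have hlen : (P ++ Q).length = P.length + Q.length := List.length_append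
    have := hsep (P ++ Q) (P.length - n) ((P ++ Q).length - n) (by omega) a5 a4
    show 2 * p0 + 2 * N1 < Q.length
    omega
  · intro k k' l l' hk hk' hl hl' hne hne' h1 h2
    by_contra hkl
    have h1' : c k + c l' < c l + c k' + 2 * N1 := h1
    have h2' : c l + c k' < c k + c l' + 2 * N1 := h2
    rcases c2 k k' l l' (Ne.symm hne) (Ne.symm hne') (fun e => hkl (congrArg Prod.fst e)) with h | h
    · omega
    · omega
  · intro τ hτ J hJ
    have hτ' : p0 + N1 + (n + 2 * p0) ≤ τ + p0 := hτ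
    have hT : ∀ l < K, c l ≤ τ - p0 := fun l hl => by
      have := cmono l K hl
      omega
    refine le_trans ?_ ((c4 (τ - p0) hT).trans (Nat.add_le_add_right hcard m))
    refine le_trans (Finset.card_le_card (t := Finset.image Prod.fst _) ?_)
      Finset.card_image_le
    intro k hk
    obtain ⟨h1, k', h2, h3, h4⟩ := hJ k hk
    refine Finset.mem_image.2 ⟨(k, k'), Finset.mem_filter.2 ⟨Finset.mem_product.2
      ⟨Finset.mem_range.2 h1, Finset.mem_range.2 h2⟩, fun e => h3 e.symm, ?_⟩, rfl⟩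
    have hck := cmono k K h1
    have hck' := cmono k' K h2
    have e : τ - p0 + c k' - c k = τ + c k' - c k - g.p0 := by
      show τ - p0 + c k' - c k = τ + c k' - c k - p0
      omega
    show Sp_249.Bad Ms M b m (τ - p0 + c k' - c k)
    rw [e]
    exact h4
  · intro X0 v hX0
    obtain ⟨I, hI, hI2⟩ := x2 X0 1 v (fun k hk => by
      rw [hX0]; exact (cmono k K hk).le)
    exact ⟨I, hI, hI2⟩
  · show 0 < p0 + N1 + (n + 2 * p0)
    omega
  · intro x y
    have hA : Reg (fun X : List α =>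
        act (act x ((X.take p0).map φ).prod + nu2 (X.take p0) 1)
          ((X.drop p0).map φ).prod + nu1 (X.drop p0) = y) := by
      have hreg : Reg (fun X : List α => ∃ t : S, ∃ u : Tok S,
          ((act (act x ((X.take p0).map φ).prod + nu2 (X.take p0) 1) t + u = y)) ∧
          (((X.drop p0).map φ).prod = t ∧ nu1 (X.drop p0) = u)) :=
        Reg.ex fun t => Reg.ex fun u =>
          (Reg.take p0 (fun Y : List α =>
            act (act x (Y.map φ).prod + nu2 Y 1) t + u = y)).and
          ((Reg.drop p0 (Reg.prod φ t)).and (Reg.drop p0 (P := fun Y => nu1 Y = u)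
            (reg_nu φ nu1 (b ^ m) (M * b ^ m) (Nat.mul_pos hM hN1pos)
              (fun Q Q' h1 h2 h3 h4 h5 => (g4 Q Q' h1 h2 h3 h4 h5).2) u)))
      refine hreg.congr fun X => ?_
      constructor
      · intro h; exact ⟨_, _, h, rfl, rfl⟩
      · rintro ⟨t, u, h, rfl, rfl⟩; exact h
    exact HL_FB hFew (p0 + N1 + (n + 2 * p0)) hA
  · intro t
    refine ((HL_NX hFew (p0 + N1 + (n + 2 * p0)) (Reg.prod φ t)).mono (by norm_num)).congr
      fun w => ?_
    constructor
    · rintro ⟨h1, h2⟩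
      exact ⟨fun X Y e hX => h1 X hX ⟨Y, e.symm⟩, h2⟩
    · rintro ⟨h1, h2⟩
      exact ⟨fun X hX ⟨Y, e⟩ => h1 X Y e.symm hX, h2⟩

end Crest.Agent.R320.Fin_240
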