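import Crest.Agent.R320.JointSem_814

/-!
Row 320 (helper246): spoil count in the form of `JointSem_814.compl2`.
-/

set_option autoImplicit false

namespace Crest.Agent.R320.SpoilJ_246

open Finset Crest.Agent.R320.JointSem_814

variable {α : Type}

open Classical in
theorem spoil {Wo : List α → Prop} {n W z p0 N K C0 : ℕ} {c : ℕ → ℕ} {BadT : ℕ → Prop}
    {BT : ℤ → Prop} (hW : Walls n W Wo) (hWb : 2 * (p0 + N) ≤ W) (hc : ∀ k < K, c k ≤ p0)
    (hz : p0 + N ≤ z)
    (hsep : ∀ a < K, ∀ b < K, ∀ a' < K, ∀ b' < K, a ≠ b → a' ≠ b' →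
      |((c a : ℤ) - c b) - ((c a' : ℤ) - c b')| ≤ 2 * N → a = a' ∧ b = b')
    (hB : ∀ t : ℕ, BadT t → BT (t : ℤ))
    (hthin : ∀ T : ℤ, (((Finset.range K) ×ˢ (Finset.range K)).filter (fun p => p.1 ≠ p.2 ∧
      BT (T + c p.1 - c p.2))).card ≤ C0) (U : List α) :
    ∃ J : Finset ℕ, J.card < 2 + 2 * C0 ∧
      ∀ k < K, Spoiled Wo z p0 N K c BadT U k → k ∈ J := by
  let JB : ℕ → Finset ℕ := fun s =>
    (((Finset.range K) ×ˢ (Finset.range K)).filter (fun p => p.1 ≠ p.2 ∧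
      BT (((s : ℤ) - p0) + c p.1 - c p.2))).image Prod.snd
  have hJB : ∀ s, (JB s).card ≤ C0 := fun s => Finset.card_image_le.trans (hthin _)
  let JE : Finset ℕ := (Finset.range K).filter (fun k => ∃ k' < K, k' ≠ k ∧
    ∃ s, s ≤ U.length ∧ Wo (U.take s) ∧ z + c k ≤ s + c k' + N ∧ s + c k' < z + N + c k)
  have hJE : JE.card ≤ 1 := by
    rw [Finset.card_le_one]
    intro a ha b hb
    obtain ⟨ha1, a', ha2, ha3, s, hs1, hs2, hs3, hs4⟩ := Finset.mem_filter.1 ha
    obtain ⟨hb1, b', hb2, hb3, t, ht1, ht2, ht3, ht4⟩ := Finset.mem_filter.1 hb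
    rw [Finset.mem_range] at ha1 hb1
    have c1 := hc a ha1
    have c2 := hc a' ha2
    have c3 := hc b hb1
    have c4 := hc b' hb2
    have hst : s = t := by
      rcases lt_trichotomy s t with h | h | h
      · exact (hW.gap U s t h (by omega) ht1 hs2 ht2).elim
      · exact h
      · exact (hW.gap U t s h (by omega) hs1 ht2 hs2).elim
    subst hst
    refine (hsep a ha1 a' ha2 b hb1 b' hb2 (Ne.symm ha3) (Ne.symm hb3) ?_).1
    rw [abs_le]
    constructor <;> omega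
  let s1 : ℕ := if h : ∃ s, z ≤ s + p0 ∧ s ≤ U.length ∧ Wo (U.take s) then Nat.find h else 0
  let s2 : ℕ := if h : ∃ s, s1 < s ∧ s ≤ U.length ∧ Wo (U.take s) then Nat.find h else 0
  refine ⟨JE ∪ (JB s1 ∪ JB s2), ?_, ?_⟩
  · have h1 := Finset.card_union_le JE (JB s1 ∪ JB s2)
    have h2 := Finset.card_union_le (JB s1) (JB s2)
    have h3 := hJB s1
    have h4 := hJB s2
    omega
  · rintro k hk ⟨k', hk', hkk, h | h⟩
    · refine Finset.mem_union_left _ (Finset.mem_filter.2 ⟨Finset.mem_range.2 hk, k', hk', hkk, ?_⟩)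
      exact h
    · obtain ⟨s, hs1, hs2, hs3, hs4, hs5⟩ := h
      have c1 := hc k hk
      have c2 := hc k' hk'
      have hmem : k ∈ JB s := by
        refine Finset.mem_image.2 ⟨(k', k), Finset.mem_filter.2 ⟨Finset.mem_product.2
          ⟨Finset.mem_range.2 hk', Finset.mem_range.2 hk⟩, hkk, ?_⟩, rfl⟩
        have := hB _ hs5
        have e : ((s + c k' - c k - p0 : ℕ) : ℤ) = ((s : ℤ) - p0) + c k' - c k := by omega
        rw [e] at this
        exact this
      have hex : ∃ s, z ≤ s + p0 ∧ s ≤ U.length ∧ Wo (U.take s) := ⟨s, by omega, hs1, hs2⟩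
      have e1 : s1 = Nat.find hex := by simp only [s1]; rw [dif_pos hex]
      have f1 := Nat.find_spec hex
      have m1 : Nat.find hex ≤ s := Nat.find_min' hex ⟨by omega, hs1, hs2⟩
      rw [← e1] at f1 m1
      rcases Nat.lt_or_ge s1 s with h1 | h1
      · have hex2 : ∃ s, s1 < s ∧ s ≤ U.length ∧ Wo (U.take s) := ⟨s, h1, hs1, hs2⟩
        have e2 : s2 = Nat.find hex2 := by simp only [s2]; rw [dif_pos hex2]
        have f2 := Nat.find_spec hex2
        have m2 : Nat.find hex2 ≤ s := Nat.find_min' hex2 ⟨h1, hs1, hs2⟩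
        rw [← e2] at f2 m2
        rcases Nat.lt_or_ge s2 s with h2 | h2
        · have h3 := hs4 s2 h2 f2.2.2
          exact (hW.gap U s1 s2 f2.1 (by omega) f2.2.1 f1.2.2 f2.2.2).elim
        · have : s2 = s := le_antisymm m2 h2
          rw [this]
          exact Finset.mem_union_right _ (Finset.mem_union_right _ hmem)
      · have : s1 = s := le_antisymm m1 h1
        rw [this]
        exact Finset.mem_union_right _ (Finset.mem_union_left _ hmem)

/-- ruler `X * 2^a` -/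
theorem ruler_sep {K N X : ℕ} (hX : 2 * N + 1 ≤ X) : ∀ a < K, ∀ b < K, ∀ a' < K, ∀ b' < K,
    a ≠ b → a' ≠ b' →
    |(((X * 2 ^ a : ℕ) : ℤ) - ((X * 2 ^ b : ℕ) : ℤ)) - (((X * 2 ^ a' : ℕ) : ℤ) - ((X * 2 ^ b' : ℕ) : ℤ))|
      ≤ 2 * N → a = a' ∧ b = b' := by
  have key : ∀ a b a' b' : ℕ, a ≠ b → a' ≠ b' → (2 : ℤ) ^ a - 2 ^ b = 2 ^ a' - 2 ^ b' →
      a = a' ∧ b = b' := by
    have two : ∀ a b c d : ℕ, a < b → c < d → 2 ^ b - 2 ^ a = 2 ^ d - 2 ^ c → a = c ∧ b = d := by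
      intro a b c d hab hcd h
      have l1 : 2 ^ b = 2 ^ a * 2 ^ (b - a) := by rw [← pow_add]; congr 1; omega
      have l2 : 2 ^ d = 2 ^ c * 2 ^ (d - c) := by rw [← pow_add]; congr 1; omega
      have e1 : 2 ^ b - 2 ^ a = 2 ^ a * (2 ^ (b - a) - 1) := by
        rw [l1, Nat.mul_sub, Nat.mul_one]
      have e2 : 2 ^ d - 2 ^ c = 2 ^ c * (2 ^ (d - c) - 1) := by
        rw [l2, Nat.mul_sub, Nat.mul_one]
      have o1 : Odd (2 ^ (b - a) - 1) := by
        have : Even (2 ^ (b - a)) := (Nat.even_pow.2 ⟨even_two, by omega⟩)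
        exact Nat.Even.sub_odd (Nat.one_le_two_pow) this odd_one
      have o2 : Odd (2 ^ (d - c) - 1) := by
        have : Even (2 ^ (d - c)) := (Nat.even_pow.2 ⟨even_two, by omega⟩)
        exact Nat.Even.sub_odd (Nat.one_le_two_pow) this odd_one
      rw [e1, e2] at h
      have d1 : 2 ^ a ∣ 2 ^ c := by
        have : 2 ^ a ∣ 2 ^ c * (2 ^ (d - c) - 1) := ⟨_, h.symm⟩
        exact (Nat.Coprime.dvd_of_dvd_mul_right (Nat.Coprime.pow_left _ (Nat.coprime_two_left.2 o2)) this)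
      have d2 : 2 ^ c ∣ 2 ^ a := by
        have : 2 ^ c ∣ 2 ^ a * (2 ^ (b - a) - 1) := ⟨_, h⟩
        exact (Nat.Coprime.dvd_of_dvd_mul_right (Nat.Coprime.pow_left _ (Nat.coprime_two_left.2 o1)) this)
      have ha : a = c := Nat.pow_right_injective le_rfl (Nat.dvd_antisymm d1 d2)
      subst ha
      refine ⟨rfl, ?_⟩
      have hp : 0 < 2 ^ a := Nat.pos_of_ne_zero (by positivity)
      have h5 := Nat.eq_of_mul_eq_mul_left hp h
      have h6 : 1 ≤ 2 ^ (b - a) := Nat.one_le_two_pow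
      have h7 : 1 ≤ 2 ^ (d - a) := Nat.one_le_two_pow
      have h8 : 2 ^ (b - a) = 2 ^ (d - a) := by omega
      have h9 := Nat.pow_right_injective (le_refl 2) h8
      omega
    intro a b a' b' hab hab' h
    have pm : ∀ {i j : ℕ}, i < j → (2 : ℤ) ^ i < 2 ^ j := fun h => pow_lt_pow_right₀ (by norm_num) h
    rcases lt_or_gt_of_ne hab with h1 | h1 <;> rcases lt_or_gt_of_ne hab' with h2 | h2
    · have p1 := pm h1
      have p2 := pm h2
      have := two a b a' b' h1 h2 (by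
        have q1 : 2 ^ a ≤ 2 ^ b := Nat.pow_le_pow_right (by norm_num) h1.le
        have q2 : 2 ^ a' ≤ 2 ^ b' := Nat.pow_le_pow_right (by norm_num) h2.le
        zify [q1, q2]
        linarith)
      exact this
    · have p1 := pm h1
      have p2 := pm h2
      exfalso; linarith
    · have p1 := pm h1
      have p2 := pm h2
      exfalso; linarith
    · have p1 := pm h1
      have p2 := pm h2
      have := two b a b' a' h1 h2 (by
        have q1 : 2 ^ b ≤ 2 ^ a := Nat.pow_le_pow_right (by norm_num) h1.le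
        have q2 : 2 ^ b' ≤ 2 ^ a' := Nat.pow_le_pow_right (by norm_num) h2.le
        zify [q1, q2]
        linarith)
      exact ⟨this.2, this.1⟩
  intro a _ b _ a' _ b' _ hab hab' h
  apply key a b a' b' hab hab'
  by_contra hne
  set D : ℤ := ((2 : ℤ) ^ a - 2 ^ b) - (2 ^ a' - 2 ^ b') with hD
  have hD0 : D ≠ 0 := fun h0 => hne (by linarith)
  have e : (((X * 2 ^ a : ℕ) : ℤ) - ((X * 2 ^ b : ℕ) : ℤ)) - (((X * 2 ^ a' : ℕ) : ℤ) - ((X * 2 ^ b' : ℕ) : ℤ))
      = (X : ℤ) * D := by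
    push_cast
    rw [hD]; ring
  rw [e, abs_mul] at h
  have h1 : 1 ≤ |D| := Int.one_le_abs hD0
  have h2 : |(X : ℤ)| = X := abs_of_nonneg (by positivity)
  rw [h2] at h
  have h3 : (X : ℤ) ≤ X * |D| := by nlinarith [show (0 : ℤ) ≤ X by positivity]
  omega

end Crest.Agent.R320.SpoilJ_246
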