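import Crest.Agent.R320.GridN_246
import Crest.Agent.R320.SpoilJ_246
import Crest.Agent.R320.SemTop_727
import Crest.Agent.R320.P4_933
import Crest.Agent.R320.WallU_228
import Crest.Agent.R320.Thin_963
import Crest.Agent.R320.RegKey_186
import Crest.Agent.R320.Two_621
import Crest.Agent.R320.Uni_366

/-!
Row 320 (helper246): the assembly. Grid gadget (Grid_899) + exact gadget (ExactR_237) + joint
(JointSem_814) + semantic top (SemTop_727) + walls on all words (WallU_228) + HL 1 facts (P4_933).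
-/

set_option autoImplicit false

namespace Crest.Agent.R320.Fin_246

open Crest.RegLang Crest.Agent.R320.Hk_851

theorem exists_primes (k B : ℕ) : ∃ q : Fin k → ℕ, Function.Injective q ∧
    ∀ j, (q j).Prime ∧ B < q j := by
  have hinf : ({p : ℕ | p.Prime} \ {p | p ≤ B}).Infinite :=
    Nat.infinite_setOf_prime.diff (Set.finite_le_nat B)
  let e := hinf.natEmbedding
  refine ⟨fun j => (e j : ℕ), ?_, ?_⟩
  · intro i j h
    have h1 : (e (i : ℕ)) = e (j : ℕ) := Subtype.ext h
    exact Fin.ext (e.injective h1)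
  · intro j
    have h := (e (j : ℕ)).2
    exact ⟨h.1, Nat.lt_of_not_le h.2⟩

theorem sumG {κ : ℕ} (hκ : 1 ≤ κ) (i : ℕ) :
    ∑ j ∈ Finset.range (i + 1), 2 ^ (κ * j) ≤ 2 * 2 ^ (κ * i) := by
  induction i with
  | zero => simp
  | succ i ih =>
    rw [Finset.sum_range_succ]
    have h1 : 2 ^ (κ * (i + 1)) = 2 ^ κ * 2 ^ (κ * i) := by rw [← pow_add]; congr 1; ring
    have h2 : 2 ≤ 2 ^ κ := by
      calc 2 = 2 ^ 1 := by norm_num
        _ ≤ 2 ^ κ := Nat.pow_le_pow_right (by norm_num) hκ
    have h3 : 2 * 2 ^ (κ * i) ≤ 2 ^ κ * 2 ^ (κ * i) := Nat.mul_le_mul_right _ h2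
    omega

theorem main (α : Type) [Finite α] (S : Type) [Monoid S] [Finite S] (φ : α → S) (s : S) :
    HL 3 ({w | (w.map φ).prod = s} : Language α) := by
  classical
  haveI : Fintype S := Fintype.ofFinite S
  let V : Type := Two_621.Tok S
  let phi : List α → S := fun w => (w.map φ).prod
  have hphi : ∀ u v, phi (u ++ v) = phi u * phi v := fun u v => by simp [phi]
  have hphi0 : phi [] = 1 := by simp [phi]
  let act : V → S → V := Two_621.act
  obtain ⟨k, m, Hg⟩ := GridN_246.grid_gadget_nu S V act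
  obtain ⟨K, He⟩ := ExactR_237.exact_gadget α S V φ act (2 + 2 * (k + m))
  obtain ⟨q, hqi, hq⟩ := exists_primes k (2 ^ (K + 1))
  have hqodd : ∀ j, Odd (q j) := by
    intro j
    have h1 := (hq j).2
    have h2 : 2 ≤ 2 ^ (K + 1) := by
      calc 2 = 2 ^ 1 := by norm_num
        _ ≤ 2 ^ (K + 1) := Nat.pow_le_pow_right (by norm_num) (by omega)
    exact (hq j).1.odd_of_ne_two (by omega)
  have hqcop : Pairwise (fun i j => Nat.Coprime (q i) (q j)) := by
    intro i j hij
    exact (Nat.coprime_primes (hq i).1 (hq j).1).2 (fun h => hij (hqi h))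
  set Mq : ℕ := ∏ j, q j with hMq
  have hMq0 : 0 < Mq := Finset.prod_pos (fun j _ => (hq j).1.pos)
  let κ : ℕ := K + 5 + Mq
  have hκ : 2 ^ (K + 5) * Mq ≤ 2 ^ κ := by
    have h1 : Mq ≤ 2 ^ Mq := Nat.lt_two_pow_self.le
    calc 2 ^ (K + 5) * Mq ≤ 2 ^ (K + 5) * 2 ^ Mq := Nat.mul_le_mul_left _ h1
      _ = 2 ^ κ := by rw [← pow_add]
  have hκ1 : 1 ≤ κ := by omega
  obtain ⟨lam, rho, nu1, g1, g2, g3, g4, g5, g6⟩ := Hg q hqodd hqcop κ α phi hphi
  rw [← hMq] at g1 g2 g4 g5 g6
  let Ms : Finset ℕ := Finset.univ.image q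
  have hMsc : Ms.card ≤ k := by
    refine Finset.card_image_le.trans ?_
    simp
  let G' : ℕ → ℤ := fun i => (Grid_899.G κ i : ℤ)
  let c' : ℕ → ℤ := fun i => ((Mq * Grid_899.G κ i : ℕ) : ℤ)
  let Am' : ℕ → ℤ := fun i => (Grid_899.Am Mq κ i : ℤ)
  have hGpos : ∀ i, 0 < Grid_899.G κ i := fun i => Grid_899.G_pos i
  let N : ℕ := Grid_899.Am Mq κ m
  let N0 : ℕ := 2 * Grid_899.Am Mq κ (m + 1)
  obtain ⟨X, hX1, hX2, hthin⟩ := Thin963.thin K m Ms G' c' Am'
    (by
      intro p hp
      obtain ⟨j, -, rfl⟩ := Finset.mem_image.1 hp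
      exact ⟨(hq j).1, (hq j).2.le⟩)
    (by
      intro p hp
      obtain ⟨j, -, rfl⟩ := Finset.mem_image.1 hp
      rw [Nat.isCoprime_iff_coprime]
      exact Nat.Coprime.pow_right _ ((Nat.coprime_two_right).2 (hqodd j)))
    (by
      show (0 : ℤ) < ((Grid_899.G κ m : ℕ) : ℤ)
      exact_mod_cast hGpos m)
    (by
      intro i j hij
      exact Int.natCast_dvd_natCast.2 (Grid_899.G_dvd hij))
    (by
      intro i
      show (0 : ℤ) < ((Mq * Grid_899.G κ i : ℕ) : ℤ)
      exact_mod_cast Nat.mul_pos hMq0 (hGpos i))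
    (by
      intro i
      exact Int.natCast_dvd_natCast.2 (Dvd.intro_left _ rfl))
    (by
      intro i _
      have h1 := sumG hκ1 i
      have h2 : 2 ^ (K + 4) * ∑ j ∈ Finset.range (i + 1), Mq * Grid_899.G κ j ≤
          Grid_899.G κ (i + 1) := by
        rw [← Finset.mul_sum]
        have h3 : ∑ j ∈ Finset.range (i + 1), Grid_899.G κ j ≤ 2 * Grid_899.G κ i := h1
        have h4 : Grid_899.G κ (i + 1) = 2 ^ κ * Grid_899.G κ i := by
          unfold Grid_899.G
          rw [← pow_add]; congr 1; ring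
        calc 2 ^ (K + 4) * (Mq * ∑ j ∈ Finset.range (i + 1), Grid_899.G κ j)
            ≤ 2 ^ (K + 4) * (Mq * (2 * Grid_899.G κ i)) :=
              Nat.mul_le_mul_left _ (Nat.mul_le_mul_left _ h3)
          _ = (2 ^ (K + 5) * Mq) * Grid_899.G κ i := by ring
          _ ≤ 2 ^ κ * Grid_899.G κ i := Nat.mul_le_mul_right _ hκ
          _ = Grid_899.G κ (i + 1) := h4.symm
      show (2 : ℤ) ^ (K + 4) * ∑ j ∈ Finset.range (i + 1), ((Mq * Grid_899.G κ j : ℕ) : ℤ) ≤
        ((Grid_899.G κ (i + 1) : ℕ) : ℤ)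
      exact_mod_cast h2)
    ((2 * N + 1 : ℕ) : ℤ)
  let X0 : ℕ := X.toNat
  have hX0 : (X0 : ℤ) = X := Int.toNat_of_nonneg hX2.le
  have hX0N : 2 * N + 1 ≤ X0 := by
    have : ((2 * N + 1 : ℕ) : ℤ) ≤ (X0 : ℤ) := by rw [hX0]; exact hX1
    exact_mod_cast this
  let c : ℕ → ℕ := fun a => X0 * 2 ^ a
  have hcmono : ∀ i j, i < j → j < K → c i < c j := by
    intro i j hij _
    exact Nat.mul_lt_mul_of_pos_left (Nat.pow_lt_pow_right (by norm_num) hij) (by omega)
  obtain ⟨lam2, rho2, nu2, e1, e2⟩ := He c hcmono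
  let p0 : ℕ := X0 * 2 ^ K
  have hcp : ∀ k < K, c k ≤ p0 := fun k hk =>
    Nat.mul_le_mul_left _ (Nat.pow_le_pow_right (by norm_num) hk.le)
  obtain ⟨n, cc, P, Sw, hn, hP, hloc, hgap, hpieces, -, -⟩ :=
    WallU_228.walls_full (α := α) (2 * (p0 + N))
  let Wo : List α → Prop := WallU_228.Wo n Sw
  have hlen : ∀ Q, Wo Q → n ≤ Q.length := fun Q h => h.1
  have hW : JointSem_814.Walls n (2 * (p0 + N)) Wo := by
    refine ⟨hloc, hlen, ?_⟩
    intro X s t h1 h2 h3 h4 h5
    have hl : (X.take t).length = t := by rw [List.length_take]; omega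
    have := hgap (X.take t) (t - s) h5 (by omega) (by omega)
    rw [hl, List.take_take] at this
    have e : min (t - (t - s)) t = s := by omega
    rw [e] at this
    exact this h4
  let z : ℕ := p0 + N0 + N + n + 1
  let BadT : ℕ → Prop := fun t => Thin963.BadT Ms m G' c' Am' (t : ℤ)
  have hAmm : Grid_899.Am Mq κ m ≤ Grid_899.Am Mq κ (m + 1) := Grid_899.Am_mono (by omega)
  -- completeness of the grid gadget
  have hcompl : ∀ u : List α, N0 ≤ u.length → ¬ BadT u.length → ∀ v, ∃ p q', p ++ q' = u ∧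
      lam p = some v ∧ (rho q').isSome := by
    intro u hu hb v
    obtain ⟨p, q', h1, h2, h3⟩ := g4 u hu
      (by
        intro j hj
        exact hb (Or.inl ⟨q j, Finset.mem_image_of_mem _ (Finset.mem_univ j),
          Int.natCast_dvd_natCast.2 hj⟩))
      (by
        intro j hj1 hjm
        have hA : Grid_899.Am Mq κ j ≤ Grid_899.Am Mq κ (m + 1) := Grid_899.Am_mono (by omega)
        obtain ⟨i, rfl⟩ : ∃ i, j = i + 1 := ⟨j - 1, by omega⟩
        have e0 : i + 1 - 1 = i := by omega
        rw [e0]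
        by_contra hneg
        apply hb
        right
        refine ⟨i, by omega, ?_⟩
        have hr := Nat.div_add_mod (u.length - Grid_899.Am Mq κ (i + 1)) (Grid_899.G κ (i + 1))
        have hrl := Nat.mod_lt (u.length - Grid_899.Am Mq κ (i + 1)) (hGpos (i + 1))
        set r := (u.length - Grid_899.Am Mq κ (i + 1)) % Grid_899.G κ (i + 1) with hrdef
        set d := (u.length - Grid_899.Am Mq κ (i + 1)) / Grid_899.G κ (i + 1) with hddef
        have hT : (u.length : ℤ) - (Grid_899.Am Mq κ (i + 1) : ℤ) =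
            (Grid_899.G κ (i + 1) : ℤ) * d + r := by
          have h5 : Grid_899.Am Mq κ (i + 1) ≤ u.length := by
            have : N0 = 2 * Grid_899.Am Mq κ (m + 1) := rfl
            omega
          have h6 : u.length = Grid_899.Am Mq κ (i + 1) + (Grid_899.G κ (i + 1) * d + r) := by
            omega
          have h7 : (u.length : ℤ) = (Grid_899.Am Mq κ (i + 1) : ℤ) +
              ((Grid_899.G κ (i + 1) : ℤ) * d + r) := by exact_mod_cast h6
          linarith
        by_cases hlt : r < Mq * Grid_899.G κ i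
        · refine ⟨-(r : ℤ), ?_, ?_⟩
          · rw [abs_neg, abs_of_nonneg (by positivity)]
            show (r : ℤ) ≤ ((Mq * Grid_899.G κ i : ℕ) : ℤ)
            exact_mod_cast hlt.le
          · show (Grid_899.G κ (i + 1) : ℤ) ∣ (u.length : ℤ) - (Grid_899.Am Mq κ (i + 1) : ℤ) + -(r : ℤ)
            rw [hT]
            exact ⟨d, by ring⟩
        · have hgt : Grid_899.G κ (i + 1) < r + Mq * Grid_899.G κ i := by
            by_contra h8
            exact hneg ⟨by omega, by omega⟩
          refine ⟨(Grid_899.G κ (i + 1) : ℤ) - r, ?_, ?_⟩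
          · have h9 : (r : ℤ) < (Grid_899.G κ (i + 1) : ℤ) := by exact_mod_cast hrl
            rw [abs_of_nonneg (by linarith)]
            show (Grid_899.G κ (i + 1) : ℤ) - r ≤ ((Mq * Grid_899.G κ i : ℕ) : ℤ)
            have h10 : (Grid_899.G κ (i + 1) : ℤ) < r + ((Mq * Grid_899.G κ i : ℕ) : ℤ) := by
              exact_mod_cast hgt
            linarith
          · show (Grid_899.G κ (i + 1) : ℤ) ∣ (u.length : ℤ) - (Grid_899.Am Mq κ (i + 1) : ℤ) +
              ((Grid_899.G κ (i + 1) : ℤ) - r)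
            rw [hT]
            exact ⟨d + 1, by ring⟩)
      v
    exact ⟨p, q', h1.symm, h2, h3⟩
  have hlam : ∀ p v, lam p = some v → p.length ≤ N := fun p v h => (g1 p v h).1.le
  have hsound : ∀ p q' v r, lam p = some v → rho q' = some r →
      r = act v (phi (p ++ q')) + nu1 (p ++ q') := fun p q' v r h1 h2 => g3 p q' v r h1 h2
  -- the spoil count
  have hspoil : ∀ U : List α, 2 * z ≤ U.length → ∃ J : Finset ℕ, J.card < 2 + 2 * (k + m) ∧
      ∀ k < K, JointSem_814.Spoiled Wo z p0 N K c BadT U k → k ∈ J := by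
    intro U _
    refine SpoilJ_246.spoil (C0 := k + m) (BT := Thin963.BadT Ms m G' c' Am') hW le_rfl hcp
      (by omega) ?_ (fun t h => h) ?_ U
    · exact SpoilJ_246.ruler_sep hX0N
    · intro T
      refine le_trans (le_of_eq ?_) ((hthin T).trans (by omega))
      congr 1
      apply Finset.filter_congr
      intro p _
      have ec : ∀ a, ((c a : ℕ) : ℤ) = X * 2 ^ a := by
        intro a
        show ((X0 * 2 ^ a : ℕ) : ℤ) = X * 2 ^ a
        push_cast
        rw [hX0]
      rw [ec, ec]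
  let nu2' : List α → V := fun u => nu2 u 1
  let D : SemTop_727.Sch α V :=
    { XX := JointSem_814.XX Wo z
      T := JointSem_814.T p0 phi act nu1 nu2'
      L1 := JointSem_814.L1 p0 phi act nu2' lam
      L2 := JointSem_814.L2 K c lam2 }
  have hnil : ([] : List α) ∉ D.XX := by
    rintro ⟨-, h, -⟩
    have : z = p0 + N0 + N + n + 1 := rfl
    simp at h
  have hfree : ∀ u : List α, (∀ t < u.length, ¬ Wo (u.take t)) →
      u ∈ (BddReg_746.PN (2 * cc + P) 5 : Language α) := by
    intro u hu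
    obtain ⟨l, h1, h2, h3⟩ := hpieces u hu
    rw [h3]
    exact FewVal_228.val_mem_PN _ l h2 _ h1
  set La : ℕ := Grid_899.Am Mq κ (m + 1) with hLa
  have hregT : ∀ x y : V, Language.IsRegular
      ({X : List α | D.T x X = y} : Language α) := by
    intro x y
    refine RegKey_186.isRegular_of_state φ (p0 + La) (Mq * Grid_899.G κ m)
      (Nat.mul_pos hMq0 (hGpos m)) _ ?_
    intro Q Q' h1 h2 ht hd hl
    have t0 : Q.take p0 = Q'.take p0 := by
      have := congrArg (List.take p0) ht
      rwa [List.take_take, List.take_take, min_eq_left (by omega)] at this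
    have t1 : (Q.drop p0).take La = (Q'.drop p0).take La := by
      have := congrArg (List.drop p0) ht
      rw [List.drop_take, List.drop_take] at this
      have e : p0 + La - p0 = La := by omega
      rwa [e] at this
    have d1 : phi ((Q.drop p0).drop La) = phi ((Q'.drop p0).drop La) := by
      rw [List.drop_drop, List.drop_drop]
      exact hd
    have l1 : (Q.drop p0).length ≡ (Q'.drop p0).length [MOD Mq * Grid_899.G κ m] := by
      rw [List.length_drop, List.length_drop]
      have h3 : p0 + (Q.length - p0) ≡ p0 + (Q'.length - p0) [MOD Mq * Grid_899.G κ m] := by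
        have e1 : p0 + (Q.length - p0) = Q.length := by omega
        have e2 : p0 + (Q'.length - p0) = Q'.length := by omega
        rw [e1, e2]
        exact hl
      exact Nat.ModEq.add_left_cancel' _ h3
    have hn1 : nu1 (Q.drop p0) = nu1 (Q'.drop p0) := by
      apply g6 _ _ (by rw [List.length_drop]; omega) (by rw [List.length_drop]; omega) t1 d1 l1
    have hp1 : phi (Q.drop p0) = phi (Q'.drop p0) := by
      rw [← List.take_append_drop La (Q.drop p0), ← List.take_append_drop La (Q'.drop p0),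
        hphi, hphi, t1, d1]
    have : D.T x Q = D.T x Q' := by
      show JointSem_814.T p0 phi act nu1 nu2' x Q = JointSem_814.T p0 phi act nu1 nu2' x Q'
      unfold JointSem_814.T
      rw [t0, hn1, hp1]
    show D.T x Q = y ↔ D.T x Q' = y
    rw [this]
  have hfib : ∀ x y, HL 1 (D.fib x y) := by
    intro x y
    refine (P4_933.hl_XX (z := z) hloc hlen hfree (hregT x y)).congr fun X => ?_
    constructor
    · rintro ⟨⟨h1, h2, h3⟩, h4⟩
      exact ⟨⟨h1, h2, fun t ht htz => h3 t htz ht⟩, h4⟩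
    · rintro ⟨⟨h1, h2, h3⟩, h4⟩
      exact ⟨⟨h1, h2, fun t ht htz => h3 t htz ht⟩, h4⟩
  have htail : ∀ a, HL (1 + 2) ({w | (∀ X ∈ D.XX, ¬ X <+: w) ∧ (w.map φ).prod = a} : Language α) := by
    intro a
    have h1 := P4_933.hl_NB (z := z) hloc hlen hfree (Reg_852.isRegular_prod φ a)
    refine (h1.mono (by norm_num)).congr fun w => ?_
    have h2 := P4_933.NB_iff Wo z w
    constructor
    · rintro ⟨h3, h4⟩
      refine ⟨h2.2 ?_, h4⟩
      intro X hp hX
      exact h3 X ⟨hX.1, hX.2.1, fun t ht htz => hX.2.2 t htz ht⟩ hp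
    · rintro ⟨h3, h4⟩
      refine ⟨?_, h4⟩
      intro X hX hp
      exact h2.1 h3 X hp ⟨hX.1, hX.2.1, fun t ht htz => hX.2.2 t htz ht⟩
  refine SemTop_727.top (k := 1) act (fun a b t => Two_621.act_add a b t)
    (fun v => Two_621.act_one v) (fun v a b => (Two_621.act_mul v a b).symm)
    (fun a b h => Two_621.act_faithful h) φ
    (fun X => act (nu2' (X.take p0)) (phi (X.drop p0)) + nu1 (X.drop p0)) D ?_ ?_ hfib ?_ ?_ ?_
    htail s
  · intro v X
    show JointSem_814.T p0 phi act nu1 nu2' v X = _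
    unfold JointSem_814.T
    have h1 : (X.map φ).prod = phi (X.take p0) * phi (X.drop p0) := by
      rw [← hphi, List.take_append_drop]
    rw [h1]
    show Two_621.act (Two_621.act v (phi (X.take p0)) + nu2' (X.take p0)) (phi (X.drop p0)) +
      nu1 (X.drop p0) = Two_621.act v (phi (X.take p0) * phi (X.drop p0)) +
        (Two_621.act (nu2' (X.take p0)) (phi (X.drop p0)) + nu1 (X.drop p0))
    rw [Two_621.act_add, Two_621.act_mul, add_assoc]
  · exact ⟨hnil, fun X hX Y hY h => JointSem_814.XX_code hX hY h⟩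
  · intro x
    refine (List.finite_length_le α (p0 + N)).subset ?_
    rintro Q ⟨h1, h2⟩
    have := hlam _ _ h2
    rw [List.length_drop] at this
    show Q.length ≤ p0 + N
    omega
  · intro x
    refine (List.finite_length_le α p0).subset ?_
    rintro Q ⟨j, hj, h1, h2⟩
    show Q.length ≤ p0
    rw [h1]
    exact hcp j hj
  · intro X1 hX1 X2 hX2 x
    refine JointSem_814.compl2 (N := N) (N0 := N0) (R := 2 + 2 * (k + m))
      (rho2 := fun j Q => rho2 j Q 1) hW (BadT := BadT) (rho := rho) ?_ ?_ hlam hsound hcompl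
      hcp ?_ ?_ hspoil hX1.1 hX2 x
    · show p0 + N + n ≤ p0 + N0 + N + n + 1
      omega
    · show p0 + N0 ≤ p0 + N0 + N + n + 1
      omega
    · intro j hj Pp Q v b h1 h2 h3
      have := e1 j hj Pp Q 1 v b h1 h2 h3
      rw [mul_one] at this
      exact this
    · intro u v hu
      exact e2 u 1 v hu

theorem final {α : Type*} [Finite α] (L : Language α) (hL : L.IsRegular) :
    ∃ e : GRegExp α, e.height ≤ 3 ∧ e.lang = L :=
  Uni_366.final1 (fun α _ S _ _ φ s => main α S φ s) α L hL

end Crest.Agent.R320.Fin_246
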