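import Crest.Agent.R320.FewVal_228
import Crest.Agent.R320.WallU_228

/-!
# Row 320, P4: heights of the block families (natural chain rule, left-looking walls)

`XX n S z` = blocks: the first wall at a place `≥ z` is at the end.  Every property of a block which
only depends on the first `z` letters, on the value of the rest in a finite monoid and on the length
modulo `N` defines a language of height one.
-/

set_option autoImplicit false

namespace Crest.Agent.R320.P4_167

open Crest.RegLang Crest.Agent.R320.Hk_851 Crest.Agent.R320.FewWalls_228
  Crest.Agent.R320.FewVal_228 Crest.Agent.R320.WallU_228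

universe u

variable {α : Type u}

/-- Myhill-Nerode with a finite code -/
theorem isRegular_of_code {L : Language α} {F : Type*} [Finite F] (κ : List α → F)
    (h : ∀ u v y : List α, κ u = κ v → u ++ y ∈ L → v ++ y ∈ L) : L.IsRegular := by
  refine Language.IsRegular.of_finite_range_leftQuotient ?_
  let g : Set.range κ → Language α := fun k => L.leftQuotient k.2.choose
  refine (Set.finite_range g).subset ?_
  rintro _ ⟨x, rfl⟩
  have hx : κ x ∈ Set.range κ := ⟨x, rfl⟩
  refine ⟨⟨κ x, hx⟩, ?_⟩
  have hk : κ hx.choose = κ x := hx.choose_spec
  ext y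
  exact ⟨h _ _ y hk, h _ _ y hk.symm⟩

theorem lastn_append (n : ℕ) (P Q : List α) : lastn n (P ++ Q) = lastn n (lastn n P ++ Q) := by
  by_cases h : P.length ≤ n
  · have : lastn n P = P := by
      unfold lastn
      rw [Nat.sub_eq_zero_of_le h, List.drop_zero]
    rw [this]
  · push Not at h
    have hP : P.take (P.length - n) ++ lastn n P = P := List.take_append_drop _ _
    have hl : (lastn n P).length = n := by
      unfold lastn; rw [List.length_drop]; omega
    have e : P ++ Q = P.take (P.length - n) ++ (lastn n P ++ Q) := by
      rw [← List.append_assoc, hP]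
    have e2 : (lastn n P ++ Q).length = n + Q.length := by rw [List.length_append, hl]
    have e3 : (P.take (P.length - n)).length = P.length - n := by rw [List.length_take]; omega
    conv_lhs => rw [e]
    unfold lastn at *
    rw [List.length_append, e2, e3]
    have e4 : P.length - n + (n + Q.length) - n = (P.take (P.length - n)).length +
        (n + Q.length - n) := by rw [e3]; omega
    rw [e4, ← List.drop_drop, List.drop_left]

theorem wo_iff {n : ℕ} {S : Set (List α)} {P : List α} :
    Wo n S P ↔ (lastn n P).length = n ∧ lastn n P ∈ S := by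
  unfold Wo lastn
  rw [List.length_drop]
  constructor
  · rintro ⟨h1, h2⟩; exact ⟨by omega, h2⟩
  · rintro ⟨h1, h2⟩; exact ⟨by omega, h2⟩

theorem wo_congr {n : ℕ} {S : Set (List α)} {u v : List α} (h : lastn n u = lastn n v)
    (y : List α) : Wo n S (u ++ y) ↔ Wo n S (v ++ y) := by
  rw [wo_iff, wo_iff, lastn_append n u, lastn_append n v, h]

/-- blocks of the natural chain rule -/
def XX (n : ℕ) (S : Set (List α)) (z : ℕ) : Language α :=
  {X | z ≤ X.length ∧ Wo n S X ∧ ∀ t, z ≤ t → t < X.length → ¬ Wo n S (X.take t)}

theorem isRegular_XX [Finite α] {n : ℕ} (S : Set (List α)) (z N : ℕ) (hN : 0 < N)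
    {M : Type*} [Monoid M] [Finite M] (f : α → M) (F : List α → M → ℕ → Prop) :
    Language.IsRegular ({X | X ∈ XX n S z ∧
      F (X.take z) (((X.drop z).map f).prod) (X.length % N)} : Language α) := by
  classical
  haveI : Finite {l : List α // l.length ≤ z} := (List.finite_length_le α z).to_subtype
  haveI : Finite {l : List α // l.length ≤ n} := (List.finite_length_le α n).to_subtype
  let κ : List α → {l : List α // l.length ≤ z} × {l : List α // l.length ≤ n} × M × Fin N × Prop :=
    fun u => (⟨u.take z, by rw [List.length_take]; omega⟩, ⟨lastn n u, lastn_length n u⟩,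
      ((u.drop z).map f).prod, ⟨u.length % N, Nat.mod_lt _ hN⟩,
      ∃ t, z ≤ t ∧ t < u.length ∧ Wo n S (u.take t))
  refine isRegular_of_code κ fun u v y huv => ?_
  have h1 : u.take z = v.take z := by
    have := congrArg (fun p => p.1.1) huv
    exact this
  have h2 : lastn n u = lastn n v := by
    have := congrArg (fun p => p.2.1.1) huv
    exact this
  have h3 : ((u.drop z).map f).prod = ((v.drop z).map f).prod := congrArg (fun p => p.2.2.1) huv
  have h4 : u.length % N = v.length % N := by
    have := congrArg (fun p => p.2.2.2.1.1) huv
    exact this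
  have h5 : (∃ t, z ≤ t ∧ t < u.length ∧ Wo n S (u.take t)) =
      (∃ t, z ≤ t ∧ t < v.length ∧ Wo n S (v.take t)) := congrArg (fun p => p.2.2.2.2) huv
  by_cases hu : u.length < z
  · have hl := congrArg List.length h1
    rw [List.length_take, List.length_take] at hl
    have hv : v.length < z := by omega
    have : u = v := by
      rw [List.take_of_length_le (by omega), List.take_of_length_le (by omega)] at h1
      exact h1
    rw [this]
    exact id
  · push Not at hu
    have hl := congrArg List.length h1
    rw [List.length_take, List.length_take] at hl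
    have hv : z ≤ v.length := by omega
    rintro ⟨⟨a1, a2, a3⟩, a4⟩
    refine ⟨⟨?_, (wo_congr h2 y).1 a2, ?_⟩, ?_⟩
    · rw [List.length_append]; omega
    · intro t ht1 ht2 hw
      rw [List.length_append] at ht2
      by_cases ht : t < v.length
      · have hex : ∃ t, z ≤ t ∧ t < v.length ∧ Wo n S (v.take t) := by
          refine ⟨t, ht1, ht, ?_⟩
          rwa [List.take_append_of_le_length (by omega)] at hw
        rw [← h5] at hex
        obtain ⟨t', b1, b2, b3⟩ := hex
        refine a3 t' b1 (by rw [List.length_append]; omega) ?_
        rwa [List.take_append_of_le_length (by omega)]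
      · push Not at ht
        have e1 : (v ++ y).take t = v ++ y.take (t - v.length) := by
          rw [List.take_append, List.take_of_length_le ht]
        rw [e1, ← wo_congr h2] at hw
        refine a3 (u.length + (t - v.length)) (by omega) (by rw [List.length_append]; omega) ?_
        have e2 : (u ++ y).take (u.length + (t - v.length)) = u ++ y.take (t - v.length) := by
          rw [List.take_append, List.take_of_length_le (by omega)]
          congr 2
          omega
        rw [e2]
        exact hw
    · have e1 : (u ++ y).take z = (v ++ y).take z := by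
        rw [List.take_append_of_le_length hu, List.take_append_of_le_length hv, h1]
      have e2 : ((u ++ y).drop z).map f = (u.drop z).map f ++ y.map f := by
        rw [List.drop_append_of_le_length hu, List.map_append]
      have e3 : ((v ++ y).drop z).map f = (v.drop z).map f ++ y.map f := by
        rw [List.drop_append_of_le_length hv, List.map_append]
      rw [e1, e2, List.prod_append, h3, ← List.prod_append, ← e3, List.length_append,
        Nat.add_mod, h4, ← Nat.add_mod, ← List.length_append] at a4
      exact a4

/-- a block has at most `z + 1` walls -/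
theorem nw_XX {n : ℕ} {S : Set (List α)} {z : ℕ} {X : List α} (hX : X ∈ XX n S z) :
    nw n S X ≤ z + 1 := by
  classical
  obtain ⟨h1, h2, h3⟩ := hX
  have hsub : (Finset.range (X.length + 1)).filter (fun x => Wl n S X x) ⊆
      insert (X.length - n) (Finset.range z) := by
    intro x hx
    rw [Finset.mem_filter, wo_take] at hx
    obtain ⟨-, hx1, hx2⟩ := hx
    rw [Finset.mem_insert, Finset.mem_range]
    by_cases hz : z ≤ x + n
    · left
      by_contra hne
      exact h3 (x + n) hz (by omega) hx2
    · right; omega
  unfold nw
  refine (Finset.card_le_card hsub).trans ((Finset.card_insert_le _ _).trans ?_)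
  rw [Finset.card_range]

/-- **heights of block families** -/
theorem HL1_XX [Finite α] {n c P : ℕ} {S : Set (List α)} (hn : 0 < n) (hP : 0 < P)
    (hper : PerOff n c P S) (z N : ℕ) (hN : 0 < N) {M : Type*} [Monoid M] [Finite M] (f : α → M)
    (F : List α → M → ℕ → Prop) :
    HL 1 ({X | X ∈ XX n S z ∧ F (X.take z) (((X.drop z).map f).prod) (X.length % N)} :
      Language α) :=
  HL_of_few hn hP hper (z + 1) (isRegular_XX S z N hN f F) fun _ hw => nw_XX hw.1

/-- the same with an abstract height criterion (`WallU_228.walls_full`) -/
theorem HL1_XX' [Finite α] {n : ℕ} {S : Set (List α)}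
    (hfew : ∀ (L : Language α), L.IsRegular → ∀ r, HL 1 ({w | w ∈ L ∧ nw n S w ≤ r} : Language α))
    (z N : ℕ) (hN : 0 < N) {M : Type*} [Monoid M] [Finite M] (f : α → M)
    (F : List α → M → ℕ → Prop) :
    HL 1 ({X | X ∈ XX n S z ∧ F (X.take z) (((X.drop z).map f).prod) (X.length % N)} :
      Language α) :=
  (hfew _ (isRegular_XX S z N hN f F) (z + 1)).congr fun _ =>
    ⟨fun h => ⟨h, nw_XX h.1⟩, fun h => h.1⟩

/-- words without a block as prefix -/
theorem isRegular_rest [Finite α] {n : ℕ} (S : Set (List α)) (z : ℕ)
    {M : Type*} [Monoid M] [Finite M] (f : α → M) (F : M → Prop) :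
    Language.IsRegular ({w | (∀ X ∈ XX n S z, ¬ X <+: w) ∧ F ((w.map f).prod)} :
      Language α) := by
  classical
  haveI : Finite {l : List α // l.length ≤ z} := (List.finite_length_le α z).to_subtype
  haveI : Finite {l : List α // l.length ≤ n} := (List.finite_length_le α n).to_subtype
  let Dd : List α → Prop := fun u => ∃ t, z ≤ t ∧ t ≤ u.length ∧ Wo n S (u.take t)
  have hD : ∀ w : List α, (∀ X ∈ XX n S z, ¬ X <+: w) ↔ ¬ Dd w := by
    intro w
    constructor
    · rintro h ⟨t, h1, h2, h3⟩
      have hex : ∃ t, z ≤ t ∧ t ≤ w.length ∧ Wo n S (w.take t) := ⟨t, h1, h2, h3⟩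
      obtain ⟨b1, b2, b3⟩ := Nat.find_spec hex
      have hlen : (w.take (Nat.find hex)).length = Nat.find hex := by
        rw [List.length_take]; omega
      refine h (w.take (Nat.find hex)) ⟨by rw [hlen]; exact b1, b3, ?_⟩ (List.take_prefix _ _)
      intro t' h1' h2' h3'
      rw [hlen] at h2'
      refine Nat.find_min hex h2' ⟨h1', by omega, ?_⟩
      rwa [List.take_take, min_eq_left (by omega)] at h3'
    · rintro h X ⟨h1, h2, h3⟩ ⟨y, rfl⟩
      exact h ⟨X.length, h1, by rw [List.length_append]; omega, by rwa [List.take_left]⟩
  let κ : List α → {l : List α // l.length ≤ z} × {l : List α // l.length ≤ n} × M × Prop :=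
    fun u => (⟨u.take z, by rw [List.length_take]; omega⟩, ⟨lastn n u, lastn_length n u⟩,
      (u.map f).prod, Dd u)
  refine isRegular_of_code κ fun u v y huv => ?_
  have h1 : u.take z = v.take z := by
    have := congrArg (fun p => p.1.1) huv
    exact this
  have h2 : lastn n u = lastn n v := by
    have := congrArg (fun p => p.2.1.1) huv
    exact this
  have h3 : (u.map f).prod = (v.map f).prod := congrArg (fun p => p.2.2.1) huv
  have h5 : Dd u = Dd v := congrArg (fun p => p.2.2.2) huv
  by_cases hu : u.length < z
  · have hl := congrArg List.length h1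
    rw [List.length_take, List.length_take] at hl
    have hv : v.length < z := by omega
    have : u = v := by
      rw [List.take_of_length_le (by omega), List.take_of_length_le (by omega)] at h1
      exact h1
    rw [this]
    exact id
  · push Not at hu
    have hl := congrArg List.length h1
    rw [List.length_take, List.length_take] at hl
    have hv : z ≤ v.length := by omega
    rintro ⟨a1, a2⟩
    rw [hD] at a1
    refine ⟨(hD _).2 ?_, ?_⟩
    · rintro ⟨t, ht1, ht2, hw⟩
      rw [List.length_append] at ht2
      apply a1
      by_cases ht : t ≤ v.length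
      · have hex : Dd v := by
          refine ⟨t, ht1, ht, ?_⟩
          rwa [List.take_append_of_le_length ht] at hw
        rw [← h5] at hex
        obtain ⟨t', b1, b2, b3⟩ := hex
        refine ⟨t', b1, by rw [List.length_append]; omega, ?_⟩
        rwa [List.take_append_of_le_length b2]
      · push Not at ht
        have e1 : (v ++ y).take t = v ++ y.take (t - v.length) := by
          rw [List.take_append, List.take_of_length_le ht.le]
        rw [e1, ← wo_congr h2] at hw
        refine ⟨u.length + (t - v.length), by omega, by rw [List.length_append]; omega, ?_⟩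
        have e2 : (u ++ y).take (u.length + (t - v.length)) = u ++ y.take (t - v.length) := by
          rw [List.take_append, List.take_of_length_le (by omega)]
          congr 2
          omega
        rw [e2]
        exact hw
    · rw [List.map_append, List.prod_append, h3, ← List.prod_append, ← List.map_append] at a2
      exact a2

theorem nw_rest {n : ℕ} {S : Set (List α)} {z : ℕ} {w : List α}
    (hw : ∀ X ∈ XX n S z, ¬ X <+: w) : nw n S w ≤ z := by
  classical
  have hsub : (Finset.range (w.length + 1)).filter (fun x => Wl n S w x) ⊆ Finset.range z := by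
    intro x hx
    rw [Finset.mem_filter, wo_take] at hx
    obtain ⟨-, hx1, hx2⟩ := hx
    rw [Finset.mem_range]
    by_contra hz
    push Not at hz
    have hex : ∃ t, z ≤ t ∧ t ≤ w.length ∧ Wo n S (w.take t) := ⟨x + n, by omega, hx1, hx2⟩
    obtain ⟨b1, b2, b3⟩ := Nat.find_spec hex
    have hlen : (w.take (Nat.find hex)).length = Nat.find hex := by
      rw [List.length_take]; omega
    refine hw (w.take (Nat.find hex)) ⟨by rw [hlen]; exact b1, b3, ?_⟩ (List.take_prefix _ _)
    intro t' h1' h2' h3'
    rw [hlen] at h2'
    refine Nat.find_min hex h2' ⟨h1', by omega, ?_⟩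
    rwa [List.take_take, min_eq_left (by omega)] at h3'
  unfold nw
  refine (Finset.card_le_card hsub).trans ?_
  rw [Finset.card_range]

/-- the rest: words without block prefix and with a given value have height one -/
theorem HL1_rest [Finite α] {n : ℕ} {S : Set (List α)}
    (hfew : ∀ (L : Language α), L.IsRegular → ∀ r, HL 1 ({w | w ∈ L ∧ nw n S w ≤ r} : Language α))
    (z : ℕ) {M : Type*} [Monoid M] [Finite M] (f : α → M) (F : M → Prop) :
    HL 1 ({w | (∀ X ∈ XX n S z, ¬ X <+: w) ∧ F ((w.map f).prod)} : Language α) :=
  (hfew _ (isRegular_rest S z f F) z).congr fun _ =>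
    ⟨fun h => ⟨h, nw_rest h.1⟩, fun h => h.1⟩

/-- right words by finitely many left quotients (semantic right words, 110 / 736) -/
theorem HL_semantic {k : ℕ} {V : Type*} [Finite V] {L : V → Set (List α)} (hL : ∀ v, (L v).Finite)
    {B : V → Language α} (hB : ∀ v, HL k (B v)) :
    HL k ({Q | ∀ v, ∀ P ∈ L v, P ++ Q ∈ B v} : Language α) := by
  refine HL.iInter (L := fun v => ({Q | ∀ P ∈ L v, P ++ Q ∈ B v} : Language α)) fun v => ?_
  exact HL.biInter (hL v) (L := fun P => ({Q | P ++ Q ∈ B v} : Language α)) fun P _ =>
    (hB v).lquot P

end Crest.Agent.R320.P4_167
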