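import Crest.Agent.R320.CC_247
import Crest.Agent.R320.G1_256
import Crest.Agent.R320.Sp_69
import Crest.Agent.R320.P4_167
import Crest.Agent.R320.Block_467
import Crest.Agent.R320.Univ_119

/-!
# Row 320: the final assembly (helper247)

852's gadget (`G1_256.g1`), spoil count (`Sp_69.spoil`), exact gadget (`ExactR_237`), walls
(`WallU_228.walls_full`), few walls (`P4_167`), completeness of both schemes (`CC_247`), top
(`Top5_110.top_sem`), universe bridge (`Univ_119`).
-/

set_option autoImplicit false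

namespace Crest.Agent.R320.Fin_247

open Crest.Agent.R320 Crest.Agent.R320.Hk_851 Crest.Agent.R320.Code110 Crest.Agent.R320.CC_247

/-- properties of blocks which depend on finite data only -/
theorem HL1_inv {α : Type} [Finite α] {n : ℕ} {Sx : Set (List α)}
    (hfew : ∀ (L : Language α), L.IsRegular → ∀ r,
      HL 1 ({w | w ∈ L ∧ FewWalls_228.nw n Sx w ≤ r} : Language α))
    (z N : ℕ) (hN : 0 < N) {S : Type} [Monoid S] [Finite S] (f : α → S) (Q : List α → Prop)
    (hQ : ∀ u u' : List α, u ∈ XX (WallU_228.Wo n Sx) z → u' ∈ XX (WallU_228.Wo n Sx) z →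
      u.take z = u'.take z → ((u.drop z).map f).prod = ((u'.drop z).map f).prod →
      u.length % N = u'.length % N → Q u → Q u') :
    HL 1 ({u | u ∈ XX (WallU_228.Wo n Sx) z ∧ Q u} : Language α) := by
  refine (P4_167.HL1_XX' hfew z N hN f (fun a g r => ∃ u : List α,
    u ∈ XX (WallU_228.Wo n Sx) z ∧ u.take z = a ∧ ((u.drop z).map f).prod = g ∧
      u.length % N = r ∧ Q u)).congr fun u' => ?_
  constructor
  · rintro ⟨hu', h⟩
    exact ⟨hu', u', hu', rfl, rfl, rfl, h⟩
  · rintro ⟨hu', u, hu, h1, h2, h3, h4⟩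
    exact ⟨hu', hQ u u' hu hu' h1 h2 h3 h4⟩

theorem badN_mul (Ms : Finset ℕ) (M m b : ℕ) (hk : ∀ k ∈ Ms, k ∣ M) (hb : 0 < b) (n q : ℕ) :
    Sp_69.BadN Ms M m b (n + q * (M * b ^ m)) ↔ Sp_69.BadN Ms M m b n := by
  induction q with
  | zero => simp
  | succ q ih =>
    rw [Nat.succ_mul, ← Nat.add_assoc, Sp_69.badN_periodic Ms M m b hk hb, ih]

theorem badN_mod (Ms : Finset ℕ) (M m b : ℕ) (hk : ∀ k ∈ Ms, k ∣ M) (hb : 0 < b) {s t : ℕ}
    (h : s % (M * b ^ m) = t % (M * b ^ m)) :
    Sp_69.BadN Ms M m b s ↔ Sp_69.BadN Ms M m b t := by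
  have e1 := Nat.mod_add_div' s (M * b ^ m)
  have e2 := Nat.mod_add_div' t (M * b ^ m)
  rw [← e1, ← e2, badN_mul Ms M m b hk hb, badN_mul Ms M m b hk hb, h]

theorem sub_mod {a b p N : ℕ} (ha : p ≤ a) (hb : p ≤ b) (h : a % N = b % N) :
    (a - p) % N = (b - p) % N := by
  have h' : a ≡ b [MOD N] := h
  have : a - p + p ≡ b - p + p [MOD N] := by
    rw [Nat.sub_add_cancel ha, Nat.sub_add_cancel hb]; exact h'
  exact Nat.ModEq.add_right_cancel' p this

/-- **every fibre of a finite monoid has height at most three** -/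
theorem fibre (α : Type) [Finite α] (S : Type) [Monoid S] [Finite S] (f : α → S) (s : S) :
    HL 3 ({w | (w.map f).prod = s} : Language α) := by
  classical
  haveI := Fintype.ofFinite S
  obtain ⟨act, hadd, hone, hmul, hfaith⟩ := Blk467.exists_module S
  obtain ⟨m, r, h1⟩ := G1_256.g1 S (S → ZMod 2) act
  obtain ⟨K, hK⟩ := ExactR_237.exact_gadget α S (S → ZMod 2) f act (2 + 2 * (r + m))
  obtain ⟨Ms, M, hMs, hMs2, hM, h2⟩ := h1 (2 * 4 ^ K)
  have h4K : 1 ≤ 4 ^ K := Nat.one_le_pow _ _ (by norm_num)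
  set b : ℕ := 1 + M * (18 * 4 ^ K + 9) with hb
  have hb1 : 4 * M + 4 < b := by rw [hb]; nlinarith
  have hb2 : 18 * 4 ^ K * M ≤ b := by rw [hb]; nlinarith
  have hb0 : 0 < b := by omega
  have hcop : Nat.Coprime b M := by rw [hb]; simp
  obtain ⟨lam, rho, nu1, g1, g2, g3, g4⟩ := h2 b hb1 hcop α f
  obtain ⟨c, c1, c2, -, -, c5⟩ := Sp_69.spoil Ms M m b K (b ^ m) hM
    (fun k hk => ⟨(hMs2 k hk).2.2, (hMs2 k hk).1⟩) hb2 hcop
  have hcm : ∀ i j, i < j → c i < c j := fun i j h => by have := c1 i j h; omega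
  obtain ⟨lam2, rho2, nu, hs, hcp⟩ := hK c (fun i j h _ => hcm i j h)
  set N1 : ℕ := b ^ m with hN1
  set p0 : ℕ := c K with hp0
  have hcp0 : ∀ k < K, c k ≤ p0 := fun k hk => (hcm k K hk).le
  obtain ⟨n, cc, P, Sx, hn, hP, hloc, hsep, -, -, hfew⟩ :=
    WallU_228.walls_full (α := α) (2 * N1 + 2 * p0)
  have hw : LW (WallU_228.Wo n Sx) n (2 * N1 + 2 * p0) := ⟨hloc, hsep⟩
  set z : ℕ := 3 * p0 + 3 * N1 + n + 1 with hz
  set BadT : ℕ → Prop := Sp_69.BadN Ms M m b with hBadT
  have hdiv : ∀ k ∈ Ms, k ∣ M := fun k hk => (hMs2 k hk).2.2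
  have G : Gad (ExactR_237.pr f) act lam rho nu1 N1 p0 BadT := by
    refine ⟨fun P v h => (g1 P v h).le, fun P Q v b h h' => g2 P Q v b h h', ?_⟩
    intro Y hY hB v
    obtain ⟨P, Q, h, h', h''⟩ := g3 Y (fun k hk hd => hB (Or.inl ⟨k, hk, hd⟩)) (fun j hj => by
      by_contra hcon; exact hB (Or.inr ⟨j, hj, hcon⟩)) v
    exact ⟨P, Q, h.symm, h', h''⟩
  have hr : Rul K N1 p0 (r + m) c BadT := by
    refine ⟨fun i j h _ => hcm i j h, ?_, ?_⟩
    · intro a b a' b' _ _ _ _ hab hab' q1 q2
      by_contra hne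
      have hne' : (a, b) ≠ (a', b') := fun h => hne ⟨(Prod.mk.inj h).1, (Prod.mk.inj h).2⟩
      rcases c2 a b a' b' hab hab' hne' with h | h
      · omega
      · omega
    · intro T hT F hF
      refine (Finset.card_le_card ?_).trans ((c5 T fun k hk => (hcp0 k hk).trans hT).trans
        (by omega))
      intro ab hab
      obtain ⟨q1, q2, q3, q4⟩ := hF ab hab
      rw [Finset.mem_filter, Finset.mem_product, Finset.mem_range, Finset.mem_range]
      exact ⟨⟨q1, q2⟩, q3, q4⟩
  have hNN : 0 < M * b ^ m := by positivity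
  have hsub : ∀ a b s, act (a - b) s = act a s - act b s := by
    intro a b s
    have := hadd (a - b) b s
    rw [sub_add_cancel] at this
    rw [this, add_sub_cancel_right]
  have prapp : ∀ u w : List α, ExactR_237.pr f (u ++ w) = ExactR_237.pr f u * ExactR_237.pr f w := by
    intro u w; simp [ExactR_237.pr]
  -- invariance of the zone map
  have hTinv : ∀ u u' : List α, u ∈ XX (WallU_228.Wo n Sx) z → u' ∈ XX (WallU_228.Wo n Sx) z →
      u.take z = u'.take z → ((u.drop z).map f).prod = ((u'.drop z).map f).prod →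
      u.length % (M * b ^ m) = u'.length % (M * b ^ m) → ∀ x,
      CC_247.TT (ExactR_237.pr f) act nu1 (fun X => nu X 1) p0 u x =
        CC_247.TT (ExactR_237.pr f) act nu1 (fun X => nu X 1) p0 u' x := by
    intro u u' hu hu' e1 e2 e3 x
    have l1 := hu.1
    have l2 := hu'.1
    have t1 : u.take p0 = u'.take p0 := by
      have := congrArg (List.take p0) e1
      rw [List.take_take, List.take_take, Nat.min_eq_left (by omega)] at this
      exact this
    have dd : ∀ (v : List α) (a : ℕ), a ≤ z → z ≤ v.length →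
        v.drop a = (v.take z).drop a ++ v.drop z := by
      intro v a ha hv
      conv_lhs => rw [← List.take_append_drop z v]
      rw [List.drop_append_of_le_length (by rw [List.length_take]; omega)]
    have t2 : ExactR_237.pr f (u.drop p0) = ExactR_237.pr f (u'.drop p0) := by
      rw [dd u p0 (by omega) l1, dd u' p0 (by omega) l2, prapp, prapp, e1]
      exact congrArg _ e2
    have t3 : nu1 (u.drop p0) = nu1 (u'.drop p0) := by
      refine (g4 (u.drop p0) (u'.drop p0) ?_ ?_ ?_ ?_ ?_).2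
      · rw [List.length_drop]; omega
      · rw [List.length_drop]; omega
      · rw [dd u p0 (by omega) l1, dd u' p0 (by omega) l2, e1,
          List.take_append_of_le_length (by rw [List.length_drop, List.length_take]; omega),
          List.take_append_of_le_length (by rw [List.length_drop, List.length_take]; omega)]
      · rw [List.length_drop, List.length_drop]
        exact sub_mod (by omega) (by omega) e3
      · rw [List.drop_drop, List.drop_drop, dd u _ (by omega) l1, dd u' _ (by omega) l2, e1,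
          List.map_append, List.map_append, List.prod_append, List.prod_append, e2]
    unfold CC_247.TT
    rw [t1, t2, t3]
  have H1 : HL 1 (XX (WallU_228.Wo n Sx) z) :=
    (HL1_inv hfew z (M * b ^ m) hNN f (fun _ => True)
      (fun _ _ _ _ _ _ _ _ => trivial)).congr fun u => ⟨fun h => ⟨h, trivial⟩, fun h => h.1⟩
  have H2 : HL 1 (Bad (WallU_228.Wo n Sx) z N1 p0 BadT) := by
    have a1 : HL 1 ({u | u ∈ XX (WallU_228.Wo n Sx) z ∧
        ((∃ t, z ≤ t + N1 ∧ t < z ∧ WallU_228.Wo n Sx (u.take t)) ∨ BadT (u.length - p0))} :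
        Language α) := by
      refine HL1_inv hfew z (M * b ^ m) hNN f _ ?_
      rintro u u' hu hu' e1 e2 e3 (⟨t, q1, q2, q3⟩ | q)
      · refine Or.inl ⟨t, q1, q2, ?_⟩
        have e4 : u.take t = u'.take t := by
          have := congrArg (List.take t) e1
          rw [List.take_take, List.take_take, Nat.min_eq_left (by omega)] at this
          exact this
        rw [← e4]; exact q3
      · refine Or.inr ?_
        have l1 := hu.1
        have l2 := hu'.1
        exact (badN_mod Ms M m b hdiv hb0 (sub_mod (by omega) (by omega) e3)).1 q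
    have a2 : HL 1 ({u | u.length < z + N1} : Language α) :=
      HL.finite ((List.finite_length_lt α (z + N1)))
    refine (HL.setOf_or (H1.setOf_and a2) a1).congr fun u => ?_
    constructor
    · rintro ⟨h, h' | h' | h'⟩
      · exact Or.inl ⟨h, h'⟩
      · exact Or.inr ⟨h, Or.inl h'⟩
      · exact Or.inr ⟨h, Or.inr h'⟩
    · rintro (⟨h, h'⟩ | ⟨h, h' | h'⟩)
      · exact ⟨h, Or.inl h'⟩
      · exact ⟨h, Or.inr (Or.inl h')⟩
      · exact ⟨h, Or.inr (Or.inr h')⟩
  have H3 : ∀ x y, HL 1 (ZT (XX (WallU_228.Wo n Sx) z)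
      (CC_247.TT (ExactR_237.pr f) act nu1 (fun X => nu X 1) p0) x y) := by
    intro x y
    refine HL1_inv hfew z (M * b ^ m) hNN f _ ?_
    intro u u' hu hu' e1 e2 e3 h
    rw [← hTinv u u' hu hu' e1 e2 e3 x]; exact h
  have H4 : ∀ s, HL 3 ({w | (∀ u ∈ XX (WallU_228.Wo n Sx) z, ¬ u <+: w) ∧
      ExactR_237.pr f w = s} : Language α) := fun s =>
    (P4_167.HL1_rest hfew z f (fun t => t = s)).mono (by norm_num)
  refine Top5_110.top_sem (φ := ExactR_237.pr f) (act := act)
    (XX := XX (WallU_228.Wo n Sx) z) (Bad := Bad (WallU_228.Wo n Sx) z N1 p0 BadT)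
    (T := CC_247.TT (ExactR_237.pr f) act nu1 (fun X => nu X 1) p0)
    (N1 := 0) (N2 := 1)
    (L1 := L1 (ExactR_237.pr f) act lam (fun X => nu X 1) p0)
    (L2 := L2 lam2 c K) ?_ prapp hone hmul hfaith (XX_pc (by omega)) (fun u hu => hu.1) ?_
    H1 H2 H3 H4 (F1 G) (F2 hcp0) ?_ ?_ s
  · simp [ExactR_237.pr]
  · intro u hu v v'
    unfold CC_247.TT
    have e : ExactR_237.pr f u = ExactR_237.pr f (u.take p0) * ExactR_237.pr f (u.drop p0) := by
      rw [← prapp, List.take_append_drop]
    rw [e, hmul, hsub, add_sub_add_right_eq_sub, ← hsub, add_sub_add_right_eq_sub]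
  · intro u hu hb x t ht
    exact C1 hw G (by omega) (by omega) u hu hb x t ht
  · intro u hu x t ht
    exact C2 hw hr hcp0 (by omega) le_rfl hs hcp u hu x t ht

theorem result0 (α : Type) [Finite α] (L : Language α) (hL : L.IsRegular) : HL 3 L :=
  Hk_851.of_monoid (fun S _ _ φ s => fibre α S φ s) L hL

theorem result (α : Type*) [Finite α] (L : Language α) (hL : L.IsRegular) :
    ∃ e : Crest.RegLang.GRegExp α, e.height ≤ 3 ∧ e.lang = L :=
  Univ_119.bridge (fun α _ L hL => result0 α L hL) α L hL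

end Crest.Agent.R320.Fin_247
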