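import Crest.Agent.R320.SemTop_727
import Crest.Agent.R320.SemJ_832
import Crest.Agent.R320.Fib_298
import Crest.Agent.R320.G1_256
import Crest.Agent.R320.Sp_249
import Crest.Agent.R320.ExactR_237
import Crest.Agent.R320.LWallAll_922
import Crest.Agent.R320.P4_933
import Crest.Agent.R320.Univ_582

/-!
# Row 320: the join (helper249)

727's semantic top + 832's concrete data + 298's heights + 256's `g1` + `Sp_249.spoil` + 237's
exact gadget + 922's walls + 582's universe transfer.
-/

set_option autoImplicit false

namespace Crest.Agent.R320.Fin_249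

open Crest.RegLang Crest.Agent.R320.Hk_851 Crest.Agent.R320.Blk467 Crest.Agent.R320.Reg_236

theorem reg_key {α : Type} [Finite α] {S : Type} [Monoid S] [Finite S] (f : α → S) (A M0 : ℕ)
    (hM : 0 < M0) {V : Type} (nu : List α → V)
    (hnu : ∀ Q Q' : List α, A ≤ Q.length → A ≤ Q'.length → Q.take A = Q'.take A →
      Q.length % M0 = Q'.length % M0 → ((Q.drop A).map f).prod = ((Q'.drop A).map f).prod →
      nu Q = nu Q') (y : V) :
    Language.IsRegular ({Y | nu Y = y} : Language α) := by
  let R : List α → Language α := fun X0 => {Y | nu (X0 ++ Y) = y}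
  have hR : ∀ X0 ∈ {l : List α | l.length = A}, (({X0} : Language α) * R X0).IsRegular := by
    intro X0 h0
    have h0 : X0.length = A := h0
    refine isRegular_mul (HL.isRegular (HL.word (k := 0) X0)) ?_
    refine P4_933.regular_of_class f 0 M0 hM (fun Y => nu (X0 ++ Y) = y) ?_
    intro u u' _ _ _ h2 h3
    have e : nu (X0 ++ u) = nu (X0 ++ u') := by
      refine hnu _ _ (by rw [List.length_append]; omega) (by rw [List.length_append]; omega)
        ?_ ?_ ?_
      · rw [← h0, List.take_left, List.take_left]
      · rw [List.length_append, List.length_append, Nat.add_mod, h2, ← Nat.add_mod]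
      · rw [← h0, List.drop_left, List.drop_left, h3]
    show nu (X0 ++ u) = y ↔ nu (X0 ++ u') = y
    rw [e]
  have h1 := Fib_298.isRegular_biUnion (List.finite_length_eq α A)
    (L := fun X0 => ({X0} : Language α) * R X0) hR
  have h2 : Language.IsRegular ({Y | Y.length ≤ A ∧ nu Y = y} : Language α) :=
    HL.isRegular (k := 0) (HL.finite ((List.finite_length_le α A).subset fun v hv => hv.1))
  have h3 := h1.add h2
  refine (congrArg Language.IsRegular ?_).mpr h3
  refine Set.ext fun w => ?_
  constructor
  · intro hw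
    have hw : nu w = y := hw
    by_cases h : w.length ≤ A
    · exact Or.inr ⟨h, hw⟩
    · refine Or.inl ⟨w.take A, ?_, ?_⟩
      · show (w.take A).length = A
        rw [List.length_take]; omega
      · refine Language.mem_mul.2 ⟨w.take A, rfl, w.drop A, ?_, List.take_append_drop A w⟩
        show nu (w.take A ++ w.drop A) = y
        rw [List.take_append_drop]; exact hw
  · rintro (⟨X0, _, hw⟩ | ⟨_, hw⟩)
    · obtain ⟨a, ha, b, hb, rfl⟩ := Language.mem_mul.1 hw
      have ha : a = X0 := ha
      subst ha
      exact hb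
    · exact hw

theorem fin (α : Type) [Finite α] (S : Type) [Monoid S] [Finite S] (f : α → S) (s : S) :
    HL 3 ({w | (w.map f).prod = s} : Language α) := by
  classical
  haveI := Fintype.ofFinite S
  obtain ⟨act, hadd, hone, hmul, hfaith⟩ := exists_module S
  haveI : Fintype (S → ZMod 2) := Fintype.ofFinite _
  obtain ⟨m, r, hg⟩ := G1_256.g1 S (S → ZMod 2) act
  obtain ⟨K, hK⟩ := ExactR_237.exact_gadget α S (S → ZMod 2) f act (2 * (r + m) + 2)
  obtain ⟨Ms, M, hcard, hMs, hM, hb⟩ := hg (4 ^ K)
  set b := M * (2 ^ (K + 6) + 8) + 1 with hbdef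
  have hb1 : 4 * M + 4 < b := by
    have : 1 ≤ 2 ^ (K + 6) := Nat.one_le_two_pow
    have h2 : 64 ≤ 2 ^ (K + 6) := by
      calc 64 = 2 ^ 6 := by norm_num
        _ ≤ 2 ^ (K + 6) := Nat.pow_le_pow_right (by norm_num) (by omega)
    have h3 : M * 72 ≤ M * (2 ^ (K + 6) + 8) := Nat.mul_le_mul_left M (by omega)
    omega
  have hb2 : 2 ^ (K + 6) * M < b := by
    rw [hbdef, Nat.mul_add]
    have := Nat.mul_comm M (2 ^ (K + 6))
    omega
  have hco : Nat.Coprime b M := by
    rw [hbdef]
    simp [Nat.coprime_mul_left_add_left]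
  obtain ⟨lam, rho, nu1, g1, g2, g3, g4⟩ := hb b hb1 hco α f
  set N := b ^ m with hN
  obtain ⟨c, c1, c2, c3, c4⟩ := Sp_249.spoil Ms M b m K N hM
    (fun k hk => ⟨(hMs k hk).1, (hMs k hk).2.2⟩) hb2 hco
  obtain ⟨lam2, rho2, nu2, x1, x2⟩ := hK c (fun i j hij _ => by have := c1 i j hij; omega)
  set Lam := c K with hLam
  obtain ⟨n, G, B, Wo, hLW, hgap, -, -, hfree⟩ :=
    LWallAll_922.walls_all_left α (2 * Lam + 2 * N + 1) (by omega)
  set z := Lam + n + 2 * N + 2 * Lam + 1 with hz
  have hz0 : 0 < z := by omega
  have hzn : n ≤ z := by omega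
  have hzL : Lam ≤ z := by omega
  have hclt : ∀ k < K, c k ≤ Lam := fun k hk => by have := c1 k K hk; omega
  have hW : Fib_298.WallU Wo n (max B (2 * Lam + 2 * N + 1)) := by
    refine ⟨hLW.1, hLW.2, ?_⟩
    intro X hX
    obtain ⟨u, x, v, k, h1, h2, h3, h4⟩ := hfree X hX
    exact ⟨u, x, v, k, h4, by omega, by omega, by omega⟩
  let D : SemJ_832.Dat α S (S → ZMod 2) :=
    { phi := fun w => (w.map f).prod
      act := act
      Wo := Wo
      n := n
      W := 2 * Lam + 2 * N + 1
      z := z
      p0 := Lam
      N := N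
      K := K
      C0 := r + m
      Lam := Lam
      BadT := Sp_249.Bad Ms M b m
      lam := lam
      rho := rho
      nu1 := nu1
      c := c
      lam2 := lam2
      rho2 := fun k Q => rho2 k Q 1
      nu2 := fun w => nu2 w 1
      hloc := hLW.1
      hgap := by
        intro X t t' h1 h2 h3 h4
        have := hgap X t t' h1 h2 h3 h4
        omega
      g_len := fun p v h => (g1 p v h).le
      g_sound := fun p q v r h1 h2 => g2 p q v r h1 h2
      g_comp := by
        intro u _ hu v
        refine g3 u ?_ ?_ v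
        · intro k hk hd
          exact hu (Or.inl ⟨k, hk, hd⟩)
        · intro j hj
          by_contra hc
          exact hu (Or.inr ⟨j, hj, hc⟩)
      e_sound := by
        intro k hk P Q v b' hP h1 h2
        have := x1 k hk P Q 1 v b' hP h1 h2
        rw [mul_one] at this
        exact this
      e_comp := by
        intro u v hu
        exact x2 u 1 v hu
      c_le := hclt
      rulerE := by
        intro i _ j _ i' _ j' _ h1 h2 h3 h4
        by_contra hne
        rcases c2 i j i' j' h1 h2 (fun e => hne (by
          have := Prod.ext_iff.1 e; exact this)) with h | h <;> omega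
      rulerB := by
        intro T _ hT
        have hT' : ∀ l < K, c l ≤ T := fun l hl => (hclt l hl).trans hT
        refine le_trans ?_ ((c4 T hT').trans (by omega))
        refine Finset.card_le_card_of_injOn Prod.swap ?_ (Prod.swap_injective.injOn)
        intro p hp
        have hp' := (Finset.mem_filter.1 (Finset.mem_coe.1 hp))
        refine Finset.mem_coe.2 (Finset.mem_filter.2 ⟨?_, ?_, ?_⟩)
        · have := Finset.mem_product.1 hp'.1
          exact Finset.mem_product.2 ⟨this.2, this.1⟩
        · exact fun e => hp'.2.1 e.symm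
        · exact hp'.2.2
      h_p0 := le_rfl
      z_pos := by omega
      h_z := by omega
      h_W := by omega }
  have hM0 : 0 < M * b ^ m := Nat.mul_pos hM (Nat.pow_pos (by omega))
  have hnu : ∀ y, Language.IsRegular ({Y | nu1 Y = y} : Language α) :=
    reg_key f (b ^ m) (M * b ^ m) hM0 nu1 (fun Q Q' h1 h2 h3 h4 h5 => (g4 Q Q' h1 h2 h3 h4 h5).2)
  let E : SemTop_727.Sch α (S → ZMod 2) := ⟨D.Z, D.T, D.L1, D.L2⟩
  refine SemTop_727.top (k := 1) act hadd hone hmul hfaith f
    (fun X => act (nu2 (X.take Lam) 1) ((X.drop Lam).map f).prod + nu1 (X.drop Lam)) E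
    ?_ (Fib_298.pcode_XX hz0) ?_ ?_ ?_ ?_ ?_ s
  · intro v X
    show act (act v ((X.take Lam).map f).prod + nu2 (X.take Lam) 1) ((X.drop Lam).map f).prod
      + nu1 (X.drop Lam) = _
    rw [hadd, ← hmul, ← List.prod_append, ← List.map_append, List.take_append_drop, add_assoc]
  · intro x y
    exact Fib_298.hfib hW hzn act f Lam hzL
      (fun v X0 => act v (X0.map f).prod + nu2 X0 1) nu1 hnu x y
  · intro x
    refine (List.finite_length_le α (Lam + N)).subset ?_
    rintro P ⟨h1, h2⟩
    have h3 := g1 _ _ h2
    have h4 : (P.drop Lam).length < N := h3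
    rw [List.length_drop] at h4
    show P.length ≤ Lam + N
    omega
  · intro x
    refine (List.finite_length_le α Lam).subset ?_
    rintro P ⟨k, hk, h1, _⟩
    have h2 : P.length = c k := h1
    show P.length ≤ Lam
    rw [h2]
    exact hclt k hk
  · intro X1 h1 X2 h2 x
    exact D.hC2 h1 h2 x
  · intro s
    exact (Fib_298.rest hW hzn f s).mono (by omega)

theorem row {α : Type*} [Finite α] (L : Language α) (hL : L.IsRegular) :
    ∃ e : GRegExp α, e.height ≤ 3 ∧ e.lang = L :=
  Univ_582.final (k := 3) (fun β _ S _ _ φ s => fin β S φ s) α L hL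

end Crest.Agent.R320.Fin_249
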