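import Mathlib
import Crest.Agent.R320.ExactR_237

/-!
Row 320: the joint of scheme 1 (gadget without small walls, 693 / 638 / 219) and scheme 2
(237's exact gadget on a ruler), natural chain rule (block = first wall at distance `>= z`,
left-looking walls of ALL words), in 727's fully semantic form: two completeness statements.
-/

set_option autoImplicit false

namespace Crest.Agent.R320.JointSem_814

open Finset ExactR_237

variable {α S V : Type}

/-- left-looking wall rule with window `n`, gaps larger than `W`. -/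
structure Walls (n W : ℕ) (Wo : List α → Prop) : Prop where
  loc : ∀ P Q : List α, n ≤ Q.length → (Wo (P ++ Q) ↔ Wo Q)
  len : ∀ Q : List α, Wo Q → n ≤ Q.length
  gap : ∀ (X : List α) (s t : ℕ), s < t → t ≤ s + W → t ≤ X.length → Wo (X.take s) → Wo (X.take t) → False

/-- blocks: first wall at distance at least `z`. -/
def XX (Wo : List α → Prop) (z : ℕ) : Set (List α) :=
  {X | Wo X ∧ z ≤ X.length ∧ ∀ t, z ≤ t → t < X.length → ¬ Wo (X.take t)}

theorem XX_code {Wo : List α → Prop} {z : ℕ} {X Y : List α} (hX : X ∈ XX Wo z)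
    (hY : Y ∈ XX Wo z) (h : X <+: Y) : X = Y := by
  have h1 : Y.take X.length = X := (List.prefix_iff_eq_take.1 h).symm
  rcases lt_or_ge X.length Y.length with h2 | h2
  · exact absurd (show Wo (Y.take X.length) by rw [h1]; exact hX.1) (hY.2.2 _ hX.2.1 h2)
  · exact h.eq_of_length_le h2

/-- the text right of a cut sees the same walls. -/
theorem wall_shift {n W : ℕ} {Wo : List α → Prop} (hW : Walls n W Wo) (P P' Q : List α) (j : ℕ)
    (hj : n ≤ j) (hjQ : j ≤ Q.length) :
    (Wo ((P' ++ Q).take (P'.length + j)) ↔ Wo ((P ++ Q).take (P.length + j))) := by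
  have e : ∀ R : List α, (R ++ Q).take (R.length + j) = R ++ Q.take j := by
    intro R
    rw [List.take_append, List.take_of_length_le (by omega)]
    congr 2
    omega
  have h1 : n ≤ (Q.take j).length := by rw [List.length_take]; omega
  rw [e, e, hW.loc P' _ h1, hW.loc P _ h1]

section main

variable (Wo : List α → Prop) (z p0 : ℕ) (φ : List α → S) (act : V → S → V)
  [AddCommGroup V] (nu1 nu2 : List α → V) (lam : List α → Option V)

/-- the zone map -/
def T (x : V) (X : List α) : V :=
  act (act x (φ (X.take p0)) + nu2 (X.take p0)) (φ (X.drop p0)) + nu1 (X.drop p0)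

def L1 (x : V) : Set (List α) :=
  {P | p0 ≤ P.length ∧ lam (P.drop p0) = some (act x (φ (P.take p0)) + nu2 (P.take p0))}

def R1 (TT : V → List α → V) (L : V → Set (List α)) (y : V) : Set (List α) :=
  {Q | ∀ x, ∀ P ∈ L x, P ++ Q ∈ XX Wo z ∧ TT x (P ++ Q) = y}

def Good (TT : V → List α → V) (L : V → Set (List α)) : Set (List α) :=
  {X | X ∈ XX Wo z ∧ ∀ x, ∃ P ∈ L x, ∃ Q ∈ R1 Wo z TT L (TT x X), P ++ Q = X}

def Bad (TT : V → List α → V) (L : V → Set (List α)) : Set (List α) :=
  {X | X ∈ XX Wo z ∧ X ∉ Good Wo z TT L}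

def R2 (TT : V → List α → V) (L L' : V → Set (List α)) (y : V) : Set (List α) :=
  {Q | ∀ x, ∀ P ∈ L' x,
    (∃ X1 ∈ Bad Wo z TT L, ∃ X2 ∈ Bad Wo z TT L, P ++ Q = X1 ++ X2 ∧ TT (TT x X1) X2 = y) ∨
    (∃ X ∈ Good Wo z TT L, X <+: P ++ Q) ∨
    (∃ X1 ∈ Bad Wo z TT L, ∃ X2 ∈ Good Wo z TT L, X1 ++ X2 <+: P ++ Q)}

variable {Wo z p0 φ act nu1 nu2 lam}

/-- completeness of scheme 1 -/
theorem good_of {n W N N0 : ℕ} (hW : Walls n W Wo) {rho : List α → Option V}
    {BadT : ℕ → Prop} (hz : p0 + N + n ≤ z) (hN0 : p0 + N0 ≤ z)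
    (hlam : ∀ p v, lam p = some v → p.length ≤ N)
    (hsound : ∀ p q v r, lam p = some v → rho q = some r →
      r = act v (φ (p ++ q)) + nu1 (p ++ q))
    (hcompl : ∀ u, N0 ≤ u.length → ¬ BadT u.length → ∀ v, ∃ p q, p ++ q = u ∧
      lam p = some v ∧ (rho q).isSome)
    {X : List α} (hX : X ∈ XX Wo z) (h1 : z + N ≤ X.length)
    (h2 : ∀ t, z ≤ t + N → t < z → ¬ Wo (X.take t)) (h3 : ¬ BadT (X.length - p0)) :
    X ∈ Good Wo z (T p0 φ act nu1 nu2) (L1 p0 φ act nu2 lam) := by
  refine ⟨hX, fun x => ?_⟩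
  have hX0 : (X.take p0).length = p0 := by rw [List.length_take]; omega
  have hYl : (X.drop p0).length = X.length - p0 := List.length_drop
  obtain ⟨p, q, hpq, hl, hr⟩ := hcompl (X.drop p0) (by rw [hYl]; omega) (by rw [hYl]; exact h3)
    (act x (φ (X.take p0)) + nu2 (X.take p0))
  obtain ⟨r, hr⟩ := Option.isSome_iff_exists.1 hr
  have hp := hlam p _ hl
  have hq : p.length + q.length = X.length - p0 := by
    rw [← hYl, ← hpq, List.length_append]
  have hXe : (X.take p0 ++ p) ++ q = X := by
    rw [List.append_assoc, hpq, List.take_append_drop]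
  have hPl : (X.take p0 ++ p).length = p0 + p.length := by rw [List.length_append, hX0]
  have hPt : (X.take p0 ++ p).take p0 = X.take p0 := by
    rw [List.take_append_of_le_length (by omega), List.take_of_length_le (by omega)]
  have hPd : (X.take p0 ++ p).drop p0 = p := by
    rw [List.drop_append, List.drop_eq_nil_of_le (by omega), hX0]
    simp
  -- value
  have val : ∀ x' (P' : List α), P' ∈ L1 p0 φ act nu2 lam x' →
      T p0 φ act nu1 nu2 x' (P' ++ q) = r := by
    rintro x' P' ⟨hP1, hP2⟩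
    unfold T
    rw [List.take_append_of_le_length hP1, List.drop_append_of_le_length hP1]
    exact (hsound _ _ _ _ hP2 hr).symm
  have hPL : X.take p0 ++ p ∈ L1 p0 φ act nu2 lam x := by
    refine ⟨by omega, ?_⟩
    rw [hPd, hPt]
    exact hl
  refine ⟨X.take p0 ++ p, hPL, q, ?_, hXe⟩
  intro x' P' hP'
  have hTX : T p0 φ act nu1 nu2 x X = r := by
    have := val x _ hPL
    rwa [hXe] at this
  refine ⟨?_, by rw [hTX]; exact val x' P' hP'⟩
  obtain ⟨hP1, hP2⟩ := hP'
  have hP'l : P'.length ≤ p0 + N := by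
    have := hlam _ _ hP2
    rw [List.length_drop] at this
    omega
  refine ⟨?_, ?_, ?_⟩
  · rw [hW.loc _ _ (by omega), ← hW.loc (X.take p0 ++ p) q (by omega), hXe]
    exact hX.1
  · rw [List.length_append]; omega
  · intro t ht1 ht2 hw
    rw [List.length_append] at ht2
    obtain ⟨j, rfl⟩ := Nat.exists_eq_add_of_le (show P'.length ≤ t by omega)
    rw [wall_shift hW (X.take p0 ++ p) P' q j (by omega) (by omega), hXe, hPl] at hw
    rcases lt_or_ge (p0 + p.length + j) z with h5 | h5
    · exact h2 _ (by omega) h5 hw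
    · exact hX.2.2 _ h5 (by omega) hw

/-- spoiled places of the text `U`. -/
def Spoiled (Wo : List α → Prop) (z p0 N K : ℕ) (c : ℕ → ℕ) (BadT : ℕ → Prop) (U : List α)
    (k : ℕ) : Prop :=
  ∃ k' < K, k' ≠ k ∧ (
    (∃ s, s ≤ U.length ∧ Wo (U.take s) ∧ z + c k ≤ s + c k' + N ∧ s + c k' < z + N + c k) ∨
    (∃ s, s ≤ U.length ∧ Wo (U.take s) ∧ z + c k ≤ s + c k' ∧
      (∀ t, t < s → Wo (U.take t) → t + c k' < z + c k) ∧ BadT (s + c k' - c k - p0)))

def L2 (K : ℕ) (c : ℕ → ℕ) (lam2 : ℕ → List α → Option V) (x : V) : Set (List α) :=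
  {P | ∃ k < K, P.length = c k ∧ lam2 k P = some x}

/-- completeness of scheme 2 -/
theorem compl2 {n W N N0 K R : ℕ} (hW : Walls n W Wo) {rho : List α → Option V}
    {BadT : ℕ → Prop} (hz : p0 + N + n ≤ z) (hN0 : p0 + N0 ≤ z)
    (hlam : ∀ p v, lam p = some v → p.length ≤ N)
    (hsound : ∀ p q v r, lam p = some v → rho q = some r →
      r = act v (φ (p ++ q)) + nu1 (p ++ q))
    (hcompl : ∀ u, N0 ≤ u.length → ¬ BadT u.length → ∀ v, ∃ p q, p ++ q = u ∧
      lam p = some v ∧ (rho q).isSome)
    {c : ℕ → ℕ} {lam2 rho2 : ℕ → List α → Option V} (hcp : ∀ k < K, c k ≤ p0)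
    (hex : ∀ k < K, ∀ (P Q : List α) (v b : V), P.length = c k → lam2 k P = some v →
      rho2 k Q = some b → b = act v (φ (P ++ Q)) + nu2 (P ++ Q))
    (hco : ∀ (u : List α) (v : V), (∀ k < K, c k ≤ u.length) →
      ∃ I : Finset ℕ, R ≤ I.card ∧ ∀ k ∈ I, k < K ∧ lam2 k (u.take (c k)) = some v ∧
        (rho2 k (u.drop (c k))).isSome)
    (hspoil : ∀ U : List α, 2 * z ≤ U.length → ∃ J : Finset ℕ, J.card < R ∧
      ∀ k < K, Spoiled Wo z p0 N K c BadT U k → k ∈ J)
    {X1 X2 : List α} (hX1 : X1 ∈ XX Wo z)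
    (hX2 : X2 ∈ Bad Wo z (T p0 φ act nu1 nu2) (L1 p0 φ act nu2 lam)) (x : V) :
    ∃ P ∈ L2 K c lam2 x, ∃ Q ∈ R2 Wo z (T p0 φ act nu1 nu2) (L1 p0 φ act nu2 lam) (L2 K c lam2)
      (T p0 φ act nu1 nu2 (T p0 φ act nu1 nu2 x X1) X2), P ++ Q = X1 ++ X2 := by
  classical
  set TT := T p0 φ act nu1 nu2 with hTT
  have hl1 : z ≤ X1.length := hX1.2.1
  have hl2 : z ≤ X2.length := hX2.1.2.1
  have hu0 : (X1.take p0).length = p0 := by rw [List.length_take]; omega
  obtain ⟨I, hI, hIk⟩ := hco (X1.take p0) x (fun k hk => by rw [hu0]; exact hcp k hk)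
  obtain ⟨J, hJ, hJk⟩ := hspoil (X1 ++ X2) (by rw [List.length_append]; omega)
  obtain ⟨k, hkI, hkJ⟩ : ∃ k ∈ I, k ∉ J := by
    by_contra h
    push Not at h
    have := Finset.card_le_card (show I ⊆ J from h)
    omega
  obtain ⟨hk, hlk, hrk⟩ := hIk k hkI
  have hns : ¬ Spoiled Wo z p0 N K c BadT (X1 ++ X2) k := fun h => hkJ (hJk k hk h)
  obtain ⟨b, hb⟩ := Option.isSome_iff_exists.1 hrk
  have hck := hcp k hk
  have hPl : (X1.take (c k)).length = c k := by rw [List.length_take]; omega
  have htt : (X1.take p0).take (c k) = X1.take (c k) := by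
    rw [List.take_take, min_eq_left hck]
  rw [htt] at hlk
  have hdt : (X1.take p0).drop (c k) = (X1.drop (c k)).take (p0 - c k) := List.drop_take
  -- value of the zone map on a block with the same tail
  have val : ∀ (x' : V) (P' : List α), P'.length = c k → lam2 k P' = some x' →
      TT x' (P' ++ X1.drop (c k)) = act b (φ (X1.drop p0)) + nu1 (X1.drop p0) := by
    intro x' P' hP' hl'
    have e1 : (P' ++ X1.drop (c k)).take p0 = P' ++ (X1.take p0).drop (c k) := by
      rw [List.take_append, List.take_of_length_le (by omega), hP', hdt]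
    have e2 : (P' ++ X1.drop (c k)).drop p0 = X1.drop p0 := by
      rw [List.drop_append, List.drop_eq_nil_of_le (by omega), List.nil_append, hP',
        List.drop_drop]
      congr 1
      omega
    have := hex k hk P' _ x' b hP' hl' hb
    rw [hTT]
    unfold T
    rw [e1, e2, ← this]
  have hX1e : X1.take (c k) ++ X1.drop (c k) = X1 := List.take_append_drop _ _
  have hval1 : TT x X1 = act b (φ (X1.drop p0)) + nu1 (X1.drop p0) := by
    have := val x _ hPl hlk
    rwa [hX1e] at this
  refine ⟨X1.take (c k), ⟨k, hk, hPl, hlk⟩, X1.drop (c k) ++ X2, ?_, by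
    rw [← List.append_assoc, hX1e]⟩
  rintro x' P' ⟨k', hk', hPl', hl'⟩
  have hck' := hcp k' hk'
  by_cases hkk : k' = k
  · subst hkk
    -- the same place
    have hB : P' ++ X1.drop (c k') ∈ XX Wo z := by
      refine ⟨?_, ?_, ?_⟩
      · have h1 : n ≤ (X1.drop (c k')).length := by rw [List.length_drop]; omega
        rw [hW.loc _ _ h1, ← hW.loc (X1.take (c k')) _ h1, hX1e]
        exact hX1.1
      · rw [List.length_append, List.length_drop]; omega
      · intro t ht1 ht2 hw
        rw [List.length_append, List.length_drop] at ht2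
        obtain ⟨j, rfl⟩ := Nat.exists_eq_add_of_le (show P'.length ≤ t by omega)
        rw [wall_shift hW (X1.take (c k')) P' _ j (by omega) (by rw [List.length_drop]; omega),
          hX1e, hPl] at hw
        exact hX1.2.2 _ (by omega) (by omega) hw
    by_cases hG : P' ++ X1.drop (c k') ∈ Good Wo z TT (L1 p0 φ act nu2 lam)
    · right; left
      exact ⟨_, hG, ⟨X2, by simp⟩⟩
    · left
      refine ⟨_, ⟨hB, hG⟩, X2, hX2, by simp, ?_⟩
      rw [val x' P' hPl' hl', hval1]
  · -- another place
    right; left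
    set U := X1 ++ X2 with hU
    set Q := X1.drop (c k) ++ X2 with hQ
    have hPQ : X1.take (c k) ++ Q = U := by
      rw [hQ, ← List.append_assoc, hX1e]
    have hQl : Q.length = X1.length + X2.length - c k := by
      rw [hQ, List.length_append, List.length_drop]; omega
    have hUl : U.length = X1.length + X2.length := by rw [hU, List.length_append]
    have hWU : Wo U := by
      rw [hU, hW.loc X1 X2 (by omega)]
      exact hX2.1.1
    have shift : ∀ j, n ≤ j → j ≤ Q.length →
        (Wo ((P' ++ Q).take (c k' + j)) ↔ Wo (U.take (c k + j))) := by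
      intro j h1 h2
      have := wall_shift hW (X1.take (c k)) P' Q j h1 h2
      rwa [hPQ, hPl, hPl'] at this
    have hexw : ∃ t, z ≤ t ∧ Wo ((P' ++ Q).take t) := by
      refine ⟨c k' + Q.length, by omega, ?_⟩
      rw [shift _ (by omega) le_rfl]
      rw [List.take_of_length_le (by omega)]
      exact hWU
    set t0 := Nat.find hexw with ht0
    obtain ⟨hz0, hw0⟩ := Nat.find_spec hexw
    rw [← ht0] at hz0 hw0
    have hmin : ∀ t, z ≤ t → t < t0 → ¬ Wo ((P' ++ Q).take t) := by
      intro t h1 h2 h3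
      exact Nat.find_min hexw h2 ⟨h1, h3⟩
    have ht0l : t0 ≤ c k' + Q.length := by
      apply Nat.find_min' hexw
      refine ⟨by omega, ?_⟩
      rw [shift _ (by omega) le_rfl]
      rw [List.take_of_length_le (by omega)]
      exact hWU
    have hPQl : (P' ++ Q).length = c k' + Q.length := by rw [List.length_append, hPl']
    have hXl : ((P' ++ Q).take t0).length = t0 := by
      rw [List.length_take, hPQl]; omega
    have hX' : (P' ++ Q).take t0 ∈ XX Wo z := by
      refine ⟨hw0, by rw [hXl]; exact hz0, ?_⟩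
      intro t h1 h2
      rw [hXl] at h2
      rw [List.take_take, min_eq_left h2.le]
      exact hmin t h1 h2
    obtain ⟨j0, hj0⟩ := Nat.exists_eq_add_of_le (show c k' ≤ t0 by omega)
    have hw0' : Wo (U.take (c k + j0)) := by
      rw [← shift j0 (by omega) (by omega), ← hj0]
      exact hw0
    refine ⟨(P' ++ Q).take t0, ?_, List.take_prefix _ _⟩
    apply good_of hW hz hN0 hlam hsound hcompl hX'
    · -- end not in the band
      rw [hXl]
      by_contra hlt
      apply hns
      exact ⟨k', hk', hkk, Or.inl ⟨c k + j0, by omega, hw0', by omega, by omega⟩⟩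
    · -- no wall in the band
      intro t h1 h2 hw
      rw [List.take_take, min_eq_left (by omega)] at hw
      obtain ⟨j, rfl⟩ := Nat.exists_eq_add_of_le (show c k' ≤ t by omega)
      rw [shift j (by omega) (by omega)] at hw
      apply hns
      exact ⟨k', hk', hkk, Or.inl ⟨c k + j, by omega, hw, by omega, by omega⟩⟩
    · -- the clock is good
      rw [hXl]
      intro hbt
      apply hns
      refine ⟨k', hk', hkk, Or.inr ⟨c k + j0, by omega, hw0', by omega, ?_, ?_⟩⟩
      · intro t h1 h2
        by_contra h3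
        obtain ⟨j, rfl⟩ := Nat.exists_eq_add_of_le (show c k ≤ t by omega)
        rw [← shift j (by omega) (by omega)] at h2
        exact hmin _ (by omega) (by omega) h2
      · have e : c k + j0 + c k' - c k - p0 = t0 - p0 := by omega
        rw [e]
        exact hbt

end main

end Crest.Agent.R320.JointSem_814
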