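import Crest.Agent.R320.SemTop_727
import Crest.Agent.R320.JointSem_814
import Crest.Agent.R320.Fib_298
import Crest.Agent.R320.LWallAll_922
import Crest.Agent.R320.Univ_294
import Crest.Agent.R320.ExactR_237

/-!
# Row 320: the final assembly (helper253)

S0495 from ONE black box `UGad` = scheme 1's gadget on all words (693 / 219 / 760 / 646) with the
ruler, the thinness count and regular noise; everything else is landed:
727 (top), 814 (joint), 298 (heights), 922 / 813 (walls), 237 (exact gadget), 294 (universes).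
-/

set_option autoImplicit false

namespace Crest.Agent.R320.Fin_253

open Crest.Agent.R320 Crest.Agent.R320.Hk_851

/-- the gadget of scheme 1 on all words, with ruler and thinness -/
def UGad : Prop := ∀ (S V : Type) [Monoid S] [Finite S] [AddCommGroup V] [Finite V]
    (act : V → S → V), ∃ C0 : ℕ, ∀ K : ℕ, ∃ (N N0 : ℕ) (c : ℕ → ℕ) (BadT : ℕ → Prop),
  (∀ i j, i < j → j < K → c i < c j) ∧
  (∀ i j k l, i < K → j < K → k < K → l < K → i ≠ j → k ≠ l →
    |((c i : ℤ) - c j) - ((c k : ℤ) - c l)| ≤ 2 * N → i = k ∧ j = l) ∧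
  (∀ T, N0 ≤ T → ∃ F : Finset (ℕ × ℕ), F.card ≤ C0 ∧
    ∀ i j, i < K → j < K → i ≠ j → BadT (T + c j - c i) → (i, j) ∈ F) ∧
  ∀ (α : Type) [Finite α] (f : α → S), ∃ (lam rho : List α → Option V) (nu : List α → V),
    (∀ p v, lam p = some v → p.length ≤ N) ∧
    (∀ p q v r, lam p = some v → rho q = some r →
      r = act v ((p ++ q).map f).prod + nu (p ++ q)) ∧
    (∀ u, N0 ≤ u.length → ¬ BadT u.length → ∀ v, ∃ p q, p ++ q = u ∧ lam p = some v ∧
      (rho q).isSome) ∧
    (∀ y, Language.IsRegular ({Y | nu Y = y} : Language α))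

theorem two_values {α : Type} {Wo : List α → Prop} {n W z p0 K : ℕ}
    (hW : JointSem_814.Walls n W Wo) (hWW : 2 * p0 < W)
    {c : ℕ → ℕ} (hcp : ∀ k < K, c k ≤ p0) (U : List α) :
    ∃ a b : ℕ, ∀ k < K, ∀ k' < K, ∀ s, s ≤ U.length → Wo (U.take s) → z + c k ≤ s + c k' →
      (∀ t, t < s → Wo (U.take t) → t + c k' < z + c k) → s = a ∨ s = b := by
  classical
  by_cases h1 : ∃ s, s ≤ U.length ∧ Wo (U.take s) ∧ z ≤ s + p0
  · obtain ⟨a1, a2, a3⟩ := Nat.find_spec h1
    have amin : ∀ t, t ≤ U.length → Wo (U.take t) → z ≤ t + p0 → Nat.find h1 ≤ t :=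
      fun t x1 x2 x3 => Nat.find_min' h1 ⟨x1, x2, x3⟩
    by_cases h2 : ∃ s, s ≤ U.length ∧ Wo (U.take s) ∧ Nat.find h1 < s
    · obtain ⟨b1, b2, b3⟩ := Nat.find_spec h2
      have bmin : ∀ t, t ≤ U.length → Wo (U.take t) → Nat.find h1 < t → Nat.find h2 ≤ t :=
        fun t x1 x2 x3 => Nat.find_min' h2 ⟨x1, x2, x3⟩
      refine ⟨Nat.find h1, Nat.find h2, fun k hk k' hk' s hs hw hz hmin => ?_⟩
      have e1 := hcp k hk
      have e2 := hcp k' hk'
      have e3 := amin s hs hw (by omega)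
      by_cases h3 : s = Nat.find h1
      · exact Or.inl h3
      · right
        have e4 := bmin s hs hw (by omega)
        by_contra h4
        have e5 := hmin (Nat.find h2) (by omega) b2
        exact hW.gap U (Nat.find h1) (Nat.find h2) b3 (by omega) b1 a2 b2
    · refine ⟨Nat.find h1, Nat.find h1, fun k hk k' hk' s hs hw hz hmin => ?_⟩
      have e1 := hcp k hk
      have e2 := hcp k' hk'
      have e3 := amin s hs hw (by omega)
      left
      by_contra h3
      exact h2 ⟨s, hs, hw, by omega⟩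
  · refine ⟨0, 0, fun k hk k' hk' s hs hw hz hmin => ?_⟩
    exfalso
    have e1 := hcp k hk
    have e2 := hcp k' hk'
    exact h1 ⟨s, hs, hw, by omega⟩

/-- the spoil count -/
theorem spoil {α : Type} {Wo : List α → Prop} {n W z p0 N N0 K C0 : ℕ}
    (hW : JointSem_814.Walls n W Wo) (hWW : 2 * p0 + 2 * N < W) (hz : 2 * p0 + N + N0 ≤ z)
    {c : ℕ → ℕ} (hcp : ∀ k < K, c k ≤ p0) {BadT : ℕ → Prop}
    (hrul : ∀ i j k l, i < K → j < K → k < K → l < K → i ≠ j → k ≠ l →
      |((c i : ℤ) - c j) - ((c k : ℤ) - c l)| ≤ 2 * N → i = k ∧ j = l)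
    (hcnt : ∀ T, N0 ≤ T → ∃ F : Finset (ℕ × ℕ), F.card ≤ C0 ∧
      ∀ i j, i < K → j < K → i ≠ j → BadT (T + c j - c i) → (i, j) ∈ F)
    (U : List α) :
    ∃ J : Finset ℕ, J.card < 2 + 2 * C0 ∧
      ∀ k < K, JointSem_814.Spoiled Wo z p0 N K c BadT U k → k ∈ J := by
  classical
  have gap : ∀ s t, s ≤ U.length → t ≤ U.length → Wo (U.take s) → Wo (U.take t) →
      s ≤ t + W → t ≤ s + W → s = t := by
    intro s t hs ht ws wt h1 h2
    by_contra hne
    rcases lt_or_gt_of_ne hne with h | h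
    · exact hW.gap U s t h h2 ht ws wt
    · exact hW.gap U t s h h1 hs wt ws
  let A := (Finset.range K).filter (fun k => ∃ k' < K, k' ≠ k ∧ ∃ s, s ≤ U.length ∧
    Wo (U.take s) ∧ z + c k ≤ s + c k' + N ∧ s + c k' < z + N + c k)
  have hA : A.card ≤ 1 := by
    rw [Finset.card_le_one]
    intro k hk l hl
    simp only [A, Finset.mem_filter, Finset.mem_range] at hk hl
    obtain ⟨hk, k', hk', hne, s, hs, hw, h1, h2⟩ := hk
    obtain ⟨hl, l', hl', hne', t, ht, hw', h3, h4⟩ := hl
    have e1 := hcp k hk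
    have e2 := hcp k' hk'
    have e3 := hcp l hl
    have e4 := hcp l' hl'
    have hst := gap s t hs ht hw hw' (by omega) (by omega)
    subst hst
    refine (hrul k k' l l' hk hk' hl hl' (Ne.symm hne) (Ne.symm hne') ?_).1
    rw [abs_le]
    constructor <;> omega
  obtain ⟨a, b, hab⟩ := two_values (z := z) hW (by omega) hcp U
  have hF : ∀ T, ∃ F : Finset (ℕ × ℕ), F.card ≤ C0 ∧
      ∀ i j, i < K → j < K → i ≠ j → N0 ≤ T → BadT (T + c j - c i) → (i, j) ∈ F := by
    intro T
    by_cases hT : N0 ≤ T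
    · obtain ⟨F, h1, h2⟩ := hcnt T hT
      exact ⟨F, h1, fun i j x1 x2 x3 _ x4 => h2 i j x1 x2 x3 x4⟩
    · exact ⟨∅, by simp, fun i j _ _ _ h => absurd h hT⟩
  obtain ⟨Fa, ha1, ha2⟩ := hF (a - p0)
  obtain ⟨Fb, hb1, hb2⟩ := hF (b - p0)
  refine ⟨A ∪ Fa.image Prod.fst ∪ Fb.image Prod.fst, ?_, ?_⟩
  · have c1 := Finset.card_union_le (A ∪ Fa.image Prod.fst) (Fb.image Prod.fst)
    have c2 := Finset.card_union_le A (Fa.image Prod.fst)
    have c3 : (Fa.image Prod.fst).card ≤ Fa.card := Finset.card_image_le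
    have c4 : (Fb.image Prod.fst).card ≤ Fb.card := Finset.card_image_le
    omega
  · rintro k hk ⟨k', hk', hne, (⟨s, hs, hw, h1, h2⟩ | ⟨s, hs, hw, h1, h2, h3⟩)⟩
    · rw [Finset.mem_union, Finset.mem_union]
      left; left
      simp only [A, Finset.mem_filter, Finset.mem_range]
      exact ⟨hk, k', hk', hne, s, hs, hw, h1, h2⟩
    · have e1 := hcp k hk
      have e2 := hcp k' hk'
      have e : s + c k' - c k - p0 = s - p0 + c k' - c k := by omega
      rw [e] at h3
      rw [Finset.mem_union, Finset.mem_union]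
      rcases hab k hk k' hk' s hs hw h1 h2 with rfl | rfl
      · left; right
        exact Finset.mem_image.2 ⟨(k, k'), ha2 k k' hk hk' (Ne.symm hne) (by omega) h3, rfl⟩
      · right
        exact Finset.mem_image.2 ⟨(k, k'), hb2 k k' hk hk' (Ne.symm hne) (by omega) h3, rfl⟩

/-- token action -/
def act {T : Type} [Monoid T] (f : T → ZMod 2) (t : T) : T → ZMod 2 := fun x => f (t * x)

theorem act_faithful {T : Type} [Monoid T] {s t : T}
    (h : ∀ f : T → ZMod 2, act f s = act f t) : s = t := by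
  classical
  by_contra hne
  have h1 := congrFun (h (fun x => if x = s then 1 else 0)) 1
  simp only [act, mul_one, if_true] at h1
  rw [if_neg (Ne.symm hne)] at h1
  exact one_ne_zero h1

theorem main (hG : UGad) (m : ℕ) (S : Type) [Monoid S] [Finite S] (f : Fin m → S) (s : S) :
    HL 3 ({w | (w.map f).prod = s} : Language (Fin m)) := by
  classical
  have := Fintype.ofFinite S
  let V := S → ZMod 2
  let phi : List (Fin m) → S := fun w => (w.map f).prod
  obtain ⟨C0, hC0⟩ := hG S V act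
  obtain ⟨K, hK⟩ := ExactR_237.exact_gadget (Fin m) S V f act (2 + 2 * C0)
  obtain ⟨N, N0, c, BadT, hmono, hrul, hcnt, hgad⟩ := hC0 K
  obtain ⟨lam, rho, nu1, hlam, hsound, hcompl, hreg⟩ := hgad (Fin m) f
  obtain ⟨lam2, rho2, nu2, hex, hco⟩ := hK c hmono
  obtain ⟨p0, hcp⟩ : ∃ p0, ∀ k < K, c k ≤ p0 := by
    refine ⟨∑ k ∈ Finset.range K, c k, fun k hk => ?_⟩
    exact Finset.single_le_sum (f := c) (fun _ _ => Nat.zero_le _) (Finset.mem_range.2 hk)
  obtain ⟨n, G, B, Wo, hLW, hgap, -, -, hfree⟩ :=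
    LWallAll_922.walls_all_left (Fin m) (2 * p0 + 2 * N + 1) (by omega)
  have hWalls : JointSem_814.Walls n (2 * p0 + 2 * N + 1) Wo :=
    ⟨hLW.1, hLW.2, fun X s t h1 h2 h3 h4 h5 => by
      have := hgap X s t h1 h3 h4 h5
      omega⟩
  have hWU : Fib_298.WallU Wo n (B + (2 * p0 + 2 * N + 1)) := by
    refine ⟨hLW.1, hLW.2, fun X hX => ?_⟩
    obtain ⟨u, x, v, k, h1, h2, h3, h4⟩ := hfree X hX
    exact ⟨u, x, v, k, h4, by omega, by omega, by omega⟩
  let z := 3 * p0 + N + n + N0 + 1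
  have hzn : n ≤ z := by simp only [z]; omega
  have hzp : p0 ≤ z := by simp only [z]; omega
  let D : SemTop_727.Sch (Fin m) V :=
    ⟨JointSem_814.XX Wo z, JointSem_814.T p0 phi act nu1 (fun u => nu2 u 1),
      JointSem_814.L1 p0 phi act (fun u => nu2 u 1) lam, JointSem_814.L2 K c lam2⟩
  have hXX : ∀ X, X ∈ JointSem_814.XX Wo z ↔ X ∈ Fib_298.XX Wo z := fun X =>
    ⟨fun h => ⟨h.2.1, h.1, h.2.2⟩, fun h => ⟨h.2.1, h.1, h.2.2⟩⟩
  have hadd : ∀ (a b : V) (s : S), act (a + b) s = act a s + act b s := fun _ _ _ => rfl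
  have hone : ∀ v : V, act v (1 : S) = v := fun v => by funext x; simp [act]
  have hmul : ∀ (v : V) (s t : S), act v (s * t) = act (act v s) t := fun v s t => by
    funext x; simp [act, mul_assoc]
  refine SemTop_727.top (k := 1) act hadd hone hmul (fun s t h => act_faithful h) f
    (fun X => act (nu2 (X.take p0) 1) (phi (X.drop p0)) + nu1 (X.drop p0)) D ?_ ?_ ?_ ?_ ?_ ?_ ?_ s
  · -- hT
    intro v X
    show act (act v (phi (X.take p0)) + nu2 (X.take p0) 1) (phi (X.drop p0)) + nu1 (X.drop p0) = _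
    have e : (X.map f).prod = phi (X.take p0) * phi (X.drop p0) := by
      show _ = ((X.take p0).map f).prod * ((X.drop p0).map f).prod
      rw [← List.prod_append, ← List.map_append, List.take_append_drop]
    rw [e, hmul, hadd, add_assoc]
  · -- hC
    have h0 := Fib_298.pcode_XX (Wo := Wo) (z := z) (by simp only [z]; omega)
    exact ⟨fun h => h0.1 ((hXX _).1 h), fun X hX Y hY h => JointSem_814.XX_code hX hY h⟩
  · -- hfib
    intro x y
    have h1 := Fib_298.hfib hWU hzn act f p0 hzp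
      (fun x X0 => act x (X0.map f).prod + nu2 X0 1) nu1 hreg x y
    refine h1.congr fun w => ?_
    constructor
    · rintro ⟨h2, h3⟩
      exact ⟨(hXX w).1 h2, h3⟩
    · rintro ⟨h2, h3⟩
      exact ⟨(hXX w).2 h2, h3⟩
  · -- L1 finite
    intro x
    refine (List.finite_length_le (Fin m) (p0 + N)).subset ?_
    rintro P ⟨_, hP⟩
    have := hlam _ _ hP
    rw [List.length_drop] at this
    show P.length ≤ p0 + N
    omega
  · -- L2 finite
    intro x
    refine (List.finite_length_le (Fin m) p0).subset ?_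
    rintro P ⟨k, hk, hP, _⟩
    show P.length ≤ p0
    rw [hP]; exact hcp k hk
  · -- completeness of scheme 2
    intro X1 hX1 X2 hX2 x
    exact JointSem_814.compl2 (R := 2 + 2 * C0) (N0 := N0) (rho := rho) (φ := phi) (act := act)
      (nu1 := nu1) (nu2 := fun u => nu2 u 1) (rho2 := fun k Q => rho2 k Q 1)
      hWalls (by simp only [z]; omega) (by simp only [z]; omega) hlam hsound hcompl hcp
      (fun k hk P Q v b hP h1 h2 => by
        have := hex k hk P Q 1 v b hP h1 h2
        rw [mul_one] at this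
        exact this)
      (fun u v hu => hco u 1 v hu)
      (fun U _ => spoil hWalls (by omega) (by simp only [z]; omega) hcp hrul hcnt U)
      hX1.1 hX2 x
  · -- tail
    intro s
    have h1 := Fib_298.rest hWU hzn f s
    refine (HL.mono (by omega) h1).congr fun w => ?_
    constructor
    · rintro ⟨h2, h3⟩
      exact ⟨fun X hX => h2 X ((hXX X).2 hX), h3⟩
    · rintro ⟨h2, h3⟩
      exact ⟨fun X hX => h2 X ((hXX X).1 hX), h3⟩

/-- **S0495 from the gadget** -/
theorem row (hG : UGad) (α : Type*) [Finite α] (L : Language α) (hL : L.IsRegular) :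
    ∃ e : Crest.RegLang.GRegExp α, e.height ≤ 3 ∧ e.lang = L :=
  Univ_294.s0495_of_type0 (fun n S _ _ φ s => main hG n S φ s) α L hL

end Crest.Agent.R320.Fin_253
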