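import Mathlib

/-!
Row 320, helper797: the SPOIL LEAF of lead #13673 (ruler `c l = 2 ^ l * X` for the digit gadget g1
of 852 #13483): wide Golomb and at most `Ms.card + m` bad ordered pairs.
-/

set_option autoImplicit false

namespace Crest.Agent.R320.Sp_797

open Finset

theorem pow_two_add : ∀ (a b c d : ℕ), 2 ^ a + 2 ^ b = 2 ^ c + 2 ^ d →
    (a = c ∧ b = d) ∨ (a = d ∧ b = c) := by
  have pos : ∀ x : ℕ, 0 < 2 ^ x := fun x => by positivity
  intro a
  induction a with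
  | zero =>
    intro b c d h
    rcases b with _ | b <;> rcases c with _ | c <;> rcases d with _ | d
    · simp
    · have := pos d; rw [pow_succ] at h; (try simp only [pow_zero] at h); omega
    · have := pos c; rw [pow_succ] at h; (try simp only [pow_zero] at h); omega
    · have := pos d; have := pos c; rw [pow_succ, pow_succ] at h; (try simp only [pow_zero] at h); omega
    · have := pos b; rw [pow_succ] at h; (try simp only [pow_zero] at h); omega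
    · left
      refine ⟨rfl, ?_⟩
      have : 2 ^ (b + 1) = 2 ^ (d + 1) := by simpa using h
      exact Nat.pow_right_injective (le_refl 2) this
    · right
      refine ⟨rfl, ?_⟩
      have : 2 ^ (b + 1) = 2 ^ (c + 1) := by
        simp only [pow_zero] at h; omega
      exact Nat.pow_right_injective (le_refl 2) this
    · rw [pow_succ, pow_succ, pow_succ] at h; (try simp only [pow_zero] at h); omega
  | succ a ih =>
    intro b c d h
    rcases b with _ | b <;> rcases c with _ | c <;> rcases d with _ | d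
    · have := pos a; rw [pow_succ] at h; (try simp only [pow_zero] at h); omega
    · right
      refine ⟨?_, rfl⟩
      have : 2 ^ (a + 1) = 2 ^ (d + 1) := by
        simp only [pow_zero] at h; omega
      exact Nat.pow_right_injective (le_refl 2) this
    · left
      refine ⟨?_, rfl⟩
      have : 2 ^ (a + 1) = 2 ^ (c + 1) := by
        simp only [pow_zero] at h; omega
      exact Nat.pow_right_injective (le_refl 2) this
    · rw [pow_succ, pow_succ, pow_succ] at h; (try simp only [pow_zero] at h); omega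
    · have := pos a; have := pos b; rw [pow_succ, pow_succ] at h; (try simp only [pow_zero] at h); omega
    · rw [pow_succ, pow_succ, pow_succ] at h; (try simp only [pow_zero] at h); omega
    · rw [pow_succ, pow_succ, pow_succ] at h; (try simp only [pow_zero] at h); omega
    · have h' : 2 ^ a + 2 ^ b = 2 ^ c + 2 ^ d := by
        rw [pow_succ, pow_succ, pow_succ, pow_succ] at h; omega
      rcases ih b c d h' with ⟨h1, h2⟩ | ⟨h1, h2⟩
      · left; omega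
      · right; omega

/-- powers of two are a Golomb ruler. -/
theorem gol {i j i' j' : ℕ} (hij : i ≠ j)
    (h : (2 : ℤ) ^ j - 2 ^ i = 2 ^ j' - 2 ^ i') : i = i' ∧ j = j' := by
  have h1 : (2 : ℤ) ^ j + 2 ^ i' = 2 ^ j' + 2 ^ i := by linarith
  have h2 : 2 ^ j + 2 ^ i' = 2 ^ j' + 2 ^ i := by exact_mod_cast h1
  rcases pow_two_add _ _ _ _ h2 with ⟨h3, h4⟩ | ⟨h3, h4⟩
  · exact ⟨h4.symm, h3⟩
  · exact absurd h3.symm hij

theorem key {B b M G E D q : ℤ} (hB : 0 < B) (hM : 0 < M) (hG1 : B ≤ G) (hG2 : G ≤ 2 * B)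
    (hD0 : 0 < D) (hD : D ≤ E) (hb : 8 * M * E + 2 * M < b)
    (h1 : 4 * M * G * D - q * (b * B) ≤ 2 * M * B)
    (h2 : -(2 * M * B) ≤ 4 * M * G * D - q * (b * B)) : False := by
  have hMB : 0 < M * B := mul_pos hM hB
  have hMG : 0 < M * G := mul_pos hM (by linarith)
  have e1 : M * B ≤ M * G := mul_le_mul_of_nonneg_left hG1 hM.le
  have e2 : M * G ≤ M * G * D := by nlinarith
  have e3 : 0 < q * (b * B) := by nlinarith
  have hb0 : 0 < b := by nlinarith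
  have hbB : 0 < b * B := mul_pos hb0 hB
  have e4 : 0 < q := by
    by_contra hq
    have : q * (b * B) ≤ 0 := mul_nonpos_of_nonpos_of_nonneg (by linarith) hbB.le
    linarith
  have e5 : b * B ≤ q * (b * B) := by nlinarith
  have e6 : M * G * D ≤ M * (2 * B) * E := by
    have a1 : M * G ≤ M * (2 * B) := mul_le_mul_of_nonneg_left hG2 hM.le
    have a2 : 0 ≤ M * (2 * B) := by positivity
    exact mul_le_mul a1 hD hD0.le a2
  have e7 : (8 * M * E + 2 * M) * B < b * B := mul_lt_mul_of_pos_right hb hB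
  nlinarith

theorem key' {B b M G E D q : ℤ} (hB : 0 < B) (hM : 0 < M) (hG1 : B ≤ G) (hG2 : G ≤ 2 * B)
    (hD0 : D ≠ 0) (hD : |D| ≤ E) (hb : 8 * M * E + 2 * M < b)
    (h : |4 * M * G * D - q * (b * B)| ≤ 2 * M * B) : False := by
  have h1 := (abs_le.1 h)
  rcases lt_or_gt_of_ne hD0 with hn | hp
  · rw [abs_of_neg hn] at hD
    refine key (q := -q) hB hM hG1 hG2 (neg_pos.2 hn) hD hb ?_ ?_
    · have := h1.1; linarith
    · have := h1.2; linarith
  · rw [abs_of_pos hp] at hD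
    exact key hB hM hG1 hG2 hp hD hb h1.2 h1.1

/-- a bad digit: `n` is near a multiple of `b ^ (j + 1)`. -/
theorem near {n b M j : ℕ} (hb : 0 < b)
    (h : ¬ (M ≤ n / b ^ j % b ∧ n / b ^ j % b + M + 1 ≤ b)) :
    ∃ q : ℤ, |(n : ℤ) - q * (b ^ (j + 1) : ℕ)| ≤ M * (b ^ j : ℕ) := by
  have hBp : 0 < b ^ j := pow_pos hb j
  set B := b ^ j with hB
  set d := n / B % b with hd
  set Q := n / B / b with hQ
  set r := n % B with hr
  have hdb : d < b := Nat.mod_lt _ hb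
  have hrB : r < B := Nat.mod_lt _ hBp
  have e1 : n / B = b * Q + d := (Nat.div_add_mod (n / B) b).symm
  have e2 : n = B * (b * Q + d) + r := by
    rw [← e1]; exact (Nat.div_add_mod n B).symm
  have e3 : (n : ℤ) = B * (b * Q + d) + r := by exact_mod_cast e2
  have e4 : ((b ^ (j + 1) : ℕ) : ℤ) = b * B := by rw [pow_succ, ← hB]; push_cast; ring
  have hBz : (0 : ℤ) < B := by exact_mod_cast hBp
  have hrz : (r : ℤ) < B := by exact_mod_cast hrB
  have hr0 : (0 : ℤ) ≤ r := by positivity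
  have hd0 : (0 : ℤ) ≤ d := by positivity
  by_cases hd1 : d < M
  · refine ⟨Q, ?_⟩
    rw [e4, e3]
    have : (d : ℤ) + 1 ≤ M := by exact_mod_cast hd1
    rw [abs_le]
    constructor
    · nlinarith
    · nlinarith
  · have hd2 : b ≤ d + M := by
      by_contra hc
      exact h ⟨by omega, by omega⟩
    refine ⟨Q + 1, ?_⟩
    rw [e4, e3]
    have h5 : (b : ℤ) ≤ d + M := by exact_mod_cast hd2
    have h6 : (d : ℤ) + 1 ≤ b := by exact_mod_cast hdb
    have h7 : (0 : ℤ) ≤ M := by positivity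
    rw [abs_le]
    constructor
    · nlinarith
    · nlinarith

/-- the bad lengths of the digit gadget. -/
def Bad (Ms : Finset ℕ) (M m b n : ℕ) : Prop :=
  (∃ k ∈ Ms, k ∣ n) ∨ ∃ j < m, ¬ (M ≤ n / b ^ j % b ∧ n / b ^ j % b + M + 1 ≤ b)

theorem geo_le {b : ℕ} (hb : 2 ≤ b) (j : ℕ) : ∑ t ∈ range (j + 1), b ^ t ≤ 2 * b ^ j := by
  induction j with
  | zero => simp
  | succ j ih =>
    rw [sum_range_succ]
    have : 2 * b ^ j ≤ b ^ (j + 1) := by rw [pow_succ]; nlinarith [pow_pos (by omega : 0 < b) j]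
    omega

theorem geo_ge {b : ℕ} (j : ℕ) : b ^ j ≤ ∑ t ∈ range (j + 1), b ^ t := by
  rw [sum_range_succ]; omega

theorem pow_lt_of {i K : ℕ} (h : i < K) : 2 * (2 : ℤ) ^ i ≤ 2 ^ K := by
  have h1 : 2 ^ (i + 1) ≤ 2 ^ K := Nat.pow_le_pow_right (by norm_num) h
  have h2 : ((2 ^ (i + 1) : ℕ) : ℤ) ≤ ((2 ^ K : ℕ) : ℤ) := by exact_mod_cast h1
  push_cast at h2
  rw [pow_succ] at h2
  linarith

/-- abstract spoil bound: `X` is `1` mod every `k ∈ Ms` and `4 M (1 + b + ..)` mod `b ^ m`. -/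
theorem spoil_aux {Ms : Finset ℕ} {M m b K X : ℕ} (hM : 0 < M)
    (hMs : ∀ k ∈ Ms, 2 ^ (K + 1) < k ∧ k ∣ M)
    (hb : 2 ^ (K + 5) * M < b)
    (hX1 : X ≡ 1 [MOD M]) (hX2 : X ≡ 4 * M * ∑ t ∈ range m, b ^ t [MOD b ^ m]) (T : ℤ)
    (P : Finset (ℕ × ℕ)) (hP : ∀ p ∈ P, p.1 < K ∧ p.2 < K ∧ p.1 ≠ p.2 ∧
      ∃ n : ℕ, (n : ℤ) = T + (2 ^ p.2 * X : ℕ) - (2 ^ p.1 * X : ℕ) ∧ Bad Ms M m b n) :
    P.card ≤ Ms.card + m := by
  classical
  have hb0 : 0 < b := by
    have : 0 < 2 ^ (K + 5) * M := by positivity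
    omega
  have hb2 : 2 ≤ b := by
    have h1 : 1 ≤ 2 ^ (K + 5) * M := by
      have : 0 < 2 ^ (K + 5) * M := by positivity
      omega
    omega
  -- the difference of two pairs
  have diff : ∀ p ∈ P, ∀ p' ∈ P, ∀ n n' : ℕ, (n : ℤ) = T + (2 ^ p.2 * X : ℕ) - (2 ^ p.1 * X : ℕ) →
      (n' : ℤ) = T + (2 ^ p'.2 * X : ℕ) - (2 ^ p'.1 * X : ℕ) → p ≠ p' →
      ∃ D : ℤ, D ≠ 0 ∧ |D| < 2 ^ (K + 1) ∧ (n' : ℤ) - n = X * D := by
    intro p hp p' hp' n n' hn hn' hne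
    obtain ⟨h1, h2, h3, -⟩ := hP p hp
    obtain ⟨h1', h2', h3', -⟩ := hP p' hp'
    refine ⟨((2 : ℤ) ^ p'.2 - 2 ^ p'.1) - ((2 : ℤ) ^ p.2 - 2 ^ p.1), ?_, ?_, ?_⟩
    · intro h0
      have := gol (i := p.1) (j := p.2) (i' := p'.1) (j' := p'.2) h3 (by linarith)
      exact hne (Prod.ext this.1 this.2)
    · have a1 := pow_lt_of h1
      have a2 := pow_lt_of h2
      have a3 := pow_lt_of h1'
      have a4 := pow_lt_of h2'
      have b1 : (0 : ℤ) < 2 ^ p.1 := by positivity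
      have b2 : (0 : ℤ) < 2 ^ p.2 := by positivity
      have b3 : (0 : ℤ) < 2 ^ p'.1 := by positivity
      have b4 : (0 : ℤ) < 2 ^ p'.2 := by positivity
      rw [pow_succ, abs_lt]
      constructor <;> linarith
    · rw [hn, hn']; push_cast; ring
  have sub : P ⊆ (Ms.biUnion fun k => P.filter fun p => ∃ n : ℕ,
        (n : ℤ) = T + (2 ^ p.2 * X : ℕ) - (2 ^ p.1 * X : ℕ) ∧ k ∣ n) ∪
      ((range m).biUnion fun j => P.filter fun p => ∃ n : ℕ,
        (n : ℤ) = T + (2 ^ p.2 * X : ℕ) - (2 ^ p.1 * X : ℕ) ∧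
        ¬ (M ≤ n / b ^ j % b ∧ n / b ^ j % b + M + 1 ≤ b)) := by
    intro p hp
    obtain ⟨-, -, -, n, hn, hbad⟩ := hP p hp
    rw [mem_union, mem_biUnion, mem_biUnion]
    rcases hbad with ⟨k, hk, hkn⟩ | ⟨j, hj, hjn⟩
    · exact Or.inl ⟨k, hk, mem_filter.2 ⟨hp, n, hn, hkn⟩⟩
    · exact Or.inr ⟨j, mem_range.2 hj, mem_filter.2 ⟨hp, n, hn, hjn⟩⟩
  have c1 : (Ms.biUnion fun k => P.filter fun p => ∃ n : ℕ,
        (n : ℤ) = T + (2 ^ p.2 * X : ℕ) - (2 ^ p.1 * X : ℕ) ∧ k ∣ n).card ≤ Ms.card * 1 := by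
    refine card_biUnion_le_card_mul _ _ _ ?_
    intro k hk
    rw [card_le_one]
    intro p hp p' hp'
    obtain ⟨hp, n, hn, hkn⟩ := mem_filter.1 hp
    obtain ⟨hp', n', hn', hkn'⟩ := mem_filter.1 hp'
    by_contra hne
    obtain ⟨D, hD0, hD, hDX⟩ := diff p hp p' hp' n n' hn hn' hne
    have d1 : (k : ℤ) ∣ X * D := by
      rw [← hDX]
      exact dvd_sub (Int.natCast_dvd_natCast.2 hkn') (Int.natCast_dvd_natCast.2 hkn)
    have hXk : X ≡ 1 [MOD k] := hX1.of_dvd (hMs k hk).2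
    have hcop : Nat.Coprime k X := by
      have : Nat.gcd X k = Nat.gcd 1 k := hXk.gcd_eq
      rw [Nat.gcd_one_left] at this
      rw [Nat.coprime_comm]; exact this
    have d2 : (k : ℤ) ∣ D :=
      IsCoprime.dvd_of_dvd_mul_left (Nat.isCoprime_iff_coprime.2 hcop) d1
    have d3 := Int.le_of_dvd (abs_pos.2 hD0) ((dvd_abs _ _).2 d2)
    have d4 : (2 : ℤ) ^ (K + 1) < k := by exact_mod_cast (hMs k hk).1
    linarith
  have c2 : ((range m).biUnion fun j => P.filter fun p => ∃ n : ℕ,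
        (n : ℤ) = T + (2 ^ p.2 * X : ℕ) - (2 ^ p.1 * X : ℕ) ∧
        ¬ (M ≤ n / b ^ j % b ∧ n / b ^ j % b + M + 1 ≤ b)).card ≤ (range m).card * 1 := by
    refine card_biUnion_le_card_mul _ _ _ ?_
    intro j hj
    rw [card_le_one]
    intro p hp p' hp'
    obtain ⟨hp, n, hn, hjn⟩ := mem_filter.1 hp
    obtain ⟨hp', n', hn', hjn'⟩ := mem_filter.1 hp'
    by_contra hne
    obtain ⟨D, hD0, hD, hDX⟩ := diff p hp p' hp' n n' hn hn' hne
    obtain ⟨q, hq⟩ := near hb0 hjn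
    obtain ⟨q', hq'⟩ := near hb0 hjn'
    have hjm : j + 1 ≤ m := mem_range.1 hj
    -- X = 4 M G + y b^(j+1)
    have hdv : b ^ (j + 1) ∣ b ^ m := pow_dvd_pow b hjm
    have hX3 : X ≡ 4 * M * ∑ t ∈ range m, b ^ t [MOD b ^ (j + 1)] := hX2.of_dvd hdv
    have hsum : 4 * M * ∑ t ∈ range m, b ^ t ≡ 4 * M * ∑ t ∈ range (j + 1), b ^ t
        [MOD b ^ (j + 1)] := by
      apply Nat.ModEq.mul_left
      obtain ⟨s, rfl⟩ := Nat.exists_eq_add_of_le hjm
      rw [sum_range_add]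
      have : ∑ x ∈ range s, b ^ (j + 1 + x) ≡ 0 [MOD b ^ (j + 1)] := by
        rw [Nat.modEq_zero_iff_dvd]
        exact dvd_sum fun x _ => pow_dvd_pow b (by omega)
      simpa using (Nat.ModEq.refl (∑ t ∈ range (j + 1), b ^ t)).add this
    have hX4 := hX3.trans hsum
    set G := ∑ t ∈ range (j + 1), b ^ t with hG
    have hX5 : ((b ^ (j + 1) : ℕ) : ℤ) ∣ (X : ℤ) - (4 * M * G : ℕ) :=
      (Nat.modEq_iff_dvd.1 hX4.symm)
    obtain ⟨y, hy⟩ := hX5
    have e4 : ((b ^ (j + 1) : ℕ) : ℤ) = b * (b ^ j : ℕ) := by rw [pow_succ]; push_cast; ring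
    have hbK : 8 * (M : ℤ) * 2 ^ (K + 1) + 2 * M < b := by
      have h1 : ((2 ^ (K + 5) * M : ℕ) : ℤ) < b := by exact_mod_cast hb
      push_cast at h1
      have h2 : (2 : ℤ) ^ (K + 5) = 16 * 2 ^ (K + 1) := by rw [pow_add, pow_add]; ring
      have h3 : (1 : ℤ) ≤ 2 ^ (K + 1) := one_le_pow₀ (by norm_num)
      have h4 : (0 : ℤ) < M := by exact_mod_cast hM
      rw [h2] at h1
      nlinarith
    refine key' (B := ((b ^ j : ℕ) : ℤ)) (b := b) (M := M) (G := G) (E := 2 ^ (K + 1)) (D := D)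
      (q := q' - q - y * D) (by exact_mod_cast pow_pos hb0 j) (by exact_mod_cast hM)
      (by exact_mod_cast geo_ge j) (by exact_mod_cast geo_le hb2 j) hD0 hD.le hbK ?_
    have e5 : 4 * (M : ℤ) * G * D - (q' - q - y * D) * (b * ((b ^ j : ℕ) : ℤ)) =
        ((n' : ℤ) - q' * (b ^ (j + 1) : ℕ)) - ((n : ℤ) - q * (b ^ (j + 1) : ℕ)) := by
      have hx : (X : ℤ) = 4 * M * G + b * (b ^ j : ℕ) * y := by
        rw [e4] at hy; push_cast at hy ⊢; linarith
      rw [e4]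
      have : (n' : ℤ) - q' * (b * (b ^ j : ℕ)) - (n - q * (b * (b ^ j : ℕ))) =
        ((n' : ℤ) - n) - (q' - q) * (b * (b ^ j : ℕ)) := by ring
      rw [this, hDX, hx]; ring
    rw [e5]
    refine (abs_sub _ _).trans ?_
    linarith
  calc P.card ≤ _ := card_le_card sub
    _ ≤ _ := card_union_le _ _
    _ ≤ Ms.card * 1 + (range m).card * 1 := Nat.add_le_add c1 c2
    _ = Ms.card + m := by simp

/-- **SPOIL LEAF.** -/
theorem spoil (Ms : Finset ℕ) (M m b K L : ℕ) (hM : 0 < M)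
    (hMs : ∀ k ∈ Ms, 2 ^ (K + 1) < k ∧ k ∣ M)
    (hb : 2 ^ (K + 5) * M < b) (hc : Nat.Coprime b M) :
    ∃ c : ℕ → ℕ, StrictMono c ∧ (∀ i j, i < j → c i + L < c j) ∧
      (∀ i, L < c i) ∧
      (∀ i j i' j', i ≠ j → (i, j) ≠ (i', j') →
        c i + c j' + L < c i' + c j ∨ c i' + c j + L < c i + c j') ∧
      (∀ (T : ℤ) (P : Finset (ℕ × ℕ)), (∀ p ∈ P, p.1 < K ∧ p.2 < K ∧ p.1 ≠ p.2 ∧
        ∃ n : ℕ, (n : ℤ) = T + (c p.2 : ℤ) - (c p.1 : ℤ) ∧ Bad Ms M m b n) →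
        P.card ≤ Ms.card + m) := by
  have hb0 : 0 < b := by
    have : 0 < 2 ^ (K + 5) * M := by positivity
    omega
  obtain ⟨X0, h1, h2⟩ := Nat.chineseRemainder (hc.pow_left m) (4 * M * ∑ t ∈ range m, b ^ t) 1
  set X := X0 + (L + 1) * (b ^ m * M) with hX
  have hXL : L < X := by
    have : 0 < b ^ m * M := by positivity
    nlinarith
  have hX1 : X ≡ 1 [MOD M] := by
    refine Nat.ModEq.trans ?_ h2
    have : (L + 1) * (b ^ m * M) ≡ 0 [MOD M] := by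
      rw [Nat.modEq_zero_iff_dvd]; exact Dvd.intro_left ((L + 1) * b ^ m) (by ring)
    simpa [hX] using (Nat.ModEq.refl X0).add this
  have hX2 : X ≡ 4 * M * ∑ t ∈ range m, b ^ t [MOD b ^ m] := by
    refine Nat.ModEq.trans ?_ h1
    have : (L + 1) * (b ^ m * M) ≡ 0 [MOD b ^ m] := by
      rw [Nat.modEq_zero_iff_dvd]; exact Dvd.intro_left ((L + 1) * M) (by ring)
    simpa [hX] using (Nat.ModEq.refl X0).add this
  have hstep : ∀ i j, i < j → 2 ^ i * X + L < 2 ^ j * X := by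
    intro i j hij
    have h3 : 2 ^ (i + 1) ≤ 2 ^ j := Nat.pow_le_pow_right (by norm_num) hij
    have h4 : 2 ^ (i + 1) * X ≤ 2 ^ j * X := Nat.mul_le_mul_right _ h3
    have h5 : 1 ≤ 2 ^ i := Nat.one_le_two_pow
    have h6 : 2 ^ (i + 1) * X = 2 ^ i * X + 2 ^ i * X := by rw [pow_succ]; ring
    nlinarith
  refine ⟨fun l => 2 ^ l * X, ?_, hstep, ?_, ?_, ?_⟩
  · intro i j hij
    have := hstep i j hij
    show 2 ^ i * X < 2 ^ j * X
    omega
  · intro i
    show L < 2 ^ i * X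
    have h5 : 1 ≤ 2 ^ i := Nat.one_le_two_pow
    nlinarith
  · intro i j i' j' hij hne
    show 2 ^ i * X + 2 ^ j' * X + L < 2 ^ i' * X + 2 ^ j * X ∨
      2 ^ i' * X + 2 ^ j * X + L < 2 ^ i * X + 2 ^ j' * X
    have hne2 : 2 ^ i + 2 ^ j' ≠ 2 ^ i' + 2 ^ j := by
      intro h
      rcases pow_two_add _ _ _ _ h with ⟨h3, h4⟩ | ⟨h3, h4⟩
      · exact hne (by rw [h3, h4])
      · exact hij h3
    rcases lt_or_gt_of_ne hne2 with h | h
    · left
      have : (2 ^ i + 2 ^ j' + 1) * X ≤ (2 ^ i' + 2 ^ j) * X := Nat.mul_le_mul_right _ h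
      nlinarith
    · right
      have : (2 ^ i' + 2 ^ j + 1) * X ≤ (2 ^ i + 2 ^ j') * X := Nat.mul_le_mul_right _ h
      nlinarith
  · intro T P hP
    exact spoil_aux hM hMs hb hX1 hX2 T P hP

/-- **SPOIL LEAF**, in natural numbers, as a filter. -/
theorem spoil_nat (Ms : Finset ℕ) (M m b K L : ℕ) (hM : 0 < M)
    (hMs : ∀ k ∈ Ms, 2 ^ (K + 1) < k ∧ k ∣ M)
    (hb : 2 ^ (K + 5) * M < b) (hc : Nat.Coprime b M) :
    ∃ c : ℕ → ℕ, StrictMono c ∧ (∀ i j, i < j → c i + L < c j) ∧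
      (∀ i, L < c i) ∧
      (∀ i j i' j', i ≠ j → (i, j) ≠ (i', j') →
        c i + c j' + L < c i' + c j ∨ c i' + c j + L < c i + c j') ∧
      (∀ (T : ℤ) (P : Finset (ℕ × ℕ)), (∀ p ∈ P, p.1 < K ∧ p.2 < K ∧ p.1 ≠ p.2 ∧
        ∃ n : ℕ, (n : ℤ) = T + (c p.2 : ℤ) - (c p.1 : ℤ) ∧ Bad Ms M m b n) →
        P.card ≤ Ms.card + m) ∧
      (open Classical in
      ∀ T : ℕ, (∀ i < K, c i ≤ T) → ((range K ×ˢ range K).filter (fun p : ℕ × ℕ =>
        p.1 ≠ p.2 ∧ Bad Ms M m b (T + c p.2 - c p.1))).card ≤ Ms.card + m) := by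
  classical
  obtain ⟨c, h1, h2, h2', h3, h4⟩ := spoil Ms M m b K L hM hMs hb hc
  refine ⟨c, h1, h2, h2', h3, h4, fun T hT => h4 T _ ?_⟩
  intro p hp
  rw [mem_filter, mem_product, mem_range, mem_range] at hp
  obtain ⟨⟨a1, a2⟩, a3, a4⟩ := hp
  refine ⟨a1, a2, a3, _, ?_, a4⟩
  have := hT p.1 a1
  omega

end Crest.Agent.R320.Sp_797
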