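import Crest.Agent.R320.SemTop_727
import Crest.Agent.R320.SemJ_832
import Crest.Agent.R320.ExactR_237
import Crest.Agent.R320.P4_911
import Crest.Agent.R320.WallU_228
import Crest.Agent.R320.Sp_797
import Crest.Agent.R320.Loc_354
import Crest.Agent.R320.Univ_582
import Crest.Agent.R320.G1_256

/-!
Row 320, helper256: complete join.
-/

set_option autoImplicit false

namespace Crest.Agent.R320.Fin_256

open Crest.RegLang Crest.Agent.R320.Hk_851 Crest.Agent.R320.Blk467 Finset

/-- all data of the two schemes -/
theorem exists_dat (α S V : Type) [Finite α] [Monoid S] [Finite S] [AddCommGroup V] [Finite V]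
    (f : α → S) (act : V → S → V) :
    ∃ (D : SemJ_832.Dat α S V) (n : ℕ) (St : Set (List α)) (La Pm : ℕ), 0 < Pm ∧
      D.phi = (fun w => (w.map f).prod) ∧ D.act = act ∧ D.Wo = P4_911.Wo n St ∧
      P4_911.Few n St ∧
      (∀ Q Q' : List α, La ≤ Q.length → La ≤ Q'.length → Q.take La = Q'.take La →
        Q.length % Pm = Q'.length % Pm →
        ((Q.drop La).map f).prod = ((Q'.drop La).map f).prod → D.nu1 Q = D.nu1 Q') := by
  classical
  have := Fintype.ofFinite S
  have := Fintype.ofFinite V
  obtain ⟨m, r, G⟩ := G1_256.g1 S V act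
  obtain ⟨K, HK⟩ := ExactR_237.exact_gadget α S V f act (2 * (r + m) + 2)
  obtain ⟨Ms, M, hMr, hMs, hM, G⟩ := G (2 ^ (K + 1))
  obtain ⟨b, hb⟩ : ∃ b, b = 2 ^ (K + 5) * M + 1 := ⟨_, rfl⟩
  have hbM : Nat.Coprime b M := by
    rw [hb]; simp
  have h32 : 4 * M + 4 < b := by
    have h1 : 32 ≤ 2 ^ (K + 5) := by
      have := Nat.pow_le_pow_right (n := 2) (by norm_num) (show 5 ≤ K + 5 by omega)
      simpa using this
    have h2 := Nat.mul_le_mul_right M h1
    omega
  have hb0 : 0 < b := by omega
  obtain ⟨lam, rho, nu1, g1, g2, g3, g4⟩ := G b h32 hbM α f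
  obtain ⟨c, c1, c2, c3, c4, c5, -⟩ := Sp_797.spoil_nat Ms M m b K (2 * b ^ m) hM
    (fun k hk => ⟨(hMs k hk).1, (hMs k hk).2.2⟩) (by omega) hbM
  obtain ⟨lam2, rho2, nu2, e1, e2⟩ := HK c (fun i j hij _ => c1 hij)
  obtain ⟨n, cc, P, St, hn, hP, w1, w2, w3, w4, w5⟩ :=
    WallU_228.walls_full (α := α) (2 * c K + 2 * b ^ m)
  refine ⟨{ phi := fun w => (w.map f).prod
            act := act
            Wo := P4_911.Wo n St
            n := n
            W := 2 * c K + 2 * b ^ m
            z := c K + n + 2 * b ^ m + 2 * c K + 1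
            p0 := c K
            N := b ^ m
            K := K
            C0 := r + m
            Lam := c K
            BadT := Sp_797.Bad Ms M m b
            lam := lam
            rho := rho
            nu1 := nu1
            c := c
            lam2 := lam2
            rho2 := fun k Q => rho2 k Q 1
            nu2 := fun u => nu2 u 1
            hloc := w1
            hgap := ?_
            g_len := fun p v h => (g1 p v h).le
            g_sound := fun p q v r h1 h2 => g2 p q v r h1 h2
            g_comp := ?_
            e_sound := ?_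
            e_comp := ?_
            c_le := fun k hk => c1.monotone hk.le
            rulerE := ?_
            rulerB := ?_
            h_p0 := le_rfl
            z_pos := by omega
            h_z := by omega
            h_W := le_rfl }, n, St, b ^ m, M * b ^ m, Nat.mul_pos hM (Nat.pow_pos hb0), rfl, rfl,
    rfl, w5, fun Q Q' h1 h2 h3 h4 h5 => (g4 Q Q' h1 h2 h3 h4 h5).2⟩
  · intro X t t' h1 h2 h3 h4
    by_contra hcon
    have hl : (X.take t').length = t' := by rw [List.length_take]; omega
    refine w2 (X.take t') (t' - t) h4 (by omega) (by omega) ?_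
    rw [hl, List.take_take, show min (t' - (t' - t)) t' = t by omega]
    exact h3
  · intro u hu hbad v
    refine g3 u (fun k hk hd => hbad (Or.inl ⟨k, hk, hd⟩)) (fun j hj => ?_) v
    by_contra hcon
    exact hbad (Or.inr ⟨j, hj, hcon⟩)
  · intro k hk P Q v b' h1 h2 h3
    have := e1 k hk P Q 1 v b' h1 h2 h3
    rw [mul_one] at this
    exact this
  · intro u v hu
    exact e2 u 1 v hu
  · intro i _ j _ i' _ j' _ h1 h2 h3 h4
    by_contra hcon
    have hne : (i, j) ≠ (i', j') := by
      intro h
      simp only [Prod.mk.injEq] at h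
      exact hcon h
    have := c4 i j i' j' h1 hne
    omega
  · intro T hT1 hT2
    set F := ((range K) ×ˢ (range K)).filter
      (fun ab : ℕ × ℕ => ab.1 ≠ ab.2 ∧ Sp_797.Bad Ms M m b (T + c ab.1 - c ab.2)) with hF
    have h1 := c5 (T : ℤ) (F.image Prod.swap) ?_
    · rw [Finset.card_image_of_injective _ Prod.swap_injective] at h1
      exact h1.trans (Nat.add_le_add_right hMr m)
    · intro p hp
      obtain ⟨a, ha, rfl⟩ := Finset.mem_image.1 hp
      rw [hF, Finset.mem_filter, Finset.mem_product, Finset.mem_range, Finset.mem_range] at ha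
      obtain ⟨⟨a1, a2⟩, a3, a4⟩ := ha
      refine ⟨a2, a1, fun h => a3 h.symm, _, ?_, a4⟩
      have h5 : c a.2 ≤ c K := c1.monotone a2.le
      simp only [Prod.fst_swap, Prod.snd_swap]
      omega

theorem fibre (α S : Type) [Finite α] [Monoid S] [Finite S] (f : α → S) (s : S) :
    HL 3 ({w | (w.map f).prod = s} : Language α) := by
  classical
  obtain ⟨act, hact⟩ : ∃ act : (S → ZMod 2) → S → (S → ZMod 2),
    act = fun v s t => v (s * t) := ⟨_, rfl⟩
  have hadd : ∀ a b s, act (a + b) s = act a s + act b s := by
    intro a b s; rw [hact]; rfl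
  have hone : ∀ v, act v 1 = v := by
    intro v; rw [hact]; funext t; simp
  have hmul : ∀ v s t, act v (s * t) = act (act v s) t := by
    intro v s t; rw [hact]; funext x; simp [mul_assoc]
  have hfaith : ∀ s t, (∀ v, act v s = act v t) → s = t := by
    intro s t h
    have h1 := congrFun (h (fun x => if x = s then 1 else 0)) 1
    rw [hact] at h1
    by_contra hne
    have hne' : ¬ (t = s) := fun e => hne e.symm
    simp [hne'] at h1
  obtain ⟨D, n, St, La, Pm, hPm, hphi, hDact, hWo, hFew, hloc⟩ :=
    exists_dat α S (S → ZMod 2) f act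
  have hFB : ∀ X, X ∈ D.Z ↔ P4_911.FB n St D.z X := by
    intro X
    show (D.z ≤ X.length ∧ D.Wo X ∧ ∀ t, D.z ≤ t → t < X.length → ¬ D.Wo (X.take t)) ↔ _
    rw [hWo]
    rfl
  have hTdef : ∀ v X, D.T v X = act (act v ((X.take D.p0).map f).prod + D.nu2 (X.take D.p0))
      ((X.drop D.p0).map f).prod + D.nu1 (X.drop D.p0) := by
    intro v X
    unfold SemJ_832.Dat.T
    rw [hphi, hDact]
  refine SemTop_727.top (k := 1) act hadd hone hmul hfaith f
    (fun X => act (D.nu2 (X.take D.p0)) (((X.drop D.p0).map f).prod) + D.nu1 (X.drop D.p0))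
    (⟨D.Z, D.T, D.L1, D.L2⟩ : SemTop_727.Sch α (S → ZMod 2)) ?_ ?_ ?_ ?_ ?_ ?_ ?_ s
  · intro v X
    show D.T v X = _
    rw [hTdef, hadd, ← hmul, add_assoc, ← List.prod_append, ← List.map_append,
      List.take_append_drop]
  · refine ⟨fun h => ?_, fun X hX Y hY hXY => ?_⟩
    · have h1 : D.z ≤ 0 := h.1
      have := D.z_pos
      omega
    · obtain ⟨R, rfl⟩ := hXY
      by_contra hne
      have hR : 0 < R.length := by
        rcases R with _ | ⟨a, R⟩
        · simp at hne
        · simp
      refine hY.2.2 X.length hX.1 (by rw [List.length_append]; omega) ?_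
      rw [List.take_left]
      exact hX.2.1
  · intro x y
    have hreg : P4_911.Reg (fun X : List α => D.T x X = y) := by
      refine Loc_354.regular_of_local f (D.p0 + La) Pm hPm _ ?_
      intro q q2 h1 h2 h3 h4 h5
      have hT : D.T x q = D.T x q2 := by
        have a1 : q.take D.p0 = q2.take D.p0 := by
          have := congrArg (List.take D.p0) h3
          rw [List.take_take, List.take_take, Nat.min_eq_left (by omega)] at this
          exact this
        have a2 : (q.drop D.p0).take La = (q2.drop D.p0).take La := by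
          have := congrArg (List.drop D.p0) h3
          rw [List.drop_take, List.drop_take, Nat.add_sub_cancel_left] at this
          exact this
        have a3 : (((q.drop D.p0).drop La).map f).prod = (((q2.drop D.p0).drop La).map f).prod := by
          rw [List.drop_drop, List.drop_drop]
          exact h5
        have a4 : ((q.drop D.p0).map f).prod = ((q2.drop D.p0).map f).prod := by
          rw [← List.take_append_drop La (q.drop D.p0), ← List.take_append_drop La (q2.drop D.p0),
            List.map_append, List.map_append, List.prod_append, List.prod_append, a2, a3]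
        have a5 : (q.drop D.p0).length % Pm = (q2.drop D.p0).length % Pm := by
          rw [List.length_drop, List.length_drop]
          have : q.length ≡ q2.length [MOD Pm] := h4
          have e1 : q.length = (q.length - D.p0) + D.p0 := by omega
          have e2 : q2.length = (q2.length - D.p0) + D.p0 := by omega
          rw [e1, e2] at this
          exact Nat.ModEq.add_right_cancel' _ this
        have a6 : D.nu1 (q.drop D.p0) = D.nu1 (q2.drop D.p0) :=
          hloc _ _ (by rw [List.length_drop]; omega) (by rw [List.length_drop]; omega) a2 a5 a3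
        rw [hTdef, hTdef, a1, a4, a6]
      show D.T x q = y ↔ D.T x q2 = y
      rw [hT]
    refine (P4_911.HL_FB hFew D.z hreg).congr fun X => ?_
    show (X ∈ D.Z ∧ D.T x X = y) ↔ (P4_911.FB n St D.z X ∧ D.T x X = y)
    rw [hFB]
  · intro x
    refine (List.finite_length_le α (D.p0 + D.N)).subset ?_
    rintro P ⟨h1, h2⟩
    have := D.g_len _ _ h2
    rw [List.length_drop] at this
    show P.length ≤ D.p0 + D.N
    omega
  · intro x
    refine (List.finite_length_le α D.Lam).subset ?_
    rintro P ⟨k, hk, h1, h2⟩
    show P.length ≤ D.Lam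
    rw [h1]
    exact D.c_le k hk
  · intro X1 h1 X2 h2 x
    exact D.hC2 h1 h2 x
  · intro s'
    refine ((P4_911.HL_NX hFew D.z (P4_911.Reg.prod f s')).mono (by norm_num)).congr fun w => ?_
    show ((∀ X ∈ D.Z, ¬ X <+: w) ∧ (w.map f).prod = s') ↔
      ((∀ X Y, w = X ++ Y → ¬ P4_911.FB n St D.z X) ∧ (w.map f).prod = s')
    refine and_congr_left fun _ => ⟨?_, ?_⟩
    · rintro h X Y rfl hX
      exact h X ((hFB X).2 hX) (List.prefix_append X Y)
    · rintro h X hX ⟨Y, hY⟩
      exact h X Y hY.symm ((hFB X).1 hX)

/-- **row 320** -/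
theorem row.{u} (α : Type u) [Finite α] (L : Language α) (hL : L.IsRegular) :
    ∃ e : Crest.RegLang.GRegExp α, e.height ≤ 3 ∧ e.lang = L :=
  Univ_582.final (fun β _ S _ _ φ s => fibre β S φ s) α L hL

end Crest.Agent.R320.Fin_256
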