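import Crest.Agent.R320.Top5_120
import Crest.Agent.R320.Asm_624
import Crest.Agent.R320.GridG_19
import Crest.Agent.R320.ExactR_237
import Crest.Agent.R320.P4_440
import Crest.Agent.R320.GridRuler_257
import Crest.Agent.R320.Block_467

/-!
# Row 320: the join (helper257)

TOP = `Top5_120.top5`; both schemes = `Asm_624`; gadget on all words = `GridG_19.grid`; exact gadget =
`ExactR_237`; ruler = `GridRuler_257.ruler`; walls = `WallU_228.walls_full`; heights = `P4_440`.
-/

set_option autoImplicit false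
set_option linter.unusedSectionVars false
set_option maxHeartbeats 1000000

namespace Crest.Agent.R320.Fin_257

open Crest.RegLang Crest.Agent.R320.Hk_851

section parts

open Crest.Agent.R320.Asm_624 Crest.Agent.R320.Asm_624.D Finset

variable {α V S : Type*} [AddCommGroup V] [Monoid S] {D : Crest.Agent.R320.Asm_624.D α V S} {W r1 : ℕ}

theorem s2' (h : D.Ok W r1) {P Q : List α} {v b : V} (hL : D.LP2 P v) (hR : D.R2 Q = some b) :
    (∃ X' ∈ D.XX, D.Bad X' ∧ ∃ Y' ∈ D.XX, X' ++ Y' = P ++ Q ∧ D.T (D.T v X') Y' = b) ∨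
    (∃ X' ∈ D.XX, ¬ D.Bad X' ∧ X' <+: P ++ Q) := by
  have hzb := h.z_big
  obtain ⟨k0, hk0, hP, hl⟩ := hL
  obtain ⟨k, hk, -, huniq, t, hF, hX2, r, hr, hb⟩ := R2_spec hR
  have hc0 := h.c_le k0 hk0
  have hck := h.c_le k hk
  have hlX2 : D.z ≤ (Q.drop t).length := hX2.2.1
  rw [List.length_drop] at hlX2
  have hwQ : D.Wo Q := by
    have := hX2.1
    rw [← List.take_append_drop t Q]
    exact (h.w_app _ _ (by rw [List.length_drop]; omega)).2 this
  obtain ⟨t0, hF0⟩ := Fs_exists (D := D) (k := k0) (Q := Q) (t := Q.length) (by omega) le_rfl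
    (by rw [List.take_length]; exact hwQ)
  have hXX := h.blk hk0 hP hF0
  by_cases hbad : D.Bad (P ++ Q.take t0)
  swap
  · right
    exact ⟨_, hXX, hbad, (List.prefix_append_right_inj _).2 (List.take_prefix _ _)⟩
  left
  have hkk : k0 = k := huniq k0 hk0 ⟨t0, hF0, (h.bad_iff hk0 hP hF0).1 hbad⟩
  subst hkk
  have htt : t0 = t := Fs_unique hF0 hF
  subst htt
  obtain ⟨f1, f2, f3, f4⟩ := hF
  have hlt : (Q.take t0).length = t0 := by rw [List.length_take]; omega
  refine ⟨P ++ Q.take t0, hXX, hbad, Q.drop t0, hX2, ?_, ?_⟩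
  · rw [List.append_assoc, List.take_append_drop]
  · rw [hb]
    congr 1
    unfold T
    have e1 : (P ++ Q.take t0).take D.p0 = P ++ Q.take (D.p0 - D.c k0) := by
      rw [List.take_append, List.take_of_length_le (by omega), hP, List.take_take,
        min_eq_left (by omega)]
    have e2 : (P ++ Q.take t0).drop D.p0 = (Q.take t0).drop (D.p0 - D.c k0) := by
      rw [List.drop_append, List.drop_of_length_le (by omega), hP]
      simp
    rw [e1, e2, h.g2s k0 hk0 P (Q.take (D.p0 - D.c k0)) v r hP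
      (by rw [List.length_append, List.length_take]; omega) hl hr]

theorem cc2 (h : D.Ok W r1) {X X2 : List α} (hX : X ∈ D.XX) (hb : D.Bad X) (hX2 : X2 ∈ D.XX)
    (v : V) : ∃ P Q, X ++ X2 = P ++ Q ∧ D.LP2 P v ∧ (D.R2 Q).isSome := by
  classical
  have hzb := h.z_big
  obtain ⟨hwX, hzX, hnoX⟩ := hX
  have hzX2 := hX2.2.1
  have hw : D.Wo (X ++ X2) := (h.w_app _ _ (by omega)).2 hX2.1
  obtain ⟨B, hB, hB'⟩ := h.few hw (by rw [List.length_append]; omega)
  have hl1 : (X.take D.p0).length = D.p0 := by rw [List.length_take]; omega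
  obtain ⟨I, hI, hI'⟩ := h.g2c (X.take D.p0) v hl1
  obtain ⟨k, hkI, hkB⟩ : ∃ k ∈ I, k ∉ B := by
    by_contra hcon
    push Not at hcon
    have := card_le_card (show I ⊆ B from hcon)
    omega
  obtain ⟨hk, hl2, hr2⟩ := hI' k hkI
  have hck := h.c_le k hk
  have hdrop : (X ++ X2).drop (D.c k) = X.drop (D.c k) ++ X2 := by
    rw [List.drop_append, Nat.sub_eq_zero_of_le (by omega)]; simp
  have hlP : (X.take (D.c k)).length = D.c k := by rw [List.length_take]; omega
  have hlD : (X.drop (D.c k)).length = X.length - D.c k := List.length_drop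
  have htk : (X.drop (D.c k) ++ X2).take (X.length - D.c k) = X.drop (D.c k) := by
    rw [List.take_append, hlD, Nat.sub_self, List.take_of_length_le (by omega)]; simp
  have hdk : (X.drop (D.c k) ++ X2).drop (X.length - D.c k) = X2 := by
    rw [List.drop_append, hlD, Nat.sub_self, List.drop_of_length_le (by omega)]; simp
  have key : ∀ t', t' ≤ X.length - D.c k → D.n ≤ t' →
      (D.Wo (X.take (D.c k + t')) ↔ D.Wo ((X.drop (D.c k)).take t')) := by
    intro t' ht' hn
    have e : X.take (D.c k + t') = X.take (D.c k) ++ (X.drop (D.c k)).take t' := by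
      rw [List.take_add]
    rw [e]
    exact h.w_app _ _ (by rw [List.length_take, List.length_drop]; omega)
  have hFs : D.Fs k (X.drop (D.c k) ++ X2) (X.length - D.c k) := by
    refine ⟨by omega, by rw [List.length_append, hlD]; omega, ?_, fun t' ht' hz hwt => ?_⟩
    · rw [htk]
      have : D.Wo (X.take (D.c k) ++ X.drop (D.c k)) := by
        rw [List.take_append_drop]; exact hwX
      exact (h.w_app _ _ (by omega)).1 this
    · have e : (X.drop (D.c k) ++ X2).take t' = (X.drop (D.c k)).take t' := by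
        rw [List.take_append, Nat.sub_eq_zero_of_le (by omega)]; simp
      rw [e] at hwt
      exact hnoX (D.c k + t') (by omega) hz ((key t' (by omega) (by omega)).2 hwt)
  have hbad : D.BadC k (X.drop (D.c k) ++ X2) := by
    refine ⟨_, hFs, (h.bad_iff hk hlP hFs).1 ?_⟩
    rw [htk, List.take_append_drop]
    exact hb
  refine ⟨X.take (D.c k), X.drop (D.c k) ++ X2, by rw [← List.append_assoc, List.take_append_drop],
    ⟨k, hk, hlP, ?_⟩, ?_⟩
  · rw [List.take_take, min_eq_left hck] at hl2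
    exact hl2
  · obtain ⟨r, hr⟩ := Option.isSome_iff_exists.1 hr2
    have hte : (X.drop (D.c k) ++ X2).take (D.p0 - D.c k) = (X.take D.p0).drop (D.c k) := by
      rw [List.drop_take, List.take_append_of_le_length (by omega)]
    have hrr : D.rho2 k ((X.drop (D.c k) ++ X2).take (D.p0 - D.c k)) = some r := by
      rw [hte]; exact hr
    have hex : ∃ b, D.RR2 (X.drop (D.c k) ++ X2) b :=
      ⟨_, k, hk, hbad, fun k' hk' hb' => by
        by_contra hne
        exact hkB (hB' k hk k' hk' hne (by rw [hdrop]; exact hb')),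
        _, hFs, by rw [hdk]; exact hX2, r, hrr, rfl⟩
    unfold R2
    rw [dif_pos hex]
    rfl

end parts

section ruler

open Finset Crest.Agent.R320.GridRuler_257

/-- thinness in the form of `Asm_624.Ok.thin` -/
theorem thin_of {K r1 : ℕ} {c : ℕ → ℕ} {Bd : ℤ → Prop}
    (h : ∀ T : ℤ, ∀ s : Finset (ℕ × ℕ), (∀ ab ∈ s, ab.1 < K ∧ ab.2 < K ∧ ab.1 ≠ ab.2 ∧
        Bd (T + (c ab.1 : ℕ) - (c ab.2 : ℕ))) → s.card ≤ r1) (τ : ℤ) :
    ∃ B : Finset ℕ, B.card ≤ r1 ∧ ∀ k < K, ∀ k' < K, k' ≠ k →
      Bd (τ - ((c k : ℤ) - c k')) → k ∈ B := by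
  classical
  let Pk : ℕ → Prop := fun k => ∃ k' < K, k' ≠ k ∧ Bd (τ - ((c k : ℤ) - c k'))
  have hch : ∀ k, ∃ k', Pk k → k' < K ∧ k' ≠ k ∧ Bd (τ - ((c k : ℤ) - c k')) := by
    intro k
    by_cases hk : Pk k
    · obtain ⟨k', h1, h2, h3⟩ := hk
      exact ⟨k', fun _ => ⟨h1, h2, h3⟩⟩
    · exact ⟨0, fun hk' => absurd hk' hk⟩
  choose g hg using hch
  refine ⟨(range K).filter Pk, ?_, fun k hk k' hk' hne hb =>
    mem_filter.2 ⟨mem_range.2 hk, k', hk', hne, hb⟩⟩
  have h1 := h τ (((range K).filter Pk).image fun k => (g k, k)) (by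
    intro ab hab
    obtain ⟨k, hk, rfl⟩ := mem_image.1 hab
    obtain ⟨hk1, hk2⟩ := mem_filter.1 hk
    obtain ⟨a1, a2, a3⟩ := hg k hk2
    refine ⟨a1, mem_range.1 hk1, a2, ?_⟩
    have e : τ + ((c (g k) : ℕ) : ℤ) - ((c k : ℕ) : ℤ) = τ - ((c k : ℤ) - c (g k)) := by ring
    simp only
    rw [e]
    exact a3)
  rwa [card_image_of_injective _ (fun a b hab => congrArg Prod.snd hab)] at h1

/-- spacing in the form of `Asm_624.Ok.gol` -/
theorem gol_of {K N : ℕ} {c : ℕ → ℕ}
    (h : ∀ a b c' d : ℕ, a ≠ b → (a = c' ∧ b = d) ∨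
        (4 * N : ℤ) < |((c a : ℤ) - c b) - ((c c' : ℤ) - c d)|) (τ : ℤ) :
    ∃ B : Finset ℕ, B.card ≤ 1 ∧ ∀ k < K, ∀ k' < K, k' ≠ k →
      τ < (c k : ℤ) - c k' + N → (c k : ℤ) - c k' ≤ τ + N → k ∈ B := by
  classical
  by_cases hex : ∃ k k' : ℕ, k' ≠ k ∧ τ < (c k : ℤ) - c k' + N ∧ (c k : ℤ) - c k' ≤ τ + N
  · obtain ⟨k0, k0', h1, h2, h3⟩ := hex
    refine ⟨{k0}, by simp, fun k _ k' _ hne a1 a2 => ?_⟩
    rcases h k k' k0 k0' (Ne.symm hne) with ⟨e, -⟩ | hlt
    · rw [e]; exact mem_singleton_self _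
    · exfalso
      have : |((c k : ℤ) - c k') - ((c k0 : ℤ) - c k0')| ≤ 2 * N := by
        rw [abs_le]; constructor <;> omega
      omega
  · exact ⟨∅, by simp, fun k _ k' _ hne a1 a2 => absurd ⟨k, k', hne, a1, a2⟩ hex⟩

end ruler

theorem prod_take_drop {α S : Type} [Monoid S] (f : α → S) (B : ℕ) (w : List α) :
    (w.map f).prod = ((w.take B).map f).prod * ((w.drop B).map f).prod := by
  rw [← List.prod_append, ← List.map_append, List.take_append_drop]

theorem drop_split {α : Type} {p B : ℕ} (h : p ≤ B) (w : List α) (hw : B ≤ w.length) :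
    w.drop p = (w.take B).drop p ++ w.drop B := by
  conv_lhs => rw [← List.take_append_drop B w]
  rw [List.drop_append_of_le_length (by rw [List.length_take]; omega)]

theorem fin (α : Type) [Finite α] (S : Type) [Monoid S] [Finite S] (f : α → S) (s : S) :
    HL 3 ({w | (w.map f).prod = s} : Language α) := by
  classical
  haveI := Fintype.ofFinite S
  haveI : Finite (S → ZMod 2) := inferInstance
  obtain ⟨act, hadd, hone, hmul, hfaith⟩ := Crest.Agent.R320.Blk467.exists_module S
  obtain ⟨m, r, hgrid⟩ := Crest.Agent.R320.GridG_19.grid.{0} S (S → ZMod 2) act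
  haveI := Fintype.ofFinite (S → ZMod 2)
  obtain ⟨K, hexact⟩ := Crest.Agent.R320.ExactR_237.exact_gadget α S (S → ZMod 2) f act
    (2 + 2 * (r + m))
  obtain ⟨Ms, hMcard, hMp, hgr⟩ := hgrid (4 ^ K)
  set M : ℕ := ∏ q ∈ Ms, q with hM
  have hM0 : 0 < M := Finset.prod_pos fun q hq => (hMp q hq).1.pos
  set b : ℕ := 1 + 16 * 4 ^ K * M with hb
  have hb0 : 0 < b := by omega
  have hcopb : Nat.Coprime M b := by
    rw [hb, Nat.coprime_iff_gcd_eq_one]
    have : Nat.gcd M (1 + 16 * 4 ^ K * M) = Nat.gcd M 1 := by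
      rw [mul_comm, Nat.gcd_add_mul_left_right]
    rw [this, Nat.gcd_one_right]
  let G : ℕ → ℕ := fun j => b ^ j
  have hG0 : ∀ j, 0 < G j := fun j => pow_pos hb0 j
  have hGd : ∀ i j, i ≤ j → G i ∣ G j := fun i j hij => pow_dvd_pow b hij
  have hGs : ∀ j, G j ∣ G (j + 1) := fun j => hGd _ _ (Nat.le_succ j)
  have hGb : ∀ j, 16 * 4 ^ K * (M * G j) ≤ G (j + 1) := by
    intro j
    show 16 * 4 ^ K * (M * b ^ j) ≤ b ^ (j + 1)
    rw [pow_succ, ← mul_assoc, mul_comm (b ^ j) b]
    exact Nat.mul_le_mul_right _ (by omega)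
  have hcop : ∀ j, Nat.Coprime M (G j) := fun j => Nat.Coprime.pow_right j hcopb
  obtain ⟨lam1, rho1, nu1, g1, g2, g3, g4, g5⟩ := hgr G 0 hG0 hGd hcop α
    (fun w => (w.map f).prod) (by intro u v; simp)
  set A : ℕ → ℕ := Crest.Agent.R320.GridG_19.Am G M 0 with hA
  set Ac : ℕ := Crest.Agent.R320.GridG_19.Ac G M 0 m with hAc
  set N1 : ℕ := 2 * A m + M + Ac with hN1
  obtain ⟨U, hU, hUm, hUs, hUt⟩ := Crest.Agent.R320.GridRuler_257.ruler K m Ms M G A N1 hM0
    (fun k hk => ⟨Finset.dvd_prod_of_mem _ hk, (hMp k hk).2.le⟩) (hG0 0) hGs hGb (hcop m)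
  let c : ℕ → ℕ := fun k => U * 4 ^ k
  have hcm : ∀ i j, i < j → c i < c j := fun i j hij => by
    have := hUm i j hij
    show U * 4 ^ i < U * 4 ^ j
    omega
  obtain ⟨lam2, rho2, nu2, e1, e2⟩ := hexact c (fun i j hij _ => hcm i j hij)
  set p0 : ℕ := U * 4 ^ K with hp0
  set W : ℕ := 2 * p0 + 2 * N1 + 2 with hW
  obtain ⟨n, c', P', Sw, hn, hP', hw1, hw2, -, -, hfew⟩ :=
    Crest.Agent.R320.WallU_228.walls_full (α := α) W
  set z : ℕ := 2 * p0 + 2 * N1 + n + 2 with hz
  let D : Crest.Agent.R320.Asm_624.D α (S → ZMod 2) S :=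
    { φ := fun w => (w.map f).prod
      act := act
      Wo := Crest.Agent.R320.WallU_228.Wo n Sw
      n := n
      z := z
      p0 := p0
      N1 := N1
      K := K
      c := c
      lam1 := lam1
      rho1 := rho1
      nu1 := nu1
      lam2 := lam2
      rho2 := fun k Q => rho2 k Q 1
      nu2 := fun u => nu2 u 1
      Bd := Crest.Agent.R320.GridRuler_257.BadZ Ms m M G A }
  have hAm : ∀ j, j ≤ m → A j ≤ A m := fun j hj => Crest.Agent.R320.GridG_19.Am_mono G M 0 hj
  have hOk : D.Ok W (r + m) := by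
    refine ⟨fun u v => ?_, hw1, fun Q hQ => hQ.1, ?_, le_rfl, ?_, le_rfl, ?_, ?_, ?_, ?_, ?_, ?_, ?_⟩
    · show ((u ++ v).map f).prod = _
      simp [D]
    · intro X s t hst ht hs ht'
      by_contra hcon
      push Not at hcon
      refine hw2 (X.take t) (t - s) ht' (by omega) ?_ ?_
      · have : D.Wo = Crest.Agent.R320.WallU_228.Wo n Sw := rfl
        omega
      · rw [List.length_take, min_eq_left ht, List.take_take,
          show min (t - (t - s)) t = s by omega]
        exact hs
    · intro k hk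
      exact (hcm k K hk).le
    · intro P Q v b h1 h2
      exact g1 P Q v b h1 h2
    · intro P v h1
      have := (g2 P v h1).2
      show P.length ≤ N1
      omega
    · intro Y hY hbd v
      have hY' : N1 ≤ Y.length := hY
      obtain ⟨h1, h2⟩ := Crest.Agent.R320.GridRuler_257.clear_of_not_bad hG0
        (fun j _ hj => by have := hAm j hj; omega) hbd
      obtain ⟨P, Q, hPQ, hl, hr⟩ := g4 Y (by omega) (by omega) h1 (by
        rintro ⟨k, hk, h3⟩
        have := h2 (k + 1) (by omega) (by omega)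
        rw [Nat.add_sub_cancel] at this
        have h3' : (Y.length - A (k + 1)) % G (k + 1) < M * G k ∨
          G (k + 1) ≤ (Y.length - A (k + 1)) % G (k + 1) + M * G k := h3
        rcases h3' with h3 | h3
        · exact absurd this.1 (by omega)
        · exact absurd this.2 (by omega)) v
      exact ⟨P, Q, hPQ.symm, hl, hr⟩
    · intro k hk P Q v b hP hPQ h1 h2
      have := e1 k hk P Q 1 v b hP h1 h2
      rw [mul_one] at this
      exact this
    · intro X v hX
      exact e2 X 1 v (fun k hk => by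
        have h1 : X.length = p0 := hX
        have h2 : c k < U * 4 ^ K := hcm k K hk
        omega)
    · exact thin_of fun T s hs => (hUt T s hs).trans (by omega)
    · refine gol_of (c := c) (N := N1) (K := K) ?_
      intro a b c'' d hab
      exact hUs a b c'' d hab
  have hC : Crest.Agent.R320.Blk467.PCode D.XX := by
    refine ⟨Crest.Agent.R320.Asm_624.D.nil_notMem hOk, ?_⟩
    rintro X hX Y hY ⟨t, rfl⟩
    rw [Crest.Agent.R320.Asm_624.D.prefix_code hX hY, List.append_nil]
  -- the language of blocks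
  have hXX : ∀ X, X ∈ D.XX ↔ X ∈ Crest.Agent.R320.P4_440.XX n Sw z := by
    intro X
    constructor
    · rintro ⟨h1, h2, h3⟩
      exact ⟨h2, h1, fun t a b => h3 t b a⟩
    · rintro ⟨h1, h2, h3⟩
      exact ⟨h2, h1, fun t a b => h3 t b a⟩
  let nuB : List α → (S → ZMod 2) := fun X =>
    act (nu2 (X.take p0) 1) ((X.drop p0).map f).prod + nu1 (X.drop p0)
  have hT : ∀ v X, D.T v X = act v (X.map f).prod + nuB X := by
    intro v X
    show act (act v ((X.take p0).map f).prod + nu2 (X.take p0) 1) ((X.drop p0).map f).prod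
      + nu1 (X.drop p0) = _
    rw [hadd, ← hmul, ← prod_take_drop, add_assoc]
  have hphi : ∀ u v : List α, ((u ++ v).map f).prod = (u.map f).prod * (v.map f).prod := by
    intro u v; simp
  have hMG : 0 < M * G m := Nat.mul_pos hM0 (hG0 m)
  -- the value respects the key
  have hval : ∀ (B : ℕ), p0 + Ac ≤ B → ∀ w w' : List α, B ≤ w.length → B ≤ w'.length →
      w.take B = w'.take B → ((w.drop B).map f).prod = ((w'.drop B).map f).prod →
      w.length ≡ w'.length [MOD M * G m] → ∀ x, act x (w.map f).prod + nuB w =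
        act x (w'.map f).prod + nuB w' := by
    intro B hB w w' h1 h2 h3 h4 h5 x
    have a1 : (w.map f).prod = (w'.map f).prod := by
      rw [prod_take_drop f B w, prod_take_drop f B w', h3, h4]
    have a2 : w.take p0 = w'.take p0 := by
      have : (w.take B).take p0 = (w'.take B).take p0 := by rw [h3]
      rwa [List.take_take, List.take_take, min_eq_left (by omega)] at this
    have a3 : ((w.drop p0).map f).prod = ((w'.drop p0).map f).prod := by
      rw [drop_split (by omega : p0 ≤ B) w h1, drop_split (by omega : p0 ≤ B) w' h2, hphi, hphi,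
        h3, h4]
    have a4 : nu1 (w.drop p0) = nu1 (w'.drop p0) := by
      refine g5 _ _ (by rw [List.length_drop]; omega) (by rw [List.length_drop]; omega) ?_ ?_ a3
      · have : (w.take B).take (p0 + Ac) = (w'.take B).take (p0 + Ac) := by rw [h3]
        rw [List.take_take, List.take_take, min_eq_left (by omega)] at this
        have h6 := congrArg (List.drop p0) this
        rw [List.drop_take, List.drop_take, Nat.add_sub_cancel_left] at h6
        exact h6
      · rw [List.length_drop, List.length_drop]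
        have : (w.length - p0) + p0 ≡ (w'.length - p0) + p0 [MOD M * G m] := by
          rw [Nat.sub_add_cancel (by omega), Nat.sub_add_cancel (by omega)]
          exact h5
        exact Nat.ModEq.add_right_cancel' _ this
    show _ + (act (nu2 (w.take p0) 1) ((w.drop p0).map f).prod + nu1 (w.drop p0)) =
      _ + (act (nu2 (w'.take p0) 1) ((w'.drop p0).map f).prod + nu1 (w'.drop p0))
    rw [a1, a2, a3, a4]
  have hBdp : ∀ T T' : ℕ, T ≡ T' [MOD M * G m] →
      (Crest.Agent.R320.GridRuler_257.BadZ Ms m M G A (T : ℤ) ↔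
        Crest.Agent.R320.GridRuler_257.BadZ Ms m M G A (T' : ℤ)) := by
    have hper := Crest.Agent.R320.GridRuler_257.BadZ_period (Ms := Ms) (m := m) (M := M) (G := G)
      (A := A) (fun k hk => Finset.dvd_prod_of_mem _ hk) hGs
    have hper' : ∀ (j : ℕ) (T : ℤ), Crest.Agent.R320.GridRuler_257.BadZ Ms m M G A
        (T + (j : ℤ) * (M * G m : ℕ)) ↔ Crest.Agent.R320.GridRuler_257.BadZ Ms m M G A T := by
      intro j
      induction j with
      | zero => intro T; simp
      | succ j ih =>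
        intro T
        rw [← ih T, ← hper (T + (j : ℤ) * (M * G m : ℕ))]
        have : T + ((j + 1 : ℕ) : ℤ) * ((M * G m : ℕ) : ℤ) =
          T + (j : ℤ) * ((M * G m : ℕ) : ℤ) + ((M * G m : ℕ) : ℤ) := by push_cast; ring
        rw [this]
    have hone' : ∀ T : ℕ, (Crest.Agent.R320.GridRuler_257.BadZ Ms m M G A (T : ℤ) ↔
        Crest.Agent.R320.GridRuler_257.BadZ Ms m M G A ((T % (M * G m) : ℕ) : ℤ)) := by
      intro T
      have h1 : ((T : ℕ) : ℤ) = ((T % (M * G m) : ℕ) : ℤ) +
          ((T / (M * G m) : ℕ) : ℤ) * ((M * G m : ℕ) : ℤ) := by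
        have := Nat.mod_add_div T (M * G m)
        conv_lhs => rw [← this]
        push_cast
        ring
      conv_lhs => rw [h1]
      exact hper' _ _
    intro T T' h
    rw [hone' T, hone' T']
    have : T % (M * G m) = T' % (M * G m) := h
    rw [this]
  have hzN : z ≤ z + N1 := by omega
  have hnB : n ≤ z + N1 := by omega
  have hBB : p0 + Ac ≤ z + N1 := by omega
  refine Crest.Agent.R320.Top5_120.top5 act hadd hone hmul hfaith f nuB D.XX
    {X | X ∈ D.XX ∧ D.Bad X} hC (fun X hX => hX.1) (fun v => {P | D.LP1 P v})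
    (fun v => {P | D.LP2 P v}) ?_ ?_ ?_ ?_ ?_ ?_ ?_ s
  · intro v
    exact (List.finite_length_le α (p0 + N1)).subset fun P hP => hP.2.1
  · intro v
    refine (List.finite_length_le α p0).subset fun P hP => ?_
    obtain ⟨k, hk, h1, -⟩ := hP
    have := hOk.c_le k hk
    show P.length ≤ p0
    rw [h1]
    exact this
  · intro x y
    have := Crest.Agent.R320.P4_440.HL_block (φ := fun w => (w.map f).prod) (n := n) (S := Sw)
      (z := z) (B := z + N1) (P := M * G m) hphi hnB hzN hMG hfew
      (R := fun X => act x (X.map f).prod + nuB X = y) (by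
        intro w w' h1 h2 h3 h4 h5
        beta_reduce
        rw [hval _ hBB w w' h1 h2 h3 h4 h5 x])
    exact this.congr fun X => by
      constructor
      · rintro ⟨h1, h2⟩; exact ⟨(hXX X).1 h1, h2⟩
      · rintro ⟨h1, h2⟩; exact ⟨(hXX X).2 h1, h2⟩
  · intro x y
    have := Crest.Agent.R320.P4_440.HL_block (φ := fun w => (w.map f).prod) (n := n) (S := Sw)
      (z := z) (B := z + N1) (P := M * G m) hphi hnB hzN hMG hfew
      (R := fun X => (Crest.Agent.R320.GridRuler_257.BadZ Ms m M G A ((X.length : ℤ) - p0) ∨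
        X.length < z + N1 ∨ ∃ t < z, Crest.Agent.R320.WallU_228.Wo n Sw (X.take t) ∧ z ≤ t + N1) ∧
        act x (X.map f).prod + nuB X = y) (by
        intro w w' h1 h2 h3 h4 h5
        have b1 := hval _ hBB w w' h1 h2 h3 h4 h5 x
        have b2 : Crest.Agent.R320.GridRuler_257.BadZ Ms m M G A ((w.length : ℤ) - p0) ↔
            Crest.Agent.R320.GridRuler_257.BadZ Ms m M G A ((w'.length : ℤ) - p0) := by
          have c1 : ((w.length : ℤ) - p0) = ((w.length - p0 : ℕ) : ℤ) := by omega
          have c2 : ((w'.length : ℤ) - p0) = ((w'.length - p0 : ℕ) : ℤ) := by omega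
          rw [c1, c2]
          apply hBdp
          have : (w.length - p0) + p0 ≡ (w'.length - p0) + p0 [MOD M * G m] := by
            rw [Nat.sub_add_cancel (by omega), Nat.sub_add_cancel (by omega)]
            exact h5
          exact Nat.ModEq.add_right_cancel' _ this
        have b3 : ∀ t < z, w.take t = w'.take t := by
          intro t ht
          have : (w.take (z + N1)).take t = (w'.take (z + N1)).take t := by rw [h3]
          rwa [List.take_take, List.take_take, min_eq_left (by omega)] at this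
        have b4 : (∃ t < z, Crest.Agent.R320.WallU_228.Wo n Sw (w.take t) ∧ z ≤ t + N1) ↔
            (∃ t < z, Crest.Agent.R320.WallU_228.Wo n Sw (w'.take t) ∧ z ≤ t + N1) := by
          constructor
          · rintro ⟨t, ht, h6, h7⟩
            exact ⟨t, ht, by rw [← b3 t ht]; exact h6, h7⟩
          · rintro ⟨t, ht, h6, h7⟩
            exact ⟨t, ht, by rw [b3 t ht]; exact h6, h7⟩
        have b5 : w.length < z + N1 ↔ w'.length < z + N1 := by omega
        beta_reduce
        rw [b1, b2, b4, b5])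
    refine this.congr fun X => Iff.symm ?_
    constructor
    · rintro ⟨h1, h2, h3⟩
      refine ⟨⟨(hXX X).2 h1, ?_⟩, h3⟩
      rcases h2 with h2 | h2 | ⟨t, ht, h2, h4⟩
      · exact Or.inl h2
      · exact Or.inr (Or.inl h2)
      · have := h1.1
        exact Or.inr (Or.inr ⟨t, by omega, h2, h4⟩)
    · rintro ⟨⟨h1, h2⟩, h3⟩
      refine ⟨(hXX X).1 h1, ?_, h3⟩
      rcases h2 with h2 | h2 | ⟨t, ht, h2, h4⟩
      · exact Or.inl h2
      · exact Or.inr (Or.inl h2)
      · refine Or.inr (Or.inr ⟨t, ?_, h2, h4⟩)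
        by_contra hcon
        push Not at hcon
        exact h1.2.2 t ht hcon h2
  · intro s'
    have := Crest.Agent.R320.P4_440.HL_rest (φ := fun w => (w.map f).prod) (n := n) (S := Sw)
      (z := z) (B := z + N1) (P := M * G m) hphi hnB hzN hMG hfew
      (R := fun X => (X.map f).prod = s') (by
        intro w w' h1 h2 h3 h4 h5
        have h4' : ((w.drop (z + N1)).map f).prod = ((w'.drop (z + N1)).map f).prod := h4
        have a1 : (w.map f).prod = (w'.map f).prod := by
          rw [prod_take_drop f (z + N1) w, prod_take_drop f (z + N1) w', h3, h4']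
        beta_reduce
        rw [a1])
    refine this.congr fun X => Iff.symm ?_
    constructor
    · rintro ⟨h1, h2⟩; exact ⟨fun Y hY => h1 Y ((hXX Y).1 hY), h2⟩
    · rintro ⟨h1, h2⟩; exact ⟨fun Y hY => h1 Y ((hXX Y).2 hY), h2⟩
  · intro X hX hb v
    obtain ⟨P, Q, rfl, hP, hQ⟩ := hOk.c1 hX (fun h => hb ⟨hX, h⟩) v
    obtain ⟨b', hb'⟩ := Option.isSome_iff_exists.1 hQ
    refine ⟨P, Q, rfl, hP, fun x P' hP' => ?_⟩
    obtain ⟨h1, h2⟩ := hOk.s1 hP' hb'
    obtain ⟨-, h4⟩ := hOk.s1 hP hb'
    rw [← hT, ← hT, h2, h4]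
    exact ⟨h1, rfl⟩
  · rintro X ⟨hX, hbX⟩ Y ⟨hY, hbY⟩ v
    obtain ⟨P, Q, he, hP, hQ⟩ := cc2 hOk hX hbX hY v
    obtain ⟨b', hb'⟩ := Option.isSome_iff_exists.1 hQ
    refine ⟨P, Q, he.symm, hP, fun x P' hP' => ?_⟩
    have hval2 : D.T (D.T v X) Y = b' := by
      rcases s2' hOk hP hb' with ⟨X', hX', -, Y', hY', e, ht⟩ | ⟨X', hX', hnb, hpre⟩
      · rw [← he] at e
        obtain ⟨rfl, rfl⟩ : X' = X ∧ Y' = Y := by
          have hXX' : X' = X := by
            rcases List.append_eq_append_iff.1 e with ⟨u, h1, h2⟩ | ⟨u, h1, h2⟩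
            · exact hC.2 X' hX' X hX ⟨u, h1.symm⟩
            · exact (hC.2 X hX X' hX' ⟨u, h1.symm⟩).symm
          subst hXX'
          exact ⟨rfl, List.append_cancel_left e⟩
        exact ht
      · exfalso
        rw [← he] at hpre
        have : X' = X := by
          rcases List.prefix_or_prefix_of_prefix hpre (List.prefix_append X Y) with h1 | h1
          · exact hC.2 X' hX' X hX h1
          · exact (hC.2 X hX X' hX' h1).symm
        rw [this] at hnb
        exact hnb hbX
    rcases s2' hOk hP' hb' with ⟨X', hX', hb1, Y', hY', e, ht⟩ | ⟨X', hX', hnb, hpre⟩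
    · left
      refine ⟨X', ⟨hX', hb1⟩, Y', hY', e, ?_⟩
      rw [← hT, ← hT, ← hT, ← hT, ht, hval2]
    · right
      exact ⟨X', hX', fun h => hnb h.2, hpre⟩

end Crest.Agent.R320.Fin_257
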