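import Mathlib
import Crest.Agent.R320.Ruler_265

/-!
Row 320: ruler and thinness for the bad set of 693's grid gadget (#13203 (3)(4)).
`C i = 2^i * X`, `X = 1 mod M`, `X = 4 * (c 0 + .. + c (m-1)) mod Gam^m`, `X > 2 N1`.
-/

set_option autoImplicit false

namespace Crest.Agent.R320.RulerG_799

open Finset

/-- the bad totals of the grid gadget -/
def BadZ (Ms : Finset ℕ) (G c Am : ℕ → ℕ) (m : ℕ) (T : ℤ) : Prop :=
  (∃ q ∈ Ms, (q : ℤ) ∣ T) ∨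
    ∃ j, 1 ≤ j ∧ j ≤ m ∧ ∃ k : ℤ, |T - (Am j : ℤ) - k * (G j : ℤ)| ≤ (c (j - 1) : ℤ)

/-- `s j = c 0 + .. + c (j-1)` -/
def sm (M Gam j : ℕ) : ℕ := ∑ l ∈ range j, M * Gam ^ l

theorem sm_lb {M Gam j : ℕ} (hj : 1 ≤ j) : M * Gam ^ (j - 1) ≤ sm M Gam j := by
  unfold sm
  exact Finset.single_le_sum (f := fun l => M * Gam ^ l) (fun _ _ => Nat.zero_le _)
    (Finset.mem_range.2 (by omega))

theorem sm_ub {M Gam : ℕ} (hG : 2 ≤ Gam) : ∀ j, sm M Gam (j + 1) ≤ 2 * (M * Gam ^ j)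
  | 0 => by simp [sm]; omega
  | j + 1 => by
    have h1 := sm_ub (M := M) hG j
    have h2 : sm M Gam (j + 1 + 1) = sm M Gam (j + 1) + M * Gam ^ (j + 1) := by
      unfold sm; rw [Finset.sum_range_succ]
    have h3 : 2 * (M * Gam ^ j) ≤ M * Gam ^ (j + 1) := by
      rw [pow_succ]
      have := Nat.mul_le_mul_left (M * Gam ^ j) hG
      nlinarith
    omega

theorem sm_cong {M Gam j m : ℕ} (hjm : j ≤ m) : ∃ t : ℕ, sm M Gam m = sm M Gam j + Gam ^ j * t := by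
  refine ⟨∑ l ∈ Ico j m, M * Gam ^ (l - j), ?_⟩
  unfold sm
  rw [← Finset.sum_range_add_sum_Ico _ hjm, Finset.mul_sum]
  congr 1
  refine Finset.sum_congr rfl fun l hl => ?_
  have h1 := (Finset.mem_Ico.1 hl).1
  have h2 : Gam ^ l = Gam ^ j * Gam ^ (l - j) := by rw [← pow_add]; congr 1; omega
  rw [h2]; ring

/-- the multiplier -/
theorem exists_X (M Gam m N1 : ℕ) (hM : 0 < M) (hGp : 0 < Gam) (hco : Nat.Coprime M Gam) :
    ∃ X : ℕ, 2 * N1 < X ∧ (∃ t : ℤ, (X : ℤ) = 1 + M * t) ∧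
      ∀ j ≤ m, ∃ t : ℤ, (X : ℤ) = 4 * (sm M Gam j : ℤ) + (Gam : ℤ) ^ j * t := by
  have hco' : Nat.Coprime M (Gam ^ m) := Nat.Coprime.pow_right m hco
  obtain ⟨x, hx1, hx2⟩ := Nat.chineseRemainder hco' 1 (4 * sm M Gam m)
  have hpos : 0 < M * Gam ^ m := Nat.mul_pos hM (pow_pos hGp m)
  refine ⟨x + (2 * N1 + 1) * (M * Gam ^ m), by nlinarith, ?_, ?_⟩
  · have h1 : (M : ℤ) ∣ (x : ℤ) - 1 := by
      have := (Nat.modEq_iff_dvd.1 hx1.symm)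
      simpa using this
    obtain ⟨t, ht⟩ := h1
    refine ⟨t + (2 * N1 + 1) * Gam ^ m, ?_⟩
    push_cast
    linear_combination ht
  · intro j hj
    obtain ⟨u, hu⟩ := sm_cong (M := M) (Gam := Gam) hj
    have h1 : ((Gam ^ m : ℕ) : ℤ) ∣ (x : ℤ) - (4 * sm M Gam m : ℕ) :=
      Nat.modEq_iff_dvd.1 hx2.symm
    obtain ⟨t, ht⟩ := h1
    have h2 : (Gam : ℤ) ^ m = (Gam : ℤ) ^ j * (Gam : ℤ) ^ (m - j) := by
      rw [← pow_add]; congr 1; omega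
    refine ⟨(Gam : ℤ) ^ (m - j) * t + 4 * u + (2 * N1 + 1) * M * (Gam : ℤ) ^ (m - j), ?_⟩
    have hu' : (sm M Gam m : ℤ) = sm M Gam j + (Gam : ℤ) ^ j * u := by exact_mod_cast hu
    push_cast at ht ⊢
    rw [h2] at ht ⊢
    linear_combination ht + 4 * hu'

/-- difference of two differences of powers of two -/
theorem delta_bound {K a b c d : ℕ} (ha : a < K) (hb : b < K) (hc : c < K) (hd : d < K) :
    |(2:ℤ) ^ a - 2 ^ b - (2 ^ c - 2 ^ d)| < 2 ^ (K + 1) := by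
  have h1 := Ruler265.diff_lt ha hb
  have h2 := Ruler265.diff_lt hc hd
  have h3 : (2:ℤ) ^ (K + 1) = 2 ^ K + 2 ^ K := by ring
  rw [abs_lt] at *
  constructor <;> linarith [h1.1, h1.2, h2.1, h2.2]

theorem one_pair_q {K X M q : ℕ} {t : ℤ} (hX : (X : ℤ) = 1 + M * t) (hqM : q ∣ M)
    (hq : 2 ^ (K + 2) ≤ q) {T : ℤ} {a b c d : ℕ} (ha : a < K) (hb : b < K) (hc : c < K)
    (hd : d < K) (hab : a ≠ b) (h1 : (q : ℤ) ∣ T + (2 ^ a * X - 2 ^ b * X))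
    (h2 : (q : ℤ) ∣ T + (2 ^ c * X - 2 ^ d * X)) : a = c ∧ b = d := by
  have h3 : (q : ℤ) ∣ X * ((2:ℤ) ^ a - 2 ^ b - (2 ^ c - 2 ^ d)) := by
    have e : (X : ℤ) * ((2:ℤ) ^ a - 2 ^ b - (2 ^ c - 2 ^ d)) =
        T + (2 ^ a * X - 2 ^ b * X) - (T + (2 ^ c * X - 2 ^ d * X)) := by ring
    rw [e]
    exact dvd_sub h1 h2
  have h4 : (q : ℤ) ∣ (M : ℤ) := by exact_mod_cast hqM
  have h5 : (q : ℤ) ∣ (2:ℤ) ^ a - 2 ^ b - (2 ^ c - 2 ^ d) := by
    have h6 : (q : ℤ) ∣ M * (t * ((2:ℤ) ^ a - 2 ^ b - (2 ^ c - 2 ^ d))) := Dvd.dvd.mul_right h4 _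
    have h7 := dvd_sub h3 h6
    have e : (2:ℤ) ^ a - 2 ^ b - (2 ^ c - 2 ^ d) =
        X * ((2:ℤ) ^ a - 2 ^ b - (2 ^ c - 2 ^ d)) -
          M * (t * ((2:ℤ) ^ a - 2 ^ b - (2 ^ c - 2 ^ d))) := by
      rw [hX]; ring
    rw [e]
    exact h7
  have h8 : (2:ℤ) ^ a - 2 ^ b - (2 ^ c - 2 ^ d) = 0 := by
    refine Int.eq_zero_of_abs_lt_dvd h5 ?_
    have h9 := delta_bound ha hb hc hd
    have h10 : ((2 ^ (K + 2) : ℕ) : ℤ) ≤ q := by exact_mod_cast hq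
    push_cast at h10
    have h11 : (2:ℤ) ^ (K + 1) ≤ 2 ^ (K + 2) := pow_le_pow_right₀ (by norm_num) (by omega)
    linarith
  exact Ruler265.pow_sidon hab (by linarith)

theorem one_pair_band {K X M Gam j : ℕ} {t : ℤ} (hM : 0 < M) (hj : 1 ≤ j)
    (hX : (X : ℤ) = 4 * (sm M Gam j : ℤ) + (Gam : ℤ) ^ j * t) (hG : 2 ^ (K + 6) * M ≤ Gam)
    {T k1 k2 A : ℤ} {a b c d : ℕ} (ha : a < K) (hb : b < K) (hc : c < K)
    (hd : d < K) (hab : a ≠ b)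
    (h1 : |T + (2 ^ a * X - 2 ^ b * X) - A - k1 * (Gam : ℤ) ^ j| ≤ (M : ℤ) * Gam ^ (j - 1))
    (h2 : |T + (2 ^ c * X - 2 ^ d * X) - A - k2 * (Gam : ℤ) ^ j| ≤ (M : ℤ) * Gam ^ (j - 1)) :
    a = c ∧ b = d := by
  set δ : ℤ := (2:ℤ) ^ a - 2 ^ b - (2 ^ c - 2 ^ d) with hδ
  have hGam2 : 2 ≤ Gam := by
    have : 2 ≤ 2 ^ (K + 6) * M := by
      have h0 : 2 ^ 1 ≤ 2 ^ (K + 6) := Nat.pow_le_pow_right (by norm_num) (by omega)
      nlinarith
    omega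
  obtain ⟨i, rfl⟩ : ∃ i, j = i + 1 := ⟨j - 1, by omega⟩
  rw [Nat.add_sub_cancel] at h1 h2
  set c' : ℤ := (M : ℤ) * Gam ^ i with hc'
  have hc'pos : 0 < c' := by
    have : (0:ℤ) < Gam := by exact_mod_cast (by omega : 0 < Gam)
    have hM' : (0:ℤ) < M := by exact_mod_cast hM
    positivity
  have hs1 : c' ≤ sm M Gam (i + 1) := by
    have := sm_lb (M := M) (Gam := Gam) (j := i + 1) (by omega)
    rw [Nat.add_sub_cancel] at this
    rw [hc']; exact_mod_cast this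
  have hs2 : (sm M Gam (i + 1) : ℤ) ≤ 2 * c' := by
    have := sm_ub (M := M) hGam2 i
    rw [hc']; exact_mod_cast this
  set s : ℤ := (sm M Gam (i + 1) : ℤ) with hs
  have hGc : 2 ^ (K + 6) * c' ≤ (Gam : ℤ) ^ (i + 1) := by
    have h3 : ((2 ^ (K + 6) * M : ℕ) : ℤ) ≤ Gam := by exact_mod_cast hG
    push_cast at h3
    have h4 : (0:ℤ) ≤ (Gam : ℤ) ^ i := by positivity
    have h5 := mul_le_mul_of_nonneg_right h3 h4
    calc (2:ℤ) ^ (K + 6) * c' = 2 ^ (K + 6) * (M : ℤ) * (Gam : ℤ) ^ i := by rw [hc']; ring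
      _ ≤ (Gam : ℤ) * (Gam : ℤ) ^ i := h5
      _ = (Gam : ℤ) ^ (i + 1) := by ring
  have hdb := delta_bound ha hb hc hd
  rw [← hδ] at hdb
  -- difference of the two inequalities
  have h3 : |4 * s * δ - ((k1 - k2) - t * δ) * (Gam : ℤ) ^ (i + 1)| ≤ 2 * c' := by
    have h4 : 4 * s * δ - ((k1 - k2) - t * δ) * (Gam : ℤ) ^ (i + 1) =
        (T + (2 ^ a * X - 2 ^ b * X) - A - k1 * (Gam : ℤ) ^ (i + 1)) -
          (T + (2 ^ c * X - 2 ^ d * X) - A - k2 * (Gam : ℤ) ^ (i + 1)) := by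
      rw [hδ]
      linear_combination (-((2:ℤ) ^ a - 2 ^ b - (2 ^ c - 2 ^ d))) * hX
    rw [h4]
    refine (abs_sub _ _).trans ?_
    linarith
  set κ : ℤ := (k1 - k2) - t * δ with hκ
  have hδK : |4 * s * δ| ≤ 2 ^ (K + 4) * c' := by
    rw [abs_mul, abs_of_nonneg (by linarith : (0:ℤ) ≤ 4 * s)]
    have h5 : |δ| ≤ 2 ^ (K + 1) := hdb.le
    have h6 : (2:ℤ) ^ (K + 4) = 8 * 2 ^ (K + 1) := by ring
    have h7 : (0:ℤ) ≤ |δ| := abs_nonneg _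
    rw [h6]
    nlinarith [mul_le_mul (by linarith : 4 * s ≤ 8 * c') h5 h7 (by linarith)]
  have hκ0 : κ = 0 := by
    by_contra hne
    have h5 : 1 ≤ |κ| := Int.one_le_abs hne
    have hG0 : (0:ℤ) < (Gam : ℤ) ^ (i + 1) := by
      have : (0:ℤ) < Gam := by exact_mod_cast (by omega : 0 < Gam)
      positivity
    have h6 : (Gam : ℤ) ^ (i + 1) ≤ |κ * (Gam : ℤ) ^ (i + 1)| := by
      rw [abs_mul, abs_of_pos hG0]
      nlinarith
    have h7 : |κ * (Gam : ℤ) ^ (i + 1)| ≤ |4 * s * δ| +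
        |4 * s * δ - κ * (Gam : ℤ) ^ (i + 1)| := by
      have h8 := abs_sub (4 * s * δ) (4 * s * δ - κ * (Gam : ℤ) ^ (i + 1))
      rwa [sub_sub_cancel] at h8
    have h8 : (2:ℤ) ^ (K + 6) = 4 * 2 ^ (K + 4) := by ring
    have h9 : (1:ℤ) ≤ 2 ^ (K + 4) := one_le_pow₀ (by norm_num)
    nlinarith
  rw [hκ0] at h3
  have h10 : |4 * s * δ| ≤ 2 * c' := by simpa using h3
  have h11 : δ = 0 := by
    by_contra hne
    have h5 : 1 ≤ |δ| := Int.one_le_abs hne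
    rw [abs_mul, abs_of_nonneg (by linarith : (0:ℤ) ≤ 4 * s)] at h10
    nlinarith
  exact Ruler265.pow_sidon hab (by rw [hδ] at h11; linarith)

open Classical in
/-- **ruler for the grid gadget**: `C i = 2^i * X`. -/
theorem ruler_grid (K M Gam m N1 : ℕ) (Ms : Finset ℕ) (Am : ℕ → ℕ) (hM : 0 < M)
    (hq : ∀ q ∈ Ms, q ∣ M ∧ 2 ^ (K + 2) ≤ q) (hco : Nat.Coprime M Gam)
    (hG : 2 ^ (K + 6) * M ≤ Gam) :
    ∃ C : ℕ → ℕ, StrictMono C ∧ (∀ i, 2 * N1 < C i) ∧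
      (∀ i j k l, i < K → j < K → k < K → l < K → i ≠ j →
        |((C i : ℤ) - C j) - ((C k : ℤ) - C l)| ≤ 2 * N1 → i = k ∧ j = l) ∧
      (∀ T : ℤ, ((range K ×ˢ range K).filter (fun p => p.1 ≠ p.2 ∧
        BadZ Ms (fun j => Gam ^ j) (fun j => M * Gam ^ j) Am m (T + C p.1 - C p.2))).card
          ≤ Ms.card + m) ∧
      (∀ T : ℤ, ((range K).filter (fun k => ∃ k' < K, k' ≠ k ∧
        BadZ Ms (fun j => Gam ^ j) (fun j => M * Gam ^ j) Am m (T + C k - C k'))).card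
          ≤ Ms.card + m) ∧
      (∀ T : ℤ, ((range K).filter (fun k => ∃ k' < K, k' ≠ k ∧
        BadZ Ms (fun j => Gam ^ j) (fun j => M * Gam ^ j) Am m (T + C k' - C k))).card
          ≤ Ms.card + m) := by
  have hGp : 0 < Gam := lt_of_lt_of_le (Nat.mul_pos (by positivity) hM) hG
  obtain ⟨X, hXN, ⟨t, ht⟩, hXj⟩ := exists_X M Gam m N1 hM hGp hco
  have hX0 : 0 < X := by omega
  have pairs : ∀ T : ℤ, ((range K ×ˢ range K).filter (fun p => p.1 ≠ p.2 ∧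
        BadZ Ms (fun j => Gam ^ j) (fun j => M * Gam ^ j) Am m
          (T + ((2 ^ p.1 * X : ℕ) : ℤ) - ((2 ^ p.2 * X : ℕ) : ℤ)))).card ≤ Ms.card + m := by
    intro T
    have hsub : ((range K ×ˢ range K).filter (fun p => p.1 ≠ p.2 ∧
        BadZ Ms (fun j => Gam ^ j) (fun j => M * Gam ^ j) Am m
          (T + ((2 ^ p.1 * X : ℕ) : ℤ) - ((2 ^ p.2 * X : ℕ) : ℤ)))) ⊆
        (Ms.biUnion fun q => (range K ×ˢ range K).filter (fun p => p.1 ≠ p.2 ∧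
          (q : ℤ) ∣ T + (2 ^ p.1 * X - 2 ^ p.2 * X))) ∪
        ((Icc 1 m).biUnion fun j => (range K ×ˢ range K).filter (fun p => p.1 ≠ p.2 ∧
          ∃ k : ℤ, |T + (2 ^ p.1 * X - 2 ^ p.2 * X) - (Am j : ℤ) - k * (Gam : ℤ) ^ j| ≤
            (M : ℤ) * Gam ^ (j - 1))) := by
      intro p hp
      obtain ⟨h1, h2, h3⟩ := Finset.mem_filter.1 hp
      have e : T + ((2 ^ p.1 * X : ℕ) : ℤ) - ((2 ^ p.2 * X : ℕ) : ℤ) =
          T + (2 ^ p.1 * X - 2 ^ p.2 * X) := by push_cast; ring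
      rw [e] at h3
      rcases h3 with ⟨q, hq1, hq2⟩ | ⟨j, hj1, hj2, k, hk⟩
      · exact Finset.mem_union_left _ (Finset.mem_biUnion.2
          ⟨q, hq1, Finset.mem_filter.2 ⟨h1, h2, hq2⟩⟩)
      · refine Finset.mem_union_right _ (Finset.mem_biUnion.2
          ⟨j, Finset.mem_Icc.2 ⟨hj1, hj2⟩, Finset.mem_filter.2 ⟨h1, h2, k, ?_⟩⟩)
        push_cast at hk
        exact hk
    refine (Finset.card_le_card hsub).trans ((Finset.card_union_le _ _).trans ?_)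
    refine Nat.add_le_add ?_ ?_
    · refine (Finset.card_biUnion_le).trans ?_
      refine (Finset.sum_le_card_nsmul _ _ 1 ?_).trans (by simp)
      intro q hqM
      refine Finset.card_le_one.2 ?_
      rintro ⟨a, b⟩ hp ⟨c, d⟩ hp'
      simp only [Finset.mem_filter, Finset.mem_product, Finset.mem_range] at hp hp'
      obtain ⟨⟨ha, hb⟩, hab, h1⟩ := hp
      obtain ⟨⟨hc, hd⟩, -, h2⟩ := hp'
      obtain ⟨r1, r2⟩ := one_pair_q ht (hq q hqM).1 (hq q hqM).2 ha hb hc hd hab h1 h2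
      rw [r1, r2]
    · refine (Finset.card_biUnion_le).trans ?_
      refine (Finset.sum_le_card_nsmul _ _ 1 ?_).trans (by simp)
      intro j hj
      obtain ⟨hj1, hj2⟩ := Finset.mem_Icc.1 hj
      obtain ⟨t', ht'⟩ := hXj j hj2
      refine Finset.card_le_one.2 ?_
      rintro ⟨a, b⟩ hp ⟨c, d⟩ hp'
      simp only [Finset.mem_filter, Finset.mem_product, Finset.mem_range] at hp hp'
      obtain ⟨⟨ha, hb⟩, hab, k1, h1⟩ := hp
      obtain ⟨⟨hc, hd⟩, -, k2, h2⟩ := hp'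
      obtain ⟨r1, r2⟩ := one_pair_band hM hj1 ht' hG ha hb hc hd hab h1 h2
      rw [r1, r2]
  refine ⟨fun i => 2 ^ i * X, ?_, ?_, ?_, pairs, ?_, ?_⟩
  · intro i j hij
    exact Nat.mul_lt_mul_of_pos_right (Nat.pow_lt_pow_right (by norm_num) hij) hX0
  · intro i
    have : 1 ≤ 2 ^ i := Nat.one_le_two_pow
    show 2 * N1 < 2 ^ i * X
    nlinarith
  · intro i j k l hi hj hk hl hij h
    have e : (((2 ^ i * X : ℕ) : ℤ) - ((2 ^ j * X : ℕ) : ℤ)) -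
        (((2 ^ k * X : ℕ) : ℤ) - ((2 ^ l * X : ℕ) : ℤ)) =
        X * ((2:ℤ) ^ i - 2 ^ j - (2 ^ k - 2 ^ l)) := by push_cast; ring
    beta_reduce at h
    rw [e, abs_mul] at h
    have hδ : (2:ℤ) ^ i - 2 ^ j - (2 ^ k - 2 ^ l) = 0 := by
      by_contra hne
      have h5 : 1 ≤ |(2:ℤ) ^ i - 2 ^ j - (2 ^ k - 2 ^ l)| := Int.one_le_abs hne
      have h6 : (2 * N1 : ℤ) < X := by exact_mod_cast hXN
      have h7 : |(X : ℤ)| = X := abs_of_nonneg (by positivity)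
      rw [h7] at h
      nlinarith
    exact Ruler265.pow_sidon hij (by linarith)
  · intro T
    refine le_trans ?_ (pairs T)
    refine (Finset.card_le_card ?_).trans (Finset.card_image_le (f := Prod.fst))
    intro k hk
    obtain ⟨h1, k', hk', hne, hb⟩ := Finset.mem_filter.1 hk
    refine Finset.mem_image.2 ⟨(k, k'), Finset.mem_filter.2 ⟨?_, hne.symm, hb⟩, rfl⟩
    exact Finset.mem_product.2 ⟨h1, Finset.mem_range.2 hk'⟩
  · intro T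
    refine le_trans ?_ (pairs T)
    refine (Finset.card_le_card ?_).trans (Finset.card_image_le (f := Prod.snd))
    intro k hk
    obtain ⟨h1, k', hk', hne, hb⟩ := Finset.mem_filter.1 hk
    refine Finset.mem_image.2 ⟨(k', k), Finset.mem_filter.2 ⟨?_, hne, hb⟩, rfl⟩
    exact Finset.mem_product.2 ⟨Finset.mem_range.2 hk', h1⟩

end Crest.Agent.R320.RulerG_799
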