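import Crest.Agent.R320.Join_271
import Crest.Agent.R320.Grid_899
import Crest.Agent.R320.RulerG_799
import Crest.Agent.R320.ExactR_237
import Crest.Agent.R320.Two_621

set_option autoImplicit false

namespace Crest.Agent.R320.Fin_271

open Crest.RegLang Crest.Agent.R320.Hk_851 Crest.Agent.R320.Sc2n_937 Crest.Agent.R320.Core1_922

/-- bad lengths of the grid gadget -/
def BadT {k : ℕ} (q : Fin k → ℕ) (κ m : ℕ) (T : ℕ) : Prop :=
  ¬ ((∀ j, ¬ q j ∣ T) ∧ ∀ j, 1 ≤ j → j ≤ m →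
    (∏ j, q j) * Grid_899.G κ (j - 1) ≤ (T - Grid_899.Am (∏ j, q j) κ j) % Grid_899.G κ j ∧
    (T - Grid_899.Am (∏ j, q j) κ j) % Grid_899.G κ j + (∏ j, q j) * Grid_899.G κ (j - 1) ≤
      Grid_899.G κ j)

theorem badZ_of_badT {k : ℕ} (q : Fin k → ℕ) (κ m n : ℕ)
    (hn : ∀ j, j ≤ m → Grid_899.Am (∏ j, q j) κ j ≤ n) (h : BadT q κ m n) :
    RulerG_799.BadZ (Finset.univ.image q) (fun j => (2 ^ κ) ^ j)
      (fun j => (∏ j, q j) * (2 ^ κ) ^ j) (Grid_899.Am (∏ j, q j) κ) m (n : ℤ) := by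
  classical
  unfold BadT at h
  rw [not_and_or] at h
  rcases h with h | h
  · left
    push Not at h
    obtain ⟨j, hj⟩ := h
    exact ⟨q j, Finset.mem_image_of_mem _ (Finset.mem_univ _), by exact_mod_cast hj⟩
  · right
    push Not at h
    obtain ⟨j, h1, h2, h3⟩ := h
    refine ⟨j, h1, h2, ?_⟩
    have hA := hn j h2
    set d := n - Grid_899.Am (∏ j, q j) κ j with hd
    have hdz : (n : ℤ) - (Grid_899.Am (∏ j, q j) κ j : ℤ) = (d : ℤ) := by
      rw [hd]; push_cast [Nat.cast_sub hA]; ring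
    have hG : (2 ^ κ) ^ j = Grid_899.G κ j := by rw [Grid_899.G, pow_mul]
    have hG' : (2 ^ κ) ^ (j - 1) = Grid_899.G κ (j - 1) := by rw [Grid_899.G, pow_mul]
    simp only [hG, hG', hdz]
    have hdm := Nat.div_add_mod d (Grid_899.G κ j)
    have hlt := Nat.mod_lt d (Grid_899.G_pos (κ := κ) j)
    by_cases h4 : (∏ j, q j) * Grid_899.G κ (j - 1) ≤ d % Grid_899.G κ j
    · have h5 := h3 h4
      refine ⟨(d / Grid_899.G κ j : ℕ) + 1, ?_⟩
      have e : (d : ℤ) - ((d / Grid_899.G κ j : ℕ) + 1) * (Grid_899.G κ j : ℤ) =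
          ((d % Grid_899.G κ j : ℕ) : ℤ) - (Grid_899.G κ j : ℤ) := by
        have : (d : ℤ) = (Grid_899.G κ j : ℤ) * ((d / Grid_899.G κ j : ℕ) : ℤ) +
          ((d % Grid_899.G κ j : ℕ) : ℤ) := by exact_mod_cast hdm.symm
        rw [this]
        push_cast
        generalize ((d : ℤ) / (Grid_899.G κ j : ℤ)) = a
        generalize ((d : ℤ) % (Grid_899.G κ j : ℤ)) = b
        ring
      rw [e, abs_le]
      constructor <;> omega
    · refine ⟨(d / Grid_899.G κ j : ℕ), ?_⟩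
      have e : (d : ℤ) - ((d / Grid_899.G κ j : ℕ) : ℤ) * (Grid_899.G κ j : ℤ) =
          ((d % Grid_899.G κ j : ℕ) : ℤ) := by
        have : (d : ℤ) = (Grid_899.G κ j : ℤ) * ((d / Grid_899.G κ j : ℕ) : ℤ) +
          ((d % Grid_899.G κ j : ℕ) : ℤ) := by exact_mod_cast hdm.symm
        linarith
      rw [e, abs_le]
      constructor <;> omega

theorem badT_per {k : ℕ} (q : Fin k → ℕ) (κ m T T' : ℕ)
    (hT : Grid_899.Am (∏ j, q j) κ (m + 1) ≤ T) (hT' : Grid_899.Am (∏ j, q j) κ (m + 1) ≤ T')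
    (h : T % ((∏ j, q j) * Grid_899.G κ m) = T' % ((∏ j, q j) * Grid_899.G κ m)) :
    BadT q κ m T ↔ BadT q κ m T' := by
  have h0 : T ≡ T' [MOD (∏ j, q j) * Grid_899.G κ m] := h
  have h1 : ∀ j, (q j ∣ T ↔ q j ∣ T') := by
    intro j
    have : T ≡ T' [MOD q j] :=
      h0.of_dvd ((Finset.dvd_prod_of_mem q (Finset.mem_univ j)).trans (Dvd.intro _ rfl))
    exact this.dvd_iff dvd_rfl
  have h2 : ∀ j, j ≤ m → (T - Grid_899.Am (∏ j, q j) κ j) % Grid_899.G κ j =
      (T' - Grid_899.Am (∏ j, q j) κ j) % Grid_899.G κ j := by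
    intro j hj
    have hA : Grid_899.Am (∏ j, q j) κ j ≤ Grid_899.Am (∏ j, q j) κ (m + 1) :=
      Grid_899.Am_mono (by omega)
    have : T ≡ T' [MOD Grid_899.G κ j] :=
      h0.of_dvd ((Grid_899.G_dvd hj).trans (Dvd.intro_left _ rfl))
    have h3 : (T - Grid_899.Am (∏ j, q j) κ j) + Grid_899.Am (∏ j, q j) κ j ≡
        (T' - Grid_899.Am (∏ j, q j) κ j) + Grid_899.Am (∏ j, q j) κ j [MOD Grid_899.G κ j] := by
      rw [Nat.sub_add_cancel (by omega), Nat.sub_add_cancel (by omega)]; exact this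
    exact Nat.ModEq.add_right_cancel' _ h3
  unfold BadT
  rw [not_iff_not]
  constructor
  · rintro ⟨h3, h4⟩
    refine ⟨fun j => by rw [← h1]; exact h3 j, fun j hj hjm => ?_⟩
    rw [← h2 j hjm]; exact h4 j hj hjm
  · rintro ⟨h3, h4⟩
    refine ⟨fun j => by rw [h1]; exact h3 j, fun j hj hjm => ?_⟩
    rw [h2 j hjm]; exact h4 j hj hjm

theorem fin (α : Type) [Finite α] (S : Type) [Monoid S] [Finite S] (φ : α → S) (s : S) :
    HL 3 ({w | (w.map φ).prod = s} : Language α) := by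
  classical
  haveI : Fintype S := Fintype.ofFinite S
  obtain ⟨k, m, Hg⟩ := Grid_899.grid_gadget_reg S (Two_621.Tok S) Two_621.act
  obtain ⟨K, HK⟩ := ExactR_237.exact_gadget α S (Two_621.Tok S) φ Two_621.act (2 * (k + m) + 2)
  -- moduli
  let q : Fin k → ℕ := fun j => Nat.fermatNumber (K + 2 + j)
  have hqodd : ∀ j, Odd (q j) := fun j => Nat.odd_fermatNumber _
  have hqcop : Pairwise (fun i j => Nat.Coprime (q i) (q j)) := by
    intro i j hij
    exact Nat.coprime_fermatNumber_fermatNumber (by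
      intro h; apply hij; apply Fin.ext; omega)
  have hqbig : ∀ j, 2 ^ (K + 2) ≤ q j := by
    intro j
    have h1 : K + 2 + (j : ℕ) < 2 ^ (K + 2 + (j : ℕ)) := Nat.lt_two_pow_self
    have h2 : 2 ^ (K + 2) ≤ 2 ^ (2 ^ (K + 2 + (j : ℕ))) :=
      Nat.pow_le_pow_right (by norm_num) (by omega)
    show 2 ^ (K + 2) ≤ 2 ^ (2 ^ (K + 2 + (j : ℕ))) + 1
    omega
  set M : ℕ := ∏ j, q j with hM
  have hMpos : 0 < M := Finset.prod_pos fun j _ => (hqodd j).pos
  have hModd : Odd M := by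
    rw [hM]
    exact Finset.prod_induction q Odd (fun a b ha hb => ha.mul hb) odd_one fun j _ => hqodd j
  let κ : ℕ := K + 6 + M
  have hκ : 2 ^ (K + 6) * M ≤ 2 ^ κ := by
    have h1 : M ≤ 2 ^ M := Nat.lt_two_pow_self.le
    calc 2 ^ (K + 6) * M ≤ 2 ^ (K + 6) * 2 ^ M := Nat.mul_le_mul_left _ h1
      _ = 2 ^ κ := by rw [← pow_add]
  have hcop : Nat.Coprime M (2 ^ κ) :=
    Nat.Coprime.pow_right _ (Nat.coprime_two_right.2 hModd)
  set N1 : ℕ := Grid_899.Am M κ m + 1 with hN1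
  obtain ⟨c, hcm, -, hcr, -, -, hct⟩ := RulerG_799.ruler_grid K M (2 ^ κ) m N1
    (Finset.univ.image q) (Grid_899.Am M κ) hMpos
    (fun x hx => by
      obtain ⟨j, -, rfl⟩ := Finset.mem_image.1 hx
      exact ⟨Finset.dvd_prod_of_mem q (Finset.mem_univ j), hqbig j⟩) hcop hκ
  have hcard : (Finset.univ.image q).card ≤ k := by
    refine Finset.card_image_le.trans ?_
    simp
  obtain ⟨lam2, rho2, nu2, hs2, hc2⟩ := HK c (fun i j hij _ => hcm hij)
  set p0 : ℕ := c K with hp0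
  have hcp : ∀ k, k < K → c k ≤ p0 := fun k hk => (hcm hk).le
  obtain ⟨lam, rho, nu1, g1, g2, g3, g4, g5⟩ := Hg q hqodd hqcop κ α (fun u => (u.map φ).prod)
    (fun u v => by rw [List.map_append, List.prod_append])
  set A0 : ℕ := Grid_899.Am M κ (m + 1) with hA0
  obtain ⟨n, G, B, Wo, hLW, hsep, -, -, hBB⟩ :=
    LWallAll_922.walls_all_left α (2 * p0 + 2 * N1) (by omega)
  let g : Geo α :=
    { Wo := Wo
      n := n
      z := p0 + N1 + (2 * p0 + 2 * A0 + n)
      p0 := p0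
      q0 := 2 * p0 + 2 * A0 + n
      N1 := N1
      loc := hLW.app
      hz := rfl
      hq := by omega
      hN := by omega
      hqp := by omega }
  have hAmle : ∀ j, j ≤ m → Grid_899.Am M κ j ≤ A0 := fun j hj => Grid_899.Am_mono (by omega)
  refine Join_271.join (B := B) (W := 2 * p0 + 2 * N1) Two_621.act
    (fun a b s => Two_621.act_add a b s) (fun v => Two_621.act_one v)
    (fun v s t => (Two_621.act_mul v s t).symm) (fun s t h => Two_621.act_faithful h) φ g hLW hBB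
    lam rho nu1 ?_ ?_ (BadT q κ m) ?_ A0 (M * Grid_899.G κ m) ?_ ?_ ?_ K c lam2
    (fun k Q => rho2 k Q 1) (fun u => nu2 u 1) hcp ?_ (k + m) ?_ ?_ ?_ ?_ s
  · intro P v h
    have h1 : P.length < Grid_899.Am M κ m := (g1 P v h).1
    show P.length ≤ N1
    omega
  · intro P Q v b h1 h2
    exact g3 P Q v b h1 h2
  · intro u hu hb v
    have hu' : N1 + (2 * p0 + 2 * A0 + n) ≤ u.length := hu
    unfold BadT at hb
    rw [not_not] at hb
    exact g4 u (by omega) hb.1 hb.2 v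
  · exact Nat.mul_pos hMpos (Grid_899.G_pos _)
  · intro Q Q' h1 h2 h3 h4 h5
    exact (g5 Q Q' h1 h2 h3 h4 h5).2
  · intro T T' h1 h2 h3
    exact badT_per q κ m T T' h1 h2 h3
  · intro k hk P Q v b h1 h2 h3
    have := hs2 k hk P Q 1 v b h1 h2 h3
    rw [mul_one] at this
    exact this
  · intro u v hu
    obtain ⟨I, h1, h2⟩ := hc2 u 1 v (fun k hk => by rw [hu]; exact hcp k hk)
    exact ⟨I, h1, h2⟩
  · intro P Q h1 h2 h3
    have hQ : 0 < Q.length := List.length_pos_of_ne_nil h3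
    have := hsep (P ++ Q) P.length (P ++ Q).length (by rw [List.length_append]; omega) le_rfl
      (by rw [List.take_left]; exact h1) (by rw [List.take_length]; exact h2)
    rw [List.length_append] at this
    show 2 * p0 + 2 * N1 < Q.length
    omega
  · intro a a' b b' ha ha' hb hb' hne _ h1 h2
    have h1' : c a + c b' < c b + c a' + 2 * N1 := h1
    have h2' : c b + c a' < c a + c b' + 2 * N1 := h2
    refine (hcr a a' b b' ha ha' hb hb' (Ne.symm hne) ?_).1
    rw [abs_le]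
    constructor <;> omega
  · intro τ hτ J hJ
    have hτ' : p0 + N1 + (2 * p0 + 2 * A0 + n) ≤ τ + p0 := hτ
    refine le_trans ?_ ((hct ((τ : ℤ) - p0)).trans (Nat.add_le_add_right hcard m))
    refine Finset.card_le_card fun x hx => ?_
    obtain ⟨h1, x', h2, h3, h4⟩ := hJ x hx
    rw [Finset.mem_filter, Finset.mem_range]
    refine ⟨h1, x', h2, h3, ?_⟩
    have hb := badZ_of_badT q κ m (τ + c x' - c x - p0)
      (fun j hj => by
        have := hAmle j hj
        have := hcp x h1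
        show Grid_899.Am M κ j ≤ _
        omega) h4
    have hcx := hcp x h1
    have e : ((τ + c x' - c x - p0 : ℕ) : ℤ) = (τ : ℤ) - p0 + c x' - c x := by omega
    rw [e] at hb
    exact hb


end Crest.Agent.R320.Fin_271
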